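import Crest.Agent.R281.Defs_273
import Crest.Agent.R273.ChowM_313

/-!
# R281 (S0424), ALG-FORM, part 1 (helper867): the coefficients of a holomorphic symplectic form with
respect to the coordinates of a projective embedding are sections of line bundles

`F k` (`k : κ`) sections of `O`, `j0 : κ`, `T : Fin n → κ`:
* `DF F i x`       : the matrix `∂_a F_k` in the chart `i`;
* `Qm F j0 T i x`  : `F_{j0} ∂_a F_{T t} - F_{T t} ∂_a F_{j0}` (`= F_{j0}^2 d (F_{T t} / F_{j0})`);
* `dS σ F j0 T`    : `(det Q)^2 / det σ`, a section of `O ^ (4 n)`;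
* `cS σ F j0 T a b`: `(adj Qᵀ σ adj Q) a b / det σ`, sections of `O ^ (4 (n - 1))`;
* `dS_mul`         : `dS • σ = Qᵀ cS Q`;
* `exists_dS_ne`   : if the `F k` have no common zero and are immersive, the `dS` have no common zero.
-/

set_option autoImplicit false
set_option linter.unusedSectionVars false

open Set Filter Topology Complex
open scoped ContDiff Matrix ComplexConjugate

namespace Crest.Agent.R281.AF_867

open Crest.Agent.R275 Crest.Agent.R275.Geo Crest.Agent.R275.Core144
open Crest.Agent.R273.SerA_945 Crest.Agent.R273.Defs_333 Crest.Agent.R273.SteinC_794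
open Crest.Agent.R273.Chow_313 Crest.Agent.R281.Defs_273

noncomputable section

variable {n : ℕ} {M : Type} [TopologicalSpace M] {A : Atl n M} {O : LB A} {κ : Type*}

/-! ### derivatives -/

/-- the partial derivatives of a family of sections in the chart `i` -/
def DF (F : κ → Fn A) (i : A.ι) (x : M) : Matrix κ (Fin n) ℂ :=
  Matrix.of fun k a => df A i (F k i) x (EuclideanSpace.single a 1)

theorem DF_apply (F : κ → Fn A) (i : A.ι) (x : M) (k : κ) (a : Fin n) :
    DF F i x k a = df A i (F k i) x (EuclideanSpace.single a 1) := rfl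

theorem eq_sum_single (v : Cn n) : v = ∑ b, v b • (EuclideanSpace.single b (1 : ℂ) : Cn n) := by
  ext d
  simp [Finset.sum_apply, Pi.single_apply]

theorem df_dJ {i j : A.ι} {x : M} (f : M → ℂ) (a : Fin n) :
    df A j f x (dJ A i j x (EuclideanSpace.single a 1)) =
      ∑ b, df A j f x (EuclideanSpace.single b 1) * Jm A i j x b a := by
  have h : dJ A i j x (EuclideanSpace.single a 1) =
      ∑ b, Jm A i j x b a • (EuclideanSpace.single b (1 : ℂ) : Cn n) := by
    conv_lhs => rw [eq_sum_single (dJ A i j x (EuclideanSpace.single a 1))]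
    rfl
  rw [h, map_sum]
  exact Finset.sum_congr rfl fun b _ => by rw [map_smul, smul_eq_mul, mul_comm]

theorem df_eq_sum (i : A.ι) (f : M → ℂ) (x : M) (v : Cn n) :
    df A i f x v = ∑ b, v b * df A i f x (EuclideanSpace.single b 1) := by
  conv_lhs => rw [eq_sum_single v]
  rw [map_sum]
  exact Finset.sum_congr rfl fun b _ => by rw [map_smul, smul_eq_mul]

/-- product rule -/
theorem df_mul {i : A.ι} {V : Set M} (hV : IsOpen V) {f g : M → ℂ} (hf : HolAt A i V f)
    (hg : HolAt A i V g) {x : M} (hx : x ∈ (A.e i).source) (hxV : x ∈ V) (v : Cn n) :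
    df A i (fun y => f y * g y) x v = f x * df A i g x v + g x * df A i f x v := by
  have h := fderiv_fun_mul (hf.diffAt hV hx hxV) (hg.diffAt hV hx hxV)
  unfold df
  rw [h]
  simp only [_root_.add_apply, _root_.smul_apply, smul_eq_mul, (A.e i).left_inv hx]

theorem df_congr {i : A.ι} {f g : M → ℂ} {x : M} (hx : x ∈ (A.e i).source)
    (h : f =ᶠ[𝓝 x] g) : df A i f x = df A i g x := by
  have h1 : (fun w => f ((A.e i).symm w)) =ᶠ[𝓝 (A.e i x)] fun w => g ((A.e i).symm w) := by
    have h2 : Tendsto (A.e i).symm (𝓝 (A.e i x)) (𝓝 x) := by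
      have h3 := (A.e i).continuousAt_symm ((A.e i).map_source hx)
      rwa [ContinuousAt, (A.e i).left_inv hx] at h3
    exact h2.eventually h
  unfold df
  rw [h1.fderiv_eq]

/-- the derivatives of sections under a change of chart -/
theorem DF_tr {F : κ → Fn A} (hF : ∀ k, IsHS O univ (F k)) {i j : A.ι} {x : M}
    (hx : x ∈ (A.e i).source ∩ (A.e j).source) (k : κ) (a : Fin n) :
    DF F i x k a = O.g i j x * ∑ b, DF F j x k b * Jm A i j x b a +
      F k j x * df A i (O.g i j) x (EuclideanSpace.single a 1) := by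
  have hV : IsOpen (univ ∩ (A.e j).source : Set M) := isOpen_univ.inter (A.e j).open_source
  have h1 : F k i =ᶠ[𝓝 x] fun y => O.g i j y * F k j y := by
    filter_upwards [((A.e i).open_source.inter (A.e j).open_source).mem_nhds hx] with y hy
    exact (hF k).tr i j y hy (mem_univ y)
  have hg : HolAt A i (univ ∩ (A.e j).source) (O.g i j) := (O.hol i j).mono inter_subset_right
  have hf : HolAt A i (univ ∩ (A.e j).source) (F k j) := ((hF k).hol j).chg isOpen_univ i
  rw [DF_apply, df_congr hx.1 h1, df_mul hV hg hf hx.1 ⟨mem_univ x, hx.2⟩,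
    df_chg isOpen_univ ((hF k).hol j) hx.1 hx.2 (mem_univ x), df_dJ]
  rfl

theorem holAt_df {i : A.ι} {f : M → ℂ} (hf : HolAt A i univ f) (v : Cn n) :
    HolAt A i univ fun x => df A i f x v := by
  have ho : IsOpen ((A.e i).target ∩ (A.e i).symm ⁻¹' univ) := isOpen_ti isOpen_univ
  have h1 : DifferentiableOn ℂ (fderiv ℂ (fun w => f ((A.e i).symm w)))
      ((A.e i).target ∩ (A.e i).symm ⁻¹' univ) :=
    ((Crest.Agent.R266.SCV.analyticOnNhd_of_differentiableOn ho hf).fderiv).differentiableOn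
  have h2 : DifferentiableOn ℂ (fun z => fderiv ℂ (fun w => f ((A.e i).symm w)) z v)
      ((A.e i).target ∩ (A.e i).symm ⁻¹' univ) := h1.clm_apply (differentiableOn_const _)
  refine DifferentiableOn.congr h2 fun z hz => ?_
  simp only [df, (A.e i).right_inv hz.1]

/-! ### the matrices `Q` -/

/-- `F_{j0} ∂_a F_k - F_k ∂_a F_{j0}` -/
def qv (F : κ → Fn A) (j0 k : κ) (i : A.ι) (x : M) (a : Fin n) : ℂ :=
  F j0 i x * DF F i x k a - F k i x * DF F i x j0 a

theorem qv_tr {F : κ → Fn A} (hF : ∀ k, IsHS O univ (F k)) {i j : A.ι} {x : M}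
    (hx : x ∈ (A.e i).source ∩ (A.e j).source) (j0 k : κ) (a : Fin n) :
    qv F j0 k i x a = O.g i j x ^ 2 * ∑ b, qv F j0 k j x b * Jm A i j x b a := by
  unfold qv
  rw [DF_tr hF hx k a, DF_tr hF hx j0 a, (hF j0).tr i j x hx (mem_univ x),
    (hF k).tr i j x hx (mem_univ x)]
  simp only [sub_mul, Finset.sum_sub_distrib, mul_assoc, ← Finset.mul_sum]
  ring

theorem holAt_qv {F : κ → Fn A} (hF : ∀ k, IsHS O univ (F k)) (j0 k : κ) (i : A.ι) (a : Fin n) :
    HolAt A i univ fun x => qv F j0 k i x a :=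
  (((hF j0).hol i).mul (holAt_df ((hF k).hol i) _)).sub
    (((hF k).hol i).mul (holAt_df ((hF j0).hol i) _))

/-- the Jacobian matrix of the affine coordinates `F_{T t} / F_{j0}` (times `F_{j0}^2`) -/
def Qm (F : κ → Fn A) (j0 : κ) (T : Fin n → κ) (i : A.ι) (x : M) : Matrix (Fin n) (Fin n) ℂ :=
  Matrix.of fun t a => qv F j0 (T t) i x a

theorem Qm_tr {F : κ → Fn A} (hF : ∀ k, IsHS O univ (F k)) {i j : A.ι} {x : M}
    (hx : x ∈ (A.e i).source ∩ (A.e j).source) (j0 : κ) (T : Fin n → κ) :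
    Qm F j0 T i x = O.g i j x ^ 2 • (Qm F j0 T j x * Jm A i j x) := by
  ext t a
  rw [Matrix.smul_apply, Matrix.mul_apply, smul_eq_mul]
  exact qv_tr hF hx j0 (T t) a

theorem holAt_det {i : A.ι} {B : M → Matrix (Fin n) (Fin n) ℂ}
    (h : ∀ a b, HolAt A i univ fun x => B x a b) : HolAt A i univ fun x => (B x).det := by
  simp only [Matrix.det_apply']
  exact HolAt.sum _ fun s _ => (HolAt.prod _ fun a _ => h _ _).const_mul _

theorem holAt_adj {i : A.ι} {B : M → Matrix (Fin n) (Fin n) ℂ}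
    (h : ∀ a b, HolAt A i univ fun x => B x a b) (a b : Fin n) :
    HolAt A i univ fun x => (B x).adjugate a b := by
  simp only [Matrix.adjugate_apply]
  refine holAt_det fun c d => ?_
  by_cases hc : c = b
  · subst hc
    simp only [Matrix.updateRow_self]
    exact holAt_const _
  · simp only [Matrix.updateRow_ne hc]
    exact h c d

theorem holAt_mmul {i : A.ι} {B C : M → Matrix (Fin n) (Fin n) ℂ}
    (hB : ∀ a b, HolAt A i univ fun x => B x a b) (hC : ∀ a b, HolAt A i univ fun x => C x a b)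
    (a b : Fin n) : HolAt A i univ fun x => (B x * C x) a b := by
  simp only [Matrix.mul_apply]
  exact HolAt.sum _ fun c _ => (hB _ _).mul (hC _ _)

/-! ### the sections `dS`, `cS` -/

variable (σ : HSymp A) (F : κ → Fn A) (j0 : κ) (T : Fin n → κ)

open Classical in
/-- `(det Q)^2 / det σ` -/
def dS : Fn A := fun i x =>
  if x ∈ (A.e i).source then (Qm F j0 T i x).det ^ 2 / (σ.s i x).det else 0

/-- the numerator matrix -/
def cM (i : A.ι) (x : M) : Matrix (Fin n) (Fin n) ℂ :=
  (Qm F j0 T i x).adjugateᵀ * σ.s i x * (Qm F j0 T i x).adjugate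

open Classical in
/-- `(adj Qᵀ σ adj Q) a b / det σ` -/
def cS (a b : Fin n) : Fn A := fun i x =>
  if x ∈ (A.e i).source then cM σ F j0 T i x a b / (σ.s i x).det else 0

variable {σ F j0 T}

theorem dS_apply {i : A.ι} {x : M} (hx : x ∈ (A.e i).source) :
    dS σ F j0 T i x = (Qm F j0 T i x).det ^ 2 / (σ.s i x).det := if_pos hx

theorem cS_apply {a b : Fin n} {i : A.ι} {x : M} (hx : x ∈ (A.e i).source) :
    cS σ F j0 T a b i x = cM σ F j0 T i x a b / (σ.s i x).det := if_pos hx

theorem det_Jm_ne {i j : A.ι} {x : M} (hx : x ∈ (A.e i).source ∩ (A.e j).source) :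
    (Jm A i j x).det ≠ 0 := by
  have h := J_mul i j i (x := x) ⟨hx, hx.1⟩
  rw [J_self i hx.1] at h
  intro h0
  have h1 := congrArg Matrix.det h
  rw [Matrix.det_mul, h0, mul_zero, Matrix.det_one] at h1
  exact zero_ne_one h1

theorem det_s_tr (σ : HSymp A) {i j : A.ι} {x : M} (hx : x ∈ (A.e i).source ∩ (A.e j).source) :
    (σ.s i x).det = (Jm A i j x).det ^ 2 * (σ.s j x).det := by
  rw [σ.tr i j x hx, Matrix.det_mul, Matrix.det_mul, Matrix.det_transpose]
  ring

theorem isHS_dS (hF : ∀ k, IsHS O univ (F k)) : IsHS (O ^ (4 * n)) univ (dS σ F j0 T) where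
  hol i := by
    have h1 : HolAt A i univ fun x => (Qm F j0 T i x).det ^ 2 :=
      (holAt_det fun a b => holAt_qv hF j0 (T a) i b).pow 2
    have h2 : HolAt A i univ fun x => ((σ.s i x).det)⁻¹ :=
      (holAt_det fun a b => σ.hol i a b).inv fun x hx _ => σ.nd i x hx
    exact (h1.mul h2).congr fun x hx _ => by rw [dS_apply hx, div_eq_mul_inv]
  off i x hx := if_neg hx
  tr i j x hx _ := by
    rw [dS_apply hx.1, dS_apply hx.2, pow_g, Qm_tr hF hx, Matrix.det_smul, Matrix.det_mul,
      det_s_tr σ hx, Fintype.card_fin]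
    have h1 := det_Jm_ne hx
    have h2 := σ.nd j x hx.2
    field_simp
    ring

theorem cM_tr (hF : ∀ k, IsHS O univ (F k)) {i j : A.ι} {x : M}
    (hx : x ∈ (A.e i).source ∩ (A.e j).source) :
    cM σ F j0 T i x = (O.g i j x ^ (4 * (n - 1)) * (Jm A i j x).det ^ 2) • cM σ F j0 T j x := by
  unfold cM
  rw [Qm_tr hF hx, Matrix.adjugate_smul, Matrix.adjugate_mul_distrib, σ.tr i j x hx,
    Fintype.card_fin, Matrix.transpose_smul, Matrix.transpose_mul]
  set J := Jm A i j x
  set Q := Qm F j0 T j x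
  set S := σ.s j x
  set g := O.g i j x
  have e1 : (Q.adjugateᵀ * J.adjugateᵀ) * (Jᵀ * S * J) * (J.adjugate * Q.adjugate) =
      Q.adjugateᵀ * (J * J.adjugate)ᵀ * S * (J * J.adjugate) * Q.adjugate := by
    rw [Matrix.transpose_mul]
    simp only [Matrix.mul_assoc]
  rw [Matrix.smul_mul, Matrix.smul_mul, Matrix.mul_smul, smul_smul, e1, Matrix.mul_adjugate,
    Matrix.transpose_smul, Matrix.transpose_one]
  simp only [Matrix.mul_smul, Matrix.smul_mul, Matrix.mul_one, smul_smul]
  congr 1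
  rw [← pow_mul, ← pow_add]
  ring_nf

theorem isHS_cS (hF : ∀ k, IsHS O univ (F k)) (a b : Fin n) :
    IsHS (O ^ (4 * (n - 1))) univ (cS σ F j0 T a b) where
  hol i := by
    have hQ : ∀ a b, HolAt A i univ fun x => Qm F j0 T i x a b := fun a b =>
      holAt_qv hF j0 (T a) i b
    have h1 : HolAt A i univ fun x => cM σ F j0 T i x a b :=
      holAt_mmul (B := fun x => (Qm F j0 T i x).adjugateᵀ * σ.s i x)
        (holAt_mmul (B := fun x => (Qm F j0 T i x).adjugateᵀ) (fun a b => holAt_adj hQ b a)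
          fun a b => σ.hol i a b) (fun a b => holAt_adj hQ a b) a b
    have h2 : HolAt A i univ fun x => ((σ.s i x).det)⁻¹ :=
      (holAt_det fun a b => σ.hol i a b).inv fun x hx _ => σ.nd i x hx
    exact (h1.mul h2).congr fun x hx _ => by rw [cS_apply hx, div_eq_mul_inv]
  off i x hx := if_neg hx
  tr i j x hx _ := by
    rw [cS_apply hx.1, cS_apply hx.2, pow_g, cM_tr hF hx, det_s_tr σ hx, Matrix.smul_apply,
      smul_eq_mul]
    have h1 := det_Jm_ne hx
    have h2 := σ.nd j x hx.2
    field_simp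

/-- `dS • σ = Qᵀ cS Q` -/
theorem dS_mul {i : A.ι} {x : M} (hx : x ∈ (A.e i).source) :
    dS σ F j0 T i x • σ.s i x =
      (Qm F j0 T i x)ᵀ * (Matrix.of fun a b => cS σ F j0 T a b i x) * Qm F j0 T i x := by
  have h1 : (Matrix.of fun a b => cS σ F j0 T a b i x) =
      ((σ.s i x).det)⁻¹ • cM σ F j0 T i x := by
    ext a b
    rw [Matrix.of_apply, cS_apply hx, Matrix.smul_apply, smul_eq_mul, div_eq_inv_mul]
  rw [h1, dS_apply hx]
  unfold cM
  set Q := Qm F j0 T i x
  set S := σ.s i x
  have e1 : Qᵀ * (Q.adjugateᵀ * S * Q.adjugate) * Q =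
      (Q.adjugate * Q)ᵀ * S * (Q.adjugate * Q) := by
    rw [Matrix.transpose_mul]
    simp only [Matrix.mul_assoc]
  rw [Matrix.mul_smul, Matrix.smul_mul, e1, Matrix.adjugate_mul, Matrix.transpose_smul,
    Matrix.transpose_one, Matrix.smul_mul, Matrix.one_mul, Matrix.mul_smul, Matrix.mul_one,
    smul_smul, smul_smul]
  congr 1
  rw [div_eq_mul_inv]
  ring

/-- the family is immersive -/
def Immersive (F : κ → Fn A) : Prop := ∀ i, ∀ x ∈ (A.e i).source, ∀ v : Cn n,
  (∃ c : ℂ, ∀ k, df A i (F k i) x v = c * F k i x) → v = 0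

theorem exists_minor {ρ : κ → Fin n → ℂ} (h : ∀ v : Fin n → ℂ, (∀ k, ∑ a, ρ k a * v a = 0) → v = 0) :
    ∃ T : Fin n → κ, (Matrix.of fun t a => ρ (T t) a : Matrix (Fin n) (Fin n) ℂ).det ≠ 0 := by
  classical
  have hsp : Submodule.span ℂ (range ρ) = ⊤ := by
    by_contra hne
    obtain ⟨f, hf0, hf⟩ := Submodule.exists_le_ker_of_lt_top _ (lt_top_iff_ne_top.2 hne)
    refine hf0 ?_
    have h1 : (fun a => f (Pi.single a 1)) = 0 := h _ fun k => by
      have h2 : f (ρ k) = 0 := hf (Submodule.subset_span ⟨k, rfl⟩)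
      have h3 : ρ k = ∑ a, ρ k a • (Pi.single a (1 : ℂ) : Fin n → ℂ) := by
        funext b
        simp [Finset.sum_apply, Pi.single_apply]
      rw [h3, map_sum] at h2
      rw [← h2]
      exact Finset.sum_congr rfl fun a _ => by rw [map_smul, smul_eq_mul]
    refine LinearMap.pi_ext' fun a => LinearMap.ext_ring ?_
    simpa using congrFun h1 a
  obtain ⟨κ', a, ha, hs, hli⟩ := exists_linearIndependent' ℂ ρ
  rw [hsp] at hs
  let b : Module.Basis κ' ℂ (Fin n → ℂ) := Module.Basis.mk hli hs.ge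
  have : Fintype κ' := FiniteDimensional.fintypeBasisIndex b
  have hc : Fintype.card κ' = n := by
    rw [← Module.finrank_eq_card_basis b, Module.finrank_pi, Fintype.card_fin]
  let e : Fin n ≃ κ' := (Fintype.equivFinOfCardEq hc).symm
  refine ⟨fun t => a (e t), ?_⟩
  have h1 : LinearIndependent ℂ (fun t => ρ (a (e t))) := hli.comp e e.injective
  have h2 : LinearIndependent ℂ
      (Matrix.of fun t c => ρ (a (e t)) c : Matrix (Fin n) (Fin n) ℂ).row := h1
  rw [Matrix.linearIndependent_rows_iff_isUnit, Matrix.isUnit_iff_isUnit_det] at h2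
  exact h2.ne_zero

theorem exists_dS_ne (hne : ∀ i, ∀ x ∈ (A.e i).source, ∃ k, F k i x ≠ 0) (him : Immersive F)
    {i : A.ι} {x : M} (hx : x ∈ (A.e i).source) : ∃ j0 T, dS σ F j0 T i x ≠ 0 := by
  obtain ⟨j0, hj0⟩ := hne i x hx
  obtain ⟨T, hT⟩ := exists_minor (ρ := fun k a => qv F j0 k i x a) fun v hv => by
    have h1 : (WithLp.toLp 2 v : Cn n) = 0 := by
      refine him i x hx _ ⟨df A i (F j0 i) x (WithLp.toLp 2 v) / F j0 i x, fun k => ?_⟩
      have h2 := hv k
      have h3 : ∑ a, qv F j0 k i x a * v a = F j0 i x * df A i (F k i) x (WithLp.toLp 2 v) -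
          F k i x * df A i (F j0 i) x (WithLp.toLp 2 v) := by
        rw [df_eq_sum i (F k i), df_eq_sum i (F j0 i), Finset.mul_sum, Finset.mul_sum,
          ← Finset.sum_sub_distrib]
        refine Finset.sum_congr rfl fun a _ => ?_
        unfold qv
        rw [DF_apply, DF_apply]
        ring
      rw [h3, sub_eq_zero] at h2
      field_simp
      linear_combination h2
    funext a
    exact congrArg (fun w : Cn n => w a) h1
  refine ⟨j0, T, ?_⟩
  rw [dS_apply hx]
  exact div_ne_zero (pow_ne_zero 2 hT) (σ.nd i x hx)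

end

end Crest.Agent.R281.AF_867
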