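import Crest.Agent.R273.ChowQ_313
import Crest.Agent.R260.Zt3_313
import Mathlib.RingTheory.Nullstellensatz

/-!
# R281 (S0424), ALG-FORM, part 2 (helper867): sections of large powers are polynomials

* `surj_large` : for an injective `D : FD O` (projective embedding by sections of `O`) and `m` large,
  every section of `O ^ m` is a homogeneous polynomial of degree `m` in the `D.F k`;
* `surj_proj`  : the same for `P : ProjD A`.
-/

set_option autoImplicit false
set_option linter.unusedSectionVars false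

open Set Filter Topology Complex
open scoped ContDiff Matrix ComplexConjugate

namespace Crest.Agent.R281.AF_867

open Crest.Agent.R275 Crest.Agent.R275.Geo Crest.Agent.R275.Core144
open Crest.Agent.R273.SerA_945 Crest.Agent.R273.SerB_945 Crest.Agent.R273.SerC_945
open Crest.Agent.R273.SerE_945 Crest.Agent.R273.TD3_733 Crest.Agent.R273.FS_333
open Crest.Agent.R273.Defs_333 Crest.Agent.R273.SteinC_794
open Crest.Agent.R273.Chow_313 Crest.Agent.R260.Zt_313

noncomputable section

/-! ### polynomials -/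

section Poly

variable {κ : Type*}

theorem aeval_eval (v : κ → ℂ) (p : MvPolynomial κ ℂ) :
    MvPolynomial.aeval v p = MvPolynomial.eval v p := by
  rw [← MvPolynomial.coe_aeval_eq_eval]
  rfl

theorem eval_hcomp {κ : Type*} [Fintype κ] {q : MvPolynomial κ ℂ} {u : κ → ℂ} {d : ℕ} {s : ℂ}
    (h : ∀ l : ℂ, MvPolynomial.eval (fun k => l * u k) q = l ^ d * s) :
    MvPolynomial.eval u (MvPolynomial.homogeneousComponent d q) = s := by
  classical
  set N := q.totalDegree + 1 with hN
  have h1 : ∀ l : ℂ, ∑ e ∈ Finset.range N,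
      l ^ e * MvPolynomial.eval u (MvPolynomial.homogeneousComponent e q) = l ^ d * s := by
    intro l
    rw [← h l]
    conv_rhs => rw [← MvPolynomial.sum_homogeneousComponent q]
    rw [map_sum]
    refine Finset.sum_congr rfl fun e _ => ?_
    have h2 := eval_smul (MvPolynomial.homogeneousComponent_isHomogeneous e q) l u
    exact h2.symm
  let P : Polynomial ℂ := ∑ e ∈ Finset.range N,
    Polynomial.C (MvPolynomial.eval u (MvPolynomial.homogeneousComponent e q)) * Polynomial.X ^ e
  have h2 : P = Polynomial.C s * Polynomial.X ^ d := by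
    refine Polynomial.funext fun l => ?_
    rw [Polynomial.eval_finsetSum]
    simp only [Polynomial.eval_mul, Polynomial.eval_C, Polynomial.eval_pow, Polynomial.eval_X]
    rw [mul_comm s, ← h1 l]
    exact Finset.sum_congr rfl fun e _ => mul_comm _ _
  have h3 := congrArg (fun Q : Polynomial ℂ => Q.coeff d) h2
  simp only [P, Polynomial.finsetSum_coeff, Polynomial.coeff_C_mul, Polynomial.coeff_X_pow,
    if_true, mul_ite, mul_one, mul_zero] at h3
  rw [Finset.sum_ite_eq] at h3
  by_cases hd : d ∈ Finset.range N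
  · rw [if_pos hd] at h3
    exact h3
  · rw [if_neg hd] at h3
    rw [MvPolynomial.homogeneousComponent_eq_zero, map_zero]
    · exact h3
    · rw [Finset.mem_range] at hd
      omega

/-- homogeneous polynomials of large degree belong to an ideal containing powers of the
variables -/
theorem mem_of_large {κ : Type*} [Fintype κ] [Nonempty κ] {I : Ideal (MvPolynomial κ ℂ)} {p : ℕ}
    (h : ∀ k, (MvPolynomial.X k : MvPolynomial κ ℂ) ^ p ∈ I) {d : ℕ} (hd : Fintype.card κ * p ≤ d)
    {q : MvPolynomial κ ℂ} (hq : q.IsHomogeneous d) : q ∈ I := by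
  classical
  rw [q.as_sum]
  refine I.sum_mem fun e he => ?_
  have h1 : ∑ k, e k = d := by
    have h2 := hq (MvPolynomial.mem_support_iff.1 he)
    rw [← h2, Finsupp.weight_apply, Finsupp.sum_fintype]
    · simp
    · simp
  obtain ⟨k, hk⟩ : ∃ k, p ≤ e k := by
    by_contra hcon
    push Not at hcon
    rcases Nat.eq_zero_or_pos p with hp | hp
    · exact absurd (hcon (Classical.arbitrary κ)) (by omega)
    have h3 : ∑ k, e k ≤ ∑ _k : κ, (p - 1) := Finset.sum_le_sum fun k _ => by
      have := hcon k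
      omega
    rw [Finset.sum_const, Finset.card_univ, smul_eq_mul, h1] at h3
    have h4 : 0 < Fintype.card κ := Fintype.card_pos
    have h5 : Fintype.card κ * (p - 1) < Fintype.card κ * p :=
      Nat.mul_lt_mul_of_pos_left (by omega) h4
    omega
  have h2 : e = Finsupp.single k p + (e - Finsupp.single k p) := by
    rw [add_tsub_cancel_of_le]
    intro k'
    by_cases hkk : k = k'
    · subst hkk
      rw [Finsupp.single_eq_same]
      exact hk
    · rw [Finsupp.single_eq_of_ne' hkk]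
      exact Nat.zero_le _
  rw [h2, show MvPolynomial.monomial (Finsupp.single k p + (e - Finsupp.single k p))
      (MvPolynomial.coeff (Finsupp.single k p + (e - Finsupp.single k p)) q) =
      (MvPolynomial.X k : MvPolynomial κ ℂ) ^ p * MvPolynomial.monomial (e - Finsupp.single k p)
      (MvPolynomial.coeff (Finsupp.single k p + (e - Finsupp.single k p)) q) by
    rw [MvPolynomial.X_pow_eq_monomial, MvPolynomial.monomial_mul, one_mul]]
  exact I.mul_mem_right _ (h k)

/-- Cayley–Hamilton trick -/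
theorem det_mem_range {R S : Type*} [CommRing R] [CommRing S] (Φ : R →+* S) {m : Type*} [Fintype m]
    [DecidableEq m] (T : Matrix m m R) (B : m → S) (c : m → R)
    (h : ∀ a, ∑ a', Φ (T a a') * B a' = Φ (c a)) (a : m) : ∃ q, Φ T.det * B a = Φ q := by
  refine ⟨∑ a', T.adjugate a a' * c a', ?_⟩
  have h1 : ∀ a'', ∑ a', Φ (T.adjugate a a') * Φ (T a' a'') =
      if a = a'' then Φ T.det else 0 := by
    intro a''
    have h2 := congrFun (congrFun (Matrix.adjugate_mul T) a) a''
    rw [Matrix.mul_apply, Matrix.smul_apply, Matrix.one_apply] at h2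
    have h3 := congrArg Φ h2
    rw [map_sum] at h3
    simp only [map_mul] at h3
    rw [h3]
    split_ifs <;> simp
  rw [map_sum]
  simp only [map_mul]
  rw [Finset.sum_congr rfl fun a' _ => by rw [← h a', Finset.mul_sum], Finset.sum_comm]
  rw [Finset.sum_congr rfl fun a'' _ => by
    rw [Finset.sum_congr rfl fun a' _ => (mul_assoc _ _ _).symm, ← Finset.sum_mul, h1 a'']]
  simp

end Poly

variable {n : ℕ} {M : Type} [TopologicalSpace M] {A : Atl n M} {O : LB A} {r : ℕ}

/-- the points of the cone -/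
abbrev Cone (A : Atl n M) : Type := {p : A.ι × M × ℂ // p.2.1 ∈ (A.e p.1).source}

/-- evaluation on the cone -/
def Ph (F : Fin r → Fn A) : MvPolynomial (Fin r) ℂ →ₐ[ℂ] (Cone A → ℂ) :=
  MvPolynomial.aeval fun k c => c.1.2.2 * F k c.1.1 c.1.2.1

theorem Ph_apply (F : Fin r → Fn A) (p : MvPolynomial (Fin r) ℂ) (c : Cone A) :
    Ph F p c = MvPolynomial.eval (fun k => c.1.2.2 * F k c.1.1 c.1.2.1) p := by
  have h1 : (Pi.evalAlgHom ℂ (fun _ : Cone A => ℂ) c).comp (Ph F) =
      MvPolynomial.aeval (fun k => c.1.2.2 * F k c.1.1 c.1.2.1) := by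
    ext k
    simp [Ph]
  have h2 := DFunLike.congr_fun h1 p
  rw [aeval_eval] at h2
  exact h2

/-- a section as a function on the cone -/
def Bm (m : ℕ) (t : Fn A) : Cone A → ℂ := fun c => c.1.2.2 ^ m * t c.1.1 c.1.2.1

/-- the conductor -/
def cond (F : Fin r → Fn A) (m : ℕ) {d : ℕ} (b : Fin d → Fn A) :
    Ideal (MvPolynomial (Fin r) ℂ) where
  carrier := {h | ∀ a, ∃ q, Ph F h * Bm m (b a) = Ph F q}
  add_mem' := by
    intro h h' hh hh' a
    obtain ⟨q, hq⟩ := hh a
    obtain ⟨q', hq'⟩ := hh' a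
    exact ⟨q + q', by rw [map_add, map_add, add_mul, hq, hq']⟩
  zero_mem' a := ⟨0, by rw [map_zero, zero_mul]⟩
  smul_mem' := by
    intro g h hh a
    obtain ⟨q, hq⟩ := hh a
    exact ⟨g * q, by rw [smul_eq_mul, map_mul, map_mul, mul_assoc, hq]⟩

theorem mem_cond {F : Fin r → Fn A} {m d : ℕ} {b : Fin d → Fn A} {h : MvPolynomial (Fin r) ℂ} :
    h ∈ cond F m b ↔ ∀ a, ∃ q, Ph F h * Bm m (b a) = Ph F q := Iff.rfl

section Main

variable [T2Space M] [ConnectedSpace M]

theorem exists_local (D : FD O) (inj : ∀ x y, Rel D.F x y → x = y) {m0 m : ℕ} (hm : m0 + n ≤ m)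
    (hV : ∀ m, m0 ≤ m → ∀ q, 1 ≤ q → Solv (O ^ m) q) {d : ℕ}
    (b : Module.Basis (Fin d) ℂ (HS (O ^ m) univ)) {i0 : A.ι} {x0 : M}
    (hi0 : x0 ∈ (A.e i0).source) :
    ∃ h : MvPolynomial (Fin (D.N + 1)) ℂ, h.IsHomogeneous d ∧
      MvPolynomial.eval (fun k => D.F k i0 x0) h ≠ 0 ∧
      h ∈ cond D.F m fun a => (b a : Fn A) := by
  obtain ⟨k0, hk0⟩ := D.ne i0 x0 hi0
  have hbm : ∀ a, IsHS (O ^ m) univ (b a : Fn A) := fun a => (b a).2
  -- division
  have hkey : ∀ a, ∃ (c : ℂ) (W : Fin (D.N + 1) → Fin d → ℂ), ∀ i, ∀ x ∈ (A.e i).source,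
      D.F k0 i x * (b a : Fn A) i x = c * D.F k0 i x ^ (m + 1) +
        ∑ k, (D.F k0 i0 x0 * D.F k i x - D.F k i0 x0 * D.F k0 i x) *
          ∑ a', W k a' * (b a' : Fn A) i x := by
    intro a
    have hs1 : IsHS (O ^ (m + 1)) univ (D.F k0 * (b a : Fn A)) := by
      rw [pow_succ']
      exact (D.hs k0).mul (hbm a)
    have hs2 : IsHS (O ^ (m + 1)) univ (D.F k0 ^ (m + 1)) := isHS_pow (D.hs k0) m
    set c := (b a : Fn A) i0 x0 / D.F k0 i0 x0 ^ m with hc
    have hs : IsHS (1 * O ^ (m + 1)) univ (D.F k0 * (b a : Fn A) + (-c) • D.F k0 ^ (m + 1)) := by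
      rw [one_mul]
      exact hs1.add (hs2.smul (-c))
    obtain ⟨w, hw, hsw, -⟩ := div_at D inj 1 hm (fun m hm q hq => by rw [one_mul]; exact hV m hm q hq)
      hi0 hk0 hs (by
        simp only [Pi.add_apply, Pi.mul_apply, Pi.smul_apply, Pi.pow_apply, smul_eq_mul, hc]
        field_simp
        ring)
    have hw' : ∀ k, w k ∈ HS (O ^ m) univ := fun k => by
      have := hw k
      rwa [one_mul] at this
    refine ⟨c, fun k a' => b.repr ⟨w k, hw' k⟩ a', fun i x hx => ?_⟩
    have h3 : ∀ k, w k i x = ∑ a', b.repr ⟨w k, hw' k⟩ a' * (b a' : Fn A) i x := by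
      intro k
      have h3 := congrArg Subtype.val (b.sum_repr ⟨w k, hw' k⟩)
      rw [AddSubmonoidClass.coe_finsetSum] at h3
      have h4 := congrFun (congrFun h3 i) x
      rw [Finset.sum_apply, Finset.sum_apply] at h4
      exact h4.symm
    have h5 := congrFun (congrFun hsw i) x
    rw [Finset.sum_apply, Finset.sum_apply] at h5
    simp only [Pi.add_apply, Pi.mul_apply, Pi.smul_apply, Pi.pow_apply, smul_eq_mul,
      FD.lform_apply] at h5
    rw [Finset.sum_congr rfl fun k _ => by rw [← h3 k], ← h5]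
    ring
  choose c W hcW using hkey
  set v : Fin (D.N + 1) → ℂ := fun k => D.F k i0 x0 with hv
  refine ⟨(TM v k0 W).det, ?_, ?_, ?_⟩
  · have := det_homog (TM v k0 W) (TM_homog v k0 W)
    rwa [Fintype.card_fin] at this
  · rw [eval_det_self]
    exact pow_ne_zero _ hk0
  · intro a
    refine det_mem_range (Ph D.F).toRingHom (TM v k0 W) (fun a => Bm m (b a : Fn A))
      (fun a => MvPolynomial.C (c a) * MvPolynomial.X k0 ^ (m + 1)) (fun a => ?_) a
    funext p
    obtain ⟨⟨i, x, l⟩, hx⟩ := p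
    rw [Finset.sum_apply]
    have e1 : ∀ q : MvPolynomial (Fin (D.N + 1)) ℂ, (Ph D.F).toRingHom q ⟨⟨i, x, l⟩, hx⟩ =
        MvPolynomial.eval (fun k => l * D.F k i x) q := fun q => Ph_apply _ _ _
    rw [e1, map_mul, map_pow, MvPolynomial.eval_C, MvPolynomial.eval_X]
    have e2 : ∀ a', ((Ph D.F).toRingHom (TM v k0 W a a') * Bm m (b a' : Fn A)) ⟨⟨i, x, l⟩, hx⟩ =
        ((if a = a' then l * D.F k0 i x else 0) - ∑ k, W a k a' *
          (v k0 * (l * D.F k i x) - v k * (l * D.F k0 i x))) * (l ^ m * (b a' : Fn A) i x) := by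
      intro a'
      rw [Pi.mul_apply, e1, eval_TM]
      rfl
    rw [Finset.sum_congr rfl fun a' _ => e2 a']
    have e3 := hcW a i x hx
    simp only [sub_mul, Finset.sum_sub_distrib, ite_mul, zero_mul, Finset.sum_ite_eq,
      Finset.mem_univ, if_true]
    have e4 : ∑ a', (∑ k, W a k a' * (v k0 * (l * D.F k i x) - v k * (l * D.F k0 i x))) *
        (l ^ m * (b a' : Fn A) i x) = l ^ (m + 1) * ∑ k, (D.F k0 i0 x0 * D.F k i x -
          D.F k i0 x0 * D.F k0 i x) * ∑ a', W a k a' * (b a' : Fn A) i x := by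
      simp only [Finset.sum_mul, Finset.mul_sum]
      rw [Finset.sum_comm]
      refine Finset.sum_congr rfl fun k _ => Finset.sum_congr rfl fun a' _ => ?_
      rw [hv]
      ring
    rw [e4]
    linear_combination l ^ (m + 1) * e3

variable [CompactSpace M] [Finite A.ι]

/-- **sections of large powers are polynomials** -/
theorem surj_large (D : FD O) (inj : ∀ x y, Rel D.F x y → x = y)
    (hfd : ∀ k : ℕ, FiniteDimensional ℂ (HS (O ^ k) univ)) {m0 : ℕ}
    (hV : ∀ m, m0 ≤ m → ∀ q, 1 ≤ q → Solv (O ^ m) q) :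
    ∃ m1 : ℕ, ∀ m, m1 ≤ m → ∀ s : Fn A, IsHS (O ^ m) univ s →
      ∃ p : MvPolynomial (Fin (D.N + 1)) ℂ, p.IsHomogeneous m ∧
        ∀ i, ∀ x ∈ (A.e i).source, s i x = MvPolynomial.eval (fun k => D.F k i x) p := by
  classical
  set m := m0 + n with hm
  have := hfd m
  let d := Module.finrank ℂ (HS (O ^ m) univ)
  let b : Module.Basis (Fin d) ℂ (HS (O ^ m) univ) := Module.finBasis ℂ _
  set I := cond D.F m (fun a => (b a : Fn A)) with hI
  have hz : ∀ v ∈ MvPolynomial.zeroLocus ℂ I, v = 0 := by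
    intro v hv
    rw [MvPolynomial.mem_zeroLocus_iff] at hv
    by_contra hv0
    obtain ⟨i, x, hx, c, hc, hvc⟩ := chow_vec D.hs D.ne hfd hV v hv0 fun e p hp h => by
      have h1 : p ∈ I := by
        intro a
        refine ⟨0, ?_⟩
        have h2 : Ph D.F p = 0 := by
          funext q
          obtain ⟨⟨i, x, l⟩, hx⟩ := q
          rw [Ph_apply]
          have h3 := eval_smul hp l (fun k => D.F k i x)
          have h4 : (l • fun k => D.F k i x) = fun k => l * D.F k i x := rfl
          rw [h4, h i x hx, mul_zero] at h3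
          exact h3
        rw [h2, zero_mul, map_zero]
      have := hv p h1
      rwa [aeval_eval] at this
    obtain ⟨h, hh, hh0, hhI⟩ := exists_local D inj (le_refl _) hV b hx
    have h1 := hv h hhI
    rw [aeval_eval, hvc] at h1
    have h2 := eval_smul hh c (fun k => D.F k i x)
    exact (mul_ne_zero (pow_ne_zero d hc) hh0) (h2.symm.trans h1)
  have hX : ∀ k : Fin (D.N + 1), ∃ p : ℕ, (MvPolynomial.X k : MvPolynomial (Fin (D.N + 1)) ℂ) ^ p ∈ I := by
    intro k
    have h1 : (MvPolynomial.X k : MvPolynomial (Fin (D.N + 1)) ℂ) ∈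
        MvPolynomial.vanishingIdeal ℂ (MvPolynomial.zeroLocus ℂ I) := by
      rw [MvPolynomial.mem_vanishingIdeal_iff]
      intro v hv
      rw [hz v hv, MvPolynomial.aeval_X, Pi.zero_apply]
    rw [MvPolynomial.vanishingIdeal_zeroLocus_eq_radical] at h1
    exact h1
  choose p hp using hX
  set p' := ∑ k, p k with hp'
  have hXp : ∀ k : Fin (D.N + 1), (MvPolynomial.X k : MvPolynomial (Fin (D.N + 1)) ℂ) ^ p' ∈ I := by
    intro k
    obtain ⟨e, he⟩ := Nat.exists_eq_add_of_le (Finset.single_le_sum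
      (fun k _ => Nat.zero_le (p k)) (Finset.mem_univ k))
    rw [hp', he, pow_add]
    exact I.mul_mem_right _ (hp k)
  refine ⟨m + (D.N + 1) * p', fun m' hm' s hs => ?_⟩
  obtain ⟨e, rfl⟩ := Nat.exists_eq_add_of_le (show m ≤ m' by
    exact (Nat.le_add_right _ _).trans hm')
  obtain ⟨P, hP, hPs⟩ := exists_poly_coef D.hs D.ne (hm ▸ le_refl (m0 + n)) hV b e s hs
  have h1 : ∀ a, ∃ q, Ph D.F (P a) * Bm m (b a : Fn A) = Ph D.F q := fun a =>
    (mem_of_large hXp (by rw [Fintype.card_fin]; omega) (hP a) : P a ∈ I) a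
  choose q hq using h1
  refine ⟨MvPolynomial.homogeneousComponent (m + e) (∑ a, q a),
    MvPolynomial.homogeneousComponent_isHomogeneous _ _, fun i x hx => ?_⟩
  refine (eval_hcomp fun l => ?_).symm
  have h2 : ∀ a, MvPolynomial.eval (fun k => l * D.F k i x) (q a) =
      l ^ e * MvPolynomial.eval (fun k => D.F k i x) (P a) * (l ^ m * (b a : Fn A) i x) := by
    intro a
    have h3 := congrFun (hq a) ⟨⟨i, x, l⟩, hx⟩
    rw [Pi.mul_apply, Ph_apply, Ph_apply] at h3
    rw [← h3]
    have h4 := eval_smul (hP a) l (fun k => D.F k i x)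
    have h5 : (l • fun k => D.F k i x) = fun k => l * D.F k i x := rfl
    rw [h5] at h4
    rw [h4]
    rfl
  rw [map_sum, Finset.sum_congr rfl fun a _ => h2 a, hPs i x hx, Finset.mul_sum]
  refine Finset.sum_congr rfl fun a _ => ?_
  rw [pow_add]
  ring

/-- **Serre's surjectivity** for a projective embedding -/
theorem surj_proj (PA : Part A) (hD : D2 A) (P : ProjD A) :
    ∃ m1 : ℕ, ∀ m, m1 ≤ m → ∀ s : Fn A, IsHS (lb P ^ m) univ s →
      ∃ p : MvPolynomial (Fin (P.N + 1)) ℂ, p.IsHomogeneous m ∧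
        ∀ i, ∀ x ∈ (A.e i).source, s i x = MvPolynomial.eval (fun k => sec P k i x) p := by
  obtain ⟨m0, hm0⟩ := solv_large PA hD (fs_pos P) (1 : LB A)
  exact surj_large (ofProj P) (fun x y h => (rel_sec_iff P).1 h) (fun k => fd_HS PA _)
    (m0 := m0) fun m hm q hq => by
      have := hm0 m hm q hq
      rwa [one_mul] at this

end Main

end

end Crest.Agent.R281.AF_867
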