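import Crest.Agent.R281.AF1_867
import Crest.Agent.R281.AF2_867

/-!
# R281 (S0424), ALG-FORM, part 3 (helper867): a holomorphic symplectic form on a projective manifold
is a polynomial form

`exists_form` : `D : FD O` a projective embedding, `σ : HSymp A`, `t` a section of `O ^ m`, `m`
large: `t • σ = (dF)ᵀ s(F) (dF)` with an antisymmetric matrix `s` of homogeneous polynomials of
degree `m - 2` such that `∑ l, s k l * X l = 0` identically.
-/

set_option autoImplicit false
set_option linter.unusedSectionVars false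

open Set Filter Topology Complex
open scoped ContDiff Matrix ComplexConjugate

namespace Crest.Agent.R281.AF_867

open Crest.Agent.R275 Crest.Agent.R275.Geo Crest.Agent.R275.Core144
open Crest.Agent.R273.SerA_945 Crest.Agent.R273.SerB_945 Crest.Agent.R273.SerC_945
open Crest.Agent.R273.SerE_945 Crest.Agent.R273.TD3_733 Crest.Agent.R273.FS_333
open Crest.Agent.R273.Defs_333 Crest.Agent.R273.SteinC_794 Crest.Agent.R273.KosGen_313
open Crest.Agent.R273.Chow_313 Crest.Agent.R260.Zt_313 Crest.Agent.R281.Defs_273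

noncomputable section

/-! ### the matrices `θ` -/

section Theta

variable {κ R : Type*} [Fintype κ] [DecidableEq κ] [CommRing R] {n : ℕ}

/-- `x_{j0} dx_{T t} - x_{T t} dx_{j0}` -/
def th (j0 : κ) (T : Fin n → κ) : Matrix (Fin n) κ (MvPolynomial κ R) :=
  Matrix.of fun t k => (if k = T t then MvPolynomial.X j0 else 0) -
    (if k = j0 then MvPolynomial.X (T t) else 0)

theorem th_homog (j0 : κ) (T : Fin n → κ) (t : Fin n) (k : κ) :
    (th (R := R) j0 T t k).IsHomogeneous 1 := by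
  unfold th
  rw [Matrix.of_apply]
  refine MvPolynomial.IsHomogeneous.sub ?_ ?_
  · split_ifs
    · exact MvPolynomial.isHomogeneous_X R _
    · exact MvPolynomial.isHomogeneous_zero _ _ _
  · split_ifs
    · exact MvPolynomial.isHomogeneous_X R _
    · exact MvPolynomial.isHomogeneous_zero _ _ _

theorem th_X (j0 : κ) (T : Fin n → κ) (t : Fin n) :
    ∑ k, th (R := R) j0 T t k * MvPolynomial.X k = 0 := by
  unfold th
  simp only [Matrix.of_apply, sub_mul, ite_mul, zero_mul, Finset.sum_sub_distrib,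
    Finset.sum_ite_eq', Finset.mem_univ, if_true]
  ring

/-- `θᵀ P θ` -/
def pol (j0 : κ) (T : Fin n → κ) (P : Matrix (Fin n) (Fin n) (MvPolynomial κ R)) :
    Matrix κ κ (MvPolynomial κ R) :=
  Matrix.transpose (th (R := R) j0 T) * P * th (R := R) j0 T

theorem pol_alt {j0 : κ} {T : Fin n → κ} {P : Matrix (Fin n) (Fin n) (MvPolynomial κ R)}
    (h : Pᵀ = -P) : (pol j0 T P)ᵀ = - pol j0 T P := by
  unfold pol
  rw [Matrix.transpose_mul, Matrix.transpose_mul, Matrix.transpose_transpose, h, Matrix.neg_mul,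
    Matrix.mul_neg, Matrix.mul_assoc]

theorem pol_X (j0 : κ) (T : Fin n → κ) (P : Matrix (Fin n) (Fin n) (MvPolynomial κ R)) (k : κ) :
    ∑ l, pol j0 T P k l * MvPolynomial.X l = 0 := by
  unfold pol
  have h1 : ∀ l, (Matrix.transpose (th (R := R) j0 T) * P * th (R := R) j0 T) k l =
      ∑ t, (Matrix.transpose (th (R := R) j0 T) * P) k t * th (R := R) j0 T t l := fun l =>
    Matrix.mul_apply
  rw [Finset.sum_congr rfl fun l _ => by rw [h1 l, Finset.sum_mul], Finset.sum_comm]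
  refine Finset.sum_eq_zero fun t _ => ?_
  rw [Finset.sum_congr rfl fun l _ => mul_assoc _ _ _, ← Finset.mul_sum, th_X, mul_zero]

theorem pol_homog {j0 : κ} {T : Fin n → κ} {P : Matrix (Fin n) (Fin n) (MvPolynomial κ R)} {d : ℕ}
    (h : ∀ a b, (P a b).IsHomogeneous d) (k l : κ) : (pol j0 T P k l).IsHomogeneous (d + 2) := by
  unfold pol
  rw [Matrix.mul_apply]
  refine MvPolynomial.IsHomogeneous.sum _ _ _ fun t _ => ?_
  rw [Matrix.mul_apply, show d + 2 = (1 + d) + 1 by ring]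
  refine MvPolynomial.IsHomogeneous.mul ?_ (th_homog j0 T t l)
  exact MvPolynomial.IsHomogeneous.sum _ _ _ fun t' _ => (th_homog j0 T t' k).mul (h t' t)

/-- antisymmetrisation -/
def asym {κ : Type*} (p : Fin n → Fin n → MvPolynomial κ ℂ) :
    Matrix (Fin n) (Fin n) (MvPolynomial κ ℂ) :=
  Matrix.of fun b c => MvPolynomial.C (1 / 2) * (p b c - p c b)

theorem asym_alt {κ : Type*} (p : Fin n → Fin n → MvPolynomial κ ℂ) :
    (asym p)ᵀ = - asym p := by
  ext1 b c
  show MvPolynomial.C (1 / 2) * (p c b - p b c) = - (MvPolynomial.C (1 / 2) * (p b c - p c b))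
  ring

theorem asym_homog {κ : Type*} {p : Fin n → Fin n → MvPolynomial κ ℂ} {d : ℕ}
    (h : ∀ b c, (p b c).IsHomogeneous d) (b c : Fin n) : (asym p b c).IsHomogeneous d :=
  ((h b c).sub (h c b)).C_mul _

theorem asym_eval {κ : Type*} (p : Fin n → Fin n → MvPolynomial κ ℂ) (u : κ → ℂ) (b c : Fin n) :
    MvPolynomial.eval u (asym p b c) =
      1 / 2 * (MvPolynomial.eval u (p b c) - MvPolynomial.eval u (p c b)) := by
  unfold asym
  rw [Matrix.of_apply, map_mul, map_sub, MvPolynomial.eval_C]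

end Theta

variable {n : ℕ} {M : Type} [TopologicalSpace M] {A : Atl n M} {O : LB A}

theorem cM_alt {κ : Type*} {σ : HSymp A} {F : κ → Fn A} {j0 : κ} {T : Fin n → κ} {i : A.ι} {x : M}
    (hx : x ∈ (A.e i).source) : (cM σ F j0 T i x)ᵀ = - cM σ F j0 T i x := by
  unfold cM
  rw [Matrix.transpose_mul, Matrix.transpose_mul, Matrix.transpose_transpose, σ.alt i x hx,
    Matrix.neg_mul, Matrix.mul_neg, Matrix.mul_assoc]

theorem cS_alt {κ : Type*} {σ : HSymp A} {F : κ → Fn A} {j0 : κ} {T : Fin n → κ} {i : A.ι} {x : M}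
    (hx : x ∈ (A.e i).source) (a b : Fin n) :
    cS σ F j0 T b a i x = - cS σ F j0 T a b i x := by
  rw [cS_apply hx, cS_apply hx, ← neg_div]
  congr 1
  exact congrFun (congrFun (cM_alt hx) a) b

section Ev

variable {r : ℕ} (F : Fin r → Fn A)

/-- the value of a matrix of polynomials at the coordinates -/
def evM {α β : Type*} (s : Matrix α β (MvPolynomial (Fin r) ℂ)) (i : A.ι) (x : M) :
    Matrix α β ℂ := s.map (MvPolynomial.eval fun k => F k i x)

theorem evM_apply {α β : Type*} (s : Matrix α β (MvPolynomial (Fin r) ℂ)) (i : A.ι) (x : M) (a : α)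
    (b : β) : evM F s i x a b = MvPolynomial.eval (fun k => F k i x) (s a b) := rfl

theorem evM_mul {α β γ : Type*} [Fintype β] (s : Matrix α β (MvPolynomial (Fin r) ℂ))
    (t : Matrix β γ (MvPolynomial (Fin r) ℂ)) (i : A.ι) (x : M) :
    evM F (s * t) i x = evM F s i x * evM F t i x := Matrix.map_mul

theorem evM_transpose {α β : Type*} (s : Matrix α β (MvPolynomial (Fin r) ℂ)) (i : A.ι) (x : M) :
    evM F sᵀ i x = (evM F s i x)ᵀ := rfl

theorem evM_sum {α β γ : Type*} (u : Finset γ) (s : γ → Matrix α β (MvPolynomial (Fin r) ℂ))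
    (i : A.ι) (x : M) : evM F (∑ c ∈ u, s c) i x = ∑ c ∈ u, evM F (s c) i x := by
  ext a b
  rw [evM_apply, Matrix.sum_apply, Matrix.sum_apply, map_sum]
  rfl

theorem evM_th (j0 : Fin r) (T : Fin n → Fin r) (i : A.ι) (x : M) :
    evM F (th j0 T) i x * DF F i x = Qm F j0 T i x := by
  ext t a
  rw [Matrix.mul_apply]
  unfold Qm qv
  simp only [evM_apply, th, Matrix.of_apply, map_sub, apply_ite (MvPolynomial.eval _),
    MvPolynomial.eval_X, map_zero, sub_mul, ite_mul, zero_mul, Finset.sum_sub_distrib,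
    Finset.sum_ite_eq', Finset.mem_univ, if_true]

theorem evM_pol (j0 : Fin r) (T : Fin n → Fin r) (P : Matrix (Fin n) (Fin n) (MvPolynomial (Fin r) ℂ))
    (i : A.ι) (x : M) : (DF F i x)ᵀ * evM F (pol j0 T P) i x * DF F i x =
      (Qm F j0 T i x)ᵀ * evM F P i x * Qm F j0 T i x := by
  unfold pol
  rw [evM_mul, evM_mul, evM_transpose, ← evM_th F j0 T i x, Matrix.transpose_mul]
  simp only [Matrix.mul_assoc]

end Ev

section Main

variable [T2Space M] [ConnectedSpace M] [CompactSpace M] [Finite A.ι]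

/-- the polynomial form of `t • σ` -/
structure PForm {r : ℕ} (F : Fin r → Fn A) (m : ℕ) (t : Fn A) (σ : H2 A) where
  s : Matrix (Fin r) (Fin r) (MvPolynomial (Fin r) ℂ)
  alt : sᵀ = - s
  hom : ∀ k l, (s k l).IsHomogeneous (m - 2)
  eul : ∀ k, ∑ l, s k l * MvPolynomial.X l = 0
  eq : ∀ i, ∀ x ∈ (A.e i).source, t i x • σ.s i x = (DF F i x)ᵀ * evM F s i x * DF F i x

/-- **a holomorphic symplectic form on a projective manifold is a polynomial form** -/
theorem exists_form (D : FD O)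
    {m0 : ℕ} (hV : ∀ m, m0 ≤ m → ∀ q, 1 ≤ q → Solv (O ^ m) q) {m1 : ℕ}
    (hS : ∀ m, m1 ≤ m → ∀ s : Fn A, IsHS (O ^ m) univ s →
      ∃ p : MvPolynomial (Fin (D.N + 1)) ℂ, p.IsHomogeneous m ∧
        ∀ i, ∀ x ∈ (A.e i).source, s i x = MvPolynomial.eval (fun k => D.F k i x) p)
    (σ : HSymp A) {m : ℕ} (hm0 : m0 + 4 * n * (n + 1) ≤ m) (hm1 : m1 + 4 ≤ m) {t : Fn A}
    (ht : IsHS (O ^ m) univ t) : Nonempty (PForm D.F m t σ.toH2) := by
  classical
  rcases Nat.eq_zero_or_pos n with hn | hn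
  · subst hn
    exact ⟨⟨0, by simp, fun k l => MvPolynomial.isHomogeneous_zero _ _ _, fun k => by simp,
      fun i x _ => Subsingleton.elim _ _⟩⟩
  have him : Immersive D.F := by
    intro i x hx v hv
    obtain ⟨c, hc⟩ := hv
    refine D.imm i (A.e i x) ((A.e i).map_source hx) v ⟨c, fun k => ?_⟩
    rw [(A.e i).left_inv hx]
    exact hc k
  let Ξ : Type := Fin (D.N + 1) × (Fin n → Fin (D.N + 1))
  let e : Fin (Fintype.card Ξ) ≃ Ξ := (Fintype.equivFin Ξ).symm
  let ℓ : Fin (Fintype.card Ξ) → Fn A := fun a => dS σ D.F (e a).1 (e a).2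
  have hℓ : ∀ a, IsHS (O ^ (4 * n)) univ (ℓ a) := fun a => isHS_dS D.hs
  have hℓne : ∀ i, ∀ x ∈ (A.e i).source, ∃ a, ℓ a i x ≠ 0 := by
    intro i x hx
    obtain ⟨j0, T, h⟩ := exists_dS_ne (σ := σ) D.ne him hx
    refine ⟨e.symm (j0, T), ?_⟩
    simp only [ℓ, Equiv.apply_symm_apply]
    exact h
  have h4n : 4 * n * (n + 1) ≤ m := (Nat.le_add_left _ _).trans hm0
  have hNq : ∀ q : ℕ, q ≤ n + 1 → O ^ m * (O ^ (4 * n))⁻¹ ^ q = O ^ (m - 4 * n * q) := by
    intro q hq
    have h1 : 4 * n * q ≤ m := (Nat.mul_le_mul_left _ hq).trans h4n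
    have e1 : O ^ m = O ^ (m - 4 * n * q) * (O ^ (4 * n)) ^ q := by
      rw [← pow_mul, ← pow_add, Nat.sub_add_cancel h1]
    rw [e1, mul_assoc, inv_pow, mul_inv_cancel, mul_one]
  obtain ⟨w, hw, hs⟩ := kosgen (O ^ (4 * n)) (fun p => O ^ m * (O ^ (4 * n))⁻¹ ^ p)
    (fun p => by
      show O ^ m * (O ^ (4 * n))⁻¹ ^ (p + 1) * O ^ (4 * n) = O ^ m * (O ^ (4 * n))⁻¹ ^ p
      rw [pow_succ, ← mul_assoc, inv_mul_cancel_right]) ℓ hℓ hℓne
    (fun q hq hqn => by
      show Solv (O ^ m * (O ^ (4 * n))⁻¹ ^ (q + 1)) q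
      rw [hNq (q + 1) (by omega)]
      refine hV _ ?_ q hq
      have h1 : 4 * n * (q + 1) ≤ 4 * n * (n + 1) := Nat.mul_le_mul_left _ (by omega)
      omega) (s := t) (by
      show IsHS (O ^ m * (O ^ (4 * n))⁻¹ ^ 0) univ t
      rw [hNq 0 (Nat.zero_le _)]
      simpa using ht)
  have hw' : ∀ a, IsHS (O ^ (m - 4 * n)) univ (w a) := by
    intro a
    have h2 := hw a
    rw [hNq 1 (by omega), mul_one] at h2
    exact h2
  have h4m : 4 * n ≤ m := by
    have h1 : 4 * n * 1 ≤ 4 * n * (n + 1) := Nat.mul_le_mul_left _ (by omega)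
    omega
  have hwc : ∀ a b c, IsHS (O ^ (m - 4)) univ (w a * cS σ D.F (e a).1 (e a).2 b c) := by
    intro a b c
    have h1 := (hw' a).mul (isHS_cS (σ := σ) (j0 := (e a).1) (T := (e a).2) D.hs b c)
    rw [← pow_add] at h1
    rwa [show m - 4 * n + 4 * (n - 1) = m - 4 by omega] at h1
  choose p hp hpe using fun a b c => hS (m - 4) (by omega) _ (hwc a b c)
  let P : Fin (Fintype.card Ξ) → Matrix (Fin n) (Fin n) (MvPolynomial (Fin (D.N + 1)) ℂ) :=
    fun a => asym (p a)
  have hP1 : ∀ a, (P a)ᵀ = - P a := fun a => asym_alt (p a)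
  have hP2 : ∀ a b c, (P a b c).IsHomogeneous (m - 4) := fun a => asym_homog (hp a)
  have hP3 : ∀ a i, ∀ x ∈ (A.e i).source, evM D.F (P a) i x =
      w a i x • Matrix.of fun b c => cS σ D.F (e a).1 (e a).2 b c i x := by
    intro a i x hx
    ext b c
    have h1 : w a i x * cS σ D.F (e a).1 (e a).2 b c i x = _ := hpe a b c i x hx
    have h2 : w a i x * cS σ D.F (e a).1 (e a).2 c b i x = _ := hpe a c b i x hx
    have h3 := asym_eval (p a) (fun k => D.F k i x) b c
    rw [← h1, ← h2, cS_alt hx b c] at h3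
    refine h3.trans ?_
    rw [Matrix.smul_apply, Matrix.of_apply, smul_eq_mul]
    ring
  refine ⟨⟨∑ a, pol (e a).1 (e a).2 (P a), ?_, fun k l => ?_, fun k => ?_, fun i x hx => ?_⟩⟩
  · rw [Matrix.transpose_sum, ← Finset.sum_neg_distrib]
    exact Finset.sum_congr rfl fun a _ => pol_alt (hP1 a)
  · rw [Matrix.sum_apply]
    refine MvPolynomial.IsHomogeneous.sum _ _ _ fun a _ => ?_
    rw [show m - 2 = m - 4 + 2 by omega]
    exact pol_homog (hP2 a) k l
  · simp only [Matrix.sum_apply, Finset.sum_mul]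
    rw [Finset.sum_comm]
    exact Finset.sum_eq_zero fun a _ => pol_X _ _ _ k
  · rw [evM_sum, Matrix.mul_sum, Matrix.sum_mul]
    rw [Finset.sum_congr rfl fun a _ => evM_pol D.F (e a).1 (e a).2 (P a) i x]
    have h1 : t i x = ∑ a, ℓ a i x * w a i x := by
      rw [hs, Finset.sum_apply, Finset.sum_apply]
      rfl
    rw [h1, Finset.sum_smul]
    refine Finset.sum_congr rfl fun a _ => ?_
    rw [hP3 a i x hx, Matrix.mul_smul, Matrix.smul_mul, ← dS_mul hx, mul_comm, mul_smul]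

/-- the form for a projective embedding -/
theorem exists_form_proj (PA : Part A) (hD : D2 A) (P : ProjD A) (σ : HSymp A) :
    ∃ m1 : ℕ, ∀ m, m1 ≤ m → ∀ t : Fn A, IsHS (lb P ^ m) univ t →
      Nonempty (PForm (fun k => sec P k) m t σ.toH2) := by
  obtain ⟨m0, hm0⟩ := solv_large PA hD (fs_pos P) (1 : LB A)
  obtain ⟨m1, hm1⟩ := surj_proj PA hD P
  refine ⟨m0 + 4 * n * (n + 1) + m1 + 4, fun m hm t ht => ?_⟩
  exact exists_form (ofProj P) (m0 := m0) (fun m hm q hq => by
      have := hm0 m hm q hq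
      rwa [one_mul] at this) (m1 := m1) hm1 σ (by omega) (by omega) ht

end Main

end

end Crest.Agent.R281.AF_867
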