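import Crest.Agent.R281.AF3_867

/-!
# R281 (S0424), ALG-FORM, part 4 (helper867): equations and tangent spaces of the cone

* `dE p v t`      : the derivative of the polynomial `p` at `v` in the direction `t`;
* `hasFDerivAt_ev`: chain rule;
* `Rels F`        : the homogeneous relations of the `F k`;
* `ztan`          : a vector killed by the derivatives of all relations at `F (x)` is a combination of
                    `F (x)` and the derivatives of `F` (Zariski tangent space of the cone);
* `Eqs F E`       : the set `E` of polynomials cuts out the cone, with its tangent spaces;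
* `exists_eqs`    : a finite set `E0` such that every set `E0 ⊆ E ⊆ Rels F` satisfies `Eqs F E`.
-/

set_option autoImplicit false
set_option linter.unusedSectionVars false

open Set Filter Topology Complex
open scoped ContDiff Matrix ComplexConjugate

namespace Crest.Agent.R281.AF_867

open Crest.Agent.R275 Crest.Agent.R275.Geo Crest.Agent.R275.Core144
open Crest.Agent.R273.SerA_945 Crest.Agent.R273.SerB_945 Crest.Agent.R273.SerC_945
open Crest.Agent.R273.SerE_945 Crest.Agent.R273.TD3_733 Crest.Agent.R273.FS_333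
open Crest.Agent.R273.Defs_333 Crest.Agent.R273.SteinC_794 Crest.Agent.R273.KosGen_313
open Crest.Agent.R273.Chow_313 Crest.Agent.R260.Zt_313 Crest.Agent.R281.Defs_273

noncomputable section

/-! ### derivatives of polynomials -/

section Der

variable {κ K : Type*} [Fintype κ] [CommRing K]

/-- the derivative of `p` at `v` in the direction `t` -/
def dE (p : MvPolynomial κ K) (v t : κ → K) : K :=
  ∑ k, MvPolynomial.eval v (MvPolynomial.pderiv k p) * t k

theorem dE_add (p q : MvPolynomial κ K) (v t : κ → K) : dE (p + q) v t = dE p v t + dE q v t := by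
  unfold dE
  rw [← Finset.sum_add_distrib]
  exact Finset.sum_congr rfl fun k _ => by rw [map_add, map_add, add_mul]

theorem dE_mul (p q : MvPolynomial κ K) (v t : κ → K) :
    dE (p * q) v t = MvPolynomial.eval v p * dE q v t + MvPolynomial.eval v q * dE p v t := by
  unfold dE
  rw [Finset.mul_sum, Finset.mul_sum, ← Finset.sum_add_distrib]
  refine Finset.sum_congr rfl fun k _ => ?_
  rw [Derivation.leibniz, map_add, smul_eq_mul, smul_eq_mul, map_mul, map_mul]
  ring

theorem dE_C (a : K) (v t : κ → K) : dE (MvPolynomial.C a) v t = 0 := by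
  unfold dE
  exact Finset.sum_eq_zero fun k _ => by rw [MvPolynomial.pderiv_C, map_zero, zero_mul]

theorem dE_X (k : κ) (v t : κ → K) : dE (MvPolynomial.X k) v t = t k := by
  classical
  unfold dE
  rw [Finset.sum_eq_single k]
  · rw [MvPolynomial.pderiv_X_self, map_one, one_mul]
  · intro l _ hl
    rw [MvPolynomial.pderiv_X_of_ne (Ne.symm hl), map_zero, zero_mul]
  · intro h
    exact absurd (Finset.mem_univ k) h

theorem dE_zero (v t : κ → K) : dE (0 : MvPolynomial κ K) v t = 0 := by
  have := dE_C (κ := κ) (0 : K) v t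
  rwa [map_zero] at this

theorem dE_neg (p : MvPolynomial κ K) (v t : κ → K) : dE (-p) v t = - dE p v t := by
  have h := dE_add p (-p) v t
  rw [add_neg_cancel, dE_zero] at h
  linear_combination -h

theorem dE_sub (p q : MvPolynomial κ K) (v t : κ → K) : dE (p - q) v t = dE p v t - dE q v t := by
  rw [sub_eq_add_neg, dE_add, dE_neg, sub_eq_add_neg]

theorem dE_sum {α : Type*} (s : Finset α) (p : α → MvPolynomial κ K) (v t : κ → K) :
    dE (∑ a ∈ s, p a) v t = ∑ a ∈ s, dE (p a) v t := by
  classical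
  induction s using Finset.induction_on with
  | empty => simp [dE_zero]
  | insert a s ha ih => rw [Finset.sum_insert ha, Finset.sum_insert ha, dE_add, ih]

theorem dE_add_right (p : MvPolynomial κ K) (v t u : κ → K) :
    dE p v (t + u) = dE p v t + dE p v u := by
  unfold dE
  rw [← Finset.sum_add_distrib]
  exact Finset.sum_congr rfl fun k _ => by rw [Pi.add_apply, mul_add]

theorem dE_smul_right (p : MvPolynomial κ K) (v : κ → K) (a : K) (t : κ → K) :
    dE p v (a • t) = a * dE p v t := by
  unfold dE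
  rw [Finset.mul_sum]
  exact Finset.sum_congr rfl fun k _ => by rw [Pi.smul_apply, smul_eq_mul]; ring

theorem dE_sum_right {α : Type*} (s : Finset α) (p : MvPolynomial κ K) (v : κ → K)
    (t : α → κ → K) : dE p v (∑ a ∈ s, t a) = ∑ a ∈ s, dE p v (t a) := by
  classical
  induction s using Finset.induction_on with
  | empty => simp [dE]
  | insert a s ha ih => rw [Finset.sum_insert ha, Finset.sum_insert ha, dE_add_right, ih]

theorem isHomog_pderiv {p : MvPolynomial κ K} {d : ℕ} (hp : p.IsHomogeneous d) (k : κ) :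
    (MvPolynomial.pderiv k p).IsHomogeneous (d - 1) := hp.pderiv

theorem dE_smul_left {p : MvPolynomial κ ℂ} {d : ℕ} (hp : p.IsHomogeneous d) (c : ℂ)
    (v t : κ → ℂ) : dE p (c • v) t = c ^ (d - 1) * dE p v t := by
  unfold dE
  rw [Finset.mul_sum]
  exact Finset.sum_congr rfl fun k _ => by rw [eval_smul (isHomog_pderiv hp k)]; ring

/-- Euler's identity -/
theorem dE_self {p : MvPolynomial κ K} {d : ℕ} (hp : p.IsHomogeneous d) (v : κ → K) :
    dE p v v = d * MvPolynomial.eval v p := by
  classical
  have h := hp.sum_X_mul_pderiv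
  have h2 := congrArg (MvPolynomial.eval v) h
  rw [map_sum] at h2
  unfold dE
  rw [nsmul_eq_mul, map_mul, map_natCast] at h2
  rw [← h2]
  exact Finset.sum_congr rfl fun k _ => by rw [map_mul, MvPolynomial.eval_X, mul_comm]

end Der

/-- chain rule -/
theorem hasFDerivAt_ev {E κ : Type*} [Fintype κ] [NormedAddCommGroup E] [NormedSpace ℂ E]
    {f : κ → E → ℂ} {f' : κ → E →L[ℂ] ℂ} {z0 : E} (hf : ∀ k, HasFDerivAt (f k) (f' k) z0)
    (p : MvPolynomial κ ℂ) :
    HasFDerivAt (fun z => MvPolynomial.eval (fun k => f k z) p)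
      (∑ k, MvPolynomial.eval (fun k => f k z0) (MvPolynomial.pderiv k p) • f' k) z0 := by
  classical
  induction p using MvPolynomial.induction_on with
  | C a =>
    have h0 : (∑ k, MvPolynomial.eval (fun k => f k z0) (MvPolynomial.pderiv k
        (MvPolynomial.C a : MvPolynomial κ ℂ)) • f' k) = 0 :=
      Finset.sum_eq_zero fun k _ => by
        rw [MvPolynomial.pderiv_C, map_zero]
        ext u
        simp
    have h1 : (fun z => MvPolynomial.eval (fun k => f k z) (MvPolynomial.C a)) = fun _ => a := by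
      funext z
      exact MvPolynomial.eval_C a
    rw [h0, h1]
    exact hasFDerivAt_const a z0
  | add p q hp hq =>
    have h0 : (∑ k, MvPolynomial.eval (fun k => f k z0) (MvPolynomial.pderiv k (p + q)) •
        f' k) =
        (∑ k, MvPolynomial.eval (fun k => f k z0) (MvPolynomial.pderiv k p) • f' k) +
        ∑ k, MvPolynomial.eval (fun k => f k z0) (MvPolynomial.pderiv k q) • f' k := by
      rw [← Finset.sum_add_distrib]
      exact Finset.sum_congr rfl fun k _ => by
        rw [map_add, map_add]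
        ext u
        simp [add_mul]
    have h1 : (fun z => MvPolynomial.eval (fun k => f k z) (p + q)) = fun z =>
        MvPolynomial.eval (fun k => f k z) p + MvPolynomial.eval (fun k => f k z) q := by
      funext z
      rw [map_add]
    rw [h0, h1]
    exact hp.fun_add hq
  | mul_X p k hp =>
    have h1 := hp.fun_mul (hf k)
    have h2 : (fun z => MvPolynomial.eval (fun k => f k z) (p * MvPolynomial.X k)) = fun z =>
        MvPolynomial.eval (fun k => f k z) p * f k z := by
      funext z
      rw [map_mul, MvPolynomial.eval_X]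
    rw [h2]
    refine h1.congr_fderiv ?_
    have h3 : ∀ l, MvPolynomial.eval (fun k => f k z0) (MvPolynomial.pderiv l
        (p * MvPolynomial.X k)) • f' l =
        (if l = k then MvPolynomial.eval (fun k => f k z0) p • f' k else 0) +
          f k z0 • MvPolynomial.eval (fun k => f k z0) (MvPolynomial.pderiv l p) • f' l := by
      intro l
      rw [Derivation.leibniz, map_add, smul_eq_mul, smul_eq_mul, map_mul, map_mul,
        MvPolynomial.eval_X]
      by_cases hl : l = k
      · subst hl
        rw [MvPolynomial.pderiv_X_self, map_one, mul_one, if_pos rfl]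
        ext u
        simp [add_mul, mul_assoc]
      · rw [MvPolynomial.pderiv_X_of_ne (Ne.symm hl), map_zero, mul_zero, if_neg hl]
        ext u
        simp [add_mul, mul_assoc]
    rw [Finset.sum_congr rfl fun l _ => h3 l, Finset.sum_add_distrib,
      Finset.sum_ite_eq' Finset.univ, if_pos (Finset.mem_univ _), Finset.smul_sum]

variable {n : ℕ} {M : Type} [TopologicalSpace M] {A : Atl n M} {O : LB A} {r : ℕ}

/-- the derivative of a polynomial in the coordinates -/
theorem df_ev {F : Fin r → Fn A} (hF : ∀ k, IsHS O univ (F k)) {i : A.ι} {x : M}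
    (hx : x ∈ (A.e i).source) (p : MvPolynomial (Fin r) ℂ) (v : Cn n) :
    df A i (fun y => MvPolynomial.eval (fun k => F k i y) p) x v =
      dE p (fun k => F k i x) fun k => df A i (F k i) x v := by
  have h := hasFDerivAt_ev (f := fun k z => F k i ((A.e i).symm z)) (z0 := A.e i x)
    (fun k => (((hF k).hol i).diffAt isOpen_univ hx (mem_univ x)).hasFDerivAt) p
  unfold df
  rw [h.fderiv]
  unfold dE
  rw [_root_.sum_apply]
  refine Finset.sum_congr rfl fun k _ => ?_
  rw [_root_.smul_apply, smul_eq_mul, (A.e i).left_inv hx]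

/-- the homogeneous relations of the coordinates -/
def Rels (F : Fin r → Fn A) : Set (MvPolynomial (Fin r) ℂ) :=
  {p | (∃ d, p.IsHomogeneous d) ∧ ∀ i, ∀ x ∈ (A.e i).source,
    MvPolynomial.eval (fun k => F k i x) p = 0}

theorem dE_rel {F : Fin r → Fn A} (hF : ∀ k, IsHS O univ (F k)) {p : MvPolynomial (Fin r) ℂ}
    (hp : p ∈ Rels F) {i : A.ι} {x : M} (hx : x ∈ (A.e i).source) (v : Cn n) :
    (dE p (fun k => F k i x) fun k => df A i (F k i) x v) = 0 := by
  rw [← df_ev hF hx p v]
  have h1 : (fun y => MvPolynomial.eval (fun k => F k i y) p) =ᶠ[𝓝 x] fun _ => 0 := by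
    filter_upwards [(A.e i).open_source.mem_nhds hx] with y hy
    exact hp.2 i y hy
  rw [df_congr hx h1]
  unfold df
  simp

/-- the equations `E` cut out the cone over `M`, with its tangent spaces -/
structure Eqs (F : Fin r → Fn A) (E : Set (MvPolynomial (Fin r) ℂ)) : Prop where
  rel : E ⊆ Rels F
  pt : ∀ v : Fin r → ℂ, v ≠ 0 → (∀ p ∈ E, MvPolynomial.eval v p = 0) →
    ∃ i, ∃ x ∈ (A.e i).source, ∃ c : ℂ, c ≠ 0 ∧ v = c • fun k => F k i x
  tan : ∀ i, ∀ x ∈ (A.e i).source, ∀ t : Fin r → ℂ,
    (∀ p ∈ E, dE p (fun k => F k i x) t = 0) →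
      ∃ (a : ℂ) (u : Cn n), t = fun k => a * F k i x + df A i (F k i) x u

section Main

variable [T2Space M] [ConnectedSpace M] [CompactSpace M] [Finite A.ι]

/-- **the Zariski tangent space of the cone** -/
theorem ztan (D : FD O) (inj : ∀ x y, Rel D.F x y → x = y) {m0 : ℕ}
    (hV : ∀ m, m0 ≤ m → ∀ q, 1 ≤ q → Solv (O ^ m) q) {m1 : ℕ}
    (hS : ∀ m, m1 ≤ m → ∀ s : Fn A, IsHS (O ^ m) univ s →
      ∃ p : MvPolynomial (Fin (D.N + 1)) ℂ, p.IsHomogeneous m ∧
        ∀ i, ∀ x ∈ (A.e i).source, s i x = MvPolynomial.eval (fun k => D.F k i x) p)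
    {i : A.ι} {x : M} (hx : x ∈ (A.e i).source) {t : Fin (D.N + 1) → ℂ}
    (ht : ∀ p ∈ Rels D.F, dE p (fun k => D.F k i x) t = 0) :
    ∃ (a : ℂ) (u : Cn n), t = fun k => a * D.F k i x + df A i (D.F k i) x u := by
  classical
  -- the linear map `(a, u) ↦ a F + dF u`
  let φ : (ℂ × Cn n) →ₗ[ℂ] (Fin (D.N + 1) → ℂ) :=
    { toFun := fun p k => p.1 * D.F k i x + df A i (D.F k i) x p.2
      map_add' := fun p q => by
        funext k
        simp only [Prod.fst_add, Prod.snd_add, map_add, Pi.add_apply]
        ring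
      map_smul' := fun c p => by
        funext k
        simp only [Prod.smul_fst, Prod.smul_snd, map_smul, Pi.smul_apply, smul_eq_mul,
          RingHom.id_apply]
        ring }
  by_contra hcon
  have htr : t ∉ LinearMap.range φ := by
    rintro ⟨⟨a, u⟩, h⟩
    exact hcon ⟨a, u, h.symm⟩
  obtain ⟨f, hf, hfr⟩ := Submodule.exists_dual_map_eq_bot_of_notMem htr inferInstance
  have hfφ : ∀ p, f (φ p) = 0 := fun p => by
    have h1 : f (φ p) ∈ (LinearMap.range φ).map f := ⟨φ p, ⟨p, rfl⟩, rfl⟩
    rw [hfr] at h1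
    exact h1
  let l : Fin (D.N + 1) → ℂ := fun k => f (Pi.single k 1)
  have hfl : ∀ v : Fin (D.N + 1) → ℂ, f v = ∑ k, l k * v k := by
    intro v
    have h3 : v = ∑ k, v k • (Pi.single k (1 : ℂ) : Fin (D.N + 1) → ℂ) := by
      funext b
      simp [Finset.sum_apply, Pi.single_apply]
    conv_lhs => rw [h3]
    rw [map_sum]
    exact Finset.sum_congr rfl fun k _ => by rw [map_smul, smul_eq_mul, mul_comm]
  obtain ⟨k0, hk0⟩ := D.ne i x hx
  set m := m0 + n + m1 with hm
  -- the section
  have hy : IsHS O univ (∑ k, l k • D.F k) := isHS_sum _ fun k _ => (D.hs k).smul (l k)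
  have hyv : ∀ i x, (∑ k, l k • D.F k) i x = ∑ k, l k * D.F k i x := by
    intro i x
    rw [Finset.sum_apply, Finset.sum_apply]
    rfl
  have hpw := isHS_pw (D.hs k0) (m + 1)
  have hs : IsHS (1 * O ^ (m + 1 + 1)) univ (pw (D.F k0) (m + 1) * ∑ k, l k • D.F k) := by
    rw [one_mul, pow_succ O (m + 1)]
    exact hpw.mul hy
  have hy0 : (∑ k, l k • D.F k) i x = 0 := by
    rw [hyv, ← hfl]
    have := hfφ (1, 0)
    have e : φ (1, 0) = fun k => D.F k i x := by
      funext k
      simp [φ]
    rwa [e] at this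
  have hy1 : ∀ u : Cn n, df A i ((∑ k, l k • D.F k) i) x u = 0 := by
    intro u
    have e1 : (∑ k, l k • D.F k) i = fun y => ∑ k, l k * D.F k i y := funext fun y => hyv i y
    have h2 : df A i (fun y => ∑ k, l k * D.F k i y) x u = ∑ k, l k * df A i (D.F k i) x u := by
      unfold df
      have h3 := HasFDerivAt.fun_sum (u := Finset.univ) fun k _ =>
        ((((D.hs k).hol i).diffAt isOpen_univ hx (mem_univ x)).hasFDerivAt.const_mul (l k))
      rw [h3.fderiv, _root_.sum_apply]
      exact Finset.sum_congr rfl fun k _ => by rw [_root_.smul_apply, smul_eq_mul]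
    rw [e1, h2, ← hfl]
    have := hfφ (0, u)
    have e : φ (0, u) = fun k => df A i (D.F k i) x u := by
      funext k
      simp [φ]
    rwa [e] at this
  obtain ⟨w, hw, hsw, hw0⟩ := div_at D inj 1 (m := m + 1) (m0 := m0) (by omega)
    (fun m hm q hq => by rw [one_mul]; exact hV m hm q hq) hx hk0 hs
    (by rw [Pi.mul_apply, Pi.mul_apply, hy0, mul_zero])
  have hfd0 : fderiv ℂ (fun w => (pw (D.F k0) (m + 1) * ∑ k, l k • D.F k) i ((A.e i).symm w))
      (A.e i x) = 0 := by
    ext u
    have h1 := df_mul isOpen_univ (hpw.hol i) (hy.hol i) hx (mem_univ x) u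
    rw [hy1 u, hy0, mul_zero, zero_mul, add_zero] at h1
    exact h1
  have hwx := hw0 hfd0
  have hw' : ∀ k, IsHS (O ^ (m + 1)) univ (w k) := fun k => by
    have := hw k
    rwa [one_mul] at this
  choose W hWh hWe using fun k => hS (m + 1) (by omega) (w k) (hw' k)
  set v : Fin (D.N + 1) → ℂ := fun k => D.F k i x with hv
  let p : MvPolynomial (Fin (D.N + 1)) ℂ :=
    MvPolynomial.X k0 ^ (m + 1) * ∑ k, MvPolynomial.C (l k) * MvPolynomial.X k -
      ∑ k, (MvPolynomial.C (v k0) * MvPolynomial.X k - MvPolynomial.C (v k) * MvPolynomial.X k0) *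
        W k
  have hpR : p ∈ Rels D.F := by
    refine ⟨⟨m + 1 + 1, ?_⟩, fun j y hy' => ?_⟩
    · refine MvPolynomial.IsHomogeneous.sub ?_ ?_
      · refine MvPolynomial.IsHomogeneous.mul ?_ ?_
        · simpa using (MvPolynomial.isHomogeneous_X ℂ k0).pow (m + 1)
        · exact MvPolynomial.IsHomogeneous.sum _ _ _ fun k _ =>
            MvPolynomial.isHomogeneous_C_mul_X _ _
      · refine MvPolynomial.IsHomogeneous.sum _ _ _ fun k _ => ?_
        rw [add_comm (m + 1) 1]
        exact ((MvPolynomial.isHomogeneous_C_mul_X _ _).sub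
          (MvPolynomial.isHomogeneous_C_mul_X _ _)).mul (hWh k)
    · have h1 := congrFun (congrFun hsw j) y
      rw [Pi.mul_apply, Pi.mul_apply, hyv, pw_apply _ _ hy', Finset.sum_apply,
        Finset.sum_apply] at h1
      simp only [p, map_sub, map_mul, map_pow, map_sum, MvPolynomial.eval_X, MvPolynomial.eval_C]
      rw [h1, sub_eq_zero]
      refine Finset.sum_congr rfl fun k _ => ?_
      rw [Pi.mul_apply, Pi.mul_apply, FD.lform_apply, hWe k j y hy']
  have h1 := ht p hpR
  have hvl : ∑ k, l k * v k = 0 := by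
    rw [← hyv i x]
    exact hy0
  have hWv : ∀ k, MvPolynomial.eval v (W k) = 0 := fun k => by
    rw [← hWe k i x hx]
    exact hwx k
  have h2 : dE p v t = v k0 ^ (m + 1) * f t := by
    have e1 : dE (∑ k, MvPolynomial.C (l k) * MvPolynomial.X k) v t = f t := by
      rw [dE_sum, hfl]
      refine Finset.sum_congr rfl fun k _ => ?_
      rw [dE_mul, dE_C, dE_X, MvPolynomial.eval_C, mul_zero, add_zero]
    have e2 : MvPolynomial.eval v (∑ k, MvPolynomial.C (l k) * MvPolynomial.X k) = 0 := by
      rw [map_sum, ← hvl]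
      exact Finset.sum_congr rfl fun k _ => by
        rw [map_mul, MvPolynomial.eval_C, MvPolynomial.eval_X]
    simp only [p]
    rw [dE_sub, dE_mul, e1, e2, zero_mul, add_zero, map_pow, MvPolynomial.eval_X, dE_sum,
      Finset.sum_eq_zero, sub_zero]
    intro k _
    rw [dE_mul, hWv k, zero_mul, add_zero, map_sub, map_mul, map_mul, MvPolynomial.eval_C,
      MvPolynomial.eval_C, MvPolynomial.eval_X, MvPolynomial.eval_X]
    ring
  rw [h2] at h1
  exact hf ((mul_eq_zero.1 h1).resolve_left (pow_ne_zero _ hk0))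

/-- **finitely many equations** -/
theorem exists_eqs (D : FD O) (inj : ∀ x y, Rel D.F x y → x = y)
    (hfd : ∀ k : ℕ, FiniteDimensional ℂ (HS (O ^ k) univ)) {m0 : ℕ}
    (hV : ∀ m, m0 ≤ m → ∀ q, 1 ≤ q → Solv (O ^ m) q) :
    ∃ E0 : Finset (MvPolynomial (Fin (D.N + 1)) ℂ), (E0 : Set _) ⊆ Rels D.F ∧
      ∀ E : Set (MvPolynomial (Fin (D.N + 1)) ℂ), (E0 : Set _) ⊆ E → E ⊆ Rels D.F →
        Eqs D.F E := by
  obtain ⟨m1, hm1⟩ := surj_large D inj hfd hV
  obtain ⟨E0, hE0, hsp⟩ := (Submodule.fg_span_iff_fg_span_finset_subset (R :=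
    MvPolynomial (Fin (D.N + 1)) ℂ) (Rels D.F)).1 (IsNoetherian.noetherian _)
  refine ⟨E0, hE0, fun E hE hER => ⟨hER, fun v hv h => ?_, fun i x hx t ht => ?_⟩⟩
  · refine chow_vec D.hs D.ne hfd hV v hv fun d p hp hz => ?_
    have h1 : p ∈ Submodule.span (MvPolynomial (Fin (D.N + 1)) ℂ) (E0 : Set _) := by
      rw [← hsp]
      exact Submodule.subset_span ⟨⟨d, hp⟩, hz⟩
    refine Submodule.span_induction (p := fun q _ => MvPolynomial.eval v q = 0)
      (fun q hq => h q (hE hq)) (map_zero _) (fun q q' _ _ hq hq' => by rw [map_add, hq, hq', add_zero])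
      (fun a q _ hq => by rw [smul_eq_mul, map_mul, hq, mul_zero]) h1
  · refine ztan D inj hV hm1 hx fun p hp => ?_
    have h1 : p ∈ Submodule.span (MvPolynomial (Fin (D.N + 1)) ℂ) (E0 : Set _) := by
      rw [← hsp]
      exact Submodule.subset_span hp
    have h2 : dE p (fun k => D.F k i x) t = 0 ∧ MvPolynomial.eval (fun k => D.F k i x) p = 0 := by
      refine Submodule.span_induction (p := fun q _ => dE q (fun k => D.F k i x) t = 0 ∧
        MvPolynomial.eval (fun k => D.F k i x) q = 0)
        (fun q hq => ⟨ht q (hE hq), (hE0 hq).2 i x hx⟩) ⟨dE_zero _ _, map_zero _⟩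
        (fun q q' _ _ hq hq' => ⟨by rw [dE_add, hq.1, hq'.1, add_zero],
          by rw [map_add, hq.2, hq'.2, add_zero]⟩)
        (fun a q _ hq => ⟨by rw [smul_eq_mul, dE_mul, hq.1, hq.2, mul_zero, zero_mul, add_zero],
          by rw [smul_eq_mul, map_mul, hq.2, mul_zero]⟩) h1
    exact h2.1

/-- the equations of a projective embedding -/
theorem exists_eqs_proj (PA : Part A) (hD : D2 A) (P : ProjD A) :
    ∃ E0 : Finset (MvPolynomial (Fin (P.N + 1)) ℂ), (E0 : Set _) ⊆ Rels (fun k => sec P k) ∧
      ∀ E : Set (MvPolynomial (Fin (P.N + 1)) ℂ), (E0 : Set _) ⊆ E →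
        E ⊆ Rels (fun k => sec P k) → Eqs (fun k => sec P k) E := by
  obtain ⟨m0, hm0⟩ := solv_large PA hD (fs_pos P) (1 : LB A)
  exact exists_eqs (ofProj P) (fun x y h => (rel_sec_iff P).1 h) (fun k => fd_HS PA _)
    (m0 := m0) fun m hm q hq => by
      have := hm0 m hm q hq
      rwa [one_mul] at this

end Main

end

end Crest.Agent.R281.AF_867
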