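import Crest.Agent.R281.AF4_867

/-!
# R281 (S0424), ALG-FORM, part 5 (helper867): the polynomial form of a symplectic form, pointwise

* `FDat κ R`        : `m : ℕ`, `s j : Matrix κ κ (MvPolynomial κ R)` (`s j` is `x_j ^ m σ`);
* `FDat.Exact`      : antisymmetric, homogeneous of degree `m - 2`, `∑ l, s j k l * X l = 0`;
* `OnE E x`, `TanE E x v` : points and tangent vectors of the cone `{E = 0}`;
* `FDat.Imp D E`    : on the cone: `x_i^m s_j = x_j^m s_i`, `d (x_j^{-m} s_j) = 0`, nondegenerate;
* `imp_of`          : the data of a closed holomorphic symplectic form satisfy `Exact` and `Imp`.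
-/

set_option autoImplicit false
set_option linter.unusedSectionVars false

open Set Filter Topology Complex
open scoped ContDiff Matrix ComplexConjugate

namespace Crest.Agent.R281.AF_867

open Crest.Agent.R275 Crest.Agent.R275.Geo Crest.Agent.R275.Core144
open Crest.Agent.R273.SerA_945 Crest.Agent.R273.SerB_945 Crest.Agent.R273.SerC_945
open Crest.Agent.R273.SerE_945 Crest.Agent.R273.TD3_733 Crest.Agent.R273.FS_333
open Crest.Agent.R273.Defs_333 Crest.Agent.R273.SteinC_794 Crest.Agent.R273.KosGen_313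
open Crest.Agent.R273.Chow_313 Crest.Agent.R260.Zt_313 Crest.Agent.R281.Defs_273

noncomputable section

/-- polynomial form data: `s j` represents `x_j ^ m σ` -/
structure FDat (κ : Type*) (R : Type*) [CommRing R] where
  m : ℕ
  s : κ → Matrix κ κ (MvPolynomial κ R)

namespace FDat

section Ring

variable {κ R L : Type*} [Fintype κ] [CommRing R] [CommRing L]

/-- the exact identities -/
structure Exact (D : FDat κ R) : Prop where
  two : 3 ≤ D.m
  alt : ∀ j, (D.s j)ᵀ = - D.s j
  hom : ∀ j k l, (D.s j k l).IsHomogeneous (D.m - 2)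
  eul : ∀ j k, ∑ l, D.s j k l * MvPolynomial.X l = 0

/-- change of coefficients -/
def map (D : FDat κ R) (φ : R →+* L) : FDat κ L := ⟨D.m, fun j => (D.s j).map (MvPolynomial.map φ)⟩

@[simp] theorem map_m (D : FDat κ R) (φ : R →+* L) : (D.map φ).m = D.m := rfl

theorem map_s (D : FDat κ R) (φ : R →+* L) (j k l : κ) :
    (D.map φ).s j k l = MvPolynomial.map φ (D.s j k l) := rfl

theorem Exact.map {D : FDat κ R} (h : D.Exact) (φ : R →+* L) : (D.map φ).Exact where
  two := h.two
  alt j := by
    ext1 k l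
    show MvPolynomial.map φ (D.s j l k) = - MvPolynomial.map φ (D.s j k l)
    rw [← map_neg]
    exact congrArg _ (congrFun (congrFun (h.alt j) k) l)
  hom j k l := (h.hom j k l).map φ
  eul j k := by
    have h1 := congrArg (MvPolynomial.map φ) (h.eul j k)
    rw [map_sum, map_zero] at h1
    rw [← h1]
    exact Finset.sum_congr rfl fun l _ => by rw [map_mul, MvPolynomial.map_X]; rfl

theorem exact_of_injective {D : FDat κ R} {φ : R →+* L} (hφ : Function.Injective φ)
    (h : (D.map φ).Exact) : D.Exact where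
  two := h.two
  alt j := by
    ext1 k l
    refine MvPolynomial.map_injective φ hφ ?_
    have h1 := congrFun (congrFun (h.alt j) k) l
    show MvPolynomial.map φ (D.s j l k) = MvPolynomial.map φ (- D.s j k l)
    rw [map_neg]
    exact h1
  hom j k l := by
    have h1 := h.hom j k l
    rw [map_s] at h1
    exact MvPolynomial.IsHomogeneous.of_map hφ h1
  eul j k := by
    refine MvPolynomial.map_injective φ hφ ?_
    have h1 := h.eul j k
    rw [map_sum, map_zero, ← h1]
    exact Finset.sum_congr rfl fun l _ => by rw [map_mul, MvPolynomial.map_X]; rfl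

variable (D : FDat κ L) (j : κ) (x : κ → L)

/-- the bilinear form `s j (x)` -/
def b (v w : κ → L) : L := ∑ k, ∑ l, MvPolynomial.eval x (D.s j k l) * (v k * w l)

/-- its derivative in the direction `u` -/
def db (u v w : κ → L) : L := ∑ k, ∑ l, dE (D.s j k l) x u * (v k * w l)

/-- `x_j d s_j - m dx_j ∧ s_j` -/
def T (u v w : κ → L) : L :=
  x j * (D.db j x u v w + D.db j x v w u + D.db j x w u v) -
    D.m * (u j * D.b j x v w + v j * D.b j x w u + w j * D.b j x u v)

theorem T_cyc (u v w : κ → L) : D.T j x u v w = D.T j x v w u := by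
  unfold T
  ring

theorem b_add_left (v v' w : κ → L) : D.b j x (v + v') w = D.b j x v w + D.b j x v' w := by
  unfold b
  rw [← Finset.sum_add_distrib]
  refine Finset.sum_congr rfl fun k _ => ?_
  rw [← Finset.sum_add_distrib]
  exact Finset.sum_congr rfl fun l _ => by rw [Pi.add_apply]; ring

theorem b_add_right (v w w' : κ → L) : D.b j x v (w + w') = D.b j x v w + D.b j x v w' := by
  unfold b
  rw [← Finset.sum_add_distrib]
  refine Finset.sum_congr rfl fun k _ => ?_
  rw [← Finset.sum_add_distrib]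
  exact Finset.sum_congr rfl fun l _ => by rw [Pi.add_apply]; ring

theorem b_smul_left (a : L) (v w : κ → L) : D.b j x (a • v) w = a * D.b j x v w := by
  unfold b
  rw [Finset.mul_sum]
  refine Finset.sum_congr rfl fun k _ => ?_
  rw [Finset.mul_sum]
  exact Finset.sum_congr rfl fun l _ => by rw [Pi.smul_apply, smul_eq_mul]; ring

theorem b_smul_right (a : L) (v w : κ → L) : D.b j x v (a • w) = a * D.b j x v w := by
  unfold b
  rw [Finset.mul_sum]
  refine Finset.sum_congr rfl fun k _ => ?_
  rw [Finset.mul_sum]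
  exact Finset.sum_congr rfl fun l _ => by rw [Pi.smul_apply, smul_eq_mul]; ring

theorem db_add_dir (u u' v w : κ → L) :
    D.db j x (u + u') v w = D.db j x u v w + D.db j x u' v w := by
  unfold db
  rw [← Finset.sum_add_distrib]
  refine Finset.sum_congr rfl fun k _ => ?_
  rw [← Finset.sum_add_distrib]
  exact Finset.sum_congr rfl fun l _ => by rw [dE_add_right]; ring

theorem db_add_left (u v v' w : κ → L) :
    D.db j x u (v + v') w = D.db j x u v w + D.db j x u v' w := by
  unfold db
  rw [← Finset.sum_add_distrib]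
  refine Finset.sum_congr rfl fun k _ => ?_
  rw [← Finset.sum_add_distrib]
  exact Finset.sum_congr rfl fun l _ => by rw [Pi.add_apply]; ring

theorem db_add_right (u v w w' : κ → L) :
    D.db j x u v (w + w') = D.db j x u v w + D.db j x u v w' := by
  unfold db
  rw [← Finset.sum_add_distrib]
  refine Finset.sum_congr rfl fun k _ => ?_
  rw [← Finset.sum_add_distrib]
  exact Finset.sum_congr rfl fun l _ => by rw [Pi.add_apply]; ring

theorem db_smul_dir (a : L) (u v w : κ → L) : D.db j x (a • u) v w = a * D.db j x u v w := by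
  unfold db
  rw [Finset.mul_sum]
  refine Finset.sum_congr rfl fun k _ => ?_
  rw [Finset.mul_sum]
  exact Finset.sum_congr rfl fun l _ => by rw [dE_smul_right]; ring

theorem db_smul_left (a : L) (u v w : κ → L) : D.db j x u (a • v) w = a * D.db j x u v w := by
  unfold db
  rw [Finset.mul_sum]
  refine Finset.sum_congr rfl fun k _ => ?_
  rw [Finset.mul_sum]
  exact Finset.sum_congr rfl fun l _ => by rw [Pi.smul_apply, smul_eq_mul]; ring

theorem db_smul_right (a : L) (u v w : κ → L) : D.db j x u v (a • w) = a * D.db j x u v w := by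
  unfold db
  rw [Finset.mul_sum]
  refine Finset.sum_congr rfl fun k _ => ?_
  rw [Finset.mul_sum]
  exact Finset.sum_congr rfl fun l _ => by rw [Pi.smul_apply, smul_eq_mul]; ring

/-- `T` as a linear map in the first variable -/
def Tl (v w : κ → L) : (κ → L) →ₗ[L] L where
  toFun u := D.T j x u v w
  map_add' u u' := by
    unfold T
    rw [db_add_dir, db_add_left, db_add_right, b_add_left, b_add_right, Pi.add_apply]
    ring
  map_smul' a u := by
    unfold T
    rw [db_smul_dir, db_smul_left, db_smul_right, b_smul_left, b_smul_right, Pi.smul_apply,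
      RingHom.id_apply, smul_eq_mul, smul_eq_mul]
    ring

theorem Tl_apply (u v w : κ → L) : D.Tl j x v w u = D.T j x u v w := rfl

variable {D}

theorem b_alt (h : D.Exact) (v w : κ → L) : D.b j x v w = - D.b j x w v := by
  unfold b
  rw [Finset.sum_comm, ← Finset.sum_neg_distrib]
  refine Finset.sum_congr rfl fun l _ => ?_
  rw [← Finset.sum_neg_distrib]
  refine Finset.sum_congr rfl fun k _ => ?_
  have h1 : D.s j k l = - D.s j l k := congrFun (congrFun (h.alt j) l) k
  rw [h1, map_neg]
  ring

theorem db_alt (h : D.Exact) (u v w : κ → L) : D.db j x u v w = - D.db j x u w v := by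
  unfold db
  rw [Finset.sum_comm, ← Finset.sum_neg_distrib]
  refine Finset.sum_congr rfl fun l _ => ?_
  rw [← Finset.sum_neg_distrib]
  refine Finset.sum_congr rfl fun k _ => ?_
  have h1 : D.s j k l = - D.s j l k := congrFun (congrFun (h.alt j) l) k
  rw [h1, dE_neg]
  ring

theorem b_self_right (h : D.Exact) (v : κ → L) : D.b j x v x = 0 := by
  unfold b
  refine Finset.sum_eq_zero fun k _ => ?_
  have h1 := congrArg (MvPolynomial.eval x) (h.eul j k)
  rw [map_sum, map_zero] at h1
  have h2 : ∑ l, MvPolynomial.eval x (D.s j k l) * (v k * x l) =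
      v k * ∑ l, MvPolynomial.eval x (D.s j k l * MvPolynomial.X l) := by
    rw [Finset.mul_sum]
    exact Finset.sum_congr rfl fun l _ => by rw [map_mul, MvPolynomial.eval_X]; ring
  rw [h2, h1, mul_zero]

theorem b_self_left (h : D.Exact) (w : κ → L) : D.b j x x w = 0 := by
  rw [b_alt j x h, b_self_right j x h, neg_zero]

theorem db_self_right (h : D.Exact) (u v : κ → L) : D.db j x u v x = - D.b j x v u := by
  have h1 : ∀ k, ∑ l, (MvPolynomial.eval x (D.s j k l) * u l + x l * dE (D.s j k l) x u) = 0 := by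
    intro k
    have h2 : dE (∑ l, D.s j k l * MvPolynomial.X l) x u = 0 := by rw [h.eul j k, dE_zero]
    rw [dE_sum] at h2
    rw [← h2]
    exact Finset.sum_congr rfl fun l _ => by rw [dE_mul, dE_X, MvPolynomial.eval_X]
  have h3 : D.db j x u v x + D.b j x v u = 0 := by
    unfold db b
    rw [← Finset.sum_add_distrib]
    refine Finset.sum_eq_zero fun k _ => ?_
    rw [← Finset.sum_add_distrib]
    have h4 : ∑ l, (dE (D.s j k l) x u * (v k * x l) +
        MvPolynomial.eval x (D.s j k l) * (v k * u l)) = v k * ∑ l,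
        (MvPolynomial.eval x (D.s j k l) * u l + x l * dE (D.s j k l) x u) := by
      rw [Finset.mul_sum]
      exact Finset.sum_congr rfl fun l _ => by ring
    rw [h4, h1 k, mul_zero]
  linear_combination h3

theorem db_self_dir (h : D.Exact) (v w : κ → L) :
    D.db j x x v w = ((D.m - 2 : ℕ) : L) * D.b j x v w := by
  unfold db b
  rw [Finset.mul_sum]
  refine Finset.sum_congr rfl fun k _ => ?_
  rw [Finset.mul_sum]
  exact Finset.sum_congr rfl fun l _ => by rw [dE_self (h.hom j k l)]; ring

theorem T_self (h : D.Exact) (v w : κ → L) : D.T j x x v w = 0 := by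
  have h1 : ((D.m - 2 : ℕ) : L) = (D.m : L) - 2 := by
    rw [Nat.cast_sub (by have := h.two; omega)]
    norm_num
  unfold T
  rw [db_self_dir j x h, db_self_right j x h, db_alt j x h w x v, db_self_right j x h,
    b_self_right j x h, b_self_left j x h, h1, b_alt j x h w v]
  ring

/-! ### points and tangent vectors -/

end Ring

end FDat

section Pts

variable {κ L : Type*} [Fintype κ] [CommRing L]

/-- the points of the cone -/
def OnE (E : Set (MvPolynomial κ L)) (x : κ → L) : Prop := ∀ p ∈ E, MvPolynomial.eval x p = 0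

/-- the tangent vectors -/
def TanE (E : Set (MvPolynomial κ L)) (x v : κ → L) : Prop := ∀ p ∈ E, dE p x v = 0

/-- the pointwise identities on the cone -/
structure FDat.Imp (D : FDat κ L) (E : Set (MvPolynomial κ L)) : Prop where
  agr : ∀ x v w, OnE E x → TanE E x v → TanE E x w → ∀ i j,
    x i ^ D.m * D.b j x v w = x j ^ D.m * D.b i x v w
  clo : ∀ x u v w, OnE E x → TanE E x u → TanE E x v → TanE E x w → ∀ j, D.T j x u v w = 0
  nd : ∀ x v j, OnE E x → TanE E x v → (∀ w, TanE E x w → D.b j x v w = 0) → x j ≠ 0 →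
    ∃ a : L, v = a • x

end Pts

theorem b_scale {κ : Type*} [Fintype κ] {D : FDat κ ℂ} (h : D.Exact) (j : κ) (c : ℂ)
    (x v w : κ → ℂ) : D.b j (c • x) v w = c ^ (D.m - 2) * D.b j x v w := by
  unfold FDat.b
  rw [Finset.mul_sum]
  refine Finset.sum_congr rfl fun k _ => ?_
  rw [Finset.mul_sum]
  exact Finset.sum_congr rfl fun l _ => by rw [eval_smul (h.hom j k l)]; ring

theorem db_scale {κ : Type*} [Fintype κ] {D : FDat κ ℂ} (h : D.Exact) (j : κ) (c : ℂ)
    (x u v w : κ → ℂ) : D.db j (c • x) u v w = c ^ (D.m - 3) * D.db j x u v w := by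
  unfold FDat.db
  rw [Finset.mul_sum]
  refine Finset.sum_congr rfl fun k _ => ?_
  rw [Finset.mul_sum]
  refine Finset.sum_congr rfl fun l _ => ?_
  rw [dE_smul_left (h.hom j k l), show D.m - 2 - 1 = D.m - 3 by omega]
  ring

theorem T_scale {κ : Type*} [Fintype κ] {D : FDat κ ℂ} (h : D.Exact) (j : κ) (c : ℂ)
    (x u v w : κ → ℂ) : D.T j (c • x) u v w = c ^ (D.m - 2) * D.T j x u v w := by
  have h1 : c ^ (D.m - 2) = c * c ^ (D.m - 3) := by
    rw [← pow_succ']
    congr 1
    have := h.two
    omega
  unfold FDat.T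
  rw [db_scale h, db_scale h, db_scale h, b_scale h, b_scale h, b_scale h, h1, Pi.smul_apply,
    smul_eq_mul]
  ring

variable {n : ℕ} {M : Type} [TopologicalSpace M] {A : Atl n M} {O : LB A} {r : ℕ}

/-- closed holomorphic 2-forms -/
def Closed (σ : H2 A) : Prop := ∀ i, ∀ x ∈ (A.e i).source, ∀ a b c : Fin n,
  df A i (fun y => σ.s i y b c) x (EuclideanSpace.single a 1) +
  df A i (fun y => σ.s i y c a) x (EuclideanSpace.single b 1) +
  df A i (fun y => σ.s i y a b) x (EuclideanSpace.single c 1) = 0

/-- the data of a family of polynomial forms -/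
def fdat {F : Fin r → Fn A} {σ : H2 A} {m : ℕ} (P : ∀ j, PForm F m (pw (F j) m) σ) :
    FDat (Fin r) ℂ := ⟨m, fun j => (P j).s⟩

section Main

variable {F : Fin r → Fn A} {σ : H2 A} {m : ℕ} (P : ∀ j, PForm F m (pw (F j) m) σ)

theorem exact_fdat (hm : 3 ≤ m) : (fdat P).Exact :=
  ⟨hm, fun j => (P j).alt, fun j => (P j).hom, fun j => (P j).eul⟩

/-- the column of derivatives -/
def dcol (F : Fin r → Fn A) (i : A.ι) (x : M) (a : Fin n) : Fin r → ℂ := fun k => DF F i x k a

theorem b_dcol {i : A.ι} {x : M} (hx : x ∈ (A.e i).source) (j : Fin r) (a b : Fin n) :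
    (fdat P).b j (fun k => F k i x) (dcol F i x a) (dcol F i x b) =
      F j i x ^ m * σ.s i x a b := by
  have h1 := congrFun (congrFun ((P j).eq i x hx) a) b
  rw [Matrix.smul_apply, smul_eq_mul, pw_apply _ _ hx] at h1
  rw [h1, Matrix.mul_apply]
  unfold FDat.b
  rw [Finset.sum_comm]
  refine Finset.sum_congr rfl fun l _ => ?_
  rw [Matrix.mul_apply, Finset.sum_mul]
  refine Finset.sum_congr rfl fun k _ => ?_
  rw [Matrix.transpose_apply, evM_apply]
  show MvPolynomial.eval (fun k => F k i x) ((P j).s k l) * (DF F i x k a * DF F i x l b) = _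
  ring

theorem dir_eq (i : A.ι) (x : M) (u : Cn n) :
    (fun k => df A i (F k i) x u) = ∑ a, u a • dcol F i x a := by
  funext k
  rw [df_eq_sum, Finset.sum_apply]
  rfl

theorem b_sum_left {κ α : Type*} [Fintype κ] (D : FDat κ ℂ) (j : κ) (x : κ → ℂ) (s : Finset α)
    (c : α → ℂ) (v : α → κ → ℂ) (w : κ → ℂ) :
    D.b j x (∑ a ∈ s, c a • v a) w = ∑ a ∈ s, c a * D.b j x (v a) w := by
  classical
  induction s using Finset.induction_on with
  | empty => simp [FDat.b]
  | insert a s ha ih =>
    rw [Finset.sum_insert ha, Finset.sum_insert ha, FDat.b_add_left, FDat.b_smul_left, ih]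

theorem b_dir (hm : 3 ≤ m) {i : A.ι} {x : M} (hx : x ∈ (A.e i).source) (j : Fin r) (u v : Cn n) :
    (fdat P).b j (fun k => F k i x) (fun k => df A i (F k i) x u) (fun k => df A i (F k i) x v) =
      F j i x ^ m * ∑ a, u a * ∑ b, σ.s i x a b * v b := by
  rw [dir_eq, dir_eq, b_sum_left, Finset.mul_sum]
  refine Finset.sum_congr rfl fun a _ => ?_
  rw [FDat.b_alt j _ (exact_fdat P hm), b_sum_left, ← Finset.sum_neg_distrib, Finset.mul_sum,
    Finset.mul_sum, Finset.mul_sum]
  refine Finset.sum_congr rfl fun b _ => ?_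
  rw [FDat.b_alt j _ (exact_fdat P hm), b_dcol P hx]
  ring

/-! ### closedness -/

theorem df_sum {α : Type*} (s : Finset α) {i : A.ι} {f : α → M → ℂ}
    (hf : ∀ k ∈ s, HolAt A i univ (f k)) {x : M} (hx : x ∈ (A.e i).source) (v : Cn n) :
    df A i (fun y => ∑ k ∈ s, f k y) x v = ∑ k ∈ s, df A i (f k) x v := by
  unfold df
  have h3 := HasFDerivAt.fun_sum (u := s) fun k hk =>
    ((hf k hk).diffAt isOpen_univ hx (mem_univ x)).hasFDerivAt
  rw [h3.fderiv, _root_.sum_apply]

theorem holAt_ev {F : Fin r → Fn A} (hF : ∀ k, IsHS O univ (F k)) (i : A.ι)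
    (p : MvPolynomial (Fin r) ℂ) :
    HolAt A i univ fun y => MvPolynomial.eval (fun k => F k i y) p := by
  intro z hz
  have hx := (A.e i).map_target hz.1
  have h := hasFDerivAt_ev (f := fun k z => F k i ((A.e i).symm z)) (z0 := z)
    (fun k => by
      have h1 := ((hF k).hol i).diffAt isOpen_univ hx (mem_univ _)
      rw [(A.e i).right_inv hz.1] at h1
      exact h1.hasFDerivAt) p
  exact h.differentiableAt.differentiableWithinAt

theorem df_pow {i : A.ι} {f : M → ℂ} (hf : HolAt A i univ f) {x : M} (hx : x ∈ (A.e i).source)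
    (v : Cn n) (m : ℕ) : df A i (fun y => f y ^ m) x v = m * f x ^ (m - 1) * df A i f x v := by
  induction m with
  | zero =>
    unfold df
    simp
  | succ m ih =>
    have h1 : (fun y => f y ^ (m + 1)) = fun y => f y ^ m * f y := funext fun y => pow_succ _ _
    rw [h1, df_mul isOpen_univ (hf.pow m) hf hx (mem_univ x), ih]
    rcases Nat.eq_zero_or_pos m with h0 | h0
    · subst h0
      simp
    · have h2 : f x ^ m = f x ^ (m - 1) * f x := by
        rw [← pow_succ]
        congr 1
        omega
      rw [Nat.add_sub_cancel, h2]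
      push_cast
      ring

/-- symmetry of the second derivatives -/
theorem df_df {i : A.ι} {f : M → ℂ} (hf : HolAt A i univ f) {x : M} (hx : x ∈ (A.e i).source)
    (u v : Cn n) : df A i (fun y => df A i f y v) x u = df A i (fun y => df A i f y u) x v := by
  have ho : IsOpen ((A.e i).target ∩ (A.e i).symm ⁻¹' univ) := isOpen_ti isOpen_univ
  have hm : A.e i x ∈ (A.e i).target ∩ (A.e i).symm ⁻¹' univ := ⟨(A.e i).map_source hx, mem_univ _⟩
  set g : Cn n → ℂ := fun w => f ((A.e i).symm w) with hg
  have ha : AnalyticAt ℂ g (A.e i x) :=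
    Crest.Agent.R266.SCV.analyticOnNhd_of_differentiableOn ho hf _ hm
  have hd : DifferentiableAt ℂ (fderiv ℂ g) (A.e i x) := ha.fderiv.differentiableAt
  have key : ∀ v u : Cn n, df A i (fun y => df A i f y v) x u = fderiv ℂ (fderiv ℂ g) (A.e i x) u v := by
    intro v u
    have h1 : (fun w => df A i f ((A.e i).symm w) v) =ᶠ[𝓝 (A.e i x)] fun w => fderiv ℂ g w v := by
      filter_upwards [(A.e i).open_target.mem_nhds hm.1] with w hw
      unfold df
      rw [(A.e i).right_inv hw]
    unfold df
    unfold df at h1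
    rw [h1.fderiv_eq]
    have h2 := (hd.hasFDerivAt).clm_apply (hasFDerivAt_const v (A.e i x))
    rw [h2.fderiv]
    simp
  rw [key, key]
  exact (ha.contDiffAt (n := 2)).isSymmSndFDerivAt (by simp) u v

variable {P}

theorem clo_col (hF : ∀ k, IsHS O univ (F k)) (hm : 3 ≤ m) (hcl : Closed σ) {i : A.ι} {x : M}
    (hx : x ∈ (A.e i).source) (j : Fin r) (a b c : Fin n) :
    (fdat P).T j (fun k => F k i x) (dcol F i x c) (dcol F i x a) (dcol F i x b) = 0 := by
  have hE := exact_fdat P hm
  -- the second derivatives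
  let d2 : Fin n → Fin n → Fin r → ℂ := fun a c k =>
    df A i (fun y => DF F i y k a) x (EuclideanSpace.single c 1)
  have hd2 : ∀ a c, d2 a c = d2 c a := by
    intro a c
    funext k
    exact df_df ((hF k).hol i) hx _ _
  -- the derivative of `b`
  have hcol : ∀ k a, HolAt A i univ fun y => DF F i y k a := fun k a => holAt_df ((hF k).hol i) _
  have hL : ∀ a b c : Fin n, df A i (fun y => (fdat P).b j (fun k => F k i y) (dcol F i y a)
      (dcol F i y b)) x (EuclideanSpace.single c 1) =
      (fdat P).db j (fun k => F k i x) (dcol F i x c) (dcol F i x a) (dcol F i x b) +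
      (fdat P).b j (fun k => F k i x) (d2 a c) (dcol F i x b) +
      (fdat P).b j (fun k => F k i x) (dcol F i x a) (d2 b c) := by
    intro a b c
    unfold FDat.b FDat.db
    have h1 : ∀ k l, HolAt A i univ fun y => MvPolynomial.eval (fun q => F q i y)
        ((fdat P).s j k l) * (dcol F i y a k * dcol F i y b l) := fun k l =>
      (holAt_ev hF i _).mul ((hcol k a).mul (hcol l b))
    rw [df_sum (f := fun k y => ∑ l, MvPolynomial.eval (fun q => F q i y)
        ((fdat P).s j k l) * (dcol F i y a k * dcol F i y b l)) Finset.univ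
      (fun k _ => HolAt.sum _ fun l _ => h1 k l) hx]
    rw [← Finset.sum_add_distrib, ← Finset.sum_add_distrib]
    refine Finset.sum_congr rfl fun k _ => ?_
    rw [df_sum (f := fun l y => MvPolynomial.eval (fun q => F q i y)
        ((fdat P).s j k l) * (dcol F i y a k * dcol F i y b l)) Finset.univ
      (fun l _ => h1 k l) hx]
    rw [← Finset.sum_add_distrib, ← Finset.sum_add_distrib]
    refine Finset.sum_congr rfl fun l _ => ?_
    have h2 := df_mul isOpen_univ (holAt_ev hF i ((fdat P).s j k l))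
      ((hcol k a).mul (hcol l b)) hx (mem_univ x) (EuclideanSpace.single c (1 : ℂ))
    have h3 := df_mul isOpen_univ (hcol k a) (hcol l b) hx (mem_univ x)
      (EuclideanSpace.single c (1 : ℂ))
    rw [h3, df_ev hF hx] at h2
    refine h2.trans ?_
    have e1 : (fun k => df A i (F k i) x (EuclideanSpace.single c 1)) = dcol F i x c := rfl
    rw [e1]
    show _ = dE ((fdat P).s j k l) (fun k => F k i x) (dcol F i x c) *
      (DF F i x k a * DF F i x l b) + MvPolynomial.eval (fun k => F k i x) ((fdat P).s j k l) *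
      (df A i (fun y => DF F i y k a) x (EuclideanSpace.single c 1) * DF F i x l b) +
      MvPolynomial.eval (fun k => F k i x) ((fdat P).s j k l) *
      (DF F i x k a * df A i (fun y => DF F i y l b) x (EuclideanSpace.single c 1))
    ring
  -- the derivative of the right hand side
  have hR : ∀ a b c : Fin n, df A i (fun y => (fdat P).b j (fun k => F k i y) (dcol F i y a)
      (dcol F i y b)) x (EuclideanSpace.single c 1) =
      F j i x ^ m * df A i (fun y => σ.s i y a b) x (EuclideanSpace.single c 1) +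
        σ.s i x a b * (m * F j i x ^ (m - 1) * DF F i x j c) := by
    intro a b c
    have h1 : (fun y => (fdat P).b j (fun k => F k i y) (dcol F i y a) (dcol F i y b)) =ᶠ[𝓝 x]
        fun y => F j i y ^ m * σ.s i y a b := by
      filter_upwards [(A.e i).open_source.mem_nhds hx] with y hy
      exact b_dcol P hy j a b
    rw [df_congr hx h1, df_mul isOpen_univ (((hF j).hol i).pow m) (σ.hol i a b) hx (mem_univ x)]
    rw [df_pow ((hF j).hol i) hx]
    rfl
  have e1 := (hL a b c).symm.trans (hR a b c)
  have e2 := (hL b c a).symm.trans (hR b c a)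
  have e3 := (hL c a b).symm.trans (hR c a b)
  have hc := hcl i x hx a b c
  have hm1 : F j i x ^ m = F j i x * F j i x ^ (m - 1) := by
    rw [← pow_succ']
    congr 1
    omega
  unfold FDat.T
  rw [b_dcol P hx, b_dcol P hx, b_dcol P hx]
  have f1 := FDat.b_alt j (fun k => F k i x) hE (d2 a c) (dcol F i x b)
  have f2 := FDat.b_alt j (fun k => F k i x) hE (d2 b c) (dcol F i x a)
  have f3 := FDat.b_alt j (fun k => F k i x) hE (d2 a b) (dcol F i x c)
  rw [hd2 b a] at e2
  rw [hd2 c a] at e2
  rw [hd2 c b] at e3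
  have hs : (fdat P).m = m := rfl
  rw [hs, hm1]
  rw [hm1] at e1 e2 e3
  have g1 : dcol F i x c j = DF F i x j c := rfl
  have g2 : dcol F i x a j = DF F i x j a := rfl
  have g3 : dcol F i x b j = DF F i x j b := rfl
  rw [g1, g2, g3]
  linear_combination F j i x * (e1 + e2 + e3) - F j i x * (f1 + f2 + f3) +
    F j i x * (F j i x * F j i x ^ (m - 1)) * hc

/-! ### the pointwise statements -/

theorem tanE_scale {E : Set (MvPolynomial (Fin r) ℂ)} (hE : E ⊆ Rels F) {c : ℂ} (hc : c ≠ 0)
    {x v : Fin r → ℂ} : TanE E (c • x) v ↔ TanE E x v := by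
  constructor
  · intro h p hp
    obtain ⟨⟨d, hd⟩, -⟩ := hE hp
    have h1 := h p hp
    rw [dE_smul_left hd] at h1
    exact (mul_eq_zero.1 h1).resolve_left (pow_ne_zero _ hc)
  · intro h p hp
    obtain ⟨⟨d, hd⟩, -⟩ := hE hp
    rw [dE_smul_left hd, h p hp, mul_zero]

/-- the general tangent vector -/
def tv (F : Fin r → Fn A) (i : A.ι) (x : M) (a : ℂ) (u : Cn n) : Fin r → ℂ :=
  a • (fun k => F k i x) + fun k => df A i (F k i) x u

theorem b_tv (hm : 3 ≤ m) {i : A.ι} {x : M} (hx : x ∈ (A.e i).source) (j : Fin r) (c a a' : ℂ)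
    (u u' : Cn n) :
    (fdat P).b j (c • fun k => F k i x) (tv F i x a u) (tv F i x a' u') =
      c ^ (m - 2) * (F j i x ^ m * ∑ a, u a * ∑ b, σ.s i x a b * u' b) := by
  have hE := exact_fdat P hm
  have h0 : (fdat P).m = m := rfl
  rw [b_scale hE, h0, tv, tv, FDat.b_add_left, FDat.b_add_right, FDat.b_add_right,
    FDat.b_smul_left, FDat.b_smul_left, FDat.b_smul_right, FDat.b_smul_right,
    FDat.b_self_left j _ hE, FDat.b_self_left j _ hE, FDat.b_self_right j _ hE, b_dir P hm hx]
  ring

theorem T_tv1 (hm : 3 ≤ m) {i : A.ι} {x : M} (j : Fin r) (a : ℂ) (u : Cn n) (v w : Fin r → ℂ) :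
    (fdat P).T j (fun k => F k i x) (tv F i x a u) v w =
      ∑ b, u b * (fdat P).T j (fun k => F k i x) (dcol F i x b) v w := by
  have hE := exact_fdat P hm
  rw [← FDat.Tl_apply, tv, map_add, map_smul, FDat.Tl_apply, FDat.T_self j _ hE, dir_eq, map_sum,
    smul_zero, zero_add]
  exact Finset.sum_congr rfl fun b _ => by rw [map_smul, FDat.Tl_apply, smul_eq_mul]

theorem T_tv (hF : ∀ k, IsHS O univ (F k)) (hm : 3 ≤ m) (hcl : Closed σ) {i : A.ι} {x : M}
    (hx : x ∈ (A.e i).source) (j : Fin r) (a a' a'' : ℂ) (u u' u'' : Cn n) :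
    (fdat P).T j (fun k => F k i x) (tv F i x a u) (tv F i x a' u') (tv F i x a'' u'') = 0 := by
  rw [T_tv1 hm]
  refine Finset.sum_eq_zero fun b _ => ?_
  rw [FDat.T_cyc, T_tv1 hm, Finset.sum_eq_zero, mul_zero]
  intro b' _
  rw [FDat.T_cyc, T_tv1 hm, Finset.sum_eq_zero, mul_zero]
  intro b'' _
  rw [clo_col hF hm hcl hx, mul_zero]

/-- **the polynomial data of a closed holomorphic symplectic form satisfy the pointwise
identities** -/
theorem imp_of (hF : ∀ k, IsHS O univ (F k)) {E : Set (MvPolynomial (Fin r) ℂ)} (hE : Eqs F E)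
    (τ : HSymp A) (P : ∀ j, PForm F m (pw (F j) m) τ.toH2) (hm : 3 ≤ m) (hcl : Closed τ.toH2) :
    (fdat P).Imp E := by
  have hX := exact_fdat P hm
  have h0 : (fdat P).m = m := rfl
  -- the structure of points and tangent vectors
  have key : ∀ x : Fin r → ℂ, x ≠ 0 → OnE E x → ∃ i, ∃ p ∈ (A.e i).source, ∃ c : ℂ, c ≠ 0 ∧
      x = (c • fun k => F k i p) ∧ ∀ v, TanE E x v → ∃ a u, v = tv F i p a u := by
    intro x hx hOn
    obtain ⟨i, p, hp, c, hc, rfl⟩ := hE.pt x hx hOn
    refine ⟨i, p, hp, c, hc, rfl, fun v hv => ?_⟩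
    obtain ⟨a, u, h⟩ := hE.tan i p hp v ((tanE_scale hE.rel hc).1 hv)
    exact ⟨a, u, h⟩
  have hb0 : ∀ j v w, (fdat P).b j 0 v w = 0 := by
    intro j v w
    have h1 := b_scale hX j 0 0 v w
    rw [zero_smul, zero_pow (by rw [h0]; omega), zero_mul] at h1
    exact h1
  refine ⟨fun x v w hOn hv hw i j => ?_, fun x u v w hOn hu hv hw j => ?_,
    fun x v j hOn hv h hxj => ?_⟩
  · by_cases hx : x = 0
    · subst hx
      rw [Pi.zero_apply, Pi.zero_apply, zero_pow (by rw [h0]; omega), zero_mul, zero_mul]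
    · obtain ⟨c, p, hp, l, hl, rfl, ht⟩ := key x hx hOn
      obtain ⟨a, u, rfl⟩ := ht v hv
      obtain ⟨a', u', rfl⟩ := ht w hw
      rw [b_tv hm hp, b_tv hm hp, h0, Pi.smul_apply, Pi.smul_apply, smul_eq_mul, smul_eq_mul,
        mul_pow, mul_pow]
      ring
  · by_cases hx : x = 0
    · subst hx
      unfold FDat.T
      rw [hb0, hb0, hb0, Pi.zero_apply]
      ring
    · obtain ⟨i, p, hp, l, hl, rfl, ht⟩ := key x hx hOn
      obtain ⟨a, u, rfl⟩ := ht u hu
      obtain ⟨a', u', rfl⟩ := ht v hv
      obtain ⟨a'', u'', rfl⟩ := ht w hw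
      rw [T_scale hX, T_tv hF hm hcl hp, mul_zero]
  · have hx : x ≠ 0 := fun h => hxj (by rw [h]; rfl)
    obtain ⟨i, p, hp, l, hl, rfl, ht⟩ := key x hx hOn
    obtain ⟨a, u, rfl⟩ := ht v hv
    have hFj : F j i p ≠ 0 := by
      intro h
      refine hxj ?_
      rw [Pi.smul_apply, smul_eq_mul, h, mul_zero]
    have hu : u = 0 := by
      have h1 : ∀ u' : Cn n, ∑ a, u a * ∑ b, τ.s i p a b * u' b = 0 := by
        intro u'
        have h2 := h (tv F i p 0 u') ((tanE_scale hE.rel hl).2 fun q hq => by
          rw [tv, zero_smul, zero_add]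
          exact dE_rel hF (hE.rel hq) hp u')
        rw [b_tv hm hp] at h2
        exact (mul_eq_zero.1 ((mul_eq_zero.1 h2).resolve_left (pow_ne_zero _ hl))).resolve_left
          (pow_ne_zero _ hFj)
      have h3 : (fun a => u a) ᵥ* τ.s i p = 0 := by
        funext b
        have h4 := h1 (EuclideanSpace.single b 1)
        refine Eq.trans ?_ h4
        unfold Matrix.vecMul dotProduct
        refine Finset.sum_congr rfl fun a _ => ?_
        congr 1
        simp
      have h5 := Matrix.eq_zero_of_vecMul_eq_zero (τ.nd i p hp) h3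
      ext a
      exact congrFun h5 a
    subst hu
    refine ⟨a / l, ?_⟩
    rw [smul_smul, div_mul_cancel₀ _ hl, tv]
    funext k
    simp

end Main

end

end Crest.Agent.R281.AF_867
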