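import Mathlib

/-!
# Row 281, NS (helper476): generic transfer of implications between polynomial equations

`K` algebraically closed, `σ` finite.

* `Imp G H`  : `∀ y : σ → K, (∀ l, eval y (G l) = 0) → eval y H = 0`
* `Cert G H` : a Nullstellensatz identity `H ^ N = ∑ l, a l * G l`; `Cert.S` = its coefficients
* `exists_cert`, `exists_cert_set`
* `Cert.trans` : transfer to every reduced ring `L` along `φ : R →+* L`, `R →+* K` injective with
  the coefficients `S` of the certificate in its range
* `Cert.spec`, `exists_spec` : the same for polynomials with coefficients which are polynomials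
  over `k₀` in a vector `c : ι → K`, at every point `c'` satisfying the `k₀`-relations of `c`.
-/

set_option autoImplicit false

open MvPolynomial

namespace Crest.Agent.R281.Ns_476

noncomputable section

universe u v w

section cert

variable {K : Type u} [Field K] {σ : Type v} {ι : Type w}

/-- implication between polynomial equations -/
def Imp (G : ι → MvPolynomial σ K) (H : MvPolynomial σ K) : Prop :=
  ∀ y : σ → K, (∀ l, eval y (G l) = 0) → eval y H = 0

/-- implication between polynomial equations, set form -/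
def ImpS (G : Set (MvPolynomial σ K)) (H : MvPolynomial σ K) : Prop :=
  ∀ y : σ → K, (∀ p ∈ G, eval y p = 0) → eval y H = 0

/-- Nullstellensatz certificate -/
structure Cert [Fintype ι] (G : ι → MvPolynomial σ K) (H : MvPolynomial σ K) where
  N : ℕ
  a : ι → MvPolynomial σ K
  eq : H ^ N = ∑ l, a l * G l

variable [Fintype ι] {G : ι → MvPolynomial σ K} {H : MvPolynomial σ K}

open scoped Classical in
/-- the coefficients of the certificate -/
def Cert.S (c : Cert G H) : Finset K := Finset.univ.biUnion fun l => (c.a l).coeffs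

theorem Cert.mem_S (c : Cert G H) (l : ι) {x : K} (hx : x ∈ (c.a l).coeffs) : x ∈ c.S := by
  classical
  exact Finset.mem_biUnion.2 ⟨l, Finset.mem_univ _, hx⟩

/-- the conclusion is true for the certificate itself -/
theorem Cert.imp (c : Cert G H) : Imp G H := by
  intro y hy
  have h1 := congrArg (eval y) c.eq
  rw [map_pow, map_sum] at h1
  have h2 : ∑ l, eval y (c.a l * G l) = 0 :=
    Finset.sum_eq_zero fun l _ => by rw [map_mul, hy, mul_zero]
  rw [h2] at h1
  by_cases hN : c.N = 0
  · rw [hN, pow_zero] at h1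
    exact absurd h1 one_ne_zero
  · exact (pow_eq_zero_iff hN).1 h1

theorem exists_cert [IsAlgClosed K] [Finite σ] (h : Imp G H) : Nonempty (Cert G H) := by
  have h1 : H ∈ (Ideal.span (Set.range G)).radical := by
    rw [← vanishingIdeal_zeroLocus_eq_radical (K := K)]
    intro y hy
    rw [aeval_eq_eval]
    refine h y fun l => ?_
    have h2 := hy (G l) (Ideal.subset_span ⟨l, rfl⟩)
    rwa [aeval_eq_eval] at h2
  obtain ⟨N, hN⟩ := Ideal.mem_radical_iff.1 h1
  obtain ⟨a, ha⟩ := (Submodule.mem_span_range_iff_exists_fun _).1 hN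
  exact ⟨⟨N, a, by rw [← ha]; rfl⟩⟩

theorem exists_cert_set [IsAlgClosed K] [Finite σ] {E : Set (MvPolynomial σ K)} (h : ImpS E H) :
    ∃ T : Finset (MvPolynomial σ K), (T : Set (MvPolynomial σ K)) ⊆ E ∧
      Nonempty (Cert (fun p : T => (p : MvPolynomial σ K)) H) := by
  have h1 : H ∈ (Ideal.span E).radical := by
    rw [← vanishingIdeal_zeroLocus_eq_radical (K := K)]
    intro y hy
    rw [aeval_eq_eval]
    refine h y fun p hp => ?_
    have h2 := hy p (Ideal.subset_span hp)
    rwa [aeval_eq_eval] at h2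
  obtain ⟨N, hN⟩ := Ideal.mem_radical_iff.1 h1
  obtain ⟨T, hT, hT'⟩ := Submodule.mem_span_finite_of_mem_span hN
  have h3 : (T : Set (MvPolynomial σ K)) = Set.range fun p : T => (p : MvPolynomial σ K) := by
    simp
  rw [h3] at hT'
  obtain ⟨a, ha⟩ := (Submodule.mem_span_range_iff_exists_fun _).1 hT'
  exact ⟨T, hT, ⟨⟨N, a, by rw [← ha]; rfl⟩⟩⟩

/-- **transfer**: the implication holds over every reduced ring `L` over a subring `R` of `K`
which contains the coefficients of the certificate. -/
theorem Cert.trans (c : Cert G H) {R : Type*} [CommRing R] {i : R →+* K}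
    (hi : Function.Injective i) (hS : ∀ x ∈ c.S, x ∈ Set.range i) {g : ι → MvPolynomial σ R}
    (hg : ∀ l, map i (g l) = G l) {h : MvPolynomial σ R} (hh : map i h = H)
    {L : Type*} [CommRing L] [IsReduced L] (φ : R →+* L) (y : σ → L)
    (hy : ∀ l, eval₂ φ y (g l) = 0) : eval₂ φ y h = 0 := by
  have h1 : ∀ l, ∃ b : MvPolynomial σ R, map i b = c.a l := fun l =>
    mem_range_map_iff_coeffs_subset.2 fun x hx => hS x (c.mem_S l hx)
  choose b hb using h1
  have h2 : h ^ c.N = ∑ l, b l * g l := by
    apply map_injective i hi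
    rw [map_pow, hh, c.eq, map_sum]
    exact Finset.sum_congr rfl fun l _ => by rw [map_mul, hb, hg]
  have h3 : eval₂ φ y h ^ c.N = 0 := by
    have h4 := congrArg (eval₂Hom φ y) h2
    rw [map_pow, map_sum] at h4
    simp only [map_mul, coe_eval₂Hom, hy, mul_zero, Finset.sum_const_zero] at h4
    exact h4
  exact eq_zero_of_pow_eq_zero h3

end cert

section spec

variable {k₀ : Type*} [CommRing k₀] {K : Type u} [Field K] [Algebra k₀ K] {α : Type*}

/-- `k₀[c]` -/
abbrev Rg (k₀ : Type*) [CommRing k₀] {K : Type u} [Field K] [Algebra k₀ K] {α : Type*}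
    (c : α → K) : Subalgebra k₀ K := (aeval c : MvPolynomial α k₀ →ₐ[k₀] K).range

theorem mem_Rg (c : α → K) (a : α) : c a ∈ Rg k₀ c := ⟨X a, by simp⟩

/-- the homomorphism `k₀[c] → L` of a point `c'` which satisfies the relations of `c` -/
theorem exists_hom {L : Type*} [CommRing L] [Algebra k₀ L] (c : α → K) (c' : α → L)
    (hrel : ∀ r : MvPolynomial α k₀, aeval c r = 0 → aeval c' r = 0) :
    ∃ φ : Rg k₀ c →ₐ[k₀] L, ∀ r : MvPolynomial α k₀,
      φ ⟨aeval c r, ⟨r, rfl⟩⟩ = aeval c' r := by
  have hsurj : Function.Surjective (aeval c : MvPolynomial α k₀ →ₐ[k₀] K).rangeRestrict :=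
    AlgHom.rangeRestrict_surjective _
  have hker : RingHom.ker (aeval c : MvPolynomial α k₀ →ₐ[k₀] K).rangeRestrict.toRingHom ≤
      RingHom.ker (aeval c' : MvPolynomial α k₀ →ₐ[k₀] L).toRingHom := by
    intro r hr
    refine hrel r ?_
    have := congrArg Subtype.val (RingHom.mem_ker.1 hr)
    simpa using this
  refine ⟨AlgHom.liftOfSurjective _ hsurj _ hker, fun r => ?_⟩
  exact AlgHom.liftOfSurjective_apply _ hsurj _ hker r

variable {σ : Type v} {ι : Type w} [Fintype ι]

/-- **transfer along a specialisation** `c ↦ c'`: `g l`, `h` are polynomials in `y` with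
coefficients in `k₀[c]`. -/
theorem Cert.spec {c : α → K} {g : ι → MvPolynomial σ (MvPolynomial α k₀)}
    {h : MvPolynomial σ (MvPolynomial α k₀)}
    (C : Cert (fun l => map (aeval c : MvPolynomial α k₀ →ₐ[k₀] K).toRingHom (g l))
      (map (aeval c : MvPolynomial α k₀ →ₐ[k₀] K).toRingHom h))
    (hS : ∀ x ∈ C.S, x ∈ Rg k₀ c) {L : Type*} [CommRing L] [IsReduced L] [Algebra k₀ L]
    {c' : α → L} (hrel : ∀ r : MvPolynomial α k₀, aeval c r = 0 → aeval c' r = 0) (y : σ → L)
    (hy : ∀ l, eval₂ (aeval c' : MvPolynomial α k₀ →ₐ[k₀] L).toRingHom y (g l) = 0) :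
    eval₂ (aeval c' : MvPolynomial α k₀ →ₐ[k₀] L).toRingHom y h = 0 := by
  obtain ⟨φ, hφ⟩ := exists_hom c c' hrel
  let ρ : MvPolynomial α k₀ →+* Rg k₀ c :=
    (aeval c : MvPolynomial α k₀ →ₐ[k₀] K).rangeRestrict.toRingHom
  have hρ : φ.toRingHom.comp ρ = (aeval c' : MvPolynomial α k₀ →ₐ[k₀] L).toRingHom :=
    RingHom.ext fun r => hφ r
  have e : ∀ p : MvPolynomial σ (MvPolynomial α k₀),
      eval₂ (aeval c' : MvPolynomial α k₀ →ₐ[k₀] L).toRingHom y p =
        eval₂ φ.toRingHom y (map ρ p) := by
    intro p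
    rw [eval₂_map, hρ]
  have m : ∀ p : MvPolynomial σ (MvPolynomial α k₀),
      map (Rg k₀ c).val.toRingHom (map ρ p) =
        map (aeval c : MvPolynomial α k₀ →ₐ[k₀] K).toRingHom p := by
    intro p
    rw [map_map]
    rfl
  rw [e]
  refine C.trans (i := (Rg k₀ c).val.toRingHom) Subtype.val_injective
    (fun x hx => ⟨⟨x, hS x hx⟩, rfl⟩) (fun l => m (g l)) (m h) φ.toRingHom y fun l => ?_
  rw [← e]
  exact hy l

variable {κ : Type*} [Finite κ] {J : κ → Type w} [∀ q, Fintype (J q)]

/-- **finitely many implications at once**: a finite set `S ⊆ K`; as soon as `k₀[c₁] ⊇ S`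
(and the polynomials are written with coefficients in `k₀[c₁]`), all the implications pass to
every point `c'` satisfying the relations of `c₁`. -/
theorem exists_spec [IsAlgClosed K] [Finite σ] (G : ∀ q : κ, J q → MvPolynomial σ K)
    (H : κ → MvPolynomial σ K) (himp : ∀ q, Imp (G q) (H q)) :
    ∃ S : Finset K, ∀ {R : Type u} [CommRing R] {i : R →+* K}, Function.Injective i →
      (∀ x ∈ S, x ∈ Set.range i) → ∀ {L : Type u} [CommRing L] [IsReduced L] (φ : R →+* L)
      (q : κ) {g : J q → MvPolynomial σ R} {h : MvPolynomial σ R},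
      (∀ l, map i (g l) = G q l) → map i h = H q → ∀ y : σ → L,
      (∀ l, eval₂ φ y (g l) = 0) → eval₂ φ y h = 0 := by
  classical
  have := Fintype.ofFinite κ
  have hC : ∀ q, Nonempty (Cert (G q) (H q)) := fun q => exists_cert (himp q)
  let C : ∀ q, Cert (G q) (H q) := fun q => (hC q).some
  refine ⟨Finset.univ.biUnion fun q => (C q).S, ?_⟩
  intro R _ i hi hS L _ _ φ q g h hg hh y hy
  exact (C q).trans hi (fun x hx => hS x (Finset.mem_biUnion.2 ⟨q, Finset.mem_univ _, hx⟩))
    hg hh φ y hy

/-- every finite set of elements can be added to the vector -/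
theorem mem_Rg_elim (c : α → K) (S : Finset K) {x : K} (hx : x ∈ S) :
    x ∈ Rg k₀ (Sum.elim c fun s : S => (s : K)) := by
  have := mem_Rg (k₀ := k₀) (Sum.elim c fun s : S => (s : K)) (Sum.inr ⟨x, hx⟩)
  simpa using this

theorem mem_Rg_mono {β : Type*} {c : α → K} {d : β → K} (f : α → β) (h : ∀ a, c a = d (f a))
    {x : K} (hx : x ∈ Rg k₀ c) : x ∈ Rg k₀ d := by
  obtain ⟨r, rfl⟩ := hx
  refine ⟨rename f r, ?_⟩
  show aeval d (rename f r) = aeval c r
  rw [aeval_rename]
  congr 2
  funext a
  exact (h a).symm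

end spec

end

end Crest.Agent.R281.Ns_476
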