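import Crest.Agent.R281.AF5_867
import Crest.Agent.R281.Ns1_476

/-!
# R281 (S0424), ALG-FORM, part 6 (helper867): transfer of the polynomial symplectic form to every
specialisation of the coefficients

* `transfer`    : `D : FDat κ ℂ` with `Exact` and `Imp D E` (`E` finite): there is a finite set `S` of
  complex numbers such that for every injective `i : R →+* ℂ` whose range contains `S`, `D` has a
  lift `D'` over `R`, `D'.Exact`, and for EVERY ring hom `φ : R →+* L` to a field the data
  `D'.map φ` satisfy the pointwise identities on the cone of the equations `φ (E)`.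
* `exists_fdat` : the data of a closed holomorphic symplectic form on a projective manifold.
-/

set_option autoImplicit false
set_option linter.unusedSectionVars false

open Set Filter Topology Complex
open scoped ContDiff Matrix ComplexConjugate

namespace Crest.Agent.R281.AF_867

open Crest.Agent.R275 Crest.Agent.R275.Geo Crest.Agent.R275.Core144
open Crest.Agent.R273.SerA_945 Crest.Agent.R273.SerB_945 Crest.Agent.R273.SerC_945
open Crest.Agent.R273.SerE_945 Crest.Agent.R273.TD3_733 Crest.Agent.R273.FS_333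
open Crest.Agent.R273.Defs_333 Crest.Agent.R273.SteinC_794 Crest.Agent.R273.KosGen_313
open Crest.Agent.R273.Chow_313 Crest.Agent.R260.Zt_313 Crest.Agent.R281.Defs_273

noncomputable section

section Alg

variable {κ ι R L : Type*} [Fintype κ] [CommRing R] [CommRing L]

/-- the variables: the point `x` and the vectors `u v w`, and auxiliary unknowns -/
abbrev Vr (κ ι : Type*) : Type _ := (Fin 4 × κ) ⊕ ι

/-- a polynomial in the variables of the block `0` -/
def on (ι : Type*) (p : MvPolynomial κ R) : MvPolynomial (Vr κ ι) R :=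
  MvPolynomial.rename (fun k => Sum.inl (0, k)) p

/-- the derivative in the direction of the block `q` -/
def tan (ι : Type*) (q : Fin 4) (p : MvPolynomial κ R) : MvPolynomial (Vr κ ι) R :=
  ∑ k, on ι (MvPolynomial.pderiv k p) * MvPolynomial.X (Sum.inl (q, k))

theorem map_on (φ : R →+* L) (p : MvPolynomial κ R) :
    MvPolynomial.map φ (on ι p) = on ι (MvPolynomial.map φ p) := MvPolynomial.map_rename _ _ _

theorem map_pderiv (φ : R →+* L) (p : MvPolynomial κ R) (k : κ) :
    MvPolynomial.map φ (MvPolynomial.pderiv k p) = MvPolynomial.pderiv k (MvPolynomial.map φ p) :=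
  MvPolynomial.pderiv_map.symm

theorem map_tan (φ : R →+* L) (q : Fin 4) (p : MvPolynomial κ R) :
    MvPolynomial.map φ (tan ι q p) = tan ι q (MvPolynomial.map φ p) := by
  unfold tan
  rw [map_sum]
  exact Finset.sum_congr rfl fun k _ => by rw [map_mul, map_on, map_pderiv, MvPolynomial.map_X]

theorem eval_on (y : Vr κ ι → L) (p : MvPolynomial κ L) :
    MvPolynomial.eval y (on ι p) = MvPolynomial.eval (fun k => y (Sum.inl (0, k))) p := by
  unfold on
  rw [MvPolynomial.eval_rename]
  rfl

theorem eval_tan (y : Vr κ ι → L) (q : Fin 4) (p : MvPolynomial κ L) :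
    MvPolynomial.eval y (tan ι q p) =
      dE p (fun k => y (Sum.inl (0, k))) fun k => y (Sum.inl (q, k)) := by
  unfold tan dE
  rw [map_sum]
  exact Finset.sum_congr rfl fun k _ => by rw [map_mul, eval_on, MvPolynomial.eval_X]

namespace FDat

/-- the polynomial of `b j x (q1) (q2)` -/
def bP (D : FDat κ R) (ι : Type*) (j : κ) (q1 q2 : Fin 4) : MvPolynomial (Vr κ ι) R :=
  ∑ k, ∑ l, on ι (D.s j k l) * (MvPolynomial.X (Sum.inl (q1, k)) * MvPolynomial.X (Sum.inl (q2, l)))

/-- the polynomial of `db j x (q0) (q1) (q2)` -/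
def dbP (D : FDat κ R) (ι : Type*) (j : κ) (q0 q1 q2 : Fin 4) : MvPolynomial (Vr κ ι) R :=
  ∑ k, ∑ l, tan ι q0 (D.s j k l) *
    (MvPolynomial.X (Sum.inl (q1, k)) * MvPolynomial.X (Sum.inl (q2, l)))

/-- the polynomial of `T j x (1) (2) (3)` -/
def TP (D : FDat κ R) (ι : Type*) (j : κ) : MvPolynomial (Vr κ ι) R :=
  MvPolynomial.X (Sum.inl (0, j)) * (D.dbP ι j 1 2 3 + D.dbP ι j 2 3 1 + D.dbP ι j 3 1 2) -
    MvPolynomial.C (D.m : R) * (MvPolynomial.X (Sum.inl (1, j)) * D.bP ι j 2 3 +
      MvPolynomial.X (Sum.inl (2, j)) * D.bP ι j 3 1 +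
      MvPolynomial.X (Sum.inl (3, j)) * D.bP ι j 1 2)

/-- the polynomial of the agreement -/
def aP (D : FDat κ R) (ι : Type*) (i j : κ) : MvPolynomial (Vr κ ι) R :=
  MvPolynomial.X (Sum.inl (0, i)) ^ D.m * D.bP ι j 2 3 -
    MvPolynomial.X (Sum.inl (0, j)) ^ D.m * D.bP ι i 2 3

theorem map_bP (D : FDat κ R) (φ : R →+* L) (j : κ) (q1 q2 : Fin 4) :
    MvPolynomial.map φ (D.bP ι j q1 q2) = (D.map φ).bP ι j q1 q2 := by
  unfold bP
  rw [map_sum]
  refine Finset.sum_congr rfl fun k _ => ?_
  rw [map_sum]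
  exact Finset.sum_congr rfl fun l _ => by
    rw [map_mul, map_mul, map_on, MvPolynomial.map_X, MvPolynomial.map_X, FDat.map_s]

theorem map_dbP (D : FDat κ R) (φ : R →+* L) (j : κ) (q0 q1 q2 : Fin 4) :
    MvPolynomial.map φ (D.dbP ι j q0 q1 q2) = (D.map φ).dbP ι j q0 q1 q2 := by
  unfold dbP
  rw [map_sum]
  refine Finset.sum_congr rfl fun k _ => ?_
  rw [map_sum]
  exact Finset.sum_congr rfl fun l _ => by
    rw [map_mul, map_mul, map_tan, MvPolynomial.map_X, MvPolynomial.map_X, FDat.map_s]

theorem map_TP (D : FDat κ R) (φ : R →+* L) (j : κ) :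
    MvPolynomial.map φ (D.TP ι j) = (D.map φ).TP ι j := by
  unfold TP
  simp only [map_sub, map_mul, map_add, map_dbP, map_bP, MvPolynomial.map_X,
    map_natCast, FDat.map_m]

theorem map_aP (D : FDat κ R) (φ : R →+* L) (i j : κ) :
    MvPolynomial.map φ (D.aP ι i j) = (D.map φ).aP ι i j := by
  unfold aP
  simp only [map_sub, map_mul, map_pow, map_bP, MvPolynomial.map_X, FDat.map_m]

theorem eval_bP (D : FDat κ L) (y : Vr κ ι → L) (j : κ) (q1 q2 : Fin 4) :
    MvPolynomial.eval y (D.bP ι j q1 q2) = D.b j (fun k => y (Sum.inl (0, k)))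
      (fun k => y (Sum.inl (q1, k))) (fun k => y (Sum.inl (q2, k))) := by
  unfold bP b
  rw [map_sum]
  refine Finset.sum_congr rfl fun k _ => ?_
  rw [map_sum]
  exact Finset.sum_congr rfl fun l _ => by
    rw [map_mul, map_mul, eval_on, MvPolynomial.eval_X, MvPolynomial.eval_X]

theorem eval_dbP (D : FDat κ L) (y : Vr κ ι → L) (j : κ) (q0 q1 q2 : Fin 4) :
    MvPolynomial.eval y (D.dbP ι j q0 q1 q2) = D.db j (fun k => y (Sum.inl (0, k)))
      (fun k => y (Sum.inl (q0, k))) (fun k => y (Sum.inl (q1, k)))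
      (fun k => y (Sum.inl (q2, k))) := by
  unfold dbP db
  rw [map_sum]
  refine Finset.sum_congr rfl fun k _ => ?_
  rw [map_sum]
  exact Finset.sum_congr rfl fun l _ => by
    rw [map_mul, map_mul, eval_tan, MvPolynomial.eval_X, MvPolynomial.eval_X]

theorem eval_TP (D : FDat κ L) (y : Vr κ ι → L) (j : κ) :
    MvPolynomial.eval y (D.TP ι j) = D.T j (fun k => y (Sum.inl (0, k)))
      (fun k => y (Sum.inl (1, k))) (fun k => y (Sum.inl (2, k)))
      (fun k => y (Sum.inl (3, k))) := by
  unfold TP T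
  simp only [map_sub, map_mul, map_add, eval_dbP, eval_bP, MvPolynomial.eval_X,
    MvPolynomial.eval_C]

theorem eval_aP (D : FDat κ L) (y : Vr κ ι → L) (i j : κ) :
    MvPolynomial.eval y (D.aP ι i j) =
      y (Sum.inl (0, i)) ^ D.m * D.b j (fun k => y (Sum.inl (0, k)))
        (fun k => y (Sum.inl (2, k))) (fun k => y (Sum.inl (3, k))) -
      y (Sum.inl (0, j)) ^ D.m * D.b i (fun k => y (Sum.inl (0, k)))
        (fun k => y (Sum.inl (2, k))) (fun k => y (Sum.inl (3, k))) := by
  unfold aP
  simp only [map_sub, map_mul, map_pow, eval_bP, MvPolynomial.eval_X]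

end FDat

/-! ### the equations of the nondegeneracy -/

variable {e : Type*} [Fintype e]

/-- `∑ l, s j l k (x) v_l - ∑ p, y_p ∂_k p (x)` -/
def nP (D : FDat κ R) (G : e → MvPolynomial κ R) (j k : κ) : MvPolynomial (Vr κ e) R :=
  ∑ l, on e (D.s j l k) * MvPolynomial.X (Sum.inl (2, l)) -
    ∑ p, MvPolynomial.X (Sum.inr p) * on e (MvPolynomial.pderiv k (G p))

/-- `x_j (x_k v_l - x_l v_k)` -/
def hP (R e : Type*) [CommRing R] (j k l : κ) : MvPolynomial (Vr κ e) R :=
  MvPolynomial.X (Sum.inl (0, j)) *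
    (MvPolynomial.X (Sum.inl (0, k)) * MvPolynomial.X (Sum.inl (2, l)) -
      MvPolynomial.X (Sum.inl (0, l)) * MvPolynomial.X (Sum.inl (2, k)))

theorem map_nP (D : FDat κ R) (φ : R →+* L) (G : e → MvPolynomial κ R) (j k : κ) :
    MvPolynomial.map φ (nP D G j k) =
      nP (D.map φ) (fun p => MvPolynomial.map φ (G p)) j k := by
  unfold nP
  rw [map_sub, map_sum, map_sum]
  congr 1
  · exact Finset.sum_congr rfl fun l _ => by rw [map_mul, map_on, MvPolynomial.map_X, FDat.map_s]
  · exact Finset.sum_congr rfl fun l _ => by rw [map_mul, map_on, MvPolynomial.map_X, map_pderiv]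

theorem map_hP (φ : R →+* L) (j k l : κ) :
    MvPolynomial.map φ (hP R e j k l) = hP L e j k l := by
  unfold hP
  simp only [map_mul, map_sub, MvPolynomial.map_X]

theorem eval_nP (D : FDat κ L) (G : e → MvPolynomial κ L) (y : Vr κ e → L) (j k : κ) :
    MvPolynomial.eval y (nP D G j k) =
      ∑ l, MvPolynomial.eval (fun k => y (Sum.inl (0, k))) (D.s j l k) * y (Sum.inl (2, l)) -
      ∑ p, y (Sum.inr p) *
        MvPolynomial.eval (fun k => y (Sum.inl (0, k))) (MvPolynomial.pderiv k (G p)) := by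
  unfold nP
  rw [map_sub, map_sum, map_sum]
  congr 1
  · exact Finset.sum_congr rfl fun l _ => by rw [map_mul, eval_on, MvPolynomial.eval_X]
  · exact Finset.sum_congr rfl fun l _ => by rw [map_mul, eval_on, MvPolynomial.eval_X]

theorem eval_hP (y : Vr κ e → L) (j k l : κ) :
    MvPolynomial.eval y (hP L e j k l) = y (Sum.inl (0, j)) *
      (y (Sum.inl (0, k)) * y (Sum.inl (2, l)) - y (Sum.inl (0, l)) * y (Sum.inl (2, k))) := by
  unfold hP
  simp only [map_mul, map_sub, MvPolynomial.eval_X]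

end Alg

/-! ### the transfer -/

section Transfer

variable {κ e : Type} [Fintype κ] [Fintype e]

/-- the equations: on the cone, tangent vectors in the blocks 1, 2, 3 -/
def eqn {R : Type*} [CommRing R] (G : e → MvPolynomial κ R) : e ⊕ (Fin 3 × e) →
    MvPolynomial (Vr κ e) R
  | Sum.inl p => on e (G p)
  | Sum.inr (q, p) => tan e q.succ (G p)

/-- the equations of the nondegeneracy -/
def eqd {R : Type*} [CommRing R] (D : FDat κ R) (G : e → MvPolynomial κ R) (j : κ) :
    e ⊕ e ⊕ κ → MvPolynomial (Vr κ e) R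
  | Sum.inl p => on e (G p)
  | Sum.inr (Sum.inl p) => tan e 2 (G p)
  | Sum.inr (Sum.inr k) => nP D G j k

theorem map_eqn {R L : Type*} [CommRing R] [CommRing L] (φ : R →+* L)
    (G : e → MvPolynomial κ R) (a : e ⊕ (Fin 3 × e)) :
    MvPolynomial.map φ (eqn G a) = eqn (fun p => MvPolynomial.map φ (G p)) a := by
  rcases a with p | ⟨q, p⟩
  · exact map_on _ _
  · exact map_tan _ _ _

theorem map_eqd {R L : Type*} [CommRing R] [CommRing L] (φ : R →+* L) (D : FDat κ R)
    (G : e → MvPolynomial κ R) (j : κ) (a : e ⊕ e ⊕ κ) :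
    MvPolynomial.map φ (eqd D G j a) =
      eqd (D.map φ) (fun p => MvPolynomial.map φ (G p)) j a := by
  rcases a with p | p | k
  · exact map_on _ _
  · exact map_tan _ _ _
  · exact map_nP _ _ _ _ _

/-- the point given by `x u v w` -/
def pt4 {L : Type*} (x u v w : κ → L) (y : e → L) : Vr κ e → L
  | Sum.inl (0, k) => x k
  | Sum.inl (1, k) => u k
  | Sum.inl (2, k) => v k
  | Sum.inl (3, k) => w k
  | Sum.inr p => y p

theorem eval_eqn {L : Type*} [CommRing L] {G : e → MvPolynomial κ L} {x u v w : κ → L} {y : e → L}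
    (hx : OnE (range G) x) (hu : TanE (range G) x u) (hv : TanE (range G) x v)
    (hw : TanE (range G) x w) (a : e ⊕ (Fin 3 × e)) :
    MvPolynomial.eval (pt4 x u v w y) (eqn G a) = 0 := by
  rcases a with p | ⟨q, p⟩
  · exact (eval_on _ _).trans (hx _ ⟨p, rfl⟩)
  · fin_cases q
    · exact (eval_tan _ _ _).trans (hu _ ⟨p, rfl⟩)
    · exact (eval_tan _ _ _).trans (hv _ ⟨p, rfl⟩)
    · exact (eval_tan _ _ _).trans (hw _ ⟨p, rfl⟩)

theorem of_eval_eqn {L : Type*} [CommRing L] {G : e → MvPolynomial κ L} {z : Vr κ e → L}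
    (h : ∀ a, MvPolynomial.eval z (eqn G a) = 0) :
    OnE (range G) (fun k => z (Sum.inl (0, k))) ∧
      ∀ q : Fin 3, TanE (range G) (fun k => z (Sum.inl (0, k)))
        (fun k => z (Sum.inl (q.succ, k))) := by
  refine ⟨?_, fun q => ?_⟩
  · rintro _ ⟨p, rfl⟩
    exact (eval_on _ _).symm.trans (h (Sum.inl p))
  · rintro _ ⟨p, rfl⟩
    exact (eval_tan _ _ _).symm.trans (h (Sum.inr (q, p)))

variable {D : FDat κ ℂ} {G : e → MvPolynomial κ ℂ}

theorem imp_agr (h : D.Imp (range G)) (i j : κ) :
    Ns_476.Imp (eqn G) (D.aP e i j) := by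
  intro z hz
  obtain ⟨h0, h1⟩ := of_eval_eqn hz
  rw [FDat.eval_aP, sub_eq_zero]
  exact h.agr _ _ _ h0 (h1 1) (h1 2) i j

theorem imp_clo (h : D.Imp (range G)) (j : κ) : Ns_476.Imp (eqn G) (D.TP e j) := by
  intro z hz
  obtain ⟨h0, h1⟩ := of_eval_eqn hz
  rw [FDat.eval_TP]
  exact h.clo _ _ _ _ h0 (h1 0) (h1 1) (h1 2) j

theorem imp_nd (h : D.Imp (range G)) (j k l : κ) :
    Ns_476.Imp (eqd D G j) (hP ℂ e j k l) := by
  intro z hz
  have h0 : OnE (range G) (fun k => z (Sum.inl (0, k))) := by
    rintro _ ⟨p, rfl⟩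
    exact (eval_on _ _).symm.trans (hz (Sum.inl p))
  have h1 : TanE (range G) (fun k => z (Sum.inl (0, k))) (fun k => z (Sum.inl (2, k))) := by
    rintro _ ⟨p, rfl⟩
    exact (eval_tan _ _ _).symm.trans (hz (Sum.inr (Sum.inl p)))
  rw [eval_hP]
  by_cases hj : z (Sum.inl (0, j)) = 0
  · rw [hj, zero_mul]
  obtain ⟨a, ha⟩ := h.nd _ _ j h0 h1 (fun w hw => by
    have h2 : D.b j (fun k => z (Sum.inl (0, k))) (fun k => z (Sum.inl (2, k))) w =
        ∑ k, w k * ∑ l, MvPolynomial.eval (fun k => z (Sum.inl (0, k))) (D.s j l k) *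
          z (Sum.inl (2, l)) := by
      unfold FDat.b
      rw [Finset.sum_comm]
      refine Finset.sum_congr rfl fun k _ => ?_
      rw [Finset.mul_sum]
      exact Finset.sum_congr rfl fun l _ => by ring
    have h3 : ∀ k, ∑ l, MvPolynomial.eval (fun k => z (Sum.inl (0, k))) (D.s j l k) *
        z (Sum.inl (2, l)) = ∑ p, z (Sum.inr p) *
          MvPolynomial.eval (fun k => z (Sum.inl (0, k))) (MvPolynomial.pderiv k (G p)) := by
      intro k
      have h4 := hz (Sum.inr (Sum.inr k))
      have h5 : MvPolynomial.eval z (nP D G j k) = 0 := h4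
      rw [eval_nP, sub_eq_zero] at h5
      exact h5
    rw [h2, Finset.sum_congr rfl fun k _ => by rw [h3 k, Finset.mul_sum], Finset.sum_comm]
    refine Finset.sum_eq_zero fun p _ => ?_
    have h6 := hw (G p) ⟨p, rfl⟩
    unfold dE at h6
    rw [Finset.sum_congr rfl fun k _ => show w k * (z (Sum.inr p) * _) = z (Sum.inr p) *
      (MvPolynomial.eval (fun k => z (Sum.inl (0, k))) (MvPolynomial.pderiv k (G p)) * w k) by ring,
      ← Finset.mul_sum, h6, mul_zero]) hj
  have h7 : ∀ k, z (Sum.inl (2, k)) = a * z (Sum.inl (0, k)) := fun k => congrFun ha k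
  rw [h7, h7]
  ring

/-- the coefficients of a polynomial matrix lift -/
theorem exists_lift {R : Type*} [CommRing R] {i : R →+* ℂ} {p : MvPolynomial κ ℂ}
    (h : ∀ x ∈ p.coeffs, x ∈ range i) : ∃ q : MvPolynomial κ R, MvPolynomial.map i q = p :=
  MvPolynomial.mem_range_map_iff_coeffs_subset.2 h

open Classical in
/-- **transfer to all specialisations** -/
theorem transfer (hX : D.Exact) (h : D.Imp (range G)) :
    ∃ S : Finset ℂ, ∀ {R : Type} [CommRing R] {i : R →+* ℂ}, Function.Injective i →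
      (∀ x ∈ S, x ∈ range i) → ∃ (D' : FDat κ R) (G' : e → MvPolynomial κ R),
        D'.map i = D ∧ (∀ p, MvPolynomial.map i (G' p) = G p) ∧ D'.Exact ∧
        ∀ {L : Type} [Field L] (φ : R →+* L),
          (D'.map φ).Imp (range fun p => MvPolynomial.map φ (G' p)) := by
  let ca : ∀ i j, Ns_476.Cert (eqn G) (D.aP e i j) :=
    fun i j => (Ns_476.exists_cert (imp_agr h i j)).some
  let cc : ∀ j, Ns_476.Cert (eqn G) (D.TP e j) :=
    fun j => (Ns_476.exists_cert (imp_clo h j)).some
  let cd : ∀ j k l, Ns_476.Cert (eqd D G j) (hP ℂ e j k l) :=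
    fun j k l => (Ns_476.exists_cert (imp_nd h j k l)).some
  let S : Finset ℂ := (Finset.univ.biUnion fun i => Finset.univ.biUnion fun j => (ca i j).S) ∪
    (Finset.univ.biUnion fun j => (cc j).S) ∪
    (Finset.univ.biUnion fun j => Finset.univ.biUnion fun k => Finset.univ.biUnion fun l =>
      (cd j k l).S) ∪
    (Finset.univ.biUnion fun p => (G p).coeffs) ∪
    (Finset.univ.biUnion fun j => Finset.univ.biUnion fun k => Finset.univ.biUnion fun l =>
      (D.s j k l).coeffs)
  refine ⟨S, fun {R} _ {i} hi hS => ?_⟩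
  have hS1 : ∀ a b, ∀ x ∈ (ca a b).S, x ∈ range i := fun a b x hx => hS x (by
    simp only [S, Finset.mem_union, Finset.mem_biUnion, Finset.mem_univ, true_and]
    exact Or.inl (Or.inl (Or.inl (Or.inl ⟨a, b, hx⟩))))
  have hS2 : ∀ a, ∀ x ∈ (cc a).S, x ∈ range i := fun a x hx => hS x (by
    simp only [S, Finset.mem_union, Finset.mem_biUnion, Finset.mem_univ, true_and]
    exact Or.inl (Or.inl (Or.inl (Or.inr ⟨a, hx⟩))))
  have hS3 : ∀ a b c, ∀ x ∈ (cd a b c).S, x ∈ range i := fun a b c x hx => hS x (by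
    simp only [S, Finset.mem_union, Finset.mem_biUnion, Finset.mem_univ, true_and]
    exact Or.inl (Or.inl (Or.inr ⟨a, b, c, hx⟩)))
  have hS4 : ∀ p, ∀ x ∈ (G p).coeffs, x ∈ range i := fun p x hx => hS x (by
    simp only [S, Finset.mem_union, Finset.mem_biUnion, Finset.mem_univ, true_and]
    exact Or.inl (Or.inr ⟨p, hx⟩))
  have hS5 : ∀ a b c, ∀ x ∈ (D.s a b c).coeffs, x ∈ range i := fun a b c x hx => hS x (by
    simp only [S, Finset.mem_union, Finset.mem_biUnion, Finset.mem_univ, true_and]
    exact Or.inr ⟨a, b, c, hx⟩)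
  choose G' hG' using fun p => exists_lift (hS4 p)
  choose s' hs' using fun a b c => exists_lift (hS5 a b c)
  let D' : FDat κ R := ⟨D.m, fun j => Matrix.of fun k l => s' j k l⟩
  have hD' : D'.map i = D := by
    show (⟨D.m, fun j => (Matrix.of fun k l => s' j k l).map (MvPolynomial.map i)⟩ : FDat κ ℂ) = D
    have h1 : (fun j => (Matrix.of fun k l => s' j k l).map (MvPolynomial.map i)) = D.s := by
      funext j
      ext1 k l
      exact hs' j k l
    rw [h1]
  have hG'' : (fun p => MvPolynomial.map i (G' p)) = G := funext hG'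
  have hX' : D'.Exact := FDat.exact_of_injective hi (by rw [hD']; exact hX)
  refine ⟨D', G', hD', hG', hX', fun {L} _ φ => ?_⟩
  have hm : D'.m = D.m := rfl
  have key : ∀ (z : Vr κ e → L), (∀ a, MvPolynomial.eval z
      (eqn (fun p => MvPolynomial.map φ (G' p)) a) = 0) →
      ∀ a, MvPolynomial.eval₂ φ z (eqn G' a) = 0 := by
    intro z hz a
    rw [MvPolynomial.eval₂_eq_eval_map, map_eqn]
    exact hz a
  have hmap : ∀ a, MvPolynomial.map i (eqn G' a) = eqn G a := fun a => by rw [map_eqn, hG'']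
  refine ⟨fun x v w hOn hv hw a b => ?_, fun x u v w hOn hu hv hw j => ?_,
    fun x v j hOn hv hall hxj => ?_⟩
  · have h1 := (ca a b).trans hi (hS1 a b) hmap (h := D'.aP e a b)
      (by rw [FDat.map_aP, hD']) φ (pt4 x 0 v w 0) (key _ fun q => eval_eqn hOn (by
        intro p _
        unfold dE
        simp) hv hw q)
    rw [MvPolynomial.eval₂_eq_eval_map, FDat.map_aP, FDat.eval_aP, sub_eq_zero] at h1
    exact h1
  · have h1 := (cc j).trans hi (hS2 j) hmap (h := D'.TP e j)
      (by rw [FDat.map_TP, hD']) φ (pt4 x u v w 0) (key _ fun q => eval_eqn hOn hu hv hw q)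
    rw [MvPolynomial.eval₂_eq_eval_map, FDat.map_TP, FDat.eval_TP] at h1
    exact h1
  · -- duality
    let ev : e → Module.Dual L (κ → L) := fun p =>
      { toFun := fun t => dE (MvPolynomial.map φ (G' p)) x t
        map_add' := dE_add_right _ _
        map_smul' := fun a t => by rw [dE_smul_right]; rfl }
    let lv : Module.Dual L (κ → L) :=
      { toFun := fun t => (D'.map φ).b j x v t
        map_add' := FDat.b_add_right _ _ _ _
        map_smul' := fun a t => by rw [FDat.b_smul_right]; rfl }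
    have h1 : ⨅ p, LinearMap.ker (ev p) ≤ LinearMap.ker lv := by
      intro t ht
      rw [Submodule.mem_iInf] at ht
      refine hall t ?_
      rintro _ ⟨p, rfl⟩
      exact ht p
    have h2 := mem_span_of_iInf_ker_le_ker h1
    obtain ⟨y, hy⟩ := (Submodule.mem_span_range_iff_exists_fun _).1 h2
    have h3 : ∀ a : e ⊕ e ⊕ κ, MvPolynomial.eval (pt4 x 0 v 0 y)
        (eqd (D'.map φ) (fun p => MvPolynomial.map φ (G' p)) j a) = 0 := by
      intro a
      rcases a with p | p | k
      · exact (eval_on _ _).trans (hOn _ ⟨p, rfl⟩)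
      · exact (eval_tan _ _ _).trans (hv _ ⟨p, rfl⟩)
      · refine (eval_nP _ _ _ _ _).trans ?_
        have h4 := DFunLike.congr_fun hy (Pi.single k 1)
        have h5 : lv (Pi.single k 1) = ∑ l, MvPolynomial.eval x ((D'.map φ).s j l k) * v l := by
          show (D'.map φ).b j x v (Pi.single k 1) = _
          unfold FDat.b
          refine Finset.sum_congr rfl fun l _ => ?_
          rw [Finset.sum_eq_single k]
          · rw [Pi.single_eq_same, mul_one]
          · intro l' _ hl'
            rw [Pi.single_eq_of_ne hl', mul_zero, mul_zero]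
          · intro h
            exact absurd (Finset.mem_univ k) h
        have h6 : (∑ p, y p • ev p) (Pi.single k 1) = ∑ p, y p *
            MvPolynomial.eval x (MvPolynomial.pderiv k (MvPolynomial.map φ (G' p))) := by
          rw [LinearMap.sum_apply]
          refine Finset.sum_congr rfl fun p _ => ?_
          rw [LinearMap.smul_apply, smul_eq_mul]
          congr 1
          show dE (MvPolynomial.map φ (G' p)) x (Pi.single k 1) = _
          unfold dE
          rw [Finset.sum_eq_single k]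
          · rw [Pi.single_eq_same, mul_one]
          · intro l' _ hl'
            rw [Pi.single_eq_of_ne hl', mul_zero]
          · intro h
            exact absurd (Finset.mem_univ k) h
        rw [h5, h6] at h4
        rw [sub_eq_zero]
        exact h4.symm
    have h7 : ∀ k, x j * (x j * v k - x k * v j) = 0 := by
      intro k
      have h8 := (cd j j k).trans hi (hS3 j j k) (g := eqd D' G' j)
        (fun a => by rw [map_eqd, hD', hG'']) (h := hP R e j j k) (map_hP _ _ _ _) φ
        (pt4 x 0 v 0 y) (fun a => by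
          rw [MvPolynomial.eval₂_eq_eval_map, map_eqd]
          exact h3 a)
      rw [MvPolynomial.eval₂_eq_eval_map, map_hP, eval_hP] at h8
      exact h8
    refine ⟨v j / x j, ?_⟩
    funext k
    have h8 := (mul_eq_zero.1 (h7 k)).resolve_left hxj
    rw [Pi.smul_apply, smul_eq_mul]
    field_simp
    linear_combination h8

end Transfer

/-! ### the data of a symplectic form -/

section Main

variable {n : ℕ} {M : Type} [TopologicalSpace M] {A : Atl n M}
  [T2Space M] [ConnectedSpace M] [CompactSpace M] [Finite A.ι]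

/-- the polynomial data of a closed holomorphic symplectic form -/
theorem exists_fdat (PA : Part A) (hD : D2 A) (P : ProjD A) (σ : HSymp A)
    (hcl : Closed σ.toH2) :
    ∃ D : FDat (Fin (P.N + 1)) ℂ, D.Exact ∧
      (∀ j i, ∀ x ∈ (A.e i).source, sec P j i x ^ D.m • σ.s i x =
        (DF (fun k => sec P k) i x)ᵀ * evM (fun k => sec P k) (D.s j) i x *
          DF (fun k => sec P k) i x) ∧
      ∀ E : Set (MvPolynomial (Fin (P.N + 1)) ℂ), Eqs (fun k => sec P k) E → D.Imp E := by
  obtain ⟨m1, hm1⟩ := exists_form_proj PA hD P σ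
  let Q : ∀ j, PForm (fun k => sec P k) (m1 + 3) (pw (sec P j) (m1 + 3)) σ.toH2 :=
    fun j => (hm1 (m1 + 3) (by omega) (pw (sec P j) (m1 + 3)) (isHS_pw (isHS_sec P j) (m1 + 3))).some
  refine ⟨fdat Q, exact_fdat Q (by omega), fun j i x hx => ?_, fun E hE => ?_⟩
  · have h1 := (Q j).eq i x hx
    rw [pw_apply _ _ hx] at h1
    exact h1
  · exact imp_of (isHS_sec P) hE σ Q (by omega) hcl

end Main

end

end Crest.Agent.R281.AF_867
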