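import Crest.Agent.R273.HFlow6_376

/-!
# R281 (S0424), S6-AA (helper836), file 1: restriction of an atlas and of holomorphic vector fields to
an open subset.
-/

set_option autoImplicit false
set_option linter.unusedSectionVars false

open Set Metric Filter Topology Complex Function TopologicalSpace
open scoped NNReal ContDiff

namespace Crest.Agent.R281.Aa1_836

open Crest.Agent.R275.Geo Crest.Agent.R273.HFlow3_376 Crest.Agent.R273.HFlow4_376
open Crest.Agent.R273.HFlow5_376

noncomputable section

variable {n m : ℕ} {M M' : Type} [TopologicalSpace M] [TopologicalSpace M']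

section Chart

variable {H : Type} [TopologicalSpace H] (e : OpenPartialHomeomorph M H) {U : Opens M}
  (hU : Nonempty U)

theorem sr_apply (x : U) : e.subtypeRestr hU x = e x.1 := rfl

theorem sr_source : (e.subtypeRestr hU).source = Subtype.val ⁻¹' e.source :=
  OpenPartialHomeomorph.subtypeRestr_source e hU

theorem sr_mem_source {x : U} : x ∈ (e.subtypeRestr hU).source ↔ x.1 ∈ e.source := by
  rw [sr_source]; rfl

theorem sr_target {z : H} : z ∈ (e.subtypeRestr hU).target ↔ z ∈ e.target ∧ e.symm z ∈ U := by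
  constructor
  · intro h
    obtain ⟨x, hx, rfl⟩ : ∃ x ∈ (e.subtypeRestr hU).source, e.subtypeRestr hU x = z :=
      ⟨_, (e.subtypeRestr hU).map_target h, (e.subtypeRestr hU).right_inv h⟩
    rw [sr_mem_source] at hx
    refine ⟨?_, ?_⟩
    · rw [sr_apply]; exact e.map_source hx
    · rw [sr_apply, e.left_inv hx]; exact x.2
  · rintro ⟨h1, h2⟩
    have h3 : (⟨e.symm z, h2⟩ : U) ∈ (e.subtypeRestr hU).source := by
      rw [sr_mem_source]; exact e.map_target h1
    have h4 := (e.subtypeRestr hU).map_source h3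
    rw [sr_apply] at h4
    simpa [e.right_inv h1] using h4

theorem sr_symm {z : H} (h : z ∈ (e.subtypeRestr hU).target) :
    ((e.subtypeRestr hU).symm z).1 = e.symm z := by
  have h1 := (e.subtypeRestr hU).map_target h
  have h2 := (e.subtypeRestr hU).right_inv h
  rw [sr_mem_source] at h1
  rw [sr_apply] at h2
  rw [← e.left_inv h1, h2]

end Chart

/-- restriction of an atlas to an open subset -/
def opA (A : Atl n M) (U : Opens M) : Atl n U where
  ι := U × A.ι
  e p := (A.e p.2).subtypeRestr ⟨p.1⟩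
  cover x := by
    obtain ⟨i, hi⟩ := A.cover x.1
    exact ⟨(x, i), by rw [sr_mem_source]; exact hi⟩
  cube p z hz q := A.cube p.2 z ((sr_target _ _).1 hz).1 q
  holo p q := by
    refine ((A.holo p.2 q.2).mono ?_).congr ?_
    · rintro z ⟨hz, hz'⟩
      rw [sr_mem_source, sr_symm _ _ hz] at hz'
      exact ⟨((sr_target _ _).1 hz).1, hz'⟩
    · rintro z ⟨hz, hz'⟩
      simp only [sr_apply]
      rw [sr_symm _ _ hz]

variable {A : Atl n M} {B : Atl m M'} {U : Opens M}

theorem opA_e (p : (opA A U).ι) (x : U) : (opA A U).e p x = A.e p.2 x.1 := rfl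

theorem opA_source {p : (opA A U).ι} {x : U} :
    x ∈ ((opA A U).e p).source ↔ x.1 ∈ (A.e p.2).source := sr_mem_source _ _

theorem opA_target {p : (opA A U).ι} {z : Cn n} :
    z ∈ ((opA A U).e p).target ↔ z ∈ (A.e p.2).target ∧ (A.e p.2).symm z ∈ U := sr_target _ _

theorem opA_symm {p : (opA A U).ι} {z : Cn n} (h : z ∈ ((opA A U).e p).target) :
    (((opA A U).e p).symm z).1 = (A.e p.2).symm z := sr_symm _ _ h

theorem opA_symm_ev {p : (opA A U).ι} {x : U} (h : x ∈ ((opA A U).e p).source) :
    ∀ᶠ z in 𝓝 (A.e p.2 x.1), (((opA A U).e p).symm z).1 = (A.e p.2).symm z := by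
  filter_upwards [((opA A U).e p).open_target.mem_nhds (((opA A U).e p).map_source h)] with z hz
  exact opA_symm hz

/-- a function on `M`, in the charts of the open subset -/
theorem fderiv_opA {F : Type} [NormedAddCommGroup F] [NormedSpace ℂ F] (y : M → F)
    {p : (opA A U).ι} {x : U} (h : x ∈ ((opA A U).e p).source) :
    fderiv ℂ (fun z => y (((opA A U).e p).symm z).1) ((opA A U).e p x) =
      fderiv ℂ (fun z => y ((A.e p.2).symm z)) (A.e p.2 x.1) := by
  refine Filter.EventuallyEq.fderiv_eq ?_
  filter_upwards [opA_symm_ev h] with z hz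
  rw [hz]

/-- restriction of a holomorphic vector field -/
def opV (V : HVF A) (U : Opens M) : HVF (opA A U) where
  X p x := V.X p.2 x.1
  hol p := by
    refine ((V.hol p.2).mono fun z hz => (opA_target.1 hz).1).congr fun z hz => ?_
    rw [opA_symm hz]
  tr p q x hx := by
    have h1 := V.tr p.2 q.2 x.1 ⟨opA_source.1 hx.1, opA_source.1 hx.2⟩
    refine h1.trans ?_
    congr 1
    refine Filter.EventuallyEq.fderiv_eq ?_
    filter_upwards [opA_symm_ev hx.1] with z hz
    simp only [opA_e]
    rw [hz]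

theorem opV_loc (V : HVF A) {p : (opA A U).ι} {z : Cn n} (hz : z ∈ ((opA A U).e p).target) :
    (opV V U).loc p z = V.loc p.2 z := by
  simp only [HVF.loc, opV]
  rw [opA_symm hz]

theorem opV_comm {V W : HVF A} (h : Comm V W) : Comm (opV V U) (opV W U) := by
  intro p z hz
  have h1 : (opV V U).loc p =ᶠ[𝓝 z] V.loc p.2 := by
    filter_upwards [((opA A U).e p).open_target.mem_nhds hz] with w hw
    exact opV_loc V hw
  have h2 : (opV W U).loc p =ᶠ[𝓝 z] W.loc p.2 := by
    filter_upwards [((opA A U).e p).open_target.mem_nhds hz] with w hw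
    exact opV_loc W hw
  have := h p.2 z (opA_target.1 hz).1
  rw [h1.fderiv_eq, h2.fderiv_eq, h1.self_of_nhds, h2.self_of_nhds]
  exact this

/-- holomorphic with parameters, into the open subset: from the ambient manifold -/
theorem holP_op {P : Type*} [NormedAddCommGroup P] [NormedSpace ℂ P] {F : P → M → M}
    {G : P → U → U} {p : P} {x : U} (h : HolP A A F p x.1)
    (hG : ∀ᶠ q : P × U in 𝓝 (p, x), (G q.1 q.2).1 = F q.1 q.2.1) :
    HolP (opA A U) (opA A U) G p x := by
  obtain ⟨hc, i, j, hi, hj, hd⟩ := h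
  have h0 : (G p x).1 = F p x.1 := hG.self_of_nhds
  have hmap : Tendsto (fun q : P × U => (q.1, q.2.1)) (𝓝 (p, x)) (𝓝 (p, x.1)) :=
    (continuous_fst.prodMk (continuous_subtype_val.comp continuous_snd)).tendsto _
  have hc2 : ContinuousAt (uncurry G) (p, x) := by
    rw [Topology.IsInducing.subtypeVal.continuousAt_iff]
    have h1 : ContinuousAt (fun q : P × U => F q.1 q.2.1) (p, x) :=
      ContinuousAt.comp (g := uncurry F) (f := fun q : P × U => (q.1, q.2.1)) hc hmap
    refine h1.congr ?_
    filter_upwards [hG] with q hq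
    exact hq.symm
  refine ⟨hc2, (x, i), (G p x, j), opA_source.2 hi, opA_source.2 (by rw [h0]; exact hj), ?_⟩
  refine hd.congr_of_eventuallyEq ?_
  -- the points `(((opA A U).e (x, i)).symm z)`
  have hs : ∀ᶠ q : P × Cn n in 𝓝 (p, A.e i x.1), q.2 ∈ ((opA A U).e (x, i)).target :=
    continuousAt_snd (((opA A U).e (x, i)).open_target.mem_nhds
      (((opA A U).e (x, i)).map_source (opA_source.2 hi)))
  have hsym := symm_ca (A := opA A U) p (i := (x, i)) (x := x) (opA_source.2 hi)
  have hsym2 : Tendsto (fun q : P × Cn n => (q.1, ((opA A U).e (x, i)).symm q.2))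
      (𝓝 (p, A.e i x.1)) (𝓝 (p, x)) := by
    have h3 : ((opA A U).e (x, i)).symm ((opA A U).e (x, i) x) = x :=
      ((opA A U).e (x, i)).left_inv (opA_source.2 hi)
    have h4 : Tendsto (fun q : P × Cn n => (q.1, ((opA A U).e (x, i)).symm q.2))
      (𝓝 (p, (opA A U).e (x, i) x)) (𝓝 (p, ((opA A U).e (x, i)).symm ((opA A U).e (x, i) x))) :=
      hsym
    rw [h3] at h4
    exact h4
  filter_upwards [hs, hsym2.eventually hG] with q hq hq2
  change A.e j (G q.1 (((opA A U).e (x, i)).symm q.2)).1 = A.e j (F q.1 ((A.e i).symm q.2))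
  rw [hq2, opA_symm hq]

end

end Crest.Agent.R281.Aa1_836
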