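import Crest.Agent.R281.Aa1_836

/-!
# R281 (S0424), S6-AA (helper836), file 2: commuting holomorphic vector fields `V k` tangent to the
fibres of `y`; a compact leaf `T` relatively open in its fibre has a saturated neighbourhood with
compact fibres on which the flows are complete.
-/

set_option autoImplicit false
set_option linter.unusedSectionVars false

open Set Metric Filter Topology Complex Function TopologicalSpace
open scoped NNReal ContDiff

namespace Crest.Agent.R281.Aa2_836

open Crest.Agent.R275.Geo Crest.Agent.R273.HFlow3_376 Crest.Agent.R273.HFlow4_376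
open Crest.Agent.R273.HFlow5_376 Crest.Agent.R273.HFlow6_376
open Crest.Agent.R281.Aa1_836

noncomputable section

variable {N g : ℕ} {M : Type} [TopologicalSpace M] {A : Atl N M}
  {F : Type} [NormedAddCommGroup F] [NormedSpace ℂ F] [FiniteDimensional ℂ F]

/-- `y` is holomorphic -/
def HolF (A : Atl N M) (y : M → F) : Prop :=
  ∀ i, DifferentiableOn ℂ (fun z => y ((A.e i).symm z)) (A.e i).target

/-- commuting holomorphic fields, tangent to the fibres of the holomorphic map `y` -/
structure Lio (A : Atl N M) (V : Fin g → HVF A) (y : M → F) : Prop where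
  comm : ∀ j k, Comm (V j) (V k)
  hol : HolF A y
  tan : ∀ k i, ∀ x ∈ (A.e i).source,
    fderiv ℂ (fun z => y ((A.e i).symm z)) (A.e i x) ((V k).X i x) = 0
  dim : g + Module.finrank ℂ F = N

/-- regular points (in one chart) -/
def RegAt (V : Fin g → HVF A) (y : M → F) (x : M) : Prop :=
  ∃ i, x ∈ (A.e i).source ∧ LinearIndependent ℂ (fun k => (V k).X i x) ∧
    Surjective (fderiv ℂ (fun z => y ((A.e i).symm z)) (A.e i x))

theorem HolF.diffAt {y : M → F} (h : HolF A y) {i : A.ι} {x : M} (hi : x ∈ (A.e i).source) :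
    DifferentiableAt ℂ (fun z => y ((A.e i).symm z)) (A.e i x) :=
  (h i).differentiableAt ((A.e i).open_target.mem_nhds ((A.e i).map_source hi))

theorem HolF.continuous {y : M → F} (h : HolF A y) : Continuous y := by
  rw [continuous_iff_continuousAt]
  intro x
  obtain ⟨i, hi⟩ := A.cover x
  have h1 : ContinuousAt (fun x => y ((A.e i).symm (A.e i x))) x :=
    ContinuousAt.comp (g := fun z => y ((A.e i).symm z)) (h.diffAt hi).continuousAt
      ((A.e i).continuousAt hi)
  refine h1.congr ?_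
  filter_upwards [(A.e i).open_source.mem_nhds hi] with x' hx'
  rw [(A.e i).left_inv hx']

/-- derivative of `y` along a curve -/
theorem hasDerivAt_comp {y : M → F} (h : HolF A y) {V : HVF A} {γ : ℂ → M} {t : ℂ}
    (hγ : IntAt V γ t) {i : A.ι} (hi : γ t ∈ (A.e i).source) :
    HasDerivAt (fun s => y (γ s))
      (fderiv ℂ (fun z => y ((A.e i).symm z)) (A.e i (γ t)) (V.X i (γ t))) t := by
  have h1 := (h.diffAt hi).hasFDerivAt.comp_hasDerivAt t (hγ.chart hi)
  refine h1.congr_of_eventuallyEq ?_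
  filter_upwards [hγ.cont ((A.e i).open_source.mem_nhds hi)] with s hs
  simp only [comp_apply]
  rw [(A.e i).left_inv hs]

theorem const_of_int {y : M → F} (h : HolF A y) {V : HVF A}
    (ht : ∀ i, ∀ x ∈ (A.e i).source,
      fderiv ℂ (fun z => y ((A.e i).symm z)) (A.e i x) (V.X i x) = 0)
    {γ : ℂ → M} {S : Set ℂ} (hS : IsOpen S) (hc : IsPreconnected S)
    (hγ : ∀ s ∈ S, IntAt V γ s) {s t : ℂ} (hs : s ∈ S) (ht' : t ∈ S) : y (γ s) = y (γ t) := by
  have hd : ∀ u ∈ S, HasDerivAt (fun s => y (γ s)) 0 u := by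
    intro u hu
    obtain ⟨i, hi⟩ := A.cover (γ u)
    have := hasDerivAt_comp h (hγ u hu) hi
    rwa [ht i _ hi] at this
  exact hS.is_const_of_deriv_eq_zero (f := fun s => y (γ s)) hc
    (fun u hu => (hd u hu).differentiableAt.differentiableWithinAt)
    (fun u hu => (hd u hu).deriv) hs ht'

/-! ### topology -/

theorem weakly_lc (A : Atl N M) : WeaklyLocallyCompactSpace M := by
  refine ⟨fun x => ?_⟩
  obtain ⟨i, hi⟩ := A.cover x
  obtain ⟨r, hr, hsub⟩ := Metric.nhds_basis_closedBall.mem_iff.1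
    ((A.e i).open_target.mem_nhds ((A.e i).map_source hi))
  refine ⟨(A.e i).symm '' closedBall (A.e i x) r,
    (isCompact_closedBall _ _).image_of_continuousOn
      ((A.e i).continuousOn_symm.mono hsub), ?_⟩
  have h1 : (A.e i) ⁻¹' closedBall (A.e i x) r ∈ 𝓝 x :=
    (A.e i).continuousAt hi (closedBall_mem_nhds _ hr)
  filter_upwards [h1, (A.e i).open_source.mem_nhds hi] with x' hx' hx''
  exact ⟨A.e i x', hx', (A.e i).left_inv hx''⟩

/-- a compact set which is open in its fibre has a neighbourhood with compact clopen fibres -/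
theorem exists_tub [T2Space M] (A : Atl N M) {y : M → F} (hy : Continuous y) {b0 : F}
    {T O : Set M} (hT : IsCompact T) (hO : IsOpen O) (hTO : T ⊆ O)
    (hfib : ∀ x ∈ O, y x = b0 → x ∈ T) :
    ∃ K : Set M, IsCompact K ∧ T ⊆ interior K ∧ K ⊆ O ∧ ∃ δ > 0,
      ∀ x ∈ K, dist (y x) b0 < δ → x ∈ interior K := by
  have := weakly_lc A
  obtain ⟨K, hK, hTK, hKO⟩ := exists_compact_between hT hO hTO
  refine ⟨K, hK, hTK, hKO, ?_⟩
  have hC : IsCompact (K \ interior K) := hK.diff isOpen_interior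
  rcases (K \ interior K).eq_empty_or_nonempty with he | hne
  · refine ⟨1, one_pos, fun x hx _ => ?_⟩
    by_contra h
    exact (he ▸ (⟨hx, h⟩ : x ∈ K \ interior K) : x ∈ (∅ : Set M))
  · obtain ⟨x0, hx0, hmin⟩ := hC.exists_isMinOn hne
      ((hy.dist continuous_const).continuousOn (s := K \ interior K) (f := fun x => dist (y x) b0))
    have hpos : 0 < dist (y x0) b0 := by
      rw [dist_pos]
      intro h
      exact hx0.2 (hTK (hfib x0 (hKO hx0.1) h))
    refine ⟨_, hpos, fun x hx hd => ?_⟩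
    by_contra h
    exact absurd (hmin ⟨hx, h⟩) (not_le.2 hd)

theorem stay [T2Space M] {y : M → F} {b0 : F} {K : Set M} (hK : IsCompact K) {δ : ℝ}
    (hδ : ∀ x ∈ K, dist (y x) b0 < δ → x ∈ interior K) {S : Set ℂ} (hS : IsPreconnected S)
    {γ : ℂ → M} (hγ : ContinuousOn γ S) {t : ℂ} (ht : t ∈ S) (hx : γ t ∈ K)
    (hyt : dist (y (γ t)) b0 < δ) (hc : ∀ s ∈ S, y (γ s) = y (γ t)) {s : ℂ} (hs : s ∈ S) :
    γ s ∈ interior K := by
  have h1 : γ '' S ⊆ interior K := by
    refine IsPreconnected.subset_left_of_subset_union isOpen_interior hK.isClosed.isOpen_compl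
      ?_ ?_ ?_ (hS.image _ hγ)
    · exact disjoint_compl_right.mono_left interior_subset
    · rintro _ ⟨s, hs, rfl⟩
      by_cases h : γ s ∈ K
      · exact Or.inl (hδ _ h (by rw [hc s hs]; exact hyt))
      · exact Or.inr h
    · exact ⟨γ t, ⟨t, ht, rfl⟩, hδ _ hx hyt⟩
  exact h1 ⟨s, hs, rfl⟩

/-- the tubular open set -/
def tub (y : M → F) (hy : Continuous y) (b0 : F) (K : Set M) (δ : ℝ) : Opens M :=
  ⟨interior K ∩ {x | dist (y x) b0 < δ},
    isOpen_interior.inter (isOpen_lt (hy.dist continuous_const) continuous_const)⟩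

theorem mem_tub {y : M → F} {hy : Continuous y} {b0 : F} {K : Set M} {δ : ℝ} {x : M} :
    x ∈ tub y hy b0 K δ ↔ x ∈ interior K ∧ dist (y x) b0 < δ := Iff.rfl

theorem intAt_op {V : HVF A} {U : Opens M} {γ : ℂ → M} {γ' : ℂ → U} {t : ℂ} (h : IntAt V γ t)
    (he : ∀ᶠ s in 𝓝 t, (γ' s).1 = γ s) : IntAt (opV V U) γ' t := by
  obtain ⟨hc, i, hi, hd⟩ := h
  have h0 : (γ' t).1 = γ t := he.self_of_nhds
  refine ⟨?_, (γ' t, i), opA_source.2 (by rw [h0]; exact hi), ?_⟩
  · rw [Topology.IsInducing.subtypeVal.continuousAt_iff]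
    refine hc.congr ?_
    filter_upwards [he] with s hs
    exact hs.symm
  · have h1 : (opV V U).X (γ' t, i) (γ' t) = V.X i (γ t) := by
      change V.X i (γ' t).1 = _
      rw [h0]
    rw [h1]
    refine hd.congr_of_eventuallyEq ?_
    filter_upwards [he] with s hs
    change A.e i (γ' s).1 = _
    rw [hs]

/-- complete flows on the tubular neighbourhood -/
theorem exists_flow_tub [T2Space M] {y : M → F} (hyh : HolF A y) {V : HVF A}
    (ht : ∀ i, ∀ x ∈ (A.e i).source,
      fderiv ℂ (fun z => y ((A.e i).symm z)) (A.e i x) (V.X i x) = 0)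
    {b0 : F} {K : Set M} (hK : IsCompact K) {δ δ' : ℝ} (hδ' : δ' < δ)
    (hδ : ∀ x ∈ K, dist (y x) b0 < δ → x ∈ interior K) :
    Nonempty (Flow (opV V (tub y hyh.continuous b0 K δ'))) := by
  classical
  have hy := hyh.continuous
  set U := tub y hy b0 K δ' with hU
  have hK' : IsCompact (K ∩ {x | dist (y x) b0 ≤ δ'}) :=
    hK.inter_right (isClosed_le (hy.dist continuous_const) continuous_const)
  obtain ⟨ε, hε, hL⟩ := exists_unif V hK'
  refine exists_flow_of_unif (opV V U) hε fun x => ?_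
  obtain ⟨N', φ, hN', hx, h0, h1, h2⟩ := hL x.1 ⟨interior_subset x.2.1, (le_of_lt x.2.2 : dist (y x.1) b0 ≤ δ')⟩
  have hin : ∀ z ∈ U, z ∈ N' → ∀ t ∈ ball (0 : ℂ) ε, φ t z ∈ U := by
    intro z hz hzN t ht'
    have hconst : ∀ s ∈ ball (0 : ℂ) ε, y (φ s z) = y (φ 0 z) := fun s hs =>
      const_of_int hyh ht isOpen_ball (convex_ball (0 : ℂ) ε).isPreconnected (h1 z hzN) hs
        (mem_ball_self hε)
    have e0 := h0 z hzN
    refine ⟨?_, ?_⟩
    · refine stay (y := y) (b0 := b0) hK hδ (convex_ball (0 : ℂ) ε).isPreconnected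
        (γ := fun s => φ s z)
        (fun s hs => (h1 z hzN s hs).cont.continuousWithinAt) (mem_ball_self hε) ?_ ?_ hconst ht'
      · simp only [e0]; exact interior_subset hz.1
      · simp only [e0]; exact lt_trans hz.2 hδ'
    · change dist (y (φ t z)) b0 < δ'
      rw [hconst t ht', e0]
      exact hz.2
  set φ' : ℂ → U → U := fun t z => if h : φ t z.1 ∈ U then ⟨φ t z.1, h⟩ else z with hφ'
  have hval : ∀ z : U, z.1 ∈ N' → ∀ t ∈ ball (0 : ℂ) ε, (φ' t z).1 = φ t z.1 := by
    intro z hz t ht'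
    have := hin z.1 z.2 hz t ht'
    simp only [hφ', dif_pos this]
  refine ⟨Subtype.val ⁻¹' N', φ', hN'.preimage continuous_subtype_val, hx, ?_, ?_, ?_⟩
  · intro z hz
    apply Subtype.ext
    rw [hval z hz 0 (mem_ball_self hε), h0 z.1 hz]
  · intro z hz t ht'
    refine intAt_op (h1 z.1 hz t ht') ?_
    filter_upwards [isOpen_ball.mem_nhds ht'] with s hs
    exact hval z hz s hs
  · intro t ht' z hz
    refine holP_op (h2 t ht' z.1 hz) ?_
    have e1 : ∀ᶠ q : ℂ × U in 𝓝 (t, z), q.1 ∈ ball (0 : ℂ) ε :=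
      (continuous_fst.tendsto (t, z)).eventually (isOpen_ball.mem_nhds ht')
    have e2 : ∀ᶠ q : ℂ × U in 𝓝 (t, z), q.2 ∈ Subtype.val ⁻¹' N' :=
      (continuous_snd.tendsto (t, z)).eventually ((hN'.preimage continuous_subtype_val).mem_nhds hz)
    filter_upwards [e1, e2] with q hq1 hq2
    exact hval q.2 hq2 q.1 hq1

/-- restriction of the data to an open subset -/
theorem Lio.op {V : Fin g → HVF A} {y : M → F} (h : Lio A V y) (U : Opens M) :
    Lio (opA A U) (fun k => opV (V k) U) (fun x => y x.1) where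
  comm j k := opV_comm (h.comm j k)
  hol p := by
    refine ((h.hol p.2).mono fun z hz => (opA_target.1 hz).1).congr fun z hz => ?_
    change y (((opA A U).e p).symm z).1 = y ((A.e p.2).symm z)
    rw [opA_symm hz]
  tan k p x hx := by
    rw [fderiv_opA y hx]
    exact h.tan k p.2 x.1 (opA_source.1 hx)
  dim := h.dim

theorem RegAt.op {V : Fin g → HVF A} {y : M → F} {U : Opens M} {x : U} (h : RegAt V y x.1) :
    RegAt (A := opA A U) (fun k => opV (V k) U) (fun x => y x.1) x := by
  obtain ⟨i, hi, h1, h2⟩ := h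
  have hs : x ∈ ((opA A U).e (x, i)).source := opA_source.2 hi
  refine ⟨(x, i), hs, h1, ?_⟩
  rw [fderiv_opA y hs]
  exact h2

/-- the action of `ℂ^g` on the tubular neighbourhood -/
theorem Lio.exists_mflow [T2Space M] {V : Fin g → HVF A} {y : M → F} (h : Lio A V y)
    {b0 : F} {K : Set M} (hK : IsCompact K) {δ δ' : ℝ} (hδ' : δ' < δ)
    (hδ : ∀ x ∈ K, dist (y x) b0 < δ → x ∈ interior K) :
    Nonempty (MFlow (fun k => opV (V k) (tub y h.hol.continuous b0 K δ'))) := by
  have h1 : ∀ k, Nonempty (Flow (opV (V k) (tub y h.hol.continuous b0 K δ'))) := fun k =>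
    exists_flow_tub h.hol (h.tan k) hK hδ' hδ
  exact ⟨MFlow.of (fun k => (h1 k).some) fun j k => opV_comm (h.comm j k)⟩

end

end Crest.Agent.R281.Aa2_836
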