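import Crest.Agent.R281.Aa2_836
import Crest.Agent.R266.SCV

/-!
# R281 (S0424), S6-AA (helper836), file 3: slices, the map `Ψ (c, b) = Φ_c (s b)` is a local
biholomorphism at regular points.
-/

set_option autoImplicit false
set_option linter.unusedSectionVars false

open Set Metric Filter Topology Complex Function TopologicalSpace
open scoped NNReal ContDiff

namespace Crest.Agent.R281.Aa3_836

open Crest.Agent.R275.Geo Crest.Agent.R273.HFlow3_376 Crest.Agent.R273.HFlow4_376
open Crest.Agent.R273.HFlow5_376 Crest.Agent.R273.HFlow6_376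
open Crest.Agent.R281.Aa1_836 Crest.Agent.R281.Aa2_836

noncomputable section

variable {N g : ℕ} {M : Type} [TopologicalSpace M] {A : Atl N M}
  {F : Type} [NormedAddCommGroup F] [NormedSpace ℂ F] [FiniteDimensional ℂ F]

/-! ### holomorphic maps from a vector space to `M` -/

section HolC

variable {P Q : Type} [NormedAddCommGroup P] [NormedSpace ℂ P] [NormedAddCommGroup Q]
  [NormedSpace ℂ Q]

/-- `s : Q → M` is complex differentiable at `q` -/
def HolC (A : Atl N M) (s : Q → M) (q : Q) : Prop :=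
  ContinuousAt s q ∧ ∃ i, s q ∈ (A.e i).source ∧ DifferentiableAt ℂ (fun q => A.e i (s q)) q

theorem HolC.cont {s : Q → M} {q : Q} (h : HolC A s q) : ContinuousAt s q := h.1

theorem HolC.chart {s : Q → M} {q : Q} (h : HolC A s q) {j : A.ι} (hj : s q ∈ (A.e j).source) :
    DifferentiableAt ℂ (fun q => A.e j (s q)) q := by
  obtain ⟨hc, i, hi, hd⟩ := h
  have h1 := (chg_diffAt A hi hj).comp (f := fun q => A.e i (s q)) q hd
  refine h1.congr_of_eventuallyEq ?_
  filter_upwards [hc ((A.e i).open_source.mem_nhds hi)] with r hr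
  simp only [comp_apply]
  rw [(A.e i).left_inv hr]

theorem HolC.congr {s s' : Q → M} {q : Q} (h : HolC A s q) (he : ∀ᶠ r in 𝓝 q, s r = s' r) :
    HolC A s' q := by
  obtain ⟨hc, i, hi, hd⟩ := h
  have h0 : s q = s' q := he.self_of_nhds
  refine ⟨hc.congr he, i, h0 ▸ hi, hd.congr_of_eventuallyEq ?_⟩
  filter_upwards [he] with r hr
  rw [hr]

theorem HolC.comp {s : Q → M} {u : P → Q} {p : P} (h : HolC A s (u p))
    (hu : DifferentiableAt ℂ u p) : HolC A (fun p => s (u p)) p := by
  obtain ⟨hc, i, hi, hd⟩ := h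
  exact ⟨ContinuousAt.comp (f := u) hc hu.continuousAt, i, hi, hd.comp p hu⟩

theorem HolC.holF {s : Q → M} {q : Q} (h : HolC A s q) {y : M → F} (hy : HolF A y) :
    DifferentiableAt ℂ (fun q => y (s q)) q := by
  obtain ⟨i, hi⟩ := A.cover (s q)
  have h1 := (hy.diffAt hi).comp (f := fun q => A.e i (s q)) q (h.chart hi)
  refine h1.congr_of_eventuallyEq ?_
  filter_upwards [h.cont ((A.e i).open_source.mem_nhds hi)] with r hr
  simp only [comp_apply]
  rw [(A.e i).left_inv hr]

/-- chain rule for `y ∘ s` in the chart `i` -/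
theorem HolC.fderiv_comp {s : Q → M} {q : Q} (h : HolC A s q) {y : M → F} (hy : HolF A y)
    {i : A.ι} (hi : s q ∈ (A.e i).source) (v : Q) :
    fderiv ℂ (fun q => y (s q)) q v =
      fderiv ℂ (fun z => y ((A.e i).symm z)) (A.e i (s q)) (fderiv ℂ (fun q => A.e i (s q)) q v) := by
  have h1 := (hy.diffAt hi).hasFDerivAt.comp q (h.chart hi).hasFDerivAt
  have h2 : (fun q => y (s q)) =ᶠ[𝓝 q]
      (fun z => y ((A.e i).symm z)) ∘ (fun q => A.e i (s q)) := by
    filter_upwards [h.cont ((A.e i).open_source.mem_nhds hi)] with r hr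
    simp only [comp_apply]
    rw [(A.e i).left_inv hr]
  rw [h2.fderiv_eq, h1.fderiv]
  rfl

theorem HolP.holC {G : P → M → M} {s : Q → M} {p : P} {q : Q} (hG : HolP A A G p (s q))
    (hs : HolC A s q) : HolC A (fun r : P × Q => G r.1 (s r.2)) (p, q) := by
  obtain ⟨hcG, j, k, hj, hk, hdG⟩ := hG
  have hds := hs.chart hj
  have hc : ContinuousAt (fun r : P × Q => s r.2) (p, q) :=
    ContinuousAt.comp (f := fun r : P × Q => r.2) hs.cont continuousAt_snd
  refine ⟨ContinuousAt.comp (g := uncurry G) (f := fun r : P × Q => (r.1, s r.2)) hcG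
    (continuousAt_fst.prodMk hc), k, hk, ?_⟩
  have h1 : DifferentiableAt ℂ (fun r : P × Q => (r.1, A.e j (s r.2))) (p, q) :=
    differentiableAt_fst.prodMk (DifferentiableAt.comp (f := fun r : P × Q => r.2) (p, q) hds
      differentiableAt_snd)
  have h2 := DifferentiableAt.comp (p, q) (f := fun r : P × Q => (r.1, A.e j (s r.2)))
    (g := fun r : P × Cn N => A.e k (G r.1 ((A.e j).symm r.2))) hdG h1
  refine h2.congr_of_eventuallyEq ?_
  filter_upwards [hc ((A.e j).open_source.mem_nhds hj)] with r hr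
  simp only [comp_apply]
  rw [(A.e j).left_inv hr]

theorem analyticAt_of_holC [FiniteDimensional ℂ Q] {s : Q → M} {q : Q}
    (h : ∀ᶠ r in 𝓝 q, HolC A s r) {i : A.ι} (hi : s q ∈ (A.e i).source) :
    AnalyticAt ℂ (fun q => A.e i (s q)) q := by
  refine Crest.Agent.R266.SCV.analyticAt_of_eventually_differentiableAt ?_
  filter_upwards [h, h.self_of_nhds.cont ((A.e i).open_source.mem_nhds hi)] with r hr hr'
  exact hr.chart hr'

end HolC

/-! ### regular points -/

theorem RegAt.all {V : Fin g → HVF A} {y : M → F} (hy : HolF A y) {x : M} (h : RegAt V y x)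
    {j : A.ι} (hj : x ∈ (A.e j).source) :
    LinearIndependent ℂ (fun k => (V k).X j x) ∧
      Surjective (fderiv ℂ (fun z => y ((A.e j).symm z)) (A.e j x)) := by
  obtain ⟨i, hi, h1, h2⟩ := h
  have key : ∀ a b : A.ι, ∀ _ : x ∈ (A.e a).source, ∀ _ : x ∈ (A.e b).source,
      ∀ v, fderiv ℂ (fun z => A.e a ((A.e b).symm z)) (A.e b x)
        (fderiv ℂ (fun z => A.e b ((A.e a).symm z)) (A.e a x) v) = v := by
    intro a b ha hb v
    have hd1 := (chg_diffAt A ha hb).hasFDerivAt
    have hd2 := (chg_diffAt A hb ha).hasFDerivAt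
    have e1 : A.e b ((A.e a).symm (A.e a x)) = A.e b x := by rw [(A.e a).left_inv ha]
    have h3 := HasFDerivAt.comp (A.e a x) (g := fun z => A.e a ((A.e b).symm z))
      (f := fun z => A.e b ((A.e a).symm z)) (by simp only [e1]; exact hd2) hd1
    have h4 : (fun z => A.e a ((A.e b).symm z)) ∘ (fun z => A.e b ((A.e a).symm z))
        =ᶠ[𝓝 (A.e a x)] id := by
      have hc : ContinuousAt (A.e a).symm (A.e a x) :=
        (A.e a).continuousAt_symm ((A.e a).map_source ha)
      have h5 : ∀ᶠ z in 𝓝 (A.e a x), (A.e a).symm z ∈ (A.e b).source :=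
        hc.preimage_mem_nhds (by rw [(A.e a).left_inv ha]; exact (A.e b).open_source.mem_nhds hb)
      filter_upwards [h5, (A.e a).open_target.mem_nhds ((A.e a).map_source ha)] with z hz hz'
      simp only [comp_apply, id]
      rw [(A.e b).left_inv hz, (A.e a).right_inv hz']
    have h6 := h3.fderiv
    rw [h4.fderiv_eq, fderiv_id] at h6
    have h7 := congrArg (fun T : Cn N →L[ℂ] Cn N => T v) h6
    simp only [ContinuousLinearMap.coe_id', id_eq, ContinuousLinearMap.coe_comp,
      Function.comp_apply] at h7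
    exact h7.symm
  constructor
  · have h3 : (fun k => (V k).X j x) = fun k =>
        fderiv ℂ (fun z => A.e j ((A.e i).symm z)) (A.e i x) ((V k).X i x) := by
      funext k
      exact (V k).tr i j x ⟨hi, hj⟩
    rw [h3]
    refine LinearIndependent.map' h1
      (fderiv ℂ (fun z => A.e j ((A.e i).symm z)) (A.e i x)).toLinearMap ?_
    rw [LinearMap.ker_eq_bot]
    intro v w hvw
    have := key i j hi hj v
    rw [← this, ← key i j hi hj w]
    congr 1
  · intro w
    obtain ⟨v, hv⟩ := h2 w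
    refine ⟨fderiv ℂ (fun z => A.e j ((A.e i).symm z)) (A.e i x) v, ?_⟩
    have h3 : (fun z => y ((A.e i).symm z)) =ᶠ[𝓝 (A.e i x)]
        (fun z => y ((A.e j).symm z)) ∘ (fun z => A.e j ((A.e i).symm z)) := by
      have hc : ContinuousAt (A.e i).symm (A.e i x) :=
        (A.e i).continuousAt_symm ((A.e i).map_source hi)
      have h5 : ∀ᶠ z in 𝓝 (A.e i x), (A.e i).symm z ∈ (A.e j).source :=
        hc.preimage_mem_nhds (by rw [(A.e i).left_inv hi]; exact (A.e j).open_source.mem_nhds hj)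
      filter_upwards [h5] with z hz
      simp only [comp_apply]
      rw [(A.e j).left_inv hz]
    have e1 : A.e j ((A.e i).symm (A.e i x)) = A.e j x := by rw [(A.e i).left_inv hi]
    have h4 := HasFDerivAt.comp (A.e i x) (g := fun z => y ((A.e j).symm z))
      (f := fun z => A.e j ((A.e i).symm z))
      (by simp only [e1]; exact (hy.diffAt hj).hasFDerivAt) (chg_diffAt A hi hj).hasFDerivAt
    rw [h3.fderiv_eq, h4.fderiv] at hv
    exact hv

/-- holomorphic slices -/
theorem exists_slice {y : M → F} (hy : HolF A y) {x0 : M} {i : A.ι} (hi : x0 ∈ (A.e i).source)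
    (hs : Surjective (fderiv ℂ (fun z => y ((A.e i).symm z)) (A.e i x0))) :
    ∃ (s : F → M) (W : Set F), IsOpen W ∧ y x0 ∈ W ∧ s (y x0) = x0 ∧
      ∀ b ∈ W, HolC A s b ∧ y (s b) = b := by
  set z0 := A.e i x0 with hz0
  set f : Cn N → F := fun z => y ((A.e i).symm z) with hf
  have hz0t : z0 ∈ (A.e i).target := (A.e i).map_source hi
  have hfa : AnalyticAt ℂ f z0 := by
    refine Crest.Agent.R266.SCV.analyticAt_of_eventually_differentiableAt ?_
    filter_upwards [(A.e i).open_target.mem_nhds hz0t] with z hz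
    exact (hy i).differentiableAt ((A.e i).open_target.mem_nhds hz)
  obtain ⟨R, hR⟩ := LinearMap.exists_rightInverse_of_surjective
    (fderiv ℂ f z0).toLinearMap (LinearMap.range_eq_top.2 hs)
  set R' : F →L[ℂ] Cn N := LinearMap.toContinuousLinearMap R with hR'
  have hLR : ∀ v, fderiv ℂ f z0 (R' v) = v := fun v => by
    have := congrArg (fun T : F →ₗ[ℂ] F => T v) hR
    simp only [LinearMap.coe_comp, comp_apply, LinearMap.id_coe, id_eq] at this
    exact this
  set h : F → F := fun β => f (z0 + R' β) with hh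
  have hha : AnalyticAt ℂ h 0 := by
    refine AnalyticAt.fun_comp (g := f) ?_ ?_
    · simpa using hfa
    · exact analyticAt_const.add (R'.analyticAt 0)
  have hhd : HasFDerivAt h ((ContinuousLinearEquiv.refl ℂ F : F ≃L[ℂ] F) : F →L[ℂ] F) 0 := by
    have h1 : HasFDerivAt (fun β => z0 + R' β) R' 0 := R'.hasFDerivAt.const_add z0
    have h2 : HasFDerivAt f (fderiv ℂ f z0) (z0 + R' 0) := by
      simpa using hfa.differentiableAt.hasFDerivAt
    have h3 := h2.comp 0 h1
    have h4 : (fderiv ℂ f z0).comp R' =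
        ((ContinuousLinearEquiv.refl ℂ F : F ≃L[ℂ] F) : F →L[ℂ] F) := by
      ext v
      simp [hLR]
    rw [h4] at h3
    exact h3
  have hU : {β : F | z0 + R' β ∈ (A.e i).target} ∈ 𝓝 (0 : F) := by
    have : ContinuousAt (fun β => z0 + R' β) 0 := by fun_prop
    refine this ((A.e i).open_target.mem_nhds ?_)
    simpa using hz0t
  obtain ⟨e, he0, heU, heh, _, hes⟩ :=
    Crest.Agent.R266.SCV.exists_analytic_openPartialHomeomorph hha _ hhd hU
  have hy0 : y x0 = e 0 := by
    rw [heh]
    simp only [hh, hf, map_zero, add_zero, hz0]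
    rw [(A.e i).left_inv hi]
  have hinv0 : e.symm (y x0) = 0 := by rw [hy0, e.left_inv he0]
  refine ⟨fun b => (A.e i).symm (z0 + R' (e.symm b)), e.target, e.open_target,
    by rw [hy0]; exact e.map_source he0, ?_, ?_⟩
  · simp only [hinv0, map_zero, add_zero, hz0]
    exact (A.e i).left_inv hi
  · intro b hb
    have hbt : z0 + R' (e.symm b) ∈ (A.e i).target := heU (e.map_target hb)
    have hd : DifferentiableAt ℂ (fun b => z0 + R' (e.symm b)) b :=
      (differentiableAt_const _).add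
        (R'.differentiableAt.comp b (hes b hb).differentiableAt)
    refine ⟨⟨?_, i, (A.e i).map_target hbt, ?_⟩, ?_⟩
    · exact ContinuousAt.comp (f := fun b => z0 + R' (e.symm b))
        ((A.e i).continuousAt_symm hbt) hd.continuousAt
    · refine hd.congr_of_eventuallyEq ?_
      filter_upwards [hd.continuousAt ((A.e i).open_target.mem_nhds hbt)] with b' hb'
      exact (A.e i).right_inv hb'
    · have h5 := e.right_inv hb
      rw [heh] at h5
      exact h5

/-! ### the map `Ψ` -/

variable {V : Fin g → HVF A} {y : M → F}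

/-- the fibres of `y` are preserved -/
theorem y_flow (h : Lio A V y) (Fl : MFlow V) (c : Fin g → ℂ) (x : M) : y (Fl.Φ c x) = y x := by
  have := Fl.map_add y (fun _ => (0 : F)) (fun k x => ?_) c x
  · simpa using this
  · obtain ⟨i, hi⟩ := A.cover (Fl.Φ (Pi.single k 0) x)
    have h1 := hasDerivAt_comp h.hol (Fl.int k x 0) hi
    rwa [h.tan k i _ hi] at h1

/-- `Ψ (c, b) = Φ_c (s b)` -/
def Psi (Fl : MFlow V) (s : F → M) (q : (Fin g → ℂ) × F) : M := Fl.Φ q.1 (s q.2)

theorem psi_hol (Fl : MFlow V) {s : F → M} {c : Fin g → ℂ} {b : F} (hs : HolC A s b) :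
    HolC A (Psi Fl s) (c, b) := HolP.holC (Fl.hol c (s b)) hs

theorem psi_int (Fl : MFlow V) (s : F → M) (c : Fin g → ℂ) (b : F) (k : Fin g) (t : ℂ) :
    IntAt (V k) (fun t => Psi Fl s (c + Pi.single k t, b)) t := by
  have h1 := Fl.int k (Fl.Φ c (s b)) t
  refine h1.congr (Eventually.of_forall fun u => ?_)
  simp only [Psi]
  rw [← Fl.add, add_comm]

/-- the derivative of `Ψ` in a chart is injective at regular points -/
theorem psi_inj (h : Lio A V y) (Fl : MFlow V) {s : F → M} {W : Set F} (hW : IsOpen W)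
    (hs : ∀ b ∈ W, HolC A s b ∧ y (s b) = b) {c : Fin g → ℂ} {b : F} (hb : b ∈ W)
    (hr : RegAt V y (Psi Fl s (c, b))) {j : A.ι} (hj : Psi Fl s (c, b) ∈ (A.e j).source) :
    Injective (fderiv ℂ (fun q => A.e j (Psi Fl s q)) (c, b)) := by
  obtain ⟨hli, -⟩ := RegAt.all h.hol hr hj
  have hhol := psi_hol (A := A) Fl (c := c) (hs b hb).1
  set D := fderiv ℂ (fun q => A.e j (Psi Fl s q)) (c, b) with hD
  -- `y ∘ Ψ = snd`
  have hy1 : ∀ v, fderiv ℂ (fun z => y ((A.e j).symm z)) (A.e j (Psi Fl s (c, b))) (D v) = v.2 := by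
    intro v
    rw [← hhol.fderiv_comp h.hol hj v]
    have : (fun q => y (Psi Fl s q)) =ᶠ[𝓝 (c, b)] Prod.snd := by
      have : ∀ᶠ q : (Fin g → ℂ) × F in 𝓝 (c, b), q.2 ∈ W :=
        continuousAt_snd (hW.mem_nhds hb)
      filter_upwards [this] with q hq
      rw [Psi, y_flow h, (hs _ hq).2]
    rw [this.fderiv_eq, fderiv_snd]
    rfl
  -- `D (e_k, 0) = V_k`
  have hV : ∀ k, D (Pi.single k 1, 0) = (V k).X j (Psi Fl s (c, b)) := by
    intro k
    have h1 := (psi_int Fl s c b k 0).chart (j := j) (by simpa using hj)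
    have h2 : HasDerivAt (fun t : ℂ => ((c + Pi.single k t, b) : (Fin g → ℂ) × F))
        (Pi.single k 1, 0) 0 := by
      have e1 : (fun t : ℂ => ((c + Pi.single k t, b) : (Fin g → ℂ) × F)) =
          fun t => (c, b) + t • ((Pi.single k 1, 0) : (Fin g → ℂ) × F) := by
        funext t
        ext1
        · simp only [Prod.fst_add, Prod.smul_mk, ← Pi.single_smul, smul_eq_mul, mul_one]
        · simp
      rw [e1]
      simpa using ((hasDerivAt_id (0 : ℂ)).smul_const
        ((Pi.single k 1, 0) : (Fin g → ℂ) × F)).const_add (c, b)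
    have h3 : HasFDerivAt (fun q => A.e j (Psi Fl s q)) D
        ((fun t : ℂ => ((c + Pi.single k t, b) : (Fin g → ℂ) × F)) 0) := by
      simp only [Pi.single_zero, add_zero]
      exact (hhol.chart hj).hasFDerivAt
    have h4 := h3.comp_hasDerivAt (0 : ℂ) h2
    have h5 := h4.unique h1
    simpa using h5
  rw [injective_iff_map_eq_zero]
  intro v hv
  have h2 : v.2 = 0 := by rw [← hy1 v, hv, map_zero]
  have h3 : v = ∑ k, v.1 k • ((Pi.single k 1, 0) : (Fin g → ℂ) × F) := by
    ext1
    · rw [Prod.fst_sum]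
      funext l
      simp [Finset.sum_apply, Pi.single_apply]
    · rw [Prod.snd_sum]
      simp [h2]
  have h4 : ∑ k, v.1 k • (V k).X j (Psi Fl s (c, b)) = 0 := by
    rw [h3, map_sum] at hv
    simp only [map_smul, hV] at hv
    exact hv
  have h5 := Fintype.linearIndependent_iff.1 hli v.1 h4
  ext1
  · funext k; exact h5 k
  · exact h2

/-- **`Ψ` is a local biholomorphism** -/
theorem psi_loc (h : Lio A V y) (Fl : MFlow V) {s : F → M} {W : Set F} (hW : IsOpen W)
    (hs : ∀ b ∈ W, HolC A s b ∧ y (s b) = b) {c : Fin g → ℂ} {b : F} (hb : b ∈ W)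
    (hr : RegAt V y (Psi Fl s (c, b))) {j : A.ι} (hj : Psi Fl s (c, b) ∈ (A.e j).source) :
    ∃ e : OpenPartialHomeomorph ((Fin g → ℂ) × F) (Cn N), (c, b) ∈ e.source ∧
      (∀ q ∈ e.source, q.2 ∈ W ∧ Psi Fl s q ∈ (A.e j).source) ∧
      (∀ q, e q = A.e j (Psi Fl s q)) ∧
      AnalyticOnNhd ℂ e e.source ∧ AnalyticOnNhd ℂ e.symm e.target := by
  have hinj := psi_inj h Fl hW hs hb hr hj
  have hev : ∀ᶠ q : (Fin g → ℂ) × F in 𝓝 (c, b), HolC A (Psi Fl s) q := by
    have : ∀ᶠ q : (Fin g → ℂ) × F in 𝓝 (c, b), q.2 ∈ W := continuousAt_snd (hW.mem_nhds hb)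
    filter_upwards [this] with q hq
    exact psi_hol Fl (hs _ hq).1
  have han := analyticAt_of_holC hev hj
  have hfr : Module.finrank ℂ ((Fin g → ℂ) × F) = Module.finrank ℂ (Cn N) := by
    rw [Module.finrank_prod, Module.finrank_fin_fun, finrank_euclideanSpace_fin]
    exact h.dim
  set D := fderiv ℂ (fun q => A.e j (Psi Fl s q)) (c, b) with hD
  set L : ((Fin g → ℂ) × F) ≃L[ℂ] Cn N :=
    (LinearEquiv.ofInjectiveOfFinrankEq D.toLinearMap hinj hfr).toContinuousLinearEquiv with hL
  have hLD : (L : ((Fin g → ℂ) × F) →L[ℂ] Cn N) = D := ContinuousLinearMap.ext fun v => rfl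
  have hU : {q : (Fin g → ℂ) × F | q.2 ∈ W ∧ Psi Fl s q ∈ (A.e j).source} ∈ 𝓝 (c, b) := by
    have h1 : ∀ᶠ q : (Fin g → ℂ) × F in 𝓝 (c, b), q.2 ∈ W := continuousAt_snd (hW.mem_nhds hb)
    exact h1.and (hev.self_of_nhds.cont ((A.e j).open_source.mem_nhds hj))
  obtain ⟨e, h1, h2, h3, h4, h5⟩ :=
    Crest.Agent.R266.SCV.exists_analytic_openPartialHomeomorph han L
      (by rw [hLD]; exact han.differentiableAt.hasFDerivAt) hU
  exact ⟨e, h1, h2, h3, h4, h5⟩

end

end Crest.Agent.R281.Aa3_836
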