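import Crest.Agent.R281.Aa3_836
import Mathlib.Algebra.Module.ZLattice.Basic

/-!
# R281 (S0424), S6-AA (helper836), file 4: orbits of the action of `ℂ^g` on a tube with compact
fibres, period lattices, holomorphic period bases.
-/

set_option autoImplicit false
set_option linter.unusedSectionVars false

open Set Metric Filter Topology Complex Function TopologicalSpace
open scoped NNReal ContDiff

namespace Crest.Agent.R281.Aa4_836

open Crest.Agent.R275.Geo Crest.Agent.R273.HFlow3_376 Crest.Agent.R273.HFlow4_376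
open Crest.Agent.R273.HFlow5_376 Crest.Agent.R273.HFlow6_376
open Crest.Agent.R281.Aa1_836 Crest.Agent.R281.Aa2_836 Crest.Agent.R281.Aa3_836

noncomputable section

/-! ### lattices -/

theorem exists_lat_basis {E : Type} [NormedAddCommGroup E] [NormedSpace ℝ E]
    [FiniteDimensional ℝ E] (L : AddSubgroup E) {r R : ℝ} (hr : 0 < r)
    (hd : ∀ c ∈ L, ‖c‖ < r → c = 0) (hR : ∀ x : E, ∃ l ∈ L, ‖x - l‖ ≤ R) :
    ∃ b : Module.Basis (Fin (Module.finrank ℝ E)) ℝ E,
      ∀ x, x ∈ L ↔ ∃ m : Fin (Module.finrank ℝ E) → ℤ, x = ∑ i, m i • b i := by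
  set L' : Submodule ℤ E := AddSubgroup.toIntSubmodule L with hL'
  have hmem : ∀ x, x ∈ L' ↔ x ∈ L := fun x => Iff.rfl
  have hdisc : DiscreteTopology L' := by
    refine DiscreteTopology.of_forall_le_dist hr fun x x' hne => ?_
    by_contra hlt
    push Not at hlt
    apply hne
    apply Subtype.ext
    have h1 : (x : E) - x' ∈ L := L.sub_mem ((hmem _).1 x.2) ((hmem _).1 x'.2)
    have h2 := hd _ h1 (by rw [← dist_eq_norm]; exact hlt)
    exact sub_eq_zero.1 h2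
  have hspan : Submodule.span ℝ (L' : Set E) = ⊤ := by
    by_contra hne
    set S := Submodule.span ℝ (L' : Set E) with hS
    obtain ⟨v, hv⟩ : ∃ v, v ∉ S := by
      by_contra h
      push Not at h
      exact hne (Submodule.eq_top_iff'.2 h)
    have hcl : IsClosed (S : Set E) := S.closed_of_finiteDimensional
    have hdpos : 0 < infDist v (S : Set E) := by
      rw [← hcl.notMem_iff_infDist_pos ⟨0, S.zero_mem⟩]
      exact hv
    obtain ⟨t, ht⟩ := exists_nat_gt (R / infDist v (S : Set E))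
    have hR0 : 0 ≤ R := by
      obtain ⟨l, _, hl⟩ := hR 0
      exact (norm_nonneg _).trans hl
    have ht0 : (0 : ℝ) < t := lt_of_le_of_lt (div_nonneg hR0 hdpos.le) ht
    obtain ⟨l, hl, hlR⟩ := hR ((t : ℝ) • v)
    have h1 : (t : ℝ)⁻¹ • l ∈ (S : Set E) := S.smul_mem _ (Submodule.subset_span hl)
    have h2 := infDist_le_dist_of_mem (x := v) h1
    have h3 : dist v ((t : ℝ)⁻¹ • l) = (t : ℝ)⁻¹ * ‖(t : ℝ) • v - l‖ := by
      rw [dist_eq_norm, ← abs_of_pos (inv_pos.2 ht0), ← Real.norm_eq_abs, ← norm_smul, smul_sub,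
        smul_smul, inv_mul_cancel₀ ht0.ne', one_smul]
      simp only [Real.norm_eq_abs, abs_of_pos (inv_pos.2 ht0)]
    rw [h3] at h2
    have h4 : (t : ℝ)⁻¹ * ‖(t : ℝ) • v - l‖ ≤ (t : ℝ)⁻¹ * R :=
      mul_le_mul_of_nonneg_left hlR (inv_pos.2 ht0).le
    have h5 : infDist v (S : Set E) * t ≤ R := by
      have := mul_le_mul_of_nonneg_right (h2.trans h4) ht0.le
      rwa [mul_comm (t : ℝ)⁻¹ R, mul_assoc, inv_mul_cancel₀ ht0.ne', mul_one] at this
    rw [div_lt_iff₀ hdpos] at ht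
    linarith [mul_comm (infDist v (S : Set E)) (t : ℝ)]
  have hlat : IsZLattice ℝ L' := ⟨hspan⟩
  have hfree : Module.Free ℤ L' := ZLattice.module_free ℝ L'
  have hfin : Module.Finite ℤ L' := ZLattice.module_finite ℝ L'
  have hrank : Module.finrank ℤ L' = Module.finrank ℝ E := ZLattice.rank ℝ L'
  set b0 : Module.Basis (Fin (Module.finrank ℝ E)) ℤ L' := Module.finBasisOfFinrankEq ℤ L' hrank
  refine ⟨b0.ofZLatticeBasis ℝ L', fun x => ?_⟩
  have hx := SetLike.ext_iff.1 (b0.ofZLatticeBasis_span ℝ L') x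
  rw [← hmem, ← hx, Submodule.mem_span_range_iff_exists_fun]
  constructor
  · rintro ⟨c, hc⟩; exact ⟨c, hc.symm⟩
  · rintro ⟨c, hc⟩; exact ⟨c, hc.symm⟩

/-- rounding -/
theorem exists_round {E : Type} [NormedAddCommGroup E] [NormedSpace ℝ E]
    [FiniteDimensional ℝ E] {ι : Type} [Fintype ι] (l : ι → E) (hl : LinearIndependent ℝ l)
    (hc : Fintype.card ι = Module.finrank ℝ E) (x : E) :
    ∃ m : ι → ℤ, ‖x - ∑ i, m i • l i‖ ≤ ∑ i, ‖l i‖ := by
  classical
  by_cases hE : Nonempty ι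
  · set b := basisOfLinearIndependentOfCardEqFinrank hl hc with hb
    have hbl : ∀ i, b i = l i := fun i => by
      rw [hb, coe_basisOfLinearIndependentOfCardEqFinrank]
    refine ⟨fun i => ⌊b.repr x i⌋, ?_⟩
    have h1 : x - ∑ i, ⌊b.repr x i⌋ • l i = ∑ i, Int.fract (b.repr x i) • l i := by
      conv_lhs => rw [← b.sum_repr x]
      rw [← Finset.sum_sub_distrib]
      refine Finset.sum_congr rfl fun i _ => ?_
      rw [hbl, ← Int.cast_smul_eq_zsmul ℝ, ← sub_smul, b.sum_repr x]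
      rfl
    rw [h1]
    refine (norm_sum_le _ _).trans (Finset.sum_le_sum fun i _ => ?_)
    rw [norm_smul, Real.norm_eq_abs, abs_of_nonneg (Int.fract_nonneg _)]
    exact mul_le_of_le_one_left (norm_nonneg _) (Int.fract_lt_one _).le
  · rw [not_nonempty_iff] at hE
    rw [Fintype.card_eq_zero] at hc
    have : Subsingleton E := Module.finrank_zero_iff.1 hc.symm
    refine ⟨fun _ => 0, ?_⟩
    rw [Subsingleton.elim (x - ∑ i, (0 : ℤ) • l i) 0, norm_zero]
    exact Finset.sum_nonneg fun i _ => norm_nonneg _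

variable {N g : ℕ} {M : Type} [TopologicalSpace M] {A : Atl N M}
  {F : Type} [NormedAddCommGroup F] [NormedSpace ℂ F] [FiniteDimensional ℂ F]
  {V : Fin g → HVF A} {y : M → F} {b0 : F}

/-- proper tube around a compact connected fibre -/
structure TubH (A : Atl N M) (V : Fin g → HVF A) (y : M → F) (b0 : F) : Prop where
  lio : Lio A V y
  reg : ∀ x, RegAt V y x
  cpt : IsCompact {x | y x = b0}
  conn : IsPreconnected {x | y x = b0}
  prop : ∀ O, IsOpen O → {x | y x = b0} ⊆ O → ∃ δ > 0, ∀ x, dist (y x) b0 < δ → x ∈ O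

/-- `Ψ` is open -/
theorem psi_nhds (h : Lio A V y) (hreg : ∀ x, RegAt V y x) (Fl : MFlow V) {s : F → M} {W : Set F}
    (hW : IsOpen W) (hs : ∀ b ∈ W, HolC A s b ∧ y (s b) = b) {c : Fin g → ℂ} {b : F} (hb : b ∈ W)
    {U : Set ((Fin g → ℂ) × F)} (hU : U ∈ 𝓝 (c, b)) :
    ∀ᶠ p in 𝓝 (Psi Fl s (c, b)), ∃ q ∈ U, q.2 ∈ W ∧ Psi Fl s q = p := by
  obtain ⟨j, hj⟩ := A.cover (Psi Fl s (c, b))
  obtain ⟨e, he0, he1, he2, -, -⟩ := psi_loc h Fl hW hs hb (hreg _) hj
  have ht : A.e j (Psi Fl s (c, b)) ∈ e.target := by rw [← he2]; exact e.map_source he0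
  have hc : ContinuousAt (fun p => e.symm (A.e j p)) (Psi Fl s (c, b)) :=
    ContinuousAt.comp (g := e.symm) (f := fun p => A.e j p) (e.continuousAt_symm ht)
      ((A.e j).continuousAt hj)
  have hv : e.symm (A.e j (Psi Fl s (c, b))) = (c, b) := by rw [← he2, e.left_inv he0]
  have h1 : ∀ᶠ p in 𝓝 (Psi Fl s (c, b)), e.symm (A.e j p) ∈ U := hc (by
    change U ∈ 𝓝 (e.symm (A.e j (Psi Fl s (c, b))))
    rw [hv]; exact hU)
  have h2 : ∀ᶠ p in 𝓝 (Psi Fl s (c, b)), A.e j p ∈ e.target :=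
    ((A.e j).continuousAt hj) (e.open_target.mem_nhds ht)
  filter_upwards [h1, h2, (A.e j).open_source.mem_nhds hj] with p hp1 hp2 hp3
  have hsrc := e.map_target hp2
  refine ⟨_, hp1, (he1 _ hsrc).1, ?_⟩
  refine (A.e j).injOn (he1 _ hsrc).2 hp3 ?_
  rw [← he2, e.right_inv hp2]

/-- `Ψ` is locally injective -/
theorem psi_injOn (h : Lio A V y) (hreg : ∀ x, RegAt V y x) (Fl : MFlow V) {s : F → M} {W : Set F}
    (hW : IsOpen W) (hs : ∀ b ∈ W, HolC A s b ∧ y (s b) = b) (c : Fin g → ℂ) {b : F}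
    (hb : b ∈ W) : ∃ U ∈ 𝓝 (c, b), InjOn (Psi Fl s) U := by
  obtain ⟨j, hj⟩ := A.cover (Psi Fl s (c, b))
  obtain ⟨e, he0, -, he2, -, -⟩ := psi_loc h Fl hW hs hb (hreg _) hj
  refine ⟨e.source, e.open_source.mem_nhds he0, fun q hq q' hq' heq => ?_⟩
  refine e.injOn hq hq' ?_
  rw [he2, he2, heq]

/-- orbits are open in the fibres -/
theorem orbit_nhds (h : Lio A V y) (hreg : ∀ x, RegAt V y x) (Fl : MFlow V) (x : M) :
    ∀ᶠ p in 𝓝 x, y p = y x → ∃ c, Fl.Φ c x = p := by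
  obtain ⟨i, hi, -, hsur⟩ := hreg x
  obtain ⟨s, W, hW, hxW, hsx, hs⟩ := exists_slice h.hol hi hsur
  have h1 := psi_nhds h hreg Fl hW hs (c := 0) hxW univ_mem
  have e1 : Psi Fl s (0, y x) = x := by simp only [Psi, hsx, Fl.zero]
  rw [e1] at h1
  filter_upwards [h1] with p hp hy
  obtain ⟨q, -, hqW, hq⟩ := hp
  have h2 : q.2 = y x := by
    rw [← hy, ← hq, Psi, y_flow h, (hs _ hqW).2]
  refine ⟨q.1, ?_⟩
  rw [← hq, Psi, h2, hsx]

theorem one_orbit (H : TubH A V y b0) (Fl : MFlow V) {x x' : M} (hx : y x = b0) (hx' : y x' = b0) :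
    ∃ c, Fl.Φ c x = x' := by
  set P : M → Prop := fun p => ∃ c, Fl.Φ c x = p with hP
  set u : Set M := interior {p | y p = b0 → P p} with hu
  set v : Set M := interior {p | y p = b0 → ¬ P p} with hv
  have h1 : {p | y p = b0} ⊆ u ∪ v := by
    intro p hp
    have hp' : y p = b0 := hp
    have h2 := orbit_nhds H.lio H.reg Fl p
    by_cases hPp : P p
    · left
      rw [hu, mem_interior_iff_mem_nhds]
      filter_upwards [h2] with q hq hyq
      obtain ⟨c, hc⟩ := hq (hyq.trans hp'.symm)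
      obtain ⟨d, hd⟩ := hPp
      exact ⟨c + d, by rw [Fl.add, hd, hc]⟩
    · right
      rw [hv, mem_interior_iff_mem_nhds]
      filter_upwards [h2] with q hq hyq hPq
      obtain ⟨c, hc⟩ := hq (hyq.trans hp'.symm)
      obtain ⟨d, hd⟩ := hPq
      exact hPp ⟨-c + d, by rw [Fl.add, hd, ← hc, Fl.neg_left]⟩
  have h2 : {p | y p = b0} ∩ (u ∩ v) = ∅ := by
    rw [Set.eq_empty_iff_forall_notMem]
    rintro p ⟨hp, hpu, hpv⟩
    exact interior_subset hpv hp (interior_subset hpu hp)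
  rcases isPreconnected_iff_subset_of_disjoint.1 H.conn u v isOpen_interior isOpen_interior h1 h2
    with h3 | h3
  · exact interior_subset (h3 hx') hx'
  · exact absurd ⟨0, Fl.zero x⟩ (interior_subset (h3 hx) hx)

/-- the fibres near `b0` are covered by a bounded part of `ℂ^g` -/
theorem exists_cover (H : TubH A V y b0) (Fl : MFlow V) {s : F → M} {W : Set F}
    (hW : IsOpen W) (hs : ∀ b ∈ W, HolC A s b ∧ y (s b) = b) (hb : b0 ∈ W) :
    ∃ R : ℝ, ∃ δ > 0, ball b0 δ ⊆ W ∧ ∀ x, dist (y x) b0 < δ →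
      ∃ c, ‖c‖ < R ∧ Fl.Φ c (s (y x)) = x := by
  set O : ℕ → Set M := fun k => {p | ∃ q : (Fin g → ℂ) × F, ‖q.1‖ < k ∧ q.2 ∈ W ∧ Psi Fl s q = p}
    with hO
  have hOo : ∀ k, IsOpen (O k) := by
    intro k
    rw [isOpen_iff_mem_nhds]
    rintro _ ⟨q, hq1, hq2, rfl⟩
    have hU : {q : (Fin g → ℂ) × F | ‖q.1‖ < k} ∈ 𝓝 (q.1, q.2) :=
      (isOpen_lt (continuous_norm.comp continuous_fst) continuous_const).mem_nhds hq1
    filter_upwards [psi_nhds H.lio H.reg Fl hW hs (c := q.1) hq2 hU] with p hp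
    obtain ⟨q', h1, h2, h3⟩ := hp
    exact ⟨q', h1, h2, h3⟩
  have hx0 : y (s b0) = b0 := (hs b0 hb).2
  have hcov : {x | y x = b0} ⊆ ⋃ k, O k := by
    intro x hx
    obtain ⟨c, hc⟩ := one_orbit H Fl hx0 hx
    obtain ⟨k, hk⟩ := exists_nat_gt ‖c‖
    exact mem_iUnion.2 ⟨k, (c, b0), hk, hb, hc⟩
  have hmono : Monotone O := by
    rintro k k' hkk p ⟨q, h1, h2, h3⟩
    exact ⟨q, h1.trans_le (by exact_mod_cast hkk), h2, h3⟩
  obtain ⟨k, hk⟩ := H.cpt.elim_directed_cover O hOo hcov hmono.directed_le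
  obtain ⟨δ, hδ, hδO⟩ := H.prop (O k) (hOo k) hk
  obtain ⟨δ', hδ', hδW⟩ := Metric.isOpen_iff.1 hW b0 hb
  refine ⟨k, min δ δ', lt_min hδ hδ', (ball_subset_ball (min_le_right _ _)).trans hδW, ?_⟩
  intro x hx
  obtain ⟨q, h1, h2, h3⟩ := hδO x (hx.trans_le (min_le_left _ _))
  have h4 : y x = q.2 := by rw [← h3, Psi, y_flow H.lio, (hs _ h2).2]
  exact ⟨q.1, h1, by rw [h4]; exact h3⟩

/-- the period group -/
def Lam (Fl : MFlow V) (x : M) : AddSubgroup (Fin g → ℂ) where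
  carrier := {c | Fl.Φ c x = x}
  zero_mem' := Fl.zero x
  add_mem' {c d} hc hd := by
    rw [mem_ofPred_eq] at *
    rw [Fl.add, hd, hc]
  neg_mem' {c} hc := by
    rw [mem_ofPred_eq] at *
    conv_lhs => rw [← hc]
    rw [Fl.neg_left]

theorem mem_Lam {Fl : MFlow V} {x : M} {c : Fin g → ℂ} : c ∈ Lam Fl x ↔ Fl.Φ c x = x := Iff.rfl

theorem Lam_flow (Fl : MFlow V) (x : M) (d : Fin g → ℂ) : Lam Fl (Fl.Φ d x) = Lam Fl x := by
  ext c
  rw [mem_Lam, mem_Lam]
  constructor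
  · intro h
    have := congrArg (Fl.Φ (-d)) h
    rwa [Fl.comm c d, Fl.neg_left, Fl.neg_left] at this
  · intro h
    rw [Fl.comm, h]

/-- local discreteness, uniform -/
theorem exists_disc [T2Space M] (h : Lio A V y) (hreg : ∀ x, RegAt V y x) (Fl : MFlow V)
    {s : F → M} {W : Set F}
    (hW : IsOpen W) (hs : ∀ b ∈ W, HolC A s b ∧ y (s b) = b) (hb : b0 ∈ W) :
    ∃ r > 0, ∀ᶠ b in 𝓝 b0, ∀ c ∈ Lam Fl (s b), ‖c‖ < r → c = 0 := by
  obtain ⟨U, hU, hinj⟩ := psi_injOn h hreg Fl hW hs 0 hb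
  obtain ⟨r, hr, hsub⟩ := Metric.mem_nhds_iff.1 hU
  refine ⟨r, hr, ?_⟩
  filter_upwards [ball_mem_nhds b0 hr] with b hb' c hc hcr
  have h1 : (c, b) ∈ ball ((0 : Fin g → ℂ), b0) r := by
    rw [mem_ball, Prod.dist_eq, max_lt_iff]
    exact ⟨by simpa using hcr, hb'⟩
  have h2 : ((0 : Fin g → ℂ), b) ∈ ball ((0 : Fin g → ℂ), b0) r := by
    rw [mem_ball, Prod.dist_eq, max_lt_iff]
    exact ⟨by simpa using hr, hb'⟩
  have h3 := hinj (hsub h1) (hsub h2) (by
    simp only [Psi, Fl.zero]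
    exact hc)
  exact (Prod.mk.inj h3).1

/-- holomorphic continuation of one period -/
theorem exists_per (h : Lio A V y) (hreg : ∀ x, RegAt V y x) (Fl : MFlow V)
    {s : F → M} {W : Set F}
    (hW : IsOpen W) (hs : ∀ b ∈ W, HolC A s b ∧ y (s b) = b) (hb : b0 ∈ W)
    {c : Fin g → ℂ} (hc : c ∈ Lam Fl (s b0)) :
    ∃ l : F → (Fin g → ℂ), l b0 = c ∧ ∀ᶠ b in 𝓝 b0, DifferentiableAt ℂ l b ∧
      l b ∈ Lam Fl (s b) := by
  obtain ⟨j, hj⟩ := A.cover (s b0)
  have hP0 : Psi Fl s (c, b0) = s b0 := hc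
  obtain ⟨e, he0, he1, he2, -, he4⟩ := psi_loc h Fl hW hs (c := c) hb (hreg _)
    (j := j) (by rw [hP0]; exact hj)
  have ht : A.e j (s b0) ∈ e.target := by rw [← hP0, ← he2]; exact e.map_source he0
  have hv : e.symm (A.e j (s b0)) = (c, b0) := by rw [← hP0, ← he2, e.left_inv he0]
  refine ⟨fun b => (e.symm (A.e j (s b))).1, by
    change (e.symm (A.e j (s b0))).1 = c
    rw [hv], ?_⟩
  have hsc : ContinuousAt s b0 := (hs b0 hb).1.cont
  have h1 : ∀ᶠ b in 𝓝 b0, s b ∈ (A.e j).source := hsc ((A.e j).open_source.mem_nhds hj)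
  have h2 : ∀ᶠ b in 𝓝 b0, A.e j (s b) ∈ e.target :=
    (ContinuousAt.comp (g := A.e j) ((A.e j).continuousAt hj) hsc) (e.open_target.mem_nhds ht)
  filter_upwards [h1, h2, hW.mem_nhds hb] with b hb1 hb2 hb3
  have hsrc := e.map_target hb2
  have heq : Psi Fl s (e.symm (A.e j (s b))) = s b := by
    refine (A.e j).injOn (he1 _ hsrc).2 hb1 ?_
    rw [← he2, e.right_inv hb2]
  have h5 : (e.symm (A.e j (s b))).2 = b := by
    have h6 : y (Psi Fl s (e.symm (A.e j (s b)))) = (e.symm (A.e j (s b))).2 := by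
      rw [Psi, y_flow h, (hs _ (he1 _ hsrc).1).2]
    rw [← h6, heq, (hs b hb3).2]
  refine ⟨?_, ?_⟩
  · have h7 : DifferentiableAt ℂ (fun b => e.symm (A.e j (s b))) b :=
      (he4 _ hb2).differentiableAt.comp b ((hs b hb3).1.chart hb1)
    exact h7.fst
  · rw [mem_Lam]
    have h8 := heq
    rw [Psi, h5] at h8
    exact h8

/-- **holomorphic period basis** -/
theorem exists_periods [T2Space M] (H : TubH A V y b0) (Fl : MFlow V) {s : F → M} {W : Set F}
    (hW : IsOpen W) (hs : ∀ b ∈ W, HolC A s b ∧ y (s b) = b) (hb : b0 ∈ W) :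
    ∃ (R δ : ℝ) (l : Fin (2 * g) → F → (Fin g → ℂ)), 0 < δ ∧ ball b0 δ ⊆ W ∧
      (∀ x, y x ∈ ball b0 δ → ∃ c, ‖c‖ < R ∧ Fl.Φ c (s (y x)) = x) ∧
      (∀ i, DifferentiableOn ℂ (l i) (ball b0 δ)) ∧
      (∀ b ∈ ball b0 δ, LinearIndependent ℝ (fun i => l i b)) ∧
      ∀ b ∈ ball b0 δ, ∀ c, Fl.Φ c (s b) = s b ↔ ∃ m : Fin (2 * g) → ℤ, c = ∑ i, m i • l i b := by
  classical
  obtain ⟨R, δ1, hδ1, hδW, hcov⟩ := exists_cover H Fl hW hs hb
  obtain ⟨r, hr, hdisc⟩ := exists_disc H.lio H.reg Fl hW hs hb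
  have hb0 : dist (y (s b0)) b0 < δ1 := by rw [(hs b0 hb).2, dist_self]; exact hδ1
  -- the lattice at `b0`
  have hfr : Module.finrank ℝ (Fin g → ℂ) = 2 * g := by
    rw [finrank_real_of_complex, Module.finrank_fin_fun]
  obtain ⟨B, hB⟩ : ∃ B : Module.Basis (Fin (2 * g)) ℝ (Fin g → ℂ),
      ∀ x, x ∈ Lam Fl (s b0) ↔ ∃ m : Fin (2 * g) → ℤ, x = ∑ i, m i • B i := by
    obtain ⟨B, hB⟩ := exists_lat_basis (Lam Fl (s b0)) hr hdisc.self_of_nhds (R := R) (by
      intro c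
      have h1 : y (Fl.Φ c (s b0)) = b0 := by rw [y_flow H.lio, (hs b0 hb).2]
      obtain ⟨d, hd, hdc⟩ := hcov (Fl.Φ c (s b0)) (by rw [h1, dist_self]; exact hδ1)
      rw [h1] at hdc
      refine ⟨c - d, ?_, ?_⟩
      · rw [mem_Lam, sub_eq_neg_add, Fl.add, ← hdc, Fl.neg_left]
      · rw [sub_sub_cancel]; exact hd.le)
    refine ⟨B.reindex (finCongr hfr), fun x => ?_⟩
    rw [hB]
    constructor
    · rintro ⟨m, hm⟩
      refine ⟨fun i => m ((finCongr hfr).symm i), ?_⟩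
      rw [hm]
      exact Fintype.sum_equiv (finCongr hfr) _ _ fun i => by simp
    · rintro ⟨m, hm⟩
      refine ⟨fun i => m (finCongr hfr i), ?_⟩
      rw [hm]
      exact (Fintype.sum_equiv (finCongr hfr) _ _ fun i => by simp).symm
  have hBm : ∀ i, B i ∈ Lam Fl (s b0) := fun i => (hB _).2
    ⟨Pi.single i 1, by simp [Pi.single_apply, ite_smul]⟩
  choose l hl0 hl using fun i => exists_per H.lio H.reg Fl hW hs hb (hBm i)
  have hlall : ∀ᶠ b in 𝓝 b0, ∀ i, DifferentiableAt ℂ (l i) b ∧ l i b ∈ Lam Fl (s b) :=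
    eventually_all.2 hl
  have hlc : ContinuousAt (fun b i => l i b) b0 :=
    continuousAt_pi.2 fun i => (hl i).self_of_nhds.1.continuousAt
  have hli : ∀ᶠ b in 𝓝 b0, LinearIndependent ℝ (fun i => l i b) := by
    have h1 : IsOpen {f : Fin (2 * g) → (Fin g → ℂ) | LinearIndependent ℝ f} :=
      isOpen_setOfPred_linearIndependent
    refine hlc (h1.mem_nhds ?_)
    have : (fun i => l i b0) = B := funext hl0
    change LinearIndependent ℝ (fun i => l i b0)
    rw [this]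
    exact B.linearIndependent
  -- bound
  set R' : ℝ := ∑ i, ‖l i b0‖ + 1 with hR'
  have hbd : ∀ᶠ b in 𝓝 b0, ∑ i, ‖l i b‖ ≤ R' := by
    have h1 : ContinuousAt (fun b => ∑ i, ‖l i b‖) b0 :=
      tendsto_finsetSum _ fun i _ => ((hl i).self_of_nhds.1.continuousAt).norm
    filter_upwards [h1.eventually (gt_mem_nhds (lt_add_one (∑ i, ‖l i b0‖)))] with b hb
    exact hb.le
  have hmem : ∀ᶠ b in 𝓝 b0, ∀ m : Fin (2 * g) → ℤ, ∑ i, m i • l i b ∈ Lam Fl (s b) := by
    filter_upwards [hlall] with b hb m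
    exact sum_mem fun i _ => zsmul_mem (hb i).2 _
  have hkey : ∀ᶠ b in 𝓝 b0, ∀ c ∈ closedBall (0 : Fin g → ℂ) R', c ∈ Lam Fl (s b) →
      ∃ m : Fin (2 * g) → ℤ, c = ∑ i, m i • l i b := by
    refine IsCompact.eventually_forall_of_forall_eventually (isCompact_closedBall _ _)
      (P := fun b c => c ∈ Lam Fl (s b) → ∃ m : Fin (2 * g) → ℤ, c = ∑ i, m i • l i b) ?_
    intro c _
    have hPc : ContinuousAt (fun z : F × (Fin g → ℂ) => Psi Fl s (z.2, z.1)) (b0, c) :=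
      ContinuousAt.comp (g := Psi Fl s) (f := fun z : F × (Fin g → ℂ) => (z.2, z.1))
        (psi_hol (A := A) Fl (hs b0 hb).1).cont (by fun_prop)
    have hsc : ContinuousAt (fun z : F × (Fin g → ℂ) => s z.1) (b0, c) :=
      ContinuousAt.comp (g := s) (f := fun z : F × (Fin g → ℂ) => z.1) (hs b0 hb).1.cont
        continuousAt_fst
    by_cases hc : c ∈ Lam Fl (s b0)
    · obtain ⟨m, hm⟩ := (hB c).1 hc
      obtain ⟨U, hU, hinj⟩ := psi_injOn H.lio H.reg Fl hW hs c hb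
      have hμc : ContinuousAt (fun b => ∑ i, m i • l i b) b0 :=
        tendsto_finsetSum _ fun i _ => ((hl i).self_of_nhds.1.continuousAt).const_smul (m i)
      have hμ0 : ∑ i, m i • l i b0 = c := by simp only [hl0, hm]
      have e1 : ∀ᶠ z : F × (Fin g → ℂ) in 𝓝 (b0, c), (z.2, z.1) ∈ U := by
        have : ContinuousAt (fun z : F × (Fin g → ℂ) => (z.2, z.1)) (b0, c) := by fun_prop
        exact this hU
      have e2 : ∀ᶠ z : F × (Fin g → ℂ) in 𝓝 (b0, c), (∑ i, m i • l i z.1, z.1) ∈ U := by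
        have h1 : ContinuousAt (fun z : F × (Fin g → ℂ) => (∑ i, m i • l i z.1, z.1)) (b0, c) :=
          (ContinuousAt.comp (g := fun b => ∑ i, m i • l i b)
            (f := fun z : F × (Fin g → ℂ) => z.1) hμc continuousAt_fst).prodMk continuousAt_fst
        refine h1 ?_
        simp only [hμ0]
        exact hU
      have e3 : ∀ᶠ z : F × (Fin g → ℂ) in 𝓝 (b0, c), ∑ i, m i • l i z.1 ∈ Lam Fl (s z.1) := by
        have h1 : ∀ᶠ b in 𝓝 b0, ∑ i, m i • l i b ∈ Lam Fl (s b) := hmem.mono fun b hb => hb m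
        exact (continuousAt_fst (p := (b0, c))).eventually h1
      filter_upwards [e1, e2, e3] with z h1 h2 h3 h4
      refine ⟨m, ?_⟩
      have h5 := hinj h1 h2 (by
        simp only [Psi]
        rw [mem_Lam.1 h3, mem_Lam.1 h4])
      exact (Prod.mk.inj h5).1
    · have hne : Psi Fl s (c, b0) ≠ s b0 := hc
      have h1 : Tendsto (fun z : F × (Fin g → ℂ) => (Psi Fl s (z.2, z.1), s z.1)) (𝓝 (b0, c))
          (𝓝 (Psi Fl s (c, b0), s b0)) := hPc.prodMk hsc
      have h2 := h1.eventually (isClosed_diagonal.isOpen_compl.mem_nhds hne)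
      filter_upwards [h2] with z hz hzc
      exact absurd hzc hz
  obtain ⟨δ2, hδ2, hall⟩ := Metric.eventually_nhds_iff_ball.1
    (((hlall.and hli).and (hbd.and hmem)).and hkey)
  refine ⟨R, min δ1 δ2, l, lt_min hδ1 hδ2, (ball_subset_ball (min_le_left _ _)).trans hδW,
    fun x hx => hcov x (ball_subset_ball (min_le_left _ _) hx), fun i b hb' => ?_,
    fun b hb' => ?_, fun b hb' c => ?_⟩
  · exact ((hall b (ball_subset_ball (min_le_right _ _) hb')).1.1.1 i).1.differentiableWithinAt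
  · exact (hall b (ball_subset_ball (min_le_right _ _) hb')).1.1.2
  · obtain ⟨⟨⟨h1, h2⟩, h3, h4⟩, h5⟩ := hall b (ball_subset_ball (min_le_right _ _) hb')
    constructor
    · intro hc
      obtain ⟨m, hm⟩ := exists_round (fun i => l i b) h2 (by rw [Fintype.card_fin, hfr]) c
      have h6 : c - ∑ i, m i • l i b ∈ Lam Fl (s b) := (Lam Fl (s b)).sub_mem hc (h4 m)
      obtain ⟨m', hm'⟩ := h5 _ (by
        rw [mem_closedBall, dist_zero_right]
        exact hm.trans h3) h6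
      refine ⟨m + m', ?_⟩
      rw [sub_eq_iff_eq_add] at hm'
      rw [hm', add_comm]
      simp only [Pi.add_apply, add_smul, Finset.sum_add_distrib]
    · rintro ⟨m, rfl⟩
      exact h4 m

end

end Crest.Agent.R281.Aa4_836
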