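import Crest.Agent.R281.Aa4_836

/-!
# R281 (S0424), S6-AA (helper836), file 5: **the action-angle tube** around a compact leaf of a
holomorphic completely integrable system (holomorphic Liouville-Arnold theorem).
-/

set_option autoImplicit false
set_option linter.unusedSectionVars false

open Set Metric Filter Topology Complex Function TopologicalSpace
open scoped NNReal ContDiff

namespace Crest.Agent.R281.Aa5_836

open Crest.Agent.R275.Geo Crest.Agent.R273.HFlow3_376 Crest.Agent.R273.HFlow4_376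
open Crest.Agent.R273.HFlow5_376 Crest.Agent.R273.HFlow6_376
open Crest.Agent.R281.Aa1_836 Crest.Agent.R281.Aa2_836 Crest.Agent.R281.Aa3_836
open Crest.Agent.R281.Aa4_836

noncomputable section

variable {N g : ℕ} {M : Type} [TopologicalSpace M] {A : Atl N M}
  {F : Type} [NormedAddCommGroup F] [NormedSpace ℂ F] [FiniteDimensional ℂ F]
  {V : Fin g → HVF A} {y : M → F} {b0 : F}

/-! ### regular points are open -/

theorem regAt_ev (h : Lio A V y) {x : M} (hx : RegAt V y x) : ∀ᶠ x' in 𝓝 x, RegAt V y x' := by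
  obtain ⟨i, hi, h1, h2⟩ := hx
  have hti := (A.e i).map_source hi
  have hci := (A.e i).continuousAt hi
  have hsrc : ∀ᶠ x' in 𝓝 x, x' ∈ (A.e i).source := (A.e i).open_source.mem_nhds hi
  -- the fields
  have c1 : ContinuousAt (fun x' => fun k => (V k).X i x') x := by
    refine continuousAt_pi.2 fun k => ?_
    have h3 : ContinuousAt (fun x' => (V k).loc i (A.e i x')) x :=
      ContinuousAt.comp (g := (V k).loc i) (f := A.e i)
        (((V k).hol i).differentiableAt ((A.e i).open_target.mem_nhds hti)).continuousAt hci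
    refine h3.congr ?_
    filter_upwards [hsrc] with x' hx'
    exact (V k).loc_e hx'
  have e1 : ∀ᶠ x' in 𝓝 x, LinearIndependent ℂ (fun k => (V k).X i x') :=
    c1 ((isOpen_setOfPred_linearIndependent (𝕜 := ℂ)).mem_nhds h1)
  -- the map
  set f : Cn N → F := fun z => y ((A.e i).symm z) with hf
  have hfa : AnalyticAt ℂ f (A.e i x) := by
    refine Crest.Agent.R266.SCV.analyticAt_of_eventually_differentiableAt ?_
    filter_upwards [(A.e i).open_target.mem_nhds hti] with z hz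
    exact (h.hol i).differentiableAt ((A.e i).open_target.mem_nhds hz)
  obtain ⟨R, hR⟩ := LinearMap.exists_rightInverse_of_surjective
    (fderiv ℂ f (A.e i x)).toLinearMap (LinearMap.range_eq_top.2 h2)
  set R' : F →L[ℂ] Cn N := LinearMap.toContinuousLinearMap R with hR'
  have hLR : (fderiv ℂ f (A.e i x)).comp R' = 1 := by
    refine ContinuousLinearMap.ext fun v => ?_
    have := congrArg (fun T : F →ₗ[ℂ] F => T v) hR
    simp only [LinearMap.coe_comp, comp_apply, LinearMap.id_coe, id_eq] at this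
    exact this
  have c2 : ContinuousAt (fun x' => (fderiv ℂ f (A.e i x')).comp R') x := by
    have h3 : ContinuousAt (fun x' => fderiv ℂ f (A.e i x')) x :=
      ContinuousAt.comp (g := fderiv ℂ f) (f := A.e i) hfa.fderiv.continuousAt hci
    exact h3.clm_comp continuousAt_const
  have e2 : ∀ᶠ x' in 𝓝 x, IsUnit ((fderiv ℂ f (A.e i x')).comp R') :=
    c2 ((Units.isOpen (R := F →L[ℂ] F)).mem_nhds (by
      change IsUnit ((fderiv ℂ f (A.e i x)).comp R')
      rw [hLR]; exact isUnit_one))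
  filter_upwards [hsrc, e1, e2] with x' hx1 hx2 hx3
  refine ⟨i, hx1, hx2, fun w => ?_⟩
  obtain ⟨u, hu⟩ := hx3
  refine ⟨R' (((u⁻¹ : (F →L[ℂ] F)ˣ) : F →L[ℂ] F) w), ?_⟩
  have h3 : ((fderiv ℂ f (A.e i x')).comp R').comp ((u⁻¹ : (F →L[ℂ] F)ˣ) : F →L[ℂ] F) = 1 := by
    rw [← hu]
    exact u.mul_inv
  exact congrArg (fun T : F →L[ℂ] F => T w) h3

theorem exists_dist_pos {y : M → F} (hy : Continuous y) {C : Set M} (hC : IsCompact C)
    (hne : ∀ x ∈ C, y x ≠ b0) : ∃ δ > 0, ∀ x ∈ C, δ ≤ dist (y x) b0 := by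
  rcases C.eq_empty_or_nonempty with rfl | hCn
  · exact ⟨1, one_pos, fun x hx => absurd hx (notMem_empty x)⟩
  · obtain ⟨x0, hx0, hmin⟩ := hC.exists_isMinOn hCn
      ((hy.dist continuous_const).continuousOn (s := C) (f := fun x => dist (y x) b0))
    exact ⟨_, dist_pos.2 (hne x0 hx0), fun x hx => hmin hx⟩

/-! ### from the open subset to the manifold -/

section Val

variable {U : Opens M}

theorem HolC.val {Q : Type} [NormedAddCommGroup Q] [NormedSpace ℂ Q] {f : Q → U} {q : Q}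
    (h : HolC (opA A U) f q) : HolC A (fun q => (f q).1) q := by
  obtain ⟨hc, p, hp, hd⟩ := h
  exact ⟨continuous_subtype_val.continuousAt.comp hc, p.2, opA_source.1 hp, hd⟩

theorem intAt_val {W : HVF A} {γ : ℂ → U} {t : ℂ} (h : IntAt (opV W U) γ t) :
    IntAt W (fun s => (γ s).1) t := by
  obtain ⟨hc, p, hp, hd⟩ := h
  exact ⟨continuous_subtype_val.continuousAt.comp hc, p.2, opA_source.1 hp, hd⟩

end Val

/-- **the action-angle tube** : `Nb` is an open set of `M`, saturated by compact leaves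
`{Ψ (c, b) | c}`, `b ∈ ball b0 ε`, with period lattice spanned by `l i b` -/
structure Tube (A : Atl N M) (V : Fin g → HVF A) (y : M → F) (b0 : F) (ε R : ℝ) (Nb : Set M)
    (Ψ : (Fin g → ℂ) × F → M) (l : Fin (2 * g) → F → (Fin g → ℂ)) : Prop where
  pos : 0 < ε
  isOpen : IsOpen Nb
  mem : ∀ c, ∀ b ∈ ball b0 ε, Ψ (c, b) ∈ Nb
  hol : ∀ c, ∀ b ∈ ball b0 ε, HolC A Ψ (c, b)
  inj : ∀ c, ∀ b ∈ ball b0 ε, ∀ i, Ψ (c, b) ∈ (A.e i).source →
    Injective (fderiv ℂ (fun q => A.e i (Ψ q)) (c, b))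
  nhds : ∀ c, ∀ b ∈ ball b0 ε, ∀ U ∈ 𝓝 (c, b), ∀ᶠ p in 𝓝 (Ψ (c, b)), ∃ q ∈ U, Ψ q = p
  locInj : ∀ c, ∀ b ∈ ball b0 ε, ∃ U ∈ 𝓝 (c, b), InjOn Ψ U
  y_eq : ∀ c, ∀ b ∈ ball b0 ε, y (Ψ (c, b)) = b
  int : ∀ c, ∀ b ∈ ball b0 ε, ∀ k, ∀ u : ℂ, 
    IntAt (V k) (fun w : ℂ => Ψ (c + (Pi.single k w : Fin g → ℂ), b)) u
  cov : ∀ x ∈ Nb, y x ∈ ball b0 ε ∧ ∃ c, ‖c‖ < R ∧ Ψ (c, y x) = x
  lhol : ∀ i, DifferentiableOn ℂ (l i) (ball b0 ε)
  lli : ∀ b ∈ ball b0 ε, LinearIndependent ℝ (fun i => l i b)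
  per : ∀ b ∈ ball b0 ε, ∀ c c', Ψ (c, b) = Ψ (c', b) ↔
    ∃ m : Fin (2 * g) → ℤ, c - c' = ∑ i, m i • l i b

namespace Tube

variable {ε R : ℝ} {Nb : Set M} {Ψ : (Fin g → ℂ) × F → M} {l : Fin (2 * g) → F → (Fin g → ℂ)}
  (t : Tube A V y b0 ε R Nb Ψ l)
include t

theorem contAt (c : Fin g → ℂ) {b : F} (hb : b ∈ ball b0 ε) : ContinuousAt Ψ (c, b) :=
  (t.hol c b hb).cont

theorem cont_fib {b : F} (hb : b ∈ ball b0 ε) : Continuous (fun c => Ψ (c, b)) :=
  continuous_iff_continuousAt.2 fun c =>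
    ContinuousAt.comp (f := fun c => (c, b)) (t.contAt c hb) (by fun_prop)

theorem eq_iff {c c' : Fin g → ℂ} {b b' : F} (hb : b ∈ ball b0 ε) (hb' : b' ∈ ball b0 ε) :
    Ψ (c, b) = Ψ (c', b') ↔ b = b' ∧ ∃ m : Fin (2 * g) → ℤ, c - c' = ∑ i, m i • l i b := by
  constructor
  · intro h
    have h1 : b = b' := by rw [← t.y_eq c b hb, h, t.y_eq c' b' hb']
    subst h1
    exact ⟨rfl, (t.per b hb c c').1 h⟩
  · rintro ⟨rfl, h⟩
    exact (t.per b hb c c').2 h

theorem image_eq : Ψ '' (univ ×ˢ ball b0 ε) = Nb := by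
  apply Subset.antisymm
  · rintro _ ⟨q, hq, rfl⟩
    exact t.mem q.1 q.2 hq.2
  · intro x hx
    obtain ⟨h1, c, -, h2⟩ := t.cov x hx
    exact ⟨(c, y x), ⟨mem_univ _, h1⟩, h2⟩

/-- the leaf -/
theorem leaf_eq {b : F} (hb : b ∈ ball b0 ε) :
    Nb ∩ {x | y x = b} = range (fun c => Ψ (c, b)) := by
  apply Subset.antisymm
  · rintro x ⟨hx, rfl⟩
    obtain ⟨-, c, -, h2⟩ := t.cov x hx
    exact ⟨c, h2⟩
  · rintro _ ⟨c, rfl⟩
    exact ⟨t.mem c b hb, t.y_eq c b hb⟩

theorem isConnected_leaf {b : F} (hb : b ∈ ball b0 ε) : IsConnected (Nb ∩ {x | y x = b}) := by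
  rw [t.leaf_eq hb]
  exact isConnected_range (t.cont_fib hb)

theorem isCompact_preimage {C : Set F} (hC : IsCompact C) (hCb : C ⊆ ball b0 ε) :
    IsCompact (Nb ∩ y ⁻¹' C) := by
  have h1 : Nb ∩ y ⁻¹' C = Ψ '' (closedBall 0 R ×ˢ C) := by
    apply Subset.antisymm
    · rintro x ⟨hx, hxC⟩
      obtain ⟨-, c, hc, h2⟩ := t.cov x hx
      exact ⟨(c, y x), ⟨by rw [mem_closedBall, dist_zero_right]; exact hc.le, hxC⟩, h2⟩
    · rintro _ ⟨q, ⟨-, hq⟩, rfl⟩
      refine ⟨t.mem q.1 q.2 (hCb hq), ?_⟩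
      rw [mem_preimage, t.y_eq q.1 q.2 (hCb hq)]
      exact hq
  rw [h1]
  refine ((isCompact_closedBall _ _).prod hC).image_of_continuousOn fun q hq => ?_
  exact (t.contAt q.1 (hCb hq.2)).continuousWithinAt

theorem isCompact_leaf {b : F} (hb : b ∈ ball b0 ε) : IsCompact (Nb ∩ {x | y x = b}) :=
  t.isCompact_preimage (C := {b}) isCompact_singleton (singleton_subset_iff.2 hb)

theorem isOpen_image {O : Set ((Fin g → ℂ) × F)} (hO : IsOpen O) (hOb : O ⊆ univ ×ˢ ball b0 ε) :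
    IsOpen (Ψ '' O) := by
  rw [isOpen_iff_mem_nhds]
  rintro _ ⟨q, hq, rfl⟩
  filter_upwards [t.nhds q.1 q.2 (hOb hq).2 O (hO.mem_nhds hq)] with p hp
  exact hp

/-- the leaf is the connected component of the fibre -/
theorem leaf_eq_component [T2Space M] {b : F} (hb : b ∈ ball b0 ε) {x : M}
    (hx : x ∈ Nb) (hxb : y x = b) :
    connectedComponentIn {x | y x = b} x = Nb ∩ {x | y x = b} := by
  apply Subset.antisymm
  · set S := connectedComponentIn {x | y x = b} x with hS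
    have hSy : S ⊆ {x | y x = b} := connectedComponentIn_subset _ _
    have hpre : IsPreconnected S := isPreconnected_connectedComponentIn
    have hxS : x ∈ S := mem_connectedComponentIn hxb
    have h2 : S ⊆ Nb ∪ (Nb ∩ {x | y x = b})ᶜ := by
      intro z _
      by_cases hz : z ∈ Nb
      · exact Or.inl hz
      · exact Or.inr fun h => hz h.1
    have h3 : S ∩ (Nb ∩ (Nb ∩ {x | y x = b})ᶜ) = ∅ := by
      rw [Set.eq_empty_iff_forall_notMem]
      rintro z ⟨hz, hz1, hz2⟩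
      exact hz2 ⟨hz1, hSy hz⟩
    rcases isPreconnected_iff_subset_of_disjoint.1 hpre Nb (Nb ∩ {x | y x = b})ᶜ t.isOpen
      (t.isCompact_leaf hb).isClosed.isOpen_compl h2 h3 with h4 | h4
    · exact fun z hz => ⟨h4 hz, hSy hz⟩
    · exact absurd ⟨hx, hxb⟩ (h4 hxS)
  · exact (t.isConnected_leaf hb).isPreconnected.subset_connectedComponentIn ⟨hx, hxb⟩
      inter_subset_right

end Tube

/-- **the action-angle tube** (holomorphic Liouville-Arnold) around a compact connected `T` which is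
open in its fibre and consists of regular points -/
theorem exists_tube [T2Space M] (h : Lio A V y) {x0 : M} {T : Set M} (hx0 : x0 ∈ T)
    (hT : IsCompact T) (hTc : IsPreconnected T) (hTy : ∀ x ∈ T, y x = y x0) {O : Set M}
    (hO : IsOpen O) (hTO : T ⊆ O) (hOT : ∀ x ∈ O, y x = y x0 → x ∈ T)
    (hreg : ∀ x ∈ T, RegAt V y x) :
    ∃ (ε R : ℝ) (Nb : Set M) (Ψ : (Fin g → ℂ) × F → M) (l : Fin (2 * g) → F → (Fin g → ℂ)),
      Tube A V y (y x0) ε R Nb Ψ l ∧ T ⊆ Nb ∧ Nb ⊆ O ∧ Ψ (0, y x0) = x0 := by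
  classical
  have hy := h.hol.continuous
  -- regular neighbourhood
  set O1 : Set M := O ∩ interior {x | RegAt V y x} with hO1
  have hO1o : IsOpen O1 := hO.inter isOpen_interior
  have hTO1 : T ⊆ O1 := fun x hx => ⟨hTO hx, mem_interior_iff_mem_nhds.2 (regAt_ev h (hreg x hx))⟩
  obtain ⟨K, hK, hTK, hKO, δ, hδ, hKδ⟩ := exists_tub A hy hT hO1o hTO1 (b0 := y x0)
    (fun x hx hyx => hOT x hx.1 hyx)
  set U := tub y hy (y x0) K (δ / 2) with hU
  have hUK : ∀ x ∈ U, x ∈ K := fun x hx => interior_subset (mem_tub.1 hx).1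
  have hTU : ∀ x ∈ T, x ∈ U := fun x hx =>
    mem_tub.2 ⟨hTK hx, by rw [hTy x hx, dist_self]; positivity⟩
  obtain ⟨Fl⟩ := h.exists_mflow hK (half_lt_self hδ) hKδ
  have hfib : ∀ x ∈ K, y x = y x0 → x ∈ T := fun x hx hyx => hOT _ (hKO hx).1 hyx
  have himg : Subtype.val '' {x : U | y x.1 = y x0} = T := by
    apply Subset.antisymm
    · rintro _ ⟨x, hx, rfl⟩
      exact hfib _ (hUK _ x.2) hx
    · exact fun x hx => ⟨⟨x, hTU x hx⟩, hTy x hx, rfl⟩
  have H : TubH (opA A U) (fun k => opV (V k) U) (fun x : U => y x.1) (y x0) :=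
    { lio := h.op U
      reg := fun x => RegAt.op (interior_subset (s := {x | RegAt V y x}) (hKO (hUK x.1 x.2)).2)
      cpt := by
        rw [Subtype.isCompact_iff, himg]
        exact hT
      conn := by
        refine (IsInducing.isPreconnected_image (f := (Subtype.val : U → M))
          IsInducing.subtypeVal).1 ?_
        have h1 := himg
        exact h1.symm ▸ hTc
      prop := by
        intro O' hO' hsub
        have h1 : IsCompact (K \ Subtype.val '' O') :=
          hK.diff (U.isOpen.isOpenMap_subtype_val O' hO')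
        obtain ⟨δ', hδ', h2⟩ := exists_dist_pos hy (b0 := y x0) h1 (by
          rintro x ⟨hxK, hxO⟩ hyx
          have hxT := hfib x hxK hyx
          exact hxO ⟨⟨x, hTU x hxT⟩, hsub hyx, rfl⟩)
        refine ⟨δ', hδ', fun x hx => ?_⟩
        by_contra hxO
        refine absurd (h2 x.1 ⟨hUK _ x.2, ?_⟩) (not_le.2 hx)
        rintro ⟨x', hx', he⟩
        exact hxO (by rwa [← Subtype.ext he]) }
  obtain ⟨i, hi, -, hsur⟩ := H.reg ⟨x0, hTU x0 hx0⟩
  obtain ⟨s, W, hW, hxW, hsx, hs⟩ := exists_slice H.lio.hol hi hsur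
  obtain ⟨R, ε, l, hε, hεW, hcov, hlh, hli, hper⟩ := exists_periods H Fl hW hs hxW
  have hyP : ∀ c, ∀ b ∈ ball (y x0) ε, y (Psi Fl s (c, b)).1 = b := fun c b hb => by
    have h1 := y_flow H.lio Fl c (s b)
    have h2 := (hs b (hεW hb)).2
    exact h1.trans h2
  refine ⟨ε, R, {x | x ∈ U ∧ dist (y x) (y x0) < ε}, fun q => (Psi Fl s q).1, l, ?_, ?_, ?_, ?_⟩
  · refine
      { pos := hε
        isOpen := U.isOpen.inter (isOpen_lt (hy.dist continuous_const) continuous_const)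
        mem := fun c b hb => ⟨(Psi Fl s (c, b)).2, by rw [hyP c b hb]; exact hb⟩
        hol := fun c b hb => HolC.val (psi_hol Fl (hs b (hεW hb)).1)
        inj := fun c b hb i hi => ?_
        nhds := fun c b hb U' hU' => ?_
        locInj := fun c b hb => ?_
        y_eq := hyP
        int := fun c b _ k u => intAt_val (psi_int Fl s c b k u)
        cov := fun x hx => ?_
        lhol := hlh
        lli := hli
        per := fun b hb c c' => ?_ }
    · exact psi_inj H.lio Fl hW hs (hεW hb) (H.reg _) (j := (Psi Fl s (c, b), i))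
        (opA_source.2 hi)
    · have h1 := psi_nhds H.lio H.reg Fl hW hs (hεW hb) hU'
      rw [← U.isOpen.isOpenEmbedding_subtypeVal.map_nhds_eq, eventually_map]
      filter_upwards [h1] with p hp
      obtain ⟨q, hq, -, hqp⟩ := hp
      exact ⟨q, hq, by rw [hqp]⟩
    · obtain ⟨U', hU', hinj⟩ := psi_injOn H.lio H.reg Fl hW hs c (hεW hb)
      exact ⟨U', hU', fun q hq q' hq' he => hinj hq hq' (Subtype.ext he)⟩
    · refine ⟨hx.2, ?_⟩
      obtain ⟨c, hc, hcx⟩ := hcov ⟨x, hx.1⟩ hx.2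
      exact ⟨c, hc, congrArg Subtype.val hcx⟩
    · rw [← hper b hb, ← Subtype.ext_iff]
      constructor
      · intro he
        have h1 : Fl.Φ c (s b) = Fl.Φ c' (s b) := he
        rw [sub_eq_neg_add, Fl.add, h1, Fl.neg_left]
      · intro he
        have h1 := congrArg (Fl.Φ c') he
        rw [← Fl.add, add_sub_cancel] at h1
        exact h1
  · exact fun x hx => ⟨hTU x hx, by rw [hTy x hx, dist_self]; exact hε⟩
  · exact fun x hx => (hKO (hUK _ hx.1)).1
  · change (Fl.Φ 0 (s (y x0))).1 = x0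
    have hsx' : s (y x0) = ⟨x0, hTU x0 hx0⟩ := hsx
    rw [Fl.zero, hsx']

end

end Crest.Agent.R281.Aa5_836
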