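import Crest.Agent.R273.Kah_333
import Crest.Agent.R273.StokesV_332

/-!
# R281 (S0424), HK-DIC (helper273): the statement in the atlas language

`H2 A`      : holomorphic 2-forms on `(M, A)` (antisymmetric holomorphic matrices `s i x a b =
              σ(∂_a, ∂_b)` in the chart `i`);
`HSymp A`   : holomorphic symplectic forms; `HSymp.Uniq`: every holomorphic 2-form is a multiple;
`NefW K L`  : for every `ε > 0` a metric on `L` with curvature `≥ -ε K`;
`NonFlat L` : no metric on `L` has curvature `0`;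
`qd σ G H`  : the density of `(σ σ̄)^{n-1} ∧ G ∧ H` (up to a constant depending on `n` only):
              `- tr (S⁻¹ G conj(S)⁻¹ Hᵀ) |det S|`;
`Isotropic P σ L` : `∫ (σ σ̄)^{n-1} ∧ c_1(L,h)^2 = 0` for all metrics `h`;
`SemiAmple L`;
`Main281`   : the Type-level form of S0424.
-/

set_option autoImplicit false
set_option linter.unusedSectionVars false

open Set Filter Topology Complex
open scoped ContDiff Matrix ComplexConjugate Manifold ComplexOrder

namespace Crest.Agent.R281.Defs_273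

open Crest.Agent.R275.Geo Crest.Agent.R275.Core144 Crest.Agent.R275.GC293
open Crest.Agent.R273.Defs_333 Crest.Agent.R273.Kah_333
open Crest.Agent.R273.StokesV_332 (intD)

noncomputable section

variable {n : ℕ} {M : Type} [TopologicalSpace M]

/-- holomorphic 2-forms -/
structure H2 (A : Atl n M) where
  s : A.ι → M → Matrix (Fin n) (Fin n) ℂ
  hol : ∀ i a b, HolAt A i univ (fun x => s i x a b)
  alt : ∀ i, ∀ x ∈ (A.e i).source, (s i x)ᵀ = - s i x
  tr : ∀ i j, ∀ x ∈ (A.e i).source ∩ (A.e j).source,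
    s i x = (Jm A i j x)ᵀ * s j x * Jm A i j x

/-- holomorphic symplectic forms -/
structure HSymp (A : Atl n M) extends H2 A where
  nd : ∀ i, ∀ x ∈ (A.e i).source, (s i x).det ≠ 0

variable {A : Atl n M}

/-- every holomorphic 2-form is a multiple of `σ` -/
def HSymp.Uniq (σ : HSymp A) : Prop :=
  ∀ τ : H2 A, ∃ c : ℂ, ∀ i, ∀ x ∈ (A.e i).source, τ.s i x = c • σ.s i x

/-- `L` is nef with respect to the Kaehler metric `K` -/
def NefW (K : Kah A) (L : LB A) : Prop :=
  ∀ ε : ℝ, 0 < ε → ∃ h : HM L, ∀ i, ∀ x ∈ (A.e i).source,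
    (cur h i x + (ε : ℂ) • K.g i x).PosSemidef

/-- no metric on `L` is flat -/
def NonFlat (L : LB A) : Prop :=
  ∀ h : HM L, ∃ i, ∃ x ∈ (A.e i).source, cur h i x ≠ 0

/-- the algebra of `(σ σ̄)^{n-1} ∧ G ∧ H` -/
def qm (S G H : Matrix (Fin n) (Fin n) ℂ) : ℂ :=
  - ((‖S.det‖ : ℝ) : ℂ) * (S⁻¹ * G * (S.map conj)⁻¹ * Hᵀ).trace

/-- the density of `(σ σ̄)^{n-1} ∧ G ∧ H` -/
def qd (σ : HSymp A) (G H : A.ι → M → Matrix (Fin n) (Fin n) ℂ) (i : A.ι) (x : M) : ℂ :=
  qm (σ.s i x) (G i x) (H i x)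

/-- isotropy with respect to the Beauville-Bogomolov-Fujiki form -/
def Isotropic (P : Part A) (σ : HSymp A) (L : LB A) : Prop :=
  ∀ h : HM L, intD P (qd σ (cur h) (cur h)) = 0

/-- some positive power is generated by global sections -/
def SemiAmple (L : LB A) : Prop :=
  ∃ m : ℕ, 0 < m ∧ ∀ x : M, ∃ s, IsHS (L ^ m) univ s ∧ ∃ i, x ∈ (A.e i).source ∧ s i x ≠ 0

/-- the Type-level form of S0424 -/
def Main281 : Prop :=
  ∀ (n : ℕ) (M : Type) [TopologicalSpace M] [T2Space M] [CompactSpace M] [SimplyConnectedSpace M]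
    (A : Atl (2 * n) M) [Finite A.ι], 1 ≤ n → GoodA A → ∀ (P : Part A) (K : Kah A) (σ : HSymp A),
    σ.Uniq → ∀ L : LB A, NefW K L → NonFlat L → Isotropic P σ L → SemiAmple L

end

end Crest.Agent.R281.Defs_273
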