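import Crest.Agent.R281.HkP1_508
import Crest.Agent.R273.HolF_578
import Crest.Agent.R281.Defs_273

/-!
# R281 (S0424), leaf HK-PAR (helper508), part 2: holomorphic 2-forms on a compact Ricci flat manifold

(`Defs_273.H2 A`, `Defs_273.HSymp A` are the carriers of holomorphic 2-forms)
* `RicFlat K`  : `Ric = 0`
* `par_h2`    : **Bochner**: holomorphic 2-forms are parallel
* `closed_of_par` : parallel 2-forms are closed
-/

set_option autoImplicit false
set_option linter.unusedSectionVars false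

open Set Filter Topology Complex MeasureTheory
open scoped ContDiff Matrix ComplexConjugate ComplexOrder

namespace Crest.Agent.R281.HkP2_508

open Crest.Agent.R275.Geo Crest.Agent.R275.Core144 Crest.Agent.R275.EDR890
open Crest.Agent.R275.GC293
open Crest.Agent.R273 Crest.Agent.R273.Hess_333 Crest.Agent.R273.HessB_333
open Crest.Agent.R273.Defs_333 Crest.Agent.R273.HM_333 Crest.Agent.R273.Kah_333
open Crest.Agent.R273.Vol_333 Crest.Agent.R273.Vm_333
open Crest.Agent.R273.GreenM_5 (ci mem_ci Tn trK lapK lapK_eq lapK_ofReal sm_lapK integral_lapK)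
open Crest.Agent.R273.NoHVF_376
open Crest.Agent.R281.HkP1_508
open Crest.Agent.R281.Defs_273 (H2 HSymp)

noncomputable section

variable {n : ℕ} {M : Type} [TopologicalSpace M]

variable {A : Atl n M}

/-- the matrix of the form in a chart -/
def sl (σ : H2 A) (i : A.ι) (z : Cn n) : Matrix (Fin n) (Fin n) ℂ := σ.s i ((A.e i).symm z)

theorem sl_hol (σ : H2 A) (i : A.ι) : HolM (sl σ i) (A.e i).target := by
  intro a b z hz
  have h := (σ.hol i a b).diffAt isOpen_univ ((A.e i).map_target hz) (mem_univ _)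
  rw [(A.e i).right_inv hz] at h
  exact h.differentiableWithinAt

/-- `Ric = 0` -/
def RicFlat (K : Kah A) : Prop := ∀ i, ∀ x ∈ (A.e i).source, cur (volK K) i x = 0

/-- the form is parallel -/
def Par2 (K : Kah A) (σ : H2 A) : Prop :=
  ∀ i, ∀ z ∈ (A.e i).target, ∀ c, Dm (gl K i) (sl σ i) z c = 0

/-- nondegenerate -/
def ND (σ : H2 A) : Prop := ∀ i, ∀ x ∈ (A.e i).source, (σ.s i x).det ≠ 0

/-- `h^{2,0} = 1` (spanned by `σ`) -/
def Span1 (σ : H2 A) : Prop :=
  ∀ τ : H2 A, ∃ c : ℂ, ∀ i, ∀ x ∈ (A.e i).source, τ.s i x = c • σ.s i x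

/-! ### change of chart -/

theorem Jm_inv {i j : A.ι} {x : M} (hi : x ∈ (A.e i).source) (hj : x ∈ (A.e j).source) :
    Jm A j i x * Jm A i j x = 1 := by
  rw [J_mul i j i ⟨⟨hi, hj⟩, hi⟩, J_self i hi]

theorem Jm_inv' {i j : A.ι} {x : M} (hi : x ∈ (A.e i).source) (hj : x ∈ (A.e j).source) :
    (Jm A i j x)⁻¹ = Jm A j i x := Matrix.inv_eq_left_inv (Jm_inv hi hj)

theorem map_conj_mul {p q : Matrix (Fin n) (Fin n) ℂ} :
    (p * q).map conj = p.map conj * q.map conj := by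
  rw [← RingHom.mapMatrix_apply, map_mul]
  rfl

theorem map_conj_one : (1 : Matrix (Fin n) (Fin n) ℂ).map conj = 1 := by
  rw [← RingHom.mapMatrix_apply, map_one]

/-- `g_i⁻¹ = J̄' g_j⁻¹ J'ᵀ`, `J' = J_{ji}` -/
theorem ginv_tr (K : Kah A) {i j : A.ι} {x : M} (hi : x ∈ (A.e i).source)
    (hj : x ∈ (A.e j).source) :
    (K.g i x)⁻¹ = (Jm A j i x).map conj * (K.g j x)⁻¹ * (Jm A j i x)ᵀ := by
  apply Matrix.inv_eq_left_inv
  have h1 := Jm_inv hi hj
  have h2 := Jm_inv hj hi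
  have h3 : (K.g j x)⁻¹ * K.g j x = 1 :=
    Matrix.nonsing_inv_mul _ (isUnit_iff_ne_zero.2 (K.pos j x hj).det_pos.ne')
  have h4 : (Jm A j i x)ᵀ * (Jm A i j x)ᵀ = 1 := by
    rw [← Matrix.transpose_mul, h2, Matrix.transpose_one]
  have h5 : (Jm A j i x).map conj * (Jm A i j x).map conj = 1 := by
    rw [← map_conj_mul, h1, map_conj_one]
  rw [K.tr i j x ⟨hi, hj⟩]
  calc (Jm A j i x).map conj * (K.g j x)⁻¹ * (Jm A j i x)ᵀ *
        ((Jm A i j x)ᵀ * K.g j x * (Jm A i j x).map conj)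
      = (Jm A j i x).map conj * ((K.g j x)⁻¹ * (((Jm A j i x)ᵀ * (Jm A i j x)ᵀ) * K.g j x)) *
          (Jm A i j x).map conj := by simp only [Matrix.mul_assoc]
    _ = 1 := by rw [h4, Matrix.one_mul, h3, Matrix.mul_one, h5]

/-- `W = g⁻¹ s g⁻ᵀ` on `M` -/
def WM (K : Kah A) (σ : H2 A) (i : A.ι) (x : M) : Matrix (Fin n) (Fin n) ℂ :=
  (K.g i x)⁻¹ * (σ.s i x * ((K.g i x)⁻¹)ᵀ)

theorem WM_tr (K : Kah A) (σ : H2 A) {i j : A.ι} {x : M} (hi : x ∈ (A.e i).source)
    (hj : x ∈ (A.e j).source) :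
    WM K σ i x = (Jm A j i x).map conj * WM K σ j x * ((Jm A j i x).map conj)ᵀ := by
  have h2 := Jm_inv hj hi
  have h4 : (Jm A j i x)ᵀ * (Jm A i j x)ᵀ = 1 := by
    rw [← Matrix.transpose_mul, h2, Matrix.transpose_one]
  rw [WM, WM, ginv_tr K hi hj, σ.tr i j x ⟨hi, hj⟩]
  rw [Matrix.transpose_mul, Matrix.transpose_mul, Matrix.transpose_transpose]
  calc (Jm A j i x).map conj * (K.g j x)⁻¹ * (Jm A j i x)ᵀ *
        ((Jm A i j x)ᵀ * σ.s j x * Jm A i j x *
          (Jm A j i x * (((K.g j x)⁻¹)ᵀ * ((Jm A j i x).map conj)ᵀ)))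
      = (Jm A j i x).map conj * ((K.g j x)⁻¹ * ((((Jm A j i x)ᵀ * (Jm A i j x)ᵀ) * σ.s j x) *
          ((Jm A i j x * Jm A j i x) * ((K.g j x)⁻¹)ᵀ))) * ((Jm A j i x).map conj)ᵀ := by
        simp only [Matrix.mul_assoc]
    _ = _ := by rw [h4, h2, Matrix.one_mul, Matrix.one_mul]

/-- `|σ|²` -/
def nr2M (K : Kah A) (σ : H2 A) (x : M) : ℝ :=
  ((σ.s (ci A x) x)ᴴ * WM K σ (ci A x) x).trace.re

theorem nr2M_tr (K : Kah A) (σ : H2 A) {i j : A.ι} {x : M} (hi : x ∈ (A.e i).source)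
    (hj : x ∈ (A.e j).source) :
    ((σ.s i x)ᴴ * WM K σ i x).trace = ((σ.s j x)ᴴ * WM K σ j x).trace := by
  have h1 := Jm_inv hj hi
  have e1 : ((Jm A i j x)ᵀ)ᴴ = (Jm A i j x).map conj := rfl
  have h5 : (Jm A i j x).map conj * (Jm A j i x).map conj = 1 := by
    rw [← map_conj_mul, h1, map_conj_one]
  have h6 : ((Jm A j i x).map conj)ᵀ * (Jm A i j x)ᴴ = 1 := by
    have : (Jm A i j x)ᴴ = ((Jm A i j x).map conj)ᵀ := rfl
    rw [this, ← Matrix.transpose_mul, h5, Matrix.transpose_one]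
  rw [WM_tr K σ hi hj, σ.tr i j x ⟨hi, hj⟩, Matrix.conjTranspose_mul, Matrix.conjTranspose_mul, e1]
  calc ((Jm A i j x)ᴴ * ((σ.s j x)ᴴ * (Jm A i j x).map conj) *
        ((Jm A j i x).map conj * WM K σ j x * ((Jm A j i x).map conj)ᵀ)).trace
      = ((Jm A i j x)ᴴ * ((σ.s j x)ᴴ * (((Jm A i j x).map conj *
        (Jm A j i x).map conj) * WM K σ j x) * ((Jm A j i x).map conj)ᵀ)).trace := by
        simp only [Matrix.mul_assoc]
    _ = ((σ.s j x)ᴴ * WM K σ j x * (((Jm A j i x).map conj)ᵀ * (Jm A i j x)ᴴ)).trace := by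
        rw [h5, Matrix.one_mul, Matrix.trace_mul_comm]
        simp only [Matrix.mul_assoc]
    _ = _ := by rw [h6, Matrix.mul_one]

theorem nr2M_read (K : Kah A) (σ : H2 A) (i : A.ι) {z : Cn n} (hz : z ∈ (A.e i).target) :
    nr2M K σ ((A.e i).symm z) = nr2 (gl K i) (sl σ i) z := by
  have hx := (A.e i).map_target hz
  unfold nr2M
  rw [nr2M_tr K σ (mem_ci _) hx]
  rfl

theorem sm_nr2M (K : Kah A) (σ : H2 A) : A.Sm (nr2M K σ) := by
  intro i
  have h1 : ContDiffOn ℝ ∞ (nr2 (gl K i) (sl σ i)) (A.e i).target := fun z hz =>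
    (nr2_smAt (gm K i) (sl_hol σ i) hz).contDiffWithinAt
  exact h1.congr fun z hz => nr2M_read K σ i hz

theorem ric_read {K : Kah A} (hK : RicFlat K) (i : A.ι) {z : Cn n} (hz : z ∈ (A.e i).target) :
    hess (fun w => - Real.log (gl K i w).det.re) z = 0 := by
  have e3 : hess (fun w => - Real.log (gl K i w).det.re) z = cur (volK K) i ((A.e i).symm z) := by
    rw [cur_read _ i hz]
    rfl
  rw [e3, hK i _ ((A.e i).map_target hz)]

theorem lapK_nr2M {K : Kah A} (hK : RicFlat K) (σ : H2 A) (i : A.ι) {z : Cn n}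
    (hz : z ∈ (A.e i).target) :
    lapK K (nr2M K σ) ((A.e i).symm z) =
      (∑ b, ∑ a, (gl K i z)⁻¹ b a * ((Dm (gl K i) (sl σ i) z b)ᴴ *
        ((gl K i z)⁻¹ * Dm (gl K i) (sl σ i) z a * ((gl K i z)⁻¹)ᵀ)).trace).re := by
  have hx := (A.e i).map_target hz
  rw [lapK_eq K (sm_nr2M K σ) hx, hsf_read _ i hz]
  have e1 : (fun w => nr2M K σ ((A.e i).symm w)) =ᶠ[𝓝 z] nr2 (gl K i) (sl σ i) := by
    filter_upwards [(A.e i).open_target.mem_nhds hz] with w hw
    exact nr2M_read K σ i hw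
  rw [hess_congr e1]
  have e2 := trace_hess_nr2 (gm K i) (sl_hol σ i) hz (ric_read hK i hz)
  change ((gl K i z)⁻¹ * _).trace.re = _
  rw [e2]

/-- **Bochner**: on a compact Ricci flat Kaehler manifold holomorphic 2-forms are parallel -/
theorem par_h2 [T2Space M] [CompactSpace M] [Finite A.ι] (P : Part A) {K : Kah A}
    (hK : RicFlat K) (σ : H2 A) : Par2 K σ := by
  borelize M
  have hG : ∀ i, ∀ z ∈ (A.e i).target, ((gl K i z)⁻¹).PosDef := fun i z hz =>
    ((gm K i).pos z hz).inv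
  have hlap : ∀ i, ∀ z ∈ (A.e i).target, 0 ≤ lapK K (nr2M K σ) ((A.e i).symm z) := by
    intro i z hz
    rw [lapK_nr2M hK σ i hz]
    exact (Complex.le_def.1 (sq_nonneg2 (hG i z hz) _)).1
  have hnn : ∀ x, 0 ≤ lapK K (nr2M K σ) x := by
    intro x
    obtain ⟨i, hi⟩ := A.cover x
    have := hlap i _ ((A.e i).map_source hi)
    rwa [(A.e i).left_inv hi] at this
  have hsm := sm_lapK K (sm_nr2M K σ)
  have hcont : Continuous (lapK K (nr2M K σ)) := sm_continuous hsm
  have hint : ∫ x, lapK K (nr2M K σ) x ∂(vm (volK K)) = 0 := integral_lapK K P (sm_nr2M K σ)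
  have hi := GreenM_5.integrable_sm (volK K) hsm
  have h0 : lapK K (nr2M K σ) =ᵐ[vm (volK K)] 0 :=
    (integral_eq_zero_iff_of_nonneg hnn hi).1 hint
  have := isOpenPos_vm (volK K)
  have h1 : lapK K (nr2M K σ) = fun _ => 0 :=
    (Continuous.ae_eq_iff_eq (vm (volK K)) hcont continuous_const).1 h0
  intro i z hz c
  have h2 := lapK_nr2M hK σ i hz
  rw [congrFun h1 _] at h2
  exact sq_eq_zero2 (hG i z hz) h2.symm c

/-! ### closedness -/

/-- parallel 2-forms are closed -/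
theorem closed_of_par {K : Kah A} {σ : H2 A} (h : Par2 K σ) (i : A.ι) {z : Cn n}
    (hz : z ∈ (A.e i).target) (a b c : Fin n) :
    wd (false, c) (fun w => sl σ i w a b) z + wd (false, a) (fun w => sl σ i w b c) z +
      wd (false, b) (fun w => sl σ i w c a) z = 0 := by
  set G := (gl K i z)⁻¹ with hG
  have key : ∀ a b c, wd (false, c) (fun w => sl σ i w a b) z =
      ∑ e, (∑ d, wd (false, c) (fun w => gl K i w a d) z * G d e) * sl σ i z e b +
        ∑ e, sl σ i z a e * ∑ d, G d e * wd (false, c) (fun w => gl K i w b d) z := by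
    intro a b c
    have h1 := congrFun (congrFun (h i z hz c) a) b
    rw [Dm, Matrix.sub_apply, Matrix.sub_apply, Matrix.zero_apply] at h1
    have e0 : dm (false, c) (sl σ i) z a b = wd (false, c) (fun w => sl σ i w a b) z := rfl
    rw [e0] at h1
    have e1 : (dm (false, c) (gl K i) z * (gl K i z)⁻¹ * sl σ i z) a b =
        ∑ e, (∑ d, wd (false, c) (fun w => gl K i w a d) z * G d e) * sl σ i z e b := by
      rw [Matrix.mul_apply]
      refine Finset.sum_congr rfl fun e _ => ?_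
      rw [Matrix.mul_apply]
      rfl
    have e2 : (sl σ i z * ((gl K i z)⁻¹)ᵀ * (dm (false, c) (gl K i) z)ᵀ) a b =
        ∑ e, sl σ i z a e * ∑ d, G d e * wd (false, c) (fun w => gl K i w b d) z := by
      rw [Matrix.mul_assoc, Matrix.mul_apply]
      refine Finset.sum_congr rfl fun e _ => ?_
      rw [Matrix.mul_apply]
      rfl
    rw [e1, e2] at h1
    linear_combination h1
  have hsk : ∀ a b, sl σ i z a b = - sl σ i z b a := by
    intro a b
    have := congrFun (congrFun (σ.alt i _ ((A.e i).map_target hz)) b) a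
    exact this
  have hcl : ∀ a b c, wd (false, c) (fun w => gl K i w a b) z =
      wd (false, a) (fun w => gl K i w c b) z := K.closed i z hz
  set Γ : Fin n → Fin n → Fin n → ℂ := fun c a e =>
    ∑ d, wd (false, c) (fun w => gl K i w a d) z * G d e with hΓ
  have hΓs : ∀ c a e, Γ c a e = Γ a c e := by
    intro c a e
    rw [hΓ]
    refine Finset.sum_congr rfl fun d _ => ?_
    rw [hcl a d c]
  have key2 : ∀ a b c, wd (false, c) (fun w => sl σ i w a b) z =
      ∑ e, (Γ c a e * sl σ i z e b - Γ c b e * sl σ i z e a) := by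
    intro a b c
    rw [key, Finset.sum_sub_distrib, sub_eq_add_neg, ← Finset.sum_neg_distrib]
    congr 1
    refine Finset.sum_congr rfl fun e _ => ?_
    rw [hsk a e, hΓ]
    have : ∑ d, G d e * wd (false, c) (fun w => gl K i w b d) z =
        ∑ d, wd (false, c) (fun w => gl K i w b d) z * G d e :=
      Finset.sum_congr rfl fun d _ => mul_comm _ _
    rw [this]
    ring
  rw [key2, key2, key2, ← Finset.sum_add_distrib, ← Finset.sum_add_distrib]
  refine Finset.sum_eq_zero fun e _ => ?_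
  rw [hΓs c a e, hΓs b c e, hΓs b a e]
  ring

/-! ### `σ*σ = const` -/

theorem skew_WM (K : Kah A) (σ : H2 A) {i : A.ι} {x : M} (hi : x ∈ (A.e i).source) :
    (WM K σ i x)ᵀ = - WM K σ i x := by
  rw [WM, Matrix.transpose_mul, Matrix.transpose_mul, Matrix.transpose_transpose, σ.alt i x hi,
    Matrix.mul_neg, Matrix.neg_mul, Matrix.mul_assoc]

theorem conj_WM_hol {K : Kah A} {σ : H2 A} (h : Par2 K σ) (i : A.ι) (a b : Fin n) :
    HolAt A i univ (fun x => conj (WM K σ i x a b)) := by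
  rintro z ⟨hz, -⟩
  have hg := gm K i
  have hs := sl_hol σ i
  have e : (fun w => conj (WM K σ i ((A.e i).symm w) a b)) =
      fun w => conj (Wm (gl K i) (sl σ i) w a b) := rfl
  rw [e]
  refine DifferentiableAt.differentiableWithinAt ?_
  have hd := Wm_diff hg hs hz a b
  refine Crest.Agent.R275.GeoHol912.differentiableAt_of_dbj
    ((conjCLE : ℂ →L[ℝ] ℂ).differentiableAt.comp z hd) fun c => ?_
  have h2 := conj_wd (false, c) hd
  have h3 : wd (false, c) (fun w => Wm (gl K i) (sl σ i) w a b) z = 0 := by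
    have h4 := congrFun (congrFun (dm_Wm hg hs hz c) a) b
    rw [h i z hz c, Matrix.mul_zero, Matrix.zero_mul, Matrix.zero_apply] at h4
    exact h4
  rw [h3, map_zero] at h2
  rw [← wd_true]
  exact h2.symm

/-- the 2-form `s W̄ s` -/
def sWs {K : Kah A} {σ : H2 A} (h : Par2 K σ) : H2 A where
  s i x := σ.s i x * (WM K σ i x).map conj * σ.s i x
  hol i a b := by
    have e : (fun x => (σ.s i x * (WM K σ i x).map conj * σ.s i x) a b) =
        fun x => ∑ d, (∑ c, σ.s i x a c * conj (WM K σ i x c d)) * σ.s i x d b := by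
      funext x
      rw [Matrix.mul_apply]
      refine Finset.sum_congr rfl fun d _ => ?_
      rw [Matrix.mul_apply]
      rfl
    rw [e]
    exact HolAt.sum _ fun d _ => (HolAt.sum _ fun c _ => (σ.hol i a c).mul
      (conj_WM_hol h i c d)).mul (σ.hol i d b)
  alt i x hx := by
    have e : ((WM K σ i x).map conj)ᵀ = - (WM K σ i x).map conj := by
      have h1 : ((WM K σ i x).map conj)ᵀ = ((WM K σ i x)ᵀ).map conj := rfl
      rw [h1, skew_WM K σ hx]
      ext a b
      simp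
    rw [Matrix.transpose_mul, Matrix.transpose_mul, e, σ.alt i x hx]
    simp only [Matrix.neg_mul, Matrix.mul_neg, neg_neg, Matrix.mul_assoc]
  tr i j x hx := by
    have h1 := Jm_inv hx.2 hx.1
    have h5 : (Jm A j i x)ᵀ * (Jm A i j x)ᵀ = 1 := by
      rw [← Matrix.transpose_mul, h1, Matrix.transpose_one]
    have e : (WM K σ i x).map conj =
        Jm A j i x * (WM K σ j x).map conj * (Jm A j i x)ᵀ := by
      rw [WM_tr K σ hx.1 hx.2, map_conj_mul, map_conj_mul]
      congr 2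
      · ext a b; simp
      · ext a b; simp
    rw [e, σ.tr i j x hx]
    calc (Jm A i j x)ᵀ * σ.s j x * Jm A i j x *
          (Jm A j i x * (WM K σ j x).map conj * (Jm A j i x)ᵀ) *
          ((Jm A i j x)ᵀ * σ.s j x * Jm A i j x)
        = (Jm A i j x)ᵀ * (σ.s j x * ((Jm A i j x * Jm A j i x) * (WM K σ j x).map conj) *
          (((Jm A j i x)ᵀ * (Jm A i j x)ᵀ) * σ.s j x)) * Jm A i j x := by
          simp only [Matrix.mul_assoc]
      _ = _ := by rw [h1, h5, Matrix.one_mul, Matrix.one_mul]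

/-- **all singular values of `σ` are equal**: `s (gᵀ)⁻¹ s* = λ g`, `λ > 0` constant -/
theorem exists_lam {K : Kah A} {σ : H2 A} (h : Par2 K σ) (hnd : ND σ) (h1 : Span1 σ) :
    ∃ lam : ℝ, 0 < lam ∧ ∀ i, ∀ x ∈ (A.e i).source,
      σ.s i x * ((K.g i x)ᵀ)⁻¹ * (σ.s i x)ᴴ = (lam : ℂ) • K.g i x := by
  obtain ⟨c, hc⟩ := h1 (sWs h)
  have key : ∀ i, ∀ x ∈ (A.e i).source,
      σ.s i x * ((K.g i x)ᵀ)⁻¹ * (σ.s i x)ᴴ = (- conj c) • K.g i x := by
    intro i x hx
    have hs : IsUnit (σ.s i x).det := isUnit_iff_ne_zero.2 (hnd i x hx)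
    have hg : IsUnit (K.g i x).det := isUnit_iff_ne_zero.2 (K.pos i x hx).det_pos.ne'
    have e1 : σ.s i x * (WM K σ i x).map conj * σ.s i x = c • σ.s i x := hc i x hx
    have e2 : σ.s i x * (WM K σ i x).map conj = c • (1 : Matrix (Fin n) (Fin n) ℂ) := by
      have := congrArg (fun m => m * (σ.s i x)⁻¹) e1
      simp only [Matrix.smul_mul] at this
      rwa [Matrix.mul_nonsing_inv_cancel_right _ _ hs, Matrix.mul_nonsing_inv _ hs] at this
    have e3 : (WM K σ i x).map conj * σ.s i x = c • (1 : Matrix (Fin n) (Fin n) ℂ) := by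
      have := congrArg (fun m => (σ.s i x)⁻¹ * m) e1
      simp only [Matrix.mul_smul] at this
      rwa [Matrix.mul_assoc, Matrix.nonsing_inv_mul_cancel_left _ _ hs,
        Matrix.nonsing_inv_mul _ hs] at this
    have e4 : WM K σ i x * (σ.s i x).map conj = conj c • (1 : Matrix (Fin n) (Fin n) ℂ) := by
      have h2 := congrArg (fun m : Matrix (Fin n) (Fin n) ℂ => m.map conj) e3
      simp only [map_conj_mul] at h2
      have h3 : ((WM K σ i x).map conj).map conj = WM K σ i x := by ext a b; simp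
      rw [h3] at h2
      rw [h2]
      ext a b
      simp only [Matrix.map_apply, Matrix.smul_apply, smul_eq_mul, map_mul, Matrix.one_apply]
      split_ifs <;> simp
    have e5 : (σ.s i x)ᴴ = - (σ.s i x).map conj := by
      have : (σ.s i x)ᴴ = ((σ.s i x)ᵀ).map conj := rfl
      rw [this, σ.alt i x hx]
      ext a b
      simp
    have e6 : ((K.g i x)ᵀ)⁻¹ = ((K.g i x)⁻¹)ᵀ := (Matrix.transpose_nonsing_inv _).symm
    have e7 : σ.s i x * ((K.g i x)⁻¹)ᵀ = K.g i x * WM K σ i x := by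
      rw [WM, Matrix.mul_nonsing_inv_cancel_left _ _ hg]
    rw [e5, e6, e7, Matrix.mul_neg, Matrix.mul_assoc, e4, Matrix.mul_smul, Matrix.mul_one,
      neg_smul]
  rcases isEmpty_or_nonempty M with hM | ⟨⟨x0⟩⟩
  · exact ⟨1, one_pos, fun i x _ => (hM.false x).elim⟩
  rcases Nat.eq_zero_or_pos n with hn | hn
  · subst hn
    exact ⟨1, one_pos, fun i x _ => by ext a; exact a.elim0⟩
  obtain ⟨i0, hi0⟩ := A.cover x0
  have hp : (σ.s i0 x0 * ((K.g i0 x0)ᵀ)⁻¹ * (σ.s i0 x0)ᴴ).PosDef := by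
    have h2 : (((K.g i0 x0)ᵀ)⁻¹).PosDef := (K.pos i0 x0 hi0).transpose.inv
    have h3 : IsUnit (σ.s i0 x0) := (Matrix.isUnit_iff_isUnit_det _).2
      (isUnit_iff_ne_zero.2 (hnd i0 x0 hi0))
    exact (Matrix.IsUnit.posDef_star_right_conjugate_iff h3).2 h2
  rw [key i0 x0 hi0] at hp
  let a0 : Fin n := ⟨0, hn⟩
  have d1 : (0 : ℂ) < ((- conj c) • K.g i0 x0) a0 a0 := hp.diag_pos
  have d2 : (0 : ℂ) < (K.g i0 x0) a0 a0 := (K.pos i0 x0 hi0).diag_pos
  rw [Matrix.smul_apply, smul_eq_mul] at d1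
  have d3 : 0 < - conj c := by
    have h4 : - conj c = ((- conj c) * (K.g i0 x0) a0 a0) * ((K.g i0 x0) a0 a0)⁻¹ := by
      field_simp [d2.ne']
    rw [h4]
    exact mul_pos d1 (inv_pos.2 d2)
  have d4 := Complex.le_def.1 d3.le
  have d5 := Complex.lt_def.1 d3
  refine ⟨(- conj c).re, d5.1, fun i x hx => ?_⟩
  rw [key i x hx]
  congr 1
  apply Complex.ext
  · simp
  · rw [← d5.2]
    simp

/-- the same for a holomorphic symplectic form (`Defs_273`) on a compact Ricci flat manifold -/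
theorem exists_lam_hsymp [T2Space M] [CompactSpace M] [Finite A.ι] (P : Part A) {K : Kah A}
    (hK : RicFlat K) (σ : HSymp A) (hu : σ.Uniq) :
    ∃ lam : ℝ, 0 < lam ∧ ∀ i, ∀ x ∈ (A.e i).source,
      σ.s i x * ((K.g i x)ᵀ)⁻¹ * (σ.s i x)ᴴ = (lam : ℂ) • K.g i x :=
  exists_lam (par_h2 P hK σ.toH2) σ.nd hu

/-- the other form: `s* g⁻¹ s = λ gᵀ` -/
theorem lam_iff {g s : Matrix (Fin n) (Fin n) ℂ} (hs : sᵀ = - s) {lam : ℂ} :
    s * (gᵀ)⁻¹ * sᴴ = lam • g ↔ sᴴ * g⁻¹ * s = lam • gᵀ := by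
  have e0 : (sᴴ)ᵀ = - sᴴ := by
    have h1 : (sᴴ)ᵀ = (sᵀ)ᴴ := rfl
    rw [h1, hs, Matrix.conjTranspose_neg]
  have e1 : (s * (gᵀ)⁻¹ * sᴴ)ᵀ = sᴴ * g⁻¹ * s := by
    rw [Matrix.transpose_mul, Matrix.transpose_mul, Matrix.transpose_nonsing_inv,
      Matrix.transpose_transpose, hs, e0, Matrix.mul_neg, Matrix.neg_mul, Matrix.mul_neg, neg_neg,
      Matrix.mul_assoc]
  constructor
  · intro h
    rw [← e1, h, Matrix.transpose_smul]
  · intro h
    have h2 := congrArg Matrix.transpose h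
    rwa [← e1, Matrix.transpose_transpose, Matrix.transpose_smul,
      Matrix.transpose_transpose] at h2

/-! ### volume forms and Ricci flatness -/

theorem det_holAt (σ : H2 A) (i : A.ι) : HolAt A i univ fun x => (σ.s i x).det := by
  simp only [Matrix.det_apply]
  exact HolAt.sum _ fun τ _ => by
    have := (HolAt.prod (A := A) (i := i) (U := univ) Finset.univ
      (F := fun a x => σ.s i x (τ a) a) fun a _ => σ.hol i _ a).const_mul
        ((Equiv.Perm.sign τ : ℤ) : ℂ)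
    refine this.congr fun x _ _ => ?_
    rw [Units.smul_def, zsmul_eq_mul]

theorem det_hol (σ : H2 A) (i : A.ι) {z : Cn n} (hz : z ∈ (A.e i).target) :
    DifferentiableAt ℂ (fun w => (sl σ i w).det) z := by
  have h := (det_holAt σ i).diffAt isOpen_univ ((A.e i).map_target hz) (mem_univ _)
  rwa [(A.e i).right_inv hz] at h

/-- `|det s|` as a metric on `K_M⁻¹` -/
def volS (σ : HSymp A) : HM (KB A)⁻¹ where
  w i x := ‖(σ.s i x).det‖
  pos i x hx := norm_pos_iff.2 (σ.nd i x hx)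
  sm i := by
    have h2 := (det_holAt σ.toH2 i).contDiffOn isOpen_univ
    intro z hz
    have h3 : ContDiffWithinAt ℝ ∞ (fun z => (σ.s i ((A.e i).symm z)).det) (A.e i).target z := by
      have := h2 z ⟨hz, mem_univ _⟩
      rwa [preimage_univ, inter_univ] at this
    exact h3.norm ℝ (σ.nd i _ ((A.e i).map_target hz))
  tr i j x hx := by
    have h4 : (Jm A i j x).det ≠ 0 := by
      rw [← KB_g hx]; exact (KB A).ne_zero i j x
    have h5 : 0 < ‖(Jm A i j x).det‖ := norm_pos_iff.2 h4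
    rw [σ.tr i j x hx, LB.inv_g, KB_g hx, Matrix.det_mul, Matrix.det_mul, Matrix.det_transpose,
      norm_mul, norm_mul, norm_inv]
    field_simp

/-- if `det g = c |det s|` then the metric is Ricci flat -/
theorem ricFlat_of_det {K : Kah A} (σ : HSymp A) {c : ℝ} (hc : 0 < c)
    (h : ∀ i, ∀ x ∈ (A.e i).source, (K.g i x).det.re = c * ‖(σ.s i x).det‖) : RicFlat K := by
  intro i x hx
  have hz := (A.e i).map_source hx
  have hz' := (A.e i).left_inv hx
  rw [← hz', cur_read _ i hz]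
  have e1 : (volK K).wt i =ᶠ[𝓝 (A.e i x)] fun w =>
      (-(1/2) : ℝ) * Real.log (‖(c : ℂ) * (sl σ.toH2 i w).det‖ ^ 2) := by
    filter_upwards [(A.e i).open_target.mem_nhds hz] with w hw
    have h1 := h i _ ((A.e i).map_target hw)
    change - Real.log ((K.g i ((A.e i).symm w)).det.re) = _
    rw [h1, Real.log_pow, norm_mul, Complex.norm_real, Real.norm_of_nonneg hc.le]
    change _ = (-(1/2) : ℝ) * (((2 : ℕ) : ℝ) * Real.log (c * ‖(σ.s i ((A.e i).symm w)).det‖))
    push_cast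
    ring
  have hd : ∀ᶠ w in 𝓝 (A.e i x), DifferentiableAt ℂ (fun w => (c : ℂ) * (sl σ.toH2 i w).det) w := by
    filter_upwards [(A.e i).open_target.mem_nhds hz] with w hw
    exact (det_hol σ.toH2 i hw).const_mul _
  have h0 : (c : ℂ) * (sl σ.toH2 i (A.e i x)).det ≠ 0 :=
    mul_ne_zero (by exact_mod_cast hc.ne') (σ.nd i _ ((A.e i).map_target hz))
  have h3 := hess_log_norm hd h0
  have hsm : ContDiffAt ℝ ∞ (fun w => Real.log (‖(c : ℂ) * (sl σ.toH2 i w).det‖ ^ 2)) (A.e i x) := by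
    have h4 := ((volS σ).sm i).contDiffAt ((A.e i).open_target.mem_nhds hz)
    have h5 : ContDiffAt ℝ ∞ (fun w => ‖(c : ℂ) * (sl σ.toH2 i w).det‖ ^ 2) (A.e i x) := by
      have : (fun w => ‖(c : ℂ) * (sl σ.toH2 i w).det‖ ^ 2) =
          fun w => (c * (volS σ).w i ((A.e i).symm w)) ^ 2 := by
        funext w
        rw [norm_mul, Complex.norm_real, Real.norm_of_nonneg hc.le]
        rfl
      rw [this]
      exact (contDiffAt_const.mul h4).pow 2
    exact h5.log (by positivity)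
  rw [hess_congr e1, hess_const_mul _ hsm, h3, smul_zero]

/-- `|det s|² = λⁿ (det g)²` -/
theorem det_of_lam {g s : Matrix (Fin n) (Fin n) ℂ} (hg : g.det ≠ 0) {lam : ℝ}
    (h : s * (gᵀ)⁻¹ * sᴴ = (lam : ℂ) • g) :
    ((‖s.det‖ ^ 2 : ℝ) : ℂ) = (lam : ℂ) ^ n * g.det ^ 2 := by
  have h1 := congrArg Matrix.det h
  rw [Matrix.det_mul, Matrix.det_mul, Matrix.det_smul, Matrix.det_conjTranspose,
    Matrix.det_nonsing_inv, Matrix.det_transpose, Ring.inverse_eq_inv', Fintype.card_fin] at h1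
  have h2 : ((‖s.det‖ ^ 2 : ℝ) : ℂ) = s.det * star s.det := by
    rw [RCLike.star_def, Complex.mul_conj, Complex.normSq_eq_norm_sq]
  rw [h2]
  field_simp at h1
  linear_combination h1

end

end Crest.Agent.R281.HkP2_508
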