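import Crest.Agent.R281.Aa5_836
import Crest.Agent.R281.HkP2_508

/-!
# R281 (S0424), S6-AA (helper836), file 6: Hamiltonian vector fields of a holomorphic symplectic form
(matrices `σ.s i x a b = σ(∂_a, ∂_b)`): `ham σ h` with `σ(ham h, ·) = dh`; if `{h, k}` is constant
and `σ` is closed, `ham h` and `ham k` commute.
-/

set_option autoImplicit false
set_option linter.unusedSectionVars false

open Set Metric Filter Topology Complex Function TopologicalSpace
open scoped NNReal ContDiff Matrix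

namespace Crest.Agent.R281.Aa6_836

open Crest.Agent.R275.Geo Crest.Agent.R275.Core144 Crest.Agent.R273.HFlow3_376
open Crest.Agent.R273.HFlow4_376
open Crest.Agent.R273.HFlow5_376 Crest.Agent.R273.HFlow6_376
open Crest.Agent.R281.Aa1_836 Crest.Agent.R281.Aa2_836 Crest.Agent.R281.Aa3_836
open Crest.Agent.R281.Aa4_836 Crest.Agent.R281.Aa5_836
open Crest.Agent.R281.Defs_273 Crest.Agent.R281.HkP2_508

noncomputable section

/-! ### the abstract computation -/

section Abs

variable {E : Type} [NormedAddCommGroup E] [NormedSpace ℂ E]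

/-- Hamiltonian fields of functions with constant bracket commute -/
theorem ham_comm_abs {B : E → E →L[ℂ] E →L[ℂ] ℂ} {X Y : E → E} {h k : E → ℂ} {z : E} {c : ℂ}
    (hB : DifferentiableAt ℂ B z) (hX : DifferentiableAt ℂ X z) (hY : DifferentiableAt ℂ Y z)
    (hk : DifferentiableAt ℂ (fderiv ℂ k) z)
    (sh : ∀ u v, fderiv ℂ (fderiv ℂ h) z u v = fderiv ℂ (fderiv ℂ h) z v u)
    (sk : ∀ u v, fderiv ℂ (fderiv ℂ k) z u v = fderiv ℂ (fderiv ℂ k) z v u)
    (alt : ∀ᶠ w in 𝓝 z, ∀ u v, B w u v = - B w v u)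
    (eX : ∀ᶠ w in 𝓝 z, B w (X w) = fderiv ℂ h w) (eY : ∀ᶠ w in 𝓝 z, B w (Y w) = fderiv ℂ k w)
    (cst : ∀ᶠ w in 𝓝 z, B w (X w) (Y w) = c)
    (closed : ∀ u v w, fderiv ℂ B z w u v + fderiv ℂ B z u v w + fderiv ℂ B z v w u = 0)
    (nd : ∀ u, B z u = 0 → u = 0) : fderiv ℂ Y z (X z) = fderiv ℂ X z (Y z) := by
  have dX : ∀ v w, fderiv ℂ B z v (X z) w + B z (fderiv ℂ X z v) w =
      fderiv ℂ (fderiv ℂ h) z v w := by
    intro v w
    have h1 : HasFDerivAt (fun p => B p (X p)) _ z := hB.hasFDerivAt.clm_apply hX.hasFDerivAt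
    have h2 := (h1.congr_of_eventuallyEq (eX.mono fun w hw => hw.symm)).fderiv
    have h3 := congrArg (fun T : E →L[ℂ] E →L[ℂ] ℂ => T v w) h2
    simp only [ContinuousLinearMap.flip_apply, ContinuousLinearMap.comp_apply,
      _root_.add_apply] at h3
    rw [h3]
    ring
  have dY : ∀ v w, fderiv ℂ B z v (Y z) w + B z (fderiv ℂ Y z v) w =
      fderiv ℂ (fderiv ℂ k) z v w := by
    intro v w
    have h1 : HasFDerivAt (fun p => B p (Y p)) _ z := hB.hasFDerivAt.clm_apply hY.hasFDerivAt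
    have h2 := (h1.congr_of_eventuallyEq (eY.mono fun w hw => hw.symm)).fderiv
    have h3 := congrArg (fun T : E →L[ℂ] E →L[ℂ] ℂ => T v w) h2
    simp only [ContinuousLinearMap.flip_apply, ContinuousLinearMap.comp_apply,
      _root_.add_apply] at h3
    rw [h3]
    ring
  -- `dk (X) = - c`
  have d2 : ∀ w, fderiv ℂ (fderiv ℂ k) z w (X z) + B z (Y z) (fderiv ℂ X z w) = 0 := by
    intro w
    have h1 : HasFDerivAt (fun p => fderiv ℂ k p (X p)) _ z :=
      hk.hasFDerivAt.clm_apply hX.hasFDerivAt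
    have h2 : HasFDerivAt (fun p => fderiv ℂ k p (X p)) (0 : E →L[ℂ] ℂ) z := by
      refine (hasFDerivAt_const (-c) z).congr_of_eventuallyEq ?_
      filter_upwards [eY, cst, alt] with p hp1 hp2 hp3
      rw [← hp1, hp3, hp2]
    have h3 := congrArg (fun T : E →L[ℂ] ℂ => T w) (h1.unique h2)
    simp only [ContinuousLinearMap.flip_apply, ContinuousLinearMap.comp_apply,
      _root_.add_apply, _root_.zero_apply] at h3
    rw [eY.self_of_nhds]
    rw [← h3]
    ring
  have hal := alt.self_of_nhds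
  -- alternating derivative
  have dal : ∀ w u v, fderiv ℂ B z w u v = - fderiv ℂ B z w v u := by
    intro w u v
    have h1 : ∀ a b : E, HasFDerivAt (fun p => B p a b)
        (((fderiv ℂ B z).flip a).flip b) z := by
      intro a b
      have := (hB.hasFDerivAt.clm_apply (hasFDerivAt_const a z)).clm_apply (hasFDerivAt_const b z)
      refine this.congr_fderiv ?_
      ext w
      simp
    have h2 : HasFDerivAt (fun p => B p u v) (-(((fderiv ℂ B z).flip v).flip u)) z := by
      refine ((h1 v u).neg).congr_of_eventuallyEq ?_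
      filter_upwards [alt] with p hp
      exact hp u v
    exact congrArg (fun T : E →L[ℂ] ℂ => T w) ((h1 u v).unique h2)
  rw [← sub_eq_zero]
  refine nd _ ?_
  refine ContinuousLinearMap.ext fun w => ?_
  rw [map_sub, _root_.sub_apply, _root_.zero_apply]
  have e1 := dX (Y z) w
  have e2 := dY (X z) w
  have e4 := d2 w
  have e5 := closed (X z) (Y z) w
  have e6 := sh w (Y z)
  have e7 := sk w (X z)
  have e8 := dX w (Y z)
  have e11 := dal (Y z) (X z) w
  have e12 := hal (fderiv ℂ X z w) (Y z)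
  linear_combination e2 - e1 - e5 + e11 + e8 + e6 - e12 + e4 - e7

end Abs

/-! ### the bilinear form of a matrix -/

variable {N : ℕ}

/-- `u_a v_b` -/
def eb (a b : Fin N) : Cn N →L[ℂ] Cn N →L[ℂ] ℂ :=
  (EuclideanSpace.proj a : Cn N →L[ℂ] ℂ).smulRight (EuclideanSpace.proj b : Cn N →L[ℂ] ℂ)

theorem eb_apply (a b : Fin N) (u v : Cn N) : eb a b u v = u a * v b := rfl

/-- `Σ S a b u_a v_b` -/
def bf (S : Matrix (Fin N) (Fin N) ℂ) : Cn N →L[ℂ] Cn N →L[ℂ] ℂ :=
  ∑ a, ∑ b, S a b • eb a b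

theorem bf_apply (S : Matrix (Fin N) (Fin N) ℂ) (u v : Cn N) :
    bf S u v = ∑ a, ∑ b, S a b * (u a * v b) := by
  simp only [bf, _root_.sum_apply, _root_.smul_apply, eb_apply, smul_eq_mul]

theorem bf_single (S : Matrix (Fin N) (Fin N) ℂ) (a b : Fin N) :
    bf S (EuclideanSpace.single a 1) (EuclideanSpace.single b 1) = S a b := by
  rw [bf_apply]
  simp [PiLp.single_apply]

theorem bf_dot (S : Matrix (Fin N) (Fin N) ℂ) (u v : Cn N) :
    bf S u v = u.ofLp ⬝ᵥ (S *ᵥ v.ofLp) := by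
  rw [bf_apply, dotProduct]
  refine Finset.sum_congr rfl fun a _ => ?_
  rw [Matrix.mulVec, dotProduct, Finset.mul_sum]
  refine Finset.sum_congr rfl fun b _ => ?_
  ring

theorem bf_alt {S : Matrix (Fin N) (Fin N) ℂ} (hS : Sᵀ = - S) (u v : Cn N) :
    bf S u v = - bf S v u := by
  rw [bf_apply, bf_apply, Finset.sum_comm, ← Finset.sum_neg_distrib]
  refine Finset.sum_congr rfl fun b _ => ?_
  rw [← Finset.sum_neg_distrib]
  refine Finset.sum_congr rfl fun a _ => ?_
  have h1 : S a b = - S b a := by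
    have := congrFun (congrFun hS b) a
    rwa [Matrix.transpose_apply, Matrix.neg_apply] at this
  rw [h1]
  ring

theorem bf_nd {S : Matrix (Fin N) (Fin N) ℂ} (hS : S.det ≠ 0) {u : Cn N} (h : bf S u = 0) :
    u = 0 := by
  have h1 : u.ofLp ᵥ* S = 0 := by
    funext b
    have h2 := congrArg (fun T : Cn N →L[ℂ] ℂ => T (EuclideanSpace.single b 1)) h
    simp only [_root_.zero_apply] at h2
    rw [bf_dot, Matrix.dotProduct_mulVec] at h2
    simpa using h2
  have h3 := Matrix.eq_zero_of_vecMul_eq_zero hS h1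
  ext a
  exact congrFun h3 a

theorem bf_inj {S : Matrix (Fin N) (Fin N) ℂ} (hS : S.det ≠ 0) : Injective (bf S) := by
  intro u v h
  rw [← sub_eq_zero]
  exact bf_nd hS (by rw [map_sub, h, sub_self])

theorem exists_bf_equiv {S : Matrix (Fin N) (Fin N) ℂ} (hS : S.det ≠ 0) :
    ∃ e : Cn N ≃L[ℂ] (Cn N →L[ℂ] ℂ), (e : Cn N →L[ℂ] (Cn N →L[ℂ] ℂ)) = bf S := by
  have hfr : Module.finrank ℂ (Cn N) = Module.finrank ℂ (Cn N →L[ℂ] ℂ) := by
    rw [← (LinearMap.toContinuousLinearMap (𝕜 := ℂ) (E := Cn N) (F' := ℂ)).finrank_eq]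
    exact (Subspace.dual_finrank_eq (K := ℂ) (V := Cn N)).symm
  refine ⟨(LinearMap.linearEquivOfInjective (bf S).toLinearMap (bf_inj hS)
    hfr).toContinuousLinearEquiv, ?_⟩
  ext u v
  rfl

theorem sum_diff {W : Type} [NormedAddCommGroup W] [NormedSpace ℂ W] (E : Fin N → Fin N → W)
    {S : Cn N → Matrix (Fin N) (Fin N) ℂ} {z : Cn N}
    (hS : ∀ a b, DifferentiableAt ℂ (fun w => S w a b) z) :
    HasFDerivAt (fun w => ∑ a, ∑ b, S w a b • E a b)
      (∑ a, ∑ b, (fderiv ℂ (fun w => S w a b) z).smulRight (E a b)) z :=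
  HasFDerivAt.fun_sum fun a _ => HasFDerivAt.fun_sum fun b _ =>
    (hS a b).hasFDerivAt.smul_const (E a b)

theorem bf_diff {S : Cn N → Matrix (Fin N) (Fin N) ℂ} {z : Cn N}
    (hS : ∀ a b, DifferentiableAt ℂ (fun w => S w a b) z) :
    HasFDerivAt (fun w => bf (S w)) (∑ a, ∑ b, (fderiv ℂ (fun w => S w a b) z).smulRight
      (eb a b)) z :=
  sum_diff eb hS

theorem fderiv_bf {S : Cn N → Matrix (Fin N) (Fin N) ℂ} {z : Cn N}
    (hS : ∀ a b, DifferentiableAt ℂ (fun w => S w a b) z) (w u v : Cn N) :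
    fderiv ℂ (fun w => bf (S w)) z w u v =
      ∑ a, ∑ b, fderiv ℂ (fun w => S w a b) z w * (u a * v b) := by
  rw [(bf_diff hS).fderiv]
  simp only [_root_.sum_apply, ContinuousLinearMap.smulRight_apply, _root_.smul_apply,
    smul_eq_mul, eb_apply]

/-- closedness -/
theorem bf_closed {S : Cn N → Matrix (Fin N) (Fin N) ℂ} {z : Cn N}
    (hS : ∀ a b, DifferentiableAt ℂ (fun w => S w a b) z)
    (hcl : ∀ a b c, fderiv ℂ (fun w => S w a b) z (EuclideanSpace.single c 1) +
      fderiv ℂ (fun w => S w b c) z (EuclideanSpace.single a 1) +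
      fderiv ℂ (fun w => S w c a) z (EuclideanSpace.single b 1) = 0) (u v w : Cn N) :
    fderiv ℂ (fun w => bf (S w)) z w u v + fderiv ℂ (fun w => bf (S w)) z u v w +
      fderiv ℂ (fun w => bf (S w)) z v w u = 0 := by
  have hex : ∀ (T : Cn N →L[ℂ] ℂ) (x : Cn N),
      T x = ∑ c, x c * T (EuclideanSpace.single c 1) := by
    intro T x
    have hx : x = ∑ c, x c • (EuclideanSpace.single c (1 : ℂ) : Cn N) := by
      ext d
      simp [Pi.single_apply]
    conv_lhs => rw [hx]
    rw [map_sum]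
    simp only [map_smul, smul_eq_mul]
  rw [fderiv_bf hS, fderiv_bf hS, fderiv_bf hS]
  set D : Fin N → Fin N → Fin N → ℂ := fun a b c =>
    fderiv ℂ (fun w => S w a b) z (EuclideanSpace.single c 1) with hD
  have e1 : ∀ x p q : Cn N, ∑ a, ∑ b, fderiv ℂ (fun w => S w a b) z x * (p a * q b) =
      ∑ a, ∑ b, ∑ c, D a b c * (x c * p a * q b) := by
    intro x p q
    refine Finset.sum_congr rfl fun a _ => Finset.sum_congr rfl fun b _ => ?_
    rw [hex _ x, Finset.sum_mul]
    exact Finset.sum_congr rfl fun c _ => by rw [hD]; ring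
  rw [e1, e1, e1]
  -- `Σ_abc D a b c w_c u_a v_b + D a b c u_c v_a w_b + D a b c v_c w_a u_b`
  have e2 : ∑ a, ∑ b, ∑ c, D a b c * (u c * v a * w b) =
      ∑ a, ∑ b, ∑ c, D b c a * (w c * u a * v b) := by
    calc ∑ a, ∑ b, ∑ c, D a b c * (u c * v a * w b)
        = ∑ a, ∑ c, ∑ b, D a b c * (u c * v a * w b) :=
          Finset.sum_congr rfl fun a _ => Finset.sum_comm
      _ = ∑ c, ∑ a, ∑ b, D a b c * (u c * v a * w b) := Finset.sum_comm
      _ = _ := Finset.sum_congr rfl fun c _ => Finset.sum_congr rfl fun a _ =>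
          Finset.sum_congr rfl fun b _ => by ring
  have e3 : ∑ a, ∑ b, ∑ c, D a b c * (v c * w a * u b) =
      ∑ a, ∑ b, ∑ c, D c a b * (w c * u a * v b) := by
    calc ∑ a, ∑ b, ∑ c, D a b c * (v c * w a * u b)
        = ∑ b, ∑ a, ∑ c, D a b c * (v c * w a * u b) := Finset.sum_comm
      _ = ∑ b, ∑ c, ∑ a, D a b c * (v c * w a * u b) :=
          Finset.sum_congr rfl fun b _ => Finset.sum_comm
      _ = _ := Finset.sum_congr rfl fun c _ => Finset.sum_congr rfl fun a _ =>
          Finset.sum_congr rfl fun b _ => by ring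
  rw [e2, e3, ← Finset.sum_add_distrib, ← Finset.sum_add_distrib]
  refine Finset.sum_eq_zero fun a _ => ?_
  rw [← Finset.sum_add_distrib, ← Finset.sum_add_distrib]
  refine Finset.sum_eq_zero fun b _ => ?_
  rw [← Finset.sum_add_distrib, ← Finset.sum_add_distrib]
  refine Finset.sum_eq_zero fun c _ => ?_
  have := hcl a b c
  rw [← add_mul, ← add_mul]
  change (D a b c + D b c a + D c a b) * _ = 0
  rw [this, zero_mul]

/-! ### Hamiltonian fields -/

variable {M : Type} [TopologicalSpace M] {A : Atl N M}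

/-- `dh` in the chart `i` -/
def dC (A : Atl N M) (h : M → ℂ) (i : A.ι) (x : M) : Cn N →L[ℂ] ℂ :=
  fderiv ℂ (fun z => h ((A.e i).symm z)) (A.e i x)

theorem dC_tr {h : M → ℂ} (hh : HolF A h) {i j : A.ι} {x : M} (hi : x ∈ (A.e i).source)
    (hj : x ∈ (A.e j).source) (v : Cn N) :
    dC A h i x v = dC A h j x (fderiv ℂ (fun z => A.e j ((A.e i).symm z)) (A.e i x) v) := by
  have e1 : A.e j ((A.e i).symm (A.e i x)) = A.e j x := by rw [(A.e i).left_inv hi]
  have h1 := HasFDerivAt.comp (A.e i x) (g := fun z => h ((A.e j).symm z))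
    (f := fun z => A.e j ((A.e i).symm z)) (by simp only [e1]; exact (hh.diffAt hj).hasFDerivAt)
    (chg_diffAt A hi hj).hasFDerivAt
  have h2 : (fun z => h ((A.e i).symm z)) =ᶠ[𝓝 (A.e i x)]
      (fun z => h ((A.e j).symm z)) ∘ (fun z => A.e j ((A.e i).symm z)) := by
    have hc : ContinuousAt (A.e i).symm (A.e i x) :=
      (A.e i).continuousAt_symm ((A.e i).map_source hi)
    have : ∀ᶠ z in 𝓝 (A.e i x), (A.e i).symm z ∈ (A.e j).source :=
      hc ((A.e j).open_source.mem_nhds (by rw [(A.e i).left_inv hi]; exact hj))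
    filter_upwards [this] with z hz
    simp only [comp_apply]
    rw [(A.e j).left_inv hz]
  rw [dC, h2.fderiv_eq, h1.fderiv]
  rfl

theorem chg_mulVec (A : Atl N M) (i j : A.ι) (x : M) (v : Cn N) :
    (fderiv ℂ (fun z => A.e j ((A.e i).symm z)) (A.e i x) v).ofLp = Jm A i j x *ᵥ v.ofLp := by
  have hv : v = ∑ c, v c • (EuclideanSpace.single c (1 : ℂ) : Cn N) := by
    ext d
    simp [Pi.single_apply]
  funext b
  conv_lhs => rw [hv, map_sum]
  simp [Matrix.mulVec, dotProduct, Atl.J, mul_comm]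

/-- the form is intrinsic -/
theorem bf_tr (σ : H2 A) {i j : A.ι} {x : M} (hi : x ∈ (A.e i).source)
    (hj : x ∈ (A.e j).source) (u v : Cn N) :
    bf (σ.s i x) u v = bf (σ.s j x) (fderiv ℂ (fun z => A.e j ((A.e i).symm z)) (A.e i x) u)
      (fderiv ℂ (fun z => A.e j ((A.e i).symm z)) (A.e i x) v) := by
  rw [bf_dot, bf_dot, chg_mulVec, chg_mulVec, σ.tr i j x ⟨hi, hj⟩, ← Matrix.mulVec_mulVec,
    ← Matrix.mulVec_mulVec, Matrix.dotProduct_mulVec, Matrix.vecMul_transpose]

/-- the changes of charts are surjective -/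
theorem chg_surj (A : Atl N M) {i j : A.ι} {x : M} (hi : x ∈ (A.e i).source)
    (hj : x ∈ (A.e j).source) :
    Surjective (fderiv ℂ (fun z => A.e j ((A.e i).symm z)) (A.e i x)) := by
  intro w
  refine ⟨fderiv ℂ (fun z => A.e i ((A.e j).symm z)) (A.e j x) w, ?_⟩
  refine (WithLp.ofLp_injective 2) ?_
  rw [chg_mulVec, chg_mulVec, Matrix.mulVec_mulVec, J_mul j i j ⟨⟨hj, hi⟩, hj⟩, J_self j hj,
    Matrix.one_mulVec]

/-- the Hamiltonian vector field in the charts -/
def hamX (σ : H2 A) (h : M → ℂ) (i : A.ι) (x : M) : Cn N :=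
  ContinuousLinearMap.inverse (bf (σ.s i x)) (dC A h i x)

theorem bf_hamX (σ : HSymp A) (h : M → ℂ) {i : A.ι} {x : M} (hi : x ∈ (A.e i).source) :
    bf (σ.s i x) (hamX σ.toH2 h i x) = dC A h i x := by
  obtain ⟨e, he⟩ := exists_bf_equiv (σ.nd i x hi)
  rw [hamX, ← he, ContinuousLinearMap.inverse_equiv]
  exact e.apply_symm_apply _

theorem hamX_unique (σ : HSymp A) {h : M → ℂ} {i : A.ι} {x : M} (hi : x ∈ (A.e i).source)
    {v : Cn N} (hv : ∀ w, bf (σ.s i x) v w = dC A h i x w) : v = hamX σ.toH2 h i x := by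
  refine bf_inj (σ.nd i x hi) ?_
  rw [bf_hamX σ h hi]
  exact ContinuousLinearMap.ext hv

theorem dC_symm (A : Atl N M) (h : M → ℂ) (i : A.ι) {z : Cn N} (hz : z ∈ (A.e i).target) :
    dC A h i ((A.e i).symm z) = fderiv ℂ (fun z => h ((A.e i).symm z)) z := by
  rw [dC, (A.e i).right_inv hz]

theorem HolF.analyticAt {F : Type} [NormedAddCommGroup F] [NormedSpace ℂ F] [CompleteSpace F]
    {y : M → F} (hy : HolF A y) (i : A.ι)
    {z : Cn N} (hz : z ∈ (A.e i).target) : AnalyticAt ℂ (fun z => y ((A.e i).symm z)) z := by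
  refine Crest.Agent.R266.SCV.analyticAt_of_eventually_differentiableAt ?_
  filter_upwards [(A.e i).open_target.mem_nhds hz] with w hw
  exact (hy i).differentiableAt ((A.e i).open_target.mem_nhds hw)

theorem sl_diff (σ : H2 A) {i : A.ι} {z : Cn N} (hz : z ∈ (A.e i).target) (a b : Fin N) :
    DifferentiableAt ℂ (fun w => sl σ i w a b) z :=
  (sl_hol σ i).diffC (A.e i).open_target hz a b

/-- **the Hamiltonian vector field** `σ(ham h, ·) = dh` -/
def ham (σ : HSymp A) (h : M → ℂ) (hh : HolF A h) : HVF A where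
  X := hamX σ.toH2 h
  hol i z hz := by
    refine DifferentiableAt.differentiableWithinAt ?_
    obtain ⟨e, he⟩ := exists_bf_equiv (σ.nd i _ ((A.e i).map_target hz))
    have h1 : DifferentiableAt ℂ (fun w => ContinuousLinearMap.inverse (bf (sl σ.toH2 i w))) z := by
      have h2 : DifferentiableAt ℂ (ContinuousLinearMap.inverse :
          (Cn N →L[ℂ] (Cn N →L[ℂ] ℂ)) → _) (bf (sl σ.toH2 i z)) := by
        have h3 := (contDiffAt_map_inverse (n := 1) e).differentiableAt one_ne_zero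
        rw [he] at h3
        exact h3
      have hB : DifferentiableAt ℂ (fun w => bf (sl σ.toH2 i w)) z :=
        (bf_diff (sl_diff σ.toH2 hz)).differentiableAt
      exact DifferentiableAt.comp (𝕜 := ℂ) (E := Cn N) (F := Cn N →L[ℂ] (Cn N →L[ℂ] ℂ))
        (G := (Cn N →L[ℂ] ℂ) →L[ℂ] Cn N) z (g := ContinuousLinearMap.inverse)
        (f := fun w => bf (sl σ.toH2 i w)) h2 hB
    have h4 := (HolF.analyticAt hh i hz).fderiv.differentiableAt
    refine (h1.clm_apply h4).congr_of_eventuallyEq ?_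
    filter_upwards [(A.e i).open_target.mem_nhds hz] with w hw
    rw [hamX, dC_symm A h i hw]
    rfl
  tr i j x hx := by
    symm
    refine hamX_unique σ hx.2 fun w => ?_
    obtain ⟨u, rfl⟩ := chg_surj A hx.1 hx.2 w
    rw [← bf_tr σ.toH2 hx.1 hx.2, bf_hamX σ h hx.1, dC_tr hh hx.1 hx.2]

theorem ham_spec (σ : HSymp A) {h : M → ℂ} (hh : HolF A h) {i : A.ι} {x : M}
    (hi : x ∈ (A.e i).source) (w : Cn N) :
    bf (σ.s i x) ((ham σ h hh).X i x) w = dC A h i x w :=
  congrArg (fun T : Cn N →L[ℂ] ℂ => T w) (bf_hamX σ h hi)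

/-- `σ` is closed -/
def Clo (σ : H2 A) : Prop := ∀ i, ∀ z ∈ (A.e i).target, ∀ a b c,
  fderiv ℂ (fun w => sl σ i w a b) z (EuclideanSpace.single c 1) +
    fderiv ℂ (fun w => sl σ i w b c) z (EuclideanSpace.single a 1) +
    fderiv ℂ (fun w => sl σ i w c a) z (EuclideanSpace.single b 1) = 0

/-- **functions with constant Poisson bracket have commuting Hamiltonian fields** -/
theorem ham_comm {σ : HSymp A} (hcl : Clo σ.toH2) {h k : M → ℂ} (hh : HolF A h) (hk : HolF A k)
    {c : ℂ} (hc : ∀ i, ∀ x ∈ (A.e i).source,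
      bf (σ.s i x) ((ham σ h hh).X i x) ((ham σ k hk).X i x) = c) :
    Comm (ham σ h hh) (ham σ k hk) := by
  intro i z hz
  have ht := (A.e i).open_target.mem_nhds hz
  refine ham_comm_abs (B := fun w => bf (sl σ.toH2 i w)) (h := fun z => h ((A.e i).symm z))
    (k := fun z => k ((A.e i).symm z)) (c := c) (bf_diff (sl_diff σ.toH2 hz)).differentiableAt
    (((ham σ h hh).hol i).differentiableAt ht) (((ham σ k hk).hol i).differentiableAt ht)
    (HolF.analyticAt hk i hz).fderiv.differentiableAt ?_ ?_ ?_ ?_ ?_ ?_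
    (bf_closed (sl_diff σ.toH2 hz) (hcl i z hz)) ?_
  · intro u v
    exact ((HolF.analyticAt hh i hz).contDiffAt (n := 2)).isSymmSndFDerivAt (by simp) u v
  · intro u v
    exact ((HolF.analyticAt hk i hz).contDiffAt (n := 2)).isSymmSndFDerivAt (by simp) u v
  · filter_upwards [ht] with w hw u v
    exact bf_alt (σ.alt i _ ((A.e i).map_target hw)) u v
  · filter_upwards [ht] with w hw
    have := bf_hamX σ h ((A.e i).map_target hw)
    rw [dC_symm A h i hw] at this
    exact this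
  · filter_upwards [ht] with w hw
    have := bf_hamX σ k ((A.e i).map_target hw)
    rw [dC_symm A k i hw] at this
    exact this
  · filter_upwards [ht] with w hw
    exact hc i _ ((A.e i).map_target hw)
  · intro u hu
    exact bf_nd (σ.nd i _ ((A.e i).map_target hz)) hu

end

end Crest.Agent.R281.Aa6_836
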