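import Crest.Agent.R281.Aa6_836

/-!
# R281 (S0424), S6-AA (helper836), file 7: **holomorphic Lagrangian fibrations**: a holomorphic
submersion `y : M → Cn g` with isotropic fibres, `dim M = 2 g`, has action-angle tubes around its
compact connected fibre components.
-/

set_option autoImplicit false
set_option linter.unusedSectionVars false

open Set Metric Filter Topology Complex Function TopologicalSpace
open scoped NNReal ContDiff Matrix

namespace Crest.Agent.R281.Aa7_836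

open Crest.Agent.R275.Geo Crest.Agent.R275.Core144 Crest.Agent.R273.HFlow3_376
open Crest.Agent.R273.HFlow4_376
open Crest.Agent.R273.HFlow5_376 Crest.Agent.R273.HFlow6_376
open Crest.Agent.R281.Aa1_836 Crest.Agent.R281.Aa2_836 Crest.Agent.R281.Aa3_836
open Crest.Agent.R281.Aa4_836 Crest.Agent.R281.Aa5_836 Crest.Agent.R281.Aa6_836
open Crest.Agent.R281.Defs_273 Crest.Agent.R281.HkP2_508

noncomputable section

variable {g : ℕ}

/-- the orthogonal of an isotropic subspace of half dimension -/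
theorem lag_perp {S : Matrix (Fin (2 * g)) (Fin (2 * g)) ℂ} (hS : S.det ≠ 0) (hal : Sᵀ = - S)
    {y : Cn (2 * g) →L[ℂ] Cn g} (hy : Surjective y)
    (hlag : ∀ u v, y u = 0 → y v = 0 → bf S u v = 0) {u : Cn (2 * g)}
    (hu : ∀ v, y v = 0 → bf S u v = 0) : y u = 0 := by
  classical
  set K : Submodule ℂ (Cn (2 * g)) := LinearMap.ker y.toLinearMap with hK
  have hmem : ∀ v, v ∈ K ↔ y v = 0 := fun v => LinearMap.mem_ker
  have hKdim : Module.finrank ℂ K = g := by
    have h1 := LinearMap.finrank_range_add_finrank_ker y.toLinearMap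
    rw [LinearMap.range_eq_top.2 hy, finrank_top, finrank_euclideanSpace_fin,
      finrank_euclideanSpace_fin] at h1
    rw [hK]
    omega
  set B : LinearMap.BilinForm ℂ (Cn (2 * g)) := LinearMap.mk₂ ℂ (fun u v => bf S u v)
    (by intros; simp) (by intros; simp) (by intros; simp) (by intros; simp) with hB
  have hBap : ∀ u v, B u v = bf S u v := fun u v => rfl
  have hBal : ∀ u v, B u v = - B v u := fun u v => bf_alt hal u v
  have hnd : B.Nondegenerate := by
    refine ⟨fun u h => ?_, fun u h => ?_⟩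
    · exact bf_nd hS (ContinuousLinearMap.ext fun v => h v)
    · exact bf_nd hS (ContinuousLinearMap.ext fun v => by
        have := h v
        rw [hBal, neg_eq_zero] at this
        exact this)
  have hle : K ≤ B.orthogonal K := by
    intro v hv w hw
    exact hlag w v ((hmem _).1 hw) ((hmem _).1 hv)
  have hdim : Module.finrank ℂ (B.orthogonal K) = g := by
    rw [LinearMap.BilinForm.finrank_orthogonal hnd, hKdim, finrank_euclideanSpace_fin]
    omega
  have heq := Submodule.eq_of_le_of_finrank_eq hle (by rw [hKdim, hdim])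
  have : u ∈ B.orthogonal K := by
    intro w hw
    have := hu w ((hmem _).1 hw)
    change B w u = 0
    rw [hBal]
    exact neg_eq_zero.2 this
  rw [← heq] at this
  exact (hmem _).1 this

variable {M : Type} [TopologicalSpace M] {A : Atl (2 * g) M} {σ : HSymp A} {y : M → Cn g}

/-- `y` is a holomorphic submersion with Lagrangian fibres -/
structure LagF (σ : HSymp A) (y : M → Cn g) : Prop where
  clo : Clo σ.toH2
  hol : HolF A y
  sur : ∀ i, ∀ x ∈ (A.e i).source,
    Surjective (fderiv ℂ (fun z => y ((A.e i).symm z)) (A.e i x))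
  lag : ∀ i, ∀ x ∈ (A.e i).source, ∀ u v,
    fderiv ℂ (fun z => y ((A.e i).symm z)) (A.e i x) u = 0 →
    fderiv ℂ (fun z => y ((A.e i).symm z)) (A.e i x) v = 0 → bf (σ.s i x) u v = 0

theorem hol_coord (hy : HolF A y) (k : Fin g) : HolF A (fun x => y x k) := fun i =>
  ((EuclideanSpace.proj k : Cn g →L[ℂ] ℂ).differentiable).comp_differentiableOn (hy i)

theorem dC_coord (hy : HolF A y) (k : Fin g) {i : A.ι} {x : M} (hi : x ∈ (A.e i).source)
    (v : Cn (2 * g)) :
    dC A (fun x => y x k) i x v = (fderiv ℂ (fun z => y ((A.e i).symm z)) (A.e i x) v) k := by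
  have h1 := (EuclideanSpace.proj k : Cn g →L[ℂ] ℂ).hasFDerivAt.comp (A.e i x)
    (hy.diffAt hi).hasFDerivAt
  exact congrArg (fun T : Cn (2 * g) →L[ℂ] ℂ => T v) h1.fderiv

/-- the commuting fields `σ(V_k, ·) = d y_k` -/
def VH (σ : HSymp A) (hy : HolF A y) (k : Fin g) : HVF A := ham σ (fun x => y x k) (hol_coord hy k)

theorem VH_spec (hy : HolF A y) (k : Fin g) {i : A.ι} {x : M} (hi : x ∈ (A.e i).source)
    (w : Cn (2 * g)) : bf (σ.s i x) ((VH σ hy k).X i x) w =
      (fderiv ℂ (fun z => y ((A.e i).symm z)) (A.e i x) w) k := by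
  rw [VH, ham_spec σ _ hi, dC_coord hy k hi]

theorem VH_ker (h : LagF σ y) (k : Fin g) {i : A.ι} {x : M} (hi : x ∈ (A.e i).source) :
    fderiv ℂ (fun z => y ((A.e i).symm z)) (A.e i x) ((VH σ h.hol k).X i x) = 0 := by
  refine lag_perp (σ.nd i x hi) (σ.alt i x hi) (h.sur i x hi) (h.lag i x hi) fun v hv => ?_
  rw [VH_spec h.hol k hi, hv]
  rfl

theorem VH_lio (h : LagF σ y) : Lio A (VH σ h.hol) y where
  comm j k := by
    refine ham_comm (c := 0) h.clo _ _ fun i x hi => ?_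
    change bf (σ.s i x) ((VH σ h.hol j).X i x) ((VH σ h.hol k).X i x) = 0
    rw [VH_spec h.hol j hi, VH_ker h k hi]
    rfl
  hol := h.hol
  tan k i x hi := VH_ker h k hi
  dim := by rw [finrank_euclideanSpace_fin]; omega

theorem VH_li (h : LagF σ y) {i : A.ι} {x : M} (hi : x ∈ (A.e i).source) :
    LinearIndependent ℂ (fun k => (VH σ h.hol k).X i x) := by
  rw [Fintype.linearIndependent_iff]
  intro c hc k
  obtain ⟨w, hw⟩ := h.sur i x hi (EuclideanSpace.single k 1)
  have h1 : bf (σ.s i x) (∑ j, c j • (VH σ h.hol j).X i x) w = 0 := by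
    rw [hc, map_zero]
    rfl
  rw [map_sum, _root_.sum_apply] at h1
  simp only [map_smul, _root_.smul_apply, smul_eq_mul] at h1
  have h2 : ∀ j, bf (σ.s i x) ((VH σ h.hol j).X i x) w = if j = k then 1 else 0 := by
    intro j
    rw [VH_spec h.hol j hi, hw]
    simp
  simpa [h2] using h1

theorem VH_reg (h : LagF σ y) (x : M) : RegAt (VH σ h.hol) y x := by
  obtain ⟨i, hi⟩ := A.cover x
  exact ⟨i, hi, VH_li h hi, h.sur i x hi⟩

/-- **action-angle tubes of a holomorphic Lagrangian fibration** -/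
theorem exists_AA [T2Space M] (h : LagF σ y) {x0 : M} {T : Set M} (hx0 : x0 ∈ T)
    (hT : IsCompact T) (hTc : IsPreconnected T) (hTy : ∀ x ∈ T, y x = y x0) {O : Set M}
    (hO : IsOpen O) (hTO : T ⊆ O) (hOT : ∀ x ∈ O, y x = y x0 → x ∈ T) :
    ∃ (ε R : ℝ) (Nb : Set M) (Ψ : (Fin g → ℂ) × Cn g → M) (l : Fin (2 * g) → Cn g → (Fin g → ℂ)),
      Tube A (VH σ h.hol) y (y x0) ε R Nb Ψ l ∧ T ⊆ Nb ∧ Nb ⊆ O ∧ Ψ (0, y x0) = x0 :=
  exists_tube (VH_lio h) hx0 hT hTc hTy hO hTO hOT fun x _ => VH_reg h x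

section Tube

variable {ε R : ℝ} {Nb : Set M} {Ψ : (Fin g → ℂ) × Cn g → M} {l : Fin (2 * g) → Cn g → (Fin g → ℂ)}
  {b0 : Cn g} {h : LagF σ y} (t : Tube A (VH σ h.hol) y b0 ε R Nb Ψ l)
include t

/-- `∂Ψ/∂c_k = V_k` -/
theorem Tube.dc (c : Fin g → ℂ) {b : Cn g} (hb : b ∈ ball b0 ε) {i : A.ι}
    (hi : Ψ (c, b) ∈ (A.e i).source) (k : Fin g) :
    fderiv ℂ (fun q => A.e i (Ψ q)) (c, b) (Pi.single k 1, 0) =
      (VH σ h.hol k).X i (Ψ (c, b)) := by
  have h1 := (t.int c b hb k 0).chart (j := i) (by simpa using hi)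
  have e0 : c + (Pi.single k (0 : ℂ) : Fin g → ℂ) = c := by simp
  rw [e0] at h1
  have h2 : HasDerivAt (fun w : ℂ => ((c + (Pi.single k w : Fin g → ℂ), b) :
      (Fin g → ℂ) × Cn g)) (Pi.single k 1, 0) 0 := by
    refine HasDerivAt.prodMk ?_ (hasDerivAt_const _ _)
    exact (hasDerivAt_single k (0 : ℂ)).const_add c
  have h3 : HasFDerivAt (fun q => A.e i (Ψ q)) (fderiv ℂ (fun q => A.e i (Ψ q)) (c, b))
      ((c + (Pi.single k (0 : ℂ) : Fin g → ℂ), b)) := by
    rw [e0]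
    exact ((t.hol c b hb).chart hi).hasFDerivAt
  have h4 := h3.comp_hasDerivAt (f := fun w : ℂ => ((c + (Pi.single k w : Fin g → ℂ), b) :
      (Fin g → ℂ) × Cn g)) 0 h2
  exact h4.unique h1

/-- `dy ∘ dΨ = snd` -/
theorem Tube.dy (c : Fin g → ℂ) {b : Cn g} (hb : b ∈ ball b0 ε) {i : A.ι}
    (hi : Ψ (c, b) ∈ (A.e i).source) (v : (Fin g → ℂ) × Cn g) :
    fderiv ℂ (fun z => y ((A.e i).symm z)) (A.e i (Ψ (c, b)))
      (fderiv ℂ (fun q => A.e i (Ψ q)) (c, b) v) = v.2 := by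
  rw [← (t.hol c b hb).fderiv_comp h.hol hi v]
  have h1 : (fun q => y (Ψ q)) =ᶠ[𝓝 (c, b)] Prod.snd := by
    have : ∀ᶠ q : (Fin g → ℂ) × Cn g in 𝓝 (c, b), q.2 ∈ ball b0 ε :=
      continuousAt_snd (isOpen_ball.mem_nhds hb)
    filter_upwards [this] with q hq
    exact t.y_eq q.1 q.2 hq
  rw [h1.fderiv_eq, fderiv_snd]
  rfl

/-- **Darboux form**: `σ(∂Ψ/∂c_k, dΨ v) = v.2 k` -/
theorem Tube.darboux (c : Fin g → ℂ) {b : Cn g} (hb : b ∈ ball b0 ε) {i : A.ι}
    (hi : Ψ (c, b) ∈ (A.e i).source) (k : Fin g) (v : (Fin g → ℂ) × Cn g) :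
    bf (σ.s i (Ψ (c, b))) (fderiv ℂ (fun q => A.e i (Ψ q)) (c, b) (Pi.single k 1, 0))
      (fderiv ℂ (fun q => A.e i (Ψ q)) (c, b) v) = v.2 k := by
  rw [Tube.dc (h := h) t c hb hi k, VH_spec h.hol k hi, Tube.dy (h := h) t c hb hi v]

end Tube

end

end Crest.Agent.R281.Aa7_836
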