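import Crest.Agent.R281.HkP2_508

/-!
# R281 (S0424), leaf HK-PAR (helper508), part 3: existence of the hyperkaehler metric

`Yau A` (R273 `Vol_333.Yau`, Yau's theorem for an arbitrary Kaehler form on `(M, A)`) gives, for a
holomorphic symplectic form `σ` spanning `H^{2,0}`, in every Kaehler class a Ricci flat metric for
which a positive multiple of `σ` is parallel of norm one.
-/

set_option autoImplicit false
set_option linter.unusedSectionVars false

open Set Filter Topology Complex MeasureTheory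
open scoped ContDiff Matrix ComplexConjugate ComplexOrder

namespace Crest.Agent.R281.HkP3_508

open Crest.Agent.R275.Geo Crest.Agent.R275.Core144 Crest.Agent.R275.EDR890
open Crest.Agent.R275.GC293
open Crest.Agent.R273 Crest.Agent.R273.Hess_333 Crest.Agent.R273.HessB_333
open Crest.Agent.R273.Defs_333 Crest.Agent.R273.HM_333 Crest.Agent.R273.Kah_333
open Crest.Agent.R273.Vol_333 Crest.Agent.R273.Vm_333
open Crest.Agent.R281.HkP1_508 Crest.Agent.R281.HkP2_508
open Crest.Agent.R281.Defs_273 (H2 HSymp)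

noncomputable section

variable {n : ℕ} {M : Type} [TopologicalSpace M] {A : Atl n M}

/-- `c σ` -/
def smulH2 (c : ℂ) (σ : H2 A) : H2 A where
  s i x := c • σ.s i x
  hol i a b := (σ.hol i a b).const_mul c
  alt i x hx := by rw [Matrix.transpose_smul, σ.alt i x hx, smul_neg]
  tr i j x hx := by
    rw [σ.tr i j x hx, Matrix.mul_smul, Matrix.smul_mul]

/-- `c σ` -/
def smulHS (c : ℂ) (hc : c ≠ 0) (σ : HSymp A) : HSymp A where
  toH2 := smulH2 c σ.toH2
  nd i x hx := by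
    change (c • σ.s i x).det ≠ 0
    rw [Matrix.det_smul]
    exact mul_ne_zero (pow_ne_zero _ hc) (σ.nd i x hx)

theorem smulHS_uniq (c : ℂ) (hc : c ≠ 0) {σ : HSymp A} (h : σ.Uniq) : (smulHS c hc σ).Uniq := by
  intro τ
  obtain ⟨d, hd⟩ := h τ
  refine ⟨d / c, fun i x hx => ?_⟩
  rw [hd i x hx]
  change _ = (d / c) • (c • σ.s i x)
  rw [smul_smul, div_mul_cancel₀ _ hc]

/-- the hyperkaehler relation: `K` Ricci flat, `σ` parallel, closed and `σ* g⁻¹ σ = gᵀ` -/
structure HK (K : Kah A) (σ : HSymp A) : Prop where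
  ric : RicFlat K
  par : Par2 K σ.toH2
  rel : ∀ i, ∀ x ∈ (A.e i).source, σ.s i x * ((K.g i x)ᵀ)⁻¹ * (σ.s i x)ᴴ = K.g i x

theorem HK.rel' {K : Kah A} {σ : HSymp A} (h : HK K σ) (i : A.ι) {x : M}
    (hx : x ∈ (A.e i).source) : (σ.s i x)ᴴ * (K.g i x)⁻¹ * σ.s i x = (K.g i x)ᵀ := by
  have h1 := h.rel i x hx
  have h2 := lam_iff (lam := 1) (g := K.g i x) (σ.alt i x hx)
  rw [one_smul, one_smul] at h2
  exact h2.1 h1

theorem HK.closed {K : Kah A} {σ : HSymp A} (h : HK K σ) (i : A.ι) {z : Cn n}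
    (hz : z ∈ (A.e i).target) (a b c : Fin n) :
    wd (false, c) (fun w => sl σ.toH2 i w a b) z + wd (false, a) (fun w => sl σ.toH2 i w b c) z +
      wd (false, b) (fun w => sl σ.toH2 i w c a) z = 0 := closed_of_par h.par i hz a b c

/-- `det g = |det s|` -/
theorem HK.det {K : Kah A} {σ : HSymp A} (h : HK K σ) (i : A.ι) {x : M}
    (hx : x ∈ (A.e i).source) : (K.g i x).det = ((‖(σ.s i x).det‖ : ℝ) : ℂ) := by
  have hp := K.pos i x hx
  have h1 := det_of_lam (g := K.g i x) (s := σ.s i x) (lam := 1) hp.det_pos.ne' (by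
    rw [Complex.ofReal_one, one_smul]; exact h.rel i x hx)
  rw [Complex.ofReal_one, one_pow, one_mul] at h1
  have h2 : (((K.g i x).det.re : ℝ) : ℂ) = (K.g i x).det := det_real hp.1
  have h3 : 0 < (K.g i x).det.re := det_re_pos hp
  rw [← h2] at h1 ⊢
  have h4 : ‖(σ.s i x).det‖ ^ 2 = (K.g i x).det.re ^ 2 := by exact_mod_cast h1
  have h5 := (sq_eq_sq₀ (norm_nonneg _) h3.le).1 h4
  rw [h5]

theorem HK.volK {K : Kah A} {σ : HSymp A} (h : HK K σ) (i : A.ι) {x : M}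
    (hx : x ∈ (A.e i).source) : (volK K).w i x = (volS σ).w i x := by
  have := congrArg Complex.re (h.det i hx)
  rwa [Complex.ofReal_re] at this

/-- a Ricci flat metric and `σ` spanning `H^{2,0}`: a positive multiple of `σ` is hyperkaehler -/
theorem exists_HK [T2Space M] [CompactSpace M] [Finite A.ι] (P : Part A) {K : Kah A}
    (hK : RicFlat K) (σ : HSymp A) (hu : σ.Uniq) :
    ∃ (r : ℝ) (hr : (r : ℂ) ≠ 0), 0 < r ∧ HK K (smulHS (r : ℂ) hr σ) := by
  obtain ⟨lam, hl, h⟩ := exists_lam_hsymp P hK σ hu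
  have hs : 0 < Real.sqrt lam := Real.sqrt_pos.2 hl
  have hr : (((Real.sqrt lam)⁻¹ : ℝ) : ℂ) ≠ 0 := by
    exact_mod_cast (inv_pos.2 hs).ne'
  refine ⟨(Real.sqrt lam)⁻¹, hr, inv_pos.2 hs, hK, par_h2 P hK _, fun i x hx => ?_⟩
  change ((((Real.sqrt lam)⁻¹ : ℝ) : ℂ) • σ.s i x) * ((K.g i x)ᵀ)⁻¹ *
    ((((Real.sqrt lam)⁻¹ : ℝ) : ℂ) • σ.s i x)ᴴ = K.g i x
  rw [Matrix.conjTranspose_smul, Matrix.smul_mul, Matrix.mul_smul, Matrix.smul_mul, h i x hx,
    smul_smul, smul_smul, RCLike.star_def, Complex.conj_ofReal]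
  have h2 : (((Real.sqrt lam)⁻¹ : ℝ) : ℂ) * ((((Real.sqrt lam)⁻¹ : ℝ) : ℂ) * (lam : ℂ)) = 1 := by
    have h3 : (Real.sqrt lam)⁻¹ * ((Real.sqrt lam)⁻¹ * lam) = 1 := by
      have h4 := Real.mul_self_sqrt hl.le
      field_simp
      nlinarith [h4]
    exact_mod_cast h3
  rw [mul_assoc, h2, one_smul]

/-- **the hyperkaehler metric in a Kaehler class** -/
theorem exists_HK_class [T2Space M] [CompactSpace M] [Finite A.ι] (P : Part A) (Y : Yau A)
    (K : Kah A) (σ : HSymp A) (hu : σ.Uniq) :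
    ∃ (u : M → ℝ) (hs : A.Sm u) (hp : ∀ i, ∀ x ∈ (A.e i).source, (K.g i x + hsf A u i x).PosDef)
      (r : ℝ) (hr : (r : ℂ) ≠ 0), 0 < r ∧ HK (addK K u hs hp) (smulHS (r : ℂ) hr σ) := by
  obtain ⟨u, c, hs, H⟩ := Y K (ratio (volK K) (volS σ)) (sm_ratio _ _)
  have hp : ∀ i, ∀ x ∈ (A.e i).source, (K.g i x + hsf A u i x).PosDef := fun i x hx => (H i x hx).1
  have key : ∀ i, ∀ x ∈ (A.e i).source,
      ((addK K u hs hp).g i x).det.re = Real.exp c * ‖(σ.s i x).det‖ := by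
    intro i x hx
    have h1 := (H i x hx).2
    have h2 : ((addK K u hs hp).g i x).det = (K.g i x + hsf A u i x).det := rfl
    have h3 : (volK K).w i x = (K.g i x).det.re := rfl
    have h4 : (volS σ).w i x = ‖(σ.s i x).det‖ := rfl
    rw [h2, h1, Complex.re_ofReal_mul, ← h3, ← h4, w_ratio (volK K) (volS σ) hx, Real.exp_add]
    ring
  obtain ⟨r, hr, h0, h1⟩ := exists_HK P (ricFlat_of_det σ (Real.exp_pos c) key) σ hu
  exact ⟨u, hs, hp, r, hr, h0, h1⟩

end

end Crest.Agent.R281.HkP3_508
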