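import Crest.Agent.R281.Aa7_836
import Crest.Agent.R281.HkP3_508

/-!
# R281 (S0424), S6-AA (helper836), file 8: closedness from a parallel form; real periodic
coordinates of an action-angle tube.
-/

set_option autoImplicit false
set_option linter.unusedSectionVars false

open Set Metric Filter Topology Complex Function TopologicalSpace
open scoped NNReal ContDiff Matrix

namespace Crest.Agent.R281.Aa8_836

open Crest.Agent.R275.Geo Crest.Agent.R275.Core144 Crest.Agent.R273.HFlow3_376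
open Crest.Agent.R273.HFlow4_376 Crest.Agent.R273.Kah_333 Crest.Agent.R273.HessB_333
open Crest.Agent.R273.HFlow5_376 Crest.Agent.R273.HFlow6_376
open Crest.Agent.R281.Aa1_836 Crest.Agent.R281.Aa2_836 Crest.Agent.R281.Aa3_836
open Crest.Agent.R281.Aa4_836 Crest.Agent.R281.Aa5_836 Crest.Agent.R281.Aa6_836
open Crest.Agent.R281.Aa7_836
open Crest.Agent.R281.Defs_273 Crest.Agent.R281.HkP2_508 Crest.Agent.R281.HkP3_508

noncomputable section

theorem clo_of_par {n : ℕ} {M : Type} [TopologicalSpace M] {A : Atl n M} {K : Kah A} {σ : H2 A}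
    (h : Par2 K σ) : Clo σ := by
  intro i z hz a b c
  have h1 := closed_of_par h i hz a b c
  rwa [wd_hol' (sl_diff σ hz a b), wd_hol' (sl_diff σ hz b c), wd_hol' (sl_diff σ hz c a)] at h1

theorem clo_of_HK {n : ℕ} {M : Type} [TopologicalSpace M] {A : Atl n M} {K : Kah A} {σ : HSymp A}
    (h : HK K σ) : Clo σ.toH2 := clo_of_par h.par

/-! ### real periodic coordinates -/

section Real

variable {N g : ℕ} {M : Type} [TopologicalSpace M] {A : Atl N M}
  {F : Type} [NormedAddCommGroup F] [NormedSpace ℂ F] [FiniteDimensional ℂ F]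
  {V : Fin g → HVF A} {y : M → F} {b0 : F} {ε R : ℝ} {Nb : Set M} {Ψ : (Fin g → ℂ) × F → M}
  {l : Fin (2 * g) → F → (Fin g → ℂ)}

/-- `(θ, b) ↦ Σ θ_i l_i(b)` -/
def rl (l : Fin (2 * g) → F → (Fin g → ℂ)) (θ : Fin (2 * g) → ℝ) (b : F) : Fin g → ℂ :=
  ∑ i, θ i • l i b

/-- real periodic coordinates -/
def Ξ (Ψ : (Fin g → ℂ) × F → M) (l : Fin (2 * g) → F → (Fin g → ℂ))
    (q : (Fin (2 * g) → ℝ) × F) : M := Ψ (rl l q.1 q.2, q.2)

theorem rl_add (l : Fin (2 * g) → F → (Fin g → ℂ)) (θ θ' : Fin (2 * g) → ℝ) (b : F) :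
    rl l (θ + θ') b = rl l θ b + rl l θ' b := by
  simp only [rl, Pi.add_apply, add_smul, Finset.sum_add_distrib]

theorem rl_sub (l : Fin (2 * g) → F → (Fin g → ℂ)) (θ θ' : Fin (2 * g) → ℝ) (b : F) :
    rl l (θ - θ') b = rl l θ b - rl l θ' b := by
  simp only [rl, Pi.sub_apply, sub_smul, Finset.sum_sub_distrib]

theorem rl_smul (l : Fin (2 * g) → F → (Fin g → ℂ)) (r : ℝ) (θ : Fin (2 * g) → ℝ) (b : F) :
    rl l (r • θ) b = r • rl l θ b := by
  simp only [rl, Pi.smul_apply, smul_eq_mul, mul_smul, Finset.smul_sum]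

theorem rl_inj {b : F} (hb : LinearIndependent ℝ (fun i => l i b)) {θ : Fin (2 * g) → ℝ}
    (h : rl l θ b = 0) : θ = 0 := by
  funext i
  exact Fintype.linearIndependent_iff.1 hb θ h i

variable (t : Tube A V y b0 ε R Nb Ψ l)
include t

theorem rl_surj {b : F} (hb : b ∈ ball b0 ε) (c : Fin g → ℂ) :
    ∃ θ : Fin (2 * g) → ℝ, rl l θ b = c := by
  have hfr : Module.finrank ℝ (Fin g → ℂ) = 2 * g := by
    rw [finrank_real_of_complex, Module.finrank_fin_fun]
  have h1 : Submodule.span ℝ (range fun i => l i b) = ⊤ :=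
    (t.lli b hb).span_eq_top_of_card_eq_finrank' (by rw [Fintype.card_fin, hfr])
  have h2 : c ∈ Submodule.span ℝ (range fun i => l i b) := by rw [h1]; trivial
  obtain ⟨θ, hθ⟩ := (Submodule.mem_span_range_iff_exists_fun ℝ).1 h2
  exact ⟨θ, hθ⟩

/-- injective modulo `ℤ^(2g)` -/
theorem Ξ_eq_iff {θ θ' : Fin (2 * g) → ℝ} {b b' : F} (hb : b ∈ ball b0 ε) (hb' : b' ∈ ball b0 ε) :
    Ξ Ψ l (θ, b) = Ξ Ψ l (θ', b') ↔ b = b' ∧ ∃ m : Fin (2 * g) → ℤ, θ - θ' = fun i => (m i : ℝ) := by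
  have hz : ∀ m : Fin (2 * g) → ℤ, ∑ i, m i • l i b = rl l (fun i => (m i : ℝ)) b := by
    intro m
    refine Finset.sum_congr rfl fun i _ => ?_
    rw [Int.cast_smul_eq_zsmul]
  constructor
  · intro h
    obtain ⟨rfl, m, hm⟩ := (t.eq_iff hb hb').1 h
    refine ⟨rfl, m, ?_⟩
    have h1 : rl l (θ - θ' - fun i => (m i : ℝ)) b = 0 := by
      rw [rl_sub, rl_sub, ← hz, ← hm, sub_self]
    exact sub_eq_zero.1 (rl_inj (t.lli b hb) h1)
  · rintro ⟨rfl, m, hm⟩
    refine (t.eq_iff hb hb).2 ⟨rfl, m, ?_⟩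
    change rl l θ b - rl l θ' b = _
    rw [← rl_sub, hm, hz]

/-- every point of the tube is `Ξ (θ, b)` with `θ ∈ [0,1)^(2g)` -/
theorem Ξ_surj {x : M} (hx : x ∈ Nb) :
    y x ∈ ball b0 ε ∧ ∃ θ : Fin (2 * g) → ℝ, (∀ i, θ i ∈ Ico (0 : ℝ) 1) ∧ Ξ Ψ l (θ, y x) = x := by
  obtain ⟨hb, c, -, hc⟩ := t.cov x hx
  refine ⟨hb, ?_⟩
  obtain ⟨θ, hθ⟩ := rl_surj t hb c
  refine ⟨fun i => Int.fract (θ i), fun i => ⟨Int.fract_nonneg _, Int.fract_lt_one _⟩, ?_⟩
  have h1 : Ξ Ψ l (fun i => Int.fract (θ i), y x) = Ξ Ψ l (θ, y x) := by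
    refine (Ξ_eq_iff t hb hb).2 ⟨rfl, fun i => - ⌊θ i⌋, ?_⟩
    funext i
    simp only [Pi.sub_apply, Int.cast_neg]
    rw [Int.fract]
    ring
  rw [h1, Ξ, hθ, hc]

/-- holomorphic sections of constant real angle -/
theorem Ξ_sec (θ : Fin (2 * g) → ℝ) {b : F} (hb : b ∈ ball b0 ε) :
    HolC A (fun b => Ξ Ψ l (θ, b)) b ∧ y (Ξ Ψ l (θ, b)) = b := by
  refine ⟨?_, t.y_eq _ b hb⟩
  have hl : DifferentiableAt ℂ (fun b => rl l θ b) b := by
    refine DifferentiableAt.fun_sum fun i _ => ?_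
    have := (t.lhol i).differentiableAt (isOpen_ball.mem_nhds hb)
    have h2 := this.const_smul ((θ i : ℂ))
    refine h2.congr_of_eventuallyEq (Eventually.of_forall fun b => ?_)
    funext k
    simp
  exact HolC.comp (s := Ψ) (u := fun b => (rl l θ b, b)) (t.hol _ b hb)
    (hl.prodMk differentiableAt_id)

/-- translation by a constant real angle maps the tube to itself -/
theorem Ξ_cont (θ : Fin (2 * g) → ℝ) {b : F} (hb : b ∈ ball b0 ε) :
    ContinuousAt (Ξ Ψ l) (θ, b) := by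
  have hl : ContinuousAt (fun q : (Fin (2 * g) → ℝ) × F => rl l q.1 q.2) (θ, b) := by
    refine tendsto_finsetSum _ fun i _ => ?_
    have h1 : ContinuousAt (fun q : (Fin (2 * g) → ℝ) × F => q.1 i) (θ, b) := by fun_prop
    have h2 : ContinuousAt (fun q : (Fin (2 * g) → ℝ) × F => l i q.2) (θ, b) :=
      ContinuousAt.comp (g := l i) (f := fun q : (Fin (2 * g) → ℝ) × F => q.2)
        ((t.lhol i).differentiableAt (isOpen_ball.mem_nhds hb)).continuousAt continuousAt_snd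
    exact h1.smul h2
  exact ContinuousAt.comp (g := Ψ) (f := fun q : (Fin (2 * g) → ℝ) × F => (rl l q.1 q.2, q.2))
    (t.contAt _ hb) (hl.prodMk continuousAt_snd)

end Real

end

end Crest.Agent.R281.Aa8_836
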