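import Crest.Agent.R273.HFlow5_376
import Crest.Agent.R281.Defs_273

/-!
# R281 (S0424), S6-AA-HAM (helper690): Hamiltonian vector fields of holomorphic functions.

`bl S`        : the bilinear form of a matrix on `Cn n`;
`hv S φ`      : the vector with `bl S (hv S φ) = φ`;
`bracket`     : abstract identity `ι_[X,Y] σ = - d (σ (X, Y))` for closed `σ`;
`dy y i x`    : the differential of `y : M → ℂ` in the chart `i`;
`Cl σ`        : the holomorphic 2-form `σ : H2 A` is closed;
`ham σ hy`    : the Hamiltonian field of `y` as `HVF A`;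
`pb σ y y'`   : the Poisson bracket;
`comm_ham`    : `{y, y'} = 0` and `σ` closed imply that the fields commute.
-/

set_option autoImplicit false
set_option linter.unusedSectionVars false

open Set Filter Topology Complex
open scoped Matrix

namespace Crest.Agent.R281.AaH1_690

open Crest.Agent.R275.Geo Crest.Agent.R275.Core144
open Crest.Agent.R273.HFlow3_376 Crest.Agent.R273.HFlow4_376 Crest.Agent.R273.HFlow5_376
open Crest.Agent.R281.Defs_273

noncomputable section

/-! ### abstract calculus -/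

section Abs

variable {E : Type*} [NormedAddCommGroup E] [NormedSpace ℂ E]

/-- `ι_[X,Y] σ = - d (σ (X, Y))` -/
theorem bracket {B : E → E →L[ℂ] E →L[ℂ] ℂ} {y y' : E → ℂ} {X Y : E → E} {z : E}
    (hB : DifferentiableAt ℂ B z) (halt : ∀ᶠ w in 𝓝 z, ∀ u v, B w u v = - B w v u)
    (hcl : ∀ u v w, fderiv ℂ B z u v w + fderiv ℂ B z v w u + fderiv ℂ B z w u v = 0)
    (hX : DifferentiableAt ℂ X z) (hY : DifferentiableAt ℂ Y z)
    (hyX : ∀ᶠ w in 𝓝 z, B w (X w) = fderiv ℂ y w)
    (hyY : ∀ᶠ w in 𝓝 z, B w (Y w) = fderiv ℂ y' w)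
    (sy : ∀ u v, fderiv ℂ (fderiv ℂ y) z u v = fderiv ℂ (fderiv ℂ y) z v u)
    (sy' : ∀ u v, fderiv ℂ (fderiv ℂ y') z u v = fderiv ℂ (fderiv ℂ y') z v u) (b : E) :
    B z (fderiv ℂ Y z (X z) - fderiv ℂ X z (Y z)) b =
      - fderiv ℂ (fun w => B w (X w) (Y w)) z b := by
  -- the derivative of `B` is alternating
  have dalt : ∀ c u v, fderiv ℂ B z c u v = - fderiv ℂ B z c v u := by
    intro c u v
    have hu := hasFDerivAt_const (𝕜 := ℂ) (E := E) u z
    have hv := hasFDerivAt_const (𝕜 := ℂ) (E := E) v z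
    have h1 := (hB.hasFDerivAt.clm_apply hu).clm_apply hv
    have h2 := (hB.hasFDerivAt.clm_apply hv).clm_apply hu
    have h3 : (fun w => B w u v) =ᶠ[𝓝 z] fun w => - B w v u := by
      filter_upwards [halt] with w hw using hw u v
    have h4 := h3.fderiv_eq (𝕜 := ℂ)
    rw [h1.fderiv, h2.fun_neg.fderiv] at h4
    simpa using congrArg (fun L : E →L[ℂ] ℂ => L c) h4
  have DX : ∀ c, fderiv ℂ (fderiv ℂ y) z c = B z (fderiv ℂ X z c) + fderiv ℂ B z c (X z) := by
    intro c
    have h1 : HasFDerivAt (fun w => B w (X w)) _ z := hB.hasFDerivAt.clm_apply hX.hasFDerivAt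
    rw [← (show (fun w => B w (X w)) =ᶠ[𝓝 z] fderiv ℂ y from hyX).fderiv_eq, h1.fderiv]
    simp
  have DY : ∀ c, fderiv ℂ (fderiv ℂ y') z c = B z (fderiv ℂ Y z c) + fderiv ℂ B z c (Y z) := by
    intro c
    have h1 : HasFDerivAt (fun w => B w (Y w)) _ z := hB.hasFDerivAt.clm_apply hY.hasFDerivAt
    rw [← (show (fun w => B w (Y w)) =ᶠ[𝓝 z] fderiv ℂ y' from hyY).fderiv_eq, h1.fderiv]
    simp
  have DP : fderiv ℂ (fun w => B w (X w) (Y w)) z b =
      B z (X z) (fderiv ℂ Y z b) + B z (fderiv ℂ X z b) (Y z) + fderiv ℂ B z b (X z) (Y z) := by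
    have h1 : HasFDerivAt (fun w => B w (X w)) _ z := hB.hasFDerivAt.clm_apply hX.hasFDerivAt
    have h2 : HasFDerivAt (fun w => B w (X w) (Y w)) _ z := h1.clm_apply hY.hasFDerivAt
    rw [h2.fderiv]
    simp [add_assoc]
  have a0 := halt.self_of_nhds
  have e1 := congrArg (fun L : E →L[ℂ] ℂ => L b) (DY (X z))
  have e2 := congrArg (fun L : E →L[ℂ] ℂ => L b) (DX (Y z))
  have e3 := congrArg (fun L : E →L[ℂ] ℂ => L (Y z)) (DX b)
  have e4 := congrArg (fun L : E →L[ℂ] ℂ => L (X z)) (DY b)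
  simp only [add_apply] at e1 e2 e3 e4
  rw [map_sub, sub_apply, DP]
  have s1 := sy (Y z) b
  have s2 := sy' (X z) b
  have c1 := hcl (X z) (Y z) b
  have d1 := dalt (Y z) b (X z)
  have d2 := dalt b (X z) (Y z)
  have a1 := a0 (X z) (fderiv ℂ Y z b)
  linear_combination -e1 + e2 + a1 + e4 - e3 + s2 - s1 - c1 + d1 + d2

end Abs

/-! ### matrices -/

section Mat

variable {n : ℕ} {E : Type*} [NormedAddCommGroup E] [NormedSpace ℂ E]

/-- the bilinear form of a matrix -/
def bl (S : Matrix (Fin n) (Fin n) ℂ) : Cn n →L[ℂ] Cn n →L[ℂ] ℂ :=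
  ∑ a, ∑ b, S a b • (EuclideanSpace.proj a : Cn n →L[ℂ] ℂ).smulRight
    (EuclideanSpace.proj b : Cn n →L[ℂ] ℂ)

theorem bl_apply (S : Matrix (Fin n) (Fin n) ℂ) (u v : Cn n) :
    bl S u v = ∑ a, ∑ b, S a b * (u a * v b) := by
  simp [bl]

theorem bl_single (S : Matrix (Fin n) (Fin n) ℂ) (a b : Fin n) :
    bl S (EuclideanSpace.single a 1) (EuclideanSpace.single b 1) = S a b := by
  rw [bl_apply, Finset.sum_eq_single a, Finset.sum_eq_single b]
  · simp
  · intro c _ hc; simp [hc]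
  · simp
  · intro c _ hc; simp [hc]
  · simp

theorem ext2 {L L' : Cn n →L[ℂ] ℂ}
    (h : ∀ a, L (EuclideanSpace.single a 1) = L' (EuclideanSpace.single a 1)) : L = L' := by
  have h1 : (L : Cn n →ₗ[ℂ] ℂ) = (L' : Cn n →ₗ[ℂ] ℂ) := by
    refine (EuclideanSpace.basisFun (Fin n) ℂ).toBasis.ext fun a => ?_
    simpa using h a
  exact ContinuousLinearMap.coe_injective h1

theorem ext3 {L L' : Cn n →L[ℂ] Cn n →L[ℂ] ℂ}
    (h : ∀ a b, L (EuclideanSpace.single a 1) (EuclideanSpace.single b 1) =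
      L' (EuclideanSpace.single a 1) (EuclideanSpace.single b 1)) : L = L' := by
  have h1 : (L : Cn n →ₗ[ℂ] (Cn n →L[ℂ] ℂ)) = (L' : Cn n →ₗ[ℂ] (Cn n →L[ℂ] ℂ)) := by
    refine (EuclideanSpace.basisFun (Fin n) ℂ).toBasis.ext fun a => ?_
    simpa using ext2 fun b => h a b
  exact ContinuousLinearMap.coe_injective h1

theorem smul_diffAt {F : Type*} [NormedAddCommGroup F] [NormedSpace ℂ F] {f : E → ℂ} {z : E}
    (h : DifferentiableAt ℂ f z) (v : F) : DifferentiableAt ℂ (fun w => f w • v) z :=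
  h.smul_const v

theorem sum_diffAt {F : Type*} [NormedAddCommGroup F] [NormedSpace ℂ F] {κ : Type*}
    (t : Finset κ) {f : κ → E → F} {z : E} (h : ∀ i, DifferentiableAt ℂ (f i) z) :
    DifferentiableAt ℂ (fun w => ∑ i ∈ t, f i w) z :=
  DifferentiableAt.fun_sum fun i _ => h i

theorem bl_diffAt {S : E → Matrix (Fin n) (Fin n) ℂ} {z : E}
    (h : ∀ a b, DifferentiableAt ℂ (fun w => S w a b) z) :
    DifferentiableAt ℂ (fun w => bl (S w)) z := by
  have h1 : ∀ a b, DifferentiableAt ℂ (fun w => S w a b •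
      (EuclideanSpace.proj a : Cn n →L[ℂ] ℂ).smulRight (EuclideanSpace.proj b : Cn n →L[ℂ] ℂ)) z :=
    fun a b => smul_diffAt (F := Cn n →L[ℂ] Cn n →L[ℂ] ℂ) (h a b) _
  exact sum_diffAt (F := Cn n →L[ℂ] Cn n →L[ℂ] ℂ) _ fun a =>
    sum_diffAt (F := Cn n →L[ℂ] Cn n →L[ℂ] ℂ) _ fun b => h1 a b

theorem fderiv_bl {S : E → Matrix (Fin n) (Fin n) ℂ} {z : E}
    (h : ∀ a b, DifferentiableAt ℂ (fun w => S w a b) z) (c : E) (u v : Cn n) :
    fderiv ℂ (fun w => bl (S w)) z c u v =
      bl (Matrix.of fun a b => fderiv ℂ (fun w => S w a b) z c) u v := by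
  have hu := hasFDerivAt_const (𝕜 := ℂ) (E := E) u z
  have hv := hasFDerivAt_const (𝕜 := ℂ) (E := E) v z
  have h0 := ((bl_diffAt h).hasFDerivAt.clm_apply hu).clm_apply hv
  have h1 : fderiv ℂ (fun w => bl (S w) u v) z c = fderiv ℂ (fun w => bl (S w)) z c u v := by
    rw [h0.fderiv]; simp
  have h2 : HasFDerivAt (fun w => bl (S w) u v)
      (∑ a, ∑ b, (u a * v b) • fderiv ℂ (fun w => S w a b) z) z := by
    simp only [bl_apply]
    refine HasFDerivAt.fun_sum fun a _ => HasFDerivAt.fun_sum fun b _ => ?_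
    exact (h a b).hasFDerivAt.mul_const _
  rw [← h1, h2.fderiv, bl_apply]
  simp only [sum_apply, smul_apply, smul_eq_mul,
    Matrix.of_apply]
  exact Finset.sum_congr rfl fun a _ => Finset.sum_congr rfl fun b _ => by ring

/-- the vector dual to a linear form -/
def hv (S : Matrix (Fin n) (Fin n) ℂ) (φ : Cn n →L[ℂ] ℂ) : Cn n :=
  WithLp.toLp 2 fun a => ∑ b, S⁻¹ b a * φ (EuclideanSpace.single b 1)

theorem hv_apply (S : Matrix (Fin n) (Fin n) ℂ) (φ : Cn n →L[ℂ] ℂ) (a : Fin n) :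
    hv S φ a = ∑ b, S⁻¹ b a * φ (EuclideanSpace.single b 1) := rfl

theorem bl_right_single (S : Matrix (Fin n) (Fin n) ℂ) (u : Cn n) (c : Fin n) :
    bl S u (EuclideanSpace.single c 1) = ∑ a, S a c * u a := by
  rw [bl_apply]
  refine Finset.sum_congr rfl fun a _ => ?_
  rw [Finset.sum_eq_single c]
  · simp
  · intro d _ hd; simp [hd]
  · simp

theorem bl_hv {S : Matrix (Fin n) (Fin n) ℂ} (hS : S.det ≠ 0) (φ : Cn n →L[ℂ] ℂ) :
    bl S (hv S φ) = φ := by
  refine ext2 fun c => ?_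
  rw [bl_right_single]
  simp only [hv_apply, Finset.mul_sum]
  rw [Finset.sum_comm]
  have h1 : S⁻¹ * S = 1 := Matrix.nonsing_inv_mul S (isUnit_iff_ne_zero.2 hS)
  have h2 : ∀ b, ∑ a, S a c * (S⁻¹ b a * φ (EuclideanSpace.single b 1)) =
      (1 : Matrix (Fin n) (Fin n) ℂ) b c * φ (EuclideanSpace.single b 1) := by
    intro b
    rw [← h1, Matrix.mul_apply, Finset.sum_mul]
    exact Finset.sum_congr rfl fun a _ => by ring
  rw [Finset.sum_congr rfl fun b _ => h2 b, Finset.sum_eq_single c]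
  · simp
  · intro b _ hb; simp [hb]
  · simp

theorem bl_inj {S : Matrix (Fin n) (Fin n) ℂ} (hS : S.det ≠ 0) {u : Cn n} (h : bl S u = 0) :
    u = 0 := by
  have h1 : (u : Fin n → ℂ) ᵥ* S = 0 := by
    funext c
    have := congrArg (fun L : Cn n →L[ℂ] ℂ => L (EuclideanSpace.single c 1)) h
    simp only [bl_right_single, zero_apply] at this
    rw [Matrix.vecMul, dotProduct, Pi.zero_apply, ← this]
    exact Finset.sum_congr rfl fun a _ => mul_comm _ _
  have h2 := Matrix.eq_zero_of_vecMul_eq_zero hS h1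
  ext a
  exact congrFun h2 a

theorem diffAt_prod {κ : Type*} [DecidableEq κ] (t : Finset κ) {f : κ → E → ℂ} {z : E}
    (h : ∀ i, DifferentiableAt ℂ (f i) z) : DifferentiableAt ℂ (fun w => ∏ i ∈ t, f i w) z := by
  induction t using Finset.induction_on with
  | empty => simp
  | insert i t hi ih =>
    simp only [Finset.prod_insert hi]
    exact (h i).mul ih

theorem diffAt_det {S : E → Matrix (Fin n) (Fin n) ℂ} {z : E}
    (h : ∀ a b, DifferentiableAt ℂ (fun w => S w a b) z) :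
    DifferentiableAt ℂ (fun w => (S w).det) z := by
  have e : (fun w => (S w).det) = fun w => ∑ σ : Equiv.Perm (Fin n),
      ((Equiv.Perm.sign σ : ℤ) : ℂ) * ∏ i, S w (σ i) i := by
    funext w
    rw [Matrix.det_apply']
  rw [e]
  refine DifferentiableAt.fun_sum fun σ _ => ?_
  refine (differentiableAt_const _).mul ?_
  exact diffAt_prod Finset.univ fun i => h (σ i) i

theorem diffAt_inv {S : E → Matrix (Fin n) (Fin n) ℂ} {z : E}
    (h : ∀ a b, DifferentiableAt ℂ (fun w => S w a b) z) (hd : (S z).det ≠ 0) (a b : Fin n) :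
    DifferentiableAt ℂ (fun w => (S w)⁻¹ a b) z := by
  have e : (fun w => (S w)⁻¹ a b) =
      fun w => ((S w).det)⁻¹ * ((S w).updateRow b (Pi.single a 1)).det := by
    funext w
    rw [Matrix.inv_def, Ring.inverse_eq_inv', Matrix.smul_apply, smul_eq_mul,
      Matrix.adjugate_apply]
  rw [e]
  refine ((diffAt_det h).inv hd).mul (diffAt_det fun c d => ?_)
  by_cases hc : c = b
  · subst hc
    simp only [Matrix.updateRow_self]
    exact differentiableAt_const _
  · simp only [Matrix.updateRow_ne hc]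
    exact h c d

theorem hv_diffAt {S : E → Matrix (Fin n) (Fin n) ℂ} {φ : E → Cn n →L[ℂ] ℂ} {z : E}
    (h : ∀ a b, DifferentiableAt ℂ (fun w => S w a b) z) (hd : (S z).det ≠ 0)
    (hφ : DifferentiableAt ℂ φ z) : DifferentiableAt ℂ (fun w => hv (S w) (φ w)) z := by
  rw [differentiableAt_euclidean]
  intro a
  simp only [hv_apply]
  refine DifferentiableAt.fun_sum fun b _ => ?_
  exact (diffAt_inv h hd b a).mul (hφ.clm_apply (differentiableAt_const _))

theorem apply_hv (S : Matrix (Fin n) (Fin n) ℂ) (φ ψ : Cn n →L[ℂ] ℂ) :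
    ψ (hv S φ) = ∑ a, ∑ b, S⁻¹ b a * φ (EuclideanSpace.single b 1) *
      ψ (EuclideanSpace.single a 1) := by
  have h1 : hv S φ = ∑ a, (hv S φ a) • EuclideanSpace.single a (1 : ℂ) := by
    ext c
    simp [Pi.single_apply]
  rw [h1, map_sum]
  refine Finset.sum_congr rfl fun a _ => ?_
  rw [map_smul, smul_eq_mul, hv_apply, Finset.sum_mul]

/-- `hv S` as a linear map -/
def hvL (S : Matrix (Fin n) (Fin n) ℂ) : (Cn n →L[ℂ] ℂ) →ₗ[ℂ] Cn n where
  toFun := hv S
  map_add' φ ψ := by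
    ext a
    simp [hv_apply, mul_add, Finset.sum_add_distrib]
  map_smul' c φ := by
    ext a
    simp only [hv_apply, smul_apply, smul_eq_mul, RingHom.id_apply, PiLp.smul_apply,
      Finset.mul_sum]
    exact Finset.sum_congr rfl fun b _ => by ring

theorem hvL_ker {S : Matrix (Fin n) (Fin n) ℂ} (hS : S.det ≠ 0) : LinearMap.ker (hvL S) = ⊥ := by
  rw [LinearMap.ker_eq_bot']
  intro φ h
  have h1 : hv S φ = 0 := h
  have h2 := bl_hv hS φ
  rw [h1, map_zero] at h2
  exact h2.symm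

end Mat

/-! ### the fields -/

section Atlas

variable {n : ℕ} {M : Type} [TopologicalSpace M] {A : Atl n M}

/-- the differential of a function in the chart `i` -/
def dy (A : Atl n M) (y : M → ℂ) (i : A.ι) (x : M) : Cn n →L[ℂ] ℂ :=
  fderiv ℂ (fun z => y ((A.e i).symm z)) (A.e i x)

/-- the differential of the change of charts -/
def TT (A : Atl n M) (i j : A.ι) (x : M) : Cn n →L[ℂ] Cn n :=
  fderiv ℂ (fun z => A.e j ((A.e i).symm z)) (A.e i x)

theorem TT_single (i j : A.ι) (x : M) (a b : Fin n) :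
    TT A i j x (EuclideanSpace.single a 1) b = Jm A i j x b a := rfl

theorem dy_tr {y : M → ℂ} (hy : ∀ i, HolAt A i univ y) {i j : A.ι} {x : M}
    (hi : x ∈ (A.e i).source) (hj : x ∈ (A.e j).source) :
    dy A y i x = (dy A y j x).comp (TT A i j x) := by
  have h1 : DifferentiableAt ℂ (fun z => y ((A.e j).symm z)) (A.e j ((A.e i).symm (A.e i x))) := by
    rw [(A.e i).left_inv hi]
    exact (hy j).diffAt isOpen_univ hj (mem_univ _)
  have h2 := h1.hasFDerivAt.comp (A.e i x) (chg_diffAt A hi hj).hasFDerivAt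
  have h3 : (fun z => y ((A.e i).symm z)) =ᶠ[𝓝 (A.e i x)]
      (fun z => y ((A.e j).symm z)) ∘ fun z => A.e j ((A.e i).symm z) := by
    have ho : A.e i x ∈ {z | z ∈ (A.e i).target ∧ (A.e i).symm z ∈ (A.e j).source} :=
      ⟨(A.e i).map_source hi, by rw [(A.e i).left_inv hi]; exact hj⟩
    filter_upwards [(isOpen_ov A i j).mem_nhds ho] with z hz
    simp only [Function.comp_apply]
    rw [(A.e j).left_inv hz.2]
  rw [dy, h3.fderiv_eq, h2.fderiv, (A.e i).left_inv hi]
  rfl

theorem bl_tr (σ : H2 A) {i j : A.ι} {x : M} (hi : x ∈ (A.e i).source)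
    (hj : x ∈ (A.e j).source) (u v : Cn n) :
    bl (σ.s i x) u v = bl (σ.s j x) (TT A i j x u) (TT A i j x v) := by
  have h : bl (σ.s i x) = ((ContinuousLinearMap.compL ℂ (Cn n) (Cn n) ℂ).flip (TT A i j x)).comp
      ((bl (σ.s j x)).comp (TT A i j x)) := by
    refine ext3 fun a b => ?_
    rw [bl_single, σ.tr i j x ⟨hi, hj⟩]
    simp only [ContinuousLinearMap.comp_apply, ContinuousLinearMap.flip_apply,
      ContinuousLinearMap.compL_apply]
    rw [bl_apply, Matrix.mul_apply]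
    simp only [Matrix.mul_apply, Matrix.transpose_apply, TT_single, Finset.sum_mul]
    rw [Finset.sum_comm]
    exact Finset.sum_congr rfl fun c _ => Finset.sum_congr rfl fun d _ => by ring
  rw [h]
  rfl

theorem TT_surj {i j : A.ι} {x : M} (hi : x ∈ (A.e i).source) (hj : x ∈ (A.e j).source)
    (v : Cn n) : TT A i j x (TT A j i x v) = v := by
  have h1 : DifferentiableAt ℂ (fun z => A.e j ((A.e i).symm z))
      (A.e i ((A.e j).symm (A.e j x))) := by
    rw [(A.e j).left_inv hj]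
    exact chg_diffAt A hi hj
  have h2 := h1.hasFDerivAt.comp (A.e j x) (chg_diffAt A hj hi).hasFDerivAt
  have h3 : ((fun z => A.e j ((A.e i).symm z)) ∘ fun z => A.e i ((A.e j).symm z))
      =ᶠ[𝓝 (A.e j x)] id := by
    have ho : A.e j x ∈ {z | z ∈ (A.e j).target ∧ (A.e j).symm z ∈ (A.e i).source} :=
      ⟨(A.e j).map_source hj, by rw [(A.e j).left_inv hj]; exact hi⟩
    filter_upwards [(isOpen_ov A j i).mem_nhds ho] with z hz
    simp only [Function.comp_apply, id]
    rw [(A.e i).left_inv hz.2, (A.e j).right_inv hz.1]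
  have h4 := h3.fderiv_eq (𝕜 := ℂ)
  rw [h2.fderiv, fderiv_id, (A.e j).left_inv hj] at h4
  exact congrArg (fun L : Cn n →L[ℂ] Cn n => L v) h4

/-- analyticity of holomorphic functions in charts -/
theorem ana {y : M → ℂ} (hy : ∀ i, HolAt A i univ y) (i : A.ι) {z : Cn n}
    (hz : z ∈ (A.e i).target) : AnalyticAt ℂ (fun z => y ((A.e i).symm z)) z := by
  refine Crest.Agent.R266.SCV.analyticAt_of_eventually_differentiableAt ?_
  filter_upwards [(A.e i).open_target.mem_nhds hz] with w hw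
  have := (hy i).diffAt isOpen_univ ((A.e i).map_target hw) (mem_univ _)
  rwa [(A.e i).right_inv hw] at this

theorem s_diffAt (σ : H2 A) (i : A.ι) {z : Cn n} (hz : z ∈ (A.e i).target) (a b : Fin n) :
    DifferentiableAt ℂ (fun w => σ.s i ((A.e i).symm w) a b) z := by
  have := (σ.hol i a b).diffAt isOpen_univ ((A.e i).map_target hz) (mem_univ _)
  rwa [(A.e i).right_inv hz] at this

/-- the Hamiltonian field: `σ (ham, ·) = d y` -/
def ham (σ : HSymp A) {y : M → ℂ} (hy : ∀ i, HolAt A i univ y) : HVF A where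
  X i x := hv (σ.s i x) (dy A y i x)
  hol i := by
    intro z hz
    refine DifferentiableAt.differentiableWithinAt ?_
    have h1 : DifferentiableAt ℂ (fun w => hv (σ.s i ((A.e i).symm w))
        (fderiv ℂ (fun z => y ((A.e i).symm z)) w)) z :=
      hv_diffAt (s_diffAt σ.toH2 i hz) (σ.nd i _ ((A.e i).map_target hz))
        (ana hy i hz).fderiv.differentiableAt
    refine h1.congr_of_eventuallyEq ?_
    filter_upwards [(A.e i).open_target.mem_nhds hz] with w hw
    simp only [dy]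
    rw [(A.e i).right_inv hw]
  tr i j x hx := by
    have hS := σ.nd j x hx.2
    show _ = TT A i j x _
    rw [← sub_eq_zero]
    refine bl_inj hS (ContinuousLinearMap.ext fun v => ?_)
    rw [← TT_surj hx.1 hx.2 v, map_sub, sub_apply, ← bl_tr σ.toH2 hx.1 hx.2, bl_hv hS,
      bl_hv (σ.nd i x hx.1), dy_tr hy hx.1 hx.2]
    simp

theorem ham_X (σ : HSymp A) {y : M → ℂ} (hy : ∀ i, HolAt A i univ y) (i : A.ι) (x : M) :
    (ham σ hy).X i x = hv (σ.s i x) (dy A y i x) := rfl

/-- `σ (ham, ·) = d y` -/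
theorem bl_ham (σ : HSymp A) {y : M → ℂ} (hy : ∀ i, HolAt A i univ y) {i : A.ι} {x : M}
    (hi : x ∈ (A.e i).source) : bl (σ.s i x) ((ham σ hy).X i x) = dy A y i x :=
  bl_hv (σ.nd i x hi) _

theorem det_tr (σ : H2 A) {i j : A.ι} {x : M} (hi : x ∈ (A.e i).source)
    (hj : x ∈ (A.e j).source) :
    (σ.s i x).det = (Jm A i j x).det ^ 2 * (σ.s j x).det := by
  rw [σ.tr i j x ⟨hi, hj⟩, Matrix.det_mul, Matrix.det_mul, Matrix.det_transpose]
  ring

/-- the Poisson bracket `{y, y'} = d y' (ham y)` in the chart `i` -/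
def pb (σ : H2 A) (y y' : M → ℂ) (i : A.ι) (x : M) : ℂ :=
  dy A y' i x (hv (σ.s i x) (dy A y i x))

theorem pb_eq (σ : H2 A) (y y' : M → ℂ) (i : A.ι) (x : M) :
    pb σ y y' i x = ∑ a, ∑ b, (σ.s i x)⁻¹ b a * dy A y i x (EuclideanSpace.single b 1) *
      dy A y' i x (EuclideanSpace.single a 1) := apply_hv _ _ _

/-- the bracket does not depend on the chart -/
theorem pb_indep (σ : HSymp A) {y y' : M → ℂ} (hy : ∀ i, HolAt A i univ y)
    (hy' : ∀ i, HolAt A i univ y') {i j : A.ι} {x : M} (hi : x ∈ (A.e i).source)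
    (hj : x ∈ (A.e j).source) : pb σ.toH2 y y' i x = pb σ.toH2 y y' j x := by
  have h1 := (ham σ hy).tr i j x ⟨hi, hj⟩
  rw [pb, pb, ← ham_X σ hy, ← ham_X σ hy, h1, dy_tr hy' hi hj]
  rfl

theorem alt_bl (σ : H2 A) {i : A.ι} {x : M} (hi : x ∈ (A.e i).source) (u v : Cn n) :
    bl (σ.s i x) u v = - bl (σ.s i x) v u := by
  rw [bl_apply, bl_apply, ← Finset.sum_neg_distrib, Finset.sum_comm]
  refine Finset.sum_congr rfl fun b _ => ?_
  rw [← Finset.sum_neg_distrib]
  refine Finset.sum_congr rfl fun a _ => ?_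
  have h := congrFun (congrFun (σ.alt i x hi) b) a
  rw [Matrix.transpose_apply, Matrix.neg_apply] at h
  rw [h]
  ring

/-- `σ (ham y, ham y') = {y', ...}` -/
theorem bl_ham_ham (σ : HSymp A) {y y' : M → ℂ} (hy : ∀ i, HolAt A i univ y)
    (hy' : ∀ i, HolAt A i univ y') {i : A.ι} {x : M} (hi : x ∈ (A.e i).source) :
    bl (σ.s i x) ((ham σ hy).X i x) ((ham σ hy').X i x) = - pb σ.toH2 y y' i x := by
  rw [alt_bl σ.toH2 hi, bl_ham σ hy' hi]
  rfl

theorem pb_symm (σ : HSymp A) {y y' : M → ℂ} (hy : ∀ i, HolAt A i univ y)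
    (hy' : ∀ i, HolAt A i univ y') {i : A.ι} {x : M} (hi : x ∈ (A.e i).source) :
    pb σ.toH2 y y' i x = - pb σ.toH2 y' y i x := by
  have h1 := bl_ham_ham σ hy hy' hi
  have h2 := bl_ham_ham σ hy' hy hi
  rw [alt_bl σ.toH2 hi, h2, neg_neg] at h1
  rw [h1, neg_neg]

/-- the holomorphic 2-form is closed -/
def Cl (σ : H2 A) : Prop := ∀ i, ∀ z ∈ (A.e i).target, ∀ a b c : Fin n,
  fderiv ℂ (fun w => σ.s i ((A.e i).symm w) b c) z (EuclideanSpace.single a 1) +
  fderiv ℂ (fun w => σ.s i ((A.e i).symm w) c a) z (EuclideanSpace.single b 1) +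
  fderiv ℂ (fun w => σ.s i ((A.e i).symm w) a b) z (EuclideanSpace.single c 1) = 0

theorem expand (z : Cn n) : z = ∑ a, z a • EuclideanSpace.single a (1 : ℂ) := by
  ext c
  simp [Pi.single_apply]

theorem cl_apply {σ : H2 A} (h : Cl σ) {i : A.ι} {z : Cn n} (hz : z ∈ (A.e i).target)
    (u v w : Cn n) :
    fderiv ℂ (fun w => bl (σ.s i ((A.e i).symm w))) z u v w +
    fderiv ℂ (fun w => bl (σ.s i ((A.e i).symm w))) z v w u +
    fderiv ℂ (fun w => bl (σ.s i ((A.e i).symm w))) z w u v = 0 := by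
  have key : ∀ u v w : Cn n, fderiv ℂ (fun w => bl (σ.s i ((A.e i).symm w))) z u v w =
      ∑ a, ∑ b, ∑ c, (u a * v b * w c) *
        fderiv ℂ (fun w => σ.s i ((A.e i).symm w) b c) z (EuclideanSpace.single a 1) := by
    intro u v w
    rw [fderiv_bl (fun a b => s_diffAt σ i hz a b), bl_apply]
    have e : ∀ b c, fderiv ℂ (fun w => σ.s i ((A.e i).symm w) b c) z u =
        ∑ a, u a * fderiv ℂ (fun w => σ.s i ((A.e i).symm w) b c) z
          (EuclideanSpace.single a 1) := by
      intro b c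
      conv_lhs => rw [expand u]
      rw [map_sum]
      exact Finset.sum_congr rfl fun a _ => by rw [map_smul, smul_eq_mul]
    simp only [Matrix.of_apply, e, Finset.sum_mul]
    rw [Finset.sum_congr rfl fun b _ => Finset.sum_comm, Finset.sum_comm]
    exact Finset.sum_congr rfl fun a _ => Finset.sum_congr rfl fun b _ =>
      Finset.sum_congr rfl fun c _ => by ring
  have k2 : fderiv ℂ (fun w => bl (σ.s i ((A.e i).symm w))) z v w u =
      ∑ a, ∑ b, ∑ c, (u a * v b * w c) *
        fderiv ℂ (fun w => σ.s i ((A.e i).symm w) c a) z (EuclideanSpace.single b 1) := by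
    rw [key v w u]
    -- sum over b, c, a
    rw [Finset.sum_congr rfl fun b _ => Finset.sum_comm, Finset.sum_comm]
    refine Finset.sum_congr rfl fun a _ => Finset.sum_congr rfl fun b _ =>
      Finset.sum_congr rfl fun c _ => by ring
  have k3 : fderiv ℂ (fun w => bl (σ.s i ((A.e i).symm w))) z w u v =
      ∑ a, ∑ b, ∑ c, (u a * v b * w c) *
        fderiv ℂ (fun w => σ.s i ((A.e i).symm w) a b) z (EuclideanSpace.single c 1) := by
    rw [key w u v]
    rw [Finset.sum_comm, Finset.sum_congr rfl fun a _ => Finset.sum_comm]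
    refine Finset.sum_congr rfl fun a _ => Finset.sum_congr rfl fun b _ =>
      Finset.sum_congr rfl fun c _ => by ring
  rw [key u v w, k2, k3, ← Finset.sum_add_distrib, ← Finset.sum_add_distrib]
  refine Finset.sum_eq_zero fun a _ => ?_
  rw [← Finset.sum_add_distrib, ← Finset.sum_add_distrib]
  refine Finset.sum_eq_zero fun b _ => ?_
  rw [← Finset.sum_add_distrib, ← Finset.sum_add_distrib]
  refine Finset.sum_eq_zero fun c _ => ?_
  rw [← mul_add, ← mul_add, h i z hz a b c, mul_zero]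

/-- Poisson commuting functions have commuting Hamiltonian fields -/
theorem comm_ham {σ : HSymp A} (hcl : Cl σ.toH2) {y y' : M → ℂ} (hy : ∀ i, HolAt A i univ y)
    (hy' : ∀ i, HolAt A i univ y')
    (h0 : ∀ i, ∀ x ∈ (A.e i).source, pb σ.toH2 y y' i x = 0) :
    Comm (ham σ hy) (ham σ hy') := by
  intro i z hz
  have ht := (A.e i).open_target.mem_nhds hz
  set B : Cn n → Cn n →L[ℂ] Cn n →L[ℂ] ℂ := fun w => bl (σ.s i ((A.e i).symm w)) with hB
  have hd : DifferentiableAt ℂ B z := bl_diffAt (s_diffAt σ.toH2 i hz)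
  have key := bracket (B := B) (y := fun z => y ((A.e i).symm z))
    (y' := fun z => y' ((A.e i).symm z)) (X := (ham σ hy).loc i) (Y := (ham σ hy').loc i) (z := z)
    hd ?_ (cl_apply hcl hz) (((ham σ hy).hol i).differentiableAt ht)
    (((ham σ hy').hol i).differentiableAt ht) ?_ ?_
    (fun u v => ((ana hy i hz).contDiffAt (n := 2)).isSymmSndFDerivAt (by simp) u v)
    (fun u v => ((ana hy' i hz).contDiffAt (n := 2)).isSymmSndFDerivAt (by simp) u v)
  · have h1 : (fun w => B w ((ham σ hy).loc i w) ((ham σ hy').loc i w)) =ᶠ[𝓝 z]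
        fun _ => (0 : ℂ) := by
      filter_upwards [ht] with w hw
      have := bl_ham_ham σ hy hy' ((A.e i).map_target hw)
      rw [h0 i _ ((A.e i).map_target hw), neg_zero] at this
      exact this
    have h2 : ∀ b, B z (fderiv ℂ ((ham σ hy').loc i) z ((ham σ hy).loc i z) -
        fderiv ℂ ((ham σ hy).loc i) z ((ham σ hy').loc i z)) b = 0 := by
      intro b
      rw [key b, h1.fderiv_eq]
      simp
    have h3 := bl_inj (σ.nd i _ ((A.e i).map_target hz)) (ContinuousLinearMap.ext h2)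
    exact sub_eq_zero.1 h3
  · filter_upwards [ht] with w hw
    exact alt_bl σ.toH2 ((A.e i).map_target hw)
  · filter_upwards [ht] with w hw
    have := bl_ham σ hy ((A.e i).map_target hw)
    rw [dy, (A.e i).right_inv hw] at this
    exact this
  · filter_upwards [ht] with w hw
    have := bl_ham σ hy' ((A.e i).map_target hw)
    rw [dy, (A.e i).right_inv hw] at this
    exact this

/-- `d y' (ham y) = {y, y'}` -/
theorem dy_ham (σ : HSymp A) {y : M → ℂ} (hy : ∀ i, HolAt A i univ y) (y' : M → ℂ) (i : A.ι)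
    (x : M) : dy A y' i x ((ham σ hy).X i x) = pb σ.toH2 y y' i x := rfl

/-- independent differentials give independent Hamiltonian fields -/
theorem linInd_ham (σ : HSymp A) {κ : Type*} {y : κ → M → ℂ} (hy : ∀ k i, HolAt A i univ (y k))
    {i : A.ι} {x : M} (hi : x ∈ (A.e i).source) :
    LinearIndependent ℂ (fun k => (ham σ (hy k)).X i x) ↔
      LinearIndependent ℂ (fun k => dy A (y k) i x) := by
  have h1 : (fun k => (ham σ (hy k)).X i x) = hvL (σ.s i x) ∘ fun k => dy A (y k) i x := rfl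
  rw [h1, LinearMap.linearIndependent_iff _ (hvL_ker (σ.nd i x hi))]

end Atlas

end

end Crest.Agent.R281.AaH1_690
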