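import Crest.Agent.R281.AaH1_690
import Crest.Agent.R281.HkP2_508

/-!
# R281 (S0424), S6-AA-HAM part 2 (helper690)

`cl_of_wd`, `cl_of_par`, `cl_of_kah` : closedness of holomorphic 2-forms in the form `Cl` of AaH1;
`ker_eq_span`  : `{y_a, y_b} = 0`, `n = 2 m` independent differentials: the tangent space of the fibre
                 is spanned by the Hamiltonian vectors, and it is Lagrangian (`lag_of_pb`);
`pb_of_lag`    : Lagrangian fibres give `{y_a, y_b} = 0`.
-/

set_option autoImplicit false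
set_option linter.unusedSectionVars false

open Set Filter Topology Complex
open scoped Matrix

namespace Crest.Agent.R281.AaH2_690

open Crest.Agent.R275.Geo Crest.Agent.R275.Core144 Crest.Agent.R275.EDR890
open Crest.Agent.R273.HFlow3_376 Crest.Agent.R273.HFlow5_376
open Crest.Agent.R273.Defs_333 Crest.Agent.R273.Kah_333 Crest.Agent.R273.Hess_333
open Crest.Agent.R273.HessB_333
open Crest.Agent.R281.Defs_273 Crest.Agent.R281.AaH1_690
open Crest.Agent.R281.HkP2_508 (RicFlat Par2)

noncomputable section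

/-! ### linear algebra -/

section Lin

variable {n m : ℕ}

/-- `bl S` as a bilinear form -/
def bf (S : Matrix (Fin n) (Fin n) ℂ) : LinearMap.BilinForm ℂ (Cn n) :=
  LinearMap.mk₂ ℂ (fun u v => bl S u v) (by simp) (by simp) (by simp) (by simp)

theorem bf_apply (S : Matrix (Fin n) (Fin n) ℂ) (u v : Cn n) : bf S u v = bl S u v := rfl

theorem bf_nondeg {S : Matrix (Fin n) (Fin n) ℂ} (hS : S.det ≠ 0) (hA : Sᵀ = - S) :
    (bf S).Nondegenerate := by
  have hl : ∀ u, (∀ v, bf S u v = 0) → u = 0 := fun u hu =>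
    bl_inj hS (ContinuousLinearMap.ext hu)
  have ha : ∀ u v, bl S u v = - bl S v u := by
    intro u v
    rw [bl_apply, bl_apply, ← Finset.sum_neg_distrib, Finset.sum_comm]
    refine Finset.sum_congr rfl fun b _ => ?_
    rw [← Finset.sum_neg_distrib]
    refine Finset.sum_congr rfl fun a _ => ?_
    have h := congrFun (congrFun hA b) a
    rw [Matrix.transpose_apply, Matrix.neg_apply] at h
    rw [h]
    ring
  refine ⟨hl, fun u hu => hl u fun v => ?_⟩
  rw [bf_apply, ha, ← bf_apply, hu v, neg_zero]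

variable {S : Matrix (Fin n) (Fin n) ℂ} (hS : S.det ≠ 0) (hA : Sᵀ = - S)
  {φ : Fin m → Cn n →L[ℂ] ℂ} (hI : LinearIndependent ℂ φ) (hm : n = m + m)

/-- the common kernel -/
def kr (φ : Fin m → Cn n →L[ℂ] ℂ) : Submodule ℂ (Cn n) where
  carrier := {u | ∀ k, φ k u = 0}
  add_mem' := fun hu hv k => by rw [map_add, hu k, hv k, add_zero]
  zero_mem' := fun k => map_zero _
  smul_mem' := fun c u hu k => by rw [map_smul, hu k, smul_zero]

theorem mem_kr {u : Cn n} : u ∈ kr φ ↔ ∀ k, φ k u = 0 := Iff.rfl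

/-- the span of the dual vectors -/
def sp (S : Matrix (Fin n) (Fin n) ℂ) (φ : Fin m → Cn n →L[ℂ] ℂ) : Submodule ℂ (Cn n) :=
  Submodule.span ℂ (range fun k => hv S (φ k))

include hS hI in
theorem finrank_sp : Module.finrank ℂ (sp S φ) = m := by
  have h1 : LinearIndependent ℂ (fun k => hv S (φ k)) := by
    have : (fun k => hv S (φ k)) = hvL S ∘ φ := rfl
    rw [this]
    exact hI.map' _ (hvL_ker hS)
  rw [sp, finrank_span_eq_card h1, Fintype.card_fin]

include hS in
theorem kr_le : kr φ ≤ (bf S).orthogonal (sp S φ) := by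
  intro v hv' u hu
  induction hu using Submodule.span_induction with
  | mem u h =>
    obtain ⟨k, rfl⟩ := h
    change bl S _ v = 0
    rw [bl_hv hS]
    exact hv' k
  | zero => simp
  | add u w _ _ hu hw =>
    have h1 : bf S u v = 0 := hu
    have h2 : bf S w v = 0 := hw
    change bf S (u + w) v = 0
    rw [map_add, LinearMap.add_apply, h1, h2, add_zero]
  | smul c u _ hu =>
    have h1 : bf S u v = 0 := hu
    change bf S (c • u) v = 0
    rw [map_smul, LinearMap.smul_apply, h1, smul_zero]

theorem le_finrank_kr : n ≤ m + Module.finrank ℂ (kr φ) := by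
  set L : Cn n →ₗ[ℂ] (Fin m → ℂ) := LinearMap.pi fun k => (φ k : Cn n →ₗ[ℂ] ℂ) with hL
  have h1 : LinearMap.ker L = kr φ := by
    ext u
    rw [LinearMap.mem_ker, mem_kr]
    constructor
    · intro h k
      exact congrFun h k
    · intro h
      funext k
      exact h k
  have h2 := LinearMap.finrank_range_add_finrank_ker L
  have h3 : Module.finrank ℂ (LinearMap.range L) ≤ m := by
    refine (Submodule.finrank_le _).trans ?_
    simp
  have h4 : Module.finrank ℂ (Cn n) = n := by simp
  rw [h1, h4] at h2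
  omega

include hS hA hI hm in
theorem finrank_kr : Module.finrank ℂ (kr φ) = m := by
  have h1 := le_finrank_kr (φ := φ)
  have h2 := Submodule.finrank_mono (kr_le hS (φ := φ))
  rw [LinearMap.BilinForm.finrank_orthogonal (bf_nondeg hS hA), finrank_sp hS hI] at h2
  have h4 : Module.finrank ℂ (Cn n) = n := by simp
  rw [h4] at h2
  omega

include hS hA hI hm in
/-- commuting functionals: the kernel is the span of the dual vectors -/
theorem kr_eq_sp (h0 : ∀ a b, φ b (hv S (φ a)) = 0) : kr φ = sp S φ := by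
  have h1 : sp S φ ≤ kr φ := by
    rw [sp, Submodule.span_le]
    rintro _ ⟨a, rfl⟩ b
    exact h0 a b
  exact (Submodule.eq_of_le_of_finrank_eq h1
    ((finrank_sp hS hI).trans (finrank_kr hS hA hI hm).symm)).symm

include hS hA hI hm in
theorem lag_of_comm (h0 : ∀ a b, φ b (hv S (φ a)) = 0) {u v : Cn n} (hu : u ∈ kr φ)
    (hv' : v ∈ kr φ) : bl S u v = 0 := by
  have h1 : u ∈ sp S φ := by rw [← kr_eq_sp hS hA hI hm h0]; exact hu
  exact kr_le hS hv' u h1

include hS hA hI hm in
theorem comm_of_lag (h0 : ∀ u ∈ kr φ, ∀ v ∈ kr φ, bl S u v = 0) (a b : Fin m) :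
    φ b (hv S (φ a)) = 0 := by
  have h1 : kr φ ⊔ sp S φ ≤ (bf S).orthogonal (kr φ) := by
    refine sup_le (fun v hv' u hu => h0 u hu v hv') ?_
    intro v hv' u hu
    have h2 := kr_le hS hu v hv'
    change bl S v u = 0 at h2
    change bl S u v = 0
    have ha : bl S u v = - bl S v u := by
      rw [bl_apply, bl_apply, ← Finset.sum_neg_distrib, Finset.sum_comm]
      refine Finset.sum_congr rfl fun b _ => ?_
      rw [← Finset.sum_neg_distrib]
      refine Finset.sum_congr rfl fun a _ => ?_
      have h := congrFun (congrFun hA b) a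
      rw [Matrix.transpose_apply, Matrix.neg_apply] at h
      rw [h]
      ring
    rw [ha, h2, neg_zero]
  have h2 := Submodule.finrank_mono h1
  rw [LinearMap.BilinForm.finrank_orthogonal (bf_nondeg hS hA), finrank_kr hS hA hI hm] at h2
  have h4 : Module.finrank ℂ (Cn n) = n := by simp
  rw [h4] at h2
  have h5 : kr φ = kr φ ⊔ sp S φ := by
    refine Submodule.eq_of_le_of_finrank_le le_sup_left ?_
    rw [finrank_kr hS hA hI hm]
    omega
  have h6 : hv S (φ a) ∈ kr φ := by
    rw [h5]
    exact Submodule.mem_sup_right (Submodule.subset_span ⟨a, rfl⟩)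
  exact h6 b

end Lin

/-! ### the atlas version -/

section Atlas

variable {n m : ℕ} {M : Type} [TopologicalSpace M] {A : Atl n M}

/-- closedness from the real form of the derivatives -/
theorem cl_of_wd {σ : H2 A} (h : ∀ i, ∀ z ∈ (A.e i).target, ∀ a b c,
    wd (false, c) (fun w => σ.s i ((A.e i).symm w) a b) z +
      wd (false, a) (fun w => σ.s i ((A.e i).symm w) b c) z +
      wd (false, b) (fun w => σ.s i ((A.e i).symm w) c a) z = 0) : Cl σ := by
  intro i z hz a b c
  have h1 := h i z hz b c a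
  rw [wd_hol' (s_diffAt σ i hz b c), wd_hol' (s_diffAt σ i hz c a),
    wd_hol' (s_diffAt σ i hz a b)] at h1
  exact h1

theorem cl_of_par {K : Kah A} {σ : H2 A} (h : Par2 K σ) : Cl σ :=
  cl_of_wd fun i _ hz a b c => HkP2_508.closed_of_par h i hz a b c

theorem cl_of_kah [T2Space M] [CompactSpace M] [Finite A.ι] (P : Part A) {K : Kah A}
    (hK : RicFlat K) (σ : H2 A) : Cl σ := cl_of_par (HkP2_508.par_h2 P hK σ)

variable {σ : HSymp A} {y : Fin m → M → ℂ} {i : A.ι} {x : M}

/-- the tangent space of the fibre is spanned by the Hamiltonian vectors -/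
theorem mem_span_of_pb (hm : n = m + m) (hi : x ∈ (A.e i).source)
    (hI : LinearIndependent ℂ fun k => dy A (y k) i x)
    (h0 : ∀ a b, pb σ.toH2 (y a) (y b) i x = 0) {u : Cn n} :
    (∀ k, dy A (y k) i x u = 0) ↔
      u ∈ Submodule.span ℂ (range fun k => hv (σ.s i x) (dy A (y k) i x)) := by
  have h1 := kr_eq_sp (σ.nd i x hi) (σ.alt i x hi) hI hm h0
  exact Iff.of_eq (congrArg (fun W : Submodule ℂ (Cn n) => u ∈ W) h1)

/-- Poisson commuting functions have Lagrangian fibres -/
theorem lag_of_pb (hm : n = m + m) (hi : x ∈ (A.e i).source)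
    (hI : LinearIndependent ℂ fun k => dy A (y k) i x)
    (h0 : ∀ a b, pb σ.toH2 (y a) (y b) i x = 0) {u v : Cn n}
    (hu : ∀ k, dy A (y k) i x u = 0) (hv' : ∀ k, dy A (y k) i x v = 0) :
    bl (σ.s i x) u v = 0 :=
  lag_of_comm (σ.nd i x hi) (σ.alt i x hi) hI hm h0 hu hv'

/-- Lagrangian fibres have Poisson commuting equations -/
theorem pb_of_lag (hm : n = m + m) (hi : x ∈ (A.e i).source)
    (hI : LinearIndependent ℂ fun k => dy A (y k) i x)
    (h0 : ∀ u v, (∀ k, dy A (y k) i x u = 0) → (∀ k, dy A (y k) i x v = 0) →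
      bl (σ.s i x) u v = 0) (a b : Fin m) : pb σ.toH2 (y a) (y b) i x = 0 :=
  comm_of_lag (σ.nd i x hi) (σ.alt i x hi) hI hm (fun u hu v hv' => h0 u v hu hv') a b

end Atlas

end

end Crest.Agent.R281.AaH2_690
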