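import Crest.Agent.R281.HkR8_835
import Crest.Agent.R260.NNB2_580

/-!
# Row 281, HK-ROT, part 9 (helper835): from the triple to `(K, σ)`

* `K11.kah`      : a positive (1,1)-form is a Kaehler metric
* `HkT.K0`, `HkT.S0` : triple on `ofAtl A` with `J 0 = i`  ==>  Kaehler metric, closed holomorphic
                   2-form with `s (gᵀ)⁻¹ s* = g`; `det g = |det s|`
* `cmp_of_cp`, `hk_J_I` : triple on real charts `C`, `A` a holomorphic atlas for `J k`
* `exists_rot`   : **rotation**: for every triple `H` and oriented orthonormal frame `R` there is a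
                   holomorphic atlas for the first complex structure of `H.rot R`
-/

set_option autoImplicit false
set_option linter.unusedSectionVars false

open Set Filter Topology Complex
open scoped ContDiff Matrix ComplexConjugate ComplexOrder InnerProductSpace

namespace Crest.Agent.R281.HkR_835

open Crest.Agent.R275.Geo Crest.Agent.R275.Core144 Crest.Agent.R275.EDR890
open Crest.Agent.R275.GC293
open Crest.Agent.R273.Kah_333 Crest.Agent.R273.Hess_333 Crest.Agent.R281.Defs_273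
open Crest.Agent.R273.NoHVF_376
open Crest.Agent.R260.ACM_580 Crest.Agent.R260.NNB_580
open Crest.Agent.R281.HkP1_508 Crest.Agent.R281.HkP2_508

noncomputable section

variable {d : ℕ} {X : Type} [TopologicalSpace X] {A : Atl d X}

theorem K11.closed' (K : K11 A) (i : A.ι) {z : Cn d} (hz : z ∈ (A.e i).target) (a b c : Fin d) :
    wd (true, c) (fun w => K.g i ((A.e i).symm w) a b) z =
      wd (true, b) (fun w => K.g i ((A.e i).symm w) a c) z := by
  have hd : ∀ a b, DifferentiableAt ℝ (fun w => K.g i ((A.e i).symm w) a b) z := fun a b =>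
    (((K.sm i a b).contDiffAt ((A.e i).open_target.mem_nhds hz)).differentiableAt (by simp))
  have h1 : ∀ a b c, wd (true, c) (fun w => K.g i ((A.e i).symm w) a b) z =
      conj (wd (false, c) (fun w => K.g i ((A.e i).symm w) b a) z) := by
    intro a b c
    rw [conj_wd _ (hd b a)]
    apply wd_congr
    filter_upwards [(A.e i).open_target.mem_nhds hz] with w hw
    have := congrFun (congrFun (K.herm i _ ((A.e i).map_target hw)).eq a) b
    simpa [Matrix.conjTranspose_apply] using this.symm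
  rw [h1, h1, K.closed i z hz]

/-- a positive (1,1)-form is a Kaehler metric -/
def K11.kah (K : K11 A) (hp : ∀ i, ∀ x ∈ (A.e i).source, (K.g i x).PosDef) : Kah A where
  g := K.g
  sm := K.sm
  pos := hp
  tr := K.tr
  closed := K.closed
  closed' i z hz a b c := K.closed' i hz a b c

/-! ### triples on a holomorphic atlas -/

section back

variable (H : HkT (ofAtl A)) (hJ : ∀ (i : A.ι), ∀ z ∈ (A.e i).target, ∀ v, H.J 0 i z v = I • v)

include hJ in
theorem om0_inv {i : A.ι} {z : Cn d} (hz : z ∈ (A.e i).target) (u v : Cn d) :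
    (H.om 0).w i z (I • u) (I • v) = (H.om 0).w i z u v := by
  rw [H.om_eq 0 i z hz, H.om_eq 0 i z hz, ← hJ i z hz u, ← hJ i z hz v, H.g_J 0 hz]

include hJ in
theorem om12 {i : A.ι} {z : Cn d} (hz : z ∈ (A.e i).target) (u v : Cn d) :
    (H.om 1).w i z (I • u) v = -(H.om 2).w i z u v := by
  rw [H.om_eq 1 i z hz, H.om_eq 2 i z hz, ← hJ i z hz u, H.J_10 hz, map_neg]
  rfl

/-- the (1,1)-form of the triple -/
def HkT.k0 : K11 A := (H.om 0).k11 fun _ _ hz u v => om0_inv H hJ hz u v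

/-- `h(u, v) = g(u, v) - i ω₀(u, v)` -/
theorem k0_hb {i : A.ι} {z : Cn d} (hz : z ∈ (A.e i).target) (u v : Cn d) :
    hb ((H.k0 hJ).g i ((A.e i).symm z)) u v =
      (H.g i z u v : ℂ) - I * ((H.om 0).w i z u v : ℂ) := by
  have e : (H.k0 hJ).g i ((A.e i).symm z) = GB ((H.om 0).w i z) := by
    show GB ((H.om 0).w i (A.e i ((A.e i).symm z))) = _
    rw [(A.e i).right_inv hz]
  rw [e, ← hw_eq (fun u v => om0_inv H hJ hz u v), hw]
  congr 2
  rw [H.om_eq 0 i z hz, ← hJ i z hz v, H.g_J 0 hz]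

theorem k0_pos (i : A.ι) (x : X) (hx : x ∈ (A.e i).source) : ((H.k0 hJ).g i x).PosDef := by
  refine Matrix.PosDef.of_dotProduct_mulVec_pos ((H.k0 hJ).herm i x hx) fun y hy => ?_
  set v : Cn d := WithLp.toLp 2 (fun b => conj (y b)) with hv
  have hz := (A.e i).map_source hx
  have h1 : star y ⬝ᵥ ((H.k0 hJ).g i x *ᵥ y) = hb ((H.k0 hJ).g i x) v v := by
    rw [hb_self]
    congr 2
    · funext b
      simp [hv]
    · funext b
      simp [hv]
  have hv0 : v ≠ 0 := by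
    intro h0
    apply hy
    funext b
    have : v b = 0 := by rw [h0]; rfl
    simpa [hv] using this
  have h2 := k0_hb H hJ hz v v
  rw [(A.e i).left_inv hx] at h2
  have h3 : (H.om 0).w i (A.e i x) v v = 0 := by
    have := (H.om 0).alt i _ hz v v
    linarith
  rw [h1, h2, h3]
  have h4 := H.g_pos i _ hz v hv0
  simp only [ofReal_zero, mul_zero, sub_zero]
  exact_mod_cast h4

/-- the Kaehler metric of the triple -/
def HkT.K0 : Kah A := (H.k0 hJ).kah (k0_pos H hJ)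

/-- the holomorphic 2-form of the triple -/
def HkT.S0 : H2 A := h20 (H.om 1) (H.om 2) fun _ _ hz u v => om12 H hJ hz u v

theorem S0_cl : ClH (H.S0 hJ) := h20_cl _ _ _

theorem S0_sb {i : A.ι} {z : Cn d} (hz : z ∈ (A.e i).target) (u v : Cn d) :
    sb (sl (H.S0 hJ) i z) u v = ((H.om 1).w i z u v : ℂ) + I * ((H.om 2).w i z u v : ℂ) :=
  sb_h20 _ _ _ hz u v

/-- `h(J₁ u, v) = conj (σ(u, v))` -/
theorem K0_J1 {i : A.ι} {z : Cn d} (hz : z ∈ (A.e i).target) (u v : Cn d) :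
    hb (gl (H.K0 hJ) i z) (H.J 1 i z u) v = conj (sb (sl (H.S0 hJ) i z) u v) := by
  have h1 : hb (gl (H.K0 hJ) i z) (H.J 1 i z u) v =
    (H.g i z (H.J 1 i z u) v : ℂ) - I * ((H.om 0).w i z (H.J 1 i z u) v : ℂ) :=
    k0_hb H hJ hz (H.J 1 i z u) v
  rw [h1, S0_sb H hJ hz, H.om_eq 0 i z hz, H.om_eq 1 i z hz, H.om_eq 2 i z hz, H.J_01 i z hz]
  simp
  ring

/-- **the quaternion relation** -/
theorem hr0 (i : A.ι) (x : X) (hx : x ∈ (A.e i).source) :
    (H.S0 hJ).s i x * (((H.K0 hJ).g i x)ᵀ)⁻¹ * ((H.S0 hJ).s i x)ᴴ = (H.K0 hJ).g i x := by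
  set z := A.e i x with hzd
  have hz : z ∈ (A.e i).target := (A.e i).map_source hx
  set G := (H.K0 hJ).g i x with hG
  set S := (H.S0 hJ).s i x with hS
  have eG : gl (H.K0 hJ) i z = G := by
    show (H.K0 hJ).g i ((A.e i).symm (A.e i x)) = _
    rw [(A.e i).left_inv hx]
  have eS : sl (H.S0 hJ) i z = S := by
    show (H.S0 hJ).s i ((A.e i).symm (A.e i x)) = _
    rw [(A.e i).left_inv hx]
  have hGp : G.PosDef := (H.K0 hJ).pos i x hx
  have hSk : Sᵀ = -S := (H.S0 hJ).alt i x hx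
  have hu : IsUnit G.det := isUnit_iff_ne_zero.2 hGp.det_pos.ne'
  -- conj (J₁ u) = G⁻¹ Sᵀ u
  have k1 : ∀ u : Cn d, (fun b => conj (H.J 1 i z u b)) = G⁻¹ *ᵥ (Sᵀ *ᵥ u.ofLp) := by
    intro u
    have e1 : ∀ v : Cn d, v.ofLp ⬝ᵥ (G *ᵥ fun b => conj (H.J 1 i z u b)) =
        v.ofLp ⬝ᵥ (Sᵀ *ᵥ u.ofLp) := by
      intro v
      have h1 := K0_J1 H hJ hz u v
      rw [eG, eS] at h1
      have h2 := congrArg conj h1
      rw [hb_conj hGp.isHermitian, Complex.conj_conj, hb_eq_dot, sb_eq_dot] at h2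
      rw [h2, Matrix.mulVec_transpose, dotProduct_comm v.ofLp, ← Matrix.dotProduct_mulVec]
    have e2 : G *ᵥ (fun b => conj (H.J 1 i z u b)) = Sᵀ *ᵥ u.ofLp := by
      funext b
      have := e1 (EuclideanSpace.single b 1)
      simpa using this
    rw [← e2, Matrix.mulVec_mulVec, Matrix.nonsing_inv_mul _ hu, Matrix.one_mulVec]
  have e1 : (G⁻¹).map conj = (Gᵀ)⁻¹ := by
    have h1 : ((G⁻¹)ᴴ) = (Gᴴ)⁻¹ := Matrix.conjTranspose_nonsing_inv _
    have h2 : Gᴴ = G := hGp.isHermitian.eq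
    have h3 : (G⁻¹).map conj = ((G⁻¹)ᴴ)ᵀ := by
      ext a b; rfl
    rw [h3, h1, h2, Matrix.transpose_nonsing_inv]
  -- apply twice
  have k2 : ∀ w : Fin d → ℂ, G⁻¹ *ᵥ (Sᵀ *ᵥ ((Gᵀ)⁻¹ *ᵥ (Sᴴ *ᵥ w))) = -w := by
    intro w
    set u : Cn d := WithLp.toLp 2 (fun b => conj (w b)) with hu'
    have h1 := k1 (H.J 1 i z u)
    rw [H.J_sq 1 i z hz] at h1
    have h2 : (H.J 1 i z u).ofLp = (Gᵀ)⁻¹ *ᵥ (Sᴴ *ᵥ w) := by
      have h3 := k1 u
      funext b
      have h4 := congrArg conj (congrFun h3 b)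
      simp only [Complex.conj_conj] at h4
      rw [h4, ← e1]
      simp only [Matrix.mulVec, dotProduct, map_sum, map_mul, Matrix.map_apply]
      refine Finset.sum_congr rfl fun c _ => ?_
      congr 1
      refine Finset.sum_congr rfl fun e _ => ?_
      congr 1
      simp [hu']
    rw [h2] at h1
    rw [← h1]
    funext b
    simp [hu']
  have k3 : G⁻¹ * (Sᵀ * ((Gᵀ)⁻¹ * Sᴴ)) = -1 := by
    have h1 : ∀ w : Fin d → ℂ, (G⁻¹ * (Sᵀ * ((Gᵀ)⁻¹ * Sᴴ))) *ᵥ w =
        (-1 : Matrix (Fin d) (Fin d) ℂ) *ᵥ w := by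
      intro w
      rw [← Matrix.mulVec_mulVec, ← Matrix.mulVec_mulVec, ← Matrix.mulVec_mulVec, k2,
        Matrix.neg_mulVec, Matrix.one_mulVec]
    exact Matrix.ext_of_mulVec_single fun b => h1 _
  have k4 : Sᵀ * ((Gᵀ)⁻¹ * Sᴴ) = -G := by
    have : G * (G⁻¹ * (Sᵀ * ((Gᵀ)⁻¹ * Sᴴ))) = G * (-1) := by rw [k3]
    rwa [Matrix.mul_nonsing_inv_cancel_left _ _ hu, Matrix.mul_neg, Matrix.mul_one] at this
  rw [hSk, Matrix.neg_mul, neg_inj, ← Matrix.mul_assoc] at k4
  exact k4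

/-- `det g = |det s|` -/
theorem det0 (i : A.ι) (x : X) (hx : x ∈ (A.e i).source) :
    ((H.K0 hJ).g i x).det = ((‖((H.S0 hJ).s i x).det‖ : ℝ) : ℂ) := by
  have h := congrArg Matrix.det (hr0 H hJ i x hx)
  have hp : ((H.K0 hJ).g i x).PosDef := (H.K0 hJ).pos i x hx
  have hd := hp.det_pos
  rw [Matrix.det_mul, Matrix.det_mul, Matrix.det_nonsing_inv, Matrix.det_transpose,
    Matrix.det_conjTranspose, Ring.inverse_eq_inv'] at h
  set D := ((H.K0 hJ).g i x).det
  set s := ((H.S0 hJ).s i x).det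
  have hD := Complex.lt_def.1 hd
  have hDr : D = ((D.re : ℝ) : ℂ) := by
    apply Complex.ext
    · simp
    · rw [← hD.2]; simp
  have h1 : s * conj s = D * D := by
    have hne : D ≠ 0 := hd.ne'
    have h5 : s * D⁻¹ * conj s = D := h
    field_simp at h5
    linear_combination h5
  rw [Complex.mul_conj, Complex.normSq_eq_norm_sq, hDr] at h1
  have h2 : ‖s‖ ^ 2 = D.re ^ 2 := by
    have : ((‖s‖ ^ 2 : ℝ) : ℂ) = ((D.re * D.re : ℝ) : ℂ) := by push_cast at h1 ⊢; exact h1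
    rw [pow_two D.re]
    exact_mod_cast this
  have h3 : ‖s‖ = D.re := (pow_left_inj₀ (norm_nonneg _) hD.1.le two_ne_zero).1 h2
  rw [h3]
  exact hDr

theorem S0_nd (i : A.ι) (x : X) (hx : x ∈ (A.e i).source) : ((H.S0 hJ).s i x).det ≠ 0 := by
  intro h0
  have h1 := det0 H hJ i x hx
  rw [h0, norm_zero, Complex.ofReal_zero] at h1
  exact ((H.K0 hJ).pos i x hx).det_pos.ne' h1

end back

/-! ### the way back: `ofKS` -/

theorem K0_om0 (H : HkT (ofAtl A)) (hJ : ∀ (i : A.ι), ∀ z ∈ (A.e i).target, ∀ v,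
    H.J 0 i z v = I • v) {i : A.ι} {z : Cn d} (hz : z ∈ (A.e i).target) :
    (ofKah (H.K0 hJ)).f2.w i z = (H.om 0).w i z :=
  F2.k11_f2 (H.om 0) (fun _ _ hz u v => om0_inv H hJ hz u v) hz

theorem S0_om1 (H : HkT (ofAtl A)) (hJ : ∀ (i : A.ι), ∀ z ∈ (A.e i).target, ∀ v,
    H.J 0 i z v = I • v) {i : A.ι} {z : Cn d} (hz : z ∈ (A.e i).target) :
    (f2H (H.S0 hJ) (S0_cl H hJ)).w i z = (H.om 1).w i z := f2H_h20 _ _ _ hz

theorem S0_om2 (H : HkT (ofAtl A)) (hJ : ∀ (i : A.ι), ∀ z ∈ (A.e i).target, ∀ v,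
    H.J 0 i z v = I • v) {i : A.ι} {z : Cn d} (hz : z ∈ (A.e i).target) :
    (f2H (csm (-I) (H.S0 hJ)) (csm_cl (S0_cl H hJ) _)).w i z = (H.om 2).w i z :=
  f2H_h20_I _ _ _ hz

/-! ### the holomorphic atlas of a complex structure of the triple -/

section nn

variable {V : Type} [NormedAddCommGroup V] [NormedSpace ℝ V] {C : RCh V X}

theorem cmp_of_cp {H : HkT C} {k : Fin 3} (hA : Cp (H.acm k) A) : Cmp C (ofAtl A) :=
  ⟨fun i j => (hA j).sm' i, fun i j => (hA j).sm i⟩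

/-- in the charts of the holomorphic atlas `J k` is the multiplication by `i` -/
theorem hk_J_I {H : HkT C} {k : Fin 3} (hA : Cp (H.acm k) A) (j : A.ι) {z : Cn d}
    (hz : z ∈ (A.e j).target) (v : Cn d) :
    ((cmp_of_cp hA).hk H).J k j z v = I • v := by
  have h := cmp_of_cp hA
  obtain ⟨i, hi⟩ := Cmp.exists_mov (C' := ofAtl A) C (j := j) hz
  refine h.inj hi ?_
  rw [Cmp.hk_J H h k hi]
  exact ((hA j).lin' (i := i) hi v).symm

/-- **ROTATION**: holomorphic atlas for the complex structure `J 0` of a triple, the Kaehler metric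
and the holomorphic symplectic form -/
theorem exists_rot [FiniteDimensional ℝ V] [CompactSpace X] [T2Space X] (hNN : NNat V d)
    (H : HkT C) : ∃ (A : Atl d X) (_ : Finite A.ι) (_ : GoodA A) (_ : Nonempty (Part A))
      (h : Cmp C (ofAtl A)) (hJ : ∀ (i : A.ι), ∀ z ∈ (A.e i).target, ∀ v,
        (h.hk H).J 0 i z v = I • v), Cp (H.acm 0) A := by
  obtain ⟨A, h1, h2, h3, -, -, h4⟩ := exists_atl hNN (H.acm_int 0) (κ := Unit)
    (fun _ => (univ : Set X)) (fun _ => isOpen_univ) (fun x => ⟨(), mem_univ x⟩)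
  exact ⟨A, h1, h2, h3, cmp_of_cp h4, fun i z hz v => hk_J_I h4 i hz v, h4⟩

end nn

end

end Crest.Agent.R281.HkR_835
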