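import Crest.Agent.R281.HkR2_835

/-!
# Row 281 (helper358): the real vector space of closed 2-forms `F2 C`

`AddCommGroup (F2 C)`, `Module ℝ (F2 C)` with `(x + y).w = x.w + y.w`, `(a • x).w = a • x.w`;
`lin_eq : F2.lin a w = ∑ k, a k • w k`.
-/

set_option autoImplicit false
set_option maxSynthPendingDepth 3

open Set Filter Topology
open scoped ContDiff

namespace Crest.Agent.R281.HkR_835

noncomputable section

namespace F2

variable {V X : Type} [NormedAddCommGroup V] [NormedSpace ℝ V] [TopologicalSpace X]
  {C : RCh V X}

instance : Zero (F2 C) where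
  zero :=
    { w := fun _ _ => 0
      sm := fun _ => contDiffOn_const
      alt := fun _ _ _ _ _ => by simp
      tr := fun _ _ _ _ _ _ => by simp
      closed := fun i z _ a b c => by simp }

instance : Add (F2 C) where
  add x y :=
    { w := fun i z => x.w i z + y.w i z
      sm := fun i => (x.sm i).add (y.sm i)
      alt := fun i z hz u v => by
        simp only [add_apply]
        rw [x.alt i z hz, y.alt i z hz]; ring
      tr := fun i j z hz u v => by
        simp only [add_apply]
        rw [x.tr i j z hz, y.tr i j z hz]
      closed := fun i z hz a b c => by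
        have h : fderiv ℝ (fun z => x.w i z + y.w i z) z =
            fderiv ℝ (x.w i) z + fderiv ℝ (y.w i) z :=
          ((x.diffAt hz).hasFDerivAt.add (y.diffAt hz).hasFDerivAt).fderiv
        rw [h]
        simp only [add_apply]
        have h1 := x.closed i z hz a b c
        have h2 := y.closed i z hz a b c
        linarith }

instance : SMul ℝ (F2 C) where
  smul r x :=
    { w := fun i z => r • x.w i z
      sm := fun i => (x.sm i).const_smul r
      alt := fun i z hz u v => by
        simp only [smul_apply, smul_eq_mul]
        rw [x.alt i z hz]; ring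
      tr := fun i j z hz u v => by
        simp only [smul_apply, smul_eq_mul]
        rw [x.tr i j z hz]
      closed := fun i z hz a b c => by
        have h : fderiv ℝ (fun z => r • x.w i z) z = r • fderiv ℝ (x.w i) z :=
          ((x.diffAt hz).hasFDerivAt.const_smul r).fderiv
        rw [h]
        simp only [smul_apply, smul_eq_mul]
        have h1 := x.closed i z hz a b c
        linear_combination r * h1 }

instance : Neg (F2 C) where
  neg x :=
    { w := fun i z => -x.w i z
      sm := fun i => (x.sm i).neg
      alt := fun i z hz u v => by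
        simp only [neg_apply]
        rw [x.alt i z hz]
      tr := fun i j z hz u v => by
        simp only [neg_apply]
        rw [x.tr i j z hz]
      closed := fun i z hz a b c => by
        have h : fderiv ℝ (fun z => -x.w i z) z = -fderiv ℝ (x.w i) z :=
          (x.diffAt hz).hasFDerivAt.neg.fderiv
        rw [h]
        simp only [neg_apply]
        have h1 := x.closed i z hz a b c
        linarith }

instance : Sub (F2 C) where
  sub x y :=
    { w := fun i z => x.w i z - y.w i z
      sm := fun i => (x.sm i).sub (y.sm i)
      alt := fun i z hz u v => by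
        simp only [sub_apply]
        rw [x.alt i z hz, y.alt i z hz]; ring
      tr := fun i j z hz u v => by
        simp only [sub_apply]
        rw [x.tr i j z hz, y.tr i j z hz]
      closed := fun i z hz a b c => by
        have h : fderiv ℝ (fun z => x.w i z - y.w i z) z =
            fderiv ℝ (x.w i) z - fderiv ℝ (y.w i) z :=
          ((x.diffAt hz).hasFDerivAt.sub (y.diffAt hz).hasFDerivAt).fderiv
        rw [h]
        simp only [sub_apply]
        have h1 := x.closed i z hz a b c
        have h2 := y.closed i z hz a b c
        linarith }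

instance : SMul ℕ (F2 C) where
  smul n x := (n : ℝ) • x

instance : SMul ℤ (F2 C) where
  smul n x := (n : ℝ) • x

theorem w_injective : Function.Injective (fun x : F2 C => x.w) := fun x y h => F2.ext h

instance : AddCommGroup (F2 C) :=
  Function.Injective.addCommGroup (fun x : F2 C => x.w) w_injective rfl (fun _ _ => rfl)
    (fun _ => rfl) (fun _ _ => rfl)
    (fun x n => by
      funext i z
      exact Nat.cast_smul_eq_nsmul ℝ n (x.w i z))
    (fun x n => by
      funext i z
      exact Int.cast_smul_eq_zsmul ℝ n (x.w i z))

/-- the coefficients, as an additive map -/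
def wHom : F2 C →+ (C.ι → V → Bil V) where
  toFun x := x.w
  map_zero' := rfl
  map_add' _ _ := rfl

instance : Module ℝ (F2 C) :=
  Function.Injective.module ℝ (wHom (C := C)) w_injective (fun _ _ => rfl)

/-- the coefficients, as a linear map -/
def wLin : F2 C →ₗ[ℝ] (C.ι → V → Bil V) where
  toFun x := x.w
  map_add' _ _ := rfl
  map_smul' _ _ := rfl

@[simp] theorem wLin_apply (x : F2 C) : wLin x = x.w := rfl

@[simp] theorem zero_w (i : C.ι) (z : V) : (0 : F2 C).w i z = 0 := rfl

@[simp] theorem add_w (x y : F2 C) (i : C.ι) (z : V) : (x + y).w i z = x.w i z + y.w i z := rfl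

@[simp] theorem smul_w (r : ℝ) (x : F2 C) (i : C.ι) (z : V) : (r • x).w i z = r • x.w i z := rfl

@[simp] theorem neg_w (x : F2 C) (i : C.ι) (z : V) : (-x).w i z = -x.w i z := rfl

@[simp] theorem sub_w (x y : F2 C) (i : C.ι) (z : V) : (x - y).w i z = x.w i z - y.w i z := rfl

theorem sum_w {α : Type*} (s : Finset α) (f : α → F2 C) (i : C.ι) (z : V) :
    (∑ k ∈ s, f k).w i z = ∑ k ∈ s, (f k).w i z := by
  have h : (∑ k ∈ s, f k).w = ∑ k ∈ s, (f k).w := by
    rw [← wLin_apply, map_sum]
    rfl
  rw [h, Finset.sum_apply, Finset.sum_apply]

theorem lin_eq {n : ℕ} (a : Fin n → ℝ) (w : Fin n → F2 C) : F2.lin a w = ∑ k, a k • w k := by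
  refine F2.ext (funext fun i => funext fun z => ?_)
  rw [sum_w]
  rfl

end F2

end

end Crest.Agent.R281.HkR_835
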