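import Crest.Agent.R281.Dif1_268
import Crest.Agent.R281.F2Mod_358

/-!
# R281 (S0424), CDR (helper234), part 1: exact forms, integral classes

Carrier: `RCh V X`, `F2 C` (835), `F1 C`, `Ex` (846), `Module ℝ (F2 C)` (358), `SMap` (268).

* `exS C`, `HdR C := F2 C ⧸ exS C`
* `CD w α`        : an open cover `U a`, 1-forms `th a` on `U a` with `d (th a) = w`, functions
                    `f a b` on `U a ∩ U b` with `d (f a b) = th b - th a`
* `Cls G w`       : (`G` a subgroup of `ℝ`) there is such data with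
                    `f a b + f b c - f a c ∈ G` at every point of `U a ∩ U b ∩ U c`
* `IntF w := Cls ℤ w`, `RatF w := Cls ℚ w`.
-/

set_option autoImplicit false
set_option linter.unusedSectionVars false
set_option maxSynthPendingDepth 3

open Set Filter Topology
open scoped ContDiff

namespace Crest.Agent.R281.Cdr_234

open Crest.Agent.R281.HkR_835
open Crest.Agent.R281.Ti_846 (F1 IsD Ex d1 d1_apply)

noncomputable section

section loc

variable {V V' : Type*} [NormedAddCommGroup V] [NormedSpace ℝ V] [NormedAddCommGroup V']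
  [NormedSpace ℝ V']

/-- pull back of a 1-form -/
def pb1 (θ : V → V →L[ℝ] ℝ) (φ : V' → V) (z : V') : V' →L[ℝ] ℝ := (θ (φ z)).comp (fderiv ℝ φ z)

@[simp] theorem pb1_apply (θ : V → V →L[ℝ] ℝ) (φ : V' → V) (z u : V') :
    pb1 θ φ z u = θ (φ z) (fderiv ℝ φ z u) := rfl

theorem contDiffOn_pb1 {θ : V → V →L[ℝ] ℝ} {φ : V' → V} {U : Set V} {U' : Set V'}
    (hU' : IsOpen U') (hθ : ContDiffOn ℝ ∞ θ U) (hφ : ContDiffOn ℝ ∞ φ U') (hm : MapsTo φ U' U) :
    ContDiffOn ℝ ∞ (pb1 θ φ) U' := by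
  have h1 : ContDiffOn ℝ ∞ (fun z => θ (φ z)) U' := hθ.comp hφ hm
  have h2 : ContDiffOn ℝ ∞ (fderiv ℝ φ) U' := hφ.fderiv_of_isOpen hU' (by simp)
  exact h1.clm_comp h2

/-- the exterior derivative commutes with pull back -/
theorem d_pb1 {θ : V → V →L[ℝ] ℝ} {φ : V' → V} {z : V'}
    (hθ : DifferentiableAt ℝ θ (φ z)) (hφ : ContDiffAt ℝ ∞ φ z) (u v : V') :
    fderiv ℝ (pb1 θ φ) z u v - fderiv ℝ (pb1 θ φ) z v u =
      fderiv ℝ θ (φ z) (fderiv ℝ φ z u) (fderiv ℝ φ z v) -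
        fderiv ℝ θ (φ z) (fderiv ℝ φ z v) (fderiv ℝ φ z u) := by
  have hd : DifferentiableAt ℝ φ z := hφ.differentiableAt (by simp)
  have hd2 : DifferentiableAt ℝ (fderiv ℝ φ) z :=
    (hφ.fderiv_right (m := ∞) (by simp)).differentiableAt (by simp)
  have hs : ∀ p q, fderiv ℝ (fderiv ℝ φ) z p q = fderiv ℝ (fderiv ℝ φ) z q p := fun p q =>
    (hφ.isSymmSndFDerivAt (by
      rw [minSmoothness_of_isRCLikeNormedField]; exact WithTop.coe_le_coe.2 le_top)) p q
  have h0 : HasFDerivAt θ (fderiv ℝ θ (φ z)) (φ z) := hθ.hasFDerivAt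
  have h1 : HasFDerivAt (fun y => θ (φ y)) ((fderiv ℝ θ (φ z)).comp (fderiv ℝ φ z)) z :=
    HasFDerivAt.comp (g := θ) (f := φ) z h0 hd.hasFDerivAt
  have h2 : HasFDerivAt (fderiv ℝ φ) (fderiv ℝ (fderiv ℝ φ) z) z := hd2.hasFDerivAt
  have h3 := (h1.clm_comp h2)
  have h4 : pb1 θ φ = fun y => (θ (φ y)).comp (fderiv ℝ φ y) := rfl
  have key : ∀ a b, fderiv ℝ (pb1 θ φ) z a b =
      fderiv ℝ θ (φ z) (fderiv ℝ φ z a) (fderiv ℝ φ z b) + θ (φ z) (fderiv ℝ (fderiv ℝ φ) z a b) := by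
    intro a b
    rw [h4, h3.fderiv]
    simp
    ring
  simp only [key, hs u v]
  ring

end loc

variable {V X : Type} [NormedAddCommGroup V] [NormedSpace ℝ V] [TopologicalSpace X]
  {C : RCh V X}

/-! ### exact forms -/

theorem Ex.zero : Ex (0 : F2 C) := by
  refine ⟨⟨fun _ _ => 0, fun _ => contDiffOn_const, fun _ _ _ _ _ => by simp⟩, ?_⟩
  intro i z hz u v
  simp

theorem Ex.add {a b : F2 C} (ha : Ex a) (hb : Ex b) : Ex (a + b) := by
  obtain ⟨α, hα⟩ := ha
  obtain ⟨β, hβ⟩ := hb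
  refine ⟨⟨fun i z => α.η i z + β.η i z, fun i => (α.sm i).add (β.sm i), ?_⟩, ?_⟩
  · intro i j z hz u
    simp only [add_apply]
    rw [α.tr i j z hz u, β.tr i j z hz u]
  · intro i z hz u v
    have h : fderiv ℝ (fun y => α.η i y + β.η i y) z = _ :=
      ((Dif_268.F1dAt α hz).hasFDerivAt.add (Dif_268.F1dAt β hz).hasFDerivAt).fderiv
    simp only [h, F2.add_w, add_apply]
    rw [hα i z hz, hβ i z hz]
    ring

theorem Ex.smul (c : ℝ) {a : F2 C} (ha : Ex a) : Ex (c • a) := by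
  obtain ⟨α, hα⟩ := ha
  refine ⟨⟨fun i z => c • α.η i z, fun i => (α.sm i).const_smul c, ?_⟩, ?_⟩
  · intro i j z hz u
    simp only [smul_apply]
    rw [α.tr i j z hz u]
  · intro i z hz u v
    have h : fderiv ℝ (fun y => c • α.η i y) z = _ :=
      ((Dif_268.F1dAt α hz).hasFDerivAt.const_smul c).fderiv
    simp only [h, F2.smul_w, smul_apply, smul_eq_mul]
    rw [hα i z hz]
    ring

theorem Ex.neg {a : F2 C} (ha : Ex a) : Ex (-a) := by
  rw [← neg_one_smul ℝ a]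
  exact Ex.smul _ ha

theorem Ex.sub {a b : F2 C} (ha : Ex a) (hb : Ex b) : Ex (a - b) := by
  rw [sub_eq_add_neg]
  exact Ex.add ha (Ex.neg hb)

/-- the exact 2-forms -/
def exS (C : RCh V X) : Submodule ℝ (F2 C) where
  carrier := {w | Ex w}
  add_mem' ha hb := Ex.add ha hb
  zero_mem' := Ex.zero
  smul_mem' c _ ha := Ex.smul c ha

theorem mem_exS {w : F2 C} : w ∈ exS C ↔ Ex w := Iff.rfl

/-- de Rham cohomology in degree 2 -/
abbrev HdR (C : RCh V X) : Type := F2 C ⧸ exS C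

/-! ### integral classes -/

/-- the part of a set `U` in the chart `i`, seen in this chart -/
def sh (C : RCh V X) (i : C.ι) (U : Set X) : Set V := {z | z ∈ (C.e i).target ∧ (C.e i).symm z ∈ U}

theorem isOpen_sh (i : C.ι) {U : Set X} (hU : IsOpen U) : IsOpen (sh C i U) :=
  (C.e i).isOpen_inter_preimage_symm hU

/-- **Cech-de Rham data** of a closed 2-form `w`: an open cover `U a`, primitives `th a` of `w` on
`U a`, and primitives `f a b` of `th b - th a` on `U a ∩ U b` -/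
structure CD (w : F2 C) (α : Type) where
  U : α → Set X
  op : ∀ a, IsOpen (U a)
  cov : ∀ x, ∃ a, x ∈ U a
  th : α → C.ι → V → V →L[ℝ] ℝ
  th_sm : ∀ a i, ContDiffOn ℝ ∞ (th a i) (sh C i (U a))
  th_tr : ∀ a i j, ∀ z ∈ C.ov i j, (C.e i).symm z ∈ U a → ∀ u,
    th a i z u = th a j (C.t i j z) (fderiv ℝ (C.t i j) z u)
  th_d : ∀ a i, ∀ z ∈ sh C i (U a), ∀ u v,
    fderiv ℝ (th a i) z u v - fderiv ℝ (th a i) z v u = w.w i z u v
  f : α → α → X → ℝ
  f_d : ∀ a b i, ∀ z ∈ sh C i (U a ∩ U b),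
    HasFDerivAt (fun y => f a b ((C.e i).symm y)) (th b i z - th a i z) z

/-- the class of the closed form `w` in `H²(X, ℝ)` comes from the subgroup `G` of `ℝ` -/
def Cls (G : AddSubgroup ℝ) (w : F2 C) : Prop :=
  ∃ (α : Type) (D : CD w α), ∀ a b c, ∀ x ∈ D.U a ∩ D.U b ∩ D.U c,
    D.f a b x + D.f b c x - D.f a c x ∈ G

/-- integral class -/
def IntF (w : F2 C) : Prop := Cls (Int.castAddHom ℝ).range w

/-- rational class -/
def RatF (w : F2 C) : Prop := Cls (Rat.castHom ℝ).toAddMonoidHom.range w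

end

end Crest.Agent.R281.Cdr_234
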