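import Crest.Agent.R281.Ti5_846
import Crest.Agent.R281.F2Mod_358
import Crest.Agent.R281.Cdr1_234

/-!
# Row 281, DIV 2 (ALG): the literal shape of the output (helper998)

Carrier: `C : RCh V X`, `F2 C`, `HkT C` (835), module structure of `F2 C` (358), `Ex` (846),
`IntF` (234).

* `Cl w w'`          : the closed forms `w`, `w'` have the same class
* `Frm Q`            : isotropic `e`, `v` with `q(v) = N > 0`, `e*` : the rational plane `W`
* `F.sre τ`, `F.sim τ` : real and imaginary part of `σ_τ = e* + τ v - (N/2) τ² e`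
* `AtTau F A H τ`    : `H` is a hyperkaehler structure with `[om 0] = A` and
                       `[om 1] + i [om 2] = z • σ_τ`, `z ≠ 0`
* `HEqv H H'`        : equality on the chart targets
* `SmH K`            : jointly smooth family over `ℝ`
* `Leg F A S H H'`   : a jointly smooth path of hyperkaehler structures from `H` to `H'` whose
                       period stays in `S`; `Leg.refl`, `Leg.symm`, `Leg.trans`, `Leg.mono`
* `Cusp F A`         : the end over the cusp `e`: a class of hyperkaehler structures over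
                       `{Im τ > Y}` with path lifting
* `Div2Geo`          : the geometric output of DIV 2 (paths)
-/

set_option autoImplicit false

open Set Filter Topology
open scoped ContDiff

namespace Crest.Agent.R281.Alg_998

open Crest.Agent.R281.HkR_835 Crest.Agent.R281.Ti_846 Crest.Agent.R281.Cdr_234

noncomputable section

variable {V X : Type} [NormedAddCommGroup V] [NormedSpace ℝ V] [TopologicalSpace X]
  {C : RCh V X}

/-- the closed forms `w`, `w'` have the same class -/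
def Cl (w w' : F2 C) : Prop := Ex (w - w')

theorem Cl.refl (w : F2 C) : Cl w w := by
  unfold Cl
  rw [sub_self]
  exact Ex.zero

theorem Cl.symm {w w' : F2 C} (h : Cl w w') : Cl w' w := by
  have h1 : Ex (-(w - w')) := Ex.neg h
  unfold Cl
  rwa [neg_sub] at h1

theorem Cl.trans {w w' w'' : F2 C} (h : Cl w w') (h' : Cl w' w'') : Cl w w'' := by
  have h1 : Ex ((w - w') + (w' - w'')) := Ex.add h h'
  unfold Cl
  rwa [sub_add_sub_cancel] at h1

theorem Cl.add {a a' b b' : F2 C} (h : Cl a a') (h' : Cl b b') : Cl (a + b) (a' + b') := by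
  have h1 : Ex ((a - a') + (b - b')) := Ex.add h h'
  unfold Cl
  rwa [show a + b - (a' + b') = (a - a') + (b - b') by abel]

theorem Cl.smul (c : ℝ) {a a' : F2 C} (h : Cl a a') : Cl (c • a) (c • a') := by
  have h1 : Ex (c • (a - a')) := Ex.smul c h
  unfold Cl
  rwa [← smul_sub]

theorem Cl.of_eq_on {w w' : F2 C} (h : ∀ i, ∀ z ∈ (C.e i).target, w.w i z = w'.w i z) :
    Cl w w' := by
  obtain ⟨η, hη⟩ : Ex (0 : F2 C) := Ex.zero
  refine ⟨η, fun i z hz u v => ?_⟩
  have h1 := hη i z hz u v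
  have h2 : (w - w').w i z u v = w.w i z u v - w'.w i z u v := rfl
  have h3 : (0 : F2 C).w i z u v = 0 := rfl
  rw [h2, h i z hz, sub_self, ← h3]
  exact h1

/-- the rational plane `W = ⟨e*, v, e⟩` of signature `(2, 1)` for the form `Q` -/
structure Frm (C : RCh V X) (Q : F2 C →ₗ[ℝ] F2 C →ₗ[ℝ] ℝ) where
  e : F2 C
  v : F2 C
  es : F2 C
  N : ℝ
  hN : 0 < N
  e_e : Q e e = 0
  e_v : Q e v = 0
  es_e : Q es e = 1
  es_v : Q es v = 0
  es_es : Q es es = 0
  v_v : Q v v = N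
  int_e : IntF e
  rat_v : RatF v
  rat_es : RatF es

variable {Q : F2 C →ₗ[ℝ] F2 C →ₗ[ℝ] ℝ}

namespace Frm

variable (F : Frm C Q)

/-- real part of `σ_τ = e* + τ v - (N/2) τ² e` -/
def sre (τ : ℂ) : F2 C := F.es + τ.re • F.v - (F.N / 2 * (τ.re ^ 2 - τ.im ^ 2)) • F.e

/-- imaginary part of `σ_τ` -/
def sim (τ : ℂ) : F2 C := τ.im • F.v - (F.N * (τ.re * τ.im)) • F.e

end Frm

/-- `H` is a hyperkaehler structure with `[om 0] = A` and `[om 1] + i [om 2] = z • σ_τ` -/
structure AtTau (F : Frm C Q) (A : F2 C) (H : HkT C) (τ : ℂ) : Prop where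
  im_pos : 0 < τ.im
  om0 : Cl (H.om 0) A
  om12 : ∃ z : ℂ, z ≠ 0 ∧ Cl (H.om 1) (z.re • F.sre τ - z.im • F.sim τ) ∧
    Cl (H.om 2) (z.im • F.sre τ + z.re • F.sim τ)

/-- equality on the chart targets -/
structure HEqv (H H' : HkT C) : Prop where
  om : ∀ k i, ∀ z ∈ (C.e i).target, (H.om k).w i z = (H'.om k).w i z
  J : ∀ k i, ∀ z ∈ (C.e i).target, H.J k i z = H'.J k i z
  g : ∀ i, ∀ z ∈ (C.e i).target, H.g i z = H'.g i z

theorem HEqv.refl (H : HkT C) : HEqv H H :=
  ⟨fun _ _ _ _ => rfl, fun _ _ _ _ => rfl, fun _ _ _ => rfl⟩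

theorem HEqv.symm {H H' : HkT C} (h : HEqv H H') : HEqv H' H :=
  ⟨fun k i z hz => (h.om k i z hz).symm, fun k i z hz => (h.J k i z hz).symm,
    fun i z hz => (h.g i z hz).symm⟩

theorem HEqv.trans {H H' H'' : HkT C} (h : HEqv H H') (h' : HEqv H' H'') : HEqv H H'' :=
  ⟨fun k i z hz => (h.om k i z hz).trans (h'.om k i z hz),
    fun k i z hz => (h.J k i z hz).trans (h'.J k i z hz),
    fun i z hz => (h.g i z hz).trans (h'.g i z hz)⟩

theorem AtTau.congr {F : Frm C Q} {A : F2 C} {H H' : HkT C} {τ : ℂ} (h : AtTau F A H τ)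
    (he : HEqv H H') : AtTau F A H' τ := by
  obtain ⟨z, hz, h1, h2⟩ := h.om12
  have h3 : ∀ k, Cl (H'.om k) (H.om k) := fun k =>
    Cl.of_eq_on fun i z hz => (he.om k i z hz).symm
  exact ⟨h.im_pos, (h3 0).trans h.om0, z, hz, (h3 1).trans h1, (h3 2).trans h2⟩

/-- jointly smooth families of hyperkaehler structures over `ℝ` -/
structure SmH (K : ℝ → HkT C) : Prop where
  om : ∀ k i, ContDiffOn ℝ ∞ (fun p : ℝ × V => ((K p.1).om k).w i p.2) (univ ×ˢ (C.e i).target)
  J : ∀ k i, ContDiffOn ℝ ∞ (fun p : ℝ × V => (K p.1).J k i p.2) (univ ×ˢ (C.e i).target)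
  g : ∀ i, ContDiffOn ℝ ∞ (fun p : ℝ × V => (K p.1).g i p.2) (univ ×ˢ (C.e i).target)

section reparam

variable {W : Type*} [NormedAddCommGroup W] [NormedSpace ℝ W]

/-- reparametrisation in the first variable -/
theorem contDiffOn_reparam {f : ℝ → V → W} {U : Set V} {φ : ℝ → ℝ} (hφ : ContDiff ℝ ∞ φ)
    (hf : ContDiffOn ℝ ∞ (fun p : ℝ × V => f p.1 p.2) (univ ×ˢ U)) :
    ContDiffOn ℝ ∞ (fun p : ℝ × V => f (φ p.1) p.2) (univ ×ˢ U) := by
  have h1 : ContDiff ℝ ∞ (fun p : ℝ × V => (φ p.1, p.2)) :=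
    (hφ.comp contDiff_fst).prodMk contDiff_snd
  exact hf.comp h1.contDiffOn fun p hp => ⟨mem_univ _, hp.2⟩

/-- a smooth monotone function which is `0` before `1/3` and `1` after `2/3` -/
def stp (t : ℝ) : ℝ := Real.smoothTransition (3 * t - 1)

theorem stp_contDiff : ContDiff ℝ ∞ stp :=
  Real.smoothTransition.contDiff.comp ((contDiff_const.mul contDiff_id).sub contDiff_const)

theorem stp_zero {t : ℝ} (h : t ≤ 1 / 3) : stp t = 0 :=
  Real.smoothTransition.zero_of_nonpos (by linarith)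

theorem stp_one {t : ℝ} (h : 2 / 3 ≤ t) : stp t = 1 :=
  Real.smoothTransition.one_of_one_le (by linarith)

/-- concatenation, in one chart -/
theorem contDiffOn_concat {f g : ℝ → V → W} {U : Set V} (hU : IsOpen U)
    (hf : ContDiffOn ℝ ∞ (fun p : ℝ × V => f p.1 p.2) (univ ×ˢ U))
    (hg : ContDiffOn ℝ ∞ (fun p : ℝ × V => g p.1 p.2) (univ ×ˢ U))
    (h : ∀ z ∈ U, f 1 z = g 0 z) :
    ContDiffOn ℝ ∞ (fun p : ℝ × V =>
      (if p.1 ≤ 1 / 2 then f (stp (2 * p.1)) else g (stp (2 * p.1 - 1))) p.2) (univ ×ˢ U) := by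
  have hf' := contDiffOn_reparam (φ := fun t => stp (2 * t))
    (stp_contDiff.comp (contDiff_const.mul contDiff_id)) hf
  have hg' := contDiffOn_reparam (φ := fun t => stp (2 * t - 1))
    (stp_contDiff.comp ((contDiff_const.mul contDiff_id).sub contDiff_const)) hg
  have hO : IsOpen ((univ : Set ℝ) ×ˢ U) := isOpen_univ.prod hU
  intro p hp
  refine ContDiffAt.contDiffWithinAt ?_
  rcases lt_trichotomy p.1 (1 / 2) with h1 | h1 | h1
  · refine (hf'.contDiffAt (hO.mem_nhds hp)).congr_of_eventuallyEq ?_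
    have h2 : {q : ℝ × V | q.1 < 1 / 2} ∈ 𝓝 p := (isOpen_lt continuous_fst
      continuous_const).mem_nhds h1
    filter_upwards [h2] with q hq
    have hq' : q.1 < 1 / 2 := hq
    rw [if_pos hq'.le]
  · refine (hf'.contDiffAt (hO.mem_nhds hp)).congr_of_eventuallyEq ?_
    have h2 : {q : ℝ × V | 1 / 3 < q.1} ∈ 𝓝 p := (isOpen_lt continuous_const
      continuous_fst).mem_nhds (by show 1 / 3 < p.1; rw [h1]; norm_num)
    have h3 : {q : ℝ × V | q.1 < 2 / 3} ∈ 𝓝 p := (isOpen_lt continuous_fst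
      continuous_const).mem_nhds (by show p.1 < 2 / 3; rw [h1]; norm_num)
    filter_upwards [h2, h3, hO.mem_nhds hp] with q hq hq3 hqU
    have hq' : 1 / 3 < q.1 := hq
    have hq3' : q.1 < 2 / 3 := hq3
    rw [stp_one (t := 2 * q.1) (by linarith), stp_zero (t := 2 * q.1 - 1) (by linarith)]
    split_ifs
    · rfl
    · exact (h q.2 hqU.2).symm
  · refine (hg'.contDiffAt (hO.mem_nhds hp)).congr_of_eventuallyEq ?_
    have h2 : {q : ℝ × V | 1 / 2 < q.1} ∈ 𝓝 p := (isOpen_lt continuous_const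
      continuous_fst).mem_nhds h1
    filter_upwards [h2] with q hq
    have hq' : 1 / 2 < q.1 := hq
    rw [if_neg (not_le.2 hq')]

end reparam

theorem SmH.reparam {K : ℝ → HkT C} (hK : SmH K) {φ : ℝ → ℝ} (hφ : ContDiff ℝ ∞ φ) :
    SmH fun t => K (φ t) :=
  ⟨fun k i => contDiffOn_reparam (f := fun t z => ((K t).om k).w i z) hφ (hK.om k i),
    fun k i => contDiffOn_reparam (f := fun t z => (K t).J k i z) hφ (hK.J k i),
    fun i => contDiffOn_reparam (f := fun t z => (K t).g i z) hφ (hK.g i)⟩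

/-- concatenation of two families -/
def cat {α : Type*} (K K' : ℝ → α) (t : ℝ) : α :=
  if t ≤ 1 / 2 then K (stp (2 * t)) else K' (stp (2 * t - 1))

theorem cat_zero {α : Type*} (K K' : ℝ → α) : cat K K' 0 = K 0 := by
  unfold cat
  rw [if_pos (by norm_num), stp_zero (by norm_num)]

theorem cat_one {α : Type*} (K K' : ℝ → α) : cat K K' 1 = K' 1 := by
  unfold cat
  rw [if_neg (by norm_num), stp_one (by norm_num)]

theorem SmH.cat {K K' : ℝ → HkT C} (hK : SmH K) (hK' : SmH K') (h : HEqv (K 1) (K' 0)) :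
    SmH (cat K K') := by
  refine ⟨fun k i => ?_, fun k i => ?_, fun i => ?_⟩
  · refine (contDiffOn_concat (C.e i).open_target (f := fun t z => ((K t).om k).w i z)
      (g := fun t z => ((K' t).om k).w i z) (hK.om k i) (hK'.om k i) (h.om k i)).congr ?_
    intro p _
    unfold Alg_998.cat
    split_ifs <;> rfl
  · refine (contDiffOn_concat (C.e i).open_target (f := fun t z => (K t).J k i z)
      (g := fun t z => (K' t).J k i z) (hK.J k i) (hK'.J k i) (h.J k i)).congr ?_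
    intro p _
    unfold Alg_998.cat
    split_ifs <;> rfl
  · refine (contDiffOn_concat (C.e i).open_target (f := fun t z => (K t).g i z)
      (g := fun t z => (K' t).g i z) (hK.g i) (hK'.g i) (h.g i)).congr ?_
    intro p _
    unfold Alg_998.cat
    split_ifs <;> rfl

/-- concatenation of smooth paths -/
theorem contDiff_cat {W : Type*} [NormedAddCommGroup W] [NormedSpace ℝ W] {a b : ℝ → W}
    (ha : ContDiff ℝ ∞ a) (hb : ContDiff ℝ ∞ b) (h : a 1 = b 0) : ContDiff ℝ ∞ (cat a b) := by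
  have h1 := contDiffOn_concat (V := ℝ) (U := univ) isOpen_univ (f := fun t _ => a t)
    (g := fun t _ => b t) (ha.comp contDiff_fst).contDiffOn (hb.comp contDiff_fst).contDiffOn
    fun _ _ => h
  rw [univ_prod_univ, contDiffOn_univ] at h1
  have h2 : ContDiff ℝ ∞ (fun t : ℝ => ((t, (0 : ℝ)) : ℝ × ℝ)) := contDiff_id.prodMk contDiff_const
  have h3 := h1.comp h2
  have h4 : cat a b = (fun p : ℝ × ℝ => (if p.1 ≤ 1 / 2 then fun _ : ℝ => a (stp (2 * p.1))
      else fun _ : ℝ => b (stp (2 * p.1 - 1))) p.2) ∘ fun t : ℝ => ((t, (0 : ℝ)) : ℝ × ℝ) := by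
    funext t
    simp only [Function.comp, cat]
    split_ifs <;> rfl
  rw [h4]
  exact h3

/-- a jointly smooth path of hyperkaehler structures from `H` to `H'` with period in `S` -/
def Leg (F : Frm C Q) (A : F2 C) (S : Set ℂ) (H H' : HkT C) : Prop :=
  ∃ (K : ℝ → HkT C) (τ : ℝ → ℂ), SmH K ∧ ContDiff ℝ ∞ τ ∧ (∀ t, τ t ∈ S) ∧
    (∀ t, AtTau F A (K t) (τ t)) ∧ HEqv (K 0) H ∧ HEqv (K 1) H'

variable {F : Frm C Q} {A : F2 C} {S : Set ℂ}

theorem Leg.mono {S' : Set ℂ} (hS : S ⊆ S') {H H' : HkT C} (h : Leg F A S H H') :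
    Leg F A S' H H' := by
  obtain ⟨K, τ, h1, h2, h3, h4⟩ := h
  exact ⟨K, τ, h1, h2, fun t => hS (h3 t), h4⟩

theorem Leg.refl {H : HkT C} {τ : ℂ} (hτ : τ ∈ S) (h : AtTau F A H τ) : Leg F A S H H :=
  ⟨fun _ => H, fun _ => τ,
    ⟨fun k i => ((H.om k).sm i).comp contDiffOn_snd fun _ hp => hp.2,
      fun k i => (H.J_sm k i).comp contDiffOn_snd fun _ hp => hp.2,
      fun i => (H.g_sm i).comp contDiffOn_snd fun _ hp => hp.2⟩,
    contDiff_const, fun _ => hτ, fun _ => h, HEqv.refl H, HEqv.refl H⟩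

theorem Leg.symm {H H' : HkT C} (h : Leg F A S H H') : Leg F A S H' H := by
  obtain ⟨K, τ, h1, h2, h3, h4, h5, h6⟩ := h
  have hφ : ContDiff ℝ ∞ fun t : ℝ => 1 - t := contDiff_const.sub contDiff_id
  refine ⟨fun t => K (1 - t), fun t => τ (1 - t), h1.reparam hφ, h2.comp hφ, fun t => h3 _,
    fun t => h4 _, ?_, ?_⟩
  · simpa using h6
  · simpa using h5

/-- the period is determined by the structure -/
def PerUniq (F : Frm C Q) (A : F2 C) : Prop :=
  ∀ (H : HkT C) (τ τ' : ℂ), AtTau F A H τ → AtTau F A H τ' → τ = τ'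

theorem Leg.trans (hu : PerUniq F A) {H H' H'' : HkT C} (h : Leg F A S H H')
    (h' : Leg F A S H' H'') : Leg F A S H H'' := by
  obtain ⟨K, τ, h1, h2, h3, h4, h5, h6⟩ := h
  obtain ⟨K', τ', h1', h2', h3', h4', h5', h6'⟩ := h'
  have he : HEqv (K 1) (K' 0) := h6.trans h5'.symm
  have hτ : τ 1 = τ' 0 := hu (K' 0) _ _ ((h4 1).congr he) (h4' 0)
  refine ⟨cat K K', cat τ τ', h1.cat h1' he, contDiff_cat h2 h2' hτ, fun t => ?_, fun t => ?_,
    ?_, ?_⟩
  · unfold cat
    split_ifs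
    · exact h3 _
    · exact h3' _
  · unfold cat
    split_ifs
    · exact h4 _
    · exact h4' _
  · rw [cat_zero]; exact h5
  · rw [cat_one]; exact h6'

/-- the end over the cusp `e`: a class `Mem τ` of hyperkaehler structures over `{Im τ > Y}` with
path lifting -/
structure Cusp (F : Frm C Q) (A : F2 C) where
  Y : ℝ
  hY : 0 < Y
  Mem : ℂ → HkT C → Prop
  mem_im : ∀ τ H, Mem τ H → Y < τ.im
  mem_at : ∀ τ H, Mem τ H → AtTau F A H τ
  mem_congr : ∀ τ H H', HEqv H H' → Mem τ H → Mem τ H'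
  lift : ∀ τ H, Mem τ H → ∀ γ : ℝ → ℂ, ContDiff ℝ ∞ γ → (∀ t, Y < (γ t).im) → γ 0 = τ →
    ∃ K : ℝ → HkT C, SmH K ∧ HEqv (K 0) H ∧ ∀ t, Mem (γ t) (K t)

/-- **geometric output of DIV 2**: for `W` there is a countable set of bad real parts; for every
integral `A` orthogonal to `W` and every hyperkaehler structure `H0` at `τ0` with `[om 0] = A`
there is a vertical leg to the end over `e` -/
def Div2Geo (F : Frm C Q) (Alg : ∀ A : F2 C, Cusp F A → Prop) : Prop :=
  ∃ Bad : Set ℝ, Bad.Countable ∧ ∀ A : F2 C, IntF A → Q A F.e = 0 → Q A F.v = 0 →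
    Q A F.es = 0 → ∀ (H0 : HkT C) (τ0 : ℂ), AtTau F A H0 τ0 → τ0.re ∉ Bad →
      ∃ (K : Cusp F A) (H1 : HkT C) (τ1 : ℂ), Alg A K ∧ K.Mem τ1 H1 ∧ τ1.re = τ0.re ∧
        Leg F A {τ | τ.re = τ0.re ∧ 0 < τ.im} H0 H1

end

end Crest.Agent.R281.Alg_998
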