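import Crest.Agent.R281.Per5_368
import Crest.Agent.R281.AlgDefs_998
import Crest.Agent.R275.Geo_509

/-!
# Row 281, node ToriP (helper831): the literal tube of Lagrangian tori

* `HolTube C J w w' n D Ψ l τ` : holomorphic tube of Lagrangian tori in action-angle coordinates
  `(y, x) ∈ D × ℂⁿ`, holomorphic symplectic form `w + i w'`
* `PVT Q e D Ψ l`  : the periods of every closed form orthogonal to `e` over the tori vanish
* `Tub n C Q e H`  : there is such a tube at `H` for `J 0`, `om 1 + i om 2`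
-/

set_option autoImplicit false
set_option linter.unusedSectionVars false
set_option maxSynthPendingDepth 3

open Set Filter Topology Complex
open scoped ContDiff

namespace Crest.Agent.R281.Tub_831

open Crest.Agent.R275.Geo
open Crest.Agent.R281.HkR_835 Crest.Agent.R281.Ti_846
open Crest.Agent.R281.Per_368 (SmI pull per)

noncomputable section

variable {V X : Type} [NormedAddCommGroup V] [NormedSpace ℝ V] [TopologicalSpace X]

/-- **holomorphic tube of Lagrangian tori** `Ψ : D × ℂⁿ → X`, order `(y, x)`: `y` action, `x` angle -/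
structure HolTube (C : RCh V X) (J : C.ι → V → V →L[ℝ] V) (w w' : F2 C) (n : ℕ) (D : Set (Cn n))
    (Ψ : Cn n × Cn n → X) (l : Fin (2 * n) → Cn n → Cn n)
    (τ : Cn n → Cn n → Cn n → ℂ) : Prop where
  op : IsOpen D
  cv : Convex ℝ D
  ne : D.Nonempty
  sm : SmI C (D ×ˢ univ) Ψ
  hol : ∀ p : Cn n × Cn n, p.1 ∈ D → ∀ i, Ψ p ∈ (C.e i).source → ∀ u,
    fderiv ℝ (fun q => C.e i (Ψ q)) p (I • u) =
      J i (C.e i (Ψ p)) (fderiv ℝ (fun q => C.e i (Ψ q)) p u)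
  inj : ∀ p : Cn n × Cn n, p.1 ∈ D → ∀ i, Ψ p ∈ (C.e i).source →
    Function.Injective (fderiv ℝ (fun q => C.e i (Ψ q)) p)
  lhol : ∀ k, DifferentiableOn ℂ (l k) D
  lli : ∀ y ∈ D, LinearIndependent ℝ (fun k => l k y)
  eq_iff : ∀ y ∈ D, ∀ y' ∈ D, ∀ x x', Ψ (y, x) = Ψ (y', x') ↔
    y = y' ∧ ∃ m : Fin (2 * n) → ℤ, x - x' = ∑ k, (m k : ℝ) • l k y
  symp : ∀ p : Cn n × Cn n, p.1 ∈ D → ∀ u v,
    ((pull w Ψ p u v : ℝ) : ℂ) + I * ((pull w' Ψ p u v : ℝ) : ℂ) =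
      ∑ i, (u.2 i * v.1 i - u.1 i * v.2 i) + τ p.1 u.1 v.1

/-- the periods of closed forms orthogonal to `e` over the tori vanish -/
def PVT {C : RCh V X} (Q : F2 C →ₗ[ℝ] F2 C →ₗ[ℝ] ℝ) (e : F2 C) {n : ℕ} (D : Set (Cn n))
    (Ψ : Cn n × Cn n → X) (l : Fin (2 * n) → Cn n → Cn n) : Prop :=
  ∀ v : F2 C, Q v e = 0 → ∀ y ∈ D, ∀ x, ∀ j k,
    per (pull v Ψ) (y, x) (0, l j y) (0, l k y) = 0

/-- **tube of Lagrangian tori at `H`**: complex structure `J 0`, symplectic form `om 1 + i om 2` -/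
def Tub (n : ℕ) (C : RCh V X) (Q : F2 C →ₗ[ℝ] F2 C →ₗ[ℝ] ℝ) (e : F2 C) (H : HkT C) : Prop :=
  ∃ (D : Set (Cn n)) (Ψ : Cn n × Cn n → X) (l : Fin (2 * n) → Cn n → Cn n)
    (τ : Cn n → Cn n → Cn n → ℂ),
    HolTube C (H.J 0) (H.om 1) (H.om 2) n D Ψ l τ ∧ PVT Q e D Ψ l

end

end Crest.Agent.R281.Tub_831
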