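import Crest.Agent.R281.Aa8_836
import Crest.Agent.R281.TubT_831
import Crest.Agent.R281.HkR9_835

/-!
# R281 (S0424), S6-AA (helper729), file 1: restriction of holomorphic symplectic forms to an open
subset; `SmI` from holomorphic maps; the complex form `w + i w'` in a holomorphic atlas.
-/

set_option autoImplicit false
set_option linter.unusedSectionVars false
set_option maxSynthPendingDepth 3

open Set Metric Filter Topology Complex Function TopologicalSpace
open scoped NNReal ContDiff Matrix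

namespace Crest.Agent.R281.Ab_729

open Crest.Agent.R275.Geo Crest.Agent.R275.Core144 Crest.Agent.R273.HFlow3_376
open Crest.Agent.R273.HFlow4_376 Crest.Agent.R273.Kah_333 Crest.Agent.R273.HessB_333
open Crest.Agent.R273.Defs_333 Crest.Agent.R273.Hess_333
open Crest.Agent.R273.HFlow5_376 Crest.Agent.R273.HFlow6_376 Crest.Agent.R260.ACM_580
open Crest.Agent.R260.NNB_580
open Crest.Agent.R281.Aa1_836 Crest.Agent.R281.Aa2_836 Crest.Agent.R281.Aa3_836
open Crest.Agent.R281.Aa4_836 Crest.Agent.R281.Aa5_836 Crest.Agent.R281.Aa6_836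
open Crest.Agent.R281.Aa7_836 Crest.Agent.R281.HkR_835
open Crest.Agent.R281.Defs_273 Crest.Agent.R281.HkP2_508
open Crest.Agent.R281.Per_368 (SmI pull pl)

noncomputable section

/-! ### restriction to an open subset -/

section Op

variable {n : ℕ} {M : Type} [TopologicalSpace M] {A : Atl n M} {U : Opens M}

theorem Jm_op {p q : (opA A U).ι} {x : U} (h : x ∈ ((opA A U).e p).source) :
    Jm (opA A U) p q x = Jm A p.2 q.2 x.1 := by
  ext b a
  have h1 : (fun z => (opA A U).e q (((opA A U).e p).symm z)) =ᶠ[𝓝 (A.e p.2 x.1)]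
      fun z => A.e q.2 ((A.e p.2).symm z) := by
    filter_upwards [opA_symm_ev h] with z hz
    rw [opA_e, hz]
  change fderiv ℂ (fun z => (opA A U).e q (((opA A U).e p).symm z)) (A.e p.2 x.1) _ b =
    fderiv ℂ (fun z => A.e q.2 ((A.e p.2).symm z)) (A.e p.2 x.1) _ b
  rw [h1.fderiv_eq]

/-- restriction of a holomorphic symplectic form -/
def opS (σ : HSymp A) (U : Opens M) : HSymp (opA A U) where
  s p x := σ.s p.2 x.1
  hol p a b := by
    intro z hz
    have hz1 := opA_target.1 hz.1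
    have h1 := (σ.hol p.2 a b).diffAt isOpen_univ ((A.e p.2).map_target hz1.1) (mem_univ _)
    rw [(A.e p.2).right_inv hz1.1] at h1
    refine (h1.congr_of_eventuallyEq ?_).differentiableWithinAt
    filter_upwards [((opA A U).e p).open_target.mem_nhds hz.1] with w hw
    rw [opA_symm hw]
  alt p x hx := σ.alt p.2 x.1 (opA_source.1 hx)
  tr p q x hx := by
    rw [Jm_op hx.1]
    exact σ.tr p.2 q.2 x.1 ⟨opA_source.1 hx.1, opA_source.1 hx.2⟩
  nd p x hx := σ.nd p.2 x.1 (opA_source.1 hx)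

theorem opS_clo {σ : HSymp A} (h : Clo σ.toH2) : Clo (opS σ U).toH2 := by
  intro p z hz a b c
  have hz1 := opA_target.1 hz
  have e : ∀ a b, (fun w => sl (opS σ U).toH2 p w a b) =ᶠ[𝓝 z] fun w => sl σ.toH2 p.2 w a b := by
    intro a b
    filter_upwards [((opA A U).e p).open_target.mem_nhds hz] with w hw
    change σ.s p.2 (((opA A U).e p).symm w).1 a b = σ.s p.2 ((A.e p.2).symm w) a b
    rw [opA_symm hw]
  rw [(e a b).fderiv_eq, (e b c).fderiv_eq, (e c a).fderiv_eq]
  exact h p.2 z hz1.1 a b c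

end Op

/-! ### the complex form of two real forms -/

section Form

variable {d : ℕ} {X : Type} [TopologicalSpace X] {A : Atl d X} {V : Type} [NormedAddCommGroup V]
  [NormedSpace ℝ V] {C : RCh V X}

theorem sb_eq_bf (S : Matrix (Fin d) (Fin d) ℂ) (u v : Cn d) : sb S u v = bf S u v := by
  rw [sb, bf_apply]
  exact Finset.sum_congr rfl fun a _ => Finset.sum_congr rfl fun b _ => by ring

theorem clo_of_clH {σ : H2 A} (h : ClH σ) : Clo σ := by
  intro i z hz a b c
  have h1 := h i z hz a b c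
  rwa [wd_hol' (sl_diff σ hz a b), wd_hol' (sl_diff σ hz b c), wd_hol' (sl_diff σ hz c a)] at h1

variable {H : HkT C} {k l m : Fin 3} (hc : (k, l, m) = (0, 1, 2) ∨ (k, l, m) = (1, 2, 0) ∨
    (k, l, m) = (2, 0, 1)) (hA : Cp (H.acm k) A)

include hc in
theorem ty (hA : Cp (H.acm k) A) (i : A.ι) (z : Cn d) (hz : z ∈ (A.e i).target) (u v : Cn d) :
    ((cmp_of_cp hA).F (H.om l)).w i z (I • u) v = -((cmp_of_cp hA).F (H.om m)).w i z u v := by
  have h1 := (((cmp_of_cp hA).hk H).om_J hc (i := i) hz u v).1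
  rwa [hk_J_I hA i hz] at h1

/-- `om l + i om m` as a holomorphic 2-form of the atlas of `J k` -/
def sh2 (hA : Cp (H.acm k) A) : H2 A :=
  h20 ((cmp_of_cp hA).F (H.om l)) ((cmp_of_cp hA).F (H.om m)) fun i z hz u v =>
    ty hc hA i z hz u v

theorem sh2_clo : Clo (sh2 hc hA) := clo_of_clH (h20_cl _ _ _)

theorem sh2_bf {i : A.ι} {x : X} (hx : x ∈ (A.e i).source) (u v : Cn d) :
    bf ((sh2 hc hA).s i x) u v = (((cmp_of_cp hA).F (H.om l)).w i (A.e i x) u v : ℂ) +
      I * (((cmp_of_cp hA).F (H.om m)).w i (A.e i x) u v : ℂ) := by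
  have h1 := sb_h20 ((cmp_of_cp hA).F (H.om l)) ((cmp_of_cp hA).F (H.om m))
    (fun i z hz u v => ty hc hA i z hz u v) ((A.e i).map_source hx) u v
  have e : sl (h20 ((cmp_of_cp hA).F (H.om l)) ((cmp_of_cp hA).F (H.om m))
      (fun i z hz u v => ty hc hA i z hz u v)) i (A.e i x) = (sh2 hc hA).s i x := by
    change (sh2 hc hA).s i ((A.e i).symm (A.e i x)) = _
    rw [(A.e i).left_inv hx]
  rw [← h1, sb_eq_bf, e]

theorem sh2_nd (i : A.ι) (x : X) (hx : x ∈ (A.e i).source) : ((sh2 hc hA).s i x).det ≠ 0 := by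
  intro h0
  obtain ⟨v, hv, hv0⟩ := Matrix.exists_mulVec_eq_zero_iff.2 h0
  apply hv
  have hz := (A.e i).map_source hx
  have h1 : (WithLp.toLp 2 v : Cn d) = 0 := by
    refine ((cmp_of_cp hA).hk H).nondeg l hz _ fun u => ?_
    have h2 : bf ((sh2 hc hA).s i x) u (WithLp.toLp 2 v) = 0 := by
      rw [bf_dot]
      change u.ofLp ⬝ᵥ (_ *ᵥ v) = 0
      rw [hv0, dotProduct_zero]
    rw [sh2_bf hc hA hx] at h2
    have h3 := congrArg Complex.re h2
    have h4 := (((cmp_of_cp hA).hk H).om l).alt i _ hz (WithLp.toLp 2 v) u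
    rw [h4, neg_eq_zero]
    simpa using h3
  funext a
  exact congrArg (fun w : Cn d => w a) h1

/-- `om l + i om m` as a holomorphic symplectic form -/
def shS (hA : Cp (H.acm k) A) : HSymp A where
  toH2 := sh2 hc hA
  nd := sh2_nd hc hA

end Form

end

end Crest.Agent.R281.Ab_729
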