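import Crest.Agent.R281.Ab1_729

/-!
# R281 (S0424), S6-AA (helper729), file 2: maps from a complex vector space which are holomorphic in
the charts of a compatible holomorphic atlas; the pull back of `w + i w'` and its Darboux form.
-/

set_option autoImplicit false
set_option linter.unusedSectionVars false
set_option maxSynthPendingDepth 3

open Set Metric Filter Topology Complex Function TopologicalSpace
open scoped NNReal ContDiff Matrix

namespace Crest.Agent.R281.Ab_729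

open Crest.Agent.R275.Geo Crest.Agent.R275.Core144 Crest.Agent.R273.HFlow3_376
open Crest.Agent.R273.HFlow4_376 Crest.Agent.R273.Kah_333 Crest.Agent.R273.HessB_333
open Crest.Agent.R273.Defs_333 Crest.Agent.R273.Hess_333
open Crest.Agent.R273.HFlow5_376 Crest.Agent.R273.HFlow6_376 Crest.Agent.R260.ACM_580
open Crest.Agent.R260.NNB_580
open Crest.Agent.R281.Aa1_836 Crest.Agent.R281.Aa2_836 Crest.Agent.R281.Aa3_836
open Crest.Agent.R281.Aa4_836 Crest.Agent.R281.Aa5_836 Crest.Agent.R281.Aa6_836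
open Crest.Agent.R281.Aa7_836 Crest.Agent.R281.HkR_835
open Crest.Agent.R281.Defs_273 Crest.Agent.R281.HkP2_508
open Crest.Agent.R281.Per_368 (SmI pull pl)

noncomputable section

/-! ### smoothness -/

section Sm

variable {d : ℕ} {X : Type} [TopologicalSpace X] {A : Atl d X} {V : Type} [NormedAddCommGroup V]
  [NormedSpace ℝ V] {C : RCh V X} {E : Type} [NormedAddCommGroup E] [NormedSpace ℂ E]
  {S : Set E} {Φ : E → X}

/-- holomorphic in the charts of `A` -/
theorem diffOn_of_holC (hS : IsOpen S) (h : ∀ p ∈ S, HolC A Φ p) (i : A.ι) :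
    IsOpen (S ∩ Φ ⁻¹' (A.e i).source) ∧
      DifferentiableOn ℂ (fun p => A.e i (Φ p)) (S ∩ Φ ⁻¹' (A.e i).source) := by
  have hc : ContinuousOn Φ S := fun p hp => (h p hp).cont.continuousWithinAt
  refine ⟨hc.isOpen_inter_preimage hS (A.e i).open_source, fun p hp => ?_⟩
  exact ((h p hp.1).chart hp.2).differentiableWithinAt

theorem smI_ofAtl [FiniteDimensional ℂ E] (hS : IsOpen S) (h : ∀ p ∈ S, HolC A Φ p) :
    SmI (ofAtl A) S Φ where
  op := hS
  cont := fun p hp => (h p hp).cont.continuousWithinAt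
  sm i := by
    obtain ⟨h1, h2⟩ := diffOn_of_holC hS h i
    exact ((Crest.Agent.R266.SCV.contDiffOn_omega_of_differentiableOn h1 h2).restrict_scalars
      ℝ).of_le le_top

end Sm

section Cmp

variable {V V' X : Type} [NormedAddCommGroup V] [NormedSpace ℝ V] [NormedAddCommGroup V']
  [NormedSpace ℝ V'] [TopologicalSpace X] {C : RCh V X} {C' : RCh V' X}
  {E : Type} [NormedAddCommGroup E] [NormedSpace ℝ E] {S : Set E} {Φ : E → X}

theorem cmp_ev (hs : SmI C' S Φ) {ζ : E} (hζ : ζ ∈ S) (i : C.ι) {j : C'.ι}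
    (hj : Φ ζ ∈ (C'.e j).source) :
    (fun y => C.e i (Φ y)) =ᶠ[𝓝 ζ] fun y => mt C C' i j (C'.e j (Φ y)) := by
  filter_upwards [(hs.isOpen_pre (C'.e j).open_source).mem_nhds ⟨hζ, hj⟩] with y hy
  change _ = C.e i ((C'.e j).symm (C'.e j (Φ y)))
  rw [(C'.e j).left_inv hy.2]

theorem mem_mov {x : X} {i : C.ι} {j : C'.ι} (hi : x ∈ (C.e i).source)
    (hj : x ∈ (C'.e j).source) : C'.e j x ∈ mov C C' i j := by
  refine ⟨(C'.e j).map_source hj, ?_⟩
  rw [(C'.e j).left_inv hj]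
  exact hi

theorem smI_cmp (h : Cmp C C') (hs : SmI C' S Φ) : SmI C S Φ where
  op := hs.op
  cont := hs.cont
  sm i := by
    rintro ζ ⟨hζ, hi⟩
    obtain ⟨j, hj⟩ := C'.cover (Φ ζ)
    have h1 : ContDiffAt ℝ ∞ (mt C C' i j) (C'.e j (Φ ζ)) :=
      (h.s i j).contDiffAt ((Cmp.isOpen_mov C C' i j).mem_nhds (mem_mov hi hj))
    have h2 : ContDiffAt ℝ ∞ (fun y => mt C C' i j (C'.e j (Φ y))) ζ :=
      ContDiffAt.comp (g := mt C C' i j) ζ h1 (hs.smAt hζ hj)
    exact (h2.congr_of_eventuallyEq (cmp_ev hs hζ i hj)).contDiffWithinAt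

/-- derivative in the charts of `C` and of `C'` -/
theorem fderiv_cmp (h : Cmp C C') (hs : SmI C' S Φ) {ζ : E} (hζ : ζ ∈ S) {i : C.ι} {j : C'.ι}
    (hi : Φ ζ ∈ (C.e i).source) (hj : Φ ζ ∈ (C'.e j).source) (u : E) :
    fderiv ℝ (fun y => C.e i (Φ y)) ζ u =
      fderiv ℝ (mt C C' i j) (C'.e j (Φ ζ)) (fderiv ℝ (fun y => C'.e j (Φ y)) ζ u) := by
  have h1 := (h.diff (mem_mov hi hj)).hasFDerivAt.comp ζ (hs.diffAt hζ hj).hasFDerivAt
  rw [(cmp_ev hs hζ i hj).fderiv_eq]
  exact congrArg (fun T : E →L[ℝ] V => T u) h1.fderiv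

/-- the pull back in the charts of `C'` -/
theorem pull_cmp (h : Cmp C C') (hs : SmI C' S Φ) (w : F2 C) {ζ : E} (hζ : ζ ∈ S) {j : C'.ι}
    (hj : Φ ζ ∈ (C'.e j).source) (u v : E) :
    pull w Φ ζ u v = (h.F w).w j (C'.e j (Φ ζ)) (fderiv ℝ (fun y => C'.e j (Φ y)) ζ u)
      (fderiv ℝ (fun y => C'.e j (Φ y)) ζ v) := by
  obtain ⟨i, hi⟩ := C.cover (Φ ζ)
  rw [(smI_cmp h hs).pull_eq w hζ hi, Per_368.pl_apply, fderiv_cmp h hs hζ hi hj,
    fderiv_cmp h hs hζ hi hj, h.F_w w (mem_mov hi hj)]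
  change w.w i (C.e i (Φ ζ)) _ _ = w.w i (C.e i ((C'.e j).symm (C'.e j (Φ ζ)))) _ _
  rw [(C'.e j).left_inv hj]

end Cmp

/-! ### constancy along the angles -/

section Tau

variable {V X : Type} [NormedAddCommGroup V] [NormedSpace ℝ V] [FiniteDimensional ℝ V]
  [TopologicalSpace X] {C : RCh V X} {g : ℕ} {D : Set (Cn g)} {Φ : Cn g × Cn g → X}

/-- a closed form whose contraction with every angle direction is constant: its restriction to the
base directions does not depend on the angle -/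
theorem pull_const (hs : SmI C (D ×ˢ univ) Φ) (w : F2 C) {f : Cn g → Cn g → ℝ}
    (hf : ∀ p : Cn g × Cn g, p.1 ∈ D → ∀ x' b, pull w Φ p (b, 0) (0, x') = f x' b)
    {y : Cn g} (hy : y ∈ D) (a b x x₀ : Cn g) :
    pull w Φ (y, x) (a, 0) (b, 0) = pull w Φ (y, x₀) (a, 0) (b, 0) := by
  have hcl := hs.pull_cl w
  have hmem : ∀ x : Cn g, ((y, x) : Cn g × Cn g) ∈ D ×ˢ (univ : Set (Cn g)) := fun x =>
    ⟨hy, mem_univ _⟩
  have hd : ∀ x : Cn g, DifferentiableAt ℝ (pull w Φ) (y, x) := fun x =>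
    ((hcl.sm _ (hmem x)).contDiffAt (hs.op.mem_nhds (hmem x))).differentiableAt one_ne_zero
  have happ : ∀ (x : Cn g) (u v t : Cn g × Cn g), fderiv ℝ (pull w Φ) (y, x) t u v =
      fderiv ℝ (fun p => pull w Φ p u v) (y, x) t := fun x u v t => (fderiv_app (hd x) u v t).symm
  have hzero : ∀ (x : Cn g) (x' b : Cn g) (t : Cn g × Cn g),
      fderiv ℝ (pull w Φ) (y, x) t (b, 0) (0, x') = 0 := by
    intro x x' b t
    rw [happ]
    have h1 : (fun p => pull w Φ p (b, 0) (0, x')) =ᶠ[𝓝 ((y, x) : Cn g × Cn g)]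
        fun _ => f x' b := by
      filter_upwards [hs.op.mem_nhds (hmem x)] with p hp
      exact hf p hp.1 x' b
    rw [h1.fderiv_eq]
    simp
  have hzero' : ∀ (x : Cn g) (x' b : Cn g) (t : Cn g × Cn g),
      fderiv ℝ (pull w Φ) (y, x) t (0, x') (b, 0) = 0 := by
    intro x x' b t
    rw [happ]
    have h1 : (fun p => pull w Φ p (0, x') (b, 0)) =ᶠ[𝓝 ((y, x) : Cn g × Cn g)]
        fun _ => - f x' b := by
      filter_upwards [hs.op.mem_nhds (hmem x)] with p hp
      rw [hcl.alt p hp, hf p hp.1 x' b]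
    rw [h1.fderiv_eq]
    simp
  have hg : ∀ x : Cn g, HasFDerivAt (fun x => pull w Φ (y, x) (a, 0) (b, 0))
      (0 : Cn g →L[ℝ] ℝ) x := by
    intro x
    have h1 : HasFDerivAt (fun p => pull w Φ p (a, 0) (b, 0)) _ ((y, x) : Cn g × Cn g) :=
      (((hd x).hasFDerivAt.clm_apply (hasFDerivAt_const _ _)).clm_apply
        (hasFDerivAt_const _ _)).differentiableAt.hasFDerivAt
    have h2 : HasFDerivAt (fun x : Cn g => ((y, x) : Cn g × Cn g))
        (ContinuousLinearMap.inr ℝ (Cn g) (Cn g)) x := hasFDerivAt_prodMk_right y x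
    have h3 := h1.comp x h2
    refine h3.congr_fderiv ?_
    ext x'
    change fderiv ℝ (fun p => pull w Φ p (a, 0) (b, 0)) (y, x) (0, x') = 0
    rw [← happ]
    have h4 := hcl.closed (y, x) (hmem x) (0, x') (a, 0) (b, 0)
    rw [hzero, hzero', add_zero, add_zero] at h4
    exact h4
  exact is_const_of_fderiv_eq_zero (𝕜 := ℝ) (fun x => (hg x).differentiableAt)
    (fun x => (hg x).fderiv) x x₀

end Tau

end

end Crest.Agent.R281.Ab_729
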