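import Crest.Agent.R281.Ab2_729

/-!
# R281 (S0424), S6-AA (helper729), file 3: **`exists_holTube`**: action-angle tubes (`Tub_831.HolTube`)
of a holomorphic Lagrangian fibration `f : U → Cn g` on an open subset of a hyperkaehler triple.
-/

set_option autoImplicit false
set_option linter.unusedSectionVars false
set_option maxSynthPendingDepth 3

open Set Metric Filter Topology Complex Function TopologicalSpace
open scoped NNReal ContDiff Matrix

namespace Crest.Agent.R281.Ab_729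

open Crest.Agent.R275.Geo Crest.Agent.R275.Core144 Crest.Agent.R273.HFlow3_376
open Crest.Agent.R273.HFlow4_376 Crest.Agent.R273.Kah_333 Crest.Agent.R273.HessB_333
open Crest.Agent.R273.Defs_333 Crest.Agent.R273.Hess_333
open Crest.Agent.R273.HFlow5_376 Crest.Agent.R273.HFlow6_376 Crest.Agent.R260.ACM_580
open Crest.Agent.R260.NNB_580
open Crest.Agent.R281.Aa1_836 Crest.Agent.R281.Aa2_836 Crest.Agent.R281.Aa3_836
open Crest.Agent.R281.Aa4_836 Crest.Agent.R281.Aa5_836 Crest.Agent.R281.Aa6_836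
open Crest.Agent.R281.Aa7_836 Crest.Agent.R281.HkR_835 Crest.Agent.R281.Tub_831
open Crest.Agent.R281.Defs_273 Crest.Agent.R281.HkP2_508
open Crest.Agent.R281.Per_368 (SmI pull pl)

noncomputable section

/-! ### Darboux form with all angle directions -/

section Dar

variable {g : ℕ} {M : Type} [TopologicalSpace M] {A : Atl (2 * g) M} {σ : HSymp A} {y : M → Cn g}
  {ε R : ℝ} {Nb : Set M} {Ψ : (Fin g → ℂ) × Cn g → M} {l : Fin (2 * g) → Cn g → (Fin g → ℂ)}
  {b0 : Cn g} {h : LagF σ y}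

theorem dar (t : Tube A (VH σ h.hol) y b0 ε R Nb Ψ l) (c : Fin g → ℂ) {b : Cn g}
    (hb : b ∈ ball b0 ε) {i : A.ι} (hi : Ψ (c, b) ∈ (A.e i).source) (c' : Fin g → ℂ)
    (v : (Fin g → ℂ) × Cn g) :
    bf (σ.s i (Ψ (c, b))) (fderiv ℂ (fun q => A.e i (Ψ q)) (c, b) (c', 0))
      (fderiv ℂ (fun q => A.e i (Ψ q)) (c, b) v) = ∑ k, c' k * v.2 k := by
  classical
  have h1 : ((c', 0) : (Fin g → ℂ) × Cn g) =
      ∑ k, c' k • ((Pi.single k (1 : ℂ), 0) : (Fin g → ℂ) × Cn g) := by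
    refine Prod.ext ?_ ?_
    · rw [Prod.fst_sum]
      funext j
      simp [Finset.sum_apply, Pi.single_apply]
    · rw [Prod.snd_sum]
      simp
  rw [h1, map_sum, map_sum, _root_.sum_apply]
  refine Finset.sum_congr rfl fun k _ => ?_
  rw [map_smul, map_smul, _root_.smul_apply, smul_eq_mul, Aa7_836.Tube.darboux (h := h) t c hb hi]

end Dar

/-- `(y, x) ↦ (x, y)` -/
def Lw (g : ℕ) : (Cn g × Cn g) →L[ℂ] ((Fin g → ℂ) × Cn g) :=
  (((EuclideanSpace.equiv (Fin g) ℂ).toContinuousLinearMap).comp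
    (ContinuousLinearMap.snd ℂ (Cn g) (Cn g))).prod (ContinuousLinearMap.fst ℂ (Cn g) (Cn g))

theorem Lw_apply {g : ℕ} (p : Cn g × Cn g) : Lw g p = (p.2.ofLp, p.1) := rfl

theorem Lw_inj (g : ℕ) : Injective (Lw g) := by
  intro p q h
  rw [Lw_apply, Lw_apply] at h
  have h1 := congrArg Prod.fst h
  have h2 := congrArg Prod.snd h
  exact Prod.ext h2 (WithLp.ofLp_injective 2 h1)

section Main

variable {V X : Type} [NormedAddCommGroup V] [NormedSpace ℝ V] [FiniteDimensional ℝ V]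
  [TopologicalSpace X] {C : RCh V X} {g : ℕ} {A : Atl (2 * g) X}
  {H : HkT C} {k l m : Fin 3} (hc : (k, l, m) = (0, 1, 2) ∨ (k, l, m) = (1, 2, 0) ∨
    (k, l, m) = (2, 0, 1)) (hA : Cp (H.acm k) A)

/-- a holomorphic submersion with Lagrangian fibres, defined on an open subset -/
theorem lagF_of {U : Opens X} {f : X → Cn g}
    (hol : ∀ i, DifferentiableOn ℂ (fun z => f ((A.e i).symm z))
      ((A.e i).target ∩ (A.e i).symm ⁻¹' (U : Set X)))
    (sur : ∀ i, ∀ x ∈ (A.e i).source, x ∈ U →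
      Surjective (fderiv ℂ (fun z => f ((A.e i).symm z)) (A.e i x)))
    (lag : ∀ i, ∀ x ∈ (A.e i).source, x ∈ U → ∀ u v,
      fderiv ℂ (fun z => f ((A.e i).symm z)) (A.e i x) u = 0 →
      fderiv ℂ (fun z => f ((A.e i).symm z)) (A.e i x) v = 0 →
      ((cmp_of_cp hA).F (H.om l)).w i (A.e i x) u v = 0 ∧
      ((cmp_of_cp hA).F (H.om m)).w i (A.e i x) u v = 0) :
    LagF (opS (shS hc hA) U) (fun x : U => f x.1) where
  clo := opS_clo (sh2_clo hc hA)
  hol p := by
    refine ((hol p.2).mono fun z hz => ?_).congr fun z hz => ?_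
    · have := opA_target.1 hz
      exact ⟨this.1, this.2⟩
    · change f (((opA A U).e p).symm z).1 = f ((A.e p.2).symm z)
      rw [opA_symm hz]
  sur p x hx := by
    have h1 : fderiv ℂ (fun z => (fun x : U => f x.1) (((opA A U).e p).symm z))
        ((opA A U).e p x) = fderiv ℂ (fun z => f ((A.e p.2).symm z)) (A.e p.2 x.1) :=
      fderiv_opA f hx
    rw [h1]
    exact sur p.2 x.1 (opA_source.1 hx) x.2
  lag p x hx u v hu hv := by
    have h1 : fderiv ℂ (fun z => (fun x : U => f x.1) (((opA A U).e p).symm z))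
        ((opA A U).e p x) = fderiv ℂ (fun z => f ((A.e p.2).symm z)) (A.e p.2 x.1) :=
      fderiv_opA f hx
    rw [h1] at hu hv
    have h2 := lag p.2 x.1 (opA_source.1 hx) x.2 u v hu hv
    change bf ((sh2 hc hA).s p.2 x.1) u v = 0
    rw [sh2_bf hc hA (opA_source.1 hx), h2.1, h2.2]
    simp

/-- **action-angle tubes of a holomorphic Lagrangian fibration on an open subset** -/
theorem exists_holTube [T2Space X] {U : Opens X} {f : X → Cn g}
    (h : LagF (opS (shS hc hA) U) (fun x : U => f x.1)) {x0 : X} {T : Set X} (hx0 : x0 ∈ T)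
    (hT : IsCompact T) (hTc : IsPreconnected T) (hTU : T ⊆ (U : Set X))
    (hTy : ∀ x ∈ T, f x = f x0) {O : Set X} (hO : IsOpen O) (hTO : T ⊆ O)
    (hOT : ∀ x ∈ O, x ∈ U → f x = f x0 → x ∈ T) :
    ∃ (D : Set (Cn g)) (Φ : Cn g × Cn g → X) (lt : Fin (2 * g) → Cn g → Cn g)
      (τ : Cn g → Cn g → Cn g → ℂ), HolTube C (H.J k) (H.om l) (H.om m) g D Φ lt τ ∧
      (∀ y ∈ D, ∀ x, Φ (y, x) ∈ U ∧ f (Φ (y, x)) = y) ∧ f x0 ∈ D ∧ Φ (f x0, 0) = x0 := by
  classical
  -- the leaf in `U`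
  set T' : Set U := Subtype.val ⁻¹' T with hT'
  have himg : Subtype.val '' T' = T := by
    apply Subset.antisymm
    · rintro _ ⟨x, hx, rfl⟩
      exact hx
    · exact fun x hx => ⟨⟨x, hTU hx⟩, hx, rfl⟩
  have hT1 : IsCompact T' := by
    rw [Subtype.isCompact_iff, himg]
    exact hT
  have hT2 : IsPreconnected T' := by
    refine (IsInducing.isPreconnected_image (f := (Subtype.val : U → X))
      IsInducing.subtypeVal).1 ?_
    have h1 := himg
    exact h1.symm ▸ hTc
  obtain ⟨ε, R, Nb, Ψ, lp, t, hTN, -, hΨ0⟩ := exists_AA h (x0 := ⟨x0, hTU hx0⟩) (T := T')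
    (by exact hx0) hT1 hT2 (fun x hx => hTy x.1 hx) (O := Subtype.val ⁻¹' O)
    (hO.preimage continuous_subtype_val) (fun x hx => hTO hx)
    (fun x hx hy => hOT x.1 hx x.2 hy)
  set b0 : Cn g := f x0 with hb0
  set D : Set (Cn g) := ball b0 ε with hD
  set Φ : Cn g × Cn g → X := fun p => (Ψ (Lw g p)).1 with hΦ
  have hpos := t.pos
  have hSo : IsOpen (D ×ˢ (univ : Set (Cn g))) := isOpen_ball.prod isOpen_univ
  -- holomorphic
  have hH : ∀ p ∈ D ×ˢ (univ : Set (Cn g)), HolC A Φ p := by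
    intro p hp
    have h1 : HolC A (fun q => (Ψ q).1) (Lw g p) := HolC.val (t.hol _ _ hp.1)
    exact h1.comp (u := Lw g) (Lw g).differentiableAt
  have hcmp := cmp_of_cp hA
  have hsA : SmI (ofAtl A) (D ×ˢ (univ : Set (Cn g))) Φ := smI_ofAtl hSo hH
  have hsC : SmI C (D ×ˢ (univ : Set (Cn g))) Φ := smI_cmp hcmp hsA
  -- the derivative in the charts of `A`
  have hDR : ∀ p : Cn g × Cn g, p.1 ∈ D → ∀ j, Φ p ∈ (A.e j).source → ∀ u,
      fderiv ℝ (fun q => (ofAtl A).e j (Φ q)) p u =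
        fderiv ℂ (fun q => A.e j (Ψ q).1) (Lw g p) (Lw g u) := by
    intro p hp j hj u
    have h1 : HolC A (fun q => (Ψ q).1) (Lw g p) := HolC.val (t.hol _ _ hp)
    have h2 : HasFDerivAt (fun q => A.e j (Φ q))
        ((fderiv ℂ (fun q => A.e j (Ψ q).1) (Lw g p)).comp (Lw g)) p :=
      (h1.chart (j := j) hj).hasFDerivAt.comp p (Lw g).hasFDerivAt
    have h3 := (h2.restrictScalars ℝ).fderiv
    change fderiv ℝ (fun q => A.e j (Φ q)) p u = _
    rw [h3]
    rfl
  -- the form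
  have hform : ∀ p : Cn g × Cn g, p.1 ∈ D → ∀ j, Φ p ∈ (A.e j).source → ∀ u v,
      ((pull (H.om l) Φ p u v : ℝ) : ℂ) + I * ((pull (H.om m) Φ p u v : ℝ) : ℂ) =
        bf ((sh2 hc hA).s j (Φ p)) (fderiv ℂ (fun q => A.e j (Ψ q).1) (Lw g p) (Lw g u))
          (fderiv ℂ (fun q => A.e j (Ψ q).1) (Lw g p) (Lw g v)) := by
    intro p hp j hj u v
    rw [pull_cmp hcmp hsA (H.om l) (j := j) ⟨hp, mem_univ _⟩ hj,
      pull_cmp hcmp hsA (H.om m) (j := j) ⟨hp, mem_univ _⟩ hj, hDR p hp j hj, hDR p hp j hj,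
      sh2_bf hc hA hj]
    rfl
  have hdar : ∀ p : Cn g × Cn g, p.1 ∈ D → ∀ (x' : Cn g) (v : Cn g × Cn g),
      ((pull (H.om l) Φ p (0, x') v : ℝ) : ℂ) + I * ((pull (H.om m) Φ p (0, x') v : ℝ) : ℂ) =
        ∑ k, x' k * v.1 k := by
    intro p hp x' v
    obtain ⟨j, hj⟩ := A.cover (Φ p)
    rw [hform p hp j hj]
    have hj' : Ψ (Lw g p) ∈ ((opA A U).e (Ψ (Lw g p), j)).source := opA_source.2 hj
    exact dar (h := h) t _ hp hj' x'.ofLp (Lw g v)
  have halt : ∀ (w : F2 C) (p : Cn g × Cn g), p.1 ∈ D → ∀ u v,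
      pull w Φ p u v = - pull w Φ p v u := fun w p hp u v =>
    (hsC.pull_cl w).alt p ⟨hp, mem_univ _⟩ u v
  -- real and imaginary parts
  have hre : ∀ p : Cn g × Cn g, p.1 ∈ D → ∀ x' b : Cn g,
      pull (H.om l) Φ p (b, 0) (0, x') = - (∑ k, x' k * b k).re := by
    intro p hp x' b
    have h1 := congrArg Complex.re (hdar p hp x' (b, 0))
    rw [halt _ p hp, ← h1]
    simp
  have him : ∀ p : Cn g × Cn g, p.1 ∈ D → ∀ x' b : Cn g,
      pull (H.om m) Φ p (b, 0) (0, x') = - (∑ k, x' k * b k).im := by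
    intro p hp x' b
    have h1 := congrArg Complex.im (hdar p hp x' (b, 0))
    rw [halt _ p hp, ← h1]
    simp
  refine ⟨D, Φ, fun j y => WithLp.toLp 2 (lp j y), fun y a b =>
    ((pull (H.om l) Φ (y, 0) (a, 0) (b, 0) : ℝ) : ℂ) +
      I * ((pull (H.om m) Φ (y, 0) (a, 0) (b, 0) : ℝ) : ℂ), ?_, ?_, ?_, ?_⟩
  · refine
      { op := isOpen_ball
        cv := convex_ball _ _
        ne := ⟨b0, mem_ball_self hpos⟩
        sm := hsC
        hol := ?_
        inj := ?_
        lhol := ?_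
        lli := ?_
        eq_iff := ?_
        symp := ?_ }
    · intro p hp i hi u
      obtain ⟨j, hj⟩ := A.cover (Φ p)
      have hmem : p ∈ D ×ˢ (univ : Set (Cn g)) := ⟨hp, mem_univ _⟩
      have hz : (ofAtl A).e j (Φ p) ∈ (A.e j).target := (A.e j).map_source hj
      rw [fderiv_cmp hcmp hsA hmem hi (j := j) hj, fderiv_cmp hcmp hsA hmem hi (j := j) hj,
        hDR p hp j hj, hDR p hp j hj, map_smul, map_smul]
      have h1 := Cmp.hk_J H hcmp k (mem_mov (C := C) (C' := ofAtl A) hi (j := j) hj)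
        (fderiv ℂ (fun q => A.e j (Ψ q).1) (Lw g p) (Lw g u))
      rw [hk_J_I hA j hz] at h1
      have h2 : mt C (ofAtl A) i j ((ofAtl A).e j (Φ p)) = C.e i (Φ p) := by
        change C.e i ((A.e j).symm (A.e j (Φ p))) = _
        rw [(A.e j).left_inv hj]
      rw [h2] at h1
      exact h1
    · intro p hp i hi u v huv
      obtain ⟨j, hj⟩ := A.cover (Φ p)
      have hmem : p ∈ D ×ˢ (univ : Set (Cn g)) := ⟨hp, mem_univ _⟩
      rw [fderiv_cmp hcmp hsA hmem hi (j := j) hj, fderiv_cmp hcmp hsA hmem hi (j := j) hj] at huv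
      have h1 := hcmp.inj (mem_mov (C := C) (C' := ofAtl A) hi (j := j) hj) huv
      rw [hDR p hp j hj, hDR p hp j hj] at h1
      have hj' : Ψ (Lw g p) ∈ ((opA A U).e (Ψ (Lw g p), j)).source := opA_source.2 hj
      exact Lw_inj g (t.inj _ _ hp (Ψ (Lw g p), j) hj' h1)
    · intro j
      exact ((EuclideanSpace.equiv (Fin g) ℂ).symm.toContinuousLinearMap.differentiable).comp_differentiableOn
        (t.lhol j)
    · intro y hy
      have h1 := t.lli y hy
      have h2 := h1.map' (((EuclideanSpace.equiv (Fin g) ℂ).symm.toLinearEquiv.restrictScalars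
        ℝ).toLinearMap) (LinearEquiv.ker _)
      exact h2
    · intro y hy y' hy' x x'
      have h1 := t.eq_iff (c := x.ofLp) (c' := x'.ofLp) hy hy'
      have h2 : Φ (y, x) = Φ (y', x') ↔ Ψ (x.ofLp, y) = Ψ (x'.ofLp, y') := by
        rw [Subtype.ext_iff]
        rfl
      rw [h2, h1]
      refine and_congr_right fun _ => exists_congr fun m => ?_
      constructor
      · intro h3
        apply WithLp.ofLp_injective 2
        rw [WithLp.ofLp_sub, h3, WithLp.ofLp_sum]
        refine Finset.sum_congr rfl fun i _ => ?_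
        rw [WithLp.ofLp_smul, Int.cast_smul_eq_zsmul]
      · intro h3
        have h4 := congrArg WithLp.ofLp h3
        rw [WithLp.ofLp_sub, WithLp.ofLp_sum] at h4
        rw [h4]
        refine Finset.sum_congr rfl fun i _ => ?_
        rw [WithLp.ofLp_smul, Int.cast_smul_eq_zsmul]
    · intro p hp u v
      have e1 : u = (0, u.2) + (u.1, 0) := by simp
      have e2 : v = (0, v.2) + (v.1, 0) := by simp
      have hsplit : ∀ w : F2 C, pull w Φ p u v = pull w Φ p (0, u.2) v -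
          pull w Φ p (0, v.2) (u.1, 0) + pull w Φ p (u.1, 0) (v.1, 0) := by
        intro w
        conv_lhs => rw [e1, map_add, _root_.add_apply]
        have e3 : pull w Φ p (u.1, 0) v = pull w Φ p (u.1, 0) (0, v.2) +
            pull w Φ p (u.1, 0) (v.1, 0) := by
          conv_lhs => rw [e2, map_add]
        rw [e3, halt w p hp (u.1, 0) (0, v.2)]
        ring
      have h1 := hdar p hp u.2 v
      have h2 := hdar p hp v.2 (u.1, 0)
      have h3 : pull (H.om l) Φ p (u.1, 0) (v.1, 0) =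
          pull (H.om l) Φ (p.1, 0) (u.1, 0) (v.1, 0) :=
        pull_const hsC (H.om l) hre hp u.1 v.1 p.2 0
      have h4 : pull (H.om m) Φ p (u.1, 0) (v.1, 0) =
          pull (H.om m) Φ (p.1, 0) (u.1, 0) (v.1, 0) :=
        pull_const hsC (H.om m) him hp u.1 v.1 p.2 0
      rw [hsplit (H.om l), hsplit (H.om m), h3, h4]
      have h5 : ∑ i, (u.2 i * v.1 i - u.1 i * v.2 i) = ∑ k, u.2 k * v.1 k -
          ∑ k, v.2 k * ((u.1, (0 : Cn g)) : Cn g × Cn g).1 k := by
        rw [← Finset.sum_sub_distrib]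
        exact Finset.sum_congr rfl fun i _ => by ring
      rw [h5, ← h1, ← h2]
      push_cast
      ring
  · intro y hy x
    exact ⟨(Ψ (Lw g (y, x))).2, t.y_eq _ y hy⟩
  · exact mem_ball_self hpos
  · have h1 := congrArg Subtype.val hΨ0
    exact h1

end Main

end

end Crest.Agent.R281.Ab_729
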