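import Crest.Agent.R281.FujR_513

/-!
# Row 281: polarised Fujiki algebra

`T` a symmetric `k`-linear form on a real vector space `H` (e.g. closed real 2-forms, `T` = integral
of the product). Binomial expansion on lines, polarisation, and the consequences of
`T (x,..,x) = q x ^ n`, `k = 2n`.
-/

set_option autoImplicit false

open Polynomial

namespace Crest.Agent.R281.FujP_513

open Crest.Agent.R281.FujR_513

variable {H : Type*} [AddCommGroup H] [Module ℝ H]

/-- `T` is symmetric. -/
def Symm {k : ℕ} (T : MultilinearMap ℝ (fun _ : Fin k => H) ℝ) : Prop :=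
  ∀ (σ : Equiv.Perm (Fin k)) (v : Fin k → H), T (fun i => v (σ i)) = T v

/-- the vector with `a` entries `y` followed by `k - a` entries `x`. -/
def mixv (k a : ℕ) (x y : H) : Fin k → H := fun i => if (i : ℕ) < a then y else x

/-- For a symmetric form only the number of entries `x`, `y` matters. -/
lemma Symm.piecewise_eq {k : ℕ} {T : MultilinearMap ℝ (fun _ : Fin k => H) ℝ} (hT : Symm T)
    (S S' : Finset (Fin k)) (h : S.card = S'.card) (x y : H) :
    T (S.piecewise (fun _ => x) (fun _ => y)) = T (S'.piecewise (fun _ => x) (fun _ => y)) := by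
  classical
  have e : {i // i ∈ S'} ≃ {i // i ∈ S} := Fintype.equivOfCardEq (by simp [h])
  rw [← hT e.extendSubtype (S.piecewise (fun _ => x) (fun _ => y))]
  congr 1
  funext i
  by_cases hi : i ∈ S'
  · have h1 : e.extendSubtype i ∈ S := e.extendSubtype_mem i hi
    simp [hi, h1]
  · have h1 : e.extendSubtype i ∉ S := e.extendSubtype_not_mem i hi
    simp [hi, h1]

lemma Symm.eq_mixv {k : ℕ} {T : MultilinearMap ℝ (fun _ : Fin k => H) ℝ} (hT : Symm T)
    (S : Finset (Fin k)) (x y : H) :
    T (S.piecewise (fun _ => x) (fun _ => y)) = T (mixv k (k - S.card) x y) := by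
  classical
  set S' : Finset (Fin k) := Finset.univ.filter fun i : Fin k => ¬ ((i : ℕ) < k - S.card)
    with hS'
  have hcard : S.card = S'.card := by
    have h1 : (Finset.univ.filter fun i : Fin k => (i : ℕ) < k - S.card).card = k - S.card := by
      rw [Fin.card_filter_val_lt]
      exact min_eq_right (Nat.sub_le _ _)
    have h2 := Finset.card_filter_add_card_filter_not (s := (Finset.univ : Finset (Fin k)))
      (fun i : Fin k => (i : ℕ) < k - S.card)
    have h3 : S.card ≤ k := by simpa using Finset.card_le_univ S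
    rw [h1, Finset.card_univ, Fintype.card_fin] at h2
    rw [hS']
    omega
  rw [hT.piecewise_eq S S' hcard]
  congr 1
  funext i
  by_cases hi : (i : ℕ) < k - S.card
  · have : i ∉ S' := by
      simp only [hS', Finset.mem_filter, Finset.mem_univ, true_and, not_not]; exact hi
    simp [mixv, hi, this]
  · have : i ∈ S' := by simp only [hS', Finset.mem_filter, Finset.mem_univ, true_and]; exact hi
    simp [mixv, hi, this]

/-- **Binomial expansion.** -/
theorem Symm.expand {k : ℕ} {T : MultilinearMap ℝ (fun _ : Fin k => H) ℝ} (hT : Symm T)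
    (x y : H) (s : ℝ) :
    T (fun _ => x + s • y) =
      ∑ a ∈ Finset.range (k + 1), (k.choose a : ℝ) * s ^ a * T (mixv k a x y) := by
  classical
  have h1 : (fun _ : Fin k => x + s • y) = (fun _ => x) + (fun _ => s • y) := rfl
  rw [h1, MultilinearMap.map_add_univ]
  have h2 : ∀ S : Finset (Fin k), T (S.piecewise (fun _ => x) (fun _ => s • y)) =
      s ^ (k - S.card) * T (mixv k (k - S.card) x y) := by
    intro S
    have h2 : S.piecewise (fun _ : Fin k => x) (fun _ => s • y) =
        (Sᶜ).piecewise (fun i => s • (S.piecewise (fun _ : Fin k => x) (fun _ => y)) i)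
          (S.piecewise (fun _ : Fin k => x) (fun _ => y)) := by
      funext i
      by_cases hi : i ∈ S
      · simp [hi]
      · simp [hi]
    rw [h2, MultilinearMap.map_piecewise_smul, Finset.prod_const, hT.eq_mixv S x y,
      Finset.card_compl, Fintype.card_fin, smul_eq_mul]
  rw [Finset.sum_congr rfl fun S _ => h2 S]
  have h3 := Finset.sum_powerset_apply_card (x := (Finset.univ : Finset (Fin k)))
    (fun c : ℕ => s ^ (k - c) * T (mixv k (k - c) x y))
  rw [Finset.powerset_univ, Finset.card_univ, Fintype.card_fin] at h3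
  rw [h3, ← Finset.sum_range_reflect]
  refine Finset.sum_congr rfl fun a ha => ?_
  have ha' : a ≤ k := Nat.lt_succ_iff.1 (Finset.mem_range.1 ha)
  have e1 : k + 1 - 1 - a = k - a := by omega
  have e2 : k - (k - a) = a := Nat.sub_sub_self ha'
  rw [e1, e2, Nat.choose_symm ha', nsmul_eq_mul]
  ring

/-- comparison of coefficients in `s`. -/
lemma coeff_of_expand {k : ℕ} (c : ℕ → ℝ) (p : ℝ[X])
    (h : ∀ s : ℝ, ∑ a ∈ Finset.range (k + 1), c a * s ^ a = p.eval s) :
    ∀ a ≤ k, c a = p.coeff a := by
  intro a ha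
  have h1 : (∑ a ∈ Finset.range (k + 1), C (c a) * X ^ a : ℝ[X]) = p := by
    refine Polynomial.funext fun s => ?_
    rw [← h s, eval_finsetSum]
    exact Finset.sum_congr rfl fun a _ => by simp
  rw [← h1, finsetSum_coeff]
  simp only [coeff_C_mul, coeff_X_pow]
  rw [Finset.sum_eq_single a]
  · simp
  · intro b _ hb; simp [Ne.symm hb]
  · intro hcon; exact absurd (Finset.mem_range.2 (Nat.lt_succ_of_le ha)) hcon

omit [AddCommGroup H] [Module ℝ H] in
lemma mixv_one {k : ℕ} (x y : H) : mixv (k + 1) 1 x y = Fin.cons y (fun _ => x) := by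
  funext i
  refine Fin.cases ?_ (fun j => ?_) i
  · simp [mixv]
  · simp [mixv]

lemma Symm.curryLeft {k : ℕ} {T : MultilinearMap ℝ (fun _ : Fin (k + 1) => H) ℝ} (hT : Symm T)
    (y : H) : Symm (T.curryLeft y) := by
  intro σ v
  rw [MultilinearMap.curryLeft_apply, MultilinearMap.curryLeft_apply,
    ← hT (Equiv.Perm.decomposeFin.symm (0, σ)) (Fin.cons y v)]
  congr 1
  funext i
  refine Fin.cases ?_ (fun j => ?_) i
  · rw [Equiv.Perm.decomposeFin_symm_apply_zero]; simp
  · rw [Equiv.Perm.decomposeFin_symm_apply_succ]; simp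

/-- **Polarisation**: a symmetric form which vanishes on the diagonal is zero. -/
theorem Symm.eq_zero : ∀ {k : ℕ} {T : MultilinearMap ℝ (fun _ : Fin k => H) ℝ}, Symm T →
    (∀ x : H, T (fun _ => x) = 0) → ∀ v, T v = 0
  | 0, T, _, h, v => by
    have : v = fun _ => (0 : H) := funext fun i => i.elim0
    rw [this]; exact h 0
  | k + 1, T, hT, h, v => by
    have h1 : ∀ y : H, ∀ w, T.curryLeft y w = 0 := by
      intro y
      refine Symm.eq_zero (hT.curryLeft y) fun x => ?_
      have h2 := coeff_of_expand (k := k + 1)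
        (fun a => ((k + 1).choose a : ℝ) * T (mixv (k + 1) a x y)) 0 (fun s => by
          have := hT.expand x y s
          rw [h] at this
          rw [eval_zero, this]
          exact Finset.sum_congr rfl fun a _ => by ring) 1 (by omega)
      rw [coeff_zero, mixv_one, Nat.choose_one_right] at h2
      rw [MultilinearMap.curryLeft_apply]
      have h3 : ((k + 1 : ℕ) : ℝ) ≠ 0 := by positivity
      exact (mul_eq_zero.1 h2).resolve_left h3
    have h2 := h1 (v 0) (Fin.tail v)
    rw [MultilinearMap.curryLeft_apply, Fin.cons_self_tail] at h2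
    exact h2

/-- two symmetric forms with the same diagonal agree. -/
theorem Symm.ext_diag {k : ℕ} {T T' : MultilinearMap ℝ (fun _ : Fin k => H) ℝ} (hT : Symm T)
    (hT' : Symm T') (h : ∀ x : H, T (fun _ => x) = T' (fun _ => x)) : T = T' := by
  have h1 : Symm (T - T') := fun σ v => by
    simp only [sub_apply, hT σ v, hT' σ v]
  ext v
  have := h1.eq_zero (fun x => by simp [h x]) v
  simpa [sub_eq_zero] using this

/-- fix the first `j` entries equal to `e`. -/
def fixl (e : H) (m : ℕ) : (j : ℕ) → MultilinearMap ℝ (fun _ : Fin (m + j) => H) ℝ →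
    MultilinearMap ℝ (fun _ : Fin m => H) ℝ
  | 0, T => T
  | j + 1, T => fixl e m j (MultilinearMap.curryLeft (n := m + j) T e)

/-- the vector `(e, .., e, v)` with `j` entries `e`. -/
def fixv (e : H) (m : ℕ) : (j : ℕ) → (Fin m → H) → Fin (m + j) → H
  | 0, v => v
  | j + 1, v => Fin.cons (α := fun _ : Fin (m + j + 1) => H) e (fixv e m j v)

lemma fixl_apply (e : H) (m : ℕ) : ∀ (j : ℕ) (T : MultilinearMap ℝ (fun _ : Fin (m + j) => H) ℝ)
    (v : Fin m → H), fixl e m j T v = T (fixv e m j v)
  | 0, T, v => rfl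
  | j + 1, T, v => by
    rw [fixl, fixl_apply e m j, MultilinearMap.curryLeft_apply]
    rfl

lemma fixl_symm (e : H) (m : ℕ) : ∀ (j : ℕ) (T : MultilinearMap ℝ (fun _ : Fin (m + j) => H) ℝ),
    Symm T → Symm (fixl e m j T)
  | 0, T, hT => hT
  | j + 1, T, hT => by
    rw [fixl]
    exact fixl_symm e m j _ (Symm.curryLeft (k := m + j) hT e)

omit [AddCommGroup H] [Module ℝ H] in
lemma fixv_apply (e : H) (m : ℕ) : ∀ (j : ℕ) (v : Fin m → H) (i : Fin (m + j)),
    fixv e m j v i = if h : (i : ℕ) < j then e else v ⟨(i : ℕ) - j, by omega⟩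
  | 0, v, i => by simp [fixv]
  | j + 1, v, i => by
    rw [fixv]
    refine Fin.cases ?_ (fun i' => ?_) (n := m + j) i
    · simp
    · rw [Fin.cons_succ, fixv_apply e m j]
      simp only [Fin.val_succ, Nat.add_lt_add_iff_right, Nat.reduceSubDiff]

omit [AddCommGroup H] [Module ℝ H] in
lemma fixv_diag (e : H) (m j : ℕ) (x : H) : fixv e m j (fun _ => x) = mixv (m + j) j x e := by
  funext i
  rw [fixv_apply]
  by_cases h : (i : ℕ) < j <;> simp [mixv, h]

/-! ### The Fujiki relation -/

section Fujiki

variable {n : ℕ} {T : MultilinearMap ℝ (fun _ : Fin (n + n) => H) ℝ} {q : QuadraticForm ℝ H}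

/-- `C(2n,a) T(e^a, x^(2n-a)) = C(n,a) q(x)^(n-a) (2 b(x,e))^a` for isotropic `e`
(`polar q x e = 2 b(x,e)`); in particular `0` for `a > n`. -/
theorem isotropic_mix (hT : Symm T) (hq : ∀ x, T (fun _ => x) = q x ^ n) {e : H} (he : q e = 0)
    (x : H) {a : ℕ} (ha : a ≤ n + n) :
    ((n + n).choose a : ℝ) * T (mixv (n + n) a x e) =
      (n.choose a : ℝ) * q x ^ (n - a) * QuadraticMap.polar q x e ^ a := by
  set β := QuadraticMap.polar q x e with hβ
  have h1 : ∀ s : ℝ, q (x + s • e) = q x + s * β := by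
    intro s
    have h1 : q (x + s • e) = q x + q (s • e) + QuadraticMap.polar q x (s • e) := by
      simp [QuadraticMap.polar]
    rw [h1, QuadraticMap.polar_smul_right, QuadraticMap.map_smul, he]
    simp [hβ]
  have h2 := coeff_of_expand (k := n + n)
    (fun a => ((n + n).choose a : ℝ) * T (mixv (n + n) a x e))
    (∑ b ∈ Finset.range (n + 1), C ((n.choose b : ℝ) * q x ^ (n - b) * β ^ b) * X ^ b) (by
      intro s
      have h3 := hT.expand x e s
      rw [hq, h1, add_comm (q x), add_pow] at h3
      rw [eval_finsetSum]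
      simp only [eval_mul, eval_C, eval_pow, eval_X]
      rw [show (∑ a ∈ Finset.range (n + n + 1),
        ((n + n).choose a : ℝ) * T (mixv (n + n) a x e) * s ^ a) =
        ∑ a ∈ Finset.range (n + n + 1), ((n + n).choose a : ℝ) * s ^ a * T (mixv (n + n) a x e)
        from Finset.sum_congr rfl fun a _ => by ring, ← h3]
      exact Finset.sum_congr rfl fun b _ => by rw [mul_pow]; ring) a ha
  rw [h2, finsetSum_coeff]
  simp only [coeff_C_mul, coeff_X_pow]
  rw [Finset.sum_eq_single a]
  · simp
  · intro b _ hb; simp [Ne.symm hb]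
  · intro hcon
    have : n < a := by
      by_contra hc; push Not at hc
      exact hcon (Finset.mem_range.2 (Nat.lt_succ_of_le hc))
    simp [Nat.choose_eq_zero_of_lt this]

/-- `T` vanishes if more than `n` entries are the isotropic vector `e`. -/
theorem isotropic_zero {m j : ℕ} {T : MultilinearMap ℝ (fun _ : Fin (m + j) => H) ℝ}
    (hT : Symm T) {n : ℕ} (hmj : m + j = n + n) (hq : ∀ x, T (fun _ => x) = q x ^ n) {e : H}
    (he : q e = 0) (hj : n < j) (v : Fin m → H) : T (fixv e m j v) = 0 := by
  rw [← fixl_apply]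
  refine (fixl_symm e m j T hT).eq_zero (fun x => ?_) v
  rw [fixl_apply, fixv_diag]
  have key : ∀ (k : ℕ) (hk : k = n + n) (T : MultilinearMap ℝ (fun _ : Fin k => H) ℝ), Symm T →
      (∀ x, T (fun _ => x) = q x ^ n) → j ≤ k → T (mixv k j x e) = 0 := by
    rintro k rfl T hT hq hjk
    have h := isotropic_mix hT hq he x hjk
    rw [Nat.choose_eq_zero_of_lt hj] at h
    have h3 : ((n + n).choose j : ℝ) ≠ 0 := by
      exact_mod_cast (Nat.choose_pos hjk).ne'
    simp only [Nat.cast_zero, zero_mul, mul_eq_zero] at h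
    exact h.resolve_left h3
  exact key _ hmj T hT hq (Nat.le_add_left _ _)

/-- `C(2n,n) T(e,..,e,y_1,..,y_n) = prod 2 b(y_i,e)` for isotropic `e`. -/
theorem isotropic_top (hT : Symm T) (hq : ∀ x, T (fun _ => x) = q x ^ n) {e : H} (he : q e = 0)
    (v : Fin n → H) :
    ((n + n).choose n : ℝ) * T (fixv e n n v) = ∏ i, QuadraticMap.polar q (v i) e := by
  set B : MultilinearMap ℝ (fun _ : Fin n => H) ℝ :=
    (MultilinearMap.mkPiAlgebra ℝ (Fin n) ℝ).compLinearMap
      (fun _ => (QuadraticMap.polarBilin q).flip e) with hB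
  have hBv : ∀ v, B v = ∏ i, QuadraticMap.polar q (v i) e := fun v => by simp [hB]
  have hBs : Symm B := fun σ v => by
    rw [hBv, hBv]
    exact Equiv.prod_comp σ fun i => QuadraticMap.polar q (v i) e
  have hTs : Symm (((n + n).choose n : ℝ) • fixl e n n T) := fun σ v => by
    simp only [smul_apply, fixl_symm e n n T hT σ v]
  have h : ((n + n).choose n : ℝ) • fixl e n n T = B := by
    refine hTs.ext_diag hBs fun x => ?_
    rw [smul_apply, fixl_apply, fixv_diag, smul_eq_mul,
      isotropic_mix hT hq he x (Nat.le_add_left _ _), hBv]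
    simp
  have h2 := congrArg (fun F => F v) h
  simp only [smul_apply, fixl_apply, smul_eq_mul, hBv] at h2
  exact h2

end Fujiki

/-- `2 T(y, x^(2n-1)) = q(x)^(n-1) · 2 b(x,y)`: the first polarised Fujiki relation. -/
theorem first_polar {n : ℕ} (hn : 0 < n) {k : ℕ} (hk : k + 1 = n + n)
    {T : MultilinearMap ℝ (fun _ : Fin (k + 1) => H) ℝ} {q : QuadraticForm ℝ H} (hT : Symm T)
    (hq : ∀ x, T (fun _ => x) = q x ^ n) (x y : H) :
    2 * T (Fin.cons y fun _ => x) = q x ^ (n - 1) * QuadraticMap.polar q x y := by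
  set β := QuadraticMap.polar q x y with hβ
  have h1 : ∀ s : ℝ, q (x + s • y) = q x + s * β + s ^ 2 * q y := by
    intro s
    have h1 : q (x + s • y) = q x + q (s • y) + QuadraticMap.polar q x (s • y) := by
      simp [QuadraticMap.polar]
    rw [h1, QuadraticMap.polar_smul_right, QuadraticMap.map_smul]
    simp only [smul_eq_mul, ← hβ]
    ring
  have h2 := coeff_of_expand (k := k + 1)
    (fun a => ((k + 1).choose a : ℝ) * T (mixv (k + 1) a x y))
    ((C (q x) + C β * X + C (q y) * X ^ 2) ^ n) (by
      intro s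
      have h3 := hT.expand x y s
      rw [hq, h1] at h3
      simp only [eval_pow, eval_add, eval_mul, eval_C, eval_X]
      rw [show q x + β * s + q y * s ^ 2 = q x + s * β + s ^ 2 * q y by ring, h3]
      exact Finset.sum_congr rfl fun a _ => by ring) 1 (by omega)
  rw [mixv_one, Nat.choose_one_right] at h2
  have h4 : ((C (q x) + C β * X + C (q y) * X ^ 2 : ℝ[X]) ^ n).coeff 1 =
      n * q x ^ (n - 1) * β := by
    have hd : ((C (q x) + C β * X + C (q y) * X ^ 2 : ℝ[X]) ^ n).coeff 1 =
        (derivative ((C (q x) + C β * X + C (q y) * X ^ 2 : ℝ[X]) ^ n)).eval 0 := by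
      rw [← coeff_zero_eq_eval_zero, coeff_derivative]; simp
    rw [hd, derivative_pow]
    simp
  rw [h4] at h2
  have hn' : (n : ℝ) ≠ 0 := by positivity
  have h5 : (n : ℝ) * (2 * T (Fin.cons y fun _ => x)) = n * (q x ^ (n - 1) * β) := by
    have h6 : ((k + 1 : ℕ) : ℝ) = 2 * n := by rw [hk]; push_cast; ring
    rw [h6] at h2
    linarith
  exact mul_left_cancel₀ hn' h5

end Crest.Agent.R281.FujP_513
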