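import Crest.Agent.R281.HKA2_799
import Crest.Agent.R281.FujP_513

/-!
# Row 281, HK-ALONG, part 1 (helper830): infinitesimal naturality of the top form

`I` a natural multilinear functional of `N` bilinear forms (`T`-pull back multiplies by `det T`).

* `inf_nat` : `∑ k, I (w 1, .., E·w k, .., w N) = tr E * I w`, `(E·w)(u, v) = w (E u, v) + w (u, E v)`
* `HR`      : pointwise data: `g` inner product, `J` orthogonal complex structure, `om = g (J ·, ·)`,
              `rho = g (R ·, ·)`, `R` skew, `R J = - J R`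
* `HR.one`  : `I (rho, om, .., om) = 0`
* `HR.two`  : `2 N (N - 1) I (rho, rho, om, .., om) = - tr (R²) I (om, .., om)`
-/

set_option autoImplicit false
set_option linter.unusedSectionVars false
set_option maxSynthPendingDepth 3

open Set Filter Topology Function

namespace Crest.Agent.R281.Al_830

open Crest.Agent.R281.HKA_799 (Bil NatM)
open Crest.Agent.R281.FujP_513 (Symm mixv)

noncomputable section

variable {V : Type*} [NormedAddCommGroup V] [NormedSpace ℝ V]

/-- the pull back of a form by `E` -/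
def pbE (E : V →L[ℝ] V) (w : Bil V) : Bil V := (w.comp E).flip.comp E |>.flip

@[simp] theorem pbE_apply (E : V →L[ℝ] V) (w : Bil V) (u v : V) :
    pbE E w u v = w (E u) (E v) := rfl

/-- the action of an endomorphism as a derivation -/
def act (E : V →L[ℝ] V) (w : Bil V) : Bil V := w.comp E + (w.flip.comp E).flip

@[simp] theorem act_apply (E : V →L[ℝ] V) (w : Bil V) (u v : V) :
    act E w u v = w (E u) v + w u (E v) := rfl

variable {N : ℕ}

/-- multilinear functionals on a finite dimensional space are continuous -/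
theorem cont_ml [FiniteDimensional ℝ V] (I : MultilinearMap ℝ (fun _ : Fin N => Bil V) ℝ) :
    Continuous fun w => I w := by
  classical
  let b := Module.finBasis ℝ (Bil V)
  have h : ∀ w : Fin N → Bil V, I w = ∑ r : Fin N → Fin (Module.finrank ℝ (Bil V)),
      (∏ k, b.coord (r k) (w k)) * I (fun k => b (r k)) := by
    intro w
    have h1 : w = fun k => ∑ j, b.coord j (w k) • b j := by
      funext k
      exact (b.sum_repr (w k)).symm
    conv_lhs => rw [h1]
    rw [I.map_sum]
    refine Finset.sum_congr rfl fun r _ => ?_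
    rw [I.map_smul_univ, smul_eq_mul]
  have h2 : (fun w : Fin N → Bil V => I w) = fun w => ∑ r : Fin N → Fin (Module.finrank ℝ (Bil V)),
      (∏ k, b.coord (r k) (w k)) * I (fun k => b (r k)) := funext h
  rw [h2]
  refine continuous_finsetSum _ fun r _ => Continuous.mul ?_ continuous_const
  refine continuous_finsetProd _ fun k _ => ?_
  exact (LinearMap.continuous_of_finiteDimensional (b.coord (r k))).comp (continuous_apply k)

/-- the derivative of `det (1 + s E)` at `s = 0` -/
theorem hasDerivAt_det [FiniteDimensional ℝ V] (E : V →L[ℝ] V) :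
    HasDerivAt (fun s : ℝ => LinearMap.det ((1 + s • E : V →L[ℝ] V) : V →ₗ[ℝ] V))
      (LinearMap.trace ℝ V (E : V →ₗ[ℝ] V)) 0 := by
  classical
  let b := Module.finBasis ℝ V
  set M := LinearMap.toMatrix b b (E : V →ₗ[ℝ] V) with hM
  set q : Polynomial ℝ := (Matrix.det (1 + (Polynomial.X : Polynomial ℝ) • M.map Polynomial.C)).divX.divX
    with hq
  have h1 : ∀ s : ℝ, LinearMap.det ((1 + s • E : V →L[ℝ] V) : V →ₗ[ℝ] V) =
      1 + M.trace * s + q.eval s * s ^ 2 := by
    intro s
    rw [← Matrix.det_one_add_smul, ← LinearMap.det_toMatrix b]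
    congr 1
    have : ((1 + s • E : V →L[ℝ] V) : V →ₗ[ℝ] V) = 1 + s • (E : V →ₗ[ℝ] V) := by
      ext u; simp
    rw [this, map_add, map_smul, LinearMap.toMatrix_one]
  have h2 : LinearMap.trace ℝ V (E : V →ₗ[ℝ] V) = M.trace :=
    LinearMap.trace_eq_matrix_trace ℝ b _
  rw [h2]
  have h3 : HasDerivAt (fun s : ℝ => 1 + M.trace * s + q.eval s * s ^ 2)
      (0 + M.trace * 1 + (q.derivative.eval 0 * 0 ^ 2 + q.eval 0 * (2 * 0 ^ 1 * 1))) 0 := by
    refine ((hasDerivAt_const _ _).add ((hasDerivAt_id' (0 : ℝ)).const_mul _)).add ?_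
    refine (q.hasDerivAt 0).mul ?_
    simpa using hasDerivAt_pow 2 (0 : ℝ)
  have h4 : (fun s : ℝ => LinearMap.det ((1 + s • E : V →L[ℝ] V) : V →ₗ[ℝ] V)) =
      fun s : ℝ => 1 + M.trace * s + q.eval s * s ^ 2 := funext h1
  rw [h4]
  simpa using h3

/-- **infinitesimal naturality** -/
theorem inf_nat [FiniteDimensional ℝ V] {I : MultilinearMap ℝ (fun _ : Fin N => Bil V) ℝ}
    (hI : NatM I) (E : V →L[ℝ] V) (w : Fin N → Bil V) :
    ∑ k, I (update w k (act E (w k))) = LinearMap.trace ℝ V (E : V →ₗ[ℝ] V) * I w := by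
  let F : ContinuousMultilinearMap ℝ (fun _ : Fin N => Bil V) ℝ := { I with cont := cont_ml I }
  let γ : ℝ → Fin N → Bil V := fun s k => w k + s • act E (w k) + s ^ 2 • pbE E (w k)
  have h0 : γ 0 = w := by funext k; simp [γ]
  have hγ : HasDerivAt γ (fun k => act E (w k)) 0 := by
    rw [hasDerivAt_pi]
    intro k
    have h1 : HasDerivAt (fun s : ℝ => w k + s • act E (w k) + s ^ 2 • pbE E (w k))
        (0 + (1 : ℝ) • act E (w k) + (2 * 0 ^ 1 * 1 : ℝ) • pbE E (w k)) 0 := by
      refine ((hasDerivAt_const _ _).add ((hasDerivAt_id' (0 : ℝ)).smul_const _)).add ?_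
      refine HasDerivAt.smul_const ?_ _
      simpa using hasDerivAt_pow 2 (0 : ℝ)
    simpa [γ] using h1
  have h1 : HasDerivAt (fun s => F (γ s)) (F.linearDeriv w fun k => act E (w k)) 0 := by
    have h2 : HasFDerivAt F (F.linearDeriv (γ 0)) (γ 0) := F.hasFDerivAt (γ 0)
    have h3 := h2.comp_hasDerivAt (0 : ℝ) hγ
    rw [h0] at h3
    exact h3
  have h2 : ∀ s, F (γ s) = LinearMap.det ((1 + s • E : V →L[ℝ] V) : V →ₗ[ℝ] V) * I w := by
    intro s
    refine hI (1 + s • E) w (γ s) fun k u v => ?_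
    simp only [γ, add_apply, smul_apply, act_apply,
      pbE_apply, one_apply_eq_self, map_add, map_smul, smul_eq_mul]
    ring
  have h3 : HasDerivAt (fun s => F (γ s)) (LinearMap.trace ℝ V (E : V →ₗ[ℝ] V) * I w) 0 := by
    have h4 : (fun s => F (γ s)) = fun s =>
        LinearMap.det ((1 + s • E : V →L[ℝ] V) : V →ₗ[ℝ] V) * I w := funext h2
    rw [h4]
    exact (hasDerivAt_det E).mul_const _
  have h4 := h1.unique h3
  rw [← h4, ContinuousMultilinearMap.linearDeriv_apply]
  rfl

/-! ### symmetric functionals -/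

theorem mixv_one_eq (hN : 1 ≤ N) (x y : Bil V) :
    mixv N 1 x y = update (fun _ => x) (⟨0, hN⟩ : Fin N) y := by
  funext i
  by_cases hi : i = ⟨0, hN⟩
  · subst hi
    simp [mixv]
  · have : ¬ ((i : ℕ) < 1) := fun h => hi (Fin.ext (by simp; omega))
    rw [update_of_ne hi]
    simp [mixv, this]

theorem sym1 {I : MultilinearMap ℝ (fun _ : Fin N => Bil V) ℝ} (hs : Symm I) (k : Fin N)
    (x y : Bil V) : I (update (fun _ => x) k y) = I (mixv N 1 x y) := by
  have hN : 1 ≤ N := Nat.succ_le_of_lt (Nat.pos_of_ne_zero (by rintro rfl; exact k.elim0))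
  rw [mixv_one_eq hN, ← hs (Equiv.swap k ⟨0, hN⟩) (update (fun _ => x) (⟨0, hN⟩ : Fin N) y)]
  congr 1
  funext i
  by_cases hi : i = k
  · subst hi
    simp
  · rw [update_of_ne hi]
    have : Equiv.swap k (⟨0, hN⟩ : Fin N) i ≠ ⟨0, hN⟩ := by
      intro h
      apply hi
      have := congrArg (Equiv.swap k (⟨0, hN⟩ : Fin N)) h
      rw [Equiv.swap_apply_self, Equiv.swap_apply_right] at this
      exact this
    rw [update_of_ne this]

theorem sym2 {I : MultilinearMap ℝ (fun _ : Fin N => Bil V) ℝ} (hs : Symm I) {k l : Fin N}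
    (hkl : k ≠ l) (x y : Bil V) :
    I (update (update (fun _ => x) k y) l y) = I (mixv N 2 x y) := by
  have h := hs.eq_mixv (Finset.univ \ {k, l} : Finset (Fin N)) x y
  have h1 : (Finset.univ \ {k, l} : Finset (Fin N)).card = N - 2 := by
    rw [Finset.card_sdiff_of_subset (Finset.subset_univ _), Finset.card_univ, Fintype.card_fin,
      Finset.card_pair hkl]
  have h2 : 2 ≤ N := by
    have := Finset.card_le_univ ({k, l} : Finset (Fin N))
    rwa [Finset.card_pair hkl, Fintype.card_fin] at this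
  rw [h1, show N - (N - 2) = 2 by omega] at h
  rw [← h]
  congr 1
  funext i
  by_cases hl : i = l
  · subst hl
    simp
  · by_cases hk : i = k
    · subst hk
      rw [update_of_ne hl]
      simp
    · rw [update_of_ne hl, update_of_ne hk]
      simp [hl, hk]

/-- `E` acting on `(om, .., om)` -/
theorem inf_one [FiniteDimensional ℝ V] {I : MultilinearMap ℝ (fun _ : Fin N => Bil V) ℝ}
    (hI : NatM I) (hs : Symm I) (E : V →L[ℝ] V) (x : Bil V) :
    N * I (mixv N 1 x (act E x)) =
      LinearMap.trace ℝ V (E : V →ₗ[ℝ] V) * I (fun _ => x) := by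
  rw [← inf_nat hI E]
  simp only [sym1 hs]
  simp

/-- `E` acting on `(rho, om, .., om)` -/
theorem inf_two [FiniteDimensional ℝ V] (hN : 2 ≤ N)
    {I : MultilinearMap ℝ (fun _ : Fin N => Bil V) ℝ}
    (hI : NatM I) (hs : Symm I) (E : V →L[ℝ] V) (x y : Bil V) (hxy : act E x = y) :
    I (mixv N 1 x (act E y)) + (N - 1) * I (mixv N 2 x y) =
      LinearMap.trace ℝ V (E : V →ₗ[ℝ] V) * I (mixv N 1 x y) := by
  set k0 : Fin N := ⟨0, by omega⟩ with hk0
  rw [mixv_one_eq (by omega : 1 ≤ N) x y, ← hk0, ← inf_nat hI E, ← sym1 hs k0 x (act E y),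
    ← Finset.add_sum_erase _ _ (Finset.mem_univ k0)]
  congr 1
  · rw [update_self, update_idem]
  · have h1 : ∀ k ∈ Finset.univ.erase k0, I (update (update (fun _ => x) k0 y) k
        (act E (update (fun _ => x) k0 y k))) = I (mixv N 2 x y) := by
      intro k hk
      have hk' : k ≠ k0 := Finset.ne_of_mem_erase hk
      rw [update_of_ne hk', hxy]
      exact sym2 hs (Ne.symm hk') x y
    rw [Finset.sum_congr rfl h1, Finset.sum_const, Finset.card_erase_of_mem (Finset.mem_univ _),
      Finset.card_univ, Fintype.card_fin, nsmul_eq_mul, Nat.cast_sub (by omega)]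
    simp

/-! ### forms of type (2,0) + (0,2) -/

/-- a complex structure `J` with invariant inner product `g` and a skew `R`, `R J = - J R` -/
structure HR (V : Type*) [NormedAddCommGroup V] [NormedSpace ℝ V] where
  g : Bil V
  J : V →L[ℝ] V
  R : V →L[ℝ] V
  symm : ∀ u v, g u v = g v u
  sq : ∀ u, J (J u) = -u
  inv : ∀ u v, g (J u) (J v) = g u v
  skew : ∀ u v, g (R u) v = -g u (R v)
  anti : ∀ u, R (J u) = -J (R u)

namespace HR

variable (H : HR V)

/-- `om = g (J ·, ·)` -/
def om : Bil V := H.g.comp H.J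
/-- `rho = g (R ·, ·)` -/
def rho : Bil V := H.g.comp H.R

@[simp] theorem om_apply (u v : V) : H.om u v = H.g (H.J u) v := rfl
@[simp] theorem rho_apply (u v : V) : H.rho u v = H.g (H.R u) v := rfl

theorem Jskew (u v : V) : H.g (H.J u) v = -H.g u (H.J v) := by
  have h := H.inv u (H.J v)
  rw [H.sq] at h
  rw [← h]
  simp

/-- `- J R / 2` -/
def E : V →L[ℝ] V := (-(1 / 2 : ℝ)) • H.J.comp H.R

@[simp] theorem E_apply (u : V) : H.E u = (-(1 / 2 : ℝ)) • H.J (H.R u) := rfl

theorem act_om : act H.E H.om = H.rho := by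
  ext u v
  simp only [act_apply, om_apply, rho_apply, E_apply, map_smul, smul_apply, smul_eq_mul, H.sq,
    H.inv]
  rw [H.skew]
  simp only [map_neg, neg_apply]
  rw [H.skew]
  ring

/-- `g (J R² ·, ·)` -/
def tau : Bil V := H.g.comp (H.J.comp (H.R.comp H.R))

@[simp] theorem tau_apply (u v : V) : H.tau u v = H.g (H.J (H.R (H.R u))) v := rfl

theorem act_rho : act H.E H.rho = H.tau := by
  ext u v
  simp only [act_apply, rho_apply, tau_apply, E_apply, map_smul, smul_apply, smul_eq_mul, H.anti]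
  have h1 : H.g (H.R u) (H.J (H.R v)) = -H.g (H.J (H.R u)) (H.R v) := by
    rw [H.Jskew]; ring
  have h2 : H.g (H.J (H.R u)) (H.R v) = -H.g (H.R (H.J (H.R u))) v := by
    rw [H.skew]; ring
  rw [h1, h2, H.anti]
  simp only [map_neg, neg_apply]
  ring

/-- `R² / 2` -/
def B : V →L[ℝ] V := ((1 / 2 : ℝ)) • H.R.comp H.R

@[simp] theorem B_apply (u : V) : H.B u = ((1 / 2 : ℝ)) • H.R (H.R u) := rfl

theorem act_B : act H.B H.om = H.tau := by
  ext u v
  simp only [act_apply, om_apply, tau_apply, B_apply, map_smul, smul_apply, smul_eq_mul]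
  have h1 : H.g (H.J u) (H.R (H.R v)) = H.g (H.R (H.R (H.J u))) v := by
    rw [H.skew, H.skew]; ring
  rw [h1, H.anti, map_neg, H.anti, neg_neg]
  ring

theorem tr_E [FiniteDimensional ℝ V] : LinearMap.trace ℝ V (H.E : V →ₗ[ℝ] V) = 0 := by
  have h1 : (H.E : V →ₗ[ℝ] V) = (-(1 / 2 : ℝ)) • ((H.J : V →ₗ[ℝ] V) * (H.R : V →ₗ[ℝ] V)) := by
    ext u; simp
  have h2 : (H.R : V →ₗ[ℝ] V) * (H.J : V →ₗ[ℝ] V) =
      -((H.J : V →ₗ[ℝ] V) * (H.R : V →ₗ[ℝ] V)) := by
    ext u; simp [H.anti]
  have h3 := LinearMap.trace_mul_comm ℝ (H.R : V →ₗ[ℝ] V) (H.J : V →ₗ[ℝ] V)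
  rw [h2, map_neg] at h3
  have h4 : LinearMap.trace ℝ V ((H.J : V →ₗ[ℝ] V) * (H.R : V →ₗ[ℝ] V)) = 0 := by linarith
  rw [h1, map_smul, h4, smul_zero]

variable [FiniteDimensional ℝ V] {I : MultilinearMap ℝ (fun _ : Fin N => Bil V) ℝ}

/-- **first order term** -/
theorem one (hN : 1 ≤ N) (hI : NatM I) (hs : Symm I) : I (mixv N 1 H.om H.rho) = 0 := by
  have h := inf_one hI hs H.E H.om
  rw [H.act_om, H.tr_E, zero_mul] at h
  have : (N : ℝ) ≠ 0 := by positivity
  exact (mul_eq_zero.1 h).resolve_left this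

/-- **second order term** -/
theorem two (hN : 2 ≤ N) (hI : NatM I) (hs : Symm I) :
    2 * N * (N - 1) * I (mixv N 2 H.om H.rho) =
      -LinearMap.trace ℝ V ((H.R.comp H.R : V →L[ℝ] V) : V →ₗ[ℝ] V) * I (fun _ => H.om) := by
  have h1 := inf_two hN hI hs H.E H.om H.rho H.act_om
  rw [H.tr_E, zero_mul, H.act_rho] at h1
  have h2 := inf_one hI hs H.B H.om
  rw [H.act_B] at h2
  have h3 : LinearMap.trace ℝ V (H.B : V →ₗ[ℝ] V) =
      (1 / 2) * LinearMap.trace ℝ V ((H.R.comp H.R : V →L[ℝ] V) : V →ₗ[ℝ] V) := by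
    rw [← smul_eq_mul, ← map_smul]
    rfl
  rw [h3] at h2
  linear_combination (2 * N : ℝ) * h1 - 2 * h2

end HR

end

end Crest.Agent.R281.Al_830
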