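import Crest.Agent.R281.Ti4_846
import Crest.Agent.R281.F2Mod_358

/-!
# Row 281, TOPINT, part 5 (helper846): the intersection form as a symmetric multilinear map

* `IM μ b P : MultilinearMap ℝ (fun _ : K => F2 C) ℝ`, `IM_apply`
* `IM_perm`, `IM_ex`, `IM_coh`
* `exS C : Submodule ℝ (F2 C)` the exact forms; `coh_iff : Coh w w' ↔ w - w' ∈ exS C`
-/

set_option autoImplicit false
set_option linter.unusedSectionVars false

open Set Filter Topology MeasureTheory
open scoped ContDiff

namespace Crest.Agent.R281.Ti_846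

open Crest.Agent.R281.HkR_835 Equiv

noncomputable section

variable {V X : Type} [NormedAddCommGroup V] [NormedSpace ℝ V] [FiniteDimensional ℝ V]
  [MeasurableSpace V] [BorelSpace V] [TopologicalSpace X] {C C' : RCh V X}

/-! ### exact forms -/

/-- sum of 1-forms -/
instance : Add (F1 C) where
  add x y :=
    { η := fun i z => x.η i z + y.η i z
      sm := fun i => (x.sm i).add (y.sm i)
      tr := fun i j z hz v => by rw [add_apply, add_apply, x.tr i j z hz, y.tr i j z hz] }

instance : Zero (F1 C) where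
  zero :=
    { η := fun _ _ => 0
      sm := fun _ => contDiffOn_const
      tr := fun _ _ _ _ _ => by simp }

instance : SMul ℝ (F1 C) where
  smul r x :=
    { η := fun i z => r • x.η i z
      sm := fun i => (x.sm i).const_smul r
      tr := fun i j z hz v => by rw [smul_apply, smul_apply, x.tr i j z hz] }

theorem F1.add_η (x y : F1 C) (i : C.ι) (z : V) : (x + y).η i z = x.η i z + y.η i z := rfl
theorem F1.smul_η (r : ℝ) (x : F1 C) (i : C.ι) (z : V) : (r • x).η i z = r • x.η i z := rfl
theorem F1.zero_η (i : C.ι) (z : V) : (0 : F1 C).η i z = 0 := rfl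

theorem F1.fderiv_add (x y : F1 C) {i : C.ι} {z : V} (hz : z ∈ (C.e i).target) :
    fderiv ℝ ((x + y).η i) z = fderiv ℝ (x.η i) z + fderiv ℝ (y.η i) z :=
  ((x.diffAt hz).hasFDerivAt.add (y.diffAt hz).hasFDerivAt).fderiv

theorem F1.fderiv_smul (r : ℝ) (x : F1 C) {i : C.ι} {z : V} (hz : z ∈ (C.e i).target) :
    fderiv ℝ ((r • x).η i) z = r • fderiv ℝ (x.η i) z :=
  ((x.diffAt hz).hasFDerivAt.const_smul r).fderiv

theorem F1.fderiv_zero (i : C.ι) (z : V) : fderiv ℝ ((0 : F1 C).η i) z = 0 := by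
  have : (0 : F1 C).η i = fun _ => (0 : V →L[ℝ] ℝ) := rfl
  rw [this]
  simp

/-- the exact forms -/
def exS (C : RCh V X) : Submodule ℝ (F2 C) where
  carrier := {w | Ex w}
  add_mem' := by
    rintro w w' ⟨x, hx⟩ ⟨y, hy⟩
    refine ⟨x + y, fun i z hz u v => ?_⟩
    rw [F1.fderiv_add x y hz, F2.add_w]
    simp only [add_apply]
    rw [hx i z hz, hy i z hz]
    ring
  zero_mem' := ⟨0, fun i z _ u v => by rw [F1.fderiv_zero]; simp⟩
  smul_mem' := by
    rintro r w ⟨x, hx⟩
    refine ⟨r • x, fun i z hz u v => ?_⟩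
    rw [F1.fderiv_smul r x hz, F2.smul_w]
    simp only [smul_apply, smul_eq_mul]
    rw [hx i z hz]
    ring

theorem mem_exS {w : F2 C} : w ∈ exS C ↔ Ex w := Iff.rfl

theorem coh_iff {w w' : F2 C} : Coh w w' ↔ w - w' ∈ exS C := by
  constructor
  · rintro ⟨η, h⟩
    refine ⟨η, fun i z hz u v => ?_⟩
    rw [F2.sub_w]
    simp only [sub_apply]
    rw [h i z hz]
    ring
  · rintro ⟨η, h⟩
    refine ⟨η, fun i z hz u v => ?_⟩
    have := h i z hz u v
    rw [F2.sub_w] at this
    simp only [sub_apply] at this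
    linarith

theorem Coh.refl (w : F2 C) : Coh w w := coh_iff.2 (by rw [sub_self]; exact (exS C).zero_mem)

theorem Coh.symm {w w' : F2 C} (h : Coh w w') : Coh w' w := by
  rw [coh_iff] at h ⊢
  rw [← neg_sub]
  exact (exS C).neg_mem h

theorem Coh.trans {w w' w'' : F2 C} (h : Coh w w') (h' : Coh w' w'') : Coh w w'' := by
  rw [coh_iff] at h h' ⊢
  rw [← sub_add_sub_cancel w w' w'']
  exact (exS C).add_mem h h'

theorem Coh.add {x y x' y' : F2 C} (h : Coh x x') (h' : Coh y y') : Coh (x + y) (x' + y') := by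
  rw [coh_iff] at h h' ⊢
  rw [add_sub_add_comm]
  exact (exS C).add_mem h h'

theorem Coh.smul {x x' : F2 C} (r : ℝ) (h : Coh x x') : Coh (r • x) (r • x') := by
  rw [coh_iff] at h ⊢
  rw [← smul_sub]
  exact (exS C).smul_mem r h

theorem F1.d_add (x y : F1 C) {i : C.ι} {z : V} (hz : z ∈ (C.e i).target) :
    (x + y).d.w i z = (x.d + y.d).w i z := by
  ext u v
  rw [F2.add_w, F1.d_w, F1.fderiv_add x y hz]
  simp only [add_apply, F1.d_w]
  ring

/-! ### the multilinear map -/

variable (μ : Measure V) [μ.IsAddHaarMeasure] [CompactSpace X]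
  {K : Type} [Fintype K] [DecidableEq K]

theorem II_upd_add (b : Module.Basis (K × Fin 2) ℝ V) (P : RPart C) (w : K → F2 C) (k : K)
    (x y : F2 C) : II μ b P (Function.update w k (x + y)) =
      II μ b P (Function.update w k x) + II μ b P (Function.update w k y) := by
  have h := II_lin μ b P w k ![1, 1] ![x, y]
  rw [Fin.sum_univ_two] at h
  have h2 : F2.lin ![1, 1] ![x, y] = x + y := by
    rw [F2.lin_eq, Fin.sum_univ_two]
    simp
  rw [h2] at h
  simpa using h

theorem II_upd_smul (b : Module.Basis (K × Fin 2) ℝ V) (P : RPart C) (w : K → F2 C) (k : K)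
    (c : ℝ) (x : F2 C) : II μ b P (Function.update w k (c • x)) =
      c * II μ b P (Function.update w k x) := by
  have h := II_lin μ b P w k ![c] ![x]
  have h2 : F2.lin ![c] ![x] = c • x := by
    rw [F2.lin_eq, Fin.sum_univ_one]
    simp
  rw [h2] at h
  simpa using h

/-- **the intersection form** on closed real 2-forms -/
def IM (b : Module.Basis (K × Fin 2) ℝ V) (P : RPart C) :
    MultilinearMap ℝ (fun _ : K => F2 C) ℝ where
  toFun w := II μ b P w
  map_update_add' := by
    intro D w k x y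
    convert II_upd_add μ b P w k x y
  map_update_smul' := by
    intro D w k c x
    rw [smul_eq_mul]
    convert II_upd_smul μ b P w k c x

variable (b : Module.Basis (K × Fin 2) ℝ V) (P : RPart C)

@[simp] theorem IM_apply (w : K → F2 C) : IM μ b P w = II μ b P w := rfl

theorem IM_perm (σ : Perm K) (w : K → F2 C) : IM μ b P (fun k => w (σ k)) = IM μ b P w :=
  II_perm μ b P w σ

theorem IM_ex (h : Ori C) (w : K → F2 C) {k : K} (hk : w k ∈ exS C) : IM μ b P w = 0 :=
  II_ex μ h b P w k hk

theorem IM_coh (h : Ori C) {w w' : K → F2 C} (hk : ∀ k, w k - w' k ∈ exS C) :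
    IM μ b P w = IM μ b P w' :=
  II_coh μ h b P w w' fun k => coh_iff.2 (hk k)

end

end Crest.Agent.R281.Ti_846
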