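import Crest.Agent.R281.Fuj2_207
import Crest.Agent.R281.Ti5_846

/-!
# Row 281, FUJ-INT, part 4 (helper207): triples for the intersection form `IM` of 846

* `IM_hk`     : `∫ (a ω₀ + c ω₁ + d ω₂)^N = (a² + c² + d²)^ν ∫ ω₀^N`, `N = 2ν`
* `kills`     : `IM` kills exact forms
* `tri_of_hk` : a triple `H : HkT C` with `ω₁ = ρ r`, `ω₂ = ρ s` gives `Tri (IM μ b P) ν r s (ω₀) ρ⁻²`
* `fujiki_IM` : the Fujiki relation on closed real 2-forms
-/

set_option autoImplicit false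
set_option linter.unusedSectionVars false
set_option maxSynthPendingDepth 3

open Set Filter Topology MeasureTheory
open scoped ContDiff

namespace Crest.Agent.R281.Fuj4_207

open Crest.Agent.R281.HkR_835 Crest.Agent.R281.Ti_846 Crest.Agent.R281.Fuj1_207
open Crest.Agent.R281.Fuj2_207
open Crest.Agent.R281.FujP_513 (Symm)
open Crest.Agent.R281.HKA_799 (Nat Trip)

noncomputable section

variable {V X : Type} [NormedAddCommGroup V] [NormedSpace ℝ V] [FiniteDimensional ℝ V]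
  [MeasurableSpace V] [BorelSpace V] (μ : Measure V) [μ.IsAddHaarMeasure] [TopologicalSpace X]
  [CompactSpace X] {C : RCh V X}

variable {N : ℕ} (b : Module.Basis (Fin N × Fin 2) ℝ V) (P : RPart C)

theorem IM_symm : Symm (IM μ b P) := fun σ v => IM_perm μ b P σ v

theorem kills (h : Ori C) : Kills (IM μ b P) (exS C : Set (F2 C)) := fun v _ hi =>
  IM_ex μ b P h v hi

omit [MeasurableSpace V] [BorelSpace V] [FiniteDimensional ℝ V] in
theorem nat_TP' : Nat (fun w : Fin N → HKA_799.Bil V => TP b w) := fun T _ _ h =>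
  TP_comp' b T h

/-- **the top power on the span of a hyperkaehler triple** -/
theorem IM_hk {ν : ℕ} (hN : N = 2 * ν) (H : HkT C) (a c d : ℝ) :
    IM μ b P (fun _ => a • H.om 0 + c • H.om 1 + d • H.om 2) =
      (a ^ 2 + c ^ 2 + d ^ 2) ^ ν * IM μ b P (fun _ => H.om 0) := by
  have hfin : Module.finrank ℝ V = 2 * N := by
    rw [Module.finrank_eq_card_basis b]
    simp [mul_comm]
  have h1 := intT_sum μ P (Finset.univ : Finset (Fin 1)) (fun _ => (a ^ 2 + c ^ 2 + d ^ 2) ^ ν)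
    (fun _ => TopF.of b (fun _ => H.om 0))
    (TopF.of b (fun _ => a • H.om 0 + c • H.om 1 + d • H.om 2)) (fun i z hz => by
      rw [Fin.sum_univ_one, TopF.of_D, TopF.of_D]
      have h2 := (trip H i z hz).rot hfin (nat_TP' b) ![a, c, d]
      have h3 : ∀ k, (trip H i z hz).om k = (H.om k).w i z := by
        intro k
        ext u v
        rw [(H.om_eq k i z hz)]
        rfl
      have h4 : (trip H i z hz).omv ![a, c, d] =
          (a • H.om 0 + c • H.om 1 + d • H.om 2).w i z := by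
        rw [Trip.omv, Fin.sum_univ_three, h3, h3, h3]
        rfl
      simp only [h4, h3] at h2
      have h5 : Real.sqrt (a ^ 2 + c ^ 2 + d ^ 2) ^ N = (a ^ 2 + c ^ 2 + d ^ 2) ^ ν := by
        rw [hN, pow_mul, Real.sq_sqrt (by positivity)]
      rw [← h5]
      exact h2)
  rw [Fin.sum_univ_one] at h1
  exact h1

/-- **a hyperkaehler triple gives a `Tri`** -/
theorem tri_of_hk {ν : ℕ} (hN : N = 2 * ν) (H : HkT C) {r s : F2 C} {ρ : ℝ} (hρ : 0 < ρ)
    (h1 : H.om 1 = ρ • r) (h2 : H.om 2 = ρ • s) (hpos : 0 < IM μ b P (fun _ => H.om 0)) :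
    Tri (IM μ b P) ν r s (H.om 0) ((ρ⁻¹) ^ 2) := by
  refine ⟨by positivity, hpos, fun a c d => ?_⟩
  have h3 : a • H.om 0 + c • r + d • s =
      a • H.om 0 + (c * ρ⁻¹) • H.om 1 + (d * ρ⁻¹) • H.om 2 := by
    rw [h1, h2, smul_smul, smul_smul, mul_assoc, mul_assoc, inv_mul_cancel₀ hρ.ne', mul_one,
      mul_one]
  rw [h3, IM_hk μ b P hN]
  congr 2
  ring

/-- **FUJIKI** for closed real 2-forms. `k0` a Kaehler form; every form near `k0` is a Ricci flat
Kaehler form plus `c Re σ + d Im σ` plus an exact form. -/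
theorem fujiki_IM {ν : ℕ} (hν : 1 ≤ ν) (hN : N = 2 * ν) (hN2 : 2 ≤ N) (ho : Ori C) {r s : F2 C}
    (k0 : F2 C) (h : ∀ y : F2 C, ∃ ε > 0, ∀ t : ℝ, 0 < t → t < ε → ∃ (H : HkT C) (ρ c d : ℝ),
      0 < ρ ∧ H.om 1 = ρ • r ∧ H.om 2 = ρ • s ∧ 0 < IM μ b P (fun _ => H.om 0) ∧
      ∃ e ∈ exS C, k0 + t • y = H.om 0 + c • r + d • s + e) (x : F2 C) :
    IM μ b P (fun _ => x) = Qf (IM μ b P) hN2 ν r x x ^ ν := by
  refine fujiki hν hN hN2 (IM_symm μ b P) (kills μ b P ho) (s := s) k0 (fun y => ?_) x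
  obtain ⟨ε, hε, h1⟩ := h y
  refine ⟨ε, hε, fun t ht0 ht1 => ?_⟩
  obtain ⟨H, ρ, c, d, hρ, h2, h3, h4, e, he, h5⟩ := h1 t ht0 ht1
  exact ⟨H.om 0, (ρ⁻¹) ^ 2, c, d, e, he, tri_of_hk μ b P hN H hρ h2 h3 h4, h5⟩

end

end Crest.Agent.R281.Fuj4_207
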