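import Crest.Agent.R281.NefO1_476

/-!
# Row 281, NEF-OPEN, part 2 (helper252): Kaehler classes and nef classes

On top of `NefO1_476` (`AJ C`, `ddc`, `Pos`, `ContJ`, `ContF`, `nef_open`):

* `Cx J`         : `J² = -1`, `Nij J = 0`; `cx_ofHk`
* `T11 J w`      : `w` is of type (1,1); `ddc_T11`
* `DDb J`        : the `dd^c`-lemma (a Prop)
* `KCls J w`     : the class of `w` contains a Kaehler form of `J`; `KCls.congr`, cone properties
* `KCls_iff`     : `KCls J w ↔ ∃ u, Pos J (w + dd^c u)` for `w` of type (1,1)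
* `isOpen_KCls`, `NefC`, `isGδ_NefC`
* `NefC.indep`   : independence of the Kaehler form
-/

set_option autoImplicit false
set_option maxSynthPendingDepth 3
set_option linter.unusedSectionVars false

open Set Filter Topology
open scoped ContDiff

namespace Crest.Agent.R281.Nef_252

open Crest.Agent.R260.ACM_580 Crest.Agent.R281.HkR_835 Crest.Agent.R281.Ti_846
open Crest.Agent.R281.NefO_476

noncomputable section

/-! ### pointwise lemma -/

section pw

variable {V : Type} [NormedAddCommGroup V] [NormedSpace ℝ V]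

theorem symm2' {φ : V → ℝ} {z : V} (hf : ContDiffAt ℝ ∞ φ z) (a b : V) :
    fderiv ℝ (fderiv ℝ φ) z a b = fderiv ℝ (fderiv ℝ φ) z b a :=
  (hf.isSymmSndFDerivAt (by
      rw [minSmoothness_of_isRCLikeNormedField]; exact WithTop.coe_le_coe.2 le_top)) a b

/-- derivative of `J² = -1` -/
theorem fderiv_sq {J : V → V →L[ℝ] V} {z : V} (hJ : DifferentiableAt ℝ J z)
    (hs : ∀ᶠ y in 𝓝 z, ∀ v, J y (J y v) = -v) (a w : V) :
    fderiv ℝ J z a (J z w) = -J z (fderiv ℝ J z a w) := by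
  have h1 : (fun y => J y (J y w)) =ᶠ[𝓝 z] fun _ => -w := by
    filter_upwards [hs] with y hy using hy w
  have h2 : HasFDerivAt J (fderiv ℝ J z) z := hJ.hasFDerivAt
  have h3 : HasFDerivAt (fun y => J y w) _ z := h2.clm_apply (hasFDerivAt_const w z)
  have h4 := (h2.clm_apply h3).fderiv
  rw [h1.fderiv_eq] at h4
  have h5 := congrArg (fun T : V →L[ℝ] V => T a) h4
  simp at h5
  exact (neg_eq_of_add_eq_zero_right h5.symm).symm

/-- `d (dφ ∘ J)` is `J`-invariant if `J² = -1` and `Nij J = 0` -/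
theorem ddcF_inv {J : V → V →L[ℝ] V} {φ : V → ℝ} {z : V} (hφ : ContDiffAt ℝ ∞ φ z)
    (hJ : DifferentiableAt ℝ J z) (hs : ∀ᶠ y in 𝓝 z, ∀ v, J y (J y v) = -v)
    (hN : ∀ v w, Nij J z v w = 0) (u v : V) :
    ddcF φ J z (J z u) (J z v) = ddcF φ J z u v := by
  have hz : ∀ v, J z (J z v) = -v := hs.self_of_nhds
  have hn := hN u v
  unfold Nij at hn
  unfold ddcF
  rw [fderiv_sq hJ hs, fderiv_sq hJ hs, hz, hz]
  have e2 : fderiv ℝ φ z (J z (fderiv ℝ J z (J z u) v)) -
      fderiv ℝ φ z (J z (fderiv ℝ J z (J z v) u)) =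
      -(fderiv ℝ φ z (fderiv ℝ J z u v) - fderiv ℝ φ z (fderiv ℝ J z v u)) := by
    have e1 : fderiv ℝ J z (J z u) v - fderiv ℝ J z (J z v) u =
        J z (fderiv ℝ J z u v - fderiv ℝ J z v u) := by
      rw [map_sub, sub_eq_sub_iff_add_eq_add]
      have h6 := hn
      rw [sub_add, sub_eq_zero] at h6
      have h7 : fderiv ℝ J z (J z u) v = fderiv ℝ J z (J z v) u +
          (J z (fderiv ℝ J z u v) - J z (fderiv ℝ J z v u)) := by
        rw [← h6]; abel
      rw [h7]; abel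
    rw [← map_sub, ← map_sub, e1, hz, map_neg, map_sub]
  simp only [map_neg]
  rw [symm2' hφ (J z u) v, symm2' hφ (J z v) u]
  linarith

end pw

variable {V X : Type} [NormedAddCommGroup V] [NormedSpace ℝ V] [TopologicalSpace X]
  {C : RCh V X}

/-- integrable complex structures -/
structure Cx (J : AJ C) : Prop where
  sq : ∀ i, ∀ z ∈ (C.e i).target, ∀ v, J.J i z (J.J i z v) = -v
  int : ∀ i, ∀ z ∈ (C.e i).target, ∀ v w, Nij (J.J i) z v w = 0

theorem cx_ofHk (H : HkT C) (k : Fin 3) : Cx (ofHk H k) := ⟨H.J_sq k, H.acm_int k⟩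

/-- forms of type (1,1) -/
def T11 (J : AJ C) (w : F2 C) : Prop :=
  ∀ i, ∀ z ∈ (C.e i).target, ∀ u v, w.w i z (J.J i z u) (J.J i z v) = w.w i z u v

section algebra

variable {J : AJ C} {w w' : F2 C}

theorem T11.add (h : T11 J w) (h' : T11 J w') : T11 J (w + w') := fun i z hz u v => by
  simp only [F2.add_w, add_apply]
  rw [h i z hz, h' i z hz]

theorem T11.smul (a : ℝ) (h : T11 J w) : T11 J (a • w) := fun i z hz u v => by
  simp only [F2.smul_w, smul_apply]
  rw [h i z hz]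

theorem T11.neg (h : T11 J w) : T11 J (-w) := fun i z hz u v => by
  simp only [F2.neg_w, neg_apply]
  rw [h i z hz]

theorem T11.sub (h : T11 J w) (h' : T11 J w') : T11 J (w - w') := fun i z hz u v => by
  simp only [F2.sub_w, sub_apply]
  rw [h i z hz, h' i z hz]

theorem Pos.add (h : Pos J w) (h' : Pos J w') : Pos J (w + w') := fun i z hz u hu => by
  simp only [F2.add_w, add_apply]
  exact add_pos (h i z hz u hu) (h' i z hz u hu)

theorem Pos.smul {a : ℝ} (ha : 0 < a) (h : Pos J w) : Pos J (a • w) := fun i z hz u hu => by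
  simp only [F2.smul_w, smul_apply, smul_eq_mul]
  exact mul_pos ha (h i z hz u hu)

theorem T11_hk (H : HkT C) (k : Fin 3) : T11 (ofHk H k) (H.om k) := by
  intro i z hz u v
  show (H.om k).w i z (H.J k i z u) (H.J k i z v) = _
  rw [H.om_eq k i z hz, H.om_eq k i z hz, H.g_J k hz]

theorem Pos_hk (H : HkT C) (k : Fin 3) : Pos (ofHk H k) (H.om k) := by
  intro i z hz u hu
  show 0 < (H.om k).w i z u (H.J k i z u)
  rw [H.om_eq k i z hz, H.g_J k hz]
  exact H.g_pos i z hz u hu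

end algebra

/-! ### exact forms -/

theorem ex_zero : Ex (0 : F2 C) :=
  ⟨⟨fun _ _ => 0, fun _ => contDiffOn_const, fun _ _ _ _ _ => by simp⟩, fun i z _ u v => by simp⟩

theorem ex_add {w w' : F2 C} (h : Ex w) (h' : Ex w') : Ex (w + w') := by
  obtain ⟨η, hη⟩ := h
  obtain ⟨η', hη'⟩ := h'
  refine ⟨⟨fun i z => η.η i z + η'.η i z, fun i => (η.sm i).add (η'.sm i), fun i j z hz v => by
    rw [add_apply, add_apply, η.tr i j z hz, η'.tr i j z hz]⟩, fun i z hz u v => ?_⟩
  have d1 : DifferentiableAt ℝ (η.η i) z :=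
    ((η.sm i).contDiffAt ((C.e i).open_target.mem_nhds hz)).differentiableAt (by simp)
  have d2 : DifferentiableAt ℝ (η'.η i) z :=
    ((η'.sm i).contDiffAt ((C.e i).open_target.mem_nhds hz)).differentiableAt (by simp)
  have h3 : fderiv ℝ (fun z => η.η i z + η'.η i z) z = fderiv ℝ (η.η i) z + fderiv ℝ (η'.η i) z :=
    (d1.hasFDerivAt.add d2.hasFDerivAt).fderiv
  simp only [h3, add_apply, F2.add_w]
  rw [hη i z hz, hη' i z hz]
  ring

theorem ex_smul {w : F2 C} (a : ℝ) (h : Ex w) : Ex (a • w) := by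
  obtain ⟨η, hη⟩ := h
  refine ⟨⟨fun i z => a • η.η i z, fun i => (η.sm i).const_smul a, fun i j z hz v => by
    rw [smul_apply, smul_apply, η.tr i j z hz]⟩, fun i z hz u v => ?_⟩
  have d1 : DifferentiableAt ℝ (η.η i) z :=
    ((η.sm i).contDiffAt ((C.e i).open_target.mem_nhds hz)).differentiableAt (by simp)
  have h3 : fderiv ℝ (fun z => a • η.η i z) z = a • fderiv ℝ (η.η i) z :=
    (d1.hasFDerivAt.const_smul a).fderiv
  simp only [h3, smul_apply, F2.smul_w, smul_eq_mul]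
  rw [hη i z hz]
  ring

theorem ex_neg {w : F2 C} (h : Ex w) : Ex (-w) := by
  have := ex_smul (-1) h
  rwa [neg_one_smul] at this

theorem ex_sub {w w' : F2 C} (h : Ex w) (h' : Ex w') : Ex (w - w') := by
  rw [sub_eq_add_neg]
  exact ex_add h (ex_neg h')

/-- the exact forms, as a subspace -/
def exS (C : RCh V X) : Submodule ℝ (F2 C) where
  carrier := {w | Ex w}
  zero_mem' := ex_zero
  add_mem' := ex_add
  smul_mem' a _ h := ex_smul a h

/-! ### Kaehler classes -/

/-- the class of `w` contains a Kaehler form of `J` -/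
def KCls (J : AJ C) (w : F2 C) : Prop := ∃ w' : F2 C, Ex (w' - w) ∧ T11 J w' ∧ Pos J w'

/-- the class of `w` is nef for `J`, tested with the form `om` -/
def NefC (J : AJ C) (om w : F2 C) : Prop := ∀ N : ℕ, KCls J (om + (N : ℝ) • w)

section KC

variable {J : AJ C} {w w' om om' : F2 C}

theorem KCls.of (h : T11 J w) (hp : Pos J w) : KCls J w :=
  ⟨w, by rw [sub_self]; exact ex_zero, h, hp⟩

theorem KCls.congr (h : KCls J w) (he : Ex (w - w')) : KCls J w' := by
  obtain ⟨v, hv, h1, h2⟩ := h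
  refine ⟨v, ?_, h1, h2⟩
  have := ex_add hv he
  rwa [sub_add_sub_cancel] at this

theorem KCls.add (h : KCls J w) (h' : KCls J w') : KCls J (w + w') := by
  obtain ⟨v, hv, h1, h2⟩ := h
  obtain ⟨v', hv', h1', h2'⟩ := h'
  refine ⟨v + v', ?_, h1.add h1', Pos.add h2 h2'⟩
  have := ex_add hv hv'
  rwa [sub_add_sub_comm] at this

theorem KCls.smul {a : ℝ} (ha : 0 < a) (h : KCls J w) : KCls J (a • w) := by
  obtain ⟨v, hv, h1, h2⟩ := h
  refine ⟨a • v, ?_, h1.smul a, Pos.smul ha h2⟩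
  have := ex_smul a hv
  rwa [smul_sub] at this

theorem KCls.smul_iff {a : ℝ} (ha : 0 < a) : KCls J (a • w) ↔ KCls J w := by
  refine ⟨fun h => ?_, fun h => h.smul ha⟩
  have := h.smul (inv_pos.2 ha)
  rwa [smul_smul, inv_mul_cancel₀ ha.ne', one_smul] at this

/-- real multiples -/
theorem NefC.real (h : NefC J om w) {t : ℝ} (ht : 0 ≤ t) : KCls J (om + t • w) := by
  obtain ⟨N, hN⟩ := exists_nat_gt t
  have hN0 : (0 : ℝ) < N := ht.trans_lt hN
  rcases ht.eq_or_lt with rfl | ht'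
  · have := h 0
    simpa using this
  · have h0 := (h 0).smul (a := 1 - t / N) (by
      rw [sub_pos, div_lt_one hN0]; exact hN)
    have h1 := (h N).smul (a := t / N) (by positivity)
    have h2 := h0.add h1
    have e : (1 - t / N) • (om + ((0 : ℕ) : ℝ) • w) + (t / N) • (om + (N : ℝ) • w) =
        om + t • w := by
      rw [Nat.cast_zero, zero_smul, add_zero, smul_add, smul_smul, div_mul_cancel₀ _ hN0.ne',
        ← add_assoc, ← add_smul, sub_add_cancel, one_smul]
    rwa [e] at h2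

theorem NefC.congr (h : NefC J om w) (ho : Ex (om - om')) (hw : Ex (w - w')) :
    NefC J om' w' := fun N => by
  refine (h N).congr ?_
  have := ex_add ho (ex_smul (N : ℝ) hw)
  rwa [smul_sub, sub_add_sub_comm] at this

theorem NefC.of_le {c : ℝ} (hc : 0 < c) (h : NefC J om w) (hK : KCls J (om' - c • om)) :
    NefC J om' w := fun N => by
  have h1 := (h.real (t := N / c) (by positivity)).smul hc
  have h2 := hK.add h1
  have e : om' - c • om + c • (om + (N / c) • w) = om' + (N : ℝ) • w := by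
    rw [smul_add, smul_smul, mul_div_cancel₀ _ hc.ne', ← add_assoc, sub_add_cancel]
  rwa [e] at h2

theorem NefC.smul {a : ℝ} (ha : 0 ≤ a) (h : NefC J om w) : NefC J om (a • w) := fun N => by
  rw [smul_smul]
  exact h.real (by positivity)

end KC

variable [FiniteDimensional ℝ V]

/-- compactness: `om' - c om` is positive for small `c` -/
theorem exists_pos_sub [CompactSpace X] {J : AJ C} {om om' : F2 C} (h : Pos J om') :
    ∃ c : ℝ, 0 < c ∧ Pos J (om' - c • om) := by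
  have : ProperSpace V := FiniteDimensional.proper ℝ V
  let _ : MeasurableSpace V := borel V
  have : BorelSpace V := ⟨rfl⟩
  have key : ∀ x : X, ∃ (i : C.ι) (W : Set V) (c : ℝ), x ∈ (C.e i).source ∧
      IsOpen W ∧ C.e i x ∈ W ∧ W ⊆ (C.e i).target ∧ 0 < c ∧ ∀ a, 0 < a → a ≤ c → ∀ z ∈ W,
        ∀ v : V, ‖v‖ = 1 → 0 < (om' - a • om).w i z v (J.J i z v) := by
    intro x
    obtain ⟨i, hi⟩ := C.cover x
    have hz0 : C.e i x ∈ (C.e i).target := (C.e i).map_source hi
    set f : (ℝ × V) × V → ℝ := fun q =>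
      om'.w i q.1.2 q.2 (J.J i q.1.2 q.2) - q.1.1 * om.w i q.1.2 q.2 (J.J i q.1.2 q.2) with hf
    have hopen : IsOpen ((univ ×ˢ (C.e i).target : Set (ℝ × V)) ×ˢ (univ : Set V)) :=
      (isOpen_univ.prod (C.e i).open_target).prod isOpen_univ
    have m2 : MapsTo (fun q : (ℝ × V) × V => q.1.2) ((univ ×ˢ (C.e i).target) ×ˢ univ)
        ((C.e i).target) := fun q hq => hq.1.2
    have c2 : ContinuousOn (fun q : (ℝ × V) × V => q.1.2) ((univ ×ˢ (C.e i).target) ×ˢ univ) :=
      (continuous_snd.comp continuous_fst).continuousOn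
    have c3 : ContinuousOn (fun q : (ℝ × V) × V => q.1.1) ((univ ×ˢ (C.e i).target) ×ˢ univ) :=
      (continuous_fst.comp continuous_fst).continuousOn
    have cv : ContinuousOn (fun q : (ℝ × V) × V => q.2) ((univ ×ˢ (C.e i).target) ×ˢ univ) :=
      continuous_snd.continuousOn
    have g1 := (om'.sm i).continuousOn.comp c2 m2
    have g2 := (om.sm i).continuousOn.comp c2 m2
    have g3 := (J.sm i).continuousOn.comp c2 m2
    simp only [Function.comp_def] at g1 g2 g3
    have hfc : ContinuousOn f ((univ ×ˢ (C.e i).target) ×ˢ univ) :=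
      ((g1.clm_apply cv).clm_apply (g3.clm_apply cv)).sub
        (c3.mul ((g2.clm_apply cv).clm_apply (g3.clm_apply cv)))
    have hO : IsOpen (((univ ×ˢ (C.e i).target : Set (ℝ × V)) ×ˢ (univ : Set V)) ∩
        f ⁻¹' Ioi 0) := hfc.isOpen_inter_preimage hopen isOpen_Ioi
    have hsub : ({((0 : ℝ), C.e i x)} : Set (ℝ × V)) ×ˢ Metric.sphere (0 : V) 1 ⊆
        ((univ ×ˢ (C.e i).target : Set (ℝ × V)) ×ˢ (univ : Set V)) ∩ f ⁻¹' Ioi 0 := by
      rintro ⟨⟨p, z⟩, v⟩ ⟨hpz, hv⟩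
      simp only [mem_singleton_iff, Prod.mk.injEq] at hpz
      obtain ⟨rfl, rfl⟩ := hpz
      refine ⟨⟨⟨mem_univ _, hz0⟩, mem_univ _⟩, ?_⟩
      show 0 < f ((0, C.e i x), v)
      simp only [hf, zero_mul, sub_zero]
      refine h i _ hz0 v fun h0 => ?_
      simp [h0] at hv
    obtain ⟨A, B, hA, hB, hA', hB', hAB⟩ := generalized_tube_lemma isCompact_singleton
      (isCompact_sphere (0 : V) 1) hO hsub
    have hA'' : A ∈ 𝓝 ((0 : ℝ), C.e i x) := hA.mem_nhds (hA' rfl)
    rw [nhds_prod_eq] at hA''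
    obtain ⟨N, hN, W, hW, hNW⟩ := mem_prod_iff.1 hA''
    obtain ⟨W', hW'sub, hW'o, hW'x⟩ := mem_nhds_iff.1 hW
    obtain ⟨c, hc, hcN⟩ := Metric.mem_nhds_iff.1 hN
    refine ⟨i, W' ∩ (C.e i).target, c / 2, hi, hW'o.inter (C.e i).open_target,
      ⟨hW'x, hz0⟩, inter_subset_right, by positivity, fun a ha hac z hz v hv => ?_⟩
    have haN : a ∈ N := hcN (by
      rw [Metric.mem_ball, Real.dist_eq, sub_zero, abs_of_pos ha]; linarith)
    have h1 := hAB (mk_mem_prod (hNW (mk_mem_prod haN (hW'sub hz.1))) (hB' (by simp [hv] :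
      v ∈ Metric.sphere (0 : V) 1)))
    have h2 : 0 < f ((a, z), v) := h1.2
    simpa [hf] using h2
  choose ci W c hsrc hW hx hWt hc hP using key
  obtain ⟨t, -, ht⟩ := isCompact_univ.elim_nhds_subcover
    (fun x => (C.e (ci x)).source ∩ C.e (ci x) ⁻¹' W x) fun x _ =>
      ((C.e (ci x)).isOpen_inter_preimage (hW x)).mem_nhds ⟨hsrc x, hx x⟩
  obtain ⟨a, ha, hat⟩ : ∃ a : ℝ, 0 < a ∧ ∀ x ∈ t, a ≤ c x := by
    rcases t.eq_empty_or_nonempty with rfl | hne
    · exact ⟨1, one_pos, by simp⟩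
    · obtain ⟨x0, hx0, hmin⟩ := t.exists_min_image c hne
      exact ⟨c x0, hc x0, fun x hx => hmin x hx⟩
  refine ⟨a, ha, fun i z hz v hv => ?_⟩
  obtain ⟨x, hxt, hxs, hxW⟩ := mem_iUnion₂.1 (ht (mem_univ ((C.e i).symm z)))
  have hov : z ∈ C.ov i (ci x) := ⟨hz, hxs⟩
  refine pos_tr hov (fun v' hv' => ?_) v hv
  have hn : 0 < ‖v'‖ := norm_pos_iff.2 hv'
  have h1 := hP x a ha (hat x hxt) (C.t i (ci x) z) hxW (‖v'‖⁻¹ • v') (by
    rw [norm_smul, norm_inv, norm_norm, inv_mul_cancel₀ hn.ne'])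
  simp only [map_smul, smul_apply, smul_eq_mul] at h1
  have h2 : 0 < ‖v'‖⁻¹ * ‖v'‖⁻¹ := by positivity
  rw [← mul_assoc] at h1
  exact (mul_pos_iff_of_pos_left h2).1 h1

/-- the nef condition does not depend on the Kaehler form -/
theorem NefC.indep [CompactSpace X] {J : AJ C} {om om' w : F2 C} (h : NefC J om w)
    (ht : T11 J om) (ht' : T11 J om') (hp' : Pos J om') : NefC J om' w := by
  obtain ⟨c, hc, hcp⟩ := exists_pos_sub (om := om) hp'
  exact h.of_le hc (KCls.of (ht'.sub (ht.smul c)) hcp)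

/-! ### `dd^c`-lemma and openness -/

variable [MeasurableSpace V] [BorelSpace V]

theorem ddc_T11 {J : AJ C} (hJ : Cx J) (u : X → ℝ) (hu : Sm C u) : T11 J (ddc J u hu) := by
  intro i z hz a b
  have hn := (C.e i).open_target.mem_nhds hz
  rw [ddc_w J u hu hz, ddc_w J u hu hz]
  exact ddcF_inv (hu.at hz) (((J.sm i).contDiffAt hn).differentiableAt (by simp))
    (by filter_upwards [hn] with y hy using hJ.sq i y hy) (hJ.int i z hz) a b

theorem ddc_Ex (J : AJ C) (u : X → ℝ) (hu : Sm C u) : Ex (ddc J u hu) := ⟨_, (dc J u hu).isD⟩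

/-- the `dd^c`-lemma for `J` -/
def DDb (J : AJ C) : Prop := ∀ w : F2 C, Ex w → T11 J w →
  ∃ (u : X → ℝ) (hu : Sm C u), ∀ i, ∀ z ∈ (C.e i).target, ∀ a b,
    w.w i z a b = (ddc J u hu).w i z a b

theorem KCls.of_ddc {J : AJ C} (hJ : Cx J) {w : F2 C} (hw : T11 J w) {u : X → ℝ} {hu : Sm C u}
    (h : Pos J (w + ddc J u hu)) : KCls J w :=
  ⟨_, by rw [add_sub_cancel_left]; exact ddc_Ex J u hu, hw.add (ddc_T11 hJ u hu), h⟩

theorem KCls_iff {J : AJ C} (hJ : Cx J) (hd : DDb J) {w : F2 C} (hw : T11 J w) :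
    KCls J w ↔ ∃ (u : X → ℝ) (hu : Sm C u), Pos J (w + ddc J u hu) := by
  refine ⟨fun h => ?_, fun ⟨u, hu, h⟩ => KCls.of_ddc hJ hw h⟩
  obtain ⟨w', h1, h2, h3⟩ := h
  obtain ⟨u, hu, h4⟩ := hd _ h1 (h2.sub hw)
  refine ⟨u, hu, fun i z hz v hv => ?_⟩
  have h5 := h4 i z hz v (J.J i z v)
  simp only [F2.sub_w, sub_apply] at h5
  simp only [F2.add_w, add_apply]
  rw [← h5, add_sub_cancel]
  exact h3 i z hz v hv

section fam

variable {P : Type*} [TopologicalSpace P]

/-- **the locus where the class of `b p` is Kaehler for `J p` is open** -/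
theorem isOpen_KCls [CompactSpace X] {J : P → AJ C} (hJ : ContJ J) (hc : ∀ p, Cx (J p))
    (hd : ∀ p, DDb (J p)) {b : P → F2 C} (hb : ContF b) (ht : ∀ p, T11 (J p) (b p)) :
    IsOpen {p | KCls (J p) (b p)} := by
  have : {p | KCls (J p) (b p)} =
      {p | ∃ (u : X → ℝ) (hu : Sm C u), Pos (J p) (b p + ddc (J p) u hu)} := by
    ext p
    exact KCls_iff (hc p) (hd p) (ht p)
  rw [this]
  exact nef_open hJ hb

/-- **the nef locus is a `G_δ`** -/
theorem isGδ_NefC [CompactSpace X] {J : P → AJ C} (hJ : ContJ J) (hc : ∀ p, Cx (J p))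
    (hd : ∀ p, DDb (J p)) {om F : P → F2 C} (ho : ContF om) (hF : ContF F)
    (ht : ∀ p, T11 (J p) (om p)) (ht' : ∀ p, T11 (J p) (F p)) :
    IsGδ {p | NefC (J p) (om p) (F p)} := by
  have : {p | NefC (J p) (om p) (F p)} = ⋂ N : ℕ, {p | KCls (J p) (om p + (N : ℝ) • F p)} := by
    ext p
    simp [NefC]
  rw [this]
  exact IsGδ.iInter_of_isOpen fun N => isOpen_KCls hJ hc hd (ho.add (hF.smul _))
    fun p => (ht p).add ((ht' p).smul _)

end fam

end

end Crest.Agent.R281.Nef_252
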