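import Crest.Agent.R281.Al1_830
import Crest.Agent.R281.Fuj4_207
import Crest.Agent.R281.Nef1_252

/-!
# Row 281, HK-ALONG, part 2 (helper830): `∫ om^(N-2) ∧ ρ ∧ ρ` for `ρ` of type (2,0) + (0,2)

* `TPM b`      : the top form as a natural symmetric multilinear map
* `exists_HR`  : pointwise: `om` positive (1,1), `ρ` anti-invariant ==> `HR` data
* `trace_sq`   : `- tr (R²) ≥ 0`, `> 0` if `R ≠ 0`
* `pw_one`, `pw_two` : the pointwise statements
* `A20 J ρ`    : `ρ` is of type (2,0) + (0,2)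
* `int_one`, `int_two` : `∫ om^(N-1) ρ = 0`, `∫ om^(N-2) ρ² ≥ 0`, `= 0` only for `ρ = 0`
-/

set_option autoImplicit false
set_option linter.unusedSectionVars false
set_option maxSynthPendingDepth 3

open Set Filter Topology Function MeasureTheory
open scoped ContDiff

namespace Crest.Agent.R281.Al_830

open Crest.Agent.R281.HKA_799 (Bil NatM)
open Crest.Agent.R281.FujP_513 (Symm mixv)
open Crest.Agent.R281.HkR_835 (RCh F2 HkT Cmp)
open Crest.Agent.R281.Ti_846
open Crest.Agent.R281.NefO_476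
open Crest.Agent.R281.Nef_252

noncomputable section

section pw

variable {V : Type} [NormedAddCommGroup V] [NormedSpace ℝ V] {N : ℕ}

/-- the top form of `N` bilinear forms -/
def TPM (b : Module.Basis (Fin N × Fin 2) ℝ V) : MultilinearMap ℝ (fun _ : Fin N => Bil V) ℝ where
  toFun w := TP b w
  map_update_add' := by
    intro D w k x y
    convert TP_update_add b w k x y
  map_update_smul' := by
    intro D w k c x
    rw [smul_eq_mul]
    convert TP_update_smul b w k c x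

variable (b : Module.Basis (Fin N × Fin 2) ℝ V)

@[simp] theorem TPM_apply (w : Fin N → Bil V) : TPM b w = TP b w := rfl

theorem natM_TPM : NatM (TPM b) := fun T _ _ h => TP_comp' b T h

theorem symm_TPM : Symm (TPM b) := fun σ w => TP_perm b w σ

/-- a form `om`, positive and invariant under `J`; `ρ` anti-invariant -/
theorem exists_HR [FiniteDimensional ℝ V] {J : V →L[ℝ] V} (hJ : ∀ u, J (J u) = -u)
    {om ρ : Bil V} (oa : ∀ u v, om u v = -om v u) (oi : ∀ u v, om (J u) (J v) = om u v)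
    (op : ∀ u, u ≠ 0 → 0 < om u (J u)) (ra : ∀ u v, ρ u v = -ρ v u)
    (ri : ∀ u v, ρ (J u) (J v) = -ρ u v) :
    ∃ H : HR V, H.om = om ∧ H.rho = ρ ∧ H.J = J ∧ ∀ u, u ≠ 0 → 0 < H.g u u := by
  set g : Bil V := (om.flip.comp J).flip with hg
  have hga : ∀ u v, g u v = om u (J v) := fun u v => rfl
  have hpos : ∀ u, u ≠ 0 → 0 < g u u := fun u hu => op u hu
  have hsymm : ∀ u v, g u v = g v u := by
    intro u v
    rw [hga, hga, ← oi u (J v), hJ, map_neg, oa v (J u)]
  have hinv : ∀ u v, g (J u) (J v) = g u v := by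
    intro u v
    rw [hga, hga, oi]
  -- the map `V → V*` is bijective
  set G : V →ₗ[ℝ] (V →L[ℝ] ℝ) := (g : V →ₗ[ℝ] (V →L[ℝ] ℝ)) with hG
  have hinj : Function.Injective G := by
    rw [← LinearMap.ker_eq_bot, LinearMap.ker_eq_bot']
    intro u hu
    by_contra hne
    have := hpos u hne
    have h0 : g u u = 0 := congrArg (fun L : V →L[ℝ] ℝ => L u) hu
    linarith
  have hdim : Module.finrank ℝ V = Module.finrank ℝ (V →L[ℝ] ℝ) := by
    rw [← (LinearMap.toContinuousLinearMap (𝕜 := ℝ) (E := V) (F' := ℝ)).finrank_eq]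
    exact (Subspace.dual_finrank_eq (K := ℝ) (V := V)).symm
  let e : V ≃ₗ[ℝ] (V →L[ℝ] ℝ) := LinearEquiv.ofInjectiveOfFinrankEq G hinj hdim
  let R : V →L[ℝ] V := LinearMap.toContinuousLinearMap
    ((e.symm : (V →L[ℝ] ℝ) →ₗ[ℝ] V).comp (ρ : V →ₗ[ℝ] (V →L[ℝ] ℝ)))
  have hR : ∀ u v, g (R u) v = ρ u v := by
    intro u v
    have h1 : e (e.symm (ρ u)) = ρ u := e.apply_symm_apply _
    have h2 : G (R u) = ρ u := h1
    exact congrArg (fun L : V →L[ℝ] ℝ => L v) h2
  have hri : ∀ u v, ρ (J u) v = ρ u (J v) := by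
    intro u v
    have := ri u (J v)
    rw [hJ, map_neg] at this
    linarith
  refine ⟨⟨g, J, R, hsymm, hJ, hinv, fun u v => ?_, fun u => ?_⟩, ?_, ?_, rfl, hpos⟩
  · rw [hR, ra, ← hR v u, hsymm]
  · apply hinj
    ext v
    show g (R (J u)) v = g (-J (R u)) v
    have h3 : g (J (R u)) v = -g (R u) (J v) := by
      have := hinv (R u) (J v)
      rw [hJ, map_neg] at this
      linarith
    rw [hR, map_neg, neg_apply, h3, neg_neg, hR, hri]
  · ext u v
    show g (J u) v = om u v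
    rw [hga, oi]
  · ext u v
    exact hR u v

/-- the trace of the square of a skew map -/
theorem trace_sq [FiniteDimensional ℝ V] (H : HR V) (hp : ∀ u, u ≠ 0 → 0 < H.g u u) :
    0 ≤ -LinearMap.trace ℝ V ((H.R.comp H.R : V →L[ℝ] V) : V →ₗ[ℝ] V) ∧
      (-LinearMap.trace ℝ V ((H.R.comp H.R : V →L[ℝ] V) : V →ₗ[ℝ] V) = 0 → ∀ u, H.R u = 0) := by
  classical
  let B : LinearMap.BilinForm ℝ V :=
    { toFun := fun u => (H.g u : V →ₗ[ℝ] ℝ)
      map_add' := fun u v => by ext w; simp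
      map_smul' := fun c v => by ext w; simp }
  have hB : ∀ u v, B u v = H.g u v := fun u v => rfl
  have hs : LinearMap.IsSymm B := ⟨fun u v => by
    rw [RingHom.id_apply]; exact H.symm u v⟩
  obtain ⟨v, hv⟩ := LinearMap.BilinForm.exists_orthogonal_basis (B := B) hs
  have hvv : ∀ i j, i ≠ j → H.g (v i) (v j) = 0 := fun i j hij => hv hij
  have hd : ∀ i, 0 < H.g (v i) (v i) := fun i => hp _ (v.ne_zero i)
  have hrep : ∀ x i, v.repr x i = H.g (v i) x / H.g (v i) (v i) := by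
    intro x i
    have h1 : H.g (v i) x = v.repr x i * H.g (v i) (v i) := by
      conv_lhs => rw [← v.sum_repr x]
      rw [map_sum, Finset.sum_eq_single i]
      · rw [map_smul, smul_eq_mul]
      · intro j _ hj
        rw [map_smul, hvv i j (Ne.symm hj), smul_zero]
      · intro h; exact absurd (Finset.mem_univ i) h
    rw [h1, mul_div_assoc, div_self (hd i).ne', mul_one]
  have htr : LinearMap.trace ℝ V ((H.R.comp H.R : V →L[ℝ] V) : V →ₗ[ℝ] V) =
      -∑ i, H.g (H.R (v i)) (H.R (v i)) / H.g (v i) (v i) := by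
    rw [LinearMap.trace_eq_matrix_trace ℝ v, Matrix.trace, ← Finset.sum_neg_distrib]
    refine Finset.sum_congr rfl fun i _ => ?_
    rw [Matrix.diag_apply, LinearMap.toMatrix_apply, hrep]
    show H.g (v i) (H.R (H.R (v i))) / _ = _
    have : H.g (v i) (H.R (H.R (v i))) = -H.g (H.R (v i)) (H.R (v i)) := by
      have := H.skew (v i) (H.R (v i))
      linarith
    rw [this, neg_div]
  have hnn : ∀ u, 0 ≤ H.g u u := fun u => by
    by_cases hu : u = 0
    · subst hu; simp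
    · exact (hp u hu).le
  have hterm : ∀ i ∈ Finset.univ, 0 ≤ H.g (H.R (v i)) (H.R (v i)) / H.g (v i) (v i) :=
    fun i _ => div_nonneg (hnn _) (hd i).le
  rw [htr, neg_neg]
  refine ⟨Finset.sum_nonneg hterm, fun h0 => ?_⟩
  have h1 := (Finset.sum_eq_zero_iff_of_nonneg hterm).1 h0
  have h2 : ∀ i, H.R (v i) = 0 := by
    intro i
    by_contra hne
    have h3 := div_pos (hp _ hne) (hd i)
    rw [h1 i (Finset.mem_univ i)] at h3
    exact lt_irrefl _ h3
  have h3 : (H.R : V →ₗ[ℝ] V) = 0 := v.ext fun i => by simpa using h2 i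
  intro u
  exact congrArg (fun L : V →ₗ[ℝ] V => L u) h3

variable [FiniteDimensional ℝ V]

/-- pointwise: `om^(N-1) ∧ ρ = 0` -/
theorem pw_one (hN : 1 ≤ N) {J : V →L[ℝ] V} (hJ : ∀ u, J (J u) = -u)
    {om ρ : Bil V} (oa : ∀ u v, om u v = -om v u) (oi : ∀ u v, om (J u) (J v) = om u v)
    (op : ∀ u, u ≠ 0 → 0 < om u (J u)) (ra : ∀ u v, ρ u v = -ρ v u)
    (ri : ∀ u v, ρ (J u) (J v) = -ρ u v) : TP b (mixv N 1 om ρ) = 0 := by
  obtain ⟨H, rfl, rfl, -, -⟩ := exists_HR hJ oa oi op ra ri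
  exact H.one hN (natM_TPM b) (symm_TPM b)

/-- pointwise: `om^(N-2) ∧ ρ ∧ ρ ≥ 0` -/
theorem pw_two (hN : 2 ≤ N) {J : V →L[ℝ] V} (hJ : ∀ u, J (J u) = -u)
    {om ρ : Bil V} (oa : ∀ u v, om u v = -om v u) (oi : ∀ u v, om (J u) (J v) = om u v)
    (op : ∀ u, u ≠ 0 → 0 < om u (J u)) (ra : ∀ u v, ρ u v = -ρ v u)
    (ri : ∀ u v, ρ (J u) (J v) = -ρ u v) (ho : 0 < TP b (fun _ : Fin N => om)) :
    0 ≤ TP b (mixv N 2 om ρ) ∧ (TP b (mixv N 2 om ρ) = 0 → ρ = 0) := by
  obtain ⟨H, rfl, rfl, -, hp⟩ := exists_HR hJ oa oi op ra ri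
  have h := H.two hN (natM_TPM b) (symm_TPM b)
  simp only [TPM_apply] at h
  obtain ⟨h1, h2⟩ := trace_sq H hp
  have hN' : (2 : ℝ) ≤ N := by exact_mod_cast hN
  have hc : (0 : ℝ) < 2 * N * (N - 1) := by nlinarith
  constructor
  · have h3 : 0 ≤ 2 * N * (N - 1) * TP b (mixv N 2 H.om H.rho) := by
      rw [h]; exact mul_nonneg h1 ho.le
    exact nonneg_of_mul_nonneg_right h3 hc
  · intro h0
    rw [h0, mul_zero] at h
    have h3 := (mul_eq_zero.1 h.symm).resolve_right ho.ne'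
    have h4 := h2 h3
    ext u v
    rw [H.rho_apply, h4]
    simp

end pw

/-! ### integrals -/

variable {V X : Type} [NormedAddCommGroup V] [NormedSpace ℝ V] [FiniteDimensional ℝ V]
  [MeasurableSpace V] [BorelSpace V] (μ : Measure V) [μ.IsAddHaarMeasure] [TopologicalSpace X]
  [CompactSpace X] {C : RCh V X} {N : ℕ} (b : Module.Basis (Fin N × Fin 2) ℝ V) (P : RPart C)

/-- real forms of type (2,0) + (0,2) -/
def A20 (J : AJ C) (ρ : F2 C) : Prop :=
  ∀ i, ∀ z ∈ (C.e i).target, ∀ u v, ρ.w i z (J.J i z u) (J.J i z v) = -ρ.w i z u v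

/-- the value at a point -/
theorem mix_w (a : ℕ) (x y : F2 C) (i : C.ι) (z : V) :
    (fun k => (mixv N a x y k).w i z) = mixv N a (x.w i z) (y.w i z) := by
  funext k
  unfold mixv
  split_ifs <;> rfl

/-- a nonnegative top form with integral zero vanishes -/
theorem intT_eq_zero (hP : ∀ k x, 0 ≤ P.ψ k x) {D : TopF C}
    (h : ∀ i, ∀ z ∈ (C.e i).target, 0 ≤ D.D i z) (h0 : intT μ P D = 0) :
    ∀ i, ∀ z ∈ (C.e i).target, D.D i z = 0 := by
  have hnn : ∀ k ∈ (Finset.univ : Finset P.σ), 0 ≤ ∫ z in (C.e (P.c k)).target,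
      P.ψ k ((C.e (P.c k)).symm z) * D.D (P.c k) z ∂μ := fun k _ =>
    setIntegral_nonneg (C.e _).open_target.measurableSet fun z hz =>
      mul_nonneg (hP _ _) (h _ z hz)
  have h1 := (Finset.sum_eq_zero_iff_of_nonneg hnn).1 h0
  -- each integrand vanishes
  have h2 : ∀ k, ∀ z ∈ (C.e (P.c k)).target,
      P.ψ k ((C.e (P.c k)).symm z) * D.D (P.c k) z = 0 := by
    intro k
    have hint := integrableOn_psi μ P D k
    have hc : ContinuousOn (fun z => P.ψ k ((C.e (P.c k)).symm z) * D.D (P.c k) z)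
        (C.e (P.c k)).target := (cont_psi_symm P k _).mul (D.cont _)
    have h3 : ∀ᵐ z ∂(μ.restrict (C.e (P.c k)).target),
        P.ψ k ((C.e (P.c k)).symm z) * D.D (P.c k) z = 0 := by
      have h4 := (setIntegral_eq_zero_iff_of_nonneg_ae ?_ hint).1 (h1 k (Finset.mem_univ k))
      · exact h4
      · exact (ae_restrict_iff' (C.e _).open_target.measurableSet).2
          (Eventually.of_forall fun z hz => mul_nonneg (hP _ _) (h _ z hz))
    intro z hz
    by_contra hne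
    -- nonzero on a neighbourhood, positive measure
    have ho : (C.e (P.c k)).target ∈ 𝓝 z := (C.e _).open_target.mem_nhds hz
    have hcz : ContinuousAt (fun z => P.ψ k ((C.e (P.c k)).symm z) * D.D (P.c k) z) z :=
      hc.continuousAt ho
    have h5 := (hcz.eventually_ne hne).and ho
    obtain ⟨U, hU, hUo, hUz⟩ := mem_nhds_iff.1 h5
    have h6 : μ U = 0 := by
      have h7 := (ae_restrict_iff' (C.e (P.c k)).open_target.measurableSet).1 h3
      rw [ae_iff] at h7
      refine measure_mono_null (fun y hy => ?_) h7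
      intro h8
      exact (hU hy).1 (h8 (hU hy).2)
    exact (hUo.measure_pos μ ⟨z, hUz⟩).ne' h6
  intro i z hz
  -- some partition function is nonzero
  have hs := P.sum_one ((C.e i).symm z)
  obtain ⟨k, -, hk⟩ : ∃ k ∈ (Finset.univ : Finset P.σ), P.ψ k ((C.e i).symm z) ≠ 0 := by
    by_contra hcon
    push Not at hcon
    rw [Finset.sum_eq_zero hcon] at hs
    exact zero_ne_one hs
  have hsrc : (C.e i).symm z ∈ (C.e (P.c k)).source :=
    P.sub k (subset_tsupport _ hk)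
  have hov : z ∈ C.ov i (P.c k) := ⟨hz, hsrc⟩
  have h3 := h2 k (C.t i (P.c k) z) (RCh.t_mem hov).1
  have h4 : (C.e (P.c k)).symm (C.t i (P.c k) z) = (C.e i).symm z :=
    (C.e (P.c k)).left_inv hsrc
  rw [h4] at h3
  rw [D.tr i (P.c k) z hov, (mul_eq_zero.1 h3).resolve_left hk, mul_zero]

variable {J : AJ C} (hJ : ∀ i, ∀ z ∈ (C.e i).target, ∀ v, J.J i z (J.J i z v) = -v)
  {om ρ : F2 C} (h11 : T11 J om) (hpos : Pos J om) (hρ : A20 J ρ)

include hJ h11 hpos hρ

/-- **`∫ om^(N-1) ∧ ρ = 0`** -/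
theorem int_one (hN : 1 ≤ N) : IM μ b P (mixv N 1 om ρ) = 0 := by
  rw [IM_apply]
  have h := intT_sum μ P (∅ : Finset (Fin 1)) (fun _ => 0) (fun _ => TopF.of b (mixv N 1 om ρ))
    (TopF.of b (mixv N 1 om ρ)) fun i z hz => by
      rw [Finset.sum_empty, TopF.of_D, mix_w]
      exact pw_one b hN (hJ i z hz) (om.alt i z hz) (h11 i z hz) (hpos i z hz) (ρ.alt i z hz)
        (hρ i z hz)
  rw [Finset.sum_empty] at h
  exact h

/-- **`∫ om^(N-2) ∧ ρ ∧ ρ ≥ 0`, with equality only for `ρ = 0`** -/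
theorem int_two (hN : 2 ≤ N) (hP : ∀ k x, 0 ≤ P.ψ k x)
    (ho : ∀ i, ∀ z ∈ (C.e i).target, 0 < TP b (fun _ : Fin N => om.w i z)) :
    0 ≤ IM μ b P (mixv N 2 om ρ) ∧
      (IM μ b P (mixv N 2 om ρ) = 0 → ∀ i, ∀ z ∈ (C.e i).target, ρ.w i z = 0) := by
  have hpw : ∀ i, ∀ z ∈ (C.e i).target, 0 ≤ (TopF.of b (mixv N 2 om ρ)).D i z ∧
      ((TopF.of b (mixv N 2 om ρ)).D i z = 0 → ρ.w i z = 0) := by
    intro i z hz
    rw [TopF.of_D, mix_w]
    exact pw_two b hN (hJ i z hz) (om.alt i z hz) (h11 i z hz) (hpos i z hz) (ρ.alt i z hz)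
      (hρ i z hz) (ho i z hz)
  refine ⟨intT_nonneg μ P hP fun i z hz => (hpw i z hz).1, fun h0 i z hz => ?_⟩
  exact (hpw i z hz).2 (intT_eq_zero μ P hP (fun i z hz => (hpw i z hz).1) h0 i z hz)

end

end Crest.Agent.R281.Al_830
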