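import Crest.Agent.R281.FujP_513

/-!
# Row 281 (helper358): signature of the Beauville-Bogomolov-Fujiki form, abstract form

`H` a real vector space (closed real 2-forms), `T` symmetric of degree `2n` (intersection form),
`T (x,..,x) = q x ^ n`; `Ex` = exact forms, `E11` = closed (1,1)-forms, `r, s` = real and imaginary
part of the symplectic form, `K` a Kaehler form.
-/

set_option autoImplicit false

open Polynomial

namespace Crest.Agent.R281.FujSig_358

open Crest.Agent.R281.FujR_513 Crest.Agent.R281.FujP_513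

variable {H : Type*} [AddCommGroup H] [Module ℝ H]

/-- the value of `q` on a line -/
theorem q_line (q : QuadraticForm ℝ H) (x y : H) (s : ℝ) :
    q (x + s • y) = q x + s * QuadraticMap.polar q x y + s ^ 2 * q y := by
  have h1 : q (x + s • y) = q x + q (s • y) + QuadraticMap.polar q x (s • y) := by
    simp [QuadraticMap.polar]
  rw [h1, QuadraticMap.polar_smul_right, QuadraticMap.map_smul]
  simp only [smul_eq_mul]
  ring

/-- coefficient of `X²` in `(a + b X + c X²)^n` -/
theorem coeff_two (a b c : ℝ) : ∀ n : ℕ,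
    2 * ((C a + C b * X + C c * X ^ 2 : ℝ[X]) ^ n).coeff 2 =
      2 * n * a ^ (n - 1) * c + n * (n - 1 : ℝ) * a ^ (n - 2) * b ^ 2 := by
  have h0 : ∀ n : ℕ, ((C a + C b * X + C c * X ^ 2 : ℝ[X]) ^ n).coeff 0 = a ^ n := by
    intro n
    rw [coeff_zero_eq_eval_zero]; simp
  have h1 : ∀ n : ℕ, ((C a + C b * X + C c * X ^ 2 : ℝ[X]) ^ n).coeff 1 =
      n * a ^ (n - 1) * b := by
    intro n
    have hd : ((C a + C b * X + C c * X ^ 2 : ℝ[X]) ^ n).coeff 1 =
        (derivative ((C a + C b * X + C c * X ^ 2 : ℝ[X]) ^ n)).eval 0 := by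
      rw [← coeff_zero_eq_eval_zero, coeff_derivative]; simp
    rw [hd, derivative_pow]
    simp
  intro n
  induction n with
  | zero => simp [coeff_one]
  | succ n ih =>
    have e : ((C a + C b * X + C c * X ^ 2 : ℝ[X]) ^ (n + 1)).coeff 2 =
        a * ((C a + C b * X + C c * X ^ 2 : ℝ[X]) ^ n).coeff 2 +
          b * ((C a + C b * X + C c * X ^ 2 : ℝ[X]) ^ n).coeff 1 +
          c * ((C a + C b * X + C c * X ^ 2 : ℝ[X]) ^ n).coeff 0 := by
      rw [pow_succ', add_mul, add_mul, mul_assoc (C b), mul_assoc (C c)]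
      simp only [coeff_add, coeff_C_mul]
      have k1 := coeff_X_mul ((C a + C b * X + C c * X ^ 2 : ℝ[X]) ^ n) 1
      have k2 := coeff_X_pow_mul ((C a + C b * X + C c * X ^ 2 : ℝ[X]) ^ n) 2 0
      rw [show (2 : ℕ) = 1 + 1 from rfl] at *
      rw [k1]
      rw [zero_add] at k2
      rw [k2]
    rw [e, h0, h1]
    have e2 : 2 * (a * ((C a + C b * X + C c * X ^ 2 : ℝ[X]) ^ n).coeff 2 +
          b * (n * a ^ (n - 1) * b) + c * a ^ n) =
        a * (2 * ((C a + C b * X + C c * X ^ 2 : ℝ[X]) ^ n).coeff 2) +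
          2 * (b * (n * a ^ (n - 1) * b) + c * a ^ n) := by ring
    rw [e2, ih]
    rcases n with _ | n
    · simp
    · rcases n with _ | n
      · simp; ring
      · have k1 : n + 1 + 1 - 1 = n + 1 := rfl
        have k2 : n + 1 + 1 - 2 = n := rfl
        have k3 : n + 1 + 1 + 1 - 1 = n + 2 := rfl
        have k4 : n + 1 + 1 + 1 - 2 = n + 1 := rfl
        rw [k1, k2, k3, k4]
        push_cast
        ring

/-- **second polarised Fujiki relation**:
`(2n-1) T(y, y, x^(2n-2)) = q(x)^(n-1) q(y) + (n-1)/2 q(x)^(n-2) polar(x,y)^2` -/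
theorem second_polar {n : ℕ} (hn : 0 < n) {T : MultilinearMap ℝ (fun _ : Fin (n + n) => H) ℝ}
    {q : QuadraticForm ℝ H} (hT : Symm T) (hq : ∀ x, T (fun _ => x) = q x ^ n) (x y : H) :
    2 * (2 * n - 1) * T (mixv (n + n) 2 x y) =
      2 * q x ^ (n - 1) * q y + (n - 1) * q x ^ (n - 2) * QuadraticMap.polar q x y ^ 2 := by
  set β := QuadraticMap.polar q x y with hβ
  have h2 := coeff_of_expand (k := n + n)
    (fun a => ((n + n).choose a : ℝ) * T (mixv (n + n) a x y))
    ((C (q x) + C β * X + C (q y) * X ^ 2) ^ n) (by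
      intro s
      have h3 := hT.expand x y s
      rw [hq, q_line] at h3
      simp only [eval_pow, eval_add, eval_mul, eval_C, eval_X]
      rw [show q x + β * s + q y * s ^ 2 = q x + s * β + s ^ 2 * q y by ring, hβ, h3]
      exact Finset.sum_congr rfl fun a _ => by ring) 2 (by omega)
  have h4 := coeff_two (q x) β (q y) n
  rw [← h2] at h4
  have h5 : ((n + n).choose 2 : ℝ) = n * (2 * n - 1) := by
    rw [Nat.cast_choose_two]
    push_cast
    ring
  rw [h5] at h4
  have hn' : (n : ℝ) ≠ 0 := by positivity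
  have h6 : (n : ℝ) * (2 * (2 * n - 1) * T (mixv (n + n) 2 x y)) =
      n * (2 * q x ^ (n - 1) * q y + (n - 1) * q x ^ (n - 2) * β ^ 2) := by
    linear_combination h4
  exact mul_left_cancel₀ hn' h6

/-- first polarised relation in `mixv` form -/
theorem first_polar' {n : ℕ} (hn : 0 < n) {T : MultilinearMap ℝ (fun _ : Fin (n + n) => H) ℝ}
    {q : QuadraticForm ℝ H} (hT : Symm T) (hq : ∀ x, T (fun _ => x) = q x ^ n) (x y : H) :
    2 * T (mixv (n + n) 1 x y) = q x ^ (n - 1) * QuadraticMap.polar q x y := by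
  have key : ∀ (k : ℕ) (_ : k = n + n) (T : MultilinearMap ℝ (fun _ : Fin k => H) ℝ), Symm T →
      (∀ x, T (fun _ => x) = q x ^ n) →
      2 * T (mixv k 1 x y) = q x ^ (n - 1) * QuadraticMap.polar q x y := by
    intro k hk T hT hq
    obtain ⟨k, rfl⟩ : ∃ j, k = j + 1 := ⟨k - 1, by omega⟩
    rw [mixv_one]
    exact first_polar hn hk hT hq x y
  exact key _ rfl T hT hq

/-- the input: Fujiki relation, decomposition (h1), Hodge index (h3) -/
structure Sig {n : ℕ} (T : MultilinearMap ℝ (fun _ : Fin (n + n) => H) ℝ)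
    (q : QuadraticForm ℝ H) (Ex E11 : Submodule ℝ H) (r s K : H) : Prop where
  pos : 0 < n
  symm : Symm T
  fuj : ∀ x, T (fun _ => x) = q x ^ n
  /-- exact forms are in the kernel -/
  ex : ∀ x, ∀ e ∈ Ex, QuadraticMap.polar q x e = 0
  qex : ∀ e ∈ Ex, q e = 0
  /-- (h1) -/
  dec : ∀ x, ∃ (a b : ℝ), ∃ y ∈ E11, ∃ e ∈ Ex, x = a • r + b • s + y + e
  qr : 0 < q r
  qs : q s = q r
  rs : QuadraticMap.polar q r s = 0
  r11 : ∀ y ∈ E11, QuadraticMap.polar q r y = 0
  s11 : ∀ y ∈ E11, QuadraticMap.polar q s y = 0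
  K11 : K ∈ E11
  qK : 0 < q K
  /-- (h3), the Hodge index theorem on primitive (1,1)-forms -/
  hodge : ∀ y ∈ E11, T (mixv (n + n) 1 K y) = 0 →
    T (mixv (n + n) 2 K y) ≤ 0 ∧ (T (mixv (n + n) 2 K y) = 0 → y ∈ Ex)

namespace Sig

variable {n : ℕ} {T : MultilinearMap ℝ (fun _ : Fin (n + n) => H) ℝ}
  {q : QuadraticForm ℝ H} {Ex E11 : Submodule ℝ H} {r s K : H}

/-- the form is negative definite on the primitive (1,1)-part -/
theorem neg11 (h : Sig T q Ex E11 r s K) {y : H} (hy : y ∈ E11)
    (hK : QuadraticMap.polar q K y = 0) : q y ≤ 0 ∧ (q y = 0 → y ∈ Ex) := by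
  have h1 := first_polar' h.pos h.symm h.fuj K y
  rw [hK, mul_zero] at h1
  have h2 := h.hodge y hy (by linarith)
  have h3 := second_polar h.pos h.symm h.fuj K y
  rw [hK] at h3
  have hn : (1 : ℝ) ≤ n := by exact_mod_cast h.pos
  have hqK : 0 < q K ^ (n - 1) := pow_pos h.qK _
  have h4 : 2 * (2 * n - 1) * T (mixv (n + n) 2 K y) = 2 * q K ^ (n - 1) * q y := by
    rw [h3]; ring
  constructor
  · by_contra hc
    push Not at hc
    have : 0 < 2 * q K ^ (n - 1) * q y := by positivity
    rw [← h4] at this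
    have h5 : 2 * (2 * (n : ℝ) - 1) * T (mixv (n + n) 2 K y) ≤ 0 :=
      mul_nonpos_of_nonneg_of_nonpos (by linarith) h2.1
    linarith
  · intro h0
    refine h2.2 ?_
    rw [h0, mul_zero] at h4
    have h6 : 2 * (2 * (n : ℝ) - 1) ≠ 0 := by
      have : 0 < 2 * (2 * (n : ℝ) - 1) := by linarith
      exact this.ne'
    exact (mul_eq_zero.1 h4).resolve_left h6

theorem q_add (q : QuadraticForm ℝ H) (x y : H) :
    q (x + y) = q x + q y + QuadraticMap.polar q x y := by
  simp [QuadraticMap.polar]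

theorem rr (h : Sig T q Ex E11 r s K) : QuadraticMap.polar q r r = 2 * q r := by
  rw [QuadraticMap.polar_self]; simp

theorem ss (h : Sig T q Ex E11 r s K) : QuadraticMap.polar q s s = 2 * q r := by
  rw [QuadraticMap.polar_self, h.qs]; simp

/-- the components of a form -/
theorem comp (h : Sig T q Ex E11 r s K) {a b : ℝ} {y e : H} (hy : y ∈ E11) (he : e ∈ Ex) :
    QuadraticMap.polar q (a • r + b • s + y + e) r = 2 * a * q r ∧
      QuadraticMap.polar q (a • r + b • s + y + e) s = 2 * b * q r ∧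
      (∀ z ∈ E11, QuadraticMap.polar q (a • r + b • s + y + e) z = QuadraticMap.polar q y z) ∧
      q (a • r + b • s + y + e) = (a ^ 2 + b ^ 2) * q r + q y := by
  have hsr : QuadraticMap.polar q s r = 0 := by rw [QuadraticMap.polar_comm]; exact h.rs
  have hyr : QuadraticMap.polar q y r = 0 := by rw [QuadraticMap.polar_comm]; exact h.r11 y hy
  have hys : QuadraticMap.polar q y s = 0 := by rw [QuadraticMap.polar_comm]; exact h.s11 y hy
  have hex : ∀ z, QuadraticMap.polar q e z = 0 := fun z => by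
    rw [QuadraticMap.polar_comm]; exact h.ex z e he
  refine ⟨?_, ?_, ?_, ?_⟩
  · rw [QuadraticMap.polar_add_left, QuadraticMap.polar_add_left, QuadraticMap.polar_add_left,
      QuadraticMap.polar_smul_left, QuadraticMap.polar_smul_left, h.rr, hsr, hyr, hex]
    simp; ring
  · rw [QuadraticMap.polar_add_left, QuadraticMap.polar_add_left, QuadraticMap.polar_add_left,
      QuadraticMap.polar_smul_left, QuadraticMap.polar_smul_left, h.rs, h.ss, hys, hex]
    simp; ring
  · intro z hz
    rw [QuadraticMap.polar_add_left, QuadraticMap.polar_add_left, QuadraticMap.polar_add_left,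
      QuadraticMap.polar_smul_left, QuadraticMap.polar_smul_left, h.r11 z hz, h.s11 z hz, hex]
    simp
  · rw [q_add, h.ex _ e he, h.qex e he, q_add, q_add, QuadraticMap.polar_add_left,
      QuadraticMap.polar_smul_left, QuadraticMap.polar_smul_left, QuadraticMap.polar_smul_left,
      QuadraticMap.polar_smul_right, h.rs, h.r11 y hy, h.s11 y hy, QuadraticMap.map_smul,
      QuadraticMap.map_smul, h.qs]
    simp; ring

/-- orthogonal to `r, s` <=> the class has a (1,1)-representative -/
theorem type11 (h : Sig T q Ex E11 r s K) {x : H} :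
    (QuadraticMap.polar q x r = 0 ∧ QuadraticMap.polar q x s = 0) ↔
      ∃ y ∈ E11, ∃ e ∈ Ex, x = y + e := by
  constructor
  · rintro ⟨h1, h2⟩
    obtain ⟨a, b, y, hy, e, he, rfl⟩ := h.dec x
    obtain ⟨c1, c2, -, -⟩ := h.comp (a := a) (b := b) hy he
    rw [c1] at h1
    rw [c2] at h2
    have hr := h.qr.ne'
    have ha : a = 0 := by
      rcases mul_eq_zero.1 h1 with h3 | h3
      · linarith
      · exact absurd h3 hr
    have hb : b = 0 := by
      rcases mul_eq_zero.1 h2 with h3 | h3
      · linarith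
      · exact absurd h3 hr
    exact ⟨y, hy, e, he, by simp [ha, hb]⟩
  · rintro ⟨y, hy, e, he, rfl⟩
    have := h.comp (a := 0) (b := 0) hy he
    simp only [zero_smul, zero_add, mul_zero, zero_mul] at this
    exact ⟨this.1, this.2.1⟩

/-- **signature**: negative definite (modulo exact forms) on the orthogonal complement of the
positive 3-plane `⟨r, s, K⟩` -/
theorem neg (h : Sig T q Ex E11 r s K) {x : H} (hr : QuadraticMap.polar q x r = 0)
    (hs : QuadraticMap.polar q x s = 0) (hK : QuadraticMap.polar q x K = 0) :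
    q x ≤ 0 ∧ (q x = 0 → x ∈ Ex) := by
  obtain ⟨y, hy, e, he, rfl⟩ := h.type11.1 ⟨hr, hs⟩
  have hc := h.comp (a := 0) (b := 0) hy he
  simp only [zero_smul, zero_add] at hc
  have hq : q (y + e) = q y := by
    have := hc.2.2.2
    rw [this]; ring
  have hKy : QuadraticMap.polar q K y = 0 := by
    rw [QuadraticMap.polar_comm, ← hc.2.2.1 K h.K11]; exact hK
  have := h.neg11 hy hKy
  rw [hq]
  exact ⟨this.1, fun h0 => Ex.add_mem (this.2 h0) he⟩

/-- the form is nondegenerate modulo exact forms -/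
theorem nondeg (h : Sig T q Ex E11 r s K) {x : H} (hx : ∀ y, QuadraticMap.polar q x y = 0) :
    x ∈ Ex := by
  refine (h.neg (hx r) (hx s) (hx K)).2 ?_
  have := hx x
  rw [QuadraticMap.polar_self] at this
  simpa using this

/-- **Hodge index / reversed Cauchy-Schwarz**: for `x ⟂ r, s`: `polar(K,x)² ≥ 4 q(K) q(x)`, with
equality iff `x` is proportional to `K` modulo exact forms -/
theorem rev_cs (h : Sig T q Ex E11 r s K) {x : H} (hr : QuadraticMap.polar q x r = 0)
    (hs : QuadraticMap.polar q x s = 0) :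
    4 * q K * q x ≤ QuadraticMap.polar q K x ^ 2 ∧
      (4 * q K * q x = QuadraticMap.polar q K x ^ 2 → ∃ t : ℝ, x - t • K ∈ Ex) := by
  set β := QuadraticMap.polar q K x with hβ
  set t : ℝ := β / (2 * q K) with ht
  have hK := h.qK
  have hKr : QuadraticMap.polar q K r = 0 := by
    rw [QuadraticMap.polar_comm]; exact h.r11 K h.K11
  have hKs : QuadraticMap.polar q K s = 0 := by
    rw [QuadraticMap.polar_comm]; exact h.s11 K h.K11
  have h1 : QuadraticMap.polar q (x - t • K) r = 0 := by
    rw [QuadraticMap.polar_sub_left, QuadraticMap.polar_smul_left, hr, hKr]; simp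
  have h2 : QuadraticMap.polar q (x - t • K) s = 0 := by
    rw [QuadraticMap.polar_sub_left, QuadraticMap.polar_smul_left, hs, hKs]; simp
  have h3 : QuadraticMap.polar q (x - t • K) K = 0 := by
    rw [QuadraticMap.polar_sub_left, QuadraticMap.polar_smul_left, QuadraticMap.polar_self,
      QuadraticMap.polar_comm q x K, ← hβ, ht]
    simp only [smul_eq_mul, nsmul_eq_mul, Nat.cast_ofNat]
    field_simp
    ring
  have h4 := h.neg h1 h2 h3
  have h5 : q (x - t • K) = q x - β ^ 2 / (4 * q K) := by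
    have := q_line q x K (-t)
    rw [neg_smul, ← sub_eq_add_neg] at this
    rw [this, QuadraticMap.polar_comm q x K, ← hβ, ht]
    field_simp
    ring
  rw [h5] at h4
  constructor
  · have h6 := h4.1
    have h7 : q x ≤ β ^ 2 / (4 * q K) := by linarith
    rw [le_div_iff₀ (by positivity)] at h7
    linarith
  · intro h0
    refine ⟨t, h4.2 ?_⟩
    rw [← h0]
    field_simp
    ring

/-- a class `x ⟂ r, s` with `q x ≥ 0` which is not exact meets `K` -/
theorem polar_ne (h : Sig T q Ex E11 r s K) {x : H} (hr : QuadraticMap.polar q x r = 0)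
    (hs : QuadraticMap.polar q x s = 0) (hx : 0 ≤ q x) (hn : x ∉ Ex) :
    QuadraticMap.polar q K x ≠ 0 := by
  intro h0
  have h1 := h.neg hr hs (by rw [QuadraticMap.polar_comm]; exact h0)
  exact hn (h1.2 (le_antisymm h1.1 hx))

/-- light cone lemma: two classes `x, y ⟂ r, s` in the closed positive cone of `K`, `x` not exact
: `polar (x, y) ≥ 0`, and `polar (x, y) = 0` only if both are isotropic and proportional -/
theorem cone (h : Sig T q Ex E11 r s K) {x y : H} (hxr : QuadraticMap.polar q x r = 0)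
    (hxs : QuadraticMap.polar q x s = 0) (hyr : QuadraticMap.polar q y r = 0)
    (hys : QuadraticMap.polar q y s = 0) (hx : 0 ≤ q x) (hy : 0 ≤ q y)
    (hKx : 0 < QuadraticMap.polar q K x) (hKy : 0 < QuadraticMap.polar q K y) :
    0 ≤ QuadraticMap.polar q x y ∧ (QuadraticMap.polar q x y = 0 →
      q x = 0 ∧ q y = 0 ∧
        QuadraticMap.polar q K x • y - QuadraticMap.polar q K y • x ∈ Ex) := by
  set α := QuadraticMap.polar q K x with hα
  set β := QuadraticMap.polar q K y with hβ
  -- `z := α y - β x` is orthogonal to `K`, `r`, `s`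
  have h1 : QuadraticMap.polar q (α • y - β • x) r = 0 := by
    rw [QuadraticMap.polar_sub_left, QuadraticMap.polar_smul_left, QuadraticMap.polar_smul_left,
      hxr, hyr]; simp
  have h2 : QuadraticMap.polar q (α • y - β • x) s = 0 := by
    rw [QuadraticMap.polar_sub_left, QuadraticMap.polar_smul_left, QuadraticMap.polar_smul_left,
      hxs, hys]; simp
  have h3 : QuadraticMap.polar q (α • y - β • x) K = 0 := by
    rw [QuadraticMap.polar_sub_left, QuadraticMap.polar_smul_left, QuadraticMap.polar_smul_left,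
      QuadraticMap.polar_comm q y K, QuadraticMap.polar_comm q x K, ← hα, ← hβ]
    simp only [smul_eq_mul]; ring
  have h4 := h.neg h1 h2 h3
  have h5 : q (α • y - β • x) = α ^ 2 * q y - α * β * QuadraticMap.polar q x y + β ^ 2 * q x := by
    have := q_line q (α • y) x (-β)
    rw [neg_smul, ← sub_eq_add_neg] at this
    rw [this, QuadraticMap.map_smul, QuadraticMap.polar_smul_left, QuadraticMap.polar_comm q y x]
    simp only [smul_eq_mul]; ring
  rw [h5] at h4
  have hαβ : 0 < α * β := mul_pos hKx hKy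
  have hx' : 0 ≤ β ^ 2 * q x := by positivity
  have hy' : 0 ≤ α ^ 2 * q y := by positivity
  constructor
  · by_contra hc
    push Not at hc
    have : α * β * QuadraticMap.polar q x y < 0 := mul_neg_of_pos_of_neg hαβ hc
    linarith [h4.1]
  · intro h0
    rw [h0, mul_zero, sub_zero] at h4
    have h6 : α ^ 2 * q y + β ^ 2 * q x = 0 := le_antisymm h4.1 (by linarith)
    have h7 : β ^ 2 * q x = 0 := by linarith
    have h8 : α ^ 2 * q y = 0 := by linarith
    have hα2 : α ^ 2 ≠ 0 := by positivity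
    have hβ2 : β ^ 2 ≠ 0 := by positivity
    exact ⟨(mul_eq_zero.1 h7).resolve_left hβ2, (mul_eq_zero.1 h8).resolve_left hα2,
      h4.2 h6⟩

/-- `q` is positive definite on `⟨r, s, K⟩` -/
theorem pos3 (h : Sig T q Ex E11 r s K) (a b c : ℝ) :
    q (a • r + b • s + c • K) = (a ^ 2 + b ^ 2) * q r + c ^ 2 * q K := by
  have := (h.comp (a := a) (b := b) (E11.smul_mem c h.K11) Ex.zero_mem).2.2.2
  rw [add_zero, QuadraticMap.map_smul] at this
  rw [this, smul_eq_mul]
  ring

/-- any other Kaehler form `K'` with `T(K', K^(2n-1)) > 0`: `polar (K, K') > 0` -/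
theorem polar_pos (h : Sig T q Ex E11 r s K) {x : H} (hx : 0 < T (mixv (n + n) 1 K x)) :
    0 < QuadraticMap.polar q K x := by
  have h1 := first_polar' h.pos h.symm h.fuj K x
  have h2 : 0 < q K ^ (n - 1) * QuadraticMap.polar q K x := by rw [← h1]; linarith
  exact (mul_pos_iff_of_pos_left (pow_pos h.qK _)).1 h2

end Sig

end Crest.Agent.R281.FujSig_358
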