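import Crest.Agent.R281.Ti6_846
import Crest.Agent.R273.Vm_333

/-!
# Row 281, TOPINT, part 7 (helper846): the integral on a complex manifold `(M, A : Atl n M)`

* `ori_ofAtl A : Ori (ofAtl A)`
* `lc n`       : the Haar measure of `Cn n` (Lebesgue measure in real coordinates)
* `TopF.fn h D : M → ℝ`, `D = fn * h`; `intT_eq : intT (lc n) P D = ∫ x, D.fn h x ∂(vm h)`
* `RPart.ofPart P : RPart (ofAtl A)` for `P : Part A`, `[Finite A.ι]`
* `II_same`    : `∫ K^n = 2^n n! vol(K)`, `II_herm`, `II_two` for (1,1)-forms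
-/

set_option autoImplicit false
set_option linter.unusedSectionVars false

open Set Filter Topology MeasureTheory Complex
open scoped ContDiff Matrix ComplexConjugate ComplexOrder

namespace Crest.Agent.R281.Ti_846

open Crest.Agent.R281.HkR_835 Equiv
open Crest.Agent.R275.Geo Crest.Agent.R275.C1d194 Crest.Agent.R275.Core144
open Crest.Agent.R273.Vm_333 Crest.Agent.R273.Vol_333 Crest.Agent.R273.HM_333
open Crest.Agent.R273.Kah_333 Crest.Agent.R273.Defs_333

noncomputable section

variable {n : ℕ} {M : Type} [TopologicalSpace M]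

/-- the real determinant of a complex linear map -/
theorem det_re (D : Cn n →L[ℂ] Cn n) :
    (D.restrictScalars ℝ).det = ‖LinearMap.det (D : Cn n →ₗ[ℂ] Cn n)‖ ^ 2 := by
  have h : ((D.restrictScalars ℝ : Cn n →L[ℝ] Cn n) : Cn n →ₗ[ℝ] Cn n) =
    (D : Cn n →ₗ[ℂ] Cn n).restrictScalars ℝ := rfl
  unfold ContinuousLinearMap.det
  rw [h, LinearMap.det_restrictScalars, Algebra.norm_complex_apply, Complex.normSq_eq_norm_sq]

variable (A : Atl n M)

theorem det_t {i j : A.ι} {z : Cn n} (hz : z ∈ (ofAtl A).ov i j) :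
    (fderiv ℝ ((ofAtl A).t i j) z).det = ‖(Jm A i j ((A.e i).symm z)).det‖ ^ 2 := by
  have h1 := (ofAtl_t_diff A hz).fderiv_restrictScalars ℝ
  rw [h1, det_re]
  have h2 : Jm A i j ((A.e i).symm z) = Matrix.of (A.J i j ((A.e i).symm z)) := rfl
  have h3 : A.e i ((A.e i).symm z) = z := (A.e i).right_inv hz.1
  rw [h2, Crest.Agent.R275.Pai323.det_J, h3]
  rfl

theorem ori_ofAtl : Ori (ofAtl A) := by
  intro i j z hz
  rw [det_t A hz]
  have hx : (A.e i).symm z ∈ (A.e i).source ∩ (A.e j).source := ⟨(A.e i).map_target hz.1, hz.2⟩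
  have h4 : (Jm A i j ((A.e i).symm z)).det ≠ 0 := by
    rw [← KB_g hx]; exact (KB A).ne_zero i j _
  positivity

/-- Lebesgue measure of `Cn n` in real coordinates -/
def lc (n : ℕ) : Measure (Cn n) := Measure.map (rcE n).symm volume

instance : (lc n).IsAddHaarMeasure := by
  unfold lc
  infer_instance

theorem setIntegral_lc (i : A.ι) (g : Cn n → ℝ) :
    ∫ z in (A.e i).target, g z ∂(lc n) = ∫ y in Ui A i, g (cc y) := by
  have h1 : MeasurableEmbedding ((rcE n).symm : (RI n → ℝ) → Cn n) :=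
    (rcE n).symm.toContinuousLinearEquiv.toHomeomorph.measurableEmbedding
  unfold lc
  rw [h1.setIntegral_map]
  rfl

variable {A}

/-- the function `D / h` -/
def TopF.fn (h : HM (KB A)⁻¹) (D : TopF (ofAtl A)) (x : M) : ℝ :=
  D.D (A.cover x).choose (A.e (A.cover x).choose x) / h.w (A.cover x).choose x

theorem w_jac' (h : HM (KB A)⁻¹) {i j : A.ι} {x : M} (hx : x ∈ (A.e i).source ∩ (A.e j).source) :
    h.w i x = ‖(Jm A i j x).det‖ ^ 2 * h.w j x := by
  have h1 := h.tr i j x hx
  rw [LB.inv_g, KB_g hx] at h1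
  have h4 : (Jm A i j x).det ≠ 0 := by
    rw [← KB_g hx]; exact (KB A).ne_zero i j x
  rw [h1, norm_inv, ← mul_assoc, inv_pow, mul_inv_cancel₀ (by positivity), one_mul]

theorem TopF.fn_eq (h : HM (KB A)⁻¹) (D : TopF (ofAtl A)) {i : A.ι} {x : M}
    (hx : x ∈ (A.e i).source) : D.D i (A.e i x) = h.w i x * D.fn h x := by
  set j := (A.cover x).choose with hj
  have hxj : x ∈ (A.e j).source := (A.cover x).choose_spec
  have hs : (A.e i).symm (A.e i x) = x := (A.e i).left_inv hx
  have hz : A.e i x ∈ (ofAtl A).ov i j := by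
    refine ⟨(A.e i).map_source hx, ?_⟩
    show (A.e i).symm (A.e i x) ∈ (A.e j).source
    rw [hs]
    exact hxj
  have ht : (ofAtl A).t i j (A.e i x) = A.e j x := by
    show A.e j ((A.e i).symm (A.e i x)) = _
    rw [hs]
  have h1 := D.tr i j _ hz
  rw [ht, det_t A hz, hs] at h1
  have h2 : D.fn h x = D.D j (A.e j x) / h.w j x := rfl
  have h3 : h.w j x ≠ 0 := (h.pos j x hxj).ne'
  rw [h1, h2, w_jac' h ⟨hx, hxj⟩]
  field_simp

theorem continuousOn_wx (h : HM (KB A)⁻¹) (i : A.ι) : ContinuousOn (h.w i) (A.e i).source := by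
  have h1 : ContinuousOn (fun z => h.w i ((A.e i).symm z)) (A.e i).target :=
    (h.sm i).continuousOn
  have h2 : ContinuousOn (fun y => h.w i ((A.e i).symm (A.e i y))) (A.e i).source :=
    h1.comp (A.e i).continuousOn fun y hy => (A.e i).map_source hy
  refine h2.congr fun y hy => ?_
  show h.w i y = h.w i ((A.e i).symm (A.e i y))
  rw [(A.e i).left_inv hy]

theorem TopF.fn_cont (h : HM (KB A)⁻¹) (D : TopF (ofAtl A)) : Continuous (D.fn h) := by
  rw [continuous_iff_continuousAt]
  intro x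
  obtain ⟨i, hi⟩ := A.cover x
  have h1 : ContinuousOn (fun y => D.D i (A.e i y) / h.w i y) (A.e i).source := by
    refine ContinuousOn.div ?_ (continuousOn_wx h i) fun y hy => (h.pos i y hy).ne'
    exact (D.cont i).comp (A.e i).continuousOn fun y hy => (A.e i).map_source hy
  refine (h1.continuousAt ((A.e i).open_source.mem_nhds hi)).congr ?_
  filter_upwards [(A.e i).open_source.mem_nhds hi] with y hy
  rw [D.fn_eq h hy, mul_div_cancel_left₀ _ (h.pos i y hy).ne']

/-- the partition of unity of an atlas with finitely many charts -/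
def RPart.ofPart [Finite A.ι] (P : Part A) : RPart (ofAtl A) where
  σ := A.ι
  fσ := Fintype.ofFinite A.ι
  c := id
  ψ := P.ψ
  sm k i := P.ψ_sm k i
  sub k := (Crest.Agent.R275.Pai323.tsupport_psi P k).trans (P.χ_sub k)
  sum_one x := by
    let _ := Fintype.ofFinite A.ι
    exact (finsum_eq_sum_of_fintype fun i => P.ψ i x).symm.trans (P.sum_one x)

variable [CompactSpace M] [MeasurableSpace M] [BorelSpace M] [Countable A.ι]

/-- **the integral is the integral against the measure of `h`** -/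
theorem intT_eq (h : HM (KB A)⁻¹) (P : RPart (ofAtl A)) (D : TopF (ofAtl A)) :
    intT (lc n) P D = ∫ x, D.fn h x ∂(vm h) := by
  have := isFinite_vm h
  have hc : ∀ k, Continuous fun x => P.ψ k x * D.fn h x := fun k =>
    (cont_psi P k).mul (D.fn_cont h)
  have hint : ∀ k, Integrable (fun x => P.ψ k x * D.fn h x) (vm h) := fun k =>
    (hc k).integrable_of_hasCompactSupport (HasCompactSupport.of_compactSpace _)
  have e1 : ∫ x, D.fn h x ∂(vm h) = ∑ k, ∫ x, P.ψ k x * D.fn h x ∂(vm h) := by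
    rw [← integral_finsetSum _ fun k _ => hint k]
    congr 1
    funext x
    rw [← Finset.sum_mul, P.sum_one, one_mul]
  rw [e1]
  unfold intT
  refine Finset.sum_congr rfl fun k _ => ?_
  have h3 : ∫ x, P.ψ k x * D.fn h x ∂(vm h) =
      ∫ x in (A.e (P.c k)).source, P.ψ k x * D.fn h x ∂(vm h) := by
    symm
    refine setIntegral_eq_integral_of_forall_compl_eq_zero fun x hx => ?_
    rw [psi_zero P k fun h4 => hx (P.sub k h4), zero_mul]
  rw [h3, setIntegral_vm h (P.c k) (hint k).aestronglyMeasurable]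
  have h5 := setIntegral_lc A (P.c k)
    (fun z => P.ψ k ((A.e (P.c k)).symm z) * D.D (P.c k) z)
  refine h5.trans (setIntegral_congr_fun
    (Crest.Agent.R273.Vm_333.isOpen_Ui (P.c k)).measurableSet fun y hy => ?_)
  have h6 : cc y = A.e (P.c k) (sg A (P.c k) y) := ((A.e (P.c k)).right_inv hy).symm
  show P.ψ k (sg A (P.c k) y) * D.D (P.c k) (cc y) = _
  rw [h6, D.fn_eq h (sg_mem hy), smul_eq_mul]
  ring

/-- the integral in terms of a density -/
theorem II_vm (h : HM (KB A)⁻¹) (P : RPart (ofAtl A)) (w : Fin n → F2 (ofAtl A)) {f : M → ℝ}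
    (hw : ∀ i, ∀ x ∈ (A.e i).source, TP (bc n) (fun k => (w k).w i (A.e i x)) = h.w i x * f x) :
    II (lc n) (bc n) P w = ∫ x, f x ∂(vm h) := by
  unfold II
  rw [intT_eq h]
  congr 1
  funext x
  obtain ⟨i, hi⟩ := A.cover x
  have h1 : TP (bc n) (fun k => (w k).w i (A.e i x)) = _ := (TopF.of (bc n) w).fn_eq h hi
  have h2 : h.w i x * (TopF.of (bc n) w).fn h x = h.w i x * f x := by
    rw [← h1, hw i x hi]
  exact mul_left_cancel₀ (h.pos i x hi).ne' h2

/-! ### (1,1)-forms -/

omit [CompactSpace M] [MeasurableSpace M] [BorelSpace M] [Countable A.ι] in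
/-- (1,1)-forms at a point -/
theorem TP_k11 (X : Fin n → K11 A) {i : A.ι} {x : M} (hx : x ∈ (A.e i).source) :
    ((TP (bc n) (fun k => (X k).f2.w i (A.e i x)) : ℝ) : ℂ) = 2 ^ n * MD fun k => (X k).g i x := by
  refine TP_herm (fun k => (X k).herm i x hx) fun k u v => ?_
  rw [(X k).f2_w ((A.e i).map_source hx), (A.e i).left_inv hx]

theorem II_herm (K : Kah A) (P : RPart (ofAtl A)) (X : Fin n → K11 A) {f : M → ℝ}
    (hf : ∀ i, ∀ x ∈ (A.e i).source, (MD fun k => (X k).g i x) = (K.g i x).det * f x) :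
    II (lc n) (bc n) P (fun k => (X k).f2) = 2 ^ n * ∫ x, f x ∂(vm (volK K)) := by
  rw [← integral_const_mul]
  refine II_vm (volK K) P _ fun i x hx => ?_
  have h1 := TP_k11 X hx
  rw [hf i x hx, ← volK_w K i hx] at h1
  have h2 : ((TP (bc n) (fun k => (X k).f2.w i (A.e i x)) : ℝ) : ℂ) =
      (((volK K).w i x * (2 ^ n * f x) : ℝ) : ℂ) := by
    rw [h1]
    push_cast
    ring
  exact_mod_cast h2

/-- **the volume** -/
theorem II_same (K : Kah A) (P : RPart (ofAtl A)) :
    II (lc n) (bc n) P (fun _ => (ofKah K).f2) = 2 ^ n * n.factorial * (vm (volK K)).real univ := by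
  rw [II_herm K P (fun _ => ofKah K) (f := fun _ => (n.factorial : ℝ))]
  · rw [integral_const, smul_eq_mul]
    ring
  · intro i x _
    rw [MD_same]
    show _ * (K.g i x).det = _
    push_cast
    ring

/-- two factors different from `K` -/
theorem II_two (K : Kah A) (P : RPart (ofAtl A)) {k l : Fin n} (hkl : k ≠ l) (X : Fin n → K11 A)
    (hX : ∀ j, j ≠ k → j ≠ l → X j = ofKah K) {f : M → ℝ}
    (hf : ∀ i, ∀ x ∈ (A.e i).source, ((K.g i x)⁻¹ * (X k).g i x).trace *
      ((K.g i x)⁻¹ * (X l).g i x).trace -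
      ((K.g i x)⁻¹ * (X k).g i x * ((K.g i x)⁻¹ * (X l).g i x)).trace = (f x : ℂ)) :
    II (lc n) (bc n) P (fun k => (X k).f2) =
      2 ^ n * (n - 2).factorial * ∫ x, f x ∂(vm (volK K)) := by
  rw [II_herm K P X (f := fun x => ((n - 2).factorial : ℝ) * f x), integral_const_mul]
  · ring
  · intro i x hx
    have h0 : (K.g i x).det ≠ 0 := (K.pos i x hx).det_pos.ne'
    rw [MD_two hkl (isUnit_iff_ne_zero.2 h0) fun j h1 h2 => by rw [hX j h1 h2]; rfl, hf i x hx]
    push_cast
    ring

end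

end Crest.Agent.R281.Ti_846
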