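import Crest.Agent.R281.Al2_830
import Crest.Agent.R281.Ti7_846
import Crest.Agent.R281.FujSig_358
import Crest.Agent.R281.HkR9_835

/-!
# Row 281, HK-ALONG, part 3 (helper830): every member has `h^{2,0} = 1`

* `IsI J A`   : in the charts of the holomorphic atlas `A` the field `J` is multiplication by `i`
* `TP_om_ne`  : the top power of a positive (1,1)-form does not vanish
* `sign_pos`  : on a connected space it is everywhere positive if its integral is
* `TopI`      : the topological input: Fujiki relation and signature (at most 3 positive squares)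
* `dep3`      : three forms of type (2,0) + (0,2) are linearly dependent
* `uniq_mem`  : `σ.Uniq` for every holomorphic symplectic form on `(X, J)`
-/

set_option autoImplicit false
set_option linter.unusedSectionVars false
set_option maxSynthPendingDepth 3

open Set Filter Topology Function MeasureTheory Complex
open scoped ContDiff Matrix ComplexConjugate ComplexOrder

namespace Crest.Agent.R281.Al_830

open Crest.Agent.R275.Geo Crest.Agent.R275.Core144 Crest.Agent.R275.EDR890
open Crest.Agent.R273.Kah_333 Crest.Agent.R281.Defs_273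
open Crest.Agent.R273.NoHVF_376
open Crest.Agent.R281.HkP1_508 Crest.Agent.R281.HkP2_508
open Crest.Agent.R281.HKA_799 (NatM)
open Crest.Agent.R281.FujP_513 (Symm mixv)
open Crest.Agent.R281.HkR_835 hiding pb pb_apply
open Crest.Agent.R281.HkR_835.Cmp
open Crest.Agent.R281.Ti_846 hiding pb pb_apply
open Crest.Agent.R281.NefO_476
open Crest.Agent.R281.Nef_252
open Crest.Agent.R281.Fuj4_207 (IM_symm kills)

noncomputable section

/-! ### pointwise -/

section pw

variable {d : ℕ}

theorem GB_pos {B : Bil (Cn d)} (hB : ∀ u v, B (I • u) (I • v) = B u v)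
    (hA : ∀ u v, B u v = -B v u) (hp : ∀ u, u ≠ 0 → 0 < B u (I • u)) : (GB B).PosDef := by
  refine Matrix.PosDef.of_dotProduct_mulVec_pos (GB_herm hB hA) fun y hy => ?_
  set v : Cn d := WithLp.toLp 2 (fun b => conj (y b)) with hv
  have h1 : star y ⬝ᵥ (GB B *ᵥ y) = hb (GB B) v v := by
    rw [hb_self]
    congr 2
    · funext b
      simp [hv]
    · funext b
      simp [hv]
  have hv0 : v ≠ 0 := by
    intro h0
    apply hy
    funext b
    have : v b = 0 := by rw [h0]; rfl
    simpa [hv] using this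
  have h3 : B v v = 0 := by
    have := hA v v
    linarith
  rw [h1, ← hw_eq hB, hw, h3]
  have h4 := hp v hv0
  simp only [ofReal_zero, mul_zero, sub_zero]
  exact_mod_cast h4

/-- the top power of a positive (1,1)-form does not vanish -/
theorem TP_ne {N : ℕ} (b : Module.Basis (Fin N × Fin 2) ℝ (Cn d)) {B : Bil (Cn d)}
    (hB : ∀ u v, B (I • u) (I • v) = B u v) (hA : ∀ u v, B u v = -B v u)
    (hp : ∀ u, u ≠ 0 → 0 < B u (I • u)) : TP b (fun _ : Fin N => B) ≠ 0 := by
  have hN : N = d := by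
    have h1 := Module.finrank_eq_card_basis b
    have h2 := Module.finrank_eq_card_basis (bc d)
    rw [h1] at h2
    simp at h2
    omega
  subst hN
  have h1 : TP (bc N) (fun _ : Fin N => B) ≠ 0 := by
    have h2 := TP_herm (w := fun _ : Fin N => B) (G := fun _ => GB B) (fun _ => GB_herm hB hA)
      (fun _ u v => eq_hb hB u v)
    intro h0
    rw [h0, MD_same] at h2
    have h3 := (GB_pos hB hA hp).det_pos.ne'
    have h4 : (2 : ℂ) ^ N * ((N.factorial : ℂ) * (GB B).det) ≠ 0 := by
      refine mul_ne_zero (by positivity) (mul_ne_zero ?_ h3)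
      exact_mod_cast N.factorial_ne_zero
    exact h4 (by simpa using h2.symm)
  rw [← wed_apply] at h1 ⊢
  have h2 := AlternatingMap.eq_smul_basis_det (bc N) (wed fun _ : Fin N => B)
  have h3 : wed (fun _ : Fin N => B) b = wed (fun _ : Fin N => B) (bc N) * (bc N).det b := by
    conv_lhs => rw [h2]
    rfl
  rw [h3]
  exact mul_ne_zero h1 ((bc N).isUnit_det b).ne_zero

end pw

variable {V X : Type} [NormedAddCommGroup V] [NormedSpace ℝ V] [TopologicalSpace X]
  {C : RCh V X} {d : ℕ} {A : Atl d X}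

/-- in the charts of `A`, `J` is the multiplication by `i` -/
def IsI (J : AJ C) (A : Atl d X) : Prop := ∀ (i : C.ι) (j : A.ι), ∀ z ∈ mov C (ofAtl A) i j, ∀ v,
  J.J i (mt C (ofAtl A) i j z) (fderiv ℝ (mt C (ofAtl A) i j) z v) =
    fderiv ℝ (mt C (ofAtl A) i j) z (I • v)

theorem mov_swap {V' : Type} [NormedAddCommGroup V'] [NormedSpace ℝ V'] {C' : RCh V' X}
    {i : C.ι} {j : C'.ι} {z : V} (hz : z ∈ mov C' C j i) :
    mt C' C j i z ∈ mov C C' i j ∧ mt C C' i j (mt C' C j i z) = z :=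
  ⟨mt_mem hz, mt_mt hz⟩

theorem IsI.back {J : AJ C} (hI : IsI J A) (h : Cmp C (ofAtl A)) {i : C.ι} {j : A.ι} {z : V}
    (hz : z ∈ mov (ofAtl A) C j i) (v : V) :
    fderiv ℝ (mt (ofAtl A) C j i) z (J.J i z v) = I • fderiv ℝ (mt (ofAtl A) C j i) z v := by
  obtain ⟨h1, h2⟩ := mov_swap (C := C) (C' := ofAtl A) hz
  have h3 := hI i j _ h1 (fderiv ℝ (mt (ofAtl A) C j i) z v)
  rw [h2] at h3
  have h4 := h.symm.d_d hz v
  rw [h4] at h3
  rw [h3]
  exact h.symm.d_d' hz _

/-- forms of type (1,1) in the charts of `A` -/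
theorem IsI.t11 {J : AJ C} (hI : IsI J A) (h : Cmp C (ofAtl A)) {w : F2 C} (hw : T11 J w)
    (j : A.ι) (z : Cn d) (hz : z ∈ (A.e j).target) (u v : Cn d) :
    (h.F w).w j z (I • u) (I • v) = (h.F w).w j z u v := by
  obtain ⟨i, hi⟩ := exists_mov (C' := ofAtl A) C (j := j) hz
  rw [h.F_w w hi, h.F_w w hi, ← hI i j z hi, ← hI i j z hi, hw i _ (mt_mem hi).1]

theorem IsI.pos {J : AJ C} (hI : IsI J A) (h : Cmp C (ofAtl A)) {w : F2 C} (hw : Pos J w)
    (j : A.ι) (z : Cn d) (hz : z ∈ (A.e j).target) (u : Cn d) (hu : u ≠ 0) :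
    0 < (h.F w).w j z u (I • u) := by
  obtain ⟨i, hi⟩ := exists_mov (C' := ofAtl A) C (j := j) hz
  rw [h.F_w w hi, ← hI i j z hi]
  refine hw i _ (mt_mem hi).1 _ fun h0 => hu ?_
  exact h.inj hi (by rw [h0, map_zero])

/-- **nonvanishing** -/
theorem TP_om_ne [FiniteDimensional ℝ V] {N : ℕ} (b : Module.Basis (Fin N × Fin 2) ℝ V) {J : AJ C}
    (hI : IsI J A) (h : Cmp C (ofAtl A)) {om : F2 C} (h11 : T11 J om) (hp : Pos J om)
    (i : C.ι) (z : V) (hz : z ∈ (C.e i).target) : TP b (fun _ : Fin N => om.w i z) ≠ 0 := by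
  obtain ⟨j, hj⟩ := exists_mov (C' := C) (ofAtl A) (j := i) hz
  obtain ⟨h1, h2⟩ := mov_swap (C := C) (C' := ofAtl A) hj
  set L := fderiv ℝ (mt (ofAtl A) C j i) z with hL
  set L' := fderiv ℝ (mt C (ofAtl A) i j) (mt (ofAtl A) C j i z) with hL'
  have hLL : ∀ v, L' (L v) = v := fun v => h.symm.d_d hj v
  have hLL' : ∀ v, L (L' v) = v := fun v => h.symm.d_d' hj v
  let E : V ≃ₗ[ℝ] Cn d :=
    { toFun := L, map_add' := fun u v => map_add L u v, map_smul' := fun c v => map_smul L c v
      invFun := L', left_inv := hLL, right_inv := hLL' }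
  set B := (h.F om).w j (mt (ofAtl A) C j i z) with hB
  have e1 : ∀ u v, om.w i z u v = B (L u) (L v) := by
    intro u v
    rw [hB, h.F_w om h1, hLL, hLL, h2]
  have e2 : TP b (fun _ : Fin N => om.w i z) = TP (b.map E) (fun _ : Fin N => B) := by
    unfold TP
    refine Finset.sum_congr rfl fun s _ => ?_
    congr 1
    refine Finset.prod_congr rfl fun k _ => ?_
    rw [e1, Module.Basis.map_apply, Module.Basis.map_apply]
    rfl
  rw [e2]
  have hz' : mt (ofAtl A) C j i z ∈ (A.e j).target := (mt_mem hj).1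
  exact TP_ne (b.map E) (fun u v => hI.t11 h h11 j _ hz' u v) ((h.F om).alt j _ hz')
    (fun u hu => hI.pos h hp j _ hz' u hu)

section int

variable [FiniteDimensional ℝ V] [MeasurableSpace V] [BorelSpace V] (μ : Measure V)
  [μ.IsAddHaarMeasure] [CompactSpace X] {N : ℕ} (b : Module.Basis (Fin N × Fin 2) ℝ V)
  (P : RPart C)

/-- **the sign of the top power** -/
theorem sign_pos [PreconnectedSpace X] (ho : Ori C) (hP : ∀ k x, 0 ≤ P.ψ k x) {om : F2 C}
    (hne : ∀ i, ∀ z ∈ (C.e i).target, TP b (fun _ : Fin N => om.w i z) ≠ 0)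
    (hpos : 0 < IM μ b P (fun _ => om)) :
    ∀ i, ∀ z ∈ (C.e i).target, 0 < TP b (fun _ : Fin N => om.w i z) := by
  set D := TopF.of b (fun _ : Fin N => om) with hD
  have hD' : ∀ i z, D.D i z = TP b (fun _ : Fin N => om.w i z) := fun i z => rfl
  -- sets of points with positive / negative value
  let U : ℝ → Set X := fun s => {x | ∃ i, x ∈ (C.e i).source ∧ 0 < s * D.D i (C.e i x)}
  have hop : ∀ s, IsOpen (U s) := by
    intro s
    have : U s = ⋃ i, (C.e i).source ∩ C.e i ⁻¹' ((C.e i).target ∩ (D.D i) ⁻¹' {r | 0 < s * r}) := by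
      ext x
      simp only [mem_iUnion, mem_inter_iff, mem_preimage, mem_ofPred_eq, U]
      constructor
      · rintro ⟨i, h1, h2⟩
        exact ⟨i, h1, (C.e i).map_source h1, h2⟩
      · rintro ⟨i, h1, -, h2⟩
        exact ⟨i, h1, h2⟩
    rw [this]
    refine isOpen_iUnion fun i => (C.e i).isOpen_inter_preimage ?_
    exact (D.cont i).isOpen_inter_preimage (C.e i).open_target
      (isOpen_lt continuous_const (continuous_const.mul continuous_id))
  -- change of charts
  have htr : ∀ (i j : C.ι) (x : X), x ∈ (C.e i).source → x ∈ (C.e j).source → ∀ s : ℝ,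
      0 < s * D.D i (C.e i x) → 0 < s * D.D j (C.e j x) := by
    intro i j x hi hj s h
    have hov : C.e i x ∈ C.ov i j := by
      refine ⟨(C.e i).map_source hi, ?_⟩
      rw [(C.e i).left_inv hi]; exact hj
    have h1 := D.tr i j _ hov
    have h2 : C.t i j (C.e i x) = C.e j x := by
      show C.e j ((C.e i).symm (C.e i x)) = _
      rw [(C.e i).left_inv hi]
    rw [h2] at h1
    have h3 := ho i j _ hov
    rw [h1] at h
    have h4 : 0 < (fderiv ℝ (C.t i j) (C.e i x)).det * (s * D.D j (C.e j x)) := by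
      calc 0 < _ := h
        _ = _ := by ring
    exact (mul_pos_iff_of_pos_left h3).1 h4
  have hcov : (univ : Set X) ⊆ U 1 ∪ U (-1) := by
    intro x _
    obtain ⟨i, hi⟩ := C.cover x
    have h1 := hne i _ ((C.e i).map_source hi)
    rcases lt_or_gt_of_ne h1 with h | h
    · right
      refine ⟨i, hi, ?_⟩
      rw [hD']
      linarith
    · left
      refine ⟨i, hi, ?_⟩
      rw [hD', one_mul]
      exact h
  have hdis : Disjoint (U 1) (U (-1)) := by
    rw [Set.disjoint_left]
    rintro x ⟨i, hi, h1⟩ ⟨j, hj, h2⟩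
    have h3 := htr j i x hj hi _ h2
    linarith
  rcases isPreconnected_univ.subset_or_subset (hop 1) (hop (-1)) hdis hcov with h | h
  · intro i z hz
    obtain ⟨j, hj, h1⟩ := h (mem_univ ((C.e i).symm z))
    have h2 := htr j i _ hj ((C.e i).map_target hz) 1 h1
    rwa [(C.e i).right_inv hz, one_mul] at h2
  · exfalso
    have hle : ∀ i, ∀ z ∈ (C.e i).target, D.D i z ≤ 0 := by
      intro i z hz
      obtain ⟨j, hj, h1⟩ := h (mem_univ ((C.e i).symm z))
      have h2 := htr j i _ hj ((C.e i).map_target hz) (-1) h1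
      rw [(C.e i).right_inv hz] at h2
      linarith
    have h3 : IM μ b P (fun _ => om) ≤ 0 := by
      rw [IM_apply]
      refine Finset.sum_nonpos fun k _ => ?_
      refine setIntegral_nonpos (C.e _).open_target.measurableSet fun z hz => ?_
      exact mul_nonpos_of_nonneg_of_nonpos (hP _ _) (hle _ z hz)
    linarith

end int

/-! ### the topological input -/

variable [FiniteDimensional ℝ V] [MeasurableSpace V] [BorelSpace V] (μ : Measure V)
  [μ.IsAddHaarMeasure] [CompactSpace X] {n : ℕ} (b : Module.Basis (Fin (n + n) × Fin 2) ℝ V)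
  (P : RPart C)

/-- Fujiki relation, at most three positive squares -/
structure TopI (q : QuadraticForm ℝ (F2 C)) : Prop where
  npos : 0 < n
  ori : Ori C
  nn : ∀ k x, 0 ≤ P.ψ k x
  fuj : ∀ x, IM μ b P (fun _ => x) = q x ^ n
  sig : ∃ r s K : F2 C, ∀ x, QuadraticMap.polar q x r = 0 → QuadraticMap.polar q x s = 0 →
    QuadraticMap.polar q x K = 0 → q x ≤ 0

variable {μ b P} {q : QuadraticForm ℝ (F2 C)}

theorem A20.sum {J : AJ C} {κ : Type} (s : Finset κ) (c : κ → ℝ) {ρ : κ → F2 C}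
    (h : ∀ k ∈ s, A20 J (ρ k)) : A20 J (∑ k ∈ s, c k • ρ k) := by
  classical
  induction s using Finset.induction_on with
  | empty =>
    intro i z hz u v
    simp
  | insert k s hk ih =>
    intro i z hz u v
    rw [Finset.sum_insert hk]
    have h1 := ih (fun l hl => h l (Finset.mem_insert_of_mem hl)) i z hz u v
    have h2 := h k (Finset.mem_insert_self k s) i z hz u v
    simp only [F2.add_w, F2.smul_w, add_apply, smul_apply, smul_eq_mul] at h1 ⊢
    rw [h1, h2]
    ring

/-- the values of `q` on (2,0) + (0,2)-forms -/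
theorem TopI.q20 [PreconnectedSpace X] (T : TopI μ b P q) {J : AJ C} (hI : IsI J A)
    (h : Cmp C (ofAtl A)) (hJ : ∀ i, ∀ z ∈ (C.e i).target, ∀ v, J.J i z (J.J i z v) = -v)
    {om ρ : F2 C} (h11 : T11 J om) (hpos : Pos J om) (hq : 0 < q om) (hρ : A20 J ρ) :
    QuadraticMap.polar q om ρ = 0 ∧ 0 ≤ q ρ ∧
      (q ρ = 0 → ∀ i, ∀ z ∈ (C.e i).target, ρ.w i z = 0) := by
  have hn := T.npos
  have hN : 2 ≤ n + n := by omega
  have ho := sign_pos μ b P T.ori T.nn (TP_om_ne b hI h h11 hpos)
    (by rw [T.fuj]; exact pow_pos hq n)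
  have h1 := int_one μ b P hJ h11 hpos hρ (by omega)
  have h2 := int_two μ b P hJ h11 hpos hρ hN T.nn ho
  have h3 := FujSig_358.first_polar' hn (IM_symm μ b P) T.fuj om ρ
  rw [h1, mul_zero] at h3
  have hp0 : QuadraticMap.polar q om ρ = 0 :=
    (mul_eq_zero.1 h3.symm).resolve_left (pow_pos hq _).ne'
  have h4 := FujSig_358.second_polar hn (IM_symm μ b P) T.fuj om ρ
  rw [hp0] at h4
  have hn1 : (1 : ℝ) ≤ n := by exact_mod_cast hn
  have h5 : (2 * n - 1) * IM μ b P (mixv (n + n) 2 om ρ) = q om ^ (n - 1) * q ρ := by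
    have : 2 * ((2 * n - 1 : ℝ) * IM μ b P (mixv (n + n) 2 om ρ)) = 2 * (q om ^ (n - 1) * q ρ) := by
      linear_combination h4
    linarith
  have hc : (0 : ℝ) < 2 * n - 1 := by linarith
  have hqp := pow_pos hq (n - 1)
  refine ⟨hp0, ?_, fun h0 => ?_⟩
  · have h6 : 0 ≤ q om ^ (n - 1) * q ρ := by
      rw [← h5]; exact mul_nonneg hc.le h2.1
    exact nonneg_of_mul_nonneg_right h6 hqp
  · rw [h0, mul_zero] at h5
    exact h2.2 ((mul_eq_zero.1 h5).resolve_left hc.ne')

/-- **three forms of type (2,0) + (0,2) are linearly dependent** -/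
theorem TopI.dep3 [PreconnectedSpace X] (T : TopI μ b P q) {J : AJ C} (hI : IsI J A)
    (h : Cmp C (ofAtl A)) (hJ : ∀ i, ∀ z ∈ (C.e i).target, ∀ v, J.J i z (J.J i z v) = -v)
    {om : F2 C} (h11 : T11 J om) (hpos : Pos J om) (hq : 0 < q om) (ρ : Fin 3 → F2 C)
    (hρ : ∀ k, A20 J (ρ k)) : ∃ c : Fin 3 → ℝ, c ≠ 0 ∧ ∀ i, ∀ z ∈ (C.e i).target,
      ∑ k, c k • (ρ k).w i z = 0 := by
  obtain ⟨r, s, K, hsig⟩ := T.sig
  let v : Fin 4 → F2 C := Fin.cons om ρ
  let x : (Fin 4 → ℝ) →ₗ[ℝ] F2 C := Fintype.linearCombination ℝ v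
  let f : (Fin 4 → ℝ) →ₗ[ℝ] (Fin 3 → ℝ) := LinearMap.pi fun k =>
    ((QuadraticMap.polarBilin q).flip (![r, s, K] k)).comp x
  have hker : LinearMap.ker f ≠ ⊥ := LinearMap.ker_ne_bot_of_finrank_lt (by simp)
  obtain ⟨a, ha, ha0⟩ := Submodule.exists_mem_ne_zero_of_ne_bot hker
  have hf : ∀ k, QuadraticMap.polar q (x a) (![r, s, K] k) = 0 := by
    intro k
    have := congrFun (LinearMap.mem_ker.1 ha) k
    simpa [f] using this
  have hle : q (x a) ≤ 0 := hsig _ (by simpa using hf 0) (by simpa using hf 1) (by simpa using hf 2)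
  set y : F2 C := ∑ k : Fin 3, a k.succ • ρ k with hy
  have hx : x a = a 0 • om + y := by
    simp only [x, Fintype.linearCombination_apply, v]
    rw [Fin.sum_univ_succ]
    rfl
  have hyA : A20 J y := A20.sum Finset.univ (fun k : Fin 3 => a k.succ) (fun k _ => hρ k)
  obtain ⟨hp, hnn, hz⟩ := T.q20 hI h hJ h11 hpos hq hyA
  have hval : q (x a) = a 0 ^ 2 * q om + q y := by
    rw [hx, add_comm, FujSig_358.q_line q y om (a 0), QuadraticMap.polar_comm, hp]
    ring
  rw [hval] at hle
  have h0 : a 0 ^ 2 * q om = 0 := le_antisymm (by linarith) (by positivity)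
  have ha00 : a 0 = 0 := by
    have := (mul_eq_zero.1 h0).resolve_right hq.ne'
    exact pow_eq_zero_iff (two_ne_zero) |>.1 this
  have hy0 : q y = 0 := le_antisymm (by linarith) hnn
  refine ⟨fun k => a k.succ, fun hc => ha0 ?_, fun i z hz' => ?_⟩
  · funext k
    refine Fin.cases ?_ (fun k => ?_) k
    · exact ha00
    · exact congrFun hc k
  · have h6 := hz hy0 i z hz'
    rw [← h6, hy]
    have h7 : ∀ s : Finset (Fin 3), ∑ k ∈ s, a k.succ • (ρ k).w i z =
        (∑ k ∈ s, a k.succ • ρ k : F2 C).w i z := by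
      intro s
      classical
      induction s using Finset.induction_on with
      | empty => rfl
      | insert k s hk ih =>
        rw [Finset.sum_insert hk, Finset.sum_insert hk, ih]
        rfl
    exact h7 Finset.univ

/-- forms of type (2,0) + (0,2) from the atlas -/
theorem a20_of {J : AJ C} (hI : IsI J A) (h : Cmp C (ofAtl A)) (τ : H2 A) (hτ : ClH τ) :
    A20 J (h.symm.F (f2H τ hτ)) := by
  intro i z hz u v
  obtain ⟨j, hj⟩ : ∃ j : A.ι, z ∈ mov (ofAtl A) C j i := exists_mov (C' := C) (ofAtl A) hz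
  rw [h.symm.F_w _ hj, h.symm.F_w _ hj, hI.back h hj, hI.back h hj]
  erw [f2H_w, f2H_w]
  rw [sb_I_left]
  have h1 : ∀ S : Matrix (Fin d) (Fin d) ℂ, ∀ u v : Cn d, sb S u (I • v) = I * sb S u v := by
    intro S u v
    simp only [sb, PiLp.smul_apply, smul_eq_mul, Finset.mul_sum]
    exact Finset.sum_congr rfl fun a _ => Finset.sum_congr rfl fun c _ => by ring
  rw [h1, ← mul_assoc, I_mul_I]
  simp

/-- **`h^{2,0} = 1` at every member** -/
theorem TopI.uniq_mem [ConnectedSpace X] (T : TopI μ b P q) {J : AJ C} (hI : IsI J A)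
    (h : Cmp C (ofAtl A)) (hJ : ∀ i, ∀ z ∈ (C.e i).target, ∀ v, J.J i z (J.J i z v) = -v)
    {om : F2 C} (h11 : T11 J om) (hpos : Pos J om) (hq : 0 < q om) (σ : HSymp A)
    (hcl : ∀ τ : H2 A, ClH τ) : σ.Uniq := by
  intro τ
  have hd : 0 < d := by
    have h1 := Module.finrank_eq_card_basis b
    obtain ⟨x⟩ := (inferInstance : Nonempty X)
    obtain ⟨i, hi⟩ := C.cover x
    obtain ⟨j, hj⟩ := exists_mov (C' := C) (ofAtl A) (j := i) ((C.e i).map_source hi)
    by_contra hd0
    have hd1 : d = 0 := by omega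
    have h2 : Subsingleton (Cn d) := by subst hd1; infer_instance
    have h3 : Subsingleton V := ⟨fun u v => h.symm.inj hj (Subsingleton.elim _ _)⟩
    have h4 : Module.finrank ℝ V = 0 := Module.finrank_zero_of_subsingleton
    rw [h4] at h1
    simp at h1
    have := T.npos
    omega
  set ρ : Fin 3 → F2 C := ![h.symm.F (f2H σ.toH2 (hcl _)),
    h.symm.F (f2H (csm (-I) σ.toH2) (hcl _)), h.symm.F (f2H τ (hcl _))] with hρd
  obtain ⟨c, hc0, hc⟩ := T.dep3 hI h hJ h11 hpos hq ρ (by
    intro k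
    fin_cases k
    · exact a20_of hI h _ _
    · exact a20_of hI h _ _
    · exact a20_of hI h _ _)
  -- the relation in the charts of `A`
  have key : ∀ j, ∀ x ∈ (A.e j).source,
      ((c 0 : ℂ) - I * (c 1 : ℂ)) • σ.s j x + (c 2 : ℂ) • τ.s j x = 0 := by
    intro j x hx
    set z := A.e j x with hzd
    have hz : z ∈ (A.e j).target := (A.e j).map_source hx
    obtain ⟨i, hi⟩ := exists_mov (C' := ofAtl A) C (j := j) hz
    obtain ⟨h1, h2⟩ := mov_swap (C := ofAtl A) (C' := C) hi
    have e1 : ∀ u v : Cn d, c 0 * (sb (σ.s j x) u v).re + c 1 * (sb (σ.s j x) u v).im +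
        c 2 * (sb (τ.s j x) u v).re = 0 := by
      intro u v
      have h3 := hc i _ (mt_mem hi).1
      have h4 := congrArg (fun B : Bil V => B (fderiv ℝ (mt C (ofAtl A) i j) z u)
        (fderiv ℝ (mt C (ofAtl A) i j) z v)) h3
      simp only [Fin.sum_univ_three, hρd, Matrix.cons_val_zero, Matrix.cons_val_one,
        Matrix.cons_val, add_apply, smul_apply, smul_eq_mul] at h4
      have h5 : ∀ w : F2 (ofAtl A), (h.symm.F w).w i (mt C (ofAtl A) i j z)
          (fderiv ℝ (mt C (ofAtl A) i j) z u) (fderiv ℝ (mt C (ofAtl A) i j) z v) =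
          w.w j z u v := by
        intro w
        rw [h.symm.F_w w h1, h.d_d hi, h.d_d hi, h2]
      rw [h5, h5, h5, f2H_w, f2H_I_w, f2H_w] at h4
      have e : ∀ t : H2 A, sl t j z = t.s j x := by
        intro t
        show t.s j ((A.e j).symm (A.e j x)) = _
        rw [(A.e j).left_inv hx]
      rw [e, e] at h4
      simpa using h4
    refine sb_ext fun u v => ?_
    have e2 : ∀ u v : Cn d, sb (((c 0 : ℂ) - I * (c 1 : ℂ)) • σ.s j x + (c 2 : ℂ) • τ.s j x) u v =
        ((c 0 : ℂ) - I * (c 1 : ℂ)) * sb (σ.s j x) u v + (c 2 : ℂ) * sb (τ.s j x) u v := by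
      intro u v
      rw [← sb_smul, ← sb_smul]
      simp only [sb, Matrix.add_apply, add_mul, Finset.sum_add_distrib]
    have e3 : ∀ u v : Cn d,
        (sb (((c 0 : ℂ) - I * (c 1 : ℂ)) • σ.s j x + (c 2 : ℂ) • τ.s j x) u v).re = 0 := by
      intro u v
      rw [e2]
      have := e1 u v
      simp only [add_re, mul_re, sub_re, sub_im, ofReal_re, ofReal_im, I_re, I_im, mul_im]
      linarith
    have e4 : sb (0 : Matrix (Fin d) (Fin d) ℂ) u v = 0 := by
      simp [sb]
    rw [e4]
    apply Complex.ext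
    · exact e3 u v
    · have h6 := e3 (I • u) v
      rw [sb_I_left] at h6
      simp only [mul_re, I_re, I_im, zero_mul, one_mul, zero_sub, neg_eq_zero] at h6
      exact h6
  -- `c 2 ≠ 0`
  have hc2 : c 2 ≠ 0 := by
    intro h2
    obtain ⟨x⟩ := (inferInstance : Nonempty X)
    obtain ⟨j, hj⟩ := A.cover x
    have h3 := key j x hj
    rw [h2, ofReal_zero, zero_smul, add_zero] at h3
    have h4 : σ.s j x ≠ 0 := by
      intro h5
      have h6 := σ.nd j x hj
      rw [h5] at h6
      have : Nonempty (Fin d) := ⟨⟨0, hd⟩⟩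
      exact h6 Matrix.det_zero
    have h5 := (smul_eq_zero.1 h3).resolve_right h4
    have h6 := congrArg Complex.re h5
    have h7 := congrArg Complex.im h5
    simp at h6 h7
    apply hc0
    funext k
    fin_cases k
    · exact h6
    · exact h7
    · exact h2
  refine ⟨-(((c 0 : ℂ) - I * (c 1 : ℂ)) / (c 2 : ℂ)), fun j x hx => ?_⟩
  have h3 := key j x hx
  have hc2' : (c 2 : ℂ) ≠ 0 := by exact_mod_cast hc2
  have h4 : (c 2 : ℂ) • τ.s j x = -(((c 0 : ℂ) - I * (c 1 : ℂ)) • σ.s j x) :=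
    eq_neg_of_add_eq_zero_right h3
  calc τ.s j x = (c 2 : ℂ)⁻¹ • ((c 2 : ℂ) • τ.s j x) := by
        rw [smul_smul, inv_mul_cancel₀ hc2', one_smul]
    _ = _ := by
        rw [h4, smul_neg, smul_smul, neg_smul]
        congr 2
        rw [div_eq_inv_mul]

end

end Crest.Agent.R281.Al_830
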