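import Crest.Agent.R281.Sl4_957

/-!
# R281 / Am1 (helper957): the `m`-dimensional model `QM M`, charts over `ℂ^m`, analytic roots
-/

set_option autoImplicit false

open Polynomial Set Filter Topology
open scoped ContDiff

namespace Crest.Agent.R281.Am_957

open Sl_957

noncomputable section

/-- the model: points of a format over `ℂ` -/
def QM {k₀ R : Type*} [Field k₀] [Algebra k₀ ℂ] (M : Fmt k₀ R) : Set ((Fin M.m → ℂ) × ℂ) :=
  {q | M.On q.1 q.2}

section smooth

variable {k₀ : Type*} [Field k₀] [Algebra k₀ ℂ] {m : ℕ}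

theorem contDiff_ez (p : MvPolynomial (Fin m) k₀) (n : WithTop ℕ∞) :
    ContDiff ℂ n fun z : Fin m → ℂ => ez z p := by
  induction p using MvPolynomial.induction_on with
  | C a =>
    have h : (fun z : Fin m → ℂ => ez z (MvPolynomial.C a)) = fun _ => algebraMap k₀ ℂ a := by
      funext z
      rw [ez_apply, MvPolynomial.aeval_C]
    rw [h]
    exact contDiff_const
  | add p q hp hq =>
    simp only [map_add]
    exact hp.add hq
  | mul_X p i hp =>
    simp only [map_mul]
    refine hp.mul ?_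
    have h : (fun z : Fin m → ℂ => ez z (MvPolynomial.X i : MvPolynomial (Fin m) k₀)) =
        fun z => z i := by
      funext z
      rw [ez_apply, MvPolynomial.aeval_X]
    rw [h]
    exact contDiff_apply ℂ ℂ i

theorem continuous_ez (p : MvPolynomial (Fin m) k₀) : Continuous fun z : Fin m → ℂ => ez z p :=
  (contDiff_ez p 0).continuous

theorem contDiff_eval₂ (P : (MvPolynomial (Fin m) k₀)[X]) (n : WithTop ℕ∞) :
    ContDiff ℂ n fun q : (Fin m → ℂ) × ℂ => P.eval₂ (ez q.1) q.2 := by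
  induction P using Polynomial.induction_on' with
  | add p q hp hq =>
    simp only [eval₂_add]
    exact hp.add hq
  | monomial k a =>
    simp only [eval₂_monomial]
    exact ((contDiff_ez a n).comp contDiff_fst).mul (contDiff_snd.pow k)

theorem hasDerivAt_w (P : (MvPolynomial (Fin m) k₀)[X]) (z : Fin m → ℂ) (w : ℂ) :
    HasDerivAt (fun w => P.eval₂ (ez z) w) ((derivative P).eval₂ (ez z) w) w := by
  have h := (P.map (ez z)).hasDerivAt w
  rw [Polynomial.derivative_map, eval_map] at h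
  refine h.congr_of_eventuallyEq (Eventually.of_forall fun w' => ?_)
  exact (eval_map _ _).symm

end smooth

variable {k₀ R : Type*} [Field k₀] [Algebra k₀ ℂ] {M : Fmt k₀ R}

theorem derivative_ne (h : M.Nice) {z : Fin M.m → ℂ} {w : ℂ} (hq : M.On z w) :
    (derivative M.F).eval₂ (ez z) w ≠ 0 := by
  have h1 := h.separable z hq.2
  intro h2
  refine h1.eval₂_derivative_ne_zero (RingHom.id ℂ) (x := w) ?_ ?_
  · rw [eval₂_id, eval_map]
    exact hq.1
  · rw [eval₂_id, Polynomial.derivative_map, eval_map]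
    exact h2

/-- invertible shear -/
def shear {Z : Type*} [NormedAddCommGroup Z] [NormedSpace ℂ Z] (a : Z →L[ℂ] ℂ) (b : ℂ)
    (hb : b ≠ 0) : (Z × ℂ) ≃L[ℂ] (Z × ℂ) :=
  ContinuousLinearEquiv.equivOfInverse
    ((ContinuousLinearMap.fst ℂ Z ℂ).prod
      (a ∘L ContinuousLinearMap.fst ℂ Z ℂ + b • ContinuousLinearMap.snd ℂ Z ℂ))
    ((ContinuousLinearMap.fst ℂ Z ℂ).prod
      (b⁻¹ • (ContinuousLinearMap.snd ℂ Z ℂ - a ∘L ContinuousLinearMap.fst ℂ Z ℂ)))
    (fun x => by
      ext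
      · simp
      · simp
        field_simp)
    (fun x => by
      ext
      · simp
      · simp
        field_simp
        ring)

/-- `(z, w) ↦ (z, F (z, w))` -/
def Ps (M : Fmt k₀ R) (q : (Fin M.m → ℂ) × ℂ) : (Fin M.m → ℂ) × ℂ := (q.1, M.F.eval₂ (ez q.1) q.2)

theorem contDiff_Ps (M : Fmt k₀ R) (n : WithTop ℕ∞) : ContDiff ℂ n (Ps M) :=
  contDiff_fst.prodMk (contDiff_eval₂ M.F n)

theorem exists_strict (h : M.Nice) {q : (Fin M.m → ℂ) × ℂ} (hq : M.On q.1 q.2) :
    ∃ L : ((Fin M.m → ℂ) × ℂ) ≃L[ℂ] ((Fin M.m → ℂ) × ℂ),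
      HasStrictFDerivAt (Ps M) (L : ((Fin M.m → ℂ) × ℂ) →L[ℂ] ((Fin M.m → ℂ) × ℂ)) q := by
  have h1 : HasStrictFDerivAt (fun q : (Fin M.m → ℂ) × ℂ => M.F.eval₂ (ez q.1) q.2)
      (fderiv ℂ (fun q : (Fin M.m → ℂ) × ℂ => M.F.eval₂ (ez q.1) q.2) q) q :=
    (contDiff_eval₂ M.F 1).contDiffAt.hasStrictFDerivAt one_ne_zero
  set D := fderiv ℂ (fun q : (Fin M.m → ℂ) × ℂ => M.F.eval₂ (ez q.1) q.2) q with hD
  have hb : D (0, 1) = (derivative M.F).eval₂ (ez q.1) q.2 := by
    have h2 : HasDerivAt (fun w => M.F.eval₂ (ez q.1) w) (D (0, 1)) q.2 := by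
      have h3 : HasFDerivAt (fun q : (Fin M.m → ℂ) × ℂ => M.F.eval₂ (ez q.1) q.2) D (q.1, q.2) :=
        h1.hasFDerivAt
      have h4 : HasDerivAt (fun w : ℂ => (q.1, w)) ((0 : Fin M.m → ℂ), (1 : ℂ)) q.2 :=
        (hasDerivAt_const _ _).prodMk (hasDerivAt_id _)
      exact h3.comp_hasDerivAt q.2 h4
    exact h2.unique (hasDerivAt_w M.F q.1 q.2)
  refine ⟨shear (D ∘L ContinuousLinearMap.inl ℂ (Fin M.m → ℂ) ℂ) (D (0, 1))
    (by rw [hb]; exact derivative_ne h hq), ?_⟩
  have h5 : HasStrictFDerivAt (Ps M) ((ContinuousLinearMap.fst ℂ (Fin M.m → ℂ) ℂ).prod D) q :=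
    (hasStrictFDerivAt_fst).prodMk h1
  convert h5 using 1
  refine ContinuousLinearMap.ext fun x => ?_
  have hx : D x = D (x.1, 0) + D (0, 1) * x.2 := by
    have h6 : x = (x.1, 0) + x.2 • ((0 : Fin M.m → ℂ), (1 : ℂ)) := by
      ext <;> simp
    conv_lhs => rw [h6, map_add, map_smul]
    rw [smul_eq_mul, mul_comm]
  refine Prod.ext ?_ ?_
  · simp [shear]
  · simp only [shear, ContinuousLinearEquiv.coe_coe, ContinuousLinearEquiv.equivOfInverse_apply,
      ContinuousLinearMap.prod_apply, add_apply,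
      ContinuousLinearMap.comp_apply, smul_apply, ContinuousLinearMap.coe_fst',
      ContinuousLinearMap.coe_snd', ContinuousLinearMap.inl_apply, smul_eq_mul]
    exact hx.symm

/-- the chart of the ambient space -/
theorem exists_ambient (h : M.Nice) {q : (Fin M.m → ℂ) × ℂ} (hq : M.On q.1 q.2) :
    ∃ e : OpenPartialHomeomorph ((Fin M.m → ℂ) × ℂ) ((Fin M.m → ℂ) × ℂ), q ∈ e.source ∧
      (e : (Fin M.m → ℂ) × ℂ → (Fin M.m → ℂ) × ℂ) = Ps M ∧ AnalyticAt ℂ e.symm (q.1, 0) := by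
  obtain ⟨L, hL⟩ := exists_strict h hq
  have hsrc := hL.mem_toOpenPartialHomeomorph_source
  refine ⟨hL.toOpenPartialHomeomorph (Ps M), hsrc, rfl, ?_⟩
  have h2 : Ps M q = (q.1, 0) := Prod.ext rfl hq.1
  rw [← h2]
  exact (hL.toOpenPartialHomeomorph (Ps M)).analyticAt_symm' hsrc
    ((contDiff_Ps M ω).contDiffAt.analyticAt) hL.hasFDerivAt.fderiv

/-- **analytic root** through a point of the model -/
theorem exists_root (h : M.Nice) {z₀ : Fin M.m → ℂ} {w₀ : ℂ} (h0 : M.On z₀ w₀) :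
    ∃ W : (Fin M.m → ℂ) → ℂ, AnalyticAt ℂ W z₀ ∧ W z₀ = w₀ ∧ (∀ᶠ z in 𝓝 z₀, M.On z (W z)) ∧
      ∀ᶠ q in 𝓝 (z₀, w₀), M.F.eval₂ (ez q.1) q.2 = 0 → q.2 = W q.1 := by
  obtain ⟨e, hqe, he, han⟩ := exists_ambient h (q := (z₀, w₀)) h0
  have heq : e (z₀, w₀) = (z₀, 0) := by
    rw [he]
    exact Prod.ext rfl h0.1
  have htgt : (z₀, (0 : ℂ)) ∈ e.target := by
    rw [← heq]
    exact e.map_source hqe
  have hi : AnalyticAt ℂ (fun z : Fin M.m → ℂ => (z, (0 : ℂ))) z₀ :=
    analyticAt_id.prod analyticAt_const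
  refine ⟨fun z => (e.symm (z, 0)).2, ?_, ?_, ?_, ?_⟩
  · exact (analyticAt_snd.comp (han.comp_of_eq hi rfl))
  · change (e.symm (z₀, 0)).2 = w₀
    rw [← heq, e.left_inv hqe]
  · have h1 : ∀ᶠ z in 𝓝 z₀, (z, (0 : ℂ)) ∈ e.target :=
      hi.continuousAt.eventually (e.open_target.mem_nhds htgt)
    have h2 : ∀ᶠ z in 𝓝 z₀, ez z M.D ≠ 0 := (continuous_ez M.D).continuousAt.eventually_ne h0.2
    filter_upwards [h1, h2] with z hz1 hz2
    have h3 := e.right_inv hz1
    rw [he] at h3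
    have h4 : (e.symm (z, 0)).1 = z := congrArg Prod.fst h3
    have h5 : M.F.eval₂ (ez (e.symm (z, 0)).1) (e.symm (z, 0)).2 = 0 := congrArg Prod.snd h3
    rw [h4] at h5
    exact ⟨h5, hz2⟩
  · filter_upwards [e.open_source.mem_nhds hqe] with q hq h1
    have h2 := e.left_inv hq
    have h3 : e q = (q.1, 0) := by
      rw [he]
      exact Prod.ext rfl h1
    rw [h3] at h2
    rw [h2]

/-- the coordinate map of the model -/
def zc (M : Fmt k₀ R) (q : QM M) : Fin M.m → ℂ := q.1.1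

theorem continuous_zc (M : Fmt k₀ R) : Continuous (zc M) := by
  unfold zc
  fun_prop

/-- **charts of the model over `ℂ^m`** -/
theorem exists_chart (h : M.Nice) (x : QM M) :
    ∃ e : OpenPartialHomeomorph (QM M) (Fin M.m → ℂ), x ∈ e.source ∧ zc M = e := by
  obtain ⟨e, hxe, he, -⟩ := exists_ambient h (q := x.1) x.2
  have hsrc : ∀ y : QM M, e y.1 = (y.1.1, 0) := fun y => by
    rw [he]
    exact Prod.ext rfl y.2.1
  have hfst : ∀ z : Fin M.m → ℂ, (z, (0 : ℂ)) ∈ e.target → (e.symm (z, 0)).1 = z := fun z hz => by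
    have h1 := e.right_inv hz
    rw [he] at h1
    exact congrArg Prod.fst h1
  have hmem : ∀ z : Fin M.m → ℂ, (z, (0 : ℂ)) ∈ e.target ∧ ez z M.D ≠ 0 →
      e.symm (z, 0) ∈ QM M := fun z hz => by
    have h1 := e.right_inv hz.1
    rw [he] at h1
    refine ⟨congrArg Prod.snd h1, ?_⟩
    rw [hfst z hz.1]
    exact hz.2
  classical
  let φ : OpenPartialHomeomorph (QM M) (Fin M.m → ℂ) :=
    { toFun := zc M
      invFun := fun z => if hz : (z, (0 : ℂ)) ∈ e.target ∧ ez z M.D ≠ 0 then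
        ⟨e.symm (z, 0), hmem z hz⟩ else x
      source := {y | y.1 ∈ e.source}
      target := {z | (z, (0 : ℂ)) ∈ e.target ∧ ez z M.D ≠ 0}
      map_source' := fun y hy => by
        have h1 := e.map_source hy
        rw [hsrc y] at h1
        exact ⟨h1, y.2.2⟩
      map_target' := fun z hz => by
        have hz' : (z, (0 : ℂ)) ∈ e.target ∧ ez z M.D ≠ 0 := hz
        simp only [mem_ofPred_eq, dif_pos hz']
        exact e.map_target hz'.1
      left_inv' := fun y hy => by
        have h1 := e.map_source hy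
        rw [hsrc y] at h1
        have h2 : (zc M y, (0 : ℂ)) ∈ e.target ∧ ez (zc M y) M.D ≠ 0 := ⟨h1, y.2.2⟩
        simp only [dif_pos h2]
        apply Subtype.ext
        have h3 := e.left_inv hy
        rw [hsrc y] at h3
        exact h3
      right_inv' := fun z hz => by
        have hz' : (z, (0 : ℂ)) ∈ e.target ∧ ez z M.D ≠ 0 := hz
        simp only [dif_pos hz', zc]
        exact hfst z hz'.1
      open_source := e.open_source.preimage continuous_subtype_val
      open_target := (e.open_target.preimage (by fun_prop)).inter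
        (isOpen_ne_fun (continuous_ez M.D) continuous_const)
      continuousOn_toFun := (continuous_zc M).continuousOn
      continuousOn_invFun := by
        rw [continuousOn_iff_continuous_domRestrict, continuous_induced_rng]
        have h1 : Continuous fun z : {z : Fin M.m → ℂ | (z, (0 : ℂ)) ∈ e.target ∧ ez z M.D ≠ 0} =>
            e.symm (z.1, 0) := by
          have h2 := e.continuousOn_symm
          rw [continuousOn_iff_continuous_domRestrict] at h2
          exact h2.comp (f := fun z : {z : Fin M.m → ℂ | (z, (0 : ℂ)) ∈ e.target ∧ ez z M.D ≠ 0} =>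
            (⟨(z.1, 0), z.2.1⟩ : e.target)) (by fun_prop)
        refine h1.congr fun z => ?_
        have hz' : (z.1, (0 : ℂ)) ∈ e.target ∧ ez z.1 M.D ≠ 0 := z.2
        simp [hz'.1, hz'.2] }
  exact ⟨φ, hxe, rfl⟩

theorem isLocalHomeomorph_zc (h : M.Nice) : IsLocalHomeomorph (zc M) := fun x => exists_chart h x

end

end Crest.Agent.R281.Am_957
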