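import Crest.Agent.R281.PE2_698

/-! # R281 / PUNCT-ENDS part 3 (helper698): main theorem -/

namespace Crest.Agent.R281.PE_698

open Filter Topology Set UpperHalfPlane Metric
open Crest.Agent.R281.CL_473
open _root_.R281.Pun_924 (mob UH mem_UH mob_im mob_mem mob_mob mob_diff puncture FinEnd ParEnd
  parabolic_growth)
open scoped ComplexConjugate Real

/-- the interior alternative: periodic and converging to a point of `ℍ` -/
def IntEnd (φ : ℂ → ℍ) : Prop :=
  (∃ m : ℕ, 0 < m ∧ ∀ z : ℂ, 1 < z.im → φ (z + m) = φ z) ∧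
    ∃ p : ℍ, ∀ W ∈ 𝓝 p, ∃ T : ℝ, ∀ z : ℂ, T ≤ z.im → φ z ∈ W

/-- the cusp alternative -/
def CuspEnd (N : ℝ) (Λ : Set (Fin 3 → ℝ)) (φ : ℂ → ℍ) (A : (Fin 3 → ℝ) →ₗ[ℝ] (Fin 3 → ℝ)) : Prop :=
  ∃ w ∈ Λ, w ≠ 0 ∧ qb N w w = 0 ∧ (A w = w ∨ A w = -w) ∧
    (∀ δ > 0, ∃ T : ℝ, ∀ z : ℂ, T ≤ z.im → Maj N (φ z) w < δ) ∧
    ∃ r > 0, ∃ C, ∀ z : ℂ, 2 ≤ z.im → |1 / Real.sqrt (Maj N (φ z) w) - r * z.im| ≤ C

theorem intEnd_of_const {φ : ℂ → ℍ} (p : ℍ) (h : ∀ z : ℂ, 1 < z.im → φ z = p) : IntEnd φ := by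
  refine ⟨⟨1, one_pos, fun z hz => ?_⟩, p, fun W hW => ⟨2, fun z hz => ?_⟩⟩
  · rw [h z hz, h _ (by simpa using hz)]
  · rw [h z (by linarith)]; exact mem_of_mem_nhds hW

theorem intEnd_of_finEnd {φ : ℂ → ℍ} (h : FinEnd (fun z => (φ (z + Complex.I) : ℂ))) :
    IntEnd φ := by
  obtain ⟨m, hm, h, hd, hmaps, heq⟩ := h
  have hmR : (0 : ℝ) < m := by exact_mod_cast hm
  have hmC : (m : ℂ) ≠ 0 := by exact_mod_cast hm.ne'
  have hval : ∀ z : ℂ, 1 < z.im →
      (φ z : ℂ) = h (Complex.exp (2 * π * Complex.I * (z - Complex.I) / m)) := by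
    intro z hz
    have := heq (z - Complex.I) (by simpa using hz)
    simpa using this
  have h0 : (0 : ℂ) ∈ ball (0 : ℂ) 1 := mem_ball_self one_pos
  have hp : 0 < (h 0).im := hmaps h0
  refine ⟨⟨m, hm, fun z hz => ?_⟩, ⟨h 0, hp⟩, fun W hW => ?_⟩
  · apply UpperHalfPlane.ext
    rw [hval z hz, hval (z + m) (by simpa using hz)]
    congr 1
    have : 2 * π * Complex.I * (z + m - Complex.I) / m
        = 2 * π * Complex.I * (z - Complex.I) / m + 2 * π * Complex.I := by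
      field_simp
      ring
    rw [this, Complex.exp_add, Complex.exp_two_pi_mul_I, mul_one]
  · rw [UpperHalfPlane.isEmbedding_coe.nhds_eq_comap, mem_comap] at hW
    obtain ⟨V, hV, hVW⟩ := hW
    have hcont : ContinuousAt h 0 :=
      ((hd 0 h0).differentiableAt (isOpen_ball.mem_nhds h0)).continuousAt
    have h1 : h ⁻¹' V ∈ 𝓝 (0 : ℂ) := hcont hV
    obtain ⟨ρ, hρ, hball⟩ := Metric.mem_nhds_iff.mp h1
    have hlim : Tendsto (fun t : ℝ => Real.exp (-(2 * π * t / m))) atTop (𝓝 0) := by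
      apply Real.tendsto_exp_neg_atTop_nhds_zero.comp
      have : (fun t : ℝ => 2 * π * t / m) = fun t : ℝ => (2 * π / m) * t := by
        funext t; ring
      rw [this]
      exact tendsto_id.const_mul_atTop (by positivity)
    obtain ⟨T0, hT0⟩ := eventually_atTop.mp (hlim.eventually (gt_mem_nhds hρ))
    refine ⟨max T0 1 + 1, fun z hz => ?_⟩
    have hz1 : 1 < z.im := by
      have := le_max_right T0 1
      linarith
    have hz0 : T0 ≤ z.im - 1 := by
      have := le_max_left T0 1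
      linarith
    apply hVW
    show (φ z : ℂ) ∈ V
    rw [hval z hz1]
    apply hball
    rw [mem_ball_zero_iff, Complex.norm_exp]
    have hre : (2 * π * Complex.I * (z - Complex.I) / m).re = -(2 * π * (z.im - 1) / m) := by
      have : 2 * π * Complex.I * (z - Complex.I) / m
          = ((2 * π / m : ℝ) : ℂ) * (Complex.I * (z - Complex.I)) := by
        push_cast; ring
      rw [this, Complex.re_ofReal_mul]
      simp
      ring
    rw [hre]
    exact hT0 _ hz0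

theorem cuspEnd_of_parEnd {N : ℝ} (hN : 0 < N) {Λ : Set (Fin 3 → ℝ)} (hΛ : Lat N Λ)
    (hsub : ∀ x ∈ Λ, ∀ y ∈ Λ, x - y ∈ Λ) {φ : ℂ → ℍ}
    {A : (Fin 3 → ℝ) →ₗ[ℝ] (Fin 3 → ℝ)} (hA : ∀ w ∈ Λ, A w ∈ Λ)
    {s a b c d : ℝ} (hs : s = 1 ∨ s = -1) (hdet : a * d - b * c = 1)
    (hAx : ∀ x, A x = s • W3c_698.sym2 N a b c d x)
    (h : ParEnd (fun z => (φ (z + Complex.I) : ℂ)) a b c d) :
    CuspEnd N Λ φ A := by
  obtain ⟨α, β, γ, δ, r, hκ, hr, hκg, h, hd, heq⟩ := h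
  obtain ⟨ε, hε, ea, eb, ec, ed⟩ := par_matrix hdet hκ hκg
  have hs2 : s * s = 1 := by rcases hs with h | h <;> rw [h] <;> norm_num
  have hγδ : γ ≠ 0 ∨ δ ≠ 0 := W3c_698.cd_ne (Or.inl hκ)
  set v := cv N γ δ with hv
  have hv0 : v ≠ 0 := cv_ne hN hγδ
  have hAv : A v = s • v := by rw [hAx, sym2_cv hN hε ea eb ec ed]
  -- a lattice vector not orthogonal to `v`
  obtain ⟨x, hxΛ, hx⟩ : ∃ x ∈ Λ, qb N x v ≠ 0 := by
    by_contra hcon
    push Not at hcon
    let L : (Fin 3 → ℝ) →ₗ[ℝ] ℝ :=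
      { toFun := fun x => qb N x v
        map_add' := fun x y => by simp only [qb, Pi.add_apply]; ring
        map_smul' := fun t x => by
          simp only [qb, Pi.smul_apply, smul_eq_mul, RingHom.id_apply]; ring }
    have hle : Submodule.span ℝ Λ ≤ LinearMap.ker L := Submodule.span_le.mpr hcon
    rw [hΛ.span] at hle
    have hall : ∀ x, qb N x v = 0 := fun x => hle (Submodule.mem_top : x ∈ ⊤)
    apply hv0
    have h0 := hall ![0, 0, 1]
    have h1 := hall ![0, 1, 0]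
    have h2 := hall ![1, 0, 0]
    simp [qb] at h0 h1 h2
    funext i
    fin_cases i
    · exact h0
    · rcases h1 with h1 | h1
      · exact absurd h1 hN.ne'
      · exact h1
    · exact h2
  set t : ℝ := -(N * r ^ 2) * qb N x v with ht
  have ht0 : t ≠ 0 := by
    rw [ht]
    exact mul_ne_zero (neg_ne_zero.mpr (by positivity)) hx
  have hw : A (A x) - (2 * s) • A x + x = t • v := by
    rw [ht, ← sym2_sq hN hε ea eb ec ed x, hAx (A x), hAx x, ← sym2_smul, smul_smul, smul_smul, hs2,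
      one_smul]
    congr 2
    rw [mul_assoc, hs2, mul_one]
  have hwΛ : t • v ∈ Λ := by
    rw [← hw]
    have hx1 := hA _ hxΛ
    have hx2 := hA _ hx1
    rcases hs with h | h
    · have h1 := hsub _ (hsub _ hx2 _ hx1) _ (hsub _ hx1 _ hxΛ)
      convert h1 using 1
      rw [h, mul_one, two_smul]; abel
    · have h0 := hsub _ hxΛ _ hxΛ
      have hn : ∀ y ∈ Λ, -y ∈ Λ := by
        intro y hy
        have := hsub _ h0 _ hy
        simpa using this
      have h1 := hsub _ (hsub _ hx2 _ (hn _ hx1)) _ (hn _ (hsub _ hx1 _ (hn _ hxΛ)))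
      convert h1 using 1
      rw [h, mul_neg, mul_one, _root_.neg_smul, two_smul]; abel
  -- majorant along the end
  obtain ⟨C, hC⟩ := parabolic_growth hd (r := r) heq
  set k : ℝ := Real.sqrt (2 / N) * |t| with hk
  have hk0 : 0 < k := by
    rw [hk]
    have := abs_pos.mpr ht0
    have : 0 < Real.sqrt (2 / N) := Real.sqrt_pos.mpr (by positivity)
    positivity
  have hk2 : k ^ 2 = 2 / N * t ^ 2 := by
    rw [hk, mul_pow, Real.sq_sqrt (by positivity), sq_abs]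
  have hmajw : ∀ z : ℂ, Maj N (φ z) (t • v) = (k / (mob α β γ δ (φ z)).im) ^ 2 := by
    intro z
    rw [maj_smul, hv, maj_cv hN hκ, div_pow, hk2]
    ring
  have himpos : ∀ z : ℂ, 0 < (mob α β γ δ (φ z)).im := fun z => mob_mem hκ (φ z).im_pos
  have hsqrt : ∀ z : ℂ, 1 / Real.sqrt (Maj N (φ z) (t • v)) = (mob α β γ δ (φ z)).im / k := by
    intro z
    have := himpos z
    rw [hmajw, Real.sqrt_sq (by positivity), one_div_div]
  have hgrow : ∀ z : ℂ, 2 ≤ z.im → |(mob α β γ δ (φ z)).im - r * (z.im - 1)| ≤ C := by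
    intro z hz
    have := (hC (z - Complex.I) (by simp; linarith)).1
    simpa using this
  have hC0 : 0 ≤ C := (abs_nonneg _).trans (hgrow (2 * Complex.I) (by simp))
  refine ⟨t • v, hwΛ, smul_ne_zero ht0 hv0, ?_, ?_, ?_, r / k, by positivity, (C + r) / k, ?_⟩
  · have h1 : qb N (t • v) (t • v) = t ^ 2 * qb N v v := by
      simp only [qb, Pi.smul_apply, smul_eq_mul]; ring
    rw [h1, hv, cv_iso hN, mul_zero]
  · rw [map_smul, hAv]
    rcases hs with h | h
    · left; rw [h, one_smul]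
    · right; rw [h, _root_.neg_smul, one_smul, smul_neg]
  · intro δ' hδ'
    refine ⟨max 2 ((k / Real.sqrt δ' + C + r + 1) / r), fun z hz => ?_⟩
    have hz2 : 2 ≤ z.im := (le_max_left _ _).trans hz
    have hz3 : k / Real.sqrt δ' + C + r + 1 ≤ r * z.im := by
      have := (le_max_right _ _).trans hz
      rw [div_le_iff₀ hr] at this
      linarith
    have h1 := abs_le.mp (hgrow z hz2)
    have h2 : k / Real.sqrt δ' < (mob α β γ δ (φ z)).im := by
      have := h1.1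
      nlinarith
    have hsδ : 0 < Real.sqrt δ' := Real.sqrt_pos.mpr hδ'
    have h3 : k / (mob α β γ δ (φ z)).im < Real.sqrt δ' := by
      rw [div_lt_iff₀ (himpos z)]
      rw [div_lt_iff₀ hsδ] at h2
      linarith
    rw [hmajw, ← Real.sq_sqrt hδ'.le]
    have := himpos z
    exact pow_lt_pow_left₀ h3 (by positivity) two_ne_zero
  · intro z hz
    rw [hsqrt]
    have h1 := hgrow z hz
    have e : (mob α β γ δ (φ z)).im / k - r / k * z.im
        = (((mob α β γ δ (φ z)).im - r * (z.im - 1)) - r) / k := by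
      field_simp; ring
    rw [e, abs_div, abs_of_pos hk0]
    gcongr
    calc |(mob α β γ δ (φ z)).im - r * (z.im - 1) - r|
        ≤ |(mob α β γ δ (φ z)).im - r * (z.im - 1)| + |r| := abs_sub _ _
      _ ≤ C + r := by rw [abs_of_pos hr]; linarith

/-- **PUNCT-ENDS.** -/
theorem ends {N : ℝ} (hN : 0 < N) {Λ : Set (Fin 3 → ℝ)} (hΛ : Lat N Λ)
    (hsub : ∀ x ∈ Λ, ∀ y ∈ Λ, x - y ∈ Λ) {φ : ℂ → ℍ}
    (hφ : DifferentiableOn ℂ (fun z => (φ z : ℂ)) {z | 1 < z.im})
    {A : (Fin 3 → ℝ) →ₗ[ℝ] (Fin 3 → ℝ)} (hA : ∀ w ∈ Λ, A w ∈ Λ)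
    (hiso : ∀ w, qb N (A w) (A w) = qb N w w)
    (hmaj : ∀ z : ℂ, 1 < z.im → ∀ w, Maj N (φ (z + 1)) (A w) = Maj N (φ z) w) :
    IntEnd φ ∨ CuspEnd N Λ φ A := by
  obtain ⟨s, a, b, c, d, hs, hdet, hAx⟩ := W3c_698.exists_sym2 hN A (fun x y => by
    rw [qb_eq, qb_eq]; exact qb_polar hiso x y)
  have hsurj := iso_surj hN hiso
  -- the Moebius relation
  have hrel : ∀ z : ℂ, 1 < z.im → ∀ τ' : ℍ,
      ((τ' : ℂ) = mob a b c d (φ z) ∨ (τ' : ℂ) = conj (mob a b c d (φ z))) → φ (z + 1) = τ' := by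
    intro z hz τ' hτ'
    apply maj_inj hN
    intro w
    obtain ⟨x, rfl⟩ := hsurj w
    rw [hmaj z hz, maj_mob hN hiso hs hdet hAx hτ']
  have hshift : MapsTo (fun z : ℂ => z + Complex.I) UH {z | 1 < z.im} := by
    intro z hz
    have : 0 < z.im := hz
    simp
    exact this
  rcases hdet with hdet | hdet
  · -- orientation preserving
    have hrel1 : ∀ z : ℂ, 1 < z.im → (φ (z + 1) : ℂ) = mob a b c d (φ z) := by
      intro z hz
      have := hrel z hz ⟨mob a b c d (φ z), mob_mem hdet (φ z).im_pos⟩ (Or.inl rfl)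
      rw [this]
    have hd : DifferentiableOn ℂ (fun z => (φ (z + Complex.I) : ℂ)) UH :=
      hφ.comp (differentiable_id.add_const _).differentiableOn hshift
    have hm : MapsTo (fun z => (φ (z + Complex.I) : ℂ)) UH UH := fun z _ => (φ _).im_pos
    have heq : ∀ z : ℂ, 0 < z.im → (φ (z + 1 + Complex.I) : ℂ)
        = mob a b c d (φ (z + Complex.I)) := by
      intro z hz
      rw [← hrel1 (z + Complex.I) (by simpa using hz)]
      congr 2; ring
    have hell : (a + d) ^ 2 < 4 → ∃ m : ℕ, 0 < m ∧ ∀ z : ℂ, 0 < z.im →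
        (φ (z + m + Complex.I) : ℂ) = φ (z + Complex.I) := by
      intro hlt
      obtain ⟨τ0, hτ0⟩ := exists_fixed hdet hlt
      obtain ⟨m, hm, hAm⟩ := fin_order hN hΛ hA hiso (τ := τ0)
        (fun w => maj_mob hN hiso hs (Or.inl hdet) hAx (Or.inl hτ0) w)
      refine ⟨m, hm, fun z hz => ?_⟩
      have hn : ∀ n : ℕ, ∀ w, Maj N (φ (z + Complex.I + n)) ((A ^ n) w)
          = Maj N (φ (z + Complex.I)) w := by
        intro n
        induction n with
        | zero => intro w; simp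
        | succ n ih =>
          intro w
          rw [pow_succ', Module.End.mul_apply, ← ih w]
          have := hmaj (z + Complex.I + n) (by simpa using hz) ((A ^ n) w)
          rw [← this]
          congr 2
          push_cast; ring
      have h1 : φ (z + Complex.I + m) = φ (z + Complex.I) := by
        apply maj_inj hN
        intro w
        have := hn m w
        rw [hAm] at this
        exact this
      rw [← h1]
      congr 2; ring
    rcases puncture hd hm hdet heq hell with h | h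
    · exact Or.inl (intEnd_of_finEnd h)
    · exact Or.inr (cuspEnd_of_parEnd hN hΛ hsub hA hs hdet hAx h)
  · -- orientation reversing: the period map is constant
    left
    have hU : IsOpen {z : ℂ | 1 < z.im} := isOpen_lt continuous_const Complex.continuous_im
    have hUc : IsPreconnected {z : ℂ | 1 < z.im} := (convex_halfSpace_im_gt 1).isPreconnected
    have hne : ∀ z : ℂ, (c : ℂ) * (φ z : ℂ) + d ≠ 0 := fun z =>
      W3c_698.denom_ne (W3c_698.cd_ne (Or.inr hdet)) (φ z).im_pos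
    have hrel1 : ∀ z : ℂ, 1 < z.im → mob a b c d (φ z) = conj (φ (z + 1) : ℂ) := by
      intro z hz
      have him : 0 < (conj (mob a b c d (φ z))).im := by
        rw [Complex.conj_im, im_mob_det, hdet]
        have hD := norm_pos_iff.mpr (hne z)
        have hy : 0 < (φ z : ℂ).im := (φ z).im_pos
        have : -(-1 * (φ z : ℂ).im / ‖(c : ℂ) * (φ z : ℂ) + d‖ ^ 2)
            = (φ z : ℂ).im / ‖(c : ℂ) * (φ z : ℂ) + d‖ ^ 2 := by ring
        rw [this]
        positivity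
      have := hrel z hz ⟨conj (mob a b c d (φ z)), him⟩ (Or.inr rfl)
      rw [this]
      simp
    have hv : DifferentiableOn ℂ (fun z => mob a b c d (φ z)) {z | 1 < z.im} := by
      intro z hz
      unfold mob
      exact (((hφ z hz).const_mul _).add_const _).div (((hφ z hz).const_mul _).add_const _) (hne z)
    have hu : DifferentiableOn ℂ (fun z => (φ (z + 1) : ℂ)) {z | 1 < z.im} :=
      hφ.comp (differentiable_id.add_const _).differentiableOn (fun z hz => by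
        have : 1 < z.im := hz
        simpa using this)
    have hconst := fun (z w : ℂ) (hz : 1 < z.im) (hw : 1 < w.im) =>
      const_of_conj hU hUc hu hv (fun z hz => hrel1 z hz) hz hw
    apply intEnd_of_const (φ (2 * Complex.I))
    intro z hz
    apply UpperHalfPlane.ext
    have := hconst (z - 1) (2 * Complex.I - 1) (by simpa using hz) (by simp)
    simpa using this

/-- **the fields `cusp`, `w`, `w_mem`, `w_lim`, `pt`, `pt_lim` of `CL_473.Dat`** (and the growth) -/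
theorem ends_fam {N : ℝ} (hN : 0 < N) {Λ : Set (Fin 3 → ℝ)} (hΛ : Lat N Λ)
    (hsub : ∀ x ∈ Λ, ∀ y ∈ Λ, x - y ∈ Λ) {ι : Type*} {φ : ι → ℂ → ℍ}
    (hφ : ∀ i, DifferentiableOn ℂ (fun z => (φ i z : ℂ)) {z | 1 < z.im})
    {A : ι → (Fin 3 → ℝ) →ₗ[ℝ] (Fin 3 → ℝ)} (hA : ∀ i, ∀ w ∈ Λ, A i w ∈ Λ)
    (hiso : ∀ i, ∀ w, qb N (A i w) (A i w) = qb N w w)
    (hmaj : ∀ i, ∀ z : ℂ, 1 < z.im → ∀ w, Maj N (φ i (z + 1)) (A i w) = Maj N (φ i z) w) :
    ∃ (cusp : ι → Prop) (w : ι → Fin 3 → ℝ) (pt : ι → ℍ),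
      (∀ i, cusp i → w i ∈ Λ ∧ w i ≠ 0 ∧ qb N (w i) (w i) = 0) ∧
      (∀ i, cusp i → A i (w i) = w i ∨ A i (w i) = -w i) ∧
      (∀ i, cusp i → ∀ δ > 0, ∃ T, ∀ z : ℂ, 1 ≤ z.im → T ≤ z.im → Maj N (φ i z) (w i) < δ) ∧
      (∀ i, cusp i → ∃ r > 0, ∃ C, ∀ z : ℂ, 2 ≤ z.im →
        |1 / Real.sqrt (Maj N (φ i z) (w i)) - r * z.im| ≤ C) ∧
      (∀ i, ¬ cusp i → ∃ m : ℕ, 0 < m ∧ ∀ z : ℂ, 1 < z.im → φ i (z + m) = φ i z) ∧
      (∀ i, ¬ cusp i → ∀ W ∈ 𝓝 (pt i), ∃ T, ∀ z : ℂ, 1 ≤ z.im → T ≤ z.im → φ i z ∈ W) := by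
  classical
  have h := fun i => ends hN hΛ hsub (hφ i) (hA i) (hiso i) (hmaj i)
  have h1 : ∀ i, ∃ w : Fin 3 → ℝ, CuspEnd N Λ (φ i) (A i) → w ∈ Λ ∧ w ≠ 0 ∧ qb N w w = 0 ∧
      (A i w = w ∨ A i w = -w) ∧ (∀ δ > 0, ∃ T : ℝ, ∀ z : ℂ, T ≤ z.im → Maj N (φ i z) w < δ) ∧
      ∃ r > 0, ∃ C, ∀ z : ℂ, 2 ≤ z.im → |1 / Real.sqrt (Maj N (φ i z) w) - r * z.im| ≤ C := by
    intro i
    by_cases hc : CuspEnd N Λ (φ i) (A i)
    · obtain ⟨w, hw, hw'⟩ := id hc
      exact ⟨w, fun _ => ⟨hw, hw'⟩⟩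
    · exact ⟨0, fun h => absurd h hc⟩
  have h2 : ∀ i, ∃ p : ℍ, ¬ CuspEnd N Λ (φ i) (A i) →
      ∀ W ∈ 𝓝 p, ∃ T : ℝ, ∀ z : ℂ, T ≤ z.im → φ i z ∈ W := by
    intro i
    by_cases hc : CuspEnd N Λ (φ i) (A i)
    · exact ⟨UpperHalfPlane.I, fun h => absurd hc h⟩
    · rcases h i with h3 | h3
      · obtain ⟨p, hp⟩ := h3.2
        exact ⟨p, fun _ => hp⟩
      · exact absurd h3 hc
  choose w hw using h1
  choose pt hpt using h2
  refine ⟨fun i => CuspEnd N Λ (φ i) (A i), w, pt, fun i hc => ?_, fun i hc => ?_,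
    fun i hc δ hδ => ?_, fun i hc => ?_, fun i hc => ?_, fun i hc W hW => ?_⟩
  · obtain ⟨h1, h2, h3, -⟩ := hw i hc
    exact ⟨h1, h2, h3⟩
  · exact (hw i hc).2.2.2.1
  · obtain ⟨T, hT⟩ := (hw i hc).2.2.2.2.1 δ hδ
    exact ⟨T, fun z _ hz => hT z hz⟩
  · exact (hw i hc).2.2.2.2.2
  · rcases h i with h3 | h3
    · exact h3.1
    · exact absurd h3 hc
  · obtain ⟨T, hT⟩ := hpt i hc W hW
    exact ⟨T, fun z _ hz => hT z hz⟩

end Crest.Agent.R281.PE_698
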