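import Crest.Agent.R281.As6_957
import Crest.Agent.R281.PE3_698

/-!
# R281 / As7 (helper957): **the curve part of B4**, final form
-/

set_option autoImplicit false
set_option linter.style.haveILetI false

open Polynomial Set Filter Topology UpperHalfPlane
open scoped Polynomial.Bivariate

namespace Crest.Agent.R281.As_957

open Ends1_989 CL_473 Nc_957

/-- helper698's theorem `ends` -/
theorem endsProp {N : ℝ} (hN : 0 < N) {Λ : Set (Fin 3 → ℝ)} (hΛ : Lat N Λ)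
    (hsub : ∀ x ∈ Λ, ∀ y ∈ Λ, x - y ∈ Λ) : EndsProp N Λ := by
  intro φ hφ A hA hiso hmaj
  rcases PE_698.ends hN hΛ hsub hφ hA hiso hmaj with ⟨-, h⟩ | h
  · exact Or.inl h
  · exact Or.inr h

variable {f : ℂ[X][Y]} {δ : ℂ[X]} {N : ℝ} {Λ : Set (Fin 3 → ℝ)} {G : Type*} [Group G] {E : Type*}
  [MulAction G E]

/-- **B4**: for all but countably many abscissas the vertical ray through the period of a marked
member lifts completely and runs into one end of the curve, over the cusp `e = (0,0,1)` itself. -/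
theorem exists_ray (D : Geom f δ N Λ G E) [Countable G] (hN : 0 < N) (hΛ : Lat N Λ)
    (hsub : ∀ x ∈ Λ, ∀ y ∈ Λ, x - y ∈ Λ) (hf : f.Monic) (hδ : δ ≠ 0) (hs : Sep f δ) :
    ∃ Nl : Set ℝ, Nl.Countable ∧ ∀ x₀ : D.T, (D.Ψ x₀).re ∉ Nl → Nonempty (Ray D x₀) :=
  exists_ray_of_ends D hN hΛ (endsProp hN hΛ hsub) hf hδ hs

/-- the first form: from a non-algebraic member, arbitrarily deep into one end -/
theorem b4 (D : Geom f δ N Λ G E) [Countable G] (hN : 0 < N) (hΛ : Lat N Λ)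
    (hsub : ∀ x ∈ Λ, ∀ y ∈ Λ, x - y ∈ Λ) (hf : f.Monic) (hδ : δ ≠ 0) (hs : Sep f δ) (x₀ : D.T)
    {b : ℂ} (hb : δ.eval b ≠ 0) {S : Set ℍ} (hS : ∀ x : D.T, D.u x = b → D.Ψ x ∈ S)
    (h0 : D.Ψ x₀ ∉ S) :
    ∃ (e : LEnd D) (w : Fin 3 → ℝ), Good e w ∧ ∀ T₀ : ℝ, ∃ (z : ℂ) (g : G) (t : ℝ), 1 ≤ z.im ∧
      T₀ ≤ z.im ∧ t ≠ 0 ∧ D.R.ρ g w = t • ![0, 0, 1] ∧ Joined x₀ (g • e.F z) :=
  b4_of_ends D hN hΛ (endsProp hN hΛ hsub) hf hδ hs x₀ hb hS h0

end Crest.Agent.R281.As_957
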