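import Crest.Agent.R281.Am1_957
import Crest.Agent.R281.As7_957

/-!
# R281 / Am2 (helper957): pull back of local transports, geometry over the `m`-dimensional model,
restriction to lines
-/

set_option autoImplicit false
set_option linter.style.haveILetI false
set_option linter.unusedSectionVars false

open Polynomial Set Filter Topology UpperHalfPlane
open scoped Polynomial.Bivariate

namespace Crest.Agent.R281.Am_957

open Sl_957 Ends1_989 CL_473 Nc_957 As_957

noncomputable section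

section pull

variable {B B' : Type*} [TopologicalSpace B] [TopologicalSpace B'] {G : Type*} [Group G]
  {E : Type*} [MulAction G E]

/-- points of the pulled back cover -/
abbrev PE (L : LS B G E) (ι : B' → B) : Type _ := {y : B' × E // L.p y.2 = ι y.1}

instance (L : LS B G E) (ι : B' → B) : MulAction G (PE L ι) where
  smul g y := ⟨(y.1.1, g • y.1.2), by rw [L.p_smul]; exact y.2⟩
  one_smul y := Subtype.ext (Prod.ext rfl (one_smul G y.1.2))
  mul_smul g h y := Subtype.ext (Prod.ext rfl (mul_smul g h y.1.2))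

theorem PE.smul_def (L : LS B G E) (ι : B' → B) (g : G) (y : PE L ι) :
    (g • y).1 = (y.1.1, g • y.1.2) := rfl

open Classical in
/-- the transport of the pulled back cover -/
def PE.s (L : LS B G E) (ι : B' → B) (y : PE L ι) (q : B') : PE L ι :=
  if h : ι q ∈ L.U (L.p y.1.2) then ⟨(q, L.s y.1.2 (ι q)), L.p_s _ _ h⟩ else y

theorem PE.s_of (L : LS B G E) (ι : B' → B) (y : PE L ι) {q : B'} (h : ι q ∈ L.U (L.p y.1.2)) :
    (PE.s L ι y q).1 = (q, L.s y.1.2 (ι q)) := by
  unfold PE.s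
  rw [dif_pos h]

/-- **pull back of local transports** -/
def pull (L : LS B G E) (ι : B' → B) (hι : Continuous ι) : LS B' G (PE L ι) where
  p y := y.1.1
  U q := ι ⁻¹' L.U (ι q)
  U_open q := (L.U_open _).preimage hι
  U_mem q := L.U_mem _
  s := PE.s L ι
  p_s y q hq := by
    have h : ι q ∈ L.U (L.p y.1.2) := by rw [y.2]; exact hq
    rw [PE.s_of L ι y h]
  s_self y := by
    have h : ι y.1.1 ∈ L.U (L.p y.1.2) := by rw [y.2]; exact L.U_mem _
    apply Subtype.ext
    rw [PE.s_of L ι y h, ← y.2, L.s_self]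
  surj q0 y hy := by
    have hy' : L.p y.1.2 ∈ L.U (ι q0) := by rw [y.2]; exact hy
    obtain ⟨x, hx, hxy⟩ := L.surj (ι q0) y.1.2 hy'
    refine ⟨⟨(q0, x), hx⟩, rfl, ?_⟩
    have h : ι y.1.1 ∈ L.U (L.p x) := by rw [hx]; exact hy
    apply Subtype.ext
    rw [PE.s_of L ι _ h]
    refine Prod.ext rfl ?_
    change L.s x (ι y.1.1) = y.1.2
    rw [← y.2]
    exact hxy
  inj x y hxy q hq hs := by
    have hx : ι q ∈ L.U (L.p x.1.2) := by rw [x.2]; exact hq
    have hxy' : x.1.1 = y.1.1 := hxy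
    have hy : ι q ∈ L.U (L.p y.1.2) := by rw [y.2, ← hxy']; exact hq
    have h1 := congrArg Subtype.val hs
    rw [PE.s_of L ι x hx, PE.s_of L ι y hy] at h1
    apply Subtype.ext
    exact Prod.ext hxy' (L.inj _ _ (by rw [x.2, y.2, hxy']) _ hx (congrArg Prod.snd h1))
  loc x q1 hq1 := by
    have h1 : ι q1 ∈ L.U (L.p x.1.2) := by rw [x.2]; exact hq1
    have h2 := (hι.tendsto q1).eventually (L.loc x.1.2 (ι q1) h1)
    have h3 := (hι.tendsto q1).eventually ((L.U_open (L.p x.1.2)).mem_nhds h1)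
    have h4 := (hι.tendsto q1).eventually ((L.U_open (ι q1)).mem_nhds (L.U_mem (ι q1)))
    filter_upwards [h2, h3, h4] with q hq2 hq3 hq4
    have h5 : (PE.s L ι x q1).1 = (q1, L.s x.1.2 (ι q1)) := PE.s_of L ι x h1
    have h6 : ι q ∈ L.U (L.p (PE.s L ι x q1).1.2) := by
      rw [h5]
      change ι q ∈ L.U (L.p (L.s x.1.2 (ι q1)))
      rw [L.p_s _ _ h1]
      exact hq4
    apply Subtype.ext
    rw [PE.s_of L ι x hq3, PE.s_of L ι _ h6, h5]
    exact Prod.ext rfl hq2
  p_smul g x := rfl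
  s_smul g x q hq := by
    have h : ι q ∈ L.U (L.p x.1.2) := by rw [x.2]; exact hq
    have h' : ι q ∈ L.U (L.p (g • x).1.2) := by
      change ι q ∈ L.U (L.p (g • x.1.2))
      rw [L.p_smul]
      exact h
    apply Subtype.ext
    rw [PE.s_of L ι _ h', PE.smul_def L ι g (PE.s L ι x q), PE.s_of L ι x h]
    exact Prod.ext rfl (L.s_smul g x.1.2 _ h)
  trans x y hxy := by
    have hxy' : x.1.1 = y.1.1 := hxy
    obtain ⟨g, hg⟩ := L.trans x.1.2 y.1.2 (by rw [x.2, y.2, hxy'])
    exact ⟨g, Subtype.ext (Prod.ext hxy'.symm hg)⟩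

end pull

/-- **the geometry over the `m`-dimensional model** -/
structure GeomM {k₀ R : Type*} [Field k₀] [Algebra k₀ ℂ] (M : Fmt k₀ R) (N : ℝ)
    (Λ : Set (Fin 3 → ℝ)) (G : Type*) [Group G] (E : Type*) [MulAction G E] extends
    LS (QM M) G E where
  /-- action on the ternary lattice -/
  R : UpRep N G
  mem : ∀ g, ∀ w ∈ Λ, R.ρ g w ∈ Λ
  /-- the period map -/
  Φ : E → ℍ
  Φ_smul : ∀ g x, (Φ (g • x) : ℂ) = mv N (R.ρ g) (Φ x)
  /-- holomorphic along the transports, in the coordinate `z ∈ ℂ^m` -/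
  Φ_hol : ∀ x, ∃ φ : (Fin M.m → ℂ) → ℂ, AnalyticAt ℂ φ (p x).1.1 ∧
    ∀ᶠ q in 𝓝 (p x), (Φ (s x q) : ℂ) = φ q.1.1

namespace GeomM

variable {k₀ R : Type*} [Field k₀] [Algebra k₀ ℂ] {M : Fmt k₀ R} {N : ℝ} {Λ : Set (Fin 3 → ℝ)}
  {G : Type*} [Group G] {E : Type*} [MulAction G E] (D : GeomM M N Λ G E)

/-- the total space -/
abbrev T : Type _ := D.toLS.Tot

/-- the coordinate in `ℂ^m` -/
def z (x : D.T) : Fin M.m → ℂ := (D.toLS.pr x).1.1

/-- the period map on the total space -/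
def Ψ (x : D.T) : ℍ := D.Φ x

/-- inclusion of the curve over a line -/
def lm (M : Fmt k₀ R) (a d : Fin M.m → ℂ) (q : Qs (M.lf a d) (M.lδ a d)) : QM M :=
  ⟨(fun j => a j + q.1.1 * d j, q.1.2), (M.on_iff a d q.1.1 q.1.2).2 q.2⟩

theorem continuous_lm (M : Fmt k₀ R) (a d : Fin M.m → ℂ) : Continuous (lm M a d) := by
  unfold lm
  fun_prop

/-- **restriction to a line** -/
def line (a d : Fin M.m → ℂ) :
    Geom (M.lf a d) (M.lδ a d) N Λ G (PE D.toLS (lm M a d)) where
  toLS := pull D.toLS (lm M a d) (continuous_lm M a d)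
  R := D.R
  mem := D.mem
  Φ y := D.Φ y.1.2
  Φ_smul g y := D.Φ_smul g y.1.2
  Φ_hol y := by
    obtain ⟨φ, hφ, h⟩ := D.Φ_hol y.1.2
    have hy : D.p y.1.2 = lm M a d y.1.1 := y.2
    rw [hy] at hφ h
    refine ⟨fun u => φ fun j => a j + u * d j, ?_, ?_⟩
    · have h1 : AnalyticAt ℂ (fun (u : ℂ) (j : Fin M.m) => a j + u * d j) y.1.1.1.1 := by
        rw [analyticAt_pi_iff]
        intro j
        exact analyticAt_const.add (analyticAt_id.mul analyticAt_const)
      exact AnalyticAt.fun_comp hφ h1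
    · have h2 := ((continuous_lm M a d).tendsto y.1.1).eventually h
      have h3 : ∀ᶠ q in 𝓝 y.1.1, lm M a d q ∈ D.U (D.p y.1.2) :=
        ((continuous_lm M a d).tendsto y.1.1).eventually
          ((D.U_open (D.p y.1.2)).mem_nhds (by rw [hy]; exact D.U_mem _))
      change ∀ᶠ q in 𝓝 y.1.1, (D.Φ (PE.s D.toLS (lm M a d) y q).1.2 : ℂ) = _
      filter_upwards [h2, h3] with q hq2 hq3
      rw [PE.s_of D.toLS (lm M a d) y hq3]
      exact hq2

/-- a marked member over a point of the line -/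
def onLine (a d : Fin M.m → ℂ) (x : D.T) (u : ℂ) (hx : D.z x = fun j => a j + u * d j) :
    (D.line a d).T :=
  (⟨(⟨(u, (D.toLS.pr x).1.2), (M.on_iff a d u (D.toLS.pr x).1.2).1 (by
    have h : M.On (D.z x) (D.toLS.pr x).1.2 := (D.toLS.pr x).2
    rw [hx] at h
    exact h)⟩, x), by
    apply Subtype.ext
    exact Prod.ext hx rfl⟩ : PE D.toLS (lm M a d))

theorem u_onLine (a d : Fin M.m → ℂ) (x : D.T) (u : ℂ) (hx : D.z x = fun j => a j + u * d j) :
    (D.line a d).u (D.onLine a d x u hx) = u := rfl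

theorem Ψ_onLine (a d : Fin M.m → ℂ) (x : D.T) (u : ℂ) (hx : D.z x = fun j => a j + u * d j) :
    (D.line a d).Ψ (D.onLine a d x u hx) = D.Ψ x := rfl

/-- the original member -/
def toT (a d : Fin M.m → ℂ) (y : (D.line a d).T) : D.T := (y : PE D.toLS (lm M a d)).1.2

theorem Ψ_toT (a d : Fin M.m → ℂ) (y : (D.line a d).T) : D.Ψ (D.toT a d y) = (D.line a d).Ψ y := rfl

theorem z_toT (a d : Fin M.m → ℂ) (y : (D.line a d).T) :
    D.z (D.toT a d y) = fun j => a j + (D.line a d).u y * d j := by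
  have h := congrArg (fun q : QM M => q.1.1) (y : PE D.toLS (lm M a d)).2
  exact h

theorem toT_onLine (a d : Fin M.m → ℂ) (x : D.T) (u : ℂ) (hx : D.z x = fun j => a j + u * d j) :
    D.toT a d (D.onLine a d x u hx) = x := rfl

/-- the map of total spaces is continuous -/
theorem continuous_toT (a d : Fin M.m → ℂ) : Continuous (D.toT a d) := by
  apply (D.line a d).toLS.continuous_of
  intro y
  have hy : D.p (y : PE D.toLS (lm M a d)).1.2 = lm M a d (y : PE D.toLS (lm M a d)).1.1 :=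
    (y : PE D.toLS (lm M a d)).2
  set q₀ : Qs (M.lf a d) (M.lδ a d) := (y : PE D.toLS (lm M a d)).1.1 with hq₀
  set x : D.T := D.toT a d y with hx
  have hmem : lm M a d q₀ ∈ D.U (D.p x) := by
    change lm M a d q₀ ∈ D.U (D.p (y : PE D.toLS (lm M a d)).1.2)
    rw [hy]
    exact D.U_mem _
  have h1 : ContinuousAt (D.toLS.tr x) (lm M a d q₀) :=
    (D.toLS.continuousOn_tr x).continuousAt ((D.U_open _).mem_nhds hmem)
  have h2 : ContinuousAt (fun q => D.toLS.tr x (lm M a d q)) q₀ :=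
    h1.comp (continuous_lm M a d).continuousAt
  change ContinuousAt (fun q => D.toT a d ((D.line a d).toLS.tr y q)) q₀
  refine h2.congr ?_
  have h3 : ∀ᶠ q in 𝓝 q₀, lm M a d q ∈ D.U (D.p x) :=
    ((continuous_lm M a d).tendsto q₀).eventually ((D.U_open _).mem_nhds hmem)
  filter_upwards [h3] with q hq
  exact (congrArg Prod.snd (PE.s_of D.toLS (lm M a d) y hq)).symm

end GeomM

end

end Crest.Agent.R281.Am_957
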