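import Mathlib

/-!
# R281 / Arc1_902 : choice of the abscissa `x₁` (posts #7294, #7356, #7373 and the V2 form)

Row 281 (S0424), divisions 2/7.  `E` = the countable set of marked ends over the isotropic class `e`
(curves over the countable field, ends, markings), `U e` = the set of `x : ℝ` such that the member of
the end `e` over the abscissa `x` has `κ(L) ≥ n`.  KAPPA-1 + END + OPEN give `U e ∈ 𝓝 r` for every
rational `r`; the chart of the given `X` reaches an end only for `x` off a countable set `N`.  Baire: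
there are points `x ∉ N`, arbitrarily near any given point, lying in all the `U e`.
-/

set_option autoImplicit false

open Set Filter Topology

namespace Crest.Agent.R281.Arc1_902

/-- Baire: a set which is a neighbourhood of every rational point has dense interior. -/
theorem dense_interior_of_rat {U : Set ℝ} (hU : ∀ r : ℚ, U ∈ 𝓝 (r : ℝ)) : Dense (interior U) := by
  intro x
  rw [mem_closure_iff]
  intro O hO hx
  obtain ⟨r, hr⟩ := Rat.denseRange_cast.exists_mem_open hO ⟨x, hx⟩
  exact ⟨(r : ℝ), hr, mem_interior_iff_mem_nhds.2 (hU r)⟩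

/-- More generally: a neighbourhood of every point of a dense set. -/
theorem dense_interior_of_dense {X : Type*} [TopologicalSpace X] {U D : Set X} (hD : Dense D)
    (hU : ∀ r ∈ D, U ∈ 𝓝 r) : Dense (interior U) := by
  intro x
  rw [mem_closure_iff]
  intro O hO hx
  obtain ⟨r, hr, hrD⟩ := hD.inter_open_nonempty O hO ⟨x, hx⟩
  exact ⟨r, hr, mem_interior_iff_mem_nhds.2 (hU r hrD)⟩

/-- **Abstract choice**: in a nonempty open set `J` of a Baire `T₁` space without isolated points one
finds a point outside a given countable set and inside countably many sets, each of which is a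
neighbourhood of every point of a dense set (which may depend on the index). -/
theorem exists_off_gen {X : Type*} [TopologicalSpace X] [BaireSpace X] [T1Space X]
    [∀ x : X, (𝓝[≠] x).NeBot] {E : Type*} [Countable E] (U : E → Set X) (D : E → Set X)
    (hD : ∀ e, Dense (D e)) (hU : ∀ e, ∀ r ∈ D e, U e ∈ 𝓝 r) {N J : Set X} (hN : N.Countable)
    (hJ : IsOpen J) (hne : J.Nonempty) : ∃ x ∈ J, x ∉ N ∧ ∀ e, x ∈ U e := by
  have hN' : Countable N := hN.to_subtype
  let F : E ⊕ N → Set X := Sum.elim (fun e => interior (U e)) (fun a => ({(a : X)} : Set X)ᶜ)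
  have hFo : ∀ i, IsOpen (F i) := by
    rintro (e | a)
    · exact isOpen_interior
    · exact isOpen_compl_singleton
  have hFd : ∀ i, Dense (F i) := by
    rintro (e | a)
    · exact dense_interior_of_dense (hD e) (hU e)
    · exact dense_compl_singleton (a : X)
  have hd : Dense (⋂ i, F i) := dense_iInter_of_isOpen hFo hFd
  obtain ⟨x, hxJ, hx⟩ := hd.inter_open_nonempty J hJ hne
  rw [mem_iInter] at hx
  refine ⟨x, hxJ, fun hxN => ?_, fun e => interior_subset (hx (Sum.inl e))⟩
  exact (hx (Sum.inr ⟨x, hxN⟩)) rfl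

/-- **Choice of `x₁`** (989's V2, row 281): `E` countable, every `U e` a neighbourhood of every
rational, `N` countable, `J` open and nonempty: some `x ∈ J`, `x ∉ N`, lies in all the `U e`. -/
theorem exists_off {E : Type*} [Countable E] (U : E → Set ℝ)
    (hU : ∀ e, ∀ r : ℚ, U e ∈ 𝓝 (r : ℝ)) {N J : Set ℝ} (hN : N.Countable) (hJ : IsOpen J)
    (hne : J.Nonempty) : ∃ x ∈ J, x ∉ N ∧ ∀ e, x ∈ U e :=
  exists_off_gen U (fun _ => Set.range ((↑) : ℚ → ℝ)) (fun _ => Rat.denseRange_cast)
    (by rintro e _ ⟨r, rfl⟩; exact hU e r) hN hJ hne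

/-- The same near a given point. -/
theorem exists_off_near {E : Type*} [Countable E] (U : E → Set ℝ)
    (hU : ∀ e, ∀ r : ℚ, U e ∈ 𝓝 (r : ℝ)) {N : Set ℝ} (hN : N.Countable) (x₀ : ℝ) {J : Set ℝ}
    (hJ : J ∈ 𝓝 x₀) : ∃ x ∈ J, x ∉ N ∧ ∀ e, x ∈ U e := by
  obtain ⟨O, hOJ, hO, hx⟩ := mem_nhds_iff.1 hJ
  obtain ⟨x, h1, h2, h3⟩ := exists_off U hU hN hO ⟨x₀, hx⟩
  exact ⟨x, hOJ h1, h2, h3⟩

/-- There are uncountably many such points (if a consumer wants one more countable exclusion). -/
theorem not_countable_good {E : Type*} [Countable E] (U : E → Set ℝ)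
    (hU : ∀ e, ∀ r : ℚ, U e ∈ 𝓝 (r : ℝ)) {N J : Set ℝ} (hN : N.Countable) (hJ : IsOpen J)
    (hne : J.Nonempty) : ¬ {x | x ∈ J ∧ x ∉ N ∧ ∀ e, x ∈ U e}.Countable := by
  intro hc
  obtain ⟨x, h1, h2, h3⟩ := exists_off U hU (hN.union hc) hJ hne
  exact h2 (Or.inr ⟨h1, fun h => h2 (Or.inl h), h3⟩)

end Crest.Agent.R281.Arc1_902
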