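import Mathlib

/-!
# CUSP-LIFT, part 1 (row 281, helper473)

The majorant of the ternary form `2ac + N b²` at a point of the upper half plane, discreteness of
a lattice, and the lifting of a vertical ray through a period map up to the cusp `e = (0,0,1)`.
-/

namespace Crest.Agent.R281.CL_473

open Filter Topology Set UpperHalfPlane

/-- the ternary form `2ac + N b²` (coordinates of `a e* + b v + c e`) -/
def qb (N : ℝ) (x y : Fin 3 → ℝ) : ℝ := x 0 * y 2 + x 2 * y 0 + N * (x 1 * y 1)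

/-- pairing of `w` with the period `σ_τ = e* + τ v - (N/2) τ² e` -/
noncomputable def per (N : ℝ) (w : Fin 3 → ℝ) (τ : ℂ) : ℂ :=
  -(N / 2 : ℂ) * w 0 * τ ^ 2 + w 2 + N * w 1 * τ

/-- the majorant of `qb` at `τ` -/
noncomputable def Maj (N : ℝ) (τ : ℍ) (w : Fin 3 → ℝ) : ℝ :=
  2 / (N * τ.im ^ 2) * (w 2 + N * w 1 * τ.re - N / 2 * w 0 * τ.re ^ 2) ^ 2
    + N * τ.im ^ 2 / 2 * (w 0) ^ 2 + N * (w 1 - w 0 * τ.re) ^ 2

/-- `Maj = 2 |q(w,σ)|² / (N y²) - q(w,w)` -/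
theorem Maj_eq {N : ℝ} (hN : 0 < N) (τ : ℍ) (w : Fin 3 → ℝ) :
    Maj N τ w = 2 * Complex.normSq (per N w τ) / (N * τ.im ^ 2) - qb N w w := by
  have hy : τ.im ≠ 0 := τ.im_ne_zero
  have hper : per N w τ = ((w 2 + N * w 1 * τ.re - N / 2 * w 0 * τ.re ^ 2
      + N / 2 * w 0 * τ.im ^ 2 : ℝ) : ℂ) + ((N * τ.im * (w 1 - w 0 * τ.re) : ℝ) : ℂ) * Complex.I := by
    have h1 : (τ : ℂ) = (τ.re : ℂ) + (τ.im : ℂ) * Complex.I := by
      rw [← UpperHalfPlane.coe_re, ← UpperHalfPlane.coe_im]; exact (Complex.re_add_im _).symm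
    unfold per
    rw [h1]
    push_cast
    have hI : Complex.I ^ 2 = -1 := Complex.I_sq
    linear_combination (-(N / 2 : ℂ) * w 0 * (τ.im : ℂ) ^ 2) * hI
  rw [hper, Complex.normSq_add_mul_I]
  unfold Maj qb
  field_simp
  ring

theorem Maj_nonneg {N : ℝ} (hN : 0 < N) (τ : ℍ) (w : Fin 3 → ℝ) : 0 ≤ Maj N τ w := by
  unfold Maj; positivity

/-- Cauchy-Schwarz for the majorant -/
theorem qb_sq_le {N : ℝ} (hN : 0 < N) (τ : ℍ) (w w' : Fin 3 → ℝ) :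
    qb N w w' ^ 2 ≤ Maj N τ w * Maj N τ w' := by
  have hy : 0 < τ.im := τ.im_pos
  set y := τ.im
  set x := τ.re
  set A := w 2 + N * w 1 * x - N / 2 * w 0 * x ^ 2 with hA
  set B := w 1 - w 0 * x with hB
  set A' := w' 2 + N * w' 1 * x - N / 2 * w' 0 * x ^ 2 with hA'
  set B' := w' 1 - w' 0 * x with hB'
  have hq : qb N w w' = w 0 * A' + A * w' 0 + N * (B * B') := by
    simp only [qb, hA, hB, hA', hB']; ring
  have hM : Maj N τ w = 2 / (N * y ^ 2) * A ^ 2 + N * y ^ 2 / 2 * (w 0) ^ 2 + N * B ^ 2 := rfl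
  have hM' : Maj N τ w' = 2 / (N * y ^ 2) * A' ^ 2 + N * y ^ 2 / 2 * (w' 0) ^ 2 + N * B' ^ 2 := rfl
  rw [hq, hM, hM']
  set s := 2 / (N * y ^ 2) with hs
  have hs' : N * y ^ 2 / 2 = 1 / s := by rw [hs]; field_simp
  have hs0 : 0 < s := by rw [hs]; positivity
  rw [hs']
  have key : (s * A ^ 2 + 1 / s * (w 0) ^ 2 + N * B ^ 2) * (s * A' ^ 2 + 1 / s * (w' 0) ^ 2 + N * B' ^ 2)
      - (w 0 * A' + A * w' 0 + N * (B * B')) ^ 2
      = (s * A * A' - 1 / s * (w 0) * (w' 0)) ^ 2 + N / s * (w 0 * B' - s * B * A') ^ 2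
        + N / s * (s * A * B' - B * w' 0) ^ 2 := by
    field_simp
    ring
  have h0 : 0 ≤ (s * A * A' - 1 / s * (w 0) * (w' 0)) ^ 2 + N / s * (w 0 * B' - s * B * A') ^ 2
        + N / s * (s * A * B' - B * w' 0) ^ 2 := by positivity
  linarith

/-- an isotropic vector of zero product with `e` is a multiple of `e` -/
theorem iso_par {N : ℝ} (hN : 0 < N) {w : Fin 3 → ℝ} (h0 : qb N w w = 0)
    (h1 : qb N w ![0, 0, 1] = 0) : w = (w 2) • ![0, 0, 1] := by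
  have ha : w 0 = 0 := by simpa [qb] using h1
  have hb : w 1 = 0 := by
    have : N * (w 1 * w 1) = 0 := by simpa [qb, ha] using h0
    rcases mul_eq_zero.mp this with h | h
    · exact absurd h hN.ne'
    · exact mul_self_eq_zero.mp h
  ext i; fin_cases i <;> simp [ha, hb]

/-- uniform positivity of the majorant over a compact set -/
theorem Maj_lower {N : ℝ} (hN : 0 < N) {C : Set ℍ} (hC : IsCompact C) :
    ∃ c > 0, ∀ τ ∈ C, ∀ w : Fin 3 → ℝ, ∀ i, c * |w i| ^ 2 ≤ Maj N τ w := by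
  rcases C.eq_empty_or_nonempty with rfl | hne
  · exact ⟨1, one_pos, by simp⟩
  have hcre : Continuous fun τ : ℍ => τ.re := UpperHalfPlane.continuous_re
  have hcim : Continuous fun τ : ℍ => τ.im := UpperHalfPlane.continuous_im
  obtain ⟨X, hX⟩ := (hC.image hcre.abs).bddAbove
  obtain ⟨Y, hY⟩ := (hC.image hcim).bddAbove
  obtain ⟨τ0, hτ0, hmin⟩ := hC.exists_isMinOn hne hcim.continuousOn
  set m := τ0.im
  have hm : 0 < m := τ0.im_pos
  have hX' : ∀ τ ∈ C, |τ.re| ≤ X := fun τ h => hX ⟨τ, h, rfl⟩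
  have hY' : ∀ τ ∈ C, τ.im ≤ Y := fun τ h => hY ⟨τ, h, rfl⟩
  have hm' : ∀ τ ∈ C, m ≤ τ.im := fun τ h => hmin h
  have hX0 : 0 ≤ X := (abs_nonneg _).trans (hX' τ0 hτ0)
  have hY0 : 0 < Y := lt_of_lt_of_le hm (hY' τ0 hτ0)
  -- |w0|^2 ≤ c0 Maj, |w1|^2 ≤ c1 Maj, |w2|^2 ≤ c2 Maj
  set c0 := 2 / (N * m ^ 2) with hc0
  have hc0p : 0 < c0 := by positivity
  set c1 := 2 / N + 2 * X ^ 2 * c0 with hc1
  have hc1p : 0 < c1 := by positivity
  set c2 := 3 * (N * Y ^ 2 / 2) + 3 * (N * X) ^ 2 * c1 + 3 * (N / 2 * X ^ 2) ^ 2 * c0 with hc2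
  have hc2p : 0 < c2 := by positivity
  have b0 : ∀ τ ∈ C, ∀ w : Fin 3 → ℝ, (w 0) ^ 2 ≤ c0 * Maj N τ w := by
    intro τ hτ w
    have h1 : N * m ^ 2 / 2 * (w 0) ^ 2 ≤ Maj N τ w := by
      have hmm : m ^ 2 ≤ τ.im ^ 2 := pow_le_pow_left₀ hm.le (hm' τ hτ) 2
      have : N * m ^ 2 / 2 * (w 0) ^ 2 ≤ N * τ.im ^ 2 / 2 * (w 0) ^ 2 := by gcongr
      unfold Maj
      have p1 : 0 ≤ 2 / (N * τ.im ^ 2) * (w 2 + N * w 1 * τ.re - N / 2 * w 0 * τ.re ^ 2) ^ 2 := by positivity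
      have p2 : 0 ≤ N * (w 1 - w 0 * τ.re) ^ 2 := by positivity
      linarith
    calc (w 0) ^ 2 = c0 * (N * m ^ 2 / 2 * (w 0) ^ 2) := by rw [hc0]; field_simp
      _ ≤ c0 * Maj N τ w := by gcongr
  have b1 : ∀ τ ∈ C, ∀ w : Fin 3 → ℝ, (w 1) ^ 2 ≤ c1 * Maj N τ w := by
    intro τ hτ w
    have h1 : (w 1 - w 0 * τ.re) ^ 2 ≤ 1 / N * Maj N τ w := by
      have : N * (w 1 - w 0 * τ.re) ^ 2 ≤ Maj N τ w := by
        unfold Maj
        have p1 : 0 ≤ 2 / (N * τ.im ^ 2) * (w 2 + N * w 1 * τ.re - N / 2 * w 0 * τ.re ^ 2) ^ 2 := by positivity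
        have p2 : 0 ≤ N * τ.im ^ 2 / 2 * (w 0) ^ 2 := by positivity
        linarith
      calc (w 1 - w 0 * τ.re) ^ 2 = 1 / N * (N * (w 1 - w 0 * τ.re) ^ 2) := by field_simp
        _ ≤ _ := by gcongr
    have h2 : (w 0 * τ.re) ^ 2 ≤ X ^ 2 * (c0 * Maj N τ w) := by
      have : τ.re ^ 2 ≤ X ^ 2 := by
        rw [← sq_abs τ.re]; exact pow_le_pow_left₀ (abs_nonneg _) (hX' τ hτ) 2
      calc (w 0 * τ.re) ^ 2 = τ.re ^ 2 * (w 0) ^ 2 := by ring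
        _ ≤ X ^ 2 * (c0 * Maj N τ w) := by
          have := b0 τ hτ w
          have := Maj_nonneg hN τ w
          gcongr
    have h3 : (w 1) ^ 2 ≤ 2 * (w 1 - w 0 * τ.re) ^ 2 + 2 * (w 0 * τ.re) ^ 2 := by
      nlinarith [sq_nonneg (w 1 - w 0 * τ.re - w 0 * τ.re)]
    calc (w 1) ^ 2 ≤ 2 * (1 / N * Maj N τ w) + 2 * (X ^ 2 * (c0 * Maj N τ w)) := by linarith
      _ = c1 * Maj N τ w := by rw [hc1]; ring
  have b2 : ∀ τ ∈ C, ∀ w : Fin 3 → ℝ, (w 2) ^ 2 ≤ c2 * Maj N τ w := by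
    intro τ hτ w
    set D := w 2 + N * w 1 * τ.re - N / 2 * w 0 * τ.re ^ 2 with hD
    have hMn := Maj_nonneg hN τ w
    have hre2 : τ.re ^ 2 ≤ X ^ 2 := by
      rw [← sq_abs τ.re]; exact pow_le_pow_left₀ (abs_nonneg _) (hX' τ hτ) 2
    have h1 : D ^ 2 ≤ N * Y ^ 2 / 2 * Maj N τ w := by
      have : 2 / (N * Y ^ 2) * D ^ 2 ≤ Maj N τ w := by
        have e1 : 2 / (N * Y ^ 2) * D ^ 2 ≤ 2 / (N * τ.im ^ 2) * D ^ 2 := by
          have hyp : 0 < τ.im := τ.im_pos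
          have : τ.im ^ 2 ≤ Y ^ 2 := pow_le_pow_left₀ hyp.le (hY' τ hτ) 2
          gcongr
        have hMM : Maj N τ w = 2 / (N * τ.im ^ 2) * D ^ 2 + N * τ.im ^ 2 / 2 * (w 0) ^ 2
          + N * (w 1 - w 0 * τ.re) ^ 2 := rfl
        have p1 : 0 ≤ N * (w 1 - w 0 * τ.re) ^ 2 := by positivity
        have p2 : 0 ≤ N * τ.im ^ 2 / 2 * (w 0) ^ 2 := by positivity
        linarith
      calc D ^ 2 = N * Y ^ 2 / 2 * (2 / (N * Y ^ 2) * D ^ 2) := by field_simp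
        _ ≤ _ := by gcongr
    have h2 : (N * w 1 * τ.re) ^ 2 ≤ (N * X) ^ 2 * (c1 * Maj N τ w) := by
      calc (N * w 1 * τ.re) ^ 2 = N ^ 2 * (τ.re ^ 2 * (w 1) ^ 2) := by ring
        _ ≤ N ^ 2 * (X ^ 2 * (c1 * Maj N τ w)) := by
          have := b1 τ hτ w
          gcongr
        _ = _ := by ring
    have h3 : (N / 2 * w 0 * τ.re ^ 2) ^ 2 ≤ (N / 2 * X ^ 2) ^ 2 * (c0 * Maj N τ w) := by
      calc (N / 2 * w 0 * τ.re ^ 2) ^ 2 = (N / 2) ^ 2 * ((τ.re ^ 2) ^ 2 * (w 0) ^ 2) := by ring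
        _ ≤ (N / 2) ^ 2 * ((X ^ 2) ^ 2 * (c0 * Maj N τ w)) := by
          have := b0 τ hτ w
          gcongr
        _ = _ := by ring
    have h4 : (w 2) ^ 2 ≤ 3 * D ^ 2 + 3 * (N * w 1 * τ.re) ^ 2 + 3 * (N / 2 * w 0 * τ.re ^ 2) ^ 2 := by
      have : w 2 = D - N * w 1 * τ.re + N / 2 * w 0 * τ.re ^ 2 := by rw [hD]; ring
      rw [this]
      have hh : ∀ p q r : ℝ, (p - q + r) ^ 2 ≤ 3 * p ^ 2 + 3 * q ^ 2 + 3 * r ^ 2 := by
        intro p q r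
        nlinarith [sq_nonneg (p + q), sq_nonneg (p - r), sq_nonneg (q + r)]
      exact hh _ _ _
    calc (w 2) ^ 2 ≤ 3 * (N * Y ^ 2 / 2 * Maj N τ w) + 3 * ((N * X) ^ 2 * (c1 * Maj N τ w))
        + 3 * ((N / 2 * X ^ 2) ^ 2 * (c0 * Maj N τ w)) := by linarith
      _ = c2 * Maj N τ w := by rw [hc2]; ring
  set c := c0 + c1 + c2 with hc
  have hcp : 0 < c := by positivity
  refine ⟨1 / c, by positivity, fun τ hτ w i => ?_⟩
  have hMn := Maj_nonneg hN τ w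
  rw [sq_abs]
  have : (w i) ^ 2 ≤ c * Maj N τ w := by
    fin_cases i
    · have := b0 τ hτ w
      have : c0 * Maj N τ w ≤ c * Maj N τ w := by gcongr; linarith
      simp only [Fin.zero_eta]; linarith
    · have := b1 τ hτ w
      have : c1 * Maj N τ w ≤ c * Maj N τ w := by gcongr; linarith
      simp only [Fin.mk_one]; linarith
    · have := b2 τ hτ w
      have : c2 * Maj N τ w ≤ c * Maj N τ w := by gcongr; linarith
      simp only [Fin.reduceFinMk]; linarith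
  calc 1 / c * (w i) ^ 2 ≤ 1 / c * (c * Maj N τ w) := by gcongr
    _ = Maj N τ w := by field_simp

theorem Maj_upper {N : ℝ} (hN : 0 < N) {C : Set ℍ} (hC : IsCompact C) (w : Fin 3 → ℝ) :
    ∃ R, ∀ τ ∈ C, Maj N τ w ≤ R := by
  have hcre : Continuous fun τ : ℍ => τ.re := UpperHalfPlane.continuous_re
  have hcim : Continuous fun τ : ℍ => τ.im := UpperHalfPlane.continuous_im
  have hcont : Continuous fun τ : ℍ => Maj N τ w := by
    unfold Maj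
    have h : ∀ τ : ℍ, N * τ.im ^ 2 ≠ 0 := fun τ => by have := τ.im_pos; positivity
    fun_prop (disch := assumption)
  obtain ⟨R, hR⟩ := (hC.image hcont).bddAbove
  exact ⟨R, fun τ hτ => hR ⟨τ, hτ, rfl⟩⟩

/-- a lattice on which `qb` is integral, containing `e = (0,0,1)` -/
structure Lat (N : ℝ) (Λ : Set (Fin 3 → ℝ)) : Prop where
  fin : ∀ R : ℝ, {w | w ∈ Λ ∧ ∀ i, |w i| ≤ R}.Finite
  span : Submodule.span ℝ Λ = ⊤
  int : ∀ w ∈ Λ, ∀ w' ∈ Λ, ∃ k : ℤ, qb N w w' = k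
  e_mem : ![0, 0, 1] ∈ Λ

/-- vectors of `Λ` of bounded majorant over a compact set are finitely many -/
theorem Lat.fin_maj {N : ℝ} (hN : 0 < N) {Λ : Set (Fin 3 → ℝ)} (hΛ : Lat N Λ) {C : Set ℍ}
    (hC : IsCompact C) (R : ℝ) : {w | w ∈ Λ ∧ ∃ τ ∈ C, Maj N τ w ≤ R}.Finite := by
  obtain ⟨c, hc, h⟩ := Maj_lower hN hC
  refine (hΛ.fin (Real.sqrt (R / c))).subset ?_
  rintro w ⟨hw, τ, hτ, hR⟩
  refine ⟨hw, fun i => ?_⟩
  apply Real.le_sqrt_of_sq_le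
  rw [le_div_iff₀ hc]
  have := h τ hτ w i
  linarith

/-- a uniform lower bound for the majorant of nonzero lattice vectors over a compact set -/
theorem Lat.maj_pos {N : ℝ} (hN : 0 < N) {Λ : Set (Fin 3 → ℝ)} (hΛ : Lat N Λ) {C : Set ℍ}
    (hC : IsCompact C) : ∃ c > 0, ∀ τ ∈ C, ∀ w ∈ Λ, w ≠ 0 → c ≤ Maj N τ w := by
  obtain ⟨c, hc, h⟩ := Maj_lower hN hC
  have hfin := hΛ.fin_maj hN hC 1
  -- lower bound of max |w i|^2 over a finite set of nonzero vectors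
  have : ∃ m > 0, ∀ w, (w ∈ Λ ∧ ∃ τ ∈ C, Maj N τ w ≤ 1) → w ≠ 0 → ∃ i, m ≤ |w i| ^ 2 := by
    classical
    set S := hfin.toFinset.filter (fun w => w ≠ 0) with hS
    rcases S.eq_empty_or_nonempty with hE | hne
    · refine ⟨1, one_pos, fun w hw hw0 => ?_⟩
      exfalso
      have : w ∈ S := by rw [hS, Finset.mem_filter]; exact ⟨hfin.mem_toFinset.mpr hw, hw0⟩
      rw [hE] at this; simp at this
    · let F : (Fin 3 → ℝ) → ℝ := fun w => ‖w‖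
      obtain ⟨w0, hw0, hmin⟩ := S.exists_min_image F hne
      have hw0' : w0 ≠ 0 := (Finset.mem_filter.mp hw0).2
      have hpos : 0 < ‖w0‖ := norm_pos_iff.mpr hw0'
      refine ⟨‖w0‖ ^ 2, by positivity, fun w hw hwn => ?_⟩
      have hwS : w ∈ S := by rw [hS, Finset.mem_filter]; exact ⟨hfin.mem_toFinset.mpr hw, hwn⟩
      have h1 : ‖w0‖ ≤ ‖w‖ := hmin w hwS
      obtain ⟨i, hi⟩ : ∃ i, ‖w‖ = |w i| := by
        obtain ⟨i, -, hi⟩ := Finset.exists_max_image (Finset.univ : Finset (Fin 3))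
          (fun i => |w i|) ⟨0, Finset.mem_univ _⟩
        refine ⟨i, le_antisymm ?_ (norm_le_pi_norm w i)⟩
        rw [pi_norm_le_iff_of_nonneg (abs_nonneg _)]
        intro j; exact hi j (Finset.mem_univ _)
      refine ⟨i, ?_⟩
      rw [← hi]
      exact pow_le_pow_left₀ (norm_nonneg _) h1 2
  obtain ⟨m, hm, hmm⟩ := this
  refine ⟨min 1 (c * m), lt_min one_pos (by positivity), fun τ hτ w hw hw0 => ?_⟩
  by_cases h1 : Maj N τ w ≤ 1
  · obtain ⟨i, hi⟩ := hmm w ⟨hw, τ, hτ, h1⟩ hw0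
    calc min 1 (c * m) ≤ c * m := min_le_right _ _
      _ ≤ c * |w i| ^ 2 := by gcongr
      _ ≤ _ := h τ hτ w i
  · exact (min_le_left _ _).trans (not_le.mp h1).le

/-- isometries of the majorants between points of compact sets, preserving `Λ`: finitely many -/
theorem Lat.fin_map {N : ℝ} (hN : 0 < N) {Λ : Set (Fin 3 → ℝ)} (hΛ : Lat N Λ) {C C' : Set ℍ}
    (hC : IsCompact C) (hC' : IsCompact C') :
    {A : (Fin 3 → ℝ) →ₗ[ℝ] (Fin 3 → ℝ) | (∀ w ∈ Λ, A w ∈ Λ) ∧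
      ∃ τ ∈ C, ∃ τ' ∈ C', ∀ w, Maj N τ' (A w) = Maj N τ w}.Finite := by
  classical
  -- a finite spanning subset of Λ
  obtain ⟨b, hbΛ, hbspan, hbind⟩ := exists_linearIndependent ℝ Λ
  have hbfin : b.Finite := hbind.setFinite
  rw [hΛ.span] at hbspan
  choose R hR using fun w : Fin 3 → ℝ => Maj_upper hN hC w
  -- finite target
  have hT : ∀ w, {w' | w' ∈ Λ ∧ ∃ τ ∈ C', Maj N τ w' ≤ R w}.Finite := fun w => hΛ.fin_maj hN hC' (R w)
  have := hbfin.fintype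
  have hpi : (Set.univ.pi fun w : b => {w' | w' ∈ Λ ∧ ∃ τ ∈ C', Maj N τ w' ≤ R w}).Finite :=
    Set.Finite.pi fun w => hT w
  refine Set.Finite.of_finite_image (f := fun A : (Fin 3 → ℝ) →ₗ[ℝ] (Fin 3 → ℝ) =>
    (fun w : b => A w)) (hpi.subset ?_) ?_
  · rintro _ ⟨A, ⟨hA, τ, hτ, τ', hτ', hM⟩, rfl⟩
    intro w _
    exact ⟨hA _ (hbΛ w.2), τ', hτ', by simpa [hM] using hR w τ hτ⟩
  · intro A _ A' _ hAA'
    have h : ∀ w ∈ b, A w = A' w := fun w hw => congrFun hAA' ⟨w, hw⟩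
    apply LinearMap.ext_on_range (v := fun w : b => (w : Fin 3 → ℝ))
    · rw [Subtype.range_coe]; exact hbspan
    · intro w; exact h w w.2

end Crest.Agent.R281.CL_473
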