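import Mathlib
import Crest.Agent.R281.CL1_473

/-!
# CUSP-LIFT, part 2 (row 281, helper473): lifting the vertical ray to the cusp `e`
-/

namespace Crest.Agent.R281.CL_473

open Filter Topology Set UpperHalfPlane

/-- the vertical ray as a map to `ℍ` (junk for `y ≤ 0`) -/
noncomputable def ray (a y : ℝ) : ℍ :=
  if h : 0 < y then ⟨(a : ℂ) + y * Complex.I, by simpa using h⟩ else UpperHalfPlane.I

theorem ray_coe {a y : ℝ} (h : 0 < y) : (ray a y : ℂ) = (a : ℂ) + y * Complex.I := by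
  simp [ray, h]

theorem ray_re {a y : ℝ} (h : 0 < y) : (ray a y).re = a := by
  rw [← UpperHalfPlane.coe_re, ray_coe h]; simp

theorem ray_im {a y : ℝ} (h : 0 < y) : (ray a y).im = y := by
  rw [← UpperHalfPlane.coe_im, ray_coe h]; simp

theorem ray_continuousOn (a : ℝ) : ContinuousOn (ray a) (Ioi 0) := by
  rw [continuousOn_iff_continuous_domRestrict, UpperHalfPlane.isEmbedding_coe.continuous_iff]
  have : (UpperHalfPlane.coe ∘ (Ioi (0 : ℝ)).domRestrict (ray a)) = fun y : Ioi (0 : ℝ) =>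
      (a : ℂ) + (y : ℝ) * Complex.I := by
    funext y
    exact ray_coe y.2
  rw [this]
  fun_prop

theorem Maj_ray {N a y : ℝ} (h : 0 < y) : Maj N (ray a y) ![0, 0, 1] = 2 / (N * y ^ 2) := by
  simp [Maj, ray_re h, ray_im h]

/-- The input data of the lifting theorem: a space `E` with an action of a group `G`, an
equivariant map to `ℍ`, a compact core and finitely many ends. -/
structure Dat (N : ℝ) (Λ : Set (Fin 3 → ℝ)) (G : Type*) [Group G] [MulAction G ℍ]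
    (E : Type*) [TopologicalSpace E] [MulAction G E] (ι : Type*) where
  /-- the linear action -/
  ρ : G → (Fin 3 → ℝ) →ₗ[ℝ] (Fin 3 → ℝ)
  ρ_mem : ∀ g, ∀ w ∈ Λ, ρ g w ∈ Λ
  ρ_iso : ∀ g w, qb N (ρ g w) (ρ g w) = qb N w w
  ρ_maj : ∀ (g : G) (τ : ℍ) (w : Fin 3 → ℝ), Maj N (g • τ) (ρ g w) = Maj N τ w
  act : ∀ g g' : G, ρ g = ρ g' → ∀ τ : ℍ, g • τ = g' • τ
  act_cont : ∀ g : G, Continuous fun τ : ℍ => g • τ
  act_E : ∀ g : G, Continuous fun x : E => g • x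
  /-- the period map -/
  Φ : E → ℍ
  Φ_cont : Continuous Φ
  Φ_equiv : ∀ (g : G) (x : E), Φ (g • x) = g • Φ x
  /-- the compact core -/
  K : Set E
  K_comp : IsCompact K
  /-- the ends -/
  ε : ι → ℂ → E
  ε_cont : ∀ i, ContinuousOn (ε i) {z | 1 ≤ z.im}
  ε_per : ∀ i z, 1 ≤ z.im → ∃ g : G, ε i (z + 1) = g • ε i z
  cover : ∀ x : E, ∃ g : G, ∃ a, x = g • a ∧ (a ∈ K ∨ ∃ i z, 1 ≤ z.im ∧ a = ε i z)
  /-- bad values -/
  Bad : Set ℍ
  Bad_inv : ∀ (g : G), ∀ τ ∈ Bad, g • τ ∈ Bad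
  /-- local homeomorphism off the bad values -/
  good : ∀ x, Φ x ∉ Bad → ∃ s : ℍ → E, ∃ U ∈ 𝓝 x, ∃ V ∈ 𝓝 (Φ x), ContinuousOn s V ∧
    (∀ τ ∈ V, Φ (s τ) = τ) ∧ ∀ x' ∈ U, s (Φ x') = x'
  /-- cusp ends carry an isotropic vector -/
  cusp : ι → Prop
  w : ι → Fin 3 → ℝ
  w_mem : ∀ i, cusp i → w i ∈ Λ ∧ w i ≠ 0 ∧ qb N (w i) (w i) = 0
  w_lim : ∀ i, cusp i → ∀ δ > 0, ∃ T, ∀ z : ℂ, 1 ≤ z.im → T ≤ z.im → Maj N (Φ (ε i z)) (w i) < δ
  /-- interior ends -/
  pt : ι → ℍ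
  pt_bad : ∀ i, ¬ cusp i → pt i ∈ Bad
  pt_lim : ∀ i, ¬ cusp i → ∀ W ∈ 𝓝 (pt i), ∃ T, ∀ z : ℂ, 1 ≤ z.im → T ≤ z.im → Φ (ε i z) ∈ W

namespace Dat

variable {N : ℝ} {Λ : Set (Fin 3 → ℝ)} {G : Type*} [Group G] [MulAction G ℍ]
  {E : Type*} [TopologicalSpace E] [MulAction G E] {ι : Type*}

theorem ε_per_nat (D : Dat N Λ G E ι) (i : ι) (n : ℕ) :
    ∀ z : ℂ, 1 ≤ z.im → ∃ g : G, D.ε i (z + n) = g • D.ε i z := by
  induction n with
  | zero => intro z _; exact ⟨1, by simp⟩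
  | succ n ih =>
    intro z hz
    obtain ⟨g, hg⟩ := ih z hz
    obtain ⟨g', hg'⟩ := D.ε_per i (z + n) (by simpa using hz)
    refine ⟨g' * g, ?_⟩
    rw [mul_smul, ← hg, ← hg']
    congr 1; push_cast; ring

theorem ε_per_int (D : Dat N Λ G E ι) (i : ι) (n : ℤ) :
    ∀ z : ℂ, 1 ≤ z.im → ∃ g : G, D.ε i z = g • D.ε i (z - n) := by
  intro z hz
  rcases n with n | n
  · obtain ⟨g, hg⟩ := D.ε_per_nat i n (z - n) (by simpa using hz)
    refine ⟨g, ?_⟩
    simpa using hg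
  · obtain ⟨g, hg⟩ := D.ε_per_nat i (n + 1) z hz
    refine ⟨g⁻¹, ?_⟩
    rw [eq_inv_smul_iff, ← hg]
    congr 1; push_cast; ring

/-- the compact piece at height `T` of an end -/
def box (D : Dat N Λ G E ι) (i : ι) (T : ℝ) : Set E :=
  D.ε i '' {z : ℂ | z.re ∈ Icc 0 1 ∧ z.im ∈ Icc 1 T}

theorem box_compact (D : Dat N Λ G E ι) (i : ι) (T : ℝ) : IsCompact (D.box i T) := by
  apply IsCompact.image_of_continuousOn
  · have : {z : ℂ | z.re ∈ Icc 0 1 ∧ z.im ∈ Icc 1 T} = Icc (0 : ℝ) 1 ×ℂ Icc 1 T := by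
      ext z; simp [Complex.mem_reProdIm]
    rw [this]
    exact isCompact_Icc.reProdIm isCompact_Icc
  · exact (D.ε_cont i).mono fun z hz => hz.2.1

/-- for every `z` of height `≤ T` the point `ε z` is a translate of a point of the box -/
theorem mem_box (D : Dat N Λ G E ι) (i : ι) {T : ℝ} {z : ℂ} (hz : 1 ≤ z.im) (hT : z.im ≤ T) :
    ∃ g : G, ∃ a ∈ D.box i T, D.ε i z = g • a := by
  obtain ⟨g, hg⟩ := D.ε_per_int i ⌊z.re⌋ z hz
  refine ⟨g, _, ⟨z - ⌊z.re⌋, ⟨⟨?_, ?_⟩, ?_, ?_⟩, rfl⟩, hg⟩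
  · simp
  · simpa using (Int.fract_lt_one z.re).le
  · simpa using hz
  · simpa using hT

/-- all compact pieces at height `T` together -/
def big (D : Dat N Λ G E ι) (T : ℝ) : Set E := D.K ∪ ⋃ i, D.box i T

theorem big_compact [Finite ι] (D : Dat N Λ G E ι) (T : ℝ) : IsCompact (D.big T) :=
  D.K_comp.union (isCompact_iUnion fun i => D.box_compact i T)

/-- **thick-thin**: for every `T` every point is a translate of a point of the compact set `big T`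
or of a point of height `≥ T` of an end -/
theorem thick_thin (D : Dat N Λ G E ι) (T : ℝ) (x : E) :
    ∃ g : G, ∃ a, x = g • a ∧ (a ∈ D.big T ∨ ∃ i z, 1 ≤ z.im ∧ T ≤ z.im ∧ a = D.ε i z) := by
  obtain ⟨g, a, rfl, h⟩ := D.cover x
  rcases h with h | ⟨i, z, hz, rfl⟩
  · exact ⟨g, a, rfl, Or.inl (Or.inl h)⟩
  · rcases le_total T z.im with hT | hT
    · exact ⟨g, _, rfl, Or.inr ⟨i, z, hz, hT, rfl⟩⟩
    · obtain ⟨g', a, ha, he⟩ := D.mem_box i hz hT
      refine ⟨g * g', a, ?_, Or.inl (Or.inr (mem_iUnion.mpr ⟨i, ha⟩))⟩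
      rw [he, mul_smul]

/-- the majorant pulled back by the inverse -/
theorem maj_inv (D : Dat N Λ G E ι) (g : G) (x : E) (v : Fin 3 → ℝ) :
    Maj N (D.Φ x) (D.ρ g⁻¹ v) = Maj N (D.Φ (g • x)) v := by
  have := D.ρ_maj g⁻¹ (D.Φ (g • x)) v
  rw [D.Φ_equiv, inv_smul_smul] at this
  rw [this, D.Φ_equiv]

/-- a lift of the ray over `[b,Y]` -/
def Lift (D : Dat N Λ G E ι) (x0 : E) (a b Y : ℝ) (c : ℝ → E) : Prop :=
  ContinuousOn c (Icc b Y) ∧ c b = x0 ∧ ∀ y ∈ Icc b Y, D.Φ (c y) = ray a y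

theorem Lift.mono {D : Dat N Λ G E ι} {x0 : E} {a b Y Y' : ℝ} {c : ℝ → E}
    (h : D.Lift x0 a b Y c) (hY : Y' ≤ Y) : D.Lift x0 a b Y' c :=
  ⟨h.1.mono (Icc_subset_Icc_right hY), h.2.1, fun y hy => h.2.2 y ⟨hy.1, hy.2.trans hY⟩⟩

/-- two elements with the same linear part have inverses acting in the same way -/
theorem act_inv (D : Dat N Λ G E ι) {g g' : G} (h : D.ρ g = D.ρ g') (τ : ℍ) :
    g⁻¹ • τ = g'⁻¹ • τ := by
  rw [inv_smul_eq_iff, D.act _ _ h, smul_inv_smul]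

/-- **extension**: lifts over `[b,y]` for `y` arbitrarily near `Ys` extend beyond `Ys` -/
theorem extend [Finite ι] (D : Dat N Λ G E ι) (hN : 0 < N) (hΛ : Lat N Λ) {x0 : E} {a b Ys : ℝ}
    (hb : 0 < b) (hYs : b ≤ Ys) (hbad : ray a Ys ∉ D.Bad)
    (hseq : ∀ n : ℕ, ∃ y ∈ Icc b Ys, Ys - 1 / ((n : ℝ) + 1) < y ∧ ∃ c, D.Lift x0 a b y c) :
    ∃ Y' > Ys, ∃ c, D.Lift x0 a b Y' c := by
  classical
  choose y hy hy' c hc using hseq
  have hYs0 : 0 < Ys := lt_of_lt_of_le hb hYs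
  -- the sequence tends to Ys
  have hylim : Tendsto y atTop (𝓝 Ys) := by
    have h1 : Tendsto (fun n : ℕ => Ys - 1 / ((n : ℝ) + 1)) atTop (𝓝 Ys) := by
      have := tendsto_one_div_add_atTop_nhds_zero_nat (𝕜 := ℝ)
      simpa using tendsto_const_nhds.sub this
    exact tendsto_of_tendsto_of_tendsto_of_le_of_le h1 tendsto_const_nhds
      (fun n => (hy' n).le) (fun n => (hy n).2)
  have hraycont : ContinuousAt (ray a) Ys := (ray_continuousOn a).continuousAt (Ioi_mem_nhds hYs0)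
  -- endpoints
  set p : ℕ → E := fun n => c n (y n) with hp
  have hΦp : ∀ n, D.Φ (p n) = ray a (y n) := fun n => (hc n).2.2 (y n) ⟨(hy n).1, le_rfl⟩
  -- compact set of the ray
  set C : Set ℍ := ray a '' Icc b Ys with hC
  have hCc : IsCompact C := isCompact_Icc.image_of_continuousOn
    ((ray_continuousOn a).mono fun t ht => lt_of_lt_of_le hb ht.1)
  have hΦC : ∀ n, D.Φ (p n) ∈ C := fun n => by rw [hΦp]; exact ⟨y n, hy n, rfl⟩
  set 𝒰 : Ultrafilter ℕ := hyperfilter ℕ with h𝒰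
  have hle : (𝒰 : Filter ℕ) ≤ atTop := by
    rw [← Nat.cofinite_eq_atTop]; exact hyperfilter_le_cofinite
  have hΦlim : Tendsto (fun n => D.Φ (p n)) 𝒰 (𝓝 (ray a Ys)) := by
    have : Tendsto (fun n => ray a (y n)) atTop (𝓝 (ray a Ys)) := hraycont.tendsto.comp hylim
    exact (this.mono_left hle).congr fun n => (hΦp n).symm
  -- constancy of the linear part
  have hconst : ∀ (g : ℕ → G) (q : ℕ → E) (W : Set ℍ), IsCompact W → (∀ n, p n = g n • q n) →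
      (∀ᶠ n in (𝒰 : Filter ℕ), D.Φ (q n) ∈ W) →
      ∃ m, ∀ᶠ n in (𝒰 : Filter ℕ), D.ρ (g n) = D.ρ (g m) := by
    intro g q W hW hgq hqW
    have hfin := hΛ.fin_map hN hW hCc
    have hmem : ∀ᶠ n in (𝒰 : Filter ℕ), D.ρ (g n) ∈ {A : (Fin 3 → ℝ) →ₗ[ℝ] (Fin 3 → ℝ) |
        (∀ w ∈ Λ, A w ∈ Λ) ∧ ∃ τ ∈ W, ∃ τ' ∈ C, ∀ w, Maj N τ' (A w) = Maj N τ w} := by
      filter_upwards [hqW] with n hn
      refine ⟨D.ρ_mem _, _, hn, _, hΦC n, fun w => ?_⟩
      rw [hgq n, D.Φ_equiv]; exact D.ρ_maj _ _ _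
    obtain ⟨A, -, hA⟩ := (Ultrafilter.eventually_exists_mem_iff (P := fun A n => D.ρ (g n) = A)
      hfin).mp (hmem.mono fun n hn => ⟨_, hn, rfl⟩)
    obtain ⟨m, hm⟩ := hA.exists
    exact ⟨m, hA.mono fun n hn => by rw [hn, hm]⟩
  -- bounded height: there are T and representatives in `big T`
  have hmain : ∃ T, ∀ᶠ n in (𝒰 : Filter ℕ), ∃ g : G, ∃ q ∈ D.big T, p n = g • q := by
    choose g q hgq hq using fun n => D.cover (p n)
    rcases Ultrafilter.eventually_or.mp (Filter.Eventually.of_forall hq :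
      ∀ᶠ n in (𝒰 : Filter ℕ), (q n ∈ D.K ∨ ∃ i z, 1 ≤ z.im ∧ q n = D.ε i z)) with h | h
    · exact ⟨0, h.mono fun n hn => ⟨g n, q n, Or.inl hn, hgq n⟩⟩
    · have h' : ∀ᶠ n in (𝒰 : Filter ℕ), ∃ i ∈ (Set.univ : Set ι), ∃ z : ℂ, 1 ≤ z.im ∧
          q n = D.ε i z := h.mono fun n ⟨i, z, hz⟩ => ⟨i, mem_univ _, z, hz⟩
      obtain ⟨i, -, hi⟩ := (Ultrafilter.eventually_exists_mem_iff
        (P := fun i n => ∃ z : ℂ, 1 ≤ z.im ∧ q n = D.ε i z) Set.finite_univ).mp h'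
      -- choose z
      have hz : ∃ z : ℕ → ℂ, ∀ᶠ n in (𝒰 : Filter ℕ), 1 ≤ (z n).im ∧ q n = D.ε i (z n) := by
        refine ⟨fun n => if hn : ∃ z : ℂ, 1 ≤ z.im ∧ q n = D.ε i z then hn.choose else 0, ?_⟩
        filter_upwards [hi] with n hn
        rw [dif_pos hn]; exact hn.choose_spec
      obtain ⟨z, hz⟩ := hz
      by_cases hT : ∃ T, ∀ᶠ n in (𝒰 : Filter ℕ), (z n).im ≤ T
      · obtain ⟨T, hT⟩ := hT
        refine ⟨T, ?_⟩
        filter_upwards [hz, hT] with n hn hTn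
        obtain ⟨g', q', hq', he⟩ := D.mem_box i hn.1 hTn
        exact ⟨g n * g', q', Or.inr (mem_iUnion.mpr ⟨i, hq'⟩), by
          rw [hgq n, hn.2, he, mul_smul]⟩
      · exfalso
        push Not at hT
        have hT' : ∀ T, ∀ᶠ n in (𝒰 : Filter ℕ), T ≤ (z n).im := by
          intro T
          exact (hT T).mono fun n hn => hn.le
        by_cases hcusp : D.cusp i
        · -- cusp: the isotropic vector is too short
          obtain ⟨δ, hδ, hδ'⟩ := hΛ.maj_pos hN hCc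
          obtain ⟨T, hT2⟩ := D.w_lim i hcusp δ hδ
          obtain ⟨n, ⟨hn1, hn2⟩, hn3⟩ := (hz.and (hT' T)).exists
          have h1 := hT2 (z n) hn1 hn3
          have h2 := D.ρ_maj (g n) (D.Φ (q n)) (D.w i)
          rw [← D.Φ_equiv, ← hgq n] at h2
          have h3 : D.ρ (g n) (D.w i) ≠ 0 := by
            intro h0
            have hwne := (D.w_mem i hcusp).2.1
            have h4 : Maj N (D.Φ (q n)) (D.w i) = 0 := by
              rw [← h2, h0]; simp [Maj]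
            obtain ⟨c0, hc0, hlow⟩ := Maj_lower hN (isCompact_singleton (x := D.Φ (q n)))
            apply hwne
            funext j
            have := hlow _ rfl (D.w i) j
            rw [h4] at this
            have h5 : |D.w i j| ^ 2 ≤ 0 := by nlinarith [sq_nonneg |D.w i j|]
            have h6 : |D.w i j| = 0 := by
              have := sq_nonneg |D.w i j|
              have : |D.w i j| ^ 2 = 0 := le_antisymm h5 this
              exact pow_eq_zero_iff (two_ne_zero) |>.mp this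
            simpa using h6
          have h4 := hδ' _ (hΦC n) _ (D.ρ_mem (g n) _ (D.w_mem i hcusp).1) h3
          rw [h2, hn2] at h4
          linarith
        · -- interior puncture: the limit value is bad
          obtain ⟨W, hWn, hWc⟩ : ∃ W ∈ 𝓝 (D.pt i), IsCompact W := exists_compact_mem_nhds _ |>.imp
            fun W h => ⟨h.2, h.1⟩
          have hlim : Tendsto (fun n => D.Φ (q n)) 𝒰 (𝓝 (D.pt i)) := by
            intro S hS
            obtain ⟨T, hT2⟩ := D.pt_lim i hcusp S hS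
            have : ∀ᶠ n in (𝒰 : Filter ℕ), D.Φ (q n) ∈ S := by
              filter_upwards [hz, hT' T] with n hn hTn
              rw [hn.2]; exact hT2 _ hn.1 hTn
            exact this
          obtain ⟨m, hm⟩ := hconst g q W hWc hgq (hlim hWn)
          have h1 : Tendsto (fun n => g m • D.Φ (q n)) 𝒰 (𝓝 (g m • D.pt i)) :=
            (D.act_cont (g m)).continuousAt.tendsto.comp hlim
          have h2 : ∀ᶠ n in (𝒰 : Filter ℕ), g m • D.Φ (q n) = D.Φ (p n) := by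
            filter_upwards [hm] with n hn
            rw [hgq n, D.Φ_equiv, D.act _ _ hn]
          have h3 := tendsto_nhds_unique (h1.congr' h2) hΦlim
          exact hbad (h3 ▸ D.Bad_inv _ _ (D.pt_bad i hcusp))
  obtain ⟨T, hT⟩ := hmain
  -- representatives in the compact set
  obtain ⟨n1, hn1⟩ := hT.exists
  have hgq : ∃ (g : ℕ → G) (q : ℕ → E), (∀ n, p n = g n • q n) ∧
      ∀ᶠ n in (𝒰 : Filter ℕ), q n ∈ D.big T := by
    refine ⟨fun n => if h : ∃ g : G, ∃ q ∈ D.big T, p n = g • q then h.choose else 1,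
      fun n => if h : ∃ g : G, ∃ q ∈ D.big T, p n = g • q then h.choose_spec.choose else p n,
      fun n => ?_, ?_⟩
    · by_cases h : ∃ g : G, ∃ q ∈ D.big T, p n = g • q
      · simp only [dif_pos h]; exact h.choose_spec.choose_spec.2
      · simp [dif_neg h]
    · filter_upwards [hT] with n hn
      simp only [dif_pos hn]; exact hn.choose_spec.choose_spec.1
  obtain ⟨g, q, hgq, hqT⟩ := hgq
  -- limit of q
  obtain ⟨q0, hq0, hlimq⟩ := (D.big_compact T).ultrafilter_le_nhds (𝒰.map q)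
    (by rw [Filter.le_principal_iff]; exact hqT)
  have hlimq' : Tendsto q 𝒰 (𝓝 q0) := hlimq
  have hΦq : Tendsto (fun n => D.Φ (q n)) 𝒰 (𝓝 (D.Φ q0)) :=
    D.Φ_cont.continuousAt.tendsto.comp hlimq'
  obtain ⟨m, hm⟩ := hconst g q (D.Φ '' D.big T) ((D.big_compact T).image D.Φ_cont) hgq
    (hqT.mono fun n hn => ⟨_, hn, rfl⟩)
  have hgm : g m • D.Φ q0 = ray a Ys := by
    have h1 : Tendsto (fun n => g m • D.Φ (q n)) 𝒰 (𝓝 (g m • D.Φ q0)) :=
      (D.act_cont (g m)).continuousAt.tendsto.comp hΦq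
    have h2 : ∀ᶠ n in (𝒰 : Filter ℕ), g m • D.Φ (q n) = D.Φ (p n) := by
      filter_upwards [hm] with n hn
      rw [hgq n, D.Φ_equiv, D.act _ _ hn]
    exact tendsto_nhds_unique (h1.congr' h2) hΦlim
  have hq0bad : D.Φ q0 ∉ D.Bad := fun h => hbad (hgm ▸ D.Bad_inv _ _ h)
  obtain ⟨s, U, hU, V, hV, hs, hsV, hsU⟩ := D.good q0 hq0bad
  -- g⁻¹ • ray stays in V near Ys
  have hray2 : ContinuousAt (fun t => (g m)⁻¹ • ray a t) Ys :=
    (D.act_cont (g m)⁻¹).continuousAt.comp hraycont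
  have hval : (g m)⁻¹ • ray a Ys = D.Φ q0 := by rw [← hgm, inv_smul_smul]
  have hVn : (fun t => (g m)⁻¹ • ray a t) ⁻¹' V ∈ 𝓝 Ys := hray2 (by
    change V ∈ 𝓝 ((g m)⁻¹ • ray a Ys); rw [hval]; exact hV)
  obtain ⟨η, hη, hηV⟩ := Metric.mem_nhds_iff.mp (Filter.inter_mem hVn (Ioi_mem_nhds hYs0))
  -- choose n
  have hev1 : ∀ᶠ n in (𝒰 : Filter ℕ), q n ∈ U := hlimq' hU
  have hev2 : ∀ᶠ n in (𝒰 : Filter ℕ), Ys - η < y n :=
    hle ((hylim.eventually (Ioi_mem_nhds (by linarith : Ys - η < Ys))))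
  obtain ⟨n, ⟨hnU, hnη⟩, hnm⟩ := ((hev1.and hev2).and hm).exists
  -- the new piece
  set f : ℝ → E := fun t => g n • s ((g m)⁻¹ • ray a t) with hf
  have hsub : Icc (y n) (Ys + η / 2) ⊆ Metric.ball Ys η := by
    intro t ht
    rw [Metric.mem_ball, Real.dist_eq, abs_lt]
    constructor <;> linarith [ht.1, ht.2]
  have hfc : ContinuousOn f (Icc (y n) (Ys + η / 2)) := by
    have h1 : ContinuousOn (fun t => (g m)⁻¹ • ray a t) (Icc (y n) (Ys + η / 2)) := by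
      apply (D.act_cont (g m)⁻¹).comp_continuousOn
      exact (ray_continuousOn a).mono fun t ht => (hηV (hsub ht)).2
    have h2 : ContinuousOn (fun t => s ((g m)⁻¹ • ray a t)) (Icc (y n) (Ys + η / 2)) :=
      hs.comp h1 fun t ht => (hηV (hsub ht)).1
    exact (D.act_E (g n)).comp_continuousOn h2
  have hfΦ : ∀ t ∈ Icc (y n) (Ys + η / 2), D.Φ (f t) = ray a t := by
    intro t ht
    rw [hf]; simp only
    rw [D.Φ_equiv, hsV _ (hηV (hsub ht)).1, D.act _ _ hnm, smul_inv_smul]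
  have hyn : y n ∈ Icc (y n) (Ys + η / 2) := ⟨le_rfl, by linarith [(hy n).2]⟩
  have hfy : f (y n) = c n (y n) := by
    have h1 : D.Φ (q n) = (g m)⁻¹ • ray a (y n) := by
      rw [← hΦp n, hgq n, D.Φ_equiv, ← D.act_inv hnm, inv_smul_smul]
    change g n • s ((g m)⁻¹ • ray a (y n)) = p n
    rw [← h1, hsU _ hnU, ← hgq n]
  refine ⟨Ys + η / 2, by linarith, fun t => if t ≤ y n then c n t else f t, ?_, ?_, ?_⟩
  · have hun : Icc b (Ys + η / 2) = Icc b (y n) ∪ Icc (y n) (Ys + η / 2) :=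
      (Icc_union_Icc_eq_Icc (hy n).1 hyn.2).symm
    rw [hun]
    apply ContinuousOn.union_of_isClosed _ _ isClosed_Icc isClosed_Icc
    · exact (hc n).1.congr fun t ht => by simp [ht.2]
    · refine hfc.congr fun t ht => ?_
      by_cases h : t ≤ y n
      · have : t = y n := le_antisymm h ht.1
        simp [this, hfy]
      · simp [h]
  · simp [(hy n).1, (hc n).2.1]
  · intro t ht
    by_cases h : t ≤ y n
    · simp only [h, if_true]; exact (hc n).2.2 t ⟨ht.1, h⟩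
    · simp only [h, if_false]; exact hfΦ t ⟨(not_le.mp h).le, ht.2⟩

/-- **lifting of the vertical ray** to arbitrary height -/
theorem exists_lift [Finite ι] (D : Dat N Λ G E ι) (hN : 0 < N) (hΛ : Lat N Λ) {x0 : E}
    {a b : ℝ} (hb : 0 < b) (hx0 : D.Φ x0 = ray a b) (hbad : ∀ y, b ≤ y → ray a y ∉ D.Bad) :
    ∀ Y, b ≤ Y → ∃ c, D.Lift x0 a b Y c := by
  by_contra hcon
  push Not at hcon
  obtain ⟨Y1, hY1, hno⟩ := hcon
  set S : Set ℝ := {Y | b ≤ Y ∧ ∃ c, D.Lift x0 a b Y c} with hS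
  have hbS : b ∈ S := by
    refine ⟨le_rfl, fun _ => x0, continuousOn_const, rfl, fun y hy => ?_⟩
    have : y = b := le_antisymm hy.2 hy.1
    rw [this]; exact hx0
  have hbdd : BddAbove S := by
    refine ⟨Y1, fun Y hY => ?_⟩
    by_contra h
    obtain ⟨c, hc⟩ := hY.2
    exact hno c (hc.mono (not_le.mp h).le)
  set Ys := sSup S with hYs
  have hbYs : b ≤ Ys := le_csSup hbdd hbS
  obtain ⟨Y', hY', c, hc⟩ := D.extend hN hΛ (x0 := x0) hb hbYs (hbad Ys hbYs) (by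
    intro n
    have hpos : (0 : ℝ) < 1 / ((n : ℝ) + 1) := by positivity
    obtain ⟨y, hyS, hy⟩ := exists_lt_of_lt_csSup ⟨b, hbS⟩ (show Ys - 1 / ((n : ℝ) + 1) < sSup S by
      rw [← hYs]; linarith)
    exact ⟨y, ⟨hyS.1, le_csSup hbdd hyS⟩, hy, hyS.2⟩)
  have : Y' ∈ S := ⟨hbYs.trans hY'.le, c, hc⟩
  have := le_csSup hbdd this
  linarith

/-- **the lift reaches the cusp `e`**: high enough on the ray, the lift is in a cusp end whose
isotropic vector is transported to a multiple of `e = (0,0,1)` -/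
theorem reach_cusp [Finite ι] (D : Dat N Λ G E ι) (hN : 0 < N) (hΛ : Lat N Λ) (a T0 : ℝ) :
    ∃ Y0, ∀ Y, Y0 ≤ Y → ∀ x : E, D.Φ x = ray a Y →
      ∃ (g : G) (i : ι) (z : ℂ), D.cusp i ∧ 1 ≤ z.im ∧ T0 ≤ z.im ∧ x = g • D.ε i z ∧
        ∃ t : ℝ, t ≠ 0 ∧ D.ρ g (D.w i) = t • ![0, 0, 1] := by
  classical
  -- common height T
  have hT : ∃ T, T0 ≤ T ∧ ∀ i, ∀ z : ℂ, 1 ≤ z.im → T ≤ z.im →
      (D.cusp i → Maj N (D.Φ (D.ε i z)) (D.w i) < 1) := by
    choose T hT using fun i => (by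
      by_cases h : D.cusp i
      · obtain ⟨T, hT⟩ := D.w_lim i h 1 one_pos
        exact ⟨T, fun z h1 h2 _ => hT z h1 h2⟩
      · exact ⟨0, fun z _ _ h' => absurd h' h⟩ :
        ∃ T, ∀ z : ℂ, 1 ≤ z.im → T ≤ z.im → (D.cusp i → Maj N (D.Φ (D.ε i z)) (D.w i) < 1))
    obtain ⟨M, hM⟩ := (Set.finite_range T).bddAbove
    exact ⟨max T0 M, le_max_left _ _, fun i z h1 h2 =>
      hT i z h1 ((hM ⟨i, rfl⟩).trans ((le_max_right _ _).trans h2))⟩
  obtain ⟨T, hTT0, hT⟩ := hT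
  -- compact neighbourhoods of interior points
  have hW : ∃ (W : Set ℍ) (T' : ℝ), T ≤ T' ∧ IsCompact W ∧ ∀ i, ¬ D.cusp i → ∀ z : ℂ,
      1 ≤ z.im → T' ≤ z.im → D.Φ (D.ε i z) ∈ W := by
    choose W hWc hWn using fun i => exists_compact_mem_nhds (D.pt i)
    choose T' hT' using fun i => (by
      by_cases h : D.cusp i
      · exact ⟨0, fun h' => absurd h h'⟩
      · obtain ⟨T, hT⟩ := D.pt_lim i h (W i) (hWn i)
        exact ⟨T, fun _ => hT⟩ :
        ∃ T', ¬ D.cusp i → ∀ z : ℂ, 1 ≤ z.im → T' ≤ z.im → D.Φ (D.ε i z) ∈ W i)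
    obtain ⟨M, hM⟩ := (Set.finite_range T').bddAbove
    refine ⟨⋃ i, W i, max T M, le_max_left _ _, isCompact_iUnion hWc, fun i hi z h1 h2 => ?_⟩
    exact mem_iUnion.mpr ⟨i, hT' i hi z h1 ((hM ⟨i, rfl⟩).trans ((le_max_right _ _).trans h2))⟩
  obtain ⟨W, T', hTT', hWc, hW⟩ := hW
  -- compact set of all thick values
  have hcomp : IsCompact (D.Φ '' D.big T' ∪ W) :=
    ((D.big_compact T').image D.Φ_cont).union hWc
  obtain ⟨δ, hδ, hδ'⟩ := hΛ.maj_pos hN hcomp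
  -- choose Y0 with 2/(N Y^2) < min δ 1
  have hY0 : ∃ Y0 > 0, ∀ Y, Y0 ≤ Y → 2 / (N * Y ^ 2) < min δ 1 := by
    set μ := min δ 1 with hμ
    have hμ0 : 0 < μ := lt_min hδ one_pos
    refine ⟨1 + 2 / (N * μ), by positivity, fun Y hY => ?_⟩
    have h1 : 1 ≤ Y := by
      have : 0 < 2 / (N * μ) := by positivity
      linarith
    have h2 : 2 / (N * μ) < Y := by linarith
    have h3 : 2 / (N * μ) < Y ^ 2 := by nlinarith
    rw [div_lt_iff₀ (by positivity)] at h3 ⊢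
    nlinarith
  obtain ⟨Y0, hY0p, hY0⟩ := hY0
  refine ⟨Y0, fun Y hY x hx => ?_⟩
  have hYp : 0 < Y := lt_of_lt_of_le hY0p hY
  have hMe : Maj N (D.Φ x) ![0, 0, 1] < min δ 1 := by rw [hx, Maj_ray hYp]; exact hY0 Y hY
  obtain ⟨g, q, hgq, hq⟩ := D.thick_thin T' x
  -- the vector ρ g⁻¹ e
  have hMinv : Maj N (D.Φ q) (D.ρ g⁻¹ ![0, 0, 1]) = Maj N (D.Φ x) ![0, 0, 1] := by
    rw [D.maj_inv, ← hgq]
  have hepos : 0 < Maj N (D.Φ x) ![0, 0, 1] := by rw [hx, Maj_ray hYp]; positivity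
  have hne : D.ρ g⁻¹ ![0, 0, 1] ≠ 0 := by
    intro h0
    rw [h0] at hMinv
    have : Maj N (D.Φ q) 0 = 0 := by simp [Maj]
    rw [this] at hMinv
    linarith
  have hnotthick : D.Φ q ∉ D.Φ '' D.big T' ∪ W := by
    intro hmem
    have := hδ' _ hmem _ (D.ρ_mem _ _ hΛ.e_mem) hne
    rw [hMinv] at this
    exact absurd (lt_of_lt_of_le hMe (min_le_left _ _)) (not_lt.mpr this)
  rcases hq with hq | ⟨i, z, hz1, hzT, hqz⟩
  · exact absurd (Or.inl ⟨q, hq, rfl⟩) hnotthick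
  · have hcusp : D.cusp i := by
      by_contra hc
      exact hnotthick (Or.inr (hqz ▸ hW i hc z hz1 hzT))
    refine ⟨g, i, z, hcusp, hz1, hTT0.trans (hTT'.trans hzT), by rw [hgq, hqz], ?_⟩
    obtain ⟨hwΛ, hw0, hwiso⟩ := D.w_mem i hcusp
    set v := D.ρ g (D.w i) with hv
    have hvΛ : v ∈ Λ := D.ρ_mem _ _ hwΛ
    have hMv : Maj N (D.Φ x) v < 1 := by
      rw [hgq, D.Φ_equiv, hv, D.ρ_maj, hqz]
      exact hT i z hz1 (hTT'.trans hzT) hcusp
    obtain ⟨k, hk⟩ := hΛ.int v hvΛ _ hΛ.e_mem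
    have hCS := qb_sq_le hN (D.Φ x) v ![0, 0, 1]
    have hlt : (qb N v ![0, 0, 1]) ^ 2 < 1 := by
      have h1 : Maj N (D.Φ x) ![0, 0, 1] < 1 := lt_of_lt_of_le hMe (min_le_right _ _)
      have h2 := Maj_nonneg hN (D.Φ x) v
      have h3 := Maj_nonneg hN (D.Φ x) ![0, 0, 1]
      nlinarith
    have hk0 : k = 0 := by
      rw [hk] at hlt
      have h1 : |(k : ℝ)| < 1 := by
        rw [← sq_lt_one_iff_abs_lt_one]; exact hlt
      have h2 : |k| < 1 := by exact_mod_cast h1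
      exact Int.abs_lt_one_iff.mp h2
    have h0 : qb N v ![0, 0, 1] = 0 := by rw [hk, hk0]; simp
    have hpar := iso_par hN (by rw [hv, D.ρ_iso]; exact hwiso) h0
    refine ⟨v 2, ?_, hpar⟩
    intro h2
    -- v = 0 contradicts positivity
    have hv0 : v = 0 := by rw [hpar, h2, zero_smul]
    have hM0 : Maj N (D.Φ q) (D.w i) = 0 := by
      rw [← D.ρ_maj g, ← hv, hv0]; simp [Maj]
    obtain ⟨c0, hc0, hlow⟩ := Maj_lower hN (isCompact_singleton (x := D.Φ q))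
    apply hw0
    funext j
    have h5 := hlow _ rfl (D.w i) j
    rw [hM0] at h5
    have h6 : |D.w i j| ^ 2 = 0 := le_antisymm (by nlinarith [sq_nonneg |D.w i j|]) (sq_nonneg _)
    have h7 : |D.w i j| = 0 := pow_eq_zero_iff (two_ne_zero) |>.mp h6
    simpa using h7

end Dat

end Crest.Agent.R281.CL_473
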