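import Mathlib

/-!
# CUSP-LIFT, part 3 (row 281, helper473): the marked cover from local transports

`LS Q G E` = a set `E` over a topological space `Q` with local transports `s x q` ("the transport of
`x` to the point `q`", defined for `q` in the neighbourhood `U (p x)`), locally constant and
equivariant under a group `G` acting transitively on the fibres.  Output: the topology on `E`
(type synonym `L.Tot`) for which `p` is a covering map, the compact core and the ends upstairs.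
-/

namespace Crest.Agent.R281.CL_473

open Filter Topology Set

/-- local transports over `Q` -/
structure LS (Q : Type*) [TopologicalSpace Q] (G : Type*) [Group G] (E : Type*) [MulAction G E] where
  /-- projection -/
  p : E → Q
  /-- neighbourhoods of transport -/
  U : Q → Set Q
  U_open : ∀ q, IsOpen (U q)
  U_mem : ∀ q, q ∈ U q
  /-- transport of `x` to `q` (junk for `q ∉ U (p x)`) -/
  s : E → Q → E
  p_s : ∀ x, ∀ q ∈ U (p x), p (s x q) = q
  s_self : ∀ x, s x (p x) = x
  surj : ∀ q0 y, p y ∈ U q0 → ∃ x, p x = q0 ∧ s x (p y) = y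
  inj : ∀ x y, p x = p y → ∀ q ∈ U (p x), s x q = s y q → x = y
  loc : ∀ x, ∀ q1 ∈ U (p x), ∀ᶠ q in 𝓝 q1, s x q = s (s x q1) q
  p_smul : ∀ (g : G) x, p (g • x) = p x
  s_smul : ∀ (g : G) x, ∀ q ∈ U (p x), s (g • x) q = g • s x q
  trans : ∀ x y, p x = p y → ∃ g : G, y = g • x

namespace LS

variable {Q : Type*} [TopologicalSpace Q] {G : Type*} [Group G] {E : Type*} [MulAction G E]

/-- the total space, with its own topology -/
@[nolint unusedArguments]
def Tot (_L : LS Q G E) : Type _ := E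

variable (L : LS Q G E)

instance : MulAction G L.Tot := inferInstanceAs (MulAction G E)

instance : TopologicalSpace L.Tot where
  IsOpen S := ∀ x : E, x ∈ (S : Set E) → ∀ᶠ q in 𝓝 (L.p x), L.s x q ∈ (S : Set E)
  isOpen_univ := fun _ _ => Filter.Eventually.of_forall fun _ => mem_univ _
  isOpen_inter := fun _ _ hS hT x hx => (hS x hx.1).and (hT x hx.2)
  isOpen_sUnion := fun _ h𝒮 x ⟨S, hS, hx⟩ => (h𝒮 S hS x hx).mono fun _ hq => ⟨S, hS, hq⟩

theorem isOpen_iff {S : Set L.Tot} : IsOpen S ↔ ∀ x : E, x ∈ (S : Set E) →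
    ∀ᶠ q in 𝓝 (L.p x), L.s x q ∈ (S : Set E) := Iff.rfl

/-- the projection on the total space -/
def pr : L.Tot → Q := L.p

/-- the transport on the total space -/
def tr (x : L.Tot) (q : Q) : L.Tot := L.s x q

theorem pr_tr (x : L.Tot) {q : Q} (h : q ∈ L.U (L.pr x)) : L.pr (L.tr x q) = q := L.p_s x q h

@[simp] theorem tr_self (x : L.Tot) : L.tr x (L.pr x) = x := L.s_self x

theorem pr_smul (g : G) (x : L.Tot) : L.pr (g • x) = L.pr x := L.p_smul g x

theorem tr_smul (g : G) (x : L.Tot) {q : Q} (h : q ∈ L.U (L.pr x)) :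
    L.tr (g • x) q = g • L.tr x q := L.s_smul g x q h

theorem tr_loc (x : L.Tot) {q1 : Q} (h : q1 ∈ L.U (L.pr x)) :
    ∀ᶠ q in 𝓝 q1, L.tr x q = L.tr (L.tr x q1) q := L.loc x q1 h

theorem tr_inj {x y : L.Tot} (h : L.pr x = L.pr y) {q : Q} (hq : q ∈ L.U (L.pr x))
    (he : L.tr x q = L.tr y q) : x = y := L.inj x y h q hq he

theorem tr_surj (q0 : Q) (y : L.Tot) (h : L.pr y ∈ L.U q0) :
    ∃ x : L.Tot, L.pr x = q0 ∧ L.tr x (L.pr y) = y := L.surj q0 y h

theorem exists_smul {x y : L.Tot} (h : L.pr x = L.pr y) : ∃ g : G, y = g • x := L.trans x y h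

/-- transports of open sets are open -/
theorem isOpen_image {x : L.Tot} {V : Set Q} (hV : IsOpen V) (hVU : V ⊆ L.U (L.pr x)) :
    IsOpen (L.tr x '' V) := by
  rw [isOpen_iff]
  rintro _ ⟨q1, hq1, rfl⟩
  have hp : L.p (L.s x q1) = q1 := L.p_s x q1 (hVU hq1)
  change ∀ᶠ q in 𝓝 (L.p (L.s x q1)), _
  rw [hp]
  filter_upwards [L.loc x q1 (hVU hq1), hV.mem_nhds hq1] with q h1 h2
  exact ⟨q, h2, h1⟩

theorem nhds_eq (x : L.Tot) : 𝓝 x = map (L.tr x) (𝓝 (L.pr x)) := by
  apply le_antisymm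
  · intro S hS
    obtain ⟨V, hVS, hV, hxV⟩ := mem_nhds_iff.mp (Filter.inter_mem (Filter.mem_map.mp hS)
      ((L.U_open (L.p x)).mem_nhds (L.U_mem (L.p x))))
    refine mem_nhds_iff.mpr ⟨L.tr x '' V, ?_, L.isOpen_image hV fun q hq => (hVS hq).2, ?_⟩
    · rintro _ ⟨q, hq, rfl⟩; exact (hVS hq).1
    · exact ⟨_, hxV, L.tr_self x⟩
  · intro S hS
    obtain ⟨T, hTS, hT, hxT⟩ := mem_nhds_iff.mp hS
    have := (L.isOpen_iff.mp hT) x hxT
    exact this.mono fun q hq => hTS hq

theorem continuous_pr : Continuous L.pr := by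
  rw [continuous_iff_continuousAt]
  intro x
  rw [ContinuousAt, L.nhds_eq, tendsto_map'_iff]
  have : ∀ᶠ q in 𝓝 (L.pr x), (L.pr ∘ L.tr x) q = q := by
    filter_upwards [(L.U_open (L.p x)).mem_nhds (L.U_mem (L.p x))] with q hq
    exact L.pr_tr x hq
  exact tendsto_id.congr' (this.mono fun q hq => hq.symm)

theorem continuousOn_tr (x : L.Tot) : ContinuousOn (L.tr x) (L.U (L.pr x)) := by
  intro q1 hq1
  apply ContinuousAt.continuousWithinAt
  rw [ContinuousAt, L.nhds_eq, L.pr_tr x hq1]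
  have : ∀ᶠ q in 𝓝 q1, L.tr (L.tr x q1) q = L.tr x q :=
    (L.tr_loc x hq1).mono fun q hq => hq.symm
  exact tendsto_map.congr' this

/-- a function on the total space is continuous when it is along the transports -/
theorem continuousAt_of {Z : Type*} [TopologicalSpace Z] {f : L.Tot → Z} {x : L.Tot}
    (h : ContinuousAt (fun q => f (L.tr x q)) (L.pr x)) : ContinuousAt f x := by
  rw [ContinuousAt, L.nhds_eq, tendsto_map'_iff]
  have h' := h.tendsto
  rwa [L.tr_self] at h'

theorem continuous_of {Z : Type*} [TopologicalSpace Z] {f : L.Tot → Z}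
    (h : ∀ x : L.Tot, ContinuousAt (fun q => f (L.tr x q)) (L.pr x)) : Continuous f :=
  continuous_iff_continuousAt.mpr fun x => L.continuousAt_of (h x)

theorem continuous_smul' (g : G) : Continuous fun x : L.Tot => g • x := by
  apply L.continuous_of
  intro x
  have h1 : ContinuousAt (L.tr (g • x)) (L.pr (g • x)) :=
    (L.continuousOn_tr (g • x)).continuousAt ((L.U_open _).mem_nhds (L.U_mem _))
  rw [L.pr_smul] at h1
  refine h1.congr ?_
  filter_upwards [(L.U_open (L.p x)).mem_nhds (L.U_mem (L.p x))] with q hq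
  exact L.tr_smul g x hq

/-- **the projection is a covering map** -/
theorem isCoveringMap : IsCoveringMap L.pr := by
  intro q0
  set F : Type _ := {x : L.Tot // L.pr x = q0} with hF
  let _ : TopologicalSpace F := ⊥
  have _ : DiscreteTopology F := ⟨rfl⟩
  refine (show IsEvenlyCovered L.pr q0 F from ?_).to_isEvenlyCovered_preimage
  have hex : ∀ y : L.Tot, L.pr y ∈ L.U q0 → ∃ x : F, L.tr x.1 (L.pr y) = y := fun y hy => by
    obtain ⟨x, hx, hxy⟩ := L.tr_surj q0 y hy
    exact ⟨⟨x, hx⟩, hxy⟩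
  choose c hc using hex
  have huniq : ∀ (x : F) (y : L.Tot) (hy : L.pr y ∈ L.U q0), L.tr x.1 (L.pr y) = y → c y hy = x := by
    intro x y hy h
    apply Subtype.ext
    apply L.tr_inj ((c y hy).2.trans x.2.symm) (q := L.pr y)
    · rw [(c y hy).2]; exact hy
    · rw [hc, h]
  let H : L.pr ⁻¹' L.U q0 ≃ L.U q0 × F :=
    { toFun := fun y => ⟨⟨L.pr y.1, y.2⟩, c y.1 y.2⟩
      invFun := fun z => ⟨L.tr z.2.1 z.1.1, by
        have : z.1.1 ∈ L.U (L.pr z.2.1) := by rw [z.2.2]; exact z.1.2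
        change L.pr (L.tr z.2.1 z.1.1) ∈ L.U q0
        rw [L.pr_tr _ this]; exact z.1.2⟩
      left_inv := fun y => Subtype.ext (hc y.1 y.2)
      right_inv := fun z => by
        have hz : z.1.1 ∈ L.U (L.pr z.2.1) := by rw [z.2.2]; exact z.1.2
        have h1 : L.pr (L.tr z.2.1 z.1.1) = z.1.1 := L.pr_tr _ hz
        refine Prod.ext (Subtype.ext h1) ?_
        apply huniq
        rw [h1] }
  refine ⟨inferInstance, L.U q0, L.U_mem q0, L.U_open q0, (L.U_open q0).preimage L.continuous_pr,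
    ⟨H, ?_, ?_⟩, fun x => rfl⟩
  · -- continuity of toFun
    apply Continuous.prodMk
    · exact (L.continuous_pr.comp continuous_subtype_val).subtype_mk _
    · -- locally constant
      rw [continuous_iff_continuousAt]
      rintro ⟨y, hy⟩
      have hU : L.pr y ∈ L.U (L.pr (c y hy).1) := by rw [(c y hy).2]; exact hy
      have hev : ∀ᶠ y' in 𝓝 y, ∀ hy' : L.pr y' ∈ L.U q0, c y' hy' = c y hy := by
        rw [L.nhds_eq, eventually_map]
        have h1 := L.tr_loc (c y hy).1 hU
        rw [hc y hy] at h1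
        filter_upwards [h1, (L.U_open (L.pr y)).mem_nhds (L.U_mem (L.pr y)),
          (L.U_open q0).mem_nhds hy] with q hq hq2 hq3 hy'
        apply huniq
        rw [L.pr_tr y hq2, hq]
      have : (fun y' : L.pr ⁻¹' L.U q0 => c y'.1 y'.2) =ᶠ[𝓝 ⟨y, hy⟩] fun _ => c y hy := by
        have h2 : Tendsto (Subtype.val : L.pr ⁻¹' L.U q0 → L.Tot) (𝓝 ⟨y, hy⟩) (𝓝 y) :=
          continuous_subtype_val.continuousAt.tendsto
        filter_upwards [h2.eventually hev] with y' hy'
        exact hy' y'.2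
      exact (continuousAt_const.congr this.symm)
  · -- continuity of the inverse
    apply Continuous.subtype_mk
    rw [continuous_iff_continuousAt]
    rintro ⟨⟨q, hq⟩, x⟩
    have hx : q ∈ L.U (L.pr x.1) := by rw [x.2]; exact hq
    have h1 : ContinuousAt (L.tr x.1) q :=
      (L.continuousOn_tr x.1).continuousAt ((L.U_open _).mem_nhds hx)
    have h2 : (fun z : L.U q0 × F => L.tr z.2.1 z.1.1) =ᶠ[𝓝 (⟨q, hq⟩, x)]
        fun z => L.tr x.1 z.1.1 := by
      have : {z : L.U q0 × F | z.2 = x} ∈ 𝓝 ((⟨q, hq⟩, x) : L.U q0 × F) := by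
        have h3 : IsOpen {z : L.U q0 × F | z.2 = x} :=
          (isOpen_discrete {x}).preimage continuous_snd
        exact h3.mem_nhds rfl
      filter_upwards [this] with z hz
      rw [hz]
    refine ContinuousAt.congr ?_ h2.symm
    have h4 : ContinuousAt (fun z : L.U q0 × F => (z.1.1 : Q)) (⟨q, hq⟩, x) :=
      (continuous_subtype_val.comp continuous_fst).continuousAt
    exact ContinuousAt.comp (f := fun z : L.U q0 × F => (z.1.1 : Q)) h1 h4

/-- **the compact core upstairs** -/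
theorem exists_core [LocallyCompactSpace Q] {K0 : Set Q} (hK : IsCompact K0) :
    ∃ K : Set L.Tot, IsCompact K ∧ ∀ y : L.Tot, L.pr y ∈ K0 → ∃ g : G, ∃ a ∈ K, y = g • a := by
  classical
  have hN : ∀ q : Q, ∃ N ∈ 𝓝 q, N ⊆ L.U q ∧ IsCompact N := fun q =>
    LocallyCompactSpace.local_compact_nhds q (L.U q) ((L.U_open q).mem_nhds (L.U_mem q))
  choose N hNn hNU hNc using hN
  obtain ⟨t, -, ht⟩ := hK.elim_nhds_subcover N fun q _ => hNn q
  refine ⟨⋃ q ∈ t, if h : ∃ x : L.Tot, L.pr x = q then L.tr h.choose '' N q else ∅, ?_, ?_⟩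
  · apply t.finite_toSet.isCompact_biUnion
    intro q _
    by_cases h : ∃ x : L.Tot, L.pr x = q
    · rw [dif_pos h]
      apply (hNc q).image_of_continuousOn
      have := L.continuousOn_tr h.choose
      rw [h.choose_spec] at this
      exact this.mono (hNU q)
    · rw [dif_neg h]; exact isCompact_empty
  · intro y hy
    obtain ⟨q, hqt, hyq⟩ := mem_iUnion₂.mp (ht hy)
    obtain ⟨x, hx, hxy⟩ := L.tr_surj q y (hNU q hyq)
    have h : ∃ x : L.Tot, L.pr x = q := ⟨x, hx⟩
    obtain ⟨g, hg⟩ := L.exists_smul (x := h.choose) (y := x) (h.choose_spec.trans hx.symm)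
    refine ⟨g, L.tr h.choose (L.pr y), ?_, ?_⟩
    · apply mem_iUnion₂.mpr ⟨q, hqt, ?_⟩
      rw [dif_pos h]
      exact ⟨_, hyq, rfl⟩
    · rw [← L.tr_smul, ← hg, hxy]
      rw [h.choose_spec]; exact hNU q hyq

/-- the retraction of `ℂ` on `{1 ≤ im z}` -/
noncomputable def retr (z : ℂ) : ℂ := ⟨z.re, max 1 z.im⟩

theorem retr_cont : Continuous retr := by
  unfold retr
  have : (fun z : ℂ => (⟨z.re, max 1 z.im⟩ : ℂ)) =
      fun z : ℂ => ((z.re : ℝ) : ℂ) + ((max 1 z.im : ℝ) : ℂ) * Complex.I := by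
    funext z; apply Complex.ext <;> simp
  rw [this]; fun_prop

theorem retr_im (z : ℂ) : 1 ≤ (retr z).im := le_max_left _ _

theorem retr_of {z : ℂ} (h : 1 ≤ z.im) : retr z = z := by
  apply Complex.ext <;> simp [retr, h]

theorem retr_add (z : ℂ) : retr (z + 1) = retr z + 1 := by
  apply Complex.ext <;> simp [retr]

/-- **the ends upstairs** -/
theorem exists_end {η : ℂ → Q} (hη : ContinuousOn η {z | 1 ≤ z.im})
    (hper : ∀ z : ℂ, 1 ≤ z.im → η (z + 1) = η z) {z0 : ℂ} (hz0 : 1 ≤ z0.im) {x0 : L.Tot}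
    (hx0 : L.pr x0 = η z0) :
    ∃ (F : ℂ → L.Tot) (g : G), Continuous F ∧ F z0 = x0 ∧ (∀ z : ℂ, 1 ≤ z.im → L.pr (F z) = η z) ∧
      ∀ z, F (z + 1) = g • F z := by
  have hη' : Continuous fun z => η (retr z) :=
    hη.comp_continuous retr_cont fun z => retr_im z
  obtain ⟨F, ⟨hF0, hF⟩, -⟩ := L.isCoveringMap.existsUnique_continuousMap_lifts
    (A := ℂ) ⟨_, hη'⟩ z0 x0 (by simpa [retr_of hz0] using hx0)
  have hF' : ∀ z, L.pr (F z) = η (retr z) := fun z => congrFun hF z
  have hpr : L.pr (F z0) = L.pr (F (z0 + 1)) := by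
    rw [hF', hF', retr_add, hper _ (retr_im z0)]
  obtain ⟨g, hg⟩ := L.exists_smul hpr
  refine ⟨F, g, F.continuous, hF0, fun z hz => by rw [hF', retr_of hz], fun z => ?_⟩
  have := L.isCoveringMap.eq_of_comp_eq (A := ℂ) (g₁ := fun z => F (z + 1)) (g₂ := fun z => g • F z)
    (F.continuous.comp (by fun_prop)) ((L.continuous_smul' g).comp F.continuous)
    (by
      funext z
      change L.pr (F (z + 1)) = L.pr (g • F z)
      rw [L.pr_smul, hF', hF', retr_add, hper _ (retr_im z)]) z0 (by exact hg)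
  exact congrFun this z

end LS

end Crest.Agent.R281.CL_473
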