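import Mathlib
import Crest.Agent.R281.CL2_473
import Crest.Agent.R281.CL3_473

/-!
# CUSP-LIFT, part 4 (row 281, helper473): linear isometries of `2ac + N b²` act on `ℍ`
-/

namespace Crest.Agent.R281.CL_473

open Filter Topology Set UpperHalfPlane

/-- the period vector `σ_τ = (1, τ, -(N/2) τ²)` -/
noncomputable def sig (N : ℝ) (τ : ℂ) : Fin 3 → ℂ := ![1, τ, -(N / 2 : ℂ) * τ ^ 2]

/-- complexification of a real linear map -/
noncomputable def cx (A : (Fin 3 → ℝ) →ₗ[ℝ] (Fin 3 → ℝ)) (v : Fin 3 → ℂ) : Fin 3 → ℂ :=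
  fun i => (A (fun k => (v k).re) i : ℂ) + (A (fun k => (v k).im) i : ℂ) * Complex.I

/-- pairing of a real and a complex vector -/
noncomputable def qc (N : ℝ) (w : Fin 3 → ℝ) (v : Fin 3 → ℂ) : ℂ :=
  w 0 * v 2 + w 2 * v 0 + N * (w 1 * v 1)

/-- the hermitian norm `q(v, v̄)` -/
noncomputable def hm (N : ℝ) (v : Fin 3 → ℂ) : ℝ :=
  qb N (fun k => (v k).re) (fun k => (v k).re) + qb N (fun k => (v k).im) (fun k => (v k).im)

/-- isometry -/
def Iso (N : ℝ) (A : (Fin 3 → ℝ) →ₗ[ℝ] (Fin 3 → ℝ)) : Prop :=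
  ∀ w w', qb N (A w) (A w') = qb N w w'

theorem per_eq_qc (N : ℝ) (w : Fin 3 → ℝ) (τ : ℂ) : per N w τ = qc N w (sig N τ) := by
  simp [per, qc, sig]; ring

theorem qc_re_im (N : ℝ) (w : Fin 3 → ℝ) (v : Fin 3 → ℂ) :
    qc N w v = (qb N w (fun k => (v k).re) : ℂ) + (qb N w (fun k => (v k).im) : ℂ) * Complex.I := by
  apply Complex.ext <;> simp [qc, qb]

theorem cx_re (A : (Fin 3 → ℝ) →ₗ[ℝ] (Fin 3 → ℝ)) (v : Fin 3 → ℂ) :
    (fun k => (cx A v k).re) = A (fun k => (v k).re) := by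
  funext k; simp [cx]

theorem cx_im (A : (Fin 3 → ℝ) →ₗ[ℝ] (Fin 3 → ℝ)) (v : Fin 3 → ℂ) :
    (fun k => (cx A v k).im) = A (fun k => (v k).im) := by
  funext k; simp [cx]

theorem cx_comp (A B : (Fin 3 → ℝ) →ₗ[ℝ] (Fin 3 → ℝ)) (v : Fin 3 → ℂ) :
    cx (A * B) v = cx A (cx B v) := by
  funext i
  have h1 := cx_re B v
  have h2 := cx_im B v
  simp only [cx] at h1 h2
  simp only [cx, h1, h2]
  rfl

theorem cx_one (v : Fin 3 → ℂ) : cx 1 v = v := by
  funext i; simp [cx, Complex.re_add_im]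

theorem cx_smul (A : (Fin 3 → ℝ) →ₗ[ℝ] (Fin 3 → ℝ)) (c : ℂ) (v : Fin 3 → ℂ) :
    cx A (c • v) = c • cx A v := by
  have h1 : (fun k => ((c • v) k).re) = c.re • (fun k => (v k).re) - c.im • (fun k => (v k).im) := by
    funext k; simp [Complex.mul_re]
  have h2 : (fun k => ((c • v) k).im) = c.re • (fun k => (v k).im) + c.im • (fun k => (v k).re) := by
    funext k; simp [Complex.mul_im]
  funext i
  have e1 : A (fun k => ((c • v) k).re) i
      = c.re * A (fun k => (v k).re) i - c.im * A (fun k => (v k).im) i := by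
    rw [h1, map_sub, map_smul, map_smul]; rfl
  have e2 : A (fun k => ((c • v) k).im) i
      = c.re * A (fun k => (v k).im) i + c.im * A (fun k => (v k).re) i := by
    rw [h2, map_add, map_smul, map_smul]; rfl
  change ((A (fun k => ((c • v) k).re) i : ℝ) : ℂ)
      + ((A (fun k => ((c • v) k).im) i : ℝ) : ℂ) * Complex.I
    = c * ((A (fun k => (v k).re) i : ℂ) + (A (fun k => (v k).im) i : ℂ) * Complex.I)
  rw [e1, e2]
  apply Complex.ext <;> simp

theorem Iso.qc {N : ℝ} {A : (Fin 3 → ℝ) →ₗ[ℝ] (Fin 3 → ℝ)} (hA : Iso N A) (w : Fin 3 → ℝ)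
    (v : Fin 3 → ℂ) : qc N (A w) (cx A v) = CL_473.qc N w v := by
  rw [qc_re_im, qc_re_im, cx_re, cx_im, hA, hA]

theorem Iso.hm {N : ℝ} {A : (Fin 3 → ℝ) →ₗ[ℝ] (Fin 3 → ℝ)} (hA : Iso N A) (v : Fin 3 → ℂ) :
    hm N (cx A v) = CL_473.hm N v := by
  unfold CL_473.hm
  rw [cx_re, cx_im, hA, hA]

/-- complex isotropy -/
def isoC (N : ℝ) (v : Fin 3 → ℂ) : Prop := 2 * v 0 * v 2 + N * (v 1) ^ 2 = 0

theorem isoC_iff (N : ℝ) (v : Fin 3 → ℂ) : isoC N v ↔
    qb N (fun k => (v k).re) (fun k => (v k).re) = qb N (fun k => (v k).im) (fun k => (v k).im) ∧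
    qb N (fun k => (v k).re) (fun k => (v k).im) = 0 := by
  unfold isoC qb
  rw [Complex.ext_iff]
  simp only [Complex.add_re, Complex.mul_re, Complex.add_im, Complex.mul_im, Complex.re_ofNat,
    Complex.im_ofNat, Complex.ofReal_re, Complex.ofReal_im, pow_two, Complex.zero_re,
    Complex.zero_im]
  constructor
  · rintro ⟨h1, h2⟩
    constructor <;> linarith
  · rintro ⟨h1, h2⟩
    constructor <;> linarith

theorem Iso.isoC {N : ℝ} {A : (Fin 3 → ℝ) →ₗ[ℝ] (Fin 3 → ℝ)} (hA : Iso N A) {v : Fin 3 → ℂ}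
    (hv : isoC N v) : CL_473.isoC N (cx A v) := by
  rw [isoC_iff] at hv ⊢
  rw [cx_re, cx_im, hA, hA, hA]
  exact hv

theorem isoC_sig (N : ℝ) (τ : ℂ) : isoC N (sig N τ) := by
  simp [isoC, sig]; ring

theorem hm_smul_sig (N : ℝ) (c τ : ℂ) :
    hm N (c • sig N τ) = Complex.normSq c * (2 * N * τ.im ^ 2) := by
  simp only [hm, qb, sig, Pi.smul_apply, smul_eq_mul, Complex.mul_re, Complex.mul_im,
    Complex.normSq_apply, pow_two, Matrix.cons_val_zero, Matrix.cons_val_one, Matrix.cons_val,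
    Complex.neg_re, Complex.neg_im, Complex.div_re, Complex.div_im, Complex.ofReal_re,
    Complex.ofReal_im, Complex.re_ofNat, Complex.im_ofNat, Complex.one_re, Complex.one_im]
  ring

theorem hm_sig (N : ℝ) (τ : ℂ) : hm N (sig N τ) = 2 * N * τ.im ^ 2 := by
  have := hm_smul_sig N 1 τ
  simpa using this

/-- an isotropic complex vector with positive hermitian norm is a multiple of a `σ_τ` -/
theorem eq_smul_sig {N : ℝ} (hN : 0 < N) {v : Fin 3 → ℂ} (hv : isoC N v) (hp : 0 < hm N v) :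
    v 0 ≠ 0 ∧ v = v 0 • sig N (v 1 / v 0) ∧ (v 1 / v 0).im ≠ 0 := by
  have h0 : v 0 ≠ 0 := by
    intro h0
    unfold isoC at hv
    rw [h0] at hv
    have h1 : v 1 = 0 := by
      have : (N : ℂ) * (v 1) ^ 2 = 0 := by linear_combination hv
      rcases mul_eq_zero.mp this with h | h
      · exact absurd (Complex.ofReal_eq_zero.mp h) hN.ne'
      · exact pow_eq_zero_iff (two_ne_zero) |>.mp h
    simp [hm, qb, h0, h1] at hp
  have heq : v = v 0 • sig N (v 1 / v 0) := by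
    unfold isoC at hv
    funext i
    fin_cases i
    · simp [sig]
    · simp [sig]; field_simp
    · simp only [sig, Fin.reduceFinMk, Pi.smul_apply, smul_eq_mul, Matrix.cons_val]
      field_simp
      linear_combination hv
  refine ⟨h0, heq, ?_⟩
  intro him
  rw [heq, hm_smul_sig, him] at hp
  simp at hp

/-- the action on `ℂ`: second over first coordinate of `A σ_τ` -/
noncomputable def mv (N : ℝ) (A : (Fin 3 → ℝ) →ₗ[ℝ] (Fin 3 → ℝ)) (τ : ℂ) : ℂ :=
  cx A (sig N τ) 1 / cx A (sig N τ) 0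

theorem Iso.mv_spec {N : ℝ} (hN : 0 < N) {A : (Fin 3 → ℝ) →ₗ[ℝ] (Fin 3 → ℝ)} (hA : Iso N A)
    {τ : ℂ} (hτ : τ.im ≠ 0) : cx A (sig N τ) 0 ≠ 0 ∧
      cx A (sig N τ) = cx A (sig N τ) 0 • sig N (mv N A τ) ∧ (mv N A τ).im ≠ 0 := by
  apply eq_smul_sig hN (hA.isoC (isoC_sig N τ))
  rw [hA.hm, hm_sig]; positivity

theorem cx_sig_cont (N : ℝ) (A : (Fin 3 → ℝ) →ₗ[ℝ] (Fin 3 → ℝ)) (i : Fin 3) :
    Continuous fun τ : ℂ => cx A (sig N τ) i := by
  have hA : Continuous A := A.continuous_of_finiteDimensional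
  have hs : ∀ k, Continuous fun τ : ℂ => sig N τ k := by
    intro k; fin_cases k <;> simp [sig] <;> fun_prop
  unfold cx
  have h1 : Continuous fun τ : ℂ => A (fun k => (sig N τ k).re) :=
    hA.comp (continuous_pi fun k => Complex.continuous_re.comp (hs k))
  have h2 : Continuous fun τ : ℂ => A (fun k => (sig N τ k).im) :=
    hA.comp (continuous_pi fun k => Complex.continuous_im.comp (hs k))
  have h1' : Continuous fun τ : ℂ => A (fun k => (sig N τ k).re) i := (continuous_apply i).comp h1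
  have h2' : Continuous fun τ : ℂ => A (fun k => (sig N τ k).im) i := (continuous_apply i).comp h2
  fun_prop

theorem Iso.mv_cont {N : ℝ} (hN : 0 < N) {A : (Fin 3 → ℝ) →ₗ[ℝ] (Fin 3 → ℝ)} (hA : Iso N A) :
    ContinuousOn (mv N A) {τ | τ.im ≠ 0} := by
  unfold mv
  apply ContinuousOn.div (cx_sig_cont N A 1).continuousOn (cx_sig_cont N A 0).continuousOn
  intro τ hτ
  exact (hA.mv_spec hN hτ).1

/-- if one point of `ℍ` goes to `ℍ`, all do -/
theorem Iso.mv_pos {N : ℝ} (hN : 0 < N) {A : (Fin 3 → ℝ) →ₗ[ℝ] (Fin 3 → ℝ)} (hA : Iso N A)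
    {τ0 : ℂ} (h0 : 0 < τ0.im) (h0' : 0 < (mv N A τ0).im) : ∀ τ : ℂ, 0 < τ.im → 0 < (mv N A τ).im := by
  intro τ hτ
  by_contra hneg
  have hconv : IsPreconnected {τ : ℂ | 0 < τ.im} :=
    (convex_halfSpace_im_gt 0).isPreconnected
  have hc : ContinuousOn (fun τ => (mv N A τ).im) {τ : ℂ | 0 < τ.im} :=
    Complex.continuous_im.comp_continuousOn ((hA.mv_cont hN).mono fun z hz => (ne_of_gt hz))
  have hmem : (0 : ℝ) ∈ (fun τ => (mv N A τ).im) '' {τ : ℂ | 0 < τ.im} :=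
    hconv.intermediate_value hτ h0 hc ⟨not_lt.mp hneg, h0'.le⟩
  obtain ⟨z, hz, hz0⟩ := hmem
  exact (hA.mv_spec hN (ne_of_gt hz)).2.2 hz0

/-- a vector `c • σ_τ` determines `τ` -/
theorem sig_inj {N : ℝ} {c c' τ τ' : ℂ} (hc : c ≠ 0) (h : c • sig N τ = c' • sig N τ') :
    c = c' ∧ τ = τ' := by
  have h0 := congrFun h 0
  have h1 := congrFun h 1
  simp [sig] at h0 h1
  refine ⟨h0, ?_⟩
  rw [← h0] at h1
  exact mul_left_cancel₀ hc h1

theorem Iso.mv_comp {N : ℝ} (hN : 0 < N) {A B : (Fin 3 → ℝ) →ₗ[ℝ] (Fin 3 → ℝ)} (hA : Iso N A)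
    (hB : Iso N B) {τ : ℂ} (hτ : τ.im ≠ 0) : mv N (A * B) τ = mv N A (mv N B τ) := by
  have hAB : Iso N (A * B) := fun w w' => by
    change qb N (A (B w)) (A (B w')) = _
    rw [hA, hB]
  have h1 := hB.mv_spec hN hτ
  have h2 := hA.mv_spec hN h1.2.2
  have h3 := hAB.mv_spec hN hτ
  have h4 : cx (A * B) (sig N τ) = (cx B (sig N τ) 0 * cx A (sig N (mv N B τ)) 0) •
      sig N (mv N A (mv N B τ)) := by
    rw [cx_comp, h1.2.1, cx_smul, h2.2.1, smul_smul]
    congr 2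
    · have : (cx B (sig N τ) 0 • sig N (mv N B τ)) 0 = cx B (sig N τ) 0 := by simp [sig]
      rw [this]
    · have : (cx B (sig N τ) 0 • sig N (mv N B τ)) 0 = cx B (sig N τ) 0 := by simp [sig]
      have h5 : (cx A (sig N (mv N B τ)) 0 • sig N (mv N A (mv N B τ))) 0
        = cx A (sig N (mv N B τ)) 0 := by simp [sig]
      rw [h5]
  have h5 : cx (A * B) (sig N τ) 0 • sig N (mv N (A * B) τ) =
      (cx B (sig N τ) 0 * cx A (sig N (mv N B τ)) 0) • sig N (mv N A (mv N B τ)) := by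
    rw [← h3.2.1, h4]
  exact (sig_inj h3.1 h5).2

theorem mv_one (N : ℝ) (τ : ℂ) : mv N 1 τ = τ := by
  simp [mv, cx_one, sig]

/-- invariance of the majorant -/
theorem Iso.maj {N : ℝ} (hN : 0 < N) {A : (Fin 3 → ℝ) →ₗ[ℝ] (Fin 3 → ℝ)} (hA : Iso N A)
    (τ τ' : ℍ) (h : mv N A τ = τ') (w : Fin 3 → ℝ) : Maj N τ' (A w) = Maj N τ w := by
  have hspec := hA.mv_spec hN (τ := (τ : ℂ)) (by rw [UpperHalfPlane.coe_im]; exact τ.im_ne_zero)
  rw [h] at hspec
  set j := cx A (sig N τ) 0 with hj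
  have h1 : j * per N (A w) τ' = per N w τ := by
    rw [per_eq_qc, per_eq_qc, ← hA.qc w (sig N τ), hspec.2.1]
    have : (j • sig N (τ' : ℂ)) 0 = j := by simp [sig]
    simp [CL_473.qc]; ring
  have h2 : Complex.normSq j * (2 * N * τ'.im ^ 2) = 2 * N * τ.im ^ 2 := by
    have e1 := hA.hm (sig N τ)
    rw [hspec.2.1, hm_smul_sig, hm_sig] at e1
    have : (j • sig N (τ' : ℂ)) 0 = j := by simp [sig]
    rw [UpperHalfPlane.coe_im, UpperHalfPlane.coe_im] at e1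
    exact e1
  rw [Maj_eq hN, Maj_eq hN, hA, ← h1, Complex.normSq_mul]
  have hj0 : Complex.normSq j ≠ 0 := by
    rw [Ne, Complex.normSq_eq_zero]; exact hspec.1
  have hy : τ'.im ≠ 0 := τ'.im_ne_zero
  have hy2 : τ.im ≠ 0 := τ.im_ne_zero
  have h3 : N * τ.im ^ 2 = Complex.normSq j * (N * τ'.im ^ 2) := by linarith
  rw [h3]
  congr 1
  field_simp

/-- a group acting by isometries of the component `ℍ` -/
structure UpRep (N : ℝ) (G : Type*) [Group G] where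
  ρ : G →* ((Fin 3 → ℝ) →ₗ[ℝ] (Fin 3 → ℝ))
  iso : ∀ g, Iso N (ρ g)
  up : ∀ g, ∀ τ : ℂ, 0 < τ.im → 0 < (mv N (ρ g) τ).im

/-- the action on `ℍ` -/
@[reducible] noncomputable def UpRep.act {N : ℝ} (hN : 0 < N) {G : Type*} [Group G]
    (R : UpRep N G) : MulAction G ℍ where
  smul g τ := ⟨mv N (R.ρ g) τ, R.up g τ (by rw [UpperHalfPlane.coe_im]; exact τ.im_pos)⟩
  one_smul τ := by
    apply UpperHalfPlane.ext
    change mv N (R.ρ 1) τ = τ
    rw [map_one, mv_one]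
  mul_smul g h τ := by
    apply UpperHalfPlane.ext
    change mv N (R.ρ (g * h)) τ = mv N (R.ρ g) (mv N (R.ρ h) τ)
    rw [map_mul, (R.iso g).mv_comp hN (R.iso h)]
    rw [UpperHalfPlane.coe_im]; exact τ.im_ne_zero

theorem UpRep.act_coe {N : ℝ} (hN : 0 < N) {G : Type*} [Group G] (R : UpRep N G) (g : G) (τ : ℍ) :
    letI := R.act hN
    ((g • τ : ℍ) : ℂ) = mv N (R.ρ g) τ := rfl

theorem UpRep.act_continuous {N : ℝ} (hN : 0 < N) {G : Type*} [Group G] (R : UpRep N G) (g : G) :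
    letI := R.act hN
    Continuous fun τ : ℍ => g • τ := by
  letI := R.act hN
  rw [UpperHalfPlane.isEmbedding_coe.continuous_iff]
  change Continuous fun τ : ℍ => mv N (R.ρ g) (τ : ℂ)
  exact ((R.iso g).mv_cont hN).comp_continuous UpperHalfPlane.continuous_coe
    fun τ => by change (τ : ℂ).im ≠ 0; rw [UpperHalfPlane.coe_im]; exact τ.im_ne_zero

/-- an isometric representation compatible with a period map is an `UpRep` -/
theorem up_of_compat {N : ℝ} (hN : 0 < N) {A : (Fin 3 → ℝ) →ₗ[ℝ] (Fin 3 → ℝ)} (hA : Iso N A)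
    {τ τ' : ℍ} {j : ℂ} (h : cx A (sig N τ) = j • sig N τ') :
    mv N A τ = τ' ∧ ∀ z : ℂ, 0 < z.im → 0 < (mv N A z).im := by
  have hspec := hA.mv_spec hN (τ := (τ : ℂ)) (by rw [UpperHalfPlane.coe_im]; exact τ.im_ne_zero)
  have h1 : mv N A τ = τ' := by
    have h2 := hspec.2.1
    have h3 : cx A (sig N τ) 0 • sig N (mv N A τ) = j • sig N τ' := by rw [← h2, h]
    exact (sig_inj hspec.1 h3).2
  refine ⟨h1, ?_⟩
  apply hA.mv_pos hN (τ0 := τ)
  · rw [UpperHalfPlane.coe_im]; exact τ.im_pos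
  · rw [h1, UpperHalfPlane.coe_im]; exact τ'.im_pos

end Crest.Agent.R281.CL_473
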