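import Crest.Agent.R281.Nc2_957

/-!
# R281 / Nc3 (helper957): closure properties of `An`, the coordinate on the marked cover
-/

set_option autoImplicit false

namespace Crest.Agent.R281.Nc_957

open Topology Filter Set UpperHalfPlane

variable {E : Type*} [TopologicalSpace E] {u Φ : E → ℂ}

theorem an_coord (u : E → ℂ) : An u u := fun _ => ⟨id, analyticAt_id, Eventually.of_forall fun _ => rfl⟩

theorem an_const (u : E → ℂ) (c : ℂ) : An u fun _ => c :=
  fun _ => ⟨fun _ => c, analyticAt_const, Eventually.of_forall fun _ => rfl⟩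

/-- it is enough to have a holomorphic function near each point -/
theorem an_of_differentiableOn (h : ∀ x, ∃ φ : ℂ → ℂ, ∃ U ∈ 𝓝 (u x), DifferentiableOn ℂ φ U ∧
    Φ =ᶠ[𝓝 x] φ ∘ u) : An u Φ := fun x => by
  obtain ⟨φ, U, hU, hd, he⟩ := h x
  exact ⟨φ, hd.analyticAt hU, he⟩

theorem An.comp_left (h : An u Φ) {M : ℂ → ℂ} (hM : ∀ x, AnalyticAt ℂ M (Φ x)) :
    An u (M ∘ Φ) := fun x => by
  obtain ⟨φ, hφ, he⟩ := h x
  have h3 : Φ x = φ (u x) := he.self_of_nhds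
  refine ⟨M ∘ φ, (h3 ▸ hM x : AnalyticAt ℂ M (φ (u x))).comp hφ, ?_⟩
  filter_upwards [he] with y hy
  exact congrArg M hy

/-- pull back along a continuous map -/
theorem An.comp_right {E' : Type*} [TopologicalSpace E'] (h : An u Φ) {π : E' → E}
    (hπ : Continuous π) : An (u ∘ π) (Φ ∘ π) := fun x => by
  obtain ⟨φ, hφ, he⟩ := h (π x)
  exact ⟨φ, hφ, (hπ.tendsto x).eventually he⟩

theorem An.congr {Ψ : E → ℂ} (h : An u Φ) (he : ∀ x, Ψ x = Φ x) : An u Ψ := by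
  rwa [show Ψ = Φ from funext he]

/-- locality: `An` may be checked near each point, with another function there -/
theorem an_of_local (h : ∀ x, ∃ Ψ : E → ℂ, (∃ φ : ℂ → ℂ, AnalyticAt ℂ φ (u x) ∧ Ψ =ᶠ[𝓝 x] φ ∘ u) ∧
    Φ =ᶠ[𝓝 x] Ψ) : An u Φ := fun x => by
  obtain ⟨Ψ, ⟨φ, hφ, he⟩, h2⟩ := h x
  exact ⟨φ, hφ, h2.trans he⟩

/-- the coordinate `u` on the marked cover is a local homeomorphism -/
theorem localHomeo_coord {Q : Type*} [TopologicalSpace Q] {F : Set ℂ} (hF : IsClosed F)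
    {p : Q → ↥(Fᶜ)} (hp : IsCoveringMap p) {π : E → Q} (hπ : IsCoveringMap π) :
    IsLocalHomeomorph fun x => (p (π x) : ℂ) :=
  (hF.isOpen_compl.isOpenEmbedding_subtypeVal.isLocalHomeomorph.comp
    hp.isLocalHomeomorph).comp hπ.isLocalHomeomorph

/-- a Moebius transformation of `ℍ` is the restriction of a holomorphic map -/
theorem an_moeb {a b c d : ℝ} {τ : ℂ} (h : (c : ℂ) * τ + d ≠ 0) :
    AnalyticAt ℂ (fun z : ℂ => ((a : ℂ) * z + b) / ((c : ℂ) * z + d)) τ :=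
  ((analyticAt_const.mul analyticAt_id).add analyticAt_const).div
    ((analyticAt_const.mul analyticAt_id).add analyticAt_const) h

/-- an injective function on a nonempty interval leaves a countable set -/
theorem exists_notMem {X : Type*} {f : ℝ → X} {a b : ℝ} (hab : a < b) (hf : InjOn f (Ioo a b))
    {S : Set X} (hS : S.Countable) : ∃ s ∈ Ioo a b, f s ∉ S := by
  by_contra hcon
  push Not at hcon
  have h1 : (Ioo a b).Countable := by
    refine Set.countable_of_injective_of_countable_image hf (hS.mono ?_)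
    rintro _ ⟨s, hs, rfl⟩
    exact hcon s hs
  have h2 := Cardinal.mk_Ioo_real hab
  rw [← Cardinal.le_aleph0_iff_set_countable] at h1
  rw [h2] at h1
  exact absurd h1 (not_le.2 Cardinal.aleph0_lt_continuum)

/-- **non-constancy and bad values on the marked cover** (all in one): `Q` a covering of the plane
minus a closed countable set `F`, `E` a covering of `Q`, `Φ` holomorphic on `E`, `S` a countable set
containing the values of `Φ` over `b`, `Φ x₀ ∉ S`. -/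
theorem main {Q : Type*} [TopologicalSpace Q] {F : Set ℂ} (hFc : F.Countable) (hF : IsClosed F)
    {p : Q → ↥(Fᶜ)} (hp : IsCoveringMap p) {π : E → Q} (hπ : IsCoveringMap π) [LindelofSpace E]
    {G : Type*} [Group G] [Countable G] [MulAction G ℍ] {Φ : E → ℍ}
    (hΦ : An (fun x => (p (π x) : ℂ)) fun x => (Φ x : ℂ)) {P : Set ℍ} (hP : P.Countable)
    {x₀ : E} {b : ↥(Fᶜ)} {S : Set ℍ} (hS : ∀ y, p (π y) = b → Φ y ∈ S) (h0 : Φ x₀ ∉ S) :
    ∃ Bad : Set ℍ, Bad.Countable ∧ P ⊆ Bad ∧ (∀ (g : G), ∀ τ ∈ Bad, g • τ ∈ Bad) ∧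
      (∀ x, Φ x ∉ Bad → ∃ s : ℍ → E, ∃ U ∈ 𝓝 x, ∃ V ∈ 𝓝 (Φ x), ContinuousOn s V ∧
        (∀ τ ∈ V, Φ (s τ) = τ) ∧ ∀ x' ∈ U, s (Φ x') = x') ∧
      ∀ U ∈ 𝓝 x₀, ∃ x₁ ∈ U, Joined x₀ x₁ ∧ (Φ x₁).im = (Φ x₀).im ∧
        ∀ τ ∈ Bad, τ.re ≠ (Φ x₁).re := by
  have hu := localHomeo_coord hF hp hπ
  obtain ⟨Bad, h1, h2, h3, h4⟩ := exists_bad (G := G) hu hΦ hP
  obtain ⟨y, hj, hy⟩ := exists_joined hFc hp hπ x₀ b
  exact ⟨Bad, h1, h2, h3, h4, fun U hU => exists_start hu hΦ h0 (hS y hy) hj h1 hU⟩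

end Crest.Agent.R281.Nc_957
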