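import Crest.Agent.R281.Ends5_989
import Crest.Agent.R281.CL4_473
import Crest.Agent.R281.Nc3_957

/-!
# R281 / As1 (helper957): assembly of the curve part of B4, geometry interface

`Q = Qs f δ` (helper989), local transports `LS` over `Q` (helper473), holomorphic equivariant period
map with values in `ℍ`, the group acts through isometries of a ternary lattice.
-/

set_option autoImplicit false
set_option linter.style.haveILetI false

open Polynomial Set Filter Topology UpperHalfPlane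
open scoped Polynomial.Bivariate

namespace Crest.Agent.R281.As_957

open Ends1_989 Ends2_989 Ends3_989 Ends4_989 Ends5_989 CL_473 Nc_957

noncomputable section

variable {f : ℂ[X][Y]} {δ : ℂ[X]}

/-- zeros of the discriminant -/
def Zd (δ : ℂ[X]) : Set ℂ := {u | δ.eval u = 0}

theorem isClosed_Zd (δ : ℂ[X]) : IsClosed (Zd δ) := isClosed_eq δ.continuous continuous_const

theorem countable_Zd (hδ : δ ≠ 0) : (Zd δ).Countable := by
  have h : (Zd δ) = (δ.rootSet ℂ) := by
    ext u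
    simp [Zd, mem_rootSet, hδ]
  rw [h]
  exact (rootSet_finite δ ℂ).countable

/-- the projection of the curve to the line minus the zeros of `δ` -/
def qpr (f : ℂ[X][Y]) (δ : ℂ[X]) (q : Qs f δ) : ↥((Zd δ)ᶜ) := ⟨q.1.1, q.2.2⟩

/-- the two descriptions of the curve -/
def qHomeo (f : ℂ[X][Y]) (δ : ℂ[X]) : Qs f δ ≃ₜ (pr f ⁻¹' (Zd δ)ᶜ : Set (Zf f)) where
  toFun q := ⟨⟨q.1, q.2.1⟩, q.2.2⟩
  invFun x := ⟨x.1.1, x.1.2, x.2⟩
  left_inv _ := rfl
  right_inv _ := rfl
  continuous_toFun := (continuous_subtype_val.subtype_mk _).subtype_mk _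
  continuous_invFun := (continuous_subtype_val.comp continuous_subtype_val).subtype_mk _

theorem isCoveringMap_qpr (hf : f.Monic) (hs : Sep f δ) : IsCoveringMap (qpr f δ) :=
  ((isCoveringMapOn_pr hf hs).isCoveringMap_restrictPreimage).comp_homeomorph (qHomeo f δ)

theorem locallyCompact_Qs (f : ℂ[X][Y]) (δ : ℂ[X]) : LocallyCompactSpace (Qs f δ) := by
  have h : Qs f δ = Zf f ∩ {q | δ.eval q.1 ≠ 0} := rfl
  have h1 : IsOpen {q : ℂ × ℂ | δ.eval q.1 ≠ 0} :=
    (isClosed_eq (δ.continuous.comp continuous_fst) continuous_const).isOpen_compl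
  have h2 : IsLocallyClosed (Qs f δ) := h ▸ (isClosed_Zf f).isLocallyClosed.inter h1.isLocallyClosed
  exact h2.locallyCompactSpace

/-- **the geometry over the curve**: local transports of markings, period map -/
structure Geom (f : ℂ[X][Y]) (δ : ℂ[X]) (N : ℝ) (Λ : Set (Fin 3 → ℝ)) (G : Type*) [Group G]
    (E : Type*) [MulAction G E] extends LS (Qs f δ) G E where
  /-- action on the ternary lattice -/
  R : UpRep N G
  mem : ∀ g, ∀ w ∈ Λ, R.ρ g w ∈ Λ
  /-- the period map -/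
  Φ : E → ℍ
  Φ_smul : ∀ g x, (Φ (g • x) : ℂ) = mv N (R.ρ g) (Φ x)
  /-- holomorphic along the transports, in the coordinate `u` -/
  Φ_hol : ∀ x, ∃ φ : ℂ → ℂ, AnalyticAt ℂ φ (p x).1.1 ∧ ∀ᶠ q in 𝓝 (p x), (Φ (s x q) : ℂ) = φ q.1.1

namespace Geom

variable {N : ℝ} {Λ : Set (Fin 3 → ℝ)} {G : Type*} [Group G] {E : Type*} [MulAction G E]
  (D : Geom f δ N Λ G E)

/-- the total space of marked members -/
abbrev T : Type _ := D.toLS.Tot

/-- the coordinate `u` -/
def u (x : D.T) : ℂ := (D.toLS.pr x).1.1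

/-- the period map on the total space -/
def Ψ (x : D.T) : ℍ := D.Φ x

theorem localHomeo_u (hf : f.Monic) (hs : Sep f δ) : IsLocalHomeomorph D.u :=
  localHomeo_coord (isClosed_Zd δ) (isCoveringMap_qpr hf hs) D.toLS.isCoveringMap

theorem an : An D.u fun x => (D.Ψ x : ℂ) := fun x => by
  obtain ⟨φ, hφ, h⟩ := D.Φ_hol x
  refine ⟨φ, hφ, ?_⟩
  change ∀ᶠ y in 𝓝 x, (D.Ψ y : ℂ) = φ (D.u y)
  rw [D.toLS.nhds_eq, eventually_map]
  filter_upwards [h, (D.U_open (D.p x)).mem_nhds (D.U_mem (D.p x))] with q hq hU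
  have h1 : D.toLS.pr (D.toLS.tr x q) = q := D.toLS.pr_tr x hU
  have h2 : D.u (D.toLS.tr x q) = q.1.1 := by rw [u, h1]
  rw [h2]
  exact hq

theorem continuous_Ψ (hf : f.Monic) (hs : Sep f δ) : Continuous D.Ψ := by
  rw [UpperHalfPlane.isEmbedding_coe.continuous_iff]
  exact D.an.continuous (D.localHomeo_u hf hs)

theorem Ψ_smul (hN : 0 < N) (g : G) (x : D.T) :
    letI := D.R.act hN
    D.Ψ (g • x) = g • D.Ψ x := by
  letI := D.R.act hN
  apply UpperHalfPlane.ext
  exact D.Φ_smul g x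

theorem maj_smul (hN : 0 < N) (g : G) (x : D.T) (w : Fin 3 → ℝ) :
    Maj N (D.Ψ (g • x)) (D.R.ρ g w) = Maj N (D.Ψ x) w :=
  (D.R.iso g).maj hN _ _ (D.Φ_smul g x).symm w

end Geom

end

end Crest.Agent.R281.As_957
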