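import Crest.Agent.R281.As1_957

/-!
# R281 / As2 (helper957): the ends upstairs and the assembled theorem of the curve part of B4
-/

set_option autoImplicit false
set_option linter.style.haveILetI false

open Polynomial Set Filter Topology UpperHalfPlane
open scoped Polynomial.Bivariate

namespace Crest.Agent.R281.As_957

open Ends1_989 Ends2_989 Ends3_989 Ends4_989 Ends5_989 CL_473 Nc_957

noncomputable section

variable {f : ℂ[X][Y]} {δ : ℂ[X]} {N : ℝ} {Λ : Set (Fin 3 → ℝ)} {G : Type*} [Group G] {E : Type*}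
  [MulAction G E] (D : Geom f δ N Λ G E)

/-- an end with a continuous marking -/
structure LEnd where
  /-- the end downstairs -/
  En : EndC f δ
  /-- marked members over the end -/
  F : ℂ → D.T
  /-- monodromy -/
  g : G
  cont : Continuous F
  pr : ∀ z : ℂ, 1 ≤ z.im → (D.toLS.pr (F z) : ℂ × ℂ) = (En.U z, En.V z)
  per : ∀ z, F (z + 1) = g • F z

theorem mem_Hp {z : ℂ} (h : 1 ≤ z.im) : z ∈ Hp := lt_of_lt_of_le one_pos h

theorem exists_lends (hf : f.Monic) (hδ : δ ≠ 0) (hs : Sep f δ) :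
    ∃ (n : ℕ) (s : Set (Fin n)) (e : s → LEnd D) (K : Set D.T), IsCompact K ∧
      ∀ x : D.T, ∃ (g : G) (a : D.T), x = g • a ∧ (a ∈ K ∨ ∃ i z, 1 ≤ z.im ∧ a = (e i).F z) := by
  classical
  haveI := locallyCompact_Qs f δ
  obtain ⟨n, En, K₀, hK₀, hK₀Q, hcov⟩ := exists_ends hf hδ hs
  -- the ends downstairs
  let η : Fin n → ℂ → ↥(Qs f δ) := fun i z =>
    if h : z ∈ Hp then ⟨((En i).U z, (En i).V z), (En i).mem z h⟩ else
      ⟨((En i).U Complex.I, (En i).V Complex.I), (En i).mem _ I_mem⟩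
  have hη : ∀ i z, 1 ≤ z.im → (η i z : ℂ × ℂ) = ((En i).U z, (En i).V z) := fun i z hz => by
    simp only [η, dif_pos (mem_Hp hz)]
  have hηc : ∀ i, ContinuousOn (η i) {z | 1 ≤ z.im} := fun i => by
    rw [Topology.IsInducing.subtypeVal.continuousOn_iff]
    have h1 : ContinuousOn (fun z => ((En i).U z, (En i).V z)) {z | 1 ≤ z.im} :=
      ((En i).diffU.continuousOn.prodMk (En i).diffV.continuousOn).mono fun z hz => mem_Hp hz
    exact h1.congr fun z hz => hη i z hz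
  have hηp : ∀ i z, 1 ≤ z.im → η i (z + 1) = η i z := fun i z hz => by
    apply Subtype.ext
    rw [hη i z hz, hη i (z + 1) (by simpa using hz), (En i).perU, (En i).perV]
  -- ends with non-empty fibres
  let s : Set (Fin n) := {i | ∃ z : ℂ, 1 ≤ z.im ∧ ∃ x : D.T, D.toLS.pr x = η i z}
  have hlift : ∀ i : s, ∃ e : LEnd D, ∀ z : ℂ, 1 ≤ z.im → D.toLS.pr (e.F z) = η i z := fun i => by
    obtain ⟨z₀, hz₀, x₀, hx₀⟩ := i.2
    obtain ⟨F, g, hF, -, hpr, hper⟩ := D.toLS.exists_end (hηc i) (hηp i) hz₀ hx₀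
    exact ⟨⟨En i, F, g, hF, fun z hz => by rw [hpr z hz, hη _ z hz], hper⟩, hpr⟩
  choose e he using hlift
  -- the core
  have hK₁ : IsCompact ((Subtype.val : Qs f δ → ℂ × ℂ) ⁻¹' K₀) := by
    rw [Topology.IsInducing.subtypeVal.isCompact_iff, Subtype.image_preimage_coe,
      inter_eq_self_of_subset_right hK₀Q]
    exact hK₀
  obtain ⟨K, hK, hcore⟩ := D.toLS.exists_core hK₁
  refine ⟨n, s, e, K, hK, fun x => ?_⟩
  rcases hcov (D.toLS.pr x).1 (D.toLS.pr x).2 with h | ⟨i, z, hz, h⟩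
  · obtain ⟨g, a, ha, hx⟩ := hcore x h
    exact ⟨g, a, hx, Or.inl ha⟩
  · have hpr : D.toLS.pr x = η i z := Subtype.ext (by rw [hη i z hz, h])
    have hi : i ∈ s := ⟨z, hz, x, hpr⟩
    obtain ⟨g, hg⟩ := D.toLS.exists_smul (x := (e ⟨i, hi⟩).F z) (y := x)
      ((he ⟨i, hi⟩ z hz).trans hpr.symm)
    exact ⟨g, _, hg, Or.inr ⟨⟨i, hi⟩, z, hz, rfl⟩⟩

variable {D}

/-- the period along a lifted end is holomorphic -/
theorem LEnd.diff (e : LEnd D) : DifferentiableOn ℂ (fun z => (D.Ψ (e.F z) : ℂ)) {z | 1 < z.im} := by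
  intro z hz
  have hz' : 1 < z.im := hz
  obtain ⟨φ, hφ, h⟩ := D.an (e.F z)
  have hopen : IsOpen {z : ℂ | 1 < z.im} := isOpen_lt continuous_const Complex.continuous_im
  have hu : D.u (e.F z) = e.En.U z := congrArg Prod.fst (e.pr z hz'.le)
  have h1 : ∀ᶠ z' in 𝓝 z, (D.Ψ (e.F z') : ℂ) = φ (D.u (e.F z')) := e.cont.continuousAt.eventually h
  have h2 : (fun z' => (D.Ψ (e.F z') : ℂ)) =ᶠ[𝓝 z] fun z' => φ (e.En.U z') := by
    filter_upwards [h1, hopen.mem_nhds hz'] with z' hz1 hz2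
    have hz2' : 1 < z'.im := hz2
    have h3 : D.u (e.F z') = e.En.U z' := congrArg Prod.fst (e.pr z' hz2'.le)
    rw [hz1, h3]
  have h3 : DifferentiableAt ℂ e.En.U z :=
    (e.En.diffU z (mem_Hp hz'.le)).differentiableAt (isOpen_Hp.mem_nhds (mem_Hp hz'.le))
  have h4 : DifferentiableAt ℂ φ (e.En.U z) := by
    rw [← hu]
    exact hφ.differentiableAt
  exact ((h4.comp z h3).congr_of_eventuallyEq h2).differentiableWithinAt

/-- the local statement at a puncture (`ends` of helper698) -/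
def EndsProp (N : ℝ) (Λ : Set (Fin 3 → ℝ)) : Prop :=
  ∀ φ : ℂ → ℍ, DifferentiableOn ℂ (fun z => (φ z : ℂ)) {z | 1 < z.im} →
    ∀ A : (Fin 3 → ℝ) →ₗ[ℝ] (Fin 3 → ℝ), (∀ w ∈ Λ, A w ∈ Λ) →
    (∀ w, qb N (A w) (A w) = qb N w w) →
    (∀ z, 1 < z.im → ∀ w, Maj N (φ (z + 1)) (A w) = Maj N (φ z) w) →
    (∃ p : ℍ, ∀ W ∈ 𝓝 p, ∃ T, ∀ z : ℂ, T ≤ z.im → φ z ∈ W) ∨
    ∃ w ∈ Λ, w ≠ 0 ∧ qb N w w = 0 ∧ (A w = w ∨ A w = -w) ∧
      (∀ ε > 0, ∃ T, ∀ z : ℂ, T ≤ z.im → Maj N (φ z) w < ε) ∧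
      ∃ r > 0, ∃ C, ∀ z : ℂ, 2 ≤ z.im → |1 / Real.sqrt (Maj N (φ z) w) - r * z.im| ≤ C

/-- the conclusion at the end over the cusp `e` -/
structure Good (e : LEnd D) (w : Fin 3 → ℝ) : Prop where
  mem : w ∈ Λ
  ne : w ≠ 0
  iso : qb N w w = 0
  inv : D.R.ρ e.g w = w ∨ D.R.ρ e.g w = -w
  growth : ∃ r > 0, ∃ C, ∀ z : ℂ, 2 ≤ z.im →
    |1 / Real.sqrt (Maj N (D.Ψ (e.F z)) w) - r * z.im| ≤ C

theorem b4_of_ends (D : Geom f δ N Λ G E) [Countable G] (hN : 0 < N) (hΛ : Lat N Λ)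
    (hE : EndsProp N Λ) (hf : f.Monic) (hδ : δ ≠ 0) (hs : Sep f δ) (x₀ : D.T) {b : ℂ}
    (hb : δ.eval b ≠ 0) {S : Set ℍ} (hS : ∀ x : D.T, D.u x = b → D.Ψ x ∈ S)
    (h0 : D.Ψ x₀ ∉ S) :
    ∃ (e : LEnd D) (w : Fin 3 → ℝ), Good e w ∧ ∀ T₀ : ℝ, ∃ (z : ℂ) (g : G) (t : ℝ), 1 ≤ z.im ∧
      T₀ ≤ z.im ∧ t ≠ 0 ∧ D.R.ρ g w = t • ![0, 0, 1] ∧ Joined x₀ (g • e.F z) := by
  classical
  letI act := D.R.act hN
  obtain ⟨n, s, e, K, hK, hcov⟩ := exists_lends D hf hδ hs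
  haveI : LindelofSpace D.T := isLindelof_of_cover (fun (g : G) (x : D.T) => g • x)
    (fun g => D.toLS.continuous_smul' g) hK (fun i : s => (e i).F)
    (fun i => (e i).cont.continuousOn) hcov
  -- the ends
  have hends : ∀ i : s, (∃ p : ℍ, ∀ W ∈ 𝓝 p, ∃ T, ∀ z : ℂ, T ≤ z.im → D.Ψ ((e i).F z) ∈ W) ∨
      ∃ w : Fin 3 → ℝ, Good (e i) w ∧
        ∀ ε > 0, ∃ T, ∀ z : ℂ, T ≤ z.im → Maj N (D.Ψ ((e i).F z)) w < ε := fun i => by
    rcases hE (fun z => D.Ψ ((e i).F z)) (e i).diff (D.R.ρ (e i).g) (D.mem _)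
      (fun w => D.R.iso _ w w) (fun z _ w => by rw [(e i).per]; exact D.maj_smul hN _ _ w) with
      h | ⟨w, h1, h2, h3, h4, h5, h6⟩
    · exact Or.inl h
    · exact Or.inr ⟨w, ⟨h1, h2, h3, h4, h6⟩, h5⟩
  let cusp : s → Prop := fun i => ∃ w : Fin 3 → ℝ, Good (e i) w ∧
    ∀ ε > 0, ∃ T, ∀ z : ℂ, T ≤ z.im → Maj N (D.Ψ ((e i).F z)) w < ε
  let w : s → Fin 3 → ℝ := fun i => if h : cusp i then h.choose else 0
  have hw : ∀ i, cusp i → Good (e i) (w i) ∧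
      ∀ ε > 0, ∃ T, ∀ z : ℂ, T ≤ z.im → Maj N (D.Ψ ((e i).F z)) (w i) < ε := fun i h => by
    simp only [w, dif_pos h]
    exact h.choose_spec
  let pt : s → ℍ := fun i => if h : (∃ p : ℍ, ∀ W ∈ 𝓝 p, ∃ T, ∀ z : ℂ, T ≤ z.im →
    D.Ψ ((e i).F z) ∈ W) then h.choose else UpperHalfPlane.I
  have hpt : ∀ i, ¬ cusp i → ∀ W ∈ 𝓝 (pt i), ∃ T, ∀ z : ℂ, T ≤ z.im → D.Ψ ((e i).F z) ∈ W :=
    fun i h => by
    have h1 := (hends i).resolve_right h
    simp only [pt, dif_pos h1]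
    exact h1.choose_spec
  -- bad values and the starting point
  obtain ⟨y, hj, hy⟩ := exists_joined (countable_Zd hδ) (isCoveringMap_qpr hf hs)
    D.toLS.isCoveringMap x₀ ⟨b, hb⟩
  have hyb : D.u y = b := congrArg Subtype.val hy
  have hu := D.localHomeo_u hf hs
  obtain ⟨Bad, hBc, hPB, hBinv, hgood⟩ := exists_bad (G := G) (P := range pt) hu D.an
    (countable_range pt)
  obtain ⟨x₁, -, hj₁, him, hre⟩ := exists_start hu D.an h0 (hS y hyb) hj hBc univ_mem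
  let Da : Dat N Λ G D.T s :=
    { ρ := fun g => D.R.ρ g
      ρ_mem := D.mem
      ρ_iso := fun g w => D.R.iso g w w
      ρ_maj := fun g τ w => (D.R.iso g).maj hN _ _ rfl w
      act := fun g g' h τ => UpperHalfPlane.ext (by
        change mv N (D.R.ρ g) τ = mv N (D.R.ρ g') τ
        rw [h])
      act_cont := D.R.act_continuous hN
      act_E := fun g => D.toLS.continuous_smul' g
      Φ := D.Ψ
      Φ_cont := D.continuous_Ψ hf hs
      Φ_equiv := D.Ψ_smul hN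
      K := K
      K_comp := hK
      ε := fun i => (e i).F
      ε_cont := fun i => (e i).cont.continuousOn
      ε_per := fun i z _ => ⟨(e i).g, (e i).per z⟩
      cover := hcov
      Bad := Bad
      Bad_inv := hBinv
      good := hgood
      cusp := cusp
      w := w
      w_mem := fun i h => ⟨(hw i h).1.mem, (hw i h).1.ne, (hw i h).1.iso⟩
      w_lim := fun i h ε hε => by
        obtain ⟨T, hT⟩ := (hw i h).2 ε hε
        exact ⟨T, fun z _ hz => hT z hz⟩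
      pt := pt
      pt_bad := fun i _ => hPB ⟨i, rfl⟩
      pt_lim := fun i h W hW => by
        obtain ⟨T, hT⟩ := hpt i h W hW
        exact ⟨T, fun z _ hz => hT z hz⟩ }
  -- the vertical ray
  have hb0 : 0 < (D.Ψ x₁).im := (D.Ψ x₁).im_pos
  have hx₁ : Da.Φ x₁ = ray (D.Ψ x₁).re (D.Ψ x₁).im :=
    UpperHalfPlane.ext_re_im (ray_re hb0).symm (ray_im hb0).symm
  have hbad : ∀ y, (D.Ψ x₁).im ≤ y → ray (D.Ψ x₁).re y ∉ Da.Bad := fun y hy hmem =>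
    hre _ hmem (ray_re (hb0.trans_le hy))
  have hlift := Da.exists_lift hN hΛ hb0 hx₁ hbad
  have hkey : ∀ T₀ : ℝ, ∃ (i : s) (z : ℂ) (g : G) (t : ℝ), cusp i ∧ 1 ≤ z.im ∧
      T₀ ≤ z.im ∧ t ≠ 0 ∧ D.R.ρ g (w i) = t • ![0, 0, 1] ∧ Joined x₀ (g • (e i).F z) := by
    intro T₀
    obtain ⟨Y₀, hY₀⟩ := Da.reach_cusp hN hΛ (D.Ψ x₁).re T₀
    obtain ⟨c, hc, hc0, hcΦ⟩ := hlift (max Y₀ (D.Ψ x₁).im) (le_max_right _ _)
    have hle : (D.Ψ x₁).im ≤ max Y₀ (D.Ψ x₁).im := le_max_right _ _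
    obtain ⟨g, i, z, hi, h1, h2, hx, t, ht, hg⟩ := hY₀ (max Y₀ (D.Ψ x₁).im) (le_max_left _ _)
      (c (max Y₀ (D.Ψ x₁).im)) (hcΦ _ ⟨hle, le_rfl⟩)
    refine ⟨i, z, g, t, hi, h1, h2, ht, hg, hj₁.trans ?_⟩
    have hpc : IsPathConnected (c '' Icc (D.Ψ x₁).im (max Y₀ (D.Ψ x₁).im)) :=
      ((convex_Icc _ _).isPathConnected ⟨_, left_mem_Icc.2 hle⟩).image' hc
    have := (hpc.joinedIn x₁ ⟨_, left_mem_Icc.2 hle, hc0⟩ (g • (e i).F z)
      ⟨_, right_mem_Icc.2 hle, hx⟩).joined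
    exact this
  -- one end for all heights
  choose i z g t hc h1 h2 h3 h4 h5 using fun n : ℕ => hkey n
  obtain ⟨j, hj'⟩ := Finite.exists_infinite_fiber i
  have hinf : (i ⁻¹' {j}).Infinite := infinite_coe_iff.1 hj'
  obtain ⟨n₀, hn₀⟩ := hinf.nonempty
  have hn₀' : i n₀ = j := hn₀
  refine ⟨e j, w j, (hw j (hn₀' ▸ hc n₀)).1, fun T₀ => ?_⟩
  obtain ⟨m, hm⟩ := exists_nat_ge T₀
  obtain ⟨k, hk, hmk⟩ := hinf.exists_gt m
  have hk' : i k = j := hk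
  subst hk'
  exact ⟨z k, g k, t k, h1 k, (hm.trans (by exact_mod_cast hmk.le)).trans (h2 k), h3 k, h4 k, h5 k⟩

end

end Crest.Agent.R281.As_957
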