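import Crest.Agent.R281.Pun2_924

/-! # R281 / PUNCT part 3 (helper924)

The full puncture theorem (S4): `f : UH → UH` holomorphic, `f (z+1) = g • f z`, `g ∈ SL₂(ℝ)`, such
that some power of `g` is trivial if `g` is elliptic.  Then either `f z = h (exp (2πiz/m))` with
`h : ball → UH` holomorphic (finite order), or, for a real Moebius transformation `κ`,
`κ (f z) = r z + h (exp (2πiz))` with `r > 0` and `h` holomorphic on the unit disc (parabolic).
Mathlib only. -/

namespace R281.Pun_924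

open Complex Set Metric Filter Function.Periodic
open scoped ComplexConjugate Topology Real

/-- real Moebius transformation with matrix `(a b; c d)` -/
noncomputable def mob (a b c d : ℝ) (τ : ℂ) : ℂ := ((a : ℂ) * τ + b) / (c * τ + d)

lemma mob_im {a b c d : ℝ} (hdet : a * d - b * c = 1) (τ : ℂ) :
    (mob a b c d τ).im = τ.im / ‖(c : ℂ) * τ + d‖ ^ 2 := im_moeb hdet τ

lemma mob_mem {a b c d : ℝ} (hdet : a * d - b * c = 1) {τ : ℂ} (hτ : 0 < τ.im) :
    0 < (mob a b c d τ).im := by
  rw [mob_im hdet]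
  have := denom_ne hdet hτ
  positivity

lemma mob_mob {a b c d a' b' c' d' : ℝ} (hdet : a * d - b * c = 1) (hdet' : a' * d' - b' * c' = 1)
    {τ : ℂ} (hτ : 0 < τ.im) :
    mob a b c d (mob a' b' c' d' τ) =
      mob (a * a' + b * c') (a * b' + b * d') (c * a' + d * c') (c * b' + d * d') τ := by
  have h1 := denom_ne hdet' hτ
  have h2 := denom_ne hdet (mob_mem hdet' hτ)
  have hdet2 : (a * a' + b * c') * (c * b' + d * d') - (a * b' + b * d') * (c * a' + d * c') = 1 := by
    linear_combination (a' * d' - b' * c') * hdet + hdet'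
  have h3 := denom_ne hdet2 hτ
  unfold mob at h2 ⊢
  have h4 : (c : ℂ) * (((a' : ℂ) * τ + b') / (c' * τ + d')) + d
      = (((c * a' + d * c' : ℝ) : ℂ) * τ + ((c * b' + d * d' : ℝ) : ℂ)) / (c' * τ + d') := by
    rw [eq_div_iff h1, add_mul, mul_assoc, div_mul_cancel₀ _ h1]
    push_cast
    ring
  have h5 : (a : ℂ) * (((a' : ℂ) * τ + b') / (c' * τ + d')) + b
      = (((a * a' + b * c' : ℝ) : ℂ) * τ + ((a * b' + b * d' : ℝ) : ℂ)) / (c' * τ + d') := by
    rw [eq_div_iff h1, add_mul, mul_assoc, div_mul_cancel₀ _ h1]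
    push_cast
    ring
  rw [h4, h5]
  rw [div_div_div_cancel_right₀ h1]

lemma mob_diff {f : ℂ → ℂ} (hd : DifferentiableOn ℂ f UH) (hm : MapsTo f UH UH)
    {a b c d : ℝ} (hdet : a * d - b * c = 1) :
    DifferentiableOn ℂ (fun z => mob a b c d (f z)) UH := by
  intro z hz
  unfold mob
  exact (((hd z hz).const_mul _).add_const _).div (((hd z hz).const_mul _).add_const _)
    (denom_ne hdet (hm hz))

/-- a parabolic transformation in its normal form -/
lemma parabolic_normal {a b c d : ℝ} (hdet : a * d - b * c = 1) (htr : (a + d) ^ 2 = 4)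
    (hc : c ≠ 0) {τ : ℂ} (hτ : 0 < τ.im) :
    mob 0 (-1) 1 (-((a - d) / (2 * c))) (mob a b c d τ)
      = mob 0 (-1) 1 (-((a - d) / (2 * c))) τ + ((-((a + d) / 2 * c) : ℝ) : ℂ) := by
  set x : ℝ := (a - d) / (2 * c) with hx
  set ε : ℝ := (a + d) / 2 with hε
  have hε2 : ε ^ 2 = 1 := by rw [hε]; linear_combination htr / 4
  have hcx : c * x + d = ε := by rw [hx, hε]; field_simp; ring
  have hax : a = c * x + ε := by rw [hx, hε]; field_simp; ring
  have hd' : d = ε - c * x := by linarith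
  have hb : b = -(c * x ^ 2) := by
    have : b * c = -(c * x ^ 2) * c := by
      have h0 : b * c = a * d - 1 := by linarith
      rw [h0, hax, hd']
      linear_combination hε2
    exact mul_right_cancel₀ hc this
  have h1 := denom_ne hdet hτ
  have hdk : (0 : ℝ) * (-x) - (-1) * 1 = 1 := by norm_num
  have h2 := denom_ne hdk hτ
  have h3 := denom_ne hdk (mob_mem hdet hτ)
  have hcC : (c : ℂ) ≠ 0 := by exact_mod_cast hc
  have hεC : (ε : ℂ) ^ 2 = 1 := by exact_mod_cast hε2
  have hε0 : (ε : ℂ) ≠ 0 := by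
    intro h; rw [h] at hεC; norm_num at hεC
  have h4 : mob a b c d τ - x = ε * (τ - x) / (c * τ + d) := by
    unfold mob
    rw [eq_div_iff h1, sub_mul, div_mul_cancel₀ _ h1, hb, hax, hd']
    push_cast
    ring
  have h2' : τ - x ≠ 0 := by
    intro h
    apply h2
    push_cast
    linear_combination h
  have e1 : ∀ u : ℂ, mob 0 (-1) 1 (-x) u = -1 / (u - x) := by
    intro u
    unfold mob
    push_cast
    ring_nf
  rw [e1, e1, h4, hd']
  have h5 : (c : ℂ) * τ + ((ε - c * x : ℝ) : ℂ) ≠ 0 := by rw [← hd']; exact h1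
  push_cast at h5 ⊢
  field_simp
  linear_combination ((c : ℂ) * (τ - x)) * hεC

/-- iterated `(S2)`: a period map which is `m`-periodic extends to the `m`-fold cover. -/
theorem finite_case {f : ℂ → ℂ} (hd : DifferentiableOn ℂ f UH) (hm : MapsTo f UH UH)
    {m : ℕ} (hm0 : 0 < m) (heq : ∀ z, 0 < z.im → f (z + m) = f z) :
    ∃ h : ℂ → ℂ, DifferentiableOn ℂ h (ball 0 1) ∧ MapsTo h (ball 0 1) UH ∧
      ∀ z : ℂ, 0 < z.im → f z = h (Complex.exp (2 * π * I * z / m)) := by
  have hmC : (m : ℂ) ≠ 0 := by exact_mod_cast hm0.ne'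
  have hmR : (0 : ℝ) < m := by exact_mod_cast hm0
  have him : ∀ z : ℂ, ((m : ℂ) * z).im = m * z.im := by
    intro z; simp
  have hmap : MapsTo (fun z : ℂ => (m : ℂ) * z) UH UH := by
    intro z hz
    rw [mem_UH, him]
    exact mul_pos hmR hz
  have hd' : DifferentiableOn ℂ (fun z => f ((m : ℂ) * z)) UH :=
    hd.comp ((differentiable_const _).mul differentiable_id).differentiableOn hmap
  obtain ⟨h, h1, h2, h3⟩ := periodic_case hd' (fun z hz => hm (hmap hz)) (fun z hz => by
    rw [mul_add, mul_one]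
    exact heq _ (hmap hz))
  refine ⟨h, h1, h2, fun z hz => ?_⟩
  have h4 : 0 < (z / m).im := by
    have : (z / (m : ℂ)).im = z.im / m := by
      simp
    rw [this]; positivity
  have h5 := h3 (z / m) h4
  rw [mul_div_cancel₀ _ hmC] at h5
  rw [h5, mul_div_assoc]

/-- finite order end: `f z = h (exp (2πiz/m))` with `h : ball → UH` holomorphic. -/
def FinEnd (f : ℂ → ℂ) : Prop :=
  ∃ m : ℕ, 0 < m ∧ ∃ h : ℂ → ℂ, DifferentiableOn ℂ h (ball 0 1) ∧ MapsTo h (ball 0 1) UH ∧
    ∀ z : ℂ, 0 < z.im → f z = h (Complex.exp (2 * π * I * z / m))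

/-- parabolic end: `κ (f z) = r z + h (exp (2πiz))`, `κ = (α β; γ δ)`, `r > 0`, and `κ g κ⁻¹` is the
translation by `r`. -/
def ParEnd (f : ℂ → ℂ) (a b c d : ℝ) : Prop :=
  ∃ α β γ δ r : ℝ, α * δ - β * γ = 1 ∧ 0 < r ∧
    (∀ τ : ℂ, 0 < τ.im → mob α β γ δ (mob a b c d τ) = mob α β γ δ τ + r) ∧
    ∃ h : ℂ → ℂ, DifferentiableOn ℂ h (ball 0 1) ∧
    ∀ z : ℂ, 0 < z.im → mob α β γ δ (f z) = r * z + h (Complex.exp (2 * π * I * z))

/-- **THE PUNCTURE THEOREM** (S4).  `g = (a b; c d)` is the monodromy; if it is elliptic, we assume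
that it has finite order (true in an arithmetic group). -/
theorem puncture {f : ℂ → ℂ} (hd : DifferentiableOn ℂ f UH) (hm : MapsTo f UH UH)
    {a b c d : ℝ} (hdet : a * d - b * c = 1)
    (heq : ∀ z, 0 < z.im → f (z + 1) = mob a b c d (f z))
    (hell : (a + d) ^ 2 < 4 → ∃ m : ℕ, 0 < m ∧ ∀ z, 0 < z.im → f (z + m) = f z) :
    FinEnd f ∨ ParEnd f a b c d := by
  have htr : (a + d) ^ 2 ≤ 4 := tr_sq_le_four hd hm hdet heq
  have triv : (∀ z, 0 < z.im → f (z + 1) = f z) → FinEnd f ∨ ParEnd f a b c d := by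
    intro h0
    obtain ⟨h, h1, h2, h3⟩ := finite_case hd hm one_pos (fun z hz => by simpa using h0 z hz)
    exact Or.inl ⟨1, one_pos, h, h1, h2, h3⟩
  have par : ∀ α β γ δ w : ℝ, α * δ - β * γ = 1 → w ≠ 0 →
      (∀ τ : ℂ, 0 < τ.im → mob α β γ δ (mob a b c d τ) = mob α β γ δ τ + w) →
      FinEnd f ∨ ParEnd f a b c d := by
    intro α β γ δ w hκ hw hτ
    obtain ⟨h1, h, h2, h3⟩ := parabolic_case (f := fun z => mob α β γ δ (f z)) (w := w)
      (mob_diff hd hm hκ) (fun z hz => mob_mem hκ (hm hz)) hw (fun z hz => by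
        simp only [heq z hz]
        exact hτ _ (hm hz))
    exact Or.inr ⟨α, β, γ, δ, w, hκ, h1, hτ, h, h2, h3⟩
  rcases htr.lt_or_eq with hlt | heq4
  · left
    obtain ⟨m, hm0, hper⟩ := hell hlt
    obtain ⟨h, h1, h2, h3⟩ := finite_case hd hm hm0 hper
    exact ⟨m, hm0, h, h1, h2, h3⟩
  · by_cases hc : c = 0
    · subst hc
      have had : a * d = 1 := by linarith
      have had2 : (a - d) ^ 2 = 0 := by nlinarith
      have had3 : a = d := by
        have := pow_eq_zero_iff (n := 2) (by norm_num) |>.mp had2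
        linarith
      subst had3
      have haC : (a : ℂ) * a = 1 := by exact_mod_cast had
      have ha0 : (a : ℂ) ≠ 0 := by
        intro h; rw [h] at haC; norm_num at haC
      have hmob : ∀ τ : ℂ, mob a b 0 a τ = τ + ((a * b : ℝ) : ℂ) := by
        intro τ
        unfold mob
        push_cast
        rw [zero_mul, zero_add, div_eq_iff ha0]
        linear_combination (-(b : ℂ)) * haC
      by_cases hb : a * b = 0
      · refine triv fun z hz => ?_
        rw [heq z hz, hmob, hb]
        simp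
      · refine par 1 0 0 1 (a * b) (by norm_num) hb fun τ hτ => ?_
        rw [hmob]
        simp [mob]
    · have hw : -((a + d) / 2 * c) ≠ 0 := by
        have : a + d ≠ 0 := by
          intro h; rw [h] at heq4; norm_num at heq4
        have : (a + d) / 2 * c ≠ 0 := mul_ne_zero (div_ne_zero this (by norm_num)) hc
        exact neg_ne_zero.mpr this
      exact par 0 (-1) 1 (-((a - d) / (2 * c))) _ (by norm_num) hw
        fun τ hτ => parabolic_normal hdet heq4 hc hτ

/-- growth in the parabolic case: `Im (κ (f z)) ≥ r Im z - C`, uniformly in `Re z`, for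
`Im z ≥ 1`. -/
theorem parabolic_growth {F h : ℂ → ℂ} {r : ℝ} (hh : DifferentiableOn ℂ h (ball 0 1))
    (hF : ∀ z : ℂ, 0 < z.im → F z = r * z + h (Complex.exp (2 * π * I * z))) :
    ∃ C : ℝ, ∀ z : ℂ, 1 ≤ z.im → |(F z).im - r * z.im| ≤ C ∧ |(F z).re - r * z.re| ≤ C := by
  have h1 : ContinuousOn h (closedBall 0 (Real.exp (-2 * π))) := by
    apply hh.continuousOn.mono
    apply closedBall_subset_ball
    rw [Real.exp_lt_one_iff]
    have := Real.pi_pos
    linarith
  obtain ⟨C, hC⟩ := (isCompact_closedBall (0 : ℂ) (Real.exp (-2 * π))).exists_bound_of_continuousOn h1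
  refine ⟨C, fun z hz => ?_⟩
  have hz0 : 0 < z.im := by linarith
  have h2 : Complex.exp (2 * π * I * z) ∈ closedBall (0 : ℂ) (Real.exp (-2 * π)) := by
    rw [mem_closedBall_zero_iff, ← qParam_one, norm_qParam, Real.exp_le_exp, div_one]
    have := Real.pi_pos
    nlinarith
  have h3 := hC _ h2
  have h4 : (F z).im - r * z.im = (h (Complex.exp (2 * π * I * z))).im := by
    rw [hF z hz0]; simp
  have h5 : (F z).re - r * z.re = (h (Complex.exp (2 * π * I * z))).re := by
    rw [hF z hz0]; simp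
  rw [h4, h5]
  exact ⟨(Complex.abs_im_le_norm _).trans h3, (Complex.abs_re_le_norm _).trans h3⟩

end R281.Pun_924
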