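import Crest.Agent.R281.As2_957
import Crest.Agent.R281.Pun3_924

/-!
# R281 / As3 (helper957): inversion of `z ↦ r z + h (exp 2πiz)` high in the half plane; isometries
fixing the line of `e`
-/

set_option autoImplicit false
set_option linter.style.haveILetI false

open Polynomial Set Filter Topology UpperHalfPlane

namespace Crest.Agent.R281.As_957

open Ends3_989 CL_473

/-- a small perturbation of the identity on a half plane -/
theorem inv_aux {g : ℂ → ℂ} {T C : ℝ} (hd : ∀ z : ℂ, T < z.im → DifferentiableAt ℂ g z)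
    (hd' : ∀ z : ℂ, T < z.im → ‖deriv g z‖ ≤ 1 / 2) (hC : ∀ z : ℂ, T < z.im → ‖g z‖ ≤ C)
    (hC0 : 0 ≤ C) :
    (∀ z z' : ℂ, T < z.im → T < z'.im → z + g z = z' + g z' → z = z') ∧
    ∃ k : ℂ → ℂ, DifferentiableOn ℂ k {σ | T + (2 * C + 1) < σ.im} ∧
      ∀ σ : ℂ, T + (2 * C + 1) < σ.im → T < (k σ).im ∧ k σ + g (k σ) = σ ∧ ‖k σ - σ‖ ≤ C := by
  have hs : IsOpen {z : ℂ | T < z.im} := isOpen_lt continuous_const Complex.continuous_im
  have hconv : Convex ℝ {z : ℂ | T < z.im} := convex_halfSpace_im_gt T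
  have hLip : ∀ z z' : ℂ, T < z.im → T < z'.im → ‖g z - g z'‖ ≤ 1 / 2 * ‖z - z'‖ :=
    fun z z' hz hz' => hconv.norm_image_sub_le_of_norm_deriv_le (𝕜 := ℂ) (f := g)
      (fun w hw => hd w hw) (fun w hw => hd' w hw) hz' hz
  have happ : ApproximatesLinearOn (fun z => z + g z)
      ((ContinuousLinearEquiv.refl ℂ ℂ : ℂ ≃L[ℂ] ℂ) : ℂ →L[ℂ] ℂ) {z : ℂ | T < z.im} (1 / 2) := by
    intro z hz z' hz'
    have h1 : z + g z - (z' + g z') - ((ContinuousLinearEquiv.refl ℂ ℂ : ℂ ≃L[ℂ] ℂ) : ℂ →L[ℂ] ℂ)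
        (z - z') = g z - g z' := by
      simp only [ContinuousLinearEquiv.coe_coe, ContinuousLinearEquiv.coe_refl', id]
      ring
    rw [h1]
    simpa using hLip z z' hz hz'
  have hN : ‖((ContinuousLinearEquiv.refl ℂ ℂ : ℂ ≃L[ℂ] ℂ).symm : ℂ →L[ℂ] ℂ)‖₊ = 1 := by
    have h1 : ((ContinuousLinearEquiv.refl ℂ ℂ : ℂ ≃L[ℂ] ℂ).symm : ℂ →L[ℂ] ℂ) =
        ContinuousLinearMap.id ℂ ℂ := rfl
    rw [h1]
    apply NNReal.eq
    rw [coe_nnnorm, ContinuousLinearMap.norm_id]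
    rfl
  have hc : Subsingleton ℂ ∨ (1 / 2 : NNReal) <
      ‖((ContinuousLinearEquiv.refl ℂ ℂ : ℂ ≃L[ℂ] ℂ).symm : ℂ →L[ℂ] ℂ)‖₊⁻¹ := by
    right
    rw [hN, inv_one]
    exact NNReal.half_lt_self one_ne_zero
  let e := happ.toOpenPartialHomeomorph _ _ hc hs
  have hinj : ∀ z z' : ℂ, T < z.im → T < z'.im → z + g z = z' + g z' → z = z' :=
    fun z z' hz hz' h => e.injOn (show z ∈ e.source from hz) (show z' ∈ e.source from hz') h
  have htgt : ∀ σ : ℂ, T + (2 * C + 1) < σ.im → σ ∈ e.target := by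
    intro σ hσ
    have h1 : Metric.closedBall σ (2 * C + 1) ⊆ {z : ℂ | T < z.im} := by
      intro z hz
      have h2 : |(z - σ).im| ≤ 2 * C + 1 :=
        (Complex.abs_im_le_norm _).trans (by rwa [← Complex.dist_eq])
      rw [Complex.sub_im] at h2
      have h3 := (abs_le.1 h2).1
      change T < z.im
      linarith
    refine happ.closedBall_subset_target hc hs (b := σ) (by positivity) h1 ?_
    have hσT : T < σ.im := h1 (Metric.mem_closedBall_self (by positivity))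
    rw [hN, Metric.mem_closedBall, Complex.dist_eq]
    have h4 : σ - (σ + g σ) = - g σ := by ring
    rw [h4, norm_neg]
    have h5 := hC σ hσT
    have h6 : (((1 : NNReal)⁻¹ : NNReal) : ℝ) - ((1 / 2 : NNReal) : ℝ) = 1 / 2 := by
      push_cast
      norm_num
    rw [h6]
    linarith
  refine ⟨hinj, e.symm, fun σ hσ => ?_, fun σ hσ => ?_⟩
  · have hσt := htgt σ hσ
    have hz : e.symm σ ∈ e.source := e.map_target hσt
    have h1 : HasDerivAt e (1 + deriv g (e.symm σ)) (e.symm σ) :=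
      (hasDerivAt_id _).add (hd _ hz).hasDerivAt
    have h2 : 1 + deriv g (e.symm σ) ≠ 0 := by
      intro h0
      have h3 : deriv g (e.symm σ) = -1 := by linear_combination h0
      have h4 := hd' _ hz
      rw [h3, norm_neg, norm_one] at h4
      norm_num at h4
    exact (e.hasDerivAt_symm hσt h2 h1).differentiableAt.differentiableWithinAt
  · have hσt := htgt σ hσ
    have hz : T < (e.symm σ).im := e.map_target hσt
    have h1 : e.symm σ + g (e.symm σ) = σ := e.right_inv hσt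
    refine ⟨hz, h1, ?_⟩
    have h2 : e.symm σ - σ = - g (e.symm σ) := by linear_combination h1
    rw [h2, norm_neg]
    exact hC _ hz

theorem norm_qq_lt_of {ρ : ℝ} (hρ : 0 < ρ) : ∃ T : ℝ, ∀ z : ℂ, T < z.im → ‖qq z‖ < ρ := by
  refine ⟨-Real.log ρ / (2 * Real.pi), fun z hz => ?_⟩
  rw [Ends4_989.norm_qq, ← Real.lt_log_iff_exp_lt hρ]
  rw [div_lt_iff₀ (by positivity)] at hz
  linarith

/-- **inversion** of `z ↦ r z + h (q z)` -/
theorem exists_inv {r : ℝ} (hr : 0 < r) {h : ℂ → ℂ} {ρ : ℝ} (hρ : 0 < ρ)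
    (hh : DifferentiableOn ℂ h (Metric.ball 0 ρ)) :
    ∃ T : ℝ, (∀ z z' : ℂ, T < z.im → T < z'.im → (r : ℂ) * z + h (qq z) = r * z' + h (qq z') →
        z = z') ∧
      ∀ T' : ℝ, T ≤ T' → ∃ (k : ℂ → ℂ) (Y C : ℝ), DifferentiableOn ℂ k {τ | Y < τ.im} ∧
        ∀ τ : ℂ, Y < τ.im → T' < (k τ).im ∧ (r : ℂ) * k τ + h (qq (k τ)) = τ ∧
          ‖(r : ℂ) * k τ - τ‖ ≤ C := by
  have hrC : (r : ℂ) ≠ 0 := by exact_mod_cast hr.ne'
  -- bounds near `0`
  have hnhds : Metric.ball (0 : ℂ) ρ ∈ 𝓝 (0 : ℂ) := Metric.ball_mem_nhds _ hρ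
  have hA : AnalyticAt ℂ h 0 := hh.analyticAt hnhds
  have hcont : ContinuousAt h 0 := hA.continuousAt
  have hcont' : ContinuousAt (fun q => deriv h q * (2 * Real.pi * Complex.I * q)) 0 :=
    hA.deriv.continuousAt.mul (by fun_prop)
  have hev : ∀ᶠ q in 𝓝 (0 : ℂ), ‖h q‖ < ‖h 0‖ + 1 ∧
      ‖deriv h q * (2 * Real.pi * Complex.I * q)‖ < r / 2 ∧ DifferentiableAt ℂ h q := by
    refine (hcont.norm.eventually_lt continuousAt_const (by simp)).and
      ((hcont'.norm.eventually_lt continuousAt_const ?_).and ?_)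
    · simp only [mul_zero, norm_zero]
      linarith
    · filter_upwards [hnhds] with q hq
      exact hh.differentiableAt (Metric.isOpen_ball.mem_nhds hq)
  obtain ⟨ε, hε, hball⟩ := Metric.eventually_nhds_iff_ball.1 hev
  obtain ⟨T, hT⟩ := norm_qq_lt_of hε
  have hqq : ∀ z : ℂ, T < z.im → qq z ∈ Metric.ball (0 : ℂ) ε := fun z hz => by
    rw [mem_ball_zero_iff]
    exact hT z hz
  set g : ℂ → ℂ := fun z => (r : ℂ)⁻¹ * h (qq z) with hg
  have hqd : ∀ z : ℂ, HasDerivAt qq (2 * Real.pi * Complex.I * qq z) z := fun z => by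
    have h1 : (qq : ℂ → ℂ) = fun z => Complex.exp (2 * Real.pi * Complex.I * z) := by
      funext w
      exact _root_.R281.Pun_924.qParam_one w
    have h2 : HasDerivAt (fun z : ℂ => 2 * Real.pi * Complex.I * z) (2 * Real.pi * Complex.I) z := by
      simpa using (hasDerivAt_id z).const_mul (2 * Real.pi * Complex.I)
    rw [h1]
    exact (mul_comm (Complex.exp (2 * Real.pi * Complex.I * z)) (2 * Real.pi * Complex.I)) ▸ h2.cexp
  have hgd : ∀ z : ℂ, T < z.im →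
      HasDerivAt g ((r : ℂ)⁻¹ * (deriv h (qq z) * (2 * Real.pi * Complex.I * qq z))) z := fun z hz =>
    (((hball _ (hqq z hz)).2.2.hasDerivAt).comp z (hqd z)).const_mul _
  have hC0 : 0 ≤ r⁻¹ * (‖h 0‖ + 1) := by positivity
  have haux : ∀ T' : ℝ, T ≤ T' → _ := fun T' hT' => inv_aux (g := g) (T := T')
    (C := r⁻¹ * (‖h 0‖ + 1))
    (fun z hz => (hgd z (hT'.trans_lt hz)).differentiableAt) (fun z hz => by
      rw [(hgd z (hT'.trans_lt hz)).deriv, norm_mul, norm_inv, Complex.norm_real, Real.norm_eq_abs,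
        abs_of_pos hr]
      have h1 := (hball _ (hqq z (hT'.trans_lt hz))).2.1.le
      calc r⁻¹ * _ ≤ r⁻¹ * (r / 2) := by gcongr
        _ = 1 / 2 := by field_simp) (fun z hz => by
      rw [hg]
      simp only [norm_mul, norm_inv, Complex.norm_real, Real.norm_eq_abs, abs_of_pos hr]
      have h1 := (hball _ (hqq z (hT'.trans_lt hz))).1.le
      gcongr) hC0
  have hdiv : ∀ z τ : ℂ, (r : ℂ) * z + h (qq z) = τ ↔ z + g z = τ / r := fun z τ => by
    rw [hg, eq_div_iff hrC]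
    simp only
    rw [add_mul, mul_comm z, mul_right_comm, inv_mul_cancel₀ hrC, one_mul]
  refine ⟨T, fun z z' hz hz' hzz' => ?_, fun T' hT' => ?_⟩
  · refine (haux T le_rfl).1 z z' hz hz' ?_
    rw [(hdiv z _).1 hzz', (hdiv z' _).1 rfl]
  · obtain ⟨-, k, hk, hk'⟩ := haux T' hT'
    have hY : ∀ τ : ℂ, r * (T' + (2 * (r⁻¹ * (‖h 0‖ + 1)) + 1)) < τ.im →
        T' + (2 * (r⁻¹ * (‖h 0‖ + 1)) + 1) < (τ / r).im := fun τ hτ => by
      have h1 : (τ / r).im = τ.im / r := Complex.div_ofReal_im τ r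
      rw [h1, lt_div_iff₀ hr, mul_comm]
      exact hτ
    refine ⟨fun τ => k (τ / r), r * (T' + (2 * (r⁻¹ * (‖h 0‖ + 1)) + 1)),
      r * (r⁻¹ * (‖h 0‖ + 1)), ?_, fun τ hτ => ?_⟩
    · exact hk.comp (by fun_prop) fun τ hτ => hY τ hτ
    · obtain ⟨h1, h2, h3⟩ := hk' _ (hY τ hτ)
      refine ⟨h1, (hdiv _ _).2 h2, ?_⟩
      have h4 : (r : ℂ) * k (τ / r) - τ = r * (k (τ / r) - τ / r) := by
        field_simp
      rw [h4, norm_mul, Complex.norm_real, Real.norm_eq_abs, abs_of_pos hr]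
      gcongr

end Crest.Agent.R281.As_957
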