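import Crest.Agent.R281.As3_957

/-!
# R281 / As4 (helper957): isometries preserving the line of `e = (0,0,1)` act on `ℍ` by real
translations; normal form of the period along an end over the cusp `e`
-/

set_option autoImplicit false
set_option linter.style.haveILetI false

open Polynomial Set Filter Topology UpperHalfPlane
open scoped Polynomial.Bivariate

namespace Crest.Agent.R281.As_957

open Ends1_989 Ends2_989 Ends3_989 Ends4_989 Ends5_989 CL_473 Nc_957

/-- an automorphism of the lattice multiplies `e` by a scalar of absolute value at least one -/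
theorem one_le_of_fix {N : ℝ} {Λ : Set (Fin 3 → ℝ)} (hΛ : Lat N Λ)
    {A : (Fin 3 → ℝ) →ₗ[ℝ] (Fin 3 → ℝ)} (hA : ∀ w ∈ Λ, A w ∈ Λ) {s : ℝ} (hs : s ≠ 0)
    (h : A ![0, 0, 1] = s • ![0, 0, 1]) : 1 ≤ |s| := by
  by_contra hlt
  push Not at hlt
  have hmem : ∀ n : ℕ, (s ^ n • ![0, 0, 1] : Fin 3 → ℝ) ∈ Λ := fun n => by
    induction n with
    | zero => simpa using hΛ.e_mem
    | succ n ih =>
      have h1 := hA _ ih
      rw [map_smul, h, smul_smul, ← pow_succ] at h1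
      exact h1
  have hinj : Function.Injective fun n : ℕ => (s ^ n • ![0, 0, 1] : Fin 3 → ℝ) := by
    intro n m hnm
    have h1 := congrFun hnm 2
    have h2 : s ^ n = s ^ m := by simpa using h1
    have h3 : |s| ^ n = |s| ^ m := by rw [← abs_pow, ← abs_pow, h2]
    exact pow_right_injective₀ (abs_pos.2 hs) hlt.ne h3
  refine (Set.infinite_of_injective_forall_mem hinj (s := {w | w ∈ Λ ∧ ∀ i, |w i| ≤ 1})
    fun n => ⟨hmem n, fun i => ?_⟩) (hΛ.fin 1)
  have h1 : |s| ^ n ≤ 1 := pow_le_one₀ (abs_nonneg _) hlt.le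
  fin_cases i <;> simp [abs_pow, h1]

/-- ... hence the scalar is a sign -/
theorem sign_of_fix {N : ℝ} {Λ : Set (Fin 3 → ℝ)} (hΛ : Lat N Λ)
    {A B : (Fin 3 → ℝ) →ₗ[ℝ] (Fin 3 → ℝ)} (hA : ∀ w ∈ Λ, A w ∈ Λ) (hB : ∀ w ∈ Λ, B w ∈ Λ)
    (hBA : ∀ w, B (A w) = w) {s : ℝ} (h : A ![0, 0, 1] = s • ![0, 0, 1]) : s = 1 ∨ s = -1 := by
  have hs : s ≠ 0 := by
    rintro rfl
    rw [zero_smul] at h
    have h1 := hBA ![0, 0, 1]
    rw [h, map_zero] at h1
    have h2 := congrFun h1 2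
    simp at h2
  have h1 := one_le_of_fix hΛ hA hs h
  have h2 : B ![0, 0, 1] = s⁻¹ • ![0, 0, 1] := by
    have h3 := hBA ![0, 0, 1]
    rw [h, map_smul] at h3
    rw [← h3, smul_smul, inv_mul_cancel₀ hs, one_smul, h3]
  have h3 := one_le_of_fix hΛ hB (inv_ne_zero hs) h2
  rw [abs_inv] at h3
  have h4 : |s| = 1 := le_antisymm ((one_le_inv₀ (abs_pos.2 hs)).1 h3) h1
  exact eq_or_eq_neg_of_abs_eq h4

theorem cx_add' (A : (Fin 3 → ℝ) →ₗ[ℝ] (Fin 3 → ℝ)) (v w : Fin 3 → ℂ) :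
    cx A (v + w) = cx A v + cx A w := by
  have e1 : (fun k => ((v + w) k).re) = (fun k => (v k).re) + fun k => (w k).re := by
    funext k; simp
  have e2 : (fun k => ((v + w) k).im) = (fun k => (v k).im) + fun k => (w k).im := by
    funext k; simp
  funext i
  have a1 := congrFun (congrArg A e1) i
  have a2 := congrFun (congrArg A e2) i
  rw [map_add, Pi.add_apply] at a1 a2
  change ((A (fun k => ((v + w) k).re) i : ℝ) : ℂ) +
    ((A (fun k => ((v + w) k).im) i : ℝ) : ℂ) * Complex.I =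
    (((A (fun k => (v k).re) i : ℝ) : ℂ) + ((A (fun k => (v k).im) i : ℝ) : ℂ) * Complex.I) +
    (((A (fun k => (w k).re) i : ℝ) : ℂ) + ((A (fun k => (w k).im) i : ℝ) : ℂ) * Complex.I)
  rw [a1, a2]
  push_cast
  ring

/-- complexification of a real vector -/
def rc (x : Fin 3 → ℝ) : Fin 3 → ℂ := fun i => (x i : ℂ)

theorem cx_rc (A : (Fin 3 → ℝ) →ₗ[ℝ] (Fin 3 → ℝ)) (x : Fin 3 → ℝ) : cx A (rc x) = rc (A x) := by
  funext i
  have e1 : (fun k => (rc x k).re) = x := by funext k; simp [rc]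
  have e2 : (fun k => (rc x k).im) = 0 := by funext k; simp [rc]
  change ((A (fun k => (rc x k).re) i : ℝ) : ℂ) + ((A (fun k => (rc x k).im) i : ℝ) : ℂ) *
    Complex.I = ((A x i : ℝ) : ℂ)
  rw [e1, e2, map_zero]
  simp

theorem sig_eq (N : ℝ) (τ : ℂ) : sig N τ =
    rc ![1, 0, 0] + (τ • rc ![0, 1, 0] + (-(N / 2 : ℂ) * τ ^ 2) • rc ![0, 0, 1]) := by
  funext i
  fin_cases i <;> simp [sig, rc]

/-- **isometries fixing the line of `e` act by real translations** -/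
theorem mv_fix {N : ℝ} (hN : 0 < N) {A : (Fin 3 → ℝ) →ₗ[ℝ] (Fin 3 → ℝ)} (hA : Iso N A)
    (hup : ∀ τ : ℂ, 0 < τ.im → 0 < (mv N A τ).im) {s : ℝ} (hs : s = 1 ∨ s = -1)
    (h : A ![0, 0, 1] = s • ![0, 0, 1]) : ∃ β : ℝ, ∀ τ : ℂ, mv N A τ = τ + β := by
  have hs2 : s * s = 1 := by rcases hs with rfl | rfl <;> norm_num
  set x := A ![1, 0, 0] with hx
  set y := A ![0, 1, 0] with hy
  have hcx : ∀ τ : ℂ, cx A (sig N τ) =
      rc x + (τ • rc y + (-(N / 2 : ℂ) * τ ^ 2) • rc (s • ![0, 0, 1])) := fun τ => by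
    rw [sig_eq, cx_add', cx_add', cx_smul, cx_smul, cx_rc, cx_rc, cx_rc, h]
  -- coordinates
  have hy0 : y 0 = 0 := by
    have h1 := hA ![0, 0, 1] ![0, 1, 0]
    rw [h, ← hy] at h1
    have h2 : s * y 0 = 0 := by simpa [qb] using h1
    rcases mul_eq_zero.1 h2 with h3 | h3
    · rw [h3] at hs2; norm_num at hs2
    · exact h3
  have hx0 : x 0 = s := by
    have h1 := hA ![0, 0, 1] ![1, 0, 0]
    rw [h, ← hx] at h1
    have h2 : s * x 0 = 1 := by simpa [qb] using h1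
    have h3 : s * (s * x 0) = s := by rw [h2, mul_one]
    rwa [← mul_assoc, hs2, one_mul] at h3
  have hy1 : y 1 * y 1 = 1 := by
    have h1 := hA ![0, 1, 0] ![0, 1, 0]
    rw [← hy] at h1
    have h2 : N * (y 1 * y 1) = N := by simpa [qb, hy0] using h1
    have h3 : N * (y 1 * y 1 - 1) = 0 := by linarith
    rcases mul_eq_zero.1 h3 with h4 | h4
    · exact absurd h4 hN.ne'
    · linarith
  have h0 : ∀ τ : ℂ, cx A (sig N τ) 0 = s := fun τ => by
    rw [hcx τ]
    simp [rc, hx0, hy0]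
  have h1 : ∀ τ : ℂ, cx A (sig N τ) 1 = x 1 + τ * y 1 := fun τ => by
    rw [hcx τ]
    simp [rc]
  have hsC : (s : ℂ) * s = 1 := by exact_mod_cast hs2
  have hmv : ∀ τ : ℂ, mv N A τ = s * (x 1 + τ * y 1) := fun τ => by
    rw [mv, h0, h1, div_eq_iff (fun h0 => by rw [h0, zero_mul] at hsC; exact zero_ne_one hsC)]
    rw [mul_right_comm, hsC, one_mul]
  have hpos : 0 < s * y 1 := by
    have h2 := hup Complex.I (by simp)
    rw [hmv] at h2
    simpa using h2
  have hsy : s * y 1 = 1 := by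
    have h3 : (s * y 1) * (s * y 1) = 1 := by
      calc (s * y 1) * (s * y 1) = (s * s) * (y 1 * y 1) := by ring
        _ = 1 := by rw [hs2, hy1, one_mul]
    nlinarith
  have hsyC : (s : ℂ) * (y 1 : ℂ) = 1 := by exact_mod_cast hsy
  refine ⟨s * x 1, fun τ => ?_⟩
  rw [hmv]
  push_cast
  linear_combination τ * hsyC

end Crest.Agent.R281.As_957
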