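import Crest.Agent.R281.As4_957

/-!
# R281 / As5 (helper957): normal form of the period along an end over the cusp `e`
-/

set_option autoImplicit false
set_option linter.style.haveILetI false

open Polynomial Set Filter Topology UpperHalfPlane
open scoped Polynomial.Bivariate

namespace Crest.Agent.R281.As_957

open Ends1_989 Ends2_989 Ends3_989 Ends4_989 Ends5_989 CL_473 Nc_957

noncomputable section

/-- the coordinate is a holomorphic function of `Φ` off the critical set -/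
theorem exists_kappa {E : Type*} [TopologicalSpace E] {u Φ : E → ℂ} (hu : IsLocalHomeomorph u)
    (hΦ : An u Φ) {x : E} (hx : x ∉ Crit u Φ) :
    ∃ κ : ℂ → ℂ, AnalyticAt ℂ κ (Φ x) ∧ ∀ᶠ x' in 𝓝 x, u x' = κ (Φ x') := by
  obtain ⟨φ, hφ, he⟩ := hΦ x
  have h0 : deriv φ (u x) ≠ 0 := fun h => hx ⟨φ, hφ, he, h⟩
  have hΦx : Φ x = φ (u x) := he.self_of_nhds
  let e₂ := (hφ.hasStrictDerivAt.hasStrictFDerivAt_equiv h0).toOpenPartialHomeomorph φ
  have hx₂ : u x ∈ e₂.source :=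
    (hφ.hasStrictDerivAt.hasStrictFDerivAt_equiv h0).mem_toOpenPartialHomeomorph_source
  have hev : ∀ᶠ z in 𝓝 (u x), AnalyticAt ℂ φ z ∧ deriv φ z ≠ 0 :=
    hφ.eventually_analyticAt.and (hφ.deriv.continuousAt.eventually_ne h0)
  obtain ⟨W, hW, hWo, hxW⟩ := eventually_nhds_iff.1 hev
  let e₃ := e₂.restr W
  have hsrc : e₃.source = e₂.source ∩ W := OpenPartialHomeomorph.restr_source' _ _ hWo
  have hx₃ : u x ∈ e₃.source := by rw [hsrc]; exact ⟨hx₂, hxW⟩
  have hcoe : ∀ z, e₃ z = φ z := fun z => rfl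
  have htgt : Φ x ∈ e₃.target := by
    rw [hΦx]
    exact e₃.map_source hx₃
  refine ⟨e₃.symm, ?_, ?_⟩
  · have hd : DifferentiableOn ℂ e₃.symm e₃.target := fun τ hτ => by
      have h1 := e₃.map_target hτ
      rw [hsrc] at h1
      have h2 := hW _ h1.2
      exact (e₃.hasDerivAt_symm hτ h2.2
        h2.1.differentiableAt.hasDerivAt).differentiableAt.differentiableWithinAt
    exact hd.analyticAt (e₃.open_target.mem_nhds htgt)
  · have h1 : ∀ᶠ x' in 𝓝 x, u x' ∈ e₃.source :=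
      hu.continuous.continuousAt.eventually (e₃.open_source.mem_nhds hx₃)
    filter_upwards [h1, he] with x' h2 h3
    rw [h3]
    exact (e₃.left_inv h2).symm

/-- bad values, with the critical values -/
theorem exists_bad' {E : Type*} [TopologicalSpace E] [LindelofSpace E] {G : Type*} [Group G]
    [Countable G] [MulAction G ℍ]
    {u : E → ℂ} (hu : IsLocalHomeomorph u) {Φ : E → ℍ} (hΦ : An u fun x => (Φ x : ℂ))
    {P : Set ℍ} (hP : P.Countable) :
    ∃ Bad : Set ℍ, Bad.Countable ∧ P ⊆ Bad ∧ (∀ (g : G), ∀ τ ∈ Bad, g • τ ∈ Bad) ∧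
      (∀ x, Φ x ∉ Bad → ∃ s : ℍ → E, ∃ U ∈ 𝓝 x, ∃ V ∈ 𝓝 (Φ x), ContinuousOn s V ∧
        (∀ τ ∈ V, Φ (s τ) = τ) ∧ ∀ x' ∈ U, s (Φ x') = x') ∧
      ∀ x, Φ x ∉ Bad → x ∉ Crit u fun x => (Φ x : ℂ) := by
  have hc : (Φ '' Crit u fun x => (Φ x : ℂ)).Countable := by
    have h1 : ((fun x => (Φ x : ℂ)) '' Crit u fun x => (Φ x : ℂ)).Countable := countable_bad hu hΦ
    have h2 : ((↑) : ℍ → ℂ) '' (Φ '' Crit u fun x => (Φ x : ℂ)) =
        (fun x => (Φ x : ℂ)) '' Crit u fun x => (Φ x : ℂ) := by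
      rw [image_image]
    rw [← h2] at h1
    exact Set.countable_of_injective_of_countable_image UpperHalfPlane.coe_injective.injOn h1
  obtain ⟨Bad, h1, h2, h3, h4⟩ := exists_bad (G := G) hu hΦ (hP.union hc)
  exact ⟨Bad, h1, fun τ hτ => h2 (Or.inl hτ), h3, h4, fun x hx hxc => hx (h2 (Or.inr ⟨x, hxc, rfl⟩))⟩

variable {f : ℂ[X][Y]} {δ : ℂ[X]} {N : ℝ} {Λ : Set (Fin 3 → ℝ)} {G : Type*} [Group G] {E : Type*}
  [MulAction G E] {D : Geom f δ N Λ G E}

/-- translate of a lifted end -/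
def LEnd.smul (e : LEnd D) (g : G) : LEnd D where
  En := e.En
  F := fun z => g • e.F z
  g := g * e.g * g⁻¹
  cont := (D.toLS.continuous_smul' g).comp e.cont
  pr := fun z hz => by rw [D.toLS.pr_smul]; exact e.pr z hz
  per := fun z => by rw [e.per, ← mul_smul, ← mul_smul]; congr 1; group

theorem ρ_inv (D : Geom f δ N Λ G E) (g : G) (w : Fin 3 → ℝ) : D.R.ρ g⁻¹ (D.R.ρ g w) = w := by
  have h : (D.R.ρ g⁻¹ * D.R.ρ g) w = w := by
    rw [← map_mul, inv_mul_cancel, map_one]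
    rfl
  exact h

theorem ρ_mul (D : Geom f δ N Λ G E) (g g' : G) (w : Fin 3 → ℝ) :
    D.R.ρ (g * g') w = D.R.ρ g (D.R.ρ g' w) := by
  rw [map_mul]
  rfl

theorem Maj_smul_e (N : ℝ) (τ : ℍ) (t : ℝ) :
    Maj N τ (t • ![0, 0, 1]) = 2 / (N * τ.im ^ 2) * t ^ 2 := by
  simp [Maj]

/-- monodromy of a translated end in normal position is a real translation -/
theorem LEnd.translation (hN : 0 < N) {e : LEnd D} {w : Fin 3 → ℝ} (hw : Good e w) {g : G} {t : ℝ}
    (ht : t ≠ 0) (hg : D.R.ρ g w = t • ![0, 0, 1]) :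
    ∃ β : ℝ, ∀ z, (D.Ψ (g • e.F (z + 1)) : ℂ) = D.Ψ (g • e.F z) + β := by
  have h1 : D.R.ρ g⁻¹ ![0, 0, 1] = t⁻¹ • w := by
    have h2 := ρ_inv D g w
    rw [hg, map_smul] at h2
    rw [← h2, smul_smul, inv_mul_cancel₀ ht, one_smul]
  have h3 : ∃ s : ℝ, (s = 1 ∨ s = -1) ∧ D.R.ρ (g * e.g * g⁻¹) ![0, 0, 1] = s • ![0, 0, 1] := by
    rcases hw.inv with h | h
    · refine ⟨1, Or.inl rfl, ?_⟩
      rw [ρ_mul, ρ_mul, h1, map_smul, h, map_smul, hg, smul_smul, inv_mul_cancel₀ ht]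
    · refine ⟨-1, Or.inr rfl, ?_⟩
      rw [ρ_mul, ρ_mul, h1, map_smul, h, map_smul, map_neg, hg, smul_neg, smul_smul,
        inv_mul_cancel₀ ht, one_smul]
      simp
  obtain ⟨s, hs, h4⟩ := h3
  obtain ⟨β, hβ⟩ := mv_fix hN (D.R.iso (g * e.g * g⁻¹)) (D.R.up _) hs h4
  refine ⟨β, fun z => ?_⟩
  have h5 : g • e.F (z + 1) = (g * e.g * g⁻¹) • (g • e.F z) := (e.smul g).per z
  rw [h5, ← hβ]
  exact D.Φ_smul _ _

/-- **normal form** -/
theorem LEnd.normal (hN : 0 < N) {e : LEnd D} {w : Fin 3 → ℝ} (hw : Good e w) {g : G} {t : ℝ}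
    (ht : t ≠ 0) (hg : D.R.ρ g w = t • ![0, 0, 1]) :
    ∃ r : ℝ, 0 < r ∧ ∃ h : ℂ → ℂ,
      DifferentiableOn ℂ h (Metric.ball 0 (Real.exp (-(2 * Real.pi)))) ∧
      ∀ z : ℂ, 1 < z.im → (D.Ψ (g • e.F z) : ℂ) = r * z + h (qq z) := by
  obtain ⟨β, hβ⟩ := LEnd.translation hN hw ht hg
  set F : ℂ → ℂ := fun z => (D.Ψ (g • e.F (z + Complex.I)) : ℂ) with hF
  have hd : DifferentiableOn ℂ F _root_.R281.Pun_924.UH := by
    have h1 := (e.smul g).diff
    exact h1.comp (f := fun z : ℂ => z + Complex.I) (by fun_prop) fun z (hz : 0 < z.im) => by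
      change 1 < (z + Complex.I).im
      simpa using hz
  have hm : MapsTo F _root_.R281.Pun_924.UH _root_.R281.Pun_924.UH := fun z _ => by
    change 0 < (F z).im
    rw [hF]
    simp only [UpperHalfPlane.coe_im]
    exact UpperHalfPlane.im_pos _
  have hper : ∀ z : ℂ, 0 < z.im → F (z + 1) = F z + β := fun z _ => by
    rw [hF]
    simp only
    rw [add_right_comm]
    exact hβ _
  by_cases hβ0 : β = 0
  · exfalso
    obtain ⟨h, hh, -, hh'⟩ := _root_.R281.Pun_924.periodic_case hd hm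
      (fun z hz => by rw [hper z hz, hβ0, Complex.ofReal_zero, add_zero])
    obtain ⟨r, hr, C, hC⟩ := hw.growth
    -- the imaginary part is bounded near the puncture
    have hcont : ContinuousAt h 0 :=
      (hh.differentiableAt (Metric.ball_mem_nhds _ one_pos)).continuousAt
    have hev : ∀ᶠ q in 𝓝 (0 : ℂ), ‖h q‖ < ‖h 0‖ + 1 :=
      hcont.norm.eventually_lt continuousAt_const (by simp)
    obtain ⟨ε, hε, hball⟩ := Metric.eventually_nhds_iff_ball.1 hev
    obtain ⟨T, hT⟩ := norm_qq_lt_of hε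
    -- a point high up
    set B : ℝ := ‖h 0‖ + 1
    set cN : ℝ := Real.sqrt (2 / N * t ^ 2) with hcN
    have hcN0 : 0 < cN := Real.sqrt_pos.2 (by positivity)
    set y₀ : ℝ := max (T + 1) (max 2 ((C + 1 + B / cN) / r)) with hy₀
    have hyT : T < y₀ := by
      have := le_max_left (T + 1) (max 2 ((C + 1 + B / cN) / r))
      linarith
    have hy2 : 2 ≤ y₀ := (le_max_left _ _).trans (le_max_right _ _)
    have hyr : (C + 1 + B / cN) / r ≤ y₀ := (le_max_right _ _).trans (le_max_right _ _)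
    have h1 := hC ((y₀ : ℂ) * Complex.I + Complex.I) (by simp; linarith)
    have hMaj : Maj N (D.Ψ (e.F ((y₀ : ℂ) * Complex.I + Complex.I))) w =
        (cN / (D.Ψ (g • e.F ((y₀ : ℂ) * Complex.I + Complex.I))).im) ^ 2 := by
      rw [← D.maj_smul hN g, hg, Maj_smul_e, div_pow, hcN, Real.sq_sqrt (by positivity)]
      field_simp
    have him : (D.Ψ (g • e.F ((y₀ : ℂ) * Complex.I + Complex.I))).im < B := by
      have h2 := hh' ((y₀ : ℂ) * Complex.I) (by simp; linarith)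
      have h3 : ‖F ((y₀ : ℂ) * Complex.I)‖ < B := by
        rw [h2, ← _root_.R281.Pun_924.qParam_one]
        refine hball _ ?_
        rw [mem_ball_zero_iff]
        refine hT _ ?_
        simpa using hyT
      have h4 : |(F ((y₀ : ℂ) * Complex.I)).im| < B := (Complex.abs_im_le_norm _).trans_lt h3
      rw [hF] at h4
      simp only [UpperHalfPlane.coe_im] at h4
      exact (abs_lt.1 h4).2
    set y := (D.Ψ (g • e.F ((y₀ : ℂ) * Complex.I + Complex.I))).im with hy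
    have hypos : 0 < y := UpperHalfPlane.im_pos _
    rw [hMaj, Real.sqrt_sq (by positivity), one_div_div] at h1
    have h5 := (abs_le.1 h1).1
    have h6 : ((y₀ : ℂ) * Complex.I + Complex.I).im = y₀ + 1 := by simp
    rw [h6] at h5
    have h7 : y / cN < B / cN := by gcongr
    have h8 : C + 1 + B / cN ≤ r * y₀ := by
      rw [div_le_iff₀ hr] at hyr
      linarith
    nlinarith
  · obtain ⟨hβpos, h, hh, hh'⟩ := _root_.R281.Pun_924.parabolic_case hd hm hβ0 hper
    refine ⟨β, hβpos, fun q => -(β * Complex.I) + h (Real.exp (2 * Real.pi) * q), ?_,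
      fun z hz => ?_⟩
    · refine DifferentiableOn.const_add _ (hh.comp (f := fun q : ℂ =>
        (Real.exp (2 * Real.pi) : ℂ) * q) (by fun_prop) fun q hq => ?_)
      rw [mem_ball_zero_iff] at hq ⊢
      rw [norm_mul, Complex.norm_real, Real.norm_eq_abs, abs_of_pos (Real.exp_pos _)]
      calc Real.exp (2 * Real.pi) * ‖q‖ < Real.exp (2 * Real.pi) * Real.exp (-(2 * Real.pi)) := by
            gcongr
        _ = 1 := by rw [← Real.exp_add]; simp
    · have h1 := hh' (z - Complex.I) (by simpa using hz)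
      rw [hF] at h1
      simp only [sub_add_cancel] at h1
      rw [h1]
      have h2 : Complex.exp (2 * Real.pi * Complex.I * (z - Complex.I)) =
          (Real.exp (2 * Real.pi) : ℂ) * qq z := by
        have h3 : (qq z : ℂ) = Complex.exp (2 * Real.pi * Complex.I * z) :=
          _root_.R281.Pun_924.qParam_one z
        rw [h3, Complex.ofReal_exp, ← Complex.exp_add]
        congr 1
        push_cast
        linear_combination (-2 * (Real.pi : ℂ)) * Complex.I_mul_I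
      rw [h2]
      ring

/-- two normal positions differ by a real translation -/
theorem LEnd.compare (hN : 0 < N) (hΛ : Lat N Λ) {e : LEnd D} {w : Fin 3 → ℝ} {g g' : G} {t t' : ℝ}
    (ht : t ≠ 0) (hg : D.R.ρ g w = t • ![0, 0, 1]) (hg' : D.R.ρ g' w = t' • ![0, 0, 1]) :
    ∃ β : ℝ, ∀ z, (D.Ψ (g' • e.F z) : ℂ) = D.Ψ (g • e.F z) + β := by
  have h1 : D.R.ρ g⁻¹ ![0, 0, 1] = t⁻¹ • w := by
    have h2 := ρ_inv D g w
    rw [hg, map_smul] at h2
    rw [← h2, smul_smul, inv_mul_cancel₀ ht, one_smul]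
  have h2 : D.R.ρ (g' * g⁻¹) ![0, 0, 1] = (t⁻¹ * t') • ![0, 0, 1] := by
    rw [ρ_mul, h1, map_smul, hg', smul_smul]
  have h3 := sign_of_fix hΛ (A := D.R.ρ (g' * g⁻¹)) (B := D.R.ρ (g' * g⁻¹)⁻¹) (D.mem _) (D.mem _)
    (ρ_inv D _) h2
  obtain ⟨β, hβ⟩ := mv_fix hN (D.R.iso (g' * g⁻¹)) (D.R.up _) h3 h2
  refine ⟨β, fun z => ?_⟩
  have h5 : g' • e.F z = (g' * g⁻¹) • (g • e.F z) := by
    rw [← mul_smul]
    congr 1
    group
  rw [h5, ← hβ]
  exact D.Φ_smul _ _

end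

end Crest.Agent.R281.As_957
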