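import Crest.Agent.R281.As5_957

/-!
# R281 / As6 (helper957): the whole vertical ray lifts and runs into one end over the cusp `e`
-/

set_option autoImplicit false
set_option linter.style.haveILetI false

open Polynomial Set Filter Topology UpperHalfPlane
open scoped Polynomial.Bivariate

namespace Crest.Agent.R281.As_957

open Ends1_989 Ends2_989 Ends3_989 Ends4_989 Ends5_989 CL_473 Nc_957

noncomputable section

variable {f : ℂ[X][Y]} {δ : ℂ[X]} {N : ℝ} {Λ : Set (Fin 3 → ℝ)} {G : Type*} [Group G] {E : Type*}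
  [MulAction G E]

/-- **the lifted vertical ray through `x₀` and the end over the cusp `e` into which it runs** -/
structure Ray (D : Geom f δ N Λ G E) (x₀ : D.T) where
  /-- the end -/
  e : LEnd D
  /-- its isotropic vector -/
  w : Fin 3 → ℝ
  good : Good e w
  /-- marking -/
  g : G
  t : ℝ
  t_ne : t ≠ 0
  map_w : D.R.ρ g w = t • ![0, 0, 1]
  /-- width of the cusp -/
  r : ℝ
  r_pos : 0 < r
  h : ℂ → ℂ
  h_diff : DifferentiableOn ℂ h (Metric.ball 0 (Real.exp (-(2 * Real.pi))))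
  nf : ∀ z : ℂ, 1 < z.im → (D.Ψ (g • e.F z) : ℂ) = r * z + h (qq z)
  Y₁ : ℝ
  Y₂ : ℝ
  Y₂_lt : Y₂ < Y₁
  le_Y₁ : (D.Ψ x₀).im ≤ Y₁
  /-- inverse of the normal form -/
  k : ℂ → ℂ
  k_diff : DifferentiableOn ℂ k {τ | Y₂ < τ.im}
  k_im : ∀ τ : ℂ, Y₂ < τ.im → 1 < (k τ).im
  k_inv : ∀ τ : ℂ, Y₂ < τ.im → (r : ℂ) * k τ + h (qq (k τ)) = τ
  C : ℝ
  k_bd : ∀ τ : ℂ, Y₂ < τ.im → ‖(r : ℂ) * k τ - τ‖ ≤ C
  /-- the lift of the ray -/
  c : ℝ → D.T
  c_cont : ContinuousOn c (Ici (D.Ψ x₀).im)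
  c_start : c (D.Ψ x₀).im = x₀
  c_ray : ∀ y, (D.Ψ x₀).im ≤ y → D.Ψ (c y) = ray (D.Ψ x₀).re y
  c_end : ∀ y, Y₁ ≤ y → c y = g • e.F (k ((D.Ψ x₀).re + y * Complex.I))
  c_an : ∀ y, (D.Ψ x₀).im ≤ y → ∃ κ : ℂ → ℂ,
    AnalyticAt ℂ κ ((D.Ψ x₀).re + y * Complex.I) ∧
    ∀ᶠ y' in 𝓝[Ici (D.Ψ x₀).im] y, D.u (c y') = κ ((D.Ψ x₀).re + (y' : ℝ) * Complex.I)

/-- data at an end, uniform in the marking -/
theorem LEnd.exists_data {D : Geom f δ N Λ G E} (hN : 0 < N) (hΛ : Lat N Λ) {e : LEnd D}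
    {w : Fin 3 → ℝ} (hw : Good e w) : ∃ T Y₂ : ℝ, ∀ (g : G) (t : ℝ), t ≠ 0 →
      D.R.ρ g w = t • ![0, 0, 1] → ∃ r : ℝ, 0 < r ∧ ∃ h : ℂ → ℂ,
        DifferentiableOn ℂ h (Metric.ball 0 (Real.exp (-(2 * Real.pi)))) ∧
        (∀ z : ℂ, 1 < z.im → (D.Ψ (g • e.F z) : ℂ) = r * z + h (qq z)) ∧
        (∀ z z' : ℂ, T < z.im → T < z'.im → (r : ℂ) * z + h (qq z) = r * z' + h (qq z') →
          z = z') ∧
        ∃ (k : ℂ → ℂ) (C : ℝ), DifferentiableOn ℂ k {τ | Y₂ < τ.im} ∧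
          ∀ τ : ℂ, Y₂ < τ.im → max T 1 < (k τ).im ∧ (r : ℂ) * k τ + h (qq (k τ)) = τ ∧
            ‖(r : ℂ) * k τ - τ‖ ≤ C := by
  by_cases hex : ∃ (g : G) (t : ℝ), t ≠ 0 ∧ D.R.ρ g w = t • ![0, 0, 1]
  · obtain ⟨g₀, t₀, ht₀, hg₀⟩ := hex
    obtain ⟨r, hr, h, hh, hnf⟩ := LEnd.normal hN hw ht₀ hg₀
    obtain ⟨T, hinj, hT⟩ := exists_inv hr (Real.exp_pos _) hh
    obtain ⟨k, Y₂, C, hk, hk'⟩ := hT (max T 1) (le_max_left _ _)
    refine ⟨T, Y₂, fun g t ht hg => ?_⟩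
    obtain ⟨β, hβ⟩ := LEnd.compare (e := e) hN hΛ ht₀ hg₀ hg
    refine ⟨r, hr, fun q => h q + β, hh.add_const _, fun z hz => ?_, fun z z' hz hz' hzz' => ?_,
      fun τ => k (τ - β), C + |β|, ?_, fun τ hτ => ?_⟩
    · rw [hβ, hnf z hz, add_assoc]
    · refine hinj z z' hz hz' ?_
      linear_combination hzz'
    · exact hk.comp (f := fun τ : ℂ => τ - β) (by fun_prop) fun τ (hτ : Y₂ < τ.im) => by
        change Y₂ < (τ - β).im
        simpa using hτ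
    · obtain ⟨h1, h2, h3⟩ := hk' (τ - β) (by simpa using hτ)
      refine ⟨h1, by rw [← add_assoc, h2, sub_add_cancel], ?_⟩
      have h4 : (r : ℂ) * k (τ - β) - τ = ((r : ℂ) * k (τ - β) - (τ - β)) + (-β) := by ring
      rw [h4]
      refine (norm_add_le _ _).trans (add_le_add h3 ?_)
      rw [norm_neg, Complex.norm_real, Real.norm_eq_abs]
  · exact ⟨0, 0, fun g t ht hg => absurd ⟨g, t, ht, hg⟩ hex⟩

theorem ray_coe' {a y : ℝ} (h : 0 < y) : (ray a y : ℂ) = (a : ℂ) + y * Complex.I := ray_coe h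

theorem exists_ray_of_ends (D : Geom f δ N Λ G E) [Countable G] (hN : 0 < N) (hΛ : Lat N Λ)
    (hE : EndsProp N Λ) (hf : f.Monic) (hδ : δ ≠ 0) (hs : Sep f δ) :
    ∃ Nl : Set ℝ, Nl.Countable ∧ ∀ x₀ : D.T, (D.Ψ x₀).re ∉ Nl → Nonempty (Ray D x₀) := by
  classical
  letI act := D.R.act hN
  obtain ⟨n, s, e, K, hK, hcov⟩ := exists_lends D hf hδ hs
  haveI : LindelofSpace D.T := isLindelof_of_cover (fun (g : G) (x : D.T) => g • x)
    (fun g => D.toLS.continuous_smul' g) hK (fun i : s => (e i).F)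
    (fun i => (e i).cont.continuousOn) hcov
  -- the ends
  have hends : ∀ i : s, (∃ p : ℍ, ∀ W ∈ 𝓝 p, ∃ T, ∀ z : ℂ, T ≤ z.im → D.Ψ ((e i).F z) ∈ W) ∨
      ∃ w : Fin 3 → ℝ, Good (e i) w ∧
        ∀ ε > 0, ∃ T, ∀ z : ℂ, T ≤ z.im → Maj N (D.Ψ ((e i).F z)) w < ε := fun i => by
    rcases hE (fun z => D.Ψ ((e i).F z)) (e i).diff (D.R.ρ (e i).g) (D.mem _)
      (fun w => D.R.iso _ w w) (fun z _ w => by rw [(e i).per]; exact D.maj_smul hN _ _ w) with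
      h | ⟨w, h1, h2, h3, h4, h5, h6⟩
    · exact Or.inl h
    · exact Or.inr ⟨w, ⟨h1, h2, h3, h4, h6⟩, h5⟩
  let cusp : s → Prop := fun i => ∃ w : Fin 3 → ℝ, Good (e i) w ∧
    ∀ ε > 0, ∃ T, ∀ z : ℂ, T ≤ z.im → Maj N (D.Ψ ((e i).F z)) w < ε
  let w : s → Fin 3 → ℝ := fun i => if h : cusp i then h.choose else 0
  have hw : ∀ i, cusp i → Good (e i) (w i) ∧
      ∀ ε > 0, ∃ T, ∀ z : ℂ, T ≤ z.im → Maj N (D.Ψ ((e i).F z)) (w i) < ε := fun i h => by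
    simp only [w, dif_pos h]
    exact h.choose_spec
  let pt : s → ℍ := fun i => if h : (∃ p : ℍ, ∀ W ∈ 𝓝 p, ∃ T, ∀ z : ℂ, T ≤ z.im →
    D.Ψ ((e i).F z) ∈ W) then h.choose else UpperHalfPlane.I
  have hpt : ∀ i, ¬ cusp i → ∀ W ∈ 𝓝 (pt i), ∃ T, ∀ z : ℂ, T ≤ z.im → D.Ψ ((e i).F z) ∈ W :=
    fun i h => by
    have h1 := (hends i).resolve_right h
    simp only [pt, dif_pos h1]
    exact h1.choose_spec
  have hu := D.localHomeo_u hf hs
  obtain ⟨Bad, hBc, hPB, hBinv, hgood, hcrit⟩ := exists_bad' (G := G) (P := range pt) hu D.an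
    (countable_range pt)
  let Da : Dat N Λ G D.T s :=
    { ρ := fun g => D.R.ρ g
      ρ_mem := D.mem
      ρ_iso := fun g w => D.R.iso g w w
      ρ_maj := fun g τ w => (D.R.iso g).maj hN _ _ rfl w
      act := fun g g' h τ => UpperHalfPlane.ext (by
        change mv N (D.R.ρ g) τ = mv N (D.R.ρ g') τ
        rw [h])
      act_cont := D.R.act_continuous hN
      act_E := fun g => D.toLS.continuous_smul' g
      Φ := D.Ψ
      Φ_cont := D.continuous_Ψ hf hs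
      Φ_equiv := D.Ψ_smul hN
      K := K
      K_comp := hK
      ε := fun i => (e i).F
      ε_cont := fun i => (e i).cont.continuousOn
      ε_per := fun i z _ => ⟨(e i).g, (e i).per z⟩
      cover := hcov
      Bad := Bad
      Bad_inv := hBinv
      good := hgood
      cusp := cusp
      w := w
      w_mem := fun i h => ⟨(hw i h).1.mem, (hw i h).1.ne, (hw i h).1.iso⟩
      w_lim := fun i h ε hε => by
        obtain ⟨T, hT⟩ := (hw i h).2 ε hε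
        exact ⟨T, fun z _ hz => hT z hz⟩
      pt := pt
      pt_bad := fun i _ => hPB ⟨i, rfl⟩
      pt_lim := fun i h W hW => by
        obtain ⟨T, hT⟩ := hpt i h W hW
        exact ⟨T, fun z _ hz => hT z hz⟩ }
  refine ⟨UpperHalfPlane.re '' Bad, hBc.image _, fun x₀ hx₀ => ?_⟩
  -- uniform data at the cusp ends
  have hdat : ∀ i : s, ∃ T Y₂ : ℝ, cusp i → ∀ (g : G) (t : ℝ), t ≠ 0 →
      D.R.ρ g (w i) = t • ![0, 0, 1] → ∃ r : ℝ, 0 < r ∧ ∃ h : ℂ → ℂ,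
        DifferentiableOn ℂ h (Metric.ball 0 (Real.exp (-(2 * Real.pi)))) ∧
        (∀ z : ℂ, 1 < z.im → (D.Ψ (g • (e i).F z) : ℂ) = r * z + h (qq z)) ∧
        (∀ z z' : ℂ, T < z.im → T < z'.im → (r : ℂ) * z + h (qq z) = r * z' + h (qq z') →
          z = z') ∧
        ∃ (k : ℂ → ℂ) (C : ℝ), DifferentiableOn ℂ k {τ | Y₂ < τ.im} ∧
          ∀ τ : ℂ, Y₂ < τ.im → max T 1 < (k τ).im ∧ (r : ℂ) * k τ + h (qq (k τ)) = τ ∧
            ‖(r : ℂ) * k τ - τ‖ ≤ C := fun i => by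
    by_cases h : cusp i
    · obtain ⟨T, Y₂, hT⟩ := LEnd.exists_data hN hΛ (hw i h).1
      exact ⟨T, Y₂, fun _ => hT⟩
    · exact ⟨0, 0, fun h' => absurd h' h⟩
  choose T Y₂ hdat using hdat
  obtain ⟨M₁, hM₁⟩ := (Set.finite_range T).bddAbove
  obtain ⟨M₂, hM₂⟩ := (Set.finite_range Y₂).bddAbove
  set a := (D.Ψ x₀).re with ha
  have hb0 : 0 < (D.Ψ x₀).im := (D.Ψ x₀).im_pos
  have hx₀' : Da.Φ x₀ = ray a (D.Ψ x₀).im :=
    UpperHalfPlane.ext_re_im (ray_re hb0).symm (ray_im hb0).symm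
  have hbad : ∀ y, (D.Ψ x₀).im ≤ y → ray a y ∉ Da.Bad := fun y hy hmem =>
    hx₀ ⟨_, hmem, ray_re (hb0.trans_le hy)⟩
  have hlift := Da.exists_lift hN hΛ hb0 hx₀' hbad
  obtain ⟨Y₀, hY₀⟩ := Da.reach_cusp hN hΛ a (max M₁ 1 + 1)
  set Y₁ : ℝ := max (max Y₀ (M₂ + 1)) (D.Ψ x₀).im with hY₁
  have hY₀₁ : Y₀ ≤ Y₁ := (le_max_left _ _).trans (le_max_left _ _)
  have hM₂₁ : M₂ + 1 ≤ Y₁ := (le_max_right _ _).trans (le_max_left _ _)
  have hle : (D.Ψ x₀).im ≤ Y₁ := le_max_right _ _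
  obtain ⟨c₀, hc₀, hc0, hcΦ⟩ := hlift Y₁ hle
  obtain ⟨g, i, z₁, hi, h1, h2, hx, t, ht, hg⟩ := hY₀ Y₁ hY₀₁ (c₀ Y₁) (hcΦ _ ⟨hle, le_rfl⟩)
  obtain ⟨r, hr, h, hh, hnf, hinj, k, C, hk, hk'⟩ := hdat i hi g t ht hg
  have hTi : T i ≤ M₁ := hM₁ ⟨i, rfl⟩
  have hYi : Y₂ i < Y₁ := by
    have := hM₂ (⟨i, rfl⟩ : Y₂ i ∈ range Y₂)
    linarith
  have hz₁T : T i < z₁.im := by
    have := le_max_left M₁ 1
    linarith
  have hz₁1 : 1 < z₁.im := by
    have := le_max_right M₁ 1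
    linarith
  have him : ∀ y : ℝ, ((a : ℂ) + y * Complex.I).im = y := fun y => by simp
  have hY₁0 : 0 < Y₁ := hb0.trans_le hle
  -- the point over height `Y₁`
  have hkz : k (a + Y₁ * Complex.I) = z₁ := by
    obtain ⟨h3, h4, -⟩ := hk' (a + Y₁ * Complex.I) (by rw [him]; exact hYi)
    refine hinj _ _ ((le_max_left _ _).trans_lt h3) hz₁T ?_
    rw [h4, ← hnf z₁ hz₁1, ← ray_coe hY₁0, ← hcΦ Y₁ ⟨hle, le_rfl⟩]
    exact congrArg (fun x => (D.Ψ x : ℂ)) hx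
  set c₁ : ℝ → D.T := fun y => g • (e i).F (k (a + y * Complex.I)) with hc₁
  have hc₁Y : c₁ Y₁ = c₀ Y₁ := by
    rw [hc₁]
    simp only
    rw [hkz]
    exact hx.symm
  have hc₁c : ContinuousOn c₁ (Ici Y₁) := by
    have h3 : ContinuousOn (fun y : ℝ => k ((a : ℂ) + y * Complex.I)) (Ici Y₁) :=
      hk.continuousOn.comp (by fun_prop) fun y (hy : Y₁ ≤ y) => by
        change Y₂ i < ((a : ℂ) + y * Complex.I).im
        rw [him]
        exact hYi.trans_le hy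
    exact (D.toLS.continuous_smul' g).comp_continuousOn ((e i).cont.comp_continuousOn h3)
  have hc₁Φ : ∀ y, Y₁ ≤ y → D.Ψ (c₁ y) = ray a y := fun y hy => by
    obtain ⟨h3, h4, -⟩ := hk' (a + y * Complex.I) (by rw [him]; exact hYi.trans_le hy)
    apply UpperHalfPlane.ext
    rw [ray_coe (hY₁0.trans_le hy), ← h4]
    exact hnf _ ((le_max_right _ _).trans_lt h3)
  set c : ℝ → D.T := fun y => if y ≤ Y₁ then c₀ y else c₁ y with hc
  have hc_le : ∀ y, y ≤ Y₁ → c y = c₀ y := fun y hy => by simp only [hc, if_pos hy]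
  have hc_ge : ∀ y, Y₁ ≤ y → c y = c₁ y := fun y hy => by
    rcases hy.lt_or_eq with h3 | rfl
    · simp only [hc, if_neg (not_le.2 h3)]
    · rw [hc_le _ le_rfl, hc₁Y]
  have hcc : ContinuousOn c (Ici (D.Ψ x₀).im) := by
    have h3 : Ici (D.Ψ x₀).im = Icc (D.Ψ x₀).im Y₁ ∪ Ici Y₁ := (Icc_union_Ici_eq_Ici hle).symm
    rw [h3]
    exact (hc₀.congr fun y hy => hc_le y hy.2).union_of_isClosed
      (hc₁c.congr fun y hy => hc_ge y hy) isClosed_Icc isClosed_Ici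
  have hcray : ∀ y, (D.Ψ x₀).im ≤ y → D.Ψ (c y) = ray a y := fun y hy => by
    rcases le_total y Y₁ with h3 | h3
    · rw [hc_le y h3]
      exact hcΦ y ⟨hy, h3⟩
    · rw [hc_ge y h3]
      exact hc₁Φ y h3
  exact ⟨{
    e := e i
    w := w i
    good := (hw i hi).1
    g := g
    t := t
    t_ne := ht
    map_w := hg
    r := r
    r_pos := hr
    h := h
    h_diff := hh
    nf := hnf
    Y₁ := Y₁
    Y₂ := Y₂ i
    Y₂_lt := hYi
    le_Y₁ := hle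
    k := k
    k_diff := hk
    k_im := fun τ hτ => (le_max_right _ _).trans_lt (hk' τ hτ).1
    k_inv := fun τ hτ => (hk' τ hτ).2.1
    C := C
    k_bd := fun τ hτ => (hk' τ hτ).2.2
    c := c
    c_cont := hcc
    c_start := by rw [hc_le _ hle]; exact hc0
    c_ray := hcray
    c_end := fun y hy => hc_ge y hy
    c_an := fun y hy => by
      have h3 : c y ∉ Crit D.u fun x => (D.Ψ x : ℂ) := hcrit _ (by
        rw [hcray y hy]
        exact hbad y hy)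
      obtain ⟨κ, hκ, hκ'⟩ := exists_kappa hu D.an h3
      have h4 : ∀ y', (D.Ψ x₀).im ≤ y' → (D.Ψ (c y') : ℂ) = a + y' * Complex.I := fun y' hy' => by
        rw [hcray y' hy']
        exact ray_coe (hb0.trans_le hy')
      refine ⟨κ, by rw [← h4 y hy]; exact hκ, ?_⟩
      have h5 : ∀ᶠ y' in 𝓝[Ici (D.Ψ x₀).im] y, D.u (c y') = κ (D.Ψ (c y')) :=
        (hcc y hy).eventually hκ'
      filter_upwards [h5, self_mem_nhdsWithin] with y' hy1 hy2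
      rw [hy1, h4 y' hy2] }⟩

/-- **non-constancy** on the marked cover -/
theorem Geom.not_lc (D : Geom f δ N Λ G E) (hf : f.Monic) (hδ : δ ≠ 0) (hs : Sep f δ) (x₀ : D.T)
    {b : ℂ} (hb : δ.eval b ≠ 0) {S : Set ℍ} (hS : ∀ x : D.T, D.u x = b → D.Ψ x ∈ S)
    (h0 : D.Ψ x₀ ∉ S) : ¬ LC (fun x => (D.Ψ x : ℂ)) x₀ := by
  obtain ⟨y, hj, hy⟩ := exists_joined (countable_Zd hδ) (isCoveringMap_qpr hf hs)
    D.toLS.isCoveringMap x₀ ⟨b, hb⟩
  have hyb : D.u y = b := congrArg Subtype.val hy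
  refine not_lc_of_joined (D.localHomeo_u hf hs) D.an (S := ((↑) : ℍ → ℂ) '' S) (fun h => ?_)
    (mem_image_of_mem _ (hS y hyb)) hj (Joined.refl x₀)
  obtain ⟨τ, hτ, h2⟩ := h
  exact h0 (by rw [← UpperHalfPlane.coe_injective h2]; exact hτ)

end

end Crest.Agent.R281.As_957
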