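import Mathlib

/-!
# R281 (S0424), blocks of members (helper592), part 1: Segre algebra

`ι` finite (blocks), `J k` the coordinates of the block `k`, Segre space `(Π k, J k) → R`.

* `seg u`          : `a ↦ ∏ k, u k (a k)`
* `ext k a`        : extraction of the block `k` (LINEAR): `w ↦ (j ↦ w (update a k j))`
* `SegRel w`       : the quadratic relations; `segEq` the same as a finite set of quadrics
* `exists_seg`     : over a field `w ≠ 0`: `SegRel w ↔ w = seg u`, `u k ≠ 0`
* `ext_indep`      : `w a₁ • ext k a₀ w = w (update a₀ k (a₁ k)) • ext k a₁ w`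
* `DRel w v`       : linearised relations (velocities), `dext_indep`
* `sum_norm_seg`   : `∑ |seg u|² = ∏ ∑ |u k|²`
* `dseg`           : derivative of `seg`; `ext_dseg`
-/

set_option autoImplicit false
set_option linter.unusedSectionVars false

open Finset Function

namespace Crest.Agent.R281.Blk_592

noncomputable section

variable {ι : Type*} [Fintype ι] [DecidableEq ι] {J : ι → Type*}

section Ring

variable {R : Type*} [CommRing R]

/-- Segre map -/
def seg (u : ∀ k, J k → R) (a : ∀ k, J k) : R := ∏ k, u k (a k)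

/-- extraction of the block `k` -/
def ext (k : ι) (a : ∀ k, J k) (w : (∀ k, J k) → R) (j : J k) : R := w (update a k j)

/-- the Segre relations -/
def SegRel (w : (∀ k, J k) → R) : Prop :=
  ∀ k a a', w a * w a' = w (update a k (a' k)) * w (update a' k (a k))

/-- the linearised Segre relations at `w` -/
def DRel (w v : (∀ k, J k) → R) : Prop :=
  ∀ k a a', v a * w a' + w a * v a' = v (update a k (a' k)) * w (update a' k (a k)) +
    w (update a k (a' k)) * v (update a' k (a k))

theorem ext_add (k : ι) (a : ∀ k, J k) (w w' : (∀ k, J k) → R) :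
    ext k a (w + w') = ext k a w + ext k a w' := rfl

theorem ext_smul (k : ι) (a : ∀ k, J k) (c : R) (w : (∀ k, J k) → R) :
    ext k a (c • w) = c • ext k a w := rfl

theorem ext_self (k : ι) (a : ∀ k, J k) (w : (∀ k, J k) → R) : ext k a w (a k) = w a := by
  unfold ext
  rw [update_eq_self]

theorem seg_update (u : ∀ k, J k → R) (k : ι) (a : ∀ k, J k) (j : J k) :
    seg u (update a k j) = u k j * ∏ l ∈ univ.erase k, u l (a l) := by
  unfold seg
  rw [← Finset.mul_prod_erase univ _ (mem_univ k), update_self]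
  congr 1
  refine Finset.prod_congr rfl fun l hl => ?_
  rw [update_of_ne (ne_of_mem_erase hl)]

theorem seg_eq (u : ∀ k, J k → R) (k : ι) (a : ∀ k, J k) :
    seg u a = u k (a k) * ∏ l ∈ univ.erase k, u l (a l) := by
  have h := seg_update u k a (a k)
  rwa [update_eq_self] at h

theorem ext_seg (u : ∀ k, J k → R) (k : ι) (a : ∀ k, J k) :
    ext k a (seg u) = (∏ l ∈ univ.erase k, u l (a l)) • u k := by
  funext j
  rw [ext, seg_update, Pi.smul_apply, smul_eq_mul, mul_comm]

theorem segRel_seg (u : ∀ k, J k → R) : SegRel (seg u) := by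
  intro k a a'
  rw [seg_update, seg_update, seg_eq u k a, seg_eq u k a']
  ring

theorem SegRel.smul {w : (∀ k, J k) → R} (h : SegRel w) (c : R) : SegRel (c • w) := by
  intro k a a'
  simp only [Pi.smul_apply, smul_eq_mul]
  linear_combination c ^ 2 * h k a a'

theorem SegRel.map {S : Type*} [CommRing S] (φ : R →+* S) {w : (∀ k, J k) → R} (h : SegRel w) :
    SegRel fun a => φ (w a) := by
  intro k a a'
  rw [← map_mul, h k a a', map_mul]

/-- independence of the base index -/
theorem ext_indep {w : (∀ k, J k) → R} (h : SegRel w) (k : ι) (a₀ a₁ : ∀ k, J k) :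
    w a₁ • ext k a₀ w = w (update a₀ k (a₁ k)) • ext k a₁ w := by
  funext j
  have h1 := h k a₁ (update a₀ k j)
  rw [update_self, update_idem] at h1
  simp only [Pi.smul_apply, smul_eq_mul, ext]
  rw [h1]
  ring

theorem DRel.smul_add {w v : (∀ k, J k) → R} (h : SegRel w) (hv : DRel w v) (c c' : R) :
    DRel w (c • v + c' • w) := by
  intro k a a'
  simp only [Pi.smul_apply, Pi.add_apply, smul_eq_mul]
  linear_combination c * hv k a a' + 2 * c' * h k a a'

theorem DRel.smul_left {w v : (∀ k, J k) → R} (hv : DRel w v) (c : R) : DRel (c • w) v := by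
  intro k a a'
  simp only [Pi.smul_apply, smul_eq_mul]
  linear_combination c * hv k a a'

/-- independence of the base index, for velocities -/
theorem dext_indep {w v : (∀ k, J k) → R} (hv : DRel w v) (k : ι)
    (a₀ a₁ : ∀ k, J k) :
    w a₁ • ext k a₀ v + v a₁ • ext k a₀ w =
      w (update a₀ k (a₁ k)) • ext k a₁ v + v (update a₀ k (a₁ k)) • ext k a₁ w := by
  funext j
  have h1 := hv k a₁ (update a₀ k j)
  rw [update_self, update_idem] at h1
  simp only [Pi.add_apply, Pi.smul_apply, smul_eq_mul, ext]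
  linear_combination h1

/-- derivative of the Segre map -/
def dseg (u v : ∀ k, J k → R) (a : ∀ k, J k) : R :=
  ∑ k, v k (a k) * ∏ l ∈ univ.erase k, u l (a l)

theorem dseg_add (u v v' : ∀ k, J k → R) : dseg u (v + v') = dseg u v + dseg u v' := by
  funext a
  simp only [dseg, Pi.add_apply, add_mul, Finset.sum_add_distrib]

theorem dseg_smul (u v : ∀ k, J k → R) (c : R) : dseg u (c • v) = c • dseg u v := by
  funext a
  simp only [dseg, Pi.smul_apply, smul_eq_mul, Finset.mul_sum, mul_assoc]

/-- Euler directions -/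
theorem dseg_euler (u : ∀ k, J k → R) (c : ι → R) :
    dseg u (fun k => c k • u k) = (∑ k, c k) • seg u := by
  funext a
  simp only [dseg, Pi.smul_apply, smul_eq_mul, Finset.sum_mul]
  refine Finset.sum_congr rfl fun k _ => ?_
  rw [seg_eq u k a]
  ring

/-- extraction from a velocity -/
theorem ext_dseg (u v : ∀ k, J k → R) (k : ι) (a : ∀ k, J k) :
    ext k a (dseg u v) = (∏ l ∈ univ.erase k, u l (a l)) • v k +
      (∑ m ∈ univ.erase k, v m (a m) * ∏ l ∈ (univ.erase k).erase m, u l (a l)) • u k := by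
  funext j
  simp only [ext, dseg, Pi.add_apply, Pi.smul_apply, smul_eq_mul]
  rw [← Finset.add_sum_erase univ _ (mem_univ k), update_self]
  congr 1
  · rw [mul_comm]
    congr 1
    refine Finset.prod_congr rfl fun l hl => ?_
    rw [update_of_ne (ne_of_mem_erase hl)]
  · rw [Finset.sum_mul]
    refine Finset.sum_congr rfl fun m hm => ?_
    have hmk : m ≠ k := ne_of_mem_erase hm
    rw [update_of_ne hmk, ← Finset.mul_prod_erase (univ.erase m) _ (mem_erase.2 ⟨hmk.symm,
      mem_univ k⟩), update_self, Finset.erase_right_comm]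
    have h1 : ∏ x ∈ (univ.erase k).erase m, u x (update a k j x) =
        ∏ x ∈ (univ.erase k).erase m, u x (a x) := by
      refine Finset.prod_congr rfl fun l hl => ?_
      rw [update_of_ne (ne_of_mem_erase (mem_of_mem_erase hl))]
    rw [h1]
    ring

theorem dRel_dseg (u v : ∀ k, J k → R) : DRel (seg u) (dseg u v) := by
  intro k a a'
  have e : ∀ b : ∀ k, J k, dseg u v b = v k (b k) * (∏ l ∈ univ.erase k, u l (b l)) +
      (∑ m ∈ univ.erase k, v m (b m) * ∏ l ∈ (univ.erase k).erase m, u l (b l)) * u k (b k) := by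
    intro b
    have h1 := congrFun (ext_dseg u v k b) (b k)
    rw [ext_self] at h1
    rw [h1]
    simp only [Pi.add_apply, Pi.smul_apply, smul_eq_mul]
    ring
  have e' : ∀ (b : ∀ k, J k) (j : J k), dseg u v (update b k j) =
      v k j * (∏ l ∈ univ.erase k, u l (b l)) +
      (∑ m ∈ univ.erase k, v m (b m) * ∏ l ∈ (univ.erase k).erase m, u l (b l)) * u k j := by
    intro b j
    have h1 := congrFun (ext_dseg u v k b) j
    have h2 : ext k b (dseg u v) j = dseg u v (update b k j) := rfl
    rw [← h2, h1]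
    simp only [Pi.add_apply, Pi.smul_apply, smul_eq_mul]
    ring
  rw [e', e', seg_update, seg_update, e a, e a', seg_eq u k a, seg_eq u k a']
  ring

/-! ### the quadrics -/

open MvPolynomial in
/-- the Segre quadric -/
def segPoly (R : Type*) [CommRing R] (k : ι) (a a' : ∀ k, J k) : MvPolynomial (∀ k, J k) R :=
  X a * X a' - X (update a k (a' k)) * X (update a' k (a k))

theorem segPoly_hom (k : ι) (a a' : ∀ k, J k) : (segPoly R k a a').IsHomogeneous 2 := by
  have h : ∀ b b' : ∀ k, J k, (MvPolynomial.X b * MvPolynomial.X b' :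
      MvPolynomial (∀ k, J k) R).IsHomogeneous 2 := fun b b' =>
    (MvPolynomial.isHomogeneous_X R b).mul (MvPolynomial.isHomogeneous_X R b')
  exact (h _ _).sub (h _ _)

theorem segPoly_map {S : Type*} [CommRing S] (φ : R →+* S) (k : ι) (a a' : ∀ k, J k) :
    (segPoly R k a a').map φ = segPoly S k a a' := by
  simp [segPoly]

theorem eval_segPoly (k : ι) (a a' : ∀ k, J k) (w : (∀ k, J k) → R) :
    MvPolynomial.eval w (segPoly R k a a') =
      w a * w a' - w (update a k (a' k)) * w (update a' k (a k)) := by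
  simp [segPoly]

theorem segRel_iff {w : (∀ k, J k) → R} :
    SegRel w ↔ ∀ k a a', MvPolynomial.eval w (segPoly R k a a') = 0 := by
  simp only [SegRel, eval_segPoly, sub_eq_zero]

theorem dRel_iff [Fintype (∀ k, J k)] {w v : (∀ k, J k) → R} :
    DRel w v ↔ ∀ k a a', ∑ b, MvPolynomial.eval w (MvPolynomial.pderiv b (segPoly R k a a')) *
      v b = 0 := by
  classical
  have h : ∀ k a a', ∑ b, MvPolynomial.eval w (MvPolynomial.pderiv b (segPoly R k a a')) * v b =
      v a * w a' + w a * v a' - (v (update a k (a' k)) * w (update a' k (a k)) +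
        w (update a k (a' k)) * v (update a' k (a k))) := by
    intro k a a'
    simp only [segPoly, map_sub, Derivation.leibniz, MvPolynomial.pderiv_X, smul_eq_mul,
      map_add, map_mul, MvPolynomial.eval_X, sub_mul, add_mul, Finset.sum_sub_distrib,
      Finset.sum_add_distrib]
    have e2 : ∀ (b : ∀ k, J k) (c : R), ∑ x, c * MvPolynomial.eval w
        ((Pi.single x (1 : MvPolynomial (∀ k, J k) R) : (∀ k, J k) → MvPolynomial (∀ k, J k) R) b)
          * v x = c * v b := by
      intro b c
      rw [Finset.sum_eq_single b]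
      · simp
      · intro x _ hx
        simp [Pi.single_eq_of_ne (Ne.symm hx)]
      · intro hb
        exact absurd (mem_univ b) hb
    rw [e2, e2, e2, e2]
    ring
  simp only [DRel, h, sub_eq_zero]

/-- all quadrics -/
def segEq (R : Type*) [CommRing R] [DecidableEq (MvPolynomial (∀ k, J k) R)]
    [Fintype (∀ k, J k)] : Finset (MvPolynomial (∀ k, J k) R) :=
  Finset.univ.image fun q : ι × (∀ k, J k) × (∀ k, J k) => segPoly R q.1 q.2.1 q.2.2

end Ring

section Field

variable {F : Type*} [Field F]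

/-- the monomial identity of the Segre cone -/
theorem segRel_pow {R : Type*} [CommRing R] {w : (∀ k, J k) → R} (h : SegRel w)
    (a₀ a : ∀ k, J k) (s : Finset ι) :
    w (s.piecewise a a₀) * w a₀ ^ s.card = w a₀ * ∏ k ∈ s, w (update a₀ k (a k)) := by
  induction s using Finset.induction_on with
  | empty => simp
  | insert k s hk ih =>
    have h1 : (insert k s).piecewise a a₀ = update (s.piecewise a a₀) k (a k) :=
      Finset.piecewise_insert s a a₀ k
    have h2 := h k (update (s.piecewise a a₀) k (a k)) a₀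
    rw [update_idem, update_self] at h2
    have h3 : update (s.piecewise a a₀) k (a₀ k) = s.piecewise a a₀ := by
      have : (s.piecewise a a₀) k = a₀ k := Finset.piecewise_eq_of_notMem s a a₀ hk
      rw [← this, update_eq_self]
    rw [h3] at h2
    rw [h1, Finset.card_insert_of_notMem hk, Finset.prod_insert hk, pow_succ]
    linear_combination w a₀ ^ s.card * h2 + w (update a₀ k (a k)) * ih

theorem segRel_eq {w : (∀ k, J k) → F} (h : SegRel w) {a₀ : ∀ k, J k} (h0 : w a₀ ≠ 0) :
    w = (w a₀ * ((w a₀)⁻¹) ^ Fintype.card ι) • seg (fun k => ext k a₀ w) := by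
  funext a
  have h1 := segRel_pow h a₀ a univ
  rw [Finset.piecewise_univ, Finset.card_univ] at h1
  simp only [Pi.smul_apply, smul_eq_mul, seg, ext]
  have h2 : w a₀ ^ Fintype.card ι ≠ 0 := pow_ne_zero _ h0
  rw [inv_pow]
  field_simp
  exact h1

theorem ext_ne {w : (∀ k, J k) → F} {a₀ : ∀ k, J k} (h0 : w a₀ ≠ 0) (k : ι) : ext k a₀ w ≠ 0 := by
  intro h
  have h1 := congrFun h (a₀ k)
  rw [ext_self] at h1
  exact h0 h1

theorem exists_nz {T : Type*} {x : T → F} (h : x ≠ 0) : ∃ j, x j ≠ 0 := by
  by_contra h2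
  push Not at h2
  exact h (funext h2)

theorem seg_ne {u : ∀ k, J k → F} (h : ∀ k, u k ≠ 0) : seg u ≠ 0 := by
  have h1 : ∀ k, ∃ j, u k j ≠ 0 := fun k => by
    by_contra h2
    push Not at h2
    exact h k (funext h2)
  choose a ha using h1
  intro h2
  exact (Finset.prod_ne_zero_iff.2 fun k _ => ha k) (congrFun h2 a)

/-- points of the Segre cone -/
theorem exists_seg [Nonempty ι] {w : (∀ k, J k) → F} (hw : w ≠ 0) :
    SegRel w ↔ ∃ u : ∀ k, J k → F, (∀ k, u k ≠ 0) ∧ w = seg u := by
  constructor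
  · intro h
    obtain ⟨a₀, h0⟩ := exists_nz hw
    obtain ⟨k₀⟩ := ‹Nonempty ι›
    set c : F := w a₀ * ((w a₀)⁻¹) ^ Fintype.card ι with hc
    have hc0 : c ≠ 0 := mul_ne_zero h0 (pow_ne_zero _ (inv_ne_zero h0))
    refine ⟨fun k => (if k = k₀ then c else 1) • ext k a₀ w, fun k => ?_, ?_⟩
    · refine smul_ne_zero ?_ (ext_ne h0 k)
      split_ifs
      · exact hc0
      · exact one_ne_zero
    · conv_lhs => rw [segRel_eq h h0]
      funext a
      simp only [seg, Pi.smul_apply, smul_eq_mul, Finset.prod_mul_distrib]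
      rw [Finset.prod_ite_eq' univ k₀ (fun _ => c), if_pos (mem_univ _)]
  · rintro ⟨u, -, rfl⟩
    exact segRel_seg u

/-- the blocks of two points of the Segre cone determine them up to a scalar -/
theorem seg_proj {u u' : ∀ k, J k → F} (h : ∀ k, ∃ c : F, u k = c • u' k) :
    ∃ c : F, seg u = c • seg u' := by
  choose c hc using h
  refine ⟨∏ k, c k, ?_⟩
  funext a
  simp only [seg, Pi.smul_apply, smul_eq_mul]
  rw [← Finset.prod_mul_distrib]
  refine Finset.prod_congr rfl fun k _ => ?_
  rw [hc k]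
  rfl

/-- the Segre map is injective on products of projective spaces -/
theorem seg_inj {u u' : ∀ k, J k → F} (hu : ∀ k, u k ≠ 0) (h : ∃ c : F, seg u = c • seg u')
    (k : ι) : ∃ c : F, u k = c • u' k := by
  obtain ⟨c, hc⟩ := h
  have h1 : ∀ l, ∃ j, u l j ≠ 0 := fun l => exists_nz (hu l)
  choose a ha using h1
  have h2 := congrArg (ext k a) hc
  rw [ext_seg, ext_smul, ext_seg] at h2
  have h3 : (∏ l ∈ univ.erase k, u l (a l)) ≠ 0 := Finset.prod_ne_zero_iff.2 fun l _ => ha l
  refine ⟨(∏ l ∈ univ.erase k, u l (a l))⁻¹ * (c * ∏ l ∈ univ.erase k, u' l (a l)), ?_⟩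
  rw [mul_smul, mul_smul, ← h2, inv_smul_smul₀ h3]

/-- the derivative of the Segre map is injective modulo the Euler directions -/
theorem dseg_inj {u v : ∀ k, J k → F} (hu : ∀ k, u k ≠ 0) (h : ∃ c : F, dseg u v = c • seg u)
    (k : ι) : ∃ c : F, v k = c • u k := by
  obtain ⟨c, hc⟩ := h
  have h1 : ∀ l, ∃ j, u l j ≠ 0 := fun l => exists_nz (hu l)
  choose a ha using h1
  have h2 := congrArg (ext k a) hc
  rw [ext_dseg, ext_smul, ext_seg] at h2
  have h3 : (∏ l ∈ univ.erase k, u l (a l)) ≠ 0 := Finset.prod_ne_zero_iff.2 fun l _ => ha l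
  set p := ∏ l ∈ univ.erase k, u l (a l)
  set q := ∑ m ∈ univ.erase k, v m (a m) * ∏ l ∈ (univ.erase k).erase m, u l (a l)
  refine ⟨p⁻¹ * (c * p - q), ?_⟩
  have h4 : p • v k = (c * p - q) • u k := by
    rw [sub_smul, mul_smul, ← h2, add_sub_cancel_right]
  rw [mul_smul, ← h4, inv_smul_smul₀ h3]

/-- extraction of a block of a velocity: independence of the base index -/
theorem dext_indep' {w v : (∀ k, J k) → F} (h : SegRel w) (hv : DRel w v) (k : ι)
    {a₀ a₁ : ∀ k, J k} (h1 : w a₁ ≠ 0) :
    ext k a₀ w = (w (update a₀ k (a₁ k)) / w a₁) • ext k a₁ w ∧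
    ext k a₀ v = (w (update a₀ k (a₁ k)) / w a₁) • ext k a₁ v +
      ((v (update a₀ k (a₁ k)) - v a₁ * (w (update a₀ k (a₁ k)) / w a₁)) / w a₁) •
        ext k a₁ w := by
  have e1 := ext_indep h k a₀ a₁
  have e2 : ext k a₀ w = (w (update a₀ k (a₁ k)) / w a₁) • ext k a₁ w := by
    rw [div_eq_inv_mul, mul_smul, ← e1, inv_smul_smul₀ h1]
  refine ⟨e2, ?_⟩
  have e3 := dext_indep hv k a₀ a₁
  rw [e2] at e3
  funext j
  have e4 := congrFun e3 j
  simp only [Pi.add_apply, Pi.smul_apply, smul_eq_mul] at e4 ⊢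
  field_simp
  field_simp at e4
  linear_combination e4

theorem ext_scal_ne {w : (∀ k, J k) → F} (h : SegRel w) (k : ι)
    {a₀ a₁ : ∀ k, J k} (h0 : w a₀ ≠ 0) (h1 : w a₁ ≠ 0) : w (update a₀ k (a₁ k)) ≠ 0 := by
  intro h2
  have h3 := h k a₀ a₁
  rw [h2, zero_mul] at h3
  exact mul_ne_zero h0 h1 h3

end Field

section Norm

variable [∀ k, Fintype (J k)]

theorem sum_norm_seg (u : ∀ k, J k → ℂ) : ∑ a, ‖seg u a‖ ^ 2 = ∏ k, ∑ j, ‖u k j‖ ^ 2 := by
  rw [Finset.prod_univ_sum]
  rw [Fintype.piFinset_univ]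
  refine Finset.sum_congr rfl fun a _ => ?_
  rw [seg, norm_prod, Finset.prod_pow]

/-- block extraction as a continuous linear map -/
def extL (k : ι) (a : ∀ k, J k) : ((∀ k, J k) → ℂ) →L[ℂ] (J k → ℂ) :=
  LinearMap.toContinuousLinearMap
    { toFun := ext k a
      map_add' := fun _ _ => rfl
      map_smul' := fun _ _ => rfl }

theorem extL_apply (k : ι) (a : ∀ k, J k) (w : (∀ k, J k) → ℂ) : extL k a w = ext k a w := rfl

end Norm

end

end Crest.Agent.R281.Blk_592
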