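import Crest.Agent.R273.FS_333
import Crest.Agent.R281.Blk1_592

/-!
# R281 (S0424), blocks of members (helper592), part 2: holomorphic maps to projective spaces

* `MapD A J`      : homogeneous coordinates `F i x : J → ℂ` of a holomorphic map to `ℙ(J → ℂ)`
* `MapD.lb`, `MapD.sec`, `MapD.isHS_sec`, `MapD.exists_sec_ne`
* `MapD.lb_eq`    : `lb = L` if the coordinates are sections of `L`
* `MapD.fs : HM lb`, `MapD.lev_fs` (formula), `MapD.semipos`, `MapD.lev_pos`
* `MapD.ofProj`, `MapD.toProj`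
* `segM Q`        : Segre product of block maps; `segM_g`, `segM_w`, `segM_cur`, `segM_posDef`
* `segP`          : Segre product of projective embeddings (jointly injective and immersive)
* `MapD.blk`      : extraction of a block; `segM_blk`
-/

set_option autoImplicit false
set_option linter.unusedSectionVars false

open Set Filter Topology Complex Function
open scoped ContDiff Matrix ComplexConjugate Manifold ComplexOrder

namespace Crest.Agent.R281.Blk_592

open Crest.Agent.R275.Geo Crest.Agent.R275.Core144 Crest.Agent.R275.EDR890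
open Crest.Agent.R273.Defs_333 Crest.Agent.R273.Hess_333 Crest.Agent.R273.HessB_333
open Crest.Agent.R273.HM_333 Crest.Agent.R273.Kah_333 Crest.Agent.R273.FS_333

noncomputable section

variable {n : ℕ} {M : Type} [TopologicalSpace M] {A : Atl n M}

/-- homogeneous coordinates of a holomorphic map to a projective space -/
structure MapD (A : Atl n M) (J : Type) where
  F : A.ι → M → J → ℂ
  hol : ∀ i j, HolAt A i univ (fun x => F i x j)
  ne : ∀ i, ∀ x ∈ (A.e i).source, F i x ≠ 0
  tr : ∀ i j, ∀ x ∈ (A.e i).source ∩ (A.e j).source, ∃ c : ℂ, F i x = c • F j x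

namespace MapD

variable {J : Type}

section Bundle

variable (Q : MapD A J)

open Classical in
/-- the transition function -/
def gij (i j : A.ι) (x : M) : ℂ :=
  if hx : x ∈ (A.e i).source ∩ (A.e j).source then (Q.tr i j x hx).choose else 1

theorem gij_spec {i j : A.ι} {x : M} (hx : x ∈ (A.e i).source ∩ (A.e j).source) :
    Q.F i x = Q.gij i j x • Q.F j x := by
  unfold gij
  rw [dif_pos hx]
  exact (Q.tr i j x hx).choose_spec

theorem gij_off {i j : A.ι} {x : M} (hx : x ∉ (A.e i).source ∩ (A.e j).source) :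
    Q.gij i j x = 1 := dif_neg hx

theorem exists_F_ne {j : A.ι} {x : M} (hx : x ∈ (A.e j).source) : ∃ k, Q.F j x k ≠ 0 :=
  exists_nz (Q.ne j x hx)

theorem gij_eq {i j : A.ι} {x : M} (hx : x ∈ (A.e i).source ∩ (A.e j).source) {k : J}
    (hk : Q.F j x k ≠ 0) : Q.gij i j x = Q.F i x k / Q.F j x k := by
  have h := congrFun (Q.gij_spec hx) k
  rw [Pi.smul_apply, smul_eq_mul] at h
  rw [h, mul_div_assoc, div_self hk, mul_one]

theorem gij_uniq {i j : A.ι} {x : M} (hx : x ∈ (A.e i).source ∩ (A.e j).source) {c : ℂ}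
    (hc : Q.F i x = c • Q.F j x) : Q.gij i j x = c := by
  obtain ⟨k, hk⟩ := Q.exists_F_ne hx.2
  rw [Q.gij_eq hx hk, hc, Pi.smul_apply, smul_eq_mul, mul_div_assoc, div_self hk, mul_one]

theorem hol_chg {i j : A.ι} (k : J) : HolAt A i (A.e j).source (fun x => Q.F j x k) := by
  have h := (Q.hol j k).chg isOpen_univ i
  rwa [univ_inter] at h

/-- the pull back of the hyperplane bundle -/
def lb : LB A where
  g := Q.gij
  hol i j := by
    intro z hz
    set x := (A.e i).symm z with hxd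
    have hx : x ∈ (A.e i).source ∩ (A.e j).source := ⟨(A.e i).map_target hz.1, hz.2⟩
    obtain ⟨k, hk⟩ := Q.exists_F_ne hx.2
    have ho : IsOpen ((A.e i).target ∩ (A.e i).symm ⁻¹' (A.e j).source) :=
      isOpen_ti (A.e j).open_source
    have h1 : DifferentiableAt ℂ (fun w => Q.F i ((A.e i).symm w) k) z := by
      have := (Q.hol i k).mono (subset_univ (A.e j).source)
      exact DifferentiableOn.differentiableAt this (ho.mem_nhds hz)
    have h2 : DifferentiableAt ℂ (fun w => Q.F j ((A.e i).symm w) k) z :=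
      DifferentiableOn.differentiableAt (Q.hol_chg k) (ho.mem_nhds hz)
    have h3 : (fun w => Q.gij i j ((A.e i).symm w)) =ᶠ[𝓝 z]
        fun w => Q.F i ((A.e i).symm w) k * (Q.F j ((A.e i).symm w) k)⁻¹ := by
      filter_upwards [ho.mem_nhds hz, h2.continuousAt.eventually_ne hk] with w hw hwk
      rw [Q.gij_eq ⟨(A.e i).map_target hw.1, hw.2⟩ hwk, div_eq_mul_inv]
    exact ((h1.mul (h2.inv hk)).congr_of_eventuallyEq h3).differentiableWithinAt
  off i j x hx := Q.gij_off hx
  self i x := by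
    by_cases hx : x ∈ (A.e i).source
    · exact Q.gij_uniq ⟨hx, hx⟩ (one_smul ℂ _).symm
    · exact Q.gij_off fun h => hx h.1
  mul i j k x hx := by
    refine (Q.gij_uniq ⟨hx.1.1, hx.2⟩ ?_).symm
    rw [mul_smul, ← Q.gij_spec (i := j) (j := k) ⟨hx.1.2, hx.2⟩]
    exact Q.gij_spec hx.1

theorem lb_g {i j : A.ι} {x : M} (hx : x ∈ (A.e i).source ∩ (A.e j).source) :
    Q.F i x = Q.lb.g i j x • Q.F j x := Q.gij_spec hx

/-- the coordinates are sections of `L` -/
theorem lb_eq (L : LB A) (h : ∀ i j, ∀ x ∈ (A.e i).source ∩ (A.e j).source,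
    Q.F i x = L.g i j x • Q.F j x) : Q.lb = L := by
  ext i j x
  by_cases hx : x ∈ (A.e i).source ∩ (A.e j).source
  · exact Q.gij_uniq hx (h i j x hx)
  · rw [L.off i j x hx]
    exact Q.gij_off hx

open Classical in
/-- the section `F_k` -/
def sec (k : J) : A.ι → M → ℂ := fun i x =>
  if x ∈ (A.e i).source then Q.F i x k else 0

theorem sec_eq {i : A.ι} {x : M} (hx : x ∈ (A.e i).source) (k : J) :
    Q.sec k i x = Q.F i x k := if_pos hx

theorem isHS_sec (k : J) : IsHS Q.lb univ (Q.sec k) where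
  hol i := (Q.hol i k).congr fun x hx _ => (Q.sec_eq hx k).symm
  off i x hx := if_neg hx
  tr i j x hx _ := by
    rw [Q.sec_eq hx.1, Q.sec_eq hx.2]
    exact congrFun (Q.gij_spec hx) k

theorem exists_sec_ne {i : A.ι} {x : M} (hx : x ∈ (A.e i).source) : ∃ k, Q.sec k i x ≠ 0 := by
  obtain ⟨k, hk⟩ := Q.exists_F_ne hx
  exact ⟨k, by rwa [Q.sec_eq hx]⟩

theorem diffOn (i : A.ι) (k : J) :
    DifferentiableOn ℂ (fun w => Q.F i ((A.e i).symm w) k) (A.e i).target := by
  have := Q.hol i k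
  unfold HolAt at this
  simpa using this

end Bundle

section Metric

variable [Fintype J] (Q : MapD A J)

theorem sq_pos' {v : J → ℂ} (h : v ≠ 0) : 0 < ∑ k, ‖v k‖ ^ 2 := by
  obtain ⟨k, hk⟩ := exists_nz h
  refine lt_of_lt_of_le (by positivity : 0 < ‖v k‖ ^ 2) ?_
  exact Finset.single_le_sum (f := fun k => ‖v k‖ ^ 2) (fun _ _ => by positivity)
    (Finset.mem_univ k)

/-- the Fubini-Study metric -/
def fs : HM Q.lb where
  w i x := (∑ k, ‖Q.F i x k‖ ^ 2)⁻¹
  pos i x hx := inv_pos.2 (sq_pos' (Q.ne i x hx))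
  sm i := by
    have h1 : ContDiffOn ℝ ∞ (fun z => ∑ k, ‖Q.F i ((A.e i).symm z) k‖ ^ 2) (A.e i).target := by
      refine ContDiffOn.sum fun k _ => ?_
      have h2 : ContDiffOn ℝ ∞ (fun z => Q.F i ((A.e i).symm z) k) (A.e i).target := by
        have := (Q.hol i k).contDiffOn isOpen_univ
        simpa using this
      exact h2.norm_sq ℝ
    exact h1.inv fun z hz => (sq_pos' (Q.ne i _ ((A.e i).map_target hz))).ne'
  tr i j x hx := by
    have h1 := Q.gij_spec hx
    have h2 : (∑ k, ‖Q.F i x k‖ ^ 2) = ‖Q.gij i j x‖ ^ 2 * ∑ k, ‖Q.F j x k‖ ^ 2 := by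
      rw [Finset.mul_sum]
      refine Finset.sum_congr rfl fun k _ => ?_
      rw [h1, Pi.smul_apply, smul_eq_mul, norm_mul, mul_pow]
    change (∑ k, ‖Q.F j x k‖ ^ 2)⁻¹ = ‖Q.gij i j x‖ ^ 2 * (∑ k, ‖Q.F i x k‖ ^ 2)⁻¹
    have h3 : Q.gij i j x ≠ 0 := Q.lb.ne_zero i j x
    rw [h2, mul_inv, ← mul_assoc, mul_inv_cancel₀ (by positivity), one_mul]

theorem wt_fs (i : A.ι) (z : Cn n) :
    Q.fs.wt i z = Real.log (∑ k, ‖Q.F i ((A.e i).symm z) k‖ ^ 2) := by
  simp only [HM.wt, fs, Real.log_inv, neg_neg]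

/-- the coordinates numbered by `Fin` -/
def Fe (i : A.ι) (z : Cn n) (k : Fin (Fintype.card J)) : ℂ :=
  Q.F i ((A.e i).symm z) ((Fintype.equivFin J).symm k)

theorem sq_Fe (i : A.ι) (z : Cn n) : Crest.Agent.R273.FS_333.sq (Q.Fe i) z = ∑ k, ‖Q.F i ((A.e i).symm z) k‖ ^ 2 := by
  unfold Crest.Agent.R273.FS_333.sq Fe
  exact Equiv.sum_comp (Fintype.equivFin J).symm (fun k => ‖Q.F i ((A.e i).symm z) k‖ ^ 2)

theorem wt_fs' (i : A.ι) : Q.fs.wt i = fun z => Real.log (Crest.Agent.R273.FS_333.sq (Q.Fe i) z) := by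
  funext z
  rw [wt_fs, sq_Fe]

theorem Fe_diff (i : A.ι) (k : Fin (Fintype.card J)) :
    DifferentiableOn ℂ (fun z => Q.Fe i z k) (A.e i).target := Q.diffOn i _

theorem Fe_ne {i : A.ι} {z : Cn n} (hz : z ∈ (A.e i).target) : Q.Fe i z ≠ 0 := by
  obtain ⟨k, hk⟩ := Q.exists_F_ne ((A.e i).map_target hz)
  intro h
  refine hk ?_
  have := congrFun h (Fintype.equivFin J k)
  simpa [Fe] using this

/-- the Levi form of the Fubini-Study potential -/
theorem lev_fs {i : A.ι} {z : Cn n} (hz : z ∈ (A.e i).target) (v : Cn n) :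
    lev (Q.fs.wt i) z v =
      4 * (((∑ k, ‖Q.F i ((A.e i).symm z) k‖ ^ 2) *
        (∑ k, ‖fderiv ℂ (fun z => Q.F i ((A.e i).symm z) k) z v‖ ^ 2) -
        ‖∑ k, fderiv ℂ (fun z => Q.F i ((A.e i).symm z) k) z v *
          conj (Q.F i ((A.e i).symm z) k)‖ ^ 2) / (∑ k, ‖Q.F i ((A.e i).symm z) k‖ ^ 2) ^ 2) := by
  rw [wt_fs', lev_log_sq (A.e i).open_target (Q.Fe_diff i) hz (Q.Fe_ne hz), sq_Fe]
  have h1 := Equiv.sum_comp (Fintype.equivFin J).symm
    (fun k => ‖fderiv ℂ (fun z => Q.F i ((A.e i).symm z) k) z v‖ ^ 2)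
  have h2 := Equiv.sum_comp (Fintype.equivFin J).symm
    (fun k => fderiv ℂ (fun z => Q.F i ((A.e i).symm z) k) z v *
          conj (Q.F i ((A.e i).symm z) k))
  simp only [Fe] at h1 h2 ⊢
  rw [h1, h2]

theorem semipos : Q.fs.Semipos := by
  intro i z hz v
  rw [Q.wt_fs', lev_log_sq (A.e i).open_target (Q.Fe_diff i) hz (Q.Fe_ne hz)]
  have hp := sq_pos (Q.Fe_ne hz)
  have hL := (lagrange (Q.Fe i z) (fun k => fderiv ℂ (fun z => Q.Fe i z k) z v)).resolve_right
    hp.ne'
  change Crest.Agent.R273.FS_333.sq (Q.Fe i) z * _ - _ = _ / Crest.Agent.R273.FS_333.sq (Q.Fe i) z at hL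
  rw [hL]
  positivity

/-- strict positivity in the direction `v` -/
theorem lev_pos {i : A.ι} {z : Cn n} (hz : z ∈ (A.e i).target) {v : Cn n}
    (hv : ∀ c : ℂ, fderiv ℂ (fun w => Q.F i ((A.e i).symm w)) z v ≠
      c • Q.F i ((A.e i).symm z)) : 0 < lev (Q.fs.wt i) z v := by
  have hF : DifferentiableOn ℂ (Q.Fe i) (A.e i).target :=
    differentiableOn_pi.2 fun k => Q.Fe_diff i k
  rw [Q.wt_fs']
  refine lev_log_sq_pos (A.e i).open_target hF hz (Q.Fe_ne hz) fun c hc => hv c ?_
  have hF2 : ∀ k, DifferentiableAt ℂ (fun w => Q.F i ((A.e i).symm w) k) z := fun k =>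
    (Q.diffOn i k).differentiableAt ((A.e i).open_target.mem_nhds hz)
  have hd : DifferentiableAt ℂ (fun w => Q.F i ((A.e i).symm w)) z :=
    differentiableAt_pi.2 hF2
  funext k
  have h1 := congrFun hc (Fintype.equivFin J k)
  have h2 : fderiv ℂ (Q.Fe i) z v (Fintype.equivFin J k) =
      fderiv ℂ (fun w => Q.F i ((A.e i).symm w) k) z v := by
    have h3 := (hasFDerivAt_pi'.1 (hF.differentiableAt
      ((A.e i).open_target.mem_nhds hz)).hasFDerivAt) (Fintype.equivFin J k)
    have h4 : (fun w => Q.Fe i w (Fintype.equivFin J k)) =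
        fun w => Q.F i ((A.e i).symm w) k := by
      funext w
      simp [Fe]
    rw [h4] at h3
    rw [h3.fderiv]
    rfl
  have h5 : fderiv ℂ (fun w => Q.F i ((A.e i).symm w)) z v k =
      fderiv ℂ (fun w => Q.F i ((A.e i).symm w) k) z v := by
    have h6 := (hasFDerivAt_pi'.1 hd.hasFDerivAt) k
    rw [h6.fderiv]
    rfl
  rw [h5, ← h2, h1]
  simp [Fe]

end Metric

/-! ### projective embeddings -/

/-- a projective embedding is a map -/
def ofProj (P : ProjD A) : MapD A (Fin (P.N + 1)) where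
  F := P.F
  hol := P.hol
  ne := P.ne
  tr := P.tr

theorem ofProj_lb (P : ProjD A) : (ofProj P).lb = Crest.Agent.R273.FS_333.lb P :=
  (ofProj P).lb_eq _ fun _ _ _ hx => Crest.Agent.R273.FS_333.gij_spec P hx

theorem ofProj_w (P : ProjD A) (i : A.ι) (x : M) : (ofProj P).fs.w i x = (Crest.Agent.R273.FS_333.fs P).w i x := rfl

/-- injective immersive maps -/
def toProj (Q : MapD A J) {N : ℕ} (e : J ≃ Fin (N + 1))
    (inj : ∀ i j, ∀ x ∈ (A.e i).source, ∀ y ∈ (A.e j).source,
      (∃ c : ℂ, Q.F i x = c • Q.F j y) → x = y)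
    (imm : ∀ i, ∀ z ∈ (A.e i).target, ∀ v : Cn n,
      (∃ c : ℂ, fderiv ℂ (fun w => Q.F i ((A.e i).symm w)) z v =
        c • Q.F i ((A.e i).symm z)) → v = 0) : ProjD A where
  N := N
  F i x k := Q.F i x (e.symm k)
  hol i k := Q.hol i (e.symm k)
  ne i x hx h := Q.ne i x hx (funext fun j => by
    have := congrFun h (e j)
    simpa using this)
  tr i j x hx := by
    obtain ⟨c, hc⟩ := Q.tr i j x hx
    exact ⟨c, by rw [hc]; rfl⟩
  inj i j x hx y hy h := by
    obtain ⟨c, hc⟩ := h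
    refine inj i j x hx y hy ⟨c, funext fun k => ?_⟩
    have := congrFun hc (e k)
    simpa using this
  imm i z hz v h := by
    obtain ⟨c, hc⟩ := h
    refine imm i z hz v ⟨c, funext fun k => ?_⟩
    have hF2 : ∀ k, DifferentiableAt ℂ (fun w => Q.F i ((A.e i).symm w) k) z := fun k =>
      (Q.diffOn i k).differentiableAt ((A.e i).open_target.mem_nhds hz)
    have hd : DifferentiableAt ℂ (fun w => Q.F i ((A.e i).symm w)) z :=
      differentiableAt_pi.2 hF2
    have hd' : DifferentiableAt ℂ (fun w => fun k => Q.F i ((A.e i).symm w) (e.symm k)) z :=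
      differentiableAt_pi.2 fun k => hF2 _
    have h1 := congrFun hc (e k)
    have h2 := (hasFDerivAt_pi'.1 hd.hasFDerivAt) k
    have h3 := (hasFDerivAt_pi'.1 hd'.hasFDerivAt) (e k)
    have h4 : (fun w => Q.F i ((A.e i).symm w) (e.symm (e k))) =
        fun w => Q.F i ((A.e i).symm w) k := by
      funext w
      rw [e.symm_apply_apply]
    rw [h4] at h3
    have h5 := congrArg (fun T : Cn n →L[ℂ] ℂ => T v) (h2.unique h3)
    change fderiv ℂ (fun w => Q.F i ((A.e i).symm w)) z v k =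
      fderiv ℂ (fun w => fun k => Q.F i ((A.e i).symm w) (e.symm k)) z v (e k) at h5
    rw [h5, h1]
    simp

end MapD

/-! ### Segre products -/

section Segre

variable {ι : Type} [Fintype ι] [DecidableEq ι] {J : ι → Type}

/-- Segre product of block maps -/
def segM (Q : ∀ k, MapD A (J k)) : MapD A (∀ k, J k) where
  F i x := seg fun k => (Q k).F i x
  hol i a := HolAt.prod _ fun k _ => (Q k).hol i (a k)
  ne i x hx := seg_ne fun k => (Q k).ne i x hx
  tr i j x hx := seg_proj fun k => (Q k).tr i j x hx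

variable (Q : ∀ k, MapD A (J k))

theorem segM_F (i : A.ι) (x : M) : (segM Q).F i x = seg fun k => (Q k).F i x := rfl

theorem segM_g (i j : A.ι) (x : M) : (segM Q).lb.g i j x = ∏ k, (Q k).lb.g i j x := by
  by_cases hx : x ∈ (A.e i).source ∩ (A.e j).source
  · refine (segM Q).gij_uniq hx ?_
    funext a
    simp only [segM_F, seg, Pi.smul_apply, smul_eq_mul]
    rw [← Finset.prod_mul_distrib]
    refine Finset.prod_congr rfl fun k _ => ?_
    exact congrFun ((Q k).lb_g hx) (a k)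
  · rw [(segM Q).lb.off i j x hx]
    exact (Finset.prod_eq_one fun k _ => (Q k).lb.off i j x hx).symm

theorem LB_prod_g {κ : Type*} (s : Finset κ) (L : κ → LB A) (i j : A.ι) (x : M) :
    (∏ k ∈ s, L k).g i j x = ∏ k ∈ s, (L k).g i j x := by
  classical
  induction s using Finset.induction_on with
  | empty => simp
  | insert k s hk ih => rw [Finset.prod_insert hk, Finset.prod_insert hk, LB.mul_g, ih]

theorem segM_lb : (segM Q).lb = ∏ k, (Q k).lb := by
  ext i j x
  rw [segM_g, LB_prod_g]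

variable [∀ k, Fintype (J k)]

theorem segM_w (i : A.ι) (x : M) : (segM Q).fs.w i x = ∏ k, (Q k).fs.w i x := by
  change (∑ a, ‖seg (fun k => (Q k).F i x) a‖ ^ 2)⁻¹ = ∏ k, (∑ j, ‖(Q k).F i x j‖ ^ 2)⁻¹
  rw [sum_norm_seg, Finset.prod_inv_distrib]

theorem segM_wt {i : A.ι} {z : Cn n} (hz : z ∈ (A.e i).target) :
    (segM Q).fs.wt i z = ∑ k, (Q k).fs.wt i z := by
  simp only [HM.wt, segM_w]
  rw [Real.log_prod fun k _ => ((Q k).fs.pos i _ ((A.e i).map_target hz)).ne',
    Finset.sum_neg_distrib]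

theorem hess_sum {κ : Type*} (s : Finset κ) {u : κ → Cn n → ℝ} {z : Cn n}
    (hu : ∀ k ∈ s, ContDiffAt ℝ ∞ (u k) z) :
    hess (fun w => ∑ k ∈ s, u k w) z = ∑ k ∈ s, hess (u k) z := by
  classical
  induction s using Finset.induction_on with
  | empty =>
    simp only [Finset.sum_empty]
    have h := hess_sub (u := fun _ : Cn n => (0 : ℝ)) (v := fun _ : Cn n => (0 : ℝ)) (z := z)
      contDiffAt_const contDiffAt_const
    simpa using h
  | insert k s hk ih =>
    simp only [Finset.sum_insert hk]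
    rw [← ih fun l hl => hu l (Finset.mem_insert_of_mem hl)]
    exact hess_add (hu k (Finset.mem_insert_self k s))
      (ContDiffAt.sum fun l hl => hu l (Finset.mem_insert_of_mem hl))

/-- the curvature of the Segre product -/
theorem segM_cur {i : A.ι} {x : M} (hx : x ∈ (A.e i).source) :
    cur (segM Q).fs i x = ∑ k, cur (Q k).fs i x := by
  unfold cur
  have hz := (A.e i).map_source hx
  rw [← hess_sum _ fun k _ => wt_contDiffAt (Q k).fs i hz]
  refine hess_congr ?_
  filter_upwards [(A.e i).open_target.mem_nhds hz] with z hz'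
  exact segM_wt Q hz'

/-- positive combinations of the curvatures of the blocks are positive -/
theorem cur_comb_posDef {lam : ι → ℝ} (hlam : ∀ k, 0 < lam k) {i : A.ι} {x : M}
    (hx : x ∈ (A.e i).source)
    (himm : ∀ v : Cn n, (∀ k, ∃ c : ℂ, fderiv ℂ (fun w => (Q k).F i ((A.e i).symm w)) (A.e i x) v =
        c • (Q k).F i x) → v = 0) :
    (∑ k, (lam k : ℂ) • cur (Q k).fs i x).PosDef := by
  have hz := (A.e i).map_source hx
  have hherm : (∑ k, (lam k : ℂ) • cur (Q k).fs i x).IsHermitian := by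
    unfold Matrix.IsHermitian
    rw [Matrix.conjTranspose_sum]
    refine Finset.sum_congr rfl fun k _ => ?_
    rw [Matrix.conjTranspose_smul, cur_herm (Q k).fs i hx]
    simp
  refine Matrix.PosDef.of_dotProduct_mulVec_pos hherm fun y hy => ?_
  set v : Cn n := WithLp.toLp 2 (fun a => conj (y a)) with hv
  have h0 : v ≠ 0 := by
    intro h1
    apply hy
    funext a
    have := congrArg (fun v : Cn n => v a) h1
    simpa [hv] using this
  have h1 : star y ⬝ᵥ ((∑ k, (lam k : ℂ) • cur (Q k).fs i x) *ᵥ y) =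
      ((∑ k, lam k * (lev ((Q k).fs.wt i) (A.e i x) v / 4) : ℝ) : ℂ) := by
    rw [Matrix.sum_mulVec, dotProduct_sum]
    push_cast
    refine Finset.sum_congr rfl fun k _ => ?_
    rw [Matrix.smul_mulVec, dotProduct_smul, smul_eq_mul]
    congr 1
    have h2 : star y ⬝ᵥ (cur (Q k).fs i x *ᵥ y) = _ := hq_eq_dot ((Q k).fs.wt i) (A.e i x) y
    rw [h2, hq_real (wt_contDiffAt (Q k).fs i hz)]
    push_cast
    rfl
  rw [h1]
  obtain ⟨k, hk⟩ : ∃ k, ∀ c : ℂ, fderiv ℂ (fun w => (Q k).F i ((A.e i).symm w)) (A.e i x) v ≠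
        c • (Q k).F i x := by
    by_contra h
    push Not at h
    exact h0 (himm v h)
  have h3 : 0 < ∑ k, lam k * (lev ((Q k).fs.wt i) (A.e i x) v / 4) := by
    refine Finset.sum_pos' (fun k _ => mul_nonneg (hlam k).le
      (div_nonneg ((Q k).semipos i _ hz v) (by norm_num)))
      ⟨k, Finset.mem_univ k, mul_pos (hlam k) (div_pos ((Q k).lev_pos hz ?_) (by norm_num))⟩
    rwa [(A.e i).left_inv hx]
  exact_mod_cast h3

/-- the derivative of the Segre product -/
theorem fderiv_segM {i : A.ι} {z : Cn n} (hz : z ∈ (A.e i).target) (v : Cn n) :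
    fderiv ℂ (fun w => (segM Q).F i ((A.e i).symm w)) z v =
      dseg (fun k => (Q k).F i ((A.e i).symm z))
        (fun k => fderiv ℂ (fun w => (Q k).F i ((A.e i).symm w)) z v) := by
  have hd : ∀ k, HasFDerivAt (fun w => (Q k).F i ((A.e i).symm w))
      (fderiv ℂ (fun w => (Q k).F i ((A.e i).symm w)) z) z := fun k =>
    (differentiableAt_pi.2 fun j =>
      ((Q k).diffOn i j).differentiableAt ((A.e i).open_target.mem_nhds hz)).hasFDerivAt
  have h1 : ∀ a : ∀ k, J k, HasFDerivAt (fun w => (segM Q).F i ((A.e i).symm w) a)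
      (∑ k, (∏ l ∈ Finset.univ.erase k, (Q l).F i ((A.e i).symm z) (a l)) •
        ((ContinuousLinearMap.proj (a k)).comp
          (fderiv ℂ (fun w => (Q k).F i ((A.e i).symm w)) z))) z := by
    intro a
    exact HasFDerivAt.finset_prod (u := Finset.univ)
      (g := fun k w => (Q k).F i ((A.e i).symm w) (a k)) (fun k _ =>
        (hasFDerivAt_pi'.1 (hd k)) (a k))
  have h2 : HasFDerivAt (fun w => (segM Q).F i ((A.e i).symm w)) (ContinuousLinearMap.pi fun a =>
      ∑ k, (∏ l ∈ Finset.univ.erase k, (Q l).F i ((A.e i).symm z) (a l)) •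
        ((ContinuousLinearMap.proj (a k)).comp
          (fderiv ℂ (fun w => (Q k).F i ((A.e i).symm w)) z))) z :=
    hasFDerivAt_pi.2 h1
  rw [h2.fderiv]
  funext a
  simp only [ContinuousLinearMap.coe_pi', ContinuousLinearMap.sum_apply, dseg]
  refine Finset.sum_congr rfl fun k _ => ?_
  simp only [ContinuousLinearMap.smul_apply, ContinuousLinearMap.comp_apply, smul_eq_mul,
    ContinuousLinearMap.proj_apply]
  ring

/-- jointly immersive block maps -/
theorem segM_imm {i : A.ι} {z : Cn n} (hz : z ∈ (A.e i).target) {v : Cn n}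
    (h : ∃ c : ℂ, fderiv ℂ (fun w => (segM Q).F i ((A.e i).symm w)) z v =
      c • (segM Q).F i ((A.e i).symm z)) (k : ι) :
    ∃ c : ℂ, fderiv ℂ (fun w => (Q k).F i ((A.e i).symm w)) z v =
      c • (Q k).F i ((A.e i).symm z) := by
  obtain ⟨c, hc⟩ := h
  rw [fderiv_segM Q hz] at hc
  exact dseg_inj (fun k => (Q k).ne i _ ((A.e i).map_target hz)) ⟨c, hc⟩ k

theorem segM_inj {i j : A.ι} {x y : M} (hx : x ∈ (A.e i).source)
    (h : ∃ c : ℂ, (segM Q).F i x = c • (segM Q).F j y) (k : ι) :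
    ∃ c : ℂ, (Q k).F i x = c • (Q k).F j y :=
  seg_inj (fun k => (Q k).ne i x hx) h k

/-- Segre product of jointly injective and immersive block maps -/
def segP (inj : ∀ i j, ∀ x ∈ (A.e i).source, ∀ y ∈ (A.e j).source,
      (∀ k, ∃ c : ℂ, (Q k).F i x = c • (Q k).F j y) → x = y)
    (imm : ∀ i, ∀ z ∈ (A.e i).target, ∀ v : Cn n,
      (∀ k, ∃ c : ℂ, fderiv ℂ (fun w => (Q k).F i ((A.e i).symm w)) z v =
        c • (Q k).F i ((A.e i).symm z)) → v = 0) {N : ℕ} (e : (∀ k, J k) ≃ Fin (N + 1)) :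
    ProjD A :=
  (segM Q).toProj e
    (fun i j x hx y hy h => inj i j x hx y hy fun k => segM_inj Q hx h k)
    (fun i z hz v h => imm i z hz v fun k => segM_imm Q hz h k)

end Segre

end

end Crest.Agent.R281.Blk_592
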