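import Crest.Agent.R281.Pe2_313

/-!
# R281 (S0424), FAM (helper313), part 3: the atlas of a projective embedding

* `HolA P b A`  : the atlas `A : Atl N X` is smoothly compatible with the real charts `C` and the
                  affine coordinates of the embedding are holomorphic in its charts;
* `exists_atl`  : existence (finite, good, with partition of unity, subordinate to a cover and to
                  the sets `OX k`);
* `HolA.toProj` : the projective embedding `ProjD A`, `F a x = nuX (κ a) x`;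
* `HolA.lBih`   : uniqueness of the complex structure.
-/

set_option autoImplicit false
set_option linter.unusedSectionVars false

open Set Filter Topology Complex
open scoped ContDiff

namespace Crest.Agent.R281.Pe_313

open Crest.Agent.R275.Geo Crest.Agent.R275.Core144 Crest.Agent.R275.GC293
open Crest.Agent.R273.Defs_333 Crest.Agent.R273.Fam_835 Crest.Agent.R273.PB_835
open Crest.Agent.R273.Map_835
open Crest.Agent.R281.HkR_835 Crest.Agent.R281.Ehr2_268

noncomputable section

variable {V X : Type} [NormedAddCommGroup V] [NormedSpace ℝ V] [TopologicalSpace X]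
variable {H : Type} [NormedAddCommGroup H] [NormedSpace ℂ H] {K N : ℕ}
variable {C : RCh V X} (P : HEmb C H) (b : H ≃L[ℂ] (Fin (K + 1) → ℂ))

/-- the atlas `A` is holomorphic for the embedding `P` -/
structure HolA (A : Atl N X) : Prop where
  cmp : Cmp C (ofAtl A)
  hol : ∀ a k, ∀ z ∈ (A.e a).target, (A.e a).symm z ∈ OX P b k →
    DifferentiableAt ℂ (fun z => nuX P b k ((A.e a).symm z)) z

variable {P b}

theorem contDiffAt_of_hol {E F : Type*} [NormedAddCommGroup E] [NormedSpace ℂ E]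
    [FiniteDimensional ℂ E] [NormedAddCommGroup F] [NormedSpace ℂ F] [CompleteSpace F]
    {f : E → F} {U : Set E} (hU : IsOpen U) (hf : DifferentiableOn ℂ f U) {z : E} (hz : z ∈ U) :
    ContDiffAt ℝ ∞ f z :=
  ((((Crest.Agent.R266.SCV.contDiffOn_omega_of_differentiableOn hU hf).contDiffAt
    (hU.mem_nhds hz)).restrict_scalars ℝ).of_le le_top)

theorem exists_atl [FiniteDimensional ℝ V] [CompactSpace X] [T2Space X] (hcx : P.Cx)
    (hN : Module.finrank ℝ V = 2 * N) (b : H ≃L[ℂ] (Fin (K + 1) → ℂ)) {κ : Type*} (O : κ → Set X)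
    (hO : ∀ k, IsOpen (O k)) (hOc : ∀ x, ∃ k, x ∈ O k) :
    ∃ A : Atl N X, Finite A.ι ∧ GoodA A ∧ Nonempty (Part A) ∧ HolA P b A ∧
      (∀ a, ∃ k, (A.e a).source ⊆ O k) ∧ (∀ a, ∃ k, (A.e a).source ⊆ OX P b k) ∧
      (∀ a, ∃ i, (A.e a).source ⊆ (C.e i).source) := by
  obtain ⟨A, h1, h2, h3, h4, h5, h6⟩ := (famP hcx hN b).exists_atl
    (fun q : κ × Fin (K + 1) × C.ι => O q.1 ∩ (OX P b q.2.1 ∩ (C.e q.2.2).source))
    (fun q => (hO q.1).inter ((isOpen_OX q.2.1).inter (C.e q.2.2).open_source))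
    (fun x => by
      obtain ⟨k, hk⟩ := hOc x
      obtain ⟨l, hl⟩ := exists_OX (P := P) (b := b) x
      obtain ⟨i, hi⟩ := C.cover x
      exact ⟨(k, l, i), hk, hl, hi⟩)
  have hch : ∀ x : X, ∃ c : Ch P b N, x ∈ c.hom.source := fun x => (famP hcx hN b).cover x
  -- transition from `A` to the charts of the family
  have t1 : ∀ (a : A.ι) (c : Ch P b N) (z : Cn N), z ∈ (A.e a).target →
      (A.e a).symm z ∈ c.hom.source → DifferentiableAt ℂ (fun z => c.hom ((A.e a).symm z)) z ∧
        ContDiffAt ℝ ∞ (fun z => c.hom ((A.e a).symm z)) z := by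
    intro a c z hz hc
    refine ⟨h5.diffAt (i := a) (j := c) hz hc, contDiffAt_of_hol (h5.isOpen_dm a c) (h5.hol a c)
      ⟨hz, hc⟩⟩
  have t2 : ∀ (a : A.ι) (c : Ch P b N) (y : Cn N), y ∈ c.hom.target →
      c.hom.symm y ∈ (A.e a).source → ContDiffAt ℝ ∞ (fun y => A.e a (c.hom.symm y)) y := by
    intro a c y hy hc
    exact contDiffAt_of_hol (h6.isOpen_dm c a) (h6.hol c a) ⟨hy, hc⟩
  refine ⟨A, h1, h2, h3, ⟨⟨fun i a => ?_, fun i a => ?_⟩, fun a k z hz hk => ?_⟩,
    fun a => ?_, fun a => ?_, fun a => ?_⟩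
  · -- `A → C`
    intro z hz
    obtain ⟨c, hc⟩ := hch ((A.e a).symm z)
    have e1 := (t1 a c z hz.1 hc).2
    have hx := c.mem_source.1 hc
    have e2 : ContDiffAt ℝ ∞ (fun y => C.t c.i i (c.e.symm y)) (c.hom ((A.e a).symm z)) := by
      have e3 : c.e.symm (c.hom ((A.e a).symm z)) = C.e c.i ((A.e a).symm z) := by
        rw [c.hom_apply, c.e.left_inv hx.2]
      refine ContDiffAt.comp (g := C.t c.i i) (f := c.e.symm) _ ?_
        (c.contDiffAt_symm (c.mem_target'.1 (c.hom.map_source hc)))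
      rw [e3]
      exact (RCh.t_smooth c.i i).contDiffAt ((RCh.isOpen_ov c.i i).mem_nhds (mem_ov hx.1 hz.2))
    have e4 : ContDiffAt ℝ ∞ (fun z => C.t c.i i (c.e.symm (c.hom ((A.e a).symm z)))) z :=
      ContDiffAt.comp (g := fun y => C.t c.i i (c.e.symm y))
        (f := fun z => c.hom ((A.e a).symm z)) z e2 e1
    refine (e4.congr_of_eventuallyEq ?_).contDiffWithinAt
    filter_upwards [((A.e a).isOpen_inter_preimage_symm c.hom.open_source).mem_nhds
      ⟨hz.1, hc⟩] with z' hz'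
    have hx' := c.mem_source.1 hz'.2
    show C.e i ((A.e a).symm z') = C.t c.i i (c.e.symm (c.hom ((A.e a).symm z')))
    rw [c.hom_apply, c.e.left_inv hx'.2, t_e hx'.1]
  · -- `C → A`
    intro z hz
    obtain ⟨c, hc⟩ := hch ((C.e i).symm z)
    have hx := c.mem_source.1 hc
    have hxi : (C.e i).symm z ∈ (C.e i).source := (C.e i).map_target hz.1
    have hzd : z ∈ dm P b c.k i := by
      have := (mem_OX hxi).1 (c.mem_OX hc)
      rwa [(C.e i).right_inv hz.1] at this
    have e1 : ContDiffAt ℝ ∞ (fun z => c.π (nu P b c.k i z)) z :=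
      (c.π.restrictScalars ℝ).contDiff.contDiffAt.comp z (nu_contDiffAt hzd)
    have e0 : ∀ z', z' ∈ (C.e i).target → (C.e i).symm z' ∈ c.hom.source →
        c.hom ((C.e i).symm z') = c.π (nu P b c.k i z') := by
      intro z' hz1 hz2
      rw [c.hom_eq hz2, nuX_eq ((C.e i).map_target hz1) (c.mem_OX hz2), (C.e i).right_inv hz1]
    have e2 : ContDiffAt ℝ ∞ (fun y => A.e a (c.hom.symm y)) (c.π (nu P b c.k i z)) := by
      rw [← e0 z hz.1 hc]
      refine t2 a c _ (c.hom.map_source hc) ?_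
      rw [c.hom.left_inv hc]
      exact hz.2
    have e4 : ContDiffAt ℝ ∞ (fun z => A.e a (c.hom.symm (c.π (nu P b c.k i z)))) z :=
      ContDiffAt.comp (g := fun y => A.e a (c.hom.symm y))
        (f := fun z => c.π (nu P b c.k i z)) z e2 e1
    refine (e4.congr_of_eventuallyEq ?_).contDiffWithinAt
    filter_upwards [((C.e i).isOpen_inter_preimage_symm c.hom.open_source).mem_nhds
      ⟨hz.1, hc⟩] with z' hz'
    show A.e a ((C.e i).symm z') = A.e a (c.hom.symm (c.π (nu P b c.k i z')))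
    rw [← e0 z' hz'.1 hz'.2, c.hom.left_inv hz'.2]
  · obtain ⟨c, hc⟩ := hch ((A.e a).symm z)
    have e1 := (t1 a c z hz hc).1
    have e2 : DifferentiableAt ℂ (fun y => nuX P b k (c.hom.symm y)) (c.hom ((A.e a).symm z)) := by
      refine c.diffX hcx (c.hom.map_source hc) (g := fun w => w) ?_ differentiableAt_id
      rw [c.hom.left_inv hc]
      exact hk
    have e3 : DifferentiableAt ℂ (fun z => nuX P b k (c.hom.symm (c.hom ((A.e a).symm z)))) z :=
      DifferentiableAt.comp (g := fun y => nuX P b k (c.hom.symm y))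
        (f := fun z => c.hom ((A.e a).symm z)) z e2 e1
    refine e3.congr_of_eventuallyEq ?_
    filter_upwards [((A.e a).isOpen_inter_preimage_symm c.hom.open_source).mem_nhds
      ⟨hz, hc⟩] with z' hz'
    rw [c.hom.left_inv hz'.2]
  · obtain ⟨q, hq⟩ := h4 a
    exact ⟨q.1, fun x hx => (hq hx).1⟩
  · obtain ⟨q, hq⟩ := h4 a
    exact ⟨q.2.1, fun x hx => (hq hx).2.1⟩
  · obtain ⟨q, hq⟩ := h4 a
    exact ⟨q.2.2, fun x hx => (hq hx).2.2⟩

theorem OX_of_ne {x : X} {k k' : Fin (K + 1)} (h : nuX P b k x k' ≠ 0) :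
    x ∈ OX P b k' := fun h0 => h (by
  show (b (P.u (ci C x) (C.e (ci C x) x)) k)⁻¹ * b (P.u (ci C x) (C.e (ci C x) x)) k' = 0
  rw [h0, mul_zero])

namespace HolA

variable {A : Atl N X} (h : HolA P b A)
include h

/-- the affine coordinates in the chart `a` through the real chart `i` -/
theorem nuX_mt {a : A.ι} {i : C.ι} {z : Cn N} (hz : z ∈ mov C (ofAtl A) i a) {k : Fin (K + 1)}
    (hk : (A.e a).symm z ∈ OX P b k) :
    nuX P b k ((A.e a).symm z) = nu P b k i (mt C (ofAtl A) i a z) :=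
  nuX_eq hz.2 hk

/-- the affine coordinates are immersive -/
theorem imm_re {a : A.ι} {z : Cn N} (hz : z ∈ (A.e a).target) {k : Fin (K + 1)}
    (hk : (A.e a).symm z ∈ OX P b k) {v : Cn N}
    (hv : fderiv ℂ (fun z => nuX P b k ((A.e a).symm z)) z v = 0) : v = 0 := by
  have hd := h.hol a k z hz hk
  have h1 : fderiv ℝ (fun z => nuX P b k ((A.e a).symm z)) z v = 0 := by
    rw [hd.fderiv_restrictScalars ℝ]
    exact hv
  obtain ⟨i, hi⟩ := C.cover ((A.e a).symm z)
  have hmv : z ∈ mov C (ofAtl A) i a := ⟨hz, hi⟩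
  have h2 : (fun z => nuX P b k ((A.e a).symm z)) =ᶠ[𝓝 z]
      fun z => nu P b k i (mt C (ofAtl A) i a z) := by
    have h3 : ∀ᶠ z' in 𝓝 z, (A.e a).symm z' ∈ OX P b k :=
      ((A.e a).continuousAt_symm hz).preimage_mem_nhds ((isOpen_OX k).mem_nhds hk)
    filter_upwards [(Cmp.isOpen_mov C (ofAtl A) i a).mem_nhds hmv, h3] with z' hz' hk'
    exact h.nuX_mt hz' hk'
  have hzd : mt C (ofAtl A) i a z ∈ dm P b k i := (mem_OX hi).1 hk
  have h4 := HasFDerivAt.comp (g := nu P b k i) (f := mt C (ofAtl A) i a) z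
    (nu_diff hzd).hasFDerivAt (h.cmp.diff hmv).hasFDerivAt
  have h5 : fderiv ℝ (fun z => nu P b k i (mt C (ofAtl A) i a z)) z = _ := h4.fderiv
  rw [h2.fderiv_eq, h5] at h1
  have h6 := nu_imm hzd _ h1
  have h7 := h.cmp.d_d hmv v
  rw [show (fderiv ℝ (mt C (ofAtl A) i a) z) v = 0 from h6, map_zero] at h7
  exact h7.symm

/-- the projective embedding -/
def toProj (κ : A.ι → Fin (K + 1)) (hκ : ∀ a, (A.e a).source ⊆ OX P b (κ a)) : ProjD A where
  N := K
  F a x := nuX P b (κ a) x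
  hol a k := by
    intro z hz
    have h1 := h.hol a (κ a) z hz.1 (hκ a ((A.e a).map_target hz.1))
    exact ((differentiableAt_pi.1 h1) k).differentiableWithinAt
  ne a x hx h0 := by
    have h1 := nuX_self (hκ a hx)
    rw [h0] at h1
    exact zero_ne_one h1
  tr a a' x hx := ⟨_, (nuX_chg (hκ a' hx.2) (hκ a hx.1)).2⟩
  inj a a' x hx y hy hc := by
    obtain ⟨c, hc⟩ := hc
    have h1 := nuX_self (hκ a hx)
    have h2 : c * nuX P b (κ a') y (κ a) = 1 := by
      rw [← h1, hc]
      rfl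
    have h3 : y ∈ OX P b (κ a) := OX_of_ne (k := κ a') fun h0 => by
      rw [h0, mul_zero] at h2
      exact zero_ne_one h2
    refine eq_of_nuX (hκ a hx) (y := y) ?_
    rw [(nuX_chg (hκ a' hy) h3).2, hc]
    congr 1
    exact eq_inv_of_mul_eq_one_left h2
  imm a z hz v hc := by
    obtain ⟨c, hc⟩ := hc
    have hk := hκ a ((A.e a).map_target hz)
    have hd := h.hol a (κ a) z hz hk
    have h1 : fderiv ℂ (fun z => nuX P b (κ a) ((A.e a).symm z)) z v (κ a) = 0 := by
      have h2 := (hasFDerivAt_pi'.1 hd.hasFDerivAt) (κ a)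
      have h3 : (fun z => nuX P b (κ a) ((A.e a).symm z) (κ a)) =ᶠ[𝓝 z] fun _ => 1 := by
        filter_upwards [(A.e a).open_target.mem_nhds hz] with z' hz'
        exact nuX_self (hκ a ((A.e a).map_target hz'))
      have h4 := h2.fderiv
      rw [h3.fderiv_eq, fderiv_const_apply] at h4
      exact (congrArg (fun T : Cn N →L[ℂ] ℂ => T v) h4).symm
    have h5 : fderiv ℂ (fun z => nuX P b (κ a) ((A.e a).symm z)) z v =
      c • nuX P b (κ a) ((A.e a).symm z) := hc
    have h6 : c = 0 := by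
      rw [h5, Pi.smul_apply, nuX_self hk, smul_eq_mul, mul_one] at h1
      exact h1
    rw [h6, zero_smul] at h5
    exact h.imm_re hz hk h5

/-- uniqueness of the complex structure -/
theorem holMap {A' : Atl N X} (h' : HolA P b A') : HolMap A A' id := by
  refine ⟨continuous_id, fun a a' => ?_⟩
  intro z hz
  refine DifferentiableAt.differentiableWithinAt ?_
  have hza : z ∈ (A.e a).target := hz.1
  have hxa' : (A.e a).symm z ∈ (A'.e a').source := hz.2
  obtain ⟨k, hk⟩ := exists_OX (P := P) (b := b) ((A.e a).symm z)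
  obtain ⟨i, hi⟩ := C.cover ((A.e a).symm z)
  -- real smoothness of the transition
  have hmv : z ∈ mov C (ofAtl A) i a := ⟨hza, hi⟩
  have e1 : ContDiffAt ℝ ∞ (mt C (ofAtl A) i a) z :=
    (h.cmp.s i a).contDiffAt ((Cmp.isOpen_mov C (ofAtl A) i a).mem_nhds hmv)
  have hmv' : C.e i ((A.e a).symm z) ∈ mov (ofAtl A') C a' i :=
    ⟨(C.e i).map_source hi, by rw [(C.e i).left_inv hi]; exact hxa'⟩
  have e2 : ContDiffAt ℝ ∞ (mt (ofAtl A') C a' i) (C.e i ((A.e a).symm z)) :=
    (h'.cmp.s' i a').contDiffAt ((Cmp.isOpen_mov (ofAtl A') C a' i).mem_nhds hmv')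
  have e3 : ContDiffAt ℝ ∞ (fun z => mt (ofAtl A') C a' i (mt C (ofAtl A) i a z)) z :=
    ContDiffAt.comp (g := mt (ofAtl A') C a' i) (f := mt C (ofAtl A) i a) z e2 e1
  have e4 : (fun z => A'.e a' ((A.e a).symm z)) =ᶠ[𝓝 z]
      fun z => mt (ofAtl A') C a' i (mt C (ofAtl A) i a z) := by
    filter_upwards [(Cmp.isOpen_mov C (ofAtl A) i a).mem_nhds hmv] with z' hz'
    have h1 : (C.e i).symm (C.e i ((A.e a).symm z')) = (A.e a).symm z' := (C.e i).left_inv hz'.2
    show A'.e a' ((A.e a).symm z') = A'.e a' ((C.e i).symm (C.e i ((A.e a).symm z')))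
    rw [h1]
  have e5 : DifferentiableAt ℝ (fun z => A'.e a' ((A.e a).symm z)) z :=
    (e3.congr_of_eventuallyEq e4).differentiableAt (by simp)
  -- the derivative commutes with `I`
  set τ : Cn N → Cn N := fun z => A'.e a' ((A.e a).symm z) with hτ
  have hy : τ z ∈ (A'.e a').target := (A'.e a').map_source hxa'
  have hsy : (A'.e a').symm (τ z) = (A.e a).symm z := (A'.e a').left_inv hxa'
  have hd := h.hol a k z hza hk
  have hd' := h'.hol a' k (τ z) hy (by rw [hsy]; exact hk)
  have e6 : (fun z => nuX P b k ((A.e a).symm z)) =ᶠ[𝓝 z]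
      fun z => nuX P b k ((A'.e a').symm (τ z)) := by
    filter_upwards [((A.e a).isOpen_inter_preimage_symm (A'.e a').open_source).mem_nhds
      ⟨hza, hxa'⟩] with z' hz'
    show nuX P b k ((A.e a).symm z') = nuX P b k ((A'.e a').symm (A'.e a' ((A.e a).symm z')))
    rw [(A'.e a').left_inv hz'.2]
  have e7 : ∀ v, fderiv ℂ (fun z => nuX P b k ((A.e a).symm z)) z v =
      fderiv ℂ (fun z => nuX P b k ((A'.e a').symm z)) (τ z) (fderiv ℝ τ z v) := by
    intro v
    have h1 := HasFDerivAt.comp (g := fun z => nuX P b k ((A'.e a').symm z)) (f := τ) z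
      (hd'.hasFDerivAt.restrictScalars ℝ) e5.hasFDerivAt
    have h2 : HasFDerivAt (fun z => nuX P b k ((A.e a).symm z)) _ z :=
      h1.congr_of_eventuallyEq e6
    have h3 := h2.unique (hd.hasFDerivAt.restrictScalars ℝ)
    exact (congrArg (fun T : Cn N →L[ℝ] (Fin (K + 1) → ℂ) => T v) h3).symm
  obtain ⟨S, hS⟩ := exists_complex (fderiv ℝ τ z) fun v => by
    have h1 := e7 (I • v)
    rw [map_smul, e7 v, ← map_smul, ← sub_eq_zero, ← map_sub] at h1
    have h2 := h'.imm_re hy (by rw [hsy]; exact hk) h1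
    exact (sub_eq_zero.1 h2).symm
  exact (hasFDerivAt_of_restrictScalars ℝ e5.hasFDerivAt hS).differentiableAt

theorem lBih {A' : Atl N X} (h' : HolA P b A') : LBih A A' id :=
  lBih_of_inv (h.holMap h') (h'.holMap h) fun _ => rfl

end HolA

end

end Crest.Agent.R281.Pe_313
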