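import Crest.Agent.R281.Blk2_592
import Crest.Agent.R281.Pe3_313

/-!
# R281 (S0424), blocks of members (helper592), part 3: extraction of the blocks

* `segPs Q`          : Segre product of projective embeddings `Q k : ProjD A`
* `MapD.blk`         : extraction of a block of a map into the Segre variety; `blk_seg`, `blk_lb`,
                       `blk_w`, `blk_cur`
* `MapD.reindex`
* `bE e`             : the reindexing `((Π k, J k) → ℂ) ≃L (Fin (K+1) → ℂ)`
* `segH`             : `HEmb` of jointly injective, immersive block lifts; `segH_cx`, `segH_cone`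
* `hblk`             : the block maps of a member `P : HEmb C ((Π k, J k) → ℂ)`, `HolA P (bE e) A`
-/

set_option autoImplicit false
set_option linter.unusedSectionVars false

open Set Filter Topology Complex Function
open scoped ContDiff Matrix ComplexConjugate Manifold ComplexOrder

namespace Crest.Agent.R281.Blk_592

open Crest.Agent.R275.Geo Crest.Agent.R275.Core144 Crest.Agent.R275.EDR890
open Crest.Agent.R273.Defs_333 Crest.Agent.R273.Hess_333 Crest.Agent.R273.HessB_333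
open Crest.Agent.R273.HM_333 Crest.Agent.R273.Kah_333
open Crest.Agent.R281.HkR_835 Crest.Agent.R281.Ehr2_268 Crest.Agent.R281.Pe_313

noncomputable section

variable {n : ℕ} {M : Type} [TopologicalSpace M] {A : Atl n M}
variable {ι : Type} [Fintype ι] [DecidableEq ι]

/-! ### Segre product of projective embeddings -/

/-- the number of Segre coordinates minus one -/
def segN (J : ι → Type) [∀ k, Fintype (J k)] : ℕ := Fintype.card (∀ k, J k) - 1

/-- numbering of the Segre coordinates -/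
def segEquiv (J : ι → Type) [∀ k, Fintype (J k)] [∀ k, Nonempty (J k)] :
    (∀ k, J k) ≃ Fin (segN J + 1) :=
  (Fintype.equivFin _).trans (finCongr (by
    have : 0 < Fintype.card (∀ k, J k) := Fintype.card_pos
    unfold segN
    omega))

section Proj

variable [Nonempty ι] (Q : ι → ProjD A)

/-- Segre product of projective embeddings -/
def segPs {N : ℕ} (e : (∀ k, Fin ((Q k).N + 1)) ≃ Fin (N + 1)) : ProjD A :=
  segP (fun k => MapD.ofProj (Q k))
    (fun i j x hx y hy h => by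
      obtain ⟨k⟩ := ‹Nonempty ι›
      exact (Q k).inj i j x hx y hy (h k))
    (fun i z hz v h => by
      obtain ⟨k⟩ := ‹Nonempty ι›
      exact (Q k).imm i z hz v (h k)) e

theorem segPs_N {N : ℕ} (e : (∀ k, Fin ((Q k).N + 1)) ≃ Fin (N + 1)) : (segPs Q e).N = N := rfl

theorem segPs_F {N : ℕ} (e : (∀ k, Fin ((Q k).N + 1)) ≃ Fin (N + 1)) (i : A.ι) (x : M)
    (a : ∀ k, Fin ((Q k).N + 1)) :
    (segPs Q e).F i x (e a) = seg (fun k => (Q k).F i x) a := by
  show seg (fun k => (Q k).F i x) (e.symm (e a)) = _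
  rw [e.symm_apply_apply]

/-- the line bundle of the Segre product -/
theorem segPs_lb {N : ℕ} (e : (∀ k, Fin ((Q k).N + 1)) ≃ Fin (N + 1)) :
    Crest.Agent.R273.FS_333.lb (segPs Q e) = ∏ k, Crest.Agent.R273.FS_333.lb (Q k) := by
  rw [← MapD.ofProj_lb, ← Finset.prod_congr rfl fun k _ => MapD.ofProj_lb (Q k), ← segM_lb]
  refine MapD.lb_eq _ _ fun i j x hx => ?_
  funext a
  exact congrFun ((segM fun k => MapD.ofProj (Q k)).lb_g hx) (e.symm a)

end Proj

/-! ### extraction of a block -/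

variable {J : ι → Type}

/-- extraction of a block -/
def MapD.blk (P : MapD A (∀ k, J k)) (hS : ∀ i, ∀ x ∈ (A.e i).source, SegRel (P.F i x))
    (a₀ : A.ι → ∀ k, J k) (ha : ∀ i, ∀ x ∈ (A.e i).source, P.F i x (a₀ i) ≠ 0) (k : ι) :
    MapD A (J k) where
  F i x := ext k (a₀ i) (P.F i x)
  hol i j := P.hol i _
  ne i x hx := ext_ne (ha i x hx) k
  tr i j x hx := by
    obtain ⟨c, hc⟩ := P.tr i j x hx
    have h1 := (dext_indep' (hS j x hx.2) (v := P.F j x) (fun k a a' => by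
      have := hS j x hx.2 k a a'
      linear_combination 2 * this) k (a₀ := a₀ i) (ha j x hx.2)).1
    refine ⟨c * (P.F j x (update (a₀ i) k (a₀ j k)) / P.F j x (a₀ j)), ?_⟩
    rw [hc, ext_smul, h1, smul_smul]

section Norm

variable (P : MapD A (∀ k, J k)) (hS : ∀ i, ∀ x ∈ (A.e i).source, SegRel (P.F i x))
  (a₀ : A.ι → ∀ k, J k)

/-- with normalised coordinates the map is the Segre product of its blocks -/
theorem MapD.blk_seg {i : A.ι} {x : M} (hx : x ∈ (A.e i).source)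
    (hne : ∀ i, ∀ x ∈ (A.e i).source, P.F i x (a₀ i) ≠ 0) (h1 : P.F i x (a₀ i) = 1) :
    P.F i x = (segM fun k => P.blk hS a₀ hne k).F i x := by
  have h2 := segRel_eq (hS i x hx) (a₀ := a₀ i) (hne i x hx)
  rw [h1, inv_one, one_pow, one_mul, one_smul] at h2
  exact h2

theorem MapD.blk_lb (hne : ∀ i, ∀ x ∈ (A.e i).source, P.F i x (a₀ i) ≠ 0)
    (h1 : ∀ i, ∀ x ∈ (A.e i).source, P.F i x (a₀ i) = 1) :
    P.lb = ∏ k, (P.blk hS a₀ hne k).lb := by
  rw [← segM_lb]
  refine MapD.lb_eq _ _ fun i j x hx => ?_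
  rw [P.blk_seg hS a₀ hx.1 hne (h1 i x hx.1), P.blk_seg hS a₀ hx.2 hne (h1 j x hx.2)]
  exact (segM fun k => P.blk hS a₀ hne k).lb_g hx

theorem MapD.blk_w [∀ k, Fintype (J k)] (hne : ∀ i, ∀ x ∈ (A.e i).source, P.F i x (a₀ i) ≠ 0)
    {i : A.ι} {x : M} (hx : x ∈ (A.e i).source) (h1 : P.F i x (a₀ i) = 1) :
    P.fs.w i x = ∏ k, (P.blk hS a₀ hne k).fs.w i x := by
  rw [← segM_w]
  change (∑ a, ‖P.F i x a‖ ^ 2)⁻¹ = (∑ a, ‖(segM fun k => P.blk hS a₀ hne k).F i x a‖ ^ 2)⁻¹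
  rw [P.blk_seg hS a₀ hx hne h1]

theorem MapD.blk_cur [∀ k, Fintype (J k)] (hne : ∀ i, ∀ x ∈ (A.e i).source, P.F i x (a₀ i) ≠ 0)
    (h1 : ∀ i, ∀ x ∈ (A.e i).source, P.F i x (a₀ i) = 1) {i : A.ι} {x : M}
    (hx : x ∈ (A.e i).source) : cur P.fs i x = ∑ k, cur (P.blk hS a₀ hne k).fs i x := by
  rw [← segM_cur _ hx]
  unfold cur
  refine hess_congr ?_
  filter_upwards [(A.e i).open_target.mem_nhds ((A.e i).map_source hx)] with z hz
  have hz' := (A.e i).map_target hz
  simp only [HM.wt]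
  rw [P.blk_w hS a₀ hne hz' (h1 i _ hz'), ← segM_w]

end Norm

/-- reindexing of the coordinates -/
def MapD.reindex {J₁ J₂ : Type} (P : MapD A J₁) (e : J₂ ≃ J₁) : MapD A J₂ where
  F i x j := P.F i x (e j)
  hol i j := P.hol i (e j)
  ne i x hx h := P.ne i x hx (funext fun j => by
    have := congrFun h (e.symm j)
    simpa using this)
  tr i j x hx := by
    obtain ⟨c, hc⟩ := P.tr i j x hx
    exact ⟨c, by rw [hc]; rfl⟩

theorem MapD.reindex_lb {J₁ J₂ : Type} (P : MapD A J₁) (e : J₂ ≃ J₁) : (P.reindex e).lb = P.lb :=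
  MapD.lb_eq _ _ fun i j x hx => funext fun a => congrFun (P.lb_g hx) (e a)

theorem MapD.reindex_w {J₁ J₂ : Type} [Fintype J₁] [Fintype J₂] (P : MapD A J₁) (e : J₂ ≃ J₁)
    (i : A.ι) (x : M) : (P.reindex e).fs.w i x = P.fs.w i x := by
  change (∑ a, ‖P.F i x (e a)‖ ^ 2)⁻¹ = (∑ a, ‖P.F i x a‖ ^ 2)⁻¹
  rw [Equiv.sum_comp e (fun a => ‖P.F i x a‖ ^ 2)]

/-! ### members -/

/-- reindexing of the Segre space -/
def bE {T : Type} [Fintype T] {K : ℕ} (e : T ≃ Fin (K + 1)) : (T → ℂ) ≃L[ℂ] (Fin (K + 1) → ℂ) :=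
  (LinearEquiv.funCongrLeft ℂ ℂ e.symm).toContinuousLinearEquiv

theorem bE_apply {T : Type} [Fintype T] {K : ℕ} (e : T ≃ Fin (K + 1)) (w : T → ℂ)
    (k : Fin (K + 1)) : bE e w k = w (e.symm k) := rfl

theorem bE_apply' {T : Type} [Fintype T] {K : ℕ} (e : T ≃ Fin (K + 1)) (w : T → ℂ)
    (t : T) : bE e w (e t) = w t := by rw [bE_apply, e.symm_apply_apply]

section Mem

variable [∀ k, Fintype (J k)]
variable {V : Type} [NormedAddCommGroup V] [NormedSpace ℝ V] {C : RCh V M}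

/-- block lifts: jointly injective and immersive -/
structure BlkE (C : RCh V M) (J : ι → Type) [∀ k, Fintype (J k)] where
  u : ∀ k, C.ι → V → J k → ℂ
  sm : ∀ k i, ContDiffOn ℝ ∞ (u k i) (C.e i).target
  ne : ∀ k i, ∀ z ∈ (C.e i).target, u k i z ≠ 0
  tr : ∀ k i j, ∀ z ∈ C.ov i j, ∃ a : ℂ, u k i z = a • u k j (C.t i j z)
  inj : ∀ i j, ∀ z ∈ (C.e i).target, ∀ z' ∈ (C.e j).target,
    (∀ k, ∃ a : ℂ, u k i z = a • u k j z') → (C.e i).symm z = (C.e j).symm z'
  imm : ∀ i, ∀ z ∈ (C.e i).target, ∀ v : V,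
    (∀ k, ∃ a : ℂ, fderiv ℝ (u k i) z v = a • u k i z) → v = 0

/-- complex tangent spaces -/
def BlkE.Cx (B : BlkE C J) : Prop :=
  ∀ i, ∀ z ∈ (C.e i).target, ∀ v : V, ∃ w : V, ∀ k, ∃ a : ℂ,
    I • fderiv ℝ (B.u k i) z v = fderiv ℝ (B.u k i) z w + a • B.u k i z

theorem hasFDerivAt_seg {E : Type*} [NormedAddCommGroup E] [NormedSpace ℝ E]
    {u : ∀ k, E → J k → ℂ} {z : E} {u' : ∀ k, E →L[ℝ] (J k → ℂ)}
    (hd : ∀ k, HasFDerivAt (u k) (u' k) z) :
    ∃ T : E →L[ℝ] ((∀ k, J k) → ℂ), HasFDerivAt (fun w => seg fun k => u k w) T z ∧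
      ∀ v, T v = dseg (fun k => u k z) (fun k => u' k v) := by
  have h1 : ∀ a : ∀ k, J k, HasFDerivAt (fun w => seg (fun k => u k w) a)
      (∑ k, (∏ l ∈ Finset.univ.erase k, u l z (a l)) •
        ((ContinuousLinearMap.proj (R := ℝ) (φ := fun _ : J k => ℂ) (a k)).comp (u' k))) z := by
    intro a
    exact HasFDerivAt.finsetProd (u := Finset.univ)
      (g := fun k w => u k w (a k)) (fun k _ => (hasFDerivAt_pi'.1 (hd k)) (a k))
  refine ⟨_, hasFDerivAt_pi.2 h1, fun v => ?_⟩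
  funext a
  simp only [ContinuousLinearMap.coe_pi', dseg]
  rw [_root_.sum_apply]
  refine Finset.sum_congr rfl fun k _ => ?_
  show (∏ l ∈ Finset.univ.erase k, u l z (a l)) * u' k v (a k) = _
  ring

theorem fderiv_seg {E : Type*} [NormedAddCommGroup E] [NormedSpace ℝ E]
    {u : ∀ k, E → J k → ℂ} {z : E} (hd : ∀ k, DifferentiableAt ℝ (u k) z) (v : E) :
    fderiv ℝ (fun w => seg fun k => u k w) z v =
      dseg (fun k => u k z) (fun k => fderiv ℝ (u k) z v) := by
  obtain ⟨T, hT, hv⟩ := hasFDerivAt_seg fun k => (hd k).hasFDerivAt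
  rw [hT.fderiv, hv]

/-- the embedding with block lifts `u` -/
def BlkE.segH (B : BlkE C J) : HEmb C ((∀ k, J k) → ℂ) where
  u i z := seg fun k => B.u k i z
  sm i := contDiffOn_pi.2 fun a => contDiffOn_prod fun k _ => contDiffOn_pi.1 (B.sm k i) (a k)
  ne i z hz := seg_ne fun k => B.ne k i z hz
  tr i j z hz := seg_proj fun k => B.tr k i j z hz
  inj i j z hz z' hz' h := B.inj i j z hz z' hz' fun k => seg_inj (fun k => B.ne k i z hz) h k
  imm i z hz v h := by
    refine B.imm i z hz v fun k => ?_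
    obtain ⟨a, ha⟩ := h
    rw [fderiv_seg fun k => ((B.sm k i).contDiffAt
      ((C.e i).open_target.mem_nhds hz)).differentiableAt (by simp)] at ha
    exact dseg_inj (fun k => B.ne k i z hz) ⟨a, ha⟩ k

theorem BlkE.segH_cx {B : BlkE C J} (h : B.Cx) : B.segH.Cx := by
  intro i z hz v
  obtain ⟨w, hw⟩ := h i z hz v
  choose a ha using hw
  have hd : ∀ k, DifferentiableAt ℝ (B.u k i) z := fun k => ((B.sm k i).contDiffAt
      ((C.e i).open_target.mem_nhds hz)).differentiableAt (by simp)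
  refine ⟨w, ∑ k, a k, ?_⟩
  show I • fderiv ℝ (fun w => seg fun k => B.u k i w) z v =
    fderiv ℝ (fun w => seg fun k => B.u k i w) z w + (∑ k, a k) • seg (fun k => B.u k i z)
  rw [fderiv_seg hd, fderiv_seg hd, ← dseg_smul, ← dseg_euler, ← dseg_add]
  congr 1
  funext k
  exact ha k

theorem BlkE.segH_cone {B : BlkE C J} {w : (∀ k, J k) → ℂ} (h : w ∈ B.segH.cone) : SegRel w := by
  obtain ⟨i, z, hz, a, ha, rfl⟩ := h
  exact (segRel_seg _).smul a

/-! ### the block maps of a member -/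

variable {K : ℕ} {P : HEmb C ((∀ k, J k) → ℂ)} {e : (∀ k, J k) ≃ Fin (K + 1)}

/-- the affine coordinates satisfy the Segre relations -/
theorem segRel_nuX (hS : ∀ w ∈ P.cone, SegRel w) (k : Fin (K + 1)) (x : M) :
    SegRel fun a => nuX P (bE e) k x (e a) := by
  have h1 : P.u (ci C x) (C.e (ci C x) x) ∈ P.cone :=
    P.mem_cone ((C.e (ci C x)).map_source (ci_mem C x))
  have h2 : (fun a => nuX P (bE e) k x (e a)) =
      (bE e (P.u (ci C x) (C.e (ci C x) x)) k)⁻¹ • P.u (ci C x) (C.e (ci C x) x) := by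
    funext a
    show (bE e (P.u (ci C x) (C.e (ci C x) x)) k)⁻¹ * bE e (P.u (ci C x) (C.e (ci C x) x)) (e a)
      = _
    rw [bE_apply']
    rfl
  rw [h2]
  exact (hS _ h1).smul _

/-- the Segre map of a member in the atlas `A` -/
def hmap (h : HolA P (bE e) A) (κ : A.ι → Fin (K + 1))
    (hκ : ∀ a, (A.e a).source ⊆ OX P (bE e) (κ a)) : MapD A (∀ k, J k) :=
  (MapD.ofProj (h.toProj κ hκ)).reindex e

theorem hmap_F (h : HolA P (bE e) A) (κ : A.ι → Fin (K + 1))
    (hκ : ∀ a, (A.e a).source ⊆ OX P (bE e) (κ a)) (a : A.ι) (x : M) :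
    (hmap h κ hκ).F a x = fun α => nuX P (bE e) (κ a) x (e α) := rfl

theorem hmap_one (h : HolA P (bE e) A) (κ : A.ι → Fin (K + 1))
    (hκ : ∀ a, (A.e a).source ⊆ OX P (bE e) (κ a)) (a : A.ι) {x : M} (hx : x ∈ (A.e a).source) :
    (hmap h κ hκ).F a x (e.symm (κ a)) = 1 := by
  show nuX P (bE e) (κ a) x (e (e.symm (κ a))) = 1
  rw [e.apply_symm_apply]
  exact nuX_self (hκ a hx)

/-- the block map `k` of a member -/
def hblk (h : HolA P (bE e) A) (κ : A.ι → Fin (K + 1))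
    (hκ : ∀ a, (A.e a).source ⊆ OX P (bE e) (κ a)) (hS : ∀ w ∈ P.cone, SegRel w) (k : ι) :
    MapD A (J k) :=
  (hmap h κ hκ).blk (fun a x _ => segRel_nuX hS (κ a) x) (fun a => e.symm (κ a))
    (fun a x hx => by rw [hmap_one h κ hκ a hx]; exact one_ne_zero) k

variable (h : HolA P (bE e) A) (κ : A.ι → Fin (K + 1))
    (hκ : ∀ a, (A.e a).source ⊆ OX P (bE e) (κ a)) (hS : ∀ w ∈ P.cone, SegRel w)

/-- `O(1)` of the member is the product of the block bundles -/
theorem hblk_lb : Crest.Agent.R273.FS_333.lb (h.toProj κ hκ) = ∏ k, (hblk h κ hκ hS k).lb := by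
  rw [← MapD.ofProj_lb]
  refine (MapD.reindex_lb (MapD.ofProj (h.toProj κ hκ)) e).symm.trans ?_
  exact MapD.blk_lb (hmap h κ hκ) _ _ _ fun a x hx => hmap_one h κ hκ a hx

/-- the Fubini-Study metric of the member is the product of the block metrics -/
theorem hblk_w {a : A.ι} {x : M} (hx : x ∈ (A.e a).source) :
    (Crest.Agent.R273.FS_333.fs (h.toProj κ hκ)).w a x = ∏ k, (hblk h κ hκ hS k).fs.w a x := by
  rw [← MapD.ofProj_w]
  refine (MapD.reindex_w (MapD.ofProj (h.toProj κ hκ)) e a x).symm.trans ?_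
  exact MapD.blk_w (hmap h κ hκ) _ _ _ hx (hmap_one h κ hκ a hx)

/-- the block map in the real charts -/
theorem hblk_eq {a : A.ι} {x : M} (hx : x ∈ (A.e a).source) {i : C.ι}
    (hi : x ∈ (C.e i).source) (k : ι) :
    ∃ c : ℂ, c ≠ 0 ∧ (hblk h κ hκ hS k).F a x = c • ext k (e.symm (κ a)) (P.u i (C.e i x)) := by
  have h1 := (mem_OX hi).1 (hκ a hx)
  refine ⟨(bE e (P.u i (C.e i x)) (κ a))⁻¹, inv_ne_zero h1.2, ?_⟩
  show ext k (e.symm (κ a)) (fun α => nuX P (bE e) (κ a) x (e α)) = _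
  rw [nuX_eq hi (hκ a hx), ← ext_smul]
  congr 1
  funext α
  show (bE e (P.u i (C.e i x)) (κ a))⁻¹ * bE e (P.u i (C.e i x)) (e α) = _
  rw [bE_apply']
  rfl

/-- positive combinations of the block curvatures are positive -/
theorem hblk_posDef {lam : ι → ℝ} (hlam : ∀ k, 0 < lam k) {a : A.ι} {x : M}
    (hx : x ∈ (A.e a).source) :
    (∑ k, (lam k : ℂ) • cur (hblk h κ hκ hS k).fs a x).PosDef := by
  refine cur_comb_posDef _ hlam hx fun v hv => ?_
  have hz := (A.e a).map_source hx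
  refine (h.toProj κ hκ).imm a (A.e a x) hz v ?_
  choose c hc using hv
  have h1 : ∀ z ∈ (A.e a).target, (fun α => (h.toProj κ hκ).F a ((A.e a).symm z) (e α)) =
      seg fun k => (hblk h κ hκ hS k).F a ((A.e a).symm z) := by
    intro z hz
    have hx' := (A.e a).map_target hz
    exact MapD.blk_seg (hmap h κ hκ) (fun a x _ => segRel_nuX hS (κ a) x)
      (fun a => e.symm (κ a)) hx' _ (hmap_one h κ hκ a hx')
  have h2 : fderiv ℂ (fun w => (segM (hblk h κ hκ hS)).F a ((A.e a).symm w)) (A.e a x) v =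
      (∑ k, c k) • (segM (hblk h κ hκ hS)).F a ((A.e a).symm (A.e a x)) := by
    rw [fderiv_segM _ hz, segM_F, ← dseg_euler]
    congr 1
    funext k
    rw [(A.e a).left_inv hx]
    exact hc k
  have h4 : (fun w => nuX P (bE e) (κ a) ((A.e a).symm w)) =ᶠ[𝓝 (A.e a x)]
      fun w => bE e ((segM (hblk h κ hκ hS)).F a ((A.e a).symm w)) := by
    filter_upwards [(A.e a).open_target.mem_nhds hz] with z hz
    funext m
    have h5 : nuX P (bE e) (κ a) ((A.e a).symm z) (e (e.symm m)) =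
      (segM (hblk h κ hκ hS)).F a ((A.e a).symm z) (e.symm m) := congrFun (h1 z hz) (e.symm m)
    rw [e.apply_symm_apply] at h5
    exact h5
  have hd : DifferentiableAt ℂ (fun w => (segM (hblk h κ hκ hS)).F a ((A.e a).symm w))
      (A.e a x) := differentiableAt_pi.2 fun j =>
    ((segM (hblk h κ hκ hS)).diffOn a j).differentiableAt ((A.e a).open_target.mem_nhds hz)
  have h6 : HasFDerivAt (fun w => bE e ((segM (hblk h κ hκ hS)).F a ((A.e a).symm w)))
      ((bE e : ((∀ k, J k) → ℂ) →L[ℂ] (Fin (K + 1) → ℂ)).comp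
        (fderiv ℂ (fun w => (segM (hblk h κ hκ hS)).F a ((A.e a).symm w)) (A.e a x))) (A.e a x) :=
    (bE e : ((∀ k, J k) → ℂ) →L[ℂ] (Fin (K + 1) → ℂ)).hasFDerivAt.comp (A.e a x) hd.hasFDerivAt
  refine ⟨∑ k, c k, ?_⟩
  show fderiv ℂ (fun w => nuX P (bE e) (κ a) ((A.e a).symm w)) (A.e a x) v =
    (∑ k, c k) • nuX P (bE e) (κ a) ((A.e a).symm (A.e a x))
  have h7 : nuX P (bE e) (κ a) ((A.e a).symm (A.e a x)) =
    bE e ((segM (hblk h κ hκ hS)).F a ((A.e a).symm (A.e a x))) := h4.self_of_nhds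
  rw [h4.fderiv_eq, h6.fderiv, h7]
  show bE e (fderiv ℂ _ (A.e a x) v) = _
  rw [h2, map_smul]

end Mem

end

end Crest.Agent.R281.Blk_592
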