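import Mathlib

/-!
# R281 (S0424), B4-EHR (helper268), part 1: the local slice theorem

`G : E × V → W` holomorphic, `D2 G (c0,p0) : V → W` onto.  There is a real-analytic
`v : E × V → V` near `(c0,p0)`, holomorphic in the parameter, with
`G (c, Z + v (c,Z)) = 0`, `v (c,Z) ⟂ ker D2 G (c0,Z)`, unique among small vectors.
-/

set_option autoImplicit false

open Set Filter Topology
open scoped ContDiff InnerProductSpace

namespace Crest.Agent.R281.Ehr1_268

noncomputable section

variable {E : Type*} [NormedAddCommGroup E] [NormedSpace ℂ E] [CompleteSpace E]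
variable {V : Type*} [NormedAddCommGroup V] [InnerProductSpace ℂ V] [FiniteDimensional ℂ V]
variable {W : Type*} [NormedAddCommGroup W] [InnerProductSpace ℂ W] [FiniteDimensional ℂ W]

/-- partial derivative in the second variable -/
def D2 (G : E × V → W) (q : E × V) : V →L[ℂ] W :=
  (fderiv ℂ G q).comp (ContinuousLinearMap.inr ℂ E V)

omit [CompleteSpace E] [FiniteDimensional ℂ V] [FiniteDimensional ℂ W] in
theorem hasFDerivAt_snd {G : E × V → W} {q : E × V} (h : DifferentiableAt ℂ G q) :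
    HasFDerivAt (fun Z => G (q.1, Z)) (D2 G q) q.2 := by
  have h1 : HasFDerivAt (fun Z : V => (q.1, Z)) (ContinuousLinearMap.inr ℂ E V) q.2 :=
    hasFDerivAt_prodMk_right q.1 q.2
  exact HasFDerivAt.comp (f := fun Z : V => (q.1, Z)) (g := G) q.2 (by exact h.hasFDerivAt) h1

omit [CompleteSpace E] [FiniteDimensional ℂ V] [FiniteDimensional ℂ W] in
theorem contDiffAt_D2 {G : E × V → W} {q : E × V} (h : ContDiffAt ℂ ω G q) :
    ContDiffAt ℂ ω (D2 G) q := by
  have h1 : ContDiffAt ℂ ω (fderiv ℂ G) q := h.fderiv_right (by simp)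
  exact h1.clm_comp contDiffAt_const

/-- the adjoint as a real continuous linear map -/
def adjR (V W : Type*) [NormedAddCommGroup V] [InnerProductSpace ℂ V] [FiniteDimensional ℂ V]
    [NormedAddCommGroup W] [InnerProductSpace ℂ W] [FiniteDimensional ℂ W] :
    (V →L[ℂ] W) →L[ℝ] (W →L[ℂ] V) :=
  haveI := FiniteDimensional.complete ℂ V
  haveI := FiniteDimensional.complete ℂ W
  AddMonoidHom.toRealLinearMap
    { toFun := fun A => ContinuousLinearMap.adjoint A
      map_zero' := by simp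
      map_add' := fun A B => by simp }
    (ContinuousLinearMap.adjoint (𝕜 := ℂ) (E := V) (F := W)).continuous

theorem adjR_apply (A : V →L[ℂ] W) :
    adjR V W A = (haveI := FiniteDimensional.complete ℂ V
      haveI := FiniteDimensional.complete ℂ W
      ContinuousLinearMap.adjoint A) := rfl

theorem adjR_inner_right (A : V →L[ℂ] W) (x : V) (y : W) :
    ⟪x, adjR V W A y⟫_ℂ = ⟪A x, y⟫_ℂ := by
  have := FiniteDimensional.complete ℂ V
  have := FiniteDimensional.complete ℂ W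
  exact ContinuousLinearMap.adjoint_inner_right A x y

theorem adjR_inner_left (A : V →L[ℂ] W) (x : V) (y : W) :
    ⟪adjR V W A y, x⟫_ℂ = ⟪y, A x⟫_ℂ := by
  have := FiniteDimensional.complete ℂ V
  have := FiniteDimensional.complete ℂ W
  exact ContinuousLinearMap.adjoint_inner_left A x y

/-- `A A†` -/
def gram (A : V →L[ℂ] W) : W →L[ℂ] W := A.comp (adjR V W A)

theorem gram_inj {A : V →L[ℂ] W} (hA : Function.Surjective A) {w : W} (hw : gram A w = 0) :
    w = 0 := by
  obtain ⟨x, rfl⟩ := hA w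
  have h1 : adjR V W A (A x) = 0 := by
    have h2 : ⟪adjR V W A (A x), adjR V W A (A x)⟫_ℂ = 0 := by
      rw [adjR_inner_left]
      have : A (adjR V W A (A x)) = gram A (A x) := rfl
      rw [this, hw, inner_zero_right]
    exact inner_self_eq_zero.mp h2
  have h3 : ⟪A x, A x⟫_ℂ = 0 := by
    rw [← adjR_inner_right, h1, inner_zero_right]
  exact inner_self_eq_zero.mp h3

theorem gram_bij {A : V →L[ℂ] W} (hA : Function.Surjective A) : Function.Bijective (gram A) := by
  have h1 : Function.Injective (gram A) := by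
    intro a b hab
    have : gram A (a - b) = 0 := by rw [map_sub, hab, sub_self]
    exact sub_eq_zero.mp (gram_inj hA this)
  exact ⟨h1, (LinearMap.injective_iff_surjective (f := (gram A : W →ₗ[ℂ] W))).mp h1⟩

theorem gram_isInvertible {A : V →L[ℂ] W} (hA : Function.Surjective A) :
    (gram A).IsInvertible := by
  let e : W ≃ₗ[ℂ] W := LinearEquiv.ofBijective (gram A : W →ₗ[ℂ] W) (gram_bij hA)
  refine ⟨e.toContinuousLinearEquiv, ?_⟩
  ext x
  rfl

/-- `u ⟂ ker A` and `A A† w = A u` give `u = A† w` -/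
theorem exists_adj {A : V →L[ℂ] W} {u : V}
    (hu : ∀ x, A x = 0 → ⟪x, u⟫_ℂ = 0) {w : W} (hw : gram A w = A u) : u = adjR V W A w := by
  have h1 : A (u - adjR V W A w) = 0 := by
    rw [map_sub]
    have : A (adjR V W A w) = gram A w := rfl
    rw [this, hw, sub_self]
  have h2 := hu _ h1
  have h3 : ⟪u - adjR V W A w, adjR V W A w⟫_ℂ = 0 := by
    rw [adjR_inner_right, h1, inner_zero_left]
  have h4 : ⟪u - adjR V W A w, u - adjR V W A w⟫_ℂ = 0 := by
    rw [inner_sub_right, h2, h3, sub_zero]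
  exact sub_eq_zero.mp (inner_self_eq_zero.mp h4)

theorem adj_perp {A : V →L[ℂ] W} (w : W) {x : V} (hx : A x = 0) :
    ⟪x, adjR V W A w⟫_ℂ = 0 := by
  rw [adjR_inner_right, hx, inner_zero_left]

/-! ### the implicit equation -/

/-- `K ((c,Z),w) = G (c, Z + A_Z† w)` -/
def KK (G : E × V → W) (c0 : E) (q : (E × V) × W) : W :=
  G (q.1.1, q.1.2 + adjR V W (D2 G (c0, q.1.2)) q.2)

omit [CompleteSpace E] in
theorem contDiffAt_arg {G : E × V → W} {c0 : E} {q : (E × V) × W}
    (h : ContDiffAt ℂ ω G (c0, q.1.2)) :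
    ContDiffAt ℝ ω (fun q : (E × V) × W => adjR V W (D2 G (c0, q.1.2)) q.2) q := by
  have h0 : ContDiffAt ℝ ω (D2 G) (c0, q.1.2) := (contDiffAt_D2 h).restrict_scalars ℝ
  have h1 : ContDiffAt ℝ ω (fun q : (E × V) × W => D2 G (c0, q.1.2)) q := by
    have : ContDiffAt ℝ ω (fun q : (E × V) × W => (c0, q.1.2)) q := by fun_prop
    exact h0.comp q this
  have h2 : ContDiffAt ℝ ω (fun q : (E × V) × W => adjR V W (D2 G (c0, q.1.2))) q :=
    (adjR V W).contDiff.contDiffAt.comp q h1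
  have h3 : ContDiffAt ℝ ω (fun q : (E × V) × W =>
      ContinuousLinearMap.restrictScalarsL ℂ W V ℝ ℝ (adjR V W (D2 G (c0, q.1.2)))) q :=
    (ContinuousLinearMap.restrictScalarsL ℂ W V ℝ ℝ).contDiff.contDiffAt.comp q h2
  have h4 := h3.clm_apply (contDiffAt_snd (p := q))
  exact h4

omit [CompleteSpace E] in
theorem contDiffAt_KK {G : E × V → W} {c0 : E} {q : (E × V) × W}
    (h : ContDiffAt ℂ ω G (c0, q.1.2))
    (h' : ContDiffAt ℂ ω G (q.1.1, q.1.2 + adjR V W (D2 G (c0, q.1.2)) q.2)) :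
    ContDiffAt ℝ ω (KK G c0) q := by
  have h1 := contDiffAt_arg (G := G) (c0 := c0) (q := q) h
  have h2 : ContDiffAt ℝ ω (fun q : (E × V) × W =>
      (q.1.1, q.1.2 + adjR V W (D2 G (c0, q.1.2)) q.2)) q := by fun_prop
  exact (h'.restrict_scalars ℝ).comp q h2

omit [CompleteSpace E] in
theorem hasFDerivAt_KK_w {G : E × V → W} {c0 : E} {q : (E × V) × W}
    (h : DifferentiableAt ℂ G (q.1.1, q.1.2 + adjR V W (D2 G (c0, q.1.2)) q.2)) :
    HasFDerivAt (𝕜 := ℂ) (fun w => KK G c0 (q.1, w))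
      ((D2 G (q.1.1, q.1.2 + adjR V W (D2 G (c0, q.1.2)) q.2)).comp
        (adjR V W (D2 G (c0, q.1.2)))) q.2 := by
  have h1 := hasFDerivAt_snd (G := G) h
  have h2 : HasFDerivAt (𝕜 := ℂ) (fun w : W => q.1.2 + adjR V W (D2 G (c0, q.1.2)) w)
      (adjR V W (D2 G (c0, q.1.2))) q.2 :=
    ((adjR V W (D2 G (c0, q.1.2))).hasFDerivAt).const_add _
  exact HasFDerivAt.comp (f := fun w : W => q.1.2 + adjR V W (D2 G (c0, q.1.2)) w)
    (g := fun Z => G (q.1.1, Z)) q.2 h1 h2

omit [CompleteSpace E] in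
theorem fderiv_KK_inr {G : E × V → W} {c0 : E} {p0 : V} (h : ContDiffAt ℂ ω G (c0, p0)) :
    (fderiv ℝ (KK G c0) ((c0, p0), 0)).comp (ContinuousLinearMap.inr ℝ (E × V) W) =
      (gram (D2 G (c0, p0))).restrictScalars ℝ := by
  have hK : ContDiffAt ℝ ω (KK G c0) ((c0, p0), 0) :=
    contDiffAt_KK h (by simpa using h)
  have h1 : HasFDerivAt (fun w : W => KK G c0 ((c0, p0), w))
      ((fderiv ℝ (KK G c0) ((c0, p0), 0)).comp (ContinuousLinearMap.inr ℝ (E × V) W)) 0 := by
    have ha : HasFDerivAt (fun w : W => (((c0, p0), w) : (E × V) × W))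
        (ContinuousLinearMap.inr ℝ (E × V) W) 0 := hasFDerivAt_prodMk_right _ _
    exact HasFDerivAt.comp (f := fun w : W => (((c0, p0), w) : (E × V) × W)) (g := KK G c0) 0
      (hK.differentiableAt (by simp)).hasFDerivAt ha
  have h2 : HasFDerivAt (𝕜 := ℂ) (fun w : W => KK G c0 ((c0, p0), w))
      (gram (D2 G (c0, p0))) 0 := by
    have := hasFDerivAt_KK_w (G := G) (c0 := c0) (q := ((c0, p0), (0 : W)))
      (by simpa using h.differentiableAt (by simp))
    simpa [gram] using this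
  exact h1.unique (h2.restrictScalars ℝ)

omit [CompleteSpace E] in
theorem fderiv_KK_inl {G : E × V → W} {c0 : E} {p0 : V} (h : ContDiffAt ℂ ω G (c0, p0)) (x : V) :
    (fderiv ℝ (KK G c0) ((c0, p0), 0)) ((0, x), 0) = D2 G (c0, p0) x := by
  have hK : ContDiffAt ℝ ω (KK G c0) ((c0, p0), 0) :=
    contDiffAt_KK h (by simpa using h)
  have h1 : HasFDerivAt (fun Z : V => KK G c0 ((c0, Z), 0))
      ((fderiv ℝ (KK G c0) ((c0, p0), 0)).comp
        ((ContinuousLinearMap.inl ℝ (E × V) W).comp (ContinuousLinearMap.inr ℝ E V))) p0 := by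
    have ha : HasFDerivAt (fun Z : V => (((c0, Z), 0) : (E × V) × W))
        ((ContinuousLinearMap.inl ℝ (E × V) W).comp (ContinuousLinearMap.inr ℝ E V)) p0 :=
      HasFDerivAt.comp (f := fun Z : V => ((c0, Z) : E × V))
        (g := fun y : E × V => ((y, 0) : (E × V) × W)) p0
        (hasFDerivAt_prodMk_left _ _) (hasFDerivAt_prodMk_right _ _)
    exact HasFDerivAt.comp (f := fun Z : V => (((c0, Z), 0) : (E × V) × W)) (g := KK G c0) p0
      (hK.differentiableAt (by simp)).hasFDerivAt ha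
  have h2 : HasFDerivAt (𝕜 := ℂ) (fun Z : V => KK G c0 ((c0, Z), 0)) (D2 G (c0, p0)) p0 := by
    have := hasFDerivAt_snd (G := G) (q := (c0, p0)) (h.differentiableAt (by simp))
    simpa [KK] using this
  have h3 := h1.unique (h2.restrictScalars ℝ)
  have h4 := congrArg (fun L : V →L[ℝ] W => L x) h3
  simpa using h4

omit [CompleteSpace E] [FiniteDimensional ℂ W] in
theorem real_to_complex_map {f' : E →L[ℝ] W}
    (h13 : ∀ h : E, f' (Complex.I • h) = Complex.I • f' h) (a : ℂ) (h : E) :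
    f' (a • h) = a • f' h := by
  have e1 : a • h = a.re • h + a.im • (Complex.I • h) := by
    conv_lhs => rw [← Complex.re_add_im a]
    rw [add_smul, mul_smul]
    rfl
  have e2 : a • f' h = a.re • f' h + a.im • (Complex.I • f' h) := by
    conv_lhs => rw [← Complex.re_add_im a]
    rw [add_smul, mul_smul]
    rfl
  rw [e1, e2, map_add, map_smul, map_smul, h13]

omit [CompleteSpace E] in
theorem holo_param {G : E × V → W} {ψ : E × V → W} {A : V →L[ℂ] W} {c : E} {Z : V}
    (h1 : DifferentiableAt ℝ ψ (c, Z))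
    (h2 : ∀ᶠ c' in 𝓝 c, G (c', Z + adjR V W A (ψ (c', Z))) = 0)
    (h3 : Function.Injective ((D2 G (c, Z + adjR V W A (ψ (c, Z)))).comp (adjR V W A)))
    (h4 : DifferentiableAt ℂ G (c, Z + adjR V W A (ψ (c, Z)))) :
    DifferentiableAt ℂ (fun c' => adjR V W A (ψ (c', Z))) c := by
  -- real derivative of `c' ↦ ψ (c',Z)`
  have h5 : HasFDerivAt (fun c' => ψ (c', Z))
      ((fderiv ℝ ψ (c, Z)).comp (ContinuousLinearMap.inl ℝ E V)) c :=
    HasFDerivAt.comp (f := fun c' : E => (c', Z)) (g := ψ) c h1.hasFDerivAt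
      (hasFDerivAt_prodMk_left _ _)
  generalize (fderiv ℝ ψ (c, Z)).comp (ContinuousLinearMap.inl ℝ E V) = f' at h5
  have h6 : HasFDerivAt (fun c' => (c', Z + adjR V W A (ψ (c', Z))))
      ((ContinuousLinearMap.id ℝ E).prod (((adjR V W A).restrictScalars ℝ).comp f')) c := by
    refine (hasFDerivAt_id c).prodMk ?_
    refine HasFDerivAt.const_add Z ?_
    exact ((adjR V W A).restrictScalars ℝ).hasFDerivAt.comp c h5
  generalize hp : Z + adjR V W A (ψ (c, Z)) = p at h3 h4
  have h7 : HasFDerivAt G ((fderiv ℂ G (c, p)).restrictScalars ℝ)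
      (c, Z + adjR V W A (ψ (c, Z))) := by
    rw [hp]; exact h4.hasFDerivAt.restrictScalars ℝ
  have h8 := HasFDerivAt.comp (f := fun c' => (c', Z + adjR V W A (ψ (c', Z)))) (g := G) c h7 h6
  have h9 : (G ∘ fun c' => (c', Z + adjR V W A (ψ (c', Z)))) =ᶠ[𝓝 c] fun _ => (0 : W) := by
    filter_upwards [h2] with c' hc'
    exact hc'
  have h10 := h8.unique ((hasFDerivAt_const (0 : W) c).congr_of_eventuallyEq h9)
  have h11 : ∀ h : E, (fderiv ℂ G (c, p)) (h, 0) + (D2 G (c, p)) (adjR V W A (f' h)) = 0 := by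
    intro h
    have h12 := congrArg (fun L : E →L[ℝ] W => L h) h10
    simp only [ContinuousLinearMap.comp_apply, ContinuousLinearMap.prod_apply,
      ContinuousLinearMap.id_apply, ContinuousLinearMap.coe_restrictScalars',
      zero_apply] at h12
    rw [D2, ContinuousLinearMap.comp_apply, ← map_add]
    simpa using h12
  have h13 : ∀ h : E, f' (Complex.I • h) = Complex.I • f' h := by
    intro h
    apply h3
    have ha := h11 (Complex.I • h)
    have hb := h11 h
    have hc : (fderiv ℂ G (c, p)) (Complex.I • h, 0) =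
        Complex.I • (fderiv ℂ G (c, p)) (h, 0) := by
      rw [← map_smul]; simp
    rw [hc] at ha
    have hd : (D2 G (c, p)) (adjR V W A (f' (Complex.I • h))) =
        Complex.I • (D2 G (c, p)) (adjR V W A (f' h)) := by
      rw [eq_neg_of_add_eq_zero_right ha, eq_neg_of_add_eq_zero_right hb, smul_neg]
    have he : ((D2 G (c, p)).comp (adjR V W A)) (Complex.I • f' h) =
        Complex.I • (D2 G (c, p)) (adjR V W A (f' h)) := by
      rw [ContinuousLinearMap.comp_apply, map_smul, map_smul]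
    rw [he, ← hd, ContinuousLinearMap.comp_apply]
  let fC : E →L[ℂ] W :=
    { toFun := f', map_add' := f'.map_add, map_smul' := real_to_complex_map h13,
      cont := f'.continuous }
  have h15 : HasFDerivAt (𝕜 := ℂ) (fun c' => ψ (c', Z)) fC c :=
    hasFDerivAt_of_restrictScalars ℝ h5 (by ext; rfl)
  exact ((adjR V W A).hasFDerivAt.comp c h15).differentiableAt

omit [CompleteSpace E] in
theorem slice_deriv_ker {G : E × V → W} {c0 : E} {p0 : V} (hG : ContDiffAt ℂ ω G (c0, p0))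
    (hs : Function.Surjective (D2 G (c0, p0))) {ψ : E × V → W} (hψ0 : ψ (c0, p0) = 0)
    (hψd : DifferentiableAt ℝ ψ (c0, p0)) (hψe : ∀ᶠ q in 𝓝 (c0, p0), KK G c0 (q, ψ q) = 0)
    {x : V} (hx : D2 G (c0, p0) x = 0) : fderiv ℝ ψ (c0, p0) (0, x) = 0 := by
  have hK : ContDiffAt ℝ ω (KK G c0) ((c0, p0), 0) := contDiffAt_KK hG (by simpa using hG)
  have hKf : HasFDerivAt (KK G c0) (fderiv ℝ (KK G c0) ((c0, p0), 0)) ((c0, p0), ψ (c0, p0)) := by
    rw [hψ0]; exact (hK.differentiableAt (by simp)).hasFDerivAt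
  have h1 : HasFDerivAt (fun q : E × V => (q, ψ q))
      ((ContinuousLinearMap.id ℝ (E × V)).prod (fderiv ℝ ψ (c0, p0))) (c0, p0) :=
    (hasFDerivAt_id _).prodMk hψd.hasFDerivAt
  have h2 := HasFDerivAt.comp (f := fun q : E × V => (q, ψ q)) (g := KK G c0) (c0, p0) hKf h1
  have h3 : (KK G c0 ∘ fun q : E × V => (q, ψ q)) =ᶠ[𝓝 (c0, p0)] fun _ => (0 : W) := hψe
  have h4 := h2.unique ((hasFDerivAt_const (0 : W) (c0, p0)).congr_of_eventuallyEq h3)
  have h5 := congrArg (fun L : E × V →L[ℝ] W => L (0, x)) h4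
  simp only [ContinuousLinearMap.comp_apply, ContinuousLinearMap.prod_apply,
    ContinuousLinearMap.id_apply, zero_apply] at h5
  have h6 : (((0, x), fderiv ℝ ψ (c0, p0) (0, x)) : (E × V) × W) =
      ((0, x), 0) + (0, fderiv ℝ ψ (c0, p0) (0, x)) := by simp
  rw [h6, map_add, fderiv_KK_inl hG, hx, zero_add] at h5
  have h7 := congrArg (fun L : W →L[ℝ] W => L (fderiv ℝ ψ (c0, p0) (0, x))) (fderiv_KK_inr hG)
  simp only [ContinuousLinearMap.comp_apply, ContinuousLinearMap.inr_apply,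
    ContinuousLinearMap.coe_restrictScalars'] at h7
  rw [h5] at h7
  exact gram_inj hs h7.symm

omit [CompleteSpace E] in
theorem slice_deriv_v {G : E × V → W} {c0 : E} {p0 : V} (hG : ContDiffAt ℂ ω G (c0, p0))
    {ψ : E × V → W} (hψ0 : ψ (c0, p0) = 0)
    (hψd : DifferentiableAt ℝ ψ (c0, p0)) {y : E × V} (h1 : fderiv ℝ ψ (c0, p0) y = 0) :
    fderiv ℝ (fun q : E × V => adjR V W (D2 G (c0, q.2)) (ψ q)) (c0, p0) y = 0 := by
  have hadj : DifferentiableAt ℝ (fun q : E × V =>
      ContinuousLinearMap.restrictScalarsL ℂ W V ℝ ℝ (adjR V W (D2 G (c0, q.2)))) (c0, p0) := by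
    have h0 : ContDiffAt ℝ ω (D2 G) (c0, p0) := (contDiffAt_D2 hG).restrict_scalars ℝ
    have h1 : ContDiffAt ℝ ω (fun q : E × V => D2 G (c0, q.2)) (c0, p0) := by
      have : ContDiffAt ℝ ω (fun q : E × V => (c0, q.2)) (c0, p0) := by fun_prop
      exact h0.comp (c0, p0) this
    have h2 : ContDiffAt ℝ ω (fun q : E × V => adjR V W (D2 G (c0, q.2))) (c0, p0) :=
      (adjR V W).contDiff.contDiffAt.comp (c0, p0) h1
    exact ((ContinuousLinearMap.restrictScalarsL ℂ W V ℝ ℝ).contDiff.contDiffAt.comp (c0, p0)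
      h2).differentiableAt (by simp)
  have h4 := hadj.hasFDerivAt.clm_apply hψd.hasFDerivAt
  have h5 : fderiv ℝ (fun q : E × V => adjR V W (D2 G (c0, q.2)) (ψ q)) (c0, p0) = _ :=
    HasFDerivAt.fderiv h4
  rw [h5]
  simp [hψ0, h1]

/-- Local slice theorem. -/
theorem exists_slice {G : E × V → W} {c0 : E} {p0 : V} (hG : ContDiffAt ℂ ω G (c0, p0))
    (h0 : G (c0, p0) = 0) (hs : Function.Surjective (D2 G (c0, p0))) :
    ∃ v : E × V → V, v (c0, p0) = 0 ∧ ContDiffAt ℝ ω v (c0, p0) ∧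
      (∀ᶠ q in 𝓝 (c0, p0), G (q.1, q.2 + v q) = 0) ∧
      (∀ᶠ q in 𝓝 (c0, p0), ∀ x, D2 G (c0, q.2) x = 0 → ⟪x, v q⟫_ℂ = 0) ∧
      (∀ᶠ q in 𝓝 (((c0, p0), 0) : (E × V) × V), G (q.1.1, q.1.2 + q.2) = 0 →
        (∀ x, D2 G (c0, q.1.2) x = 0 → ⟪x, q.2⟫_ℂ = 0) → q.2 = v q.1) ∧
      (∀ᶠ q in 𝓝 (c0, p0), DifferentiableAt ℂ (fun c => v (c, q.2)) q.1) ∧
      (∀ x, D2 G (c0, p0) x = 0 → fderiv ℝ v (c0, p0) (0, x) = 0) := by
  have hVc := FiniteDimensional.complete ℂ V
  have hWc := FiniteDimensional.complete ℂ W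
  have hK : ContDiffAt ℝ ω (KK G c0) ((c0, p0), 0) := contDiffAt_KK hG (by simpa using hG)
  have hinv : ((fderiv ℝ (KK G c0) ((c0, p0), 0)).comp
      (ContinuousLinearMap.inr ℝ (E × V) W)).IsInvertible := by
    rw [fderiv_KK_inr hG]
    obtain ⟨e, he⟩ := gram_isInvertible hs
    exact ⟨e.restrictScalars ℝ, by rw [← he]; rfl⟩
  have hω : (ω : WithTop ℕ∞) ≠ 0 := by simp
  set ψ : E × V → W := hK.implicitFunction hω hinv with hψ
  have hK0 : KK G c0 ((c0, p0), 0) = 0 := by simp [KK, h0]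
  have hψ0 : ψ (c0, p0) = 0 := hK.implicitFunction_apply_self hω hinv
  have hψc : ContDiffAt ℝ ω ψ (c0, p0) := hK.contDiffAt_implicitFunction hω hinv
  have hψe : ∀ᶠ q in 𝓝 (c0, p0), KK G c0 (q, ψ q) = 0 := by
    have := hK.eventually_apply_implicitFunction hω hinv
    rw [hK0] at this
    exact this
  have hψu : ∀ᶠ q in 𝓝 (((c0, p0), 0) : (E × V) × W), KK G c0 q = 0 ↔ ψ q.1 = q.2 := by
    have := hK.eventually_apply_eq_iff_implicitFunction hω hinv
    rw [hK0] at this
    exact this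
  -- the slice function
  let v : E × V → V := fun q => adjR V W (D2 G (c0, q.2)) (ψ q)
  have hvc : ContDiffAt ℝ ω v (c0, p0) := by
    have h1 : ContDiffAt ℝ ω (fun q : (E × V) × W => adjR V W (D2 G (c0, q.1.2)) q.2)
        ((c0, p0), ψ (c0, p0)) := contDiffAt_arg (by simpa using hG)
    have h2 : ContDiffAt ℝ ω (fun q : E × V => (q, ψ q)) (c0, p0) := by fun_prop
    exact h1.comp (f := fun q : E × V => (q, ψ q)) (c0, p0) h2
  have hv0 : v (c0, p0) = 0 := by simp [v, hψ0]
  -- continuity data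
  have hGe : ∀ᶠ q in 𝓝 (c0, p0), ContDiffAt ℂ ω G q := hG.eventually (by simp)
  have htc : Tendsto (fun q : E × V => (c0, q.2)) (𝓝 (c0, p0)) (𝓝 (c0, p0)) := by
    have : Continuous (fun q : E × V => (c0, q.2)) := by fun_prop
    exact this.tendsto' _ _ rfl
  have htv : Tendsto (fun q : E × V => (q.1, q.2 + v q)) (𝓝 (c0, p0)) (𝓝 (c0, p0)) := by
    have h1 : ContinuousAt (fun q : E × V => (q.1, q.2 + v q)) (c0, p0) :=
      continuousAt_fst.prodMk (continuousAt_snd.add hvc.continuousAt)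
    have h2 : (fun q : E × V => (q.1, q.2 + v q)) (c0, p0) = (c0, p0) := by simp [hv0]
    have h3 := h1.tendsto
    simp only [hv0, add_zero] at h3
    exact h3
  have hD2c : ContinuousAt (D2 G) (c0, p0) := (contDiffAt_D2 hG).continuousAt
  have hadjc : Tendsto (fun q : E × V => adjR V W (D2 G (c0, q.2))) (𝓝 (c0, p0))
      (𝓝 (adjR V W (D2 G (c0, p0)))) :=
    ((adjR V W).continuous.tendsto _).comp (hD2c.tendsto.comp htc)
  have hcomp : Continuous (fun p : (V →L[ℂ] W) × (W →L[ℂ] V) => p.1.comp p.2) :=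
    continuous_fst.clm_comp continuous_snd
  have happV : Continuous (fun p : (V →L[ℂ] W) × V => p.1 p.2) :=
    continuous_fst.clm_apply continuous_snd
  have happW : Continuous (fun p : (W →L[ℂ] W) × W => p.1 p.2) :=
    continuous_fst.clm_apply continuous_snd
  have hgramc : Tendsto (fun q : E × V => gram (D2 G (c0, q.2))) (𝓝 (c0, p0))
      (𝓝 (gram (D2 G (c0, p0)))) :=
    (hcomp.tendsto (D2 G (c0, p0), adjR V W (D2 G (c0, p0)))).comp
      ((hD2c.tendsto.comp htc).prodMk_nhds hadjc)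
  obtain ⟨eB, heB⟩ := gram_isInvertible hs
  have hopen : range ((↑) : (W ≃L[ℂ] W) → W →L[ℂ] W) ∈ 𝓝 (gram (D2 G (c0, p0))) := by
    rw [← heB]; exact eB.nhds
  have hgraminv : ∀ᶠ q in 𝓝 (c0, p0), (gram (D2 G (c0, q.2))).IsInvertible := by
    filter_upwards [hgramc hopen] with q hq
    exact hq
  have hBc : Tendsto (fun q : E × V => (D2 G (q.1, q.2 + v q)).comp
      (adjR V W (D2 G (c0, q.2)))) (𝓝 (c0, p0)) (𝓝 (gram (D2 G (c0, p0)))) :=
    (hcomp.tendsto (D2 G (c0, p0), adjR V W (D2 G (c0, p0)))).comp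
      ((hD2c.tendsto.comp htv).prodMk_nhds hadjc)
  have hBinv : ∀ᶠ q in 𝓝 (c0, p0), Function.Injective ((D2 G (q.1, q.2 + v q)).comp
      (adjR V W (D2 G (c0, q.2)))) := by
    filter_upwards [hBc hopen] with q hq
    obtain ⟨e, he⟩ := hq
    intro a b hab
    have he' : (e : W →L[ℂ] W) = (D2 G (q.1, q.2 + v q)).comp (adjR V W (D2 G (c0, q.2))) := he
    rw [← he'] at hab
    exact e.injective hab
  refine ⟨v, hv0, hvc, ?_, ?_, ?_, ?_, ?_⟩
  · filter_upwards [hψe] with q hq
    exact hq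
  · exact Eventually.of_forall fun q x hx => adj_perp _ hx
  · -- uniqueness
    have h1 : Tendsto (fun q : (E × V) × V => gram (D2 G (c0, q.1.2)))
        (𝓝 ((c0, p0), 0)) (𝓝 (gram (D2 G (c0, p0)))) :=
      hgramc.comp (continuous_fst.tendsto' _ _ rfl)
    have h2 : Tendsto (fun q : (E × V) × V => (gram (D2 G (c0, q.1.2))).inverse)
        (𝓝 ((c0, p0), 0)) (𝓝 (gram (D2 G (c0, p0))).inverse) := by
      have h3 : ContinuousAt (ContinuousLinearMap.inverse : (W →L[ℂ] W) → (W →L[ℂ] W))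
          (gram (D2 G (c0, p0))) := by
        rw [← heB]
        exact (contDiffAt_map_inverse (n := 0) eB).continuousAt
      exact h3.tendsto.comp h1
    have h4 : Tendsto (fun q : (E × V) × V => D2 G (c0, q.1.2) q.2)
        (𝓝 ((c0, p0), 0)) (𝓝 0) := by
      have h5 : Tendsto (fun q : (E × V) × V => D2 G (c0, q.1.2))
          (𝓝 ((c0, p0), 0)) (𝓝 (D2 G (c0, p0))) :=
        (hD2c.tendsto.comp htc).comp (continuous_fst.tendsto' _ _ rfl)
      have h6 : Tendsto (fun q : (E × V) × V => q.2) (𝓝 ((c0, p0), 0)) (𝓝 0) :=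
        continuous_snd.tendsto' _ _ rfl
      have := (happV.tendsto (D2 G (c0, p0), 0)).comp (h5.prodMk_nhds h6)
      simp only [map_zero] at this
      exact this
    have h7 : Tendsto (fun q : (E × V) × V =>
        (q.1, (gram (D2 G (c0, q.1.2))).inverse (D2 G (c0, q.1.2) q.2)))
        (𝓝 ((c0, p0), 0)) (𝓝 ((c0, p0), 0)) := by
      have h8 := (happW.tendsto ((gram (D2 G (c0, p0))).inverse, 0)).comp (h2.prodMk_nhds h4)
      rw [map_zero] at h8
      exact (continuous_fst.tendsto' _ _ rfl).prodMk_nhds h8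
    have h9 : ∀ᶠ q in 𝓝 (((c0, p0), 0) : (E × V) × V),
        (gram (D2 G (c0, q.1.2))).IsInvertible :=
      (continuous_fst.tendsto' (((c0, p0), 0) : (E × V) × V) (c0, p0) rfl).eventually hgraminv
    filter_upwards [h7.eventually hψu, h9] with q hq1 hq2 hq3 hq4
    set A := D2 G (c0, q.1.2) with hA
    set w := (gram A).inverse (A q.2) with hw
    have hgw : gram A w = A q.2 := by
      obtain ⟨e, he⟩ := hq2
      rw [hw, ← he, ContinuousLinearMap.inverse_equiv]
      simp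
    have hu : q.2 = adjR V W A w := exists_adj hq4 hgw
    have hKq : KK G c0 (q.1, w) = 0 := by
      simp only [KK]
      rw [← hA, ← hu]
      exact hq3
    have h10 : ψ q.1 = w := hq1.mp hKq
    change q.2 = adjR V W (D2 G (c0, q.1.2)) (ψ q.1)
    rw [h10]
    exact hu
  · -- holomorphic in the parameter
    have hψd : ∀ᶠ q in 𝓝 (c0, p0), DifferentiableAt ℝ ψ q := by
      filter_upwards [hψc.eventually (by simp)] with q hq
      exact hq.differentiableAt (by simp)
    filter_upwards [hψd, hψe.eventually_nhds, hBinv, htv.eventually hGe] with q h1 h2 h3 h4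
    obtain ⟨c, Z⟩ := q
    refine holo_param (ψ := ψ) (A := D2 G (c0, Z)) h1 ?_ h3 (h4.differentiableAt (by simp))
    have : Tendsto (fun c' : E => (c', Z)) (𝓝 c) (𝓝 (c, Z)) :=
      (Continuous.tendsto' (by fun_prop) _ _ rfl)
    filter_upwards [this.eventually h2] with c' hc'
    exact hc'
  · -- derivative along the kernel
    intro x hx
    exact slice_deriv_v hG hψ0 (hψc.differentiableAt (by simp))
      (slice_deriv_ker hG hs hψ0 (hψc.differentiableAt (by simp)) hψe hx)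

end

end Crest.Agent.R281.Ehr1_268
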