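import Crest.Agent.R281.HkR2_835
import Crest.Agent.R281.Ehr1_268

/-!
# R281 (S0424), B4-EHR (helper268), part 2: a family of embedded members on ONE manifold

* `HEmb C H`  : homogeneous coordinates `u i : V → H` of an injective immersion of the real manifold
                `(X, C : RCh V X)` into the projective space of `H`
* `ConeMap`   : output of EHR-LOC (helper461): equivariant maps `Φ c : 𝒞_(c0) → 𝒞_c`, `Ψ c` inverse,
                with local smooth extensions, holomorphic in `c`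
* `HEmb.fam`  : `u_c i z = Φ c (u i z)`; smooth in `(c,z)`, holomorphic in `c`, SAME transition
                scalars, injective, immersive, image cone `= 𝒞_c`, complex tangent spaces
-/

set_option autoImplicit false
set_option linter.unusedSectionVars false

open Set Filter Topology Complex
open scoped ContDiff

namespace Crest.Agent.R281.Ehr2_268

open Crest.Agent.R281.HkR_835 Crest.Agent.R281.Ehr1_268

noncomputable section

variable {V X : Type} [NormedAddCommGroup V] [NormedSpace ℝ V] [TopologicalSpace X]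

/-- homogeneous coordinates of an injective immersion into a projective space -/
structure HEmb (C : RCh V X) (H : Type) [NormedAddCommGroup H] [NormedSpace ℂ H] where
  u : C.ι → V → H
  sm : ∀ i, ContDiffOn ℝ ∞ (u i) (C.e i).target
  ne : ∀ i, ∀ z ∈ (C.e i).target, u i z ≠ 0
  tr : ∀ i j, ∀ z ∈ C.ov i j, ∃ a : ℂ, u i z = a • u j (C.t i j z)
  inj : ∀ i j, ∀ z ∈ (C.e i).target, ∀ z' ∈ (C.e j).target, (∃ a : ℂ, u i z = a • u j z') →
    (C.e i).symm z = (C.e j).symm z'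
  imm : ∀ i, ∀ z ∈ (C.e i).target, ∀ v : V, (∃ a : ℂ, fderiv ℝ (u i) z v = a • u i z) → v = 0

/-- the tangent spaces of the image are complex -/
def HEmb.Cx {C : RCh V X} {H : Type} [NormedAddCommGroup H] [NormedSpace ℂ H] (P : HEmb C H) :
    Prop :=
  ∀ i, ∀ z ∈ (C.e i).target, ∀ v : V, ∃ (w : V) (a : ℂ),
    I • fderiv ℝ (P.u i) z v = fderiv ℝ (P.u i) z w + a • P.u i z

/-- the cone over the image -/
def HEmb.cone {C : RCh V X} {H : Type} [NormedAddCommGroup H] [NormedSpace ℂ H] (P : HEmb C H) :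
    Set H :=
  {w | ∃ i, ∃ z ∈ (C.e i).target, ∃ a : ℂ, a ≠ 0 ∧ w = a • P.u i z}

variable {E : Type} [NormedAddCommGroup E] [NormedSpace ℂ E]
variable {H : Type} [NormedAddCommGroup H] [NormedSpace ℂ H]

/-- output of EHR-LOC -/
structure ConeMap (S : Set (E × H)) (c0 : E) (r : ℝ) (Φ Ψ : E → H → H) : Prop where
  hr : 0 < r
  ne : ∀ q ∈ S, q.2 ≠ 0
  cone : ∀ q ∈ S, ∀ a : ℂ, a ≠ 0 → (q.1, a • q.2) ∈ S
  id0 : ∀ w, (c0, w) ∈ S → Φ c0 w = w
  hom : ∀ c ∈ Metric.ball c0 r, ∀ w, (c0, w) ∈ S → ∀ a : ℂ, a ≠ 0 → Φ c (a • w) = a • Φ c w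
  maps : ∀ c ∈ Metric.ball c0 r, ∀ w, (c0, w) ∈ S → (c, Φ c w) ∈ S
  maps' : ∀ c ∈ Metric.ball c0 r, ∀ w, (c, w) ∈ S → (c0, Ψ c w) ∈ S
  left : ∀ c ∈ Metric.ball c0 r, ∀ w, (c0, w) ∈ S → Ψ c (Φ c w) = w
  right : ∀ c ∈ Metric.ball c0 r, ∀ w, (c, w) ∈ S → Φ c (Ψ c w) = w
  ext : ∀ c1 ∈ Metric.ball c0 r, ∀ w1, (c0, w1) ∈ S → ∃ F : E × H → H,
    ContDiffAt ℝ ω F (c1, w1) ∧
    (∀ᶠ q in 𝓝 (c1, w1), (c0, q.2) ∈ S → F q = Φ q.1 q.2) ∧
    (∀ᶠ q in 𝓝 (c1, w1), DifferentiableAt ℂ (fun c => F (c, q.2)) q.1)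
  ext' : ∀ c1 ∈ Metric.ball c0 r, ∀ w1, (c1, w1) ∈ S → ∃ F : E × H → H,
    ContDiffAt ℝ ω F (c1, w1) ∧ ∀ᶠ q in 𝓝 (c1, w1), q ∈ S → F q = Ψ q.1 q.2

/-- local equations of codimension `k` -/
def LocEq (S : Set (E × H)) (k : ℕ) (q : E × H) : Prop :=
  ∃ h : E × H → EuclideanSpace ℂ (Fin k), DifferentiableAt ℂ h q ∧
    Function.Surjective ((fderiv ℂ h q).comp (ContinuousLinearMap.inr ℂ E H)) ∧
    ∀ᶠ p in 𝓝 q, p ∈ S ↔ h p = 0

namespace ConeMap

variable {S : Set (E × H)} {c0 : E} {r : ℝ} {Φ Ψ : E → H → H} (hM : ConeMap S c0 r Φ Ψ)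
include hM

theorem hom' {c : E} (hc : c ∈ Metric.ball c0 r) {w : H} (hw : (c, w) ∈ S) {a : ℂ} (ha : a ≠ 0) :
    Ψ c (a • w) = a • Ψ c w := by
  have h1 := hM.maps' c hc w hw
  have h2 := hM.hom c hc _ h1 a ha
  rw [hM.right c hc w hw] at h2
  have h3 := hM.left c hc _ (hM.cone _ h1 a ha)
  rw [h2] at h3
  exact h3

end ConeMap

variable {C : RCh V X} (P : HEmb C H) {S : Set (E × H)} {c0 : E} {r : ℝ} {Φ Ψ : E → H → H}

theorem HEmb.tr' {i j : C.ι} {z : V} (hz : z ∈ C.ov i j) :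
    ∃ a : ℂ, a ≠ 0 ∧ P.u i z = a • P.u j (C.t i j z) := by
  obtain ⟨a, ha⟩ := P.tr i j z hz
  refine ⟨a, ?_, ha⟩
  rintro rfl
  rw [zero_smul] at ha
  exact P.ne i z hz.1 ha

theorem HEmb.mem_cone {i : C.ι} {z : V} (hz : z ∈ (C.e i).target) : P.u i z ∈ P.cone :=
  ⟨i, z, hz, 1, one_ne_zero, (one_smul ℂ _).symm⟩

/-- the moved homogeneous coordinates -/
def HEmb.fam (P : HEmb C H) (Φ : E → H → H) (i : C.ι) (c : E) (z : V) : H := Φ c (P.u i z)

section Fam

variable (hM : ConeMap S c0 r Φ Ψ) (hP : ∀ w, (c0, w) ∈ S ↔ w ∈ P.cone)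
include hM hP

theorem mem_S {i : C.ι} {z : V} (hz : z ∈ (C.e i).target) : (c0, P.u i z) ∈ S :=
  (hP _).mpr (P.mem_cone hz)

theorem fam_mem {i : C.ι} {c : E} (hc : c ∈ Metric.ball c0 r) {z : V}
    (hz : z ∈ (C.e i).target) : (c, P.fam Φ i c z) ∈ S :=
  hM.maps c hc _ (mem_S P hM hP hz)

theorem fam_ne {i : C.ι} {c : E} (hc : c ∈ Metric.ball c0 r) {z : V}
    (hz : z ∈ (C.e i).target) : P.fam Φ i c z ≠ 0 :=
  hM.ne _ (fam_mem P hM hP hc hz)

theorem fam_id {i : C.ι} {z : V} (hz : z ∈ (C.e i).target) : P.fam Φ i c0 z = P.u i z :=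
  hM.id0 _ (mem_S P hM hP hz)

/-- same transition scalars for all parameters -/
theorem fam_tr {i j : C.ι} {z : V} (hz : z ∈ C.ov i j) :
    ∃ a : ℂ, a ≠ 0 ∧ ∀ c ∈ Metric.ball c0 r, P.fam Φ i c z = a • P.fam Φ j c (C.t i j z) := by
  obtain ⟨a, ha, h⟩ := P.tr' hz
  refine ⟨a, ha, fun c hc => ?_⟩
  simp only [HEmb.fam]
  rw [h]
  exact hM.hom c hc _ (mem_S P hM hP (RCh.t_mem hz).1) a ha

theorem fam_inj {i j : C.ι} {c : E} (hc : c ∈ Metric.ball c0 r) {z : V}
    (hz : z ∈ (C.e i).target) {z' : V} (hz' : z' ∈ (C.e j).target)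
    (h : ∃ a : ℂ, P.fam Φ i c z = a • P.fam Φ j c z') : (C.e i).symm z = (C.e j).symm z' := by
  obtain ⟨a, ha⟩ := h
  have ha0 : a ≠ 0 := by
    rintro rfl
    rw [zero_smul] at ha
    exact fam_ne P hM hP hc hz ha
  refine P.inj i j z hz z' hz' ⟨a, ?_⟩
  have h1 : P.fam Φ i c z = Φ c (a • P.u j z') := by
    rw [ha]; exact (hM.hom c hc _ (mem_S P hM hP hz') a ha0).symm
  have h2 := congrArg (Ψ c) h1
  simp only [HEmb.fam] at h2
  rw [hM.left c hc _ (mem_S P hM hP hz),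
    hM.left c hc _ (hM.cone _ (mem_S P hM hP hz') a ha0)] at h2
  exact h2

/-- the image cone is the fibre of the family -/
theorem fam_cone {c : E} (hc : c ∈ Metric.ball c0 r) (w : H) :
    (c, w) ∈ S ↔ ∃ i, ∃ z ∈ (C.e i).target, ∃ a : ℂ, a ≠ 0 ∧ w = a • P.fam Φ i c z := by
  constructor
  · intro hw
    obtain ⟨i, z, hz, a, ha, h⟩ := (hP _).mp (hM.maps' c hc w hw)
    refine ⟨i, z, hz, a, ha, ?_⟩
    rw [← hM.right c hc w hw, h]
    exact hM.hom c hc _ (mem_S P hM hP hz) a ha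
  · rintro ⟨i, z, hz, a, ha, rfl⟩
    exact hM.cone _ (fam_mem P hM hP hc hz) a ha

/-- joint smoothness, any order `n ≤ ω` that `u` has -/
theorem fam_contDiffAt {n : WithTop ℕ∞} {i : C.ι} {c : E} (hc : c ∈ Metric.ball c0 r) {z : V}
    (hz : z ∈ (C.e i).target) (hu : ContDiffAt ℝ n (P.u i) z) :
    ContDiffAt ℝ n (fun p : E × V => P.fam Φ i p.1 p.2) (c, z) := by
  obtain ⟨F, hF, hFe, -⟩ := hM.ext c hc _ (mem_S P hM hP hz)
  have h1 : ContDiffAt ℝ n (fun p : E × V => (p.1, P.u i p.2)) (c, z) :=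
    contDiffAt_fst.prodMk (hu.comp (c, z) contDiffAt_snd)
  have h2 : ContDiffAt ℝ n (fun p : E × V => F (p.1, P.u i p.2)) (c, z) :=
    (hF.of_le le_top).comp (f := fun p : E × V => (p.1, P.u i p.2)) (c, z) h1
  refine h2.congr_of_eventuallyEq ?_
  have h3 : Tendsto (fun p : E × V => (p.1, P.u i p.2)) (𝓝 (c, z)) (𝓝 (c, P.u i z)) :=
    continuousAt_fst.prodMk (hu.continuousAt.comp (x := (c, z)) continuousAt_snd)
  have h4 : ∀ᶠ p : E × V in 𝓝 (c, z), p.2 ∈ (C.e i).target :=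
    continuousAt_snd.eventually ((C.e i).open_target.mem_nhds hz)
  filter_upwards [h3.eventually hFe, h4] with p hp1 hp2
  exact (hp1 (mem_S P hM hP hp2)).symm

theorem fam_smooth (i : C.ι) :
    ContDiffOn ℝ ∞ (fun p : E × V => P.fam Φ i p.1 p.2)
      (Metric.ball c0 r ×ˢ (C.e i).target) := fun p hp =>
  (fam_contDiffAt P hM hP (c := p.1) (z := p.2) hp.1 hp.2
    ((P.sm i).contDiffAt ((C.e i).open_target.mem_nhds hp.2))).contDiffWithinAt

/-- holomorphic in the parameter -/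
theorem fam_holo {i : C.ι} {c : E} (hc : c ∈ Metric.ball c0 r) {z : V}
    (hz : z ∈ (C.e i).target) : DifferentiableAt ℂ (fun c => P.fam Φ i c z) c := by
  obtain ⟨F, hF, hFe, hFh⟩ := hM.ext c hc _ (mem_S P hM hP hz)
  refine (hFh.self_of_nhds).congr_of_eventuallyEq ?_
  have h3 : Tendsto (fun c' : E => (c', P.u i z)) (𝓝 c) (𝓝 (c, P.u i z)) :=
    Continuous.tendsto' (by fun_prop) _ _ rfl
  filter_upwards [h3.eventually hFe] with c' hc'
  exact (hc' (mem_S P hM hP hz)).symm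

theorem fam_imm {i : C.ι} {c : E} (hc : c ∈ Metric.ball c0 r) {z : V}
    (hz : z ∈ (C.e i).target) {v : V}
    (h : ∃ a : ℂ, fderiv ℝ (P.fam Φ i c) z v = a • P.fam Φ i c z) : v = 0 := by
  obtain ⟨a, ha⟩ := h
  have hu : ContDiffAt ℝ ∞ (P.u i) z := (P.sm i).contDiffAt ((C.e i).open_target.mem_nhds hz)
  have hU : ContDiffAt ℝ ∞ (fun p : E × V => P.fam Φ i p.1 p.2) (c, z) :=
    fam_contDiffAt P hM hP hc hz hu
  have hUz : DifferentiableAt ℝ (P.fam Φ i c) z := by
    have h1 : ContDiffAt ℝ ∞ (fun y : V => (c, y)) z := by fun_prop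
    exact (hU.comp (f := fun y : V => (c, y)) z h1).differentiableAt (by simp)
  obtain ⟨F, hF, hFe⟩ := hM.ext' c hc _ (fam_mem P hM hP hc hz)
  have hFd : HasFDerivAt F (fderiv ℝ F (c, P.fam Φ i c z)) (c, P.fam Φ i c z) :=
    (hF.differentiableAt (by simp)).hasFDerivAt
  -- `F (c, U) = u`
  have h1 : HasFDerivAt (fun y => F (c, P.fam Φ i c y))
      ((fderiv ℝ F (c, P.fam Φ i c z)).comp ((ContinuousLinearMap.inr ℝ E H).comp
        (fderiv ℝ (P.fam Φ i c) z))) z := by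
    have ha : HasFDerivAt (fun y => (c, P.fam Φ i c y))
        ((ContinuousLinearMap.inr ℝ E H).comp (fderiv ℝ (P.fam Φ i c) z)) z :=
      HasFDerivAt.comp (f := P.fam Φ i c) (g := fun w : H => (c, w)) z
        (hasFDerivAt_prodMk_right _ _) hUz.hasFDerivAt
    exact HasFDerivAt.comp (f := fun y => (c, P.fam Φ i c y)) (g := F) z hFd ha
  have h2 : (fun y => F (c, P.fam Φ i c y)) =ᶠ[𝓝 z] P.u i := by
    have h3 : Tendsto (fun y => (c, P.fam Φ i c y)) (𝓝 z) (𝓝 (c, P.fam Φ i c z)) :=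
      (continuousAt_const.prodMk hUz.continuousAt)
    filter_upwards [h3.eventually hFe, (C.e i).open_target.mem_nhds hz] with y hy1 hy2
    rw [hy1 (fam_mem P hM hP hc hy2)]
    exact hM.left c hc _ (mem_S P hM hP hy2)
  have h4 : fderiv ℝ (P.u i) z v = fderiv ℝ F (c, P.fam Φ i c z) (0, a • P.fam Φ i c z) := by
    have h5 := (h1.congr_of_eventuallyEq h2.symm).fderiv
    rw [h5]
    simp [ha]
  -- derivative along the ray
  have h6 : HasDerivAt (fun s : ℝ => F (c, (1 + (s : ℂ) * a) • P.fam Φ i c z))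
      (fderiv ℝ F (c, P.fam Φ i c z) (0, a • P.fam Φ i c z)) 0 := by
    have h7 : HasDerivAt (fun s : ℝ => (c, (1 + (s : ℂ) * a) • P.fam Φ i c z))
        ((0 : E), a • P.fam Φ i c z) 0 := by
      refine (hasDerivAt_const _ _).prodMk ?_
      have h8 : HasDerivAt (fun s : ℝ => (1 + (s : ℂ) * a)) a 0 := by
        have := ((Complex.ofRealCLM.hasDerivAt (x := (0 : ℝ))).mul_const a).const_add 1
        simpa using this
      exact h8.smul_const _
    have h9 : HasFDerivAt F (fderiv ℝ F (c, P.fam Φ i c z))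
        ((fun s : ℝ => (c, (1 + (s : ℂ) * a) • P.fam Φ i c z)) 0) := by
      simpa using hFd
    exact h9.comp_hasDerivAt (0 : ℝ) h7
  have h10 : (fun s : ℝ => F (c, (1 + (s : ℂ) * a) • P.fam Φ i c z)) =ᶠ[𝓝 0]
      fun s : ℝ => (1 + (s : ℂ) * a) • P.u i z := by
    have h11 : Tendsto (fun s : ℝ => (c, (1 + (s : ℂ) * a) • P.fam Φ i c z)) (𝓝 0)
        (𝓝 (c, P.fam Φ i c z)) := by
      have : Continuous (fun s : ℝ => (c, (1 + (s : ℂ) * a) • P.fam Φ i c z)) := by fun_prop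
      exact this.tendsto' _ _ (by simp)
    have h12 : ∀ᶠ s : ℝ in 𝓝 0, (1 + (s : ℂ) * a) ≠ 0 := by
      have : Continuous (fun s : ℝ => (1 + (s : ℂ) * a)) := by fun_prop
      exact (this.tendsto' 0 1 (by simp)).eventually_ne one_ne_zero
    filter_upwards [h11.eventually hFe, h12] with s hs1 hs2
    have h13 := fam_mem P hM hP hc hz
    rw [hs1 (hM.cone _ h13 _ hs2), hM.hom' hc h13 hs2]
    congr 1
    exact hM.left c hc _ (mem_S P hM hP hz)
  have h14 : HasDerivAt (fun s : ℝ => (1 + (s : ℂ) * a) • P.u i z) (a • P.u i z) 0 := by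
    have h8 : HasDerivAt (fun s : ℝ => (1 + (s : ℂ) * a)) a 0 := by
      have := ((Complex.ofRealCLM.hasDerivAt (x := (0 : ℝ))).mul_const a).const_add 1
      simpa using this
    exact h8.smul_const _
  have h15 := (h6.congr_of_eventuallyEq h10.symm).unique h14
  exact P.imm i z hz v ⟨a, by rw [h4, h15]⟩

theorem fam_diff {i : C.ι} {c : E} (hc : c ∈ Metric.ball c0 r) {z : V}
    (hz : z ∈ (C.e i).target) : DifferentiableAt ℝ (P.fam Φ i c) z := by
  have hu : ContDiffAt ℝ ∞ (P.u i) z := (P.sm i).contDiffAt ((C.e i).open_target.mem_nhds hz)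
  have hU : ContDiffAt ℝ ∞ (fun p : E × V => P.fam Φ i p.1 p.2) (c, z) :=
    fam_contDiffAt P hM hP hc hz hu
  have h1 : ContDiffAt ℝ ∞ (fun y : V => (c, y)) z := by fun_prop
  exact (hU.comp (f := fun y : V => (c, y)) z h1).differentiableAt (by simp)

/-- the member at the parameter `c`, on the same manifold -/
def famEmb {c : E} (hc : c ∈ Metric.ball c0 r) : HEmb C H where
  u i z := P.fam Φ i c z
  sm i := fun z hz => by
    have hu : ContDiffAt ℝ ∞ (P.u i) z := (P.sm i).contDiffAt ((C.e i).open_target.mem_nhds hz)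
    have hU : ContDiffAt ℝ ∞ (fun p : E × V => P.fam Φ i p.1 p.2) (c, z) :=
      fam_contDiffAt P hM hP hc hz hu
    have h1 : ContDiffAt ℝ ∞ (fun y : V => (c, y)) z := by fun_prop
    exact (hU.comp (f := fun y : V => (c, y)) z h1).contDiffWithinAt
  ne i z hz := fam_ne P hM hP hc hz
  tr i j z hz := by
    obtain ⟨a, -, h⟩ := fam_tr P hM hP hz
    exact ⟨a, h c hc⟩
  inj i j z hz z' hz' h := fam_inj P hM hP hc hz hz' h
  imm i z hz v h := fam_imm P hM hP hc hz h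

theorem famEmb_cone {c : E} (hc : c ∈ Metric.ball c0 r) (w : H) :
    (c, w) ∈ S ↔ w ∈ (famEmb P hM hP hc).cone :=
  fam_cone P hM hP hc w

end Fam

section Cx

variable [FiniteDimensional ℂ H] [FiniteDimensional ℝ V]

/-- tangent vectors of the cone are in the kernel of the local equations; with the dimension
count, the tangent spaces are complex -/
theorem cx_of_locEq (P : HEmb C H) {c : E} (hS : ∀ w, (c, w) ∈ S ↔ w ∈ P.cone) {k : ℕ}
    (hk : Module.finrank ℝ V + 2 + 2 * k = 2 * Module.finrank ℂ H)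
    {i : C.ι} {z : V} (hz : z ∈ (C.e i).target) (hloc : LocEq S k (c, P.u i z)) (v : V) :
    ∃ (w : V) (a : ℂ), I • fderiv ℝ (P.u i) z v = fderiv ℝ (P.u i) z w + a • P.u i z := by
  have : FiniteDimensional ℝ H := FiniteDimensional.complexToReal H
  obtain ⟨h, hd, hsurj, he⟩ := hloc
  set A : H →L[ℂ] EuclideanSpace ℂ (Fin k) :=
    (fderiv ℂ h (c, P.u i z)).comp (ContinuousLinearMap.inr ℂ E H) with hA
  have hAd : HasFDerivAt (fun w => h (c, w)) (A.restrictScalars ℝ) (P.u i z) := by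
    have h1 : HasFDerivAt (𝕜 := ℂ) (fun w => h (c, w)) A (P.u i z) :=
      HasFDerivAt.comp (f := fun w : H => (c, w)) (g := h) (P.u i z)
        hd.hasFDerivAt (hasFDerivAt_prodMk_right _ _)
    exact h1.restrictScalars ℝ
  have hud : HasFDerivAt (P.u i) (fderiv ℝ (P.u i) z) z :=
    (((P.sm i).contDiffAt ((C.e i).open_target.mem_nhds hz)).differentiableAt
      (by simp)).hasFDerivAt
  -- tangent vectors of the image are in the kernel
  have hker1 : ∀ w : V, A (fderiv ℝ (P.u i) z w) = 0 := by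
    intro w
    have h1 := HasFDerivAt.comp (f := P.u i) (g := fun w => h (c, w)) z hAd hud
    have h2 : ((fun w => h (c, w)) ∘ P.u i) =ᶠ[𝓝 z] fun _ => 0 := by
      have h3 : Tendsto (fun y => (c, P.u i y)) (𝓝 z) (𝓝 (c, P.u i z)) :=
        continuousAt_const.prodMk hud.continuousAt
      filter_upwards [h3.eventually he, (C.e i).open_target.mem_nhds hz] with y hy1 hy2
      exact hy1.mp ((hS _).mpr (P.mem_cone hy2))
    have h4 := h1.unique ((hasFDerivAt_const _ z).congr_of_eventuallyEq h2)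
    have h5 := congrArg (fun L : V →L[ℝ] EuclideanSpace ℂ (Fin k) => L w) h4
    simpa using h5
  -- the ray direction too
  have hker2 : A (P.u i z) = 0 := by
    have h7 : HasDerivAt (fun s : ℝ => (1 + (s : ℂ)) • P.u i z) (P.u i z) 0 := by
      have h8 : HasDerivAt (fun s : ℝ => (1 + (s : ℂ))) 1 0 := by
        have := ((Complex.ofRealCLM.hasDerivAt (x := (0 : ℝ)))).const_add 1
        simpa using this
      simpa using h8.smul_const (P.u i z)
    have h9 : HasFDerivAt (fun w => h (c, w)) (A.restrictScalars ℝ)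
        ((fun s : ℝ => (1 + (s : ℂ)) • P.u i z) 0) := by simpa using hAd
    have h10 := h9.comp_hasDerivAt (0 : ℝ) h7
    have h11 : ((fun w => h (c, w)) ∘ fun s : ℝ => (1 + (s : ℂ)) • P.u i z) =ᶠ[𝓝 0]
        fun _ => 0 := by
      have h12 : Tendsto (fun s : ℝ => (c, (1 + (s : ℂ)) • P.u i z)) (𝓝 0)
          (𝓝 (c, P.u i z)) := by
        have : Continuous (fun s : ℝ => (c, (1 + (s : ℂ)) • P.u i z)) := by fun_prop
        exact this.tendsto' _ _ (by simp)
      have h13 : ∀ᶠ s : ℝ in 𝓝 0, (1 + (s : ℂ)) ≠ 0 := by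
        have : Continuous (fun s : ℝ => (1 + (s : ℂ))) := by fun_prop
        exact (this.tendsto' 0 1 (by simp)).eventually_ne one_ne_zero
      filter_upwards [h12.eventually he, h13] with s hs1 hs2
      refine hs1.mp ((hS _).mpr ?_)
      exact ⟨i, z, hz, _, hs2, rfl⟩
    have h14 := h10.unique ((hasDerivAt_const _ _).congr_of_eventuallyEq h11)
    simpa using h14
  -- dimension count
  let T : (V × ℂ) →ₗ[ℝ] H :=
    { toFun := fun p => fderiv ℝ (P.u i) z p.1 + p.2 • P.u i z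
      map_add' := fun p q => by simp [add_smul]; abel
      map_smul' := fun a p => by
        have h1 : (a • p).2 = (a : ℂ) * p.2 := by simp
        have h2 : (a • p).1 = a • p.1 := rfl
        rw [h1, h2, map_smul, mul_smul, RingHom.id_apply, smul_add]
        rfl }
  have hTi : LinearMap.ker T = ⊥ := by
    rw [LinearMap.ker_eq_bot']
    rintro ⟨w, a⟩ hw
    have h1 : fderiv ℝ (P.u i) z w + a • P.u i z = 0 := hw
    have h2 : w = 0 := P.imm i z hz w ⟨-a, by rw [neg_smul]; exact eq_neg_of_add_eq_zero_left h1⟩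
    subst h2
    rw [map_zero, zero_add] at h1
    have h3 : a = 0 := (smul_eq_zero.mp h1).resolve_right (P.ne i z hz)
    rw [h3]; rfl
  let K : Submodule ℝ H := (LinearMap.ker (A : H →ₗ[ℂ] EuclideanSpace ℂ (Fin k))).restrictScalars ℝ
  have hle : LinearMap.range T ≤ K := by
    rintro _ ⟨⟨w, a⟩, rfl⟩
    show A (fderiv ℝ (P.u i) z w + a • P.u i z) = 0
    rw [map_add, map_smul, hker1, hker2, smul_zero, add_zero]
  have hdimT : Module.finrank ℝ (LinearMap.range T) = Module.finrank ℝ V + 2 := by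
    rw [LinearMap.finrank_range_of_inj (LinearMap.ker_eq_bot.mp hTi), Module.finrank_prod,
      Complex.finrank_real_complex]
  have hdimK : Module.finrank ℝ K + 2 * k = 2 * Module.finrank ℂ H := by
    have h1 := LinearMap.finrank_range_add_finrank_ker (A : H →ₗ[ℂ] EuclideanSpace ℂ (Fin k))
    have h2 : LinearMap.range (A : H →ₗ[ℂ] EuclideanSpace ℂ (Fin k)) = ⊤ :=
      LinearMap.range_eq_top.mpr hsurj
    rw [h2, finrank_top, finrank_euclideanSpace, Fintype.card_fin] at h1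
    have h3 : Module.finrank ℝ K =
        2 * Module.finrank ℂ (LinearMap.ker (A : H →ₗ[ℂ] EuclideanSpace ℂ (Fin k))) :=
      finrank_real_of_complex _
    rw [h3]; omega
  have heq : LinearMap.range T = K := Submodule.eq_of_le_of_finrank_eq hle (by omega)
  have hmem : I • fderiv ℝ (P.u i) z v ∈ K := by
    show A (I • fderiv ℝ (P.u i) z v) = 0
    rw [map_smul, hker1, smul_zero]
  rw [← heq] at hmem
  obtain ⟨⟨w, a⟩, hw⟩ := hmem
  exact ⟨w, a, hw.symm⟩

theorem famEmb_cx (P : HEmb C H) (hM : ConeMap S c0 r Φ Ψ) (hP : ∀ w, (c0, w) ∈ S ↔ w ∈ P.cone)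
    {k : ℕ} (hk : Module.finrank ℝ V + 2 + 2 * k = 2 * Module.finrank ℂ H)
    {c : E} (hc : c ∈ Metric.ball c0 r) (hloc : ∀ w, (c, w) ∈ S → LocEq S k (c, w)) :
    (famEmb P hM hP hc).Cx := fun _ _ hz v =>
  cx_of_locEq (famEmb P hM hP hc) (fun w => famEmb_cone P hM hP hc w) hk hz
    (hloc _ (fam_mem P hM hP hc hz)) v

end Cx

end

end Crest.Agent.R281.Ehr2_268
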