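import Crest.Agent.R281.Ti3_846
import Crest.Agent.R281.Ehr2_268

/-!
# R281 (S0424), PER-HOL, part 1 (helper655): families of maps into a projective space, basic forms

* `PFam C H B` : family of smooth maps `X → P(H)`, smooth in `(c,z)`, holomorphic in `c ∈ B`
* `Vel S c x`  : velocities of curves of the fibre `S_c` (= 461's `Tan`)
* `BF S`       : closed basic real 2-forms on the cone family `S ⊆ E × H`
* `BF.pull`    : the pull back, a family of closed 2-forms `F2 C`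
-/

set_option autoImplicit false
set_option linter.unusedSectionVars false

open Set Filter Topology Complex
open scoped ContDiff

namespace Crest.Agent.R281.Phl_655

open Crest.Agent.R281.HkR_835 Crest.Agent.R281.Ti_846 Crest.Agent.R281.Ehr2_268

noncomputable section

variable {V X : Type} [NormedAddCommGroup V] [NormedSpace ℝ V] [TopologicalSpace X]
variable {E : Type} [NormedAddCommGroup E] [NormedSpace ℂ E]
variable {H : Type} [NormedAddCommGroup H] [NormedSpace ℂ H]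

/-- derivative in the space direction -/
def dz (U : E × V → H) (p : E × V) : V →L[ℝ] H :=
  (fderiv ℝ U p).comp (ContinuousLinearMap.inr ℝ E V)

theorem dz_apply (U : E × V → H) (p : E × V) (v : V) : dz U p v = fderiv ℝ U p (0, v) := rfl

theorem hasFDerivAt_dz {U : E × V → H} {c : E} {z : V} (h : DifferentiableAt ℝ U (c, z)) :
    HasFDerivAt (fun y => U (c, y)) (dz U (c, z)) z :=
  HasFDerivAt.comp (f := fun y : V => (c, y)) (g := U) z (by exact h.hasFDerivAt)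
    (hasFDerivAt_prodMk_right _ _)

theorem contDiffAt_dz {U : E × V → H} {p : E × V} (h : ContDiffAt ℝ ∞ U p) :
    ContDiffAt ℝ ∞ (dz U) p :=
  (h.fderiv_right (m := ∞) (by simp)).clm_comp contDiffAt_const

/-- velocities at `x` of the curves in the fibre over `c` -/
def Vel (S : Set (E × H)) (c : E) (x v : H) : Prop :=
  ∃ γ : ℝ → H, γ 0 = x ∧ HasDerivAt γ v 0 ∧ ∀ᶠ t in 𝓝 (0 : ℝ), (c, γ t) ∈ S

/-- `S` is stable under scaling in the fibres -/
def Cn (S : Set (E × H)) : Prop := ∀ c x, (c, x) ∈ S → ∀ a : ℂ, a ≠ 0 → (c, a • x) ∈ S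

theorem Vel.scale {S : Set (E × H)} (hS : Cn S) {c : E} {x v : H} (h : Vel S c x v) {a : ℂ}
    (ha : a ≠ 0) (b : ℂ) : Vel S c (a • x) (a • v + b • x) := by
  obtain ⟨γ, h0, h1, h2⟩ := h
  refine ⟨fun t => (a + (t : ℂ) * b) • γ t, by simp [h0], ?_, ?_⟩
  · have h3 : HasDerivAt (fun t : ℝ => (a + (t : ℂ) * b)) b 0 := by
      have := ((Complex.ofRealCLM.hasDerivAt (x := (0 : ℝ))).mul_const b).const_add a
      simpa using this
    have h4 := h3.smul h1
    simpa [h0, Pi.smul_def'] using h4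
  · have h12 : ∀ᶠ s : ℝ in 𝓝 0, (a + (s : ℂ) * b) ≠ 0 := by
      have : Continuous (fun s : ℝ => (a + (s : ℂ) * b)) := by fun_prop
      exact (this.tendsto' 0 a (by simp)).eventually_ne ha
    filter_upwards [h2, h12] with t h3 h4
    exact hS _ _ h3 _ h4

/-- a family of maps `X → P(H)` parametrised by `B` -/
structure PFam (C : RCh V X) (H : Type) [NormedAddCommGroup H] [NormedSpace ℂ H]
    (B : Set E) where
  op : IsOpen B
  u : C.ι → E → V → H
  ne : ∀ i, ∀ c ∈ B, ∀ z ∈ (C.e i).target, u i c z ≠ 0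
  tr : ∀ i j, ∀ c ∈ B, ∀ z ∈ C.ov i j, ∃ a : ℂ, u i c z = a • u j c (C.t i j z)
  loc : ∀ i, ∀ c ∈ B, ∀ z ∈ (C.e i).target, ∃ U : E × V → H,
    ∀ᶠ p in 𝓝 (c, z), ContDiffAt ℝ ∞ U p ∧ (∃ a : ℂ, a ≠ 0 ∧ U p = a • u i p.1 p.2) ∧
      DifferentiableAt ℂ (fun c => U (c, p.2)) p.1

variable {C : RCh V X} {B : Set E}

/-- local lifts -/
def Lift (F : PFam C H B) (i : C.ι) (c : E) (z : V) (U : E × V → H) : Prop :=
  ∀ᶠ p in 𝓝 (c, z), ContDiffAt ℝ ∞ U p ∧ (∃ a : ℂ, a ≠ 0 ∧ U p = a • F.u i p.1 p.2) ∧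
      DifferentiableAt ℂ (fun c => U (c, p.2)) p.1

/-- the family takes its values in the cone family `S` -/
def PFam.In (F : PFam C H B) (S : Set (E × H)) : Prop :=
  ∀ i, ∀ c ∈ B, ∀ z ∈ (C.e i).target, (c, F.u i c z) ∈ S

section lift

variable {F : PFam C H B} {i j : C.ι} {c : E} {z : V} {U U' : E × V → H}

theorem PFam.exists_lift (F : PFam C H B) {i : C.ι} {c : E} (hc : c ∈ B) {z : V}
    (hz : z ∈ (C.e i).target) : ∃ U, Lift F i c z U := F.loc i c hc z hz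

theorem nhds_mem (F : PFam C H B) {i : C.ι} {c : E} (hc : c ∈ B) {z : V}
    (hz : z ∈ (C.e i).target) : ∀ᶠ p : E × V in 𝓝 (c, z), p.1 ∈ B ∧ p.2 ∈ (C.e i).target :=
  (F.op.prod (C.e i).open_target).mem_nhds (show (c, z) ∈ _ from ⟨hc, hz⟩)

theorem Lift.sm (h : Lift F i c z U) : ContDiffAt ℝ ∞ U (c, z) := h.self_of_nhds.1

theorem Lift.diff (h : Lift F i c z U) : DifferentiableAt ℝ U (c, z) :=
  h.sm.differentiableAt (by simp)

theorem Lift.ne (h : Lift F i c z U) (hc : c ∈ B) (hz : z ∈ (C.e i).target) : U (c, z) ≠ 0 := by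
  obtain ⟨-, ⟨a, ha, he⟩, -⟩ := h.self_of_nhds
  rw [he]
  exact smul_ne_zero ha (F.ne i c hc z hz)

theorem Lift.eventually (h : Lift F i c z U) : ∀ᶠ p in 𝓝 (c, z), Lift F i p.1 p.2 U :=
  eventually_eventually_nhds.mpr h

theorem Lift.mem {S : Set (E × H)} (h : Lift F i c z U) (hS : Cn S) (hF : F.In S) (hc : c ∈ B)
    (hz : z ∈ (C.e i).target) : (c, U (c, z)) ∈ S := by
  obtain ⟨-, ⟨a, ha, he⟩, -⟩ := h.self_of_nhds
  rw [he]
  exact hS _ _ (hF i c hc z hz) a ha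

theorem Lift.vel {S : Set (E × H)} (h : Lift F i c z U) (hS : Cn S) (hF : F.In S) (hc : c ∈ B)
    (hz : z ∈ (C.e i).target) (v : V) : Vel S c (U (c, z)) (dz U (c, z) v) := by
  refine ⟨fun t => U (c, z + t • v), by simp, ?_, ?_⟩
  · have h1 : HasDerivAt (fun t : ℝ => z + t • v) v 0 := by
      simpa using ((hasDerivAt_id (0 : ℝ)).smul_const v).const_add z
    have h2 := hasFDerivAt_dz h.diff
    have h3 : HasFDerivAt (fun y => U (c, y)) (dz U (c, z)) (z + (0 : ℝ) • v) := by simpa using h2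
    exact HasFDerivAt.comp_hasDerivAt (f := fun t : ℝ => z + t • v)
      (l := fun y => U (c, y)) (0 : ℝ) h3 h1
  · have h1 : Tendsto (fun t : ℝ => (c, z + t • v)) (𝓝 0) (𝓝 (c, z)) := by
      have : Continuous (fun t : ℝ => (c, z + t • v)) := by fun_prop
      exact this.tendsto' _ _ (by simp)
    filter_upwards [h1.eventually h.eventually, h1.eventually (nhds_mem F hc hz)] with t h2 h3
    exact h2.mem hS hF h3.1 h3.2

/-- two lifts differ by a smooth scalar -/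
theorem Lift.scalar (h : Lift F i c z U) (h' : Lift F i c z U') (hc : c ∈ B)
    (hz : z ∈ (C.e i).target) : ∃ l : E × V → ℂ, l (c, z) ≠ 0 ∧
      (∀ᶠ p in 𝓝 (c, z), U' p = l p • U p) ∧ ContDiffAt ℝ ∞ l (c, z) := by
  obtain ⟨f, -, hf⟩ := exists_dual_vector ℂ (U (c, z)) (norm_ne_zero_iff.mpr (h.ne hc hz))
  have hf0 : f (U (c, z)) ≠ 0 := by
    rw [hf]
    simpa using h.ne hc hz
  have hfU : ContDiffAt ℝ ∞ (fun p => f (U p)) (c, z) :=
    (f.restrictScalars ℝ).contDiff.contDiffAt.comp (c, z) h.sm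
  have hfU' : ContDiffAt ℝ ∞ (fun p => f (U' p)) (c, z) :=
    (f.restrictScalars ℝ).contDiff.contDiffAt.comp (c, z) h'.sm
  have key : ∀ᶠ p in 𝓝 (c, z), f (U' p) / f (U p) ≠ 0 ∧
      U' p = (f (U' p) / f (U p)) • U p := by
    filter_upwards [h, h', hfU.continuousAt.eventually_ne hf0] with p h1 h2 h3
    obtain ⟨-, ⟨a, ha, he⟩, -⟩ := h1
    obtain ⟨-, ⟨a', ha', he'⟩, -⟩ := h2
    have h4 : U' p = (a' / a) • U p := by
      rw [he, he', smul_smul, div_mul_cancel₀ _ ha]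
    have h5 : f (U' p) / f (U p) = a' / a := by
      rw [h4, map_smul, smul_eq_mul, mul_div_assoc, div_self h3, mul_one]
    rw [h5]
    exact ⟨div_ne_zero ha' ha, h4⟩
  refine ⟨fun p => f (U' p) / f (U p), key.self_of_nhds.1, key.mono fun p hp => hp.2, ?_⟩
  simp only [div_eq_mul_inv]
  exact hfU'.mul (hfU.inv hf0)

/-- lifts in another chart -/
theorem Lift.chart (h : Lift F j c (C.t i j z) U) (hc : c ∈ B) (hz : z ∈ C.ov i j) :
    Lift F i c z (fun p => U (p.1, C.t i j p.2)) := by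
  have h0 : ContinuousAt (fun p : E × V => (p.1, C.t i j p.2)) (c, z) :=
    continuousAt_fst.prodMk (ContinuousAt.comp (f := fun p : E × V => p.2) (g := C.t i j)
      (x := (c, z)) (RCh.t_diff hz).continuousAt continuousAt_snd)
  have h1 : ∀ᶠ p : E × V in 𝓝 (c, z), p.1 ∈ B ∧ p.2 ∈ C.ov i j :=
    (F.op.prod (RCh.isOpen_ov i j)).mem_nhds (show (c, z) ∈ _ from ⟨hc, hz⟩)
  filter_upwards [h0.eventually h, h1] with p h2 h3
  obtain ⟨h4, ⟨a, ha, h5⟩, h6⟩ := h2
  refine ⟨?_, ?_, h6⟩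
  · have ht : ContDiffAt ℝ ∞ (C.t i j) p.2 :=
      (RCh.t_smooth i j).contDiffAt ((RCh.isOpen_ov i j).mem_nhds h3.2)
    have h7 : ContDiffAt ℝ ∞ (fun p : E × V => (p.1, C.t i j p.2)) p :=
      contDiffAt_fst.prodMk (ContDiffAt.comp (f := fun p : E × V => p.2) (g := C.t i j) p ht
        contDiffAt_snd)
    exact ContDiffAt.comp (f := fun p : E × V => (p.1, C.t i j p.2)) (g := U) p h4 h7
  · obtain ⟨b, hb⟩ := F.tr i j p.1 h3.1 p.2 h3.2
    have hb0 : b ≠ 0 := by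
      rintro rfl
      rw [zero_smul] at hb
      exact F.ne i p.1 h3.1 p.2 h3.2.1 hb
    refine ⟨a * b⁻¹, mul_ne_zero ha (inv_ne_zero hb0), ?_⟩
    rw [hb, smul_smul, mul_assoc, inv_mul_cancel₀ hb0, mul_one]
    exact h5

theorem Lift.chart_dz (h : Lift F j c (C.t i j z) U) (hz : z ∈ C.ov i j) (v : V) :
    dz (fun p => U (p.1, C.t i j p.2)) (c, z) v =
      dz U (c, C.t i j z) (fderiv ℝ (C.t i j) z v) := by
  have h1 := hasFDerivAt_dz (Lift.diff h)
  have h2 : HasFDerivAt (fun y => U (c, C.t i j y)) _ z :=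
    HasFDerivAt.comp (f := C.t i j) (g := fun y => U (c, y)) z h1 (RCh.t_diff hz).hasFDerivAt
  have h0 : DifferentiableAt ℝ (fun p : E × V => U (p.1, C.t i j p.2)) (c, z) := by
    have h3 : DifferentiableAt ℝ (fun p : E × V => (p.1, C.t i j p.2)) (c, z) :=
      differentiableAt_fst.prodMk (DifferentiableAt.comp (f := fun p : E × V => p.2)
        (g := C.t i j) (c, z) (RCh.t_diff hz) differentiableAt_snd)
    exact DifferentiableAt.comp (f := fun p : E × V => (p.1, C.t i j p.2)) (g := U) (c, z)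
      (Lift.diff h) h3
  have h4 := (hasFDerivAt_dz h0).unique h2
  rw [h4]
  rfl

end lift

/-! ### basic forms -/

/-- closed basic real 2-forms on the cone family `S` (smooth in the total space, closed along the
fibres) -/
structure BF (S : Set (E × H)) where
  sg : E → H → H → H → ℝ
  loc : ∀ c x, (c, x) ∈ S → ∃ Sg : E × H → H →L[ℝ] H →L[ℝ] ℝ,
    (∀ᶠ p in 𝓝 (c, x), ContDiffAt ℝ ∞ Sg p ∧ (p ∈ S → (∀ u v, Sg p u v = -Sg p v u) ∧
      ∀ u v, Vel S p.1 p.2 u → Vel S p.1 p.2 v → Sg p u v = sg p.1 p.2 u v)) ∧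
    ∀ u v w, Vel S c x u → Vel S c x v → Vel S c x w →
      fderiv ℝ Sg (c, x) (0, u) v w + fderiv ℝ Sg (c, x) (0, v) w u +
        fderiv ℝ Sg (c, x) (0, w) u v = 0
  bas : ∀ c x, (c, x) ∈ S → ∀ a : ℂ, a ≠ 0 → ∀ b b' : ℂ, ∀ u v, Vel S c x u → Vel S c x v →
    sg c (a • x) (a • u + b • x) (a • v + b' • x) = sg c x u v

/-- local representatives -/
def BF.Rep {S : Set (E × H)} (σ : BF S) (c : E) (x : H)
    (Sg : E × H → H →L[ℝ] H →L[ℝ] ℝ) : Prop :=
  (∀ᶠ p in 𝓝 (c, x), ContDiffAt ℝ ∞ Sg p ∧ (p ∈ S → (∀ u v, Sg p u v = -Sg p v u) ∧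
      ∀ u v, Vel S p.1 p.2 u → Vel S p.1 p.2 v → Sg p u v = σ.sg p.1 p.2 u v)) ∧
    ∀ u v w, Vel S c x u → Vel S c x v → Vel S c x w →
      fderiv ℝ Sg (c, x) (0, u) v w + fderiv ℝ Sg (c, x) (0, v) w u +
        fderiv ℝ Sg (c, x) (0, w) u v = 0

/-- pull back of a bilinear form -/
def pbl (D : V →L[ℝ] H) (s : H →L[ℝ] H →L[ℝ] ℝ) : Bil V :=
  ((ContinuousLinearMap.compL ℝ V H ℝ).flip D).comp (s.comp D)

theorem contDiffAt_pbl {M : Type*} [NormedAddCommGroup M] [NormedSpace ℝ M] {D : M → V →L[ℝ] H}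
    {s : M → H →L[ℝ] H →L[ℝ] ℝ} {m : M} {n : WithTop ℕ∞} (hD : ContDiffAt ℝ n D m)
    (hs : ContDiffAt ℝ n s m) :
    ContDiffAt ℝ n (fun y => pbl (D y) (s y)) m := by
  have h1 : ContDiffAt ℝ n (fun y => (ContinuousLinearMap.compL ℝ V H ℝ).flip (D y)) m :=
    ContDiffAt.comp (f := D) (g := fun T => (ContinuousLinearMap.compL ℝ V H ℝ).flip T) m
      (by exact (ContinuousLinearMap.contDiff _).contDiffAt) hD
  exact h1.clm_comp (hs.clm_comp hD)

@[simp] theorem pbl_apply (D : V →L[ℝ] H) (s : H →L[ℝ] H →L[ℝ] ℝ) (v w : V) :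
    pbl D s v w = s (D v) (D w) := rfl

section pull

variable {S : Set (E × H)} (σ : BF S) (F : PFam C H B)

/-- the value of the pull back -/
def BF.val (i : C.ι) (c : E) (z v w : V) : ℝ :=
  open Classical in
  if h : c ∈ B ∧ z ∈ (C.e i).target then
    σ.sg c ((F.loc i c h.1 z h.2).choose (c, z)) (dz (F.loc i c h.1 z h.2).choose (c, z) v)
      (dz (F.loc i c h.1 z h.2).choose (c, z) w)
  else 0

variable {F} {i j : C.ι} {c : E} {z : V} {U U' : E × V → H}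

theorem sg_indep (hS : Cn S) (hF : F.In S) (hc : c ∈ B) (hz : z ∈ (C.e i).target)
    (h : Lift F i c z U) (h' : Lift F i c z U') (v w : V) :
    σ.sg c (U' (c, z)) (dz U' (c, z) v) (dz U' (c, z) w) =
      σ.sg c (U (c, z)) (dz U (c, z) v) (dz U (c, z) w) := by
  obtain ⟨l, h1, h2, h3⟩ := h.scalar h' hc hz
  have h4 : ∀ v, dz U' (c, z) v = l (c, z) • dz U (c, z) v + fderiv ℝ l (c, z) (0, v) • U (c, z) := by
    intro v
    have h5 : U' =ᶠ[𝓝 (c, z)] fun p => l p • U p := h2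
    have h6 : HasFDerivAt (fun p => l p • U p) _ (c, z) :=
      (h3.differentiableAt (by simp)).hasFDerivAt.smul h.diff.hasFDerivAt
    rw [dz_apply, h5.fderiv_eq, h6.fderiv]
    simp [dz_apply]
  rw [h4, h4, h2.self_of_nhds]
  exact σ.bas c _ (h.mem hS hF hc hz) _ h1 _ _ _ _ (h.vel hS hF hc hz v) (h.vel hS hF hc hz w)

theorem val_eq (hS : Cn S) (hF : F.In S) (hc : c ∈ B) (hz : z ∈ (C.e i).target)
    (h : Lift F i c z U) (v w : V) :
    σ.val F i c z v w = σ.sg c (U (c, z)) (dz U (c, z) v) (dz U (c, z) w) := by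
  unfold BF.val
  rw [dif_pos ⟨hc, hz⟩]
  exact sg_indep σ hS hF hc hz h (F.loc i c hc z hz).choose_spec v w

/-- the pull back, as a bilinear form -/
def BF.pw (i : C.ι) (F : PFam C H B) (c : E) (z : V) : Bil V :=
  open Classical in
  if h : ∃ b : Bil V, ∀ v w, b v w = σ.val F i c z v w then h.choose else 0

/-- near a point the pull back is `Sg (c, U) (dU v) (dU w)` -/
theorem pw_eventually (hS : Cn S) (hF : F.In S) (hc : c ∈ B) (hz : z ∈ (C.e i).target)
    (h : Lift F i c z U) {Sg : E × H → H →L[ℝ] H →L[ℝ] ℝ} (hs : σ.Rep c (U (c, z)) Sg) :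
    ∀ᶠ p in 𝓝 (c, z), σ.pw i F p.1 p.2 = pbl (dz U p) (Sg (p.1, U p)) := by
  have h0 : ContinuousAt (fun p : E × V => (p.1, U p)) (c, z) :=
    continuousAt_fst.prodMk h.diff.continuousAt
  filter_upwards [h.eventually, nhds_mem F hc hz, h0.eventually hs.1] with p h1 h2 h3
  have h4 := h1.mem hS hF h2.1 h2.2
  have h5 : ∀ v w, pbl (dz U p) (Sg (p.1, U p)) v w = σ.val F i p.1 p.2 v w := by
    intro v w
    rw [val_eq σ hS hF h2.1 h2.2 h1, pbl_apply]
    exact (h3.2 h4).2 _ _ (h1.vel hS hF h2.1 h2.2 v) (h1.vel hS hF h2.1 h2.2 w)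
  have h6 : ∃ b : Bil V, ∀ v w, b v w = σ.val F i p.1 p.2 v w := ⟨_, h5⟩
  have h7 : σ.pw i F p.1 p.2 = h6.choose := dif_pos h6
  rw [h7]
  ext v w
  rw [h6.choose_spec, h5]

theorem pw_apply (hS : Cn S) (hF : F.In S) (hc : c ∈ B) (hz : z ∈ (C.e i).target)
    (h : Lift F i c z U) (v w : V) :
    σ.pw i F c z v w = σ.sg c (U (c, z)) (dz U (c, z) v) (dz U (c, z) w) := by
  obtain ⟨Sg, hs⟩ : ∃ Sg, σ.Rep c (U (c, z)) Sg := σ.loc c _ (h.mem hS hF hc hz)
  rw [(pw_eventually σ hS hF hc hz h hs).self_of_nhds, pbl_apply]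
  exact (hs.1.self_of_nhds.2 (h.mem hS hF hc hz)).2 _ _ (h.vel hS hF hc hz v)
    (h.vel hS hF hc hz w)

/-- joint smoothness -/
theorem pw_smooth (hS : Cn S) (hF : F.In S) (i : C.ι) :
    ContDiffOn ℝ ∞ (fun p : E × V => σ.pw i F p.1 p.2) (B ×ˢ (C.e i).target) := by
  rintro ⟨c, z⟩ ⟨hc, hz⟩
  obtain ⟨U, h⟩ := F.exists_lift hc hz
  obtain ⟨Sg, hs⟩ : ∃ Sg, σ.Rep c (U (c, z)) Sg := σ.loc c _ (h.mem hS hF hc hz)
  have h1 : ContDiffAt ℝ ∞ (fun p : E × V => (p.1, U p)) (c, z) := contDiffAt_fst.prodMk h.sm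
  have h2 : ContDiffAt ℝ ∞ (fun p : E × V => Sg (p.1, U p)) (c, z) :=
    ContDiffAt.comp (f := fun p : E × V => (p.1, U p)) (g := Sg) (c, z)
      hs.1.self_of_nhds.1 h1
  have h3 := contDiffAt_dz h.sm
  have h4 : ContDiffAt ℝ ∞ (fun p : E × V => pbl (dz U p) (Sg (p.1, U p))) (c, z) :=
    contDiffAt_pbl h3 h2
  exact (h4.congr_of_eventuallyEq (pw_eventually σ hS hF hc hz h hs)).contDiffWithinAt

theorem pw_smooth_fix (hS : Cn S) (hF : F.In S) (i : C.ι) {c : E} (hc : c ∈ B) :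
    ContDiffOn ℝ ∞ (σ.pw i F c) (C.e i).target := by
  have h1 : ContDiff ℝ ∞ (fun z : V => (c, z)) := by fun_prop
  exact (pw_smooth σ hS hF i).comp h1.contDiffOn fun z hz => ⟨hc, hz⟩

theorem pw_alt (hS : Cn S) (hF : F.In S) (hc : c ∈ B) (hz : z ∈ (C.e i).target) (v w : V) :
    σ.pw i F c z v w = -σ.pw i F c z w v := by
  obtain ⟨U, h⟩ := F.exists_lift hc hz
  obtain ⟨Sg, hs⟩ : ∃ Sg, σ.Rep c (U (c, z)) Sg := σ.loc c _ (h.mem hS hF hc hz)
  rw [(pw_eventually σ hS hF hc hz h hs).self_of_nhds, pbl_apply, pbl_apply]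
  exact (hs.1.self_of_nhds.2 (h.mem hS hF hc hz)).1 _ _

theorem pw_tr (hS : Cn S) (hF : F.In S) (hc : c ∈ B) (hz : z ∈ C.ov i j) (v w : V) :
    σ.pw i F c z v w = σ.pw j F c (C.t i j z) (fderiv ℝ (C.t i j) z v)
      (fderiv ℝ (C.t i j) z w) := by
  obtain ⟨U, h⟩ := F.exists_lift (i := j) hc (RCh.t_mem hz).1
  rw [pw_apply σ hS hF hc (RCh.t_mem hz).1 h, pw_apply σ hS hF hc hz.1 (h.chart hc hz),
    h.chart_dz hz, h.chart_dz hz]

/-- derivative of a pull back -/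
theorem fderiv_pb {f : V → H} {g : V → H →L[ℝ] H →L[ℝ] ℝ} {z : V} (hf : ContDiffAt ℝ 2 f z)
    (hg : DifferentiableAt ℝ g z) (a b d : V) :
    fderiv ℝ (fun y => pbl (fderiv ℝ f y) (g y)) z a b d =
      fderiv ℝ g z a (fderiv ℝ f z b) (fderiv ℝ f z d) +
        g z (fderiv ℝ (fderiv ℝ f) z a b) (fderiv ℝ f z d) +
        g z (fderiv ℝ f z b) (fderiv ℝ (fderiv ℝ f) z a d) := by
  have h1 : DifferentiableAt ℝ (fderiv ℝ f) z :=
    (hf.fderiv_right (m := 1) (by norm_num)).differentiableAt (by simp)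
  have h2 : DifferentiableAt ℝ (fun y => pbl (fderiv ℝ f y) (g y)) z := by
    unfold pbl
    have h3 : DifferentiableAt ℝ (fun y => (ContinuousLinearMap.compL ℝ V H ℝ).flip
        (fderiv ℝ f y)) z :=
      DifferentiableAt.comp (f := fderiv ℝ f)
        (g := fun T => (ContinuousLinearMap.compL ℝ V H ℝ).flip T) z
        (by exact (ContinuousLinearMap.differentiable _).differentiableAt) h1
    exact h3.clm_comp (hg.clm_comp h1)
  rw [← fderiv_app h2]
  have h3 : HasFDerivAt (fun y => fderiv ℝ f y b) _ z :=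
    h1.hasFDerivAt.clm_apply (hasFDerivAt_const b z)
  have h4 : HasFDerivAt (fun y => fderiv ℝ f y d) _ z :=
    h1.hasFDerivAt.clm_apply (hasFDerivAt_const d z)
  have h5 : HasFDerivAt (fun y => g y (fderiv ℝ f y b)) _ z := hg.hasFDerivAt.clm_apply h3
  have h6 : HasFDerivAt (fun y => g y (fderiv ℝ f y b) (fderiv ℝ f y d)) _ z := h5.clm_apply h4
  simp only [pbl_apply]
  rw [h6.fderiv]
  simp
  ring

theorem pw_closed (hS : Cn S) (hF : F.In S) (hc : c ∈ B) (hz : z ∈ (C.e i).target) (a b d : V) :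
    fderiv ℝ (σ.pw i F c) z a b d + fderiv ℝ (σ.pw i F c) z b d a +
      fderiv ℝ (σ.pw i F c) z d a b = 0 := by
  obtain ⟨U, h⟩ := F.exists_lift hc hz
  obtain ⟨Sg, hs⟩ : ∃ Sg, σ.Rep c (U (c, z)) Sg := σ.loc c _ (h.mem hS hF hc hz)
  have h0 : Tendsto (fun y : V => (c, y)) (𝓝 z) (𝓝 (c, z)) :=
    (Continuous.tendsto' (by fun_prop) _ _ rfl)
  set f : V → H := fun y => U (c, y) with hf
  set g : V → H →L[ℝ] H →L[ℝ] ℝ := fun y => Sg (c, U (c, y)) with hg
  have hUs : ContDiffAt ℝ ∞ f z := by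
    have h1 : ContDiffAt ℝ ∞ (fun y : V => (c, y)) z := by fun_prop
    exact ContDiffAt.comp (f := fun y : V => (c, y)) (g := U) z h.sm h1
  have e1 : σ.pw i F c =ᶠ[𝓝 z] fun y => pbl (fderiv ℝ f y) (g y) := by
    filter_upwards [h0.eventually (pw_eventually σ hS hF hc hz h hs), h0.eventually h] with y h1 h2
    have h3 : fderiv ℝ f y = dz U (c, y) :=
      (hasFDerivAt_dz (h2.1.differentiableAt (by simp))).fderiv
    rw [h3]
    exact h1
  have hfz : fderiv ℝ f z = dz U (c, z) := (hasFDerivAt_dz h.diff).fderiv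
  have hgd : HasFDerivAt g ((fderiv ℝ Sg (c, U (c, z))).comp
      ((ContinuousLinearMap.inr ℝ E H).comp (dz U (c, z)))) z := by
    have h1 : HasFDerivAt (fun y => (c, U (c, y)))
        ((ContinuousLinearMap.inr ℝ E H).comp (dz U (c, z))) z :=
      HasFDerivAt.comp (f := fun y => U (c, y)) (g := fun x : H => (c, x)) z
        (hasFDerivAt_prodMk_right _ _) (hasFDerivAt_dz h.diff)
    have h2 : HasFDerivAt Sg (fderiv ℝ Sg (c, U (c, z))) (c, U (c, z)) :=
      (hs.1.self_of_nhds.1.differentiableAt (by simp)).hasFDerivAt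
    exact HasFDerivAt.comp (f := fun y => (c, U (c, y))) (g := Sg) z h2 h1
  have hga : ∀ a, fderiv ℝ g z a = fderiv ℝ Sg (c, U (c, z)) (0, dz U (c, z) a) := by
    intro a
    rw [hgd.fderiv]
    rfl
  have hsym : ∀ a b, fderiv ℝ (fderiv ℝ f) z a b = fderiv ℝ (fderiv ℝ f) z b a := by
    intro a b
    exact (hUs.of_le (m := 2) (by first | simp | exact WithTop.coe_le_coe.2 (le_top : (2 : ℕ∞) ≤ ⊤))).isSymmSndFDerivAt (by simp) a b
  have halt : ∀ x y, g z x y = -g z y x := (hs.1.self_of_nhds.2 (h.mem hS hF hc hz)).1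
  have hcl := hs.2 _ _ _ (h.vel hS hF hc hz a) (h.vel hS hF hc hz b) (h.vel hS hF hc hz d)
  have hf2 : ContDiffAt ℝ 2 f z := hUs.of_le (by first | simp | exact WithTop.coe_le_coe.2 (le_top : (2 : ℕ∞) ≤ ⊤))
  rw [e1.fderiv_eq, fderiv_pb hf2 hgd.differentiableAt, fderiv_pb hf2 hgd.differentiableAt,
    fderiv_pb hf2 hgd.differentiableAt, hga, hga, hga, hfz]
  have k1 := halt (dz U (c, z) b) (fderiv ℝ (fderiv ℝ f) z a d)
  have k2 := halt (dz U (c, z) d) (fderiv ℝ (fderiv ℝ f) z b a)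
  have k3 := halt (dz U (c, z) a) (fderiv ℝ (fderiv ℝ f) z d b)
  rw [k1, k2, k3, hsym a d, hsym b a, hsym d b]
  linarith

/-- **the pull back** of a closed basic form by the member `c` of the family -/
def BF.pull (σ : BF S) (F : PFam C H B) (hS : Cn S) (hF : F.In S) {c : E} (hc : c ∈ B) :
    F2 C where
  w i z := σ.pw i F c z
  sm i := pw_smooth_fix σ hS hF i hc
  alt _ _ hz u v := pw_alt σ hS hF hc hz u v
  tr _ _ _ hz u v := pw_tr σ hS hF hc hz u v
  closed _ _ hz a b d := pw_closed σ hS hF hc hz a b d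

theorem BF.pull_w (hS : Cn S) (hF : F.In S) (hc : c ∈ B) :
    (σ.pull F hS hF hc).w i z = σ.pw i F c z := rfl

end pull

end

end Crest.Agent.R281.Phl_655
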