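import Crest.Agent.R281.Blk1_592
import Crest.Agent.R281.Phl1_655

/-!
# R281 (S0424), blocks of members (helper592), part 4: families of block maps

* `pLin F T hT`   : composition of a family of maps to `P(H)` with a linear map
* `pBlock F hF k` : the family of the block maps of a family of maps into the Segre variety
* `pBlock_eq`     : its values; `pSeg` : the Segre family of block families
-/

set_option autoImplicit false
set_option linter.unusedSectionVars false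

open Set Filter Topology Complex Function
open scoped ContDiff

namespace Crest.Agent.R281.Blk_592

open Crest.Agent.R281.HkR_835 Crest.Agent.R281.Ti_846 Crest.Agent.R281.Ehr2_268
open Crest.Agent.R281.Phl_655

noncomputable section

variable {V X : Type} [NormedAddCommGroup V] [NormedSpace ℝ V] [TopologicalSpace X]
variable {E : Type} [NormedAddCommGroup E] [NormedSpace ℂ E]
variable {H H' : Type} [NormedAddCommGroup H] [NormedSpace ℂ H] [NormedAddCommGroup H']
  [NormedSpace ℂ H']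
variable {C : RCh V X} {B : Set E}

/-- composition with a linear map -/
def pLin (F : PFam C H B) (T : H →L[ℂ] H')
    (hT : ∀ i, ∀ c ∈ B, ∀ z ∈ (C.e i).target, T (F.u i c z) ≠ 0) : PFam C H' B where
  op := F.op
  u i c z := T (F.u i c z)
  ne := hT
  tr i j c hc z hz := by
    obtain ⟨a, ha⟩ := F.tr i j c hc z hz
    exact ⟨a, by rw [ha, map_smul]⟩
  loc i c hc z hz := by
    obtain ⟨U, hU⟩ := F.loc i c hc z hz
    refine ⟨fun p => T (U p), ?_⟩
    filter_upwards [hU] with p hp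
    obtain ⟨h1, ⟨a, ha, h2⟩, h3⟩ := hp
    refine ⟨((T.restrictScalars ℝ).contDiff.contDiffAt (x := U p)).comp p h1,
      ⟨a, ha, by rw [h2, map_smul]⟩, ?_⟩
    exact T.differentiableAt.comp (f := fun c => U (c, p.2)) p.1 h3

theorem pLin_u (F : PFam C H B) (T : H →L[ℂ] H')
    (hT : ∀ i, ∀ c ∈ B, ∀ z ∈ (C.e i).target, T (F.u i c z) ≠ 0) (i : C.ι) (c : E) (z : V) :
    (pLin F T hT).u i c z = T (F.u i c z) := rfl

/-- local lifts -/
theorem pLin_lift (F : PFam C H B) (T : H →L[ℂ] H')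
    (hT : ∀ i, ∀ c ∈ B, ∀ z ∈ (C.e i).target, T (F.u i c z) ≠ 0) {i : C.ι} {c : E} {z : V}
    {U : E × V → H} (h : Lift F i c z U) : Lift (pLin F T hT) i c z (fun p => T (U p)) := by
  unfold Lift at h ⊢
  filter_upwards [h] with p hp
  obtain ⟨h1, ⟨a, ha, h2⟩, h3⟩ := hp
  refine ⟨((T.restrictScalars ℝ).contDiff.contDiffAt (x := U p)).comp p h1,
    ⟨a, ha, by rw [h2, map_smul]; rfl⟩, ?_⟩
  exact T.differentiableAt.comp (f := fun c => U (c, p.2)) p.1 h3

section Block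

variable {ι : Type} [Fintype ι] [DecidableEq ι] {J : ι → Type} [∀ k, Fintype (J k)]

/-- extraction with an arbitrary nonzero coordinate as base -/
def bx (k : ι) (w : (∀ k, J k) → ℂ) : J k → ℂ :=
  open Classical in
  if h : ∃ a, w a ≠ 0 then ext k h.choose w else 0

theorem bx_eq (k : ι) {w : (∀ k, J k) → ℂ} (hS : SegRel w) {a : ∀ k, J k} (ha : w a ≠ 0) :
    ∃ c : ℂ, c ≠ 0 ∧ bx k w = c • ext k a w := by
  have h : ∃ a, w a ≠ 0 := ⟨a, ha⟩
  unfold bx
  rw [dif_pos h]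
  have h1 := (dext_indep' hS (v := w) (fun k a a' => by
      have := hS k a a'
      linear_combination 2 * this) k (a₀ := h.choose) ha).1
  exact ⟨_, div_ne_zero (ext_scal_ne hS k h.choose_spec ha) ha, h1⟩

theorem bx_ne (k : ι) {w : (∀ k, J k) → ℂ} (hw : w ≠ 0) : bx k w ≠ 0 := by
  have h : ∃ a, w a ≠ 0 := exists_nz hw
  unfold bx
  rw [dif_pos h]
  exact ext_ne h.choose_spec k

theorem bx_smul (k : ι) {w : (∀ k, J k) → ℂ} (hS : SegRel w) (hw : w ≠ 0) (c : ℂ) (hc : c ≠ 0) :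
    ∃ c' : ℂ, c' ≠ 0 ∧ bx k (c • w) = c' • bx k w := by
  obtain ⟨a, ha⟩ := exists_nz hw
  have ha' : (c • w) a ≠ 0 := mul_ne_zero hc ha
  obtain ⟨c1, h1, e1⟩ := bx_eq k hS ha
  obtain ⟨c2, h2, e2⟩ := bx_eq k (hS.smul c) ha'
  refine ⟨c2 * c * c1⁻¹, mul_ne_zero (mul_ne_zero h2 hc) (inv_ne_zero h1), ?_⟩
  rw [e2, e1, ext_smul, smul_smul, smul_smul]
  congr 1
  field_simp

/-- the family of the block maps -/
def pBlock (F : PFam C ((∀ k, J k) → ℂ) B)
    (hF : ∀ i, ∀ c ∈ B, ∀ z ∈ (C.e i).target, SegRel (F.u i c z)) (k : ι) :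
    PFam C (J k → ℂ) B where
  op := F.op
  u i c z := bx k (F.u i c z)
  ne i c hc z hz := bx_ne k (F.ne i c hc z hz)
  tr i j c hc z hz := by
    obtain ⟨a, ha⟩ := F.tr i j c hc z hz
    have h0 : F.u i c z ≠ 0 := F.ne i c hc z hz.1
    have ha0 : a ≠ 0 := by
      rintro rfl
      rw [zero_smul] at ha
      exact h0 ha
    have hz' := (RCh.t_mem hz).1
    obtain ⟨c', -, h⟩ := bx_smul k (hF j c hc _ hz') (F.ne j c hc _ hz') a ha0
    exact ⟨c', by rw [ha, h]⟩
  loc i c hc z hz := by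
    obtain ⟨U, hU⟩ := F.loc i c hc z hz
    obtain ⟨-, ⟨a, ha, h2⟩, -⟩ := hU.self_of_nhds
    have hne : U (c, z) ≠ 0 := by
      rw [h2]
      exact smul_ne_zero ha (F.ne i c hc z hz)
    obtain ⟨α, hα⟩ := exists_nz hne
    refine ⟨fun p => ext k α (U p), ?_⟩
    have hcont : ContinuousAt (fun p => U p α) (c, z) :=
      (continuous_apply α).continuousAt.comp hU.self_of_nhds.1.continuousAt
    filter_upwards [hU, hcont.eventually_ne hα, nhds_mem F hc hz] with p hp hpα hpm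
    obtain ⟨h1, ⟨b, hb, h3⟩, h4⟩ := hp
    refine ⟨(((extL k α).restrictScalars ℝ).contDiff.contDiffAt (x := U p)).comp p h1, ?_,
      (extL k α).differentiableAt.comp (f := fun c => U (c, p.2)) p.1 h4⟩
    have h5 : F.u i p.1 p.2 α ≠ 0 := by
      intro h6
      apply hpα
      rw [h3, Pi.smul_apply, h6, smul_zero]
    obtain ⟨c1, hc1, e1⟩ := bx_eq k (hF i p.1 hpm.1 p.2 hpm.2) h5
    refine ⟨b * c1⁻¹, mul_ne_zero hb (inv_ne_zero hc1), ?_⟩
    rw [e1, h3, ext_smul, smul_smul, mul_assoc, inv_mul_cancel₀ hc1, mul_one]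

theorem pBlock_u (F : PFam C ((∀ k, J k) → ℂ) B)
    (hF : ∀ i, ∀ c ∈ B, ∀ z ∈ (C.e i).target, SegRel (F.u i c z)) (k : ι) (i : C.ι) (c : E)
    (z : V) : (pBlock F hF k).u i c z = bx k (F.u i c z) := rfl

/-- the block extraction of a lift is a lift -/
theorem pBlock_lift (F : PFam C ((∀ k, J k) → ℂ) B)
    (hF : ∀ i, ∀ c ∈ B, ∀ z ∈ (C.e i).target, SegRel (F.u i c z)) (k : ι) {i : C.ι} {c : E}
    {z : V} (hc : c ∈ B) (hz : z ∈ (C.e i).target) {U : E × V → (∀ k, J k) → ℂ}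
    (h : Lift F i c z U) {α : ∀ k, J k} (hα : U (c, z) α ≠ 0) :
    Lift (pBlock F hF k) i c z (fun p => ext k α (U p)) := by
  unfold Lift at h ⊢
  have hcont : ContinuousAt (fun p => U p α) (c, z) :=
    (continuous_apply α).continuousAt.comp h.self_of_nhds.1.continuousAt
  filter_upwards [h, hcont.eventually_ne hα, nhds_mem F hc hz] with p hp hpα hpm
  obtain ⟨h1, ⟨b, hb, h3⟩, h4⟩ := hp
  refine ⟨(((extL k α).restrictScalars ℝ).contDiff.contDiffAt (x := U p)).comp p h1, ?_,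
    (extL k α).differentiableAt.comp (f := fun c => U (c, p.2)) p.1 h4⟩
  have h5 : F.u i p.1 p.2 α ≠ 0 := by
    intro h6
    apply hpα
    rw [h3, Pi.smul_apply, h6, smul_zero]
  obtain ⟨c1, hc1, e1⟩ := bx_eq k (hF i p.1 hpm.1 p.2 hpm.2) h5
  refine ⟨b * c1⁻¹, mul_ne_zero hb (inv_ne_zero hc1), ?_⟩
  rw [pBlock_u, e1, h3, ext_smul, smul_smul, mul_assoc, inv_mul_cancel₀ hc1, mul_one]

/-- the cone family in the Segre variety -/
theorem segRel_of_In {S : Set (E × ((∀ k, J k) → ℂ))} (hS : ∀ c x, (c, x) ∈ S → SegRel x)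
    {F : PFam C ((∀ k, J k) → ℂ) B} (hF : F.In S) :
    ∀ i, ∀ c ∈ B, ∀ z ∈ (C.e i).target, SegRel (F.u i c z) :=
  fun i c hc z hz => hS c _ (hF i c hc z hz)

end Block

end

end Crest.Agent.R281.Blk_592
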