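import Crest.Agent.R281.HkR4_835

/-!
# Row 281, HK-ROT, part 5 (helper835): real (1,1)-forms

* `K11 A`   : closed real (1,1)-forms (`Kah_333.Kah` without positivity), `Kah.k11`
* `K11.f2`  : the closed real 2-form `ω(u, v) = Re (i ∑ g_ab u_a conj v_b)`
* `F2.k11`  : a closed real 2-form with `w (i u, i v) = w (u, v)` is of this kind
-/

set_option autoImplicit false
set_option linter.unusedSectionVars false

open Set Filter Topology Complex
open scoped ContDiff Matrix ComplexConjugate ComplexOrder InnerProductSpace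

namespace Crest.Agent.R281.HkR_835

open Crest.Agent.R275.Geo Crest.Agent.R275.Core144 Crest.Agent.R275.EDR890
open Crest.Agent.R273.Kah_333 Crest.Agent.R273.Hess_333 Crest.Agent.R281.Defs_273

noncomputable section

variable {d : ℕ} {X : Type} [TopologicalSpace X] {A : Atl d X}

/-- closed real (1,1)-forms -/
structure K11 (A : Atl d X) where
  g : A.ι → X → Matrix (Fin d) (Fin d) ℂ
  sm : ∀ i a b, A.SmAt i (fun x => g i x a b)
  herm : ∀ i, ∀ x ∈ (A.e i).source, (g i x).IsHermitian
  tr : ∀ i j, ∀ x ∈ (A.e i).source ∩ (A.e j).source,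
    g i x = (Jm A i j x)ᵀ * g j x * (Jm A i j x).map conj
  closed : ∀ i, ∀ z ∈ (A.e i).target, ∀ a b c,
    wd (false, c) (fun w => g i ((A.e i).symm w) a b) z =
      wd (false, a) (fun w => g i ((A.e i).symm w) c b) z

/-- the form of a Kaehler metric -/
def ofKah (K : Kah A) : K11 A where
  g := K.g
  sm := K.sm
  herm i x hx := (K.pos i x hx).isHermitian
  tr := K.tr
  closed := K.closed

/-- `∑ G_ab u_a conj v_b` for the smooth family of matrices -/
theorem mL_smooth {U : Set (Cn d)} {G : Cn d → Matrix (Fin d) (Fin d) ℂ}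
    (hG : ∀ a b, ContDiffOn ℝ ∞ (fun z => G z a b) U) :
    ContDiffOn ℝ ∞ (fun z => mL (G z)) U := by
  rw [contDiffOn_clm_apply]
  intro v
  rw [contDiffOn_piLp 2]
  intro a
  have : (fun z => (mL (G z) v) a) = fun z => ∑ b, G z a b * v b := by
    funext z
    rfl
  rw [this]
  exact ContDiffOn.sum fun b _ => (hG a b).mul contDiffOn_const

theorem bM_mL_iL {G : Matrix (Fin d) (Fin d) ℂ} (hG : G.IsHermitian) (u v : Cn d) :
    bM ((mL Gᵀ).comp iL) u v = (I * hb G u v).re := by
  have := bM_mL G hG (I • u) v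
  rw [hb_I_left] at this
  exact this

theorem hb_eq_dot (G : Matrix (Fin d) (Fin d) ℂ) (u v : Cn d) :
    hb G u v = u.ofLp ⬝ᵥ (G *ᵥ (fun b => conj (v b))) := by
  simp only [hb, dotProduct, Matrix.mulVec, Finset.mul_sum]
  exact Finset.sum_congr rfl fun a _ => Finset.sum_congr rfl fun b _ => by ring

theorem sb_eq_dot (G : Matrix (Fin d) (Fin d) ℂ) (u v : Cn d) :
    sb G u v = u.ofLp ⬝ᵥ (G *ᵥ v.ofLp) := by
  simp only [sb, dotProduct, Matrix.mulVec, Finset.mul_sum]
  exact Finset.sum_congr rfl fun a _ => Finset.sum_congr rfl fun b _ => by ring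

/-- substitution -/
theorem hb_mulVec (G P : Matrix (Fin d) (Fin d) ℂ) {u v u' v' : Cn d}
    (hu : u'.ofLp = P *ᵥ u.ofLp) (hv : v'.ofLp = P *ᵥ v.ofLp) :
    hb G u' v' = hb (Pᵀ * G * P.map conj) u v := by
  have e2 : (fun b => conj (v' b)) = (P.map conj) *ᵥ (fun b => conj (v b)) := by
    funext b
    rw [hv]
    simp [Matrix.mulVec, dotProduct]
  rw [hb_eq_dot, hb_eq_dot, e2, hu, ← Matrix.vecMul_transpose P u.ofLp, Matrix.mulVec_mulVec,
    ← Matrix.dotProduct_mulVec, Matrix.mulVec_mulVec, Matrix.mul_assoc]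

theorem sb_mulVec (G P : Matrix (Fin d) (Fin d) ℂ) {u v u' v' : Cn d}
    (hu : u'.ofLp = P *ᵥ u.ofLp) (hv : v'.ofLp = P *ᵥ v.ofLp) :
    sb G u' v' = sb (Pᵀ * G * P) u v := by
  rw [sb_eq_dot, sb_eq_dot, hv, hu, ← Matrix.vecMul_transpose P u.ofLp, Matrix.mulVec_mulVec,
    ← Matrix.dotProduct_mulVec, Matrix.mulVec_mulVec, Matrix.mul_assoc]

/-- `hb` is linear in the matrix -/
def hbL (u v : Cn d) : Matrix (Fin d) (Fin d) ℂ →ₗ[ℂ] ℂ where
  toFun G := hb G u v
  map_add' G H := by
    simp only [hb, Matrix.add_apply, add_mul, Finset.sum_add_distrib]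
  map_smul' c G := by
    simp only [hb, Matrix.smul_apply, smul_eq_mul, RingHom.id_apply, Finset.mul_sum]
    exact Finset.sum_congr rfl fun a _ => Finset.sum_congr rfl fun b _ => by ring

@[simp] theorem hbL_apply (u v : Cn d) (G : Matrix (Fin d) (Fin d) ℂ) : hbL u v G = hb G u v :=
  rfl

theorem hb_conjT (G : Matrix (Fin d) (Fin d) ℂ) (u v : Cn d) :
    hb Gᴴ u v = conj (hb G v u) := by
  simp only [hb, map_sum, map_mul, Complex.conj_conj, Matrix.conjTranspose_apply]
  rw [Finset.sum_comm]
  refine Finset.sum_congr rfl fun b _ => Finset.sum_congr rfl fun a _ => ?_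
  show conj (G b a) * _ * _ = _
  ring

/-- trilinear expression -/
def t3 (t : Fin d → Matrix (Fin d) (Fin d) ℂ) (a u v : Cn d) : ℂ := ∑ c, a c * hb (t c) u v

theorem t3_symm {t : Fin d → Matrix (Fin d) (Fin d) ℂ} (ht : ∀ a b c, t c a b = t a c b)
    (a u v : Cn d) : t3 t a u v = t3 t u a v := by
  simp only [t3, hb, Finset.mul_sum]
  rw [Finset.sum_comm]
  refine Finset.sum_congr rfl fun p _ => Finset.sum_congr rfl fun q _ =>
    Finset.sum_congr rfl fun b _ => ?_
  rw [ht p b q]
  ring

/-- the derivative of a Hermitian matrix in terms of `t c a b = ∂_c G_ab` -/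
theorem fderiv_herm {G : Cn d → Matrix (Fin d) (Fin d) ℂ} {z : Cn d}
    (hd : ∀ a b, DifferentiableAt ℝ (fun w => G w a b) z)
    (hh : ∀ᶠ w in 𝓝 z, (G w).IsHermitian) (a u v : Cn d) :
    hb (Matrix.of fun p q => fderiv ℝ (fun w => G w p q) z a) u v =
      t3 (fun c => Matrix.of fun p q => wd (false, c) (fun w => G w p q) z) a u v +
      conj (t3 (fun c => Matrix.of fun p q => wd (false, c) (fun w => G w p q) z) a v u) := by
  have h1 : ∀ p q c, wd (true, c) (fun w => G w p q) z =
      conj (wd (false, c) (fun w => G w q p) z) := by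
    intro p q c
    rw [conj_wd _ (hd q p)]
    apply wd_congr
    filter_upwards [hh] with w hw
    have := congrFun (congrFun hw.eq p) q
    simpa [Matrix.conjTranspose_apply] using this.symm
  set t : Fin d → Matrix (Fin d) (Fin d) ℂ :=
    fun c => Matrix.of fun p q => wd (false, c) (fun w => G w p q) z with ht
  have h2 : (Matrix.of fun p q => fderiv ℝ (fun w => G w p q) z a) =
      ∑ c, a c • t c + ∑ c, conj (a c) • (t c)ᴴ := by
    ext p q
    rw [Matrix.add_apply, Matrix.sum_apply, Matrix.sum_apply, Matrix.of_apply, apply_eq_sum,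
      Fintype.sum_prod_type, Fintype.sum_bool, add_comm]
    congr 1
    refine Finset.sum_congr rfl fun c _ => ?_
    rw [Matrix.smul_apply, Matrix.conjTranspose_apply, ht]
    show _ • wd (true, c) (fun w => G w p q) z = _ • conj _
    rw [h1]
    rfl
  rw [← hbL_apply, h2, map_add, map_sum, map_sum, t3, t3, map_sum]
  congr 1
  · exact Finset.sum_congr rfl fun c _ => by rw [map_smul, hbL_apply, smul_eq_mul]
  · exact Finset.sum_congr rfl fun c _ => by
      rw [map_smul, hbL_apply, smul_eq_mul, hb_conjT, map_mul]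

/-- the 2-form of a real (1,1)-form -/
def K11.f2 (K : K11 A) : F2 (ofAtl A) where
  w i z := bM ((mL (K.g i ((A.e i).symm z))ᵀ).comp iL)
  sm i := bM_smooth ((mL_smooth fun a b => K.sm i b a).clm_comp contDiffOn_const)
  alt i z hz u v := by
    have hz' := (A.e i).map_target hz
    rw [bM_mL_iL (K.herm i _ hz'), bM_mL_iL (K.herm i _ hz'), ← hb_conj (K.herm i _ hz') u v]
    simp
  tr i j z hz u v := by
    have hx : (A.e i).symm z ∈ (A.e i).source ∩ (A.e j).source :=
      ⟨(A.e i).map_target hz.1, hz.2⟩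
    have hj : (A.e j).symm ((ofAtl A).t i j z) = (A.e i).symm z := (A.e j).left_inv hz.2
    rw [bM_mL_iL (K.herm i _ hx.1), hj, bM_mL_iL (K.herm j _ hx.2),
      hb_mulVec (K.g j ((A.e i).symm z)) (Jm A i j ((A.e i).symm z))
        (funext fun b => ofAtl_dt A hz u b) (funext fun b => ofAtl_dt A hz v b), ← K.tr i j _ hx]
  closed i z hz a b c := by
    set G : Cn d → Matrix (Fin d) (Fin d) ℂ := fun w => K.g i ((A.e i).symm w) with hG
    have hd : ∀ a b, DifferentiableAt ℝ (fun w => G w a b) z := fun a b =>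
      (((K.sm i a b).contDiffAt ((A.e i).open_target.mem_nhds hz)).differentiableAt (by simp))
    have hh : ∀ᶠ w in 𝓝 z, (G w).IsHermitian := by
      filter_upwards [(A.e i).open_target.mem_nhds hz] with w hw
      exact K.herm i _ ((A.e i).map_target hw)
    have hw : DifferentiableAt ℝ (fun z => bM ((mL (G z)ᵀ).comp iL)) z :=
      (((bM_smooth ((mL_smooth fun a b => K.sm i b a).clm_comp contDiffOn_const)).contDiffAt
        ((A.e i).open_target.mem_nhds hz)).differentiableAt (by simp))
    have h1 : ∀ a u v, fderiv ℝ (fun z => bM ((mL (G z)ᵀ).comp iL)) z a u v =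
        (I * hb (Matrix.of fun p q => fderiv ℝ (fun w => G w p q) z a) u v).re := by
      intro a u v
      rw [← fderiv_app hw]
      have e1 : (fun y => bM ((mL (G y)ᵀ).comp iL) u v) =ᶠ[𝓝 z]
          fun y => (I * hb (G y) u v).re := by
        filter_upwards [hh] with w hw
        exact bM_mL_iL hw u v
      rw [e1.fderiv_eq]
      have e2 : HasFDerivAt (fun y => I * hb (G y) u v)
          (I • ∑ p, ∑ q, (conj (v q)) • (u p) • fderiv ℝ (fun w => G w p q) z) z := by
        refine HasFDerivAt.const_mul ?_ I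
        refine HasFDerivAt.fun_sum fun p _ => HasFDerivAt.fun_sum fun q _ => ?_
        exact (((hd p q).hasFDerivAt.mul_const (u p)).mul_const (conj (v q)))
      have e3 := (Complex.reCLM.hasFDerivAt.comp z e2).fderiv
      have e4 : (fun y => (I * hb (G y) u v).re) = (Complex.reCLM ∘ fun y => I * hb (G y) u v) :=
        rfl
      rw [e4, e3]
      show ((I • ∑ p, ∑ q, (conj (v q)) • (u p) • fderiv ℝ (fun w => G w p q) z :
        Cn d →L[ℝ] ℂ) a).re = _
      congr 1
      simp only [smul_apply, sum_apply, hb, Matrix.of_apply, smul_eq_mul]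
      congr 1
      refine Finset.sum_congr rfl fun p _ => Finset.sum_congr rfl fun q _ => ?_
      ring
    show fderiv ℝ (fun z => bM ((mL (G z)ᵀ).comp iL)) z a b c +
      fderiv ℝ (fun z => bM ((mL (G z)ᵀ).comp iL)) z b c a +
      fderiv ℝ (fun z => bM ((mL (G z)ᵀ).comp iL)) z c a b = 0
    set t : Fin d → Matrix (Fin d) (Fin d) ℂ :=
      fun c => Matrix.of fun p q => wd (false, c) (fun w => G w p q) z with ht
    have hs : ∀ a b c, t c a b = t a c b := fun a b c => K.closed i z hz a b c
    rw [h1, h1, h1, fderiv_herm hd hh, fderiv_herm hd hh, fderiv_herm hd hh,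
      t3_symm hs a c b, t3_symm hs b a c, t3_symm hs c b a]
    simp only [Complex.mul_re, Complex.add_re, Complex.add_im, Complex.conj_re, Complex.conj_im,
      Complex.I_re, Complex.I_im]
    ring

theorem K11.f2_w (K : K11 A) {i : A.ι} {z : Cn d} (hz : z ∈ (A.e i).target) (u v : Cn d) :
    K.f2.w i z u v = (I * hb (K.g i ((A.e i).symm z)) u v).re :=
  bM_mL_iL (K.herm i _ ((A.e i).map_target hz)) u v

theorem K11.f2_inv (K : K11 A) {i : A.ι} {z : Cn d} (hz : z ∈ (A.e i).target) (u v : Cn d) :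
    K.f2.w i z (I • u) (I • v) = K.f2.w i z u v := by
  rw [K.f2_w hz, K.f2_w hz, hb_I_left, hb_I_right]
  congr 2
  linear_combination (-hb (K.g i ((A.e i).symm z)) u v) * I_mul_I

/-! ### the converse -/

/-- complex scalars and real linear maps -/
theorem map_csmul (F : Cn d →L[ℝ] ℝ) (c : ℂ) (u : Cn d) :
    F (c • u) = c.re * F u + c.im * F (I • u) := by
  have : c • u = c.re • u + c.im • (I • u) := by
    ext a
    simp only [PiLp.smul_apply, PiLp.add_apply, smul_eq_mul, Complex.real_smul]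
    conv_lhs => rw [← Complex.re_add_im c]
    ring
  rw [this, map_add, map_smul, map_smul, smul_eq_mul, smul_eq_mul]

theorem cn_sum (u : Cn d) : u = ∑ a, u a • (EuclideanSpace.single a 1 : Cn d) := by
  conv_lhs => rw [← (EuclideanSpace.basisFun (Fin d) ℂ).sum_repr u]
  simp

/-- the sesquilinear form of an invariant bilinear form -/
def hw (B : Bil (Cn d)) (u v : Cn d) : ℂ := (B u (I • v) : ℂ) - I * (B u v : ℂ)

/-- its matrix -/
def GB (B : Bil (Cn d)) : Matrix (Fin d) (Fin d) ℂ :=
  Matrix.of fun a b => hw B (EuclideanSpace.single a 1) (EuclideanSpace.single b 1)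

theorem hw_csmul_left {B : Bil (Cn d)} (hB : ∀ u v, B (I • u) (I • v) = B u v) (c : ℂ)
    (u v : Cn d) : hw B (c • u) v = c * hw B u v := by
  have h1 : ∀ w, B (c • u) w = c.re * B u w + c.im * B (I • u) w := fun w => by
    have := map_csmul ((ContinuousLinearMap.apply ℝ ℝ w).comp B) c u
    simpa using this
  have h2 : B (I • u) v = -B u (I • v) := by
    have := hB u (I • v)
    rw [smul_smul, I_mul_I, neg_one_smul, map_neg] at this
    linarith
  rw [hw, h1, h1, hB, h2, hw]
  conv_rhs => rw [← Complex.re_add_im c]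
  push_cast
  linear_combination ((c.im : ℂ) * (B u v : ℂ)) * I_mul_I

theorem hw_csmul_right {B : Bil (Cn d)} (c : ℂ) (u v : Cn d) :
    hw B u (c • v) = conj c * hw B u v := by
  have h1 : B u (c • v) = c.re * B u v + c.im * B u (I • v) := map_csmul (B u) c v
  have h2 : B u (I • (c • v)) = c.re * B u (I • v) - c.im * B u v := by
    have h3 := map_csmul (B u) c (I • v)
    rw [smul_comm I c v, h3, smul_smul, I_mul_I, neg_one_smul, map_neg]
    ring
  rw [hw, h1, h2, hw]
  have h4 : conj c = (c.re : ℂ) - (c.im : ℂ) * I := by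
    apply Complex.ext <;> simp
  rw [h4]
  push_cast
  linear_combination (-((c.im : ℂ) * (B u v : ℂ))) * I_mul_I

theorem hw_sum_left (B : Bil (Cn d)) {κ : Type} (s : Finset κ) (u : κ → Cn d) (v : Cn d) :
    hw B (∑ k ∈ s, u k) v = ∑ k ∈ s, hw B (u k) v := by
  simp only [hw, map_sum, sum_apply, Complex.ofReal_sum, Finset.mul_sum,
    Finset.sum_sub_distrib]

theorem hw_sum_right (B : Bil (Cn d)) {κ : Type} (s : Finset κ) (u : Cn d) (v : κ → Cn d) :
    hw B u (∑ k ∈ s, v k) = ∑ k ∈ s, hw B u (v k) := by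
  simp only [hw, Finset.smul_sum, map_sum, Complex.ofReal_sum, Finset.mul_sum,
    Finset.sum_sub_distrib]

theorem hw_eq {B : Bil (Cn d)} (hB : ∀ u v, B (I • u) (I • v) = B u v) (u v : Cn d) :
    hw B u v = hb (GB B) u v := by
  conv_lhs => rw [cn_sum u, cn_sum v]
  rw [hw_sum_left]
  refine Finset.sum_congr rfl fun a _ => ?_
  rw [hw_sum_right]
  refine Finset.sum_congr rfl fun b _ => ?_
  rw [hw_csmul_left hB, hw_csmul_right, GB, Matrix.of_apply]
  ring

theorem eq_hb {B : Bil (Cn d)} (hB : ∀ u v, B (I • u) (I • v) = B u v) (u v : Cn d) :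
    B u v = (I * hb (GB B) u v).re := by
  rw [← hw_eq hB]
  simp [hw]

theorem GB_herm {B : Bil (Cn d)} (hB : ∀ u v, B (I • u) (I • v) = B u v)
    (hA : ∀ u v, B u v = -B v u) : (GB B).IsHermitian := by
  ext a b
  rw [Matrix.conjTranspose_apply, GB, Matrix.of_apply, Matrix.of_apply]
  show conj _ = _
  rw [hw, hw]
  set u : Cn d := EuclideanSpace.single a 1
  set v : Cn d := EuclideanSpace.single b 1
  have h2 : B v (I • u) = B u (I • v) := by
    have := hB v (I • u)
    rw [smul_smul, I_mul_I, neg_one_smul, map_neg] at this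
    rw [hA v (I • u)] at this ⊢
    have h3 := hB u (I • v)
    rw [smul_smul, I_mul_I, neg_one_smul, map_neg] at h3
    linarith
  rw [h2, hA v u]
  apply Complex.ext <;> simp

/-- the matrix determines the form, and conversely -/
theorem GB_bM {G : Matrix (Fin d) (Fin d) ℂ} (hG : G.IsHermitian) :
    GB (bM ((mL Gᵀ).comp iL)) = G := by
  ext a b
  rw [GB, Matrix.of_apply, hw, bM_mL_iL hG, bM_mL_iL hG, hb_I_right, hb_single]
  apply Complex.ext <;> simp

end

end Crest.Agent.R281.HkR_835
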