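import Crest.Agent.R281.Blk3_592
import Crest.Agent.R281.HkR5_835

/-!
# R281 (S0424), blocks of members (helper592), part 5: Fubini-Study forms, static dictionary

* `fsv x v w`   : the Fubini-Study form on the cone over `ℙ(J → ℂ)`:
                  `Re (I (⟨v,w⟩ / |x|² - ⟨v,x⟩⟨x,w⟩ / |x|⁴))`, `⟨v,w⟩ = ∑ v_k conj w_k`
* `fsv_bas`     : `fsv (a x) (a v + b x) (a w + b' x) = fsv x v w`
* `hb_log_sq`   : `hb (hess (log ∑ |F_k|²)) u v`
* `cur_fs_hb`, `f2_fs` : the curvature form of `MapD.fs`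
* `f2_fs_real`  : the same in the real charts `C`, for linked lifts `Q.F a x = c • u i (C.e i x)`
* `F_fs`        : `Cmp.F w = (K11 of cur Q.fs).f2` if `w = fsv u Du Du` in the charts of `C`
-/

set_option autoImplicit false
set_option linter.unusedSectionVars false

open Set Filter Topology Complex Function
open scoped ContDiff Matrix ComplexConjugate Manifold ComplexOrder

namespace Crest.Agent.R281.Blk_592

open Crest.Agent.R275.Geo Crest.Agent.R275.Core144 Crest.Agent.R275.EDR890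
open Crest.Agent.R273.Defs_333 Crest.Agent.R273.Hess_333 Crest.Agent.R273.HessB_333
open Crest.Agent.R273.HM_333 Crest.Agent.R273.Kah_333
open Crest.Agent.R281.HkR_835 Crest.Agent.R281.Ehr2_268 Crest.Agent.R281.Pe_313

noncomputable section

section Form

variable {J : Type} [Fintype J]

/-- `∑ v_k conj w_k` -/
def hp (v w : J → ℂ) : ℂ := ∑ k, v k * conj (w k)

theorem hp_add_left (v v' w : J → ℂ) : hp (v + v') w = hp v w + hp v' w := by
  simp only [hp, Pi.add_apply, add_mul, Finset.sum_add_distrib]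

theorem hp_add_right (v w w' : J → ℂ) : hp v (w + w') = hp v w + hp v w' := by
  simp only [hp, Pi.add_apply, map_add, mul_add, Finset.sum_add_distrib]

theorem hp_smul_left (c : ℂ) (v w : J → ℂ) : hp (c • v) w = c * hp v w := by
  simp only [hp, Pi.smul_apply, smul_eq_mul, Finset.mul_sum, mul_assoc]

theorem hp_smul_right (c : ℂ) (v w : J → ℂ) : hp v (c • w) = conj c * hp v w := by
  simp only [hp, Pi.smul_apply, smul_eq_mul, map_mul, Finset.mul_sum]
  exact Finset.sum_congr rfl fun k _ => by ring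

theorem hp_conj (v w : J → ℂ) : conj (hp v w) = hp w v := by
  simp only [hp, map_sum, map_mul, Complex.conj_conj]
  exact Finset.sum_congr rfl fun k _ => by ring

theorem hp_self (v : J → ℂ) : hp v v = ((∑ k, ‖v k‖ ^ 2 : ℝ) : ℂ) := by
  unfold hp
  rw [ofReal_sum]
  exact Finset.sum_congr rfl fun k _ => by rw [Complex.mul_conj, Complex.normSq_eq_norm_sq]

theorem hp_self_ne {v : J → ℂ} (h : v ≠ 0) : hp v v ≠ 0 := by
  rw [hp_self]
  exact_mod_cast (MapD.sq_pos' h).ne'

/-- the Hermitian form of the Fubini-Study form -/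
def fsh (x v w : J → ℂ) : ℂ := hp v w / hp x x - hp v x * hp x w / (hp x x) ^ 2

/-- the Fubini-Study form -/
def fsv (x v w : J → ℂ) : ℝ := (I * fsh x v w).re

theorem fsh_bas {x : J → ℂ} (hx : x ≠ 0) (v w : J → ℂ) {a : ℂ} (ha : a ≠ 0) (b b' : ℂ) :
    fsh (a • x) (a • v + b • x) (a • w + b' • x) = fsh x v w := by
  have h1 := hp_self_ne hx
  have h2 : conj a ≠ 0 := (map_ne_zero _).2 ha
  unfold fsh
  simp only [hp_add_left, hp_add_right, hp_smul_left, hp_smul_right]
  field_simp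
  ring

theorem fsv_bas {x : J → ℂ} (hx : x ≠ 0) (v w : J → ℂ) {a : ℂ} (ha : a ≠ 0) (b b' : ℂ) :
    fsv (a • x) (a • v + b • x) (a • w + b' • x) = fsv x v w := by
  unfold fsv
  rw [fsh_bas hx v w ha]

theorem fsh_conj (x v w : J → ℂ) : conj (fsh x v w) = fsh x w v := by
  unfold fsh
  simp only [map_sub, map_div₀, map_mul, map_pow, hp_conj]
  ring

theorem fsv_alt (x v w : J → ℂ) : fsv x v w = -fsv x w v := by
  unfold fsv
  rw [← fsh_conj x v w]
  simp

end Form

/-! ### the Hessian -/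

variable {n : ℕ}

/-- the Hermitian form of `∂∂̄ log ∑ |F_k|²` -/
theorem hb_log_sq {N : ℕ} {F : Cn n → Fin N → ℂ} {U : Set (Cn n)} (hU : IsOpen U)
    (hF : ∀ k, DifferentiableOn ℂ (fun z => F z k) U) {z : Cn n} (hz : z ∈ U) (h0 : F z ≠ 0)
    (u v : Cn n) : hb (hess (fun w => Real.log (Crest.Agent.R273.FS_333.sq F w)) z) u v =
      fsh (F z) (fun k => fderiv ℂ (fun z => F z k) z u) (fun k => fderiv ℂ (fun z => F z k) z v) := by
  have hs : ContDiffAt ℝ ∞ (Crest.Agent.R273.FS_333.sq F) z := by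
    refine ContDiffAt.sum fun k _ => ?_
    exact (Crest.Agent.R273.FS_333.contDiffAt_of_hol hU (hF k) hz).norm_sq ℝ
  have hp' := Crest.Agent.R273.FS_333.sq_pos h0
  have hexp : ∀ (v : Cn n) k, fderiv ℂ (fun z => F z k) z v =
      ∑ a, v a * fderiv ℂ (fun z => F z k) z (EuclideanSpace.single a 1) := by
    intro v k
    have hv : v = ∑ c, v c • (EuclideanSpace.single c (1 : ℂ) : Cn n) := by
      ext d
      simp [Finset.sum_apply, Pi.single_apply]
    conv_lhs => rw [hv, map_sum]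
    simp
  have h1 : ∀ a b, hess (fun w => Real.log (Crest.Agent.R273.FS_333.sq F w)) z a b * u a *
        conj (v b) =
      (Crest.Agent.R273.FS_333.sq F z : ℂ)⁻¹ *
        (∑ k, (u a * fderiv ℂ (fun z => F z k) z (EuclideanSpace.single a 1)) *
        conj (v b * fderiv ℂ (fun z => F z k) z (EuclideanSpace.single b 1))) -
      ((Crest.Agent.R273.FS_333.sq F z : ℂ)⁻¹) ^ 2 * ((∑ k, (u a * fderiv ℂ (fun z => F z k) z
        (EuclideanSpace.single a 1)) * conj (F z k)) *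
        (∑ k, F z k * conj (v b * fderiv ℂ (fun z => F z k) z
        (EuclideanSpace.single b 1)))) := by
    intro a b
    rw [Crest.Agent.R273.FS_333.hess_log hs hp', Crest.Agent.R273.FS_333.hess_sq hU hF hz,
      Crest.Agent.R273.FS_333.wd_sq hU hF hz, Crest.Agent.R273.FS_333.wd_sq' hU hF hz]
    simp only [map_mul, Finset.mul_sum, Finset.sum_mul, sub_mul]
    congr 1
    · refine Finset.sum_congr rfl fun k _ => by ring
    · refine Finset.sum_congr rfl fun k _ => Finset.sum_congr rfl fun l _ => by ring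
  unfold hb
  rw [Finset.sum_congr rfl fun a _ => Finset.sum_congr rfl fun b _ => h1 a b]
  simp only [Finset.sum_sub_distrib, ← Finset.mul_sum]
  have h2 : ∑ a, ∑ b, ∑ k, (u a * fderiv ℂ (fun z => F z k) z (EuclideanSpace.single a 1)) *
        conj (v b * fderiv ℂ (fun z => F z k) z (EuclideanSpace.single b 1)) =
      ∑ k, fderiv ℂ (fun z => F z k) z u * conj (fderiv ℂ (fun z => F z k) z v) := by
    rw [Finset.sum_congr rfl fun a _ => Finset.sum_comm, Finset.sum_comm]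
    refine Finset.sum_congr rfl fun k _ => ?_
    rw [hexp u k, hexp v k, map_sum, Finset.sum_mul_sum]
  have h3 : ∑ a, ∑ k, (u a * fderiv ℂ (fun z => F z k) z (EuclideanSpace.single a 1)) *
        conj (F z k) = ∑ k, fderiv ℂ (fun z => F z k) z u * conj (F z k) := by
    rw [Finset.sum_comm]
    refine Finset.sum_congr rfl fun k _ => ?_
    rw [hexp, Finset.sum_mul]
  have h4 : ∑ b, ∑ k, F z k * conj (v b * fderiv ℂ (fun z => F z k) z
        (EuclideanSpace.single b 1)) = ∑ k, F z k * conj (fderiv ℂ (fun z => F z k) z v) := by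
    rw [Finset.sum_comm]
    refine Finset.sum_congr rfl fun k _ => ?_
    rw [hexp v, map_sum, Finset.mul_sum]
  rw [h2, ← Finset.sum_mul, h3, h4]
  have h5 : hp (F z) (F z) = (Crest.Agent.R273.FS_333.sq F z : ℂ) := hp_self _
  unfold fsh
  rw [h5]
  simp only [hp]
  rw [div_eq_inv_mul, div_eq_inv_mul, inv_pow]

variable {M : Type} [TopologicalSpace M] {A : Atl n M}

section Cur

variable {J : Type} [Fintype J] (Q : MapD A J)

/-- the curvature of the Fubini-Study metric as a Hermitian form -/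
theorem cur_fs_hb {i : A.ι} {x : M} (hx : x ∈ (A.e i).source) (u v : Cn n) :
    hb (cur Q.fs i x) u v =
      fsh (Q.F i x) (fderiv ℂ (fun w => Q.F i ((A.e i).symm w)) (A.e i x) u)
        (fderiv ℂ (fun w => Q.F i ((A.e i).symm w)) (A.e i x) v) := by
  have hz := (A.e i).map_source hx
  unfold cur
  rw [Q.wt_fs', hb_log_sq (A.e i).open_target (Q.Fe_diff i) hz (Q.Fe_ne hz)]
  have hd : DifferentiableAt ℂ (fun w => Q.F i ((A.e i).symm w)) (A.e i x) :=
    differentiableAt_pi.2 fun k =>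
      (Q.diffOn i k).differentiableAt ((A.e i).open_target.mem_nhds hz)
  have e1 : ∀ (v : Cn n) (k : J), fderiv ℂ (fun w => Q.F i ((A.e i).symm w)) (A.e i x) v k =
      fderiv ℂ (fun w => Q.F i ((A.e i).symm w) k) (A.e i x) v := by
    intro v k
    have h6 := (hasFDerivAt_pi'.1 hd.hasFDerivAt) k
    rw [h6.fderiv]
    rfl
  have e2 : ∀ f g : J → ℂ, hp (fun k => f ((Fintype.equivFin J).symm k))
      (fun k => g ((Fintype.equivFin J).symm k)) = hp f g := fun f g =>
    Equiv.sum_comp (Fintype.equivFin J).symm (fun k => f k * conj (g k))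
  have e3 : Q.Fe i (A.e i x) = fun k => Q.F i x ((Fintype.equivFin J).symm k) := by
    funext k
    show Q.F i ((A.e i).symm (A.e i x)) _ = _
    rw [(A.e i).left_inv hx]
  have e4 : ∀ v : Cn n, (fun k => fderiv ℂ (fun z => Q.Fe i z k) (A.e i x) v) = fun k =>
      fderiv ℂ (fun w => Q.F i ((A.e i).symm w)) (A.e i x) v ((Fintype.equivFin J).symm k) := by
    intro v
    funext k
    rw [e1]
    rfl
  unfold fsh
  rw [e3, e4, e4, e2, e2, e2, e2]

/-- the curvature form -/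
theorem f2_fs (K : K11 A) (hK : ∀ i, ∀ x ∈ (A.e i).source, K.g i x = cur Q.fs i x) {i : A.ι}
    {z : Cn n} (hz : z ∈ (A.e i).target) (u v : Cn n) :
    K.f2.w i z u v = fsv (Q.F i ((A.e i).symm z))
      (fderiv ℝ (fun w => Q.F i ((A.e i).symm w)) z u)
      (fderiv ℝ (fun w => Q.F i ((A.e i).symm w)) z v) := by
  have hx := (A.e i).map_target hz
  have hd : DifferentiableAt ℂ (fun w => Q.F i ((A.e i).symm w)) z :=
    differentiableAt_pi.2 fun k =>
      (Q.diffOn i k).differentiableAt ((A.e i).open_target.mem_nhds hz)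
  rw [K.f2_w hz, hK i _ hx, cur_fs_hb Q hx, (A.e i).right_inv hz, hd.fderiv_restrictScalars ℝ]
  rfl

end Cur

/-! ### real charts -/

section Real

variable {J : Type} [Fintype J] (Q : MapD A J)
variable {V : Type} [NormedAddCommGroup V] [NormedSpace ℝ V] {C : RCh V M}

/-- `u` is a local lift at `y` (chart `i`) of the map `Q` -/
structure LkAt (Q : MapD A J) (C : RCh V M) (i : C.ι) (y : V) (u : V → J → ℂ) : Prop where
  sm : ContDiffAt ℝ ∞ u y
  eq : ∀ᶠ y' in 𝓝 y, ∀ a, (C.e i).symm y' ∈ (A.e a).source → ∃ c : ℂ, c ≠ 0 ∧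
    Q.F a ((C.e i).symm y') = c • u y'

/-- linked lifts -/
structure Lk (Q : MapD A J) (u : C.ι → V → J → ℂ) : Prop where
  cmp : Cmp C (ofAtl A)
  sm : ∀ i, ContDiffOn ℝ ∞ (u i) (C.e i).target
  eq : ∀ a i, ∀ x ∈ (A.e a).source, x ∈ (C.e i).source → ∃ c : ℂ, c ≠ 0 ∧
    Q.F a x = c • u i (C.e i x)

variable {Q}

theorem Lk.at {u : C.ι → V → J → ℂ} (h : Lk Q u) {i : C.ι} {y : V} (hy : y ∈ (C.e i).target) :
    LkAt Q C i y (u i) := by
  refine ⟨(h.sm i).contDiffAt ((C.e i).open_target.mem_nhds hy), ?_⟩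
  filter_upwards [(C.e i).open_target.mem_nhds hy] with y' hy' a ha
  obtain ⟨c, hc, he⟩ := h.eq a i _ ha ((C.e i).map_target hy')
  rw [(C.e i).right_inv hy'] at he
  exact ⟨c, hc, he⟩

/-- the derivatives of local lifts -/
theorem LkAt.deriv (hcmp : Cmp C (ofAtl A)) {i : C.ι} {a : A.ι} {z : Cn n}
    (hz : z ∈ mov C (ofAtl A) i a) {u : V → J → ℂ} (h : LkAt Q C i (mt C (ofAtl A) i a z) u) :
    ∃ (c : ℂ) (b : Cn n → ℂ), c ≠ 0 ∧ Q.F a ((A.e a).symm z) = c • u (mt C (ofAtl A) i a z) ∧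
      ∀ ξ, fderiv ℝ (fun w => Q.F a ((A.e a).symm w)) z ξ =
        c • fderiv ℝ u (mt C (ofAtl A) i a z) (fderiv ℝ (mt C (ofAtl A) i a) z ξ) +
          b ξ • u (mt C (ofAtl A) i a z) := by
  have hza : z ∈ (A.e a).target := hz.1
  have hx : (A.e a).symm z ∈ (A.e a).source := (A.e a).map_target hza
  set y := mt C (ofAtl A) i a z with hy
  have hsy : ∀ w ∈ mov C (ofAtl A) i a, (C.e i).symm (mt C (ofAtl A) i a w) = (A.e a).symm w :=
    fun w hw => (C.e i).left_inv hw.2
  have hm : DifferentiableAt ℝ (mt C (ofAtl A) i a) z := hcmp.diff hz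
  have hev0 : ∀ᶠ w in 𝓝 z, ∃ c : ℂ, c ≠ 0 ∧
      Q.F a ((A.e a).symm w) = c • u (mt C (ofAtl A) i a w) := by
    filter_upwards [hm.continuousAt.eventually h.eq,
      (Cmp.isOpen_mov C (ofAtl A) i a).mem_nhds hz] with w hw hwm
    have h1 := hw a (by rw [hsy w hwm]; exact (A.e a).map_target hwm.1)
    rwa [hsy w hwm] at h1
  obtain ⟨c, hc, he⟩ := hev0.self_of_nhds
  have hu : DifferentiableAt ℝ u y := h.sm.differentiableAt (by simp)
  have hF : DifferentiableAt ℝ (fun w => Q.F a ((A.e a).symm w)) z :=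
    (differentiableAt_pi.2 fun k =>
      (Q.diffOn a k).differentiableAt ((A.e a).open_target.mem_nhds hza)).restrictScalars ℝ
  obtain ⟨k, hk⟩ := Q.exists_F_ne hx
  have huk : u y k ≠ 0 := by
    intro h0
    apply hk
    rw [he, Pi.smul_apply]
    show c • u y k = 0
    rw [h0, smul_zero]
  -- the scalar
  set s : Cn n → ℂ := fun w => Q.F a ((A.e a).symm w) k * (u (mt C (ofAtl A) i a w) k)⁻¹ with hs
  have hUm : HasFDerivAt (fun w => u (mt C (ofAtl A) i a w))
      ((fderiv ℝ u y).comp (fderiv ℝ (mt C (ofAtl A) i a) z)) z :=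
    HasFDerivAt.comp (g := u) (f := mt C (ofAtl A) i a) z hu.hasFDerivAt hm.hasFDerivAt
  have hUk : DifferentiableAt ℝ (fun w => u (mt C (ofAtl A) i a w) k) z :=
    ((hasFDerivAt_pi'.1 hUm) k).differentiableAt
  have hFk : DifferentiableAt ℝ (fun w => Q.F a ((A.e a).symm w) k) z :=
    (differentiableAt_pi.1 hF) k
  have hsd : DifferentiableAt ℝ s z := hFk.mul (hUk.inv huk)
  have hev : (fun w => Q.F a ((A.e a).symm w)) =ᶠ[𝓝 z]
      fun w => s w • u (mt C (ofAtl A) i a w) := by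
    filter_upwards [hev0, hUk.continuousAt.eventually_ne huk] with w hw hwk
    obtain ⟨c', hc', e1⟩ := hw
    have e2 : s w = c' := by
      show Q.F a ((A.e a).symm w) k * (u (mt C (ofAtl A) i a w) k)⁻¹ = c'
      rw [e1, Pi.smul_apply, smul_eq_mul, mul_assoc, mul_inv_cancel₀ hwk, mul_one]
    rw [e2, e1]
  have hsz : s z = c := by
    show Q.F a ((A.e a).symm z) k * (u y k)⁻¹ = c
    rw [he, Pi.smul_apply, smul_eq_mul]
    show c * u y k * (u y k)⁻¹ = c
    rw [mul_assoc, mul_inv_cancel₀ huk, mul_one]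
  refine ⟨c, fun ξ => fderiv ℝ s z ξ, hc, he, fun ξ => ?_⟩
  have h1 := (hsd.hasFDerivAt.smul hUm).fderiv
  rw [hev.fderiv_eq]
  have h2 : (fun w => s w • u (mt C (ofAtl A) i a w)) = s • fun w => u (mt C (ofAtl A) i a w) :=
    rfl
  rw [h2, h1]
  show s z • (fderiv ℝ u y (fderiv ℝ (mt C (ofAtl A) i a) z ξ)) + fderiv ℝ s z ξ • u y = _
  rw [hsz]

/-- the curvature form in the real charts -/
theorem f2_fs_real (hcmp : Cmp C (ofAtl A)) (K : K11 A)
    (hK : ∀ i, ∀ x ∈ (A.e i).source, K.g i x = cur Q.fs i x) {i : C.ι} {a : A.ι} {z : Cn n}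
    (hz : z ∈ mov C (ofAtl A) i a) {u : V → J → ℂ} (h : LkAt Q C i (mt C (ofAtl A) i a z) u)
    (ξ η : Cn n) :
    K.f2.w a z ξ η = fsv (u (mt C (ofAtl A) i a z))
      (fderiv ℝ u (mt C (ofAtl A) i a z) (fderiv ℝ (mt C (ofAtl A) i a) z ξ))
      (fderiv ℝ u (mt C (ofAtl A) i a z) (fderiv ℝ (mt C (ofAtl A) i a) z η)) := by
  obtain ⟨c, b, hc, h1, h2⟩ := LkAt.deriv hcmp hz h
  have h0 : u (mt C (ofAtl A) i a z) ≠ 0 := by
    intro h0
    refine Q.ne a _ ((A.e a).map_target hz.1) ?_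
    rw [h1, h0, smul_zero]
  rw [f2_fs Q K hK hz.1, h1, h2, h2, fsv_bas h0 _ _ hc]

/-- **the static dictionary**: if `w = fsv u Du Du` for local lifts `u` in the charts of `C` then
`w` is the curvature form of `Q.fs` -/
theorem F_fs (hcmp : Cmp C (ofAtl A)) (K : K11 A)
    (hK : ∀ i, ∀ x ∈ (A.e i).source, K.g i x = cur Q.fs i x) (w : F2 C)
    (hw : ∀ i, ∀ y ∈ (C.e i).target, ∃ u, LkAt Q C i y u ∧ ∀ v v' : V, w.w i y v v' =
      fsv (u y) (fderiv ℝ u y v) (fderiv ℝ u y v')) {a : A.ι} {z : Cn n}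
    (hz : z ∈ (A.e a).target) (ξ η : Cn n) : (hcmp.F w).w a z ξ η = K.f2.w a z ξ η := by
  obtain ⟨i, hi⟩ := Cmp.exists_mov C (C' := ofAtl A) hz
  obtain ⟨u, hu, hw'⟩ := hw i _ (Cmp.mt_mem hi).1
  rw [hcmp.F_w w hi, f2_fs_real hcmp K hK hi hu, hw']

/-- the static dictionary for global lifts -/
theorem Lk.F_fs {u : C.ι → V → J → ℂ} (h : Lk Q u) (K : K11 A)
    (hK : ∀ i, ∀ x ∈ (A.e i).source, K.g i x = cur Q.fs i x) (w : F2 C)
    (hw : ∀ i, ∀ y ∈ (C.e i).target, ∀ v v' : V, w.w i y v v' =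
      fsv (u i y) (fderiv ℝ (u i) y v) (fderiv ℝ (u i) y v')) {a : A.ι} {z : Cn n}
    (hz : z ∈ (A.e a).target) (ξ η : Cn n) : (h.cmp.F w).w a z ξ η = K.f2.w a z ξ η :=
  Blk_592.F_fs h.cmp K hK w (fun i y hy => ⟨u i, h.at hy, hw i y hy⟩) hz ξ η

end Real

/-! ### the local lifts of a member and of its blocks -/

section Members

variable {V : Type} [NormedAddCommGroup V] [NormedSpace ℝ V] {C : RCh V M}
variable {ι : Type} [Fintype ι] [DecidableEq ι] {J : ι → Type} [∀ k, Fintype (J k)]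
variable {K : ℕ} {P : HEmb C ((∀ k, J k) → ℂ)} {e : (∀ k, J k) ≃ Fin (K + 1)}

/-- the homogeneous coordinates of a member are local lifts of its Segre map -/
theorem hmap_lk (h : HolA P (bE e) A) (κ : A.ι → Fin (K + 1))
    (hκ : ∀ a, (A.e a).source ⊆ OX P (bE e) (κ a)) : Lk (hmap h κ hκ) P.u := by
  refine ⟨h.cmp, P.sm, fun a i x hx hi => ?_⟩
  have h1 := (mem_OX hi).1 (hκ a hx)
  refine ⟨(bE e (P.u i (C.e i x)) (κ a))⁻¹, inv_ne_zero h1.2, ?_⟩
  rw [hmap_F, nuX_eq hi (hκ a hx)]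
  funext α
  show (bE e (P.u i (C.e i x)) (κ a))⁻¹ * bE e (P.u i (C.e i x)) (e α) = _
  rw [bE_apply']
  rfl

/-- the extracted coordinates are local lifts of the block map -/
theorem hblk_lkAt (h : HolA P (bE e) A) (κ : A.ι → Fin (K + 1))
    (hκ : ∀ a, (A.e a).source ⊆ OX P (bE e) (κ a)) (hS : ∀ w ∈ P.cone, SegRel w) (k : ι)
    {i : C.ι} {y : V} (hy : y ∈ (C.e i).target) {α : ∀ k, J k} (hα : P.u i y α ≠ 0) :
    LkAt (hblk h κ hκ hS k) C i y (fun y => ext k α (P.u i y)) := by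
  have hu : ContDiffAt ℝ ∞ (P.u i) y := (P.sm i).contDiffAt ((C.e i).open_target.mem_nhds hy)
  refine ⟨(((extL k α).restrictScalars ℝ).contDiff.contDiffAt (x := P.u i y)).comp y hu, ?_⟩
  have hc : ContinuousAt (fun y => P.u i y α) y :=
    (continuous_apply α).continuousAt.comp hu.continuousAt
  filter_upwards [(C.e i).open_target.mem_nhds hy, hc.eventually_ne hα] with y' hy' hα' a ha
  have hi := (C.e i).map_target hy'
  obtain ⟨c, hc, h1⟩ := hblk_eq h κ hκ hS ha hi k
  rw [(C.e i).right_inv hy'] at h1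
  have hSu : SegRel (P.u i y') := hS _ (P.mem_cone hy')
  have h2 := (dext_indep' hSu (v := P.u i y') (fun k a a' => by
      have := hSu k a a'
      linear_combination 2 * this) k (a₀ := e.symm (κ a)) hα').1
  have h3 : P.u i y' (e.symm (κ a)) ≠ 0 := by
    have h4 := ((mem_OX hi).1 (hκ a ha)).2
    rw [(C.e i).right_inv hy'] at h4
    exact h4
  refine ⟨c * (P.u i y' (update (e.symm (κ a)) k (α k)) / P.u i y' α),
    mul_ne_zero hc (div_ne_zero (ext_scal_ne hSu k h3 hα') hα'), ?_⟩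
  rw [h1, h2, smul_smul]

end Members

end

end Crest.Agent.R281.Blk_592
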