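import Crest.Agent.R273.BochI_101

/-!
# R281 (S0424), S-BOCH (helper815), part 1: Laplacians of norms of holomorphic sections

Pointwise calculus on `Cn n`, everything at one point `z` with germs.  `K : Cn n → Matrix (Fin n)`
is the base metric (`K b a = g_{a b̄}`), `G : Cn n → Matrix κ κ ℂ` a fibre metric, `V` a matrix
whose columns are holomorphic sections.

* `tk K z F = ∑_{cd} (K⁻¹)_{cd} F_{cd}`; `lap K f z = tk K z (hess f z)` (real part);
  `gsq K f z = |∂f|²_K`;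
* `Dp G V c z = ∂_c V + G⁻¹ ∂_c G V`; `nsq G V = tr (Vᴴ G V)`; `ene K G V = |D'V|²`;
  `cvt K G V = tr_K tr (Vᴴ (rm G) V)`;
* `lap_nsq : lap (nsq) = ene - cvt`; `ene_nonneg`; `gsq_nsq_le : gsq nsq ≤ nsq * ene`;
* `lap_comp : lap (φ ∘ f) = φ' lap f + φ'' gsq f`;
* `lap_log_add_ge : lap log (nsq + e) ≥ e ene / (nsq + e)² - cvt / (nsq + e)`;
* `lap_log_ge : lap log nsq ≥ - cvt / nsq`.
-/

set_option autoImplicit false
set_option linter.unusedSectionVars false

open Finset Matrix Complex Filter Topology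
open scoped ContDiff ComplexConjugate Kronecker ComplexOrder

namespace Crest.Agent.R281.Bo1_815

open Crest.Agent.R275.Geo Crest.Agent.R275.EDR890
open Crest.Agent.R273.Fock_243 Crest.Agent.R273.Calc_243
open Crest.Agent.R273.Bkn_243 Crest.Agent.R273.Pos_243 Crest.Agent.R273.BochA_101
open Crest.Agent.R273.BochB_101 Crest.Agent.R273.BochC_101 Crest.Agent.R273.BochD_101
open Crest.Agent.R273.Hess_333 Crest.Agent.R273.HessB_333 Crest.Agent.R273.FIa0_597

noncomputable section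

variable {n : ℕ} {κ ρ : Type} [Fintype κ] [Fintype ρ] [DecidableEq κ] [DecidableEq ρ]

/-! ### contraction with the inverse metric -/

/-- `∑_{cd} (K⁻¹)_{cd} F_{cd}` -/
def tk (K : Cn n → Matrix (Fin n) (Fin n) ℂ) (z : Cn n) (F : Fin n → Fin n → ℂ) : ℂ :=
  ∑ c, ∑ d, (K z)⁻¹ c d * F c d

variable {K : Cn n → Matrix (Fin n) (Fin n) ℂ} {z : Cn n}

theorem tk_congr {F F' : Fin n → Fin n → ℂ} (h : ∀ c d, F c d = F' c d) :
    tk K z F = tk K z F' := by
  have : F = F' := by funext c d; exact h c d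
  rw [this]

theorem tk_add (F F' : Fin n → Fin n → ℂ) :
    tk K z (fun c d => F c d + F' c d) = tk K z F + tk K z F' := by
  simp only [tk, mul_add, Finset.sum_add_distrib]

theorem tk_sub (F F' : Fin n → Fin n → ℂ) :
    tk K z (fun c d => F c d - F' c d) = tk K z F - tk K z F' := by
  simp only [tk, mul_sub, Finset.sum_sub_distrib]

theorem tk_neg (F : Fin n → Fin n → ℂ) :
    tk K z (fun c d => - F c d) = - tk K z F := by
  simp only [tk, mul_neg, Finset.sum_neg_distrib]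

theorem tk_smul (t : ℂ) (F : Fin n → Fin n → ℂ) :
    tk K z (fun c d => t * F c d) = t * tk K z F := by
  simp only [tk, Finset.mul_sum]
  exact Finset.sum_congr rfl fun c _ => Finset.sum_congr rfl fun d _ => by ring

theorem tk_zero : tk K z (fun _ _ => 0) = 0 := by simp [tk]

theorem tk_sum {ι : Type*} (s : Finset ι) (F : ι → Fin n → Fin n → ℂ) :
    tk K z (fun c d => ∑ i ∈ s, F i c d) = ∑ i ∈ s, tk K z (F i) := by
  classical
  induction s using Finset.induction_on with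
  | empty => simp [tk]
  | insert i s hi ih =>
    simp_rw [Finset.sum_insert hi]
    rw [tk_add, ih]

/-- contraction of a Hermitian family is real -/
theorem tk_conj (hK : (K z).IsHermitian) (F : Fin n → Fin n → ℂ) :
    conj (tk K z F) = tk K z (fun c d => conj (F d c)) := by
  have h1 : ∀ c d, conj ((K z)⁻¹ c d) = (K z)⁻¹ d c := fun c d => by
    have := congrFun (congrFun hK.inv.eq d) c
    rwa [Matrix.conjTranspose_apply] at this
  simp only [tk, map_sum, map_mul, h1]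
  exact Finset.sum_comm

theorem tk_real (hK : (K z).IsHermitian) {F : Fin n → Fin n → ℂ}
    (hF : ∀ c d, conj (F d c) = F c d) : ((tk K z F).re : ℂ) = tk K z F := by
  have h1 : conj (tk K z F) = tk K z F := by
    rw [tk_conj hK]
    exact tk_congr hF
  exact Complex.conj_eq_iff_re.1 h1

theorem tk_nonneg (hK : (K z).PosDef) {F : Fin n → Fin n → ℂ}
    (hF : (Matrix.of F).PosSemidef) : 0 ≤ (tk K z F).re := by
  have h1 : tk K z F = ((K z)⁻¹ * (Matrix.of F)ᵀ).trace := by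
    simp only [tk, Matrix.trace, Matrix.diag, Matrix.mul_apply, Matrix.transpose_apply,
      Matrix.of_apply]
  rw [h1]
  exact tr_re_nonneg hK hF.transpose

/-! ### Laplacian and gradient of real functions -/

/-- the (complex) Laplacian `g^{c d̄} ∂_c ∂_{d̄} f` -/
def lap (K : Cn n → Matrix (Fin n) (Fin n) ℂ) (f : Cn n → ℝ) (z : Cn n) : ℝ :=
  (tk K z (fun c d => hess f z c d)).re

/-- `|∂f|²_K = g^{c d̄} ∂_c f ∂_{d̄} f` -/
def gsq (K : Cn n → Matrix (Fin n) (Fin n) ℂ) (f : Cn n → ℝ) (z : Cn n) : ℝ :=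
  (tk K z (fun c d => dS (-I) c (cu f) z * dS I d (cu f) z)).re

theorem lap_real (hK : (K z).IsHermitian) {f : Cn n → ℝ} (hf : ContDiffAt ℝ ∞ f z) :
    ((lap K f z : ℝ) : ℂ) = tk K z (fun c d => hess f z c d) :=
  tk_real hK fun c d => hess_symm hf d c

theorem dS_bar {f : Cn n → ℝ} (hf : DifferentiableAt ℝ f z) (d : Fin n) :
    dS I d (cu f) z = conj (dS (-I) d (cu f) z) := by
  have h := conj_wd_real (false, d) hf
  exact h.symm

theorem gsq_real (hK : (K z).IsHermitian) {f : Cn n → ℝ} (hf : DifferentiableAt ℝ f z) :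
    ((gsq K f z : ℝ) : ℂ) = tk K z (fun c d => dS (-I) c (cu f) z * dS I d (cu f) z) := by
  refine tk_real hK fun c d => ?_
  rw [dS_bar hf, dS_bar hf, map_mul, Complex.conj_conj, mul_comm]

theorem gsq_nonneg (hK : (K z).PosDef) {f : Cn n → ℝ} (hf : DifferentiableAt ℝ f z) :
    0 ≤ gsq K f z := by
  have h1 : (Matrix.of fun c d => dS (-I) c (cu f) z * dS I d (cu f) z) =
      Matrix.vecMulVec (fun c => dS (-I) c (cu f) z) (star fun c => dS (-I) c (cu f) z) := by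
    ext c d
    rw [Matrix.of_apply, Matrix.vecMulVec_apply, dS_bar hf]
    rfl
  refine tk_nonneg hK ?_
  rw [h1]
  exact Matrix.posSemidef_vecMulVec_self_star _

theorem lap_congr {f f' : Cn n → ℝ} (h : f =ᶠ[𝓝 z] f') : lap K f z = lap K f' z := by
  unfold lap
  rw [hess_congr h]

theorem lap_add {f f' : Cn n → ℝ} (hf : ContDiffAt ℝ ∞ f z) (hf' : ContDiffAt ℝ ∞ f' z) :
    lap K (fun w => f w + f' w) z = lap K f z + lap K f' z := by
  unfold lap
  rw [hess_add hf hf', ← Complex.add_re, ← tk_add]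
  rfl

theorem lap_sub {f f' : Cn n → ℝ} (hf : ContDiffAt ℝ ∞ f z) (hf' : ContDiffAt ℝ ∞ f' z) :
    lap K (fun w => f w - f' w) z = lap K f z - lap K f' z := by
  unfold lap
  rw [hess_sub hf hf', ← Complex.sub_re, ← tk_sub]
  rfl

theorem lap_const_mul {f : Cn n → ℝ} (c : ℝ) (hf : ContDiffAt ℝ ∞ f z) :
    lap K (fun w => c * f w) z = c * lap K f z := by
  unfold lap
  rw [hess_const_mul c hf, ← Complex.re_ofReal_mul, ← tk_smul]
  rfl

theorem hess_const (c : ℝ) : hess (fun _ : Cn n => c) z = 0 := by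
  ext a b
  rw [hess_eq]
  have h1 : dS I b (cu fun _ : Cn n => c) = fun _ => 0 := by
    funext y
    exact dS_const
  rw [h1, dS_const]
  rfl

theorem lap_const (c : ℝ) : lap K (fun _ => c) z = 0 := by
  unfold lap
  simp [hess_const, tk]

theorem lap_sum {ι : Type*} (s : Finset ι) {f : ι → Cn n → ℝ}
    (hf : ∀ i ∈ s, ContDiffAt ℝ ∞ (f i) z) :
    lap K (fun w => ∑ i ∈ s, f i w) z = ∑ i ∈ s, lap K (f i) z := by
  classical
  induction s using Finset.induction_on with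
  | empty => simp [lap_const]
  | insert i s hi ih =>
    simp_rw [Finset.sum_insert hi]
    rw [lap_add (hf i (Finset.mem_insert_self i s))
      (ContDiffAt.sum fun j hj => hf j (Finset.mem_insert_of_mem hj)),
      ih fun j hj => hf j (Finset.mem_insert_of_mem hj)]

/-- chain rule -/
theorem lap_comp {φ φ' : ℝ → ℝ} {d2 : ℝ} {f : Cn n → ℝ}
    (hf : ContDiffAt ℝ ∞ f z) (h1 : ∀ᶠ s in 𝓝 (f z), HasDerivAt φ (φ' s) s)
    (h2 : HasDerivAt φ' d2 (f z)) :
    lap K (fun w => φ (f w)) z = φ' (f z) * lap K f z + d2 * gsq K f z := by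
  have h3 : ∀ c d, hess (fun w => φ (f w)) z c d = (φ' (f z) : ℂ) * hess f z c d +
      (d2 : ℂ) * (dS (-I) c (cu f) z * dS I d (cu f) z) := fun c d =>
    hess_comp_real hf h1 h2 c d
  unfold lap gsq
  rw [tk_congr h3, tk_add, tk_smul _ (fun c d => hess f z c d), tk_smul, Complex.add_re,
    Complex.re_ofReal_mul, Complex.re_ofReal_mul]

/-- product rule, with the mixed gradient term -/
def gin (K : Cn n → Matrix (Fin n) (Fin n) ℂ) (f g : Cn n → ℝ) (z : Cn n) : ℝ :=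
  (tk K z (fun c d => dS (-I) c (cu f) z * dS I d (cu g) z)).re

theorem hess_mul {f g : Cn n → ℝ} (hf : ContDiffAt ℝ ∞ f z) (hg : ContDiffAt ℝ ∞ g z)
    (c d : Fin n) :
    hess (fun w => f w * g w) z c d = (f z : ℂ) * hess g z c d + (g z : ℂ) * hess f z c d
      + dS (-I) c (cu f) z * dS I d (cu g) z + dS (-I) c (cu g) z * dS I d (cu f) z := by
  have h1 : dS I d (cu fun w => f w * g w) =ᶠ[𝓝 z] fun w =>
      dS I d (cu f) w * cu g w + cu f w * dS I d (cu g) w := by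
    filter_upwards [eventually_diff hf, eventually_diff hg] with w hw hw'
    have h2 : (cu fun w => f w * g w) = fun w => cu f w * cu g w := by
      funext w
      simp [cu]
    rw [h2, dS_mul hw hw']
  have hf1 : Sm z (cu f) := contDiffAt_cu hf
  have hg1 : Sm z (cu g) := contDiffAt_cu hg
  have hf2 : Sm z (dS I d (cu f)) := hf1.dS _ _
  have hg2 : Sm z (dS I d (cu g)) := hg1.dS _ _
  have h3 : dS (-I) c (fun w => dS I d (cu f) w * cu g w + cu f w * dS I d (cu g) w) z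
      = dS (-I) c (fun w => dS I d (cu f) w * cu g w) z
        + dS (-I) c (fun w => cu f w * dS I d (cu g) w) z :=
    dS_add (hf2.diff.mul hg1.diff) (hf1.diff.mul hg2.diff)
  rw [hess_eq, dS_congr h1, h3, dS_mul hf2.diff hg1.diff, dS_mul hf1.diff hg2.diff, ← hess_eq,
    ← hess_eq]
  simp only [cu]
  ring

theorem gin_comm (hK : (K z).IsHermitian) {f g : Cn n → ℝ} (hf : DifferentiableAt ℝ f z)
    (hg : DifferentiableAt ℝ g z) : gin K f g z = gin K g f z := by
  unfold gin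
  have h1 : tk K z (fun c d => dS (-I) c (cu g) z * dS I d (cu f) z)
      = conj (tk K z (fun c d => dS (-I) c (cu f) z * dS I d (cu g) z)) := by
    rw [tk_conj hK]
    refine tk_congr fun c d => ?_
    rw [map_mul, dS_bar hf, dS_bar hg, Complex.conj_conj, mul_comm]
  rw [h1, Complex.conj_re]

theorem lap_mul (hK : (K z).IsHermitian) {f g : Cn n → ℝ} (hf : ContDiffAt ℝ ∞ f z)
    (hg : ContDiffAt ℝ ∞ g z) :
    lap K (fun w => f w * g w) z = f z * lap K g z + g z * lap K f z + 2 * gin K f g z := by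
  have h1 := gin_comm hK (hf.differentiableAt (by simp)) (hg.differentiableAt (by simp))
  have h2 : lap K (fun w => f w * g w) z
      = f z * lap K g z + g z * lap K f z + gin K f g z + gin K g f z := by
    unfold lap gin
    rw [tk_congr fun c d => hess_mul hf hg c d, tk_add, tk_add, tk_add,
      tk_smul _ (fun c d => hess f z c d), tk_smul _ (fun c d => hess g z c d),
      Complex.add_re, Complex.add_re, Complex.add_re, Complex.re_ofReal_mul,
      Complex.re_ofReal_mul]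
  rw [h2, ← h1]
  ring

/-! ### holomorphic sections of a Hermitian bundle -/

/-- Chern covariant derivative of (the columns of) `V` in the direction `∂_c` -/
def Dp (G : Cn n → Matrix κ κ ℂ) (V : Cn n → Matrix κ ρ ℂ) (c : Fin n) (z : Cn n) :
    Matrix κ ρ ℂ :=
  dM (-I) c V z + (G z)⁻¹ * dM (-I) c G z * V z

/-- `|V|²_G`, summed over the columns -/
def nsq (G : Cn n → Matrix κ κ ℂ) (V : Cn n → Matrix κ ρ ℂ) (y : Cn n) : ℝ :=
  ((V y)ᴴ * G y * V y).trace.re

/-- `|D'V|²` -/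
def ene (K : Cn n → Matrix (Fin n) (Fin n) ℂ) (G : Cn n → Matrix κ κ ℂ)
    (V : Cn n → Matrix κ ρ ℂ) (z : Cn n) : ℝ :=
  (tk K z (fun c d => ((Dp G V d z)ᴴ * G z * Dp G V c z).trace)).re

/-- the contracted curvature term -/
def cvt (K : Cn n → Matrix (Fin n) (Fin n) ℂ) (G : Cn n → Matrix κ κ ℂ)
    (V : Cn n → Matrix κ ρ ℂ) (z : Cn n) : ℝ :=
  (tk K z (fun c d => ((V z)ᴴ * rm G z c d * V z).trace)).re

theorem alg1 {G Gi : Matrix κ κ ℂ} {V : Matrix κ ρ ℂ}
    {Vc Vd : Matrix κ ρ ℂ} {Gc Gd Gdb Gcd : Matrix κ κ ℂ}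
    (hG : G.IsHermitian) (hGi : G * Gi = 1) (hGd : Gdᴴ = Gdb) :
    Vdᴴ * (Gc * V + G * Vc) + Vᴴ * (Gcd * V + Gdb * Vc)
      = (Vd + Gi * Gd * V)ᴴ * G * (Vc + Gi * Gc * V) - Vᴴ * (-Gcd + Gdb * Gi * Gc) * V := by
  have hGi' : Gi * G = 1 := mul_eq_one_comm.1 hGi
  have hGiH : Giᴴ = Gi := by
    have h1 : Giᴴ * G = 1 := by
      have := congrArg Matrix.conjTranspose hGi
      rwa [Matrix.conjTranspose_mul, hG.eq, Matrix.conjTranspose_one] at this
    calc Giᴴ = Giᴴ * (G * Gi) := by rw [hGi, mul_one]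
      _ = Gi := by rw [← mul_assoc, h1, one_mul]
  have hGD : Gc * V + G * Vc = G * (Vc + Gi * Gc * V) := by
    rw [Matrix.mul_add, ← Matrix.mul_assoc, ← Matrix.mul_assoc, hGi, Matrix.one_mul, add_comm]
  have hDG : (Vdᴴ * G + Vᴴ * Gdb) = (Vd + Gi * Gd * V)ᴴ * G := by
    rw [Matrix.conjTranspose_add, Matrix.conjTranspose_mul, Matrix.conjTranspose_mul, hGiH,
      hGd, Matrix.add_mul, Matrix.mul_assoc, Matrix.mul_assoc, hGi', Matrix.mul_one]
  have h3 : (Vd + Gi * Gd * V)ᴴ * G * (Vc + Gi * Gc * V)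
      = Vdᴴ * (G * (Vc + Gi * Gc * V)) + Vᴴ * (Gdb * (Vc + Gi * Gc * V)) := by
    rw [← hDG, Matrix.add_mul, Matrix.mul_assoc Vdᴴ, Matrix.mul_assoc Vᴴ Gdb]
  rw [h3, hGD]
  simp only [Matrix.mul_add, Matrix.add_mul, Matrix.mul_neg, Matrix.neg_mul, Matrix.mul_assoc]
  abel

theorem dbar_herm {G : Cn n → Matrix κ κ ℂ} (hG : SmM z G)
    (hh : ∀ᶠ y in 𝓝 z, (G y).IsHermitian) (d : Fin n) : (dM (-I) d G z)ᴴ = dM I d G z := by
  have h1 := dM_conjTranspose (s := I) (a := d) hG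
  rw [conjI] at h1
  rw [← h1]
  refine dM_congr ?_
  filter_upwards [hh] with y hy
  exact hy.eq

/-- `∂_c ∂_{d̄} (Vᴴ G V) = (D_d V)ᴴ G (D_c V) - Vᴴ (rm G c d) V` -/
theorem ddbar_gram2 {G : Cn n → Matrix κ κ ℂ} {V : Cn n → Matrix κ ρ ℂ}
    (hG : ∀ᶠ y in 𝓝 z, SmM y G) (hh : ∀ᶠ y in 𝓝 z, (G y).IsHermitian)
    (hG0 : (G z).det ≠ 0) (hV : HolM z V) (c d : Fin n) :
    dM (-I) c (dM I d (fun y => (V y)ᴴ * G y * V y)) z
      = (Dp G V d z)ᴴ * G z * Dp G V c z - (V z)ᴴ * rm G z c d * V z := by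
  have hGi : G z * (G z)⁻¹ = 1 := Matrix.mul_nonsing_inv _ (isUnit_iff_ne_zero.2 hG0)
  rw [ddbar_gram hG hV, alg1 hh.self_of_nhds hGi (dbar_herm hG.self_of_nhds hh d)]
  rfl

theorem herm_tr_re {M : Matrix ρ ρ ℂ} (h : M.IsHermitian) : ((M.trace.re : ℝ) : ℂ) = M.trace := by
  have h1 : conj M.trace = M.trace := by
    have := Matrix.trace_conjTranspose M
    rw [h.eq] at this
    exact this.symm
  exact Complex.conj_eq_iff_re.1 h1

theorem cu_tr {m : Cn n → Matrix ρ ρ ℂ} (hh : ∀ᶠ y in 𝓝 z, (m y).IsHermitian) :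
    cu (fun y => (m y).trace.re) =ᶠ[𝓝 z] fun y => (m y).trace := by
  filter_upwards [hh] with y hy
  exact herm_tr_re hy

theorem hess_tr {m : Cn n → Matrix ρ ρ ℂ} (hm : ∀ᶠ y in 𝓝 z, SmM y m)
    (hh : ∀ᶠ y in 𝓝 z, (m y).IsHermitian) (c d : Fin n) :
    hess (fun y => (m y).trace.re) z c d = (dM (-I) c (dM I d m) z).trace := by
  have h1 : dS I d (fun y => (m y).trace) =ᶠ[𝓝 z] fun y => (dM I d m y).trace := by
    filter_upwards [hm] with y hy
    exact dS_trace hy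
  rw [hess_eq, dS_congr (dS_congr' (cu_tr hh)), dS_congr h1,
    dS_trace (SmM.dM hm.self_of_nhds _ _)]

theorem gram_herm {G : Matrix κ κ ℂ} (h : G.IsHermitian) (V : Matrix κ ρ ℂ) :
    (Vᴴ * G * V).IsHermitian := by
  unfold Matrix.IsHermitian
  rw [Matrix.conjTranspose_mul, Matrix.conjTranspose_mul, Matrix.conjTranspose_conjTranspose,
    h.eq, Matrix.mul_assoc]

theorem sm_gram {G : Cn n → Matrix κ κ ℂ} {V : Cn n → Matrix κ ρ ℂ} (hG : SmM z G)
    (hV : SmM z V) : SmM z (fun y => (V y)ᴴ * G y * V y) :=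
  SmM.mul (SmM.mul (SmM.conjTranspose hV) hG) hV

theorem sm_nsq {G : Cn n → Matrix κ κ ℂ} {V : Cn n → Matrix κ ρ ℂ} (hG : SmM z G)
    (hV : SmM z V) : ContDiffAt ℝ ∞ (nsq G V) z :=
  Complex.reCLM.contDiff.contDiffAt.comp z (Sm.trace (sm_gram hG hV))

theorem hess_nsq {G : Cn n → Matrix κ κ ℂ} {V : Cn n → Matrix κ ρ ℂ}
    (hG : ∀ᶠ y in 𝓝 z, SmM y G) (hh : ∀ᶠ y in 𝓝 z, (G y).IsHermitian)
    (hG0 : (G z).det ≠ 0) (hV : HolM z V) (c d : Fin n) :
    hess (nsq G V) z c d = ((Dp G V d z)ᴴ * G z * Dp G V c z).trace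
      - ((V z)ᴴ * rm G z c d * V z).trace := by
  have hm : ∀ᶠ y in 𝓝 z, SmM y (fun y => (V y)ᴴ * G y * V y) := by
    filter_upwards [hG, hV.smE] with y hy hy'
    exact sm_gram hy hy'.sm
  have h1 := hess_tr hm (hh.mono fun y hy => gram_herm hy (V y)) c d
  rw [ddbar_gram2 hG hh hG0 hV, Matrix.trace_sub] at h1
  exact h1

/-- **Laplacian of the norm of holomorphic sections** -/
theorem lap_nsq {G : Cn n → Matrix κ κ ℂ} {V : Cn n → Matrix κ ρ ℂ}
    (hG : ∀ᶠ y in 𝓝 z, SmM y G) (hh : ∀ᶠ y in 𝓝 z, (G y).IsHermitian)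
    (hG0 : (G z).det ≠ 0) (hV : HolM z V) :
    lap K (nsq G V) z = ene K G V z - cvt K G V z := by
  unfold lap ene cvt
  rw [tk_congr fun c d => hess_nsq hG hh hG0 hV c d, tk_sub, Complex.sub_re]

theorem nsq_nonneg {G : Cn n → Matrix κ κ ℂ} (hG : (G z).PosSemidef) (V : Cn n → Matrix κ ρ ℂ) :
    0 ≤ nsq G V z :=
  (Complex.le_def.1 (hG.conjTranspose_mul_mul_same (V z)).trace_nonneg).1

theorem gram_pos1 {G : Matrix κ κ ℂ} (hK : (K z).PosDef) (hG : G.PosSemidef)
    (W : Fin n → Matrix κ ρ ℂ) : 0 ≤ (tk K z fun c d => ((W d)ᴴ * G * W c).trace).re := by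
  have h1 := gram_pos (ρ := ρ) (Mi := 1) hG Matrix.PosSemidef.one hK.inv.posSemidef W
  simp only [Matrix.one_mul] at h1
  exact (Complex.le_def.1 h1).1

theorem ene_nonneg {G : Cn n → Matrix κ κ ℂ} (hK : (K z).PosDef) (hG : (G z).PosSemidef)
    (V : Cn n → Matrix κ ρ ℂ) : 0 ≤ ene K G V z :=
  gram_pos1 hK hG fun c => Dp G V c z

/-- Cauchy-Schwarz at a point -/
theorem cs_alg {G : Matrix κ κ ℂ} (hK : (K z).PosDef) (hG : G.PosSemidef) (V : Matrix κ ρ ℂ)
    (W : Fin n → Matrix κ ρ ℂ) :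
    (tk K z fun c d => (Vᴴ * G * W c).trace * ((W d)ᴴ * G * V).trace).re
      ≤ (Vᴴ * G * V).trace.re * (tk K z fun c d => ((W d)ᴴ * G * W c).trace).re := by
  set F : ℝ := (Vᴴ * G * V).trace.re with hF
  set E : ℝ := (tk K z fun c d => ((W d)ᴴ * G * W c).trace).re with hE
  set Q : ℝ := (tk K z fun c d => (Vᴴ * G * W c).trace * ((W d)ᴴ * G * V).trace).re with hQ
  have hF0 : 0 ≤ F := (Complex.le_def.1 (hG.conjTranspose_mul_mul_same V).trace_nonneg).1
  have hFc : ((F : ℝ) : ℂ) = (Vᴴ * G * V).trace := herm_tr_re (gram_herm hG.isHermitian V)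
  have hE0 : 0 ≤ E := gram_pos1 hK hG W
  have hcj : ∀ d, conj (Vᴴ * G * W d).trace = ((W d)ᴴ * G * V).trace := by
    intro d
    have h1 := Matrix.trace_conjTranspose (Vᴴ * G * W d)
    rw [Matrix.conjTranspose_mul, Matrix.conjTranspose_mul, Matrix.conjTranspose_conjTranspose,
      hG.isHermitian.eq, ← Matrix.mul_assoc] at h1
    exact h1.symm
  -- the quadratic polynomial
  have key : ∀ l : ℝ, 0 ≤ E - 2 * l * Q + l ^ 2 * (F * Q) := by
    intro l
    have h1 := gram_pos1 hK hG fun c => W c - ((l : ℂ) * (Vᴴ * G * W c).trace) • V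
    have h2 : ∀ c d, ((W d - ((l : ℂ) * (Vᴴ * G * W d).trace) • V)ᴴ * G *
        (W c - ((l : ℂ) * (Vᴴ * G * W c).trace) • V)).trace
        = ((W d)ᴴ * G * W c).trace
          + (-(2 * l : ℝ) + ((l ^ 2 * F : ℝ)) : ℂ) *
            ((Vᴴ * G * W c).trace * ((W d)ᴴ * G * V).trace) := by
      intro c d
      rw [Matrix.conjTranspose_sub, Matrix.conjTranspose_smul, Matrix.sub_mul, Matrix.sub_mul,
        Matrix.mul_sub, Matrix.mul_sub, Matrix.trace_sub, Matrix.trace_sub, Matrix.trace_sub]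
      simp only [Matrix.smul_mul, Matrix.mul_smul, Matrix.trace_smul, smul_eq_mul,
        RCLike.star_def, map_mul, Complex.conj_ofReal, hcj, ← hFc]
      push_cast
      ring
    rw [tk_congr h2, tk_add, tk_smul, Complex.add_re] at h1
    have h3 : ((-(2 * l : ℝ) + ((l ^ 2 * F : ℝ)) : ℂ) *
        tk K z (fun c d => (Vᴴ * G * W c).trace * ((W d)ᴴ * G * V).trace)).re
        = (-(2 * l) + l ^ 2 * F) * Q := by
      rw [← Complex.ofReal_neg, ← Complex.ofReal_add, Complex.re_ofReal_mul]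
    rw [h3] at h1
    calc (0 : ℝ) ≤ _ := h1
      _ = _ := by ring
  rcases hF0.lt_or_eq with h | h
  · have h1 := key F⁻¹
    have h2 : E - 2 * F⁻¹ * Q + F⁻¹ ^ 2 * (F * Q) = E - F⁻¹ * Q := by
      field_simp
      ring
    rw [h2] at h1
    have h3 := mul_nonneg h.le h1
    have h4 : F * (E - F⁻¹ * Q) = F * E - Q := by field_simp
    linarith
  · rw [← h, zero_mul]
    by_contra hcon
    push Not at hcon
    have h1 := key ((E + 1) / Q)
    rw [← h] at h1
    have h2 : 2 * ((E + 1) / Q) * Q = 2 * (E + 1) := by field_simp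
    rw [h2] at h1
    linarith

theorem dS_nsq {G : Cn n → Matrix κ κ ℂ} {V : Cn n → Matrix κ ρ ℂ}
    (hG : SmM z G) (hh : ∀ᶠ y in 𝓝 z, (G y).IsHermitian)
    (hG0 : (G z).det ≠ 0) (hV : HolM z V) (c : Fin n) :
    dS (-I) c (cu (nsq G V)) z = ((V z)ᴴ * G z * Dp G V c z).trace := by
  have hGi : G z * (G z)⁻¹ = 1 := Matrix.mul_nonsing_inv _ (isUnit_iff_ne_zero.2 hG0)
  have h1 : cu (nsq G V) =ᶠ[𝓝 z] fun y => ((V y)ᴴ * G y * V y).trace :=
    cu_tr (hh.mono fun y hy => gram_herm hy (V y))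
  rw [dS_congr h1, dS_trace (sm_gram hG hV.sm), del_gram hG hV]
  congr 1
  unfold Dp
  rw [Matrix.mul_assoc, Matrix.mul_add (G z), ← Matrix.mul_assoc (G z), ← Matrix.mul_assoc (G z),
    hGi, Matrix.one_mul, add_comm]

theorem dS_nsq' {G : Cn n → Matrix κ κ ℂ} {V : Cn n → Matrix κ ρ ℂ}
    (hG : SmM z G) (hh : ∀ᶠ y in 𝓝 z, (G y).IsHermitian)
    (hG0 : (G z).det ≠ 0) (hV : HolM z V) (d : Fin n) :
    dS I d (cu (nsq G V)) z = ((Dp G V d z)ᴴ * G z * V z).trace := by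
  rw [dS_bar ((sm_nsq hG hV.sm).differentiableAt (by simp)), dS_nsq hG hh hG0 hV]
  have h1 := Matrix.trace_conjTranspose ((V z)ᴴ * G z * Dp G V d z)
  rw [Matrix.conjTranspose_mul, Matrix.conjTranspose_mul, Matrix.conjTranspose_conjTranspose,
    hh.self_of_nhds.eq, ← Matrix.mul_assoc] at h1
  exact h1.symm

/-- **Kato / Cauchy-Schwarz**: `|∂|V|²|² ≤ |V|² |D'V|²` -/
theorem gsq_nsq_le {G : Cn n → Matrix κ κ ℂ} {V : Cn n → Matrix κ ρ ℂ} (hK : (K z).PosDef)
    (hG : SmM z G) (hh : ∀ᶠ y in 𝓝 z, (G y).IsHermitian) (hp : (G z).PosDef) (hV : HolM z V) :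
    gsq K (nsq G V) z ≤ nsq G V z * ene K G V z := by
  have hG0 : (G z).det ≠ 0 := hp.det_pos.ne'
  have h1 : gsq K (nsq G V) z
      = (tk K z fun c d => ((V z)ᴴ * G z * Dp G V c z).trace *
          ((Dp G V d z)ᴴ * G z * V z).trace).re := by
    unfold gsq
    rw [tk_congr fun c d => by rw [dS_nsq hG hh hG0 hV c, dS_nsq' hG hh hG0 hV d]]
  rw [h1]
  exact cs_alg hK hp.posSemidef (V z) fun c => Dp G V c z

/-! ### logarithms -/

theorem lap_log_add {f : Cn n → ℝ} (e : ℝ) (hf : ContDiffAt ℝ ∞ f z) (hp : 0 < f z + e) :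
    lap K (fun w => Real.log (f w + e)) z
      = lap K f z / (f z + e) - gsq K f z / (f z + e) ^ 2 := by
  have h1 : ∀ᶠ s in 𝓝 (f z), HasDerivAt (fun s => Real.log (s + e)) ((s + e)⁻¹) s := by
    have : ∀ᶠ s in 𝓝 (f z), 0 < s + e :=
      (continuous_id.add continuous_const).continuousAt.eventually (lt_mem_nhds hp)
    filter_upwards [this] with s hs
    have h := ((hasDerivAt_id s).add_const e).log hs.ne'
    simpa using h
  have h2 : HasDerivAt (fun s : ℝ => (s + e)⁻¹) (-((f z + e) ^ 2)⁻¹) (f z) := by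
    have h := ((hasDerivAt_id (f z)).add_const e).inv hp.ne'
    have e : -((f z + e) ^ 2)⁻¹ = -1 / (id (f z) + e) ^ 2 := by
      simp only [id, neg_div, one_div]
    rw [e]
    exact h
  rw [lap_comp (φ := fun s => Real.log (s + e)) (φ' := fun s => (s + e)⁻¹) hf h1 h2]
  field_simp
  ring

theorem lap_log {f : Cn n → ℝ} (hf : ContDiffAt ℝ ∞ f z) (hp : 0 < f z) :
    lap K (fun w => Real.log (f w)) z = lap K f z / f z - gsq K f z / (f z) ^ 2 := by
  have h := lap_log_add (K := K) 0 hf (by simpa using hp)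
  simpa using h

/-- **`Δ log (|V|² + e) ≥ e |D'V|² / (|V|² + e)² - (curvature) / (|V|² + e)`** -/
theorem lap_log_add_ge {G : Cn n → Matrix κ κ ℂ} {V : Cn n → Matrix κ ρ ℂ} (hK : (K z).PosDef)
    (hG : ∀ᶠ y in 𝓝 z, SmM y G) (hh : ∀ᶠ y in 𝓝 z, (G y).IsHermitian) (hp : (G z).PosDef)
    (hV : HolM z V) {e : ℝ} (he : 0 < nsq G V z + e) :
    e * ene K G V z / (nsq G V z + e) ^ 2 - cvt K G V z / (nsq G V z + e)
      ≤ lap K (fun w => Real.log (nsq G V w + e)) z := by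
  have hG0 : (G z).det ≠ 0 := hp.det_pos.ne'
  rw [lap_log_add e (sm_nsq hG.self_of_nhds hV.sm) he, lap_nsq hG hh hG0 hV]
  have h1 := gsq_nsq_le hK hG.self_of_nhds hh hp hV
  set F := nsq G V z
  set E := ene K G V z
  set Q := gsq K (nsq G V) z
  set R := cvt K G V z
  have h2 : (E - R) / (F + e) - Q / (F + e) ^ 2 - (e * E / (F + e) ^ 2 - R / (F + e))
      = (F * E - Q) / (F + e) ^ 2 := by
    field_simp
    ring
  have h3 : 0 ≤ (F * E - Q) / (F + e) ^ 2 := div_nonneg (by linarith) (by positivity)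
  linarith

/-- **`Δ log |V|² ≥ - (curvature) / |V|²`** off the zeros -/
theorem lap_log_ge {G : Cn n → Matrix κ κ ℂ} {V : Cn n → Matrix κ ρ ℂ} (hK : (K z).PosDef)
    (hG : ∀ᶠ y in 𝓝 z, SmM y G) (hh : ∀ᶠ y in 𝓝 z, (G y).IsHermitian) (hp : (G z).PosDef)
    (hV : HolM z V) (h0 : 0 < nsq G V z) :
    - cvt K G V z / nsq G V z ≤ lap K (fun w => Real.log (nsq G V w)) z := by
  have h := lap_log_add_ge (e := 0) hK hG hh hp hV (by simpa using h0)
  simp only [add_zero, zero_mul, zero_div, zero_sub] at h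
  rw [neg_div]
  exact h

/-- comparison across the zeros: `Δ log (f + e) ≥ (f / (f + e)) Δ log f`, without division:
if `f lap f - gsq f ≥ f² W` then `Δ log (f + e) ≥ (f / (f + e)) W` -/
theorem lap_log_add_cmp {f : Cn n → ℝ} {e W : ℝ} (he : 0 < e) (hf : ContDiffAt ℝ ∞ f z)
    (h0 : 0 < f z) (hK : (K z).PosDef)
    (hW : W ≤ lap K (fun w => Real.log (f w)) z) :
    f z / (f z + e) * W ≤ lap K (fun w => Real.log (f w + e)) z := by
  have hp : 0 < f z + e := by positivity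
  have hg := gsq_nonneg hK (hf.differentiableAt (by simp))
  rw [lap_log hf h0] at hW
  rw [lap_log_add e hf hp]
  have h1 : f z / (f z + e) * W
      ≤ f z / (f z + e) * (lap K f z / f z - gsq K f z / f z ^ 2) :=
    mul_le_mul_of_nonneg_left hW (by positivity)
  have h2 : lap K f z / (f z + e) - gsq K f z / (f z + e) ^ 2
      - f z / (f z + e) * (lap K f z / f z - gsq K f z / f z ^ 2)
      = gsq K f z * e / (f z * (f z + e) ^ 2) := by
    field_simp
    ring
  have h3 : 0 ≤ gsq K f z * e / (f z * (f z + e) ^ 2) := by positivity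
  linarith

end

end Crest.Agent.R281.Bo1_815
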