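import Crest.Agent.R281.Bo1_815

/-!
# R281 (S0424), S-BOCH (helper815), part 2: 1-forms, twists, Chern-Lu

* `rm_dual`  : `rm (G⁻¹)ᵀ = - (G⁻¹ (rm G) G⁻¹)ᵀ`;
* `Kd K y = ((K y)⁻¹)ᵀ` : the cotangent metric, `|η|² = ηᴴ (Kd K) η = g^{a b̄} η_a conj η_b`;
  `cvt_form` : `cvt K (Kd K) V = - tr (Vᴴ (K⁻¹ ricᵀ K⁻¹)ᵀ V)`; `cvt_form_zero` if `ric K z = 0`;
* `rm_twist`, `cvt_twist` : curvature of `e^{-φ} G`;
* `lap_form`, `lap_log_one_form` : `T = ∑ |η_j|²`: `lap T = ene ≥ 0`,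
  `lap log (1 + T) ≥ ene / (1 + T)²`;
* Chern-Lu for `(s_0 : .. : s_m)`: `uFS = tr_K ω_FS = |W|² / (2 |s|⁴)`,
  `lap uFS ≥ - 2 uFS²`, `lap log (uFS + e) ≥ - 2 uFS² / (uFS + e)`.
-/

set_option autoImplicit false
set_option linter.unusedSectionVars false

open Finset Matrix Complex Filter Topology
open scoped ContDiff ComplexConjugate Kronecker ComplexOrder

namespace Crest.Agent.R281.Bo2_815

open Crest.Agent.R275.Geo Crest.Agent.R275.EDR890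
open Crest.Agent.R273.Fock_243 Crest.Agent.R273.Calc_243
open Crest.Agent.R273.Bkn_243 Crest.Agent.R273.Pos_243 Crest.Agent.R273.BochA_101
open Crest.Agent.R273.BochB_101 Crest.Agent.R273.BochC_101 Crest.Agent.R273.BochD_101
open Crest.Agent.R273.Hess_333 Crest.Agent.R273.HessB_333 Crest.Agent.R273.FIa0_597
open Crest.Agent.R281.Bo1_815

noncomputable section

variable {n : ℕ} {κ ρ : Type} [Fintype κ] [Fintype ρ] [DecidableEq κ] [DecidableEq ρ]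
  {K : Cn n → Matrix (Fin n) (Fin n) ℂ} {z : Cn n}

/-! ### the dual metric -/

theorem dM_transpose {ι κ : Type} (s : ℂ) (a : Fin n) (m : Cn n → Matrix ι κ ℂ) (z : Cn n) :
    dM s a (fun y => (m y)ᵀ) z = (dM s a m z)ᵀ := rfl

theorem SmM.tr {ι κ : Type} {m : Cn n → Matrix ι κ ℂ} (h : SmM z m) : SmM z (fun y => (m y)ᵀ) :=
  fun S T => h T S

theorem dM2_inv {G : Cn n → Matrix κ κ ℂ} (hG : ∀ᶠ y in 𝓝 z, SmM y G) (hG0 : (G z).det ≠ 0)
    (s t : ℂ) (c d : Fin n) :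
    dM s c (dM t d (fun y => (G y)⁻¹)) z
      = (G z)⁻¹ * dM s c G z * (G z)⁻¹ * dM t d G z * (G z)⁻¹
        - (G z)⁻¹ * dM s c (dM t d G) z * (G z)⁻¹
        + (G z)⁻¹ * dM t d G z * (G z)⁻¹ * dM s c G z * (G z)⁻¹ := by
  have hGz : SmM z G := hG.self_of_nhds
  have h1 : dM t d (fun y => (G y)⁻¹) =ᶠ[𝓝 z] fun y => - ((G y)⁻¹ * dM t d G y * (G y)⁻¹) := by
    filter_upwards [hG, eventually_det_ne hGz hG0] with y hy hy0
    exact dM_inv hy hy0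
  have hI : SmM z (fun y => (G y)⁻¹) := SmM.inv hGz hG0
  have hD : SmM z (dM t d G) := SmM.dM hGz _ _
  have hA : SmM z (fun y => (G y)⁻¹ * dM t d G y) := SmM.mul hI hD
  rw [dM_congr h1, dM_neg, dM_mul (fun S T => (hA S T).diff) (fun S T => (hI S T).diff),
    dM_mul (fun S T => (hI S T).diff) (fun S T => (hD S T).diff), dM_inv hGz hG0]
  simp only [Matrix.add_mul, Matrix.mul_neg, Matrix.neg_mul, Matrix.mul_assoc]
  abel

/-- curvature of the dual metric -/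
theorem rm_dual {G : Cn n → Matrix κ κ ℂ} (hG : ∀ᶠ y in 𝓝 z, SmM y G) (hG0 : (G z).det ≠ 0)
    (c d : Fin n) :
    rm (fun y => ((G y)⁻¹)ᵀ) z c d = - ((G z)⁻¹ * rm G z c d * (G z)⁻¹)ᵀ := by
  have hGz : SmM z G := hG.self_of_nhds
  have hi : (G z)⁻¹ * G z = 1 := Matrix.nonsing_inv_mul _ (isUnit_iff_ne_zero.2 hG0)
  have hT : (((G z)⁻¹)ᵀ)⁻¹ = (G z)ᵀ := by
    refine Matrix.inv_eq_left_inv ?_
    rw [← Matrix.transpose_mul, hi, Matrix.transpose_one]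
  have h2 : dM (-I) c (dM I d (fun y => ((G y)⁻¹)ᵀ)) z
      = (dM (-I) c (dM I d (fun y => (G y)⁻¹)) z)ᵀ := rfl
  unfold rm
  rw [h2, dM_transpose, dM_transpose, hT, dM2_inv hG hG0, dM_inv hGz hG0, dM_inv hGz hG0,
    ← Matrix.transpose_mul, ← Matrix.transpose_mul, ← Matrix.transpose_neg,
    ← Matrix.transpose_add, ← Matrix.transpose_neg]
  congr 1
  have h3 : -((G z)⁻¹ * dM (-I) c G z * (G z)⁻¹) * (G z * -((G z)⁻¹ * dM I d G z * (G z)⁻¹))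
      = (G z)⁻¹ * dM (-I) c G z * (G z)⁻¹ * dM I d G z * (G z)⁻¹ := by
    rw [Matrix.mul_neg, Matrix.mul_neg, Matrix.neg_mul, neg_neg,
      ← Matrix.mul_assoc (G z), ← Matrix.mul_assoc (G z),
      Matrix.mul_nonsing_inv _ (isUnit_iff_ne_zero.2 hG0), Matrix.one_mul]
    simp only [Matrix.mul_assoc]
  rw [h3]
  simp only [Matrix.add_mul, Matrix.mul_add, Matrix.mul_neg, Matrix.neg_mul, Matrix.mul_assoc]
  abel

/-- the cotangent metric -/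
def Kd (K : Cn n → Matrix (Fin n) (Fin n) ℂ) (y : Cn n) : Matrix (Fin n) (Fin n) ℂ := ((K y)⁻¹)ᵀ

theorem sm_Kd (hK : SmM z K) (h0 : (K z).det ≠ 0) : SmM z (Kd K) := SmM.tr (SmM.inv hK h0)

theorem Kd_posDef (hp : (K z).PosDef) : (Kd K z).PosDef := hp.inv.transpose

theorem smE_Kd (hK : ∀ᶠ y in 𝓝 z, SmM y K) (hp : ∀ᶠ y in 𝓝 z, (K y).PosDef) :
    ∀ᶠ y in 𝓝 z, SmM y (Kd K) := by
  filter_upwards [hK, hp] with y hy hy'
  exact sm_Kd hy hy'.det_pos.ne'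

theorem hE_Kd (hp : ∀ᶠ y in 𝓝 z, (K y).PosDef) : ∀ᶠ y in 𝓝 z, (Kd K y).IsHermitian := by
  filter_upwards [hp] with y hy
  exact (Kd_posDef hy).isHermitian

/-- contracted curvature of the tangent bundle -/
theorem sum_rm (hK : SmM z K) (hk : ∀ᶠ y in 𝓝 z, KahAt K y) :
    ∑ c, ∑ d, (K z)⁻¹ c d • rm K z c d = (Matrix.of (ric K z))ᵀ := by
  ext b a
  rw [Matrix.transpose_apply, Matrix.of_apply, ← tr_rm hK hk, Matrix.sum_apply]
  refine Finset.sum_congr rfl fun c _ => ?_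
  rw [Matrix.sum_apply]
  rfl

theorem tk_mat {σ τ : Type} [Fintype σ] (F : Fin n → Fin n → Matrix σ σ ℂ) (P : Matrix τ σ ℂ)
    (Q : Matrix σ τ ℂ) [Fintype τ] :
    tk K z (fun c d => (P * F c d * Q).trace)
      = (P * (∑ c, ∑ d, (K z)⁻¹ c d • F c d) * Q).trace := by
  unfold tk
  rw [Matrix.mul_sum, Matrix.sum_mul, Matrix.trace_sum]
  refine Finset.sum_congr rfl fun c _ => ?_
  rw [Matrix.mul_sum, Matrix.sum_mul, Matrix.trace_sum]
  refine Finset.sum_congr rfl fun d _ => ?_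
  rw [Matrix.mul_smul, Matrix.smul_mul, Matrix.trace_smul, smul_eq_mul]

/-- contracted curvature of the cotangent bundle -/
theorem sum_rm_Kd (hK : ∀ᶠ y in 𝓝 z, SmM y K) (h0 : (K z).det ≠ 0)
    (hk : ∀ᶠ y in 𝓝 z, KahAt K y) :
    ∑ c, ∑ d, (K z)⁻¹ c d • rm (Kd K) z c d
      = - ((K z)⁻¹ * (Matrix.of (ric K z))ᵀ * (K z)⁻¹)ᵀ := by
  rw [← sum_rm hK.self_of_nhds hk, Matrix.mul_sum, Matrix.sum_mul, Matrix.transpose_sum,
    ← Finset.sum_neg_distrib]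
  refine Finset.sum_congr rfl fun c _ => ?_
  rw [Matrix.mul_sum, Matrix.sum_mul, Matrix.transpose_sum, ← Finset.sum_neg_distrib]
  refine Finset.sum_congr rfl fun d _ => ?_
  have h1 : rm (Kd K) z c d = - ((K z)⁻¹ * rm K z c d * (K z)⁻¹)ᵀ := rm_dual hK h0 c d
  rw [h1, Matrix.mul_smul, Matrix.smul_mul, Matrix.transpose_smul, smul_neg]

theorem cvt_form {V : Cn n → Matrix (Fin n) ρ ℂ} (hK : ∀ᶠ y in 𝓝 z, SmM y K)
    (h0 : (K z).det ≠ 0) (hk : ∀ᶠ y in 𝓝 z, KahAt K y) :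
    cvt K (Kd K) V z
      = - (((V z)ᴴ * ((K z)⁻¹ * (Matrix.of (ric K z))ᵀ * (K z)⁻¹)ᵀ * V z).trace).re := by
  unfold cvt
  rw [tk_mat, sum_rm_Kd hK h0 hk, Matrix.mul_neg, Matrix.neg_mul, Matrix.trace_neg,
    Complex.neg_re]

/-- vector fields -/
theorem cvt_vec {V : Cn n → Matrix (Fin n) ρ ℂ} (hK : SmM z K) (hk : ∀ᶠ y in 𝓝 z, KahAt K y) :
    cvt K K V z = (((V z)ᴴ * (Matrix.of (ric K z))ᵀ * V z).trace).re := by
  unfold cvt
  rw [tk_mat, sum_rm hK hk]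

theorem cvt_form_zero {V : Cn n → Matrix (Fin n) ρ ℂ} (hK : ∀ᶠ y in 𝓝 z, SmM y K)
    (h0 : (K z).det ≠ 0) (hk : ∀ᶠ y in 𝓝 z, KahAt K y) (hR : Matrix.of (ric K z) = 0) :
    cvt K (Kd K) V z = 0 := by
  rw [cvt_form hK h0 hk, hR]
  simp

/-- Ricci semipositive: `cvt ≤ 0` on 1-forms -/
theorem cvt_form_nonpos {V : Cn n → Matrix (Fin n) ρ ℂ} (hK : ∀ᶠ y in 𝓝 z, SmM y K)
    (hp : (K z).PosDef) (hk : ∀ᶠ y in 𝓝 z, KahAt K y) (hR : (Matrix.of (ric K z)).PosSemidef) :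
    cvt K (Kd K) V z ≤ 0 := by
  rw [cvt_form hK hp.det_pos.ne' hk]
  have h1 : ((K z)⁻¹ * (Matrix.of (ric K z))ᵀ * (K z)⁻¹)ᵀ.PosSemidef := by
    have h2 := (hR.transpose.mul_mul_conjTranspose_same (K z)⁻¹)
    rw [hp.isHermitian.inv.eq] at h2
    exact h2.transpose
  have h3 := (Complex.le_def.1 (h1.conjTranspose_mul_mul_same (V z)).trace_nonneg).1
  simp only [Complex.zero_re] at h3
  linarith

/-! ### twists -/

theorem hess_log' {w : Cn n → ℝ} (hw : ContDiffAt ℝ ∞ w z) (h0 : 0 < w z) (c d : Fin n) :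
    hess (fun y => Real.log (w y)) z c d = (w z : ℂ)⁻¹ * hess w z c d -
      ((w z : ℂ)⁻¹) ^ 2 * (dS (-I) c (cu w) z * dS I d (cu w) z) :=
  Crest.Agent.R273.FS_333.hess_log hw h0 c d

theorem dM_smul {ι κ : Type} {s : ℂ} {a : Fin n} {w : Cn n → ℂ} {G : Cn n → Matrix ι κ ℂ}
    (hw : DifferentiableAt ℝ w z) (hG : ∀ S T, DifferentiableAt ℝ (fun y => G y S T) z) :
    dM s a (fun y => w y • G y) z = dS s a w z • G z + w z • dM s a G z := by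
  ext S T
  exact dS_mul hw (hG S T)

theorem SmM.smul {ι κ : Type} {w : Cn n → ℂ} {G : Cn n → Matrix ι κ ℂ} (hw : Sm z w)
    (hG : SmM z G) : SmM z (fun y => w y • G y) := fun S T => hw.mul (hG S T)

theorem twist_alg {G Gi Gc Gd Gcd : Matrix κ κ ℂ} {w wc wd wcd : ℂ} (hi : G * Gi = 1)
    (hw : w ≠ 0) :
    -(wcd • G + wd • Gc + (wc • Gd + w • Gcd))
      + (wd • G + w • Gd) * (w⁻¹ • Gi) * (wc • G + w • Gc)
      = w • (-Gcd + Gd * Gi * Gc - (w⁻¹ * wcd - w⁻¹ ^ 2 * (wc * wd)) • G) := by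
  have hi' : Gi * G = 1 := mul_eq_one_comm.1 hi
  have h1 : (wd • G + w • Gd) * (w⁻¹ • Gi) = (w⁻¹ * wd) • (1 : Matrix κ κ ℂ) + Gd * Gi := by
    rw [Matrix.add_mul, Matrix.smul_mul, Matrix.smul_mul, Matrix.mul_smul, Matrix.mul_smul,
      smul_smul, smul_smul, hi, mul_inv_cancel₀ hw, one_smul, mul_comm wd]
  have h2 : ((w⁻¹ * wd) • (1 : Matrix κ κ ℂ) + Gd * Gi) * (wc • G + w • Gc)
      = (w⁻¹ * wd * wc) • G + (w⁻¹ * wd * w) • Gc + wc • Gd + w • (Gd * Gi * Gc) := by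
    rw [Matrix.add_mul, Matrix.smul_mul, Matrix.one_mul, Matrix.mul_add, Matrix.mul_smul,
      Matrix.mul_smul, Matrix.mul_assoc Gd Gi G, hi', Matrix.mul_one, smul_add, smul_smul,
      smul_smul]
    abel
  rw [h1, h2]
  ext i j
  simp only [Matrix.add_apply, Matrix.neg_apply, Matrix.sub_apply, Matrix.smul_apply, smul_eq_mul]
  field_simp
  ring

/-- curvature of a twisted metric -/
theorem rm_twist {w : Cn n → ℝ} {G : Cn n → Matrix κ κ ℂ} (hw : ContDiffAt ℝ ∞ w z)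
    (h0 : 0 < w z) (hG : SmM z G) (hG0 : (G z).det ≠ 0) (c d : Fin n) :
    rm (fun y => (w y : ℂ) • G y) z c d
      = (w z : ℂ) • (rm G z c d - hess (fun y => Real.log (w y)) z c d • G z) := by
  have hwc : Sm z (cu w) := contDiffAt_cu hw
  have hw0 : cu w z ≠ 0 := by
    show (w z : ℂ) ≠ 0
    exact_mod_cast h0.ne'
  have hi : G z * (G z)⁻¹ = 1 := Matrix.mul_nonsing_inv _ (isUnit_iff_ne_zero.2 hG0)
  have h1 : dM I d (fun y => cu w y • G y) =ᶠ[𝓝 z] fun y =>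
      dS I d (cu w) y • G y + cu w y • dM I d G y := by
    filter_upwards [eventually_diff hw, SmM.eventually hG] with y hy hy'
    exact dM_smul hy hy'
  have hA : SmM z (fun y => dS I d (cu w) y • G y) := SmM.smul (hwc.dS _ _) hG
  have hB : SmM z (fun y => cu w y • dM I d G y) := SmM.smul hwc (SmM.dM hG _ _)
  have h2 : dM (-I) c (dM I d (fun y => cu w y • G y)) z
      = dS (-I) c (dS I d (cu w)) z • G z + dS I d (cu w) z • dM (-I) c G z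
        + (dS (-I) c (cu w) z • dM I d G z + cu w z • dM (-I) c (dM I d G) z) := by
    rw [dM_congr h1, dM_add hA hB, dM_smul (hwc.dS _ _).diff fun S T => (hG S T).diff,
      dM_smul hwc.diff fun S T => (SmM.dM hG I d S T).diff]
  have h3 : (cu w z • G z)⁻¹ = (cu w z)⁻¹ • (G z)⁻¹ := by
    refine Matrix.inv_eq_right_inv ?_
    rw [Matrix.smul_mul, Matrix.mul_smul, smul_smul, hi, mul_inv_cancel₀ hw0, one_smul]
  have h4 : rm (fun y => (w y : ℂ) • G y) z c d = rm (fun y => cu w y • G y) z c d := rfl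
  have h5 : hess (fun y => Real.log (w y)) z c d
      = (cu w z)⁻¹ * dS (-I) c (dS I d (cu w)) z
        - (cu w z)⁻¹ ^ 2 * (dS (-I) c (cu w) z * dS I d (cu w) z) := hess_log' hw h0 c d
  rw [h4, h5]
  unfold rm
  rw [h2, h3, dM_smul hwc.diff fun S T => (hG S T).diff,
    dM_smul hwc.diff fun S T => (hG S T).diff]
  exact twist_alg hi hw0

/-- `e^{-φ} G` -/
def tw (φ : Cn n → ℝ) (G : Cn n → Matrix κ κ ℂ) (y : Cn n) : Matrix κ κ ℂ :=
  ((Real.exp (-φ y) : ℝ) : ℂ) • G y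

theorem sm_exp {φ : Cn n → ℝ} (hφ : ContDiffAt ℝ ∞ φ z) :
    ContDiffAt ℝ ∞ (fun y => Real.exp (-φ y)) z := hφ.neg.exp

theorem sm_tw {φ : Cn n → ℝ} {G : Cn n → Matrix κ κ ℂ} (hφ : ContDiffAt ℝ ∞ φ z)
    (hG : SmM z G) : SmM z (tw φ G) :=
  SmM.smul (contDiffAt_cu (sm_exp hφ)) hG

theorem tw_posDef {φ : Cn n → ℝ} {G : Cn n → Matrix κ κ ℂ} (hG : (G z).PosDef) :
    (tw φ G z).PosDef := by
  have h : (0 : ℂ) < ((Real.exp (-φ z) : ℝ) : ℂ) := by exact_mod_cast Real.exp_pos _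
  exact hG.smul h

theorem rm_tw {φ : Cn n → ℝ} {G : Cn n → Matrix κ κ ℂ} (hφ : ContDiffAt ℝ ∞ φ z)
    (hG : SmM z G) (hG0 : (G z).det ≠ 0) (c d : Fin n) :
    rm (tw φ G) z c d
      = ((Real.exp (-φ z) : ℝ) : ℂ) • (rm G z c d + hess φ z c d • G z) := by
  have h1 := rm_twist (sm_exp hφ) (Real.exp_pos _) hG hG0 c d
  have h2 : (fun y => Real.log (Real.exp (-φ y))) = fun y => - φ y := by
    funext y
    exact Real.log_exp _
  have h3 : hess (fun y => - φ y) z c d = - hess φ z c d := by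
    rw [hess_neg hφ]
    rfl
  rw [h2, h3, neg_smul, sub_neg_eq_add] at h1
  exact h1

theorem nsq_tw (φ : Cn n → ℝ) (G : Cn n → Matrix κ κ ℂ) (V : Cn n → Matrix κ ρ ℂ) (y : Cn n) :
    nsq (tw φ G) V y = Real.exp (-φ y) * nsq G V y := by
  unfold nsq tw
  rw [Matrix.mul_smul, Matrix.smul_mul, Matrix.trace_smul, smul_eq_mul, Complex.re_ofReal_mul]

/-- **curvature term of a twist** -/
theorem cvt_tw {φ : Cn n → ℝ} {G : Cn n → Matrix κ κ ℂ} {V : Cn n → Matrix κ ρ ℂ}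
    (hKh : (K z).IsHermitian) (hφ : ContDiffAt ℝ ∞ φ z) (hG : SmM z G) (hG0 : (G z).det ≠ 0)
    (hGh : (G z).IsHermitian) :
    cvt K (tw φ G) V z = Real.exp (-φ z) * cvt K G V z + lap K φ z * nsq (tw φ G) V z := by
  rw [nsq_tw]
  unfold cvt
  have h1 : ∀ c d, ((V z)ᴴ * rm (tw φ G) z c d * V z).trace
      = ((Real.exp (-φ z) : ℝ) : ℂ) * (((V z)ᴴ * rm G z c d * V z).trace
        + ((V z)ᴴ * G z * V z).trace * hess φ z c d) := by
    intro c d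
    rw [rm_tw hφ hG hG0, Matrix.mul_smul, Matrix.smul_mul, Matrix.trace_smul, smul_eq_mul,
      Matrix.mul_add, Matrix.add_mul, Matrix.trace_add, Matrix.mul_smul, Matrix.smul_mul,
      Matrix.trace_smul, smul_eq_mul, mul_comm (hess φ z c d)]
  have h2 : ((V z)ᴴ * G z * V z).trace = ((nsq G V z : ℝ) : ℂ) :=
    (herm_tr_re (gram_herm hGh (V z))).symm
  rw [tk_congr h1, tk_smul, tk_add, tk_smul _ (fun c d => hess φ z c d), h2, ← lap_real hKh hφ,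
    Complex.re_ofReal_mul, Complex.add_re, ← Complex.ofReal_mul, Complex.ofReal_re]
  ring

/-! ### 1-forms on a Ricci-flat manifold -/

section forms

variable {V : Cn n → Matrix (Fin n) ρ ℂ}

/-- `T = ∑_j |η_j|²` : `lap T = |∇η|²` -/
theorem lap_form (hK : ∀ᶠ y in 𝓝 z, SmM y K) (hp : ∀ᶠ y in 𝓝 z, (K y).PosDef)
    (hk : ∀ᶠ y in 𝓝 z, KahAt K y) (hR : Matrix.of (ric K z) = 0) (hV : HolM z V) :
    lap K (nsq (Kd K) V) z = ene K (Kd K) V z := by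
  have hpz := hp.self_of_nhds
  rw [lap_nsq (smE_Kd hK hp) (hE_Kd hp) (Kd_posDef hpz).det_pos.ne' hV,
    cvt_form_zero hK hpz.det_pos.ne' hk hR, sub_zero]

theorem lap_form_nonneg (hK : ∀ᶠ y in 𝓝 z, SmM y K) (hp : ∀ᶠ y in 𝓝 z, (K y).PosDef)
    (hk : ∀ᶠ y in 𝓝 z, KahAt K y) (hR : Matrix.of (ric K z) = 0) (hV : HolM z V) :
    0 ≤ lap K (nsq (Kd K) V) z := by
  rw [lap_form hK hp hk hR hV]
  exact ene_nonneg hp.self_of_nhds (Kd_posDef hp.self_of_nhds).posSemidef V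

theorem gsq_form_le (hK : ∀ᶠ y in 𝓝 z, SmM y K) (hp : ∀ᶠ y in 𝓝 z, (K y).PosDef)
    (hV : HolM z V) :
    gsq K (nsq (Kd K) V) z ≤ nsq (Kd K) V z * ene K (Kd K) V z :=
  gsq_nsq_le hp.self_of_nhds (smE_Kd hK hp).self_of_nhds (hE_Kd hp)
    (Kd_posDef hp.self_of_nhds) hV

/-- `lap log (T + e) ≥ e |∇η|² / (T + e)²` -/
theorem lap_log_form (hK : ∀ᶠ y in 𝓝 z, SmM y K) (hp : ∀ᶠ y in 𝓝 z, (K y).PosDef)
    (hk : ∀ᶠ y in 𝓝 z, KahAt K y) (hR : Matrix.of (ric K z) = 0) (hV : HolM z V) {e : ℝ}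
    (he : 0 < e) :
    e * ene K (Kd K) V z / (nsq (Kd K) V z + e) ^ 2
      ≤ lap K (fun w => Real.log (nsq (Kd K) V w + e)) z := by
  have hpz := hp.self_of_nhds
  have h0 := nsq_nonneg (Kd_posDef hpz).posSemidef V
  have h1 := lap_log_add_ge (e := e) hpz (smE_Kd hK hp) (hE_Kd hp) (Kd_posDef hpz) hV
    (by linarith)
  rw [cvt_form_zero hK hpz.det_pos.ne' hk hR, zero_div, sub_zero] at h1
  exact h1

/-- `lap log (1 + T) ≥ |∇η|² / (1 + T)²` -/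
theorem lap_log_one_form (hK : ∀ᶠ y in 𝓝 z, SmM y K) (hp : ∀ᶠ y in 𝓝 z, (K y).PosDef)
    (hk : ∀ᶠ y in 𝓝 z, KahAt K y) (hR : Matrix.of (ric K z) = 0) (hV : HolM z V) :
    ene K (Kd K) V z / (1 + nsq (Kd K) V z) ^ 2
      ≤ lap K (fun w => Real.log (1 + nsq (Kd K) V w)) z := by
  have h1 := lap_log_form hK hp hk hR hV (e := 1) one_pos
  simp only [one_mul] at h1
  simp_rw [add_comm (1 : ℝ)]
  exact h1

/-- twisted 1-forms, Ricci-flat base: the curvature term is `lap φ |V|²` -/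
theorem cvt_twform {φ : Cn n → ℝ} (hK : ∀ᶠ y in 𝓝 z, SmM y K)
    (hp : ∀ᶠ y in 𝓝 z, (K y).PosDef) (hk : ∀ᶠ y in 𝓝 z, KahAt K y)
    (hR : Matrix.of (ric K z) = 0) (hφ : ContDiffAt ℝ ∞ φ z) :
    cvt K (tw φ (Kd K)) V z = lap K φ z * nsq (tw φ (Kd K)) V z := by
  have hpz := hp.self_of_nhds
  rw [cvt_tw hpz.isHermitian hφ (smE_Kd hK hp).self_of_nhds (Kd_posDef hpz).det_pos.ne'
    (Kd_posDef hpz).isHermitian, cvt_form_zero hK hpz.det_pos.ne' hk hR, mul_zero, zero_add]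

end forms

end

end Crest.Agent.R281.Bo2_815
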