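import Crest.Agent.R281.Bo2_815

/-!
# R281 (S0424), S-CALC (helper815): smooth sections; `|∇s|²` for a holomorphic section

* `dM_gramL`, `dM_gramR`, `comm_Dp`, `ddbar_gen` : calculus of smooth sections `V` of a Hermitian
  bundle `G`;
* `lap_gen : lap (nsq G V) = ene + enb + 2 rgh - cvt`;
* `us φ f = e^{-φ} |f|²`, `ns φ f = ∂f - ∂φ f`, `ws K φ f = |∇s|²`; if `hess φ = c • Kᵀ` and
  `ric K = 0` :
  `lap_us : lap us = ws - c n us`, `gsq_us : gsq us = us * ws`,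
  `lap_ws : lap ws = |∇'∇s|² + c² n us - c (n + 2) ws`.
-/

set_option autoImplicit false
set_option linter.unusedSectionVars false
set_option linter.unusedSimpArgs false

open Finset Matrix Complex Filter Topology
open scoped ContDiff ComplexConjugate Kronecker ComplexOrder

namespace Crest.Agent.R281.Bo3_815

open Crest.Agent.R275.Geo hiding tw
open Crest.Agent.R275.EDR890
open Crest.Agent.R273.Fock_243 Crest.Agent.R273.Calc_243
open Crest.Agent.R273.Bkn_243 Crest.Agent.R273.Pos_243 Crest.Agent.R273.BochA_101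
open Crest.Agent.R273.BochB_101 Crest.Agent.R273.BochC_101 Crest.Agent.R273.BochD_101
open Crest.Agent.R273.BochH_101
open Crest.Agent.R273.Hess_333 Crest.Agent.R273.HessB_333 Crest.Agent.R273.FIa0_597
open Crest.Agent.R281.Bo1_815 Crest.Agent.R281.Bo2_815

noncomputable section

variable {n : ℕ} {κ ρ σ : Type} [Fintype κ] [Fintype ρ] [Fintype σ] [DecidableEq κ]
  [DecidableEq ρ] {K : Cn n → Matrix (Fin n) (Fin n) ℂ} {z : Cn n}

/-! ### smooth sections of a Hermitian bundle -/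

theorem dM_comm' {ι τ : Type} {s t : ℂ} {a b : Fin n} {m : Cn n → Matrix ι τ ℂ}
    (hm : SmM z m) : dM s a (dM t b m) z = dM t b (dM s a m) z := by
  ext S T
  exact dS_comm (hm S T)

theorem herm_inv {G : Matrix κ κ ℂ} (hG : G.IsHermitian) : (G⁻¹)ᴴ = G⁻¹ := hG.inv.eq

theorem sm_Dp {G : Cn n → Matrix κ κ ℂ} {V : Cn n → Matrix κ ρ ℂ} (hG : SmM z G)
    (hG0 : (G z).det ≠ 0) (hV : SmM z V) (c : Fin n) : SmM z (fun y => Dp G V c y) := by
  have h1 := SmM.dM hV (-I) c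
  have h2 := SmM.mul (SmM.mul (SmM.inv hG hG0) (SmM.dM hG (-I) c)) hV
  exact fun S T => (h1 S T).add (h2 S T)

theorem Dp_congr {G : Cn n → Matrix κ κ ℂ} {V V' : Cn n → Matrix κ ρ ℂ} (h : V =ᶠ[𝓝 z] V')
    (c : Fin n) : Dp G V c z = Dp G V' c z := by
  unfold Dp
  rw [dM_congr h, h.self_of_nhds]

theorem dM_gramL {G : Cn n → Matrix κ κ ℂ} {U : Cn n → Matrix κ σ ℂ} {V : Cn n → Matrix κ ρ ℂ}
    (hG : SmM z G) (hG0 : (G z).det ≠ 0) (hU : SmM z U) (hV : SmM z V) (c : Fin n) :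
    dM (-I) c (fun y => (U y)ᴴ * G y * V y) z
      = (dM I c U z)ᴴ * G z * V z + (U z)ᴴ * G z * Dp G V c z := by
  have hi : G z * (G z)⁻¹ = 1 := Matrix.mul_nonsing_inv _ (isUnit_iff_ne_zero.2 hG0)
  have hUH : SmM z (fun y => (U y)ᴴ) := SmM.conjTranspose hU
  rw [dM_mul (fun S T => (SmM.mul hUH hG S T).diff) (fun S T => (hV S T).diff),
    dM_mul (fun S T => (hUH S T).diff) (fun S T => (hG S T).diff), dM_conjTranspose hU, conjnI]
  unfold Dp
  rw [Matrix.mul_add, Matrix.add_mul]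
  have h1 : (U z)ᴴ * G z * ((G z)⁻¹ * dM (-I) c G z * V z) = (U z)ᴴ * dM (-I) c G z * V z := by
    rw [← Matrix.mul_assoc, ← Matrix.mul_assoc, Matrix.mul_assoc (U z)ᴴ (G z), hi, Matrix.mul_one]
  rw [h1]
  abel

theorem dM_gramR {G : Cn n → Matrix κ κ ℂ} {U : Cn n → Matrix κ σ ℂ} {V : Cn n → Matrix κ ρ ℂ}
    (hG : SmM z G) (hh : ∀ᶠ y in 𝓝 z, (G y).IsHermitian) (hG0 : (G z).det ≠ 0) (hU : SmM z U)
    (hV : SmM z V) (d : Fin n) :
    dM I d (fun y => (U y)ᴴ * G y * V y) z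
      = (Dp G U d z)ᴴ * G z * V z + (U z)ᴴ * G z * dM I d V z := by
  have hi : (G z)⁻¹ * G z = 1 := Matrix.nonsing_inv_mul _ (isUnit_iff_ne_zero.2 hG0)
  have hUH : SmM z (fun y => (U y)ᴴ) := SmM.conjTranspose hU
  rw [dM_mul (fun S T => (SmM.mul hUH hG S T).diff) (fun S T => (hV S T).diff),
    dM_mul (fun S T => (hUH S T).diff) (fun S T => (hG S T).diff), dM_conjTranspose hU, conjI]
  unfold Dp
  rw [Matrix.conjTranspose_add, Matrix.conjTranspose_mul, Matrix.conjTranspose_mul,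
    herm_inv hh.self_of_nhds, dbar_herm hG hh, Matrix.add_mul (_)ᴴ]
  have h1 : (U z)ᴴ * (dM I d G z * (G z)⁻¹) * G z = (U z)ᴴ * dM I d G z := by
    rw [Matrix.mul_assoc, Matrix.mul_assoc, hi, Matrix.mul_one]
  rw [h1]

/-- commutator of the covariant derivatives -/
theorem comm_Dp {G : Cn n → Matrix κ κ ℂ} {V : Cn n → Matrix κ ρ ℂ} (hG : SmM z G)
    (hG0 : (G z).det ≠ 0) (hV : SmM z V) (c d : Fin n) :
    Dp G (dM I d V) c z = dM I d (Dp G V c) z + (G z)⁻¹ * rm G z c d * V z := by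
  have hi : (G z)⁻¹ * G z = 1 := Matrix.nonsing_inv_mul _ (isUnit_iff_ne_zero.2 hG0)
  have hT : SmM z (fun y => (G y)⁻¹ * dM (-I) c G y) := SmM.mul (SmM.inv hG hG0) (SmM.dM hG _ _)
  have hA : SmM z (fun y => (G y)⁻¹ * dM (-I) c G y * V y) := SmM.mul hT hV
  have h1 : dM I d (Dp G V c) z = dM I d (dM (-I) c V) z
      + (dM I d (fun y => (G y)⁻¹ * dM (-I) c G y) z * V z
        + (G z)⁻¹ * dM (-I) c G z * dM I d V z) := by
    have h2 : Dp G V c = fun y => dM (-I) c V y + (G y)⁻¹ * dM (-I) c G y * V y := rfl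
    rw [h2, dM_add (SmM.dM hV _ _) hA,
      dM_mul (m := fun y => (G y)⁻¹ * dM (-I) c G y) (fun S T => (hT S T).diff)
        (fun S T => (hV S T).diff)]
  rw [h1, rm_eq hG hG0, dM_comm' hV]
  unfold Dp
  rw [Matrix.mul_neg, Matrix.neg_mul, ← Matrix.mul_assoc (G z)⁻¹ (G z), hi, Matrix.one_mul]
  abel

theorem rm_herm {G : Cn n → Matrix κ κ ℂ} (hG : ∀ᶠ y in 𝓝 z, SmM y G)
    (hh : ∀ᶠ y in 𝓝 z, (G y).IsHermitian) (c d : Fin n) : (rm G z d c)ᴴ = rm G z c d := by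
  have hGz : SmM z G := hG.self_of_nhds
  have h1 : (dM (-I) d (dM I c G) z)ᴴ = dM (-I) c (dM I d G) z := by
    have h2 := dM_conjTranspose (s := I) (a := d) (SmM.dM hGz I c)
    rw [conjI] at h2
    rw [← h2, dM_comm hGz]
    refine dM_congr ?_
    filter_upwards [hG, hh.eventually_nhds] with y hy hy'
    have h3 := dM_conjTranspose (s := -I) (a := c) hy
    rw [conjnI] at h3
    rw [← h3]
    refine dM_congr ?_
    filter_upwards [hy'] with w hw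
    exact hw.eq
  have h4 : (dM I c G z)ᴴ = dM (-I) c G z := by
    rw [← dbar_herm hGz hh, Matrix.conjTranspose_conjTranspose]
  unfold rm
  rw [Matrix.conjTranspose_add, Matrix.conjTranspose_neg, h1, Matrix.conjTranspose_mul,
    Matrix.conjTranspose_mul, dbar_herm hGz hh, herm_inv hh.self_of_nhds, h4, Matrix.mul_assoc]

/-- second derivative of the Gram matrix of a smooth section -/
theorem ddbar_gen {G : Cn n → Matrix κ κ ℂ} {V : Cn n → Matrix κ ρ ℂ}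
    (hG : ∀ᶠ y in 𝓝 z, SmM y G) (hh : ∀ᶠ y in 𝓝 z, (G y).IsHermitian)
    (hG0 : (G z).det ≠ 0) (hV : ∀ᶠ y in 𝓝 z, SmM y V) (c d : Fin n) :
    dM (-I) c (dM I d (fun y => (V y)ᴴ * G y * V y)) z
      = (Dp G V d z)ᴴ * G z * Dp G V c z + (dM I c V z)ᴴ * G z * dM I d V z
        + ((Dp G (dM I c V) d z)ᴴ * G z * V z + (V z)ᴴ * G z * Dp G (dM I d V) c z)
        - (V z)ᴴ * rm G z c d * V z := by
  have hGz : SmM z G := hG.self_of_nhds
  have hVz : SmM z V := hV.self_of_nhds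
  have hi : G z * (G z)⁻¹ = 1 := Matrix.mul_nonsing_inv _ (isUnit_iff_ne_zero.2 hG0)
  have hi' : (G z)⁻¹ * G z = 1 := Matrix.nonsing_inv_mul _ (isUnit_iff_ne_zero.2 hG0)
  have h1 : dM I d (fun y => (V y)ᴴ * G y * V y) =ᶠ[𝓝 z] fun y =>
      (Dp G V d y)ᴴ * G y * V y + (V y)ᴴ * G y * dM I d V y := by
    filter_upwards [hG, hh.eventually_nhds, eventually_det_ne hGz hG0, hV] with y a1 a2 a3 a4
    exact dM_gramR a1 a2 a3 a4 a4 d
  have hD : SmM z (fun y => Dp G V d y) := sm_Dp hGz hG0 hVz d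
  have hb : SmM z (dM I d V) := SmM.dM hVz _ _
  have hA : SmM z (fun y => (Dp G V d y)ᴴ * G y * V y) :=
    SmM.mul (SmM.mul (SmM.conjTranspose hD) hGz) hVz
  have hB : SmM z (fun y => (V y)ᴴ * G y * dM I d V y) :=
    SmM.mul (SmM.mul (SmM.conjTranspose hVz) hGz) hb
  have h2 : dM I c (fun y => Dp G V d y) z
      = Dp G (dM I c V) d z - (G z)⁻¹ * rm G z d c * V z := by
    rw [comm_Dp hGz hG0 hVz, add_sub_cancel_right]
  rw [dM_congr h1, dM_add hA hB, dM_gramL hGz hG0 hD hVz, dM_gramL hGz hG0 hVz hb, h2,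
    Matrix.conjTranspose_sub, Matrix.conjTranspose_mul, Matrix.conjTranspose_mul,
    rm_herm hG hh, herm_inv hh.self_of_nhds, Matrix.sub_mul, Matrix.sub_mul]
  have h3 : (V z)ᴴ * (rm G z c d * (G z)⁻¹) * G z * V z = (V z)ᴴ * rm G z c d * V z := by
    rw [Matrix.mul_assoc (V z)ᴴ, Matrix.mul_assoc (rm G z c d), hi', Matrix.mul_one]
  rw [h3]
  abel

theorem tk_swap (F : Fin n → Fin n → ℂ) :
    tk K z F = ∑ c, ∑ d, ((K z)⁻¹)ᵀ c d * F d c := by
  unfold tk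
  rw [Finset.sum_comm]
  rfl

/-- `|D''V|²` -/
def enb (K : Cn n → Matrix (Fin n) (Fin n) ℂ) (G : Cn n → Matrix κ κ ℂ)
    (V : Cn n → Matrix κ ρ ℂ) (z : Cn n) : ℝ :=
  (tk K z (fun c d => ((dM I c V z)ᴴ * G z * dM I d V z).trace)).re

/-- `Re ⟨g^{c d̄} D_c D_{d̄} V, V⟩` -/
def rgh (K : Cn n → Matrix (Fin n) (Fin n) ℂ) (G : Cn n → Matrix κ κ ℂ)
    (V : Cn n → Matrix κ ρ ℂ) (z : Cn n) : ℝ :=
  (tk K z (fun c d => ((V z)ᴴ * G z * Dp G (dM I d V) c z).trace)).re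

theorem enb_nonneg {G : Cn n → Matrix κ κ ℂ} (hK : (K z).PosDef) (hG : (G z).PosSemidef)
    (V : Cn n → Matrix κ ρ ℂ) : 0 ≤ enb K G V z := by
  have h1 := gram_pos (ρ := ρ) (Mi := 1) hG Matrix.PosSemidef.one hK.inv.posSemidef.transpose
    (fun c => dM I c V z)
  simp only [Matrix.one_mul] at h1
  unfold enb
  rw [tk_swap]
  exact (Complex.le_def.1 h1).1

/-- **Laplacian of the norm of a smooth section** -/
theorem lap_gen {G : Cn n → Matrix κ κ ℂ} {V : Cn n → Matrix κ ρ ℂ} (hKh : (K z).IsHermitian)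
    (hG : ∀ᶠ y in 𝓝 z, SmM y G) (hh : ∀ᶠ y in 𝓝 z, (G y).IsHermitian)
    (hG0 : (G z).det ≠ 0) (hV : ∀ᶠ y in 𝓝 z, SmM y V) :
    lap K (nsq G V) z = ene K G V z + enb K G V z + 2 * rgh K G V z - cvt K G V z := by
  have hm : ∀ᶠ y in 𝓝 z, SmM y (fun y => (V y)ᴴ * G y * V y) := by
    filter_upwards [hG, hV] with y hy hy'
    exact sm_gram hy hy'
  have h1 : ∀ c d, hess (nsq G V) z c d
      = ((Dp G V d z)ᴴ * G z * Dp G V c z).trace + ((dM I c V z)ᴴ * G z * dM I d V z).trace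
        + (((Dp G (dM I c V) d z)ᴴ * G z * V z).trace
          + ((V z)ᴴ * G z * Dp G (dM I d V) c z).trace)
        - ((V z)ᴴ * rm G z c d * V z).trace := by
    intro c d
    have h2 := hess_tr hm (hh.mono fun y hy => gram_herm hy (V y)) c d
    rw [ddbar_gen hG hh hG0 hV, Matrix.trace_sub, Matrix.trace_add, Matrix.trace_add,
      Matrix.trace_add] at h2
    exact h2
  have h3 : (tk K z fun c d => ((Dp G (dM I c V) d z)ᴴ * G z * V z).trace)
      = conj (tk K z fun c d => ((V z)ᴴ * G z * Dp G (dM I d V) c z).trace) := by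
    rw [tk_conj hKh]
    refine tk_congr fun c d => ?_
    have h4 := Matrix.trace_conjTranspose ((V z)ᴴ * G z * Dp G (dM I c V) d z)
    rw [Matrix.conjTranspose_mul, Matrix.conjTranspose_mul, Matrix.conjTranspose_conjTranspose,
      hh.self_of_nhds.eq, ← Matrix.mul_assoc] at h4
    exact h4
  unfold lap ene enb rgh cvt
  rw [tk_congr h1, tk_sub, tk_add, tk_add, tk_add, h3, Complex.sub_re, Complex.add_re,
    Complex.add_re, Complex.add_re, Complex.conj_re]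
  ring

/-! ### connections of twists and of the cotangent bundle -/

theorem dS_cexp {φ : Cn n → ℝ} (hφ : ContDiffAt ℝ ∞ φ z) (s : ℂ) (c : Fin n) :
    dS s c (fun y => ((Real.exp (-φ y) : ℝ) : ℂ)) z
      = - ((Real.exp (-φ z) : ℝ) : ℂ) * dS s c (cu φ) z := by
  have hc : DifferentiableAt ℝ (cu φ) z := (contDiffAt_cu hφ).differentiableAt (by simp)
  have h1 : (fun y => ((Real.exp (-φ y) : ℝ) : ℂ)) = fun y => Complex.exp (- cu φ y) := by
    funext y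
    simp [cu]
  have h2 : dS s c (fun y => Complex.exp (- cu φ y)) z
      = Complex.exp (- cu φ z) * dS s c (fun y => - cu φ y) z := dS_exp hc.neg
  rw [h1, h2, dS_neg]
  simp [cu]

theorem Dp_tw {φ : Cn n → ℝ} {G : Cn n → Matrix κ κ ℂ} {V : Cn n → Matrix κ ρ ℂ}
    (hφ : ContDiffAt ℝ ∞ φ z) (hG : SmM z G) (hG0 : (G z).det ≠ 0) (c : Fin n) :
    Dp (tw φ G) V c z = Dp G V c z - dS (-I) c (cu φ) z • V z := by
  have hi : G z * (G z)⁻¹ = 1 := Matrix.mul_nonsing_inv _ (isUnit_iff_ne_zero.2 hG0)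
  have hi' : (G z)⁻¹ * G z = 1 := Matrix.nonsing_inv_mul _ (isUnit_iff_ne_zero.2 hG0)
  have hw0 : ((Real.exp (-φ z) : ℝ) : ℂ) ≠ 0 := by exact_mod_cast (Real.exp_pos _).ne'
  have h1 : (tw φ G z)⁻¹ = ((Real.exp (-φ z) : ℝ) : ℂ)⁻¹ • (G z)⁻¹ := by
    refine Matrix.inv_eq_right_inv ?_
    unfold tw
    rw [Matrix.smul_mul, Matrix.mul_smul, smul_smul, hi, mul_inv_cancel₀ hw0, one_smul]
  have h2 : dM (-I) c (tw φ G) z = (- ((Real.exp (-φ z) : ℝ) : ℂ) * dS (-I) c (cu φ) z) • G z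
      + ((Real.exp (-φ z) : ℝ) : ℂ) • dM (-I) c G z := by
    have h3 : tw φ G = fun y => cu (fun y => Real.exp (-φ y)) y • G y := rfl
    have hcd : DifferentiableAt ℝ (cu fun y => Real.exp (-φ y)) z :=
      (contDiffAt_cu (sm_exp hφ)).differentiableAt (by simp)
    rw [h3, dM_smul hcd fun S T => (hG S T).diff]
    have h4 := dS_cexp hφ (-I) c
    have h5 : cu (fun y => Real.exp (-φ y)) = fun y => ((Real.exp (-φ y) : ℝ) : ℂ) := rfl
    rw [h5, h4]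
  unfold Dp
  rw [h1, h2, Matrix.smul_mul, Matrix.mul_add, Matrix.mul_smul, Matrix.mul_smul, hi', smul_add,
    smul_smul, smul_smul, inv_mul_cancel₀ hw0, one_smul, Matrix.add_mul, Matrix.smul_mul,
    Matrix.one_mul]
  have h6 : ((Real.exp (-φ z) : ℝ) : ℂ)⁻¹ * (-((Real.exp (-φ z) : ℝ) : ℂ) * dS (-I) c (cu φ) z)
      = - dS (-I) c (cu φ) z := by
    field_simp
  rw [h6, neg_smul]
  abel

theorem Dp_Kd {V : Cn n → Matrix (Fin n) ρ ℂ} (hK : SmM z K) (h0 : (K z).det ≠ 0) (c : Fin n) :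
    Dp (Kd K) V c z = dM (-I) c V z - ((K z)⁻¹ * dM (-I) c K z)ᵀ * V z := by
  have hi : (K z)⁻¹ * K z = 1 := Matrix.nonsing_inv_mul _ (isUnit_iff_ne_zero.2 h0)
  have hT : (Kd K z)⁻¹ = (K z)ᵀ := by
    refine Matrix.inv_eq_left_inv ?_
    unfold Kd
    rw [← Matrix.transpose_mul, hi, Matrix.transpose_one]
  have h1 : dM (-I) c (Kd K) z = (- ((K z)⁻¹ * dM (-I) c K z * (K z)⁻¹))ᵀ := by
    have h2 : dM (-I) c (Kd K) z = (dM (-I) c (fun y => (K y)⁻¹) z)ᵀ := rfl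
    rw [h2, dM_inv hK h0]
  unfold Dp
  rw [hT, h1, ← Matrix.transpose_mul, Matrix.neg_mul, Matrix.mul_assoc, hi, Matrix.mul_one,
    Matrix.transpose_neg, Matrix.neg_mul, ← sub_eq_add_neg]

/-! ### holomorphic sections of a line bundle with parallel curvature -/

/-- `|s|²`, `s = f e^{-φ/2}` -/
def us (φ : Cn n → ℝ) (f : Cn n → ℂ) (y : Cn n) : ℝ := Real.exp (-φ y) * ‖f y‖ ^ 2

/-- `∇s`, in the frame -/
def ns (φ : Cn n → ℝ) (f : Cn n → ℂ) (y : Cn n) : Matrix (Fin n) Unit ℂ :=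
  Matrix.of fun a _ => dS (-I) a f y - dS (-I) a (cu φ) y * f y

/-- `|∇s|²` -/
def ws (K : Cn n → Matrix (Fin n) (Fin n) ℂ) (φ : Cn n → ℝ) (f : Cn n → ℂ) : Cn n → ℝ :=
  nsq (tw φ (Kd K)) (ns φ f)

/-- `f` as a `1 × 1` matrix -/
def um (f : Cn n → ℂ) (y : Cn n) : Matrix Unit Unit ℂ := Matrix.of fun _ _ => f y

theorem us_eq (φ : Cn n → ℝ) (f : Cn n → ℂ) : us φ f = nsq (tw φ fun _ => 1) (um f) := by
  funext y
  rw [nsq_tw]
  unfold us nsq um
  congr 1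
  simp only [Matrix.mul_one, Matrix.trace, Matrix.diag, Matrix.mul_apply, Finset.univ_unique,
    Finset.sum_singleton, Matrix.conjTranspose_apply, Matrix.of_apply, RCLike.star_def]
  rw [← Complex.normSq_eq_conj_mul_self, Complex.ofReal_re, Complex.normSq_eq_norm_sq]

theorem us_nonneg (φ : Cn n → ℝ) (f : Cn n → ℂ) (y : Cn n) : 0 ≤ us φ f y := by
  unfold us; positivity

theorem ws_nonneg (hK : (K z).PosDef) (φ : Cn n → ℝ) (f : Cn n → ℂ) : 0 ≤ ws K φ f z :=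
  nsq_nonneg (tw_posDef (Kd_posDef hK)).posSemidef _

theorem dM_one (s : ℂ) (c : Fin n) : dM s c (fun _ : Cn n => (1 : Matrix κ κ ℂ)) z = 0 :=
  dM_const 1 z

theorem rm_one (c d : Fin n) : rm (fun _ : Cn n => (1 : Matrix κ κ ℂ)) z c d = 0 := by
  have h1 : dM I d (fun _ : Cn n => (1 : Matrix κ κ ℂ)) = fun _ => 0 := by
    funext y
    exact dM_const 1 y
  unfold rm
  rw [h1, dM_const]
  simp

theorem hol_um {f : Cn n → ℂ} (hf : ∀ᶠ y in 𝓝 z, DifferentiableAt ℂ f y) : HolM z (um f) :=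
  fun _ _ => hf

theorem sm_const_one : SmM z (fun _ : Cn n => (1 : Matrix κ κ ℂ)) :=
  fun _ _ => contDiffAt_const

theorem Dp_um {φ : Cn n → ℝ} {f : Cn n → ℂ} (hφ : ContDiffAt ℝ ∞ φ z) (c : Fin n) :
    Dp (tw φ fun _ => (1 : Matrix Unit Unit ℂ)) (um f) c z = Matrix.of fun _ _ => ns φ f z c () := by
  rw [Dp_tw hφ sm_const_one (by simp)]
  unfold Dp
  rw [dM_one]
  ext i j
  simp only [Matrix.sub_apply, Matrix.mul_zero, Matrix.zero_mul,
    add_zero, Matrix.smul_apply, smul_eq_mul, Matrix.of_apply, um, ns]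
  rfl

theorem ws_eq (φ : Cn n → ℝ) (f : Cn n → ℂ) (y : Cn n) :
    ws K φ f y = (tk K y fun a b => ((Real.exp (-φ y) : ℝ) : ℂ) *
      (ns φ f y a () * conj (ns φ f y b ()))).re := by
  unfold ws
  rw [nsq_tw, tk_smul _ (fun a b => ns φ f y a () * conj (ns φ f y b ())),
    Complex.re_ofReal_mul]
  congr 1
  unfold tk nsq
  simp only [Matrix.trace, Matrix.diag, Matrix.mul_apply, Finset.univ_unique,
    Finset.sum_singleton, Matrix.conjTranspose_apply, Kd, Matrix.transpose_apply,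
    RCLike.star_def, Finset.sum_mul]
  have h1 : ∀ a b, conj (ns φ f y b ()) * (K y)⁻¹ a b * ns φ f y a ()
      = (K y)⁻¹ a b * (ns φ f y a () * conj (ns φ f y b ())) := fun a b => by ring
  exact congrArg Complex.re (Finset.sum_congr rfl fun a _ => Finset.sum_congr rfl fun b _ => h1 a b)

/-- the Hessian of the weight is `c` times the metric -/
def Par (K : Cn n → Matrix (Fin n) (Fin n) ℂ) (φ : Cn n → ℝ) (c : ℝ) (z : Cn n) : Prop :=
  hess φ z = (c : ℂ) • (K z)ᵀ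

theorem lap_par {φ : Cn n → ℝ} {c : ℝ} (h0 : (K z).det ≠ 0) (h : Par K φ c z) :
    lap K φ z = c * n := by
  have hi : (K z)⁻¹ * K z = 1 := Matrix.nonsing_inv_mul _ (isUnit_iff_ne_zero.2 h0)
  unfold lap tk
  rw [h]
  have h1 : ∑ a, ∑ b, (K z)⁻¹ a b * ((c : ℂ) • (K z)ᵀ) a b = (c : ℂ) * ((K z)⁻¹ * K z).trace := by
    simp only [Matrix.trace, Matrix.diag, Matrix.mul_apply, Finset.mul_sum, Matrix.smul_apply,
      smul_eq_mul, Matrix.transpose_apply]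
    exact Finset.sum_congr rfl fun a _ => Finset.sum_congr rfl fun b _ => by ring
  rw [h1, hi, Matrix.trace_one, Fintype.card_fin, Complex.re_ofReal_mul]
  simp

section sec

variable {φ : Cn n → ℝ} {f : Cn n → ℂ}

theorem sm_us (hφ : ContDiffAt ℝ ∞ φ z) (hf : Sm z f) : ContDiffAt ℝ ∞ (us φ f) z := by
  rw [us_eq]
  exact sm_nsq (sm_tw hφ sm_const_one) fun _ _ => hf

/-- `Δ|s|² = |∇s|² - (Δφ) |s|²` -/
theorem lap_us' (hφ : ∀ᶠ y in 𝓝 z, ContDiffAt ℝ ∞ φ y) (hp : (K z).PosDef)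
    (hf : ∀ᶠ y in 𝓝 z, DifferentiableAt ℂ f y) :
    lap K (us φ f) z = ws K φ f z - lap K φ z * us φ f z := by
  have hφz := hφ.self_of_nhds
  have h1G : (1 : Matrix Unit Unit ℂ).PosDef := Matrix.PosDef.one
  have hG : ∀ᶠ y in 𝓝 z, SmM y (tw φ fun _ => (1 : Matrix Unit Unit ℂ)) :=
    hφ.mono fun y hy => sm_tw hy sm_const_one
  have hh : ∀ y, (tw φ (fun _ => (1 : Matrix Unit Unit ℂ)) y).IsHermitian := fun y =>
    (tw_posDef (z := y) (G := fun _ => (1 : Matrix Unit Unit ℂ)) h1G).isHermitian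
  have hd : (tw φ (fun _ => (1 : Matrix Unit Unit ℂ)) z).det ≠ 0 :=
    (tw_posDef (z := z) (G := fun _ => (1 : Matrix Unit Unit ℂ)) h1G).det_pos.ne'
  rw [us_eq, lap_nsq hG (Eventually.of_forall hh) hd (hol_um hf),
    cvt_tw hp.isHermitian hφz sm_const_one (by simp) h1G.isHermitian]
  have h2 : cvt K (fun _ => (1 : Matrix Unit Unit ℂ)) (um f) z = 0 := by
    unfold cvt
    simp only [rm_one, Matrix.mul_zero, Matrix.zero_mul, Matrix.trace_zero, tk_zero,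
      Complex.zero_re]
  have h3 : ene K (tw φ fun _ => (1 : Matrix Unit Unit ℂ)) (um f) z = ws K φ f z := by
    rw [ws_eq]
    unfold ene
    congr 1
    refine tk_congr fun a b => ?_
    rw [Dp_um hφz, Dp_um hφz]
    simp only [tw, Matrix.mul_smul, Matrix.mul_one, Matrix.smul_mul, Matrix.trace, Matrix.diag,
      Matrix.smul_apply, Matrix.mul_apply, Finset.univ_unique, Finset.sum_singleton,
      Matrix.conjTranspose_apply, Matrix.of_apply, smul_eq_mul, RCLike.star_def]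
    ring
  rw [h2, h3, mul_zero, zero_add]

theorem lap_us {c : ℝ} (hφ : ∀ᶠ y in 𝓝 z, ContDiffAt ℝ ∞ φ y) (hp : (K z).PosDef)
    (hf : ∀ᶠ y in 𝓝 z, DifferentiableAt ℂ f y) (hc : Par K φ c z) :
    lap K (us φ f) z = ws K φ f z - c * n * us φ f z := by
  rw [lap_us' hφ hp hf, lap_par hp.det_pos.ne' hc]

/-- `∂_c |s|² = e^{-φ} f̄ ∇_c s` -/
theorem dS_us (hφ : ContDiffAt ℝ ∞ φ z) (hf : ∀ᶠ y in 𝓝 z, DifferentiableAt ℂ f y) (a : Fin n) :
    dS (-I) a (cu (us φ f)) z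
      = ((Real.exp (-φ z) : ℝ) : ℂ) * (conj (f z) * ns φ f z a ()) := by
  have h1G : (1 : Matrix Unit Unit ℂ).PosDef := Matrix.PosDef.one
  have hh : ∀ y, (tw φ (fun _ => (1 : Matrix Unit Unit ℂ)) y).IsHermitian := fun y =>
    (tw_posDef (z := y) (G := fun _ => (1 : Matrix Unit Unit ℂ)) h1G).isHermitian
  have hd : (tw φ (fun _ => (1 : Matrix Unit Unit ℂ)) z).det ≠ 0 :=
    (tw_posDef (z := z) (G := fun _ => (1 : Matrix Unit Unit ℂ)) h1G).det_pos.ne'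
  rw [us_eq, dS_nsq (sm_tw hφ sm_const_one) (Eventually.of_forall hh) hd (hol_um hf), Dp_um hφ]
  simp only [tw, Matrix.mul_smul, Matrix.mul_one, Matrix.smul_mul, Matrix.trace, Matrix.diag,
    Matrix.smul_apply, Matrix.mul_apply, Finset.univ_unique, Finset.sum_singleton,
    Matrix.conjTranspose_apply, Matrix.of_apply, smul_eq_mul, RCLike.star_def, um]
  ring

/-- `|∂|s|²|² = |s|² |∇s|²` -/
theorem gsq_us (hφ : ContDiffAt ℝ ∞ φ z) (hf : ∀ᶠ y in 𝓝 z, DifferentiableAt ℂ f y) :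
    gsq K (us φ f) z = us φ f z * ws K φ f z := by
  have hd : DifferentiableAt ℝ (us φ f) z :=
    (sm_us hφ (sm_of_hol hf)).differentiableAt (by simp)
  rw [ws_eq, tk_smul, Complex.re_ofReal_mul]
  unfold gsq
  have h1 : ∀ a b, dS (-I) a (cu (us φ f)) z * dS I b (cu (us φ f)) z
      = ((Real.exp (-φ z) * (Real.exp (-φ z) * ‖f z‖ ^ 2) : ℝ) : ℂ) *
        (ns φ f z a () * conj (ns φ f z b ())) := by
    intro a b
    have h2 : ((‖f z‖ ^ 2 : ℝ) : ℂ) = conj (f z) * f z := by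
      rw [← Complex.normSq_eq_norm_sq, Complex.normSq_eq_conj_mul_self]
    rw [dS_bar hd, dS_us hφ hf, dS_us hφ hf, map_mul, map_mul, Complex.conj_ofReal,
      Complex.conj_conj, Complex.ofReal_mul, Complex.ofReal_mul, h2]
    ring
  rw [tk_congr h1, tk_smul, Complex.re_ofReal_mul]
  unfold us
  ring

/-! #### the covariant derivative `∇s` -/

theorem sm_cu (hφ : ContDiffAt ℝ ∞ φ z) : Sm z (cu φ) := contDiffAt_cu hφ

theorem sm_ns (hφ : ContDiffAt ℝ ∞ φ z) (hf : Sm z f) : SmM z (ns φ f) := fun a _ =>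
  (hf.dS _ _).sub ((Sm.dS (sm_cu hφ) _ _).mul hf)

theorem dS_sub' {s : ℂ} {a : Fin n} {f g : Cn n → ℂ} (hf : DifferentiableAt ℝ f z)
    (hg : DifferentiableAt ℝ g z) :
    dS s a (fun y => f y - g y) z = dS s a f z - dS s a g z := by
  have h1 : (fun y => f y - g y) = fun y => f y + (fun y => - g y) y := by
    funext y; ring
  have h2 : dS s a (fun y => f y + (fun y => - g y) y) z
      = dS s a f z + dS s a (fun y => - g y) z := dS_add hf hg.neg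
  rw [h1, h2, dS_neg]
  ring

/-- `∂̄_d ∇_a s = - (∂_a∂̄_d φ) s` -/
theorem dbar_ns (hφ : ContDiffAt ℝ ∞ φ z) (hf : ∀ᶠ y in 𝓝 z, DifferentiableAt ℂ f y)
    (d : Fin n) : dM I d (ns φ f) z = Matrix.of fun a _ => - (hess φ z a d * f z) := by
  have hfs : Sm z f := sm_of_hol hf
  have hfb : ∀ᶠ y in 𝓝 z, ∀ a, dS I a f y = 0 := by
    filter_upwards [hf] with y hy
    exact fun a => wd_hol hy a
  ext a j
  rw [dM_apply, Matrix.of_apply]
  have hc : Sm z (cu φ) := contDiffAt_cu hφ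
  have h1 : dS I d (fun y => ns φ f y a j) z
      = dS I d (dS (-I) a f) z - dS I d (fun y => dS (-I) a (cu φ) y * f y) z :=
    dS_sub' (hfs.dS _ _).diff ((hc.dS _ _).diff.mul hfs.diff)
  have h2 : dS I d (dS (-I) a f) z = 0 := by
    rw [dS_comm hfs]
    have h3 : dS I d f =ᶠ[𝓝 z] fun _ => 0 := hfb.mono fun y hy => hy d
    rw [dS_congr h3, dS_const]
  rw [h1, h2, dS_mul (hc.dS _ _).diff hfs.diff, hfb.self_of_nhds d, mul_zero, add_zero,
    zero_sub, dS_comm hc, hess_eq]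

/-- `∇_c ∇_a s`, in the frame -/
def hs (K : Cn n → Matrix (Fin n) (Fin n) ℂ) (φ : Cn n → ℝ) (f : Cn n → ℂ) (z : Cn n)
    (c a : Fin n) : ℂ := Dp (tw φ (Kd K)) (ns φ f) c z a ()

/-- `|∇'∇s|²` -/
def es (K : Cn n → Matrix (Fin n) (Fin n) ℂ) (φ : Cn n → ℝ) (f : Cn n → ℂ) (z : Cn n) : ℝ :=
  ene K (tw φ (Kd K)) (ns φ f) z

theorem dbar_par {c : ℝ} (hφ : ∀ᶠ y in 𝓝 z, ContDiffAt ℝ ∞ φ y)
    (hf : ∀ᶠ y in 𝓝 z, DifferentiableAt ℂ f y) (hc : ∀ᶠ y in 𝓝 z, Par K φ c y) (d : Fin n) :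
    dM I d (ns φ f) =ᶠ[𝓝 z] fun y => Matrix.of fun a _ => - ((c : ℂ) * K y d a * f y) := by
  filter_upwards [hφ, hf.eventually_nhds, hc] with y h1 h2 h3
  rw [dbar_ns h1 h2, h3]
  rfl

theorem Dp_dbar_par {c : ℝ} (hK : SmM z K) (h0 : (K z).det ≠ 0)
    (hφ : ∀ᶠ y in 𝓝 z, ContDiffAt ℝ ∞ φ y)
    (hf : ∀ᶠ y in 𝓝 z, DifferentiableAt ℂ f y) (hc : ∀ᶠ y in 𝓝 z, Par K φ c y) (b d : Fin n) :
    Dp (tw φ (Kd K)) (dM I d (ns φ f)) b z
      = Matrix.of fun a _ => - ((c : ℂ) * K z d a * ns φ f z b ()) := by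
  have hi : K z * (K z)⁻¹ = 1 := Matrix.mul_nonsing_inv _ (isUnit_iff_ne_zero.2 h0)
  have hfs : Sm z f := sm_of_hol hf
  have hKd0 : (Kd K z).det ≠ 0 := by
    unfold Kd
    rw [Matrix.det_transpose, Matrix.det_nonsing_inv, Ring.inverse_eq_inv']
    exact inv_ne_zero h0
  rw [Dp_congr (dbar_par hφ hf hc d), Dp_tw hφ.self_of_nhds (sm_Kd hK h0) hKd0, Dp_Kd hK h0]
  ext a j
  simp only [Matrix.sub_apply, Matrix.smul_apply, Matrix.of_apply, smul_eq_mul]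
  have h1 : dM (-I) b (fun y => (Matrix.of fun a (_ : Unit) => - ((c : ℂ) * K y d a * f y))) z a j
      = - ((c : ℂ) * (dM (-I) b K z d a * f z + K z d a * dS (-I) b f z)) := by
    rw [dM_apply]
    have h2 : (fun y => (Matrix.of fun a (_ : Unit) => - ((c : ℂ) * K y d a * f y)) a j)
        = fun y => - ((c : ℂ) * (K y d a * f y)) := by
      funext y
      simp only [Matrix.of_apply]
      ring
    have h3 : dS (-I) b (fun y => (c : ℂ) * (K y d a * f y)) z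
        = (c : ℂ) * dS (-I) b (fun y => K y d a * f y) z :=
      dS_const_mul _ ((hK d a).diff.mul hfs.diff)
    rw [h2, dS_neg, h3, dS_mul (hK d a).diff hfs.diff]
    rfl
  have h3 : (((K z)⁻¹ * dM (-I) b K z)ᵀ *
      (Matrix.of fun a (_ : Unit) => - ((c : ℂ) * K z d a * f z))) a j
      = - ((c : ℂ) * dM (-I) b K z d a * f z) := by
    have h4 : dM (-I) b K z d a = ∑ e, K z d e * ((K z)⁻¹ * dM (-I) b K z) e a := by
      have h5 : dM (-I) b K z = K z * ((K z)⁻¹ * dM (-I) b K z) := by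
        rw [← Matrix.mul_assoc, hi, Matrix.one_mul]
      exact (congrFun (congrFun h5 d) a).trans (Matrix.mul_apply)
    rw [h4, Matrix.mul_apply, Finset.mul_sum, Finset.sum_mul, ← Finset.sum_neg_distrib]
    refine Finset.sum_congr rfl fun e _ => ?_
    rw [Matrix.transpose_apply, Matrix.of_apply]
    ring
  rw [h1, h3]
  unfold ns
  rw [Matrix.of_apply]
  ring

theorem K_inv_sum (h0 : (K z).det ≠ 0) (a b : Fin n) :
    ∑ d, (K z)⁻¹ a d * K z d b = if a = b then 1 else 0 := by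
  have hi : (K z)⁻¹ * K z = 1 := Matrix.nonsing_inv_mul _ (isUnit_iff_ne_zero.2 h0)
  rw [← Matrix.mul_apply, hi, Matrix.one_apply]

/-- `Re ⟨g^{c d̄} ∇_c ∇_{d̄} ∇s, ∇s⟩ = - c |∇s|²` -/
theorem rgh_par {c : ℝ} (hK : SmM z K) (h0 : (K z).det ≠ 0)
    (hφ : ∀ᶠ y in 𝓝 z, ContDiffAt ℝ ∞ φ y)
    (hf : ∀ᶠ y in 𝓝 z, DifferentiableAt ℂ f y) (hc : ∀ᶠ y in 𝓝 z, Par K φ c y) :
    rgh K (tw φ (Kd K)) (ns φ f) z = - c * ws K φ f z := by
  unfold rgh
  set X : Matrix Unit (Fin n) ℂ := (ns φ f z)ᴴ * tw φ (Kd K) z with hX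
  have h1 : ∀ a d, (X * Dp (tw φ (Kd K)) (dM I d (ns φ f)) a z).trace
      = -(c : ℂ) * ∑ e, X () e * K z d e * ns φ f z a () := by
    intro a d
    rw [Dp_dbar_par hK h0 hφ hf hc]
    simp only [Matrix.trace, Matrix.diag, Matrix.mul_apply, Finset.univ_unique,
      Finset.sum_singleton, Matrix.of_apply]
    rw [Finset.mul_sum]
    refine Finset.sum_congr rfl fun e _ => ?_
    show X () e * _ = _
    ring
  rw [tk_congr h1, tk_smul]
  have h2 : tk K z (fun a d => ∑ e, X () e * K z d e * ns φ f z a ()) = (X * ns φ f z).trace := by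
    unfold tk
    have h3 : ∀ a, ∑ d, (K z)⁻¹ a d * ∑ e, X () e * K z d e * ns φ f z a ()
        = X () a * ns φ f z a () := by
      intro a
      have h4 : ∀ d, (K z)⁻¹ a d * ∑ e, X () e * K z d e * ns φ f z a ()
          = ∑ e, X () e * ns φ f z a () * ((K z)⁻¹ a d * K z d e) := by
        intro d
        rw [Finset.mul_sum]
        exact Finset.sum_congr rfl fun e _ => by ring
      simp_rw [h4]
      rw [Finset.sum_comm]
      simp_rw [← Finset.mul_sum, K_inv_sum h0]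
      simp
    simp_rw [h3]
    simp only [Matrix.trace, Matrix.diag, Matrix.mul_apply, Finset.univ_unique,
      Finset.sum_singleton]
  rw [h2, hX]
  have h5 : (-(c : ℂ) * ((ns φ f z)ᴴ * tw φ (Kd K) z * ns φ f z).trace).re
      = - c * ((ns φ f z)ᴴ * tw φ (Kd K) z * ns φ f z).trace.re := by
    rw [← Complex.ofReal_neg, Complex.re_ofReal_mul]
  rw [h5]
  rfl

theorem conj_K (hK : (K z).IsHermitian) (a b : Fin n) : conj (K z a b) = K z b a := by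
  have := congrFun (congrFun hK.eq b) a
  rwa [Matrix.conjTranspose_apply] at this

/-- `(∇̄_c ∇s)ᴴ G X = - c f̄ e^{-φ} X_c` -/
theorem bar_gram {c : ℝ} (hp : (K z).PosDef) (hφ : ∀ᶠ y in 𝓝 z, ContDiffAt ℝ ∞ φ y)
    (hf : ∀ᶠ y in 𝓝 z, DifferentiableAt ℂ f y) (hc : ∀ᶠ y in 𝓝 z, Par K φ c y) (b : Fin n)
    (X : Matrix (Fin n) Unit ℂ) :
    ((dM I b (ns φ f) z)ᴴ * tw φ (Kd K) z * X).trace
      = - (c : ℂ) * conj (f z) * ((Real.exp (-φ z) : ℝ) : ℂ) * X b () := by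
  have h1 : dM I b (ns φ f) z = Matrix.of fun a _ => - ((c : ℂ) * K z b a * f z) :=
    (dbar_par hφ hf hc b).self_of_nhds
  rw [h1]
  simp only [Matrix.trace, Matrix.diag, Matrix.mul_apply, Finset.univ_unique,
    Finset.sum_singleton, Matrix.conjTranspose_apply, Matrix.of_apply, tw, Kd,
    Matrix.smul_apply, Matrix.transpose_apply, smul_eq_mul, RCLike.star_def, map_neg, map_mul,
    Complex.conj_ofReal, conj_K hp.isHermitian]
  have h2 : ∀ e, (∑ a, -((c : ℂ) * K z a b * conj (f z)) *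
      (((Real.exp (-φ z) : ℝ) : ℂ) * (K z)⁻¹ e a)) * X e default
      = -(c : ℂ) * conj (f z) * ((Real.exp (-φ z) : ℝ) : ℂ) *
        (X e () * ∑ a, (K z)⁻¹ e a * K z a b) := by
    intro e
    rw [Finset.sum_mul, Finset.mul_sum, Finset.mul_sum]
    exact Finset.sum_congr rfl fun a _ => by
      show _ * _ * X e () = _
      ring
  simp_rw [h2, K_inv_sum hp.det_pos.ne']
  rw [← Finset.mul_sum]
  simp

/-- `|∇''∇s|² = c² n |s|²` -/
theorem enb_par {c : ℝ} (hp : (K z).PosDef) (hφ : ∀ᶠ y in 𝓝 z, ContDiffAt ℝ ∞ φ y)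
    (hf : ∀ᶠ y in 𝓝 z, DifferentiableAt ℂ f y) (hc : ∀ᶠ y in 𝓝 z, Par K φ c y) :
    enb K (tw φ (Kd K)) (ns φ f) z = c ^ 2 * n * us φ f z := by
  have hi : (K z)⁻¹ * K z = 1 :=
    Matrix.nonsing_inv_mul _ (isUnit_iff_ne_zero.2 hp.det_pos.ne')
  unfold enb
  have h1 : ∀ a d, ((dM I a (ns φ f) z)ᴴ * tw φ (Kd K) z * dM I d (ns φ f) z).trace
      = ((c ^ 2 * us φ f z : ℝ) : ℂ) * K z d a := by
    intro a d
    have h3 : dM I d (ns φ f) z a () = - ((c : ℂ) * K z d a * f z) := by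
      rw [(dbar_par hφ hf hc d).self_of_nhds]
      rfl
    rw [bar_gram hp hφ hf hc, h3]
    have h2 : ((‖f z‖ ^ 2 : ℝ) : ℂ) = conj (f z) * f z := by
      rw [← Complex.normSq_eq_norm_sq, Complex.normSq_eq_conj_mul_self]
    unfold us
    rw [Complex.ofReal_mul, Complex.ofReal_mul, h2]
    push_cast
    ring
  rw [tk_congr h1, tk_smul _ (fun a d => K z d a), Complex.re_ofReal_mul]
  have h3 : tk K z (fun a d => K z d a) = ((K z)⁻¹ * K z).trace := by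
    simp only [tk, Matrix.trace, Matrix.diag, Matrix.mul_apply]
  rw [h3, hi, Matrix.trace_one, Fintype.card_fin]
  simp
  ring

/-- **S-CALC**: `Δ|∇s|² = |∇'∇s|² + c² n |s|² - c (n + 2) |∇s|²` -/
theorem lap_ws {c : ℝ} (hK : ∀ᶠ y in 𝓝 z, SmM y K) (hp : ∀ᶠ y in 𝓝 z, (K y).PosDef)
    (hk : ∀ᶠ y in 𝓝 z, KahAt K y) (hR : Matrix.of (ric K z) = 0)
    (hφ : ∀ᶠ y in 𝓝 z, ContDiffAt ℝ ∞ φ y)
    (hf : ∀ᶠ y in 𝓝 z, DifferentiableAt ℂ f y) (hc : ∀ᶠ y in 𝓝 z, Par K φ c y) :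
    lap K (ws K φ f) z = es K φ f z + c ^ 2 * n * us φ f z - c * (n + 2) * ws K φ f z := by
  have hpz := hp.self_of_nhds
  have hG : ∀ᶠ y in 𝓝 z, SmM y (tw φ (Kd K)) := by
    filter_upwards [hφ, smE_Kd hK hp] with y h1 h2
    exact sm_tw h1 h2
  have hh : ∀ᶠ y in 𝓝 z, (tw φ (Kd K) y).IsHermitian := by
    filter_upwards [hp] with y hy
    exact (tw_posDef (Kd_posDef hy)).isHermitian
  have hV : ∀ᶠ y in 𝓝 z, SmM y (ns φ f) := by
    filter_upwards [hφ, hf.eventually_nhds] with y h1 h2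
    exact sm_ns h1 (sm_of_hol h2)
  unfold ws
  rw [lap_gen hpz.isHermitian hG hh (tw_posDef (Kd_posDef hpz)).det_pos.ne' hV,
    enb_par hpz hφ hf hc, rgh_par hK.self_of_nhds hpz.det_pos.ne' hφ hf hc,
    cvt_twform hK hp hk hR hφ.self_of_nhds, lap_par hpz.det_pos.ne' hc.self_of_nhds]
  unfold es ws
  ring

theorem es_nonneg (hp : (K z).PosDef) : 0 ≤ es K φ f z :=
  ene_nonneg hp (tw_posDef (Kd_posDef hp)).posSemidef _

theorem lap_ws_ge {c : ℝ} (hK : ∀ᶠ y in 𝓝 z, SmM y K) (hp : ∀ᶠ y in 𝓝 z, (K y).PosDef)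
    (hk : ∀ᶠ y in 𝓝 z, KahAt K y) (hR : Matrix.of (ric K z) = 0)
    (hφ : ∀ᶠ y in 𝓝 z, ContDiffAt ℝ ∞ φ y)
    (hf : ∀ᶠ y in 𝓝 z, DifferentiableAt ℂ f y) (hc : ∀ᶠ y in 𝓝 z, Par K φ c y) :
    - (c * (n + 2)) * ws K φ f z ≤ lap K (ws K φ f) z := by
  rw [lap_ws hK hp hk hR hφ hf hc]
  have h1 := es_nonneg (φ := φ) (f := f) hp.self_of_nhds
  have h2 : 0 ≤ c ^ 2 * n * us φ f z := mul_nonneg (by positivity) (us_nonneg φ f z)
  linarith

theorem sm_ws (hK : SmM z K) (hp : (K z).PosDef) (hφ : ContDiffAt ℝ ∞ φ z) (hf : Sm z f) :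
    ContDiffAt ℝ ∞ (ws K φ f) z :=
  sm_nsq (sm_tw hφ (sm_Kd hK hp.det_pos.ne')) (sm_ns hφ hf)

/-- `∂_a |∇s|² = ⟨∇_a ∇s, ∇s⟩ - c e^{-φ} f̄ ∇_a s` -/
theorem dS_ws {c : ℝ} (hK : ∀ᶠ y in 𝓝 z, SmM y K) (hp : ∀ᶠ y in 𝓝 z, (K y).PosDef)
    (hφ : ∀ᶠ y in 𝓝 z, ContDiffAt ℝ ∞ φ y)
    (hf : ∀ᶠ y in 𝓝 z, DifferentiableAt ℂ f y) (hc : ∀ᶠ y in 𝓝 z, Par K φ c y) (a : Fin n) :
    dS (-I) a (cu (ws K φ f)) z
      = ((Real.exp (-φ z) : ℝ) : ℂ) * (tk K z (fun b e => hs K φ f z a b * conj (ns φ f z e ()))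
        - c * conj (f z) * ns φ f z a ()) := by
  have hpz := hp.self_of_nhds
  have hG : SmM z (tw φ (Kd K)) := sm_tw hφ.self_of_nhds (smE_Kd hK hp).self_of_nhds
  have hh : ∀ᶠ y in 𝓝 z, (tw φ (Kd K) y).IsHermitian := by
    filter_upwards [hp] with y hy
    exact (tw_posDef (Kd_posDef hy)).isHermitian
  have hV : SmM z (ns φ f) := sm_ns hφ.self_of_nhds (sm_of_hol hf)
  have h1 : cu (ws K φ f) =ᶠ[𝓝 z] fun y =>
      ((ns φ f y)ᴴ * tw φ (Kd K) y * ns φ f y).trace :=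
    cu_tr (hh.mono fun y hy => gram_herm hy (ns φ f y))
  rw [dS_congr h1, dS_trace (sm_gram hG hV),
    dM_gramL hG (tw_posDef (Kd_posDef hpz)).det_pos.ne' hV hV, Matrix.trace_add,
    bar_gram hpz hφ hf hc]
  have h2 : ((ns φ f z)ᴴ * tw φ (Kd K) z * Dp (tw φ (Kd K)) (ns φ f) a z).trace
      = ((Real.exp (-φ z) : ℝ) : ℂ) *
        tk K z (fun b e => hs K φ f z a b * conj (ns φ f z e ())) := by
    simp only [Matrix.trace, Matrix.diag, Matrix.mul_apply, Finset.univ_unique,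
      Finset.sum_singleton, Matrix.conjTranspose_apply, tw, Kd, Matrix.smul_apply,
      Matrix.transpose_apply, smul_eq_mul, RCLike.star_def, tk, Finset.mul_sum, Finset.sum_mul, hs]
    refine Finset.sum_congr rfl fun b _ => Finset.sum_congr rfl fun e _ => ?_
    show conj (ns φ f z e ()) * _ * Dp (tw φ (Kd K)) (ns φ f) a z b () = _
    ring
  rw [h2]
  ring

end sec

end

end Crest.Agent.R281.Bo3_815
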