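import Crest.Agent.R281.Bo3_815

/-!
# R281 (S0424), the 1-jet Bochner inequality (helper815)

`u = |s|²`, `w = |∇s|²`, `S = u + w + e`, `e > 0`, curvature `c • g`, Ricci flat,
`Y = s ∇∇s - ∇s ⊗ ∇s`:

* `jet_one : |Y|² / (2 S²) + e w / S² - (c (n + 2) + 2 c²) ≤ lap log S`;
* `jet_two : |∂ (u / S)|² ≤ (3/4) |Y|² / S² + (3/4) c² + 3 e² u w / S⁴`;
* `jet : gsq (u / S) ≤ (3/2) lap log S + (3/2) c (n + 2) + (15/4) c²`.
-/

set_option autoImplicit false
set_option linter.unusedSectionVars false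
set_option linter.unusedSimpArgs false

open Finset Matrix Complex Filter Topology
open scoped ContDiff ComplexConjugate Kronecker ComplexOrder

namespace Crest.Agent.R281.Bo4_815

open Crest.Agent.R275.Geo hiding tw
open Crest.Agent.R275.EDR890
open Crest.Agent.R273.Fock_243 Crest.Agent.R273.Calc_243
open Crest.Agent.R273.Bkn_243 Crest.Agent.R273.Pos_243 Crest.Agent.R273.BochA_101
open Crest.Agent.R273.BochB_101 Crest.Agent.R273.BochC_101 Crest.Agent.R273.BochD_101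
open Crest.Agent.R273.BochH_101
open Crest.Agent.R273.Hess_333 Crest.Agent.R273.HessB_333 Crest.Agent.R273.FIa0_597
open Crest.Agent.R281.Bo1_815 Crest.Agent.R281.Bo2_815 Crest.Agent.R281.Bo3_815

noncomputable section

/-! ### finite sums -/

section alg

variable {ι : Type} [Fintype ι]

theorem cs (h w : ι → ℂ) : ‖∑ b, h b * conj (w b)‖ ^ 2 ≤ (∑ b, ‖h b‖ ^ 2) * ∑ b, ‖w b‖ ^ 2 := by
  have h1 : ‖∑ b, h b * conj (w b)‖ ≤ ∑ b, ‖h b‖ * ‖w b‖ := by
    refine (norm_sum_le _ _).trans (le_of_eq ?_)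
    exact Finset.sum_congr rfl fun b _ => by rw [norm_mul, RCLike.norm_conj]
  calc ‖∑ b, h b * conj (w b)‖ ^ 2 ≤ (∑ b, ‖h b‖ * ‖w b‖) ^ 2 := by gcongr
    _ ≤ _ := Finset.sum_mul_sq_le_sq_mul_sq _ _ _

theorem norm_sq_add (x y : ℂ) : ‖x + y‖ ^ 2 = ‖x‖ ^ 2 + ‖y‖ ^ 2 + 2 * (x * conj y).re := by
  rw [← Complex.normSq_eq_norm_sq, ← Complex.normSq_eq_norm_sq, ← Complex.normSq_eq_norm_sq,
    Complex.normSq_add]

theorem norm_sq_sub (x y : ℂ) : ‖x - y‖ ^ 2 = ‖x‖ ^ 2 + ‖y‖ ^ 2 - 2 * (x * conj y).re := by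
  rw [← Complex.normSq_eq_norm_sq, ← Complex.normSq_eq_norm_sq, ← Complex.normSq_eq_norm_sq,
    Complex.normSq_sub]

/-- one row of the Lagrange inequality -/
theorem lagr (α β : ℂ) (h w : ι → ℂ) :
    ‖conj α * β + ∑ b, h b * conj (w b)‖ ^ 2 + ∑ b, ‖α * h b - β * w b‖ ^ 2
      ≤ (‖α‖ ^ 2 + ∑ b, ‖w b‖ ^ 2) * (‖β‖ ^ 2 + ∑ b, ‖h b‖ ^ 2) := by
  have h1 : ∑ b, ‖α * h b - β * w b‖ ^ 2
      = ‖α‖ ^ 2 * ∑ b, ‖h b‖ ^ 2 + ‖β‖ ^ 2 * ∑ b, ‖w b‖ ^ 2
        - 2 * (α * conj β * ∑ b, h b * conj (w b)).re := by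
    simp_rw [norm_sq_sub, norm_mul, mul_pow]
    rw [Finset.sum_sub_distrib, Finset.sum_add_distrib, ← Finset.mul_sum, ← Finset.mul_sum,
      ← Finset.mul_sum, ← Complex.re_sum]
    have h0 : ∑ b, α * h b * conj (β * w b) = α * conj β * ∑ b, h b * conj (w b) := by
      rw [Finset.mul_sum]
      refine Finset.sum_congr rfl fun b _ => ?_
      rw [map_mul]
      ring
    rw [h0]
  have h2 : (conj α * β * conj (∑ b, h b * conj (w b))).re
      = (α * conj β * ∑ b, h b * conj (w b)).re := by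
    rw [← Complex.conj_re]
    congr 1
    simp only [map_mul, Complex.conj_conj]
  rw [h1, norm_sq_add, h2, norm_mul, RCLike.norm_conj, mul_pow]
  have h3 := cs h w
  nlinarith

variable (f : ℂ) (v : ι → ℂ) (H : ι → ι → ℂ)

/-- `|Y|²` -/
def yy : ℝ := ∑ a, ∑ b, ‖f * H a b - v a * v b‖ ^ 2

theorem yy_nonneg : 0 ≤ yy f v H := by unfold yy; positivity

/-- the Lagrange inequality -/
theorem lagr_sum :
    ∑ a, ‖conj f * v a + ∑ b, H a b * conj (v b)‖ ^ 2 + yy f v H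
      ≤ (‖f‖ ^ 2 + ∑ b, ‖v b‖ ^ 2) * (∑ a, ‖v a‖ ^ 2 + ∑ a, ∑ b, ‖H a b‖ ^ 2) := by
  unfold yy
  rw [← Finset.sum_add_distrib, ← Finset.sum_add_distrib, Finset.mul_sum]
  exact Finset.sum_le_sum fun a _ => lagr f (v a) (H a) v

theorem sum_vv : ∑ a, ∑ b, v a * v b * conj (v a * v b) = (((∑ a, ‖v a‖ ^ 2) ^ 2 : ℝ) : ℂ) := by
  have h1 : ∀ a, v a * conj (v a) = ((‖v a‖ ^ 2 : ℝ) : ℂ) := fun a => by
    rw [Complex.mul_conj, Complex.normSq_eq_norm_sq]
  have h2 : ∀ a b, v a * v b * conj (v a * v b) = (v a * conj (v a)) * (v b * conj (v b)) :=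
    fun a b => by rw [map_mul]; ring
  simp_rw [h2, h1]
  rw [← Finset.sum_mul_sum, sq]
  push_cast
  ring

theorem cross :
    ∑ a, (conj f * v a + ∑ b, H a b * conj (v b)) * conj (conj f * v a)
      = ((‖f‖ ^ 2 * ∑ a, ‖v a‖ ^ 2 + (∑ a, ‖v a‖ ^ 2) ^ 2 : ℝ) : ℂ)
        + ∑ a, ∑ b, (f * H a b - v a * v b) * conj (v a * v b) := by
  have h1 : ∀ a, (conj f * v a + ∑ b, H a b * conj (v b)) * conj (conj f * v a)
      = ((‖f‖ ^ 2 * ‖v a‖ ^ 2 : ℝ) : ℂ) + ∑ b, f * H a b * conj (v a * v b) := by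
    intro a
    have h2 : ((‖f‖ ^ 2 * ‖v a‖ ^ 2 : ℝ) : ℂ) = conj f * v a * conj (conj f * v a) := by
      rw [Complex.mul_conj, Complex.normSq_eq_norm_sq, norm_mul, RCLike.norm_conj, mul_pow]
    rw [h2, add_mul, Finset.sum_mul]
    congr 1
    refine Finset.sum_congr rfl fun b _ => ?_
    simp only [map_mul, Complex.conj_conj]
    ring
  simp_rw [h1]
  rw [Finset.sum_add_distrib]
  have h3 : ∑ a, ∑ b, (f * H a b - v a * v b) * conj (v a * v b)
      = ∑ a, ∑ b, f * H a b * conj (v a * v b) - (((∑ a, ‖v a‖ ^ 2) ^ 2 : ℝ) : ℂ) := by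
    rw [← sum_vv, ← Finset.sum_sub_distrib]
    refine Finset.sum_congr rfl fun a _ => ?_
    rw [← Finset.sum_sub_distrib]
    exact Finset.sum_congr rfl fun b _ => by ring
  rw [h3]
  push_cast
  rw [Finset.mul_sum]
  ring

theorem cs2 :
    ‖∑ a, ∑ b, (f * H a b - v a * v b) * conj (v a * v b)‖ ^ 2
      ≤ yy f v H * (∑ a, ‖v a‖ ^ 2) ^ 2 := by
  have h1 := cs (ι := ι × ι) (fun p => f * H p.1 p.2 - v p.1 * v p.2) (fun p => v p.1 * v p.2)
  simp only [Fintype.sum_prod_type] at h1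
  refine h1.trans (le_of_eq ?_)
  have h2 : ∑ x, ∑ y, ‖v x * v y‖ ^ 2 = (∑ a, ‖v a‖ ^ 2) ^ 2 := by
    simp_rw [norm_mul, mul_pow]
    rw [← Finset.sum_mul_sum, sq]
  rw [h2]
  rfl

/-- the gradient of `|s|² + |∇s|²` -/
theorem jet_alg {c : ℝ} (hc : 0 ≤ c) :
    ∑ a, ‖conj f * v a + ∑ b, H a b * conj (v b) - c * (conj f * v a)‖ ^ 2 + yy f v H / 2
      ≤ (‖f‖ ^ 2 + ∑ b, ‖v b‖ ^ 2) * (∑ a, ‖v a‖ ^ 2 + ∑ a, ∑ b, ‖H a b‖ ^ 2)
        + 2 * c ^ 2 * (∑ a, ‖v a‖ ^ 2) ^ 2 + c ^ 2 * (‖f‖ ^ 2 * ∑ a, ‖v a‖ ^ 2) := by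
  have h0 := lagr_sum f v H
  have hcr := congrArg Complex.re (cross f v H)
  have hcs := cs2 f v H
  set G := ∑ a, ‖v a‖ ^ 2 with hG
  set F := ‖f‖ ^ 2 with hF
  set Y := yy f v H with hY
  set T := ∑ a, ∑ b, (f * H a b - v a * v b) * conj (v a * v b) with hT
  have hG0 : 0 ≤ G := by rw [hG]; positivity
  have hF0 : 0 ≤ F := by rw [hF]; positivity
  have hY0 : 0 ≤ Y := yy_nonneg f v H
  have h1 : ∑ a, ‖conj f * v a + ∑ b, H a b * conj (v b) - c * (conj f * v a)‖ ^ 2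
      = ∑ a, ‖conj f * v a + ∑ b, H a b * conj (v b)‖ ^ 2
        - 2 * c * (∑ a, (conj f * v a + ∑ b, H a b * conj (v b)) * conj (conj f * v a)).re
        + c ^ 2 * (F * G) := by
    have h2 : ∀ a, ‖conj f * v a + ∑ b, H a b * conj (v b) - c * (conj f * v a)‖ ^ 2
        = ‖conj f * v a + ∑ b, H a b * conj (v b)‖ ^ 2
          - 2 * c * ((conj f * v a + ∑ b, H a b * conj (v b)) * conj (conj f * v a)).re
          + c ^ 2 * (F * ‖v a‖ ^ 2) := by
      intro a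
      rw [norm_sq_sub, norm_mul, norm_mul (conj f), RCLike.norm_conj, mul_pow, mul_pow,
        Complex.norm_real, Real.norm_eq_abs, sq_abs]
      have h3 : ((conj f * v a + ∑ b, H a b * conj (v b)) * conj ((c : ℂ) * (conj f * v a))).re
          = c * ((conj f * v a + ∑ b, H a b * conj (v b)) * conj (conj f * v a)).re := by
        rw [← Complex.re_ofReal_mul]
        congr 1
        rw [map_mul, Complex.conj_ofReal]
        ring
      rw [h3]
      ring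
    simp_rw [h2]
    rw [Finset.sum_add_distrib, Finset.sum_sub_distrib, Complex.re_sum, ← Finset.mul_sum,
      ← Finset.mul_sum, ← Finset.mul_sum, ← hG]
  rw [h1, hcr, Complex.add_re, Complex.ofReal_re]
  -- `- 2 c Re T ≤ Y / 2 + 2 c² G²`
  have h4 : -(2 * c * T.re) ≤ Y / 2 + 2 * c ^ 2 * G ^ 2 := by
    have h5 : T.re ^ 2 ≤ Y * G ^ 2 := by
      refine le_trans ?_ hcs
      rw [← sq_abs]
      exact pow_le_pow_left₀ (abs_nonneg _) (Complex.abs_re_le_norm T) 2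
    have h6 : (2 * c * T.re) ^ 2 ≤ (Y / 2 + 2 * c ^ 2 * G ^ 2) ^ 2 := by
      have h7 : (2 * c * T.re) ^ 2 ≤ 4 * c ^ 2 * (Y * G ^ 2) := by
        have : (2 * c * T.re) ^ 2 = 4 * c ^ 2 * T.re ^ 2 := by ring
        rw [this]
        exact mul_le_mul_of_nonneg_left h5 (by positivity)
      nlinarith [sq_nonneg (Y / 2 - 2 * c ^ 2 * G ^ 2)]
    have h8 : 0 ≤ Y / 2 + 2 * c ^ 2 * G ^ 2 := by positivity
    have h9 := abs_le.1 (abs_le_of_sq_le_sq h6 h8)
    linarith [h9.1]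
  have h10 : 0 ≤ 2 * c * (F * G + G ^ 2) := by positivity
  nlinarith

theorem cs3 : ∑ a, ‖∑ b, (f * H a b - v a * v b) * conj (v b)‖ ^ 2
    ≤ yy f v H * ∑ a, ‖v a‖ ^ 2 := by
  unfold yy
  rw [Finset.sum_mul]
  exact Finset.sum_le_sum fun a _ => cs _ _

theorem norm_add3 (x y z : ℂ) : ‖x + y + z‖ ^ 2 ≤ 3 * (‖x‖ ^ 2 + ‖y‖ ^ 2 + ‖z‖ ^ 2) := by
  have h1 : ‖x + y + z‖ ≤ ‖x‖ + ‖y‖ + ‖z‖ :=
    (norm_add_le _ _).trans (add_le_add_left (norm_add_le _ _) _)
  have h2 : ‖x + y + z‖ ^ 2 ≤ (‖x‖ + ‖y‖ + ‖z‖) ^ 2 := by gcongr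
  nlinarith [sq_nonneg (‖x‖ - ‖y‖), sq_nonneg (‖y‖ - ‖z‖), sq_nonneg (‖x‖ - ‖z‖)]

/-- the gradient of `|s|² / (|s|² + |∇s|² + e)` -/
theorem jet_alg2 (c e : ℝ) :
    ∑ a, ‖((∑ a, ‖v a‖ ^ 2 + e : ℝ) : ℂ) * (conj f * v a)
        - ((‖f‖ ^ 2 : ℝ) : ℂ) * (∑ b, H a b * conj (v b) - c * (conj f * v a))‖ ^ 2
      ≤ 3 * (e ^ 2 * (‖f‖ ^ 2 * ∑ a, ‖v a‖ ^ 2) + yy f v H * (‖f‖ ^ 2 * ∑ a, ‖v a‖ ^ 2)
        + c ^ 2 * (‖f‖ ^ 2) ^ 2 * (‖f‖ ^ 2 * ∑ a, ‖v a‖ ^ 2)) := by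
  have hcs := cs3 f v H
  set G := ∑ a, ‖v a‖ ^ 2 with hG
  set F := ‖f‖ ^ 2 with hF
  have hF0 : 0 ≤ F := by rw [hF]; positivity
  have hff : ((F : ℝ) : ℂ) = conj f * f := by
    rw [hF, ← Complex.normSq_eq_norm_sq, Complex.normSq_eq_conj_mul_self]
  have hGG : ((G : ℝ) : ℂ) = ∑ b, v b * conj (v b) := by
    rw [hG]
    push_cast
    refine Finset.sum_congr rfl fun b _ => ?_
    rw [Complex.mul_conj, Complex.normSq_eq_norm_sq]
    push_cast
    rfl
  have h1 : ∀ a, ((G + e : ℝ) : ℂ) * (conj f * v a)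
        - ((F : ℝ) : ℂ) * (∑ b, H a b * conj (v b) - c * (conj f * v a))
      = (e : ℂ) * (conj f * v a) + (- conj f * ∑ b, (f * H a b - v a * v b) * conj (v b))
        + (c : ℂ) * F * (conj f * v a) := by
    intro a
    have h2 : ∑ b, (f * H a b - v a * v b) * conj (v b)
        = f * ∑ b, H a b * conj (v b) - v a * ∑ b, v b * conj (v b) := by
      rw [Finset.mul_sum, Finset.mul_sum, ← Finset.sum_sub_distrib]
      exact Finset.sum_congr rfl fun b _ => by ring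
    rw [h2, ← hGG]
    have h3 : ((F : ℝ) : ℂ) * ∑ b, H a b * conj (v b) = conj f * (f * ∑ b, H a b * conj (v b)) := by
      rw [hff]; ring
    rw [mul_sub, h3]
    push_cast
    ring
  have h4 : ∀ a, ‖((G + e : ℝ) : ℂ) * (conj f * v a)
        - ((F : ℝ) : ℂ) * (∑ b, H a b * conj (v b) - c * (conj f * v a))‖ ^ 2
      ≤ 3 * (e ^ 2 * (F * ‖v a‖ ^ 2) + F * ‖∑ b, (f * H a b - v a * v b) * conj (v b)‖ ^ 2
        + c ^ 2 * F ^ 2 * (F * ‖v a‖ ^ 2)) := by
    intro a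
    rw [h1 a]
    refine (norm_add3 _ _ _).trans (le_of_eq ?_)
    have e1 : ‖(e : ℂ)‖ ^ 2 = e ^ 2 := by rw [Complex.norm_real, Real.norm_eq_abs, sq_abs]
    have e2 : ‖(c : ℂ)‖ ^ 2 = c ^ 2 := by rw [Complex.norm_real, Real.norm_eq_abs, sq_abs]
    have e3 : ‖((F : ℝ) : ℂ)‖ ^ 2 = F ^ 2 := by rw [Complex.norm_real, Real.norm_eq_abs, sq_abs]
    simp only [norm_mul, mul_pow, norm_neg, RCLike.norm_conj, e1, e2, e3]
    rw [← hF]
  refine (Finset.sum_le_sum fun a _ => h4 a).trans ?_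
  rw [← Finset.mul_sum, Finset.sum_add_distrib, Finset.sum_add_distrib, ← Finset.mul_sum,
    ← Finset.mul_sum, ← Finset.mul_sum, ← Finset.mul_sum, ← Finset.mul_sum, ← hG]
  have h5 := mul_le_mul_of_nonneg_left hcs hF0
  have h6 : yy f v H * (F * G) = F * (yy f v H * G) := by ring
  rw [h6]
  linarith

end alg

/-! ### orthonormal frames -/

section frame

variable {n : ℕ} {K : Cn n → Matrix (Fin n) (Fin n) ℂ} {z : Cn n}
  {B : Matrix (Fin n) (Fin n) ℂ}

/-- components in an orthonormal coframe -/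
def bt (B : Matrix (Fin n) (Fin n) ℂ) (x : Fin n → ℂ) (k : Fin n) : ℂ := ∑ c, conj (B k c) * x c

theorem bt_add (x y : Fin n → ℂ) (k : Fin n) : bt B (fun a => x a + y a) k = bt B x k + bt B y k := by
  unfold bt
  simp only [mul_add, Finset.sum_add_distrib]

theorem bt_sub (x y : Fin n → ℂ) (k : Fin n) : bt B (fun a => x a - y a) k = bt B x k - bt B y k := by
  unfold bt
  simp only [mul_sub, Finset.sum_sub_distrib]

theorem bt_smul (t : ℂ) (x : Fin n → ℂ) (k : Fin n) : bt B (fun a => t * x a) k = t * bt B x k := by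
  unfold bt
  rw [Finset.mul_sum]
  exact Finset.sum_congr rfl fun c _ => by ring

theorem bt_sum {τ : Type} [Fintype τ] (x : τ → Fin n → ℂ) (k : Fin n) :
    bt B (fun a => ∑ l, x l a) k = ∑ l, bt B (x l) k := by
  unfold bt
  simp only [Finset.mul_sum]
  exact Finset.sum_comm

theorem tk_bt (hB : (K z)⁻¹ = Bᴴ * B) (x y : Fin n → ℂ) :
    tk K z (fun c d => x c * conj (y d)) = ∑ k, bt B x k * conj (bt B y k) := by
  unfold tk bt
  have h1 : ∀ k, (∑ c, conj (B k c) * x c) * conj (∑ c, conj (B k c) * y c)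
      = ∑ c, ∑ d, (conj (B k c) * B k d) * (x c * conj (y d)) := by
    intro k
    rw [map_sum, Finset.sum_mul_sum]
    refine Finset.sum_congr rfl fun c _ => Finset.sum_congr rfl fun d _ => ?_
    rw [map_mul, Complex.conj_conj]
    ring
  simp_rw [h1]
  symm
  rw [Finset.sum_comm]
  refine Finset.sum_congr rfl fun c _ => ?_
  rw [Finset.sum_comm]
  refine Finset.sum_congr rfl fun d _ => ?_
  rw [← Finset.sum_mul, hB, Matrix.mul_apply]
  rfl

theorem tk_bt_self (hB : (K z)⁻¹ = Bᴴ * B) (x : Fin n → ℂ) :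
    tk K z (fun c d => x c * conj (x d)) = ((∑ k, ‖bt B x k‖ ^ 2 : ℝ) : ℂ) := by
  rw [tk_bt hB]
  push_cast
  refine Finset.sum_congr rfl fun k _ => ?_
  rw [Complex.mul_conj, Complex.normSq_eq_norm_sq]
  push_cast
  rfl

theorem exists_B (hK : (K z).PosDef) : ∃ B : Matrix (Fin n) (Fin n) ℂ, (K z)⁻¹ = Bᴴ * B :=
  exists_sq hK.inv.posSemidef

theorem gsq_bt (hB : (K z)⁻¹ = Bᴴ * B) {u : Cn n → ℝ} (hu : DifferentiableAt ℝ u z) :
    gsq K u z = ∑ k, ‖bt B (fun a => dS (-I) a (cu u) z) k‖ ^ 2 := by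
  unfold gsq
  have h1 : ∀ c d, dS (-I) c (cu u) z * dS I d (cu u) z
      = dS (-I) c (cu u) z * conj (dS (-I) d (cu u) z) := fun c d => by rw [dS_bar hu]
  rw [tk_congr h1, tk_bt_self hB, Complex.ofReal_re]

/-- derivative of a quotient -/
theorem dS_div {u v : Cn n → ℝ} (hu : DifferentiableAt ℝ u z) (hv : DifferentiableAt ℝ v z)
    (h0 : v z ≠ 0) (a : Fin n) :
    dS (-I) a (cu fun y => u y / v y) z
      = ((((v z) ^ 2)⁻¹ : ℝ) : ℂ) *
        (v z * dS (-I) a (cu u) z - u z * dS (-I) a (cu v) z) := by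
  have hcu : DifferentiableAt ℝ (cu u) z := Complex.ofRealCLM.differentiableAt.comp z hu
  have hvi : DifferentiableAt ℝ (fun y => (v y)⁻¹) z := hv.inv h0
  have hcv : DifferentiableAt ℝ (cu fun y => (v y)⁻¹) z :=
    Complex.ofRealCLM.differentiableAt.comp z hvi
  have h1 : (cu fun y => u y / v y) = fun y => cu u y * cu (fun y => (v y)⁻¹) y := by
    funext y
    simp [cu, div_eq_mul_inv]
  have h2 : dS (-I) a (cu fun y => (v y)⁻¹) z
      = ((-((v z) ^ 2)⁻¹ : ℝ) : ℂ) * dS (-I) a (cu v) z :=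
    wd_comp_real (φ := fun s => s⁻¹) (false, a) hv (hasDerivAt_inv h0)
  rw [h1, dS_mul hcu hcv, h2]
  simp only [cu]
  push_cast
  have h3 : (v z : ℂ) ≠ 0 := by exact_mod_cast h0
  field_simp
  ring

end frame

/-! ### the jet inequality -/

section jet

variable {n : ℕ} {K : Cn n → Matrix (Fin n) (Fin n) ℂ} {z : Cn n} {φ : Cn n → ℝ} {f : Cn n → ℂ}
  {c : ℝ}

/-- `|Y|²`, `Y = s ∇∇s - ∇s ⊗ ∇s` -/
def ys (K : Cn n → Matrix (Fin n) (Fin n) ℂ) (φ : Cn n → ℝ) (f : Cn n → ℂ) (z : Cn n) : ℝ :=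
  (tk K z fun a a' => tk K z fun b b' => (((Real.exp (-φ z)) ^ 2 : ℝ) : ℂ) *
    ((f z * hs K φ f z a b - ns φ f z a () * ns φ f z b ()) *
      conj (f z * hs K φ f z a' b' - ns φ f z a' () * ns φ f z b' ()))).re

theorem tk2_bt {B : Matrix (Fin n) (Fin n) ℂ} (hB : (K z)⁻¹ = Bᴴ * B)
    (X : Fin n → Fin n → ℂ) :
    tk K z (fun a a' => tk K z fun b b' => X a b * conj (X a' b'))
      = ((∑ k, ∑ l, ‖bt B (fun a => bt B (X a) l) k‖ ^ 2 : ℝ) : ℂ) := by
  have h1 : ∀ a a', (tk K z fun b b' => X a b * conj (X a' b'))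
      = ∑ l, bt B (X a) l * conj (bt B (X a') l) := fun a a' => tk_bt hB _ _
  rw [tk_congr h1, tk_sum]
  have h2 : ∀ l, tk K z (fun a a' => bt B (X a) l * conj (bt B (X a') l))
      = ((∑ k, ‖bt B (fun a => bt B (X a) l) k‖ ^ 2 : ℝ) : ℂ) := fun l =>
    tk_bt_self hB fun a => bt B (X a) l
  simp_rw [h2]
  rw [← Complex.ofReal_sum, Finset.sum_comm]

/-- the frame components of `s`, `∇s`, `∇∇s`, multiplied by `e^{-φ/2}` -/
theorem frame_all {B : Matrix (Fin n) (Fin n) ℂ} (hB : (K z)⁻¹ = Bᴴ * B)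
    (hK : ∀ᶠ y in 𝓝 z, SmM y K) (hp : ∀ᶠ y in 𝓝 z, (K y).PosDef)
    (hφ : ∀ᶠ y in 𝓝 z, ContDiffAt ℝ ∞ φ y)
    (hf : ∀ᶠ y in 𝓝 z, DifferentiableAt ℂ f y) (hc : ∀ᶠ y in 𝓝 z, Par K φ c y) :
    ∃ (g : ℂ) (v : Fin n → ℂ) (H : Fin n → Fin n → ℂ),
      us φ f z = ‖g‖ ^ 2 ∧ ws K φ f z = ∑ a, ‖v a‖ ^ 2 ∧ es K φ f z = ∑ a, ∑ b, ‖H a b‖ ^ 2 ∧
      ys K φ f z = yy g v H ∧
      (∀ k, bt B (fun a => dS (-I) a (cu (us φ f)) z) k = conj g * v k) ∧
      (∀ k, bt B (fun a => dS (-I) a (cu (ws K φ f)) z) k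
        = ∑ l, H k l * conj (v l) - c * (conj g * v k)) := by
  set r : ℝ := Real.exp (-φ z / 2) with hr
  have hr2 : Real.exp (-φ z) = r ^ 2 := by
    rw [hr, ← Real.exp_nat_mul]
    congr 1
    push_cast
    ring
  refine ⟨(r : ℂ) * f z, fun k => (r : ℂ) * bt B (fun a => ns φ f z a ()) k,
    fun k l => (r : ℂ) * bt B (fun a => bt B (hs K φ f z a) l) k, ?_, ?_, ?_, ?_, ?_, ?_⟩
  · unfold us
    rw [hr2, norm_mul, mul_pow, Complex.norm_real, Real.norm_eq_abs, sq_abs]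
  · rw [ws_eq, tk_smul, tk_bt_self hB, Complex.re_ofReal_mul, Complex.ofReal_re, hr2,
      Finset.mul_sum]
    refine Finset.sum_congr rfl fun k _ => ?_
    rw [norm_mul, mul_pow, Complex.norm_real, Real.norm_eq_abs, sq_abs]
  · have h1 : ∀ a a', ((Dp (tw φ (Kd K)) (ns φ f) a' z)ᴴ * tw φ (Kd K) z *
        Dp (tw φ (Kd K)) (ns φ f) a z).trace
        = ((r ^ 2 : ℝ) : ℂ) * tk K z (fun b b' => hs K φ f z a b * conj (hs K φ f z a' b')) := by
      intro a a'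
      rw [← hr2]
      simp only [Matrix.trace, Matrix.diag, Matrix.mul_apply, Finset.univ_unique,
        Finset.sum_singleton, Matrix.conjTranspose_apply, tw, Kd, Matrix.smul_apply,
        Matrix.transpose_apply, smul_eq_mul, RCLike.star_def, tk, Finset.mul_sum, Finset.sum_mul,
        hs]
      refine Finset.sum_congr rfl fun b _ => Finset.sum_congr rfl fun e _ => ?_
      show conj (Dp (tw φ (Kd K)) (ns φ f) a' z e ()) * _ *
        Dp (tw φ (Kd K)) (ns φ f) a z b () = _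
      ring
    unfold es ene
    rw [tk_congr h1, tk_smul, tk2_bt hB, Complex.re_ofReal_mul, Complex.ofReal_re,
      Finset.mul_sum]
    refine Finset.sum_congr rfl fun k _ => ?_
    rw [Finset.mul_sum]
    refine Finset.sum_congr rfl fun l _ => ?_
    rw [norm_mul, mul_pow, Complex.norm_real, Real.norm_eq_abs, sq_abs]
  · unfold ys yy
    have h1 : ∀ a a', (tk K z fun b b' => (((Real.exp (-φ z)) ^ 2 : ℝ) : ℂ) *
        ((f z * hs K φ f z a b - ns φ f z a () * ns φ f z b ()) *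
          conj (f z * hs K φ f z a' b' - ns φ f z a' () * ns φ f z b' ())))
        = (((r ^ 2) ^ 2 : ℝ) : ℂ) * tk K z fun b b' =>
          ((f z * hs K φ f z a b - ns φ f z a () * ns φ f z b ()) *
            conj (f z * hs K φ f z a' b' - ns φ f z a' () * ns φ f z b' ())) := by
      intro a a'
      rw [tk_smul, hr2]
    rw [tk_congr h1, tk_smul,
      tk2_bt hB fun a b => f z * hs K φ f z a b - ns φ f z a () * ns φ f z b (),
      Complex.re_ofReal_mul, Complex.ofReal_re, Finset.mul_sum]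
    refine Finset.sum_congr rfl fun k _ => ?_
    rw [Finset.mul_sum]
    refine Finset.sum_congr rfl fun l _ => ?_
    have h2 : bt B (fun a => bt B (fun b => f z * hs K φ f z a b
        - ns φ f z a () * ns φ f z b ()) l) k
        = f z * bt B (fun a => bt B (hs K φ f z a) l) k
          - bt B (fun a => ns φ f z a ()) k * bt B (fun a => ns φ f z a ()) l := by
      have h3 : ∀ a, bt B (fun b => f z * hs K φ f z a b - ns φ f z a () * ns φ f z b ()) l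
          = f z * bt B (hs K φ f z a) l - bt B (fun a => ns φ f z a ()) l * ns φ f z a () := by
        intro a
        rw [bt_sub (fun b => f z * hs K φ f z a b) (fun b => ns φ f z a () * ns φ f z b ()),
          bt_smul, bt_smul]
        ring
      simp_rw [h3]
      rw [bt_sub (fun a => f z * bt B (hs K φ f z a) l)
        (fun a => bt B (fun a => ns φ f z a ()) l * ns φ f z a ()), bt_smul, bt_smul]
      ring
    rw [h2]
    have h4 : (r : ℂ) * f z * ((r : ℂ) * bt B (fun a => bt B (hs K φ f z a) l) k)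
        - (r : ℂ) * bt B (fun a => ns φ f z a ()) k * ((r : ℂ) * bt B (fun a => ns φ f z a ()) l)
        = ((r ^ 2 : ℝ) : ℂ) * (f z * bt B (fun a => bt B (hs K φ f z a) l) k
          - bt B (fun a => ns φ f z a ()) k * bt B (fun a => ns φ f z a ()) l) := by
      push_cast
      ring
    rw [h4, norm_mul, mul_pow, Complex.norm_real, Real.norm_eq_abs, sq_abs]
  · intro k
    have h1 : (fun a => dS (-I) a (cu (us φ f)) z)
        = fun a => ((r ^ 2 : ℝ) : ℂ) * conj (f z) * ns φ f z a () := by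
      funext a
      rw [dS_us hφ.self_of_nhds hf, hr2]
      ring
    rw [h1, bt_smul, map_mul, Complex.conj_ofReal]
    push_cast
    ring
  · intro k
    have h1 : (fun a => dS (-I) a (cu (ws K φ f)) z)
        = fun a => ((r ^ 2 : ℝ) : ℂ) * (∑ l, conj (bt B (fun a => ns φ f z a ()) l) *
            bt B (hs K φ f z a) l) - ((r ^ 2 : ℝ) : ℂ) * (c * conj (f z)) * ns φ f z a () := by
      funext a
      rw [dS_ws hK hp hφ hf hc, hr2, tk_bt hB (hs K φ f z a) (fun e => ns φ f z e ())]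
      have h2 : ∑ l, bt B (hs K φ f z a) l * conj (bt B (fun e => ns φ f z e ()) l)
          = ∑ l, conj (bt B (fun a => ns φ f z a ()) l) * bt B (hs K φ f z a) l :=
        Finset.sum_congr rfl fun l _ => mul_comm _ _
      rw [h2]
      ring
    rw [h1, bt_sub (fun a => ((r ^ 2 : ℝ) : ℂ) *
      (∑ l, conj (bt B (fun a => ns φ f z a ()) l) * bt B (hs K φ f z a) l))
      (fun a => ((r ^ 2 : ℝ) : ℂ) * (c * conj (f z)) * ns φ f z a ()), bt_smul, bt_smul,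
      bt_sum fun l a => conj (bt B (fun a => ns φ f z a ()) l) * bt B (hs K φ f z a) l]
    have h3 : ∑ l, bt B (fun a => conj (bt B (fun a => ns φ f z a ()) l) *
        bt B (hs K φ f z a) l) k
        = ∑ l, conj (bt B (fun a => ns φ f z a ()) l) * bt B (fun a => bt B (hs K φ f z a) l) k :=
      Finset.sum_congr rfl fun l _ => bt_smul _ _ _
    rw [h3, Finset.mul_sum]
    congr 1
    · refine Finset.sum_congr rfl fun l _ => ?_
      rw [map_mul, Complex.conj_ofReal]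
      push_cast
      ring
    · rw [map_mul, Complex.conj_ofReal]
      push_cast
      ring

theorem ys_nonneg (hB : (K z).PosDef) : 0 ≤ ys K φ f z := by
  obtain ⟨B, hB⟩ := exists_B hB
  unfold ys
  have h1 : ∀ a a', (tk K z fun b b' => (((Real.exp (-φ z)) ^ 2 : ℝ) : ℂ) *
      ((f z * hs K φ f z a b - ns φ f z a () * ns φ f z b ()) *
        conj (f z * hs K φ f z a' b' - ns φ f z a' () * ns φ f z b' ())))
      = (((Real.exp (-φ z)) ^ 2 : ℝ) : ℂ) * tk K z fun b b' =>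
        ((f z * hs K φ f z a b - ns φ f z a () * ns φ f z b ()) *
          conj (f z * hs K φ f z a' b' - ns φ f z a' () * ns φ f z b' ())) := fun a a' => tk_smul _ _
  rw [tk_congr h1, tk_smul,
    tk2_bt hB fun a b => f z * hs K φ f z a b - ns φ f z a () * ns φ f z b (),
    Complex.re_ofReal_mul, Complex.ofReal_re]
  positivity

/-- `S = |s|² + |∇s|² + e` -/
def Sg (K : Cn n → Matrix (Fin n) (Fin n) ℂ) (φ : Cn n → ℝ) (f : Cn n → ℂ) (e : ℝ)
    (y : Cn n) : ℝ := us φ f y + ws K φ f y + e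

theorem key_real {F G E Y Q e c m : ℝ} (he : 0 < e) (hc0 : 0 ≤ c) (hm : 0 ≤ m) (hF : 0 ≤ F)
    (hG : 0 ≤ G) (hE : 0 ≤ E)
    (h : Q + Y / 2 ≤ (F + G) * (G + E) + 2 * c ^ 2 * G ^ 2 + c ^ 2 * (F * G)) :
    Y / 2 + e * G - (c * (m + 2) + 2 * c ^ 2) * (F + G + e) ^ 2
      ≤ (F + G + e) * ((G - c * m * F) + (E + c ^ 2 * m * F - c * (m + 2) * G)) - Q := by
  set S := F + G + e with hSd
  have hS0 : 0 ≤ S := by linarith
  have a1 : (F + G) * (G + E) + e * G ≤ S * (G + E) := by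
    have : 0 ≤ e * E := by positivity
    have h1 : S * (G + E) = (F + G) * (G + E) + e * G + e * E := by rw [hSd]; ring
    linarith
  have a4 : c * m * F * S ≤ c * (m + 2) * F * S := by
    have : 0 ≤ 2 * (c * F * S) := by positivity
    linarith
  have a5 : c * (m + 2) * (F + G) * S ≤ c * (m + 2) * S * S := by
    have h1 : c * (m + 2) * (F + G) ≤ c * (m + 2) * S :=
      mul_le_mul_of_nonneg_left (by linarith) (by positivity)
    exact mul_le_mul_of_nonneg_right h1 hS0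
  have a6 : 0 ≤ c ^ 2 * m * F * S := by positivity
  have b0 : G ^ 2 ≤ G * S := by
    have : G * G ≤ G * S := mul_le_mul_of_nonneg_left (by linarith) hG
    linarith
  have b1 : (F + G) * S ≤ S * S := mul_le_mul_of_nonneg_right (by linarith) hS0
  have b2 : F * G ≤ F * S := mul_le_mul_of_nonneg_left (by linarith) hF
  have b3 : 0 ≤ F * S := by positivity
  have b4 : 2 * G ^ 2 + F * G ≤ 2 * S ^ 2 := by linarith
  have a7 : c ^ 2 * (2 * G ^ 2 + F * G) ≤ c ^ 2 * (2 * S ^ 2) :=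
    mul_le_mul_of_nonneg_left b4 (sq_nonneg c)
  linarith

/-- the 1-jet Bochner inequality -/
theorem jet_one {e : ℝ} (he : 0 < e) (hc0 : 0 ≤ c) (hK : ∀ᶠ y in 𝓝 z, SmM y K)
    (hp : ∀ᶠ y in 𝓝 z, (K y).PosDef)
    (hk : ∀ᶠ y in 𝓝 z, KahAt K y) (hR : Matrix.of (ric K z) = 0)
    (hφ : ∀ᶠ y in 𝓝 z, ContDiffAt ℝ ∞ φ y)
    (hf : ∀ᶠ y in 𝓝 z, DifferentiableAt ℂ f y) (hc : ∀ᶠ y in 𝓝 z, Par K φ c y) :
    ys K φ f z / (2 * Sg K φ f e z ^ 2) + e * ws K φ f z / Sg K φ f e z ^ 2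
        - (c * (n + 2) + 2 * c ^ 2)
      ≤ lap K (fun y => Real.log (Sg K φ f e y)) z := by
  have hpz := hp.self_of_nhds
  obtain ⟨B, hB⟩ := exists_B hpz
  obtain ⟨g, v, H, h1, h2, h3, h4, h5, h6⟩ := frame_all hB hK hp hφ hf hc
  have hfs : Sm z f := sm_of_hol hf
  have su : ContDiffAt ℝ ∞ (us φ f) z := sm_us hφ.self_of_nhds hfs
  have sw : ContDiffAt ℝ ∞ (ws K φ f) z := sm_ws hK.self_of_nhds hpz hφ.self_of_nhds hfs
  have suw : ContDiffAt ℝ ∞ (fun y => us φ f y + ws K φ f y) z := su.add sw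
  have hu0 := us_nonneg φ f z
  have hw0 := ws_nonneg hpz φ f
  have hS : 0 < us φ f z + ws K φ f z + e := by linarith
  have hlog := lap_log_add (K := K) e suw hS
  have hd1 : DifferentiableAt ℝ (us φ f) z := su.differentiableAt (by simp)
  have hd2 : DifferentiableAt ℝ (ws K φ f) z := sw.differentiableAt (by simp)
  -- gradient
  have hgr : gsq K (fun y => us φ f y + ws K φ f y) z
      = ∑ k, ‖conj g * v k + ∑ l, H k l * conj (v l) - c * (conj g * v k)‖ ^ 2 := by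
    rw [gsq_bt hB (suw.differentiableAt (by simp))]
    refine Finset.sum_congr rfl fun k _ => ?_
    have e1 : (fun a => dS (-I) a (cu fun y => us φ f y + ws K φ f y) z)
        = fun a => dS (-I) a (cu (us φ f)) z + dS (-I) a (cu (ws K φ f)) z := by
      funext a
      have e2 : (cu fun y => us φ f y + ws K φ f y) = fun y => cu (us φ f) y + cu (ws K φ f) y := by
        funext y
        simp [cu]
      have e3 : DifferentiableAt ℝ (cu (us φ f)) z :=
        Complex.ofRealCLM.differentiableAt.comp z hd1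
      have e4 : DifferentiableAt ℝ (cu (ws K φ f)) z :=
        Complex.ofRealCLM.differentiableAt.comp z hd2
      rw [e2]
      exact dS_add e3 e4
    rw [e1, bt_add, h5, h6]
    congr 2
    ring
  have hlap : lap K (fun y => us φ f y + ws K φ f y) z
      = (ws K φ f z - c * n * us φ f z)
        + (es K φ f z + c ^ 2 * n * us φ f z - c * (n + 2) * ws K φ f z) := by
    rw [lap_add su sw, lap_us hφ hpz hf hc.self_of_nhds, lap_ws hK hp hk hR hφ hf hc]
  have halg := jet_alg g v H hc0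
  rw [← hgr, ← h1, ← h2, ← h3, ← h4] at halg
  have hlog' : lap K (fun y => Real.log (Sg K φ f e y)) z
      = lap K (fun y => us φ f y + ws K φ f y) z / (us φ f z + ws K φ f z + e)
        - gsq K (fun y => us φ f y + ws K φ f y) z / (us φ f z + ws K φ f z + e) ^ 2 := hlog
  have hE0 : 0 ≤ es K φ f z := es_nonneg hpz
  have hY0 : 0 ≤ ys K φ f z := ys_nonneg hpz
  rw [hlog', hlap]
  unfold Sg
  set F := us φ f z
  set G := ws K φ f z
  set E := es K φ f z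
  set Y := ys K φ f z
  set Q := gsq K (fun y => us φ f y + ws K φ f y) z
  set S := F + G + e with hSd
  have hn : (0 : ℝ) ≤ n := Nat.cast_nonneg n
  have key := key_real he hc0 hn hu0 hw0 hE0 halg
  have hS2 : 0 < S ^ 2 := by positivity
  have e1 : Y / (2 * S ^ 2) + e * G / S ^ 2 - (c * (n + 2) + 2 * c ^ 2)
      = (Y / 2 + e * G - (c * (n + 2) + 2 * c ^ 2) * S ^ 2) / S ^ 2 := by
    field_simp
  have e2 : ((G - c * n * F) + (E + c ^ 2 * n * F - c * (n + 2) * G)) / S - Q / S ^ 2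
      = (S * ((G - c * n * F) + (E + c ^ 2 * n * F - c * (n + 2) * G)) - Q) / S ^ 2 := by
    field_simp
  rw [e1, e2]
  exact div_le_div_of_nonneg_right key hS2.le

/-- the gradient of `b = |s|² / (|s|² + |∇s|² + e)` -/
theorem jet_two {e : ℝ} (he : 0 < e) (hK : ∀ᶠ y in 𝓝 z, SmM y K)
    (hp : ∀ᶠ y in 𝓝 z, (K y).PosDef) (hφ : ∀ᶠ y in 𝓝 z, ContDiffAt ℝ ∞ φ y)
    (hf : ∀ᶠ y in 𝓝 z, DifferentiableAt ℂ f y) (hc : ∀ᶠ y in 𝓝 z, Par K φ c y) :
    gsq K (fun y => us φ f y / Sg K φ f e y) z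
      ≤ 3 / 4 * (ys K φ f z / Sg K φ f e z ^ 2) + 3 / 4 * c ^ 2
        + 3 * (e ^ 2 * (us φ f z * ws K φ f z) / Sg K φ f e z ^ 4) := by
  have hpz := hp.self_of_nhds
  obtain ⟨B, hB⟩ := exists_B hpz
  obtain ⟨g, v, H, h1, h2, h3, h4, h5, h6⟩ := frame_all hB hK hp hφ hf hc
  have hfs : Sm z f := sm_of_hol hf
  have su : ContDiffAt ℝ ∞ (us φ f) z := sm_us hφ.self_of_nhds hfs
  have sw : ContDiffAt ℝ ∞ (ws K φ f) z := sm_ws hK.self_of_nhds hpz hφ.self_of_nhds hfs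
  have hu0 := us_nonneg φ f z
  have hw0 := ws_nonneg hpz φ f
  have hd1 : DifferentiableAt ℝ (us φ f) z := su.differentiableAt (by simp)
  have hd2 : DifferentiableAt ℝ (ws K φ f) z := sw.differentiableAt (by simp)
  have hd3 : DifferentiableAt ℝ (Sg K φ f e) z := (hd1.add hd2).add_const e
  have hS : 0 < Sg K φ f e z := by unfold Sg; linarith
  have hgr : gsq K (fun y => us φ f y / Sg K φ f e y) z
      = ((Sg K φ f e z) ^ 4)⁻¹ * ∑ a, ‖((∑ a, ‖v a‖ ^ 2 + e : ℝ) : ℂ) * (conj g * v a)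
        - ((‖g‖ ^ 2 : ℝ) : ℂ) * (∑ b, H a b * conj (v b) - c * (conj g * v a))‖ ^ 2 := by
    have hdd : DifferentiableAt ℝ (fun y => us φ f y / Sg K φ f e y) z := by
      have sS : ContDiffAt ℝ ∞ (Sg K φ f e) z := (su.add sw).add contDiffAt_const
      exact (su.div sS hS.ne').differentiableAt (by simp)
    rw [gsq_bt hB hdd, Finset.mul_sum]
    refine Finset.sum_congr rfl fun k _ => ?_
    have e1 : (fun a => dS (-I) a (cu fun y => us φ f y / Sg K φ f e y) z)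
        = fun a => ((((Sg K φ f e z) ^ 2)⁻¹ : ℝ) : ℂ) * (((ws K φ f z + e : ℝ) : ℂ) *
          dS (-I) a (cu (us φ f)) z - (us φ f z : ℂ) * dS (-I) a (cu (ws K φ f)) z) := by
      funext a
      rw [dS_div hd1 hd3 hS.ne']
      congr 1
      have e2 : cu (Sg K φ f e) = fun y => (cu (us φ f) y + cu (ws K φ f) y) + (e : ℂ) := by
        funext y
        simp [cu, Sg]
      have e3 : DifferentiableAt ℝ (cu (us φ f)) z :=
        Complex.ofRealCLM.differentiableAt.comp z hd1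
      have e4 : DifferentiableAt ℝ (cu (ws K φ f)) z :=
        Complex.ofRealCLM.differentiableAt.comp z hd2
      have e5 : dS (-I) a (fun y => (cu (us φ f) y + cu (ws K φ f) y) + (e : ℂ)) z
          = dS (-I) a (cu (us φ f)) z + dS (-I) a (cu (ws K φ f)) z := by
        have e6 : dS (-I) a (fun y => (cu (us φ f) y + cu (ws K φ f) y) + (e : ℂ)) z
            = dS (-I) a (fun y => cu (us φ f) y + cu (ws K φ f) y) z
              + dS (-I) a (fun _ => (e : ℂ)) z :=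
          dS_add (e3.add e4) (differentiableAt_const _)
        rw [e6, dS_const, add_zero]
        exact dS_add e3 e4
      rw [e2, e5]
      unfold Sg
      push_cast
      ring
    rw [e1, bt_smul, bt_sub (fun a => ((ws K φ f z + e : ℝ) : ℂ) * dS (-I) a (cu (us φ f)) z)
      (fun a => (us φ f z : ℂ) * dS (-I) a (cu (ws K φ f)) z), bt_smul, bt_smul, h5, h6,
      norm_mul, mul_pow, Complex.norm_real, Real.norm_eq_abs, sq_abs, ← h1, ← h2]
    congr 1
    rw [← inv_pow, ← pow_mul, ← inv_pow]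
  have halg := jet_alg2 g v H c e
  rw [← h1, ← h2, ← h4] at halg
  rw [← h1, ← h2] at hgr
  rw [hgr]
  have hY0 : 0 ≤ ys K φ f z := ys_nonneg hpz
  have hS4 : 0 < (Sg K φ f e z) ^ 4 := by positivity
  refine (mul_le_mul_of_nonneg_left halg (by positivity)).trans ?_
  have hSF : us φ f z ≤ Sg K φ f e z := by unfold Sg; linarith
  have hFG : us φ f z * ws K φ f z ≤ Sg K φ f e z ^ 2 / 4 := by
    unfold Sg
    nlinarith [sq_nonneg (us φ f z - ws K φ f z), mul_nonneg he.le hu0, mul_nonneg he.le hw0]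
  set F := us φ f z
  set G := ws K φ f z
  set Y := ys K φ f z
  set S := Sg K φ f e z
  have e1 : (S ^ 4)⁻¹ * (3 * (e ^ 2 * (F * G) + Y * (F * G) + c ^ 2 * F ^ 2 * (F * G)))
      = (3 * (Y * (F * G)) + 3 * (c ^ 2 * F ^ 2 * (F * G))) / S ^ 4
        + 3 * (e ^ 2 * (F * G) / S ^ 4) := by
    field_simp
    ring
  rw [e1]
  have e2 : 3 / 4 * (Y / S ^ 2) + 3 / 4 * c ^ 2
      = (3 * (Y * (S ^ 2 / 4)) + 3 * (c ^ 2 * S ^ 2 * (S ^ 2 / 4))) / S ^ 4 := by
    field_simp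
  rw [e2]
  have e3 : 3 * (Y * (F * G)) + 3 * (c ^ 2 * F ^ 2 * (F * G))
      ≤ 3 * (Y * (S ^ 2 / 4)) + 3 * (c ^ 2 * S ^ 2 * (S ^ 2 / 4)) := by
    have b1 : Y * (F * G) ≤ Y * (S ^ 2 / 4) := mul_le_mul_of_nonneg_left hFG hY0
    have b2 : F ^ 2 ≤ S ^ 2 := pow_le_pow_left₀ hu0 hSF 2
    have b3 : c ^ 2 * F ^ 2 * (F * G) ≤ c ^ 2 * S ^ 2 * (S ^ 2 / 4) :=
      mul_le_mul (mul_le_mul_of_nonneg_left b2 (sq_nonneg c)) hFG (mul_nonneg hu0 hw0)
        (by positivity)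
    linarith
  have := div_le_div_of_nonneg_right e3 hS4.le
  linarith

/-- **the 1-jet inequality in integrable form** -/
theorem jet {e : ℝ} (he : 0 < e) (hc0 : 0 ≤ c) (hK : ∀ᶠ y in 𝓝 z, SmM y K)
    (hp : ∀ᶠ y in 𝓝 z, (K y).PosDef)
    (hk : ∀ᶠ y in 𝓝 z, KahAt K y) (hR : Matrix.of (ric K z) = 0)
    (hφ : ∀ᶠ y in 𝓝 z, ContDiffAt ℝ ∞ φ y)
    (hf : ∀ᶠ y in 𝓝 z, DifferentiableAt ℂ f y) (hc : ∀ᶠ y in 𝓝 z, Par K φ c y) :
    gsq K (fun y => us φ f y / Sg K φ f e y) z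
      ≤ 3 / 2 * lap K (fun y => Real.log (Sg K φ f e y)) z
        + (3 / 2 * c * (n + 2) + 15 / 4 * c ^ 2) := by
  have h1 := jet_one he hc0 hK hp hk hR hφ hf hc
  have h2 := jet_two he hK hp hφ hf hc
  have hpz := hp.self_of_nhds
  have hu0 := us_nonneg φ f z
  have hw0 := ws_nonneg hpz φ f
  have hS : 0 < Sg K φ f e z := by unfold Sg; linarith
  have h3 : ys K φ f z / (2 * Sg K φ f e z ^ 2) = 1 / 2 * (ys K φ f z / Sg K φ f e z ^ 2) := by
    rw [mul_comm (2 : ℝ), ← div_div]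
    ring
  have h4 : e ^ 2 * (us φ f z * ws K φ f z) / Sg K φ f e z ^ 4
      ≤ 1 / 4 * (e * ws K φ f z / Sg K φ f e z ^ 2) := by
    have h5 : e * us φ f z ≤ Sg K φ f e z ^ 2 / 4 := by
      have h6 : e + us φ f z ≤ Sg K φ f e z := by unfold Sg; linarith
      have h7 : (e + us φ f z) ^ 2 ≤ Sg K φ f e z ^ 2 :=
        pow_le_pow_left₀ (by linarith) h6 2
      nlinarith [sq_nonneg (e - us φ f z)]
    have h8 : e ^ 2 * (us φ f z * ws K φ f z) / Sg K φ f e z ^ 4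
        = (e * us φ f z) * (e * ws K φ f z / Sg K φ f e z ^ 2) / Sg K φ f e z ^ 2 := by
      field_simp
    have h9 : 0 ≤ e * ws K φ f z / Sg K φ f e z ^ 2 := by positivity
    rw [h8, div_le_iff₀ (by positivity)]
    have h10 := mul_le_mul_of_nonneg_right h5 h9
    linarith
  have h11 : 0 ≤ e * ws K φ f z / Sg K φ f e z ^ 2 := by positivity
  rw [h3] at h1
  linarith

end jet

end

end Crest.Agent.R281.Bo4_815
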