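import Crest.Agent.R281.Cdr2_234
import Crest.Agent.R281.AlgDefs_998

/-!
# Row 281 (S0424), BoxP, part A (helper327): the rational basis of `e^⊥`

* `ratF_sum`     : rational combinations of rational classes
* `exists_basis` : if `F2 C` has a rational basis modulo exact forms, `Q` is rational on rational
                   classes and `e` is rational, then `e^⊥` has a rational basis
-/

set_option autoImplicit false
set_option linter.unusedSectionVars false
set_option maxSynthPendingDepth 3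

open Set Filter Topology
open scoped ContDiff

namespace Crest.Agent.R281.BoxA_327

open Crest.Agent.R281.HkR_835 Crest.Agent.R281.Ti_846 Crest.Agent.R281.Cdr_234
open Crest.Agent.R281.Alg_998

noncomputable section

variable {V X : Type} [NormedAddCommGroup V] [NormedSpace ℝ V] [TopologicalSpace X]
  {C : RCh V X}

theorem Cl.sum {ι : Type*} (s : Finset ι) {f g : ι → F2 C} (h : ∀ i ∈ s, Cl (f i) (g i)) :
    Cl (∑ i ∈ s, f i) (∑ i ∈ s, g i) := by
  classical
  induction s using Finset.induction_on with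
  | empty => exact Cl.refl _
  | insert a s ha ih =>
    rw [Finset.sum_insert ha, Finset.sum_insert ha]
    exact (h a (Finset.mem_insert_self _ _)).add
      (ih fun i hi => h i (Finset.mem_insert_of_mem hi))

theorem ratF_smul {w : F2 C} (hw : RatF w) {r : ℝ} (hr : ∃ q : ℚ, r = q) : RatF (r • w) := by
  obtain ⟨q, rfl⟩ := hr
  exact hw.smul q

/-- **the rational basis of `e^⊥`** -/
theorem exists_basis {Q : F2 C →ₗ[ℝ] F2 C →ₗ[ℝ] ℝ} (hex : ∀ x y, Ex x → Q x y = 0)
    (hrat : ∀ x y : F2 C, RatF x → RatF y → ∃ r : ℚ, Q x y = r)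
    (hspan : ∃ (m : ℕ) (b : Fin m → F2 C), (∀ j, RatF (b j)) ∧
      ∀ x : F2 C, ∃! a : Fin m → ℝ, Cl x (∑ j, a j • b j))
    {e : F2 C} (he : RatF e) :
    ∃ (m : ℕ) (bas : Fin m → F2 C), (∀ j, RatF (bas j)) ∧ (∀ j, Q (bas j) e = 0) ∧
      (∀ x, Q x e = 0 → ∃ b : Fin m → ℝ, Cl x (∑ j, b j • bas j)) ∧
      (∀ b : Fin m → ℝ, Ex (∑ j, b j • bas j) → b = 0) := by
  obtain ⟨M, b, hb, hu⟩ := hspan
  have hinj : ∀ a : Fin M → ℝ, Ex (∑ j, a j • b j) → a = 0 := by
    intro a ha
    obtain ⟨a0, -, h1⟩ := hu 0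
    have e1 : Cl (0 : F2 C) (∑ j, a j • b j) := by
      apply Cl.symm
      unfold Cl
      rwa [sub_zero]
    have e2 : Cl (0 : F2 C) (∑ j, (0 : Fin M → ℝ) j • b j) := by
      simp only [Pi.zero_apply, zero_smul, Finset.sum_const_zero]
      exact Cl.refl _
    rw [h1 a e1, h1 0 e2]
  have hcl : ∀ {x y : F2 C}, Cl x y → Q x e = Q y e := by
    intro x y h
    have := hex _ e h
    rw [map_sub, LinearMap.sub_apply] at this
    linarith
  by_cases h0 : ∀ j, Q (b j) e = 0
  · exact ⟨M, b, hb, h0, fun x _ => (hu x).exists, hinj⟩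
  push Not at h0
  obtain ⟨j0, hj0⟩ := h0
  classical
  let S := {j : Fin M // j ≠ j0}
  let φ : Fin (Fintype.card S) ≃ S := (Fintype.equivFin S).symm
  let cf : Fin M → ℝ := fun j => Q (b j) e / Q (b j0) e
  let bb : Fin M → F2 C := fun j => b j - cf j • b j0
  have hcf : ∀ j, ∃ q : ℚ, cf j = q := by
    intro j
    obtain ⟨r1, h1⟩ := hrat (b j) e (hb j) he
    obtain ⟨r2, h2⟩ := hrat (b j0) e (hb j0) he
    refine ⟨r1 / r2, ?_⟩
    show Q (b j) e / Q (b j0) e = _
    rw [h1, h2]
    push_cast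
    rfl
  have hbb : ∀ j, Q (bb j) e = 0 := by
    intro j
    show Q (b j - cf j • b j0) e = 0
    rw [map_sub, LinearMap.sub_apply, map_smul, LinearMap.smul_apply, smul_eq_mul]
    show Q (b j) e - Q (b j) e / Q (b j0) e * Q (b j0) e = 0
    rw [div_mul_cancel₀ _ hj0, sub_self]
  -- sums over `S`
  have hsum : ∀ a : Fin M → ℝ, ∑ j : S, a j.1 • bb j.1 =
      (∑ j : S, a j.1 • b j.1) - (∑ j : S, a j.1 * cf j.1) • b j0 := by
    intro a
    rw [Finset.sum_smul, ← Finset.sum_sub_distrib]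
    refine Finset.sum_congr rfl fun j _ => ?_
    show a j.1 • (b j.1 - cf j.1 • b j0) = _
    rw [smul_sub, smul_smul]
  have hsplit : ∀ f : Fin M → F2 C, ∑ j, f j = (∑ j : S, f j.1) + f j0 := by
    intro f
    rw [← Finset.sum_erase_add _ _ (Finset.mem_univ j0)]
    congr 1
    refine Finset.sum_subtype _ (fun j => ?_) _
    simp
  have hsplitR : ∀ f : Fin M → ℝ, ∑ j, f j = (∑ j : S, f j.1) + f j0 := by
    intro f
    rw [← Finset.sum_erase_add _ _ (Finset.mem_univ j0)]
    congr 1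
    refine Finset.sum_subtype _ (fun j => ?_) _
    simp
  refine ⟨Fintype.card S, fun k => bb (φ k).1, fun k => ?_, fun k => hbb _, fun x hx => ?_,
    fun c hc => ?_⟩
  · exact (hb _).sub (ratF_smul (hb j0) (hcf _))
  · obtain ⟨a, ha⟩ := (hu x).exists
    refine ⟨fun k => a (φ k).1, ?_⟩
    have e1 : ∑ k, a (φ k).1 • bb (φ k).1 = ∑ j : S, a j.1 • bb j.1 :=
      Equiv.sum_comp φ fun j : S => a j.1 • bb j.1
    have e2 : ∑ j, a j * Q (b j) e = 0 := by
      rw [← hx, hcl ha, map_sum, LinearMap.sum_apply]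
      refine Finset.sum_congr rfl fun j _ => ?_
      rw [map_smul, LinearMap.smul_apply, smul_eq_mul]
    have e3 : ∑ j : S, a j.1 * cf j.1 = -a j0 := by
      have e4 : ∑ j, a j * cf j = 0 := by
        have : ∀ j, a j * cf j = (a j * Q (b j) e) / Q (b j0) e := fun j =>
          (mul_div_assoc _ _ _).symm
        rw [Finset.sum_congr rfl fun j _ => this j, ← Finset.sum_div, e2, zero_div]
      rw [hsplitR] at e4
      have e5 : cf j0 = 1 := div_self hj0
      rw [e5, mul_one] at e4
      linarith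
    show Cl x (∑ k, a (φ k).1 • bb (φ k).1)
    rw [e1, hsum, e3, neg_smul, sub_neg_eq_add, ← hsplit fun j => a j • b j]
    exact ha
  · -- coefficients with respect to `b`
    let a : Fin M → ℝ := fun j => if h : j ≠ j0 then c (φ.symm ⟨j, h⟩) else
      -(∑ k, c k * cf (φ k).1)
    have ha1 : ∀ j : S, a j.1 = c (φ.symm j) := by
      intro j
      show (if h : j.1 ≠ j0 then c (φ.symm ⟨j.1, h⟩) else _) = _
      rw [dif_pos j.2]
    have ha0 : a j0 = -(∑ k, c k * cf (φ k).1) := by
      show (if h : j0 ≠ j0 then c (φ.symm ⟨j0, h⟩) else _) = _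
      rw [dif_neg (by simp)]
    have e1 : ∑ j, a j • b j = ∑ k, c k • bb (φ k).1 := by
      have e2 : ∑ k, c k • bb (φ k).1 = ∑ j : S, a j.1 • bb j.1 := by
        rw [← Equiv.sum_comp φ fun j : S => a j.1 • bb j.1]
        refine Finset.sum_congr rfl fun k _ => ?_
        rw [ha1, Equiv.symm_apply_apply]
      have e3 : ∑ j : S, a j.1 * cf j.1 = ∑ k, c k * cf (φ k).1 := by
        rw [← Equiv.sum_comp φ fun j : S => a j.1 * cf j.1]
        refine Finset.sum_congr rfl fun k _ => ?_
        rw [ha1, Equiv.symm_apply_apply]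
      rw [e2, hsum, e3, hsplit fun j => a j • b j, ha0, neg_smul, sub_eq_add_neg]
    have h1 := hinj a (by rw [e1]; exact hc)
    funext k
    have h2 := congrFun h1 (φ k).1
    rw [ha1 (φ k), Equiv.symm_apply_apply] at h2
    exact h2

end

end Crest.Agent.R281.BoxA_327
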