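import Crest.Agent.R281.HkM4_835

/-!
# Row 281, HK-MOVE0, part 5 (helper835): moves of the three forms of a triple

* `HkT.cyc H k`  : cyclic permutation, `om l ↦ om (l + k)`, `J l ↦ J (l + k)`
* `moveK`        : `UniqT (H.cyc k)`, `KCls (ofHk H k) w` (the class of `w` is Kaehler for `J k`):
                   there is a triple `H'` with `J k` the same, `om l` multiplied by `r > 0` for
                   `l ≠ k`, and `om k` in the class of `w`. (local Newlander-Nirenberg `NNat` as
                   hypothesis; Yau's theorem = 487's `yau_kah`)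
-/

set_option autoImplicit false
set_option maxSynthPendingDepth 3
set_option linter.unusedSectionVars false

open Set Filter Topology Complex
open scoped ContDiff Matrix ComplexConjugate ComplexOrder InnerProductSpace

namespace Crest.Agent.R281.HkR_835

open Crest.Agent.R275.Geo Crest.Agent.R275.Core144 Crest.Agent.R275.GC293
open Crest.Agent.R273.Kah_333 Crest.Agent.R281.Defs_273
open Crest.Agent.R260.ACM_580 Crest.Agent.R260.NNB_580
open Crest.Agent.R281.Ti_846 Crest.Agent.R281.Dif_268 Crest.Agent.R281.Cdr_234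
open Crest.Agent.R281.NefO_476 (ofHk Pos)
open Crest.Agent.R281.Nef_252 (T11 KCls)

noncomputable section

variable {X : Type} [TopologicalSpace X]

variable {V : Type} [NormedAddCommGroup V] [NormedSpace ℝ V] {C : RCh V X}

/-- the cyclic frame -/
def cycR (k l m : Fin 3) : ℝ := if m = l + k then 1 else 0

theorem fr_cyc (k : Fin 3) : HkT.Fr (cycR k) where
  nrm l := by fin_cases k <;> fin_cases l <;> simp [cycR, Fin.ext_iff]
  ort := by fin_cases k <;> simp [cycR, Fin.ext_iff]
  crs := by
    funext m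
    fin_cases k <;> fin_cases m <;> simp [cycR, Fin.ext_iff]

/-- cyclic permutation -/
def HkT.cyc (H : HkT C) (k : Fin 3) : HkT C := H.rot (cycR k) (fr_cyc k)

theorem cyc_om (H : HkT C) (k l : Fin 3) : Eqv ((H.cyc k).om l) (H.om (l + k)) := by
  intro i z _ u v
  show (F2.lin (cycR k l) H.om).w i z u v = _
  rw [F2.lin_w, Finset.sum_eq_single (l + k)]
  · simp [cycR]
  · intro m _ hm
    simp [cycR, hm]
  · intro h
    exact absurd (Finset.mem_univ _) h

theorem cyc_J (H : HkT C) (k l : Fin 3) (i : C.ι) (z v : V) :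
    (H.cyc k).J l i z v = H.J (l + k) i z v := by
  show (H.Jv (cycR k l)) i z v = _
  rw [HkT.Jv]
  simp only [sum_apply, smul_apply]
  rw [Finset.sum_eq_single (l + k)]
  · simp [cycR]
  · intro m _ hm
    simp [cycR, hm]
  · intro h
    exact absurd (Finset.mem_univ _) h

theorem KCls.cyc {H : HkT C} {k : Fin 3} {w : F2 C} (h : KCls (ofHk H k) w) :
    KCls (ofHk (H.cyc k) 0) w := by
  obtain ⟨w', h1, h2, h3⟩ := h
  have e : ∀ i z v, (ofHk (H.cyc k) 0).J i z v = (ofHk H k).J i z v := by
    intro i z v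
    show (H.cyc k).J 0 i z v = H.J k i z v
    rw [cyc_J, zero_add]
  refine ⟨w', h1, fun i z hz u v => ?_, fun i z hz u hu => ?_⟩
  · rw [e, e]
    exact h2 i z hz u v
  · rw [e]
    exact h3 i z hz u hu

/-- **one move of the form `om k`** -/
theorem moveK [FiniteDimensional ℝ V] [T2Space X] [CompactSpace X] [ConnectedSpace X] {d : ℕ}
    (hNN : NNat V d) (H : HkT C) (k : Fin 3) (hu : UniqT (H.cyc k)) {w : F2 C}
    (hw : KCls (ofHk H k) w) :
    ∃ (H' : HkT C) (r : ℝ), 0 < r ∧
      (∀ i, ∀ z ∈ (C.e i).target, ∀ v, H'.J k i z v = H.J k i z v) ∧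
      (∀ l, l ≠ k → Eqv (H'.om l) (r • H.om l)) ∧ Ex (H'.om k - w) := by
  obtain ⟨A, hf, -, ⟨P⟩, -, -, hA⟩ := exists_rot hNN (H.cyc k)
  obtain ⟨H1, r, h0, hJ, e1, e2, he⟩ := move1 P (Crest.Agent.R281.KpK_487.yau_kah A) (H.cyc k) hA
    (uniq_of_T P hA hu) (KCls.cyc hw)
  have hk : k + -k = 0 := by abel
  refine ⟨H1.cyc (-k), r, h0, fun i z hz v => ?_, fun l hl => ?_, ?_⟩
  · rw [cyc_J, hk, hJ i z hz, cyc_J, zero_add]
  · have key : ∀ m : Fin 3, m ≠ 0 → Eqv (H1.om m) (r • (H.cyc k).om m) := by
      intro m hm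
      fin_cases m
      · exact absurd rfl hm
      · exact e1
      · exact e2
    have h1 : l + -k ≠ 0 := fun h => hl (by
      have : l = k := by
        have h2 := congrArg (fun x => x + k) h
        simpa using h2
      exact this)
    refine (cyc_om H1 (-k) l).trans ((key _ h1).trans fun i z hz u v => ?_)
    have e3 := cyc_om H k (l + -k) i z hz u v
    rw [neg_add_cancel_right] at e3
    show r * ((H.cyc k).om (l + -k)).w i z u v = r * (H.om l).w i z u v
    rw [e3]
  · have e3 := cyc_om H1 (-k) k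
    rw [hk] at e3
    have e4 := Ex.add (ex_sub_of_eqv e3) he
    rwa [sub_add_sub_cancel] at e4

end

end Crest.Agent.R281.HkR_835
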