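import Crest.Agent.R281.Sta1_684
import Crest.Agent.R281.AlgDefs_998
import Crest.Agent.R281.HkM5_835

/-!
# R281 (S0424), START (D14), part 2 (helper684): the HK structure `H'` polarised by `-A`

* `smulP t H`   : the triple with metric `t g`; `turn H = (-om₁, om₀, om₂)`
* `QS B`        : what is used of the Fujiki form `B` on `F2 C`
* `frmOf`       : the frame `Frm C B` of 998 of rational `e, v, w`; `sre_kap`
* `start_a`     : from a triple with symplectic classes `A`, `Im σ_τ` (up to positive factors) such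
                  that `Re σ_τ` is a Kaehler class for `J 0`, to a triple `H'` with
                  `AtTau F (-A) H' τ` and `H'.J 1 = H.J 0`
-/

set_option autoImplicit false
set_option linter.unusedSectionVars false
set_option maxSynthPendingDepth 3

open Set Filter Topology
open scoped ContDiff

namespace Crest.Agent.R281.Sta2_684

open Crest.Agent.R281.HkR_835 Crest.Agent.R281.Cdr_234 Crest.Agent.R281.Sta1_684
open Crest.Agent.R281.Alg_998 Crest.Agent.R260.ACM_580
open Crest.Agent.R281.Ti_846 (Ex)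
open Crest.Agent.R281.NefO_476 (ofHk Pos)
open Crest.Agent.R281.Nef_252 (T11 KCls)

noncomputable section

variable {V X : Type} [NormedAddCommGroup V] [NormedSpace ℝ V] [TopologicalSpace X]
  {C : RCh V X}

/-! ### scaling -/

/-- the triple with metric `t g`, `t > 0` -/
def smulP (t : ℝ) (ht : 0 < t) (H : HkT C) : HkT C where
  om k := t • H.om k
  J := H.J
  g i z := t • H.g i z
  J_sm := H.J_sm
  J_sq := H.J_sq
  J_01 := H.J_01
  g_symm i z hz u v := by
    simp only [smul_apply, smul_eq_mul]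
    rw [H.g_symm i z hz u v]
  g_pos i z hz v hv := by
    simp only [smul_apply, smul_eq_mul]
    exact mul_pos ht (H.g_pos i z hz v hv)
  om_eq k i z hz u v := by
    rw [F2.smul_w]
    simp only [smul_apply, smul_eq_mul]
    rw [H.om_eq k i z hz u v]

@[simp] theorem smulP_om (t : ℝ) (ht : 0 < t) (H : HkT C) (k : Fin 3) :
    (smulP t ht H).om k = t • H.om k := rfl

@[simp] theorem smulP_J (t : ℝ) (ht : 0 < t) (H : HkT C) : (smulP t ht H).J = H.J := rfl

/-- the rotation `(-om₁, om₀, om₂)` -/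
def RR : Fin 3 → Fin 3 → ℝ := ![![0, -1, 0], ![1, 0, 0], ![0, 0, 1]]

theorem frRR : HkT.Fr RR where
  nrm k := by fin_cases k <;> simp [RR]
  ort := by simp [RR]
  crs := by
    funext k
    fin_cases k <;> simp [RR]

/-- the rotated triple -/
def turn (H : HkT C) : HkT C := H.rot RR frRR

theorem turn_om0 (H : HkT C) : (turn H).om 0 = -H.om 1 := by
  show F2.lin (RR 0) H.om = _
  rw [F2.lin_eq, Fin.sum_univ_three]
  simp [RR]

theorem turn_om1 (H : HkT C) : (turn H).om 1 = H.om 0 := by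
  show F2.lin (RR 1) H.om = _
  rw [F2.lin_eq, Fin.sum_univ_three]
  simp [RR]

theorem turn_om2 (H : HkT C) : (turn H).om 2 = H.om 2 := by
  show F2.lin (RR 2) H.om = _
  rw [F2.lin_eq, Fin.sum_univ_three]
  simp [RR]

theorem turn_J1 (H : HkT C) (i : C.ι) (z : V) : (turn H).J 1 i z = H.J 0 i z := by
  show H.Jv (RR 1) i z = _
  ext v
  rw [HkT.Jv_apply]
  simp [RR]

theorem t11_om0 (H : HkT C) (k : Fin 3) : T11 (ofHk H k) (H.om k) := by
  intro i z hz u v
  show (H.om k).w i z (H.J k i z u) (H.J k i z v) = _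
  rw [H.om_eq k i z hz, H.om_eq k i z hz, H.g_J k hz]

theorem pos_om0 (H : HkT C) (k : Fin 3) : Pos (ofHk H k) (H.om k) := by
  intro i z hz u hu
  show 0 < (H.om k).w i z u (H.J k i z u)
  rw [H.om_eq k i z hz, H.g_J k hz]
  exact H.g_pos i z hz u hu

/-! ### the Fujiki form -/

/-- what is used of the Fujiki form -/
structure QS (B : F2 C →ₗ[ℝ] F2 C →ₗ[ℝ] ℝ) : Prop where
  symm : ∀ x y, B x y = B y x
  ex : ∀ x y, Ex x → B x y = 0
  eq : ∀ (H : HkT C) k, B (H.om k) (H.om k) = B (H.om 0) (H.om 0)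

variable {B : F2 C →ₗ[ℝ] F2 C →ₗ[ℝ] ℝ}

namespace QS

variable (hB : QS B)

include hB

theorem congr1 {x x' : F2 C} (h : Cl x x') (y : F2 C) : B x y = B x' y := by
  have := hB.ex _ y h
  rw [map_sub, LinearMap.sub_apply] at this
  linarith

theorem congr {x x' y y' : F2 C} (h : Cl x x') (h' : Cl y y') : B x y = B x' y' := by
  rw [hB.congr1 h, hB.symm x' y, hB.congr1 h', hB.symm]

end QS

/-! ### frames -/

/-- the frame of 998 from rational `e, v, w` -/
def frmOf {e A v w : F2 C} (h : Pos4 B e A v w) (he : IntF e) (hv : RatF v)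
    (hes : RatF (est B e w)) : Frm C B where
  e := e
  v := v
  es := est B e w
  N := B v v
  hN := h.vv
  e_e := h.ee
  e_v := h.ev
  es_e := h.est_e
  es_v := h.est_v
  es_es := h.est_est
  v_v := rfl
  int_e := he
  rat_v := hv
  rat_es := hes

theorem frmOf_sre {e A v w : F2 C} (h : Pos4 B e A v w) (he : IntF e) (hv : RatF v)
    (hes : RatF (est B e w)) (x y : ℝ) :
    (frmOf h he hv hes).sre ⟨x, y⟩ = sre B e v w x y := rfl

theorem frmOf_sim {e A v w : F2 C} (h : Pos4 B e A v w) (he : IntF e) (hv : RatF v)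
    (hes : RatF (est B e w)) (x y : ℝ) :
    (frmOf h he hv hes).sim ⟨x, y⟩ = sim B e v x y := by
  show y • v - (B v v * (x * y)) • e = y • (v - (x * B v v) • e)
  rw [smul_sub, smul_smul]
  congr 2
  ring

/-- if `κ = w + x B(w,e) b` is a Kaehler class then so is `Re σ_τ`, `τ = x + i y` -/
theorem kcls_sre {e A v w : F2 C} (h : Pos4 B e A v w) (he : IntF e) (hv : RatF v)
    (hes : RatF (est B e w)) {J : NefO_476.AJ C} {x y : ℝ}
    (hy : B v v * y ^ 2 * B w e ^ 2 = B (kap B e v w x) (kap B e v w x))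
    (hk : KCls J (kap B e v w x)) : KCls J ((frmOf h he hv hes).sre ⟨x, y⟩) := by
  rw [frmOf_sre, h.sre_eq hy]
  exact hk.smul (inv_pos.2 h.we)

theorem q_sre (hB : QS B) (F : Frm C B) (τ : ℂ) : B (F.sre τ) (F.sre τ) = F.N * τ.im ^ 2 := by
  have h1 : B F.v F.es = 0 := by rw [hB.symm]; exact F.es_v
  have h2 : B F.e F.es = 1 := by rw [hB.symm]; exact F.es_e
  have h3 : B F.v F.e = 0 := by rw [hB.symm]; exact F.e_v
  simp only [Frm.sre, map_sub, map_add, map_smul, LinearMap.sub_apply, LinearMap.add_apply,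
    LinearMap.smul_apply, smul_eq_mul, F.e_e, F.e_v, F.es_e, F.es_v, F.es_es, F.v_v, h1, h2, h3]
  ring

theorem q_sim (hB : QS B) (F : Frm C B) (τ : ℂ) : B (F.sim τ) (F.sim τ) = F.N * τ.im ^ 2 := by
  have h3 : B F.v F.e = 0 := by rw [hB.symm]; exact F.e_v
  simp only [Frm.sim, map_sub, map_smul, LinearMap.sub_apply,
    LinearMap.smul_apply, smul_eq_mul, F.e_e, F.e_v, F.v_v, h3]
  ring

/-- **START, part (A)** -/
theorem start_a [FiniteDimensional ℝ V] [T2Space X] [CompactSpace X] [ConnectedSpace X] {d : ℕ}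
    (hNN : NNat V d) (hB : QS B) (F : Frm C B) {A : F2 C} {H : HkT C} (hu : UniqT H)
    {τ : ℂ} (hτ : 0 < τ.im) {s1 s2 : ℝ} (hs1 : 0 < s1) (hs2 : 0 < s2)
    (h1 : Cl (H.om 1) (s1 • A)) (h2 : Cl (H.om 2) (s2 • F.sim τ))
    (hk : KCls (ofHk H 0) (F.sre τ)) :
    ∃ (H' : HkT C) (z : ℝ), 0 < z ∧ Cl (H'.om 0) (-A) ∧ Cl (H'.om 1) (z • F.sre τ) ∧
      Cl (H'.om 2) (z • F.sim τ) ∧ AtTau F (-A) H' τ ∧
      ∀ i, ∀ p ∈ (C.e i).target, H'.J 1 i p = H.J 0 i p := by
  obtain ⟨A', hf, -, ⟨P⟩, -, -, hA'⟩ := exists_rot hNN H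
  obtain ⟨H1, r, hr, hJ, e1, e2, e0⟩ := move1 P (Crest.Agent.R281.KpK_487.yau_kah A') H hA'
    (uniq_of_T P hA' hu) hk
  -- classes of `H1`
  have f1 : Cl (H1.om 1) ((r * s1) • A) := by
    rw [← smul_smul]
    exact Cl.trans (ex_sub_of_eqv e1) (Cl.smul r h1)
  have f2 : Cl (H1.om 2) ((r * s2) • F.sim τ) := by
    rw [← smul_smul]
    exact Cl.trans (ex_sub_of_eqv e2) (Cl.smul r h2)
  have f0 : Cl (H1.om 0) (F.sre τ) := e0
  have hN := F.hN
  have hrs : r * s2 = 1 := by
    have a0 := hB.congr f0 f0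
    have a2 := hB.congr f2 f2
    rw [hB.eq H1 2, a0, q_sre hB] at a2
    simp only [map_smul, LinearMap.smul_apply, smul_eq_mul] at a2
    rw [q_sim hB] at a2
    have a3 : (r * s2) ^ 2 * (F.N * τ.im ^ 2) = 1 ^ 2 * (F.N * τ.im ^ 2) := by
      rw [one_pow, one_mul]
      nlinarith [a2]
    have a4 := mul_right_cancel₀ (by positivity) a3
    exact (sq_eq_sq₀ (by positivity) (by norm_num)).1 a4
  rw [hrs, one_smul] at f2
  set t : ℝ := (r * s1)⁻¹ with ht
  have ht0 : 0 < t := by positivity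
  have g0 : Cl ((turn (smulP t ht0 H1)).om 0) (-A) := by
    rw [turn_om0, smulP_om]
    have a1 := Cl.smul (-t) f1
    rw [smul_smul] at a1
    have a2 : -t * (r * s1) = -1 := by
      rw [ht]; field_simp
    rwa [a2, neg_smul, neg_one_smul] at a1
  have g1 : Cl ((turn (smulP t ht0 H1)).om 1) (t • F.sre τ) := by
    rw [turn_om1, smulP_om]
    exact Cl.smul t f0
  have g2 : Cl ((turn (smulP t ht0 H1)).om 2) (t • F.sim τ) := by
    rw [turn_om2, smulP_om]
    exact Cl.smul t f2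
  refine ⟨turn (smulP t ht0 H1), t, ht0, g0, g1, g2, ⟨hτ, g0, (t : ℂ), ?_, ?_, ?_⟩, ?_⟩
  · exact_mod_cast ht0.ne'
  · simpa using g1
  · simpa using g2
  · intro i p hp
    rw [turn_J1, smulP_J]
    ext v
    exact hJ i p hp v

end

end Crest.Agent.R281.Sta2_684
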