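import Crest.Agent.R281.Bx1_557
import Crest.Agent.R281.Sta2_684
import Crest.Agent.R281.AlgDefs_998
import Crest.Agent.R281.HkM5_835

/-!
# Row 281, G9 BOX (second owner helper557), part 3: rotations and scalings of triples

* `fr_mul`, `rot_rot`  : product of frames, composition of rotations
* `HEqv.rot`, `HEqv.smulP`, `rot_smulP`, `smulP_smulP`
* `SmHk.rot`, `SmHk.g` : rotated families, joint smoothness of the metric
* `frA b0 b2`          : the frame `((1+b2²), -b0, -b0 b2)/(mn), (b0, 1, b2)/n, (0, -b2, 1)/m`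
* `frB a`              : the frame `(1, 0, -a)/k, (0, 1, 0), (a, 0, 1)/k`
-/

set_option autoImplicit false
set_option maxSynthPendingDepth 3
set_option linter.unusedSectionVars false

open Set Filter Topology
open scoped ContDiff

namespace Crest.Agent.R281.Bx_557

open Crest.Agent.R260.ACM_580 Crest.Agent.R281.HkR_835 Crest.Agent.R281.Ti_846
open Crest.Agent.R281.NefO_476 Crest.Agent.R281.Nef_252 Crest.Agent.R281.Dif_268
open Crest.Agent.R281.Alg_998
open Crest.Agent.R281.Sta2_684 (smulP)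

noncomputable section

/-! ### frames -/

/-- product of frames -/
def frP (S R : Fin 3 → Fin 3 → ℝ) (k m : Fin 3) : ℝ :=
  S k 0 * R 0 m + S k 1 * R 1 m + S k 2 * R 2 m

theorem fr_mul {S R : Fin 3 → Fin 3 → ℝ} (hS : HkT.Fr S) (hR : HkT.Fr R) :
    HkT.Fr (frP S R) := by
  have r0 := hR.nrm 0
  have r1 := hR.nrm 1
  have r2 := hR.nrm 2
  have r01 := hR.ort
  have c0 : R 2 0 = R 0 1 * R 1 2 - R 0 2 * R 1 1 := by rw [hR.crs]; simp
  have c1 : R 2 1 = R 0 2 * R 1 0 - R 0 0 * R 1 2 := by rw [hR.crs]; simp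
  have c2 : R 2 2 = R 0 0 * R 1 1 - R 0 1 * R 1 0 := by rw [hR.crs]; simp
  have r02 : R 0 0 * R 2 0 + R 0 1 * R 2 1 + R 0 2 * R 2 2 = 0 := by
    rw [c0, c1, c2]; ring
  have r12 : R 1 0 * R 2 0 + R 1 1 * R 2 1 + R 1 2 * R 2 2 = 0 := by
    rw [c0, c1, c2]; ring
  -- `R 1 × R 2 = R 0`, `R 2 × R 0 = R 1`
  have d0 : R 1 1 * R 2 2 - R 1 2 * R 2 1 = R 0 0 := by
    rw [c1, c2]; linear_combination R 0 0 * r1 - R 1 0 * r01
  have d1 : R 1 2 * R 2 0 - R 1 0 * R 2 2 = R 0 1 := by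
    rw [c0, c2]; linear_combination R 0 1 * r1 - R 1 1 * r01
  have d2 : R 1 0 * R 2 1 - R 1 1 * R 2 0 = R 0 2 := by
    rw [c0, c1]; linear_combination R 0 2 * r1 - R 1 2 * r01
  have f0 : R 2 1 * R 0 2 - R 2 2 * R 0 1 = R 1 0 := by
    rw [c1, c2]; linear_combination R 1 0 * r0 - R 0 0 * r01
  have f1 : R 2 2 * R 0 0 - R 2 0 * R 0 2 = R 1 1 := by
    rw [c0, c2]; linear_combination R 1 1 * r0 - R 0 1 * r01
  have f2 : R 2 0 * R 0 1 - R 2 1 * R 0 0 = R 1 2 := by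
    rw [c0, c1]; linear_combination R 1 2 * r0 - R 0 2 * r01
  have s2 : ∀ m, S 2 m = ![S 0 1 * S 1 2 - S 0 2 * S 1 1, S 0 2 * S 1 0 - S 0 0 * S 1 2,
    S 0 0 * S 1 1 - S 0 1 * S 1 0] m := fun m => by rw [hS.crs]
  have s20 := s2 0
  have s21 := s2 1
  have s22 := s2 2
  simp only [Matrix.cons_val_zero, Matrix.cons_val_one, Matrix.cons_val] at s20 s21 s22
  refine ⟨fun k => ?_, ?_, ?_⟩
  · have h := hS.nrm k
    simp only [frP]
    linear_combination h + S k 0 * S k 0 * r0 +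
      S k 1 * S k 1 * r1 + S k 2 * S k 2 * r2 + 2 * S k 0 * S k 1 * r01 +
      2 * S k 0 * S k 2 * r02 + 2 * S k 1 * S k 2 * r12
  · have h := hS.ort
    simp only [frP]
    linear_combination h + S 0 0 * S 1 0 * r0 + S 0 1 * S 1 1 * r1 + S 0 2 * S 1 2 * r2 +
      (S 0 0 * S 1 1 + S 0 1 * S 1 0) * r01 + (S 0 0 * S 1 2 + S 0 2 * S 1 0) * r02 +
      (S 0 1 * S 1 2 + S 0 2 * S 1 1) * r12
  · funext m
    fin_cases m
    · simp only [frP, Fin.zero_eta, Matrix.cons_val_zero, s20, s21, s22]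
      linear_combination (S 0 1 * S 1 2 - S 0 2 * S 1 1) * (-d0) +
        (S 0 2 * S 1 0 - S 0 0 * S 1 2) * (-f0) + (S 0 0 * S 1 1 - S 0 1 * S 1 0) * c0
    · simp only [frP, Fin.mk_one, Matrix.cons_val_one, Matrix.cons_val_zero, s20, s21, s22]
      linear_combination (S 0 1 * S 1 2 - S 0 2 * S 1 1) * (-d1) +
        (S 0 2 * S 1 0 - S 0 0 * S 1 2) * (-f1) + (S 0 0 * S 1 1 - S 0 1 * S 1 0) * c1
    · simp only [frP, Fin.reduceFinMk, Matrix.cons_val, s20, s21, s22]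
      linear_combination (S 0 1 * S 1 2 - S 0 2 * S 1 1) * (-d2) +
        (S 0 2 * S 1 0 - S 0 0 * S 1 2) * (-f2) + (S 0 0 * S 1 1 - S 0 1 * S 1 0) * c2

variable {V X : Type} [NormedAddCommGroup V] [NormedSpace ℝ V] [TopologicalSpace X]
  {C : RCh V X} {E : Type} [NormedAddCommGroup E] [NormedSpace ℝ E]

/-- coefficients of the rotated forms -/
theorem lin3_w (a : Fin 3 → ℝ) (w : Fin 3 → F2 C) (i : C.ι) (z : V) :
    (F2.lin a w).w i z = a 0 • (w 0).w i z + a 1 • (w 1).w i z + a 2 • (w 2).w i z := by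
  show ∑ k, a k • (w k).w i z = _
  rw [Fin.sum_univ_three]

theorem Jv3 (H : HkT C) (a : Fin 3 → ℝ) (i : C.ι) (z : V) :
    H.Jv a i z = a 0 • H.J 0 i z + a 1 • H.J 1 i z + a 2 • H.J 2 i z := by
  rw [HkT.Jv, Fin.sum_univ_three]

theorem rot_rot (H : HkT C) {R S : Fin 3 → Fin 3 → ℝ} (hR : HkT.Fr R) (hS : HkT.Fr S) :
    HEqv ((H.rot R hR).rot S hS) (H.rot (frP S R) (fr_mul hS hR)) := by
  refine ⟨fun k i z hz => ?_, fun k i z hz => ?_, fun i z hz => rfl⟩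
  · rw [HkT.rot_om, HkT.rot_om, lin3_w, lin3_w, HkT.rot_om, HkT.rot_om, HkT.rot_om, lin3_w, lin3_w,
      lin3_w]
    simp only [frP]
    module
  · rw [HkT.rot_J, HkT.rot_J, Jv3, Jv3, HkT.rot_J, HkT.rot_J, HkT.rot_J, Jv3, Jv3, Jv3]
    simp only [frP]
    module

theorem heqv_rot {H H' : HkT C} (h : HEqv H H') {R : Fin 3 → Fin 3 → ℝ} (hR : HkT.Fr R) :
    HEqv (H.rot R hR) (H'.rot R hR) := by
  refine ⟨fun k i z hz => ?_, fun k i z hz => ?_, h.g⟩
  · rw [HkT.rot_om, HkT.rot_om, lin3_w, lin3_w, h.om 0 i z hz, h.om 1 i z hz, h.om 2 i z hz]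
  · rw [HkT.rot_J, HkT.rot_J, Jv3, Jv3, h.J 0 i z hz, h.J 1 i z hz, h.J 2 i z hz]

theorem heqv_smulP {H H' : HkT C} (h : HEqv H H') {t : ℝ} (ht : 0 < t) :
    HEqv (smulP t ht H) (smulP t ht H') := by
  refine ⟨fun k i z hz => ?_, fun k i z hz => h.J k i z hz, fun i z hz => ?_⟩
  · show t • (H.om k).w i z = t • (H'.om k).w i z
    rw [h.om k i z hz]
  · show t • H.g i z = t • H'.g i z
    rw [h.g i z hz]

theorem rot_smulP (H : HkT C) {t : ℝ} (ht : 0 < t) {R : Fin 3 → Fin 3 → ℝ} (hR : HkT.Fr R) :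
    HEqv ((smulP t ht H).rot R hR) (smulP t ht (H.rot R hR)) := by
  refine ⟨fun k i z hz => ?_, fun k i z hz => rfl, fun i z hz => rfl⟩
  show (F2.lin (R k) (smulP t ht H).om).w i z = t • (F2.lin (R k) H.om).w i z
  rw [lin3_w, lin3_w]
  show R k 0 • (t • (H.om 0).w i z) + R k 1 • (t • (H.om 1).w i z) + R k 2 • (t • (H.om 2).w i z) = _
  module

theorem smulP_smulP (H : HkT C) {s t : ℝ} (hs : 0 < s) (ht : 0 < t) :
    HEqv (smulP s hs (smulP t ht H)) (smulP (s * t) (mul_pos hs ht) H) := by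
  refine ⟨fun k i z hz => ?_, fun k i z hz => rfl, fun i z hz => ?_⟩
  · show s • (t • (H.om k).w i z) = (s * t) • (H.om k).w i z
    rw [smul_smul]
  · show s • (t • H.g i z) = (s * t) • H.g i z
    rw [smul_smul]

theorem smulP_one (H : HkT C) : HEqv (smulP 1 one_pos H) H := by
  refine ⟨fun k i z hz => ?_, fun k i z hz => rfl, fun i z hz => ?_⟩
  · show (1 : ℝ) • (H.om k).w i z = _
    rw [one_smul]
  · show (1 : ℝ) • H.g i z = _
    rw [one_smul]

/-- the trivial frame -/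
theorem rot_one (H : HkT C) {R : Fin 3 → Fin 3 → ℝ} (hR : HkT.Fr R)
    (h : ∀ k l, R k l = if k = l then 1 else 0) : HEqv (H.rot R hR) H := by
  refine ⟨fun k i z hz => ?_, fun k i z hz => ?_, fun i z hz => rfl⟩
  · rw [HkT.rot_om, lin3_w]
    fin_cases k <;> simp [h]
  · rw [HkT.rot_J, Jv3]
    fin_cases k <;> simp [h]

theorem heqv_eqv {H H' : HkT C} (h : HEqv H H') (k : Fin 3) : Eqv (H.om k) (H'.om k) :=
  fun i z hz u v => by rw [h.om k i z hz]

/-- `cyc 1` is inverse to `cyc 2` -/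
theorem cyc_cyc (H : HkT C) : HEqv ((H.cyc 2).cyc 1) H := by
  refine ⟨fun k i z hz => ?_, fun k i z hz => ?_, fun i z hz => rfl⟩
  · ext u v
    rw [cyc_om (H.cyc 2) 1 k i z hz u v, cyc_om H 2 (k + 1) i z hz u v, add_assoc]
    have : k + (1 + 2) = k := by
      fin_cases k <;> rfl
    rw [this]
  · ext v
    rw [cyc_J, cyc_J, add_assoc]
    have : k + (1 + 2) = k := by
      fin_cases k <;> rfl
    rw [this]

/-! ### families -/

theorem SmHk.rot {T : Set E} {H : E → HkT C} (hH : SmHk T H) {R : E → Fin 3 → Fin 3 → ℝ}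
    (hR : ∀ p, HkT.Fr (R p)) (hs : ∀ k l, ContDiffOn ℝ ∞ (fun p => R p k l) T) :
    SmHk T fun p => (H p).rot (R p) (hR p) := by
  have hs' : ∀ (i : C.ι) k l, ContDiffOn ℝ ∞ (fun q : E × V => R q.1 k l)
      (T ×ˢ (C.e i).target) := fun i k l =>
    (hs k l).comp contDiff_fst.contDiffOn fun _ hq => hq.1
  refine ⟨fun k i => ?_, fun k i => ?_⟩
  · refine ((((hs' i k 0).smul (hH.om 0 i)).add ((hs' i k 1).smul (hH.om 1 i))).add
      ((hs' i k 2).smul (hH.om 2 i))).congr fun q _ => ?_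
    exact lin3_w _ _ _ _
  · refine ((((hs' i k 0).smul (hH.J 0 i)).add ((hs' i k 1).smul (hH.J 1 i))).add
      ((hs' i k 2).smul (hH.J 2 i))).congr fun q _ => ?_
    exact Jv3 _ _ _ _

theorem SmHk.g {T : Set E} {H : E → HkT C} (hH : SmHk T H) (i : C.ι) :
    ContDiffOn ℝ ∞ (fun q : E × V => (H q.1).g i q.2) (T ×ˢ (C.e i).target) := by
  have h1 : ContDiffOn ℝ ∞ (fun q : E × V => -(((H q.1).om 0).w i q.2).comp ((H q.1).J 0 i q.2))
      (T ×ˢ (C.e i).target) := ((hH.om 0 i).clm_comp (hH.J 0 i)).neg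
  refine h1.congr fun q hq => ?_
  ext u v
  rw [(H q.1).g_eq 0 hq.2]
  simp

theorem SmHk.comp {T : Set E} {H : E → HkT C} (hH : SmHk T H) {F : Type}
    [NormedAddCommGroup F] [NormedSpace ℝ F] {S : Set F} {p : F → E}
    (hp : ContDiffOn ℝ ∞ p S) (hm : MapsTo p S T) : SmHk S fun q => H (p q) := by
  have h2 : ∀ i : C.ι, ContDiffOn ℝ ∞ (fun q : F × V => (p q.1, q.2)) (S ×ˢ (C.e i).target) :=
    fun i => (hp.comp contDiff_fst.contDiffOn fun _ hq => hq.1).prodMk contDiff_snd.contDiffOn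
  exact ⟨fun k i => (hH.om k i).comp (h2 i) fun q hq => ⟨hm hq.1, hq.2⟩,
    fun k i => (hH.J k i).comp (h2 i) fun q hq => ⟨hm hq.1, hq.2⟩⟩

theorem SmF.comp {T : Set E} {w : E → F2 C} (hw : SmF T w) {F : Type}
    [NormedAddCommGroup F] [NormedSpace ℝ F] {S : Set F} {p : F → E}
    (hp : ContDiffOn ℝ ∞ p S) (hm : MapsTo p S T) : SmF S fun q => w (p q) := fun i => by
  have h2 : ContDiffOn ℝ ∞ (fun q : F × V => (p q.1, q.2)) (S ×ˢ (C.e i).target) :=
    (hp.comp contDiff_fst.contDiffOn fun _ hq => hq.1).prodMk contDiff_snd.contDiffOn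
  exact (hw i).comp h2 fun q hq => ⟨hm hq.1, hq.2⟩

/-! ### the two frames -/

/-- first frame -/
def frA (b0 b2 : ℝ) : Fin 3 → Fin 3 → ℝ :=
  ![![(1 + b2 ^ 2) / (√(1 + b2 ^ 2) * √(1 + b0 ^ 2 + b2 ^ 2)),
      -b0 / (√(1 + b2 ^ 2) * √(1 + b0 ^ 2 + b2 ^ 2)),
      -(b0 * b2) / (√(1 + b2 ^ 2) * √(1 + b0 ^ 2 + b2 ^ 2))],
    ![b0 / √(1 + b0 ^ 2 + b2 ^ 2), 1 / √(1 + b0 ^ 2 + b2 ^ 2), b2 / √(1 + b0 ^ 2 + b2 ^ 2)],
    ![0, -b2 / √(1 + b2 ^ 2), 1 / √(1 + b2 ^ 2)]]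

theorem frA_fr (b0 b2 : ℝ) : HkT.Fr (frA b0 b2) := by
  have hm : 0 < 1 + b2 ^ 2 := by positivity
  have hn : 0 < 1 + b0 ^ 2 + b2 ^ 2 := by positivity
  set m := √(1 + b2 ^ 2) with hmd
  set n := √(1 + b0 ^ 2 + b2 ^ 2) with hnd
  have hm0 : 0 < m := Real.sqrt_pos.2 hm
  have hn0 : 0 < n := Real.sqrt_pos.2 hn
  have hm2 : m ^ 2 = 1 + b2 ^ 2 := Real.sq_sqrt hm.le
  have hn2 : n ^ 2 = 1 + b0 ^ 2 + b2 ^ 2 := Real.sq_sqrt hn.le
  refine ⟨fun k => ?_, ?_, ?_⟩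
  · fin_cases k
    · simp only [frA, Fin.zero_eta, Matrix.cons_val_zero, Matrix.cons_val_one, Matrix.cons_val]
      field_simp
      rw [hm2, hn2]
      ring
    · simp only [frA, Fin.mk_one, Matrix.cons_val_zero, Matrix.cons_val_one, Matrix.cons_val]
      field_simp
      rw [hn2]
      ring
    · simp only [frA, Fin.reduceFinMk, Matrix.cons_val_zero, Matrix.cons_val_one, Matrix.cons_val]
      field_simp
      rw [hm2]
      ring
  · simp only [frA, Matrix.cons_val_zero, Matrix.cons_val_one, Matrix.cons_val]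
    field_simp
    ring
  · funext l
    fin_cases l
    · simp only [frA, Fin.zero_eta, Matrix.cons_val_zero, Matrix.cons_val_one, Matrix.cons_val]
      field_simp
      ring
    · simp only [frA, Fin.mk_one, Matrix.cons_val_zero, Matrix.cons_val_one, Matrix.cons_val]
      field_simp
      rw [hn2]
      ring
    · simp only [frA, Fin.reduceFinMk, Matrix.cons_val_zero, Matrix.cons_val_one, Matrix.cons_val]
      field_simp
      rw [hn2]
      ring

/-- second frame -/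
def frB (a : ℝ) : Fin 3 → Fin 3 → ℝ :=
  ![![1 / √(1 + a ^ 2), 0, -a / √(1 + a ^ 2)], ![0, 1, 0], ![a / √(1 + a ^ 2), 0, 1 / √(1 + a ^ 2)]]

theorem frB_fr (a : ℝ) : HkT.Fr (frB a) := by
  have hm : 0 < 1 + a ^ 2 := by positivity
  set m := √(1 + a ^ 2) with hmd
  have hm0 : 0 < m := Real.sqrt_pos.2 hm
  have hm2 : m ^ 2 = 1 + a ^ 2 := Real.sq_sqrt hm.le
  refine ⟨fun k => ?_, ?_, ?_⟩
  · fin_cases k
    · simp only [frB, Fin.zero_eta, Matrix.cons_val_zero, Matrix.cons_val_one, Matrix.cons_val]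
      field_simp
      rw [hm2]
      ring
    · simp [frB]
    · simp only [frB, Fin.reduceFinMk, Matrix.cons_val_zero, Matrix.cons_val_one, Matrix.cons_val]
      field_simp
      rw [hm2]
      ring
  · simp [frB]
  · funext l
    fin_cases l <;> simp [frB, neg_div]

theorem frA_sm {T : Set E} {b0 b2 : E → ℝ} (h0 : ContDiffOn ℝ ∞ b0 T)
    (h2 : ContDiffOn ℝ ∞ b2 T) (k l : Fin 3) :
    ContDiffOn ℝ ∞ (fun p => frA (b0 p) (b2 p) k l) T := by
  have hm : ContDiffOn ℝ ∞ (fun p => √(1 + b2 p ^ 2)) T :=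
    (contDiffOn_const.add (h2.pow 2)).sqrt fun p _ => by positivity
  have hn : ContDiffOn ℝ ∞ (fun p => √(1 + b0 p ^ 2 + b2 p ^ 2)) T :=
    ((contDiffOn_const.add (h0.pow 2)).add (h2.pow 2)).sqrt fun p _ => by positivity
  have hm0 : ∀ p ∈ T, √(1 + b2 p ^ 2) ≠ 0 := fun p _ => by positivity
  have hn0 : ∀ p ∈ T, √(1 + b0 p ^ 2 + b2 p ^ 2) ≠ 0 := fun p _ => by positivity
  have hmn0 : ∀ p ∈ T, √(1 + b2 p ^ 2) * √(1 + b0 p ^ 2 + b2 p ^ 2) ≠ 0 := fun p hp =>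
    mul_ne_zero (hm0 p hp) (hn0 p hp)
  fin_cases k <;> fin_cases l <;>
    simp only [frA, Fin.zero_eta, Fin.mk_one, Fin.reduceFinMk, Matrix.cons_val_zero,
      Matrix.cons_val_one, Matrix.cons_val]
  · exact (contDiffOn_const.add (h2.pow 2)).div (hm.mul hn) hmn0
  · exact h0.neg.div (hm.mul hn) hmn0
  · exact (h0.mul h2).neg.div (hm.mul hn) hmn0
  · exact h0.div hn hn0
  · exact contDiffOn_const.div hn hn0
  · exact h2.div hn hn0
  · exact contDiffOn_const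
  · exact h2.neg.div hm hm0
  · exact contDiffOn_const.div hm hm0

theorem frB_sm {T : Set E} {a : E → ℝ} (ha : ContDiffOn ℝ ∞ a T) (k l : Fin 3) :
    ContDiffOn ℝ ∞ (fun p => frB (a p) k l) T := by
  have hm : ContDiffOn ℝ ∞ (fun p => √(1 + a p ^ 2)) T :=
    (contDiffOn_const.add (ha.pow 2)).sqrt fun p _ => by positivity
  have hm0 : ∀ p ∈ T, √(1 + a p ^ 2) ≠ 0 := fun p _ => by positivity
  fin_cases k <;> fin_cases l <;>
    simp only [frB, Fin.zero_eta, Fin.mk_one, Fin.reduceFinMk, Matrix.cons_val_zero,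
      Matrix.cons_val_one, Matrix.cons_val]
  · exact contDiffOn_const.div hm hm0
  · exact contDiffOn_const
  · exact ha.neg.div hm hm0
  · exact contDiffOn_const
  · exact contDiffOn_const
  · exact contDiffOn_const
  · exact ha.div hm hm0
  · exact contDiffOn_const
  · exact contDiffOn_const.div hm hm0

end

end Crest.Agent.R281.Bx_557
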