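import Crest.Agent.R281.NefRay5_326
import Crest.Agent.R281.FujSig_358

/-!
# Row 281, NEF-RAY (G19), part 7 (helper326): smoothness of a Fujiki form along families

`IM μ b P (fun _ => x) = q x ^ n` for all `x`, `q r ≠ 0` for one `r`; `w`, `w'` jointly smooth
families of closed 2-forms over the open set `T` (`JF T w`):

* `polar_contDiffOn`  : `t ↦ polar q (w t) u`
* `q_contDiffOn`      : `t ↦ q (w t)`
* `polar2_contDiffOn` : `t ↦ polar q (w t) (w' t)`
* `qHk_of_polar`      : `QHk Q` for `Q = κ polar q`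
-/

set_option autoImplicit false
set_option maxSynthPendingDepth 3
set_option linter.unusedSectionVars false

open Set Filter Topology MeasureTheory
open scoped ContDiff

namespace Crest.Agent.R281.NefRay_326

open Crest.Agent.R281.HkR_835 Crest.Agent.R281.Ti_846
open Crest.Agent.R281.Fuj4_207 Crest.Agent.R281.Iso_139 Crest.Agent.R281.FujP_513

noncomputable section

variable {E V X : Type} [NormedAddCommGroup E] [NormedSpace ℝ E]
  [NormedAddCommGroup V] [NormedSpace ℝ V] [FiniteDimensional ℝ V]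
  [MeasurableSpace V] [BorelSpace V] (μ : Measure V) [μ.IsAddHaarMeasure] [TopologicalSpace X]
  [CompactSpace X] {C : RCh V X} {n : ℕ} (b : Module.Basis (Fin (n + n) × Fin 2) ℝ V)
  (P : RPart C) {q : QuadraticForm ℝ (F2 C)}

theorem JF.add {T : Set E} {w w' : E → F2 C} (h : JF T w) (h' : JF T w') :
    JF T fun t => w t + w' t := fun i => (h i).add (h' i)

theorem JF.smul {T : Set E} {w : E → F2 C} (h : JF T w) {a : E → ℝ} (ha : ContDiffOn ℝ ∞ a T) :
    JF T fun t => a t • w t := fun i =>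
  (ha.comp contDiffOn_fst fun _ hp => hp.1).smul (h i)

theorem JF.mixv {T : Set E} {w : E → F2 C} (h : JF T w) (N a : ℕ) (x : F2 C) (i : Fin N) :
    JF T fun t => mixv N a x (w t) i := by
  by_cases h0 : (i : ℕ) < a
  · simp only [FujP_513.mixv, h0, if_true]
    exact h
  · simp only [FujP_513.mixv, h0, if_false]
    exact JF.const T x

/-- a small multiple of `r` makes `q` nonzero -/
theorem exists_q_ne {r : F2 C} (hr : q r ≠ 0) (u : F2 C) : ∃ s : ℝ, q (u + s • r) ≠ 0 := by
  by_contra hc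
  push Not at hc
  have h0 := hc 0
  have h1 := hc 1
  have h2 := hc (-1)
  rw [FujSig_358.q_line] at h0 h1 h2
  exact hr (by linarith)

section

variable {μ b P}

theorem polar_contDiffOn (hn : 0 < n) (hfuj : ∀ x, IM μ b P (fun _ => x) = q x ^ n) {r : F2 C}
    (hr : q r ≠ 0) {T : Set E} (hT : IsOpen T) {w : E → F2 C} (h : JF T w) (u : F2 C) :
    ContDiffOn ℝ ∞ (fun t => QuadraticMap.polar q (w t) u) T := by
  have step : ∀ x : F2 C, q x ≠ 0 →
      ContDiffOn ℝ ∞ (fun t => QuadraticMap.polar q (w t) x) T := by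
    intro x hx
    have h1 : ContDiffOn ℝ ∞ (fun t => IM μ b P (mixv (n + n) 1 x (w t))) T :=
      IM_contDiffOn μ b P hT (w := fun i t => mixv (n + n) 1 x (w t) i) fun i => h.mixv _ _ x i
    have h2 : ∀ t, QuadraticMap.polar q (w t) x =
        2 / q x ^ (n - 1) * IM μ b P (mixv (n + n) 1 x (w t)) := by
      intro t
      have h3 := FujSig_358.first_polar' hn (IM_symm μ b P) hfuj x (w t)
      have h4 : q x ^ (n - 1) ≠ 0 := pow_ne_zero _ hx
      rw [QuadraticMap.polar_comm]
      field_simp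
      linarith
    simp only [h2]
    exact contDiffOn_const.mul h1
  obtain ⟨s, hs⟩ := exists_q_ne hr u
  have h3 : ∀ t, QuadraticMap.polar q (w t) u =
      QuadraticMap.polar q (w t) (u + s • r) - s * QuadraticMap.polar q (w t) r := by
    intro t
    rw [QuadraticMap.polar_add_right, QuadraticMap.polar_smul_right, smul_eq_mul]
    ring
  simp only [h3]
  exact (step _ hs).sub (contDiffOn_const.mul (step r hr))

theorem q_contDiffOn (hn : 0 < n) (hfuj : ∀ x, IM μ b P (fun _ => x) = q x ^ n) {r : F2 C}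
    (hr : q r ≠ 0) {T : Set E} (hT : IsOpen T) {w : E → F2 C} (h : JF T w) :
    ContDiffOn ℝ ∞ (fun t => q (w t)) T := by
  have h1 : ContDiffOn ℝ ∞ (fun t => IM μ b P (mixv (n + n) 2 r (w t))) T :=
    IM_contDiffOn μ b P hT (w := fun i t => mixv (n + n) 2 r (w t) i) fun i => h.mixv _ _ r i
  have h2 : ∀ t, q (w t) = (2 * (2 * n - 1) * IM μ b P (mixv (n + n) 2 r (w t)) -
      (n - 1) * q r ^ (n - 2) * QuadraticMap.polar q (w t) r ^ 2) / (2 * q r ^ (n - 1)) := by
    intro t
    have h3 := FujSig_358.second_polar hn (IM_symm μ b P) hfuj r (w t)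
    have h4 : q r ^ (n - 1) ≠ 0 := pow_ne_zero _ hr
    rw [h3, QuadraticMap.polar_comm q (w t) r]
    field_simp
    ring
  simp only [h2]
  exact ((contDiffOn_const.mul h1).sub
    (contDiffOn_const.mul ((polar_contDiffOn hn hfuj hr hT h r).pow 2))).div_const _

theorem polar2_contDiffOn (hn : 0 < n) (hfuj : ∀ x, IM μ b P (fun _ => x) = q x ^ n) {r : F2 C}
    (hr : q r ≠ 0) {T : Set E} (hT : IsOpen T) {w w' : E → F2 C} (h : JF T w) (h' : JF T w') :
    ContDiffOn ℝ ∞ (fun t => QuadraticMap.polar q (w t) (w' t)) T :=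
  ((q_contDiffOn hn hfuj hr hT (h.add h')).sub (q_contDiffOn hn hfuj hr hT h)).sub
    (q_contDiffOn hn hfuj hr hT h')

end

/-- `QHk` for a multiple of the polar form of a Fujiki form -/
theorem qHk_of_polar (hn : 0 < n) (hfuj : ∀ x, IM μ b P (fun _ => x) = q x ^ n) {r : F2 C}
    (hr : q r ≠ 0) {Q : F2 C →ₗ[ℝ] F2 C →ₗ[ℝ] ℝ} {κ : ℝ}
    (hQ : ∀ x y, Q x y = κ * QuadraticMap.polar q x y) (hex : ∀ x y, Ex x → Q x y = 0)
    (hk : ∀ (H : HkT C) (k l : Fin 3), Q (H.om k) (H.om k) = Q (H.om l) (H.om l)) : QHk Q := by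
  refine ⟨fun x y => ?_, hex, hk, fun w hw u => ?_⟩
  · rw [hQ, hQ, QuadraticMap.polar_comm]
  · have h1 := polar_contDiffOn (μ := μ) (b := b) (P := P) hn hfuj hr (isOpen_univ (X := ℝ))
      (w := w) (fun i => hw i) u
    have h2 : (fun t => Q (w t) u) = fun t => κ * QuadraticMap.polar q (w t) u := by
      funext t
      exact hQ _ _
    rw [h2]
    exact contDiff_const.mul (contDiffOn_univ.1 h1)

end

end Crest.Agent.R281.NefRay_326
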