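import Crest.Agent.R281.Ti3_846

/-!
# R281, DIF-HTPY (helper268), part 1: smooth maps between spaces with real charts

* `SMap C' C`   : smooth map `X' → X`; `SMap.id`, `SMap.comp`
* `SMap.pull`   : pull back of closed 2-forms, `pull_w` (value read in any chart), `pull_comp`
* `SMap.pull1`  : pull back of 1-forms; `isD_pull`, `ex_pull`
* `Eqv w w'`    : the two forms agree on the targets of the charts; `Ex` respects it
-/

set_option autoImplicit false

open Set Filter Topology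
open scoped ContDiff

namespace Crest.Agent.R281.Dif_268

open Crest.Agent.R281.HkR_835 Crest.Agent.R260.ACM_580
open Crest.Agent.R281.Ti_846 hiding pb pb_apply symm2

noncomputable section

variable {V V' V'' X X' X'' : Type} [NormedAddCommGroup V] [NormedSpace ℝ V]
  [NormedAddCommGroup V'] [NormedSpace ℝ V'] [NormedAddCommGroup V''] [NormedSpace ℝ V'']
  [TopologicalSpace X] [TopologicalSpace X'] [TopologicalSpace X'']

/-- domain of the map read in the charts `j` (source) and `i` (target) -/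
def dom (C : RCh V X) (C' : RCh V' X') (f : X' → X) (i : C.ι) (j : C'.ι) : Set V' :=
  {z | z ∈ (C'.e j).target ∧ f ((C'.e j).symm z) ∈ (C.e i).source}

/-- the map read in charts -/
def loc (C : RCh V X) (C' : RCh V' X') (f : X' → X) (i : C.ι) (j : C'.ι) (z : V') : V :=
  C.e i (f ((C'.e j).symm z))

/-- smooth map between spaces with real charts -/
structure SMap (C' : RCh V' X') (C : RCh V X) where
  f : X' → X
  cont : Continuous f
  sm : ∀ i j, ContDiffOn ℝ ∞ (loc C C' f i j) (dom C C' f i j)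

variable {C : RCh V X} {C' : RCh V' X'} {C'' : RCh V'' X''}

theorem F1dAt (η : F1 C) {i : C.ι} {z : V} (hz : z ∈ (C.e i).target) :
    DifferentiableAt ℝ (η.η i) z :=
  ((η.sm i).contDiffAt ((C.e i).open_target.mem_nhds hz)).differentiableAt (by simp)

theorem symm2 {W : Type*} [NormedAddCommGroup W] [NormedSpace ℝ W] {f : V → W} {z : V}
    (hf : ContDiffAt ℝ ∞ f z) (a b : V) :
    fderiv ℝ (fderiv ℝ f) z a b = fderiv ℝ (fderiv ℝ f) z b a :=
  (hf.isSymmSndFDerivAt (by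
      rw [minSmoothness_of_isRCLikeNormedField]; exact WithTop.coe_le_coe.2 le_top)) a b

namespace SMap

variable (g : SMap C' C)

theorem isOpen_dom (i : C.ι) (j : C'.ι) : IsOpen (dom C C' g.f i j) := by
  have h1 : IsOpen (g.f ⁻¹' (C.e i).source) := (C.e i).open_source.preimage g.cont
  exact (C'.e j).isOpen_inter_preimage_symm h1

theorem loc_mem {i : C.ι} {j : C'.ι} {z : V'} (hz : z ∈ dom C C' g.f i j) :
    loc C C' g.f i j z ∈ (C.e i).target := (C.e i).map_source hz.2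

theorem symm_loc {i : C.ι} {j : C'.ι} {z : V'} (hz : z ∈ dom C C' g.f i j) :
    (C.e i).symm (loc C C' g.f i j z) = g.f ((C'.e j).symm z) := (C.e i).left_inv hz.2

theorem contDiffAt_loc {i : C.ι} {j : C'.ι} {z : V'} (hz : z ∈ dom C C' g.f i j) :
    ContDiffAt ℝ ∞ (loc C C' g.f i j) z :=
  (g.sm i j).contDiffAt ((g.isOpen_dom i j).mem_nhds hz)

theorem diff_loc {i : C.ι} {j : C'.ι} {z : V'} (hz : z ∈ dom C C' g.f i j) :
    DifferentiableAt ℝ (loc C C' g.f i j) z := (g.contDiffAt_loc hz).differentiableAt (by simp)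

theorem loc_ov {i i' : C.ι} {j : C'.ι} {z : V'} (hz : z ∈ dom C C' g.f i j)
    (hz' : z ∈ dom C C' g.f i' j) : loc C C' g.f i j z ∈ C.ov i i' := by
  refine ⟨g.loc_mem hz, ?_⟩
  rw [g.symm_loc hz]
  exact hz'.2

theorem t_loc {i i' : C.ι} {j : C'.ι} {z : V'} (hz : z ∈ dom C C' g.f i j) :
    C.t i i' (loc C C' g.f i j z) = loc C C' g.f i' j z := by
  show C.e i' ((C.e i).symm (C.e i (g.f ((C'.e j).symm z)))) = C.e i' (g.f ((C'.e j).symm z))
  rw [(C.e i).left_inv hz.2]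

theorem dt_loc {i i' : C.ι} {j : C'.ι} {z : V'} (hz : z ∈ dom C C' g.f i j)
    (hz' : z ∈ dom C C' g.f i' j) (v : V') :
    fderiv ℝ (C.t i i') (loc C C' g.f i j z) (fderiv ℝ (loc C C' g.f i j) z v) =
      fderiv ℝ (loc C C' g.f i' j) z v := by
  have h1 : (fun y => C.t i i' (loc C C' g.f i j y)) =ᶠ[𝓝 z] loc C C' g.f i' j := by
    filter_upwards [(g.isOpen_dom i j).mem_nhds hz] with y hy using g.t_loc hy
  have h2 := ((RCh.t_diff (g.loc_ov hz hz')).hasFDerivAt.comp z (g.diff_loc hz).hasFDerivAt).fderiv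
  have h3 : (C.t i i' ∘ loc C C' g.f i j) = fun y => C.t i i' (loc C C' g.f i j y) := rfl
  rw [h3, h1.fderiv_eq] at h2
  exact (congrArg (fun T : V' →L[ℝ] V => T v) h2).symm

theorem loc_t {i : C.ι} {j j' : C'.ι} {z : V'} (hz : z ∈ C'.ov j j') :
    loc C C' g.f i j' (C'.t j j' z) = loc C C' g.f i j z := by
  show C.e i (g.f ((C'.e j').symm (C'.e j' ((C'.e j).symm z)))) = C.e i (g.f ((C'.e j).symm z))
  rw [(C'.e j').left_inv hz.2]

theorem dom_t {i : C.ι} {j j' : C'.ι} {z : V'} (hz : z ∈ C'.ov j j')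
    (hz' : z ∈ dom C C' g.f i j) : C'.t j j' z ∈ dom C C' g.f i j' := by
  refine ⟨(C'.e j').map_source hz.2, ?_⟩
  show g.f ((C'.e j').symm (C'.e j' ((C'.e j).symm z))) ∈ (C.e i).source
  rw [(C'.e j').left_inv hz.2]
  exact hz'.2

theorem dloc_t {i : C.ι} {j j' : C'.ι} {z : V'} (hz : z ∈ C'.ov j j')
    (hz' : z ∈ dom C C' g.f i j) (v : V') :
    fderiv ℝ (loc C C' g.f i j') (C'.t j j' z) (fderiv ℝ (C'.t j j') z v) =
      fderiv ℝ (loc C C' g.f i j) z v := by
  have h1 : (fun y => loc C C' g.f i j' (C'.t j j' y)) =ᶠ[𝓝 z] loc C C' g.f i j := by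
    filter_upwards [(RCh.isOpen_ov j j').mem_nhds hz] with y hy using g.loc_t hy
  have h2 := ((g.diff_loc (g.dom_t hz hz')).hasFDerivAt.comp z (RCh.t_diff hz).hasFDerivAt).fderiv
  have h3 : (loc C C' g.f i j' ∘ C'.t j j') = fun y => loc C C' g.f i j' (C'.t j j' y) := rfl
  rw [h3, h1.fderiv_eq] at h2
  exact (congrArg (fun T : V' →L[ℝ] V => T v) h2).symm

/-- a chart of the target around the image point -/
def idx (g : SMap C' C) (j : C'.ι) (z : V') : C.ι :=
  Classical.choose (C.cover (g.f ((C'.e j).symm z)))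

theorem idx_mem {j : C'.ι} {z : V'} (hz : z ∈ (C'.e j).target) :
    z ∈ dom C C' g.f (g.idx j z) j :=
  ⟨hz, Classical.choose_spec (C.cover (g.f ((C'.e j).symm z)))⟩

theorem exists_dom {j : C'.ι} {z : V'} (hz : z ∈ (C'.e j).target) :
    ∃ i, z ∈ dom C C' g.f i j := ⟨_, g.idx_mem hz⟩

/-- the pull back, raw -/
def w' (w : F2 C) (j : C'.ι) (z : V') : Bil V' :=
  pb (w.w (g.idx j z)) (loc C C' g.f (g.idx j z) j) z

theorem w'_eq (w : F2 C) {i : C.ι} {j : C'.ι} {z : V'} (hz : z ∈ dom C C' g.f i j) :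
    g.w' w j z = pb (w.w i) (loc C C' g.f i j) z := by
  have h1 := g.idx_mem hz.1
  ext u v
  rw [w', pb_apply, pb_apply, w.tr _ i _ (g.loc_ov h1 hz), g.t_loc h1, g.dt_loc h1 hz,
    g.dt_loc h1 hz]

/-- **pull back of closed 2-forms** -/
def pull (w : F2 C) : F2 C' where
  w := g.w' w
  sm j := by
    intro z hz
    obtain ⟨i, hi⟩ := g.exists_dom hz
    have h1 : ContDiffOn ℝ ∞ (pb (w.w i) (loc C C' g.f i j)) (dom C C' g.f i j) :=
      contDiffOn_pb (g.isOpen_dom i j) (w.sm i) (g.sm i j) fun y hy => g.loc_mem hy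
    have h2 : ContDiffAt ℝ ∞ (g.w' w j) z :=
      (h1.contDiffAt ((g.isOpen_dom i j).mem_nhds hi)).congr_of_eventuallyEq (by
        filter_upwards [(g.isOpen_dom i j).mem_nhds hi] with y hy using g.w'_eq w hy)
    exact h2.contDiffWithinAt
  alt j z hz u v := by
    obtain ⟨i, hi⟩ := g.exists_dom hz
    rw [g.w'_eq w hi, pb_apply, pb_apply, w.alt i _ (g.loc_mem hi)]
  tr j j' z hz u v := by
    obtain ⟨i, hi⟩ := g.exists_dom hz.1
    rw [g.w'_eq w hi, g.w'_eq w (g.dom_t hz hi), pb_apply, pb_apply, g.dloc_t hz hi,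
      g.dloc_t hz hi, g.loc_t hz]
  closed j z hz a b c := by
    obtain ⟨i, hi⟩ := g.exists_dom hz
    have h1 : g.w' w j =ᶠ[𝓝 z] pb (w.w i) (loc C C' g.f i j) := by
      filter_upwards [(g.isOpen_dom i j).mem_nhds hi] with y hy using g.w'_eq w hy
    rw [h1.fderiv_eq]
    exact pb_closed (g.isOpen_dom i j) (C.e i).open_target (w.sm i) (g.sm i j)
      (fun y hy => g.loc_mem hy) (w.alt i) (w.closed i) hi a b c

theorem pull_w (w : F2 C) {i : C.ι} {j : C'.ι} {z : V'} (hz : z ∈ dom C C' g.f i j)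
    (u v : V') : (g.pull w).w j z u v = w.w i (loc C C' g.f i j z)
      (fderiv ℝ (loc C C' g.f i j) z u) (fderiv ℝ (loc C C' g.f i j) z v) := by
  show g.w' w j z u v = _
  rw [g.w'_eq w hz, pb_apply]

/-! ### 1-forms -/

/-- the pull back of 1-forms, raw -/
def η' (η : F1 C) (j : C'.ι) (z : V') : V' →L[ℝ] ℝ :=
  (η.η (g.idx j z) (loc C C' g.f (g.idx j z) j z)).comp
    (fderiv ℝ (loc C C' g.f (g.idx j z) j) z)

theorem η'_eq (η : F1 C) {i : C.ι} {j : C'.ι} {z : V'} (hz : z ∈ dom C C' g.f i j) :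
    g.η' η j z = (η.η i (loc C C' g.f i j z)).comp (fderiv ℝ (loc C C' g.f i j) z) := by
  have h1 := g.idx_mem hz.1
  ext u
  simp only [η', ContinuousLinearMap.comp_apply]
  rw [η.tr _ i _ (g.loc_ov h1 hz), g.t_loc h1, g.dt_loc h1 hz]

theorem sm_η {η : F1 C} (i : C.ι) (j : C'.ι) :
    ContDiffOn ℝ ∞ (fun z => (η.η i (loc C C' g.f i j z)).comp
      (fderiv ℝ (loc C C' g.f i j) z)) (dom C C' g.f i j) := by
  have h1 : ContDiffOn ℝ ∞ (fun z => η.η i (loc C C' g.f i j z)) (dom C C' g.f i j) :=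
    (η.sm i).comp (g.sm i j) fun y hy => g.loc_mem hy
  have h2 : ContDiffOn ℝ ∞ (fderiv ℝ (loc C C' g.f i j)) (dom C C' g.f i j) :=
    (g.sm i j).fderiv_of_isOpen (g.isOpen_dom i j) (by simp)
  exact h1.clm_comp h2

/-- pull back of 1-forms -/
def pull1 (η : F1 C) : F1 C' where
  η := g.η' η
  sm j := by
    intro z hz
    obtain ⟨i, hi⟩ := g.exists_dom hz
    have h2 : ContDiffAt ℝ ∞ (g.η' η j) z :=
      ((g.sm_η (η := η) i j).contDiffAt ((g.isOpen_dom i j).mem_nhds hi)).congr_of_eventuallyEq (by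
        filter_upwards [(g.isOpen_dom i j).mem_nhds hi] with y hy using g.η'_eq η hy)
    exact h2.contDiffWithinAt
  tr j j' z hz v := by
    obtain ⟨i, hi⟩ := g.exists_dom hz.1
    rw [g.η'_eq η hi, g.η'_eq η (g.dom_t hz hi), ContinuousLinearMap.comp_apply,
      ContinuousLinearMap.comp_apply, g.dloc_t hz hi, g.loc_t hz]

theorem pull1_η (η : F1 C) {i : C.ι} {j : C'.ι} {z : V'} (hz : z ∈ dom C C' g.f i j) (v : V') :
    (g.pull1 η).η j z v = η.η i (loc C C' g.f i j z) (fderiv ℝ (loc C C' g.f i j) z v) := by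
  show g.η' η j z v = _
  rw [g.η'_eq η hz, ContinuousLinearMap.comp_apply]

/-- pull back commutes with `d` -/
theorem isD_pull {w : F2 C} {η : F1 C} (h : IsD w η) : IsD (g.pull w) (g.pull1 η) := by
  intro j z hz u v
  obtain ⟨i, hi⟩ := g.exists_dom hz
  have e1 : (g.pull1 η).η j =ᶠ[𝓝 z] fun y => (η.η i (loc C C' g.f i j y)).comp
      (fderiv ℝ (loc C C' g.f i j) y) := by
    filter_upwards [(g.isOpen_dom i j).mem_nhds hi] with y hy using g.η'_eq η hy
  have hφ := g.contDiffAt_loc hi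
  have hφ2 : DifferentiableAt ℝ (fderiv ℝ (loc C C' g.f i j)) z :=
    (((g.sm i j).fderiv_of_isOpen (g.isOpen_dom i j) (m := ∞) (by simp)).contDiffAt
      ((g.isOpen_dom i j).mem_nhds hi)).differentiableAt (by simp)
  have h0 : HasFDerivAt (η.η i) (fderiv ℝ (η.η i) (loc C C' g.f i j z)) (loc C C' g.f i j z) :=
    (F1dAt η (g.loc_mem hi)).hasFDerivAt
  have h1 : HasFDerivAt (fun y => η.η i (loc C C' g.f i j y))
      ((fderiv ℝ (η.η i) (loc C C' g.f i j z)).comp (fderiv ℝ (loc C C' g.f i j) z)) z :=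
    HasFDerivAt.comp (g := η.η i) (f := loc C C' g.f i j) z h0 (g.diff_loc hi).hasFDerivAt
  have h2 := h1.clm_comp hφ2.hasFDerivAt
  rw [e1.fderiv_eq, h2.fderiv, g.pull_w w hi, h i _ (g.loc_mem hi)]
  have hs := symm2 hφ u v
  simp only [add_apply, ContinuousLinearMap.comp_apply,
    ContinuousLinearMap.compL_apply, ContinuousLinearMap.flip_apply]
  rw [hs]
  ring

theorem ex_pull {w : F2 C} (h : Ex w) : Ex (g.pull w) := by
  obtain ⟨η, hη⟩ := h
  exact ⟨g.pull1 η, g.isD_pull hη⟩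

/-! ### identity and composition -/

/-- the identity, possibly between two compatible systems of charts -/
def ofCmp {C₁ : RCh V X} {C₂ : RCh V' X} (h : Cmp C₁ C₂) : SMap C₂ C₁ where
  f := id
  cont := continuous_id
  sm i j := h.s i j

/-- the identity -/
def id (C : RCh V X) : SMap C C where
  f := _root_.id
  cont := continuous_id
  sm i j := C.sm j i

theorem loc_comp (h : SMap C'' C') {i : C.ι} {j : C'.ι} {k : C''.ι} {z : V''}
    (hz : z ∈ dom C' C'' h.f j k) :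
    loc C C'' (g.f ∘ h.f) i k z = loc C C' g.f i j (loc C' C'' h.f j k z) := by
  show C.e i (g.f (h.f ((C''.e k).symm z))) = C.e i (g.f ((C'.e j).symm (loc C' C'' h.f j k z)))
  rw [h.symm_loc hz]

theorem dom_comp (h : SMap C'' C') {i : C.ι} {j : C'.ι} {k : C''.ι} {z : V''}
    (hz : z ∈ dom C' C'' h.f j k) (hz' : z ∈ dom C C'' (g.f ∘ h.f) i k) :
    loc C' C'' h.f j k z ∈ dom C C' g.f i j := by
  refine ⟨h.loc_mem hz, ?_⟩
  rw [h.symm_loc hz]
  exact hz'.2

/-- composition -/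
def comp (h : SMap C'' C') : SMap C'' C where
  f := g.f ∘ h.f
  cont := g.cont.comp h.cont
  sm i k := by
    intro z hz
    obtain ⟨j, hj⟩ := h.exists_dom hz.1
    have h1 : ContDiffAt ℝ ∞ (loc C C' g.f i j ∘ loc C' C'' h.f j k) z :=
      (g.contDiffAt_loc (g.dom_comp h hj hz)).comp z (h.contDiffAt_loc hj)
    refine (h1.congr_of_eventuallyEq ?_).contDiffWithinAt
    filter_upwards [(h.isOpen_dom j k).mem_nhds hj] with y hy using g.loc_comp h hy

theorem dloc_comp (h : SMap C'' C') {i : C.ι} {j : C'.ι} {k : C''.ι} {z : V''}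
    (hz : z ∈ dom C' C'' h.f j k) (hz' : z ∈ dom C C'' (g.f ∘ h.f) i k) (v : V'') :
    fderiv ℝ (loc C C'' (g.f ∘ h.f) i k) z v =
      fderiv ℝ (loc C C' g.f i j) (loc C' C'' h.f j k z) (fderiv ℝ (loc C' C'' h.f j k) z v) := by
  have h1 : loc C C'' (g.f ∘ h.f) i k =ᶠ[𝓝 z] loc C C' g.f i j ∘ loc C' C'' h.f j k := by
    filter_upwards [(h.isOpen_dom j k).mem_nhds hz] with y hy using g.loc_comp h hy
  rw [h1.fderiv_eq, fderiv_comp z (g.diff_loc (g.dom_comp h hz hz')) (h.diff_loc hz)]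
  rfl

end SMap

/-- the forms agree on the targets -/
def Eqv (w w' : F2 C) : Prop := ∀ i, ∀ z ∈ (C.e i).target, ∀ u v, w.w i z u v = w'.w i z u v

theorem Eqv.refl (w : F2 C) : Eqv w w := fun _ _ _ _ _ => rfl

theorem Eqv.symm {w w' : F2 C} (h : Eqv w w') : Eqv w' w := fun i z hz u v => (h i z hz u v).symm

theorem Eqv.trans {w w' w'' : F2 C} (h : Eqv w w') (h' : Eqv w' w'') : Eqv w w'' :=
  fun i z hz u v => (h i z hz u v).trans (h' i z hz u v)

theorem Eqv.ex {w w' : F2 C} (h : Eqv w w') (he : Ex w) : Ex w' := by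
  obtain ⟨η, hη⟩ := he
  exact ⟨η, fun i z hz u v => by rw [← h i z hz u v]; exact hη i z hz u v⟩

theorem Eqv.pull {w w' : F2 C} (h : Eqv w w') (g : SMap C' C) : Eqv (g.pull w) (g.pull w') := by
  intro j z hz u v
  obtain ⟨i, hi⟩ := g.exists_dom hz
  rw [g.pull_w w hi, g.pull_w w' hi, h i _ (g.loc_mem hi)]

theorem pull_comp (g : SMap C' C) (h : SMap C'' C') (w : F2 C) :
    Eqv ((g.comp h).pull w) (h.pull (g.pull w)) := by
  intro k z hz u v
  obtain ⟨j, hj⟩ := h.exists_dom hz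
  obtain ⟨i, hi⟩ := (g.comp h).exists_dom hz
  have hi' : z ∈ dom C C'' (g.f ∘ h.f) i k := hi
  rw [(g.comp h).pull_w w hi, h.pull_w (g.pull w) hj, g.pull_w w (g.dom_comp h hj hi')]
  show w.w i (loc C C'' (g.f ∘ h.f) i k z) (fderiv ℝ (loc C C'' (g.f ∘ h.f) i k) z u)
    (fderiv ℝ (loc C C'' (g.f ∘ h.f) i k) z v) = _
  rw [g.dloc_comp h hj hi', g.dloc_comp h hj hi', g.loc_comp h hj]

theorem pull_id (w : F2 C) : Eqv ((SMap.id C).pull w) w := by
  intro j z hz u v
  have hj : z ∈ dom C C (SMap.id C).f j j := ⟨hz, (C.e j).map_target hz⟩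
  rw [(SMap.id C).pull_w w hj]
  have h1 : loc C C (SMap.id C).f j j =ᶠ[𝓝 z] _root_.id := by
    filter_upwards [(C.e j).open_target.mem_nhds hz] with y hy
    exact (C.e j).right_inv hy
  have h2 : loc C C (SMap.id C).f j j z = z := (C.e j).right_inv hz
  rw [h1.fderiv_eq, h2]
  simp

end

end Crest.Agent.R281.Dif_268
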