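import Crest.Agent.R281.Nef1_252
import Crest.Agent.R281.Dif1_268

/-!
# Row 281, G9 BOX (second owner helper557), part 1: derivatives of jointly smooth families

* `SmF T w`, `SmJ T J`, `SmHk T H` : jointly smooth families with parameter in `T`
* `dF`       : the derivative of a jointly smooth family of closed 2-forms is such a family
* `dF_inv`   : **Lemma D**: along a family of hyperkaehler triples with one complex structure
               fixed and the two other forms multiplied by `r p`, the derivative of `om k / r` is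
               invariant under all complex structures of the triple
-/

set_option autoImplicit false
set_option maxSynthPendingDepth 3
set_option linter.unusedSectionVars false

open Set Filter Topology
open scoped ContDiff

namespace Crest.Agent.R281.Bx_557

open Crest.Agent.R260.ACM_580 Crest.Agent.R281.HkR_835 Crest.Agent.R281.Ti_846
open Crest.Agent.R281.NefO_476 Crest.Agent.R281.Nef_252 Crest.Agent.R281.Dif_268

noncomputable section

variable {V X : Type} [NormedAddCommGroup V] [NormedSpace ℝ V] [TopologicalSpace X]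
  {C : RCh V X} {E : Type} [NormedAddCommGroup E] [NormedSpace ℝ E]

/-- jointly smooth families of closed 2-forms -/
def SmF (T : Set E) (w : E → F2 C) : Prop :=
  ∀ i, ContDiffOn ℝ ∞ (fun q : E × V => (w q.1).w i q.2) (T ×ˢ (C.e i).target)

/-- jointly smooth families of endomorphism fields -/
def SmJ (T : Set E) (J : E → AJ C) : Prop :=
  ∀ i, ContDiffOn ℝ ∞ (fun q : E × V => (J q.1).J i q.2) (T ×ˢ (C.e i).target)

/-- jointly smooth families of hyperkaehler triples -/
structure SmHk (T : Set E) (H : E → HkT C) : Prop where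
  om : ∀ k, SmF T fun p => (H p).om k
  J : ∀ k, SmJ T fun p => ofHk (H p) k

section param

variable {G : Type*} [NormedAddCommGroup G] [NormedSpace ℝ G]

/-- the derivative with respect to the parameter -/
theorem hasFDerivAt_p {F : E × V → G} {S : Set (E × V)} (hS : IsOpen S)
    (hF : ContDiffOn ℝ ∞ F S) {p : E} {z : V} (h : (p, z) ∈ S) :
    HasFDerivAt (fun p' => F (p', z))
      ((fderiv ℝ F (p, z)).comp (ContinuousLinearMap.inl ℝ E V)) p := by
  have h1 : HasFDerivAt F (fderiv ℝ F (p, z)) (p, z) :=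
    ((hF.contDiffAt (hS.mem_nhds h)).differentiableAt (by simp)).hasFDerivAt
  exact HasFDerivAt.comp (g := F) (f := fun p' : E => (p', z)) p h1 (hasFDerivAt_prodMk_left p z)

/-- the derivative with respect to the point -/
theorem hasFDerivAt_z {F : E × V → G} {S : Set (E × V)} (hS : IsOpen S)
    (hF : ContDiffOn ℝ ∞ F S) {p : E} {z : V} (h : (p, z) ∈ S) :
    HasFDerivAt (fun z' => F (p, z'))
      ((fderiv ℝ F (p, z)).comp (ContinuousLinearMap.inr ℝ E V)) z := by
  have h1 : HasFDerivAt F (fderiv ℝ F (p, z)) (p, z) :=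
    ((hF.contDiffAt (hS.mem_nhds h)).differentiableAt (by simp)).hasFDerivAt
  exact HasFDerivAt.comp (g := F) (f := fun z' : V => (p, z')) z h1 (hasFDerivAt_prodMk_right p z)

/-- the mixed derivatives -/
theorem mixed {F : E × V → G} {S : Set (E × V)} (hS : IsOpen S)
    (hF : ContDiffOn ℝ ∞ F S) {p : E} {z : V} (h : (p, z) ∈ S) (v : E) (a : V) :
    HasFDerivAt (fun z' => fderiv ℝ F (p, z') (v, 0))
      (((ContinuousLinearMap.apply ℝ G ((v, 0) : E × V)).comp
        (fderiv ℝ (fderiv ℝ F) (p, z))).comp (ContinuousLinearMap.inr ℝ E V)) z ∧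
    HasFDerivAt (fun p' => fderiv ℝ F (p', z) (0, a))
      (((ContinuousLinearMap.apply ℝ G ((0, a) : E × V)).comp
        (fderiv ℝ (fderiv ℝ F) (p, z))).comp (ContinuousLinearMap.inl ℝ E V)) p ∧
    fderiv ℝ (fderiv ℝ F) (p, z) (0, a) (v, 0) = fderiv ℝ (fderiv ℝ F) (p, z) (v, 0) (0, a) := by
  have hF' : ContDiffOn ℝ ∞ (fderiv ℝ F) S := hF.fderiv_of_isOpen hS (by simp)
  refine ⟨?_, ?_, ?_⟩
  · exact (ContinuousLinearMap.apply ℝ G ((v, 0) : E × V)).hasFDerivAt.comp z
      (hasFDerivAt_z hS hF' h)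
  · exact (ContinuousLinearMap.apply ℝ G ((0, a) : E × V)).hasFDerivAt.comp p
      (hasFDerivAt_p hS hF' h)
  · exact ((hF.contDiffAt (hS.mem_nhds h)).isSymmSndFDerivAt (by
      rw [minSmoothness_of_isRCLikeNormedField]; exact WithTop.coe_le_coe.2 le_top)) _ _

end param

theorem isOpen_TU {T : Set E} (hT : IsOpen T) (i : C.ι) : IsOpen (T ×ˢ (C.e i).target) :=
  hT.prod (C.e i).open_target

/-- the coefficient of the derivative -/
def dw (w : E → F2 C) (v : E) (p : E) (i : C.ι) (z : V) : Bil V :=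
  fderiv ℝ (fun q : E × V => (w q.1).w i q.2) (p, z) (v, 0)

theorem dw_has {T : Set E} (hT : IsOpen T) {w : E → F2 C} (hw : SmF T w) {p : E} (hp : p ∈ T)
    {i : C.ι} {z : V} (hz : z ∈ (C.e i).target) (a b : V) :
    HasFDerivAt (fun p' => (w p').w i z a b)
      (((ContinuousLinearMap.apply ℝ ℝ b).comp (ContinuousLinearMap.apply ℝ (V →L[ℝ] ℝ) a)).comp
        ((fderiv ℝ (fun q : E × V => (w q.1).w i q.2) (p, z)).comp
          (ContinuousLinearMap.inl ℝ E V))) p :=
  ((ContinuousLinearMap.apply ℝ ℝ b).comp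
    (ContinuousLinearMap.apply ℝ (V →L[ℝ] ℝ) a)).hasFDerivAt.comp p
    (hasFDerivAt_p (isOpen_TU hT i) (hw i) ⟨hp, hz⟩)

/-- the derivative in the direction `v` -/
theorem fderiv_w {T : Set E} (hT : IsOpen T) {w : E → F2 C} (hw : SmF T w) {p : E} (hp : p ∈ T)
    {i : C.ι} {z : V} (hz : z ∈ (C.e i).target) (v : E) (a b : V) :
    fderiv ℝ (fun p' => (w p').w i z a b) p v = dw w v p i z a b := by
  rw [(dw_has hT hw hp hz a b).fderiv]
  simp [dw]

/-- the derivative of a jointly smooth family of closed 2-forms, at a parameter in `T` -/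
def dF0 (T : Set E) (hT : IsOpen T) (w : E → F2 C) (hw : SmF T w) (v p : E) (hp : p ∈ T) :
    F2 C where
  w := dw w v p
  sm i := by
    have h1 : ContDiffOn ℝ ∞ (fderiv ℝ fun q : E × V => (w q.1).w i q.2)
        (T ×ˢ (C.e i).target) := (hw i).fderiv_of_isOpen (isOpen_TU hT i) (by simp)
    have h2 : ContDiffOn ℝ ∞ (fun z : V => (p, z)) (C.e i).target :=
      (contDiff_prodMk_right p).contDiffOn
    exact (h1.comp h2 fun z hz => ⟨hp, hz⟩).clm_apply contDiffOn_const
  alt i z hz a b := by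
    rw [← fderiv_w hT hw hp hz, ← fderiv_w hT hw hp hz]
    have h : (fun p' => (w p').w i z a b) = fun p' => -(w p').w i z b a :=
      funext fun p' => (w p').alt i z hz a b
    rw [h, fderiv_fun_neg]
    rfl
  tr i j z hz a b := by
    rw [← fderiv_w hT hw hp hz.1, ← fderiv_w hT hw hp (RCh.t_mem hz).1]
    have h : (fun p' => (w p').w i z a b) = fun p' => (w p').w j (C.t i j z)
        (fderiv ℝ (C.t i j) z a) (fderiv ℝ (C.t i j) z b) :=
      funext fun p' => (w p').tr i j z hz a b
    rw [h]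
  closed i z hz a b c := by
    set F : E × V → Bil V := fun q => (w q.1).w i q.2 with hFd
    have hS := isOpen_TU (C := C) hT i
    have hpz : (p, z) ∈ T ×ˢ (C.e i).target := ⟨hp, hz⟩
    have key : ∀ a b c : V, fderiv ℝ (dw w v p i) z a b c =
        fderiv ℝ (fun p' => fderiv ℝ ((w p').w i) z a b c) p v := by
      intro a b c
      obtain ⟨h1, h2, h3⟩ := mixed hS (hw i) hpz v a
      have e1 : fderiv ℝ (dw w v p i) z a = fderiv ℝ (fderiv ℝ F) (p, z) (0, a) (v, 0) := by
        have : dw w v p i = fun z' => fderiv ℝ F (p, z') (v, 0) := rfl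
        rw [this, h1.fderiv]
        simp [hFd]
      have e2 : HasFDerivAt (fun p' => fderiv ℝ F (p', z) (0, a) b c)
          (((ContinuousLinearMap.apply ℝ ℝ c).comp
            (ContinuousLinearMap.apply ℝ (V →L[ℝ] ℝ) b)).comp
            (((ContinuousLinearMap.apply ℝ (Bil V) ((0, a) : E × V)).comp
              (fderiv ℝ (fderiv ℝ F) (p, z))).comp (ContinuousLinearMap.inl ℝ E V))) p :=
        ((ContinuousLinearMap.apply ℝ ℝ c).comp
          (ContinuousLinearMap.apply ℝ (V →L[ℝ] ℝ) b)).hasFDerivAt.comp p h2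
      have e3 : (fun p' => fderiv ℝ ((w p').w i) z a b c) =ᶠ[𝓝 p]
          fun p' => fderiv ℝ F (p', z) (0, a) b c := by
        filter_upwards [hT.mem_nhds hp] with p' hp'
        have := (hasFDerivAt_z hS (hw i) (show (p', z) ∈ T ×ˢ (C.e i).target from ⟨hp', hz⟩)).fderiv
        have h4 : (fun z' => F (p', z')) = (w p').w i := rfl
        rw [h4] at this
        rw [this]
        simp [hFd]
      rw [e3.fderiv_eq, e2.fderiv, e1, h3]
      simp [hFd]
    rw [key, key, key]
    have hd : ∀ a b c : V, DifferentiableAt ℝ (fun p' => fderiv ℝ ((w p').w i) z a b c) p := by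
      intro a b c
      obtain ⟨h1, h2, h3⟩ := mixed hS (hw i) hpz v a
      have e2 := (((ContinuousLinearMap.apply ℝ ℝ c).comp
          (ContinuousLinearMap.apply ℝ (V →L[ℝ] ℝ) b)).hasFDerivAt.comp p h2).differentiableAt
      refine e2.congr_of_eventuallyEq ?_
      filter_upwards [hT.mem_nhds hp] with p' hp'
      have := (hasFDerivAt_z hS (hw i) (show (p', z) ∈ T ×ˢ (C.e i).target from ⟨hp', hz⟩)).fderiv
      have h4 : (fun z' => F (p', z')) = (w p').w i := rfl
      rw [h4] at this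
      rw [this]
      simp
    have h0 : (fun p' => fderiv ℝ ((w p').w i) z a b c + fderiv ℝ ((w p').w i) z b c a +
        fderiv ℝ ((w p').w i) z c a b) = fun _ => 0 :=
      funext fun p' => (w p').closed i z hz a b c
    have h5 := (((hd a b c).hasFDerivAt.add (hd b c a).hasFDerivAt).add
      (hd c a b).hasFDerivAt).fderiv
    have h6 : ((fun p' => fderiv ℝ ((w p').w i) z a b c) + fun p' => fderiv ℝ ((w p').w i) z b c a) +
        (fun p' => fderiv ℝ ((w p').w i) z c a b) = fun _ => 0 := h0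
    rw [h6] at h5
    have h7 := congrArg (fun L : E →L[ℝ] ℝ => L v) h5
    simpa using h7.symm

open Classical in
/-- the derivative of a jointly smooth family of closed 2-forms -/
def dF (T : Set E) (hT : IsOpen T) (w : E → F2 C) (hw : SmF T w) (v p : E) : F2 C :=
  if hp : p ∈ T then dF0 T hT w hw v p hp else 0

theorem dF_w {T : Set E} {hT : IsOpen T} {w : E → F2 C} {hw : SmF T w} {v p : E} (hp : p ∈ T)
    (i : C.ι) (z : V) : (dF T hT w hw v p).w i z = dw w v p i z := by
  unfold dF
  rw [dif_pos hp]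
  rfl

theorem dF_sm {T : Set E} (hT : IsOpen T) {w : E → F2 C} (hw : SmF T w) (v : E) :
    SmF T (dF T hT w hw v) := by
  intro i
  have h1 : ContDiffOn ℝ ∞ (fderiv ℝ fun q : E × V => (w q.1).w i q.2)
      (T ×ˢ (C.e i).target) := (hw i).fderiv_of_isOpen (isOpen_TU hT i) (by simp)
  refine (h1.clm_apply (contDiffOn_const (c := ((v, 0) : E × V)))).congr fun q hq => ?_
  rw [dF_w hq.1]
  rfl

/-- `T11` for a fixed structure passes to the derivative -/
theorem dF_T11 {T : Set E} (hT : IsOpen T) {w : E → F2 C} (hw : SmF T w) {J : AJ C}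
    (h : ∀ p ∈ T, T11 J (w p)) (v : E) {p : E} (hp : p ∈ T) : T11 J (dF T hT w hw v p) := by
  intro i z hz a b
  rw [dF_w hp, ← fderiv_w hT hw hp hz, ← fderiv_w hT hw hp hz]
  have e : (fun p' => (w p').w i z (J.J i z a) (J.J i z b)) =ᶠ[𝓝 p]
      fun p' => (w p').w i z a b := by
    filter_upwards [hT.mem_nhds hp] with p' hp' using h p' hp' i z hz a b
  rw [e.fderiv_eq]

/-! ### Lemma D -/

theorem SmF.smul {T : Set E} {w : E → F2 C} (hw : SmF T w) {r : E → ℝ}
    (hr : ContDiffOn ℝ ∞ r T) : SmF T fun p => r p • w p := fun i =>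
  ContDiffOn.smul (hr.comp contDiff_fst.contDiffOn fun _ hq => hq.1) (hw i)

theorem SmF.add {T : Set E} {w w' : E → F2 C} (hw : SmF T w) (hw' : SmF T w') :
    SmF T fun p => w p + w' p := fun i => (hw i).add (hw' i)

theorem SmF.const (T : Set E) (w : F2 C) : SmF T fun _ : E => w := fun i =>
  (w.sm i).comp contDiff_snd.contDiffOn fun _ hq => hq.2

theorem SmF.congr {T : Set E} {w w' : E → F2 C} (hw : SmF T w)
    (h : ∀ p ∈ T, Eqv (w' p) (w p)) : SmF T w' := fun i =>
  (hw i).congr fun q hq => by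
    ext a b
    exact h q.1 hq.1 i q.2 hq.2 a b

theorem SmF.mono {T T' : Set E} {w : E → F2 C} (hw : SmF T w) (h : T' ⊆ T) : SmF T' w :=
  fun i => (hw i).mono (prod_mono h Subset.rfl)

/-- pointwise algebra: `b (J u, v) = ε m (u, v)` along a family -/
theorem ptD {T : Set E} (hT : IsOpen T) {p : E} (hp : p ∈ T) {b : Bil V}
    (hb : ∀ u v, b u v = -b v u) {J : E → V →L[ℝ] V} {m : E → Bil V} {J' : E →L[ℝ] V →L[ℝ] V}
    {m' : E →L[ℝ] Bil V} (hJ : HasFDerivAt J J' p) (hm : HasFDerivAt m m' p) {ε : ℝ}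
    (hε : ε * ε = 1) (h1 : ∀ p ∈ T, ∀ u v, b (J p u) v = ε * m p u v)
    (h2 : ∀ p ∈ T, ∀ u, J p (J p u) = -u) (h3 : ∀ u v, m p u v = -m p v u) (s : E) (u v : V) :
    m' s (J p u) (J p v) = m' s u v := by
  have e1 : ∀ u v, b (J' s u) v = ε * m' s u v := by
    intro u v
    have k1 : (fun p' => b (J p' u) v) =ᶠ[𝓝 p] fun p' => ε * m p' u v := by
      filter_upwards [hT.mem_nhds hp] with p' hp' using h1 p' hp' u v
    have k2 : HasFDerivAt (fun p' => b (J p' u) v)
        ((((ContinuousLinearMap.apply ℝ ℝ v).comp b).comp (ContinuousLinearMap.apply ℝ V u)).comp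
          J') p :=
      (((ContinuousLinearMap.apply ℝ ℝ v).comp b).comp
        (ContinuousLinearMap.apply ℝ V u)).hasFDerivAt.comp p hJ
    have k3 : HasFDerivAt (fun p' => ε * m p' u v)
        (ε • (((ContinuousLinearMap.apply ℝ ℝ v).comp
          (ContinuousLinearMap.apply ℝ (V →L[ℝ] ℝ) u)).comp m')) p :=
      (((ContinuousLinearMap.apply ℝ ℝ v).comp
          (ContinuousLinearMap.apply ℝ (V →L[ℝ] ℝ) u)).hasFDerivAt.comp p hm).const_mul ε
    have k4 := k1.fderiv_eq (𝕜 := ℝ)
    rw [k2.fderiv, k3.fderiv] at k4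
    have k5 := congrArg (fun L : E →L[ℝ] ℝ => L s) k4
    simpa using k5
  have e2 : ∀ u, J' s (J p u) = -J p (J' s u) := by
    intro u
    have k1 : (fun p' => J p' (J p' u)) =ᶠ[𝓝 p] fun _ => -u := by
      filter_upwards [hT.mem_nhds hp] with p' hp' using h2 p' hp' u
    have k2 : HasFDerivAt (fun p' => J p' u) _ p := hJ.clm_apply (hasFDerivAt_const u p)
    have k3 := (hJ.clm_apply k2).fderiv
    rw [k1.fderiv_eq] at k3
    have k4 := congrArg (fun L : E →L[ℝ] V => L s) k3
    simp at k4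
    rw [eq_neg_iff_add_eq_zero, add_comm]
    exact k4.symm
  have e3 : ∀ a c, b (J p a) (J p c) = -b a c := by
    intro a c
    have k1 := h1 p hp a (J p c)
    have k2 := h1 p hp (J p c) a
    rw [h2 p hp, map_neg, neg_apply] at k2
    rw [h3 a (J p c)] at k1
    have k3 := hb c a
    linarith
  have e4 : ∀ u v, m' s u v = ε * b (J' s u) v := by
    intro u v
    rw [e1, ← mul_assoc, hε, one_mul]
  rw [e4, e4, e2, map_neg, neg_apply, e3, neg_neg]

/-- **Lemma D** -/
theorem dF_inv {T : Set E} (hT : IsOpen T) {H : E → HkT C} (hH : SmHk T H) {k : Fin 3}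
    {J0 : AJ C} (hJ0 : ∀ p ∈ T, ∀ i, ∀ z ∈ (C.e i).target, ∀ u, (H p).J k i z u = J0.J i z u)
    {B : Fin 3 → F2 C} {r : E → ℝ} (hr0 : ∀ p ∈ T, 0 < r p)
    (hB : ∀ p ∈ T, ∀ l, l ≠ k → Eqv ((H p).om l) (r p • B l))
    (hm : SmF T fun p => (r p)⁻¹ • (H p).om k) (s : E) {p : E} (hp : p ∈ T) (l : Fin 3) :
    T11 (ofHk (H p) l) (dF T hT (fun p => (r p)⁻¹ • (H p).om k) hm s p) := by
  by_cases hlk : l = k
  · subst hlk
    have h1 : T11 J0 (dF T hT (fun p => (r p)⁻¹ • (H p).om l) hm s p) := by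
      refine dF_T11 hT hm (fun p' hp' => ?_) s hp
      refine T11.smul _ fun i z hz u v => ?_
      rw [← hJ0 p' hp' i z hz, ← hJ0 p' hp' i z hz]
      exact T11_hk (H p') l i z hz u v
    intro i z hz u v
    have := h1 i z hz u v
    rw [← hJ0 p hp i z hz, ← hJ0 p hp i z hz] at this
    exact this
  · obtain ⟨n, hnk, ε, hε, hrel⟩ : ∃ n, n ≠ k ∧ ∃ ε : ℝ, ε * ε = 1 ∧ ∀ (H : HkT C) (i : C.ι)
        (z : V), z ∈ (C.e i).target → ∀ u v,
          (H.om n).w i z (H.J l i z u) v = ε * (H.om k).w i z u v := by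
      obtain ⟨a, b, hab⟩ := HkT.exists_cyc l
      have hcase : k = a ∨ k = b := by
        simp only [Prod.mk.injEq] at hab
        rcases hab with ⟨rfl, rfl, rfl⟩ | ⟨rfl, rfl, rfl⟩ | ⟨rfl, rfl, rfl⟩ <;>
          · revert hlk
            fin_cases k <;> simp
      rcases hcase with rfl | rfl
      · refine ⟨b, ?_, 1, by norm_num, fun H i z hz u v => ?_⟩
        · simp only [Prod.mk.injEq] at hab
          rcases hab with ⟨rfl, rfl, rfl⟩ | ⟨rfl, rfl, rfl⟩ | ⟨rfl, rfl, rfl⟩ <;> decide
        · rw [one_mul]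
          exact (H.om_J hab hz u v).2
      · refine ⟨a, ?_, -1, by norm_num, fun H i z hz u v => ?_⟩
        · simp only [Prod.mk.injEq] at hab
          rcases hab with ⟨rfl, rfl, rfl⟩ | ⟨rfl, rfl, rfl⟩ | ⟨rfl, rfl, rfl⟩ <;> decide
        · rw [neg_one_mul]
          exact (H.om_J hab hz u v).1
    intro i z hz u v
    rw [dF_w hp]
    have hJ := hasFDerivAt_p (isOpen_TU hT i) (hH.J l i)
      (show (p, z) ∈ T ×ˢ (C.e i).target from ⟨hp, hz⟩)
    have hm' := hasFDerivAt_p (isOpen_TU hT i) (hm i)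
      (show (p, z) ∈ T ×ˢ (C.e i).target from ⟨hp, hz⟩)
    have key := ptD hT hp (b := (B n).w i z) (fun u v => (B n).alt i z hz u v) hJ hm' hε
      (fun p' hp' u v => ?_) (fun p' hp' u => (H p').J_sq l i z hz u)
      (fun u v => ((r p)⁻¹ • (H p).om k).alt i z hz u v) s u v
    · simpa [dw] using key
    · have e1 := hrel (H p') i z hz u v
      have e2 := hB p' hp' n hnk i z hz ((H p').J l i z u) v
      rw [e2] at e1
      have e3 : (r p' • B n).w i z ((H p').J l i z u) v = r p' * (B n).w i z ((H p').J l i z u) v :=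
        rfl
      rw [e3] at e1
      show (B n).w i z ((H p').J l i z u) v = ε * ((r p')⁻¹ * ((H p').om k).w i z u v)
      have h0 := (hr0 p' hp').ne'
      field_simp
      linarith

end

end Crest.Agent.R281.Bx_557
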