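import Crest.Agent.R281.HkR6_835
import Crest.Agent.R281.HkP2_508

/-!
# Row 281, HK-ROT, part 7 (helper835): holomorphic 2-forms and real 2-forms

* `ClH σ`    : the holomorphic 2-form `σ : H2 A` is closed (the conclusion of `closed_of_par`)
* `f2H σ` : the closed real 2-form `Re σ`, `ω(u, v) = Re ∑ s_ab u_a v_b`
* `csm c σ`  : `c σ`; `Im σ = Re (-i σ)`
* `F2.h20`   : two closed real 2-forms `w1`, `w2` with `w1 (i u, v) = - w2 (u, v)` form a closed
               holomorphic 2-form
-/

set_option autoImplicit false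
set_option linter.unusedSectionVars false

open Set Filter Topology Complex
open scoped ContDiff Matrix ComplexConjugate ComplexOrder InnerProductSpace

namespace Crest.Agent.R281.HkR_835

open Crest.Agent.R275.Geo Crest.Agent.R275.Core144 Crest.Agent.R275.EDR890
open Crest.Agent.R273.Kah_333 Crest.Agent.R273.Hess_333 Crest.Agent.R281.Defs_273
open Crest.Agent.R281.HkP1_508 Crest.Agent.R281.HkP2_508

noncomputable section

variable {d : ℕ} {X : Type} [TopologicalSpace X] {A : Atl d X}

/-- the holomorphic 2-form is closed -/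
def ClH (σ : H2 A) : Prop := ∀ i, ∀ z ∈ (A.e i).target, ∀ a b c,
  wd (false, c) (fun w => sl σ i w a b) z + wd (false, a) (fun w => sl σ i w b c) z +
    wd (false, b) (fun w => sl σ i w c a) z = 0

/-- multiples -/
def csm (c : ℂ) (σ : H2 A) : H2 A where
  s i x := c • σ.s i x
  hol i a b := (σ.hol i a b).const_mul c
  alt i x hx := by rw [Matrix.transpose_smul, σ.alt i x hx, smul_neg]
  tr i j x hx := by rw [σ.tr i j x hx, Matrix.mul_smul, Matrix.smul_mul]

theorem csm_cl {σ : H2 A} (h : ClH σ) (c : ℂ) : ClH (csm c σ) := by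
  intro i z hz a b e
  have hd : ∀ a b, DifferentiableAt ℝ (fun w => sl σ i w a b) z := fun a b =>
    (sl_hol σ i).diff (A.e i).open_target hz a b
  have h1 : ∀ s a b, wd s (fun w => sl (csm c σ) i w a b) z = c • wd s (fun w => sl σ i w a b) z :=
    fun s a b => wd_const_smul c (hd a b) s
  rw [h1, h1, h1, ← smul_add, ← smul_add, h i z hz a b e, smul_zero]

/-- the derivative of a holomorphic matrix -/
theorem fderiv_hol {G : Cn d → Matrix (Fin d) (Fin d) ℂ} {z : Cn d}
    (hd : ∀ a b, DifferentiableAt ℂ (fun w => G w a b) z) (a : Cn d) (p q : Fin d) :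
    fderiv ℝ (fun w => G w p q) z a = ∑ c, a c * wd (false, c) (fun w => G w p q) z := by
  have h1 : ∀ v : Cn d, fderiv ℝ (fun w => G w p q) z (I • v) =
      I * fderiv ℝ (fun w => G w p q) z v := by
    intro v
    rw [(hd p q).fderiv_restrictScalars ℝ]
    exact map_smul (fderiv ℂ (fun w => G w p q) z) I v
  have h2 := wdL_vec false (fderiv ℝ (fun w => G w p q) z) a
  rw [h1, cI_false, smul_eq_mul, smul_eq_mul] at h2
  have h3 : (1 / 2 : ℂ) * (fderiv ℝ (fun w => G w p q) z a +
      -I * (I * fderiv ℝ (fun w => G w p q) z a)) = fderiv ℝ (fun w => G w p q) z a := by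
    linear_combination (-(1 / 2 : ℂ) * fderiv ℝ (fun w => G w p q) z a) * I_mul_I
  rw [h3] at h2
  rw [h2]
  rfl

theorem fderiv_hol_I {f : Cn d → ℂ} {z : Cn d} (hd : DifferentiableAt ℂ f z) (v : Cn d) :
    fderiv ℝ f z (I • v) = I * fderiv ℝ f z v := by
  rw [hd.fderiv_restrictScalars ℝ]
  exact map_smul (fderiv ℂ f z) I v

/-- trilinear expression -/
def s3 (t : Fin d → Matrix (Fin d) (Fin d) ℂ) (a u v : Cn d) : ℂ := ∑ c, a c * sb (t c) u v

theorem s3_cyc {t : Fin d → Matrix (Fin d) (Fin d) ℂ}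
    (ht : ∀ a b c, t c a b + t a b c + t b c a = 0) (a u v : Cn d) :
    s3 t a u v + s3 t u v a + s3 t v a u = 0 := by
  have h0 : s3 t a u v = ∑ c, ∑ p, ∑ q, t c p q * (a c * u p * v q) := by
    simp only [s3, sb, Finset.mul_sum]
    exact Finset.sum_congr rfl fun c _ => Finset.sum_congr rfl fun p _ =>
      Finset.sum_congr rfl fun q _ => by ring
  have h1 : s3 t u v a = ∑ c, ∑ p, ∑ q, t p q c * (a c * u p * v q) := by
    have : s3 t u v a = ∑ p, ∑ q, ∑ c, t p q c * (a c * u p * v q) := by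
      simp only [s3, sb, Finset.mul_sum]
      exact Finset.sum_congr rfl fun c _ => Finset.sum_congr rfl fun p _ =>
        Finset.sum_congr rfl fun q _ => by ring
    rw [this, Finset.sum_comm]
    have h2 : ∀ q, ∑ p, ∑ c, t p q c * (a c * u p * v q) = ∑ c, ∑ p, t p q c * (a c * u p * v q) :=
      fun q => Finset.sum_comm
    simp only [h2]
    rw [Finset.sum_comm]
    exact Finset.sum_congr rfl fun c _ => Finset.sum_comm
  have h2 : s3 t v a u = ∑ c, ∑ p, ∑ q, t q c p * (a c * u p * v q) := by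
    have : s3 t v a u = ∑ q, ∑ c, ∑ p, t q c p * (a c * u p * v q) := by
      simp only [s3, sb, Finset.mul_sum]
      exact Finset.sum_congr rfl fun c _ => Finset.sum_congr rfl fun p _ =>
        Finset.sum_congr rfl fun q _ => by ring
    rw [this, Finset.sum_comm]
    exact Finset.sum_congr rfl fun c _ => Finset.sum_comm
  rw [h0, h1, h2, ← Finset.sum_add_distrib, ← Finset.sum_add_distrib]
  refine Finset.sum_eq_zero fun c _ => ?_
  rw [← Finset.sum_add_distrib, ← Finset.sum_add_distrib]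
  refine Finset.sum_eq_zero fun p _ => ?_
  rw [← Finset.sum_add_distrib, ← Finset.sum_add_distrib]
  refine Finset.sum_eq_zero fun q _ => ?_
  rw [← add_mul, ← add_mul, ht p q c, zero_mul]

theorem sl_smooth (σ : H2 A) (i : A.ι) (a b : Fin d) :
    ContDiffOn ℝ ∞ (fun z => sl σ i z a b) (A.e i).target :=
  fun _ hz => ((sl_hol σ i).smAt (A.e i).open_target hz a b).contDiffWithinAt

/-- the closed real 2-form `Re σ` -/
def f2H (σ : H2 A) (h : ClH σ) : F2 (ofAtl A) where
  w i z := bM (cL.comp (mL (sl σ i z)ᵀ))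
  sm i := bM_smooth (contDiffOn_const.clm_comp (mL_smooth fun a b => sl_smooth σ i b a))
  alt i z hz u v := by
    have h1 : sb (sl σ i z) u v = -sb (sl σ i z) v u :=
      sb_alt (σ.alt i _ ((A.e i).map_target hz)) u v
    rw [bM_cL, bM_cL, h1, Complex.neg_re]
  tr i j z hz u v := by
    have hx : (A.e i).symm z ∈ (A.e i).source ∩ (A.e j).source :=
      ⟨(A.e i).map_target hz.1, hz.2⟩
    have hj : sl σ j ((ofAtl A).t i j z) = σ.s j ((A.e i).symm z) :=
      congrArg (σ.s j) ((A.e j).left_inv hz.2)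
    rw [bM_cL, bM_cL, hj, sb_mulVec (σ.s j ((A.e i).symm z)) (Jm A i j ((A.e i).symm z))
        (ofAtl_dt_vec hz u) (ofAtl_dt_vec hz v), ← σ.tr i j _ hx]
    rfl
  closed i z hz a b c := by
    have hd : ∀ a b, DifferentiableAt ℂ (fun w => sl σ i w a b) z := fun a b =>
      (sl_hol σ i).diffC (A.e i).open_target hz a b
    have hw : DifferentiableAt ℝ (fun z => bM (cL.comp (mL (sl σ i z)ᵀ))) z :=
      (((bM_smooth (contDiffOn_const.clm_comp (mL_smooth fun a b => sl_smooth σ i b a))).contDiffAt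
        ((A.e i).open_target.mem_nhds hz)).differentiableAt (by simp))
    set t : Fin d → Matrix (Fin d) (Fin d) ℂ :=
      fun c => Matrix.of fun p q => wd (false, c) (fun w => sl σ i w p q) z with ht
    have h1 : ∀ a u v, fderiv ℝ (fun z => bM (cL.comp (mL (sl σ i z)ᵀ))) z a u v =
        (s3 t a u v).re := by
      intro a u v
      rw [← fderiv_app hw]
      have e1 : (fun y => bM (cL.comp (mL (sl σ i y)ᵀ)) u v) =
          (Complex.reCLM ∘ fun y => sb (sl σ i y) u v) := by
        funext y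
        exact bM_cL _ u v
      have e2 : HasFDerivAt (fun y => sb (sl σ i y) u v)
          (∑ p, ∑ q, (v q) • (u p) • fderiv ℝ (fun w => sl σ i w p q) z) z := by
        refine HasFDerivAt.fun_sum fun p _ => HasFDerivAt.fun_sum fun q _ => ?_
        exact ((((hd p q).restrictScalars ℝ).hasFDerivAt.mul_const (u p)).mul_const (v q))
      rw [e1, (Complex.reCLM.hasFDerivAt.comp z e2).fderiv]
      show ((∑ p, ∑ q, (v q) • (u p) • fderiv ℝ (fun w => sl σ i w p q) z :
        Cn d →L[ℝ] ℂ) a).re = _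
      congr 1
      simp only [smul_apply, sum_apply, smul_eq_mul, s3, sb]
      have e3 : ∀ p q, fderiv ℝ (fun w => sl σ i w p q) z a = ∑ c, a c * t c p q := fun p q =>
        fderiv_hol hd a p q
      simp only [e3, Finset.mul_sum]
      have e4 : ∀ p, ∑ q, ∑ c, v q * (u p * (a c * t c p q)) =
          ∑ c, ∑ q, v q * (u p * (a c * t c p q)) := fun p => Finset.sum_comm
      simp only [e4]
      rw [Finset.sum_comm]
      exact Finset.sum_congr rfl fun p _ => Finset.sum_congr rfl fun q _ =>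
        Finset.sum_congr rfl fun c _ => by ring
    show fderiv ℝ (fun z => bM (cL.comp (mL (sl σ i z)ᵀ))) z a b c +
      fderiv ℝ (fun z => bM (cL.comp (mL (sl σ i z)ᵀ))) z b c a +
      fderiv ℝ (fun z => bM (cL.comp (mL (sl σ i z)ᵀ))) z c a b = 0
    rw [h1, h1, h1, ← Complex.add_re, ← Complex.add_re,
      s3_cyc (t := t) (fun a b c => h i z hz a b c), Complex.zero_re]

theorem f2H_w (σ : H2 A) (h : ClH σ) (i : A.ι) (z : Cn d) (u v : Cn d) :
    (f2H σ h).w i z u v = (sb (sl σ i z) u v).re := bM_cL _ u v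

theorem sb_smul (c : ℂ) (S : Matrix (Fin d) (Fin d) ℂ) (u v : Cn d) :
    sb (c • S) u v = c * sb S u v := by
  simp only [sb, Matrix.smul_apply, smul_eq_mul, Finset.mul_sum]
  exact Finset.sum_congr rfl fun a _ => Finset.sum_congr rfl fun b _ => by ring

theorem f2H_I_w (σ : H2 A) (h : ClH (csm (-I) σ)) (i : A.ι) (z : Cn d) (u v : Cn d) :
    (f2H (csm (-I) σ) h).w i z u v = (sb (sl σ i z) u v).im := by
  rw [f2H_w]
  have : sl (csm (-I) σ) i z = (-I) • sl σ i z := rfl
  rw [this, sb_smul]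
  simp

/-! ### the converse -/

/-- complex differentiability -/
theorem diffC_of {f : Cn d → ℂ} {z : Cn d} (hd : DifferentiableAt ℝ f z)
    (h : ∀ v, fderiv ℝ f z (I • v) = I * fderiv ℝ f z v) : DifferentiableAt ℂ f z := by
  let L : Cn d →L[ℂ] ℂ := LinearMap.toContinuousLinearMap
    { toFun := fderiv ℝ f z
      map_add' := fun u v => map_add _ u v
      map_smul' := fun c v => by
        have : c • v = c.re • v + c.im • (I • v) := by
          ext a
          simp only [PiLp.smul_apply, PiLp.add_apply, smul_eq_mul, Complex.real_smul]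
          conv_lhs => rw [← Complex.re_add_im c]
          ring
        rw [this, map_add, map_smul, map_smul, h, Complex.real_smul, Complex.real_smul,
          RingHom.id_apply, smul_eq_mul]
        conv_rhs => rw [← Complex.re_add_im c]
        ring }
  exact (hasFDerivAt_of_restrictScalars ℝ (f' := L) hd.hasFDerivAt (by ext v; rfl)).differentiableAt

/-- the complex form and its matrix -/
def sw (B B' : Bil (Cn d)) (u v : Cn d) : ℂ := (B u v : ℂ) + I * (B' u v : ℂ)

/-- its matrix -/
def SB (B B' : Bil (Cn d)) : Matrix (Fin d) (Fin d) ℂ :=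
  Matrix.of fun a b => sw B B' (EuclideanSpace.single a 1) (EuclideanSpace.single b 1)

theorem sw_alt {B B' : Bil (Cn d)} (hA : ∀ u v, B u v = -B v u) (hA' : ∀ u v, B' u v = -B' v u)
    (u v : Cn d) : sw B B' u v = -sw B B' v u := by
  rw [sw, sw, hA u v, hA' u v]
  push_cast
  ring

theorem type_snd {B B' : Bil (Cn d)} (h : ∀ u v, B (I • u) v = -B' u v) (u v : Cn d) :
    B' (I • u) v = B u v := by
  have := h (I • u) v
  rw [smul_smul, I_mul_I, neg_one_smul, map_neg, neg_apply] at this
  linarith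

theorem sw_csmul_left {B B' : Bil (Cn d)} (h : ∀ u v, B (I • u) v = -B' u v) (c : ℂ)
    (u v : Cn d) : sw B B' (c • u) v = c * sw B B' u v := by
  have h1 : ∀ B : Bil (Cn d), B (c • u) v = c.re * B u v + c.im * B (I • u) v := fun B => by
    have := map_csmul ((ContinuousLinearMap.apply ℝ ℝ v).comp B) c u
    simpa using this
  rw [sw, h1, h1, h, type_snd h, sw]
  conv_rhs => rw [← Complex.re_add_im c]
  push_cast
  linear_combination (-((c.im : ℂ) * (B' u v : ℂ))) * I_mul_I

theorem sw_sum_left (B B' : Bil (Cn d)) {κ : Type} (s : Finset κ) (u : κ → Cn d) (v : Cn d) :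
    sw B B' (∑ k ∈ s, u k) v = ∑ k ∈ s, sw B B' (u k) v := by
  simp only [sw, map_sum, sum_apply, Complex.ofReal_sum, Finset.mul_sum, Finset.sum_add_distrib]

theorem sw_eq {B B' : Bil (Cn d)} (h : ∀ u v, B (I • u) v = -B' u v)
    (hA : ∀ u v, B u v = -B v u) (hA' : ∀ u v, B' u v = -B' v u) (u v : Cn d) :
    sw B B' u v = sb (SB B B') u v := by
  have h1 : ∀ (c : ℂ) (u v : Cn d), sw B B' u (c • v) = c * sw B B' u v := fun c u v => by
    rw [sw_alt hA hA', sw_csmul_left h, sw_alt hA hA' u v]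
    ring
  have h2 : ∀ (s : Finset (Fin d)) (u : Cn d) (v : Fin d → Cn d),
      sw B B' u (∑ k ∈ s, v k) = ∑ k ∈ s, sw B B' u (v k) := fun s u v => by
    rw [sw_alt hA hA', sw_sum_left, ← Finset.sum_neg_distrib]
    exact Finset.sum_congr rfl fun k _ => (sw_alt hA hA' u (v k)).symm
  conv_lhs => rw [cn_sum u, cn_sum v]
  rw [sw_sum_left]
  refine Finset.sum_congr rfl fun a _ => ?_
  rw [h2]
  refine Finset.sum_congr rfl fun b _ => ?_
  rw [sw_csmul_left h, h1, SB, Matrix.of_apply]
  ring

theorem SB_skew {B B' : Bil (Cn d)} (hA : ∀ u v, B u v = -B v u) (hA' : ∀ u v, B' u v = -B' v u) :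
    (SB B B')ᵀ = -SB B B' := by
  ext a b
  rw [Matrix.transpose_apply, Matrix.neg_apply, SB, Matrix.of_apply, Matrix.of_apply]
  exact sw_alt hA hA' _ _

section conv

variable (w₁ w₂ : F2 (ofAtl A))
  (h : ∀ i, ∀ z ∈ (A.e i).target, ∀ u v, w₁.w i z (I • u) v = -w₂.w i z u v)

include h in
/-- the derivative of the complex form is complex linear -/
theorem dsw {i : A.ι} {z : Cn d} (hz : z ∈ (A.e i).target) (u a b : Cn d) :
    fderiv ℝ (w₁.w i) z (I • u) a b = -fderiv ℝ (w₂.w i) z u a b ∧
      fderiv ℝ (w₂.w i) z (I • u) a b = fderiv ℝ (w₁.w i) z u a b := by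
  have ho := (A.e i).open_target.mem_nhds hz
  have d1 : DifferentiableAt ℝ (w₁.w i) z := w₁.diffAt hz
  have d2 : DifferentiableAt ℝ (w₂.w i) z := w₂.diffAt hz
  have alt : ∀ (w : F2 (ofAtl A)) u a b, fderiv ℝ (w.w i) z u a b = -fderiv ℝ (w.w i) z u b a := by
    intro w u a b
    have dd : DifferentiableAt ℝ (w.w i) z := w.diffAt hz
    rw [← fderiv_app dd, ← fderiv_app dd]
    have : (fun y => w.w i y a b) =ᶠ[𝓝 z] fun y => -w.w i y b a := by
      filter_upwards [ho] with y hy using w.alt i y hy a b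
    rw [this.fderiv_eq, fderiv_fun_neg]
    rfl
  have t1 : ∀ u a b, fderiv ℝ (w₁.w i) z u (I • a) b = -fderiv ℝ (w₂.w i) z u a b := by
    intro u a b
    rw [← fderiv_app d1, ← fderiv_app d2]
    have : (fun y => w₁.w i y (I • a) b) =ᶠ[𝓝 z] fun y => -w₂.w i y a b := by
      filter_upwards [ho] with y hy using h i y hy a b
    rw [this.fderiv_eq, fderiv_fun_neg]
    rfl
  have t2 : ∀ u a b, fderiv ℝ (w₂.w i) z u (I • a) b = fderiv ℝ (w₁.w i) z u a b := by
    intro u a b
    rw [← fderiv_app d1, ← fderiv_app d2]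
    have : (fun y => w₂.w i y (I • a) b) =ᶠ[𝓝 z] fun y => w₁.w i y a b := by
      filter_upwards [ho] with y hy using type_snd (h i y hy) a b
    rw [this.fderiv_eq]
  have c1 : ∀ a b c, fderiv ℝ (w₁.w i) z a b c + fderiv ℝ (w₁.w i) z b c a +
    fderiv ℝ (w₁.w i) z c a b = 0 := w₁.closed i z hz
  have c2 : ∀ a b c, fderiv ℝ (w₂.w i) z a b c + fderiv ℝ (w₂.w i) z b c a +
    fderiv ℝ (w₂.w i) z c a b = 0 := w₂.closed i z hz
  have e1 := c1 (I • u) a b
  have e2 := c2 u a b
  have e3 := c2 (I • u) a b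
  have e4 := c1 u a b
  rw [alt w₁ a b (I • u), t1, t1] at e1
  rw [alt w₂ a b (I • u), t2, t2] at e3
  rw [alt w₂ a b u] at e2
  rw [alt w₁ a b u] at e4
  constructor
  · linarith
  · linarith

/-- two closed real 2-forms with `w₁ (i u, v) = - w₂ (u, v)`: the holomorphic 2-form `w₁ + i w₂` -/
def h20 : H2 A where
  s i x := SB (w₁.w i (A.e i x)) (w₂.w i (A.e i x))
  hol i a b := by
    intro z hz
    have hz : z ∈ (A.e i).target := hz.1
    have ho := (A.e i).open_target.mem_nhds hz
    have e1 : (fun y => SB (w₁.w i (A.e i ((A.e i).symm y))) (w₂.w i (A.e i ((A.e i).symm y))) a b)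
        =ᶠ[𝓝 z] fun y => ((w₁.w i y (EuclideanSpace.single a 1) (EuclideanSpace.single b 1) : ℝ) :
          ℂ) + I * ((w₂.w i y (EuclideanSpace.single a 1) (EuclideanSpace.single b 1) : ℝ) : ℂ) := by
      filter_upwards [ho] with y hy
      rw [(A.e i).right_inv hy]
      rfl
    refine (DifferentiableAt.congr_of_eventuallyEq ?_ e1).differentiableWithinAt
    have f1 : ∀ w : F2 (ofAtl A), ∀ u v, HasFDerivAt (fun y => w.w i y u v)
        (fderiv ℝ (fun y => w.w i y u v) z) z := fun w u v => by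
      have hd : DifferentiableAt ℝ (w.w i) z := w.diffAt hz
      exact ((hd.hasFDerivAt.clm_apply (hasFDerivAt_const u z)).clm_apply
        (hasFDerivAt_const v z)).differentiableAt.hasFDerivAt
    have e2 := (Complex.ofRealCLM.hasFDerivAt.comp z
      (f1 w₁ (EuclideanSpace.single a 1) (EuclideanSpace.single b (1 : ℂ)))).add
      ((Complex.ofRealCLM.hasFDerivAt.comp z
        (f1 w₂ (EuclideanSpace.single a 1) (EuclideanSpace.single b 1))).const_mul I)
    have d1 : DifferentiableAt ℝ (w₁.w i) z := w₁.diffAt hz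
    have d2 : DifferentiableAt ℝ (w₂.w i) z := w₂.diffAt hz
    refine diffC_of e2.differentiableAt fun v => ?_
    have e3 := e2.fderiv
    have e4 : ((Complex.ofRealCLM ∘ fun y => w₁.w i y (EuclideanSpace.single a 1)
        (EuclideanSpace.single b (1 : ℂ))) +
        fun y => I * (Complex.ofRealCLM ∘ fun y => w₂.w i y (EuclideanSpace.single a 1)
          (EuclideanSpace.single b 1)) y) =
        (fun y => ((w₁.w i y (EuclideanSpace.single a 1) (EuclideanSpace.single b 1) : ℝ) :
          ℂ) + I * ((w₂.w i y (EuclideanSpace.single a 1) (EuclideanSpace.single b 1) : ℝ) : ℂ)) :=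
      rfl
    rw [e4] at e3
    rw [e3]
    simp only [add_apply, smul_apply, ContinuousLinearMap.comp_apply, Complex.ofRealCLM_apply,
      smul_eq_mul]
    rw [fderiv_app d1, fderiv_app d2, fderiv_app d1, fderiv_app d2, (dsw w₁ w₂ h hz _ _ _).1,
      (dsw w₁ w₂ h hz _ _ _).2]
    push_cast
    linear_combination (-((fderiv ℝ (w₂.w i) z v (EuclideanSpace.single a 1)
      (EuclideanSpace.single b 1) : ℝ) : ℂ)) * I_mul_I
  alt i x hx := SB_skew (w₁.alt i _ ((A.e i).map_source hx)) (w₂.alt i _ ((A.e i).map_source hx))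
  tr i j x hx := by
    have hz : A.e i x ∈ (ofAtl A).ov i j := by
      refine ⟨(A.e i).map_source hx.1, ?_⟩
      show (A.e i).symm (A.e i x) ∈ _
      rw [(A.e i).left_inv hx.1]
      exact hx.2
    have hj : (ofAtl A).t i j (A.e i x) = A.e j x := by
      show A.e j ((A.e i).symm (A.e i x)) = _
      rw [(A.e i).left_inv hx.1]
    have hi' := h i _ ((A.e i).map_source hx.1)
    have hj' := h j _ ((A.e j).map_source hx.2)
    refine sb_ext fun u v => ?_
    rw [← sw_eq hi' (w₁.alt i _ ((A.e i).map_source hx.1)) (w₂.alt i _ ((A.e i).map_source hx.1)),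
      sw, w₁.tr i j _ hz, w₂.tr i j _ hz, hj,
      ← sb_mulVec (SB (w₁.w j (A.e j x)) (w₂.w j (A.e j x))) (Jm A i j x)
        (u' := fderiv ℝ ((ofAtl A).t i j) (A.e i x) u)
        (v' := fderiv ℝ ((ofAtl A).t i j) (A.e i x) v) ?_ ?_,
      ← sw_eq hj' (w₁.alt j _ ((A.e j).map_source hx.2)) (w₂.alt j _ ((A.e j).map_source hx.2))]
    · rfl
    · rw [ofAtl_dt_vec hz, (A.e i).left_inv hx.1]
    · rw [ofAtl_dt_vec hz, (A.e i).left_inv hx.1]

end conv

end

end Crest.Agent.R281.HkR_835
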