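import Crest.Agent.R281.Hdg4_850
import Crest.Agent.R281.Ti5_846
import Crest.Agent.R281.HkR7_835

/-!
# Row 281, HODGE-2, part 5 (helper850): (h1) in the language of closed real 2-forms

* `E11 A` : the closed real (1,1)-forms, a submodule of `F2 (ofAtl A)`
* `h1`    : `x = a Re σ + b Im σ + y + e`, `y` of type (1,1), `e` exact
-/

set_option autoImplicit false
set_option linter.unusedSectionVars false
set_option maxSynthPendingDepth 3

open Set Filter Topology Complex
open scoped ContDiff Matrix ComplexConjugate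

namespace Crest.Agent.R281.Hdg_850

open Crest.Agent.R275 Crest.Agent.R275.Geo Crest.Agent.R275.Core144 Crest.Agent.R275.EDR890
open Crest.Agent.R273 Crest.Agent.R273.Kah_333 Crest.Agent.R273.LamN127
open Crest.Agent.R281.Defs_273 (H2)
open Crest.Agent.R281.HkP2_508 (sl Span1)
open Crest.Agent.R281.HkR_835 Crest.Agent.R281.Ti_846

noncomputable section

variable {n : ℕ} {M : Type} [TopologicalSpace M] {A : Atl n M}

/-- the closed real (1,1)-forms -/
def E11 (A : Atl n M) : Submodule ℝ (F2 (ofAtl A)) where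
  carrier := {w | ∀ i, ∀ z ∈ (A.e i).target, ∀ u v, w.w i z (I • u) (I • v) = w.w i z u v}
  add_mem' := by
    intro x y hx hy i z hz u v
    rw [F2.add_w]
    simp only [add_apply]
    rw [hx i z hz, hy i z hz]
  zero_mem' := by
    intro i z _ u v
    rw [F2.zero_w]
    simp
  smul_mem' := by
    intro r x hx i z hz u v
    rw [F2.smul_w]
    simp only [smul_apply]
    rw [hx i z hz]

theorem mem_E11 {w : F2 (ofAtl A)} : w ∈ E11 A ↔ ∀ i, ∀ z ∈ (A.e i).target, ∀ u v,
    w.w i z (I • u) (I • v) = w.w i z u v := Iff.rfl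

theorem f2_mem_E11 (G : K11 A) : G.f2 ∈ E11 A := fun _ _ hz u v => K11.f2_inv G hz u v

theorem d1_w (η : F1 (ofAtl A)) (i : A.ι) (z : Cn n) : η.d.w i z = d1 (η.η i) z := rfl

/-- (h1), with `τ` -/
theorem h1τ [CompactSpace M] [T2Space M] [Finite A.ι] (P : Part A) (K : Kah A)
    (w : F2 (ofAtl A)) : ∃ (τ : H2 A) (η : F1 (ofAtl A)), ∀ (r : F2 (ofAtl A)),
      (∀ i, ∀ z ∈ (A.e i).target, ∀ u v, r.w i z u v = (sb (sl τ i z) u v).re) →
      w - η.d - r ∈ E11 A := by
  obtain ⟨τ, η, h⟩ := split P K w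
  refine ⟨τ, η, fun r hr i z hz u v => ?_⟩
  have h1 : ∀ u v, (w - η.d - r).w i z u v = (w.w i z - d1 (η.η i) z -
      bM (cL.comp (mL (τ.s i ((A.e i).symm z))ᵀ))) u v := by
    intro u v
    rw [F2.sub_w, F2.sub_w, d1_w]
    simp only [sub_apply]
    rw [hr i z hz, bM_cL]
    rfl
  rw [h1, h1]
  exact h i z hz u v

/-- **(h1)**: Hodge decomposition of closed real 2-forms on a compact Kaehler manifold with
`H⁰(Ω²) = ℂ σ` -/
theorem h1 [CompactSpace M] [T2Space M] [Finite A.ι] (P : Part A) (K : Kah A) {σ : H2 A}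
    (hσ : ClH σ) (hs : Span1 σ) (x : F2 (ofAtl A)) : ∃ a b : ℝ, ∃ y ∈ E11 A,
      ∃ e ∈ exS (ofAtl A), x = a • f2H σ hσ + b • f2H (csm (-I) σ) (csm_cl hσ _) + y + e := by
  obtain ⟨τ, η, h⟩ := h1τ P K x
  obtain ⟨c, hc⟩ := hs τ
  refine ⟨c.re, -c.im, x - η.d - (c.re • f2H σ hσ + (-c.im) • f2H (csm (-I) σ) (csm_cl hσ _)),
    h _ fun i z hz u v => ?_, η.d, ⟨η, η.isD⟩, by abel⟩
  have h2 : sl τ i z = c • sl σ i z := hc i _ ((A.e i).map_target hz)
  rw [F2.add_w, F2.smul_w, F2.smul_w, h2, sb_smul, Complex.mul_re]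
  simp only [add_apply, smul_apply, smul_eq_mul]
  rw [f2H_w, f2H_I_w]
  ring

end

end Crest.Agent.R281.Hdg_850
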