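import Crest.Agent.R281.Fuj6_207
import Crest.Agent.R281.HkR9_835
import Crest.Agent.R281.Ti7_846
import Crest.Agent.R281.Hdg5_850

/-!
# Row 281, FUJ-INT, part 7 (helper207)

* `E11_eq`    : `Hdg_850.E11 A = Fuj5_207.E11 A`
* `exists_kah`: **openness of Kaehler forms**: for `K : Kah A`, `y ∈ E11 A` (compact `M`) there is
                `ε > 0` such that `K + t y` is Kaehler for `|t| < ε`
* `open11`    : `Open11 A`
* `bn`, `Tn`  : the basis of `Cn d` indexed by `Fin (n+n) × Fin 2` and the intersection form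
                `Tn hd P : MultilinearMap ℝ (fun _ : Fin (n+n) => F2 (ofAtl A)) ℝ`, `d = n + n`
* `Tn_pos`    : `0 < ∫ K^(2n)`
* `fujiki_Tn`, `sig_Tn` : the Fujiki relation and the signature package for `Tn`
-/

set_option autoImplicit false
set_option linter.unusedSectionVars false
set_option maxSynthPendingDepth 3

open Set Filter Topology Complex MeasureTheory
open scoped ContDiff Matrix ComplexConjugate ComplexOrder

namespace Crest.Agent.R281.Fuj7_207

open Crest.Agent.R275.Geo Crest.Agent.R275.Core144 Crest.Agent.R275.EDR890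
open Crest.Agent.R275.GC293
open Crest.Agent.R273.Defs_333 Crest.Agent.R273.Kah_333 Crest.Agent.R273.Vol_333
open Crest.Agent.R273.Vm_333 Crest.Agent.R273.HM_333
open Crest.Agent.R281.HkR_835 Crest.Agent.R281.Ti_846
open Crest.Agent.R281.HkP1_508 Crest.Agent.R281.HkP2_508 Crest.Agent.R281.HkP3_508
open Crest.Agent.R281.Defs_273 (H2 HSymp)
open Crest.Agent.R281.Fuj1_207 Crest.Agent.R281.Fuj4_207 Crest.Agent.R281.Fuj5_207
open Crest.Agent.R281.FujP_513 (Symm mixv)
open Crest.Agent.R281.FujSig_358 (Sig)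

noncomputable section

variable {d : ℕ} {M : Type} [TopologicalSpace M] {A : Atl d M}

theorem E11_eq : Crest.Agent.R281.Hdg_850.E11 A = E11 A := rfl

/-! ### positive definite matrices -/

theorem re_pos_of_posDef {G : Matrix (Fin d) (Fin d) ℂ} (hG : G.PosDef) {v : Fin d → ℂ}
    (hv : v ≠ 0) : 0 < (star v ⬝ᵥ (G *ᵥ v)).re := by
  have h1 := hG.dotProduct_mulVec_pos hv
  rw [Complex.lt_def] at h1
  exact h1.1

theorem posDef_of_sphere {G : Matrix (Fin d) (Fin d) ℂ} (hG : G.IsHermitian)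
    (h : ∀ v ∈ Metric.sphere (0 : Fin d → ℂ) 1, 0 < (star v ⬝ᵥ (G *ᵥ v)).re) : G.PosDef := by
  rw [Matrix.posDef_iff_dotProduct_mulVec]
  refine ⟨hG, fun v hv => ?_⟩
  have hn : (0 : ℝ) < ‖v‖ := norm_pos_iff.2 hv
  have h2 : 0 < (star v ⬝ᵥ (G *ᵥ v)).re := by
    have h3 := h ((‖v‖⁻¹ : ℝ) • v) (by
      rw [mem_sphere_zero_iff_norm, norm_smul, norm_inv, norm_norm, inv_mul_cancel₀ hn.ne'])
    have h4 : star ((‖v‖⁻¹ : ℝ) • v) ⬝ᵥ (G *ᵥ ((‖v‖⁻¹ : ℝ) • v)) =
        ((‖v‖⁻¹ * ‖v‖⁻¹ : ℝ) : ℂ) * (star v ⬝ᵥ (G *ᵥ v)) := by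
      rw [Matrix.mulVec_smul, star_smul, smul_dotProduct, dotProduct_smul, star_trivial, smul_smul,
        Complex.real_smul]
    rw [h4, Complex.re_ofReal_mul] at h3
    exact (mul_pos_iff_of_pos_left (by positivity)).1 h3
  have h5 : (star v ⬝ᵥ (G *ᵥ v)).im = 0 := by
    have h6 : star v ⬝ᵥ (G *ᵥ v) = star (star v ⬝ᵥ (G *ᵥ v)) := by
      conv_lhs => rw [Matrix.star_dotProduct, Matrix.star_mulVec, hG.eq,
        ← Matrix.dotProduct_mulVec]
    have h7 := congrArg Complex.im h6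
    rw [RCLike.star_def, Complex.conj_im] at h7
    linarith
  rw [Complex.lt_def]
  exact ⟨h2, by rw [h5]; rfl⟩

/-- positivity is an open condition -/
theorem ev_pos {X : Type*} [TopologicalSpace X] {G : X → Matrix (Fin d) (Fin d) ℂ} {x0 : X}
    (hc : ContinuousAt G x0) (hp : (G x0).PosDef) :
    ∀ᶠ x in 𝓝 x0, ∀ v ∈ Metric.sphere (0 : Fin d → ℂ) 1, 0 < (star v ⬝ᵥ (G x *ᵥ v)).re := by
  refine (isCompact_sphere (0 : Fin d → ℂ) 1).eventually_forall_of_forall_eventually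
    (P := fun x v => 0 < (star v ⬝ᵥ (G x *ᵥ v)).re) fun v hv => ?_
  have hv0 : v ≠ 0 := by
    rintro rfl
    simp at hv
  have h1 : Continuous fun p : Matrix (Fin d) (Fin d) ℂ × (Fin d → ℂ) =>
      (star p.2 ⬝ᵥ (p.1 *ᵥ p.2)).re := by
    simp only [dotProduct, Matrix.mulVec]
    fun_prop
  have h2 : ContinuousAt (fun z : X × (Fin d → ℂ) => (star z.2 ⬝ᵥ (G z.1 *ᵥ z.2)).re) (x0, v) :=
    ContinuousAt.comp (g := fun p : Matrix (Fin d) (Fin d) ℂ × (Fin d → ℂ) =>
      (star p.2 ⬝ᵥ (p.1 *ᵥ p.2)).re) (f := fun z : X × (Fin d → ℂ) => (G z.1, z.2))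
      h1.continuousAt ((hc.comp continuousAt_fst).prodMk continuousAt_snd)
  exact h2.eventually (lt_mem_nhds (re_pos_of_posDef hp hv0))

theorem det_Jm {i j : A.ι} {x : M} (hx : x ∈ (A.e i).source ∩ (A.e j).source) :
    (Jm A i j x).det ≠ 0 := by
  rw [← KB_g hx]
  exact (KB A).ne_zero i j _

theorem posDef_congr {G : Matrix (Fin d) (Fin d) ℂ} (hG : G.PosDef)
    {J : Matrix (Fin d) (Fin d) ℂ} (hJ : J.det ≠ 0) : (Jᵀ * G * J.map conj).PosDef := by
  have e1 : (J.map conj)ᴴ = Jᵀ := by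
    ext a b
    simp [Matrix.conjTranspose_apply, Matrix.transpose_apply]
  have hunit : IsUnit (J.map conj) := by
    rw [Matrix.isUnit_iff_isUnit_det, isUnit_iff_ne_zero]
    have h2 : (J.map conj).det = conj J.det := by
      rw [← RingHom.mapMatrix_apply, ← RingHom.map_det]
    rw [h2]
    simpa using hJ
  rw [← e1]
  exact hG.conjTranspose_mul_mul_same (Matrix.mulVec_injective_iff_isUnit.2 hunit)

/-- a (1,1)-form which is positive in one chart around each point is positive -/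
theorem pos_of_local (K : K11 A) (h : ∀ x, ∃ k : A.ι, x ∈ (A.e k).source ∧ (K.g k x).PosDef) :
    ∀ i, ∀ x ∈ (A.e i).source, (K.g i x).PosDef := by
  intro i x hx
  obtain ⟨k, hk, hp⟩ := h x
  rw [K.tr i k x ⟨hx, hk⟩]
  exact posDef_congr hp (det_Jm ⟨hx, hk⟩)

theorem k11_cont (K : K11 A) (i : A.ι) {x : M} (hx : x ∈ (A.e i).source) :
    ContinuousAt (K.g i) x := by
  refine continuousAt_pi.2 fun a => continuousAt_pi.2 fun b => ?_
  have h1 : ContinuousOn (fun z => K.g i ((A.e i).symm z) a b) (A.e i).target :=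
    (K.sm i a b).continuousOn
  have h2 : ContinuousOn (fun y => K.g i ((A.e i).symm (A.e i y)) a b) (A.e i).source :=
    h1.comp (A.e i).continuousOn fun y hy => (A.e i).map_source hy
  have h3 : ContinuousOn (fun y => K.g i y a b) (A.e i).source :=
    h2.congr fun y hy => congrArg (fun q => K.g i q a b) ((A.e i).left_inv hy).symm
  exact h3.continuousAt ((A.e i).open_source.mem_nhds hx)

theorem GB_smul_add (B B' : Bil (Cn d)) (t : ℝ) : GB (B + t • B') = GB B + (t : ℂ) • GB B' := by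
  ext a b
  rw [Matrix.add_apply, Matrix.smul_apply, GB, GB, GB, Matrix.of_apply, Matrix.of_apply,
    Matrix.of_apply, hw, hw, hw]
  simp only [add_apply, smul_apply, smul_eq_mul]
  push_cast
  ring

/-- **openness of Kaehler forms** -/
theorem exists_kah [CompactSpace M] (K : Kah A) {y : F2 (ofAtl A)} (hy : y ∈ E11 A) :
    ∃ ε > 0, ∀ t : ℝ, |t| < ε → ∃ K' : Kah A, ∀ i, ∀ z ∈ (A.e i).target,
      (ofKah K').f2.w i z = ((ofKah K).f2 + t • y).w i z := by
  have key : ∀ᶠ t : ℝ in 𝓝 0, ∀ x ∈ (univ : Set M), ∃ i, x ∈ (A.e i).source ∧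
      ∀ v ∈ Metric.sphere (0 : Fin d → ℂ) 1,
        0 < (star v ⬝ᵥ ((K.g i x + (t : ℂ) • (y.k11 hy).g i x) *ᵥ v)).re := by
    refine isCompact_univ.eventually_forall_of_forall_eventually
      (P := fun (t : ℝ) (x : M) => ∃ i, x ∈ (A.e i).source ∧
      ∀ v ∈ Metric.sphere (0 : Fin d → ℂ) 1,
        0 < (star v ⬝ᵥ ((K.g i x + (t : ℂ) • (y.k11 hy).g i x) *ᵥ v)).re) fun x _ => ?_
    obtain ⟨i, hi⟩ := A.cover x
    have h1 : ContinuousAt (fun p : ℝ × M => K.g i p.2 + (p.1 : ℂ) • (y.k11 hy).g i p.2) (0, x) := by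
      have h2 : ContinuousAt (fun p : ℝ × M => K.g i p.2) (0, x) :=
        ContinuousAt.comp (g := K.g i) (f := fun p : ℝ × M => p.2) (k11_cont (ofKah K) i hi)
          continuousAt_snd
      have h3 : ContinuousAt (fun p : ℝ × M => (y.k11 hy).g i p.2) (0, x) :=
        ContinuousAt.comp (g := (y.k11 hy).g i) (f := fun p : ℝ × M => p.2)
          (k11_cont (y.k11 hy) i hi) continuousAt_snd
      have h4 : ContinuousAt (fun p : ℝ × M => (p.1 : ℂ)) (0, x) :=
        (Complex.continuous_ofReal.comp continuous_fst).continuousAt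
      exact h2.add (h4.smul h3)
    have h5 := ev_pos h1 (by
      show (K.g i x + ((0 : ℝ) : ℂ) • (y.k11 hy).g i x).PosDef
      rw [Complex.ofReal_zero, zero_smul, add_zero]
      exact K.pos i x hi)
    have h6 : ∀ᶠ p : ℝ × M in 𝓝 (0, x), p.2 ∈ (A.e i).source :=
      continuousAt_snd.eventually ((A.e i).open_source.mem_nhds hi)
    filter_upwards [h5, h6] with p hp hs
    exact ⟨i, hs, hp⟩
  rw [Metric.eventually_nhds_iff] at key
  obtain ⟨ε, hε, h⟩ := key
  refine ⟨ε, hε, fun t ht => ?_⟩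
  have hw : (ofKah K).f2 + t • y ∈ E11 A :=
    (E11 A).add_mem (f2_mem (ofKah K)) ((E11 A).smul_mem t hy)
  set K1 : K11 A := F2.k11 _ hw with hK1
  have e1 : ∀ i, ∀ x ∈ (A.e i).source, K1.g i x = K.g i x + (t : ℂ) • (y.k11 hy).g i x := by
    intro i x hx
    rw [hK1, F2.k11_g, F2.k11_g]
    have : ((ofKah K).f2 + t • y).w i (A.e i x) =
        (ofKah K).f2.w i (A.e i x) + t • y.w i (A.e i x) := rfl
    rw [this, GB_smul_add]
    congr 1
    have h2 := K11.f2_k11 (ofKah K) hx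
    rw [F2.k11_g] at h2
    exact h2
  have hp : ∀ i, ∀ x ∈ (A.e i).source, (K1.g i x).PosDef := by
    refine pos_of_local K1 fun x => ?_
    obtain ⟨i, hi, hv⟩ := h (y := t) (by rw [dist_zero_right]; exact ht) x (mem_univ x)
    refine ⟨i, hi, posDef_of_sphere (K1.herm i x hi) fun v hv' => ?_⟩
    rw [e1 i x hi]
    exact hv v hv'
  refine ⟨K1.kah hp, fun i z hz => ?_⟩
  have e2 : ofKah (K1.kah hp) = K1 := rfl
  rw [e2]
  exact F2.k11_f2 _ hw hz

theorem open11 [CompactSpace M] : Open11 A := by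
  intro K y hy
  obtain ⟨ε, hε, h⟩ := exists_kah K hy
  refine ⟨ε, hε, fun t ht0 ht1 => ?_⟩
  obtain ⟨K', hK'⟩ := h t (by rwa [abs_of_pos ht0])
  exact ⟨K', fun i z hz u v => by rw [hK' i z hz]⟩

/-! ### the intersection form -/

/-- the basis of `Cn d`, `d = n + n` -/
def bn {n : ℕ} (hd : d = n + n) : Module.Basis (Fin (n + n) × Fin 2) ℝ (Cn d) :=
  (bc d).reindex ((finCongr hd).prodCongr (Equiv.refl _))

theorem bn_rfl {n : ℕ} : bn (rfl : n + n = n + n) = bc (n + n) := by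
  unfold bn
  rw [finCongr_refl]
  exact Module.Basis.reindex_refl _

variable [CompactSpace M] [Finite A.ι] {n : ℕ} (hd : d = n + n) (P : Part A)

/-- **the intersection form** of a compact complex manifold of dimension `d = n + n` -/
def Tn : MultilinearMap ℝ (fun _ : Fin (n + n) => F2 (ofAtl A)) ℝ :=
  IM (lc d) (bn hd) (RPart.ofPart P)

theorem Tn_eq (w : Fin (n + n) → F2 (ofAtl A)) :
    Tn hd P w = II (lc d) (bc d) (RPart.ofPart P) fun k => w (finCongr hd k) := by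
  subst hd
  unfold Tn
  rw [bn_rfl]
  rfl

/-- **the volume** -/
theorem Tn_kah (K : Kah A) : ∀ [MeasurableSpace M] [BorelSpace M],
    Tn hd P (fun _ => (ofKah K).f2) = 2 ^ d * d.factorial * (vm (volK K)).real univ := by
  intro _ _
  rw [Tn_eq]
  exact II_same K (RPart.ofPart P)

theorem vm_real_pos [Nonempty M] [MeasurableSpace M] [BorelSpace M] (h : HM (KB A)⁻¹) :
    0 < (vm h).real univ := by
  have h1 := isFinite_vm h
  have h2 := isOpenPos_vm h
  rw [measureReal_def]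
  exact ENNReal.toReal_pos (isOpen_univ.measure_ne_zero _ univ_nonempty) (measure_ne_top _ _)

theorem Tn_pos [Nonempty M] (K : Kah A) : 0 < Tn hd P (fun _ => (ofKah K).f2) := by
  let _ : MeasurableSpace M := borel M
  have _ : BorelSpace M := ⟨rfl⟩
  rw [Tn_kah hd P K]
  have := vm_real_pos (volK K)
  positivity

theorem Tn_symm : Symm (Tn hd P) := IM_symm _ _ _

theorem Tn_kills : Kills (Tn hd P) (exS (ofAtl A) : Set (F2 (ofAtl A))) :=
  kills _ _ _ (ori_ofAtl A)

/-- cohomologous forms -/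
theorem Tn_coh {w w' : Fin (n + n) → F2 (ofAtl A)} (hk : ∀ k, w k - w' k ∈ exS (ofAtl A)) :
    Tn hd P w = Tn hd P w' := IM_coh _ _ _ (ori_ofAtl A) hk

section hk

variable [T2Space M] [ConnectedSpace M] (hn : 1 ≤ n) (hn2 : 2 ≤ n + n) (K : Kah A) (σ : HSymp A)
  (hu : σ.Uniq) (hc : ClH σ.toH2)

include K hu hn

/-- **the Fujiki relation** on closed real 2-forms -/
theorem fujiki_Tn (x : F2 (ofAtl A)) :
    Tn hd P (fun _ => x) = Qf (Tn hd P) hn2 n (reS σ.toH2 hc) x x ^ n :=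
  fujiki P σ hu hc _ _ _ hn (by omega) hn2 (ori_ofAtl A) open11 (fun K => Tn_pos hd P K) K x

/-- **the signature package**, with the Hodge index theorem as the only input -/
theorem sig_Tn (hodge : ∀ y ∈ E11 A, Tn hd P (mixv (n + n) 1 (ofKah K).f2 y) = 0 →
      Tn hd P (mixv (n + n) 2 (ofKah K).f2 y) ≤ 0 ∧
        (Tn hd P (mixv (n + n) 2 (ofKah K).f2 y) = 0 → y ∈ exS (ofAtl A))) :
    Sig (Tn hd P) (qf (Tn hd P) hn2 n (reS σ.toH2 hc)) (exS (ofAtl A)) (E11 A)
      (reS σ.toH2 hc) (imS σ.toH2 hc) (ofKah K).f2 :=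
  Crest.Agent.R281.Fuj6_207.sig P σ hu hc hn hn2 _ _ _ (ori_ofAtl A) open11
    (fun K => Tn_pos hd P K) K hodge

end hk

end

end Crest.Agent.R281.Fuj7_207
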