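import Crest.Agent.R281.Nef2_252
import Crest.Agent.R281.Dif1_268

/-!
# Row 281, NEF-OPEN, part 4 (helper252): holomorphic maps and classes

`g : SMap C' C` (helper268), `J' : AJ C'`, `J : AJ C` (helper476).

* `HolM g J' J`  : `dg ∘ J' = J ∘ dg`;  `Imm g` : injective differentials
* `pull_T11`, `pull_Pos`, `pull_ddc`, `KCls.pull`, `NefC.pull`
* `Bi g k`       : inverse maps; `KCls_iff_pull`, `NefC_iff_pull`, `DDb_of_pull`
* `Cmp` case     : `holM_cp`, `KCls_hk`, `NefC_hk`, `DDb_hk`, `nefC_hk_iff`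
-/

set_option autoImplicit false
set_option maxSynthPendingDepth 3
set_option linter.unusedSectionVars false

open Set Filter Topology Complex
open scoped ContDiff

namespace Crest.Agent.R281.Nef_252

open Crest.Agent.R275.Geo Crest.Agent.R275.Core144 Crest.Agent.R275.EDR890
open Crest.Agent.R273.Kah_333 Crest.Agent.R273.Hess_333 Crest.Agent.R273.HessB_333
open Crest.Agent.R273.Defs_333 Crest.Agent.R273.HM_333
open Crest.Agent.R281.Defs_273
open Crest.Agent.R260.ACM_580 Crest.Agent.R260.NNB_580 Crest.Agent.R281.HkR_835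
open Crest.Agent.R281.NefO_476 Crest.Agent.R281.Dif_268
open Crest.Agent.R281.Ti_846 hiding pb pb_apply symm2

noncomputable section

variable {V V' X X' : Type} [NormedAddCommGroup V] [NormedSpace ℝ V]
  [NormedAddCommGroup V'] [NormedSpace ℝ V'] [TopologicalSpace X] [TopologicalSpace X']
  {C : RCh V X} {C' : RCh V' X'}

/-! ### equality on the targets -/

theorem eqv_sub {a a' b b' : F2 C} (h : Eqv a a') (h' : Eqv b b') : Eqv (a - b) (a' - b') :=
  fun i z hz u v => by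
    simp only [F2.sub_w, sub_apply]
    rw [h i z hz, h' i z hz]

theorem eqv_add {a a' b b' : F2 C} (h : Eqv a a') (h' : Eqv b b') : Eqv (a + b) (a' + b') :=
  fun i z hz u v => by
    simp only [F2.add_w, add_apply]
    rw [h i z hz, h' i z hz]

theorem eqv_smul {a a' : F2 C} (c : ℝ) (h : Eqv a a') : Eqv (c • a) (c • a') :=
  fun i z hz u v => by
    simp only [F2.smul_w, smul_apply]
    rw [h i z hz]

theorem eqv_T11 {J : AJ C} {w w' : F2 C} (h : Eqv w w') (ht : T11 J w) : T11 J w' :=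
  fun i z hz u v => by rw [← h i z hz, ← h i z hz]; exact ht i z hz u v

theorem eqv_Pos {J : AJ C} {w w' : F2 C} (h : Eqv w w') (ht : Pos J w) : Pos J w' :=
  fun i z hz v hv => by rw [← h i z hz]; exact ht i z hz v hv

theorem eqv_ex_sub {w w' : F2 C} (h : Eqv w w') : Ex (w - w') := by
  refine ex_congr (w := 0) (fun i z hz u v => ?_) ex_zero
  simp only [F2.sub_w, sub_apply]
  rw [h i z hz, sub_self]
  rfl

theorem KCls.eqv {J : AJ C} {w w' : F2 C} (hk : KCls J w) (h : Eqv w w') : KCls J w' :=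
  hk.congr (eqv_ex_sub h)

theorem pull_add (g : SMap C' C) (a b : F2 C) : Eqv (g.pull (a + b)) (g.pull a + g.pull b) := by
  intro j z hz u v
  obtain ⟨i, hi⟩ := g.exists_dom hz
  simp only [F2.add_w, add_apply]
  rw [g.pull_w _ hi, g.pull_w _ hi, g.pull_w _ hi]
  simp

theorem pull_sub (g : SMap C' C) (a b : F2 C) : Eqv (g.pull (a - b)) (g.pull a - g.pull b) := by
  intro j z hz u v
  obtain ⟨i, hi⟩ := g.exists_dom hz
  simp only [F2.sub_w, sub_apply]
  rw [g.pull_w _ hi, g.pull_w _ hi, g.pull_w _ hi]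
  simp

theorem pull_smul (g : SMap C' C) (c : ℝ) (a : F2 C) : Eqv (g.pull (c • a)) (c • g.pull a) := by
  intro j z hz u v
  obtain ⟨i, hi⟩ := g.exists_dom hz
  simp only [F2.smul_w, smul_apply]
  rw [g.pull_w _ hi, g.pull_w _ hi]
  simp

/-! ### holomorphic maps -/

/-- `dg ∘ J' = J ∘ dg` -/
structure HolM (g : SMap C' C) (J' : AJ C') (J : AJ C) : Prop where
  h : ∀ i j, ∀ z ∈ dom C C' g.f i j, ∀ v, fderiv ℝ (loc C C' g.f i j) z (J'.J j z v) =
    J.J i (loc C C' g.f i j z) (fderiv ℝ (loc C C' g.f i j) z v)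

/-- injective differentials -/
def Imm (g : SMap C' C) : Prop :=
  ∀ i j, ∀ z ∈ dom C C' g.f i j, ∀ v, fderiv ℝ (loc C C' g.f i j) z v = 0 → v = 0

section maps

variable {g : SMap C' C} {J' : AJ C'} {J : AJ C}

theorem pull_T11 (hg : HolM g J' J) {w : F2 C} (h : T11 J w) : T11 J' (g.pull w) := by
  intro j z hz u v
  obtain ⟨i, hi⟩ := g.exists_dom hz
  rw [g.pull_w _ hi, g.pull_w _ hi, hg.h i j z hi, hg.h i j z hi, h i _ (g.loc_mem hi)]

theorem pull_Pos (hg : HolM g J' J) (hI : Imm g) {w : F2 C} (h : Pos J w) :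
    Pos J' (g.pull w) := by
  intro j z hz v hv
  obtain ⟨i, hi⟩ := g.exists_dom hz
  rw [g.pull_w _ hi, hg.h i j z hi]
  exact h i _ (g.loc_mem hi) _ fun h0 => hv (hI i j z hi v h0)

theorem KCls.pull (hg : HolM g J' J) (hI : Imm g) {w : F2 C} (h : KCls J w) :
    KCls J' (g.pull w) := by
  obtain ⟨w', h1, h2, h3⟩ := h
  exact ⟨g.pull w', (pull_sub g w' w).ex (g.ex_pull h1), pull_T11 hg h2, pull_Pos hg hI h3⟩

theorem NefC.pull (hg : HolM g J' J) (hI : Imm g) {om w : F2 C} (h : NefC J om w) :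
    NefC J' (g.pull om) (g.pull w) := fun N =>
  ((h N).pull hg hI).eqv ((pull_add g om _).trans
    (eqv_add (Eqv.refl _) (pull_smul g (N : ℝ) w)))

/-- functions -/
theorem Sm.pull (g : SMap C' C) {u : X → ℝ} (hu : Sm C u) : Sm C' (u ∘ g.f) := by
  intro j z hz
  obtain ⟨i, hi⟩ := g.exists_dom hz
  have h1 : (fun y => (u ∘ g.f) ((C'.e j).symm y)) =ᶠ[𝓝 z]
      uc C u i ∘ loc C C' g.f i j := by
    filter_upwards [(g.isOpen_dom i j).mem_nhds hi] with y hy
    show u (g.f ((C'.e j).symm y)) = u ((C.e i).symm (loc C C' g.f i j y))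
    rw [g.symm_loc hy]
  exact (((hu.at (g.loc_mem hi)).comp z (g.contDiffAt_loc hi)).congr_of_eventuallyEq
    h1).contDiffWithinAt

theorem fderiv_uc_pull (g : SMap C' C) {u : X → ℝ} (hu : Sm C u) {i : C.ι} {j : C'.ι} {z : V'}
    (hi : z ∈ dom C C' g.f i j) (v : V') : fderiv ℝ (uc C' (u ∘ g.f) j) z v =
      fderiv ℝ (uc C u i) (loc C C' g.f i j z) (fderiv ℝ (loc C C' g.f i j) z v) := by
  have h1 : uc C' (u ∘ g.f) j =ᶠ[𝓝 z] uc C u i ∘ loc C C' g.f i j := by
    filter_upwards [(g.isOpen_dom i j).mem_nhds hi] with y hy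
    show u (g.f ((C'.e j).symm y)) = u ((C.e i).symm (loc C C' g.f i j y))
    rw [g.symm_loc hy]
  rw [h1.fderiv_eq, fderiv_comp z ((hu.at (g.loc_mem hi)).differentiableAt (by simp))
    (g.diff_loc hi)]
  rfl

variable [FiniteDimensional ℝ V] [MeasurableSpace V] [BorelSpace V]
  [FiniteDimensional ℝ V'] [MeasurableSpace V'] [BorelSpace V']

/-- pull back of `dd^c u` -/
theorem pull_ddc (hg : HolM g J' J) {u : X → ℝ} (hu : Sm C u) :
    Eqv (g.pull (ddc J u hu)) (ddc J' (u ∘ g.f) (Sm.pull g hu)) := by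
  have h1 : IsD (g.pull (ddc J u hu)) (g.pull1 (dc J u hu)) := g.isD_pull (dc J u hu).isD
  have h2 : IsD (ddc J' (u ∘ g.f) (Sm.pull g hu)) (dc J' (u ∘ g.f) (Sm.pull g hu)) :=
    (dc J' (u ∘ g.f) (Sm.pull g hu)).isD
  intro j z hz a b
  rw [h1 j z hz, h2 j z hz]
  have h3 : (g.pull1 (dc J u hu)).η j =ᶠ[𝓝 z] (dc J' (u ∘ g.f) (Sm.pull g hu)).η j := by
    filter_upwards [(C'.e j).open_target.mem_nhds hz] with y hy
    obtain ⟨i, hi⟩ := g.exists_dom hy
    ext v
    rw [g.pull1_η _ hi]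
    show -(fderiv ℝ (uc C u i) (loc C C' g.f i j y) (J.J i (loc C C' g.f i j y)
      (fderiv ℝ (loc C C' g.f i j) y v))) = -(fderiv ℝ (uc C' (u ∘ g.f) j) y (J'.J j y v))
    rw [fderiv_uc_pull g hu hi, hg.h i j y hi]
  rw [h3.fderiv_eq]

end maps

/-! ### inverse maps -/

/-- `g` and `k` are inverse to each other -/
structure Bi (g : SMap C' C) (k : SMap C C') : Prop where
  gk : ∀ x, g.f (k.f x) = x
  kg : ∀ x, k.f (g.f x) = x

section bi

variable {g : SMap C' C} {k : SMap C C'} {J' : AJ C'} {J : AJ C}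

theorem Bi.symm (h : Bi g k) : Bi k g := ⟨h.kg, h.gk⟩

theorem eq_id {g : SMap C C} (h : ∀ x, g.f x = x) : g = SMap.id C := by
  obtain ⟨f, hc, hs⟩ := g
  have : f = _root_.id := funext h
  subst this
  rfl

theorem Bi.comp_eq (h : Bi g k) : g.comp k = SMap.id C := eq_id fun x => h.gk x

theorem Bi.pull_pull (h : Bi g k) (w : F2 C) : Eqv (k.pull (g.pull w)) w := by
  have h1 := pull_comp g k w
  rw [h.comp_eq] at h1
  exact h1.symm.trans (pull_id w)

/-- `D(k ∘ g) = id` -/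
theorem Bi.d_d (h : Bi g k) {i : C.ι} {j : C'.ι} {z : V'} (hz : z ∈ dom C C' g.f i j) (v : V') :
    fderiv ℝ (loc C' C k.f j i) (loc C C' g.f i j z) (fderiv ℝ (loc C C' g.f i j) z v) = v := by
  have h0 : k.comp g = SMap.id C' := h.symm.comp_eq
  have hz' : z ∈ dom C' C' (k.f ∘ g.f) j j := by
    refine ⟨hz.1, ?_⟩
    show k.f (g.f ((C'.e j).symm z)) ∈ _
    rw [h.kg]
    exact (C'.e j).map_target hz.1
  rw [← k.dloc_comp g hz hz' v]
  have h1 : loc C' C' (k.f ∘ g.f) j j =ᶠ[𝓝 z] _root_.id := by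
    filter_upwards [(C'.e j).open_target.mem_nhds hz.1] with y hy
    show C'.e j (k.f (g.f ((C'.e j).symm y))) = y
    rw [h.kg, (C'.e j).right_inv hy]
  rw [h1.fderiv_eq]
  simp

theorem Bi.imm (h : Bi g k) : Imm g := fun i j z hz v hv => by
  rw [← h.d_d hz v, hv, map_zero]

/-- the inverse of a holomorphic map is holomorphic -/
theorem Bi.holM (h : Bi g k) (hg : HolM g J' J) : HolM k J J' := by
  constructor
  intro j i z hz v
  -- `z` in the chart `i` of `C`, `k` read in the chart `j` of `C'`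
  have hd : loc C' C k.f j i z ∈ dom C C' g.f i j := by
    refine ⟨k.loc_mem hz, ?_⟩
    rw [k.symm_loc hz, h.gk]
    exact (C.e i).map_target hz.1
  have hl : loc C C' g.f i j (loc C' C k.f j i z) = z := by
    show C.e i (g.f ((C'.e j).symm (loc C' C k.f j i z))) = z
    rw [k.symm_loc hz, h.gk, (C.e i).right_inv hz.1]
  have e1 := h.symm.d_d hz v
  have e2 := h.symm.d_d hz (J.J i z v)
  have e3 := hg.h i j _ hd (fderiv ℝ (loc C' C k.f j i) z v)
  rw [hl, e1] at e3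
  rw [← sub_eq_zero]
  refine h.imm i j _ hd _ ?_
  rw [map_sub, e2, e3, sub_self]

theorem KCls_iff_pull (h : Bi g k) (hg : HolM g J' J) {w : F2 C} :
    KCls J w ↔ KCls J' (g.pull w) :=
  ⟨fun hk => hk.pull hg h.imm, fun hk =>
    (hk.pull (h.holM hg) h.symm.imm).eqv (h.pull_pull w)⟩

theorem NefC_iff_pull (h : Bi g k) (hg : HolM g J' J) {om w : F2 C} :
    NefC J om w ↔ NefC J' (g.pull om) (g.pull w) := by
  refine ⟨fun hk => hk.pull hg h.imm, fun hk => ?_⟩
  have h1 := hk.pull (h.holM hg) h.symm.imm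
  exact h1.congr (eqv_ex_sub (h.pull_pull om)) (eqv_ex_sub (h.pull_pull w))

variable [FiniteDimensional ℝ V] [MeasurableSpace V] [BorelSpace V]
  [FiniteDimensional ℝ V'] [MeasurableSpace V'] [BorelSpace V']

/-- transport of the `dd^c`-lemma -/
theorem DDb_of_pull (h : Bi g k) (hg : HolM g J' J) (hd : DDb J') : DDb J := by
  intro w he ht
  obtain ⟨u', hu', h1⟩ := hd (g.pull w) (g.ex_pull he) (pull_T11 hg ht)
  have h1' : Eqv (g.pull w) (ddc J' u' hu') := h1
  have hk := h.holM hg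
  exact ⟨u' ∘ k.f, Sm.pull k hu', (h.pull_pull w).symm.trans ((h1'.pull k).trans (pull_ddc hk hu'))⟩

end bi

/-! ### change of charts and the atlas of a complex structure -/

section cmp

variable {V₁ : Type} [NormedAddCommGroup V₁] [NormedSpace ℝ V₁] {C₁ : RCh V₁ X}

theorem bi_cmp (h : Cmp C C₁) : Bi (SMap.ofCmp h) (SMap.ofCmp h.symm) :=
  ⟨fun _ => rfl, fun _ => rfl⟩

/-- `Cmp.F` is the pull back -/
theorem cmp_F (h : Cmp C C₁) (w : F2 C) : Eqv ((SMap.ofCmp h).pull w) (h.F w) := by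
  intro j z hz u v
  obtain ⟨i, hi⟩ := (SMap.ofCmp h).exists_dom hz
  rw [(SMap.ofCmp h).pull_w w hi, h.F_w w (i := i) hi]
  rfl

variable {d : ℕ} {A : Atl d X} {H : HkT C} {k : Fin 3}

theorem holM_cp (hA : Cp (H.acm k) A) :
    HolM (SMap.ofCmp (cmp_of_cp hA)) (jA A) (ofHk H k) := by
  constructor
  intro i j z hz v
  exact ((hA j).lin' (i := i) hz v)

theorem KCls_hk (hA : Cp (H.acm k) A) (w : F2 C) :
    KCls (ofHk H k) w ↔ KCls (jA A) ((cmp_of_cp hA).F w) := by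
  rw [KCls_iff_pull (bi_cmp (cmp_of_cp hA)) (holM_cp hA)]
  exact ⟨fun h => h.eqv (cmp_F _ w), fun h => h.eqv (cmp_F _ w).symm⟩

theorem NefC_hk (hA : Cp (H.acm k) A) (om w : F2 C) :
    NefC (ofHk H k) om w ↔ NefC (jA A) ((cmp_of_cp hA).F om) ((cmp_of_cp hA).F w) := by
  rw [NefC_iff_pull (bi_cmp (cmp_of_cp hA)) (holM_cp hA)]
  exact ⟨fun h => h.congr (eqv_ex_sub (cmp_F _ om)) (eqv_ex_sub (cmp_F _ w)),
    fun h => h.congr (eqv_ex_sub (cmp_F _ om).symm) (eqv_ex_sub (cmp_F _ w).symm)⟩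

/-- Kaehler classes of `J k` in the atlas language -/
theorem KCls_hk_iff (hA : Cp (H.acm k) A) (w : F2 C) :
    KCls (ofHk H k) w ↔ ∃ K : Kah A, Ex ((ofKah K).f2 - (cmp_of_cp hA).F w) := by
  rw [KCls_hk hA, KCls_jA]

variable [FiniteDimensional ℝ V] [MeasurableSpace V] [BorelSpace V]
  [MeasurableSpace (Cn d)] [BorelSpace (Cn d)]

theorem DDb_hk (hA : Cp (H.acm k) A) (hd : DDb (jA A)) : DDb (ofHk H k) :=
  DDb_of_pull (bi_cmp (cmp_of_cp hA)) (holM_cp hA) hd

/-- **nef classes of `J k` in the atlas language** -/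
theorem nefC_hk_iff [CompactSpace X] (hA : Cp (H.acm k) A) (K : Kah A) {L : LB A} (h : HM L)
    (hd : DDb (jA A)) {om w : F2 C} (ho : T11 (ofHk H k) om) (hp : Pos (ofHk H k) om)
    (hw : Ex ((curK h).f2 - (cmp_of_cp hA).F w)) :
    NefW K L ↔ NefC (ofHk H k) om w := by
  rw [nefW_iff K h hd, NefC_hk hA]
  have hg := holM_cp hA
  have hb := bi_cmp (cmp_of_cp hA)
  have t1 : T11 (jA A) ((cmp_of_cp hA).F om) := eqv_T11 (cmp_F _ om) (pull_T11 hg ho)
  have p1 : Pos (jA A) ((cmp_of_cp hA).F om) := eqv_Pos (cmp_F _ om) (pull_Pos hg hb.imm hp)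
  have hw' : Ex ((cmp_of_cp hA).F w - (curK h).f2) := by
    have := ex_neg hw
    rwa [neg_sub] at this
  constructor
  · intro h1
    have h2 := h1.congr (om' := (ofKah K).f2) (by rw [sub_self]; exact ex_zero) hw
    exact h2.indep (T11_kah K) t1 p1
  · intro h1
    have h2 := h1.congr (om' := (cmp_of_cp hA).F om) (by rw [sub_self]; exact ex_zero) hw'
    exact h2.indep t1 (T11_kah K) (Pos_kah K)

end cmp

end

end Crest.Agent.R281.Nef_252
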