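import Crest.Agent.R281.HkR3_835
import Crest.Agent.R281.Defs_273

/-!
# Row 281, HK-ROT, part 4 (helper835): real 2-forms and matrices on `(X, A : Atl d X)`

* `RCh.ofAtl A`     : the real charts of a holomorphic atlas
* `mL G`, `cL`, `bM`: matrices and conjugation as real linear maps of `Cn d`, `bM T u v = ⟪T u, v⟫`
* `hb G u v`, `sb S u v` : `∑ g_ab u_a conj v_b`, `∑ s_ab u_a v_b`
-/

set_option autoImplicit false
set_option linter.unusedSectionVars false

open Set Filter Topology Complex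
open scoped ContDiff Matrix ComplexConjugate ComplexOrder InnerProductSpace

namespace Crest.Agent.R281.HkR_835

open Crest.Agent.R275.Geo Crest.Agent.R275.Core144 Crest.Agent.R275.EDR890
open Crest.Agent.R273.Kah_333 Crest.Agent.R281.Defs_273

noncomputable section

/-! ### linear algebra -/

section alg

variable {d : ℕ}

/-- a matrix as a real linear map -/
def mL (G : Matrix (Fin d) (Fin d) ℂ) : Cn d →L[ℝ] Cn d :=
  (LinearMap.toContinuousLinearMap (Matrix.toEuclideanLin G)).restrictScalars ℝ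

@[simp] theorem mL_apply (G : Matrix (Fin d) (Fin d) ℂ) (v : Cn d) (a : Fin d) :
    mL G v a = (G *ᵥ v.ofLp) a := rfl

theorem mL_eq (G : Matrix (Fin d) (Fin d) ℂ) (v : Cn d) :
    (mL G v).ofLp = G *ᵥ v.ofLp := rfl

/-- conjugation -/
def cL : Cn d →L[ℝ] Cn d :=
  LinearMap.toContinuousLinearMap
    { toFun := fun v => WithLp.toLp 2 (fun a => conj (v a))
      map_add' := fun u v => by ext a; simp
      map_smul' := fun c v => by ext a; simp }

@[simp] theorem cL_apply (v : Cn d) (a : Fin d) : cL v a = conj (v a) := rfl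

/-- multiplication by `i` -/
def iL : Cn d →L[ℝ] Cn d := (I • ContinuousLinearMap.id ℂ (Cn d)).restrictScalars ℝ

@[simp] theorem iL_apply (v : Cn d) : iL v = I • v := rfl

/-- the bilinear form `⟪T u, v⟫` -/
def bM (T : Cn d →L[ℝ] Cn d) : Bil (Cn d) := (innerSL ℝ).comp T

theorem bM_apply (T : Cn d →L[ℝ] Cn d) (u v : Cn d) :
    bM T u v = (∑ a, conj (T u a) * v a).re := by
  show ⟪T u, v⟫_ℝ = _
  rw [PiLp.inner_apply, Complex.re_sum]
  exact Finset.sum_congr rfl fun a _ => by rw [Complex.inner, mul_comm]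

theorem bM_smooth {U : Set (Cn d)} {T : Cn d → Cn d →L[ℝ] Cn d} (hT : ContDiffOn ℝ ∞ T U) :
    ContDiffOn ℝ ∞ (fun z => bM (T z)) U :=
  contDiffOn_const.clm_comp hT

/-- `∑ g_ab u_a conj v_b` -/
def hb (G : Matrix (Fin d) (Fin d) ℂ) (u v : Cn d) : ℂ := ∑ a, ∑ b, G a b * u a * conj (v b)

/-- `∑ s_ab u_a v_b` -/
def sb (S : Matrix (Fin d) (Fin d) ℂ) (u v : Cn d) : ℂ := ∑ a, ∑ b, S a b * u a * v b

theorem hb_single (G : Matrix (Fin d) (Fin d) ℂ) (a b : Fin d) :
    hb G (EuclideanSpace.single a 1) (EuclideanSpace.single b 1) = G a b := by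
  simp [hb, apply_ite]

theorem sb_single (S : Matrix (Fin d) (Fin d) ℂ) (a b : Fin d) :
    sb S (EuclideanSpace.single a 1) (EuclideanSpace.single b 1) = S a b := by
  simp [sb, apply_ite]

theorem hb_I_left (G : Matrix (Fin d) (Fin d) ℂ) (u v : Cn d) : hb G (I • u) v = I * hb G u v := by
  simp only [hb, PiLp.smul_apply, smul_eq_mul, Finset.mul_sum]
  exact Finset.sum_congr rfl fun a _ => Finset.sum_congr rfl fun b _ => by ring

theorem hb_I_right (G : Matrix (Fin d) (Fin d) ℂ) (u v : Cn d) :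
    hb G u (I • v) = -I * hb G u v := by
  simp only [hb, PiLp.smul_apply, smul_eq_mul, map_mul, conj_I, Finset.mul_sum]
  exact Finset.sum_congr rfl fun a _ => Finset.sum_congr rfl fun b _ => by ring

theorem sb_I_left (S : Matrix (Fin d) (Fin d) ℂ) (u v : Cn d) : sb S (I • u) v = I * sb S u v := by
  simp only [sb, PiLp.smul_apply, smul_eq_mul, Finset.mul_sum]
  exact Finset.sum_congr rfl fun a _ => Finset.sum_congr rfl fun b _ => by ring

theorem sb_I_right (S : Matrix (Fin d) (Fin d) ℂ) (u v : Cn d) :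
    sb S u (I • v) = I * sb S u v := by
  simp only [sb, PiLp.smul_apply, smul_eq_mul, Finset.mul_sum]
  exact Finset.sum_congr rfl fun a _ => Finset.sum_congr rfl fun b _ => by ring

theorem hb_conj {G : Matrix (Fin d) (Fin d) ℂ} (hG : G.IsHermitian) (u v : Cn d) :
    conj (hb G u v) = hb G v u := by
  simp only [hb, map_sum, map_mul, Complex.conj_conj]
  rw [Finset.sum_comm]
  refine Finset.sum_congr rfl fun b _ => Finset.sum_congr rfl fun a _ => ?_
  have : conj (G a b) = G b a := by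
    have := congrFun (congrFun hG.eq b) a
    simpa [Matrix.conjTranspose_apply] using this
  rw [this]
  ring

theorem sb_alt {S : Matrix (Fin d) (Fin d) ℂ} (hS : Sᵀ = -S) (u v : Cn d) :
    sb S u v = -sb S v u := by
  simp only [sb, ← Finset.sum_neg_distrib]
  rw [Finset.sum_comm]
  refine Finset.sum_congr rfl fun b _ => Finset.sum_congr rfl fun a _ => ?_
  have : S a b = -S b a := by
    have := congrFun (congrFun hS b) a
    simpa [Matrix.transpose_apply] using this
  rw [this]
  ring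

/-- `⟪Gᵀ u, v⟫ = Re h(u, v)` -/
theorem bM_mL (G : Matrix (Fin d) (Fin d) ℂ) (hG : G.IsHermitian) (u v : Cn d) :
    bM (mL Gᵀ) u v = (hb G u v).re := by
  rw [bM_apply, ← Complex.conj_re (hb G u v), hb_conj hG]
  congr 1
  simp only [mL_apply, Matrix.mulVec, dotProduct, Matrix.transpose_apply, hb, map_sum, map_mul,
    Finset.sum_mul]
  refine Finset.sum_congr rfl fun a _ => Finset.sum_congr rfl fun b _ => ?_
  have : conj (G b a) = G a b := by
    have := congrFun (congrFun hG.eq a) b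
    simpa [Matrix.conjTranspose_apply] using this
  rw [this]
  ring

theorem bM_cL (S : Matrix (Fin d) (Fin d) ℂ) (u v : Cn d) :
    bM (cL.comp (mL Sᵀ)) u v = (sb S u v).re := by
  rw [bM_apply]
  congr 1
  simp only [ContinuousLinearMap.comp_apply, cL_apply, Complex.conj_conj, mL_apply, Matrix.mulVec,
    dotProduct, Matrix.transpose_apply, sb, Finset.sum_mul]
  rw [Finset.sum_comm]

/-- a bilinear form vanishing ... `⟪x, v⟫ = ⟪y, v⟫` for all `v` -/
theorem bM_inj {T T' : Cn d →L[ℝ] Cn d} {u u' : Cn d} (h : ∀ v, bM T u v = bM T' u' v) :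
    T u = T' u' := by
  have h2 : ∀ v, ⟪T u, v⟫_ℝ = ⟪T' u', v⟫_ℝ := h
  exact ext_inner_right ℝ h2

end alg

/-! ### real charts of an atlas -/

variable {d : ℕ} {X : Type} [TopologicalSpace X] (A : Atl d X)

/-- the real charts of a holomorphic atlas -/
def ofAtl : RCh (Cn d) X where
  ι := A.ι
  e := A.e
  cover := A.cover
  sm i j := by
    have h1 := A.holo i j
    have h2 : IsOpen {z | z ∈ (A.e i).target ∧ (A.e i).symm z ∈ (A.e j).source} :=
      (A.e i).isOpen_inter_preimage_symm (A.e j).open_source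
    exact ((Crest.Agent.R266.SCV.contDiffOn_omega_of_differentiableOn h2 h1).restrict_scalars
      ℝ).of_le le_top

theorem ofAtl_t_diff {i j : A.ι} {z : Cn d} (hz : z ∈ (ofAtl A).ov i j) :
    DifferentiableAt ℂ ((ofAtl A).t i j) z :=
  (A.holo i j).differentiableAt ((RCh.isOpen_ov (C := ofAtl A) i j).mem_nhds hz)

theorem ofAtl_dt {i j : A.ι} {z : Cn d} (hz : z ∈ (ofAtl A).ov i j) (v : Cn d) (b : Fin d) :
    fderiv ℝ ((ofAtl A).t i j) z v b =
      (Jm A i j ((A.e i).symm z) *ᵥ v.ofLp) b := by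
  have h1 := (ofAtl_t_diff A hz).fderiv_restrictScalars ℝ
  rw [h1]
  have h2 : (fderiv ℂ ((ofAtl A).t i j) z) v =
      ∑ a, v a • (fderiv ℂ ((ofAtl A).t i j) z) (EuclideanSpace.single a 1) := by
    conv_lhs => rw [← (EuclideanSpace.basisFun (Fin d) ℂ).sum_repr v]
    simp
  show (fderiv ℂ ((ofAtl A).t i j) z) v b = _
  rw [h2]
  simp only [Matrix.mulVec, dotProduct, Jm_apply, Atl.J]
  have h3 : A.e i ((A.e i).symm z) = z := (A.e i).right_inv hz.1
  rw [h3]
  simp [mul_comm]
  rfl

end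

end Crest.Agent.R281.HkR_835
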