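import Crest.Agent.R281.PL1_713
import Crest.Agent.R281.HkR4_835
import Crest.Agent.R260.NNB2_580

/-!
# R281 (S0424), PREQ (helper713), part 2: change of charts for line bundles with connection

* `PL.chg h κ hκ L`   : `L` read in the charts of `C'` (chart `a` of `C'` inside the chart `κ a`)
* `chS : Sec L ≃ₗ[ℂ] Sec (L.chg ..)`, `chS_D`
* `JC C J A`          : `A : Atl n X` is a holomorphic atlas for the field `J`
* `chS_mem`           : `s ∈ L.H0 J ↔ chS s ∈ (L.chg ..).H0 (iJ)`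
-/

set_option autoImplicit false
set_option linter.unusedSectionVars false
set_option maxSynthPendingDepth 3

open Set Filter Topology Complex
open scoped ContDiff

namespace Crest.Agent.R281.PL_713

open Crest.Agent.R281.HkR_835 Crest.Agent.R281.Ti_846

noncomputable section

variable {V V' X : Type} [NormedAddCommGroup V] [NormedSpace ℝ V] [NormedAddCommGroup V']
  [NormedSpace ℝ V'] [TopologicalSpace X] {C : RCh V X} {C' : RCh V' X}

/-- each chart of `C'` lies in a chart of `C` -/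
def Sub (C : RCh V X) (C' : RCh V' X) (κ : C'.ι → C.ι) : Prop :=
  ∀ a, (C'.e a).source ⊆ (C.e (κ a)).source

theorem Sub.mem {κ : C'.ι → C.ι} (hκ : Sub C C' κ) {a : C'.ι} {z : V'}
    (hz : z ∈ (C'.e a).target) : z ∈ mov C C' (κ a) a := ⟨hz, hκ a ((C'.e a).map_target hz)⟩

theorem Sub.mem2 {κ : C'.ι → C.ι} (hκ : Sub C C' κ) {a b : C'.ι} {z : V'}
    (hz : z ∈ C'.ov a b) : z ∈ mov C C' (κ b) a := ⟨hz.1, hκ b hz.2⟩

/-- a connection form read in the chart `a` of `C'` -/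
def thc (L : PL C) (C' : RCh V' X) (i : C.ι) (a : C'.ι) (z : V') : V' →L[ℝ] ℝ :=
  (L.th i (mt C C' i a z)).comp (fderiv ℝ (mt C C' i a) z)

@[simp] theorem thc_apply (L : PL C) (i : C.ι) (a : C'.ι) (z v : V') :
    thc L C' i a z v = L.th i (mt C C' i a z) (fderiv ℝ (mt C C' i a) z v) := rfl

theorem thc_sm (h : Cmp C C') (L : PL C) (i : C.ι) (a : C'.ι) :
    ContDiffOn ℝ ∞ (thc L C' i a) (mov C C' i a) := by
  have h0 := Cmp.isOpen_mov C C' i a
  have h1 : ContDiffOn ℝ ∞ (fderiv ℝ (mt C C' i a)) (mov C C' i a) :=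
    (h.s i a).fderiv_of_isOpen h0 (by simp)
  have h2 : ContDiffOn ℝ ∞ (fun z => L.th i (mt C C' i a z)) (mov C C' i a) :=
    (L.th_sm i).comp (h.s i a) fun z hz => (Cmp.mt_mem hz).1
  exact h2.clm_comp h1

namespace PL

/-- `L` read in the charts of `C'` -/
def chg (h : Cmp C C') (κ : C'.ι → C.ι) (hκ : Sub C C' κ) (L : PL C) : PL C' where
  g a b z := L.g (κ a) (κ b) (mt C C' (κ a) a z)
  sm a b := (L.sm (κ a) (κ b)).comp ((h.s (κ a) a).mono fun z hz => hκ.mem hz.1)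
    fun z hz => Cmp.mt_ov (hκ.mem hz.1) (hκ.mem2 hz)
  unit a b z hz := L.unit _ _ _ (Cmp.mt_ov (hκ.mem hz.1) (hκ.mem2 hz))
  coc a b c z hz hz' := by
    rw [L.coc (κ a) (κ b) (κ c) _ (Cmp.mt_ov (hκ.mem hz.1) (hκ.mem2 hz))
      (Cmp.mt_ov (hκ.mem hz.1) (hκ.mem2 hz')), Cmp.mt_t (hκ.mem hz.1), Cmp.t_mt hz]
  th a z := thc L C' (κ a) a z
  th_sm a := (thc_sm h L (κ a) a).mono fun z hz => hκ.mem hz
  law a b z hz v := by
    have hm := Cmp.mt_ov (hκ.mem hz.1) (hκ.mem2 hz)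
    have h1 : HasFDerivAt (fun z => L.g (κ a) (κ b) (mt C C' (κ a) a z)) _ z :=
      HasFDerivAt.comp (g := L.g (κ a) (κ b)) (f := mt C C' (κ a) a) z (L.g_diff hm).hasFDerivAt
        (h.diff (hκ.mem hz.1)).hasFDerivAt
    rw [h1.fderiv, ContinuousLinearMap.comp_apply, L.law _ _ _ hm, thc_apply, thc_apply,
      Cmp.mt_t (hκ.mem hz.1), h.dmt_t (hκ.mem hz.1) (hκ.mem2 hz), Cmp.t_mt hz,
      h.dt_mt hz (hκ.mem2 hz)]

@[simp] theorem chg_g (h : Cmp C C') (κ : C'.ι → C.ι) (hκ : Sub C C' κ) (L : PL C) (a b : C'.ι)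
    (z : V') : (L.chg h κ hκ).g a b z = L.g (κ a) (κ b) (mt C C' (κ a) a z) := rfl
@[simp] theorem chg_th (h : Cmp C C') (κ : C'.ι → C.ι) (hκ : Sub C C' κ) (L : PL C) (a : C'.ι)
    (z v : V') : (L.chg h κ hκ).th a z v =
      L.th (κ a) (mt C C' (κ a) a z) (fderiv ℝ (mt C C' (κ a) a) z v) := rfl

theorem chg_pow (h : Cmp C C') (κ : C'.ι → C.ι) (hκ : Sub C C' κ) (L : PL C) (m : ℕ) :
    (L.pow m).chg h κ hκ = (L.chg h κ hκ).pow m := by
  refine PL.ext rfl ?_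
  funext a z
  ext v
  simp

theorem chg_mul (h : Cmp C C') (κ : C'.ι → C.ι) (hκ : Sub C C' κ) (L L' : PL C) :
    (L.mul L').chg h κ hκ = (L.chg h κ hκ).mul (L'.chg h κ hκ) := by
  refine PL.ext rfl ?_
  funext a z
  ext v
  simp

/-- the curvature of the bundle read in `C'` -/
theorem chg_F (h : Cmp C C') (κ : C'.ι → C.ι) (hκ : Sub C C' κ) (L : PL C) {a : C'.ι} {z : V'}
    (hz : z ∈ (C'.e a).target) (u v : V') :
    (L.chg h κ hκ).F.w a z u v = L.F.w (κ a) (mt C C' (κ a) a z)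
      (fderiv ℝ (mt C C' (κ a) a) z u) (fderiv ℝ (mt C C' (κ a) a) z v) := by
  have hm := hκ.mem hz
  have h0 := Cmp.isOpen_mov C C' (κ a) a
  have hs : ContDiffAt ℝ ∞ (mt C C' (κ a) a) z := (h.s (κ a) a).contDiffAt (h0.mem_nhds hm)
  have ht' : DifferentiableAt ℝ (fderiv ℝ (mt C C' (κ a) a)) z :=
    (((h.s (κ a) a).fderiv_of_isOpen h0 (m := ∞) (by simp)).contDiffAt
      (h0.mem_nhds hm)).differentiableAt (by simp)
  have h2 : HasFDerivAt (fun y => L.th (κ a) (mt C C' (κ a) a y))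
      ((fderiv ℝ (L.th (κ a)) (mt C C' (κ a) a z)).comp (fderiv ℝ (mt C C' (κ a) a) z)) z :=
    HasFDerivAt.comp (g := L.th (κ a)) (f := mt C C' (κ a) a) z
      (L.th_diff (Cmp.mt_mem hm).1).hasFDerivAt (h.diff hm).hasFDerivAt
  have h3 : HasFDerivAt ((L.chg h κ hκ).th a) _ z := h2.clm_comp ht'.hasFDerivAt
  have h4 : ∀ p q, fderiv ℝ ((L.chg h κ hκ).th a) z p q =
      fderiv ℝ (L.th (κ a)) (mt C C' (κ a) a z) (fderiv ℝ (mt C C' (κ a) a) z p)
        (fderiv ℝ (mt C C' (κ a) a) z q) +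
        L.th (κ a) (mt C C' (κ a) a z) (fderiv ℝ (fderiv ℝ (mt C C' (κ a) a)) z p q) := by
    intro p q
    rw [h3.fderiv]
    simp [add_comm]
  simp only [F_w]
  rw [h4, h4, sym2 hs u v]
  ring

end PL

section chs

variable (h : Cmp C C') (κ : C'.ι → C.ι) (hκ : Sub C C' κ) {L : PL C}

open Classical in
/-- a section read in the charts of `C'` -/
def chF (s : Sec L) : Sec (L.chg h κ hκ) where
  u a z := if z ∈ (C'.e a).target then s.u (κ a) (mt C C' (κ a) a z) else 0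
  sm a := ((s.sm (κ a)).comp ((h.s (κ a) a).mono fun z hz => hκ.mem hz)
    fun z hz => (Cmp.mt_mem (hκ.mem hz)).1).congr fun z hz => by
      rw [if_pos hz]
      rfl
  tr a b z hz := by
    have hz' : C'.t a b z ∈ (C'.e b).target := (RCh.t_mem hz).1
    rw [if_pos hz.1, if_pos hz', PL.chg_g,
      s.tr (κ a) (κ b) _ (Cmp.mt_ov (hκ.mem hz.1) (hκ.mem2 hz)), Cmp.mt_t (hκ.mem hz.1),
      Cmp.t_mt hz]
  off a z hz := by rw [if_neg hz]

theorem chF_u (s : Sec L) {a : C'.ι} {z : V'} (hz : z ∈ (C'.e a).target) :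
    (chF h κ hκ s).u a z = s.u (κ a) (mt C C' (κ a) a z) := if_pos hz

/-- the inverse: independence of the chart `a` -/
theorem chB_eq (s : Sec (L.chg h κ hκ)) {i : C.ι} {a b : C'.ι} {z : V} (hz : z ∈ mov C' C a i)
    (hz' : z ∈ mov C' C b i) :
    L.g i (κ a) z * s.u a (mt C' C a i z) = L.g i (κ b) z * s.u b (mt C' C b i z) := by
  have h1 : mt C' C a i z ∈ C'.ov a b := Cmp.mt_ov (C := C') (C' := C) hz hz'
  have h2 : z ∈ C.ov i (κ a) := ⟨hz.1, hκ a hz.2⟩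
  have h3 : z ∈ C.ov i (κ b) := ⟨hz.1, hκ b hz'.2⟩
  have h4 : mt C C' (κ a) a (mt C' C a i z) = C.t i (κ a) z := by
    show C.e (κ a) ((C'.e a).symm (C'.e a ((C.e i).symm z))) = C.e (κ a) ((C.e i).symm z)
    rw [(C'.e a).left_inv hz.2]
  rw [s.tr a b _ h1, PL.chg_g, h4, Cmp.mt_t (C := C') (C' := C) hz, L.coc i (κ a) (κ b) z h2 h3,
    mul_assoc]

open Classical in
/-- the inverse of `chF` -/
def chB (s : Sec (L.chg h κ hκ)) : Sec L where
  u i z := if z ∈ (C.e i).target then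
    L.g i (κ (Cmp.idx C' C i z)) z * s.u (Cmp.idx C' C i z) (mt C' C (Cmp.idx C' C i z) i z) else 0
  sm i := by
    intro z hz
    have hi := Cmp.idx_mem (C := C') (C' := C) (j := i) hz
    set a := Cmp.idx C' C i z with ha
    have h0 := Cmp.isOpen_mov C' C a i
    have h1 : ContDiffOn ℝ ∞ (fun z => L.g i (κ a) z * s.u a (mt C' C a i z)) (mov C' C a i) :=
      ((L.sm i (κ a)).mono fun y hy => ⟨hy.1, hκ a hy.2⟩).mul
        ((s.sm a).comp (h.s' i a) fun y hy => (Cmp.mt_mem (C := C') (C' := C) hy).1)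
    refine ((h1.contDiffAt (h0.mem_nhds hi)).congr_of_eventuallyEq ?_).contDiffWithinAt
    filter_upwards [h0.mem_nhds hi] with y hy
    rw [if_pos hy.1]
    exact chB_eq h κ hκ s (Cmp.idx_mem (C := C') (C' := C) hy.1) hy
  tr i j z hz := by
    have hz' : C.t i j z ∈ (C.e j).target := (RCh.t_mem hz).1
    rw [if_pos hz.1, if_pos hz']
    have hi := Cmp.idx_mem (C := C') (C' := C) (j := i) hz.1
    set a := Cmp.idx C' C i z with ha
    have h1 : C.t i j z ∈ mov C' C a j := Cmp.t_mov (C := C') (C' := C) hz hi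
    rw [chB_eq h κ hκ s (Cmp.idx_mem (C := C') (C' := C) hz') h1, Cmp.t_mt (C := C') (C' := C) hz,
      L.coc i j (κ a) z hz ⟨hz.1, hκ a hi.2⟩, mul_assoc]
  off i z hz := by rw [if_neg hz]

theorem chB_u (s : Sec (L.chg h κ hκ)) {i : C.ι} {a : C'.ι} {z : V} (hz : z ∈ mov C' C a i) :
    (chB h κ hκ s).u i z = L.g i (κ a) z * s.u a (mt C' C a i z) :=
  (if_pos hz.1).trans (chB_eq h κ hκ s (Cmp.idx_mem (C := C') (C' := C) hz.1) hz)

/-- **sections read in other charts** -/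
def chS : Sec L ≃ₗ[ℂ] Sec (L.chg h κ hκ) where
  toFun := chF h κ hκ
  invFun := chB h κ hκ
  map_add' s t := by
    refine Sec.ext' fun a z hz => ?_
    rw [chF_u h κ hκ _ hz, Sec.add_u, Sec.add_u, Pi.add_apply, Pi.add_apply, Pi.add_apply,
      Pi.add_apply, chF_u h κ hκ _ hz, chF_u h κ hκ _ hz]
  map_smul' c s := by
    refine Sec.ext' fun a z hz => ?_
    rw [chF_u h κ hκ _ hz, RingHom.id_apply, Sec.smul_u, Sec.smul_u]
    simp only [Pi.smul_apply]
    rw [chF_u h κ hκ _ hz]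
  left_inv s := by
    refine Sec.ext' fun i z hz => ?_
    have hi := Cmp.idx_mem (C := C') (C' := C) (j := i) hz
    rw [chB_u h κ hκ _ hi, chF_u h κ hκ s (Cmp.mt_mem (C := C') (C' := C) hi).1]
    set a := Cmp.idx C' C i z with ha
    have h4 : mt C C' (κ a) a (mt C' C a i z) = C.t i (κ a) z := by
      show C.e (κ a) ((C'.e a).symm (C'.e a ((C.e i).symm z))) = C.e (κ a) ((C.e i).symm z)
      rw [(C'.e a).left_inv hi.2]
    rw [h4, ← s.tr i (κ a) z ⟨hi.1, hκ a hi.2⟩]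
  right_inv s := by
    refine Sec.ext' fun a z hz => ?_
    have hm := hκ.mem hz
    have h1 : mt C C' (κ a) a z ∈ mov C' C a (κ a) := Cmp.mt_mem hm
    rw [chF_u h κ hκ _ hz, chB_u h κ hκ s h1, Cmp.mt_mt hm, L.g_self (Cmp.mt_mem hm).1, one_mul]

@[simp] theorem chS_apply (s : Sec L) : chS h κ hκ s = chF h κ hκ s := rfl

theorem chF_D (s : Sec L) {a : C'.ι} {z : V'} (hz : z ∈ (C'.e a).target) (v : V') :
    (chF h κ hκ s).D a z v =
      s.D (κ a) (mt C C' (κ a) a z) (fderiv ℝ (mt C C' (κ a) a) z v) := by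
  have hm := hκ.mem hz
  have h1 : (chF h κ hκ s).u a =ᶠ[𝓝 z] fun y => s.u (κ a) (mt C C' (κ a) a y) := by
    filter_upwards [(C'.e a).open_target.mem_nhds hz] with y hy using chF_u h κ hκ s hy
  have h2 : HasFDerivAt (fun y => s.u (κ a) (mt C C' (κ a) a y)) _ z :=
    HasFDerivAt.comp (g := s.u (κ a)) (f := mt C C' (κ a) a) z
      (s.diffAt (Cmp.mt_mem hm).1).hasFDerivAt (h.diff hm).hasFDerivAt
  unfold Sec.D
  rw [h1.fderiv_eq, h2.fderiv, chF_u h κ hκ s hz]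
  rfl

theorem chF_mul {L' : PL C} (s : Sec L) (t : Sec L') {a : C'.ι} {z : V'}
    (hz : z ∈ (C'.e a).target) : (chF h κ hκ (s.mul t)).u a z =
      (chF h κ hκ s).u a z * (chF h κ hκ t).u a z := by
  rw [chF_u h κ hκ _ hz, chF_u h κ hκ _ hz, chF_u h κ hκ _ hz]
  rfl

end chs

/-! ### holomorphic atlases -/

open Crest.Agent.R275.Geo

/-- multiplication by `i` in the charts of a holomorphic atlas -/
def iJ {n : ℕ} (A : Atl n X) : (ofAtl A).ι → Cn n → Cn n →L[ℝ] Cn n := fun _ _ => iL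

@[simp] theorem iJ_apply {n : ℕ} (A : Atl n X) (i : (ofAtl A).ι) (z v : Cn n) :
    iJ A i z v = I • v := rfl

/-- `A` is a holomorphic atlas for the field of endomorphisms `J` -/
structure JC {n : ℕ} (C : RCh V X) (J : C.ι → V → V →L[ℝ] V) (A : Atl n X) : Prop where
  cmp : Cmp C (ofAtl A)
  lin : ∀ i a, ∀ z ∈ mov C (ofAtl A) i a, ∀ v : Cn n,
    fderiv ℝ (mt C (ofAtl A) i a) z (I • v) =
      J i (mt C (ofAtl A) i a z) (fderiv ℝ (mt C (ofAtl A) i a) z v)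

namespace JC

variable {n : ℕ} {J : C.ι → V → V →L[ℝ] V} {A : Atl n X} (h : JC C J A)

include h

/-- transition law of `J` -/
theorem J_tr {i j : C.ι} {z : V} (hz : z ∈ C.ov i j) (v : V) :
    fderiv ℝ (C.t i j) z (J i z v) = J j (C.t i j z) (fderiv ℝ (C.t i j) z v) := by
  obtain ⟨a, ha⟩ := Cmp.exists_mov (C' := C) (ofAtl A) (j := i) hz.1
  set y := mt (ofAtl A) C a i z with hy
  have h1 : y ∈ mov C (ofAtl A) i a := Cmp.mt_mem (C := ofAtl A) (C' := C) ha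
  have h2 : mt C (ofAtl A) i a y = z := Cmp.mt_mt (C := ofAtl A) (C' := C) ha
  have h3 : y ∈ mov C (ofAtl A) j a := by
    refine ⟨h1.1, ?_⟩
    have : ((ofAtl A).e a).symm y = (C.e i).symm z := ((ofAtl A).e a).left_inv ha.2
    rw [this]
    exact hz.2
  set v' := fderiv ℝ (mt (ofAtl A) C a i) z v with hv'
  have h4 : fderiv ℝ (mt C (ofAtl A) i a) y v' = v := h.cmp.symm.d_d ha v
  have h5 := h.cmp.dmt_t h1 h3
  have h6 := h.lin i a y h1 v'
  have h7 := h.lin j a y h3 v'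
  rw [← h5, ← h5, h6] at h7
  rw [h2, h4] at h7
  rw [h7, ← h2, Cmp.mt_t h1]

/-- `D (mt)` of the inverse transition is `ℂ`-linear for `J` -/
theorem lin' {i : C.ι} {a : A.ι} {z : V} (hz : z ∈ mov (ofAtl A) C a i) (v : V) :
    fderiv ℝ (mt (ofAtl A) C a i) z (J i z v) = I • fderiv ℝ (mt (ofAtl A) C a i) z v := by
  have h1 : mt (ofAtl A) C a i z ∈ mov C (ofAtl A) i a := Cmp.mt_mem (C := ofAtl A) (C' := C) hz
  have h2 : mt C (ofAtl A) i a (mt (ofAtl A) C a i z) = z :=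
    Cmp.mt_mt (C := ofAtl A) (C' := C) hz
  refine h.cmp.inj h1 ?_
  rw [h.lin i a _ h1, h2, h.cmp.symm.d_d hz, h.cmp.symm.d_d hz]

/-- `J` is determined by the atlas -/
theorem sq {i : C.ι} {z : V} (hz : z ∈ (C.e i).target) (v : V) : J i z (J i z v) = -v := by
  obtain ⟨a, ha⟩ := Cmp.exists_mov (C' := C) (ofAtl A) (j := i) hz
  have h1 := h.lin' ha (J i z v)
  rw [h.lin' ha v, smul_smul, I_mul_I, neg_smul, one_smul, ← map_neg] at h1
  exact h.cmp.symm.inj ha h1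

/-- a change of the holomorphic atlas -/
theorem mem_H0 (κ : A.ι → C.ι) (hκ : Sub C (ofAtl A) κ) {L : PL C} (s : Sec L) :
    chF h.cmp κ hκ s ∈ (L.chg h.cmp κ hκ).H0 (iJ A) ↔ s ∈ L.H0 J := by
  constructor
  · intro hs i z hz v
    obtain ⟨a, ha⟩ := Cmp.exists_mov (C' := C) (ofAtl A) (j := i) hz
    have hz2 : z ∈ C.ov i (κ a) := ⟨hz, hκ a ha.2⟩
    set y := mt (ofAtl A) C a i z with hy
    have h1 : y ∈ mov C (ofAtl A) i a := Cmp.mt_mem (C := ofAtl A) (C' := C) ha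
    have h2 : mt C (ofAtl A) (κ a) a y = C.t i (κ a) z := by
      show C.e (κ a) ((A.e a).symm (A.e a ((C.e i).symm z))) = C.e (κ a) ((C.e i).symm z)
      rw [(A.e a).left_inv ha.2]
    set v' := fderiv ℝ (mt C (ofAtl A) (κ a) a) y with hv'
    have h3 : ∀ w, ∃ w', v' w' = w := fun w => by
      have h31 : y ∈ mov C (ofAtl A) (κ a) a := hκ.mem h1.1
      refine ⟨fderiv ℝ (mt (ofAtl A) C a (κ a)) (mt C (ofAtl A) (κ a) a y) w, ?_⟩
      exact h.cmp.d_d' h31 w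
    have h5 := hs a y h1.1
    unfold Sec.db at h5 ⊢
    rw [s.D_tr hz2, s.D_tr hz2, h.J_tr hz2]
    obtain ⟨w', hw'⟩ := h3 (fderiv ℝ (C.t i (κ a)) z v)
    have h6 := h5 w'
    rw [iJ_apply, chF_D h.cmp κ hκ s h1.1, chF_D h.cmp κ hκ s h1.1,
      h.lin (κ a) a y (hκ.mem h1.1), h2] at h6
    have hw2 : fderiv ℝ (mt C (ofAtl A) (κ a) a) y w' = fderiv ℝ (C.t i (κ a)) z v := hw'
    rw [hw2] at h6
    linear_combination L.g i (κ a) z * h6
  · intro hs a z hz v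
    unfold Sec.db
    rw [chF_D h.cmp κ hκ s hz, chF_D h.cmp κ hκ s hz, iJ_apply, h.lin (κ a) a z (hκ.mem hz)]
    exact hs (κ a) _ (Cmp.mt_mem (hκ.mem hz)).1 _

/-- type `(1,1)` of the curvature in the holomorphic charts -/
theorem F_I (κ : A.ι → C.ι) (hκ : Sub C (ofAtl A) κ) {L : PL C}
    (hF : ∀ i, ∀ z ∈ (C.e i).target, ∀ u v, L.F.w i z (J i z u) (J i z v) = L.F.w i z u v)
    {a : A.ι} {z : Cn n} (hz : z ∈ (A.e a).target) (u v : Cn n) :
    (L.chg h.cmp κ hκ).F.w a z (I • u) (I • v) = (L.chg h.cmp κ hκ).F.w a z u v := by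
  rw [PL.chg_F h.cmp κ hκ L hz, PL.chg_F h.cmp κ hκ L hz, h.lin (κ a) a z (hκ.mem hz),
    h.lin (κ a) a z (hκ.mem hz), hF _ _ (Cmp.mt_mem (hκ.mem hz)).1]

end JC

/-- the complex structures of a hyperkaehler triple -/
theorem JC.of_cp {n : ℕ} {A : Atl n X} {H : HkT C} {k : Fin 3}
    (hA : ∀ a, Crest.Agent.R260.NNB_580.JCh (H.acm k) (A.e a)) : JC C (H.J k) A :=
  ⟨⟨fun i j => (hA j).sm' i, fun i j => (hA j).sm i⟩,
    fun i a z hz v => (hA a).lin' (i := i) hz v⟩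

/-- an atlas for its own complex structure -/
theorem JC.refl {n : ℕ} (A : Atl n X) : JC (ofAtl A) (iJ A) A where
  cmp := ⟨fun i j => RCh.t_smooth (C := ofAtl A) j i, fun i j => RCh.t_smooth (C := ofAtl A) i j⟩
  lin i a z hz v := by
    have h1 := (ofAtl_t_diff A hz).fderiv_restrictScalars ℝ
    show fderiv ℝ ((ofAtl A).t a i) z (I • v) = I • fderiv ℝ ((ofAtl A).t a i) z v
    rw [h1]
    simp

end

end Crest.Agent.R281.PL_713
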