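import Crest.Agent.R281.Sk0_474
import Crest.Agent.R281.AlgDefs_998
import Crest.Agent.R281.Sta2_684
import Crest.Agent.R281.Nef3_252
import Crest.Agent.R281.PL2_713
import Crest.Agent.R281.HkM5_835
import Crest.Agent.R281.Al3_830
import Crest.Agent.R281.Fuj7_207
import Crest.Agent.R281.Bx1_557

/-!
# R281 (S0424), RANK281 (helper902): the literal nodes of the transport V3 (551 #7603, 902 #7653)

Version 3 (06:35Z, frozen as decided in 829 #8338, #8367, #8380): `V = Cn (2 n)`; sign rule R7 of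
474 (`0 < Q (om 0) (om 0)`); `Ctx.top`; `Road` in the convention of 998
(`(om 0, om 1, om 2) = (A, κ, -b)`), `ha` up to a positive factor; `EndIso` = a smooth vertical ray
of members isomorphic to the chart member (551); `Box.base, base1, mvc, ort0, rep`; `Tub` sees `Q, e`.

Carrier: `C : RCh V X`, `HkT C` (835), `F2 C` module (358), `Ex` (846), `PL C` (713),
`AJ`, `KCls`, `NefC`, `HolM`, `Bi` (476, 252), `Frm`, `Cusp`, `Leg` (998), `TopI` (830).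

* `hN L J N`      : `h⁰(X, J, L) ≥ N` (some connection with curvature of type (1,1))
* `IsoId J J'`    : isomorphic by a diffeomorphism which is the identity on classes
* `Ctx n C Q`     : the topological context (Fujiki form, uniqueness of `σ`)
* `Given Q H L0 e`: `e` is of type (1,1) for `J 0`, isotropic, in the closed positive cone
* `Move G`, `SameTw` : one move; the same metric up to rotation and scaling
* `Box Q H0 e`    : (T1) the box around the given structure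
* `Road Alg B`    : (T2) one `x₁`, one path, one end
* `EndIso R x`    : (T3) chart member = end member
* `Pres n H L0`   : presentation of a member by an atlas and a line bundle with metric
* `SetupP`, `BoxP`, `RoadP`, `ChartEndP`, `NefRayP`, `ToriP`, `PresP`, `MemHypP`, `KappaP`,
  `OpenP`, `SemiP` : the nodes
-/

set_option autoImplicit false
set_option linter.unusedSectionVars false
set_option maxSynthPendingDepth 3

open Set Filter Topology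
open scoped ContDiff

namespace Crest.Agent.R281.RkD_902

open Crest.Agent.R275.Geo Crest.Agent.R275.Core144 Crest.Agent.R275.GC293
open Crest.Agent.R275.EDR890
open Crest.Agent.R273.Defs_333 Crest.Agent.R273.Kah_333
open Crest.Agent.R260.ACM_580 Crest.Agent.R260.NNB_580
open Crest.Agent.R281.Defs_273 Crest.Agent.R281.Rk_599
open Crest.Agent.R281.HkR_835 Crest.Agent.R281.Ti_846 Crest.Agent.R281.Cdr_234
open Crest.Agent.R281.Dif_268 Crest.Agent.R281.PL_713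
open Crest.Agent.R281.NefO_476 Crest.Agent.R281.Nef_252
open Crest.Agent.R281.Alg_998
open Crest.Agent.R281.Al_830 (TopI)
open Crest.Agent.R281.Fuj7_207 (bn)
open Crest.Agent.R281.Sta2_684 (smulP)
open Crest.Agent.R281.Bx_557 (SmF)

noncomputable section

section defs

variable {V X : Type} [NormedAddCommGroup V] [NormedSpace ℝ V] [TopologicalSpace X]
  {C : RCh V X}

/-- `h⁰(X, J, L) ≥ N` -/
def hN (L : PL C) (J : AJ C) (N : ℕ) : Prop :=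
  ∃ a : F1 C, T11 J (L.add a).F ∧ (L.add a).HasN J.J N

/-- isomorphic by a diffeomorphism which is the identity on classes -/
def IsoId (J J' : AJ C) : Prop :=
  ∃ g k : SMap C C, Bi g k ∧ HolM g J J' ∧ ∀ w : F2 C, Cl (g.pull w) w

/-- the topological context -/
structure Ctx (n : ℕ) {X : Type} [TopologicalSpace X] [CompactSpace X] (C : RCh (Cn (2 * n)) X)
    (Q : F2 C →ₗ[ℝ] F2 C →ₗ[ℝ] ℝ) : Prop where
  n1 : 1 ≤ n
  /-- `Q` is a positive multiple of the polar form of the Beauville-Bogomolov-Fujiki form -/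
  top : ∃ (P : RPart C) (q : QuadraticForm ℝ (F2 C)) (κ : ℝ), 0 < κ ∧
    TopI (lc (2 * n)) (bn (two_mul n)) P q ∧ ∀ x y, Q x y = κ * QuadraticMap.polar q x y
  symm : ∀ x y, Q x y = Q y x
  ex : ∀ x y, Ex x → Q x y = 0
  eq : ∀ (H : HkT C) k, Q (H.om k) (H.om k) = Q (H.om 0) (H.om 0)
  ort : ∀ (H : HkT C) (k l : Fin 3), k ≠ l → Q (H.om k) (H.om l) = 0
  /-- signature -/
  neg : ∀ H : HkT C, 0 < Q (H.om 0) (H.om 0) → ∀ x : F2 C, (∀ k, Q x (H.om k) = 0) →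
    Q x x ≤ 0 ∧ (Q x x = 0 → Ex x)
  /-- (1,1)-classes -/
  t11 : ∀ H : HkT C, 0 < Q (H.om 0) (H.om 0) → ∀ x : F2 C, Q x (H.om 1) = 0 →
    Q x (H.om 2) = 0 → ∃ y, Cl y x ∧ T11 (ofHk H 0) y
  uniq : ∀ H : HkT C, 0 < Q (H.om 0) (H.om 0) → UniqT H
  rat : ∀ x y : F2 C, RatF x → RatF y → ∃ r : ℚ, Q x y = r
  int : ∀ x y : F2 C, IntF x → IntF y → ∃ k : ℤ, Q x y = k
  span : ∃ (m : ℕ) (b : Fin m → F2 C), (∀ j, RatF (b j)) ∧
    ∀ x : F2 C, ∃! a : Fin m → ℝ, Cl x (∑ j, a j • b j)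

/-- the class `e` (and the bundle `L0`) at the structure `(X, J 0)` of `H` -/
structure Given (Q : F2 C →ₗ[ℝ] F2 C →ₗ[ℝ] ℝ) (H : HkT C) (L0 : PL C) (e : F2 C) : Prop where
  pos : 0 < Q (H.om 0) (H.om 0)
  int : IntF e
  lnk : Cl L0.F ((-(2 * Real.pi)) • e)
  ee : Q e e = 0
  e1 : Q e (H.om 1) = 0
  e2 : Q e (H.om 2) = 0
  e0 : 0 < Q e (H.om 0)

/-- one move: the complex structure `J 2` is fixed, the class of `om 2` moves linearly -/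
structure Move (G : ℝ → HkT C) : Prop where
  J : ∀ s ∈ Icc (0 : ℝ) 1, ∀ i, ∀ z ∈ (C.e i).target, (G s).J 2 i z = (G 0).J 2 i z
  om : ∀ s ∈ Icc (0 : ℝ) 1, ∃ r : ℝ, 0 < r ∧ Eqv ((G s).om 0) (r • (G 0).om 0) ∧
    Eqv ((G s).om 1) (r • (G 0).om 1)
  cls : ∀ s ∈ Icc (0 : ℝ) 1, Cl ((G s).om 2) ((1 - s) • (G 0).om 2 + s • (G 1).om 2)

/-- the same twistor sphere up to scaling: `H` is a positive multiple of a rotation of `G` -/
def SameTw (G H : HkT C) : Prop :=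
  ∃ (R : Fin 3 → Fin 3 → ℝ) (hR : HkT.Fr R) (t : ℝ) (ht : 0 < t),
    HEqv (smulP t ht (G.rot R hR)) H

/-- families, jointly smooth over `O` -/
structure SmB {E : Type} [NormedAddCommGroup E] [NormedSpace ℝ E] (O : Set E)
    (H : E → HkT C) : Prop where
  om : ∀ k i, ContDiffOn ℝ ∞ (fun p : E × V => ((H p.1).om k).w i p.2) (O ×ˢ (C.e i).target)
  J : ∀ k i, ContDiffOn ℝ ∞ (fun p : E × V => (H p.1).J k i p.2) (O ×ˢ (C.e i).target)
  g : ∀ i, ContDiffOn ℝ ∞ (fun p : E × V => (H p.1).g i p.2) (O ×ˢ (C.e i).target)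

/-- linear combinations -/
def lco {m : ℕ} (bas : Fin m → F2 C) (b : Fin m → ℝ) : F2 C := ∑ j, b j • bas j

/-- the point `(1 - s) b + s b'` -/
def seg {m : ℕ} (b b' : Fin m → ℝ) (s : ℝ) : Fin m → ℝ := (1 - s) • b + s • b'

/-- (T1) **the box** around `H0`: hyperkaehler structures `H b c`, `(b, c) ∈ B × D`, such that
`J 0` of `H b c` has the symplectic plane `⟨b, c⟩ ⊆ e^⊥` -/
structure Box (Q : F2 C →ₗ[ℝ] F2 C →ₗ[ℝ] ℝ) (H0 : HkT C) (e : F2 C) where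
  m : ℕ
  /-- a rational basis of `e^⊥` -/
  bas : Fin m → F2 C
  rat : ∀ j, RatF (bas j)
  orth : ∀ j, Q (bas j) e = 0
  span : ∀ x, Q x e = 0 → ∃ b : Fin m → ℝ, Cl x (lco bas b)
  inj : ∀ b : Fin m → ℝ, Ex (lco bas b) → b = 0
  b0 : Fin m → ℝ
  c0 : Fin m → ℝ
  B : Set (Fin m → ℝ)
  D : Set (Fin m → ℝ)
  oB : IsOpen B
  oD : IsOpen D
  cB : Convex ℝ B
  cD : Convex ℝ D
  b0B : b0 ∈ B
  c0D : c0 ∈ D
  H : (Fin m → ℝ) → (Fin m → ℝ) → HkT C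
  J0 : ∀ i, ∀ z ∈ (C.e i).target, (H b0 c0).J 0 i z = H0.J 0 i z
  cl1 : ∀ b ∈ B, ∀ c ∈ D, ∃ s : ℝ, 0 < s ∧ Cl ((H b c).om 1) (s • lco bas b)
  cl2 : ∀ b ∈ B, ∀ c ∈ D, ∃ s t : ℝ, 0 < s ∧ Cl ((H b c).om 2) (s • lco bas c + t • lco bas b)
  pos : ∀ b ∈ B, ∀ c ∈ D, 0 < Q e ((H b c).om 0)
  pos2 : ∀ b ∈ B, ∀ c ∈ D, 0 < Q ((H b c).om 0) ((H b c).om 0)
  ort0 : Q (lco bas b0) (lco bas c0) = 0
  sm : SmB (B ×ˢ D) fun p : (Fin m → ℝ) × (Fin m → ℝ) => H p.1 p.2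
  /-- `b` moves, `c = c0` -/
  mv1 : ∀ b ∈ B, ∀ b' ∈ B, ∃ G : ℝ → HkT C, Move G ∧ ∀ s ∈ Icc (0 : ℝ) 1,
    SameTw (G s) (H (seg b b' s) c0)
  /-- the base of the second moves -/
  base : (Fin m → ℝ) → HkT C
  base1 : ∀ b ∈ B, ∃ s : ℝ, 0 < s ∧ Cl ((base b).om 1) (s • lco bas b)
  mvc : ∀ b ∈ B, ∀ c ∈ D, ∃ (G : HkT C) (r s t u : ℝ), 0 < r ∧ 0 < s ∧
    Eqv (G.om 0) (r • (base b).om 0) ∧ Eqv (G.om 1) (r • (base b).om 1) ∧
    Cl (lco bas c) (s • G.om 2 + t • G.om 1 + u • G.om 0) ∧ SameTw G (H b c)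
  /-- `c` moves, `b` is fixed -/
  mv2 : ∀ b ∈ B, ∀ c ∈ D, ∀ c' ∈ D, ∃ G : ℝ → HkT C, Move G ∧ ∀ s ∈ Icc (0 : ℝ) 1,
    SameTw (G s) (H b (seg c c' s))
  /-- a jointly smooth family of closed (1,1)-forms in the class `e` -/
  rep : ∃ ρ : (Fin m → ℝ) × (Fin m → ℝ) → F2 C, SmF (B ×ˢ D) ρ ∧ ∀ p ∈ B ×ˢ D,
    T11 (ofHk (H p.1 p.2) 0) (ρ p) ∧ Cl (ρ p) e

variable {Q : F2 C →ₗ[ℝ] F2 C →ₗ[ℝ] ℝ} {H0 : HkT C} {e : F2 C}

/-- type of the predicate "algebraic data of the end" -/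
abbrev AlgT (Q : F2 C →ₗ[ℝ] F2 C →ₗ[ℝ] ℝ) : Type :=
  ∀ (F : Frm C Q) (A : F2 C), Cusp F A → Prop

/-- (T2) **the road** (convention of 998: `(om 0, om 1, om 2)` of a structure over `τ = x + i y`
has classes `(A, z Re σ_τ, z Im σ_τ)`, `Im σ_τ = - y b_x`, `b_x = - v + N x e`): one `x₁`, the path
from the box member `(A, b_{x₁})` to the end; the symplectic class `⟨A, b_{x₁}⟩` is constant -/
structure Road (Alg : AlgT Q) (B : Box Q H0 e) where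
  A : F2 C
  intA : IntF A
  AA : 0 < Q A A
  F : Frm C Q
  Fe : F.e = e
  Ae : Q A F.e = 0
  Av : Q A F.v = 0
  Aes : Q A F.es = 0
  /-- coordinates of a positive multiple of `A` -/
  a : Fin B.m → ℝ
  ha : ∃ r : ℝ, 0 < r ∧ Cl (lco B.bas a) (r • A)
  aB : a ∈ B.B
  /-- coordinates of `b_x` -/
  c : ℝ → Fin B.m → ℝ
  c_cont : Continuous c
  hc : ∀ x, Cl (lco B.bas (c x)) (-F.v + (F.N * x) • F.e)
  x1 : ℝ
  cD : c x1 ∈ B.D
  K : Cusp F A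
  alg : Alg F A K
  /-- the start: the same complex symplectic structure as the box member -/
  H' : HkT C
  st : ∃ r : ℝ, 0 < r ∧ Eqv (H'.om 0) (r • (B.H a (c x1)).om 1) ∧
    Eqv (H'.om 2) ((-r) • (B.H a (c x1)).om 2)
  τ0 : ℂ
  re0 : τ0.re = x1
  ph0 : 0 < τ0.im ∧ ∃ z : ℝ, 0 < z ∧ Cl (H'.om 1) (z • F.sre τ0) ∧ Cl (H'.om 2) (z • F.sim τ0)
  H1 : HkT C
  τ1 : ℂ
  re1 : τ1.re = x1
  mem : K.Mem τ1 H1
  leg : Leg F A {τ | τ.re = x1 ∧ 0 < τ.im} H' H1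

/-- members of the end, rotated about `om 0` such that `om 1 + i om 2 = z σ_τ`, `z > 0` -/
def MemN {F : Frm C Q} {A : F2 C} (K : Cusp F A) (τ : ℂ) (H : HkT C) : Prop :=
  (∃ (H' : HkT C) (R : Fin 3 → Fin 3 → ℝ) (hR : HkT.Fr R), K.Mem τ H' ∧ R 0 = ![1, 0, 0] ∧
    HEqv (H'.rot R hR) H) ∧
  ∃ z : ℝ, 0 < z ∧ Cl (H.om 1) (z • F.sre τ) ∧ Cl (H.om 2) (z • F.sim τ)

/-- (T3) **the chart member `(A, b_x)` is the member `(X, I'_x)` of the end**, `I' = J 1`: there is a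
smooth vertical ray of members isomorphic to it -/
def EndIso {Alg : AlgT Q} {B : Box Q H0 e} (R : Road Alg B) (x : ℝ) : Prop :=
  ∃ K : ℝ → HkT C, SmH K ∧ ∀ t : ℝ, MemN R.K ⟨x, R.K.Y + Real.exp t⟩ (K t) ∧
    IsoId (ofHk (B.H R.a (R.c x)) 0) (ofHk (K t) 1)

/-- presentation of the structure `(X, J 0, L0)` by an atlas and a line bundle with metric -/
structure Pres (n : ℕ) (H : HkT C) (L0 : PL C) where
  A : Atl (2 * n) X
  fin : Finite A.ι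
  good : GoodA A
  P : Part A
  cp : Cp (H.acm 0) A
  L : LB A
  h : HM L
  a : F1 C
  t11 : T11 (ofHk H 0) (L0.add a).F
  cur : Eqv ((cmp_of_cp cp).F (L0.add a).F) ((-2 : ℝ) • (curK h).f2)
  sec : ∀ m N, N ≤ Module.finrank ℂ (HS (L ^ m) univ) → hN (L0.pow m) (ofHk H 0) N

/-- `L` is globally generated -/
def GG {N : ℕ} {A : Atl N X} (L : LB A) : Prop :=
  ∀ x : X, ∃ s, IsHS L univ s ∧ ∃ i, x ∈ (A.e i).source ∧ s i x ≠ 0

end defs

/-! ### the nodes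

`Alg`, `Tub` are parameters: the algebraic data (O3) carried by the end, the tube of Lagrangian tori
at a structure (symplectic forms `om 1`, `om 2`).  -/

section nodes

/-- type of `Alg` -/
abbrev AlgTT : Type 1 :=
  ∀ (n : ℕ) (X : Type) [TopologicalSpace X] [CompactSpace X] [T2Space X]
    [SimplyConnectedSpace X] (C : RCh (Cn (2 * n)) X) (Q : F2 C →ₗ[ℝ] F2 C →ₗ[ℝ] ℝ), AlgT Q

/-- type of `Tub` -/
abbrev TubTT : Type 1 :=
  ∀ (n : ℕ) (X : Type) [TopologicalSpace X] [CompactSpace X] [T2Space X]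
    [SimplyConnectedSpace X] (C : RCh (Cn (2 * n)) X) (_ : F2 C →ₗ[ℝ] F2 C →ₗ[ℝ] ℝ) (_ : F2 C),
    HkT C → Prop

variable (Alg : AlgTT) (Tub : TubTT)

/-- (T0) the given manifold in real language (474; 207, 850, 358, 770, 137; 386, 713) -/
def SetupP : Prop :=
  ∀ (n : ℕ) (M : Type) [TopologicalSpace M] [T2Space M] [CompactSpace M] [SimplyConnectedSpace M]
    (A : Atl (2 * n) M) [Finite A.ι], 1 ≤ n → GoodA A → ∀ (P : Part A) (K : Kah A) (σ : HSymp A),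
    σ.Uniq → ∀ L : LB A, NefW K L → NonFlat L → Isotropic P σ L →
    ∃ (Q : F2 (ofAtl A) →ₗ[ℝ] F2 (ofAtl A) →ₗ[ℝ] ℝ) (H0 : HkT (ofAtl A)) (L0 : PL (ofAtl A))
      (e : F2 (ofAtl A)), Ctx n (ofAtl A) Q ∧ Given Q H0 L0 e ∧
      ∀ m N, hN (L0.pow m) (ofHk H0 0) N → N ≤ Module.finrank ℂ (HS (L ^ m) univ)

/-- (T1) the box (222) -/
def BoxP : Prop :=
  ∀ (n : ℕ) (X : Type) [TopologicalSpace X] [CompactSpace X] [T2Space X]
    [SimplyConnectedSpace X] (C : RCh (Cn (2 * n)) X) (Q : F2 C →ₗ[ℝ] F2 C →ₗ[ℝ] ℝ), Ctx n C Q →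
    ∀ (H0 : HkT C) (L0 : PL C) (e : F2 C), Given Q H0 L0 e → Nonempty (Box Q H0 e)

/-- (T2) the road (998, 684, 957, ...) -/
def RoadP : Prop :=
  ∀ (n : ℕ) (X : Type) [TopologicalSpace X] [CompactSpace X] [T2Space X]
    [SimplyConnectedSpace X] (C : RCh (Cn (2 * n)) X) (Q : F2 C →ₗ[ℝ] F2 C →ₗ[ℝ] ℝ), Ctx n C Q →
    ∀ (H0 : HkT C) (L0 : PL C) (e : F2 C), Given Q H0 L0 e → ∀ B : Box Q H0 e,
    Nonempty (Road (Alg n X C Q) B)

/-- (T3) chart member = end member (551) -/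
def ChartEndP : Prop :=
  ∀ (n : ℕ) (X : Type) [TopologicalSpace X] [CompactSpace X] [T2Space X]
    [SimplyConnectedSpace X] (C : RCh (Cn (2 * n)) X) (Q : F2 C →ₗ[ℝ] F2 C →ₗ[ℝ] ℝ), Ctx n C Q →
    ∀ (H0 : HkT C) (L0 : PL C) (e : F2 C), Given Q H0 L0 e → ∀ (B : Box Q H0 e)
      (R : Road (Alg n X C Q) B), ∃ δ : ℝ, 0 < δ ∧ ∀ x : ℝ, |x - R.x1| < δ → EndIso R x

/-- (T4, G19) `e` is nef at the member `x` (326) -/
def NefRayP : Prop :=
  ∀ (n : ℕ) (X : Type) [TopologicalSpace X] [CompactSpace X] [T2Space X]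
    [SimplyConnectedSpace X] (C : RCh (Cn (2 * n)) X) (Q : F2 C →ₗ[ℝ] F2 C →ₗ[ℝ] ℝ), Ctx n C Q →
    ∀ (H0 : HkT C) (L0 : PL C) (e : F2 C), Given Q H0 L0 e → ∀ (B : Box Q H0 e)
      (R : Road (Alg n X C Q) B) (x : ℝ), R.c x ∈ B.D → EndIso R x →
    NefC (ofHk (B.H R.a (R.c x)) 0) ((B.H R.a (R.c x)).om 0) e

/-- (T4, G24) tube of tori at the member `x` (831) -/
def ToriP : Prop :=
  ∀ (n : ℕ) (X : Type) [TopologicalSpace X] [CompactSpace X] [T2Space X]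
    [SimplyConnectedSpace X] (C : RCh (Cn (2 * n)) X) (Q : F2 C →ₗ[ℝ] F2 C →ₗ[ℝ] ℝ), Ctx n C Q →
    ∀ (H0 : HkT C) (L0 : PL C) (e : F2 C), Given Q H0 L0 e → ∀ (B : Box Q H0 e)
      (R : Road (Alg n X C Q) B) (x : ℝ), R.c x ∈ B.D → EndIso R x →
    Tub n X C Q e (B.H R.a (R.c x))

/-- (T4) DICT (713, 386): every structure with `e` of type (1,1) has a presentation -/
def PresP : Prop :=
  ∀ (n : ℕ) (X : Type) [TopologicalSpace X] [CompactSpace X] [T2Space X]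
    [SimplyConnectedSpace X] (C : RCh (Cn (2 * n)) X) (Q : F2 C →ₗ[ℝ] F2 C →ₗ[ℝ] ℝ), Ctx n C Q →
    ∀ (H : HkT C) (L0 : PL C) (e : F2 C), Given Q H L0 e → Nonempty (Pres n H L0)

/-- (T4) the hypotheses of `END6` at a member (474) -/
def MemHypP : Prop :=
  ∀ (n : ℕ) (X : Type) [TopologicalSpace X] [CompactSpace X] [T2Space X]
    [SimplyConnectedSpace X] (C : RCh (Cn (2 * n)) X) (Q : F2 C →ₗ[ℝ] F2 C →ₗ[ℝ] ℝ), Ctx n C Q →
    ∀ (H : HkT C) (L0 : PL C) (e : F2 C), Given Q H L0 e → NefC (ofHk H 0) (H.om 0) e →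
    ∀ p : Pres n H L0,
    ∃ (K : Kah p.A) (σ : HSymp p.A), σ.Uniq ∧ NefW K p.L ∧ NonFlat p.L ∧ Isotropic p.P σ p.L

/-- (T5, G25, G26) KAPPA-1 at a rational member (360, 975, 648) -/
def KappaP : Prop :=
  ∀ (n : ℕ) (X : Type) [TopologicalSpace X] [CompactSpace X] [T2Space X]
    [SimplyConnectedSpace X] (C : RCh (Cn (2 * n)) X) (Q : F2 C →ₗ[ℝ] F2 C →ₗ[ℝ] ℝ), Ctx n C Q →
    ∀ (H0 : HkT C) (L0 : PL C) (e : F2 C), Given Q H0 L0 e → ∀ (B : Box Q H0 e)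
      (R : Road (Alg n X C Q) B) (x : ℚ), R.c x ∈ B.D → EndIso R x →
    NefC (ofHk (B.H R.a (R.c x)) 0) ((B.H R.a (R.c x)).om 0) e →
    Tub n X C Q e (B.H R.a (R.c x)) → ∀ p : Pres n (B.H R.a (R.c x)) L0,
    Crest.Agent.R281.Sk_474.Rich p.A p.L

/-- (T7) OPEN' (693, 450, 286, 849, 569, 673); the sections of `L^m` have rank `n` (330) -/
def OpenP : Prop :=
  ∀ (n : ℕ) (X : Type) [TopologicalSpace X] [CompactSpace X] [T2Space X]
    [SimplyConnectedSpace X] (C : RCh (Cn (2 * n)) X) (Q : F2 C →ₗ[ℝ] F2 C →ₗ[ℝ] ℝ), Ctx n C Q →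
    ∀ (H0 : HkT C) (L0 : PL C) (e : F2 C), Given Q H0 L0 e → ∀ (B : Box Q H0 e)
      (b c : Fin B.m → ℝ), b ∈ B.B → c ∈ B.D →
    Tub n X C Q e (B.H b c) → ∀ p : Pres n (B.H b c) L0, ∀ m : ℕ, 0 < m → GG (p.L ^ m) →
    (∃ t : Fin (n + 1) → p.A.ι → X → ℂ, (∀ a, IsHS (p.L ^ m) univ (t a)) ∧ ∃ i x, Rk p.A t i x) →
    ∀ N, hN (L0.pow m) (ofHk (B.H b c) 0) N →
    ∀ᶠ q : (Fin B.m → ℝ) × (Fin B.m → ℝ) in 𝓝 (b, c), hN (L0.pow m) (ofHk (B.H q.1 q.2) 0) N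

/-- (T8) SEMI along one move (713, 450, 478) -/
def SemiP : Prop :=
  ∀ (n : ℕ) (X : Type) [TopologicalSpace X] [CompactSpace X] [T2Space X]
    [SimplyConnectedSpace X] (C : RCh (Cn (2 * n)) X) (Q : F2 C →ₗ[ℝ] F2 C →ₗ[ℝ] ℝ), Ctx n C Q →
    ∀ (L0 : PL C) (e : F2 C) (G H : ℝ → HkT C),
    Move G → (∀ s ∈ Icc (0 : ℝ) 1, SameTw (G s) (H s)) →
    (∀ s ∈ Icc (0 : ℝ) 1, Given Q (H s) L0 e) → ∀ m N,
    (∀ᶠ s in 𝓝[≤] (1 : ℝ), hN (L0.pow m) (ofHk (H s) 0) N) → hN (L0.pow m) (ofHk (H 0) 0) N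

end nodes

end

end Crest.Agent.R281.RkD_902
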