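import Crest.Agent.R281.Tw1_327
import Crest.Agent.R281.RkD_902

/-!
# Row 281 (S0424), `SameTw` is an equivalence relation (helper327)

* `SameTw.refl`, `SameTw.symm`, `SameTw.trans`, `sameTw_rot`, `sameTw_smulP`, `sameTw_cyc`
* `sameTw_of_om`  : all three forms multiplied by the same `t > 0`
-/

set_option autoImplicit false
set_option linter.unusedSectionVars false
set_option maxSynthPendingDepth 3

open Set Filter Topology
open scoped ContDiff Matrix

namespace Crest.Agent.R281.Tw_327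

open Crest.Agent.R281.HkR_835 Crest.Agent.R281.Ti_846 Crest.Agent.R281.Cdr_234
open Crest.Agent.R281.Alg_998 Crest.Agent.R281.Dif_268 Crest.Agent.R281.RkD_902

noncomputable section

variable {V X : Type} [NormedAddCommGroup V] [NormedSpace ℝ V] [TopologicalSpace X]
  {C : RCh V X}

theorem SameTw.refl (H : HkT C) : SameTw H H :=
  ⟨oneR, fr_one, 1, one_pos, (smulP_one _ one_pos rfl).trans (rot_one H)⟩

theorem SameTw.of_heqv {H H' : HkT C} (h : HEqv H H') : SameTw H H' :=
  ⟨oneR, fr_one, 1, one_pos, (smulP_one _ one_pos rfl).trans ((rot_one H).trans h)⟩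

theorem sameTw_rot (H : HkT C) {R : Fin 3 → Fin 3 → ℝ} (hR : HkT.Fr R) :
    SameTw H (H.rot R hR) :=
  ⟨R, hR, 1, one_pos, smulP_one _ one_pos rfl⟩

theorem sameTw_cyc (H : HkT C) (k : Fin 3) : SameTw H (H.cyc k) := sameTw_rot H (fr_cyc k)

theorem sameTw_smulP (H : HkT C) {t : ℝ} (ht : 0 < t) :
    SameTw H (Sta2_684.smulP t ht H) :=
  ⟨oneR, fr_one, t, ht, HEqv.smulP (rot_one H) ht⟩

theorem SameTw.trans {H H' H'' : HkT C} (h : SameTw H H') (h' : SameTw H' H'') :
    SameTw H H'' := by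
  obtain ⟨R, hR, t, ht, e⟩ := h
  obtain ⟨R', hR', t', ht', e'⟩ := h'
  refine ⟨mulR R' R, fr_mul hR' hR, t' * t, mul_pos ht' ht, ?_⟩
  have e1 : HEqv (Sta2_684.smulP (t' * t) (mul_pos ht' ht) (H.rot (mulR R' R) (fr_mul hR' hR)))
      (Sta2_684.smulP t' ht' (Sta2_684.smulP t ht ((H.rot R hR).rot R' hR'))) :=
    (smulP_smulP ht' ht _).symm.trans
      (HEqv.smulP (HEqv.smulP (rot_rot H hR' hR).symm ht) ht')
  have e2 : HEqv (Sta2_684.smulP t ht ((H.rot R hR).rot R' hR')) (H'.rot R' hR') :=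
    (smulP_rot ht (H.rot R hR) hR').symm.trans (HEqv.rot e hR')
  exact (e1.trans (HEqv.smulP e2 ht')).trans e'

theorem SameTw.symm {H H' : HkT C} (h : SameTw H H') : SameTw H' H := by
  obtain ⟨R, hR, t, ht, e⟩ := h
  refine ⟨trR R, fr_tr hR, t⁻¹, inv_pos.2 ht, ?_⟩
  have e1 : HEqv (H'.rot (trR R) (fr_tr hR)) (Sta2_684.smulP t ht H) := by
    refine (HEqv.rot e.symm (fr_tr hR)).trans ?_
    refine (smulP_rot ht (H.rot R hR) (fr_tr hR)).trans (HEqv.smulP ?_ ht)
    exact (rot_rot H (fr_tr hR) hR).trans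
      ((rot_congr H _ fr_one (mulR_tr hR)).trans (rot_one H))
  refine (HEqv.smulP e1 (inv_pos.2 ht)).trans ?_
  exact (smulP_smulP (inv_pos.2 ht) ht H).trans (smulP_one _ _ (inv_mul_cancel₀ ht.ne'))

/-- all three forms multiplied by the same positive number -/
theorem sameTw_of_om {H H' : HkT C} {t : ℝ} (ht : 0 < t) (h : ∀ k, Eqv (H'.om k) (t • H.om k)) :
    SameTw H H' := by
  refine SameTw.trans (sameTw_smulP H ht) (SameTw.of_heqv ?_)
  have hw : ∀ k i, ∀ z ∈ (C.e i).target, (H'.om k).w i z = t • (H.om k).w i z := by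
    intro k i z hz
    ext u v
    exact h k i z hz u v
  -- the complex structures
  have hJ : ∀ k i, ∀ z ∈ (C.e i).target, H'.J k i z = H.J k i z := by
    intro k i z hz
    obtain ⟨l, m, hk⟩ := HkT.exists_cyc k
    ext v
    rw [← sub_eq_zero]
    refine H'.nondeg l hz _ fun u => ?_
    rw [map_sub, sub_apply, (H'.om_J hk hz v u).1, hw l i z hz, smul_apply, smul_apply,
      smul_eq_mul, (H.om_J hk hz v u).1, hw m i z hz, smul_apply, smul_apply, smul_eq_mul]
    ring
  refine ⟨fun k i z hz => (hw k i z hz).symm, fun k i z hz => (hJ k i z hz).symm,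
    fun i z hz => ?_⟩
  show t • H.g i z = H'.g i z
  ext u v
  rw [smul_apply, smul_apply, smul_eq_mul, H.g_eq 0 hz, H'.g_eq 0 hz, hw 0 i z hz, hJ 0 i z hz,
    smul_apply, smul_apply, smul_eq_mul]
  ring

end

end Crest.Agent.R281.Tw_327
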