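import Crest.Agent.R281.BoxA_327
import Crest.Agent.R281.Tw2_327
import Crest.Agent.R281.Bx3_557
import Crest.Agent.R281.NefRay7_326

/-!
# Row 281 (S0424), BoxP, part B (helper327): the box from the two moves

* `BoxFam bas b0 c0 H0` : the output of the two applications of MOVE-FAM (222, 557):
  `G1 b` (first move, on `J 1` of `H0`), `L b` (rotated `G1 b`), `M b c` (second move, on `J 2` of
  `L b`), and the angle `a b c` of the last rotation
* `BoxFamP`             : its existence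
* `boxP_of`             : `BoxFamP → BoxP`
-/

set_option autoImplicit false
set_option linter.unusedSectionVars false
set_option maxSynthPendingDepth 3

open Set Filter Topology
open scoped ContDiff Matrix

namespace Crest.Agent.R281.BoxB_327

open Crest.Agent.R275.Geo Crest.Agent.R275.Core144 Crest.Agent.R275.GC293
open Crest.Agent.R273.Defs_333 Crest.Agent.R273.Kah_333
open Crest.Agent.R260.ACM_580 Crest.Agent.R260.NNB_580
open Crest.Agent.R281.Defs_273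
open Crest.Agent.R281.HkR_835 Crest.Agent.R281.Ti_846 Crest.Agent.R281.Cdr_234
open Crest.Agent.R281.Alg_998 Crest.Agent.R281.Dif_268 Crest.Agent.R281.RkD_902
open Crest.Agent.R281.PL_713
open Crest.Agent.R281.Tw_327 hiding frB
open Crest.Agent.R281.Bx_557 (SmHk SmF frB frB_fr frB_sm)
open Crest.Agent.R281.NefO_476 (ofHk)
open Crest.Agent.R281.Nef_252 (T11)

noncomputable section

section fam

variable {V X : Type} [NormedAddCommGroup V] [NormedSpace ℝ V] [TopologicalSpace X]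
  {C : RCh V X}

/-- **the output of the two moves** -/
structure BoxFam (Q : F2 C →ₗ[ℝ] F2 C →ₗ[ℝ] ℝ) {m : ℕ} (bas : Fin m → F2 C)
    (b0 c0 : Fin m → ℝ) (H0 : HkT C) where
  B : Set (Fin m → ℝ)
  D : Set (Fin m → ℝ)
  oB : IsOpen B
  oD : IsOpen D
  cB : Convex ℝ B
  cD : Convex ℝ D
  b0B : b0 ∈ B
  c0D : c0 ∈ D
  /-- first move -/
  G1 : (Fin m → ℝ) → HkT C
  w1 : (Fin m → ℝ) → F2 C
  aff1 : ∀ b ∈ B, ∀ b' ∈ B, ∀ s ∈ Icc (0 : ℝ) 1,
    Cl (w1 (seg b b' s)) ((1 - s) • w1 b + s • w1 b')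
  J1 : ∀ b ∈ B, ∀ i, ∀ z ∈ (C.e i).target, (G1 b).J 1 i z = H0.J 1 i z
  om1 : ∀ b ∈ B, ∃ r : ℝ, 0 < r ∧ Eqv ((G1 b).om 0) (r • H0.om 0) ∧
    Eqv ((G1 b).om 2) (r • H0.om 2)
  cls1 : ∀ b ∈ B, Cl ((G1 b).om 1) (w1 b)
  /-- the base of the second move: a rotation of `G1 b` -/
  L : (Fin m → ℝ) → HkT C
  tw1 : ∀ b ∈ B, SameTw (G1 b) (L b)
  L0 : ∀ b ∈ B, ∃ s t : ℝ, 0 < s ∧ Cl ((L b).om 0) (s • H0.om 0 + t • lco bas b)
  L1 : ∀ b ∈ B, ∃ s : ℝ, 0 < s ∧ Cl ((L b).om 1) (s • lco bas b)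
  /-- second move -/
  M : (Fin m → ℝ) → (Fin m → ℝ) → HkT C
  w2 : (Fin m → ℝ) → (Fin m → ℝ) → F2 C
  aff2 : ∀ b ∈ B, ∀ c ∈ D, ∀ c' ∈ D, ∀ s ∈ Icc (0 : ℝ) 1,
    Cl (w2 b (seg c c' s)) ((1 - s) • w2 b c + s • w2 b c')
  J2 : ∀ b ∈ B, ∀ c ∈ D, ∀ i, ∀ z ∈ (C.e i).target, (M b c).J 2 i z = (L b).J 2 i z
  om2 : ∀ b ∈ B, ∀ c ∈ D, ∃ r : ℝ, 0 < r ∧ Eqv ((M b c).om 0) (r • (L b).om 0) ∧
    Eqv ((M b c).om 1) (r • (L b).om 1)
  cls2 : ∀ b ∈ B, ∀ c ∈ D, Cl ((M b c).om 2) (w2 b c)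
  tw2 : ∀ b ∈ B, SameTw (L b) (M b c0)
  smM : SmHk (B ×ˢ D) fun p : (Fin m → ℝ) × (Fin m → ℝ) => M p.1 p.2
  cen : ∃ t : ℝ, 0 < t ∧ ∀ k, Eqv ((M b0 c0).om k) (t • H0.om k)
  /-- the angle of the last rotation -/
  a : (Fin m → ℝ) → (Fin m → ℝ) → ℝ
  a_sm : ContDiffOn ℝ ∞ (fun p : (Fin m → ℝ) × (Fin m → ℝ) => a p.1 p.2) (B ×ˢ D)
  prj : ∀ b ∈ B, ∀ c ∈ D, ∃ s t : ℝ, 0 < s ∧
    Cl (lco bas c) (s • (M b c).om 2 + t • (M b c).om 1 + (s * a b c) • (M b c).om 0)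
  /-- the tangent forms (Lemma D of 557) -/
  rep : ∀ v : Fin m → ℝ, ∃ ψ : (Fin m → ℝ) × (Fin m → ℝ) → F2 C, SmF (B ×ˢ D) ψ ∧
    ∀ b ∈ B, ∀ c ∈ D, (∀ k, T11 (ofHk (M b c) k) (ψ (b, c))) ∧
      (∀ k, Q (ψ (b, c)) ((M b c).om k) = 0) ∧
      ∃ x : Fin 3 → ℝ, Cl (ψ (b, c)) (lco bas v + ∑ k, x k • (M b c).om k)

/-- a form of type `(1,1)` for all three complex structures is of type `(1,1)` for all rotated
ones -/
theorem t11_rot {H : HkT C} {w : F2 C} (h : ∀ k, T11 (ofHk H k) w) {R : Fin 3 → Fin 3 → ℝ}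
    (hR : HkT.Fr R) (l : Fin 3) : T11 (ofHk (H.rot R hR) l) w := by
  intro i z hz u v
  show w.w i z (H.Jv (R l) i z u) (H.Jv (R l) i z v) = _
  have h0 : ∀ u v, w.w i z (H.J 0 i z u) (H.J 0 i z v) = w.w i z u v := fun u v => h 0 i z hz u v
  have h1 : ∀ u v, w.w i z (H.J 1 i z u) (H.J 1 i z v) = w.w i z u v := fun u v => h 1 i z hz u v
  have h2 : ∀ u v, w.w i z (H.J 2 i z u) (H.J 2 i z v) = w.w i z u v := fun u v => h 2 i z hz u v
  have e01 : w.w i z (H.J 0 i z u) (H.J 1 i z v) = -w.w i z u (H.J 2 i z v) := by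
    have := H.J_02 hz v
    rw [← neg_eq_iff_eq_neg.2 this, map_neg, h0]
  have e10 : w.w i z (H.J 1 i z u) (H.J 0 i z v) = w.w i z u (H.J 2 i z v) := by
    rw [← H.J_12 hz v, h1]
  have e02 : w.w i z (H.J 0 i z u) (H.J 2 i z v) = w.w i z u (H.J 1 i z v) := by
    rw [← H.J_01 i z hz v, h0]
  have e20 : w.w i z (H.J 2 i z u) (H.J 0 i z v) = -w.w i z u (H.J 1 i z v) := by
    have := H.J_21 hz v
    rw [← neg_eq_iff_eq_neg.2 this, map_neg, h2]
  have e12 : w.w i z (H.J 1 i z u) (H.J 2 i z v) = -w.w i z u (H.J 0 i z v) := by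
    have := H.J_10 hz v
    rw [← neg_eq_iff_eq_neg.2 this, map_neg, h1]
  have e21 : w.w i z (H.J 2 i z u) (H.J 1 i z v) = w.w i z u (H.J 0 i z v) := by
    rw [← H.J_20 hz v, h2]
  have hn := hR.nrm l
  simp only [HkT.Jv_apply, map_add, map_smul, add_apply, smul_apply, smul_eq_mul, h0, h1, h2, e01,
    e10, e02, e20, e12, e21]
  linear_combination w.w i z u v * hn

theorem cl_of_eqv {w w' : F2 C} (h : Eqv w w') : Cl w w' :=
  Cl.of_eq_on fun i z hz => by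
    ext u v
    exact h i z hz u v

end fam

section q

variable {n : ℕ} {X : Type} [TopologicalSpace X] [CompactSpace X] {C : RCh (Cn (2 * n)) X}
  {Q : F2 C →ₗ[ℝ] F2 C →ₗ[ℝ] ℝ}

theorem cl1Q (hc : Ctx n C Q) {x x' : F2 C} (y : F2 C) (h : Cl x x') : Q x y = Q x' y := by
  have := hc.ex _ y h
  rw [map_sub, LinearMap.sub_apply] at this
  linarith

theorem cl2Q (hc : Ctx n C Q) (x : F2 C) {y y' : F2 C} (h : Cl y y') : Q x y = Q x y' := by
  rw [hc.symm x y, cl1Q hc x h, hc.symm]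

/-- the norm of the forms of one twistor sphere -/
theorem sameTw_q (hc : Ctx n C Q) {H H' : HkT C} (h : SameTw H H')
    (hp : 0 < Q (H.om 0) (H.om 0)) : 0 < Q (H'.om 0) (H'.om 0) := by
  obtain ⟨R, hR, t, ht, e⟩ := h
  have e1 : Cl (H'.om 0) (t • F2.lin (R 0) H.om) :=
    Cl.of_eq_on fun i z hz => (e.om 0 i z hz).symm
  have h1 := hc.eq H 1
  have h2 := hc.eq H 2
  have o1 := hc.ort H 0 1 (by decide)
  have o2 := hc.ort H 0 2 (by decide)
  have o3 := hc.ort H 1 2 (by decide)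
  have o1' := hc.ort H 1 0 (by decide)
  have o2' := hc.ort H 2 0 (by decide)
  have o3' := hc.ort H 2 1 (by decide)
  have hn := hR.nrm 0
  have key : Q (F2.lin (R 0) H.om) (F2.lin (R 0) H.om) = Q (H.om 0) (H.om 0) := by
    simp only [F2.lin_eq, Fin.sum_univ_three, map_add, map_smul, LinearMap.add_apply,
      LinearMap.smul_apply, smul_eq_mul, h1, h2, o1, o2, o3, o1', o2', o3']
    linear_combination Q (H.om 0) (H.om 0) * hn
  rw [cl1Q hc _ e1, cl2Q hc _ e1]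
  simp only [map_smul, LinearMap.smul_apply, smul_eq_mul, key]
  positivity

/-- smoothness of `Q` along families -/
theorem ctx_smooth (hc : Ctx n C Q) {H0 : HkT C} (h0 : 0 < Q (H0.om 0) (H0.om 0))
    {E : Type} [NormedAddCommGroup E] [NormedSpace ℝ E] {T : Set E} (hT : IsOpen T)
    {w w' : E → F2 C} (hw : NefRay_326.JF T w) (hw' : NefRay_326.JF T w') :
    ContDiffOn ℝ ∞ (fun t => Q (w t) (w' t)) T := by
  obtain ⟨P, q, κ, hκ, hT', hq⟩ := hc.top
  have hr : q (H0.om 0) ≠ 0 := by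
    intro h
    rw [hq, QuadraticMap.polar_self, h] at h0
    simp at h0
  have h1 := NefRay_326.polar2_contDiffOn hT'.npos hT'.fuj hr hT hw hw'
  simp only [hq]
  exact contDiffOn_const.mul h1

variable {m : ℕ} {bas : Fin m → F2 C} {b0 c0 : Fin m → ℝ} {H0 : HkT C}

theorem lco_orth {y : F2 C} (h : ∀ j, Q (bas j) y = 0) (b : Fin m → ℝ) : Q (lco bas b) y = 0 := by
  show Q (∑ j, b j • bas j) y = 0
  rw [map_sum, LinearMap.sum_apply]
  refine Finset.sum_eq_zero fun j _ => ?_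
  rw [map_smul, LinearMap.smul_apply, h j, smul_zero]

namespace BoxFam

variable (F : BoxFam Q bas b0 c0 H0)

/-- the box family -/
def H (b c : Fin m → ℝ) : HkT C := (F.M b c).rot (frB (F.a b c)) (frB_fr _)

theorem H_om (b c : Fin m → ℝ) (k : Fin 3) : (F.H b c).om k =
    frB (F.a b c) k 0 • (F.M b c).om 0 + frB (F.a b c) k 1 • (F.M b c).om 1 +
      frB (F.a b c) k 2 • (F.M b c).om 2 := by
  show F2.lin (frB (F.a b c) k) (F.M b c).om = _
  rw [F2.lin_eq, Fin.sum_univ_three]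

theorem tw3 (b c : Fin m → ℝ) : SameTw (F.M b c) (F.H b c) := sameTw_rot _ _

theorem H_om1 (b c : Fin m → ℝ) : (F.H b c).om 1 = (F.M b c).om 1 := by
  rw [H_om]
  simp [frB]

theorem H_om0 (b c : Fin m → ℝ) : (F.H b c).om 0 =
    (√(1 + F.a b c ^ 2))⁻¹ • ((F.M b c).om 0 - F.a b c • (F.M b c).om 2) := by
  rw [H_om]
  simp only [frB, Matrix.cons_val_zero, Matrix.cons_val_one, Matrix.cons_val, zero_smul, add_zero,
    div_eq_mul_inv]
  module

theorem H_om2 (b c : Fin m → ℝ) : (F.H b c).om 2 =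
    (√(1 + F.a b c ^ 2))⁻¹ • (F.a b c • (F.M b c).om 0 + (F.M b c).om 2) := by
  rw [H_om]
  simp only [frB, Matrix.cons_val_zero, Matrix.cons_val_one, Matrix.cons_val, zero_smul, add_zero,
    div_eq_mul_inv]
  module

theorem cl1M {b c : Fin m → ℝ} (hb : b ∈ F.B) (hc : c ∈ F.D) :
    ∃ s : ℝ, 0 < s ∧ Cl ((F.M b c).om 1) (s • lco bas b) := by
  obtain ⟨r, hr, -, h1⟩ := F.om2 b hb c hc
  obtain ⟨s, hs, h2⟩ := F.L1 b hb
  refine ⟨r * s, mul_pos hr hs, (cl_of_eqv h1).trans ?_⟩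
  rw [mul_smul]
  exact h2.smul r

theorem posM (hX : Ctx n C Q) {e : F2 C} (horth : ∀ j, Q (bas j) e = 0)
    (he : 0 < Q e (H0.om 0)) {b c : Fin m → ℝ} (hb : b ∈ F.B) (hc : c ∈ F.D) :
    0 < Q e ((F.M b c).om 0) := by
  obtain ⟨r, hr, h1, -⟩ := F.om2 b hb c hc
  obtain ⟨s, t, hs, h2⟩ := F.L0 b hb
  have e1 : Q e (lco bas b) = 0 := by rw [hX.symm]; exact lco_orth horth b
  rw [cl2Q hX _ (cl_of_eqv h1), map_smul, cl2Q hX _ h2, map_add, map_smul, map_smul, e1]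
  simp only [smul_eq_mul, mul_zero, add_zero]
  positivity

theorem qM (hX : Ctx n C Q) (h0 : 0 < Q (H0.om 0) (H0.om 0)) {b c : Fin m → ℝ} (hb : b ∈ F.B)
    (hc : c ∈ F.D) : 0 < Q ((F.M b c).om 0) ((F.M b c).om 0) := by
  obtain ⟨r, hr, h1, -⟩ := F.om2 b hb c hc
  obtain ⟨r', hr', h2, -⟩ := F.om1 b hb
  have q1 : 0 < Q ((F.G1 b).om 0) ((F.G1 b).om 0) := by
    rw [cl1Q hX _ (cl_of_eqv h2), cl2Q hX _ (cl_of_eqv h2)]
    simp only [map_smul, LinearMap.smul_apply, smul_eq_mul]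
    positivity
  have q2 := sameTw_q hX (F.tw1 b hb) q1
  rw [cl1Q hX _ (cl_of_eqv h1), cl2Q hX _ (cl_of_eqv h1)]
  simp only [map_smul, LinearMap.smul_apply, smul_eq_mul]
  positivity

/-- the angle is zero at the centre -/
theorem a_zero (hX : Ctx n C Q) (h0 : 0 < Q (H0.om 0) (H0.om 0))
    (hc0 : Cl (H0.om 2) (lco bas c0)) : F.a b0 c0 = 0 := by
  obtain ⟨t, ht, h1⟩ := F.cen
  obtain ⟨s, t', hs, h2⟩ := F.prj b0 F.b0B c0 F.c0D
  have e1 : Q (lco bas c0) ((F.M b0 c0).om 0) = 0 := by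
    rw [← cl1Q hX _ hc0, cl2Q hX _ (cl_of_eqv (h1 0)), map_smul, hX.ort H0 2 0 (by decide),
      smul_zero]
  rw [cl1Q hX _ h2] at e1
  simp only [map_add, map_smul, LinearMap.add_apply, LinearMap.smul_apply, smul_eq_mul,
    hX.ort (F.M b0 c0) 2 0 (by decide), hX.ort (F.M b0 c0) 1 0 (by decide), mul_zero,
    zero_add] at e1
  have h3 := F.qM hX h0 F.b0B F.c0D
  rcases mul_eq_zero.1 e1 with h | h
  · rcases mul_eq_zero.1 h with h' | h'
    · exact absurd h' hs.ne'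
    · exact h'
  · exact absurd h h3.ne'

theorem J_cen {k : Fin 3} {i : C.ι} {z : Cn (2 * n)} (hz : z ∈ (C.e i).target) :
    (F.M b0 c0).J k i z = H0.J k i z := by
  obtain ⟨t, ht, h⟩ := F.cen
  obtain ⟨l, m', hk⟩ := HkT.exists_cyc k
  ext1 v
  rw [← sub_eq_zero]
  refine (F.M b0 c0).nondeg l hz _ fun u => ?_
  have hw : ∀ k, ∀ u v, ((F.M b0 c0).om k).w i z u v = t * (H0.om k).w i z u v :=
    fun k u v => h k i z hz u v
  rw [map_sub, sub_apply, ((F.M b0 c0).om_J hk hz v u).1, hw l, (H0.om_J hk hz v u).1, hw m']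
  ring

theorem smH : SmHk (F.B ×ˢ F.D) fun p : (Fin m → ℝ) × (Fin m → ℝ) => F.H p.1 p.2 :=
  Bx_557.SmHk.rot F.smM (fun _ => frB_fr _) fun k l => frB_sm F.a_sm k l

theorem Q_om2 (hX : Ctx n C Q) {e : F2 C} (horth : ∀ j, Q (bas j) e = 0) {b c : Fin m → ℝ}
    (hb : b ∈ F.B) (hc : c ∈ F.D) :
    Q e ((F.M b c).om 1) = 0 ∧ Q e ((F.M b c).om 2) = -(F.a b c) * Q e ((F.M b c).om 0) := by
  obtain ⟨s, t, hs, h⟩ := F.prj b hb c hc
  obtain ⟨s1, hs1, h1⟩ := F.cl1M hb hc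
  have z1 : ∀ b, Q e (lco bas b) = 0 := fun b => by rw [hX.symm]; exact lco_orth horth b
  have z2 : Q e ((F.M b c).om 1) = 0 := by
    rw [cl2Q hX _ h1, map_smul, z1, smul_zero]
  refine ⟨z2, ?_⟩
  have h2 := z1 c
  rw [cl2Q hX _ h] at h2
  simp only [map_add, map_smul, smul_eq_mul, z2, mul_zero, add_zero] at h2
  have h3 : s * (Q e ((F.M b c).om 2) + F.a b c * Q e ((F.M b c).om 0)) = 0 := by
    linear_combination h2
  rcases mul_eq_zero.1 h3 with h4 | h4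
  · exact absurd h4 hs.ne'
  · linear_combination h4

/-- **the jointly smooth (1,1)-representative of `e`** -/
theorem rep_box (hX : Ctx n C Q) {e : F2 C} (horth : ∀ j, Q (bas j) e = 0)
    (h0 : 0 < Q (H0.om 0) (H0.om 0)) {v : Fin m → ℝ} (hv : Cl e (lco bas v)) :
    ∃ ρ : (Fin m → ℝ) × (Fin m → ℝ) → F2 C, SmF (F.B ×ˢ F.D) ρ ∧
      ∀ b ∈ F.B, ∀ c ∈ F.D, T11 (ofHk (F.H b c) 0) (ρ (b, c)) ∧ Cl (ρ (b, c)) e := by
  obtain ⟨ψ, hψ, h⟩ := F.rep v
  have hO : IsOpen (F.B ×ˢ F.D) := F.oB.prod F.oD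
  have hq : ∀ p ∈ F.B ×ˢ F.D, 0 < Q ((F.H p.1 p.2).om 0) ((F.H p.1 p.2).om 0) := fun p hp =>
    sameTw_q hX (F.tw3 p.1 p.2) (F.qM hX h0 hp.1 hp.2)
  let ν : (Fin m → ℝ) × (Fin m → ℝ) → ℝ := fun p =>
    Q ((F.H p.1 p.2).om 0) e / Q ((F.H p.1 p.2).om 0) ((F.H p.1 p.2).om 0)
  have hj : NefRay_326.JF (F.B ×ˢ F.D)
      (fun p : (Fin m → ℝ) × (Fin m → ℝ) => (F.H p.1 p.2).om 0) := F.smH.om 0
  have hψ' : NefRay_326.JF (F.B ×ˢ F.D) ψ := hψ
  have hν : ContDiffOn ℝ ∞ ν (F.B ×ˢ F.D) :=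
    (ctx_smooth hX h0 hO hj (NefRay_326.JF.const _ e)).div
      (ctx_smooth hX h0 hO hj hj) fun p hp => (hq p hp).ne'
  have hρ : NefRay_326.JF (F.B ×ˢ F.D)
      (fun p : (Fin m → ℝ) × (Fin m → ℝ) => ψ p + ν p • (F.H p.1 p.2).om 0) :=
    NefRay_326.JF.add hψ' (NefRay_326.JF.smul hj hν)
  refine ⟨fun p => ψ p + ν p • (F.H p.1 p.2).om 0, hρ, fun b hb c hc => ⟨?_, ?_⟩⟩
  · obtain ⟨h1, -, -⟩ := h b hb c hc
    have e1 := t11_rot h1 (frB_fr (F.a b c)) 0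
    have e2 := Sta2_684.t11_om0 (F.H b c) 0
    intro i z hz u v
    have e3 := e1 i z hz u v
    have e4 := e2 i z hz u v
    show (ψ (b, c)).w i z ((F.H b c).J 0 i z u) ((F.H b c).J 0 i z v) +
      ν (b, c) * ((F.H b c).om 0).w i z ((F.H b c).J 0 i z u) ((F.H b c).J 0 i z v) =
      (ψ (b, c)).w i z u v + ν (b, c) * ((F.H b c).om 0).w i z u v
    have e5 : (ψ (b, c)).w i z ((F.H b c).J 0 i z u) ((F.H b c).J 0 i z v) =
      (ψ (b, c)).w i z u v := e3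
    have e6 : ((F.H b c).om 0).w i z ((F.H b c).J 0 i z u) ((F.H b c).J 0 i z v) =
      ((F.H b c).om 0).w i z u v := e4
    rw [e5, e6]
  · obtain ⟨-, h2, x, h3⟩ := h b hb c hc
    obtain ⟨z1, z2⟩ := F.Q_om2 hX horth hb hc
    set g := Q e ((F.M b c).om 0) with hg
    set q0 := Q ((F.M b c).om 0) ((F.M b c).om 0) with hq0
    have hq0p : 0 < q0 := F.qM hX h0 hb hc
    have q1 : Q ((F.M b c).om 1) ((F.M b c).om 1) = q0 := hX.eq _ 1
    have q2 : Q ((F.M b c).om 2) ((F.M b c).om 2) = q0 := hX.eq _ 2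
    have o : ∀ k l : Fin 3, k ≠ l → Q ((F.M b c).om k) ((F.M b c).om l) = 0 := hX.ort _
    -- the coefficients
    have hx : ∀ k, x k * q0 = -Q e ((F.M b c).om k) := by
      intro k
      have h4 := h2 k
      rw [cl1Q hX _ h3, map_add, LinearMap.add_apply, ← cl1Q hX _ hv] at h4
      have h5 : Q (∑ l, x l • (F.M b c).om l) ((F.M b c).om k) = x k * q0 := by
        rw [map_sum, LinearMap.sum_apply, Finset.sum_eq_single k]
        · rw [map_smul, LinearMap.smul_apply, smul_eq_mul, hX.eq _ k]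
        · intro l _ hl
          rw [map_smul, LinearMap.smul_apply, o l k hl, smul_zero]
        · intro h
          exact absurd (Finset.mem_univ _) h
      rw [h5] at h4
      linarith
    have x0 : x 0 = -(g / q0) := by
      rw [eq_neg_iff_add_eq_zero, ← mul_right_inj' hq0p.ne']
      have := hx 0
      rw [← hg] at this
      field_simp
      linarith
    have x1 : x 1 = 0 := by
      have := hx 1
      rw [z1, neg_zero] at this
      rcases mul_eq_zero.1 this with h | h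
      · exact h
      · exact absurd h hq0p.ne'
    have x2 : x 2 = F.a b c * (g / q0) := by
      have := hx 2
      rw [z2] at this
      field_simp
      linarith
    have hk : 0 < √(1 + F.a b c ^ 2) := Real.sqrt_pos.2 (by positivity)
    have hk2 : √(1 + F.a b c ^ 2) * √(1 + F.a b c ^ 2) = 1 + F.a b c ^ 2 :=
      Real.mul_self_sqrt (by positivity)
    -- `ν`
    have hν' : ν (b, c) * (√(1 + F.a b c ^ 2))⁻¹ = g / q0 := by
      show Q ((F.H b c).om 0) e / Q ((F.H b c).om 0) ((F.H b c).om 0) *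
        (√(1 + F.a b c ^ 2))⁻¹ = _
      have e1 : Q ((F.H b c).om 0) e = √(1 + F.a b c ^ 2) * g := by
        rw [hX.symm, F.H_om0, map_smul, map_sub, map_smul, z2, ← hg]
        simp only [smul_eq_mul]
        field_simp
        rw [Real.sq_sqrt (by positivity)]
        ring
      have e2 : Q ((F.H b c).om 0) ((F.H b c).om 0) = q0 := by
        rw [F.H_om0]
        simp only [map_smul, map_sub, LinearMap.smul_apply, LinearMap.sub_apply, smul_eq_mul,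
          o 0 2 (by decide), o 2 0 (by decide), q2, ← hq0]
        field_simp
        rw [Real.sq_sqrt (by positivity)]
        ring
      rw [e1, e2]
      field_simp
    show Cl (ψ (b, c) + ν (b, c) • (F.H b c).om 0) e
    have e1 : ν (b, c) • (F.H b c).om 0 =
        (g / q0) • ((F.M b c).om 0 - F.a b c • (F.M b c).om 2) := by
      rw [F.H_om0, smul_smul, hν']
    rw [e1]
    refine (h3.add (Cl.refl _)).trans ?_
    have e2 : lco bas v + ∑ k, x k • (F.M b c).om k +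
        (g / q0) • ((F.M b c).om 0 - F.a b c • (F.M b c).om 2) = lco bas v := by
      rw [Fin.sum_univ_three, x0, x1, x2]
      module
    rw [e2]
    exact hv.symm

/-- **the box** -/
def box (hX : Ctx n C Q) {e : F2 C} (hrat : ∀ j, RatF (bas j)) (horth : ∀ j, Q (bas j) e = 0)
    (hspan : ∀ x, Q x e = 0 → ∃ b : Fin m → ℝ, Cl x (lco bas b))
    (hinj : ∀ b : Fin m → ℝ, Ex (lco bas b) → b = 0)
    (h0 : 0 < Q (H0.om 0) (H0.om 0)) (hee : Q e e = 0) (he : 0 < Q e (H0.om 0))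
    (hb0 : Cl (H0.om 1) (lco bas b0)) (hc0 : Cl (H0.om 2) (lco bas c0)) : Box Q H0 e where
  m := m
  bas := bas
  rat := hrat
  orth := horth
  span := hspan
  inj := hinj
  b0 := b0
  c0 := c0
  B := F.B
  D := F.D
  oB := F.oB
  oD := F.oD
  cB := F.cB
  cD := F.cD
  b0B := F.b0B
  c0D := F.c0D
  H := F.H
  J0 := by
    intro i z hz
    show (F.M b0 c0).Jv (frB (F.a b0 c0) 0) i z = _
    rw [F.a_zero hX h0 hc0, HkT.Jv, Fin.sum_univ_three, F.J_cen hz, F.J_cen hz, F.J_cen hz]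
    simp [frB]
  cl1 := by
    intro b hb c hc
    obtain ⟨s, hs, h⟩ := F.cl1M hb hc
    exact ⟨s, hs, by rw [F.H_om1]; exact h⟩
  cl2 := by
    intro b hb c hc
    obtain ⟨s, t, hs, h⟩ := F.prj b hb c hc
    obtain ⟨s1, hs1, h1⟩ := F.cl1M hb hc
    have hk : 0 < √(1 + F.a b c ^ 2) := Real.sqrt_pos.2 (by positivity)
    refine ⟨(√(1 + F.a b c ^ 2))⁻¹ * s⁻¹, -((√(1 + F.a b c ^ 2))⁻¹ * s⁻¹ * (t * s1)),
      by positivity, ?_⟩
    have e1 : (F.H b c).om 2 = ((√(1 + F.a b c ^ 2))⁻¹ * s⁻¹) •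
        ((s • (F.M b c).om 2 + t • (F.M b c).om 1 + (s * F.a b c) • (F.M b c).om 0) +
          (-t) • (F.M b c).om 1) := by
      have e3 : (s • (F.M b c).om 2 + t • (F.M b c).om 1 + (s * F.a b c) • (F.M b c).om 0) +
          (-t) • (F.M b c).om 1 = s • (F.a b c • (F.M b c).om 0 + (F.M b c).om 2) := by
        module
      rw [F.H_om2, mul_smul, e3, inv_smul_smul₀ hs.ne']
    have e2 : ((√(1 + F.a b c ^ 2))⁻¹ * s⁻¹) • lco bas c +
        (-((√(1 + F.a b c ^ 2))⁻¹ * s⁻¹ * (t * s1))) • lco bas b =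
        ((√(1 + F.a b c ^ 2))⁻¹ * s⁻¹) • (lco bas c + (-t) • s1 • lco bas b) := by
      simp only [smul_add, smul_smul]
      congr 2
      ring
    rw [e1, e2]
    exact ((h.symm).add (h1.smul (-t))).smul _
  pos := by
    intro b hb c hc
    obtain ⟨s, t, hs, h⟩ := F.prj b hb c hc
    obtain ⟨s1, hs1, h1⟩ := F.cl1M hb hc
    have hp := F.posM hX horth he hb hc
    have z1 : ∀ b, Q e (lco bas b) = 0 := fun b => by rw [hX.symm]; exact lco_orth horth b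
    have z2 : Q e ((F.M b c).om 1) = 0 := by
      rw [cl2Q hX _ h1, map_smul, z1, smul_zero]
    have z3 : Q e ((F.M b c).om 2) = -(F.a b c) * Q e ((F.M b c).om 0) := by
      have h2 := z1 c
      rw [cl2Q hX _ h] at h2
      simp only [map_add, map_smul, smul_eq_mul, z2, mul_zero, add_zero] at h2
      have h3 : s * (Q e ((F.M b c).om 2) + F.a b c * Q e ((F.M b c).om 0)) = 0 := by
        linear_combination h2
      rcases mul_eq_zero.1 h3 with h4 | h4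
      · exact absurd h4 hs.ne'
      · linear_combination h4
    rw [F.H_om0, map_smul, map_sub, map_smul, z3]
    have hk : 0 < √(1 + F.a b c ^ 2) := Real.sqrt_pos.2 (by positivity)
    have e1 : Q e ((F.M b c).om 0) - F.a b c • (-(F.a b c) * Q e ((F.M b c).om 0)) =
        (1 + F.a b c ^ 2) * Q e ((F.M b c).om 0) := by
      rw [smul_eq_mul]
      ring
    rw [e1, smul_eq_mul]
    positivity
  pos2 := fun b hb c hc => sameTw_q hX (F.tw3 b c) (F.qM hX h0 hb hc)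
  ort0 := by
    rw [← cl1Q hX _ hb0, ← cl2Q hX _ hc0]
    exact hX.ort H0 1 2 (by decide)
  sm := by
    have h1 : SmHk (F.B ×ˢ F.D) fun p : (Fin m → ℝ) × (Fin m → ℝ) => F.H p.1 p.2 :=
      Bx_557.SmHk.rot F.smM (fun p => frB_fr _) fun k l => frB_sm F.a_sm k l
    exact ⟨fun k i => h1.om k i, fun k i => h1.J k i, fun i => Bx_557.SmHk.g h1 i⟩
  mv1 := by
    intro b hb b' hb'
    have hseg : ∀ s ∈ Icc (0 : ℝ) 1, seg b b' s ∈ F.B := fun s hs =>
      F.cB hb hb' (by linarith [hs.2]) hs.1 (by ring)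
    have s0 : seg b b' 0 = b := by simp [seg]
    have s1 : seg b b' 1 = b' := by simp [seg]
    refine ⟨fun s => (F.G1 (seg b b' s)).cyc 2, ⟨?_, ?_, ?_⟩, ?_⟩
    · intro s hs i z hz
      ext1 v
      rw [cyc_J, cyc_J]
      show (F.G1 (seg b b' s)).J 1 i z v = (F.G1 (seg b b' 0)).J 1 i z v
      rw [F.J1 _ (hseg s hs) i z hz, F.J1 _ (hseg 0 ⟨le_rfl, zero_le_one⟩) i z hz]
    · intro s hs
      obtain ⟨r, hr, h1, h2⟩ := F.om1 _ (hseg s hs)
      obtain ⟨r0, hr0, h3, h4⟩ := F.om1 _ (hseg 0 ⟨le_rfl, zero_le_one⟩)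
      refine ⟨r / r0, div_pos hr hr0, ?_, ?_⟩
      · intro i z hz u v
        have e1 := cyc_om (F.G1 (seg b b' s)) 2 0 i z hz u v
        have e2 := cyc_om (F.G1 (seg b b' 0)) 2 0 i z hz u v
        rw [zero_add] at e1 e2
        rw [e1, h2 i z hz u v]
        show _ = r / r0 * (((F.G1 (seg b b' 0)).cyc 2).om 0).w i z u v
        rw [e2, h4 i z hz u v]
        show r * (H0.om 2).w i z u v = r / r0 * (r0 * (H0.om 2).w i z u v)
        field_simp
      · intro i z hz u v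
        have e1 := cyc_om (F.G1 (seg b b' s)) 2 1 i z hz u v
        have e2 := cyc_om (F.G1 (seg b b' 0)) 2 1 i z hz u v
        have e3 : (1 : Fin 3) + 2 = 0 := rfl
        rw [e3] at e1 e2
        rw [e1, h1 i z hz u v]
        show _ = r / r0 * (((F.G1 (seg b b' 0)).cyc 2).om 1).w i z u v
        rw [e2, h3 i z hz u v]
        show r * (H0.om 0).w i z u v = r / r0 * (r0 * (H0.om 0).w i z u v)
        field_simp
    · intro s hs
      have e3 : (2 : Fin 3) + 2 = 1 := rfl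
      have c1 : ∀ s ∈ Icc (0 : ℝ) 1, Cl (((F.G1 (seg b b' s)).cyc 2).om 2) (w1 F (seg b b' s)) := by
        intro s hs
        have := cl_of_eqv (cyc_om (F.G1 (seg b b' s)) 2 2)
        rw [e3] at this
        exact this.trans (F.cls1 _ (hseg s hs))
      have h0 := c1 0 ⟨le_rfl, zero_le_one⟩
      have h1 := c1 1 ⟨zero_le_one, le_rfl⟩
      rw [s0] at h0
      rw [s1] at h1
      refine (c1 s hs).trans ((F.aff1 b hb b' hb' s hs).trans ?_)
      show Cl _ ((1 - s) • ((F.G1 (seg b b' 0)).cyc 2).om 2 + s • ((F.G1 (seg b b' 1)).cyc 2).om 2)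
      rw [s0, s1]
      exact (h0.symm.smul _).add (h1.symm.smul _)
    · intro s hs
      have h1 := hseg s hs
      exact SameTw.trans (SameTw.symm (sameTw_cyc _ 2)) (SameTw.trans (F.tw1 _ h1)
        (SameTw.trans (F.tw2 _ h1) (F.tw3 _ _)))
  base := F.L
  base1 := F.L1
  mvc := by
    intro b hb c hc
    obtain ⟨r, hr, h1, h2⟩ := F.om2 b hb c hc
    obtain ⟨s, t, hs, h3⟩ := F.prj b hb c hc
    exact ⟨F.M b c, r, s, t, s * F.a b c, hr, hs, h1, h2, h3, F.tw3 b c⟩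
  mv2 := by
    intro b hb c hc c' hc'
    have hseg : ∀ s ∈ Icc (0 : ℝ) 1, seg c c' s ∈ F.D := fun s hs =>
      F.cD hc hc' (by linarith [hs.2]) hs.1 (by ring)
    have s0 : seg c c' 0 = c := by simp [seg]
    have s1 : seg c c' 1 = c' := by simp [seg]
    refine ⟨fun s => F.M b (seg c c' s), ⟨?_, ?_, ?_⟩, fun s _ => F.tw3 _ _⟩
    · intro s hs i z hz
      show (F.M b (seg c c' s)).J 2 i z = (F.M b (seg c c' 0)).J 2 i z
      rw [F.J2 b hb _ (hseg s hs) i z hz, F.J2 b hb _ (hseg 0 ⟨le_rfl, zero_le_one⟩) i z hz]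
    · intro s hs
      obtain ⟨r, hr, h1, h2⟩ := F.om2 b hb _ (hseg s hs)
      obtain ⟨r0, hr0, h3, h4⟩ := F.om2 b hb _ (hseg 0 ⟨le_rfl, zero_le_one⟩)
      refine ⟨r / r0, div_pos hr hr0, ?_, ?_⟩
      · intro i z hz u v
        rw [h1 i z hz u v]
        show _ = r / r0 * ((F.M b (seg c c' 0)).om 0).w i z u v
        rw [h3 i z hz u v]
        show r * ((F.L b).om 0).w i z u v = r / r0 * (r0 * ((F.L b).om 0).w i z u v)
        field_simp
      · intro i z hz u v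
        rw [h2 i z hz u v]
        show _ = r / r0 * ((F.M b (seg c c' 0)).om 1).w i z u v
        rw [h4 i z hz u v]
        show r * ((F.L b).om 1).w i z u v = r / r0 * (r0 * ((F.L b).om 1).w i z u v)
        field_simp
    · intro s hs
      refine (F.cls2 b hb _ (hseg s hs)).trans ((F.aff2 b hb c hc c' hc' s hs).trans ?_)
      show Cl _ ((1 - s) • (F.M b (seg c c' 0)).om 2 + s • (F.M b (seg c c' 1)).om 2)
      rw [s0, s1]
      exact ((F.cls2 b hb c hc).symm.smul _).add ((F.cls2 b hb c' hc').symm.smul _)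
  rep := by
    obtain ⟨v, hv⟩ := hspan e hee
    obtain ⟨ρ, h1, h2⟩ := F.rep_box hX horth h0 hv
    exact ⟨ρ, h1, fun p hp => h2 p.1 hp.1 p.2 hp.2⟩

end BoxFam

end q

/-- **existence of the two moves** (557, 222) -/
def BoxFamP : Prop :=
  ∀ (n : ℕ) (X : Type) [TopologicalSpace X] [CompactSpace X] [T2Space X] [SimplyConnectedSpace X]
    (C : RCh (Cn (2 * n)) X) (Q : F2 C →ₗ[ℝ] F2 C →ₗ[ℝ] ℝ), Ctx n C Q → ∀ (H0 : HkT C),
    0 < Q (H0.om 0) (H0.om 0) → ∀ (m : ℕ) (bas : Fin m → F2 C) (b0 c0 : Fin m → ℝ),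
    Cl (H0.om 1) (lco bas b0) → Cl (H0.om 2) (lco bas c0) → Nonempty (BoxFam Q bas b0 c0 H0)

/-- **the box exists** -/
theorem boxP_of (h : BoxFamP) : BoxP := by
  intro n X _ _ _ _ C Q hX H0 L0 e hG
  obtain ⟨m, bas, h1, h2, h3, h4⟩ := BoxA_327.exists_basis hX.ex hX.rat hX.span hG.int.rat
  obtain ⟨b0, hb0⟩ := h3 (H0.om 1) (by rw [hX.symm]; exact hG.e1)
  obtain ⟨c0, hc0⟩ := h3 (H0.om 2) (by rw [hX.symm]; exact hG.e2)
  obtain ⟨F⟩ := h n X C Q hX H0 hG.pos m bas b0 c0 hb0 hc0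
  exact ⟨BoxFam.box F hX h1 h2 h3 h4 hG.pos hG.ee hG.e0 hb0 hc0⟩

end

end Crest.Agent.R281.BoxB_327
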