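import Crest.Agent.R281.Mc10_673

/-!
# R281 / BIG-TUBE (helper156), part 2: tubes of large radius by scaling

`LagtS1` (40, post 8255) on the tube of radius `1` implies `LagtR`: tubes of any radius, with the
bound `Lam` on the forms independent of the radius.
-/

set_option autoImplicit false
set_option maxSynthPendingDepth 3
set_option synthInstance.maxHeartbeats 100000

open MeasureTheory Set Metric Filter
open scoped ContDiff Topology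

namespace Crest.Agent.R281.Bt_156

open Crest.Agent.R238.Sch (ee norm_ee sum_ee)
open Crest.Agent.R281.Mc673

noncomputable section

/-! ### linear changes of coordinates -/

section lin

variable {E E' F G : Type*} [NormedAddCommGroup E] [NormedSpace ℝ E] [NormedAddCommGroup E']
  [NormedSpace ℝ E'] [NormedAddCommGroup F] [NormedSpace ℝ F] [NormedAddCommGroup G]
  [NormedSpace ℝ G]

/-- `A ↦ L ∘ A ∘ S` -/
def sand (L : F →L[ℝ] G) (S : E →L[ℝ] E') : (E' →L[ℝ] F) →L[ℝ] (E →L[ℝ] G) :=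
  ((ContinuousLinearMap.compL ℝ E E' G).flip S).comp ((ContinuousLinearMap.compL ℝ E' F G) L)

theorem sand_apply (L : F →L[ℝ] G) (S : E →L[ℝ] E') (A : E' →L[ℝ] F) :
    sand L S A = (L.comp A).comp S := rfl

theorem norm_sand_apply_le (L : F →L[ℝ] G) (S : E →L[ℝ] E') {a b : ℝ} (ha : 0 ≤ a) (hb : 0 ≤ b)
    (hL : ∀ f, ‖L f‖ ≤ a * ‖f‖) (hS : ∀ e, ‖S e‖ ≤ b * ‖e‖) (A : E' →L[ℝ] F) :
    ‖sand L S A‖ ≤ a * b * ‖A‖ := by
  refine ContinuousLinearMap.opNorm_le_bound _ (by positivity) fun e => ?_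
  rw [sand_apply]
  calc ‖L (A (S e))‖ ≤ a * ‖A (S e)‖ := hL _
    _ ≤ a * (‖A‖ * ‖S e‖) := mul_le_mul_of_nonneg_left (A.le_opNorm _) ha
    _ ≤ a * (‖A‖ * (b * ‖e‖)) := by
        refine mul_le_mul_of_nonneg_left (mul_le_mul_of_nonneg_left (hS e) (norm_nonneg _)) ha
    _ = a * b * ‖A‖ * ‖e‖ := by ring

theorem fderiv_sand (L : F →L[ℝ] G) (S : E →L[ℝ] E') {f : E' → F} {p : E}
    (hf : DifferentiableAt ℝ f (S p)) :
    fderiv ℝ (fun q => L (f (S q))) p = sand L S (fderiv ℝ f (S p)) := by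
  have h1 : HasFDerivAt (fun q => L (f (S q))) ((L.comp (fderiv ℝ f (S p))).comp S) p :=
    (L.hasFDerivAt.comp p (hf.hasFDerivAt.comp p S.hasFDerivAt))
  exact h1.fderiv

end lin

variable {N : ℕ}

/-- bilinear forms -/
abbrev B2 (N : ℕ) := W N →L[ℝ] W N →L[ℝ] ℝ

/-- `(θ, v) ↦ (θ, s v)` -/
def Sc (N : ℕ) (s : ℝ) : W N →L[ℝ] W N :=
  (ContinuousLinearMap.fst ℝ (V N) (V N)).prod (s • ContinuousLinearMap.snd ℝ (V N) (V N))

theorem Sc_apply (s : ℝ) (p : W N) : Sc N s p = (p.1, s • p.2) := rfl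

theorem Sc_Sc {s : ℝ} (hs : s ≠ 0) (p : W N) : Sc N s (Sc N s⁻¹ p) = p := by
  rw [Sc_apply, Sc_apply]
  ext1
  · rfl
  · exact smul_inv_smul₀ hs _

theorem norm_Sc_apply_le {s m : ℝ} (hm : 1 ≤ m) (hs : |s| ≤ m) (p : W N) :
    ‖Sc N s p‖ ≤ m * ‖p‖ := by
  rw [Sc_apply]
  refine max_le ?_ ?_
  · calc ‖p.1‖ ≤ ‖p‖ := norm_fst_le p
      _ ≤ m * ‖p‖ := le_mul_of_one_le_left (norm_nonneg _) hm
  · show ‖s • p.2‖ ≤ m * ‖p‖
    rw [norm_smul, Real.norm_eq_abs]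
    exact mul_le_mul hs (norm_snd_le p) (norm_nonneg _) (by linarith)

/-- `f ↦ f (S ·)` -/
def pb0 (N : ℕ) (s : ℝ) : (W N →L[ℝ] ℝ) →L[ℝ] (W N →L[ℝ] ℝ) :=
  sand (ContinuousLinearMap.id ℝ ℝ) (Sc N s)

/-- `B ↦ B (S ·, S ·)` -/
def pbL (N : ℕ) (s : ℝ) : B2 N →L[ℝ] B2 N := sand (pb0 N s) (Sc N s)

/-- on derivatives -/
def pbL1 (N : ℕ) (s : ℝ) : (W N →L[ℝ] B2 N) →L[ℝ] (W N →L[ℝ] B2 N) := sand (pbL N s) (Sc N s)

/-- on second derivatives -/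
def pbL2 (N : ℕ) (s : ℝ) : (W N →L[ℝ] W N →L[ℝ] B2 N) →L[ℝ] (W N →L[ℝ] W N →L[ℝ] B2 N) :=
  sand (pbL1 N s) (Sc N s)

theorem pbL_apply (s : ℝ) (B : B2 N) (u w : W N) :
    pbL N s B u w = B (Sc N s u) (Sc N s w) := rfl

theorem norm_pb0_le {s m : ℝ} (hm : 1 ≤ m) (hs : |s| ≤ m) (A : W N →L[ℝ] ℝ) :
    ‖pb0 N s A‖ ≤ m * ‖A‖ := by
  have h1 := norm_sand_apply_le (ContinuousLinearMap.id ℝ ℝ) (Sc N s) zero_le_one
    (by linarith : (0 : ℝ) ≤ m) (fun f => by simp) (norm_Sc_apply_le hm hs) A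
  rwa [one_mul] at h1

theorem norm_pbL_le {s m : ℝ} (hm : 1 ≤ m) (hs : |s| ≤ m) (A : B2 N) :
    ‖pbL N s A‖ ≤ m * m * ‖A‖ :=
  norm_sand_apply_le _ _ (by linarith) (by linarith) (norm_pb0_le hm hs) (norm_Sc_apply_le hm hs) A

theorem norm_pbL1_le {s m : ℝ} (hm : 1 ≤ m) (hs : |s| ≤ m) (A : W N →L[ℝ] B2 N) :
    ‖pbL1 N s A‖ ≤ m * m * m * ‖A‖ :=
  norm_sand_apply_le _ _ (by positivity) (by linarith) (norm_pbL_le hm hs)
    (norm_Sc_apply_le hm hs) A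

theorem norm_pbL2_le {s m : ℝ} (hm : 1 ≤ m) (hs : |s| ≤ m) (A : W N →L[ℝ] W N →L[ℝ] B2 N) :
    ‖pbL2 N s A‖ ≤ m * m * m * m * ‖A‖ :=
  norm_sand_apply_le _ _ (by positivity) (by linarith) (norm_pbL1_le hm hs)
    (norm_Sc_apply_le hm hs) A

/-- the scaled form -/
def scF (s : ℝ) (x : Fo N) : Fo N := fun p => pbL N s (x (Sc N s p))

theorem scF_apply (s : ℝ) (x : Fo N) (p u w : W N) :
    scF s x p u w = x (Sc N s p) (Sc N s u) (Sc N s w) := rfl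

theorem Sc_mem {s r : ℝ} (hs : 0 < s) {p : W N} (hp : p ∈ tube N r) :
    Sc N s p ∈ tube N (s * r) := by
  have hp' : ‖p.2‖ < r := hp
  show ‖s • p.2‖ < s * r
  rw [norm_smul, Real.norm_eq_abs, abs_of_pos hs]
  exact mul_lt_mul_of_pos_left hp' hs

section clf

variable {s r : ℝ} {x : Fo N} (hs : 0 < s) (hx : ClF (s * r) x)

include hs hx

theorem fderiv_scF {p : W N} (hp : p ∈ tube N r) :
    fderiv ℝ (scF s x) p = pbL1 N s (fderiv ℝ x (Sc N s p)) :=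
  fderiv_sand (pbL N s) (Sc N s) (hx.da (Sc_mem hs hp))

theorem fderiv_scF_apply {p : W N} (hp : p ∈ tube N r) (z u w : W N) :
    fderiv ℝ (scF s x) p z u w =
      fderiv ℝ x (Sc N s p) (Sc N s z) (Sc N s u) (Sc N s w) := by
  rw [fderiv_scF hs hx hp]
  rfl

theorem fderiv2_scF {p : W N} (hp : p ∈ tube N r) :
    fderiv ℝ (fderiv ℝ (scF s x)) p = pbL2 N s (fderiv ℝ (fderiv ℝ x) (Sc N s p)) := by
  have h1 : fderiv ℝ (scF s x) =ᶠ[𝓝 p] fun q => pbL1 N s (fderiv ℝ x (Sc N s q)) := by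
    filter_upwards [(isOpen_tube (N := N) r).mem_nhds hp] with q hq
    exact fderiv_scF hs hx hq
  rw [h1.fderiv_eq]
  refine fderiv_sand (pbL1 N s) (Sc N s) ?_
  have h3 : (1 : WithTop ℕ∞) + 1 ≤ ∞ := by
    have h4 : ((1 + 1 : ℕ∞) : WithTop ℕ∞) ≤ ∞ := WithTop.coe_le_coe.2 le_top
    exact h4
  have h2 : ContDiffAt ℝ 1 (fderiv ℝ x) (Sc N s p) :=
    (hx.cda (Sc_mem hs hp)).fderiv_right (m := 1) h3
  exact h2.differentiableAt one_ne_zero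

theorem clF_scF : ClF r (scF s x) where
  sm := by
    intro p hp
    have h0 : ContDiffAt ℝ ∞ (fun q => x (Sc N s q)) p :=
      (hx.cda (Sc_mem hs hp)).comp p (Sc N s).contDiff.contDiffAt
    exact ((pbL N s).contDiff.contDiffAt.comp p h0).contDiffWithinAt
  alt p hp u v := by
    rw [scF_apply, scF_apply]
    exact hx.alt _ (Sc_mem hs hp) _ _
  cl p hp u v z := by
    rw [fderiv_scF_apply hs hx hp, fderiv_scF_apply hs hx hp, fderiv_scF_apply hs hx hp]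
    exact hx.cl _ (Sc_mem hs hp) _ _ _
  per k p hp := by
    have h1 := hx.per k (Sc N s p) (Sc_mem hs hp)
    show pbL N s (x (Sc N s (p.1 + kv k, p.2))) = pbL N s (x (Sc N s p))
    congr 1

end clf

/-! ### the statements -/

/-- a family of Lagrangian tori (40, post 8255) -/
structure Tor (N : ℕ) (rho eps : ℝ) (x y : Fo N) (a : V N → V N → V N) : Prop where
  c1 : ∀ c, ‖c‖ ≤ rho → ContDiff ℝ 1 (a c)
  per : ∀ c, ‖c‖ ≤ rho → Per (a c)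
  near : ∀ c, ‖c‖ ≤ rho → ∀ th, ‖a c th - c‖ ≤ eps
  dnear : ∀ c, ‖c‖ ≤ rho → ∀ th, ‖fderiv ℝ (a c) th‖ ≤ eps
  x0 : ∀ c, ‖c‖ ≤ rho → ∀ th u v,
    x (th, a c th) (u, fderiv ℝ (a c) th u) (v, fderiv ℝ (a c) th v) = 0
  y0 : ∀ c, ‖c‖ ≤ rho → ∀ th u v,
    y (th, a c th) (u, fderiv ℝ (a c) th u) (v, fderiv ℝ (a c) th v) = 0
  lip : ∀ c c', ‖c‖ ≤ rho → ‖c'‖ ≤ rho → ∀ th,
    ‖(a c th - a c' th) - (c - c')‖ ≤ eps * ‖c - c'‖
  dlip : ∀ c c', ‖c‖ ≤ rho → ‖c'‖ ≤ rho → ∀ th,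
    ‖fderiv ℝ (a c) th - fderiv ℝ (a c') th‖ ≤ eps * ‖c - c'‖
  cover : ∀ th v, ‖v‖ ≤ rho / 2 → ∃ c, ‖c‖ ≤ rho ∧ a c th = v

/-- hypotheses on a pair of forms on the tube of radius `r` -/
structure Hyp (r Lam del : ℝ) (x y : Fo N) : Prop where
  cx : ClF r x
  cy : ClF r y
  bx : ∀ p ∈ tube N r, ‖x p‖ ≤ Lam
  byy : ∀ p ∈ tube N r, ‖y p‖ ≤ Lam
  nd : ∀ p ∈ tube N r, ∀ u, ‖u‖ ≤ Lam * ‖x p u‖
  dx : ∀ p ∈ tube N r, ‖fderiv ℝ x p‖ ≤ del
  ddx : ∀ p ∈ tube N r, ‖fderiv ℝ (fderiv ℝ x) p‖ ≤ del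
  dy : ∀ p ∈ tube N r, ‖fderiv ℝ y p‖ ≤ del
  ddy : ∀ p ∈ tube N r, ‖fderiv ℝ (fderiv ℝ y) p‖ ≤ del
  I : ∀ p ∈ tube N r, ∃ I : W N → W N, (∀ u, I (I u) = -u) ∧ ∀ u w, x p (I u) w = - y p u w
  mx : ∀ j k, mn (fun th => x (th, 0) (ee j, 0) (ee k, 0)) = 0
  my : ∀ j k, mn (fun th => y (th, 0) (ee j, 0) (ee k, 0)) = 0

def LagtS1 : Prop := ∀ (N : ℕ) (Lam eps : ℝ), 0 < Lam → 0 < eps → ∃ del > 0, ∀ x y : Fo N,
  Hyp 1 Lam del x y → ∃ a, Tor N (1 / 2) eps x y a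

def LagtR : Prop := ∀ (N : ℕ) (Lam eps R : ℝ), 0 < Lam → 0 < eps → 0 < R → ∃ del > 0,
  ∀ x y : Fo N, Hyp (2 * R) Lam del x y → ∃ a, Tor N R eps x y a

theorem hyp_scale {s m Lam del : ℝ} (hs : 0 < s) (hm : 1 ≤ m) (hsm : s ≤ m) (hsi : s⁻¹ ≤ m)
    (hL : 0 < Lam) (hd : 0 ≤ del) {x y : Fo N} (h : Hyp s Lam del x y) :
    Hyp 1 (m ^ 4 * Lam) (m ^ 4 * del) (scF s x) (scF s y) := by
  have hm0 : 0 ≤ m := by linarith
  have ha : |s| ≤ m := by rwa [abs_of_pos hs]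
  have hai : |s⁻¹| ≤ m := by rwa [abs_of_pos (inv_pos.2 hs)]
  have hx : ClF (s * 1) x := by rw [mul_one]; exact h.cx
  have hy : ClF (s * 1) y := by rw [mul_one]; exact h.cy
  have hmem : ∀ p ∈ tube N 1, Sc N s p ∈ tube N s := fun p hp => by
    have := Sc_mem hs hp
    rwa [mul_one] at this
  have hmm : m * m ≤ m ^ 4 := by
    have h1 : 1 ≤ m * m := one_le_mul_of_one_le_of_one_le hm hm
    calc m * m ≤ (m * m) * (m * m) := le_mul_of_one_le_left (by positivity) h1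
      _ = m ^ 4 := by ring
  have h3 : m * m * m ≤ m ^ 4 := by
    calc m * m * m ≤ (m * m * m) * m := le_mul_of_one_le_right (by positivity) hm
      _ = m ^ 4 := by ring
  have b0 : ∀ z : Fo N, (∀ p ∈ tube N s, ‖z p‖ ≤ Lam) → ∀ p ∈ tube N 1,
      ‖scF s z p‖ ≤ m ^ 4 * Lam := by
    intro z hz p hp
    calc ‖scF s z p‖ ≤ (m * m) * ‖z (Sc N s p)‖ := norm_pbL_le hm ha _
      _ ≤ (m * m) * Lam := mul_le_mul_of_nonneg_left (hz _ (hmem p hp)) (by positivity)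
      _ ≤ m ^ 4 * Lam := mul_le_mul_of_nonneg_right hmm hL.le
  have b1 : ∀ z : Fo N, ClF (s * 1) z → (∀ p ∈ tube N s, ‖fderiv ℝ z p‖ ≤ del) →
      ∀ p ∈ tube N 1, ‖fderiv ℝ (scF s z) p‖ ≤ m ^ 4 * del := by
    intro z hz hz1 p hp
    rw [fderiv_scF hs hz hp]
    calc ‖pbL1 N s (fderiv ℝ z (Sc N s p))‖ ≤ (m * m * m) * ‖fderiv ℝ z (Sc N s p)‖ :=
          norm_pbL1_le hm ha _
      _ ≤ (m * m * m) * del := mul_le_mul_of_nonneg_left (hz1 _ (hmem p hp)) (by positivity)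
      _ ≤ m ^ 4 * del := mul_le_mul_of_nonneg_right h3 hd
  have b2 : ∀ z : Fo N, ClF (s * 1) z → (∀ p ∈ tube N s, ‖fderiv ℝ (fderiv ℝ z) p‖ ≤ del) →
      ∀ p ∈ tube N 1, ‖fderiv ℝ (fderiv ℝ (scF s z)) p‖ ≤ m ^ 4 * del := by
    intro z hz hz1 p hp
    rw [fderiv2_scF hs hz hp]
    calc ‖pbL2 N s (fderiv ℝ (fderiv ℝ z) (Sc N s p))‖ ≤
          (m * m * m * m) * ‖fderiv ℝ (fderiv ℝ z) (Sc N s p)‖ := norm_pbL2_le hm ha _
      _ ≤ (m * m * m * m) * del :=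
          mul_le_mul_of_nonneg_left (hz1 _ (hmem p hp)) (by positivity)
      _ = m ^ 4 * del := by ring
  refine ⟨clF_scF hs hx, clF_scF hs hy, b0 x h.bx, b0 y h.byy, ?_, b1 x hx h.dx, b2 x hx h.ddx,
    b1 y hy h.dy, b2 y hy h.ddy, ?_, ?_, ?_⟩
  · intro p hp u
    have e1 : u = Sc N s⁻¹ (Sc N s u) := by
      have := Sc_Sc (inv_ne_zero hs.ne') u
      rw [inv_inv] at this
      exact this.symm
    have h1 : ‖u‖ ≤ m * ‖Sc N s u‖ := by
      conv_lhs => rw [e1]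
      exact norm_Sc_apply_le hm hai _
    have h2 : ‖x (Sc N s p) (Sc N s u)‖ ≤ m * ‖scF s x p u‖ := by
      refine ContinuousLinearMap.opNorm_le_bound _ (by positivity) fun w => ?_
      have e2 : x (Sc N s p) (Sc N s u) w = scF s x p u (Sc N s⁻¹ w) := by
        rw [scF_apply, Sc_Sc hs.ne']
      rw [e2]
      calc ‖scF s x p u (Sc N s⁻¹ w)‖ ≤ ‖scF s x p u‖ * ‖Sc N s⁻¹ w‖ :=
            (scF s x p u).le_opNorm _
        _ ≤ ‖scF s x p u‖ * (m * ‖w‖) :=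
            mul_le_mul_of_nonneg_left (norm_Sc_apply_le hm hai w) (norm_nonneg _)
        _ = m * ‖scF s x p u‖ * ‖w‖ := by ring
    have h3' := h.nd (Sc N s p) (hmem p hp) (Sc N s u)
    calc ‖u‖ ≤ m * ‖Sc N s u‖ := h1
      _ ≤ m * (Lam * (m * ‖scF s x p u‖)) := by gcongr; exact h3'.trans (by gcongr)
      _ = (m * m) * (Lam * ‖scF s x p u‖) := by ring
      _ ≤ m ^ 4 * (Lam * ‖scF s x p u‖) := mul_le_mul_of_nonneg_right hmm (by positivity)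
      _ = m ^ 4 * Lam * ‖scF s x p u‖ := by ring
  · intro p hp
    obtain ⟨I, hI, hI2⟩ := h.I (Sc N s p) (hmem p hp)
    have key : ∀ v, Sc N s (Sc N s⁻¹ v) = v := fun v => Sc_Sc hs.ne' v
    refine ⟨fun u => Sc N s⁻¹ (I (Sc N s u)), fun u => ?_, fun u w => ?_⟩
    · show Sc N s⁻¹ (I (Sc N s (Sc N s⁻¹ (I (Sc N s u))))) = -u
      rw [key, hI, map_neg]
      have := Sc_Sc (inv_ne_zero hs.ne') u
      rw [inv_inv] at this
      rw [this]
    · rw [scF_apply, scF_apply, key]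
      exact hI2 _ _
  · intro j k
    have : (fun th : V N => scF s x (th, 0) (ee j, 0) (ee k, 0)) =
        fun th => x (th, 0) (ee j, 0) (ee k, 0) := by
      funext th
      rw [scF_apply, Sc_apply, Sc_apply, Sc_apply]
      simp
    rw [this]
    exact h.mx j k
  · intro j k
    have : (fun th : V N => scF s y (th, 0) (ee j, 0) (ee k, 0)) =
        fun th => y (th, 0) (ee j, 0) (ee k, 0) := by
      funext th
      rw [scF_apply, Sc_apply, Sc_apply, Sc_apply]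
      simp
    rw [this]
    exact h.my j k

theorem tor_scale {s m rho eps : ℝ} (hs : 0 < s) (hm : 1 ≤ m) (hsm : s ≤ m) (he : 0 ≤ eps)
    {x y : Fo N} {a : V N → V N → V N} (h : Tor N rho eps (scF s x) (scF s y) a) :
    Tor N (s * rho) (m * eps) x y (fun c th => s • a (s⁻¹ • c) th) := by
  have hc : ∀ c : V N, ‖c‖ ≤ s * rho → ‖s⁻¹ • c‖ ≤ rho := by
    intro c hc
    rw [norm_smul, norm_inv, Real.norm_eq_abs, abs_of_pos hs, inv_mul_le_iff₀ hs]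
    exact hc
  have hsc : ∀ c : V N, c = s • s⁻¹ • c := fun c => (smul_inv_smul₀ hs.ne' c).symm
  have hdiff : ∀ c : V N, ‖c‖ ≤ s * rho → ∀ th, fderiv ℝ (fun th => s • a (s⁻¹ • c) th) th =
      s • fderiv ℝ (a (s⁻¹ • c)) th := by
    intro c hc' th
    exact fderiv_const_smul (((h.c1 _ (hc c hc')).differentiable (by simp)).differentiableAt) s
  have hns : ∀ v : V N, ‖s • v‖ = s * ‖v‖ := fun v => by
    rw [norm_smul, Real.norm_eq_abs, abs_of_pos hs]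
  have zer : ∀ z : Fo N, (∀ c, ‖c‖ ≤ rho → ∀ th u v,
      scF s z (th, a c th) (u, fderiv ℝ (a c) th u) (v, fderiv ℝ (a c) th v) = 0) →
      ∀ c, ‖c‖ ≤ s * rho → ∀ th u v, z (th, s • a (s⁻¹ • c) th)
        (u, fderiv ℝ (fun th => s • a (s⁻¹ • c) th) th u)
        (v, fderiv ℝ (fun th => s • a (s⁻¹ • c) th) th v) = 0 := by
    intro z hz c hc' th u v
    have h1 := hz _ (hc c hc') th u v
    rw [hdiff c hc' th]
    rw [scF_apply, Sc_apply, Sc_apply, Sc_apply] at h1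
    exact h1
  refine ⟨fun c hc' => (h.c1 _ (hc c hc')).const_smul s, fun c hc' k th => ?_, fun c hc' th => ?_,
    fun c hc' th => ?_, zer x h.x0, zer y h.y0, fun c c' hc1 hc2 th => ?_,
    fun c c' hc1 hc2 th => ?_, fun th v hv => ?_⟩
  · show s • a (s⁻¹ • c) (th + kv k) = s • a (s⁻¹ • c) th
    rw [h.per _ (hc c hc') k th]
  · have e : s • a (s⁻¹ • c) th - c = s • (a (s⁻¹ • c) th - s⁻¹ • c) := by
      rw [smul_sub, ← hsc c]
    rw [e, hns]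
    exact mul_le_mul hsm (h.near _ (hc c hc') th) (norm_nonneg _) (by linarith)
  · rw [hdiff c hc' th, norm_smul, Real.norm_eq_abs, abs_of_pos hs]
    exact mul_le_mul hsm (h.dnear _ (hc c hc') th) (norm_nonneg _) (by linarith)
  · have h1 := h.lip _ _ (hc c hc1) (hc c' hc2) th
    have e : s • a (s⁻¹ • c) th - s • a (s⁻¹ • c') th - (c - c') =
        s • ((a (s⁻¹ • c) th - a (s⁻¹ • c') th) - (s⁻¹ • c - s⁻¹ • c')) := by
      rw [smul_sub, smul_sub, smul_sub, ← hsc c, ← hsc c']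
    have e2 : ‖s⁻¹ • c - s⁻¹ • c'‖ = s⁻¹ * ‖c - c'‖ := by
      rw [← smul_sub, norm_smul, norm_inv, Real.norm_eq_abs, abs_of_pos hs]
    rw [e, hns]
    rw [e2] at h1
    calc s * ‖(a (s⁻¹ • c) th - a (s⁻¹ • c') th) - (s⁻¹ • c - s⁻¹ • c')‖
        ≤ s * (eps * (s⁻¹ * ‖c - c'‖)) := mul_le_mul_of_nonneg_left h1 hs.le
      _ = 1 * (eps * ‖c - c'‖) := by field_simp
      _ ≤ m * (eps * ‖c - c'‖) := mul_le_mul_of_nonneg_right hm (by positivity)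
      _ = m * eps * ‖c - c'‖ := by ring
  · have h1 := h.dlip _ _ (hc c hc1) (hc c' hc2) th
    have e2 : ‖s⁻¹ • c - s⁻¹ • c'‖ = s⁻¹ * ‖c - c'‖ := by
      rw [← smul_sub, norm_smul, norm_inv, Real.norm_eq_abs, abs_of_pos hs]
    rw [hdiff c hc1 th, hdiff c' hc2 th, ← smul_sub, norm_smul, Real.norm_eq_abs, abs_of_pos hs]
    rw [e2] at h1
    calc s * ‖fderiv ℝ (a (s⁻¹ • c)) th - fderiv ℝ (a (s⁻¹ • c')) th‖
        ≤ s * (eps * (s⁻¹ * ‖c - c'‖)) := mul_le_mul_of_nonneg_left h1 hs.le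
      _ = 1 * (eps * ‖c - c'‖) := by field_simp
      _ ≤ m * (eps * ‖c - c'‖) := mul_le_mul_of_nonneg_right hm (by positivity)
      _ = m * eps * ‖c - c'‖ := by ring
  · have hv' : ‖s⁻¹ • v‖ ≤ rho / 2 := by
      rw [norm_smul, norm_inv, Real.norm_eq_abs, abs_of_pos hs, inv_mul_le_iff₀ hs]
      linarith
    obtain ⟨c, hc1, hc2⟩ := h.cover th _ hv'
    refine ⟨s • c, ?_, ?_⟩
    · rw [hns]
      exact mul_le_mul_of_nonneg_left hc1 hs.le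
    · show s • a (s⁻¹ • s • c) th = v
      rw [inv_smul_smul₀ hs.ne', hc2, smul_inv_smul₀ hs.ne']

/-- **large tubes by scaling** -/
theorem lagtR_of_S1 (H : LagtS1) : LagtR := by
  intro N Lam eps R hL he hR
  set s : ℝ := 2 * R with hs'
  have hs : 0 < s := by positivity
  set m : ℝ := max 1 (max s s⁻¹) with hm'
  have hm : 1 ≤ m := le_max_left _ _
  have hsm : s ≤ m := (le_max_left _ _).trans (le_max_right _ _)
  have hsi : s⁻¹ ≤ m := (le_max_right _ _).trans (le_max_right _ _)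
  have hm0 : 0 < m := by linarith
  obtain ⟨d, hd, hd2⟩ := H N (m ^ 4 * Lam) (eps / m) (by positivity) (by positivity)
  refine ⟨d / m ^ 4, by positivity, fun x y h => ?_⟩
  have h1 := hyp_scale hs hm hsm hsi hL (by positivity) h
  have e1 : m ^ 4 * (d / m ^ 4) = d := by field_simp
  rw [e1] at h1
  obtain ⟨a, ha⟩ := hd2 _ _ h1
  have h2 := tor_scale hs hm hsm (by positivity) ha
  have e2 : s * (1 / 2) = R := by rw [hs']; ring
  have e3 : m * (eps / m) = eps := by field_simp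
  rw [e2, e3] at h2
  exact ⟨_, h2⟩

end

end Crest.Agent.R281.Bt_156
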