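import Crest.Agent.R281.Mc12_673

/-!
# R281 / LAGT (helper673), part 15

Linear algebra: proof of (R2) and (R3).
-/

set_option autoImplicit false
set_option maxSynthPendingDepth 3

open Set Metric Filter

namespace Crest.Agent.R281.Mc673

open Crest.Agent.R238.Sch (ee norm_ee sum_ee)

noncomputable section

variable {N : ℕ}

theorem n1_nonneg (H : Matrix (Fin N) (Fin N) ℝ) : 0 ≤ n1 H :=
  Finset.sum_nonneg fun _ _ => Finset.sum_nonneg fun _ _ => abs_nonneg _

theorem row_le (H : Matrix (Fin N) (Fin N) ℝ) (j : Fin N) : ∑ k, |H j k| ≤ n1 H :=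
  Finset.single_le_sum (f := fun j => ∑ k, |H j k|)
    (fun _ _ => Finset.sum_nonneg fun _ _ => abs_nonneg _) (Finset.mem_univ j)

theorem entry_le (H : Matrix (Fin N) (Fin N) ℝ) (j k : Fin N) : |H j k| ≤ n1 H :=
  (Finset.single_le_sum (f := fun k => |H j k|) (fun _ _ => abs_nonneg _)
    (Finset.mem_univ k)).trans (row_le H j)

theorem col_le (H : Matrix (Fin N) (Fin N) ℝ) (k : Fin N) : ∑ j, |H j k| ≤ n1 H :=
  Finset.sum_le_sum fun _ _ => Finset.single_le_sum (f := fun k => |H _ k|)
    (fun _ _ => abs_nonneg _) (Finset.mem_univ k)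

theorem n1_add (A B : Matrix (Fin N) (Fin N) ℝ) : n1 (A + B) ≤ n1 A + n1 B := by
  unfold n1
  rw [← Finset.sum_add_distrib]
  refine Finset.sum_le_sum fun j _ => ?_
  rw [← Finset.sum_add_distrib]
  exact Finset.sum_le_sum fun k _ => abs_add_le _ _

theorem n1_neg (A : Matrix (Fin N) (Fin N) ℝ) : n1 (-A) = n1 A := by
  unfold n1; simp

theorem n1_le_of {A : Matrix (Fin N) (Fin N) ℝ} {b : ℝ} (h : ∀ j k, |A j k| ≤ b) :
    n1 A ≤ N * (N * b) := by
  unfold n1
  refine (Finset.sum_le_sum fun j _ => Finset.sum_le_sum fun k _ => h j k).trans ?_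
  simp

theorem n1_mul_left {A B : Matrix (Fin N) (Fin N) ℝ} {a : ℝ} (h : ∀ j k, |A j k| ≤ a) :
    n1 (A * B) ≤ N * (a * n1 B) := by
  have h1 : ∀ j, ∑ k, |(A * B) j k| ≤ a * n1 B := by
    intro j
    calc ∑ k, |(A * B) j k| ≤ ∑ k, ∑ l, |A j l| * |B l k| := by
          refine Finset.sum_le_sum fun k _ => ?_
          rw [Matrix.mul_apply]
          refine (Finset.abs_sum_le_sum_abs _ _).trans (le_of_eq ?_)
          exact Finset.sum_congr rfl fun l _ => abs_mul _ _
      _ ≤ ∑ k, ∑ l, a * |B l k| := Finset.sum_le_sum fun k _ => Finset.sum_le_sum fun l _ =>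
          mul_le_mul_of_nonneg_right (h j l) (abs_nonneg _)
      _ = a * n1 B := by
          unfold n1
          rw [Finset.sum_comm, Finset.mul_sum]
          exact Finset.sum_congr rfl fun l _ => (Finset.mul_sum _ _ _).symm
  unfold n1
  refine (Finset.sum_le_sum fun j _ => h1 j).trans ?_
  simp [n1]

theorem n1_mul_right {A B : Matrix (Fin N) (Fin N) ℝ} {b : ℝ} (h : ∀ j k, |B j k| ≤ b) :
    n1 (A * B) ≤ N * (b * n1 A) := by
  have h1 : ∀ k, ∑ j, |(A * B) j k| ≤ b * n1 A := by
    intro k
    calc ∑ j, |(A * B) j k| ≤ ∑ j, ∑ l, |A j l| * |B l k| := by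
          refine Finset.sum_le_sum fun j _ => ?_
          rw [Matrix.mul_apply]
          refine (Finset.abs_sum_le_sum_abs _ _).trans (le_of_eq ?_)
          exact Finset.sum_congr rfl fun l _ => abs_mul _ _
      _ ≤ ∑ j, ∑ l, b * |A j l| := Finset.sum_le_sum fun j _ => Finset.sum_le_sum fun l _ => by
          rw [mul_comm]; exact mul_le_mul_of_nonneg_right (h l k) (abs_nonneg _)
      _ = b * n1 A := by
          unfold n1
          rw [Finset.mul_sum]
          exact Finset.sum_congr rfl fun l _ => (Finset.mul_sum _ _ _).symm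
  unfold n1
  rw [Finset.sum_comm]
  refine (Finset.sum_le_sum fun j _ => h1 j).trans ?_
  simp [n1]

theorem trace_le (P Q : Matrix (Fin N) (Fin N) ℝ) : |(P * Q).trace| ≤ n1 P * n1 Q := by
  rw [Matrix.trace]
  refine (Finset.abs_sum_le_sum_abs _ _).trans ?_
  unfold n1
  rw [Finset.sum_mul]
  refine Finset.sum_le_sum fun j _ => ?_
  rw [Matrix.diag_apply, Matrix.mul_apply]
  refine (Finset.abs_sum_le_sum_abs _ _).trans ?_
  rw [Finset.sum_mul]
  refine Finset.sum_le_sum fun k _ => ?_
  rw [abs_mul]
  exact mul_le_mul_of_nonneg_left (entry_le Q k j) (abs_nonneg _)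

theorem trace_sq (P : Matrix (Fin N) (Fin N) ℝ) : (P * P.transpose).trace = ∑ j, ∑ k, P j k ^ 2 := by
  rw [Matrix.trace]
  refine Finset.sum_congr rfl fun j _ => ?_
  rw [Matrix.diag_apply, Matrix.mul_apply]
  exact Finset.sum_congr rfl fun k _ => by rw [Matrix.transpose_apply]; ring

theorem trace_sq_nonneg (P : Matrix (Fin N) (Fin N) ℝ) : 0 ≤ (P * P.transpose).trace := by
  rw [trace_sq]
  exact Finset.sum_nonneg fun _ _ => Finset.sum_nonneg fun _ _ => sq_nonneg _

theorem n1_sq_le (P : Matrix (Fin N) (Fin N) ℝ) :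
    n1 P ^ 2 ≤ (N * N : ℝ) * (P * P.transpose).trace := by
  rw [trace_sq]
  have e1 : n1 P = ∑ p : Fin N × Fin N, |P p.1 p.2| := by
    unfold n1; rw [Fintype.sum_prod_type]
  have e2 : ∑ j, ∑ k, P j k ^ 2 = ∑ p : Fin N × Fin N, |P p.1 p.2| ^ 2 := by
    rw [Fintype.sum_prod_type]
    simp
  rw [e1, e2]
  have h := sq_sum_le_card_mul_sum_sq (s := (Finset.univ : Finset (Fin N × Fin N)))
    (f := fun p => |P p.1 p.2|)
  simpa using h

theorem tr_main (C R : Matrix (Fin N) (Fin N) ℝ) : (R * R.transpose).trace ≤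
    ((1 + C.transpose * C) * R * (1 + C.transpose * C) * R.transpose).trace := by
  have e : (1 + C.transpose * C) * R * (1 + C.transpose * C) * R.transpose =
      R * R.transpose + C.transpose * (C * R * R.transpose) +
      (R * C.transpose) * (C * R.transpose) +
        C.transpose * (C * R * C.transpose * C * R.transpose) := by
    simp only [Matrix.add_mul, Matrix.mul_add, Matrix.one_mul, Matrix.mul_one, Matrix.mul_assoc]
    abel
  have t1 : (C.transpose * (C * R * R.transpose)).trace = ((C * R) * (C * R).transpose).trace := by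
    rw [Matrix.trace_mul_comm, Matrix.transpose_mul]
    congr 1
    simp only [Matrix.mul_assoc]
  have t2 : ((R * C.transpose) * (C * R.transpose)).trace =
      ((R * C.transpose) * (R * C.transpose).transpose).trace := by
    rw [Matrix.transpose_mul, Matrix.transpose_transpose]
  have t3 : (C.transpose * (C * R * C.transpose * C * R.transpose)).trace =
      ((C * R * C.transpose) * (C * R * C.transpose).transpose).trace := by
    rw [Matrix.trace_mul_comm, Matrix.transpose_mul, Matrix.transpose_mul,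
      Matrix.transpose_transpose]
    congr 1
    simp only [Matrix.mul_assoc]
  rw [e, Matrix.trace_add, Matrix.trace_add, Matrix.trace_add, t1, t2, t3]
  have := trace_sq_nonneg (C * R)
  have := trace_sq_nonneg (R * C.transpose)
  have := trace_sq_nonneg (C * R * C.transpose)
  linarith

theorem tr_split (S C H E : Matrix (Fin N) (Fin N) ℝ) (h : (C * H).transpose = C * H - E) :
    ((S * C) * H * (S * C) * H).trace =
      (S * (C * H) * S * (C * H).transpose).trace + (S * (C * H) * S * E).trace := by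
  rw [← Matrix.trace_add, h]
  congr 1
  simp only [Matrix.mul_sub, Matrix.mul_assoc]
  abel

theorem r2 : R2 := by
  intro N Λ
  set L : ℝ := |Λ| + 1 with hL
  have hL1 : 1 ≤ L := by have := abs_nonneg Λ; linarith
  set n : ℝ := N + 1 with hn
  have hN0 : (0 : ℝ) ≤ N := Nat.cast_nonneg N
  have hn1 : 1 ≤ n := by linarith
  have hNn : (N : ℝ) ≤ n := by linarith
  set s : ℝ := 1 + n * (L * L) with hs
  have hs0 : 0 < s := by positivity
  set c0 : ℝ := 1 / (n ^ 4 * L ^ 2) with hc0
  have hc0p : 0 < c0 := by positivity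
  set d : ℝ := (n * s) ^ 2 * (n * L) * (n * n) with hd
  have hdp : 0 < d := by positivity
  refine ⟨c0 / 2, by positivity, c0 / (2 * d), by positivity, ?_⟩
  intro C H hC hCL hH hE
  have hCL' : ∀ j k, |C j k| ≤ L := fun j k => (hCL j k).trans (by
    have := le_abs_self Λ; linarith)
  set S : Matrix (Fin N) (Fin N) ℝ := 1 + C.transpose * C with hS
  set R : Matrix (Fin N) (Fin N) ℝ := C * H with hR
  set E : Matrix (Fin N) (Fin N) ℝ := C * H + H * C.transpose with hEdef
  have hRt : R.transpose = R - E := by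
    rw [hR, Matrix.transpose_mul, hH, hEdef, Matrix.neg_mul]
    abel
  have hSb : ∀ j k, |S j k| ≤ s := by
    intro j k
    rw [hS, Matrix.add_apply, Matrix.mul_apply]
    refine (abs_add_le _ _).trans (add_le_add ?_ ?_)
    · rw [Matrix.one_apply]; split_ifs <;> simp
    · refine (Finset.abs_sum_le_sum_abs _ _).trans ?_
      calc ∑ l, |C.transpose j l * C l k| ≤ ∑ _l : Fin N, L * L := by
            refine Finset.sum_le_sum fun l _ => ?_
            rw [abs_mul, Matrix.transpose_apply]
            exact mul_le_mul (hCL' _ _) (hCL' _ _) (abs_nonneg _) (by linarith)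
        _ = N * (L * L) := by simp
        _ ≤ n * (L * L) := mul_le_mul_of_nonneg_right hNn (by positivity)
  -- the main term
  have hmain : (R * R.transpose).trace ≤ (S * R * S * R.transpose).trace := tr_main C R
  -- norms
  have hRH : n1 R ≤ n * L * n1 H := by
    refine (n1_mul_left hCL').trans ?_
    have := n1_nonneg H
    calc N * (L * n1 H) ≤ n * (L * n1 H) := mul_le_mul_of_nonneg_right hNn (by positivity)
      _ = _ := by ring
  have hHR : n1 H ≤ n * L * n1 R := by
    have e : H = - (C * R) := by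
      rw [hR, ← Matrix.mul_assoc, hC]; simp
    have h1 : n1 H = n1 (C * R) := by
      conv_lhs => rw [e]
      rw [n1_neg]
    rw [h1]
    refine (n1_mul_left hCL').trans ?_
    have := n1_nonneg R
    calc N * (L * n1 R) ≤ n * (L * n1 R) := mul_le_mul_of_nonneg_right hNn (by positivity)
      _ = _ := by ring
  have hEn : n1 E ≤ n * n * (c0 / (2 * d)) * n1 H := by
    refine (n1_le_of hE).trans ?_
    have h0 := n1_nonneg H
    have h1 : 0 ≤ c0 / (2 * d) * n1 H := by positivity
    calc N * (N * (c0 / (2 * d) * n1 H)) ≤ n * (n * (c0 / (2 * d) * n1 H)) := by gcongr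
      _ = _ := by ring
  -- lower bound of the main term
  have hlow : c0 * n1 H ^ 2 ≤ (R * R.transpose).trace := by
    have h1 := n1_sq_le R
    have h0 := trace_sq_nonneg R
    have h2 : n1 R ^ 2 ≤ n ^ 2 * (R * R.transpose).trace := h1.trans (by
      have : (N * N : ℝ) ≤ n ^ 2 := by nlinarith
      exact mul_le_mul_of_nonneg_right this h0)
    have h3 : n1 H ^ 2 ≤ (n * L) ^ 2 * n1 R ^ 2 := by
      rw [← mul_pow]; exact pow_le_pow_left₀ (n1_nonneg H) hHR 2
    have h4 : n1 H ^ 2 ≤ (n ^ 4 * L ^ 2) * (R * R.transpose).trace := by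
      calc n1 H ^ 2 ≤ (n * L) ^ 2 * n1 R ^ 2 := h3
        _ ≤ (n * L) ^ 2 * (n ^ 2 * (R * R.transpose).trace) := by gcongr
        _ = _ := by ring
    rw [hc0, one_div, inv_mul_le_iff₀ (by positivity)]
    exact h4
  -- the error term
  have herr : |(S * R * S * E).trace| ≤ c0 / 2 * n1 H ^ 2 := by
    have h0 := n1_nonneg H
    have hR0 := n1_nonneg R
    have hE0 := n1_nonneg E
    have e : S * R * S * E = (S * R) * (S * E) := by simp only [Matrix.mul_assoc]
    rw [e]
    refine (trace_le _ _).trans ?_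
    have h1 : n1 (S * R) ≤ n * s * n1 R := (n1_mul_left hSb).trans (by
      calc N * (s * n1 R) ≤ n * (s * n1 R) := mul_le_mul_of_nonneg_right hNn (by positivity)
        _ = _ := by ring)
    have h2 : n1 (S * E) ≤ n * s * n1 E := (n1_mul_left hSb).trans (by
      calc N * (s * n1 E) ≤ n * (s * n1 E) := mul_le_mul_of_nonneg_right hNn (by positivity)
        _ = _ := by ring)
    calc n1 (S * R) * n1 (S * E) ≤ (n * s * n1 R) * (n * s * n1 E) :=
          mul_le_mul h1 h2 (n1_nonneg _) (by positivity)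
      _ ≤ (n * s * (n * L * n1 H)) * (n * s * (n * n * (c0 / (2 * d)) * n1 H)) := by gcongr
      _ = d * (c0 / (2 * d)) * n1 H ^ 2 := by rw [hd]; ring
      _ = c0 / 2 * n1 H ^ 2 := by
          congr 1
          field_simp
  have efin : (((1 + C.transpose * C) * C) * H * ((1 + C.transpose * C) * C) * H).trace =
      (S * R * S * R.transpose).trace + (S * R * S * E).trace := tr_split S C H E hRt
  rw [efin]
  have := (abs_le.1 herr).1
  linarith

end

end Crest.Agent.R281.Mc673
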