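import Crest.Agent.R281.Mc14_673
import Crest.Agent.R281.Mc15_673

/-!
# R281 / LAGT (helper673), part 16

Linear algebra: proof of (R3), and the theorem `lagtG : LagtG`.
-/

set_option autoImplicit false
set_option maxSynthPendingDepth 3

open Set Metric Filter

namespace Crest.Agent.R281.Mc673

open Crest.Agent.R238.Sch (ee norm_ee sum_ee)

noncomputable section

variable {N : ℕ}

theorem sum_ev (c : V N) : ∑ l, c l • (ev' l : W N) = (0, c) := by
  have h1 : ((0, c) : W N) = (ContinuousLinearMap.inr ℝ (V N) (V N)) c := rfl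
  rw [h1]
  conv_rhs => rw [sum_ee c, map_sum]
  refine Finset.sum_congr rfl fun l _ => ?_
  rw [map_smul]; rfl

theorem sum_eh (c : V N) : ∑ l, c l • (eh l : W N) = (c, 0) := by
  have h1 : ((c, 0) : W N) = (ContinuousLinearMap.inl ℝ (V N) (V N)) c := rfl
  rw [h1]
  conv_rhs => rw [sum_ee c, map_sum]
  refine Finset.sum_congr rfl fun l _ => ?_
  rw [map_smul]; rfl

theorem frame_eq (j : Fin N) (u : V N) : ((ee j, u) : W N) = eh j + ∑ l, u l • ev' l := by
  rw [sum_ev]
  simp [eh]

theorem dec (A : Fin N → V N) (u : W N) :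
    u = (∑ l, u.1 l • ((ee l, A l) : W N)) +
      ∑ l, (u.2 l - ∑ m, u.1 m * (A m) l) • (ev' l : W N) := by
  have h1 : (∑ l, u.1 l • ((ee l, A l) : W N)) = (u.1, ∑ l, u.1 l • A l) := by
    have e : ∀ l, u.1 l • ((ee l, A l) : W N) = u.1 l • (eh l : W N) + (0, u.1 l • A l) := by
      intro l
      ext1 <;> simp [eh]
    simp_rw [e]
    rw [Finset.sum_add_distrib, sum_eh]
    have h2 : ∑ l, ((0, u.1 l • A l) : W N) = (0, ∑ l, u.1 l • A l) := by
      have h3 : ∀ v : V N, ((0, v) : W N) = (ContinuousLinearMap.inr ℝ (V N) (V N)) v := fun v => rfl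
      simp_rw [h3]
      rw [map_sum]
    rw [h2]
    ext1 <;> simp
  have h2 : ∀ l, u.2 l - ∑ m, u.1 m * (A m) l = (u.2 - ∑ m, u.1 m • A m) l := by
    intro l
    rw [PiLp.sub_apply, WithLp.ofLp_sum, Finset.sum_apply]
    simp
  simp_rw [h2]
  rw [sum_ev, h1]
  ext1 <;> simp

theorem asm_le {f g : Fin N → ℝ} {b : ℝ} (h : ∀ l, |g l| ≤ b) :
    |∑ l, f l * g l| ≤ (∑ l, |f l|) * b := by
  refine (Finset.abs_sum_le_sum_abs _ _).trans ?_
  rw [Finset.sum_mul]
  refine Finset.sum_le_sum fun l _ => ?_
  rw [abs_mul]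
  exact mul_le_mul_of_nonneg_left (h l) (abs_nonneg _)

theorem sum_abs_le {f : Fin N → ℝ} {b : ℝ} (h : ∀ l, |f l| ≤ b) : ∑ l, |f l| ≤ N * b :=
  (Finset.sum_le_sum fun l _ => h l).trans (by simp)

set_option maxHeartbeats 1000000 in
theorem r3 : R3 := by
  intro N Λ K
  set L : ℝ := |Λ| + 1 with hL
  have hL1 : 1 ≤ L := by have := abs_nonneg Λ; linarith
  set n : ℝ := N + 1 with hn
  have hN0 : (0 : ℝ) ≤ N := Nat.cast_nonneg N
  have hn1 : 1 ≤ n := by linarith
  have hNn : (N : ℝ) ≤ n := by linarith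
  set K' : ℝ := |K| + 1 with hK'
  have hK1 : 1 ≤ K' := by have := abs_nonneg K; linarith
  have hKK : K ≤ K' := by have := le_abs_self K; linarith
  set q1 : ℝ := 1 + n * K' with hq1
  have hq1p : 0 < q1 := by positivity
  set h2 : ℝ := 1 + 2 * (n * (L + 1)) + n * (n * K') with hh2
  have hh2p : 0 < h2 := by positivity
  set g1 : ℝ := 1 + n * K' + K' * (2 * (n * (n * h2))) with hg1
  have hg1p : 0 < g1 := by positivity
  set c2 : ℝ := 2 * (n * (g1 + q1 * (n * L))) with hc2
  have hc2p : 0 < c2 := by positivity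
  set e0 : ℝ := min 1 (1 / (2 * (n * q1))) with he0
  refine ⟨e0, by positivity, 2 * c2 + K' * (4 * (n * (n * h2))), ?_⟩
  intro ε hε0 hε C hCL x y hxa hya I hI1 hI2 A hA xhh xhv xvv yhh yhv yvv hlag
  have hε1 : ε ≤ 1 := hε.trans (min_le_left _ _)
  have hεq : n * q1 * ε ≤ 1 / 2 := by
    have h1 : ε ≤ 1 / (2 * (n * q1)) := hε.trans (min_le_right _ _)
    rw [le_div_iff₀ (by positivity)] at h1
    linarith
  have hCL' : ∀ j k, |C j k| ≤ L := fun j k => (hCL j k).trans (by
    have := le_abs_self Λ; linarith)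
  have hAe : ∀ j l, |(A j) l| ≤ ε := fun j l => (abs_co_le _ _).trans (hA j)
  have hAs : ∀ j, ∑ l, |(A j) l| ≤ n * ε := fun j =>
    (sum_abs_le (hAe j)).trans (mul_le_mul_of_nonneg_right hNn hε0)
  have xvv' : ∀ l m, |x (ev' l) (ev' m)| ≤ K' := fun l m => (xvv l m).trans hKK
  have yvv' : ∀ l m, |y (ev' l) (ev' m)| ≤ K' := fun l m => (yvv l m).trans hKK
  -- the matrices
  set G : Fin N → W N := fun j => (ee j, A j) with hG
  set H : Matrix (Fin N) (Fin N) ℝ := Matrix.of fun j k => y (ee j, A j) (ee k, A k) with hH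
  have hHap : ∀ j k, H j k = y (G j) (G k) := fun j k => rfl
  have hHanti : ∀ j k, H j k = - H k j := fun j k => hya _ _
  set a : Matrix (Fin N) (Fin N) ℝ := fun j l => (I (G j)).1 l with ha
  set D : Matrix (Fin N) (Fin N) ℝ := fun j l => (I (G j)).2 l - ∑ m, (I (G j)).1 m * (A m) l
    with hD
  have hdec : ∀ j, I (G j) = (∑ l, a j l • G l) + ∑ l, D j l • (ev' l : W N) := fun j =>
    dec A (I (G j))
  set Q : Matrix (Fin N) (Fin N) ℝ := fun l k => x (ev' l) (G k) with hQ
  have hlag' : ∀ j k, x (G j) (G k) = 0 := hlag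
  have hn1H := n1_nonneg H
  have hn1D := n1_nonneg D
  -- `Q` close to `1`
  have hQ1 : ∀ l k, |Q l k - (if l = k then 1 else 0)| ≤ q1 * ε := by
    intro l k
    have e1 : Q l k = x (ev' l) (eh k) + ∑ m, (A k) m * x (ev' l) (ev' m) := by
      show x (ev' l) (ee k, A k) = _
      rw [frame_eq k (A k), map_add, map_sum]
      simp only [map_smul, smul_eq_mul]
    have e2 : x (ev' l) (eh k) = - x (eh k) (ev' l) := hxa _ _
    have h1 := xhv k l
    have h3 : |∑ m, (A k) m * x (ev' l) (ev' m)| ≤ n * ε * K' :=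
      (asm_le fun m => xvv' l m).trans (mul_le_mul_of_nonneg_right (hAs k) (by linarith))
    have e3 : Q l k - (if l = k then 1 else 0) =
        -(x (eh k) (ev' l) + (if k = l then 1 else 0)) + ∑ m, (A k) m * x (ev' l) (ev' m) := by
      rw [e1, e2]
      by_cases hlk : l = k
      · subst hlk; simp; ring
      · rw [if_neg hlk, if_neg (Ne.symm hlk)]; ring
    rw [e3]
    refine (abs_add_le _ _).trans ?_
    rw [abs_neg]
    calc |x (eh k) (ev' l) + (if k = l then 1 else 0)| + |∑ m, (A k) m * x (ev' l) (ev' m)|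
        ≤ ε + n * ε * K' := add_le_add h1 h3
      _ = q1 * ε := by rw [hq1]; ring
  -- `H = - D Q`
  have hHDQ : ∀ j k, H j k = - ∑ l, D j l * Q l k := by
    intro j k
    have h1 := hI2 (G j) (G k)
    rw [hdec j] at h1
    simp only [map_add, map_sum, map_smul, ContinuousLinearMap.add_apply,
      ContinuousLinearMap.sum_apply, ContinuousLinearMap.smul_apply, smul_eq_mul, hlag',
      mul_zero, Finset.sum_const_zero, zero_add] at h1
    rw [hHap]
    show y (G j) (G k) = - ∑ l, D j l * x (ev' l) (G k)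
    linarith
  -- (a)
  have hDH : n1 D ≤ 2 * n1 H := by
    have h1 : ∀ j k, |D j k| ≤ |H j k| + (∑ l, |D j l|) * (q1 * ε) := by
      intro j k
      have e : D j k = - H j k - ∑ l, D j l * (Q l k - (if l = k then 1 else 0)) := by
        rw [hHDQ]
        simp only [mul_sub, Finset.sum_sub_distrib, mul_ite, mul_one, mul_zero,
          Finset.sum_ite_eq', Finset.mem_univ, if_true]
        ring
      rw [e]
      refine (abs_sub _ _).trans ?_
      rw [abs_neg]
      exact add_le_add_right (asm_le fun l => hQ1 l k) _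
    have h3 : n1 D ≤ n1 H + N * (n1 D * (q1 * ε)) := by
      calc n1 D ≤ ∑ j, ∑ k, (|H j k| + (∑ l, |D j l|) * (q1 * ε)) :=
            Finset.sum_le_sum fun j _ => Finset.sum_le_sum fun k _ => h1 j k
        _ = n1 H + N * (n1 D * (q1 * ε)) := by
            simp only [Finset.sum_add_distrib, Finset.sum_const, Finset.card_univ,
              Fintype.card_fin, nsmul_eq_mul]
            unfold n1
            rw [← Finset.mul_sum, ← Finset.sum_mul]
    have h4 : N * (n1 D * (q1 * ε)) ≤ 1 / 2 * n1 D := by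
      calc N * (n1 D * (q1 * ε)) = N * q1 * ε * n1 D := by ring
        _ ≤ n * q1 * ε * n1 D := by gcongr
        _ ≤ 1 / 2 * n1 D := mul_le_mul_of_nonneg_right hεq hn1D
    linarith
  -- (c) size of `H`
  have hHs : n1 H ≤ n * (n * h2) * ε := by
    have h1 : ∀ j k, |H j k| ≤ h2 * ε := by
      intro j k
      have e : H j k = y (eh j) (eh k) + (∑ m, (A k) m * y (eh j) (ev' m)) +
          ((∑ l, (A j) l * y (ev' l) (eh k)) +
            ∑ l, (A j) l * ∑ m, (A k) m * y (ev' l) (ev' m)) := by
        rw [hHap]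
        show y (ee j, A j) (ee k, A k) = _
        rw [frame_eq j (A j), frame_eq k (A k)]
        simp only [map_add, map_sum, map_smul, ContinuousLinearMap.add_apply,
          ContinuousLinearMap.sum_apply, ContinuousLinearMap.smul_apply, smul_eq_mul]
        have sw : ∑ m, (A k) m * ∑ l, (A j) l * y (ev' l) (ev' m) =
            ∑ l, (A j) l * ∑ m, (A k) m * y (ev' l) (ev' m) := by
          simp only [Finset.mul_sum]
          rw [Finset.sum_comm]
          exact Finset.sum_congr rfl fun _ _ => Finset.sum_congr rfl fun _ _ => by ring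
        simp only [mul_add, Finset.sum_add_distrib]
        rw [sw]
        ring
      have hy1 : ∀ m, |y (eh j) (ev' m)| ≤ L + 1 := fun m => by
        have h3 := yhv j m
        have h4 := hCL' j m
        have e3 : y (eh j) (ev' m) = (y (eh j) (ev' m) + C j m) + -C j m := by ring
        rw [e3]
        refine (abs_add_le _ _).trans ?_
        rw [abs_neg]
        linarith
      have hy2 : ∀ l, |y (ev' l) (eh k)| ≤ L + 1 := fun l => by
        rw [hya (ev' l) (eh k), abs_neg]
        have h3 := yhv k l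
        have h4 := hCL' k l
        have e3 : y (eh k) (ev' l) = (y (eh k) (ev' l) + C k l) + -C k l := by ring
        rw [e3]
        refine (abs_add_le _ _).trans ?_
        rw [abs_neg]
        linarith
      have b1 : |∑ m, (A k) m * y (eh j) (ev' m)| ≤ n * ε * (L + 1) :=
        (asm_le hy1).trans (mul_le_mul_of_nonneg_right (hAs k) (by linarith))
      have b2 : |∑ l, (A j) l * y (ev' l) (eh k)| ≤ n * ε * (L + 1) :=
        (asm_le hy2).trans (mul_le_mul_of_nonneg_right (hAs j) (by linarith))
      have b3 : ∀ l, |∑ m, (A k) m * y (ev' l) (ev' m)| ≤ n * K' := fun l =>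
        (asm_le fun m => yvv' l m).trans (mul_le_mul_of_nonneg_right
          ((hAs k).trans (by nlinarith)) (by linarith))
      have b4 : |∑ l, (A j) l * ∑ m, (A k) m * y (ev' l) (ev' m)| ≤ n * ε * (n * K') :=
        (asm_le b3).trans (mul_le_mul_of_nonneg_right (hAs j) (by positivity))
      have b0 := yhh j k
      rw [e]
      refine (abs_add_le _ _).trans ?_
      refine (add_le_add ((abs_add_le _ _).trans (add_le_add b0 b1))
        ((abs_add_le _ _).trans (add_le_add b2 b4))).trans (le_of_eq ?_)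
      rw [hh2]; ring
    refine (n1_le_of h1).trans ?_
    have : 0 ≤ h2 * ε := by positivity
    calc N * (N * (h2 * ε)) ≤ n * (n * (h2 * ε)) := by gcongr
      _ = _ := by ring
  -- (b)
  have hxG : ∀ l m, x (G l) (ev' m) = - Q m l := fun l m => hxa _ _
  have hII : ∀ j k, x (I (G j)) (I (G k)) = 0 := by
    intro j k
    rw [hI2, hya, ← hI2, hI1, map_neg, ContinuousLinearMap.neg_apply, hlag']
    simp
  set T : Fin N → Fin N → ℝ := fun j k => ∑ l, D j l * ∑ m, D k m * x (ev' l) (ev' m) with hT
  have hTid : ∀ j k, ∑ l, a j l * H l k + ∑ l, H j l * a k l = T j k := by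
    intro j k
    have h1 := hII j k
    rw [hdec j, hdec k] at h1
    simp only [map_add, map_sum, map_smul, ContinuousLinearMap.add_apply,
      ContinuousLinearMap.sum_apply, ContinuousLinearMap.smul_apply, smul_eq_mul, hlag',
      mul_zero, Finset.sum_const_zero, zero_add, add_zero] at h1
    have t1 : ∀ l, ∑ m, D k m * x (G l) (ev' m) = H k l := by
      intro l
      rw [hHDQ, ← Finset.sum_neg_distrib]
      exact Finset.sum_congr rfl fun m _ => by rw [hxG]; ring
    have t2 : ∑ m, a k m * ∑ l, D j l * x (ev' l) (G m) = - ∑ m, H j m * a k m := by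
      rw [← Finset.sum_neg_distrib]
      refine Finset.sum_congr rfl fun m _ => ?_
      rw [hHDQ]
      show a k m * ∑ l, D j l * Q l m = _
      ring
    have t3 : ∑ m, D k m * ∑ l, a j l * x (G l) (ev' m) = - ∑ l, a j l * H l k := by
      have : ∑ m, D k m * ∑ l, a j l * x (G l) (ev' m) =
          ∑ l, a j l * ∑ m, D k m * x (G l) (ev' m) := by
        simp only [Finset.mul_sum]
        rw [Finset.sum_comm]
        exact Finset.sum_congr rfl fun _ _ => Finset.sum_congr rfl fun _ _ => by ring
      rw [this, ← Finset.sum_neg_distrib]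
      refine Finset.sum_congr rfl fun l _ => ?_
      rw [t1, hHanti k l]; ring
    have t4 : ∑ m, D k m * ∑ l, D j l * x (ev' l) (ev' m) = T j k := by
      rw [hT]
      simp only [Finset.mul_sum]
      rw [Finset.sum_comm]
      exact Finset.sum_congr rfl fun _ _ => Finset.sum_congr rfl fun _ _ => by ring
    simp only [mul_add, Finset.sum_add_distrib] at h1
    rw [t2, t3, t4] at h1
    linarith
  have hTb : ∀ j k, |T j k| ≤ K' * (4 * (n * (n * h2))) * ε * n1 H := by
    intro j k
    have b1 : ∀ l, |∑ m, D k m * x (ev' l) (ev' m)| ≤ n1 D * K' := fun l =>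
      (asm_le fun m => xvv' l m).trans (mul_le_mul_of_nonneg_right (row_le D k) (by linarith))
    have b2 : |T j k| ≤ n1 D * (n1 D * K') :=
      (asm_le b1).trans (mul_le_mul_of_nonneg_right (row_le D j) (by positivity))
    calc |T j k| ≤ n1 D * (n1 D * K') := b2
      _ ≤ (2 * n1 H) * ((2 * n1 H) * K') := by gcongr
      _ = K' * 4 * n1 H * n1 H := by ring
      _ ≤ K' * 4 * (n * (n * h2) * ε) * n1 H := by gcongr
      _ = _ := by ring
  -- (d)
  have hd1 : ∀ j m, |∑ l, a j l * Q m l + C j m| ≤ g1 * ε := by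
    intro j m
    have h1 := hI2 (G j) (ev' m)
    rw [hdec j] at h1
    simp only [map_add, map_sum, map_smul, ContinuousLinearMap.add_apply,
      ContinuousLinearMap.sum_apply, ContinuousLinearMap.smul_apply, smul_eq_mul] at h1
    have e1 : ∑ l, a j l * x (G l) (ev' m) = - ∑ l, a j l * Q m l := by
      rw [← Finset.sum_neg_distrib]
      exact Finset.sum_congr rfl fun l _ => by rw [hxG]; ring
    have e2 : y (G j) (ev' m) = y (eh j) (ev' m) + ∑ l, (A j) l * y (ev' l) (ev' m) := by
      show y (ee j, A j) (ev' m) = _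
      rw [frame_eq j (A j)]
      simp only [map_add, map_sum, map_smul, ContinuousLinearMap.add_apply,
        ContinuousLinearMap.sum_apply, ContinuousLinearMap.smul_apply, smul_eq_mul]
    have e3 : ∑ l, a j l * Q m l + C j m = (y (eh j) (ev' m) + C j m) +
        (∑ l, (A j) l * y (ev' l) (ev' m) + ∑ l, D j l * x (ev' l) (ev' m)) := by
      linarith
    rw [e3]
    have b1 : |∑ l, (A j) l * y (ev' l) (ev' m)| ≤ n * ε * K' :=
      (asm_le fun l => yvv' l m).trans (mul_le_mul_of_nonneg_right (hAs j) (by linarith))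
    have b2 : |∑ l, D j l * x (ev' l) (ev' m)| ≤ n1 D * K' :=
      (asm_le fun l => xvv' l m).trans (mul_le_mul_of_nonneg_right (row_le D j) (by linarith))
    have b3 : n1 D * K' ≤ 2 * (n * (n * h2) * ε) * K' := by
      refine mul_le_mul_of_nonneg_right ?_ (by linarith)
      linarith
    refine (abs_add_le _ _).trans ((add_le_add (yhv j m)
      ((abs_add_le _ _).trans (add_le_add b1 (b2.trans b3)))).trans (le_of_eq ?_))
    rw [hg1]; ring
  have hs : ∀ j, ∑ m, |a j m + C j m| ≤ c2 * ε := by
    intro j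
    set s : ℝ := ∑ m, |a j m + C j m| with hs
    have hs0 : 0 ≤ s := Finset.sum_nonneg fun _ _ => abs_nonneg _
    have ha1 : ∑ l, |a j l| ≤ s + n * L := by
      have : ∀ l, |a j l| ≤ |a j l + C j l| + |C j l| := fun l => by
        have e : a j l = (a j l + C j l) + -C j l := by ring
        calc |a j l| = |(a j l + C j l) + -C j l| := by rw [← e]
          _ ≤ |a j l + C j l| + |-C j l| := abs_add_le _ _
          _ = _ := by rw [abs_neg]
      calc ∑ l, |a j l| ≤ ∑ l, (|a j l + C j l| + |C j l|) := Finset.sum_le_sum fun l _ => this l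
        _ = s + ∑ l, |C j l| := Finset.sum_add_distrib
        _ ≤ s + n * L := add_le_add_right ((sum_abs_le fun l => hCL' j l).trans
            (mul_le_mul_of_nonneg_right hNn (by linarith))) _
    have h1 : ∀ m, |a j m + C j m| ≤ g1 * ε + (s + n * L) * (q1 * ε) := by
      intro m
      have e : a j m + C j m = (∑ l, a j l * Q m l + C j m) -
          ∑ l, a j l * (Q m l - (if m = l then 1 else 0)) := by
        simp only [mul_sub, Finset.sum_sub_distrib, mul_ite, mul_one, mul_zero,
          Finset.sum_ite_eq, Finset.mem_univ, if_true]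
        ring
      rw [e]
      refine (abs_sub _ _).trans (add_le_add (hd1 j m) ?_)
      exact (asm_le fun l => hQ1 m l).trans (mul_le_mul_of_nonneg_right ha1 (by positivity))
    have h3 : s ≤ n * (g1 * ε + (s + n * L) * (q1 * ε)) := by
      refine (Finset.sum_le_sum fun m _ => h1 m).trans ?_
      simp only [Finset.sum_const, Finset.card_univ, Fintype.card_fin, nsmul_eq_mul]
      exact mul_le_mul_of_nonneg_right hNn (by positivity)
    have h4 : n * q1 * ε * s ≤ 1 / 2 * s := mul_le_mul_of_nonneg_right hεq hs0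
    have h5 : n * (g1 * ε + (s + n * L) * (q1 * ε)) =
        n * (g1 + q1 * (n * L)) * ε + n * q1 * ε * s := by ring
    rw [h5] at h3
    have h6 : s ≤ 2 * (n * (g1 + q1 * (n * L)) * ε) := by linarith
    refine h6.trans (le_of_eq ?_)
    rw [hc2]; ring
  -- (e)
  intro j k
  have e : (C * H + H * C.transpose) j k =
      (∑ l, (a j l + C j l) * H l k) + (∑ l, (a k l + C k l) * H j l) - T j k := by
    rw [← hTid, Matrix.add_apply, Matrix.mul_apply, Matrix.mul_apply]
    simp only [Matrix.transpose_apply, add_mul, Finset.sum_add_distrib]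
    have c1 : ∑ l, a k l * H j l = ∑ l, H j l * a k l :=
      Finset.sum_congr rfl fun l _ => mul_comm _ _
    have c2 : ∑ l, C k l * H j l = ∑ l, H j l * C k l :=
      Finset.sum_congr rfl fun l _ => mul_comm _ _
    rw [c1, c2]
    ring
  rw [e]
  have b1 : |∑ l, (a j l + C j l) * H l k| ≤ c2 * ε * n1 H :=
    (asm_le fun l => entry_le H l k).trans (mul_le_mul_of_nonneg_right (hs j) hn1H)
  have b2 : |∑ l, (a k l + C k l) * H j l| ≤ c2 * ε * n1 H :=
    (asm_le fun l => entry_le H j l).trans (mul_le_mul_of_nonneg_right (hs k) hn1H)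
  refine (abs_sub _ _).trans ((add_le_add ((abs_add_le _ _).trans (add_le_add b1 b2))
    (hTb j k)).trans (le_of_eq ?_))
  ring

/-- **LAGT-G** -/
theorem lagtG : LagtG := lagtG_of r2 r3

end

end Crest.Agent.R281.Mc673
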