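import Crest.Agent.R281.Lg5_40
import Crest.Agent.R281.Mc16_673

/-!
# R281 / LAGT adapter (helper40), part 6: `LagtS1` without hypotheses
-/

namespace Crest.Agent.R281.Lg_40

theorem lagtS1 : LagtS1 := lagtS1_of Crest.Agent.R281.Mc673.r2 Crest.Agent.R281.Mc673.r3

end Crest.Agent.R281.Lg_40
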