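import Crest.Agent.R281.Bt2_156
import Crest.Agent.R281.Lg6_40

/-!
# R281 / BIG-TUBE (helper156), part 3: the big tubes without hypotheses
-/

set_option autoImplicit false
set_option maxSynthPendingDepth 3

open MeasureTheory Set Metric Filter
open scoped ContDiff Topology

namespace Crest.Agent.R281.Bt_156

open Crest.Agent.R281.Mc673

theorem tor_of_tori {N : ℕ} {r rho eps : ℝ} {x y : Fo N} {a : V N → V N → V N}
    (h : Tori N r rho eps x y a) : Tor N rho eps x y a where
  c1 := h.c1
  per := h.per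
  near := h.near
  dnear := h.dnear
  x0 := h.x0
  y0 := h.y0
  lip := h.lip
  dlip := h.dlip
  cover := h.cover

theorem tori_of_tor {N : ℕ} {r rho eps : ℝ} {x y : Fo N} {a : V N → V N → V N}
    (h : Tor N rho eps x y a) (hr : rho + eps < r) : Tori N r rho eps x y a where
  c1 := h.c1
  per := h.per
  lt c hc th := by
    have h1 := h.near c hc th
    have h2 : ‖a c th‖ ≤ ‖a c th - c‖ + ‖c‖ := by
      calc ‖a c th‖ = ‖(a c th - c) + c‖ := by rw [sub_add_cancel]
        _ ≤ _ := norm_add_le _ _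
    linarith
  near := h.near
  dnear := h.dnear
  x0 := h.x0
  y0 := h.y0
  lip := h.lip
  dlip := h.dlip
  cover := h.cover

theorem tor_mono {N : ℕ} {rho e e' : ℝ} {x y : Fo N} {a : V N → V N → V N}
    (h : Tor N rho e x y a) (he : e ≤ e') : Tor N rho e' x y a where
  c1 := h.c1
  per := h.per
  near c hc th := (h.near c hc th).trans he
  dnear c hc th := (h.dnear c hc th).trans he
  x0 := h.x0
  y0 := h.y0
  lip c c' hc hc' th := (h.lip c c' hc hc' th).trans (mul_le_mul_of_nonneg_right he (norm_nonneg _))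
  dlip c c' hc hc' th :=
    (h.dlip c c' hc hc' th).trans (mul_le_mul_of_nonneg_right he (norm_nonneg _))
  cover := h.cover

theorem lagtS1 : LagtS1 := by
  intro N Lam eps hL he
  obtain ⟨del, hd, H⟩ := Lg_40.lagtS1 N Lam eps hL he
  refine ⟨del, hd, fun x y h => ?_⟩
  obtain ⟨a, ha⟩ := H x y h.cx h.cy (fun p hp => ⟨h.bx p hp, h.byy p hp⟩) h.nd
    (fun p hp => ⟨h.dx p hp, h.ddx p hp, h.dy p hp, h.ddy p hp⟩) h.I
    (fun j k => ⟨h.mx j k, h.my j k⟩)
  exact ⟨a, tor_of_tori ha⟩

/-- tori in tubes of every radius -/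
theorem lagtR : LagtR := lagtR_of_S1 lagtS1

/-- the same with the structure `Tori` of 673 (leaves inside the tube of radius `2 R`) -/
theorem toriR (N : ℕ) (Lam eps R : ℝ) (hL : 0 < Lam) (he : 0 < eps) (hR : 0 < R) :
    ∃ del > 0, ∀ x y : Fo N, Hyp (2 * R) Lam del x y → ∃ a, Tori N (2 * R) R eps x y a := by
  obtain ⟨del, hd, H⟩ := lagtR N Lam (min eps (R / 2)) R hL (lt_min he (half_pos hR)) hR
  refine ⟨del, hd, fun x y h => ?_⟩
  obtain ⟨a, ha⟩ := H x y h
  have h1 : Tori N (2 * R) R (min eps (R / 2)) x y a :=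
    tori_of_tor ha (by have := min_le_right eps (R / 2); linarith)
  have h2 := tor_mono ha (min_le_left eps (R / 2))
  exact ⟨a, { c1 := h2.c1, per := h2.per, lt := h1.lt, near := h2.near, dnear := h2.dnear,
              x0 := h2.x0, y0 := h2.y0, lip := h2.lip, dlip := h2.dlip, cover := h2.cover }⟩

end Crest.Agent.R281.Bt_156
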