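import Crest.Agent.R281.Prim2_377

/-!
# Row 281, PRIM-VAR (helper377), part 3: the parametrised basis theorem

`P` finite dimensional, `O ⊆ P` open, `w : P → F2 C` jointly smooth over `O` (`JO2 O w`),
`b : κ → F2 C` a finite family, `X` compact Hausdorff (no atlas, no good cover).

* `prim`   : if every `w t`, `t ∈ O`, is `Σ c_k b_k + exact` then `w t = Σ c_k(t) b_k + d (η t)` with
             `c` smooth on `O` and `η` jointly smooth (`JO1 O η`)
* `coef_smooth` : if the `b k` are independent modulo exact forms, then THE coefficients are smooth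
* `prim0`  : the case `κ = ∅`: families of exact forms have jointly smooth primitives
-/

set_option autoImplicit false
set_option linter.unusedSectionVars false
set_option maxSynthPendingDepth 3

open Set Filter Topology Metric
open scoped ContDiff

namespace Crest.Agent.R281.Prim_377

open Crest.Agent.R281.HkR_835 Crest.Agent.R281.Poi_234 Crest.Agent.R281.Cdr_234
open Crest.Agent.R281.Ti_846 (F1 IsD Ex d1 d1_apply)
open Crest.Agent.R281.Dif_268 (F1dAt)

noncomputable section

variable {V X : Type} [NormedAddCommGroup V] [NormedSpace ℝ V] [TopologicalSpace X]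
  {C : RCh V X} {P : Type} [NormedAddCommGroup P] [NormedSpace ℝ P]

/-- jointly smooth families of 1-forms, parameters in `O` -/
def JO1 (O : Set P) (η : P → F1 C) : Prop :=
  ∀ i, ContDiffOn ℝ ∞ (fun p : P × V => (η p.1).η i p.2) (O ×ˢ (C.e i).target)

/-- jointly smooth families of closed 2-forms, parameters in `O` -/
def JO2 (O : Set P) (w : P → F2 C) : Prop :=
  ∀ i, ContDiffOn ℝ ∞ (fun p : P × V => (w p.1).w i p.2) (O ×ˢ (C.e i).target)

/-- the partial differential of a jointly smooth map is jointly smooth -/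
theorem fderiv_snd {W : Type*} [NormedAddCommGroup W] [NormedSpace ℝ W] {O : Set P} {U : Set V}
    (hO : IsOpen O) (hU : IsOpen U) {G : P → V → W}
    (hG : ContDiffOn ℝ ∞ (fun p : P × V => G p.1 p.2) (O ×ˢ U)) :
    ContDiffOn ℝ ∞ (fun p : P × V => fderiv ℝ (G p.1) p.2) (O ×ˢ U) := by
  have h1 : ContDiffOn ℝ ∞ (fun p => (fderiv ℝ (fun p : P × V => G p.1 p.2) p).comp
      (ContinuousLinearMap.inr ℝ P V)) (O ×ˢ U) :=
    (hG.fderiv_of_isOpen (hO.prod hU) (by simp)).clm_comp contDiffOn_const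
  refine h1.congr fun p hp => ?_
  have h2 : HasFDerivAt (fun p : P × V => G p.1 p.2) (fderiv ℝ (fun p : P × V => G p.1 p.2) p)
      (p.1, p.2) :=
    ((hG.contDiffAt ((hO.prod hU).mem_nhds hp)).differentiableAt (by simp)).hasFDerivAt
  exact (h2.comp (f := fun y => (p.1, y)) p.2 (hasFDerivAt_prodMk_right p.1 p.2)).fderiv

section main

variable [FiniteDimensional ℝ V] [FiniteDimensional ℝ P] [CompactSpace X] [T2Space X]
  {κ : Type} [Fintype κ]

theorem sub_sum_symm {f g : V → V →L[ℝ] ℝ} {φ : κ → V → V →L[ℝ] ℝ} {c : κ → ℝ} {z : V}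
    (hf : DifferentiableAt ℝ f z) (hg : DifferentiableAt ℝ g z)
    (hφ : ∀ k, DifferentiableAt ℝ (φ k) z) (u v : V) :
    fderiv ℝ (fun y => f y - ∑ k, c k • φ k y - g y) z u v -
      fderiv ℝ (fun y => f y - ∑ k, c k • φ k y - g y) z v u =
      (fderiv ℝ f z u v - fderiv ℝ f z v u) -
        ∑ k, c k * (fderiv ℝ (φ k) z u v - fderiv ℝ (φ k) z v u) -
        (fderiv ℝ g z u v - fderiv ℝ g z v u) := by
  have h1 : HasFDerivAt (fun y => f y - ∑ k, c k • φ k y - g y)
      (fderiv ℝ f z - ∑ k, c k • fderiv ℝ (φ k) z - fderiv ℝ g z) z := by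
    refine (hf.hasFDerivAt.sub (HasFDerivAt.fun_sum fun k _ => ?_)).sub hg.hasFDerivAt
    exact (hφ k).hasFDerivAt.const_smul (c k)
  rw [h1.fderiv]
  simp only [sub_apply, sum_apply, smul_apply, smul_eq_mul, mul_sub, Finset.sum_sub_distrib]
  ring

/-- main construction -/
theorem prim_aux {O : Set P} (hO : IsOpen O) {w : P → F2 C} (hw : JO2 O w) {b : κ → F2 C}
    {c : κ → P → ℝ} {η : P → F1 C}
    (h : ∀ t ∈ O, ∀ i, ∀ z ∈ (C.e i).target, ∀ u v,
      (w t).w i z u v - ∑ k, c k t * (b k).w i z u v =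
        fderiv ℝ ((η t).η i) z u v - fderiv ℝ ((η t).η i) z v u) :
    ∃ η' : P → F1 C, JO1 O η' ∧ ∀ t ∈ O, ∀ i, ∀ z ∈ (C.e i).target, ∀ u v,
      (w t).w i z u v - ∑ k, pr O (c k) t * (b k).w i z u v =
        fderiv ℝ ((η' t).η i) z u v - fderiv ℝ ((η' t).η i) z v u := by
  classical
  obtain ⟨s, U, K, χ, hU, hcov, hK, hKU, hχ0, hχ1, hχs⟩ := exists_part (C := C)
  have hUo : ∀ a, IsOpen (U a) := fun a => (hU a).isOpen
  -- local primitives
  have h1 := fun a => (hU a).prim2 hO hw
  choose th th_sm th_tr th_d using h1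
  have h2 : ∀ a k, ∃ be : C.ι → V → V →L[ℝ] ℝ,
      (∀ j, ContDiffOn ℝ ∞ (be j) (sh C j (U a))) ∧
      (∀ j l, ∀ z ∈ C.ov j l, (C.e j).symm z ∈ U a → ∀ v,
        be j z v = be l (C.t j l z) (fderiv ℝ (C.t j l) z v)) ∧
      ∀ j, ∀ z ∈ sh C j (U a), ∀ u v,
        fderiv ℝ (be j) z u v - fderiv ℝ (be j) z v u = (b k).w j z u v := by
    intro a k
    obtain ⟨be, e1, e2, e3⟩ := (hU a).prim2 (P := P) isOpen_univ (w := fun _ => b k)
      (fun i => ((b k).sm i).comp contDiffOn_snd fun p hp => hp.2)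
    exact ⟨be 0, fun j => slice (G := fun t => be t j) (e1 j) (mem_univ 0), fun j l => e2 0 j l,
      fun j => e3 0 (mem_univ 0) j⟩
  choose be be_sm be_tr be_d using h2
  have th_da : ∀ a t j z, t ∈ O → z ∈ sh C j (U a) → DifferentiableAt ℝ (th a t j) z :=
    fun a t j z ht hz => ((slice (G := fun t => th a t j) (th_sm a j) ht).contDiffAt
      (sh_nhds (hUo a) hz)).differentiableAt (by simp)
  have be_da : ∀ a k j z, z ∈ sh C j (U a) → DifferentiableAt ℝ (be a k j) z :=
    fun a k j z hz => ((be_sm a k j).contDiffAt (sh_nhds (hUo a) hz)).differentiableAt (by simp)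
  -- rough potentials
  have h3 : ∀ a t, ∃ g : X → ℝ, t ∈ O → ∀ j, ∀ z ∈ sh C j (U a),
      HasFDerivAt (fun y => g ((C.e j).symm y))
        (th a t j z - ∑ k, c k t • be a k j z - (η t).η j z) z := by
    intro a t
    by_cases ht : t ∈ O
    · obtain ⟨g, hg⟩ := (hU a).prim1
        (α := fun j z => th a t j z - ∑ k, c k t • be a k j z - (η t).η j z)
        (fun j => ((slice (G := fun t => th a t j) (th_sm a j) ht).sub
          (ContDiffOn.sum fun k _ => (be_sm a k j).const_smul (c k t))).sub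
            (((η t).sm j).mono fun z hz => hz.1))
        (fun j l z hz hzU v => by
          simp only [sub_apply, sum_apply, smul_apply, smul_eq_mul]
          rw [th_tr a t j l z hz hzU v, (η t).tr j l z hz v]
          have : ∀ k, be a k j z v = be a k l (C.t j l z) (fderiv ℝ (C.t j l) z v) :=
            fun k => be_tr a k j l z hz hzU v
          simp only [this])
        (fun j z hz u v => by
          have e1 := sub_sum_symm (c := fun k => c k t) (th_da a t j z ht hz)
            (F1dAt (η t) hz.1) (fun k => be_da a k j z hz) u v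
          have e2 := th_d a t ht j z hz u v
          have e3 : ∀ k, fderiv ℝ (be a k j) z u v - fderiv ℝ (be a k j) z v u =
            (b k).w j z u v := fun k => be_d a k j z hz u v
          have e4 := h t ht j z hz.1 u v
          simp only [e2, e3] at e1
          linarith)
      exact ⟨g, fun _ => hg⟩
    · exact ⟨0, fun h => absurd h ht⟩
  choose G hG using h3
  -- projected potentials
  set Γ : X → P → X → ℝ := fun a t x => pr O (fun t => G a t x) t with hΓ
  have hΓd : ∀ a a' j, ContDiffOn ℝ ∞ (fun p : P × V =>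
      Γ a' p.1 ((C.e j).symm p.2) - Γ a p.1 ((C.e j).symm p.2)) (O ×ˢ sh C j (U a ∩ U a')) ∧
      ∀ t ∈ O, ∀ z ∈ sh C j (U a ∩ U a'), HasFDerivAt (fun y =>
        Γ a' t ((C.e j).symm y) - Γ a t ((C.e j).symm y))
        ((th a' t j z - th a t j z) - ∑ k, pr O (c k) t • (be a' k j z - be a k j z)) z := by
    intro a a' j
    have hSo : IsOpen (sh C j (U a ∩ U a')) := isOpen_sh j ((hUo a).inter (hUo a'))
    have hSa : sh C j (U a ∩ U a') ⊆ sh C j (U a) := fun z hz => ⟨hz.1, hz.2.1⟩
    have hSa' : sh C j (U a ∩ U a') ⊆ sh C j (U a') := fun z hz => ⟨hz.1, hz.2.2⟩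
    have e0 := par0 (κ := κ) hO hSo
      (h := fun t z => G a' t ((C.e j).symm z) - G a t ((C.e j).symm z))
      (ψ := fun t z => th a' t j z - th a t j z) (φ := fun k z => be a' k j z - be a k j z)
      (c := c)
      (((th_sm a' j).mono (prod_mono le_rfl hSa')).sub ((th_sm a j).mono (prod_mono le_rfl hSa)))
      (fun k => ((be_sm a' k j).mono hSa').sub ((be_sm a k j).mono hSa))
      (fun t ht z hz u v => by
        have e1 : HasFDerivAt (fun z => th a' t j z - th a t j z)
            (fderiv ℝ (th a' t j) z - fderiv ℝ (th a t j) z) z :=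
          (th_da a' t j z ht (hSa' hz)).hasFDerivAt.sub (th_da a t j z ht (hSa hz)).hasFDerivAt
        rw [e1.fderiv]
        have e2 := th_d a t ht j z (hSa hz) u v
        have e3 := th_d a' t ht j z (hSa' hz) u v
        simp only [sub_apply]
        linarith)
      (fun k z hz u v => by
        have e1 : HasFDerivAt (fun z => be a' k j z - be a k j z)
            (fderiv ℝ (be a' k j) z - fderiv ℝ (be a k j) z) z :=
          (be_da a' k j z (hSa' hz)).hasFDerivAt.sub (be_da a k j z (hSa hz)).hasFDerivAt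
        rw [e1.fderiv]
        have e2 := be_d a k j z (hSa hz) u v
        have e3 := be_d a' k j z (hSa' hz) u v
        simp only [sub_apply]
        linarith)
      (fun t ht z hz => by
        have e1 := (hG a' t ht j z (hSa' hz)).sub (hG a t ht j z (hSa hz))
        refine e1.congr_fderiv ?_
        simp only [smul_sub, Finset.sum_sub_distrib]
        abel)
    have e1 : ∀ y : X, pr O (fun t => G a' t y - G a t y) = pr O (fun t => G a' t y) -
        pr O (fun t => G a t y) := by
      intro y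
      rw [← map_sub]
      rfl
    simp only [e1, Pi.sub_apply] at e0
    exact e0
  -- corrected potentials
  set gh : X → P → X → ℝ := fun a t x => Γ a t x - ∑ d ∈ s, χ d x * Γ d t x with hgh
  have hgh' : ∀ a t x, gh a t x = ∑ d ∈ s, χ d x * (Γ a t x - Γ d t x) := by
    intro a t x
    simp only [hgh, mul_sub, Finset.sum_sub_distrib, ← Finset.sum_mul, hχ1, one_mul]
  have gh_sm : ∀ a j, ContDiffOn ℝ ∞ (fun p : P × V => gh a p.1 ((C.e j).symm p.2))
      (O ×ˢ sh C j (U a)) := by
    intro a j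
    have e1 : (fun p : P × V => gh a p.1 ((C.e j).symm p.2)) = fun p => ∑ d ∈ s,
        χ d ((C.e j).symm p.2) * (Γ a p.1 ((C.e j).symm p.2) - Γ d p.1 ((C.e j).symm p.2)) := by
      funext p
      exact hgh' a p.1 _
    rw [e1]
    refine ContDiffOn.sum fun d _ p hp => ?_
    by_cases hd : (C.e j).symm p.2 ∈ U d
    · have e2 : IsOpen (O ×ˢ sh C j (U d ∩ U a)) :=
        hO.prod (isOpen_sh j ((hUo d).inter (hUo a)))
      have e3 : p ∈ O ×ˢ sh C j (U d ∩ U a) := ⟨hp.1, hp.2.1, hd, hp.2.2⟩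
      have e4 : ContDiffOn ℝ ∞ (fun p : P × V => χ d ((C.e j).symm p.2))
          (O ×ˢ sh C j (U d ∩ U a)) := (hχs d j).comp contDiffOn_snd fun q hq => hq.2.1
      exact ((e4.mul (hΓd d a j).1).contDiffAt (e2.mem_nhds e3)).contDiffWithinAt
    · have e2 : (C.e j).symm p.2 ∉ K d := fun h => hd (hKU d h)
      have e3 : (univ : Set P) ×ˢ sh C j (K d)ᶜ ∈ 𝓝 p :=
        (isOpen_univ.prod (isOpen_sh j (hK d).isOpen_compl)).mem_nhds
          ⟨mem_univ _, hp.2.1, e2⟩
      refine ((contDiffAt_const (c := (0 : ℝ))).congr_of_eventuallyEq ?_).contDiffWithinAt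
      filter_upwards [e3] with q hq
      rw [hχ0 d _ hq.2.2, zero_mul]
  have gh_da : ∀ a t j z, t ∈ O → z ∈ sh C j (U a) →
      ContDiffAt ℝ ∞ (fun y => gh a t ((C.e j).symm y)) z := fun a t j z ht hz =>
    (slice (G := fun t y => gh a t ((C.e j).symm y)) (gh_sm a j) ht).contDiffAt
      (sh_nhds (hUo a) hz)
  -- the final form over `U a`
  set et : X → P → C.ι → V → V →L[ℝ] ℝ := fun a t j z =>
    th a t j z - ∑ k, pr O (c k) t • be a k j z - fderiv ℝ (fun y => gh a t ((C.e j).symm y)) z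
    with het
  have et_eq : ∀ a a' t j z, t ∈ O → (C.e j).symm z ∈ U a → (C.e j).symm z ∈ U a' →
      z ∈ (C.e j).target → et a t j z = et a' t j z := by
    intro a a' t j z ht ha ha' hz
    have e1 := (hΓd a a' j).2 t ht z ⟨hz, ha, ha'⟩
    have e2 := (((gh_da a' t j z ht ⟨hz, ha'⟩).differentiableAt (by simp)).hasFDerivAt).sub
      ((gh_da a t j z ht ⟨hz, ha⟩).differentiableAt (by simp)).hasFDerivAt
    have e3 : (fun y => gh a' t ((C.e j).symm y)) - (fun y => gh a t ((C.e j).symm y)) =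
        fun y => Γ a' t ((C.e j).symm y) - Γ a t ((C.e j).symm y) := by
      funext y
      simp only [hgh, Pi.sub_apply]
      ring
    rw [e3] at e2
    have e4 := e1.unique e2
    simp only [het]
    ext v
    have e5 := congrArg (fun T : V →L[ℝ] ℝ => T v) e4
    simp only [sub_apply, sum_apply, smul_apply, smul_eq_mul, mul_sub,
      Finset.sum_sub_distrib] at e5 ⊢
    linarith
  have et_sm : ∀ a j, ContDiffOn ℝ ∞ (fun p : P × V => et a p.1 j p.2) (O ×ˢ sh C j (U a)) := by
    intro a j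
    refine ((th_sm a j).sub (ContDiffOn.sum fun k _ => ?_)).sub
      (fderiv_snd hO (isOpen_sh j (hUo a)) (G := fun t y => gh a t ((C.e j).symm y)) (gh_sm a j))
    exact ((pr_smooth O (c k)).comp contDiffOn_fst fun p hp => hp.1).smul
      ((be_sm a k j).comp contDiffOn_snd fun p hp => hp.2)
  choose cc hcc using hcov
  have ex_near : ∀ (j : C.ι) (z : V), z ∈ (C.e j).target → ∀ t ∈ O,
      ∀ y ∈ sh C j (U (cc ((C.e j).symm z))), et (cc ((C.e j).symm y)) t j y =
        et (cc ((C.e j).symm z)) t j y := fun j z _ t ht y hy =>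
    et_eq _ _ t j y ht (hcc _) hy.2 hy.1
  have fin_sm : ∀ j, ContDiffOn ℝ ∞ (fun p : P × V => et (cc ((C.e j).symm p.2)) p.1 j p.2)
      (O ×ˢ (C.e j).target) := by
    intro j p hp
    have e1 : O ×ˢ sh C j (U (cc ((C.e j).symm p.2))) ∈ 𝓝 p :=
      (hO.prod (isOpen_sh j (hUo _))).mem_nhds ⟨hp.1, hp.2, hcc _⟩
    refine (((et_sm _ j).contDiffAt e1).congr_of_eventuallyEq ?_).contDiffWithinAt
    filter_upwards [e1] with q hq using ex_near j p.2 hp.2 q.1 hq.1 q.2 hq.2
  have hF : ∀ t, ∃ β : F1 C, t ∈ O → ∀ j z, β.η j z = et (cc ((C.e j).symm z)) t j z := by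
    intro t
    by_cases ht : t ∈ O
    · refine ⟨⟨fun j z => et (cc ((C.e j).symm z)) t j z, fun j =>
        slice (G := fun t z => et (cc ((C.e j).symm z)) t j z) (fin_sm j) ht, ?_⟩,
        fun _ _ _ => rfl⟩
      intro j l z hz v
      have e0 : (C.e l).symm (C.t j l z) = (C.e j).symm z := (C.e l).left_inv hz.2
      rw [e0]
      set a := cc ((C.e j).symm z) with ha
      have hza : (C.e j).symm z ∈ U a := hcc _
      have hzl : C.t j l z ∈ sh C l (U a) := sh_ov hz hza
      have e1 : fderiv ℝ (fun y => gh a t ((C.e j).symm y)) z v =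
          fderiv ℝ (fun y => gh a t ((C.e l).symm y)) (C.t j l z) (fderiv ℝ (C.t j l) z v) := by
        have e2 := (((gh_da a t l _ ht hzl).differentiableAt (by simp)).hasFDerivAt).comp z
          (RCh.t_diff hz).hasFDerivAt
        have e3 : (fun y => gh a t ((C.e j).symm y)) =ᶠ[𝓝 z]
            (fun y => gh a t ((C.e l).symm y)) ∘ C.t j l := by
          filter_upwards [(RCh.isOpen_ov j l).mem_nhds hz] with y hy
          show _ = gh a t ((C.e l).symm (C.e l ((C.e j).symm y)))
          rw [(C.e l).left_inv hy.2]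
        rw [e3.fderiv_eq, e2.fderiv]
        rfl
      simp only [het, sub_apply, sum_apply, smul_apply, smul_eq_mul]
      rw [th_tr a t j l z hz hza v, e1]
      have : ∀ k, be a k j z v = be a k l (C.t j l z) (fderiv ℝ (C.t j l) z v) :=
        fun k => be_tr a k j l z hz hza v
      simp only [this]
    · exact ⟨⟨fun _ _ => 0, fun _ => contDiffOn_const, fun _ _ _ _ _ => by simp⟩,
        fun h => absurd h ht⟩
  choose η' hη' using hF
  refine ⟨η', fun j => (fin_sm j).congr fun p hp => hη' p.1 hp.1 j p.2, fun t ht j z hz u v => ?_⟩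
  set a := cc ((C.e j).symm z) with ha
  have hza : z ∈ sh C j (U a) := ⟨hz, hcc _⟩
  have e1 : (η' t).η j =ᶠ[𝓝 z] et a t j := by
    filter_upwards [sh_nhds (hUo a) hza] with y hy
    rw [hη' t ht j y]
    exact ex_near j z hz t ht y hy
  rw [e1.fderiv_eq]
  have hgs := gh_da a t j z ht hza
  have e2 : DifferentiableAt ℝ (fderiv ℝ (fun y => gh a t ((C.e j).symm y))) z :=
    (hgs.fderiv_right (m := ∞) (by simp)).differentiableAt (by simp)
  have e3 := sub_sum_symm (c := fun k => pr O (c k) t) (th_da a t j z ht hza) e2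
    (fun k => be_da a k j z hza) u v
  have e4 := Crest.Agent.R281.Dif_268.symm2 hgs u v
  have e5 := th_d a t ht j z hza u v
  have e6 : ∀ k, fderiv ℝ (be a k j) z u v - fderiv ℝ (be a k j) z v u =
    (b k).w j z u v := fun k => be_d a k j z hza u v
  simp only [e5, e6] at e3
  have e7 : fderiv ℝ (et a t j) z = fderiv ℝ (fun y => th a t j y -
    ∑ k, pr O (c k) t • be a k j y - fderiv ℝ (fun y => gh a t ((C.e j).symm y)) y) z := rfl
  rw [e7, e3, e4]
  ring

theorem isD_iff {w : F2 C} {b : κ → F2 C} {c : κ → ℝ} {η : F1 C} :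
    IsD (w - ∑ k, c k • b k) η ↔ ∀ i, ∀ z ∈ (C.e i).target, ∀ u v,
      w.w i z u v - ∑ k, c k * (b k).w i z u v =
        fderiv ℝ (η.η i) z u v - fderiv ℝ (η.η i) z v u := by
  have h : ∀ i z u v, (w - ∑ k, c k • b k).w i z u v =
      w.w i z u v - ∑ k, c k * (b k).w i z u v := by
    intro i z u v
    rw [F2.sub_w, F2.sum_w]
    simp [sum_apply]
  unfold IsD
  simp only [h]

/-- **the parametrised basis theorem**: a jointly smooth family of closed forms, each of them
`Σ c_k b_k + exact`, is `Σ c_k(t) b_k + d η_t` with smooth `c_k` and jointly smooth `η` -/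
theorem prim {O : Set P} (hO : IsOpen O) {w : P → F2 C} (hw : JO2 O w) (b : κ → F2 C)
    (hex : ∀ t ∈ O, ∃ c : κ → ℝ, Ex (w t - ∑ k, c k • b k)) :
    ∃ (c : κ → P → ℝ) (η : P → F1 C), (∀ k, ContDiffOn ℝ ∞ (c k) O) ∧ JO1 O η ∧
      ∀ t ∈ O, IsD (w t - ∑ k, c k t • b k) (η t) := by
  classical
  have h1 : ∀ t, ∃ (c : κ → ℝ) (η : F1 C), t ∈ O → IsD (w t - ∑ k, c k • b k) η := by
    intro t
    by_cases ht : t ∈ O
    · obtain ⟨c, η, h⟩ := hex t ht
      exact ⟨c, η, fun _ => h⟩
    · exact ⟨0, ⟨fun _ _ => 0, fun _ => contDiffOn_const, fun _ _ _ _ _ => by simp⟩,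
        fun h => absurd h ht⟩
  choose c η h using h1
  obtain ⟨η', e1, e2⟩ := prim_aux hO hw (b := b) (c := fun k t => c t k) (η := η)
    (fun t ht => isD_iff.1 (h t ht))
  exact ⟨fun k => pr O fun t => c t k, η', fun k => pr_smooth O _, e1,
    fun t ht => isD_iff.2 (e2 t ht)⟩

/-- **the coefficients are smooth** if the `b k` are independent modulo exact forms -/
theorem coef_smooth {O : Set P} (hO : IsOpen O) {w : P → F2 C} (hw : JO2 O w) (b : κ → F2 C)
    (hb : ∀ c : κ → ℝ, Ex (∑ k, c k • b k) → c = 0) {c : κ → P → ℝ}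
    (hex : ∀ t ∈ O, Ex (w t - ∑ k, c k t • b k)) :
    (∀ k, ContDiffOn ℝ ∞ (c k) O) ∧ ∃ η : P → F1 C, JO1 O η ∧
      ∀ t ∈ O, IsD (w t - ∑ k, c k t • b k) (η t) := by
  obtain ⟨c', η, h1, h2, h3⟩ := prim hO hw b fun t ht => ⟨fun k => c k t, hex t ht⟩
  have h4 : ∀ t ∈ O, ∀ k, c' k t = c k t := by
    intro t ht k
    have e1 : Ex (∑ k, (c' k t - c k t) • b k) := by
      have e2 := Ex.sub (hex t ht) ⟨η t, h3 t ht⟩
      have e3 : w t - ∑ k, c k t • b k - (w t - ∑ k, c' k t • b k) =
          ∑ k, (c' k t - c k t) • b k := by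
        simp only [sub_smul, Finset.sum_sub_distrib]
        abel
      rwa [e3] at e2
    have e4 := congrFun (hb _ e1) k
    simp only [Pi.zero_apply] at e4
    linarith
  refine ⟨fun k => (h1 k).congr fun t ht => (h4 t ht k).symm, η, h2, fun t ht => ?_⟩
  have e5 := h3 t ht
  simp only [h4 t ht] at e5
  exact e5

/-- **families of exact forms have jointly smooth primitives** -/
theorem prim0 {O : Set P} (hO : IsOpen O) {w : P → F2 C} (hw : JO2 O w)
    (hex : ∀ t ∈ O, Ex (w t)) : ∃ η : P → F1 C, JO1 O η ∧ ∀ t ∈ O, IsD (w t) (η t) := by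
  obtain ⟨c, η, -, h1, h2⟩ := prim (κ := Empty) hO hw (fun k => k.elim) fun t ht =>
    ⟨fun k => k.elim, by simpa using hex t ht⟩
  exact ⟨η, h1, fun t ht => by simpa using h2 t ht⟩

end main

end

end Crest.Agent.R281.Prim_377
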