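import Crest.Agent.R281.Bx1_557
import Crest.Agent.R281.Prim3_377
import Crest.Agent.R281.F2Mod_358

/-!
# Row 281, G9 BOX (second owner helper557), part 2: the class of the derivative

* `dF_sm2`     : the derivative `dF w v p` is jointly smooth in `(v, p, z)`
* `ex_dF`      : the derivative of a jointly smooth family of exact forms is exact
* `ex_dF_sub`  : families with equal classes have derivatives with equal classes
* `dF_smul_lin`: the derivative of `p ↦ a p • (Y p + Y0)`, `Y` linear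
-/

set_option autoImplicit false
set_option maxSynthPendingDepth 3
set_option linter.unusedSectionVars false

open Set Filter Topology
open scoped ContDiff

namespace Crest.Agent.R281.Bx_557

open Crest.Agent.R260.ACM_580 Crest.Agent.R281.HkR_835 Crest.Agent.R281.Ti_846
open Crest.Agent.R281.NefO_476 Crest.Agent.R281.Nef_252 Crest.Agent.R281.Dif_268
open Crest.Agent.R281.Prim_377

noncomputable section

variable {V X : Type} [NormedAddCommGroup V] [NormedSpace ℝ V] [TopologicalSpace X]
  {C : RCh V X} {E : Type} [NormedAddCommGroup E] [NormedSpace ℝ E]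

/-- joint smoothness in the direction too -/
theorem dF_sm2 {T : Set E} (hT : IsOpen T) {w : E → F2 C} (hw : SmF T w)
    {F : Type} [NormedAddCommGroup F] [NormedSpace ℝ F] {S : Set F} {p v : F → E}
    (hp : ContDiffOn ℝ ∞ p S) (hv : ContDiffOn ℝ ∞ v S) (hm : MapsTo p S T) :
    SmF S fun q => dF T hT w hw (v q) (p q) := by
  intro i
  have h1 : ContDiffOn ℝ ∞ (fderiv ℝ fun q : E × V => (w q.1).w i q.2)
      (T ×ˢ (C.e i).target) := (hw i).fderiv_of_isOpen (isOpen_TU hT i) (by simp)
  have h2 : ContDiffOn ℝ ∞ (fun q : F × V => (p q.1, q.2)) (S ×ˢ (C.e i).target) :=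
    (hp.comp contDiff_fst.contDiffOn fun _ hq => hq.1).prodMk contDiff_snd.contDiffOn
  have h3 := h1.comp h2 (fun q hq => ⟨hm hq.1, hq.2⟩)
  have h4 : ContDiffOn ℝ ∞ (fun q : F × V => ((v q.1, 0) : E × V)) (S ×ˢ (C.e i).target) :=
    (hv.comp contDiff_fst.contDiffOn fun _ hq => hq.1).prodMk contDiffOn_const
  refine (h3.clm_apply h4).congr fun q hq => ?_
  show (dF T hT w hw (v q.1) (p q.1)).w i q.2 = _
  rw [dF_w (hm hq.1)]
  rfl

/-- jointly smooth families of 1-forms -/
def SmF1 (T : Set E) (η : E → F1 C) : Prop :=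
  ∀ i, ContDiffOn ℝ ∞ (fun q : E × V => (η q.1).η i q.2) (T ×ˢ (C.e i).target)

/-- the derivative of a jointly smooth family of 1-forms -/
def dE0 (T : Set E) (hT : IsOpen T) (η : E → F1 C) (hη : SmF1 T η) (v p : E) (hp : p ∈ T) :
    F1 C where
  η i z := fderiv ℝ (fun q : E × V => (η q.1).η i q.2) (p, z) (v, 0)
  sm i := by
    have h1 : ContDiffOn ℝ ∞ (fderiv ℝ fun q : E × V => (η q.1).η i q.2)
        (T ×ˢ (C.e i).target) := (hη i).fderiv_of_isOpen (isOpen_TU hT i) (by simp)
    have h2 : ContDiffOn ℝ ∞ (fun z : V => (p, z)) (C.e i).target :=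
      (contDiff_prodMk_right p).contDiffOn
    exact (h1.comp h2 fun z hz => ⟨hp, hz⟩).clm_apply contDiffOn_const
  tr i j z hz a := by
    have key : ∀ (i : C.ι) (z : V), z ∈ (C.e i).target → ∀ a : V,
        fderiv ℝ (fun p' => (η p').η i z a) p v =
          fderiv ℝ (fun q : E × V => (η q.1).η i q.2) (p, z) (v, 0) a := by
      intro i z hz a
      have h := (ContinuousLinearMap.apply ℝ ℝ a).hasFDerivAt.comp p
        (hasFDerivAt_p (isOpen_TU hT i) (hη i) (show (p, z) ∈ T ×ˢ (C.e i).target from ⟨hp, hz⟩))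
      have h' : HasFDerivAt (fun p' => (η p').η i z a) _ p := h
      rw [h'.fderiv]
      simp
    rw [← key i z hz.1, ← key j _ (RCh.t_mem hz).1]
    have h : (fun p' => (η p').η i z a) = fun p' => (η p').η j (C.t i j z)
        (fderiv ℝ (C.t i j) z a) := funext fun p' => (η p').tr i j z hz a
    rw [h]

/-- **the derivative of a family of exact forms is exact** -/
theorem ex_dF [FiniteDimensional ℝ V] [FiniteDimensional ℝ E] [CompactSpace X] [T2Space X]
    {T : Set E} (hT : IsOpen T) {w : E → F2 C} (hw : SmF T w) (hex : ∀ p ∈ T, Ex (w p)) (v : E)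
    {p : E} (hp : p ∈ T) : Ex (dF T hT w hw v p) := by
  obtain ⟨η, hη, hd⟩ := prim0 hT hw hex
  refine ⟨dE0 T hT η hη v p hp, fun i z hz a b => ?_⟩
  rw [dF_w hp]
  set F : E × V → (V →L[ℝ] ℝ) := fun q => (η q.1).η i q.2 with hFd
  have hS := isOpen_TU (C := C) hT i
  have hpz : (p, z) ∈ T ×ˢ (C.e i).target := ⟨hp, hz⟩
  have key : ∀ a b : V, HasFDerivAt (fun p' => fderiv ℝ ((η p').η i) z a b)
      (((ContinuousLinearMap.apply ℝ ℝ b).comp
        (((ContinuousLinearMap.apply ℝ (V →L[ℝ] ℝ) ((0, a) : E × V)).comp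
          (fderiv ℝ (fderiv ℝ F) (p, z))).comp (ContinuousLinearMap.inl ℝ E V)))) p ∧
      fderiv ℝ (fun z' => fderiv ℝ F (p, z') (v, 0)) z a b =
        fderiv ℝ (fun p' => fderiv ℝ ((η p').η i) z a b) p v := by
    intro a b
    obtain ⟨h1, h2, h3⟩ := mixed hS (hη i) hpz v a
    have e2 : HasFDerivAt (fun p' => fderiv ℝ F (p', z) (0, a) b) _ p :=
      (ContinuousLinearMap.apply ℝ ℝ b).hasFDerivAt.comp p h2
    have e3 : (fun p' => fderiv ℝ ((η p').η i) z a b) =ᶠ[𝓝 p]
        fun p' => fderiv ℝ F (p', z) (0, a) b := by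
      filter_upwards [hT.mem_nhds hp] with p' hp'
      have := (hasFDerivAt_z hS (hη i) (show (p', z) ∈ T ×ˢ (C.e i).target from ⟨hp', hz⟩)).fderiv
      have h4 : (fun z' => F (p', z')) = (η p').η i := rfl
      rw [h4] at this
      rw [this]
      simp [hFd]
    have e4 := e2.congr_of_eventuallyEq e3
    refine ⟨e4, ?_⟩
    rw [e4.fderiv, h1.fderiv]
    simp [h3]
  have e1 : dw w v p i z a b = fderiv ℝ (fun p' => (w p').w i z a b) p v :=
    (fderiv_w hT hw hp hz v a b).symm
  have e2 : (fun p' => (w p').w i z a b) =ᶠ[𝓝 p] fun p' => fderiv ℝ ((η p').η i) z a b -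
      fderiv ℝ ((η p').η i) z b a := by
    filter_upwards [hT.mem_nhds hp] with p' hp' using hd p' hp' i z hz a b
  rw [e1, e2.fderiv_eq, fderiv_fun_sub (key a b).1.differentiableAt (key b a).1.differentiableAt]
  rw [_root_.sub_apply, ← (key a b).2, ← (key b a).2]
  rfl

theorem SmF.sub {T : Set E} {w w' : E → F2 C} (hw : SmF T w) (hw' : SmF T w') :
    SmF T fun p => w p - w' p := fun i => (hw i).sub (hw' i)

/-- equality on the targets gives equality of classes -/
theorem ex_of_eqv {w w' : F2 C} (h : Eqv w w') : Ex (w - w') := by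
  obtain ⟨η, hη⟩ : Ex (0 : F2 C) := ex_zero
  refine ⟨η, fun i z hz u v => ?_⟩
  have h1 := hη i z hz u v
  have h2 : (w - w').w i z u v = w.w i z u v - w'.w i z u v := rfl
  have h3 : (0 : F2 C).w i z u v = 0 := rfl
  rw [h2, h i z hz u v, sub_self, ← h3]
  exact h1

theorem dF_sub {T : Set E} (hT : IsOpen T) {w w' : E → F2 C} (hw : SmF T w) (hw' : SmF T w')
    (v : E) {p : E} (hp : p ∈ T) :
    Eqv (dF T hT (fun p => w p - w' p) (hw.sub hw') v p)
      (dF T hT w hw v p - dF T hT w' hw' v p) := by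
  intro i z hz a b
  have e : (dF T hT w hw v p - dF T hT w' hw' v p).w i z a b =
    (dF T hT w hw v p).w i z a b - (dF T hT w' hw' v p).w i z a b := rfl
  rw [e, dF_w hp, dF_w hp, dF_w hp, ← fderiv_w hT (hw.sub hw') hp hz, ← fderiv_w hT hw hp hz,
    ← fderiv_w hT hw' hp hz]
  have h1 : (fun p' => (w p' - w' p').w i z a b) =
    fun p' => (w p').w i z a b - (w' p').w i z a b := rfl
  rw [h1, fderiv_fun_sub (dw_has hT hw hp hz a b).differentiableAt
    (dw_has hT hw' hp hz a b).differentiableAt]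
  rfl

/-- **families with equal classes have derivatives with equal classes** -/
theorem ex_dF_sub [FiniteDimensional ℝ V] [FiniteDimensional ℝ E] [CompactSpace X] [T2Space X]
    {T : Set E} (hT : IsOpen T) {w w' : E → F2 C} (hw : SmF T w) (hw' : SmF T w')
    (hex : ∀ p ∈ T, Ex (w p - w' p)) (v : E) {p : E} (hp : p ∈ T) :
    Ex (dF T hT w hw v p - dF T hT w' hw' v p) := by
  have h1 := ex_dF hT (hw.sub hw') hex v hp
  have h2 := ex_of_eqv (dF_sub hT hw hw' v hp)
  have h3 := ex_sub h1 h2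
  rwa [sub_sub_cancel] at h3

/-- the derivative of an affine family times a function -/
theorem dF_smul_lin {T : Set E} (hT : IsOpen T) {a : E → ℝ} (ha : ContDiffOn ℝ ∞ a T)
    {κ : Type} [Fintype κ] {c : κ → E →L[ℝ] ℝ} {y : κ → F2 C} {y0 : F2 C}
    (hw : SmF T fun p => a p • (∑ k, c k p • y k + y0)) (v : E) {p : E} (hp : p ∈ T) :
    Eqv (dF T hT (fun p => a p • (∑ k, c k p • y k + y0)) hw v p)
      (fderiv ℝ a p v • (∑ k, c k p • y k + y0) + a p • ∑ k, c k v • y k) := by
  intro i z hz u u'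
  rw [dF_w hp, ← fderiv_w hT hw hp hz]
  have hs : ∀ q : E, (∑ k, c k q • y k).w i z u u' = ∑ k, c k q * (y k).w i z u u' := by
    intro q
    rw [F2.sum_w]
    simp [sum_apply]
  have h1 : (fun p' => (a p' • (∑ k, c k p' • y k + y0)).w i z u u') =
      fun p' => a p' * (∑ k, c k p' * (y k).w i z u u' + y0.w i z u u') := by
    funext p'
    show a p' * ((∑ k, c k p' • y k).w i z u u' + y0.w i z u u') = _
    rw [hs]
  have h2 : HasFDerivAt (fun p' => ∑ k, c k p' * (y k).w i z u u' + y0.w i z u u')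
      (∑ k, (y k).w i z u u' • c k) p := by
    refine (HasFDerivAt.fun_sum fun k _ => ?_).add_const _
    exact ((c k).hasFDerivAt (x := p)).mul_const _
  have ha' : HasFDerivAt a (fderiv ℝ a p) p :=
    ((ha.contDiffAt (hT.mem_nhds hp)).differentiableAt (by simp)).hasFDerivAt
  rw [h1, (ha'.fun_mul h2).fderiv]
  show _ = fderiv ℝ a p v * ((∑ k, c k p • y k).w i z u u' + y0.w i z u u') +
    a p * (∑ k, c k v • y k).w i z u u'
  rw [hs, hs]
  simp only [add_apply, smul_apply, smul_eq_mul, sum_apply]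
  have h3 : ∀ k, (y k).w i z u u' * (c k) v = (c k) v * (y k).w i z u u' := fun k => mul_comm _ _
  simp only [h3]
  ring

end

end Crest.Agent.R281.Bx_557
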