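import Crest.Agent.R281.Bx3_557
import Crest.Agent.R281.Bx2_557

/-!
# Row 281, G9 BOX (second owner helper557), part 4: positivity is open; the family of moves

* `ev_pos`     : `Pos (J p) (w p)` is an open condition on the parameter (`X` compact)
* `cyc_neg`    : `(H.cyc k).cyc (-k)` is `H`
* `MoveFam C Q`: the family of moves of `om 0` (222 #7955 (1)), from YAU-VAR
* `moveFam_k`  : the family of moves of `om k`
-/

set_option autoImplicit false
set_option maxSynthPendingDepth 3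
set_option linter.unusedSectionVars false

open Set Filter Topology
open scoped ContDiff

namespace Crest.Agent.R281.Bx_557

open Crest.Agent.R260.ACM_580 Crest.Agent.R281.HkR_835 Crest.Agent.R281.Ti_846
open Crest.Agent.R281.NefO_476 Crest.Agent.R281.Nef_252 Crest.Agent.R281.Dif_268
open Crest.Agent.R281.Alg_998
open Crest.Agent.R281.Sta2_684 (smulP)

noncomputable section

variable {V X : Type} [NormedAddCommGroup V] [NormedSpace ℝ V] [TopologicalSpace X]
  {C : RCh V X} {E : Type} [NormedAddCommGroup E] [NormedSpace ℝ E]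

/-- **positivity is an open condition on the parameter** -/
theorem ev_pos [FiniteDimensional ℝ V] [CompactSpace X] {T : Set E} (hT : IsOpen T)
    {J : E → AJ C} (hJ : SmJ T J) {w : E → F2 C} (hw : SmF T w) {p0 : E} (hp0 : p0 ∈ T)
    (h : Pos (J p0) (w p0)) : ∀ᶠ p in 𝓝 p0, Pos (J p) (w p) := by
  have key : ∀ᶠ p in 𝓝 p0, ∀ x ∈ (univ : Set X), ∃ i, x ∈ (C.e i).source ∧
      ∀ v, v ≠ 0 → 0 < (w p).w i (C.e i x) v ((J p).J i (C.e i x) v) := by
    refine isCompact_univ.eventually_forall_of_forall_eventually fun x _ => ?_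
    obtain ⟨i, hi⟩ := C.cover x
    set z0 := C.e i x with hz0
    have hz0t : z0 ∈ (C.e i).target := (C.e i).map_source hi
    have hS := isOpen_TU (C := C) hT i
    have h0 : ((p0, z0) : E × V) ∈ T ×ˢ (C.e i).target := ⟨hp0, hz0t⟩
    have h1 : ∀ᶠ q : E × V in 𝓝 (p0, z0), ∀ v ∈ Metric.sphere (0 : V) 1,
        0 < (w q.1).w i q.2 v ((J q.1).J i q.2 v) := by
      refine (isCompact_sphere (0 : V) 1).eventually_forall_of_forall_eventually fun v hv => ?_
      have hv0 : v ≠ 0 := by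
        rintro rfl
        simp at hv
      have hc1 : ContinuousAt (fun q : (E × V) × V => (w q.1.1).w i q.1.2) ((p0, z0), v) := by
        have := ((hw i).continuousOn.continuousAt (hS.mem_nhds h0))
        exact ContinuousAt.comp (f := fun q : (E × V) × V => q.1)
          (g := fun q : E × V => (w q.1).w i q.2) this continuousAt_fst
      have hc2 : ContinuousAt (fun q : (E × V) × V => (J q.1.1).J i q.1.2) ((p0, z0), v) := by
        have := ((hJ i).continuousOn.continuousAt (hS.mem_nhds h0))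
        exact ContinuousAt.comp (f := fun q : (E × V) × V => q.1)
          (g := fun q : E × V => (J q.1).J i q.2) this continuousAt_fst
      have hc : ContinuousAt (fun q : (E × V) × V =>
          (w q.1.1).w i q.1.2 q.2 ((J q.1.1).J i q.1.2 q.2)) ((p0, z0), v) :=
        (hc1.clm_apply continuousAt_snd).clm_apply (hc2.clm_apply continuousAt_snd)
      exact hc.eventually (lt_mem_nhds (h i z0 hz0t v hv0))
    have h2 : Tendsto (fun q : E × X => (q.1, C.e i q.2)) (𝓝 (p0, x)) (𝓝 (p0, z0)) := by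
      have h21 : ContinuousAt (fun q : E × X => C.e i q.2) (p0, x) :=
        ContinuousAt.comp (f := fun q : E × X => q.2) (x := (p0, x))
          ((C.e i).continuousAt hi) continuousAt_snd
      have h22 : ContinuousAt (fun q : E × X => q.1) (p0, x) := continuousAt_fst
      exact (h22.prodMk h21).tendsto
    have h3 : ∀ᶠ q : E × X in 𝓝 (p0, x), q.2 ∈ (C.e i).source :=
      continuousAt_snd.eventually ((C.e i).open_source.mem_nhds hi)
    filter_upwards [h2.eventually h1, h3] with q hq hq3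
    refine ⟨i, hq3, fun v hv => ?_⟩
    have hn : 0 < ‖v‖ := norm_pos_iff.2 hv
    have h4 := hq (‖v‖⁻¹ • v) (by
      rw [mem_sphere_zero_iff_norm, norm_smul, norm_inv, norm_norm, inv_mul_cancel₀ hn.ne'])
    simp only [map_smul, smul_apply, smul_eq_mul] at h4
    have h5 := (pos_iff_pos_of_mul_pos h4).1 (by positivity)
    exact (pos_iff_pos_of_mul_pos h5).1 (by positivity)
  filter_upwards [key] with p hp
  intro j z hz v hv
  obtain ⟨i, hi, h1⟩ := hp ((C.e j).symm z) (mem_univ _)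
  have hov : z ∈ C.ov j i := ⟨hz, hi⟩
  let _ : MeasurableSpace V := borel V
  have _ : BorelSpace V := ⟨rfl⟩
  exact Crest.Agent.R281.NefO_476.pos_tr (J := J p) (b := w p) hov h1 v hv

theorem cyc_neg (H : HkT C) (k : Fin 3) : HEqv ((H.cyc k).cyc (-k)) H := by
  refine ⟨fun l i z hz => ?_, fun l i z hz => ?_, fun i z hz => rfl⟩
  · ext u v
    rw [cyc_om (H.cyc k) (-k) l i z hz u v, cyc_om H k (l + -k) i z hz u v, neg_add_cancel_right]
  · ext v
    rw [cyc_J, cyc_J, neg_add_cancel_right]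

theorem cyc_smulP (H : HkT C) {t : ℝ} (ht : 0 < t) (k : Fin 3) :
    HEqv ((smulP t ht H).cyc k) (smulP t ht (H.cyc k)) := rot_smulP H ht (fr_cyc k)

/-- **the family of moves of `om 0`** (YAU-VAR on a family of triples) -/
def MoveFam (C : RCh V X) (Q : F2 C →ₗ[ℝ] F2 C →ₗ[ℝ] ℝ) : Prop :=
  ∀ (E : Type) [NormedAddCommGroup E] [NormedSpace ℝ E] [FiniteDimensional ℝ E] (T : Set E)
    (H : E → HkT C) (w : E → F2 C), IsOpen T → SmHk T H →
    (∀ p ∈ T, 0 < Q ((H p).om 0) ((H p).om 0)) → SmF T w →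
    (∀ p ∈ T, T11 (ofHk (H p) 0) (w p)) → (∀ p ∈ T, Pos (ofHk (H p) 0) (w p)) →
    (∀ p ∈ T, 0 < Q (w p) (w p)) →
    ∃ (H' : E → HkT C) (r : E → ℝ), SmHk T H' ∧ ContDiffOn ℝ ∞ r T ∧ ∀ p ∈ T, 0 < r p ∧
      (∀ i, ∀ z ∈ (C.e i).target, ∀ v, (H' p).J 0 i z v = (H p).J 0 i z v) ∧
      Eqv ((H' p).om 1) (r p • (H p).om 1) ∧ Eqv ((H' p).om 2) (r p • (H p).om 2) ∧
      Ex ((H' p).om 0 - w p) ∧
      ∀ (t : ℝ) (ht : 0 < t), Eqv (w p) (t • (H p).om 0) → HEqv (H' p) (smulP t ht (H p))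

/-- the cyclic permutation of a jointly smooth family -/
theorem SmHk.cyc {T : Set E} {H : E → HkT C} (hH : SmHk T H) (k : Fin 3) :
    SmHk T fun p => (H p).cyc k :=
  hH.rot (R := fun _ => cycR k) (fun _ => fr_cyc k) fun _ _ => contDiffOn_const

/-- **the family of moves of `om k`** -/
theorem moveFam_k [FiniteDimensional ℝ E] {Q : F2 C →ₗ[ℝ] F2 C →ₗ[ℝ] ℝ} (hM : MoveFam C Q)
    (k : Fin 3)
    {T : Set E} {H : E → HkT C} {w : E → F2 C} (hT : IsOpen T) (hH : SmHk T H)
    (h0 : ∀ p ∈ T, 0 < Q (((H p).cyc k).om 0) (((H p).cyc k).om 0)) (hw : SmF T w)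
    (ht : ∀ p ∈ T, T11 (ofHk (H p) k) (w p)) (hp : ∀ p ∈ T, Pos (ofHk (H p) k) (w p))
    (hq : ∀ p ∈ T, 0 < Q (w p) (w p)) :
    ∃ (H' : E → HkT C) (r : E → ℝ), SmHk T H' ∧ ContDiffOn ℝ ∞ r T ∧ ∀ p ∈ T, 0 < r p ∧
      (∀ i, ∀ z ∈ (C.e i).target, ∀ v, (H' p).J k i z v = (H p).J k i z v) ∧
      (∀ l, l ≠ k → Eqv ((H' p).om l) (r p • (H p).om l)) ∧
      Ex ((H' p).om k - w p) ∧
      ∀ (t : ℝ) (ht : 0 < t), Eqv (w p) (t • (H p).om k) → HEqv (H' p) (smulP t ht (H p)) := by
  have eJ : ∀ p i z v, (ofHk ((H p).cyc k) 0).J i z v = (ofHk (H p) k).J i z v := by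
    intro p i z v
    show ((H p).cyc k).J 0 i z v = (H p).J k i z v
    rw [cyc_J, zero_add]
  obtain ⟨H', r, hs, hr, h⟩ := hM E T (fun p => (H p).cyc k) w hT (hH.cyc k) h0 hw
    (fun p hpT i z hz u v => by
      rw [eJ, eJ]
      exact ht p hpT i z hz u v)
    (fun p hpT i z hz v hv => by
      rw [eJ]
      exact hp p hpT i z hz v hv) hq
  refine ⟨fun p => (H' p).cyc (-k), r, hs.cyc (-k), hr, fun p hpT => ?_⟩
  obtain ⟨h1, h2, h3, h4, h5, h6⟩ := h p hpT
  refine ⟨h1, fun i z hz v => ?_, fun l hl => ?_, ?_, fun t ht hwt => ?_⟩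
  · rw [cyc_J, add_neg_cancel, h2 i z hz, cyc_J, zero_add]
  · have key : ∀ m : Fin 3, m ≠ 0 → Eqv ((H' p).om m) (r p • ((H p).cyc k).om m) := by
      intro m hm
      fin_cases m
      · exact absurd rfl hm
      · exact h3
      · exact h4
    have h7 : l + -k ≠ 0 := fun h => hl (by
      have h8 := congrArg (fun x => x + k) h
      simpa using h8)
    refine (cyc_om (H' p) (-k) l).trans ((key _ h7).trans fun i z hz u v => ?_)
    have e3 := cyc_om (H p) k (l + -k) i z hz u v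
    rw [neg_add_cancel_right] at e3
    show r p * (((H p).cyc k).om (l + -k)).w i z u v = r p * ((H p).om l).w i z u v
    rw [e3]
  · have e3 := cyc_om (H' p) (-k) k
    rw [add_neg_cancel] at e3
    have e4 := ex_add (ex_of_eqv e3) h5
    rwa [sub_add_sub_cancel] at e4
  · have e1 : Eqv (w p) (t • ((H p).cyc k).om 0) := by
      intro i z hz u v
      have e2 := cyc_om (H p) k 0 i z hz u v
      rw [zero_add] at e2
      rw [hwt i z hz u v]
      show t * ((H p).om k).w i z u v = t * (((H p).cyc k).om 0).w i z u v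
      rw [e2]
    have e5 := h6 t ht e1
    exact (heqv_rot e5 (fr_cyc (-k))).trans ((cyc_smulP _ ht (-k)).trans
      (heqv_smulP (cyc_neg (H p) k) ht))

end

end Crest.Agent.R281.Bx_557
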