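import Crest.Agent.R281.Bx4_557

/-!
# Row 281, G9 BOX (second owner helper557), part 5: the invariant form of a direction

* `QD Q`     : what is used of the Fujiki form
* `Stp`      : a family over `T` with `J k` fixed, the two other forms `r p` times fixed ones, and
               the class of `om k` an affine function of `p`
* `Stp.psi`  : `ψ_v = r ∂_v (om k / r)`: closed, jointly smooth, invariant under `J 0, J 1, J 2`
* `Stp.cl`   : `[ψ_v] = w'(v) - (∂_v r / r) [om k]`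
* `Stp.Q_om` : `ψ_v` is orthogonal to `om 0, om 1, om 2`
-/

set_option autoImplicit false
set_option maxSynthPendingDepth 3
set_option linter.unusedSectionVars false

open Set Filter Topology
open scoped ContDiff

namespace Crest.Agent.R281.Bx_557

open Crest.Agent.R260.ACM_580 Crest.Agent.R281.HkR_835 Crest.Agent.R281.Ti_846
open Crest.Agent.R281.NefO_476 Crest.Agent.R281.Nef_252 Crest.Agent.R281.Dif_268
open Crest.Agent.R281.Alg_998
open Crest.Agent.R281.Sta2_684 (smulP)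

noncomputable section

variable {V X : Type} [NormedAddCommGroup V] [NormedSpace ℝ V] [TopologicalSpace X]
  {C : RCh V X} {E : Type} [NormedAddCommGroup E] [NormedSpace ℝ E]

/-- what is used of the Fujiki form -/
structure QD (Q : F2 C →ₗ[ℝ] F2 C →ₗ[ℝ] ℝ) : Prop where
  symm : ∀ x y, Q x y = Q y x
  ex : ∀ x y, Ex x → Q x y = 0
  eq : ∀ (H : HkT C) k, Q (H.om k) (H.om k) = Q (H.om 0) (H.om 0)
  ort : ∀ (H : HkT C) (k l : Fin 3), k ≠ l → Q (H.om k) (H.om l) = 0

namespace QD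

variable {Q : F2 C →ₗ[ℝ] F2 C →ₗ[ℝ] ℝ} (hQ : QD Q)

include hQ

theorem cl1 {x x' : F2 C} (h : Cl x x') (y : F2 C) : Q x y = Q x' y := by
  have h1 := hQ.ex _ y h
  rw [map_sub, LinearMap.sub_apply] at h1
  linarith

theorem cl2 {x x' : F2 C} (h : Cl x x') (y : F2 C) : Q y x = Q y x' := by
  rw [hQ.symm y x, hQ.symm y x', hQ.cl1 h]

theorem cl12 {x x' y y' : F2 C} (h : Cl x x') (h' : Cl y y') : Q x y = Q x' y' := by
  rw [hQ.cl1 h, hQ.cl2 h']

end QD

theorem cl_of_eqv {w w' : F2 C} (h : Eqv w w') : Cl w w' := ex_of_eqv h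

/-- the affine family -/
def aff {κ : Type} [Fintype κ] (c : κ → E →L[ℝ] ℝ) (y : κ → F2 C) (y0 : F2 C) (p : E) : F2 C :=
  ∑ j, c j p • y j + y0

/-- its linear part -/
def affL {κ : Type} [Fintype κ] (c : κ → E →L[ℝ] ℝ) (y : κ → F2 C) (v : E) : F2 C :=
  ∑ j, c j v • y j

section aff

variable {κ : Type} [Fintype κ] {c : κ → E →L[ℝ] ℝ} {y : κ → F2 C} {y0 : F2 C}

theorem affL_add (v v' : E) : affL c y (v + v') = affL c y v + affL c y v' := by
  simp only [affL, map_add, add_smul, Finset.sum_add_distrib]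

theorem affL_smul (t : ℝ) (v : E) : affL c y (t • v) = t • affL c y v := by
  simp only [affL, map_smul, smul_eq_mul, mul_smul, Finset.smul_sum]

theorem aff_add (p v : E) : aff c y y0 (p + v) = aff c y y0 p + affL c y v := by
  have h := affL_add (c := c) (y := y) p v
  simp only [affL] at h
  rw [aff, aff, affL, h]
  abel

theorem aff_w (i : C.ι) (z : V) (p : E) :
    (aff c y y0 p).w i z = ∑ j, c j p • (y j).w i z + y0.w i z := by
  rw [aff, F2.add_w, F2.sum_w]
  rfl

theorem aff_sm (T : Set E) : SmF T (aff c y y0) := by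
  intro i
  have h1 : ∀ j, ContDiffOn ℝ ∞ (fun q : E × V => c j q.1 • (y j).w i q.2)
      (T ×ˢ (C.e i).target) := fun j =>
    ((c j).contDiff.comp contDiff_fst).contDiffOn.smul
      (((y j).sm i).comp contDiff_snd.contDiffOn fun _ hq => hq.2)
  have h2 : ContDiffOn ℝ ∞ (fun q : E × V => y0.w i q.2) (T ×ˢ (C.e i).target) :=
    (y0.sm i).comp contDiff_snd.contDiffOn fun _ hq => hq.2
  exact ((ContDiffOn.sum fun j (_ : j ∈ Finset.univ) => h1 j).add h2).congr fun q _ =>
    aff_w i q.2 q.1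

end aff

/-- a family of triples: `J k` fixed, the two other forms `r p` times fixed ones, the class of
`om k` affine -/
structure Stp {κ : Type} [Fintype κ] (k : Fin 3) (T : Set E) (H : E → HkT C) (r : E → ℝ)
    (J0 : AJ C) (B : Fin 3 → F2 C) (c : κ → E →L[ℝ] ℝ) (y : κ → F2 C) (y0 : F2 C) : Prop where
  hT : IsOpen T
  hH : SmHk T H
  hr : ContDiffOn ℝ ∞ r T
  r0 : ∀ p ∈ T, 0 < r p
  hJ : ∀ p ∈ T, ∀ i, ∀ z ∈ (C.e i).target, ∀ u, (H p).J k i z u = J0.J i z u
  hB : ∀ p ∈ T, ∀ l, l ≠ k → Eqv ((H p).om l) (r p • B l)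
  hc : ∀ p ∈ T, Cl ((H p).om k) (aff c y y0 p)

namespace Stp

variable {κ : Type} [Fintype κ] {k : Fin 3} {T : Set E} {H : E → HkT C} {r : E → ℝ}
  {J0 : AJ C} {B : Fin 3 → F2 C} {c : κ → E →L[ℝ] ℝ} {y : κ → F2 C} {y0 : F2 C}
  (S : Stp k T H r J0 B c y y0)

include S

theorem hm : SmF T fun p => (r p)⁻¹ • (H p).om k :=
  (S.hH.om k).smul (S.hr.inv fun p hp => (S.r0 p hp).ne')

/-- the invariant form of the direction `v` -/
def psi (v p : E) : F2 C := r p • dF T S.hT (fun p => (r p)⁻¹ • (H p).om k) S.hm v p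

theorem psi_sm {F : Type} [NormedAddCommGroup F] [NormedSpace ℝ F] {O : Set F} {p v : F → E}
    (hp : ContDiffOn ℝ ∞ p O) (hv : ContDiffOn ℝ ∞ v O) (hm : MapsTo p O T) :
    SmF O fun q => S.psi (v q) (p q) :=
  (dF_sm2 S.hT S.hm hp hv hm).smul (S.hr.comp hp hm)

theorem psi_T11 (v : E) {p : E} (hp : p ∈ T) (l : Fin 3) : T11 (ofHk (H p) l) (S.psi v p) :=
  T11.smul _ (dF_inv S.hT S.hH S.hJ S.r0 S.hB S.hm v hp l)

/-- logarithmic derivative of the factor -/
def rho (_ : Stp k T H r J0 B c y y0) (v p : E) : ℝ := fderiv ℝ r p v / r p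

theorem r_diff {p : E} (hp : p ∈ T) : HasFDerivAt r (fderiv ℝ r p) p :=
  ((S.hr.contDiffAt (S.hT.mem_nhds hp)).differentiableAt (by simp)).hasFDerivAt

/-- **the class of `ψ_v`** -/
theorem cl [FiniteDimensional ℝ V] [FiniteDimensional ℝ E] [CompactSpace X] [T2Space X] (v : E)
    {p : E} (hp : p ∈ T) : Cl (S.psi v p) (affL c y v - S.rho v p • (H p).om k) := by
  have hw' : SmF T fun p => (r p)⁻¹ • (∑ j, c j p • y j + y0) :=
    (aff_sm T).smul (S.hr.inv fun p hp => (S.r0 p hp).ne')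
  have h1 := ex_dF_sub S.hT S.hm hw' (fun p hp => by
    have h2 : Cl ((r p)⁻¹ • (H p).om k) ((r p)⁻¹ • aff c y y0 p) := (S.hc p hp).smul _
    exact h2) v hp
  have h2 := cl_of_eqv (dF_smul_lin S.hT (S.hr.inv fun p hp => (S.r0 p hp).ne') hw' v hp)
  have h3 : Cl (S.psi v p) (r p • (fderiv ℝ (fun p => (r p)⁻¹) p v • aff c y y0 p +
      (r p)⁻¹ • affL c y v)) := (Cl.trans h1 h2).smul (r p)
  have h0 := (S.r0 p hp).ne'
  have h4 : fderiv ℝ (fun p => (r p)⁻¹) p v = -(fderiv ℝ r p v) / r p ^ 2 := by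
    have h5 : HasFDerivAt (fun p => (r p)⁻¹) _ p :=
      (hasDerivAt_inv h0).hasFDerivAt.comp p (S.r_diff hp)
    rw [h5.fderiv]
    simp
    field_simp
  have h6 : Cl (r p • (fderiv ℝ (fun p => (r p)⁻¹) p v • aff c y y0 p + (r p)⁻¹ • affL c y v))
      (r p • (fderiv ℝ (fun p => (r p)⁻¹) p v • (H p).om k + (r p)⁻¹ • affL c y v)) :=
    Cl.smul _ (Cl.add (Cl.smul _ (S.hc p hp).symm) (Cl.refl _))
  have h7 : r p • (fderiv ℝ (fun p => (r p)⁻¹) p v • (H p).om k + (r p)⁻¹ • affL c y v) =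
      affL c y v - S.rho v p • (H p).om k := by
    rw [h4, smul_add, smul_smul, smul_smul, mul_inv_cancel₀ h0, one_smul, rho, add_comm,
      sub_eq_add_neg, ← neg_smul]
    congr 2
    field_simp
  rw [h7] at h6
  exact h3.trans h6

/-- the linear part is orthogonal to the fixed forms -/
theorem Q_B [FiniteDimensional ℝ E] {Q : F2 C →ₗ[ℝ] F2 C →ₗ[ℝ] ℝ} (hQ : QD Q) (v : E) {p : E}
    (hp : p ∈ T) {l : Fin 3} (hl : l ≠ k) : Q (affL c y v) (B l) = 0 := by
  have h1 : ∀ p ∈ T, Q (aff c y y0 p) (B l) = 0 := by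
    intro p hp
    have h2 := hQ.ort (H p) k l (Ne.symm hl)
    rw [hQ.cl12 (S.hc p hp) (cl_of_eqv (S.hB p hp l hl)), map_smul, smul_eq_mul] at h2
    exact (mul_eq_zero.1 h2).resolve_left (S.r0 p hp).ne'
  have h3 : ∀ᶠ t : ℝ in 𝓝 0, p + t • v ∈ T := by
    have h4 : ContinuousAt (fun t : ℝ => p + t • v) 0 := by fun_prop
    exact h4.eventually (S.hT.mem_nhds (by simpa using hp))
  obtain ⟨t, ht, ht0⟩ : ∃ t : ℝ, p + t • v ∈ T ∧ t ≠ 0 := by
    obtain ⟨ε, hε, hb⟩ := Metric.eventually_nhds_iff.1 h3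
    exact ⟨ε / 2, hb (by rw [Real.dist_eq, sub_zero, abs_of_pos (by positivity)]; linarith),
      by positivity⟩
  have h5 := h1 _ ht
  rw [aff_add, map_add, LinearMap.add_apply, h1 p hp, zero_add, affL_smul, map_smul,
    LinearMap.smul_apply, smul_eq_mul] at h5
  exact (mul_eq_zero.1 h5).resolve_left ht0

/-- **orthogonality of `ψ_v` to the triple** -/
theorem Q_om [FiniteDimensional ℝ V] [FiniteDimensional ℝ E] [CompactSpace X] [T2Space X]
    {Q : F2 C →ₗ[ℝ] F2 C →ₗ[ℝ] ℝ} (hQ : QD Q) (v : E) {p : E} (hp : p ∈ T) (l : Fin 3) :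
    Q (S.psi v p) ((H p).om l) = 0 := by
  rw [hQ.cl1 (S.cl v hp)]
  by_cases hl : l = k
  · subst hl
    obtain ⟨l', hl'⟩ : ∃ l', l' ≠ l := by
      fin_cases l
      · exact ⟨1, by decide⟩
      · exact ⟨0, by decide⟩
      · exact ⟨0, by decide⟩
    -- `Q(w, w) = r² q0`
    have h1 : ∀ p ∈ T, Q (aff c y y0 p) (aff c y y0 p) = r p ^ 2 * Q (B l') (B l') := by
      intro p hp
      rw [← hQ.cl12 (S.hc p hp) (S.hc p hp), hQ.eq (H p) l, ← hQ.eq (H p) l',
        hQ.cl12 (cl_of_eqv (S.hB p hp l' hl')) (cl_of_eqv (S.hB p hp l' hl')), map_smul, map_smul,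
        LinearMap.smul_apply, smul_eq_mul, smul_eq_mul]
      ring
    have h2 : HasDerivAt (fun t : ℝ => Q (aff c y y0 (p + t • v)) (aff c y y0 (p + t • v)))
        (2 * Q (affL c y v) (aff c y y0 p)) 0 := by
      have e : (fun t : ℝ => Q (aff c y y0 (p + t • v)) (aff c y y0 (p + t • v))) =
          fun t : ℝ => Q (aff c y y0 p) (aff c y y0 p) + t * (2 * Q (affL c y v) (aff c y y0 p)) +
            t ^ 2 * Q (affL c y v) (affL c y v) := by
        funext t
        rw [aff_add, affL_smul]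
        simp only [map_add, map_smul, LinearMap.add_apply, LinearMap.smul_apply, smul_eq_mul]
        rw [hQ.symm (aff c y y0 p) (affL c y v)]
        ring
      rw [e]
      have h3 : HasDerivAt (fun t : ℝ => Q (aff c y y0 p) (aff c y y0 p) +
          t * (2 * Q (affL c y v) (aff c y y0 p)) + t ^ 2 * Q (affL c y v) (affL c y v))
          ((1 * (2 * Q (affL c y v) (aff c y y0 p))) + (2 * (0 : ℝ) ^ (2 - 1) * 1) *
            Q (affL c y v) (affL c y v)) 0 := by
        have h31 : HasDerivAt (fun t : ℝ => t) 1 0 := hasDerivAt_id _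
        exact ((h31.mul_const _).const_add _).add ((h31.pow 2).mul_const _)
      simpa using h3
    have h3 : HasDerivAt (fun t : ℝ => r (p + t • v) ^ 2 * Q (B l') (B l'))
        (2 * r p * fderiv ℝ r p v * Q (B l') (B l')) 0 := by
      have h4 : HasDerivAt (fun t : ℝ => p + t • v) v 0 := by
        have h41 : HasDerivAt (fun t : ℝ => t • v) ((1 : ℝ) • v) 0 :=
          (hasDerivAt_id (0 : ℝ)).smul_const v
        simpa using h41.const_add p
      have h5 : HasDerivAt (fun t : ℝ => r (p + t • v)) (fderiv ℝ r p v) 0 := by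
        have h51 := S.r_diff hp
        have h52 : HasFDerivAt r (fderiv ℝ r p) (p + (0 : ℝ) • v) := by simpa using h51
        exact h52.comp_hasDerivAt (0 : ℝ) h4
      have h6 := (h5.pow 2).mul_const (Q (B l') (B l'))
      simpa using h6
    have h4 : (fun t : ℝ => Q (aff c y y0 (p + t • v)) (aff c y y0 (p + t • v))) =ᶠ[𝓝 0]
        fun t : ℝ => r (p + t • v) ^ 2 * Q (B l') (B l') := by
      have h41 : ContinuousAt (fun t : ℝ => p + t • v) 0 := by fun_prop
      filter_upwards [h41.eventually (S.hT.mem_nhds (by simpa using hp))] with t ht using h1 _ ht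
    have h5 : 2 * Q (affL c y v) (aff c y y0 p) = 2 * r p * fderiv ℝ r p v * Q (B l') (B l') := by
      rw [← h2.deriv, ← h3.deriv, h4.deriv_eq]
    rw [map_sub, LinearMap.sub_apply, map_smul, LinearMap.smul_apply, smul_eq_mul,
      hQ.cl2 (S.hc p hp), hQ.cl12 (S.hc p hp) (S.hc p hp), h1 p hp, rho]
    have h0 := (S.r0 p hp).ne'
    field_simp
    linarith
  · rw [map_sub, LinearMap.sub_apply, map_smul, LinearMap.smul_apply, smul_eq_mul,
      hQ.ort (H p) k l (Ne.symm hl), mul_zero, sub_zero, hQ.cl2 (cl_of_eqv (S.hB p hp l hl)),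
      map_smul, smul_eq_mul, S.Q_B hQ v hp hl, mul_zero]

end Stp

end

end Crest.Agent.R281.Bx_557
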