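import Crest.Agent.R281.Bx5_557

/-!
# Row 281, G9 BOX (second owner helper557), part 6: rotated triples, the first move

* `fr_col`, `lin_rot`, `T11_rot`, `Q_rot`
* `Dat1`       : the data of the first move, `Dat1.exists_y` (representatives), `Dat1.first`
-/

set_option autoImplicit false
set_option maxSynthPendingDepth 3
set_option linter.unusedSectionVars false

open Set Filter Topology
open scoped ContDiff Matrix

namespace Crest.Agent.R281.Bx_557

open Crest.Agent.R260.ACM_580 Crest.Agent.R281.HkR_835 Crest.Agent.R281.Ti_846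
open Crest.Agent.R281.NefO_476 Crest.Agent.R281.Nef_252 Crest.Agent.R281.Dif_268
open Crest.Agent.R281.Alg_998
open Crest.Agent.R281.Sta2_684 (smulP)

noncomputable section

/-- the columns of a frame are orthonormal -/
theorem fr_col {R : Fin 3 → Fin 3 → ℝ} (hR : HkT.Fr R) (j k : Fin 3) :
    R 0 j * R 0 k + R 1 j * R 1 k + R 2 j * R 2 k = if j = k then 1 else 0 := by
  have c0 : R 2 0 = R 0 1 * R 1 2 - R 0 2 * R 1 1 := by rw [hR.crs]; simp
  have c1 : R 2 1 = R 0 2 * R 1 0 - R 0 0 * R 1 2 := by rw [hR.crs]; simp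
  have c2 : R 2 2 = R 0 0 * R 1 1 - R 0 1 * R 1 0 := by rw [hR.crs]; simp
  have r0 := hR.nrm 0
  have r1 := hR.nrm 1
  have r2 := hR.nrm 2
  have r01 := hR.ort
  have r02 : R 0 0 * R 2 0 + R 0 1 * R 2 1 + R 0 2 * R 2 2 = 0 := by
    rw [c0, c1, c2]; ring
  have r12 : R 1 0 * R 2 0 + R 1 1 * R 2 1 + R 1 2 * R 2 2 = 0 := by
    rw [c0, c1, c2]; ring
  have h1 : (Matrix.of R) * (Matrix.of R)ᵀ = 1 := by
    ext a b
    simp only [Matrix.mul_apply, Matrix.transpose_apply, Matrix.of_apply, Fin.sum_univ_three]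
    fin_cases a <;> fin_cases b
    · simpa using r0
    · simpa using r01
    · simpa using r02
    · simp only [Fin.mk_one, Fin.zero_eta]
      rw [Matrix.one_apply_ne (by decide)]
      linarith
    · simpa using r1
    · simpa using r12
    · simp only [Fin.reduceFinMk, Fin.zero_eta]
      rw [Matrix.one_apply_ne (by decide)]
      linarith
    · simp only [Fin.reduceFinMk, Fin.mk_one]
      rw [Matrix.one_apply_ne (by decide)]
      linarith
    · simpa using r2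
  have h2 : (Matrix.of R)ᵀ * (Matrix.of R) = 1 := mul_eq_one_comm.1 h1
  have h3 := congrFun (congrFun h2 j) k
  simp only [Matrix.mul_apply, Matrix.transpose_apply, Matrix.of_apply, Fin.sum_univ_three,
    Matrix.one_apply] at h3
  exact h3

variable {V X : Type} [NormedAddCommGroup V] [NormedSpace ℝ V] [TopologicalSpace X]
  {C : RCh V X} {E : Type} [NormedAddCommGroup E] [NormedSpace ℝ E]

/-- a form of the triple in the rotated triple -/
theorem lin_rot (H : HkT C) {R : Fin 3 → Fin 3 → ℝ} (hR : HkT.Fr R) (x0 x1 x2 : ℝ) :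
    Eqv (x0 • H.om 0 + x1 • H.om 1 + x2 • H.om 2)
      ((x0 * R 0 0 + x1 * R 0 1 + x2 * R 0 2) • (H.rot R hR).om 0 +
        (x0 * R 1 0 + x1 * R 1 1 + x2 * R 1 2) • (H.rot R hR).om 1 +
        (x0 * R 2 0 + x1 * R 2 1 + x2 * R 2 2) • (H.rot R hR).om 2) := by
  intro i z _ u v
  have e : ∀ l, ((H.rot R hR).om l).w i z u v = R l 0 * (H.om 0).w i z u v +
      R l 1 * (H.om 1).w i z u v + R l 2 * (H.om 2).w i z u v := by
    intro l
    rw [HkT.rot_om, lin3_w]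
    rfl
  have c := fr_col hR
  have c00 := c 0 0
  have c11 := c 1 1
  have c22 := c 2 2
  have c01 := c 0 1
  have c02 := c 0 2
  have c12 := c 1 2
  simp only [if_true, Fin.reduceEq, if_false] at c00 c11 c22 c01 c02 c12
  show x0 * (H.om 0).w i z u v + x1 * (H.om 1).w i z u v + x2 * (H.om 2).w i z u v =
    (x0 * R 0 0 + x1 * R 0 1 + x2 * R 0 2) * ((H.rot R hR).om 0).w i z u v +
    (x0 * R 1 0 + x1 * R 1 1 + x2 * R 1 2) * ((H.rot R hR).om 1).w i z u v +
    (x0 * R 2 0 + x1 * R 2 1 + x2 * R 2 2) * ((H.rot R hR).om 2).w i z u v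
  rw [e, e, e]
  linear_combination (-(x0 * (H.om 0).w i z u v)) * c00 + (-(x1 * (H.om 1).w i z u v)) * c11 +
    (-(x2 * (H.om 2).w i z u v)) * c22 +
    (-(x0 * (H.om 1).w i z u v + x1 * (H.om 0).w i z u v)) * c01 +
    (-(x0 * (H.om 2).w i z u v + x2 * (H.om 0).w i z u v)) * c02 +
    (-(x1 * (H.om 2).w i z u v + x2 * (H.om 1).w i z u v)) * c12

/-- a form invariant under `J 0, J 1, J 2` is invariant under the rotated structures -/
theorem T11_rot (H : HkT C) {R : Fin 3 → Fin 3 → ℝ} (hR : HkT.Fr R) {w : F2 C}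
    (h : ∀ l, T11 (ofHk H l) w) (l : Fin 3) : T11 (ofHk (H.rot R hR) l) w := by
  intro i z hz u v
  show w.w i z (H.Jv (R l) i z u) (H.Jv (R l) i z v) = w.w i z u v
  have h00 : ∀ k u v, w.w i z (H.J k i z u) (H.J k i z v) = w.w i z u v := fun k u v =>
    h k i z hz u v
  have h01 : ∀ u v, w.w i z (H.J 0 i z u) (H.J 1 i z v) = -w.w i z (H.J 1 i z u) (H.J 0 i z v) := by
    intro u v
    have e1 := h00 0 (H.J 0 i z u) (H.J 1 i z v)
    have e2 := h00 1 (H.J 1 i z u) (H.J 0 i z v)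
    rw [H.J_sq 0 i z hz, H.J_01 i z hz] at e1
    rw [H.J_sq 1 i z hz, H.J_10 hz] at e2
    simp only [map_neg, neg_apply, neg_neg] at e1 e2
    linarith
  have h02 : ∀ u v, w.w i z (H.J 0 i z u) (H.J 2 i z v) = -w.w i z (H.J 2 i z u) (H.J 0 i z v) := by
    intro u v
    have e1 := h00 0 (H.J 0 i z u) (H.J 2 i z v)
    have e2 := h00 2 (H.J 2 i z u) (H.J 0 i z v)
    rw [H.J_sq 0 i z hz, H.J_02 hz] at e1
    rw [H.J_sq 2 i z hz, H.J_20 hz] at e2
    simp only [map_neg, neg_apply, neg_neg] at e1 e2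
    linarith
  have h12 : ∀ u v, w.w i z (H.J 1 i z u) (H.J 2 i z v) = -w.w i z (H.J 2 i z u) (H.J 1 i z v) := by
    intro u v
    have e1 := h00 1 (H.J 1 i z u) (H.J 2 i z v)
    have e2 := h00 2 (H.J 2 i z u) (H.J 1 i z v)
    rw [H.J_sq 1 i z hz, H.J_12 hz] at e1
    rw [H.J_sq 2 i z hz, H.J_21 hz] at e2
    simp only [map_neg, neg_apply, neg_neg] at e1 e2
    linarith
  have hn := hR.nrm l
  rw [HkT.Jv_apply, HkT.Jv_apply]
  simp only [map_add, map_smul, add_apply, smul_apply, smul_eq_mul, h00]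
  rw [h01 u v, h02 u v, h12 u v]
  linear_combination (w.w i z u v) * hn

theorem rot_cl {H : HkT C} {R : Fin 3 → Fin 3 → ℝ} (hR : HkT.Fr R) (l : Fin 3) :
    (H.rot R hR).om l = R l 0 • H.om 0 + R l 1 • H.om 1 + R l 2 • H.om 2 := by
  rw [HkT.rot_om]
  ext1
  funext i z
  rw [lin3_w]
  rfl

/-- rotation preserves the square -/
theorem Q_rot {Q : F2 C →ₗ[ℝ] F2 C →ₗ[ℝ] ℝ} (hQ : QD Q) (H : HkT C) {R : Fin 3 → Fin 3 → ℝ}
    (hR : HkT.Fr R) (l : Fin 3) :
    Q ((H.rot R hR).om l) ((H.rot R hR).om l) = Q (H.om 0) (H.om 0) := by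
  rw [rot_cl]
  simp only [map_add, map_smul, LinearMap.add_apply, LinearMap.smul_apply, smul_eq_mul]
  rw [hQ.ort H 0 1 (by decide), hQ.ort H 0 2 (by decide), hQ.ort H 1 0 (by decide),
    hQ.ort H 1 2 (by decide), hQ.ort H 2 0 (by decide), hQ.ort H 2 1 (by decide), hQ.eq H 1,
    hQ.eq H 2]
  linear_combination (Q (H.om 0) (H.om 0)) * (hR.nrm l)

/-- sums of classes -/
theorem cl_sum {κ : Type} [Fintype κ] {a : κ → ℝ} {x x' : κ → F2 C} (h : ∀ j, Cl (x j) (x' j)) :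
    Cl (∑ j, a j • x j) (∑ j, a j • x' j) := by
  have h1 : ∑ j, a j • x j - ∑ j, a j • x' j ∈ exS C := by
    rw [← Finset.sum_sub_distrib]
    refine Submodule.sum_mem _ fun j _ => ?_
    rw [← smul_sub]
    exact Submodule.smul_mem _ _ (h j)
  exact h1

/-! ### the first move -/

/-- coordinate functionals -/
def pj (m : ℕ) (j : Fin m) : (Fin m → ℝ) →L[ℝ] ℝ := ContinuousLinearMap.proj j

/-- linear combinations of the basis -/
def lcb {m : ℕ} (bas : Fin m → F2 C) (b : Fin m → ℝ) : F2 C := ∑ j, b j • bas j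

theorem affL_pj {m : ℕ} (y : Fin m → F2 C) (b : Fin m → ℝ) : affL (pj m) y b = lcb y b := rfl

theorem lcb_sub {m : ℕ} (bas : Fin m → F2 C) (b b' : Fin m → ℝ) :
    lcb bas (b - b') = lcb bas b - lcb bas b' := by
  simp only [lcb, Pi.sub_apply, sub_smul, Finset.sum_sub_distrib]

/-- linear functional with coefficients `a` -/
def lf {m : ℕ} (a : Fin m → ℝ) (b : Fin m → ℝ) : ℝ := ∑ j, b j * a j

theorem lf_sub {m : ℕ} (a b b' : Fin m → ℝ) : lf a (b - b') = lf a b - lf a b' := by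
  simp only [lf, Pi.sub_apply, sub_mul, Finset.sum_sub_distrib]

theorem lf_sm {m : ℕ} (a : Fin m → ℝ) : ContDiff ℝ ∞ (lf a) := by
  unfold lf
  exact ContDiff.sum fun j _ => (contDiff_apply ℝ ℝ j).mul contDiff_const

/-- the data of the first move -/
structure Dat1 (Q : F2 C →ₗ[ℝ] F2 C →ₗ[ℝ] ℝ) (H0 : HkT C) {m : ℕ} (bas : Fin m → F2 C)
    (b0 c0 : Fin m → ℝ) (al ga : Fin m → ℝ) (y : Fin m → F2 C) : Prop where
  hQ : QD Q
  q0 : 0 < Q (H0.om 0) (H0.om 0)
  hb0 : Cl (lcb bas b0) (H0.om 1)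
  hc0 : Cl (lcb bas c0) (H0.om 2)
  hal : ∀ j, al j * Q (H0.om 0) (H0.om 0) = Q (bas j) (H0.om 0)
  hga : ∀ j, ga j * Q (H0.om 0) (H0.om 0) = Q (bas j) (H0.om 2)
  y11 : ∀ j, T11 (ofHk H0 1) (y j)
  ycl : ∀ j, Cl (y j) (bas j - al j • H0.om 0 - ga j • H0.om 2)

/-- the representatives exist -/
theorem Dat1.exists_y {Q : F2 C →ₗ[ℝ] F2 C →ₗ[ℝ] ℝ} (hQ : QD Q) {H0 : HkT C}
    (q0 : 0 < Q (H0.om 0) (H0.om 0))
    (ht : ∀ H : HkT C, 0 < Q (H.om 0) (H.om 0) → ∀ x : F2 C, Q x (H.om 1) = 0 →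
      Q x (H.om 2) = 0 → ∃ y, Cl y x ∧ T11 (ofHk H 0) y) {m : ℕ} {bas : Fin m → F2 C}
    {b0 c0 : Fin m → ℝ} (hb0 : Cl (lcb bas b0) (H0.om 1)) (hc0 : Cl (lcb bas c0) (H0.om 2)) :
    ∃ (al ga : Fin m → ℝ) (y : Fin m → F2 C), Dat1 Q H0 bas b0 c0 al ga y := by
  have c0' : Cl ((H0.cyc 1).om 0) (H0.om 1) := cl_of_eqv (cyc_om H0 1 0)
  have c1' : Cl ((H0.cyc 1).om 1) (H0.om 2) := cl_of_eqv (cyc_om H0 1 1)
  have c2' : Cl ((H0.cyc 1).om 2) (H0.om 0) := cl_of_eqv (cyc_om H0 1 2)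
  have hq : 0 < Q ((H0.cyc 1).om 0) ((H0.cyc 1).om 0) := by
    rw [hQ.cl12 c0' c0', hQ.eq H0 1]
    exact q0
  set q := Q (H0.om 0) (H0.om 0) with hqd
  have hx : ∀ j, ∃ y, Cl y (bas j - (Q (bas j) (H0.om 0) / q) • H0.om 0 -
      (Q (bas j) (H0.om 2) / q) • H0.om 2) ∧ T11 (ofHk (H0.cyc 1) 0) y := by
    intro j
    refine ht (H0.cyc 1) hq _ ?_ ?_
    · rw [hQ.cl2 c1']
      simp only [map_sub, map_smul, LinearMap.sub_apply, LinearMap.smul_apply, smul_eq_mul]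
      rw [hQ.ort H0 0 2 (by decide), hQ.eq H0 2, ← hqd]
      field_simp
      ring
    · rw [hQ.cl2 c2']
      simp only [map_sub, map_smul, LinearMap.sub_apply, LinearMap.smul_apply, smul_eq_mul]
      rw [hQ.ort H0 2 0 (by decide), ← hqd]
      field_simp
      ring
  choose y hy1 hy2 using hx
  refine ⟨fun j => Q (bas j) (H0.om 0) / q, fun j => Q (bas j) (H0.om 2) / q, y, hQ, q0, hb0, hc0,
    fun j => ?_, fun j => ?_, fun j i z hz u v => ?_, hy1⟩
  · rw [← hqd]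
    field_simp
  · rw [← hqd]
    field_simp
  · have h := hy2 j i z hz u v
    have e : ∀ v, (ofHk (H0.cyc 1) 0).J i z v = (ofHk H0 1).J i z v := by
      intro v
      show (H0.cyc 1).J 0 i z v = H0.J 1 i z v
      rw [cyc_J]
      rfl
    rw [e, e] at h
    exact h

namespace Dat1

variable {Q : F2 C →ₗ[ℝ] F2 C →ₗ[ℝ] ℝ} {H0 : HkT C} {m : ℕ} {bas : Fin m → F2 C}
  {b0 c0 : Fin m → ℝ} {al ga : Fin m → ℝ} {y : Fin m → F2 C}
  (D : Dat1 Q H0 bas b0 c0 al ga y)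

include D

theorem lf_al (b : Fin m → ℝ) :
    lf al b * Q (H0.om 0) (H0.om 0) = Q (lcb bas b) (H0.om 0) := by
  simp only [lf, lcb, Finset.sum_mul, map_sum, map_smul, LinearMap.sum_apply,
    LinearMap.smul_apply, smul_eq_mul]
  exact Finset.sum_congr rfl fun j _ => by rw [mul_assoc, D.hal j]

theorem lf_ga (b : Fin m → ℝ) :
    lf ga b * Q (H0.om 0) (H0.om 0) = Q (lcb bas b) (H0.om 2) := by
  simp only [lf, lcb, Finset.sum_mul, map_sum, map_smul, LinearMap.sum_apply,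
    LinearMap.smul_apply, smul_eq_mul]
  exact Finset.sum_congr rfl fun j _ => by rw [mul_assoc, D.hga j]

theorem al_b0 : lf al b0 = 0 := by
  have h := D.lf_al b0
  rw [D.hQ.cl1 D.hb0, D.hQ.ort H0 1 0 (by decide)] at h
  exact (mul_eq_zero.1 h).resolve_right D.q0.ne'

theorem ga_b0 : lf ga b0 = 0 := by
  have h := D.lf_ga b0
  rw [D.hQ.cl1 D.hb0, D.hQ.ort H0 1 2 (by decide)] at h
  exact (mul_eq_zero.1 h).resolve_right D.q0.ne'

theorem cl_y (b : Fin m → ℝ) :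
    Cl (affL (pj m) y b) (lcb bas b - lf al b • H0.om 0 - lf ga b • H0.om 2) := by
  have h := cl_sum (a := b) D.ycl
  have e : ∑ j, b j • (bas j - al j • H0.om 0 - ga j • H0.om 2) =
      lcb bas b - lf al b • H0.om 0 - lf ga b • H0.om 2 := by
    simp only [lcb, lf, smul_sub, Finset.sum_sub_distrib, smul_smul, Finset.sum_smul]
  rw [e] at h
  exact h

/-- the constant term -/
def y0 (_ : Dat1 Q H0 bas b0 c0 al ga y) : F2 C := H0.om 1 - affL (pj m) y b0

theorem cl_y0 : Cl D.y0 0 := by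
  have h1 := D.cl_y b0
  rw [D.al_b0, D.ga_b0, zero_smul, zero_smul, sub_zero, sub_zero] at h1
  have h2 : Ex (H0.om 1 - affL (pj m) y b0) := (h1.trans D.hb0).symm
  show Ex (D.y0 - 0)
  rw [sub_zero]
  exact h2

theorem aff_b0 : aff (pj m) y D.y0 b0 = H0.om 1 := by
  have h : aff (pj m) y D.y0 b0 = affL (pj m) y b0 + (H0.om 1 - affL (pj m) y b0) := rfl
  rw [h]
  abel

theorem cl_aff (b : Fin m → ℝ) :
    Cl (aff (pj m) y D.y0 b) (lcb bas b - lf al b • H0.om 0 - lf ga b • H0.om 2) := by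
  have h := Cl.add (D.cl_y b) D.cl_y0
  rw [add_zero] at h
  exact h

theorem t11_aff (b : Fin m → ℝ) : T11 (ofHk H0 1) (aff (pj m) y D.y0 b) := by
  have h : ∀ b, T11 (ofHk H0 1) (affL (pj m) y b) := by
    intro b i z hz u v
    have e : ∀ u v, (affL (pj m) y b).w i z u v = ∑ j, b j * (y j).w i z u v := by
      intro u v
      rw [affL, F2.sum_w]
      simp [sum_apply, pj]
    rw [e, e]
    exact Finset.sum_congr rfl fun j _ => by rw [D.y11 j i z hz u v]
  exact T11.add (h b) (T11.sub (T11_hk H0 1) (h b0))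

/-- **the first move** -/
theorem first [FiniteDimensional ℝ V] [CompactSpace X] (hM : MoveFam C Q) :
    ∃ (T : Set (Fin m → ℝ)) (G : (Fin m → ℝ) → HkT C) (r : (Fin m → ℝ) → ℝ), b0 ∈ T ∧
      Stp 1 T G r (ofHk H0 1) H0.om (pj m) y D.y0 ∧ HEqv (G b0) H0 := by
  have h1 : ∀ᶠ b in 𝓝 b0, Pos (ofHk H0 1) (aff (pj m) y D.y0 b) := by
    refine ev_pos (J := fun _ => ofHk H0 1) isOpen_univ (fun i => ?_) (aff_sm _) (mem_univ _) ?_
    · exact (H0.J_sm 1 i).comp contDiff_snd.contDiffOn fun _ hq => hq.2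
    · rw [D.aff_b0]
      exact Pos_hk H0 1
  have h2 : ∀ᶠ b in 𝓝 b0, 0 < Q (aff (pj m) y D.y0 b) (aff (pj m) y D.y0 b) := by
    have hc : Continuous fun b : Fin m → ℝ =>
        Q (aff (pj m) y D.y0 b) (aff (pj m) y D.y0 b) := by
      simp only [aff, map_add, map_sum, map_smul, LinearMap.add_apply, LinearMap.sum_apply,
        LinearMap.smul_apply, smul_eq_mul]
      have hp : ∀ j, Continuous fun b : Fin m → ℝ => (pj m j) b := fun j => (pj m j).continuous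
      fun_prop
    refine hc.continuousAt.eventually (lt_mem_nhds ?_)
    show 0 < Q (aff (pj m) y D.y0 b0) (aff (pj m) y D.y0 b0)
    rw [D.aff_b0, D.hQ.eq H0 1]
    exact D.q0
  obtain ⟨T, hTs, hT, hb⟩ := eventually_nhds_iff.1 (h1.and h2)
  have hH : SmHk T fun _ : Fin m → ℝ => H0 :=
    ⟨fun k => SmF.const T _, fun k i => (H0.J_sm k i).comp contDiff_snd.contDiffOn
      fun _ hq => hq.2⟩
  obtain ⟨G, r, hG, hr, h⟩ := moveFam_k hM 1 hT hH (fun p _ => by
      have c0' : Cl ((H0.cyc 1).om 0) (H0.om 1) := cl_of_eqv (cyc_om H0 1 0)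
      rw [D.hQ.cl12 c0' c0', D.hQ.eq H0 1]
      exact D.q0) (aff_sm (c := pj m) (y := y) (y0 := D.y0) T) (fun p _ => D.t11_aff p)
      (fun p hp => (hTs p hp).1) (fun p hp => (hTs p hp).2)
  refine ⟨T, G, r, hb, ⟨hT, hG, hr, fun p hp => (h p hp).1, fun p hp i z hz u =>
    (h p hp).2.1 i z hz u, fun p hp l hl => (h p hp).2.2.1 l hl, fun p hp => (h p hp).2.2.2.1⟩, ?_⟩
  have h3 := (h b0 hb).2.2.2.2 1 one_pos (by
    rw [D.aff_b0, one_smul]
    exact fun i z hz u v => rfl)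
  exact h3.trans (smulP_one H0)

end Dat1

end

end Crest.Agent.R281.Bx_557
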