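import Crest.Agent.R281.Bx6_557

/-!
# Row 281, G9 BOX (helper557), part 7: the second move

* `Dat2`  : the output of the first move
* `L b`   : the rotated structure, `yy l b c`: coefficients, `w2 b c`: the Kaehler form
* `second`: the second move over a product of balls
-/

set_option autoImplicit false
set_option maxSynthPendingDepth 3
set_option linter.unusedSectionVars false

open Set Filter Topology
open scoped ContDiff Matrix

namespace Crest.Agent.R281.Bx_557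

open Crest.Agent.R260.ACM_580 Crest.Agent.R281.HkR_835 Crest.Agent.R281.Ti_846
open Crest.Agent.R281.NefO_476 Crest.Agent.R281.Nef_252 Crest.Agent.R281.Dif_268
open Crest.Agent.R281.Alg_998
open Crest.Agent.R281.Sta2_684 (smulP)

noncomputable section

variable {V X : Type} [NormedAddCommGroup V] [NormedSpace ℝ V] [TopologicalSpace X]
  {C : RCh V X} {E : Type} [NormedAddCommGroup E] [NormedSpace ℝ E]

/-- derivative of a slice -/
theorem dw_slice {T : Set (E × E)} (hT : IsOpen T) {w : E × E → F2 C} (hw : SmF T w) {b c : E}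
    (h : (b, c) ∈ T) {D : Set E} (hD : IsOpen D) (hw' : SmF D fun c => w (b, c)) (hc : c ∈ D)
    {i : C.ι} {z : V} (hz : z ∈ (C.e i).target) (v : E) :
    dw w (0, v) (b, c) i z = dw (fun c => w (b, c)) v c i z := by
  ext a a'
  have h1 := dw_has hT hw h hz a a'
  have h2 := dw_has hD hw' hc hz a a'
  have h3 := HasFDerivAt.comp (g := fun p' : E × E => (w p').w i z a a')
    (f := fun c' : E => (b, c')) c h1 (hasFDerivAt_prodMk_right b c)
  have h4 := h2.unique h3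
  have h5 := congrArg (fun L : E →L[ℝ] ℝ => L v) h4
  have e1 : dw w (0, v) (b, c) i z a a' = fderiv ℝ (fun p' => (w p').w i z a a') (b, c) (0, v) :=
    (fderiv_w hT hw h hz (0, v) a a').symm
  have e2 : dw (fun c => w (b, c)) v c i z a a' =
      fderiv ℝ (fun c' => (w (b, c')).w i z a a') c v :=
    (fderiv_w hD hw' hc hz v a a').symm
  rw [e1, e2, h1.fderiv, h2.fderiv]
  simpa using h5.symm

namespace Stp

variable {κ : Type} [Fintype κ] {k : Fin 3} {T : Set E} {H : E → HkT C} {r : E → ℝ}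
  {J0 : AJ C} {B : Fin 3 → F2 C} {c : κ → E →L[ℝ] ℝ} {y : κ → F2 C} {y0 : F2 C}
  (S : Stp k T H r J0 B c y y0)

include S

theorem psi_w {v p : E} (hp : p ∈ T) (i : C.ι) (z : V) :
    (S.psi v p).w i z = r p • dw (fun p => (r p)⁻¹ • (H p).om k) v p i z := by
  show r p • (dF T S.hT (fun p => (r p)⁻¹ • (H p).om k) S.hm v p).w i z = _
  rw [dF_w hp]

theorem psi_zero {p : E} (hp : p ∈ T) (i : C.ι) (z : V) : (S.psi 0 p).w i z = 0 := by
  rw [S.psi_w hp]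
  have : dw (fun p => (r p)⁻¹ • (H p).om k) 0 p i z = 0 := by
    show fderiv ℝ _ (p, z) ((0 : E), (0 : V)) = 0
    have e : (((0 : E), (0 : V)) : E × V) = 0 := rfl
    rw [e, map_zero]
  rw [this, smul_zero]

end Stp

/-- `lf` as a continuous functional -/
def lfL {m : ℕ} (a : Fin m → ℝ) : (Fin m → ℝ) →L[ℝ] ℝ := ∑ j, a j • pj m j

theorem lfL_apply {m : ℕ} (a b : Fin m → ℝ) : lfL a b = lf a b := by
  simp [lfL, lf, pj, sum_apply, mul_comm]

/-- the output of the first move -/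
structure Dat2 (Q : F2 C →ₗ[ℝ] F2 C →ₗ[ℝ] ℝ) (H0 : HkT C) {m : ℕ} (bas : Fin m → F2 C)
    (b0 c0 : Fin m → ℝ) (al ga : Fin m → ℝ) (y : Fin m → F2 C) (y0 : F2 C)
    (T : Set (Fin m → ℝ)) (G : (Fin m → ℝ) → HkT C) (r : (Fin m → ℝ) → ℝ) : Prop where
  D : Dat1 Q H0 bas b0 c0 al ga y
  S : Stp 1 T G r (ofHk H0 1) H0.om (pj m) y y0
  hy0 : y0 = D.y0
  hb : b0 ∈ T
  hG : HEqv (G b0) H0

namespace Dat2

variable {Q : F2 C →ₗ[ℝ] F2 C →ₗ[ℝ] ℝ} {H0 : HkT C} {m : ℕ} {bas : Fin m → F2 C}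
  {b0 c0 : Fin m → ℝ} {al ga : Fin m → ℝ} {y : Fin m → F2 C} {y0 : F2 C}
  {T : Set (Fin m → ℝ)} {G : (Fin m → ℝ) → HkT C} {r : (Fin m → ℝ) → ℝ}
  (Z : Dat2 Q H0 bas b0 c0 al ga y y0 T G r)

/-- the frame -/
def R (_ : Dat2 Q H0 bas b0 c0 al ga y y0 T G r) (b : Fin m → ℝ) : Fin 3 → Fin 3 → ℝ :=
  frA (lf al b / r b) (lf ga b / r b)

/-- the base of the second move -/
def L (b : Fin m → ℝ) : HkT C := (G b).rot (Z.R b) (frA_fr _ _)

/-- linear part of the coefficients -/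
def Al (l : Fin 3) (b : Fin m → ℝ) : (Fin m → ℝ) →L[ℝ] ℝ :=
  ((r b)⁻¹ * Z.R b l 0) • lfL al + ((r b)⁻¹ * Z.R b l 1) • fderiv ℝ r b +
    ((r b)⁻¹ * Z.R b l 2) • lfL ga

/-- the coefficients -/
def yy (l : Fin 3) (b c : Fin m → ℝ) : ℝ := Z.Al l b (c - c0) + (r b)⁻¹ * Z.R b l 2

/-- the Kaehler form of the second move -/
def w2 (b c : Fin m → ℝ) : F2 C := Z.S.psi (c - c0) b + Z.yy 2 b c • (Z.L b).om 2

include Z

theorem al_b0 : lf al b0 = 0 := Z.D.al_b0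
theorem ga_b0 : lf ga b0 = 0 := Z.D.ga_b0

theorem be0_sm : ContDiffOn ℝ ∞ (fun b => lf al b / r b) T :=
  (lf_sm al).contDiffOn.div Z.S.hr fun p hp => (Z.S.r0 p hp).ne'

theorem be2_sm : ContDiffOn ℝ ∞ (fun b => lf ga b / r b) T :=
  (lf_sm ga).contDiffOn.div Z.S.hr fun p hp => (Z.S.r0 p hp).ne'

theorem R_sm (k l : Fin 3) : ContDiffOn ℝ ∞ (fun b => Z.R b k l) T := frA_sm Z.be0_sm Z.be2_sm k l

theorem L_sm : SmHk T Z.L :=
  Z.S.hH.rot (R := Z.R) (fun b => frA_fr (lf al b / r b) (lf ga b / r b)) Z.R_sm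

theorem yy_sm (l : Fin 3) : ContDiffOn ℝ ∞ (fun p : (Fin m → ℝ) × (Fin m → ℝ) =>
    Z.yy l p.1 p.2) (T ×ˢ univ) := by
  have hf : MapsTo (Prod.fst : (Fin m → ℝ) × (Fin m → ℝ) → _) (T ×ˢ univ) T := fun p hp => hp.1
  have hr : ContDiffOn ℝ ∞ (fun p : (Fin m → ℝ) × (Fin m → ℝ) => (r p.1)⁻¹) (T ×ˢ univ) :=
    (Z.S.hr.comp contDiff_fst.contDiffOn hf).inv fun p hp => (Z.S.r0 p.1 hp.1).ne'
  have hR : ∀ k, ContDiffOn ℝ ∞ (fun p : (Fin m → ℝ) × (Fin m → ℝ) => Z.R p.1 l k)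
      (T ×ˢ univ) := fun k => (Z.R_sm l k).comp contDiff_fst.contDiffOn hf
  have hd : ContDiffOn ℝ ∞ (fun p : (Fin m → ℝ) × (Fin m → ℝ) => p.2 - c0) (T ×ˢ univ) :=
    (contDiff_snd.sub contDiff_const).contDiffOn
  have hfd : ContDiffOn ℝ ∞ (fun p : (Fin m → ℝ) × (Fin m → ℝ) => fderiv ℝ r p.1 (p.2 - c0))
      (T ×ˢ univ) :=
    ((Z.S.hr.fderiv_of_isOpen Z.S.hT (by simp)).comp contDiff_fst.contDiffOn hf).clm_apply hd
  have h1 : ∀ a : Fin m → ℝ, ContDiffOn ℝ ∞ (fun p : (Fin m → ℝ) × (Fin m → ℝ) =>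
      lfL a (p.2 - c0)) (T ×ˢ univ) := fun a => (lfL a).contDiff.comp_contDiffOn hd
  exact (((((hr.mul (hR 0)).smul (h1 al)).add ((hr.mul (hR 1)).smul hfd)).add
    ((hr.mul (hR 2)).smul (h1 ga))).add (hr.mul (hR 2)))

theorem w2_sm : SmF (T ×ˢ univ) fun p : (Fin m → ℝ) × (Fin m → ℝ) => Z.w2 p.1 p.2 := by
  have hf : MapsTo (Prod.fst : (Fin m → ℝ) × (Fin m → ℝ) → _) (T ×ˢ univ) T := fun p hp => hp.1
  have h1 : SmF (T ×ˢ (univ : Set (Fin m → ℝ))) fun q : (Fin m → ℝ) × (Fin m → ℝ) =>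
      Z.S.psi (q.2 - c0) q.1 :=
    Z.S.psi_sm (p := Prod.fst) (v := fun q : (Fin m → ℝ) × (Fin m → ℝ) => q.2 - c0)
      contDiff_fst.contDiffOn (contDiff_snd.sub contDiff_const).contDiffOn hf
  have h2 : SmHk (T ×ˢ (univ : Set (Fin m → ℝ))) fun q : (Fin m → ℝ) × (Fin m → ℝ) => Z.L q.1 :=
    Z.L_sm.comp (p := Prod.fst) contDiff_fst.contDiffOn hf
  exact h1.add ((h2.om 2).smul (Z.yy_sm 2))

theorem psi_L (v : Fin m → ℝ) {b : Fin m → ℝ} (hb : b ∈ T) (l : Fin 3) :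
    T11 (ofHk (Z.L b) l) (Z.S.psi v b) :=
  T11_rot (G b) (frA_fr _ _) (fun l => Z.S.psi_T11 v hb l) l

theorem w2_T11 {b : Fin m → ℝ} (hb : b ∈ T) (c : Fin m → ℝ) :
    T11 (ofHk (Z.L b) 2) (Z.w2 b c) :=
  T11.add (Z.psi_L _ hb 2) (T11.smul _ (T11_hk _ 2))

theorem yy_c0 (b : Fin m → ℝ) (l : Fin 3) : Z.yy l b c0 = (r b)⁻¹ * Z.R b l 2 := by
  rw [yy, sub_self, map_zero, zero_add]

theorem yy2_pos {b : Fin m → ℝ} (hb : b ∈ T) : 0 < Z.yy 2 b c0 := by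
  rw [Z.yy_c0]
  refine mul_pos (inv_pos.2 (Z.S.r0 b hb)) ?_
  show 0 < frA _ _ 2 2
  simp only [frA, Matrix.cons_val]
  positivity

theorem w2_c0 {b : Fin m → ℝ} (hb : b ∈ T) :
    Eqv (Z.w2 b c0) (Z.yy 2 b c0 • (Z.L b).om 2) := by
  intro i z hz u v
  have h1 : (Z.w2 b c0).w i z = (Z.S.psi (c0 - c0) b).w i z + Z.yy 2 b c0 • ((Z.L b).om 2).w i z :=
    rfl
  rw [h1, sub_self, Z.S.psi_zero hb, zero_add]
  rfl

variable [FiniteDimensional ℝ V] [CompactSpace X] [T2Space X]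

/-- the forms of `G b` -/
theorem cl_G1 {b : Fin m → ℝ} (hb : b ∈ T) : Cl ((G b).om 1)
    (lcb bas b - lf al b • H0.om 0 - lf ga b • H0.om 2) := by
  have h := Z.S.hc b hb
  rw [Z.hy0] at h
  exact h.trans (Z.D.cl_aff b)

theorem cl_H0 {b : Fin m → ℝ} (hb : b ∈ T) {l : Fin 3} (hl : l ≠ 1) :
    Cl (H0.om l) ((r b)⁻¹ • (G b).om l) := by
  have h1 := (cl_of_eqv (Z.S.hB b hb l hl)).smul (r b)⁻¹
  rw [smul_smul, inv_mul_cancel₀ (Z.S.r0 b hb).ne', one_smul] at h1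
  exact h1.symm

/-- `lc b` is a positive multiple of `om 1` of `L b` -/
theorem cl_lcb {b : Fin m → ℝ} (hb : b ∈ T) :
    Cl ((Z.L b).om 1) ((√(1 + (lf al b / r b) ^ 2 + (lf ga b / r b) ^ 2))⁻¹ • lcb bas b) := by
  have h0 := (Z.S.r0 b hb).ne'
  have h1 : (Z.L b).om 1 = Z.R b 1 0 • (G b).om 0 + Z.R b 1 1 • (G b).om 1 +
      Z.R b 1 2 • (G b).om 2 := rot_cl _ 1
  have h2 : Cl ((Z.L b).om 1) (Z.R b 1 0 • (r b • H0.om 0) +
      Z.R b 1 1 • (lcb bas b - lf al b • H0.om 0 - lf ga b • H0.om 2) +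
      Z.R b 1 2 • (r b • H0.om 2)) := by
    rw [h1]
    exact Cl.add (Cl.add ((cl_of_eqv (Z.S.hB b hb 0 (by decide))).smul _) ((Z.cl_G1 hb).smul _))
      ((cl_of_eqv (Z.S.hB b hb 2 (by decide))).smul _)
  have h3 : Z.R b 1 0 • (r b • H0.om 0) +
      Z.R b 1 1 • (lcb bas b - lf al b • H0.om 0 - lf ga b • H0.om 2) +
      Z.R b 1 2 • (r b • H0.om 2) =
      (√(1 + (lf al b / r b) ^ 2 + (lf ga b / r b) ^ 2))⁻¹ • lcb bas b := by
    set n := √(1 + (lf al b / r b) ^ 2 + (lf ga b / r b) ^ 2) with hn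
    have hn0 : n ≠ 0 := by positivity
    have e0 : Z.R b 1 0 = (lf al b / r b) / n := by simp [R, frA, hn]
    have e1 : Z.R b 1 1 = n⁻¹ := by simp [R, frA, hn]
    have e2 : Z.R b 1 2 = (lf ga b / r b) / n := by simp [R, frA, hn]
    rw [e0, e1, e2, smul_sub, smul_sub, smul_smul, smul_smul, smul_smul, smul_smul]
    have f0 : lf al b / r b / n * r b = n⁻¹ * lf al b := by field_simp
    have f2 : lf ga b / r b / n * r b = n⁻¹ * lf ga b := by field_simp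
    rw [f0, f2]
    abel
  rw [h3] at h2
  exact h2

/-- `om 0` of `L b` -/
theorem cl_L0 {b : Fin m → ℝ} (hb : b ∈ T) : ∃ s t : ℝ, 0 < s ∧
    Cl ((Z.L b).om 0) (s • H0.om 0 + t • lcb bas b) := by
  have h0 := (Z.S.r0 b hb).ne'
  have h1 : (Z.L b).om 0 = Z.R b 0 0 • (G b).om 0 + Z.R b 0 1 • (G b).om 1 +
      Z.R b 0 2 • (G b).om 2 := rot_cl _ 0
  have h2 : Cl ((Z.L b).om 0) (Z.R b 0 0 • (r b • H0.om 0) +
      Z.R b 0 1 • (lcb bas b - lf al b • H0.om 0 - lf ga b • H0.om 2) +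
      Z.R b 0 2 • (r b • H0.om 2)) := by
    rw [h1]
    exact Cl.add (Cl.add ((cl_of_eqv (Z.S.hB b hb 0 (by decide))).smul _) ((Z.cl_G1 hb).smul _))
      ((cl_of_eqv (Z.S.hB b hb 2 (by decide))).smul _)
  set n := √(1 + (lf al b / r b) ^ 2 + (lf ga b / r b) ^ 2) with hn
  set k := √(1 + (lf ga b / r b) ^ 2) with hk
  have hn0 : 0 < n := by positivity
  have hk0 : 0 < k := by positivity
  have hn2 : n ^ 2 = 1 + (lf al b / r b) ^ 2 + (lf ga b / r b) ^ 2 := Real.sq_sqrt (by positivity)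
  refine ⟨r b * n / k, Z.R b 0 1, by have := Z.S.r0 b hb; positivity, ?_⟩
  have h3 : Z.R b 0 0 • (r b • H0.om 0) +
      Z.R b 0 1 • (lcb bas b - lf al b • H0.om 0 - lf ga b • H0.om 2) +
      Z.R b 0 2 • (r b • H0.om 2) = (r b * n / k) • H0.om 0 + Z.R b 0 1 • lcb bas b := by
    have e0 : Z.R b 0 0 = (1 + (lf ga b / r b) ^ 2) / (k * n) := by simp [R, frA, hn, hk]
    have e1 : Z.R b 0 1 = -(lf al b / r b) / (k * n) := by simp [R, frA, hn, hk]
    have e2 : Z.R b 0 2 = -((lf al b / r b) * (lf ga b / r b)) / (k * n) := by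
      simp [R, frA, hn, hk]
    rw [smul_sub, smul_sub, smul_smul, smul_smul, smul_smul, smul_smul]
    have f0 : Z.R b 0 0 * r b - Z.R b 0 1 * lf al b = r b * n / k := by
      rw [e0, e1]
      have f1 : (1 + (lf ga b / r b) ^ 2) / (k * n) * r b - -(lf al b / r b) / (k * n) * lf al b =
          r b * (1 + (lf al b / r b) ^ 2 + (lf ga b / r b) ^ 2) / (k * n) := by
        field_simp
        ring
      rw [f1, ← hn2]
      field_simp
    have f2 : Z.R b 0 2 * r b = Z.R b 0 1 * lf ga b := by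
      rw [e1, e2]
      field_simp
    rw [← f0, sub_smul, f2]
    abel
  rw [h3] at h2
  exact h2

/-- **the class of `lc c`** -/
theorem cl_lcc {b : Fin m → ℝ} (hb : b ∈ T) (c : Fin m → ℝ) :
    Cl (lcb bas c) (Z.S.psi (c - c0) b + (Z.yy 0 b c • (Z.L b).om 0 + Z.yy 1 b c • (Z.L b).om 1 +
      Z.yy 2 b c • (Z.L b).om 2)) := by
  have h0 := (Z.S.r0 b hb).ne'
  set v := c - c0 with hv
  have h1 := Z.S.cl v hb
  have h2 := Z.D.cl_y v
  -- `lc v`
  have h3 : Cl (lcb bas v) (Z.S.psi v b + Z.S.rho v b • (G b).om 1 + lf al v • H0.om 0 +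
      lf ga v • H0.om 2) := by
    have h4 := (h1.symm.trans (Cl.refl _))
    have h5 := Cl.add (Cl.add (Cl.add h4 (Cl.refl (Z.S.rho v b • (G b).om 1)))
      (Cl.refl (lf al v • H0.om 0))) (Cl.refl (lf ga v • H0.om 2))
    have h6 := Cl.add (Cl.add h2.symm (Cl.refl (lf al v • H0.om 0)))
      (Cl.refl (lf ga v • H0.om 2))
    have e6 : lcb bas v - lf al v • H0.om 0 - lf ga v • H0.om 2 + lf al v • H0.om 0 +
        lf ga v • H0.om 2 = lcb bas v := by abel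
    have e5 : affL (pj m) y v - Z.S.rho v b • (G b).om 1 + Z.S.rho v b • (G b).om 1 +
        lf al v • H0.om 0 + lf ga v • H0.om 2 = affL (pj m) y v + lf al v • H0.om 0 +
        lf ga v • H0.om 2 := by abel
    rw [e6] at h6
    rw [e5] at h5
    exact h6.trans h5
  have h7 : Cl (lcb bas c) (Z.S.psi v b + (((r b)⁻¹ * lf al v) • (G b).om 0 +
      Z.S.rho v b • (G b).om 1 + ((r b)⁻¹ * (lf ga v + 1)) • (G b).om 2)) := by
    have h8 := Cl.add h3 Z.D.hc0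
    have e8 : lcb bas v + lcb bas c0 = lcb bas c := by
      rw [hv, lcb_sub]
      abel
    rw [e8] at h8
    refine h8.trans ?_
    have h9 : Cl (Z.S.psi v b + Z.S.rho v b • (G b).om 1 + lf al v • H0.om 0 +
        lf ga v • H0.om 2 + H0.om 2) (Z.S.psi v b + Z.S.rho v b • (G b).om 1 +
        lf al v • ((r b)⁻¹ • (G b).om 0) + lf ga v • ((r b)⁻¹ • (G b).om 2) +
        (r b)⁻¹ • (G b).om 2) :=
      Cl.add (Cl.add (Cl.add (Cl.refl _) ((Z.cl_H0 hb (by decide)).smul _))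
        ((Z.cl_H0 hb (by decide)).smul _)) (Z.cl_H0 hb (by decide))
    have e9 : Z.S.psi v b + Z.S.rho v b • (G b).om 1 +
        lf al v • ((r b)⁻¹ • (G b).om 0) + lf ga v • ((r b)⁻¹ • (G b).om 2) +
        (r b)⁻¹ • (G b).om 2 = Z.S.psi v b + (((r b)⁻¹ * lf al v) • (G b).om 0 +
        Z.S.rho v b • (G b).om 1 + ((r b)⁻¹ * (lf ga v + 1)) • (G b).om 2) := by
      rw [smul_smul, smul_smul, mul_comm (lf al v), mul_comm (lf ga v), mul_add, mul_one,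
        add_smul]
      abel
    rw [e9] at h9
    exact h9
  refine h7.trans (Cl.add (Cl.refl _) ?_)
  have h10 := lin_rot (G b) (frA_fr (lf al b / r b) (lf ga b / r b)) ((r b)⁻¹ * lf al v)
    (Z.S.rho v b) ((r b)⁻¹ * (lf ga v + 1))
  have hy : ∀ l, Z.yy l b c = (r b)⁻¹ * lf al v * Z.R b l 0 + Z.S.rho v b * Z.R b l 1 +
      (r b)⁻¹ * (lf ga v + 1) * Z.R b l 2 := by
    intro l
    simp only [yy, Al, add_apply, smul_apply, smul_eq_mul, lfL_apply, ← hv, Stp.rho]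
    field_simp
    ring
  have h11 := cl_of_eqv h10
  rw [hy 0, hy 1, hy 2]
  exact h11

/-- the class of `w2` -/
theorem cl_w2 {b : Fin m → ℝ} (hb : b ∈ T) (c : Fin m → ℝ) :
    Cl (Z.w2 b c) (lcb bas c - Z.yy 0 b c • (Z.L b).om 0 - Z.yy 1 b c • (Z.L b).om 1) := by
  have h1 := (Z.cl_lcc hb c).symm
  have h2 := Cl.add (Cl.add h1 (Cl.refl (-(Z.yy 0 b c • (Z.L b).om 0))))
    (Cl.refl (-(Z.yy 1 b c • (Z.L b).om 1)))
  have e1 : Z.S.psi (c - c0) b + (Z.yy 0 b c • (Z.L b).om 0 + Z.yy 1 b c • (Z.L b).om 1 +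
      Z.yy 2 b c • (Z.L b).om 2) + -(Z.yy 0 b c • (Z.L b).om 0) + -(Z.yy 1 b c • (Z.L b).om 1) =
      Z.w2 b c := by
    rw [w2]
    abel
  rw [e1, ← sub_eq_add_neg, ← sub_eq_add_neg] at h2
  exact h2

/-- the square of `w2` -/
theorem Q_w2 {b : Fin m → ℝ} (hb : b ∈ T) (c : Fin m → ℝ) :
    Q (Z.w2 b c) (Z.w2 b c) = Q (affL (pj m) y (c - c0)) (affL (pj m) y (c - c0)) -
      Z.S.rho (c - c0) b * Q (affL (pj m) y (c - c0)) (aff (pj m) y y0 b) +
      Z.yy 2 b c ^ 2 * (r b ^ 2 * Q (H0.om 0) (H0.om 0)) := by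
  set v := c - c0 with hv
  have hQ := Z.D.hQ
  have h1 : ∀ l, Q (Z.S.psi v b) ((G b).om l) = 0 := fun l => Z.S.Q_om hQ v hb l
  have h2 : Q (Z.S.psi v b) ((Z.L b).om 2) = 0 := by
    have e : (Z.L b).om 2 = Z.R b 2 0 • (G b).om 0 + Z.R b 2 1 • (G b).om 1 +
      Z.R b 2 2 • (G b).om 2 := rot_cl _ 2
    rw [e]
    simp only [map_add, map_smul, h1, smul_zero, add_zero]
  have h3 : Q ((Z.L b).om 2) ((Z.L b).om 2) = r b ^ 2 * Q (H0.om 0) (H0.om 0) := by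
    have e : Q ((Z.L b).om 2) ((Z.L b).om 2) = Q ((G b).om 0) ((G b).om 0) :=
      Q_rot hQ (G b) (frA_fr _ _) 2
    have hB := cl_of_eqv (Z.S.hB b hb 0 (by decide))
    rw [e, hQ.cl12 hB hB, map_smul, map_smul, LinearMap.smul_apply, smul_eq_mul, smul_eq_mul]
    ring
  have h4 : Q (Z.S.psi v b) (Z.S.psi v b) = Q (affL (pj m) y v) (affL (pj m) y v) -
      Z.S.rho v b * Q (affL (pj m) y v) (aff (pj m) y y0 b) := by
    have hc := Z.S.cl v hb
    rw [hQ.cl2 hc, map_sub, map_smul, h1 1, smul_zero, sub_zero, hQ.cl1 hc, map_sub,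
      LinearMap.sub_apply, map_smul, LinearMap.smul_apply, smul_eq_mul,
      hQ.cl1 (Z.S.hc b hb), hQ.symm (aff (pj m) y y0 b)]
  have e : Z.w2 b c = Z.S.psi v b + Z.yy 2 b c • (Z.L b).om 2 := rfl
  rw [e]
  simp only [map_add, map_smul, LinearMap.add_apply, LinearMap.smul_apply, smul_eq_mul]
  rw [hQ.symm ((Z.L b).om 2) (Z.S.psi v b), h2, h3, h4]
  ring

theorem ev_Q : ∀ᶠ p : (Fin m → ℝ) × (Fin m → ℝ) in 𝓝 (b0, c0),
    0 < Q (Z.w2 p.1 p.2) (Z.w2 p.1 p.2) := by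
  have hO : IsOpen (T ×ˢ (univ : Set (Fin m → ℝ))) := Z.S.hT.prod isOpen_univ
  have hp0 : ((b0, c0) : (Fin m → ℝ) × (Fin m → ℝ)) ∈ T ×ˢ (univ : Set (Fin m → ℝ)) :=
    ⟨Z.hb, mem_univ _⟩
  have hr : ContinuousAt (fun p : (Fin m → ℝ) × (Fin m → ℝ) => r p.1) (b0, c0) :=
    ContinuousAt.comp (g := r) (f := Prod.fst) (x := (b0, c0))
      (Z.S.hr.continuousOn.continuousAt (Z.S.hT.mem_nhds Z.hb)) continuousAt_fst
  have hfd : ContinuousAt (fun p : (Fin m → ℝ) × (Fin m → ℝ) => fderiv ℝ r p.1) (b0, c0) :=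
    ContinuousAt.comp (g := fderiv ℝ r) (f := Prod.fst) (x := (b0, c0))
      ((Z.S.hr.fderiv_of_isOpen Z.S.hT (m := ∞) (by simp)).continuousOn.continuousAt
        (Z.S.hT.mem_nhds Z.hb)) continuousAt_fst
  have hd : ContinuousAt (fun p : (Fin m → ℝ) × (Fin m → ℝ) => p.2 - c0) (b0, c0) := by fun_prop
  have hyy : ContinuousAt (fun p : (Fin m → ℝ) × (Fin m → ℝ) => Z.yy 2 p.1 p.2) (b0, c0) :=
    (Z.yy_sm 2).continuousOn.continuousAt (hO.mem_nhds hp0)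
  have hL : ∀ x : F2 C, ContinuousAt (fun p : (Fin m → ℝ) × (Fin m → ℝ) =>
      Q (affL (pj m) y (p.2 - c0)) x) (b0, c0) := by
    intro x
    simp only [affL, map_sum, map_smul, LinearMap.sum_apply, LinearMap.smul_apply, smul_eq_mul]
    have : ∀ j, ContinuousAt (fun p : (Fin m → ℝ) × (Fin m → ℝ) => pj m j (p.2 - c0))
      (b0, c0) := fun j => (pj m j).continuous.continuousAt.comp hd
    fun_prop
  have hLL : ContinuousAt (fun p : (Fin m → ℝ) × (Fin m → ℝ) =>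
      Q (affL (pj m) y (p.2 - c0)) (affL (pj m) y (p.2 - c0))) (b0, c0) := by
    have e : (fun p : (Fin m → ℝ) × (Fin m → ℝ) =>
        Q (affL (pj m) y (p.2 - c0)) (affL (pj m) y (p.2 - c0))) =
        fun p => ∑ j, pj m j (p.2 - c0) * Q (affL (pj m) y (p.2 - c0)) (y j) := by
      funext p
      conv_lhs => rw [show Q (affL (pj m) y (p.2 - c0)) (affL (pj m) y (p.2 - c0)) =
        Q (affL (pj m) y (p.2 - c0)) (∑ j, pj m j (p.2 - c0) • y j) from rfl]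
      simp only [map_sum, map_smul, smul_eq_mul]
    rw [e]
    have : ∀ j, ContinuousAt (fun p : (Fin m → ℝ) × (Fin m → ℝ) => pj m j (p.2 - c0))
      (b0, c0) := fun j => (pj m j).continuous.continuousAt.comp hd
    exact tendsto_finsetSum _ fun j _ => (this j).mul (hL (y j))
  have hLa : ContinuousAt (fun p : (Fin m → ℝ) × (Fin m → ℝ) =>
      Q (affL (pj m) y (p.2 - c0)) (aff (pj m) y y0 p.1)) (b0, c0) := by
    have e : (fun p : (Fin m → ℝ) × (Fin m → ℝ) =>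
        Q (affL (pj m) y (p.2 - c0)) (aff (pj m) y y0 p.1)) =
        fun p => ∑ j, pj m j p.1 * Q (affL (pj m) y (p.2 - c0)) (y j) +
          Q (affL (pj m) y (p.2 - c0)) y0 := by
      funext p
      simp only [aff, map_add, map_sum, map_smul, smul_eq_mul]
    rw [e]
    have : ∀ j, ContinuousAt (fun p : (Fin m → ℝ) × (Fin m → ℝ) => pj m j p.1)
      (b0, c0) := fun j => (pj m j).continuous.continuousAt.comp continuousAt_fst
    exact (tendsto_finsetSum _ fun j _ => (this j).mul (hL (y j))).add (hL y0)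
  have hrho : ContinuousAt (fun p : (Fin m → ℝ) × (Fin m → ℝ) => Z.S.rho (p.2 - c0) p.1)
      (b0, c0) := (hfd.clm_apply hd).div hr (Z.S.r0 b0 Z.hb).ne'
  have hf := (hLL.sub (hrho.mul hLa)).add ((hyy.pow 2).mul ((hr.pow 2).mul
    (continuousAt_const (y := Q (H0.om 0) (H0.om 0)))))
  have hpos : 0 < Q (affL (pj m) y (c0 - c0)) (affL (pj m) y (c0 - c0)) -
      Z.S.rho (c0 - c0) b0 * Q (affL (pj m) y (c0 - c0)) (aff (pj m) y y0 b0) +
      Z.yy 2 b0 c0 ^ 2 * (r b0 ^ 2 * Q (H0.om 0) (H0.om 0)) := by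
    have e1 : affL (pj m) y (c0 - c0) = 0 := by simp [affL]
    rw [e1]
    simp only [map_zero, LinearMap.zero_apply, mul_zero, sub_zero, zero_add]
    have h1 := Z.yy2_pos Z.hb
    have h2 := Z.S.r0 b0 Z.hb
    have h3 := Z.D.q0
    positivity
  have h1 := hf.eventually (lt_mem_nhds hpos)
  filter_upwards [h1, hO.mem_nhds hp0] with p hp hpO
  rw [Z.Q_w2 hpO.1]
  exact hp

end Dat2

end

end Crest.Agent.R281.Bx_557
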