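import Crest.Agent.R281.Bx7_557

/-!
# Row 281, G9 BOX (helper557), part 8: the second move over a product of balls

* `Dat2.second` : `M`, `r2` over `ball b0 ε ×ˢ ball c0 ε`
* `Dat3.rep`    : the invariant forms `ψ_v`, jointly smooth in `(b, c)`
-/

set_option autoImplicit false
set_option maxSynthPendingDepth 3
set_option linter.unusedSectionVars false

open Set Filter Topology Metric
open scoped ContDiff Matrix

namespace Crest.Agent.R281.Bx_557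

open Crest.Agent.R260.ACM_580 Crest.Agent.R281.HkR_835 Crest.Agent.R281.Ti_846
open Crest.Agent.R281.NefO_476 Crest.Agent.R281.Nef_252 Crest.Agent.R281.Dif_268
open Crest.Agent.R281.Alg_998
open Crest.Agent.R281.Sta2_684 (smulP)

noncomputable section

variable {V X : Type} [NormedAddCommGroup V] [NormedSpace ℝ V] [TopologicalSpace X]
  {C : RCh V X}

variable {Q : F2 C →ₗ[ℝ] F2 C →ₗ[ℝ] ℝ} {H0 : HkT C} {m : ℕ} {bas : Fin m → F2 C}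
  {b0 c0 : Fin m → ℝ} {al ga : Fin m → ℝ} {y : Fin m → F2 C} {y0 : F2 C}
  {T : Set (Fin m → ℝ)} {G : (Fin m → ℝ) → HkT C} {r : (Fin m → ℝ) → ℝ}

/-- the output of the second move -/
structure Dat3 (Z : Dat2 Q H0 bas b0 c0 al ga y y0 T G r) (B D : Set (Fin m → ℝ))
    (M : (Fin m → ℝ) × (Fin m → ℝ) → HkT C) (r2 : (Fin m → ℝ) × (Fin m → ℝ) → ℝ) : Prop where
  BT : B ⊆ T
  oB : IsOpen B
  oD : IsOpen D
  c0D : c0 ∈ D
  M_sm : SmHk (B ×ˢ D) M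
  r2_sm : ContDiffOn ℝ ∞ r2 (B ×ˢ D)
  r2_pos : ∀ p ∈ B ×ˢ D, 0 < r2 p
  J2 : ∀ p ∈ B ×ˢ D, ∀ i, ∀ z ∈ (C.e i).target, ∀ v, (M p).J 2 i z v = (Z.L p.1).J 2 i z v
  om2 : ∀ p ∈ B ×ˢ D, ∀ l, l ≠ 2 → Eqv ((M p).om l) (r2 p • (Z.L p.1).om l)
  cls : ∀ p ∈ B ×ˢ D, Cl ((M p).om 2) (Z.w2 p.1 p.2)
  ini : ∀ p ∈ B ×ˢ D, ∀ (t : ℝ) (ht : 0 < t), Eqv (Z.w2 p.1 p.2) (t • (Z.L p.1).om 2) →
    HEqv (M p) (smulP t ht (Z.L p.1))

/-- **the second move** -/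
theorem Dat2.second [FiniteDimensional ℝ V] [CompactSpace X] [T2Space X]
    (Z : Dat2 Q H0 bas b0 c0 al ga y y0 T G r) (hM : MoveFam C Q) :
    ∃ (ε : ℝ) (M : (Fin m → ℝ) × (Fin m → ℝ) → HkT C) (r2 : (Fin m → ℝ) × (Fin m → ℝ) → ℝ),
      0 < ε ∧ Dat3 Z (ball b0 ε) (ball c0 ε) M r2 := by
  have hO : IsOpen (T ×ˢ (univ : Set (Fin m → ℝ))) := Z.S.hT.prod isOpen_univ
  have hp0 : ((b0, c0) : (Fin m → ℝ) × (Fin m → ℝ)) ∈ T ×ˢ (univ : Set (Fin m → ℝ)) :=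
    ⟨Z.hb, mem_univ _⟩
  have hf : MapsTo (Prod.fst : (Fin m → ℝ) × (Fin m → ℝ) → _) (T ×ˢ univ) T := fun p hp => hp.1
  have hL : SmHk (T ×ˢ (univ : Set (Fin m → ℝ))) fun q : (Fin m → ℝ) × (Fin m → ℝ) => Z.L q.1 :=
    Z.L_sm.comp (p := Prod.fst) contDiff_fst.contDiffOn hf
  have h1 : ∀ᶠ p : (Fin m → ℝ) × (Fin m → ℝ) in 𝓝 (b0, c0),
      Pos (ofHk (Z.L p.1) 2) (Z.w2 p.1 p.2) := by
    refine ev_pos (J := fun p : (Fin m → ℝ) × (Fin m → ℝ) => ofHk (Z.L p.1) 2) hO (hL.J 2)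
      Z.w2_sm hp0 ?_
    intro i z hz u hu
    have h2 := Z.w2_c0 Z.hb i z hz u ((ofHk (Z.L b0) 2).J i z u)
    show 0 < (Z.w2 b0 c0).w i z u ((ofHk (Z.L b0) 2).J i z u)
    rw [h2]
    exact mul_pos (Z.yy2_pos Z.hb) (Pos_hk (Z.L b0) 2 i z hz u hu)
  have h2 := h1.and (Z.ev_Q.and (hO.mem_nhds hp0))
  obtain ⟨ε, hε, hb⟩ := Metric.eventually_nhds_iff_ball.1 h2
  rw [← ball_prod_same] at hb
  have hsub : ball b0 ε ×ˢ ball c0 ε ⊆ T ×ˢ (univ : Set (Fin m → ℝ)) := fun p hp =>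
    (hb p hp).2.2
  obtain ⟨M, r2, hMs, hr2, h⟩ := moveFam_k hM 2 (isOpen_ball.prod isOpen_ball)
    (H := fun p : (Fin m → ℝ) × (Fin m → ℝ) => Z.L p.1)
    (w := fun p : (Fin m → ℝ) × (Fin m → ℝ) => Z.w2 p.1 p.2)
    ⟨fun k => (hL.om k).mono hsub, fun k i => (hL.J k i).mono (prod_mono hsub Subset.rfl)⟩
    (fun p hp => by
      have c0' : Cl (((Z.L p.1).cyc 2).om 0) ((Z.L p.1).om 2) := cl_of_eqv (cyc_om (Z.L p.1) 2 0)
      have hB := cl_of_eqv (Z.S.hB p.1 (hsub hp).1 0 (by decide))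
      have hQ := Z.D.hQ
      have e : Q ((Z.L p.1).om 2) ((Z.L p.1).om 2) = Q ((G p.1).om 0) ((G p.1).om 0) :=
        Q_rot hQ (G p.1) (frA_fr _ _) 2
      rw [hQ.cl12 c0' c0', e, hQ.cl12 hB hB, map_smul, map_smul, LinearMap.smul_apply,
        smul_eq_mul, smul_eq_mul]
      have h3 := Z.S.r0 p.1 (hsub hp).1
      have h4 := Z.D.q0
      positivity)
    (Z.w2_sm.mono hsub) (fun p hp => Z.w2_T11 (hsub hp).1 p.2) (fun p hp => (hb p hp).1)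
    (fun p hp => (hb p hp).2.1)
  refine ⟨ε, M, r2, hε, ⟨fun b hb' => ?_, isOpen_ball, isOpen_ball, mem_ball_self hε, hMs, hr2,
    fun p hp => (h p hp).1, fun p hp i z hz v => (h p hp).2.1 i z hz v,
    fun p hp l hl => (h p hp).2.2.1 l hl, fun p hp => (h p hp).2.2.2.1,
    fun p hp => (h p hp).2.2.2.2⟩⟩
  exact (hsub (show (b, c0) ∈ ball b0 ε ×ˢ ball c0 ε from ⟨hb', mem_ball_self hε⟩)).1

namespace Dat3

variable {Z : Dat2 Q H0 bas b0 c0 al ga y y0 T G r} {B D : Set (Fin m → ℝ)}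
    {M : (Fin m → ℝ) × (Fin m → ℝ) → HkT C} {r2 : (Fin m → ℝ) × (Fin m → ℝ) → ℝ}
    (W : Dat3 Z B D M r2)

/-- the affine data of the slice -/
def ys (_ : Dat3 Z B D M r2) (b : Fin m → ℝ) (j : Fin m) : F2 C :=
  bas j - Z.Al 0 b (Pi.single j 1) • (Z.L b).om 0 - Z.Al 1 b (Pi.single j 1) • (Z.L b).om 1

def ys0 (_ : Dat3 Z B D M r2) (b : Fin m → ℝ) : F2 C :=
  (Z.Al 0 b c0 - (r b)⁻¹ * Z.R b 0 2) • (Z.L b).om 0 +
    (Z.Al 1 b c0 - (r b)⁻¹ * Z.R b 1 2) • (Z.L b).om 1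

include W

theorem affL_ys (b v : Fin m → ℝ) : affL (pj m) (W.ys b) v =
    lcb bas v - Z.Al 0 b v • (Z.L b).om 0 - Z.Al 1 b v • (Z.L b).om 1 := by
  have e : ∀ L : (Fin m → ℝ) →L[ℝ] ℝ, L v = ∑ j, v j * L (Pi.single j 1) := by
    intro L
    have h := LinearMap.pi_apply_eq_sum_univ (L : (Fin m → ℝ) →ₗ[ℝ] ℝ) v
    simp only [smul_eq_mul] at h
    have h2 : ∀ i : Fin m, (fun j => if i = j then (1 : ℝ) else 0) = Pi.single i 1 := by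
      intro i
      funext j
      by_cases hij : i = j
      · subst hij
        simp
      · simp [hij, Ne.symm hij]
    simp only [h2] at h
    exact h
  rw [e (Z.Al 0 b), e (Z.Al 1 b)]
  show ∑ j, v j • (bas j - Z.Al 0 b (Pi.single j 1) • (Z.L b).om 0 -
    Z.Al 1 b (Pi.single j 1) • (Z.L b).om 1) = _
  simp only [lcb, smul_sub, Finset.sum_sub_distrib, smul_smul, Finset.sum_smul]

theorem aff_ys (b c : Fin m → ℝ) : aff (pj m) (W.ys b) (W.ys0 b) c =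
    lcb bas c - Z.yy 0 b c • (Z.L b).om 0 - Z.yy 1 b c • (Z.L b).om 1 := by
  have h : aff (pj m) (W.ys b) (W.ys0 b) c = affL (pj m) (W.ys b) c + W.ys0 b := rfl
  rw [h, W.affL_ys, ys0, Dat2.yy, Dat2.yy, map_sub, map_sub]
  module

/-- the slice -/
theorem stp [FiniteDimensional ℝ V] [CompactSpace X] [T2Space X] {b : Fin m → ℝ} (hb : b ∈ B) :
    Stp 2 D (fun c => M (b, c)) (fun c => r2 (b, c)) (ofHk (Z.L b) 2) (Z.L b).om (pj m) (W.ys b)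
      (W.ys0 b) where
  hT := W.oD
  hH := W.M_sm.comp (p := fun c => (b, c)) (contDiff_prodMk_right b).contDiffOn
    fun c hc => ⟨hb, hc⟩
  hr := W.r2_sm.comp (contDiff_prodMk_right b).contDiffOn fun c hc => ⟨hb, hc⟩
  r0 c hc := W.r2_pos (b, c) ⟨hb, hc⟩
  hJ c hc i z hz u := W.J2 (b, c) ⟨hb, hc⟩ i z hz u
  hB c hc l hl := W.om2 (b, c) ⟨hb, hc⟩ l hl
  hc c hc := by
    rw [W.aff_ys]
    exact (W.cls (b, c) ⟨hb, hc⟩).trans (Z.cl_w2 (W.BT hb) c)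

theorem hm : SmF (B ×ˢ D) fun p => (r2 p)⁻¹ • (M p).om 2 :=
  (W.M_sm.om 2).smul (W.r2_sm.inv fun p hp => (W.r2_pos p hp).ne')

/-- **the invariant forms** -/
def ps (v : Fin m → ℝ) (p : (Fin m → ℝ) × (Fin m → ℝ)) : F2 C :=
  r2 p • dF (B ×ˢ D) (W.oB.prod W.oD) (fun p => (r2 p)⁻¹ • (M p).om 2) W.hm (0, v) p

theorem ps_sm (v : Fin m → ℝ) : SmF (B ×ˢ D) (W.ps v) :=
  (dF_sm (W.oB.prod W.oD) W.hm (0, v)).smul W.r2_sm

variable [FiniteDimensional ℝ V] [CompactSpace X] [T2Space X]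

theorem ps_eqv (v : Fin m → ℝ) {b c : Fin m → ℝ} (hb : b ∈ B) (hc : c ∈ D) :
    Eqv (W.ps v (b, c)) ((W.stp hb).psi v c) := by
  intro i z hz u u'
  have h1 : (W.ps v (b, c)).w i z = r2 (b, c) •
      dw (fun p => (r2 p)⁻¹ • (M p).om 2) (0, v) (b, c) i z := by
    show r2 (b, c) • (dF (B ×ˢ D) (W.oB.prod W.oD) (fun p => (r2 p)⁻¹ • (M p).om 2) W.hm
      (0, v) (b, c)).w i z = _
    rw [dF_w (show (b, c) ∈ B ×ˢ D from ⟨hb, hc⟩)]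
  rw [h1, (W.stp hb).psi_w hc, dw_slice (W.oB.prod W.oD) W.hm ⟨hb, hc⟩ W.oD (W.stp hb).hm hc hz]

theorem ps_T11 (v : Fin m → ℝ) {b c : Fin m → ℝ} (hb : b ∈ B) (hc : c ∈ D) (l : Fin 3) :
    T11 (ofHk (M (b, c)) l) (W.ps v (b, c)) := by
  intro i z hz u u'
  have h := (W.stp hb).psi_T11 v hc l i z hz u u'
  rw [W.ps_eqv v hb hc i z hz, W.ps_eqv v hb hc i z hz]
  exact h

theorem ps_Q (v : Fin m → ℝ) {b c : Fin m → ℝ} (hb : b ∈ B) (hc : c ∈ D) (l : Fin 3) :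
    Q (W.ps v (b, c)) ((M (b, c)).om l) = 0 := by
  rw [Z.D.hQ.cl1 (cl_of_eqv (W.ps_eqv v hb hc))]
  exact (W.stp hb).Q_om Z.D.hQ v hc l

theorem ps_cl (v : Fin m → ℝ) {b c : Fin m → ℝ} (hb : b ∈ B) (hc : c ∈ D) :
    ∃ x : Fin 3 → ℝ, Cl (W.ps v (b, c)) (lcb bas v + ∑ k, x k • (M (b, c)).om k) := by
  have h1 := (cl_of_eqv (W.ps_eqv v hb hc)).trans ((W.stp hb).cl v hc)
  rw [W.affL_ys] at h1
  have hp : (b, c) ∈ B ×ˢ D := ⟨hb, hc⟩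
  have h0 := (W.r2_pos (b, c) hp).ne'
  have hl : ∀ l, l ≠ 2 → Cl ((Z.L b).om l) ((r2 (b, c))⁻¹ • (M (b, c)).om l) := by
    intro l hl
    have h2 := (cl_of_eqv (W.om2 (b, c) hp l hl)).smul (r2 (b, c))⁻¹
    rw [smul_smul, inv_mul_cancel₀ h0, one_smul] at h2
    exact h2.symm
  refine ⟨![-(Z.Al 0 b v * (r2 (b, c))⁻¹), -(Z.Al 1 b v * (r2 (b, c))⁻¹),
    -((W.stp hb).rho v c)], h1.trans ?_⟩
  have h2 : Cl (lcb bas v + (-Z.Al 0 b v) • (Z.L b).om 0 + (-Z.Al 1 b v) • (Z.L b).om 1 +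
      (-((W.stp hb).rho v c)) • (M (b, c)).om 2) (lcb bas v + (-Z.Al 0 b v) •
      ((r2 (b, c))⁻¹ • (M (b, c)).om 0) + (-Z.Al 1 b v) • ((r2 (b, c))⁻¹ • (M (b, c)).om 1) +
      (-((W.stp hb).rho v c)) • (M (b, c)).om 2) :=
    Cl.add (Cl.add (Cl.add (Cl.refl _) ((hl 0 (by decide)).smul _)) ((hl 1 (by decide)).smul _))
      (Cl.refl _)
  have e1 : lcb bas v - Z.Al 0 b v • (Z.L b).om 0 - Z.Al 1 b v • (Z.L b).om 1 -
      (W.stp hb).rho v c • (M (b, c)).om 2 = lcb bas v + (-Z.Al 0 b v) • (Z.L b).om 0 +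
      (-Z.Al 1 b v) • (Z.L b).om 1 + (-((W.stp hb).rho v c)) • (M (b, c)).om 2 := by
    module
  have e2 : lcb bas v + ∑ k, (![-(Z.Al 0 b v * (r2 (b, c))⁻¹), -(Z.Al 1 b v * (r2 (b, c))⁻¹),
    -((W.stp hb).rho v c)] : Fin 3 → ℝ) k • (M (b, c)).om k = lcb bas v + (-Z.Al 0 b v) •
      ((r2 (b, c))⁻¹ • (M (b, c)).om 0) + (-Z.Al 1 b v) • ((r2 (b, c))⁻¹ • (M (b, c)).om 1) +
      (-((W.stp hb).rho v c)) • (M (b, c)).om 2 := by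
    rw [Fin.sum_univ_three]
    simp only [Matrix.cons_val_zero, Matrix.cons_val_one, Matrix.cons_val]
    module
  rw [e1, e2]
  exact h2

/-- the projection of `lc c` -/
theorem prj {b c : Fin m → ℝ} (hb : b ∈ B) (hc : c ∈ D) :
    Cl (lcb bas c) ((M (b, c)).om 2 + ((r2 (b, c))⁻¹ * Z.yy 1 b c) • (M (b, c)).om 1 +
      ((r2 (b, c))⁻¹ * Z.yy 0 b c) • (M (b, c)).om 0) := by
  have hp : (b, c) ∈ B ×ˢ D := ⟨hb, hc⟩
  have h0 := (W.r2_pos (b, c) hp).ne'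
  have h1 := Z.cl_lcc (W.BT hb) c
  have hl : ∀ l, l ≠ 2 → Cl ((Z.L b).om l) ((r2 (b, c))⁻¹ • (M (b, c)).om l) := by
    intro l hl
    have h2 := (cl_of_eqv (W.om2 (b, c) hp l hl)).smul (r2 (b, c))⁻¹
    rw [smul_smul, inv_mul_cancel₀ h0, one_smul] at h2
    exact h2.symm
  have e1 : Z.S.psi (c - c0) b + (Z.yy 0 b c • (Z.L b).om 0 + Z.yy 1 b c • (Z.L b).om 1 +
      Z.yy 2 b c • (Z.L b).om 2) = Z.w2 b c + Z.yy 1 b c • (Z.L b).om 1 +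
      Z.yy 0 b c • (Z.L b).om 0 := by
    rw [Dat2.w2]
    abel
  rw [e1] at h1
  have h3 : Cl (Z.w2 b c + Z.yy 1 b c • (Z.L b).om 1 + Z.yy 0 b c • (Z.L b).om 0)
      ((M (b, c)).om 2 + Z.yy 1 b c • ((r2 (b, c))⁻¹ • (M (b, c)).om 1) +
      Z.yy 0 b c • ((r2 (b, c))⁻¹ • (M (b, c)).om 0)) :=
    Cl.add (Cl.add (W.cls (b, c) hp).symm ((hl 1 (by decide)).smul _)) ((hl 0 (by decide)).smul _)
  rw [smul_smul, smul_smul, mul_comm (Z.yy 1 b c), mul_comm (Z.yy 0 b c)] at h3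
  exact h1.trans h3

end Dat3

end

end Crest.Agent.R281.Bx_557
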