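import Crest.Agent.R281.KrE_488

/-!
# R281, KRON (helper488): descent to a subring; the local form (analytic submersion)
-/

set_option autoImplicit false
set_option linter.unusedSectionVars false

open MvPolynomial Filter Topology

namespace Crest.Agent.R281.Kr_488

noncomputable section

variable {n N : ℕ}

section Descent

variable {R S : Type*} [CommRing R] [CommRing S] (φ : R →+* S)

theorem mv_lift {m : ℕ} (p : MvPolynomial (Fin m) S) (hp : ∀ α, p.coeff α ∈ φ.range) :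
    ∃ q : MvPolynomial (Fin m) R, MvPolynomial.map φ q = p := by
  choose c hc using fun α => RingHom.mem_range.1 (hp α)
  refine ⟨∑ α ∈ p.support, monomial α (c α), ?_⟩
  rw [map_sum]
  conv_rhs => rw [p.as_sum]
  exact Finset.sum_congr rfl fun α _ => by rw [map_monomial, hc]

theorem poly_lift {m : ℕ} (p : Polynomial (MvPolynomial (Fin m) S))
    (hp : ∀ i α, (p.coeff i).coeff α ∈ φ.range) :
    ∃ q : Polynomial (MvPolynomial (Fin m) R), q.map (MvPolynomial.map φ) = p := by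
  have h : p ∈ Polynomial.lifts (MvPolynomial.map (σ := Fin m) φ) := by
    rw [Polynomial.lifts_iff_coeff_lifts]
    intro i
    exact mv_lift φ (p.coeff i) (hp i)
  exact h

/-- **descent** -/
theorem KDat.descend (hφ : Function.Injective φ) (κ' : KDat n N S)
    (E' : Set (MvPolynomial (Fin (N + 1)) S)) (hκ : ∀ r ∈ κ'.coeffs, r ∈ φ.range)
    (hE : ∀ F ∈ E', ∀ α, MvPolynomial.coeff α F ∈ φ.range) (hg : κ'.Good E') :
    ∃ κ : KDat n N R, κ.map φ = κ' ∧ κ.Good (MvPolynomial.map φ ⁻¹' E') := by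
  choose l hl using fun j k => RingHom.mem_range.1 (hκ _ (Or.inl ⟨j, k, rfl⟩))
  choose w hw using fun k => RingHom.mem_range.1 (hκ _ (Or.inr (Or.inl ⟨k, rfl⟩)))
  obtain ⟨G, hG⟩ := poly_lift φ κ'.G fun i α => hκ _ (Or.inr (Or.inr (Or.inl ⟨i, α, rfl⟩)))
  choose Nm hNm using fun k => poly_lift φ (κ'.Nm k) fun i α =>
    hκ _ (Or.inr (Or.inr (Or.inr ⟨k, i, α, rfl⟩)))
  let κ : KDat n N R := ⟨l, w, κ'.D, G, Nm⟩
  have hmap : κ.map φ = κ' := by
    show (⟨_, _, _, _, _⟩ : KDat n N S) = _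
    simp only [hG, hNm, κ, hl, hw]
  refine ⟨κ, hmap, ?_⟩
  refine KDat.Good.of_map φ hφ ?_
  rw [hmap]
  have h1 : MvPolynomial.map φ '' (MvPolynomial.map φ ⁻¹' E') = E' := by
    rw [Set.image_preimage_eq_iff]
    intro F hF
    exact mv_lift φ F (hE F hF)
  rw [h1]
  exact hg

theorem KDat.coeffs_finite (κ : KDat n N R) : κ.coeffs.Finite := by
  have h1 : (Set.range fun p : Fin (n + 1) × Fin (N + 1) => κ.lam p.1 p.2).Finite :=
    Set.finite_range _
  have h2 : (Set.range fun k : Fin (N + 1) => κ.w k).Finite := Set.finite_range _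
  have h3 : ∀ p : Polynomial (MvPolynomial (Fin (n + 1)) R),
      {r | ∃ i α, r = (p.coeff i).coeff α}.Finite := by
    intro p
    have h4 : ({0} ∪ ⋃ i ∈ p.support, (fun α => (p.coeff i).coeff α) ''
        ((p.coeff i).support : Set _)).Finite :=
      (Set.finite_singleton 0).union (p.support.finite_toSet.biUnion fun i _ =>
        (p.coeff i).support.finite_toSet.image _)
    refine h4.subset ?_
    rintro r ⟨i, α, rfl⟩
    by_cases hi : i ∈ p.support
    · by_cases hα : α ∈ (p.coeff i).support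
      · exact Or.inr (Set.mem_biUnion hi ⟨α, hα, rfl⟩)
      · exact Or.inl (MvPolynomial.notMem_support_iff.1 hα)
    · refine Or.inl ?_
      show (p.coeff i).coeff α = 0
      rw [Polynomial.notMem_support_iff.1 hi, MvPolynomial.coeff_zero]
  refine ((h1.union h2).union ((h3 κ.G).union (Set.finite_iUnion fun k => h3 (κ.Nm k)))).subset ?_
  rintro r (⟨j, k, rfl⟩ | ⟨k, rfl⟩ | ⟨i, α, rfl⟩ | ⟨k, i, α, rfl⟩)
  · exact Or.inl (Or.inl ⟨(j, k), rfl⟩)
  · exact Or.inl (Or.inr ⟨k, rfl⟩)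
  · exact Or.inr (Or.inl ⟨i, α, rfl⟩)
  · exact Or.inr (Or.inr (Set.mem_iUnion.2 ⟨k, i, α, rfl⟩))

end Descent

/-! ### derivative of `Hv` along `ker lam` -/

section Deriv

variable {κ : KDat n N ℂ}

open KDat

theorem lv_add (a u v : Fin (N + 1) → ℂ) : lv a (u + v) = lv a u + lv a v := by
  unfold lv
  rw [← Finset.sum_add_distrib]
  exact Finset.sum_congr rfl fun k _ => by
    rw [Pi.add_apply]
    ring

theorem lv_smul' (a v : Fin (N + 1) → ℂ) (c : ℂ) : lv a (c • v) = c * lv a v := by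
  unfold lv
  rw [Finset.mul_sum]
  exact Finset.sum_congr rfl fun k _ => by
    rw [Pi.smul_apply, smul_eq_mul]
    ring

/-- `lv a` as a continuous linear map -/
def lvL (a : Fin (N + 1) → ℂ) : (Fin (N + 1) → ℂ) →L[ℂ] ℂ :=
  LinearMap.toContinuousLinearMap
    { toFun := lv a
      map_add' := lv_add a
      map_smul' := fun c v => lv_smul' a v c }

theorem lvL_apply (a v : Fin (N + 1) → ℂ) : lvL a v = lv a v := rfl

theorem differentiable_eval {m : ℕ} (p : MvPolynomial (Fin m) ℂ) :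
    Differentiable ℂ fun v : Fin m → ℂ => eval v p := by
  induction p using MvPolynomial.induction_on with
  | C c => simpa using differentiable_const c
  | add p q hp hq =>
    simp only [map_add]
    exact hp.add hq
  | mul_X p k hp =>
    simp only [map_mul, eval_X]
    exact hp.mul (differentiable_apply k)

theorem differentiable_Hv (κ : KDat n N ℂ) : Differentiable ℂ κ.Hv := by
  rw [differentiable_pi]
  intro k
  have h : (fun v => κ.Hv v k) = fun v => eval v (X k * κ.dG - κ.sub (κ.Nm k)) := by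
    funext v
    exact κ.Hv_eq v k
  rw [h]
  exact differentiable_eval _

/-- values along a line in the direction of `ker lam` -/
theorem ev_line (y : Fin (n + 1) → ℂ) (W b : ℂ) (P : Polynomial (MvPolynomial (Fin (n + 1)) ℂ)) :
    HasDerivAt (fun t : ℂ => KDat.ev y (W + t * b) P)
      (b * KDat.ev y W (Polynomial.derivative P)) 0 := by
  have h1 : ∀ c, KDat.ev y c P = (P.map (MvPolynomial.eval y)).eval c := fun c => by
    rw [Polynomial.eval_map]
    rfl
  have h2 : KDat.ev y W (Polynomial.derivative P) =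
      (Polynomial.derivative (P.map (MvPolynomial.eval y))).eval W := by
    rw [Polynomial.derivative_map, Polynomial.eval_map]
    rfl
  simp only [h1]
  rw [h2]
  have h3 : HasDerivAt (fun t : ℂ => W + t * b) b 0 := by
    have := ((hasDerivAt_id (0 : ℂ)).mul_const b).const_add W
    simpa using this
  have h4 := ((P.map (MvPolynomial.eval y)).hasDerivAt (W + 0 * b)).comp (0 : ℂ) h3
  rw [zero_mul, add_zero] at h4
  rw [mul_comm]
  exact h4

theorem KDat.Good.fderiv_Hv {E : Set (MvPolynomial (Fin (N + 1)) ℂ)} (h : κ.Good E)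
    {u a : Fin (N + 1) → ℂ} (ha : ∀ j, lv (κ.lam j) a = 0) :
    (∀ k, fderiv ℂ κ.Hv u a k = a k * KDat.ev (κ.lamv u) (lv κ.w u) (Polynomial.derivative κ.G) +
      u k * (lv κ.w a * KDat.ev (κ.lamv u) (lv κ.w u)
        (Polynomial.derivative (Polynomial.derivative κ.G))) -
      lv κ.w a * KDat.ev (κ.lamv u) (lv κ.w u) (Polynomial.derivative (κ.Nm k))) ∧
    lv κ.w (fderiv ℂ κ.Hv u a) =
      κ.D * (lv κ.w a * KDat.ev (κ.lamv u) (lv κ.w u) (Polynomial.derivative κ.G)) := by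
  have hline : HasDerivAt (fun t : ℂ => κ.Hv (u + t • a)) (fderiv ℂ κ.Hv u a) 0 := by
    have h1 : HasDerivAt (fun t : ℂ => u + t • a) a 0 := by
      have := ((hasDerivAt_id (0 : ℂ)).smul_const a).const_add u
      simpa using this
    have h2 : HasFDerivAt κ.Hv (fderiv ℂ κ.Hv u) (u + (0 : ℂ) • a) := by
      rw [zero_smul, add_zero]
      exact (differentiable_Hv κ u).hasFDerivAt
    exact h2.comp_hasDerivAt (0 : ℂ) h1
  have hlam : ∀ t : ℂ, κ.lamv (u + t • a) = κ.lamv u := by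
    intro t
    funext j
    show lv _ _ = lv _ _
    rw [lv_add, lv_smul', ha j, mul_zero, add_zero]
  have hw : ∀ t : ℂ, lv κ.w (u + t • a) = lv κ.w u + t * lv κ.w a := by
    intro t
    rw [lv_add, lv_smul']
  constructor
  · intro k
    have h1 : HasDerivAt (fun t : ℂ => κ.Hv (u + t • a) k) (fderiv ℂ κ.Hv u a k) 0 :=
      (hasDerivAt_pi.1 hline) k
    refine h1.unique ?_
    have h2 : (fun t : ℂ => κ.Hv (u + t • a) k) = fun t : ℂ =>
        (u k + t * a k) * KDat.ev (κ.lamv u) (lv κ.w u + t * lv κ.w a)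
          (Polynomial.derivative κ.G) -
        KDat.ev (κ.lamv u) (lv κ.w u + t * lv κ.w a) (κ.Nm k) := by
      funext t
      rw [KDat.Hv, hlam, hw]
      rfl
    rw [h2]
    have h3 : HasDerivAt (fun t : ℂ => u k + t * a k) (a k) 0 := by
      have := ((hasDerivAt_id (0 : ℂ)).mul_const (a k)).const_add (u k)
      simpa using this
    have h4 := (h3.mul (ev_line (κ.lamv u) (lv κ.w u) (lv κ.w a)
      (Polynomial.derivative κ.G))).sub (ev_line (κ.lamv u) (lv κ.w u) (lv κ.w a) (κ.Nm k))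
    simp only [zero_mul, add_zero] at h4
    exact h4
  · have h1 : HasDerivAt (fun t : ℂ => lv κ.w (κ.Hv (u + t • a)))
        (lv κ.w (fderiv ℂ κ.Hv u a)) 0 :=
      (lvL κ.w).hasFDerivAt.comp_hasDerivAt (0 : ℂ) hline
    refine h1.unique ?_
    have h2 : (fun t : ℂ => lv κ.w (κ.Hv (u + t • a))) = fun t : ℂ =>
        (κ.D : ℂ) * KDat.ev (κ.lamv u) (lv κ.w u + t * lv κ.w a) κ.G := by
      funext t
      rw [h.w_Hv, hlam, hw]
    rw [h2]
    exact (ev_line (κ.lamv u) (lv κ.w u) (lv κ.w a) κ.G).const_mul _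

/-- the kernel of `lam` -/
def kerL (κ : KDat n N ℂ) : Submodule ℂ (Fin (N + 1) → ℂ) :=
  ⨅ j, LinearMap.ker (lvL (κ.lam j) : (Fin (N + 1) → ℂ) →ₗ[ℂ] ℂ)

theorem mem_kerL {κ : KDat n N ℂ} {a : Fin (N + 1) → ℂ} :
    a ∈ kerL κ ↔ ∀ j, lv (κ.lam j) a = 0 := by
  unfold kerL
  rw [Submodule.mem_iInf]
  exact Iff.rfl

theorem KDat.Good.fderiv_inj {E : Set (MvPolynomial (Fin (N + 1)) ℂ)} (h : κ.Good E)
    {u : Fin (N + 1) → ℂ} (hd : eval u κ.dG ≠ 0) {a : Fin (N + 1) → ℂ} (ha : a ∈ kerL κ)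
    (h0 : fderiv ℂ κ.Hv u a = 0) : a = 0 := by
  obtain ⟨h1, h2⟩ := h.fderiv_Hv (u := u) (mem_kerL.1 ha)
  have hd' : KDat.ev (κ.lamv u) (lv κ.w u) (Polynomial.derivative κ.G) ≠ 0 := by
    rw [← KDat.eval_sub]
    exact hd
  have hD : (κ.D : ℂ) ≠ 0 := Nat.cast_ne_zero.2 h.D_pos.ne'
  have hw : lv κ.w a = 0 := by
    rw [h0] at h2
    have h3 : lv κ.w (0 : Fin (N + 1) → ℂ) = 0 := by simp [lv]
    rw [h3] at h2
    rcases mul_eq_zero.1 h2.symm with h4 | h4
    · exact absurd h4 hD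
    · rcases mul_eq_zero.1 h4 with h5 | h5
      · exact h5
      · exact absurd h5 hd'
  funext k
  have h3 := h1 k
  rw [h0, hw] at h3
  simp only [Pi.zero_apply, zero_mul, mul_zero, add_zero, sub_zero] at h3
  rcases mul_eq_zero.1 h3.symm with h4 | h4
  · exact h4
  · exact absurd h4 hd'

theorem KDat.Good.fderiv_mem {E : Set (MvPolynomial (Fin (N + 1)) ℂ)} (h : κ.Good E)
    (u a : Fin (N + 1) → ℂ) : fderiv ℂ κ.Hv u a ∈ kerL κ := by
  rw [mem_kerL]
  intro j
  have h1 : HasFDerivAt (fun v => lv (κ.lam j) (κ.Hv v)) ((lvL (κ.lam j)).comp (fderiv ℂ κ.Hv u)) u :=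
    (lvL (κ.lam j)).hasFDerivAt.comp u (differentiable_Hv κ u).hasFDerivAt
  have h2 : (fun v => lv (κ.lam j) (κ.Hv v)) = fun _ => (0 : ℂ) := by
    funext v
    exact h.lam_Hv v j
  rw [h2] at h1
  have h3 := h1.unique (hasFDerivAt_const (0 : ℂ) u)
  exact congrArg (fun f => f a) h3

/-- **`D_v Hv` maps `ker lam` onto `ker lam`** -/
theorem KDat.Good.fderiv_surj {E : Set (MvPolynomial (Fin (N + 1)) ℂ)} (h : κ.Good E)
    {u : Fin (N + 1) → ℂ} (hd : eval u κ.dG ≠ 0) {b : Fin (N + 1) → ℂ} (hb : b ∈ kerL κ) :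
    ∃ a ∈ kerL κ, fderiv ℂ κ.Hv u a = b := by
  let T : kerL κ →ₗ[ℂ] kerL κ :=
    { toFun := fun a => ⟨fderiv ℂ κ.Hv u a, h.fderiv_mem u a⟩
      map_add' := fun a b => Subtype.ext (by simp)
      map_smul' := fun c a => Subtype.ext (by simp) }
  have hT : Function.Injective T := by
    rw [injective_iff_map_eq_zero]
    intro a ha
    exact Subtype.ext (h.fderiv_inj hd a.2 (congrArg Subtype.val ha))
  obtain ⟨a, ha⟩ := (LinearMap.injective_iff_surjective.1 hT) ⟨b, hb⟩
  exact ⟨a, a.2, congrArg Subtype.val ha⟩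

end Deriv

end

end Crest.Agent.R281.Kr_488
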