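import Crest.Agent.R281.AF6_867
import Crest.Agent.R281.KrF_488

/-!
# R281 (S0424), CERT-ASM, part 1 (helper867): the certificate of an algebraic member

* `CDat n N R`  : equations `G`, Kronecker data `κ` (488), exponent `m`, form data `D` (AF5), Bezout data
                  `U, V, d` over a ring `R`;
* `CDat.Ok`     : homogeneous equations, `Good` Kronecker data, cover identities (for `dG` and for the
                  linear forms `lam`), `U G + V G' = d`, exact form data, and the pointwise implications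
                  for every ring homomorphism to a field;
* `CDat.Ok.map` : stable under every ring homomorphism;
* `exists_desc` : a certificate over `ℂ` descends to every subring containing a finite set.
-/

set_option autoImplicit false

open MvPolynomial Set

namespace Crest.Agent.R281.CA_867

open Crest.Agent.R281.AF_867 Crest.Agent.R281.Kr_488

noncomputable section

variable {n N : ℕ}

/-- the data -/
structure CDat (n N : ℕ) (R : Type) [CommRing R] where
  r : ℕ
  G : Fin r → MvPolynomial (Fin (N + 1)) R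
  q : ℕ
  κ : Fin q → KDat n N R
  m : ℕ
  D : FDat (Fin (N + 1)) R
  U : Fin q → Polynomial (MvPolynomial (Fin (n + 1)) R)
  V : Fin q → Polynomial (MvPolynomial (Fin (n + 1)) R)
  d : Fin q → MvPolynomial (Fin (n + 1)) R

namespace CDat

variable {R S : Type} [CommRing R] [CommRing S]

/-- change of coefficients -/
def map (C : CDat n N R) (φ : R →+* S) : CDat n N S :=
  ⟨C.r, fun l => MvPolynomial.map φ (C.G l), C.q, fun a => (C.κ a).map φ, C.m, C.D.map φ,
    fun a => (C.U a).map (MvPolynomial.map φ), fun a => (C.V a).map (MvPolynomial.map φ),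
    fun a => MvPolynomial.map φ (C.d a)⟩

/-- the properties -/
structure Ok (C : CDat n N R) : Prop where
  hom : ∀ l, ∃ d, (C.G l).IsHomogeneous d
  good : ∀ a, (C.κ a).Good (range C.G)
  cov : ∀ i, (X i : MvPolynomial (Fin (N + 1)) R) ^ C.m ∈
    Ideal.span (range C.G ∪ range fun a => (C.κ a).dG)
  covl : ∀ a i, (X i : MvPolynomial (Fin (N + 1)) R) ^ C.m ∈
    Ideal.span (range C.G ∪ range fun j => lin ((C.κ a).lam j))
  bez : ∀ a, C.U a * (C.κ a).G + C.V a * Polynomial.derivative (C.κ a).G = Polynomial.C (C.d a)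
  exact : C.D.Exact
  imp : ∀ {L : Type} [Field L] (φ : R →+* L),
    (C.D.map φ).Imp (range fun l => MvPolynomial.map φ (C.G l))

theorem range_map (C : CDat n N R) (φ : R →+* S) :
    range (C.map φ).G = MvPolynomial.map φ '' range C.G := by
  show range (MvPolynomial.map φ ∘ C.G) = _
  exact range_comp _ _

theorem range_dG_map (C : CDat n N R) (φ : R →+* S) :
    (range fun a => ((C.map φ).κ a).dG) = MvPolynomial.map φ '' range fun a => (C.κ a).dG := by
  rw [← range_comp]
  exact congrArg range (funext fun a => KDat.dG_map φ (C.κ a))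

theorem range_lin_map (C : CDat n N R) (φ : R →+* S) (a : Fin C.q) :
    (range fun j => lin (((C.map φ).κ a).lam j)) =
      MvPolynomial.map φ '' range fun j => lin ((C.κ a).lam j) := by
  rw [← range_comp]
  exact congrArg range (funext fun j => (map_lin φ ((C.κ a).lam j)).symm)

/-- **stability** -/
theorem Ok.map {C : CDat n N R} (h : C.Ok) (φ : R →+* S) [Nontrivial S] : (C.map φ).Ok where
  hom l := by
    obtain ⟨d, hd⟩ := h.hom l
    exact ⟨d, hd.map φ⟩
  good a := by
    rw [range_map]
    exact KDat.Good.map φ (h.good a)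
  cov i := by
    have h1 := Ideal.mem_map_of_mem (MvPolynomial.map φ) (h.cov i)
    rw [Ideal.map_span, image_union, ← range_map, ← range_dG_map, map_pow, map_X] at h1
    exact h1
  covl := fun (a : Fin C.q) i => by
    have h1 := Ideal.mem_map_of_mem (MvPolynomial.map φ) (h.covl a i)
    rw [Ideal.map_span, image_union, ← range_map, ← range_lin_map, map_pow, map_X] at h1
    exact h1
  bez a := by
    have h1 := congrArg (Polynomial.map (MvPolynomial.map φ)) (h.bez a)
    rw [Polynomial.map_add, Polynomial.map_mul, Polynomial.map_mul, Polynomial.map_C,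
      ← Polynomial.derivative_map] at h1
    exact h1
  exact := h.exact.map φ
  imp {L} _ ψ := by
    have h1 := h.imp (ψ.comp φ)
    have h2 : ((C.map φ).D.map ψ) = C.D.map (ψ.comp φ) := by
      show (⟨_, _⟩ : FDat _ _) = ⟨_, _⟩
      congr 1
      funext j
      ext1 k l
      exact MvPolynomial.map_map φ ψ _
    have h3 : (fun l => MvPolynomial.map ψ ((C.map φ).G l)) =
        fun l => MvPolynomial.map (ψ.comp φ) (C.G l) := funext fun l => MvPolynomial.map_map φ ψ _
    rw [h2, h3]
    exact h1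

/-- points with a nonzero coordinate are covered, over every field -/
theorem Ok.exists_dG {L : Type} [Field L] {C : CDat n N L} (h : C.Ok) {v : Fin (N + 1) → L}
    (hv : v ≠ 0) (hG : ∀ l, eval v (C.G l) = 0) : ∃ a, eval v (C.κ a).dG ≠ 0 := by
  by_contra hcon
  push Not at hcon
  apply hv
  have h1 : Ideal.span (range C.G ∪ range fun a => (C.κ a).dG) ≤ RingHom.ker (eval v) := by
    rw [Ideal.span_le]
    rintro F (⟨l, rfl⟩ | ⟨a, rfl⟩)
    · exact hG l
    · exact hcon a
  funext i
  have h2 := h1 (h.cov i)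
  rw [RingHom.mem_ker, map_pow, eval_X] at h2
  exact eq_zero_of_pow_eq_zero h2

/-- the linear forms have no common zero on a member, over every field -/
theorem Ok.exists_lam {L : Type} [Field L] {C : CDat n N L} (h : C.Ok) {v : Fin (N + 1) → L}
    (hv : v ≠ 0) (hG : ∀ l, eval v (C.G l) = 0) (a : Fin C.q) : ∃ j, lv ((C.κ a).lam j) v ≠ 0 := by
  by_contra hcon
  push Not at hcon
  apply hv
  have h1 : Ideal.span (range C.G ∪ range fun j => lin ((C.κ a).lam j)) ≤
      RingHom.ker (eval v) := by
    rw [Ideal.span_le]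
    rintro F (⟨l, rfl⟩ | ⟨j, rfl⟩)
    · exact hG l
    · show eval v (lin ((C.κ a).lam j)) = 0
      rw [eval_lin]
      exact hcon j
  funext i
  have h2 := h1 (h.covl a i)
  rw [RingHom.mem_ker, map_pow, eval_X] at h2
  exact eq_zero_of_pow_eq_zero h2

theorem Ok.imp_id {L : Type} [Field L] {C : CDat n N L} (h : C.Ok) : C.D.Imp (range C.G) := by
  have h1 := h.imp (RingHom.id L)
  have h2 : C.D.map (RingHom.id L) = C.D := by
    show (⟨_, _⟩ : FDat _ _) = C.D
    have h3 : (fun j => (C.D.s j).map (MvPolynomial.map (RingHom.id L))) = C.D.s := by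
      funext j
      ext1 k l
      exact MvPolynomial.map_id _
    rw [h3]
  have h3 : (fun l => MvPolynomial.map (RingHom.id L) (C.G l)) = C.G :=
    funext fun l => MvPolynomial.map_id _
  rw [h2, h3] at h1
  exact h1

end CDat

/-- the input over `ℂ` -/
structure Pre (C : CDat n N ℂ) : Prop where
  hom : ∀ l, ∃ d, (C.G l).IsHomogeneous d
  good : ∀ a, (C.κ a).Good (range C.G)
  cov : ∀ v : Fin (N + 1) → ℂ, v ≠ 0 → (∀ l, eval v (C.G l) = 0) → ∃ a, eval v (C.κ a).dG ≠ 0
  covl : ∀ a, ∀ v : Fin (N + 1) → ℂ, v ≠ 0 → (∀ l, eval v (C.G l) = 0) →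
    ∃ j, lv ((C.κ a).lam j) v ≠ 0
  bez : ∀ a, C.U a * (C.κ a).G + C.V a * Polynomial.derivative (C.κ a).G = Polynomial.C (C.d a)
  exact : C.D.Exact
  imp : C.D.Imp (range C.G)

/-- the coefficients of a polynomial over a polynomial ring -/
def cfs {m : ℕ} (p : Polynomial (MvPolynomial (Fin m) ℂ)) : Set ℂ :=
  {r | ∃ i α, r = (p.coeff i).coeff α}

theorem cfs_finite {m : ℕ} (p : Polynomial (MvPolynomial (Fin m) ℂ)) : (cfs p).Finite := by
  have h4 : ({0} ∪ ⋃ i ∈ p.support, (fun α => (p.coeff i).coeff α) ''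
      ((p.coeff i).support : Set _)).Finite :=
    (Set.finite_singleton 0).union (p.support.finite_toSet.biUnion fun i _ =>
      (p.coeff i).support.finite_toSet.image _)
  refine h4.subset ?_
  rintro r ⟨i, α, rfl⟩
  by_cases hi : i ∈ p.support
  · by_cases hα : α ∈ (p.coeff i).support
    · exact Or.inr (Set.mem_biUnion hi ⟨α, hα, rfl⟩)
    · exact Or.inl (MvPolynomial.notMem_support_iff.1 hα)
  · refine Or.inl ?_
    show (p.coeff i).coeff α = 0
    rw [Polynomial.notMem_support_iff.1 hi, MvPolynomial.coeff_zero]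

open Classical in
/-- Nullstellensatz identities for the variables, over a subring -/
theorem exists_pow {ι : Type} [Fintype ι] {H : ι → MvPolynomial (Fin (N + 1)) ℂ}
    (hH : ∀ v : Fin (N + 1) → ℂ, v ≠ 0 → ∃ l, eval v (H l) ≠ 0) :
    ∃ (m : ℕ) (S : Finset ℂ), ∀ {R : Type} [CommRing R] {i : R →+* ℂ}, Function.Injective i →
      (∀ x ∈ S, x ∈ range i) → ∀ H' : ι → MvPolynomial (Fin (N + 1)) R,
      (∀ l, MvPolynomial.map i (H' l) = H l) → ∀ m', m ≤ m' → ∀ k,
      (X k : MvPolynomial (Fin (N + 1)) R) ^ m' ∈ Ideal.span (range H') := by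
  have hcov : ∀ k : Fin (N + 1), Ns_476.Imp H (X k) := by
    intro k y hy
    rw [eval_X]
    by_contra hk
    obtain ⟨a, ha⟩ := hH y (fun h0 => hk (by rw [h0]; rfl))
    exact ha (hy a)
  let ck : ∀ k, Ns_476.Cert H (X k) := fun k => (Ns_476.exists_cert (hcov k)).some
  refine ⟨∑ k, (ck k).N, Finset.univ.biUnion fun k => (ck k).S, ?_⟩
  intro R _ i hi hS H' hH' m' hm' k
  have hSc : ∀ k, ∀ x ∈ (ck k).S, x ∈ range i := fun k x hx => hS x
    (Finset.mem_biUnion.2 ⟨k, Finset.mem_univ _, hx⟩)
  have hb : ∀ l, ∃ b : MvPolynomial (Fin (N + 1)) R, MvPolynomial.map i b = (ck k).a l :=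
    fun l => mem_range_map_iff_coeffs_subset.2 fun x hx => hSc k x ((ck k).mem_S l hx)
  choose b hb using hb
  have h2 : (X k : MvPolynomial (Fin (N + 1)) R) ^ (ck k).N = ∑ l, b l * H' l := by
    apply MvPolynomial.map_injective i hi
    rw [map_pow, map_X, (ck k).eq, map_sum]
    exact Finset.sum_congr rfl fun l _ => by rw [map_mul, hb, hH']
  have h3 : (ck k).N ≤ m' := le_trans (Finset.single_le_sum (f := fun k => (ck k).N)
    (fun _ _ => Nat.zero_le _) (Finset.mem_univ k)) hm'
  rw [← Nat.sub_add_cancel h3, pow_add, h2]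
  exact Ideal.mul_mem_left _ _ (Ideal.sum_mem _ fun l _ => Ideal.mul_mem_left _ _
    (Ideal.subset_span ⟨l, rfl⟩))

open Classical in
/-- **descent to a subring** -/
theorem exists_desc {C : CDat n N ℂ} (h : Pre C) : ∃ (m : ℕ) (S : Finset ℂ),
    ∀ {R : Type} [CommRing R] {i : R →+* ℂ}, Function.Injective i → (∀ x ∈ S, x ∈ range i) →
      ∃ C' : CDat n N R, C'.map i = { C with m := m } ∧ C'.Ok := by
  obtain ⟨S1, hS1⟩ := transfer h.exact h.imp
  obtain ⟨m1, S2, hS2⟩ := exists_pow (H := Sum.elim C.G fun a => (C.κ a).dG) (fun v hv => by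
    by_contra hcon
    push Not at hcon
    obtain ⟨a, ha⟩ := h.cov v hv fun l => hcon (Sum.inl l)
    exact ha (hcon (Sum.inr a)))
  have hl : ∀ a, ∀ v : Fin (N + 1) → ℂ, v ≠ 0 → ∃ l, eval v
      ((Sum.elim C.G fun j => lin ((C.κ a).lam j) : Fin C.r ⊕ Fin (n + 1) → _) l) ≠ 0 := by
    intro a v hv
    by_contra hcon
    push Not at hcon
    obtain ⟨j, hj⟩ := h.covl a v hv fun l => hcon (Sum.inl l)
    refine hj ?_
    rw [← eval_lin]
    exact hcon (Sum.inr j)
  choose ml Sl hSl using fun a => exists_pow (hl a)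
  let S : Finset ℂ := S1 ∪ S2 ∪ (Finset.univ.biUnion fun a => Sl a) ∪
    (Finset.univ.biUnion fun a => (C.κ a).coeffs_finite.toFinset) ∪
    (Finset.univ.biUnion fun a => (cfs_finite (C.U a)).toFinset ∪
      (cfs_finite (C.V a)).toFinset ∪ (C.d a).coeffs)
  refine ⟨m1 + ∑ a, ml a, S, fun {R} _ {i} hi hS => ?_⟩
  have hS1' : ∀ x ∈ S1, x ∈ range i := fun x hx => hS x (by
    simp only [S, Finset.mem_union]
    exact Or.inl (Or.inl (Or.inl (Or.inl hx))))
  have hS2' : ∀ x ∈ S2, x ∈ range i := fun x hx => hS x (by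
    simp only [S, Finset.mem_union]
    exact Or.inl (Or.inl (Or.inl (Or.inr hx))))
  have hSl' : ∀ a, ∀ x ∈ Sl a, x ∈ range i := fun a x hx => hS x (by
    simp only [S, Finset.mem_union, Finset.mem_biUnion, Finset.mem_univ, true_and]
    exact Or.inl (Or.inl (Or.inr ⟨a, hx⟩)))
  have hSk : ∀ a, ∀ x ∈ (C.κ a).coeffs, x ∈ range i := fun a x hx => hS x (by
    simp only [S, Finset.mem_union, Finset.mem_biUnion, Finset.mem_univ, true_and]
    exact Or.inl (Or.inr ⟨a, (Set.Finite.mem_toFinset _).2 hx⟩))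
  have hSU : ∀ a, ∀ x ∈ cfs (C.U a), x ∈ range i := fun a x hx => hS x (by
    simp only [S, Finset.mem_union, Finset.mem_biUnion, Finset.mem_univ, true_and]
    exact Or.inr ⟨a, Or.inl (Or.inl ((Set.Finite.mem_toFinset _).2 hx))⟩)
  have hSV : ∀ a, ∀ x ∈ cfs (C.V a), x ∈ range i := fun a x hx => hS x (by
    simp only [S, Finset.mem_union, Finset.mem_biUnion, Finset.mem_univ, true_and]
    exact Or.inr ⟨a, Or.inl (Or.inr ((Set.Finite.mem_toFinset _).2 hx))⟩)
  have hSd : ∀ a, ∀ x ∈ (C.d a).coeffs, x ∈ range i := fun a x hx => hS x (by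
    simp only [S, Finset.mem_union, Finset.mem_biUnion, Finset.mem_univ, true_and]
    exact Or.inr ⟨a, Or.inr hx⟩)
  obtain ⟨D', G', hD', hG', hX', himp⟩ := hS1 hi hS1'
  have hmi : Function.Injective (MvPolynomial.map (σ := Fin (N + 1)) i) :=
    MvPolynomial.map_injective i hi
  have hpre : MvPolynomial.map i ⁻¹' range C.G = range G' := by
    ext p
    constructor
    · rintro ⟨l, hl⟩
      exact ⟨l, hmi (by rw [hG', hl])⟩
    · rintro ⟨l, rfl⟩
      exact ⟨l, (hG' l).symm⟩
  have hκ : ∀ a, ∃ κ : KDat n N R, κ.map i = C.κ a ∧ κ.Good (range G') := by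
    intro a
    obtain ⟨κ, h1, h2⟩ := KDat.descend i hi (C.κ a) (range C.G) (hSk a) (by
      rintro _ ⟨l, rfl⟩ α
      rw [← hG' l, coeff_map]
      exact ⟨_, rfl⟩) (h.good a)
    rw [hpre] at h2
    exact ⟨κ, h1, h2⟩
  choose κ' hκ' hg' using hκ
  choose U' hU' using fun a => poly_lift i (C.U a) fun k α => hSU a _ ⟨k, α, rfl⟩
  choose V' hV' using fun a => poly_lift i (C.V a) fun k α => hSV a _ ⟨k, α, rfl⟩
  choose d' hd' using fun a => (mem_range_map_iff_coeffs_subset (f := i) (x := C.d a)).2 (hSd a)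
  refine ⟨⟨C.r, G', C.q, κ', m1 + ∑ a, ml a, D', U', V', d'⟩, ?_, ?_⟩
  · show CDat.mk C.r (fun l => MvPolynomial.map i (G' l)) C.q (fun a => (κ' a).map i)
      (m1 + ∑ a, ml a) (D'.map i) (fun a => (U' a).map (MvPolynomial.map i))
      (fun a => (V' a).map (MvPolynomial.map i)) (fun a => MvPolynomial.map i (d' a)) =
      CDat.mk C.r C.G C.q C.κ (m1 + ∑ a, ml a) C.D C.U C.V C.d
    rw [show (fun l => MvPolynomial.map i (G' l)) = C.G from funext hG',
      show (fun a => (κ' a).map i) = C.κ from funext hκ', hD',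
      show (fun a => (U' a).map (MvPolynomial.map i)) = C.U from funext hU',
      show (fun a => (V' a).map (MvPolynomial.map i)) = C.V from funext hV',
      show (fun a => MvPolynomial.map i (d' a)) = C.d from funext hd']
  · refine ⟨fun l => ?_, hg', fun k => ?_, fun a k => ?_, fun a => ?_, hX', fun {L} _ φ => himp φ⟩
    · obtain ⟨d, hd⟩ := h.hom l
      rw [← hG' l] at hd
      exact ⟨d, KDat.isHomogeneous_of_map i hi hd⟩
    · have h1 := hS2 hi hS2' (Sum.elim G' fun a => (κ' a).dG) (by
        rintro (l | a)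
        · exact hG' l
        · show MvPolynomial.map i (κ' a).dG = (C.κ a).dG
          rw [← KDat.dG_map, hκ']) (m1 + ∑ a, ml a) (Nat.le_add_right _ _) k
      rwa [Sum.elim_range] at h1
    · have h1 := hSl a hi (hSl' a) (Sum.elim G' fun j => lin ((κ' a).lam j)) (by
        rintro (l | j)
        · exact hG' l
        · show MvPolynomial.map i (lin ((κ' a).lam j)) = lin ((C.κ a).lam j)
          rw [map_lin, ← hκ' a]
          rfl) (m1 + ∑ a, ml a) (le_trans (Finset.single_le_sum (f := fun a => ml a)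
            (fun _ _ => Nat.zero_le _) (Finset.mem_univ a)) (Nat.le_add_left _ _)) k
      rwa [Sum.elim_range] at h1
    · have hmi' : Function.Injective (MvPolynomial.map (σ := Fin (n + 1)) i) :=
        MvPolynomial.map_injective i hi
      apply Polynomial.map_injective _ hmi'
      have h1 := h.bez a
      have h2 : (κ' a).G.map (MvPolynomial.map i) = (C.κ a).G := by
        rw [← hκ' a]
        rfl
      show Polynomial.map (MvPolynomial.map i) (U' a * (κ' a).G +
        V' a * Polynomial.derivative (κ' a).G) = Polynomial.map (MvPolynomial.map i)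
          (Polynomial.C (d' a))
      rw [Polynomial.map_add, Polynomial.map_mul, Polynomial.map_mul, Polynomial.map_C,
        ← Polynomial.derivative_map, hU', hV', h2, hd']
      exact h1

theorem CDat.map_id {R : Type} [CommRing R] (C : CDat n N R) : C.map (RingHom.id R) = C := by
  have h1 : (fun l => MvPolynomial.map (RingHom.id R) (C.G l)) = C.G :=
    funext fun l => MvPolynomial.map_id _
  have h2 : (fun a => (C.κ a).map (RingHom.id R)) = C.κ := by
    funext a
    have h4 : MvPolynomial.map (σ := Fin (n + 1)) (RingHom.id R) = RingHom.id _ := by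
      ext1 <;> simp
    show (⟨_, _, _, _, _⟩ : KDat n N R) = C.κ a
    rw [h4]
    simp only [RingHom.id_apply, Polynomial.map_id]
  have h3 : C.D.map (RingHom.id R) = C.D := by
    show (⟨_, _⟩ : FDat _ _) = C.D
    have h3 : (fun j => (C.D.s j).map (MvPolynomial.map (RingHom.id R))) = C.D.s := by
      funext j
      ext1 k l
      exact MvPolynomial.map_id _
    rw [h3]
  have h4 : MvPolynomial.map (σ := Fin (n + 1)) (RingHom.id R) = RingHom.id _ := by
    ext1 <;> simp
  show CDat.mk C.r (fun l => MvPolynomial.map (RingHom.id R) (C.G l)) C.q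
    (fun a => (C.κ a).map (RingHom.id R)) C.m (C.D.map (RingHom.id R))
    (fun a => (C.U a).map (MvPolynomial.map (RingHom.id R)))
    (fun a => (C.V a).map (MvPolynomial.map (RingHom.id R)))
    (fun a => MvPolynomial.map (RingHom.id R) (C.d a)) = C
  rw [h1, h2, h3, h4]
  simp only [Polynomial.map_id, RingHom.id_apply]

theorem CDat.map_map {R S T : Type} [CommRing R] [CommRing S] [CommRing T] (C : CDat n N R)
    (φ : R →+* S) (ψ : S →+* T) : (C.map φ).map ψ = C.map (ψ.comp φ) := by
  have h1 : (fun l => MvPolynomial.map ψ (MvPolynomial.map φ (C.G l))) =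
      fun l => MvPolynomial.map (ψ.comp φ) (C.G l) := funext fun l => MvPolynomial.map_map _ _ _
  have h2 : (fun a => ((C.κ a).map φ).map ψ) = fun a => (C.κ a).map (ψ.comp φ) := by
    funext a
    have h4 : MvPolynomial.map (σ := Fin (n + 1)) (ψ.comp φ) =
        (MvPolynomial.map ψ).comp (MvPolynomial.map φ) :=
      RingHom.ext fun p => (MvPolynomial.map_map φ ψ p).symm
    show (⟨_, _, _, _, _⟩ : KDat n N T) = ⟨_, _, _, _, _⟩
    rw [h4]
    simp only [KDat.map, Polynomial.map_map]
    rfl
  have h3 : (C.D.map φ).map ψ = C.D.map (ψ.comp φ) := by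
    show (⟨_, _⟩ : FDat _ _) = ⟨_, _⟩
    congr 1
    funext j
    ext1 k l
    exact MvPolynomial.map_map φ ψ _
  have h4 : MvPolynomial.map (σ := Fin (n + 1)) (ψ.comp φ) =
      (MvPolynomial.map ψ).comp (MvPolynomial.map φ) :=
    RingHom.ext fun p => (MvPolynomial.map_map φ ψ p).symm
  show CDat.mk C.r (fun l => MvPolynomial.map ψ (MvPolynomial.map φ (C.G l))) C.q
    (fun a => ((C.κ a).map φ).map ψ) C.m ((C.D.map φ).map ψ)
    (fun a => ((C.U a).map (MvPolynomial.map φ)).map (MvPolynomial.map ψ))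
    (fun a => ((C.V a).map (MvPolynomial.map φ)).map (MvPolynomial.map ψ))
    (fun a => MvPolynomial.map ψ (MvPolynomial.map φ (C.d a))) = CDat.mk C.r
    (fun l => MvPolynomial.map (ψ.comp φ) (C.G l)) C.q (fun a => (C.κ a).map (ψ.comp φ)) C.m
    (C.D.map (ψ.comp φ)) (fun a => (C.U a).map (MvPolynomial.map (ψ.comp φ)))
    (fun a => (C.V a).map (MvPolynomial.map (ψ.comp φ)))
    (fun a => MvPolynomial.map (ψ.comp φ) (C.d a))
  rw [h1, h2, h3, h4]
  simp only [Polynomial.map_map, RingHom.comp_apply]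

end

end Crest.Agent.R281.CA_867
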