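import Crest.Agent.R281.KrB4_871

/-!
# R281, KRON (helper871): consumer forms

The forms `lam_j` of good Kronecker data over `ℂ` are automatically independent, so the codimension of the
local equations is `N - n`; covers from Nullstellensatz identities over the coefficient ring hold at EVERY
parameter.
-/

set_option autoImplicit false

open MvPolynomial Polynomial Set Filter Topology

namespace Crest.Agent.R281.KrB5_871

open Crest.Agent.R281.Kr_488 Crest.Agent.R281.KrB1_871 Crest.Agent.R281.KrB2_871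
  Crest.Agent.R281.KrB3_871 Crest.Agent.R281.KrB4_871

noncomputable section

variable {n N : ℕ}

/-- independence of the linear forms `lam_j` -/
theorem lam_indep {K : Type*} [Field K] [CharZero K] {κ : KDat n N K}
    {E : Set (MvPolynomial (Fin (N + 1)) K)} (h : κ.Good E) {c : Fin (n + 1) → K}
    (hc : ∀ k, ∑ j, c j * κ.lam j k = 0) : c = 0 := by
  have h1 : (∑ j, Polynomial.C (MvPolynomial.C (c j) * MvPolynomial.X j)) *
      Polynomial.derivative κ.G = 0 := by
    calc (∑ j, Polynomial.C (MvPolynomial.C (c j) * MvPolynomial.X j)) * Polynomial.derivative κ.G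
        = ∑ j, Polynomial.C (MvPolynomial.C (c j)) *
            (Polynomial.C (MvPolynomial.X j) * Polynomial.derivative κ.G) := by
          rw [Finset.sum_mul]
          refine Finset.sum_congr rfl fun j _ => ?_
          rw [Polynomial.C_mul, mul_assoc]
      _ = ∑ j, Polynomial.C (MvPolynomial.C (c j)) *
            ∑ k, Polynomial.C (MvPolynomial.C (κ.lam j k)) * κ.Nm k := by
          refine Finset.sum_congr rfl fun j _ => ?_
          rw [h.lamN j]
      _ = ∑ k, Polynomial.C (MvPolynomial.C (∑ j, c j * κ.lam j k)) * κ.Nm k := by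
          simp only [Finset.mul_sum]
          rw [Finset.sum_comm]
          refine Finset.sum_congr rfl fun k _ => ?_
          rw [map_sum, map_sum, Finset.sum_mul]
          refine Finset.sum_congr rfl fun j _ => ?_
          rw [MvPolynomial.C_mul, Polynomial.C_mul, mul_assoc]
      _ = 0 := by simp [hc]
  have h2 : Polynomial.derivative κ.G ≠ 0 := by
    intro h3
    have h4 := Polynomial.derivative_eq_zero.mp h3
    rw [h.deg] at h4
    exact h.D_pos.ne' h4
  have h3 : ∑ j, Polynomial.C (MvPolynomial.C (c j) * MvPolynomial.X j) =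
      (0 : Polynomial (MvPolynomial (Fin (n + 1)) K)) := (mul_eq_zero.mp h1).resolve_right h2
  have h4 : ∑ j, MvPolynomial.C (c j) * (MvPolynomial.X j : MvPolynomial (Fin (n + 1)) K) = 0 := by
    have h5 := congrArg (fun p => Polynomial.coeff p 0) h3
    simpa [Polynomial.finsetSum_coeff] using h5
  funext j
  have h5 := congrArg (MvPolynomial.eval (Pi.single j (1 : K))) h4
  simpa [Pi.single_apply] using h5

theorem surj_TT {κ : KDat n N ℂ} {E : Set (MvPolynomial (Fin (N + 1)) ℂ)} (h : κ.Good E) :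
    Function.Surjective (TT κ.lam) := by
  by_contra hcon
  have h1 : LinearMap.range (TT κ.lam).toLinearMap < ⊤ := by
    rw [lt_top_iff_ne_top]
    intro h2
    exact hcon (LinearMap.range_eq_top.mp h2)
  obtain ⟨f, hf, hle⟩ := Submodule.exists_le_ker_of_lt_top _ h1
  apply hf
  have h2 : (fun j => f (Pi.single j 1)) = 0 := by
    refine lam_indep h fun k => ?_
    have h3 : f (TT κ.lam (EuclideanSpace.single k (1 : ℂ))) = 0 :=
      hle ⟨EuclideanSpace.single k (1 : ℂ), rfl⟩
    rw [LinearMap.pi_apply_eq_sum_univ f] at h3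
    rw [← h3]
    refine Finset.sum_congr rfl fun j _ => ?_
    rw [TT_apply, lv, smul_eq_mul, mul_comm]
    congr 1
    · simp [Pi.single_apply]
    · congr 1
      funext i
      simp [Pi.single_apply, eq_comm]
  refine LinearMap.pi_ext' fun j => ?_
  ext
  simpa using congrFun h2 j

theorem cod_good {R : Type*} [CommRing R] {κ : KDat n N R} {E : Set (MvPolynomial (Fin (N + 1)) R)}
    (h : κ.Good E) (φ : R →+* ℂ) : cod κ φ = N - n := by
  have h1 := cod_eq κ φ (surj_TT (KrB1_871.Good.map h φ))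
  omega

variable {P : Type*} [NormedAddCommGroup P] [NormedSpace ℂ P] {R : Type*} [CommRing R]
  {ev : P → (R →+* ℂ)} {p0 : P}

/-- local equations with values in `ℂ^(N - n)` -/
theorem exists_loc' {κ : KDat n N R} {E : Set (MvPolynomial (Fin (N + 1)) R)} (h : κ.Good E)
    (hE : ∀ F ∈ E, ∃ m, F.IsHomogeneous m) (han : ∀ r, AnalyticAt ℂ (fun p => ev p r) p0)
    {u : EuclideanSpace ℂ (Fin (N + 1))} (hu : u ≠ 0) (hd : val ev κ.dG (p0, u) ≠ 0) :
    ∃ g : P × EuclideanSpace ℂ (Fin (N + 1)) → EuclideanSpace ℂ (Fin (N - n)),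
      AnalyticAt ℂ g (p0, u) ∧ Function.Surjective (fderiv ℂ (fun v => g (p0, v)) u) ∧
      ∀ᶠ q in 𝓝 (p0, u), q ∈ KC ev E ↔ g q = 0 := by
  rw [← cod_good h (ev p0)]
  exact exists_loc h hE han hu hd

omit [NormedAddCommGroup P] [NormedSpace ℂ P] in
/-- **cover from an identity over the coefficient ring**: valid at every parameter -/
theorem cover {E : Set (MvPolynomial (Fin (N + 1)) R)} {ι : Type*} {κ : ι → KDat n N R} {m : ℕ}
    (hX : ∀ i, (MvPolynomial.X i : MvPolynomial (Fin (N + 1)) R) ^ m ∈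
      Ideal.span (E ∪ Set.range fun a => (κ a).dG)) (p : P) (u : EuclideanSpace ℂ (Fin (N + 1)))
    (hu : (p, u) ∈ KC ev E) : ∃ a, val ev (κ a).dG (p, u) ≠ 0 := by
  by_contra hcon
  push Not at hcon
  apply hu.1
  have h1 : Ideal.span (E ∪ Set.range fun a => (κ a).dG) ≤
      RingHom.ker ((MvPolynomial.eval fun i => u i).comp (MvPolynomial.map (ev p))) := by
    rw [Ideal.span_le]
    rintro F (hF | ⟨a, rfl⟩)
    · exact hu.2 F hF
    · exact hcon a
  ext i
  have h2 := h1 (hX i)
  rw [RingHom.mem_ker, map_pow, RingHom.comp_apply, MvPolynomial.map_X, MvPolynomial.eval_X] at h2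
  exact eq_zero_of_pow_eq_zero h2

/-- **KR-FAM**: 461's `Fam` at every parameter where the coefficients are analytic -/
theorem fam_of_cover {E : Set (MvPolynomial (Fin (N + 1)) R)} {ι : Type*} {κ : ι → KDat n N R}
    (hκ : ∀ a, (κ a).Good E) (hE : ∀ F ∈ E, ∃ m, F.IsHomogeneous m) {m : ℕ}
    (hX : ∀ i, (MvPolynomial.X i : MvPolynomial (Fin (N + 1)) R) ^ m ∈
      Ideal.span (E ∪ Set.range fun a => (κ a).dG))
    (han : ∀ r, AnalyticAt ℂ (fun p => ev p r) p0) : Eh3_461.Fam (KC ev E) p0 :=
  fam hE han fun u hu => by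
    obtain ⟨a, ha⟩ := cover hX p0 u hu
    exact ⟨κ a, hκ a, ha⟩

end

/-- 268's `LocEq`, codimension `N - n`, at every point of the family -/
theorem locEq268 {E : Type} [NormedAddCommGroup E] [NormedSpace ℂ E] [CompleteSpace E] {R : Type*} [CommRing R]
    {ev : E → (R →+* ℂ)} {n N : ℕ} {Eq : Set (MvPolynomial (Fin (N + 1)) R)} {ι : Type*}
    {κ : ι → KDat n N R} (hκ : ∀ a, (κ a).Good Eq) (hE : ∀ F ∈ Eq, ∃ m, F.IsHomogeneous m) {m : ℕ}
    (hX : ∀ i, (MvPolynomial.X i : MvPolynomial (Fin (N + 1)) R) ^ m ∈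
      Ideal.span (Eq ∪ Set.range fun a => (κ a).dG))
    {q : E × EuclideanSpace ℂ (Fin (N + 1))} (hq : q ∈ KC ev Eq)
    (han : ∀ r, AnalyticAt ℂ (fun p => ev p r) q.1) : Ehr2_268.LocEq (KC ev Eq) (N - n) q := by
  obtain ⟨a, ha⟩ := cover (P := E) hX q.1 q.2 hq
  obtain ⟨g, h1, h2, h3⟩ := exists_loc' (hκ a) hE han hq.1 ha
  exact (Eh4_461.locEq_of_analytic h1 h2 h3).2

end Crest.Agent.R281.KrB5_871
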