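import Crest.Agent.R281.CA1_867
import Crest.Agent.R281.KrB5_871

/-!
# R281 (S0424), CERT-ASM, part 2 (helper867): tangent spaces of the cone

For good Kronecker data `κ` of the homogeneous equations `E` over `ℂ` and a point `v` of the cone with
`dG (v) ≠ 0`: the vectors killed by the derivatives of all equations are the kernel of `D Hv (v)`
(`tanE_iff`), and they form a space of dimension `n + 1` (`finrank_tanS`).
-/

set_option autoImplicit false

open MvPolynomial Set

namespace Crest.Agent.R281.CA_867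

open Crest.Agent.R281.AF_867 Crest.Agent.R281.Kr_488

noncomputable section

variable {n N : ℕ}

section Chain

variable {κ τ K : Type*} [Fintype κ] [Fintype τ] [CommRing K]

/-- chain rule for polynomials -/
theorem dE_aeval (g : κ → MvPolynomial τ K) (F : MvPolynomial κ K) (v t : τ → K) :
    dE (MvPolynomial.aeval g F) v t =
      dE F (fun k => eval v (g k)) fun k => dE (g k) v t := by
  induction F using MvPolynomial.induction_on with
  | C a =>
    rw [MvPolynomial.aeval_C, dE_C]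
    exact dE_C a v t
  | add p q hp hq => rw [map_add, dE_add, dE_add, hp, hq]
  | mul_X p k hp =>
    have h1 : ∀ p : MvPolynomial κ K, eval v (MvPolynomial.aeval g p) =
        eval (fun k => eval v (g k)) p := by
      intro p
      have h : (eval v).comp (MvPolynomial.aeval (R := K) g).toRingHom =
          eval fun k => eval v (g k) := by
        refine MvPolynomial.ringHom_ext ?_ ?_
        · intro r
          simp
        · intro j
          simp
      exact congrArg (fun f => f p) h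
    rw [map_mul, aeval_X, dE_mul, dE_mul, hp, h1, eval_X, dE_X]

end Chain

/-- the space of the vectors killed by the derivatives of the equations -/
def TanS {κ L : Type*} [Fintype κ] [CommRing L] (E : Set (MvPolynomial κ L)) (x : κ → L) :
    Submodule L (κ → L) where
  carrier := {t | TanE E x t}
  add_mem' {s t} hs ht p hp := by rw [dE_add_right, hs p hp, ht p hp, add_zero]
  zero_mem' p _ := by simp [dE]
  smul_mem' a t ht p hp := by rw [dE_smul_right, ht p hp, mul_zero]

theorem mem_TanS {κ L : Type*} [Fintype κ] [CommRing L] {E : Set (MvPolynomial κ L)} {x t : κ → L} :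
    t ∈ TanS E x ↔ TanE E x t := Iff.rfl

/-- the equations of the chart -/
def Hq {R : Type*} [CommRing R] (κ : KDat n N R) (k : Fin (N + 1)) :
    MvPolynomial (Fin (N + 1)) R := X k * κ.dG - κ.sub (κ.Nm k)

theorem fderiv_Hv_eq (κ : KDat n N ℂ) (v t : Fin (N + 1) → ℂ) (k : Fin (N + 1)) :
    fderiv ℂ κ.Hv v t k = dE (Hq κ k) v t := by
  have h1 : HasFDerivAt κ.Hv (fderiv ℂ κ.Hv v) v := (differentiable_Hv κ v).hasFDerivAt
  have h2 : HasFDerivAt (fun w => κ.Hv w k)
      ((ContinuousLinearMap.proj k).comp (fderiv ℂ κ.Hv v)) v :=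
    (ContinuousLinearMap.proj (R := ℂ) (φ := fun _ : Fin (N + 1) => ℂ) k).hasFDerivAt.comp v h1
  have h3 := hasFDerivAt_ev (f := fun (l : Fin (N + 1)) (z : Fin (N + 1) → ℂ) => z l)
    (z0 := v) (fun l => (ContinuousLinearMap.proj (R := ℂ)
      (φ := fun _ : Fin (N + 1) => ℂ) l).hasFDerivAt) (Hq κ k)
  have h4 : (fun w => κ.Hv w k) = fun z : Fin (N + 1) → ℂ => eval (fun l => z l) (Hq κ k) := by
    funext w
    exact κ.Hv_eq w k
  rw [h4] at h2
  have h5 := congrArg (fun T => T t) (h2.unique h3)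
  have h6 : fderiv ℂ κ.Hv v t k =
      ((ContinuousLinearMap.proj (R := ℂ) (φ := fun _ : Fin (N + 1) => ℂ) k).comp
        (fderiv ℂ κ.Hv v)) t := rfl
  rw [h6, h5]
  simp only [_root_.sum_apply, _root_.smul_apply, ContinuousLinearMap.proj_apply, smul_eq_mul]
  rfl

variable {κ : KDat n N ℂ} {E : Set (MvPolynomial (Fin (N + 1)) ℂ)}

/-- `D · sub G = ∑ w_k H_k` -/
theorem sub_G_eq (h : κ.Good E) : MvPolynomial.C (κ.D : ℂ) * κ.sub κ.G =
    ∑ k, MvPolynomial.C (κ.w k) * Hq κ k := by
  have h1 := congrArg κ.sub h.wN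
  have hC : ∀ a : ℂ, κ.sub (Polynomial.C (MvPolynomial.C a)) = MvPolynomial.C a := by
    intro a
    simp [KDat.sub, KDat.subY]
  have hX : κ.sub Polynomial.X = lin κ.w := by simp [KDat.sub]
  rw [map_sum, map_sub, map_mul, map_mul, map_natCast, hX] at h1
  simp only [map_mul, hC] at h1
  have h2 : MvPolynomial.C (κ.D : ℂ) = (κ.D : MvPolynomial (Fin (N + 1)) ℂ) :=
    map_natCast MvPolynomial.C κ.D
  have h3 : ∑ k, MvPolynomial.C (κ.w k) * Hq κ k = lin κ.w * κ.sub (Polynomial.derivative κ.G) -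
      ∑ k, MvPolynomial.C (κ.w k) * κ.sub (κ.Nm k) := by
    unfold Hq lin
    rw [Finset.sum_mul, ← Finset.sum_sub_distrib]
    refine Finset.sum_congr rfl fun k _ => ?_
    rw [KDat.dG]
    ring
  rw [h3, h1, h2]
  ring

theorem tanE_of_Hq (h : κ.Good E) (hE : ∀ F ∈ E, ∃ d, F.IsHomogeneous d)
    {v : Fin (N + 1) → ℂ} (hv : OnE E v) (hd : eval v κ.dG ≠ 0) {t : Fin (N + 1) → ℂ}
    (ht : ∀ k, dE (Hq κ k) v t = 0) : TanE E v t := by
  intro F hF
  obtain ⟨d, hFd⟩ := hE F hF
  obtain ⟨Q, hQ⟩ := h.dvd F hF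
  have h0 : ∀ p : MvPolynomial (Fin (N + 1)) ℂ,
      κ.sub (MvPolynomial.aeval κ.Nm p) = MvPolynomial.aeval (fun k => κ.sub (κ.Nm k)) p := by
    intro p
    have h : κ.sub.comp (MvPolynomial.aeval (R := ℂ) κ.Nm).toRingHom =
        (MvPolynomial.aeval (R := ℂ) fun k => κ.sub (κ.Nm k)).toRingHom := by
      refine MvPolynomial.ringHom_ext ?_ ?_
      · intro r
        simp [KDat.sub, KDat.subY, Polynomial.algebraMap_apply]
      · intro j
        simp
    exact congrArg (fun f => f p) h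
  have h1 : MvPolynomial.aeval (fun k => κ.sub (κ.Nm k)) F = κ.sub κ.G * κ.sub Q := by
    rw [← h0, hQ, map_mul]
  have h2 := congrArg (fun p => dE p v t) h1
  simp only [dE_aeval, dE_mul] at h2
  -- values and derivatives of the numerators
  have hev : ∀ k, eval v (κ.sub (κ.Nm k)) = (eval v κ.dG • v) k := by
    intro k
    have h3 := hv _ (h.memN k)
    rw [map_sub, map_mul, eval_X] at h3
    rw [Pi.smul_apply, smul_eq_mul]
    linear_combination -h3
  have hdE : ∀ k, dE (κ.sub (κ.Nm k)) v t = (eval v κ.dG • t + dE κ.dG v t • v) k := by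
    intro k
    have h3 := ht k
    unfold Hq at h3
    rw [dE_sub, dE_mul, eval_X, dE_X] at h3
    rw [Pi.add_apply, Pi.smul_apply, Pi.smul_apply, smul_eq_mul, smul_eq_mul]
    linear_combination -h3
  have hG0 : eval v (κ.sub κ.G) = 0 := hv _ h.memG
  have hD : (κ.D : ℂ) ≠ 0 := Nat.cast_ne_zero.2 h.D_pos.ne'
  have hG1 : dE (κ.sub κ.G) v t = 0 := by
    have h3 := congrArg (fun p => dE p v t) (sub_G_eq h)
    simp only [dE_mul, dE_C, dE_sum, ht, mul_zero, add_zero, eval_C] at h3
    rw [Finset.sum_const_zero] at h3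
    exact (mul_eq_zero.1 h3).resolve_left hD
  rw [hG0, hG1, zero_mul, mul_zero, add_zero, funext hev, funext hdE, dE_add_right,
    dE_smul_right, dE_smul_right, dE_smul_left hFd, dE_smul_left hFd, dE_self hFd, hv F hF,
    mul_zero, mul_zero, mul_zero, add_zero] at h2
  exact ((mul_eq_zero.1 ((mul_eq_zero.1 h2).resolve_left hd)).resolve_left (pow_ne_zero _ hd))

/-- **the tangent vectors of the equations are those of the chart** -/
theorem tanE_iff (h : κ.Good E) (hE : ∀ F ∈ E, ∃ d, F.IsHomogeneous d)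
    {v : Fin (N + 1) → ℂ} (hv : OnE E v) (hd : eval v κ.dG ≠ 0) {t : Fin (N + 1) → ℂ} :
    TanE E v t ↔ fderiv ℂ κ.Hv v t = 0 := by
  constructor
  · intro ht
    funext k
    rw [fderiv_Hv_eq]
    exact ht _ (h.memN k)
  · intro ht
    refine tanE_of_Hq h hE hv hd fun k => ?_
    rw [← fderiv_Hv_eq, ht]
    rfl

/-- the linear forms, as a linear map -/
def lamL (κ : KDat n N ℂ) : (Fin (N + 1) → ℂ) →ₗ[ℂ] (Fin (n + 1) → ℂ) :=
  LinearMap.pi fun j => (lvL (κ.lam j) : (Fin (N + 1) → ℂ) →ₗ[ℂ] ℂ)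

theorem lamL_apply (κ : KDat n N ℂ) (v : Fin (N + 1) → ℂ) (j : Fin (n + 1)) :
    lamL κ v j = lv (κ.lam j) v := rfl

theorem lamL_surj (h : κ.Good E) : Function.Surjective (lamL κ) := by
  intro y
  obtain ⟨x, hx⟩ := KrB5_871.surj_TT h y
  refine ⟨fun k => x k, ?_⟩
  funext j
  rw [lamL_apply, ← KrB3_871.TT_apply, hx]

/-- **the tangent spaces have dimension `n + 1`**: coordinates -/
def tanEquiv (h : κ.Good E) (hE : ∀ F ∈ E, ∃ d, F.IsHomogeneous d)
    {v : Fin (N + 1) → ℂ} (hv : OnE E v) (hd : eval v κ.dG ≠ 0) :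
    TanS E v ≃ₗ[ℂ] (Fin (n + 1) → ℂ) :=
  LinearEquiv.ofBijective ((lamL κ).comp (TanS E v).subtype) (by
    constructor
    · rw [injective_iff_map_eq_zero]
      rintro ⟨t, ht⟩ h0
      have h1 : t ∈ kerL κ := by
        rw [mem_kerL]
        intro j
        exact congrFun h0 j
      exact Subtype.ext (h.fderiv_inj hd h1 ((tanE_iff h hE hv hd).1 ht))
    · intro y
      obtain ⟨t0, ht0⟩ := lamL_surj h y
      obtain ⟨a, ha, hab⟩ := h.fderiv_surj hd (h.fderiv_mem v t0)
      refine ⟨⟨t0 - a, (tanE_iff h hE hv hd).2 (by rw [map_sub, hab, sub_self])⟩, ?_⟩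
      show lamL κ (t0 - a) = y
      rw [map_sub, ht0]
      have h1 : lamL κ a = 0 := by
        funext j
        exact mem_kerL.1 ha j
      rw [h1, sub_zero])

theorem finrank_tanS (h : κ.Good E) (hE : ∀ F ∈ E, ∃ d, F.IsHomogeneous d)
    {v : Fin (N + 1) → ℂ} (hv : OnE E v) (hd : eval v κ.dG ≠ 0) :
    Module.finrank ℂ (TanS E v) = n + 1 := by
  rw [(tanEquiv h hE hv hd).finrank_eq, Module.finrank_fin_fun]

/-- **at every nonzero point of a member** -/
theorem CDat.Ok.finrank {C : CDat n N ℂ} (h : C.Ok) {v : Fin (N + 1) → ℂ} (hv : v ≠ 0)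
    (hG : OnE (range C.G) v) : Module.finrank ℂ (TanS (range C.G) v) = n + 1 := by
  obtain ⟨a, ha⟩ := h.exists_dG hv fun l => hG _ ⟨l, rfl⟩
  exact finrank_tanS (h.good a) (by
    rintro _ ⟨l, rfl⟩
    exact h.hom l) hG ha

end

end Crest.Agent.R281.CA_867
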