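import Crest.Agent.R281.Sl3_957

/-!
# R281 / Sl4 (helper957): formats of spreading out over an open set of affine space

`Fmt k₀ R` : a monic `F ∈ k₀[z₁..z_m][X]`, a denominator `D` and numerators `P i`; `M.On z w` :
`F (z, w) = 0`, `D z ≠ 0`; `M.pt z w i = P i (z, w) / D z`. For a countable field the formats with a
coordinate line through a `k₀`-rational point are countable; every finite family `c` is a point of
such a format all of whose points are specialisations of `c`.
-/

set_option autoImplicit false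
set_option linter.style.haveILetI false

namespace Crest.Agent.R281.Sl_957

open Polynomial

/-- a format -/
structure Fmt (k₀ R : Type*) [CommRing k₀] where
  m : ℕ
  F : (MvPolynomial (Fin m) k₀)[X]
  D : MvPolynomial (Fin m) k₀
  P : R → (MvPolynomial (Fin m) k₀)[X]

theorem countable_mvPolynomial (σ k : Type*) [CommRing k] [Countable k] [Countable σ] :
    Countable (MvPolynomial σ k) := by
  rw [← Cardinal.mk_le_aleph0_iff]
  refine MvPolynomial.cardinalMk_le_max_lift.trans ?_
  refine max_le (max_le ?_ ?_) le_rfl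
  · rw [Cardinal.lift_le_aleph0]; exact Cardinal.mk_le_aleph0
  · rw [Cardinal.lift_le_aleph0]; exact Cardinal.mk_le_aleph0

theorem countable_polynomial (k : Type*) [CommRing k] [Countable k] : Countable k[X] := by
  rw [← Cardinal.mk_le_aleph0_iff]
  exact Polynomial.cardinalMk_le_max.trans (max_le Cardinal.mk_le_aleph0 le_rfl)

instance countable_fmt (k₀ R : Type*) [CommRing k₀] [Countable k₀] [Finite R] :
    Countable (Fmt k₀ R) := by
  haveI : ∀ m : ℕ, Countable (MvPolynomial (Fin m) k₀) := fun m => countable_mvPolynomial _ _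
  haveI : ∀ m : ℕ, Countable (MvPolynomial (Fin m) k₀)[X] := fun m => countable_polynomial _
  let φ : Fmt k₀ R → Σ m : ℕ, (MvPolynomial (Fin m) k₀)[X] × MvPolynomial (Fin m) k₀ ×
    (R → (MvPolynomial (Fin m) k₀)[X]) := fun M => ⟨M.m, M.F, M.D, M.P⟩
  have hφ : Function.Injective φ := by
    rintro ⟨m, F, D, P⟩ ⟨m', F', D', P'⟩ h
    simp only [φ] at h
    cases h
    rfl
  exact hφ.countable

/-- coordinate lines through rational points in the affine space of a format are countable -/
instance countable_lines (k₀ R : Type*) [CommRing k₀] [Countable k₀] [Finite R] :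
    Countable (Σ M : Fmt k₀ R, (Fin M.m → k₀) × Fin M.m) := inferInstance

namespace Fmt

section field

variable {k₀ K R : Type*} [Field k₀] [Field K] [Algebra k₀ K] (M : Fmt k₀ R)

/-- points of a format -/
def On (z : Fin M.m → K) (w : K) : Prop := M.F.eval₂ (ez z) w = 0 ∧ ez z M.D ≠ 0

/-- the coefficient vector at a point -/
noncomputable def pt (z : Fin M.m → K) (w : K) (i : R) : K := (M.P i).eval₂ (ez z) w / ez z M.D

/-- separable off `D = 0` -/
structure Nice : Prop where
  monic : M.F.Monic
  ne : M.D ≠ 0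
  sep : ∃ U V : (MvPolynomial (Fin M.m) k₀)[X], U * M.F + V * derivative M.F = C M.D

variable {M}

theorem Nice.separable (h : M.Nice) (z : Fin M.m → K) (hz : ez z M.D ≠ 0) :
    (M.F.map (ez z)).Separable := by
  obtain ⟨U, V, hUV⟩ := h.sep
  have h1 := congrArg (Polynomial.map (ez z)) hUV
  rw [Polynomial.map_add, Polynomial.map_mul, Polynomial.map_mul, map_C,
    ← Polynomial.derivative_map] at h1
  refine ⟨C (ez z M.D)⁻¹ * U.map (ez z), C (ez z M.D)⁻¹ * V.map (ez z), ?_⟩
  rw [mul_assoc, mul_assoc, ← mul_add, h1, ← C_mul, inv_mul_cancel₀ hz, C_1]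

/-- a rational point with `D ≠ 0` -/
theorem Nice.exists_rat [Infinite k₀] (h : M.Nice) :
    ∃ z' : Fin M.m → k₀, MvPolynomial.eval z' M.D ≠ 0 := by
  by_contra hcon
  push Not at hcon
  exact h.ne (MvPolynomial.funext fun x => by rw [hcon, map_zero])

theorem ez_algebraMap {m : ℕ} (z' : Fin m → k₀) (p : MvPolynomial (Fin m) k₀) :
    ez (fun j => algebraMap k₀ K (z' j)) p = algebraMap k₀ K (MvPolynomial.eval z' p) := by
  have h : (ez (fun j => algebraMap k₀ K (z' j)) : MvPolynomial (Fin m) k₀ →+* K) =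
      (algebraMap k₀ K).comp (MvPolynomial.eval z') := by
    refine MvPolynomial.ringHom_ext (fun a => ?_) fun j => ?_
    · rw [ez_apply, MvPolynomial.aeval_C, RingHom.comp_apply, MvPolynomial.eval_C]
    · rw [ez_apply, MvPolynomial.aeval_X, RingHom.comp_apply, MvPolynomial.eval_X]
  rw [h]
  rfl

/-- over rational points all coordinates are rational (`k₀` algebraically closed) -/
theorem Nice.pt_rat [IsAlgClosed k₀] (h : M.Nice) (z' : Fin M.m → k₀) {w : K}
    (hw : M.F.eval₂ (ez fun j => algebraMap k₀ K (z' j)) w = 0) (i : R) :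
    ∃ a : k₀, algebraMap k₀ K a = M.pt (fun j => algebraMap k₀ K (z' j)) w i := by
  have hcomp : (ez (fun j => algebraMap k₀ K (z' j)) : MvPolynomial (Fin M.m) k₀ →+* K) =
      (algebraMap k₀ K).comp (MvPolynomial.eval z') := RingHom.ext fun p => ez_algebraMap z' p
  have h1 : IsIntegral k₀ w := ⟨M.F.map (MvPolynomial.eval z'), h.monic.map _, by
    rw [eval₂_map, ← hcomp]
    exact hw⟩
  obtain ⟨a, rfl⟩ : ∃ a : k₀, algebraMap k₀ K a = w :=
    (minpoly.degree_eq_one_iff (A := k₀) (x := w)).1
      (IsAlgClosed.degree_eq_one_of_irreducible k₀ (minpoly.irreducible h1))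
  refine ⟨((M.P i).map (MvPolynomial.eval z')).eval a / MvPolynomial.eval z' M.D, ?_⟩
  rw [pt, ez_algebraMap, map_div₀, ← eval₂_at_apply, eval₂_map, ← hcomp]

/-! ### lines -/

/-- restriction to the line `a + u d` -/
noncomputable def lin {m : ℕ} (a d : Fin m → K) : MvPolynomial (Fin m) k₀ →+* K[X] :=
  ((MvPolynomial.aeval fun j => C (a j) + X * C (d j) : MvPolynomial (Fin m) k₀ →ₐ[k₀] K[X]) :
    MvPolynomial (Fin m) k₀ →+* K[X])

theorem evalRingHom_lin {m : ℕ} (a d : Fin m → K) (u : K) :
    (evalRingHom u).comp (lin (k₀ := k₀) a d) = ez fun j => a j + u * d j := by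
  refine MvPolynomial.ringHom_ext (fun x => ?_) fun j => ?_
  · rw [RingHom.comp_apply, ez_apply, MvPolynomial.aeval_C]
    change eval u (MvPolynomial.aeval _ (MvPolynomial.C x)) = _
    rw [MvPolynomial.aeval_C, IsScalarTower.algebraMap_apply k₀ K K[X], ← C_eq_algebraMap, eval_C]
  · rw [RingHom.comp_apply, ez_apply, MvPolynomial.aeval_X]
    change eval u (MvPolynomial.aeval _ (MvPolynomial.X j)) = _
    rw [MvPolynomial.aeval_X, eval_add, eval_mul, eval_C, eval_C, eval_X]

theorem eval_lin {m : ℕ} (a d : Fin m → K) (u : K) (p : MvPolynomial (Fin m) k₀) :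
    (lin a d p).eval u = ez (fun j => a j + u * d j) p :=
  congrArg (fun g => g p) (evalRingHom_lin a d u)

theorem evalEval_lin {m : ℕ} (a d : Fin m → K) (u w : K) (p : (MvPolynomial (Fin m) k₀)[X]) :
    evalEval u w (p.map (lin a d)) = p.eval₂ (ez fun j => a j + u * d j) w := by
  rw [← map_evalRingHom_eval, Polynomial.map_map, evalRingHom_lin, eval_map]

variable (M)

/-- the plane curve over the line `a + u d` -/
noncomputable def lf (a d : Fin M.m → K) : K[X][X] := M.F.map (lin a d)

/-- the denominator on the line -/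
noncomputable def lδ (a d : Fin M.m → K) : K[X] := lin a d M.D

/-- the numerators on the line -/
noncomputable def lP (a d : Fin M.m → K) (i : R) : K[X][X] := (M.P i).map (lin a d)

theorem eval_lδ (a d : Fin M.m → K) (u : K) :
    (M.lδ a d).eval u = ez (fun j => a j + u * d j) M.D := eval_lin a d u _

theorem evalEval_lf (a d : Fin M.m → K) (u w : K) :
    evalEval u w (M.lf a d) = M.F.eval₂ (ez fun j => a j + u * d j) w := evalEval_lin a d u w _

theorem evalEval_lP (a d : Fin M.m → K) (u w : K) (i : R) :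
    evalEval u w (M.lP a d i) = (M.P i).eval₂ (ez fun j => a j + u * d j) w :=
  evalEval_lin a d u w _

theorem on_iff (a d : Fin M.m → K) (u w : K) :
    M.On (fun j => a j + u * d j) w ↔ evalEval u w (M.lf a d) = 0 ∧ (M.lδ a d).eval u ≠ 0 := by
  rw [On, evalEval_lf, eval_lδ]

theorem pt_line (a d : Fin M.m → K) (u w : K) (i : R) :
    M.pt (fun j => a j + u * d j) w i = evalEval u w (M.lP a d i) / (M.lδ a d).eval u := by
  rw [pt, evalEval_lP, eval_lδ]

variable {M}

theorem Nice.lf_monic (h : M.Nice) (a d : Fin M.m → K) : (M.lf a d).Monic := h.monic.map _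

theorem Nice.lf_sep (h : M.Nice) (a d : Fin M.m → K) (u : K) (hu : (M.lδ a d).eval u ≠ 0) :
    ((M.lf a d).map (evalRingHom u)).Separable := by
  rw [lf, Polynomial.map_map, evalRingHom_lin]
  rw [eval_lδ] at hu
  exact h.separable _ hu

end field

/-- **spreading out**: `c` is a point of a format all of whose points are specialisations -/
theorem exists_fmt {k₀ K R : Type*} [Field k₀] [CharZero k₀] [Field K] [Algebra k₀ K] [Finite R]
    (c : R → K) (r : MvPolynomial R k₀) (hr : MvPolynomial.aeval c r ≠ 0) :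
    ∃ (M : Fmt k₀ R) (z : Fin M.m → K) (b : K), M.Nice ∧ AlgebraicIndependent k₀ z ∧ M.On z b ∧
      M.pt z b = c ∧ ∀ (z' : Fin M.m → K) (w : K), M.On z' w →
        (∀ G : MvPolynomial R k₀, MvPolynomial.aeval c G = 0 →
          MvPolynomial.aeval (M.pt z' w) G = 0) ∧ MvPolynomial.aeval (M.pt z' w) r ≠ 0 := by
  classical
  obtain ⟨m, z, b, F, D, P, U, V, hz, hF, hD, hmin, hFb, hP, hUV⟩ :=
    exists_model (k₀ := k₀) (fun i : Option R => i.elim (MvPolynomial.aeval c r)⁻¹ c)
  have hzD : ez z D ≠ 0 := fun h => hD (hz (by rw [map_zero]; exact h))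
  have hspec : ∀ (z' : Fin m → K) (w : K), F.eval₂ (ez z') w = 0 → ez z' D ≠ 0 →
      ∀ G : MvPolynomial (Option R) k₀,
      MvPolynomial.aeval (fun i : Option R => i.elim (MvPolynomial.aeval c r)⁻¹ c) G = 0 →
      MvPolynomial.aeval (fun i => (P i).eval₂ (ez z') w / ez z' D) G = 0 := by
    intro z' w h0 hδ G hG
    obtain ⟨N, G', hG'⟩ := exists_homog (K := K) D P G
    have h1 := hG' (eval₂RingHom (ez z) b) (fun a => by
      change eval₂ (ez z) b (C (MvPolynomial.C a)) = _
      rw [eval₂_C, ez_apply, MvPolynomial.aeval_C]) (by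
      change eval₂ (ez z) b (C D) ≠ 0
      rw [eval₂_C]
      exact hzD)
    have h2 : (fun i : Option R => eval₂RingHom (ez z) b (P i) / eval₂RingHom (ez z) b (C D)) =
        fun i : Option R => i.elim (MvPolynomial.aeval c r)⁻¹ c := by
      funext i
      change eval₂ (ez z) b (P i) / eval₂ (ez z) b (C D) = _
      rw [eval₂_C, ← hP, mul_div_cancel_left₀ _ hzD]
    rw [h2, hG, mul_zero] at h1
    obtain ⟨q, hq⟩ := hmin G' h1
    have h3 := hG' (eval₂RingHom (ez z') w) (fun a => by
      change eval₂ (ez z') w (C (MvPolynomial.C a)) = _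
      rw [eval₂_C, ez_apply, MvPolynomial.aeval_C]) (by
      change eval₂ (ez z') w (C D) ≠ 0
      rw [eval₂_C]
      exact hδ)
    have h4 : (eval₂RingHom (ez z') w) (C D) = ez z' D := eval₂_C _ _
    have h5 : (eval₂RingHom (ez z') w) F = 0 := h0
    rw [hq, map_mul, h5, zero_mul, h4] at h3
    exact (mul_eq_zero.1 h3.symm).resolve_left (pow_ne_zero _ hδ)
  refine ⟨⟨m, F, D, fun i => P (some i)⟩, z, b, ⟨hF, hD, U, V, hUV⟩, hz, ⟨hFb, hzD⟩, ?_,
    fun z' w h => ⟨fun G hG => ?_, ?_⟩⟩
  · funext i
    change (P (some i)).eval₂ (ez z) b / ez z D = c i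
    rw [← hP, mul_div_cancel_left₀ _ hzD]
    rfl
  · have h1 := hspec z' w h.1 h.2 (MvPolynomial.rename some G) (by
      rw [MvPolynomial.aeval_rename]
      exact hG)
    rw [MvPolynomial.aeval_rename] at h1
    exact h1
  · have h1 := hspec z' w h.1 h.2
      (MvPolynomial.rename some r * MvPolynomial.X none - 1) (by
      rw [map_sub, map_mul, MvPolynomial.aeval_rename, MvPolynomial.aeval_X, map_one]
      change MvPolynomial.aeval c r * (MvPolynomial.aeval c r)⁻¹ - 1 = 0
      rw [mul_inv_cancel₀ hr, sub_self])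
    rw [map_sub, map_mul, MvPolynomial.aeval_rename, MvPolynomial.aeval_X, map_one] at h1
    intro h2
    have h3 : MvPolynomial.aeval ((fun i => (P i).eval₂ (ez z') w / ez z' D) ∘ some) r = 0 := h2
    rw [h3, zero_mul, zero_sub, neg_eq_zero] at h1
    exact one_ne_zero h1

end Fmt

end Crest.Agent.R281.Sl_957
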