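import Crest.Agent.R281.CA2_867
import Crest.Agent.R281.Sl4_957

/-!
# R281 (S0424), CERT-ASM, part 3 (helper867): codes

* `RelOk k₀ c0 c'`  : `c'` satisfies all polynomial relations of `c0` over `k₀`;
* `evC c0 c'`       : the homomorphism `k₀[c0] → ℂ`, `c0 ↦ c'` (the inclusion if `¬ RelOk`);
* `analyticAt_evC`  : analytic dependence;
* `Code k₀ n N`     : certificate data whose coefficients are polynomials over `k₀` in a vector
                      `c : Fin k → ℂ`; countable for countable `k₀`;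
* `Code.Good K c`   : the identities of the certificate hold in `k₀[c]`;
* `Good.spec`, `Good.ok_of_rel`, `Good.mem_ok`.
-/

set_option autoImplicit false

open MvPolynomial Set Filter Topology

namespace Crest.Agent.R281.CA_867

open Crest.Agent.R281.AF_867 Crest.Agent.R281.Kr_488 Crest.Agent.R281.Ns_476

noncomputable section

section Ev

variable {k₀ : Type} [CommRing k₀] [Algebra k₀ ℂ] {α : Type}

/-- `c'` satisfies the relations of `c0` -/
def RelOk (k₀ : Type) [CommRing k₀] [Algebra k₀ ℂ] {α : Type} (c0 c' : α → ℂ) : Prop :=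
  ∀ r : MvPolynomial α k₀, aeval c0 r = 0 → aeval c' r = 0

theorem RelOk.refl (c0 : α → ℂ) : RelOk k₀ c0 c0 := fun _ h => h

theorem RelOk.trans {c0 c1 c2 : α → ℂ} (h : RelOk k₀ c0 c1) (h' : RelOk k₀ c1 c2) :
    RelOk k₀ c0 c2 := fun r hr => h' r (h r hr)

open Classical in
/-- the homomorphism of the point `c'` -/
def evC (k₀ : Type) [CommRing k₀] [Algebra k₀ ℂ] {α : Type} (c0 c' : α → ℂ) :
    Rg k₀ c0 →ₐ[k₀] ℂ :=
  if h : RelOk k₀ c0 c' then (exists_hom c0 c' h).choose else (Rg k₀ c0).val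

theorem evC_apply {c0 c' : α → ℂ} (h : RelOk k₀ c0 c') (r : MvPolynomial α k₀) :
    evC k₀ c0 c' ⟨aeval c0 r, ⟨r, rfl⟩⟩ = aeval c' r := by
  unfold evC
  rw [dif_pos h]
  exact (exists_hom c0 c' h).choose_spec r

theorem evC_eq {c0 c' : α → ℂ} (h : RelOk k₀ c0 c') (x : Rg k₀ c0) {r : MvPolynomial α k₀}
    (hr : aeval c0 r = (x : ℂ)) : evC k₀ c0 c' x = aeval c' r := by
  rw [← evC_apply h r]
  exact congrArg _ (Subtype.ext hr.symm)

theorem evC_self (c0 : α → ℂ) : evC k₀ c0 c0 = (Rg k₀ c0).val := by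
  ext x
  obtain ⟨r, hr⟩ := x.2
  rw [evC_eq (RelOk.refl c0) x hr]
  exact hr

section An

variable {P : Type*} [NormedAddCommGroup P] [NormedSpace ℂ P]

theorem analyticAt_aeval {c : P → α → ℂ} {p0 : P} (hc : ∀ a, AnalyticAt ℂ (fun p => c p a) p0)
    (r : MvPolynomial α k₀) : AnalyticAt ℂ (fun p => aeval (c p) r) p0 := by
  induction r using MvPolynomial.induction_on with
  | C a =>
    simp only [algHom_C]
    exact analyticAt_const
  | add p q hp hq =>
    simp only [map_add]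
    exact hp.add hq
  | mul_X p a hp =>
    simp only [map_mul, aeval_X]
    exact hp.mul (hc a)

/-- **analytic dependence** -/
theorem analyticAt_evC {c0 : α → ℂ} {c : P → α → ℂ} {p0 : P}
    (hc : ∀ a, AnalyticAt ℂ (fun p => c p a) p0) (hrel : ∀ᶠ p in 𝓝 p0, RelOk k₀ c0 (c p))
    (x : Rg k₀ c0) : AnalyticAt ℂ (fun p => evC k₀ c0 (c p) x) p0 := by
  obtain ⟨r, hr⟩ := x.2
  refine (analyticAt_aeval hc r).congr ?_
  filter_upwards [hrel] with p hp
  exact (evC_eq hp x hr).symm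

end An

/-- `k₀[X] → k₀[c]` -/
def toRg (k₀ : Type) [CommRing k₀] [Algebra k₀ ℂ] {α : Type} (c : α → ℂ) :
    MvPolynomial α k₀ →+* Rg k₀ c :=
  (aeval c : MvPolynomial α k₀ →ₐ[k₀] ℂ).rangeRestrict.toRingHom

theorem toRg_surjective (c : α → ℂ) : Function.Surjective (toRg k₀ c) :=
  AlgHom.rangeRestrict_surjective _

theorem val_toRg (c : α → ℂ) (r : MvPolynomial α k₀) : ((toRg k₀ c r : Rg k₀ c) : ℂ) = aeval c r :=
  rfl

theorem val_comp_toRg (c : α → ℂ) : (Rg k₀ c).val.toRingHom.comp (toRg k₀ c) =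
    (aeval c : MvPolynomial α k₀ →ₐ[k₀] ℂ).toRingHom := rfl

theorem evC_comp_toRg {c0 c' : α → ℂ} (h : RelOk k₀ c0 c') :
    (evC k₀ c0 c').toRingHom.comp (toRg k₀ c0) =
      (aeval c' : MvPolynomial α k₀ →ₐ[k₀] ℂ).toRingHom := by
  refine RingHom.ext fun r => ?_
  exact evC_apply h r

end Ev

/-! ### lifting data along a surjection -/

section Lift

variable {n N : ℕ} {R S : Type} [CommRing R] [CommRing S] {φ : R →+* S}

theorem mv_lift_surj (hφ : Function.Surjective φ) {σ : Type} :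
    Function.Surjective (MvPolynomial.map (σ := σ) φ) := MvPolynomial.map_surjective φ hφ

theorem poly_lift_surj (hφ : Function.Surjective φ) {m : ℕ} :
    Function.Surjective (Polynomial.map (MvPolynomial.map (σ := Fin m) φ)) :=
  Polynomial.map_surjective _ (mv_lift_surj hφ)

theorem CDat.exists_lift (hφ : Function.Surjective φ) (C : CDat n N S)
    (G : Fin C.r → MvPolynomial (Fin (N + 1)) R) (hG : ∀ l, MvPolynomial.map φ (G l) = C.G l) :
    ∃ (C' : CDat n N R) (hr : C'.r = C.r), C'.map φ = C ∧ ∀ l, C'.G l = G (Fin.cast hr l) := by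
  have hκ : ∀ a, ∃ κ : KDat n N R, κ.map φ = C.κ a := by
    intro a
    choose l hl using fun (j : Fin (n + 1)) (k : Fin (N + 1)) => hφ ((C.κ a).lam j k)
    choose w hw using fun (k : Fin (N + 1)) => hφ ((C.κ a).w k)
    obtain ⟨G', hG'⟩ := poly_lift_surj hφ (C.κ a).G
    choose Nm hNm using fun k => poly_lift_surj hφ ((C.κ a).Nm k)
    refine ⟨⟨l, w, (C.κ a).D, G', Nm⟩, ?_⟩
    show KDat.mk (fun j k => φ (l j k)) (fun k => φ (w k)) (C.κ a).D
      (G'.map (MvPolynomial.map φ)) (fun k => (Nm k).map (MvPolynomial.map φ)) = C.κ a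
    simp only [hl, hw, hG', hNm]
  choose κ hκ using hκ
  choose s hs using fun (j k l : Fin (N + 1)) => mv_lift_surj hφ (C.D.s j k l)
  choose U hU using fun a => poly_lift_surj hφ (C.U a)
  choose V hV using fun a => poly_lift_surj hφ (C.V a)
  choose d hd using fun a => mv_lift_surj hφ (C.d a)
  refine ⟨⟨C.r, G, C.q, κ, C.m, ⟨C.D.m, fun j => Matrix.of fun k l => s j k l⟩, U, V, d⟩, rfl, ?_,
    fun _ => rfl⟩
  have hD : FDat.map ⟨C.D.m, fun j => Matrix.of fun k l => s j k l⟩ φ = C.D := by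
    show (⟨C.D.m, fun j => (Matrix.of fun k l => s j k l).map (MvPolynomial.map φ)⟩ :
      FDat _ S) = C.D
    have h1 : (fun j => (Matrix.of fun k l => s j k l).map (MvPolynomial.map φ)) = C.D.s := by
      funext j
      ext1 k l
      exact hs j k l
    rw [h1]
  show CDat.mk C.r (fun l => MvPolynomial.map φ (G l)) C.q (fun a => (κ a).map φ) C.m
    (FDat.map ⟨C.D.m, fun j => Matrix.of fun k l => s j k l⟩ φ)
    (fun a => (U a).map (MvPolynomial.map φ)) (fun a => (V a).map (MvPolynomial.map φ))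
    (fun a => MvPolynomial.map φ (d a)) = C
  simp only [hG, hκ, hD, hU, hV, hd]

end Lift

/-! ### codes -/

/-- certificate data with coefficients `k₀[c]`, and a polynomial `rr` in `c` -/
structure Code (k₀ : Type) [CommRing k₀] (n N : ℕ) where
  k : ℕ
  Y : CDat n N (MvPolynomial (Fin k) k₀)
  rr : MvPolynomial (Fin k) k₀

namespace Code

variable {k₀ : Type} [CommRing k₀] [Algebra k₀ ℂ] {n N : ℕ}

/-- the data of the member `c` -/
def mem (K : Code k₀ n N) (c : Fin K.k → ℂ) : CDat n N ℂ :=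
  K.Y.map (aeval c : MvPolynomial (Fin K.k) k₀ →ₐ[k₀] ℂ).toRingHom

/-- the data over `k₀[c]` -/
def rg (K : Code k₀ n N) (c : Fin K.k → ℂ) : CDat n N (Rg k₀ c) := K.Y.map (toRg k₀ c)

theorem rg_map_val (K : Code k₀ n N) (c : Fin K.k → ℂ) :
    (K.rg c).map (Rg k₀ c).val.toRingHom = K.mem c := by
  unfold rg mem
  rw [CDat.map_map]
  rfl

theorem rg_map_evC (K : Code k₀ n N) {c c' : Fin K.k → ℂ} (h : RelOk k₀ c c') :
    (K.rg c).map (evC k₀ c c').toRingHom = K.mem c' := by
  unfold rg mem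
  rw [CDat.map_map, evC_comp_toRg h]

/-- the identities hold for `c` -/
structure Good (K : Code k₀ n N) (c : Fin K.k → ℂ) : Prop where
  ok : (K.rg c).Ok
  ne : aeval c K.rr ≠ 0
  dvd : ∀ a, ∃ α, coeff α (K.Y.d a) ∣ K.rr

variable {K : Code k₀ n N} {c : Fin K.k → ℂ}

/-- **every member is a certificate** -/
theorem Good.mem_ok (h : K.Good c) : (K.mem c).Ok := by
  rw [← K.rg_map_val c]
  exact h.ok.map _

theorem Good.d_ne (h : K.Good c) (a : Fin (K.mem c).q) : (K.mem c).d a ≠ 0 := by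
  obtain ⟨α, p, hp⟩ := h.dvd a
  intro h0
  apply h.ne
  have h1 : coeff α ((K.mem c).d a) = aeval c (coeff α (K.Y.d a)) := coeff_map _ _ _
  rw [h0, coeff_zero] at h1
  rw [hp, map_mul, ← h1, zero_mul]

/-- **all specialisations**: `c'` in any `k₀`-algebra satisfying the relations of `c` -/
theorem Good.ok_of_rel (h : K.Good c) {L : Type} [CommRing L] [Nontrivial L] [Algebra k₀ L]
    (c' : Fin K.k → L) (hrel : ∀ r : MvPolynomial (Fin K.k) k₀, aeval c r = 0 → aeval c' r = 0) :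
    (K.Y.map (aeval c' : MvPolynomial (Fin K.k) k₀ →ₐ[k₀] L).toRingHom).Ok := by
  obtain ⟨φ, hφ⟩ := exists_hom c c' hrel
  have h1 : φ.toRingHom.comp (toRg k₀ c) =
      (aeval c' : MvPolynomial (Fin K.k) k₀ →ₐ[k₀] L).toRingHom := RingHom.ext fun r => hφ r
  rw [← h1, ← CDat.map_map]
  exact h.ok.map _

/-- **specialisation** -/
theorem Good.spec (h : K.Good c) {c' : Fin K.k → ℂ} (hrel : RelOk k₀ c c')
    (hne : aeval c' K.rr ≠ 0) : K.Good c' := by
  refine ⟨?_, hne, h.dvd⟩
  have hval : ∀ r : MvPolynomial (Fin K.k) k₀,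
      ((aeval (fun i => (⟨c' i, mem_Rg c' i⟩ : Rg k₀ c')) r : Rg k₀ c') : ℂ) = aeval c' r := by
    intro r
    have h1 := MvPolynomial.comp_aeval_apply (fun i => (⟨c' i, mem_Rg c' i⟩ : Rg k₀ c'))
      (Rg k₀ c').val r
    exact h1
  have h2 := h.ok_of_rel (fun i => (⟨c' i, mem_Rg c' i⟩ : Rg k₀ c')) (fun r hr => by
    apply Subtype.ext
    rw [hval, hrel r hr]
    rfl)
  have h3 : (aeval (fun i => (⟨c' i, mem_Rg c' i⟩ : Rg k₀ c')) :
      MvPolynomial (Fin K.k) k₀ →ₐ[k₀] Rg k₀ c').toRingHom = toRg k₀ c' := by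
    refine RingHom.ext fun r => Subtype.ext ?_
    exact hval r
  rw [h3] at h2
  exact h2

/-- the punctured cone of the member -/
def cone (K : Code k₀ n N) (c : Fin K.k → ℂ) : Set (EuclideanSpace ℂ (Fin (N + 1))) :=
  {v | v ≠ 0 ∧ OnE (range (K.mem c).G) fun i => v i}

/-- equations with coefficients in `k₀` are equations of every member -/
theorem mem_G_of_C {p : MvPolynomial (Fin (N + 1)) k₀}
    (hp : MvPolynomial.map (MvPolynomial.C : k₀ →+* MvPolynomial (Fin K.k) k₀) p ∈ range K.Y.G)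
    (c : Fin K.k → ℂ) : MvPolynomial.map (algebraMap k₀ ℂ) p ∈ range (K.mem c).G := by
  obtain ⟨l, hl⟩ := hp
  refine ⟨l, ?_⟩
  have h1 : (aeval c : MvPolynomial (Fin K.k) k₀ →ₐ[k₀] ℂ).toRingHom.comp
      (MvPolynomial.C : k₀ →+* MvPolynomial (Fin K.k) k₀) = algebraMap k₀ ℂ := by
    refine RingHom.ext fun a => ?_
    simp
  show MvPolynomial.map (aeval c : MvPolynomial (Fin K.k) k₀ →ₐ[k₀] ℂ).toRingHom (K.Y.G l) = _
  rw [hl, MvPolynomial.map_map, h1]

section Count

variable (k₀) [Countable k₀] (n N)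

theorem countable_kdat (R : Type) [CommRing R] [Countable R] : Countable (KDat n N R) := by
  have : Countable (MvPolynomial (Fin (n + 1)) R) := Sl_957.countable_mvPolynomial _ _
  have : Countable (Polynomial (MvPolynomial (Fin (n + 1)) R)) := Sl_957.countable_polynomial _
  let φ : KDat n N R → (Fin (n + 1) → Fin (N + 1) → R) × (Fin (N + 1) → R) × ℕ ×
    Polynomial (MvPolynomial (Fin (n + 1)) R) ×
      (Fin (N + 1) → Polynomial (MvPolynomial (Fin (n + 1)) R)) :=
    fun κ => (κ.lam, κ.w, κ.D, κ.G, κ.Nm)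
  have hφ : Function.Injective φ := by
    rintro ⟨a, b, c, d, e⟩ ⟨a', b', c', d', e'⟩ h
    simp only [φ, Prod.mk.injEq] at h
    obtain ⟨rfl, rfl, rfl, rfl, rfl⟩ := h
    rfl
  exact hφ.countable

theorem countable_fdat (R : Type) [CommRing R] [Countable R] : Countable (FDat (Fin (N + 1)) R) := by
  have : Countable (MvPolynomial (Fin (N + 1)) R) := Sl_957.countable_mvPolynomial _ _
  let φ : FDat (Fin (N + 1)) R → ℕ × (Fin (N + 1) → Fin (N + 1) → Fin (N + 1) →
    MvPolynomial (Fin (N + 1)) R) := fun D => (D.m, D.s)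
  have hφ : Function.Injective φ := by
    rintro ⟨a, b⟩ ⟨a', b'⟩ h
    cases h
    rfl
  exact hφ.countable

theorem countable_cdat (R : Type) [CommRing R] [Countable R] : Countable (CDat n N R) := by
  have := countable_kdat n N R
  have := countable_fdat N R
  have : Countable (MvPolynomial (Fin (N + 1)) R) := Sl_957.countable_mvPolynomial _ _
  have : Countable (MvPolynomial (Fin (n + 1)) R) := Sl_957.countable_mvPolynomial _ _
  have : Countable (Polynomial (MvPolynomial (Fin (n + 1)) R)) := Sl_957.countable_polynomial _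
  let φ : CDat n N R → Σ p : ℕ × ℕ, (Fin p.1 → MvPolynomial (Fin (N + 1)) R) ×
    (Fin p.2 → KDat n N R) × ℕ × FDat (Fin (N + 1)) R ×
    (Fin p.2 → Polynomial (MvPolynomial (Fin (n + 1)) R)) ×
    (Fin p.2 → Polynomial (MvPolynomial (Fin (n + 1)) R)) ×
    (Fin p.2 → MvPolynomial (Fin (n + 1)) R) :=
    fun C => ⟨(C.r, C.q), C.G, C.κ, C.m, C.D, C.U, C.V, C.d⟩
  have hφ : Function.Injective φ := by
    rintro ⟨a, b, c, d, e, f, g, h, i⟩ ⟨a', b', c', d', e', f', g', h', i'⟩ hh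
    simp only [φ] at hh
    cases hh
    rfl
  exact hφ.countable

instance countable_code : Countable (Code k₀ n N) := by
  have : ∀ k : ℕ, Countable (MvPolynomial (Fin k) k₀) := fun k =>
    Sl_957.countable_mvPolynomial _ _
  have : ∀ k : ℕ, Countable (CDat n N (MvPolynomial (Fin k) k₀)) := fun k =>
    countable_cdat n N _
  let φ : Code k₀ n N → Σ k : ℕ, CDat n N (MvPolynomial (Fin k) k₀) × MvPolynomial (Fin k) k₀ :=
    fun K => ⟨K.k, K.Y, K.rr⟩
  have hφ : Function.Injective φ := by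
    rintro ⟨a, b, c⟩ ⟨a', b', c'⟩ h
    simp only [φ] at h
    cases h
    rfl
  exact hφ.countable

end Count

end Code

end

end Crest.Agent.R281.CA_867
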