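import Crest.Agent.R281.KrF_488

/-!
# R281, KRON (helper488): the local form for an analytic family of specialisations
-/

set_option autoImplicit false
set_option linter.unusedSectionVars false

open MvPolynomial Filter Topology

namespace Crest.Agent.R281.Kr_488

noncomputable section

variable {n N : ℕ}

section Loc

variable {P : Type*} [NormedAddCommGroup P] [NormedSpace ℂ P] {R : Type*} [CommRing R]
  {evp : P → (R →+* ℂ)} {p0 : P}

theorem analyticAt_eval (hev : ∀ r, AnalyticAt ℂ (fun p => evp p r) p0) {m : ℕ}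
    (F : MvPolynomial (Fin m) R) (u : Fin m → ℂ) :
    AnalyticAt ℂ (fun q : P × (Fin m → ℂ) => eval q.2 (MvPolynomial.map (evp q.1) F)) (p0, u) := by
  induction F using MvPolynomial.induction_on with
  | C r =>
    simp only [map_C, eval_C]
    exact AnalyticAt.fun_comp (g := fun p => evp p r) (f := fun q : P × (Fin m → ℂ) => q.1)
      (hev r) analyticAt_fst
  | add F G hF hG =>
    simp only [map_add]
    exact hF.add hG
  | mul_X F k hF =>
    simp only [map_mul, map_X, eval_X]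
    refine hF.mul ?_
    exact ((ContinuousLinearMap.proj (R := ℂ) (φ := fun _ : Fin m => ℂ) k).analyticAt _).fun_comp
      analyticAt_snd

/-- the linear forms of the specialisation -/
def Lp (κ : KDat n N R) (φ : R →+* ℂ) : (Fin (N + 1) → ℂ) →L[ℂ] (Fin (n + 1) → ℂ) :=
  ∑ j, ∑ k, φ (κ.lam j k) • (ContinuousLinearMap.single ℂ (fun _ : Fin (n + 1) => ℂ) j).comp
    (ContinuousLinearMap.proj (R := ℂ) (φ := fun _ : Fin (N + 1) => ℂ) k)

theorem Lp_apply (κ : KDat n N R) (φ : R →+* ℂ) (v : Fin (N + 1) → ℂ) (j : Fin (n + 1)) :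
    Lp κ φ v j = lv ((κ.map φ).lam j) v := by
  simp only [Lp, _root_.sum_apply, _root_.smul_apply,
    ContinuousLinearMap.comp_apply, ContinuousLinearMap.proj_apply, Finset.sum_apply,
    Pi.smul_apply, smul_eq_mul, ContinuousLinearMap.single_apply]
  rw [Finset.sum_eq_single j]
  · simp [lv, KDat.map]
  · intro i _ hij
    refine Finset.sum_eq_zero fun k _ => ?_
    rw [Pi.single_eq_of_ne (Ne.symm hij), mul_zero]
  · simp

theorem continuousAt_Lp (hev : ∀ r, AnalyticAt ℂ (fun p => evp p r) p0) (κ : KDat n N R) :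
    ContinuousAt (fun p => Lp κ (evp p)) p0 := by
  unfold Lp
  refine tendsto_finsetSum _ fun j _ => tendsto_finsetSum _ fun k _ => ?_
  exact ((hev (κ.lam j k)).continuousAt).smul continuousAt_const

theorem mem_kerL_iff (κ : KDat n N R) (φ : R →+* ℂ) (v : Fin (N + 1) → ℂ) :
    v ∈ kerL (κ.map φ) ↔ Lp κ φ v = 0 := by
  rw [mem_kerL, funext_iff]
  exact forall_congr' fun j => by
    rw [Lp_apply]
    rfl

theorem surj_aux {κ0 : KDat n N ℂ} {E : Set (MvPolynomial (Fin (N + 1)) ℂ)} (hg : κ0.Good E)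
    {u : Fin (N + 1) → ℂ} (hd : eval u κ0.dG ≠ 0) (π : (Fin (N + 1) → ℂ) →L[ℂ] kerL κ0)
    (hπ : ∀ a : kerL κ0, π a = a) :
    Function.Surjective (fderiv ℂ (fun v => π (κ0.Hv v)) u) := by
  intro b
  obtain ⟨a, ha, hab⟩ := hg.fderiv_surj hd b.2
  refine ⟨a, ?_⟩
  have h1 : HasFDerivAt (fun v => π (κ0.Hv v)) (π.comp (fderiv ℂ κ0.Hv u)) u :=
    π.hasFDerivAt.comp u (differentiable_Hv _ u).hasFDerivAt
  rw [h1.fderiv]
  have h2 : (π.comp (fderiv ℂ κ0.Hv u)) a = π (fderiv ℂ κ0.Hv u a) := rfl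
  rw [h2, hab]
  exact hπ b

/-- **local form of the family**: near a point with `dG ≠ 0` the zero set of the specialised
equations is the zero set of an analytic map whose derivative in the fibre direction is onto -/
theorem kron_loc (hev : ∀ r, AnalyticAt ℂ (fun p => evp p r) p0) {κ : KDat n N R}
    {E : Set (MvPolynomial (Fin (N + 1)) R)} (hg : κ.Good E)
    (hE : ∀ F ∈ E, ∃ d, F.IsHomogeneous d) {u : Fin (N + 1) → ℂ}
    (hd : eval u (MvPolynomial.map (evp p0) κ.dG) ≠ 0) :
    ∃ h : P × (Fin (N + 1) → ℂ) → kerL (κ.map (evp p0)), AnalyticAt ℂ h (p0, u) ∧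
      Function.Surjective (fderiv ℂ (fun v => h (p0, v)) u) ∧
      ∀ᶠ q in 𝓝 (p0, u), (∀ F ∈ E, eval q.2 (MvPolynomial.map (evp q.1) F) = 0) ↔ h q = 0 := by
  classical
  set W0 := kerL (κ.map (evp p0)) with hW0
  obtain ⟨π', hπ'⟩ := LinearMap.exists_leftInverse_of_injective W0.subtype
    (LinearMap.ker_eq_bot.2 W0.subtype_injective)
  let π : (Fin (N + 1) → ℂ) →L[ℂ] W0 := LinearMap.toContinuousLinearMap π'
  have hπ : ∀ a : W0, π a = a := fun a => congrArg (fun f => f a) hπ'
  let h : P × (Fin (N + 1) → ℂ) → W0 := fun q => π ((κ.map (evp q.1)).Hv q.2)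
  have hmem : ∀ p v, (κ.map (evp p)).Hv v ∈ kerL (κ.map (evp p)) := fun p v =>
    mem_kerL.2 fun j => (hg.map (evp p)).lam_Hv v j
  have han : AnalyticAt ℂ (fun q : P × (Fin (N + 1) → ℂ) => (κ.map (evp q.1)).Hv q.2) (p0, u) := by
    rw [analyticAt_pi_iff]
    intro k
    have h1 : (fun q : P × (Fin (N + 1) → ℂ) => (κ.map (evp q.1)).Hv q.2 k) =
        fun q => eval q.2 (MvPolynomial.map (evp q.1) (X k * κ.dG - κ.sub (κ.Nm k))) := by
      funext q
      rw [KDat.Hv_eq, KDat.dG_map]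
      have h2 : (κ.map (evp q.1)).Nm k = (κ.Nm k).map (MvPolynomial.map (evp q.1)) := rfl
      rw [h2, KDat.sub_map, map_sub (MvPolynomial.map (evp q.1)), map_mul (MvPolynomial.map (evp q.1)),
        map_X]
    rw [h1]
    exact analyticAt_eval hev _ u
  refine ⟨h, (π.analyticAt _).comp han, ?_, ?_⟩
  · have hd' : eval u (κ.map (evp p0)).dG ≠ 0 := by
      rw [KDat.dG_map]
      exact hd
    exact surj_aux (hg.map (evp p0)) hd' π hπ
  · -- injectivity of `(lam_p, π)` near `p0`
    let T : P → ((Fin (N + 1) → ℂ) →L[ℂ] (Fin (n + 1) → ℂ) × W0) := fun p =>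
      (ContinuousLinearMap.inl ℂ (Fin (n + 1) → ℂ) W0).comp (Lp κ (evp p)) +
        (ContinuousLinearMap.inr ℂ (Fin (n + 1) → ℂ) W0).comp π
    have hTa : ∀ p a, T p a = (Lp κ (evp p) a, π a) := by
      intro p a
      refine Prod.ext ?_ ?_
      · show Lp κ (evp p) a + 0 = _
        rw [add_zero]
      · show 0 + π a = _
        rw [zero_add]
    have hT : ContinuousAt T p0 :=
      (continuousAt_const.clm_comp (continuousAt_Lp hev κ)).add continuousAt_const
    have hT0 : Function.Injective (T p0) := by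
      rw [injective_iff_map_eq_zero]
      intro a ha
      rw [hTa] at ha
      have h1 : Lp κ (evp p0) a = 0 := congrArg Prod.fst ha
      have h2 : π a = 0 := congrArg Prod.snd ha
      have h3 : a ∈ W0 := (mem_kerL_iff κ (evp p0) a).2 h1
      have h4 := hπ ⟨a, h3⟩
      rw [show π (⟨a, h3⟩ : W0) = π a from rfl, h2] at h4
      exact (congrArg Subtype.val h4).symm
    have hev1 : ∀ᶠ p in 𝓝 p0, Function.Injective (T p) :=
      hT.eventually (ContinuousLinearMap.isOpen_injective.mem_nhds hT0)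
    have htf : Tendsto (fun q : P × (Fin (N + 1) → ℂ) => q.1) (𝓝 (p0, u)) (𝓝 p0) :=
      continuousAt_fst
    have hev2 : ∀ᶠ q in 𝓝 ((p0, u) : P × (Fin (N + 1) → ℂ)), Function.Injective (T q.1) :=
      htf.eventually hev1
    have hdc : ∀ᶠ q in 𝓝 ((p0, u) : P × (Fin (N + 1) → ℂ)),
        eval q.2 (MvPolynomial.map (evp q.1) κ.dG) ≠ 0 :=
      (analyticAt_eval hev κ.dG u).continuousAt.eventually_ne hd
    filter_upwards [hev2, hdc] with q hq1 hq2
    have hgq := hg.map (evp q.1)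
    have hd' : eval q.2 (κ.map (evp q.1)).dG ≠ 0 := by
      rw [KDat.dG_map]
      exact hq2
    have hEq : ∀ F ∈ MvPolynomial.map (evp q.1) '' E, ∃ d, F.IsHomogeneous d := by
      rintro _ ⟨F, hF, rfl⟩
      obtain ⟨d, hd⟩ := hE F hF
      exact ⟨d, hd.map _⟩
    have h1 := hgq.iff_Hv hEq hd'
    have h2 : (∀ F ∈ E, eval q.2 (MvPolynomial.map (evp q.1) F) = 0) ↔
        ∀ F ∈ MvPolynomial.map (evp q.1) '' E, eval q.2 F = 0 := by
      constructor
      · rintro h3 _ ⟨F, hF, rfl⟩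
        exact h3 F hF
      · exact fun h3 F hF => h3 _ ⟨F, hF, rfl⟩
    rw [h2, h1]
    constructor
    · intro h3
      show π _ = 0
      rw [h3, map_zero]
    · intro h3
      refine hq1 ?_
      have h4 : Lp κ (evp q.1) ((κ.map (evp q.1)).Hv q.2) = 0 :=
        (mem_kerL_iff κ (evp q.1) _).1 (hmem q.1 q.2)
      rw [map_zero, hTa]
      exact Prod.ext h4 h3

end Loc

end

end Crest.Agent.R281.Kr_488
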