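import Crest.Agent.R281.Kr8_488
import Crest.Agent.R281.KrG_488

/-!
# R281, KRON (helper488), part 9: finite sets of equations, Nullstellensatz identities
-/

set_option autoImplicit false
set_option linter.unusedSectionVars false

open Set Filter Topology MvPolynomial
open Crest.AlgGeometry

namespace Crest.Agent.R281.Kr_488

open Crest.Agent.R275 Crest.Agent.R275.Geo Crest.Agent.R275.Core144 Crest.Agent.R275.Dg199
open Crest.Agent.R273.LamN127 Crest.Agent.R273.SerA_945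
open Crest.Agent.R273.SerB_945 Crest.Agent.R273.SerC_945 Crest.Agent.R273.SerE_945
open Crest.Agent.R273.Defs_333 Crest.Agent.R273.FS_333 Crest.Agent.R273.SteinC_794
open Crest.Agent.R273.Chow_313 Crest.Agent.R273.TD3_733
open Crest.Agent.R272.CpTop_338 Crest.Agent.R272.CpSub_338 Crest.Agent.R272.CpChow_338

noncomputable section

variable {n : ℕ}

/-- the equations of the Kronecker representation -/
def KDat.eqs {N : ℕ} {R : Type*} [CommRing R] (κ : KDat n N R) :
    Set (MvPolynomial (Fin (N + 1)) R) :=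
  insert (κ.sub κ.G) (range fun k => X k * κ.dG - κ.sub (κ.Nm k))

theorem KDat.eqs_finite {N : ℕ} {R : Type*} [CommRing R] (κ : KDat n N R) : κ.eqs.Finite :=
  (finite_range _).insert _

theorem KDat.Good.mono {N : ℕ} {R : Type*} [CommRing R] {κ : KDat n N R}
    {E E' : Set (MvPolynomial (Fin (N + 1)) R)} (h : κ.Good E) (h1 : κ.eqs ⊆ E') (h2 : E' ⊆ E) :
    κ.Good E' where
  D_pos := h.D_pos
  monic := h.monic
  deg := h.deg
  homG := h.homG
  degN := h.degN
  homN := h.homN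
  lamN := h.lamN
  wN := h.wN
  dvd F hF := h.dvd F (h2 hF)
  memG := h1 (mem_insert _ _)
  memN k := h1 (mem_insert_of_mem _ ⟨k, rfl⟩)

theorem KDat.Good.eqs_subset {N : ℕ} {R : Type*} [CommRing R] {κ : KDat n N R}
    {E : Set (MvPolynomial (Fin (N + 1)) R)} (h : κ.Good E) : κ.eqs ⊆ E := by
  rintro F (rfl | ⟨k, rfl⟩)
  · exact h.memG
  · exact h.memN k

variable {M : Type} [TopologicalSpace M] {A : Atl n M}

theorem isMon_X_pow {N : ℕ} {J : Ideal (MvPolynomial (Fin (N + 1)) ℂ)}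
    (h0 : ∀ v : Fin (N + 1) → ℂ, (∀ p ∈ J, eval v p = 0) → v = 0) :
    ∃ e : ℕ, 0 < e ∧ ∀ i, (X i : MvPolynomial (Fin (N + 1)) ℂ) ^ e ∈ J := power_of_noZero h0

theorem eval_span {N : ℕ} {S : Set (MvPolynomial (Fin (N + 1)) ℂ)} {v : Fin (N + 1) → ℂ}
    (h : ∀ p ∈ Ideal.span S, eval v p = 0) : ∀ p ∈ S, eval v p = 0 :=
  fun p hp => h p (Ideal.subset_span hp)

section Final

variable [T2Space M] [ConnectedSpace M] [CompactSpace M] [Finite A.ι]

/-- **KRON, final form** -/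
theorem kron_all (PA : Part A) (hD : D2 A) (P : ProjD A) :
    ∃ (m : ℕ) (κ : Fin m → KDat n P.N ℂ) (E0 : Finset (MvPolynomial (Fin (P.N + 1)) ℂ)),
      (↑E0 : Set (MvPolynomial (Fin (P.N + 1)) ℂ)) ⊆ VanS P ∧
      (∀ E : Set (MvPolynomial (Fin (P.N + 1)) ℂ), ↑E0 ⊆ E → E ⊆ VanS P →
        (∀ a, (κ a).Good E) ∧
        (∀ v, (∀ F ∈ E, eval v F = 0) ↔ v ∈ Vz (IP P)) ∧
        (∃ q, 0 < q ∧ ∀ i, (X i : MvPolynomial (Fin (P.N + 1)) ℂ) ^ q ∈
          Ideal.span (E ∪ range fun a => (κ a).dG)) ∧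
        (∀ a, ∃ q, 0 < q ∧ ∀ i, (X i : MvPolynomial (Fin (P.N + 1)) ℂ) ^ q ∈
          Ideal.span (E ∪ range fun j => lin ((κ a).lam j)))) ∧
      (∀ i, ∀ x ∈ (A.e i).source, ∃ a, eval (P.F i x) (κ a).dG ≠ 0) ∧
      (∀ a i, ∀ x ∈ (A.e i).source, (κ a).lamv (P.F i x) ≠ 0) ∧
      (∀ a, Irreducible (κ a).G) ∧
      (∀ a, ∃ (U V : Polynomial (MvPolynomial (Fin (n + 1)) ℂ)) (d : MvPolynomial (Fin (n + 1)) ℂ),
        d ≠ 0 ∧ U * (κ a).G + V * Polynomial.derivative (κ a).G = Polynomial.C d) ∧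
      (∀ a y W, KDat.ev y W (κ a).G = 0 → ∃ v ∈ Vz (IP P), (κ a).lamv v = y ∧
        lv (κ a).w v = W) := by
  classical
  obtain ⟨m, κ, h1, h2, h3, h4, h5, h6⟩ := kron PA hD P
  have hfg : (Ideal.span (VanS P)).FG := (isNoetherianRing_iff_ideal_fg _).1 inferInstance _
  obtain ⟨s, hs1, hs2⟩ := (Submodule.fg_span_iff_fg_span_finset_subset (VanS P)).1 hfg
  have hfin : (⋃ a, (κ a).eqs).Finite := finite_iUnion fun a => (κ a).eqs_finite
  refine ⟨m, κ, s ∪ hfin.toFinset, ?_, ?_, h2, h3, h4, h5, h6⟩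
  · intro F hF
    rcases Finset.mem_union.1 (Finset.mem_coe.1 hF) with h | h
    · exact hs1 h
    · obtain ⟨a, ha⟩ := mem_iUnion.1 (hfin.mem_toFinset.1 h)
      exact (h1 a).eqs_subset ha
  · intro E hE0 hE
    have hg : ∀ a, (κ a).Good E := fun a => (h1 a).mono (fun F hF => hE0 (Finset.mem_coe.2
      (Finset.mem_union_right _ (hfin.mem_toFinset.2 (mem_iUnion.2 ⟨a, hF⟩))))) hE
    have hv : ∀ v, (∀ F ∈ E, eval v F = 0) ↔ v ∈ Vz (IP P) := by
      intro v
      constructor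
      · intro h p hp
        have h7 : IP P = Ideal.span (↑s : Set (MvPolynomial (Fin (P.N + 1)) ℂ)) := hs2
        rw [h7] at hp
        have h8 : Ideal.span (↑s : Set (MvPolynomial (Fin (P.N + 1)) ℂ)) ≤
            RingHom.ker (eval v) := by
          rw [Ideal.span_le]
          intro q hq
          exact h q (hE0 (Finset.mem_coe.2 (Finset.mem_union_left _ hq)))
        exact h8 hp
      · exact fun h F hF => h F (Ideal.subset_span (hE hF))
    refine ⟨hg, hv, ?_, ?_⟩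
    · refine power_of_noZero fun v hv0 => ?_
      have h7 := eval_span hv0
      have h8 : v ∈ Vz (IP P) := (hv v).1 fun F hF => h7 F (Or.inl hF)
      by_contra hne
      obtain ⟨i, x, hx, c, hc, rfl⟩ := Vz_IP_cases PA hD P h8 hne
      obtain ⟨a, ha⟩ := h2 i x hx
      have h9 := h7 _ (Or.inr ⟨a, rfl⟩)
      rw [eval_smul_homog (dG_isHomogeneous (h1 a))] at h9
      rcases mul_eq_zero.1 h9 with h10 | h10
      · exact pow_ne_zero _ hc h10
      · exact ha h10
    · intro a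
      refine power_of_noZero fun v hv0 => ?_
      have h7 := eval_span hv0
      have h8 : v ∈ Vz (IP P) := (hv v).1 fun F hF => h7 F (Or.inl hF)
      by_contra hne
      obtain ⟨i, x, hx, c, hc, rfl⟩ := Vz_IP_cases PA hD P h8 hne
      have h9 : (κ a).lamv (c • P.F i x) = 0 := by
        funext j
        have h10 := h7 _ (Or.inr ⟨j, rfl⟩)
        rw [eval_lin] at h10
        exact h10
      have h11 : (κ a).lamv (c • P.F i x) = c • (κ a).lamv (P.F i x) := lamv_smul _ _ _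
      rw [h11, smul_eq_zero] at h9
      rcases h9 with h12 | h12
      · exact hc h12
      · exact h3 a i x hx h12

end Final

end

end Crest.Agent.R281.Kr_488
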