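import Crest.Agent.R281.CA3_867
import Crest.Agent.R281.Kr9_488

/-!
# R281 (S0424), CERT-ASM, part 4 (helper867): the certificate and the code of a projective embedding

* `IsCert P σ C`  : the certificate `C` belongs to the embedding `P` and the closed holomorphic
                    symplectic form `σ`;
* `exists_isCert` : existence, the equations may contain any finite set of relations;
* `exists_code`   : existence of a code.
-/

set_option autoImplicit false

open MvPolynomial Set Filter Topology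
open scoped Matrix

namespace Crest.Agent.R281.CA_867

open Crest.Agent.R281.AF_867 Crest.Agent.R281.Kr_488 Crest.Agent.R281.Ns_476
open Crest.Agent.R275 Crest.Agent.R275.Geo Crest.Agent.R275.Core144
open Crest.Agent.R273.SerA_945 Crest.Agent.R273.SerB_945 Crest.Agent.R273.SerC_945
open Crest.Agent.R273.SerE_945 Crest.Agent.R273.TD3_733 Crest.Agent.R273.FS_333
open Crest.Agent.R273.Defs_333 Crest.Agent.R281.Defs_273 Crest.Agent.R272.CpChow_338
open Crest.Agent.R273.Chow_313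

noncomputable section

variable {n : ℕ} {M : Type} [TopologicalSpace M] {A : Atl n M}

/-- the certificate belongs to the embedding and the form -/
structure IsCert (P : ProjD A) (σ : HSymp A) (C : CDat n P.N ℂ) : Prop where
  pre : Pre C
  eqs : Eqs (fun k => sec P k) (range C.G)
  frm : ∀ j i, ∀ x ∈ (A.e i).source, sec P j i x ^ C.D.m • σ.s i x =
    (DF (fun k => sec P k) i x)ᵀ * evM (fun k => sec P k) (C.D.s j) i x * DF (fun k => sec P k) i x
  irr : ∀ a, Irreducible (C.κ a).G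
  dne : ∀ a, C.d a ≠ 0
  lift : ∀ a y W, KDat.ev y W (C.κ a).G = 0 → ∃ v, OnE (range C.G) v ∧ (C.κ a).lamv v = y ∧
    lv (C.κ a).w v = W

theorem IsCert.setM {P : ProjD A} {σ : HSymp A} {C : CDat n P.N ℂ} (h : IsCert P σ C) (m : ℕ) :
    IsCert P σ { C with m := m } :=
  ⟨⟨h.pre.hom, h.pre.good, h.pre.cov, h.pre.covl, h.pre.bez, h.pre.exact, h.pre.imp⟩, h.eqs, h.frm,
    h.irr, h.dne, h.lift⟩

theorem vanS_eq (P : ProjD A) : VanS P = Rels (fun k => sec P k) := by
  ext p
  unfold VanS Rels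
  simp only [mem_ofPred_eq]
  refine and_congr_right fun _ => forall_congr' fun i => forall_congr' fun x =>
    forall_congr' fun hx => ?_
  rw [show (fun k => sec P k i x) = P.F i x from funext fun k => sec_eq P hx k]

/-- the cone of the certificate -/
theorem IsCert.onE_iff {P : ProjD A} {σ : HSymp A} {C : CDat n P.N ℂ} (h : IsCert P σ C)
    {v : Fin (P.N + 1) → ℂ} (hv : v ≠ 0) : OnE (range C.G) v ↔
      ∃ i, ∃ x ∈ (A.e i).source, ∃ c : ℂ, c ≠ 0 ∧ v = c • P.F i x := by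
  constructor
  · intro h1
    obtain ⟨i, x, hx, c, hc, hvc⟩ := h.eqs.pt v hv h1
    refine ⟨i, x, hx, c, hc, ?_⟩
    rw [hvc, show (fun k => sec P k i x) = P.F i x from funext fun k => sec_eq P hx k]
  · rintro ⟨i, x, hx, c, hc, rfl⟩ p hp
    obtain ⟨⟨d, hd⟩, h1⟩ := h.eqs.rel hp
    have h2 := h1 i x hx
    rw [show (fun k => sec P k i x) = P.F i x from funext fun k => sec_eq P hx k] at h2
    have h3 := eval_smul hd (c := c) (v := P.F i x)
    rw [h3, h2, mul_zero]

theorem eq_zero_of_mem {N : ℕ} {ι : Type*} {S : Set (MvPolynomial (Fin (N + 1)) ℂ)}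
    {f : ι → MvPolynomial (Fin (N + 1)) ℂ} {q : ℕ}
    (hq : ∀ i, (X i : MvPolynomial (Fin (N + 1)) ℂ) ^ q ∈ Ideal.span (S ∪ range f))
    {v : Fin (N + 1) → ℂ} (hv : v ≠ 0) (hS : ∀ p ∈ S, eval v p = 0) : ∃ a, eval v (f a) ≠ 0 := by
  by_contra hcon
  push Not at hcon
  apply hv
  have h1 : Ideal.span (S ∪ range f) ≤ RingHom.ker (eval v) := by
    rw [Ideal.span_le]
    rintro F (hF | ⟨a, rfl⟩)
    · exact hS F hF
    · exact hcon a
  funext i
  have h2 := h1 (hq i)
  rw [RingHom.mem_ker, map_pow, eval_X] at h2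
  exact eq_zero_of_pow_eq_zero h2

variable [T2Space M] [ConnectedSpace M] [CompactSpace M] [Finite A.ι]

open Classical in
/-- **the certificate of an embedding** -/
theorem exists_isCert (PA : Part A) (hD : D2 A) (P : ProjD A) (σ : HSymp A)
    (hcl : Closed σ.toH2) (T : Finset (MvPolynomial (Fin (P.N + 1)) ℂ))
    (hT : (T : Set (MvPolynomial (Fin (P.N + 1)) ℂ)) ⊆ Rels (fun k => sec P k)) :
    ∃ C : CDat n P.N ℂ, IsCert P σ C ∧
      (T : Set (MvPolynomial (Fin (P.N + 1)) ℂ)) ⊆ range C.G := by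
  obtain ⟨E1, hE1, hEq⟩ := exists_eqs_proj PA hD P
  obtain ⟨D, hX, hfrm, hImp⟩ := exists_fdat PA hD P σ hcl
  obtain ⟨q, κ, E2, hE2, hall, -, -, hirr, hbez, hlift⟩ := kron_all PA hD P
  choose U V d hd hUV using hbez
  let E : Finset (MvPolynomial (Fin (P.N + 1)) ℂ) := E1 ∪ E2 ∪ T
  have hE : (E : Set (MvPolynomial (Fin (P.N + 1)) ℂ)) ⊆ Rels (fun k => sec P k) := by
    intro p hp
    rcases Finset.mem_union.1 (Finset.mem_coe.1 hp) with h | h
    · rcases Finset.mem_union.1 h with h | h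
      · exact hE1 h
      · rw [← vanS_eq]
        exact hE2 h
    · exact hT h
  have h1E : (E1 : Set (MvPolynomial (Fin (P.N + 1)) ℂ)) ⊆ E := fun p hp =>
    Finset.mem_coe.2 (Finset.mem_union_left _ (Finset.mem_union_left _ hp))
  have h2E : (E2 : Set (MvPolynomial (Fin (P.N + 1)) ℂ)) ⊆ E := fun p hp =>
    Finset.mem_coe.2 (Finset.mem_union_left _ (Finset.mem_union_right _ hp))
  have hTE : (T : Set (MvPolynomial (Fin (P.N + 1)) ℂ)) ⊆ E := fun p hp =>
    Finset.mem_coe.2 (Finset.mem_union_right _ hp)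
  have hEqs := hEq E h1E hE
  obtain ⟨hg, hv, ⟨q1, -, hq1⟩, hq2⟩ := hall E h2E (by rw [vanS_eq]; exact hE)
  let G : Fin E.card → MvPolynomial (Fin (P.N + 1)) ℂ := fun l => (E.equivFin.symm l).1
  have hr : range G = E := by
    ext p
    constructor
    · rintro ⟨l, rfl⟩
      exact (E.equivFin.symm l).2
    · intro hp
      refine ⟨E.equivFin ⟨p, hp⟩, ?_⟩
      simp only [G, Equiv.symm_apply_apply]
  refine ⟨⟨E.card, G, q, κ, 0, D, U, V, d⟩, ⟨⟨?_, ?_, ?_, ?_, ?_, hX, ?_⟩, ?_, hfrm, hirr, hd, ?_⟩,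
    ?_⟩
  · intro l
    exact (hE (E.equivFin.symm l).2).1
  · intro a
    show (κ a).Good (range G)
    rw [hr]
    exact hg a
  · intro v hv0 hvG
    refine eq_zero_of_mem hq1 hv0 fun p hp => ?_
    rw [← hr] at hp
    obtain ⟨l, rfl⟩ := hp
    exact hvG l
  · intro a v hv0 hvG
    obtain ⟨q2, -, hq⟩ := hq2 a
    obtain ⟨j, hj⟩ := eq_zero_of_mem hq hv0 fun p hp => by
      rw [← hr] at hp
      obtain ⟨l, rfl⟩ := hp
      exact hvG l
    rw [eval_lin] at hj
    exact ⟨j, hj⟩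
  · exact hUV
  · show D.Imp (range G)
    rw [hr]
    exact hImp _ hEqs
  · show Eqs _ (range G)
    rw [hr]
    exact hEqs
  · intro a y W h
    obtain ⟨v, hv1, hv2, hv3⟩ := hlift a y W h
    refine ⟨v, ?_, hv2, hv3⟩
    show OnE (range G) v
    rw [hr]
    exact (hv v).2 hv1
  · show (T : Set (MvPolynomial (Fin (P.N + 1)) ℂ)) ⊆ range G
    rw [hr]
    exact hTE

open Classical in
/-- **the code of an embedding** -/
theorem exists_code (k₀ : Type) [CommRing k₀] [Algebra k₀ ℂ]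
    (hinj : Function.Injective (algebraMap k₀ ℂ)) (PA : Part A) (hD : D2 A) (P : ProjD A)
    (σ : HSymp A) (hcl : Closed σ.toH2) (T : Finset (MvPolynomial (Fin (P.N + 1)) k₀))
    (hT : ∀ p ∈ T, MvPolynomial.map (algebraMap k₀ ℂ) p ∈ Rels (fun k => sec P k)) :
    ∃ (K : Code k₀ n P.N) (c : Fin K.k → ℂ), K.Good c ∧ IsCert P σ (K.mem c) ∧
      ∀ p ∈ T, MvPolynomial.map (MvPolynomial.C : k₀ →+* MvPolynomial (Fin K.k) k₀) p ∈
        range K.Y.G := by
  obtain ⟨C, hC, hTC⟩ := exists_isCert PA hD P σ hcl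
    (T.image (MvPolynomial.map (algebraMap k₀ ℂ))) (by
      intro p hp
      obtain ⟨p', hp', rfl⟩ := Finset.mem_image.1 (Finset.mem_coe.1 hp)
      exact hT p' hp')
  obtain ⟨m, S, hS⟩ := exists_desc hC.pre
  let c : Fin S.card → ℂ := fun l => (S.equivFin.symm l).1
  have hcS : ∀ x ∈ S, x ∈ Rg k₀ c := by
    intro x hx
    have h1 : x = c (S.equivFin ⟨x, hx⟩) := by
      simp only [c, Equiv.symm_apply_apply]
    rw [h1]
    exact mem_Rg c _
  obtain ⟨Y0, hY0, hok⟩ := hS (R := Rg k₀ c) (i := (Rg k₀ c).val.toRingHom)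
    Subtype.val_injective (fun x hx => ⟨⟨x, hcS x hx⟩, rfl⟩)
  have hv0 : ((Rg k₀ c).val.toRingHom).comp (algebraMap k₀ (Rg k₀ c)) = algebraMap k₀ ℂ := rfl
  have hi0 : Function.Injective (MvPolynomial.map (σ := Fin (P.N + 1))
      (Rg k₀ c).val.toRingHom) := MvPolynomial.map_injective _ Subtype.val_injective
  have hi1 : Function.Injective (MvPolynomial.map (σ := Fin (P.N + 1))
      (algebraMap k₀ (Rg k₀ c))) := by
    refine MvPolynomial.map_injective _ fun a b hab => hinj ?_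
    exact congrArg Subtype.val hab
  have hcc : (toRg k₀ c).comp (MvPolynomial.C : k₀ →+* MvPolynomial (Fin S.card) k₀) =
      algebraMap k₀ (Rg k₀ c) := by
    refine RingHom.ext fun a => Subtype.ext ?_
    show aeval c (MvPolynomial.C a) = algebraMap k₀ ℂ a
    exact algHom_C _ a
  have hG : ∀ l, ∃ g : MvPolynomial (Fin (P.N + 1)) (MvPolynomial (Fin S.card) k₀),
      MvPolynomial.map (toRg k₀ c) g = Y0.G l ∧
      ∀ p ∈ T, MvPolynomial.map (algebraMap k₀ (Rg k₀ c)) p = Y0.G l →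
        g = MvPolynomial.map MvPolynomial.C p := by
    intro l
    by_cases h : ∃ p ∈ T, MvPolynomial.map (algebraMap k₀ (Rg k₀ c)) p = Y0.G l
    · obtain ⟨p, hp, hpl⟩ := h
      refine ⟨MvPolynomial.map MvPolynomial.C p, ?_, fun p' hp' hpl' => ?_⟩
      · rw [MvPolynomial.map_map, hcc, hpl]
      · rw [hi1 (hpl.trans hpl'.symm)]
    · obtain ⟨g, hg⟩ := mv_lift_surj (toRg_surjective (k₀ := k₀) c) (Y0.G l)
      exact ⟨g, hg, fun p hp hpl => absurd ⟨p, hp, hpl⟩ h⟩
  choose g hg1 hg2 using hG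
  obtain ⟨Y, hr, hY, hYG⟩ := CDat.exists_lift (toRg_surjective (k₀ := k₀) c) Y0 g hg1
  have hmemY : Y.map (aeval c : MvPolynomial (Fin S.card) k₀ →ₐ[k₀] ℂ).toRingHom =
      { C with m := m } := by
    rw [← val_comp_toRg, ← CDat.map_map, hY, hY0]
  have hdne : ∀ a, MvPolynomial.map (aeval c : MvPolynomial (Fin S.card) k₀ →ₐ[k₀] ℂ).toRingHom
      (Y.d a) ≠ 0 := by
    have h1 : ∀ C' : CDat n P.N ℂ, C' = { C with m := m } → ∀ a, C'.d a ≠ 0 := by
      rintro _ rfl
      exact hC.dne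
    exact h1 _ hmemY
  have hα : ∀ a, ∃ α, aeval c (coeff α (Y.d a)) ≠ 0 := by
    intro a
    by_contra hcon
    push Not at hcon
    apply hdne a
    ext α
    rw [coeff_map, coeff_zero]
    exact hcon α
  choose α hα using hα
  let K : Code k₀ n P.N := ⟨S.card, Y, ∏ a, coeff (α a) (Y.d a)⟩
  have hKrg : K.rg c = Y0 := hY
  have hKmem : K.mem c = { C with m := m } := hmemY
  refine ⟨K, c, ⟨by rw [hKrg]; exact hok, ?_, fun a => ⟨α a, Finset.dvd_prod_of_mem
    (fun a => coeff (α a) (Y.d a)) (Finset.mem_univ a)⟩⟩, ?_, ?_⟩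
  · show aeval c (∏ a, coeff (α a) (Y.d a)) ≠ 0
    rw [map_prod]
    exact Finset.prod_ne_zero_iff.2 fun a _ => hα a
  · rw [hKmem]
    exact hC.setM m
  · intro p hp
    have h1 : MvPolynomial.map (algebraMap k₀ ℂ) p ∈ range C.G :=
      hTC (Finset.mem_coe.2 (Finset.mem_image_of_mem _ hp))
    have h2 : ∀ C' : CDat n P.N ℂ, C' = { C with m := m } →
        MvPolynomial.map (algebraMap k₀ ℂ) p ∈ range C'.G := by
      rintro _ rfl
      exact h1
    obtain ⟨l, hl⟩ := h2 _ hY0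
    have h3 : MvPolynomial.map (algebraMap k₀ (Rg k₀ c)) p = Y0.G l := by
      apply hi0
      rw [MvPolynomial.map_map, hv0]
      exact hl.symm
    refine ⟨Fin.cast hr.symm l, ?_⟩
    show Y.G (Fin.cast hr.symm l) = _
    rw [hYG, ← hg2 l p hp h3]
    rfl

end

end Crest.Agent.R281.CA_867
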