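import Mathlib
import Crest.Agent.R281.CL4_473

/-!
# CUSP-LIFT, part 5 (row 281, helper473): `Dat` from a marked cover of a curve with ends
-/

namespace Crest.Agent.R281.CL_473

open Filter Topology Set UpperHalfPlane

/-- a space with a compact core and finitely many ends -/
structure QEnds (Q : Type*) [TopologicalSpace Q] (ι : Type*) where
  K0 : Set Q
  K0_comp : IsCompact K0
  η : ι → ℂ → Q
  η_cont : ∀ i, ContinuousOn (η i) {z | 1 ≤ z.im}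
  η_per : ∀ i (z : ℂ), 1 ≤ z.im → η i (z + 1) = η i z
  cover : ∀ q, q ∈ K0 ∨ ∃ i, ∃ z : ℂ, 1 ≤ z.im ∧ q = η i z

/-- the marked cover with its period map -/
structure Per (N : ℝ) (Λ : Set (Fin 3 → ℝ)) (Q : Type*) [TopologicalSpace Q] (G : Type*) [Group G]
    (E : Type*) [MulAction G E] where
  L : LS Q G E
  surj : ∀ q, ∃ x : E, L.p x = q
  R : UpRep N G
  mem : ∀ g, ∀ w ∈ Λ, R.ρ g w ∈ Λ
  Φ : E → ℍ
  Φ_cont : ∀ x, ContinuousAt (fun q => Φ (L.s x q)) (L.p x)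
  Φ_equiv : ∀ (g : G) x, (Φ (g • x) : ℂ) = mv N (R.ρ g) (Φ x)

namespace Per

variable {N : ℝ} {Λ : Set (Fin 3 → ℝ)} {Q : Type*} [TopologicalSpace Q] {G : Type*} [Group G]
  {E : Type*} [MulAction G E]

/-- the period map on the total space -/
def Ph (P : Per N Λ Q G E) : P.L.Tot → ℍ := P.Φ

theorem Ph_cont (P : Per N Λ Q G E) : Continuous P.Ph :=
  P.L.continuous_of fun x => P.Φ_cont x

/-- a lift of an end of `Q` with its monodromy -/
structure EndL {ι : Type*} (P : Per N Λ Q G E) (B : QEnds Q ι) (i : ι) where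
  F : ℂ → P.L.Tot
  g : G
  cont : Continuous F
  pr : ∀ z : ℂ, 1 ≤ z.im → P.L.pr (F z) = B.η i z
  per : ∀ z, F (z + 1) = g • F z

theorem exists_endL {ι : Type*} (P : Per N Λ Q G E) (B : QEnds Q ι) (i : ι) :
    Nonempty (P.EndL B i) := by
  obtain ⟨x0, hx0⟩ := P.surj (B.η i Complex.I)
  obtain ⟨F, g, h1, -, h3, h4⟩ := P.L.exists_end (B.η_cont i) (B.η_per i)
    (z0 := Complex.I) (by simp) (x0 := x0) hx0
  exact ⟨⟨F, g, h1, h3, h4⟩⟩

/-- the majorants along an end: the hypothesis of the puncture theorem -/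
theorem EndL.maj {ι : Type*} {P : Per N Λ Q G E} {B : QEnds Q ι} {i : ι} (e : P.EndL B i)
    (hN : 0 < N) (z : ℂ) (w : Fin 3 → ℝ) :
    Maj N (P.Ph (e.F (z + 1))) (P.R.ρ e.g w) = Maj N (P.Ph (e.F z)) w := by
  rw [e.per]
  exact (P.R.iso e.g).maj hN _ _ (P.Φ_equiv e.g (e.F z)).symm w

/-- the type of an end: the classification of the puncture theorem -/
structure EndT {ι : Type*} (P : Per N Λ Q G E) (B : QEnds Q ι) (e : ∀ i, P.EndL B i) where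
  cusp : ι → Prop
  w : ι → Fin 3 → ℝ
  w_mem : ∀ i, cusp i → w i ∈ Λ ∧ w i ≠ 0 ∧ qb N (w i) (w i) = 0
  w_lim : ∀ i, cusp i → ∀ δ > 0, ∃ T, ∀ z : ℂ, 1 ≤ z.im → T ≤ z.im →
    Maj N (P.Ph ((e i).F z)) (w i) < δ
  pt : ι → ℍ
  pt_lim : ∀ i, ¬ cusp i → ∀ W ∈ 𝓝 (pt i), ∃ T, ∀ z : ℂ, 1 ≤ z.im → T ≤ z.im →
    P.Ph ((e i).F z) ∈ W

/-- the bad values -/
structure BadS {ι : Type*} {P : Per N Λ Q G E} {B : QEnds Q ι} {e : ∀ i, P.EndL B i}
    (T : P.EndT B e) where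
  Bad : Set ℍ
  inv : ∀ (g : G), ∀ τ ∈ Bad, ∀ τ' : ℍ, (τ' : ℂ) = mv N (P.R.ρ g) τ → τ' ∈ Bad
  pt_bad : ∀ i, ¬ T.cusp i → T.pt i ∈ Bad
  good : ∀ x : P.L.Tot, P.Ph x ∉ Bad → ∃ s : ℍ → P.L.Tot, ∃ U ∈ 𝓝 x, ∃ V ∈ 𝓝 (P.Ph x),
    ContinuousOn s V ∧ (∀ τ ∈ V, P.Ph (s τ) = τ) ∧ ∀ x' ∈ U, s (P.Ph x') = x'

/-- **the data of the lifting theorem** -/
noncomputable def dat [LocallyCompactSpace Q] {ι : Type*} (hN : 0 < N) (P : Per N Λ Q G E)
    (B : QEnds Q ι) (e : ∀ i, P.EndL B i) (T : P.EndT B e) (S : BadS T) :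
    @Dat N Λ G _ (P.R.act hN) P.L.Tot _ _ ι :=
  let _ := P.R.act hN
  { ρ := P.R.ρ
    ρ_mem := P.mem
    ρ_iso := fun g w => P.R.iso g w w
    ρ_maj := fun g τ w => (P.R.iso g).maj hN τ (g • τ) rfl w
    act := fun g g' h τ => by
      apply UpperHalfPlane.ext
      change mv N (P.R.ρ g) τ = mv N (P.R.ρ g') τ
      rw [h]
    act_cont := fun g => P.R.act_continuous hN g
    act_E := fun g => P.L.continuous_smul' g
    Φ := P.Ph
    Φ_cont := P.Ph_cont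
    Φ_equiv := fun g x => UpperHalfPlane.ext (P.Φ_equiv g x)
    K := (P.L.exists_core B.K0_comp).choose
    K_comp := (P.L.exists_core B.K0_comp).choose_spec.1
    ε := fun i => (e i).F
    ε_cont := fun i => (e i).cont.continuousOn
    ε_per := fun i z _ => ⟨(e i).g, (e i).per z⟩
    cover := fun x => by
      rcases B.cover (P.L.pr x) with h | ⟨i, z, hz, h⟩
      · obtain ⟨g, a, ha, he⟩ := (P.L.exists_core B.K0_comp).choose_spec.2 x h
        exact ⟨g, a, he, Or.inl ha⟩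
      · have h2 : P.L.pr ((e i).F z) = P.L.pr x := by rw [(e i).pr z hz, h]
        obtain ⟨g, hg⟩ := P.L.exists_smul h2
        exact ⟨g, _, hg, Or.inr ⟨i, z, hz, rfl⟩⟩
    Bad := S.Bad
    Bad_inv := fun g τ hτ => S.inv g τ hτ _ rfl
    good := S.good
    cusp := T.cusp
    w := T.w
    w_mem := T.w_mem
    w_lim := T.w_lim
    pt := T.pt
    pt_bad := S.pt_bad
    pt_lim := T.pt_lim }

/-- **CUSP-LIFT for a marked cover**: from a point over the ray, for every height `T0` there is a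
continuous lift of the ray ending in a cusp end over `e`, at height `≥ T0` of the end. -/
theorem cusp_lift [LocallyCompactSpace Q] {ι : Type*} [Finite ι] (hN : 0 < N) (hΛ : Lat N Λ)
    (P : Per N Λ Q G E) (B : QEnds Q ι) (e : ∀ i, P.EndL B i) (T : P.EndT B e) (S : BadS T)
    {x0 : P.L.Tot} {a b : ℝ} (hb : 0 < b) (hx0 : P.Ph x0 = ray a b)
    (hbad : ∀ y, b ≤ y → ray a y ∉ S.Bad) (T0 : ℝ) :
    ∃ Y0, b ≤ Y0 ∧ ∀ Y, Y0 ≤ Y → ∃ c : ℝ → P.L.Tot, ContinuousOn c (Icc b Y) ∧ c b = x0 ∧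
      (∀ y ∈ Icc b Y, P.Ph (c y) = ray a y) ∧
      ∃ (g : G) (i : ι) (z : ℂ), T.cusp i ∧ 1 ≤ z.im ∧ T0 ≤ z.im ∧ c Y = g • (e i).F z ∧
        ∃ t : ℝ, t ≠ 0 ∧ P.R.ρ g (T.w i) = t • ![0, 0, 1] := by
  let _ := P.R.act hN
  set D := P.dat hN B e T S
  obtain ⟨Y0, hY0⟩ := D.reach_cusp hN hΛ a T0
  refine ⟨max b Y0, le_max_left _ _, fun Y hY => ?_⟩
  obtain ⟨c, hc1, hc2, hc3⟩ := D.exists_lift hN hΛ (x0 := x0) hb hx0 hbad Y
    ((le_max_left _ _).trans hY)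
  refine ⟨c, hc1, hc2, hc3, ?_⟩
  exact hY0 Y ((le_max_right _ _).trans hY) (c Y)
    (hc3 Y ⟨(le_max_left _ _).trans hY, le_rfl⟩)

end Per

end Crest.Agent.R281.CL_473
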