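import Mathlib
import Crest.Agent.R281.CL5_473

/-!
# CUSP-LIFT, part 6 (row 281, helper473): restriction of marked covers

* `LS.sub`  : restriction to a transport-invariant set of markings and a subgroup;
* `LS.base` : restriction to the clopen set of base points that are reached;
* `QEnds.res` : restriction of a curve with ends to a clopen set.
-/

namespace Crest.Agent.R281.CL_473

open Filter Topology Set UpperHalfPlane

namespace LS

variable {Q : Type*} [TopologicalSpace Q] {G : Type*} [Group G] {E : Type*} [MulAction G E]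

/-- the action of a subgroup on an invariant set -/
@[reducible] def subAct (T : Set E) (H : Subgroup G) (hH : ∀ g ∈ H, ∀ x ∈ T, g • x ∈ T) :
    MulAction H T where
  smul g x := ⟨g.1 • x.1, hH g.1 g.2 x.1 x.2⟩
  one_smul x := Subtype.ext (one_smul G x.1)
  mul_smul g h x := Subtype.ext (mul_smul g.1 h.1 x.1)

open Classical in
/-- restriction of a marked cover to a transport-invariant set of markings -/
noncomputable def sub (L : LS Q G E) (T : Set E) (H : Subgroup G)
    (hH : ∀ g ∈ H, ∀ x ∈ T, g • x ∈ T)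
    (hT : ∀ x, ∀ q ∈ L.U (L.p x), (L.s x q ∈ T ↔ x ∈ T))
    (htr : ∀ x ∈ T, ∀ g : G, g • x ∈ T → ∃ h ∈ H, g • x = h • x) :
    @LS Q _ H _ T (subAct T H hH) :=
  letI := subAct T H hH
  { p := fun x => L.p x.1
    U := L.U
    U_open := L.U_open
    U_mem := L.U_mem
    s := fun x q => if h : L.s x.1 q ∈ T then ⟨L.s x.1 q, h⟩ else x
    p_s := fun x q hq => by
      have h : L.s x.1 q ∈ T := (hT x.1 q hq).mpr x.2
      simp only [dif_pos h]; exact L.p_s x.1 q hq
    s_self := fun x => by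
      have h : L.s x.1 (L.p x.1) ∈ T := by rw [L.s_self]; exact x.2
      rw [dif_pos h]; exact Subtype.ext (L.s_self x.1)
    surj := fun q0 y hy => by
      obtain ⟨x, hx, hxy⟩ := L.surj q0 y.1 hy
      have hU : L.p y.1 ∈ L.U (L.p x) := by rw [hx]; exact hy
      have hxT : x ∈ T := (hT x _ hU).mp (by rw [hxy]; exact y.2)
      refine ⟨⟨x, hxT⟩, hx, ?_⟩
      have h : L.s x (L.p y.1) ∈ T := by rw [hxy]; exact y.2
      simp only [dif_pos h]; exact Subtype.ext hxy
    inj := fun x y hp q hq he => by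
      have h1 : L.s x.1 q ∈ T := (hT x.1 q hq).mpr x.2
      have h2 : L.s y.1 q ∈ T := (hT y.1 q (by rw [← hp]; exact hq)).mpr y.2
      simp only [dif_pos h1, dif_pos h2] at he
      exact Subtype.ext (L.inj x.1 y.1 hp q hq (congrArg Subtype.val he))
    loc := fun x q1 hq1 => by
      have h1 : L.s x.1 q1 ∈ T := (hT x.1 q1 hq1).mpr x.2
      have hU : L.U (L.p x.1) ∈ 𝓝 q1 := (L.U_open _).mem_nhds hq1
      have hU2 : L.U q1 ∈ 𝓝 q1 := (L.U_open _).mem_nhds (L.U_mem _)
      filter_upwards [L.loc x.1 q1 hq1, hU, hU2] with q h2 hq hq2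
      have h3 : L.s x.1 q ∈ T := (hT x.1 q hq).mpr x.2
      have h4 : L.s (L.s x.1 q1) q ∈ T := by rw [← h2]; exact h3
      simp only [dif_pos h1, dif_pos h3, dif_pos h4]
      exact Subtype.ext h2
    p_smul := fun g x => L.p_smul g.1 x.1
    s_smul := fun g x q hq => by
      have h1 : L.s x.1 q ∈ T := (hT x.1 q hq).mpr x.2
      have h2 : L.s (g.1 • x.1) q = g.1 • L.s x.1 q := L.s_smul g.1 x.1 q hq
      have h3 : L.s (g.1 • x.1) q ∈ T := by rw [h2]; exact hH g.1 g.2 _ h1
      have h4 : (g • x : T).1 = g.1 • x.1 := rfl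
      simp only [h4, dif_pos h1, dif_pos h3]
      exact Subtype.ext h2
    trans := fun x y hp => by
      obtain ⟨g, hg⟩ := L.trans x.1 y.1 hp
      obtain ⟨h, hh, he⟩ := htr x.1 x.2 g (by rw [← hg]; exact y.2)
      exact ⟨⟨h, hh⟩, Subtype.ext (hg.trans he)⟩ }

/-- the set of base points with a marking -/
def reached (L : LS Q G E) : Set Q := {q | ∃ x, L.p x = q}

theorem isClopen_reached (L : LS Q G E) : IsClopen L.reached := by
  constructor
  · rw [← isOpen_compl_iff, isOpen_iff_mem_nhds]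
    intro q0 hq0
    filter_upwards [(L.U_open q0).mem_nhds (L.U_mem q0)] with q hq hmem
    obtain ⟨y, hy⟩ := hmem
    obtain ⟨x, hx, -⟩ := L.surj q0 y (by rw [hy]; exact hq)
    exact hq0 ⟨x, hx⟩
  · rw [isOpen_iff_mem_nhds]
    rintro _ ⟨x, rfl⟩
    filter_upwards [(L.U_open (L.p x)).mem_nhds (L.U_mem _)] with q hq
    exact ⟨L.s x q, L.p_s x q hq⟩

/-- restriction to the reached base points -/
def base (L : LS Q G E) : LS L.reached G E where
  p x := ⟨L.p x, x, rfl⟩
  U q := Subtype.val ⁻¹' L.U q.1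
  U_open q := (L.U_open q.1).preimage continuous_subtype_val
  U_mem q := L.U_mem q.1
  s x q := L.s x q.1
  p_s x q hq := Subtype.ext (L.p_s x q.1 hq)
  s_self x := L.s_self x
  surj q0 y hy := by
    obtain ⟨x, hx, h⟩ := L.surj q0.1 y hy
    exact ⟨x, Subtype.ext hx, h⟩
  inj x y hp q hq he := L.inj x y (congrArg Subtype.val hp) q.1 hq he
  loc x q1 hq1 := by
    have h := L.loc x q1.1 hq1
    exact (continuous_subtype_val.tendsto q1).eventually h
  p_smul g x := Subtype.ext (L.p_smul g x)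
  s_smul g x q hq := L.s_smul g x q.1 hq
  trans x y hp := L.trans x y (congrArg Subtype.val hp)

theorem base_surj (L : LS Q G E) : ∀ q, ∃ x, L.base.p x = q := by
  rintro ⟨_, x, rfl⟩; exact ⟨x, rfl⟩

end LS

/-- a curve with ends restricted to a clopen set -/
noncomputable def QEnds.res {Q : Type*} [TopologicalSpace Q] {ι : Type*} (B : QEnds Q ι)
    (Q' : Set Q) (hQ' : IsClopen Q') : QEnds Q' {i : ι // B.η i Complex.I ∈ Q'} :=
  have hmem : ∀ i : {i : ι // B.η i Complex.I ∈ Q'}, ∀ z : ℂ, B.η i.1 (LS.retr z) ∈ Q' := by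
    intro i z
    have hc : Continuous fun z : ℂ => B.η i.1 (LS.retr z) :=
      (B.η_cont i.1).comp_continuous LS.retr_cont fun z => LS.retr_im z
    have hcl : IsClopen ((fun z : ℂ => B.η i.1 (LS.retr z)) ⁻¹' Q') := hQ'.preimage hc
    have := hcl.eq_univ ⟨Complex.I, by
      change B.η i.1 (LS.retr Complex.I) ∈ Q'
      rw [LS.retr_of (by simp)]; exact i.2⟩
    have hz : z ∈ (fun z : ℂ => B.η i.1 (LS.retr z)) ⁻¹' Q' := by rw [this]; trivial
    exact hz
  { K0 := Subtype.val ⁻¹' B.K0
    K0_comp := hQ'.1.isClosedEmbedding_subtypeVal.isCompact_preimage B.K0_comp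
    η := fun i z => ⟨B.η i.1 (LS.retr z), hmem i z⟩
    η_cont := fun i => by
      apply Continuous.continuousOn
      exact ((B.η_cont i.1).comp_continuous LS.retr_cont fun z => LS.retr_im z).subtype_mk _
    η_per := fun i z hz => by
      apply Subtype.ext
      change B.η i.1 (LS.retr (z + 1)) = B.η i.1 (LS.retr z)
      rw [LS.retr_add, B.η_per i.1 _ (LS.retr_im z)]
    cover := fun q => by
      rcases B.cover q.1 with h | ⟨i, z, hz, h⟩
      · exact Or.inl h
      · right
        have hc : Continuous fun z : ℂ => B.η i (LS.retr z) :=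
          (B.η_cont i).comp_continuous LS.retr_cont fun z => LS.retr_im z
        have hcl : IsClopen ((fun z : ℂ => B.η i (LS.retr z)) ⁻¹' Q') := hQ'.preimage hc
        have huniv := hcl.eq_univ ⟨z, by
          change B.η i (LS.retr z) ∈ Q'
          rw [LS.retr_of hz, ← h]; exact q.2⟩
        have hI : B.η i Complex.I ∈ Q' := by
          have : Complex.I ∈ (fun z : ℂ => B.η i (LS.retr z)) ⁻¹' Q' := by rw [huniv]; trivial
          have h2 : B.η i (LS.retr Complex.I) ∈ Q' := this
          rwa [LS.retr_of (by simp)] at h2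
        refine ⟨⟨i, hI⟩, z, hz, Subtype.ext ?_⟩
        change q.1 = B.η i (LS.retr z)
        rw [LS.retr_of hz, h] }

theorem QEnds.res_η {Q : Type*} [TopologicalSpace Q] {ι : Type*} (B : QEnds Q ι)
    (Q' : Set Q) (hQ' : IsClopen Q') (i : {i : ι // B.η i Complex.I ∈ Q'}) {z : ℂ}
    (hz : 1 ≤ z.im) : ((B.res Q' hQ').η i z : Q) = B.η i.1 z := by
  change B.η i.1 (LS.retr z) = B.η i.1 z
  rw [LS.retr_of hz]

/-- a `Per` without surjectivity -/
structure PerPre (N : ℝ) (Λ : Set (Fin 3 → ℝ)) (Q : Type*) [TopologicalSpace Q] (G : Type*) [Group G]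
    (E : Type*) [MulAction G E] where
  L : LS Q G E
  R : UpRep N G
  mem : ∀ g, ∀ w ∈ Λ, R.ρ g w ∈ Λ
  Φ : E → ℍ
  Φ_cont : ∀ x, ContinuousAt (fun q => Φ (L.s x q)) (L.p x)
  Φ_equiv : ∀ (g : G) x, (Φ (g • x) : ℂ) = mv N (R.ρ g) (Φ x)

/-- the `Per` over the reached base points -/
def PerPre.base {N : ℝ} {Λ : Set (Fin 3 → ℝ)} {Q : Type*} [TopologicalSpace Q] {G : Type*} [Group G]
    {E : Type*} [MulAction G E] (P : PerPre N Λ Q G E) : Per N Λ P.L.reached G E where
  L := P.L.base
  surj := P.L.base_surj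
  R := P.R
  mem := P.mem
  Φ := P.Φ
  Φ_cont x := by
    have h := P.Φ_cont x
    have h2 : ContinuousAt (Subtype.val : P.L.reached → Q) (P.L.base.p x) :=
      continuous_subtype_val.continuousAt
    exact ContinuousAt.comp (f := (Subtype.val : P.L.reached → Q)) h h2
  Φ_equiv := P.Φ_equiv

end Crest.Agent.R281.CL_473
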