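import Mathlib

/-!
# R281 (S0424), CDR (3) (helper773), part 1: the lattice of integral vectors modulo a rational
subspace

`exists_lattice` : `Z`, `B` real subspaces of `m → ℝ` stable under the coordinatewise `ℚ`-linear
functionals `ℝ → ℚ` (i.e. defined over `ℚ`); then there are integral vectors `z_k ∈ Z` which are a
real basis of `Z` modulo `B` and a `ℤ`-basis of the integral vectors of `Z` modulo `B`.
-/

set_option autoImplicit false

open Finset

namespace Crest.Agent.R281.CdB_773

noncomputable section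

variable {m : Type} [Finite m]

/-- an integral vector as a real vector -/
def rl (x : m → ℤ) : m → ℝ := fun i => (x i : ℝ)

omit [Finite m] in
@[simp] theorem rl_apply (x : m → ℤ) (i : m) : rl x i = (x i : ℝ) := rfl

omit [Finite m] in
theorem rl_add (x y : m → ℤ) : rl (x + y) = rl x + rl y := by
  funext i; simp [rl]

omit [Finite m] in
theorem rl_zsmul (a : ℤ) (x : m → ℤ) : rl (a • x) = (a : ℝ) • rl x := by
  funext i; simp [rl]

omit [Finite m] in
theorem rl_sum {α : Type} (s : Finset α) (f : α → m → ℤ) :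
    rl (∑ k ∈ s, f k) = ∑ k ∈ s, rl (f k) := by
  funext i
  simp [rl, Finset.sum_apply]

/-- the integral vectors in a real subspace -/
def intV (Z : Submodule ℝ (m → ℝ)) : Submodule ℤ (m → ℤ) where
  carrier := {x | rl x ∈ Z}
  add_mem' := by
    intro a b ha hb
    show rl (a + b) ∈ Z
    rw [rl_add]
    exact Z.add_mem ha hb
  zero_mem' := by
    show rl 0 ∈ Z
    have : rl (0 : m → ℤ) = 0 := by funext i; simp [rl]
    rw [this]
    exact Z.zero_mem
  smul_mem' := by
    intro a x hx
    show rl (a • x) ∈ Z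
    rw [rl_zsmul]
    exact Z.smul_mem _ hx

omit [Finite m] in
theorem mem_intV {Z : Submodule ℝ (m → ℝ)} {x : m → ℤ} : x ∈ intV Z ↔ rl x ∈ Z := Iff.rfl

/-- rational vectors: clearing denominators -/
theorem exists_clear (q : m → ℚ) : ∃ (a : ℤ) (x : m → ℤ), a ≠ 0 ∧
    ∀ i, ((x i : ℤ) : ℚ) = (a : ℚ) * q i := by
  classical
  have := Fintype.ofFinite m
  refine ⟨∏ i, ((q i).den : ℤ), fun i => (∏ j ∈ Finset.univ.erase i, ((q j).den : ℤ)) * (q i).num,
    ?_, fun i => ?_⟩
  · exact Finset.prod_ne_zero_iff.2 fun i _ => by exact_mod_cast (q i).den_nz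
  · rw [← Finset.mul_prod_erase Finset.univ (fun j => ((q j).den : ℤ)) (Finset.mem_univ i)]
    push_cast
    have h := Rat.mul_den_eq_num (q i)
    rw [← h]
    ring

/-- a finite family of real numbers is a combination of its images under rational functionals -/
theorem exists_functionals (x : m → ℝ) : ∃ (s : ℕ) (r : Fin s → ℝ) (φ : Fin s → ℝ →ₗ[ℚ] ℚ),
    ∀ i, x i = ∑ j, r j * (φ j (x i) : ℝ) := by
  classical
  let W : Submodule ℚ ℝ := Submodule.span ℚ (Set.range x)
  have hW : FiniteDimensional ℚ W := FiniteDimensional.span_of_finite ℚ (Set.finite_range x)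
  let b := Module.finBasis ℚ W
  have h1 : ∀ j, ∃ φ : ℝ →ₗ[ℚ] ℚ, φ.comp W.subtype = b.coord j := fun j =>
    LinearMap.exists_extend (b.coord j)
  choose φ hφ using h1
  refine ⟨_, fun j => (b j : ℝ), φ, fun i => ?_⟩
  have hi : x i ∈ W := Submodule.subset_span ⟨i, rfl⟩
  have h2 : ∀ j, φ j (x i) = b.coord j ⟨x i, hi⟩ := fun j => by
    rw [← hφ j]
    rfl
  have h3 := b.sum_repr ⟨x i, hi⟩
  have h4 := congrArg (fun w : W => (w : ℝ)) h3
  simp only [Submodule.coe_sum, Submodule.coe_smul] at h4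
  calc x i = ∑ j, (b.repr ⟨x i, hi⟩) j • ((b j : W) : ℝ) := h4.symm
    _ = ∑ j, ((b j : W) : ℝ) * (φ j (x i) : ℝ) := by
        refine Finset.sum_congr rfl fun j _ => ?_
        rw [h2 j, Module.Basis.coord_apply, Rat.smul_def, mul_comm]

variable (Z B : Submodule ℝ (m → ℝ))

/-- defined over `ℚ` -/
def OvQ (Z : Submodule ℝ (m → ℝ)) : Prop :=
  ∀ x ∈ Z, ∀ φ : ℝ →ₗ[ℚ] ℚ, (fun i => ((φ (x i) : ℚ) : ℝ)) ∈ Z

/-- **lattice of integral vectors modulo a rational subspace** -/
theorem exists_lattice (hZ : OvQ Z) (hB : OvQ B) :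
    ∃ (N : ℕ) (z : Fin N → m → ℤ), (∀ k, rl (z k) ∈ Z) ∧
      (∀ x ∈ Z, ∃ t : Fin N → ℝ, x - ∑ k, t k • rl (z k) ∈ B) ∧
      (∀ t : Fin N → ℝ, ∑ k, t k • rl (z k) ∈ B → t = 0) ∧
      (∀ x : m → ℤ, rl x ∈ Z → ∃ a : Fin N → ℤ, rl x - ∑ k, (a k : ℝ) • rl (z k) ∈ B) := by
  classical
  let M : Submodule ℤ (m → ℤ) := intV Z
  let N' : Submodule ℤ M := (intV B).comap M.subtype
  have hfin : Module.Finite ℤ M := inferInstance
  have hN' : ∀ x : M, x ∈ N' ↔ rl (x : m → ℤ) ∈ B := fun x => Iff.rfl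
  have htf : Module.IsTorsionFree ℤ (M ⧸ N') := by
    refine Module.IsTorsionFree.of_smul_eq_zero fun a q h => ?_
    induction q using Submodule.Quotient.induction_on with
    | _ x =>
      rw [← Submodule.Quotient.mk_smul, Submodule.Quotient.mk_eq_zero, hN'] at h
      by_cases ha : a = 0
      · exact Or.inl ha
      · right
        rw [Submodule.Quotient.mk_eq_zero, hN']
        have h1 : rl ((a • x : M) : m → ℤ) = (a : ℝ) • rl (x : m → ℤ) := by
          rw [Submodule.coe_smul, rl_zsmul]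
        rw [h1] at h
        have h2 := B.smul_mem ((a : ℝ)⁻¹) h
        rwa [smul_smul, inv_mul_cancel₀ (by exact_mod_cast ha), one_smul] at h2
  have hfree : Module.Free ℤ (M ⧸ N') := inferInstance
  let b := Module.finBasis ℤ (M ⧸ N')
  have h1 : ∀ k, ∃ z : M, Submodule.Quotient.mk z = b k := fun k =>
    Submodule.Quotient.mk_surjective N' (b k)
  choose z hz using h1
  -- integral expansions
  have hint : ∀ x : m → ℤ, rl x ∈ Z →
      ∃ a : Fin (Module.finrank ℤ (M ⧸ N')) → ℤ, rl x - ∑ k, (a k : ℝ) • rl (z k : m → ℤ) ∈ B := by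
    intro x hx
    let x' : M := ⟨x, hx⟩
    refine ⟨fun k => b.repr (Submodule.Quotient.mk x') k, ?_⟩
    have h2 := b.sum_repr (Submodule.Quotient.mk x')
    have h3 : (Submodule.Quotient.mk (x' - ∑ k, b.repr (Submodule.Quotient.mk x') k • z k) :
        M ⧸ N') = 0 := by
      rw [Submodule.Quotient.mk_sub, sub_eq_zero, ← Submodule.mkQ_apply, ← Submodule.mkQ_apply,
        map_sum]
      simp only [map_smul, Submodule.mkQ_apply, hz]
      exact h2.symm
    rw [Submodule.Quotient.mk_eq_zero, hN'] at h3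
    have h4 : rl ((x' - ∑ k, b.repr (Submodule.Quotient.mk x') k • z k : M) : m → ℤ) =
        rl x - ∑ k, ((b.repr (Submodule.Quotient.mk x') k : ℤ) : ℝ) • rl (z k : m → ℤ) := by
      rw [Submodule.coe_sub, Submodule.coe_sum]
      funext i
      simp [rl, Finset.sum_apply, x']
    rwa [h4] at h3
  refine ⟨Module.finrank ℤ (M ⧸ N'), fun k => (z k : m → ℤ), fun k => (z k).2, ?_, ?_, hint⟩
  · -- span
    intro x hx
    obtain ⟨s, r, φ, hr⟩ := exists_functionals x
    have h2 : ∀ j : Fin s, ∃ t : Fin (Module.finrank ℤ (M ⧸ N')) → ℝ,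
        (fun i => ((φ j (x i) : ℚ) : ℝ)) - ∑ k, t k • rl (z k : m → ℤ) ∈ B := by
      intro j
      obtain ⟨a, y, ha, hy⟩ := exists_clear fun i => φ j (x i)
      have h3 : rl y = (a : ℝ) • fun i => ((φ j (x i) : ℚ) : ℝ) := by
        funext i
        have := hy i
        simp only [rl_apply, Pi.smul_apply, smul_eq_mul]
        exact_mod_cast this
      obtain ⟨c, hc⟩ := hint y (by rw [h3]; exact Z.smul_mem _ (hZ x hx (φ j)))
      refine ⟨fun k => (a : ℝ)⁻¹ * (c k : ℝ), ?_⟩
      have ha' : (a : ℝ) ≠ 0 := by exact_mod_cast ha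
      have h4 := B.smul_mem ((a : ℝ)⁻¹) hc
      rw [h3, smul_sub, smul_smul, inv_mul_cancel₀ ha', one_smul, Finset.smul_sum] at h4
      simpa only [smul_smul] using h4
    choose t ht using h2
    refine ⟨fun k => ∑ j, r j * t j k, ?_⟩
    have h5 : x - ∑ k, (∑ j, r j * t j k) • rl (z k : m → ℤ) =
        ∑ j, r j • ((fun i => ((φ j (x i) : ℚ) : ℝ)) - ∑ k, t j k • rl (z k : m → ℤ)) := by
      funext i
      simp only [Pi.sub_apply, Finset.sum_apply, Pi.smul_apply, smul_eq_mul, mul_sub,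
        Finset.sum_sub_distrib]
      rw [← hr i]
      congr 1
      simp only [Finset.sum_mul, Finset.mul_sum]
      rw [Finset.sum_comm]
      refine Finset.sum_congr rfl fun j _ => Finset.sum_congr rfl fun k _ => ?_
      ring
    rw [h5]
    exact B.sum_mem fun j _ => B.smul_mem _ (ht j)
  · -- independence
    intro t ht
    funext k
    refine (Module.forall_dual_apply_eq_zero_iff ℚ (t k)).1 fun φ => ?_
    obtain ⟨a, y, ha, hy⟩ := exists_clear fun k => φ (t k)
    have h2 := hB _ ht φ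
    have h3 : (a : ℝ) • (fun i => ((φ ((∑ k, t k • rl (z k : m → ℤ)) i) : ℚ) : ℝ)) =
        rl ((∑ k, y k • z k : M) : m → ℤ) := by
      funext i
      simp only [Pi.smul_apply, Finset.sum_apply, smul_eq_mul, rl_apply, Submodule.coe_sum,
        Submodule.coe_smul, map_sum, Int.cast_sum, Int.cast_mul, Rat.cast_sum, Finset.mul_sum]
      refine Finset.sum_congr rfl fun k _ => ?_
      have h4 : φ (t k * ((z k : m → ℤ) i : ℝ)) = ((z k : m → ℤ) i : ℚ) * φ (t k) := by
        have : t k * ((z k : m → ℤ) i : ℝ) = ((z k : m → ℤ) i : ℚ) • t k := by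
          rw [Rat.smul_def]
          push_cast
          ring
        rw [this, map_smul, smul_eq_mul]
      rw [h4]
      have h5 : ((y k : ℤ) : ℝ) = (a : ℝ) * (φ (t k) : ℝ) := by exact_mod_cast hy k
      push_cast
      rw [h5]
      ring
    have h6 : (∑ k, y k • z k : M) ∈ N' := by
      rw [hN', ← h3]
      exact B.smul_mem _ h2
    have h7 : ∑ k, y k • b k = 0 := by
      have h8 : (Submodule.Quotient.mk (∑ k, y k • z k) : M ⧸ N') = 0 := by
        rw [Submodule.Quotient.mk_eq_zero]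
        exact h6
      rw [← Submodule.mkQ_apply, map_sum] at h8
      simpa only [map_smul, Submodule.mkQ_apply, hz] using h8
    have h9 := Fintype.linearIndependent_iff.1 b.linearIndependent y h7 k
    have h10 := hy k
    rw [h9] at h10
    have ha' : (a : ℚ) ≠ 0 := by exact_mod_cast ha
    have : (a : ℚ) * φ (t k) = 0 := by rw [← h10]; simp
    exact (mul_eq_zero.1 this).resolve_left ha'

end

end Crest.Agent.R281.CdB_773
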