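import Crest.Agent.R275.ASAtl_293

/-!
# R281 (S0424), CDR (3) (helper773), part 2: nerve cocycles which are coboundaries on an arbitrary
open cover

`mem_B2_of_cover` : `A` a good atlas of the compact Hausdorff space `M`, `c` a nerve 2-cocycle with
values in any abelian group `R`; `W k` any open cover with `W k ⊆ source (ρ k)`; if
`c (ρ k) (ρ l) (ρ m) = h l m - h k m + h k l` on `W k ∩ W l ∩ W m` with `h k l` locally constant on
`W k ∩ W l`, then `c ∈ B2 A R`.
-/

set_option autoImplicit false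
set_option linter.unusedSectionVars false

open Set Filter Topology

namespace Crest.Agent.R281.CdB_773

open Crest.Agent.R275.Geo Crest.Agent.R275.GC293 Crest.Agent.R275.ASConv293
open Crest.Agent.R275.ASN627 Crest.Agent.R275.ASZ627

noncomputable section

variable {X : Type} [TopologicalSpace X]

/-- robust labels for finite open covers of normal spaces -/
theorem exists_lab_finite [NormalSpace X] {K : Type} [Finite K] (W : K → Set X)
    (hW : ∀ k, IsOpen (W k)) (hc : ∀ x, ∃ k, x ∈ W k) : ∃ lab : X → K, Lab W lab := by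
  classical
  have := Fintype.ofFinite K
  obtain ⟨v, hv, hvc, hvs⟩ := exists_iUnion_eq_closed_subset (u := W) hW
    (fun x => Set.toFinite _) (by
      refine Set.eq_univ_of_forall fun x => ?_
      obtain ⟨k, hk⟩ := hc x
      exact mem_iUnion.2 ⟨k, hk⟩)
  have h1 : ∀ x, ∃ k, x ∈ v k := fun x => mem_iUnion.1 (hv ▸ mem_univ x)
  choose lab hlab using h1
  refine ⟨lab, fun p => ⟨Finset.univ.filter fun k => p ∈ v k, fun k hk => ?_, ?_⟩⟩
  · exact hvs k (Finset.mem_filter.1 hk).2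
  · have h2 : ∀ᶠ y in 𝓝 p, ∀ k ∈ (Finset.univ : Finset K), p ∉ v k → y ∉ v k := by
      rw [Filter.eventually_all_finset]
      intro k _
      by_cases hk : p ∈ v k
      · exact Eventually.of_forall fun y h => absurd hk h
      · filter_upwards [(hvc k).isOpen_compl.mem_nhds hk] with y hy _ using hy
    filter_upwards [h2] with y hy
    rw [Finset.mem_filter]
    refine ⟨Finset.mem_univ _, ?_⟩
    by_contra h
    exact hy (lab y) (Finset.mem_univ _) h (hlab y)

variable {n : ℕ} {A : Atl n X} {R : Type} [AddCommGroup R]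

/-- finite covers -/
theorem mem_B2_of_finite_cover [NormalSpace X] (hA : GoodA A) {K : Type} [Finite K]
    (W : K → Set X) (hW : ∀ k, IsOpen (W k)) (hc : ∀ x, ∃ k, x ∈ W k) (ρ : K → A.ι)
    (hρ : ∀ k, W k ⊆ (A.e (ρ k)).source) (h : K → K → X → R)
    (hlc : ∀ k l, ∀ p ∈ W k ∩ W l, ∀ᶠ y in 𝓝 p, h k l y = h k l p)
    {c : A.ι → A.ι → A.ι → R} (hcZ : c ∈ Z2 A R)
    (hch : ∀ k l m, ∀ p ∈ W k ∩ W l ∩ W m,
      c (ρ k) (ρ l) (ρ m) = h l m p - h k m p + h k l p) : c ∈ B2 A R := by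
  classical
  obtain ⟨lab, hlab⟩ := exists_lab_finite W hW hc
  have hlab' : Lab (fun i => (A.e i).source) (fun x => ρ (lab x)) := by
    intro p
    obtain ⟨F, h1, h2⟩ := hlab p
    refine ⟨F.image ρ, fun i hi => ?_, h2.mono fun y hy => Finset.mem_image_of_mem ρ hy⟩
    obtain ⟨k, hk, rfl⟩ := Finset.mem_image.1 hi
    exact hρ k (h1 k hk)
  rw [goodA_mem_B2_iff hA hlab' hcZ]
  refine ⟨fun x y => h (lab x) (lab y) x, fun p => ?_⟩
  obtain ⟨F, h1, h2⟩ := hlab p
  have h3 : ∀ᶠ y in 𝓝 p, ∀ k ∈ F, ∀ l ∈ F, h k l y = h k l p := by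
    rw [Filter.eventually_all_finset]
    intro k hk
    rw [Filter.eventually_all_finset]
    intro l hl
    exact hlc k l p ⟨h1 k hk, h1 l hl⟩
  refine (nearAt_mem (h2.and h3)).mono fun l hl hl3 => ?_
  obtain ⟨x, y, z, rfl⟩ := exists_three hl3
  have hx := hl x (by simp)
  have hy := hl y (by simp)
  have hz := hl z (by simp)
  simp only [List.map_cons, List.map_nil, of2_apply, dl_three, of1_apply]
  have e1 : h (lab y) (lab z) y = h (lab y) (lab z) p := hy.2 _ hy.1 _ hz.1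
  have e2 : h (lab x) (lab z) x = h (lab x) (lab z) p := hx.2 _ hx.1 _ hz.1
  have e3 : h (lab x) (lab y) x = h (lab x) (lab y) p := hx.2 _ hx.1 _ hy.1
  rw [e1, e2, e3]
  exact hch _ _ _ p ⟨⟨h1 _ hx.1, h1 _ hy.1⟩, h1 _ hz.1⟩

/-- arbitrary covers of a compact space -/
theorem mem_B2_of_cover [CompactSpace X] [T2Space X] (hA : GoodA A) {K : Type}
    (W : K → Set X) (hW : ∀ k, IsOpen (W k)) (hc : ∀ x, ∃ k, x ∈ W k) (ρ : K → A.ι)
    (hρ : ∀ k, W k ⊆ (A.e (ρ k)).source) (h : K → K → X → R)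
    (hlc : ∀ k l, ∀ p ∈ W k ∩ W l, ∀ᶠ y in 𝓝 p, h k l y = h k l p)
    {c : A.ι → A.ι → A.ι → R} (hcZ : c ∈ Z2 A R)
    (hch : ∀ k l m, ∀ p ∈ W k ∩ W l ∩ W m,
      c (ρ k) (ρ l) (ρ m) = h l m p - h k m p + h k l p) : c ∈ B2 A R := by
  classical
  obtain ⟨t, ht⟩ := isCompact_univ.elim_finite_subcover W hW (fun x _ => by
    obtain ⟨k, hk⟩ := hc x
    exact mem_iUnion.2 ⟨k, hk⟩)
  refine mem_B2_of_finite_cover hA (K := {k // k ∈ t}) (fun k => W k) (fun k => hW k) (fun x => ?_)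
    (fun k => ρ k) (fun k => hρ k) (fun k l => h k l) (fun k l => hlc k l) hcZ
    (fun k l m => hch k l m)
  obtain ⟨k, hk⟩ := mem_iUnion.1 (ht (mem_univ x))
  obtain ⟨hkt, hk⟩ := mem_iUnion.1 hk
  exact ⟨⟨k, hkt⟩, hk⟩

end

end Crest.Agent.R281.CdB_773
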