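import Crest.Agent.R281.Cdr5_234

/-!
# R281 (S0424), CDR (helper234), part 6: the first Chern form of a line bundle is integral

* `Cls.of_cmp` : `Cls G` is invariant under a change of the system of real charts
* `intF_c1F_good`, `intF_c1F` : `IntF (c1F h)` for every metric `h` on a holomorphic line bundle
-/

set_option autoImplicit false
set_option linter.unusedSectionVars false
set_option maxSynthPendingDepth 3

open Set Filter Topology Complex
open scoped ContDiff Matrix ComplexConjugate ComplexOrder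

namespace Crest.Agent.R281.Cdr_234

open Crest.Agent.R281.HkR_835 Crest.Agent.R281.Dif_268
open Crest.Agent.R281.Ti_846 (Ex)
open Crest.Agent.R275.Geo Crest.Agent.R275.Core144 Crest.Agent.R275.GC293 Crest.Agent.R275.EDR890
open Crest.Agent.R273
open Crest.Agent.R273.Defs_333 Crest.Agent.R273.Hess_333 Crest.Agent.R273.HessB_333
open Crest.Agent.R273.Map_835 (HolMap dm Jp mem_dm holMap_id Jp_comp)
open Crest.Agent.R273.PB_835 (LBih Ref)

noncomputable section

/-! ### change of the real charts -/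

section cmp

variable {V V' X : Type} [NormedAddCommGroup V] [NormedSpace ℝ V] [NormedAddCommGroup V']
  [NormedSpace ℝ V'] [TopologicalSpace X] {C : RCh V X} {C' : RCh V' X} {G : AddSubgroup ℝ}

theorem pull_pull_cmp (h : Cmp C C') (w : F2 C) :
    Eqv ((SMap.ofCmp h.symm).pull ((SMap.ofCmp h).pull w)) w := by
  have e1 : (SMap.ofCmp h).comp (SMap.ofCmp h.symm) = SMap.id C := rfl
  have e2 := pull_comp (SMap.ofCmp h) (SMap.ofCmp h.symm) w
  rw [e1] at e2
  exact e2.symm.trans (pull_id w)

theorem Cls.of_cmp (h : Cmp C C') {w : F2 C} : Cls G ((SMap.ofCmp h).pull w) ↔ Cls G w :=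
  ⟨fun hw => (hw.pull (SMap.ofCmp h.symm)).eqv (pull_pull_cmp h w), fun hw => hw.pull _⟩

/-- the change of charts of 835 is the pull back by the identity -/
theorem eqv_cmp_F (h : Cmp C C') (w : F2 C) : Eqv (h.F w) ((SMap.ofCmp h).pull w) := by
  intro j z hz u v
  obtain ⟨i, hi⟩ := Cmp.exists_mov (C' := C') C (j := j) hz
  rw [h.F_w w hi]
  have hi' : z ∈ dom C C' (SMap.ofCmp h).f i j := hi
  rw [(SMap.ofCmp h).pull_w w hi']
  rfl

theorem Cls.cmp_F (h : Cmp C C') {w : F2 C} : Cls G (h.F w) ↔ Cls G w :=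
  ⟨fun hw => (Cls.of_cmp h).1 (hw.eqv (eqv_cmp_F h w)),
    fun hw => ((Cls.of_cmp h).2 hw).eqv (eqv_cmp_F h w).symm⟩

end cmp

variable {n : ℕ} {M : Type} [TopologicalSpace M] {A A' : Atl n M}

/-- a real differentiable logarithm of a holomorphic function is holomorphic -/
theorem holo_of_exp {F g : Cn n → ℂ} {z : Cn n} (hF : DifferentiableAt ℝ F z)
    (hg : DifferentiableAt ℂ g z) (h : ∀ᶠ y in 𝓝 z, Complex.exp (F y) = g y) :
    DifferentiableAt ℂ F z := by
  have h1 : HasFDerivAt (fun y => Complex.exp (F y)) (Complex.exp (F z) • fderiv ℝ F z) z :=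
    hF.hasFDerivAt.cexp
  have h2 : HasFDerivAt (fun y => Complex.exp (F y)) ((fderiv ℂ g z).restrictScalars ℝ) z :=
    (hg.hasFDerivAt.restrictScalars ℝ).congr_of_eventuallyEq h
  have h3 := h1.unique h2
  have h4 : ((Complex.exp (F z))⁻¹ • fderiv ℂ g z).restrictScalars ℝ = fderiv ℝ F z := by
    ext v
    have h5 := congrArg (fun T : Cn n →L[ℝ] ℂ => T v) h3
    simp only [smul_apply, smul_eq_mul] at h5
    show (Complex.exp (F z))⁻¹ * (fderiv ℂ g z) v = _
    rw [show (fderiv ℂ g z) v = Complex.exp (F z) * fderiv ℝ F z v from h5.symm, ← mul_assoc,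
      inv_mul_cancel₀ (Complex.exp_ne_zero _), one_mul]
  exact (hasFDerivAt_of_restrictScalars ℝ hF.hasFDerivAt h4).differentiableAt

/-- the weight of the frame `a`, as a function on `M` -/
def uW {L : LB A} (h : HM L) (a : A.ι) (x : M) : ℝ := -Real.log (h.w a x)

/-- the weight of the frame `a` read in the chart `i` -/
def uC {L : LB A} (h : HM L) (a i : A.ι) (z : Cn n) : ℝ := uW h a ((A.e i).symm z)

theorem uC_smooth {L : LB A} (h : HM L) (a i : A.ι) : ContDiffOn ℝ ∞ (uC h a i) (A.ov i a) := by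
  have e1 : ContDiffOn ℝ ∞ (fun z => h.wt a ((ofAtl A).t i a z)) (A.ov i a) :=
    (HM_333.wt_smooth h a).comp (RCh.t_smooth (C := ofAtl A) i a)
      fun z hz => (RCh.t_mem (C := ofAtl A) hz).1
  refine e1.congr fun z hz => ?_
  have hz2 : (A.e i).symm z ∈ (A.e a).source := hz.2
  show -Real.log (h.w a ((A.e i).symm z)) = -Real.log (h.w a ((A.e a).symm (A.e a ((A.e i).symm z))))
  rw [(A.e a).left_inv hz2]

theorem uC_at {L : LB A} (h : HM L) {a i : A.ι} {z : Cn n} (hz : z ∈ A.ov i a) :
    ContDiffAt ℝ ∞ (uC h a i) z :=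
  (uC_smooth h a i).contDiffAt ((RCh.isOpen_ov (C := ofAtl A) i a).mem_nhds hz)

/-- difference of two weights -/
theorem uC_sub {L : LB A} (h : HM L) {a b i : A.ι} {z : Cn n} (ha : z ∈ A.ov i a)
    (hb : z ∈ A.ov i b) :
    uC h a i z - uC h b i z = Real.log (‖L.g a b ((A.e i).symm z)‖ ^ 2) := by
  have hx : (A.e i).symm z ∈ (A.e a).source ∩ (A.e b).source := ⟨ha.2, hb.2⟩
  simp only [uC, uW]
  rw [h.tr a b _ hx, Real.log_mul]
  · ring
  · have := L.ne_zero a b ((A.e i).symm z)
    positivity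
  · exact (h.pos a _ hx.1).ne'

/-- the transition function read in a third chart -/
theorem g_diffAt {L : LB A} {a b i : A.ι} {z : Cn n} (ha : z ∈ A.ov i a) (hb : z ∈ A.ov i b) :
    DifferentiableAt ℂ (fun y => L.g a b ((A.e i).symm y)) z := by
  have ht : DifferentiableAt ℂ ((ofAtl A).t i a) z := ofAtl_t_diff A ha
  have hz' : (ofAtl A).t i a z ∈ A.ov a b := by
    refine ⟨(RCh.t_mem (C := ofAtl A) ha).1, ?_⟩
    have h1 : (A.e a).symm (A.e a ((A.e i).symm z)) = (A.e i).symm z := (A.e a).left_inv ha.2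
    show (A.e a).symm (A.e a ((A.e i).symm z)) ∈ (A.e b).source
    rw [h1]
    exact hb.2
  have h2 : DifferentiableAt ℂ (fun y => L.g a b ((A.e a).symm y)) ((ofAtl A).t i a z) :=
    (L.hol a b).differentiableAt ((RCh.isOpen_ov (C := ofAtl A) a b).mem_nhds hz')
  have h3 := DifferentiableAt.comp z h2 ht
  refine h3.congr_of_eventuallyEq ?_
  filter_upwards [(RCh.isOpen_ov (C := ofAtl A) i a).mem_nhds ha] with y hy
  have hy2 : (A.e i).symm y ∈ (A.e a).source := hy.2
  show L.g a b ((A.e i).symm y) = L.g a b ((A.e a).symm (A.e a ((A.e i).symm y)))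
  rw [(A.e a).left_inv hy2]

theorem near_ov {i a : A.ι} {z : Cn n} (ha : z ∈ A.ov i a) : ∀ᶠ y in 𝓝 z, y ∈ A.ov i a :=
  (RCh.isOpen_ov (C := ofAtl A) i a).mem_nhds ha

theorem hess_uC {L : LB A} (h : HM L) {a i : A.ι} {z : Cn n} (ha : z ∈ A.ov i a) :
    hess (uC h a i) z = hess (h.wt i) z := by
  have hi : z ∈ A.ov i i := ⟨ha.1, (A.e i).map_target ha.1⟩
  have h1 : h.wt i = uC h i i := rfl
  have h2 : uC h i i =ᶠ[𝓝 z] fun y => uC h a i y +
      Real.log (‖L.g i a ((A.e i).symm y)‖ ^ 2) := by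
    filter_upwards [near_ov ha, near_ov hi] with y hy hy'
    rw [← uC_sub h hy' hy]
    ring
  have h3 : ∀ᶠ y in 𝓝 z, DifferentiableAt ℂ (fun y => L.g i a ((A.e i).symm y)) y := by
    filter_upwards [near_ov ha, near_ov hi] with y hy hy' using g_diffAt hy' hy
  have h4 : ContDiffAt ℝ ∞ (fun y => Real.log (‖L.g i a ((A.e i).symm y)‖ ^ 2)) z := by
    have h5 := (uC_at h hi).sub (uC_at h ha)
    refine h5.congr_of_eventuallyEq ?_
    filter_upwards [near_ov ha, near_ov hi] with y hy hy' using (uC_sub h hy' hy).symm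
  rw [h1, hess_congr h2, hess_add (uC_at h ha) h4, hess_log_norm h3 (L.ne_zero _ _ _), add_zero]

/-- **the Chern form is integral**, good atlas -/
theorem intF_c1F_good (hA : GoodA A) {L : LB A} (h : HM L) : IntF (c1F h) := by
  -- logarithms
  have hlog : ∀ a b : A.ι, ∃ φ : M → ℂ, SmOn A ((A.e a).source ∩ (A.e b).source) φ ∧
      ∀ x ∈ (A.e a).source ∩ (A.e b).source,
        Complex.exp (2 * Real.pi * Complex.I * φ x) = L.g a b x := by
    intro a b
    refine hA.exists_log2 a b ?_ (fun x _ => L.ne_zero a b x)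
    intro x hx i hi
    have hza : A.e i x ∈ A.ov i a := mem_ov ⟨hi, hx.1⟩
    have hzb : A.e i x ∈ A.ov i b := mem_ov ⟨hi, hx.2⟩
    have h1 : DifferentiableOn ℂ (fun y => L.g a b ((A.e i).symm y)) (A.ov i a ∩ A.ov i b) :=
      fun y hy => (g_diffAt hy.1 hy.2).differentiableWithinAt
    have ho : IsOpen (A.ov i a ∩ A.ov i b) :=
      (RCh.isOpen_ov (C := ofAtl A) i a).inter (RCh.isOpen_ov (C := ofAtl A) i b)
    exact (((Crest.Agent.R266.SCV.contDiffOn_omega_of_differentiableOn ho h1).restrict_scalars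
      ℝ).of_le le_top).contDiffAt (ho.mem_nhds ⟨hza, hzb⟩)
  choose φ hφs hφ using hlog
  have hov : ∀ {i a : A.ι} {z : Cn n}, z ∈ sh (ofAtl A) i (A.e a).source → z ∈ A.ov i a :=
    fun hz => hz
  let D : CD (c1F h) A.ι :=
    { U := fun a => (A.e a).source
      op := fun a => (A.e a).open_source
      cov := A.cover
      th := fun a i z => lam (uC h a i) z
      th_sm := fun a i => contDiffOn_lam (RCh.isOpen_ov (C := ofAtl A) i a) (uC_smooth h a i)
      th_tr := fun a i j z hz hU u => by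
        have ha : z ∈ A.ov i a := ⟨hz.1, hU⟩
        have hz2 : (A.e i).symm z ∈ (A.e j).source := hz.2
        have ht : (ofAtl A).t i j z ∈ A.ov j a := by
          refine ⟨(RCh.t_mem (C := ofAtl A) hz).1, ?_⟩
          show (A.e j).symm (A.e j ((A.e i).symm z)) ∈ (A.e a).source
          rw [(A.e j).left_inv hz2]
          exact hU
        have e1 : uC h a i =ᶠ[𝓝 z] fun y => uC h a j ((ofAtl A).t i j y) := by
          filter_upwards [near_ov hz] with y hy
          have hy2 : (A.e i).symm y ∈ (A.e j).source := hy.2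
          show uW h a ((A.e i).symm y) = uW h a ((A.e j).symm (A.e j ((A.e i).symm y)))
          rw [(A.e j).left_inv hy2]
        have e2 : lam (uC h a i) z = lam (fun y => uC h a j ((ofAtl A).t i j y)) z := by
          unfold lam
          rw [e1.fderiv_eq]
        rw [e2, lam_comp ((uC_at h ht).differentiableAt (by simp)) (ofAtl_t_diff A hz)]
        rfl
      th_d := fun a i z hz u v => by
        have ha : z ∈ A.ov i a := hz
        rw [lam_d (uC_at h ha), c1F_w h ha.1, hess_uC h ha]
      f := fun a b x => -(φ a b x).re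
      f_d := fun a b i z hz => by
        have ha : z ∈ A.ov i a := ⟨hz.1, hz.2.1⟩
        have hb : z ∈ A.ov i b := ⟨hz.1, hz.2.2⟩
        set F : Cn n → ℂ := fun y => 2 * Real.pi * Complex.I * φ a b ((A.e i).symm y) with hF
        have hx : (A.e i).symm z ∈ (A.e a).source ∩ (A.e b).source := ⟨ha.2, hb.2⟩
        have hi : (A.e i).symm z ∈ (A.e i).source := (A.e i).map_target hz.1
        have e1 : ContDiffAt ℝ ∞ (fun y => φ a b ((A.e i).symm y)) z := by
          have := hφs a b _ hx i hi
          rwa [(A.e i).right_inv hz.1] at this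
        have e2 : DifferentiableAt ℝ F z := (e1.differentiableAt (by simp)).const_mul _
        have e3 : ∀ᶠ y in 𝓝 z, y ∈ A.ov i a ∧ y ∈ A.ov i b := (near_ov ha).and (near_ov hb)
        have e4 : DifferentiableAt ℂ F z := by
          refine holo_of_exp e2 (g_diffAt (L := L) ha hb) ?_
          filter_upwards [e3] with y hy using hφ a b _ ⟨hy.1.2, hy.2.2⟩
        have e5 := (lam_re e4).const_mul (-(2 * Real.pi)⁻¹)
        have hp : Real.pi ≠ 0 := Real.pi_ne_zero
        have hpi : ∀ c : ℂ, (2 * Real.pi * Complex.I * c).im = 2 * Real.pi * c.re := by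
          intro c
          have : (2 * Real.pi * Complex.I * c : ℂ) = ((2 * Real.pi : ℝ) : ℂ) * (Complex.I * c) := by
            push_cast
            ring
          rw [this, Complex.im_ofReal_mul]
          simp
        have e6 : (fun y => -(φ a b ((A.e i).symm y)).re) =
            fun y => -(2 * Real.pi)⁻¹ * (F y).im := by
          funext y
          simp only [hF]
          rw [hpi]
          field_simp
        have e7 : (fun y => (F y).re) =ᶠ[𝓝 z] fun y => (1 / 2 : ℝ) * (uC h a i y - uC h b i y) := by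
          filter_upwards [e3] with y hy
          rw [uC_sub h hy.1 hy.2, ← hφ a b _ ⟨hy.1.2, hy.2.2⟩, Complex.norm_exp, Real.log_pow,
            Real.log_exp]
          push_cast
          ring
        have e8 : lam (fun y => (F y).re) z =
            (1 / 2 : ℝ) • (lam (uC h a i) z - lam (uC h b i) z) := by
          have d1 := ((uC_at h ha).differentiableAt (n := ∞) (by simp)).hasFDerivAt
          have d2 := ((uC_at h hb).differentiableAt (n := ∞) (by simp)).hasFDerivAt
          have d3 : HasFDerivAt (fun y => (1 / 2 : ℝ) * (uC h a i y - uC h b i y)) _ z :=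
            (d1.fun_sub d2).const_mul (1 / 2 : ℝ)
          ext v
          rw [lam_apply, e7.fderiv_eq, d3.fderiv]
          simp only [smul_apply, sub_apply, lam_apply, smul_eq_mul]
          ring
        show HasFDerivAt (fun y => -(φ a b ((A.e i).symm y)).re) _ z
        rw [e6]
        refine e5.congr_fderiv ?_
        rw [e8]
        ext v
        simp only [smul_apply, sub_apply, smul_eq_mul]
        field_simp
        ring }
  refine ⟨A.ι, D, fun a b c x hx => ?_⟩
  have hab : x ∈ (A.e a).source ∩ (A.e b).source := hx.1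
  have hbc : x ∈ (A.e b).source ∩ (A.e c).source := ⟨hx.1.2, hx.2⟩
  have hac : x ∈ (A.e a).source ∩ (A.e c).source := ⟨hx.1.1, hx.2⟩
  have e1 : Complex.exp (2 * Real.pi * Complex.I * (φ a b x + φ b c x - φ a c x)) = 1 := by
    have e2 : 2 * Real.pi * Complex.I * (φ a b x + φ b c x - φ a c x) =
        2 * Real.pi * Complex.I * φ a b x + 2 * Real.pi * Complex.I * φ b c x -
          2 * Real.pi * Complex.I * φ a c x := by ring
    rw [e2, Complex.exp_sub, Complex.exp_add, hφ a b x hab, hφ b c x hbc, hφ a c x hac,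
      L.mul a b c x hx, div_self (L.ne_zero a c x)]
  rw [Complex.exp_eq_one_iff] at e1
  obtain ⟨m, hm⟩ := e1
  have e3 : φ a b x + φ b c x - φ a c x = m := by
    have h0 : (2 * Real.pi * Complex.I : ℂ) ≠ 0 := Complex.two_pi_I_ne_zero
    have : (2 * Real.pi * Complex.I : ℂ) * (φ a b x + φ b c x - φ a c x) =
        (2 * Real.pi * Complex.I) * m := by rw [hm]; ring
    exact mul_left_cancel₀ h0 this
  have e4 := congrArg Complex.re e3
  simp only [Complex.sub_re, Complex.add_re, Complex.intCast_re] at e4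
  refine ⟨-m, ?_⟩
  show ((-m : ℤ) : ℝ) = -(φ a b x).re + -(φ b c x).re - -(φ a c x).re
  push_cast
  linarith

/-- the curvature of the pull back metric under a change of atlas -/
theorem hess_pullHM {L : LB A} {L' : LB A'} (T : PB_835.PB id L' L) (hp : HolMap A' A id) (h : HM L)
    {k : A'.ι} {i : A.ι} {z : Cn n} (hz : z ∈ dm A' A id k i) :
    hess ((T.pullHM hp h).wt k) z = (Jp A' A id k i ((A'.e k).symm z))ᵀ *
      (curK h).g i ((A'.e k).symm z) * (Jp A' A id k i ((A'.e k).symm z)).map conj := by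
  have hk := (A'.e k).map_target hz.1
  have hi : (A'.e k).symm z ∈ (A.e i).source := hz.2
  have ho : IsOpen (id ⁻¹' (A.e i).source : Set M) := (A.e i).open_source
  have hd : ∀ᶠ y in 𝓝 z, DifferentiableAt ℂ (fun y => T.c k i ((A'.e k).symm y)) y := by
    have h1 := isOpen_ti (A := A') (i := k) ho
    filter_upwards [h1.mem_nhds hz] with y hy
    exact (T.hol k i).differentiableAt (h1.mem_nhds hy)
  have he : (T.pullHM hp h).wt k =ᶠ[𝓝 z] fun y => h.wt i (Map_835.rd A' A id k i y) +
      Real.log (‖T.c k i ((A'.e k).symm y)‖ ^ 2) := by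
    filter_upwards [(hp.isOpen_dm k i).mem_nhds hz] with y hy
    exact T.pullHM_wt hp h hy
  have hcomp : ContDiffAt ℝ ∞ (fun y => h.wt i (Map_835.rd A' A id k i y)) z := by
    have h1 : ContDiffAt ℝ ∞ (h.wt i) (Map_835.rd A' A id k i z) :=
      Kah_333.wt_contDiffAt h i ((A.e i).map_source hi)
    exact ContDiffAt.comp z (g := h.wt i) (f := Map_835.rd A' A id k i) h1
      (KpK_487.rd_smooth hp hz)
  have hlog : ContDiffAt ℝ ∞ (fun y => Real.log (‖T.c k i ((A'.e k).symm y)‖ ^ 2)) z := by
    have h1 : ContDiffAt ℝ ∞ ((T.pullHM hp h).wt k) z := Kah_333.wt_contDiffAt _ k hz.1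
    refine (h1.sub hcomp).congr_of_eventuallyEq ?_
    filter_upwards [he] with y hy
    rw [hy]
    ring
  have e4 := KpK_487.hess_rd hp (k := k) (i := i) hk hi
    (Kah_333.wt_contDiffAt h i ((A.e i).map_source hi))
  rw [(A'.e k).right_inv hz.1] at e4
  have e5 : (curK h).g i ((A'.e k).symm z) = hess (h.wt i) (A.e i ((A'.e k).symm z)) := rfl
  rw [e5, ← e4, hess_congr he, hess_add hcomp hlog,
    hess_log_norm hd (T.ne k i _ hk hi), add_zero]

/-- **the Chern form is integral** -/
theorem intF_c1F [CompactSpace M] [T2Space M] {L : LB A} (h : HM L) : IntF (c1F h) := by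
  obtain ⟨A', h1, h2, h3, h4, ⟨R⟩, h6, h7⟩ := Fam_835.exists_refine A (fun _ : Unit => univ)
    (fun _ => isOpen_univ) (fun x => ⟨(), mem_univ x⟩)
  have hc := cmp_of_hol h6.toHolMap h7.toHolMap
  set T := PB_835.PB.ref h6.toHolMap R L with hT
  set h' := T.pullHM h6.toHolMap h with hh'
  have e1 : IntF (c1F h') := intF_c1F_good h2 h'
  refine (Cls.of_cmp hc).1 (Cls.eqv e1 ?_)
  intro k z hz u v
  obtain ⟨i, hi⟩ := A.cover ((A'.e k).symm z)
  have hzd : z ∈ dm A' A id k i := ⟨hz, hi⟩
  have hz' : z ∈ dom (ofAtl A) (ofAtl A') (SMap.ofCmp hc).f i k := hzd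
  have e0 : ((SMap.ofCmp hc).pull (c1F h)).w k z u v =
      Real.pi⁻¹ * ((SMap.ofCmp hc).pull (curK h).f2).w k z u v := by
    rw [(SMap.ofCmp hc).pull_w _ hz', (SMap.ofCmp hc).pull_w _ hz']
    rfl
  have e2 := pull_f2 h6.toHolMap h7.toHolMap (curK h) hzd u v
  rw [e0, c1F_w h' hz, hess_pullHM T h6.toHolMap h hzd]
  exact congrArg (fun t => Real.pi⁻¹ * t) e2.symm

end

end Crest.Agent.R281.Cdr_234
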