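import Mathlib

/-!
# R281 (S0424), CDR (helper234), part 9: integral structure of a finite Cech complex

`Zc P4 R`, `Bc P3 R` : 2-cocycles and 2-coboundaries; `alg_basis` : integral cocycles `z k` which
form a basis of the real cocycles modulo coboundaries, and of the integral ones modulo real
coboundaries.
-/

set_option autoImplicit false

namespace Crest.Agent.R281.Cdr_234

noncomputable section

variable {ι : Type}

/-- 2-cocycles -/
def Zc (P4 : ι → ι → ι → ι → Prop) {R : Type} [AddCommGroup R] (c : ι → ι → ι → R) : Prop :=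
  ∀ i j k l, P4 i j k l → c j k l - c i k l + c i j l - c i j k = 0

/-- 2-coboundaries -/
def Bc (P3 : ι → ι → ι → Prop) {R : Type} [AddCommGroup R] (c : ι → ι → ι → R) : Prop :=
  ∃ b : ι → ι → R, ∀ i j k, P3 i j k → c i j k = b j k - b i k + b i j

theorem exists_denom {κ : Type} [Finite κ] (q : κ → ℚ) :
    ∃ (m : ℤ) (a : κ → ℤ), m ≠ 0 ∧ ∀ k, (m : ℚ) * q k = a k := by
  classical
  have _ : Fintype κ := Fintype.ofFinite κ
  refine ⟨∏ k, ((q k).den : ℤ), fun k => (∏ l ∈ Finset.univ.erase k, ((q l).den : ℤ)) * (q k).num,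
    Finset.prod_ne_zero_iff.2 fun k _ => by exact_mod_cast (q k).den_ne_zero, fun k => ?_⟩
  rw [← Finset.mul_prod_erase Finset.univ (fun l => ((q l).den : ℤ)) (Finset.mem_univ k)]
  push_cast
  have h : ((q k).den : ℚ) * q k = (q k).num := Rat.den_mul_eq_num (q k)
  linear_combination (∏ l ∈ Finset.univ.erase k, ((q l).den : ℚ)) * h

/-- integral cocycles -/
def ZcZ (P4 : ι → ι → ι → ι → Prop) : Submodule ℤ (ι → ι → ι → ℤ) where
  carrier := {c | Zc P4 c}
  add_mem' := by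
    intro a b ha hb i j k l h
    have h1 := ha i j k l h
    have h2 := hb i j k l h
    simp only [Pi.add_apply]
    linarith
  zero_mem' := by
    intro i j k l _
    simp
  smul_mem' := by
    intro m a ha i j k l h
    have h1 := ha i j k l h
    simp only [Pi.smul_apply, smul_eq_mul]
    linear_combination m * h1

/-- integral cocycles which are real coboundaries -/
def TcZ (P3 : ι → ι → ι → Prop) (P4 : ι → ι → ι → ι → Prop) : Submodule ℤ (ZcZ P4) where
  carrier := {c | Bc P3 (fun i j k => ((c.1 i j k : ℤ) : ℝ))}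
  add_mem' := by
    rintro a b ⟨u, hu⟩ ⟨v, hv⟩
    refine ⟨fun i j => u i j + v i j, fun i j k h => ?_⟩
    have h1 := hu i j k h
    have h2 := hv i j k h
    show (((a.1 i j k + b.1 i j k : ℤ)) : ℝ) = _
    push_cast
    linarith
  zero_mem' := ⟨fun _ _ => 0, fun i j k _ => by
    show (((0 : ℤ)) : ℝ) = _
    simp⟩
  smul_mem' := by
    rintro m a ⟨u, hu⟩
    refine ⟨fun i j => m * u i j, fun i j k h => ?_⟩
    have h1 := hu i j k h
    show (((m * a.1 i j k : ℤ)) : ℝ) = _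
    push_cast
    linear_combination (m : ℝ) * h1

theorem mem_TcZ {P3 : ι → ι → ι → Prop} {P4 : ι → ι → ι → ι → Prop} {c : ZcZ P4} :
    c ∈ TcZ P3 P4 ↔ Bc P3 (fun i j k => ((c.1 i j k : ℤ) : ℝ)) := Iff.rfl

instance torsionfree (P3 : ι → ι → ι → Prop) (P4 : ι → ι → ι → ι → Prop) :
    Module.IsTorsionFree ℤ (ZcZ P4 ⧸ TcZ P3 P4) := by
  refine Module.IsTorsionFree.of_smul_eq_zero fun m x h => ?_
  obtain ⟨x, rfl⟩ := Submodule.mkQ_surjective _ x
  by_cases hm : m = 0
  · exact Or.inl hm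
  right
  rw [← map_smul, Submodule.mkQ_apply, Submodule.Quotient.mk_eq_zero, mem_TcZ] at h
  rw [Submodule.mkQ_apply, Submodule.Quotient.mk_eq_zero, mem_TcZ]
  obtain ⟨u, hu⟩ := h
  refine ⟨fun i j => (m : ℝ)⁻¹ * u i j, fun i j k h => ?_⟩
  have h1 : (((m • x : ZcZ P4).1 i j k : ℤ) : ℝ) = u j k - u i k + u i j := hu i j k h
  have hm' : (m : ℝ) ≠ 0 := by exact_mod_cast hm
  have h2 : (((m • x : ZcZ P4).1 i j k : ℤ) : ℝ) = m * ((x.1 i j k : ℤ) : ℝ) := by
    show (((m * x.1 i j k : ℤ)) : ℝ) = _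
    push_cast
    ring
  rw [h2] at h1
  have h3 : ((x.1 i j k : ℤ) : ℝ) = (m : ℝ)⁻¹ * (m * ((x.1 i j k : ℤ) : ℝ)) := by
    rw [← mul_assoc, inv_mul_cancel₀ hm', one_mul]
  show ((x.1 i j k : ℤ) : ℝ) = (m : ℝ)⁻¹ * u j k - (m : ℝ)⁻¹ * u i k + (m : ℝ)⁻¹ * u i j
  rw [h3, h1]
  ring

/-- **the integral structure of the second cohomology of a finite Cech complex** -/
theorem alg_basis [Finite ι] (P3 : ι → ι → ι → Prop) (P4 : ι → ι → ι → ι → Prop) :
    ∃ (N : ℕ) (z : Fin N → ι → ι → ι → ℤ), (∀ k, Zc P4 (z k)) ∧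
      (∀ t : Fin N → ℝ, Bc P3 (fun i j k => ∑ s, t s * ((z s i j k : ℤ) : ℝ)) → t = 0) ∧
      (∀ c : ι → ι → ι → ℤ, Zc P4 c → ∃ m : Fin N → ℤ,
        Bc P3 (fun i j k => ((c i j k : ℤ) : ℝ) - ∑ s, (m s : ℝ) * ((z s i j k : ℤ) : ℝ))) ∧
      ∀ c : ι → ι → ι → ℝ, Zc P4 c → ∃ t : Fin N → ℝ,
        (∀ s, t s ∈ Submodule.span ℤ (Set.range fun p : ι × ι × ι => c p.1 p.2.1 p.2.2)) ∧
        Bc P3 (fun i j k => c i j k - ∑ s, t s * ((z s i j k : ℤ) : ℝ)) := by
  classical
  have hfin : Module.Finite ℤ (ZcZ P4 ⧸ TcZ P3 P4) := inferInstance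
  have hfree : Module.Free ℤ (ZcZ P4 ⧸ TcZ P3 P4) := inferInstance
  set B := Module.finBasis ℤ (ZcZ P4 ⧸ TcZ P3 P4) with hB
  set N := Module.finrank ℤ (ZcZ P4 ⧸ TcZ P3 P4) with hN
  have hz : ∀ s, ∃ z : ZcZ P4, (TcZ P3 P4).mkQ z = B s := fun s =>
    Submodule.mkQ_surjective _ (B s)
  choose z hzB using hz
  -- integral cocycles
  have h3 : ∀ c : ι → ι → ι → ℤ, Zc P4 c → ∃ m : Fin N → ℤ,
      Bc P3 (fun i j k => ((c i j k : ℤ) : ℝ) - ∑ s, (m s : ℝ) * (((z s).1 i j k : ℤ) : ℝ)) := by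
    intro c hc
    set x : ZcZ P4 := ⟨c, hc⟩ with hx
    refine ⟨fun s => B.repr ((TcZ P3 P4).mkQ x) s, ?_⟩
    have e1 : (TcZ P3 P4).mkQ (x - ∑ s, B.repr ((TcZ P3 P4).mkQ x) s • z s) = 0 := by
      rw [map_sub, map_sum, sub_eq_zero]
      conv_lhs => rw [← B.sum_repr ((TcZ P3 P4).mkQ x)]
      exact Finset.sum_congr rfl fun s _ => by rw [map_smul, hzB]
    rw [Submodule.mkQ_apply, Submodule.Quotient.mk_eq_zero, mem_TcZ] at e1
    obtain ⟨b, hb⟩ := e1
    refine ⟨b, fun i j k h => ?_⟩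
    have e3 : (((x - ∑ s, B.repr ((TcZ P3 P4).mkQ x) s • z s : ZcZ P4).1 i j k : ℤ) : ℝ) =
        b j k - b i k + b i j := hb i j k h
    rw [← e3]
    have e2 : (x - ∑ s, B.repr ((TcZ P3 P4).mkQ x) s • z s : ZcZ P4).1 i j k =
        c i j k - ∑ s, B.repr ((TcZ P3 P4).mkQ x) s * (z s).1 i j k := by
      rw [AddSubgroupClass.coe_sub, AddSubmonoidClass.coe_finsetSum]
      simp only [Pi.sub_apply, Finset.sum_apply]
      rfl
    rw [e2]
    push_cast
    rfl
  refine ⟨N, fun s => (z s).1, fun s => (z s).2, ?_, h3, ?_⟩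
  · -- independence
    rintro t ⟨b, hb⟩
    by_contra ht
    obtain ⟨s0, hs0⟩ : ∃ s, t s ≠ 0 := by
      by_contra h
      push Not at h
      exact ht (funext h)
    obtain ⟨lam, hlam⟩ : ∃ lam : ℝ →ₗ[ℚ] ℚ, lam (t s0) ≠ 0 := by
      by_contra h
      push Not at h
      exact hs0 ((Module.forall_dual_apply_eq_zero_iff ℚ (t s0)).1 h)
    obtain ⟨m, a, hm, ha⟩ := exists_denom fun s => lam (t s)
    have hint : ∀ (x : ℝ) (n : ℤ), lam (x * n) = lam x * n := by
      intro x n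
      have : x * (n : ℝ) = (n : ℚ) • x := by
        rw [Rat.smul_def]
        push_cast
        ring
      rw [this, map_smul, smul_eq_mul, mul_comm]
    have e1 : (∑ s, a s • z s : ZcZ P4) ∈ TcZ P3 P4 := by
      rw [mem_TcZ]
      refine ⟨fun i j => (((m : ℚ) * lam (b i j) : ℚ) : ℝ), fun i j k h => ?_⟩
      have e2 := congrArg lam (hb i j k h)
      simp only [map_sum, map_add, map_sub, hint] at e2
      have e3 : (∑ s, (a s : ℚ) * ((z s).1 i j k : ℤ)) =
          (m : ℚ) * lam (b j k) - (m : ℚ) * lam (b i k) + (m : ℚ) * lam (b i j) := by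
        have e4 : (∑ s, (a s : ℚ) * ((z s).1 i j k : ℤ)) =
            (m : ℚ) * ∑ s, lam (t s) * ((z s).1 i j k : ℤ) := by
          rw [Finset.mul_sum]
          refine Finset.sum_congr rfl fun s _ => ?_
          rw [← ha s]
          ring
        rw [e4, e2]
        ring
      have e5 : ((∑ s, a s • z s : ZcZ P4).1 i j k : ℤ) = ∑ s, a s * (z s).1 i j k := by
        rw [AddSubmonoidClass.coe_finsetSum]
        simp only [Finset.sum_apply]
        rfl
      show (((∑ s, a s • z s : ZcZ P4).1 i j k : ℤ) : ℝ) = (((m : ℚ) * lam (b j k) : ℚ) : ℝ) -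
        (((m : ℚ) * lam (b i k) : ℚ) : ℝ) + (((m : ℚ) * lam (b i j) : ℚ) : ℝ)
      rw [e5]
      have e6 := congrArg (fun q : ℚ => (q : ℝ)) e3
      push_cast at e6 ⊢
      exact e6
    have e2 : ∑ s, a s • B s = 0 := by
      have e3 : (TcZ P3 P4).mkQ (∑ s, a s • z s) = 0 := by
        rw [Submodule.mkQ_apply, Submodule.Quotient.mk_eq_zero]
        exact e1
      rw [map_sum] at e3
      rw [← e3]
      exact Finset.sum_congr rfl fun s _ => by rw [map_smul, hzB]
    have e3 := Fintype.linearIndependent_iff.1 B.linearIndependent a e2 s0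
    have e4 := ha s0
    simp only [e3, Int.cast_zero, mul_eq_zero, Int.cast_eq_zero, hm, false_or] at e4
    exact hlam e4
  · -- spanning
    intro c hc
    set W : Submodule ℤ ℝ := Submodule.span ℤ (Set.range fun p : ι × ι × ι => c p.1 p.2.1 p.2.2)
      with hW
    have hWfin : Module.Finite ℤ W := Module.Finite.span_of_finite ℤ (Set.finite_range _)
    have hWfree : Module.Free ℤ W := inferInstance
    have hmem : ∀ i j k, c i j k ∈ W := fun i j k => Submodule.subset_span ⟨(i, j, k), rfl⟩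
    set w := Module.finBasis ℤ W with hw
    set q : Fin (Module.finrank ℤ W) → ι → ι → ι → ℤ := fun l i j k =>
      w.repr ⟨c i j k, hmem i j k⟩ l with hq
    have hcq : ∀ i j k, c i j k = ∑ l, (q l i j k : ℝ) * (w l : ℝ) := by
      intro i j k
      have e1 := congrArg (Submodule.subtype W) (w.sum_repr ⟨c i j k, hmem i j k⟩)
      rw [map_sum] at e1
      have e2 : c i j k = Submodule.subtype W ⟨c i j k, hmem i j k⟩ := rfl
      rw [e2, ← e1]
      refine Finset.sum_congr rfl fun l _ => ?_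
      rw [map_smul, Submodule.subtype_apply, zsmul_eq_mul]
    have hqZ : ∀ l, Zc P4 (q l) := by
      intro l i j k s h
      have e1 := hc i j k s h
      have e2 : (⟨c j k s, hmem j k s⟩ - ⟨c i k s, hmem i k s⟩ + ⟨c i j s, hmem i j s⟩ -
          ⟨c i j k, hmem i j k⟩ : W) = 0 := Subtype.ext e1
      have e3 := congrArg (fun x => w.repr x l) e2
      simpa [hq] using e3
    have hm3 : ∀ l, ∃ mm : Fin N → ℤ, Bc P3 (fun i j k => ((q l i j k : ℤ) : ℝ) -
        ∑ s, (mm s : ℝ) * (((z s).1 i j k : ℤ) : ℝ)) := fun l => h3 (q l) (hqZ l)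
    choose mm hmm using hm3
    choose b hb using hmm
    refine ⟨fun s => ∑ l, (mm l s) • (w l : ℝ), fun s => W.sum_mem fun l _ =>
      W.smul_mem _ (w l).2, fun i j => ∑ l, (w l : ℝ) * b l i j, fun i j k h => ?_⟩
    have e1 : ∀ l, (q l i j k : ℝ) * (w l : ℝ) - (w l : ℝ) *
        ∑ s, (mm l s : ℝ) * (((z s).1 i j k : ℤ) : ℝ) =
        (w l : ℝ) * (b l j k - b l i k + b l i j) := by
      intro l
      have e2 : ((q l i j k : ℤ) : ℝ) - ∑ s, (mm l s : ℝ) * (((z s).1 i j k : ℤ) : ℝ) =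
          b l j k - b l i k + b l i j := hb l i j k h
      rw [← e2]
      ring
    have e2 : c i j k - ∑ s, (∑ l, (mm l s) • (w l : ℝ)) *
        (((z s).1 i j k : ℤ) : ℝ) = ∑ l, ((q l i j k : ℝ) * (w l : ℝ) - (w l : ℝ) *
        ∑ s, (mm l s : ℝ) * (((z s).1 i j k : ℤ) : ℝ)) := by
      rw [Finset.sum_sub_distrib, ← hcq]
      congr 1
      simp only [Finset.sum_mul, Finset.mul_sum, zsmul_eq_mul]
      rw [Finset.sum_comm]
      refine Finset.sum_congr rfl fun l _ => Finset.sum_congr rfl fun s _ => ?_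
      ring
    show c i j k - ∑ s, (∑ l, (mm l s) • (w l : ℝ)) *
        (((z s).1 i j k : ℤ) : ℝ) = (∑ l, (w l : ℝ) * b l j k) -
        (∑ l, (w l : ℝ) * b l i k) + ∑ l, (w l : ℝ) * b l i j
    rw [e2, Finset.sum_congr rfl fun l _ => e1 l, ← Finset.sum_sub_distrib,
      ← Finset.sum_add_distrib]
    refine Finset.sum_congr rfl fun l _ => ?_
    ring

end

end Crest.Agent.R281.Cdr_234
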