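import Crest.Agent.R281.Dsc4_340
import Crest.Agent.R281.Cdr9_234
import Crest.Agent.R281.Cdr6_234

/-!
# R281 (S0424), CDR (helper234), part 10: the basis theorem

* `PU.ofPart`   : partition of unity of an atlas
* `HBas C`      : integral basis of the second de Rham cohomology of `C : RCh V X`
* `HBas.cls_iff`: `Cls G (∑ t k • b k) ↔ ∀ k, t k ∈ G`, any subgroup `G` of `ℝ`
* `exists_hbas` : existence on a compact Hausdorff manifold with a holomorphic atlas
-/

set_option autoImplicit false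
set_option linter.unusedSectionVars false
set_option maxSynthPendingDepth 3

open Set Filter Topology
open scoped ContDiff

namespace Crest.Agent.R281.Cdr_234

open Crest.Agent.R281.HkR_835 Crest.Agent.R281.Dif_268
open Crest.Agent.R281.Ti_846 (F1 IsD Ex d1)
open Crest.Agent.R281.Dsc_340 (cls_iff_rel ex_iff_rel)
open Crest.Agent.R275.Geo Crest.Agent.R275.GC293

noncomputable section

section gen

variable {V X : Type} [NormedAddCommGroup V] [NormedSpace ℝ V] [TopologicalSpace X]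
  {C : RCh V X} {G : AddSubgroup ℝ}

/-- evaluation -/
def evL (i : C.ι) (z u v : V) : F2 C →ₗ[ℝ] ℝ where
  toFun w := w.w i z u v
  map_add' a b := by simp
  map_smul' c a := by simp

theorem evL_apply (i : C.ι) (z u v : V) (w : F2 C) : evL i z u v w = w.w i z u v := rfl

theorem sum_w {N : ℕ} (t : Fin N → ℝ) (b : Fin N → F2 C) (i : C.ι) (z u v : V) :
    (∑ k, t k • b k).w i z u v = ∑ k, t k * (b k).w i z u v := by
  rw [← evL_apply, map_sum]
  exact Finset.sum_congr rfl fun k _ => by rw [map_smul, smul_eq_mul, evL_apply]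

theorem Ex.sum {N : ℕ} {b : Fin N → F2 C} (hb : ∀ k, Ex (b k)) : Ex (∑ k, b k) :=
  (exS C).sum_mem fun k _ => hb k

theorem Cls.sum {N : ℕ} {b : Fin N → F2 C} (hb : ∀ k, Cls G (b k)) : Cls G (∑ k, b k) :=
  (clsS C G).sum_mem fun k _ => hb k

theorem Rel.zero [FiniteDimensional ℝ V] (hC : GoodR C) : Rel (0 : F2 C) (fun _ _ _ => 0) := by
  obtain ⟨c, hc⟩ := Rel.exists hC (0 : F2 C)
  have h1 := hc.smul 0
  simp only [zero_smul, zero_mul] at h1
  exact h1

theorem Rel.sum [FiniteDimensional ℝ V] (hC : GoodR C) {N : ℕ} {b : Fin N → F2 C}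
    {c : Fin N → C.ι → C.ι → C.ι → ℝ} (h : ∀ k, Rel (b k) (c k)) (t : Fin N → ℝ)
    (s : Finset (Fin N)) :
    Rel (∑ k ∈ s, t k • b k) (fun i j k => ∑ r ∈ s, t r * c r i j k) := by
  classical
  induction s using Finset.induction_on with
  | empty => simpa using Rel.zero hC
  | insert a s ha ih =>
    have h1 := ((h a).smul (t a)).add ih
    rw [Finset.sum_insert ha]
    convert h1 using 4
    rw [Finset.sum_insert ha]

/-- integral basis of the second de Rham cohomology -/
structure HBas (C : RCh V X) where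
  N : ℕ
  b : Fin N → F2 C
  int : ∀ k, IntF (b k)
  ind : ∀ t : Fin N → ℝ, Ex (∑ k, t k • b k) → t = 0
  span : ∀ w : F2 C, ∃ t : Fin N → ℝ, Ex (w - ∑ k, t k • b k)
  mem : ∀ (G : AddSubgroup ℝ) (t : Fin N → ℝ), Cls G (∑ k, t k • b k) → ∀ k, t k ∈ G

/-- **the basis theorem**, good system of charts -/
theorem exists_hbas_good [FiniteDimensional ℝ V] (hC : GoodR C) [Fintype C.ι] (P : PU C) :
    Nonempty (HBas C) := by
  classical
  set P3 : C.ι → C.ι → C.ι → Prop := fun i j k =>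
    ((C.e i).source ∩ (C.e j).source ∩ (C.e k).source).Nonempty with hP3
  set P4 : C.ι → C.ι → C.ι → C.ι → Prop := fun i j k l =>
    ((C.e i).source ∩ (C.e j).source ∩ (C.e k).source ∩ (C.e l).source).Nonempty with hP4
  obtain ⟨N, z, hz, hind, -, hspan⟩ := alg_basis P3 P4
  have hzR : ∀ s, ∃ w : F2 C, Rel w (fun i j k => ((z s i j k : ℤ) : ℝ)) := fun s =>
    exists_of_coc P _ fun i j k l h => by
      have h1 := hz s i j k l h
      exact_mod_cast h1
  choose b hb using hzR
  have hrel : ∀ t : Fin N → ℝ, Rel (∑ k, t k • b k)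
      (fun i j k => ∑ r, t r * ((z r i j k : ℤ) : ℝ)) := fun t => Rel.sum hC hb t _
  have hind' : ∀ t : Fin N → ℝ, Ex (∑ k, t k • b k) → t = 0 := by
    intro t ht
    obtain ⟨m, hm⟩ := (ex_iff_rel hC P (hrel t)).1 ht
    exact hind t ⟨m, hm⟩
  refine ⟨⟨N, b, fun k => ?_, hind', fun w => ?_, fun G t ht => ?_⟩⟩
  · refine (cls_iff_rel hC (hb k)).2 ⟨fun _ _ => 0, fun i j l _ => ?_⟩
    simp
  · obtain ⟨c, hc⟩ := Rel.exists hC w
    obtain ⟨t, -, m, hm⟩ := hspan c fun i j k l h => hc.coc i j k l h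
    exact ⟨t, (hc.sub (hrel t)).ex_of_cob P m hm⟩
  · obtain ⟨m, hm⟩ := (cls_iff_rel hC (hrel t)).1 ht
    set c : C.ι → C.ι → C.ι → ℝ := fun i j k => if P3 i j k then
      (∑ r, t r * ((z r i j k : ℤ) : ℝ)) - (m j k - m i k + m i j) else 0 with hc
    have hcG : ∀ i j k, c i j k ∈ G := by
      intro i j k
      by_cases h : P3 i j k
      · rw [hc]
        simp only [h, if_true]
        exact hm i j k h
      · rw [hc]
        simp only [h, if_false]
        exact G.zero_mem
    have hcoc : Zc P4 c := by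
      intro i j k l h
      obtain ⟨x, ⟨⟨h1, h2⟩, h3⟩, h4⟩ := h
      have p1 : P3 j k l := ⟨x, ⟨h2, h3⟩, h4⟩
      have p2 : P3 i k l := ⟨x, ⟨h1, h3⟩, h4⟩
      have p3 : P3 i j l := ⟨x, ⟨h1, h2⟩, h4⟩
      have p4 : P3 i j k := ⟨x, ⟨h1, h2⟩, h3⟩
      have e1 := (hrel t).coc i j k l ⟨x, ⟨⟨h1, h2⟩, h3⟩, h4⟩
      rw [hc]
      simp only [p1, p2, p3, p4, if_true]
      linear_combination e1
    obtain ⟨t', ht', m', hm'⟩ := hspan c hcoc
    have hG : Submodule.span ℤ (Set.range fun p : C.ι × C.ι × C.ι => c p.1 p.2.1 p.2.2) ≤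
        AddSubgroup.toIntSubmodule G := by
      rw [Submodule.span_le]
      rintro _ ⟨p, rfl⟩
      exact hcG _ _ _
    have e1 : (fun k => t k - t' k) = 0 := by
      refine hind _ ⟨fun i j => m i j + m' i j, fun i j k h => ?_⟩
      have e2 : c i j k - ∑ s, t' s * ((z s i j k : ℤ) : ℝ) = m' j k - m' i k + m' i j :=
        hm' i j k h
      rw [hc] at e2
      simp only [h, if_true] at e2
      simp only [sub_mul, Finset.sum_sub_distrib]
      linear_combination e2
    intro k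
    have e2 : t k = t' k := by
      have := congrFun e1 k
      simp only [Pi.zero_apply] at this
      linarith
    rw [e2]
    exact hG (ht' k)

namespace HBas

variable (B : HBas C)

theorem cls_iff (t : Fin B.N → ℝ) : Cls G (∑ k, t k • B.b k) ↔ ∀ k, t k ∈ G := by
  refine ⟨B.mem G t, fun h => Cls.sum fun k => ?_⟩
  refine (B.int k).smul (t k) ?_
  rintro _ ⟨m, rfl⟩
  have := G.zsmul_mem (h k) m
  rw [zsmul_eq_mul, mul_comm] at this
  exact this

theorem intF_iff (t : Fin B.N → ℝ) :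
    IntF (∑ k, t k • B.b k) ↔ ∀ k, ∃ m : ℤ, t k = m := by
  rw [IntF, B.cls_iff]
  exact forall_congr' fun k => ⟨fun ⟨m, hm⟩ => ⟨m, hm.symm⟩, fun ⟨m, hm⟩ => ⟨m, hm.symm⟩⟩

theorem ratF_iff (t : Fin B.N → ℝ) :
    RatF (∑ k, t k • B.b k) ↔ ∀ k, ∃ q : ℚ, t k = q := by
  rw [RatF, B.cls_iff]
  exact forall_congr' fun k => ⟨fun ⟨m, hm⟩ => ⟨m, hm.symm⟩, fun ⟨m, hm⟩ => ⟨m, hm.symm⟩⟩

theorem uniq {w : F2 C} {t t' : Fin B.N → ℝ} (h : Ex (w - ∑ k, t k • B.b k))
    (h' : Ex (w - ∑ k, t' k • B.b k)) : t = t' := by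
  have h1 := Ex.sub h' h
  have h2 : w - ∑ k, t' k • B.b k - (w - ∑ k, t k • B.b k) = ∑ k, (t k - t' k) • B.b k := by
    simp only [sub_smul, Finset.sum_sub_distrib]
    abel
  rw [h2] at h1
  have h3 := B.ind _ h1
  funext k
  have := congrFun h3 k
  simp only [Pi.zero_apply] at this
  linarith

/-- the basis of the cohomology space -/
def basis : Module.Basis (Fin B.N) ℝ (HdR C) :=
  Module.Basis.mk (v := fun k => (exS C).mkQ (B.b k))
    (by
      rw [Fintype.linearIndependent_iff]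
      intro t ht k
      have h1 : (exS C).mkQ (∑ k, t k • B.b k) = 0 := by
        rw [map_sum, ← ht]
        exact Finset.sum_congr rfl fun k _ => by rw [map_smul]
      rw [Submodule.mkQ_apply, Submodule.Quotient.mk_eq_zero, mem_exS] at h1
      exact congrFun (B.ind t h1) k)
    (by
      rintro x -
      obtain ⟨w, rfl⟩ := Submodule.mkQ_surjective _ x
      obtain ⟨t, ht⟩ := B.span w
      have h1 : (exS C).mkQ (w - ∑ k, t k • B.b k) = 0 := by
        rw [Submodule.mkQ_apply, Submodule.Quotient.mk_eq_zero]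
        exact ht
      rw [map_sub, sub_eq_zero] at h1
      rw [h1, map_sum]
      refine Submodule.sum_mem _ fun k _ => ?_
      rw [map_smul]
      exact Submodule.smul_mem _ _ (Submodule.subset_span ⟨k, rfl⟩))

@[simp] theorem basis_apply (k : Fin B.N) : B.basis k = (exS C).mkQ (B.b k) := by
  simp [basis]

theorem finite (B : HBas C) : FiniteDimensional ℝ (HdR C) := Module.Finite.of_basis B.basis

/-- coordinates of a closed form -/
def co (w : F2 C) : Fin B.N → ℝ := fun k => B.basis.repr ((exS C).mkQ w) k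

theorem ex_co (w : F2 C) : Ex (w - ∑ k, B.co w k • B.b k) := by
  have h1 : (exS C).mkQ (w - ∑ k, B.co w k • B.b k) = 0 := by
    rw [map_sub, map_sum, sub_eq_zero]
    conv_lhs => rw [← B.basis.sum_repr ((exS C).mkQ w)]
    exact Finset.sum_congr rfl fun k _ => by rw [map_smul, B.basis_apply]; rfl
  rw [Submodule.mkQ_apply, Submodule.Quotient.mk_eq_zero] at h1
  exact h1

theorem cls_iff_co {w : F2 C} : Cls G w ↔ ∀ k, B.co w k ∈ G := by
  rw [Cls.iff_of_sub_ex (B.ex_co w), B.cls_iff]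

theorem intF_iff_co {w : F2 C} : IntF w ↔ ∀ k, ∃ m : ℤ, B.co w k = m := by
  rw [IntF, Cls.iff_of_sub_ex (B.ex_co w)]
  exact B.intF_iff _

theorem ratF_iff_co {w : F2 C} : RatF w ↔ ∀ k, ∃ q : ℚ, B.co w k = q := by
  rw [RatF, Cls.iff_of_sub_ex (B.ex_co w)]
  exact B.ratF_iff _

/-- rational forms have integral multiples -/
theorem rat_int (B : HBas C) {w : F2 C} (hw : RatF w) :
    ∃ m : ℕ, 0 < m ∧ IntF ((m : ℝ) • w) := by
  have h1 := B.ratF_iff_co.1 hw
  choose q hq using h1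
  obtain ⟨m, a, hm, ha⟩ := exists_denom q
  refine ⟨m.natAbs, Int.natAbs_pos.2 hm, ?_⟩
  have h2 : ∀ m : ℤ, B.co ((m : ℝ) • w) = fun k => (m : ℝ) * B.co w k := by
    intro m
    funext k
    simp [co]
  have h3 : IntF ((m : ℝ) • w) := by
    rw [B.intF_iff_co]
    intro k
    refine ⟨a k, ?_⟩
    rw [h2]
    show (m : ℝ) * B.co w k = _
    rw [hq, ← Rat.cast_intCast (a k), ← ha k]
    push_cast
    rfl
  rcases Int.natAbs_eq m with h | h
  · have : ((m.natAbs : ℕ) : ℝ) = (m : ℝ) := by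
      rw [← Int.cast_natCast, ← h]
    rw [this]
    exact h3
  · have : ((m.natAbs : ℕ) : ℝ) = -(m : ℝ) := by
      rw [← Int.cast_natCast, ← Int.cast_neg]
      congr 1
      omega
    rw [this, neg_smul]
    exact Cls.neg h3

/-- every class is a real combination of rational (integral) classes -/
theorem ex_span (B : HBas C) (w : F2 C) : ∃ (N : ℕ) (b : Fin N → F2 C) (t : Fin N → ℝ),
    (∀ k, IntF (b k)) ∧ Ex (w - ∑ k, t k • b k) := ⟨B.N, B.b, B.co w, B.int, B.ex_co w⟩

end HBas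

end gen

/-! ### change of charts -/

section cmp

variable {V V' X : Type} [NormedAddCommGroup V] [NormedSpace ℝ V] [NormedAddCommGroup V']
  [NormedSpace ℝ V'] [TopologicalSpace X] {C : RCh V X} {C' : RCh V' X} {G : AddSubgroup ℝ}

theorem eqv_pull_sum {X' : Type} [TopologicalSpace X'] {C' : RCh V' X'} (g : SMap C' C) {N : ℕ}
    (t : Fin N → ℝ) (b : Fin N → F2 C) :
    Eqv (g.pull (∑ k, t k • b k)) (∑ k, t k • g.pull (b k)) := by
  intro j z hz u v
  obtain ⟨i, hi⟩ := g.exists_dom hz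
  rw [g.pull_w _ hi, sum_w, sum_w]
  exact Finset.sum_congr rfl fun k _ => by rw [g.pull_w _ hi]

theorem eqv_pull_sub {X' : Type} [TopologicalSpace X'] {C' : RCh V' X'} (g : SMap C' C)
    (w w' : F2 C) : Eqv (g.pull (w - w')) (g.pull w - g.pull w') := by
  intro j z hz u v
  obtain ⟨i, hi⟩ := g.exists_dom hz
  rw [g.pull_w _ hi]
  show _ = (g.pull w).w j z u v - (g.pull w').w j z u v
  rw [g.pull_w _ hi, g.pull_w _ hi]
  rfl

theorem ex_pull_iff (h : Cmp C C') {w : F2 C} : Ex ((SMap.ofCmp h).pull w) ↔ Ex w :=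
  ⟨fun hw => (pull_pull_cmp h w).ex ((SMap.ofCmp h.symm).ex_pull hw),
    fun hw => (SMap.ofCmp h).ex_pull hw⟩

/-- change of the system of charts -/
def HBas.cmp (B : HBas C) (h : Cmp C C') : HBas C' where
  N := B.N
  b k := (SMap.ofCmp h).pull (B.b k)
  int k := (B.int k).pull _
  ind t ht := B.ind t ((ex_pull_iff h).1 ((eqv_pull_sum _ t B.b).symm.ex ht))
  span w := by
    obtain ⟨t, ht⟩ := B.span ((SMap.ofCmp h.symm).pull w)
    refine ⟨t, ?_⟩
    have h1 := (SMap.ofCmp h).ex_pull ht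
    have h2 := (eqv_pull_sub (SMap.ofCmp h) _ _).ex h1
    refine Eqv.ex ?_ h2
    intro j z hz u v
    have e1 := pull_pull_cmp h.symm w j z hz u v
    have e2 := eqv_pull_sum (SMap.ofCmp h) t B.b j z hz u v
    show ((SMap.ofCmp h).pull ((SMap.ofCmp h.symm).pull w)).w j z u v -
      ((SMap.ofCmp h).pull (∑ k, t k • B.b k)).w j z u v = w.w j z u v -
      (∑ k, t k • (SMap.ofCmp h).pull (B.b k)).w j z u v
    rw [e2, ← e1]
  mem G t ht := B.mem G t ((Cls.of_cmp h).1 (Cls.eqv ht (eqv_pull_sum _ t B.b).symm))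

end cmp

section atl

variable {n : ℕ} {M : Type} [TopologicalSpace M] {A : Atl n M}

/-- the partition of unity of an atlas -/
def PU.ofPart [hf : Fintype (ofAtl A).ι] (P : Part A) : PU (ofAtl A) where
  ψ := P.ψ
  sm a i := P.ψ_sm a i
  sub a x hx := by
    have h1 := (P.χ_one a x hx).self_of_nhds
    refine P.χ_sub a (subset_tsupport _ ?_)
    rw [Function.mem_support, h1]
    exact one_ne_zero
  one x := by
    have h := P.sum_one x
    have hf' : Fintype A.ι := hf
    have h' : ∑ᶠ a : (ofAtl A).ι, P.ψ a x = 1 := h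
    rw [finsum_eq_sum_of_fintype] at h'
    exact h'

/-- **the basis theorem on a compact complex manifold** -/
theorem exists_hbas [CompactSpace M] [T2Space M] (A : Atl n M) : Nonempty (HBas (ofAtl A)) := by
  classical
  obtain ⟨A', h1, h2, ⟨P⟩, h4, ⟨R⟩, h6, h7⟩ :=
    R273.Fam_835.exists_refine A (fun _ : Unit => univ)
    (fun _ => isOpen_univ) (fun x => ⟨(), mem_univ x⟩)
  have hc := cmp_of_hol h6.toHolMap h7.toHolMap
  have hfin : Finite (ofAtl A').ι := h1
  have hft : Fintype (ofAtl A').ι := Fintype.ofFinite _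
  have hG : GoodR (ofAtl A') := h2
  obtain ⟨B⟩ := exists_hbas_good hG (PU.ofPart P)
  exact ⟨B.cmp hc.symm⟩

/-- the basis theorem in any compatible system of real charts -/
theorem exists_hbas_cmp [CompactSpace M] [T2Space M] {V : Type} [NormedAddCommGroup V]
    [NormedSpace ℝ V] {C : RCh V M} (A : Atl n M) (h : Cmp C (ofAtl A)) : Nonempty (HBas C) := by
  obtain ⟨B⟩ := exists_hbas A
  exact ⟨B.cmp h.symm⟩

end atl

end

end Crest.Agent.R281.Cdr_234
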