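import Crest.Agent.R281.Cdr1_234

/-!
# R281 (S0424), CDR (helper234), part 2: operations on classes

* `Cls.of_sub_ex`, `Cls.eqv` : `Cls G w` depends only on the class of `w`
* `Cls.zero`, `Cls.of_ex`, `Cls.add`, `Cls.smul`, `Cls.mono`, `clsS G : AddSubgroup (F2 C)`
* `Cls.pull` : `Cls G w → Cls G (g.pull w)` for every smooth map `g`
* `IntF.add`, `IntF.sub`, `IntF.neg`, `IntF.zsmul`, `IntF.pull`, `RatF.of_int`, `RatF.smul`, ...
-/

set_option autoImplicit false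
set_option linter.unusedSectionVars false
set_option maxSynthPendingDepth 3

open Set Filter Topology
open scoped ContDiff

namespace Crest.Agent.R281.Cdr_234

open Crest.Agent.R281.HkR_835
open Crest.Agent.R281.Ti_846 (F1 IsD Ex d1 d1_apply)
open Crest.Agent.R281.Dif_268

noncomputable section

variable {V X : Type} [NormedAddCommGroup V] [NormedSpace ℝ V] [TopologicalSpace X]
  {C : RCh V X} {G : AddSubgroup ℝ}

theorem sh_nhds {i : C.ι} {U : Set X} (hU : IsOpen U) {z : V} (hz : z ∈ sh C i U) :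
    sh C i U ∈ 𝓝 z := (isOpen_sh i hU).mem_nhds hz

theorem sh_ov {i j : C.ι} {U : Set X} {z : V} (hz : z ∈ C.ov i j) (hU : (C.e i).symm z ∈ U) :
    C.t i j z ∈ sh C j U := by
  refine ⟨(RCh.t_mem hz).1, ?_⟩
  show (C.e j).symm (C.e j ((C.e i).symm z)) ∈ U
  rwa [(C.e j).left_inv hz.2]

namespace CD

variable {w : F2 C} {α : Type} (D : CD w α)

theorem th_diffAt {a : α} {i : C.ι} {z : V} (hz : z ∈ sh C i (D.U a)) :
    DifferentiableAt ℝ (D.th a i) z :=
  ((D.th_sm a i).contDiffAt (sh_nhds (D.op a) hz)).differentiableAt (by simp)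

/-- change of the form by an exact form -/
def addEx {w' : F2 C} {η : F1 C} (h : IsD (w' - w) η) : CD w' α where
  U := D.U
  op := D.op
  cov := D.cov
  th a i z := D.th a i z + η.η i z
  th_sm a i := (D.th_sm a i).add ((η.sm i).mono fun z hz => hz.1)
  th_tr a i j z hz hU u := by
    simp only [add_apply]
    rw [D.th_tr a i j z hz hU, η.tr i j z hz]
  th_d a i z hz u v := by
    have h1 : fderiv ℝ (fun y => D.th a i y + η.η i y) z = _ :=
      ((D.th_diffAt hz).hasFDerivAt.add (F1dAt η hz.1).hasFDerivAt).fderiv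
    have h2 := D.th_d a i z hz u v
    have h3 := h i z hz.1 u v
    simp only [F2.sub_w, sub_apply] at h3
    simp only [h1, add_apply]
    linarith
  f := D.f
  f_d a b i z hz := by
    refine (D.f_d a b i z hz).congr_fderiv ?_
    abel

/-- refinement of the cover -/
def refine {β : Type} (U' : β → Set X) (op' : ∀ b, IsOpen (U' b)) (cov' : ∀ x, ∃ b, x ∈ U' b)
    (ρ : β → α) (hρ : ∀ b, U' b ⊆ D.U (ρ b)) : CD w β where
  U := U'
  op := op'
  cov := cov'
  th b := D.th (ρ b)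
  th_sm b i := (D.th_sm (ρ b) i).mono fun z hz => ⟨hz.1, hρ b hz.2⟩
  th_tr b i j z hz hU u := D.th_tr (ρ b) i j z hz (hρ b hU) u
  th_d b i z hz u v := D.th_d (ρ b) i z ⟨hz.1, hρ b hz.2⟩ u v
  f b b' := D.f (ρ b) (ρ b')
  f_d b b' i z hz := D.f_d (ρ b) (ρ b') i z ⟨hz.1, hρ b hz.2.1, hρ b' hz.2.2⟩

/-- multiples -/
def smul (c : ℝ) : CD (c • w) α where
  U := D.U
  op := D.op
  cov := D.cov
  th a i z := c • D.th a i z
  th_sm a i := (D.th_sm a i).const_smul c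
  th_tr a i j z hz hU u := by
    simp only [smul_apply]
    rw [D.th_tr a i j z hz hU]
  th_d a i z hz u v := by
    have h1 : fderiv ℝ (fun y => c • D.th a i y) z = _ :=
      ((D.th_diffAt hz).hasFDerivAt.const_smul c).fderiv
    have h2 := D.th_d a i z hz u v
    simp only [h1, smul_apply, F2.smul_w, smul_eq_mul]
    linear_combination c * h2
  f a b x := c * D.f a b x
  f_d a b i z hz := by
    refine ((D.f_d a b i z hz).const_mul c).congr_fderiv ?_
    rw [smul_sub]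

/-- sums -/
def add {w' : F2 C} {β : Type} (D' : CD w' β) : CD (w + w') (α × β) where
  U p := D.U p.1 ∩ D'.U p.2
  op p := (D.op p.1).inter (D'.op p.2)
  cov x := by
    obtain ⟨a, ha⟩ := D.cov x
    obtain ⟨b, hb⟩ := D'.cov x
    exact ⟨(a, b), ha, hb⟩
  th p i z := D.th p.1 i z + D'.th p.2 i z
  th_sm p i := ((D.th_sm p.1 i).mono fun z hz => ⟨hz.1, hz.2.1⟩).add
    ((D'.th_sm p.2 i).mono fun z hz => ⟨hz.1, hz.2.2⟩)
  th_tr p i j z hz hU u := by
    simp only [add_apply]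
    rw [D.th_tr p.1 i j z hz hU.1, D'.th_tr p.2 i j z hz hU.2]
  th_d p i z hz u v := by
    have h1 : fderiv ℝ (fun y => D.th p.1 i y + D'.th p.2 i y) z = _ :=
      ((D.th_diffAt (a := p.1) ⟨hz.1, hz.2.1⟩).hasFDerivAt.add
        (D'.th_diffAt (a := p.2) ⟨hz.1, hz.2.2⟩).hasFDerivAt).fderiv
    have h2 := D.th_d p.1 i z ⟨hz.1, hz.2.1⟩ u v
    have h3 := D'.th_d p.2 i z ⟨hz.1, hz.2.2⟩ u v
    simp only [h1, add_apply, F2.add_w]
    linarith
  f p q x := D.f p.1 q.1 x + D'.f p.2 q.2 x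
  f_d p q i z hz := by
    have h1 := D.f_d p.1 q.1 i z ⟨hz.1, hz.2.1.1, hz.2.2.1⟩
    have h2 := D'.f_d p.2 q.2 i z ⟨hz.1, hz.2.1.2, hz.2.2.2⟩
    refine (h1.add h2).congr_fderiv ?_
    abel

end CD

namespace Cls

theorem mono {G' : AddSubgroup ℝ} (h : G ≤ G') {w : F2 C} (hw : Cls G w) : Cls G' w := by
  obtain ⟨α, D, hD⟩ := hw
  exact ⟨α, D, fun a b c x hx => h (hD a b c x hx)⟩

/-- the condition depends only on the class -/
theorem of_sub_ex {w w' : F2 C} (hw : Cls G w) (h : Ex (w' - w)) : Cls G w' := by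
  obtain ⟨α, D, hD⟩ := hw
  obtain ⟨η, hη⟩ := h
  exact ⟨α, D.addEx hη, hD⟩

theorem of_sub_ex' {w w' : F2 C} (hw : Cls G w) (h : Ex (w - w')) : Cls G w' :=
  hw.of_sub_ex (by
    have := Ex.neg h
    rwa [neg_sub] at this)

theorem iff_of_sub_ex {w w' : F2 C} (h : Ex (w - w')) : Cls G w ↔ Cls G w' :=
  ⟨fun hw => hw.of_sub_ex' h, fun hw => hw.of_sub_ex h⟩

theorem _root_.Crest.Agent.R281.Cdr_234.ex_sub_of_eqv {w w' : F2 C} (h : Eqv w w') :
    Ex (w - w') := by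
  obtain ⟨η, hη⟩ := Ex.zero (C := C)
  refine ⟨η, fun i z hz u v => ?_⟩
  rw [← hη i z hz u v]
  simp only [F2.sub_w, sub_apply, F2.zero_w, zero_apply]
  rw [h i z hz u v]
  ring

theorem eqv {w w' : F2 C} (hw : Cls G w) (h : Eqv w w') : Cls G w' :=
  hw.of_sub_ex' (ex_sub_of_eqv h)

theorem zero : Cls G (0 : F2 C) := by
  refine ⟨Unit, ⟨fun _ => univ, fun _ => isOpen_univ, fun x => ⟨(), mem_univ x⟩,
    fun _ _ _ => 0, fun _ _ => contDiffOn_const, fun _ _ _ _ _ _ _ => by simp,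
    fun _ i z _ u v => by simp, fun _ _ _ => 0, fun _ _ i z _ => ?_⟩, fun _ _ _ _ _ => ?_⟩
  · simpa using hasFDerivAt_const (0 : ℝ) z
  · simpa using G.zero_mem

theorem of_ex {w : F2 C} (h : Ex w) : Cls G w :=
  zero.of_sub_ex (by rwa [sub_zero])

theorem smul {G' : AddSubgroup ℝ} {w : F2 C} (hw : Cls G w) (c : ℝ)
    (hc : ∀ g ∈ G, c * g ∈ G') : Cls G' (c • w) := by
  obtain ⟨α, D, hD⟩ := hw
  refine ⟨α, D.smul c, fun a b d x hx => ?_⟩
  have := hc _ (hD a b d x hx)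
  show c * D.f a b x + c * D.f b d x - c * D.f a d x ∈ G'
  convert this using 1
  ring

theorem add {w w' : F2 C} (hw : Cls G w) (hw' : Cls G w') : Cls G (w + w') := by
  obtain ⟨α, D, hD⟩ := hw
  obtain ⟨β, D', hD'⟩ := hw'
  refine ⟨α × β, D.add D', fun a b d x hx => ?_⟩
  have h1 := hD a.1 b.1 d.1 x ⟨⟨hx.1.1.1, hx.1.2.1⟩, hx.2.1⟩
  have h2 := hD' a.2 b.2 d.2 x ⟨⟨hx.1.1.2, hx.1.2.2⟩, hx.2.2⟩
  have h3 := G.add_mem h1 h2
  show D.f a.1 b.1 x + D'.f a.2 b.2 x + (D.f b.1 d.1 x + D'.f b.2 d.2 x) -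
    (D.f a.1 d.1 x + D'.f a.2 d.2 x) ∈ G
  convert h3 using 1
  ring

theorem neg {w : F2 C} (hw : Cls G w) : Cls G (-w) := by
  have h := hw.smul (G' := G) (-1) fun g hg => by simpa using hg
  rwa [neg_one_smul] at h

theorem sub {w w' : F2 C} (hw : Cls G w) (hw' : Cls G w') : Cls G (w - w') := by
  rw [sub_eq_add_neg]
  exact hw.add hw'.neg

end Cls

/-- the closed forms whose class comes from `G` -/
def clsS (C : RCh V X) (G : AddSubgroup ℝ) : AddSubgroup (F2 C) where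
  carrier := {w | Cls G w}
  add_mem' ha hb := Cls.add ha hb
  zero_mem' := Cls.zero
  neg_mem' ha := Cls.neg ha

theorem mem_clsS {w : F2 C} : w ∈ clsS C G ↔ Cls G w := Iff.rfl

/-! ### pull back -/

section pull

variable {V' X' : Type} [NormedAddCommGroup V'] [NormedSpace ℝ V'] [TopologicalSpace X']
  {C' : RCh V' X'} (g : SMap C' C) {w : F2 C} {α : Type} (D : CD w α)

/-- the part of the chart `j` of `X'` which goes to `U` in the chart `i` -/
theorem sh_dom {i : C.ι} {j : C'.ι} {U : Set X} {z : V'} (hz : z ∈ dom C C' g.f i j)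
    (hU : (C'.e j).symm z ∈ g.f ⁻¹' U) : loc C C' g.f i j z ∈ sh C i U := by
  refine ⟨g.loc_mem hz, ?_⟩
  rw [g.symm_loc hz]
  exact hU

/-- pull back of the primitives -/
def pth (a : α) (j : C'.ι) (z : V') : V' →L[ℝ] ℝ :=
  pb1 (D.th a (g.idx j z)) (loc C C' g.f (g.idx j z) j) z

theorem pth_eq {a : α} {i : C.ι} {j : C'.ι} {z : V'} (hz : z ∈ dom C C' g.f i j)
    (hU : (C'.e j).symm z ∈ g.f ⁻¹' (D.U a)) :
    pth g D a j z = pb1 (D.th a i) (loc C C' g.f i j) z := by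
  have h1 := g.idx_mem hz.1
  ext u
  rw [pth, pb1_apply, pb1_apply, D.th_tr a _ i _ (g.loc_ov h1 hz) (sh_dom g h1 hU).2, g.t_loc h1,
    g.dt_loc h1 hz]

theorem near_dom {i : C.ι} {j : C'.ι} {U : Set X} (hUo : IsOpen U) {z : V'}
    (hz : z ∈ dom C C' g.f i j) (hU : (C'.e j).symm z ∈ g.f ⁻¹' U) :
    ∀ᶠ y in 𝓝 z, y ∈ dom C C' g.f i j ∧ (C'.e j).symm y ∈ g.f ⁻¹' U := by
  have h1 : z ∈ sh C' j (g.f ⁻¹' U) := ⟨hz.1, hU⟩
  filter_upwards [(g.isOpen_dom i j).mem_nhds hz, sh_nhds (hUo.preimage g.cont) h1] with y h h'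
  exact ⟨h, h'.2⟩

/-- **pull back of the data** -/
def CD.pull : CD (g.pull w) α where
  U a := g.f ⁻¹' (D.U a)
  op a := (D.op a).preimage g.cont
  cov x := D.cov (g.f x)
  th := pth g D
  th_sm a j := by
    intro z hz
    obtain ⟨i, hi⟩ := g.exists_dom hz.1
    have h0 := near_dom g (D.op a) hi hz.2
    have h1 : ContDiffAt ℝ ∞ (pb1 (D.th a i) (loc C C' g.f i j)) z := by
      obtain ⟨S, hS, hSo, hzS⟩ := eventually_nhds_iff.1 h0
      refine (contDiffOn_pb1 hSo (D.th_sm a i) ((g.sm i j).mono fun y hy => (hS y hy).1)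
        (fun y hy => sh_dom g (hS y hy).1 (hS y hy).2)).contDiffAt (hSo.mem_nhds hzS)
    refine (h1.congr_of_eventuallyEq ?_).contDiffWithinAt
    filter_upwards [h0] with y hy using pth_eq g D hy.1 hy.2
  th_tr a j j' z hz hU u := by
    obtain ⟨i, hi⟩ := g.exists_dom hz.1
    have hU' : (C'.e j').symm (C'.t j j' z) ∈ g.f ⁻¹' (D.U a) := (sh_ov hz hU).2
    rw [pth_eq g D hi hU, pth_eq g D (g.dom_t hz hi) hU', pb1_apply, pb1_apply, g.dloc_t hz hi,
      g.loc_t hz]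
  th_d a j z hz u v := by
    obtain ⟨i, hi⟩ := g.exists_dom hz.1
    have h0 := near_dom g (D.op a) hi hz.2
    have h1 : pth g D a j =ᶠ[𝓝 z] pb1 (D.th a i) (loc C C' g.f i j) := by
      filter_upwards [h0] with y hy using pth_eq g D hy.1 hy.2
    have hs := sh_dom g hi hz.2
    rw [h1.fderiv_eq, d_pb1 (D.th_diffAt hs) (g.contDiffAt_loc hi), D.th_d a i _ hs,
      g.pull_w w hi]
  f a b x := D.f a b (g.f x)
  f_d a b j z hz := by
    obtain ⟨i, hi⟩ := g.exists_dom hz.1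
    have hs : loc C C' g.f i j z ∈ sh C i (D.U a ∩ D.U b) := sh_dom g hi hz.2
    have h1 : HasFDerivAt (fun y => D.f a b ((C.e i).symm y))
      (D.th b i (loc C C' g.f i j z) - D.th a i (loc C C' g.f i j z)) (loc C C' g.f i j z) :=
      D.f_d a b i _ hs
    have h2 := HasFDerivAt.comp (g := fun y => D.f a b ((C.e i).symm y))
      (f := loc C C' g.f i j) z h1 (g.diff_loc hi).hasFDerivAt
    have h3 : (fun y => D.f a b (g.f ((C'.e j).symm y))) =ᶠ[𝓝 z]
        (fun y => D.f a b ((C.e i).symm y)) ∘ loc C C' g.f i j := by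
      filter_upwards [(g.isOpen_dom i j).mem_nhds hi] with y hy
      show _ = D.f a b ((C.e i).symm (loc C C' g.f i j y))
      rw [g.symm_loc hy]
    refine (h2.congr_of_eventuallyEq h3).congr_fderiv ?_
    rw [pth_eq g D hi hz.2.1, pth_eq g D hi hz.2.2]
    rfl

theorem Cls.pull (hw : Cls G w) : Cls G (g.pull w) := by
  obtain ⟨α, D, hD⟩ := hw
  exact ⟨α, D.pull g, fun a b c x hx => hD a b c (g.f x) hx⟩

end pull

/-! ### integral and rational classes -/

theorem IntF.rat {w : F2 C} (hw : IntF w) : RatF w := by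
  refine Cls.mono ?_ hw
  rintro _ ⟨m, rfl⟩
  exact ⟨(m : ℚ), by simp⟩

theorem IntF.zsmul {w : F2 C} (hw : IntF w) (m : ℤ) : IntF ((m : ℝ) • w) := by
  refine Cls.smul hw (m : ℝ) ?_
  rintro _ ⟨k, rfl⟩
  exact ⟨m * k, by simp⟩

theorem RatF.smul {w : F2 C} (hw : RatF w) (q : ℚ) : RatF ((q : ℝ) • w) := by
  refine Cls.smul hw (q : ℝ) ?_
  rintro _ ⟨k, rfl⟩
  exact ⟨q * k, by simp⟩

end

end Crest.Agent.R281.Cdr_234
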