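import Crest.Agent.R281.HkR5_835

/-!
# Row 281, HK-ROT, part 6 (helper835): real 2-forms of type (1,1)

* `F2.k11`  : a closed real 2-form with `w (i u, i v) = w (u, v)` is a real (1,1)-form
-/

set_option autoImplicit false
set_option linter.unusedSectionVars false

open Set Filter Topology Complex
open scoped ContDiff Matrix ComplexConjugate ComplexOrder InnerProductSpace

namespace Crest.Agent.R281.HkR_835

open Crest.Agent.R275.Geo Crest.Agent.R275.Core144 Crest.Agent.R275.EDR890
open Crest.Agent.R273.Kah_333 Crest.Agent.R273.Hess_333 Crest.Agent.R281.Defs_273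

noncomputable section

variable {d : ℕ} {X : Type} [TopologicalSpace X] {A : Atl d X}

theorem ofAtl_dt_vec {i j : A.ι} {z : Cn d} (hz : z ∈ (ofAtl A).ov i j) (v : Cn d) :
    (fderiv ℝ ((ofAtl A).t i j) z v).ofLp = Jm A i j ((A.e i).symm z) *ᵥ v.ofLp :=
  funext fun b => ofAtl_dt A hz v b

theorem ofAtl_dt_I {i j : A.ι} {z : Cn d} (hz : z ∈ (ofAtl A).ov i j) (v : Cn d) :
    fderiv ℝ ((ofAtl A).t i j) z (I • v) = I • fderiv ℝ ((ofAtl A).t i j) z v := by
  rw [(ofAtl_t_diff A hz).fderiv_restrictScalars ℝ]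
  exact map_smul (fderiv ℂ ((ofAtl A).t i j) z) I v

theorem hb_ext {G H : Matrix (Fin d) (Fin d) ℂ} (h : ∀ u v, hb G u v = hb H u v) : G = H := by
  ext a b
  rw [← hb_single G a b, h, hb_single]

theorem sb_ext {G H : Matrix (Fin d) (Fin d) ℂ} (h : ∀ u v, sb G u v = sb H u v) : G = H := by
  ext a b
  rw [← sb_single G a b, h, sb_single]

theorem sing_I (c : Fin d) : (EuclideanSpace.single c I : Cn d) =
    I • EuclideanSpace.single c (1 : ℂ) := by
  ext a
  simp

/-- the Wirtinger symmetry of a closed form of type (1,1) -/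
theorem wirt {T : Cn d →L[ℝ] Bil (Cn d)}
    (h1 : ∀ u a b, T u (I • a) (I • b) = T u a b) (h2 : ∀ u a b, T u a b = -T u b a)
    (h3 : ∀ a b c, T a b c + T b c a + T c a b = 0) (u a b : Cn d) :
    T u a (I • b) - T (I • u) a b = T a u (I • b) - T (I • a) u b := by
  have hI : ∀ v : Cn d, I • I • v = -v := fun v => by rw [smul_smul, I_mul_I, neg_one_smul]
  have t : ∀ u a b, T u (I • a) b = -T u a (I • b) := fun u a b => by
    have := h1 u a (I • b)
    rw [hI, map_neg] at this
    linarith
  have c1 := h3 u a (I • b)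
  have c2 := h3 (I • u) a b
  have c3 := h3 u (I • a) b
  rw [h2 a (I • b) u] at c1
  rw [h2 a b (I • u), t a u b, t b u a] at c2
  rw [t u a b, h2 (I • a) b u] at c3
  linarith

/-- a closed real 2-form of type (1,1) -/
def F2.k11 (w : F2 (ofAtl A))
    (h : ∀ i, ∀ z ∈ (A.e i).target, ∀ u v, w.w i z (I • u) (I • v) = w.w i z u v) : K11 A where
  g i x := GB (w.w i (A.e i x))
  sm i a b := by
    have h1 : ∀ u v, ContDiffOn ℝ ∞ (fun z => ((w.w i z u v : ℝ) : ℂ)) (A.e i).target := by
      intro u v
      exact Complex.ofRealCLM.contDiff.comp_contDiffOn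
        (((w.sm i).clm_apply contDiffOn_const).clm_apply contDiffOn_const)
    refine ContDiffOn.congr (f := fun z => hw (w.w i z) (EuclideanSpace.single a 1)
      (EuclideanSpace.single b 1)) ((h1 _ _).sub (contDiffOn_const.mul (h1 _ _))) ?_
    intro z hz
    show GB (w.w i (A.e i ((A.e i).symm z))) a b = _
    rw [(A.e i).right_inv hz]
    rfl
  herm i x hx := GB_herm (h i _ ((A.e i).map_source hx)) (w.alt i _ ((A.e i).map_source hx))
  tr i j x hx := by
    have hz : A.e i x ∈ (ofAtl A).ov i j := by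
      refine ⟨(A.e i).map_source hx.1, ?_⟩
      show (A.e i).symm (A.e i x) ∈ _
      rw [(A.e i).left_inv hx.1]
      exact hx.2
    have hj : (ofAtl A).t i j (A.e i x) = A.e j x := by
      show A.e j ((A.e i).symm (A.e i x)) = _
      rw [(A.e i).left_inv hx.1]
    have hi' := h i _ ((A.e i).map_source hx.1)
    have hj' := h j _ ((A.e j).map_source hx.2)
    refine hb_ext fun u v => ?_
    rw [← hw_eq hi', hw, w.tr i j _ hz, w.tr i j _ hz, ofAtl_dt_I hz, hj,
      ← hb_mulVec (GB (w.w j (A.e j x))) (Jm A i j x)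
        (u' := fderiv ℝ ((ofAtl A).t i j) (A.e i x) u)
        (v' := fderiv ℝ ((ofAtl A).t i j) (A.e i x) v) ?_ ?_, ← hw_eq hj']
    · rfl
    · rw [ofAtl_dt_vec hz, (A.e i).left_inv hx.1]
    · rw [ofAtl_dt_vec hz, (A.e i).left_inv hx.1]
  closed i z hz a b c := by
    have hd : DifferentiableAt ℝ (w.w i) z := w.diffAt hz
    have ho := (A.e i).open_target.mem_nhds hz
    set T := fderiv ℝ (w.w i) z with hT
    have e0 : ∀ u v p, fderiv ℝ (fun y => w.w i y u v) z p = T p u v := fun u v p =>
      fderiv_app hd u v p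
    have f1 : ∀ u v, HasFDerivAt (fun y => w.w i y u v) (fderiv ℝ (fun y => w.w i y u v) z) z :=
      fun u v => ((hd.hasFDerivAt.clm_apply (hasFDerivAt_const u z)).clm_apply
        (hasFDerivAt_const v z)).differentiableAt.hasFDerivAt
    have k1 : ∀ u a b, T u (I • a) (I • b) = T u a b := by
      intro u a b
      rw [← e0, ← e0]
      have : (fun y => w.w i y (I • a) (I • b)) =ᶠ[𝓝 z] fun y => w.w i y a b := by
        filter_upwards [ho] with y hy using h i y hy a b
      rw [this.fderiv_eq]
    have k2 : ∀ u a b, T u a b = -T u b a := by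
      intro u a b
      rw [← e0, ← e0]
      have : (fun y => w.w i y a b) =ᶠ[𝓝 z] fun y => -w.w i y b a := by
        filter_upwards [ho] with y hy using w.alt i y hy a b
      rw [this.fderiv_eq, fderiv_fun_neg]
      rfl
    have k3 : ∀ a b c, T a b c + T b c a + T c a b = 0 := w.closed i z hz
    have key : ∀ a b c : Fin d, wd (false, c)
        (fun y => GB (w.w i (A.e i ((A.e i).symm y))) a b) z =
        (1 / 2 : ℂ) * (((T (EuclideanSpace.single c 1) (EuclideanSpace.single a 1)
            (I • EuclideanSpace.single b (1 : ℂ)) -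
          T (I • EuclideanSpace.single c (1 : ℂ)) (EuclideanSpace.single a 1)
            (EuclideanSpace.single b 1) : ℝ) : ℂ) -
          I * ((T (EuclideanSpace.single c 1) (EuclideanSpace.single a 1)
            (EuclideanSpace.single b (1 : ℂ)) +
          T (I • EuclideanSpace.single c (1 : ℂ)) (EuclideanSpace.single a 1)
            (I • EuclideanSpace.single b (1 : ℂ)) : ℝ) : ℂ)) := by
      intro a b c
      have e1 : (fun y => GB (w.w i (A.e i ((A.e i).symm y))) a b) =ᶠ[𝓝 z]
          fun y => ((w.w i y (EuclideanSpace.single a 1)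
            (I • EuclideanSpace.single b (1 : ℂ)) : ℝ) : ℂ) -
            I * ((w.w i y (EuclideanSpace.single a 1) (EuclideanSpace.single b 1) : ℝ) : ℂ) := by
        filter_upwards [ho] with y hy
        rw [(A.e i).right_inv hy]
        rfl
      rw [wd_congr e1]
      have e2 := ((Complex.ofRealCLM.hasFDerivAt.comp z
        (f1 (EuclideanSpace.single a 1) (I • EuclideanSpace.single b (1 : ℂ)))).sub
        ((Complex.ofRealCLM.hasFDerivAt.comp z
          (f1 (EuclideanSpace.single a 1) (EuclideanSpace.single b 1))).const_mul I)).fderiv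
      have e3 : (fun y => ((w.w i y (EuclideanSpace.single a 1)
            (I • EuclideanSpace.single b (1 : ℂ)) : ℝ) : ℂ) -
            I * ((w.w i y (EuclideanSpace.single a 1) (EuclideanSpace.single b 1) : ℝ) : ℂ)) =
          ((Complex.ofRealCLM ∘ fun y => w.w i y (EuclideanSpace.single a 1)
            (I • EuclideanSpace.single b (1 : ℂ))) -
            fun y => I * (Complex.ofRealCLM ∘ fun y => w.w i y (EuclideanSpace.single a 1)
              (EuclideanSpace.single b 1)) y) := rfl
      rw [wd, wdL, e3, e2, sing_I]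
      simp only [sub_apply, smul_apply, ContinuousLinearMap.comp_apply, e0, Complex.ofRealCLM_apply,
        smul_eq_mul, cI_false]
      push_cast
      linear_combination ((1 / 2 : ℂ) * ((T (I • EuclideanSpace.single c (1 : ℂ))
        (EuclideanSpace.single a 1) (EuclideanSpace.single b 1) : ℝ) : ℂ)) * I_mul_I
    rw [key, key]
    have w1 := wirt k1 k2 k3 (EuclideanSpace.single c 1) (EuclideanSpace.single a 1)
      (EuclideanSpace.single b 1)
    have w2 := wirt k1 k2 k3 (EuclideanSpace.single c 1) (EuclideanSpace.single a 1)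
      (I • EuclideanSpace.single b (1 : ℂ))
    have hI : ∀ v : Cn d, I • I • v = -v := fun v => by rw [smul_smul, I_mul_I, neg_one_smul]
    rw [hI, map_neg, map_neg] at w2
    rw [w1]
    congr 4
    linarith

theorem F2.k11_g (w : F2 (ofAtl A))
    (h : ∀ i, ∀ z ∈ (A.e i).target, ∀ u v, w.w i z (I • u) (I • v) = w.w i z u v) (i : A.ι)
    (x : X) : (w.k11 h).g i x = GB (w.w i (A.e i x)) := rfl

/-- the form of the (1,1)-form is the form -/
theorem F2.k11_f2 (w : F2 (ofAtl A))
    (h : ∀ i, ∀ z ∈ (A.e i).target, ∀ u v, w.w i z (I • u) (I • v) = w.w i z u v) {i : A.ι}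
    {z : Cn d} (hz : z ∈ (A.e i).target) : (w.k11 h).f2.w i z = w.w i z := by
  ext u v
  rw [K11.f2_w _ hz, eq_hb (h i z hz), F2.k11_g, (A.e i).right_inv hz]

theorem K11.f2_k11 (K : K11 A) {i : A.ι} {x : X} (hx : x ∈ (A.e i).source) :
    (K.f2.k11 fun _ _ hz u v => K.f2_inv hz u v).g i x = K.g i x := by
  rw [F2.k11_g]
  show GB (bM ((mL (K.g i ((A.e i).symm (A.e i x)))ᵀ).comp iL)) = _
  rw [(A.e i).left_inv hx, GB_bM (K.herm i x hx)]

end

end Crest.Agent.R281.HkR_835
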