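import Crest.Agent.R281.KpD_487
import Crest.Agent.R273.HessB_333

/-!
# R281 (S0424), YAU-GEN (helper487): local potentials of closed real `(1,1)`-forms in `ℂⁿ`

* `ddbar_local` : a closed smooth Hermitian matrix field `g` on the polydisc `PD p r` is `hess u` on a
  smaller polydisc (`∂∂̄`-lemma): radial homotopy + `∂̄`-lemma for `(0,1)`-forms
-/

set_option autoImplicit false
set_option linter.unusedSectionVars false

open Set Filter Topology Complex MeasureTheory
open scoped ContDiff ComplexConjugate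

namespace Crest.Agent.R281.KpE_487

open Crest.Agent.R275.Geo Crest.Agent.R275.EDR890 Crest.Agent.R275.Poi75
open Crest.Agent.R273.Hess_333 Crest.Agent.R273.HessB_333 Crest.Agent.R281.KpD_487

noncomputable section

variable {n : ℕ}

theorem wd_Rad (s : WI n) (q : ℕ) {z0 : Cn n} {U : Set (Cn n)} (hU : IsOpen U)
    (hS : StarAt z0 U) {f : Cn n → ℂ} (hf : ContDiffOn ℝ ∞ f U) {z : Cn n} (hz : z ∈ U) :
    wd s (Rad q z0 f) z = Rad (q + 1) z0 (wd s f) z := by
  have e : wd s f = fun w => (1 / 2 : ℂ) * (fderiv ℝ f w (EuclideanSpace.single s.2 1) +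
      cI s.1 * fderiv ℝ f w (EuclideanSpace.single s.2 I)) := by
    funext w
    simp only [wd, wdL, smul_eq_mul]
  rw [e, Rad_const_mul, Rad_add (U := U) (q + 1) hS
    (f := fun w => fderiv ℝ f w (EuclideanSpace.single s.2 1))
    (g := fun w => cI s.1 * fderiv ℝ f w (EuclideanSpace.single s.2 I))
    (fderiv_cont hU hf _).continuousOn
    (continuousOn_const.mul (fderiv_cont hU hf _).continuousOn) hz, Rad_const_mul,
    ← fderiv_Rad q hU hS hf hz, ← fderiv_Rad q hU hS hf hz]
  simp only [wd, wdL, smul_eq_mul]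

theorem conj_Rad (q : ℕ) (z0 : Cn n) (f : Cn n → ℂ) (z : Cn n) :
    conj (Rad q z0 f z) = Rad q z0 (fun w => conj (f w)) z := by
  unfold Rad
  rw [← integral_conj]
  refine integral_congr_ae (Eventually.of_forall fun t => ?_)
  simp only [map_mul, map_pow, Complex.conj_ofReal]

/-- the coordinate `z_c - p_c` -/
def X (p : Cn n) (c : Fin n) (z : Cn n) : ℂ := ze (false, c) z - ze (false, c) p

theorem X_eq (p : Cn n) (c : Fin n) (z : Cn n) : X p c z = ze (false, c) (z - p) := by
  rw [X, map_sub]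

theorem conj_X (p : Cn n) (c : Fin n) (z : Cn n) : conj (X p c z) = ze (true, c) (z - p) := by
  rw [X_eq, ze_apply, ze_apply]
  rfl

theorem contDiff_X (p : Cn n) (c : Fin n) : ContDiff ℝ ∞ (X p c) :=
  (ze (false, c)).contDiff.sub contDiff_const

theorem wd_X (p : Cn n) (c : Fin n) (s : WI n) (z : Cn n) :
    wd s (X p c) z = if s = (false, c) then (1 : ℂ) else 0 := by
  have h : fderiv ℝ (X p c) z = ze (false, c) := by
    have h1 : HasFDerivAt (X p c) (ze (false, c)) z :=
      (ze (false, c)).hasFDerivAt.sub_const _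
    exact h1.fderiv
  rw [wd, h, wdL_ze]

/-- **the local `∂∂̄`-lemma** -/
theorem ddbar_local {p : Cn n} {r : ℝ} (hr : 0 < r) {g : Cn n → Matrix (Fin n) (Fin n) ℂ}
    (hs : ∀ a b, ContDiffOn ℝ ∞ (fun w => g w a b) (PD p r))
    (hh : ∀ z ∈ PD p r, (g z).IsHermitian)
    (hc : ∀ z ∈ PD p r, ∀ a b c,
      wd (false, c) (fun w => g w a b) z = wd (false, a) (fun w => g w c b) z)
    (hc' : ∀ z ∈ PD p r, ∀ a b c,
      wd (true, c) (fun w => g w a b) z = wd (true, b) (fun w => g w a c) z) :
    ∃ s, 0 < s ∧ s ≤ r ∧ ∃ u : Cn n → ℝ, ContDiff ℝ ∞ u ∧ ∀ z ∈ PD p s, hess u z = g z := by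
  have hU := isOpen_PD p r
  have hS : StarAt p (PD p r) := (convex_PD p r).starAt (mem_PD_self hr)
  set G : Fin n → Fin n → Cn n → ℂ := fun a b w => g w a b with hG
  have hGs : ∀ a b, ContDiffOn ℝ ∞ (G a b) (PD p r) := hs
  have hGc : ∀ a b, ∀ z ∈ PD p r, conj (G a b z) = G b a z := by
    intro a b z hz
    have := congrFun (congrFun (hh z hz) b) a
    simpa [Matrix.conjTranspose_apply] using this
  have hR1 : ∀ a b, ContDiffOn ℝ ∞ (Rad 1 p (G a b)) (PD p r) := fun a b =>
    contDiffOn_Rad 1 hU hS (hGs a b)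
  set β : Fin n → Cn n → ℂ := fun b z => ∑ c, X p c z * Rad 1 p (G c b) z with hβ
  have hβs : ∀ b, ContDiffOn ℝ ∞ (β b) (PD p r) := fun b =>
    ContDiffOn.sum fun c _ => (contDiff_X p c).contDiffOn.mul (hR1 c b)
  have dR : ∀ a b, ∀ z ∈ PD p r, DifferentiableAt ℝ (Rad 1 p (G a b)) z := fun a b z hz =>
    ((hR1 a b).contDiffAt (hU.mem_nhds hz)).differentiableAt (by simp)
  have dX : ∀ c z, DifferentiableAt ℝ (X p c) z := fun c z =>
    (contDiff_X p c).contDiffAt.differentiableAt (by simp)
  have wβ : ∀ (s : WI n) (b : Fin n), ∀ z ∈ PD p r, wd s (β b) z =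
      ∑ c, ((if s = (false, c) then (1 : ℂ) else 0) * Rad 1 p (G c b) z +
        X p c z * Rad 2 p (wd s (G c b)) z) := by
    intro s b z hz
    have h1 : wd s (β b) z = ∑ c, wd s (fun w => X p c w * Rad 1 p (G c b) w) z :=
      wd_sum Finset.univ (fun c _ => (dX c z).mul (dR c b z hz)) s
    rw [h1]
    refine Finset.sum_congr rfl fun c _ => ?_
    rw [wd_mul (dX c z) (dR c b z hz) s, wd_X, wd_Rad s 1 hU hS (hGs c b) hz]
  -- the (0,1)-form is closed
  have hcl : ∀ a b, ∀ y ∈ PD p r, dbj a (β b) y = dbj b (β a) y := by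
    intro a b y hy
    rw [dbj_wd, dbj_wd, wβ _ b y hy, wβ _ a y hy]
    refine Finset.sum_congr rfl fun c _ => ?_
    have h1 : Rad 2 p (wd (true, a) (G c b)) y = Rad 2 p (wd (true, b) (G c a)) y :=
      Rad_congr 2 hS (fun z hz => hc' z hz c b a) hy
    rw [h1]
    simp
  obtain ⟨s, hs0, hsr, h, hh1, hh2⟩ := dbar_solve hr hβs hcl
  refine ⟨s, hs0, hsr, fun z => 2 * (h z).re, ?_, fun z hz => ?_⟩
  · exact contDiff_const.mul (Complex.reCLM.contDiff.comp hh1)
  have hzr : z ∈ PD p r := PD_mono hsr hz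
  have dh : ∀ y, DifferentiableAt ℝ h y := fun y => hh1.contDiffAt.differentiableAt (by simp)
  have dch : ∀ y, DifferentiableAt ℝ (fun w => conj (h w)) y := fun y =>
    (conjCLE : ℂ →L[ℝ] ℂ).differentiableAt.comp y (dh y)
  have hcu : cu (fun z => 2 * (h z).re) = fun w => h w + conj (h w) := by
    funext w
    rw [Complex.add_conj, cu]
  -- `β` on the smaller polydisc
  have hβh : ∀ b, ∀ y ∈ PD p s, wd (true, b) h y = β b y := hh2
  ext a b
  have e1 : wd (true, b) (cu fun z => 2 * (h z).re) =ᶠ[𝓝 z]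
      fun y => β b y + conj (wd (false, b) h y) := by
    filter_upwards [(isOpen_PD p s).mem_nhds hz] with y hy
    rw [hcu, wd_add (dh y) (dch y), hβh b y hy, conj_wd (false, b) (dh y)]
    rfl
  have cw : ContDiffAt ℝ ∞ (wd (false, b) h) z := contDiffAt_wd hh1.contDiffAt (false, b)
  have dcw : DifferentiableAt ℝ (fun y => conj (wd (false, b) h y)) z :=
    (conjCLE : ℂ →L[ℝ] ℂ).differentiableAt.comp z (cw.differentiableAt (by simp))
  have dβ : DifferentiableAt ℝ (β b) z :=
    ((hβs b).contDiffAt (hU.mem_nhds hzr)).differentiableAt (by simp)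
  have e2 : wd (false, a) (fun y => conj (wd (false, b) h y)) z = conj (wd (false, b) (β a) z) := by
    have e3 : wd (true, a) h =ᶠ[𝓝 z] β a := by
      filter_upwards [(isOpen_PD p s).mem_nhds hz] with y hy
      exact hβh a y hy
    have e4 := conj_wd (true, a) (f := wd (false, b) h) (z := z) (cw.differentiableAt (by simp))
    have e5 : wd (!(true, a).1, (true, a).2) (fun w => conj (wd (false, b) h w)) z =
        wd (false, a) (fun y => conj (wd (false, b) h y)) z := rfl
    rw [← e5, ← e4, wd_comm hh1.contDiffAt (true, a) (false, b), wd_congr e3]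
  rw [hess_apply, wd_congr e1, wd_add dβ dcw, e2, wβ _ b z hzr, wβ _ a z hzr]
  -- the two radial sums
  have hW : ∀ (s : WI n) (a b : Fin n), ContDiffOn ℝ ∞ (wd s (G a b)) (PD p r) := fun s a b =>
    contDiffOn_wd hU (hGs a b) s
  have t1 : ∑ c, (((if ((false, a) : WI n) = (false, c) then (1 : ℂ) else 0)) *
      Rad 1 p (G c b) z + X p c z * Rad 2 p (wd (false, a) (G c b)) z) =
      Rad 1 p (G a b) z + ∑ c, X p c z * Rad 2 p (wd (false, c) (G a b)) z := by
    rw [Finset.sum_add_distrib]
    congr 1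
    · rw [Finset.sum_eq_single a]
      · simp
      · intro c _ hc
        have : ¬ ((false, a) : WI n) = (false, c) := fun h => hc (Prod.ext_iff.1 h).2.symm
        rw [if_neg this, zero_mul]
      · intro h
        exact absurd (Finset.mem_univ a) h
    · refine Finset.sum_congr rfl fun c _ => ?_
      rw [Rad_congr 2 hS (fun y hy => (hc y hy a b c).symm) hzr]
  have t2 : ∑ c, (((if ((false, b) : WI n) = (false, c) then (1 : ℂ) else 0)) *
      Rad 1 p (G c a) z + X p c z * Rad 2 p (wd (false, b) (G c a)) z) =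
      Rad 1 p (G b a) z + ∑ c, X p c z * Rad 2 p (wd (false, c) (G b a)) z := by
    rw [Finset.sum_add_distrib]
    congr 1
    · rw [Finset.sum_eq_single b]
      · simp
      · intro c _ hc
        have : ¬ ((false, b) : WI n) = (false, c) := fun h => hc (Prod.ext_iff.1 h).2.symm
        rw [if_neg this, zero_mul]
      · intro h
        exact absurd (Finset.mem_univ b) h
    · refine Finset.sum_congr rfl fun c _ => ?_
      rw [Rad_congr 2 hS (fun y hy => (hc y hy b a c).symm) hzr]
  rw [t1, t2, map_add, map_sum, conj_Rad]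
  have t3 : Rad 1 p (fun w => conj (G b a w)) z = Rad 1 p (G a b) z :=
    Rad_congr 1 hS (fun y hy => hGc b a y hy) hzr
  have t4 : ∀ c, conj (X p c z * Rad 2 p (wd (false, c) (G b a)) z) =
      ze (true, c) (z - p) * Rad 2 p (wd (true, c) (G a b)) z := by
    intro c
    rw [map_mul, conj_X, conj_Rad]
    congr 1
    refine Rad_congr 2 hS (fun y hy => ?_) hzr
    have d1 : DifferentiableAt ℝ (G b a) y :=
      ((hGs b a).contDiffAt (hU.mem_nhds hy)).differentiableAt (by simp)
    have h2 : (fun w => conj (G b a w)) =ᶠ[𝓝 y] G a b := by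
      filter_upwards [hU.mem_nhds hy] with w hw
      exact hGc b a w hw
    have h3 := conj_wd (false, c) d1
    have h4 : wd (!(false, c).1, (false, c).2) (fun w => conj (G b a w)) y =
        wd (true, c) (fun w => conj (G b a w)) y := rfl
    rw [h4, wd_congr h2] at h3
    exact h3
  rw [t3, Finset.sum_congr rfl fun c _ => t4 c]
  -- Euler
  have he := Rad_euler 1 hU hS (hGs a b) hzr
  have e6 : Rad (1 + 1) p (fun w => fderiv ℝ (G a b) w (z - p)) z =
      ∑ c, X p c z * Rad 2 p (wd (false, c) (G a b)) z +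
        ∑ c, ze (true, c) (z - p) * Rad 2 p (wd (true, c) (G a b)) z := by
    have e7 : (fun w => fderiv ℝ (G a b) w (z - p)) = fun w =>
        ∑ s : WI n, ze s (z - p) * wd s (G a b) w := by
      funext w
      rw [apply_eq_sum (fderiv ℝ (G a b) w) (z - p)]
      rfl
    rw [e7, Rad_sum 2 hS Finset.univ (f := fun (s : WI n) w => ze s (z - p) * wd s (G a b) w)
      (fun s _ => continuousOn_const.mul (hW s a b).continuousOn) hzr, sum_WI, add_comm]
    congr 1
    · refine Finset.sum_congr rfl fun c _ => ?_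
      rw [Rad_const_mul, X_eq]
    · refine Finset.sum_congr rfl fun c _ => ?_
      rw [Rad_const_mul]
  rw [e6] at he
  have e8 : G a b z = g z a b := rfl
  rw [← e8, ← he]
  push_cast
  ring

end

end Crest.Agent.R281.KpE_487
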