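import Crest.Agent.R281.Kp8_487
import Crest.Agent.R281.KpE_487
import Crest.Agent.R273.Fam_835

/-!
# R281 (S0424), YAU-GEN (helper487): Yau's theorem for every `Kah A`

* `hess_rd`, `hsf_up`, `sm_up` : change of atlas
* `exists_pot` : local potentials of a Kaehler metric
* `exists_kp`  : a finite atlas on which a given Kaehler metric has potentials
* `yau_kah : Vol_333.Yau A` for every atlas of a compact connected Hausdorff space
* `yau_kah'`   : the same with a Kaehler metric `K'` as output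
-/

set_option autoImplicit false
set_option linter.unusedSectionVars false

open Set Filter Topology Complex
open scoped ContDiff Matrix ComplexConjugate ComplexOrder

namespace Crest.Agent.R281.KpK_487

open Crest.Agent.R273
open Crest.Agent.R275.Geo Crest.Agent.R275.Core144 Crest.Agent.R275.GC293 Crest.Agent.R275.EDR890
open Crest.Agent.R273.Defs_333 Crest.Agent.R273.Hess_333 Crest.Agent.R273.HessB_333
open Crest.Agent.R273.Kah_333 Crest.Agent.R273.Vol_333 Crest.Agent.R273.Map_835
open Crest.Agent.R273.PB_835 Crest.Agent.R273.Fam_835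
open Crest.Agent.R281.KpD_487 Crest.Agent.R281.KpE_487 Crest.Agent.R281
open Crest.Agent.R281.Kp_487 (KP yau_cur)

noncomputable section

variable {n : ℕ} {M : Type} [TopologicalSpace M] {A A' : Atl n M}

/-! ### change of atlas -/

theorem rd_smooth (h : HolMap A' A id) {k : A'.ι} {i : A.ι} {z : Cn n}
    (hz : z ∈ dm A' A id k i) : ContDiffAt ℝ ∞ (Map_835.rd A' A id k i) z :=
  ((h.analyticAt hz).contDiffAt (n := ∞)).restrict_scalars ℝ

theorem rd_val {k : A'.ι} {i : A.ι} {y : M} (hk : y ∈ (A'.e k).source) :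
    Map_835.rd A' A id k i (A'.e k y) = A.e i y := by
  simp only [Map_835.rd, id, (A'.e k).left_inv hk]

/-- Hessians under a change of atlas -/
theorem hess_rd (h : HolMap A' A id) {v : Cn n → ℝ} {k : A'.ι} {i : A.ι} {y : M}
    (hk : y ∈ (A'.e k).source) (hi : y ∈ (A.e i).source) (hv : ContDiffAt ℝ ∞ v (A.e i y)) :
    hess (fun w => v (Map_835.rd A' A id k i w)) (A'.e k y) =
      (Jp A' A id k i y)ᵀ * hess v (A.e i y) * (Jp A' A id k i y).map conj := by
  have hz : A'.e k y ∈ dm A' A id k i := mem_dm hk hi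
  have hT : ∀ᶠ w in 𝓝 (A'.e k y), DifferentiableAt ℂ (Map_835.rd A' A id k i) w := by
    filter_upwards [(h.isOpen_dm k i).mem_nhds hz] with w hw
    exact h.diffAt hw
  have hv' : ContDiffAt ℝ ∞ v (Map_835.rd A' A id k i (A'.e k y)) := by rwa [rd_val hk]
  ext a b
  rw [hess_comp (u := v) (T := Map_835.rd A' A id k i) hv' hT, rd_val hk]
  simp only [Matrix.mul_apply, Matrix.transpose_apply, Matrix.map_apply, Finset.sum_mul]
  rw [Finset.sum_comm]
  rfl

theorem sm_up (h : HolMap A' A id) {F : M → ℝ} (hF : A.Sm F) : A'.Sm F := by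
  intro k z hz
  refine ContDiffAt.contDiffWithinAt ?_
  have hy := (A'.e k).map_target hz
  obtain ⟨i, hi⟩ := A.cover ((A'.e k).symm z)
  have hd : z ∈ dm A' A id k i := ⟨hz, hi⟩
  have h1 : ContDiffAt ℝ ∞ (fun w => F ((A.e i).symm w)) (Map_835.rd A' A id k i z) :=
    (hF i).contDiffAt ((A.e i).open_target.mem_nhds ((A.e i).map_source hi))
  have h2 : ContDiffAt ℝ ∞ (fun w => F ((A.e i).symm (Map_835.rd A' A id k i w))) z :=
    ContDiffAt.comp z (g := fun w => F ((A.e i).symm w)) (f := Map_835.rd A' A id k i) h1 (rd_smooth h hd)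
  refine h2.congr_of_eventuallyEq ?_
  filter_upwards [(h.isOpen_dm k i).mem_nhds hd] with w hw
  show _ = F ((A.e i).symm (A.e i (id ((A'.e k).symm w))))
  rw [(A.e i).left_inv hw.2]
  rfl

theorem hsf_up (h : HolMap A' A id) {u : M → ℝ} (hu : A.Sm u) {k : A'.ι} {i : A.ι} {y : M}
    (hk : y ∈ (A'.e k).source) (hi : y ∈ (A.e i).source) :
    hsf A' u k y = (Jp A' A id k i y)ᵀ * hsf A u i y * (Jp A' A id k i y).map conj := by
  have hz : A'.e k y ∈ dm A' A id k i := mem_dm hk hi
  have h1 := hess_rd h hk hi (sm_contDiffAt hu i ((A.e i).map_source hi))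
  rw [hsf, hsf, ← h1]
  refine hess_congr ?_
  filter_upwards [(h.isOpen_dm k i).mem_nhds hz] with w hw
  show _ = u ((A.e i).symm (A.e i (id ((A'.e k).symm w))))
  rw [(A.e i).left_inv hw.2]
  rfl

/-- independence of the chart of the old atlas -/
theorem tr_indep (h : HolMap A' A id) (K : Kah A) {k : A'.ι} {i j : A.ι} {y : M}
    (hk : y ∈ (A'.e k).source) (hi : y ∈ (A.e i).source) (hj : y ∈ (A.e j).source) :
    (Jp A' A id k i y)ᵀ * K.g i y * (Jp A' A id k i y).map conj =
      (Jp A' A id k j y)ᵀ * K.g j y * (Jp A' A id k j y).map conj := by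
  have h1 : Jp A A id i j y * Jp A' A id k i y = Jp A' A id k j y :=
    Jp_comp (holMap_id A) h (i := k) (j := i) (l := j) (x := y) hk hi hj
  have h2 : Jm A i j y = Jp A A id i j y := rfl
  rw [K.tr i j y ⟨hi, hj⟩, h2, ← h1, Matrix.transpose_mul]
  have h3 : (Jp A A id i j y * Jp A' A id k i y).map conj =
      (Jp A A id i j y).map conj * (Jp A' A id k i y).map conj :=
    Matrix.map_mul (f := (starRingEnd ℂ))
  rw [h3]
  simp only [Matrix.mul_assoc]

/-! ### matrices -/

theorem map_conj_conjTranspose (J : Matrix (Fin n) (Fin n) ℂ) : (J.map conj)ᴴ = Jᵀ := by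
  ext a b
  simp [Matrix.conjTranspose_apply, Matrix.transpose_apply]

theorem det_map_conj (J : Matrix (Fin n) (Fin n) ℂ) : (J.map conj).det = conj J.det := by
  rw [← RingHom.mapMatrix_apply, ← RingHom.map_det]

theorem posDef_iff {J B : Matrix (Fin n) (Fin n) ℂ} (hJ : J.det ≠ 0) :
    (Jᵀ * B * J.map conj).PosDef ↔ B.PosDef := by
  have key : ∀ {J B : Matrix (Fin n) (Fin n) ℂ}, J.det ≠ 0 → B.PosDef →
      (Jᵀ * B * J.map conj).PosDef := by
    intro J B hJ hB
    have hunit : IsUnit (J.map conj) := by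
      rw [Matrix.isUnit_iff_isUnit_det, isUnit_iff_ne_zero, det_map_conj]
      simpa using hJ
    rw [← map_conj_conjTranspose]
    exact hB.conjTranspose_mul_mul_same (Matrix.mulVec_injective_iff_isUnit.2 hunit)
  refine ⟨fun h => ?_, key hJ⟩
  have hu : IsUnit J.det := isUnit_iff_ne_zero.2 hJ
  have hJi : (J⁻¹).det ≠ 0 := by
    rw [Matrix.det_nonsing_inv]
    simpa using hJ
  have h1 := key hJi h
  have h2 : (J⁻¹)ᵀ * (Jᵀ * B * J.map conj) * (J⁻¹).map conj = B := by
    have e1 : (J⁻¹)ᵀ * Jᵀ = 1 := by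
      rw [← Matrix.transpose_mul, Matrix.mul_nonsing_inv _ hu, Matrix.transpose_one]
    have e2 : J.map conj * (J⁻¹).map conj = 1 := by
      have e3 : (J * J⁻¹).map conj = J.map conj * (J⁻¹).map conj :=
        Matrix.map_mul (f := (starRingEnd ℂ))
      rw [← e3, Matrix.mul_nonsing_inv _ hu]
      ext a b
      by_cases hab : a = b <;> simp [Matrix.one_apply, hab]
    calc _ = ((J⁻¹)ᵀ * Jᵀ) * B * (J.map conj * (J⁻¹).map conj) := by
          simp only [Matrix.mul_assoc]
      _ = B := by rw [e1, e2, Matrix.one_mul, Matrix.mul_one]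
  rwa [h2] at h1

theorem det_eq_iff {J B C : Matrix (Fin n) (Fin n) ℂ} (hJ : J.det ≠ 0) {c : ℂ}
    (h : (Jᵀ * B * J.map conj).det = c * (Jᵀ * C * J.map conj).det) : B.det = c * C.det := by
  rw [Matrix.det_mul, Matrix.det_mul, Matrix.det_mul, Matrix.det_mul, Matrix.det_transpose,
    det_map_conj] at h
  have h3 : conj J.det ≠ 0 := by simpa using hJ
  have h4 : (J.det * conj J.det) * (B.det - c * C.det) = 0 := by
    linear_combination h
  rcases mul_eq_zero.1 h4 with h5 | h5
  · exact absurd h5 (mul_ne_zero hJ h3)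
  · exact sub_eq_zero.1 h5

/-! ### potentials -/

/-- local potentials of a Kaehler metric near every point -/
theorem exists_pot (K : Kah A) (x : M) : ∃ (i : A.ι) (s : ℝ) (u : Cn n → ℝ), 0 < s ∧
    x ∈ (A.e i).source ∧ PD (A.e i x) s ⊆ (A.e i).target ∧ ContDiff ℝ ∞ u ∧
    ∀ z ∈ PD (A.e i x) s, hess u z = K.g i ((A.e i).symm z) := by
  obtain ⟨i, hi⟩ := A.cover x
  obtain ⟨r, hr, hrs⟩ := exists_PD_subset ((A.e i).open_target.mem_nhds ((A.e i).map_source hi))
  obtain ⟨s, hs, hsr, u, hu1, hu2⟩ := ddbar_local (p := A.e i x) hr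
    (g := fun z => K.g i ((A.e i).symm z))
    (fun a b => (K.sm i a b).mono hrs)
    (fun z hz => (K.pos i _ ((A.e i).map_target (hrs hz))).1)
    (fun z hz a b c => K.closed i z (hrs hz) a b c)
    (fun z hz a b c => K.closed' i z (hrs hz) a b c)
  exact ⟨i, s, u, hs, hi, (PD_mono hsr).trans hrs, hu1, hu2⟩

/-- a finite good atlas with potentials of the Kaehler metric `K` -/
theorem exists_kp [CompactSpace M] [T2Space M] (K : Kah A) :
    ∃ (A' : Atl n M) (H : KP A'), Finite A'.ι ∧ GoodA A' ∧ Nonempty (Part A') ∧ LBih A' A id ∧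
      LBih A A' id ∧ ∀ (k : A'.ι) (i : A.ι) (y : M), y ∈ (A'.e k).source → y ∈ (A.e i).source →
        Kp_487.cur H k y = (Jp A' A id k i y)ᵀ * K.g i y * (Jp A' A id k i y).map conj := by
  choose ix s u hs hix hst hu1 hu2 using exists_pot K
  set O : M → Set M := fun x => (A.e (ix x)).source ∩ A.e (ix x) ⁻¹' PD (A.e (ix x) x) (s x)
    with hO
  obtain ⟨A', hfin, hG, hP, hsub, -, hL1, hL2⟩ := exists_refine A O
    (fun x => (A.e (ix x)).isOpen_inter_preimage (isOpen_PD _ _))
    (fun x => ⟨x, hix x, mem_PD_self (hs x)⟩)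
  choose q hq using hsub
  have hh := hL1.toHolMap
  -- the potentials
  set U : A'.ι → M → ℝ := fun k y => u (q k) (A.e (ix (q k)) y) with hU
  have hUrd : ∀ (k l : A'.ι) (w : Cn n), U l ((A'.e k).symm w) =
      u (q l) (Map_835.rd A' A id k (ix (q l)) w) := fun k l w => rfl
  have hUh : ∀ (k l : A'.ι) (y : M), y ∈ (A'.e k).source → y ∈ (A'.e l).source →
      ∀ i : A.ι, y ∈ (A.e i).source → hess (fun w => U l ((A'.e k).symm w)) (A'.e k y) =
        (Jp A' A id k i y)ᵀ * K.g i y * (Jp A' A id k i y).map conj := by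
    intro k l y hk hl i hi
    have hl' := hq l hl
    have h1 := hess_rd hh (k := k) (i := ix (q l)) hk hl'.1 ((hu1 (q l)).contDiffAt)
    have h2 : hess (u (q l)) (A.e (ix (q l)) y) = K.g (ix (q l)) y := by
      rw [hu2 (q l) _ hl'.2, (A.e (ix (q l))).left_inv hl'.1]
    rw [h2] at h1
    rw [tr_indep hh K hk hi hl'.1, ← h1]
    rfl
  have hUc : ∀ (k l : A'.ι) (y : M), y ∈ (A'.e k).source → y ∈ (A'.e l).source →
      ContDiffAt ℝ ∞ (fun w => U l ((A'.e k).symm w)) (A'.e k y) := by
    intro k l y hk hl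
    have hl' := hq l hl
    have h1 : ContDiffAt ℝ ∞ (Map_835.rd A' A id k (ix (q l))) (A'.e k y) := rd_smooth hh (mem_dm hk hl'.1)
    exact (hu1 (q l)).contDiffAt.comp (A'.e k y) h1
  set H : KP A' :=
    { u := U
      sm := fun k z hz => by
        have hy := (A'.e k).map_target hz
        have h1 := hUc k k _ hy hy
        rw [(A'.e k).right_inv hz] at h1
        exact h1.contDiffWithinAt
      tr := fun k l z hz => by
        have hy : (A'.e k).symm z ∈ (A'.e k).source := (A'.e k).map_target hz.1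
        have hl : (A'.e k).symm z ∈ (A'.e l).source := hz.2
        obtain ⟨i, hi⟩ := A.cover ((A'.e k).symm z)
        have c1 := hUc k k _ hy hy
        have c2 := hUc k l _ hy hl
        have h1 := hUh k k _ hy hy i hi
        have h2 := hUh k l _ hy hl i hi
        rw [(A'.e k).right_inv hz.1] at c1 c2 h1 h2
        have h3 := hess_sub c1 c2
        rw [h1, h2, sub_self] at h3
        exact h3 } with hH
  refine ⟨A', H, hfin, hG, hP, hL1, hL2, fun k i y hk hi => ?_⟩
  exact hUh k k y hk hk i hi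

/-! ### Yau's theorem -/

theorem det_Jp_ne (h : LBih A' A id) {k : A'.ι} {i : A.ι} {y : M} (hk : y ∈ (A'.e k).source)
    (hi : y ∈ (A.e i).source) : (Jp A' A id k i y).det ≠ 0 := h.det k i y hk hi

/-- **Yau's theorem** for every Kaehler metric on a compact connected complex manifold -/
theorem yau_kah [T2Space M] [CompactSpace M] [ConnectedSpace M] (A : Atl n M) : Yau A := by
  intro K F hF
  obtain ⟨A', H, hfin, -, hP, hL1, hL2, hcur⟩ := exists_kp K
  have hh := hL1.toHolMap
  have hpos : H.Pos := by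
    refine Kp_487.pos_of_cur fun k y hk => ?_
    obtain ⟨i, hi⟩ := A.cover y
    rw [hcur k i y hk hi]
    exact (posDef_iff (det_Jp_ne hL1 hk hi)).2 (K.pos i y hi)
  obtain ⟨u, c, hu, hc⟩ := yau_cur hP hpos (sm_up hh hF)
  have huA : A.Sm u := sm_up hL2.toHolMap hu
  refine ⟨u, c, huA, fun i y hi => ?_⟩
  obtain ⟨k, hk⟩ := A'.cover y
  obtain ⟨h1, h2⟩ := hc k y hk
  have e1 : Kp_487.cur H k y + hsf A' u k y = (Jp A' A id k i y)ᵀ * (K.g i y + hsf A u i y) *
      (Jp A' A id k i y).map conj := by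
    rw [hcur k i y hk hi, hsf_up hh huA hk hi, Matrix.mul_add, Matrix.add_mul]
  rw [e1] at h1 h2
  rw [hcur k i y hk hi] at h2
  exact ⟨(posDef_iff (det_Jp_ne hL1 hk hi)).1 h1, det_eq_iff (det_Jp_ne hL1 hk hi) h2⟩

/-- Yau's theorem, with the new Kaehler metric as output -/
theorem yau_kah' [T2Space M] [CompactSpace M] [ConnectedSpace M] {A : Atl n M} (K : Kah A)
    {F : M → ℝ} (hF : A.Sm F) : ∃ (K' : Kah A) (u : M → ℝ) (c : ℝ), A.Sm u ∧
      (∀ i x, K'.g i x = K.g i x + hsf A u i x) ∧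
      ∀ i, ∀ x ∈ (A.e i).source,
        (K'.g i x).det = ((Real.exp (F x + c) : ℝ) : ℂ) * (K.g i x).det := by
  obtain ⟨u, c, hu, h⟩ := yau_kah A K F hF
  exact ⟨addK K u hu fun i x hx => (h i x hx).1, u, c, hu, fun i x => rfl,
    fun i x hx => (h i x hx).2⟩

end

end Crest.Agent.R281.KpK_487
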