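import Crest.Agent.R216.Par

/-!
# R281 (S0424), CDR (helper234): Poincare lemma for real 1-forms and 2-forms on convex open sets

* a 1-form on `U` is `θ : E → E →L[ℝ] ℝ`, a 2-form is `om : E → E →L[ℝ] E →L[ℝ] ℝ`;
* `Alt2 om U`    : `om z v v = 0` on `U`;
* `Closed2 om U` : `Dom(u)(v,w) + Dom(v)(w,u) + Dom(w)(u,v) = 0` on `U`;
* `poincare2`   : closed smooth 2-forms on convex open sets are `dθ`, `θ` smooth,
                  `dθ (v,w) = Dθ(v)(w) - Dθ(w)(v)`;
* `poincare1`   : closed smooth 1-forms on convex open sets are `df`.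
-/

set_option autoImplicit false
set_option linter.unusedSectionVars false

open Set Filter Topology MeasureTheory
open scoped ContDiff Interval

namespace Crest.Agent.R281.Poi_234

open Crest.Agent.R216.Par

noncomputable section

variable {E : Type} [NormedAddCommGroup E] [NormedSpace ℝ E]

/-- alternating 2-form on `U` -/
def Alt2 (om : E → E →L[ℝ] E →L[ℝ] ℝ) (U : Set E) : Prop := ∀ z ∈ U, ∀ v, om z v v = 0

/-- closed 2-form on `U` -/
def Closed2 (om : E → E →L[ℝ] E →L[ℝ] ℝ) (U : Set E) : Prop :=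
  ∀ z ∈ U, ∀ u v w, fderiv ℝ om z u v w + fderiv ℝ om z v w u + fderiv ℝ om z w u v = 0

theorem Alt2.swap {om : E → E →L[ℝ] E →L[ℝ] ℝ} {U : Set E} (h : Alt2 om U) {z : E} (hz : z ∈ U)
    (v w : E) : om z v w = - om z w v := by
  have h1 := h z hz (v + w)
  have h2 := h z hz v
  have h3 := h z hz w
  simp only [map_add, add_apply] at h1
  linarith

/-- derivative of the value of a 2-form on fixed vectors -/
theorem hasFDerivAt_app {om : E → E →L[ℝ] E →L[ℝ] ℝ} {z : E} (h : DifferentiableAt ℝ om z)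
    (v w : E) : HasFDerivAt (fun y => om y v w) (((fderiv ℝ om z).flip v).flip w) z := by
  have h1 := (h.hasFDerivAt.clm_apply (hasFDerivAt_const v z)).clm_apply (hasFDerivAt_const w z)
  refine h1.congr_fderiv ?_
  ext u
  simp

theorem fderiv_app {om : E → E →L[ℝ] E →L[ℝ] ℝ} {z : E} (h : DifferentiableAt ℝ om z)
    (u v w : E) : fderiv ℝ (fun y => om y v w) z u = fderiv ℝ om z u v w := by
  rw [(hasFDerivAt_app h v w).fderiv]
  rfl

theorem Alt2.fderiv_self {om : E → E →L[ℝ] E →L[ℝ] ℝ} {U : Set E} (h : Alt2 om U) (hU : IsOpen U)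
    {z : E} (hz : z ∈ U) (hd : DifferentiableAt ℝ om z) (u v : E) : fderiv ℝ om z u v v = 0 := by
  rw [← fderiv_app hd u v v]
  have h1 : (fun y => om y v v) =ᶠ[𝓝 z] fun _ => (0 : ℝ) := by
    filter_upwards [hU.mem_nhds hz] with y hy
    exact h y hy v
  rw [h1.fderiv_eq]
  simp

theorem Alt2.fderiv_swap {om : E → E →L[ℝ] E →L[ℝ] ℝ} {U : Set E} (h : Alt2 om U) (hU : IsOpen U)
    {z : E} (hz : z ∈ U) (hd : DifferentiableAt ℝ om z) (u v w : E) :
    fderiv ℝ om z u v w = - fderiv ℝ om z u w v := by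
  have h1 := h.fderiv_self hU hz hd u (v + w)
  have h2 := h.fderiv_self hU hz hd u v
  have h3 := h.fderiv_self hU hz hd u w
  simp only [map_add, add_apply] at h1
  linarith

variable [FiniteDimensional ℝ E]

/-- **Poincare lemma in degree 2** on a convex open set -/
theorem poincare2 {U : Set E} (hU : IsOpen U) (hc : Convex ℝ U) {om : E → E →L[ℝ] E →L[ℝ] ℝ}
    (hom : ContDiffOn ℝ ∞ om U) (ha : Alt2 om U) (hcl : Closed2 om U) :
    ∃ θ : E → E →L[ℝ] ℝ, ContDiffOn ℝ ∞ θ U ∧
      ∀ z ∈ U, ∀ v w, fderiv ℝ θ z v w - fderiv ℝ θ z w v = om z v w := by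
  rcases U.eq_empty_or_nonempty with rfl | ⟨x0, hx0⟩
  · exact ⟨fun _ => 0, contDiffOn_const, fun z hz => absurd hz (notMem_empty z)⟩
  set P : E × ℝ → E := fun p => x0 + p.2 • (p.1 - x0) with hP
  have hPs : ContDiff ℝ ∞ P := by
    rw [hP]
    fun_prop
  set O : Set (E × ℝ) := P ⁻¹' U with hO
  have hOo : IsOpen O := hU.preimage hPs.continuous
  have hmem : ∀ z ∈ U, ∀ s ∈ uIcc (0 : ℝ) 1, (z, s) ∈ O := by
    intro z hz s hs
    rw [uIcc_of_le zero_le_one] at hs
    have := hc hx0 hz (a := 1 - s) (b := s) (by linarith [hs.2]) hs.1 (by ring)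
    change x0 + s • (z - x0) ∈ U
    convert this using 1
    module
  set g : E × ℝ → (E →L[ℝ] ℝ) := fun p => p.2 • (om (P p) (p.1 - x0)) with hg
  have homP : ContDiffOn ℝ ∞ (fun p => om (P p)) O := hom.comp hPs.contDiffOn fun p hp => hp
  have hgs : ContDiffOn ℝ ∞ g O := by
    refine ContDiffOn.smul contDiffOn_snd ?_
    exact homP.clm_apply (contDiff_fst.sub contDiff_const).contDiffOn
  have hg1 : ContDiffOn ℝ 1 g O := hgs.of_le (by exact_mod_cast le_top)
  refine ⟨fun z => ∫ s in (0 : ℝ)..1, g (z, s), contDiffOn_par hU hOo hmem hgs, ?_⟩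
  intro z hz v w
  have hz' := hmem z hz
  -- derivative of the integrand
  have hdg : ∀ s ∈ uIcc (0 : ℝ) 1, ∀ a b : E, fderiv ℝ g (z, s) (a, 0) b =
      s * (s * fderiv ℝ om (P (z, s)) a (z - x0) b + om (P (z, s)) a b) := by
    intro s hs a b
    have hin : (z, s) ∈ O := hz' s hs
    have homd : DifferentiableAt ℝ om (P (z, s)) :=
      (hom.contDiffAt (hU.mem_nhds hin)).differentiableAt (by simp)
    -- along the line `z + t a`
    have h1 : HasFDerivAt g (fderiv ℝ g (z, s)) (z, s) :=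
      ((hgs.contDiffAt (hOo.mem_nhds hin)).differentiableAt (by simp)).hasFDerivAt
    have hline : HasDerivAt (fun t : ℝ => ((z + t • a, s) : E × ℝ)) (a, 0) 0 := by
      have h2 : HasDerivAt (fun t : ℝ => z + t • a) a 0 := by
        simpa using ((hasDerivAt_id (0 : ℝ)).smul_const a).const_add z
      exact h2.prodMk (hasDerivAt_const (0 : ℝ) s)
    have h3 : HasDerivAt (fun t : ℝ => g (z + t • a, s)) (fderiv ℝ g (z, s) (a, 0)) 0 := by
      have h1' : HasFDerivAt g (fderiv ℝ g (z, s)) (z + (0 : ℝ) • a, s) := by simpa using h1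
      exact h1'.comp_hasDerivAt (0 : ℝ) hline
    have h4 : HasDerivAt (fun t : ℝ => g (z + t • a, s) b) (fderiv ℝ g (z, s) (a, 0) b) 0 := by
      simpa using h3.clm_apply (hasDerivAt_const (0 : ℝ) b)
    have h5 : HasDerivAt (fun t : ℝ => P (z + t • a, s)) (s • a) 0 := by
      have : (fun t : ℝ => P (z + t • a, s)) = fun t : ℝ => P (z, s) + t • (s • a) := by
        funext t
        simp only [hP]
        module
      rw [this]
      simpa using ((hasDerivAt_id (0 : ℝ)).smul_const (s • a)).const_add (P (z, s))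
    have h6 : HasDerivAt (fun t : ℝ => om (P (z + t • a, s))) (fderiv ℝ om (P (z, s)) (s • a)) 0 := by
      have h7 : HasFDerivAt om (fderiv ℝ om (P (z, s))) (P (z + (0 : ℝ) • a, s)) := by
        simpa using homd.hasFDerivAt
      exact HasFDerivAt.comp_hasDerivAt (l := om) (0 : ℝ) h7 h5
    have h8 : HasDerivAt (fun t : ℝ => z + t • a - x0) a 0 := by
      simpa using (((hasDerivAt_id (0 : ℝ)).smul_const a).const_add z).sub_const x0
    have h9 := (h6.clm_apply h8).clm_apply (hasDerivAt_const (0 : ℝ) b)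
    have h10 := h9.const_mul s
    have h11 : (fun t : ℝ => g (z + t • a, s) b) =
        fun t : ℝ => s * (om (P (z + t • a, s)) (z + t • a - x0)) b := by
      funext t
      simp [hg]
    rw [h11] at h4
    have := h4.unique h10
    rw [this]
    simp
  have key : ∀ a b : E, fderiv ℝ (fun z => ∫ s in (0 : ℝ)..1, g (z, s)) z a b =
      ∫ s in (0 : ℝ)..1, fderiv ℝ g (z, s) (a, 0) b := by
    intro a b
    rw [fderiv_par_apply hOo hg1 hz' a]
    have hcont : ContinuousOn (fun s => fderiv ℝ g (z, s) (a, 0)) (uIcc (0 : ℝ) 1) := by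
      have h1 : ContinuousOn (fderiv ℝ g) O := hg1.continuousOn_fderiv_of_isOpen hOo (by simp)
      have h2 : ContinuousOn (fun s : ℝ => fderiv ℝ g (z, s)) (uIcc (0 : ℝ) 1) :=
        h1.comp (by fun_prop) hz'
      exact h2.clm_apply continuousOn_const
    rw [ContinuousLinearMap.intervalIntegral_apply hcont.intervalIntegrable]
  have hint : ∀ a b : E, IntervalIntegrable (fun s => fderiv ℝ g (z, s) (a, 0) b) volume 0 1 := by
    intro a b
    have h1 : ContinuousOn (fderiv ℝ g) O := hg1.continuousOn_fderiv_of_isOpen hOo (by simp)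
    have h2 : ContinuousOn (fun s : ℝ => fderiv ℝ g (z, s)) (uIcc (0 : ℝ) 1) :=
      h1.comp (by fun_prop) hz'
    exact ((h2.clm_apply continuousOn_const).clm_apply continuousOn_const).intervalIntegrable
  rw [key, key, ← intervalIntegral.integral_sub (hint v w) (hint w v)]
  -- the integrand is a derivative
  have hder : ∀ s ∈ uIcc (0 : ℝ) 1, HasDerivAt (fun s : ℝ => s ^ 2 * om (P (z, s)) v w)
      (fderiv ℝ g (z, s) (v, 0) w - fderiv ℝ g (z, s) (w, 0) v) s := by
    intro s hs
    have hin : (z, s) ∈ O := hz' s hs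
    have homd : DifferentiableAt ℝ om (P (z, s)) :=
      (hom.contDiffAt (hU.mem_nhds hin)).differentiableAt (by simp)
    have h5 : HasDerivAt (fun s : ℝ => P (z, s)) (z - x0) s := by
      simpa [hP] using ((hasDerivAt_id s).smul_const (z - x0)).const_add x0
    have h6 : HasDerivAt (fun s : ℝ => om (P (z, s)) v w)
        (fderiv ℝ om (P (z, s)) (z - x0) v w) s := by
      exact (hasFDerivAt_app homd v w).comp_hasDerivAt s h5
    have h7 := ((hasDerivAt_pow 2 s)).fun_mul h6
    refine h7.congr_deriv ?_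
    rw [hdg s hs v w, hdg s hs w v]
    have e1 := hcl _ hin (z - x0) v w
    have e2 := ha.fderiv_swap hU hin homd v (z - x0) w
    have e3 := ha.swap hin w v
    have e4 : fderiv ℝ om (P (z, s)) v (z - x0) w - fderiv ℝ om (P (z, s)) w (z - x0) v =
        fderiv ℝ om (P (z, s)) (z - x0) v w := by
      rw [e2]; linarith
    rw [e3]
    push_cast
    linear_combination (-(s ^ 2)) * e4
  rw [intervalIntegral.integral_eq_sub_of_hasDerivAt hder ((hint v w).sub (hint w v))]
  simp [hP]

/-- **Poincare lemma in degree 1** on a convex open set -/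
theorem poincare1 {U : Set E} (hU : IsOpen U) (hc : Convex ℝ U) {θ : E → E →L[ℝ] ℝ}
    (hθ : ContDiffOn ℝ ∞ θ U)
    (hcl : ∀ z ∈ U, ∀ v w, fderiv ℝ θ z v w = fderiv ℝ θ z w v) :
    ∃ f : E → ℝ, ∀ z ∈ U, HasFDerivAt f (θ z) z := by
  obtain ⟨f, hf⟩ := hc.exists_forall_hasFDerivAt_of_fderiv_symmetric (𝕜 := ℝ) hU
    (fun z hz => ((hθ.contDiffAt (hU.mem_nhds hz)).differentiableAt
      (by simp)).differentiableWithinAt) (fun z hz v w => hcl z hz v w)
  exact ⟨f, hf⟩

/-- smoothness of a primitive -/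
theorem contDiffOn_of_hasFDerivAt {U : Set E} (hU : IsOpen U) {f : E → ℝ} {θ : E → E →L[ℝ] ℝ}
    (hθ : ContDiffOn ℝ ∞ θ U) (h : ∀ z ∈ U, HasFDerivAt f (θ z) z) : ContDiffOn ℝ ∞ f U := by
  rw [contDiffOn_infty_iff_fderiv_of_isOpen hU]
  refine ⟨fun z hz => (h z hz).differentiableAt.differentiableWithinAt, ?_⟩
  exact hθ.congr fun z hz => (h z hz).fderiv

end

end Crest.Agent.R281.Poi_234
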