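import Crest.Agent.R281.Cdr2_234
import Crest.Agent.R281.HkR6_835
import Crest.Agent.R281.KpK_487
import Crest.Agent.R281.Poi_234
import Crest.Agent.R273.FlatSec_534

/-!
# R281 (S0424), CDR (helper234), part 3: the Lefschetz (1,1)-theorem, local part

* `lam u z`    : the real 1-form `-(1/4π) du(z) ∘ I`; `lam_d` : its exterior derivative is
                 `π⁻¹` times the real form of `hess u`
* `lam_comp`   : compatible with holomorphic maps
* `exists_log` : the holomorphic logarithm of the transition function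
-/

set_option autoImplicit false
set_option linter.unusedSectionVars false
set_option maxSynthPendingDepth 3

open Set Filter Topology Complex
open scoped ContDiff Matrix ComplexConjugate ComplexOrder

namespace Crest.Agent.R281.Cdr_234

open Crest.Agent.R281.HkR_835
open Crest.Agent.R275.Geo Crest.Agent.R275.Core144
open Crest.Agent.R273.Defs_333 Crest.Agent.R273.Hess_333

noncomputable section

variable {n : ℕ}

/-- the form `-(1/4π) du ∘ I` -/
def lam (u : Cn n → ℝ) (z : Cn n) : Cn n →L[ℝ] ℝ := (-(4 * Real.pi)⁻¹) • (fderiv ℝ u z).comp iL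

theorem lam_apply (u : Cn n → ℝ) (z v : Cn n) :
    lam u z v = -(4 * Real.pi)⁻¹ * fderiv ℝ u z (I • v) := rfl

theorem contDiffOn_lam {u : Cn n → ℝ} {U : Set (Cn n)} (hU : IsOpen U)
    (hu : ContDiffOn ℝ ∞ u U) : ContDiffOn ℝ ∞ (lam u) U := by
  have h1 : ContDiffOn ℝ ∞ (fderiv ℝ u) U := hu.fderiv_of_isOpen hU (by simp)
  exact (h1.clm_comp contDiffOn_const).const_smul _

theorem hb_smul_right_I (G : Matrix (Fin n) (Fin n) ℂ) (v w : Cn n) :
    hb G v (I • w) = -I * hb G v w := hb_I_right G v w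

theorem hb_add_left (G : Matrix (Fin n) (Fin n) ℂ) (u v w : Cn n) :
    hb G (u + v) w = hb G u w + hb G v w := by
  simp only [hb, PiLp.add_apply, ← Finset.sum_add_distrib]
  exact Finset.sum_congr rfl fun a _ => Finset.sum_congr rfl fun b _ => by ring

theorem hb_add_right (G : Matrix (Fin n) (Fin n) ℂ) (u v w : Cn n) :
    hb G u (v + w) = hb G u v + hb G u w := by
  simp only [hb, PiLp.add_apply, ← Finset.sum_add_distrib, map_add]
  exact Finset.sum_congr rfl fun a _ => Finset.sum_congr rfl fun b _ => by ring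

/-- the `(1,1)`-part of the second derivative -/
theorem d2_I {u : Cn n → ℝ} {z : Cn n} (hu : ContDiffAt ℝ ∞ u z) (v w : Cn n) :
    fderiv ℝ (fderiv ℝ u) z v (I • w) - fderiv ℝ (fderiv ℝ u) z w (I • v) =
      -4 * (I * hb (hess u z) v w).re := by
  have hs : ∀ p q, fderiv ℝ (fderiv ℝ u) z p q = fderiv ℝ (fderiv ℝ u) z q p := fun p q =>
    (hu.isSymmSndFDerivAt (by
      rw [minSmoothness_of_isRCLikeNormedField]; exact WithTop.coe_le_coe.2 le_top)) p q
  have h0 : ∀ v, fderiv ℝ (fderiv ℝ u) z v v + fderiv ℝ (fderiv ℝ u) z (I • v) (I • v) =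
      4 * (hb (hess u z) v v).re := by
    intro v
    have h1 := congrArg Complex.re (lev_eq hu v)
    rw [Complex.ofReal_re] at h1
    have h2 : hq u z v = hb (hess u z) v v := rfl
    rw [h2] at h1
    have h3 : lev u z v = fderiv ℝ (fderiv ℝ u) z v v + fderiv ℝ (fderiv ℝ u) z (I • v) (I • v) := by
      unfold lev
      rw [iteratedFDeriv_two_apply, iteratedFDeriv_two_apply]
      rfl
    rw [← h3, h1]
    simp
  have hh := hess_herm hu
  have hc : ∀ a b : Cn n, (hb (hess u z) a b).re = (hb (hess u z) b a).re := by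
    intro a b
    rw [← hb_conj hh b a, Complex.conj_re]
  -- polarisation
  have h1 : ∀ a b : Cn n, fderiv ℝ (fderiv ℝ u) z a b + fderiv ℝ (fderiv ℝ u) z (I • a) (I • b) =
      4 * (hb (hess u z) a b).re := by
    intro a b
    have e := h0 (a + b)
    have ea := h0 a
    have eb := h0 b
    simp only [smul_add, map_add, add_apply, hb_add_left, hb_add_right, Complex.add_re] at e
    have e1 := hs a b
    have e2 := hs (I • a) (I • b)
    have e3 := hc a b
    linarith
  have h2 := h1 v (I • w)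
  have h3 : I • I • w = -w := by rw [smul_smul, I_mul_I, neg_one_smul]
  rw [h3, map_neg, hb_I_right] at h2
  have h4 := hs (I • v) w
  have h5 : (-I * hb (hess u z) v w).re = -(I * hb (hess u z) v w).re := by
    rw [neg_mul, Complex.neg_re]
  rw [h5] at h2
  rw [← h4]
  linarith

/-- `d (lam u) = π⁻¹ ω(hess u)` -/
theorem lam_d {u : Cn n → ℝ} {z : Cn n} (hu : ContDiffAt ℝ ∞ u z) (v w : Cn n) :
    fderiv ℝ (lam u) z v w - fderiv ℝ (lam u) z w v =
      Real.pi⁻¹ * (I * hb (hess u z) v w).re := by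
  have h1 : DifferentiableAt ℝ (fderiv ℝ u) z :=
    (hu.fderiv_right (m := ∞) (by simp)).differentiableAt (by simp)
  have h2 : ∀ a b, fderiv ℝ (lam u) z a b =
      -(4 * Real.pi)⁻¹ * fderiv ℝ (fderiv ℝ u) z a (I • b) := by
    intro a b
    have h3 : HasFDerivAt (fderiv ℝ u) (fderiv ℝ (fderiv ℝ u) z) z := h1.hasFDerivAt
    have h4 := (h3.clm_comp (hasFDerivAt_const (iL : Cn n →L[ℝ] Cn n) z)).const_smul
      (-(4 * Real.pi)⁻¹)
    have h5 : fderiv ℝ (lam u) z = _ := h4.fderiv
    rw [h5]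
    simp
  rw [h2, h2, ← mul_sub, d2_I hu]
  have : Real.pi ≠ 0 := Real.pi_ne_zero
  field_simp

/-- `lam` commutes with holomorphic maps -/
theorem lam_comp {u : Cn n → ℝ} {T : Cn n → Cn n} {z : Cn n} (hu : DifferentiableAt ℝ u (T z))
    (hT : DifferentiableAt ℂ T z) :
    lam (fun y => u (T y)) z = (lam u (T z)).comp (fderiv ℝ T z) := by
  have h1 : fderiv ℝ T z = (fderiv ℂ T z).restrictScalars ℝ := hT.fderiv_restrictScalars ℝ
  have h2 : fderiv ℝ (fun y => u (T y)) z = (fderiv ℝ u (T z)).comp (fderiv ℝ T z) :=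
    (hu.hasFDerivAt.comp z (hT.restrictScalars ℝ).hasFDerivAt).fderiv
  ext v
  rw [lam_apply, h2, ContinuousLinearMap.comp_apply, ContinuousLinearMap.comp_apply, lam_apply, h1]
  simp

theorem lam_sub {u v : Cn n → ℝ} {z : Cn n} (hu : DifferentiableAt ℝ u z)
    (hv : DifferentiableAt ℝ v z) : lam (fun y => u y - v y) z = lam u z - lam v z := by
  ext w
  rw [lam_apply, fderiv_fun_sub hu hv]
  simp only [sub_apply, lam_apply]
  ring

/-- the derivative of the imaginary part of a holomorphic function -/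
theorem lam_re {F : Cn n → ℂ} {z : Cn n} (hF : DifferentiableAt ℂ F z) :
    HasFDerivAt (fun y => (F y).im) ((4 * Real.pi) • lam (fun y => (F y).re) z) z := by
  have h1 : HasFDerivAt F ((fderiv ℂ F z).restrictScalars ℝ) z := hF.hasFDerivAt.restrictScalars ℝ
  have h2 := Complex.imCLM.hasFDerivAt.comp z h1
  have h3 := (Complex.reCLM.hasFDerivAt.comp z h1).fderiv
  have h4 : (fun y => (F y).re) = Complex.reCLM ∘ F := rfl
  refine h2.congr_fderiv ?_
  ext v
  simp only [smul_apply, lam_apply, smul_eq_mul]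
  rw [h4, h3]
  have hp : Real.pi ≠ 0 := Real.pi_ne_zero
  simp
  field_simp

/-- **the logarithm of the transition function** -/
theorem exists_log {O : Set (Cn n)} (hO : IsOpen O) (hc : Convex ℝ O) {u₁ u₂ f : Cn n → ℝ}
    (h1 : ContDiffOn ℝ ∞ u₁ O) (h2 : ContDiffOn ℝ ∞ u₂ O)
    (hh : ∀ z ∈ O, hess (fun y => u₁ y - u₂ y) z = 0)
    (hf : ∀ z ∈ O, HasFDerivAt f (lam u₂ z - lam u₁ z) z) :
    ∃ F : Cn n → ℂ, DifferentiableOn ℂ F O ∧ (∀ z ∈ O, (F z).re = (u₁ z - u₂ z) / 2) ∧
      ∀ z ∈ O, (F z).im = -(2 * Real.pi) * f z := by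
  have hs : ContDiffOn ℝ ∞ (fun y => u₁ y - u₂ y) O := h1.sub h2
  obtain ⟨F0, hF0, hre⟩ := Crest.Agent.R273.FlatSec_534.exists_re hO hc hs fun z hz v =>
    Crest.Agent.R281.Kp_487.lev_of_hess_zero (hs.contDiffAt (hO.mem_nhds hz)) (hh z hz) v
  -- the function `f + (1/4π) Im F0` is constant
  set g : Cn n → ℝ := fun z => f z + (4 * Real.pi)⁻¹ * (F0 z).im with hg
  have hp : Real.pi ≠ 0 := Real.pi_ne_zero
  have hg' : ∀ z ∈ O, HasFDerivAt g (0 : Cn n →L[ℝ] ℝ) z := by
    intro z hz
    have hFz : DifferentiableAt ℂ F0 z := hF0.differentiableAt (hO.mem_nhds hz)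
    have e1 := (hf z hz).add ((lam_re hFz).const_mul ((4 * Real.pi)⁻¹))
    refine e1.congr_fderiv ?_
    have e2 : lam (fun y => (F0 y).re) z = lam u₁ z - lam u₂ z := by
      have e3 : (fun y => (F0 y).re) =ᶠ[𝓝 z] fun y => u₁ y - u₂ y := by
        filter_upwards [hO.mem_nhds hz] with y hy using hre y hy
      have e4 : lam (fun y => (F0 y).re) z = lam (fun y => u₁ y - u₂ y) z := by
        unfold lam
        rw [e3.fderiv_eq]
      rw [e4, lam_sub ((h1.contDiffAt (hO.mem_nhds hz)).differentiableAt (by simp))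
        ((h2.contDiffAt (hO.mem_nhds hz)).differentiableAt (by simp))]
    rw [e2, smul_smul]
    have e5 : (4 * Real.pi)⁻¹ * (4 * Real.pi) = 1 := by field_simp
    rw [e5, one_smul]
    abel
  rcases O.eq_empty_or_nonempty with rfl | ⟨z0, hz0⟩
  · exact ⟨fun _ => 0, differentiableOn_empty, fun z hz => absurd hz (notMem_empty z),
      fun z hz => absurd hz (notMem_empty z)⟩
  have hconst : ∀ z ∈ O, g z = g z0 := by
    intro z hz
    refine hc.is_const_of_fderivWithin_eq_zero (𝕜 := ℝ) (fun y hy =>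
      (hg' y hy).differentiableAt.differentiableWithinAt) (fun y hy => ?_) hz hz0
    rw [fderivWithin_of_isOpen hO hy, (hg' y hy).fderiv]
  have hre2 : ∀ w : ℂ, (((1 / 2 : ℝ) : ℂ) * w).re = w.re / 2 := by
    intro w
    rw [Complex.re_ofReal_mul]
    ring
  have him2 : ∀ w : ℂ, (((1 / 2 : ℝ) : ℂ) * w).im = w.im / 2 := by
    intro w
    rw [Complex.im_ofReal_mul]
    ring
  refine ⟨fun z => ((1 / 2 : ℝ) : ℂ) * F0 z - ((2 * Real.pi * g z0 : ℝ) : ℂ) * I, ?_,
    fun z hz => ?_, fun z hz => ?_⟩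
  · exact (hF0.const_mul _).sub (differentiableOn_const _)
  · have := hre z hz
    rw [Complex.sub_re, hre2, this, Complex.re_ofReal_mul, Complex.I_re, mul_zero, sub_zero]
  · have e1 := hconst z hz
    rw [Complex.sub_im, him2, Complex.im_ofReal_mul, Complex.I_im, mul_one, ← e1]
    simp only [hg]
    field_simp
    ring

end

end Crest.Agent.R281.Cdr_234
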