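import Crest.Agent.R281.Cdr3_234

/-!
# R281 (S0424), CDR (helper234), part 4: the Lefschetz (1,1)-theorem on an atlas with potentials

`kp_lb` : local potentials `H : KP A` on a good atlas, Cech-de Rham data over the cover by the charts
with integral cocycle for the form `π⁻¹ ω(hess u)` ==> line bundle `L : LB A` with metric
`h.w i = exp (- u i)`.
-/

set_option autoImplicit false
set_option linter.unusedSectionVars false
set_option maxSynthPendingDepth 3

open Set Filter Topology Complex
open scoped ContDiff Matrix ComplexConjugate ComplexOrder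

namespace Crest.Agent.R281.Cdr_234

open Crest.Agent.R281.HkR_835
open Crest.Agent.R275.Geo Crest.Agent.R275.Core144 Crest.Agent.R275.GC293
open Crest.Agent.R273.Defs_333 Crest.Agent.R273.Hess_333
open Crest.Agent.R281.Kp_487 (KP KP.wt)

noncomputable section

variable {n : ℕ} {M : Type} [TopologicalSpace M] {A : Atl n M}

theorem hasFDerivAt_tr {i j : A.ι} {z : Cn n} (hz : z ∈ A.ov i j) :
    HasFDerivAt ((ofAtl A).t i j) (fderiv ℝ ((ofAtl A).t i j) z) z :=
  (RCh.t_diff (C := ofAtl A) hz).hasFDerivAt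

/-- **line bundle from local potentials and an integral cocycle** -/
theorem kp_lb (hA : GoodA A) (H : KP A) {w : F2 (ofAtl A)}
    (hw : ∀ i, ∀ z ∈ (A.e i).target, ∀ u v,
      w.w i z u v = Real.pi⁻¹ * (I * hb (hess (H.wt i) z) u v).re)
    (D : CD w A.ι) (hU : ∀ i, D.U i = (A.e i).source)
    (hZ : ∀ i j k, ∀ x ∈ (A.e i).source ∩ (A.e j).source ∩ (A.e k).source,
      ∃ m : ℤ, (m : ℝ) = D.f i j x + D.f j k x - D.f i k x) :
    ∃ (L : LB A) (h : HM L), ∀ i x, h.w i x = Real.exp (-H.u i x) := by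
  classical
  have hconv : ∀ i, Convex ℝ (A.e i).target := fun i => by
    have := hA i i
    have h2 : A.ov i i = (A.e i).target := by
      ext z
      exact ⟨fun h => h.1, fun h => ⟨h, (A.e i).map_target h⟩⟩
    rwa [h2] at this
  have hsh : ∀ (i : A.ι) (z : Cn n), z ∈ (A.e i).target → z ∈ sh (ofAtl A) i (D.U i) := by
    intro i z hz
    have h2 : (A.e i).symm z ∈ (A.e i).source := (A.e i).map_target hz
    rw [← hU] at h2
    exact ⟨hz, h2⟩
  have hwt : ∀ i, ContDiffOn ℝ ∞ (H.wt i) (A.e i).target := fun i => H.sm i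
  have hwta : ∀ i, ∀ z ∈ (A.e i).target, ContDiffAt ℝ ∞ (H.wt i) z := fun i z hz =>
    (hwt i).contDiffAt ((A.e i).open_target.mem_nhds hz)
  -- Step 1
  have h1 : ∀ i, ∃ ρ : Cn n → ℝ, ∀ z ∈ (A.e i).target,
      HasFDerivAt ρ (D.th i i z - lam (H.wt i) z) z := by
    intro i
    have hs : ContDiffOn ℝ ∞ (fun z => D.th i i z - lam (H.wt i) z) (A.e i).target :=
      ((D.th_sm i i).mono (hsh i)).sub (contDiffOn_lam (A.e i).open_target (hwt i))
    refine Poi_234.poincare1 (A.e i).open_target (hconv i) hs fun z hz v u => ?_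
    have hz' : z ∈ sh (ofAtl A) i (D.U i) := hsh i z hz
    have e1 := D.th_d i i z hz' v u
    have e2 := lam_d (hwta i z hz) v u
    have e3 := hw i z hz v u
    have hd1 : DifferentiableAt ℝ (D.th i i) z := D.th_diffAt hz'
    have hd2 : DifferentiableAt ℝ (lam (H.wt i)) z :=
      ((contDiffOn_lam (A.e i).open_target (hwt i)).contDiffAt
        ((A.e i).open_target.mem_nhds hz)).differentiableAt (by simp)
    have e4 : fderiv ℝ (fun z => D.th i i z - lam (H.wt i) z) z = _ :=
      (hd1.hasFDerivAt.sub hd2.hasFDerivAt).fderiv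
    rw [e4]
    simp only [sub_apply]
    linarith
  choose ρ hρ using h1
  -- Step 2
  set u2 : A.ι → A.ι → Cn n → ℝ := fun i j z => H.u j ((A.e i).symm z) with hu2
  set f' : A.ι → A.ι → Cn n → ℝ := fun i j z =>
    D.f i j ((A.e i).symm z) - ρ j ((ofAtl A).t i j z) + ρ i z with hf'
  have hu2s : ∀ i j, ContDiffOn ℝ ∞ (u2 i j) (A.ov i j) := by
    intro i j
    have e1 : ContDiffOn ℝ ∞ (fun z => H.wt j ((ofAtl A).t i j z)) (A.ov i j) :=
      (hwt j).comp (RCh.t_smooth (C := ofAtl A) i j) fun z hz => (RCh.t_mem (C := ofAtl A) hz).1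
    refine e1.congr fun z hz => ?_
    have hz2 : (A.e i).symm z ∈ (A.e j).source := hz.2
    show H.u j ((A.e i).symm z) = H.u j ((A.e j).symm (A.e j ((A.e i).symm z)))
    rw [(A.e j).left_inv hz2]
  have h2 : ∀ i j, ∀ z ∈ A.ov i j, HasFDerivAt (f' i j) (lam (u2 i j) z - lam (H.wt i) z) z := by
    intro i j z hz
    have hzi : (A.e i).symm z ∈ D.U i := by rw [hU]; exact (A.e i).map_target hz.1
    have hzj : (A.e i).symm z ∈ D.U j := by rw [hU]; exact hz.2
    have hzU : z ∈ sh (ofAtl A) i (D.U i ∩ D.U j) := ⟨hz.1, hzi, hzj⟩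
    have ht : (ofAtl A).t i j z ∈ (A.e j).target := (RCh.t_mem (C := ofAtl A) hz).1
    have e1 := D.f_d i j i z hzU
    have e2 := (hρ j _ ht).comp z (hasFDerivAt_tr hz)
    have e3 := (e1.sub e2).add (hρ i z hz.1)
    refine e3.congr_fderiv ?_
    ext v
    have e4 := D.th_tr j i j z hz hzj v
    have e5 : lam (u2 i j) z v = lam (H.wt j) ((ofAtl A).t i j z)
        (fderiv ℝ ((ofAtl A).t i j) z v) := by
      have e6 : u2 i j =ᶠ[𝓝 z] fun y => H.wt j ((ofAtl A).t i j y) := by
        filter_upwards [(RCh.isOpen_ov (C := ofAtl A) i j).mem_nhds hz] with y hy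
        have hy2 : (A.e i).symm y ∈ (A.e j).source := hy.2
        show H.u j ((A.e i).symm y) = H.u j ((A.e j).symm (A.e j ((A.e i).symm y)))
        rw [(A.e j).left_inv hy2]
      have e7 := lam_comp (u := H.wt j) (T := (ofAtl A).t i j) (z := z)
        ((hwta j _ ht).differentiableAt (by simp)) (ofAtl_t_diff A hz)
      have e8 : lam (u2 i j) z = lam (fun y => H.wt j ((ofAtl A).t i j y)) z := by
        unfold lam
        rw [e6.fderiv_eq]
      rw [e8, e7]
      rfl
    simp only [add_apply, sub_apply, ContinuousLinearMap.comp_apply]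
    rw [e4, e5]
    ring
  -- Step 3
  have h3 : ∀ i j, ∃ F : Cn n → ℂ, DifferentiableOn ℂ F (A.ov i j) ∧
      (∀ z ∈ A.ov i j, (F z).re = (H.wt i z - u2 i j z) / 2) ∧
      ∀ z ∈ A.ov i j, (F z).im = -(2 * Real.pi) * f' i j z := fun i j =>
    exists_log (RCh.isOpen_ov (C := ofAtl A) i j) (hA i j)
      ((hwt i).mono fun z hz => hz.1) (hu2s i j) (fun z hz => H.tr i j z hz) (h2 i j)
  choose F hF hFre hFim using h3
  have hmem : ∀ {i j x}, x ∈ (A.e i).source ∩ (A.e j).source → A.e i x ∈ A.ov i j := by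
    intro i j x hx
    refine ⟨(A.e i).map_source hx.1, ?_⟩
    rw [(A.e i).left_inv hx.1]
    exact hx.2
  -- the cocycle relation
  have hcoc : ∀ i j k, ∀ x ∈ (A.e i).source ∩ (A.e j).source ∩ (A.e k).source,
      Complex.exp (F i j (A.e i x)) * Complex.exp (F j k (A.e j x)) =
        Complex.exp (F i k (A.e i x)) := by
    intro i j k x hx
    have hij := hmem (i := i) (j := j) hx.1
    have hjk := hmem (i := j) (j := k) ⟨hx.1.2, hx.2⟩
    have hik := hmem (i := i) (j := k) ⟨hx.1.1, hx.2⟩
    obtain ⟨m, hm⟩ := hZ i j k x hx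
    have e1 : F i j (A.e i x) + F j k (A.e j x) = F i k (A.e i x) + ((-m : ℤ) : ℂ) * (2 * Real.pi * I) := by
      apply Complex.ext
      · simp only [Complex.add_re]
        rw [hFre i j _ hij, hFre j k _ hjk, hFre i k _ hik]
        have c1 : (((-m : ℤ) : ℂ) * (2 * Real.pi * I)).re = 0 := by
          have : ((-m : ℤ) : ℂ) * (2 * Real.pi * I) = ((((-m : ℤ) : ℝ) * (2 * Real.pi) : ℝ) : ℂ) * I := by
            push_cast
            ring
          rw [this, Complex.re_ofReal_mul, Complex.I_re, mul_zero]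
        rw [c1]
        simp only [hu2, KP.wt]
        rw [(A.e i).left_inv hx.1.1, (A.e j).left_inv hx.1.2]
        ring
      · simp only [Complex.add_im]
        rw [hFim i j _ hij, hFim j k _ hjk, hFim i k _ hik]
        have c1 : (((-m : ℤ) : ℂ) * (2 * Real.pi * I)).im = -(m : ℝ) * (2 * Real.pi) := by
          have : ((-m : ℤ) : ℂ) * (2 * Real.pi * I) = ((((-m : ℤ) : ℝ) * (2 * Real.pi) : ℝ) : ℂ) * I := by
            push_cast
            ring
          rw [this, Complex.im_ofReal_mul, Complex.I_im, mul_one]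
          push_cast
          ring
        rw [c1, hm]
        have c2 : (ofAtl A).t i j (A.e i x) = A.e j x := by
          show A.e j ((A.e i).symm (A.e i x)) = _
          rw [(A.e i).left_inv hx.1.1]
        have c3 : (ofAtl A).t j k (A.e j x) = A.e k x := by
          show A.e k ((A.e j).symm (A.e j x)) = _
          rw [(A.e j).left_inv hx.1.2]
        have c4 : (ofAtl A).t i k (A.e i x) = A.e k x := by
          show A.e k ((A.e i).symm (A.e i x)) = _
          rw [(A.e i).left_inv hx.1.1]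
        simp only [hf']
        rw [c2, c3, c4, (A.e i).left_inv hx.1.1, (A.e j).left_inv hx.1.2]
        ring
    rw [← Complex.exp_add, e1, Complex.exp_add, Complex.exp_int_mul_two_pi_mul_I, mul_one]
  -- Step 4
  set G : A.ι → A.ι → M → ℂ := fun i j x =>
    if x ∈ (A.e i).source ∩ (A.e j).source then Complex.exp (F i j (A.e i x)) else 1 with hG
  have hGin : ∀ {i j x}, x ∈ (A.e i).source ∩ (A.e j).source →
      G i j x = Complex.exp (F i j (A.e i x)) := fun hx => if_pos hx
  have hGout : ∀ {i j x}, x ∉ (A.e i).source ∩ (A.e j).source → G i j x = 1 := fun hx => if_neg hx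
  have hGne : ∀ i j x, G i j x ≠ 0 := by
    intro i j x
    by_cases hx : x ∈ (A.e i).source ∩ (A.e j).source
    · rw [hGin hx]; exact Complex.exp_ne_zero _
    · rw [hGout hx]; exact one_ne_zero
  have hGmul : ∀ i j k, ∀ x ∈ (A.e i).source ∩ (A.e j).source ∩ (A.e k).source,
      G i j x * G j k x = G i k x := by
    intro i j k x hx
    rw [hGin hx.1, hGin ⟨hx.1.2, hx.2⟩, hGin ⟨hx.1.1, hx.2⟩]
    exact hcoc i j k x hx
  let L : LB A :=
    { g := G
      hol := fun i j => by
        have e1 : DifferentiableOn ℂ (fun z => Complex.exp (F i j z)) (A.ov i j) :=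
          (hF i j).cexp
        refine DifferentiableOn.congr e1 fun z hz => ?_
        have e2 : (A.e i).symm z ∈ (A.e i).source ∩ (A.e j).source :=
          ⟨(A.e i).map_target hz.1, hz.2⟩
        rw [hGin e2, (A.e i).right_inv hz.1]
      off := fun i j x hx => hGout hx
      self := fun i x => by
        by_cases hx : x ∈ (A.e i).source
        · have e1 := hGmul i i i x ⟨⟨hx, hx⟩, hx⟩
          exact mul_left_cancel₀ (hGne i i x) (by rw [e1, mul_one])
        · exact hGout fun h => hx h.1
      mul := hGmul }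
  refine ⟨L, ⟨fun i x => Real.exp (-H.u i x), fun i x _ => Real.exp_pos _, fun i => ?_, ?_⟩,
    fun i x => rfl⟩
  · exact Real.contDiff_exp.comp_contDiffOn (H.sm i).neg
  · intro i j x hx
    show Real.exp (-H.u j x) = ‖G i j x‖ ^ 2 * Real.exp (-H.u i x)
    have hij := hmem (i := i) (j := j) hx
    rw [hGin hx, Complex.norm_exp, hFre i j _ hij, ← Real.exp_nat_mul, ← Real.exp_add]
    congr 1
    simp only [hu2, KP.wt]
    rw [(A.e i).left_inv hx.1]
    push_cast
    ring

end

end Crest.Agent.R281.Cdr_234
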