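import Crest.Agent.R281.Cdr4_234

/-!
# R281 (S0424), CDR (helper234), part 5: the Lefschetz (1,1)-theorem

* `cmp_of_hol` : the real charts of two atlases of the same complex manifold are compatible
* `pull_f2`    : the real form of a (1,1)-form under a change of atlas
* `curK h : K11 A`, `c1F h := π⁻¹ • (curK h).f2` : the first Chern form of a metric
* `lefschetz`  : `IntF (π⁻¹ • K.f2)` ==> line bundle with curvature `K`, on a refined atlas
-/

set_option autoImplicit false
set_option linter.unusedSectionVars false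
set_option maxSynthPendingDepth 3

open Set Filter Topology Complex
open scoped ContDiff Matrix ComplexConjugate ComplexOrder

namespace Crest.Agent.R281.Cdr_234

open Crest.Agent.R281.HkR_835 Crest.Agent.R281.Dif_268
open Crest.Agent.R281.Ti_846 (Ex)
open Crest.Agent.R275.Geo Crest.Agent.R275.Core144 Crest.Agent.R275.GC293 Crest.Agent.R275.EDR890
open Crest.Agent.R273
open Crest.Agent.R273.Defs_333 Crest.Agent.R273.Hess_333 Crest.Agent.R273.HessB_333
open Crest.Agent.R273.Map_835 (HolMap dm Jp mem_dm holMap_id Jp_comp)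
open Crest.Agent.R273.PB_835 (LBih Ref)
open Crest.Agent.R281.Kp_487 (KP KP.wt)
open Crest.Agent.R281.KpD_487 (PD isOpen_PD mem_PD_self PD_mono exists_PD_subset)

noncomputable section

variable {n : ℕ} {M : Type} [TopologicalSpace M] {A A' : Atl n M}

/-! ### change of atlas -/

theorem cmp_of_hol (h : HolMap A' A id) (h' : HolMap A A' id) : Cmp (ofAtl A) (ofAtl A') where
  s i j := ((Crest.Agent.R266.SCV.contDiffOn_omega_of_differentiableOn (h.isOpen_dm j i)
    (h.hol j i)).restrict_scalars ℝ).of_le le_top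
  s' i j := ((Crest.Agent.R266.SCV.contDiffOn_omega_of_differentiableOn (h'.isOpen_dm i j)
    (h'.hol i j)).restrict_scalars ℝ).of_le le_top

/-- the differential of the change of charts -/
theorem fderiv_rd (h : HolMap A' A id) {k : A'.ι} {i : A.ι} {z : Cn n}
    (hz : z ∈ dm A' A id k i) (v : Cn n) :
    (fderiv ℝ (Map_835.rd A' A id k i) z v).ofLp =
      (Jp A' A id k i ((A'.e k).symm z)) *ᵥ v.ofLp := by
  have h1 := (h.diffAt hz).fderiv_restrictScalars ℝ
  have h2 : A'.e k ((A'.e k).symm z) = z := (A'.e k).right_inv hz.1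
  funext b
  rw [h1]
  show (fderiv ℂ (Map_835.rd A' A id k i) z v) b = _
  rw [Map_835.mt_apply, Map_835.Jp_eq, h2]
  rfl

/-- pull back of the real form of a (1,1)-form -/
theorem pull_f2 (h : HolMap A' A id) (h' : HolMap A A' id) (K : K11 A) {k : A'.ι} {i : A.ι}
    {z : Cn n} (hz : z ∈ dm A' A id k i) (u v : Cn n) :
    ((SMap.ofCmp (cmp_of_hol h h')).pull K.f2).w k z u v =
      (I * hb ((Jp A' A id k i ((A'.e k).symm z))ᵀ * K.g i ((A'.e k).symm z) *
        (Jp A' A id k i ((A'.e k).symm z)).map conj) u v).re := by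
  have hz' : z ∈ dom (ofAtl A) (ofAtl A') (SMap.ofCmp (cmp_of_hol h h')).f i k := hz
  have hi : (A'.e k).symm z ∈ (A.e i).source := hz.2
  rw [(SMap.ofCmp (cmp_of_hol h h')).pull_w K.f2 hz']
  have e1 : loc (ofAtl A) (ofAtl A') (SMap.ofCmp (cmp_of_hol h h')).f i k =
      Map_835.rd A' A id k i := rfl
  rw [e1]
  have e2 : Map_835.rd A' A id k i z ∈ (A.e i).target := (A.e i).map_source hi
  have e3 : (A.e i).symm (Map_835.rd A' A id k i z) = (A'.e k).symm z := (A.e i).left_inv hi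
  rw [K.f2_w e2, e3, hb_mulVec (K.g i ((A'.e k).symm z)) (Jp A' A id k i ((A'.e k).symm z))
    (fderiv_rd h hz u) (fderiv_rd h hz v)]

/-- independence of the chart of the old atlas -/
theorem tr_indep11 (h : HolMap A' A id) (K : K11 A) {k : A'.ι} {i j : A.ι} {y : M}
    (hk : y ∈ (A'.e k).source) (hi : y ∈ (A.e i).source) (hj : y ∈ (A.e j).source) :
    (Jp A' A id k i y)ᵀ * K.g i y * (Jp A' A id k i y).map conj =
      (Jp A' A id k j y)ᵀ * K.g j y * (Jp A' A id k j y).map conj := by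
  have h1 : Jp A A id i j y * Jp A' A id k i y = Jp A' A id k j y :=
    Jp_comp (holMap_id A) h (i := k) (j := i) (l := j) (x := y) hk hi hj
  have h2 : Jm A i j y = Jp A A id i j y := rfl
  rw [K.tr i j y ⟨hi, hj⟩, h2, ← h1, Matrix.transpose_mul]
  have h3 : (Jp A A id i j y * Jp A' A id k i y).map conj =
      (Jp A A id i j y).map conj * (Jp A' A id k i y).map conj :=
    Matrix.map_mul (f := (starRingEnd ℂ))
  rw [h3]
  simp only [Matrix.mul_assoc]

/-- the second closedness relation -/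
theorem K11_closed' (K : K11 A) (i : A.ι) {z : Cn n} (hz : z ∈ (A.e i).target) (a b c : Fin n) :
    wd (true, c) (fun w => K.g i ((A.e i).symm w) a b) z =
      wd (true, b) (fun w => K.g i ((A.e i).symm w) a c) z := by
  have hd : ∀ a b, DifferentiableAt ℝ (fun w => K.g i ((A.e i).symm w) a b) z := fun a b =>
    ((K.sm i a b).contDiffAt ((A.e i).open_target.mem_nhds hz)).differentiableAt (by simp)
  have h1 : ∀ p q c, wd (true, c) (fun w => K.g i ((A.e i).symm w) p q) z =
      conj (wd (false, c) (fun w => K.g i ((A.e i).symm w) q p) z) := by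
    intro p q c
    rw [conj_wd _ (hd q p)]
    apply wd_congr
    filter_upwards [(A.e i).open_target.mem_nhds hz] with w hw
    have := congrFun (congrFun (K.herm i _ ((A.e i).map_target hw)).eq p) q
    simpa [Matrix.conjTranspose_apply] using this.symm
  rw [h1, h1, K.closed i z hz b a c]

/-- local potentials -/
theorem exists_pot11 (K : K11 A) (x : M) : ∃ (i : A.ι) (s : ℝ) (u : Cn n → ℝ), 0 < s ∧
    x ∈ (A.e i).source ∧ PD (A.e i x) s ⊆ (A.e i).target ∧ ContDiff ℝ ∞ u ∧
    ∀ z ∈ PD (A.e i x) s, hess u z = K.g i ((A.e i).symm z) := by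
  obtain ⟨i, hi⟩ := A.cover x
  obtain ⟨r, hr, hrs⟩ := exists_PD_subset ((A.e i).open_target.mem_nhds ((A.e i).map_source hi))
  obtain ⟨s, hs, hsr, u, hu1, hu2⟩ := KpE_487.ddbar_local (p := A.e i x) hr
    (g := fun z => K.g i ((A.e i).symm z))
    (fun a b => (K.sm i a b).mono hrs)
    (fun z hz => K.herm i _ ((A.e i).map_target (hrs hz)))
    (fun z hz a b c => K.closed i z (hrs hz) a b c)
    (fun z hz a b c => K11_closed' K i (hrs hz) a b c)
  exact ⟨i, s, u, hs, hi, (PD_mono hsr).trans hrs, hu1, hu2⟩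

/-- a finite good atlas with potentials of the closed real (1,1)-form `K`, subordinate to an open
cover -/
theorem exists_kp11 [CompactSpace M] [T2Space M] (K : K11 A) {κ : Type*} (O : κ → Set M)
    (hO : ∀ k, IsOpen (O k)) (hOc : ∀ x, ∃ k, x ∈ O k) :
    ∃ (A' : Atl n M) (H : KP A'), Finite A'.ι ∧ GoodA A' ∧ Nonempty (Part A') ∧
      (∀ i, ∃ k, (A'.e i).source ⊆ O k) ∧ Nonempty (Ref A' A id) ∧ LBih A' A id ∧
      LBih A A' id ∧ ∀ (k : A'.ι) (i : A.ι) (y : M), y ∈ (A'.e k).source → y ∈ (A.e i).source →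
        hess (H.wt k) (A'.e k y) =
          (Jp A' A id k i y)ᵀ * K.g i y * (Jp A' A id k i y).map conj := by
  choose ix s u hs hix hst hu1 hu2 using exists_pot11 K
  set O' : M × κ → Set M :=
    fun q => ((A.e (ix q.1)).source ∩ A.e (ix q.1) ⁻¹' PD (A.e (ix q.1) q.1) (s q.1)) ∩ O q.2
    with hO'
  obtain ⟨A', hfin, hG, hP, hsub, hR, hL1, hL2⟩ := Fam_835.exists_refine A O'
    (fun q => ((A.e (ix q.1)).isOpen_inter_preimage (isOpen_PD _ _)).inter (hO q.2))
    (fun x => by
      obtain ⟨k, hk⟩ := hOc x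
      exact ⟨(x, k), ⟨hix x, mem_PD_self (hs x)⟩, hk⟩)
  choose q' hq' using hsub
  set q : A'.ι → M := fun k => (q' k).1 with hqdef
  have hq : ∀ k, (A'.e k).source ⊆
      (A.e (ix (q k))).source ∩ A.e (ix (q k)) ⁻¹' PD (A.e (ix (q k)) (q k)) (s (q k)) :=
    fun k y hy => (hq' k hy).1
  have hh := hL1.toHolMap
  -- the potentials
  set U : A'.ι → M → ℝ := fun k y => u (q k) (A.e (ix (q k)) y) with hU
  have hUh : ∀ (k l : A'.ι) (y : M), y ∈ (A'.e k).source → y ∈ (A'.e l).source →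
      ∀ i : A.ι, y ∈ (A.e i).source → hess (fun w => U l ((A'.e k).symm w)) (A'.e k y) =
        (Jp A' A id k i y)ᵀ * K.g i y * (Jp A' A id k i y).map conj := by
    intro k l y hk hl i hi
    have hl' := hq l hl
    have h1 := KpK_487.hess_rd hh (k := k) (i := ix (q l)) hk hl'.1 ((hu1 (q l)).contDiffAt)
    have h2 : hess (u (q l)) (A.e (ix (q l)) y) = K.g (ix (q l)) y := by
      rw [hu2 (q l) _ hl'.2, (A.e (ix (q l))).left_inv hl'.1]
    rw [h2] at h1
    rw [tr_indep11 hh K hk hi hl'.1, ← h1]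
    rfl
  have hUs : ∀ (k l : A'.ι) (y : M), y ∈ (A'.e k).source → y ∈ (A'.e l).source →
      ContDiffAt ℝ ∞ (fun w => U l ((A'.e k).symm w)) (A'.e k y) := by
    intro k l y hk hl
    have hl' := hq l hl
    have hd : A'.e k y ∈ dm A' A id k (ix (q l)) := mem_dm hk hl'.1
    exact ((hu1 (q l)).contDiffAt).comp (A'.e k y) (KpK_487.rd_smooth hh hd)
  refine ⟨A', ⟨U, fun k z hz => ?_, fun k l z hz => ?_⟩, hfin, hG, hP,
    fun k => ⟨(q' k).2, fun y hy => (hq' k hy).2⟩, hR, hL1, hL2, fun k i y hk hi => ?_⟩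
  · have := hUs k k _ ((A'.e k).map_target hz) ((A'.e k).map_target hz)
    rw [(A'.e k).right_inv hz] at this
    exact this.contDiffWithinAt
  · have hk := (A'.e k).map_target hz.1
    have hl := hz.2
    obtain ⟨i, hi⟩ := A.cover ((A'.e k).symm z)
    have e1 := hUs k k _ hk hk
    have e2 := hUs k l _ hk hl
    have e3 := hess_sub e1 e2
    rw [hUh k k _ hk hk i hi, hUh k l _ hk hl i hi, sub_self, (A'.e k).right_inv hz.1] at e3
    exact e3
  · exact hUh k k y hk hk i hi

/-! ### the Chern form of a metric -/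

/-- the curvature of a metric as a closed real (1,1)-form -/
def curK {L : LB A} (h : HM L) : K11 A where
  g := Kah_333.cur h
  sm := Kah_333.cur_smooth h
  herm i _ hx := Kah_333.cur_herm h i hx
  tr _ _ _ hx := Kah_333.cur_tr h hx
  closed i _ hz a b c := Kah_333.cur_closed h i hz a b c

/-- the first Chern form of a metric -/
def c1F {L : LB A} (h : HM L) : F2 (ofAtl A) := (Real.pi⁻¹ : ℝ) • (curK h).f2

theorem c1F_w {L : LB A} (h : HM L) {i : A.ι} {z : Cn n} (hz : z ∈ (A.e i).target) (u v : Cn n) :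
    (c1F h).w i z u v = Real.pi⁻¹ * (I * hb (hess (h.wt i) z) u v).re := by
  have e1 : (c1F h).w i z u v = Real.pi⁻¹ * (curK h).f2.w i z u v := rfl
  rw [e1, (curK h).f2_w hz]
  show Real.pi⁻¹ * (I * hb (Kah_333.cur h i ((A.e i).symm z)) u v).re = _
  rw [Kah_333.cur_read h i hz]

/-- **Lefschetz (1,1)**: a closed real (1,1)-form `K` with `π⁻¹ K` integral is the curvature of a
line bundle, on a refined atlas -/
theorem lefschetz [CompactSpace M] [T2Space M] (K : K11 A)
    (hK : IntF ((Real.pi⁻¹ : ℝ) • K.f2)) {κ : Type*} (O : κ → Set M)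
    (hO : ∀ k, IsOpen (O k)) (hOc : ∀ x, ∃ k, x ∈ O k) :
    ∃ (A' : Atl n M) (L : LB A') (h : HM L), Finite A'.ι ∧ GoodA A' ∧ Nonempty (Part A') ∧
      (∀ i, ∃ k, (A'.e i).source ⊆ O k) ∧ Nonempty (Ref A' A id) ∧ LBih A' A id ∧
      LBih A A' id ∧ ∀ (k : A'.ι) (i : A.ι) (y : M), y ∈ (A'.e k).source → y ∈ (A.e i).source →
        Kah_333.cur h k y =
          (Jp A' A id k i y)ᵀ * K.g i y * (Jp A' A id k i y).map conj := by
  obtain ⟨α, D, hD⟩ := hK
  obtain ⟨A', H, h1, h2, h3, h4, h5, h6, h7, h8⟩ := exists_kp11 K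
    (fun q : α × κ => D.U q.1 ∩ O q.2) (fun q => (D.op q.1).inter (hO q.2)) (fun x => by
      obtain ⟨a, ha⟩ := D.cov x
      obtain ⟨k, hk⟩ := hOc x
      exact ⟨(a, k), ha, hk⟩)
  choose q hq using h4
  set hc := cmp_of_hol h6.toHolMap h7.toHolMap with hhc
  set g := SMap.ofCmp hc with hg
  set w' := g.pull ((Real.pi⁻¹ : ℝ) • K.f2) with hw'
  have hcov : ∀ x, ∃ b : A'.ι, x ∈ (A'.e b).source := A'.cover
  set D' : CD w' A'.ι := (D.pull g).refine (fun k : A'.ι => (A'.e k).source)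
    (fun k => (A'.e k).open_source) hcov (fun k => (q k).1) (fun k y hy => (hq k hy).1) with hD'
  have hw : ∀ k, ∀ z ∈ (A'.e k).target, ∀ u v,
      w'.w k z u v = Real.pi⁻¹ * (I * hb (hess (H.wt k) z) u v).re := by
    intro k z hz u v
    obtain ⟨i, hi⟩ := A.cover ((A'.e k).symm z)
    have hzd : z ∈ dm A' A id k i := ⟨hz, hi⟩
    have hk := (A'.e k).map_target hz
    have e0 : w'.w k z u v = Real.pi⁻¹ * (g.pull K.f2).w k z u v := by
      have hz' : z ∈ dom (ofAtl A) (ofAtl A') g.f i k := hzd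
      rw [hw', g.pull_w _ hz', g.pull_w _ hz']
      rfl
    have e1 := pull_f2 h6.toHolMap h7.toHolMap K hzd u v
    have e2 := h8 k i _ hk hi
    rw [(A'.e k).right_inv hz] at e2
    rw [e0, e2]
    exact congrArg (fun t => Real.pi⁻¹ * t) e1
  obtain ⟨L, h, hh⟩ := kp_lb h2 H hw D' (fun i => rfl) (fun i j k x hx => by
    obtain ⟨m, hm⟩ := hD (q i).1 (q j).1 (q k).1 x
      ⟨⟨(hq i hx.1.1).1, (hq j hx.1.2).1⟩, (hq k hx.2).1⟩
    exact ⟨m, hm⟩)
  refine ⟨A', L, h, h1, h2, h3, fun k => ⟨(q k).2, fun y hy => (hq k hy).2⟩, h5, h6, h7,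
    fun k i y hk hi => ?_⟩
  rw [← h8 k i y hk hi]
  show hess (h.wt k) (A'.e k y) = _
  have e1 : h.wt k = H.wt k := by
    funext z
    show -Real.log (h.w k ((A'.e k).symm z)) = H.u k ((A'.e k).symm z)
    rw [hh, Real.log_exp, neg_neg]
  rw [e1]

end

end Crest.Agent.R281.Cdr_234
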