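import Crest.Agent.R281.Cdr2_234
import Crest.Agent.R281.Poi_234
import Crest.Agent.R275.ASNv_293

/-!
# R281 (S0424), CDR (helper234), part 7: Cech-de Rham data over the charts of a good system

`C : RCh V X` with convex overlaps (`GoodR C`):

* `locConst`, `const3`, `const2` : functions with vanishing derivative
* `exists_cd`  : every closed 2-form has data over the cover by the chart domains
* `Rel w c`    : data over the chart domains with constant cocycle `c`
* `Rel.exists`, `Rel.coc`, `Rel.add`, `Rel.smul`, `Rel.uniq`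
-/

set_option autoImplicit false
set_option linter.unusedSectionVars false
set_option maxSynthPendingDepth 3

open Set Filter Topology
open scoped ContDiff

namespace Crest.Agent.R281.Cdr_234

open Crest.Agent.R281.HkR_835
open Crest.Agent.R281.Ti_846 (F1 IsD Ex d1 d1_apply)
open Crest.Agent.R281.Dif_268

noncomputable section

variable {V X : Type} [NormedAddCommGroup V] [NormedSpace ℝ V] [TopologicalSpace X]
  {C : RCh V X} {G : AddSubgroup ℝ}

/-- a function with vanishing derivative is locally constant -/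
theorem locConst {U : Set X} (hU : IsOpen U) {g : X → ℝ}
    (hg : ∀ i, ∀ z ∈ sh C i U, HasFDerivAt (fun y => g ((C.e i).symm y)) (0 : V →L[ℝ] ℝ) z) :
    ∀ x ∈ U, ∀ᶠ y in 𝓝 x, g y = g x := by
  intro x hx
  obtain ⟨i, hi⟩ := C.cover x
  have hz : C.e i x ∈ sh C i U := by
    refine ⟨(C.e i).map_source hi, ?_⟩
    show (C.e i).symm (C.e i x) ∈ U
    rwa [(C.e i).left_inv hi]
  obtain ⟨r, hr, hb⟩ := Metric.isOpen_iff.1 (isOpen_sh (C := C) i hU) _ hz
  have h1 : ∀ y ∈ Metric.ball (C.e i x) r, g ((C.e i).symm y) = g ((C.e i).symm (C.e i x)) := by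
    intro y hy
    refine (convex_ball (C.e i x) r).is_const_of_fderivWithin_eq_zero (𝕜 := ℝ)
      (f := fun y => g ((C.e i).symm y)) (fun y hy =>
      (hg i y (hb hy)).differentiableAt.differentiableWithinAt) (fun y hy => ?_) hy
      (Metric.mem_ball_self hr)
    rw [fderivWithin_of_isOpen Metric.isOpen_ball hy, (hg i y (hb hy)).fderiv]
  have h2 : ∀ᶠ y in 𝓝 x, y ∈ (C.e i).source := (C.e i).open_source.mem_nhds hi
  have h3 : ∀ᶠ y in 𝓝 x, C.e i y ∈ Metric.ball (C.e i x) r :=
    ((C.e i).continuousAt hi).eventually (Metric.isOpen_ball.mem_nhds (Metric.mem_ball_self hr))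
  filter_upwards [h2, h3] with y hy hy'
  have h4 := h1 _ hy'
  rwa [(C.e i).left_inv hy, (C.e i).left_inv hi] at h4

/-- convex overlaps -/
def GoodR (C : RCh V X) : Prop := ∀ i j, Convex ℝ (C.ov i j)

theorem ov_self (i : C.ι) : C.ov i i = (C.e i).target := by
  ext z
  exact ⟨fun h => h.1, fun h => ⟨h, (C.e i).map_target h⟩⟩

theorem GoodR.convex_target (hC : GoodR C) (i : C.ι) : Convex ℝ (C.e i).target := by
  have := hC i i
  rwa [ov_self] at this

theorem GoodR.preconnected3 (hC : GoodR C) (i j k : C.ι) :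
    IsPreconnected ((C.e i).source ∩ (C.e j).source ∩ (C.e k).source) := by
  have h1 : (C.e i).source ∩ (C.e j).source ∩ (C.e k).source =
      (C.e i).symm '' (C.ov i j ∩ C.ov i k) := by
    ext x
    constructor
    · intro hx
      refine ⟨C.e i x, ⟨⟨(C.e i).map_source hx.1.1, ?_⟩, ⟨(C.e i).map_source hx.1.1, ?_⟩⟩,
        (C.e i).left_inv hx.1.1⟩
      · rw [(C.e i).left_inv hx.1.1]; exact hx.1.2
      · rw [(C.e i).left_inv hx.1.1]; exact hx.2
    · rintro ⟨z, hz, rfl⟩
      exact ⟨⟨(C.e i).map_target hz.1.1, hz.1.2⟩, hz.2.2⟩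
  rw [h1]
  refine ((hC i j).inter (hC i k)).isPreconnected.image _ ?_
  exact (C.e i).continuousOn_symm.mono fun z hz => hz.1.1

theorem GoodR.preconnected2 (hC : GoodR C) (i j : C.ι) :
    IsPreconnected ((C.e i).source ∩ (C.e j).source) := by
  have h := hC.preconnected3 i j j
  have h1 : (C.e i).source ∩ (C.e j).source ∩ (C.e j).source =
      (C.e i).source ∩ (C.e j).source := by
    rw [inter_assoc, inter_self]
  rwa [h1] at h

/-- the differential of a composition of transition maps -/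
theorem dt_comp {i j a : C.ι} {z : V} (hz : z ∈ C.ov i j) (ha : (C.e i).symm z ∈ (C.e a).source)
    (v : V) : fderiv ℝ (C.t i a) z v = fderiv ℝ (C.t j a) (C.t i j z) (fderiv ℝ (C.t i j) z v) := by
  have hja : C.t i j z ∈ C.ov j a := by
    refine ⟨(RCh.t_mem hz).1, ?_⟩
    show (C.e j).symm (C.e j ((C.e i).symm z)) ∈ _
    rwa [(C.e j).left_inv hz.2]
  have h1 : C.t i a =ᶠ[𝓝 z] C.t j a ∘ C.t i j := by
    filter_upwards [(RCh.isOpen_ov i j).mem_nhds hz] with y hy
    show C.e a ((C.e i).symm y) = C.e a ((C.e j).symm (C.e j ((C.e i).symm y)))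
    rw [(C.e j).left_inv hy.2]
  rw [h1.fderiv_eq, fderiv_comp z (RCh.t_diff hja) (RCh.t_diff hz)]
  rfl

theorem t_t' {i j a : C.ι} {z : V} (hz : z ∈ C.ov i j) : C.t j a (C.t i j z) = C.t i a z := by
  show C.e a ((C.e j).symm (C.e j ((C.e i).symm z))) = C.e a ((C.e i).symm z)
  rw [(C.e j).left_inv hz.2]

theorem sh_source (i a : C.ι) : sh C i (C.e a).source = C.ov i a := rfl

/-- **existence of Cech-de Rham data over the chart domains** -/
theorem exists_cd [FiniteDimensional ℝ V] (hC : GoodR C) (w : F2 C) :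
    ∃ D : CD w C.ι, ∀ i, D.U i = (C.e i).source := by
  -- primitives
  have h1 : ∀ a, ∃ θ : V → V →L[ℝ] ℝ, ContDiffOn ℝ ∞ θ (C.e a).target ∧
      ∀ z ∈ (C.e a).target, ∀ v u, fderiv ℝ θ z v u - fderiv ℝ θ z u v = w.w a z v u := by
    intro a
    refine Poi_234.poincare2 (C.e a).open_target (hC.convex_target a) (w.sm a) ?_ (w.closed a)
    intro z hz v
    have := w.alt a z hz v v
    linarith
  choose θ hθs hθ using h1
  have hθd : ∀ a, ∀ z ∈ (C.e a).target, DifferentiableAt ℝ (θ a) z := fun a z hz =>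
    ((hθs a).contDiffAt ((C.e a).open_target.mem_nhds hz)).differentiableAt (by simp)
  set th : C.ι → C.ι → V → V →L[ℝ] ℝ := fun a i => pb1 (θ a) (C.t i a) with hth
  have hths : ∀ a i, ContDiffOn ℝ ∞ (th a i) (C.ov i a) := fun a i =>
    contDiffOn_pb1 (RCh.isOpen_ov i a) (hθs a) (RCh.t_smooth i a) fun z hz => (RCh.t_mem hz).1
  have htr : ∀ a i j, ∀ z ∈ C.ov i j, (C.e i).symm z ∈ (C.e a).source → ∀ u,
      th a i z u = th a j (C.t i j z) (fderiv ℝ (C.t i j) z u) := by
    intro a i j z hz ha u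
    rw [hth]
    simp only [pb1_apply]
    rw [t_t' hz, dt_comp hz ha]
  have hd : ∀ a i, ∀ z ∈ C.ov i a, ∀ u v,
      fderiv ℝ (th a i) z u v - fderiv ℝ (th a i) z v u = w.w i z u v := by
    intro a i z hz u v
    have ht := (RCh.t_mem hz).1
    rw [hth]
    rw [d_pb1 (hθd a _ ht) ((RCh.t_smooth i a).contDiffAt ((RCh.isOpen_ov i a).mem_nhds hz)),
      hθ a _ ht, ← w.tr i a z hz]
  -- primitives of the differences
  have h2 : ∀ a b, ∃ F : V → ℝ, ∀ z ∈ C.ov a b, HasFDerivAt F (th b a z - th a a z) z := by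
    intro a b
    have hs : ContDiffOn ℝ ∞ (fun z => th b a z - th a a z) (C.ov a b) := by
      have h3 := hths a a
      rw [ov_self] at h3
      exact (hths b a).sub (h3.mono fun z hz => hz.1)
    refine Poi_234.poincare1 (RCh.isOpen_ov a b) (hC a b) hs fun z hz v u => ?_
    have hza : z ∈ C.ov a a := by rw [ov_self]; exact hz.1
    have e1 := hd b a z hz v u
    have e2 := hd a a z hza v u
    have d1 : DifferentiableAt ℝ (th b a) z :=
      ((hths b a).contDiffAt ((RCh.isOpen_ov a b).mem_nhds hz)).differentiableAt (by simp)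
    have d2 : DifferentiableAt ℝ (th a a) z :=
      ((hths a a).contDiffAt ((RCh.isOpen_ov a a).mem_nhds hza)).differentiableAt (by simp)
    have e3 : fderiv ℝ (fun z => th b a z - th a a z) z = _ :=
      (d1.hasFDerivAt.sub d2.hasFDerivAt).fderiv
    rw [e3]
    simp only [sub_apply]
    linarith
  choose F hF using h2
  refine ⟨{
    U := fun a => (C.e a).source
    op := fun a => (C.e a).open_source
    cov := C.cover
    th := th
    th_sm := hths
    th_tr := htr
    th_d := hd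
    f := fun a b x => F a b (C.e a x)
    f_d := ?_ }, fun i => rfl⟩
  intro a b i z hz
  have hia : z ∈ C.ov i a := ⟨hz.1, hz.2.1⟩
  have hab : C.t i a z ∈ C.ov a b := by
    refine ⟨(RCh.t_mem hia).1, ?_⟩
    show (C.e a).symm (C.e a ((C.e i).symm z)) ∈ _
    rw [(C.e a).left_inv hz.2.1]
    exact hz.2.2
  have e1 := (hF a b _ hab).comp z (RCh.t_diff hia).hasFDerivAt
  have e2 : (fun y => F a b (C.e a ((C.e i).symm y))) = F a b ∘ C.t i a := rfl
  rw [e2]
  refine e1.congr_fderiv ?_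
  ext v
  have h3 : (C.e i).symm z ∈ (C.e b).source := hz.2.2
  have h4 : (C.e i).symm z ∈ (C.e a).source := hz.2.1
  simp only [ContinuousLinearMap.comp_apply, sub_apply]
  rw [htr b i a z hia h3, htr a i a z hia h4]

/-- data over the chart domains with constant cocycle `c` -/
def Rel (w : F2 C) (c : C.ι → C.ι → C.ι → ℝ) : Prop :=
  ∃ D : CD w C.ι, (∀ i, D.U i = (C.e i).source) ∧
    ∀ i j k, ∀ x ∈ (C.e i).source ∩ (C.e j).source ∩ (C.e k).source,
      D.f i j x + D.f j k x - D.f i k x = c i j k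

/-- the cocycle of data is locally constant -/
theorem CD.cocycle_deriv {w : F2 C} {α : Type} (D : CD w α) (a b c : α) (i : C.ι) {z : V}
    (hz : z ∈ sh C i (D.U a ∩ D.U b ∩ D.U c)) :
    HasFDerivAt (fun y => D.f a b ((C.e i).symm y) + D.f b c ((C.e i).symm y) -
      D.f a c ((C.e i).symm y)) (0 : V →L[ℝ] ℝ) z := by
  have h1 := D.f_d a b i z ⟨hz.1, hz.2.1⟩
  have h2 := D.f_d b c i z ⟨hz.1, hz.2.1.2, hz.2.2⟩
  have h3 := D.f_d a c i z ⟨hz.1, hz.2.1.1, hz.2.2⟩
  refine ((h1.add h2).sub h3).congr_fderiv ?_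
  abel

theorem CD.cocycle_loc {w : F2 C} {α : Type} (D : CD w α) (a b c : α) :
    ∀ x ∈ D.U a ∩ D.U b ∩ D.U c, ∀ᶠ y in 𝓝 x,
      D.f a b y + D.f b c y - D.f a c y = D.f a b x + D.f b c x - D.f a c x :=
  locConst (C := C) (U := D.U a ∩ D.U b ∩ D.U c)
    (g := fun x => D.f a b x + D.f b c x - D.f a c x) (((D.op a).inter (D.op b)).inter (D.op c))
    fun i z hz => D.cocycle_deriv a b c i hz

/-- data over the chart domains of a good system have a constant cocycle -/
theorem CD.exists_rel (hC : GoodR C) {w : F2 C} (D : CD w C.ι)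
    (hU : ∀ i, D.U i = (C.e i).source) :
    ∃ c : C.ι → C.ι → C.ι → ℝ,
      ∀ i j k, ∀ x ∈ (C.e i).source ∩ (C.e j).source ∩ (C.e k).source,
      D.f i j x + D.f j k x - D.f i k x = c i j k := by
  classical
  have h1 : ∀ i j k, ∃ c : ℝ, ∀ x ∈ (C.e i).source ∩ (C.e j).source ∩ (C.e k).source,
      D.f i j x + D.f j k x - D.f i k x = c := by
    intro i j k
    rcases ((C.e i).source ∩ (C.e j).source ∩ (C.e k).source).eq_empty_or_nonempty with h | ⟨y, hy⟩
    · exact ⟨0, fun x hx => absurd hx (by rw [h]; exact notMem_empty x)⟩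
    · refine ⟨D.f i j y + D.f j k y - D.f i k y, fun x hx => ?_⟩
      refine R275.ASConv293.const_of_preconnected (hC.preconnected3 i j k)
        (f := fun x => D.f i j x + D.f j k x - D.f i k x) (fun p hp => ?_) hx hy
      have hp' : p ∈ D.U i ∩ D.U j ∩ D.U k := by
        rw [hU, hU, hU]
        exact hp
      exact D.cocycle_loc i j k p hp'
  choose c hc using h1
  exact ⟨c, hc⟩

theorem Rel.exists [FiniteDimensional ℝ V] (hC : GoodR C) (w : F2 C) : ∃ c, Rel w c := by
  obtain ⟨D, hD⟩ := exists_cd hC w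
  obtain ⟨c, hc⟩ := D.exists_rel hC hD
  exact ⟨c, D, hD, hc⟩

/-- the cocycle relation -/
theorem Rel.coc {w : F2 C} {c : C.ι → C.ι → C.ι → ℝ} (h : Rel w c) (i j k l : C.ι)
    (hx : ((C.e i).source ∩ (C.e j).source ∩ (C.e k).source ∩ (C.e l).source).Nonempty) :
    c j k l - c i k l + c i j l - c i j k = 0 := by
  obtain ⟨D, -, hc⟩ := h
  obtain ⟨x, hx⟩ := hx
  rw [← hc j k l x ⟨⟨hx.1.1.2, hx.1.2⟩, hx.2⟩, ← hc i k l x ⟨⟨hx.1.1.1, hx.1.2⟩, hx.2⟩,
    ← hc i j l x ⟨hx.1.1, hx.2⟩, ← hc i j k x hx.1]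
  ring

theorem Rel.add {w w' : F2 C} {c c' : C.ι → C.ι → C.ι → ℝ} (h : Rel w c) (h' : Rel w' c') :
    Rel (w + w') (fun i j k => c i j k + c' i j k) := by
  obtain ⟨D, hU, hc⟩ := h
  obtain ⟨D', hU', hc'⟩ := h'
  refine ⟨(D.add D').refine (fun i => (C.e i).source) (fun i => (C.e i).open_source) C.cover
    (fun i => (i, i)) (fun i x hx => ⟨by rw [hU]; exact hx, by rw [hU']; exact hx⟩),
    fun i => rfl, fun i j k x hx => ?_⟩
  have e1 := hc i j k x hx
  have e2 := hc' i j k x hx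
  show D.f i j x + D'.f i j x + (D.f j k x + D'.f j k x) - (D.f i k x + D'.f i k x) =
    c i j k + c' i j k
  rw [← e1, ← e2]
  ring

theorem Rel.smul {w : F2 C} {c : C.ι → C.ι → C.ι → ℝ} (h : Rel w c) (t : ℝ) :
    Rel (t • w) (fun i j k => t * c i j k) := by
  obtain ⟨D, hU, hc⟩ := h
  refine ⟨D.smul t, hU, fun i j k x hx => ?_⟩
  have e1 := hc i j k x hx
  show t * D.f i j x + t * D.f j k x - t * D.f i k x = t * c i j k
  rw [← e1]
  ring

theorem Rel.sub {w w' : F2 C} {c c' : C.ι → C.ι → C.ι → ℝ} (h : Rel w c) (h' : Rel w' c') :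
    Rel (w - w') (fun i j k => c i j k - c' i j k) := by
  have h1 := h.add (h'.smul (-1))
  have h2 : w + (-1 : ℝ) • w' = w - w' := by rw [neg_one_smul, sub_eq_add_neg]
  rw [h2] at h1
  convert h1 using 4
  ring

/-- **uniqueness**: cohomologous forms have cohomologous cocycles -/
theorem Rel.uniq [FiniteDimensional ℝ V] (hC : GoodR C) {w w' : F2 C} {c c' : C.ι → C.ι → C.ι → ℝ} (h : Rel w c)
    (h' : Rel w' c') (he : Ex (w - w')) :
    ∃ b : C.ι → C.ι → ℝ, ∀ i j k,
      ((C.e i).source ∩ (C.e j).source ∩ (C.e k).source).Nonempty →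
      c i j k - c' i j k = b j k - b i k + b i j := by
  obtain ⟨D, hU, hc⟩ := h
  obtain ⟨D', hU', hc'⟩ := h'
  obtain ⟨η, hη⟩ := he
  have hsh : ∀ i a, ∀ z ∈ C.ov i a, z ∈ sh C i (D.U a) := fun i a z hz => by
    rw [hU]; exact hz
  have hsh' : ∀ i a, ∀ z ∈ C.ov i a, z ∈ sh C i (D'.U a) := fun i a z hz => by
    rw [hU']; exact hz
  have h1 : ∀ a, ∃ ρ : V → ℝ, ∀ z ∈ (C.e a).target,
      HasFDerivAt ρ (D.th a a z - D'.th a a z - η.η a z) z := by
    intro a
    have hs : ContDiffOn ℝ ∞ (fun z => D.th a a z - D'.th a a z - η.η a z) (C.e a).target := by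
      have e1 := D.th_sm a a
      have e2 := D'.th_sm a a
      rw [hU, sh_source, ov_self] at e1
      rw [hU', sh_source, ov_self] at e2
      exact (e1.sub e2).sub (η.sm a)
    refine Poi_234.poincare1 (C.e a).open_target (hC.convex_target a) hs fun z hz v u => ?_
    have hz0 : z ∈ C.ov a a := by rw [ov_self]; exact hz
    have hz1 := hsh a a z hz0
    have hz2 := hsh' a a z hz0
    have e1 := D.th_d a a z hz1 v u
    have e2 := D'.th_d a a z hz2 v u
    have e3 := hη a z hz v u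
    simp only [F2.sub_w, sub_apply] at e3
    have e4 : fderiv ℝ (fun z => D.th a a z - D'.th a a z - η.η a z) z = _ :=
      (((D.th_diffAt hz1).hasFDerivAt.sub (D'.th_diffAt hz2).hasFDerivAt).sub
        (F1dAt η hz).hasFDerivAt).fderiv
    rw [e4]
    simp only [sub_apply]
    linarith
  choose ρ hρ using h1
  -- the differences are locally constant
  set m : C.ι → C.ι → X → ℝ := fun a b x =>
    D.f a b x - D'.f a b x - ρ b (C.e b x) + ρ a (C.e a x) with hm
  have hρi : ∀ a i, ∀ z ∈ C.ov i a, HasFDerivAt (fun y => ρ a (C.e a ((C.e i).symm y)))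
      (D.th a i z - D'.th a i z - η.η i z) z := by
    intro a i z hz
    have e1 := (hρ a _ (RCh.t_mem hz).1).comp z (RCh.t_diff hz).hasFDerivAt
    refine e1.congr_fderiv ?_
    ext v
    have e2 := D.th_tr a i a z hz (hsh i a z hz).2 v
    have e3 := D'.th_tr a i a z hz (hsh' i a z hz).2 v
    have e4 := η.tr i a z hz v
    simp only [ContinuousLinearMap.comp_apply, sub_apply]
    rw [e2, e3, e4]
  have hmd : ∀ a b i, ∀ z ∈ sh C i ((C.e a).source ∩ (C.e b).source),
      HasFDerivAt (fun y => m a b ((C.e i).symm y)) (0 : V →L[ℝ] ℝ) z := by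
    intro a b i z hz
    have hza : z ∈ C.ov i a := ⟨hz.1, hz.2.1⟩
    have hzb : z ∈ C.ov i b := ⟨hz.1, hz.2.2⟩
    have e1 := D.f_d a b i z ⟨hz.1, (hsh i a z hza).2, (hsh i b z hzb).2⟩
    have e2 := D'.f_d a b i z ⟨hz.1, (hsh' i a z hza).2, (hsh' i b z hzb).2⟩
    refine (((e1.sub e2).sub (hρi b i z hzb)).add (hρi a i z hza)).congr_fderiv ?_
    abel
  have h2 : ∀ a b, ∃ t : ℝ, ∀ x ∈ (C.e a).source ∩ (C.e b).source, m a b x = t := by
    intro a b
    rcases ((C.e a).source ∩ (C.e b).source).eq_empty_or_nonempty with h | ⟨y, hy⟩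
    · exact ⟨0, fun x hx => absurd hx (by rw [h]; exact notMem_empty x)⟩
    · refine ⟨m a b y, fun x hx => ?_⟩
      exact R275.ASConv293.const_of_preconnected (hC.preconnected2 a b) (f := m a b)
        (locConst (C := C) ((C.e a).open_source.inter (C.e b).open_source) (hmd a b)) hx hy
  choose b hb using h2
  refine ⟨b, fun i j k hx => ?_⟩
  obtain ⟨x, hx⟩ := hx
  have e1 := hb i j x hx.1
  have e2 := hb j k x ⟨hx.1.2, hx.2⟩
  have e3 := hb i k x ⟨hx.1.1, hx.2⟩
  rw [← hc i j k x hx, ← hc' i j k x hx, ← e1, ← e2, ← e3]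
  simp only [hm]
  ring

end

end Crest.Agent.R281.Cdr_234
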