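import Crest.Agent.R281.Cdr7_234

/-!
# R281 (S0424), CDR (helper234), part 8: partitions of unity

`PU C` : smooth partition of unity subordinate to the (finitely many) charts.

* `Rel.ex_of_cob`   : a form whose cocycle is a coboundary is exact
* `exists_of_coc`   : every real 2-cocycle is the cocycle of a closed 2-form
-/

set_option autoImplicit false
set_option linter.unusedSectionVars false
set_option maxSynthPendingDepth 3

open Set Filter Topology
open scoped ContDiff

namespace Crest.Agent.R281.Cdr_234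

open Crest.Agent.R281.HkR_835
open Crest.Agent.R281.Ti_846 (F1 IsD Ex d1)
open Crest.Agent.R281.Dif_268

noncomputable section

variable {V X : Type} [NormedAddCommGroup V] [NormedSpace ℝ V] [TopologicalSpace X]
  {C : RCh V X}

/-- smooth partition of unity subordinate to the charts -/
structure PU (C : RCh V X) [Fintype C.ι] where
  ψ : C.ι → X → ℝ
  sm : ∀ a i, ContDiffOn ℝ ∞ (fun z => ψ a ((C.e i).symm z)) (C.e i).target
  sub : ∀ a, tsupport (ψ a) ⊆ (C.e a).source
  one : ∀ x, ∑ a, ψ a x = 1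

/-- smooth functions -/
def SmF (C : RCh V X) (f : X → ℝ) : Prop :=
  ∀ i, ContDiffOn ℝ ∞ (fun z => f ((C.e i).symm z)) (C.e i).target

/-- the differential of a smooth function -/
def dF {f : X → ℝ} (hf : SmF C f) : F1 C where
  η i z := fderiv ℝ (fun y => f ((C.e i).symm y)) z
  sm i := (hf i).fderiv_of_isOpen (C.e i).open_target (by simp)
  tr i j z hz v := by
    have h1 : (fun y => f ((C.e i).symm y)) =ᶠ[𝓝 z]
        (fun y => f ((C.e j).symm y)) ∘ C.t i j := by
      filter_upwards [(RCh.isOpen_ov i j).mem_nhds hz] with y hy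
      show _ = f ((C.e j).symm (C.e j ((C.e i).symm y)))
      rw [(C.e j).left_inv hy.2]
    have ht := (RCh.t_mem hz).1
    have h2 : DifferentiableAt ℝ (fun y => f ((C.e j).symm y)) (C.t i j z) :=
      ((hf j).contDiffAt ((C.e j).open_target.mem_nhds ht)).differentiableAt (by simp)
    rw [h1.fderiv_eq, fderiv_comp z h2 (RCh.t_diff hz)]
    rfl

theorem SmF.at {f : X → ℝ} (hf : SmF C f) {i : C.ι} {z : V} (hz : z ∈ (C.e i).target) :
    ContDiffAt ℝ ∞ (fun y => f ((C.e i).symm y)) z :=
  (hf i).contDiffAt ((C.e i).open_target.mem_nhds hz)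

theorem SmF.hasF {f : X → ℝ} (hf : SmF C f) {i : C.ι} {z : V} (hz : z ∈ (C.e i).target) :
    HasFDerivAt (fun y => f ((C.e i).symm y)) (fderiv ℝ (fun y => f ((C.e i).symm y)) z) z :=
  ((hf.at hz).differentiableAt (by simp)).hasFDerivAt

/-- second derivatives are symmetric -/
theorem symm_dd {f : V → ℝ} {z : V} (hf : ContDiffAt ℝ ∞ f z) (u v : V) :
    fderiv ℝ (fderiv ℝ f) z u v - fderiv ℝ (fderiv ℝ f) z v u = 0 := by
  rw [Dif_268.symm2 hf u v, sub_self]

/-- smoothness of the exterior derivative -/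
theorem contDiffOn_d1 {θ : V → V →L[ℝ] ℝ} {U : Set V} (hU : IsOpen U)
    (hθ : ContDiffOn ℝ ∞ θ U) : ContDiffOn ℝ ∞ (d1 θ) U := by
  have h1 : ContDiffOn ℝ ∞ (fderiv ℝ θ) U := hθ.fderiv_of_isOpen hU (by simp)
  have h2 : ContDiff ℝ ∞ (fun T : V →L[ℝ] V →L[ℝ] ℝ => T - T.flip) := by
    have : (fun T : V →L[ℝ] V →L[ℝ] ℝ => T - T.flip) =
      fun T => T - ContinuousLinearMap.flipₗᵢ ℝ V V ℝ T := rfl
    rw [this]
    fun_prop
  exact h2.comp_contDiffOn h1

/-- `d d = 0` -/
theorem closed_d1 {θ : V → V →L[ℝ] ℝ} {U : Set V} (hU : IsOpen U)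
    (hθ : ContDiffOn ℝ ∞ θ U) {z : V} (hz : z ∈ U) (a b c : V) :
    fderiv ℝ (d1 θ) z a b c + fderiv ℝ (d1 θ) z b c a + fderiv ℝ (d1 θ) z c a b = 0 := by
  have h0 : ContDiffAt ℝ ∞ θ z := hθ.contDiffAt (hU.mem_nhds hz)
  have h1 : DifferentiableAt ℝ (fderiv ℝ θ) z :=
    (h0.fderiv_right (m := ∞) (by simp)).differentiableAt (by simp)
  have h2 : ∀ p q r, fderiv ℝ (d1 θ) z p q r =
      fderiv ℝ (fderiv ℝ θ) z p q r - fderiv ℝ (fderiv ℝ θ) z p r q := by
    intro p q r
    have g1 : HasFDerivAt (fun y => fderiv ℝ θ y q) _ z :=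
      h1.hasFDerivAt.clm_apply (hasFDerivAt_const q z)
    have g2 : HasFDerivAt (fun y => fderiv ℝ θ y r) _ z :=
      h1.hasFDerivAt.clm_apply (hasFDerivAt_const r z)
    have g3 := (g1.clm_apply (hasFDerivAt_const r z)).sub (g2.clm_apply (hasFDerivAt_const q z))
    have g4 : DifferentiableAt ℝ (d1 θ) z :=
      ((contDiffOn_d1 hU hθ).contDiffAt (hU.mem_nhds hz)).differentiableAt (by simp)
    rw [← fderiv_app g4]
    have g5 : (fun y => d1 θ y q r) =
      (fun y => fderiv ℝ θ y q r) - fun y => fderiv ℝ θ y r q := rfl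
    rw [g5, g3.fderiv]
    simp
  rw [h2, h2, h2, Dif_268.symm2 h0 a b, Dif_268.symm2 h0 b c, Dif_268.symm2 h0 a c]
  ring

/-- exterior derivative of a global 1-form -/
def dO (η : F1 C) : F2 C where
  w i := d1 (η.η i)
  sm i := contDiffOn_d1 (C.e i).open_target (η.sm i)
  alt i z _ u v := by
    show fderiv ℝ (η.η i) z u v - fderiv ℝ (η.η i) z v u =
      -(fderiv ℝ (η.η i) z v u - fderiv ℝ (η.η i) z u v)
    ring
  tr i j z hz u v := by
    have hz' := (RCh.t_mem hz).1
    have h1 : η.η i =ᶠ[𝓝 z] pb1 (η.η j) (C.t i j) := by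
      filter_upwards [(RCh.isOpen_ov i j).mem_nhds hz] with y hy
      ext v
      exact η.tr i j y hy v
    have h2 := d_pb1 (θ := η.η j) (φ := C.t i j) (z := z) (F1dAt η hz')
      ((RCh.t_smooth i j).contDiffAt ((RCh.isOpen_ov i j).mem_nhds hz)) u v
    show fderiv ℝ (η.η i) z u v - fderiv ℝ (η.η i) z v u = _
    rw [h1.fderiv_eq]
    exact h2
  closed i _ hz a b c := closed_d1 (C.e i).open_target (η.sm i) hz a b c

theorem dO_w (η : F1 C) (i : C.ι) (z u v : V) :
    (dO η).w i z u v = fderiv ℝ (η.η i) z u v - fderiv ℝ (η.η i) z v u := rfl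

theorem isD_dO (η : F1 C) : IsD (dO η) η := fun _ _ _ _ _ => rfl

variable [Fintype C.ι] (P : PU C)

include P

theorem PU.zero_of_not_mem {a : C.ι} {x : X} (h : x ∉ (C.e a).source) : P.ψ a x = 0 := by
  by_contra h1
  exact h (P.sub a (subset_tsupport _ h1))

/-- **a form with trivial cocycle is exact** -/
theorem Rel.ex_of_cob {w : F2 C} {c : C.ι → C.ι → C.ι → ℝ} (h : Rel w c) (b : C.ι → C.ι → ℝ)
    (hb : ∀ i j k, ((C.e i).source ∩ (C.e j).source ∩ (C.e k).source).Nonempty →
      c i j k = b j k - b i k + b i j) : Ex w := by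
  classical
  obtain ⟨D, hU, hc⟩ := h
  have hsh : ∀ i a, ∀ z ∈ C.ov i a, z ∈ sh C i (D.U a) := fun i a z hz => by
    rw [hU]; exact hz
  set f' : C.ι → C.ι → X → ℝ := fun a d x => D.f a d x - b a d with hf'
  have hcoc : ∀ i j k, ∀ x ∈ (C.e i).source ∩ (C.e j).source ∩ (C.e k).source,
      f' i j x + f' j k x - f' i k x = 0 := by
    intro i j k x hx
    have e1 := hc i j k x hx
    rw [hb i j k ⟨x, hx⟩] at e1
    simp only [hf']
    linarith
  -- the derivative of `f'` in the chart `i`
  have hfd : ∀ a d i, ∀ z ∈ C.ov i a, z ∈ C.ov i d →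
      HasFDerivAt (fun y => f' a d ((C.e i).symm y)) (D.th d i z - D.th a i z) z := by
    intro a d i z hza hzd
    exact (D.f_d a d i z ⟨hza.1, (hsh i a z hza).2, (hsh i d z hzd).2⟩).sub_const _
  have hfs : ∀ a d i, ContDiffOn ℝ ∞ (fun y => f' a d ((C.e i).symm y)) (C.ov i a ∩ C.ov i d) := by
    intro a d i
    have e1 : ContDiffOn ℝ ∞ (fun z => D.th d i z - D.th a i z) (C.ov i a ∩ C.ov i d) := by
      refine ((D.th_sm d i).mono fun z hz => hsh i d z hz.2).sub
        ((D.th_sm a i).mono fun z hz => hsh i a z hz.1)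
    rw [contDiffOn_infty_iff_fderiv_of_isOpen ((RCh.isOpen_ov i a).inter (RCh.isOpen_ov i d))]
    refine ⟨fun z hz => (hfd a d i z hz.1 hz.2).differentiableAt.differentiableWithinAt, ?_⟩
    exact e1.congr fun z hz => (hfd a d i z hz.1 hz.2).fderiv
  -- the functions `g_a`
  set g : C.ι → X → ℝ := fun a x => -∑ d, P.ψ d x * f' a d x with hg
  have hgs : ∀ a i, ContDiffOn ℝ ∞ (fun y => g a ((C.e i).symm y)) (C.ov i a) := by
    intro a i
    have e1 : ∀ d, ContDiffOn ℝ ∞
        (fun y => P.ψ d ((C.e i).symm y) * f' a d ((C.e i).symm y)) (C.ov i a) := by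
      intro d z hz
      by_cases hd : (C.e i).symm z ∈ (C.e d).source
      · have hzd : z ∈ C.ov i d := ⟨hz.1, hd⟩
        have e2 := (hfs a d i).contDiffAt
          (((RCh.isOpen_ov i a).inter (RCh.isOpen_ov i d)).mem_nhds ⟨hz, hzd⟩)
        have e3 := (P.sm d i).contDiffAt ((C.e i).open_target.mem_nhds hz.1)
        exact (e3.mul e2).contDiffWithinAt
      · have hd' : (C.e i).symm z ∉ tsupport (P.ψ d) := fun h => hd (P.sub d h)
        have e2 : ∀ᶠ y in 𝓝 ((C.e i).symm z), P.ψ d y = 0 :=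
          notMem_tsupport_iff_eventuallyEq.1 hd'
        have e3 : ∀ᶠ y in 𝓝 z, P.ψ d ((C.e i).symm y) = 0 :=
          ((C.e i).continuousAt_symm hz.1).eventually e2
        have e4 : ContDiffAt ℝ ∞
            (fun y => P.ψ d ((C.e i).symm y) * f' a d ((C.e i).symm y)) z := by
          refine (contDiffAt_const (c := (0 : ℝ))).congr_of_eventuallyEq ?_
          filter_upwards [e3] with y hy
          rw [hy, zero_mul]
        exact e4.contDiffWithinAt
    exact (ContDiffOn.sum fun d _ => e1 d).neg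
  have hgab : ∀ a a', ∀ x ∈ (C.e a).source ∩ (C.e a').source, g a' x - g a x = f' a a' x := by
    intro a a' x hx
    have e1 : ∀ d, P.ψ d x * f' a d x - P.ψ d x * f' a' d x = P.ψ d x * f' a a' x := by
      intro d
      by_cases hd : x ∈ (C.e d).source
      · have := hcoc a a' d x ⟨hx, hd⟩
        rw [← mul_sub]
        congr 1
        linarith
      · rw [P.zero_of_not_mem hd]
        ring
    have e2 : g a' x - g a x = ∑ d, (P.ψ d x * f' a d x - P.ψ d x * f' a' d x) := by
      rw [Finset.sum_sub_distrib]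
      simp only [hg]
      ring
    rw [e2, Finset.sum_congr rfl fun d _ => e1 d, ← Finset.sum_mul, P.one, one_mul]
  have hgat : ∀ a i, ∀ z ∈ C.ov i a, ContDiffAt ℝ ∞ (fun y => g a ((C.e i).symm y)) z :=
    fun a i z hz => (hgs a i).contDiffAt ((RCh.isOpen_ov i a).mem_nhds hz)
  have hself : ∀ i, ∀ z ∈ (C.e i).target, z ∈ C.ov i i := fun i z hz => by
    rw [ov_self]; exact hz
  -- the global 1-form
  refine ⟨{
    η := fun i z => D.th i i z - fderiv ℝ (fun y => g i ((C.e i).symm y)) z
    sm := fun i => ?_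
    tr := fun i j z hz v => ?_ }, fun i z hz u v => ?_⟩
  · have e1 : ContDiffOn ℝ ∞ (D.th i i) (C.e i).target :=
      (D.th_sm i i).mono fun z hz => hsh i i z (hself i z hz)
    have e2 : ContDiffOn ℝ ∞ (fun y => g i ((C.e i).symm y)) (C.e i).target := by
      have := hgs i i
      rwa [ov_self] at this
    exact e1.sub (e2.fderiv_of_isOpen (C.e i).open_target (by simp))
  · have hzi : z ∈ C.ov i i := hself i z hz.1
    have ht : C.t i j z ∈ C.ov j j := by rw [ov_self]; exact (RCh.t_mem hz).1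
    -- `g_j` in the chart `i`
    have e1 : (fun y => g j ((C.e i).symm y)) =ᶠ[𝓝 z]
        (fun y => g j ((C.e j).symm y)) ∘ C.t i j := by
      filter_upwards [(RCh.isOpen_ov i j).mem_nhds hz] with y hy
      show _ = g j ((C.e j).symm (C.e j ((C.e i).symm y)))
      rw [(C.e j).left_inv hy.2]
    have e2 : fderiv ℝ (fun y => g j ((C.e i).symm y)) z v =
        fderiv ℝ (fun y => g j ((C.e j).symm y)) (C.t i j z) (fderiv ℝ (C.t i j) z v) := by
      rw [e1.fderiv_eq, fderiv_comp z ((hgat j j _ ht).differentiableAt (by simp))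
        (RCh.t_diff hz)]
      rfl
    have e3 := D.th_tr j i j z hz (hsh i j z hz).2 v
    have e4 : HasFDerivAt (fun y => f' i j ((C.e i).symm y)) _ z :=
      (((hgat j i z hz).differentiableAt (by simp)).hasFDerivAt.sub
        ((hgat i i z hzi).differentiableAt (by simp)).hasFDerivAt).congr_of_eventuallyEq (by
          filter_upwards [(RCh.isOpen_ov i j).mem_nhds hz] with y hy
          exact (hgab i j _ ⟨(C.e i).map_target hy.1, hy.2⟩).symm)
    have e5 := congrArg (fun T : V →L[ℝ] ℝ => T v) (e4.unique (hfd i j i z hzi hz))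
    simp only [sub_apply] at e5 ⊢
    rw [← e2, ← e3]
    linarith
  · have hzi : z ∈ C.ov i i := hself i z hz
    have e1 := D.th_diffAt (hsh i i z hzi)
    have e2 : DifferentiableAt ℝ (fderiv ℝ (fun y => g i ((C.e i).symm y))) z :=
      ((hgat i i z hzi).fderiv_right (m := ∞) (by simp)).differentiableAt (by simp)
    have e3 : fderiv ℝ (fun z => D.th i i z - fderiv ℝ (fun y => g i ((C.e i).symm y)) z) z = _ :=
      (e1.hasFDerivAt.sub e2.hasFDerivAt).fderiv
    have e4 := D.th_d i i z (hsh i i z hzi) u v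
    have e5 := symm_dd (hgat i i z hzi) u v
    rw [e3]
    simp only [sub_apply]
    linarith

/-- **every real cocycle comes from a closed 2-form** -/
theorem exists_of_coc (c : C.ι → C.ι → C.ι → ℝ)
    (hc : ∀ i j k l, ((C.e i).source ∩ (C.e j).source ∩ (C.e k).source ∩ (C.e l).source).Nonempty →
      c j k l - c i k l + c i j l - c i j k = 0) : ∃ w : F2 C, Rel w c := by
  classical
  -- the functions
  set f : C.ι → C.ι → X → ℝ := fun a b x => ∑ d, P.ψ d x * c a b d with hf
  have hfs : ∀ a b, SmF C (f a b) := fun a b i =>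
    ContDiffOn.sum fun d _ => (P.sm d i).mul contDiffOn_const
  have hcoc : ∀ i j k, ∀ x ∈ (C.e i).source ∩ (C.e j).source ∩ (C.e k).source,
      f i j x + f j k x - f i k x = c i j k := by
    intro i j k x hx
    have e1 : ∀ d, P.ψ d x * c i j d + P.ψ d x * c j k d - P.ψ d x * c i k d =
        P.ψ d x * c i j k := by
      intro d
      by_cases hd : x ∈ (C.e d).source
      · have := hc i j k d ⟨x, hx, hd⟩
        linear_combination P.ψ d x * this
      · rw [P.zero_of_not_mem hd]
        ring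
    have e2 : f i j x + f j k x - f i k x =
        ∑ d, (P.ψ d x * c i j d + P.ψ d x * c j k d - P.ψ d x * c i k d) := by
      rw [Finset.sum_sub_distrib, Finset.sum_add_distrib]
    rw [e2, Finset.sum_congr rfl fun d _ => e1 d, ← Finset.sum_mul, P.one, one_mul]
  -- the 1-forms
  set θ : C.ι → F1 C := fun a =>
    { η := fun i z => -∑ d, P.ψ d ((C.e i).symm z) • (dF (hfs a d)).η i z
      sm := fun i => (ContDiffOn.sum fun d _ => (P.sm d i).smul ((dF (hfs a d)).sm i)).neg
      tr := fun i j z hz v => by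
        simp only [neg_apply, sum_apply, smul_apply]
        congr 1
        refine Finset.sum_congr rfl fun d _ => ?_
        have e1 : (C.e j).symm (C.t i j z) = (C.e i).symm z := (C.e j).left_inv hz.2
        rw [(dF (hfs a d)).tr i j z hz, e1] } with hθ
  have hdf : ∀ a b i, ∀ z ∈ C.ov i a, z ∈ C.ov i b →
      (θ b).η i z - (θ a).η i z = fderiv ℝ (fun y => f a b ((C.e i).symm y)) z := by
    intro a b i z hza hzb
    have hzt : z ∈ (C.e i).target := hza.1
    have e1 : ∀ d, P.ψ d ((C.e i).symm z) • (dF (hfs a d)).η i z -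
        P.ψ d ((C.e i).symm z) • (dF (hfs b d)).η i z =
        P.ψ d ((C.e i).symm z) • fderiv ℝ (fun y => f a b ((C.e i).symm y)) z := by
      intro d
      by_cases hd : (C.e i).symm z ∈ (C.e d).source
      · have hzd : z ∈ C.ov i d := ⟨hzt, hd⟩
        rw [← smul_sub]
        congr 1
        have e2 : (fun y => f a b ((C.e i).symm y)) =ᶠ[𝓝 z] fun y =>
            f a d ((C.e i).symm y) - f b d ((C.e i).symm y) + c a b d := by
          filter_upwards [(RCh.isOpen_ov i a).mem_nhds hza, (RCh.isOpen_ov i b).mem_nhds hzb,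
            (RCh.isOpen_ov i d).mem_nhds hzd] with y h1 h2 h3
          have := hcoc a b d _ ⟨⟨h1.2, h2.2⟩, h3.2⟩
          linarith
        have e3 : HasFDerivAt (fun y =>
            f a d ((C.e i).symm y) - f b d ((C.e i).symm y) + c a b d) _ z :=
          (((hfs a d).hasF hzt).sub ((hfs b d).hasF hzt)).add_const (c a b d)
        rw [e2.fderiv_eq, e3.fderiv]
        rfl
      · rw [P.zero_of_not_mem hd]
        simp
    have e2 : (θ b).η i z - (θ a).η i z = ∑ d, (P.ψ d ((C.e i).symm z) • (dF (hfs a d)).η i z -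
        P.ψ d ((C.e i).symm z) • (dF (hfs b d)).η i z) := by
      rw [Finset.sum_sub_distrib]
      simp only [hθ]
      abel
    rw [e2, Finset.sum_congr rfl fun d _ => e1 d, ← Finset.sum_smul, P.one, one_smul]
  -- the exterior derivatives agree on overlaps
  have hdd : ∀ a b i, ∀ z ∈ C.ov i a, z ∈ C.ov i b → ∀ u v,
      (dO (θ b)).w i z u v = (dO (θ a)).w i z u v := by
    intro a b i z hza hzb u v
    have hzt : z ∈ (C.e i).target := hza.1
    have e1 : (θ b).η i =ᶠ[𝓝 z] fun y => (θ a).η i y +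
        fderiv ℝ (fun y => f a b ((C.e i).symm y)) y := by
      filter_upwards [(RCh.isOpen_ov i a).mem_nhds hza, (RCh.isOpen_ov i b).mem_nhds hzb]
        with y h1 h2
      rw [← hdf a b i y h1 h2]
      abel
    have e2 : DifferentiableAt ℝ (fderiv ℝ (fun y => f a b ((C.e i).symm y))) z :=
      (((hfs a b).at hzt).fderiv_right (m := ∞) (by simp)).differentiableAt (by simp)
    have e3 : HasFDerivAt (fun y => (θ a).η i y +
        fderiv ℝ (fun y => f a b ((C.e i).symm y)) y) _ z :=
      (F1dAt (θ a) hzt).hasFDerivAt.add e2.hasFDerivAt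
    have e5 := symm_dd ((hfs a b).at hzt) u v
    rw [dO_w, dO_w, e1.fderiv_eq, e3.fderiv]
    simp only [add_apply]
    linarith
  have hself : ∀ i, ∀ z ∈ (C.e i).target, z ∈ C.ov i i := fun i z hz => by
    rw [ov_self]; exact hz
  let w : F2 C :=
    { w := fun i => (dO (θ i)).w i
      sm := fun i => (dO (θ i)).sm i
      alt := fun i => (dO (θ i)).alt i
      tr := fun i j z hz u v => by
        rw [← (dO (θ j)).tr i j z hz u v]
        exact (hdd i j i z (hself i z hz.1) hz u v).symm
      closed := fun i => (dO (θ i)).closed i }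
  refine ⟨w, ⟨{
    U := fun a => (C.e a).source
    op := fun a => (C.e a).open_source
    cov := C.cover
    th := fun a i => (θ a).η i
    th_sm := fun a i => ((θ a).sm i).mono fun z hz => hz.1
    th_tr := fun a i j z hz _ u => (θ a).tr i j z hz u
    th_d := fun a i z hz u v => ?_
    f := f
    f_d := fun a b i z hz => ?_ }, fun i => rfl, hcoc⟩⟩
  · have hza : z ∈ C.ov i a := hz
    show (dO (θ a)).w i z u v = (dO (θ i)).w i z u v
    exact hdd i a i z (hself i z hz.1) hza u v
  · have hza : z ∈ C.ov i a := ⟨hz.1, hz.2.1⟩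
    have hzb : z ∈ C.ov i b := ⟨hz.1, hz.2.2⟩
    rw [hdf a b i z hza hzb]
    exact (hfs a b).hasF hz.1

end

end Crest.Agent.R281.Cdr_234
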