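import Crest.Agent.R281.AlgDefs_998
import Crest.Agent.R281.Nef3_252

/-!
# Row 281, CHART-END, part 1 (helper551): rotation invariant bookkeeping

* `Rp H c x`      : the class `c` has the coordinates `x` in the triple `H`: `c ~ ∑ x k • H.om k`
* `Iso2 a b H H'` : the complex symplectic structures `⟨a, b⟩` of `H` and `H'` are isotopic:
  inverse diffeomorphisms, trivial on classes, which carry the representatives of `a`, `b`
* `QHk C Q`       : what is used about the form `Q`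
* `Iso2.refl`, `Iso2.symm`, `Iso2.trans`, `Iso2.of_eqv`
-/

set_option autoImplicit false
set_option linter.unusedSectionVars false

open Set Filter Topology
open scoped ContDiff

namespace Crest.Agent.R281.Ce_551

open Crest.Agent.R281.HkR_835 Crest.Agent.R281.Ti_846 Crest.Agent.R281.Alg_998
open Crest.Agent.R281.Dif_268 Crest.Agent.R281.Nef_252 Crest.Agent.R281.NefO_476

noncomputable section

variable {V X : Type} [NormedAddCommGroup V] [NormedSpace ℝ V] [TopologicalSpace X]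
  {C : RCh V X}

/-! ### classes -/

theorem cl_eqv {w w' : F2 C} (h : Eqv w w') : Cl w w' :=
  Cl.of_eq_on fun i z hz => by
    ext u v
    exact h i z hz u v

theorem lin_eqv {n : ℕ} (a : Fin n → ℝ) {w w' : Fin n → F2 C} (h : ∀ k, Eqv (w k) (w' k)) :
    Eqv (F2.lin a w) (F2.lin a w') := fun i z hz u v => by
  rw [F2.lin_w, F2.lin_w]
  exact Finset.sum_congr rfl fun k _ => by rw [h k i z hz]

theorem lin3_w (x : Fin 3 → ℝ) (om : Fin 3 → F2 C) (i : C.ι) (z u v : V) :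
    (F2.lin x om).w i z u v =
      x 0 * (om 0).w i z u v + x 1 * (om 1).w i z u v + x 2 * (om 2).w i z u v := by
  rw [F2.lin_w, Fin.sum_univ_three]

theorem lin3_eq (x : Fin 3 → ℝ) (om : Fin 3 → F2 C) :
    F2.lin x om = x 0 • om 0 + x 1 • om 1 + x 2 • om 2 := by
  rw [F2.lin_eq, Fin.sum_univ_three]

/-- the class `c` has the coordinates `x` in the triple `H` -/
def Rp (H : HkT C) (c : F2 C) (x : Fin 3 → ℝ) : Prop := Cl c (F2.lin x H.om)

/-- the complex symplectic structures `⟨a, b⟩` of `H` and `H'` are isotopic -/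
def Iso2 (a b : F2 C) (H H' : HkT C) : Prop :=
  ∃ (φ ψ : SMap C C) (x x' y y' : Fin 3 → ℝ), Bi φ ψ ∧ (∀ w : F2 C, Cl (φ.pull w) w) ∧
    Rp H a x ∧ Rp H' a x' ∧ Rp H b y ∧ Rp H' b y' ∧
    Eqv (φ.pull (F2.lin x' H'.om)) (F2.lin x H.om) ∧
    Eqv (φ.pull (F2.lin y' H'.om)) (F2.lin y H.om)

/-- what is used about the Beauville-Bogomolov-Fujiki form -/
structure QHk (C : RCh V X) (Q : F2 C →ₗ[ℝ] F2 C →ₗ[ℝ] ℝ) : Prop where
  symm : ∀ a b, Q a b = Q b a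
  ex : ∀ a b, Ex a → Q a b = 0
  ort : ∀ (H : HkT C) (k l : Fin 3), k ≠ l → Q (H.om k) (H.om l) = 0
  nrm : ∀ (H : HkT C) (k : Fin 3), Q (H.om k) (H.om k) = Q (H.om 0) (H.om 0)

namespace QHk

variable {Q : F2 C →ₗ[ℝ] F2 C →ₗ[ℝ] ℝ} (hQ : QHk C Q)

include hQ

theorem cl_left {a a' : F2 C} (h : Cl a a') (b : F2 C) : Q a b = Q a' b := by
  have := hQ.ex _ b h
  rw [map_sub, LinearMap.sub_apply, sub_eq_zero] at this
  exact this

theorem cl_right {b b' : F2 C} (h : Cl b b') (a : F2 C) : Q a b = Q a b' := by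
  rw [hQ.symm, hQ.cl_left h, hQ.symm]

theorem lin_left (H : HkT C) (x : Fin 3 → ℝ) (b : F2 C) :
    Q (F2.lin x H.om) b = x 0 * Q (H.om 0) b + x 1 * Q (H.om 1) b + x 2 * Q (H.om 2) b := by
  rw [lin3_eq]
  simp

theorem lin_om (H : HkT C) (x : Fin 3 → ℝ) (k : Fin 3) :
    Q (F2.lin x H.om) (H.om k) = x k * Q (H.om 0) (H.om 0) := by
  rw [hQ.lin_left]
  fin_cases k
  · simp [hQ.ort H 1 0 (by decide), hQ.ort H 2 0 (by decide)]
  · simp [hQ.ort H 0 1 (by decide), hQ.ort H 2 1 (by decide), hQ.nrm H 1]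
  · simp [hQ.ort H 0 2 (by decide), hQ.ort H 1 2 (by decide), hQ.nrm H 2]

theorem lin_lin (H : HkT C) (x y : Fin 3 → ℝ) :
    Q (F2.lin x H.om) (F2.lin y H.om) =
      (x 0 * y 0 + x 1 * y 1 + x 2 * y 2) * Q (H.om 0) (H.om 0) := by
  rw [hQ.symm, hQ.lin_left, hQ.symm (H.om 0), hQ.symm (H.om 1), hQ.symm (H.om 2), hQ.lin_om,
    hQ.lin_om, hQ.lin_om]
  ring

theorem rp_val {H : HkT C} {a b : F2 C} {x y : Fin 3 → ℝ} (h : Rp H a x) (h' : Rp H b y) :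
    Q a b = (x 0 * y 0 + x 1 * y 1 + x 2 * y 2) * Q (H.om 0) (H.om 0) := by
  rw [hQ.cl_left h, hQ.cl_right h', hQ.lin_lin]

/-- a positive class in the plane of `H`: the plane is positive -/
theorem rp_pos {H : HkT C} {a : F2 C} {x : Fin 3 → ℝ} (h : Rp H a x) (ha : 0 < Q a a) :
    0 < Q (H.om 0) (H.om 0) := by
  rw [hQ.rp_val h h] at ha
  by_contra h0
  have h1 : 0 ≤ x 0 * x 0 + x 1 * x 1 + x 2 * x 2 :=
    add_nonneg (add_nonneg (mul_self_nonneg _) (mul_self_nonneg _)) (mul_self_nonneg _)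
  have := mul_nonpos_of_nonneg_of_nonpos h1 (not_lt.1 h0)
  linarith

/-- the coordinates are determined by the class -/
theorem rp_coord {H : HkT C} (h0 : 0 < Q (H.om 0) (H.om 0)) {c : F2 C} {x : Fin 3 → ℝ}
    (h : Rp H c x) (k : Fin 3) : x k = Q c (H.om k) / Q (H.om 0) (H.om 0) := by
  rw [hQ.cl_left h, hQ.lin_om, mul_div_cancel_right₀ _ h0.ne']

theorem rp_uniq {H : HkT C} (h0 : 0 < Q (H.om 0) (H.om 0)) {c : F2 C} {x x' : Fin 3 → ℝ}
    (h : Rp H c x) (h' : Rp H c x') : x = x' := by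
  funext k
  rw [hQ.rp_coord h0 h, hQ.rp_coord h0 h']

end QHk

/-! ### isotopic structures -/

variable {a b : F2 C} {H H' H'' : HkT C}

theorem pull_idc (w : F2 C) : Cl ((SMap.id C).pull w) w := cl_eqv (pull_id w)

theorem bi_id : Bi (SMap.id C) (SMap.id C) := ⟨fun _ => rfl, fun _ => rfl⟩

theorem Iso2.of_eqv {x x' y y' : Fin 3 → ℝ} (h1 : Rp H a x) (h2 : Rp H' a x') (h3 : Rp H b y)
    (h4 : Rp H' b y') (e1 : Eqv (F2.lin x' H'.om) (F2.lin x H.om))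
    (e2 : Eqv (F2.lin y' H'.om) (F2.lin y H.om)) : Iso2 a b H H' :=
  ⟨SMap.id C, SMap.id C, x, x', y, y', bi_id, pull_idc, h1, h2, h3, h4,
    (pull_id _).trans e1, (pull_id _).trans e2⟩

theorem Iso2.refl {x y : Fin 3 → ℝ} (h1 : Rp H a x) (h3 : Rp H b y) : Iso2 a b H H :=
  .of_eqv h1 h1 h3 h3 (Eqv.refl _) (Eqv.refl _)

theorem cl_pull_inv {φ ψ : SMap C C} (hb : Bi φ ψ) (h : ∀ w : F2 C, Cl (φ.pull w) w) (w : F2 C) :
    Cl (ψ.pull w) w :=
  (h (ψ.pull w)).symm.trans (cl_eqv (hb.symm.pull_pull w))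

theorem Iso2.symm (h : Iso2 a b H H') : Iso2 a b H' H := by
  obtain ⟨φ, ψ, x, x', y, y', hb, hc, h1, h2, h3, h4, e1, e2⟩ := h
  refine ⟨ψ, φ, x', x, y', y, hb.symm, cl_pull_inv hb hc, h2, h1, h4, h3, ?_, ?_⟩
  · exact (e1.symm.pull ψ).trans (hb.pull_pull _)
  · exact (e2.symm.pull ψ).trans (hb.pull_pull _)

theorem Iso2.trans {Q : F2 C →ₗ[ℝ] F2 C →ₗ[ℝ] ℝ} (hQ : QHk C Q) (ha : 0 < Q a a)
    (h : Iso2 a b H H') (h' : Iso2 a b H' H'') : Iso2 a b H H'' := by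
  obtain ⟨φ, ψ, x, x', y, y', hb, hc, h1, h2, h3, h4, e1, e2⟩ := h
  obtain ⟨φ', ψ', z, z', t, t', hb', hc', k1, k2, k3, k4, f1, f2⟩ := h'
  have h0 := hQ.rp_pos h2 ha
  obtain rfl := hQ.rp_uniq h0 h2 k1
  obtain rfl := hQ.rp_uniq h0 h4 k3
  refine ⟨φ'.comp φ, ψ.comp ψ', x, z', y, t', ⟨fun p => ?_, fun p => ?_⟩, fun w => ?_, h1, k2,
    h3, k4, ?_, ?_⟩
  · show φ'.f (φ.f (ψ.f (ψ'.f p))) = p
    rw [hb.gk, hb'.gk]
  · show ψ.f (ψ'.f (φ'.f (φ.f p))) = p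
    rw [hb'.kg, hb.kg]
  · exact (cl_eqv (pull_comp φ' φ w)).trans ((hc _).trans (hc' w))
  · exact (pull_comp φ' φ _).trans ((f1.pull φ).trans e1)
  · exact (pull_comp φ' φ _).trans ((f2.pull φ).trans e2)

end

end Crest.Agent.R281.Ce_551
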