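import Crest.Agent.R281.HkM1_835
import Crest.Agent.R281.KpK_487

/-!
# Row 281, HK-MOVE0, part 2 (helper835): one Yau move on the real triple

* `move0` : `H : HkT C`, `A` a holomorphic atlas of `J 0`, `K1` a Kaehler metric on `A`, the
  holomorphic 2-forms of `A` are the multiples of `σ`: there is `H' : HkT C` with the same `J 0`,
  `om 1`, `om 2` multiplied by `r > 0`, and `om 0` in the class of `K1`.
-/

set_option autoImplicit false
set_option linter.unusedSectionVars false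

open Set Filter Topology Complex
open scoped ContDiff Matrix ComplexConjugate ComplexOrder InnerProductSpace

namespace Crest.Agent.R281.HkR_835

open Crest.Agent.R275.Geo Crest.Agent.R275.Core144 Crest.Agent.R275.EDR890
open Crest.Agent.R275.GC293
open Crest.Agent.R273.Defs_333
open Crest.Agent.R273.Kah_333 Crest.Agent.R273.Hess_333 Crest.Agent.R281.Defs_273
open Crest.Agent.R273.NoHVF_376
open Crest.Agent.R273.Vol_333 (addK Yau)
open Crest.Agent.R260.ACM_580 Crest.Agent.R260.NNB_580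
open Crest.Agent.R281.HkP1_508 Crest.Agent.R281.HkP2_508 Crest.Agent.R281.HkP3_508
open Crest.Agent.R281.Ti_846 Crest.Agent.R281.Dif_268 Crest.Agent.R281.Cdr_234

noncomputable section

variable {d : ℕ} {X : Type} [TopologicalSpace X] {A : Atl d X}

theorem eqvA {w w' : F2 (ofAtl A)}
    (h : ∀ (i : A.ι), ∀ z ∈ (A.e i).target, ∀ u v, w.w i z u v = w'.w i z u v) : Eqv w w' := h

/-- `Re (c σ)` for `c` real multiples: `Re (r c σ) = r Re (c σ)` -/
theorem f2H_smul {σ τ : H2 A} {r : ℝ} (hσ : ClH σ) (hτ : ClH τ)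
    (h : ∀ i x, τ.s i x = (r : ℂ) • σ.s i x) : Eqv (f2H τ hτ) (r • f2H σ hσ) := by
  refine eqvA fun i z _ u v => ?_
  have e : (r • f2H σ hσ).w i z u v = r * (f2H σ hσ).w i z u v := rfl
  have e1 : sl τ i z = (r : ℂ) • sl σ i z := h i _
  rw [e, f2H_w, f2H_w, e1, sb_smul, Complex.re_ofReal_mul]

variable {V : Type} [NormedAddCommGroup V] [NormedSpace ℝ V] {C : RCh V X}

/-- the triple in the charts of the holomorphic atlas -/
def HkT.onA (H : HkT C) (hA : Cp (H.acm 0) A) : HkT (ofAtl A) := (cmp_of_cp hA).hk H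

theorem onA_J (H : HkT C) (hA : Cp (H.acm 0) A) (j : A.ι) (z : Cn d) (hz : z ∈ (A.e j).target)
    (v : Cn d) : (H.onA hA).J 0 j z v = I • v := hk_J_I hA j hz v

/-- the holomorphic symplectic form of the first complex structure -/
def HkT.sig (H : HkT C) (hA : Cp (H.acm 0) A) : HSymp A := (H.onA hA).S0s (onA_J H hA)

/-- the Kaehler metric of the first complex structure -/
def HkT.kah (H : HkT C) (hA : Cp (H.acm 0) A) : Kah A := (H.onA hA).K0 (onA_J H hA)

theorem move0 [T2Space X] [CompactSpace X] [Finite A.ι] (P : Part A) (Y : Yau A) (H : HkT C)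
    (hA : Cp (H.acm 0) A) (hu : (H.sig hA).Uniq) (K1 : Kah A) :
    ∃ (H' : HkT C) (r : ℝ), 0 < r ∧
      (∀ i, ∀ z ∈ (C.e i).target, ∀ v, H'.J 0 i z v = H.J 0 i z v) ∧
      Eqv (H'.om 1) (r • H.om 1) ∧ Eqv (H'.om 2) (r • H.om 2) ∧
      Ex (H'.om 0 - (cmp_of_cp hA).symm.F (ofKah K1).f2) := by
  obtain ⟨u, hs, hp, r, hr, h0, hk⟩ := exists_HK_class P Y K1 (H.sig hA) hu
  set h := cmp_of_cp hA with hh
  set H1 : HkT (ofAtl A) := HkT.ofHK hk with hH1
  have hc : ClH (H.sig hA).toH2 := S0_cl (H.onA hA) (onA_J H hA)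
  have hc2 : ClH (csm (-I) (H.sig hA).toH2) := csm_cl hc _
  have hcr : ClH (smulHS (r : ℂ) hr (H.sig hA)).toH2 := fun i _ hz a b c => hk.closed i hz a b c
  have key : ∀ (k : Fin 3), Eqv (H1.om k) (r • (H.onA hA).om k) →
      Eqv ((h.symm.hk H1).om k) (r • H.om k) := by
    intro k e1
    have e4 : Eqv ((h.symm.hk H1).om k) (h.symm.F (r • (H.onA hA).om k)) := F_eqv e1
    have e5 : Eqv (h.symm.F (r • (H.onA hA).om k)) (r • h.symm.F ((H.onA hA).om k)) :=
      F_smul _ _ _
    refine e4.trans (e5.trans fun i z hz u v => ?_)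
    show r * (h.symm.F (h.F (H.om k))).w i z u v = r * (H.om k).w i z u v
    rw [F_F h (H.om k) i z hz]
  refine ⟨h.symm.hk H1, r, h0, ?_, key 1 ?_, key 2 ?_, ?_⟩
  · intro i z hz v
    obtain ⟨j, hj⟩ := Cmp.exists_mov (C' := C) (ofAtl A) (j := i) hz
    refine h.symm.inj hj ?_
    rw [Cmp.hk_J H1 h.symm 0 hj]
    exact ((hA j).lin i z hj v).symm
  · have e2 : Eqv (H1.om 1) (r • f2H (H.sig hA).toH2 hc) :=
      f2H_smul hc hcr fun i x => rfl
    refine e2.trans (eqvA fun i z hz u v => ?_)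
    have := S0_om1 (H.onA hA) (onA_J H hA) hz
    show r * (f2H (H.sig hA).toH2 hc).w i z u v = r * ((H.onA hA).om 1).w i z u v
    rw [← this]
    rfl
  · have e2 : Eqv (H1.om 2) (r • f2H (csm (-I) (H.sig hA).toH2) hc2) :=
      f2H_smul hc2 (csm_cl hcr (-I)) fun i x => smul_comm _ _ _
    refine e2.trans (eqvA fun i z hz u v => ?_)
    have := S0_om2 (H.onA hA) (onA_J H hA) hz
    show r * (f2H (csm (-I) (H.sig hA).toH2) hc2).w i z u v = r * ((H.onA hA).om 2).w i z u v
    rw [← this]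
    rfl
  · have e1 : Ex ((ofKah (addK K1 u hs hp)).f2 - (ofKah K1).f2) :=
      ex_of_hsf hs fun i x _ => rfl
    have e2 : Ex (h.symm.F ((ofKah (addK K1 u hs hp)).f2 - (ofKah K1).f2)) := ex_F h.symm e1
    exact (F_sub h.symm _ _).ex e2

end

end Crest.Agent.R281.HkR_835
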