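import Crest.Agent.R281.OpG5_941
import Crest.Agent.R281.HkM2_835

/-!
# R281 (S0424), OPEN' (helper474): the Ricci flat metric at the centre
-/

set_option autoImplicit false
set_option linter.unusedSectionVars false

open Set

namespace Crest.Agent.R281.Sk_474

open Crest.Agent.R275.Geo Crest.Agent.R275.Core144 Crest.Agent.R275.EDR890
open Crest.Agent.R273.Kah_333
open Crest.Agent.R281.HkR_835 Crest.Agent.R281.Rkd_386 Crest.Agent.R260.NNB_580 Crest.Agent.R260.ACM_580

/-- **the Ricci flat metric at the centre** -/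
theorem centreP : OpG_941.CentreP := by
  intro n X _ _ _ _ C H A _ _ _ _ hJ
  have hp : Cp (H.acm 0) A := cp_of_jc hJ
  have h := ric0 (H.onA hp) (onA_J H hp)
  refine ⟨H.kah hp, fun i x hx => ?_⟩
  exact h i x hx

end Crest.Agent.R281.Sk_474
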