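import Mathlib

/-!
# R281, UNIQ-U1 (helper310): conjugating a smooth point of an algebraic set by `σ : ℂ ≃+* ℂ`, part 1

Tools (Mathlib only): derivative of a polynomial function, Taylor polynomials of curves,
`f(s) = O(s^m)` for polynomials, identity theorem along lines.
-/

set_option autoImplicit false
set_option linter.unusedSectionVars false

open Set Filter Topology Asymptotics

namespace Crest.Agent.R281.CjL_310

noncomputable section

/-! ### the derivative of a polynomial function -/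

section Der

variable {κ : Type*} [Fintype κ]

/-- the derivative of `y ↦ p(y)` at `v`, as a continuous linear map -/
def dv (p : MvPolynomial κ ℂ) (v : κ → ℂ) : (κ → ℂ) →L[ℂ] ℂ :=
  ∑ k, MvPolynomial.eval v (MvPolynomial.pderiv k p) •
    (ContinuousLinearMap.proj (R := ℂ) (φ := fun _ : κ => ℂ) k)

theorem dv_apply (p : MvPolynomial κ ℂ) (v t : κ → ℂ) :
    dv p v t = ∑ k, MvPolynomial.eval v (MvPolynomial.pderiv k p) * t k := by
  simp [dv]

theorem dv_add (p q : MvPolynomial κ ℂ) (v : κ → ℂ) : dv (p + q) v = dv p v + dv q v := by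
  ext t
  simp [dv_apply, add_mul, Finset.sum_add_distrib]

theorem dv_smul (a : ℂ) (p : MvPolynomial κ ℂ) (v : κ → ℂ) : dv (a • p) v = a • dv p v := by
  ext t
  simp [dv_apply, mul_assoc, Finset.mul_sum]

theorem hasFDerivAt_eval (p : MvPolynomial κ ℂ) (v : κ → ℂ) :
    HasFDerivAt (fun y : κ → ℂ => MvPolynomial.eval y p) (dv p v) v := by
  classical
  induction p using MvPolynomial.induction_on with
  | C a =>
    have h0 : dv (MvPolynomial.C a : MvPolynomial κ ℂ) v = 0 := by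
      ext t
      simp [dv_apply]
    have h1 : (fun z : κ → ℂ => MvPolynomial.eval z (MvPolynomial.C a)) = fun _ => a := by
      funext z
      exact MvPolynomial.eval_C a
    rw [h0, h1]
    exact hasFDerivAt_const a v
  | add p q hp hq =>
    have h1 : (fun z => MvPolynomial.eval z (p + q)) = fun z =>
        MvPolynomial.eval z p + MvPolynomial.eval z q := by
      funext z
      rw [map_add]
    rw [dv_add, h1]
    exact hp.fun_add hq
  | mul_X p k hp =>
    have hk : HasFDerivAt (fun z : κ → ℂ => z k)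
        (ContinuousLinearMap.proj (R := ℂ) (φ := fun _ : κ => ℂ) k) v :=
      (ContinuousLinearMap.proj (R := ℂ) (φ := fun _ : κ => ℂ) k).hasFDerivAt
    have h1 := hp.fun_mul hk
    have h2 : (fun z : κ → ℂ => MvPolynomial.eval z (p * MvPolynomial.X k)) = fun z =>
        MvPolynomial.eval z p * z k := by
      funext z
      rw [map_mul, MvPolynomial.eval_X]
    rw [h2]
    refine h1.congr_fderiv ?_
    ext t
    simp only [add_apply, smul_apply, smul_eq_mul,
      ContinuousLinearMap.proj_apply, dv_apply]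
    have h3 : ∀ l, MvPolynomial.eval v (MvPolynomial.pderiv l (p * MvPolynomial.X k)) * t l =
        (if l = k then MvPolynomial.eval v p * t k else 0) +
          v k * (MvPolynomial.eval v (MvPolynomial.pderiv l p) * t l) := by
      intro l
      rw [Derivation.leibniz, map_add, smul_eq_mul, smul_eq_mul, map_mul, map_mul,
        MvPolynomial.eval_X]
      by_cases hl : l = k
      · subst hl
        rw [MvPolynomial.pderiv_X_self, map_one, mul_one, if_pos rfl]
        ring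
      · rw [MvPolynomial.pderiv_X_of_ne (Ne.symm hl), map_zero, mul_zero, if_neg hl]
        ring
    rw [Finset.sum_congr rfl fun l _ => h3 l, Finset.sum_add_distrib,
      Finset.sum_ite_eq' Finset.univ, if_pos (Finset.mem_univ _), Finset.mul_sum]

theorem analyticAt_eval (p : MvPolynomial κ ℂ) (v : κ → ℂ) :
    AnalyticAt ℂ (fun y : κ → ℂ => MvPolynomial.eval y p) v :=
  AnalyticOnNhd.eval_mvPolynomial p v (mem_univ v)

/-- conjugate of a point -/
theorem eval_conj (σ : ℂ →+* ℂ) (p : MvPolynomial κ ℂ) (v : κ → ℂ) :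
    MvPolynomial.eval (fun k => σ (v k)) (MvPolynomial.map σ p) = σ (MvPolynomial.eval v p) := by
  have h := MvPolynomial.map_eval σ v p
  exact h.symm

theorem dv_conj (σ : ℂ →+* ℂ) (p : MvPolynomial κ ℂ) (v t : κ → ℂ) :
    dv (MvPolynomial.map σ p) (fun k => σ (v k)) (fun k => σ (t k)) = σ (dv p v t) := by
  rw [dv_apply, dv_apply, map_sum]
  refine Finset.sum_congr rfl fun k _ => ?_
  rw [map_mul, MvPolynomial.pderiv_map, eval_conj]

/-- **combination of the equations with a prescribed derivative** -/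
theorem exists_comb {E : Set (MvPolynomial κ ℂ)} {v : κ → ℂ} (l : (κ → ℂ) →ₗ[ℂ] ℂ)
    (h : ∀ t, (∀ p ∈ E, dv p v t = 0) → l t = 0) :
    ∃ Q ∈ Submodule.span ℂ E, ∀ t, dv Q v t = l t := by
  let L : MvPolynomial κ ℂ →ₗ[ℂ] Module.Dual ℂ (κ → ℂ) :=
    { toFun := fun p => (dv p v : (κ → ℂ) →ₗ[ℂ] ℂ)
      map_add' := fun p q => by
        rw [dv_add]
        rfl
      map_smul' := fun a p => by
        rw [dv_smul]
        rfl }
  let W : Submodule ℂ (Module.Dual ℂ (κ → ℂ)) := (Submodule.span ℂ E).map L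
  have h1 : l ∈ W.dualCoannihilator.dualAnnihilator := by
    rw [Submodule.mem_dualAnnihilator]
    intro t ht
    rw [Submodule.mem_dualCoannihilator] at ht
    refine h t fun p hp => ?_
    exact ht (L p) (Submodule.mem_map_of_mem (Submodule.subset_span hp))
  rw [Subspace.dualCoannihilator_dualAnnihilator_eq] at h1
  obtain ⟨Q, hQ, hQl⟩ := h1
  exact ⟨Q, hQ, fun t => by rw [← hQl]; rfl⟩

end Der

/-! ### curves -/

section Curve

/-- Taylor polynomials of an analytic curve -/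
theorem exists_taylor {κ : Type*} [Fintype κ] {c : ℂ → κ → ℂ} (hc : AnalyticAt ℂ c 0) (m : ℕ) :
    ∃ P : κ → Polynomial ℂ, (fun s => c s - fun k => (P k).eval s) =O[𝓝 0] fun s : ℂ => s ^ m := by
  obtain ⟨p, hp⟩ := hc
  have h := hp.isBigO_sub_partialSum_pow m
  refine ⟨fun k => ∑ j ∈ Finset.range m, Polynomial.C (p.coeff j k) * Polynomial.X ^ j, ?_⟩
  have h2 : (fun s : ℂ => ‖s‖ ^ m) = fun s => ‖s ^ m‖ := by
    funext s
    rw [norm_pow]
  rw [h2] at h
  refine (isBigO_norm_right.1 h).congr_left fun s => ?_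
  rw [zero_add]
  congr 1
  funext k
  simp only [FormalMultilinearSeries.partialSum, FormalMultilinearSeries.apply_eq_pow_smul_coeff,
    Finset.sum_apply, Pi.smul_apply, smul_eq_mul, Polynomial.eval_finsetSum, Polynomial.eval_mul,
    Polynomial.eval_C, Polynomial.eval_pow, Polynomial.eval_X]
  exact Finset.sum_congr rfl fun j _ => mul_comm _ _

theorem isBigO_of_dvd {f : Polynomial ℂ} {m : ℕ} (h : Polynomial.X ^ m ∣ f) :
    (fun s => f.eval s) =O[𝓝 0] fun s : ℂ => s ^ m := by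
  obtain ⟨g, rfl⟩ := h
  have h1 : (fun s => (Polynomial.X ^ m * g).eval s) = fun s : ℂ => s ^ m * g.eval s := by
    funext s
    simp
  rw [h1]
  have h2 : (fun s : ℂ => g.eval s) =O[𝓝 0] fun _ => (1 : ℂ) :=
    (g.continuous.tendsto 0).isBigO_one ℂ
  have h3 := (isBigO_refl (fun s : ℂ => s ^ m) (𝓝 0)).mul h2
  simpa using h3

theorem dvd_of_isBigO {f : Polynomial ℂ} {m : ℕ}
    (h : (fun s => f.eval s) =O[𝓝 0] fun s : ℂ => s ^ m) : Polynomial.X ^ m ∣ f := by
  induction m with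
  | zero => simp
  | succ m ih =>
    have h1 : (fun s : ℂ => s ^ (m + 1)) =O[𝓝 0] fun s : ℂ => s ^ m := by
      have h2 : (fun s : ℂ => s) =O[𝓝 0] fun _ => (1 : ℂ) :=
        (continuous_id.tendsto (0 : ℂ)).isBigO_one ℂ
      have h3 := (isBigO_refl (fun s : ℂ => s ^ m) (𝓝 0)).mul h2
      simpa [pow_succ] using h3
    obtain ⟨g, rfl⟩ := ih (h.trans h1)
    have h4 : g.eval 0 = 0 := by
      obtain ⟨C, hC⟩ := h.bound
      have h5 : ∀ᶠ s in 𝓝[≠] (0 : ℂ), ‖g.eval s‖ ≤ C * ‖s‖ := by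
        filter_upwards [nhdsWithin_le_nhds hC, self_mem_nhdsWithin] with s hs hs0
        have hs0' : (s : ℂ) ≠ 0 := hs0
        rw [Polynomial.eval_mul, Polynomial.eval_pow, Polynomial.eval_X, norm_mul, norm_pow,
          norm_pow, pow_succ] at hs
        have h6 : 0 < ‖s‖ ^ m := by positivity
        have h7 : ‖s‖ ^ m * ‖g.eval s‖ ≤ ‖s‖ ^ m * (C * ‖s‖) := by
          calc ‖s‖ ^ m * ‖g.eval s‖ ≤ C * (‖s‖ ^ m * ‖s‖) := hs
            _ = ‖s‖ ^ m * (C * ‖s‖) := by ring
        exact le_of_mul_le_mul_left h7 h6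
      have h8 : Tendsto (fun s : ℂ => ‖g.eval s‖) (𝓝[≠] 0) (𝓝 ‖g.eval 0‖) :=
        (g.continuous.norm.tendsto 0).mono_left nhdsWithin_le_nhds
      have h9 : Tendsto (fun s : ℂ => C * ‖s‖) (𝓝[≠] 0) (𝓝 (C * ‖(0 : ℂ)‖)) :=
        ((continuous_const.mul continuous_norm).tendsto (0 : ℂ)).mono_left nhdsWithin_le_nhds
      have h10 := le_of_tendsto_of_tendsto h8 h9 h5
      rw [norm_zero, mul_zero] at h10
      exact norm_le_zero_iff.1 h10
    have h11 : Polynomial.X ∣ g := by
      rw [Polynomial.X_dvd_iff, Polynomial.coeff_zero_eq_eval_zero]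
      exact h4
    rw [pow_succ]
    exact mul_dvd_mul_left _ h11

/-- composition of a polynomial with a polynomial curve -/
def cmp {κ : Type*} (p : MvPolynomial κ ℂ) (P : κ → Polynomial ℂ) : Polynomial ℂ :=
  MvPolynomial.eval₂ Polynomial.C P p

theorem cmp_eval {κ : Type*} (p : MvPolynomial κ ℂ) (P : κ → Polynomial ℂ) (s : ℂ) :
    (cmp p P).eval s = MvPolynomial.eval (fun k => (P k).eval s) p := by
  unfold cmp
  induction p using MvPolynomial.induction_on with
  | C a => simp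
  | add p q hp hq => simp [hp, hq]
  | mul_X p k hp => simp [hp]

theorem cmp_map {κ : Type*} (σ : ℂ →+* ℂ) (p : MvPolynomial κ ℂ) (P : κ → Polynomial ℂ) :
    (cmp p P).map σ = cmp (MvPolynomial.map σ p) fun k => (P k).map σ := by
  unfold cmp
  induction p using MvPolynomial.induction_on with
  | C a => simp
  | add p q hp hq => simp [hp, hq]
  | mul_X p k hp => simp [hp]

theorem dvd_map {f : Polynomial ℂ} {m : ℕ} (σ : ℂ →+* ℂ) (h : Polynomial.X ^ m ∣ f) :
    Polynomial.X ^ m ∣ f.map σ := by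
  have h1 := Polynomial.map_dvd σ h
  simpa using h1

/-- analytic and flat at a point -/
theorem eventually_zero_of_flat {h : ℂ → ℂ} (hh : AnalyticAt ℂ h 0)
    (hO : ∀ m : ℕ, h =O[𝓝 0] fun s : ℂ => s ^ m) : ∀ᶠ s in 𝓝 0, h s = 0 := by
  by_contra hne
  obtain ⟨n, g, hg, hg0, hgh⟩ := (hh.exists_eventuallyEq_pow_smul_nonzero_iff).2 hne
  obtain ⟨C, hC⟩ := (hO (n + 1)).bound
  have h5 : ∀ᶠ s in 𝓝[≠] (0 : ℂ), ‖g s‖ ≤ C * ‖s‖ := by
    filter_upwards [nhdsWithin_le_nhds hC, nhdsWithin_le_nhds hgh, self_mem_nhdsWithin]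
      with s hs hs2 hs0
    have hs0' : (s : ℂ) ≠ 0 := hs0
    rw [hs2, sub_zero, smul_eq_mul, norm_mul, norm_pow, norm_pow, pow_succ] at hs
    have h6 : 0 < ‖s‖ ^ n := by positivity
    have h7 : ‖s‖ ^ n * ‖g s‖ ≤ ‖s‖ ^ n * (C * ‖s‖) := by
      calc ‖s‖ ^ n * ‖g s‖ ≤ C * (‖s‖ ^ n * ‖s‖) := hs
        _ = ‖s‖ ^ n * (C * ‖s‖) := by ring
    exact le_of_mul_le_mul_left h7 h6
  have h8 : Tendsto (fun s : ℂ => ‖g s‖) (𝓝[≠] 0) (𝓝 ‖g 0‖) :=
    (hg.continuousAt.norm.tendsto).mono_left nhdsWithin_le_nhds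
  have h9 : Tendsto (fun s : ℂ => C * ‖s‖) (𝓝[≠] 0) (𝓝 (C * ‖(0 : ℂ)‖)) :=
    ((continuous_const.mul continuous_norm).tendsto (0 : ℂ)).mono_left nhdsWithin_le_nhds
  have h10 := le_of_tendsto_of_tendsto h8 h9 h5
  rw [norm_zero, mul_zero] at h10
  exact hg0 (norm_le_zero_iff.1 h10)

/-- identity theorem along lines -/
theorem eqOn_ball_of_lines {D : Type*} [NormedAddCommGroup D] [NormedSpace ℂ D] {h : D → ℂ}
    {r : ℝ} (hh : AnalyticOnNhd ℂ h (Metric.ball 0 r))
    (hl : ∀ u : D, ∀ᶠ s in 𝓝 (0 : ℂ), h (s • u) = 0) : ∀ z ∈ Metric.ball (0 : D) r, h z = 0 := by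
  intro z hz
  rw [mem_ball_zero_iff] at hz
  let U : Set ℂ := {s | ‖s • z‖ < r}
  have hUc : Convex ℝ U := by
    have h1 : U = (fun s : ℂ => s • z) ⁻¹' Metric.ball (0 : D) r := by
      ext s
      simp [U]
    rw [h1]
    exact (convex_ball (0 : D) r).is_linear_preimage
      ⟨fun a b => add_smul a b z, fun a b => smul_assoc a b z⟩
  have h2 : AnalyticOnNhd ℂ (fun s : ℂ => h (s • z)) U := by
    intro s hs
    have h3 : AnalyticAt ℂ (fun s : ℂ => s • z) s := analyticAt_id.smul analyticAt_const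
    exact AnalyticAt.comp (g := h) (f := fun s : ℂ => s • z)
      (hh (s • z) (by rw [mem_ball_zero_iff]; exact hs)) h3
  have h0 : (0 : ℂ) ∈ U := by
    change ‖(0 : ℂ) • z‖ < r
    rw [zero_smul, norm_zero]
    exact (norm_nonneg z).trans_lt hz
  have h1 : (1 : ℂ) ∈ U := by
    change ‖(1 : ℂ) • z‖ < r
    rwa [one_smul]
  have h4 := h2.eqOn_zero_of_preconnected_of_eventuallyEq_zero hUc.isPreconnected h0 (hl z) h1
  simpa using h4

/-- a smooth function does not see errors -/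
theorem isBigO_comp_sub {E G : Type*} [NormedAddCommGroup E] [NormedSpace ℂ E]
    [NormedAddCommGroup G] [NormedSpace ℂ G] {f : E → G} {x : E}
    (hs : ContDiffAt ℂ 1 f x) {a b : ℂ → E} (ha : Tendsto a (𝓝 0) (𝓝 x))
    (hb : Tendsto b (𝓝 0) (𝓝 x)) :
    (fun s => f (a s) - f (b s)) =O[𝓝 0] fun s => a s - b s := by
  have h1 := (hs.hasStrictFDerivAt (by norm_num)).isBigO_sub
  exact h1.comp_tendsto (ha.prodMk_nhds hb)

end Curve

end

end Crest.Agent.R281.CjL_310
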