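import Crest.Agent.R281.CjL1_310

/-!
# R281, UNIQ-U1 (helper310), part 2: the theorem in coordinates
-/

set_option autoImplicit false
set_option linter.unusedSectionVars false

open Set Filter Topology Asymptotics Matrix
open scoped ContDiff

namespace Crest.Agent.R281.CjL_310

noncomputable section

variable {κ δ : Type*} [Fintype κ] [Fintype δ]

/-- local inverse of an analytic map with derivative the identity -/
theorem exists_inv {V : Type*} [NormedAddCommGroup V] [NormedSpace ℂ V] [CompleteSpace V]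
    {f : V → V} {x : V} (hf : AnalyticAt ℂ f x)
    (hd : HasFDerivAt f (ContinuousLinearMap.id ℂ V) x) :
    ∃ g : V → V, AnalyticAt ℂ g (f x) ∧ g (f x) = x ∧ (∀ᶠ y in 𝓝 x, g (f y) = y) ∧
      (∀ᶠ w in 𝓝 (f x), f (g w) = w) ∧ HasFDerivAt g (ContinuousLinearMap.id ℂ V) (f x) := by
  have hc : ContDiffAt ℂ ω f x := hf.contDiffAt
  have hd' : HasFDerivAt f ((ContinuousLinearEquiv.refl ℂ V : V ≃L[ℂ] V) : V →L[ℂ] V) x := hd
  have hn : (ω : WithTop ℕ∞) ≠ 0 := by simp
  refine ⟨hc.localInverse hd' hn, (hc.to_localInverse hd' hn).analyticAt,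
    hc.localInverse_apply_image hd' hn, ?_, ?_, ?_⟩
  · exact (hc.hasStrictFDerivAt' hd' hn).eventually_left_inverse
  · exact (hc.hasStrictFDerivAt' hd' hn).eventually_right_inverse
  · exact (hc.hasStrictFDerivAt' hd' hn).to_localInverse.hasFDerivAt

theorem mulVec_conj (σ : ℂ →+* ℂ) (A : Matrix κ δ ℂ) (x : δ → ℂ) :
    (A.map σ) *ᵥ (fun i => σ (x i)) = fun k => σ ((A *ᵥ x) k) := by
  funext k
  exact (RingHom.map_mulVec σ A x k).symm

theorem surj_conj {β : Type*} (σ : ℂ ≃+* ℂ) (x : β → ℂ) :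
    ∃ y : β → ℂ, x = fun i => (σ : ℂ →+* ℂ) (y i) :=
  ⟨fun i => σ.symm (x i), by funext i; simp⟩

/-- `x ↦ A x` as a continuous linear map -/
def mL (A : Matrix κ δ ℂ) : (δ → ℂ) →L[ℂ] (κ → ℂ) :=
  LinearMap.toContinuousLinearMap A.mulVecLin

theorem mL_apply (A : Matrix κ δ ℂ) (x : δ → ℂ) : mL A x = A *ᵥ x := rfl

theorem isBigO_eval {p : MvPolynomial κ ℂ} {v : κ → ℂ} {a b : ℂ → κ → ℂ}
    (ha : Tendsto a (𝓝 0) (𝓝 v)) (hb : Tendsto b (𝓝 0) (𝓝 v)) :
    (fun s => MvPolynomial.eval (a s) p - MvPolynomial.eval (b s) p) =O[𝓝 0]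
      fun s => a s - b s :=
  isBigO_comp_sub (f := fun y : κ → ℂ => MvPolynomial.eval y p)
    ((analyticAt_eval p v).contDiffAt) ha hb

theorem isBigO_pow_le {j k : ℕ} (h : j ≤ k) :
    (fun s : ℂ => s ^ k) =O[𝓝 0] fun s : ℂ => s ^ j := by
  obtain ⟨i, rfl⟩ := Nat.exists_eq_add_of_le h
  have h2 : (fun s : ℂ => s ^ i) =O[𝓝 0] fun _ => (1 : ℂ) :=
    ((continuous_pow i).tendsto (0 : ℂ)).isBigO_one ℂ
  have h3 := (isBigO_refl (fun s : ℂ => s ^ j) (𝓝 0)).mul h2
  simpa [pow_add] using h3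

/-- germs of polynomials vanishing along `F` -/
def Van {D : Type*} [TopologicalSpace D] [Zero D] (F : D → κ → ℂ) : Set (MvPolynomial κ ℂ) :=
  {q | ∀ᶠ w in 𝓝 (0 : D), MvPolynomial.eval (F w) q = 0}

theorem van_span {D : Type*} [TopologicalSpace D] [Zero D] {F : D → κ → ℂ}
    {E : Set (MvPolynomial κ ℂ)} (hE : E ⊆ Van F) {q : MvPolynomial κ ℂ}
    (hq : q ∈ Submodule.span ℂ E) : q ∈ Van F := by
  induction hq using Submodule.span_induction with
  | mem x hx => exact hE hx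
  | zero => exact Eventually.of_forall fun w => map_zero _
  | add x y _ _ hx hy =>
    filter_upwards [hx, hy] with w h1 h2
    rw [map_add, h1, h2, add_zero]
  | smul a x _ hx =>
    filter_upwards [hx] with w h1
    rw [MvPolynomial.smul_eval, h1, mul_zero]

/-- a function which is `O(s^m)` on every line is `O(|t|^m)` -/
theorem isBigO_of_lines {D : Type*} [NormedAddCommGroup D] [NormedSpace ℂ D] {f : D → ℂ}
    (hf : AnalyticAt ℂ f 0) {m : ℕ}
    (h : ∀ u : D, (fun s : ℂ => f (s • u)) =O[𝓝 0] fun s : ℂ => s ^ m) :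
    f =O[𝓝 0] fun t => ‖t‖ ^ m := by
  obtain ⟨p, hp⟩ := hf
  have h1 := hp.isBigO_sub_partialSum_pow m
  simp only [zero_add] at h1
  have h2 : ∀ u : D, p.partialSum m u = 0 := by
    intro u
    let P : Polynomial ℂ := ∑ k ∈ Finset.range m,
      Polynomial.C (p k fun _ => u) * Polynomial.X ^ k
    have hP : ∀ s : ℂ, P.eval s = p.partialSum m (s • u) := by
      intro s
      simp only [P, Polynomial.eval_finsetSum, Polynomial.eval_mul, Polynomial.eval_C,
        Polynomial.eval_pow, Polynomial.eval_X, FormalMultilinearSeries.partialSum]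
      refine Finset.sum_congr rfl fun k _ => ?_
      have h3 := (p k).map_smul_univ (fun _ => s) (fun _ => u)
      simp only [Finset.prod_const, Finset.card_univ, Fintype.card_fin, smul_eq_mul] at h3
      rw [h3, mul_comm]
    have hlt : Tendsto (fun s : ℂ => s • u) (𝓝 0) (𝓝 0) := by
      have h3 : Continuous fun s : ℂ => s • u := continuous_id.smul continuous_const
      have h4 := h3.tendsto 0
      rwa [zero_smul] at h4
    have h5 : (fun s : ℂ => f (s • u) - p.partialSum m (s • u)) =O[𝓝 0]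
        fun s : ℂ => s ^ m := by
      have h6 := h1.comp_tendsto hlt
      refine h6.trans ?_
      refine IsBigO.of_bound (‖u‖ ^ m) (Eventually.of_forall fun s => ?_)
      simp only [Function.comp_apply, norm_smul, mul_pow, norm_mul, norm_pow, norm_norm]
      rw [mul_comm]
    have h7 : (fun s : ℂ => P.eval s) =O[𝓝 0] fun s : ℂ => s ^ m := by
      refine ((h u).sub h5).congr_left fun s => ?_
      rw [hP]
      ring
    have h8 := Polynomial.X_pow_dvd_iff.1 (dvd_of_isBigO h7)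
    have h9 : ∀ k < m, p k (fun _ => u) = 0 := by
      intro k hk
      have h10 := h8 k hk
      simp only [P, Polynomial.finsetSum_coeff, Polynomial.coeff_C_mul, Polynomial.coeff_X_pow,
        mul_ite, mul_one, mul_zero] at h10
      rw [Finset.sum_ite_eq, if_pos (Finset.mem_range.2 hk)] at h10
      exact h10
    simp only [FormalMultilinearSeries.partialSum]
    exact Finset.sum_eq_zero fun k hk => h9 k (Finset.mem_range.1 hk)
  refine h1.congr_left fun t => ?_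
  rw [h2, sub_zero]

/-- **the conjugate polynomial curves** : for `F` with `B ∘ dF(0) = 1` and every direction `u`
there is a polynomial curve `P` with `P(0) = F(0)`, `B P(s) = B F(0) + s u` and
`P(s) = F(ρ(s))`, modulo `s ^ (m + 1)`, with `ρ(s) = O(s)` -/
theorem exists_curve {F : (δ → ℂ) → κ → ℂ} (hF : AnalyticAt ℂ F 0) {B : Matrix δ κ ℂ}
    (hB : ∀ x, B *ᵥ (fderiv ℂ F 0 x) = x) (u : δ → ℂ) (m : ℕ) :
    ∃ P : κ → Polynomial ℂ, (∀ k, (P k).eval 0 = F 0 k) ∧
      (∀ i, Polynomial.X ^ (m + 1) ∣ ∑ k, Polynomial.C (B i k) * P k -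
        Polynomial.C ((B *ᵥ F 0) i) - Polynomial.C (u i) * Polynomial.X) ∧
      ∀ (l : MvPolynomial κ ℂ) (j : ℕ), j ≤ m + 1 →
        (fun t => MvPolynomial.eval (F t) l) =O[𝓝 0] (fun t => ‖t‖ ^ j) →
        Polynomial.X ^ j ∣ cmp l P := by
  classical
  set v := F 0 with hv
  -- the inverse of `B ∘ F`
  let f : (δ → ℂ) → δ → ℂ := fun x => mL B (F x)
  have hf : AnalyticAt ℂ f 0 := ((mL B).analyticAt _).comp hF
  have hfd : HasFDerivAt f (ContinuousLinearMap.id ℂ (δ → ℂ)) 0 := by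
    have h1 := (mL B).hasFDerivAt.comp (0 : δ → ℂ) hF.differentiableAt.hasFDerivAt
    refine h1.congr_fderiv ?_
    ext x
    simp only [ContinuousLinearMap.comp_apply, mL_apply, hB, ContinuousLinearMap.id_apply]
  obtain ⟨R, hR, hR0, -, hfR, -⟩ := exists_inv hf hfd
  -- the curve
  let ℓ : ℂ → δ → ℂ := fun s => f 0 + s • u
  have hℓ0 : ℓ 0 = f 0 := by simp [ℓ]
  have hℓ : AnalyticAt ℂ ℓ 0 := analyticAt_const.add (analyticAt_id.smul analyticAt_const)
  have hℓt : Tendsto ℓ (𝓝 0) (𝓝 (f 0)) := by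
    have := hℓ.continuousAt.tendsto
    rwa [hℓ0] at this
  let c : ℂ → κ → ℂ := fun s => F (R (ℓ s))
  have hc : AnalyticAt ℂ c 0 := by
    have h1 : AnalyticAt ℂ (fun s => R (ℓ s)) 0 :=
      AnalyticAt.comp (g := R) (f := ℓ) (by rw [hℓ0]; exact hR) hℓ
    have h2 : AnalyticAt ℂ F (R (ℓ 0)) := by
      rw [hℓ0, hR0]
      exact hF
    exact AnalyticAt.comp (g := F) (f := fun s => R (ℓ s)) h2 h1
  have hRt : Tendsto (fun s => R (ℓ s)) (𝓝 0) (𝓝 0) := by
    have h1 := hR.continuousAt.tendsto.comp hℓt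
    rwa [hR0] at h1
  have hc0 : c 0 = v := by
    change F (R (ℓ 0)) = v
    rw [hℓ0, hR0]
  have hct : Tendsto c (𝓝 0) (𝓝 v) := by
    have := hc.continuousAt.tendsto
    rwa [hc0] at this
  have hcB : ∀ᶠ s in 𝓝 (0 : ℂ), B *ᵥ c s = B *ᵥ v + s • u := by
    filter_upwards [hℓt.eventually hfR] with s hs
    exact hs
  have hRO : (fun s => R (ℓ s)) =O[𝓝 0] fun s : ℂ => s := by
    have h1 : AnalyticAt ℂ (fun s => R (ℓ s)) 0 :=
      AnalyticAt.comp (g := R) (f := ℓ) (by rw [hℓ0]; exact hR) hℓ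
    have h2 := h1.differentiableAt.isBigO_sub
    simp only [sub_zero] at h2
    refine h2.congr_left fun s => ?_
    rw [hℓ0, hR0, sub_zero]
  -- its Taylor polynomials
  obtain ⟨P, hP⟩ := exists_taylor hc (m + 1)
  have hP0 : (fun k => (P k).eval 0) = v := by
    obtain ⟨C, hC⟩ := hP.bound
    have h1 := hC.self_of_nhds
    simp only [zero_pow (Nat.succ_ne_zero m), norm_zero, mul_zero] at h1
    have h2 := norm_le_zero_iff.1 h1
    rw [sub_eq_zero, hc0] at h2
    exact h2.symm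
  have hPc : Continuous fun s : ℂ => fun k => (P k).eval s :=
    continuous_pi fun k => (P k).continuous
  have hPt : Tendsto (fun s : ℂ => fun k => (P k).eval s) (𝓝 0) (𝓝 v) := by
    have := hPc.tendsto 0
    rwa [hP0] at this
  refine ⟨P, fun k => congrFun hP0 k, fun i => dvd_of_isBigO ?_,
    fun q j hj hq => dvd_of_isBigO ?_⟩
  · have h1 : (fun s : ℂ => B *ᵥ (fun k => (P k).eval s) - B *ᵥ c s) =O[𝓝 0]
        fun s : ℂ => s ^ (m + 1) := by
      have h2 := ((mL B).isBigO_comp (fun s => c s - fun k => (P k).eval s) (𝓝 0)).trans hP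
      refine h2.neg_left.congr_left fun s => ?_
      rw [mL_apply, Matrix.mulVec_sub, neg_sub]
    refine ((isBigO_pi.1 h1 i).congr' ?_ EventuallyEq.rfl)
    filter_upwards [hcB] with s hs
    rw [Polynomial.eval_sub, Polynomial.eval_sub, Polynomial.eval_finsetSum, Polynomial.eval_C,
      Polynomial.eval_mul, Polynomial.eval_C, Polynomial.eval_X, Pi.sub_apply, hs, Pi.add_apply,
      Pi.smul_apply, smul_eq_mul, sub_sub, mul_comm (u i) s]
    congr 1
    simp only [Matrix.mulVec, dotProduct, Polynomial.eval_mul, Polynomial.eval_C]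
  · have h1 := (isBigO_eval (p := q) hPt hct).trans ((hP.neg_left).congr_left fun s => by
      change -(c s - fun k => (P k).eval s) = (fun k => (P k).eval s) - c s
      rw [neg_sub])
    have h2 : (fun s : ℂ => s ^ (m + 1)) =O[𝓝 0] fun s : ℂ => s ^ j := isBigO_pow_le hj
    have h3 : (fun s => MvPolynomial.eval (c s) q) =O[𝓝 0] fun s : ℂ => s ^ j := by
      have h4 := hq.comp_tendsto hRt
      refine h4.trans ?_
      have h5 := (hRO.norm_left).pow j
      exact h5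
    refine ((h1.trans h2).add h3).congr_left fun s => ?_
    rw [sub_add_cancel, cmp_eval]

/-- **CONJ-LOC in coordinates** -/
theorem conj_aux (σ : ℂ ≃+* ℂ) {F : (δ → ℂ) → κ → ℂ} (hF : AnalyticAt ℂ F 0)
    (hinj : Function.Injective (fderiv ℂ F 0)) {E : Set (MvPolynomial κ ℂ)} (hE : E ⊆ Van F)
    (htan : ∀ t, (∀ p ∈ E, dv p (F 0) t = 0) → ∃ x, fderiv ℂ F 0 x = t) :
    ∃ (F' : (δ → ℂ) → κ → ℂ) (π : (κ → ℂ) →L[ℂ] (δ → ℂ)), AnalyticAt ℂ F' 0 ∧
      (F' 0 = fun k => σ (F 0 k)) ∧ (∀ᶠ z in 𝓝 0, π (F' z) = π (F' 0) + z) ∧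
      (∀ᶠ z in 𝓝 0, ∀ q ∈ Van F,
        MvPolynomial.eval (F' z) (MvPolynomial.map (σ : ℂ →+* ℂ) q) = 0) ∧
      (∀ᶠ y in 𝓝 (F' 0),
        (∀ p ∈ E, MvPolynomial.eval y (MvPolynomial.map (σ : ℂ →+* ℂ) p) = 0) →
          F' (π y - π (F' 0)) = y) ∧
      (∀ t, (∀ p ∈ E, dv (MvPolynomial.map (σ : ℂ →+* ℂ) p) (F' 0) t = 0) →
        fderiv ℂ F' 0 (π t) = t) ∧
      ∀ (l : MvPolynomial κ ℂ) (m : ℕ),
        (fun t => MvPolynomial.eval (F t) l) =O[𝓝 0] (fun t => ‖t‖ ^ m) →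
        (fun t => MvPolynomial.eval (F' t) (MvPolynomial.map (σ : ℂ →+* ℂ) l)) =O[𝓝 0]
          fun t => ‖t‖ ^ m := by
  classical
  set v := F 0 with hv
  -- matrices
  obtain ⟨g, hg⟩ := LinearMap.exists_leftInverse_of_injective
    (fderiv ℂ F 0 : (δ → ℂ) →ₗ[ℂ] (κ → ℂ)) (LinearMap.ker_eq_bot.2 hinj)
  let A : Matrix κ δ ℂ := LinearMap.toMatrix' (fderiv ℂ F 0 : (δ → ℂ) →ₗ[ℂ] (κ → ℂ))
  let B : Matrix δ κ ℂ := LinearMap.toMatrix' g
  have hA : ∀ x, A *ᵥ x = fderiv ℂ F 0 x := fun x => LinearMap.toMatrix'_mulVec _ x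
  have hB : ∀ x, B *ᵥ (fderiv ℂ F 0 x) = x := fun x => by
    rw [LinearMap.toMatrix'_mulVec]
    exact LinearMap.congr_fun hg x
  have hBA : ∀ x, B *ᵥ (A *ᵥ x) = x := fun x => by rw [hA, hB]
  -- the equations
  have hQ : ∀ k, ∃ Q ∈ Submodule.span ℂ E, ∀ t, dv Q v t = t k - (A *ᵥ (B *ᵥ t)) k := by
    intro k
    refine exists_comb ((LinearMap.proj k : (κ → ℂ) →ₗ[ℂ] ℂ) -
      (LinearMap.proj k : (κ → ℂ) →ₗ[ℂ] ℂ).comp (A.mulVecLin.comp B.mulVecLin)) fun t ht => ?_
    obtain ⟨x, rfl⟩ := htan t ht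
    simp only [LinearMap.sub_apply, LinearMap.comp_apply, LinearMap.proj_apply,
      Matrix.mulVecLin_apply, hB, hA, sub_self]
  choose Q hQE hQd using hQ
  -- conjugates
  let s₀ : ℂ →+* ℂ := (σ : ℂ →+* ℂ)
  let A' : Matrix κ δ ℂ := A.map σ
  let B' : Matrix δ κ ℂ := B.map σ
  have hA' : ∀ x : δ → ℂ, A' *ᵥ (fun i => s₀ (x i)) = fun k => s₀ ((A *ᵥ x) k) :=
    fun x => mulVec_conj s₀ A x
  have hB' : ∀ x : κ → ℂ, B' *ᵥ (fun i => s₀ (x i)) = fun k => s₀ ((B *ᵥ x) k) :=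
    fun x => mulVec_conj s₀ B x
  have hBA' : ∀ x, B' *ᵥ (A' *ᵥ x) = x := by
    intro x
    obtain ⟨y, rfl⟩ := surj_conj σ x
    rw [hA', hB', hBA]
  let v' : κ → ℂ := fun k => s₀ (v k)
  let Φ : (κ → ℂ) → κ → ℂ := fun y => mL A' (mL B' y) +
    fun k => MvPolynomial.eval y (MvPolynomial.map s₀ (Q k))
  have hΦan : ∀ y, AnalyticAt ℂ Φ y := fun y => by
    have h1 : AnalyticAt ℂ (fun y => mL A' (mL B' y)) y := ((mL A').comp (mL B')).analyticAt y
    have h2 : AnalyticAt ℂ (fun y : κ → ℂ => fun k =>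
        MvPolynomial.eval y (MvPolynomial.map s₀ (Q k))) y :=
      AnalyticAt.pi fun k => analyticAt_eval _ y
    exact h1.add h2
  have hΦd : HasFDerivAt Φ (ContinuousLinearMap.id ℂ (κ → ℂ)) v' := by
    have h1 : HasFDerivAt (fun y => mL A' (mL B' y)) ((mL A').comp (mL B')) v' :=
      ((mL A').comp (mL B')).hasFDerivAt
    have h2 : HasFDerivAt (fun y : κ → ℂ => fun k =>
        MvPolynomial.eval y (MvPolynomial.map s₀ (Q k)))
        (ContinuousLinearMap.pi fun k => dv (MvPolynomial.map s₀ (Q k)) v') v' :=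
      hasFDerivAt_pi.2 fun k => hasFDerivAt_eval _ v'
    refine (h1.add h2).congr_fderiv ?_
    refine ContinuousLinearMap.ext fun t => ?_
    obtain ⟨t, rfl⟩ := surj_conj σ t
    funext k
    have h3 : dv (MvPolynomial.map s₀ (Q k)) v' (fun k => s₀ (t k)) = s₀ (dv (Q k) v t) :=
      dv_conj s₀ (Q k) v t
    have h4 : A' *ᵥ (B' *ᵥ fun k => s₀ (t k)) = fun k => s₀ ((A *ᵥ (B *ᵥ t)) k) := by
      rw [hB', hA']
    change (A' *ᵥ (B' *ᵥ fun k => s₀ (t k))) k +
      dv (MvPolynomial.map s₀ (Q k)) v' (fun k => s₀ (t k)) = s₀ (t k)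
    rw [h3, h4, hQd, map_sub]
    ring
  obtain ⟨Ψ, hΨ, hΨ0, hΨΦ, hΦΨ, hΨd⟩ := exists_inv (hΦan v') hΦd
  set w₀ := Φ v' with hw₀
  have hQv : ∀ k, MvPolynomial.eval v' (MvPolynomial.map s₀ (Q k)) = 0 := fun k => by
    have h1 : MvPolynomial.eval v (Q k) = 0 :=
      (van_span hE (hQE k) : ∀ᶠ w in 𝓝 (0 : δ → ℂ), _).self_of_nhds
    change MvPolynomial.eval (fun k => s₀ (v k)) _ = 0
    rw [eval_conj, h1, map_zero]
  have hw₀' : w₀ = A' *ᵥ (B' *ᵥ v') := by
    rw [hw₀]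
    funext k
    simp only [Φ, mL_apply, Pi.add_apply, hQv, add_zero]
  -- the conjugate parametrisation
  let L : (δ → ℂ) → κ → ℂ := fun z => w₀ + mL A' z
  have hL0 : L 0 = w₀ := by simp [L]
  have hLan : ∀ z, AnalyticAt ℂ L z := fun z => analyticAt_const.add ((mL A').analyticAt z)
  let F' : (δ → ℂ) → κ → ℂ := fun z => Ψ (L z)
  have hF'0 : F' 0 = v' := by
    change Ψ (L 0) = v'
    rw [hL0, hΨ0]
  have hF' : AnalyticAt ℂ F' 0 :=
    AnalyticAt.comp (g := Ψ) (f := L) (by rw [hL0]; exact hΨ) (hLan 0)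
  have hLt : Tendsto L (𝓝 0) (𝓝 w₀) := by
    have := (hLan 0).continuousAt.tendsto
    rwa [hL0] at this
  have hF't : Tendsto F' (𝓝 0) (𝓝 v') := by
    have := hF'.continuousAt.tendsto
    rwa [hF'0] at this
  -- jets on lines
  have hVanO : ∀ q ∈ Van F, ∀ m : ℕ,
      (fun t => MvPolynomial.eval (F t) q) =O[𝓝 0] (fun t : δ → ℂ => ‖t‖ ^ m) := by
    intro q hq m
    refine IsBigO.of_bound 0 ?_
    filter_upwards [(hq : ∀ᶠ w in 𝓝 (0 : δ → ℂ), _)] with t ht
    rw [ht, norm_zero, zero_mul]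
  have hjet : ∀ (q : MvPolynomial κ ℂ) (m : ℕ),
      (fun t => MvPolynomial.eval (F t) q) =O[𝓝 0] (fun t => ‖t‖ ^ m) → ∀ u' : δ → ℂ,
      (fun s : ℂ => MvPolynomial.eval (F' (s • u')) (MvPolynomial.map s₀ q)) =O[𝓝 0]
        fun s : ℂ => s ^ m := by
    intro q m hq u'
    obtain ⟨u, rfl⟩ := surj_conj σ u'
    have hln : AnalyticAt ℂ (fun s : ℂ => s • (fun i => s₀ (u i))) 0 :=
      analyticAt_id.smul analyticAt_const
    have hlt : Tendsto (fun s : ℂ => s • (fun i => s₀ (u i))) (𝓝 0) (𝓝 0) := by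
      have := hln.continuousAt.tendsto
      rwa [zero_smul] at this
    have hFs : Tendsto (fun s : ℂ => F' (s • (fun i => s₀ (u i)))) (𝓝 0) (𝓝 v') :=
      hF't.comp hlt
    obtain ⟨P, hP0, hPB, hPV⟩ := exists_curve hF hB u m
    -- the conjugate polynomial curve
    let P' : ℂ → κ → ℂ := fun s k => ((P k).map s₀).eval s
    have hP'c : Continuous P' := continuous_pi fun k => ((P k).map s₀).continuous
    have hP'0 : P' 0 = v' := by
      funext k
      change ((P k).map s₀).eval 0 = s₀ (v k)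
      rw [Polynomial.eval_map, Polynomial.eval₂_at_zero, Polynomial.coeff_zero_eq_eval_zero, hP0 k]
    have hP't : Tendsto P' (𝓝 0) (𝓝 v') := by
      have := hP'c.tendsto 0
      rwa [hP'0] at this
    have hpow : (fun s : ℂ => s ^ (m + 1)) =O[𝓝 0] fun s : ℂ => s ^ m :=
      isBigO_pow_le (Nat.le_succ m)
    have hV'' : ∀ (p : MvPolynomial κ ℂ) (j : ℕ), j ≤ m + 1 →
        (fun t => MvPolynomial.eval (F t) p) =O[𝓝 0] (fun t => ‖t‖ ^ j) →
        (fun s => MvPolynomial.eval (P' s) (MvPolynomial.map s₀ p)) =O[𝓝 0]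
        fun s : ℂ => s ^ j := by
      intro p j hj hp
      have h1 := isBigO_of_dvd (dvd_map s₀ (hPV p j hj hp))
      refine h1.congr_left fun s => ?_
      rw [cmp_map, cmp_eval]
    have hV' : ∀ p ∈ Van F, (fun s => MvPolynomial.eval (P' s) (MvPolynomial.map s₀ p)) =O[𝓝 0]
        fun s : ℂ => s ^ (m + 1) := fun p hp => hV'' p (m + 1) le_rfl (hVanO p hp _)
    have hB1 : (fun s : ℂ => B' *ᵥ P' s - B' *ᵥ v' - s • (fun i => s₀ (u i))) =O[𝓝 0]
        fun s : ℂ => s ^ (m + 1) := by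
      refine isBigO_pi.2 fun i => ?_
      have h1 := isBigO_of_dvd (dvd_map s₀ (hPB i))
      refine h1.congr_left fun s => ?_
      have h2 : (B' *ᵥ v') i = s₀ ((B *ᵥ v) i) := congrFun (hB' v) i
      rw [Pi.sub_apply, Pi.sub_apply, h2, Pi.smul_apply, smul_eq_mul]
      simp only [Polynomial.map_sub, Polynomial.map_mul, Polynomial.map_C, Polynomial.map_X,
        Polynomial.eval_sub, Polynomial.eval_mul, Polynomial.eval_C, Polynomial.eval_X,
        Polynomial.map_sum, Polynomial.eval_finsetSum]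
      rw [mul_comm (s₀ (u i)) s]
      rfl
    have hΦP : (fun s : ℂ => Φ (P' s) - L (s • (fun i => s₀ (u i)))) =O[𝓝 0]
        fun s : ℂ => s ^ (m + 1) := by
      have h1 : (fun s : ℂ => mL A' (B' *ᵥ P' s - B' *ᵥ v' - s • (fun i => s₀ (u i)))) =O[𝓝 0]
          fun s : ℂ => s ^ (m + 1) := ((mL A').isBigO_comp _ (𝓝 0)).trans hB1
      have h2 : (fun s : ℂ => fun k => MvPolynomial.eval (P' s) (MvPolynomial.map s₀ (Q k)))
          =O[𝓝 0] fun s : ℂ => s ^ (m + 1) :=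
        isBigO_pi.2 fun k => hV' (Q k) (van_span hE (hQE k))
      refine (h1.add h2).congr_left fun s => ?_
      simp only [Φ, L, hw₀', mL_apply, Matrix.mulVec_sub]
      abel
    have hdiff : (fun s : ℂ => F' (s • (fun i => s₀ (u i))) - P' s) =O[𝓝 0]
        fun s : ℂ => s ^ (m + 1) := by
      have h1 : (fun s : ℂ => Ψ (Φ (P' s)) - Ψ (L (s • (fun i => s₀ (u i))))) =O[𝓝 0]
          fun s : ℂ => Φ (P' s) - L (s • (fun i => s₀ (u i))) :=
        isBigO_comp_sub (f := Ψ) hΨ.contDiffAt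
          ((hΦan v').continuousAt.tendsto.comp hP't) (hLt.comp hlt)
      refine ((h1.trans hΦP).neg_left).congr' ?_ EventuallyEq.rfl
      filter_upwards [hP't.eventually hΨΦ] with s hs
      rw [hs, neg_sub]
    have h5 : (fun s : ℂ => MvPolynomial.eval (F' (s • (fun i => s₀ (u i))))
        (MvPolynomial.map s₀ q) - MvPolynomial.eval (P' s) (MvPolynomial.map s₀ q)) =O[𝓝 0]
        fun s : ℂ => s ^ (m + 1) := (isBigO_eval hFs hP't).trans hdiff
    have h6 := (h5.trans hpow).add (hV'' q m (Nat.le_succ m) hq)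
    refine h6.congr_left fun s => ?_
    rw [sub_add_cancel]
  -- vanishing of the conjugates
  have hvan : ∀ q ∈ Van F, ∀ u' : δ → ℂ, ∀ᶠ s in 𝓝 (0 : ℂ),
      MvPolynomial.eval (F' (s • u')) (MvPolynomial.map s₀ q) = 0 := by
    intro q hq u'
    have hln : AnalyticAt ℂ (fun s : ℂ => s • u') 0 := analyticAt_id.smul analyticAt_const
    exact eventually_zero_of_flat (AnalyticAt.comp
      (g := fun y => MvPolynomial.eval y (MvPolynomial.map s₀ q))
      (f := fun s : ℂ => F' (s • u')) (analyticAt_eval _ _)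
      (AnalyticAt.comp (g := F') (f := fun s : ℂ => s • u')
        (by rw [zero_smul]; exact hF') hln)) fun m => hjet q m (hVanO q hq m) u'
  obtain ⟨r, hr, hFr⟩ := hF'.exists_ball_analyticOnNhd
  have hvan' : ∀ z ∈ Metric.ball (0 : δ → ℂ) r, ∀ q ∈ Van F,
      MvPolynomial.eval (F' z) (MvPolynomial.map s₀ q) = 0 := by
    intro z hz q hq
    refine eqOn_ball_of_lines (h := fun z => MvPolynomial.eval (F' z) (MvPolynomial.map s₀ q))
      (fun x hx => AnalyticAt.comp (g := fun y => MvPolynomial.eval y (MvPolynomial.map s₀ q))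
        (f := F') (analyticAt_eval _ _) (hFr x hx)) (fun u => hvan q hq u) z hz
  have hvan'' : ∀ᶠ z in 𝓝 (0 : δ → ℂ), ∀ q ∈ Van F,
      MvPolynomial.eval (F' z) (MvPolynomial.map s₀ q) = 0 := by
    filter_upwards [Metric.ball_mem_nhds (0 : δ → ℂ) hr] with z hz q hq
    exact hvan' z hz q hq
  refine ⟨F', mL B', hF', hF'0, ?_, hvan'', ?_, ?_, fun l m hl =>
    isBigO_of_lines (AnalyticAt.comp (g := fun y => MvPolynomial.eval y (MvPolynomial.map s₀ l))
      (f := F') (analyticAt_eval _ _) hF') (hjet l m hl)⟩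
  · filter_upwards [hLt.eventually hΦΨ, hvan''] with z hz hz2
    have h1 : Φ (F' z) = L z := hz
    have h2 : Φ (F' z) = A' *ᵥ (B' *ᵥ F' z) := by
      funext k
      simp only [Φ, mL_apply, Pi.add_apply]
      rw [hz2 (Q k) (van_span hE (hQE k)), add_zero]
    have h3 : B' *ᵥ (A' *ᵥ (B' *ᵥ F' z)) = B' *ᵥ (A' *ᵥ (B' *ᵥ v' + z)) := by
      rw [← h2, h1]
      simp only [L, hw₀', mL_apply, Matrix.mulVec_add]
    rw [hBA', hBA'] at h3
    rw [mL_apply, mL_apply, hF'0]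
    exact h3
  · rw [hF'0]
    filter_upwards [hΨΦ] with y hy h
    have h1 : ∀ k, MvPolynomial.eval y (MvPolynomial.map s₀ (Q k)) = 0 := by
      intro k
      have : ∀ q ∈ Submodule.span ℂ E, MvPolynomial.eval y (MvPolynomial.map s₀ q) = 0 := by
        intro q hq
        induction hq using Submodule.span_induction with
        | mem x hx => exact h x hx
        | zero => rw [map_zero, map_zero]
        | add x y _ _ hx hy => rw [map_add, map_add, hx, hy, add_zero]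
        | smul a x _ hx =>
          rw [MvPolynomial.smul_eq_C_mul, map_mul, map_mul, hx, mul_zero]
      exact this _ (hQE k)
    have h2 : Φ y = A' *ᵥ (B' *ᵥ y) := by
      funext k
      simp only [Φ, mL_apply, Pi.add_apply]
      rw [h1, add_zero]
    change Ψ (w₀ + A' *ᵥ (B' *ᵥ y - B' *ᵥ v')) = y
    rw [hw₀', Matrix.mulVec_sub, add_sub_cancel, ← h2, hy]
  · intro t ht
    obtain ⟨t, rfl⟩ := surj_conj σ t
    have h1 : ∀ p ∈ E, dv p v t = 0 := fun p hp => by
      have h2 := ht p hp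
      rw [hF'0] at h2
      have h3 : dv (MvPolynomial.map s₀ p) v' (fun k => s₀ (t k)) = s₀ (dv p v t) :=
        dv_conj s₀ p v t
      exact (map_eq_zero s₀).1 (h3.symm.trans h2)
    obtain ⟨x, hx⟩ := htan t h1
    have h4 : (fun k => s₀ (t k)) = A' *ᵥ (fun i => s₀ (x i)) := by
      rw [hA', hA, hx]
    have h5 : HasFDerivAt F' ((ContinuousLinearMap.id ℂ (κ → ℂ)).comp (mL A')) 0 := by
      refine HasFDerivAt.comp (g := Ψ) (f := L) (0 : δ → ℂ) (by rw [hL0]; exact hΨd) ?_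
      exact ((mL A').hasFDerivAt (x := (0 : δ → ℂ))).const_add w₀
    rw [h5.fderiv]
    change A' *ᵥ (B' *ᵥ (fun k => s₀ (t k))) = fun k => s₀ (t k)
    rw [h4, hBA']

end

end Crest.Agent.R281.CjL_310
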