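import Crest.Agent.R281.CjL2_310

/-!
# R281, UNIQ-U1 (helper310), part 3: **CONJ-LOC**

`conj_loc` : `E` polynomials vanishing along an analytic germ `F : (D, 0) → ℂ^κ` (`D` any finite
dimensional normed space), `dF(0)` injective, every `t` with `dE p (F 0) t = 0` (all `p ∈ E`) is in
the range of `dF(0)`; `σ : ℂ ≃+* ℂ`.  Then the conjugate algebraic set is parametrised near
`σ (F 0)` by a germ `F'` with the same properties.
-/

set_option autoImplicit false
set_option linter.unusedSectionVars false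

open Set Filter Topology Asymptotics Matrix
open scoped ContDiff

namespace Crest.Agent.R281.CjL_310

noncomputable section

variable {κ : Type*} [Fintype κ] {D : Type*} [NormedAddCommGroup D] [NormedSpace ℂ D]
  [FiniteDimensional ℂ D]

/-- `F'` is a conjugate parametrisation of `{E^σ = 0}` near `F' 0`, valid on the ball of radius
`r` -/
structure ConjPar (σ : ℂ ≃+* ℂ) (E : Set (MvPolynomial κ ℂ)) (F : D → κ → ℂ) (F' : D → κ → ℂ)
    (π : (κ → ℂ) →L[ℂ] D) (r : ℝ) : Prop where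
  pos : 0 < r
  an : AnalyticOnNhd ℂ F' (Metric.ball 0 r)
  /-- the base point is the conjugate point -/
  base : F' 0 = fun k => σ (F 0 k)
  /-- `F'` is a graph : `π` is a linear left inverse up to a translation -/
  graph : ∀ z ∈ Metric.ball (0 : D) r, π (F' z) = π (F' 0) + z
  /-- the derivatives are injective, with left inverse `π` -/
  der : ∀ z ∈ Metric.ball (0 : D) r, ∀ u, π (fderiv ℂ F' z u) = u
  /-- every polynomial that vanishes along `F` : its conjugate vanishes on the ball -/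
  van : ∀ q : MvPolynomial κ ℂ, (∀ᶠ w in 𝓝 (0 : D), MvPolynomial.eval (F w) q = 0) →
    ∀ z ∈ Metric.ball (0 : D) r,
      MvPolynomial.eval (F' z) (MvPolynomial.map (σ : ℂ →+* ℂ) q) = 0
  /-- the zeros of `E^σ` near `F' 0` are the values of `F'` -/
  onto : ∀ᶠ y in 𝓝 (F' 0),
    (∀ p ∈ E, MvPolynomial.eval y (MvPolynomial.map (σ : ℂ →+* ℂ) p) = 0) →
      π y - π (F' 0) ∈ Metric.ball (0 : D) r ∧ F' (π y - π (F' 0)) = y
  /-- the Zariski tangent space at `F' 0` is the range of `dF'(0)` -/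
  tan : ∀ t : κ → ℂ, (∀ p ∈ E, ∑ k, MvPolynomial.eval (F' 0)
      (MvPolynomial.pderiv k (MvPolynomial.map (σ : ℂ →+* ℂ) p)) * t k = 0) →
    fderiv ℂ F' 0 (π t) = t
  /-- the order of vanishing is transported -/
  jet : ∀ (l : MvPolynomial κ ℂ) (m : ℕ),
    (fun t => MvPolynomial.eval (F t) l) =O[𝓝 0] (fun t => ‖t‖ ^ m) →
    (fun t => MvPolynomial.eval (F' t) (MvPolynomial.map (σ : ℂ →+* ℂ) l)) =O[𝓝 0]
      fun t => ‖t‖ ^ m

namespace ConjPar

variable {σ : ℂ ≃+* ℂ} {E : Set (MvPolynomial κ ℂ)} {F F' : D → κ → ℂ} {π : (κ → ℂ) →L[ℂ] D}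
  {r : ℝ}

theorem injOn (h : ConjPar σ E F F' π r) : InjOn F' (Metric.ball 0 r) := by
  intro x hx y hy hxy
  have h1 := h.graph x hx
  rw [hxy, h.graph y hy] at h1
  exact (add_left_cancel h1).symm

theorem fderiv_injective (h : ConjPar σ E F F' π r) {z : D} (hz : z ∈ Metric.ball (0 : D) r) :
    Function.Injective (fderiv ℂ F' z) :=
  Function.LeftInverse.injective (g := π) (h.der z hz)

/-- `F'` maps neighbourhoods of `0` onto neighbourhoods of `F' 0` in the zero set -/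
theorem image_mem (h : ConjPar σ E F F' π r) {U : Set D} (hU : U ∈ 𝓝 0) :
    F' '' U ∈ 𝓝[{y | ∀ p ∈ E, MvPolynomial.eval y (MvPolynomial.map (σ : ℂ →+* ℂ) p) = 0}]
      (F' 0) := by
  rw [mem_nhdsWithin_iff_eventually]
  have h1 : Tendsto (fun y => π y - π (F' 0)) (𝓝 (F' 0)) (𝓝 0) := by
    have h2 : Continuous fun y => π y - π (F' 0) := π.continuous.sub continuous_const
    have h3 := h2.tendsto (F' 0)
    rwa [sub_self] at h3
  filter_upwards [h.onto, h1.eventually hU] with y hy hyU hyE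
  exact ⟨π y - π (F' 0), hyU, (hy hyE).2⟩

/-- restriction to a smaller ball -/
theorem mono (h : ConjPar σ E F F' π r) {r' : ℝ} (h0 : 0 < r') (hr : r' ≤ r) :
    ConjPar σ E F F' π r' := by
  have hs : Metric.ball (0 : D) r' ⊆ Metric.ball 0 r := Metric.ball_subset_ball hr
  refine ⟨h0, h.an.mono hs, h.base, fun z hz => h.graph z (hs hz), fun z hz => h.der z (hs hz),
    fun q hq z hz => h.van q hq z (hs hz), ?_, h.tan, h.jet⟩
  have h1 : Tendsto (fun y => π y - π (F' 0)) (𝓝 (F' 0)) (𝓝 0) := by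
    have h2 : Continuous fun y => π y - π (F' 0) := π.continuous.sub continuous_const
    have h3 := h2.tendsto (F' 0)
    rwa [sub_self] at h3
  filter_upwards [h.onto, h1.eventually (Metric.ball_mem_nhds (0 : D) h0)] with y hy hyU hyE
  exact ⟨hyU, (hy hyE).2⟩

/-- an open neighbourhood in which the zero set is exactly the image of the ball -/
theorem exists_open (h : ConjPar σ E F F' π r) (hEF : ∀ p ∈ E, ∀ᶠ z in 𝓝 (0 : D),
    MvPolynomial.eval (F z) p = 0) :
    ∃ W : Set (κ → ℂ), IsOpen W ∧ F' 0 ∈ W ∧ ∀ y ∈ W,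
      ((∀ p ∈ E, MvPolynomial.eval y (MvPolynomial.map (σ : ℂ →+* ℂ) p) = 0) ↔
        y ∈ F' '' Metric.ball 0 r) := by
  obtain ⟨W, hW, hWo, hW0⟩ := eventually_nhds_iff.1 h.onto
  refine ⟨W, hWo, hW0, fun y hy => ⟨fun hyE => ⟨_, (hW y hy hyE).1, (hW y hy hyE).2⟩, ?_⟩⟩
  rintro ⟨z, hz, rfl⟩ p hp
  exact h.van p (hEF p hp) z hz

end ConjPar

/-- **CONJ-LOC** -/
theorem conj_loc (σ : ℂ ≃+* ℂ) {F : D → κ → ℂ} (hF : AnalyticAt ℂ F 0)
    (hinj : Function.Injective (fderiv ℂ F 0)) {E : Set (MvPolynomial κ ℂ)}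
    (hE : ∀ p ∈ E, ∀ᶠ z in 𝓝 (0 : D), MvPolynomial.eval (F z) p = 0)
    (htan : ∀ t : κ → ℂ, (∀ p ∈ E, ∑ k, MvPolynomial.eval (F 0) (MvPolynomial.pderiv k p) * t k = 0)
      → t ∈ Set.range (fderiv ℂ F 0)) :
    ∃ (F' : D → κ → ℂ) (π : (κ → ℂ) →L[ℂ] D) (r : ℝ), ConjPar σ E F F' π r := by
  let e : D ≃L[ℂ] (Fin (Module.finrank ℂ D) → ℂ) := ContinuousLinearEquiv.ofFinrankEq (by simp)
  let F₁ : (Fin (Module.finrank ℂ D) → ℂ) → κ → ℂ := fun x => F (e.symm x)
  have he0 : e.symm 0 = 0 := map_zero _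
  have hs : HasFDerivAt (fun x => e.symm x)
      (e.symm : (Fin (Module.finrank ℂ D) → ℂ) →L[ℂ] D) 0 := e.symm.hasFDerivAt
  have hF₁ : AnalyticAt ℂ F₁ 0 :=
    AnalyticAt.comp (g := F) (f := fun x => e.symm x) (by rw [he0]; exact hF)
      ((e.symm : (Fin (Module.finrank ℂ D) → ℂ) →L[ℂ] D).analyticAt 0)
  have hd : fderiv ℂ F₁ 0 = (fderiv ℂ F 0).comp
      (e.symm : (Fin (Module.finrank ℂ D) → ℂ) →L[ℂ] D) := by
    have h1 : HasFDerivAt F (fderiv ℂ F 0) (e.symm 0) := by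
      rw [he0]
      exact hF.differentiableAt.hasFDerivAt
    exact (HasFDerivAt.comp (g := F) (f := fun x => e.symm x) 0 h1 hs).fderiv
  have hF₁0 : F₁ 0 = F 0 := by
    change F (e.symm 0) = F 0
    rw [he0]
  have hst : Tendsto (fun x => e.symm x) (𝓝 0) (𝓝 0) := by
    have := e.symm.continuous.tendsto 0
    rwa [he0] at this
  have het : Tendsto (fun x => e x) (𝓝 0) (𝓝 0) := by
    have := e.continuous.tendsto 0
    rwa [map_zero] at this
  have hVan : ∀ q : MvPolynomial κ ℂ, (∀ᶠ w in 𝓝 (0 : D), MvPolynomial.eval (F w) q = 0) →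
      q ∈ Van F₁ := fun q hq => hst.eventually hq
  obtain ⟨F', π, hF', hF'0, hgr, hvan, honto, htan', hjet⟩ := conj_aux σ hF₁ (by
      rw [hd]
      exact hinj.comp e.symm.injective) (E := E) (fun p hp => hVan p (hE p hp)) (fun t ht => by
      rw [hF₁0] at ht
      obtain ⟨x, hx⟩ := htan t fun p hp => by rw [← dv_apply]; exact ht p hp
      exact ⟨e x, by rw [hd, ContinuousLinearMap.comp_apply]; simpa using hx⟩)
  have hFe : AnalyticAt ℂ (fun z => F' (e z)) 0 :=
    AnalyticAt.comp (g := F') (f := fun x => e x) (by rw [map_zero]; exact hF')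
      ((e : D →L[ℂ] (Fin (Module.finrank ℂ D) → ℂ)).analyticAt 0)
  obtain ⟨r1, hr1, hFr1⟩ := hFe.exists_ball_analyticOnNhd
  obtain ⟨r2, hr2, hr2'⟩ := Metric.eventually_nhds_iff_ball.1 (het.eventually (hgr.and hvan))
  have hF0 : (fun z => F' (e z)) 0 = F' 0 := by
    change F' (e 0) = F' 0
    rw [map_zero]
  set r := min r1 r2 with hr
  have hrpos : 0 < r := lt_min hr1 hr2
  have hg : ∀ z ∈ Metric.ball (0 : D) r,
      e.symm (π (F' (e z))) = e.symm (π (F' 0)) + z := by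
    intro z hz
    rw [(hr2' z (Metric.ball_subset_ball (min_le_right _ _) hz)).1, map_add]
    simp
  refine ⟨fun z => F' (e z), (e.symm : (Fin (Module.finrank ℂ D) → ℂ) →L[ℂ] D).comp π, r,
    hrpos, hFr1.mono (Metric.ball_subset_ball (min_le_left _ _)), ?_, ?_, ?_, ?_, ?_, ?_, ?_⟩
  · refine hF0.trans ?_
    rw [hF'0, hF₁0]
  · intro z hz
    change e.symm (π (F' (e z))) = e.symm (π (F' (e 0))) + z
    rw [map_zero]
    exact hg z hz
  · intro z hz u
    have h1 : DifferentiableAt ℂ (fun z => F' (e z)) z :=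
      (hFr1 z (Metric.ball_subset_ball (min_le_left _ _) hz)).differentiableAt
    have h2 : HasFDerivAt (fun z => ((e.symm : (Fin (Module.finrank ℂ D) → ℂ) →L[ℂ] D).comp π)
        (F' (e z))) (((e.symm : (Fin (Module.finrank ℂ D) → ℂ) →L[ℂ] D).comp π).comp
          (fderiv ℂ (fun z => F' (e z)) z)) z :=
      (((e.symm : (Fin (Module.finrank ℂ D) → ℂ) →L[ℂ] D).comp π).hasFDerivAt).comp z
        h1.hasFDerivAt
    have h3 : HasFDerivAt (fun z => ((e.symm : (Fin (Module.finrank ℂ D) → ℂ) →L[ℂ] D).comp π)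
        (F' (e z))) (ContinuousLinearMap.id ℂ D) z := by
      have h4 : HasFDerivAt (fun z : D => e.symm (π (F' 0)) + z) (ContinuousLinearMap.id ℂ D) z :=
        (hasFDerivAt_id z).const_add _
      refine h4.congr_of_eventuallyEq ?_
      filter_upwards [Metric.isOpen_ball.mem_nhds hz] with w hw
      exact hg w hw
    have h5 := h2.unique h3
    exact DFunLike.congr_fun h5 u
  · intro q hq z hz
    exact (hr2' z (Metric.ball_subset_ball (min_le_right _ _) hz)).2 q (hVan q hq)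
  · change ∀ᶠ y in 𝓝 (F' (e 0)), (∀ p ∈ E, MvPolynomial.eval y
        (MvPolynomial.map (σ : ℂ →+* ℂ) p) = 0) →
      e.symm (π y) - e.symm (π (F' (e 0))) ∈ Metric.ball (0 : D) r ∧
        F' (e (e.symm (π y) - e.symm (π (F' (e 0))))) = y
    rw [map_zero]
    have h1 : Tendsto (fun y => e.symm (π y) - e.symm (π (F' 0))) (𝓝 (F' 0)) (𝓝 0) := by
      have h2 : Continuous fun y => e.symm (π y) - e.symm (π (F' 0)) :=
        (e.symm.continuous.comp π.continuous).sub continuous_const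
      have h3 := h2.tendsto (F' 0)
      rwa [sub_self] at h3
    filter_upwards [honto, h1.eventually (Metric.ball_mem_nhds (0 : D) hrpos)] with y hy hy2 hyE
    refine ⟨hy2, ?_⟩
    rw [← map_sub, ContinuousLinearEquiv.apply_symm_apply]
    exact hy hyE
  · intro t ht
    change ∀ p ∈ E, ∑ k, MvPolynomial.eval (F' (e 0))
      (MvPolynomial.pderiv k (MvPolynomial.map (σ : ℂ →+* ℂ) p)) * t k = 0 at ht
    rw [map_zero] at ht
    have h1 := htan' t fun p hp => by rw [dv_apply]; exact ht p hp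
    have h2 : HasFDerivAt (fun z => F' (e z)) ((fderiv ℂ F' 0).comp
        (e : D →L[ℂ] (Fin (Module.finrank ℂ D) → ℂ))) 0 := by
      have h3 : HasFDerivAt F' (fderiv ℂ F' 0) (e 0) := by
        rw [map_zero]
        exact hF'.differentiableAt.hasFDerivAt
      exact HasFDerivAt.comp (g := F') (f := fun x => e x) 0 h3 e.hasFDerivAt
    rw [h2.fderiv]
    change fderiv ℂ F' 0 (e (e.symm (π t))) = t
    rw [ContinuousLinearEquiv.apply_symm_apply]
    exact h1
  · intro l m hl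
    have h1 : (fun t => MvPolynomial.eval (F₁ t) l) =O[𝓝 0] fun t => ‖t‖ ^ m := by
      refine (hl.comp_tendsto hst).trans ?_
      have h2 : (fun x => e.symm x) =O[𝓝 0] fun x : Fin (Module.finrank ℂ D) → ℂ => x :=
        (e.symm : (Fin (Module.finrank ℂ D) → ℂ) →L[ℂ] D).isBigO_id _
      exact (h2.norm_norm).pow m
    refine ((hjet l m h1).comp_tendsto het).trans ?_
    have h2 : (fun x => e x) =O[𝓝 0] fun x : D => x :=
      (e : D →L[ℂ] (Fin (Module.finrank ℂ D) → ℂ)).isBigO_id _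
    exact (h2.norm_norm).pow m

/-! ### local descriptions and jets -/

/-- `θ` is a local description of the zero set of `E` at the smooth point `θ 0` -/
structure LocDesc (E : Set (MvPolynomial κ ℂ)) (θ : D → κ → ℂ) : Prop where
  an : AnalyticAt ℂ θ 0
  inj : Function.Injective (fderiv ℂ θ 0)
  van : ∀ p ∈ E, ∀ᶠ z in 𝓝 (0 : D), MvPolynomial.eval (θ z) p = 0
  tan : ∀ t : κ → ℂ, (∀ p ∈ E, ∑ k, MvPolynomial.eval (θ 0) (MvPolynomial.pderiv k p) * t k = 0)
    → t ∈ Set.range (fderiv ℂ θ 0)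

/-- finitely many of the equations suffice -/
theorem eventually_all {D' : Type*} [TopologicalSpace D'] {x : D'} {E : Set (MvPolynomial κ ℂ)}
    {θ : D' → κ → ℂ} (h : ∀ p ∈ E, ∀ᶠ z in 𝓝 x, MvPolynomial.eval (θ z) p = 0) :
    ∀ᶠ z in 𝓝 x, ∀ p ∈ E, MvPolynomial.eval (θ z) p = 0 := by
  classical
  obtain ⟨E0, hE0, hsp⟩ := (Submodule.fg_span_iff_fg_span_finset_subset (R := MvPolynomial κ ℂ)
    E).1 (IsNoetherian.noetherian _)
  have h1 : ∀ᶠ z in 𝓝 x, ∀ p ∈ E0, MvPolynomial.eval (θ z) p = 0 := by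
    rw [Finset.eventually_all]
    exact fun p hp => h p (hE0 hp)
  filter_upwards [h1] with z hz p hp
  have h2 : p ∈ Submodule.span (MvPolynomial κ ℂ) (E0 : Set _) := by
    rw [← hsp]
    exact Submodule.subset_span hp
  clear hp
  induction h2 using Submodule.span_induction with
  | mem q hq => exact hz q hq
  | zero => exact map_zero _
  | add q q' _ _ hq hq' => rw [map_add, hq, hq', add_zero]
  | smul a q _ hq => rw [smul_eq_mul, map_mul, hq, mul_zero]

/-- **transport of the order of vanishing**, to any germ in the conjugate zero set -/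
theorem ConjPar.jet_germ {σ : ℂ ≃+* ℂ} {E : Set (MvPolynomial κ ℂ)} {F F' : D → κ → ℂ}
    {π : (κ → ℂ) →L[ℂ] D} {r : ℝ} (h : ConjPar σ E F F' π r) {D' : Type*}
    [NormedAddCommGroup D'] [NormedSpace ℂ D'] {θ' : D' → κ → ℂ} (hθ : DifferentiableAt ℂ θ' 0)
    (h0 : θ' 0 = F' 0) (hE : ∀ p ∈ E, ∀ᶠ t in 𝓝 (0 : D'),
      MvPolynomial.eval (θ' t) (MvPolynomial.map (σ : ℂ →+* ℂ) p) = 0)
    {l : MvPolynomial κ ℂ} {m : ℕ}
    (hl : (fun t => MvPolynomial.eval (F t) l) =O[𝓝 0] fun t => ‖t‖ ^ m) :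
    (fun t => MvPolynomial.eval (θ' t) (MvPolynomial.map (σ : ℂ →+* ℂ) l)) =O[𝓝 0]
      fun t => ‖t‖ ^ m := by
  have h1 : ∀ᶠ t in 𝓝 (0 : D'), ∀ p ∈ MvPolynomial.map (σ : ℂ →+* ℂ) '' E,
      MvPolynomial.eval (θ' t) p = 0 := by
    refine eventually_all ?_
    rintro p ⟨q, hq, rfl⟩
    exact hE q hq
  have hθt : Tendsto θ' (𝓝 0) (𝓝 (F' 0)) := by
    have := hθ.continuousAt.tendsto
    rwa [h0] at this
  let z : D' → D := fun t => π (θ' t) - π (F' 0)
  have hz : z =O[𝓝 0] fun t => t := by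
    have h2 := hθ.isBigO_sub
    simp only [sub_zero] at h2
    have h3 : z = fun t => π (θ' t - θ' 0) := by
      funext t
      simp only [z]
      rw [map_sub, h0]
    rw [h3]
    exact (π.isBigO_comp _ _).trans h2
  have hz0 : Tendsto z (𝓝 0) (𝓝 0) := by
    have h2 : Tendsto (fun t => π (θ' t) - π (F' 0)) (𝓝 0) (𝓝 (π (F' 0) - π (F' 0))) :=
      ((π.continuous.tendsto _).comp hθt).sub tendsto_const_nhds
    rwa [sub_self] at h2
  have h4 := ((h.jet l m hl).comp_tendsto hz0).trans ((hz.norm_norm).pow m)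
  refine h4.congr' ?_ EventuallyEq.rfl
  filter_upwards [hθt.eventually h.onto, h1] with t ht ht1
  have h5 := (ht fun p hp => ht1 _ ⟨p, hp, rfl⟩).2
  simp only [Function.comp_apply, z]
  rw [h5]

/-- **JET-CONJ** : the order of vanishing along local descriptions at `v` and at `σ v` -/
theorem jet_iff (σ : ℂ ≃+* ℂ) {E E' : Set (MvPolynomial κ ℂ)}
    (hE' : E' = MvPolynomial.map (σ : ℂ →+* ℂ) '' E) {θ : D → κ → ℂ} (h : LocDesc E θ)
    {D' : Type*} [NormedAddCommGroup D'] [NormedSpace ℂ D'] [FiniteDimensional ℂ D']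
    {θ' : D' → κ → ℂ} (h' : LocDesc E' θ') (h0 : θ' 0 = fun k => σ (θ 0 k))
    (l : MvPolynomial κ ℂ) (m : ℕ) :
    ((fun t => MvPolynomial.eval (θ t) l) =O[𝓝 0] fun t => ‖t‖ ^ m) ↔
      ((fun t => MvPolynomial.eval (θ' t) (MvPolynomial.map (σ : ℂ →+* ℂ) l)) =O[𝓝 0]
        fun t => ‖t‖ ^ m) := by
  have hinv : ∀ p : MvPolynomial κ ℂ, MvPolynomial.map (σ.symm : ℂ →+* ℂ)
      (MvPolynomial.map (σ : ℂ →+* ℂ) p) = p := by
    intro p
    rw [MvPolynomial.map_map]
    have h1 : ((σ.symm : ℂ →+* ℂ).comp (σ : ℂ →+* ℂ)) = RingHom.id ℂ := by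
      ext x
      simp
    rw [h1, MvPolynomial.map_id]
  constructor
  · intro hl
    obtain ⟨F', π, r, hc⟩ := conj_loc σ h.an h.inj h.van h.tan
    refine hc.jet_germ h'.an.differentiableAt (by rw [h0, hc.base]) (fun p hp => ?_) hl
    exact h'.van _ (by rw [hE']; exact ⟨p, hp, rfl⟩)
  · intro hl
    obtain ⟨F', π, r, hc⟩ := conj_loc σ.symm h'.an h'.inj h'.van h'.tan
    have h1 := hc.jet_germ h.an.differentiableAt (by
      rw [hc.base, h0]
      funext k
      simp) (fun p hp => ?_) hl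
    · rwa [hinv] at h1
    · rw [hE'] at hp
      obtain ⟨q, hq, rfl⟩ := hp
      rw [hinv]
      exact h.van q hq

/-- the case where `σ` fixes the equations -/
theorem jet_iff_fix (σ : ℂ ≃+* ℂ) {E : Set (MvPolynomial κ ℂ)}
    (hE : ∀ p ∈ E, MvPolynomial.map (σ : ℂ →+* ℂ) p = p) {θ : D → κ → ℂ} (h : LocDesc E θ)
    {D' : Type*} [NormedAddCommGroup D'] [NormedSpace ℂ D'] [FiniteDimensional ℂ D']
    {θ' : D' → κ → ℂ} (h' : LocDesc E θ') (h0 : θ' 0 = fun k => σ (θ 0 k))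
    (l : MvPolynomial κ ℂ) (m : ℕ) :
    ((fun t => MvPolynomial.eval (θ t) l) =O[𝓝 0] fun t => ‖t‖ ^ m) ↔
      ((fun t => MvPolynomial.eval (θ' t) (MvPolynomial.map (σ : ℂ →+* ℂ) l)) =O[𝓝 0]
        fun t => ‖t‖ ^ m) := by
  refine jet_iff σ (E' := E) ?_ h h' h0 l m
  ext p
  constructor
  · intro hp
    exact ⟨p, hp, hE p hp⟩
  · rintro ⟨q, hq, rfl⟩
    rwa [hE q hq]

end

end Crest.Agent.R281.CjL_310
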