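import Crest.Agent.R281.Yv5_900

/-!
# Row 281, YAU-VAR (L5) of 900 #8246 (helper449, second version): CLOS

* `closSt` : **`ClosSt B`** of `Yv5_900`: elements of the closure of the jets are jets of functions
  of class `C²`
-/

set_option autoImplicit false
set_option linter.unusedSectionVars false
set_option maxSynthPendingDepth 3

open Set Filter Topology Metric
open scoped ContDiff

namespace Crest.Agent.R281.Cl_449

open Crest.Agent.R275.Geo Crest.Agent.R275.Core144 Crest.Agent.R275.EDR890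
open Crest.Agent.R275.GC293
open Crest.Agent.R273 Crest.Agent.R273.YauDefs_635 Crest.Agent.R273.SchF_152
open Crest.Agent.R273.YauCh_635 (Tm)
open Crest.Agent.R281.Hjs_680 Crest.Agent.R281.Yv_900

noncomputable section

variable {n : ℕ} {X : Type} [TopologicalSpace X] {A : Atl n X}

theorem honest_jj (B : Cb A) (f : SmE A) (k : B.κ) :
    Jet.Honest (K := KK B k) (jj B f k) :=
  jet_honest (KK_compact B k) (KK_convex B k) (A.e (B.i k)).open_target (KK_sub B k)
    (SmE.cd3 f (B.i k))

theorem interior_KK (B : Cb A) (k : B.κ) : interior (KK B k) = ball (B.z k) (B.r k / 2) :=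
  interior_closedBall _ (by have := B.r0 k; positivity)

/-- a function which is `C²` in the half balls is `C²` in all charts -/
theorem c2_of_balls (B : Cb A) {U : X → ℝ}
    (h : ∀ k, ContDiffOn ℝ 2 (inC A (B.i k) U) (ball (B.z k) (B.r k / 2))) (i : A.ι) :
    ContDiffOn ℝ 2 (inC A i U) (A.e i).target := by
  intro w0 hw0
  refine ContDiffAt.contDiffWithinAt ?_
  have hx0 : (A.e i).symm w0 ∈ (A.e i).source := (A.e i).map_target hw0
  obtain ⟨k, hk, hkb⟩ := B.cover ((A.e i).symm w0)
  have hov : w0 ∈ A.ov i (B.i k) := ⟨hw0, hk⟩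
  have hT : ContDiffAt ℝ 2 (Tm A i (B.i k)) w0 := by
    have := YauCh_635.anal_Tm (A := A) (i := i) (j := B.i k) ⟨hx0, hk⟩
    rw [(A.e i).right_inv hw0] at this
    exact (this.contDiffAt.restrict_scalars ℝ)
  have hTb : Tm A i (B.i k) w0 ∈ ball (B.z k) (B.r k / 2) := hkb
  have h1 : ContDiffAt ℝ 2 (inC A (B.i k) U) (Tm A i (B.i k) w0) :=
    (h k).contDiffAt (isOpen_ball.mem_nhds hTb)
  refine (h1.comp w0 hT).congr_of_eventuallyEq ?_
  filter_upwards [(isOpen_ov i (B.i k)).mem_nhds hov] with w hw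
  simp only [Function.comp_apply, inC, Tm, (A.e (B.i k)).left_inv hw.2]

/-- **(L5) CLOS** -/
theorem closSt (B : Cb A) : ClosSt B := by
  intro x hx
  have hx' : x ∈ closure (LinearMap.range (jj B) : Set (JJ B)) := hx
  obtain ⟨f, hf, hfx⟩ := mem_closure_iff_seq_limit.1 hx'
  choose F hF using hf
  have hk : ∀ k, Tendsto (fun ν => jj B (F ν) k) atTop (𝓝 (x k)) := by
    intro k
    have h1 := (tendsto_pi_nhds.1 hfx) k
    refine h1.congr fun ν => ?_
    rw [hF]
  have h0 : ∀ k, ∀ z ∈ KK B k, Tendsto (fun ν => inC A (B.i k) (F ν) z) atTop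
      (𝓝 (HF.fn (x k).1 z)) := by
    intro k z hz
    have h1 : Tendsto (fun ν => p0L (KK B k) (jj B (F ν) k)) atTop (𝓝 (p0L (KK B k) (x k))) :=
      ((p0L (KK B k)).continuous.tendsto _).comp (hk k)
    have h2 := HF.tendsto_fn h1 z
    refine h2.congr fun ν => ?_
    exact fn_jj0 B (F ν) k hz
  choose kk hks hkb using B.cover
  set U : X → ℝ := fun p => HF.fn (x (kk p)).1 (A.e (B.i (kk p)) p) with hU
  have hlim : ∀ p, Tendsto (fun ν => (F ν : X → ℝ) p) atTop (𝓝 (U p)) := by
    intro p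
    have h1 := h0 (kk p) (A.e (B.i (kk p)) p) (ball_subset_closedBall (hkb p))
    refine h1.congr fun ν => ?_
    simp only [inC, (A.e (B.i (kk p))).left_inv (hks p)]
  have hv : ∀ k, ∀ z ∈ KK B k, HF.fn (x k).1 z = inC A (B.i k) U z := fun k z hz =>
    tendsto_nhds_unique (h0 k z hz) (hlim _)
  have hon : ∀ k, Jet.Honest (K := KK B k) (x k) := by
    intro k
    have h1 : IsClosed {z : Jet (KK B k) | z.Honest} := Jet.isClosed_honest
    exact h1.mem_of_tendsto (hk k) (Eventually.of_forall fun ν => honest_jj B (F ν) k)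
  have hev : ∀ k, ∀ z ∈ ball (B.z k) (B.r k / 2),
      inC A (B.i k) U =ᶠ[𝓝 z] HF.fn (x k).1 := by
    intro k z hz
    filter_upwards [isOpen_ball.mem_nhds hz] with y hy
    exact (hv k y (ball_subset_closedBall hy)).symm
  refine ⟨U, c2_of_balls B fun k => ?_, fun k => ⟨hv k, fun z hz => ⟨?_, ?_⟩⟩⟩
  · have h1 := (hon k).c2
    rw [interior_KK] at h1
    exact h1.congr fun z hz => (hv k z (ball_subset_closedBall hz)).symm
  · have hz' : z ∈ interior (KK B k) := by rwa [interior_KK]
    rw [(hev k z hz).fderiv_eq]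
    exact ((hon k).fderiv1 hz').symm
  · have hz' : z ∈ interior (KK B k) := by rwa [interior_KK]
    rw [(hev k z hz).fderiv.fderiv_eq]
    exact ((hon k).fderiv2 hz').symm

end

end Crest.Agent.R281.Cl_449
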