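import Crest.Agent.R281.Rk2_599

/-!
# R281 (S0424), S6-RANK part 3 (helper599): sections are functions of `r` variables

* `exists_net_dense` : a net with centres in a given dense set
* `order_of_slice`   : if the rank `r` is maximal, a section `f` of `L ^ m` which vanishes to order
                       `K` along the slice of a centre vanishes to order `K` at the centre
* `h0_le_rank`       : `h⁰(L ^ m) ≤ N (m c + 2) ^ r`
* `rank_of_growth`   : `h⁰(L ^ m)` not `O(m ^ d)` ⇒ sections of some `L ^ k` of rank `d + 1`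
-/

set_option autoImplicit false
set_option linter.unusedSectionVars false

open Set Filter Topology Complex Metric Asymptotics
open scoped NNReal ENNReal

namespace Crest.Agent.R281.Rk_599

open Crest.Agent.R275.Geo Crest.Agent.R275.Core144 Crest.Agent.R273.Sg1_101
open Crest.Agent.R273.Sg2_101

noncomputable section

variable {n : ℕ} {M : Type} [TopologicalSpace M] {A : Atl n M}

/-- a net with centres in a dense set -/
theorem exists_net_dense [CompactSpace M] (A : Atl n M) {D : Set M} (hD : Dense D) :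
    ∃ T : Net A, ∀ l, (A.e (T.i l)).symm (T.z l) ∈ D := by
  choose i hi using A.cover
  have h1 : ∀ x, ∃ r > 0, ∃ z, closedBall z (2 * r) ⊆ (A.e (i x)).target ∧
      A.e (i x) x ∈ ball z r ∧ (A.e (i x)).symm z ∈ D := by
    intro x
    obtain ⟨ε, hε, hs⟩ := nhds_basis_closedBall.mem_iff.1
      ((A.e (i x)).open_target.mem_nhds ((A.e (i x)).map_source (hi x)))
    have hW : IsOpen ((A.e (i x)).source ∩ (A.e (i x)) ⁻¹' ball (A.e (i x) x) (ε / 4)) :=
      (A.e (i x)).isOpen_inter_preimage isOpen_ball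
    obtain ⟨y, ⟨hys, hyb⟩, hyD⟩ := hD.inter_open_nonempty _ hW
      ⟨x, hi x, mem_ball_self (by positivity)⟩
    refine ⟨ε / 4, by positivity, A.e (i x) y, ?_, ?_, ?_⟩
    · refine Subset.trans (closedBall_subset_closedBall' ?_) hs
      have := (mem_ball.1 hyb).le
      linarith
    · rw [mem_ball, dist_comm]
      exact hyb
    · rwa [(A.e (i x)).left_inv hys]
  choose r hr z hz hxz hzD using h1
  set W : M → Set M := fun x => (A.e (i x)).source ∩ (A.e (i x)) ⁻¹' ball (z x) (r x) with hW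
  have hWo : ∀ x, IsOpen (W x) := fun x => (A.e (i x)).isOpen_inter_preimage isOpen_ball
  obtain ⟨t, ht⟩ := isCompact_univ.elim_finite_subcover W hWo fun x _ => mem_iUnion.2
    ⟨x, hi x, hxz x⟩
  refine ⟨⟨t.card, fun l => i (t.equivFin.symm l), fun l => z (t.equivFin.symm l),
    fun l => r (t.equivFin.symm l), fun l => hr _, fun l => hz _, fun x => ?_⟩, fun l => hzD _⟩
  obtain ⟨y, hy⟩ := mem_iUnion.1 (ht (mem_univ x))
  obtain ⟨hyt, hxy⟩ := mem_iUnion.1 hy
  refine ⟨t.equivFin ⟨y, hyt⟩, ?_⟩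
  simp only [Equiv.symm_apply_apply]
  exact ⟨hxy.1, ball_subset_closedBall hxy.2⟩

/-- a section which vanishes to order `c + 2` at all centres vanishes -/
theorem eq_zero_of_slices {T : Net A} {L : LB A} {c : ℕ} (hc : Bd T L c) {s : A.ι → M → ℂ}
    (hs : IsHS L univ s) (hz : ∀ l, ∀ j < c + 2, ∀ v,
      iteratedFDeriv ℂ j (rd A (T.i l) s) (T.z l) (fun _ => v) = 0) : s = 0 := by
  -- a bound on the small balls
  have h1 : ∀ l, ∃ B : ℝ, ∀ w ∈ closedBall (T.z l) (T.r l), ‖rd A (T.i l) s w‖ ≤ B := fun l =>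
    (isCompact_closedBall _ _).exists_bound_of_continuousOn ((hs_diff hs _).continuousOn.mono
      ((closedBall_subset_closedBall (by have := T.rpos l; linarith)).trans (T.sub l)))
  choose B0 hB0 using h1
  set B : ℝ := ∑ l, |B0 l| with hB
  have hBl : ∀ l, B0 l ≤ B := fun l => (le_abs_self _).trans
    (Finset.single_le_sum (f := fun l => |B0 l|) (fun _ _ => abs_nonneg _) (Finset.mem_univ l))
  have h2 : ∀ j : ℕ, ∀ l, ∀ w ∈ closedBall (T.z l) (T.r l),
      ‖rd A (T.i l) s w‖ ≤ B * (1 / 2) ^ j := by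
    intro j
    induction j with
    | zero =>
      intro l w hw
      rw [pow_zero, mul_one]
      exact (hB0 l w hw).trans (hBl l)
    | succ j ih =>
      intro l w hw
      have h3 : ∀ w ∈ closedBall (T.z l) (2 * T.r l),
          ‖rd A (T.i l) s w‖ ≤ 2 ^ c * (B * (1 / 2) ^ j) := by
        intro w hw
        have hx := (A.e (T.i l)).map_target (T.sub l hw)
        obtain ⟨l', hl', hm⟩ := T.cov ((A.e (T.i l)).symm w)
        unfold rd
        rw [hs.tr (T.i l) (T.i l') _ ⟨hx, hl'⟩ (mem_univ _), norm_mul]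
        have h4 := ih l' _ hm
        unfold rd at h4
        rw [(A.e (T.i l')).left_inv hl'] at h4
        have h5 := hc l l' _ hx (by rw [(A.e (T.i l)).right_inv (T.sub l hw)]; exact hw) hl' hm
        exact mul_le_mul h5 h4 (norm_nonneg _) (by positivity)
      have h6 := schwarzS (A.e (T.i l)).open_target (hs_diff hs _) (T.rpos l) (T.sub l) h3
        (k := c + 2) (hz l) hw
      refine h6.trans (le_of_eq ?_)
      rw [pow_add, pow_succ]
      have h7 : (2 : ℝ) ^ c * (1 / 2) ^ c = 1 := by rw [← mul_pow]; norm_num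
      calc 2 ^ c * (B * (1 / 2) ^ j) * ((1 / 2) ^ c * (1 / 2) ^ 2) * 2
          = (2 ^ c * (1 / 2) ^ c) * (B * (1 / 2) ^ j * (1 / 2)) := by ring
        _ = B * ((1 / 2) ^ j * (1 / 2)) := by rw [h7]; ring
  have h8 : ∀ l, ∀ w ∈ closedBall (T.z l) (T.r l), rd A (T.i l) s w = 0 := by
    intro l w hw
    have h9 : Tendsto (fun j : ℕ => B * (1 / 2 : ℝ) ^ j) atTop (𝓝 (B * 0)) :=
      (tendsto_pow_atTop_nhds_zero_of_lt_one (by norm_num) (by norm_num)).const_mul B
    rw [mul_zero] at h9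
    exact norm_le_zero_iff.1 (ge_of_tendsto' h9 fun j => h2 j l w hw)
  funext i x
  show s i x = 0
  by_cases hx : x ∈ (A.e i).source
  · obtain ⟨l, hl, hm⟩ := T.cov x
    have h9 := h8 l _ hm
    unfold rd at h9
    rw [(A.e (T.i l)).left_inv hl] at h9
    rw [hs.tr i (T.i l) x ⟨hx, hl⟩ (mem_univ _), h9, mul_zero]
  · exact hs.off i x hx

/-- the ratio map into `Cn r` -/
def yv (A : Atl n M) {r : ℕ} (s : Fin (r + 1) → A.ι → M → ℂ) (i : A.ι) (z : Cn n) : Cn r :=
  WithLp.toLp 2 fun a => rat A s i a z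

/-- no larger rank for powers of `L` -/
def MaxRk (L : LB A) (r : ℕ) : Prop :=
  ∀ k, 0 < k → ∀ t : Fin (r + 1 + 1) → A.ι → M → ℂ, (∀ a, IsHS (L ^ k) univ (t a)) →
    ∀ i x, ¬ Rk A t i x

theorem eventually_rk {L : LB A} {r : ℕ} {s : Fin (r + 1) → A.ι → M → ℂ}
    (hs : ∀ a, IsHS L univ (s a)) {i : A.ι} {z : Cn n} (hz : z ∈ (A.e i).target)
    (h : Rk A s i ((A.e i).symm z)) :
    ∀ᶠ w in 𝓝 z, w ∈ (A.e i).target ∧ Rk A s i ((A.e i).symm w) := by
  obtain ⟨v, hv⟩ := (rk_iff_mnr hs ((A.e i).map_target hz)).1 h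
  rw [(A.e i).right_inv hz] at hv
  have h1 := (analyticOnNhd_mnr hs i v z hz).continuousAt.eventually_ne hv
  filter_upwards [h1, (A.e i).open_target.mem_nhds hz] with w hw hwt
  refine ⟨hwt, (rk_iff_mnr hs ((A.e i).map_target hwt)).2 ⟨v, ?_⟩⟩
  rwa [(A.e i).right_inv hwt]

/-- the `(r+2)`-tuple `(s_0^(m+1), s_a s_0^m, f^k s_0)` -/
def tup {r : ℕ} (s : Fin (r + 1) → A.ι → M → ℂ) (f : A.ι → M → ℂ) (k m : ℕ) :
    Fin (r + 1 + 1) → A.ι → M → ℂ :=
  Fin.cons (s 0 ^ (m + 1)) (Fin.snoc (fun a : Fin r => s a.succ * s 0 ^ m) (f ^ k * s 0))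

theorem isHS_mul_pow {L L' : LB A} {s t : A.ι → M → ℂ} (hs : IsHS L univ s)
    (ht : IsHS L' univ t) (m : ℕ) : IsHS (L * L' ^ m) univ (s * t ^ m) := by
  induction m with
  | zero => simpa using hs
  | succ m ih =>
    rw [pow_succ, pow_succ, ← mul_assoc, ← mul_assoc]
    exact ih.mul ht

theorem isHS_tup {L : LB A} {r k m : ℕ} {s : Fin (r + 1) → A.ι → M → ℂ}
    (hs : ∀ a, IsHS (L ^ k) univ (s a)) {f : A.ι → M → ℂ} (hf : IsHS (L ^ m) univ f)
    (a : Fin (r + 1 + 1)) : IsHS (L ^ (k * (m + 1))) univ (tup s f k m a) := by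
  have e1 : L ^ (k * (m + 1)) = L ^ k * (L ^ k) ^ m := by
    rw [← pow_mul, ← pow_add]; ring_nf
  unfold tup
  refine Fin.cases ?_ (fun b => ?_) a
  · rw [Fin.cons_zero, e1, pow_succ']
    exact isHS_mul_pow (hs 0) (hs 0) m
  · rw [Fin.cons_succ]
    refine Fin.lastCases ?_ (fun c => ?_) b
    · rw [Fin.snoc_last]
      have e2 : L ^ (k * (m + 1)) = L ^ k * (L ^ m) ^ k := by
        rw [← pow_mul, ← pow_add]; ring_nf
      rw [e2, mul_comm (f ^ k)]
      exact isHS_mul_pow (hs 0) hf k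
    · rw [Fin.snoc_castSucc, e1]
      exact isHS_mul_pow (hs c.succ) (hs 0) m

/-- `f ^ k / s_0 ^ m` in the chart `i` -/
def quo (A : Atl n M) {r : ℕ} (s : Fin (r + 1) → A.ι → M → ℂ) (f : A.ι → M → ℂ) (k m : ℕ)
    (i : A.ι) (z : Cn n) : ℂ := rd A i f z ^ k / rd A i (s 0) z ^ m

theorem ker_quo {L : LB A} {r k m : ℕ} (hmax : MaxRk L r) (hk : 0 < k)
    {s : Fin (r + 1) → A.ι → M → ℂ} (hs : ∀ a, IsHS (L ^ k) univ (s a)) {f : A.ι → M → ℂ}
    (hf : IsHS (L ^ m) univ f) {i : A.ι} {w : Cn n} (hw : w ∈ (A.e i).target)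
    (h : Rk A s i ((A.e i).symm w)) (v : Cn n)
    (hv : ∀ a, fderiv ℂ (rat A s i a) w v = 0) : fderiv ℂ (quo A s f k m i) w v = 0 := by
  obtain ⟨hx, h0, hl⟩ := h
  rw [(A.e i).right_inv hw] at hl
  have h0' : rd A i (s 0) w ≠ 0 := h0
  have hne : ∀ᶠ z in 𝓝 w, rd A i (s 0) z ≠ 0 :=
    (analyticOnNhd_rd (hs 0) i w hw).continuousAt.eventually_ne h0'
  have hnot := hmax _ (Nat.mul_pos hk (Nat.succ_pos m)) (tup s f k m) (isHS_tup hs hf) i
    ((A.e i).symm w)
  have hrat : (fun a : Fin (r + 1) => fderiv ℂ (rat A (tup s f k m) i a) w) =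
      Fin.snoc (α := fun _ => Cn n →L[ℂ] ℂ) (fun a : Fin r => fderiv ℂ (rat A s i a) w)
        (fderiv ℂ (quo A s f k m i) w) := by
    funext a
    refine Fin.lastCases ?_ (fun c => ?_) a
    · rw [Fin.snoc_last]
      refine Filter.EventuallyEq.fderiv_eq ?_
      filter_upwards [hne] with z hz
      have hz' : s 0 i ((A.e i).symm z) ≠ 0 := hz
      simp only [rat, tup, Fin.cons_zero, Fin.cons_succ, Fin.snoc_last, quo, rd, Pi.mul_apply,
        Pi.pow_apply]
      field_simp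
      ring
    · rw [Fin.snoc_castSucc]
      refine Filter.EventuallyEq.fderiv_eq ?_
      filter_upwards [hne] with z hz
      have hz' : s 0 i ((A.e i).symm z) ≠ 0 := hz
      simp only [rat, tup, Fin.cons_zero, Fin.cons_succ, Fin.snoc_castSucc, Pi.mul_apply,
        Pi.pow_apply]
      field_simp
      ring
  have h1 : ¬ LinearIndependent ℂ (fun a : Fin (r + 1) =>
      fderiv ℂ (rat A (tup s f k m) i a) w) := by
    intro h2
    apply hnot
    refine ⟨hx, ?_, ?_⟩
    · simp only [tup, Fin.cons_zero, Pi.pow_apply]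
      exact pow_ne_zero _ h0
    · rw [(A.e i).right_inv hw]
      exact h2
  rw [hrat, linearIndependent_finSnoc] at h1
  push Not at h1
  have h2 := h1 hl
  -- a functional in the span of `dy` kills `ker dy`
  have h3 : Submodule.span ℂ (range fun a : Fin r => fderiv ℂ (rat A s i a) w) ≤
      LinearMap.ker ((ContinuousLinearMap.apply ℂ ℂ v : (Cn n →L[ℂ] ℂ) →L[ℂ] ℂ) :
        (Cn n →L[ℂ] ℂ) →ₗ[ℂ] ℂ) := by
    rw [Submodule.span_le]
    rintro _ ⟨a, rfl⟩
    exact hv a
  exact h3 h2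

/-- the right inverse of `Dy` given by a dual family -/
def rinv {r : ℕ} (v : Fin r → Cn n) : Cn r →L[ℂ] Cn n :=
  ∑ b, (EuclideanSpace.proj b : Cn r →L[ℂ] ℂ).smulRight (v b)

theorem rinv_apply {r : ℕ} (v : Fin r → Cn n) (t : Cn r) : rinv v t = ∑ b, t b • v b := by
  simp [rinv, sum_apply]

theorem contDiffAt_yv {L : LB A} {r : ℕ} {s : Fin (r + 1) → A.ι → M → ℂ}
    (hs : ∀ a, IsHS L univ (s a)) {i : A.ι} {z : Cn n} (hz : z ∈ (A.e i).target)
    (h0 : s 0 i ((A.e i).symm z) ≠ 0) : ContDiffAt ℂ 1 (yv A s i) z := by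
  rw [contDiffAt_piLp]
  intro a
  have h1 := analyticAt_rat hs ((A.e i).map_target hz) h0 a
  rw [(A.e i).right_inv hz] at h1
  exact h1.contDiffAt

theorem fderiv_yv {L : LB A} {r : ℕ} {s : Fin (r + 1) → A.ι → M → ℂ}
    (hs : ∀ a, IsHS L univ (s a)) {i : A.ι} {z : Cn n} (hz : z ∈ (A.e i).target)
    (h0 : s 0 i ((A.e i).symm z) ≠ 0) (v : Cn n) (a : Fin r) :
    fderiv ℂ (yv A s i) z v a = fderiv ℂ (rat A s i a) z v := by
  have h1 : DifferentiableAt ℂ (yv A s i) z :=
    (contDiffAt_yv hs hz h0).differentiableAt one_ne_zero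
  have h2 := ((EuclideanSpace.proj a : Cn r →L[ℂ] ℂ).hasFDerivAt.comp z h1.hasFDerivAt).fderiv
  have h3 : ((EuclideanSpace.proj a : Cn r →L[ℂ] ℂ) ∘ yv A s i) = rat A s i a := by
    funext w
    simp [yv]
  rw [h3] at h2
  rw [h2]
  rfl

/-- the key step: order of vanishing from a slice -/
theorem order_of_slice {L : LB A} {r k m : ℕ} (hmax : MaxRk L r) (hk : 0 < k)
    {s : Fin (r + 1) → A.ι → M → ℂ} (hs : ∀ a, IsHS (L ^ k) univ (s a)) {f : A.ι → M → ℂ}
    (hf : IsHS (L ^ m) univ f) {i : A.ι} {z : Cn n} (hz : z ∈ (A.e i).target)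
    (h : Rk A s i ((A.e i).symm z)) {v : Fin r → Cn n}
    (hv : ∀ a b, fderiv ℂ (rat A s i a) z (v b) = if a = b then 1 else 0) {K : ℕ}
    (hO : (fun t : Cn r => rd A i f (z + rinv v t)) =O[𝓝 0] fun t => ‖t‖ ^ K) :
    rd A i f =O[𝓝 z] fun w => ‖w - z‖ ^ K := by
  have h0 : s 0 i ((A.e i).symm z) ≠ 0 := h.2.1
  have h0' : rd A i (s 0) z ≠ 0 := h0
  have hc0 : ContinuousAt (rd A i (s 0)) z := (analyticOnNhd_rd (hs 0) i z hz).continuousAt
  have hne : ∀ᶠ w in 𝓝 z, rd A i (s 0) w ≠ 0 := hc0.eventually_ne h0'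
  have hev := eventually_rk hs hz h
  -- `F = f ^ k / s_0 ^ m`
  have hF : ∀ᶠ w in 𝓝 z, DifferentiableAt ℂ (quo A s f k m i) w := by
    filter_upwards [hne, (A.e i).open_target.mem_nhds hz] with w hw hwt
    have h1 : DifferentiableAt ℂ (fun w => rd A i f w ^ k) w :=
      (analyticOnNhd_rd hf i w hwt).differentiableAt.pow k
    have h2 : DifferentiableAt ℂ (fun w => rd A i (s 0) w ^ m) w :=
      (analyticOnNhd_rd (hs 0) i w hwt).differentiableAt.pow m
    have h3 : DifferentiableAt ℂ (fun w => rd A i f w ^ k * (rd A i (s 0) w ^ m)⁻¹) w :=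
      h1.mul (h2.inv (pow_ne_zero _ hw))
    have h4 : quo A s f k m i = fun w => rd A i f w ^ k * (rd A i (s 0) w ^ m)⁻¹ := by
      funext w
      simp only [quo, div_eq_mul_inv]
    rw [h4]
    exact h3
  have hker : ∀ᶠ w in 𝓝 z, ∀ u, fderiv ℂ (yv A s i) w u = 0 →
      fderiv ℂ (quo A s f k m i) w u = 0 := by
    filter_upwards [hev] with w hw u hu
    refine ker_quo hmax hk hs hf hw.1 hw.2 u fun a => ?_
    rw [← fderiv_yv hs hw.1 hw.2.2.1, hu]
    rfl
  have hR : ∀ t, fderiv ℂ (yv A s i) z (rinv v t) = t := by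
    intro t
    ext a
    rw [fderiv_yv hs hz h0, rinv_apply, map_sum]
    simp only [map_smul, hv, smul_eq_mul, mul_ite, mul_one, mul_zero]
    rw [Finset.sum_ite_eq Finset.univ a, if_pos (Finset.mem_univ a)]
  have hbd : (fun w => (rd A i (s 0) w ^ m)⁻¹) =O[𝓝 z] fun _ => (1 : ℝ) :=
    ((hc0.pow m).inv₀ (pow_ne_zero _ h0')).isBigO_one ℝ
  have hbd' : (fun w => rd A i (s 0) w ^ m) =O[𝓝 z] fun _ => (1 : ℝ) :=
    (hc0.pow m).isBigO_one ℝ
  have hslice : Tendsto (fun t : Cn r => z + rinv v t) (𝓝 0) (𝓝 z) := by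
    have h1 : ContinuousAt (fun t : Cn r => z + rinv v t) 0 := by fun_prop
    simpa using h1.tendsto
  have hFO : (fun t => quo A s f k m i (z + rinv v t)) =O[𝓝 0] fun t => ‖t‖ ^ (K * k) := by
    have h1 := (hO.pow k).mul (hbd.comp_tendsto hslice)
    refine h1.congr (fun t => ?_) fun t => ?_
    · simp only [quo, Function.comp_apply, div_eq_mul_inv]
    · simp only [Function.comp_apply, mul_one, ← pow_mul]
  have h2 := factor (contDiffAt_yv hs hz h0) (rinv v) hR hF hker hFO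
  -- back to `f`
  have h3 : (fun w => rd A i f w ^ k) =O[𝓝 z] fun w => (‖w - z‖ ^ K) ^ k := by
    have h4 := h2.mul hbd'
    refine h4.congr' ?_ (Eventually.of_forall fun w => by simp only [mul_one, ← pow_mul])
    filter_upwards [hne] with w hw
    simp only [quo]
    rw [div_mul_cancel₀ _ (pow_ne_zero _ hw)]
  exact IsBigO.of_pow hk.ne' h3

/-- **sections are functions of `r` variables**: `h⁰(L ^ m) ≤ N (m c + 2) ^ r` -/
theorem h0_le_rank [CompactSpace M] [T2Space M] [PreconnectedSpace M] {L : LB A} {r k : ℕ}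
    (hmax : MaxRk L r) (hk : 0 < k) {s : Fin (r + 1) → A.ι → M → ℂ}
    (hs : ∀ a, IsHS (L ^ k) univ (s a)) {i₀ : A.ι} {x₀ : M} (h₀ : Rk A s i₀ x₀) :
    ∃ N c : ℕ, ∀ m, Module.finrank ℂ (HS (L ^ m) univ) ≤ N * (m * c + 2) ^ r := by
  obtain ⟨T, hT⟩ := exists_net_dense A (dense_rk hs h₀)
  obtain ⟨c, hc⟩ := exists_Bd T L
  refine ⟨T.N, c, fun m => ?_⟩
  have hcm : Bd T (L ^ m) (m * c) := hc.pow m
  have hzt : ∀ l, T.z l ∈ (A.e (T.i l)).target := fun l =>
    T.sub l (mem_closedBall_self (by have := T.rpos l; positivity))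
  have hrk : ∀ l, Rk A s (T.i l) ((A.e (T.i l)).symm (T.z l)) := by
    intro l
    obtain ⟨j, hj⟩ := hT l
    exact hj.chart hs ((A.e (T.i l)).map_target (hzt l))
  have hdual : ∀ l, ∃ v : Fin r → Cn n,
      ∀ a b, fderiv ℂ (rat A s (T.i l) a) (T.z l) (v b) = if a = b then 1 else 0 := by
    intro l
    obtain ⟨-, -, hl⟩ := hrk l
    rw [(A.e (T.i l)).right_inv (hzt l)] at hl
    exact exists_dual hl
  choose v hv using hdual
  set K := m * c + 2 with hK
  -- the slices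
  set sl : (l : Fin T.N) → (A.ι → M → ℂ) → Cn r → ℂ := fun l f t =>
    rd A (T.i l) f (T.z l + rinv (v l) t) with hsl
  have han : ∀ l (f : A.ι → M → ℂ), IsHS (L ^ m) univ f → AnalyticAt ℂ (sl l f) 0 := by
    intro l f hf
    have h1 : AnalyticAt ℂ (rd A (T.i l) f) (T.z l + rinv (v l) 0) := by
      rw [map_zero, add_zero]
      exact analyticOnNhd_rd hf _ _ (hzt l)
    have h2 : AnalyticAt ℂ (fun t : Cn r => T.z l + rinv (v l) t) 0 :=
      analyticAt_const.add ((rinv (v l)).analyticAt 0)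
    exact h1.comp_of_eq h2 rfl
  set J : HS (L ^ m) univ →ₗ[ℂ] (Fin T.N × (Fin r → Fin K) → ℂ) :=
    { toFun := fun f p => ja (sl p.1 f.1) 0 fun b => (p.2 b : ℕ)
      map_add' := fun f g => by
        funext p
        exact ja_add (han p.1 f.1 f.2) (han p.1 g.1 g.2) _
      map_smul' := fun a f => by
        funext p
        exact ja_smul (han p.1 f.1 f.2) a _ } with hJ
  have hinj : Function.Injective J := by
    rw [← LinearMap.ker_eq_bot, LinearMap.ker_eq_bot']
    intro f hf0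
    refine Subtype.ext (eq_zero_of_slices hcm f.2 fun l => ?_)
    have hz : ∀ α : Fin r → ℕ, ∑ b, α b < K → ja (sl l f.1) 0 α = 0 := by
      intro α hα
      have hb : ∀ b, α b < K := fun b =>
        (Finset.single_le_sum (f := α) (fun _ _ => Nat.zero_le _) (Finset.mem_univ b)).trans_lt hα
      exact congrFun hf0 (l, fun b => ⟨α b, hb b⟩)
    have h1 : ∀ j < K, ∀ u, iteratedFDeriv ℂ j (sl l f.1) 0 (fun _ => u) = 0 := by
      intro j hj u
      exact slice_zero (fun α hα => hz α (by omega)) u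
    have h2 := isBigO_of_slices (han l f.1 f.2) h1
    have h3 : (fun t : Cn r => rd A (T.i l) f.1 (T.z l + rinv (v l) t)) =O[𝓝 0]
        fun t => ‖t‖ ^ K := by
      refine h2.congr_right fun t => ?_
      rw [sub_zero]
    have h4 := order_of_slice hmax hk hs f.2 (hzt l) (hrk l) (hv l) h3
    exact slices_of_isBigO (analyticOnNhd_rd f.2 _ _ (hzt l)) h4
  have h1 := LinearMap.finrank_le_finrank_of_injective hinj
  rw [Module.finrank_pi, Fintype.card_prod, Fintype.card_fin, Fintype.card_fun,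
    Fintype.card_fin, Fintype.card_fin] at h1
  exact h1

/-- `n + 1` functionals on `Cn n` are dependent -/
theorem rk_le {r : ℕ} {s : Fin (r + 1) → A.ι → M → ℂ} {i : A.ι} {x : M} (h : Rk A s i x) :
    r ≤ n := by
  have h1 := h.2.2
  have h2 : LinearIndependent ℂ (fun a => (fderiv ℂ (rat A s i a) (A.e i x) : Cn n →ₗ[ℂ] ℂ)) := by
    have := h1.map' (ContinuousLinearMap.coeLM ℂ : (Cn n →L[ℂ] ℂ) →ₗ[ℂ] (Cn n →ₗ[ℂ] ℂ))
      (LinearMap.ker_eq_bot.2 ContinuousLinearMap.coe_injective)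
    exact this
  have h3 := h2.fintype_card_le_finrank
  have h4 : Module.finrank ℂ (Cn n →ₗ[ℂ] ℂ) = n := by
    rw [Module.finrank_linearMap]
    simp
  rw [Fintype.card_fin, h4] at h3
  exact h3

theorem rk_init {r r' : ℕ} (h : r' ≤ r) {s : Fin (r + 1) → A.ι → M → ℂ} {i : A.ι} {x : M}
    (hs : Rk A s i x) : Rk A (fun a : Fin (r' + 1) => s (Fin.castLE (by omega) a)) i x := by
  refine ⟨hs.1, hs.2.1, ?_⟩
  have h1 := hs.2.2.comp (Fin.castLE h) (Fin.castLE_injective h)
  exact h1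

/-- **growth ⇒ rank** -/
theorem rank_of_growth [CompactSpace M] [T2Space M] [PreconnectedSpace M] {L : LB A} (d : ℕ)
    (h : ∀ C : ℕ, ∃ m, C * (m + 1) ^ d < Module.finrank ℂ (HS (L ^ m) univ)) :
    ∃ k, 0 < k ∧ ∃ s : Fin (d + 1 + 1) → A.ι → M → ℂ, (∀ a, IsHS (L ^ k) univ (s a)) ∧
      ∃ i x, Rk A s i x := by
  classical
  by_contra hcon
  set P : ℕ → Prop := fun r => ∃ k, 0 < k ∧ ∃ s : Fin (r + 1) → A.ι → M → ℂ,
    (∀ a, IsHS (L ^ k) univ (s a)) ∧ ∃ i x, Rk A s i x with hP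
  have hmono : ∀ r r', r' ≤ r → P r → P r' := by
    rintro r r' hr ⟨k, hk, s, hs, i, x, hx⟩
    exact ⟨k, hk, _, fun a => hs _, i, x, rk_init hr hx⟩
  have hlt : ∀ r, P r → r ≤ d := by
    intro r hr
    by_contra hd
    exact hcon (hmono r (d + 1) (by omega) hr)
  by_cases h0 : P 0
  · -- the maximal rank
    set r := Nat.findGreatest P d with hr
    have hPr : P r := Nat.findGreatest_spec (Nat.zero_le d) h0
    have hrd : r ≤ d := Nat.findGreatest_le d
    have hmax : MaxRk L r := by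
      intro k hk t ht i x hx
      have h1 : P (r + 1) := ⟨k, hk, t, ht, i, x, hx⟩
      have h2 := Nat.le_findGreatest (hlt _ h1) h1
      omega
    obtain ⟨k, hk, s, hs, i, x, hx⟩ := hPr
    obtain ⟨N, c, hN⟩ := h0_le_rank hmax hk hs hx
    obtain ⟨m, hm⟩ := h (N * (c + 2) ^ r)
    have h1 := hN m
    have h2 : N * (m * c + 2) ^ r ≤ N * (c + 2) ^ r * (m + 1) ^ d := by
      have h3 : m * c + 2 ≤ (c + 2) * (m + 1) := by nlinarith
      calc N * (m * c + 2) ^ r ≤ N * ((c + 2) * (m + 1)) ^ r := by gcongr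
        _ = N * (c + 2) ^ r * (m + 1) ^ r := by rw [mul_pow, mul_assoc]
        _ ≤ N * (c + 2) ^ r * (m + 1) ^ d := by
          gcongr
          · omega
    omega
  · -- no sections of positive powers
    have h1 : ∀ m, 0 < m → Module.finrank ℂ (HS (L ^ m) univ) = 0 := by
      intro m hm
      have h2 : ∀ f : HS (L ^ m) univ, f = 0 := by
        intro f
        refine Subtype.ext ?_
        funext i x
        by_contra hne
        apply h0
        have hx : x ∈ (A.e i).source := by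
          by_contra hx
          exact hne (f.2.off i x hx)
        refine ⟨m, hm, fun _ => f.1, fun _ => f.2, i, x, hx, hne, ?_⟩
        exact linearIndependent_empty_type
      have : Subsingleton (HS (L ^ m) univ) := ⟨fun a b => by rw [h2 a, h2 b]⟩
      exact Module.finrank_zero_of_subsingleton
    obtain ⟨m, hm⟩ := h (Module.finrank ℂ (HS (L ^ 0) univ))
    rcases Nat.eq_zero_or_pos m with h2 | h2
    · subst h2
      simp at hm
    · rw [h1 m h2] at hm
      omega

end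

end Crest.Agent.R281.Rk_599
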