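import Crest.Agent.R281.Defs_273
import Crest.Agent.R281.Rk3_599

/-!
# R281 (S0424), closure (helper548), level A of DIV 6 / DIV 7

`RkL m L`  : some power of `L` has `m + 1` sections whose ratios have rank `m` at some point;
`END6`     : (DIV 6) the hypotheses of `Main281` and `RkL n L` imply that `L` is semiample;
`RANK281`  : (DIV 7) the hypotheses of `Main281` imply `RkL n L`;
`GROWTH281`: (DIV 7, growth form) `h⁰(L^{kq}) ≥ C(q+n, n)` for all `q`;
`main281`  : `END6 → RANK281 → Main281`.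
-/

set_option autoImplicit false
set_option linter.unusedSectionVars false

open Set Filter Topology Complex
open scoped ContDiff Matrix ComplexConjugate Manifold ComplexOrder

namespace Crest.Agent.R281.Cl_548

open Crest.Agent.R275.Geo Crest.Agent.R275.Core144 Crest.Agent.R275.GC293
open Crest.Agent.R273.Defs_333 Crest.Agent.R273.Kah_333
open Crest.Agent.R281.Defs_273 Crest.Agent.R281.Rk_599

noncomputable section

section Defs

variable {N : ℕ} {M : Type} [TopologicalSpace M] {A : Atl N M}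

/-- some power of `L` has `m + 1` global sections whose `m` ratios have independent differentials
at some point -/
def RkL (m : ℕ) (L : LB A) : Prop :=
  ∃ k : ℕ, 0 < k ∧ ∃ s : Fin (m + 1) → A.ι → M → ℂ,
    (∀ a, IsHS (L ^ k) univ (s a)) ∧ ∃ i x, Rk A s i x

end Defs

/-- **DIV 6 (END)** -/
def END6 : Prop :=
  ∀ (n : ℕ) (M : Type) [TopologicalSpace M] [T2Space M] [CompactSpace M] [SimplyConnectedSpace M]
    (A : Atl (2 * n) M) [Finite A.ι], 1 ≤ n → GoodA A → ∀ (P : Part A) (K : Kah A) (σ : HSymp A),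
    σ.Uniq → ∀ L : LB A, NefW K L → NonFlat L → Isotropic P σ L → RkL n L → SemiAmple L

/-- **DIV 7 (RANK)** -/
def RANK281 : Prop :=
  ∀ (n : ℕ) (M : Type) [TopologicalSpace M] [T2Space M] [CompactSpace M] [SimplyConnectedSpace M]
    (A : Atl (2 * n) M) [Finite A.ι], 1 ≤ n → GoodA A → ∀ (P : Part A) (K : Kah A) (σ : HSymp A),
    σ.Uniq → ∀ L : LB A, NefW K L → NonFlat L → Isotropic P σ L → RkL n L

/-- **DIV 7, growth form** (output of the transport to the given manifold) -/
def GROWTH281 : Prop :=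
  ∀ (n : ℕ) (M : Type) [TopologicalSpace M] [T2Space M] [CompactSpace M] [SimplyConnectedSpace M]
    (A : Atl (2 * n) M) [Finite A.ι], 1 ≤ n → GoodA A → ∀ (P : Part A) (K : Kah A) (σ : HSymp A),
    σ.Uniq → ∀ L : LB A, NefW K L → NonFlat L → Isotropic P σ L →
      ∃ k : ℕ, 0 < k ∧ ∀ q : ℕ, (q + n).choose n ≤ Module.finrank ℂ (HS (L ^ (k * q)) univ)

theorem main281 (h6 : END6) (h7 : RANK281) : Main281 :=
  fun n M _ _ _ _ A _ hn hA P K σ hσ L h1 h2 h3 =>
    h6 n M A hn hA P K σ hσ L h1 h2 h3 (h7 n M A hn hA P K σ hσ L h1 h2 h3)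

theorem pow_le_choose (n q : ℕ) : (q + 1) ^ n ≤ n.factorial * (q + n).choose n := by
  have h1 : (q + n).choose n * n.factorial = (q + n).descFactorial n := by
    rw [Nat.descFactorial_eq_factorial_mul_choose, mul_comm]
  rw [mul_comm, h1]
  have h2 := Nat.pow_sub_le_descFactorial (q + n) n
  have h3 : q + n + 1 - n = q + 1 := by omega
  rwa [h3] at h2

/-- growth ⟹ rank (`Rk_599.rank_of_growth`) -/
theorem rkL_of_choose {N : ℕ} {M : Type} [TopologicalSpace M] [T2Space M] [CompactSpace M]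
    [PreconnectedSpace M] {A : Atl N M} {L : LB A} {n k : ℕ} (hn : 1 ≤ n)
    (hk : 0 < k)
    (h : ∀ q : ℕ, (q + n).choose n ≤ Module.finrank ℂ (HS (L ^ (k * q)) univ)) : RkL n L := by
  obtain ⟨d, rfl⟩ : ∃ d, n = d + 1 := ⟨n - 1, by omega⟩
  refine rank_of_growth d fun C => ?_
  set F := (d + 1).factorial with hF
  have hF0 : 0 < F := Nat.factorial_pos _
  set q := F * (C * k ^ d) with hq
  refine ⟨k * q, ?_⟩
  have h1 := pow_le_choose (d + 1) q
  have h2 := h q
  have h3 : (q + 1) ^ (d + 1) ≤ F * Module.finrank ℂ (HS (L ^ (k * q)) univ) :=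
    h1.trans (Nat.mul_le_mul_left _ h2)
  have h4 : k * q + 1 ≤ k * (q + 1) := by nlinarith
  have h5 : C * (k * q + 1) ^ d ≤ C * k ^ d * (q + 1) ^ d := by
    calc C * (k * q + 1) ^ d ≤ C * (k * (q + 1)) ^ d :=
          Nat.mul_le_mul_left _ (Nat.pow_le_pow_left h4 d)
      _ = C * k ^ d * (q + 1) ^ d := by rw [mul_pow, mul_assoc]
  have h6 : F * (C * k ^ d * (q + 1) ^ d) < (q + 1) ^ (d + 1) := by
    have h7 : 0 < (q + 1) ^ d := by positivity
    calc F * (C * k ^ d * (q + 1) ^ d) = q * (q + 1) ^ d := by rw [hq]; ring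
      _ < (q + 1) * (q + 1) ^ d := by nlinarith
      _ = (q + 1) ^ (d + 1) := by ring
  have h8 : F * (C * (k * q + 1) ^ d) < F * Module.finrank ℂ (HS (L ^ (k * q)) univ) :=
    lt_of_le_of_lt (Nat.mul_le_mul_left _ h5) (lt_of_lt_of_le h6 h3)
  exact lt_of_mul_lt_mul_left h8 (Nat.zero_le _)

theorem rank281_of_growth (h : GROWTH281) : RANK281 := by
  intro n M _ _ _ _ A _ hn hA P K σ hσ L h1 h2 h3
  obtain ⟨k, hk, hq⟩ := h n M A hn hA P K σ hσ L h1 h2 h3
  exact rkL_of_choose hn hk hq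

end

end Crest.Agent.R281.Cl_548
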