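import Crest.Agent.R281.Ehr2_268
import Crest.Agent.R281.Dif1_268

/-!
# R281 (S0424), COUNT (D13; helper581), part 1: two embedded members with the same image

`P : HEmb C H`, `P' : HEmb C' H` (268) with `P.cone ⊆ P'.cone`, `X'` compact:
the map `X → X'` which identifies the images is smooth:

* `Same P P' x x'` : `x` and `x'` have the same image in the projective space
* `exists_smap`    : `∃ g : SMap C C', ∀ x, Same P P' x (g.f x)`
* `exists_scalar`  : near every point `u i z = a z • u' j (g z)` with `a` smooth, without zeros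
-/

set_option autoImplicit false
set_option linter.unusedSectionVars false

open Set Filter Topology Complex
open scoped ContDiff

namespace Crest.Agent.R281.Cnt_581

open Crest.Agent.R281.HkR_835 Crest.Agent.R281.Ehr2_268 Crest.Agent.R281.Dif_268

noncomputable section

variable {V V' X X' : Type} [NormedAddCommGroup V] [NormedSpace ℝ V] [NormedAddCommGroup V']
  [NormedSpace ℝ V'] [TopologicalSpace X] [TopologicalSpace X']
  {H : Type} [NormedAddCommGroup H] [NormedSpace ℂ H] {C : RCh V X} {C' : RCh V' X'}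

/-- a continuous left inverse of an injective linear map on a finite dimensional space -/
theorem exists_left [FiniteDimensional ℝ V'] (D : V' →L[ℝ] H) (hD : Function.Injective D) :
    ∃ π : H →L[ℝ] V', ∀ v, π (D v) = v := by
  have hD' : Function.Injective (D : V' →ₗ[ℝ] H) := hD
  obtain ⟨p, hp⟩ := Submodule.ClosedComplemented.of_finiteDimensional (𝕜 := ℝ)
    (LinearMap.range (D : V' →ₗ[ℝ] H))
  let e : V' ≃ₗ[ℝ] LinearMap.range (D : V' →ₗ[ℝ] H) := LinearEquiv.ofInjective _ hD'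
  let q : LinearMap.range (D : V' →ₗ[ℝ] H) →L[ℝ] V' :=
    LinearMap.toContinuousLinearMap (e.symm : LinearMap.range (D : V' →ₗ[ℝ] H) →ₗ[ℝ] V')
  refine ⟨q.comp p, fun v => ?_⟩
  have h1 : p (D v) = e v := hp (e v)
  show e.symm (p (D v)) = v
  rw [h1, e.symm_apply_apply]

theorem chg (P : HEmb C H) {i j : C.ι} {x : X} (hi : x ∈ (C.e i).source)
    (hj : x ∈ (C.e j).source) : ∃ a : ℂ, a ≠ 0 ∧ P.u i (C.e i x) = a • P.u j (C.e j x) := by
  obtain ⟨a, ha⟩ := P.tr i j (C.e i x) ⟨(C.e i).map_source hi, by rw [(C.e i).left_inv hi]; exact hj⟩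
  have h1 : C.t i j (C.e i x) = C.e j x := by
    show C.e j ((C.e i).symm (C.e i x)) = C.e j x
    rw [(C.e i).left_inv hi]
  rw [h1] at ha
  refine ⟨a, ?_, ha⟩
  rintro rfl
  rw [zero_smul] at ha
  exact P.ne i _ ((C.e i).map_source hi) ha

/-- `x` and `x'` have the same image -/
def Same (P : HEmb C H) (P' : HEmb C' H) (x : X) (x' : X') : Prop :=
  ∀ i j, x ∈ (C.e i).source → x' ∈ (C'.e j).source →
    ∃ a : ℂ, a ≠ 0 ∧ P.u i (C.e i x) = a • P'.u j (C'.e j x')

variable {P : HEmb C H} {P' : HEmb C' H}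

theorem same_of {x : X} {x' : X'} {i : C.ι} {j : C'.ι} (hi : x ∈ (C.e i).source)
    (hj : x' ∈ (C'.e j).source) {a : ℂ} (h : P.u i (C.e i x) = a • P'.u j (C'.e j x')) :
    Same P P' x x' := by
  intro k l hk hl
  obtain ⟨b, hb, h1⟩ := chg P hk hi
  obtain ⟨b', hb', h2⟩ := chg P' hj hl
  have ha : a ≠ 0 := by
    rintro rfl
    rw [zero_smul] at h
    exact P.ne i _ ((C.e i).map_source hi) h
  exact ⟨b * (a * b'), mul_ne_zero hb (mul_ne_zero ha hb'), by
    rw [h1, h, h2, smul_smul, smul_smul, mul_assoc]⟩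

theorem exists_same (hc : P.cone ⊆ P'.cone) (x : X) : ∃ x', Same P P' x x' := by
  obtain ⟨i, hi⟩ := C.cover x
  have h1 : P.u i (C.e i x) ∈ P.cone :=
    ⟨i, C.e i x, (C.e i).map_source hi, 1, one_ne_zero, (one_smul ℂ _).symm⟩
  obtain ⟨j, z', hz', a, -, ha⟩ := hc h1
  refine ⟨(C'.e j).symm z', same_of hi ((C'.e j).map_target hz') (a := a) ?_⟩
  rw [(C'.e j).right_inv hz']
  exact ha

theorem Same.unique {x : X} {x' x'' : X'} (h' : Same P P' x x') (h'' : Same P P' x x'') :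
    x' = x'' := by
  obtain ⟨i, hi⟩ := C.cover x
  obtain ⟨j, hj⟩ := C'.cover x'
  obtain ⟨k, hk⟩ := C'.cover x''
  obtain ⟨a, ha, h1⟩ := h' i j hi hj
  obtain ⟨b, hb, h2⟩ := h'' i k hi hk
  have h3 := P'.inj j k _ ((C'.e j).map_source hj) _ ((C'.e k).map_source hk)
    ⟨a⁻¹ * b, by rw [← smul_smul, ← h2, h1, smul_smul, inv_mul_cancel₀ ha, one_smul]⟩
  rwa [(C'.e j).left_inv hj, (C'.e k).left_inv hk] at h3

theorem Same.symm {x : X} {x' : X'} (h : Same P P' x x') : Same P' P x' x := by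
  intro j i hj hi
  obtain ⟨a, ha, h1⟩ := h i j hi hj
  exact ⟨a⁻¹, inv_ne_zero ha, by rw [h1, smul_smul, inv_mul_cancel₀ ha, one_smul]⟩

theorem u_contDiffAt (P : HEmb C H) {i : C.ι} {z : V} (hz : z ∈ (C.e i).target) :
    ContDiffAt ℝ ∞ (P.u i) z :=
  (P.sm i).contDiffAt ((C.e i).open_target.mem_nhds hz)

theorem u_cont (P : HEmb C H) {i : C.ι} {x : X} (hx : x ∈ (C.e i).source) :
    ContinuousAt (fun x => P.u i (C.e i x)) x :=
  ContinuousAt.comp (g := P.u i) (f := C.e i) (u_contDiffAt P ((C.e i).map_source hx)).continuousAt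
    ((C.e i).continuousAt hx)

theorem isClosed_same : IsClosed {p : X × X' | Same P P' p.1 p.2} := by
  rw [← isOpen_compl_iff, isOpen_iff_mem_nhds]
  rintro ⟨x, x'⟩ h
  obtain ⟨i, hi⟩ := C.cover x
  obtain ⟨j, hj⟩ := C'.cover x'
  have hne : ¬ ∃ a : ℂ, P.u i (C.e i x) = a • P'.u j (C'.e j x') := by
    rintro ⟨a, ha⟩
    exact h (same_of hi hj ha)
  let g : X × X' → (Fin 2 → H) := fun p => ![P.u i (C.e i p.1), P'.u j (C'.e j p.2)]
  have hg : ContinuousAt g (x, x') := by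
    rw [continuousAt_pi]
    intro k
    fin_cases k
    · exact ContinuousAt.comp (g := fun x => P.u i (C.e i x)) (f := fun p : X × X' => p.1)
        (x := (x, x')) (u_cont P hi) continuousAt_fst
    · exact ContinuousAt.comp (g := fun x => P'.u j (C'.e j x)) (f := fun p : X × X' => p.2)
        (x := (x, x')) (u_cont P' hj) continuousAt_snd
  have hl : LinearIndependent ℂ (g (x, x')) := by
    rw [linearIndependent_fin2]
    exact ⟨P'.ne j _ ((C'.e j).map_source hj), fun a ha => hne ⟨a, ha.symm⟩⟩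
  have h1 : ∀ᶠ p in 𝓝 (x, x'), LinearIndependent ℂ (g p) :=
    hg.eventually (isOpen_setOfPred_linearIndependent.mem_nhds hl)
  have h2 : ∀ᶠ p : X × X' in 𝓝 (x, x'), p.1 ∈ (C.e i).source ∧ p.2 ∈ (C'.e j).source :=
    ((C.e i).open_source.prod (C'.e j).open_source).mem_nhds ⟨hi, hj⟩
  filter_upwards [h1, h2] with p hp1 hp2 hp3
  obtain ⟨a, -, ha⟩ := hp3 i j hp2.1 hp2.2
  rw [linearIndependent_fin2] at hp1
  exact hp1.2 a ha.symm

/-- the identification of the images -/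
def mp (hc : P.cone ⊆ P'.cone) (x : X) : X' := (exists_same hc x).choose

theorem mp_same (hc : P.cone ⊆ P'.cone) (x : X) : Same P P' x (mp hc x) :=
  (exists_same hc x).choose_spec

theorem mp_cont [CompactSpace X'] (hc : P.cone ⊆ P'.cone) : Continuous (mp hc) := by
  rw [continuous_iff_ultrafilter]
  intro x g hg
  obtain ⟨y, -, hy⟩ := isCompact_univ.ultrafilter_le_nhds (g.map (mp hc)) (by simp)
  have h1 : Tendsto (fun x => (x, mp hc x)) (g : Filter X) (𝓝 (x, y)) := by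
    rw [nhds_prod_eq]
    exact Tendsto.prodMk hg hy
  have h2 : Same P P' x y := isClosed_same.mem_of_tendsto h1 (Eventually.of_forall (mp_same hc))
  rw [(mp_same hc x).unique h2]
  exact hy

/-- the derivative of the affine coordinates is injective -/
theorem inj_affine {i : C'.ι} {y : V'} (hy : y ∈ (C'.e i).target) (l : H →L[ℂ] ℂ)
    (hl : l (P'.u i y) ≠ 0) :
    ∃ D : V' →L[ℝ] H, HasFDerivAt (fun y => (l (P'.u i y))⁻¹ • P'.u i y) D y ∧
      Function.Injective D := by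
  have h1 : HasFDerivAt (P'.u i) (fderiv ℝ (P'.u i) y) y :=
    ((u_contDiffAt P' hy).differentiableAt (by simp)).hasFDerivAt
  have h2 : HasFDerivAt (fun y => l (P'.u i y)) ((l.restrictScalars ℝ).comp (fderiv ℝ (P'.u i) y)) y :=
    HasFDerivAt.comp (g := fun w => l w) (f := P'.u i) y (l.restrictScalars ℝ).hasFDerivAt h1
  have h3 : HasFDerivAt (fun w : ℂ => w⁻¹)
      ((ContinuousLinearMap.toSpanSingleton ℂ (-(l (P'.u i y) ^ 2)⁻¹)).restrictScalars ℝ)
      (l (P'.u i y)) := (hasDerivAt_inv hl).hasFDerivAt.restrictScalars ℝ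
  have h4 := HasFDerivAt.comp (g := fun w : ℂ => w⁻¹) (f := fun y => l (P'.u i y)) y h3 h2
  have h5 := h4.smul h1
  refine ⟨_, h5, (injective_iff_map_eq_zero _).2 fun v hv => ?_⟩
  simp only [add_apply, smul_apply, ContinuousLinearMap.smulRight_apply,
    ContinuousLinearMap.comp_apply, ContinuousLinearMap.coe_restrictScalars',
    ContinuousLinearMap.toSpanSingleton_apply, Function.comp_apply] at hv
  refine P'.imm i y hy v ⟨-(l (P'.u i y) * (l (fderiv ℝ (P'.u i) y v) • -(l (P'.u i y) ^ 2)⁻¹)), ?_⟩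
  have h6 := congrArg (fun w => l (P'.u i y) • w) hv
  simp only [smul_add, smul_smul, smul_zero] at h6
  rw [mul_inv_cancel₀ hl, one_smul] at h6
  rw [neg_smul]
  exact eq_neg_of_add_eq_zero_left h6

theorem mp_smooth [CompactSpace X'] [FiniteDimensional ℝ V'] (hc : P.cone ⊆ P'.cone) (i : C'.ι)
    (j : C.ι) : ContDiffOn ℝ ∞ (loc C' C (mp hc) i j) (dom C' C (mp hc) i j) := by
  have : CompleteSpace V' := FiniteDimensional.complete ℝ V'
  rintro z0 ⟨hz0, hz1⟩
  refine ContDiffAt.contDiffWithinAt ?_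
  set x0 := (C.e j).symm z0 with hx0
  have hx0s : x0 ∈ (C.e j).source := (C.e j).map_target hz0
  set y0 := C'.e i (mp hc x0) with hy0
  have hy0t : y0 ∈ (C'.e i).target := (C'.e i).map_source hz1
  obtain ⟨l, -, hl⟩ := exists_dual_vector ℂ (P'.u i y0) (norm_ne_zero_iff.mpr (P'.ne i y0 hy0t))
  have hl0 : l (P'.u i y0) ≠ 0 := by
    rw [hl]
    simpa using P'.ne i y0 hy0t
  obtain ⟨D, hD, hDi⟩ := inj_affine (P' := P') hy0t l hl0
  obtain ⟨π, hπ⟩ := exists_left D hDi
  let A : V' → H := fun y => (l (P'.u i y))⁻¹ • P'.u i y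
  let B : V → H := fun z => (l (P.u j z))⁻¹ • P.u j z
  -- the local diffeomorphism
  have hlP : ∀ {z : V'}, z ∈ (C'.e i).target → l (P'.u i z) ≠ 0 → ContDiffAt ℝ ∞ A z := by
    intro z hz hlz
    have h1 : ContDiffAt ℝ ∞ (fun z => l (P'.u i z)) z :=
      (l.restrictScalars ℝ).contDiff.contDiffAt.comp z (u_contDiffAt P' hz)
    exact (h1.inv hlz).smul (u_contDiffAt P' hz)
  let G : V' → V' := fun y => π (A y)
  have hG : ContDiffAt ℝ ∞ G y0 := π.contDiff.contDiffAt.comp y0 (hlP hy0t hl0)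
  have hGd : HasFDerivAt G ((ContinuousLinearEquiv.refl ℝ V' : V' ≃L[ℝ] V') : V' →L[ℝ] V') y0 := by
    have h1 : HasFDerivAt G (π.comp D) y0 :=
      HasFDerivAt.comp (g := fun w => π w) (f := A) y0 π.hasFDerivAt hD
    have h2 : π.comp D = ((ContinuousLinearEquiv.refl ℝ V' : V' ≃L[ℝ] V') : V' →L[ℝ] V') := by
      ext v
      exact hπ v
    rw [← h2]
    exact h1
  let e := hG.toOpenPartialHomeomorph G hGd (by simp)
  have he : ∀ y, e y = G y := fun _ => rfl
  have hes : y0 ∈ e.source := hG.mem_toOpenPartialHomeomorph_source hGd (by simp)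
  -- the map in terms of `B`
  have hcont : ContinuousAt (loc C' C (mp hc) i j) z0 := by
    have h1 : ContinuousAt (fun z => mp hc ((C.e j).symm z)) z0 :=
      (mp_cont hc).continuousAt.comp ((C.e j).continuousAt_symm hz0)
    exact ContinuousAt.comp (g := C'.e i) (f := fun z => mp hc ((C.e j).symm z))
      ((C'.e i).continuousAt hz1) h1
  have hloc0 : loc C' C (mp hc) i j z0 = y0 := rfl
  have hopen : ∀ᶠ z in 𝓝 z0, z ∈ (C.e j).target ∧ mp hc ((C.e j).symm z) ∈ (C'.e i).source := by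
    have h1 : IsOpen (mp hc ⁻¹' (C'.e i).source) := (C'.e i).open_source.preimage (mp_cont hc)
    exact ((C.e j).isOpen_inter_preimage_symm h1).mem_nhds ⟨hz0, hz1⟩
  have hsame : ∀ z, z ∈ (C.e j).target → mp hc ((C.e j).symm z) ∈ (C'.e i).source →
      ∃ a : ℂ, a ≠ 0 ∧ P.u j z = a • P'.u i (loc C' C (mp hc) i j z) := by
    intro z h1 h2
    obtain ⟨a, ha, h3⟩ := mp_same hc ((C.e j).symm z) j i ((C.e j).map_target h1) h2
    rw [(C.e j).right_inv h1] at h3
    exact ⟨a, ha, h3⟩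
  have hAB : ∀ᶠ z in 𝓝 z0, A (loc C' C (mp hc) i j z) = B z := by
    filter_upwards [hopen] with z hz
    obtain ⟨a, ha, h3⟩ := hsame z hz.1 hz.2
    show (l (P'.u i (loc C' C (mp hc) i j z)))⁻¹ • P'.u i (loc C' C (mp hc) i j z) =
      (l (P.u j z))⁻¹ • P.u j z
    rw [h3, map_smul, smul_eq_mul, smul_smul, mul_inv, mul_comm a⁻¹, mul_assoc,
      inv_mul_cancel₀ ha, mul_one]
  have hl1 : l (P.u j z0) ≠ 0 := by
    obtain ⟨a, ha, h3⟩ := hsame z0 hz0 hz1
    rw [h3, map_smul]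
    exact mul_ne_zero ha hl0
  have hB : ContDiffAt ℝ ∞ B z0 := by
    have h1 : ContDiffAt ℝ ∞ (fun z => l (P.u j z)) z0 :=
      (l.restrictScalars ℝ).contDiff.contDiffAt.comp z0 (u_contDiffAt P hz0)
    exact (h1.inv hl1).smul (u_contDiffAt P hz0)
  have hGy : π (B z0) = G y0 := by
    have := hAB.self_of_nhds
    rw [hloc0] at this
    rw [← this]
  have hsymm : ContDiffAt ℝ ∞ e.symm (π (B z0)) := by
    rw [hGy]
    have h1 : e.symm (G y0) = y0 := e.left_inv hes
    exact e.contDiffAt_symm (e.map_source hes) (by rw [← he y0, e.left_inv hes]; exact hGd)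
      (by rw [← he y0, e.left_inv hes]; exact hG)
  have hfin : ContDiffAt ℝ ∞ (fun z => e.symm (π (B z))) z0 :=
    ContDiffAt.comp (g := e.symm) (f := fun z => π (B z)) z0 hsymm
      (π.contDiff.contDiffAt.comp z0 hB)
  refine hfin.congr_of_eventuallyEq ?_
  have h5 : ∀ᶠ z in 𝓝 z0, loc C' C (mp hc) i j z ∈ e.source :=
    hcont.eventually (by rw [hloc0]; exact e.open_source.mem_nhds hes)
  filter_upwards [hAB, h5] with z h1 h2
  have h3 : e.symm (e (loc C' C (mp hc) i j z)) = loc C' C (mp hc) i j z := e.left_inv h2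
  rw [he] at h3
  show loc C' C (mp hc) i j z = e.symm (π (B z))
  rw [← h1]
  exact h3.symm

/-- **the identification of the images is smooth** -/
theorem exists_smap [CompactSpace X'] [FiniteDimensional ℝ V'] (hc : P.cone ⊆ P'.cone) :
    ∃ g : SMap C C', ∀ x, Same P P' x (g.f x) :=
  ⟨⟨mp hc, mp_cont hc, mp_smooth hc⟩, mp_same hc⟩

/-- near every point the lifts differ by a smooth factor -/
theorem exists_scalar {g : SMap C C'} (hg : ∀ x, Same P P' x (g.f x)) {i : C'.ι} {j : C.ι} {z0 : V}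
    (hz0 : z0 ∈ dom C' C g.f i j) :
    ∃ a : V → ℂ, ContDiffAt ℝ ∞ a z0 ∧ a z0 ≠ 0 ∧
      ∀ᶠ z in 𝓝 z0, P.u j z = a z • P'.u i (loc C' C g.f i j z) := by
  set y0 := loc C' C g.f i j z0 with hy0
  have hy0t : y0 ∈ (C'.e i).target := g.loc_mem hz0
  obtain ⟨l, -, hl⟩ := exists_dual_vector ℂ (P'.u i y0) (norm_ne_zero_iff.mpr (P'.ne i y0 hy0t))
  have hl0 : l (P'.u i y0) ≠ 0 := by
    rw [hl]
    simpa using P'.ne i y0 hy0t
  have h1 : ContDiffAt ℝ ∞ (fun z => l (P.u j z)) z0 :=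
    (l.restrictScalars ℝ).contDiff.contDiffAt.comp z0 (u_contDiffAt P hz0.1)
  have h2 : ContDiffAt ℝ ∞ (fun z => l (P'.u i (loc C' C g.f i j z))) z0 := by
    have h3 : ContDiffAt ℝ ∞ (fun z => P'.u i (loc C' C g.f i j z)) z0 :=
      ContDiffAt.comp (g := P'.u i) (f := loc C' C g.f i j) z0 (u_contDiffAt P' hy0t)
        (g.contDiffAt_loc hz0)
    exact (l.restrictScalars ℝ).contDiff.contDiffAt.comp z0 h3
  have hsame : ∀ z, z ∈ dom C' C g.f i j →
      ∃ a : ℂ, a ≠ 0 ∧ P.u j z = a • P'.u i (loc C' C g.f i j z) := by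
    intro z hz
    obtain ⟨a, ha, h3⟩ := hg ((C.e j).symm z) j i ((C.e j).map_target hz.1) hz.2
    rw [(C.e j).right_inv hz.1] at h3
    exact ⟨a, ha, h3⟩
  have h4 : ∀ᶠ z in 𝓝 z0, l (P'.u i (loc C' C g.f i j z)) ≠ 0 :=
    h2.continuousAt.eventually_ne hl0
  refine ⟨fun z => l (P.u j z) * (l (P'.u i (loc C' C g.f i j z)))⁻¹, h1.mul (h2.inv hl0), ?_, ?_⟩
  · obtain ⟨a, ha, h3⟩ := hsame z0 hz0
    have h5 : l (P.u j z0) = a * l (P'.u i y0) := by rw [h3, map_smul, smul_eq_mul]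
    show l (P.u j z0) * (l (P'.u i y0))⁻¹ ≠ 0
    rw [h5, mul_assoc, mul_inv_cancel₀ hl0, mul_one]
    exact ha
  · filter_upwards [h4, (g.isOpen_dom i j).mem_nhds hz0] with z h5 h6
    obtain ⟨a, ha, h3⟩ := hsame z h6
    have h7 : l (P.u j z) = a * l (P'.u i (loc C' C g.f i j z)) := by
      rw [h3, map_smul, smul_eq_mul]
    rw [h7, mul_assoc, mul_inv_cancel₀ h5, mul_one]
    exact h3

end

end Crest.Agent.R281.Cnt_581
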