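import Mathlib
import Crest.Agent.R281.CL6_473

/-!
# LS-INST / PER-INST, part 1 (row 281, helper473): ternary frames in a real quadratic space

`H` a real vector space, `Q` a symmetric bilinear form, `(f, v, e)` a frame with
`Q(f,e) = 1`, `Q(v,v) = N > 0`, all other products `0`.

* `Fr.κ : ℝ³ → H`, `Fr.co : H → ℝ³`, `Q_κ`, `co_κ`
* `Fr.Λ L := κ⁻¹(L)`, `Fr.lat : Lat N Λ`
* `Fr.ρ g := co ∘ g ∘ κ`, `Fr.iso`, `Fr.ρ_mul`
* `Fr.ofRat` : a frame from lattice vectors `e, v, w`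
-/

set_option autoImplicit false

namespace Crest.Agent.R281.LI_473

open CL_473 Set Filter Topology

/-- a ternary frame of a bilinear form -/
structure Fr {H : Type*} [AddCommGroup H] [Module ℝ H] (Q : H →ₗ[ℝ] H →ₗ[ℝ] ℝ) where
  sym : ∀ x y, Q x y = Q y x
  N : ℝ
  N_pos : 0 < N
  e : H
  v : H
  f : H
  ee : Q e e = 0
  ev : Q e v = 0
  vv : Q v v = N
  ff : Q f f = 0
  fv : Q f v = 0
  fe : Q f e = 1

namespace Fr

variable {H : Type*} [AddCommGroup H] [Module ℝ H] {Q : H →ₗ[ℝ] H →ₗ[ℝ] ℝ}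

/-- the embedding of `ℝ³` -/
noncomputable def κ (F : Fr Q) : (Fin 3 → ℝ) →ₗ[ℝ] H where
  toFun w := w 0 • F.f + w 1 • F.v + w 2 • F.e
  map_add' w w' := by simp only [Pi.add_apply, add_smul]; abel
  map_smul' c w := by
    simp only [Pi.smul_apply, smul_eq_mul, RingHom.id_apply, smul_add, smul_smul]

theorem κ_apply (F : Fr Q) (w : Fin 3 → ℝ) : F.κ w = w 0 • F.f + w 1 • F.v + w 2 • F.e := rfl

/-- the coordinates -/
noncomputable def co (F : Fr Q) : H →ₗ[ℝ] (Fin 3 → ℝ) where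
  toFun x := ![Q x F.e, Q x F.v / F.N, Q x F.f]
  map_add' x y := by
    funext i; fin_cases i <;> simp [add_div]
  map_smul' c x := by
    funext i; fin_cases i <;> simp [mul_div_assoc]

theorem co_apply (F : Fr Q) (x : H) : F.co x = ![Q x F.e, Q x F.v / F.N, Q x F.f] := rfl

theorem co_κ (F : Fr Q) (w : Fin 3 → ℝ) : F.co (F.κ w) = w := by
  have hN := F.N_pos.ne'
  have h1 : Q F.v F.e = 0 := by rw [F.sym]; exact F.ev
  have h2 : Q F.v F.f = 0 := by rw [F.sym]; exact F.fv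
  have h3 : Q F.e F.f = 1 := by rw [F.sym]; exact F.fe
  rw [co_apply, κ_apply]
  funext i
  fin_cases i
  · simp [F.fe, F.ee, h1]
  · simp [F.fv, F.vv, F.ev, hN]
  · simp [F.ff, h2, h3]

theorem κ_inj (F : Fr Q) : Function.Injective F.κ := fun w w' h => by
  rw [← F.co_κ w, ← F.co_κ w', h]

theorem Q_κ (F : Fr Q) (w w' : Fin 3 → ℝ) : Q (F.κ w) (F.κ w') = qb F.N w w' := by
  have h1 : Q F.v F.e = 0 := by rw [F.sym]; exact F.ev
  have h2 : Q F.v F.f = 0 := by rw [F.sym]; exact F.fv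
  have h3 : Q F.e F.f = 1 := by rw [F.sym]; exact F.fe
  rw [κ_apply, κ_apply]
  simp only [map_add, map_smul, LinearMap.add_apply, LinearMap.smul_apply, smul_eq_mul, F.ee, F.ev,
    F.vv, F.ff, F.fv, F.fe, h1, h2, h3, qb]
  ring

@[simp] theorem κ_e (F : Fr Q) : F.κ ![0, 0, 1] = F.e := by simp [κ_apply]
@[simp] theorem κ_v (F : Fr Q) : F.κ ![0, 1, 0] = F.v := by simp [κ_apply]
@[simp] theorem κ_f (F : Fr Q) : F.κ ![1, 0, 0] = F.f := by simp [κ_apply]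

/-- the space spanned by the frame -/
noncomputable def M (F : Fr Q) : Submodule ℝ H := LinearMap.range F.κ

theorem κ_co (F : Fr Q) {x : H} (hx : x ∈ F.M) : F.κ (F.co x) = x := by
  obtain ⟨w, rfl⟩ := hx
  rw [F.co_κ]

theorem Q_co (F : Fr Q) {x y : H} (hx : x ∈ F.M) (hy : y ∈ F.M) :
    qb F.N (F.co x) (F.co y) = Q x y := by
  rw [← F.Q_κ, F.κ_co hx, F.κ_co hy]

theorem mem_M_κ (F : Fr Q) (w : Fin 3 → ℝ) : F.κ w ∈ F.M := ⟨w, rfl⟩

/-- the lattice in coordinates -/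
def Λ (F : Fr Q) (L : AddSubgroup H) : Set (Fin 3 → ℝ) := {w | F.κ w ∈ L}

/-- integral coordinates in a basis -/
def IsInt {ι : Type*} (b : Module.Basis ι ℝ H) (L : AddSubgroup H) : Prop :=
  ∀ x ∈ L, ∀ i, ∃ k : ℤ, b.repr x i = k

theorem lat {ι : Type*} [Finite ι] (F : Fr Q) {L : AddSubgroup H} (b : Module.Basis ι ℝ H)
    (hb : IsInt b L) (hint : ∀ x ∈ L, ∀ y ∈ L, ∃ k : ℤ, Q x y = k)
    (he : F.e ∈ L) (hv : ∃ c : ℝ, c ≠ 0 ∧ c • F.v ∈ L) (hf : ∃ c : ℝ, c ≠ 0 ∧ c • F.f ∈ L) :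
    Lat F.N (F.Λ L) where
  fin R := by
    have := Fintype.ofFinite ι
    set φ : (Fin 3 → ℝ) → (ι → ℝ) := fun w i => b.repr (F.κ w) i with hφ
    have hinj : Function.Injective φ := by
      intro w w' h
      apply F.κ_inj
      apply b.repr.injective
      ext i; exact congrFun h i
    -- bound
    set C : ι → ℝ := fun i => |R| * (|b.repr F.f i| + |b.repr F.v i| + |b.repr F.e i|) with hC
    have hfin : ∀ i, {t : ℝ | (∃ k : ℤ, t = k) ∧ |t| ≤ C i}.Finite := by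
      intro i
      have h1 : ((fun k : ℤ => (k : ℝ)) '' Icc (-⌈C i⌉) ⌈C i⌉).Finite := (finite_Icc _ _).image _
      refine h1.subset ?_
      rintro t ⟨⟨k, rfl⟩, hk⟩
      refine ⟨k, ⟨?_, ?_⟩, rfl⟩
      · have h2 := (abs_le.mp hk).1
        have h3 := Int.le_ceil (C i)
        have h4 : ((-⌈C i⌉ : ℤ) : ℝ) ≤ (k : ℝ) := by push_cast; linarith
        exact_mod_cast h4
      · have h2 := (abs_le.mp hk).2
        have h3 := Int.le_ceil (C i)
        have h4 : (k : ℝ) ≤ ((⌈C i⌉ : ℤ) : ℝ) := by linarith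
        exact_mod_cast h4
    have hpi : (Set.univ.pi fun i => {t : ℝ | (∃ k : ℤ, t = k) ∧ |t| ≤ C i}).Finite :=
      Set.Finite.pi hfin
    refine (hpi.preimage hinj.injOn).subset ?_
    rintro w ⟨hw, hwR⟩
    intro i _
    refine ⟨hb _ hw i, ?_⟩
    have hwR' : ∀ j, |w j| ≤ |R| := fun j => (hwR j).trans (le_abs_self R)
    have h1 : b.repr (F.κ w) i = w 0 * b.repr F.f i + w 1 * b.repr F.v i + w 2 * b.repr F.e i := by
      rw [κ_apply]; simp
    change |b.repr (F.κ w) i| ≤ C i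
    rw [h1]
    calc |w 0 * b.repr F.f i + w 1 * b.repr F.v i + w 2 * b.repr F.e i|
        ≤ |w 0 * b.repr F.f i| + |w 1 * b.repr F.v i| + |w 2 * b.repr F.e i| := abs_add_three _ _ _
      _ = |w 0| * |b.repr F.f i| + |w 1| * |b.repr F.v i| + |w 2| * |b.repr F.e i| := by
        simp only [abs_mul]
      _ ≤ |R| * |b.repr F.f i| + |R| * |b.repr F.v i| + |R| * |b.repr F.e i| := by
        have h0 := mul_le_mul_of_nonneg_right (hwR' 0) (abs_nonneg (b.repr F.f i))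
        have h1 := mul_le_mul_of_nonneg_right (hwR' 1) (abs_nonneg (b.repr F.v i))
        have h2 := mul_le_mul_of_nonneg_right (hwR' 2) (abs_nonneg (b.repr F.e i))
        linarith
      _ = C i := by rw [hC]; ring
  span := by
    obtain ⟨c, hc, hcv⟩ := hv
    obtain ⟨d, hd, hdf⟩ := hf
    rw [eq_top_iff]
    intro w _
    have h0 : ![0, 0, 1] ∈ F.Λ L := by change F.κ _ ∈ L; rw [κ_e]; exact he
    have h1 : ![0, c, 0] ∈ F.Λ L := by
      change F.κ _ ∈ L; simpa [κ_apply] using hcv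
    have h2 : ![d, 0, 0] ∈ F.Λ L := by
      change F.κ _ ∈ L; simpa [κ_apply] using hdf
    have h3 : w = (w 2) • ![0, 0, 1] + (w 1 / c) • ![0, c, 0] + (w 0 / d) • ![d, 0, 0] := by
      funext i; fin_cases i <;> simp [hc, hd]
    rw [h3]
    exact add_mem (add_mem (Submodule.smul_mem _ _ (Submodule.subset_span h0))
      (Submodule.smul_mem _ _ (Submodule.subset_span h1)))
      (Submodule.smul_mem _ _ (Submodule.subset_span h2))
  int w hw w' hw' := by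
    obtain ⟨k, hk⟩ := hint _ hw _ hw'
    exact ⟨k, by rw [← hk, F.Q_κ]⟩
  e_mem := by change F.κ _ ∈ L; rw [κ_e]; exact he

/-- the representation in coordinates -/
noncomputable def ρ (F : Fr Q) (g : H →ₗ[ℝ] H) : (Fin 3 → ℝ) →ₗ[ℝ] (Fin 3 → ℝ) :=
  F.co ∘ₗ g ∘ₗ F.κ

/-- isometries preserving the space of the frame -/
structure Adm (F : Fr Q) (g : H →ₗ[ℝ] H) : Prop where
  q : ∀ x y, Q (g x) (g y) = Q x y
  M : ∀ x ∈ F.M, g x ∈ F.M

theorem Adm.κ_ρ {F : Fr Q} {g : H →ₗ[ℝ] H} (hg : F.Adm g) (w : Fin 3 → ℝ) :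
    F.κ (F.ρ g w) = g (F.κ w) := F.κ_co (hg.M _ (F.mem_M_κ w))

theorem Adm.co_g {F : Fr Q} {g : H →ₗ[ℝ] H} (hg : F.Adm g) {x : H} (hx : x ∈ F.M) :
    F.co (g x) = F.ρ g (F.co x) := by
  apply F.κ_inj
  rw [hg.κ_ρ, F.κ_co hx, F.κ_co (hg.M _ hx)]

theorem Adm.iso {F : Fr Q} {g : H →ₗ[ℝ] H} (hg : F.Adm g) : Iso F.N (F.ρ g) := fun w w' => by
  rw [← F.Q_κ, hg.κ_ρ, hg.κ_ρ, hg.q, F.Q_κ]

theorem Adm.one (F : Fr Q) : F.Adm 1 := ⟨fun _ _ => rfl, fun _ h => h⟩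

theorem Adm.mul {F : Fr Q} {g h : H →ₗ[ℝ] H} (hg : F.Adm g) (hh : F.Adm h) : F.Adm (g * h) :=
  ⟨fun x y => by change Q (g (h x)) (g (h y)) = _; rw [hg.q, hh.q],
    fun x hx => hg.M _ (hh.M _ hx)⟩

theorem ρ_one (F : Fr Q) : F.ρ 1 = 1 := by
  refine LinearMap.ext fun w => ?_
  exact F.co_κ w

theorem Adm.ρ_mul {F : Fr Q} {g h : H →ₗ[ℝ] H} (hg : F.Adm g) (hh : F.Adm h) :
    F.ρ (g * h) = F.ρ g * F.ρ h := by
  refine LinearMap.ext fun w => ?_
  apply F.κ_inj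
  rw [(hg.mul hh).κ_ρ]
  change g (h (F.κ w)) = F.κ (F.ρ g (F.ρ h w))
  rw [hg.κ_ρ, hh.κ_ρ]

theorem Adm.mem_Λ {F : Fr Q} {g : H →ₗ[ℝ] H} (hg : F.Adm g) {L : AddSubgroup H}
    (hL : ∀ x ∈ L, g x ∈ L) {w : Fin 3 → ℝ} (hw : w ∈ F.Λ L) : F.ρ g w ∈ F.Λ L := by
  change F.κ _ ∈ L
  rw [hg.κ_ρ]
  exact hL _ hw

end Fr

/-! ### a frame from lattice vectors -/

section ofRat

variable {H : Type*} [AddCommGroup H] [Module ℝ H] {Q : H →ₗ[ℝ] H →ₗ[ℝ] ℝ}

/-- the projection of `w` to `v^⊥` -/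
noncomputable def wv (Q : H →ₗ[ℝ] H →ₗ[ℝ] ℝ) (v w : H) : H := w - (Q w v / Q v v) • v

/-- the dual isotropic vector -/
noncomputable def es (Q : H →ₗ[ℝ] H →ₗ[ℝ] ℝ) (e v w : H) : H :=
  (Q w e)⁻¹ • (wv Q v w - (Q (wv Q v w) (wv Q v w) / (2 * Q w e)) • e)

/-- a frame from `e, v, w` -/
noncomputable def frOf (sym : ∀ x y, Q x y = Q y x) (e v w : H) (ee : Q e e = 0) (ev : Q e v = 0)
    (vv : 0 < Q v v) (we : Q w e ≠ 0) : Fr Q where
  sym := sym
  N := Q v v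
  N_pos := vv
  e := e
  v := v
  f := es Q e v w
  ee := ee
  ev := ev
  vv := rfl
  ff := by
    have h1 : Q (wv Q v w) e = Q w e := by
      simp [wv, sym v e, ev]
    have h2 : Q e (wv Q v w) = Q w e := by rw [sym]; exact h1
    simp only [es, map_sub, map_smul, LinearMap.sub_apply, LinearMap.smul_apply, smul_eq_mul, h1, h2,
      ee]
    field_simp
    ring
  fv := by
    have h1 : Q (wv Q v w) v = 0 := by
      simp only [wv, map_sub, map_smul, LinearMap.sub_apply, LinearMap.smul_apply, smul_eq_mul]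
      field_simp; ring
    simp [es, h1, ev]
  fe := by
    have h1 : Q (wv Q v w) e = Q w e := by
      simp [wv, sym v e, ev]
    simp [es, h1, ee, we]

/-- `f` has a multiple in the lattice, when `e, v, w` are in a lattice on which `Q` is integral -/
theorem exists_mul_es {L : AddSubgroup H} (hint : ∀ x ∈ L, ∀ y ∈ L, ∃ k : ℤ, Q x y = k)
    {e v w : H} (he : e ∈ L) (hv : v ∈ L) (hw : w ∈ L) (vv : 0 < Q v v) (we : Q w e ≠ 0) :
    ∃ c : ℝ, c ≠ 0 ∧ c • es Q e v w ∈ L := by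
  obtain ⟨n, hn⟩ := hint _ hv _ hv
  obtain ⟨m, hm⟩ := hint _ hw _ hv
  obtain ⟨k, hk⟩ := hint _ hw _ he
  have hn0 : (n : ℝ) ≠ 0 := by rw [← hn]; exact vv.ne'
  have hk0 : (k : ℝ) ≠ 0 := by rw [← hk]; exact we
  -- u := n w - m v = n (wv)
  have hu : n • w - m • v ∈ L := L.sub_mem (L.zsmul_mem hw n) (L.zsmul_mem hv m)
  have hu' : ((n • w - m • v : H)) = (n : ℝ) • wv Q v w := by
    rw [wv, hm, hn, smul_sub, smul_smul, mul_div_cancel₀ _ hn0, Int.cast_smul_eq_zsmul,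
      Int.cast_smul_eq_zsmul]
  obtain ⟨l, hl⟩ := hint _ hu _ hu
  have hl' : (n : ℝ) * (n : ℝ) * Q (wv Q v w) (wv Q v w) = l := by
    rw [← hl, hu']; simp; ring
  refine ⟨2 * k * (n : ℝ) * n * k, ?_, ?_⟩
  · exact mul_ne_zero (mul_ne_zero (mul_ne_zero (mul_ne_zero two_ne_zero hk0) hn0) hn0) hk0
  · have h3 : (2 * k * (n : ℝ) * n * k) • es Q e v w = (2 * k * n : ℤ) • (n • w - m • v) - l • e := by
      rw [hu', es, hk, smul_smul, smul_sub, smul_smul, ← Int.cast_smul_eq_zsmul ℝ l,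
        ← Int.cast_smul_eq_zsmul ℝ (2 * k * n), smul_smul, ← hl']
      congr 1
      · congr 1; push_cast; field_simp
      · congr 1; field_simp
    rw [h3]
    exact L.sub_mem (L.zsmul_mem hu _) (L.zsmul_mem he _)

end ofRat

end Crest.Agent.R281.LI_473
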