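import Mathlib
import Crest.Agent.R281.LI1_473

/-!
# LS-INST / PER-INST, part 2 (row 281, helper473): the period point in a ternary frame and the
restriction of a marked cover to the markings with prescribed classes

* `Fr.IsPer a b`, `Fr.z0`, `Fr.tau`, `IsPer.spec` (`a + i b = z0 • σ_τ`), `tau_g`
* `HM L F Lz κ` : a marked cover `L : LS Q G E`, a linear action of `G` on `H`, the classes of a
  marking, its period; output `HM.Mk`, `HM.Gp`, `HM.lS : LS Q Gp Mk`, `HM.R : UpRep N Gp`,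
  `HM.Φ : Mk → ℍ`, `HM.perPre : PerPre N Λ Q Gp Mk`
* `countable_of_basis` : a group acting faithfully on a lattice is countable
-/

set_option autoImplicit false

namespace Crest.Agent.R281.LI_473

open CL_473 Set Filter Topology UpperHalfPlane

variable {H : Type*} [AddCommGroup H] [Module ℝ H] {Q : H →ₗ[ℝ] H →ₗ[ℝ] ℝ}

namespace Fr

/-- a period pair: real and imaginary part of a symplectic class, in the space of the frame -/
structure IsPer (F : Fr Q) (a b : H) : Prop where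
  a_mem : a ∈ F.M
  b_mem : b ∈ F.M
  eq : Q a a = Q b b
  pos : 0 < Q a a
  ort : Q a b = 0

/-- the complex coordinates of `a + i b` -/
noncomputable def cv (F : Fr Q) (a b : H) : Fin 3 → ℂ :=
  fun k => (F.co a k : ℂ) + (F.co b k : ℂ) * Complex.I

/-- the product with `e` -/
noncomputable def z0 (F : Fr Q) (a b : H) : ℂ := (Q a F.e : ℂ) + (Q b F.e : ℂ) * Complex.I

/-- the product with `v` -/
noncomputable def z1 (F : Fr Q) (a b : H) : ℂ := (Q a F.v : ℂ) + (Q b F.v : ℂ) * Complex.I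

/-- the period -/
noncomputable def tau (F : Fr Q) (a b : H) : ℂ := F.z1 a b / (F.N * F.z0 a b)

theorem cv_zero (F : Fr Q) (a b : H) : F.cv a b 0 = F.z0 a b := by
  simp [cv, z0, co_apply]

theorem cv_one (F : Fr Q) (a b : H) : F.cv a b 1 = F.z1 a b / F.N := by
  simp [cv, z1, co_apply]; ring

theorem tau_eq (F : Fr Q) (a b : H) : F.tau a b = F.cv a b 1 / F.cv a b 0 := by
  rw [cv_zero, cv_one, tau, div_div]

theorem cv_re (F : Fr Q) (a b : H) : (fun k => (F.cv a b k).re) = F.co a := by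
  funext k; simp [cv]

theorem cv_im (F : Fr Q) (a b : H) : (fun k => (F.cv a b k).im) = F.co b := by
  funext k; simp [cv]

variable {F : Fr Q} {a b : H}

theorem IsPer.spec (h : F.IsPer a b) :
    F.z0 a b ≠ 0 ∧ F.cv a b = F.z0 a b • sig F.N (F.tau a b) ∧ (F.tau a b).im ≠ 0 := by
  rw [tau_eq, ← cv_zero]
  apply eq_smul_sig F.N_pos
  · rw [isoC_iff, cv_re, cv_im, F.Q_co h.a_mem h.a_mem, F.Q_co h.b_mem h.b_mem,
      F.Q_co h.a_mem h.b_mem]
    exact ⟨h.eq, h.ort⟩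
  · unfold hm
    rw [cv_re, cv_im, F.Q_co h.a_mem h.a_mem, F.Q_co h.b_mem h.b_mem, ← h.eq]
    linarith [h.pos]

theorem IsPer.hm (h : F.IsPer a b) :
    Q a a = F.N * Complex.normSq (F.z0 a b) * (F.tau a b).im ^ 2 := by
  have h1 : CL_473.hm F.N (F.cv a b) = 2 * Q a a := by
    unfold CL_473.hm
    rw [cv_re, cv_im, F.Q_co h.a_mem h.a_mem, F.Q_co h.b_mem h.b_mem, ← h.eq]; ring
  rw [h.spec.2.1, hm_smul_sig] at h1
  linarith

theorem cv_g {g : H →ₗ[ℝ] H} (hg : F.Adm g) (ha : a ∈ F.M) (hb : b ∈ F.M) :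
    F.cv (g a) (g b) = cx (F.ρ g) (F.cv a b) := by
  funext k
  simp only [cv, cx]
  rw [hg.co_g ha, hg.co_g hb]
  have h1 := F.cv_re a b
  have h2 := F.cv_im a b
  simp only [cv] at h1 h2
  rw [h1, h2]

theorem IsPer.g {g : H →ₗ[ℝ] H} (hg : F.Adm g) (h : F.IsPer a b) : F.IsPer (g a) (g b) :=
  ⟨hg.M _ h.a_mem, hg.M _ h.b_mem, by rw [hg.q, hg.q, h.eq], by rw [hg.q]; exact h.pos,
    by rw [hg.q]; exact h.ort⟩

/-- the period of the image -/
theorem IsPer.compat {g : H →ₗ[ℝ] H} (hg : F.Adm g) (h : F.IsPer a b) :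
    cx (F.ρ g) (sig F.N (F.tau a b)) = (F.z0 (g a) (g b) / F.z0 a b) • sig F.N (F.tau (g a) (g b)) := by
  have h1 := h.spec
  have h2 := (h.g hg).spec
  have h3 := cv_g hg h.a_mem h.b_mem
  rw [h2.2.1, h1.2.1, cx_smul] at h3
  have h4 : cx (F.ρ g) (sig F.N (F.tau a b)) =
      (F.z0 a b)⁻¹ • (F.z0 a b • cx (F.ρ g) (sig F.N (F.tau a b))) := by
    rw [smul_smul, inv_mul_cancel₀ h1.1, one_smul]
  rw [h4, ← h3, smul_smul, inv_mul_eq_div]

theorem IsPer.tau_g {g : H →ₗ[ℝ] H} (hg : F.Adm g) (h : F.IsPer a b) :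
    F.tau (g a) (g b) = mv F.N (F.ρ g) (F.tau a b) := by
  have h1 := h.compat hg
  have h2 := hg.iso.mv_spec F.N_pos h.spec.2.2
  rw [h2.2.1] at h1
  exact (sig_inj h2.1 h1).2.symm

end Fr

/-- **Hodge data over a marked cover**: a linear action on `H`, classes and periods of the
markings. -/
structure HM {B : Type*} [TopologicalSpace B] {G : Type*} [Group G] {E : Type*} [MulAction G E]
    (L : LS B G E) (F : Fr Q) (Lz : AddSubgroup H) (κ : Type*) where
  /-- linear action -/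
  r : G →* Module.End ℝ H
  r_mem : ∀ g, ∀ x ∈ Lz, r g x ∈ Lz
  /-- the algebraic classes of a marking -/
  cls : κ → E → H
  cls_smul : ∀ i g x, cls i (g • x) = r g (cls i x)
  cls_s : ∀ i x, ∀ q ∈ L.U (L.p x), cls i (L.s x q) = cls i x
  /-- the prescribed classes -/
  cl : κ → H
  r_q : ∀ g, (∀ i, r g (cl i) = cl i) → ∀ x y, Q (r g x) (r g y) = Q x y
  mem_M : ∀ x, (∀ i, Q x (cl i) = 0) → x ∈ F.M
  perp : ∀ x ∈ F.M, ∀ i, Q x (cl i) = 0
  /-- the period of a marking -/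
  re : E → H
  im : E → H
  re_smul : ∀ g x, re (g • x) = r g (re x)
  im_smul : ∀ g x, im (g • x) = r g (im x)
  per : ∀ x, (∀ i, cls i x = cl i) → Q (re x) (re x) = Q (im x) (im x) ∧ 0 < Q (re x) (re x) ∧
    Q (re x) (im x) = 0 ∧ ∀ i, Q (re x) (cl i) = 0 ∧ Q (im x) (cl i) = 0
  /-- continuity of the period along the transports -/
  cont0 : ∀ x, (∀ i, cls i x = cl i) →
    ContinuousOn (fun q => F.z0 (re (L.s x q)) (im (L.s x q))) (L.U (L.p x))
  cont1 : ∀ x, (∀ i, cls i x = cl i) →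
    ContinuousOn (fun q => F.z1 (re (L.s x q)) (im (L.s x q))) (L.U (L.p x))
  conn : ∀ q, IsPreconnected (L.U q)

namespace HM

variable {B : Type*} [TopologicalSpace B] {G : Type*} [Group G] {E : Type*} [MulAction G E]
    {L : LS B G E} {F : Fr Q} {Lz : AddSubgroup H} {κ : Type*} (D : HM L F Lz κ)

theorem isPer {x : E} (hx : ∀ i, D.cls i x = D.cl i) : F.IsPer (D.re x) (D.im x) := by
  obtain ⟨h1, h2, h3, h4⟩ := D.per x hx
  exact ⟨D.mem_M _ fun i => (h4 i).1, D.mem_M _ fun i => (h4 i).2, h1, h2, h3⟩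

theorem adm {g : G} (hg : ∀ i, D.r g (D.cl i) = D.cl i) : F.Adm (D.r g) where
  q := D.r_q g hg
  M x hx := D.mem_M _ fun i => by
    have h1 : Q (D.r g x) (D.r g (D.cl i)) = Q x (D.cl i) := D.r_q g hg _ _
    rw [hg i] at h1
    rw [h1]; exact D.perp x hx i

theorem inv_cl {g : G} (hg : ∀ i, D.r g (D.cl i) = D.cl i) (i : κ) :
    D.r g⁻¹ (D.cl i) = D.cl i := by
  have h1 : D.r g⁻¹ (D.r g (D.cl i)) = D.cl i := by
    rw [← Module.End.mul_apply, ← map_mul, inv_mul_cancel, map_one, Module.End.one_apply]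
  rwa [hg i] at h1

theorem mul_cl {g h : G} (hg : ∀ i, D.r g (D.cl i) = D.cl i) (hh : ∀ i, D.r h (D.cl i) = D.cl i)
    (i : κ) : D.r (g * h) (D.cl i) = D.cl i := by
  rw [map_mul, Module.End.mul_apply, hh, hg]

/-- the group of the restricted cover -/
def sg : Subgroup G where
  carrier := {g | (∀ i, D.r g (D.cl i) = D.cl i) ∧
    ∀ τ : ℂ, 0 < τ.im → 0 < (mv F.N (F.ρ (D.r g)) τ).im}
  one_mem' := ⟨fun i => by rw [map_one]; rfl, fun τ hτ => by
    rw [map_one, F.ρ_one, mv_one]; exact hτ⟩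
  mul_mem' := by
    rintro g h ⟨hg, hg'⟩ ⟨hh, hh'⟩
    refine ⟨D.mul_cl hg hh, fun τ hτ => ?_⟩
    rw [map_mul, (D.adm hg).ρ_mul (D.adm hh), (D.adm hg).iso.mv_comp F.N_pos (D.adm hh).iso hτ.ne']
    exact hg' _ (hh' _ hτ)
  inv_mem' := by
    rintro g ⟨hg, hg'⟩
    refine ⟨D.inv_cl hg, ?_⟩
    have hI : (0 : ℝ) < Complex.I.im := by simp
    apply (D.adm (D.inv_cl hg)).iso.mv_pos F.N_pos (hg' _ hI)
    rw [← (D.adm (D.inv_cl hg)).iso.mv_comp F.N_pos (D.adm hg).iso hI.ne',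
      ← (D.adm (D.inv_cl hg)).ρ_mul (D.adm hg), ← map_mul, inv_mul_cancel, map_one, F.ρ_one, mv_one]
    exact hI

/-- the group of the restricted cover, as a type -/
def Gp : Type _ := D.sg

instance : Group D.Gp := inferInstanceAs (Group D.sg)

/-- the markings with the prescribed classes and period in `ℍ` -/
def st : Set E := {x | (∀ i, D.cls i x = D.cl i) ∧ 0 < (F.tau (D.re x) (D.im x)).im}

/-- the markings with the prescribed classes and period in `ℍ`, as a type -/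
def Mk : Type _ := D.st

variable {D}

theorem cls_iff {x : E} {q : B} (hq : q ∈ L.U (L.p x)) :
    (∀ i, D.cls i (L.s x q) = D.cl i) ↔ ∀ i, D.cls i x = D.cl i :=
  forall_congr' fun i => by rw [D.cls_s i x q hq]

theorem smul_mem {g : G} (hg : g ∈ D.sg) {x : E} (hx : x ∈ D.st) : g • x ∈ D.st := by
  refine ⟨fun i => by rw [D.cls_smul, hx.1, hg.1], ?_⟩
  rw [D.re_smul, D.im_smul, (D.isPer hx.1).tau_g (D.adm hg.1)]
  exact hg.2 _ hx.2

theorem mem_sg {g : G} {x : E} (hx : x ∈ D.st) (hgx : g • x ∈ D.st) : g ∈ D.sg := by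
  have hg : ∀ i, D.r g (D.cl i) = D.cl i := fun i => by
    rw [← hx.1 i, ← D.cls_smul, hgx.1, hx.1]
  refine ⟨hg, ?_⟩
  apply (D.adm hg).iso.mv_pos F.N_pos hx.2
  rw [← (D.isPer hx.1).tau_g (D.adm hg), ← D.re_smul, ← D.im_smul]
  exact hgx.2

theorem tau_cont {x : E} (hx : ∀ i, D.cls i x = D.cl i) :
    ContinuousOn (fun q => F.tau (D.re (L.s x q)) (D.im (L.s x q))) (L.U (L.p x)) := by
  unfold Fr.tau
  apply ContinuousOn.div (D.cont1 x hx) (continuousOn_const.mul (D.cont0 x hx))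
  intro q hq
  have h1 := (D.isPer ((cls_iff hq).mpr hx)).spec.1
  have h2 : (F.N : ℂ) ≠ 0 := Complex.ofReal_ne_zero.mpr F.N_pos.ne'
  exact mul_ne_zero h2 h1

theorem im_sign {x : E} (hx : ∀ i, D.cls i x = D.cl i) {q q' : B} (hq : q ∈ L.U (L.p x))
    (hq' : q' ∈ L.U (L.p x)) (h : 0 < (F.tau (D.re (L.s x q)) (D.im (L.s x q))).im) :
    0 < (F.tau (D.re (L.s x q')) (D.im (L.s x q'))).im := by
  by_contra hneg
  have hc : ContinuousOn (fun q => (F.tau (D.re (L.s x q)) (D.im (L.s x q))).im)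
      (L.U (L.p x)) := Complex.continuous_im.comp_continuousOn (tau_cont hx)
  have hmem := (D.conn (L.p x)).intermediate_value hq' hq hc
    (⟨not_lt.mp hneg, h.le⟩ : (0 : ℝ) ∈ Icc _ _)
  obtain ⟨q2, hq2, h2⟩ := hmem
  exact (D.isPer ((cls_iff hq2).mpr hx)).spec.2.2 h2

theorem mem_st_iff {x : E} {q : B} (hq : q ∈ L.U (L.p x)) : L.s x q ∈ D.st ↔ x ∈ D.st := by
  constructor
  · rintro ⟨h1, h2⟩
    have h3 := (cls_iff hq).mp h1
    refine ⟨h3, ?_⟩
    have h4 := im_sign h3 hq (L.U_mem _) h2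
    rwa [L.s_self] at h4
  · rintro ⟨h1, h2⟩
    refine ⟨(cls_iff hq).mpr h1, ?_⟩
    apply im_sign h1 (L.U_mem _) hq
    rwa [L.s_self]

variable (D)

instance : MulAction D.Gp D.Mk :=
  LS.subAct D.st D.sg fun _ hg _ hx => smul_mem hg hx

theorem smul_val (g : D.Gp) (x : D.Mk) : (g • x).1 = g.1 • x.1 := rfl

/-- the restricted marked cover -/
noncomputable def lS : LS B D.Gp D.Mk :=
  L.sub D.st D.sg (fun _ hg _ hx => smul_mem hg hx) (fun _ _ hq => mem_st_iff hq)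
    (fun _ hx g hgx => ⟨g, mem_sg hx hgx, rfl⟩)

theorem lS_p (x : D.Mk) : D.lS.p x = L.p x.1 := rfl

theorem lS_U : D.lS.U = L.U := rfl

open Classical in
theorem lS_s (x : D.Mk) {q : B} (hq : q ∈ L.U (L.p x.1)) : (D.lS.s x q).1 = L.s x.1 q := by
  have h : L.s x.1 q ∈ D.st := (mem_st_iff hq).mpr x.2
  have h2 : D.lS.s x q = (⟨L.s x.1 q, h⟩ : D.st) := dif_pos h
  exact congrArg (fun y : D.st => y.1) h2

/-- the linear representation of the group in the frame -/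
noncomputable def R : UpRep F.N D.Gp where
  ρ :=
    { toFun := fun g => F.ρ (D.r g.1)
      map_one' := by
        change F.ρ (D.r 1) = 1
        rw [map_one, F.ρ_one]
      map_mul' := fun g h => by
        change F.ρ (D.r (g.1 * h.1)) = _
        rw [map_mul, (D.adm g.2.1).ρ_mul (D.adm h.2.1)] }
  iso g := (D.adm g.2.1).iso
  up g τ hτ := g.2.2 τ hτ

theorem R_apply (g : D.Gp) : D.R.ρ g = F.ρ (D.r g.1) := rfl

theorem κ_R (g : D.Gp) (w : Fin 3 → ℝ) : F.κ (D.R.ρ g w) = D.r g.1 (F.κ w) :=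
  (D.adm g.2.1).κ_ρ w

theorem R_mem (g : D.Gp) (w : Fin 3 → ℝ) (hw : w ∈ F.Λ Lz) : D.R.ρ g w ∈ F.Λ Lz :=
  (D.adm g.2.1).mem_Λ (D.r_mem g.1) hw

/-- the period -/
noncomputable def Φ (x : D.Mk) : ℍ := ⟨F.tau (D.re x.1) (D.im x.1), x.2.2⟩

theorem Φ_coe (x : D.Mk) : (D.Φ x : ℂ) = F.tau (D.re x.1) (D.im x.1) := rfl

theorem Φ_smul (g : D.Gp) (x : D.Mk) : (D.Φ (g • x) : ℂ) = mv F.N (D.R.ρ g) (D.Φ x) := by
  rw [Φ_coe, Φ_coe, smul_val, D.re_smul, D.im_smul, (D.isPer x.2.1).tau_g (D.adm g.2.1)]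
  rfl

/-- the period vector of a marking -/
theorem vec (x : D.Mk) : F.z0 (D.re x.1) (D.im x.1) ≠ 0 ∧
    F.cv (D.re x.1) (D.im x.1) = F.z0 (D.re x.1) (D.im x.1) • sig F.N (D.Φ x) :=
  ⟨(D.isPer x.2.1).spec.1, (D.isPer x.2.1).spec.2.1⟩

theorem Φ_s (x : D.Mk) {q : B} (hq : q ∈ L.U (L.p x.1)) :
    (D.Φ (D.lS.s x q) : ℂ) = F.tau (D.re (L.s x.1 q)) (D.im (L.s x.1 q)) := by
  rw [Φ_coe, D.lS_s x hq]

theorem Φ_cont (x : D.Mk) : ContinuousAt (fun q => D.Φ (D.lS.s x q)) (D.lS.p x) := by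
  rw [UpperHalfPlane.isEmbedding_coe.continuousAt_iff]
  have hU : L.U (L.p x.1) ∈ 𝓝 (L.p x.1) := (L.U_open _).mem_nhds (L.U_mem _)
  have h1 := (tau_cont (D := D) x.2.1).continuousAt hU
  refine ContinuousAt.congr h1 ?_
  filter_upwards [hU] with q hq
  exact (D.Φ_s x hq).symm

/-- **the period data of CUSP-LIFT** -/
noncomputable def perPre : PerPre F.N (F.Λ Lz) B D.Gp D.Mk where
  L := D.lS
  R := D.R
  mem := D.R_mem
  Φ := D.Φ
  Φ_cont := D.Φ_cont
  Φ_equiv := D.Φ_smul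

end HM

/-- a group acting faithfully and linearly, preserving a lattice, is countable -/
theorem countable_of_basis {G : Type*} [Group G] {ι : Type*} [Finite ι]
    (b : Module.Basis ι ℝ H) {Lz : AddSubgroup H} (hb : Fr.IsInt b Lz) (hbL : ∀ i, b i ∈ Lz)
    (r : G →* Module.End ℝ H) (hr : Function.Injective r) (r_mem : ∀ g, ∀ x ∈ Lz, r g x ∈ Lz) :
    Countable G := by
  choose k hk using fun (g : G) (i j : ι) => hb _ (r_mem g _ (hbL i)) j
  have hinj : Function.Injective k := by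
    intro g h hgh
    apply hr
    apply b.ext
    intro i
    apply b.repr.injective
    ext j
    rw [hk, hk, hgh]
  exact hinj.countable

theorem HM.countable {B : Type*} [TopologicalSpace B] {G : Type*} [Group G] {E : Type*}
    [MulAction G E] {L : LS B G E} {F : Fr Q} {Lz : AddSubgroup H} {κ : Type*} (D : HM L F Lz κ)
    {ι : Type*} [Finite ι] (b : Module.Basis ι ℝ H) (hb : Fr.IsInt b Lz) (hbL : ∀ i, b i ∈ Lz)
    (hr : Function.Injective D.r) : Countable D.Gp := by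
  have := countable_of_basis b hb hbL D.r hr D.r_mem
  exact inferInstanceAs (Countable D.sg)

end Crest.Agent.R281.LI_473
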