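import Crest.Agent.R281.Sl2_957

/-!
# R281 / Sl3 (helper957): the line lemma over the algebraic numbers

`QB` is the field of algebraic numbers in `ℂ`; the points over `u = 0` of the covering of
`exists_line` lie in the countable set `algPts R`.
-/

set_option autoImplicit false
set_option linter.style.haveILetI false

namespace Crest.Agent.R281.Sl_957

open Polynomial

/-- the field of algebraic numbers -/
noncomputable abbrev QB : IntermediateField ℚ ℂ := algebraicClosure ℚ ℂ

theorem isAlgClosed_QB : IsAlgClosed QB := (algebraicClosure.isAlgClosure ℚ ℂ).isAlgClosed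

theorem mem_QB_iff {x : ℂ} : x ∈ QB ↔ IsAlgebraic ℚ x := mem_algebraicClosure_iff

theorem countable_QB : (QB : Set ℂ).Countable := by
  have h := Algebraic.countable ℚ ℂ
  refine h.mono fun x hx => ?_
  exact mem_QB_iff.1 hx

/-- the points with algebraic coordinates -/
def algPts (R : Type*) : Set (R → ℂ) := {x | ∀ i, x i ∈ QB}

theorem countable_algPts (R : Type*) [Finite R] : (algPts R).Countable := by
  classical
  haveI := Fintype.ofFinite R
  have h := Set.countable_pi (fun _ : R => countable_QB)
  refine h.mono fun x hx => ?_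
  exact hx

variable {R : Type*}

theorem exists_lineC [Finite R] (c : R → ℂ) (r : MvPolynomial R QB)
    (hr : MvPolynomial.aeval c r ≠ 0) : Nonempty (Line QB c r) := by
  haveI := isAlgClosed_QB
  exact exists_line c r hr

theorem Line.pt_zero_mem {c : R → ℂ} {r : MvPolynomial R QB} (L : Line QB c r) {w : ℂ}
    (hw : evalEval 0 w L.f = 0) : L.pt 0 w ∈ algPts R := fun i => by
  obtain ⟨a, ha⟩ := L.alg w hw i
  change evalEval 0 w (L.P i) / L.δ.eval 0 ∈ QB
  rw [← ha]
  exact a.2

theorem Line.pt_one {k₀ K : Type*} [Field k₀] [Field K] [Algebra k₀ K] {c : R → K}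
    {r : MvPolynomial R k₀} (L : Line k₀ c r) : L.pt 1 L.w₁ = c := funext L.eq

theorem Line.δ_ne_zero {k₀ K : Type*} [Field k₀] [Field K] [Algebra k₀ K] {c : R → K}
    {r : MvPolynomial R k₀} (L : Line k₀ c r) : L.δ ≠ 0 := fun h => L.δ_zero (by rw [h, eval_zero])

/-- every polynomial relation of `c` over `k₀` holds along the covering -/
theorem Line.spec' {k₀ K : Type*} [Field k₀] [Field K] [Algebra k₀ K] {c : R → K}
    {r : MvPolynomial R k₀} (L : Line k₀ c r) {u w : K} (h : evalEval u w L.f = 0)
    (hδ : L.δ.eval u ≠ 0) (G : MvPolynomial R k₀) (hG : MvPolynomial.aeval c G = 0) :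
    MvPolynomial.aeval (L.pt u w) G = 0 := L.spec u w h hδ G hG

/-- ... and integral relations too -/
theorem Line.specZ {k₀ K : Type*} [Field k₀] [Field K] [Algebra k₀ K] {c : R → K}
    {r : MvPolynomial R k₀} (L : Line k₀ c r) {u w : K} (h : evalEval u w L.f = 0)
    (hδ : L.δ.eval u ≠ 0) (G : MvPolynomial R ℤ) (hG : MvPolynomial.aeval c G = 0) :
    MvPolynomial.aeval (L.pt u w) G = 0 := by
  have key : ∀ x : R → K, MvPolynomial.aeval x (MvPolynomial.map (Int.castRingHom k₀) G) =
      MvPolynomial.aeval x G := fun x => by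
    rw [MvPolynomial.aeval_def, MvPolynomial.eval₂_map, MvPolynomial.aeval_def]
    congr 1
    exact Subsingleton.elim _ _
  rw [← key]
  exact L.spec u w h hδ _ (by rw [key]; exact hG)

end Crest.Agent.R281.Sl_957
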