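import Crest.Agent.R281.Am1_957
import Crest.Agent.R281.Sl3_957
import Crest.Agent.R281.LI2_473

/-!
# R281 (S0424), COUNT (D13; helper581), part 2: markings over algebraic points are countable

`G` countable, `L : LS Q G E`:

* `countable_over`  : `S` countable ==> `{x | L.p x ∈ S}` countable (one orbit over every point)
* `countable_base`  : the points of the model `QM M` with coordinates `z j` in the countable field
                      `k₀` are countable (`F` monic)
* `count`           : `{x : E | ∀ j, z j (p x) ∈ k₀}` is countable, for `L : LS (QM M) G E`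
* `count_per`       : the periods `Φ x` of these markings are countable; `count_HM` for 473's `HM`
-/

set_option autoImplicit false

open Set Filter Topology Polynomial

namespace Crest.Agent.R281.Cnt_581

open Crest.Agent.R281.CL_473 Crest.Agent.R281.Sl_957 Crest.Agent.R281.Am_957

noncomputable section

section LS

variable {Q : Type*} [TopologicalSpace Q] {G : Type*} [Group G] {E : Type*} [MulAction G E]

/-- one orbit over every point -/
theorem countable_fibre [Countable G] (L : LS Q G E) (q : Q) : {x : E | L.p x = q}.Countable := by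
  rcases Set.eq_empty_or_nonempty {x : E | L.p x = q} with h | ⟨x0, hx0⟩
  · rw [h]
    exact countable_empty
  · refine (countable_range fun g : G => g • x0).mono fun y hy => ?_
    obtain ⟨g, hg⟩ := L.trans x0 y (Eq.trans hx0 (Eq.symm hy))
    exact ⟨g, hg.symm⟩

/-- the markings over a countable set are countable -/
theorem countable_over [Countable G] (L : LS Q G E) {S : Set Q} (hS : S.Countable) :
    {x : E | L.p x ∈ S}.Countable := by
  have h : {x : E | L.p x ∈ S} = ⋃ q ∈ S, {x : E | L.p x = q} := by
    ext x
    simp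
  rw [h]
  exact hS.biUnion fun q _ => countable_fibre L q

end LS

section base

variable {k₀ R : Type*} [Field k₀] [Algebra k₀ ℂ] {M : Fmt k₀ R}

/-- the points of the model with coordinates in `k₀` -/
theorem countable_base [Countable k₀] (hM : M.F.Monic) :
    {q : QM M | ∀ j, ∃ a : k₀, algebraMap k₀ ℂ a = zc M q j}.Countable := by
  classical
  let φ : (Fin M.m → k₀) → Set (QM M) := fun z' =>
    {q | zc M q = fun j => algebraMap k₀ ℂ (z' j)}
  have hφ : ∀ z', (φ z').Countable := by
    intro z'
    refine Set.Finite.countable ?_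
    have h1 : (M.F.map (ez fun j => algebraMap k₀ ℂ (z' j))) ≠ 0 := (hM.map _).ne_zero
    have h2 : ((M.F.map (ez fun j => algebraMap k₀ ℂ (z' j))).roots.toFinset : Set ℂ).Finite :=
      Finset.finite_toSet _
    refine Set.Finite.of_injOn (f := fun q : QM M => q.1.2) (fun q hq => ?_) ?_ h2
    · have hq' : q.1.1 = fun j => algebraMap k₀ ℂ (z' j) := hq
      have h3 : M.F.eval₂ (ez q.1.1) q.1.2 = 0 := q.2.1
      rw [hq'] at h3
      simp only [Finset.mem_coe, Multiset.mem_toFinset]
      rw [mem_roots h1, IsRoot.def, eval_map]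
      exact h3
    · intro q hq q' hq' h
      have e1 : q.1.1 = fun j => algebraMap k₀ ℂ (z' j) := hq
      have e2 : q'.1.1 = fun j => algebraMap k₀ ℂ (z' j) := hq'
      exact Subtype.ext (Prod.ext (e1.trans e2.symm) h)
  refine (countable_iUnion hφ).mono fun q hq => ?_
  choose a ha using hq
  rw [mem_iUnion]
  refine ⟨a, ?_⟩
  show zc M q = fun j => algebraMap k₀ ℂ (a j)
  funext j
  exact (ha j).symm

variable {G : Type*} [Group G] {E : Type*} [MulAction G E]

/-- **COUNT**: the markings over algebraic points are countable -/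
theorem count [Countable k₀] [Countable G] (L : LS (QM M) G E) (hM : M.F.Monic) :
    {x : E | ∀ j, ∃ a : k₀, algebraMap k₀ ℂ a = zc M (L.p x) j}.Countable :=
  countable_over L (countable_base hM)

/-- the periods of the markings over algebraic points are countable -/
theorem count_per [Countable k₀] [Countable G] (L : LS (QM M) G E) (hM : M.F.Monic) {T : Type*}
    (Φ : E → T) :
    {τ : T | ∃ x : E, (∀ j, ∃ a : k₀, algebraMap k₀ ℂ a = zc M (L.p x) j) ∧ Φ x = τ}.Countable :=
  (count L hM).image Φ

end base

instance countable_QB_type : Countable QB := countable_QB.to_subtype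

section QB

variable {R : Type*} {M : Fmt QB R} {G : Type*} [Group G] {E : Type*} [MulAction G E]

theorem exists_QB_iff (x : ℂ) : (∃ a : QB, algebraMap QB ℂ a = x) ↔ x ∈ QB :=
  ⟨fun ⟨a, ha⟩ => by rw [← ha]; exact a.2, fun h => ⟨⟨x, h⟩, rfl⟩⟩

/-- **COUNT** over `QB` : `S` of ASM-M -/
theorem count_QB [Countable G] (L : LS (QM M) G E) (hM : M.F.Monic) {T : Type*} (Φ : E → T) :
    {τ : T | ∃ x : E, (∀ j, zc M (L.p x) j ∈ QB) ∧ Φ x = τ}.Countable := by
  refine (count_per L hM Φ).mono ?_
  rintro τ ⟨x, hx, rfl⟩
  exact ⟨x, fun j => (exists_QB_iff _).2 (hx j), rfl⟩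

open Crest.Agent.R281.LI_473 in
/-- **COUNT** for the restricted marked cover of 473 -/
theorem count_HM {H : Type*} [AddCommGroup H] [Module ℝ H] {Q : H →ₗ[ℝ] H →ₗ[ℝ] ℝ} {F : Fr Q}
    {L : LS (QM M) G E} {Lz : AddSubgroup H} {κ : Type*} (D : HM L F Lz κ) [Countable D.Gp]
    (hM : M.F.Monic) :
    {τ : UpperHalfPlane | ∃ x : D.Mk, (∀ j, zc M (D.lS.p x) j ∈ QB) ∧ D.Φ x = τ}.Countable :=
  count_QB D.lS hM D.Φ

end QB

end

end Crest.Agent.R281.Cnt_581
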