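import Crest.Agent.R281.Am2_957
import Crest.Agent.R281.Sl3_957

/-!
# R281 (S0424), COUNT = (D13) (helper311), part 3: marked covers with a countable group

* `countable_over`   : a marked cover `L : LS B G E` with `G` countable has countably many points
                       over a countable set (the fibres are orbits)
* `countable_alg`    : countably many points of the model `QM M` with algebraic `z`
* `countable_S`      : the values of the period map at the points with algebraic `z` form a
                       countable set (the set `S` of ASM-M)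
-/

set_option autoImplicit false

open Polynomial Set Filter Topology UpperHalfPlane

namespace Crest.Agent.R281.Cnt_311

open Crest.Agent.R281.CL_473 Crest.Agent.R281.Sl_957 Crest.Agent.R281.Am_957

/-- **a marked cover with countable group has countable fibres** -/
theorem countable_over {B : Type*} [TopologicalSpace B] {G : Type*} [Group G] [Countable G]
    {E : Type*} [MulAction G E] (L : LS B G E) {A : Set B} (hA : A.Countable) :
    {x : E | L.p x ∈ A}.Countable := by
  have h1 : ∀ q : B, {x : E | L.p x = q}.Countable := by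
    intro q
    by_cases h : ∃ x0 : E, L.p x0 = q
    · obtain ⟨x0, h0⟩ := h
      refine (countable_range fun g : G => g • x0).mono ?_
      intro x hx
      have hx' : L.p x = q := hx
      obtain ⟨g, hg⟩ := L.trans x0 x (h0.trans hx'.symm)
      exact ⟨g, hg.symm⟩
    · refine countable_empty.mono ?_
      intro x hx
      exact (h ⟨x, hx⟩).elim
  refine (hA.biUnion fun q _ => h1 q).mono ?_
  intro x hx
  exact mem_biUnion (show L.p x ∈ A from hx) (show L.p x = L.p x from rfl)

variable {k₀ R : Type*} [Field k₀] [Algebra k₀ ℂ] {M : Fmt k₀ R}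

/-- finitely many points over each `z` -/
theorem finite_roots (h : M.Nice) (z : Fin M.m → ℂ) :
    {w : ℂ | M.F.eval₂ (ez z) w = 0}.Finite := by
  have h1 : (M.F.map (ez z)).Monic := h.monic.map _
  refine (Multiset.finite_toSet (M.F.map (ez z)).roots).subset ?_
  intro w hw
  have hw' : M.F.eval₂ (ez z) w = 0 := hw
  show w ∈ (M.F.map (ez z)).roots
  rw [Polynomial.mem_roots h1.ne_zero, Polynomial.IsRoot.def, Polynomial.eval_map]
  exact hw'

/-- countably many points of the model over a countable set of `z` -/
theorem countable_QM (h : M.Nice) {A : Set (Fin M.m → ℂ)} (hA : A.Countable) :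
    {q : QM M | q.1.1 ∈ A}.Countable := by
  have h1 : (⋃ z ∈ A, (fun w : ℂ => (z, w)) '' {w : ℂ | M.F.eval₂ (ez z) w = 0}).Countable :=
    hA.biUnion fun z _ => ((finite_roots h z).countable).image _
  refine (h1.preimage (f := fun q : QM M => q.1) Subtype.val_injective).mono ?_
  intro q hq
  exact mem_biUnion (show q.1.1 ∈ A from hq) ⟨q.1.2, q.2.1, rfl⟩

/-- countably many points of the model with algebraic `z` -/
theorem countable_alg (h : M.Nice) : {q : QM M | ∀ i, q.1.1 i ∈ QB}.Countable :=
  countable_QM h (countable_algPts (Fin M.m))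

/-- the fields of definition may be any countable set of numbers -/
theorem countable_range_alg (h : M.Nice) {k : Type*} [Countable k] (f : k → ℂ) :
    {q : QM M | ∃ z : Fin M.m → k, q.1.1 = fun i => f (z i)}.Countable :=
  (countable_QM h (countable_range fun z : Fin M.m → k => fun i => f (z i))).mono fun q hq => by
    obtain ⟨z, hz⟩ := hq
    exact ⟨z, hz.symm⟩

section geom

variable {N : ℝ} {Λ : Set (Fin 3 → ℝ)} {G : Type*} [Group G] [Countable G] {E : Type*}
  [MulAction G E]

/-- the values of the period map over a countable set -/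
theorem countable_Φ (D : GeomM M N Λ G E) {A : Set (QM M)} (hA : A.Countable) :
    {τ : ℍ | ∃ x : E, D.p x ∈ A ∧ D.Φ x = τ}.Countable := by
  refine ((countable_over D.toLS hA).image D.Φ).mono ?_
  rintro τ ⟨x, hx, rfl⟩
  exact ⟨x, hx, rfl⟩

/-- **the set `S` of ASM-M exists** as soon as the group is countable -/
theorem countable_S (h : M.Nice) (D : GeomM M N Λ G E) :
    ∃ S : Set ℍ, S.Countable ∧ ∀ x, (∀ i, (D.p x).1.1 i ∈ QB) → D.Φ x ∈ S :=
  ⟨_, countable_Φ D (countable_alg h), fun x hx => ⟨x, hx, rfl⟩⟩

/-- the same for points with coordinates in a countable field -/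
theorem countable_S' (h : M.Nice) (D : GeomM M N Λ G E) {k : Type*} [Countable k] (f : k → ℂ) :
    ∃ S : Set ℍ, S.Countable ∧
      ∀ x, (∃ z : Fin M.m → k, (D.p x).1.1 = fun i => f (z i)) → D.Φ x ∈ S :=
  ⟨_, countable_Φ D (countable_range_alg h f), fun x hx => ⟨x, hx, rfl⟩⟩

/-- the real parts -/
theorem countable_re (h : M.Nice) (D : GeomM M N Λ G E) :
    {r : ℝ | ∃ x : E, (∀ i, (D.p x).1.1 i ∈ QB) ∧ (D.Φ x).re = r}.Countable := by
  refine ((countable_Φ D (countable_alg h)).image fun τ : ℍ => τ.re).mono ?_
  rintro r ⟨x, hx, rfl⟩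
  exact ⟨D.Φ x, ⟨x, hx, rfl⟩, rfl⟩

end geom

end Crest.Agent.R281.Cnt_311
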