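import Crest.Agent.R273.StokesV_332
import Mathlib.Analysis.Calculus.ContDiff.Convolution
import Mathlib.MeasureTheory.Integral.DominatedConvergence

/-!
# R281 (S0424), DIV 6, S6-FUB (helper163), part 3: fibre integrals in adapted charts

`B : Atl (d + m) V`, `y : V → Cn m`, the last `m` coordinates of every chart are `y` (`Adp B y`).

* `gl x u`            : glueing of real coordinates `RI d → ℝ`, `RI m → ℝ`; `integral_gl` (Fubini);
* `slc B k f u`       : `∫_x f` over the slice `y = u` of the chart `k`;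
* `fsum P f u`        : the fibre integral `∑ᶠ k, slc B k (ψ_k f_k) u` (density along the fibre);
* `slc_smooth`, `slc_cont`, `fsum_contDiffAt`, `fsum_continuousAt` : smoothness / continuity in `u`;
* `fsum_base`         : `fsum (χ(y) f) u = χ(u) fsum f u`;
* `intD_eq_fsum`      : **Fubini**, `intD P f = ∫_u fsum P f u`.
-/

set_option autoImplicit false
set_option linter.unusedSectionVars false

open Set Filter Topology Complex Function MeasureTheory
open scoped ContDiff Matrix ComplexConjugate Convolution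

namespace Crest.Agent.R281.Fub3_163

open Crest.Agent.R275.Geo Crest.Agent.R275.C1d194 Crest.Agent.R275.Pai323
open Crest.Agent.R275.TorS666 Crest.Agent.R275.Tor812 Crest.Agent.R273.StokesV_332
open Crest.Agent.R275.SerG398 (lint dens)

noncomputable section

variable {d m : ℕ}

/-! ### glueing of real coordinates -/

/-- glueing of real coordinates -/
def gl (x : RI d → ℝ) (u : RI m → ℝ) : RI (d + m) → ℝ := fun p =>
  Fin.addCases (fun a => x (a, p.2)) (fun a => u (a, p.2)) p.1

@[simp] theorem gl_left (x : RI d → ℝ) (u : RI m → ℝ) (a : Fin d) (b : Fin 2) :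
    gl x u (Fin.castAdd m a, b) = x (a, b) := by
  simp [gl]

@[simp] theorem gl_right (x : RI d → ℝ) (u : RI m → ℝ) (a : Fin m) (b : Fin 2) :
    gl x u (Fin.natAdd d a, b) = u (a, b) := by
  simp [gl]

/-- first block of the real coordinates -/
def gL (w : RI (d + m) → ℝ) : RI d → ℝ := fun p => w (Fin.castAdd m p.1, p.2)

/-- last block of the real coordinates -/
def gR (w : RI (d + m) → ℝ) : RI m → ℝ := fun p => w (Fin.natAdd d p.1, p.2)

@[simp] theorem gL_gl (x : RI d → ℝ) (u : RI m → ℝ) : gL (gl x u) = x := by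
  funext p; obtain ⟨a, b⟩ := p; simp [gL]

@[simp] theorem gR_gl (x : RI d → ℝ) (u : RI m → ℝ) : gR (gl x u) = u := by
  funext p; obtain ⟨a, b⟩ := p; simp [gR]

theorem gl_gL_gR (w : RI (d + m) → ℝ) : gl (gL w) (gR w) = w := by
  funext p
  obtain ⟨a, b⟩ := p
  refine Fin.addCases (fun a => ?_) (fun a => ?_) a
  · simp [gL]
  · simp [gR]

theorem continuous_gL : Continuous (gL : (RI (d + m) → ℝ) → RI d → ℝ) :=
  continuous_pi fun _ => continuous_apply _

theorem continuous_gR : Continuous (gR : (RI (d + m) → ℝ) → RI m → ℝ) :=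
  continuous_pi fun _ => continuous_apply _

theorem contDiff_gl {k : WithTop ℕ∞} :
    ContDiff ℝ k (fun q : (RI d → ℝ) × (RI m → ℝ) => gl q.1 q.2) := by
  refine contDiff_pi.2 fun p => ?_
  obtain ⟨a, b⟩ := p
  refine Fin.addCases (fun a => ?_) (fun a => ?_) a
  · simp only [gl_left]
    exact (contDiff_apply ℝ ℝ (a, b)).comp contDiff_fst
  · simp only [gl_right]
    exact (contDiff_apply ℝ ℝ (a, b)).comp contDiff_snd

theorem continuous_gl : Continuous (fun q : (RI d → ℝ) × (RI m → ℝ) => gl q.1 q.2) :=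
  (contDiff_gl (k := 0)).continuous

theorem cc_gl_left (x : RI d → ℝ) (u : RI m → ℝ) (a : Fin d) :
    cc (gl x u) (Fin.castAdd m a) = cc x a := by
  rw [cc_apply, cc_apply, gl_left, gl_left]

theorem cc_gl_right (x : RI d → ℝ) (u : RI m → ℝ) (a : Fin m) :
    cc (gl x u) (Fin.natAdd d a) = cc u a := by
  rw [cc_apply, cc_apply, gl_right, gl_right]

/-- the index equivalence -/
def glE (d m : ℕ) : RI d ⊕ RI m ≃ RI (d + m) :=
  (Equiv.sumProdDistrib (Fin d) (Fin m) (Fin 2)).symm.trans
    (Equiv.prodCongr finSumFinEquiv (Equiv.refl (Fin 2)))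

theorem mp_gl : MeasurePreserving (fun q : (RI d → ℝ) × (RI m → ℝ) => gl q.1 q.2)
    (volume.prod volume) volume := by
  have h1 := (volume_measurePreserving_piCongrLeft (fun _ : RI (d + m) => ℝ) (glE d m)).comp
    (volume_measurePreserving_sumPiEquivProdPi_symm (fun _ : RI d ⊕ RI m => ℝ))
  have h2 : (⇑(MeasurableEquiv.piCongrLeft (fun _ : RI (d + m) => ℝ) (glE d m)) ∘
      ⇑(MeasurableEquiv.sumPiEquivProdPi (fun _ : RI d ⊕ RI m => ℝ)).symm) =
      fun q : (RI d → ℝ) × (RI m → ℝ) => gl q.1 q.2 := by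
    funext q
    funext p
    obtain ⟨p, rfl⟩ := (glE d m).surjective p
    rw [Function.comp_apply, MeasurableEquiv.coe_piCongrLeft,
      MeasurableEquiv.coe_sumPiEquivProdPi_symm]
    rcases p with ⟨a, b⟩ | ⟨a, b⟩
    · have := Equiv.piCongrLeft_sumInl (fun _ : RI (d + m) => ℝ) (glE d m) q.1 q.2 (a, b)
      refine this.trans ?_
      show q.1 (a, b) = gl q.1 q.2 (finSumFinEquiv (Sum.inl a), b)
      rw [finSumFinEquiv_apply_left, gl_left]
    · have := Equiv.piCongrLeft_sumInr (fun _ : RI (d + m) => ℝ) (glE d m) q.1 q.2 (a, b)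
      refine this.trans ?_
      show q.2 (a, b) = gl q.1 q.2 (finSumFinEquiv (Sum.inr a), b)
      rw [finSumFinEquiv_apply_right, gl_right]
  rw [h2] at h1
  exact h1

theorem gl_measurableEmbedding :
    MeasurableEmbedding (fun q : (RI d → ℝ) × (RI m → ℝ) => gl q.1 q.2) := by
  have h : (fun q : (RI d → ℝ) × (RI m → ℝ) => gl q.1 q.2) =
      (MeasurableEquiv.mk (Equiv.mk (fun q : (RI d → ℝ) × (RI m → ℝ) => gl q.1 q.2)
        (fun w => (gL w, gR w)) (fun q => by simp) (fun w => gl_gL_gR w))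
        (continuous_gl.measurable) ((continuous_gL.prodMk continuous_gR).measurable)) := rfl
  rw [h]
  exact MeasurableEquiv.measurableEmbedding _

/-- **Fubini** for the real coordinates -/
theorem integral_gl {G : (RI (d + m) → ℝ) → ℂ} (hG : Integrable G) :
    ∫ w, G w = ∫ u : RI m → ℝ, ∫ x : RI d → ℝ, G (gl x u) := by
  rw [← (mp_gl (d := d) (m := m)).integral_comp gl_measurableEmbedding G]
  exact integral_prod_symm _ ((mp_gl.integrable_comp_emb gl_measurableEmbedding).2 hG)

/-- a continuous function with compact support: the partial integral is continuous -/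
theorem int_gl_cont {G : (RI (d + m) → ℝ) → ℂ} (hG : Continuous G) (hc : HasCompactSupport G) :
    Continuous (fun u : RI m → ℝ => ∫ x : RI d → ℝ, G (gl x u)) := by
  have hK : IsCompact (gL '' tsupport G : Set (RI d → ℝ)) := hc.image continuous_gL
  have h1 : (fun u : RI m → ℝ => ∫ x : RI d → ℝ, G (gl x u)) =
      fun u : RI m → ℝ => ∫ x in (gL '' tsupport G : Set (RI d → ℝ)), G (gl x u) := by
    funext u
    symm
    apply setIntegral_eq_integral_of_forall_compl_eq_zero
    intro x hx
    by_contra h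
    exact hx ⟨gl x u, subset_tsupport _ h, gL_gl x u⟩
  rw [h1]
  refine continuous_parametric_integral_of_continuous
    (f := fun (u : RI m → ℝ) (x : RI d → ℝ) => G (gl x u)) ?_ hK
  exact hG.comp (continuous_gl.comp continuous_swap)

/-- a smooth function with compact support: the partial integral is smooth -/
theorem int_gl_smooth {G : (RI (d + m) → ℝ) → ℂ} (hG : ContDiff ℝ ∞ G)
    (hc : HasCompactSupport G) :
    ContDiff ℝ ∞ (fun u : RI m → ℝ => ∫ x : RI d → ℝ, G (gl x u)) := by
  have hK : IsCompact (gL '' tsupport G : Set (RI d → ℝ)) := hc.image continuous_gL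
  have h1 := contDiffOn_convolution_right_with_param_comp (𝕜 := ℝ) (μ := (volume : Measure (RI d → ℝ)))
    (n := (⊤ : ℕ∞)) (ContinuousLinearMap.lsmul ℝ ℝ : ℝ →L[ℝ] ℂ →L[ℝ] ℂ)
    (f := fun _ : RI d → ℝ => (1 : ℝ)) (g := fun (u : RI m → ℝ) (x : RI d → ℝ) => G (gl x u))
    (s := univ) (v := fun _ : RI m → ℝ => (0 : RI d → ℝ)) (k := gL '' tsupport G)
    contDiffOn_const isOpen_univ hK ?_ (locallyIntegrable_const _) ?_
  · rw [contDiffOn_univ] at h1
    have h2 : (fun u : RI m → ℝ => ∫ x : RI d → ℝ, G (gl x u)) =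
        fun u : RI m → ℝ => ((fun _ : RI d → ℝ => (1 : ℝ)) ⋆[(ContinuousLinearMap.lsmul ℝ ℝ :
          ℝ →L[ℝ] ℂ →L[ℝ] ℂ), volume] (fun x : RI d → ℝ => G (gl x u))) 0 := by
      funext u
      rw [convolution_def]
      simp only [ContinuousLinearMap.lsmul_apply, one_smul, zero_sub]
      exact (integral_neg_eq_self (fun x : RI d → ℝ => G (gl x u)) volume).symm
    rw [h2]
    exact h1
  · intro u x _ hx
    by_contra h
    exact hx ⟨gl x u, subset_tsupport _ h, gL_gl x u⟩
  · refine ContDiff.contDiffOn ?_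
    exact hG.comp (contDiff_gl.comp (contDiff_snd.prodMk contDiff_fst))

/-- the slices of a continuous function with compact support are integrable -/
theorem integrable_gl {G : (RI (d + m) → ℝ) → ℂ} (hG : Continuous G) (hc : HasCompactSupport G)
    (u : RI m → ℝ) : Integrable (fun x : RI d → ℝ => G (gl x u)) := by
  refine Continuous.integrable_of_hasCompactSupport
    (hG.comp (continuous_gl.comp (continuous_id.prodMk continuous_const))) ?_
  refine HasCompactSupport.intro (hc.image continuous_gL) fun x hx => ?_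
  by_contra h
  exact hx ⟨gl x u, subset_tsupport _ h, gL_gl x u⟩

/-! ### reading a compactly supported function in a chart -/

section chart

variable {N : ℕ} {V : Type} [TopologicalSpace V] {B : Atl N V}

theorem rd_compact {k : B.ι} {f : V → ℂ} {K : Set V} (hK : IsCompact K)
    (hKk : K ⊆ (B.e k).source) (h0 : ∀ v ∈ (B.e k).source, v ∉ K → f v = 0) :
    HasCompactSupport (rd B k f) := by
  have hc : IsCompact (rc '' (B.e k '' K)) :=
    (hK.image_of_continuousOn ((B.e k).continuousOn.mono hKk)).image continuous_rc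
  refine HasCompactSupport.intro hc fun x hx => ?_
  by_cases hU : x ∈ Ui B k
  · rw [rd_of_mem hU]
    refine h0 _ ((B.e k).map_target hU) fun h => hx ?_
    exact ⟨cc x, ⟨_, h, (B.e k).right_inv hU⟩, rc_cc x⟩
  · exact rd_off hU

theorem rd_continuous {k : B.ι} {f : V → ℂ} (hf : ContinuousOn f (B.e k).source) {K : Set V}
    (hK : IsCompact K) (hKk : K ⊆ (B.e k).source)
    (h0 : ∀ v ∈ (B.e k).source, v ∉ K → f v = 0) : Continuous (rd B k f) := by
  have hc : IsCompact (rc '' (B.e k '' K)) :=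
    (hK.image_of_continuousOn ((B.e k).continuousOn.mono hKk)).image continuous_rc
  have hz0 : ∀ x, x ∉ rc '' (B.e k '' K) → rd B k f x = 0 := fun x hx => by
    by_cases hU : x ∈ Ui B k
    · rw [rd_of_mem hU]
      refine h0 _ ((B.e k).map_target hU) fun h => hx ?_
      exact ⟨cc x, ⟨_, h, (B.e k).right_inv hU⟩, rc_cc x⟩
    · exact rd_off hU
  have hsub : rc '' (B.e k '' K) ⊆ Ui B k := by
    rintro _ ⟨_, ⟨v, hv, rfl⟩, rfl⟩
    show cc (rc _) ∈ (B.e k).target
    rw [cc_rc]
    exact (B.e k).map_source (hKk hv)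
  have hUo : IsOpen (Ui B k) := (B.e k).open_target.preimage continuous_cc
  rw [continuous_iff_continuousAt]
  intro x
  by_cases hx : x ∈ Ui B k
  · have h1 : ContinuousOn (fun x => f ((B.e k).symm (cc x))) (Ui B k) :=
      hf.comp ((B.e k).continuousOn_symm.comp continuous_cc.continuousOn fun _ h => h)
        fun _ h => (B.e k).map_target h
    refine (h1.continuousAt (hUo.mem_nhds hx)).congr ?_
    filter_upwards [hUo.mem_nhds hx] with z hz
    rw [rd_of_mem hz]
  · have hx' : x ∉ rc '' (B.e k '' K) := fun h => hx (hsub h)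
    refine (continuousAt_const (y := (0 : ℂ))).congr ?_
    filter_upwards [hc.isClosed.isOpen_compl.mem_nhds hx'] with z hz
    exact (hz0 z hz).symm

theorem rd_smooth [T2Space V] {k : B.ι} {f : V → ℂ} (hf : B.SmAt k f) {K : Set V}
    (hK : IsCompact K) (hKk : K ⊆ (B.e k).source)
    (h0 : ∀ v ∈ (B.e k).source, v ∉ K → f v = 0) : ContDiff ℝ ∞ (rd B k f) := by
  rw [← rd_cut]
  exact (cc_cut hf hK hKk h0).isCC.smooth

theorem psi_z0 (P : Part B) (k : B.ι) {v : V} (hv : v ∉ tsupport (P.χ k)) : P.ψ k v = 0 :=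
  image_eq_zero_of_notMem_tsupport fun h => hv (tsupport_psi P k h)

theorem psi_compact (P : Part B) (k : B.ι) (f : V → ℂ) :
    HasCompactSupport (rd B k (fun v => (P.ψ k v : ℂ) * f v)) :=
  rd_compact (P.χ_cpt k) (P.χ_sub k) fun v _ hv => by
    rw [psi_z0 P k hv, ofReal_zero, zero_mul]

theorem psi_contOn (P : Part B) (k : B.ι) : ContinuousOn (P.ψ k) (B.e k).source := by
  have h1 : ContinuousOn (fun v => P.ψ k ((B.e k).symm (B.e k v))) (B.e k).source :=
    (P.ψ_sm k k).continuousOn.comp (B.e k).continuousOn fun v hv => (B.e k).map_source hv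
  refine h1.congr fun v hv => ?_
  show P.ψ k v = P.ψ k ((B.e k).symm (B.e k v))
  rw [(B.e k).left_inv hv]

theorem psi_continuous (P : Part B) {k : B.ι} {f : V → ℂ} (hf : ContinuousOn f (B.e k).source) :
    Continuous (rd B k (fun v => (P.ψ k v : ℂ) * f v)) :=
  rd_continuous ((continuous_ofReal.comp_continuousOn (psi_contOn P k)).mul hf) (P.χ_cpt k)
    (P.χ_sub k) fun v _ hv => by rw [psi_z0 P k hv, ofReal_zero, zero_mul]

theorem psi_smooth [T2Space V] (P : Part B) {k : B.ι} {f : V → ℂ} (hf : B.SmAt k f) :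
    ContDiff ℝ ∞ (rd B k (fun v => (P.ψ k v : ℂ) * f v)) :=
  rd_smooth (ContDiffOn.mul (smAt_ofReal (P.ψ_sm k k)) hf) (P.χ_cpt k)
    (P.χ_sub k) fun v _ hv => by rw [psi_z0 P k hv, ofReal_zero, zero_mul]

theorem psi_integrable (P : Part B) {k : B.ι} {f : V → ℂ} (hf : ContinuousOn f (B.e k).source) :
    Integrable (rd B k (fun v => (P.ψ k v : ℂ) * f v)) :=
  (psi_continuous P hf).integrable_of_hasCompactSupport (psi_compact P k f)

end chart

/-! ### slices and fibre sums -/

section slices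

variable {V : Type} [TopologicalSpace V] {B : Atl (d + m) V} {y : V → Cn m}

/-- the last `m` coordinates of every chart are `y` -/
def Adp (B : Atl (d + m) V) (y : V → Cn m) : Prop :=
  ∀ k, ∀ v ∈ (B.e k).source, ∀ a, B.e k v (Fin.natAdd d a) = y v a

/-- the integral of `f` over the slice `y = u` of the chart `k` -/
def slc (B : Atl (d + m) V) (k : B.ι) (f : V → ℂ) (u : Cn m) : ℂ :=
  ∫ x : RI d → ℝ, rd B k f (gl x (rc u))

/-- the fibre integral of the density `f` -/
def fsum (P : Part B) (f : B.ι → V → ℂ) (u : Cn m) : ℂ :=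
  ∑ᶠ k, slc B k (fun v => (P.ψ k v : ℂ) * f k v) u

theorem Adp.y_symm (hl : Adp B y) {k : B.ι} {x : RI d → ℝ} {u : Cn m}
    (h : gl x (rc u) ∈ Ui B k) : y ((B.e k).symm (cc (gl x (rc u)))) = u := by
  have h' : cc (gl x (rc u)) ∈ (B.e k).target := h
  ext a
  rw [← hl k _ ((B.e k).map_target h') a, (B.e k).right_inv h', cc_gl_right, cc_rc]

theorem slc_congr (hl : Adp B y) {k : B.ι} {f g : V → ℂ} {u : Cn m}
    (h : ∀ v ∈ (B.e k).source, y v = u → f v = g v) : slc B k f u = slc B k g u := by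
  unfold slc
  congr 1
  funext x
  by_cases hx : gl x (rc u) ∈ Ui B k
  · rw [rd_of_mem hx, rd_of_mem hx, h _ ((B.e k).map_target hx) (hl.y_symm hx)]
  · rw [rd_off hx, rd_off hx]

theorem slc_zero (k : B.ι) (u : Cn m) : slc B k (fun _ => 0) u = 0 := by
  unfold slc
  have : ∀ x : RI d → ℝ, rd B k (fun _ => (0 : ℂ)) (gl x (rc u)) = 0 := fun x => by
    by_cases hx : gl x (rc u) ∈ Ui B k
    · rw [rd_of_mem hx]
    · rw [rd_off hx]
  simp [this]

theorem slc_off (hl : Adp B y) {k : B.ι} {f : V → ℂ} {u : Cn m}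
    (h : ∀ v ∈ (B.e k).source, y v = u → f v = 0) : slc B k f u = 0 := by
  rw [slc_congr hl (g := fun _ => 0) h, slc_zero]

theorem slc_smul (k : B.ι) (c : ℂ) (f : V → ℂ) (u : Cn m) :
    slc B k (fun v => c * f v) u = c * slc B k f u := by
  unfold slc
  rw [← integral_const_mul]
  congr 1
  funext x
  by_cases hx : gl x (rc u) ∈ Ui B k
  · rw [rd_of_mem hx, rd_of_mem hx]
  · rw [rd_off hx, rd_off hx, mul_zero]

theorem slc_cont {k : B.ι} {f : V → ℂ} (h1 : Continuous (rd B k f))
    (h2 : HasCompactSupport (rd B k f)) : Continuous (slc B k f) :=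
  (int_gl_cont h1 h2).comp continuous_rc

theorem slc_smooth {k : B.ι} {f : V → ℂ} (h1 : ContDiff ℝ ∞ (rd B k f))
    (h2 : HasCompactSupport (rd B k f)) : ContDiff ℝ ∞ (slc B k f) :=
  (int_gl_smooth h1 h2).comp contDiff_rc

theorem slc_integral {k : B.ι} {f : V → ℂ} (h : Integrable (rd B k f)) :
    lint B k f = ∫ x : RI m → ℝ, slc B k f (cc x) := by
  unfold slc
  simp only [rc_cc]
  exact integral_gl h

variable (P : Part B)

theorem fsum_congr (hl : Adp B y) {f g : B.ι → V → ℂ} {u : Cn m}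
    (h : ∀ k, ∀ v ∈ (B.e k).source, y v = u → f k v = g k v) : fsum P f u = fsum P g u :=
  finsum_congr fun k => slc_congr hl fun v hv hy => by rw [h k v hv hy]

theorem slc_psi_zero (hl : Adp B y) {K : Set V} (hK : IsCompact K) {F : Finset B.ι}
    (hF : Fn P hK ⊆ F) {f : B.ι → V → ℂ} {u : Cn m}
    (h0 : ∀ k, ∀ v ∈ (B.e k).source, y v = u → v ∉ K → f k v = 0) {k : B.ι} (hk : k ∉ F) :
    slc B k (fun v => (P.ψ k v : ℂ) * f k v) u = 0 := by
  refine slc_off hl fun v hv hy => ?_
  by_cases hvK : v ∈ K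
  · rw [psi_zero_of_notMem P hK hF hk hvK, ofReal_zero, zero_mul]
  · rw [h0 k v hv hy hvK, mul_zero]

/-- the fibre sum as a finite sum: `f` vanishes on `y = u` off the compact set `K` -/
theorem fsum_eq (hl : Adp B y) {K : Set V} (hK : IsCompact K) {F : Finset B.ι}
    (hF : Fn P hK ⊆ F) {f : B.ι → V → ℂ} {u : Cn m}
    (h0 : ∀ k, ∀ v ∈ (B.e k).source, y v = u → v ∉ K → f k v = 0) :
    fsum P f u = ∑ k ∈ F, slc B k (fun v => (P.ψ k v : ℂ) * f k v) u := by
  refine finsum_eq_sum_of_support_subset _ ?_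
  intro k hk
  by_contra hk'
  exact hk (slc_psi_zero P hl hK hF h0 hk')

theorem fsum_smul (c : ℂ) (f : B.ι → V → ℂ) (u : Cn m) :
    fsum P (fun k v => c * f k v) u = c * fsum P f u := by
  unfold fsum
  rw [← smul_eq_mul, smul_finsum]
  refine finsum_congr fun k => ?_
  rw [smul_eq_mul, ← slc_smul]
  congr 1
  funext v
  ring

theorem fsum_base (hl : Adp B y) (c : Cn m → ℂ) (f : B.ι → V → ℂ) (u : Cn m) :
    fsum P (fun k v => c (y v) * f k v) u = c u * fsum P f u := by
  rw [← fsum_smul]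
  exact fsum_congr P hl fun k v _ hy => by rw [hy]

theorem fsum_off (hl : Adp B y) {f : B.ι → V → ℂ} {u : Cn m}
    (h : ∀ k, ∀ v ∈ (B.e k).source, y v = u → f k v = 0) : fsum P f u = 0 := by
  rw [fsum_eq P hl isCompact_empty (Finset.Subset.refl _) fun k v hv hy _ => h k v hv hy]
  refine Finset.sum_eq_zero fun k _ => slc_off hl fun v hv hy => ?_
  rw [h k v hv hy, mul_zero]

theorem fsum_add (hl : Adp B y) {K : Set V} (hK : IsCompact K) {f g : B.ι → V → ℂ} {u : Cn m}
    (hf : ∀ k, ContinuousOn (f k) (B.e k).source) (hg : ∀ k, ContinuousOn (g k) (B.e k).source)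
    (h0 : ∀ k, ∀ v ∈ (B.e k).source, y v = u → v ∉ K → f k v = 0)
    (h1 : ∀ k, ∀ v ∈ (B.e k).source, y v = u → v ∉ K → g k v = 0) :
    fsum P (fun k v => f k v + g k v) u = fsum P f u + fsum P g u := by
  rw [fsum_eq P hl hK (Finset.Subset.refl _) h0, fsum_eq P hl hK (Finset.Subset.refl _) h1,
    fsum_eq P hl hK (Finset.Subset.refl _) (f := fun k v => f k v + g k v)
      fun k v hv hy hvK => by rw [h0 k v hv hy hvK, h1 k v hv hy hvK, add_zero],
    ← Finset.sum_add_distrib]
  refine Finset.sum_congr rfl fun k _ => ?_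
  unfold slc
  rw [← integral_add (integrable_gl (psi_continuous P (hf k)) (psi_compact P k _) _)
    (integrable_gl (psi_continuous P (hg k)) (psi_compact P k _) _)]
  congr 1
  funext x
  by_cases hx : gl x (rc u) ∈ Ui B k
  · rw [rd_of_mem hx, rd_of_mem hx, rd_of_mem hx, mul_add]
  · rw [rd_off hx, rd_off hx, rd_off hx, add_zero]

/-- **continuity of fibre integrals** -/
theorem fsum_continuousAt (hl : Adp B y) {C : Set (Cn m)} {u : Cn m} (hC : C ∈ 𝓝 u) {K : Set V}
    (hK : IsCompact K) {f : B.ι → V → ℂ} (hf : ∀ k, ContinuousOn (f k) (B.e k).source)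
    (h0 : ∀ k, ∀ v ∈ (B.e k).source, y v ∈ C → v ∉ K → f k v = 0) :
    ContinuousAt (fsum P f) u := by
  have h1 : fsum P f =ᶠ[𝓝 u] fun w => ∑ k ∈ Fn P hK,
      slc B k (fun v => (P.ψ k v : ℂ) * f k v) w := by
    filter_upwards [hC] with w hw
    exact fsum_eq P hl hK (Finset.Subset.refl _) fun k v hv hy hvK => h0 k v hv (hy ▸ hw) hvK
  refine ContinuousAt.congr ?_ h1.symm
  refine (continuous_finsetSum _ fun k _ => ?_).continuousAt
  exact slc_cont (psi_continuous P (hf k)) (psi_compact P k _)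

/-- **smoothness of fibre integrals** -/
theorem fsum_contDiffAt [T2Space V] (hl : Adp B y) {C : Set (Cn m)} {u : Cn m} (hC : C ∈ 𝓝 u)
    {K : Set V} (hK : IsCompact K) {f : B.ι → V → ℂ} (hf : ∀ k, B.SmAt k (f k))
    (h0 : ∀ k, ∀ v ∈ (B.e k).source, y v ∈ C → v ∉ K → f k v = 0) :
    ContDiffAt ℝ ∞ (fsum P f) u := by
  have h1 : fsum P f =ᶠ[𝓝 u] fun w => ∑ k ∈ Fn P hK,
      slc B k (fun v => (P.ψ k v : ℂ) * f k v) w := by
    filter_upwards [hC] with w hw
    exact fsum_eq P hl hK (Finset.Subset.refl _) fun k v hv hy hvK => h0 k v hv (hy ▸ hw) hvK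
  refine ContDiffAt.congr_of_eventuallyEq ?_ h1
  refine (ContDiff.sum fun k _ => ?_).contDiffAt
  exact slc_smooth (psi_smooth P (hf k)) (psi_compact P k _)

/-- **Fubini**: the integral of a continuous density with compact support is the integral of the
fibre integrals -/
theorem intD_eq_fsum [T2Space V] (hl : Adp B y) {K : Set V} (hK : IsCompact K) {f : B.ι → V → ℂ}
    (hf : ∀ k, ContinuousOn (f k) (B.e k).source) (h0 : OffK B f K) :
    intD P f = ∫ x : RI m → ℝ, fsum P f (cc x) := by
  rw [intD_eq_sum P hK (Finset.Subset.refl _) h0]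
  have h1 : (fun x : RI m → ℝ => fsum P f (cc x)) = fun x => ∑ k ∈ Fn P hK,
      slc B k (fun v => (P.ψ k v : ℂ) * f k v) (cc x) := by
    funext x
    exact fsum_eq P hl hK (Finset.Subset.refl _) fun k v hv _ hvK => h0 k v hv hvK
  rw [h1, integral_finsetSum]
  · refine Finset.sum_congr rfl fun k _ => slc_integral (psi_integrable P (hf k))
  · intro k _
    have h2 := psi_continuous P (hf k)
    have h3 := psi_compact P k (f k)
    refine Continuous.integrable_of_hasCompactSupport ((slc_cont h2 h3).comp continuous_cc) ?_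
    refine HasCompactSupport.intro (K := gR '' tsupport (rd B k (fun v => (P.ψ k v : ℂ) * f k v)))
      (h3.image continuous_gR) fun x hx => ?_
    show ∫ z : RI d → ℝ, _ = 0
    refine integral_eq_zero_of_ae (Filter.Eventually.of_forall fun z => ?_)
    by_contra h
    refine hx ⟨gl z (rc (cc x)), subset_tsupport _ h, ?_⟩
    rw [gR_gl, rc_cc]

theorem fsum_integrable (hl : Adp B y) {K : Set V} (hK : IsCompact K) {f : B.ι → V → ℂ}
    (hf : ∀ k, ContinuousOn (f k) (B.e k).source) (h0 : OffK B f K) :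
    Integrable (fun x : RI m → ℝ => fsum P f (cc x)) := by
  have h1 : (fun x : RI m → ℝ => fsum P f (cc x)) = fun x => ∑ k ∈ Fn P hK,
      slc B k (fun v => (P.ψ k v : ℂ) * f k v) (cc x) := by
    funext x
    exact fsum_eq P hl hK (Finset.Subset.refl _) fun k v hv _ hvK => h0 k v hv hvK
  rw [h1]
  refine integrable_finsetSum _ fun k _ => ?_
  have h2 := psi_continuous P (hf k)
  have h3 := psi_compact P k (f k)
  refine Continuous.integrable_of_hasCompactSupport ((slc_cont h2 h3).comp continuous_cc) ?_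
  refine HasCompactSupport.intro (K := gR '' tsupport (rd B k (fun v => (P.ψ k v : ℂ) * f k v)))
    (h3.image continuous_gR) fun x hx => ?_
  show ∫ z : RI d → ℝ, _ = 0
  refine integral_eq_zero_of_ae (Filter.Eventually.of_forall fun z => ?_)
  by_contra h
  refine hx ⟨gl z (rc (cc x)), subset_tsupport _ h, ?_⟩
  rw [gR_gl, rc_cc]

end slices

end

end Crest.Agent.R281.Fub3_163
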