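import Crest.Agent.R281.Fub1_192
import Crest.Agent.R281.Fub3_163
import Mathlib.Analysis.Distribution.AEEqOfIntegralContDiff
import Mathlib.MeasureTheory.Measure.Lebesgue.Complex

/-!
# R281 (S0424), DIV 6, S6-FUB (helper163), part 4: fibre integrals of a family

`F : Fam A d m U`, `f : F.B.ι → F.V → ℂ`.

* `fib F f u`           : `intD (leaf F hu).P (f restricted)` for `u ∈ U`, `0` off `U`;
* `fib_contDiffOn`, `fib_continuousOn` : smooth (continuous) on `U` if `f` is smooth (continuous) in
  the charts; no support condition (the family is proper);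
* `intD_fib`            : **Fubini** `intD F.P f = ∫_x fib F f (cc x)`; `intD_fibC` (`m = 1`, over `ℂ`);
* `fib_base`            : `fib (χ(y) f) u = χ(u) fib f u`;
* `mass F K u`          : volume of the leaf, `mass_pos`, `mass_contDiffOn`, `intD_mass`, `intD_massC`;
* `mass_const_of`       : the tested form of `mass = v` implies `mass F K u = v` for all `u ∈ U`.
-/

set_option autoImplicit false
set_option linter.unusedSectionVars false

open Set Filter Topology Complex Function MeasureTheory
open scoped ContDiff Matrix ComplexConjugate ComplexOrder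

namespace Crest.Agent.R281.Fub4_163

open Crest.Agent.R275.Geo Crest.Agent.R275.Core144 Crest.Agent.R275.EDR890
open Crest.Agent.R275.C1d194 Crest.Agent.R275.Pai323
open Crest.Agent.R275.SerG398 (lint dens)
open Crest.Agent.R273.StokesV_332
open Crest.Agent.R273.Defs_333 Crest.Agent.R273.Kah_333 Crest.Agent.R273.Hess_333
open Crest.Agent.R273.KahI_645 Crest.Agent.R273.Vol_333
open Crest.Agent.R273.Vm_333 Crest.Agent.R281.Defs_273 Crest.Agent.R281.S6D_664
open Crest.Agent.R281.Fub3_163 hiding gL
open Crest.Agent.R281.Fub_192 (glue leaf latl lch lpart Lf lch_symm_val continuous_y isCompact_fibre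
  volK_leaf kah_leaf)

noncomputable section

variable {N d m : ℕ} {M : Type} [TopologicalSpace M] {A : Atl N M} {U : Set (Cn m)}

theorem adp (F : Fam A d m U) : Adp F.B F.y := F.last

theorem cc_gl (x : RI d → ℝ) (u : Cn m) : cc (gl x (rc u)) = glue u (cc x) := by
  ext a
  refine Fin.addCases (fun a => ?_) (fun a => ?_) a
  · rw [cc_gl_left, Fub_192.glue_left]
  · rw [cc_gl_right, Fub_192.glue_right, cc_rc]

section fib_

variable (F : Fam A d m U) {u : Cn m} (hu : u ∈ U)

theorem rd_leaf (k : F.B.ι) (f : F.V → ℂ) (x : RI d → ℝ) :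
    rd (latl F hu) k (fun v => f v.1) x = rd F.B k f (gl x (rc u)) := by
  by_cases hx : x ∈ Ui (latl F hu) k
  · have hx' : cc x ∈ (lch F hu k).target := hx
    have h2 : glue u (cc x) ∈ (F.B.e k).target := hx
    have hy : gl x (rc u) ∈ Ui F.B k := by
      show cc (gl x (rc u)) ∈ (F.B.e k).target
      rw [cc_gl]
      exact h2
    rw [rd_of_mem hx, rd_of_mem hy, cc_gl]
    exact congrArg f (lch_symm_val F hu hx')
  · have hy : gl x (rc u) ∉ Ui F.B k := by
      intro h
      have h' : cc (gl x (rc u)) ∈ (F.B.e k).target := h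
      rw [cc_gl] at h'
      exact hx h'
    rw [rd_off hx, rd_off hy]

theorem lint_leaf (k : F.B.ι) (f : F.V → ℂ) :
    lint (latl F hu) k (fun v => f v.1) = slc F.B k f u := by
  show ∫ x : RI d → ℝ, rd (latl F hu) k (fun v => f v.1) x = ∫ x : RI d → ℝ, _
  exact integral_congr_ae (Filter.Eventually.of_forall fun x => rd_leaf F hu k f x)

/-- the integral over the leaf is the fibre sum -/
theorem intD_leaf (f : F.B.ι → F.V → ℂ) :
    intD (lpart F hu) (fun k v => f k v.1) = fsum F.P f u :=
  finsum_congr fun k => lint_leaf F hu k (fun v => (F.P.ψ k v : ℂ) * f k v)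

open Classical in
/-- the fibre integral of `f` -/
def fib (F : Fam A d m U) (f : F.B.ι → F.V → ℂ) (u : Cn m) : ℂ :=
  if hu : u ∈ U then intD (leaf F hu).P (fun k v => f k v.1) else 0

theorem fib_of_mem (f : F.B.ι → F.V → ℂ) :
    fib F f u = intD (leaf F hu).P (fun k v => f k v.1) := dif_pos hu

theorem fib_off {u : Cn m} (hu : u ∉ U) (f : F.B.ι → F.V → ℂ) : fib F f u = 0 := dif_neg hu

theorem fib_eq (f : F.B.ι → F.V → ℂ) (u : Cn m) : fib F f u = fsum F.P f u := by
  by_cases hu : u ∈ U
  · rw [fib_of_mem F hu]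
    exact intD_leaf F hu f
  · rw [fib_off F hu]
    symm
    exact fsum_off F.P (adp F) fun k v _ hy => absurd (hy ▸ F.mem v) hu

theorem fib_eq' (f : F.B.ι → F.V → ℂ) : fib F f = fsum F.P f := funext fun u => fib_eq F f u

theorem contOn_of_target {k : F.B.ι} {f : F.V → ℂ}
    (h : ContinuousOn (fun z => f ((F.B.e k).symm z)) (F.B.e k).target) :
    ContinuousOn f (F.B.e k).source := by
  have h1 := h.comp (F.B.e k).continuousOn fun v hv => (F.B.e k).map_source hv
  refine h1.congr fun v hv => ?_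
  show f v = f ((F.B.e k).symm (F.B.e k v))
  rw [(F.B.e k).left_inv hv]

theorem contOn_of_smAt {k : F.B.ι} {f : F.V → ℂ} (h : F.B.SmAt k f) :
    ContinuousOn f (F.B.e k).source := contOn_of_target F h.continuousOn

/-- a compact neighbourhood of `u` in `U` -/
theorem exists_nhd {U : Set (Cn m)} (hU : IsOpen U) {u : Cn m} (hu : u ∈ U) :
    ∃ C : Set (Cn m), C ∈ 𝓝 u ∧ C ⊆ U ∧ IsCompact C := by
  obtain ⟨C, hC, h1, h2⟩ := exists_compact_subset hU hu
  exact ⟨C, mem_interior_iff_mem_nhds.1 h1, h2, hC⟩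

/-- **the fibre integral of a smooth density is smooth** (no support condition) -/
theorem fib_contDiffOn (hU : IsOpen U) {f : F.B.ι → F.V → ℂ} (hf : ∀ k, F.B.SmAt k (f k)) :
    ContDiffOn ℝ ∞ (fib F f) U := by
  intro u hu
  obtain ⟨C, hC, hCU, hCc⟩ := exists_nhd hU hu
  rw [fib_eq']
  exact (fsum_contDiffAt F.P (adp F) hC (F.proper C hCU hCc) hf fun k v _ hy hv =>
    absurd hy hv).contDiffWithinAt

/-- **the fibre integral of a continuous density is continuous** (no support condition) -/
theorem fib_continuousOn (hU : IsOpen U) {f : F.B.ι → F.V → ℂ}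
    (hf : ∀ k, ContinuousOn (f k) (F.B.e k).source) : ContinuousOn (fib F f) U := by
  intro u hu
  obtain ⟨C, hC, hCU, hCc⟩ := exists_nhd hU hu
  rw [fib_eq']
  exact (fsum_continuousAt F.P (adp F) hC (F.proper C hCU hCc) hf fun k v _ hy hv =>
    absurd hy hv).continuousWithinAt

theorem fib_congr {f g : F.B.ι → F.V → ℂ} {u : Cn m}
    (h : ∀ k, ∀ v ∈ (F.B.e k).source, F.y v = u → f k v = g k v) : fib F f u = fib F g u := by
  rw [fib_eq, fib_eq]
  exact fsum_congr F.P (adp F) h

theorem fib_smul (c : ℂ) (f : F.B.ι → F.V → ℂ) (u : Cn m) :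
    fib F (fun k v => c * f k v) u = c * fib F f u := by
  rw [fib_eq, fib_eq, fsum_smul]

theorem fib_base (c : Cn m → ℂ) (f : F.B.ι → F.V → ℂ) (u : Cn m) :
    fib F (fun k v => c (F.y v) * f k v) u = c u * fib F f u := by
  rw [fib_eq, fib_eq]
  exact fsum_base F.P (adp F) c f u

theorem fib_add {f g : F.B.ι → F.V → ℂ} (hf : ∀ k, ContinuousOn (f k) (F.B.e k).source)
    (hg : ∀ k, ContinuousOn (g k) (F.B.e k).source) (u : Cn m) :
    fib F (fun k v => f k v + g k v) u = fib F f u + fib F g u := by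
  by_cases hu : u ∈ U
  · rw [fib_eq, fib_eq, fib_eq]
    exact fsum_add F.P (adp F) (isCompact_fibre F hu) hf hg (fun k v _ hy hv => absurd hy hv)
      fun k v _ hy hv => absurd hy hv
  · rw [fib_off F hu, fib_off F hu, fib_off F hu, add_zero]

theorem fib_sub {f g : F.B.ι → F.V → ℂ} (hf : ∀ k, ContinuousOn (f k) (F.B.e k).source)
    (hg : ∀ k, ContinuousOn (g k) (F.B.e k).source) (u : Cn m) :
    fib F (fun k v => f k v - g k v) u = fib F f u - fib F g u := by
  have h1 : (fun k v => f k v - g k v) = fun k v => f k v + (-1 : ℂ) * g k v := by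
    funext k v; ring
  have h2 := fib_add F hf (g := fun k v => (-1 : ℂ) * g k v)
    (fun k => continuousOn_const.mul (hg k)) u
  rw [h1, h2, fib_smul]
  ring

/-- **Fubini** -/
theorem intD_fib {f : F.B.ι → F.V → ℂ} (hf : ∀ k, ContinuousOn (f k) (F.B.e k).source)
    {K : Set F.V} (hK : IsCompact K) (h0 : OffK F.B f K) :
    intD F.P f = ∫ x : RI m → ℝ, fib F f (cc x) := by
  rw [fib_eq']
  exact intD_eq_fsum F.P (adp F) hK hf h0

theorem fib_integrable {f : F.B.ι → F.V → ℂ} (hf : ∀ k, ContinuousOn (f k) (F.B.e k).source)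
    {K : Set F.V} (hK : IsCompact K) (h0 : OffK F.B f K) :
    Integrable (fun x : RI m → ℝ => fib F f (cc x)) := by
  rw [fib_eq']
  exact fsum_integrable F.P (adp F) hK hf h0

/-- `χ(y) f` has compact support -/
theorem offK_base (χ : Cn m → ℂ) (f : F.B.ι → F.V → ℂ) :
    OffK F.B (fun k v => χ (F.y v) * f k v) (F.y ⁻¹' tsupport χ) := fun k v _ hv => by
  show χ (F.y v) * f k v = 0
  rw [image_eq_zero_of_notMem_tsupport hv, zero_mul]

theorem cpt_base {χ : Cn m → ℂ} (hc : HasCompactSupport χ) (hχ : tsupport χ ⊆ U) :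
    IsCompact (F.y ⁻¹' tsupport χ) := F.proper _ hχ hc

/-- **Fubini, tested against a function of `y`** -/
theorem intD_base {χ : Cn m → ℂ} (h0 : Continuous χ) (hc : HasCompactSupport χ)
    (hχ : tsupport χ ⊆ U) {f : F.B.ι → F.V → ℂ}
    (hf : ∀ k, ContinuousOn (f k) (F.B.e k).source) :
    intD F.P (fun k v => χ (F.y v) * f k v) = ∫ x : RI m → ℝ, χ (cc x) * fib F f (cc x) := by
  rw [intD_fib F (f := fun k v => χ (F.y v) * f k v)
    (fun k => ((h0.comp (continuous_y F)).continuousOn).mul (hf k))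
    (cpt_base F hc hχ) (offK_base F χ f)]
  exact integral_congr_ae (Filter.Eventually.of_forall fun x => fib_base F χ f (cc x))

end fib_

/-! ### one complex parameter -/

/-- `ℂ → Cn 1` -/
def ofC (c : ℂ) : Cn 1 := WithLp.toLp 2 fun _ => c

@[simp] theorem ofC_apply (c : ℂ) (a : Fin 1) : ofC c a = c := rfl

theorem ofC_zero_apply (u : Cn 1) : ofC (u 0) = u := by
  ext a
  rw [Subsingleton.elim a 0]
  rfl

/-- the index equivalence -/
def e1 : Fin 2 ≃ RI 1 := (Equiv.uniqueProd (Fin 2) (Fin 1)).symm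

theorem mp_ofC : MeasurePreserving (fun c : ℂ => rc (ofC c)) volume volume := by
  have h1 := (volume_measurePreserving_piCongrLeft (fun _ : RI 1 => ℝ) e1).comp
    Complex.volume_preserving_equiv_pi
  have h2 : (⇑(MeasurableEquiv.piCongrLeft (fun _ : RI 1 => ℝ) e1) ∘
      ⇑Complex.measurableEquivPi) = fun c : ℂ => rc (ofC c) := by
    funext c
    funext p
    obtain ⟨p, rfl⟩ := e1.surjective p
    rw [Function.comp_apply, MeasurableEquiv.coe_piCongrLeft, Equiv.piCongrLeft_apply_apply]
    fin_cases p <;> simp [e1, rc]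
  rw [h2] at h1
  exact h1

theorem integral_ofC (g : Cn 1 → ℂ) : ∫ x : RI 1 → ℝ, g (cc x) = ∫ c : ℂ, g (ofC c) := by
  have he : MeasurableEmbedding (fun c : ℂ => rc (ofC c)) := by
    have h : (fun c : ℂ => rc (ofC c)) = (MeasurableEquiv.mk (Equiv.mk (fun c : ℂ => rc (ofC c))
        (fun x => cc x 0) (fun c => by simp) (fun x => by
          show rc (ofC (cc x 0)) = x
          rw [ofC_zero_apply, rc_cc]))
        (by
          refine Continuous.measurable (continuous_rc.comp ?_)
          unfold ofC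
          fun_prop)
        (by
          refine Continuous.measurable ?_
          have : Continuous fun z : Cn 1 => z 0 := by fun_prop
          exact this.comp continuous_cc)) := rfl
    rw [h]
    exact MeasurableEquiv.measurableEmbedding _
  rw [← mp_ofC.integral_comp he]
  simp only [cc_rc]

/-- **Fubini, one parameter** -/
theorem intD_fibC {U : Set (Cn 1)} (F : Fam A d 1 U) {f : F.B.ι → F.V → ℂ}
    (hf : ∀ k, ContinuousOn (f k) (F.B.e k).source) {K : Set F.V} (hK : IsCompact K)
    (h0 : OffK F.B f K) : intD F.P f = ∫ c : ℂ, fib F f (ofC c) := by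
  rw [intD_fib F hf hK h0, integral_ofC]

end

end Crest.Agent.R281.Fub4_163
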