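import Mathlib

/-!
Row 281, DIV 6, (C) of helper664 #6845, part (a): the metric-space lemma.
A dense set `Om` of a compact metric space is partitioned into compact connected sets `T z`
(`z ∈ Om`) which depend uniformly continuously on `z` (one-sided Hausdorff modulus).
Then the partition extends to a continuous partition of `X` into compact connected sets `Z x`.
-/

set_option autoImplicit false

open Metric Set Filter Topology

namespace Crest.Agent.R281.Con_166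

/-- partition data on a dense subset of a metric space -/
structure PD (X : Type*) [MetricSpace X] where
  Om : Set X
  dense : Dense Om
  T : X → Set X
  mem : ∀ z ∈ Om, z ∈ T z
  sub : ∀ z ∈ Om, T z ⊆ Om
  cpt : ∀ z ∈ Om, IsCompact (T z)
  conn : ∀ z ∈ Om, IsPreconnected (T z)
  eq : ∀ z ∈ Om, ∀ y ∈ T z, T y = T z
  unif : ∀ ε : ℝ, 0 < ε → ∃ η : ℝ, 0 < η ∧ ∀ z ∈ Om, ∀ z' ∈ Om, dist z z' < η →
    ∀ q ∈ T z, ∃ q' ∈ T z', dist q q' < ε

namespace PD

variable {X : Type*} [MetricSpace X] (P : PD X)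

/-- the limit set at `x` -/
def Z (x : X) : Set X :=
  {q | ∀ ε : ℝ, 0 < ε → ∃ z ∈ P.Om, dist z x < ε ∧ ∃ q' ∈ P.T z, dist q' q < ε}

lemma exists_near (x : X) {ε : ℝ} (hε : 0 < ε) : ∃ z ∈ P.Om, dist z x < ε := by
  obtain ⟨z, hz, hzx⟩ := P.dense.exists_dist_lt x hε
  exact ⟨z, hz, by rwa [dist_comm]⟩

lemma mem_Z (x : X) : x ∈ P.Z x := by
  intro ε hε
  obtain ⟨z, hz, hzx⟩ := P.exists_near x hε
  exact ⟨z, hz, hzx, z, P.mem z hz, hzx⟩

lemma isClosed_Z (x : X) : IsClosed (P.Z x) := by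
  rw [← closure_subset_iff_isClosed]
  intro q hq ε hε
  obtain ⟨q1, hq1, hd⟩ := Metric.mem_closure_iff.1 hq (ε / 2) (half_pos hε)
  obtain ⟨z, hz, hzx, q', hq', hd'⟩ := hq1 (ε / 2) (half_pos hε)
  refine ⟨z, hz, by linarith, q', hq', ?_⟩
  calc dist q' q ≤ dist q' q1 + dist q1 q := dist_triangle _ _ _
    _ < ε / 2 + ε / 2 := by
        rw [dist_comm q1 q]
        exact add_lt_add hd' hd
    _ = ε := by ring

lemma isCompact_Z [CompactSpace X] (x : X) : IsCompact (P.Z x) := (P.isClosed_Z x).isCompact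

/-- forward half of the approximation lemma (no compactness) -/
lemma near_fwd {ε : ℝ} (hε : 0 < ε) : ∃ η : ℝ, 0 < η ∧ ∀ x : X, ∀ z ∈ P.Om, dist z x < η →
    ∀ q ∈ P.Z x, ∃ q' ∈ P.T z, dist q q' < ε := by
  obtain ⟨η, hη, h⟩ := P.unif (ε / 2) (half_pos hε)
  refine ⟨η, hη, fun x z hz hzx q hq => ?_⟩
  have hpos : 0 < min (η - dist z x) (ε / 2) := lt_min (by linarith) (half_pos hε)
  obtain ⟨z1, hz1, hd1, q1, hq1, hdq⟩ := hq _ hpos
  have h1 : dist z1 z < η := by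
    calc dist z1 z ≤ dist z1 x + dist x z := dist_triangle _ _ _
      _ < (η - dist z x) + dist x z := by
          have := lt_of_lt_of_le hd1 (min_le_left _ _)
          linarith
      _ = η := by rw [dist_comm x z]; ring
  obtain ⟨q', hq', hd'⟩ := h z1 hz1 z hz h1 q1 hq1
  refine ⟨q', hq', ?_⟩
  calc dist q q' ≤ dist q q1 + dist q1 q' := dist_triangle _ _ _
    _ < ε / 2 + ε / 2 := by
        have := lt_of_lt_of_le hdq (min_le_right _ _)
        rw [dist_comm q q1]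
        linarith
    _ = ε := by ring

/-- backward half of the approximation lemma -/
lemma near_bwd [CompactSpace X] {ε : ℝ} (hε : 0 < ε) : ∃ η : ℝ, 0 < η ∧ ∀ x : X,
    ∀ z ∈ P.Om, dist z x < η → ∀ q' ∈ P.T z, ∃ q ∈ P.Z x, dist q' q < ε := by
  obtain ⟨η, hη, h⟩ := P.unif (ε / 2) (half_pos hε)
  refine ⟨η, hη, fun x z hz hzx q' hq' => ?_⟩
  set a : ℝ := η - dist z x with ha
  have hapos : 0 < a := by linarith
  have key : ∀ k : ℕ, ∃ zq : X × X, zq.1 ∈ P.Om ∧ dist zq.1 x < min a (1 / ((k : ℝ) + 1)) ∧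
      zq.2 ∈ P.T zq.1 ∧ dist q' zq.2 < ε / 2 := by
    intro k
    have hpos : 0 < min a (1 / ((k : ℝ) + 1)) := lt_min hapos (by positivity)
    obtain ⟨z1, hz1, hd1⟩ := P.exists_near x hpos
    have h1 : dist z z1 < η := by
      calc dist z z1 ≤ dist z x + dist x z1 := dist_triangle _ _ _
        _ < dist z x + a := by
            have := lt_of_lt_of_le hd1 (min_le_left _ _)
            rw [dist_comm x z1]; linarith
        _ = η := by rw [ha]; ring
    obtain ⟨q1, hq1, hdq⟩ := h z hz z1 hz1 h1 q' hq'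
    exact ⟨(z1, q1), hz1, hd1, hq1, hdq⟩
  choose u hu1 hu2 hu3 hu4 using key
  obtain ⟨q, -, φ, hφ, hlim⟩ := (isCompact_univ (X := X)).tendsto_subseq
    (x := fun k => (u k).2) (fun _ => mem_univ _)
  refine ⟨q, ?_, ?_⟩
  · intro δ hδ
    have h1 : ∀ᶠ k in atTop, dist ((u (φ k)).2) q < δ := by
      have := (tendsto_iff_dist_tendsto_zero.1 hlim)
      exact (this.eventually (gt_mem_nhds hδ))
    have h2 : ∀ᶠ k : ℕ in atTop, (1 : ℝ) / ((k : ℝ) + 1) < δ :=
      (tendsto_one_div_add_atTop_nhds_zero_nat).eventually (gt_mem_nhds hδ)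
    obtain ⟨k, hk1, hk2⟩ := (h1.and (hφ.tendsto_atTop.eventually h2)).exists
    exact ⟨(u (φ k)).1, hu1 _, lt_trans (lt_of_lt_of_le (hu2 _) (min_le_right _ _)) hk2,
      (u (φ k)).2, hu3 _, hk1⟩
  · have h1 : Tendsto (fun k => dist q' ((u (φ k)).2)) atTop (𝓝 (dist q' q)) :=
      tendsto_const_nhds.dist hlim
    have h2 : dist q' q ≤ ε / 2 := le_of_tendsto h1 (Eventually.of_forall fun k => (hu4 _).le)
    linarith

/-- on `Om` the limit set is the original set -/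
lemma Z_eq_T {z : X} (hz : z ∈ P.Om) : P.Z z = P.T z := by
  apply Subset.antisymm
  · intro q hq
    rw [← (P.cpt z hz).isClosed.closure_eq]
    rw [Metric.mem_closure_iff]
    intro ε hε
    obtain ⟨η, hη, h⟩ := P.near_fwd hε
    obtain ⟨q', hq', hd⟩ := h z z hz (by simpa using hη) q hq
    exact ⟨q', hq', hd⟩
  · intro q hq ε hε
    exact ⟨z, hz, by simpa using hε, q, hq, by simpa using hε⟩

/-- uniform continuity of `x ↦ Z x` -/
lemma unif_Z [CompactSpace X] {ε : ℝ} (hε : 0 < ε) : ∃ η : ℝ, 0 < η ∧ ∀ x x' : X,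
    dist x x' < η → ∀ q ∈ P.Z x, ∃ q' ∈ P.Z x', dist q q' < ε := by
  obtain ⟨η1, hη1, h1⟩ := P.near_fwd (half_pos hε)
  obtain ⟨η2, hη2, h2⟩ := P.near_bwd (half_pos hε)
  refine ⟨min η1 η2 / 2, by positivity, fun x x' hxx q hq => ?_⟩
  have hm : 0 < min η1 η2 / 2 := by positivity
  obtain ⟨z, hz, hzx⟩ := P.exists_near x hm
  have e1 : dist z x < η1 := by
    have := min_le_left η1 η2
    linarith
  have e2 : dist z x' < η2 := by
    have := min_le_right η1 η2
    have := dist_triangle z x x'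
    linarith
  obtain ⟨q1, hq1, hd1⟩ := h1 x z hz e1 q hq
  obtain ⟨q2, hq2, hd2⟩ := h2 x' z hz e2 q1 hq1
  refine ⟨q2, hq2, ?_⟩
  have := dist_triangle q q1 q2
  linarith

/-- `y ∈ Z x → Z y = Z x` -/
lemma Z_subset_of_mem [CompactSpace X] {x y : X} (h : y ∈ P.Z x) : P.Z x ⊆ P.Z y := by
  intro q hq
  rw [← (P.isClosed_Z y).closure_eq, Metric.mem_closure_iff]
  intro ε hε
  obtain ⟨η1, hη1, h1⟩ := P.near_fwd (half_pos hε)
  obtain ⟨η2, hη2, h2⟩ := P.near_bwd (half_pos hε)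
  obtain ⟨z, hz, hzx, y', hy', hyy⟩ := h (min η1 η2) (lt_min hη1 hη2)
  have hy'Om : y' ∈ P.Om := P.sub z hz hy'
  have hT : P.T y' = P.T z := P.eq z hz y' hy'
  obtain ⟨q1, hq1, hd1⟩ := h1 x z hz (lt_of_lt_of_le hzx (min_le_left _ _)) q hq
  rw [← hT] at hq1
  obtain ⟨q2, hq2, hd2⟩ := h2 y y' hy'Om (lt_of_lt_of_le hyy (min_le_right _ _)) q1 hq1
  refine ⟨q2, hq2, ?_⟩
  have := dist_triangle q q1 q2
  linarith

lemma Z_superset_of_mem [CompactSpace X] {x y : X} (h : y ∈ P.Z x) : P.Z y ⊆ P.Z x := by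
  intro q hq
  rw [← (P.isClosed_Z x).closure_eq, Metric.mem_closure_iff]
  intro ε hε
  obtain ⟨η1, hη1, h1⟩ := P.near_fwd (half_pos hε)
  obtain ⟨η2, hη2, h2⟩ := P.near_bwd (half_pos hε)
  obtain ⟨z, hz, hzx, y', hy', hyy⟩ := h (min η1 η2) (lt_min hη1 hη2)
  have hy'Om : y' ∈ P.Om := P.sub z hz hy'
  have hT : P.T y' = P.T z := P.eq z hz y' hy'
  obtain ⟨q1, hq1, hd1⟩ := h1 y y' hy'Om (lt_of_lt_of_le hyy (min_le_left _ _)) q hq
  rw [hT] at hq1
  obtain ⟨q2, hq2, hd2⟩ := h2 x z hz (lt_of_lt_of_le hzx (min_le_right _ _)) q1 hq1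
  refine ⟨q2, hq2, ?_⟩
  have := dist_triangle q q1 q2
  linarith

theorem Z_eq_of_mem [CompactSpace X] {x y : X} (h : y ∈ P.Z x) : P.Z y = P.Z x :=
  Subset.antisymm (P.Z_superset_of_mem h) (P.Z_subset_of_mem h)

theorem mem_Z_symm [CompactSpace X] {x y : X} (h : y ∈ P.Z x) : x ∈ P.Z y := by
  rw [P.Z_eq_of_mem h]; exact P.mem_Z x

theorem mem_Z_trans [CompactSpace X] {x y z : X} (h : y ∈ P.Z x) (h' : z ∈ P.Z y) :
    z ∈ P.Z x := by
  rwa [P.Z_eq_of_mem h] at h'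

/-- connectedness of the limit sets -/
theorem isPreconnected_Z [CompactSpace X] (x : X) : IsPreconnected (P.Z x) := by
  rw [isPreconnected_closed_iff]
  intro A B hA hB hAB ⟨a, haZ, haA⟩ ⟨b, hbZ, hbB⟩
  by_contra hne
  rw [not_nonempty_iff_eq_empty] at hne
  set K := P.Z x ∩ A with hK
  set L := P.Z x ∩ B with hL
  have hKc : IsCompact K := (P.isCompact_Z x).inter_right hA
  have hLc : IsCompact L := (P.isCompact_Z x).inter_right hB
  have hdis : Disjoint K L := by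
    rw [Set.disjoint_iff_inter_eq_empty]
    apply eq_empty_of_subset_empty
    rintro y ⟨⟨h1, h2⟩, ⟨_, h3⟩⟩
    rw [← hne]
    exact ⟨h1, h2, h3⟩
  obtain ⟨δ, hδ, hdisj⟩ := hdis.exists_thickenings hKc hLc.isClosed
  obtain ⟨η1, hη1, h1⟩ := P.near_fwd hδ
  obtain ⟨η2, hη2, h2⟩ := P.near_bwd hδ
  obtain ⟨z, hz, hzx⟩ := P.exists_near x (lt_min hη1 hη2)
  have c := P.conn z hz
  rw [isPreconnected_iff_subset_of_disjoint] at c
  have hcov : P.T z ⊆ thickening δ K ∪ thickening δ L := by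
    intro q' hq'
    obtain ⟨q, hq, hd⟩ := h2 x z hz (lt_of_lt_of_le hzx (min_le_right _ _)) q' hq'
    rcases hAB hq with hqA | hqB
    · left
      exact mem_thickening_iff.2 ⟨q, ⟨hq, hqA⟩, hd⟩
    · right
      exact mem_thickening_iff.2 ⟨q, ⟨hq, hqB⟩, hd⟩
  obtain ⟨a', ha', hda⟩ := h1 x z hz (lt_of_lt_of_le hzx (min_le_left _ _)) a haZ
  obtain ⟨b', hb', hdb⟩ := h1 x z hz (lt_of_lt_of_le hzx (min_le_left _ _)) b hbZ
  have ha'K : a' ∈ thickening δ K :=
    mem_thickening_iff.2 ⟨a, ⟨haZ, haA⟩, by rwa [dist_comm]⟩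
  have hb'L : b' ∈ thickening δ L :=
    mem_thickening_iff.2 ⟨b, ⟨hbZ, hbB⟩, by rwa [dist_comm]⟩
  have hdisj' := Set.disjoint_iff_inter_eq_empty.1 hdisj
  rcases c _ _ isOpen_thickening isOpen_thickening hcov (by rw [hdisj', inter_empty]) with hc | hc
  · have := hc hb'
    exact (Set.disjoint_left.1 hdisj this) hb'L
  · have := hc ha'
    exact (Set.disjoint_left.1 hdisj ha'K) this

theorem isConnected_Z [CompactSpace X] (x : X) : IsConnected (P.Z x) :=
  ⟨⟨x, P.mem_Z x⟩, P.isPreconnected_Z x⟩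

/-- the extended partition as an equivalence relation -/
def setoid [CompactSpace X] : Setoid X where
  r x y := y ∈ P.Z x
  iseqv := ⟨P.mem_Z, P.mem_Z_symm, P.mem_Z_trans⟩

/-- the relation is closed -/
theorem isClosed_rel [CompactSpace X] : IsClosed {p : X × X | p.2 ∈ P.Z p.1} := by
  rw [← closure_subset_iff_isClosed]
  rintro ⟨x, y⟩ hxy
  rw [mem_setOf_eq, ← (P.isClosed_Z x).closure_eq, Metric.mem_closure_iff]
  intro ε hε
  obtain ⟨η, hη, h⟩ := P.unif_Z (half_pos hε)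
  obtain ⟨⟨x', y'⟩, hm, hd⟩ := Metric.mem_closure_iff.1 hxy (min η (ε / 2))
    (lt_min hη (half_pos hε))
  rw [Prod.dist_eq] at hd
  have hd1 : dist x x' < η :=
    lt_of_le_of_lt (le_max_left _ _) (lt_of_lt_of_le hd (min_le_left _ _))
  have hd2 : dist y y' < ε / 2 :=
    lt_of_le_of_lt (le_max_right _ _) (lt_of_lt_of_le hd (min_le_right _ _))
  obtain ⟨q, hq, hdq⟩ := h x' x (by rwa [dist_comm]) y' hm
  refine ⟨q, hq, ?_⟩
  have := dist_triangle y y' q
  linarith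

/-- neighbourhood form of continuity: if `Z x ⊆ U`, `U` open, then `Z y ⊆ U` for `y` near `x` -/
theorem eventually_Z_subset [CompactSpace X] {x : X} {U : Set X} (hU : IsOpen U)
    (h : P.Z x ⊆ U) : ∀ᶠ y in 𝓝 x, P.Z y ⊆ U := by
  obtain ⟨δ, hδ, hsub⟩ := (P.isCompact_Z x).exists_thickening_subset_open hU h
  obtain ⟨η, hη, hu⟩ := P.unif_Z hδ
  filter_upwards [Metric.ball_mem_nhds x hη] with y hy q hq
  obtain ⟨q', hq', hd⟩ := hu y x hy q hq
  exact hsub (mem_thickening_iff.2 ⟨q', hq', hd⟩)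

/-- lower half: if `Z x` meets the open set `U` then `Z y` meets `U` for `y` near `x` -/
theorem eventually_Z_inter [CompactSpace X] {x q : X} {U : Set X} (hU : IsOpen U)
    (hq : q ∈ P.Z x) (hqU : q ∈ U) : ∀ᶠ y in 𝓝 x, (P.Z y ∩ U).Nonempty := by
  obtain ⟨δ, hδ, hsub⟩ := Metric.isOpen_iff.1 hU q hqU
  obtain ⟨η, hη, hu⟩ := P.unif_Z hδ
  filter_upwards [Metric.ball_mem_nhds x hη] with y hy
  obtain ⟨q', hq', hd⟩ := hu x y (by rw [dist_comm]; exact hy) q hq
  exact ⟨q', hq', hsub (by rw [Metric.mem_ball, dist_comm]; exact hd)⟩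

/-- the largest saturated subset of `U` -/
def sat (U : Set X) : Set X := {y | P.Z y ⊆ U}

theorem isOpen_sat [CompactSpace X] {U : Set X} (hU : IsOpen U) : IsOpen (P.sat U) := by
  rw [isOpen_iff_mem_nhds]
  intro x hx
  exact P.eventually_Z_subset hU hx

theorem sat_subset (U : Set X) : P.sat U ⊆ U := fun y hy => hy (P.mem_Z y)

theorem sat_saturated [CompactSpace X] {U : Set X} {x y : X} (hx : x ∈ P.sat U)
    (hy : y ∈ P.Z x) : y ∈ P.sat U := by
  change P.Z y ⊆ U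
  rw [P.Z_eq_of_mem hy]; exact hx

/-- the quotient map is closed: saturation of a closed set is closed -/
theorem isClosed_saturation [CompactSpace X] {F : Set X} (hF : IsClosed F) :
    IsClosed {y | (P.Z y ∩ F).Nonempty} := by
  have h : {y | (P.Z y ∩ F).Nonempty} = (P.sat Fᶜ)ᶜ := by
    ext y
    simp only [sat, mem_setOf_eq, mem_compl_iff, subset_compl_iff_disjoint_right,
      Set.not_disjoint_iff_nonempty_inter]
  rw [h, isClosed_compl_iff]
  exact P.isOpen_sat hF.isOpen_compl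

/-- restriction to a point of `Om`: `Z x` meets `Om` iff it is one of the `T z` -/
theorem Z_eq_T_of_mem [CompactSpace X] {x z : X} (hz : z ∈ P.Om) (h : z ∈ P.Z x) :
    P.Z x = P.T z := by
  rw [← P.Z_eq_T hz, P.Z_eq_of_mem h]

end PD

end Crest.Agent.R281.Con_166
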