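import Crest.Agent.R281.S6D_664
import Crest.Agent.R281.Con1_166

/-!
# R281 (S0424), DIV 6, S6-HAUS (helper254; asked for by 664 #7402; consumer 166)

The leaves `Tf z` of a tube / of a Lagrangian fibration `LFib` (carriers of S6D_664):
* `tube_continuousAt`, `tube_nhds` (the submersion is continuous and open);
* `tube_mem`, `tube_isCompact`, `tube_eq`, `tube_usc`, `tube_lsc`;
* the same for `F : LFib A σ` at the points of `F.Om`: `mem`, `sub`, `isCompact`, `isConnected`,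
  `eq`, `usc`, `lsc`;
* `gen F i z` : the dense set of directions of `thin`; `dense_gen` : generic pairs are dense;
* `unif_of` : a modulus for the generic pairs (local form) gives `PD.unif`; `pd` : the `PD` of 166.
-/

set_option autoImplicit false
set_option linter.unusedSectionVars false

open Set Filter Topology Complex Function MeasureTheory
open scoped ContDiff Matrix ComplexConjugate ComplexOrder

namespace Crest.Agent.R281.Hs_254

open Crest.Agent.R275.Geo Crest.Agent.R275.Core144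
open Crest.Agent.R281.Defs_273 Crest.Agent.R281.S6D_664

noncomputable section

variable {N m n : ℕ}

section tube

variable {M : Type} [TopologicalSpace M] {A : Atl N M} {Tf : M → Set M}

theorem tube_continuousAt (τ : Tube A m Tf) {x : M} (hx : x ∈ τ.W) : ContinuousAt τ.f x := by
  obtain ⟨i, hi⟩ := A.cover x
  have ho : IsOpen ((A.e i).target ∩ (A.e i).symm ⁻¹' τ.W) :=
    (A.e i).isOpen_inter_preimage_symm τ.oW
  have hm : A.e i x ∈ (A.e i).target ∩ (A.e i).symm ⁻¹' τ.W :=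
    ⟨(A.e i).map_source hi, by rw [mem_preimage, (A.e i).left_inv hi]; exact hx⟩
  have h1 : ContinuousAt (fun z => τ.f ((A.e i).symm z)) (A.e i x) :=
    ((τ.hol i).differentiableAt (ho.mem_nhds hm)).continuousAt
  have h2 : ContinuousAt (fun y => τ.f ((A.e i).symm (A.e i y))) x :=
    ContinuousAt.comp (f := fun y => A.e i y) (g := fun z => τ.f ((A.e i).symm z)) h1
      ((A.e i).continuousAt hi)
  refine h2.congr ?_
  filter_upwards [(A.e i).open_source.mem_nhds hi] with y hy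
  rw [(A.e i).left_inv hy]

/-- the submersion is open -/
theorem tube_nhds (τ : Tube A m Tf) {x : M} (hx : x ∈ τ.W) {G : Set M} (hG : G ∈ 𝓝 x) :
    τ.f '' G ∈ 𝓝 (τ.f x) := by
  obtain ⟨i, hi⟩ := A.cover x
  have ho : IsOpen ((A.e i).target ∩ (A.e i).symm ⁻¹' τ.W) :=
    (A.e i).isOpen_inter_preimage_symm τ.oW
  have hm : A.e i x ∈ (A.e i).target ∩ (A.e i).symm ⁻¹' τ.W :=
    ⟨(A.e i).map_source hi, by rw [mem_preimage, (A.e i).left_inv hi]; exact hx⟩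
  have h1 : HasStrictFDerivAt (fun z => τ.f ((A.e i).symm z))
      (fderiv ℂ (fun z => τ.f ((A.e i).symm z)) (A.e i x)) (A.e i x) :=
    (Crest.Agent.R266.SCV.analyticOnNhd_of_differentiableOn ho (τ.hol i) _ hm).hasStrictFDerivAt
  have h2 := h1.map_nhds_eq_of_surj (LinearMap.range_eq_top.2 (τ.sub i x ⟨hi, hx⟩))
  rw [(A.e i).left_inv hi] at h2
  rw [← h2, mem_map]
  have h3 : (A.e i).symm ⁻¹' G ∈ 𝓝 (A.e i x) := by
    have h4 := (A.e i).continuousAt_symm ((A.e i).map_source hi)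
    have h5 : G ∈ 𝓝 ((A.e i).symm (A.e i x)) := by rw [(A.e i).left_inv hi]; exact hG
    exact h4 h5
  filter_upwards [h3] with z hz
  exact ⟨(A.e i).symm z, hz, rfl⟩

theorem tube_mem (τ : Tube A m Tf) {x : M} (hx : x ∈ τ.W) : x ∈ Tf x := by
  rw [τ.fib x hx]
  exact ⟨hx, rfl⟩

theorem tube_sub (τ : Tube A m Tf) {x : M} (hx : x ∈ τ.W) : Tf x ⊆ τ.W := by
  rw [τ.fib x hx]
  exact inter_subset_left

theorem tube_isCompact (τ : Tube A m Tf) {x : M} (hx : x ∈ τ.W) : IsCompact (Tf x) := by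
  rw [τ.fib x hx]
  exact τ.proper {τ.f x} (singleton_subset_iff.2 (τ.maps hx)) isCompact_singleton

theorem tube_eq (τ : Tube A m Tf) {x y : M} (hx : x ∈ τ.W) (hy : y ∈ Tf x) : Tf y = Tf x := by
  have hy' := hy
  rw [τ.fib x hx] at hy'
  rw [τ.fib x hx, τ.fib y hy'.1]
  have h1 : τ.f y = τ.f x := hy'.2
  rw [h1]

/-- upper semicontinuity -/
theorem tube_usc (τ : Tube A m Tf) {x : M} (hx : x ∈ τ.W) {G : Set M} (hG : IsOpen G)
    (h : Tf x ⊆ G) : ∀ᶠ x' in 𝓝 x, Tf x' ⊆ G := by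
  have hU : τ.U ∈ 𝓝 (τ.f x) := τ.oU.mem_nhds (τ.maps hx)
  obtain ⟨C, hC, hCn, hCU⟩ : ∃ C, IsCompact C ∧ C ∈ 𝓝 (τ.f x) ∧ C ⊆ τ.U := by
    obtain ⟨C, hC1, hC2, hC3⟩ := local_compact_nhds hU
    exact ⟨C, hC3, hC1, hC2⟩
  have hK : IsCompact ((τ.W ∩ τ.f ⁻¹' C) \ G) := (τ.proper C hCU hC).diff hG
  have hcont : ContinuousOn τ.f ((τ.W ∩ τ.f ⁻¹' C) \ G) := fun y hy =>
    (tube_continuousAt τ hy.1.1).continuousWithinAt
  have hfK : IsClosed (τ.f '' ((τ.W ∩ τ.f ⁻¹' C) \ G)) := (hK.image_of_continuousOn hcont).isClosed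
  have hnot : τ.f x ∉ τ.f '' ((τ.W ∩ τ.f ⁻¹' C) \ G) := by
    rintro ⟨y, hy, hyx⟩
    apply hy.2
    apply h
    rw [τ.fib x hx]
    exact ⟨hy.1.1, hyx⟩
  have h1 : ∀ᶠ x' in 𝓝 x, τ.f x' ∈ C ∩ (τ.f '' ((τ.W ∩ τ.f ⁻¹' C) \ G))ᶜ :=
    (tube_continuousAt τ hx) (inter_mem hCn (hfK.isOpen_compl.mem_nhds hnot))
  filter_upwards [h1, τ.oW.mem_nhds hx] with x' hx' hW y hy
  rw [τ.fib x' hW] at hy
  by_contra hyG
  apply hx'.2
  have hyx : τ.f y = τ.f x' := hy.2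
  exact ⟨y, ⟨⟨hy.1, by rw [mem_preimage, hyx]; exact hx'.1⟩, hyG⟩, hyx⟩

/-- lower semicontinuity -/
theorem tube_lsc (τ : Tube A m Tf) {x : M} (hx : x ∈ τ.W) {G : Set M} (hG : IsOpen G) {q : M}
    (hq : q ∈ Tf x) (hqG : q ∈ G) : ∀ᶠ x' in 𝓝 x, (Tf x' ∩ G).Nonempty := by
  rw [τ.fib x hx] at hq
  have hqx : τ.f q = τ.f x := hq.2
  have h1 : τ.f '' (G ∩ τ.W) ∈ 𝓝 (τ.f x) := by
    rw [← hqx]
    exact tube_nhds τ hq.1 (inter_mem (hG.mem_nhds hqG) (τ.oW.mem_nhds hq.1))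
  filter_upwards [(tube_continuousAt τ hx) h1, τ.oW.mem_nhds hx] with x' hx' hW
  obtain ⟨y, hy, hyx⟩ := hx'
  refine ⟨y, ?_, hy.1⟩
  rw [τ.fib x' hW]
  exact ⟨hy.2, hyx⟩

end tube

section lfib

variable {M : Type} [TopologicalSpace M] {A : Atl (2 * n) M} {σ : HSymp A} (F : LFib A σ)

theorem mem {x : M} (hx : x ∈ F.Om) : x ∈ F.Tf x := by
  obtain ⟨τ, h1, -, -⟩ := F.tube x hx
  exact tube_mem τ h1

theorem sub {x : M} (hx : x ∈ F.Om) : F.Tf x ⊆ F.Om := by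
  obtain ⟨τ, h1, h2, -⟩ := F.tube x hx
  exact (tube_sub τ h1).trans h2

theorem isCompact {x : M} (hx : x ∈ F.Om) : IsCompact (F.Tf x) := by
  obtain ⟨τ, h1, -, -⟩ := F.tube x hx
  exact tube_isCompact τ h1

theorem isConnected {x : M} (hx : x ∈ F.Om) : IsConnected (F.Tf x) := by
  obtain ⟨τ, h1, -, -⟩ := F.tube x hx
  exact τ.conn x h1

theorem eq {x y : M} (hx : x ∈ F.Om) (hy : y ∈ F.Tf x) : F.Tf y = F.Tf x := by
  obtain ⟨τ, h1, -, -⟩ := F.tube x hx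
  exact tube_eq τ h1 hy

theorem mem_comm {x y : M} (hx : x ∈ F.Om) (hy : y ∈ F.Tf x) : x ∈ F.Tf y := by
  rw [eq F hx hy]
  exact mem F hx

/-- two leaves are equal or disjoint -/
theorem eq_or_disjoint {x y : M} (hx : x ∈ F.Om) (hy : y ∈ F.Om) :
    F.Tf x = F.Tf y ∨ Disjoint (F.Tf x) (F.Tf y) := by
  by_cases h : Disjoint (F.Tf x) (F.Tf y)
  · exact Or.inr h
  · left
    obtain ⟨z, h1, h2⟩ := Set.not_disjoint_iff.1 h
    rw [← eq F hx h1, eq F hy h2]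

/-- upper semicontinuity of the leaves -/
theorem usc {x : M} (hx : x ∈ F.Om) {G : Set M} (hG : IsOpen G) (h : F.Tf x ⊆ G) :
    ∀ᶠ x' in 𝓝 x, F.Tf x' ⊆ G := by
  obtain ⟨τ, h1, -, -⟩ := F.tube x hx
  exact tube_usc τ h1 hG h

/-- lower semicontinuity of the leaves -/
theorem lsc {x : M} (hx : x ∈ F.Om) {G : Set M} (hG : IsOpen G) {q : M} (hq : q ∈ F.Tf x)
    (hqG : q ∈ G) : ∀ᶠ x' in 𝓝 x, (F.Tf x' ∩ G).Nonempty := by
  obtain ⟨τ, h1, -, -⟩ := F.tube x hx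
  exact tube_lsc τ h1 hG hq hqG

/-- the generic directions at the point `z` of the chart `i` (literally the set of `thin`) -/
def gen (i : A.ι) (z : Cn (2 * n)) : Set (Cn (2 * n)) :=
  {v : Cn (2 * n) | {c : ℂ | z + c • v ∈ (A.e i).target ∧
      (A.e i).symm (z + c • v) ∉ F.Om}.Countable}

theorem dense_gen {i : A.ι} {z : Cn (2 * n)} (hz : z ∈ (A.e i).target)
    (hzO : (A.e i).symm z ∈ F.Om) : Dense (gen F i z) := F.thin i z hz hzO

/-- generic pairs are dense: in the chart -/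
theorem exists_gen_chart {i : A.ι} {z z' : Cn (2 * n)} (hz : z ∈ (A.e i).target)
    (hzO : (A.e i).symm z ∈ F.Om) (hz' : z' ∈ (A.e i).target) (hzO' : (A.e i).symm z' ∈ F.Om)
    {W : Set (Cn (2 * n))} (hW : W ∈ 𝓝 z') :
    ∃ z'' ∈ W, z'' ∈ (A.e i).target ∧ (A.e i).symm z'' ∈ F.Om ∧ z'' - z ∈ gen F i z := by
  have ho : IsOpen ((A.e i).target ∩ (A.e i).symm ⁻¹' F.Om) :=
    (A.e i).isOpen_inter_preimage_symm F.op
  have h1 : W ∩ ((A.e i).target ∩ (A.e i).symm ⁻¹' F.Om) ∈ 𝓝 z' :=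
    inter_mem hW (ho.mem_nhds ⟨hz', hzO'⟩)
  have h2 : (fun v => z + v) ⁻¹' (W ∩ ((A.e i).target ∩ (A.e i).symm ⁻¹' F.Om)) ∈ 𝓝 (z' - z) := by
    have h3 : ContinuousAt (fun v => z + v) (z' - z) := by fun_prop
    apply h3
    show _ ∈ 𝓝 (z + (z' - z))
    rw [add_sub_cancel]
    exact h1
  obtain ⟨v, hvg, hv⟩ := (dense_gen F hz hzO).inter_nhds_nonempty h2
  exact ⟨z + v, hv.1, hv.2.1, hv.2.2, by rwa [add_sub_cancel_left]⟩

/-- generic pairs are dense: in `M` -/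
theorem exists_gen {i : A.ι} {x x' : M} (hx : x ∈ (A.e i).source) (hxO : x ∈ F.Om)
    (hx' : x' ∈ (A.e i).source) (hxO' : x' ∈ F.Om) {W : Set M} (hW : W ∈ 𝓝 x') :
    ∃ x'' ∈ W, x'' ∈ (A.e i).source ∧ x'' ∈ F.Om ∧
      A.e i x'' - A.e i x ∈ gen F i (A.e i x) := by
  have h1 : (A.e i).symm ⁻¹' W ∈ 𝓝 (A.e i x') := by
    have h4 := (A.e i).continuousAt_symm ((A.e i).map_source hx')
    have h5 : W ∈ 𝓝 ((A.e i).symm (A.e i x')) := by rw [(A.e i).left_inv hx']; exact hW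
    exact h4 h5
  obtain ⟨z, hz, hzt, hzO, hzg⟩ := exists_gen_chart F ((A.e i).map_source hx)
    (by rw [(A.e i).left_inv hx]; exact hxO) ((A.e i).map_source hx')
    (by rw [(A.e i).left_inv hx']; exact hxO') h1
  refine ⟨(A.e i).symm z, hz, (A.e i).map_target hzt, hzO, ?_⟩
  rwa [(A.e i).right_inv hzt]

end lfib

section metric

variable {M : Type} [MetricSpace M] {A : Atl (2 * n) M} {σ : HSymp A} (F : LFib A σ)

/-- continuity of the leaves in the metric, both halves -/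
theorem exists_near {x : M} (hx : x ∈ F.Om) {ε : ℝ} (hε : 0 < ε) : ∀ᶠ x' in 𝓝 x,
    (∀ q ∈ F.Tf x', ∃ q' ∈ F.Tf x, dist q q' < ε) := by
  have h1 := usc F hx (G := Metric.thickening ε (F.Tf x)) Metric.isOpen_thickening
    (Metric.self_subset_thickening hε _)
  filter_upwards [h1] with x' hx' q hq
  exact Metric.mem_thickening_iff.1 (hx' hq)

theorem exists_near' {x : M} (hx : x ∈ F.Om) {ε : ℝ} (hε : 0 < ε) : ∀ᶠ x' in 𝓝 x,
    (∀ q ∈ F.Tf x, ∃ q' ∈ F.Tf x', dist q q' < ε) := by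
  have hcov : ∀ q ∈ F.Tf x, ∃ V ∈ 𝓝[F.Tf x] q, ∀ᶠ x' in 𝓝 x, ∀ p ∈ V,
      ∃ q' ∈ F.Tf x', dist p q' < ε := by
    intro q hq
    refine ⟨Metric.ball q (ε / 2), mem_nhdsWithin_of_mem_nhds (Metric.ball_mem_nhds q (half_pos hε)),
      ?_⟩
    filter_upwards [lsc F hx (G := Metric.ball q (ε / 2)) Metric.isOpen_ball hq
      (Metric.mem_ball_self (half_pos hε))] with x' hx' p hp
    obtain ⟨q', hq', hq''⟩ := hx'
    refine ⟨q', hq', ?_⟩
    have h1 : dist p q < ε / 2 := hp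
    have h2 : dist q' q < ε / 2 := hq''
    have h3 := dist_triangle_right p q' q
    linarith
  exact (isCompact F hx).induction_on (p := fun s => ∀ᶠ x' in 𝓝 x, ∀ p ∈ s,
      ∃ q' ∈ F.Tf x', dist p q' < ε) (by simp)
    (fun s t hst h => h.mono fun x' hx' p hp => hx' p (hst hp))
    (fun s t h1 h2 => by
      filter_upwards [h1, h2] with x' a b p hp
      exact hp.elim (a p) (b p)) hcov

/-- a local modulus for the generic pairs gives the uniform modulus for all pairs -/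
theorem unif_of [CompactSpace M]
    (h : ∀ x₀ : M, ∀ ε : ℝ, 0 < ε → ∃ i, ∃ W ∈ 𝓝 x₀, W ⊆ (A.e i).source ∧
      ∀ z ∈ W ∩ F.Om, ∀ z' ∈ W ∩ F.Om, A.e i z' - A.e i z ∈ gen F i (A.e i z) →
        ∀ q ∈ F.Tf z, ∃ q' ∈ F.Tf z', dist q q' < ε) :
    ∀ ε : ℝ, 0 < ε → ∃ η : ℝ, 0 < η ∧ ∀ z ∈ F.Om, ∀ z' ∈ F.Om, dist z z' < η →
      ∀ q ∈ F.Tf z, ∃ q' ∈ F.Tf z', dist q q' < ε := by
  intro ε hε
  choose i W hW hWs hWm using fun x₀ => h x₀ (ε / 2) (half_pos hε)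
  obtain ⟨η, hη, hL⟩ := lebesgue_number_lemma_of_metric (s := (univ : Set M)) isCompact_univ
    (c := fun x₀ => interior (W x₀)) (fun x₀ => isOpen_interior)
    (fun x _ => mem_iUnion.2 ⟨x, mem_interior_iff_mem_nhds.2 (hW x)⟩)
  refine ⟨η, hη, fun z hz z' hz' hd q hq => ?_⟩
  obtain ⟨x₀, hx₀⟩ := hL z (mem_univ z)
  have hzW : z ∈ interior (W x₀) := hx₀ (Metric.mem_ball_self hη)
  have hzW' : z' ∈ interior (W x₀) := hx₀ (by rw [Metric.mem_ball, dist_comm]; exact hd)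
  obtain ⟨z'', hz'', h1, h2, h3⟩ := exists_gen F (hWs x₀ (interior_subset hzW)) hz
    (hWs x₀ (interior_subset hzW')) hz'
    (inter_mem (mem_interior_iff_mem_nhds.1 hzW') (exists_near F hz' (half_pos hε)))
  obtain ⟨q1, hq1, hd1⟩ := hWm x₀ z ⟨interior_subset hzW, hz⟩ z'' ⟨hz''.1, h2⟩ h3 q hq
  obtain ⟨q', hq', hd'⟩ := hz''.2 q1 hq1
  refine ⟨q', hq', ?_⟩
  have := dist_triangle q q1 q'
  linarith

/-- the partition data of helper166 -/
def pd [CompactSpace M]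
    (h : ∀ x₀ : M, ∀ ε : ℝ, 0 < ε → ∃ i, ∃ W ∈ 𝓝 x₀, W ⊆ (A.e i).source ∧
      ∀ z ∈ W ∩ F.Om, ∀ z' ∈ W ∩ F.Om, A.e i z' - A.e i z ∈ gen F i (A.e i z) →
        ∀ q ∈ F.Tf z, ∃ q' ∈ F.Tf z', dist q q' < ε) : Con_166.PD M where
  Om := F.Om
  dense := F.dns
  T := F.Tf
  mem _ hz := mem F hz
  sub _ hz := sub F hz
  cpt _ hz := isCompact F hz
  conn _ hz := (isConnected F hz).isPreconnected
  eq _ hz _ hy := eq F hz hy
  unif := unif_of F h

end metric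

end

end Crest.Agent.R281.Hs_254
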