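import Crest.Agent.R281.S6V6_664
import Crest.Agent.R281.Hs1_254

/-!
# R281 (S0424), DIV 6, S6-LINE (helper254): good lines through dense pairs of points

* `TrV`, `gen2`  : generic AND transversal directions at a point of a chart; `dense_gen2`;
* `line_good`    : the line through `z''` and `z` (`z'' - z` in `gen2`) has countable `bad`, the
                   parameter of `z` is good, every parameter over `Om` is isolated in `bad`;
* `exists_line`  : in a chart ball, pairs `(z, z'')` with a good line of uniform radius are dense;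
* `exists_gen2`, `unif_of2`, `pd2` : as in `Hs1_254`, with `gen2`;
* `nbad`         : the bad parameters in the normalised disc; compact, countable, compact without
                   the centre (input of 166's `exists_weight'`).
-/

set_option autoImplicit false
set_option linter.unusedSectionVars false

open Set Filter Topology Complex Function
open scoped ContDiff Matrix ComplexConjugate

namespace Crest.Agent.R281.Ln_254

open Crest.Agent.R275.Geo Crest.Agent.R275.Core144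
open Crest.Agent.R281.S6D_664 Crest.Agent.R281.Hs_254 Crest.Agent.R281.S6V_664
open Crest.Agent.R281.Defs_273

noncomputable section

variable {n : ℕ}

section top

variable {M : Type} [TopologicalSpace M] {A : Atl (2 * n) M} {σ : HSymp A} (F : LFib A σ)

/-- the direction `v` is transversal to the leaf at the point `z` of the chart `i` -/
def TrV (i : A.ι) (z v : Cn (2 * n)) : Prop :=
  ∃ τ : Tube A n F.Tf, (A.e i).symm z ∈ τ.W ∧
    fderiv ℂ (fun z => τ.f ((A.e i).symm z)) z v ≠ 0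

/-- generic transversal directions -/
def gen2 (i : A.ι) (z : Cn (2 * n)) : Set (Cn (2 * n)) := {v | v ∈ gen F i z ∧ TrV F i z v}

theorem ne_zero_of_trv {i : A.ι} {z v : Cn (2 * n)} (h : TrV F i z v) : v ≠ 0 := by
  rintro rfl
  obtain ⟨τ, -, h⟩ := h
  exact h (map_zero _)

theorem dense_trv (hn : 0 < n) {i : A.ι} {z : Cn (2 * n)} (hz : z ∈ (A.e i).target)
    (hzO : (A.e i).symm z ∈ F.Om) :
    ∃ T : Set (Cn (2 * n)), IsOpen T ∧ Dense T ∧ ∀ v ∈ T, TrV F i z v := by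
  obtain ⟨τ, hτ, -, -⟩ := F.tube _ hzO
  set L : Cn (2 * n) →L[ℂ] Cn n := fderiv ℂ (fun z => τ.f ((A.e i).symm z)) z with hL
  have hsurj : Surjective L := by
    have h := τ.sub i ((A.e i).symm z) ⟨(A.e i).map_target hz, hτ⟩
    rw [(A.e i).right_inv hz] at h
    exact h
  refine ⟨{v | L v ≠ 0}, isOpen_ne_fun L.continuous continuous_const, ?_, fun v hv => ⟨τ, hτ, hv⟩⟩
  obtain ⟨w, hw⟩ := hsurj (EuclideanSpace.single (⟨0, hn⟩ : Fin n) (1 : ℂ))
  have hw0 : L w ≠ 0 := by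
    rw [hw]
    intro h0
    have h1 : (EuclideanSpace.single (⟨0, hn⟩ : Fin n) (1 : ℂ)) ⟨0, hn⟩ = (0 : Cn n) ⟨0, hn⟩ := by
      rw [h0]
    simp at h1
  intro v
  by_cases hv : L v = 0
  · rw [mem_closure_iff_nhds]
    intro U hU
    have h1 : Tendsto (fun t : ℝ => v + (t : ℂ) • w) (𝓝 0) (𝓝 v) := by
      have h2 : Continuous fun t : ℝ => v + (t : ℂ) • w := by fun_prop
      have h3 := h2.tendsto 0
      simpa using h3
    have h2 : ∀ᶠ t : ℝ in 𝓝[≠] 0, v + (t : ℂ) • w ∈ U :=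
      (h1.eventually hU).filter_mono nhdsWithin_le_nhds
    obtain ⟨t, ht, ht0⟩ := (h2.and self_mem_nhdsWithin).exists
    refine ⟨_, ht, ?_⟩
    show L (v + (t : ℂ) • w) ≠ 0
    rw [map_add, hv, zero_add, map_smul]
    exact smul_ne_zero (by exact_mod_cast ht0) hw0
  · exact subset_closure hv

/-- generic transversal directions are dense -/
theorem dense_gen2 (hn : 0 < n) {i : A.ι} {z : Cn (2 * n)} (hz : z ∈ (A.e i).target)
    (hzO : (A.e i).symm z ∈ F.Om) : Dense (gen2 F i z) := by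
  obtain ⟨T, hTo, hTd, hT⟩ := dense_trv F hn hz hzO
  exact ((dense_gen F hz hzO).inter_of_isOpen_right hTd hTo).mono fun v hv => ⟨hv.1, hT v hv.2⟩

/-- generic transversal pairs are dense: in the chart -/
theorem exists_gen2_chart (hn : 0 < n) {i : A.ι} {z z' : Cn (2 * n)} (hz : z ∈ (A.e i).target)
    (hzO : (A.e i).symm z ∈ F.Om) (hz' : z' ∈ (A.e i).target)
    {W : Set (Cn (2 * n))} (hW : W ∈ 𝓝 z') :
    ∃ z'' ∈ W, z'' ∈ (A.e i).target ∧ (A.e i).symm z'' ∈ F.Om ∧ z'' - z ∈ gen2 F i z := by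
  have ho : IsOpen ((A.e i).target ∩ (A.e i).symm ⁻¹' F.Om) :=
    (A.e i).isOpen_inter_preimage_symm F.op
  -- a point of `Om` near `z'`
  have h0 : W ∩ (A.e i).target ∈ 𝓝 z' := inter_mem hW ((A.e i).open_target.mem_nhds hz')
  obtain ⟨O, hOs, hO, hzO'⟩ := mem_nhds_iff.1 h0
  have h5 : IsOpen ((A.e i).source ∩ A.e i ⁻¹' O) := (A.e i).isOpen_inter_preimage hO
  obtain ⟨p, hp, hpO⟩ := F.dns.inter_open_nonempty _ h5
    ⟨(A.e i).symm z', (A.e i).map_target hz', by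
      show A.e i ((A.e i).symm z') ∈ O
      rw [(A.e i).right_inv hz']
      exact hzO'⟩
  have hpW : A.e i p ∈ W := (hOs hp.2).1
  have h1 : O ∩ ((A.e i).target ∩ (A.e i).symm ⁻¹' F.Om) ∈ 𝓝 (A.e i p) :=
    (hO.inter ho).mem_nhds ⟨hp.2, (A.e i).map_source hp.1, by
      show (A.e i).symm (A.e i p) ∈ F.Om
      rw [(A.e i).left_inv hp.1]
      exact hpO⟩
  have h2 : (fun v => z + v) ⁻¹' (O ∩ ((A.e i).target ∩ (A.e i).symm ⁻¹' F.Om)) ∈
      𝓝 (A.e i p - z) := by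
    have h3 : ContinuousAt (fun v => z + v) (A.e i p - z) := by fun_prop
    apply h3
    show _ ∈ 𝓝 (z + (A.e i p - z))
    rw [add_sub_cancel]
    exact h1
  obtain ⟨v, hvg, hv⟩ := (dense_gen2 F hn hz hzO).inter_nhds_nonempty h2
  exact ⟨z + v, (hOs hv.1).1, hv.2.1, hv.2.2, by rwa [add_sub_cancel_left]⟩

/-- **the line through a generic transversal pair** -/
theorem line_good {i : A.ι} {z p w : Cn (2 * n)} {c0 : ℂ} {R : ℝ} (hR : 0 < R)
    (h : ∀ c : ℂ, ‖c‖ ≤ R → p + c • w ∈ (A.e i).target) (hz : p + c0 • w = z) (hc0 : ‖c0‖ < R)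
    (hzO : (A.e i).symm z ∈ F.Om) (hg : p - z ∈ gen2 F i z) :
    ((lineD F i p w hR h).bad ∩ Metric.ball 0 R).Countable ∧ c0 ∉ (lineD F i p w hR h).bad ∧
      ∀ c : ℂ, ‖c‖ < R → (A.e i).symm (p + c • w) ∈ F.Om →
        ∀ᶠ c' in 𝓝[≠] c, c' ∉ (lineD F i p w hR h).bad := by
  set D := lineD F i p w hR h with hD
  have hv0 : p - z ≠ 0 := ne_zero_of_trv F hg.2
  have hv : p - z = (-c0) • w := by
    rw [← hz]
    module
  have hc00 : c0 ≠ 0 := by
    rintro rfl
    apply hv0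
    rw [hv]
    simp
  -- the reparametrisation
  have hrep : ∀ c : ℂ, p + c • w = z + (1 - c / c0) • (p - z) := by
    intro c
    rw [hv, smul_smul, ← hz]
    have : (1 - c / c0) * -c0 = -c0 + c := by
      field_simp
      ring
    rw [this]
    module
  have hcount : {c : ℂ | ‖c‖ ≤ D.R ∧ D.pt c ∉ D.Om}.Countable := by
    have h1 : ((fun c : ℂ => 1 - c / c0) ⁻¹' {c : ℂ | z + c • (p - z) ∈ (A.e i).target ∧
        (A.e i).symm (z + c • (p - z)) ∉ F.Om}).Countable := by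
      refine (show ({c : ℂ | z + c • (p - z) ∈ (A.e i).target ∧
        (A.e i).symm (z + c • (p - z)) ∉ F.Om}).Countable from hg.1).preimage ?_
      intro a b hab
      have h2 : a / c0 = b / c0 := by
        have h3 : (1 : ℂ) - a / c0 = 1 - b / c0 := hab
        linear_combination -h3
      exact (div_left_inj' hc00).1 h2
    refine h1.mono ?_
    rintro c ⟨h2, h3⟩
    have h4 : p + c • w ∈ (A.e i).target := h c h2
    have h5 : (A.e i).symm (p + c • w) ∉ F.Om := h3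
    rw [hrep] at h4 h5
    exact ⟨h4, h5⟩
  have hc0b : c0 ∉ D.bad := by
    rintro ⟨h1, h2 | h2⟩
    · apply h2
      show (A.e i).symm (p + c0 • w) ∈ F.Om
      rw [hz]
      exact hzO
    · obtain ⟨τ, hτ, hτv⟩ := hg.2
      have h3 : D.pt c0 ∈ τ.W := by
        show (A.e i).symm (p + c0 • w) ∈ τ.W
        rw [hz]
        exact hτ
      rw [D.kr_iff h1 h3] at h2
      have h4 : fderiv ℂ (fun z => τ.f ((A.e i).symm z)) (p + c0 • w) w = 0 := h2
      rw [hz] at h4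
      apply hτv
      rw [hv, map_smul, h4, smul_zero]
  refine ⟨D.bad_countable hcount hc0 hc0b, hc0b, fun c hc hcO => ?_⟩
  have h1 := D.isolated hcount hc0 hc0b hc hcO
  have h2 : ∀ᶠ c' in 𝓝[≠] c, ‖c'‖ < D.R ∧ D.pt c' ∈ D.Om :=
    (D.ev_tube hc D.oOm hcO).filter_mono nhdsWithin_le_nhds
  filter_upwards [h1, h2] with c' h3 h4
  rintro ⟨-, h5 | h5⟩
  · exact h5 h4.2
  · exact h3 h5

/-- **dense pairs in a chart ball**: the good line through `z''` (parameter `0`) and `z` (parameter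
`‖z - z''‖`), of uniform radius `2 ρ` -/
theorem exists_line (hn : 0 < n) {i : A.ι} {p z z' : Cn (2 * n)} {ρ : ℝ} (hρ : 0 < ρ)
    (hB : Metric.closedBall p (3 * ρ) ⊆ (A.e i).target) (hz : ‖z - p‖ < ρ) (hz' : ‖z' - p‖ < ρ)
    (hzO : (A.e i).symm z ∈ F.Om) {W : Set (Cn (2 * n))} (hW : W ∈ 𝓝 z') :
    ∃ z'' ∈ W, ‖z'' - p‖ < ρ ∧ (A.e i).symm z'' ∈ F.Om ∧ z'' ≠ z ∧
      ∃ (w : Cn (2 * n)) (h : ∀ c : ℂ, ‖c‖ ≤ 2 * ρ → z'' + c • w ∈ (A.e i).target),
        ‖w‖ = 1 ∧ z'' + ((‖z - z''‖ : ℝ) : ℂ) • w = z ∧ ‖z - z''‖ < 2 * ρ ∧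
        ((lineD F i z'' w (by positivity) h).bad ∩ Metric.ball 0 (2 * ρ)).Countable ∧
        ((‖z - z''‖ : ℝ) : ℂ) ∉ (lineD F i z'' w (by positivity) h).bad ∧
        ∀ c : ℂ, ‖c‖ < 2 * ρ → (A.e i).symm (z'' + c • w) ∈ F.Om →
          ∀ᶠ c' in 𝓝[≠] c, c' ∉ (lineD F i z'' w (by positivity) h).bad := by
  have hzt : z ∈ (A.e i).target := hB (by
    rw [Metric.mem_closedBall, dist_eq_norm]; linarith)
  have hzt' : z' ∈ (A.e i).target := hB (by
    rw [Metric.mem_closedBall, dist_eq_norm]; linarith)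
  have h1 : W ∩ Metric.ball p ρ ∈ 𝓝 z' := inter_mem hW (Metric.isOpen_ball.mem_nhds (by
    rw [Metric.mem_ball, dist_eq_norm]; exact hz'))
  obtain ⟨z'', hzW, hzt'', hzO'', hg⟩ := exists_gen2_chart F hn hzt hzO hzt' h1
  have hzb : ‖z'' - p‖ < ρ := by
    have := hzW.2
    rwa [Metric.mem_ball, dist_eq_norm] at this
  have hne : z'' - z ≠ 0 := ne_zero_of_trv F hg.2
  have hne' : z'' ≠ z := sub_ne_zero.1 hne
  have hnr : 0 < ‖z - z''‖ := by
    rw [norm_sub_rev]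
    exact norm_pos_iff.2 hne
  have hlt : ‖z - z''‖ < 2 * ρ := by
    have h2 : ‖z - z''‖ ≤ ‖z - p‖ + ‖z'' - p‖ := by
      have : z - z'' = (z - p) - (z'' - p) := by abel
      rw [this]
      exact norm_sub_le _ _
    linarith
  set w : Cn (2 * n) := ((‖z - z''‖⁻¹ : ℝ) : ℂ) • (z - z'') with hw
  have hw1 : ‖w‖ = 1 := by
    rw [hw, norm_smul, Complex.norm_real, norm_inv, norm_norm, inv_mul_cancel₀ hnr.ne']
  have hwz : z'' + ((‖z - z''‖ : ℝ) : ℂ) • w = z := by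
    rw [hw, smul_smul, ← Complex.ofReal_mul, mul_inv_cancel₀ hnr.ne', Complex.ofReal_one, one_smul,
      add_sub_cancel]
  have h : ∀ c : ℂ, ‖c‖ ≤ 2 * ρ → z'' + c • w ∈ (A.e i).target := by
    intro c hc
    apply hB
    rw [Metric.mem_closedBall, dist_eq_norm]
    have h2 : ‖z'' + c • w - p‖ ≤ ‖z'' - p‖ + ‖c • w‖ := by
      have : z'' + c • w - p = (z'' - p) + c • w := by abel
      rw [this]
      exact norm_add_le _ _
    rw [norm_smul, hw1, mul_one] at h2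
    linarith
  have h3 := line_good F (R := 2 * ρ) (by positivity) h hwz
    (by rw [Complex.norm_real, norm_norm]; exact hlt) hzO hg
  exact ⟨z'', hzW.1, hzb, hzO'', hne', w, h, hw1, hwz, hlt, h3.1, h3.2.1, h3.2.2⟩

/-- generic transversal pairs are dense: in `M` -/
theorem exists_gen2 (hn : 0 < n) {i : A.ι} {x x' : M} (hx : x ∈ (A.e i).source)
    (hxO : x ∈ F.Om) (hx' : x' ∈ (A.e i).source) {W : Set M} (hW : W ∈ 𝓝 x') :
    ∃ x'' ∈ W, x'' ∈ (A.e i).source ∧ x'' ∈ F.Om ∧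
      A.e i x'' - A.e i x ∈ gen2 F i (A.e i x) := by
  have h1 : (A.e i).symm ⁻¹' W ∈ 𝓝 (A.e i x') := by
    have h4 := (A.e i).continuousAt_symm ((A.e i).map_source hx')
    have h5 : W ∈ 𝓝 ((A.e i).symm (A.e i x')) := by rw [(A.e i).left_inv hx']; exact hW
    exact h4 h5
  obtain ⟨z, hz, hzt, hzO, hzg⟩ := exists_gen2_chart F hn ((A.e i).map_source hx)
    (by rw [(A.e i).left_inv hx]; exact hxO) ((A.e i).map_source hx') h1
  refine ⟨(A.e i).symm z, hz, (A.e i).map_target hzt, hzO, ?_⟩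
  rwa [(A.e i).right_inv hzt]

end top

section norm

variable {N d k : ℕ} {M : Type} [TopologicalSpace M] {A : Atl N M} {Tf : M → Set M}
variable (D : LineD A Tf k d)

/-- the bad parameters in a smaller closed disc form a compact set -/
theorem isCompact_bad {R' : ℝ} (hR' : R' < D.R) : IsCompact (D.bad ∩ Metric.closedBall 0 R') := by
  refine Metric.isCompact_of_isClosed_isBounded ?_ (Metric.isBounded_closedBall.subset
    inter_subset_right)
  rw [← isOpen_compl_iff, isOpen_iff_mem_nhds]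
  intro c hc
  by_cases h : ‖c‖ ≤ R'
  · have h1 : c ∉ D.bad := fun h2 => hc ⟨h2, by simpa using h⟩
    filter_upwards [D.good_ev (h.trans_lt hR') h1] with c' h2 h3
    exact h2 h3.1
  · have h1 : ∀ᶠ c' : ℂ in 𝓝 c, R' < ‖c'‖ :=
      continuousAt_const.eventually_lt continuous_norm.continuousAt (not_le.1 h)
    filter_upwards [h1] with c' h2 h3
    have h4 := h3.2
    rw [mem_closedBall_zero_iff] at h4
    linarith

/-- the bad parameters in the normalised coordinate `y = c / R0`, `‖y‖ ≤ 1` -/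
def nbad (R0 : ℝ) : Set ℂ := {y | ‖y‖ ≤ 1 ∧ (R0 : ℂ) * y ∈ D.bad}

theorem isCompact_nbad {R0 : ℝ} (h0 : 0 < R0) (hR : R0 < D.R) : IsCompact (nbad D R0) := by
  have h1 : nbad D R0 = (fun c : ℂ => (R0 : ℂ)⁻¹ * c) '' (D.bad ∩ Metric.closedBall 0 R0) := by
    have h2 : (R0 : ℂ) ≠ 0 := by exact_mod_cast h0.ne'
    ext y
    constructor
    · rintro ⟨h3, h4⟩
      refine ⟨(R0 : ℂ) * y, ⟨h4, ?_⟩, ?_⟩
      · rw [mem_closedBall_zero_iff, norm_mul, Complex.norm_real, Real.norm_of_nonneg h0.le]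
        exact mul_le_of_le_one_right h0.le h3
      · show (R0 : ℂ)⁻¹ * ((R0 : ℂ) * y) = y
        rw [← mul_assoc, inv_mul_cancel₀ h2, one_mul]
    · rintro ⟨c, ⟨h3, h4⟩, rfl⟩
      rw [mem_closedBall_zero_iff] at h4
      refine ⟨?_, ?_⟩
      · rw [norm_mul, norm_inv, Complex.norm_real, Real.norm_of_nonneg h0.le]
        exact inv_mul_le_one_of_le₀ h4 h0.le
      · show (R0 : ℂ) * ((R0 : ℂ)⁻¹ * c) ∈ D.bad
        rw [← mul_assoc, mul_inv_cancel₀ h2, one_mul]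
        exact h3
  rw [h1]
  exact (isCompact_bad D hR).image (by fun_prop)

theorem isCompact_nbad_sdiff {R0 : ℝ} (h0 : 0 < R0) (hR : R0 < D.R)
    (hi : ∀ᶠ c in 𝓝[≠] (0 : ℂ), c ∉ D.bad) : IsCompact (nbad D R0 \ {0}) := by
  have h2 : (R0 : ℂ) ≠ 0 := by exact_mod_cast h0.ne'
  have h1 : ∀ᶠ y in 𝓝[≠] (0 : ℂ), (R0 : ℂ) * y ∉ D.bad := by
    have h3 : Tendsto (fun y : ℂ => (R0 : ℂ) * y) (𝓝[≠] 0) (𝓝[≠] 0) := by
      refine tendsto_nhdsWithin_iff.2 ⟨?_, ?_⟩
      · have h4 : Continuous fun y : ℂ => (R0 : ℂ) * y := by fun_prop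
        have h5 := h4.tendsto 0
        rw [mul_zero] at h5
        exact h5.mono_left nhdsWithin_le_nhds
      · filter_upwards [self_mem_nhdsWithin] with y hy
        exact mul_ne_zero h2 hy
    exact h3.eventually hi
  obtain ⟨O, h0O, hO, hOs⟩ := mem_nhdsWithin.1 h1
  have h3 : nbad D R0 \ {0} = nbad D R0 \ O := by
    ext y
    constructor
    · rintro ⟨h4, h5⟩
      exact ⟨h4, fun h6 => hOs ⟨h6, h5⟩ h4.2⟩
    · rintro ⟨h4, h5⟩
      refine ⟨h4, ?_⟩
      rintro rfl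
      exact h5 hO
  rw [h3]
  exact (isCompact_nbad D h0 hR).diff h0O

theorem countable_nbad {R0 : ℝ} (h0 : 0 < R0) (hR : R0 < D.R)
    (hc : (D.bad ∩ Metric.ball 0 D.R).Countable) : (nbad D R0).Countable := by
  have h2 : (R0 : ℂ) ≠ 0 := by exact_mod_cast h0.ne'
  refine (hc.preimage (f := fun y : ℂ => (R0 : ℂ) * y) (mul_right_injective₀ h2)).mono ?_
  rintro y ⟨h3, h4⟩
  refine ⟨h4, ?_⟩
  rw [mem_ball_zero_iff, norm_mul, Complex.norm_real, Real.norm_of_nonneg h0.le]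
  exact (mul_le_of_le_one_right h0.le h3).trans_lt hR

end norm

section metric

variable {M : Type} [MetricSpace M] {A : Atl (2 * n) M} {σ : HSymp A} (F : LFib A σ)

/-- a local modulus for the generic transversal pairs gives the uniform modulus for all pairs -/
theorem unif_of2 [CompactSpace M] (hn : 0 < n)
    (h : ∀ x₀ : M, ∀ ε : ℝ, 0 < ε → ∃ i, ∃ W ∈ 𝓝 x₀, W ⊆ (A.e i).source ∧
      ∀ z ∈ W ∩ F.Om, ∀ z' ∈ W ∩ F.Om, A.e i z' - A.e i z ∈ gen2 F i (A.e i z) →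
        ∀ q ∈ F.Tf z, ∃ q' ∈ F.Tf z', dist q q' < ε) :
    ∀ ε : ℝ, 0 < ε → ∃ η : ℝ, 0 < η ∧ ∀ z ∈ F.Om, ∀ z' ∈ F.Om, dist z z' < η →
      ∀ q ∈ F.Tf z, ∃ q' ∈ F.Tf z', dist q q' < ε := by
  intro ε hε
  choose i W hW hWs hWm using fun x₀ => h x₀ (ε / 2) (half_pos hε)
  obtain ⟨η, hη, hL⟩ := lebesgue_number_lemma_of_metric (s := (univ : Set M)) isCompact_univ
    (c := fun x₀ => interior (W x₀)) (fun x₀ => isOpen_interior)
    (fun x _ => mem_iUnion.2 ⟨x, mem_interior_iff_mem_nhds.2 (hW x)⟩)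
  refine ⟨η, hη, fun z hz z' hz' hd q hq => ?_⟩
  obtain ⟨x₀, hx₀⟩ := hL z (mem_univ z)
  have hzW : z ∈ interior (W x₀) := hx₀ (Metric.mem_ball_self hη)
  have hzW' : z' ∈ interior (W x₀) := hx₀ (by rw [Metric.mem_ball, dist_comm]; exact hd)
  obtain ⟨z'', hz'', h1, h2, h3⟩ := exists_gen2 F hn (hWs x₀ (interior_subset hzW)) hz
    (hWs x₀ (interior_subset hzW'))
    (inter_mem (mem_interior_iff_mem_nhds.1 hzW') (exists_near F hz' (half_pos hε)))
  obtain ⟨q1, hq1, hd1⟩ := hWm x₀ z ⟨interior_subset hzW, hz⟩ z'' ⟨hz''.1, h2⟩ h3 q hq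
  obtain ⟨q', hq', hd'⟩ := hz''.2 q1 hq1
  refine ⟨q', hq', ?_⟩
  have := dist_triangle q q1 q'
  linarith

/-- the partition data of helper166, from a local modulus on the generic transversal pairs -/
def pd2 [CompactSpace M] (hn : 0 < n)
    (h : ∀ x₀ : M, ∀ ε : ℝ, 0 < ε → ∃ i, ∃ W ∈ 𝓝 x₀, W ⊆ (A.e i).source ∧
      ∀ z ∈ W ∩ F.Om, ∀ z' ∈ W ∩ F.Om, A.e i z' - A.e i z ∈ gen2 F i (A.e i z) →
        ∀ q ∈ F.Tf z, ∃ q' ∈ F.Tf z', dist q q' < ε) : Con_166.PD M where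
  Om := F.Om
  dense := F.dns
  T := F.Tf
  mem _ hz := mem F hz
  sub _ hz := sub F hz
  cpt _ hz := isCompact F hz
  conn _ hz := (isConnected F hz).isPreconnected
  eq _ hz _ hy := eq F hz hy
  unif := unif_of2 F hn h

end metric

end

end Crest.Agent.R281.Ln_254
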