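import Crest.Agent.R281.Con9_166
import Crest.Agent.R281.Ln1_254
import Crest.Agent.R281.Fub4_163

/-!
# R281 (S0424), DIV 6, S6-CONT part 10 (helper166): the Laplacian of the potential on a disc

`lap_pot` : `F1` the disc family of a line of the fibration `o.F`; for the function
`pot c = (weight of h + u)(line c) / (4 a)` one has `lap pot = push (det K_V)`.
-/

set_option autoImplicit false
set_option linter.unusedSectionVars false

open Set Filter Topology Complex Function MeasureTheory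
open scoped ContDiff Matrix ComplexConjugate ComplexOrder ENNReal

namespace Crest.Agent.R281.Con_166

open Crest.Agent.R275.Geo Crest.Agent.R275.Core144 Crest.Agent.R275.EDR890
open Crest.Agent.R275.GC293 Crest.Agent.R275.Prod363
open Crest.Agent.R273.Defs_333 Crest.Agent.R273.Kah_333 Crest.Agent.R273.Hess_333
open Crest.Agent.R273.HessB_333 Crest.Agent.R273.HM_333
open Crest.Agent.R273.Map_835 Crest.Agent.R273.KahI_645 Crest.Agent.R273.Vol_333
open Crest.Agent.R273.Vm_333 Crest.Agent.R281.Defs_273 Crest.Agent.R281.S6D_664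
open Crest.Agent.R281.S6V_664 Crest.Agent.R281.Fub_192 Crest.Agent.R281.D6_986
open Crest.Agent.R281.Fib2_425 (push)
open Crest.Agent.R281.Fub4_163 (ofC ofC_apply)
open Crest.Agent.R281.Jen_563 (lap)

noncomputable section

/-! ### Hermitian forms -/

section Quad

variable {N p : ℕ}

/-- `∑ H_ab v_a conj v_b` -/
def qf (H : Matrix (Fin N) (Fin N) ℂ) (v : Cn N) : ℂ := ∑ a, ∑ b, H a b * v a * conj (v b)

theorem hq_eq_qf (u : Cn N → ℝ) (z v : Cn N) : hq u z v = qf (hess u z) v := rfl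

theorem qf_smul (c : ℂ) (H : Matrix (Fin N) (Fin N) ℂ) (v : Cn N) : qf (c • H) v = c * qf H v := by
  simp only [qf, Matrix.smul_apply, smul_eq_mul, Finset.mul_sum, mul_assoc]

theorem qf_eq_dot (H : Matrix (Fin N) (Fin N) ℂ) (v : Cn N) :
    qf H v = (fun a => v a) ⬝ᵥ (H *ᵥ fun b => conj (v b)) := by
  simp only [qf, dotProduct, Matrix.mulVec, Finset.mul_sum]
  refine Finset.sum_congr rfl fun a _ => Finset.sum_congr rfl fun b _ => ?_
  ring

theorem qf_pull (H : Matrix (Fin N) (Fin N) ℂ) (L : Cn p →L[ℂ] Cn N) (ξ : Cn p) :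
    qf ((mt L)ᵀ * H * (mt L).map conj) ξ = qf H (L ξ) := by
  have h1 : (fun a => (L ξ) a) = mt L *ᵥ (fun a => ξ a) := by
    funext a
    rw [mt_apply]
    rfl
  have h2 : (fun b => conj ((L ξ) b)) = (mt L).map conj *ᵥ (fun b => conj (ξ b)) := by
    funext b
    rw [mt_apply, map_sum]
    simp only [Matrix.mulVec, dotProduct, Matrix.map_apply, map_mul]
  rw [qf_eq_dot, qf_eq_dot, h1, h2, Matrix.mulVec_mulVec, Matrix.mul_assoc,
    ← Matrix.mulVec_mulVec, Matrix.dotProduct_mulVec, Matrix.vecMul_transpose]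

theorem qf_single (c : ℂ) (l : Fin N) (v : Cn N) :
    qf (c • Matrix.single l l (1 : ℂ)) v = c * (v l * conj (v l)) := by
  rw [qf_smul]
  congr 1
  unfold qf
  rw [Finset.sum_eq_single l, Finset.sum_eq_single l]
  · simp
  · intro b _ hb
    simp [Ne.symm hb]
  · intro h
    exact absurd (Finset.mem_univ _) h
  · intro a _ ha
    refine Finset.sum_eq_zero fun b _ => ?_
    simp [Ne.symm ha]
  · intro h
    exact absurd (Finset.mem_univ _) h

end Quad

/-! ### the potential -/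

section Pot

variable {n : ℕ} {M : Type} [TopologicalSpace M] [T2Space M] {A : Atl (2 * n) M} {σ : HSymp A}
  {L : LB A} {K : Kah A} {o : OmOut σ L} {h : HM L}

/-- weight of `h` + `u`, normalised -/
def gp (up : UPre K o h) (i : A.ι) (w : Cn (2 * n)) : ℝ :=
  (4 * up.a)⁻¹ * (h.wt i w + up.u ((A.e i).symm w))

theorem gp_smooth (up : UPre K o h) (i : A.ι) {w : Cn (2 * n)} (hw : w ∈ (A.e i).target)
    (hO : (A.e i).symm w ∈ o.F.Om) : ContDiffAt ℝ ∞ (gp up i) w :=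
  contDiffAt_const.mul (((wt_smooth h i).contDiffAt ((A.e i).open_target.mem_nhds hw)).add
    (up.sm i w hw hO))

theorem hess_gp (up : UPre K o h) (i : A.ι) {w : Cn (2 * n)} (hw : w ∈ (A.e i).target)
    (hO : (A.e i).symm w ∈ o.F.Om) : hess (gp up i) w =
      (((4 * up.a)⁻¹ : ℝ) : ℂ) • (cur h i ((A.e i).symm w) + hsf A up.u i ((A.e i).symm w)) := by
  have h1 : ContDiffAt ℝ ∞ (h.wt i) w :=
    (wt_smooth h i).contDiffAt ((A.e i).open_target.mem_nhds hw)
  have h2 := up.sm i w hw hO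
  have h3 : hess (gp up i) w = (((4 * up.a)⁻¹ : ℝ) : ℂ) •
      hess (fun w => h.wt i w + up.u ((A.e i).symm w)) w := hess_const_mul _ (h1.add h2)
  rw [h3, hess_add h1 h2]
  unfold cur hsf
  rw [(A.e i).right_inv hw]

/-- the potential on the disc of a line -/
def potD (up : UPre K o h) (D : LineD A o.F.Tf n n) (c : ℂ) : ℝ :=
  gp up D.i (D.z + (c - LineD.kp) • LV D)

theorem line_eq (D : LineD A o.F.Tf n n) (c : ℂ) :
    D.z + (c - LineD.kp) • LV D = D.z + D.cp (ofC c) • D.v := by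
  unfold LineD.cp LV
  rw [smul_smul, mul_comm (c - LineD.kp), ofC_apply]

/-- **the Laplacian of the potential is the density of the pushed forward volume** -/
theorem lap_pot (up : UPre K o h) (D : LineD A o.F.Tf n n) (hDO : D.Om ⊆ o.F.Om)
    (F1 : Fam A n 1 D.UU) (h1 : ∀ w, F1.i w ∈ o.F.Tf (D.pt (D.cp (F1.y w))))
    (h2 : ∀ u ∈ D.UU, ∀ x ∈ o.F.Tf (D.pt (D.cp u)), ∃ w, F1.y w = u ∧ F1.i w = x)
    (hL : Leafy o.F F1) {c : ℂ} (hc : ofC c ∈ D.UU) :
    ContDiffAt ℝ ∞ (potD up D) c ∧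
    (push F1.P (fun k v => ((F1.kah K).g k v).det) (ofC c)).re = lap (potD up D) c := by
  have hcR : ‖D.cp (ofC c)‖ < D.R := D.cp_lt hc.1
  have hOm : D.pt (D.cp (ofC c)) ∈ o.F.Om := hDO (D.not_bad hcR.le hc.2).1
  obtain ⟨v0, hy0, hv0⟩ := h2 _ hc _ (Hs_254.mem o.F hOm)
  obtain ⟨k, hk⟩ := F1.B.cover v0
  obtain ⟨ξ, hξ1, hξ2⟩ := exists_xi D F1 h1 hc hy0 hv0 hk
  have hi0 : F1.i v0 ∈ (A.e D.i).source := by
    rw [hv0]
    exact D.pt_mem hcR.le
  have hid := up.id D.UU D.isOpen_UU F1 hL k v0 hk D.i hi0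
  have hwt : D.z + D.cp (ofC c) • D.v ∈ (A.e D.i).target := D.mem _ hcR.le
  have hsm := gp_smooth up D.i hwt hOm
  have hhs := hess_gp up D.i hwt hOm
  have hpt : (A.e D.i).symm (D.z + D.cp (ofC c) • D.v) = F1.i v0 := hv0.symm
  rw [hpt] at hhs
  have e1 : lap (potD up D) c = (4 * hq (gp up D.i) (D.z + (c - LineD.kp) • LV D) (LV D)).re :=
    lap_line (g := gp up D.i) (by rw [line_eq]; exact hsm)
  refine ⟨?_, ?_⟩
  · have h3 : ContDiffAt ℝ ∞ (gp up D.i) (D.z + (c - LineD.kp) • LV D) := by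
      rw [line_eq]
      exact hsm
    have h4 : ContDiffAt ℝ ∞ (fun c : ℂ => D.z + (c - LineD.kp) • LV D) c := by fun_prop
    exact h3.comp c h4
  · rw [e1, line_eq, hq_eq_qf, hhs, qf_smul, ← hξ1]
    have h5 := qf_pull (cur h D.i (F1.i v0) + hsf A up.u D.i (F1.i v0))
      (fderiv ℂ (rd F1.B A F1.i k D.i) (F1.B.e k v0)) ξ
    have h6 : mt (fderiv ℂ (rd F1.B A F1.i k D.i) (F1.B.e k v0)) = Jp F1.B A F1.i k D.i v0 :=
      (Jp_eq k D.i v0).symm
    rw [← h5, h6, hid, qf_single]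
    have h7 : ξ (Fin.last n) = 1 := by
      have h9 : laL n 1 ξ 0 = ξ (Fin.natAdd n 0) := laL_apply ξ 0
      rw [h9] at hξ2
      exact hξ2
    rw [h7, hy0, map_one, mul_one, mul_one]
    have h8 : (4 : ℂ) * ((((4 * up.a)⁻¹ : ℝ) : ℂ) * ((up.a : ℂ) *
        push F1.P (fun k v => ((F1.kah K).g k v).det) (ofC c))) =
        push F1.P (fun k v => ((F1.kah K).g k v).det) (ofC c) := by
      have : (up.a : ℂ) ≠ 0 := by exact_mod_cast up.a_pos.ne'
      push_cast
      field_simp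
    rw [h8]

/-- the family of a line is leafy -/
theorem leafy_line (D : LineD A o.F.Tf n n) (hDO : D.Om ⊆ o.F.Om)
    (F1 : Fam A n 1 D.UU) (h1 : ∀ w, F1.i w ∈ o.F.Tf (D.pt (D.cp (F1.y w))))
    (h2 : ∀ u ∈ D.UU, ∀ x ∈ o.F.Tf (D.pt (D.cp u)), ∃ w, F1.y w = u ∧ F1.i w = x) :
    Leafy o.F F1 := by
  intro w
  have hu := F1.mem w
  have hOm : D.pt (D.cp (F1.y w)) ∈ o.F.Om := hDO (D.not_bad (D.cp_lt hu.1).le hu.2).1
  refine ⟨Hs_254.sub o.F hOm (h1 w), ?_⟩
  rw [Hs_254.eq o.F hOm (h1 w)]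
  ext x
  constructor
  · intro hx
    obtain ⟨w', hw', hx'⟩ := h2 _ hu x hx
    exact ⟨w', hw', hx'⟩
  · rintro ⟨w', hw', rfl⟩
    have h3 := h1 w'
    have h4 : F1.y w' = F1.y w := hw'
    rwa [h4] at h3

end Pot

end

end Crest.Agent.R281.Con_166
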