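import Crest.Agent.R281.Con3_166

/-!
# R281 (S0424), DIV 6, S6-CONT part 7 (helper166): the weight, made smooth at the centre

`exists_weight'` : as `exists_weight`, but smooth at the centre and globally defined; subharmonic
for `|y| > r₁`, with compact support in `{|y| < 1} \ E`; the centre may be an isolated point of `E`.
-/

set_option autoImplicit false

open Set Filter Topology Complex
open scoped ContDiff

namespace Crest.Agent.R281.Con_166

open Crest.Agent.R275.Geo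
open Crest.Agent.R273 (Levi_145.lev Levi_145.lev_congr Levi_145.lev_const)

noncomputable section

/-- cut-off : `0` for `|y| ≤ a`, `1` for `b ≤ |y|` -/
theorem exists_cut {a b : ℝ} (ha : 0 < a) (hab : a < b) :
    ∃ η : Cn 1 → ℝ, ContDiff ℝ ∞ η ∧ (∀ y, 0 ≤ η y ∧ η y ≤ 1) ∧
      (∀ y : Cn 1, ‖y 0‖ ≤ a → η y = 0) ∧ (∀ y : Cn 1, b ≤ ‖y 0‖ → η y = 1) := by
  refine ⟨fun y => Real.smoothTransition ((‖y 0‖ ^ 2 - a ^ 2) / (b ^ 2 - a ^ 2)), ?_, ?_, ?_, ?_⟩
  · have h1 : ContDiff ℝ ∞ fun y : Cn 1 => ‖y 0‖ ^ 2 := by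
      have h2 : ContDiff ℝ ∞ fun y : Cn 1 => y 0 :=
        ((EuclideanSpace.proj (0 : Fin 1) : Cn 1 →L[ℂ] ℂ).restrictScalars ℝ).contDiff
      exact h2.norm_sq ℝ
    exact Real.smoothTransition.contDiff.comp ((h1.sub contDiff_const).div_const _)
  · intro y
    exact ⟨Real.smoothTransition.nonneg _, Real.smoothTransition.le_one _⟩
  · intro y hy
    refine Real.smoothTransition.zero_of_nonpos ?_
    have h1 : ‖y 0‖ ^ 2 ≤ a ^ 2 := pow_le_pow_left₀ (norm_nonneg _) hy 2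
    have h2 : a ^ 2 < b ^ 2 := pow_lt_pow_left₀ hab ha.le two_ne_zero
    exact div_nonpos_of_nonpos_of_nonneg (by linarith) (by linarith)
  · intro y hy
    refine Real.smoothTransition.one_of_one_le ?_
    have h1 : b ^ 2 ≤ ‖y 0‖ ^ 2 := pow_le_pow_left₀ (ha.trans hab).le hy 2
    have h2 : a ^ 2 < b ^ 2 := pow_lt_pow_left₀ hab ha.le two_ne_zero
    rw [one_le_div (by linarith)]
    linarith

theorem exists_weight' {E : Set ℂ} (hE : IsCompact (E \ {0})) (hc : E.Countable)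
    (hE1 : ∀ a ∈ E, ‖a‖ ≤ 1) {ζ : ℂ} (hζ : ζ ∉ E)
    (hζ1 : ‖ζ‖ < 1) {r : ℝ} (hr : 0 < r) (hrζ : r < ‖ζ‖) {τ : ℝ} (hτ : 0 < τ) :
    ∃ W : Cn 1 → ℝ,
      (∀ y : Cn 1, y 0 ∉ E → ContDiffAt ℝ ∞ W y) ∧
      (∀ y : Cn 1, y 0 ∉ E → r < ‖y 0‖ → ∀ v, 0 ≤ Levi_145.lev W y v) ∧
      (∀ y, 0 ≤ W y) ∧
      (∀ y : Cn 1, y 0 ∉ E → ‖y 0‖ < 1 → W y ≤ Real.log (1 / ‖y 0‖) / Real.log (1 / ‖ζ‖)) ∧
      (∃ K : Set ℂ, IsCompact K ∧ (∀ y ∈ K, ‖y‖ < 1 ∧ y ∉ E) ∧
        ∀ y : Cn 1, y 0 ∉ E → y 0 ∉ K → W y = 0) ∧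
      (∀ y : Cn 1, y 0 = ζ → Hs 1 - τ ≤ W y) := by
  have hζ0 : ζ ≠ 0 := norm_pos_iff.1 (hr.trans hrζ)
  have hr1 : r < 1 := hrζ.trans hζ1
  obtain ⟨W, w1, w2, w3, w4, ⟨O, hO, hEO, w5⟩, ⟨ρ, hρ, w6⟩, w7⟩ := exists_weight (E := E \ {0}) hE
    (hc.mono sdiff_subset) (fun a ha => hE1 a ha.1) (fun h => h.2 rfl) (ζ := ζ)
    (fun h => hζ h.1) hζ0 hζ1 hτ
  obtain ⟨η, e1, e2, e3, e4⟩ := exists_cut (a := r / 2) (b := r) (by positivity) (by linarith)
  have hr2 : 0 < r / 2 := by positivity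
  have hlog : 0 < Real.log (1 / ‖ζ‖) :=
    Real.log_pos (by rw [lt_div_iff₀ (norm_pos_iff.2 hζ0)]; linarith)
  have hW0 : ∀ y : Cn 1, ‖y 0‖ < r / 2 → (fun y : Cn 1 => if ‖y 0‖ < 1 then η y * W y else 0) =ᶠ[𝓝 y]
      fun _ => 0 := by
    intro y hy
    have : {y : Cn 1 | ‖y 0‖ < r / 2} ∈ 𝓝 y :=
      (isOpen_lt (by fun_prop) continuous_const).mem_nhds hy
    filter_upwards [this] with y' hy'
    have h1 : ‖y' 0‖ < r / 2 := hy'
    rw [if_pos (by linarith), e3 y' h1.le, zero_mul]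
  set ρ' := max ρ (r / 2) with hρ'
  have hρ1 : ρ' < 1 := max_lt hρ (by linarith)
  -- near the outer boundary
  have hout : ∀ y : Cn 1, y 0 ∉ E → ρ' < ‖y 0‖ →
      (fun y : Cn 1 => if ‖y 0‖ < 1 then η y * W y else 0) y = 0 := by
    intro y hy h1
    by_cases h2 : ‖y 0‖ < 1
    · simp only [if_pos h2]
      have h3 : ρ ≤ ‖y 0‖ := (le_max_left _ _).trans h1.le
      have h4 : y 0 ≠ 0 := by
        intro h
        rw [h, norm_zero] at h1
        linarith [le_max_right ρ (r / 2)]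
      rw [w6 y h3 (fun h => hy h.1) h4 h2, mul_zero]
    · simp only [if_neg h2]
  have hEcl : IsClosed (E \ {0}) := hE.isClosed
  have hopen : ∀ y : Cn 1, y 0 ∉ E → y 0 ≠ 0 → ∀ᶠ y' : Cn 1 in 𝓝 y, y' 0 ∉ E ∧ y' 0 ≠ 0 := by
    intro y hy h0
    have h1 : ∀ᶠ y' : Cn 1 in 𝓝 y, y' 0 ∉ E \ {0} :=
      (hEcl.isOpen_compl.preimage (by fun_prop : Continuous fun y : Cn 1 => y 0)).mem_nhds
        (fun h => hy h.1)
    have h2 : ∀ᶠ y' : Cn 1 in 𝓝 y, y' 0 ≠ 0 :=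
      (isOpen_ne.preimage (by fun_prop : Continuous fun y : Cn 1 => y 0)).mem_nhds h0
    filter_upwards [h1, h2] with y' h1 h2
    exact ⟨fun h => h1 ⟨h, h2⟩, h2⟩
  have houtev : ∀ y : Cn 1, y 0 ∉ E → ρ' < ‖y 0‖ →
      (fun y : Cn 1 => if ‖y 0‖ < 1 then η y * W y else 0) =ᶠ[𝓝 y] fun _ => 0 := by
    intro y hy h1
    have h4 : y 0 ≠ 0 := by
      intro h
      rw [h, norm_zero] at h1
      linarith [le_max_right ρ (r / 2)]
    have h5 : {y : Cn 1 | ρ' < ‖y 0‖} ∈ 𝓝 y :=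
      (isOpen_lt continuous_const (by fun_prop)).mem_nhds h1
    filter_upwards [hopen y hy h4, h5] with y' h6 h7
    exact hout y' h6.1 h7
  -- inside
  have hinev : ∀ y : Cn 1, ‖y 0‖ < 1 →
      (fun y : Cn 1 => if ‖y 0‖ < 1 then η y * W y else 0) =ᶠ[𝓝 y] fun y => η y * W y := by
    intro y hy
    have h5 : {y : Cn 1 | ‖y 0‖ < 1} ∈ 𝓝 y :=
      (isOpen_lt (by fun_prop) continuous_const).mem_nhds hy
    filter_upwards [h5] with y' h6
    exact if_pos h6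
  have hin1 : ∀ y : Cn 1, r < ‖y 0‖ → ‖y 0‖ < 1 →
      (fun y : Cn 1 => if ‖y 0‖ < 1 then η y * W y else 0) =ᶠ[𝓝 y] W := by
    intro y hy hy1
    have h5 : {y : Cn 1 | r < ‖y 0‖} ∈ 𝓝 y :=
      (isOpen_lt continuous_const (by fun_prop)).mem_nhds hy
    filter_upwards [h5, hinev y hy1] with y' h6 h7
    rw [h7, e4 y' (le_of_lt h6), one_mul]
  refine ⟨fun y => if ‖y 0‖ < 1 then η y * W y else 0, ?_, ?_, ?_, ?_, ?_, ?_⟩
  · intro y hy
    rcases lt_or_ge (‖y 0‖) (r / 2) with h1 | h1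
    · exact contDiffAt_const.congr_of_eventuallyEq (hW0 y h1)
    rcases lt_or_ge (‖y 0‖) 1 with h2 | h2
    · have h0 : y 0 ≠ 0 := by
        intro h
        rw [h, norm_zero] at h1
        linarith
      exact ((e1.contDiffAt).mul (w1 y h0 fun h => hy h.1)).congr_of_eventuallyEq (hinev y h2)
    · exact contDiffAt_const.congr_of_eventuallyEq (houtev y hy (hρ1.trans_le h2))
  · intro y hy hry v
    rcases lt_or_ge (‖y 0‖) 1 with h2 | h2
    · have h0 : y 0 ≠ 0 := by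
        intro h
        rw [h, norm_zero] at hry
        linarith
      rw [Levi_145.lev_congr (hin1 y hry h2)]
      exact w2 y h0 (fun h => hy h.1) v
    · rw [Levi_145.lev_congr (houtev y hy (hρ1.trans_le h2)), Levi_145.lev_const]
  · intro y
    show 0 ≤ if ‖y 0‖ < 1 then η y * W y else 0
    split_ifs
    · exact mul_nonneg (e2 y).1 (w3 y)
    · exact le_rfl
  · intro y hy h1
    show (if ‖y 0‖ < 1 then η y * W y else 0) ≤ _
    rw [if_pos h1]
    by_cases h0 : y 0 = 0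
    · have h3 : ‖y 0‖ ≤ r / 2 := by
        rw [h0, norm_zero]
        exact hr2.le
      rw [e3 y h3, zero_mul, h0, norm_zero, div_zero, Real.log_zero, zero_div]
    · have h4 := w4 y h0 (fun h => hy h.1) h1
      have h5 : η y * W y ≤ 1 * W y := mul_le_mul_of_nonneg_right (e2 y).2 (w3 y)
      linarith
  · refine ⟨{y | r / 2 ≤ ‖y‖ ∧ ‖y‖ ≤ ρ'} \ O, ?_, ?_, ?_⟩
    · refine IsCompact.diff ?_ hO
      refine (isCompact_closedBall (0 : ℂ) ρ').of_isClosed_subset ?_ ?_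
      · exact (isClosed_le continuous_const continuous_norm).inter
          (isClosed_le continuous_norm continuous_const)
      · intro y hy
        rw [mem_closedBall_zero_iff]
        exact hy.2
    · rintro y ⟨⟨h1, h2⟩, h3⟩
      refine ⟨h2.trans_lt hρ1, fun h => ?_⟩
      have h0 : y ≠ 0 := by
        intro h
        rw [h, norm_zero] at h1
        linarith
      exact h3 (hEO ⟨h, h0⟩)
    · intro y hy hK
      show (if ‖y 0‖ < 1 then η y * W y else 0) = 0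
      rcases lt_or_ge (‖y 0‖) (r / 2) with h1 | h1
      · rw [if_pos (by linarith), e3 y h1.le, zero_mul]
      rcases lt_or_ge ρ' (‖y 0‖) with h2 | h2
      · exact hout y hy h2
      have h3 : y 0 ∈ O := by
        by_contra h
        exact hK ⟨⟨h1, h2⟩, h⟩
      have h0 : y 0 ≠ 0 := by
        intro h
        rw [h, norm_zero] at h1
        linarith
      rw [if_pos (h2.trans_lt hρ1), w5 y h3 (fun h => hy h.1) h0 (h2.trans_lt hρ1), mul_zero]
  · intro y hy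
    show _ ≤ if ‖y 0‖ < 1 then η y * W y else 0
    rw [if_pos (by rw [hy]; exact hζ1), e4 y (by rw [hy]; exact hrζ.le), one_mul]
    exact w7 y hy

end

end Crest.Agent.R281.Con_166
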