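import Crest.Agent.R273.FIa0_597
import Crest.Agent.R273.FS_333

/-!
# Row 281, S6-MONO (M4), part 7 (helper757): volumes of ellipsoids, first order estimate

* `bv n` : volume of the unit ball of `ℂⁿ` (real coordinates `RI n → ℝ`), `bv_pos`
* `vol_ell` : `vol {y | ‖T (cc y - z₀)‖² ≤ t} = t^n bv n / ‖det T‖²`
* `exists_T` : for `C : Matrix (Fin n) (Fin N) ℂ` with `det (C Cᴴ) ≠ 0` there is `T` with
  `‖T v‖² = ∑_k |∑_a C a k v_a|²`, `‖det T‖² = det (C Cᴴ)`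
* `first_order` : `∑ |Φ_k z|² ≤ (1+δ) ‖T (z - z₀)‖²` near `z₀` if `Φ z₀ = 0`, `C = DΦ(z₀)`
-/

set_option autoImplicit false
set_option linter.unusedSectionVars false

open Set Filter Topology Complex MeasureTheory
open scoped ContDiff Matrix ComplexConjugate ComplexOrder ENNReal

namespace Crest.Agent.R281.Mv_757

open Crest.Agent.R275 Crest.Agent.R275.Geo Crest.Agent.R275.Core144
open Crest.Agent.R275.Pai323 Crest.Agent.R275.C1d194
open Crest.Agent.R273.FIa0_597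

noncomputable section

variable {n N : ℕ}

/-- unit ball in real coordinates -/
def ub (n : ℕ) : Set (RI n → ℝ) := {y | ‖(cc y : Cn n)‖ ^ 2 ≤ 1}

/-- its volume -/
def bv (n : ℕ) : ℝ := (volume (ub n)).toReal

theorem isClosed_ub : IsClosed (ub n) :=
  isClosed_le (continuous_cc.norm.pow 2) continuous_const

theorem isCompact_ub : IsCompact (ub n) := by
  have h1 : ub n = (fun y => (cc y : Cn n)) ⁻¹' Metric.closedBall 0 1 := by
    ext y
    simp only [ub, mem_ofPred_eq, mem_preimage, Metric.mem_closedBall, dist_zero_right]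
    constructor
    · intro h
      nlinarith [norm_nonneg (cc y : Cn n)]
    · intro h
      nlinarith [norm_nonneg (cc y : Cn n)]
  have h2 : ub n = rc '' Metric.closedBall (0 : Cn n) 1 := by
    rw [h1]
    ext y
    constructor
    · intro hy
      exact ⟨cc y, hy, rc_cc y⟩
    · rintro ⟨z, hz, rfl⟩
      show (cc (rc z) : Cn n) ∈ Metric.closedBall (0 : Cn n) 1
      rw [cc_rc]
      exact hz
  rw [h2]
  refine (isCompact_closedBall _ _).image ?_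
  rw [rc_eq]
  exact (rcL n).continuous

theorem bv_pos : 0 < bv n := by
  refine ENNReal.toReal_pos ?_ isCompact_ub.measure_lt_top.ne
  have h1 : IsOpen {y : RI n → ℝ | ‖(cc y : Cn n)‖ ^ 2 < 1} :=
    isOpen_lt (continuous_cc.norm.pow 2) continuous_const
  have h2 : (0 : RI n → ℝ) ∈ {y : RI n → ℝ | ‖(cc y : Cn n)‖ ^ 2 < 1} := by
    have : (cc (0 : RI n → ℝ) : Cn n) = 0 := by
      ext a
      simp
    simp [this]
  have h3 : 0 < volume {y : RI n → ℝ | ‖(cc y : Cn n)‖ ^ 2 < 1} := h1.measure_pos volume ⟨0, h2⟩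
  exact (h3.trans_le (measure_mono fun y (hy : ‖(cc y : Cn n)‖ ^ 2 < 1) =>
    (show ‖(cc y : Cn n)‖ ^ 2 ≤ 1 from hy.le))).ne'

/-- a complex linear map in real coordinates -/
def rT (T : Cn n →L[ℂ] Cn n) : (RI n → ℝ) →ₗ[ℝ] (RI n → ℝ) :=
  (((rcE n : Cn n →ₗ[ℝ] (RI n → ℝ)) ∘ₗ ((T : Cn n →ₗ[ℂ] Cn n).restrictScalars ℝ)) ∘ₗ
      ((rcE n).symm : (RI n → ℝ) →ₗ[ℝ] Cn n))

theorem rT_apply (T : Cn n →L[ℂ] Cn n) (y : RI n → ℝ) : rT T y = rc (T (cc y)) :=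
  rcL_apply (T (cc y))

theorem vol_ell0 (T : Cn n →L[ℂ] Cn n) (hT : LinearMap.det (T : Cn n →ₗ[ℂ] Cn n) ≠ 0)
    (z0 : Cn n) :
    volume {y : RI n → ℝ | ‖T (cc y - z0)‖ ^ 2 ≤ 1} =
      ENNReal.ofReal (‖LinearMap.det (T : Cn n →ₗ[ℂ] Cn n)‖ ^ 2)⁻¹ * volume (ub n) := by
  have h1 : LinearMap.det (rT T) = ‖LinearMap.det (T : Cn n →ₗ[ℂ] Cn n)‖ ^ 2 := det_real T
  have hpos : 0 < ‖LinearMap.det (T : Cn n →ₗ[ℂ] Cn n)‖ ^ 2 := by positivity
  have h2 : LinearMap.det (rT T) ≠ 0 := by rw [h1]; exact hpos.ne'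
  have h3 := Measure.addHaar_preimage_linearMap volume h2 (ub n)
  rw [h1, abs_of_pos (inv_pos.2 hpos)] at h3
  have h4 : {y : RI n → ℝ | ‖T (cc y - z0)‖ ^ 2 ≤ 1} =
      (fun y => y + (-rc z0)) ⁻¹' ((rT T) ⁻¹' ub n) := by
    ext y
    simp only [mem_ofPred_eq, mem_preimage, ub, rT_apply, cc_rc]
    have : (cc (y + -rc z0) : Cn n) = cc y - z0 := by
      ext a
      simp only [cc_apply, Pi.add_apply, Pi.neg_apply, PiLp.sub_apply]
      have h5 : z0 a = ((rc z0 (a, 0) : ℝ) : ℂ) + ((rc z0 (a, 1) : ℝ) : ℂ) * I := by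
        conv_lhs => rw [← cc_rc z0]
        rfl
      rw [h5]
      push_cast
      ring
    rw [this]
  rw [h4, measure_preimage_add_right, h3]

/-- **volume of an ellipsoid** -/
theorem vol_ell (T : Cn n →L[ℂ] Cn n) (hT : LinearMap.det (T : Cn n →ₗ[ℂ] Cn n) ≠ 0)
    (z0 : Cn n) {t : ℝ} (ht : 0 < t) :
    (volume {y : RI n → ℝ | ‖T (cc y - z0)‖ ^ 2 ≤ t}).toReal =
      t ^ n * bv n / ‖LinearMap.det (T : Cn n →ₗ[ℂ] Cn n)‖ ^ 2 := by
  have hs : 0 < Real.sqrt t := Real.sqrt_pos.2 ht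
  set c : ℂ := ((Real.sqrt t : ℝ) : ℂ)⁻¹ with hc
  have hc0 : c ≠ 0 := inv_ne_zero (by exact_mod_cast hs.ne')
  have hcn : ‖c‖ ^ 2 = t⁻¹ := by
    rw [hc, norm_inv, Complex.norm_real, Real.norm_eq_abs, abs_of_pos hs, inv_pow,
      Real.sq_sqrt ht.le]
  have hdet : LinearMap.det ((c • T : Cn n →L[ℂ] Cn n) : Cn n →ₗ[ℂ] Cn n) =
      c ^ n * LinearMap.det (T : Cn n →ₗ[ℂ] Cn n) := by
    have h1 : ((c • T : Cn n →L[ℂ] Cn n) : Cn n →ₗ[ℂ] Cn n) = c • (T : Cn n →ₗ[ℂ] Cn n) := rfl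
    rw [h1, LinearMap.det_smul]
    simp
  have h2 := vol_ell0 (c • T) (by rw [hdet]; exact mul_ne_zero (pow_ne_zero _ hc0) hT) z0
  have h3 : {y : RI n → ℝ | ‖(c • T) (cc y - z0)‖ ^ 2 ≤ 1} =
      {y : RI n → ℝ | ‖T (cc y - z0)‖ ^ 2 ≤ t} := by
    ext y
    simp only [mem_ofPred_eq, smul_apply, norm_smul, mul_pow, hcn]
    rw [inv_mul_le_iff₀ ht, mul_one]
  rw [h3, hdet, norm_mul, norm_pow, mul_pow, ← pow_mul, mul_comm n 2, pow_mul, hcn] at h2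
  rw [h2, ENNReal.toReal_mul, ENNReal.toReal_ofReal (by positivity)]
  unfold bv
  rw [mul_inv, inv_pow, inv_inv]
  ring

/-! ### factorisation -/

/-- the quadratic form of `C` -/
def qC (C : Matrix (Fin n) (Fin N) ℂ) (v : Cn n) : ℝ := ∑ k, ‖∑ a, C a k * v a‖ ^ 2

theorem qC_eq (C : Matrix (Fin n) (Fin N) ℂ) (v : Cn n) :
    ((qC C v : ℝ) : ℂ) = ∑ a, ∑ b, v a * conj (v b) * (C * Cᴴ) a b := by
  unfold qC
  have h1 : ∀ k, ((‖∑ a, C a k * v a‖ ^ 2 : ℝ) : ℂ) =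
      ∑ a, ∑ b, v a * conj (v b) * (C a k * conj (C b k)) := by
    intro k
    rw [← Complex.normSq_eq_norm_sq, ← Complex.mul_conj, map_sum, Finset.sum_mul_sum]
    refine Finset.sum_congr rfl fun a _ => Finset.sum_congr rfl fun b _ => ?_
    rw [map_mul]
    ring
  rw [Complex.ofReal_sum, Finset.sum_congr rfl fun k _ => h1 k, Finset.sum_comm]
  refine Finset.sum_congr rfl fun a _ => ?_
  rw [Finset.sum_comm]
  refine Finset.sum_congr rfl fun b _ => ?_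
  rw [Matrix.mul_apply, Finset.mul_sum]
  rfl

theorem exists_T (C : Matrix (Fin n) (Fin N) ℂ) (hC : (C * Cᴴ).det ≠ 0) :
    ∃ T : Cn n →L[ℂ] Cn n, (∀ v, ‖T v‖ ^ 2 = qC C v) ∧
      LinearMap.det (T : Cn n →ₗ[ℂ] Cn n) ≠ 0 ∧
      ‖LinearMap.det (T : Cn n →ₗ[ℂ] Cn n)‖ ^ 2 = (C * Cᴴ).det.re := by
  obtain ⟨B, hB⟩ := exists_sq (Matrix.posSemidef_self_mul_conjTranspose C)
  set D : Matrix (Fin n) (Fin n) ℂ := Bᴴ with hD
  have hDD : D * Dᴴ = C * Cᴴ := by rw [hB, hD, Matrix.conjTranspose_conjTranspose]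
  set T0 : Cn n →ₗ[ℂ] Cn n := Matrix.toEuclideanLin Dᵀ with hT0
  have hdet : LinearMap.det T0 = D.det := by
    rw [hT0, Matrix.toEuclideanLin_eq_toLin_orthonormal, LinearMap.det_toLin,
      Matrix.det_transpose]
  have hd2 : (C * Cᴴ).det = D.det * conj D.det := by
    rw [← hDD, Matrix.det_mul, Matrix.det_conjTranspose D]
    rfl
  have hD0 : D.det ≠ 0 := by
    intro h0
    rw [hd2, h0, zero_mul] at hC
    exact hC rfl
  refine ⟨LinearMap.toContinuousLinearMap T0, fun v => ?_, ?_, ?_⟩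
  · have h1 : ∀ k, (LinearMap.toContinuousLinearMap T0 v) k = ∑ a, D a k * v a := by
      intro k
      show (T0 v) k = _
      rw [hT0, Matrix.toLpLin_apply]
      simp only [Matrix.mulVec, dotProduct, Matrix.transpose_apply]
    have h2 : ‖LinearMap.toContinuousLinearMap T0 v‖ ^ 2 = qC D v := by
      rw [EuclideanSpace.norm_sq_eq]
      unfold qC
      exact Finset.sum_congr rfl fun k _ => by rw [h1 k]
    rw [h2]
    have h3 : ((qC D v : ℝ) : ℂ) = ((qC C v : ℝ) : ℂ) := by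
      rw [qC_eq, qC_eq, hDD]
    exact_mod_cast h3
  · rw [show ((LinearMap.toContinuousLinearMap T0 : Cn n →L[ℂ] Cn n) : Cn n →ₗ[ℂ] Cn n) = T0
      from rfl, hdet]
    exact hD0
  · rw [show ((LinearMap.toContinuousLinearMap T0 : Cn n →L[ℂ] Cn n) : Cn n →ₗ[ℂ] Cn n) = T0
      from rfl, hdet, hd2, Complex.mul_conj, Complex.normSq_eq_norm_sq, Complex.ofReal_re]

/-- lower bound of an invertible map -/
theorem exists_lower {T : Cn n →L[ℂ] Cn n} (hT : LinearMap.det (T : Cn n →ₗ[ℂ] Cn n) ≠ 0) :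
    ∃ κ : ℝ, 0 < κ ∧ ∀ v, ‖v‖ ≤ κ * ‖T v‖ := by
  set e : Cn n ≃ₗ[ℂ] Cn n := LinearMap.equivOfDetNeZero (T : Cn n →ₗ[ℂ] Cn n) hT with he
  set e' : Cn n ≃L[ℂ] Cn n := e.toContinuousLinearEquiv with he'
  refine ⟨‖(e'.symm : Cn n →L[ℂ] Cn n)‖ + 1, by positivity, fun v => ?_⟩
  have h1 : T v = e' v := rfl
  calc ‖v‖ = ‖(e'.symm : Cn n →L[ℂ] Cn n) (e' v)‖ := by simp
    _ ≤ ‖(e'.symm : Cn n →L[ℂ] Cn n)‖ * ‖e' v‖ := ContinuousLinearMap.le_opNorm _ _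
    _ ≤ (‖(e'.symm : Cn n →L[ℂ] Cn n)‖ + 1) * ‖T v‖ := by
        rw [h1]
        exact mul_le_mul_of_nonneg_right (by linarith) (norm_nonneg _)

/-- **first order estimate** -/
theorem first_order {Φ : Cn n → Fin N → ℂ} {z0 : Cn n}
    (hΦ : ∀ k, DifferentiableAt ℂ (fun z => Φ z k) z0) (h0 : Φ z0 = 0)
    {C : Matrix (Fin n) (Fin N) ℂ}
    (hC : ∀ a k, C a k = fderiv ℂ (fun z => Φ z k) z0 (EuclideanSpace.single a 1))
    {T : Cn n →L[ℂ] Cn n} (hT : ∀ v, ‖T v‖ ^ 2 = qC C v)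
    (hd : LinearMap.det (T : Cn n →ₗ[ℂ] Cn n) ≠ 0) {δ : ℝ} (hδ : 0 < δ) :
    ∀ᶠ z in 𝓝 z0, ∑ k, ‖Φ z k‖ ^ 2 ≤ (1 + δ) * ‖T (z - z0)‖ ^ 2 := by
  obtain ⟨κ, hκ, hκT⟩ := exists_lower hd
  -- `Λ`
  set Ψ : Cn n → EuclideanSpace ℂ (Fin N) := fun z => WithLp.toLp 2 (Φ z) with hΨ
  set Λ : Cn n →L[ℂ] EuclideanSpace ℂ (Fin N) :=
    (PiLp.continuousLinearEquiv 2 ℂ (fun _ : Fin N => ℂ)).symm.toContinuousLinearMap.comp
      (ContinuousLinearMap.pi fun k => fderiv ℂ (fun z => Φ z k) z0) with hΛ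
  have hΛk : ∀ v k, Λ v k = fderiv ℂ (fun z => Φ z k) z0 v := fun v k => rfl
  have hder : HasFDerivAt Ψ Λ z0 := by
    have h1 : HasFDerivAt (fun z => Φ z) (ContinuousLinearMap.pi fun k =>
        fderiv ℂ (fun z => Φ z k) z0) z0 := hasFDerivAt_pi.2 fun k => (hΦ k).hasFDerivAt
    exact ((PiLp.continuousLinearEquiv 2 ℂ (fun _ : Fin N => ℂ)).symm.hasFDerivAt).comp z0 h1
  have hΛT : ∀ v, ‖Λ v‖ = ‖T v‖ := by
    intro v
    have h1 : ‖Λ v‖ ^ 2 = ‖T v‖ ^ 2 := by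
      rw [hT, EuclideanSpace.norm_sq_eq]
      unfold qC
      refine Finset.sum_congr rfl fun k _ => ?_
      rw [hΛk]
      congr 2
      have h2 : v = ∑ a, v a • (EuclideanSpace.single a (1 : ℂ) : Cn n) := by
        ext b
        simp [Finset.sum_apply, Pi.single_apply]
      conv_lhs => rw [h2]
      rw [map_sum]
      refine Finset.sum_congr rfl fun a _ => ?_
      rw [map_smul, hC a k, smul_eq_mul, mul_comm]
    exact (pow_left_inj₀ (norm_nonneg _) (norm_nonneg _) two_ne_zero).1 h1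
  -- choose `ε` with `(1 + ε κ)² ≤ 1 + δ`
  obtain ⟨ε, hε, hε2⟩ : ∃ ε : ℝ, 0 < ε ∧ (1 + ε * κ) ^ 2 ≤ 1 + δ := by
    refine ⟨min 1 (δ / 3) / κ, by positivity, ?_⟩
    rw [div_mul_cancel₀ _ hκ.ne']
    have h1 : 0 ≤ min 1 (δ / 3) := by positivity
    have h2 : min 1 (δ / 3) ≤ 1 := min_le_left _ _
    have h3 : min 1 (δ / 3) ≤ δ / 3 := min_le_right _ _
    nlinarith
  have h1 := hder.isLittleO.def hε
  filter_upwards [h1] with z hz
  have hΨ0 : Ψ z0 = 0 := by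
    simp only [hΨ]
    rw [h0]
    rfl
  rw [hΨ0, sub_zero] at hz
  have h2 : ‖Ψ z‖ ≤ (1 + ε * κ) * ‖T (z - z0)‖ := by
    calc ‖Ψ z‖ = ‖(Ψ z - Λ (z - z0)) + Λ (z - z0)‖ := by rw [sub_add_cancel]
      _ ≤ ‖Ψ z - Λ (z - z0)‖ + ‖Λ (z - z0)‖ := norm_add_le _ _
      _ ≤ ε * (κ * ‖T (z - z0)‖) + ‖T (z - z0)‖ := by
          rw [hΛT]
          exact add_le_add (hz.trans (mul_le_mul_of_nonneg_left (hκT _) hε.le)) le_rfl
      _ = _ := by ring
  have h3 : ∑ k, ‖Φ z k‖ ^ 2 = ‖Ψ z‖ ^ 2 := by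
    rw [EuclideanSpace.norm_sq_eq]
  rw [h3]
  calc ‖Ψ z‖ ^ 2 ≤ ((1 + ε * κ) * ‖T (z - z0)‖) ^ 2 :=
        pow_le_pow_left₀ (norm_nonneg _) h2 2
    _ = (1 + ε * κ) ^ 2 * ‖T (z - z0)‖ ^ 2 := by ring
    _ ≤ _ := mul_le_mul_of_nonneg_right hε2 (by positivity)

/-- injective differential ⇒ nondegenerate Gram matrix -/
theorem det_ne_of_inj {C : Matrix (Fin n) (Fin N) ℂ}
    (h : ∀ v : Fin n → ℂ, (∀ k, ∑ a, C a k * v a = 0) → v = 0) : (C * Cᴴ).det ≠ 0 := by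
  intro h0
  obtain ⟨x, hx, hx0⟩ := Matrix.exists_mulVec_eq_zero_iff.2 h0
  apply hx
  have h1 : Cᴴ *ᵥ x = 0 := by
    have h2 : star (Cᴴ *ᵥ x) ⬝ᵥ (Cᴴ *ᵥ x) = 0 := by
      rw [Matrix.star_mulVec, Matrix.conjTranspose_conjTranspose, ← Matrix.dotProduct_mulVec,
        Matrix.mulVec_mulVec, hx0, dotProduct_zero]
    exact dotProduct_star_self_eq_zero.1 h2
  have h3 : star x = 0 := by
    refine h (star x) fun k => ?_
    have h4 := congrFun h1 k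
    simp only [Matrix.mulVec, dotProduct, Matrix.conjTranspose_apply, Pi.zero_apply] at h4
    have h5 := congrArg star h4
    rw [star_sum, star_zero] at h5
    rw [← h5]
    refine Finset.sum_congr rfl fun a _ => ?_
    rw [star_mul', star_star]
    rfl
  have := congrArg star h3
  rwa [star_star, star_zero] at this

end

end Crest.Agent.R281.Mv_757
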