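import Crest.Agent.R281.Mv6_757
import Crest.Agent.R281.Mv7_757

/-!
# Row 281, S6-MONO (M4), part 8 (helper757): density at a point, the mean value inequality

* `ML.density` : `liminf a^(-n) ∫_{|F|² ≤ a} w dμ ≥ bv n * w q` at an immersive point `q`, `F q = 0`
* `ML.mvi`     : `bv n * w q * b^n ≤ ∫_{W0 ∩ {|F|² < b}} w dμ` for `0 < b ≤ R`
* `ML.mvi_le`  : comparison with another volume: `rhoL ≤ C` gives `≤ C ∫ w dvm h`
-/

set_option autoImplicit false
set_option linter.unusedSectionVars false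

open Set Filter Topology Complex MeasureTheory
open scoped ContDiff Matrix ComplexConjugate Manifold ComplexOrder ENNReal

namespace Crest.Agent.R281.Mv_757

open Crest.Agent.R275 Crest.Agent.R275.Geo Crest.Agent.R275.Core144 Crest.Agent.R275.EDR890
open Crest.Agent.R275.Pai323 Crest.Agent.R275.C1d194
open Crest.Agent.R273.Defs_333 Crest.Agent.R273.Hess_333 Crest.Agent.R273.HessB_333
open Crest.Agent.R273.HM_333 Crest.Agent.R273.Kah_333 Crest.Agent.R273.Vol_333
open Crest.Agent.R273.Vm_333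
open Crest.Agent.R281

noncomputable section

variable {n N : ℕ} {M : Type} [TopologicalSpace M] [T2Space M] {A : Atl n M}
  {F : M → Fin N → ℂ} {W0 : Set M}
variable (h : HM (KB A)⁻¹) [MeasurableSpace M] [BorelSpace M] [Countable A.ι]
variable {w : M → ℝ} {R : ℝ}

theorem exists_e {c w0 D0 b0 : ℝ} (hD : 0 < D0) (hc : c < b0 * w0) (n : ℕ) :
    ∃ e : ℝ, 0 < e ∧ c < (w0 * D0 - e) * (b0 / D0) / (1 + e) ^ n := by
  have hcont : ContinuousAt (fun e : ℝ => (w0 * D0 - e) * (b0 / D0) / (1 + e) ^ n) 0 := by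
    refine ContinuousAt.div (by fun_prop) (by fun_prop) ?_
    simp
  have h0 : (w0 * D0 - 0) * (b0 / D0) / (1 + 0) ^ n = b0 * w0 := by
    field_simp
    simp
  have h1 : ∀ᶠ e in 𝓝 (0 : ℝ), c < (w0 * D0 - e) * (b0 / D0) / (1 + e) ^ n := by
    apply hcont.eventually_const_lt
    show c < (w0 * D0 - 0) * (b0 / D0) / (1 + 0) ^ n
    rw [h0]
    exact hc
  obtain ⟨e, he, he0⟩ := ((h1.filter_mono nhdsWithin_le_nhds).and
    (self_mem_nhdsWithin : Ioi (0 : ℝ) ∈ 𝓝[>] 0)).exists
  exact ⟨e, he0, he⟩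

/-- the density at an immersive point -/
theorem ML.density (D : ML A W0 F w R) (hR : 0 < R) {q : M} (hq : q ∈ W0) (hFq : F q = 0)
    {i : A.ι} (hi : q ∈ (A.e i).source) (hd : (DF A F i q * (DF A F i q)ᴴ).det ≠ 0) {c : ℝ}
    (hc : c < bv n * w q) :
    ∃ r : ℝ, 0 < r ∧ r ≤ R ∧ ∀ a, 0 < a → a < r →
      c * a ^ n ≤ ∫ x in {x | sL W0 F R x ≤ a}, w x ∂(muL h W0 F) := by
  have hW := D.op
  have hF := D.hol
  set z0 : Cn n := A.e i q with hz0
  obtain ⟨T, hT1, hT2, hT3⟩ := exists_T (DF A F i q) hd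
  set D0 : ℝ := (DF A F i q * (DF A F i q)ᴴ).det.re with hD0
  have hD0p : 0 < D0 := by
    rw [← hT3]
    have := norm_pos_iff.2 hT2
    positivity
  have hq0 : (A.e i).symm z0 = q := (A.e i).left_inv hi
  set f : Cn n → ℝ := fun z => w ((A.e i).symm z) * dFL A W0 F i ((A.e i).symm z) with hf
  have hfc : ContinuousOn f (tW A W0 i) := by
    have h1 : ContinuousOn (fun z => w ((A.e i).symm z)) (tW A W0 i) :=
      (D.sm i).continuousOn.mono inter_subset_left
    have h2 : ContinuousOn (fun x => dFL A W0 F i x) ((A.e i).source ∩ W0) :=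
      (cont_det.comp_continuousOn (contOn_DF hF hW i)).congr fun x hx => dFL_on hx.2
    have h3 : ContinuousOn (fun z => dFL A W0 F i ((A.e i).symm z)) (tW A W0 i) :=
      h2.comp ((A.e i).continuousOn_symm.mono inter_subset_left) fun z hz =>
        ⟨(A.e i).map_target hz.1, hz.2⟩
    exact h1.mul h3
  have hz0W : z0 ∈ tW A W0 i := mem_tW hi hq
  have hf0 : f z0 = w q * D0 := by
    simp only [hf]
    rw [hq0, dFL_on hq]
  obtain ⟨e, he, hec⟩ := exists_e (b0 := bv n) hD0p hc n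
  -- local conditions
  have c1 : ∀ᶠ z in 𝓝 z0, z ∈ tW A W0 i := (isOpen_tW hW i).mem_nhds hz0W
  have c2 : ∀ᶠ z in 𝓝 z0, w q * D0 - e < f z := by
    refine (hfc.continuousAt ((isOpen_tW hW i).mem_nhds hz0W)).eventually_const_lt ?_
    rw [hf0]
    linarith
  have c3 : ∀ᶠ z in 𝓝 z0, ∑ k, ‖F ((A.e i).symm z) k‖ ^ 2 ≤ (1 + e) * ‖T (z - z0)‖ ^ 2 :=
    first_order (Φ := fun z => F ((A.e i).symm z))
      (fun k => (hF i k).differentiableAt ((isOpen_tW hW i).mem_nhds hz0W))
      (by rw [hq0, hFq]) (C := DF A F i q) (fun a k => rfl) hT1 hT2 he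
  obtain ⟨r0, hr0, hr⟩ := Metric.eventually_nhds_iff.1 (c1.and (c2.and c3))
  obtain ⟨κ, hκ, hκT⟩ := exists_lower hT2
  refine ⟨min (r0 ^ 2 / κ ^ 2) R, lt_min (by positivity) hR, min_le_right _ _, fun a ha har => ?_⟩
  have ha1 : a < r0 ^ 2 / κ ^ 2 := har.trans_le (min_le_left _ _)
  have ha2 : a < R := har.trans_le (min_le_right _ _)
  set t : ℝ := a / (1 + e) with ht
  have h1e : 0 < 1 + e := by linarith
  have ht0 : 0 < t := div_pos ha h1e
  have hta : t ≤ a := by
    rw [ht, div_le_iff₀ h1e]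
    nlinarith
  set V : Set (RI n → ℝ) := {y | ‖T (cc y - z0)‖ ^ 2 ≤ t} with hV
  have hVb : ∀ z : Cn n, ‖T (z - z0)‖ ^ 2 ≤ t → dist z z0 < r0 := by
    intro z hz
    rw [dist_eq_norm]
    have h2 : ‖z - z0‖ ^ 2 < r0 ^ 2 := by
      calc ‖z - z0‖ ^ 2 ≤ (κ * ‖T (z - z0)‖) ^ 2 :=
            pow_le_pow_left₀ (norm_nonneg _) (hκT _) 2
        _ = κ ^ 2 * ‖T (z - z0)‖ ^ 2 := by ring
        _ ≤ κ ^ 2 * a := mul_le_mul_of_nonneg_left (hz.trans hta) (by positivity)
        _ < κ ^ 2 * (r0 ^ 2 / κ ^ 2) := mul_lt_mul_of_pos_left ha1 (by positivity)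
        _ = r0 ^ 2 := by field_simp
    exact lt_of_pow_lt_pow_left₀ 2 hr0.le h2
  have hTc : Continuous fun z : Cn n => ‖T (z - z0)‖ ^ 2 := by fun_prop
  have hVc : IsClosed V := isClosed_le (hTc.comp continuous_cc) continuous_const
  have hVU : ∀ y ∈ V, (cc y : Cn n) ∈ tW A W0 i := fun y hy => (hr (hVb _ hy)).1
  have hVf : ∀ y ∈ V, w q * D0 - e ≤ f (cc y) := fun y hy => (hr (hVb _ hy)).2.1.le
  have hVvol : (volume V).toReal = t ^ n * bv n / D0 := by
    rw [← hT3]
    exact vol_ell T hT2 z0 ht0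
  have hVfin : volume V ≠ ⊤ := by
    have hsub : V ⊆ rc '' Metric.closedBall z0 r0 := by
      intro y hy
      exact ⟨cc y, (hVb _ hy).le, rc_cc y⟩
    have hcomp : IsCompact (rc '' Metric.closedBall z0 r0) := by
      refine (isCompact_closedBall _ _).image ?_
      rw [rc_eq]
      exact (rcL n).continuous
    exact ((measure_mono hsub).trans_lt hcomp.measure_lt_top).ne
  have hVcomp : IsCompact V := by
    have hsub : V ⊆ rc '' Metric.closedBall z0 r0 := by
      intro y hy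
      exact ⟨cc y, (hVb _ hy).le, rc_cc y⟩
    have hcomp : IsCompact (rc '' Metric.closedBall z0 r0) := by
      refine (isCompact_closedBall _ _).image ?_
      rw [rc_eq]
      exact (rcL n).continuous
    exact hcomp.of_isClosed_subset hVc hsub
  -- the set in `M`
  set S : Set M := {x | x ∈ (A.e i).source ∧ ‖T (A.e i x - z0)‖ ^ 2 ≤ t} with hS
  have hSm : MeasurableSet S := by
    have h1 : S = (A.e i).source \ ((A.e i).source ∩ A.e i ⁻¹' {z | t < ‖T (z - z0)‖ ^ 2}) := by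
      ext x
      simp only [hS, mem_ofPred_eq, Set.mem_sdiff, mem_inter_iff, mem_preimage, not_and, not_lt]
      constructor
      · rintro ⟨h1, h2⟩
        exact ⟨h1, fun _ => h2⟩
      · rintro ⟨h1, h2⟩
        exact ⟨h1, h2 h1⟩
    rw [h1]
    exact (A.e i).open_source.measurableSet.diff
      ((A.e i).isOpen_inter_preimage (isOpen_lt continuous_const hTc)).measurableSet
  have hSsub : S ⊆ {x | sL W0 F R x ≤ a} := by
    rintro x ⟨hx1, hx2⟩
    have h1 := hr (hVb _ hx2)
    have h2 : x ∈ W0 := by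
      have := h1.1.2
      rwa [mem_preimage, (A.e i).left_inv hx1] at this
    show sL W0 F R x ≤ a
    rw [sL_on h2]
    have h3 := h1.2.2
    rw [(A.e i).left_inv hx1] at h3
    calc sF F x ≤ (1 + e) * ‖T (A.e i x - z0)‖ ^ 2 := h3
      _ ≤ (1 + e) * t := mul_le_mul_of_nonneg_left hx2 h1e.le
      _ = a := by rw [ht]; field_simp
  have hIn : IntegrableOn w {x | sL W0 F R x ≤ a} (muL h W0 F) :=
    (intOn_wL h D).mono_set fun x (hx : sL W0 F R x ≤ a) => (hx.trans_lt ha2 : sL W0 F R x < R)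
  have s1 : ∫ x in S, w x ∂(muL h W0 F) ≤ ∫ x in {x | sL W0 F R x ≤ a}, w x ∂(muL h W0 F) :=
    setIntegral_mono_set hIn (Eventually.of_forall fun x => D.w0 x) hSsub.eventuallyLE
  have s2 : ∫ x in S, w x ∂(muL h W0 F) = ∫ y in V, f (cc y) := by
    rw [← integral_indicator hSm, integral_muL h hF hW]
    set J : M → ℝ := fun x => rhoL h W0 F x * S.indicator w x with hJ
    have hJm : Measurable J := (meas_rhoL h hF hW).mul ((sm_cont D.sm).measurable.indicator hSm)
    have e1 : ∫ x, J x ∂(vm h) = ∫ x in (A.e i).source, J x ∂(vm h) := by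
      symm
      refine setIntegral_eq_integral_of_forall_compl_eq_zero fun x hx => ?_
      simp only [hJ]
      rw [indicator_of_notMem (fun hc => hx hc.1), mul_zero]
    rw [e1, setIntegral_vm h i hJm.aestronglyMeasurable]
    have e2 : ∫ y in Ui A i, h.w i (sg A i y) • J (sg A i y) =
        ∫ y in Ui A i, V.indicator (fun y => f (cc y)) y := by
      refine setIntegral_congr_fun (C1d194.isOpen_Ui i).measurableSet fun y hy => ?_
      have hs : sg A i y ∈ (A.e i).source := sg_mem hy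
      have hy' : A.e i (sg A i y) = cc y := (A.e i).right_inv hy
      have e3 : h.w i (sg A i y) * rhoL h W0 F (sg A i y) = dFL A W0 F i (sg A i y) :=
        rhoL_mul h hF hW hs
      simp only [hJ, smul_eq_mul]
      rw [← mul_assoc, e3]
      by_cases hyV : y ∈ V
      · have : sg A i y ∈ S := ⟨hs, by rw [hy']; exact hyV⟩
        rw [indicator_of_mem this, indicator_of_mem hyV]
        show _ = w (sg A i y) * dFL A W0 F i (sg A i y)
        ring
      · have : sg A i y ∉ S := fun hc => hyV (by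
          have := hc.2
          rw [hy'] at this
          exact this)
        rw [indicator_of_notMem this, indicator_of_notMem hyV, mul_zero]
    rw [e2, setIntegral_indicator hVc.measurableSet]
    congr 2
    ext y
    exact ⟨fun hy => hy.2, fun hy => ⟨(hVU y hy).1, hy⟩⟩
  have hfi : IntegrableOn (fun y => f (cc y)) V := by
    have h1 : ContinuousOn (fun y => f (cc y)) V :=
      hfc.comp continuous_cc.continuousOn fun y hy => hVU y hy
    exact h1.integrableOn_compact hVcomp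
  have s3 : (w q * D0 - e) * (volume V).toReal ≤ ∫ y in V, f (cc y) :=
    setIntegral_ge_of_const_le_real hVc.measurableSet hVfin hVf hfi
  calc c * a ^ n ≤ ((w q * D0 - e) * (bv n / D0) / (1 + e) ^ n) * a ^ n :=
        mul_le_mul_of_nonneg_right hec.le (by positivity)
    _ = (w q * D0 - e) * (t ^ n * bv n / D0) := by
        rw [ht, div_pow]
        field_simp
    _ ≤ ∫ y in V, f (cc y) := by rw [← hVvol]; exact s3
    _ = ∫ x in S, w x ∂(muL h W0 F) := s2.symm
    _ ≤ _ := s1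

/-- **the mean value inequality** -/
theorem ML.mvi (P : Part A) (D : ML A W0 F w R) (hn : 0 < n) {q : M} (hq : q ∈ W0)
    (hFq : F q = 0) {i : A.ι} (hi : q ∈ (A.e i).source)
    (hd : (DF A F i q * (DF A F i q)ᴴ).det ≠ 0) {b : ℝ} (hb : 0 < b) (hbR : b ≤ R) :
    bv n * w q * b ^ n ≤ ∫ x in W0 ∩ {x | sF F x < b}, w x ∂(muL h W0 F) := by
  rw [← sL_lt' (F := F) (W0 := W0) hbR]
  have key : ∀ c, c < bv n * w q →
      c * b ^ n ≤ ∫ x in {x | sL W0 F R x < b}, w x ∂(muL h W0 F) := by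
    intro c hc
    obtain ⟨r, hr, _, h1⟩ := D.density h (hb.trans_le hbR) hq hFq hi hd hc
    have ha : 0 < min (r / 2) (b / 2) := by positivity
    have ha1 : min (r / 2) (b / 2) < r := (min_le_left _ _).trans_lt (by linarith)
    have ha2 : min (r / 2) (b / 2) < b := (min_le_right _ _).trans_lt (by linarith)
    exact (D.dat h P).lower hn ha ha2 hbR (h1 _ ha ha1)
  refine le_of_forall_lt_imp_le_of_dense fun c hc => ?_
  have hbn : 0 < b ^ n := pow_pos hb n
  have := key (c / b ^ n) (by rwa [div_lt_iff₀ hbn])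
  rwa [div_mul_cancel₀ _ hbn.ne'] at this

/-- comparison with another volume form -/
theorem ML.mvi_le (P : Part A) (D : ML A W0 F w R) (hn : 0 < n) {q : M} (hq : q ∈ W0)
    (hFq : F q = 0) {i : A.ι} (hi : q ∈ (A.e i).source)
    (hd : (DF A F i q * (DF A F i q)ᴴ).det ≠ 0) {b : ℝ} (hb : 0 < b) (hbR : b ≤ R) {C : ℝ}
    (hC : ∀ x ∈ W0, sF F x < b → rhoL h W0 F x ≤ C)
    (hint : IntegrableOn w (W0 ∩ {x | sF F x < b}) (vm h)) :
    bv n * w q * b ^ n ≤ C * ∫ x in W0 ∩ {x | sF F x < b}, w x ∂(vm h) := by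
  have h1 := D.mvi h P hn hq hFq hi hd hb hbR
  refine h1.trans ?_
  have hm : MeasurableSet (W0 ∩ {x | sF F x < b}) := by
    rw [← sL_lt' (F := F) (W0 := W0) hbR]
    exact measurableSet_lt (meas_sL D.hol D.op R) measurable_const
  rw [← integral_indicator hm, integral_muL h D.hol D.op, ← integral_indicator hm,
    ← integral_const_mul]
  have hi2 : Integrable (fun x => C * (W0 ∩ {x | sF F x < b}).indicator w x) (vm h) :=
    ((integrable_indicator_iff hm).2 hint).const_mul C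
  refine integral_mono_of_nonneg (Eventually.of_forall fun x => ?_) hi2
    (Eventually.of_forall fun x => ?_)
  · exact mul_nonneg (rhoL_nonneg h x) (indicator_nonneg (fun y _ => D.w0 y) x)
  · by_cases hx : x ∈ W0 ∩ {x | sF F x < b}
    · simp only [indicator_of_mem hx]
      exact mul_le_mul_of_nonneg_right (hC x hx.1 hx.2) (D.w0 x)
    · simp only [indicator_of_notMem hx]
      simp

/-- the data with compactness and positivity only below `R` -/
structure MDL (A : Atl n M) (W0 : Set M) (F : M → Fin N → ℂ) (w : M → ℝ) (R : ℝ) : Prop where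
  op : IsOpen W0
  hol : ∀ i k, HolAt A i W0 (fun x => F x k)
  sm : A.Sm w
  w0 : ∀ x, 0 ≤ w x
  psh : ∀ i, ∀ x ∈ (A.e i).source, x ∈ W0 → sF F x < R → (hsf A w i x).PosSemidef
  cpt : ∀ r < R, IsCompact (tsupport w ∩ {x | x ∈ W0 ∧ sF F x ≤ r})

theorem MDL.ml {r : ℝ} (D : MDL A W0 F w R) (hr : r < R) : ML A W0 F w r where
  op := D.op
  hol := D.hol
  sm := D.sm
  w0 := D.w0
  psh i x hx hxW hx2 := D.psh i x hx hxW (hx2.trans_lt hr)
  cpt := D.cpt r hr

/-- **the mean value inequality**, up to the radius `R` -/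
theorem MDL.mvi (P : Part A) (D : MDL A W0 F w R) (hR : 0 < R) (hn : 0 < n) {q : M} (hq : q ∈ W0)
    (hFq : F q = 0) {i : A.ι} (hi : q ∈ (A.e i).source)
    (hd : (DF A F i q * (DF A F i q)ᴴ).det ≠ 0)
    (hint : IntegrableOn w {x | x ∈ W0 ∧ sF F x < R} (muL h W0 F)) :
    bv n * w q * R ^ n ≤ ∫ x in {x | x ∈ W0 ∧ sF F x < R}, w x ∂(muL h W0 F) := by
  have h1 : ∀ r, 0 < r → r < R →
      bv n * w q * r ^ n ≤ ∫ x in {x | x ∈ W0 ∧ sF F x < R}, w x ∂(muL h W0 F) := by
    intro r hr hrR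
    refine ((D.ml hrR).mvi h P hn hq hFq hi hd hr le_rfl).trans ?_
    exact setIntegral_mono_set hint (Eventually.of_forall fun x => D.w0 x)
      (LE.le.eventuallyLE fun x hx => ⟨hx.1, (show sF F x < r from hx.2).trans hrR⟩)
  have h2 : Tendsto (fun r : ℝ => bv n * w q * r ^ n) (𝓝[<] R) (𝓝 (bv n * w q * R ^ n)) := by
    have : Continuous fun r : ℝ => bv n * w q * r ^ n := by fun_prop
    exact this.continuousAt.tendsto.mono_left nhdsWithin_le_nhds
  refine le_of_tendsto h2 ?_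
  filter_upwards [Ioo_mem_nhdsLT hR] with r hr
  exact h1 r hr.1 hr.2

/-- the same as a bound of the lower integral, without integrability -/
theorem MDL.mvi' (P : Part A) (D : MDL A W0 F w R) (hR : 0 < R) (hn : 0 < n) {q : M} (hq : q ∈ W0)
    (hFq : F q = 0) {i : A.ι} (hi : q ∈ (A.e i).source)
    (hd : (DF A F i q * (DF A F i q)ᴴ).det ≠ 0) :
    ENNReal.ofReal (bv n * w q * R ^ n) ≤
      ∫⁻ x in {x | x ∈ W0 ∧ sF F x < R}, ENNReal.ofReal (w x) ∂(muL h W0 F) := by
  have hm : ∀ r, MeasurableSet (W0 ∩ {x | sF F x < r}) := by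
    intro r
    rw [← sL_lt' (F := F) (W0 := W0) (le_refl r)]
    exact measurableSet_lt (meas_sL D.hol D.op r) measurable_const
  by_cases hint : IntegrableOn w {x | x ∈ W0 ∧ sF F x < R} (muL h W0 F)
  · rw [← ofReal_integral_eq_lintegral_ofReal hint (Eventually.of_forall fun x => D.w0 x)]
    exact ENNReal.ofReal_le_ofReal (D.mvi h P hR hn hq hFq hi hd hint)
  · have h1 : ∫⁻ x in {x | x ∈ W0 ∧ sF F x < R}, ENNReal.ofReal (w x) ∂(muL h W0 F) = ⊤ := by
      by_contra hne
      apply hint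
      refine ⟨(sm_cont D.sm).aestronglyMeasurable, ?_⟩
      rw [hasFiniteIntegral_iff_ofReal (Eventually.of_forall fun x => D.w0 x)]
      exact lt_top_iff_ne_top.2 hne
    rw [h1]
    exact le_top

/-- comparison of the lower integrals -/
theorem lint_muL_le (hF : HFL A W0 F) (hW : IsOpen W0) (hw : Measurable w) {S : Set M}
    (hS : MeasurableSet S) {C : ℝ} (hC : ∀ x ∈ S, rhoL h W0 F x ≤ C) :
    ∫⁻ x in S, ENNReal.ofReal (w x) ∂(muL h W0 F) ≤
      ENNReal.ofReal C * ∫⁻ x in S, ENNReal.ofReal (w x) ∂(vm h) := by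
  unfold muL
  rw [restrict_withDensity hS, lintegral_withDensity_eq_lintegral_mul _
    (meas_rhoL h hF hW).ennreal_ofReal hw.ennreal_ofReal, ← lintegral_const_mul _ hw.ennreal_ofReal]
  refine setLIntegral_mono' hS fun x hx => ?_
  exact mul_le_mul_left (ENNReal.ofReal_le_ofReal (hC x hx)) _

/-- the mean value inequality, compared with `vm h` -/
theorem MDL.mvi_C (P : Part A) (D : MDL A W0 F w R) (hR : 0 < R) (hn : 0 < n) {q : M}
    (hq : q ∈ W0) (hFq : F q = 0) {i : A.ι} (hi : q ∈ (A.e i).source)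
    (hd : (DF A F i q * (DF A F i q)ᴴ).det ≠ 0) {C : ℝ}
    (hC : ∀ x ∈ W0, sF F x < R → rhoL h W0 F x ≤ C) :
    ENNReal.ofReal (bv n * w q * R ^ n) ≤
      ENNReal.ofReal C * ∫⁻ x in {x | x ∈ W0 ∧ sF F x < R}, ENNReal.ofReal (w x) ∂(vm h) := by
  have hm : MeasurableSet {x | x ∈ W0 ∧ sF F x < R} := by
    have h1 : {x | x ∈ W0 ∧ sF F x < R} = W0 ∩ {x | sF F x < R} := rfl
    rw [h1, ← sL_lt' (F := F) (W0 := W0) (le_refl R)]
    exact measurableSet_lt (meas_sL D.hol D.op R) measurable_const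
  exact (D.mvi' h P hR hn hq hFq hi hd).trans
    (lint_muL_le h D.hol D.op (sm_cont D.sm).measurable hm fun x hx => hC x hx.1 hx.2)

end

end Crest.Agent.R281.Mv_757
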