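import Crest.Agent.R281.Con5_166
import Crest.Agent.R281.Con7_166
import Crest.Agent.R281.Mv8_757

/-!
# R281 (S0424), DIV 6, S6-CONT part 8 (helper166): the estimate for one pair of fibres

`pair_bound` : `F : Fam A d 1 U` a disc family (punctures allowed), `q ∈ T_ζ`, and `T_0` (hence the
fibres near the centre) misses the chart ball of radius `δ` at `q`; then
`c_(d+1) Hs(1) δ^(2(d+1)) ≤ C^(d+1) C₀ / log (1/|ζ|)`,
`C₀` = bound of `∫ log (1/|y|) dμ_K`.
-/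

set_option autoImplicit false
set_option linter.unusedSectionVars false

open Set Filter Topology Complex Function MeasureTheory
open scoped ContDiff Matrix ComplexConjugate ComplexOrder ENNReal

namespace Crest.Agent.R281.Con_166

open Crest.Agent.R275.Geo Crest.Agent.R275.Core144 Crest.Agent.R275.EDR890
open Crest.Agent.R273.Defs_333 Crest.Agent.R273.Kah_333 Crest.Agent.R273.Hess_333
open Crest.Agent.R273.HessB_333
open Crest.Agent.R273.Map_835 Crest.Agent.R273.KahI_645 Crest.Agent.R273.Vol_333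
open Crest.Agent.R273.Vm_333 Crest.Agent.R281.Defs_273 Crest.Agent.R281.S6D_664
open Crest.Agent.R281.Mv_757 Crest.Agent.R281.Fub_192
open Crest.Agent.R273 (Levi_145.lev)

noncomputable section

/-! ### the normalised base coordinate -/

/-- the normalised base coordinate -/
def bc (a₀ : ℂ) (R₀ : ℝ) (u : Cn 1) : ℂ := (u 0 - a₀) / R₀

/-- the same with values in `Cn 1` -/
def bc1 (a₀ : ℂ) (R₀ : ℝ) (u : Cn 1) : Cn 1 :=
  ((R₀ : ℂ)⁻¹) • (u - EuclideanSpace.single 0 a₀)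

@[simp] theorem bc1_zero (a₀ : ℂ) (R₀ : ℝ) (u : Cn 1) : bc1 a₀ R₀ u 0 = bc a₀ R₀ u := by
  simp [bc1, bc, div_eq_inv_mul]

theorem continuous_bc (a₀ : ℂ) (R₀ : ℝ) : Continuous (bc a₀ R₀) := by
  unfold bc
  fun_prop

theorem analyticAt_bc1 (a₀ : ℂ) (R₀ : ℝ) (u : Cn 1) : AnalyticAt ℂ (bc1 a₀ R₀) u := by
  unfold bc1
  fun_prop

theorem norm_cn1 (u : Cn 1) : ‖u‖ = ‖u 0‖ := by
  rw [EuclideanSpace.norm_eq, Finset.univ_unique, Finset.sum_singleton,
    Real.sqrt_sq (norm_nonneg _)]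
  rfl

theorem isCompact_bc {a₀ : ℂ} {R₀ : ℝ} (hR₀ : 0 < R₀) {K : Set ℂ} (hK : IsCompact K) :
    IsCompact (bc a₀ R₀ ⁻¹' K) := by
  obtain ⟨B, hB⟩ := hK.isBounded.exists_norm_le
  refine (isCompact_closedBall (0 : Cn 1) (‖a₀‖ + R₀ * B)).of_isClosed_subset
    (hK.isClosed.preimage (continuous_bc a₀ R₀)) fun u hu => ?_
  rw [mem_closedBall_zero_iff, norm_cn1]
  have h1 : ‖bc a₀ R₀ u‖ ≤ B := hB _ hu
  have h2 : u 0 = a₀ + R₀ * bc a₀ R₀ u := by
    have : (R₀ : ℂ) ≠ 0 := by exact_mod_cast hR₀.ne'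
    unfold bc
    field_simp
    ring
  rw [h2]
  refine (norm_add_le _ _).trans ?_
  rw [norm_mul, Complex.norm_real, Real.norm_of_nonneg hR₀.le]
  gcongr

variable {N d : ℕ} {M : Type} [TopologicalSpace M] [T2Space M] {A : Atl N M} {U : Set (Cn 1)}

section

variable (F : Fam A d 1 U) (K : Kah A) {a₀ : ℂ} {R₀ : ℝ} {E : Set ℂ}

/-- the data of 757 -/
theorem exists_mdl (hR₀ : 0 < R₀) {W : Cn 1 → ℝ} {r : ℝ}
    (w1 : ∀ y : Cn 1, y 0 ∉ E → ContDiffAt ℝ ∞ W y)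
    (w2 : ∀ y : Cn 1, y 0 ∉ E → r < ‖y 0‖ → ∀ v, 0 ≤ Levi_145.lev W y v)
    (w3 : ∀ y, 0 ≤ W y)
    {K' : Set ℂ} (hK' : IsCompact K') (hK1 : ∀ y ∈ K', ‖y‖ < 1 ∧ y ∉ E)
    (w5 : ∀ y : Cn 1, y 0 ∉ E → y 0 ∉ K' → W y = 0)
    (hU : ∀ u : Cn 1, ‖bc a₀ R₀ u‖ < 1 → bc a₀ R₀ u ∉ E → u ∈ U)
    (hU' : ∀ u ∈ U, bc a₀ R₀ u ∉ E)
    {j : A.ι} {q : M} {δ : ℝ} (hδ : 0 < δ)
    (hball : Metric.closedBall (A.e j q) δ ⊆ (A.e j).target)
    (hmiss : ∀ v, F.i v ∈ (A.e j).symm '' Metric.ball (A.e j q) δ → r < ‖bc a₀ R₀ (F.y v)‖) :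
    MDL F.B (F.i ⁻¹' (A.e j).source) (Phi F j q) (fun v => W (bc1 a₀ R₀ (F.y v))) (δ ^ 2) := by
  have hWU : ∀ u ∈ U, ContDiffAt ℝ ∞ (fun u => W (bc1 a₀ R₀ u)) u := by
    intro u hu
    have h1 : ContDiffAt ℝ ∞ W (bc1 a₀ R₀ u) := w1 _ (by rw [bc1_zero]; exact hU' u hu)
    have h2 : ContDiffAt ℝ ∞ (bc1 a₀ R₀) u := by
      unfold bc1
      fun_prop
    exact h1.comp u h2
  refine ⟨(A.e j).open_source.preimage F.hol.cont, hol_Phi F j q, sm_base F hWU,
    fun v => w3 _, ?_, ?_⟩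
  · intro k x hx hxW hxs
    refine psd_base F (W := fun u => W (bc1 a₀ R₀ u)) (hWU _ (F.mem x)) (fun ξ => ?_) hx
    have h1 : ContDiffAt ℝ 2 W (bc1 a₀ R₀ (F.y x)) := by
      have := w1 (bc1 a₀ R₀ (F.y x)) (by rw [bc1_zero]; exact hU' _ (F.mem x))
      exact_mod_cast contDiffAt_infty.1 this 2
    rw [Crest.Agent.R273.Levi_145.lev_comp (u := W) (T := bc1 a₀ R₀)
      (analyticAt_bc1 a₀ R₀ _) h1 ξ]
    refine w2 _ (by rw [bc1_zero]; exact hU' _ (F.mem x)) ?_ _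
    rw [bc1_zero]
    refine hmiss x ⟨A.e j (F.i x), ?_, (A.e j).left_inv hxW⟩
    rw [mem_ball_iff_norm]
    rw [sF_Phi] at hxs
    exact (pow_lt_pow_iff_left₀ (norm_nonneg _) hδ.le two_ne_zero).1 hxs
  · intro r' hr'
    have hc1 : IsCompact (F.y ⁻¹' (bc a₀ R₀ ⁻¹' K')) := by
      refine F.proper _ (fun u hu => ?_) (isCompact_bc hR₀ hK')
      exact hU u (hK1 _ hu).1 (hK1 _ hu).2
    have hsub : tsupport (fun v => W (bc1 a₀ R₀ (F.y v))) ⊆ F.y ⁻¹' (bc a₀ R₀ ⁻¹' K') := by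
      refine closure_minimal (fun v hv => ?_)
        (hK'.isClosed.preimage ((continuous_bc a₀ R₀).comp (continuous_y F)))
      by_contra h
      refine hv (w5 _ ?_ ?_)
      · rw [bc1_zero]
        exact hU' _ (F.mem v)
      · rw [bc1_zero]
        exact h
    have hcl : IsClosed {x | x ∈ F.i ⁻¹' (A.e j).source ∧ sF (Phi F j q) x ≤ r'} := by
      rcases lt_or_ge r' 0 with h0 | h0
      · have : {x | x ∈ F.i ⁻¹' (A.e j).source ∧ sF (Phi F j q) x ≤ r'} = ∅ := by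
          ext x
          simp only [mem_ofPred_eq, mem_empty_iff_false, iff_false, not_and, not_le]
          intro _
          exact h0.trans_le (sF_nonneg _ x)
        rw [this]
        exact isClosed_empty
      · have h1 : Real.sqrt r' ≤ δ := by
          rw [← Real.sqrt_sq hδ.le]
          exact Real.sqrt_le_sqrt hr'.le
        have h2 := closed_Phi F j (q := q) (Real.sqrt_nonneg r')
          ((Metric.closedBall_subset_closedBall h1).trans hball)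
        rwa [Real.sq_sqrt h0] at h2
    exact (hc1.of_isClosed_subset (isClosed_tsupport _) hsub).inter_right hcl

/-- the estimate for one pair -/
theorem pair_bound (hR₀ : 0 < R₀) (hE : IsCompact (E \ {0})) (hc : E.Countable)
    (hE1 : ∀ a ∈ E, ‖a‖ ≤ 1)
    (hU : ∀ u : Cn 1, ‖bc a₀ R₀ u‖ < 1 → bc a₀ R₀ u ∉ E → u ∈ U)
    (hU' : ∀ u ∈ U, bc a₀ R₀ u ∉ E)
    {j : A.ι} {q : M} (hq : q ∈ (A.e j).source) {δ C : ℝ} (hδ : 0 < δ) (hC : 0 ≤ C)
    (hball : Metric.closedBall (A.e j q) δ ⊆ (A.e j).target)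
    (hG : ∀ z ∈ Metric.closedBall (A.e j q) δ,
      ((C : ℂ) • K.g j ((A.e j).symm z) - 1).PosSemidef)
    {vq : F.V} (hvq : F.i vq = q) (hζ1 : ‖bc a₀ R₀ (F.y vq)‖ < 1)
    {r : ℝ} (hr : 0 < r)
    (hmiss : ∀ v, F.i v ∈ (A.e j).symm '' Metric.ball (A.e j q) δ → r < ‖bc a₀ R₀ (F.y v)‖)
    {C₀ : ℝ} (hC₀ : 0 ≤ C₀)
    (hν : ∫⁻ v in {v | ‖bc a₀ R₀ (F.y v)‖ < 1},
      ENNReal.ofReal (Real.log (1 / ‖bc a₀ R₀ (F.y v)‖)) ∂(F.mu K) ≤ ENNReal.ofReal C₀) :
    bv (d + 1) * Hs 1 * δ ^ (2 * (d + 1)) ≤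
      C ^ (d + 1) * C₀ / Real.log (1 / ‖bc a₀ R₀ (F.y vq)‖) := by
  set ζ : ℂ := bc a₀ R₀ (F.y vq) with hζ
  have hrζ : r < ‖ζ‖ := by
    refine hmiss vq ⟨A.e j q, Metric.mem_ball_self hδ, ?_⟩
    rw [(A.e j).left_inv hq, hvq]
  have hζ0 : 0 < ‖ζ‖ := hr.trans hrζ
  have hlog : 0 < Real.log (1 / ‖ζ‖) := Real.log_pos (by rw [lt_div_iff₀ hζ0]; linarith)
  let _ : MeasurableSpace F.V := borel F.V
  have _ : BorelSpace F.V := ⟨rfl⟩
  -- for every `τ`
  have key : ∀ τ : ℝ, 0 < τ → bv (d + 1) * (Hs 1 - τ) * δ ^ (2 * (d + 1)) ≤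
      C ^ (d + 1) * C₀ / Real.log (1 / ‖ζ‖) := by
    intro τ hτ
    obtain ⟨W, w1, w2, w3, w4, ⟨K', hK', hK1, w5⟩, w6⟩ := exists_weight' (E := E) hE hc hE1
      (ζ := ζ) (hU' _ (F.mem vq)) hζ1 hr hrζ hτ
    set w : F.V → ℝ := fun v => W (bc1 a₀ R₀ (F.y v)) with hw
    have D : MDL F.B (F.i ⁻¹' (A.e j).source) (Phi F j q) w (δ ^ 2) :=
      exists_mdl F hR₀ w1 w2 w3 hK' hK1 w5 hU hU' hδ hball hmiss
    obtain ⟨k, hk⟩ := F.B.cover vq
    have hq0 : vq ∈ F.i ⁻¹' (A.e j).source := by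
      show F.i vq ∈ (A.e j).source
      rw [hvq]
      exact hq
    have hPhi0 : Phi F j q vq = 0 := by
      funext b
      simp [Phi, hvq]
    have hd : (DF F.B (Phi F j q) k vq * (DF F.B (Phi F j q) k vq)ᴴ).det ≠ 0 := by
      refine det_ne_of_inj fun ξ hξ => inj_Phi F j q hk hq0 ?_
      funext b
      have := hξ b
      rw [Matrix.vecMul, dotProduct, Pi.zero_apply, ← this]
      exact Finset.sum_congr rfl fun a _ => mul_comm _ _
    have hrho : ∀ x ∈ F.i ⁻¹' (A.e j).source, sF (Phi F j q) x < δ ^ 2 →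
        rhoL (volK (F.kah K)) (F.i ⁻¹' (A.e j).source) (Phi F j q) x ≤ C ^ (d + 1) := by
      intro x hx hxs
      obtain ⟨l, hl⟩ := F.B.cover x
      have h1 := rhoL_mul (volK (F.kah K)) (W0 := F.i ⁻¹' (A.e j).source) (F := Phi F j q)
        D.hol D.op hl
      rw [dFL_on hx] at h1
      have h2 := (volK (F.kah K)).pos l x hl
      have hxz : A.e j (F.i x) ∈ Metric.closedBall (A.e j q) δ := by
        rw [mem_closedBall_iff_norm]
        rw [sF_Phi] at hxs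
        exact ((pow_lt_pow_iff_left₀ (norm_nonneg _) hδ.le two_ne_zero).1 hxs).le
      have h3 := hG _ hxz
      rw [(A.e j).left_inv hx] at h3
      have h4 := det_Phi_le F K (q := q) hl hx h3
      rw [← h1] at h4
      have h5 : (volK (F.kah K)).w l x * rhoL (volK (F.kah K)) (F.i ⁻¹' (A.e j).source)
          (Phi F j q) x ≤ (volK (F.kah K)).w l x * C ^ (d + 1) := by
        rw [mul_comm _ (C ^ (d + 1))]
        exact h4
      exact le_of_mul_le_mul_left h5 h2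
    have h1 := D.mvi_C (volK (F.kah K)) F.P (by positivity) (Nat.succ_pos d) hq0 hPhi0 hk hd
      hrho
    have h2 : ∫⁻ x in {x | x ∈ F.i ⁻¹' (A.e j).source ∧ sF (Phi F j q) x < δ ^ 2},
        ENNReal.ofReal (w x) ∂(vm (volK (F.kah K))) ≤
        ENNReal.ofReal (1 / Real.log (1 / ‖ζ‖)) * ENNReal.ofReal C₀ := by
      refine (setLIntegral_le_lintegral _ _).trans ?_
      have hS : MeasurableSet {v : F.V | ‖bc a₀ R₀ (F.y v)‖ < 1} :=
        (isOpen_lt (((continuous_bc a₀ R₀).comp (continuous_y F)).norm)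
          continuous_const).measurableSet
      have e1 : ∫⁻ x, ENNReal.ofReal (w x) ∂(vm (volK (F.kah K))) =
          ∫⁻ x in {v : F.V | ‖bc a₀ R₀ (F.y v)‖ < 1}, ENNReal.ofReal (w x)
            ∂(vm (volK (F.kah K))) := by
        rw [← lintegral_indicator hS]
        refine lintegral_congr fun x => ?_
        by_cases hx : x ∈ {v : F.V | ‖bc a₀ R₀ (F.y v)‖ < 1}
        · rw [indicator_of_mem hx]
        · rw [indicator_of_notMem hx]
          have : w x = 0 := by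
            refine w5 _ (by rw [bc1_zero]; exact hU' _ (F.mem x)) ?_
            rw [bc1_zero]
            exact fun h => hx (hK1 _ h).1
          rw [this, ENNReal.ofReal_zero]
      rw [e1]
      calc ∫⁻ x in {v : F.V | ‖bc a₀ R₀ (F.y v)‖ < 1}, ENNReal.ofReal (w x)
            ∂(vm (volK (F.kah K)))
          ≤ ∫⁻ x in {v : F.V | ‖bc a₀ R₀ (F.y v)‖ < 1},
            ENNReal.ofReal (1 / Real.log (1 / ‖ζ‖)) *
              ENNReal.ofReal (Real.log (1 / ‖bc a₀ R₀ (F.y x)‖)) ∂(vm (volK (F.kah K))) := by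
            refine setLIntegral_mono' hS fun x hx => ?_
            rw [← ENNReal.ofReal_mul (by positivity)]
            refine ENNReal.ofReal_le_ofReal ?_
            have h3 := w4 (bc1 a₀ R₀ (F.y x)) (by rw [bc1_zero]; exact hU' _ (F.mem x))
              (by rw [bc1_zero]; exact hx)
            rw [bc1_zero] at h3
            refine h3.trans (le_of_eq ?_)
            ring
        _ = ENNReal.ofReal (1 / Real.log (1 / ‖ζ‖)) *
            ∫⁻ x in {v : F.V | ‖bc a₀ R₀ (F.y v)‖ < 1},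
              ENNReal.ofReal (Real.log (1 / ‖bc a₀ R₀ (F.y x)‖)) ∂(vm (volK (F.kah K))) :=
            lintegral_const_mul' _ _ ENNReal.ofReal_ne_top
        _ ≤ _ := by
            gcongr
            exact hν
    have h3 : ENNReal.ofReal (bv (d + 1) * w vq * (δ ^ 2) ^ (d + 1)) ≤
        ENNReal.ofReal (C ^ (d + 1) * C₀ / Real.log (1 / ‖ζ‖)) := by
      refine (h1.trans (mul_le_mul_right h2 _)).trans (le_of_eq ?_)
      rw [← ENNReal.ofReal_mul (by positivity), ← ENNReal.ofReal_mul (by positivity)]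
      congr 1
      ring
    have h4 : bv (d + 1) * w vq * (δ ^ 2) ^ (d + 1) ≤
        C ^ (d + 1) * C₀ / Real.log (1 / ‖ζ‖) :=
      (ENNReal.ofReal_le_ofReal_iff (by positivity)).1 h3
    have h5 : Hs 1 - τ ≤ w vq := w6 _ (by rw [bc1_zero])
    refine le_trans ?_ h4
    rw [← pow_mul]
    have := bv_pos (n := d + 1)
    gcongr
  have h6 : Tendsto (fun τ : ℝ => bv (d + 1) * (Hs 1 - τ) * δ ^ (2 * (d + 1))) (𝓝[>] 0)
      (𝓝 (bv (d + 1) * (Hs 1 - 0) * δ ^ (2 * (d + 1)))) := by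
    have : Continuous fun τ : ℝ => bv (d + 1) * (Hs 1 - τ) * δ ^ (2 * (d + 1)) := by fun_prop
    exact this.continuousAt.tendsto.mono_left nhdsWithin_le_nhds
  rw [sub_zero] at h6
  refine le_of_tendsto h6 ?_
  filter_upwards [self_mem_nhdsWithin] with τ hτ
  exact key τ hτ

end

end

end Crest.Agent.R281.Con_166
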