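import Crest.Agent.R281.Con6_166
import Crest.Agent.R281.Con8_166
import Crest.Agent.R281.Con10_166

/-!
# R281 (S0424), DIV 6, S6-CONT part 11 (helper166): uniform continuity of the leaves

`local_modulus` : the hypothesis of `Ln_254.pd2`; `exists_pd` : the partition `PD M`.
-/

set_option autoImplicit false
set_option linter.unusedSectionVars false

open Set Filter Topology Complex Function MeasureTheory
open scoped ContDiff Matrix ComplexConjugate ComplexOrder ENNReal Real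

namespace Crest.Agent.R281.Con_166

open Crest.Agent.R275.Geo Crest.Agent.R275.Core144 Crest.Agent.R275.EDR890
open Crest.Agent.R275.GC293 Crest.Agent.R275.Prod363
open Crest.Agent.R273.Defs_333 Crest.Agent.R273.Kah_333 Crest.Agent.R273.Hess_333
open Crest.Agent.R273.HessB_333 Crest.Agent.R273.HM_333
open Crest.Agent.R273.Map_835 Crest.Agent.R273.KahI_645 Crest.Agent.R273.Vol_333
open Crest.Agent.R273.Vm_333 Crest.Agent.R281.Defs_273 Crest.Agent.R281.S6D_664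
open Crest.Agent.R281.S6V_664 Crest.Agent.R281.Fub_192 Crest.Agent.R281.D6_986
open Crest.Agent.R281.Mv_757 (bv bv_pos)
open Crest.Agent.R281.Fib2_425 (push)
open Crest.Agent.R281.Fub4_163 (ofC ofC_apply)
open Crest.Agent.R281.Jen_563 (lap)
open Crest.Agent.R281.Ln_254

noncomputable section

/-- the mass bound (`nu_bound`) for one family -/
def NUB {N d : ℕ} {M : Type} [TopologicalSpace M] {A : Atl N M} {U : Set (Cn 1)}
    (F : Fam A d 1 U) (K : Kah A) (a0 : ℂ) (R : ℝ) : Prop :=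
  ∀ (E : Set ℂ) (G : ℂ → ℝ) (m1 m2 : ℝ), E.Countable → IsOpen (Metric.ball a0 R \ E) →
    (∀ c ∈ Metric.ball a0 R, ofC c ∈ U ↔ c ∉ E) → ContDiffOn ℝ 2 G (Metric.ball a0 R \ E) →
    (∀ c ∈ Metric.ball a0 R \ E, m1 ≤ G c ∧ G c ≤ m2) →
    (∀ c ∈ Metric.ball a0 R \ E,
      (push F.P (fun k v => ((F.kah K).g k v).det) (ofC c)).re = lap G c) →
    ∫⁻ v in {v | ‖F.y v 0 - a0‖ < R}, ENNReal.ofReal (Real.log (R / ‖F.y v 0 - a0‖)) ∂(F.mu K) ≤
      ENNReal.ofReal (2 * π * (m2 - m1))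

section Norm

variable {N d k : ℕ} {M : Type} [TopologicalSpace M] {A : Atl N M} {Tf : M → Set M}
  (D : LineD A Tf k d)

theorem cp_eq_bc {ρ : ℝ} (hρ : D.R = 2 * ρ) (u : Cn 1) :
    D.cp u = (ρ : ℂ) * bc LineD.kp (1 / 4) u := by
  unfold LineD.cp bc
  rw [hρ]
  push_cast
  field_simp
  ring

theorem mem_UU_iff {ρ : ℝ} (hρ : D.R = 2 * ρ) (u : Cn 1) (h1 : ‖bc LineD.kp (1 / 4) u‖ < 1) :
    u ∈ D.UU ↔ bc LineD.kp (1 / 4) u ∉ nbad D ρ := by
  have h2 : ‖u 0 - LineD.kp‖ < 1 / 2 := by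
    have h3 : ‖bc LineD.kp (1 / 4) u‖ = 4 * ‖u 0 - LineD.kp‖ := by
      unfold bc
      rw [norm_div, Complex.norm_real, Real.norm_of_nonneg (by norm_num)]
      ring
    rw [h3] at h1
    linarith
  constructor
  · rintro ⟨-, h4⟩ ⟨-, h5⟩
    rw [cp_eq_bc D hρ] at h4
    exact h4 h5
  · intro h4
    refine ⟨h2, fun h5 => h4 ⟨h1.le, ?_⟩⟩
    rwa [cp_eq_bc D hρ] at h5

theorem not_nbad_of_UU {ρ : ℝ} (hρ : D.R = 2 * ρ) {u : Cn 1} (hu : u ∈ D.UU) :
    bc LineD.kp (1 / 4) u ∉ nbad D ρ := by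
  rintro ⟨-, h5⟩
  have h4 := hu.2
  rw [cp_eq_bc D hρ] at h4
  exact h4 h5

end Norm

variable {n : ℕ} {M : Type} [MetricSpace M] [CompactSpace M] {A : Atl (2 * n) M} {σ : HSymp A}
  {L : LB A} {K : Kah A} {o : OmOut σ L} {h : HM L}

/-- the mass bound for the disc family of a line -/
theorem mass_line (up : UPre K o h) (D : LineD A o.F.Tf n n) (hDO : D.Om ⊆ o.F.Om)
    (hcb : (D.bad ∩ Metric.ball 0 D.R).Countable) {m : ℝ}
    (hm : ∀ c : ℂ, ‖c‖ < D.R → |gp up D.i (D.z + c • D.v)| ≤ m)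
    (F1 : Fam A n 1 D.UU) (h1 : ∀ w, F1.i w ∈ o.F.Tf (D.pt (D.cp (F1.y w))))
    (h2 : ∀ u ∈ D.UU, ∀ x ∈ o.F.Tf (D.pt (D.cp u)), ∃ w, F1.y w = u ∧ F1.i w = x)
    (hNU : NUB F1 K LineD.kp (1 / 4)) :
    ∫⁻ v in {v | ‖bc LineD.kp (1 / 4) (F1.y v)‖ < 1},
      ENNReal.ofReal (Real.log (1 / ‖bc LineD.kp (1 / 4) (F1.y v)‖)) ∂(F1.mu K) ≤
      ENNReal.ofReal (2 * π * (m - -m)) := by
  have hR := D.R_pos
  have hL := leafy_line D hDO F1 h1 h2
  have hnb : ∀ u : Cn 1, ‖bc LineD.kp (1 / 4) u‖ = 4 * ‖u 0 - LineD.kp‖ := by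
    intro u
    unfold bc
    rw [norm_div, Complex.norm_real, Real.norm_of_nonneg (by norm_num)]
    ring
  have hcpc : Continuous fun c : ℂ => D.cp (ofC c) := by
    unfold LineD.cp
    simp only [ofC_apply]
    fun_prop
  set E : Set ℂ := {c | ‖c - LineD.kp‖ < 1 / 4 ∧ D.cp (ofC c) ∈ D.bad} with hE
  have hUE : ∀ c ∈ Metric.ball LineD.kp (1 / 4 : ℝ), ofC c ∈ D.UU ↔ c ∉ E := by
    intro c hc
    rw [mem_ball_iff_norm] at hc
    constructor
    · rintro ⟨-, h3⟩ ⟨-, h4⟩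
      exact h3 h4
    · intro h3
      refine ⟨?_, fun h4 => h3 ⟨hc, h4⟩⟩
      show ‖c - LineD.kp‖ < 1 / 2
      linarith
  have hEc : E.Countable := by
    have hinj : Injective fun c : ℂ => D.cp (ofC c) := by
      intro c c' hcc
      have h3 : ((2 * D.R : ℝ) : ℂ) * (c - LineD.kp) = ((2 * D.R : ℝ) : ℂ) * (c' - LineD.kp) := hcc
      have h4 : ((2 * D.R : ℝ) : ℂ) ≠ 0 := by exact_mod_cast (by positivity : (2 * D.R : ℝ) ≠ 0)
      exact sub_left_injective (mul_left_cancel₀ h4 h3)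
    refine (hcb.preimage hinj).mono ?_
    rintro c ⟨h3, h4⟩
    refine ⟨h4, ?_⟩
    rw [mem_ball_zero_iff]
    exact D.cp_lt (u := ofC c) (by show ‖c - LineD.kp‖ < 1 / 2; linarith)
  have hofC : Continuous ofC := by
    unfold ofC
    fun_prop
  have hset : Metric.ball LineD.kp (1 / 4 : ℝ) \ E = Metric.ball LineD.kp (1 / 4 : ℝ) ∩
      ofC ⁻¹' D.UU := by
    ext c
    constructor
    · rintro ⟨h3, h4⟩
      exact ⟨h3, (hUE c h3).2 h4⟩
    · rintro ⟨h3, h4⟩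
      exact ⟨h3, (hUE c h3).1 h4⟩
  have hop : IsOpen (Metric.ball LineD.kp (1 / 4 : ℝ) \ E) := by
    rw [hset]
    exact Metric.isOpen_ball.inter (D.isOpen_UU.preimage hofC)
  have key := hNU E (potD up D) (-m) m hEc hop hUE (fun c hc => ?_) (fun c hc => ?_)
    (fun c hc => ?_)
  · have e1 : {v : F1.V | ‖F1.y v 0 - LineD.kp‖ < (1 / 4 : ℝ)} =
        {v | ‖bc LineD.kp (1 / 4) (F1.y v)‖ < 1} := by
      ext v
      simp only [mem_ofPred_eq, hnb]
      constructor <;> intro h3 <;> linarith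
    have e2 : ∀ v : F1.V, (1 / 4 : ℝ) / ‖F1.y v 0 - LineD.kp‖ =
        1 / ‖bc LineD.kp (1 / 4) (F1.y v)‖ := by
      intro v
      rw [hnb]
      field_simp
    rw [e1] at key
    simp only [e2] at key
    exact key
  · have h3 := (lap_pot up D hDO F1 h1 h2 hL (c := c) ((hUE c hc.1).2 hc.2)).1
    have h4 : ContDiffAt ℝ 2 (potD up D) c := by exact_mod_cast contDiffAt_infty.1 h3 2
    exact h4.contDiffWithinAt
  · have h3 : |potD up D c| ≤ m := by
      unfold potD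
      rw [line_eq]
      refine hm _ (D.cp_lt ?_)
      show ‖c - LineD.kp‖ < 1 / 2
      have := mem_ball_iff_norm.1 hc.1
      linarith
    exact abs_le.1 h3
  · exact (lap_pot up D hDO F1 h1 h2 hL (c := c) ((hUE c hc.1).2 hc.2)).2

/-- `NUB` for all disc families -/
def NUall (A : Atl (2 * n) M) (K : Kah A) : Prop :=
  ∀ (U : Set (Cn 1)), IsOpen U → ∀ F : Fam A n 1 U, ∀ (a0 : ℂ) (R : ℝ), 0 < R → NUB F K a0 R

/-- **the local modulus for generic pairs** -/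
theorem local_modulus (up : UPre K o h) (hNU : NUall A K) (x₀ : M) (ε : ℝ)
    (hε : 0 < ε) : ∃ i, ∃ W ∈ 𝓝 x₀, W ⊆ (A.e i).source ∧
      ∀ z ∈ W ∩ o.F.Om, ∀ z' ∈ W ∩ o.F.Om, A.e i z' - A.e i z ∈ gen2 o.F i (A.e i z) →
        ∀ q ∈ o.F.Tf z, ∃ q' ∈ o.F.Tf z', dist q q' < ε := by
  obtain ⟨i, hi⟩ := A.cover x₀
  have ht : A.e i x₀ ∈ (A.e i).target := (A.e i).map_source hi
  obtain ⟨r0, hr0, hball0⟩ := Metric.isOpen_iff.1 (A.e i).open_target _ ht
  set ρ : ℝ := r0 / 4 with hρ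
  have hρ0 : 0 < ρ := by positivity
  have hball : Metric.closedBall (A.e i x₀) (3 * ρ) ⊆ (A.e i).target :=
    (Metric.closedBall_subset_ball (by rw [hρ]; linarith)).trans hball0
  -- the bound of the potential
  obtain ⟨Cw, hCw⟩ := (isCompact_closedBall (A.e i x₀) (3 * ρ)).exists_bound_of_continuousOn
    ((wt_smooth h i).continuousOn.mono hball)
  have ha := up.a_pos
  set m : ℝ := (4 * up.a)⁻¹ * (Cw + up.B) with hm
  have hgp : ∀ w ∈ Metric.closedBall (A.e i x₀) (3 * ρ), |gp up i w| ≤ m := by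
    intro w hw
    unfold gp
    rw [abs_mul, abs_of_pos (by positivity : (0 : ℝ) < (4 * up.a)⁻¹), hm]
    refine mul_le_mul_of_nonneg_left ?_ (by positivity)
    have h1 := hCw w hw
    rw [Real.norm_eq_abs] at h1
    exact (abs_add_le _ _).trans (add_le_add h1 (up.bdd _))
  have hm0 : 0 ≤ m := (abs_nonneg _).trans (hgp (A.e i x₀) (Metric.mem_closedBall_self (by positivity)))
  obtain ⟨δ, hδ, C, hC, hUC⟩ := exists_unif_chart K hε
  have hbv := bv_pos (n := n + 1)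
  have hHs : 0 < Hs 1 := Hs_pos one_pos
  set C₀ : ℝ := 2 * π * (m - -m) with hC₀
  have hC₀0 : 0 ≤ C₀ := by
    have := Real.pi_pos
    rw [hC₀]
    have : 0 ≤ m - -m := by linarith
    positivity
  set c₁ : ℝ := bv (n + 1) * Hs 1 * δ ^ (2 * (n + 1)) with hc₁
  have hc₁0 : 0 < c₁ := by positivity
  set X : ℝ := C ^ (n + 1) * C₀ / c₁ with hX
  have hX0 : 0 ≤ X := by positivity
  set r₁ : ℝ := ρ * Real.exp (-X) / 2 with hr₁
  have hexp1 : Real.exp (-X) ≤ 1 := by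
    rw [Real.exp_le_one_iff]
    linarith
  have hexp0 := Real.exp_pos (-X)
  have hr₁0 : 0 < r₁ := by positivity
  have hr₁ρ : r₁ ≤ ρ / 2 := by
    rw [hr₁]
    have := mul_le_mul_of_nonneg_left hexp1 hρ0.le
    linarith
  refine ⟨i, (A.e i).source ∩ A.e i ⁻¹' Metric.ball (A.e i x₀) r₁,
    ((A.e i).isOpen_inter_preimage Metric.isOpen_ball).mem_nhds
      ⟨hi, Metric.mem_ball_self hr₁0⟩, inter_subset_left, ?_⟩
  rintro z ⟨⟨hzs, hzb⟩, hzO⟩ z' ⟨⟨hzs', hzb'⟩, hzO'⟩ hgen q hq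
  by_contra hcon
  push Not at hcon
  -- the line
  set p := A.e i z' with hp
  set zz := A.e i z with hzz
  have hzzO : (A.e i).symm zz ∈ o.F.Om := by
    rw [hzz, (A.e i).left_inv hzs]
    exact hzO
  have hpO : (A.e i).symm p ∈ o.F.Om := by
    rw [hp, (A.e i).left_inv hzs']
    exact hzO'
  have hne : zz - p ≠ 0 := by
    intro h0
    apply ne_zero_of_trv o.F hgen.2
    rw [← neg_sub, h0, neg_zero]
  set t : ℝ := ‖zz - p‖ with ht'
  have ht0 : 0 < t := norm_pos_iff.2 hne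
  have htr : t < 2 * r₁ := by
    have h1 : dist zz (A.e i x₀) < r₁ := hzb
    have h2 : dist p (A.e i x₀) < r₁ := hzb'
    have h3 := dist_triangle_right zz p (A.e i x₀)
    rw [ht', ← dist_eq_norm]
    linarith
  have htρ : t < ρ := by linarith
  set w : Cn (2 * n) := ((t : ℂ)⁻¹) • (zz - p) with hw
  have htC : (t : ℂ) ≠ 0 := by exact_mod_cast ht0.ne'
  have hwn : ‖w‖ = 1 := by
    rw [hw, norm_smul, norm_inv, Complex.norm_real, Real.norm_of_nonneg ht0.le, ← ht',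
      inv_mul_cancel₀ ht0.ne']
  have hpz : p + (t : ℂ) • w = zz := by
    rw [hw, smul_smul, mul_inv_cancel₀ htC, one_smul]
    abel
  have hR : (0 : ℝ) < 2 * ρ := by positivity
  have hmem : ∀ c : ℂ, ‖c‖ ≤ 2 * ρ → p + c • w ∈ Metric.closedBall (A.e i x₀) (3 * ρ) := by
    intro c hc
    rw [mem_closedBall_iff_norm]
    have h2 : ‖p - A.e i x₀‖ < r₁ := mem_ball_iff_norm.1 hzb'
    have h3 : p + c • w - A.e i x₀ = (p - A.e i x₀) + c • w := by abel
    rw [h3]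
    refine (norm_add_le _ _).trans ?_
    rw [norm_smul, hwn]
    linarith
  have hmt : ∀ c : ℂ, ‖c‖ ≤ 2 * ρ → p + c • w ∈ (A.e i).target := fun c hc => hball (hmem c hc)
  obtain ⟨hcb, htb, hiso⟩ := line_good o.F hR hmt hpz
    (by rw [Complex.norm_real, Real.norm_of_nonneg ht0.le]; linarith) hzzO hgen
  set D : LineD A o.F.Tf n n := lineD o.F i p w hR hmt with hD
  have hDR : D.R = 2 * ρ := rfl
  have hDO : D.Om ⊆ o.F.Om := fun x hx => hx
  -- the point of the base over `z`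
  set u₁ : Cn 1 := ofC (LineD.kp + (t : ℂ) / (4 * ρ)) with hu₁
  have hρC : (ρ : ℂ) ≠ 0 := by exact_mod_cast hρ0.ne'
  have hcp1 : D.cp u₁ = t := by
    show ((2 * D.R : ℝ) : ℂ) * (LineD.kp + (t : ℂ) / (4 * ρ) - LineD.kp) = t
    rw [hDR]
    push_cast
    field_simp
    ring
  have hbc1 : bc LineD.kp (1 / 4) u₁ = (t : ℂ) / ρ := by
    have := cp_eq_bc D hDR u₁
    rw [hcp1] at this
    rw [this]
    field_simp
  have hζn : ‖bc LineD.kp (1 / 4) u₁‖ = t / ρ := by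
    rw [hbc1, norm_div, Complex.norm_real, Complex.norm_real, Real.norm_of_nonneg ht0.le,
      Real.norm_of_nonneg hρ0.le]
  have hζ1 : ‖bc LineD.kp (1 / 4) u₁‖ < 1 := by
    rw [hζn, div_lt_one hρ0]
    exact htρ
  have hu₁U : u₁ ∈ D.UU := by
    rw [mem_UU_iff D hDR u₁ hζ1]
    rintro ⟨-, h3⟩
    rw [hbc1] at h3
    have h4 : (ρ : ℂ) * ((t : ℂ) / ρ) = t := by field_simp
    rw [h4] at h3
    exact htb h3
  obtain ⟨F1, h1, h2⟩ := D.exists_disc ⟨u₁, hu₁U⟩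
  have hmass := mass_line up D hDO hcb (m := m) (fun c hc => hgp _ (hmem c hc.le)) F1 h1 h2
    (hNU _ D.isOpen_UU F1 _ _ (by norm_num))
  -- the point over `q`
  have hptt : D.pt (D.cp u₁) = z := by
    rw [hcp1]
    show (A.e i).symm (p + (t : ℂ) • w) = z
    rw [hpz, hzz, (A.e i).left_inv hzs]
  obtain ⟨vq, hvy, hvq⟩ := h2 u₁ hu₁U q (by rw [hptt]; exact hq)
  obtain ⟨j, hqj, hjb, hjU⟩ := hUC q
  -- the fibre over the centre misses the chart ball
  have hGc : IsCompact ((A.e j).symm '' Metric.closedBall (A.e j q) δ) :=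
    (isCompact_closedBall _ _).image_of_continuousOn ((A.e j).continuousOn_symm.mono hjb)
  have hTG : o.F.Tf z' ⊆ ((A.e j).symm '' Metric.closedBall (A.e j q) δ)ᶜ := by
    rintro x hx ⟨y, hy, hyx⟩
    have h3 := (hjU y hy).1
    rw [hyx] at h3
    have h4 := hcon x hx
    rw [dist_comm] at h4
    exact absurd h3 (not_lt.2 h4)
  have husc := Hs_254.usc o.F hzO' hGc.isClosed.isOpen_compl hTG
  have hpt0 : D.pt 0 = z' := by
    show (A.e i).symm (p + (0 : ℂ) • w) = z'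
    rw [zero_smul, add_zero, hp, (A.e i).left_inv hzs']
  have hev : ∀ᶠ c in 𝓝 (0 : ℂ), o.F.Tf (D.pt c) ⊆
      ((A.e j).symm '' Metric.closedBall (A.e j q) δ)ᶜ := by
    have h3 : ContinuousAt D.pt 0 := D.cont_pt.continuousAt
      (mem_of_superset (Metric.isOpen_ball.mem_nhds (by simpa [hDR] using hρ0))
        Metric.ball_subset_closedBall)
    rw [← hpt0] at husc
    exact h3.eventually husc
  obtain ⟨r₂, hr₂, hr₂'⟩ := Metric.eventually_nhds_iff.1 hev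
  have hmiss : ∀ v, F1.i v ∈ (A.e j).symm '' Metric.ball (A.e j q) δ →
      r₂ / (2 * ρ) < ‖bc LineD.kp (1 / 4) (F1.y v)‖ := by
    rintro v ⟨y, hy, hyv⟩
    by_contra h3
    rw [not_lt, le_div_iff₀ hR] at h3
    have h4 : dist (D.cp (F1.y v)) 0 < r₂ := by
      rw [dist_zero_right, cp_eq_bc D hDR, norm_mul, Complex.norm_real,
        Real.norm_of_nonneg hρ0.le]
      have h5 : 0 ≤ ‖bc LineD.kp (1 / 4) (F1.y v)‖ := norm_nonneg _
      have h6 : ‖bc LineD.kp (1 / 4) (F1.y v)‖ * (2 * ρ) =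
        2 * (ρ * ‖bc LineD.kp (1 / 4) (F1.y v)‖) := by ring
      rw [h6] at h3
      rcases eq_or_lt_of_le (mul_nonneg hρ0.le h5) with h7 | h7
      · rw [← h7]
        exact hr₂
      · linarith
    exact hr₂' h4 (h1 v) ⟨y, Metric.ball_subset_closedBall hy, hyv⟩
  have hρR : ρ < D.R := by rw [hDR]; linarith
  have hpair := pair_bound F1 K (a₀ := LineD.kp) (R₀ := 1 / 4) (E := nbad D ρ) (by norm_num)
    (isCompact_nbad_sdiff D hρ0 hρR (hiso 0 (by simpa using hρ0) (by simpa using hpO)))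
    (countable_nbad D hρ0 hρR hcb) (fun a ha => ha.1)
    (fun u hu hub => (mem_UU_iff D hDR u hu).2 hub) (fun u hu => not_nbad_of_UU D hDR hu)
    hqj hδ hC.le hjb (fun y hy => (hjU y hy).2) hvq (by rw [hvy]; exact hζ1)
    (by positivity : 0 < r₂ / (2 * ρ)) hmiss hC₀0 hmass
  rw [hvy, hζn, ← hc₁] at hpair
  -- the contradiction
  have hlog : X < Real.log (1 / (t / ρ)) := by
    rw [Real.lt_log_iff_exp_lt (by positivity), one_div_div, lt_div_iff₀ ht0]
    have h3 : t < ρ * Real.exp (-X) := by linarith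
    have h4 : Real.exp X * t < Real.exp X * (ρ * Real.exp (-X)) :=
      mul_lt_mul_of_pos_left h3 (Real.exp_pos X)
    have h5 : Real.exp X * (ρ * Real.exp (-X)) = ρ := by
      rw [mul_left_comm, ← Real.exp_add, add_neg_cancel, Real.exp_zero, mul_one]
    linarith
  have hlog0 : 0 < Real.log (1 / (t / ρ)) := hX0.trans_lt hlog
  rw [le_div_iff₀ hlog0] at hpair
  have h6 : X * c₁ = C ^ (n + 1) * C₀ := by
    rw [hX]
    field_simp
  nlinarith [mul_lt_mul_of_pos_left hlog hc₁0]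

/-- **the partition** -/
theorem exists_pd (hn : 0 < n) (up : UPre K o h) (hNU : NUall A K) :
    ∃ P : PD M, P.Om = o.F.Om ∧ ∀ x ∈ o.F.Om, P.T x = o.F.Tf x :=
  ⟨pd2 o.F hn (local_modulus up hNU), rfl, fun _ _ => rfl⟩

end

end Crest.Agent.R281.Con_166
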