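import Crest.Agent.R281.Fib3_425

/-!
# R281 (S0424), leaf S6-FIB, part 4 (helper425): from weak to pointwise statements, positivity

* `parts_dj`, `parts_dbj` : integration by parts on the base for complex test functions;
* `push_eq_of_weak`, `push_dj_of_weak`, `push_dbj_of_weak`, `push_ddb_of_weak` :
  weak identities tested against `χ(y)` give pointwise identities for `push`;
* `push_real`, `push_nonneg`, `push_mono`, `norm_push_mul_le`.
-/

set_option autoImplicit false
set_option linter.unusedSectionVars false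

open Set Filter Topology Complex MeasureTheory
open scoped ContDiff ComplexConjugate

namespace Crest.Agent.R281.Fib4_425

open Crest.Agent.R275.Geo Crest.Agent.R275.Tor812 Crest.Agent.R275.TorS666
open Crest.Agent.R275.C1d194 Crest.Agent.R275.Pai323 Crest.Agent.R275.OmT75
open Crest.Agent.R275.SerG398 (lint dens DPair)
open Crest.Agent.R273.StokesV_332 Crest.Agent.R281.Fib1_425 Crest.Agent.R281.Fib2_425
open Crest.Agent.R281.Fib3_425

noncomputable section

/-! ### integration by parts for complex test functions -/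

section base

variable {m : ℕ} {U : Set (Cn m)}

theorem contDiff_mulC (hU : IsOpen U) {χ : Cn m → ℂ} (hχ : ContDiff ℝ ∞ χ)
    (hs : tsupport χ ⊆ U) {F : Cn m → ℂ} (hF : ContDiffOn ℝ ∞ F U) :
    ContDiff ℝ ∞ (fun z => χ z * F z) := by
  rw [contDiff_iff_contDiffAt]
  intro z
  by_cases hz : z ∈ tsupport χ
  · exact hχ.contDiffAt.mul (hF.contDiffAt (hU.mem_nhds (hs hz)))
  · have : (fun z => χ z * F z) =ᶠ[𝓝 z] fun _ => 0 := by
      filter_upwards [(isClosed_tsupport χ).isOpen_compl.mem_nhds hz] with w' hw'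
      rw [image_eq_zero_of_notMem_tsupport hw', zero_mul]
    exact contDiffAt_const.congr_of_eventuallyEq this

theorem contDiff_dj {χ : Cn m → ℂ} (hχ : ContDiff ℝ ∞ χ) (k : Fin m) : ContDiff ℝ ∞ (dj k χ) :=
  contDiffOn_univ.1 (contDiffOn_dj isOpen_univ hχ.contDiffOn k)

theorem tsupport_dj (χ : Cn m → ℂ) (k : Fin m) : tsupport (dj k χ) ⊆ tsupport χ :=
  closure_minimal (fun z hz => by
    by_contra h
    exact hz (dj_zero_of h k)) (isClosed_tsupport χ)

theorem hasCompactSupport_dj {χ : Cn m → ℂ} (hc : HasCompactSupport χ) (k : Fin m) :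
    HasCompactSupport (dj k χ) :=
  IsCompact.of_isClosed_subset hc (isClosed_tsupport _) (tsupport_dj χ k)

/-- integration by parts, `∂_k` -/
theorem parts_dj (hU : IsOpen U) {χ : Cn m → ℂ} (hχ : ContDiff ℝ ∞ χ)
    (hc : HasCompactSupport χ) (hs : tsupport χ ⊆ U) {F : Cn m → ℂ} (hF : ContDiffOn ℝ ∞ F U)
    (k : Fin m) : ∫ w : RI m → ℝ, dj k χ (cc w) * F (cc w) =
      - ∫ w : RI m → ℝ, χ (cc w) * dj k F (cc w) := by
  have hf := contDiff_mulC hU hχ hs hF
  have hfc : HasCompactSupport (fun z => χ z * F z) :=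
    HasCompactSupport.intro hc fun z hz => by
      rw [image_eq_zero_of_notMem_tsupport hz, zero_mul]
  have h0 := integral_dj_zero hf hfc k
  have h1 : ∀ z, dj k (fun z => χ z * F z) z = dj k χ z * F z + χ z * dj k F z := by
    intro z
    by_cases hz : z ∈ tsupport χ
    · exact dj_mul (hχ.differentiable (by simp) z)
        ((hF.contDiffAt (hU.mem_nhds (hs hz))).differentiableAt (by simp))
    · rw [dj_zero_of hz, image_eq_zero_of_notMem_tsupport hz, dj_zero_of]
      · simp
      · intro h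
        refine hz ?_
        refine closure_minimal ?_ (isClosed_tsupport χ) h
        intro z' hz'
        by_contra h'
        refine hz' ?_
        show χ z' * F z' = 0
        rw [image_eq_zero_of_notMem_tsupport h', zero_mul]
  simp_rw [h1] at h0
  have hi1 : Integrable (fun w : RI m → ℝ => dj k χ (cc w) * F (cc w)) := by
    refine Continuous.integrable_of_hasCompactSupport ?_ ?_
    · exact (contDiff_mulC hU (contDiff_dj hχ k) ((tsupport_dj χ k).trans hs) hF).continuous.comp
        continuous_cc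
    · refine HasCompactSupport.intro (K := rc '' tsupport χ) (hc.image continuous_rc)
        fun w hw => ?_
      rw [dj_zero_of fun h => hw ⟨cc w, h, rc_cc w⟩, zero_mul]
  have hi2 : Integrable (fun w : RI m → ℝ => χ (cc w) * dj k F (cc w)) := by
    refine Continuous.integrable_of_hasCompactSupport ?_ ?_
    · exact (contDiff_mulC hU hχ hs (contDiffOn_dj hU hF k)).continuous.comp continuous_cc
    · refine HasCompactSupport.intro (K := rc '' tsupport χ) (hc.image continuous_rc)
        fun w hw => ?_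
      rw [image_eq_zero_of_notMem_tsupport fun h => hw ⟨cc w, h, rc_cc w⟩, zero_mul]
  rw [integral_add hi1 hi2] at h0
  exact eq_neg_of_add_eq_zero_left h0

theorem dbj_conj {k : Fin m} {F : Cn m → ℂ} (z : Cn m) :
    dbj k (fun z => conj (F z)) z = conj (dj k F z) := by
  have h := dj_conj (k := k) (F := fun z => conj (F z)) z
  simp only [Complex.conj_conj] at h
  rw [h, Complex.conj_conj]

theorem dbj_eq_conj {k : Fin m} (F : Cn m → ℂ) (z : Cn m) :
    dbj k F z = conj (dj k (fun z => conj (F z)) z) := by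
  rw [dj_conj, Complex.conj_conj]

theorem contDiff_conj {χ : Cn m → ℂ} (hχ : ContDiff ℝ ∞ χ) :
    ContDiff ℝ ∞ (fun z => conj (χ z)) := Complex.conjCLE.contDiff.comp hχ

theorem contDiffOn_conj {χ : Cn m → ℂ} (hχ : ContDiffOn ℝ ∞ χ U) :
    ContDiffOn ℝ ∞ (fun z => conj (χ z)) U := Complex.conjCLE.contDiff.comp_contDiffOn hχ

theorem tsupport_conj (χ : Cn m → ℂ) : tsupport (fun z => conj (χ z)) = tsupport χ := by
  unfold tsupport
  congr 1
  ext z
  simp

theorem hasCompactSupport_conj {χ : Cn m → ℂ} (hc : HasCompactSupport χ) :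
    HasCompactSupport (fun z => conj (χ z)) := by
  unfold HasCompactSupport
  rw [tsupport_conj]
  exact hc

theorem contDiffOn_dbj (hU : IsOpen U) {F : Cn m → ℂ} (hF : ContDiffOn ℝ ∞ F U) (k : Fin m) :
    ContDiffOn ℝ ∞ (dbj k F) U := by
  have h := contDiffOn_conj (contDiffOn_dj hU (contDiffOn_conj hF) k)
  exact h.congr fun z _ => dbj_eq_conj F z

theorem contDiff_dbj {χ : Cn m → ℂ} (hχ : ContDiff ℝ ∞ χ) (k : Fin m) :
    ContDiff ℝ ∞ (dbj k χ) :=
  contDiffOn_univ.1 (contDiffOn_dbj isOpen_univ hχ.contDiffOn k)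

theorem tsupport_dbj (χ : Cn m → ℂ) (k : Fin m) : tsupport (dbj k χ) ⊆ tsupport χ :=
  closure_minimal (fun z hz => by
    by_contra h
    refine hz ?_
    rw [dbj_eq_conj, dj_zero_of (by rwa [tsupport_conj]), map_zero]) (isClosed_tsupport χ)

theorem hasCompactSupport_dbj {χ : Cn m → ℂ} (hc : HasCompactSupport χ) (k : Fin m) :
    HasCompactSupport (dbj k χ) :=
  IsCompact.of_isClosed_subset hc (isClosed_tsupport _) (tsupport_dbj χ k)

/-- integration by parts, `∂̄_k` -/
theorem parts_dbj (hU : IsOpen U) {χ : Cn m → ℂ} (hχ : ContDiff ℝ ∞ χ)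
    (hc : HasCompactSupport χ) (hs : tsupport χ ⊆ U) {F : Cn m → ℂ} (hF : ContDiffOn ℝ ∞ F U)
    (k : Fin m) : ∫ w : RI m → ℝ, dbj k χ (cc w) * F (cc w) =
      - ∫ w : RI m → ℝ, χ (cc w) * dbj k F (cc w) := by
  have h1 := parts_dj hU (contDiff_conj hχ) (hasCompactSupport_conj hc)
    (by rwa [tsupport_conj]) (contDiffOn_conj hF) k
  have h2 := congrArg conj h1
  rw [map_neg, ← integral_conj, ← integral_conj] at h2
  simp only [map_mul, Complex.conj_conj] at h2
  simpa only [← dbj_eq_conj] using h2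

end base

/-! ### from weak to pointwise -/

variable {d m : ℕ} {V : Type} [TopologicalSpace V] {B : Atl (d + m) V} {y : V → Cn m}
  {U : Set (Cn m)} {P P' : Part B} {η θ E Θ : B.ι → V → ℂ} [T2Space V]

/-- test functions on `U` -/
structure Tst (U : Set (Cn m)) (χ : Cn m → ℝ) : Prop where
  sm : ContDiff ℝ ∞ χ
  cpt : HasCompactSupport χ
  sub : tsupport χ ⊆ U

theorem Tst.smC {χ : Cn m → ℝ} (h : Tst U χ) : ContDiff ℝ ∞ (fun z => (χ z : ℂ)) :=
  Complex.ofRealCLM.contDiff.comp h.sm

theorem Tst.subC {χ : Cn m → ℝ} (h : Tst U χ) : tsupport (fun z => (χ z : ℂ)) ⊆ U := by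
  rw [tsupport_ofReal]; exact h.sub

theorem Tst.cptC {χ : Cn m → ℝ} (h : Tst U χ) : HasCompactSupport (fun z => (χ z : ℂ)) := by
  unfold HasCompactSupport
  rw [tsupport_ofReal]; exact h.cpt

/-- Fubini for a complex test function -/
theorem intD_pushC (h : Prj B y U) (hη : ∀ i, B.SmAt i (η i)) {χ : Cn m → ℂ}
    (hχ : ContDiff ℝ ∞ χ) (hc : HasCompactSupport χ) (hs : tsupport χ ⊆ U) :
    intD P (fun i x => χ (y x) * η i x) = ∫ w : RI m → ℝ, χ (cc w) * push P η (cc w) :=
  intD_push h hη hχ hc hs fun _ hw => image_eq_zero_of_notMem_tsupport hw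

theorem push_eq_of_weak (h : Prj B y U) (hE : ∀ i, B.SmAt i (E i)) (hΘ : ∀ i, B.SmAt i (Θ i))
    (hw : ∀ χ : Cn m → ℝ, Tst U χ → intD P (fun i x => (χ (y x) : ℂ) * E i x) =
      intD P' (fun i x => (χ (y x) : ℂ) * Θ i x)) :
    ∀ w ∈ U, push P E w = push P' Θ w := by
  refine push_eq_of_dual h hE (continuousOn_push h hΘ) fun χ h1 h2 h3 => ?_
  have ht : Tst U χ := ⟨h1, h2, h3⟩
  rw [hw χ ht]
  exact intD_pushC h hΘ ht.smC ht.cptC ht.subC

theorem push_dj_of_weak (h : Prj B y U) (hE : ∀ i, B.SmAt i (E i)) (hΘ : ∀ i, B.SmAt i (Θ i))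
    (k : Fin m)
    (hw : ∀ χ : Cn m → ℝ, Tst U χ → intD P (fun i x => (χ (y x) : ℂ) * E i x) =
      - intD P' (fun i x => dj k (fun z => (χ z : ℂ)) (y x) * Θ i x)) :
    ∀ w ∈ U, push P E w = dj k (push P' Θ) w := by
  have hp := contDiffOn_push (P := P') h hΘ
  refine push_eq_of_dual h hE (contDiffOn_dj h.opn hp k).continuousOn fun χ h1 h2 h3 => ?_
  have ht : Tst U χ := ⟨h1, h2, h3⟩
  rw [hw χ ht, intD_pushC h hΘ (contDiff_dj ht.smC k) (hasCompactSupport_dj ht.cptC k)
    ((tsupport_dj _ k).trans ht.subC), parts_dj h.opn ht.smC ht.cptC ht.subC hp k, neg_neg]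

theorem push_dbj_of_weak (h : Prj B y U) (hE : ∀ i, B.SmAt i (E i)) (hΘ : ∀ i, B.SmAt i (Θ i))
    (k : Fin m)
    (hw : ∀ χ : Cn m → ℝ, Tst U χ → intD P (fun i x => (χ (y x) : ℂ) * E i x) =
      - intD P' (fun i x => dbj k (fun z => (χ z : ℂ)) (y x) * Θ i x)) :
    ∀ w ∈ U, push P E w = dbj k (push P' Θ) w := by
  have hp := contDiffOn_push (P := P') h hΘ
  refine push_eq_of_dual h hE (contDiffOn_dbj h.opn hp k).continuousOn fun χ h1 h2 h3 => ?_
  have ht : Tst U χ := ⟨h1, h2, h3⟩
  rw [hw χ ht, intD_pushC h hΘ (contDiff_dbj ht.smC k) (hasCompactSupport_dbj ht.cptC k)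
    ((tsupport_dbj _ k).trans ht.subC), parts_dbj h.opn ht.smC ht.cptC ht.subC hp k, neg_neg]

/-- **weak `∂∂̄` identities are pointwise identities** (`∂̄_l ∂_k χ` on the test function) -/
theorem push_ddb_of_weak (h : Prj B y U) (hE : ∀ i, B.SmAt i (E i)) (hΘ : ∀ i, B.SmAt i (Θ i))
    (k l : Fin m)
    (hw : ∀ χ : Cn m → ℝ, Tst U χ → intD P (fun i x => (χ (y x) : ℂ) * E i x) =
      intD P' (fun i x => dbj l (dj k (fun z => (χ z : ℂ))) (y x) * Θ i x)) :
    ∀ w ∈ U, push P E w = dj k (dbj l (push P' Θ)) w := by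
  have hp := contDiffOn_push (P := P') h hΘ
  have hp' := contDiffOn_dbj h.opn hp l
  refine push_eq_of_dual h hE (contDiffOn_dj h.opn hp' k).continuousOn fun χ h1 h2 h3 => ?_
  have ht : Tst U χ := ⟨h1, h2, h3⟩
  have h4 := contDiff_dj ht.smC k
  have h5 := hasCompactSupport_dj ht.cptC k
  have h6 := (tsupport_dj (fun z => (χ z : ℂ)) k).trans ht.subC
  rw [hw χ ht, intD_pushC h hΘ (contDiff_dbj h4 l) (hasCompactSupport_dbj h5 l)
    ((tsupport_dbj _ l).trans h6), parts_dbj h.opn h4 h5 h6 hp l,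
    parts_dj h.opn ht.smC ht.cptC ht.subC hp' k, neg_neg]

/-- the same with the other order of the derivatives of the test function -/
theorem push_ddb_of_weak' (h : Prj B y U) (hE : ∀ i, B.SmAt i (E i)) (hΘ : ∀ i, B.SmAt i (Θ i))
    (k l : Fin m)
    (hw : ∀ χ : Cn m → ℝ, Tst U χ → intD P (fun i x => (χ (y x) : ℂ) * E i x) =
      intD P' (fun i x => dj k (dbj l (fun z => (χ z : ℂ))) (y x) * Θ i x)) :
    ∀ w ∈ U, push P E w = dbj l (dj k (push P' Θ)) w := by
  have hp := contDiffOn_push (P := P') h hΘ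
  have hp' := contDiffOn_dj h.opn hp k
  refine push_eq_of_dual h hE (contDiffOn_dbj h.opn hp' l).continuousOn fun χ h1 h2 h3 => ?_
  have ht : Tst U χ := ⟨h1, h2, h3⟩
  have h4 := contDiff_dbj ht.smC l
  have h5 := hasCompactSupport_dbj ht.cptC l
  have h6 := (tsupport_dbj (fun z => (χ z : ℂ)) l).trans ht.subC
  rw [hw χ ht, intD_pushC h hΘ (contDiff_dj h4 k) (hasCompactSupport_dj h5 k)
    ((tsupport_dj _ k).trans h6), parts_dj h.opn h4 h5 h6 hp k,
    parts_dbj h.opn ht.smC ht.cptC ht.subC hp' l, neg_neg]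

/-! ### positivity -/

/-- a real density has a real push-forward -/
theorem push_real (h : Prj B y U) {w : Cn m} (hw : w ∈ U)
    (hr : ∀ i, ∀ x ∈ (B.e i).source, y x = w → (η i x).im = 0) : (push P η w).im = 0 := by
  have h1 : push P (fun i x => conj (η i x)) w = push P η w :=
    push_congr h fun i x hx hy => Complex.conj_eq_iff_im.2 (hr i x hx hy)
  rw [push_conj h hw] at h1
  exact Complex.conj_eq_iff_im.1 h1

/-- **positivity** -/
theorem push_nonneg (h : Prj B y U) (hη : Den B η) (hp : NonnegD B η) :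
    ∀ w ∈ U, 0 ≤ (push P η w).re ∧ (push P η w).im = 0 := by
  intro w hw
  have him : ∀ w ∈ U, (push P η w).im = 0 := fun w hw =>
    push_real h hw fun i x hx _ => (hp i x hx).2
  refine ⟨?_, him w hw⟩
  by_contra hneg
  push Not at hneg
  have hcont := continuousOn_push (P := P) h hη.sm
  have h1 : ∀ᶠ z in 𝓝 w, (push P η z).re < 0 ∧ z ∈ U := by
    have h2 : ContinuousAt (fun z => (push P η z).re) w :=
      Complex.continuous_re.continuousAt.comp (hcont.continuousAt (h.opn.mem_nhds hw))
    exact (h2.eventually_lt continuousAt_const hneg).and (h.opn.mem_nhds hw)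
  obtain ⟨ε, hε, hball⟩ := Metric.eventually_nhds_iff_ball.1 h1
  let χ : ContDiffBump w := ⟨ε / 4, ε / 2, by linarith, by linarith⟩
  have hsupp : tsupport χ ⊆ Metric.ball w ε := by
    rw [χ.tsupport_eq]
    exact Metric.closedBall_subset_ball (by show ε / 2 < ε; linarith)
  have hcs : HasCompactSupport (χ : Cn m → ℝ) := χ.hasCompactSupport
  have hT : Tst U (χ : Cn m → ℝ) := ⟨χ.contDiff, hcs, fun z hz => (hball z (hsupp hz)).2⟩
  have h3 := intD_pushC (P := P) h hη.sm hT.smC hT.cptC hT.subC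
  have h4 := intD_nonneg P (f := fun i x => ((χ (y x) : ℝ) : ℂ) * η i x)
    (hη.mulF (h.sm hT.smC.contDiffOn)) (fun i x hx => by
      rw [Complex.re_ofReal_mul, Complex.im_ofReal_mul, (hp i x hx).2, mul_zero]
      exact ⟨mul_nonneg χ.nonneg (hp i x hx).1, rfl⟩) (h.proper _ hT.sub hcs)
      (fun i x _ hx => by
        show ((χ (y x) : ℝ) : ℂ) * η i x = 0
        rw [image_eq_zero_of_notMem_tsupport hx]; simp)
  rw [h3] at h4
  -- the integrand
  have h5 : Continuous (fun z : Cn m => (χ z : ℝ) * (push P η z).re) := by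
    rw [continuous_iff_continuousAt]
    intro z
    by_cases hz : z ∈ tsupport χ
    · exact χ.continuous.continuousAt.mul (Complex.continuous_re.continuousAt.comp
        (hcont.continuousAt (h.opn.mem_nhds (hT.sub hz))))
    · have : (fun z : Cn m => (χ z : ℝ) * (push P η z).re) =ᶠ[𝓝 z] fun _ => 0 := by
        filter_upwards [(isClosed_tsupport χ).isOpen_compl.mem_nhds hz] with w' hw'
        rw [image_eq_zero_of_notMem_tsupport hw', zero_mul]
      exact continuousAt_const.congr this.symm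
  have h6 : ∀ z : Cn m, (χ z : ℝ) * (push P η z).re ≤ 0 := by
    intro z
    by_cases hz : z ∈ tsupport χ
    · exact mul_nonpos_of_nonneg_of_nonpos χ.nonneg (hball z (hsupp hz)).1.le
    · rw [image_eq_zero_of_notMem_tsupport hz, zero_mul]
  have h7 : (∫ v : RI m → ℝ, ((χ (cc v) : ℝ) : ℂ) * push P η (cc v)).re =
      ∫ v : RI m → ℝ, (χ (cc v) : ℝ) * (push P η (cc v)).re := by
    have hint : Integrable (fun v : RI m → ℝ => ((χ (cc v) : ℝ) : ℂ) * push P η (cc v)) := by
      refine Continuous.integrable_of_hasCompactSupport ?_ ?_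
      · exact (contDiff_mul_of_support h.opn hT.sm hT.sub
          (contDiffOn_push h hη.sm)).continuous.comp continuous_cc
      · refine HasCompactSupport.intro (K := rc '' tsupport χ) (hcs.image continuous_rc)
          fun v hv => ?_
        rw [image_eq_zero_of_notMem_tsupport fun h => hv ⟨cc v, h, rc_cc v⟩]; simp
    have h8 : (∫ v : RI m → ℝ, ((χ (cc v) : ℝ) : ℂ) * push P η (cc v)).re =
        ∫ v : RI m → ℝ, (((χ (cc v) : ℝ) : ℂ) * push P η (cc v)).re :=
      (integral_re hint).symm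
    rw [h8]
    refine integral_congr_ae (Eventually.of_forall fun v => ?_)
    exact Complex.re_ofReal_mul _ _
  rw [h7] at h4
  have h9 : Integrable (fun v : RI m → ℝ => -((χ (cc v) : ℝ) * (push P η (cc v)).re)) := by
    refine Continuous.integrable_of_hasCompactSupport (h5.comp continuous_cc).neg ?_
    refine HasCompactSupport.intro (K := rc '' tsupport χ) (hcs.image continuous_rc)
      fun v hv => ?_
    rw [image_eq_zero_of_notMem_tsupport fun h => hv ⟨cc v, h, rc_cc v⟩]; simp
  have h10 : ∫ v : RI m → ℝ, -((χ (cc v) : ℝ) * (push P η (cc v)).re) = 0 := by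
    have h11 : 0 ≤ ∫ v : RI m → ℝ, -((χ (cc v) : ℝ) * (push P η (cc v)).re) :=
      integral_nonneg fun v => neg_nonneg.2 (h6 (cc v))
    rw [integral_neg] at h11 ⊢
    linarith [h4.1]
  have h12 : (fun v : RI m → ℝ => -((χ (cc v) : ℝ) * (push P η (cc v)).re)) = fun _ => (0 : ℝ) :=
    (Continuous.ae_eq_iff_eq volume (h5.comp continuous_cc).neg continuous_const).1
      ((integral_eq_zero_iff_of_nonneg (fun v => neg_nonneg.2 (h6 (cc v))) h9).1 h10)
  have h13 := congrFun h12 (rc w)
  simp only [cc_rc] at h13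
  have h14 : (χ w : ℝ) = 1 := χ.one_of_mem_closedBall (Metric.mem_closedBall_self (by
    show 0 ≤ ε / 4; linarith))
  rw [h14, one_mul, neg_eq_zero] at h13
  linarith

/-- monotonicity -/
theorem push_mono (h : Prj B y U) (hη : Den B η) (hθ : Den B θ)
    (hr : ∀ i, ∀ x ∈ (B.e i).source, (η i x).im = 0 ∧ (θ i x).im = 0)
    (hle : ∀ i, ∀ x ∈ (B.e i).source, (η i x).re ≤ (θ i x).re) :
    ∀ w ∈ U, (push P η w).re ≤ (push P θ w).re := by
  intro w hw
  have h1 := push_nonneg (P := P) h (η := fun i x => θ i x + (-1) * η i x)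
    (hθ.add (hη.smul (-1))) (fun i x hx => by
      have h2 := hle i x hx
      have h3 := hr i x hx
      constructor
      · simp only [Complex.add_re, Complex.mul_re, Complex.neg_re, Complex.one_re, Complex.neg_im,
          Complex.one_im]
        linarith
      · simp only [Complex.add_im, Complex.mul_im, Complex.neg_re, Complex.one_re, Complex.neg_im,
          Complex.one_im, h3.1, h3.2]
        ring) w hw
  rw [push_add h hθ.sm (hη.smul (-1)).sm hw, push_smul h (-1) hw] at h1
  have h4 := h1.1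
  simp only [Complex.add_re, Complex.mul_re, Complex.neg_re, Complex.one_re, Complex.neg_im,
    Complex.one_im] at h4
  linarith

/-- bound for averages: `|f_*(a η)| ≤ C f_* η` for `|a| ≤ C`, `η ≥ 0` -/
theorem abs_push_mul_le (h : Prj B y U) (hη : Den B η) (hp : NonnegD B η) {a : V → ℝ}
    (ha : B.Sm a) {C : ℝ} (hC : ∀ x, |a x| ≤ C) :
    ∀ w ∈ U, |(push P (fun i x => (a x : ℂ) * η i x) w).re| ≤ C * (push P η w).re := by
  intro w hw
  have haC : B.Sm (fun x => (a x : ℂ)) := fun i => smAt_ofReal (ha i)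
  have hd := hη.mulF haC
  have key : ∀ s : ℝ, |s| = 1 →
      s * (push P (fun i x => (a x : ℂ) * η i x) w).re ≤ C * (push P η w).re := by
    intro s hs
    have h1 := push_mono (P := P) h (hd.smul (s : ℂ)) (hη.smul (C : ℂ)) (fun i x hx => by
      have := (hp i x hx).2
      simp [this]) (fun i x hx => by
      have h2 := hp i x hx
      have h3 := hC x
      have h4 : s * a x ≤ C := by
        have := le_abs_self (s * a x)
        rw [abs_mul, hs, one_mul] at this
        exact this.trans h3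
      simp only [Complex.re_ofReal_mul]
      nlinarith [h2.1]) w hw
    rw [push_smul h _ hw, push_smul h _ hw, Complex.re_ofReal_mul, Complex.re_ofReal_mul] at h1
    exact h1
  rw [abs_le]
  constructor
  · have := key (-1) (by simp)
    linarith
  · have := key 1 (by simp)
    linarith

end

end Crest.Agent.R281.Fib4_425
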