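import Crest.Agent.R281.Fub4_163

/-!
# R281 (S0424), DIV 6, S6-FUB (helper163), part 5: the volume of the leaves

`F : Fam A d m U`, `K : Kah A`.

* `den_det`             : `det K` is a density;
* `fbD F K`             : the density `det (fibre block)`; `smAt_fbD`, `contOn_fbD`;
* `mass F K u`          : the volume of the leaf over `u`, `mass_eq_leaf`, `fib_fbD`, `mass_pos`,
  `mass_contDiffOn`, `mass_continuousOn`;
* `intD_mass`, `intD_massC` : `∫_V χ(y) det(fb K_V) = ∫_U χ mass`;
* `mass_const_of`, `mass_const_ofC` : the tested form of `mass = v` implies `mass F K u = v`;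
* `fib_eq_of_test`      : two smooth (continuous) densities with the same tested integrals have the
  same fibre integrals.
-/

set_option autoImplicit false
set_option linter.unusedSectionVars false

open Set Filter Topology Complex Function MeasureTheory
open scoped ContDiff Matrix ComplexConjugate ComplexOrder

namespace Crest.Agent.R281.Fub5_163

open Crest.Agent.R275.Geo Crest.Agent.R275.Core144 Crest.Agent.R275.EDR890
open Crest.Agent.R275.C1d194 Crest.Agent.R275.Pai323
open Crest.Agent.R275.SerG398 (lint dens)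
open Crest.Agent.R273.StokesV_332
open Crest.Agent.R273.Defs_333 Crest.Agent.R273.Kah_333 Crest.Agent.R273.Hess_333
open Crest.Agent.R273.KahI_645 Crest.Agent.R273.Vol_333
open Crest.Agent.R273.Vm_333 Crest.Agent.R281.Defs_273 Crest.Agent.R281.S6D_664
open Crest.Agent.R281.Fub4_163
open Crest.Agent.R281.Fub_192 (glue leaf latl lch lpart Lf lch_symm_val continuous_y isCompact_fibre
  volK_leaf kah_leaf)

noncomputable section

/-! ### determinants as densities -/

section det_

variable {n : ℕ} {V : Type} [TopologicalSpace V] {B : Atl n V}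

theorem det_conj_map (m : Matrix (Fin n) (Fin n) ℂ) : (m.map conj).det = conj m.det := by
  rw [← RingHom.mapMatrix_apply, ← RingHom.map_det]

/-- the determinant of a `(1,1)`-tensor is a density -/
theorem den_detS {S : B.ι → V → Matrix (Fin n) (Fin n) ℂ} (sm : ∀ i a b, B.SmAt i (fun x => S i x a b))
    (tr : ∀ i j, ∀ x ∈ (B.e i).source ∩ (B.e j).source,
      S i x = (Jm B i j x)ᵀ * S j x * (Jm B i j x).map conj) :
    Den B (fun k v => (S k v).det) where
  sm i := smAt_det (sm i)
  tr i j x hx := by
    show (S i x).det = dens B i j x * (S j x).det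
    have h3 : dens B i j x = (Jm B i j x).det * conj (Jm B i j x).det := by
      rw [Complex.mul_conj, Complex.normSq_eq_norm_sq]
      rfl
    rw [tr i j x hx, Matrix.det_mul, Matrix.det_mul, Matrix.det_transpose, det_conj_map, h3]
    ring

theorem den_det (K : Kah B) : Den B (fun k v => (K.g k v).det) := den_detS K.sm K.tr

theorem nonnegD_det (K : Kah B) : NonnegD B (fun k v => (K.g k v).det) := fun k v hv => by
  show 0 ≤ (K.g k v).det.re ∧ (K.g k v).det.im = 0
  refine ⟨(det_re_pos (K.pos k v hv)).le, ?_⟩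
  rw [← det_real (K.pos k v hv).1, ofReal_im]

/-- the total volume of a compact manifold is positive -/
theorem vol_pos [T2Space V] [CompactSpace V] [Nonempty V] (P : Part B) (K : Kah B) :
    0 < (intD P (fun k v => (K.g k v).det)).re ∧ (intD P (fun k v => (K.g k v).det)).im = 0 := by
  have h1 := intD_nonneg P (den_det K) (nonnegD_det K) isCompact_univ (offK_univ _)
  refine ⟨lt_of_le_of_ne h1.1 fun h => ?_, h1.2⟩
  obtain ⟨v⟩ := ‹Nonempty V›
  obtain ⟨k, hk⟩ := B.cover v
  have h2 := eq_zero_of_intD P (den_det K) (nonnegD_det K) isCompact_univ (offK_univ _) h.symm k v hk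
  have h3 := det_re_pos (K.pos k v hk)
  rw [h2] at h3
  exact lt_irrefl _ h3

end det_

variable {N d m : ℕ} {M : Type} [TopologicalSpace M] {A : Atl N M} {U : Set (Cn m)}

section mass_

variable (F : Fam A d m U) (K : Kah A)

/-- the fibre density `det (fibre block)` -/
def fbD : F.B.ι → F.V → ℂ := fun k v => (fb ((F.kah K).g k v)).det

theorem smAt_fb (k : F.B.ι) (a b : Fin d) : F.B.SmAt k (fun v => fb ((F.kah K).g k v) a b) :=
  (F.kah K).sm k (Fin.castAdd m a) (Fin.castAdd m b)

theorem smAt_fbD (k : F.B.ι) : F.B.SmAt k (fbD F K k) := by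
  have h1 : ContDiffOn ℝ ∞ (fun z => (fb ((F.kah K).g k ((F.B.e k).symm z))).det)
      (F.B.e k).target := by
    simp only [Matrix.det_apply]
    refine ContDiffOn.sum fun σ _ => ?_
    refine ContDiffOn.const_smul _ ?_
    exact contDiffOn_prod fun b _ => smAt_fb F K k (σ b) b
  exact h1

theorem contOn_fbD (k : F.B.ι) : ContinuousOn (fbD F K k) (F.B.e k).source :=
  contOn_of_smAt F (smAt_fbD F K k)

theorem posDef_fb {k : F.B.ι} {v : F.V} (hv : v ∈ (F.B.e k).source) :
    (fb ((F.kah K).g k v)).PosDef :=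
  ((F.kah K).pos k v hv).submatrix (Fin.castAdd_injective d m)

theorem fbD_pos {k : F.B.ι} {v : F.V} (hv : v ∈ (F.B.e k).source) : 0 < (fbD F K k v).re :=
  det_re_pos (posDef_fb F K hv)

theorem fbD_re {k : F.B.ι} {v : F.V} (hv : v ∈ (F.B.e k).source) :
    (((fbD F K k v).re : ℝ) : ℂ) = fbD F K k v := det_real (posDef_fb F K hv).1

/-- the volume of the leaf over `u` -/
def mass (u : Cn m) : ℝ := (fib F (fbD F K) u).re

variable {u : Cn m} (hu : u ∈ U)

/-- the fibre integral of `det fb` is the total volume of the leaf -/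
theorem fib_fbD_leaf : fib F (fbD F K) u =
    intD (leaf F hu).P (fun k v => (((leaf F hu).kah K).g k v).det) := by
  rw [fib_of_mem F hu]
  refine intD_congr _ fun k v hv => ?_
  exact (volK_leaf F hu K (v := v) hv).symm

instance : Nonempty (leaf F hu).V := (inferInstance : ConnectedSpace (leaf F hu).V).toNonempty

theorem fib_fbD_im (u : Cn m) : (fib F (fbD F K) u).im = 0 := by
  by_cases hu : u ∈ U
  · rw [fib_fbD_leaf F K hu]
    exact (vol_pos (leaf F hu).P ((leaf F hu).kah K)).2
  · rw [fib_off F hu, Complex.zero_im]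

theorem fib_fbD (u : Cn m) : fib F (fbD F K) u = (mass F K u : ℂ) := by
  apply Complex.ext
  · rw [ofReal_re]; rfl
  · rw [ofReal_im, fib_fbD_im]

theorem mass_pos (hu : u ∈ U) : 0 < mass F K u := by
  unfold mass
  rw [fib_fbD_leaf F K hu]
  exact (vol_pos (leaf F hu).P ((leaf F hu).kah K)).1

theorem mass_eq_leaf : (mass F K u : ℂ) =
    intD (leaf F hu).P (fun k v => (((leaf F hu).kah K).g k v).det) := by
  rw [← fib_fbD, fib_fbD_leaf F K hu]

theorem mass_off {u : Cn m} (hu : u ∉ U) : mass F K u = 0 := by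
  unfold mass
  rw [fib_off F hu, Complex.zero_re]

theorem mass_nonneg (u : Cn m) : 0 ≤ mass F K u := by
  by_cases hu : u ∈ U
  · exact (mass_pos F K hu).le
  · rw [mass_off F K hu]

theorem mass_contDiffOn (hU : IsOpen U) : ContDiffOn ℝ ∞ (mass F K) U :=
  Complex.reCLM.contDiff.comp_contDiffOn (fib_contDiffOn F hU (smAt_fbD F K))

theorem mass_continuousOn (hU : IsOpen U) : ContinuousOn (mass F K) U :=
  (mass_contDiffOn F K hU).continuousOn

/-- **the tested volume** -/
theorem intD_mass {χ : Cn m → ℂ} (h0 : Continuous χ) (hc : HasCompactSupport χ)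
    (hχ : tsupport χ ⊆ U) : intD F.P (fun k v => χ (F.y v) * (fb ((F.kah K).g k v)).det) =
      ∫ x : RI m → ℝ, χ (cc x) * (mass F K (cc x) : ℂ) := by
  have h := intD_base F h0 hc hχ (contOn_fbD F K)
  simp only [fib_fbD] at h
  exact h

end mass_

/-! ### from tested identities to all leaves -/

section test_

variable (F : Fam A d m U)

/-- a continuous function on the open set `U` with all tested integrals zero vanishes on `U` -/
theorem zero_of_test (hU : IsOpen U) {g : Cn m → ℂ} (hg : ContinuousOn g U)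
    (h : ∀ χ : Cn m → ℝ, ContDiff ℝ ∞ χ → HasCompactSupport χ → tsupport χ ⊆ U →
      ∫ x : RI m → ℝ, (χ (cc x) : ℂ) * g (cc x) = 0) : ∀ u ∈ U, g u = 0 := by
  have hU' : IsOpen (cc ⁻¹' U : Set (RI m → ℝ)) := hU.preimage continuous_cc
  have hg' : ContinuousOn (fun x : RI m → ℝ => g (cc x)) (cc ⁻¹' U) :=
    hg.comp continuous_cc.continuousOn fun x hx => hx
  have h1 := hU'.ae_eq_zero_of_integral_contDiff_smul_eq_zero (μ := volume)
    (f := fun x : RI m → ℝ => g (cc x)) (hg'.locallyIntegrableOn hU'.measurableSet) ?_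
  · have h2 : (fun x : RI m → ℝ => g (cc x)) =ᵐ[volume.restrict (cc ⁻¹' U)] fun _ => 0 := by
      rw [Filter.EventuallyEq, ae_restrict_iff' hU'.measurableSet]
      exact h1
    have h3 := MeasureTheory.Measure.eqOn_open_of_ae_eq h2 hU' hg' continuousOn_const
    intro u hu
    have h4 := h3 (x := rc u) (by show cc (rc u) ∈ U; rwa [cc_rc])
    simpa using h4
  · intro χ h1 h2 h3
    have h4 : (fun u : Cn m => χ (rc u)) ∘ cc = χ := by
      funext x; simp
    have h5 : tsupport (fun u : Cn m => χ (rc u)) ⊆ rc ⁻¹' tsupport χ :=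
      tsupport_comp_subset_preimage χ continuous_rc
    have h6 := h (fun u => χ (rc u)) (h1.comp contDiff_rc) ?_ ?_
    · simp only [rc_cc] at h6
      rw [← h6]
      refine integral_congr_ae (Filter.Eventually.of_forall fun x => ?_)
      show χ x • g (cc x) = _
      rw [Complex.real_smul]
    · have h7 : rc ⁻¹' tsupport χ = cc '' tsupport χ := by
        ext u
        constructor
        · intro hu
          exact ⟨rc u, hu, cc_rc u⟩
        · rintro ⟨x, hx, rfl⟩
          show rc (cc x) ∈ tsupport χ
          rwa [rc_cc]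
      have h8 : IsCompact (rc ⁻¹' tsupport χ : Set (Cn m)) := by
        rw [h7]
        exact h2.image continuous_cc
      exact h8.of_isClosed_subset (isClosed_tsupport _) h5
    · intro u hu
      have h9 := h3 (h5 hu)
      have h10 : cc (rc u) ∈ U := h9
      rwa [cc_rc] at h10

/-- two densities with the same tested integrals have the same fibre integrals -/
theorem fib_eq_of_test (hU : IsOpen U) {f g : F.B.ι → F.V → ℂ}
    (hf : ∀ k, ContinuousOn (f k) (F.B.e k).source)
    (hg : ∀ k, ContinuousOn (g k) (F.B.e k).source)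
    (h : ∀ χ : Cn m → ℝ, ContDiff ℝ ∞ χ → HasCompactSupport χ → tsupport χ ⊆ U →
      intD F.P (fun k v => (χ (F.y v) : ℂ) * f k v) =
        intD F.P (fun k v => (χ (F.y v) : ℂ) * g k v)) : ∀ u ∈ U, fib F f u = fib F g u := by
  have h1 := zero_of_test hU (g := fun u => fib F f u - fib F g u)
    ((fib_continuousOn F hU hf).sub (fib_continuousOn F hU hg)) ?_
  · intro u hu
    exact sub_eq_zero.1 (h1 u hu)
  · intro χ h1 h2 h3
    have hs : tsupport (fun u : Cn m => (χ u : ℂ)) ⊆ tsupport χ :=
      closure_mono fun u hu => by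
        rw [Function.mem_support] at hu ⊢
        intro h0
        exact hu (by rw [h0, ofReal_zero])
    have hc : HasCompactSupport (fun u : Cn m => (χ u : ℂ)) :=
      h2.of_isClosed_subset (isClosed_tsupport _) hs
    have hcont : Continuous (fun u : Cn m => (χ u : ℂ)) :=
      continuous_ofReal.comp h1.continuous
    have e1 := intD_base F hcont hc (hs.trans h3) hf
    have e2 := intD_base F hcont hc (hs.trans h3) hg
    have hi : ∀ {q : F.B.ι → F.V → ℂ}, (∀ k, ContinuousOn (q k) (F.B.e k).source) →
        Integrable (fun x : RI m → ℝ => (χ (cc x) : ℂ) * fib F q (cc x)) := by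
      intro q hq
      have := fib_integrable F (f := fun k v => (χ (F.y v) : ℂ) * q k v)
        (fun k => ((hcont.comp (continuous_y F)).continuousOn).mul (hq k))
        (cpt_base F hc (hs.trans h3)) (offK_base F (fun u => (χ u : ℂ)) q)
      refine this.congr (Filter.Eventually.of_forall fun x => ?_)
      exact fib_base F (fun u => (χ u : ℂ)) q (cc x)
    have e3 : ∫ x : RI m → ℝ, (χ (cc x) : ℂ) * (fib F f (cc x) - fib F g (cc x)) =
        (∫ x : RI m → ℝ, (χ (cc x) : ℂ) * fib F f (cc x)) -
          ∫ x : RI m → ℝ, (χ (cc x) : ℂ) * fib F g (cc x) := by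
      rw [← integral_sub (hi hf) (hi hg)]
      refine integral_congr_ae (Filter.Eventually.of_forall fun x => ?_)
      show (χ (cc x) : ℂ) * (fib F f (cc x) - fib F g (cc x)) = _ - _
      ring
    rw [e3, ← e1, ← e2, h χ h1 h2 h3, sub_self]

/-- **the volume of the leaves is constant if it is so when tested** -/
theorem mass_const_of (hU : IsOpen U) (K : Kah A) {v : ℝ}
    (h : ∀ χ : Cn m → ℝ, ContDiff ℝ ∞ χ → HasCompactSupport χ → tsupport χ ⊆ U →
      intD F.P (fun k x => (χ (F.y x) : ℂ) * (fb ((F.kah K).g k x)).det) =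
        (v : ℂ) * ∫ x : RI m → ℝ, (χ (cc x) : ℂ)) : ∀ u ∈ U, mass F K u = v := by
  have h1 := zero_of_test hU (g := fun u => (mass F K u : ℂ) - (v : ℂ))
    ((continuous_ofReal.comp_continuousOn (mass_continuousOn F K hU)).sub continuousOn_const) ?_
  · intro u hu
    exact_mod_cast sub_eq_zero.1 (h1 u hu)
  · intro χ h1 h2 h3
    have hs : tsupport (fun u : Cn m => (χ u : ℂ)) ⊆ tsupport χ :=
      closure_mono fun u hu => by
        rw [Function.mem_support] at hu ⊢
        intro h0
        exact hu (by rw [h0, ofReal_zero])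
    have hc : HasCompactSupport (fun u : Cn m => (χ u : ℂ)) :=
      h2.of_isClosed_subset (isClosed_tsupport _) hs
    have hcont : Continuous (fun u : Cn m => (χ u : ℂ)) :=
      continuous_ofReal.comp h1.continuous
    have e1 := intD_mass F K hcont hc (hs.trans h3)
    have i1 : Integrable (fun x : RI m → ℝ => (χ (cc x) : ℂ) * (mass F K (cc x) : ℂ)) := by
      have := fib_integrable F (f := fun k v => (χ (F.y v) : ℂ) * fbD F K k v)
        (fun k => ((hcont.comp (continuous_y F)).continuousOn).mul (contOn_fbD F K k))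
        (cpt_base F hc (hs.trans h3)) (offK_base F (fun u => (χ u : ℂ)) (fbD F K))
      refine this.congr (Filter.Eventually.of_forall fun x => ?_)
      refine (fib_base F (fun u => (χ u : ℂ)) (fbD F K) (cc x)).trans ?_
      show (χ (cc x) : ℂ) * fib F (fbD F K) (cc x) = (χ (cc x) : ℂ) * (mass F K (cc x) : ℂ)
      rw [fib_fbD]
    have i2 : Integrable (fun x : RI m → ℝ => (χ (cc x) : ℂ)) := by
      refine (hcont.comp continuous_cc).integrable_of_hasCompactSupport ?_
      have h7 : IsCompact (rc '' tsupport χ) := h2.image continuous_rc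
      refine HasCompactSupport.intro h7 fun x hx => ?_
      have : cc x ∉ tsupport χ := fun h' => hx ⟨cc x, h', rc_cc x⟩
      show (χ (cc x) : ℂ) = 0
      rw [image_eq_zero_of_notMem_tsupport this, ofReal_zero]
    have e3 : ∫ x : RI m → ℝ, (χ (cc x) : ℂ) * ((mass F K (cc x) : ℂ) - (v : ℂ)) =
        (∫ x : RI m → ℝ, (χ (cc x) : ℂ) * (mass F K (cc x) : ℂ)) -
          (v : ℂ) * ∫ x : RI m → ℝ, (χ (cc x) : ℂ) := by
      rw [← integral_const_mul, ← integral_sub i1 (i2.const_mul _)]
      refine integral_congr_ae (Filter.Eventually.of_forall fun x => ?_)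
      show (χ (cc x) : ℂ) * ((mass F K (cc x) : ℂ) - (v : ℂ)) = _ - _
      ring
    rw [e3, ← e1, ← h χ h1 h2 h3, sub_self]

end test_

/-- **the tested volume, one parameter** -/
theorem intD_massC {U : Set (Cn 1)} (F : Fam A d 1 U) (K : Kah A) {χ : Cn 1 → ℂ}
    (h0 : Continuous χ) (hc : HasCompactSupport χ) (hχ : tsupport χ ⊆ U) :
    intD F.P (fun k v => χ (F.y v) * (fb ((F.kah K).g k v)).det) =
      ∫ c : ℂ, χ (ofC c) * (mass F K (ofC c) : ℂ) := by
  rw [intD_mass F K h0 hc hχ]
  exact integral_ofC fun u => χ u * (mass F K u : ℂ)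

end

end Crest.Agent.R281.Fub5_163
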