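import Crest.Agent.R281.Mass3_519
import Crest.Agent.R281.Fub5_163

/-!
# R281 (S0424), leaf S6-MASS, part 4 (helper519): all leaves of a family have the same volume

`F : Fam A d m U`, `K : Kah A`, `U` open and preconnected.
* `mass_leaf`  : `∃ v, Mass F K v ∧ (∀ u ∈ U, mass F K u = v)` (`mass` of helper163's Fub5);
* `mu_univ`    : `F.mu K univ = ofReal (intD F.P det)`, `F.V` compact;
* `leaf_mu`    : `(leaf F hu).mu K univ = ofReal (mass F K u)`;
* `leaf_mu_const` : `∃ v > 0, ∀ u hu, (leaf F hu).mu K univ = ofReal v`;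
* `mapC`, `lintC`, `intC` : the case `m = 1` with integrals over `ℂ`.
-/

set_option autoImplicit false
set_option linter.unusedSectionVars false
set_option linter.style.haveILetI false

open Set Filter Topology Complex Function MeasureTheory
open scoped ContDiff Matrix ComplexConjugate ComplexOrder ENNReal

namespace Crest.Agent.R281.Mass4_519

open Crest.Agent.R275 Crest.Agent.R275.Geo Crest.Agent.R275.Core144 Crest.Agent.R275.EDR890
open Crest.Agent.R275.Pai323 Crest.Agent.R275.C1d194
open Crest.Agent.R273.Defs_333 Crest.Agent.R273.Kah_333 Crest.Agent.R273.Hess_333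
open Crest.Agent.R273.Vol_333 Crest.Agent.R273.Vm_333
open Crest.Agent.R273.StokesV_332 Crest.Agent.R281.S6D_664
open Crest.Agent.R281.Mass2_519 Crest.Agent.R281.Mass3_519
open Crest.Agent.R281.Fub_192 (leaf)
open Crest.Agent.R281.Fub5_163 (mass mass_const_of mass_eq_leaf mass_pos)

noncomputable section

variable {N d m : ℕ} {M : Type} [TopologicalSpace M] {A : Atl N M} {U : Set (Cn m)}

/-- **all leaves have the same volume** -/
theorem mass_leaf (F : Fam A d m U) (K : Kah A) (hU : IsOpen U) (hc : IsPreconnected U) :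
    ∃ v, Mass F K v ∧ ∀ u ∈ U, mass F K u = v := by
  obtain ⟨v, hv⟩ := exists_mass F K hU hc
  refine ⟨v, hv, mass_const_of F hU K fun χ h1 h2 h3 => ?_⟩
  have hs : tsupport (fun u : Cn m => (χ u : ℂ)) ⊆ tsupport χ :=
    closure_mono fun u hu => by
      rw [Function.mem_support] at hu ⊢
      intro h0
      exact hu (by rw [h0, ofReal_zero])
  exact hv.intD_cont (a := fun u => (χ u : ℂ)) (continuous_ofReal.comp h1.continuous)
    (h2.of_isClosed_subset (isClosed_tsupport _) hs) (hs.trans h3)

/-- the volume of a compact family is the total integral of `det` -/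
theorem mu_univ (F : Fam A d m U) [CompactSpace F.V] (K : Kah A) :
    F.mu K univ = ENNReal.ofReal (intD F.P (fun k v => ((F.kah K).g k v).det)).re := by
  letI : MeasurableSpace F.V := borel F.V
  haveI : BorelSpace F.V := ⟨rfl⟩
  have hfin := isFinite_vm (volK (F.kah K))
  have h1 := integral_vm_intD (volK (F.kah K)) F.P (f := fun _ => (1 : ℂ)) (integrable_const _)
    isCompact_univ fun x hx => absurd (mem_univ x) hx
  have h2 : intD F.P (fun i x => ((volK (F.kah K)).w i x : ℂ) * (1 : ℂ)) =
      intD F.P (fun k v => ((F.kah K).g k v).det) := by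
    refine intD_congr F.P fun i x hx => ?_
    rw [mul_one, volK_w (F.kah K) i hx]
  rw [h2, integral_const, Complex.real_smul, mul_one] at h1
  rw [← h1, Complex.ofReal_re, ofReal_measureReal]
  rfl

theorem leaf_mu (F : Fam A d m U) (K : Kah A) {u : Cn m} (hu : u ∈ U) :
    (leaf F hu).mu K univ = ENNReal.ofReal (mass F K u) := by
  rw [mu_univ, ← mass_eq_leaf F K hu, Complex.ofReal_re]

/-- the volumes of the leaves, in measure form -/
theorem leaf_mu_const (F : Fam A d m U) (K : Kah A) (hU : IsOpen U) (hc : IsPreconnected U)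
    (hne : U.Nonempty) :
    ∃ v : ℝ, 0 < v ∧ Mass F K v ∧ (∀ u ∈ U, mass F K u = v) ∧
      ∀ u, ∀ hu : u ∈ U, (leaf F hu).mu K univ = ENNReal.ofReal v := by
  obtain ⟨v, hv, h1⟩ := mass_leaf F K hU hc
  refine ⟨v, hv.pos hne, hv, h1, fun u hu => ?_⟩
  rw [leaf_mu F K hu, h1 u hu]

/-! ### one parameter: integrals over `ℂ` -/

section one

open Crest.Agent.R281.Fub4_163 (ofC mp_ofC ofC_zero_apply integral_ofC)

variable {U : Set (Cn 1)} {F : Fam A d 1 U} {K : Kah A} {v : ℝ}

/-- `c ↦ rc (ofC c)` as a measurable equivalence -/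
def eC : ℂ ≃ᵐ (RI 1 → ℝ) where
  toFun c := rc (ofC c)
  invFun x := cc x 0
  left_inv c := by simp
  right_inv x := by
    show rc (ofC (cc x 0)) = x
    rw [ofC_zero_apply, rc_cc]
  measurable_toFun := by
    refine Continuous.measurable (continuous_rc.comp ?_)
    unfold ofC
    fun_prop
  measurable_invFun := by
    have : Continuous fun x : RI 1 → ℝ => cc x 0 :=
      (EuclideanSpace.proj (0 : Fin 1) : Cn 1 →L[ℂ] ℂ).continuous.comp continuous_cc
    exact this.measurable

theorem mp_symm : MeasurePreserving (fun x : RI 1 → ℝ => cc x 0) volume volume :=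
  MeasurePreserving.symm eC mp_ofC

theorem cont_y0 (F : Fam A d 1 U) : Continuous fun x => F.y x 0 :=
  (EuclideanSpace.proj (0 : Fin 1) : Cn 1 →L[ℂ] ℂ).continuous.comp (cont_y F)

theorem mapC (h : Mass F K v) (hU : IsOpen U) [MeasurableSpace F.V] [BorelSpace F.V] :
    Measure.map (fun x => F.y x 0) (nu F K) =
      ENNReal.ofReal v • volume.restrict {c : ℂ | ofC c ∈ U} := by
  have hm : MeasurableSet {c : ℂ | ofC c ∈ U} := by
    refine (hU.preimage ?_).measurableSet
    unfold ofC
    fun_prop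
  have h1 := (mp_symm.restrict_preimage hm).map_eq
  have h2 : (fun x : RI 1 → ℝ => cc x 0) ⁻¹' {c : ℂ | ofC c ∈ U} = cc ⁻¹' U := by
    ext x
    show ofC (cc x 0) ∈ U ↔ cc x ∈ U
    rw [ofC_zero_apply]
  have h3 : (fun x => F.y x 0) = (fun x : RI 1 → ℝ => cc x 0) ∘ fun x => rc (F.y x) := by
    funext x
    show F.y x 0 = cc (rc (F.y x)) 0
    rw [cc_rc]
  rw [h2] at h1
  rw [h3, ← Measure.map_map mp_symm.measurable (cont_ry F).measurable, h.map, Measure.map_smul, h1]

theorem lintC (h : Mass F K v) (hU : IsOpen U) [MeasurableSpace F.V] [BorelSpace F.V]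
    {a : ℂ → ℝ≥0∞} (ha : Measurable a) :
    ∫⁻ x, a (F.y x 0) ∂(nu F K) = ENNReal.ofReal v * ∫⁻ c in {c : ℂ | ofC c ∈ U}, a c := by
  rw [← lintegral_map ha (cont_y0 F).measurable, mapC h hU, lintegral_smul_measure, smul_eq_mul]

theorem intC (h : Mass F K v) (hU : IsOpen U) [MeasurableSpace F.V] [BorelSpace F.V] {W : Type*}
    [NormedAddCommGroup W] [NormedSpace ℝ W] {a : ℂ → W}
    (ha : AEStronglyMeasurable a (volume.restrict {c : ℂ | ofC c ∈ U})) :
    ∫ x, a (F.y x 0) ∂(nu F K) = v • ∫ c in {c : ℂ | ofC c ∈ U}, a c := by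
  have h1 : AEStronglyMeasurable a (Measure.map (fun x => F.y x 0) (nu F K)) := by
    rw [mapC h hU]
    exact ha.smul_measure _
  rw [← integral_map (cont_y0 F).aemeasurable h1, mapC h hU, integral_smul_measure,
    ENNReal.toReal_ofReal h.nonneg]

/-- the form with `intD` and integrals over `ℂ` -/
theorem intD_C (h : Mass F K v) {a : Cn 1 → ℂ} (ha : Continuous a) (hc : HasCompactSupport a)
    (hs : tsupport a ⊆ U) :
    intD F.P (fun k x => a (F.y x) * (fb ((F.kah K).g k x)).det) = v * ∫ c : ℂ, a (ofC c) := by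
  rw [h.intD_cont ha hc hs, integral_ofC]

end one

end

end Crest.Agent.R281.Mass4_519
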