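import Crest.Agent.R281.JenE_967
import Crest.Agent.R281.Mass4_519
import Crest.Agent.R281.Fib4_425

/-!
# R281 (S0424), DIV 6, (C) (helper967, for helper166 #8533): the mass bound of a disc family

* `jensen_of_test` : Jensen's bound for a measure `μ` with a map `b` to `ℂ` which is only known
  through test functions;
* `fib_eq_push`    : helper163's `fib` is helper425's `push`;
* `integral_muC`   : `∫ χ(y) dμ_K = ∫ χ(c) Re (push det (c)) dc`;
* `nu_bound`       : `∫_{|y - a₀| < R} log (R / |y - a₀|) dμ_K ≤ 2π (m₂ - m₁)`.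
-/

set_option autoImplicit false
set_option linter.unusedSectionVars false
set_option linter.style.haveILetI false

open Set Filter Topology Complex Function MeasureTheory Metric
open scoped ContDiff Matrix ComplexConjugate ComplexOrder ENNReal Real

namespace Crest.Agent.R281.Nu_967

open Crest.Agent.R281.Jen_563 Crest.Agent.R281.JenE_967

noncomputable section

/-! ### measure theory in the plane -/

section plane

variable {V : Set ℂ}

/-- cut-off functions of a bounded open set -/
def cutV (V : Set ℂ) (n : ℕ) (y : ℂ) : ℝ := min 1 (max 0 (n * infDist y Vᶜ - 1))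

theorem continuous_cutV (V : Set ℂ) (n : ℕ) : Continuous (cutV V n) := by
  unfold cutV
  have := continuous_infDist_pt Vᶜ
  fun_prop

theorem cutV_nonneg (n : ℕ) (y : ℂ) : 0 ≤ cutV V n y := by
  unfold cutV
  exact le_min zero_le_one (le_max_left _ _)

theorem cutV_le_one (n : ℕ) (y : ℂ) : cutV V n y ≤ 1 := min_le_left _ _

theorem tsupport_cutV (n : ℕ) : tsupport (cutV V n) ⊆ V := by
  have h1 : tsupport (cutV V n) ⊆ {y | 1 ≤ (n : ℝ) * infDist y Vᶜ} := by
    refine closure_minimal (fun y hy => ?_) (isClosed_le continuous_const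
      (continuous_const.mul (continuous_infDist_pt Vᶜ)))
    by_contra h
    apply hy
    have h' : (n : ℝ) * infDist y Vᶜ < 1 := not_le.1 h
    unfold cutV
    rw [max_eq_left (by linarith), min_eq_right zero_le_one]
  refine h1.trans fun y hy => ?_
  by_contra h
  have h2 : infDist y Vᶜ = 0 := infDist_zero_of_mem h
  have h3 : (1 : ℝ) ≤ n * infDist y Vᶜ := hy
  rw [h2, mul_zero] at h3
  linarith

theorem tendsto_cutV (hV : IsOpen V) (hne : (Vᶜ).Nonempty) {y : ℂ} (hy : y ∈ V) :
    ∀ᶠ n in atTop, cutV V n y = 1 := by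
  have h1 : 0 < infDist y Vᶜ := (hV.isClosed_compl.notMem_iff_infDist_pos hne).1 fun h => h hy
  have h2 : Tendsto (fun n : ℕ => (n : ℝ) * infDist y Vᶜ) atTop atTop :=
    tendsto_natCast_atTop_atTop.atTop_mul_const h1
  filter_upwards [h2.eventually_ge_atTop 2] with n hn
  unfold cutV
  rw [max_eq_right (by linarith), min_eq_left (by linarith)]

/-- **Jensen's bound through test functions** -/
theorem jensen_of_test {α : Type*} [MeasurableSpace α] (μ : Measure α) {b : α → ℂ}
    (hb : Measurable b) (a : ℂ) {R : ℝ} (hR : 0 < R) {E : Set ℂ}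
    (hE : E.Countable) (hV : IsOpen (ball a R \ E)) {G : ℂ → ℝ} {m₁ m₂ : ℝ}
    (hG : ContDiffOn ℝ 2 G (ball a R \ E)) (hM : ∀ y ∈ ball a R \ E, m₁ ≤ G y ∧ G y ≤ m₂)
    (hpos : ∀ y ∈ ball a R \ E, 0 ≤ lap G y)
    (ht : ∀ χ : ℂ → ℝ, Continuous χ → HasCompactSupport χ → tsupport χ ⊆ ball a R \ E →
      (∀ y, 0 ≤ χ y) → ∫⁻ x, ENNReal.ofReal (χ (b x)) ∂μ ≤
        ∫⁻ y in ball a R \ E, ENNReal.ofReal (lap G y * χ y)) :
    ∫⁻ x in b ⁻¹' (ball a R \ E), ENNReal.ofReal (Real.log (R / ‖b x - a‖)) ∂μ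
      ≤ ENNReal.ofReal (2 * π * (m₂ - m₁)) := by
  set V : Set ℂ := ball a R \ E with hVdef
  have hVm : MeasurableSet V := hV.measurableSet
  have hVb : V ⊆ ball a R := Set.sdiff_subset
  have hne : (Vᶜ).Nonempty := by
    refine ⟨a + R, fun h => ?_⟩
    have h1 := hVb h
    rw [mem_ball, dist_eq_norm, add_sub_cancel_left, Complex.norm_real, Real.norm_eq_abs,
      abs_of_pos hR] at h1
    exact lt_irrefl _ h1
  set h : ℕ → ℂ → ℝ := fun n y => Real.log (R / max ‖y - a‖ (R / (n + 1))) with hh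
  have hd : ∀ (n : ℕ) (y : ℂ), 0 < max ‖y - a‖ (R / (n + 1)) := fun n y =>
    lt_max_of_lt_right (by positivity)
  have hhc : ∀ n, Continuous (h n) := by
    intro n
    refine Continuous.log ?_ fun y => (div_pos hR (hd n y)).ne'
    exact continuous_const.div (by fun_prop) fun y => (hd n y).ne'
  have hh0 : ∀ n, ∀ y ∈ ball a R, 0 ≤ h n y := by
    intro n y hy
    refine Real.log_nonneg ?_
    rw [one_le_div (hd n y)]
    rw [mem_ball, dist_eq_norm] at hy
    refine max_le hy.le ?_
    exact div_le_self hR.le (by linarith [(Nat.cast_nonneg n : (0 : ℝ) ≤ n)])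
  have hhle : ∀ n, ∀ y, y ≠ a → h n y ≤ Real.log (R / ‖y - a‖) := by
    intro n y hy
    have h1 : 0 < ‖y - a‖ := norm_pos_iff.2 (sub_ne_zero.2 hy)
    refine Real.log_le_log (div_pos hR (hd n y)) ?_
    exact div_le_div_of_nonneg_left hR.le h1 (le_max_left _ _)
  have hhlim : ∀ y, y ≠ a → ∀ᶠ n in atTop, h n y = Real.log (R / ‖y - a‖) := by
    intro y hy
    have h1 : 0 < ‖y - a‖ := norm_pos_iff.2 (sub_ne_zero.2 hy)
    have h2 : Tendsto (fun n : ℕ => R / ((n : ℝ) + 1)) atTop (𝓝 0) :=
      (tendsto_const_div_atTop_nhds_zero_nat R).comp (tendsto_add_atTop_nat 1) |>.congr fun n => by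
        simp
    filter_upwards [h2.eventually_le_const h1] with n hn
    show Real.log (R / max ‖y - a‖ (R / (n + 1))) = _
    rw [max_eq_left hn]
  set g : ℕ → ℂ → ℝ := fun n y => cutV V n y * h n y with hg
  have hgc : ∀ n, Continuous (g n) := fun n => (continuous_cutV V n).mul (hhc n)
  have hgt : ∀ n, tsupport (g n) ⊆ V := fun n =>
    (tsupport_mul_subset_left).trans (tsupport_cutV n)
  have hgcc : ∀ n, HasCompactSupport (g n) := by
    intro n
    refine (isCompact_closedBall a R).of_isClosed_subset (isClosed_tsupport _) ?_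
    exact (hgt n).trans (hVb.trans ball_subset_closedBall)
  have hg0 : ∀ n y, 0 ≤ g n y := by
    intro n y
    by_cases hy : y ∈ V
    · exact mul_nonneg (cutV_nonneg n y) (hh0 n y (hVb hy))
    · have h1 : cutV V n y = 0 :=
        image_eq_zero_of_notMem_tsupport fun h' => hy (tsupport_cutV n h')
      show 0 ≤ cutV V n y * h n y
      rw [h1, zero_mul]
  -- Fatou
  have hbV : MeasurableSet (b ⁻¹' V) := hb hVm
  have hlim : ∀ y ∈ V, ENNReal.ofReal (Real.log (R / ‖y - a‖)) ≤
      liminf (fun n => ENNReal.ofReal (g n y)) atTop := by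
    intro y hy
    by_cases hya : y = a
    · rw [hya, sub_self, norm_zero, div_zero, Real.log_zero, ENNReal.ofReal_zero]
      exact bot_le
    · have h1 : ∀ᶠ n in atTop, g n y = Real.log (R / ‖y - a‖) := by
        filter_upwards [tendsto_cutV hV hne hy, hhlim y hya] with n h2 h3
        show cutV V n y * h n y = _
        rw [h2, h3, one_mul]
      have h2 : Tendsto (fun n => ENNReal.ofReal (g n y)) atTop
          (𝓝 (ENNReal.ofReal (Real.log (R / ‖y - a‖)))) :=
        tendsto_const_nhds.congr' (h1.mono fun n hn => (congrArg ENNReal.ofReal hn).symm)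
      exact h2.liminf_eq.ge
  have hbd : ∀ n, ∫⁻ x in b ⁻¹' V, ENNReal.ofReal (g n (b x)) ∂μ ≤
      ENNReal.ofReal (2 * π * (m₂ - m₁)) := by
    intro n
    calc ∫⁻ x in b ⁻¹' V, ENNReal.ofReal (g n (b x)) ∂μ
        ≤ ∫⁻ x, ENNReal.ofReal (g n (b x)) ∂μ := setLIntegral_le_lintegral _ _
      _ ≤ ∫⁻ y in V, ENNReal.ofReal (lap G y * g n y) := ht _ (hgc n) (hgcc n) (hgt n) (hg0 n)
      _ ≤ ∫⁻ y in V, ENNReal.ofReal (lap G y * Real.log (R / ‖y - a‖)) := by
          refine lintegral_mono_ae ?_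
          have h1 : ∀ᵐ y ∂(volume.restrict V), y ≠ a :=
            ae_restrict_of_ae (measure_eq_zero_iff_ae_notMem.1 (measure_singleton a))
          filter_upwards [h1, ae_restrict_mem hVm] with y hy hyV
          refine ENNReal.ofReal_le_ofReal (mul_le_mul_of_nonneg_left ?_ (hpos y hyV))
          calc g n y = cutV V n y * h n y := rfl
            _ ≤ 1 * h n y := mul_le_mul_of_nonneg_right (cutV_le_one n y) (hh0 n y (hVb hyV))
            _ ≤ _ := by rw [one_mul]; exact hhle n y hy
      _ ≤ _ := jensen_countable a hR hE hV hG hM hpos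
  calc ∫⁻ x in b ⁻¹' V, ENNReal.ofReal (Real.log (R / ‖b x - a‖)) ∂μ
      ≤ ∫⁻ x in b ⁻¹' V, liminf (fun n => ENNReal.ofReal (g n (b x))) atTop ∂μ := by
        refine setLIntegral_mono' hbV fun x hx => hlim (b x) hx
    _ ≤ liminf (fun n => ∫⁻ x in b ⁻¹' V, ENNReal.ofReal (g n (b x)) ∂μ) atTop :=
        lintegral_liminf_le fun n => ((hgc n).measurable.comp hb).ennreal_ofReal
    _ ≤ _ := by
        refine (liminf_le_liminf (Eventually.of_forall hbd)).trans ?_
        exact (liminf_const _).le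

end plane

/-! ### families -/

section fam

open Crest.Agent.R275 Crest.Agent.R275.Geo Crest.Agent.R275.Core144 Crest.Agent.R275.EDR890
open Crest.Agent.R275.Pai323 Crest.Agent.R275.C1d194
open Crest.Agent.R273.Defs_333 Crest.Agent.R273.Kah_333 Crest.Agent.R273.Hess_333
open Crest.Agent.R273.Vol_333 Crest.Agent.R273.Vm_333
open Crest.Agent.R273.StokesV_332 Crest.Agent.R281.S6D_664
open Crest.Agent.R281.Mass3_519 Crest.Agent.R281.Fib2_425 Crest.Agent.R281.Fib4_425
open Crest.Agent.R281.Fub4_163 Crest.Agent.R281.Fub5_163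

variable {N d m : ℕ} {M : Type} [TopologicalSpace M] {A : Atl N M}

theorem prj {U : Set (Cn m)} (F : Fam A d m U) (hU : IsOpen U) : Prj F.B F.y U :=
  ⟨F.last, F.mem, F.proper, hU⟩

/-- helper163's `fib` is helper425's `push` -/
theorem fib_eq_push {U : Set (Cn m)} (F : Fam A d m U) (hU : IsOpen U) {η : F.B.ι → F.V → ℂ}
    (hη : ∀ i, F.B.SmAt i (η i)) : ∀ u ∈ U, fib F η u = push F.P η u := by
  have h := prj F hU
  have hc : ∀ i, ContinuousOn (η i) (F.B.e i).source := fun i => contOn_of_smAt F (hη i)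
  have hp := continuousOn_push (P := F.P) h hη
  have h1 := zero_of_test hU (g := fun u => fib F η u - push F.P η u)
    ((fib_continuousOn F hU hc).sub hp) ?_
  · intro u hu
    exact sub_eq_zero.1 (h1 u hu)
  · intro χ h1 h2 h3
    have hs : tsupport (fun u : Cn m => (χ u : ℂ)) ⊆ tsupport χ :=
      closure_mono fun u hu => by
        rw [Function.mem_support] at hu ⊢
        intro h0
        exact hu (by rw [h0, ofReal_zero])
    have hcs : HasCompactSupport (fun u : Cn m => (χ u : ℂ)) :=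
      h2.of_isClosed_subset (isClosed_tsupport _) hs
    have hcont : Continuous (fun u : Cn m => (χ u : ℂ)) :=
      continuous_ofReal.comp h1.continuous
    have hsm : ContDiff ℝ ∞ (fun u : Cn m => (χ u : ℂ)) := Complex.ofRealCLM.contDiff.comp h1
    have e1 := intD_base F hcont hcs (hs.trans h3) hc
    have e2 := intD_pushC (P := F.P) h hη hsm hcs (hs.trans h3)
    have i1 : Integrable (fun x : RI m → ℝ => (χ (cc x) : ℂ) * fib F η (cc x)) := by
      have := fib_integrable F (f := fun k v => (χ (F.y v) : ℂ) * η k v)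
        (fun k => ((hcont.comp (Fub_192.continuous_y F)).continuousOn).mul (hc k))
        (cpt_base F hcs (hs.trans h3)) (offK_base F (fun u => (χ u : ℂ)) η)
      refine this.congr (Filter.Eventually.of_forall fun x => ?_)
      exact fib_base F (fun u => (χ u : ℂ)) η (cc x)
    have i2 : Integrable (fun x : RI m → ℝ => (χ (cc x) : ℂ) * push F.P η (cc x)) := by
      have hK : IsCompact (rc '' tsupport χ) := h2.isCompact.image continuous_rc
      have hK' : ∀ x, x ∉ (rc '' tsupport χ : Set (RI m → ℝ)) → cc x ∉ tsupport χ :=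
        fun x hx h' => hx ⟨cc x, h', rc_cc x⟩
      refine IntegrableOn.integrable_of_forall_notMem_eq_zero (s := rc '' tsupport χ) ?_
        fun x hx => ?_
      · refine ContinuousOn.integrableOn_compact hK ?_
        refine ((hcont.comp continuous_cc).continuousOn).mul (hp.comp continuous_cc.continuousOn ?_)
        rintro _ ⟨u, hu, rfl⟩
        rw [cc_rc]
        exact h3 hu
      · rw [image_eq_zero_of_notMem_tsupport (hK' x hx), ofReal_zero, zero_mul]
    have e3 : ∫ x : RI m → ℝ, (χ (cc x) : ℂ) * (fib F η (cc x) - push F.P η (cc x)) =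
        (∫ x : RI m → ℝ, (χ (cc x) : ℂ) * fib F η (cc x)) -
          ∫ x : RI m → ℝ, (χ (cc x) : ℂ) * push F.P η (cc x) := by
      rw [← integral_sub i1 i2]
      refine integral_congr_ae (Filter.Eventually.of_forall fun x => ?_)
      show (χ (cc x) : ℂ) * (fib F η (cc x) - push F.P η (cc x)) = _ - _
      ring
    rw [e3, ← e1, ← e2, sub_self]

variable {U : Set (Cn 1)}

theorem isOpen_ofC (hU : IsOpen U) : IsOpen {c : ℂ | ofC c ∈ U} := by
  refine hU.preimage ?_
  unfold ofC
  fun_prop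

theorem continuous_ofC : Continuous ofC := by
  unfold ofC
  fun_prop

theorem continuous_ev : Continuous fun u : Cn 1 => u 0 := by fun_prop

/-- **`μ_K` tested against a function of the base coordinate** -/
theorem integral_muC (F : Fam A d 1 U) (K : Kah A) [MeasurableSpace F.V] [BorelSpace F.V]
    {χ : ℂ → ℝ} (h0 : Continuous χ) (hc : HasCompactSupport χ)
    (hχ : tsupport χ ⊆ {c : ℂ | ofC c ∈ U}) :
    ∫ v, χ (F.y v 0) ∂(vm (volK (F.kah K))) =
      ∫ c : ℂ, χ c * (fib F (fun k v => ((F.kah K).g k v).det) (ofC c)).re ∧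
    Integrable (fun v => χ (F.y v 0)) (vm (volK (F.kah K))) ∧
    Integrable (fun c : ℂ => χ c * (fib F (fun k v => ((F.kah K).g k v).det) (ofC c)).re) := by
  set X : Cn 1 → ℂ := fun u => (χ (u 0) : ℂ) with hX
  have hXc : Continuous X := continuous_ofReal.comp (h0.comp continuous_ev)
  have hts : tsupport X ⊆ ofC '' tsupport χ := by
    refine closure_minimal ?_ (hc.isCompact.image continuous_ofC).isClosed
    intro u hu
    refine ⟨u 0, subset_tsupport _ ?_, ofC_zero_apply u⟩
    intro h1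
    apply hu
    show ((χ (u 0) : ℝ) : ℂ) = 0
    rw [h1, ofReal_zero]
  have hXcs : HasCompactSupport X :=
    (hc.isCompact.image continuous_ofC).of_isClosed_subset (isClosed_tsupport _) hts
  have hXU : tsupport X ⊆ U := by
    intro u hu
    obtain ⟨c, hc', rfl⟩ := hts hu
    exact hχ hc'
  have hsm : ∀ k, ContinuousOn (fun v => ((F.kah K).g k v).det) (F.B.e k).source := fun k =>
    contOn_of_smAt F ((den_det (F.kah K)).sm k)
  have hyc : Continuous fun v : F.V => X (F.y v) := hXc.comp (Fub_192.continuous_y F)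
  have hcpt : IsCompact (F.y ⁻¹' tsupport X) := cpt_base F hXcs hXU
  have hoff : ∀ v, v ∉ F.y ⁻¹' tsupport X → X (F.y v) = 0 := fun v hv =>
    image_eq_zero_of_notMem_tsupport hv
  have hi : Integrable (fun v : F.V => X (F.y v)) (vm (volK (F.kah K))) :=
    integrable_cc _ hyc hcpt hoff
  have e1 := integral_vm_intD (volK (F.kah K)) F.P hi hcpt hoff
  have e2 : intD F.P (fun i x => ((volK (F.kah K)).w i x : ℂ) * X (F.y x)) =
      intD F.P (fun k v => X (F.y v) * ((F.kah K).g k v).det) := by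
    refine intD_congr F.P fun i x hx => ?_
    rw [volK_w (F.kah K) i hx, mul_comm]
  have e3 := intD_base F hXc hXcs hXU hsm
  have e4 : ∫ x : RI 1 → ℝ, X (cc x) * fib F (fun k v => ((F.kah K).g k v).det) (cc x) =
      ∫ c : ℂ, X (ofC c) * fib F (fun k v => ((F.kah K).g k v).det) (ofC c) :=
    integral_ofC fun u => X u * fib F (fun k v => ((F.kah K).g k v).det) u
  rw [e2, e3, e4] at e1
  have i1 : Integrable (fun x : RI 1 → ℝ => X (cc x) *
      fib F (fun k v => ((F.kah K).g k v).det) (cc x)) := by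
    have := fib_integrable F (f := fun k v => X (F.y v) * ((F.kah K).g k v).det)
      (fun k => (hyc.continuousOn).mul (hsm k)) hcpt (offK_base F X _)
    refine this.congr (Filter.Eventually.of_forall fun x => ?_)
    exact fib_base F X _ (cc x)
  have i2 : Integrable (fun c : ℂ => X (ofC c) *
      fib F (fun k v => ((F.kah K).g k v).det) (ofC c)) := by
    have := mp_ofC.integrable_comp_of_integrable i1
    refine this.congr (Filter.Eventually.of_forall fun c => ?_)
    show X (cc (rc (ofC c))) * fib F _ (cc (rc (ofC c))) = _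
    rw [cc_rc]
  have hre : ∀ c : ℂ, (X (ofC c) * fib F (fun k v => ((F.kah K).g k v).det) (ofC c)).re =
      χ c * (fib F (fun k v => ((F.kah K).g k v).det) (ofC c)).re := fun c =>
    Complex.re_ofReal_mul _ _
  refine ⟨?_, ?_, ?_⟩
  · have h1 : ∫ v, X (F.y v) ∂(vm (volK (F.kah K))) =
        ((∫ v, χ (F.y v 0) ∂(vm (volK (F.kah K))) : ℝ) : ℂ) := integral_ofReal (𝕜 := ℂ)
    have h2 := congrArg Complex.re (h1.symm.trans e1)
    rw [Complex.ofReal_re] at h2
    rw [h2]
    have h3 := integral_re i2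
    refine h3.symm.trans ?_
    exact integral_congr_ae (Filter.Eventually.of_forall fun c => hre c)
  · have h1 := hi.re
    exact h1.congr (Filter.Eventually.of_forall fun v => rfl)
  · have h1 := i2.re
    exact h1.congr (Filter.Eventually.of_forall fun c => hre c)

/-- the fibre integral of `det K_V` is nonnegative -/
theorem fib_det_nonneg (F : Fam A d 1 U) (hU : IsOpen U) (K : Kah A) (u : Cn 1) :
    0 ≤ (fib F (fun k v => ((F.kah K).g k v).det) u).re := by
  by_cases hu : u ∈ U
  · rw [fib_eq_push F hU (den_det (F.kah K)).sm u hu]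
    exact (push_nonneg (prj F hU) (den_det (F.kah K)) (nonnegD_det (F.kah K)) u hu).1
  · rw [fib_off F hu]
    exact le_rfl

/-- **the test inequality of `jensen_of_test`** -/
theorem lintegral_muC (F : Fam A d 1 U) (hU : IsOpen U) (K : Kah A) [MeasurableSpace F.V]
    [BorelSpace F.V] {χ : ℂ → ℝ} (h0 : Continuous χ) (hc : HasCompactSupport χ)
    (hχ : tsupport χ ⊆ {c : ℂ | ofC c ∈ U}) (hn : ∀ c, 0 ≤ χ c) :
    ∫⁻ v, ENNReal.ofReal (χ (F.y v 0)) ∂(vm (volK (F.kah K))) =
      ∫⁻ c : ℂ, ENNReal.ofReal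
        (χ c * (fib F (fun k v => ((F.kah K).g k v).det) (ofC c)).re) := by
  obtain ⟨h1, h2, h3⟩ := integral_muC F K h0 hc hχ
  rw [← ofReal_integral_eq_lintegral_ofReal h2 (Filter.Eventually.of_forall fun v => hn _),
    ← ofReal_integral_eq_lintegral_ofReal h3 (Filter.Eventually.of_forall fun c =>
      mul_nonneg (hn c) (fib_det_nonneg F hU K _)), h1]

/-- **(NU): from (S) pointwise to the mass bound** (any Borel structure on `V`) -/
theorem nu_bound' (F : Fam A d 1 U) (hU : IsOpen U) (K : Kah A) [MeasurableSpace F.V]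
    [BorelSpace F.V] (a₀ : ℂ) {R : ℝ} (hR : 0 < R) {E : Set ℂ} (hE : E.Countable)
    (hV : IsOpen (ball a₀ R \ E)) (hUE : ∀ c ∈ ball a₀ R, ofC c ∈ U ↔ c ∉ E) {G : ℂ → ℝ}
    {m₁ m₂ : ℝ} (hG2 : ContDiffOn ℝ 2 G (ball a₀ R \ E))
    (hM : ∀ c ∈ ball a₀ R \ E, m₁ ≤ G c ∧ G c ≤ m₂)
    (hG : ∀ c ∈ ball a₀ R \ E,
      (push F.P (fun k v => ((F.kah K).g k v).det) (ofC c)).re = lap G c) :
    ∫⁻ v in {v | ‖F.y v 0 - a₀‖ < R},
      ENNReal.ofReal (Real.log (R / ‖F.y v 0 - a₀‖)) ∂(vm (volK (F.kah K))) ≤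
      ENNReal.ofReal (2 * π * (m₂ - m₁)) := by
  set V : Set ℂ := ball a₀ R \ E with hVdef
  have hVU : V ⊆ {c : ℂ | ofC c ∈ U} := fun c hc => (hUE c hc.1).2 hc.2
  have hfib : ∀ c ∈ V, (fib F (fun k v => ((F.kah K).g k v).det) (ofC c)).re = lap G c := by
    intro c hc
    rw [fib_eq_push F hU (den_det (F.kah K)).sm (ofC c) (hVU hc), hG c hc]
  have hpos : ∀ c ∈ V, 0 ≤ lap G c := fun c hc => by
    rw [← hfib c hc]
    exact fib_det_nonneg F hU K _
  have hb : Measurable fun v : F.V => F.y v 0 :=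
    (continuous_ev.comp (Fub_192.continuous_y F)).measurable
  have hset : {v : F.V | ‖F.y v 0 - a₀‖ < R} = (fun v : F.V => F.y v 0) ⁻¹' V := by
    ext v
    have h1 : ofC (F.y v 0) ∈ U := by
      rw [ofC_zero_apply]
      exact F.mem v
    constructor
    · intro hv
      have h2 : F.y v 0 ∈ ball a₀ R := by
        rw [mem_ball, dist_eq_norm]
        exact hv
      exact ⟨h2, (hUE _ h2).1 h1⟩
    · intro hv
      have h2 : F.y v 0 ∈ ball a₀ R := hv.1
      rw [mem_ball, dist_eq_norm] at h2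
      exact h2
  rw [hset]
  refine jensen_of_test (vm (volK (F.kah K))) hb a₀ hR hE hV hG2 hM hpos fun χ h0 hc hχ hn => ?_
  rw [lintegral_muC F hU K h0 hc (hχ.trans hVU) hn]
  refine le_of_eq ?_
  rw [← lintegral_indicator hV.measurableSet]
  refine lintegral_congr fun c => ?_
  by_cases hcV : c ∈ V
  · rw [Set.indicator_of_mem hcV, hfib c hcV, mul_comm]
  · rw [Set.indicator_of_notMem hcV, image_eq_zero_of_notMem_tsupport fun h => hcV (hχ h),
      zero_mul, ENNReal.ofReal_zero]

/-- **(NU), literal form of helper166 #8533** -/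
theorem nu_bound (F : Fam A d 1 U) (hU : IsOpen U) (K : Kah A) (a₀ : ℂ) {R : ℝ} (hR : 0 < R)
    {E : Set ℂ} (hE : E.Countable) (hV : IsOpen (ball a₀ R \ E))
    (hUE : ∀ c ∈ ball a₀ R, ofC c ∈ U ↔ c ∉ E) {G : ℂ → ℝ} {m₁ m₂ : ℝ}
    (hG2 : ContDiffOn ℝ 2 G (ball a₀ R \ E))
    (hM : ∀ c ∈ ball a₀ R \ E, m₁ ≤ G c ∧ G c ≤ m₂)
    (hG : ∀ c ∈ ball a₀ R \ E,
      (push F.P (fun k v => ((F.kah K).g k v).det) (ofC c)).re = lap G c) :
    ∫⁻ v in {v | ‖F.y v 0 - a₀‖ < R},
      ENNReal.ofReal (Real.log (R / ‖F.y v 0 - a₀‖)) ∂(F.mu K) ≤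
      ENNReal.ofReal (2 * π * (m₂ - m₁)) := by
  letI : MeasurableSpace F.V := borel F.V
  haveI : BorelSpace F.V := ⟨rfl⟩
  exact nu_bound' F hU K a₀ hR hE hV hUE hG2 hM hG

end fam

end

end Crest.Agent.R281.Nu_967
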