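import Crest.Agent.R281.Con11_166
import Crest.Agent.R281.Nu1_967

/-!
# R281 (S0424), DIV 6, S6-CONT part 12 (helper166): the node N4

`nuAll`     : the mass bound for all families (967's `nu_bound`);
`exists_pd'`: the partition `PD M` for a metric on `M`;
`contOut`   : `UPre K o h → Nonempty (ContOut o.F)` for `M` compact Hausdorff, second countable.
-/

set_option autoImplicit false
set_option linter.unusedSectionVars false

open Set Filter Topology Complex Function MeasureTheory
open scoped ContDiff Matrix ComplexConjugate ComplexOrder ENNReal Real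

namespace Crest.Agent.R281.Con_166

open Crest.Agent.R275.Geo Crest.Agent.R275.Core144 Crest.Agent.R275.EDR890
open Crest.Agent.R275.GC293
open Crest.Agent.R273.Defs_333 Crest.Agent.R273.Kah_333
open Crest.Agent.R281.Defs_273 Crest.Agent.R281.S6D_664 Crest.Agent.R281.D6_986

noncomputable section

theorem nuAll {n : ℕ} {M : Type} [MetricSpace M] [CompactSpace M] (A : Atl (2 * n) M) (K : Kah A) :
    NUall A K := by
  intro U hU F a0 R hR E G m1 m2 hE hop hUE hG2 hM hG
  exact Nu_967.nu_bound F hU K a0 hR hE hop hUE hG2 hM hG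

section met

variable {n : ℕ} {M : Type} [MetricSpace M] [CompactSpace M] {A : Atl (2 * n) M} {σ : HSymp A}
  {L : LB A} {K : Kah A} {o : OmOut σ L} {h : HM L}

/-- **the partition**, metric form -/
theorem exists_pd' (hn : 0 < n) (up : UPre K o h) :
    ∃ P : PD M, P.Om = o.F.Om ∧ ∀ x ∈ o.F.Om, P.T x = o.F.Tf x :=
  exists_pd hn up (nuAll A K)

theorem contOut_met (hn : 0 < n) (up : UPre K o h) : Nonempty (ContOut o.F) := by
  obtain ⟨P, h1, h2⟩ := exists_pd' hn up
  exact ⟨contOut_of_PD o.F P h1 h2⟩

end met

/-- **N4** -/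
theorem contOut {n : ℕ} (hn : 0 < n) {M : Type} [TopologicalSpace M] [T2Space M] [CompactSpace M]
    [SecondCountableTopology M] {A : Atl (2 * n) M} {σ : HSymp A} {L : LB A} {K : Kah A}
    {o : OmOut σ L} {h : HM L} (up : UPre K o h) : Nonempty (ContOut o.F) := by
  let _ : MetricSpace M := TopologicalSpace.metrizableSpaceMetric M
  exact contOut_met hn up

end

end Crest.Agent.R281.Con_166
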