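import Crest.Agent.R281.Con1_166

/-!
Row 281, DIV 6: covering numbers of the limit sets `Z x`, hence finite Hausdorff measure
(input of helper316's slice lemma (F1)).
-/

set_option autoImplicit false

open Metric Set Filter Topology MeasureTheory
open scoped ENNReal NNReal

namespace Crest.Agent.R281.Con_166

/-- covering by balls from a lower mass bound -/
lemma exists_cover {X : Type*} [PseudoMetricSpace X] [MeasurableSpace X] [OpensMeasurableSpace X]
    (μ : Measure X) (T : Set X) {r a v : ℝ} (hr : 0 < r) (ha : 0 < a) (hv0 : 0 ≤ v)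
    (hμ : ∀ p ∈ T, ENNReal.ofReal a ≤ μ (ball p (r / 2))) (hv : μ univ ≤ ENNReal.ofReal v) :
    ∃ s : Finset X, (↑s : Set X) ⊆ T ∧ T ⊆ ⋃ p ∈ s, ball p r ∧ (s.card : ℝ) * a ≤ v := by
  classical
  let S : Set (Finset X) := {s | (↑s : Set X) ⊆ T ∧ ∀ p ∈ s, ∀ q ∈ s, p ≠ q → r ≤ dist p q}
  have hS0 : (∅ : Finset X) ∈ S := ⟨by simp, by simp⟩
  have hcard : ∀ s ∈ S, (s.card : ℝ) * a ≤ v := by
    intro s hs
    have hdisj : Set.PairwiseDisjoint (↑s : Set X) (fun p => ball p (r / 2)) := by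
      intro p hp q hq hpq
      apply ball_disjoint_ball
      have := hs.2 p hp q hq hpq
      linarith
    have h1 : ∑ p ∈ s, μ (ball p (r / 2)) ≤ μ univ := by
      rw [← measure_biUnion_finset hdisj (fun p _ => measurableSet_ball)]
      exact measure_mono (subset_univ _)
    have h2 : (s.card : ℝ≥0∞) * ENNReal.ofReal a ≤ ∑ p ∈ s, μ (ball p (r / 2)) := by
      rw [← nsmul_eq_mul]
      exact Finset.card_nsmul_le_sum s _ _ (fun p hp => hμ p (hs.1 hp))
    have h3 : ENNReal.ofReal ((s.card : ℝ) * a) ≤ ENNReal.ofReal v := by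
      rw [ENNReal.ofReal_mul (by positivity), ENNReal.ofReal_natCast]
      exact h2.trans (h1.trans hv)
    exact (ENNReal.ofReal_le_ofReal_iff hv0).1 h3
  have hbdd : BddAbove {n : ℕ | ∃ s ∈ S, s.card = n} := by
    refine ⟨⌊v / a⌋₊, ?_⟩
    rintro n ⟨s, hs, rfl⟩
    apply Nat.le_floor
    rw [le_div_iff₀ ha]
    exact hcard s hs
  have hne : {n : ℕ | ∃ s ∈ S, s.card = n}.Nonempty := ⟨0, ∅, hS0, rfl⟩
  obtain ⟨s, hs, hsn⟩ := Nat.sSup_mem hne hbdd
  refine ⟨s, hs.1, ?_, hcard s hs⟩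
  intro x hx
  by_contra hxs
  simp only [mem_iUnion, mem_ball, not_exists, not_lt] at hxs
  have hxs' : x ∉ s := fun h => by
    have := hxs x h
    rw [dist_self] at this
    linarith
  have hins : insert x s ∈ S := by
    refine ⟨?_, ?_⟩
    · intro y hy
      rw [Finset.coe_insert, mem_insert_iff] at hy
      rcases hy with rfl | hy
      · exact hx
      · exact hs.1 hy
    · intro p hp q hq hpq
      rw [Finset.mem_insert] at hp hq
      rcases hp with rfl | hp
      · rcases hq with rfl | hq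
        · exact absurd rfl hpq
        · exact hxs q hq
      · rcases hq with rfl | hq
        · rw [dist_comm]; exact hxs p hp
        · exact hs.2 p hp q hq hpq
  have hle := le_csSup hbdd ⟨insert x s, hins, rfl⟩
  rw [Finset.card_insert_of_notMem hxs', ← hsn] at hle
  omega

lemma ediam_ball_le2 {X : Type*} [PseudoMetricSpace X] (p : X) (r : ℝ) :
    ediam (ball p r) ≤ ENNReal.ofReal (2 * r) := by
  rw [← Metric.eball_ofReal, ENNReal.ofReal_mul (by norm_num)]
  refine ediam_eball_le.trans ?_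
  simp

/-- finite Hausdorff measure from covering numbers -/
lemma hausdorff_le_of_cover {X : Type*} [MetricSpace X] [MeasurableSpace X] [BorelSpace X]
    (K : Set X) {k : ℕ} {C r0 : ℝ} (_hC : 0 ≤ C) (hr0 : 0 < r0)
    (h : ∀ r : ℝ, 0 < r → r < r0 → ∃ s : Finset X, K ⊆ (⋃ p ∈ s, ball p r) ∧
      (s.card : ℝ) * r ^ k ≤ C) :
    Measure.hausdorffMeasure (k : ℝ) K ≤ ENNReal.ofReal (2 ^ k * C) := by
  classical
  have key : ∀ n : ℕ, ∃ s : Finset X, K ⊆ (⋃ p ∈ s, ball p (r0 / (n + 2))) ∧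
      (s.card : ℝ) * (r0 / (n + 2)) ^ k ≤ C := by
    intro n
    have hn : (0 : ℝ) < (n : ℝ) + 2 := by positivity
    refine h _ (by positivity) ?_
    rw [div_lt_iff₀ hn]
    nlinarith [(Nat.cast_nonneg n : (0 : ℝ) ≤ n)]
  choose s hs1 hs2 using key
  have hr : Tendsto (fun n : ℕ => ENNReal.ofReal (2 * (r0 / (n + 2)))) atTop (𝓝 0) := by
    have h1 : Tendsto (fun n : ℕ => (2 : ℝ) * (r0 / ((n : ℝ) + 2))) atTop (𝓝 0) := by
      have h2 : Tendsto (fun n : ℕ => r0 / ((n : ℝ) + 2)) atTop (𝓝 0) := by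
        apply Tendsto.div_atTop tendsto_const_nhds
        exact tendsto_atTop_add_const_right _ _ tendsto_natCast_atTop_atTop
      simpa using h2.const_mul 2
    have := ENNReal.tendsto_ofReal h1
    simpa using this
  have hmain := Measure.hausdorffMeasure_le_liminf_sum (k : ℝ) K (l := atTop)
    (ι := fun n : ℕ => (s n : Set X)) (fun n : ℕ => ENNReal.ofReal (2 * (r0 / (n + 2)))) hr
    (fun n i => ball (i : X) (r0 / (n + 2))) (Eventually.of_forall fun n i => ?_)
    (Eventually.of_forall fun n => ?_)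
  · refine hmain.trans ?_
    apply liminf_le_of_le
    · isBoundedDefault
    intro b hb
    obtain ⟨n, hn⟩ := hb.exists
    refine hn.trans ?_
    have hpos : (0 : ℝ) < r0 / (n + 2) := by positivity
    calc ∑ i : (s n : Set X), ediam (ball (i : X) (r0 / (n + 2))) ^ (k : ℝ)
        ≤ ∑ _i : (s n : Set X), ENNReal.ofReal (2 * (r0 / (n + 2))) ^ (k : ℝ) := by
          apply Finset.sum_le_sum
          intro i _
          exact ENNReal.rpow_le_rpow (ediam_ball_le2 _ _) (by positivity)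
      _ = ENNReal.ofReal ((s n).card * (2 * (r0 / (n + 2))) ^ k) := by
          rw [Finset.sum_const, nsmul_eq_mul, ENNReal.rpow_natCast,
            ← ENNReal.ofReal_pow (by positivity), ← ENNReal.ofReal_natCast,
            ← ENNReal.ofReal_mul (by positivity)]
          congr 3
          simp
      _ ≤ ENNReal.ofReal (2 ^ k * C) := by
          apply ENNReal.ofReal_le_ofReal
          have := hs2 n
          calc ((s n).card : ℝ) * (2 * (r0 / (n + 2))) ^ k
              = 2 ^ k * (((s n).card : ℝ) * (r0 / (n + 2)) ^ k) := by rw [mul_pow]; ring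
            _ ≤ 2 ^ k * C := by gcongr
  · exact ediam_ball_le2 _ _
  · intro x hx
    obtain ⟨p, hp, hxp⟩ := mem_iUnion₂.1 (hs1 n hx)
    exact mem_iUnion.2 ⟨⟨p, hp⟩, hxp⟩

namespace PD

variable {X : Type*} [MetricSpace X] (P : PD X)

/-- covering numbers pass to the limit sets -/
theorem cover_Z {C r0 : ℝ} {k : ℕ}
    (h : ∀ z ∈ P.Om, ∀ r : ℝ, 0 < r → r < r0 → ∃ s : Finset X, P.T z ⊆ (⋃ p ∈ s, ball p r) ∧
      (s.card : ℝ) * r ^ k ≤ C) (x : X) {r : ℝ} (hr : 0 < r) (hr0 : r < 2 * r0) :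
    ∃ s : Finset X, P.Z x ⊆ (⋃ p ∈ s, ball p r) ∧ (s.card : ℝ) * r ^ k ≤ 2 ^ k * C := by
  obtain ⟨η, hη, hf⟩ := P.near_fwd (half_pos hr)
  obtain ⟨z, hz, hzx⟩ := P.exists_near x hη
  obtain ⟨s, hs, hsc⟩ := h z hz (r / 2) (half_pos hr) (by linarith)
  refine ⟨s, ?_, ?_⟩
  · intro q hq
    obtain ⟨q', hq', hd⟩ := hf x z hz hzx q hq
    obtain ⟨p, hp, hpq⟩ := mem_iUnion₂.1 (hs hq')
    refine mem_iUnion₂.2 ⟨p, hp, ?_⟩
    rw [mem_ball] at hpq ⊢
    have := dist_triangle q q' p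
    linarith
  · calc (s.card : ℝ) * r ^ k = 2 ^ k * ((s.card : ℝ) * (r / 2) ^ k) := by
          rw [div_pow]; field_simp
      _ ≤ 2 ^ k * C := by gcongr

/-- the limit sets have finite Hausdorff measure -/
theorem hausdorff_Z [MeasurableSpace X] [BorelSpace X] {C r0 : ℝ} {k : ℕ} (hC : 0 ≤ C)
    (hr0 : 0 < r0)
    (h : ∀ z ∈ P.Om, ∀ r : ℝ, 0 < r → r < r0 → ∃ s : Finset X, P.T z ⊆ (⋃ p ∈ s, ball p r) ∧
      (s.card : ℝ) * r ^ k ≤ C) (x : X) :
    Measure.hausdorffMeasure (k : ℝ) (P.Z x) ≤ ENNReal.ofReal (2 ^ k * (2 ^ k * C)) :=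
  hausdorff_le_of_cover (P.Z x) (by positivity) (by positivity : (0 : ℝ) < 2 * r0)
    (fun _ hr hr' => P.cover_Z h x hr hr')

/-- form with measures: every `T z` carries a measure of mass `≤ v` with lower density `c r^k` -/
theorem hausdorff_Z_of_mass [MeasurableSpace X] [BorelSpace X] {c v r0 : ℝ} {k : ℕ} (hc : 0 < c)
    (hv0 : 0 ≤ v) (hr0 : 0 < r0) (vol : X → Measure X)
    (hv : ∀ z ∈ P.Om, vol z univ ≤ ENNReal.ofReal v)
    (hlow : ∀ z ∈ P.Om, ∀ p ∈ P.T z, ∀ r : ℝ, 0 < r → r < r0 →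
      ENNReal.ofReal (c * r ^ k) ≤ vol z (ball p r)) (x : X) :
    Measure.hausdorffMeasure (k : ℝ) (P.Z x) ≤
      ENNReal.ofReal (2 ^ k * (2 ^ k * (2 ^ k * (v / c)))) := by
  refine P.hausdorff_Z (by positivity) hr0 (C := 2 ^ k * (v / c)) (fun z hz r hr hr' => ?_) x
  obtain ⟨s, -, h2, h3⟩ := exists_cover (vol z) (P.T z) hr
    (a := c * (r / 2) ^ k) (v := v) (by positivity) hv0
    (fun p hp => hlow z hz p hp (r / 2) (by positivity) (by linarith)) (hv z hz)
  refine ⟨s, h2, ?_⟩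
  have e : (s.card : ℝ) * r ^ k = 2 ^ k * (((s.card : ℝ) * (c * (r / 2) ^ k)) / c) := by
    rw [div_pow]; field_simp
  rw [e]
  gcongr

end PD

end Crest.Agent.R281.Con_166
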