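import Crest.Agent.R273.Levi_145

/-!
Row 281, DIV 6, (C) of helper664 #6845: the weight.
For a compact countable `E ⊆ ℂ` (the punctures), `0 ∉ E`, and `ζ ∉ E`, `0 < |ζ| < 1` there is a
function `W` on `Cn 1`, smooth and subharmonic off `0`, `0 ≤ W ≤ log⁺(1/|y|)/log(1/|ζ|)`, zero near
`E` and near `|y| ≥ 1`, with `W ζ` close to a positive constant.  No cut-offs are needed.
-/

set_option autoImplicit false

open Set Filter Topology Metric
open scoped ContDiff

namespace Crest.Agent.R281.Con_166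

open Crest.Agent.R275.Geo

/-! ### the smooth convex function `Hs` -/

/-- smooth convex, zero on `(-∞,0]`, slope at most one -/
noncomputable def Hs (t : ℝ) : ℝ := ∫ s in (0 : ℝ)..t, Real.smoothTransition s

lemma hasDerivAt_Hs (t : ℝ) : HasDerivAt Hs (Real.smoothTransition t) t := by
  have hc : Continuous Real.smoothTransition := Real.smoothTransition.continuous
  exact intervalIntegral.integral_hasDerivAt_right (hc.intervalIntegrable _ _)
    (hc.stronglyMeasurableAtFilter _ _) hc.continuousAt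

lemma deriv_Hs : deriv Hs = Real.smoothTransition := funext fun t => (hasDerivAt_Hs t).deriv

lemma contDiff_Hs : ContDiff ℝ ∞ Hs := by
  rw [contDiff_infty_iff_deriv]
  refine ⟨fun t => (hasDerivAt_Hs t).differentiableAt, ?_⟩
  rw [deriv_Hs]
  exact Real.smoothTransition.contDiff

lemma Hs_of_nonpos {t : ℝ} (h : t ≤ 0) : Hs t = 0 := by
  unfold Hs
  have e : ∫ s in (0 : ℝ)..t, Real.smoothTransition s = ∫ _s in (0 : ℝ)..t, (0 : ℝ) := by
    apply intervalIntegral.integral_congr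
    intro s hs
    rw [uIcc_of_ge h] at hs
    exact Real.smoothTransition.zero_of_nonpos hs.2
  rw [e]; simp

lemma Hs_mono : Monotone Hs := by
  apply monotone_of_deriv_nonneg (fun t => (hasDerivAt_Hs t).differentiableAt)
  intro t
  rw [deriv_Hs]
  exact Real.smoothTransition.nonneg t

lemma Hs_nonneg (t : ℝ) : 0 ≤ Hs t := by
  rcases le_total t 0 with h | h
  · rw [Hs_of_nonpos h]
  · calc (0 : ℝ) = Hs 0 := (Hs_of_nonpos le_rfl).symm
      _ ≤ Hs t := Hs_mono h

lemma Hs_sub_le {s t : ℝ} (h : s ≤ t) : Hs t - Hs s ≤ t - s := by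
  have hm : Monotone fun x : ℝ => x - Hs x := by
    apply monotone_of_deriv_nonneg
      (fun t => differentiableAt_id.sub (hasDerivAt_Hs t).differentiableAt)
    intro t
    rw [((hasDerivAt_id t).sub (hasDerivAt_Hs t)).deriv]
    have := Real.smoothTransition.le_one t
    linarith
  have := hm h
  simp only at this
  linarith

lemma Hs_le (t : ℝ) : Hs t ≤ max t 0 := by
  rcases le_total t 0 with h | h
  · rw [Hs_of_nonpos h]; exact le_max_right _ _
  · have := Hs_sub_le h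
    rw [Hs_of_nonpos le_rfl] at this
    rw [max_eq_left h]; linarith

lemma Hs_pos {t : ℝ} (h : 0 < t) : 0 < Hs t := by
  unfold Hs
  apply intervalIntegral.intervalIntegral_pos_of_pos_on
  · exact Real.smoothTransition.continuous.intervalIntegrable _ _
  · intro x hx
    exact Real.smoothTransition.pos_of_pos hx.1
  · exact h

/-- Levi form of `Hs ∘ u` for `lev u ≥ 0` -/
lemma lev_Hs_nonneg {n : ℕ} {u : Cn n → ℝ} {z : Cn n} (hu : ContDiffAt ℝ 2 u z)
    (h : ∀ v, 0 ≤ Crest.Agent.R273.Levi_145.lev u z v) (v : Cn n) :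
    0 ≤ Crest.Agent.R273.Levi_145.lev (fun y => Hs (u y)) z v := by
  have hd : Differentiable ℝ Real.smoothTransition :=
    (Real.smoothTransition.contDiff (n := 1)).differentiable (by norm_num)
  rw [Crest.Agent.R273.Levi_145.lev_comp_real (χ := Hs) (χ' := Real.smoothTransition)
    (χ'' := deriv Real.smoothTransition (u z)) hu
    (Eventually.of_forall fun t => hasDerivAt_Hs t) (hd _).hasDerivAt]
  have h1 : 0 ≤ deriv Real.smoothTransition (u z) :=
    Real.smoothTransition.monotone.deriv_nonneg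
  have h2 := Real.smoothTransition.nonneg (u z)
  have h3 := h v
  positivity

/-! ### the weight -/

/-- `lam·log(1/|y|) + ∑ c_i log(|y - a_i|/4) - κ` -/
noncomputable def wu (lam kap : ℝ) (t : Finset ℕ) (a : ℕ → ℂ) (c : ℕ → ℝ) (y : Cn 1) : ℝ :=
  -(lam / 2) * Real.log (‖y 0‖ ^ 2)
    + ∑ i ∈ t, c i / 2 * (Real.log (‖y 0 - a i‖ ^ 2) - Real.log 16) - kap

lemma analyticAt_coord (a : ℂ) (y : Cn 1) : AnalyticAt ℂ (fun w : Cn 1 => w 0 - a) y := by
  have h : AnalyticAt ℂ (fun w : Cn 1 => (EuclideanSpace.proj (0 : Fin 1) : Cn 1 →L[ℂ] ℂ) w) y :=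
    ContinuousLinearMap.analyticAt _ _
  exact h.sub analyticAt_const

section wu

variable {lam kap : ℝ} {t : Finset ℕ} {a : ℕ → ℂ} {c : ℕ → ℝ} {y : Cn 1}

lemma contDiffAt_logn (a : ℂ) (h : y 0 ≠ a) :
    ContDiffAt ℝ ∞ (fun w : Cn 1 => Real.log (‖w 0 - a‖ ^ 2)) y :=
  Crest.Agent.R273.Levi_145.c2_log_normSq (analyticAt_coord a y) (sub_ne_zero.2 h) _

lemma lev_logn (a : ℂ) (h : y 0 ≠ a) (v : Cn 1) :
    Crest.Agent.R273.Levi_145.lev (fun w : Cn 1 => Real.log (‖w 0 - a‖ ^ 2)) y v = 0 :=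
  Crest.Agent.R273.Levi_145.lev_log_normSq (analyticAt_coord a y) (sub_ne_zero.2 h) v

lemma contDiffAt_wu (h0 : y 0 ≠ 0) (ha : ∀ i ∈ t, y 0 ≠ a i) :
    ContDiffAt ℝ ∞ (wu lam kap t a c) y := by
  unfold wu
  refine ((contDiffAt_const.mul ?_).add (ContDiffAt.sum fun i hi => ?_)).sub contDiffAt_const
  · simpa using contDiffAt_logn 0 h0
  · exact contDiffAt_const.mul ((contDiffAt_logn (a i) (ha i hi)).sub contDiffAt_const)

lemma lev_wu (h0 : y 0 ≠ 0) (ha : ∀ i ∈ t, y 0 ≠ a i) (v : Cn 1) :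
    Crest.Agent.R273.Levi_145.lev (wu lam kap t a c) y v = 0 := by
  have two : (2 : WithTop ℕ∞) ≤ ∞ := WithTop.coe_le_coe.2 (le_top : (2 : ℕ∞) ≤ ⊤)
  have c0 : ContDiffAt ℝ 2 (fun w : Cn 1 => Real.log (‖w 0‖ ^ 2)) y := by
    have := (contDiffAt_logn (y := y) 0 h0).of_le two
    simpa using this
  have l0 : Crest.Agent.R273.Levi_145.lev (fun w : Cn 1 => Real.log (‖w 0‖ ^ 2)) y v = 0 := by
    have := lev_logn (y := y) 0 h0 v
    simpa using this
  have c1 : ∀ i ∈ t, ContDiffAt ℝ 2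
      (fun w : Cn 1 => c i / 2 * (Real.log (‖w 0 - a i‖ ^ 2) - Real.log 16)) y := fun i hi =>
    contDiffAt_const.mul (((contDiffAt_logn (a i) (ha i hi)).of_le two).sub contDiffAt_const)
  have l1 : ∀ i ∈ t, Crest.Agent.R273.Levi_145.lev
      (fun w : Cn 1 => c i / 2 * (Real.log (‖w 0 - a i‖ ^ 2) - Real.log 16)) y v = 0 := by
    intro i hi
    have h2 := (contDiffAt_logn (y := y) (a i) (ha i hi)).of_le two
    rw [Crest.Agent.R273.Levi_145.lev_const_mul (c i / 2) (h2.sub contDiffAt_const),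
      Crest.Agent.R273.Levi_145.lev_sub h2 contDiffAt_const, lev_logn _ (ha i hi),
      Crest.Agent.R273.Levi_145.lev_const]
    ring
  have cs : ContDiffAt ℝ 2 (fun w : Cn 1 =>
      ∑ i ∈ t, c i / 2 * (Real.log (‖w 0 - a i‖ ^ 2) - Real.log 16)) y := ContDiffAt.sum c1
  have ls : Crest.Agent.R273.Levi_145.lev (fun w : Cn 1 =>
      ∑ i ∈ t, c i / 2 * (Real.log (‖w 0 - a i‖ ^ 2) - Real.log 16)) y v = 0 := by
    rw [Crest.Agent.R273.Levi_145.lev_sum t c1, Finset.sum_eq_zero l1]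
  unfold wu
  rw [Crest.Agent.R273.Levi_145.lev_sub ((contDiffAt_const.mul c0).add cs) contDiffAt_const,
    Crest.Agent.R273.Levi_145.lev_add (contDiffAt_const.mul c0) cs,
    Crest.Agent.R273.Levi_145.lev_const_mul _ c0, l0, ls,
    Crest.Agent.R273.Levi_145.lev_const]
  ring

end wu

/-- one term of the sum is nonpositive -/
lemma term_nonpos {y a : ℂ} (hy : ‖y‖ < 1) (ha : ‖a‖ ≤ 1) (h : y ≠ a) {c : ℝ} (hc : 0 ≤ c) :
    c / 2 * (Real.log (‖y - a‖ ^ 2) - Real.log 16) ≤ 0 := by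
  have h1 : ‖y - a‖ ≤ 2 := by
    calc ‖y - a‖ ≤ ‖y‖ + ‖a‖ := norm_sub_le _ _
      _ ≤ 2 := by linarith
  have h0 : 0 < ‖y - a‖ := norm_pos_iff.2 (sub_ne_zero.2 h)
  have h2 : ‖y - a‖ ^ 2 ≤ 16 := by nlinarith
  have h3 : Real.log (‖y - a‖ ^ 2) ≤ Real.log 16 := Real.log_le_log (by positivity) h2
  have : 0 ≤ c / 2 := by positivity
  nlinarith

/-- the term near its centre -/
lemma term_near {y a : ℂ} {c N : ℝ} (hc : 0 < c) (h : y ≠ a)
    (hr : ‖y - a‖ < 4 * Real.exp (-(N / c))) :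
    c / 2 * (Real.log (‖y - a‖ ^ 2) - Real.log 16) ≤ -N := by
  have h0 : 0 < ‖y - a‖ := norm_pos_iff.2 (sub_ne_zero.2 h)
  have h1 : Real.log ‖y - a‖ ≤ Real.log 4 - N / c := by
    have := Real.log_le_log h0 hr.le
    rw [Real.log_mul (by norm_num) (Real.exp_ne_zero _), Real.log_exp] at this
    linarith
  have h2 : Real.log (‖y - a‖ ^ 2) = 2 * Real.log ‖y - a‖ := by
    rw [Real.log_pow]; norm_num
  have h3 : Real.log 16 = 2 * Real.log 4 := by
    rw [show (16 : ℝ) = 4 ^ 2 by norm_num, Real.log_pow]; norm_num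
  rw [h2, h3]
  have h4 : c / 2 * (2 * Real.log ‖y - a‖ - 2 * Real.log 4) = c * (Real.log ‖y - a‖ - Real.log 4) := by
    ring
  rw [h4]
  calc c * (Real.log ‖y - a‖ - Real.log 4) ≤ c * (-(N / c)) := by
        apply mul_le_mul_of_nonneg_left _ hc.le
        linarith
    _ = -N := by field_simp

/-- **the weight**: smooth psh off `0` and the puncture set, zero near the punctures and near the
unit circle, bounded by the clipped logarithm, large at `ζ`. -/
theorem exists_weight {E : Set ℂ} (hE : IsCompact E) (hc : E.Countable)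
    (hE1 : ∀ a ∈ E, ‖a‖ ≤ 1) (h0 : (0 : ℂ) ∉ E) {ζ : ℂ} (hζ : ζ ∉ E) (hζ0 : ζ ≠ 0)
    (hζ1 : ‖ζ‖ < 1) {τ : ℝ} (hτ : 0 < τ) :
    ∃ W : Cn 1 → ℝ,
      (∀ y : Cn 1, y 0 ≠ 0 → y 0 ∉ E → ContDiffAt ℝ ∞ W y) ∧
      (∀ y : Cn 1, y 0 ≠ 0 → y 0 ∉ E → ∀ v, 0 ≤ Crest.Agent.R273.Levi_145.lev W y v) ∧
      (∀ y, 0 ≤ W y) ∧
      (∀ y : Cn 1, y 0 ≠ 0 → y 0 ∉ E → ‖y 0‖ < 1 →
        W y ≤ Real.log (1 / ‖y 0‖) / Real.log (1 / ‖ζ‖)) ∧
      (∃ O : Set ℂ, IsOpen O ∧ E ⊆ O ∧
        ∀ y : Cn 1, y 0 ∈ O → y 0 ∉ E → y 0 ≠ 0 → ‖y 0‖ < 1 → W y = 0) ∧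
      (∃ ρ : ℝ, ρ < 1 ∧ ∀ y : Cn 1, ρ ≤ ‖y 0‖ → y 0 ∉ E → y 0 ≠ 0 → ‖y 0‖ < 1 → W y = 0) ∧
      (∀ y : Cn 1, y 0 = ζ → Hs 1 - τ ≤ W y) := by
  classical
  -- distance
  obtain ⟨d, hd0, hd1, hd⟩ : ∃ d : ℝ, 0 < d ∧ d ≤ 1 ∧ ∀ a ∈ E, d ≤ ‖a‖ ∧ d ≤ ‖ζ - a‖ := by
    have hopen : IsOpen Eᶜ := hE.isClosed.isOpen_compl
    obtain ⟨d1, hd1, hb1⟩ := Metric.isOpen_iff.1 hopen 0 h0
    obtain ⟨d2, hd2, hb2⟩ := Metric.isOpen_iff.1 hopen ζ hζ
    refine ⟨min 1 (min d1 d2), by positivity, min_le_left _ _, fun a ha => ⟨?_, ?_⟩⟩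
    · by_contra hlt
      push Not at hlt
      have : a ∈ ball (0 : ℂ) d1 := by
        rw [mem_ball, dist_zero_right]
        exact lt_of_lt_of_le hlt ((min_le_right _ _).trans (min_le_left _ _))
      exact hb1 this ha
    · by_contra hlt
      push Not at hlt
      have : a ∈ ball ζ d2 := by
        rw [mem_ball, dist_comm, dist_eq_norm]
        exact lt_of_lt_of_le hlt ((min_le_right _ _).trans (min_le_right _ _))
      exact hb2 this ha
  have hL : 0 < Real.log (1 / ‖ζ‖) := by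
    apply Real.log_pos
    rw [lt_div_iff₀ (norm_pos_iff.2 hζ0)]
    linarith
  set lam : ℝ := 1 / Real.log (1 / ‖ζ‖) with hlam
  have hlam0 : 0 < lam := by positivity
  set N : ℝ := lam * Real.log (2 / d) with hN
  have hlogd : 0 < Real.log (2 / d) := by
    apply Real.log_pos
    rw [lt_div_iff₀ hd0]; linarith
  have hN0 : 0 < N := by positivity
  have hlog4 : 0 ≤ Real.log (4 / d) := by
    apply Real.log_nonneg
    rw [le_div_iff₀ hd0]; linarith
  set e : ℝ := τ / (2 * (Real.log (4 / d) + 1)) with he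
  have he0 : 0 < e := by positivity
  set kap : ℝ := τ / 2 with hkap
  -- the centres
  obtain ⟨t, a, c, hc0, haE, hsum, hcov⟩ : ∃ (t : Finset ℕ) (a : ℕ → ℂ) (c : ℕ → ℝ),
      (∀ i, 0 < c i) ∧ (∀ i ∈ t, a i ∈ E) ∧ ∑ i ∈ t, c i ≤ e ∧
      E ⊆ ⋃ i ∈ t, ball (a i) (4 * Real.exp (-(N / c i))) := by
    rcases E.eq_empty_or_nonempty with hemp | hne
    · exact ⟨∅, fun _ => 0, fun _ => 1, fun _ => one_pos, by simp, by simpa using he0.le,
        by simp [hemp]⟩
    · obtain ⟨a, ha⟩ := hc.exists_eq_range hne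
      have hs := hasSum_geometric_two' e
      obtain ⟨t, ht⟩ := hE.elim_finite_subcover
        (fun i : ℕ => ball (a i) (4 * Real.exp (-(N / (e / 2 / 2 ^ i)))))
        (fun _ => isOpen_ball) (by
          intro z hz
          rw [ha] at hz
          obtain ⟨i, rfl⟩ := hz
          exact mem_iUnion.2 ⟨i, mem_ball_self (by positivity)⟩)
      refine ⟨t, a, fun i => e / 2 / 2 ^ i, fun i => by positivity, fun i _ => ?_, ?_, ht⟩
      · rw [ha]; exact mem_range_self i
      · exact sum_le_hasSum t (fun i _ => by positivity) hs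
  have hne : ∀ y : Cn 1, y 0 ∉ E → ∀ i ∈ t, y 0 ≠ a i := fun y hy i hi h => by
    rw [h] at hy; exact hy (haE i hi)
  have hlogn : ∀ z : ℂ, -(lam / 2) * Real.log (‖z‖ ^ 2) = lam * Real.log (1 / ‖z‖) := by
    intro z
    rw [Real.log_pow, one_div, Real.log_inv]
    push_cast; ring
  have hsumle : ∀ y : Cn 1, y 0 ∉ E → ‖y 0‖ < 1 →
      ∑ i ∈ t, c i / 2 * (Real.log (‖y 0 - a i‖ ^ 2) - Real.log 16) ≤ 0 := by
    intro y hy hy1
    exact Finset.sum_nonpos fun i hi =>
      term_nonpos hy1 (hE1 _ (haE i hi)) (hne y hy i hi) (hc0 i).le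
  refine ⟨fun y => Hs (wu lam kap t a c y), ?_, ?_, fun y => Hs_nonneg _, ?_, ?_, ?_, ?_⟩
  · intro y hy0 hyE
    exact contDiff_Hs.contDiffAt.comp y (contDiffAt_wu hy0 (hne y hyE))
  · intro y hy0 hyE v
    have two : (2 : WithTop ℕ∞) ≤ ∞ := WithTop.coe_le_coe.2 (le_top : (2 : ℕ∞) ≤ ⊤)
    refine lev_Hs_nonneg ((contDiffAt_wu hy0 (hne y hyE)).of_le two) (fun v => ?_) v
    rw [lev_wu hy0 (hne y hyE)]
  · intro y hy0 hyE hy1
    refine (Hs_le _).trans ?_
    have hpos : 0 ≤ Real.log (1 / ‖y 0‖) / Real.log (1 / ‖ζ‖) := by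
      apply div_nonneg _ hL.le
      apply Real.log_nonneg
      rw [le_div_iff₀ (norm_pos_iff.2 hy0)]
      linarith
    refine max_le ?_ hpos
    unfold wu
    rw [hlogn]
    have h1 := hsumle y hyE hy1
    have h2 : lam * Real.log (1 / ‖y 0‖) = Real.log (1 / ‖y 0‖) / Real.log (1 / ‖ζ‖) := by
      rw [hlam]; ring
    rw [h2]
    have : 0 < kap := by positivity
    linarith
  · refine ⟨(⋃ i ∈ t, ball (a i) (4 * Real.exp (-(N / c i)))) ∩ {z | d / 2 < ‖z‖}, ?_, ?_, ?_⟩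
    · exact (isOpen_biUnion fun _ _ => isOpen_ball).inter (isOpen_lt continuous_const continuous_norm)
    · intro z hz
      refine ⟨hcov hz, ?_⟩
      have := (hd z hz).1
      change d / 2 < ‖z‖
      linarith
    · rintro y ⟨hy, hyd⟩ hyE hy0 hy1
      obtain ⟨i, hi, hyi⟩ := mem_iUnion₂.1 hy
      apply Hs_of_nonpos
      unfold wu
      rw [hlogn]
      have h1 : Real.log (1 / ‖y 0‖) ≤ Real.log (2 / d) := by
        apply Real.log_le_log (by positivity)
        rw [div_le_div_iff₀ (norm_pos_iff.2 hy0) hd0]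
        have : d / 2 < ‖y 0‖ := hyd
        linarith
      have h2 : lam * Real.log (1 / ‖y 0‖) ≤ N := mul_le_mul_of_nonneg_left h1 hlam0.le
      have h3 : ∑ i ∈ t, c i / 2 * (Real.log (‖y 0 - a i‖ ^ 2) - Real.log 16) ≤ -N := by
        rw [← Finset.add_sum_erase t _ hi]
        have h4 : c i / 2 * (Real.log (‖y 0 - a i‖ ^ 2) - Real.log 16) ≤ -N := by
          apply term_near (hc0 i) (hne y hyE i hi)
          rwa [mem_ball, dist_eq_norm] at hyi
        have h5 : ∑ j ∈ t.erase i, c j / 2 * (Real.log (‖y 0 - a j‖ ^ 2) - Real.log 16) ≤ 0 :=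
          Finset.sum_nonpos fun j hj =>
            term_nonpos hy1 (hE1 _ (haE j (Finset.mem_of_mem_erase hj)))
              (hne y hyE j (Finset.mem_of_mem_erase hj)) (hc0 j).le
        linarith
      have : 0 < kap := by positivity
      linarith
  · refine ⟨Real.exp (-(kap / lam)), ?_, ?_⟩
    · rw [Real.exp_lt_one_iff]
      have : 0 < kap / lam := by positivity
      linarith
    · intro y hρ hyE hy0 hy1
      apply Hs_of_nonpos
      unfold wu
      rw [hlogn]
      have h1 : Real.log (1 / ‖y 0‖) ≤ kap / lam := by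
        rw [one_div, Real.log_inv]
        have := Real.log_le_log (Real.exp_pos _) hρ
        rw [Real.log_exp] at this
        linarith
      have h2 : lam * Real.log (1 / ‖y 0‖) ≤ kap := by
        calc lam * Real.log (1 / ‖y 0‖) ≤ lam * (kap / lam) :=
              mul_le_mul_of_nonneg_left h1 hlam0.le
          _ = kap := by field_simp
      have h3 := hsumle y hyE hy1
      linarith
  · intro y hy
    have hu : 1 - τ ≤ wu lam kap t a c y := by
      unfold wu
      rw [hlogn, hy]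
      have h1 : lam * Real.log (1 / ‖ζ‖) = 1 := by
        rw [hlam]; field_simp
      rw [h1]
      have h2 : -(τ / 2) ≤ ∑ i ∈ t, c i / 2 * (Real.log (‖ζ - a i‖ ^ 2) - Real.log 16) := by
        have h3 : ∀ i ∈ t, -(c i * Real.log (4 / d)) ≤
            c i / 2 * (Real.log (‖ζ - a i‖ ^ 2) - Real.log 16) := by
          intro i hi
          have h4 := (hd _ (haE i hi)).2
          have h5 : Real.log (‖ζ - a i‖ ^ 2) = 2 * Real.log ‖ζ - a i‖ := by
            rw [Real.log_pow]; norm_num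
          have h6 : Real.log 16 = 2 * Real.log 4 := by
            rw [show (16 : ℝ) = 4 ^ 2 by norm_num, Real.log_pow]; norm_num
          have h7 : Real.log (4 / d) = Real.log 4 - Real.log d :=
            Real.log_div (by norm_num) hd0.ne'
          have h8 : Real.log d ≤ Real.log ‖ζ - a i‖ := Real.log_le_log hd0 h4
          rw [h5, h6, h7]
          have := hc0 i
          nlinarith
        have h9 : ∑ i ∈ t, -(c i * Real.log (4 / d)) ≤
            ∑ i ∈ t, c i / 2 * (Real.log (‖ζ - a i‖ ^ 2) - Real.log 16) := Finset.sum_le_sum h3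
        rw [Finset.sum_neg_distrib, ← Finset.sum_mul] at h9
        have h10 : (∑ i ∈ t, c i) * Real.log (4 / d) ≤ τ / 2 := by
          calc (∑ i ∈ t, c i) * Real.log (4 / d) ≤ e * Real.log (4 / d) :=
                mul_le_mul_of_nonneg_right hsum hlog4
            _ ≤ e * (Real.log (4 / d) + 1) := by
                apply mul_le_mul_of_nonneg_left _ he0.le; linarith
            _ = τ / 2 := by rw [he]; field_simp
        linarith
      rw [hkap]
      linarith
    have h1 : Hs (1 - τ) ≤ Hs (wu lam kap t a c y) := Hs_mono hu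
    have h2 := Hs_sub_le (show (1 - τ : ℝ) ≤ 1 by linarith)
    linarith

end Crest.Agent.R281.Con_166
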