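import Crest.Agent.R281.Con1_166

/-!
Row 281, DIV 6: from the local estimate for a dense set of pairs to the uniform modulus of `PD`.
-/

set_option autoImplicit false

open Metric Set Filter Topology

namespace Crest.Agent.R281.Con_166

variable {X : Type*} [MetricSpace X]

/-- the uniform modulus from: lower hemicontinuity of `T` on `Om`, and a local estimate for a
dense set of second points -/
theorem unif_of_local [CompactSpace X] {Om : Set X} {T : X → Set X}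
    (cont : ∀ z ∈ Om, ∀ q ∈ T z, ∀ ε : ℝ, 0 < ε →
      ∀ᶠ z' in 𝓝 z, z' ∈ Om → ∃ q' ∈ T z', dist q q' < ε)
    (loc : ∀ x0 : X, ∀ ε : ℝ, 0 < ε → ∃ N ∈ 𝓝 x0, ∀ a ∈ Om ∩ N, ∀ z ∈ Om ∩ N,
      z ∈ closure {z'' | z'' ∈ Om ∧ ∀ q ∈ T z'', ∃ q' ∈ T a, dist q q' < ε})
    {ε : ℝ} (hε : 0 < ε) :
    ∃ η : ℝ, 0 < η ∧ ∀ z ∈ Om, ∀ z' ∈ Om, dist z z' < η → ∀ q ∈ T z, ∃ q' ∈ T z', dist q q' < ε := by
  have h2 : 0 < ε / 2 := half_pos hε
  choose N hN hloc using fun x0 => loc x0 (ε / 2) h2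
  obtain ⟨η, hη, hleb⟩ := lebesgue_number_lemma_of_metric (isCompact_univ (X := X))
    (c := fun x => interior (N x)) (fun x => isOpen_interior)
    (fun x _ => mem_iUnion.2 ⟨x, mem_interior_iff_mem_nhds.2 (hN x)⟩)
  refine ⟨η, hη, fun z hz z' hz' hd q hq => ?_⟩
  obtain ⟨x0, hx0⟩ := hleb z (mem_univ _)
  have hzN : z ∈ N x0 := interior_subset (hx0 (mem_ball_self hη))
  have hz'N : z' ∈ N x0 := interior_subset (hx0 (by rw [mem_ball, dist_comm]; exact hd))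
  have hcl := hloc x0 z' ⟨hz', hz'N⟩ z ⟨hz, hzN⟩
  have hev := cont z hz q hq (ε / 2) h2
  obtain ⟨z'', ⟨hz''1, hz''2⟩, hev'⟩ := (mem_closure_iff_frequently.1 hcl).and_eventually hev |>.exists
  obtain ⟨q1, hq1, hd1⟩ := hev' hz''1
  obtain ⟨q', hq', hd'⟩ := hz''2 q1 hq1
  refine ⟨q', hq', ?_⟩
  have := dist_triangle q q1 q'
  linarith

/-- `PD` from local data -/
def PD.ofLocal [CompactSpace X] (Om : Set X) (T : X → Set X) (dense : Dense Om)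
    (mem : ∀ z ∈ Om, z ∈ T z) (sub : ∀ z ∈ Om, T z ⊆ Om) (cpt : ∀ z ∈ Om, IsCompact (T z))
    (conn : ∀ z ∈ Om, IsPreconnected (T z)) (eq : ∀ z ∈ Om, ∀ y ∈ T z, T y = T z)
    (cont : ∀ z ∈ Om, ∀ q ∈ T z, ∀ ε : ℝ, 0 < ε →
      ∀ᶠ z' in 𝓝 z, z' ∈ Om → ∃ q' ∈ T z', dist q q' < ε)
    (loc : ∀ x0 : X, ∀ ε : ℝ, 0 < ε → ∃ N ∈ 𝓝 x0, ∀ a ∈ Om ∩ N, ∀ z ∈ Om ∩ N,
      z ∈ closure {z'' | z'' ∈ Om ∧ ∀ q ∈ T z'', ∃ q' ∈ T a, dist q q' < ε}) : PD X where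
  Om := Om
  dense := dense
  T := T
  mem := mem
  sub := sub
  cpt := cpt
  conn := conn
  eq := eq
  unif := fun _ hε => unif_of_local cont loc hε

end Crest.Agent.R281.Con_166
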