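import Crest.Agent.R281.S6D_664

/-!
# R281 (S0424), DIV 6, S6-FUB part 1 (helper192): the leaf of a family

`F : Fam A d m U`, `u ∈ U`: `F.leaf hu : Fam A d 0 univ`, carrier `Lf F u = {v : F.V // F.y v = u}`,
adapted charts restricted by `z ↦ (z,u)` (`glue`).

* `leaf_e`, `leaf_symm`  : the charts of the leaf;
* `smAt_leaf`, `sm_leaf` : restriction of smooth functions;
* `kah_leaf`             : the metric of the leaf is the fibre block of the metric of `F.V`.
-/

set_option autoImplicit false
set_option linter.unusedSectionVars false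

open Set Filter Topology Complex Function MeasureTheory
open scoped ContDiff Matrix ComplexConjugate ComplexOrder

namespace Crest.Agent.R281.Fub_192

open Crest.Agent.R275.Geo Crest.Agent.R275.Core144 Crest.Agent.R275.EDR890
open Crest.Agent.R273.Defs_333 Crest.Agent.R273.Kah_333 Crest.Agent.R273.Hess_333
open Crest.Agent.R273.Map_835 Crest.Agent.R273.KahI_645 Crest.Agent.R273.Vol_333
open Crest.Agent.R273.Vm_333 Crest.Agent.R281.Defs_273 Crest.Agent.R281.S6D_664

noncomputable section

/-! ### gluing coordinates -/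

section glue_

variable {d m : ℕ}

/-- `(z,u)` as a point of `ℂ^(d+m)`, linear form -/
def gL (d m : ℕ) : (Cn d × Cn m) →L[ℂ] Cn (d + m) :=
  LinearMap.toContinuousLinearMap
    { toFun := fun p => WithLp.toLp 2 (Fin.append (fun a => p.1 a) (fun a => p.2 a))
      map_add' := by
        intro p q
        ext a
        refine Fin.addCases (fun a => ?_) (fun a => ?_) a <;> simp
      map_smul' := by
        intro c p
        ext a
        refine Fin.addCases (fun a => ?_) (fun a => ?_) a <;> simp }

/-- `z ↦ (z,u)` -/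
def glue (u : Cn m) (z : Cn d) : Cn (d + m) := gL d m (z, u)

@[simp] theorem glue_left (u : Cn m) (z : Cn d) (a : Fin d) : glue u z (Fin.castAdd m a) = z a := by
  simp [glue, gL]

@[simp] theorem glue_right (u : Cn m) (z : Cn d) (a : Fin m) : glue u z (Fin.natAdd d a) = u a := by
  simp [glue, gL]

/-- the first `d` coordinates -/
def prL (d m : ℕ) : Cn (d + m) →L[ℂ] Cn d :=
  LinearMap.toContinuousLinearMap
    { toFun := fun z => WithLp.toLp 2 (fun a => z (Fin.castAdd m a))
      map_add' := by intro p q; ext a; simp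
      map_smul' := by intro c p; ext a; simp }

@[simp] theorem prL_apply (z : Cn (d + m)) (a : Fin d) : prL d m z a = z (Fin.castAdd m a) := by
  simp [prL]

@[simp] theorem prL_glue (u : Cn m) (z : Cn d) : prL d m (glue u z) = z := by
  ext a; simp

theorem glue_prL {u : Cn m} {w : Cn (d + m)} (h : ∀ a, w (Fin.natAdd d a) = u a) :
    glue u (prL d m w) = w := by
  ext a
  refine Fin.addCases (fun a => ?_) (fun a => ?_) a
  · simp
  · simp [h]

/-- the linear part of `glue u` -/
def inL (d m : ℕ) : Cn d →L[ℂ] Cn (d + m) := (gL d m).comp (ContinuousLinearMap.inl ℂ (Cn d) (Cn m))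

theorem inL_eq (z : Cn d) : inL d m z = glue 0 z := by simp [inL, glue]

theorem inL_inj : Injective (inL d m) := by
  intro z w h
  have := congrArg (prL d m) h
  rwa [inL_eq, inL_eq, prL_glue, prL_glue] at this

theorem glue_eq (u : Cn m) (z : Cn d) : glue u z = inL d m z + glue u 0 := by
  ext a
  rw [inL_eq]
  refine Fin.addCases (fun a => ?_) (fun a => ?_) a <;> simp

theorem hasFDerivAt_glue (u : Cn m) (z : Cn d) : HasFDerivAt (glue u) (inL d m) z := by
  have h : glue u = fun z : Cn d => inL d m z + glue u 0 := funext fun z => glue_eq u z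
  rw [h]
  exact (inL d m).hasFDerivAt.add_const _

theorem contDiff_glue {n : WithTop ℕ∞} (u : Cn m) : ContDiff ℝ n (glue u : Cn d → Cn (d + m)) := by
  have h : (glue u : Cn d → Cn (d + m)) = fun z => inL d m z + glue u 0 :=
    funext fun z => glue_eq u z
  rw [h]
  exact ((inL d m).restrictScalars ℝ).contDiff.add contDiff_const

theorem continuous_glue (u : Cn m) : Continuous (glue u : Cn d → Cn (d + m)) :=
  (contDiff_glue (n := 0) u).continuous

theorem inL_single (a : Fin d) (c : ℂ) :
    inL d m (EuclideanSpace.single a c) = EuclideanSpace.single (Fin.castAdd m a) c := by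
  ext b
  rw [inL_eq]
  refine Fin.addCases (fun b => ?_) (fun b => ?_) b
  · simp only [glue_left, PiLp.single_apply, Fin.castAdd_inj]
  · have h : Fin.natAdd d b ≠ Fin.castAdd m a := by
      intro h
      have := congrArg Fin.val h
      simp at this
      omega
    simp [h]

end glue_

/-! ### the leaf -/

variable {N d m : ℕ} {M : Type} [TopologicalSpace M] {A : Atl N M} {U : Set (Cn m)}

theorem y_symm (F : Fam A d m U) {k : F.B.ι} {z : Cn (d + m)} (hz : z ∈ (F.B.e k).target)
    (a : Fin m) : F.y ((F.B.e k).symm z) a = z (Fin.natAdd d a) := by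
  rw [← F.last k _ ((F.B.e k).map_target hz) a, (F.B.e k).right_inv hz]

theorem y_symm_glue (F : Fam A d m U) {k : F.B.ι} {u : Cn m} {z : Cn d}
    (hz : glue u z ∈ (F.B.e k).target) : F.y ((F.B.e k).symm (glue u z)) = u := by
  ext a
  rw [y_symm F hz, glue_right]

theorem continuous_y (F : Fam A d m U) : Continuous F.y := by
  rw [continuous_iff_continuousAt]
  intro v
  obtain ⟨k, hk⟩ := F.B.cover v
  have h1 : ContinuousAt (fun v => (WithLp.toLp 2 (fun a : Fin m => F.B.e k v (Fin.natAdd d a)) :
      Cn m)) v := by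
    have h2 : ContinuousAt (F.B.e k) v := (F.B.e k).continuousAt hk
    have h3 : Continuous (fun w : Cn (d + m) =>
        (WithLp.toLp 2 (fun a : Fin m => w (Fin.natAdd d a)) : Cn m)) := by fun_prop
    exact h3.continuousAt.comp h2
  refine h1.congr ?_
  filter_upwards [(F.B.e k).open_source.mem_nhds hk] with w hw
  ext a
  exact F.last k w hw a

/-- carrier of the leaf over `u` -/
abbrev Lf (F : Fam A d m U) (u : Cn m) : Type := {v : F.V // F.y v = u}

section leaf_

variable (F : Fam A d m U) {u : Cn m} (hu : u ∈ U)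

theorem isCompact_fibre (hu : u ∈ U) : IsCompact (F.y ⁻¹' {u}) :=
  F.proper {u} (singleton_subset_iff.2 hu) isCompact_singleton

instance compactSpace_Lf [Fact (u ∈ U)] : CompactSpace (Lf F u) :=
  isCompact_iff_compactSpace.1 (isCompact_fibre F (Fact.out : u ∈ U))

/-- a base point of the leaf -/
def bp : Lf F u := ⟨(F.conn u hu).nonempty.some, (F.conn u hu).nonempty.some_mem⟩

open Classical in
/-- the inverse of the restricted chart -/
def lsy (k : F.B.ι) (z : Cn d) : Lf F u :=
  if h : glue u z ∈ (F.B.e k).target then ⟨(F.B.e k).symm (glue u z), y_symm_glue F h⟩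
  else bp F hu

theorem lsy_val {k : F.B.ι} {z : Cn d} (h : glue u z ∈ (F.B.e k).target) :
    (lsy F hu k z).1 = (F.B.e k).symm (glue u z) := by
  unfold lsy
  rw [dif_pos h]

theorem e_glue {k : F.B.ι} {v : F.V} (hv : v ∈ (F.B.e k).source) (hy : F.y v = u) :
    glue u (prL d m (F.B.e k v)) = F.B.e k v :=
  glue_prL fun a => by rw [F.last k v hv a, hy]

/-- the restricted chart -/
def lch (k : F.B.ι) : OpenPartialHomeomorph (Lf F u) (Cn d) where
  toFun v := prL d m (F.B.e k v.1)
  invFun := lsy F hu k
  source := {v | v.1 ∈ (F.B.e k).source}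
  target := {z | glue u z ∈ (F.B.e k).target}
  map_source' := by
    intro v hv
    change glue u (prL d m (F.B.e k v.1)) ∈ (F.B.e k).target
    rw [e_glue F hv v.2]
    exact (F.B.e k).map_source hv
  map_target' := by
    intro z hz
    change (lsy F hu k z).1 ∈ (F.B.e k).source
    rw [lsy_val F hu hz]
    exact (F.B.e k).map_target hz
  left_inv' := by
    intro v hv
    have h1 := e_glue F hv v.2
    apply Subtype.ext
    rw [lsy_val F hu (by rw [h1]; exact (F.B.e k).map_source hv), h1]
    exact (F.B.e k).left_inv hv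
  right_inv' := by
    intro z hz
    rw [lsy_val F hu hz, (F.B.e k).right_inv hz, prL_glue]
  open_source := (F.B.e k).open_source.preimage continuous_subtype_val
  open_target := (F.B.e k).open_target.preimage (continuous_glue u)
  continuousOn_toFun := by
    refine (prL d m).continuous.comp_continuousOn ?_
    exact (F.B.e k).continuousOn.comp continuous_subtype_val.continuousOn fun v hv => hv
  continuousOn_invFun := by
    have h : ContinuousOn (fun z => (lsy F hu k z).1) {z | glue u z ∈ (F.B.e k).target} := by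
      refine ContinuousOn.congr (f := fun z => (F.B.e k).symm (glue u z)) ?_ fun z hz =>
        lsy_val F hu hz
      exact (F.B.e k).continuousOn_symm.comp (continuous_glue u).continuousOn fun z hz => hz
    rw [continuousOn_iff_continuous_domRestrict, continuous_induced_rng]
    exact continuousOn_iff_continuous_domRestrict.1 h

theorem lch_symm_val {k : F.B.ι} {z : Cn d} (h : z ∈ (lch F hu k).target) :
    ((lch F hu k).symm z).1 = (F.B.e k).symm (glue u z) := lsy_val F hu h

/-- the restricted atlas -/
def latl : Atl d (Lf F u) where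
  ι := F.B.ι
  e := lch F hu
  cover v := F.B.cover v.1
  cube k z hz p := by
    have h := F.B.cube k (glue u z) hz (Fin.castAdd m p.1, p.2)
    have e : rc (glue u z) (Fin.castAdd m p.1, p.2) = rc z p := by
      simp [rc]
    rwa [e] at h
  holo i j := by
    have h1 : DifferentiableOn ℂ (fun z : Cn d => prL d m (F.B.e j ((F.B.e i).symm (glue u z))))
        {z | z ∈ (lch F hu i).target ∧ (lch F hu i).symm z ∈ (lch F hu j).source} := by
      refine (prL d m).differentiable.comp_differentiableOn ?_
      refine DifferentiableOn.comp (g := fun w : Cn (d + m) => F.B.e j ((F.B.e i).symm w))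
        (f := glue u) (t := {z | z ∈ (F.B.e i).target ∧
        (F.B.e i).symm z ∈ (F.B.e j).source}) (F.B.holo i j)
        (fun z _ => (hasFDerivAt_glue u z).differentiableAt.differentiableWithinAt) ?_
      rintro z ⟨hz1, hz2⟩
      refine ⟨hz1, ?_⟩
      have h3 : ((lch F hu i).symm z).1 ∈ (F.B.e j).source := hz2
      rwa [lch_symm_val F hu hz1] at h3
    refine DifferentiableOn.congr h1 fun z hz => ?_
    change prL d m (F.B.e j ((lch F hu i).symm z).1) = _
    rw [lch_symm_val F hu hz.1]

variable {F}

theorem contDiffOn_leaf {W : Type*} [NormedAddCommGroup W] [NormedSpace ℝ W] {k : F.B.ι}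
    {f : F.V → W} (hf : ContDiffOn ℝ ∞ (fun z => f ((F.B.e k).symm z)) (F.B.e k).target) :
    ContDiffOn ℝ ∞ (fun z => f (((latl F hu).e k).symm z).1) ((latl F hu).e k).target := by
  refine ContDiffOn.congr (f := fun z => f ((F.B.e k).symm (glue u z))) ?_ fun z hz => by
    change f ((lch F hu k).symm z).1 = _
    rw [lch_symm_val F hu hz]
  exact hf.comp (contDiff_glue u).contDiffOn fun z hz => hz

theorem smAt_leaf {W : Type*} [NormedAddCommGroup W] [NormedSpace ℝ W] {k : F.B.ι} {f : F.V → W}
    (hf : F.B.SmAt k f) : (latl F hu).SmAt k (fun v => f v.1) := contDiffOn_leaf hu hf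

theorem sm_leaf {W : Type*} [NormedAddCommGroup W] [NormedSpace ℝ W] {f : F.V → W}
    (hf : F.B.Sm f) : (latl F hu).Sm (fun v => f v.1) := fun k => contDiffOn_leaf hu (hf k)

theorem tsupport_leaf {W : Type*} [Zero W] (f : F.V → W) :
    tsupport (fun v : Lf F u => f v.1) ⊆ Subtype.val ⁻¹' tsupport f :=
  closure_minimal (fun _ hv => subset_tsupport f hv)
    ((isClosed_tsupport f).preimage continuous_subtype_val)

theorem isClosed_fibre : IsClosed (F.y ⁻¹' {u}) := isClosed_singleton.preimage (continuous_y F)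

variable (F)

/-- the restricted partition -/
def lpart : Part (latl F hu) where
  ψ k v := F.P.ψ k v.1
  χ k v := F.P.χ k v.1
  ψ_sm k := sm_leaf hu (F.P.ψ_sm k)
  χ_sm k := sm_leaf hu (F.P.χ_sm k)
  χ_cpt k := by
    have : CompactSpace (Lf F u) := isCompact_iff_compactSpace.1 (isCompact_fibre F hu)
    exact (isClosed_tsupport _).isCompact
  χ_sub k := fun v hv => F.P.χ_sub k (tsupport_leaf (F.P.χ k) hv)
  χ_one k v hv := by
    have h := F.P.χ_one k v.1 (tsupport_leaf (F.P.ψ k) hv)
    exact (continuous_subtype_val.tendsto v).eventually h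
  lf K hK := by
    refine (F.P.lf (Subtype.val '' K) (hK.image continuous_subtype_val)).subset ?_
    rintro k ⟨v, hv, hvK⟩
    exact ⟨v.1, tsupport_leaf (F.P.χ k) hv, ⟨v, hvK, rfl⟩⟩
  sum_one v := F.P.sum_one v.1

theorem hol_leaf : HolMap (latl F hu) A (fun v => F.i v.1) where
  cont := F.hol.cont.comp continuous_subtype_val
  hol i j := by
    have h1 : DifferentiableOn ℂ (fun z : Cn d => A.e j (F.i ((F.B.e i).symm (glue u z))))
        (((latl F hu).e i).target ∩ ((latl F hu).e i).symm ⁻¹'
          ((fun v : Lf F u => F.i v.1) ⁻¹' (A.e j).source)) := by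
      refine DifferentiableOn.comp (g := fun w : Cn (d + m) => A.e j (F.i ((F.B.e i).symm w)))
        (f := glue u) (t := (F.B.e i).target ∩ (F.B.e i).symm ⁻¹'
        (F.i ⁻¹' (A.e j).source)) (F.hol.hol i j)
        (fun z _ => (hasFDerivAt_glue u z).differentiableAt.differentiableWithinAt) ?_
      rintro z ⟨hz1, hz2⟩
      refine ⟨hz1, ?_⟩
      have h3 : F.i ((lch F hu i).symm z).1 ∈ (A.e j).source := hz2
      rw [lch_symm_val F hu hz1] at h3
      exact h3
    refine DifferentiableOn.congr h1 fun z hz => ?_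
    change A.e j (F.i ((lch F hu i).symm z).1) = _
    rw [lch_symm_val F hu hz.1]

/-- the reading of `i` in the charts of the leaf, near a point -/
theorem rd_leaf {j : F.B.ι} {i : A.ι} {z : Cn d} (hz : z ∈ (lch F hu j).target) :
    rd (latl F hu) A (fun v => F.i v.1) j i =ᶠ[𝓝 z] fun w => rd F.B A F.i j i (glue u w) := by
  filter_upwards [(lch F hu j).open_target.mem_nhds hz] with w hw
  change A.e i (F.i ((lch F hu j).symm w).1) = _
  rw [lch_symm_val F hu hw]
  rfl

theorem fderiv_leaf {j : F.B.ι} {i : A.ι} {v : Lf F u} (hv : v.1 ∈ (F.B.e j).source)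
    (hi : F.i v.1 ∈ (A.e i).source) :
    fderiv ℂ (rd (latl F hu) A (fun v => F.i v.1) j i) ((latl F hu).e j v)
      = (fderiv ℂ (rd F.B A F.i j i) (F.B.e j v.1)).comp (inL d m) := by
  have hz : (latl F hu).e j v ∈ (lch F hu j).target := (lch F hu j).map_source hv
  rw [(rd_leaf F hu hz).fderiv_eq]
  have h1 : glue u ((latl F hu).e j v) = F.B.e j v.1 := e_glue F hv v.2
  have h2 : DifferentiableAt ℂ (rd F.B A F.i j i) (glue u ((latl F hu).e j v)) := by
    rw [h1]; exact F.hol.diffAt (mem_dm hv hi)
  have h3 := h2.hasFDerivAt.comp _ (hasFDerivAt_glue u ((latl F hu).e j v))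
  rw [h1] at h3
  exact h3.fderiv

/-- **the leaf of the family over `u`** -/
def leaf : Fam A d 0 univ where
  V := Lf F u
  B := latl F hu
  cnt := F.cnt
  P := lpart F hu
  i v := F.i v.1
  y _ := 0
  hol := hol_leaf F hu
  imm := by
    intro j i v hv hi
    have h := fderiv_leaf F hu (v := v) hv hi
    change Injective (fderiv ℂ (rd (latl F hu) A (fun v => F.i v.1) j i) ((latl F hu).e j v))
    rw [h]
    exact (F.imm j i v.1 hv hi).comp inL_inj
  last _ _ _ a := a.elim0
  mem _ := mem_univ _
  proper C _ _ := by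
    have : CompactSpace (Lf F u) := isCompact_iff_compactSpace.1 (isCompact_fibre F hu)
    exact (IsClosed.isCompact (by
      by_cases h : (0 : Cn 0) ∈ C
      · rw [show (fun _ : Lf F u => (0 : Cn 0)) ⁻¹' C = univ from
          eq_univ_of_forall fun _ => h]; exact isClosed_univ
      · rw [show (fun _ : Lf F u => (0 : Cn 0)) ⁻¹' C = ∅ from
          eq_empty_of_forall_notMem fun _ h' => h h']; exact isClosed_empty))
  conn w _ := by
    have : ConnectedSpace (Lf F u) :=
      isConnected_iff_connectedSpace.1 (F.conn u hu)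
    have : (fun _ : Lf F u => (0 : Cn 0)) ⁻¹' {w} = univ :=
      eq_univ_of_forall fun _ => Subsingleton.elim _ _
    rw [this]
    exact isConnected_univ
  inj v w _ h := Subtype.ext (F.inj v.1 w.1 (v.2.trans w.2.symm) h)

instance : CompactSpace (leaf F hu).V := isCompact_iff_compactSpace.1 (isCompact_fibre F hu)

instance : ConnectedSpace (leaf F hu).V := isConnected_iff_connectedSpace.1 (F.conn u hu)

/-- the Jacobian of the immersion of the leaf -/
theorem Jp_leaf {j : F.B.ι} {i : A.ι} {v : Lf F u} (hv : v.1 ∈ (F.B.e j).source)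
    (hi : F.i v.1 ∈ (A.e i).source) (b : Fin N) (a : Fin d) :
    Jp (latl F hu) A (fun v => F.i v.1) j i v b a = Jp F.B A F.i j i v.1 b (Fin.castAdd m a) := by
  unfold Jp
  have h := fderiv_leaf F hu (v := v) hv hi
  simp only [Matrix.of_apply]
  rw [h]
  simp only [ContinuousLinearMap.comp_apply]
  rw [inL_single]

/-- **the metric of the leaf is the fibre block** -/
theorem kah_leaf (K : Kah A) {k : F.B.ι} {v : Lf F u} (hv : v.1 ∈ (F.B.e k).source) :
    ((leaf F hu).kah K).g k v = fb ((F.kah K).g k v.1) := by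
  obtain ⟨i, hi⟩ := A.cover (F.i v.1)
  have h1 : ((leaf F hu).kah K).g k v = _ :=
    pullI_g K (leaf F hu).hol (leaf F hu).imm (j := k) (i := i) (y := v) hv hi
  have h2 : (F.kah K).g k v.1 = _ :=
    pullI_g K F.hol F.imm (j := k) (i := i) (y := v.1) hv hi
  have hJ : Jp (latl F hu) A (fun v => F.i v.1) k i v =
      (Jp F.B A F.i k i v.1).submatrix id (Fin.castAdd m) := by
    ext b a
    rw [Jp_leaf F hu hv hi]
    rfl
  rw [h1, h2]
  change (Jp (latl F hu) A (fun v => F.i v.1) k i v)ᵀ * K.g i (F.i v.1) *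
    (Jp (latl F hu) A (fun v => F.i v.1) k i v).map conj = _
  rw [hJ]
  ext a b
  simp [fb, Matrix.mul_apply]

/-- the volume density of the leaf is the determinant of the fibre block -/
theorem volK_leaf (K : Kah A) {k : F.B.ι} {v : Lf F u} (hv : v.1 ∈ (F.B.e k).source) :
    (((leaf F hu).kah K).g k v).det = (fb ((F.kah K).g k v.1)).det := by
  rw [kah_leaf F hu K hv]

/-- isotropic leaves -/
theorem lag_leaf {σ : H2 A} (h : F.Lag σ) (k : F.B.ι) (i : A.ι) (v : Lf F u)
    (hv : v.1 ∈ (F.B.e k).source) (hi : F.i v.1 ∈ (A.e i).source) :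
    (Jp (latl F hu) A (fun v => F.i v.1) k i v)ᵀ * σ.s i (F.i v.1) *
      Jp (latl F hu) A (fun v => F.i v.1) k i v = 0 := by
  have hJ : Jp (latl F hu) A (fun v => F.i v.1) k i v =
      (Jp F.B A F.i k i v.1).submatrix id (Fin.castAdd m) := by
    ext b a
    rw [Jp_leaf F hu hv hi]
    rfl
  rw [← h k i v.1 hv hi, hJ]
  ext a b
  simp [fb, Matrix.mul_apply]

theorem lagF_leaf {σ : H2 A} (h : F.Lag σ) : (leaf F hu).Lag σ := by
  intro k i v hv hi
  have h1 := lag_leaf F hu h k i v hv hi
  change fb (d := d) (m := 0) ((Jp (latl F hu) A (fun v => F.i v.1) k i v)ᵀ * σ.s i (F.i v.1) *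
      Jp (latl F hu) A (fun v => F.i v.1) k i v) = 0
  rw [h1]
  rfl

theorem nz_leaf {s : A.ι → M → ℂ} (h : F.NZ s) : (leaf F hu).NZ s := fun v i hi => h v.1 i hi

end leaf_

end

end Crest.Agent.R281.Fub_192
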