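import Mathlib

/-!
# R281 (S0424), S6-HARN (Hc), part 1 (helper389): real functions and matrices

* `exists_prof e` : `a` smooth, `a = t` for `t ≥ 1/2`, `a' ≥ 0`, `(t a')' ≥ 0` on `t ≥ 0`, and
  `a', (t a')' ≥ 1/(32 e)` on `[0, e]`;
* `cap` : smooth with `cap = t - 1` for `t ≤ 5/8` up to a constant, constant for `t ≥ 3/4`.
* `det_mono` : monotonicity of the determinant on semipositive matrices;
* `det_rank_one` : `det (A + v v^*) = det A (1 + tr (A⁻¹ v v^*))`.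
-/

set_option autoImplicit false

open Set Filter Topology MeasureTheory
open scoped ContDiff Matrix ComplexOrder

noncomputable section

namespace Crest.Agent.R281.Hk_389

/-- smooth step from `0` (`t ≤ u`) to `1` (`t ≥ v`) -/
def stp (u v t : ℝ) : ℝ := Real.smoothTransition ((t - u) / (v - u))

section stp

variable {u v : ℝ}

lemma stp_contDiff : ContDiff ℝ ∞ (stp u v) :=
  Real.smoothTransition.contDiff.comp ((contDiff_id.sub contDiff_const).div_const _)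

lemma stp_zero (h : u < v) {t : ℝ} (ht : t ≤ u) : stp u v t = 0 :=
  Real.smoothTransition.zero_of_nonpos
    (div_nonpos_of_nonpos_of_nonneg (by linarith) (by linarith))

lemma stp_one (h : u < v) {t : ℝ} (ht : v ≤ t) : stp u v t = 1 := by
  refine Real.smoothTransition.one_of_one_le ?_
  rw [le_div_iff₀ (by linarith)]
  linarith

lemma stp_nonneg (t : ℝ) : 0 ≤ stp u v t := Real.smoothTransition.nonneg _

lemma stp_le_one (t : ℝ) : stp u v t ≤ 1 := Real.smoothTransition.le_one _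

lemma stp_mono (h : u < v) : Monotone (stp u v) := by
  intro a b hab
  refine Real.smoothTransition.monotone ?_
  exact div_le_div_of_nonneg_right (by linarith) (by linarith)

lemma stp_deriv_nonneg (h : u < v) (t : ℝ) : 0 ≤ deriv (stp u v) t :=
  (stp_mono h).deriv_nonneg

lemma stp_hasDerivAt (t : ℝ) : HasDerivAt (stp u v) (deriv (stp u v) t) t :=
  ((stp_contDiff (u := u) (v := v)).differentiable (by simp)).differentiableAt.hasDerivAt

lemma stp_deriv_zero (h : u < v) {t : ℝ} (ht : t < u) : deriv (stp u v) t = 0 := by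
  have h1 : stp u v =ᶠ[𝓝 t] fun _ => 0 := by
    filter_upwards [gt_mem_nhds ht] with s hs
    exact stp_zero h hs.le
  rw [h1.deriv_eq]; simp

end stp

/-- `1 / (8 √(t² + e²))` -/
def rr (e t : ℝ) : ℝ := (1 / 8) * (Real.sqrt (t ^ 2 + e ^ 2))⁻¹

/-- the derivative of the profile -/
def pa (e t : ℝ) : ℝ := (1 - stp (1 / 4) (1 / 2) t) * rr e t + stp (1 / 4) (1 / 2) t

section prof

variable {e : ℝ}

lemma q_pos (he : 0 < e) (t : ℝ) : 0 < t ^ 2 + e ^ 2 := by positivity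

lemma sq_pos (he : 0 < e) (t : ℝ) : 0 < Real.sqrt (t ^ 2 + e ^ 2) := Real.sqrt_pos.2 (q_pos he t)

lemma rr_contDiff (he : 0 < e) : ContDiff ℝ ∞ (rr e) := by
  have h1 : ContDiff ℝ ∞ (fun t : ℝ => Real.sqrt (t ^ 2 + e ^ 2)) :=
    ((contDiff_id.pow 2).add contDiff_const).sqrt fun t => (q_pos he t).ne'
  exact contDiff_const.mul (h1.inv fun t => (sq_pos he t).ne')

lemma rr_pos (he : 0 < e) (t : ℝ) : 0 < rr e t := by
  have := sq_pos he t
  unfold rr; positivity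

lemma rr_hasDerivAt (he : 0 < e) (t : ℝ) :
    HasDerivAt (rr e) (-(1 / 8) * t * ((Real.sqrt (t ^ 2 + e ^ 2)) ^ 3)⁻¹) t := by
  have hs := sq_pos he t
  have h0 : HasDerivAt (fun t : ℝ => t ^ 2 + e ^ 2) (2 * t) t := by
    simpa using (hasDerivAt_pow 2 t).add_const (e ^ 2)
  have h1 := h0.sqrt (q_pos he t).ne'
  have h2 := (h1.inv hs.ne').const_mul (1 / 8 : ℝ)
  refine h2.congr_deriv ?_
  field_simp

lemma rr_add (he : 0 < e) (t : ℝ) :
    rr e t + t * (-(1 / 8) * t * ((Real.sqrt (t ^ 2 + e ^ 2)) ^ 3)⁻¹) =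
      (1 / 8) * e ^ 2 * ((Real.sqrt (t ^ 2 + e ^ 2)) ^ 3)⁻¹ := by
  have hs := sq_pos he t
  have h2 : Real.sqrt (t ^ 2 + e ^ 2) ^ 2 = t ^ 2 + e ^ 2 := Real.sq_sqrt (q_pos he t).le
  unfold rr
  field_simp
  rw [h2]; ring

lemma rr_le (he : 0 < e) {t : ℝ} (ht : 1 / 4 ≤ t) : rr e t ≤ 1 := by
  have h1 : t ≤ Real.sqrt (t ^ 2 + e ^ 2) := Real.le_sqrt_of_sq_le (by nlinarith)
  have h2 : (Real.sqrt (t ^ 2 + e ^ 2))⁻¹ ≤ 4 := by
    rw [inv_le_comm₀ (sq_pos he t) (by norm_num)]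
    linarith
  unfold rr
  linarith

lemma pa_contDiff (he : 0 < e) : ContDiff ℝ ∞ (pa e) :=
  ((contDiff_const.sub stp_contDiff).mul (rr_contDiff he)).add stp_contDiff

lemma pa_one {t : ℝ} (ht : 1 / 2 ≤ t) : pa e t = 1 := by
  unfold pa
  rw [stp_one (by norm_num) ht]; ring

/-- the derivative of `pa` -/
def pa' (e t : ℝ) : ℝ :=
  -(deriv (stp (1 / 4) (1 / 2)) t) * rr e t +
    (1 - stp (1 / 4) (1 / 2) t) * (-(1 / 8) * t * ((Real.sqrt (t ^ 2 + e ^ 2)) ^ 3)⁻¹) +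
      deriv (stp (1 / 4) (1 / 2)) t

lemma pa_hasDerivAt (he : 0 < e) (t : ℝ) : HasDerivAt (pa e) (pa' e t) t := by
  have h1 := stp_hasDerivAt (u := 1 / 4) (v := 1 / 2) t
  have h2 := ((h1.const_sub 1).mul (rr_hasDerivAt he t)).add h1
  exact h2

lemma pa_nonneg (he : 0 < e) (t : ℝ) : 0 ≤ pa e t := by
  have h1 := stp_nonneg (u := 1 / 4) (v := 1 / 2) t
  have h2 := stp_le_one (u := 1 / 4) (v := 1 / 2) t
  have h3 := rr_pos he t
  unfold pa
  have : 0 ≤ (1 - stp (1 / 4) (1 / 2) t) * rr e t := mul_nonneg (by linarith) h3.le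
  linarith

lemma pa_add_nonneg (he : 0 < e) {t : ℝ} (ht : 0 ≤ t) : 0 ≤ pa e t + t * pa' e t := by
  have h1 := stp_nonneg (u := 1 / 4) (v := 1 / 2) t
  have h2 := stp_le_one (u := 1 / 4) (v := 1 / 2) t
  have h3 := stp_deriv_nonneg (u := 1 / 4) (v := 1 / 2) (by norm_num) t
  have h4 := rr_add he t
  have hs := sq_pos he t
  have e1 : pa e t + t * pa' e t = (1 - stp (1 / 4) (1 / 2) t) *
      (rr e t + t * (-(1 / 8) * t * ((Real.sqrt (t ^ 2 + e ^ 2)) ^ 3)⁻¹)) +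
      stp (1 / 4) (1 / 2) t + t * deriv (stp (1 / 4) (1 / 2)) t * (1 - rr e t) := by
    unfold pa pa'; ring
  rw [e1, h4]
  have h5 : 0 ≤ t * deriv (stp (1 / 4) (1 / 2)) t * (1 - rr e t) := by
    rcases lt_or_ge t (1 / 4) with h | h
    · rw [stp_deriv_zero (by norm_num) h]; simp
    · exact mul_nonneg (mul_nonneg ht h3) (by linarith [rr_le he h])
  have h6 : 0 ≤ (1 - stp (1 / 4) (1 / 2) t) *
      ((1 / 8) * e ^ 2 * ((Real.sqrt (t ^ 2 + e ^ 2)) ^ 3)⁻¹) :=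
    mul_nonneg (by linarith) (by positivity)
  linarith

lemma sqrt_le (he : 0 < e) {t : ℝ} (h0 : 0 ≤ t) (h1 : t ≤ e) :
    Real.sqrt (t ^ 2 + e ^ 2) ≤ (3 / 2) * e := by
  rw [Real.sqrt_le_left (by positivity)]
  nlinarith

lemma pa_ge (he : 0 < e) (he' : e < 1 / 4) {t : ℝ} (h0 : 0 ≤ t) (h1 : t ≤ e) :
    1 / (32 * e) ≤ pa e t := by
  have hs := sq_pos he t
  have h2 := sqrt_le he h0 h1
  unfold pa
  rw [stp_zero (by norm_num) (by linarith)]
  simp only [sub_zero, one_mul, add_zero]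
  unfold rr
  rw [one_div, mul_inv, ← one_div, ← one_div, ← one_div]
  rw [← div_eq_mul_one_div, ← div_eq_mul_one_div, div_div, div_div,
    div_le_div_iff₀ (by positivity) (by positivity)]
  nlinarith

lemma pa_add_ge (he : 0 < e) (he' : e < 1 / 4) {t : ℝ} (h0 : 0 ≤ t) (h1 : t ≤ e) :
    1 / (32 * e) ≤ pa e t + t * pa' e t := by
  have hs := sq_pos he t
  have h2 := sqrt_le he h0 h1
  have h4 := rr_add he t
  have e1 : pa e t + t * pa' e t =
      (1 / 8) * e ^ 2 * ((Real.sqrt (t ^ 2 + e ^ 2)) ^ 3)⁻¹ := by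
    rw [← h4]
    unfold pa pa'
    rw [stp_zero (by norm_num) (by linarith : t ≤ 1 / 4),
      stp_deriv_zero (by norm_num) (by linarith)]
    ring
  rw [e1]
  have h5 : Real.sqrt (t ^ 2 + e ^ 2) ^ 3 ≤ ((3 / 2) * e) ^ 3 := pow_le_pow_left₀ hs.le h2 3
  have h6 : (((3 / 2) * e) ^ 3)⁻¹ ≤ (Real.sqrt (t ^ 2 + e ^ 2) ^ 3)⁻¹ :=
    inv_anti₀ (by positivity) h5
  have h7 : 1 / (32 * e) ≤ (1 / 8) * e ^ 2 * (((3 / 2) * e) ^ 3)⁻¹ := by
    have : (1 / 8) * e ^ 2 * (((3 / 2) * e) ^ 3)⁻¹ = 1 / (27 * e) := by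
      field_simp; norm_num
    rw [this]
    exact one_div_le_one_div_of_le (by positivity) (by linarith)
  exact h7.trans (mul_le_mul_of_nonneg_left h6 (by positivity))

end prof

/-! ### the capped profiles -/

/-- the cap factor -/
def cp (t : ℝ) : ℝ := 1 - stp (5 / 8) (3 / 4) t

lemma cp_contDiff : ContDiff ℝ ∞ cp := contDiff_const.sub stp_contDiff

lemma cp_one {t : ℝ} (ht : t ≤ 5 / 8) : cp t = 1 := by
  unfold cp; rw [stp_zero (by norm_num) ht]; ring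

lemma cp_zero {t : ℝ} (ht : 3 / 4 ≤ t) : cp t = 0 := by
  unfold cp; rw [stp_one (by norm_num) ht]; ring

/-- primitive from `1` -/
def pr (f : ℝ → ℝ) (t : ℝ) : ℝ := ∫ s in (1 : ℝ)..t, f s

lemma pr_hasDerivAt {f : ℝ → ℝ} (hf : Continuous f) (t : ℝ) : HasDerivAt (pr f) (f t) t :=
  intervalIntegral.integral_hasDerivAt_right (hf.intervalIntegrable _ _)
    (hf.stronglyMeasurableAtFilter _ _) hf.continuousAt

lemma pr_contDiff {f : ℝ → ℝ} (hf : ContDiff ℝ ∞ f) : ContDiff ℝ ∞ (pr f) := by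
  rw [contDiff_infty_iff_deriv]
  refine ⟨fun t => (pr_hasDerivAt hf.continuous t).differentiableAt, ?_⟩
  have : deriv (pr f) = f := funext fun t => (pr_hasDerivAt hf.continuous t).deriv
  rw [this]; exact hf

lemma pr_congr {f g : ℝ → ℝ} {c : ℝ} (hc : c ≤ 1) (h : ∀ t, c ≤ t → f t = g t) {t : ℝ}
    (ht : c ≤ t) : pr f t = pr g t := by
  refine intervalIntegral.integral_congr fun s hs => h s ?_
  rcases le_total 1 t with h1 | h1
  · rw [uIcc_of_le h1] at hs; exact hc.trans hs.1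
  · rw [uIcc_of_ge h1] at hs; exact ht.trans hs.1

/-- the capped identity -/
def F0 : ℝ → ℝ := pr cp

/-- the capped profile -/
def F1 (e : ℝ) : ℝ → ℝ := pr fun s => cp s * pa e s

section F

variable {e : ℝ}

lemma F0_contDiff : ContDiff ℝ ∞ F0 := pr_contDiff cp_contDiff

lemma F0_hasDerivAt (t : ℝ) : HasDerivAt F0 (cp t) t := pr_hasDerivAt cp_contDiff.continuous t

lemma F1_contDiff (he : 0 < e) : ContDiff ℝ ∞ (F1 e) :=
  pr_contDiff (cp_contDiff.mul (pa_contDiff he))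

lemma F1_hasDerivAt (he : 0 < e) (t : ℝ) : HasDerivAt (F1 e) (cp t * pa e t) t :=
  pr_hasDerivAt (cp_contDiff.mul (pa_contDiff he)).continuous t

lemma F0_zero {t : ℝ} (ht : 3 / 4 ≤ t) : F0 t = 0 := by
  have h := pr_congr (f := cp) (g := fun _ => 0) (c := 3 / 4) (by norm_num)
    (fun s hs => cp_zero hs) ht
  rw [F0, h]; simp [pr]

lemma F1_eq {t : ℝ} (ht : 1 / 2 ≤ t) : F1 e t = F0 t :=
  pr_congr (c := 1 / 2) (by norm_num) (fun s hs => by rw [pa_one hs, mul_one]) ht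

lemma cp_hasDerivAt_zero {t : ℝ} (ht : t < 5 / 8) : HasDerivAt cp 0 t := by
  have h1 : cp =ᶠ[𝓝 t] fun _ => 1 := by
    filter_upwards [gt_mem_nhds ht] with s hs
    exact cp_one hs.le
  exact (hasDerivAt_const t (1 : ℝ)).congr_of_eventuallyEq h1

lemma cppa_hasDerivAt (he : 0 < e) {t : ℝ} (ht : t < 5 / 8) :
    HasDerivAt (fun s => cp s * pa e s) (pa' e t) t := by
  have h := (cp_hasDerivAt_zero ht).mul (pa_hasDerivAt he t)
  refine h.congr_deriv ?_
  rw [cp_one ht.le]; ring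

end F

end Crest.Agent.R281.Hk_389
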