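import Crest.Agent.R281.Glob1_484
import Crest.Agent.R273.YauMax_635
import Crest.Agent.R273.FS_333
import Crest.Agent.R281.Hk1_389

/-!
# R281 (S0424), S6-HARN (Hc), part 2 (helper389): pointwise part of the Lelong lower bound

`F : Cn n → Fin m → ℂ` holomorphic, `b = ∑ |F_k|²`:
* `hess_cap` : `∂∂̄ φ(b) = φ'(b) ∂∂̄ b + φ''(b) ∂b ∂̄b`
* `psd_prof` : `a₁ ∂∂̄ b + a₂ ∂b ∂̄b ≥ c ∂∂̄ b` if `a₁ ≥ c`, `a₁ + b a₂ ≥ c`
* `det_mono` : monotonicity of the determinant on semipositive matrices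
-/

set_option autoImplicit false
set_option linter.unusedSectionVars false

open Set Filter Topology Complex MeasureTheory
open scoped ContDiff Matrix ComplexConjugate ComplexOrder

namespace Crest.Agent.R281.Hk_389

open Crest.Agent.R275 Crest.Agent.R275.Geo Crest.Agent.R275.Core144 Crest.Agent.R275.EDR890
open Crest.Agent.R273.Defs_333 Crest.Agent.R273.Hess_333 Crest.Agent.R273.HessB_333
open Crest.Agent.R273.HM_333 Crest.Agent.R273.Kah_333 Crest.Agent.R273.Vol_333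
open Crest.Agent.R273.Vm_333
open Crest.Agent.R273.Green_5 Crest.Agent.R273.FIa0_597 Crest.Agent.R273.FIb0_597
open Crest.Agent.R273.FIc0_597 Crest.Agent.R273
open Crest.Agent.R273.FS_333 (sq hess_sq wd_sq wd_sq' contDiffAt_of_hol)
open Crest.Agent.R281.Glob1_484

noncomputable section

variable {n m : ℕ}

/-! ### matrices -/

theorem det_mono {H X : Matrix (Fin n) (Fin n) ℂ} (hH : H.PosSemidef) (hX : X.PosSemidef) :
    H.det.re ≤ (H + X).det.re := by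
  by_cases h0 : H.det = 0
  · rw [h0]
    exact (Complex.le_def.1 (hH.add hX).det_nonneg).1
  · have h1 : H.PosDef := hH.posDef_iff_isUnit.2 ((Matrix.isUnit_iff_isUnit_det _).2
      (isUnit_iff_ne_zero.2 h0))
    exact (Complex.le_def.1 (YauMax_635.det_le_det_add h1 hX)).1

theorem det_mono_smul {H X : Matrix (Fin n) (Fin n) ℂ} (hH : H.PosSemidef) {c : ℝ} (hc : 0 ≤ c)
    (hX : (X - (c : ℂ) • H).PosSemidef) : c ^ n * H.det.re ≤ X.det.re := by
  have h1 : ((c : ℂ) • H).PosSemidef := hH.smul (by exact_mod_cast hc)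
  have h2 := det_mono h1 hX
  rw [add_sub_cancel, Matrix.det_smul, Fintype.card_fin, ← Complex.ofReal_pow,
    Complex.re_ofReal_mul] at h2
  exact h2

/-! ### the local computation -/

section Local

variable {F : Cn n → Fin m → ℂ} {U : Set (Cn n)}

/-- the Jacobian -/
def jac (F : Cn n → Fin m → ℂ) (z : Cn n) : Matrix (Fin m) (Fin n) ℂ :=
  Matrix.of fun k a => fderiv ℂ (fun z => F z k) z (EuclideanSpace.single a 1)

theorem hess_sq_mat (hU : IsOpen U) (hF : ∀ k, DifferentiableOn ℂ (fun z => F z k) U) {z : Cn n}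
    (hz : z ∈ U) : hess (sq F) z = (jac F z)ᵀ * (jac F z).map conj := by
  ext a b
  rw [hess_sq hU hF hz, Matrix.mul_apply]
  rfl

theorem gr_sq (hU : IsOpen U) (hF : ∀ k, DifferentiableOn ℂ (fun z => F z k) U) {z : Cn n}
    (hz : z ∈ U) : gr (sq F) z = (jac F z)ᵀ *ᵥ (fun k => conj (F z k)) := by
  funext a
  unfold gr
  rw [wd_sq' hU hF hz]
  rfl

theorem sq_contDiffAt (hU : IsOpen U) (hF : ∀ k, DifferentiableOn ℂ (fun z => F z k) U) {z : Cn n}
    (hz : z ∈ U) : ContDiffAt ℝ ∞ (sq F) z :=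
  ContDiffAt.sum fun k _ => (contDiffAt_of_hol hU (hF k) hz).norm_sq ℝ

theorem psd_jac (J : Matrix (Fin m) (Fin n) ℂ) : (Jᵀ * J.map conj).PosSemidef := by
  have h : Jᵀ = (J.map conj)ᴴ := by
    ext a b
    simp [Matrix.conjTranspose_apply]
  rw [h]
  exact Matrix.posSemidef_conjTranspose_mul_self _

/-- the basic inequality `∂b ∂̄b ≤ b ∂∂̄b` -/
theorem cs_jac (J : Matrix (Fin m) (Fin n) ℂ) (f : Fin m → ℂ) (x : Fin n → ℂ) :
    (star x ⬝ᵥ (Matrix.vecMulVec (Jᵀ *ᵥ fun k => conj (f k))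
      (star (Jᵀ *ᵥ fun k => conj (f k))) *ᵥ x)).re ≤
      (∑ k, ‖f k‖ ^ 2) * (star x ⬝ᵥ ((Jᵀ * J.map conj) *ᵥ x)).re := by
  set y : Fin m → ℂ := J.map conj *ᵥ x with hy
  have e1 : star x ⬝ᵥ ((Jᵀ * J.map conj) *ᵥ x) = ∑ k, conj (y k) * y k := by
    rw [← Matrix.mulVec_mulVec, Matrix.dotProduct_mulVec, ← hy]
    have : star x ᵥ* Jᵀ = fun k => conj (y k) := by
      funext k
      simp only [Matrix.vecMul, dotProduct, hy, Matrix.mulVec, Matrix.transpose_apply,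
        Matrix.map_apply, map_sum, map_mul, Complex.conj_conj, Pi.star_apply, RCLike.star_def]
      exact Finset.sum_congr rfl fun a _ => mul_comm _ _
    rw [this]
    rfl
  have e2 : star x ⬝ᵥ (Jᵀ *ᵥ fun k => conj (f k)) = ∑ k, conj (y k) * conj (f k) := by
    rw [Matrix.dotProduct_mulVec]
    have : star x ᵥ* Jᵀ = fun k => conj (y k) := by
      funext k
      simp only [Matrix.vecMul, dotProduct, hy, Matrix.mulVec, Matrix.transpose_apply,
        Matrix.map_apply, map_sum, map_mul, Complex.conj_conj, Pi.star_apply, RCLike.star_def]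
      exact Finset.sum_congr rfl fun a _ => mul_comm _ _
    rw [this]
    rfl
  set v := Jᵀ *ᵥ fun k => conj (f k) with hv
  have e3 : star x ⬝ᵥ (Matrix.vecMulVec v (star v) *ᵥ x) =
      (star x ⬝ᵥ v) * conj (star x ⬝ᵥ v) := by
    rw [Matrix.vecMulVec_mulVec, dotProduct_smul]
    have : star v ⬝ᵥ x = conj (star x ⬝ᵥ v) := by
      simp only [dotProduct, map_sum, map_mul, Pi.star_apply, RCLike.star_def, Complex.conj_conj]
      exact Finset.sum_congr rfl fun a _ => mul_comm _ _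
    rw [this]
    simp [mul_comm]
  rw [e3, e1, e2, Complex.mul_conj, Complex.ofReal_re, Complex.normSq_eq_norm_sq]
  have e4 : (∑ k, conj (y k) * y k).re = ∑ k, ‖y k‖ ^ 2 := by
    rw [Complex.re_sum]
    refine Finset.sum_congr rfl fun k _ => ?_
    rw [mul_comm, Complex.mul_conj, Complex.ofReal_re, Complex.normSq_eq_norm_sq]
  rw [e4]
  have e5 : ‖∑ k, conj (y k) * conj (f k)‖ ≤ ∑ k, ‖y k‖ * ‖f k‖ := by
    refine (norm_sum_le _ _).trans (le_of_eq ?_)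
    refine Finset.sum_congr rfl fun k _ => ?_
    rw [norm_mul, RCLike.norm_conj, RCLike.norm_conj]
  have e6 := Finset.sum_mul_sq_le_sq_mul_sq Finset.univ (fun k => ‖y k‖) (fun k => ‖f k‖)
  calc ‖∑ k, conj (y k) * conj (f k)‖ ^ 2 ≤ (∑ k, ‖y k‖ * ‖f k‖) ^ 2 :=
        pow_le_pow_left₀ (norm_nonneg _) e5 2
    _ ≤ _ := by rw [mul_comm (∑ k, ‖f k‖ ^ 2)]; exact e6

/-- `a₁ ∂∂̄ b + a₂ ∂b ∂̄b ≥ c ∂∂̄ b` if `a₁ ≥ c`, `a₁ + b a₂ ≥ c` -/
theorem psd_prof (J : Matrix (Fin m) (Fin n) ℂ) (f : Fin m → ℂ) {a₁ a₂ c : ℝ} (h1 : c ≤ a₁)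
    (h2 : c ≤ a₁ + (∑ k, ‖f k‖ ^ 2) * a₂) :
    (((a₁ : ℝ) • (Jᵀ * J.map conj) + (a₂ : ℝ) • Matrix.vecMulVec (Jᵀ *ᵥ fun k => conj (f k))
      (star (Jᵀ *ᵥ fun k => conj (f k)))) - (c : ℂ) • (Jᵀ * J.map conj)).PosSemidef := by
  set v := Jᵀ *ᵥ fun k => conj (f k) with hv
  have hJ := psd_jac J
  have hV : (Matrix.vecMulVec v (star v)).PosSemidef := Matrix.posSemidef_vecMulVec_self_star v
  have hherm : (((a₁ : ℝ) • (Jᵀ * J.map conj) + (a₂ : ℝ) • Matrix.vecMulVec v (star v)) -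
      (c : ℂ) • (Jᵀ * J.map conj)).IsHermitian := by
    have k1 : ∀ (r : ℝ) {X : Matrix (Fin n) (Fin n) ℂ}, X.IsHermitian → (r • X).IsHermitian := by
      intro r X hX
      unfold Matrix.IsHermitian
      rw [Matrix.conjTranspose_smul, hX.eq]
      simp
    have k2 : (c : ℂ) • (Jᵀ * J.map conj) = (c : ℝ) • (Jᵀ * J.map conj) := by
      ext a b; simp
    rw [k2]
    exact ((k1 a₁ hJ.isHermitian).add (k1 a₂ hV.isHermitian)).sub (k1 c hJ.isHermitian)
  refine Matrix.PosSemidef.of_dotProduct_mulVec_nonneg hherm fun x => ?_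
  have hcs := cs_jac J f x
  rw [← hv] at hcs
  have p1 : 0 ≤ (star x ⬝ᵥ ((Jᵀ * J.map conj) *ᵥ x)).re :=
    (Complex.le_def.1 (hJ.dotProduct_mulVec_nonneg x)).1
  have p2 : 0 ≤ (star x ⬝ᵥ (Matrix.vecMulVec v (star v) *ᵥ x)).re :=
    (Complex.le_def.1 (hV.dotProduct_mulVec_nonneg x)).1
  have hre : 0 ≤ (star x ⬝ᵥ ((((a₁ : ℝ) • (Jᵀ * J.map conj) +
      (a₂ : ℝ) • Matrix.vecMulVec v (star v)) - (c : ℂ) • (Jᵀ * J.map conj)) *ᵥ x)).re := by
    have e : (star x ⬝ᵥ ((((a₁ : ℝ) • (Jᵀ * J.map conj) +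
        (a₂ : ℝ) • Matrix.vecMulVec v (star v)) - (c : ℂ) • (Jᵀ * J.map conj)) *ᵥ x)).re =
        (a₁ - c) * (star x ⬝ᵥ ((Jᵀ * J.map conj) *ᵥ x)).re +
          a₂ * (star x ⬝ᵥ (Matrix.vecMulVec v (star v) *ᵥ x)).re := by
      have k2 : (c : ℂ) • (Jᵀ * J.map conj) = (c : ℝ) • (Jᵀ * J.map conj) := by
        ext a b; simp
      rw [k2, Matrix.sub_mulVec, Matrix.add_mulVec, Matrix.smul_mulVec, Matrix.smul_mulVec,
        Matrix.smul_mulVec, dotProduct_sub, dotProduct_add, dotProduct_smul, dotProduct_smul,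
        dotProduct_smul, Complex.sub_re, Complex.add_re, Complex.smul_re, Complex.smul_re,
        Complex.smul_re]
      simp only [smul_eq_mul]
      ring
    rw [e]
    rcases le_total 0 a₂ with h | h
    · have := mul_nonneg h p2
      have := mul_nonneg (sub_nonneg.2 h1) p1
      linarith
    · have h3 : a₂ * ((∑ k, ‖f k‖ ^ 2) * (star x ⬝ᵥ ((Jᵀ * J.map conj) *ᵥ x)).re) ≤
          a₂ * (star x ⬝ᵥ (Matrix.vecMulVec v (star v) *ᵥ x)).re :=
        mul_le_mul_of_nonpos_left hcs h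
      have h4 : 0 ≤ (a₁ + (∑ k, ‖f k‖ ^ 2) * a₂ - c) *
          (star x ⬝ᵥ ((Jᵀ * J.map conj) *ᵥ x)).re := mul_nonneg (by linarith) p1
      nlinarith
  have him : (star x ⬝ᵥ ((((a₁ : ℝ) • (Jᵀ * J.map conj) +
      (a₂ : ℝ) • Matrix.vecMulVec v (star v)) - (c : ℂ) • (Jᵀ * J.map conj)) *ᵥ x)).im = 0 :=
    hherm.im_star_dotProduct_mulVec_self x
  exact Complex.le_def.2 ⟨hre, by rw [him]; simp⟩

end Local

end

end Crest.Agent.R281.Hk_389
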