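import Crest.Agent.R281.Mv3_757

/-!
# Row 281, S6-MONO (M4), part 4 (helper757): the hypothesis `SH` of 192 for a holomorphic map

`M` a complex manifold (`A : Atl n M`, `P : Part A`, not necessarily compact), `h` any smooth volume
form, `F : M → ℂ^N` holomorphic, `s = |F|²`, `w ≥ 0` smooth psh with
`tsupport w ∩ {s ≤ R}` compact.

* `muF h F` : the measure `det (DF* DF) dλ` (= volume of `(F^* β)^n`)
* `GF h F`  : `|∂ s|²` with respect to `F^* β`, `0 ≤ GF ≤ s`
* `dat`     : `Mo_192.Dat (muF h F) (sF F) (GF h F) w n R`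
* `mono`, `lower` : the conclusions of 192
-/

set_option autoImplicit false
set_option linter.unusedSectionVars false

open Set Filter Topology Complex MeasureTheory
open scoped ContDiff Matrix ComplexConjugate Manifold ComplexOrder ENNReal

namespace Crest.Agent.R281.Mv_757

open Crest.Agent.R275 Crest.Agent.R275.Geo Crest.Agent.R275.Core144 Crest.Agent.R275.EDR890
open Crest.Agent.R275.Pai323 Crest.Agent.R275.C1d194
open Crest.Agent.R275.SerG398 (lint dens OffZ)
open Crest.Agent.R273.Defs_333 Crest.Agent.R273.Hess_333 Crest.Agent.R273.HessB_333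
open Crest.Agent.R273.HM_333 Crest.Agent.R273.Kah_333 Crest.Agent.R273.Vol_333
open Crest.Agent.R273.StV_37 Crest.Agent.R273.Green_5 Crest.Agent.R273.Vm_333
open Crest.Agent.R273.FIa0_597 Crest.Agent.R273.FIb0_597 Crest.Agent.R273.FS_333
open Crest.Agent.R281

noncomputable section

variable {n N : ℕ} {M : Type} [TopologicalSpace M] [T2Space M] {A : Atl n M}
  {F : M → Fin N → ℂ}

/-- the density of `F^* β` with respect to `h` -/
def rhoF (h : HM (KB A)⁻¹) (F : M → Fin N → ℂ) : M → ℝ :=
  dq h (fun i x => (hsf A (sF F) i x).det.re)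

/-- auxiliary density -/
def tauF (h : HM (KB A)⁻¹) (F : M → Fin N → ℂ) : M → ℝ :=
  dq h (fun i x => tv (hsf A (sF F) i x) (grA A (sF F) i x))

/-- `|∂ s|²` -/
def GF (h : HM (KB A)⁻¹) (F : M → Fin N → ℂ) (x : M) : ℝ := tauF h F x / rhoF h F x

variable (h : HM (KB A)⁻¹)

theorem sm_cont {f : M → ℝ} (hf : A.Sm f) : Continuous f := by
  rw [continuous_iff_continuousAt]
  intro x
  obtain ⟨i, hi⟩ := A.cover x
  have h1 : ContinuousOn (fun z => f ((A.e i).symm z)) (A.e i).target := (hf i).continuousOn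
  have h2 : ContinuousOn (fun y => f ((A.e i).symm (A.e i y))) (A.e i).source :=
    h1.comp (A.e i).continuousOn fun y hy => (A.e i).map_source hy
  have h3 : ContinuousOn f (A.e i).source :=
    h2.congr fun y hy => by
      change f y = f ((A.e i).symm (A.e i y))
      rw [(A.e i).left_inv hy]
  exact h3.continuousAt ((A.e i).open_source.mem_nhds hi)

theorem cf_sF (hF : HF A F) : CF A (hsf A (sF F)) := hsf_cf (sm_sF hF)
theorem tf_sF (hF : HF A F) : TF A (hsf A (sF F)) := tf_hsf (sm_sF hF)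

theorem rhoF_eq (hF : HF A F) {i : A.ι} {x : M} (hx : x ∈ (A.e i).source) :
    h.w i x * rhoF h F x = (hsf A (sF F) i x).det.re := dq_mul h (rd_det (tf_sF hF)) hx

theorem tauF_eq (hF : HF A F) {i : A.ι} {x : M} (hx : x ∈ (A.e i).source) :
    h.w i x * tauF h F x = tv (hsf A (sF F) i x) (grA A (sF F) i x) :=
  dq_mul h (rd_tv (tf_sF hF) (sm_sF hF)) hx

theorem cont_rhoF (hF : HF A F) : Continuous (rhoF h F) :=
  sm_cont (sm_dq h (rd_det (tf_sF hF)) (sm_det (tf_sF hF)))

theorem cont_tauF (hF : HF A F) : Continuous (tauF h F) :=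
  sm_cont (sm_dq h (rd_tv (tf_sF hF) (sm_sF hF)) (sm_tv (cf_sF hF) (sm_sF hF)))

theorem rhoF_nonneg (hF : HF A F) (x : M) : 0 ≤ rhoF h F x := by
  have hx := mem_ch A x
  have h1 := rhoF_eq h hF hx
  have h2 : 0 ≤ (hsf A (sF F) (ch A x) x).det.re := by
    rw [hsf_sF hF _ hx]
    exact det_gram_re_nonneg _
  rw [← h1] at h2
  exact nonneg_of_mul_nonneg_right (by linarith) (h.pos _ x hx)

theorem tauF_nonneg (hF : HF A F) (x : M) : 0 ≤ tauF h F x := by
  have hx := mem_ch A x
  have h1 := tauF_eq h hF hx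
  have h2 : 0 ≤ tv (hsf A (sF F) (ch A x) x) (grA A (sF F) (ch A x) x) := by
    rw [hsf_sF hF _ hx, grA_sF hF _ hx]
    exact tv_nonneg _ _
  rw [← h1] at h2
  exact nonneg_of_mul_nonneg_right (by linarith) (h.pos _ x hx)

theorem star_dot_sF (x : M) : (star (star (F x)) ⬝ᵥ star (F x)).re = sF F x := by
  unfold sF
  simp only [star_star, dotProduct, Complex.re_sum]
  refine Finset.sum_congr rfl fun k _ => ?_
  have : F x k * star (F x) k = ((‖F x k‖ ^ 2 : ℝ) : ℂ) := by
    have h1 : F x k * star (F x) k = F x k * conj (F x k) := rfl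
    rw [h1, Complex.mul_conj, Complex.normSq_eq_norm_sq]
  rw [this, Complex.ofReal_re]

theorem tauF_le (hF : HF A F) (x : M) : tauF h F x ≤ rhoF h F x * sF F x := by
  have hx := mem_ch A x
  have hp := h.pos _ x hx
  have h1 := tauF_eq h hF hx
  have h2 := rhoF_eq h hF hx
  have h3 : tv (hsf A (sF F) (ch A x) x) (grA A (sF F) (ch A x) x) ≤
      (hsf A (sF F) (ch A x) x).det.re * sF F x := by
    rw [hsf_sF hF _ hx, grA_sF hF _ hx, ← star_dot_sF (F := F) x]
    exact tv_le _ _
  rw [← h1, ← h2, mul_assoc] at h3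
  exact le_of_mul_le_mul_left h3 hp

theorem GF_nonneg (hF : HF A F) (x : M) : 0 ≤ GF h F x :=
  div_nonneg (tauF_nonneg h hF x) (rhoF_nonneg h hF x)

theorem GF_le (hF : HF A F) (x : M) : GF h F x ≤ sF F x := by
  unfold GF
  rcases (rhoF_nonneg h hF x).eq_or_lt with h0 | h0
  · rw [← h0, div_zero]
    exact sF_nonneg F x
  · rw [div_le_iff₀ h0, mul_comm]
    exact tauF_le h hF x

theorem rhoF_mul_GF (hF : HF A F) (x : M) : rhoF h F x * GF h F x = tauF h F x := by
  unfold GF
  rcases (rhoF_nonneg h hF x).eq_or_lt with h0 | h0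
  · have h1 := tauF_le h hF x
    have h2 := tauF_nonneg h hF x
    rw [← h0, zero_mul] at h1 ⊢
    linarith
  · exact mul_div_cancel₀ _ h0.ne'

variable [MeasurableSpace M] [BorelSpace M] [Countable A.ι]

/-- the measure `det (DF* DF) dλ` -/
def muF (F : M → Fin N → ℂ) : Measure M :=
  (vm h).withDensity (fun x => ENNReal.ofReal (rhoF h F x))

theorem locFin_muF (hF : HF A F) : IsLocallyFiniteMeasure (muF h F) := by
  have := isLocallyFinite_vm h
  exact IsLocallyFiniteMeasure.withDensity_ofReal (cont_rhoF h hF)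

theorem integral_muF (hF : HF A F) (f : M → ℝ) :
    ∫ x, f x ∂(muF h F) = ∫ x, rhoF h F x * f x ∂(vm h) := by
  unfold muF
  rw [integral_withDensity_eq_integral_toReal_smul
    (cont_rhoF h hF).measurable.ennreal_ofReal
    (Eventually.of_forall fun x => ENNReal.ofReal_lt_top)]
  refine integral_congr_ae (Eventually.of_forall fun x => ?_)
  simp only [smul_eq_mul]
  rw [ENNReal.toReal_ofReal (rhoF_nonneg h hF x)]

theorem meas_GF (hF : HF A F) : Measurable (GF h F) :=
  (cont_tauF h hF).measurable.div (cont_rhoF h hF).measurable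

/-- data for the instance -/
structure MD (A : Atl n M) (F : M → Fin N → ℂ) (w : M → ℝ) (R : ℝ) : Prop where
  hol : HF A F
  sm : A.Sm w
  w0 : ∀ x, 0 ≤ w x
  psh : ∀ i, ∀ x ∈ (A.e i).source, (hsf A w i x).PosSemidef
  cpt : IsCompact (tsupport w ∩ {x | sF F x ≤ R})

variable {w : M → ℝ} {R : ℝ}

/-- `∫ w Lap (γ ∘ s) = ∫ (γ ∘ s) Lap w` -/
theorem key (P : Part A) (D : MD A F w R) {γ : ℝ → ℝ} (hγ : ContDiff ℝ ∞ γ)
    (hz : ∀ s, R ≤ s → γ s = 0) :
    ∫ x, w x * ((n : ℝ) * deriv γ (sF F x) + deriv (deriv γ) (sF F x) * GF h F x) ∂(muF h F) =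
      ∫ x, γ (sF F x) *
        dq h (fun i x => ((hsf A (sF F) i x).adjugate * hsf A w i x).trace.re) x ∂(vm h) := by
  set K : Set M := tsupport w ∩ {x | sF F x ≤ R} with hK
  have hKc : IsCompact K := D.cpt
  have hg := cf_sF D.hol
  have hs := sm_sF D.hol
  have hsc := sm_continuous hs
  have hu : A.Sm (fun x => γ (sF F x)) := fun i => hγ.comp_contDiffOn (hs i)
  have hγ1 : ContDiff ℝ ∞ (deriv γ) := (contDiff_infty_iff_deriv.1 hγ).2
  have hγ2 : ContDiff ℝ ∞ (deriv (deriv γ)) := (contDiff_infty_iff_deriv.1 hγ1).2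
  have hz1 : ∀ s, R < s → deriv γ s = 0 := by
    intro s hs
    have : γ =ᶠ[𝓝 s] fun _ => 0 := by
      filter_upwards [lt_mem_nhds hs] with t ht
      exact hz t ht.le
    rw [this.deriv_eq, deriv_const]
  have hz2 : ∀ s, R < s → deriv (deriv γ) s = 0 := by
    intro s hs
    have : deriv γ =ᶠ[𝓝 s] fun _ => 0 := by
      filter_upwards [lt_mem_nhds hs] with t ht
      exact hz1 t ht
    rw [this.deriv_eq, deriv_const]
  have hoff : ∀ x ∉ K, w =ᶠ[𝓝 x] 0 ∨ (fun x => γ (sF F x)) =ᶠ[𝓝 x] 0 := by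
    intro x hx
    rw [hK, mem_inter_iff, not_and_or] at hx
    rcases hx with hx | hx
    · exact Or.inl (notMem_tsupport_iff_eventuallyEq.1 hx)
    · have hx' : R < sF F x := not_le.1 hx
      refine Or.inr ?_
      filter_upwards [hsc.continuousAt.eventually (lt_mem_nhds hx')] with y hy
      exact hz _ hy.le
  -- left side
  set f : M → ℝ := fun x => w x * ((n : ℝ) * deriv γ (sF F x) * rhoF h F x +
    deriv (deriv γ) (sF F x) * tauF h F x) with hf
  have hfc : Continuous f :=
    (sm_continuous D.sm).mul (((continuous_const.mul (hγ1.continuous.comp hsc)).mul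
      (cont_rhoF h D.hol)).add ((hγ2.continuous.comp hsc).mul (cont_tauF h D.hol)))
  have hf0 : ∀ x ∉ K, f x = 0 := by
    intro x hx
    rw [hK, mem_inter_iff, not_and_or] at hx
    rcases hx with hx | hx
    · simp only [hf]
      rw [image_eq_zero_of_notMem_tsupport hx, zero_mul]
    · have hx' : R < sF F x := not_le.1 hx
      simp only [hf]
      rw [hz1 _ hx', hz2 _ hx']
      ring
  have e1 : ∫ x, w x * ((n : ℝ) * deriv γ (sF F x) + deriv (deriv γ) (sF F x) * GF h F x)
      ∂(muF h F) = ∫ x, f x ∂(vm h) := by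
    rw [integral_muF h D.hol]
    refine integral_congr_ae (Eventually.of_forall fun x => ?_)
    simp only [hf]
    rw [← rhoF_mul_GF h D.hol x]
    ring
  rw [e1, vm_tot_re P h hKc (Finset.Subset.refl _) (integrable_of_zero_off h hKc hfc hf0) hf0]
  have e2 : tot P (Fn P hKc) (fun i x => ((h.w i x * f x : ℝ) : ℂ)) =
      tot P (Fn P hKc) (fun i x => (w x : ℂ) *
        ((hsf A (sF F) i x).adjugate * hsf A (fun y => γ (sF F y)) i x).trace) := by
    refine tot_congr P _ fun i _ x hx => ?_
    rw [tr_hsf_comp hγ D.hol hx, ← rhoF_eq h D.hol hx, ← tauF_eq h D.hol hx]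
    simp only [hf]
    push_cast
    ring
  have hh : ∀ i, ∀ x ∈ (A.e i).source, (hsf A (sF F) i x).IsHermitian := by
    intro i x hx
    rw [hsf_sF D.hol i hx]
    exact Matrix.isHermitian_mul_conjTranspose_self _
  rw [e2, green_symm P hg hh hu D.sm hKc (Finset.Subset.refl _) hoff]
  -- right side
  set q : M → ℝ := dq h (fun i x => ((hsf A (sF F) i x).adjugate * hsf A w i x).trace.re) with hq
  have hrd := rd_tr (tf_sF D.hol) (tf_hsf D.sm)
  have hqc : Continuous q := sm_continuous (sm_dq h hrd (sm_tr hg D.sm))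
  have hq0 : ∀ x ∉ K, γ (sF F x) * q x = 0 := by
    intro x hx
    rw [hK, mem_inter_iff, not_and_or] at hx
    rcases hx with hx | hx
    · have hx' := mem_ch A x
      have h1 : q x = 0 := by
        rw [hq, dq_eq h hrd hx']
        have h2 : hsf A w (ch A x) x = 0 := by
          have h3 : (fun z => w ((A.e (ch A x)).symm z)) =ᶠ[𝓝 (A.e (ch A x) x)]
              fun _ => (0 : ℝ) := by
            have hc : Tendsto (A.e (ch A x)).symm (𝓝 (A.e (ch A x) x)) (𝓝 x) := by
              have := (A.e (ch A x)).continuousAt_symm ((A.e (ch A x)).map_source hx')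
              rw [ContinuousAt, (A.e (ch A x)).left_inv hx'] at this
              exact this
            exact hc.eventually (notMem_tsupport_iff_eventuallyEq.1 hx)
          show hess (fun z => w ((A.e (ch A x)).symm z)) (A.e (ch A x) x) = 0
          rw [hess_congr h3]
          ext a b
          rw [hess_apply]
          have h4 : wd (true, b) (cu (fun _ : Cn n => (0 : ℝ))) = fun _ => (0 : ℂ) := by
            funext z
            exact wd_const _ _ _
          rw [h4]
          exact wd_const _ _ _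
        simp only [h2]
        rw [Matrix.mul_zero, Matrix.trace_zero, Complex.zero_re, zero_div]
      rw [h1, mul_zero]
    · rw [hz _ (not_le.1 hx).le, zero_mul]
  have hgc : Continuous fun x => γ (sF F x) * q x := (sm_continuous hu).mul hqc
  rw [vm_tot_re P h hKc (Finset.Subset.refl _) (integrable_of_zero_off h hKc hgc hq0) hq0]
  have e3 : tot P (Fn P hKc) (fun i x => ((γ (sF F x) : ℝ) : ℂ) *
      ((hsf A (sF F) i x).adjugate * hsf A w i x).trace) =
      tot P (Fn P hKc) (fun i x => ((h.w i x * (γ (sF F x) * q x) : ℝ) : ℂ)) := by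
    refine tot_congr P _ fun i _ x hx => ?_
    have h1 : h.w i x * q x = ((hsf A (sF F) i x).adjugate * hsf A w i x).trace.re :=
      dq_mul h hrd hx
    have h2 : ((hsf A (sF F) i x).adjugate * hsf A w i x).trace =
        ((h.w i x * q x : ℝ) : ℂ) := by
      rw [h1]
      have h3 : conj (((hsf A (sF F) i x).adjugate * hsf A w i x).trace) =
          ((hsf A (sF F) i x).adjugate * hsf A w i x).trace := by
        have h4 : star (((hsf A (sF F) i x).adjugate * hsf A w i x).trace) =
            (((hsf A (sF F) i x).adjugate * hsf A w i x)ᴴ).trace :=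
          (Matrix.trace_conjTranspose _).symm
        have h5 : ((hsf A (sF F) i x).adjugate)ᴴ = (hsf A (sF F) i x).adjugate := by
          rw [Matrix.adjugate_conjTranspose, hh i x hx]
        show star (((hsf A (sF F) i x).adjugate * hsf A w i x).trace) = _
        rw [h4, Matrix.conjTranspose_mul, h5, (D.psh i x hx).isHermitian, Matrix.trace_mul_comm]
      exact Complex.ext (by simp) (by simpa using im_zero_of_conj h3)
    rw [h2]
    push_cast
    ring
  rw [e3]

/-- `SH` for smooth test functions -/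
theorem sh_smooth (P : Part A) (D : MD A F w R) {γ : ℝ → ℝ} (hγ : ContDiff ℝ ∞ γ)
    (h0 : ∀ s, 0 ≤ γ s) (hz : ∀ s, R ≤ s → γ s = 0) :
    0 ≤ ∫ x, w x * ((n : ℝ) * deriv γ (sF F x) + deriv (deriv γ) (sF F x) * GF h F x)
      ∂(muF h F) := by
  rw [key h P D hγ hz]
  refine integral_nonneg fun x => mul_nonneg (h0 _) ?_
  have hx := mem_ch A x
  rw [dq_eq h (rd_tr (tf_sF D.hol) (tf_hsf D.sm)) hx]
  refine div_nonneg ?_ (h.pos _ x hx).le
  refine tr_adj_nonneg ?_ (D.psh _ x hx)
  rw [hsf_sF D.hol _ hx]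
  exact Matrix.posSemidef_self_mul_conjTranspose _

theorem intOn_w (D : MD A F w R) : IntegrableOn w {x | sF F x < R} (muF h F) := by
  have := locFin_muF h D.hol
  have h1 : IntegrableOn w (tsupport w ∩ {x | sF F x ≤ R}) (muF h F) :=
    (sm_continuous D.sm).continuousOn.integrableOn_compact D.cpt
  refine h1.of_forall_sdiff_eq_zero
    (measurableSet_lt (sm_continuous (sm_sF D.hol)).measurable measurable_const) fun x hx => ?_
  refine image_eq_zero_of_notMem_tsupport fun h2 => hx.2 ⟨h2, ?_⟩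
  exact (show sF F x < R from hx.1).le

/-- **(M4)**: the data of 192 -/
theorem MD.dat (P : Part A) (D : MD A F w R) : Mo_192.Dat (muF h F) (sF F) (GF h F) w n R where
  mρ := (sm_continuous (sm_sF D.hol)).measurable
  mG := meas_GF h D.hol
  G0 := GF_nonneg h D.hol
  Gρ := GF_le h D.hol
  w0 := D.w0
  int := intOn_w h D
  sh := sh_of_smooth (sm_continuous (sm_sF D.hol)).measurable (meas_GF h D.hol)
    (GF_nonneg h D.hol) (GF_le h D.hol) (intOn_w h D) fun _ hγ h0 hz => sh_smooth h P D hγ h0 hz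

end

end Crest.Agent.R281.Mv_757
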