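import Crest.Agent.R281.S6D_664
import Crest.Agent.R281.Mv4_757
import Crest.Agent.R281.Fub1_192
import Crest.Agent.R281.Hk2_389
import Crest.Agent.R281.Con3_166
import Crest.Agent.R273.YauDefs_635

/-!
# R281 (S0424), DIV 6, S6-CONT part 5 (helper166): functions of the base and chart coordinates on a family

`F : Fam A d m U`, `y : V → U`, `i : V → M`.
* `laL`             : the last `m` coordinates;
* `sm_base`         : `W ∘ y` is smooth on `V`; `psd_base` : `W` psh at `y v` ⇒ `W ∘ y` psh at `v`;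
* `Phi F j q`       : the coordinates of the chart `j` of `M`, centred at `q`, on `V`;
* `hol_Phi`, `sF_Phi`, `DF_Phi`, `closed_Phi`;
* `det_Phi_le`      : `det (DΦ DΦᴴ) ≤ C^(d+m) det K_V` when `1 ≤ C K` in the chart `j`.
-/

set_option autoImplicit false
set_option linter.unusedSectionVars false

open Set Filter Topology Complex Function MeasureTheory
open scoped ContDiff Matrix ComplexConjugate ComplexOrder

namespace Crest.Agent.R281.Con_166

open Crest.Agent.R275.Geo Crest.Agent.R275.Core144 Crest.Agent.R275.EDR890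
open Crest.Agent.R273.Defs_333 Crest.Agent.R273.Kah_333 Crest.Agent.R273.Hess_333
open Crest.Agent.R273.HessB_333
open Crest.Agent.R273.Map_835 Crest.Agent.R273.KahI_645 Crest.Agent.R273.Vol_333
open Crest.Agent.R273.Vm_333 Crest.Agent.R281.Defs_273 Crest.Agent.R281.S6D_664
open Crest.Agent.R281.Mv_757 Crest.Agent.R281.Fub_192
open Crest.Agent.R273 (Levi_145.lev)

noncomputable section

/-- the last `m` coordinates -/
def laL (d m : ℕ) : Cn (d + m) →L[ℂ] Cn m :=
  LinearMap.toContinuousLinearMap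
    { toFun := fun z => WithLp.toLp 2 (fun a => z (Fin.natAdd d a))
      map_add' := by intro p q; ext a; simp
      map_smul' := by intro c p; ext a; simp }

@[simp] theorem laL_apply {d m : ℕ} (z : Cn (d + m)) (a : Fin m) :
    laL d m z a = z (Fin.natAdd d a) := by
  simp [laL]

variable {N d m : ℕ} {M : Type} [TopologicalSpace M] {A : Atl N M} {U : Set (Cn m)}

theorem y_symm' (F : Fam A d m U) {k : F.B.ι} {z : Cn (d + m)} (hz : z ∈ (F.B.e k).target) :
    F.y ((F.B.e k).symm z) = laL d m z := by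
  ext a
  rw [y_symm F hz, laL_apply]

theorem sm_base (F : Fam A d m U) {W : Cn m → ℝ} (hW : ∀ u ∈ U, ContDiffAt ℝ ∞ W u) :
    F.B.Sm (fun v => W (F.y v)) := by
  intro k z hz
  have h1 : laL d m z ∈ U := by
    rw [← y_symm' F hz]
    exact F.mem _
  have h2 : ContDiffAt ℝ ∞ (fun z => W (laL d m z)) z :=
    (hW _ h1).comp z ((laL d m).restrictScalars ℝ).contDiff.contDiffAt
  refine h2.contDiffWithinAt.congr (fun z' hz' => ?_) ?_
  · simp only [y_symm' F hz']
  · simp only [y_symm' F hz]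

theorem psd_base (F : Fam A d m U) {W : Cn m → ℝ} {v : F.V} (hW : ContDiffAt ℝ ∞ W (F.y v))
    (hl : ∀ ξ, 0 ≤ Levi_145.lev W (F.y v) ξ) {k : F.B.ι} (hv : v ∈ (F.B.e k).source) :
    (hsf F.B (fun v => W (F.y v)) k v).PosSemidef := by
  set z := F.B.e k v with hz
  have hzt : z ∈ (F.B.e k).target := (F.B.e k).map_source hv
  have hyz : F.y v = laL d m z := by
    rw [← y_symm' F hzt, hz, (F.B.e k).left_inv hv]
  have h1 : (fun z => W (F.y ((F.B.e k).symm z))) =ᶠ[𝓝 z] fun z => W (laL d m z) := by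
    filter_upwards [(F.B.e k).open_target.mem_nhds hzt] with z' hz'
    rw [y_symm' F hz']
  show (hess (fun z => W (F.y ((F.B.e k).symm z))) z).PosSemidef
  rw [hess_congr h1]
  rw [hyz] at hW hl
  have h2 : ContDiffAt ℝ ∞ (fun z => W (laL d m z)) z :=
    hW.comp z ((laL d m).restrictScalars ℝ).contDiff.contDiffAt
  refine posSemidef_hess h2 fun v => ?_
  rw [Crest.Agent.R273.YauDefs_635.lev333_eq_lev145]
  have h3 := Crest.Agent.R273.Levi_145.lev_comp (u := W) (T := laL d m) (z := z)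
    ((laL d m).analyticAt z) (by exact_mod_cast contDiffAt_infty.1 hW 2) v
  rw [h3]
  have := hl (fderiv ℂ (laL d m) z v)
  positivity

/-! ### the chart coordinates of `M` on `V` -/

/-- the coordinates of the chart `j` centred at `q` -/
def Phi (F : Fam A d m U) (j : A.ι) (q : M) (v : F.V) : Fin N → ℂ :=
  fun b => (A.e j (F.i v) - A.e j q) b

theorem sF_Phi (F : Fam A d m U) (j : A.ι) (q : M) (v : F.V) :
    sF (Phi F j q) v = ‖A.e j (F.i v) - A.e j q‖ ^ 2 := by
  rw [EuclideanSpace.norm_sq_eq]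
  rfl

theorem hol_Phi (F : Fam A d m U) (j : A.ι) (q : M) (k : F.B.ι) (b : Fin N) :
    HolAt F.B k (F.i ⁻¹' (A.e j).source) (fun x => Phi F j q x b) := by
  have h1 := F.hol.hol k j
  intro z hz
  have h2 := h1 z hz
  exact (((EuclideanSpace.proj b : Cn N →L[ℂ] ℂ).differentiableAt).comp_differentiableWithinAt z
    (h2.sub_const (A.e j q)))

theorem DF_Phi (F : Fam A d m U) (j : A.ι) (q : M) {k : F.B.ι} {v : F.V}
    (hv : v ∈ (F.B.e k).source) (hj : F.i v ∈ (A.e j).source) :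
    DF F.B (Phi F j q) k v = (Jp F.B A F.i k j v)ᵀ := by
  ext a b
  have h0 : DifferentiableAt ℂ (rd F.B A F.i k j) (F.B.e k v) := F.hol.diffAt (mem_dm hv hj)
  have h1 : HasFDerivAt (fun z => Phi F j q ((F.B.e k).symm z) b)
      ((EuclideanSpace.proj b : Cn N →L[ℂ] ℂ).comp
        (fderiv ℂ (rd F.B A F.i k j) (F.B.e k v))) (F.B.e k v) :=
    ((EuclideanSpace.proj b : Cn N →L[ℂ] ℂ).hasFDerivAt).comp (F.B.e k v)
      (h0.hasFDerivAt.sub_const (A.e j q))
  simp only [DF, Matrix.of_apply, h1.fderiv]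
  rfl

/-- Gram matrices -/
theorem gram_le {p : ℕ} (J : Matrix (Fin N) (Fin p) ℂ) {G : Matrix (Fin N) (Fin N) ℂ} {C : ℝ}
    (hG : ((C : ℂ) • G - 1).PosSemidef) :
    (Jᵀ * (Jᵀ)ᴴ).det.re ≤ C ^ p * (Jᵀ * G * J.map conj).det.re := by
  have e : (Jᵀ)ᴴ = J.map conj := by
    ext a b
    rfl
  have h1 : (Jᵀ * ((C : ℂ) • G - 1) * (Jᵀ)ᴴ).PosSemidef := hG.mul_mul_conjTranspose_same _
  have h2 : (Jᵀ * (Jᵀ)ᴴ).PosSemidef := Matrix.posSemidef_self_mul_conjTranspose _
  have h3 := Hk_389.det_mono h2 h1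
  have h4 : Jᵀ * (Jᵀ)ᴴ + Jᵀ * ((C : ℂ) • G - 1) * (Jᵀ)ᴴ =
      (C : ℂ) • (Jᵀ * G * J.map conj) := by
    rw [e, Matrix.mul_sub, Matrix.sub_mul, Matrix.mul_one, Matrix.mul_smul, Matrix.smul_mul]
    abel
  rw [h4, Matrix.det_smul, Fintype.card_fin, ← Complex.ofReal_pow, Complex.re_ofReal_mul] at h3
  exact h3

theorem det_Phi_le (F : Fam A d m U) (K : Kah A) {j : A.ι} {q : M} {C : ℝ}
    {k : F.B.ι} {v : F.V} (hv : v ∈ (F.B.e k).source) (hj : F.i v ∈ (A.e j).source)
    (hG : ((C : ℂ) • K.g j (F.i v) - 1).PosSemidef) :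
    (DF F.B (Phi F j q) k v * (DF F.B (Phi F j q) k v)ᴴ).det.re ≤
      C ^ (d + m) * ((F.kah K).g k v).det.re := by
  rw [DF_Phi F j q hv hj]
  have h1 := gram_le (Jp F.B A F.i k j v) hG
  have h2 : (F.kah K).g k v = (Jp F.B A F.i k j v)ᵀ * K.g j (F.i v) *
      (Jp F.B A F.i k j v).map conj := pullI_g K F.hol F.imm hv hj
  rw [h2]
  exact h1

theorem inj_Phi (F : Fam A d m U) (j : A.ι) (q : M) {k : F.B.ι} {v : F.V}
    (hv : v ∈ (F.B.e k).source) (hj : F.i v ∈ (A.e j).source) {ξ : Fin (d + m) → ℂ}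
    (h : ξ ᵥ* DF F.B (Phi F j q) k v = 0) : ξ = 0 := by
  rw [DF_Phi F j q hv hj, Matrix.vecMul_transpose] at h
  have h1 := F.imm k j v hv hj
  have h2 : (fderiv ℂ (rd F.B A F.i k j) (F.B.e k v) (WithLp.toLp 2 ξ)) = 0 := by
    ext b
    exact (mt_apply (fderiv ℂ (rd F.B A F.i k j) (F.B.e k v)) (WithLp.toLp 2 ξ) b).trans
      (congrFun h b)
  have h4 : (WithLp.toLp 2 ξ : Cn (d + m)) = 0 := h1 (h2.trans (map_zero _).symm)
  have h5 := congrArg WithLp.ofLp h4
  exact h5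

/-- the sets `{Φ ≤ r}` are closed in `V` -/
theorem closed_Phi [T2Space M] (F : Fam A d m U) (j : A.ι) {q : M} {δ : ℝ} (h0 : 0 ≤ δ)
    (hδ : Metric.closedBall (A.e j q) δ ⊆ (A.e j).target) :
    IsClosed {v | v ∈ F.i ⁻¹' (A.e j).source ∧ sF (Phi F j q) v ≤ δ ^ 2} := by
  have h1 : IsCompact ((A.e j).symm '' Metric.closedBall (A.e j q) δ) :=
    (isCompact_closedBall _ _).image_of_continuousOn ((A.e j).continuousOn_symm.mono hδ)
  have h2 : {v | v ∈ F.i ⁻¹' (A.e j).source ∧ sF (Phi F j q) v ≤ δ ^ 2} =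
      F.i ⁻¹' ((A.e j).symm '' Metric.closedBall (A.e j q) δ) := by
    ext v
    constructor
    · rintro ⟨h3, h4⟩
      rw [sF_Phi] at h4
      refine ⟨A.e j (F.i v), ?_, (A.e j).left_inv h3⟩
      rw [mem_closedBall_iff_norm]
      exact (pow_le_pow_iff_left₀ (norm_nonneg _) h0 two_ne_zero).1 h4
    · rintro ⟨z, hz, hzv⟩
      have h3 := hδ hz
      refine ⟨?_, ?_⟩
      · show F.i v ∈ (A.e j).source
        rw [← hzv]
        exact (A.e j).map_target h3
      · rw [sF_Phi, ← hzv, (A.e j).right_inv h3]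
        exact pow_le_pow_left₀ (norm_nonneg _) (mem_closedBall_iff_norm.1 hz) 2
  rw [h2]
  exact h1.isClosed.preimage F.hol.cont

end

end Crest.Agent.R281.Con_166
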