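import Crest.Agent.R281.D6c_986

/-!
# R281 (S0424), DIV 6, S6-CONT part 6 (helper166): uniform charts on a compact Kaehler manifold

`exists_unif_chart` : for `ε > 0` there are `δ, C > 0` such that every point `q` has a chart `j` with
`closedBall (e_j q) δ` in the target, of diameter `< ε` in the metric of `M`, and `1 ≤ C K` there.
-/

set_option autoImplicit false
set_option linter.unusedSectionVars false

open Set Filter Topology Complex Function
open scoped ContDiff Matrix ComplexConjugate ComplexOrder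

namespace Crest.Agent.R281.Con_166

open Crest.Agent.R275.Geo Crest.Agent.R275.Core144
open Crest.Agent.R273.Defs_333 Crest.Agent.R273.Kah_333

noncomputable section

variable {N : ℕ} {M : Type} [MetricSpace M] {A : Atl N M}

/-- the statement at one point `q` -/
def UC (K : Kah A) (ε δ C : ℝ) (q : M) : Prop :=
  ∃ j, q ∈ (A.e j).source ∧ Metric.closedBall (A.e j q) δ ⊆ (A.e j).target ∧
    ∀ z ∈ Metric.closedBall (A.e j q) δ, dist ((A.e j).symm z) q < ε ∧
      ((C : ℂ) • K.g j ((A.e j).symm z) - 1).PosSemidef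

theorem UC.mono {K : Kah A} {ε δ C δ' C' : ℝ} {q : M} (h : UC K ε δ C q) (hδ : δ' ≤ δ)
    (hC : C ≤ C') : UC K ε δ' C' q := by
  obtain ⟨j, h1, h2, h3⟩ := h
  have h4 : Metric.closedBall (A.e j q) δ' ⊆ Metric.closedBall (A.e j q) δ :=
    Metric.closedBall_subset_closedBall hδ
  refine ⟨j, h1, h4.trans h2, fun z hz => ⟨(h3 z (h4 hz)).1, ?_⟩⟩
  have h5 := (h3 z (h4 hz)).2
  have h6 : (K.g j ((A.e j).symm z)).PosSemidef :=
    (K.pos j _ ((A.e j).map_target (h2 (h4 hz)))).posSemidef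
  have h7 : (((C' - C : ℝ) : ℂ) • K.g j ((A.e j).symm z)).PosSemidef :=
    h6.smul (by exact_mod_cast sub_nonneg.2 hC)
  have h8 := h5.add h7
  have e : (C : ℂ) • K.g j ((A.e j).symm z) - 1 + ((C' - C : ℝ) : ℂ) • K.g j ((A.e j).symm z) =
      (C' : ℂ) • K.g j ((A.e j).symm z) - 1 := by
    push_cast
    rw [sub_smul]
    abel
  rwa [e] at h8

theorem uc_near (K : Kah A) {ε : ℝ} (hε : 0 < ε) (p : M) :
    ∃ δ > 0, ∃ C > 0, ∀ᶠ q in 𝓝 p, UC K ε δ C q := by
  obtain ⟨j, hj⟩ := A.cover p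
  have ht : A.e j p ∈ (A.e j).target := (A.e j).map_source hj
  have hto : (A.e j).target ∈ 𝓝 (A.e j p) := (A.e j).open_target.mem_nhds ht
  have hKc : ContinuousAt (fun z => K.g j ((A.e j).symm z)) (A.e j p) := by
    refine continuousAt_pi.2 fun a => continuousAt_pi.2 fun b => ?_
    exact ((K.sm j a b).continuousOn.continuousAt hto)
  obtain ⟨C, hC, h1⟩ := D6_986.dom_near (K := fun z => K.g j ((A.e j).symm z))
    (G := fun _ => (1 : Matrix (Fin N) (Fin N) ℂ)) hKc continuousAt_const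
    (by filter_upwards [hto] with z hz using (K.pos j _ ((A.e j).map_target hz)).isHermitian)
    (Eventually.of_forall fun _ => Matrix.isHermitian_one)
    (K.pos j _ ((A.e j).map_target ht))
  have h2 : ∀ᶠ z in 𝓝 (A.e j p), dist ((A.e j).symm z) p < ε / 2 := by
    have h3 : ContinuousAt (A.e j).symm (A.e j p) := (A.e j).continuousAt_symm ht
    have h4 := h3.eventually (Metric.ball_mem_nhds _ (half_pos hε))
    rw [(A.e j).left_inv hj] at h4
    exact h4
  obtain ⟨r, hr, hrs⟩ := Metric.eventually_nhds_iff.1 (h1.and (h2.and hto))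
  refine ⟨r / 3, by positivity, C, hC, ?_⟩
  have h5 : ∀ᶠ q in 𝓝 p, A.e j q ∈ Metric.ball (A.e j p) (r / 3) :=
    ((A.e j).continuousAt hj).eventually (Metric.ball_mem_nhds _ (by positivity))
  filter_upwards [h5, (A.e j).open_source.mem_nhds hj] with q hq hqs
  have h6 : ∀ z ∈ Metric.closedBall (A.e j q) (r / 3), dist z (A.e j p) < r := by
    intro z hz
    have := dist_triangle z (A.e j q) (A.e j p)
    rw [Metric.mem_closedBall] at hz
    rw [Metric.mem_ball] at hq
    linarith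
  have h7 : dist q p < ε / 2 := by
    have := (hrs (y := A.e j q) (by rw [Metric.mem_ball] at hq; linarith)).2.1
    rwa [(A.e j).left_inv hqs] at this
  refine ⟨j, hqs, fun z hz => (hrs (h6 z hz)).2.2, fun z hz => ⟨?_, (hrs (h6 z hz)).1⟩⟩
  have h8 := (hrs (h6 z hz)).2.1
  have h9 := dist_triangle_right ((A.e j).symm z) q p
  linarith

theorem exists_unif_chart [CompactSpace M] (K : Kah A) {ε : ℝ} (hε : 0 < ε) :
    ∃ δ > 0, ∃ C > 0, ∀ q : M, UC K ε δ C q := by
  have h : ∃ δ > 0, ∃ C > 0, ∀ q ∈ (univ : Set M), UC K ε δ C q := by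
    refine isCompact_univ.induction_on (p := fun S => ∃ δ > 0, ∃ C > 0, ∀ q ∈ S, UC K ε δ C q)
      ⟨1, one_pos, 1, one_pos, fun q hq => hq.elim⟩ ?_ ?_ ?_
    · rintro s t hst ⟨δ, hδ, C, hC, h⟩
      exact ⟨δ, hδ, C, hC, fun q hq => h q (hst hq)⟩
    · rintro s t ⟨δ, hδ, C, hC, h⟩ ⟨δ', hδ', C', hC', h'⟩
      refine ⟨min δ δ', lt_min hδ hδ', max C C', lt_max_of_lt_left hC, ?_⟩
      rintro q (hq | hq)
      · exact (h q hq).mono (min_le_left _ _) (le_max_left _ _)
      · exact (h' q hq).mono (min_le_right _ _) (le_max_right _ _)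
    · intro p _
      obtain ⟨δ, hδ, C, hC, h⟩ := uc_near K hε p
      exact ⟨_, mem_nhdsWithin_of_mem_nhds h, δ, hδ, C, hC, fun q hq => hq⟩
  obtain ⟨δ, hδ, C, hC, h'⟩ := h
  exact ⟨δ, hδ, C, hC, fun q => h' q (mem_univ q)⟩

end

end Crest.Agent.R281.Con_166
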