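import Crest.Agent.R273.FIc0_597
import Crest.Agent.R273.SchI_152

/-!
# R281 (S0424), leaf S-GLOB, part 1 (helper484): energies of clips on a compact Kaehler manifold

* `gq K u i x` : `|∇u|²` at `x`, read in the chart `i` (`u` smooth near `x` only), `= g^{ab̄} u_a u_b̄`
* `trC_comp` : chain rule for `tr g⁻¹ ∂∂̄ φ(u)`
* `Dg_eq` : `Dg K u = gq K u i` for global smooth `u`
* `int_comp` : `∫ ψ'(u) |∇u|² = - ∫ ψ(u) Lap u`
* `nsM h s` : `|s|²_h` as a function on `M`, `lap_log_nsM` : `Lap log(|s|²+δ) ≥ - (..) tr Θ`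
* `energy2` : `∫ ψ'(u)|∇u|² ≤ 2 C ∫ tr Θ` for `u = log(|s₁|²+δ) - log(|s₀|²+δ)`, `|ψ| ≤ C`
* `energy1` : `∫ ψ'(u)|∇u|² ≤ C ∫ tr Θ` for `u = log(|s|²+δ)`, `0 ≤ ψ ≤ C`
-/

set_option autoImplicit false
set_option linter.unusedSectionVars false

open Set Filter Topology Complex MeasureTheory
open scoped ContDiff Matrix ComplexConjugate ComplexOrder

namespace Crest.Agent.R281.Glob1_484

open Crest.Agent.R275 Crest.Agent.R275.Geo Crest.Agent.R275.Core144 Crest.Agent.R275.EDR890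
open Crest.Agent.R273.Defs_333 Crest.Agent.R273.Hess_333 Crest.Agent.R273.HessB_333
open Crest.Agent.R273.HM_333 Crest.Agent.R273.Kah_333 Crest.Agent.R273.Vol_333
open Crest.Agent.R273.Vm_333
open Crest.Agent.R273.Green_5 Crest.Agent.R273.FIa0_597 Crest.Agent.R273.FIb0_597
open Crest.Agent.R273.FIc0_597 Crest.Agent.R273
open Crest.Agent.R273.SchI_152 (Dg sm_sq Dg_nonneg continuous_Dg)

noncomputable section

variable {n : ℕ}

theorem hess_comp_mat {φ φ' : ℝ → ℝ} {d2 : ℝ} {u : Cn n → ℝ} {z : Cn n}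
    (hu : ContDiffAt ℝ ∞ u z) (h1 : ∀ᶠ s in 𝓝 (u z), HasDerivAt φ (φ' s) s)
    (h2 : HasDerivAt φ' d2 (u z)) :
    hess (fun w => φ (u w)) z = (φ' (u z) : ℝ) • hess u z +
      (d2 : ℝ) • Matrix.vecMulVec (gr u z) (star (gr u z)) := by
  ext a b
  rw [hess_comp_real hu h1 h2, Matrix.add_apply, Matrix.smul_apply, Matrix.smul_apply,
    Matrix.vecMulVec_apply, star_gr (hu.differentiableAt (by simp))]
  simp only [gr, Complex.real_smul]

variable {M : Type} [TopologicalSpace M] {A : Atl n M} {L L' : LB A}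

/-- the squared gradient, read in the chart `i` -/
def gq (K : Kah A) (u : M → ℝ) (i : A.ι) (x : M) : ℝ :=
  ((K.g i x)⁻¹ * Matrix.vecMulVec (gr (fun z => u ((A.e i).symm z)) (A.e i x))
    (star (gr (fun z => u ((A.e i).symm z)) (A.e i x)))).trace.re

theorem gq_nonneg (K : Kah A) (u : M → ℝ) {i : A.ι} {x : M} (hx : x ∈ (A.e i).source) :
    0 ≤ gq K u i x :=
  tr_re_nonneg (K.pos i x hx) (Matrix.posSemidef_vecMulVec_self_star _)

/-- chain rule -/
theorem trC_comp (K : Kah A) {φ φ' : ℝ → ℝ} {d2 : ℝ} {u : M → ℝ} {i : A.ι} {x : M}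
    (hx : x ∈ (A.e i).source) (hu : ContDiffAt ℝ ∞ (fun z => u ((A.e i).symm z)) (A.e i x))
    (h1 : ∀ᶠ s in 𝓝 (u x), HasDerivAt φ (φ' s) s) (h2 : HasDerivAt φ' d2 (u x)) :
    (trC K (hsf A fun y => φ (u y)) i x).re =
      φ' (u x) * (trC K (hsf A u) i x).re + d2 * gq K u i x := by
  have e : u ((A.e i).symm (A.e i x)) = u x := by
    rw [(A.e i).left_inv hx]
  have h := hess_comp_mat (φ := φ) (φ' := φ') (d2 := d2) hu (by rw [e]; exact h1)
    (by rw [e]; exact h2)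
  simp only [e] at h
  have h' : hsf A (fun y => φ (u y)) i x = (φ' (u x) : ℝ) • hsf A u i x +
      (d2 : ℝ) • Matrix.vecMulVec (gr (fun z => u ((A.e i).symm z)) (A.e i x))
        (star (gr (fun z => u ((A.e i).symm z)) (A.e i x))) := h
  unfold trC gq
  rw [h', Matrix.mul_add, Matrix.trace_add, Matrix.mul_smul, Matrix.trace_smul,
    Matrix.mul_smul, Matrix.trace_smul, Complex.real_smul, Complex.real_smul, Complex.add_re,
    Complex.re_ofReal_mul, Complex.re_ofReal_mul]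

theorem Lap_read (K : Kah A) {u : M → ℝ} (hu : A.Sm u) {i : A.ι} {x : M}
    (hx : x ∈ (A.e i).source) : Lap K u x = (trC K (hsf A u) i x).re :=
  trM_eq K (tf_hsf hu) hx

theorem sm_at {u : M → ℝ} (hu : A.Sm u) {i : A.ι} {x : M} (hx : x ∈ (A.e i).source) :
    ContDiffAt ℝ ∞ (fun z => u ((A.e i).symm z)) (A.e i x) :=
  sm_contDiffAt hu i ((A.e i).map_source hx)

theorem lap_rfl (K : Kah A) (u : M → ℝ) : SchH_152.Lap K u = Lap K u := rfl

theorem Dg_eq (K : Kah A) {u : M → ℝ} (hu : A.Sm u) {i : A.ι} {x : M}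
    (hx : x ∈ (A.e i).source) : Dg K u x = gq K u i x := by
  have h := trC_comp K (φ := fun s => s ^ 2) (φ' := fun s => 2 * s) (d2 := 2) hx (sm_at hu hx)
    (Eventually.of_forall fun s => by simpa using hasDerivAt_pow 2 s)
    (by simpa using (hasDerivAt_id (u x)).const_mul 2)
  unfold Dg
  rw [lap_rfl, lap_rfl, Lap_read K (sm_sq hu) hx, Lap_read K hu hx, h]
  ring

theorem sm_comp {φ : ℝ → ℝ} (hφ : ContDiff ℝ ∞ φ) {u : M → ℝ} (hu : A.Sm u) :
    A.Sm (fun x => φ (u x)) := fun i => hφ.comp_contDiffOn (hu i)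

theorem Lap_comp (K : Kah A) {φ φ' φ'' : ℝ → ℝ} (hφ : ContDiff ℝ ∞ φ)
    (h1 : ∀ s, HasDerivAt φ (φ' s) s) (h2 : ∀ s, HasDerivAt φ' (φ'' s) s) {u : M → ℝ}
    (hu : A.Sm u) (x : M) :
    Lap K (fun y => φ (u y)) x = φ' (u x) * Lap K u x + φ'' (u x) * Dg K u x := by
  have hx := mem_ch A x
  rw [Lap_read K (sm_comp hφ hu) hx, Lap_read K hu hx, Dg_eq K hu hx]
  exact trC_comp K hx (sm_at hu hx) (Eventually.of_forall h1) (h2 _)

theorem Dg_comp (K : Kah A) {φ φ' φ'' : ℝ → ℝ} (hφ : ContDiff ℝ ∞ φ)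
    (h1 : ∀ s, HasDerivAt φ (φ' s) s) (h2 : ∀ s, HasDerivAt φ' (φ'' s) s) {u : M → ℝ}
    (hu : A.Sm u) (x : M) :
    Dg K (fun y => φ (u y)) x = φ' (u x) ^ 2 * Dg K u x := by
  have e1 := Lap_comp K hφ h1 h2 hu x
  have e2 := Lap_comp K (φ := fun s => φ s ^ 2) (φ' := fun s => 2 * φ s * φ' s)
    (φ'' := fun s => 2 * φ' s * φ' s + 2 * φ s * φ'' s) (hφ.pow 2)
    (fun s => by
      have h := (h1 s).fun_pow 2
      simpa [mul_comm, mul_left_comm, mul_assoc] using h)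
    (fun s => by
      have h := ((h1 s).const_mul 2).mul (h2 s)
      exact h) hu x
  have e3 : Dg K (fun y => φ (u y)) x =
      (1 / 2) * Lap K (fun y => φ (u y) ^ 2) x - φ (u x) * Lap K (fun y => φ (u y)) x := rfl
  rw [e3, e1, e2]
  ring

theorem Lap_sub (K : Kah A) {u v : M → ℝ} (hu : A.Sm u) (hv : A.Sm v) (x : M) :
    Lap K (fun y => u y - v y) x = Lap K u x - Lap K v x := by
  have hx := mem_ch A x
  have huv : A.Sm (fun y => u y - v y) := fun i => (hu i).sub (hv i)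
  rw [Lap_read K huv hx, Lap_read K hu hx, Lap_read K hv hx]
  have h : hsf A (fun y => u y - v y) (ch A x) x = hsf A u (ch A x) x - hsf A v (ch A x) x :=
    hess_sub (sm_at hu hx) (sm_at hv hx)
  unfold trC
  rw [h, Matrix.mul_sub, Matrix.trace_sub, Complex.sub_re]

/-! ### sections -/

/-- `|s|²_h` as a function on `M` -/
def nsM (h : HM L) (s : A.ι → M → ℂ) (x : M) : ℝ := nsq h s (ch A x) x

theorem nsM_eq (h : HM L) {s : A.ι → M → ℂ} (hs : IsHS L univ s) {i : A.ι} {x : M}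
    (hx : x ∈ (A.e i).source) : nsM h s x = nsq h s i x :=
  nsq_indep h hs ⟨mem_ch A x, hx⟩ (mem_univ x)

theorem nsM_nonneg (h : HM L) (s : A.ι → M → ℂ) (x : M) : 0 ≤ nsM h s x :=
  mul_nonneg (by positivity) (h.pos _ x (mem_ch A x)).le

theorem hol_at {s : A.ι → M → ℂ} (hs : IsHS L univ s) (i : A.ι) {z : Cn n}
    (hz : z ∈ (A.e i).target) : ∀ᶠ w in 𝓝 z, DifferentiableAt ℂ (fun w => s i ((A.e i).symm w)) w := by
  have h1 : DifferentiableOn ℂ (fun z => s i ((A.e i).symm z))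
    ((A.e i).target ∩ (A.e i).symm ⁻¹' univ) := hs.hol i
  rw [preimage_univ, inter_univ] at h1
  filter_upwards [(A.e i).open_target.mem_nhds hz] with w hw
  exact (h1 w hw).differentiableAt ((A.e i).open_target.mem_nhds hw)

theorem cd_at {s : A.ι → M → ℂ} (hs : IsHS L univ s) (i : A.ι) :
    ContDiffOn ℝ ∞ (fun z => s i ((A.e i).symm z)) (A.e i).target := by
  have h1 := (hs.hol i).contDiffOn isOpen_univ
  rwa [preimage_univ, inter_univ] at h1

theorem sm_nsM (h : HM L) {s : A.ι → M → ℂ} (hs : IsHS L univ s) : A.Sm (nsM h s) := by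
  intro i
  have h1 : ContDiffOn ℝ ∞ (fun z => ‖s i ((A.e i).symm z)‖ ^ 2 * h.w i ((A.e i).symm z))
      (A.e i).target := by
    exact ((cd_at hs i).norm_sq ℝ).mul (h.sm i)
  refine h1.congr fun z hz => ?_
  exact nsM_eq h hs ((A.e i).map_target hz)

/-- `tr g⁻¹ ∂∂̄ log|s|² = - tr g⁻¹ Θ` where `s ≠ 0` -/
theorem trC_log_nsM (K : Kah A) (h : HM L) {s : A.ι → M → ℂ} (hs : IsHS L univ s) {i : A.ι}
    {x : M} (hx : x ∈ (A.e i).source) (hp : 0 < nsM h s x) :
    (trC K (hsf A fun y => Real.log (nsM h s y)) i x).re = - (trC K (cur h) i x).re := by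
  have hz := (A.e i).map_source hx
  have h0 : s i x ≠ 0 := by
    intro h0
    rw [nsM_eq h hs hx, nsq, h0] at hp
    simp at hp
  have h0' : (fun w => s i ((A.e i).symm w)) (A.e i x) ≠ 0 := by
    show s i ((A.e i).symm (A.e i x)) ≠ 0
    rw [(A.e i).left_inv hx]; exact h0
  have hhol := hol_at hs i hz
  have h1 : (fun z => Real.log (nsM h s ((A.e i).symm z))) =ᶠ[𝓝 (A.e i x)]
      fun z => Real.log (‖s i ((A.e i).symm z)‖ ^ 2) - h.wt i z := by
    have hc : ContinuousAt (fun w => s i ((A.e i).symm w)) (A.e i x) :=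
      hhol.self_of_nhds.continuousAt
    filter_upwards [hc.eventually_ne h0', (A.e i).open_target.mem_nhds hz] with z hz1 hz2
    have hz3 := (A.e i).map_target hz2
    rw [nsM_eq h hs hz3, nsq, HM.wt, Real.log_mul _ (h.pos i _ hz3).ne', sub_neg_eq_add]
    exact pow_ne_zero 2 (norm_ne_zero_iff.2 hz1)
  have hw : ContDiffAt ℝ ∞ (h.wt i) (A.e i x) :=
    (wt_smooth h i).contDiffAt ((A.e i).open_target.mem_nhds hz)
  have hs2 : ContDiffAt ℝ ∞ (fun z => Real.log (‖s i ((A.e i).symm z)‖ ^ 2)) (A.e i x) := by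
    have h3 := ((cd_at hs i).norm_sq ℝ).contDiffAt ((A.e i).open_target.mem_nhds hz)
    exact h3.log (pow_ne_zero 2 (norm_ne_zero_iff.2 h0'))
  have h2 : hsf A (fun y => Real.log (nsM h s y)) i x = - cur h i x := by
    show hess (fun z => Real.log (nsM h s ((A.e i).symm z))) (A.e i x) = _
    rw [hess_congr h1, hess_sub hs2 hw, hess_log_norm hhol h0', zero_sub]
    rfl
  unfold trC
  rw [h2, Matrix.mul_neg, Matrix.trace_neg, Complex.neg_re]

theorem trM_cur_nonneg (K : Kah A) {h : HM L} (hΘ : ∀ i, ∀ x ∈ (A.e i).source,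
    (cur h i x).PosSemidef) (x : M) : 0 ≤ trM K (cur h) x := trM_nonneg K hΘ x

/-- `Lap log(|s|²+δ) ≥ - tr Θ` -/
theorem lap_log_nsM (K : Kah A) (h : HM L) (hΘ : ∀ i, ∀ x ∈ (A.e i).source,
    (cur h i x).PosSemidef) {s : A.ι → M → ℂ} (hs : IsHS L univ s) {δ : ℝ} (hδ : 0 < δ) (x : M) :
    - trM K (cur h) x ≤ Lap K (fun y => Real.log (nsM h s y + δ)) x := by
  have h1 := lap_ge K (tf_cur h) (sm_nsM h hs) (nsM_nonneg h s) (C := 1)
    (fun i x hx hp => by rw [trC_log_nsM K h hs hx hp]; linarith) hδ x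
  have h2 := trM_cur_nonneg K hΘ x
  have h3 : nsM h s x / (nsM h s x + δ) ≤ 1 := by
    rw [div_le_one (by have := nsM_nonneg h s x; positivity)]; linarith
  have h4 : 0 ≤ nsM h s x / (nsM h s x + δ) := by
    have := nsM_nonneg h s x
    positivity
  nlinarith

/-! ### integrals -/

section int

variable [T2Space M] [CompactSpace M] [Fintype A.ι] [MeasurableSpace M] [BorelSpace M]

theorem hcK (K : Kah A) : ∀ i, ∀ x ∈ (A.e i).source,
    (volK K).w i x = Real.exp 0 * (volK K).w i x := fun i x _ => by simp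

theorem int_lap (P : Part A) (K : Kah A) {f : M → ℝ} (hf : A.Sm f) :
    ∫ x, Lap K f x ∂(vm (volK K)) = 0 := int_Lap P K (volK K) (hcK K) hf

/-- integration by parts: `∫ ψ'(u) |∇u|² = - ∫ ψ(u) Lap u` -/
theorem int_comp (P : Part A) (K : Kah A) {ψ ψ' : ℝ → ℝ} (hψ : ContDiff ℝ ∞ ψ)
    (h1 : ∀ s, HasDerivAt ψ (ψ' s) s) {u : M → ℝ} (hu : A.Sm u) :
    ∫ x, ψ' (u x) * Dg K u x ∂(vm (volK K)) = - ∫ x, ψ (u x) * Lap K u x ∂(vm (volK K)) := by
  set Ψ : ℝ → ℝ := fun t => ∫ s in (0:ℝ)..t, ψ s with hΨ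
  have hc : Continuous ψ := hψ.continuous
  have hd : ∀ t, HasDerivAt Ψ (ψ t) t := fun t => by
    exact intervalIntegral.integral_hasDerivAt_right (hc.intervalIntegrable _ _)
      (hc.stronglyMeasurableAtFilter _ _) hc.continuousAt
  have hΨs : ContDiff ℝ ∞ Ψ := by
    rw [contDiff_infty_iff_deriv]
    refine ⟨fun t => (hd t).differentiableAt, ?_⟩
    have : deriv Ψ = ψ := funext fun t => (hd t).deriv
    rw [this]; exact hψ
  have h3 := int_lap P K (sm_comp hΨs hu)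
  have h4 : ∀ x, Lap K (fun y => Ψ (u y)) x = ψ (u x) * Lap K u x + ψ' (u x) * Dg K u x :=
    Lap_comp K hΨs hd h1 hu
  have hψ'c : Continuous ψ' := by
    have : deriv ψ = ψ' := funext fun t => (h1 t).deriv
    rw [← this]
    exact hψ.continuous_deriv (by simp)
  have cu : Continuous u := cont_sm hu
  have i1 : Integrable (fun x => ψ (u x) * Lap K u x) (vm (volK K)) :=
    integrable_cont _ ((hc.comp cu).mul (cont_sm (sm_Lap K hu)))
  have i2 : Integrable (fun x => ψ' (u x) * Dg K u x) (vm (volK K)) :=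
    integrable_cont _ ((hψ'c.comp cu).mul (continuous_Dg K hu))
  simp only [h4] at h3
  rw [integral_add i1 i2] at h3
  linarith

/-- **energy of a clip of `log|s₁|² - log|s₀|²`** -/
theorem energy2 (P : Part A) (K : Kah A) (h : HM L) (hΘ : ∀ i, ∀ x ∈ (A.e i).source,
    (cur h i x).PosSemidef) {s₀ s₁ : A.ι → M → ℂ} (hs₀ : IsHS L univ s₀) (hs₁ : IsHS L univ s₁)
    {δ : ℝ} (hδ : 0 < δ) {ψ ψ' : ℝ → ℝ} (hψ : ContDiff ℝ ∞ ψ) (h1 : ∀ s, HasDerivAt ψ (ψ' s) s)
    {C : ℝ} (hC : ∀ s, |ψ s| ≤ C) {u : M → ℝ}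
    (hu : u = fun x => Real.log (nsM h s₁ x + δ) - Real.log (nsM h s₀ x + δ)) :
    ∫ x, ψ' (u x) * Dg K u x ∂(vm (volK K)) ≤ 2 * C * ∫ x, trM K (cur h) x ∂(vm (volK K)) := by
  have S₀ := sm_log_add (sm_nsM h hs₀) (nsM_nonneg h s₀) hδ
  have S₁ := sm_log_add (sm_nsM h hs₁) (nsM_nonneg h s₁) hδ
  have hus : A.Sm u := by rw [hu]; exact fun i => (S₁ i).sub (S₀ i)
  have hL : ∀ x, Lap K u x = Lap K (fun y => Real.log (nsM h s₁ y + δ)) x -
      Lap K (fun y => Real.log (nsM h s₀ y + δ)) x := by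
    intro x; rw [hu]; exact Lap_sub K S₁ S₀ x
  rw [int_comp P K hψ h1 hus]
  have hC0 : 0 ≤ C := (abs_nonneg _).trans (hC 0)
  have cT : Continuous (trM K (cur h)) := cont_sm (sm_trM K (tf_cur h))
  have c0 := cont_sm (sm_Lap K S₀)
  have c1 := cont_sm (sm_Lap K S₁)
  have cu : Continuous u := cont_sm hus
  have cψ : Continuous ψ := hψ.continuous
  have hpt : ∀ x, -(ψ (u x) * Lap K u x) ≤
      C * (Lap K (fun y => Real.log (nsM h s₁ y + δ)) x + trM K (cur h) x) +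
      C * (Lap K (fun y => Real.log (nsM h s₀ y + δ)) x + trM K (cur h) x) := by
    intro x
    rw [hL]
    have a0 := lap_log_nsM K h hΘ hs₀ hδ x
    have a1 := lap_log_nsM K h hΘ hs₁ hδ x
    have b := abs_le.1 (hC (u x))
    nlinarith [mul_nonneg (by linarith [b.1] : 0 ≤ C + ψ (u x)) (by linarith : 0 ≤
      Lap K (fun y => Real.log (nsM h s₁ y + δ)) x + trM K (cur h) x),
      mul_nonneg (by linarith [b.2] : 0 ≤ C - ψ (u x)) (by linarith : 0 ≤
      Lap K (fun y => Real.log (nsM h s₀ y + δ)) x + trM K (cur h) x)]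
  have j1 : Integrable (fun x => Lap K (fun y => Real.log (nsM h s₁ y + δ)) x +
      trM K (cur h) x) (vm (volK K)) := integrable_cont _ (c1.add cT)
  have j0 : Integrable (fun x => Lap K (fun y => Real.log (nsM h s₀ y + δ)) x +
      trM K (cur h) x) (vm (volK K)) := integrable_cont _ (c0.add cT)
  have jj : Integrable (fun x => ψ (u x) * Lap K u x) (vm (volK K)) :=
    integrable_cont _ ((cψ.comp cu).mul (cont_sm (sm_Lap K hus)))
  have i2 : ∫ x, -(ψ (u x) * Lap K u x) ∂(vm (volK K)) ≤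
      ∫ x, (C * (Lap K (fun y => Real.log (nsM h s₁ y + δ)) x + trM K (cur h) x) +
      C * (Lap K (fun y => Real.log (nsM h s₀ y + δ)) x + trM K (cur h) x)) ∂(vm (volK K)) :=
    integral_mono jj.neg ((j1.const_mul C).add (j0.const_mul C)) hpt
  rw [integral_neg, integral_add (j1.const_mul C) (j0.const_mul C), integral_const_mul,
    integral_const_mul,
    integral_add (integrable_cont _ c1) (integrable_cont _ cT),
    integral_add (integrable_cont _ c0) (integrable_cont _ cT), int_lap P K S₁,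
    int_lap P K S₀] at i2
  calc -∫ x, ψ (u x) * Lap K u x ∂(vm (volK K)) ≤ _ := i2
    _ = _ := by ring

/-- **energy of a clip of `log|s|²`** -/
theorem energy1 (P : Part A) (K : Kah A) (h : HM L) (hΘ : ∀ i, ∀ x ∈ (A.e i).source,
    (cur h i x).PosSemidef) {s : A.ι → M → ℂ} (hs : IsHS L univ s)
    {δ : ℝ} (hδ : 0 < δ) {ψ ψ' : ℝ → ℝ} (hψ : ContDiff ℝ ∞ ψ) (h1 : ∀ s, HasDerivAt ψ (ψ' s) s)
    {C : ℝ} (h0 : ∀ s, 0 ≤ ψ s) (hC : ∀ s, ψ s ≤ C) {u : M → ℝ}
    (hu : u = fun x => Real.log (nsM h s x + δ)) :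
    ∫ x, ψ' (u x) * Dg K u x ∂(vm (volK K)) ≤ C * ∫ x, trM K (cur h) x ∂(vm (volK K)) := by
  have S₁ := sm_log_add (sm_nsM h hs) (nsM_nonneg h s) hδ
  have hus : A.Sm u := by rw [hu]; exact S₁
  rw [int_comp P K hψ h1 hus]
  have cT : Continuous (trM K (cur h)) := cont_sm (sm_trM K (tf_cur h))
  have cu : Continuous u := cont_sm hus
  have cψ : Continuous ψ := hψ.continuous
  have hpt : ∀ x, -(ψ (u x) * Lap K u x) ≤ C * trM K (cur h) x := by
    intro x
    have a1 := lap_log_nsM K h hΘ hs hδ x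
    rw [← hu] at a1
    have a2 := trM_cur_nonneg K hΘ x
    nlinarith [mul_nonneg (h0 (u x)) (by linarith : 0 ≤ Lap K u x + trM K (cur h) x),
      mul_nonneg (by linarith [hC (u x)] : 0 ≤ C - ψ (u x)) a2]
  have jj : Integrable (fun x => ψ (u x) * Lap K u x) (vm (volK K)) :=
    integrable_cont _ ((cψ.comp cu).mul (cont_sm (sm_Lap K hus)))
  have i2 : ∫ x, -(ψ (u x) * Lap K u x) ∂(vm (volK K)) ≤
      ∫ x, C * trM K (cur h) x ∂(vm (volK K)) :=
    integral_mono jj.neg ((integrable_cont _ cT).const_mul C) hpt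
  rw [integral_neg, integral_const_mul] at i2
  exact i2

end int

end

end Crest.Agent.R281.Glob1_484
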