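import Crest.Agent.R281.Thn4_280
import Crest.Agent.R271.RExt2_747
import Crest.Agent.R266.Osgood

/-!
Row 281 (S0424), division 6, S6-THIN part 5 (helper280): locally bounded holomorphic functions
extend across relatively closed `σ`-thin sets.
-/

set_option autoImplicit false
set_option linter.unusedSectionVars false
set_option linter.unusedVariables false

open Set Filter Topology Metric Module MeasureTheory
open scoped ContDiff ENNReal

noncomputable section

namespace Crest.Agent.R281.Thn_280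

variable {V : Type*} [NormedAddCommGroup V] [NormedSpace ℂ V] [FiniteDimensional ℂ V]

/-- Riemann extension across one analytic hypersurface, any finite-dimensional space -/
theorem riemann_ext {f D : V → ℂ} {U : Set V} (hU : IsOpen U)
    (hD : AnalyticOnNhd ℂ D U) (hne : ∀ a ∈ U, ∃ᶠ z in 𝓝 a, D z ≠ 0)
    (hf : DifferentiableOn ℂ f (U ∩ {z | D z ≠ 0}))
    (hb : ∀ a ∈ U, ∃ W ∈ 𝓝 a, ∃ C : ℝ, ∀ z ∈ W, D z ≠ 0 → ‖f z‖ ≤ C) :
    ∃ g : V → ℂ, DifferentiableOn ℂ g U ∧ ∀ z ∈ U, D z ≠ 0 → g z = f z := by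
  set n := finrank ℂ V with hn
  let e : V ≃L[ℂ] (Fin n → ℂ) := ContinuousLinearEquiv.ofFinrankEq (by simp [hn])
  have hUo : IsOpen (e.symm ⁻¹' U) := hU.preimage e.symm.continuous
  obtain ⟨g, hg1, hg2⟩ := Crest.Agent.R271.RExt747.riemann_ext (n := n) (f := f ∘ e.symm)
    (D := D ∘ e.symm) hUo (fun z hz => AnalyticAt.comp (g := D) (f := e.symm) (hD _ hz)
      ((e.symm : (Fin n → ℂ) →L[ℂ] V).analyticAt z)) (by
      intro a ha hcon
      refine hne _ ha ?_
      have h1 : Tendsto e (𝓝 (e.symm a)) (𝓝 a) := by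
        have := e.continuous.tendsto (e.symm a)
        rwa [e.apply_symm_apply] at this
      filter_upwards [h1.eventually hcon] with z hz
      simpa using hz) (by
      refine DifferentiableOn.comp (t := U ∩ {z | D z ≠ 0}) hf ?_ ?_
      · exact e.symm.differentiable.differentiableOn
      · intro z hz; exact hz) (by
      intro a ha
      obtain ⟨W, hW, C, hC⟩ := hb _ ha
      have hW' : e.symm ⁻¹' W ∩ ball a 1 ∈ 𝓝 a :=
        inter_mem (e.symm.continuous.continuousAt.preimage_mem_nhds hW) (ball_mem_nhds a one_pos)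
      refine ⟨_, hW', ?_⟩
      have hfin : volume (ball a (1 : ℝ)) < ⊤ := measure_ball_lt_top
      have hle : ∫⁻ z in (e.symm ⁻¹' W ∩ ball a 1) ∩ {z | (D ∘ e.symm) z ≠ 0},
          ‖(f ∘ e.symm) z‖ₑ ^ 2 ≤ ∫⁻ z in ball a (1 : ℝ), ENNReal.ofReal (|C| ^ 2) := by
        calc ∫⁻ z in (e.symm ⁻¹' W ∩ ball a 1) ∩ {z | (D ∘ e.symm) z ≠ 0},
            ‖(f ∘ e.symm) z‖ₑ ^ 2
            ≤ ∫⁻ z in (e.symm ⁻¹' W ∩ ball a 1) ∩ {z | (D ∘ e.symm) z ≠ 0},
              ENNReal.ofReal (|C| ^ 2) := by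
              refine setLIntegral_mono measurable_const ?_
              intro z hz
              have h2 : ‖f (e.symm z)‖ ≤ |C| := (hC _ hz.1.1 hz.2).trans (le_abs_self C)
              have h3 : ‖(f ∘ e.symm) z‖ₑ = ENNReal.ofReal ‖f (e.symm z)‖ := by
                rw [Function.comp_apply, ofReal_norm]
              rw [h3, ← ENNReal.ofReal_pow (norm_nonneg _)]
              exact ENNReal.ofReal_le_ofReal (pow_le_pow_left₀ (norm_nonneg _) h2 2)
          _ ≤ ∫⁻ z in ball a (1 : ℝ), ENNReal.ofReal (|C| ^ 2) :=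
              lintegral_mono_set (fun z hz => hz.1.2)
      refine lt_of_le_of_lt hle ?_
      rw [setLIntegral_const]
      exact ENNReal.mul_lt_top ENNReal.ofReal_lt_top hfin)
  refine ⟨g ∘ e, ?_, ?_⟩
  · refine DifferentiableOn.comp (t := e.symm ⁻¹' U) hg1 e.differentiable.differentiableOn ?_
    intro z hz
    change e.symm (e z) ∈ U
    rwa [e.symm_apply_apply]
  · intro z hz hDz
    have := hg2 (e z) (by change e.symm (e z) ∈ U; rwa [e.symm_apply_apply])
      (by simpa using hDz)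
    simpa using this

/-- **(T5)** locally bounded holomorphic functions extend across relatively closed `σ`-thin
sets. -/
theorem STh.extend {U S : Set V} (hU : IsOpen U) (hS : STh S) (hUS : IsOpen (U \ S)) {f : V → ℂ}
    (hf : DifferentiableOn ℂ f (U \ S))
    (hb : ∀ z ∈ U, ∃ N ∈ 𝓝 z, ∃ C : ℝ, ∀ w ∈ N ∩ (U \ S), ‖f w‖ ≤ C) :
    ∃ g : V → ℂ, DifferentiableOn ℂ g U ∧ ∀ z ∈ U \ S, g z = f z := by
  classical
  have : ProperSpace V := FiniteDimensional.proper ℂ V
  borelize V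
  have hdense : Dense Sᶜ := hS.dense_compl
  have hNB : ∀ a ∈ U, (𝓝[U \ S] a).NeBot := by
    intro a ha
    rw [← mem_closure_iff_nhdsWithin_neBot, mem_closure_iff_nhds]
    intro t ht
    obtain ⟨z, hz, hzt⟩ := hdense.inter_nhds_nonempty (inter_mem ht (hU.mem_nhds ha))
    exact ⟨z, hzt.1, hzt.2, hz⟩
  set F : V → ℂ := fun z => limUnder (𝓝[U \ S] z) f with hF
  have hFf : ∀ z ∈ U \ S, F z = f z := by
    intro z hz
    have := hNB z hz.1
    have h2 : ContinuousAt f z := (hf.differentiableAt (hUS.mem_nhds hz)).continuousAt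
    exact (h2.tendsto.mono_left nhdsWithin_le_nhds).limUnder_eq
  -- extendable points
  set Ext : Set V := {a | a ∈ U ∧ ∃ N : Set V, IsOpen N ∧ a ∈ N ∧ N ⊆ U ∧
      ∃ g : V → ℂ, DifferentiableOn ℂ g N ∧ ∀ z ∈ N \ S, g z = f z} with hExt
  have hExtN : ∀ {N : Set V}, IsOpen N → N ⊆ U → ∀ {g : V → ℂ}, DifferentiableOn ℂ g N →
      (∀ z ∈ N \ S, g z = f z) → ∀ z ∈ N, F z = g z := by
    intro N hN hNU g hg hgf z hz
    have := hNB z (hNU hz)
    have h2 : Tendsto g (𝓝[U \ S] z) (𝓝 (g z)) :=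
      ((hg.differentiableAt (hN.mem_nhds hz)).continuousAt.tendsto).mono_left
        nhdsWithin_le_nhds
    have h3 : g =ᶠ[𝓝[U \ S] z] f := by
      filter_upwards [nhdsWithin_le_nhds (hN.mem_nhds hz), self_mem_nhdsWithin] with w hw hw'
      exact hgf w ⟨hw, hw'.2⟩
    exact (h2.congr' h3).limUnder_eq
  have hFd : ∀ a ∈ Ext, DifferentiableAt ℂ F a := by
    rintro a ⟨haU, N, hN, haN, hNU, g, hg, hgf⟩
    refine (hg.differentiableAt (hN.mem_nhds haN)).congr_of_eventuallyEq ?_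
    filter_upwards [hN.mem_nhds haN] with z hz using hExtN hN hNU hg hgf z hz
  have hExto : IsOpen Ext := by
    rw [isOpen_iff_mem_nhds]
    rintro a ⟨haU, N, hN, haN, hNU, g, hg, hgf⟩
    filter_upwards [hN.mem_nhds haN] with z hz
    exact ⟨hNU hz, N, hN, hz, hNU, g, hg, hgf⟩
  have hExtS : U \ S ⊆ Ext := by
    intro z hz
    exact ⟨hz.1, U \ S, hUS, hz, sdiff_subset, f, hf, fun _ _ => rfl⟩
  -- no bad points
  have hbad : U ⊆ Ext := by
    by_contra hcon
    obtain ⟨U', g, h1, h2⟩ := hS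
    set Bad : Set V := U \ Ext with hBad
    have hBne : Bad.Nonempty := by
      rw [Set.not_subset] at hcon
      obtain ⟨a, ha, ha'⟩ := hcon
      exact ⟨a, ha, ha'⟩
    have hBlc : IsLocallyClosed Bad := hU.isLocallyClosed.inter hExto.isClosed_compl.isLocallyClosed
    have : LocallyCompactSpace Bad := hBlc.locallyCompactSpace
    have : Nonempty Bad := hBne.to_subtype
    have hBS : Bad ⊆ S := by
      intro z hz
      by_contra hzS
      exact hz.2 (hExtS ⟨hz.1, hzS⟩)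
    -- the pieces are `F_σ`
    have hWo : ∀ j, IsOpen {z | z ∈ U' j ∧ fderiv ℂ (g j) z ≠ 0} := by
      intro j
      have := (h1 j).2.fderiv.continuousOn.isOpen_inter_preimage (h1 j).1
        (isOpen_ne : IsOpen {w : V →L[ℂ] ℂ | w ≠ 0})
      exact this
    choose Fk hFc hFW hFu hFm using fun j => (hWo j).exists_iUnion_isClosed
    obtain ⟨⟨j, k⟩, hjk⟩ := nonempty_interior_of_iUnion_of_closed
      (X := Bad) (ι := ℕ × ℕ) (f := fun p => {x : Bad | (x : V) ∈ Fk p.1 p.2 ∧ g p.1 x = 0})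
      (by
        rintro ⟨j, k⟩
        have hcl : IsClosed (Fk j k ∩ {z | g j z = 0}) := by
          have hc : ContinuousOn (g j) (Fk j k) := fun z hz =>
            ((h1 j).2 z (hFW j k hz).1).continuousAt.continuousWithinAt
          exact hc.preimage_isClosed_of_isClosed (hFc j k) isClosed_singleton
        exact hcl.preimage continuous_subtype_val) (by
        ext ⟨x, hx⟩
        simp only [mem_iUnion, mem_ofPred_eq, mem_univ, iff_true]
        obtain ⟨j, hj1, hj2, hj3⟩ := h2 x (hBS hx)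
        have : x ∈ ⋃ k, Fk j k := by rw [hFu j]; exact ⟨hj1, hj3⟩
        obtain ⟨k, hk⟩ := mem_iUnion.1 this
        exact ⟨(j, k), hk, hj2⟩)
    obtain ⟨⟨a, haB⟩, ha⟩ := hjk
    rw [mem_interior_iff_mem_nhds, nhds_subtype_eq_comap, mem_comap] at ha
    obtain ⟨N₀, hN₀, hN₀s⟩ := ha
    -- the open neighbourhood
    have haj : a ∈ Fk j k ∧ g j a = 0 := by
      have h4 : a ∈ N₀ := mem_of_mem_nhds hN₀
      have h3 := hN₀s (a := ⟨a, haB⟩) h4
      exact h3
    have haW : a ∈ {z | z ∈ U' j ∧ fderiv ℂ (g j) z ≠ 0} := hFW j k haj.1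
    obtain ⟨Nb, hNb, Cb, hCb⟩ := hb a haB.1
    obtain ⟨N, hNs, hNo, haN⟩ := _root_.mem_nhds_iff.1 (inter_mem (inter_mem hN₀ hNb)
      (inter_mem ((hWo j).mem_nhds haW) (hU.mem_nhds haB.1)))
    have hNU : N ⊆ U := fun z hz => (hNs hz).2.2
    have hNg : AnalyticOnNhd ℂ (g j) N := fun z hz => (h1 j).2 z (hNs hz).2.1.1
    have hExtNj : N ∩ {z | g j z ≠ 0} ⊆ Ext := by
      intro z hz
      by_contra hzE
      have hzB : z ∈ Bad := ⟨hNU hz.1, hzE⟩
      have := hN₀s (a := ⟨z, hzB⟩) (hNs hz.1).1.1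
      exact hz.2 this.2
    have hfreq : ∀ b ∈ N, ∃ᶠ z in 𝓝 b, g j z ≠ 0 := by
      intro b hb hcon'
      have h3 : ∀ᶠ z in 𝓝 b, g j z = 0 := hcon'.mono (fun w hw => not_not.1 hw)
      have h4 : g j =ᶠ[𝓝 b] fun _ => (0 : ℂ) := h3
      have h5 : fderiv ℂ (g j) b = 0 := by
        rw [h4.fderiv_eq (𝕜 := ℂ)]
        exact fderiv_const_apply (0 : ℂ)
      exact (hNs hb).2.1.2 h5
    obtain ⟨G, hG1, hG2⟩ := riemann_ext (f := F) (D := g j) hNo hNg hfreq
      (fun z hz => (hFd z (hExtNj hz)).differentiableWithinAt) (by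
        intro b hb'
        refine ⟨N, hNo.mem_nhds hb', Cb, ?_⟩
        intro z hz hgz
        have hzE : z ∈ Ext := hExtNj ⟨hz, hgz⟩
        have hc : ContinuousAt F z := (hFd z hzE).continuousAt
        have := hNB z hzE.1
        have h3 : Tendsto (fun w => ‖F w‖) (𝓝[U \ S] z) (𝓝 ‖F z‖) :=
          (hc.norm.tendsto).mono_left nhdsWithin_le_nhds
        refine le_of_tendsto h3 ?_
        filter_upwards [nhdsWithin_le_nhds (hNo.mem_nhds hz), self_mem_nhdsWithin] with w hw hw'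
        rw [hFf w hw']
        exact hCb w ⟨(hNs hw).1.2, hw'⟩)
    -- `G = f` off `S`
    apply haB.2
    refine ⟨haB.1, N, hNo, haN, hNU, G, hG1, ?_⟩
    intro z hz
    have hzN : z ∈ N := hz.1
    have hzU : z ∈ U \ S := ⟨hNU hz.1, hz.2⟩
    have hG : ContinuousAt G z := (hG1.differentiableAt (hNo.mem_nhds hzN)).continuousAt
    have hfc : ContinuousAt f z := (hf.differentiableAt (hUS.mem_nhds hzU)).continuousAt
    have hev : ∀ᶠ w in 𝓝 z, w ∈ N ∩ (U \ S) := inter_mem (hNo.mem_nhds hzN) (hUS.mem_nhds hzU)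
    have hfr : ∃ᶠ w in 𝓝 z, G w = f w := by
      refine ((hfreq z hzN).and_eventually hev).mono ?_
      rintro w ⟨hw1, hw2⟩
      rw [hG2 w hw2.1 hw1, hFf w hw2.2]
    by_contra hne
    have hne' : ∀ᶠ w in 𝓝 z, G w ≠ f w := by
      have := (hG.sub hfc).eventually_ne (sub_ne_zero.2 hne)
      filter_upwards [this] with w hw
      exact sub_ne_zero.1 hw
    obtain ⟨w, hw1, hw2⟩ := (hfr.and_eventually hne').exists
    exact hw2 hw1
  exact ⟨F, fun z hz => (hFd z (hbad hz)).differentiableWithinAt, hFf⟩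

end Crest.Agent.R281.Thn_280
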