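import Crest.Agent.R281.Thn3_280
import Crest.Agent.R281.Thn5_280
import Crest.Agent.R275.Core_144

/-!
Row 281 (S0424), division 6, S6-THIN, atlas glue (helper280): `σ`-thin subsets of a complex
manifold `(M, A)`: `SThM A S`.
-/

set_option autoImplicit false
set_option linter.unusedSectionVars false
set_option linter.unusedVariables false

open Set Filter Topology Metric Module MeasureTheory
open scoped ContDiff ENNReal

noncomputable section

namespace Crest.Agent.R281.ThnM_280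

open Crest.Agent.R275.Geo Crest.Agent.R275.Core144 Crest.Agent.R281.Thn_280

variable {n m : ℕ} {M : Type} [TopologicalSpace M] {A : Atl n M} {S T U : Set M}

/-- `σ`-thin subsets of `(M, A)` -/
def SThM (A : Atl n M) (S : Set M) : Prop :=
  ∀ i, STh {z | z ∈ (A.e i).target ∧ (A.e i).symm z ∈ S}

theorem SThM.mono (h : SThM A T) (hST : S ⊆ T) : SThM A S := fun i =>
  (h i).mono (fun z hz => ⟨hz.1, hST hz.2⟩)

theorem sthM_empty : SThM A (∅ : Set M) := fun i =>
  sth_empty.mono (fun z hz => hz.2)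

theorem sthM_iUnion {κ : Type*} [Countable κ] {E : κ → Set M} (h : ∀ k, SThM A (E k)) :
    SThM A (⋃ k, E k) := by
  intro i
  refine (sth_iUnion (fun k => h k i)).mono ?_
  rintro z ⟨hz, hzE⟩
  obtain ⟨k, hk⟩ := mem_iUnion.1 hzE
  exact mem_iUnion.2 ⟨k, hz, hk⟩

theorem SThM.union (h : SThM A S) (h' : SThM A T) : SThM A (S ∪ T) := by
  intro i
  refine ((h i).union (h' i)).mono ?_
  rintro z ⟨hz, hzE | hzE⟩
  · exact Or.inl ⟨hz, hzE⟩
  · exact Or.inr ⟨hz, hzE⟩

/-- transition maps are submersive -/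
theorem surj_transition (i j : A.ι) {z : Cn n} (hz : z ∈ A.ov i j) :
    Function.Surjective (fderiv ℂ (fun z => A.e j ((A.e i).symm z)) z) := by
  have hoij : IsOpen (A.ov i j) := (A.e i).isOpen_inter_preimage_symm (A.e j).open_source
  have hoji : IsOpen (A.ov j i) := (A.e j).isOpen_inter_preimage_symm (A.e i).open_source
  set w : Cn n := A.e j ((A.e i).symm z) with hw
  have hwm : w ∈ A.ov j i := by
    refine ⟨(A.e j).map_source hz.2, ?_⟩
    rw [hw, (A.e j).left_inv hz.2]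
    exact (A.e i).map_target hz.1
  have h1 : DifferentiableAt ℂ (fun z => A.e j ((A.e i).symm z)) z :=
    (A.holo i j).differentiableAt (hoij.mem_nhds hz)
  have h2 : DifferentiableAt ℂ (fun z => A.e i ((A.e j).symm z)) w :=
    (A.holo j i).differentiableAt (hoji.mem_nhds hwm)
  have hback : (fun z => A.e i ((A.e j).symm z)) w = z := by
    simp only [hw]
    rw [(A.e j).left_inv hz.2, (A.e i).right_inv hz.1]
  have h1' : HasFDerivAt (fun z => A.e j ((A.e i).symm z))
      (fderiv ℂ (fun z => A.e j ((A.e i).symm z)) z) ((fun z => A.e i ((A.e j).symm z)) w) := by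
    rw [hback]; exact h1.hasFDerivAt
  have h3 : HasFDerivAt (fun x => A.e j ((A.e i).symm (A.e i ((A.e j).symm x))))
      ((fderiv ℂ (fun z => A.e j ((A.e i).symm z)) z).comp
        (fderiv ℂ (fun z => A.e i ((A.e j).symm z)) w)) w :=
    HasFDerivAt.comp (g := fun z => A.e j ((A.e i).symm z)) w h1' h2.hasFDerivAt
  have h4 : HasFDerivAt (fun x => A.e j ((A.e i).symm (A.e i ((A.e j).symm x))))
      (ContinuousLinearMap.id ℂ (Cn n)) w := by
    refine (hasFDerivAt_id w).congr_of_eventuallyEq ?_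
    filter_upwards [hoji.mem_nhds hwm] with x hx
    rw [(A.e i).left_inv hx.2, (A.e j).right_inv hx.1]; rfl
  have h5 := h3.unique h4
  intro v
  refine ⟨fderiv ℂ (fun z => A.e i ((A.e j).symm z)) w v, ?_⟩
  have := congrArg (fun L => L v) h5
  simpa using this

/-- `σ`-thinness may be checked locally, in any chart -/
theorem sthM_of_local (h : ∀ x ∈ S, ∃ i, x ∈ (A.e i).source ∧ ∃ N ∈ 𝓝 x,
    STh {z | z ∈ (A.e i).target ∧ (A.e i).symm z ∈ S ∩ N}) : SThM A S := by
  intro j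
  refine sth_of_local (fun z hz => ?_)
  obtain ⟨hzj, hzS⟩ := hz
  obtain ⟨i, hi, N, hN, hS⟩ := h _ hzS
  have hoji : IsOpen (A.ov j i) := (A.e j).isOpen_inter_preimage_symm (A.e i).open_source
  have hzo : z ∈ A.ov j i := ⟨hzj, hi⟩
  have h1 := hS.preimage hoji
    (Crest.Agent.R266.SCV.analyticOnNhd_of_differentiableOn hoji (A.holo j i))
    (fun w hw => surj_transition j i hw)
  have hcont : ContinuousAt (A.e j).symm z := (A.e j).continuousAt_symm hzj
  refine ⟨A.ov j i ∩ (A.e j).symm ⁻¹' N, inter_mem (hoji.mem_nhds hzo)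
    (hcont.preimage_mem_nhds hN), h1.mono ?_⟩
  rintro w ⟨⟨hwj, hwS⟩, hwo, hwN⟩
  refine ⟨hwo, ?_, ?_⟩
  · exact (A.e i).map_source hwo.2
  · rw [(A.e i).left_inv hwo.2]
    exact ⟨hwS, hwN⟩

/-- local zero sets: `S` is locally contained in `{g = 0}` with `g` holomorphic in a chart and
nowhere locally zero -/
theorem sthM_of_zero (h : ∀ x ∈ S, ∃ i, x ∈ (A.e i).source ∧ ∃ N, IsOpen N ∧ x ∈ N ∧
    ∃ g : M → ℂ, HolAt A i N g ∧ (∀ y ∈ N ∩ (A.e i).source, ∃ᶠ w in 𝓝 y, g w ≠ 0) ∧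
      ∀ y ∈ S ∩ N, g y = 0) : SThM A S := by
  refine sthM_of_local (fun x hx => ?_)
  obtain ⟨i, hi, N, hN, hxN, g, hg, hne, hgS⟩ := h x hx
  refine ⟨i, hi, N, hN.mem_nhds hxN, ?_⟩
  have ho : IsOpen ((A.e i).target ∩ (A.e i).symm ⁻¹' N) := (A.e i).isOpen_inter_preimage_symm hN
  refine (sth_zero ho (Crest.Agent.R266.SCV.analyticOnNhd_of_differentiableOn ho hg) ?_).mono ?_
  · rintro z ⟨hz, hzN⟩
    have h1 := hne _ ⟨hzN, (A.e i).map_target hz⟩
    intro hcon
    apply h1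
    have h2 : ContinuousAt (A.e i) ((A.e i).symm z) :=
      (A.e i).continuousAt ((A.e i).map_target hz)
    have h3 : Tendsto (A.e i) (𝓝 ((A.e i).symm z)) (𝓝 z) := by
      have := h2.tendsto
      rwa [(A.e i).right_inv hz] at this
    filter_upwards [h3.eventually hcon, (A.e i).open_source.mem_nhds ((A.e i).map_target hz)]
      with w hw hw2
    rwa [(A.e i).left_inv hw2] at hw
  · rintro z ⟨hz, hzS⟩
    exact ⟨⟨hz, hzS.2⟩, hgS _ hzS⟩

/-- the complement of a `σ`-thin set is dense -/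
theorem SThM.dense_compl (h : SThM A S) : Dense Sᶜ := by
  intro x
  obtain ⟨i, hi⟩ := A.cover x
  rw [mem_closure_iff_nhds]
  intro N hN
  have h1 : (A.e i).target ∩ (A.e i).symm ⁻¹' N ∈ 𝓝 (A.e i x) := by
    refine inter_mem ((A.e i).open_target.mem_nhds ((A.e i).map_source hi)) ?_
    refine ((A.e i).continuousAt_symm ((A.e i).map_source hi)).preimage_mem_nhds ?_
    rwa [(A.e i).left_inv hi]
  obtain ⟨z, hz, hzN⟩ := (h i).dense_compl.inter_nhds_nonempty h1
  refine ⟨(A.e i).symm z, hzN.2, ?_⟩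
  intro hS
  exact hz ⟨hzN.1, hS⟩

/-- **the field `thin` of 664's `LFib`** -/
theorem SThM.thin (h : SThM A S) (i : A.ι) (z : Cn n) :
    Dense {v : Cn n | {c : ℂ | z + c • v ∈ (A.e i).target ∧
      (A.e i).symm (z + c • v) ∈ S}.Countable} :=
  (h i).dense_line z

theorem SThM.thin' {Om : Set M} (h : SThM A Omᶜ) (i : A.ι) (z : Cn n) :
    Dense {v : Cn n | {c : ℂ | z + c • v ∈ (A.e i).target ∧
      (A.e i).symm (z + c • v) ∉ Om}.Countable} :=
  (h i).dense_line z

/-- pull back of a `σ`-thin set under a submersive holomorphic map -/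
theorem sthM_preimage {E : Set (Cn m)} (hE : STh E) {X0 : Set M} (hX0 : IsOpen X0) {y : M → Cn m}
    (hy : ∀ i, DifferentiableOn ℂ (fun z => y ((A.e i).symm z))
      ((A.e i).target ∩ (A.e i).symm ⁻¹' X0))
    (hs : ∀ i, ∀ x ∈ (A.e i).source ∩ X0,
      Function.Surjective (fderiv ℂ (fun z => y ((A.e i).symm z)) (A.e i x))) :
    SThM A {x | x ∈ X0 ∧ y x ∈ E} := by
  intro i
  have ho : IsOpen ((A.e i).target ∩ (A.e i).symm ⁻¹' X0) :=
    (A.e i).isOpen_inter_preimage_symm hX0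
  refine (hE.preimage ho
    (Crest.Agent.R266.SCV.analyticOnNhd_of_differentiableOn ho (hy i)) ?_).mono ?_
  · rintro z ⟨hz, hz0⟩
    have := hs i _ ⟨(A.e i).map_target hz, hz0⟩
    rwa [(A.e i).right_inv hz] at this
  · rintro z ⟨hz, hz0, hzE⟩
    exact ⟨⟨hz, hz0⟩, hzE⟩

/-- critical set of a map `y : M → ℂᵐ` on `X0` (chart independent: `crit_iff`) -/
def Crit (A : Atl n M) (X0 : Set M) (y : M → Cn m) : Set M :=
  {x | x ∈ X0 ∧ ∃ i, x ∈ (A.e i).source ∧
    ¬ Function.Surjective (fderiv ℂ (fun z => y ((A.e i).symm z)) (A.e i x))}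

theorem surj_iff {X0 : Set M} (hX0 : IsOpen X0) {y : M → Cn m}
    (hy : ∀ i, DifferentiableOn ℂ (fun z => y ((A.e i).symm z))
      ((A.e i).target ∩ (A.e i).symm ⁻¹' X0)) {x : M} (hx : x ∈ X0) {i j : A.ι}
    (hi : x ∈ (A.e i).source) (hj : x ∈ (A.e j).source)
    (hs : Function.Surjective (fderiv ℂ (fun z => y ((A.e i).symm z)) (A.e i x))) :
    Function.Surjective (fderiv ℂ (fun z => y ((A.e j).symm z)) (A.e j x)) := by
  have hoji : IsOpen (A.ov i j) := (A.e i).isOpen_inter_preimage_symm (A.e j).open_source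
  have hzo : A.e i x ∈ A.ov i j := ⟨(A.e i).map_source hi, by rwa [(A.e i).left_inv hi]⟩
  have h1 : DifferentiableAt ℂ (fun z => A.e j ((A.e i).symm z)) (A.e i x) :=
    (A.holo i j).differentiableAt (hoji.mem_nhds hzo)
  have hback : (fun z => A.e j ((A.e i).symm z)) (A.e i x) = A.e j x := by
    simp only [(A.e i).left_inv hi]
  have hoj : IsOpen ((A.e j).target ∩ (A.e j).symm ⁻¹' X0) :=
    (A.e j).isOpen_inter_preimage_symm hX0
  have h2 : DifferentiableAt ℂ (fun z => y ((A.e j).symm z)) (A.e j x) := by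
    refine (hy j).differentiableAt (hoj.mem_nhds ⟨(A.e j).map_source hj, ?_⟩)
    change (A.e j).symm (A.e j x) ∈ X0
    rwa [(A.e j).left_inv hj]
  have h2' : HasFDerivAt (fun z => y ((A.e j).symm z))
      (fderiv ℂ (fun z => y ((A.e j).symm z)) (A.e j x))
      ((fun z => A.e j ((A.e i).symm z)) (A.e i x)) := by
    rw [hback]; exact h2.hasFDerivAt
  have h3 : HasFDerivAt (fun z => y ((A.e j).symm (A.e j ((A.e i).symm z))))
      ((fderiv ℂ (fun z => y ((A.e j).symm z)) (A.e j x)).comp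
        (fderiv ℂ (fun z => A.e j ((A.e i).symm z)) (A.e i x))) (A.e i x) :=
    HasFDerivAt.comp (g := fun z => y ((A.e j).symm z)) _ h2' h1.hasFDerivAt
  have h4 : HasFDerivAt (fun z => y ((A.e i).symm z))
      ((fderiv ℂ (fun z => y ((A.e j).symm z)) (A.e j x)).comp
        (fderiv ℂ (fun z => A.e j ((A.e i).symm z)) (A.e i x))) (A.e i x) := by
    refine h3.congr_of_eventuallyEq ?_
    filter_upwards [hoji.mem_nhds hzo] with z hz
    rw [(A.e j).left_inv hz.2]
  rw [h4.fderiv] at hs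
  intro w
  obtain ⟨v, hv⟩ := hs w
  exact ⟨_, hv⟩

/-- not critical: surjective in every chart -/
theorem surj_of_not_crit {X0 : Set M} {y : M → Cn m} {x : M} (hx : x ∈ X0)
    (hc : x ∉ Crit A X0 y) {i : A.ι} (hi : x ∈ (A.e i).source) :
    Function.Surjective (fderiv ℂ (fun z => y ((A.e i).symm z)) (A.e i x)) := by
  by_contra h
  exact hc ⟨hx, i, hi, h⟩

theorem isOpen_regular {X0 : Set M} (hX0 : IsOpen X0) {y : M → Cn m}
    (hy : ∀ i, DifferentiableOn ℂ (fun z => y ((A.e i).symm z))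
      ((A.e i).target ∩ (A.e i).symm ⁻¹' X0)) : IsOpen (X0 \ Crit A X0 y) := by
  rw [isOpen_iff_mem_nhds]
  rintro x ⟨hx, hc⟩
  obtain ⟨i, hi⟩ := A.cover x
  have hs := surj_of_not_crit hx hc hi
  have ho : IsOpen ((A.e i).target ∩ (A.e i).symm ⁻¹' X0) :=
    (A.e i).isOpen_inter_preimage_symm hX0
  have ha := Crest.Agent.R266.SCV.analyticOnNhd_of_differentiableOn ho (hy i)
  have hxm : A.e i x ∈ (A.e i).target ∩ (A.e i).symm ⁻¹' X0 :=
    ⟨(A.e i).map_source hi, by change (A.e i).symm (A.e i x) ∈ X0; rwa [(A.e i).left_inv hi]⟩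
  -- surjectivity is an open condition
  have hc1 : ContinuousAt (fun z => fderiv ℂ (fun z => y ((A.e i).symm z)) z) (A.e i x) :=
    (ha _ hxm).fderiv.continuousAt
  have hop : {L : Cn n →L[ℂ] Cn m | Function.Surjective L} ∈
      𝓝 (fderiv ℂ (fun z => y ((A.e i).symm z)) (A.e i x)) := by
    set L₀ := fderiv ℂ (fun z => y ((A.e i).symm z)) (A.e i x) with hL₀
    obtain ⟨R, hR⟩ := (L₀ : Cn n →ₗ[ℂ] Cn m).exists_rightInverse_of_surjective
      (LinearMap.range_eq_top.2 hs)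
    set R' : Cn m →L[ℂ] Cn n := LinearMap.toContinuousLinearMap R with hR'
    have hcomp : L₀.comp R' = ContinuousLinearMap.id ℂ (Cn m) := by
      ext1 w
      exact LinearMap.congr_fun hR w
    have hcc : ContinuousAt (fun L : Cn n →L[ℂ] Cn m => L.comp R') L₀ := by
      fun_prop
    have hu : {T : Cn m →L[ℂ] Cn m | IsUnit T} ∈ 𝓝 (L₀.comp R') := by
      rw [hcomp]
      exact Units.isOpen.mem_nhds (isUnit_one (M := Cn m →L[ℂ] Cn m))
    filter_upwards [hcc.preimage_mem_nhds hu] with L hL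
    obtain ⟨u, hu'⟩ := hL
    intro w
    refine ⟨R' ((↑u⁻¹ : Cn m →L[ℂ] Cn m) w), ?_⟩
    have h1 : (↑u : Cn m →L[ℂ] Cn m) ((↑u⁻¹ : Cn m →L[ℂ] Cn m) w) = w := by
      rw [← mul_apply_eq_comp, Units.mul_inv]; rfl
    rw [hu'] at h1
    exact h1
  have hev := hc1.preimage_mem_nhds hop
  have hxc : ContinuousAt (A.e i) x := (A.e i).continuousAt hi
  filter_upwards [hxc.preimage_mem_nhds hev, (A.e i).open_source.mem_nhds hi, hX0.mem_nhds hx]
    with w hw hwi hw0
  refine ⟨hw0, ?_⟩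
  rintro ⟨_, j, hj, hns⟩
  exact hns (surj_iff hX0 hy hw0 hwi hj hw)

/-- **analytic Sard on `(M, A)`**: the set of critical values is `σ`-thin -/
theorem sth_critval [LindelofSpace M] {X0 : Set M} (hX0 : IsOpen X0) {y : M → Cn m}
    (hy : ∀ i, DifferentiableOn ℂ (fun z => y ((A.e i).symm z))
      ((A.e i).target ∩ (A.e i).symm ⁻¹' X0)) : STh (y '' Crit A X0 y) := by
  obtain ⟨t, htc, htu⟩ := LindelofSpace.elim_nhds_subcover (X := M)
    (fun x => (A.e (A.cover x).choose).source)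
    (fun x => (A.e _).open_source.mem_nhds (A.cover x).choose_spec)
  have := htc.to_subtype
  refine (sth_iUnion (fun p : t => sard (V := Cn n) (W := Cn m)
    (U := (A.e (A.cover (p : M)).choose).target ∩ (A.e (A.cover (p : M)).choose).symm ⁻¹' X0)
    ((A.e _).isOpen_inter_preimage_symm hX0)
    (Crest.Agent.R266.SCV.analyticOnNhd_of_differentiableOn
      ((A.e _).isOpen_inter_preimage_symm hX0) (hy (A.cover (p : M)).choose)))).mono ?_
  rintro _ ⟨x, ⟨hx0, j, hj, hns⟩, rfl⟩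
  have hxu : x ∈ ⋃ p ∈ t, (A.e (A.cover p).choose).source := by rw [htu]; trivial
  obtain ⟨p, hpt, hxp⟩ := mem_iUnion₂.1 hxu
  refine mem_iUnion.2 ⟨⟨p, hpt⟩, A.e (A.cover p).choose x, ⟨⟨(A.e _).map_source hxp, ?_⟩, ?_⟩, ?_⟩
  · change (A.e (A.cover p).choose).symm (A.e (A.cover p).choose x) ∈ X0
    rwa [(A.e _).left_inv hxp]
  · intro hs
    exact hns (surj_iff hX0 hy hx0 hxp hj hs)
  · simp only [(A.e (A.cover p).choose).left_inv hxp]

/-- **OM-STH**: the points of `X0` whose value is a critical value form a `σ`-thin set, as soon as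
the critical set itself is `σ`-thin -/
theorem sthM_critval [LindelofSpace M] {X0 : Set M} (hX0 : IsOpen X0) {y : M → Cn m}
    (hy : ∀ i, DifferentiableOn ℂ (fun z => y ((A.e i).symm z))
      ((A.e i).target ∩ (A.e i).symm ⁻¹' X0)) (hcrit : SThM A (Crit A X0 y)) :
    SThM A {x | x ∈ X0 ∧ y x ∈ y '' Crit A X0 y} := by
  have hreg := isOpen_regular hX0 hy
  have h1 : SThM A {x | x ∈ X0 \ Crit A X0 y ∧ y x ∈ y '' Crit A X0 y} :=
    sthM_preimage (sth_critval hX0 hy) hreg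
      (fun i => (hy i).mono (fun z hz => ⟨hz.1, hz.2.1⟩))
      (fun i x hx => surj_of_not_crit hx.2.1 hx.2.2 hx.1)
  refine (h1.union hcrit).mono ?_
  rintro x ⟨hx, hxy⟩
  by_cases hc : x ∈ Crit A X0 y
  · exact Or.inr hc
  · exact Or.inl ⟨⟨hx, hc⟩, hxy⟩

end Crest.Agent.R281.ThnM_280
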