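import Crest.Agent.R273.KahI_645
import Crest.Agent.R273.FIb0_597
import Crest.Agent.R273.PB_835
import Crest.Agent.R281.Glob1_484
import Crest.Agent.R281.Defs_273
import Crest.Agent.R281.ThnM_280

/-!
# R281 (S0424), DIV 6 (helper664, plan #6845): carriers

* `Imm B A f`      : `f` has injective differentials (the hypothesis of `KahI_645.pullI`);
* `Fam A d m U`    : a proper holomorphic family `y : V → U ⊆ ℂ^m` of compact connected
  `d`-dimensional manifolds with an immersion `i : V → M`, in adapted charts (the last `m`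
  coordinates are `y`);  `m = 0` : a compact leaf;  `m = 1` : a disc family;  `m = n` : a tube;
* `Fam.kah F K`, `Fam.mu F K` : the pulled back Kaehler metric and its volume measure;
* `fb`             : fibre block of a matrix on `V`; `(fb G).det` is the density of `G_F^d ∧ dLeb(y)`;
* `Fam.Lag F σ`    : the fibres are isotropic;
* `Pol E`          : sets of capacity zero in `ℂ`, by cut-offs;
* `Tube`, `LFib`   : Lagrangian fibrations on an open set, without a base.
-/

set_option autoImplicit false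
set_option linter.unusedSectionVars false

open Set Filter Topology Complex Function MeasureTheory
open scoped ContDiff Matrix ComplexConjugate ComplexOrder

namespace Crest.Agent.R281.S6D_664

open Crest.Agent.R275.Geo Crest.Agent.R275.Core144 Crest.Agent.R275.EDR890
open Crest.Agent.R273.Defs_333 Crest.Agent.R273.Kah_333 Crest.Agent.R273.Hess_333
open Crest.Agent.R273.Map_835 Crest.Agent.R273.KahI_645 Crest.Agent.R273.Vol_333
open Crest.Agent.R273.Vm_333 Crest.Agent.R281.Defs_273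

noncomputable section

variable {N d m n : ℕ} {M : Type} [TopologicalSpace M]

/-- injective differentials (literally the hypothesis of `pullI`) -/
def Imm {T : Type} [TopologicalSpace T] (B : Atl d T) (A : Atl N M) (f : T → M) : Prop :=
  ∀ j i, ∀ y ∈ (B.e j).source, f y ∈ (A.e i).source →
    Injective (fderiv ℂ (rd B A f j i) (B.e j y))

/-- a proper holomorphic family over `U ⊆ ℂ^m` of compact connected `d`-dimensional manifolds
immersed in `M`, in adapted charts -/
structure Fam (A : Atl N M) (d m : ℕ) (U : Set (Cn m)) where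
  V : Type
  [top : TopologicalSpace V]
  [t2 : T2Space V]
  B : Atl (d + m) V
  [cnt : Countable B.ι]
  P : Part B
  i : V → M
  y : V → Cn m
  hol : HolMap B A i
  imm : Imm B A i
  /-- the last `m` coordinates are `y` -/
  last : ∀ k, ∀ v ∈ (B.e k).source, ∀ a, B.e k v (Fin.natAdd d a) = y v a
  mem : ∀ v, y v ∈ U
  proper : ∀ C ⊆ U, IsCompact C → IsCompact (y ⁻¹' C)
  conn : ∀ u ∈ U, IsConnected (y ⁻¹' {u})
  inj : ∀ v w, y v = y w → i v = i w → v = w

attribute [instance] Fam.top Fam.t2 Fam.cnt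

variable {A : Atl N M} {U : Set (Cn m)}

/-- the pulled back Kaehler metric -/
def Fam.kah (F : Fam A d m U) (K : Kah A) : Kah F.B := pullI K F.hol F.imm

/-- the volume measure `det(K_V) dLeb` -/
def Fam.mu (F : Fam A d m U) (K : Kah A) : @Measure F.V (borel F.V) :=
  letI : MeasurableSpace F.V := borel F.V
  haveI : BorelSpace F.V := ⟨rfl⟩
  vm (volK (F.kah K))

/-- the fibre block -/
def fb (G : Matrix (Fin (d + m)) (Fin (d + m)) ℂ) : Matrix (Fin d) (Fin d) ℂ :=
  G.submatrix (Fin.castAdd m) (Fin.castAdd m)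

/-- the base block -/
def bb (G : Matrix (Fin (d + m)) (Fin (d + m)) ℂ) : Matrix (Fin m) (Fin m) ℂ :=
  G.submatrix (Fin.natAdd d) (Fin.natAdd d)

/-- the fibres are isotropic for the holomorphic 2-form `σ` -/
def Fam.Lag (F : Fam A d m U) (σ : H2 A) : Prop :=
  ∀ k i, ∀ v ∈ (F.B.e k).source, F.i v ∈ (A.e i).source →
    fb ((Jp F.B A F.i k i v)ᵀ * σ.s i (F.i v) * Jp F.B A F.i k i v) = 0

/-- `s` has no zero on `i(V)` -/
def Fam.NZ (F : Fam A d m U) (s : A.ι → M → ℂ) : Prop :=
  ∀ v, ∀ i, F.i v ∈ (A.e i).source → s i (F.i v) ≠ 0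

/-- `Δ η` -/
def lapC (η : ℂ → ℝ) (z : ℂ) : ℝ :=
  iteratedFDeriv ℝ 2 η z ![1, 1] + iteratedFDeriv ℝ 2 η z ![Complex.I, Complex.I]

/-- `|∇ η|²` -/
def grC (η : ℂ → ℝ) (z : ℂ) : ℝ := (fderiv ℝ η z 1) ^ 2 + (fderiv ℝ η z Complex.I) ^ 2

/-- sets of capacity zero, by cut-offs -/
def Pol (E : Set ℂ) : Prop :=
  ∀ ε : ℝ, 0 < ε → ∀ W : Set ℂ, IsOpen W → E ⊆ W → ∃ η : ℂ → ℝ, ContDiff ℝ ∞ η ∧
    HasCompactSupport η ∧ tsupport η ⊆ W ∧ (∀ z, 0 ≤ η z ∧ η z ≤ 1) ∧
    (∀ᶠ z in 𝓝ˢ E, η z = 1) ∧ ∫ z, |lapC η z| ≤ ε ∧ ∫ z, grC η z ≤ ε ∧ ∫ z, η z ≤ ε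

/-- a tube: a proper holomorphic submersion `f : W → U` whose fibres are the sets `Tf x` -/
structure Tube (A : Atl N M) (m : ℕ) (Tf : M → Set M) where
  W : Set M
  U : Set (Cn m)
  f : M → Cn m
  oW : IsOpen W
  oU : IsOpen U
  hol : ∀ i, DifferentiableOn ℂ (fun z => f ((A.e i).symm z))
    ((A.e i).target ∩ (A.e i).symm ⁻¹' W)
  sub : ∀ i, ∀ x ∈ (A.e i).source ∩ W,
    Surjective (fderiv ℂ (fun z => f ((A.e i).symm z)) (A.e i x))
  maps : MapsTo f W U
  onto : SurjOn f W U
  proper : ∀ C ⊆ U, IsCompact C → IsCompact (W ∩ f ⁻¹' C)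
  fib : ∀ x ∈ W, Tf x = W ∩ f ⁻¹' {f x}
  conn : ∀ x ∈ W, IsConnected (Tf x)

/-- Lagrangian fibration on the open dense set `Om`, no base; the complement of `Om` is thin -/
structure LFib (A : Atl (2 * n) M) (σ : HSymp A) where
  Om : Set M
  Tf : M → Set M
  op : IsOpen Om
  dns : Dense Om
  cn : IsPreconnected Om
  tube : ∀ x ∈ Om, ∃ τ : Tube A n Tf, x ∈ τ.W ∧ τ.W ⊆ Om ∧
    ∀ i, ∀ x' ∈ (A.e i).source ∩ τ.W, ∀ v w : Cn (2 * n),
      fderiv ℂ (fun z => τ.f ((A.e i).symm z)) (A.e i x') v = 0 →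
      fderiv ℂ (fun z => τ.f ((A.e i).symm z)) (A.e i x') w = 0 →
      ∑ a, ∑ b, v a * σ.s i x' a b * w b = 0
  thin : ∀ i, ∀ z ∈ (A.e i).target, (A.e i).symm z ∈ Om →
    Dense {v : Cn (2 * n) |
      {c : ℂ | z + c • v ∈ (A.e i).target ∧ (A.e i).symm (z + c • v) ∉ Om}.Countable}
  /-- the complement is `σ`-thin (280): null, meets almost every line through EVERY point in a
  countable set, bounded holomorphic functions extend across it; `thin` follows
  (`ThnM_280.SThM.thin'`) -/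
  sth : Crest.Agent.R281.ThnM_280.SThM A Omᶜ

end

end Crest.Agent.R281.S6D_664
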