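import Crest.Agent.R281.Pol3_967
import Crest.Agent.R281.S6D_664

/-!
# R281, DIV 6, (P1) of helper664 #7402 (helper967): calculus of `S6D_664.Pol`

* `lapC_eq`, `grC_eq`, `pol_iff` : `S6D_664.Pol = Pol_967.Pol`
* `pol_countable`     : compact countable sets
* `Pol.union`, `Pol.mono_compact`, `pol_finite`, `Pol.affine`
-/

set_option autoImplicit false

open MeasureTheory Set Filter Topology Metric
open scoped Real ContDiff

noncomputable section
namespace Crest.Agent.R281.Pol_967

open Crest.Agent.R281.Jen_563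
open Crest.Agent.R281.S6D_664 (lapC grC)

theorem lapC_eq {f : ℂ → ℝ} (hf : ContDiff ℝ ∞ f) : lapC f = lap f := by
  funext y
  rw [← lap_eq_laplacian ((hf.of_le two_le).contDiffAt),
    InnerProductSpace.laplacian_eq_iteratedFDeriv_complexPlane]
  rfl

theorem grC_eq (f : ℂ → ℝ) : grC f = gs f := rfl

theorem pol_iff {E : Set ℂ} : S6D_664.Pol E ↔ Pol E := by
  constructor
  · intro h ε hε W hW hE
    obtain ⟨η, h1, h2, h3, h4, h5, h6, h7, h8⟩ := h ε hε W hW hE
    refine ⟨η, h1, h2, h3, fun y => (h4 y).1, fun y => (h4 y).2, h5, ?_, h7, h8⟩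
    rwa [lapC_eq h1] at h6
  · intro h ε hε W hW hE
    obtain ⟨η, h1, h2, h3, h4, h4', h5, h6, h7, h8⟩ := h ε hε W hW hE
    refine ⟨η, h1, h2, h3, fun y => ⟨h4 y, h4' y⟩, h5, ?_, h7, h8⟩
    rwa [lapC_eq h1]

/-- compact countable sets are polar -/
theorem pol_countable {E : Set ℂ} (hE : IsCompact E) (hc : E.Countable) : S6D_664.Pol E :=
  pol_iff.2 (pol_of_countable hE hc)

theorem pol_finite {E : Set ℂ} (hE : E.Finite) : S6D_664.Pol E :=
  pol_countable hE.isCompact hE.countable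

theorem pol_empty : S6D_664.Pol ∅ := pol_finite finite_empty

/-- pointwise bound of the mixed term -/
theorem two_mix_le (f g : ℂ → ℝ) (y : ℂ) {t : ℝ} (ht : 0 < t) :
    |2 * (D 1 f y * D 1 g y + D Complex.I f y * D Complex.I g y)| ≤ t * gs f y + t⁻¹ * gs g y := by
  have key : ∀ a b : ℝ, |2 * (a * b)| ≤ t * a ^ 2 + t⁻¹ * b ^ 2 := by
    intro a b
    have h1 : 0 ≤ t * (|a| - t⁻¹ * |b|) ^ 2 := by positivity
    have h2 : t * (|a| - t⁻¹ * |b|) ^ 2 = t * a ^ 2 + t⁻¹ * b ^ 2 - 2 * (|a| * |b|) := by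
      rw [← sq_abs a, ← sq_abs b]
      field_simp
      ring
    rw [abs_mul, abs_mul, abs_of_pos (show (0 : ℝ) < 2 by norm_num)]
    linarith
  unfold gs
  have h1 := key (D 1 f y) (D 1 g y)
  have h2 := key (D Complex.I f y) (D Complex.I g y)
  have h3 : 2 * (D 1 f y * D 1 g y + D Complex.I f y * D Complex.I g y) =
      2 * (D 1 f y * D 1 g y) + 2 * (D Complex.I f y * D Complex.I g y) := by ring
  rw [h3]
  refine (abs_add_le _ _).trans ?_
  nlinarith

theorem gs_mulAt {f g : ℂ → ℝ} (hf : ContDiff ℝ ∞ f) (hg : ContDiff ℝ ∞ g) (y : ℂ) :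
    gs (fun z => f z * g z) y ≤ 2 * (f y ^ 2 * gs g y) + 2 * (g y ^ 2 * gs f y) := by
  have key : ∀ v, D v (fun z => f z * g z) y ^ 2 ≤
      2 * (f y ^ 2 * D v g y ^ 2) + 2 * (g y ^ 2 * D v f y ^ 2) := by
    intro v
    rw [D_mulAt (hf.differentiable (by simp) y) (hg.differentiable (by simp) y)]
    nlinarith [sq_nonneg (f y * D v g y - D v f y * g y)]
  unfold gs
  have h1 := key 1
  have h2 := key Complex.I
  nlinarith

/-- cut-offs at a compact set -/
theorem exists_cut {E W : Set ℂ} (hE : IsCompact E) (hW : IsOpen W) (h : E ⊆ W) :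
    ∃ χ : ℂ → ℝ, ContDiff ℝ ∞ χ ∧ HasCompactSupport χ ∧ tsupport χ ⊆ W ∧ (∀ y, 0 ≤ χ y) ∧
      (∀ y, χ y ≤ 1) ∧ ∀ᶠ y in 𝓝ˢ E, χ y = 1 := by
  obtain ⟨K, hK, hEK, hKW⟩ := exists_compact_between hE hW h
  obtain ⟨χ, h1, h2, h3⟩ := exists_contMDiffMap_one_nhds_of_subset_interior (n := ⊤)
    (modelWithCornersSelf ℝ ℂ) hE.isClosed hEK
  have ht : tsupport (χ : ℂ → ℝ) ⊆ K := closure_minimal (fun y hy => by
    by_contra h
    exact hy (h2 y h)) hK.isClosed
  exact ⟨χ, χ.contMDiff.contDiff, IsCompact.of_isClosed_subset hK (isClosed_tsupport _) ht,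
    ht.trans hKW, fun y => (h3 y).1, fun y => (h3 y).2, h1⟩

/-- **subsets** (compact) -/
theorem mono_compact' {E E' : Set ℂ} (h : Pol E) (hE' : IsCompact E') (hs : E' ⊆ E) : Pol E' := by
  intro ε hε W hW hEW
  obtain ⟨χ, hχ, hχc, hχt, hχ0, hχ1, hχE⟩ := exists_cut hE' hW hEW
  obtain ⟨A, hA⟩ := (cpt_lap hχc).exists_bound_of_continuous (smooth_lap hχ).continuous
  obtain ⟨B, hB⟩ := (cpt_gs hχc).exists_bound_of_continuous (smooth_gs hχ).continuous
  have hA0 : 0 ≤ A := (norm_nonneg _).trans (hA 0)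
  have hB0 : 0 ≤ B := (norm_nonneg _).trans (hB 0)
  set G : ℝ := ∫ y, gs χ y with hG
  have hG0 : 0 ≤ G := integral_nonneg fun y => gs_nonneg χ y
  set t : ℝ := ε / (2 * (G + 1)) with ht
  have ht0 : 0 < t := by positivity
  have htG : t * G ≤ ε / 2 := by
    rw [ht, div_mul_eq_mul_div, div_le_div_iff₀ (by positivity) (by norm_num)]
    nlinarith
  set C : ℝ := 2 * (3 + t⁻¹ + A + 2 * B) with hC
  have hC0 : 0 < C := by positivity
  set δ : ℝ := ε / C with hδ
  have hδ0 : 0 < δ := by positivity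
  have hCδ : C * δ = ε := by rw [hδ]; field_simp
  have hti : 0 < t⁻¹ := inv_pos.2 ht0
  obtain ⟨η, hη, hηc, -, hη0, hη1, hηE, hηl, hηg, hηi⟩ := h δ hδ0 univ isOpen_univ (subset_univ _)
  have hp : ContDiff ℝ ∞ (fun z => χ z * η z) := hχ.mul hη
  have hpt : tsupport (fun z => χ z * η z) ⊆ tsupport χ := tsupport_mul_subset_left
  have hpc : HasCompactSupport (fun z => χ z * η z) := hχc.mul_right
  have i1 := (int_lap hη hηc).abs
  have i2 := int_gs hχ hχc
  have i3 := int_gs hη hηc
  have i4 := int_f hη hηc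
  refine ⟨fun z => χ z * η z, hp, hpc, hpt.trans hχt, fun y => mul_nonneg (hχ0 y) (hη0 y),
    fun y => mul_le_one₀ (hχ1 y) (hη0 y) (hη1 y), ?_, ?_, ?_, ?_⟩
  · filter_upwards [hχE, hηE.filter_mono (nhdsSet_mono hs)] with y h1 h2
    rw [h1, h2, one_mul]
  · have hpt2 : ∀ y, |lap (fun z => χ z * η z) y| ≤
        |lap η y| + (t * gs χ y + t⁻¹ * gs η y) + A * η y := by
      intro y
      rw [lap_mulAt isOpen_univ hχ.contDiffOn hη.contDiffOn (mem_univ y)]
      refine (abs_add_le _ _).trans (add_le_add ((abs_add_le _ _).trans (add_le_add ?_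
        (two_mix_le χ η y ht0))) ?_)
      · rw [abs_mul, abs_of_nonneg (hχ0 y)]
        exact mul_le_of_le_one_left (abs_nonneg _) (hχ1 y)
      · rw [abs_mul, abs_of_nonneg (hη0 y)]
        exact mul_le_mul_of_nonneg_right (hA y) (hη0 y)
    have j1 : Integrable fun y => t * gs χ y + t⁻¹ * gs η y := (i2.const_mul t).add (i3.const_mul _)
    have j2 : Integrable fun y => |lap η y| + (t * gs χ y + t⁻¹ * gs η y) := i1.add j1
    have j3 : Integrable fun y => |lap η y| + (t * gs χ y + t⁻¹ * gs η y) + A * η y :=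
      j2.add (i4.const_mul A)
    calc ∫ y, |lap (fun z => χ z * η z) y| ≤
        ∫ y, (|lap η y| + (t * gs χ y + t⁻¹ * gs η y) + A * η y) :=
          integral_mono (int_lap hp hpc).abs j3 hpt2
      _ = (∫ y, |lap η y|) + (t * G + t⁻¹ * ∫ y, gs η y) + A * ∫ y, η y := by
          rw [integral_add j2 (i4.const_mul A), integral_add i1 j1,
            integral_add (i2.const_mul t) (i3.const_mul _), integral_const_mul, integral_const_mul,
            integral_const_mul]
      _ ≤ δ + (ε / 2 + t⁻¹ * δ) + A * δ := by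
          have k1 := mul_le_mul_of_nonneg_left hηg hti.le
          have k2 := mul_le_mul_of_nonneg_left hηi hA0
          linarith
      _ ≤ ε := by
          have : C * δ = 2 * (3 * δ + t⁻¹ * δ + A * δ + 2 * (B * δ)) := by rw [hC]; ring
          have k3 : 0 ≤ B * δ := by positivity
          linarith
  · have hpt2 : ∀ y, gs (fun z => χ z * η z) y ≤ 2 * gs η y + 2 * B * η y := by
      intro y
      refine (gs_mulAt hχ hη y).trans (add_le_add ?_ ?_)
      · refine mul_le_mul_of_nonneg_left ?_ (by norm_num)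
        exact mul_le_of_le_one_left (gs_nonneg _ _) (pow_le_one₀ (hχ0 y) (hχ1 y))
      · have k1 : gs χ y ≤ B := (le_abs_self _).trans (hB y)
        have k2 : η y ^ 2 ≤ η y := by nlinarith [hη0 y, hη1 y]
        have k3 : η y ^ 2 * gs χ y ≤ η y * B := mul_le_mul k2 k1 (gs_nonneg _ _) (hη0 y)
        linarith
    calc ∫ y, gs (fun z => χ z * η z) y ≤ ∫ y, (2 * gs η y + 2 * B * η y) :=
          integral_mono (int_gs hp hpc) ((i3.const_mul _).add (i4.const_mul _)) hpt2
      _ = 2 * (∫ y, gs η y) + 2 * B * ∫ y, η y := by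
          rw [integral_add (i3.const_mul _) (i4.const_mul _), integral_const_mul,
            integral_const_mul]
      _ ≤ 2 * δ + 2 * B * δ := by
          have k2 := mul_le_mul_of_nonneg_left hηi (show 0 ≤ 2 * B by positivity)
          linarith
      _ ≤ ε := by
          have : C * δ = 2 * (3 * δ + t⁻¹ * δ + A * δ + 2 * (B * δ)) := by rw [hC]; ring
          have k3 : 0 ≤ B * δ := by positivity
          have k4 : 0 ≤ t⁻¹ * δ := by positivity
          have k5 : 0 ≤ A * δ := by positivity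
          linarith
  · calc ∫ y, χ y * η y ≤ ∫ y, η y :=
          integral_mono (int_f hp hpc) i4 fun y => mul_le_of_le_one_left (hη0 y) (hχ1 y)
      _ ≤ δ := hηi
      _ ≤ ε := by
          have : C * δ = 2 * (3 * δ + t⁻¹ * δ + A * δ + 2 * (B * δ)) := by rw [hC]; ring
          have k3 : 0 ≤ B * δ := by positivity
          have k4 : 0 ≤ t⁻¹ * δ := by positivity
          have k5 : 0 ≤ A * δ := by positivity
          linarith

section oneSub

variable {f : ℂ → ℝ}

theorem D_one_sub (hf : ContDiff ℝ ∞ f) (v : ℂ) : D v (fun z => 1 - f z) = fun z => -D v f z := by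
  funext y
  unfold D
  have h : HasFDerivAt (fun z => 1 - f z) (-fderiv ℝ f y) y :=
    (hf.differentiable (by simp) y).hasFDerivAt.const_sub 1
  rw [h.fderiv]
  simp

theorem lap_one_sub (hf : ContDiff ℝ ∞ f) (y : ℂ) : lap (fun z => 1 - f z) y = -lap f y := by
  unfold lap
  have key : ∀ v, D v (D v (fun z => 1 - f z)) y = -D v (D v f) y := by
    intro v
    rw [D_one_sub hf]
    have h : HasFDerivAt (fun z => -D v f z) (-fderiv ℝ (D v f) y) y :=
      ((smooth_D hf v).differentiable (by simp) y).hasFDerivAt.neg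
    show fderiv ℝ (fun z => -D v f z) y v = -fderiv ℝ (D v f) y v
    rw [h.fderiv]
    simp
  rw [key, key]
  ring

theorem gs_one_sub (hf : ContDiff ℝ ∞ f) (y : ℂ) : gs (fun z => 1 - f z) y = gs f y := by
  unfold gs
  rw [D_one_sub hf, D_one_sub hf]
  ring

end oneSub

/-- **unions** -/
theorem union' {E₁ E₂ : Set ℂ} (h₁ : Pol E₁) (h₂ : Pol E₂) : Pol (E₁ ∪ E₂) := by
  intro ε hε W hW hEW
  obtain ⟨f, hf, hfc, hft, hf0, hf1, hfE, hfl, hfg, hfi⟩ := h₁ (ε / 4) (by positivity) W hW
    (subset_union_left.trans hEW)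
  obtain ⟨g, hg, hgc, hgt, hg0, hg1, hgE, hgl, hgg, hgi⟩ := h₂ (ε / 4) (by positivity) W hW
    (subset_union_right.trans hEW)
  have hf' : ContDiff ℝ ∞ (fun z => 1 - f z) := contDiff_const.sub hf
  have hg' : ContDiff ℝ ∞ (fun z => 1 - g z) := contDiff_const.sub hg
  have hm : ContDiff ℝ ∞ (fun z => (1 - f z) * (1 - g z)) := hf'.mul hg'
  set η : ℂ → ℝ := fun z => 1 - (1 - f z) * (1 - g z) with hη
  have hηs : ContDiff ℝ ∞ η := contDiff_const.sub hm
  have hηt : tsupport η ⊆ tsupport f ∪ tsupport g := by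
    refine closure_minimal (fun y hy => ?_) ((isClosed_tsupport _).union (isClosed_tsupport _))
    by_contra h
    rw [mem_union, not_or] at h
    refine hy ?_
    simp only [hη, image_eq_zero_of_notMem_tsupport h.1, image_eq_zero_of_notMem_tsupport h.2]
    norm_num
  have hηc : HasCompactSupport η :=
    IsCompact.of_isClosed_subset (hfc.isCompact.union hgc.isCompact) (isClosed_tsupport _) hηt
  have i1 := (int_lap hf hfc).abs
  have i2 := (int_lap hg hgc).abs
  have i3 := int_gs hf hfc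
  have i4 := int_gs hg hgc
  have i5 := int_f hf hfc
  have i6 := int_f hg hgc
  refine ⟨η, hηs, hηc, hηt.trans (union_subset hft hgt), fun y => ?_, fun y => ?_, ?_, ?_, ?_, ?_⟩
  · have := mul_le_one₀ (a := 1 - f y) (b := 1 - g y) (by linarith [hf0 y]) (by linarith [hg1 y])
      (by linarith [hg0 y])
    simp only [hη]
    linarith
  · have := mul_nonneg (a := 1 - f y) (b := 1 - g y) (by linarith [hf1 y]) (by linarith [hg1 y])
    simp only [hη]
    linarith
  · rw [nhdsSet_union, eventually_sup]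
    constructor
    · filter_upwards [hfE] with y hy
      simp [hη, hy]
    · filter_upwards [hgE] with y hy
      simp [hη, hy]
  · have hpt : ∀ y, |lap η y| ≤ (|lap f y| + |lap g y|) + (gs f y + gs g y) := by
      intro y
      rw [hη, lap_one_sub hm, abs_neg,
        lap_mulAt isOpen_univ hf'.contDiffOn hg'.contDiffOn (mem_univ y), lap_one_sub hf,
        lap_one_sub hg]
      have k0 := two_mix_le (fun z => 1 - f z) (fun z => 1 - g z) y one_pos
      rw [gs_one_sub hf, gs_one_sub hg] at k0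
      have a1 : |(1 - f y) * -lap g y| ≤ |lap g y| := by
        rw [abs_mul, abs_neg, abs_of_nonneg (by linarith [hf1 y])]
        exact mul_le_of_le_one_left (abs_nonneg _) (by linarith [hf0 y])
      have a2 : |-lap f y * (1 - g y)| ≤ |lap f y| := by
        rw [abs_mul, abs_neg, abs_of_nonneg (show 0 ≤ 1 - g y by linarith [hg1 y])]
        exact mul_le_of_le_one_right (abs_nonneg _) (by linarith [hg0 y])
      refine (abs_add_le _ _).trans ?_
      have := abs_add_le ((1 - f y) * -lap g y) (2 * (D 1 (fun z => 1 - f z) y *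
        D 1 (fun z => 1 - g z) y + D Complex.I (fun z => 1 - f z) y * D Complex.I (fun z => 1 - g z) y))
      simp only [inv_one, one_mul] at k0
      linarith
    have j1 : Integrable fun y => |lap f y| + |lap g y| := i1.add i2
    have j2 : Integrable fun y => gs f y + gs g y := i3.add i4
    calc ∫ y, |lap η y| ≤ ∫ y, ((|lap f y| + |lap g y|) + (gs f y + gs g y)) :=
          integral_mono (int_lap hηs hηc).abs (j1.add j2) hpt
      _ = ((∫ y, |lap f y|) + ∫ y, |lap g y|) + ((∫ y, gs f y) + ∫ y, gs g y) := by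
          rw [integral_add j1 j2, integral_add i1 i2, integral_add i3 i4]
      _ ≤ ε := by linarith
  · have hpt : ∀ y, gs η y ≤ 2 * gs g y + 2 * gs f y := by
      intro y
      rw [hη, gs_one_sub hm]
      refine (gs_mulAt hf' hg' y).trans ?_
      rw [gs_one_sub hf, gs_one_sub hg]
      have a1 : (1 - f y) ^ 2 * gs g y ≤ gs g y :=
        mul_le_of_le_one_left (gs_nonneg _ _) (pow_le_one₀ (by linarith [hf1 y]) (by linarith [hf0 y]))
      have a2 : (1 - g y) ^ 2 * gs f y ≤ gs f y :=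
        mul_le_of_le_one_left (gs_nonneg _ _) (pow_le_one₀ (by linarith [hg1 y]) (by linarith [hg0 y]))
      linarith
    calc ∫ y, gs η y ≤ ∫ y, (2 * gs g y + 2 * gs f y) :=
          integral_mono (int_gs hηs hηc) ((i4.const_mul 2).add (i3.const_mul 2)) hpt
      _ = 2 * (∫ y, gs g y) + 2 * ∫ y, gs f y := by
          rw [integral_add (i4.const_mul 2) (i3.const_mul 2), integral_const_mul,
            integral_const_mul]
      _ ≤ ε := by linarith
  · calc ∫ y, η y ≤ ∫ y, (f y + g y) := by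
          refine integral_mono (int_f hηs hηc) (i5.add i6) fun y => ?_
          simp only [hη]
          nlinarith [mul_nonneg (hf0 y) (hg0 y)]
      _ = (∫ y, f y) + ∫ y, g y := integral_add i5 i6
      _ ≤ ε := by linarith

section affine

variable {f : ℂ → ℝ}

/-- change of variables -/
theorem int_aff (g : ℂ → ℝ) {c : ℂ} (hc : c ≠ 0) (b : ℂ) :
    ∫ w, g (c * (w - b)) = (‖c‖ ^ 2)⁻¹ * ∫ w, g w := by
  rw [integral_sub_right_eq_self (fun w => g (c * w)) b]
  have hn : (0 : ℝ) < ‖c‖ := norm_pos_iff.2 hc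
  have hu : ‖c / (‖c‖ : ℂ)‖ = 1 := by
    rw [norm_div, Complex.norm_real, norm_norm, div_self hn.ne']
  have hne : (‖c‖ : ℂ) ≠ 0 := by exact_mod_cast hn.ne'
  obtain ⟨u, hu'⟩ : ∃ u : Circle, (u : ℂ) = c / (‖c‖ : ℂ) :=
    ⟨⟨c / (‖c‖ : ℂ), mem_sphere_zero_iff_norm.2 hu⟩, rfl⟩
  have h1 : ∀ w : ℂ, g (c * w) = g (‖c‖ • rotation u w) := by
    intro w
    have : (‖c‖ • rotation u w : ℂ) = c * w := by
      rw [rotation_apply, hu', Complex.real_smul]
      field_simp
    rw [this]
  have h2 : ∫ w, g (c * w) = ∫ w, g (‖c‖ • rotation u w) := by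
    congr 1
    funext w
    exact h1 w
  have h3 := (rotation u).measurePreserving.integral_comp
    (rotation u).toHomeomorph.measurableEmbedding (fun z => g (‖c‖ • z))
  rw [h2, h3, Measure.integral_comp_smul, Complex.finrank_real_complex,
    abs_of_nonneg (by positivity)]
  rfl

theorem D_aff (hf : ContDiff ℝ ∞ f) (c b v : ℂ) :
    D v (fun w => f (c * (w - b))) = fun w => D (c * v) f (c * (w - b)) := by
  funext w
  unfold D
  have h1 : HasFDerivAt (fun w : ℂ => c * (w - b)) (c • ContinuousLinearMap.id ℝ ℂ) w := by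
    have := ((hasFDerivAt_id (𝕜 := ℝ) w).sub_const b).const_mul c
    exact this
  have h2 : HasFDerivAt (fun w => f (c * (w - b)))
      ((fderiv ℝ f (c * (w - b))).comp (c • ContinuousLinearMap.id ℝ ℂ)) w :=
    (hf.differentiable (by simp) _).hasFDerivAt.comp w h1
  rw [h2.fderiv]
  simp

theorem D_lin (v : ℂ) (y : ℂ) (f : ℂ → ℝ) : D v f y = v.re * D 1 f y + v.im * D Complex.I f y := by
  unfold D
  conv_lhs => rw [← Complex.re_add_im v]
  rw [map_add]
  have h1 : ((v.re : ℝ) : ℂ) = v.re • (1 : ℂ) := by simp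
  have h2 : ((v.im : ℝ) : ℂ) * Complex.I = v.im • Complex.I := by simp
  rw [h1, h2, map_smul, map_smul, smul_eq_mul, smul_eq_mul]

theorem DD_comm (hf : ContDiff ℝ ∞ f) (y : ℂ) : D 1 (D Complex.I f) y = D Complex.I (D 1 f) y := by
  have hd : Differentiable ℝ (fderiv ℝ f) :=
    (hf.fderiv_right (m := ∞) (by simp)).differentiable (by simp)
  have key : ∀ v w : ℂ, D w (D v f) y = fderiv ℝ (fderiv ℝ f) y w v := by
    intro v w
    have h2 : HasFDerivAt (fun z => fderiv ℝ f z v)
        ((ContinuousLinearMap.apply ℝ ℝ v).comp (fderiv ℝ (fderiv ℝ f) y)) y :=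
      (ContinuousLinearMap.apply ℝ ℝ v).hasFDerivAt.comp y (hd y).hasFDerivAt
    show fderiv ℝ (fun z => fderiv ℝ f z v) y w = _
    rw [h2.fderiv]
    rfl
  rw [key, key]
  have hs : IsSymmSndFDerivAt ℝ f y :=
    (hf.contDiffAt).isSymmSndFDerivAt (by simpa using two_le)
  exact hs _ _

theorem smooth_aff (hf : ContDiff ℝ ∞ f) (c b : ℂ) : ContDiff ℝ ∞ fun w => f (c * (w - b)) :=
  hf.comp (contDiff_const.mul (contDiff_id.sub contDiff_const))

theorem lap_aff (hf : ContDiff ℝ ∞ f) (c b w : ℂ) :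
    lap (fun w => f (c * (w - b))) w = ‖c‖ ^ 2 * lap f (c * (w - b)) := by
  have key : ∀ v : ℂ, D v (D v (fun w => f (c * (w - b)))) w =
      D (c * v) (D (c * v) f) (c * (w - b)) := by
    intro v
    rw [D_aff hf, D_aff (smooth_D hf _)]
  have sq : ∀ v y : ℂ, D v (D v f) y = v.re ^ 2 * D 1 (D 1 f) y +
      2 * (v.re * v.im) * D Complex.I (D 1 f) y + v.im ^ 2 * D Complex.I (D Complex.I f) y := by
    intro v y
    have e : D v f = fun z => v.re * D 1 f z + v.im * D Complex.I f z := by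
      funext z; exact D_lin v z f
    have d1 := (smooth_D hf 1).differentiable (by simp) y
    have d2 := (smooth_D hf Complex.I).differentiable (by simp) y
    rw [D_lin v y (D v f), e, D_addAt (d1.const_mul _) (d2.const_mul _),
      D_addAt (d1.const_mul _) (d2.const_mul _), D_const_mul _ d1, D_const_mul _ d2,
      D_const_mul _ d1, D_const_mul _ d2, DD_comm hf]
    ring
  unfold lap
  rw [key, key, sq (c * 1), sq (c * Complex.I), Complex.sq_norm, Complex.normSq_apply]
  simp only [mul_one, Complex.mul_re, Complex.mul_im, Complex.I_re, Complex.I_im, mul_zero,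
    zero_sub, add_zero]
  ring

theorem gs_aff (hf : ContDiff ℝ ∞ f) (c b w : ℂ) :
    gs (fun w => f (c * (w - b))) w = ‖c‖ ^ 2 * gs f (c * (w - b)) := by
  unfold gs
  rw [D_aff hf, D_aff hf]
  simp only
  rw [D_lin (c * 1), D_lin (c * Complex.I), Complex.sq_norm, Complex.normSq_apply]
  simp only [mul_one, Complex.mul_re, Complex.mul_im, Complex.I_re, Complex.I_im, mul_zero,
    zero_sub, add_zero]
  ring

/-- **affine images** -/
theorem affine' {E : Set ℂ} (h : Pol E) {a : ℂ} (ha : a ≠ 0) (b : ℂ) :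
    Pol ((fun z => a * z + b) '' E) := by
  intro ε hε W hW hEW
  have hcont : Continuous fun z : ℂ => a * z + b := by fun_prop
  have hn : 0 < ‖a‖ := norm_pos_iff.2 ha
  set δ : ℝ := ε / (1 + ‖a‖ ^ 2) with hδ
  have hδ0 : 0 < δ := by positivity
  have hδε : δ ≤ ε := div_le_self hε.le (by nlinarith [sq_nonneg ‖a‖])
  have hδ2 : ‖a‖ ^ 2 * δ ≤ ε := by
    rw [hδ, mul_div_assoc', div_le_iff₀ (by positivity)]
    nlinarith [sq_nonneg ‖a‖]
  obtain ⟨η, hη, hηc, hηt, hη0, hη1, hηE, hηl, hηg, hηi⟩ := h δ hδ0 ((fun z => a * z + b) ⁻¹' W)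
    (hW.preimage hcont) (fun z hz => hEW ⟨z, hz, rfl⟩)
  have hc : a⁻¹ ≠ 0 := inv_ne_zero ha
  have hinv : ∀ z : ℂ, a⁻¹ * ((a * z + b) - b) = z := fun z => by field_simp; ring
  have hinv2 : ∀ w : ℂ, a * (a⁻¹ * (w - b)) + b = w := fun w => by field_simp; ring
  have hci : Continuous fun w : ℂ => a⁻¹ * (w - b) := by fun_prop
  have hts : tsupport (fun w => η (a⁻¹ * (w - b))) ⊆ (fun z => a * z + b) '' tsupport η := by
    refine closure_minimal (fun w hw => ?_) ((hηc.isCompact.image hcont).isClosed)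
    exact ⟨a⁻¹ * (w - b), subset_tsupport _ hw, hinv2 w⟩
  have hsm := smooth_aff hη a⁻¹ b
  have hcs : HasCompactSupport (fun w => η (a⁻¹ * (w - b))) :=
    IsCompact.of_isClosed_subset (hηc.isCompact.image hcont) (isClosed_tsupport _) hts
  have hnn : (‖a⁻¹‖ ^ 2)⁻¹ = ‖a‖ ^ 2 := by rw [norm_inv]; field_simp
  refine ⟨fun w => η (a⁻¹ * (w - b)), hsm, hcs, ?_, fun w => hη0 _, fun w => hη1 _, ?_, ?_, ?_, ?_⟩
  · rintro w hw
    obtain ⟨z, hz, rfl⟩ := hts hw
    exact hηt hz
  · rw [eventually_nhdsSet_iff_forall] at hηE ⊢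
    rintro _ ⟨z, hz, rfl⟩
    have h1 := hηE z hz
    have h2 : Tendsto (fun w : ℂ => a⁻¹ * (w - b)) (𝓝 (a * z + b)) (𝓝 z) := by
      have := hci.tendsto (a * z + b)
      rwa [hinv] at this
    exact h2.eventually h1
  · have e : ∀ w, |lap (fun w => η (a⁻¹ * (w - b))) w| =
        (fun z => ‖a⁻¹‖ ^ 2 * |lap η z|) (a⁻¹ * (w - b)) := by
      intro w
      rw [lap_aff hη, abs_mul, abs_of_nonneg (by positivity)]
    simp only [e]
    rw [int_aff (fun z => ‖a⁻¹‖ ^ 2 * |lap η z|) hc b, integral_const_mul, ← mul_assoc,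
      inv_mul_cancel₀ (by positivity), one_mul]
    exact hηl.trans hδε
  · have e : ∀ w, gs (fun w => η (a⁻¹ * (w - b))) w =
        (fun z => ‖a⁻¹‖ ^ 2 * gs η z) (a⁻¹ * (w - b)) := by
      intro w
      rw [gs_aff hη]
    simp only [e]
    rw [int_aff (fun z => ‖a⁻¹‖ ^ 2 * gs η z) hc b, integral_const_mul, ← mul_assoc,
      inv_mul_cancel₀ (by positivity), one_mul]
    exact hηg.trans hδε
  · rw [int_aff η hc b, hnn]
    exact (mul_le_mul_of_nonneg_left hηi (by positivity)).trans hδ2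

end affine

end Crest.Agent.R281.Pol_967

namespace Crest.Agent.R281.S6D_664

open Set

theorem Pol.of_countable {E : Set ℂ} (hE : IsCompact E) (hc : E.Countable) : Pol E :=
  Pol_967.pol_countable hE hc

theorem Pol.of_finite {E : Set ℂ} (hE : E.Finite) : Pol E := Pol_967.pol_finite hE

theorem Pol.mono_compact {E E' : Set ℂ} (h : Pol E) (hE' : IsCompact E') (hs : E' ⊆ E) : Pol E' :=
  Pol_967.pol_iff.2 (Pol_967.mono_compact' (Pol_967.pol_iff.1 h) hE' hs)

theorem Pol.union {E₁ E₂ : Set ℂ} (h₁ : Pol E₁) (h₂ : Pol E₂) : Pol (E₁ ∪ E₂) :=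
  Pol_967.pol_iff.2 (Pol_967.union' (Pol_967.pol_iff.1 h₁) (Pol_967.pol_iff.1 h₂))

theorem Pol.biUnion {ι : Type*} (F : Finset ι) {E : ι → Set ℂ} (h : ∀ i ∈ F, Pol (E i)) :
    Pol (⋃ i ∈ F, E i) := by
  classical
  induction F using Finset.induction_on with
  | empty => simpa using Pol.of_finite finite_empty
  | insert i F hi ih =>
    rw [Finset.set_biUnion_insert]
    exact (h i (Finset.mem_insert_self _ _)).union
      (ih fun j hj => h j (Finset.mem_insert_of_mem hj))

theorem Pol.affine {E : Set ℂ} (h : Pol E) {a : ℂ} (ha : a ≠ 0) (b : ℂ) :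
    Pol ((fun z => a * z + b) '' E) :=
  Pol_967.pol_iff.2 (Pol_967.affine' (Pol_967.pol_iff.1 h) ha b)

end Crest.Agent.R281.S6D_664
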