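import Crest.Agent.R281.Jen4_563
import Crest.Agent.R281.Pol4_967

/-!
# R281, DIV 6 (helper967): Jensen's inequality with a polar exceptional set (helper166 #7863)

The statements of `Jen3_563`, `Jen4_563` with the finite set of punctures replaced by a set `E` with
`IsOpen (U \ E)` and `PolOn E U : ∀ K ⊆ U, IsCompact K → Pol (E ∩ K)`; `polOn_countable`: countable sets.
-/

set_option autoImplicit false

open MeasureTheory Set Filter Topology Metric
open scoped ENNReal Real ContDiff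

noncomputable section
namespace Crest.Agent.R281.JenE_967

open Crest.Agent.R281.Jen_563 hiding tsupport_lap D_congr lap_congr lap_comp
open Crest.Agent.R281.Pol_967 (Pol gs gs_nonneg two_le pol_of_countable two_mix_le int_gs int_lap)

/-- `E` is polar in `U` (exhaustion by compact sets) -/
def PolOn (E U : Set ℂ) : Prop := ∀ K ⊆ U, IsCompact K → Pol (E ∩ K)

theorem isCompact_inter {E U K : Set ℂ} (hV : IsOpen (U \ E)) (hKU : K ⊆ U) (hK : IsCompact K) :
    IsCompact (E ∩ K) := by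
  have h : E ∩ K = K ∩ (U \ E)ᶜ := by
    ext y
    simp only [mem_inter_iff, mem_compl_iff, Set.mem_sdiff, not_and, not_not]
    exact ⟨fun h => ⟨h.2, fun _ => h.1⟩, fun h => ⟨h.2 (hKU h.1), h.1⟩⟩
  rw [h]
  exact hK.inter_right hV.isClosed_compl

theorem polOn_countable {E U : Set ℂ} (hE : E.Countable) (hV : IsOpen (U \ E)) : PolOn E U :=
  fun _ hK hKc => pol_of_countable (isCompact_inter hV hK hKc) (hE.mono inter_subset_left)

theorem polOn_of_S6 {E U : Set ℂ} (h : ∀ K ⊆ U, IsCompact K → S6D_664.Pol (E ∩ K)) : PolOn E U :=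
  fun K hK hKc => Pol_967.pol_iff.1 (h K hK hKc)

/-- **Green's inequality with a polar exceptional set.** -/
theorem punctE {U E : Set ℂ} (hV : IsOpen (U \ E)) (hE : PolOn E U) {G : ℂ → ℝ} {M : ℝ}
    (hG : ContDiffOn ℝ 2 G (U \ E)) (hM : ∀ y ∈ U \ E, |G y| ≤ M)
    (hpos : ∀ y ∈ U \ E, 0 ≤ lap G y) {φ : ℂ → ℝ} (hφ : ContDiff ℝ 2 φ) (hc : HasCompactSupport φ)
    (hs : tsupport φ ⊆ U) (hφ0 : ∀ y, 0 ≤ φ y) :
    ∫⁻ y in U \ E, ENNReal.ofReal (lap G y * φ y)
      ≤ ENNReal.ofReal M * ∫⁻ y, ENNReal.ofReal |lap φ y| := by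
  set V : Set ℂ := U \ E with hVdef
  have hVm : MeasurableSet V := hV.measurableSet
  have hKc : IsCompact (E ∩ tsupport φ) := isCompact_inter hV hs hc
  choose η es ec et e0 e1 en el eg ei using fun n : ℕ => hE (tsupport φ) hs hc
    (1 / ((n : ℝ) + 1) ^ 2) (by positivity) (thickening (1 / ((n : ℝ) + 1)) (E ∩ tsupport φ))
    isOpen_thickening (self_subset_thickening (by positivity) _)
  set χ : ℕ → ℂ → ℝ := fun n z => 1 - η n z with hχ
  have cs : ∀ n, ContDiff ℝ ∞ (χ n) := fun n => contDiff_const.sub (es n)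
  have cb : ∀ n y, 0 ≤ χ n y ∧ χ n y ≤ 1 := fun n y =>
    ⟨by simp only [hχ]; linarith [e1 n y], by simp only [hχ]; linarith [e0 n y]⟩
  have cz : ∀ n, ∀ y ∈ E ∩ tsupport φ, ∀ᶠ z in 𝓝 y, χ n z = 0 := fun n y hy => by
    filter_upwards [(eventually_nhdsSet_iff_forall.1 (en n)) y hy] with z hz
    simp [hχ, hz]
  have cs2 : ∀ n, ContDiff ℝ 2 (χ n) := fun n => (cs n).of_le two_le
  -- the test functions
  set ψ : ℕ → ℂ → ℝ := fun n y => φ y * χ n y with hψ
  have ψs : ∀ n, ContDiff ℝ 2 (ψ n) := fun n => hφ.mul (cs2 n)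
  have ψt : ∀ n, tsupport (ψ n) ⊆ tsupport φ := fun n => closure_mono fun y hy => by
    simp only [hψ, Function.mem_support, ne_eq] at hy ⊢
    intro h0; exact hy (by simp [h0])
  have ψc : ∀ n, HasCompactSupport (ψ n) := fun n =>
    IsCompact.of_isClosed_subset hc (isClosed_tsupport _) (ψt n)
  have ψV : ∀ n, tsupport (ψ n) ⊆ V := by
    intro n y hy
    refine ⟨hs (ψt n hy), fun hyF => ?_⟩
    have : ψ n =ᶠ[𝓝 y] 0 := by
      filter_upwards [cz n y ⟨hyF, ψt n hy⟩] with z hz
      simp [hψ, hz]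
    exact notMem_tsupport_iff_eventuallyEq.2 this hy
  have ψ0 : ∀ n y, 0 ≤ ψ n y := fun n y => mul_nonneg (hφ0 y) (cb n y).1
  -- bounds for φ
  obtain ⟨B0, hB0, hB0'⟩ := bdd_of_compact hφ.continuous hc
  set Q : ℝ := ∫ y, gs φ y with hQ
  have hgsφ : Integrable (gs φ) := by
    have hcont : Continuous (gs φ) :=
      ((D_continuous hφ 1).pow 2).add ((D_continuous hφ Complex.I).pow 2)
    refine hcont.integrable_of_hasCompactSupport (IsCompact.of_isClosed_subset hc
      (isClosed_tsupport _) Pol_967.tsupport_gs)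
  have hQ0 : 0 ≤ Q := integral_nonneg fun y => gs_nonneg φ y
  set L : ℝ≥0∞ := ∫⁻ y, ENNReal.ofReal |lap φ y| with hL
  -- the bound for ψ n
  have lapψ : ∀ n, ∫⁻ y, ENNReal.ofReal |lap (ψ n) y|
      ≤ L + ENNReal.ofReal ((B0 + Q + 1) * (1 / ((n : ℝ) + 1))) := by
    intro n
    have hn : (0 : ℝ) < (n : ℝ) + 1 := by positivity
    have m3 : Measurable (lap φ) := (lap_continuous hφ).measurable
    have hpt : ∀ y, |lap (ψ n) y| ≤ |lap φ y| + (B0 * |lap (η n) y|
        + (1 / ((n : ℝ) + 1) * gs φ y + ((n : ℝ) + 1) * gs (η n) y)) := by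
      intro y
      have e := lap_mul (f := φ) (g := χ n) (y := y) hφ.contDiffAt (cs2 n).contDiffAt
      simp only [hψ]
      rw [e]
      have el' : lap (χ n) y = -lap (η n) y := Pol_967.lap_one_sub (es n) y
      have a1 : |φ y * lap (χ n) y| ≤ B0 * |lap (η n) y| := by
        rw [el', abs_mul, abs_neg]; exact mul_le_mul_of_nonneg_right (hB0' y) (abs_nonneg _)
      have a2 : |χ n y * lap φ y| ≤ |lap φ y| := by
        rw [abs_mul, abs_of_nonneg (cb n y).1]
        exact mul_le_of_le_one_left (abs_nonneg _) (cb n y).2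
      have a3 := two_mix_le φ (χ n) y (t := 1 / ((n : ℝ) + 1)) (by positivity)
      have a4 : gs (χ n) y = gs (η n) y := Pol_967.gs_one_sub (es n) y
      rw [a4, one_div, inv_inv] at a3
      have t1 := abs_add_le (φ y * lap (χ n) y + χ n y * lap φ y)
        (2 * (D 1 φ y * D 1 (χ n) y + D Complex.I φ y * D Complex.I (χ n) y))
      have t2 := abs_add_le (φ y * lap (χ n) y) (χ n y * lap φ y)
      rw [one_div]
      linarith
    have i1 : Integrable fun y => B0 * |lap (η n) y| := (int_lap (es n) (ec n)).abs.const_mul _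
    have i2 : Integrable fun y => 1 / ((n : ℝ) + 1) * gs φ y := hgsφ.const_mul _
    have i3 : Integrable fun y => ((n : ℝ) + 1) * gs (η n) y := (int_gs (es n) (ec n)).const_mul _
    have i23 : Integrable fun y => 1 / ((n : ℝ) + 1) * gs φ y + ((n : ℝ) + 1) * gs (η n) y :=
      i2.add i3
    have i123 : Integrable fun y => B0 * |lap (η n) y|
        + (1 / ((n : ℝ) + 1) * gs φ y + ((n : ℝ) + 1) * gs (η n) y) := i1.add i23
    have hnn : ∀ y, 0 ≤ B0 * |lap (η n) y|
        + (1 / ((n : ℝ) + 1) * gs φ y + ((n : ℝ) + 1) * gs (η n) y) := fun y => by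
      have := gs_nonneg φ y
      have := gs_nonneg (η n) y
      positivity
    have hval : ∫ y, (B0 * |lap (η n) y|
        + (1 / ((n : ℝ) + 1) * gs φ y + ((n : ℝ) + 1) * gs (η n) y)) ≤
        (B0 + Q + 1) * (1 / ((n : ℝ) + 1)) := by
      rw [integral_add i1 i23, integral_add i2 i3, integral_const_mul, integral_const_mul,
        integral_const_mul]
      have hsq : 1 / ((n : ℝ) + 1) ^ 2 ≤ 1 / ((n : ℝ) + 1) := by
        apply one_div_le_one_div_of_le hn
        nlinarith [hn, (Nat.cast_nonneg n : (0 : ℝ) ≤ n)]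
      have k1 : B0 * ∫ y, |lap (η n) y| ≤ B0 * (1 / ((n : ℝ) + 1)) :=
        mul_le_mul_of_nonneg_left ((el n).trans hsq) hB0
      have k2 : ((n : ℝ) + 1) * ∫ y, gs (η n) y ≤ ((n : ℝ) + 1) * (1 / ((n : ℝ) + 1) ^ 2) :=
        mul_le_mul_of_nonneg_left (eg n) hn.le
      have k3 : ((n : ℝ) + 1) * (1 / ((n : ℝ) + 1) ^ 2) = 1 / ((n : ℝ) + 1) := by field_simp
      rw [k3] at k2
      have k4 : (B0 + Q + 1) * (1 / ((n : ℝ) + 1)) =
        B0 * (1 / ((n : ℝ) + 1)) + (1 / ((n : ℝ) + 1) * Q + 1 / ((n : ℝ) + 1)) := by ring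
      rw [k4]
      linarith
    calc ∫⁻ y, ENNReal.ofReal |lap (ψ n) y|
        ≤ ∫⁻ y, (ENNReal.ofReal |lap φ y| + ENNReal.ofReal (B0 * |lap (η n) y|
        + (1 / ((n : ℝ) + 1) * gs φ y + ((n : ℝ) + 1) * gs (η n) y))) := by
          refine lintegral_mono fun y => ?_
          rw [← ENNReal.ofReal_add (abs_nonneg _) (hnn y)]
          exact ENNReal.ofReal_le_ofReal (hpt y)
      _ = L + ∫⁻ y, ENNReal.ofReal (B0 * |lap (η n) y|
        + (1 / ((n : ℝ) + 1) * gs φ y + ((n : ℝ) + 1) * gs (η n) y)) :=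
          lintegral_add_left (by fun_prop) _
      _ = L + ENNReal.ofReal (∫ y, (B0 * |lap (η n) y|
        + (1 / ((n : ℝ) + 1) * gs φ y + ((n : ℝ) + 1) * gs (η n) y))) := by
          rw [ofReal_integral_eq_lintegral_ofReal i123 (Eventually.of_forall hnn)]
      _ ≤ _ := by gcongr
  -- each term
  have hcont : ∀ n, Continuous fun y => lap G y * ψ n y := by
    intro n
    have hts : tsupport (fun y => lap G y * ψ n y) ⊆ tsupport (ψ n) := closure_mono fun y hy => by
      simp only [Function.mem_support, ne_eq] at hy ⊢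
      intro h0; exact hy (by simp [h0])
    exact ContinuousOn.continuous_of_tsupport_subset
      ((lap_continuousOn hV hG).mul (ψs n).continuous.continuousOn) hV (hts.trans (ψV n))
  have hint : ∀ n, Integrable fun y => lap G y * ψ n y := by
    intro n
    have hts : tsupport (fun y => lap G y * ψ n y) ⊆ tsupport (ψ n) := closure_mono fun y hy => by
      simp only [Function.mem_support, ne_eq] at hy ⊢
      intro h0; exact hy (by simp [h0])
    exact (hcont n).integrable_of_hasCompactSupport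
      (IsCompact.of_isClosed_subset (ψc n) (isClosed_tsupport _) hts)
  have hnn : ∀ n y, 0 ≤ lap G y * ψ n y := by
    intro n y
    by_cases hy : y ∈ V
    · exact mul_nonneg (hpos y hy) (ψ0 n y)
    · have : ψ n y = 0 := by
        by_contra h
        exact hy (ψV n (subset_tsupport _ h))
      rw [this]; simp
  have hterm : ∀ n, ∫⁻ y in V, ENNReal.ofReal (lap G y * ψ n y)
      ≤ ENNReal.ofReal M * (L + ENNReal.ofReal ((B0 + Q + 1) * (1 / ((n : ℝ) + 1)))) := by
    intro n
    calc ∫⁻ y in V, ENNReal.ofReal (lap G y * ψ n y)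
        ≤ ∫⁻ y, ENNReal.ofReal (lap G y * ψ n y) := setLIntegral_le_lintegral _ _
      _ = ENNReal.ofReal (∫ y, lap G y * ψ n y) :=
          (ofReal_integral_eq_lintegral_ofReal (hint n) (Eventually.of_forall (hnn n))).symm
      _ = ENNReal.ofReal (∫ y, G y * lap (ψ n) y) := by rw [green hV hG (ψs n) (ψc n) (ψV n)]
      _ ≤ ‖∫ y, G y * lap (ψ n) y‖ₑ := by
          rw [Real.enorm_eq_ofReal_abs]; exact ENNReal.ofReal_le_ofReal (le_abs_self _)
      _ ≤ ∫⁻ y, ‖G y * lap (ψ n) y‖ₑ := enorm_integral_le_lintegral_enorm _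
      _ ≤ ∫⁻ y, ENNReal.ofReal M * ENNReal.ofReal |lap (ψ n) y| := by
          refine lintegral_mono fun y => ?_
          rw [Real.enorm_eq_ofReal_abs, ← ENNReal.ofReal_mul' (abs_nonneg _)]
          apply ENNReal.ofReal_le_ofReal
          rw [abs_mul]
          by_cases hy : y ∈ V
          · exact mul_le_mul_of_nonneg_right (hM y hy) (abs_nonneg _)
          · have : lap (ψ n) y = 0 := by
              by_contra h
              exact hy (ψV n (Pol_967.tsupport_lap (subset_tsupport _ h)))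
            rw [this]; simp
      _ = ENNReal.ofReal M * ∫⁻ y, ENNReal.ofReal |lap (ψ n) y| := by
          have := (lap_continuous (ψs n)).measurable
          rw [lintegral_const_mul _ (by fun_prop)]
      _ ≤ _ := by gcongr; exact lapψ n
  -- Fatou
  have hlim : ∀ y ∈ V, ENNReal.ofReal (lap G y * φ y)
      = liminf (fun n => ENNReal.ofReal (lap G y * ψ n y)) atTop := by
    intro y hy
    have hev : ∀ᶠ n : ℕ in atTop, χ n y = 1 := by
      have hcl : IsClosed (E ∩ tsupport φ) := hKc.isClosed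
      obtain ⟨ε, hε, hsub⟩ := Metric.isOpen_iff.1 hcl.isOpen_compl y fun h => hy.2 h.1
      have ht : Tendsto (fun n : ℕ => 1 / ((n : ℝ) + 1)) atTop (𝓝 0) := tendsto_one_div_add_atTop_nhds_zero_nat
      filter_upwards [ht.eventually (gt_mem_nhds hε)] with n hn
      have hnot : y ∉ tsupport (η n) := fun h => by
        obtain ⟨z, hz, hd⟩ := mem_thickening_iff.1 (et n h)
        exact hsub (by rw [mem_ball, dist_comm]; exact hd.trans hn) hz
      simp [hχ, image_eq_zero_of_notMem_tsupport hnot]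
    have hT : Tendsto (fun n => ENNReal.ofReal (lap G y * ψ n y)) atTop
        (𝓝 (ENNReal.ofReal (lap G y * φ y))) := by
      refine tendsto_const_nhds.congr' ?_
      filter_upwards [hev] with n hn
      simp [hψ, hn]
    exact hT.liminf_eq.symm
  calc ∫⁻ y in V, ENNReal.ofReal (lap G y * φ y)
      = ∫⁻ y in V, liminf (fun n => ENNReal.ofReal (lap G y * ψ n y)) atTop :=
        setLIntegral_congr_fun hVm hlim
    _ ≤ liminf (fun n => ∫⁻ y in V, ENNReal.ofReal (lap G y * ψ n y)) atTop :=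
        lintegral_liminf_le fun n => (hcont n).measurable.ennreal_ofReal
    _ ≤ liminf (fun n : ℕ => ENNReal.ofReal M * (L + ENNReal.ofReal ((B0 + Q + 1)
          * (1 / ((n : ℝ) + 1))))) atTop :=
        liminf_le_liminf (Eventually.of_forall hterm)
    _ = ENNReal.ofReal M * L := by
        have ht : Tendsto (fun n : ℕ => 1 / ((n : ℝ) + 1)) atTop (𝓝 0) := tendsto_one_div_add_atTop_nhds_zero_nat
        have h1 : Tendsto (fun n : ℕ => ENNReal.ofReal ((B0 + Q + 1) * (1 / ((n : ℝ) + 1)))) atTop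
            (𝓝 0) := by
          have := ENNReal.tendsto_ofReal (ht.const_mul (B0 + Q + 1))
          simpa using this
        have h3 := (tendsto_const_nhds (x := L)).add h1
        rw [add_zero] at h3
        exact (ENNReal.Tendsto.const_mul h3 (Or.inr ENNReal.ofReal_ne_top)).liminf_eq

/-- **JENSEN WITH A POLAR EXCEPTIONAL SET**: centre `a`, radius `R`. -/
theorem jensenE (a : ℂ) {R : ℝ} (hR : 0 < R) {E : Set ℂ} (hV : IsOpen (ball a R \ E))
    (hE : PolOn E (ball a R)) {G : ℂ → ℝ} {m₁ m₂ : ℝ}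
    (hG : ContDiffOn ℝ 2 G (ball a R \ E)) (hM : ∀ y ∈ ball a R \ E, m₁ ≤ G y ∧ G y ≤ m₂)
    (hpos : ∀ y ∈ ball a R \ E, 0 ≤ lap G y) :
    ∫⁻ y in ball a R \ E, ENNReal.ofReal (lap G y * Real.log (R / ‖y - a‖))
      ≤ ENNReal.ofReal (2 * π * (m₂ - m₁)) := by
  have hπ := Real.pi_pos
  set V : Set ℂ := ball a R \ E with hVdef
  -- centre the values of G
  set G₀ : ℂ → ℝ := fun y => G y + -((m₁ + m₂) / 2) with hG₀
  have hG₀s : ContDiffOn ℝ 2 G₀ V := hG.add contDiffOn_const
  have hlap : ∀ y ∈ V, lap G₀ y = lap G y := by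
    intro y hy
    have hc : ContDiffAt ℝ 2 G y := hG.contDiffAt (hV.mem_nhds hy)
    have h1 : ∀ v, D v G₀ =ᶠ[𝓝 y] D v G := by
      intro v
      filter_upwards [hc.eventually (by simp)] with z hz
      have hz1 : DifferentiableAt ℝ G z := hz.differentiableAt (by norm_num)
      simp only [hG₀]
      rw [D_add hz1 (differentiableAt_const _)]
      simp [D]
    unfold lap
    rw [Pol_967.D_congr (h1 1), Pol_967.D_congr (h1 Complex.I)]
  set σ : ℝ := 2 * Real.log R with hσ
  choose g gs g0 ga gb gi gu gl using fun n : ℕ => test_fun (K := n) (δ := 1 / ((n : ℝ) + 1)) (by positivity)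
    (by positivity)
  set h : ℕ → ℝ → ℝ := fun n s => g n (s - σ) with hh
  set c : ℕ → ℝ := fun n => g n (-(n : ℝ) - 1 - 2 * (1 / ((n : ℝ) + 1))) with hcdef
  have hs : ∀ n, ContDiff ℝ 2 (h n) := fun n => (gs n).comp (by fun_prop)
  have hconst : ∀ n : ℕ, ∀ s ≤ (-(n : ℝ) - 1 - 2 * (1 / ((n : ℝ) + 1))) + σ, h n s = c n := by
    intro n s hs
    exact gb n (s - σ) (by linarith)
  set φ : ℕ → ℂ → ℝ := fun n => rad (h n) (c n) a with hφ
  have φs : ∀ n, ContDiff ℝ 2 (φ n) := fun n => rad_contDiff (hconst n) (hs n) a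
  have φ0 : ∀ n y, 0 ≤ φ n y := by
    intro n y
    simp only [hφ, rad]
    split_ifs
    · exact g0 n _
    · exact g0 n _
  have φt : ∀ n, tsupport (φ n) ⊆ closedBall a (R * Real.exp (-(1 / ((n : ℝ) + 1)) / 2)) := by
    intro n
    refine closure_minimal ?_ isClosed_closedBall
    intro y hy
    rw [mem_closedBall, dist_eq_norm]
    by_contra hlt
    push Not at hlt
    apply hy
    have hya : y ≠ a := by
      rintro rfl
      simp at hlt
      have : 0 < R * Real.exp (-((n : ℝ) + 1)⁻¹ / 2) := by positivity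
      linarith
    have h3 : 0 < ‖y - a‖ := norm_pos_iff.2 (sub_ne_zero.2 hya)
    simp only [hφ]
    rw [rad_of_ne hya]
    refine ga n _ ?_
    have h4 := Real.log_le_log (by positivity) hlt.le
    rw [Real.log_mul hR.ne' (Real.exp_pos _).ne', Real.log_exp] at h4
    rw [lg, Real.log_pow, hσ]
    push_cast
    linarith
  have hlt : ∀ n : ℕ, R * Real.exp (-(1 / ((n : ℝ) + 1)) / 2) < R := by
    intro n
    have : Real.exp (-(1 / ((n : ℝ) + 1)) / 2) < 1 := by
      rw [Real.exp_lt_one_iff]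
      have : (0 : ℝ) < 1 / ((n : ℝ) + 1) := by positivity
      linarith
    nlinarith
  have φc : ∀ n, HasCompactSupport (φ n) := fun n =>
    IsCompact.of_isClosed_subset (isCompact_closedBall a _) (isClosed_tsupport _) (φt n)
  have φU : ∀ n, tsupport (φ n) ⊆ ball a R := fun n => (φt n).trans (closedBall_subset_ball (hlt n))
  have hterm : ∀ n, ∫⁻ y in V, ENNReal.ofReal (lap G y * φ n y) ≤ ENNReal.ofReal (2 * π * (m₂ - m₁)) := by
    intro n
    have h1 := punctE hV hE (G := G₀) (M := (m₂ - m₁) / 2) hG₀s (by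
        intro y hy
        have := hM y hy
        simp only [hG₀]
        rw [abs_le]; constructor <;> linarith [this.1, this.2])
      (fun y hy => by rw [hlap y hy]; exact hpos y hy) (φs n) (φc n) (φU n) (φ0 n)
    have h2 : ∫⁻ y, ENNReal.ofReal |lap (φ n) y| ≤ ENNReal.ofReal (4 * π) := by
      simp only [hφ]
      rw [lint_lap_rad (hs n)]
      have h3 : ∀ s, deriv (deriv (h n)) s = deriv (deriv (g n)) (s - σ) := by
        intro s
        have e1 : deriv (h n) = fun s => deriv (g n) (s - σ) := by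
          ext s
          simp only [hh]
          exact deriv_comp_sub_const (g n) σ s
        rw [e1]
        exact deriv_comp_sub_const (deriv (g n)) σ s
      have h4 : ∫⁻ s, ENNReal.ofReal |deriv (deriv (h n)) s| ≤ 1 := by
        simp_rw [h3]
        rw [lintegral_sub_right_eq_self (fun s => ENNReal.ofReal |deriv (deriv (g n)) s|) σ]
        exact gi n
      calc _ ≤ ENNReal.ofReal (4 * π) * 1 := by gcongr
        _ = _ := mul_one _
    calc ∫⁻ y in V, ENNReal.ofReal (lap G y * φ n y)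
        = ∫⁻ y in V, ENNReal.ofReal (lap G₀ y * φ n y) :=
          setLIntegral_congr_fun hV.measurableSet (fun y hy => by rw [hlap y hy])
      _ ≤ ENNReal.ofReal ((m₂ - m₁) / 2) * ∫⁻ y, ENNReal.ofReal |lap (φ n) y| := h1
      _ ≤ ENNReal.ofReal ((m₂ - m₁) / 2) * ENNReal.ofReal (4 * π) := by gcongr
      _ = ENNReal.ofReal (2 * π * (m₂ - m₁)) := by
          rw [← ENNReal.ofReal_mul' (by positivity)]
          congr 1; ring
  -- Fatou
  have hlim : ∀ y ∈ V, y ≠ a → ENNReal.ofReal (lap G y * Real.log (R / ‖y - a‖))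
      = liminf (fun n => ENNReal.ofReal (lap G y * φ n y)) atTop := by
    intro y hy hya
    have h3 : 0 < ‖y - a‖ := norm_pos_iff.2 (sub_ne_zero.2 hya)
    have h4 : ‖y - a‖ < R := by rw [← dist_eq_norm]; exact hy.1
    have e0 : Real.log (R / ‖y - a‖) = -(lg a y - σ) / 2 := by
      rw [Real.log_div hR.ne' h3.ne', lg, Real.log_pow, hσ]; push_cast; ring
    have hneg : lg a y - σ ≤ 0 := by
      have : 0 ≤ Real.log (R / ‖y - a‖) := Real.log_nonneg (by rw [one_le_div h3]; exact h4.le)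
      linarith
    have hδ : Tendsto (fun n : ℕ => 1 / ((n : ℝ) + 1)) atTop (𝓝 0) := tendsto_one_div_add_atTop_nhds_zero_nat
    have hφt : Tendsto (fun n => φ n y) atTop (𝓝 (Real.log (R / ‖y - a‖))) := by
      rw [e0]
      have hφe : ∀ n, φ n y = g n (lg a y - σ) := by
        intro n; simp only [hφ]; rw [rad_of_ne hya]
      simp_rw [hφe]
      refine tendsto_of_tendsto_of_tendsto_of_le_of_le' (g := fun n : ℕ => -(lg a y - σ) / 2 - 1 / ((n : ℝ) + 1))
        (h := fun _ => -(lg a y - σ) / 2) ?_ tendsto_const_nhds ?_ ?_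
      · simpa using tendsto_const_nhds.sub hδ
      · have : ∀ᶠ n : ℕ in atTop, -(lg a y - σ) ≤ (n : ℝ) :=
          tendsto_natCast_atTop_atTop.eventually_ge_atTop _
        filter_upwards [this] with n hn
        exact gl n _ hneg (by linarith)
      · exact Eventually.of_forall fun n => gu n _ hneg
    exact (ENNReal.tendsto_ofReal (tendsto_const_nhds.mul hφt)).liminf_eq.symm
  calc ∫⁻ y in V, ENNReal.ofReal (lap G y * Real.log (R / ‖y - a‖))
      = ∫⁻ y in V, liminf (fun n => ENNReal.ofReal (lap G y * φ n y)) atTop := by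
        refine lintegral_congr_ae ?_
        filter_upwards [ae_restrict_mem hV.measurableSet, ae_restrict_of_ae (ae_ne a)] with y hy hya
        exact hlim y hy hya
    _ ≤ liminf (fun n => ∫⁻ y in V, ENNReal.ofReal (lap G y * φ n y)) atTop := by
        refine lintegral_liminf_le' fun n => ?_
        have : ContinuousOn (fun y => lap G y * φ n y) V :=
          (lap_continuousOn hV hG).mul (φs n).continuous.continuousOn
        exact (this.aemeasurable hV.measurableSet).ennreal_ofReal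
    _ ≤ liminf (fun _ : ℕ => ENNReal.ofReal (2 * π * (m₂ - m₁))) atTop :=
        liminf_le_liminf (Eventually.of_forall hterm)
    _ = ENNReal.ofReal (2 * π * (m₂ - m₁)) := by simp

/-- **Jensen for a measure over the punctured disc**: `b_* μ = ΔG dA` on `D(a,R) ∖ F`. -/
theorem jensen_measureE {α : Type*} [MeasurableSpace α] (μ : Measure α) {b : α → ℂ} (hb : Measurable b)
    (a : ℂ) {R : ℝ} (hR : 0 < R) {E : Set ℂ}
    (hV : IsOpen (ball a R \ E)) (hE : PolOn E (ball a R)) {G : ℂ → ℝ} {m₁ m₂ : ℝ}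
    (hG : ContDiffOn ℝ 2 G (ball a R \ E)) (hM : ∀ y ∈ ball a R \ E, m₁ ≤ G y ∧ G y ≤ m₂)
    (hpos : ∀ y ∈ ball a R \ E, 0 ≤ lap G y)
    (hμ : μ.map b ≤ (volume.restrict (ball a R \ E)).withDensity fun y => ENNReal.ofReal (lap G y)) :
    ∫⁻ x, ENNReal.ofReal (Real.log (R / ‖b x - a‖)) ∂μ ≤ ENNReal.ofReal (2 * π * (m₂ - m₁)) := by
  have hm : Measurable fun y : ℂ => ENNReal.ofReal (Real.log (R / ‖y - a‖)) := by fun_prop
  have hl : AEMeasurable (fun y => ENNReal.ofReal (lap G y)) (volume.restrict (ball a R \ E)) :=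
    ((lap_continuousOn hV hG).aemeasurable hV.measurableSet).ennreal_ofReal
  calc ∫⁻ x, ENNReal.ofReal (Real.log (R / ‖b x - a‖)) ∂μ
      = ∫⁻ y, ENNReal.ofReal (Real.log (R / ‖y - a‖)) ∂(μ.map b) := (lintegral_map hm hb).symm
    _ ≤ ∫⁻ y, ENNReal.ofReal (Real.log (R / ‖y - a‖))
          ∂((volume.restrict (ball a R \ E)).withDensity fun y => ENNReal.ofReal (lap G y)) :=
        lintegral_mono' hμ le_rfl
    _ = ∫⁻ y in ball a R \ E, ENNReal.ofReal (lap G y * Real.log (R / ‖y - a‖)) := by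
        rw [lintegral_withDensity_eq_lintegral_mul₀ hl hm.aemeasurable]
        refine setLIntegral_congr_fun hV.measurableSet fun y hy => ?_
        simp only [Pi.mul_apply]
        rw [← ENNReal.ofReal_mul (hpos y hy)]
    _ ≤ _ := jensenE a hR hV hE hG hM hpos

/-- the fibre-mass form: `∫₀^R μ(|b - a| < t) dt/t ≤ 2π osc G`. -/
theorem jensen_layerE {α : Type*} [MeasurableSpace α] (μ : Measure α) {b : α → ℂ} (hb : Measurable b)
    (a : ℂ) {R : ℝ} (hR : 0 < R) {E : Set ℂ}
    (hV : IsOpen (ball a R \ E)) (hE : PolOn E (ball a R)) {G : ℂ → ℝ} {m₁ m₂ : ℝ}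
    (hG : ContDiffOn ℝ 2 G (ball a R \ E)) (hM : ∀ y ∈ ball a R \ E, m₁ ≤ G y ∧ G y ≤ m₂)
    (hpos : ∀ y ∈ ball a R \ E, 0 ≤ lap G y)
    (hμ : μ.map b ≤ (volume.restrict (ball a R \ E)).withDensity fun y => ENNReal.ofReal (lap G y)) :
    ∫⁻ t in Ioo 0 R, μ {x | ‖b x - a‖ < t} * ENNReal.ofReal (1 / t) ≤ ENNReal.ofReal (2 * π * (m₂ - m₁)) := by
  have h0 : ∀ᵐ x ∂μ, 0 < ‖b x - a‖ := by
    have h1 : (μ.map b) {a} = 0 := by
      refine le_antisymm ((hμ {a}).trans ?_) zero_le
      refine le_of_eq ?_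
      have hac := withDensity_absolutelyContinuous (volume.restrict (ball a R \ E))
        (fun y => ENNReal.ofReal (lap G y))
      apply hac
      refine le_antisymm ((Measure.restrict_apply_le _ _).trans ?_) zero_le
      simp
    rw [Measure.map_apply hb (measurableSet_singleton a)] at h1
    have h2 : ∀ᵐ x ∂μ, x ∉ b ⁻¹' {a} := measure_eq_zero_iff_ae_notMem.1 h1
    filter_upwards [h2] with x hx
    rw [norm_pos_iff, sub_ne_zero]
    exact hx
  have hm : Measurable fun x => ‖b x - a‖ := by fun_prop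
  rw [← layer μ hm.aemeasurable h0 hR]
  exact jensen_measureE μ hb a hR hV hE hG hM hpos hμ

/-- the clipped logarithm `w = log⁺(R/|b - a|) / log(R/r)`: `∫ w dμ ≤ 2π osc G / log(R/r)`. -/
theorem jensen_clipE {α : Type*} [MeasurableSpace α] (μ : Measure α) {b : α → ℂ} (hb : Measurable b)
    (a : ℂ) {R r : ℝ} (hr : 0 < r) (hrR : r < R) {E : Set ℂ}
    (hV : IsOpen (ball a R \ E)) (hE : PolOn E (ball a R)) {G : ℂ → ℝ} {m₁ m₂ : ℝ}
    (hG : ContDiffOn ℝ 2 G (ball a R \ E)) (hM : ∀ y ∈ ball a R \ E, m₁ ≤ G y ∧ G y ≤ m₂)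
    (hpos : ∀ y ∈ ball a R \ E, 0 ≤ lap G y)
    (hμ : μ.map b ≤ (volume.restrict (ball a R \ E)).withDensity fun y => ENNReal.ofReal (lap G y)) :
    ∫⁻ x, ENNReal.ofReal (max (Real.log (R / ‖b x - a‖) / Real.log (R / r)) 0) ∂μ
      ≤ ENNReal.ofReal (2 * π * (m₂ - m₁) / Real.log (R / r)) := by
  have hR : 0 < R := hr.trans hrR
  have hl : 0 < Real.log (R / r) := Real.log_pos (by rw [one_lt_div hr]; exact hrR)
  have h1 := jensen_measureE μ hb a hR hV hE hG hM hpos hμ
  have hm : Measurable fun x => ENNReal.ofReal (Real.log (R / ‖b x - a‖)) := by fun_prop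
  calc ∫⁻ x, ENNReal.ofReal (max (Real.log (R / ‖b x - a‖) / Real.log (R / r)) 0) ∂μ
      = ∫⁻ x, ENNReal.ofReal (Real.log (R / r))⁻¹ * ENNReal.ofReal (Real.log (R / ‖b x - a‖)) ∂μ := by
        refine lintegral_congr fun x => ?_
        rw [← ENNReal.ofReal_mul (by positivity), mul_comm, ← div_eq_mul_inv]
        rcases le_total (Real.log (R / ‖b x - a‖) / Real.log (R / r)) 0 with h | h
        · rw [max_eq_right h, ENNReal.ofReal_of_nonpos h, ENNReal.ofReal_zero]
        · rw [max_eq_left h]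
    _ = ENNReal.ofReal (Real.log (R / r))⁻¹ * ∫⁻ x, ENNReal.ofReal (Real.log (R / ‖b x - a‖)) ∂μ :=
        lintegral_const_mul _ hm
    _ ≤ ENNReal.ofReal (Real.log (R / r))⁻¹ * ENNReal.ofReal (2 * π * (m₂ - m₁)) := by gcongr
    _ = _ := by
        rw [← ENNReal.ofReal_mul (by positivity), mul_comm, ← div_eq_mul_inv]

/-! ### 166's literal forms: a countable exceptional set -/

theorem jensen_countable (a : ℂ) {R : ℝ} (hR : 0 < R) {E : Set ℂ} (hE : E.Countable)
    (hV : IsOpen (ball a R \ E)) {G : ℂ → ℝ} {m₁ m₂ : ℝ}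
    (hG : ContDiffOn ℝ 2 G (ball a R \ E)) (hM : ∀ y ∈ ball a R \ E, m₁ ≤ G y ∧ G y ≤ m₂)
    (hpos : ∀ y ∈ ball a R \ E, 0 ≤ lap G y) :
    ∫⁻ y in ball a R \ E, ENNReal.ofReal (lap G y * Real.log (R / ‖y - a‖))
      ≤ ENNReal.ofReal (2 * π * (m₂ - m₁)) :=
  jensenE a hR hV (polOn_countable hE hV) hG hM hpos

theorem jensen_measure_countable {α : Type*} [MeasurableSpace α] (μ : Measure α) {b : α → ℂ}
    (hb : Measurable b) (a : ℂ) {R : ℝ} (hR : 0 < R) {E : Set ℂ} (hE : E.Countable)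
    (hV : IsOpen (ball a R \ E)) {G : ℂ → ℝ} {m₁ m₂ : ℝ}
    (hG : ContDiffOn ℝ 2 G (ball a R \ E)) (hM : ∀ y ∈ ball a R \ E, m₁ ≤ G y ∧ G y ≤ m₂)
    (hpos : ∀ y ∈ ball a R \ E, 0 ≤ lap G y)
    (hμ : μ.map b ≤ (volume.restrict (ball a R \ E)).withDensity fun y => ENNReal.ofReal (lap G y)) :
    ∫⁻ x, ENNReal.ofReal (Real.log (R / ‖b x - a‖)) ∂μ ≤ ENNReal.ofReal (2 * π * (m₂ - m₁)) :=
  jensen_measureE μ hb a hR hV (polOn_countable hE hV) hG hM hpos hμ

end Crest.Agent.R281.JenE_967
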