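import Crest.Agent.R281.S6V6_664

/-!
# R281 (S0424), S6-V part 7 (helper664): a tube as a family

* `tr_of_one`  : transversality may be checked on one tube;
* `tubeBM`     : the base map of a small piece of a tube (`m = k`);
* `exists_tubeFam` : at every point `x0` of a tube a family `F : Fam A d k U`, `U = {u | aff⁻¹ u ∈ ball c r}`,
  `c = τ.f x0`, with `τ.f (F.i v) = aff⁻¹ (F.y v)`, `F.i` an open embedding onto `W ∩ f⁻¹ (ball c r)`.
-/

set_option autoImplicit false
set_option linter.unusedSectionVars false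

open Set Filter Topology Complex Function Metric
open scoped ContDiff Matrix ComplexConjugate ComplexOrder

namespace Crest.Agent.R281.S6V_664

open Crest.Agent.R275.Geo Crest.Agent.R275.Core144 Crest.Agent.R275.GC293
open Crest.Agent.R275.Prod363 Crest.Agent.R273.Map_835 Crest.Agent.R281.S6D_664
open Crest.Agent.R281.Defs_273

noncomputable section

variable {N d k m n : ℕ} {M : Type} [TopologicalSpace M] {A : Atl N M} {Tf : M → Set M}

/-- chain rule for a tube along a map -/
theorem fderiv_tube {Γ : Cn m → M} {u : Cn m} (hΓc : ContinuousAt Γ u) {i : A.ι}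
    (hi : Γ u ∈ (A.e i).source) (hΓ : DifferentiableAt ℂ (fun u => A.e i (Γ u)) u)
    (τ : Tube A k Tf) (hτ : Γ u ∈ τ.W) :
    fderiv ℂ (fun u => τ.f (Γ u)) u = (fderiv ℂ (fun z => τ.f ((A.e i).symm z)) (A.e i (Γ u))).comp
      (fderiv ℂ (fun u => A.e i (Γ u)) u) := by
  have h1 := fderiv_comp u (g := fun z => τ.f ((A.e i).symm z)) (f := fun u => A.e i (Γ u))
    (Tube.diffAt τ hi hτ) hΓ
  rw [← h1]
  refine Filter.EventuallyEq.fderiv_eq ?_
  filter_upwards [hΓc.preimage_mem_nhds ((A.e i).open_source.mem_nhds hi)] with w hw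
  show τ.f (Γ w) = τ.f ((A.e i).symm (A.e i (Γ w)))
  rw [(A.e i).left_inv hw]

/-- transversality may be checked on one tube -/
theorem tr_of_one (hN : N = d + k) {Γ : Cn m → M} {u : Cn m} (hΓc : ContinuousAt Γ u) {i : A.ι}
    (hi : Γ u ∈ (A.e i).source) (hΓ : DifferentiableAt ℂ (fun u => A.e i (Γ u)) u)
    (τ τ' : Tube A k Tf) (hτ : Γ u ∈ τ.W) (hτ' : Γ u ∈ τ'.W)
    (h : Injective (fderiv ℂ (fun u => τ.f (Γ u)) u)) :
    Injective (fderiv ℂ (fun u => τ'.f (Γ u)) u) := by
  rw [injective_iff_map_eq_zero] at h ⊢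
  intro x hx
  refine h x ?_
  rw [fderiv_tube hΓc hi hΓ τ' hτ', ContinuousLinearMap.comp_apply] at hx
  rw [fderiv_tube hΓc hi hΓ τ hτ, ContinuousLinearMap.comp_apply]
  exact ker_tube hN τ' τ hi hτ' hτ hx

section TubeBM

variable (hN : N = d + k) {τ : Tube A k Tf} (S : SpC A τ d) {b0 : Cn d} {c : Cn k} {r : ℝ}
  (hr : 0 < r) (hball : ∀ w ∈ ball c r, (b0, w) ∈ S.χ.target)

include hN in
/-- the base map of a small piece of a tube -/
def tubeBM : BM A Tf k k where
  U := {u | (aff c r hr).symm u ∈ ball c r}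
  Γ u := S.χ.symm (b0, (aff c r hr).symm u)
  oU := isOpen_ball.preimage (aff c r hr).symm.continuous
  cube u hu p := rc_mem_of_ball c r hr hu p
  cont := by
    refine S.χ.continuousOn_symm.comp
      ((continuous_const.prodMk (aff c r hr).symm.continuous).continuousOn) fun u hu => ?_
    exact hball _ hu
  hol i := by
    have h1 : Differentiable ℂ (fun u : Cn k => (b0, (aff c r hr).symm u)) :=
      (differentiable_const _).prodMk (differentiable_aff_symm c r hr)
    exact (S.hol i).comp h1.differentiableOn fun u hu => ⟨hball _ hu.1, hu.2⟩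
  tb u hu := ⟨τ, S.sub (S.χ.map_target (hball _ hu))⟩
  tr u hu τ' hτ' := by
    have hop : IsOpen {u | (aff c r hr).symm u ∈ ball c r} :=
      isOpen_ball.preimage (aff c r hr).symm.continuous
    have h1 : Differentiable ℂ (fun u : Cn k => (b0, (aff c r hr).symm u)) :=
      (differentiable_const _).prodMk (differentiable_aff_symm c r hr)
    have hc1 : ContinuousOn (fun u => S.χ.symm (b0, (aff c r hr).symm u))
        {u | (aff c r hr).symm u ∈ ball c r} :=
      S.χ.continuousOn_symm.comp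
        ((continuous_const.prodMk (aff c r hr).symm.continuous).continuousOn) fun u hu => hball _ hu
    have hΓc := hc1.continuousAt (hop.mem_nhds hu)
    obtain ⟨i, hi⟩ := A.cover (S.χ.symm (b0, (aff c r hr).symm u))
    have h2 : DifferentiableAt ℂ (fun w => A.e i (S.χ.symm w)) (b0, (aff c r hr).symm u) :=
      (S.hol i).differentiableAt
        ((S.χ.isOpen_inter_preimage_symm (A.e i).open_source).mem_nhds ⟨hball _ hu, hi⟩)
    have hΓ : DifferentiableAt ℂ (fun u => A.e i (S.χ.symm (b0, (aff c r hr).symm u))) u :=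
      DifferentiableAt.comp u (g := fun w => A.e i (S.χ.symm w)) h2 h1.differentiableAt
    refine tr_of_one hN (Γ := fun u => S.χ.symm (b0, (aff c r hr).symm u)) hΓc hi hΓ τ τ'
      (S.sub (S.χ.map_target (hball _ hu))) hτ' ?_
    have h3 : (fun u => τ.f (S.χ.symm (b0, (aff c r hr).symm u))) =ᶠ[𝓝 u]
        fun u => ((2 * r : ℝ) : ℂ) • (u - ctr k) + c := by
      filter_upwards [hop.mem_nhds hu] with w hw
      rw [← S.snd _ (S.χ.map_target (hball _ hw)), S.χ.right_inv (hball _ hw)]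
      rfl
    have h4 : HasFDerivAt (fun u : Cn k => ((2 * r : ℝ) : ℂ) • (u - ctr k) + c)
        (((2 * r : ℝ) : ℂ) • ContinuousLinearMap.id ℂ (Cn k)) u :=
      (((hasFDerivAt_id u).sub_const (ctr k)).fun_const_smul _).add_const _
    show Injective (fderiv ℂ (fun u => τ.f (S.χ.symm (b0, (aff c r hr).symm u))) u)
    rw [h3.fderiv_eq, h4.fderiv, injective_iff_map_eq_zero]
    intro x hx
    have h5 : ((2 * r : ℝ) : ℂ) • x = 0 := hx
    have h6 : ((2 * r : ℝ) : ℂ) ≠ 0 := by exact_mod_cast (by positivity : (2 * r : ℝ) ≠ 0)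
    exact (smul_eq_zero.1 h5).resolve_left h6

end TubeBM

/-- **a tube as a family near a leaf** -/
theorem exists_tubeFam [T2Space M] [SecondCountableTopology M] (hN : N = d + k) (τ : Tube A k Tf)
    {x0 : M} (hx0 : x0 ∈ τ.W) : ∃ (r : ℝ) (hr : 0 < r)
      (F : Fam A d k {u | (aff (τ.f x0) r hr).symm u ∈ ball (τ.f x0) r}),
      (∀ v, F.i v ∈ τ.W ∧ τ.f (F.i v) = (aff (τ.f x0) r hr).symm (F.y v)) ∧
      IsOpenEmbedding F.i ∧ range F.i = τ.W ∩ τ.f ⁻¹' ball (τ.f x0) r ∧
      ball (τ.f x0) r ⊆ τ.U ∧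
      (∀ v, Tf (F.i v) = F.i '' (F.y ⁻¹' {F.y v})) := by
  obtain ⟨S, hS⟩ := exists_spC (d := d) hN A τ hx0
  set c := τ.f x0 with hc
  have hc' : (S.χ x0).2 = c := S.snd _ hS
  -- the radius
  have h1 : ∃ r : ℝ, 0 < r ∧ ∀ w ∈ ball c r, ((S.χ x0).1, w) ∈ S.χ.target := by
    have h2 : ContinuousAt (fun w : Cn k => ((S.χ x0).1, w)) c := by fun_prop
    have h3 : S.χ.target ∈ 𝓝 ((S.χ x0).1, c) := by
      rw [← hc', Prod.mk.eta]
      exact S.χ.open_target.mem_nhds (S.χ.map_source hS)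
    obtain ⟨r, hr, h4⟩ := Metric.mem_nhds_iff.1 (h2.preimage_mem_nhds h3)
    exact ⟨r, hr, fun w hw => h4 hw⟩
  obtain ⟨r, hr, hball⟩ := h1
  set G := tubeBM hN S hr hball with hG
  have hGU : G.U = {u | (aff c r hr).symm u ∈ ball c r} := rfl
  have hne : G.U.Nonempty := by
    refine ⟨aff c r hr c, ?_⟩
    show (aff c r hr).symm (aff c r hr c) ∈ ball c r
    rw [Homeomorph.symm_apply_apply]
    exact mem_ball_self hr
  have hΓW : ∀ u ∈ G.U, G.Γ u ∈ τ.W ∧ τ.f (G.Γ u) = (aff c r hr).symm u := by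
    intro u hu
    have h2 := S.χ.map_target (hball _ hu)
    refine ⟨S.sub h2, ?_⟩
    show τ.f (S.χ.symm ((S.χ x0).1, (aff c r hr).symm u)) = _
    rw [← S.snd _ h2, S.χ.right_inv (hball _ hu)]
  obtain ⟨F, hF1, hF2, hF3⟩ := G.exists_fam' (d := d) hN hne
  have hF4 : ∀ v, F.i v ∈ τ.W ∧ τ.f (F.i v) = (aff c r hr).symm (F.y v) := by
    intro v
    obtain ⟨h2, h3⟩ := hΓW _ (F.mem v)
    have h4 := hF1 v
    rw [τ.fib _ h2] at h4
    exact ⟨h4.1, h4.2.trans h3⟩
  have hyi : ∀ v, F.y v = aff c r hr (τ.f (F.i v)) := fun v => by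
    rw [(hF4 v).2, Homeomorph.apply_symm_apply]
  have hrange : range F.i = τ.W ∩ τ.f ⁻¹' ball c r := by
    ext x
    constructor
    · rintro ⟨v, rfl⟩
      refine ⟨(hF4 v).1, ?_⟩
      rw [mem_preimage, (hF4 v).2]
      exact F.mem v
    · rintro ⟨hxW, hxb⟩
      have hu : aff c r hr (τ.f x) ∈ G.U := by
        show (aff c r hr).symm (aff c r hr (τ.f x)) ∈ ball c r
        rw [Homeomorph.symm_apply_apply]
        exact hxb
      obtain ⟨h2, h3⟩ := hΓW _ hu
      rw [Homeomorph.symm_apply_apply] at h3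
      obtain ⟨v, -, hv⟩ := hF2 _ hu x (by rw [τ.fib _ h2]; exact ⟨hxW, h3.symm⟩)
      exact ⟨v, hv⟩
  have hinj : Injective F.i := fun v w h => F.inj v w (by rw [hyi, hyi, h]) h
  have hind : IsInducing F.i := by
    rw [isInducing_iff_nhds]
    intro v
    rw [hF3.isInducing.nhds_eq_comap v]
    refine le_antisymm ?_ ?_
    · have h5 : (fun v => F.i v) = Prod.snd ∘ (fun v => (F.y v, F.i v)) := rfl
      have h6 : comap F.i (𝓝 (F.i v)) = comap (fun v => (F.y v, F.i v)) (comap Prod.snd (𝓝 (F.i v))) := by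
        rw [comap_comap]; rfl
      rw [h6]
      refine comap_mono ?_
      rw [nhds_prod_eq, Filter.prod_eq_inf]
      exact inf_le_right
    · rw [nhds_prod_eq, Filter.prod_eq_inf, comap_inf, comap_comap, comap_comap]
      refine le_inf ?_ le_rfl
      have h7 : ContinuousAt (fun x => aff c r hr (τ.f x)) (F.i v) :=
        (aff c r hr).continuous.continuousAt.comp
          ((cont_tube τ).continuousAt (τ.oW.mem_nhds (hF4 v).1))
      have h8 : (Prod.fst ∘ fun v => (F.y v, F.i v)) = (fun x => aff c r hr (τ.f x)) ∘ F.i := by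
        funext w
        exact hyi w
      rw [h8, ← comap_comap]
      refine comap_mono ?_
      rw [← tendsto_iff_comap]
      have h9 := h7.tendsto
      rw [← hyi v] at h9
      exact h9
  have hopen : IsOpen (range F.i) := by
    rw [hrange]
    exact (cont_tube τ).isOpen_inter_preimage τ.oW isOpen_ball
  refine ⟨r, hr, F, hF4, ⟨⟨hind, hinj⟩, hopen⟩, hrange, ?_, ?_⟩
  · intro w hw
    have h2 := S.χ.map_target (hball _ hw)
    have h3 : τ.f (S.χ.symm ((S.χ x0).1, w)) = w := by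
      rw [← S.snd _ h2, S.χ.right_inv (hball _ hw)]
    rw [← h3]
    exact τ.maps (S.sub h2)
  · intro v
    rw [τ.fib _ (hF4 v).1]
    ext x
    constructor
    · rintro ⟨hxW, hx⟩
      have hx' : τ.f x = τ.f (F.i v) := hx
      have h5 : x ∈ range F.i := by
        rw [hrange]
        refine ⟨hxW, ?_⟩
        rw [mem_preimage, hx', (hF4 v).2]
        exact F.mem v
      obtain ⟨w, rfl⟩ := h5
      refine ⟨w, ?_, rfl⟩
      show F.y w = F.y v
      rw [hyi, hyi, hx']
    · rintro ⟨w, hw, rfl⟩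
      have hw' : F.y w = F.y v := hw
      refine ⟨(hF4 w).1, ?_⟩
      show τ.f (F.i w) = τ.f (F.i v)
      rw [(hF4 w).2, (hF4 v).2, hw']

end

end Crest.Agent.R281.S6V_664
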