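import Crest.Agent.R281.D6f_986
import Crest.Agent.R281.S6V7_664
import Crest.Agent.R281.Con5_166
import Crest.Agent.R281.JenE_967

/-!
# R281 (S0424), DIV 6, S6-CONT part 9 (helper166): the potential on a disc

* `exists_xi`   : on the family of a line `D`, at the point of the family lying on the line, there is
  a tangent vector `ξ` with last coordinate `1` mapped to the direction of the line;
* `lap_line`    : the Laplacian of `g ∘ line` is `4` times the Hermitian form of `hess g`;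
* `lap_pot`     : for the function `G` = (weight of `h` + `u`) on the line,
  `lap G = 4 a push (det K_V)`.
-/

set_option autoImplicit false
set_option linter.unusedSectionVars false

open Set Filter Topology Complex Function MeasureTheory
open scoped ContDiff Matrix ComplexConjugate ComplexOrder ENNReal

namespace Crest.Agent.R281.Con_166

open Crest.Agent.R275.Geo Crest.Agent.R275.Core144 Crest.Agent.R275.EDR890
open Crest.Agent.R275.GC293 Crest.Agent.R275.Prod363
open Crest.Agent.R273.Defs_333 Crest.Agent.R273.Kah_333 Crest.Agent.R273.Hess_333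
open Crest.Agent.R273.HessB_333 Crest.Agent.R273.HM_333
open Crest.Agent.R273.Map_835 Crest.Agent.R273.KahI_645 Crest.Agent.R273.Vol_333
open Crest.Agent.R273.Vm_333 Crest.Agent.R281.Defs_273 Crest.Agent.R281.S6D_664
open Crest.Agent.R281.S6V_664 Crest.Agent.R281.Fub_192 Crest.Agent.R281.D6_986
open Crest.Agent.R281.Fib2_425 (push)

noncomputable section

section Xi

variable {N d k : ℕ} {M : Type} [TopologicalSpace M] {A : Atl N M} {Tf : M → Set M}
  (D : LineD A Tf k d)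

/-- the direction of the line in the normalised parameter -/
def LV : Cn N := ((2 * D.R : ℝ) : ℂ) • D.v

theorem hasFDerivAt_line (u : Cn 1) : HasFDerivAt (fun u : Cn 1 => D.z + D.cp u • D.v)
    ((EuclideanSpace.proj (0 : Fin 1) : Cn 1 →L[ℂ] ℂ).smulRight (LV D)) u := by
  have h6 : HasFDerivAt (fun u : Cn 1 => u 0 - LineD.kp)
      (EuclideanSpace.proj (0 : Fin 1) : Cn 1 →L[ℂ] ℂ) u :=
    (EuclideanSpace.proj (0 : Fin 1) : Cn 1 →L[ℂ] ℂ).hasFDerivAt.sub_const LineD.kp
  have h7 := (h6.smul_const (LV D)).const_add D.z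
  have h8 : (fun u : Cn 1 => D.z + D.cp u • D.v) =
      fun u : Cn 1 => D.z + (u 0 - LineD.kp) • LV D := by
    funext u
    unfold LineD.cp LV
    rw [smul_smul, mul_comm]
  rw [h8]
  exact h7

/-- a function of the base coordinate, along the family -/
theorem tube_rd (F : Fam A d 1 D.UU) (h1 : ∀ v, F.i v ∈ Tf (D.pt (D.cp (F.y v))))
    {u : Cn 1} (hu : u ∈ D.UU) {v : F.V} (hy : F.y v = u) (hv : F.i v = D.pt (D.cp u))
    {j : F.B.ι} (hj : v ∈ (F.B.e j).source) (τ : Tube A k Tf) (hτ : D.pt (D.cp u) ∈ τ.W)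
    (ξ : Cn (d + 1)) :
    fderiv ℂ (fun z => τ.f ((A.e D.i).symm z)) (D.z + D.cp u • D.v)
      (fderiv ℂ (rd F.B A F.i j D.i) (F.B.e j v) ξ) =
    (laL d 1 ξ 0) • fderiv ℂ (fun z => τ.f ((A.e D.i).symm z)) (D.z + D.cp u • D.v) (LV D) := by
  have hcR : ‖D.cp u‖ < D.R := D.cp_lt hu.1
  have hi : F.i v ∈ (A.e D.i).source := by
    rw [hv]
    exact D.pt_mem hcR.le
  set w0 := F.B.e j v with hw0
  have hw0t : w0 ∈ (F.B.e j).target := (F.B.e j).map_source hj
  have hsy : (F.B.e j).symm w0 = v := (F.B.e j).left_inv hj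
  have hdm : w0 ∈ dm F.B A F.i j D.i := mem_dm hj hi
  have g1 : DifferentiableAt ℂ (rd F.B A F.i j D.i) w0 := F.hol.diffAt hdm
  have hyw : laL d 1 w0 = u := by rw [← y_symm' F hw0t, hsy, hy]
  have hrd0 : rd F.B A F.i j D.i w0 = D.z + D.cp u • D.v := by
    show A.e D.i (F.i ((F.B.e j).symm w0)) = _
    rw [hsy, hv, D.e_pt hcR.le]
  have g3 : DifferentiableAt ℂ (fun z => τ.f ((A.e D.i).symm z)) (D.z + D.cp u • D.v) :=
    (τ.hol D.i).differentiableAt
      (((A.e D.i).isOpen_inter_preimage_symm τ.oW).mem_nhds ⟨D.mem _ hcR.le, hτ⟩)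
  -- the composition is a function of the base coordinate
  have g4 : (fun w => (fun z => τ.f ((A.e D.i).symm z)) (rd F.B A F.i j D.i w)) =ᶠ[𝓝 w0]
      fun w => (fun z => τ.f ((A.e D.i).symm z)) (D.z + D.cp (laL d 1 w) • D.v) := by
    have h5 : dm F.B A F.i j D.i ∩ {w | laL d 1 w ∈ D.discBM.U ∩ D.discBM.Γ ⁻¹' τ.W} ∈ 𝓝 w0 := by
      refine inter_mem ((F.hol.isOpen_dm j D.i).mem_nhds hdm) ?_
      refine (laL d 1).continuous.continuousAt.preimage_mem_nhds ?_
      rw [hyw]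
      exact (D.discBM.isOpen_pre τ.oW).mem_nhds ⟨hu, hτ⟩
    filter_upwards [h5] with w hw
    have hwt : w ∈ (F.B.e j).target := hw.1.1
    show τ.f ((A.e D.i).symm (A.e D.i (F.i ((F.B.e j).symm w)))) = _
    rw [(A.e D.i).left_inv hw.1.2]
    have h6 := h1 ((F.B.e j).symm w)
    have hw2 : D.pt (D.cp (laL d 1 w)) ∈ τ.W := hw.2.2
    rw [y_symm' F hwt, τ.fib _ hw2] at h6
    exact h6.2
  have g5 : HasFDerivAt (fun w => (fun z => τ.f ((A.e D.i).symm z)) (rd F.B A F.i j D.i w))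
      ((fderiv ℂ (fun z => τ.f ((A.e D.i).symm z)) (D.z + D.cp u • D.v)).comp
        (fderiv ℂ (rd F.B A F.i j D.i) w0)) w0 := by
    refine HasFDerivAt.comp w0 (g := fun z => τ.f ((A.e D.i).symm z)) ?_ g1.hasFDerivAt
    rw [hrd0]
    exact g3.hasFDerivAt
  have g6 : HasFDerivAt (fun w => (fun z => τ.f ((A.e D.i).symm z))
      (D.z + D.cp (laL d 1 w) • D.v))
      ((fderiv ℂ (fun z => τ.f ((A.e D.i).symm z)) (D.z + D.cp u • D.v)).comp
        (((EuclideanSpace.proj (0 : Fin 1) : Cn 1 →L[ℂ] ℂ).smulRight (LV D)).comp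
          (laL d 1))) w0 := by
    have h7 : HasFDerivAt (fun w => D.z + D.cp (laL d 1 w) • D.v)
        (((EuclideanSpace.proj (0 : Fin 1) : Cn 1 →L[ℂ] ℂ).smulRight (LV D)).comp
          (laL d 1)) w0 :=
      (hasFDerivAt_line D (laL d 1 w0)).comp w0 (laL d 1).hasFDerivAt
    refine HasFDerivAt.comp w0 (g := fun z => τ.f ((A.e D.i).symm z)) ?_ h7
    rw [hyw]
    exact g3.hasFDerivAt
  have g7 := (g5.congr_of_eventuallyEq g4.symm).unique g6
  have g8 := congrArg (fun L => L ξ) g7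
  have g9 : fderiv ℂ (fun z => τ.f ((A.e D.i).symm z)) (D.z + D.cp u • D.v)
      (fderiv ℂ (rd F.B A F.i j D.i) w0 ξ) =
      fderiv ℂ (fun z => τ.f ((A.e D.i).symm z)) (D.z + D.cp u • D.v)
        ((laL d 1 ξ 0) • LV D) := g8
  rw [g9, map_smul]

/-- **the tangent vector of the section** -/
theorem exists_xi (F : Fam A d 1 D.UU) (h1 : ∀ v, F.i v ∈ Tf (D.pt (D.cp (F.y v))))
    {u : Cn 1} (hu : u ∈ D.UU) {v : F.V} (hy : F.y v = u) (hv : F.i v = D.pt (D.cp u))
    {j : F.B.ι} (hj : v ∈ (F.B.e j).source) :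
    ∃ ξ : Cn (d + 1), fderiv ℂ (rd F.B A F.i j D.i) (F.B.e j v) ξ = LV D ∧ laL d 1 ξ 0 = 1 := by
  have hcR : ‖D.cp u‖ < D.R := D.cp_lt hu.1
  obtain ⟨τ, hτ⟩ := D.tb _ (D.not_bad hcR.le hu.2).1
  have hi : F.i v ∈ (A.e D.i).source := by
    rw [hv]
    exact D.pt_mem hcR.le
  set T : Cn N →L[ℂ] Cn k := fderiv ℂ (fun z => τ.f ((A.e D.i).symm z)) (D.z + D.cp u • D.v)
    with hT
  set L : Cn (d + 1) →L[ℂ] Cn N := fderiv ℂ (rd F.B A F.i j D.i) (F.B.e j v) with hL
  have key : ∀ ξ, T (L ξ) = (laL d 1 ξ 0) • T (LV D) := tube_rd D F h1 hu hy hv hj τ hτ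
  have hTs : Surjective T := by
    have := τ.sub D.i (D.pt (D.cp u)) ⟨D.pt_mem hcR.le, hτ⟩
    rwa [D.e_pt hcR.le] at this
  have hLi : Injective L := F.imm j D.i v hj hi
  have hin0 : ∀ η : Cn d, laL d 1 (inL d 1 η) 0 = 0 := by
    intro η
    rw [inL_eq, laL_apply, glue_right]
    rfl
  -- the fibre directions span the kernel of `T`
  have hker : ∀ x : Cn N, T x = 0 → ∃ η : Cn d, L (inL d 1 η) = x := by
    have hfr : Module.finrank ℂ (LinearMap.ker T.toLinearMap) = d := by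
      have h2 := LinearMap.finrank_range_add_finrank_ker T.toLinearMap
      have h3 : LinearMap.range T.toLinearMap = ⊤ := LinearMap.range_eq_top.2 hTs
      rw [h3, finrank_top] at h2
      simp only [finrank_euclideanSpace, Fintype.card_fin] at h2
      have := D.hN
      omega
    set S : Cn d →ₗ[ℂ] Cn N := (L.comp (inL d 1)).toLinearMap with hS
    have hSi : Injective S := hLi.comp inL_inj
    have hSle : LinearMap.range S ≤ LinearMap.ker T.toLinearMap := by
      rintro x ⟨η, rfl⟩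
      show T (L (inL d 1 η)) = 0
      rw [key, hin0, zero_smul]
    have hSfr : Module.finrank ℂ (LinearMap.range S) = d := by
      rw [LinearMap.finrank_range_of_inj hSi]
      simp
    have heq : LinearMap.range S = LinearMap.ker T.toLinearMap :=
      Submodule.eq_of_le_of_finrank_eq hSle (by rw [hSfr, hfr])
    intro x hx
    have hx' : x ∈ LinearMap.ker T.toLinearMap := hx
    rw [← heq] at hx'
    obtain ⟨η, hη⟩ := hx'
    exact ⟨η, hη⟩
  set e : Cn (d + 1) := EuclideanSpace.single (Fin.natAdd d 0) 1 with he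
  have he1 : laL d 1 e 0 = 1 := by
    rw [laL_apply, he]
    simp
  obtain ⟨η, hη⟩ := hker (L e - LV D) (by rw [map_sub, key, he1, one_smul, sub_self])
  refine ⟨e - inL d 1 η, ?_, ?_⟩
  · rw [map_sub, hη]
    abel
  · rw [map_sub]
    show laL d 1 e 0 - laL d 1 (inL d 1 η) 0 = 1
    rw [he1, hin0, sub_zero]

end Xi

/-! ### the Laplacian on a line -/

section Lap

open Crest.Agent.R281.Jen_563 (D lap)

variable {N : ℕ}

theorem lap_line {g : Cn N → ℝ} {p V : Cn N} {b c : ℂ}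
    (hg : ContDiffAt ℝ ∞ g (p + (c - b) • V)) :
    lap (fun c : ℂ => g (p + (c - b) • V)) c = (4 * hq g (p + (c - b) • V) V).re := by
  set ℓ : ℂ → Cn N := fun c => p + (c - b) • V with hℓ
  have hℓc : Continuous ℓ := by fun_prop
  have hℓd : ∀ c, HasFDerivAt ℓ ((ContinuousLinearMap.id ℝ ℂ).smulRight V) c := by
    intro c
    exact (((hasFDerivAt_id (𝕜 := ℝ) c).sub_const b).smul_const V).const_add p
  have h2 : ContDiffAt ℝ 2 g (ℓ c) := by exact_mod_cast contDiffAt_infty.1 hg 2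
  have hev : ∀ᶠ c' in 𝓝 c, DifferentiableAt ℝ g (ℓ c') :=
    hℓc.continuousAt.eventually ((h2.eventually (by simp)).mono
      fun y hy => hy.differentiableAt (by norm_num))
  have h3 : DifferentiableAt ℝ (fderiv ℝ g) (ℓ c) :=
    (h2.fderiv_right (m := 1) (by norm_num)).differentiableAt (by norm_num)
  have hD : ∀ v : ℂ, D v (D v (fun c => g (ℓ c))) c =
      fderiv ℝ (fderiv ℝ g) (ℓ c) (v • V) (v • V) := by
    intro v
    have h4 : D v (fun c => g (ℓ c)) =ᶠ[𝓝 c] fun c' => fderiv ℝ g (ℓ c') (v • V) := by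
      filter_upwards [hev] with c' hc'
      have h5 : HasFDerivAt (fun c => g (ℓ c)) _ c' := hc'.hasFDerivAt.comp c' (hℓd c')
      show fderiv ℝ (fun c => g (ℓ c)) c' v = _
      rw [h5.fderiv]
      rfl
    have h6 : HasFDerivAt (fun c' => fderiv ℝ g (ℓ c') (v • V))
        (((fderiv ℝ (fderiv ℝ g) (ℓ c)).comp
          ((ContinuousLinearMap.id ℝ ℂ).smulRight V)).flip (v • V)) c := by
      have h7 : HasFDerivAt (fun c' => fderiv ℝ g (ℓ c')) _ c := h3.hasFDerivAt.comp c (hℓd c)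
      exact ((ContinuousLinearMap.apply ℝ ℝ (v • V)).hasFDerivAt.comp c h7)
    show fderiv ℝ (D v (fun c => g (ℓ c))) c v = _
    rw [h4.fderiv_eq, h6.fderiv]
    rfl
  show D 1 (D 1 (fun c => g (ℓ c))) c + D I (D I (fun c => g (ℓ c))) c = _
  rw [hD 1, hD I, one_smul]
  have h8 : hq g (ℓ c) V = ((lev g (ℓ c) V / 4 : ℝ) : ℂ) := hq_real hg V
  rw [show p + (c - b) • V = ℓ c from rfl, h8,
    Crest.Agent.R273.YauDefs_635.lev333_eq_lev145]
  unfold Crest.Agent.R273.Levi_145.lev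
  have h9 : (4 * (((4 * ((fderiv ℝ (fderiv ℝ g) (ℓ c) V V +
      fderiv ℝ (fderiv ℝ g) (ℓ c) (I • V) (I • V)) / 4) / 4 : ℝ)) : ℂ)) =
      ((fderiv ℝ (fderiv ℝ g) (ℓ c) V V +
      fderiv ℝ (fderiv ℝ g) (ℓ c) (I • V) (I • V) : ℝ) : ℂ) := by
    push_cast
    ring
  rw [h9, ofReal_re]

end Lap

end

end Crest.Agent.R281.Con_166
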