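import Mathlib

/-!
# R281 (COV-TRI, helper593): triangular tuples of polynomials are proper off a hypersurface

`f_1, .., f_n ∈ ℂ[y_1, .., y_n]`, `f_i ∈ ℂ[y_i, .., y_n]`, `∂_i f_i ≠ 0`, `E ≠ 0`. There is a
polynomial `P ≠ 0` such that `P(f(y)) ≠ 0` implies `E(y) ≠ 0`, and `y` is bounded when `f(y)` stays
in a compact subset of `{P ≠ 0}`.
-/

set_option autoImplicit false
open MvPolynomial Set

noncomputable section
namespace Crest.Agent.R281.Cov_593

variable {n : ℕ}

/-- values of a tuple -/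
def evf (f : Fin n → MvPolynomial (Fin n) ℂ) (y : Fin n → ℂ) : Fin n → ℂ := fun i => eval y (f i)

lemma continuous_evf (f : Fin n → MvPolynomial (Fin n) ℂ) : Continuous (evf f) := by
  unfold evf
  exact continuous_pi fun i => MvPolynomial.continuous_eval (f i)

lemma eval_aeval (f : Fin n → MvPolynomial (Fin n) ℂ) (P : MvPolynomial (Fin n) ℂ)
    (y : Fin n → ℂ) : eval y (aeval f P) = eval (evf f y) P := by
  induction P using MvPolynomial.induction_on with
  | C a => simp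
  | add p q hp hq => simp only [map_add, hp, hq]
  | mul_X p i hp => simp only [map_mul, hp, aeval_X, eval_X, evf]

/-- substitution `X_i ↦ 0` kills `∂_i` -/
lemma pderiv_subst (i : Fin n) (g : Fin n → MvPolynomial (Fin n) ℂ)
    (hg : ∀ j, pderiv i (g j) = 0) (p : MvPolynomial (Fin n) ℂ) : pderiv i (aeval g p) = 0 := by
  induction p using MvPolynomial.induction_on with
  | C a => simp
  | add p q hp hq => rw [map_add, map_add, hp, hq, add_zero]
  | mul_X p j hp => rw [map_mul, Derivation.leibniz, hp, aeval_X, hg, smul_zero, smul_zero, add_zero]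

/-- one step: `X_i` is algebraic over `ℂ[f_1, .., f_n, X_j (j > i)]` -/
lemma alg_step (f : Fin n → MvPolynomial (Fin n) ℂ) (i : Fin n) (hv : ∀ j ∈ (f i).vars, i ≤ j)
    (hd : pderiv i (f i) ≠ 0) :
    IsAlgebraic (Algebra.adjoin ℂ (range f ∪ {p | ∃ j, i < j ∧ p = X j}))
      (X i : MvPolynomial (Fin n) ℂ) := by
  set s : Set (MvPolynomial (Fin n) ℂ) := range f ∪ {p | ∃ j, i < j ∧ p = X j} with hs
  set R₁ := Algebra.adjoin ℂ s with hR₁
  have hX : ∀ j, i < j → (X j : MvPolynomial (Fin n) ℂ) ∈ R₁ := fun j hj =>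
    Algebra.subset_adjoin (Or.inr ⟨j, hj, rfl⟩)
  have hf : f i ∈ R₁ := Algebra.subset_adjoin (Or.inl ⟨i, rfl⟩)
  let θ : Fin n → Polynomial R₁ := fun j =>
    if h : i < j then Polynomial.C ⟨X j, hX j h⟩ else if j = i then Polynomial.X else 0
  obtain ⟨q, hqd⟩ : ∃ q : Polynomial R₁, q = aeval θ (f i) - Polynomial.C ⟨f i, hf⟩ := ⟨_, rfl⟩
  have key : ∀ (x : MvPolynomial (Fin n) ℂ), Polynomial.aeval x (aeval θ (f i)) =
      aeval (fun j => if i < j then X j else if j = i then x else 0) (f i) := by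
    intro x
    have h1 : (Polynomial.aeval (R := R₁) x (aeval θ (f i)) : MvPolynomial (Fin n) ℂ) =
        (((Polynomial.aeval (R := R₁) x).restrictScalars ℂ).comp (aeval θ)) (f i) := rfl
    rw [h1]
    congr 1
    apply MvPolynomial.algHom_ext
    intro j
    simp only [AlgHom.comp_apply, aeval_X, AlgHom.restrictScalars_apply, θ]
    by_cases h : i < j
    · simp [h]
    · by_cases h' : j = i
      · simp [h']
      · simp [h, h']
  have hqe : ∀ x : MvPolynomial (Fin n) ℂ, Polynomial.aeval x q =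
      Polynomial.aeval x (aeval θ (f i)) - Polynomial.aeval x (Polynomial.C (⟨f i, hf⟩ : R₁)) := by
    intro x
    have h1 : aeval θ (f i) = q + Polynomial.C ⟨f i, hf⟩ := by rw [hqd]; ring
    rw [h1, map_add]; ring
  refine ⟨q, ?_, ?_⟩
  · intro hq
    have h0 : Polynomial.aeval (0 : MvPolynomial (Fin n) ℂ) q = 0 := by rw [hq, map_zero]
    rw [hqe, key, Polynomial.aeval_C] at h0
    have h1 : aeval (fun j => if i < j then X j else if j = i then (0 : MvPolynomial (Fin n) ℂ)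
        else 0) (f i) = f i := by
      have h2 : algebraMap R₁ (MvPolynomial (Fin n) ℂ) ⟨f i, hf⟩ = f i := rfl
      rw [h2] at h0
      exact sub_eq_zero.1 h0
    apply hd
    rw [← h1]
    apply pderiv_subst
    intro j
    by_cases h : i < j
    · rw [if_pos h, pderiv_X_of_ne h.ne']
    · rw [if_neg h]
      split_ifs <;> simp
  · rw [hqe, key, Polynomial.aeval_C]
    have h2 : algebraMap R₁ (MvPolynomial (Fin n) ℂ) ⟨f i, hf⟩ = f i := rfl
    rw [h2, sub_eq_zero]
    have h3 : aeval (fun j => if i < j then X j else if j = i then (X i : MvPolynomial (Fin n) ℂ)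
        else 0) (f i) = aeval X (f i) := by
      apply MvPolynomial.eval₂Hom_congr' rfl _ rfl
      intro j hj _
      rcases (hv j hj).lt_or_eq with h | h
      · rw [if_pos h]
      · subst h
        rw [if_neg (lt_irrefl _), if_pos rfl]
    rw [h3, aeval_X_left_apply]

/-- every polynomial is algebraic over `ℂ[f_1, .., f_n]` -/
theorem alg_all (f : Fin n → MvPolynomial (Fin n) ℂ) (hv : ∀ i, ∀ j ∈ (f i).vars, i ≤ j)
    (hd : ∀ i, pderiv i (f i) ≠ 0) (x : MvPolynomial (Fin n) ℂ) :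
    IsAlgebraic (Algebra.adjoin ℂ (range f)) x := by
  have hX : ∀ i, IsAlgebraic (Algebra.adjoin ℂ (range f)) (X i : MvPolynomial (Fin n) ℂ) := by
    intro i
    induction i using WellFoundedGT.induction with
    | ind i ih =>
      refine IsAlgebraic.adjoin_of_forall_isAlgebraic (s := range f ∪ {p | ∃ j, i < j ∧ p = X j})
        ?_ (alg_step f i (hv i) (hd i))
      rintro p ⟨hp | ⟨j, hj, rfl⟩, hp'⟩
      · exact absurd hp hp'
      · exact ih j hj
  induction x using MvPolynomial.induction_on with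
  | C a =>
    exact isAlgebraic_algebraMap (algebraMap ℂ (Algebra.adjoin ℂ (range f)) a)
  | add p q hp hq => exact hp.add hq
  | mul_X p i hp => exact hp.mul (hX i)

/-- a nonzero polynomial divides a nonzero polynomial in `f` -/
theorem exists_dvd (f : Fin n → MvPolynomial (Fin n) ℂ) (hv : ∀ i, ∀ j ∈ (f i).vars, i ≤ j)
    (hd : ∀ i, pderiv i (f i) ≠ 0) {E : MvPolynomial (Fin n) ℂ} (hE : E ≠ 0) :
    ∃ P : MvPolynomial (Fin n) ℂ, P ≠ 0 ∧ E ∣ aeval f P := by
  obtain ⟨r, hr, hdvd⟩ := (alg_all f hv hd E).exists_nonzero_dvd (mem_nonZeroDivisors_of_ne_zero hE)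
  have hr' : (r : MvPolynomial (Fin n) ℂ) ∈ (aeval f : MvPolynomial (Fin n) ℂ →ₐ[ℂ] _).range := by
    rw [← Algebra.adjoin_range_eq_range_aeval]
    exact r.2
  obtain ⟨P, hP⟩ := hr'
  refine ⟨P, ?_, ?_⟩
  · rintro rfl
    apply hr
    have h1 : (r : MvPolynomial (Fin n) ℂ) = 0 := by rw [← hP]; simp
    exact Subtype.ext h1
  · have h1 : aeval f P = algebraMap (Algebra.adjoin ℂ (range f)) (MvPolynomial (Fin n) ℂ) r := hP
    rw [h1]
    exact hdvd

/-- `A(f) x` is integral over `ℂ[w]` through `f` -/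
theorem exists_monic (f : Fin n → MvPolynomial (Fin n) ℂ) (hv : ∀ i, ∀ j ∈ (f i).vars, i ≤ j)
    (hd : ∀ i, pderiv i (f i) ≠ 0) (x : MvPolynomial (Fin n) ℂ) :
    ∃ (A : MvPolynomial (Fin n) ℂ) (q : Polynomial (MvPolynomial (Fin n) ℂ)), A ≠ 0 ∧ q.Monic ∧
      ∀ y, (q.map (eval (evf f y))).IsRoot (eval (evf f y) A * eval y x) := by
  obtain ⟨r, hr, p, hpm, hp⟩ := (alg_all f hv hd x).exists_integral_multiple
  have hsurj : ∀ r : Algebra.adjoin ℂ (range f), ∃ P : MvPolynomial (Fin n) ℂ,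
      aeval f P = (r : MvPolynomial (Fin n) ℂ) := by
    intro r
    have hr' : (r : MvPolynomial (Fin n) ℂ) ∈ (aeval f : MvPolynomial (Fin n) ℂ →ₐ[ℂ] _).range := by
      rw [← Algebra.adjoin_range_eq_range_aeval]
      exact r.2
    exact hr'
  -- the ring homomorphism `ℂ[w] → ℂ[f]`
  let φ : MvPolynomial (Fin n) ℂ →+* Algebra.adjoin ℂ (range f) :=
    (aeval f : MvPolynomial (Fin n) ℂ →ₐ[ℂ] MvPolynomial (Fin n) ℂ).toRingHom.codRestrict
      (Algebra.adjoin ℂ (range f)) (fun P => by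
        rw [Algebra.adjoin_range_eq_range_aeval]; exact ⟨P, rfl⟩)
  have hφ : ∀ P, (φ P : MvPolynomial (Fin n) ℂ) = aeval f P := fun P => rfl
  have hφs : Function.Surjective φ := by
    intro r
    obtain ⟨P, hP⟩ := hsurj r
    exact ⟨P, Subtype.ext (by rw [hφ, hP])⟩
  obtain ⟨A, hA⟩ := hφs r
  have hpl : p ∈ Polynomial.lifts φ := by
    rw [Polynomial.lifts_iff_coeff_lifts]
    intro k
    exact hφs _
  obtain ⟨q, hq, -, hqm⟩ := Polynomial.lifts_and_natDegree_eq_and_monic hpl hpm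
  refine ⟨A, q, ?_, hqm, ?_⟩
  · rintro rfl
    exact hr (by rw [← hA, map_zero])
  · intro y
    rw [← hq] at hp
    rw [Polynomial.eval₂_map] at hp
    have h1 := congrArg (eval y) hp
    rw [map_zero, Polynomial.hom_eval₂] at h1
    have h2 : ((eval y).comp ((algebraMap (Algebra.adjoin ℂ (range f))
        (MvPolynomial (Fin n) ℂ)).comp φ)) = eval (evf f y) := by
      apply RingHom.ext
      intro P
      show eval y (φ P : MvPolynomial (Fin n) ℂ) = eval (evf f y) P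
      rw [hφ, eval_aeval]
    rw [h2] at h1
    have h3 : eval y (r • x) = eval (evf f y) A * eval y x := by
      have h4 : r • x = (r : MvPolynomial (Fin n) ℂ) * x := rfl
      rw [h4, map_mul, ← hA, hφ, eval_aeval]
    rw [h3] at h1
    rw [Polynomial.IsRoot, Polynomial.eval_map]
    exact h1

/-- uniform bound for the roots of monic polynomials -/
lemma root_bound {q : Polynomial (MvPolynomial (Fin n) ℂ)} (hq : q.Monic) {C : Set (Fin n → ℂ)}
    (hC : IsCompact C) : ∃ B : ℝ, ∀ w ∈ C, ∀ z : ℂ, (q.map (eval w)).IsRoot z → ‖z‖ ≤ B := by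
  have h1 : ∀ k, ∃ B : ℝ, ∀ w ∈ C, ‖eval w (q.coeff k)‖ ≤ B := fun k =>
    hC.exists_bound_of_continuousOn (MvPolynomial.continuous_eval (q.coeff k)).continuousOn
  choose b hb using h1
  refine ⟨(∑ k ∈ Finset.range q.natDegree, |b k|) + 1, fun w hw z hz => ?_⟩
  have hm : (q.map (eval w)).Monic := hq.map _
  have h2 := (hz.norm_lt_cauchyBound hm.ne_zero).le
  have h3 : (Polynomial.cauchyBound (q.map (eval w)) : ℝ) ≤
      (∑ k ∈ Finset.range q.natDegree, |b k|) + 1 := by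
    rw [Polynomial.cauchyBound, hm.leadingCoeff, nnnorm_one, div_one, NNReal.coe_add, NNReal.coe_one]
    gcongr
    rw [hq.natDegree_map]
    have h4 : (Finset.range q.natDegree).sup (fun k => ‖(q.map (eval w)).coeff k‖₊) ≤
        ∑ k ∈ Finset.range q.natDegree, Real.nnabs (b k) := by
      apply Finset.sup_le
      intro k hk
      refine le_trans ?_ (Finset.single_le_sum (f := fun k => Real.nnabs (b k))
        (fun _ _ => bot_le) hk)
      rw [← NNReal.coe_le_coe, coe_nnnorm, Real.coe_nnabs, Polynomial.coeff_map]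
      exact (hb k w hw).trans (le_abs_self _)
    calc (((Finset.range q.natDegree).sup (fun k => ‖(q.map (eval w)).coeff k‖₊) : NNReal) : ℝ) ≤
        ((∑ k ∈ Finset.range q.natDegree, Real.nnabs (b k) : NNReal) : ℝ) := NNReal.coe_le_coe.2 h4
      _ = _ := by rw [NNReal.coe_sum]; simp
  have h5 : (‖z‖₊ : ℝ) ≤ _ := NNReal.coe_le_coe.2 h2
  rw [coe_nnnorm] at h5
  exact h5.trans h3

/-- **COV-TRI** -/
theorem cov_tri (f : Fin n → MvPolynomial (Fin n) ℂ) (hv : ∀ i, ∀ j ∈ (f i).vars, i ≤ j)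
    (hd : ∀ i, pderiv i (f i) ≠ 0) {E : MvPolynomial (Fin n) ℂ} (hE : E ≠ 0) :
    ∃ P : MvPolynomial (Fin n) ℂ, P ≠ 0 ∧
      (∀ y, eval (evf f y) P ≠ 0 → eval y E ≠ 0) ∧
      ∀ C : Set (Fin n → ℂ), IsCompact C → (∀ w ∈ C, eval w P ≠ 0) →
        ∃ B : ℝ, ∀ y, evf f y ∈ C → ∀ i, ‖y i‖ ≤ B := by
  obtain ⟨P0, hP0, hdvd⟩ := exists_dvd f hv hd hE
  choose A q hA hqm hroot using fun i => exists_monic f hv hd (X i)
  refine ⟨P0 * ∏ i, A i, mul_ne_zero hP0 (Finset.prod_ne_zero_iff.2 fun i _ => hA i), ?_, ?_⟩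
  · intro y hy hEy
    apply hy
    obtain ⟨u, hu⟩ := hdvd
    rw [map_mul, ← eval_aeval, hu, map_mul, hEy, zero_mul, zero_mul]
  · intro C hC hPC
    have hAne : ∀ i, ∀ w ∈ C, eval w (A i) ≠ 0 := by
      intro i w hw h
      apply hPC w hw
      rw [map_mul, map_prod, Finset.prod_eq_zero (Finset.mem_univ i) h, mul_zero]
    choose b hb using fun i => root_bound (hqm i) hC
    have hinv : ∀ i, ∃ c : ℝ, ∀ w ∈ C, ‖(eval w (A i))⁻¹‖ ≤ c := fun i =>
      hC.exists_bound_of_continuousOn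
        ((MvPolynomial.continuous_eval (A i)).continuousOn.inv₀ (hAne i))
    choose c hc using hinv
    refine ⟨∑ i, |c i| * |b i|, fun y hy i => ?_⟩
    have h1 := hb i _ hy _ (hroot i y)
    rw [eval_X] at h1
    have h2 : y i = (eval (evf f y) (A i))⁻¹ * (eval (evf f y) (A i) * y i) := by
      rw [← mul_assoc, inv_mul_cancel₀ (hAne i _ hy), one_mul]
    have h3 : ‖y i‖ ≤ |c i| * |b i| := by
      rw [h2, norm_mul]
      exact mul_le_mul ((hc i _ hy).trans (le_abs_self _)) (h1.trans (le_abs_self _))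
        (norm_nonneg _) (abs_nonneg _)
    exact h3.trans (Finset.single_le_sum (f := fun i => |c i| * |b i|)
      (fun _ _ => by positivity) (Finset.mem_univ i))

/-- form of the field `cov` of `SIn_14.SDat`: `y : U → ℂ^n` continuous and proper. -/
theorem cov_field {X : Type*} [TopologicalSpace X] [T2Space X]
    (f : Fin n → MvPolynomial (Fin n) ℂ) (hv : ∀ i, ∀ j ∈ (f i).vars, i ≤ j)
    (hd : ∀ i, pderiv i (f i) ≠ 0) {E : MvPolynomial (Fin n) ℂ} (hE : E ≠ 0)
    {U : Set X} {y : X → Fin n → ℂ} (hy : ContinuousOn y U)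
    (hprop : ∀ B : ℝ, IsCompact {x | x ∈ U ∧ ∀ i, ‖y x i‖ ≤ B})
    {NZ : X → Prop} {Q : X → Fin n → ℂ} {J : X → ℝ}
    (hNZ : ∀ x, NZ x ↔ x ∈ U ∧ ∀ i, eval (y x) (f i) ≠ 0)
    (hQ : ∀ x, NZ x → Q x = fun i => eval (y x) (f i))
    (hJ : ∀ x, NZ x → eval (y x) E ≠ 0 → J x ≠ 0) :
    ∃ P : MvPolynomial (Fin n) ℂ, P ≠ 0 ∧ (∀ x, NZ x → eval (Q x) P ≠ 0 → J x ≠ 0) ∧
      ∀ C : Set (Fin n → ℂ), IsCompact C → (∀ w ∈ C, (∀ j, w j ≠ 0) ∧ eval w P ≠ 0) →
        IsCompact {x | NZ x ∧ Q x ∈ C} := by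
  obtain ⟨P, hP, h1, h2⟩ := cov_tri f hv hd hE
  refine ⟨P, hP, ?_, ?_⟩
  · intro x hx hPx
    apply hJ x hx
    apply h1
    rw [hQ x hx] at hPx
    exact hPx
  · intro C hC hCP
    obtain ⟨B, hB⟩ := h2 C hC fun w hw => (hCP w hw).2
    have e : {x | NZ x ∧ Q x ∈ C} = {x | x ∈ U ∧ ∀ i, ‖y x i‖ ≤ B} ∩ (fun x => evf f (y x)) ⁻¹' C := by
      ext x
      constructor
      · rintro ⟨hx, hxC⟩
        rw [hQ x hx] at hxC
        exact ⟨⟨((hNZ x).1 hx).1, fun i => hB (y x) hxC i⟩, hxC⟩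
      · rintro ⟨⟨hxU, -⟩, hxC⟩
        have hx : NZ x := (hNZ x).2 ⟨hxU, fun i => (hCP _ hxC).1 i⟩
        refine ⟨hx, ?_⟩
        rw [hQ x hx]
        exact hxC
    rw [e]
    have hK := hprop B
    have hcont : ContinuousOn (fun x => evf f (y x)) {x | x ∈ U ∧ ∀ i, ‖y x i‖ ≤ B} :=
      (continuous_evf f).comp_continuousOn (hy.mono fun x hx => hx.1)
    obtain ⟨s, hs, hse⟩ := hcont.preimage_isClosed_of_isClosed hK.isClosed hC.isClosed |> fun h => 
      (⟨_, h, rfl⟩ : ∃ s, IsClosed s ∧ s = {x | x ∈ U ∧ ∀ i, ‖y x i‖ ≤ B} ∩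
        (fun x => evf f (y x)) ⁻¹' C)
    rw [← hse]
    exact hK.of_isClosed_subset hs (by rw [hse]; exact inter_subset_left)

end Crest.Agent.R281.Cov_593
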