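import Crest.Agent.R281.Ti7_846

/-!
# Row 281, TOPINT, part 8 (helper846): orientation, positivity, change of the index type

* `ori_of_pos`, `oriM_of_pos` : orientation from a family of forms with positive product
* `TP_kah_pos`, `II_kah_pos`  : the top power of a Kaehler form is positive
* `bcr e`                     : `bc n` reindexed along `e : Fin n ≃ K`; `II_reindex`
-/

set_option autoImplicit false
set_option linter.unusedSectionVars false

open Set Filter Topology MeasureTheory Complex
open scoped ContDiff Matrix ComplexConjugate ComplexOrder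

namespace Crest.Agent.R281.Ti_846

open Crest.Agent.R281.HkR_835 Equiv
open Crest.Agent.R275.Geo Crest.Agent.R275.C1d194 Crest.Agent.R275.Core144
open Crest.Agent.R273.Vm_333 Crest.Agent.R273.Vol_333 Crest.Agent.R273.HM_333
open Crest.Agent.R273.Kah_333 Crest.Agent.R273.Defs_333

noncomputable section

section orient

variable {V X : Type} [NormedAddCommGroup V] [NormedSpace ℝ V] [FiniteDimensional ℝ V]
  [TopologicalSpace X] {K : Type} [Fintype K] [DecidableEq K] {C C' : RCh V X}

/-- orientation from forms with positive product -/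
theorem ori_of_pos (b : Module.Basis (K × Fin 2) ℝ V) (w : K → F2 C)
    (hp : ∀ i, ∀ z ∈ (C.e i).target, 0 < TP b (fun k => (w k).w i z)) : Ori C := by
  intro i j z hz
  have h1 : TP b (fun k => (w k).w i z) =
      (fderiv ℝ (C.t i j) z).det * TP b (fun k => (w k).w j (C.t i j z)) :=
    TP_comp' b (fderiv ℝ (C.t i j) z) fun k u v => (w k).tr i j z hz u v
  have h2 := hp i z hz.1
  have h3 := hp j _ (RCh.t_mem hz).1
  rw [h1] at h2
  exact pos_of_mul_pos_left h2 h3.le

/-- two systems of charts have the same orientation if a product is positive in both -/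
theorem oriM_of_pos (h : Cmp C C') (b : Module.Basis (K × Fin 2) ℝ V) (w : K → F2 C)
    (hp : ∀ i, ∀ z ∈ (C.e i).target, 0 < TP b (fun k => (w k).w i z))
    (hp' : ∀ j, ∀ z ∈ (C'.e j).target, 0 < TP b (fun k => (h.F (w k)).w j z)) : OriM C C' := by
  intro i j z hz
  have h1 : TP b (fun k => (h.F (w k)).w j z) =
      (fderiv ℝ (mt C C' i j) z).det * TP b (fun k => (w k).w i (mt C C' i j z)) :=
    TP_comp' b (fderiv ℝ (mt C C' i j) z) fun k u v => h.F_w (w k) hz u v
  have h2 := hp' j z hz.1
  have h3 := hp i _ (Cmp.mt_mem hz).1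
  rw [h1] at h2
  exact pos_of_mul_pos_left h2 h3.le

theorem OriM.symm (h : Cmp C C') (ho : OriM C C') : OriM C' C := by
  intro j i z hz
  have hz' := Cmp.mt_mem hz
  have h1 := ho i j _ hz'
  have h2 : (fderiv ℝ (mt C C' i j) (mt C' C j i z)).comp (fderiv ℝ (mt C' C j i) z) =
      ContinuousLinearMap.id ℝ V := by
    ext v
    exact h.symm.d_d hz v
  have h3 := congrArg ContinuousLinearMap.det h2
  have h4 : ((fderiv ℝ (mt C C' i j) (mt C' C j i z)).comp (fderiv ℝ (mt C' C j i) z)).det =
      (fderiv ℝ (mt C C' i j) (mt C' C j i z)).det * (fderiv ℝ (mt C' C j i) z).det :=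
    LinearMap.det_comp _ _
  rw [h4] at h3
  have h5 : (ContinuousLinearMap.id ℝ V).det = 1 := LinearMap.det_id
  rw [h5] at h3
  by_contra h6
  push Not at h6
  have := mul_nonpos_of_nonneg_of_nonpos h1.le h6
  linarith

end orient

section reindex

variable {V X : Type} [NormedAddCommGroup V] [NormedSpace ℝ V] [FiniteDimensional ℝ V]
  [MeasurableSpace V] [BorelSpace V] (μ : Measure V) [μ.IsAddHaarMeasure] [TopologicalSpace X]
  [CompactSpace X]
  {K K' : Type} [Fintype K] [DecidableEq K] [Fintype K'] [DecidableEq K'] {C : RCh V X}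

/-- change of the index type -/
theorem TP_reindex (e : K ≃ K') (b : K × Fin 2 → V) (w : K → Bil V) :
    TP (fun p : K' × Fin 2 => b ((e.symm.prodCongr (Equiv.refl (Fin 2))) p))
      (fun k => w (e.symm k)) = TP b w := by
  unfold TP
  set ρ : K × Fin 2 ≃ K' × Fin 2 := e.prodCongr (Equiv.refl (Fin 2)) with hρ
  symm
  refine Fintype.sum_equiv ρ.permCongr _ _ fun σ => ?_
  rw [Perm.sign_permCongr]
  congr 1
  refine Fintype.prod_equiv e _ _ fun k => ?_
  have h1 : ∀ f : Fin 2, (e.symm.prodCongr (Equiv.refl (Fin 2))) ((ρ.permCongr σ) (e k, f)) =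
      σ (k, f) := by
    intro f
    have h2 : ρ.symm (e k, f) = (k, f) := by
      rw [Equiv.symm_apply_eq]
      rfl
    rw [Equiv.permCongr_apply, h2]
    show ρ.symm (ρ (σ (k, f))) = _
    rw [Equiv.symm_apply_apply]
  show w k _ _ = w (e.symm (e k)) (b ((e.symm.prodCongr (Equiv.refl (Fin 2)))
    ((ρ.permCongr σ) (e k, 0)))) (b ((e.symm.prodCongr (Equiv.refl (Fin 2)))
    ((ρ.permCongr σ) (e k, 1))))
  rw [h1, h1, Equiv.symm_apply_apply]

theorem II_reindex (e : K ≃ K') (b : Module.Basis (K × Fin 2) ℝ V) (P : RPart C) (w : K → F2 C) :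
    II μ (b.reindex (e.prodCongr (Equiv.refl (Fin 2)))) P (fun k => w (e.symm k)) =
      II μ b P w := by
  refine intT_congr μ P fun i z _ => ?_
  rw [TopF.of_D, TopF.of_D, ← TP_reindex e b (fun k => (w k).w i z)]
  congr 1
  funext p
  rw [Module.Basis.reindex_apply]
  rfl

end reindex

section kah

variable {n : ℕ} {M : Type} [TopologicalSpace M] {A : Atl n M}

theorem TP_kah (K : Kah A) {i : A.ι} {x : M} (hx : x ∈ (A.e i).source) :
    TP (bc n) (fun _ => (ofKah K).f2.w i (A.e i x)) = 2 ^ n * n.factorial * (volK K).w i x := by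
  have h1 := TP_k11 (fun _ : Fin n => ofKah K) hx
  have h2 : (MD fun _ : Fin n => (ofKah K).g i x) = n.factorial * (K.g i x).det := MD_same _
  rw [h2, ← volK_w K i hx] at h1
  have h3 : ((TP (bc n) (fun _ : Fin n => (ofKah K).f2.w i (A.e i x)) : ℝ) : ℂ) =
      ((2 ^ n * n.factorial * (volK K).w i x : ℝ) : ℂ) := by
    rw [h1]
    push_cast
    ring
  exact_mod_cast h3

/-- the top power of a Kaehler form is positive -/
theorem TP_kah_pos (K : Kah A) {i : A.ι} {z : Cn n} (hz : z ∈ (A.e i).target) :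
    0 < TP (bc n) (fun _ => (ofKah K).f2.w i z) := by
  have hx := (A.e i).map_target hz
  have h1 := TP_kah K hx
  rw [(A.e i).right_inv hz] at h1
  rw [h1]
  have := (volK K).pos i _ hx
  positivity

/-- the basis of `Cn n` indexed by `K × Fin 2` -/
def bcr {K : Type} (e : Fin n ≃ K) : Module.Basis (K × Fin 2) ℝ (Cn n) :=
  (bc n).reindex (e.prodCongr (Equiv.refl (Fin 2)))

theorem bcr_refl : bcr (Equiv.refl (Fin n)) = bc n := by
  unfold bcr
  ext p
  rw [Module.Basis.reindex_apply]
  rfl

variable {K : Type} [Fintype K] [DecidableEq K]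

theorem TP_bcr (e : Fin n ≃ K) (w : K → Bil (Cn n)) :
    TP (bcr e) w = TP (bc n) (fun k => w (e k)) := by
  rw [← TP_reindex e (bc n) (fun k => w (e k))]
  simp only [Equiv.apply_symm_apply]
  congr 1
  funext p
  unfold bcr
  rw [Module.Basis.reindex_apply]
  rfl

theorem TP_bcr_kah_pos (e : Fin n ≃ K) (G : Kah A) {i : A.ι} {z : Cn n}
    (hz : z ∈ (A.e i).target) : 0 < TP (bcr e) (fun _ => (ofKah G).f2.w i z) := by
  rw [TP_bcr]
  exact TP_kah_pos G hz

variable [CompactSpace M]

theorem II_bcr (e : Fin n ≃ K) (P : RPart (ofAtl A)) (w : K → F2 (ofAtl A)) :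
    II (lc n) (bcr e) P w = II (lc n) (bc n) P (fun k => w (e k)) := by
  rw [← II_reindex (lc n) e (bc n) P (fun k => w (e k))]
  simp only [Equiv.apply_symm_apply]
  rfl

variable [Countable A.ι] [Nonempty M]

theorem II_kah_pos (G : Kah A) (P : RPart (ofAtl A)) :
    0 < II (lc n) (bc n) P (fun _ => (ofKah G).f2) := by
  let _ : MeasurableSpace M := borel M
  have : BorelSpace M := ⟨rfl⟩
  rw [II_same G P]
  have h1 := isOpenPos_vm (volK G)
  have h2 := isFinite_vm (volK G)
  have h3 : 0 < (vm (volK G)).real univ := by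
    rw [measureReal_def]
    exact ENNReal.toReal_pos (isOpen_univ.measure_pos _ univ_nonempty).ne' (measure_ne_top _ _)
  positivity

/-- positivity of the volume (input `hpos` of `Fuj5_207`) -/
theorem IM_kah_pos (e : Fin n ≃ K) (P : RPart (ofAtl A)) (G : Kah A) :
    0 < IM (lc n) (bcr e) P (fun _ => (ofKah G).f2) := by
  rw [IM_apply, II_bcr]
  exact II_kah_pos G P

end kah

end

end Crest.Agent.R281.Ti_846
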