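import Crest.Agent.R281.Ti2_846
import Mathlib.Analysis.Calculus.BumpFunction.FiniteDimension
import Mathlib.Analysis.Calculus.BumpFunction.Basic

/-!
# Row 281, TOPINT, part 9 (helper846): partitions of unity

`exists_RPart` : every system of charts on a compact T2 space has a partition `RPart C`, with
nonnegative functions, subordinate to a given system of neighbourhoods.
-/

set_option autoImplicit false
set_option linter.unusedSectionVars false

open Set Filter Topology
open scoped ContDiff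

namespace Crest.Agent.R281.Ti_846

open Crest.Agent.R281.HkR_835

noncomputable section

variable {V X : Type} [NormedAddCommGroup V] [NormedSpace ℝ V] [FiniteDimensional ℝ V]
  [TopologicalSpace X] {C : RCh V X}

/-- smooth functions on `X` -/
def SmX (C : RCh V X) (f : X → ℝ) : Prop :=
  ∀ i, ContDiffOn ℝ ∞ (fun z => f ((C.e i).symm z)) (C.e i).target

theorem exists_bumpX [T2Space X] (p : X) {i : C.ι} (hi : p ∈ (C.e i).source) {U : Set X}
    (hU : U ∈ 𝓝 p) : ∃ b : X → ℝ, SmX C b ∧ {x | b x = 1} ∈ 𝓝 p ∧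
      tsupport b ⊆ (C.e i).source ∧ tsupport b ⊆ U ∧ ∀ x, 0 ≤ b x := by
  classical
  set e := C.e i with he
  have h1 : {z | z ∈ e.target ∧ e.symm z ∈ interior U} ∈ 𝓝 (e p) := by
    refine (e.isOpen_inter_preimage_symm isOpen_interior).mem_nhds ⟨e.map_source hi, ?_⟩
    show e.symm (e p) ∈ interior U
    rw [e.left_inv hi]
    exact mem_interior_iff_mem_nhds.2 hU
  obtain ⟨r, hr, hrs⟩ := Metric.nhds_basis_closedBall.mem_iff.1 h1
  let f : ContDiffBump (e p) := ⟨r / 2, r, by positivity, by linarith⟩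
  set Kc : Set X := e.symm '' Metric.closedBall (e p) r with hKc
  have hKt : Metric.closedBall (e p) r ⊆ e.target := fun z hz => (hrs hz).1
  have hK : IsCompact Kc :=
    (isCompact_closedBall _ _).image_of_continuousOn (e.continuousOn_symm.mono hKt)
  have hKs : Kc ⊆ e.source := by
    rintro _ ⟨z, hz, rfl⟩
    exact e.map_target (hKt hz)
  have hKU : Kc ⊆ U := by
    rintro _ ⟨z, hz, rfl⟩
    exact interior_subset (hrs hz).2
  set b : X → ℝ := fun x => if x ∈ e.source then f (e x) else 0 with hb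
  have hb0 : ∀ x, x ∉ Kc → b x = 0 := by
    intro x hx
    by_cases hxs : x ∈ e.source
    · have h2 : b x = f (e x) := if_pos hxs
      rw [h2]
      refine f.zero_of_le_dist ?_
      by_contra h3
      push Not at h3
      exact hx ⟨e x, Metric.mem_closedBall.2 h3.le, e.left_inv hxs⟩
    · exact if_neg hxs
  have hsupp : tsupport b ⊆ Kc := by
    refine closure_minimal (fun x hx => ?_) hK.isClosed
    by_contra h2
    exact hx (hb0 x h2)
  refine ⟨b, ?_, ?_, hsupp.trans hKs, hsupp.trans hKU, ?_⟩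
  · intro j z hz
    refine ContDiffAt.contDiffWithinAt ?_
    by_cases hx : (C.e j).symm z ∈ e.source
    · have hz' : z ∈ C.ov j i := ⟨hz, hx⟩
      have h2 : (fun y => b ((C.e j).symm y)) =ᶠ[𝓝 z] fun y => f (C.t j i y) := by
        filter_upwards [(RCh.isOpen_ov j i).mem_nhds hz'] with y hy
        exact if_pos hy.2
      have h3 : ContDiffAt ℝ ∞ (C.t j i) z :=
        (RCh.t_smooth j i).contDiffAt ((RCh.isOpen_ov j i).mem_nhds hz')
      exact (ContDiffAt.comp z f.contDiffAt h3).congr_of_eventuallyEq h2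
    · have h2 : (C.e j).symm z ∈ Kcᶜ := fun h3 => hx (hKs h3)
      have ho : IsOpen {y | y ∈ (C.e j).target ∧ (C.e j).symm y ∈ Kcᶜ} :=
        (C.e j).isOpen_inter_preimage_symm hK.isClosed.isOpen_compl
      have h3 : (fun y => b ((C.e j).symm y)) =ᶠ[𝓝 z] fun _ => (0 : ℝ) := by
        filter_upwards [ho.mem_nhds ⟨hz, h2⟩] with y hy
        exact hb0 _ hy.2
      exact contDiffAt_const.congr_of_eventuallyEq h3
  · have h2 : e ⁻¹' Metric.closedBall (e p) (r / 2) ∈ 𝓝 p :=
      (e.continuousAt hi).preimage_mem_nhds (Metric.closedBall_mem_nhds _ (by positivity))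
    filter_upwards [h2, e.open_source.mem_nhds hi] with x hx hxs
    have h3 : b x = f (e x) := if_pos hxs
    show b x = 1
    rw [h3]
    exact f.one_of_mem_closedBall hx
  · intro x
    by_cases hxs : x ∈ e.source
    · have h2 : b x = f (e x) := if_pos hxs
      rw [h2]
      exact f.nonneg
    · exact (if_neg hxs).ge

/-- **partitions of unity** -/
theorem exists_RPart [T2Space X] [CompactSpace X] (C : RCh V X) (U : X → Set X)
    (hU : ∀ p, U p ∈ 𝓝 p) : ∃ P : RPart C, (∀ k x, 0 ≤ P.ψ k x) ∧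
      ∀ k, ∃ p, tsupport (P.ψ k) ⊆ U p := by
  classical
  choose i hi using C.cover
  choose b hb1 hb2 hb3 hb4 hb5 using fun p => exists_bumpX p (hi p) (hU p)
  obtain ⟨t, ht⟩ := isCompact_univ.elim_nhds_subcover (fun p => {x | b p x = 1})
    (fun p _ => hb2 p)
  have hS : ∀ x, 1 ≤ ∑ p ∈ t, b p x := by
    intro x
    obtain ⟨p, hp, hx⟩ := mem_iUnion₂.1 (ht.2 (mem_univ x))
    calc (1 : ℝ) = b p x := hx.symm
      _ ≤ ∑ p ∈ t, b p x := Finset.single_le_sum (f := fun p => b p x)
          (fun p _ => hb5 p x) hp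
  have hS0 : ∀ x, (∑ p ∈ t, b p x) ≠ 0 := fun x => (lt_of_lt_of_le one_pos (hS x)).ne'
  have hsub : ∀ p, tsupport (fun x => b p x * (∑ q ∈ t, b q x)⁻¹) ⊆ tsupport (b p) := by
    intro p
    refine closure_mono fun x hx h0 => hx ?_
    show b p x * _ = 0
    rw [h0, zero_mul]
  refine ⟨{
    σ := t
    c := fun p => i p
    ψ := fun p x => b p x * (∑ q ∈ t, b q x)⁻¹
    sm := fun p j => (hb1 p j).mul ((ContDiffOn.sum fun q _ => hb1 q j).inv fun z _ => hS0 _)
    sub := fun p => (hsub p).trans (hb3 p)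
    sum_one := fun x => ?_ }, ?_, ?_⟩
  · rw [← Finset.sum_mul, Finset.sum_coe_sort t (fun p => b p x), mul_inv_cancel₀ (hS0 x)]
  · intro p x
    exact mul_nonneg (hb5 p x) (inv_nonneg.2 (zero_le_one.trans (hS x)))
  · intro p
    exact ⟨p, (hsub p).trans (hb4 p)⟩

theorem nonempty_RPart [T2Space X] [CompactSpace X] (C : RCh V X) : Nonempty (RPart C) := by
  obtain ⟨P, -⟩ := exists_RPart C (fun _ => univ) (fun _ => univ_mem)
  exact ⟨P⟩

end

end Crest.Agent.R281.Ti_846
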