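import Crest.Agent.R281.Pfa2_69
import Crest.Agent.R281.HkR9_835
import Crest.Agent.R281.HkP3_508
import Crest.Agent.R281.Ti8_846
import Crest.Agent.R281.Ti9_846
import Crest.Agent.R260.NN6_900

/-!
# Row 281, MEMBER NODE (helper69): from a hyperkaehler triple on fixed real charts to
# (atlas, Ricci flat metric, holomorphic symplectic form)

* `MemK H A K σ h` : the dictionary; `exists_memK` : existence (Newlander-Nirenberg included)
* `TP_ne`          : `TP (om 0) ≠ 0` in the real charts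
* `oriM_of_II`     : `0 < ∫ om₀^n` ==> the orientations of `C` and `ofAtl A` agree
* `MemK.vol`, `MemK.mass`, `MemK.om` : volume, mass, `n`-form of the member
-/

set_option autoImplicit false
set_option linter.unusedSectionVars false
set_option maxSynthPendingDepth 3

open Set Filter Topology Complex MeasureTheory
open scoped ContDiff Matrix ComplexConjugate InnerProductSpace ENNReal ComplexOrder

namespace Crest.Agent.R281.Mem_69

open Crest.Agent.R275.Geo Crest.Agent.R275.Core144 Crest.Agent.R275.EDR890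
open Crest.Agent.R275.C1d194
open Crest.Agent.R273.Defs_333 Crest.Agent.R273.HM_333 Crest.Agent.R273.Kah_333
open Crest.Agent.R273.Vol_333 Crest.Agent.R273.Vm_333
open Crest.Agent.R260.ACM_580 Crest.Agent.R260.NNB_580 Crest.Agent.R275.GC293
open Crest.Agent.R281.HkR_835 Crest.Agent.R281.Ti_846 Crest.Agent.R281.HkP2_508
open Crest.Agent.R281.HkP3_508
open Crest.Agent.R281.Defs_273 (H2 HSymp)
open Crest.Agent.R281.Ma_69 Crest.Agent.R281.Pfa_69

noncomputable section

variable {n : ℕ} {M : Type} [TopologicalSpace M] {A : Atl n M}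
variable {V : Type} [NormedAddCommGroup V] [NormedSpace ℝ V] {C : RCh V M}

/-- the triple `H` on the real charts `C` is the hyperkaehler pair `(K, σ)` of the atlas `A` -/
structure MemK (H : HkT C) (A : Atl n M) (K : Kah A) (σ : HSymp A) (h : Cmp C (ofAtl A)) :
    Prop where
  hk : HK K σ
  cl : ClH σ.toH2
  cp : Cp (H.acm 0) A
  om0 : ∀ i, ∀ z ∈ (A.e i).target, ∀ u v,
    (h.F (H.om 0)).w i z u v = (ofKah K).f2.w i z u v
  om1 : ∀ i, ∀ z ∈ (A.e i).target, ∀ u v,
    (h.F (H.om 1)).w i z u v = (sb (σ.s i ((A.e i).symm z)) u v).re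
  om2 : ∀ i, ∀ z ∈ (A.e i).target, ∀ u v,
    (h.F (H.om 2)).w i z u v = (sb (σ.s i ((A.e i).symm z)) u v).im
  det : ∀ i, ∀ x ∈ (A.e i).source, ‖(σ.s i x).det‖ = 1 * (K.g i x).det.re

/-- **member of a triple** -/
theorem exists_memK [FiniteDimensional ℝ V] [CompactSpace M] [T2Space M]
    (hV : Module.finrank ℝ V = 2 * n) (H : HkT C) :
    ∃ (A : Atl n M) (_ : Finite A.ι) (_ : GoodA A) (_ : Nonempty (Part A))
      (h : Cmp C (ofAtl A)) (K : Kah A) (σ : HSymp A), MemK H A K σ h := by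
  obtain ⟨A, h1, h2, ⟨P⟩, h, hJ, hcp⟩ :=
    exists_rot (Crest.Agent.R260.NN6_900.nnat n V hV) H
  set H' : HkT (ofAtl A) := h.hk H with hH'
  set K : Kah A := H'.K0 hJ with hK
  set σ : HSymp A := ⟨H'.S0 hJ, S0_nd H' hJ⟩ with hσ
  have hdet : ∀ i, ∀ x ∈ (A.e i).source, ‖(σ.s i x).det‖ = 1 * (K.g i x).det.re := by
    intro i x hx
    have h3 := congrArg Complex.re (det0 H' hJ i x hx)
    rw [Complex.ofReal_re] at h3
    rw [one_mul]
    exact h3.symm
  have hric : RicFlat K := ricFlat_of_det σ one_pos fun i x hx => by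
    rw [hdet i x hx, one_mul, one_mul]
  have hcl : ClH σ.toH2 := S0_cl H' hJ
  refine ⟨A, h1, h2, ⟨P⟩, h, K, σ, ⟨hric, par_h2 P hric _, hr0 H' hJ⟩, hcl, hcp, ?_, ?_, ?_, hdet⟩
  · intro i z hz u v
    have := K0_om0 H' hJ hz
    show (H'.om 0).w i z u v = _
    rw [← this]
  · intro i z hz u v
    have h4 := S0_om1 H' hJ hz
    show (H'.om 1).w i z u v = _
    rw [← h4, f2H_w]
    rfl
  · intro i z hz u v
    have h4 := S0_om2 H' hJ hz
    show (H'.om 2).w i z u v = _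
    rw [← h4, f2H_I_w]
    rfl

/-! ### orientation -/

section sign

variable {W : Type} [NormedAddCommGroup W] [NormedSpace ℝ W] [FiniteDimensional ℝ W]
  [MeasurableSpace W] [BorelSpace W] (μ : Measure W) [μ.IsAddHaarMeasure] {C : RCh W M}

theorem TopF.isOpen_pos (D : TopF C) (s : ℝ) :
    IsOpen {x | ∃ i, x ∈ (C.e i).source ∧ 0 < s * D.D i (C.e i x)} := by
  have h1 : {x | ∃ i, x ∈ (C.e i).source ∧ 0 < s * D.D i (C.e i x)} =
      ⋃ i, ((C.e i).source ∩ (fun x => s * D.D i (C.e i x)) ⁻¹' Ioi 0) := by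
    ext x
    simp
  rw [h1]
  refine isOpen_iUnion fun i => ?_
  refine ContinuousOn.isOpen_inter_preimage ?_ (C.e i).open_source isOpen_Ioi
  exact continuousOn_const.mul
    ((D.cont i).comp (C.e i).continuousOn fun x hx => (C.e i).map_source hx)

/-- the sign of a nowhere vanishing top form -/
theorem sign_const [ConnectedSpace M] (ho : Ori C) (D : TopF C)
    (hne : ∀ i, ∀ z ∈ (C.e i).target, D.D i z ≠ 0) :
    (∀ i, ∀ z ∈ (C.e i).target, 0 < D.D i z) ∨ (∀ i, ∀ z ∈ (C.e i).target, D.D i z < 0) := by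
  set U := {x | ∃ i, x ∈ (C.e i).source ∧ 0 < 1 * D.D i (C.e i x)} with hU
  set U' := {x | ∃ i, x ∈ (C.e i).source ∧ 0 < (-1) * D.D i (C.e i x)} with hU'
  have o1 : IsOpen U := TopF.isOpen_pos D 1
  have o2 : IsOpen U' := TopF.isOpen_pos D (-1)
  have hcov : (univ : Set M) ⊆ U ∪ U' := by
    intro x _
    obtain ⟨i, hi⟩ := C.cover x
    rcases lt_or_gt_of_ne (hne i _ ((C.e i).map_source hi)) with h | h
    · exact Or.inr ⟨i, hi, by linarith⟩
    · exact Or.inl ⟨i, hi, by linarith⟩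
  have key : ∀ x i j, x ∈ (C.e i).source → x ∈ (C.e j).source → 0 < D.D j (C.e j x) →
      0 < D.D i (C.e i x) := by
    intro x i j hi hj h
    have hx : (C.e i).symm (C.e i x) = x := (C.e i).left_inv hi
    have hz : C.e i x ∈ C.ov i j := ⟨(C.e i).map_source hi, by rw [hx]; exact hj⟩
    have ht : C.t i j (C.e i x) = C.e j x := by
      show C.e j ((C.e i).symm (C.e i x)) = _
      rw [hx]
    rw [D.tr i j _ hz, ht]
    exact mul_pos (ho i j _ hz) h
  have hdis : ¬ (univ ∩ (U ∩ U') : Set M).Nonempty := by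
    rintro ⟨x, -, ⟨i, hi, h1⟩, ⟨j, hj, h2⟩⟩
    have h3 := key x j i hj hi (by linarith)
    linarith
  have hcon := isPreconnected_univ (α := M) U U' o1 o2 hcov
  rcases isEmpty_or_nonempty M with hM | ⟨⟨x0⟩⟩
  · left
    intro i z hz
    exact (hM.false ((C.e i).symm z)).elim
  rcases (univ ∩ U : Set M).eq_empty_or_nonempty with h1 | h1
  · right
    intro i z hz
    by_contra h
    have h2 : 0 < D.D i z := lt_of_le_of_ne (not_lt.1 h) (hne i z hz).symm
    have h3 : (C.e i).symm z ∈ univ ∩ U := ⟨mem_univ _, i, (C.e i).map_target hz, by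
      rw [(C.e i).right_inv hz, one_mul]; exact h2⟩
    rw [h1] at h3
    exact h3
  · left
    intro i z hz
    by_contra h
    have h2 : D.D i z < 0 := lt_of_le_of_ne (not_lt.1 h) (hne i z hz)
    have h3 : (univ ∩ U' : Set M).Nonempty := ⟨(C.e i).symm z, mem_univ _, i,
      (C.e i).map_target hz, by rw [(C.e i).right_inv hz]; linarith⟩
    exact hdis (hcon h1 h3)

theorem intT_nonpos [CompactSpace M] [T2Space M] (ho : Ori C) (P : RPart C) (D : TopF C)
    (hn : ∀ i, ∀ z ∈ (C.e i).target, D.D i z < 0) : intT μ P D ≤ 0 := by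
  obtain ⟨P', hP', -⟩ := exists_RPart C (fun _ => univ) (fun _ => univ_mem)
  rw [intT_part μ ho P P' D]
  unfold intT
  refine Finset.sum_nonpos fun k _ => setIntegral_nonpos (C.e _).open_target.measurableSet
    fun z hz => mul_nonpos_of_nonneg_of_nonpos (hP' _ _) (hn _ z hz).le

end sign

section ori

variable {C : RCh (Cn n) M} {H : HkT C} {K : Kah A} {σ : HSymp A} {h : Cmp C (ofAtl A)}

/-- the top power of the Kaehler form does not vanish in the real charts -/
theorem MemK.TP_ne (m : MemK H A K σ h) (i : C.ι) {z : Cn n} (hz : z ∈ (C.e i).target) :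
    TP (bc n) (fun _ => (H.om 0).w i z) ≠ 0 := by
  obtain ⟨j, hj⟩ := A.cover ((C.e i).symm z)
  set y := A.e j ((C.e i).symm z) with hy
  have hyt : y ∈ (A.e j).target := (A.e j).map_source hj
  have hys : (A.e j).symm y = (C.e i).symm z := (A.e j).left_inv hj
  have hmov : y ∈ mov C (ofAtl A) i j := by
    refine ⟨hyt, ?_⟩
    show (A.e j).symm y ∈ (C.e i).source
    rw [hys]
    exact (C.e i).map_target hz
  have hmt : mt C (ofAtl A) i j y = z := by
    show C.e i ((A.e j).symm y) = z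
    rw [hys, (C.e i).right_inv hz]
  have h1 : TP (bc n) (fun _ => (h.F (H.om 0)).w j y) =
      (fderiv ℝ (mt C (ofAtl A) i j) y).det * TP (bc n) (fun _ => (H.om 0).w i z) :=
    TP_comp' (bc n) (fderiv ℝ (mt C (ofAtl A) i j) y) fun _ u v => by
      rw [h.F_w (H.om 0) hmov, hmt]
  have h2 : TP (bc n) (fun _ : Fin n => (h.F (H.om 0)).w j y) =
      TP (bc n) (fun _ => (ofKah K).f2.w j y) := TP_congr fun _ u v => m.om0 j y hyt u v
  have h3 := TP_kah_pos K hyt
  intro h0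
  rw [h0, mul_zero] at h1
  rw [← h2, h1] at h3
  exact lt_irrefl _ h3

/-- **orientation** from the positivity of the top power of the class -/
theorem MemK.oriM [CompactSpace M] [T2Space M] [ConnectedSpace M] (m : MemK H A K σ h)
    (hoC : Ori C) (P : RPart C) (hII : 0 < II (lc n) (bc n) P (fun _ => H.om 0)) :
    OriM C (ofAtl A) := by
  have hp : ∀ i, ∀ z ∈ (C.e i).target, 0 < TP (bc n) (fun _ => (H.om 0).w i z) := by
    rcases sign_const hoC (TopF.of (bc n) fun _ : Fin n => H.om 0)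
      (fun i z hz => m.TP_ne i hz) with h1 | h1
    · exact h1
    · exact absurd hII (not_lt.2 (intT_nonpos (lc n) hoC P _ h1))
  refine oriM_of_pos h (bc n) (fun _ => H.om 0) hp fun j z hz => ?_
  have h2 : TP (bc n) (fun _ : Fin n => (h.F (H.om 0)).w j z) =
      TP (bc n) (fun _ => (ofKah K).f2.w j z) := TP_congr fun _ u v => m.om0 j z hz u v
  rw [h2]
  exact TP_kah_pos K hz

end ori

/-! ### volume, mass, `n`-form -/

section vol

open Crest.Agent.R281.W3c_698

variable [CompactSpace M] [T2Space M] [ConnectedSpace M] [MeasurableSpace M] [BorelSpace M]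
  {C : RCh (Cn n) M}

/-- the volume of a member is determined by its Kaehler class -/
theorem MemK.vol [Finite A.ι] {H : HkT C} {K : Kah A} {σ : HSymp A} {h : Cmp C (ofAtl A)}
    (m : MemK H A K σ h) (hoC : Ori C) (P : RPart C) {a0 : F2 C} (ha : Coh (H.om 0) a0)
    (hpos : 0 < II (lc n) (bc n) P (fun _ => a0)) :
    (vm (volK K)).real univ = II (lc n) (bc n) P (fun _ => a0) / (2 ^ n * n.factorial) := by
  obtain ⟨P'⟩ := nonempty_RPart (ofAtl A)
  have h1 : 0 < II (lc n) (bc n) P (fun _ => H.om 0) := by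
    rw [II_coh (lc n) hoC (bc n) P (fun _ => H.om 0) (fun _ => a0) fun _ => ha]
    exact hpos
  have ho := m.oriM hoC P h1
  rw [← vol_f2 K h ho hoC P P' m.om0 ha, mul_div_cancel_left₀ _ (by positivity)]

/-- **the mass**: the class of `Re σ` is `Re (z sig N τ)`; for `σ₁ = z⁻¹ σ` (`Q(e, σ₁) = 1`)
`‖det σ₁‖ = mu det g` with `mu = ‖z‖⁻ⁿ` and `mu * ∫ a0^n = κ (N (Im τ)²)^ν` -/
theorem MemK.mu [Finite A.ι] {H : HkT C} {K : Kah A} {σ : HSymp A} {h : Cmp C (ofAtl A)}
    (m : MemK H A K σ h) (hoC : Ori C) (P : RPart C) {a0 : F2 C} (ha : Coh (H.om 0) a0)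
    (hpos : 0 < II (lc n) (bc n) P (fun _ => a0)) (W : Fin 3 → F2 C) {κ N : ℝ} {ν : ℕ}
    (hn : n = 2 * ν)
    (hQ : ∀ x : Fin 3 → ℝ, II (lc n) (bc n) P (fun _ => ∑ i, x i • W i) = κ * qb N x x ^ ν)
    {z τ : ℂ} (hz : z ≠ 0) (hr : Coh (H.om 1) (∑ i, (z * sig N τ i).re • W i)) :
    (∀ i, ∀ x ∈ (A.e i).source,
      ‖((smulHS z⁻¹ (inv_ne_zero hz) σ).s i x).det‖ = (‖z‖ ^ n)⁻¹ * (K.g i x).det.re) ∧
    (‖z‖ ^ n)⁻¹ * II (lc n) (bc n) P (fun _ => a0) = κ * (N * τ.im ^ 2) ^ ν := by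
  obtain ⟨P'⟩ := nonempty_RPart (ofAtl A)
  have h1 : 0 < II (lc n) (bc n) P (fun _ => H.om 0) := by
    rw [II_coh (lc n) hoC (bc n) P (fun _ => H.om 0) (fun _ => a0) fun _ => ha]
    exact hpos
  have ho := m.oriM hoC P h1
  have hz0 : ‖z‖ ≠ 0 := norm_ne_zero_iff.2 hz
  refine ⟨fun i x hx => ?_, ?_⟩
  · have h2 : (smulHS z⁻¹ (inv_ne_zero hz) σ).s i x = z⁻¹ • σ.s i x := rfl
    rw [h2, Matrix.det_smul, Fintype.card_fin, norm_mul, m.det i x hx, norm_pow, norm_inv,
      inv_pow, one_mul]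
  · have h3 := (ray σ m.cl K h ho hoC P P' m.om1 m.om0 ha W hQ z τ hr zero_le_one m.det).2
    rw [one_mul, mul_pow, ← pow_mul, ← hn] at h3
    rw [h3]
    field_simp

/-- **MEMBER NODE** -/
theorem member {H : HkT C} (hoC : Ori C) (P : RPart C) {a0 : F2 C} (ha : Coh (H.om 0) a0)
    (hpos : 0 < II (lc n) (bc n) P (fun _ => a0)) (W : Fin 3 → F2 C) {κ N : ℝ} {ν : ℕ}
    (hn : n = 2 * ν)
    (hQ : ∀ x : Fin 3 → ℝ, II (lc n) (bc n) P (fun _ => ∑ i, x i • W i) = κ * qb N x x ^ ν)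
    {z τ : ℂ} (hz : z ≠ 0) (hr : Coh (H.om 1) (∑ i, (z * sig N τ i).re • W i)) :
    ∃ (A : Atl n M) (_ : Finite A.ι) (_ : GoodA A) (_ : Nonempty (Part A))
      (h : Cmp C (ofAtl A)) (K : Kah A) (σ : HSymp A) (mu : ℝ), MemK H A K σ h ∧
      OriM C (ofAtl A) ∧ 0 < mu ∧
      (∀ i, ∀ x ∈ (A.e i).source,
        ‖((smulHS z⁻¹ (inv_ne_zero hz) σ).s i x).det‖ = mu * (K.g i x).det.re) ∧
      (vm (volK K)).real univ = II (lc n) (bc n) P (fun _ => a0) / (2 ^ n * n.factorial) ∧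
      mu * II (lc n) (bc n) P (fun _ => a0) = κ * (N * τ.im ^ 2) ^ ν := by
  have hfin : Module.finrank ℝ (Cn n) = 2 * n := by
    rw [Module.finrank_eq_card_basis (bc n)]
    simp [mul_comm]
  obtain ⟨A, h1, h2, h3, h, K, σ, m⟩ := exists_memK hfin H
  have h5 : 0 < II (lc n) (bc n) P (fun _ => H.om 0) := by
    rw [II_coh (lc n) hoC (bc n) P (fun _ => H.om 0) (fun _ => a0) fun _ => ha]
    exact hpos
  have h6 := m.mu hoC P ha hpos W hn hQ hz hr
  have hz0 : 0 < ‖z‖ := norm_pos_iff.2 hz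
  exact ⟨A, h1, h2, h3, h, K, σ, (‖z‖ ^ n)⁻¹, m, m.oriM hoC P h5, by positivity, h6.1,
    m.vol hoC P ha hpos, h6.2⟩

end vol

end

end Crest.Agent.R281.Mem_69
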