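import Crest.Agent.R281.Pall3_162
import Crest.Agent.R281.Cdr10_234
import Crest.Agent.R281.RkD_902

/-!
# R281 (S0424), G29 PER-ALL (helper162), part 4: no hypothesis left

* `ibas`, `ibas_cmp`, `hbas_hk`, `ibas_hk` : the basis theorem of 234 (Cdr10) as `IBas`
* `exists_perp_M`, `lam_perp_M`, `strip_all_M` : Pall3 without the hypothesis `IBas`
* `rat_perp`     : the test on `RatF w` (multiples are integral)
* `Ctx` (902)    : `ctx_ratQ`, **`ctx_exists_perp`**, **`ctx_lam_perp`**, `ctx_lam_perp_rat`,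
                   `ctx_perp_of_lam`
-/

set_option autoImplicit false
set_option linter.unusedSectionVars false
set_option maxSynthPendingDepth 3

open Set Filter Topology MeasureTheory

namespace Crest.Agent.R281.Pall_162

open Crest.Agent.R275 Crest.Agent.R275.Geo
open Crest.Agent.R273.Defs_333 Crest.Agent.R273.Kah_333
open Crest.Agent.R281.HkR_835 Crest.Agent.R281.Dif_268
open Crest.Agent.R281.Defs_273 (H2 HSymp)
open Crest.Agent.R281.Cdr_234
open Crest.Agent.R281.Per_368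
open Crest.Agent.R281.Ti_846 (Ex)
open Crest.Agent.R281.Fuj1_207 (Qf Kills)
open Crest.Agent.R281.Fuj4_207 Crest.Agent.R281.Fuj5_207 Crest.Agent.R281.Fuj7_207
open Crest.Agent.R281.SIn_14 Crest.Agent.R281.Tor_922
open Crest.Agent.R281.RkD_902 (Ctx)

noncomputable section

section bas

variable {V X : Type} [NormedAddCommGroup V] [NormedSpace ℝ V] [TopologicalSpace X]
  {C : RCh V X}

theorem IBas.of_hbas (B : HBas C) : IBas C := ⟨B.N, B.b, B.int, B.span⟩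

/-- 234's basis theorem -/
theorem ibas {d : ℕ} [CompactSpace X] [T2Space X] (A : Atl d X) : IBas (ofAtl A) := by
  obtain ⟨B⟩ := exists_hbas A
  exact IBas.of_hbas B

theorem ibas_cmp {d : ℕ} [CompactSpace X] [T2Space X] (A : Atl d X) (h : Cmp C (ofAtl A)) :
    IBas C := by
  obtain ⟨B⟩ := exists_hbas_cmp A h
  exact IBas.of_hbas B

/-- the basis theorem on a compact hyperkaehler manifold -/
theorem hbas_hk [FiniteDimensional ℝ V] [CompactSpace X] [T2Space X] {d : ℕ}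
    (hd : Module.finrank ℝ V = 2 * d) (H : HkT C) : Nonempty (HBas C) := by
  obtain ⟨A, -, -, -, h, -, -⟩ := exists_rot (Crest.Agent.R260.NN6_900.nnat d V hd) H
  exact exists_hbas_cmp A h

theorem ibas_hk [FiniteDimensional ℝ V] [CompactSpace X] [T2Space X] {d : ℕ}
    (hd : Module.finrank ℝ V = 2 * d) (H : HkT C) : IBas C := by
  obtain ⟨B⟩ := hbas_hk hd H
  exact IBas.of_hbas B

/-- the integral span condition implies that `RatF` classes have an integral multiple -/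
theorem rat_zero (B : HBas C) {W : Type*} [AddCommGroup W] [Module ℝ W] (lam : F2 C →ₗ[ℝ] W)
    {S : Submodule ℝ (F2 C)} (h1 : ∀ w, IntF w → w ∈ S → lam w = 0) {w : F2 C} (hw : RatF w)
    (hS : w ∈ S) : lam w = 0 := by
  obtain ⟨m, hm, hi⟩ := B.rat_int hw
  have h2 := h1 _ hi (S.smul_mem _ hS)
  rw [map_smul, smul_eq_zero] at h2
  exact h2.resolve_left (by exact_mod_cast hm.ne')

end bas

section mfd

variable {d : ℕ} {M : Type} [TopologicalSpace M] {A : Atl d M}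
  [T2Space M] [CompactSpace M] [ConnectedSpace M] [Finite A.ι] (P : Part A) (σ : HSymp A)
  (hu : σ.Uniq) (hc : ClH σ.toH2) {n : ℕ} (hdn : d = n + n) (hn : 1 ≤ n) (hn2 : 2 ≤ n + n)

include P hu hn in
/-- **the Beauville form is rational up to one scale** -/
theorem ratQ_M (K : Kah A) : RatQ (Qf (Tn hdn P) hn2 n (reS σ.toH2 hc)) :=
  ratQ_Tn P σ hu hc hdn hn hn2 K (ibas A)

include P hu hn in
/-- **a basis of `e^⊥` modulo exact forms, of integral classes** -/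
theorem exists_perp_M (K : Kah A) {e : F2 (ofAtl A)} (he : RatF e) :
    ∃ (m : ℕ) (w : Fin m → F2 (ofAtl A)), (∀ k, IntF (w k)) ∧
      (∀ k, Qf (Tn hdn P) hn2 n (reS σ.toH2 hc) (w k) e = 0) ∧
      (∀ x, Qf (Tn hdn P) hn2 n (reS σ.toH2 hc) x e = 0 →
        ∃ t : Fin m → ℝ, Ex (x - ∑ k, t k • w k)) ∧
      ∀ t : Fin m → ℝ, Ex (∑ k, t k • w k) → t = 0 :=
  exists_perp_Tn P σ hu hc hdn hn hn2 K (ibas A) he

include P hu hn in
/-- **a linear map which kills the exact forms and the integral classes of `e^⊥` kills `e^⊥`** -/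
theorem lam_perp_M (K : Kah A) {e : F2 (ofAtl A)} (he : RatF e)
    {W : Type*} [AddCommGroup W] [Module ℝ W] (lam : F2 (ofAtl A) →ₗ[ℝ] W)
    (h0 : ∀ x, Ex x → lam x = 0)
    (h1 : ∀ w, IntF w → Qf (Tn hdn P) hn2 n (reS σ.toH2 hc) w e = 0 → lam w = 0) :
    ∀ w, Qf (Tn hdn P) hn2 n (reS σ.toH2 hc) w e = 0 → lam w = 0 :=
  lam_perp_Tn P σ hu hc hdn hn hn2 K (ibas A) he lam h0 h1

variable {F : M → Fin d → ℂ} {dg : ℕ} {ζ0 : Fin d → ℂ} {r : ℝ} {Lam : AddSubgroup (Fin d → ℂ)}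
  {Φ : (Fin d → ℂ) → M}

include hu hn in
/-- **PER-ALL on a strip, for the Beauville form** -/
theorem strip_all_M (h : Strip A F dg ζ0 r Lam Φ) (K : Kah A)
    {e : F2 (ofAtl A)} (he : RatF e) {z l l' : Fin d → ℂ} (hz : z ∈ strip ζ0 r)
    (hl : l ∈ Lam) (hl' : l' ∈ Lam)
    (h1 : ∀ w, IntF w → Qf (Tn hdn P) hn2 n (reS σ.toH2 hc) w e = 0 →
      per (pull w Φ) z l l' = 0) :
    ∀ w, Qf (Tn hdn P) hn2 n (reS σ.toH2 hc) w e = 0 → per (pull w Φ) z l l' = 0 :=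
  strip_all_Tn P σ hu hc hdn hn hn2 h K (ibas A) he hz hl hl' h1

end mfd

section ctx

variable {n : ℕ} {X : Type} [TopologicalSpace X] [CompactSpace X] {C : RCh (Cn (2 * n)) X}
  {Q : F2 C →ₗ[ℝ] F2 C →ₗ[ℝ] ℝ}

theorem ctx_ratQ (h : Ctx n C Q) : RatQ Q :=
  ⟨1, one_pos, fun x y hx hy => by
    obtain ⟨r, hr⟩ := h.rat x y hx hy
    exact ⟨r, by rw [hr, one_mul]⟩⟩

theorem ctx_right (h : Ctx n C Q) (x y : F2 C) (hy : Ex y) : Q x y = 0 := by
  rw [h.symm]
  exact h.ex y x hy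

theorem ctx_hbas [T2Space X] (H : HkT C) : Nonempty (HBas C) :=
  hbas_hk (d := 2 * n) (Qg_770.finrank_cn (2 * n)) H

/-- **integral classes of `e^⊥`, a basis of `e^⊥` modulo exact forms** -/
theorem ctx_exists_perp [T2Space X] (h : Ctx n C Q) (H : HkT C) {e : F2 C} (he : RatF e) :
    ∃ (m : ℕ) (w : Fin m → F2 C), (∀ k, IntF (w k)) ∧ (∀ k, Q (w k) e = 0) ∧
      (∀ x, Q x e = 0 → ∃ t : Fin m → ℝ, Ex (x - ∑ k, t k • w k)) ∧
      ∀ t : Fin m → ℝ, Ex (∑ k, t k • w k) → t = 0 := by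
  obtain ⟨B⟩ := ctx_hbas H
  obtain ⟨m, w, -, h⟩ := exists_perp_basis (ctx_ratQ h) h.ex B.int B.span he
  exact ⟨m, w, h⟩

/-- **PER-ALL** over `Ctx`: the test on integral classes -/
theorem ctx_lam_perp [T2Space X] (h : Ctx n C Q) (H : HkT C) {e : F2 C} (he : RatF e)
    {W : Type*} [AddCommGroup W] [Module ℝ W] (lam : F2 C →ₗ[ℝ] W) (h0 : ∀ x, Ex x → lam x = 0)
    (h1 : ∀ w, IntF w → Q w e = 0 → lam w = 0) : ∀ w, Q w e = 0 → lam w = 0 := by
  obtain ⟨B⟩ := ctx_hbas H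
  exact lam_perp (ctx_ratQ h) h.ex B.int B.span he lam h0 h1

/-- PER-ALL, the test on rational classes -/
theorem ctx_lam_perp_rat [T2Space X] (h : Ctx n C Q) (H : HkT C) {e : F2 C} (he : RatF e)
    {W : Type*} [AddCommGroup W] [Module ℝ W] (lam : F2 C →ₗ[ℝ] W) (h0 : ∀ x, Ex x → lam x = 0)
    (h1 : ∀ w, RatF w → Q w e = 0 → lam w = 0) : ∀ w, Q w e = 0 → lam w = 0 :=
  ctx_lam_perp h H he lam h0 fun w hw => h1 w hw.rat

variable {E : Type*} [NormedAddCommGroup E] [NormedSpace ℝ E] [FiniteDimensional ℝ E]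
  {S Λ : Set E} {Φ : E → X}

/-- **(t3) PV of the tube**: the periods over one parallelogram, all closed forms of `e^⊥` -/
theorem ctx_per_all [T2Space X] (h : Ctx n C Q) (H : HkT C) {e : F2 C} (he : RatF e)
    (hS : SmI C S Φ) (hΛ : ∀ l ∈ Λ, ∀ ζ ∈ S, ζ + l ∈ S ∧ Φ (ζ + l) = Φ ζ) {z v v' : E}
    (hv : v ∈ Λ) (hv' : v' ∈ Λ) (hin : ∀ s t : ℝ, pt z v v' s t ∈ S)
    (h1 : ∀ w, IntF w → Q w e = 0 → per (pull w Φ) z v v' = 0) :
    ∀ w, Q w e = 0 → per (pull w Φ) z v v' = 0 := by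
  obtain ⟨B⟩ := ctx_hbas H
  exact per_all hS hΛ hv hv' hin (ctx_ratQ h) h.ex B.int B.span he h1

end ctx

end

end Crest.Agent.R281.Pall_162
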