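import Crest.Agent.R281.T5H_808
import Crest.Agent.R281.Pall4_162
import Crest.Agent.R281.Mem1_69
import Crest.Agent.R281.Sta2_684
import Crest.Agent.R281.HkM2_835

/-!
# R281, CORE-ASM (helper808), part 1: the composition at one member

`C : RCh (Cn N) X`, `H : HkT C`, `A` holomorphic atlas of `J 0` (`hp`), `K' = L g`, `SDat` at the
scale `L`, an integral basis `b` with representatives `b'` of `h.F b` and `|b'|² ≤ Fn`,
`∫ Fn ≤ C0 vol`, `C0 ≤ δ0 L²` ==> the tube.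

* `F_sum`, `ex_F_comb`, `int_F` : `Cmp.F` on combinations of classes
* `vm_scale`, `lint_le`          : the measure of `K' = L K`
* `Mtub`                        : the output at one member
* `member_tube`                 : `core` at one member
-/

set_option autoImplicit false
set_option linter.unusedSectionVars false
set_option maxSynthPendingDepth 3

open Set Filter Topology Complex Metric MeasureTheory
open scoped ContDiff Matrix ComplexConjugate ComplexOrder ENNReal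

namespace Crest.Agent.R281.Cr_808

open Crest.Agent.R275.Geo Crest.Agent.R275.Core144 Crest.Agent.R275.EDR890
open Crest.Agent.R273.Defs_333 Crest.Agent.R273.Hess_333 Crest.Agent.R273.HessB_333
open Crest.Agent.R273.HM_333 Crest.Agent.R273.Kah_333 Crest.Agent.R273.Vol_333
open Crest.Agent.R273.Vm_333 Crest.Agent.R273.FIb0_597
open Crest.Agent.R260.ACM_580 Crest.Agent.R260.NNB_580
open Crest.Agent.R281.Tor_922 Crest.Agent.R281.SIn_14
open Crest.Agent.R281.HkR_835 Crest.Agent.R281.Per_368 Crest.Agent.R281.Dif_268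
open Crest.Agent.R281.T5L_808 Crest.Agent.R281.T5D_808 Crest.Agent.R281.T5F_808
open Crest.Agent.R281.Cdr_234
open Crest.Agent.R281.Ti_846 (Ex)
open Crest.Agent.R281.Mc673 (V W tube ClF kv mn isOpen_tube)
open Crest.Agent.R281.Sta2_684 (smulP)
open Crest.Agent.R238.Sch (ee norm_ee)

noncomputable section

/-! ### `Cmp.F` on combinations -/

section F

variable {V V' X : Type} [NormedAddCommGroup V] [NormedSpace ℝ V] [NormedAddCommGroup V']
  [NormedSpace ℝ V'] [TopologicalSpace X] {C : RCh V X} {C' : RCh V' X}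

theorem F_sum (h : Cmp C C') {κ : Type*} [Fintype κ] (t : κ → ℝ) (b : κ → F2 C) :
    Eqv (h.F (∑ k, t k • b k)) (∑ k, t k • h.F (b k)) := by
  intro j z hz u v
  obtain ⟨i, hi⟩ := Cmp.exists_mov (C' := C') C (j := j) hz
  rw [h.F_w _ hi, F2.sum_w, F2.sum_w]
  simp only [sum_apply, F2.smul_w, smul_apply, h.F_w _ hi]

theorem ex_F_comb (h : Cmp C C') {κ : Type*} [Fintype κ] {b : κ → F2 C} {b' : κ → F2 C'}
    (hb : ∀ k, Ex (b' k - h.F (b k))) {x : F2 C} {t : κ → ℝ} (hx : Ex (x - ∑ k, t k • b k)) :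
    Ex (h.F x - ∑ k, t k • b' k) := by
  have h1 : Ex (h.F x - h.F (∑ k, t k • b k)) := (F_sub h _ _).ex (ex_F h hx)
  have h2 : Ex (h.F (∑ k, t k • b k) - ∑ k, t k • h.F (b k)) := ex_sub_of_eqv (F_sum h t b)
  have h3 : Ex (∑ k, t k • (b' k - h.F (b k))) :=
    Pall_162.ex_sum _ fun k _ => Ex.smul _ (hb k)
  have h4 := Ex.add (Ex.add h1 h2) (Ex.neg h3)
  have e : h.F x - h.F (∑ k, t k • b k) + (h.F (∑ k, t k • b k) - ∑ k, t k • h.F (b k)) +
      -(∑ k, t k • (b' k - h.F (b k))) = h.F x - ∑ k, t k • b' k := by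
    simp only [smul_sub, Finset.sum_sub_distrib]
    abel
  rwa [e] at h4

theorem int_F (h : Cmp C C') {w : F2 C} (hw : IntF w) : IntF (h.F w) :=
  (Cls.pull (SMap.ofCmp h) hw).eqv (F_pull h w).symm

end F

/-! ### scaling of the metric -/

section scale

variable {n : ℕ} {M : Type} [TopologicalSpace M] {A : Atl n M}

theorem vm_scale [MeasurableSpace M] [BorelSpace M] [Countable A.ι] {K0 K : Kah A} {l : ℝ}
    (hl : 0 ≤ l) (hK : ∀ i, ∀ x ∈ (A.e i).source, K.g i x = (l : ℂ) • K0.g i x) :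
    vm (volK K) = ENNReal.ofReal (l ^ n) • vm (volK K0) := by
  refine Pfa_69.vm_ratio (by positivity) fun i x hx => ?_
  show (K.g i x).det.re = l ^ n * (K0.g i x).det.re
  rw [hK i x hx, Matrix.det_smul, Fintype.card_fin, ← Complex.ofReal_pow, Complex.re_ofReal_mul]

/-- mean `≤ 1` -/
theorem lint_le [MeasurableSpace M] [BorelSpace M] [CompactSpace M] [T2Space M] [Countable A.ι]
    {K0 K : Kah A} {l C0 : ℝ} (hl : 0 ≤ l) (hC0 : 0 < C0)
    (hK : ∀ i, ∀ x ∈ (A.e i).source, K.g i x = (l : ℂ) • K0.g i x) {Fn : M → ℝ}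
    (hc : Continuous Fn) (h0 : ∀ x, 0 ≤ Fn x)
    (hi : ∫ x, Fn x ∂(vm (volK K0)) ≤ C0 * (vm (volK K0)).real univ) :
    ∫⁻ x, ENNReal.ofReal (Fn x / C0) ∂(vm (volK K)) ≤ vm (volK K) univ := by
  have hfin : IsFiniteMeasure (vm (volK K0)) := isFinite_vm (volK K0)
  have hint : Integrable Fn (vm (volK K0)) :=
    hc.integrable_of_hasCompactSupport (HasCompactSupport.of_compactSpace _)
  rw [vm_scale hl hK, lintegral_smul_measure, Measure.smul_apply, smul_eq_mul, smul_eq_mul]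
  refine mul_le_mul_right ?_ _
  rw [← ofReal_integral_eq_lintegral_ofReal (hint.div_const _)
    (Filter.Eventually.of_forall fun x => div_nonneg (h0 x) hC0.le), integral_div]
  rw [← ofReal_measureReal (measure_ne_top _ _)]
  refine ENNReal.ofReal_le_ofReal ?_
  rw [div_le_iff₀ hC0]
  linarith

theorem hb_scale {K0 K : Kah A} {l : ℝ}
    (hK : ∀ i, ∀ x ∈ (A.e i).source, K.g i x = (l : ℂ) • K0.g i x) {i : A.ι} {x : M}
    (hx : x ∈ (A.e i).source) (u v : Cn n) :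
    (hb (K.g i x) u v).re = l * (hb (K0.g i x) u v).re := by
  rw [hK i x hx]
  have h1 : hb ((l : ℂ) • K0.g i x) u v = (l : ℂ) * hb (K0.g i x) u v := by
    rw [← hbL_apply u v, map_smul, hbL_apply, smul_eq_mul]
  rw [h1, Complex.re_ofReal_mul]

end scale

/-! ### one member -/

section member

variable {N : ℕ} {X : Type} [TopologicalSpace X] {C : RCh (Cn N) X}

/-- the triple `L H` in the charts of `A` -/
def hkL {H : HkT C} {A : Atl N X} (hp : Cp (H.acm 0) A) (L : ℝ) (hL : 0 < L) : HkT (ofAtl A) :=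
  smulP L hL ((cmp_of_cp hp).hk H)

/-- **the tube at one member**: `Θ` for the scaled triple `L H` in the charts of `A`;
the classes `v` of `S` have zero periods -/
structure Mtub (H : HkT C) (S : Set (F2 C)) (R Λ δ : ℝ) (A : Atl N X) (hp : Cp (H.acm 0) A)
    (L : ℝ) (hL : 0 < L) (Θ : W N → X) : Prop where
  tub : TubeD (ofAtl A) (L • (cmp_of_cp hp).F (H.om 0)) (L • (cmp_of_cp hp).F (H.om 2)) N R Λ δ Θ
  pin : Pin (smulP L hL ((cmp_of_cp hp).hk H)) N R Λ Θ
  per : ∀ v ∈ S, ∀ p ∈ tube N R, ∀ j k,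
    per (pull ((cmp_of_cp hp).F v) Θ) p ((ee j, 0) : W N) ((ee k, 0) : W N) = 0

/-- **composition at one member** -/
theorem member_tube (hS : TheoremS) (N d : ℕ) (m v C0 c : ℝ) (hN : 1 ≤ N) (hm : 0 < m)
    (hv : 0 < v) (hc : 0 < c) : ∃ Λ : ℝ, 0 < Λ ∧ ∃ δ0 : ℝ, 0 < δ0 ∧ ∀ R δ : ℝ, 0 < R → 0 < δ →
    ∃ L0 : ℝ, 1 ≤ L0 ∧ ∀ L : ℝ, L0 ≤ L → ∀ hL : 0 < L,
    ∀ (X : Type) [TopologicalSpace X] [T2Space X] [CompactSpace X] [ConnectedSpace X]
      [MeasurableSpace X] [BorelSpace X] (C : RCh (Cn N) X) (H : HkT C) (A : Atl N X)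
      [Finite A.ι], Part A → ∀ (hp : Cp (H.acm 0) A) (K : Kah A) (Lb : LB A) (h : HM Lb)
      (s : Fin (N + 1) → A.ι → X → ℂ) (om : A.ι → X → ℂ),
      (∀ i, ∀ x ∈ (A.e i).source, K.g i x = (L : ℂ) • (H.kah hp).g i x) →
      SDat A K Lb h s om m v C0 c d L →
    ∀ {κ : Type} [Fintype κ] (b : κ → F2 C), (∀ k, IntF (b k)) →
      (∃ t : κ → ℝ, Ex (H.om 0 - ∑ k, t k • b k)) →
      (∃ t : κ → ℝ, Ex (H.om 2 - ∑ k, t k • b k)) →
    ∀ b' : κ → F2 (ofAtl A), (∀ k, Ex (b' k - (cmp_of_cp hp).F (b k))) →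
    ∀ (Fn : X → ℝ) (Cf : ℝ), Continuous Fn → (∀ x, 0 ≤ Fn x) → 0 < Cf → Cf ≤ δ0 * L ^ 2 →
      (∀ k i, ∀ x ∈ (A.e i).source, ∀ u v : Cn N, ((b' k).w i (A.e i x) u v) ^ 2 ≤
        Fn x * (hb ((H.kah hp).g i x) u u).re * (hb ((H.kah hp).g i x) v v).re) →
      ∫ x, Fn x ∂(vm (volK (H.kah hp))) ≤ Cf * (vm (volK (H.kah hp))).real univ →
      ∃ Θ : W N → X, Mtub H {w | ∃ t : κ → ℝ, Ex (w - ∑ k, t k • b k)} R Λ δ A hp L hL Θ := by
  obtain ⟨Λ, hΛ, δ0, hδ0, hcore⟩ := core hS N d m v C0 c hN hm hv hc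
  refine ⟨Λ, hΛ, δ0, hδ0, fun R δ hR hδ => ?_⟩
  obtain ⟨L0, hL0, hcore⟩ := hcore R δ hR hδ
  refine ⟨L0, hL0, fun L hL1 hL => ?_⟩
  intro X _ _ _ _ _ _ C H A _ P hp K Lb h s om hK hSD κ _ b hI h0 h2 b' hb' Fn Cf hFc hF0 hCf
    hCL hbd hint
  obtain ⟨t0, h0⟩ := h0
  obtain ⟨t2, h2⟩ := h2
  set g := cmp_of_cp hp with hg
  have hcmb : ∀ {x : F2 C} {t : κ → ℝ} (l : ℝ), Ex (x - ∑ k, t k • b k) →
      Ex (l • g.F x - ∑ k, (l * t k) • b' k) := by
    intro x t l hx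
    have h3 := Ex.smul l (ex_F_comb g hb' hx)
    rw [smul_sub, Finset.smul_sum] at h3
    simpa only [smul_smul] using h3
  have hmain := hcore L hL1 X A P K Lb h s om hSD (smulP L hL (g.hk H)) ?_ ?_ b'
    (fun k => L * t0 k) (fun k => L * t2 k) (fun k => (int_F g (hI k)).of_sub_ex (hb' k))
    (hcmb L h0) (hcmb L h2) (fun x => ENNReal.ofReal (Fn x / Cf)) ?_ ?_ ?_
  · obtain ⟨Θ, h3, h4, h5⟩ := hmain
    refine ⟨Θ, h3, h4, ?_⟩
    rintro w ⟨t, ht⟩ p hp' j k
    refine h5 (g.F w) ⟨t, ?_⟩ p hp' j k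
    exact ex_F_comb g hb' ht
  · intro i z hz u v
    have h3 := K0_om0 (g.hk H) (fun i z hz v => hk_J_I hp i hz v) hz
    have h4 := (ofKah K).f2_w hz u v
    have h5 := (ofKah (H.kah hp)).f2_w hz u v
    have h6 := hb_scale hK ((A.e i).map_target hz) (I • u) v
    rw [h4]
    show L * (g.F (H.om 0)).w i z u v = _
    have h7 : (ofKah (H.kah hp)).f2.w i z u v = (g.F (H.om 0)).w i z u v := by
      have := congrArg (fun T : Cn N →L[ℝ] Cn N →L[ℝ] ℝ => T u v) h3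
      exact this
    rw [hb_I_left, hb_I_left] at h6
    rw [← h7, h5]
    exact h6.symm
  · intro i z hz v
    exact hk_J_I hp i hz v
  · exact (ENNReal.measurable_ofReal.comp (hFc.measurable.div_const _))
  · exact lint_le hL.le hCf hK hFc hF0 hint
  · intro k i x hx u v
    rw [hb_scale hK hx u u, hb_scale hK hx v v]
    have hu : 0 ≤ (hb ((H.kah hp).g i x) u u).re :=
      (Nef_252.hb_nonneg ((H.kah hp).pos i x hx).posSemidef u)
    have hv' : 0 ≤ (hb ((H.kah hp).g i x) v v).re :=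
      (Nef_252.hb_nonneg ((H.kah hp).pos i x hx).posSemidef v)
    rw [← ENNReal.ofReal_mul hδ0.le, ← ENNReal.ofReal_mul (by
      exact mul_nonneg hδ0.le (div_nonneg (hF0 x) hCf.le))]
    refine ENNReal.ofReal_le_ofReal ((hbd k i x hx u v).trans ?_)
    have h3 : Fn x ≤ δ0 * (Fn x / Cf) * L ^ 2 := by
      rw [mul_div_assoc', div_mul_eq_mul_div, le_div_iff₀ hCf]
      nlinarith [hF0 x]
    calc Fn x * (hb ((H.kah hp).g i x) u u).re * (hb ((H.kah hp).g i x) v v).re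
        ≤ (δ0 * (Fn x / Cf) * L ^ 2) * (hb ((H.kah hp).g i x) u u).re *
          (hb ((H.kah hp).g i x) v v).re := by gcongr
      _ = _ := by ring

end member

end

end Crest.Agent.R281.Cr_808
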