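import Crest.Agent.R281.Har4_331

/-!
# R281 (S0424), leaf S6-HARN (helper331), part 5: countable atlases and leaves

* `subA B S`      : the subatlas of a covering set of charts
* `vm_sub`        : the volume measure does not change
* `osc_of_low'`   : the uniform Harnack inequality for countable atlases
* `harnack_leaf`  : for the leaves `Fam A d 0 U`
-/

set_option autoImplicit false
set_option linter.unusedSectionVars false

open Set Filter Topology Complex MeasureTheory Function
open scoped ContDiff Matrix ComplexConjugate ComplexOrder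

namespace Crest.Agent.R281.Har_331

open Crest.Agent.R275 Crest.Agent.R275.Geo Crest.Agent.R275.Core144 Crest.Agent.R275.EDR890
open Crest.Agent.R273.Defs_333 Crest.Agent.R273.Hess_333 Crest.Agent.R273.HessB_333
open Crest.Agent.R273.HM_333 Crest.Agent.R273.Kah_333 Crest.Agent.R273.Vol_333
open Crest.Agent.R273.Vm_333 Crest.Agent.R273.Map_835 Crest.Agent.R273.KahI_645
open Crest.Agent.R273.Green_5 Crest.Agent.R273.FIa0_597 Crest.Agent.R273.FIb0_597
open Crest.Agent.R273.FIc0_597 Crest.Agent.R273
open Crest.Agent.R273.SchI_152 (Dg sm_sq Dg_nonneg continuous_Dg)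
open Crest.Agent.R281.Glob1_484 Crest.Agent.R281.S6D_664 Crest.Agent.R281.Defs_273

noncomputable section

variable {m n : ℕ}
variable {M T : Type} [TopologicalSpace M] [TopologicalSpace T] {A : Atl n M} {L L' : LB A}

/-- a subatlas -/
def subA (B : Atl m T) (S : Set B.ι) (hS : ∀ x, ∃ i ∈ S, x ∈ (B.e i).source) : Atl m T where
  ι := S
  e i := B.e i
  cover x := by
    obtain ⟨i, hi, hx⟩ := hS x
    exact ⟨⟨i, hi⟩, hx⟩
  cube i := B.cube i
  holo i j := B.holo i j

variable {B : Atl m T} {S : Set B.ι} {hS : ∀ x, ∃ i ∈ S, x ∈ (B.e i).source}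

/-- the inclusion of the index sets -/
def inc (i : (subA B S hS).ι) : B.ι := (show S from i).1

theorem inc_inj : Injective (inc (B := B) (S := S) (hS := hS)) := Subtype.val_injective

theorem inc_mem (i : (subA B S hS).ι) : inc i ∈ S := (show S from i).2

theorem hol_sub {f : T → M} (hf : HolMap B A f) : HolMap (subA B S hS) A f :=
  ⟨hf.cont, fun i j => hf.hol (inc i) j⟩

theorem imm_sub {f : T → M} (hi : Imm B A f) : Imm (subA B S hS) A f :=
  fun j i y hy hx => hi (inc j) i y hy hx

/-- the charts used by a partition of unity -/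
def used [CompactSpace T] (P : Part B) : Set B.ι := {i | (tsupport (P.χ i) ∩ univ).Nonempty}

theorem used_fin [CompactSpace T] (P : Part B) : (used P).Finite := P.lf univ isCompact_univ

theorem psi_ne_used [CompactSpace T] (P : Part B) {i : B.ι} {x : T} (h : P.ψ i x ≠ 0) :
    i ∈ used P ∧ x ∈ (B.e i).source := by
  have h1 : x ∈ tsupport (P.ψ i) := subset_tsupport _ h
  have h2 := (P.χ_one i x h1).self_of_nhds
  have h3 : x ∈ tsupport (P.χ i) := subset_tsupport _ (by rw [mem_support, h2]; exact one_ne_zero)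
  exact ⟨⟨x, h3, mem_univ x⟩, P.χ_sub i h3⟩

theorem used_cov [CompactSpace T] (P : Part B) (x : T) : ∃ i ∈ used P, x ∈ (B.e i).source := by
  by_contra hne
  push Not at hne
  have h1 : ∀ i, P.ψ i x = 0 := by
    intro i
    by_contra h0
    exact hne i (psi_ne_used P h0).1 (psi_ne_used P h0).2
  have h2 := P.sum_one x
  simp only [h1, finsum_zero] at h2
  exact zero_ne_one h2

/-- the partition of unity of the subatlas -/
def partSub [CompactSpace T] (P : Part B) : Part (subA B (used P) (used_cov P)) where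
  ψ i := P.ψ (inc i)
  χ i := P.χ (inc i)
  ψ_sm i := fun j => P.ψ_sm (inc i) (inc j)
  χ_sm i := fun j => P.χ_sm (inc i) (inc j)
  χ_cpt i := P.χ_cpt (inc i)
  χ_sub i := P.χ_sub (inc i)
  χ_one i := P.χ_one (inc i)
  lf C hC := by
    have h1 := (P.lf C hC).preimage (f := inc (B := B) (S := used P) (hS := used_cov P))
      inc_inj.injOn
    exact h1
  sum_one x := by
    have h1 := P.sum_one x
    rw [← h1]
    have h2 : support (fun i => P.ψ i x) ⊆ used P := fun i hi => (psi_ne_used P hi).1
    have h3 : ∑ᶠ i : B.ι, P.ψ i x = ∑ᶠ i ∈ used P, P.ψ i x := by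
      rw [← finsum_mem_univ]
      refine finsum_mem_inter_support_eq (fun i => P.ψ i x) univ (used P) ?_
      rw [univ_inter, inter_eq_right.2 h2]
    rw [h3]
    exact finsum_subtype_eq_finsum_cond (f := fun i => P.ψ i x) (fun i => i ∈ used P)

theorem vm_sub [MeasurableSpace T] [BorelSpace T] [Countable B.ι] [Countable (subA B S hS).ι]
    (K : Kah A) {f : T → M} (hf : HolMap B A f) (hi : Imm B A f) :
    vm (volK (pullI K (hol_sub (S := S) (hS := hS) hf) (imm_sub hi))) =
      vm (volK (pullI K hf hi)) := by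
  symm
  refine ext_vm _ fun i => ?_
  exact vm_restrict (volK (pullI K hf hi)) (inc i)

theorem countable_sub [Countable B.ι] : Countable (subA B S hS).ι :=
  (inc_inj (B := B) (S := S) (hS := hS)).countable

theorem finite_used [CompactSpace T] (P : Part B) : Finite (subA B (used P) (used_cov P)).ι :=
  (used_fin P).to_subtype

/-- **uniform Harnack inequality**, countable atlases -/
theorem osc_of_low' [CompactSpace M] (K : Kah A) (h : HM L) (hnef : NefW K L) {k : ℕ}
    (hk : 0 < k) {d : ℕ} {c1 : ℝ} (hc1 : 0 < c1) (hlow : Low K (pow h k) d c1) (v : ℝ) :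
    ∃ C : ℝ, ∀ (T : Type) [TopologicalSpace T] [T2Space T] [CompactSpace T] [ConnectedSpace T]
      [MeasurableSpace T] [BorelSpace T] (B : Atl d T) [Countable B.ι] (_ : Part B) (f : T → M)
      (hf : HolMap B A f) (hi : Imm B A f) (s : A.ι → M → ℂ), IsHS (L ^ k) univ s →
      (∀ t, 0 < nsM (pow h k) s (f t)) → (vm (volK (pullI K hf hi))).real univ ≤ v →
      ∀ x y : T, rho (pow h k) s f x - rho (pow h k) s f y ≤ C := by
  obtain ⟨C, hC⟩ := osc_of_low K h hnef hk hc1 hlow v
  refine ⟨C, ?_⟩
  intro T _ _ _ _ _ _ B _ P f hf hi s hs hp hv x y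
  have := finite_used P
  have := countable_sub (B := B) (S := used P) (hS := used_cov P)
  refine hC T (subA B (used P) (used_cov P)) (partSub P) f (hol_sub hf) (imm_sub hi) s hs hp ?_ x y
  rw [vm_sub K hf hi]
  exact hv

theorem nsM_pos_of (h : HM L) {s : A.ι → M → ℂ} {x : M}
    (h0 : ∀ i, x ∈ (A.e i).source → s i x ≠ 0) : 0 < nsM h s x := by
  have hx := mem_ch A x
  have h1 := h0 _ hx
  have h2 := h.pos _ x hx
  have h3 : 0 < ‖s (ch A x) x‖ := norm_pos_iff.2 h1
  show 0 < ‖s (ch A x) x‖ ^ 2 * h.w (ch A x) x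
  positivity

/-- **uniform Harnack inequality for leaves** -/
theorem harnack_leaf [CompactSpace M] (K : Kah A) (h : HM L) (hnef : NefW K L) {k : ℕ}
    (hk : 0 < k) {d : ℕ} {c1 : ℝ} (hc1 : 0 < c1) (hlow : Low K (pow h k) d c1) (v : ℝ) :
    ∃ C : ℝ, ∀ (U : Set (Cn 0)) (F : Fam A d 0 U), (F.mu K univ).toReal ≤ v →
      ∀ s, IsHS (L ^ k) univ s → F.NZ s → ∀ x y : F.V,
      Real.log (nsM (pow h k) s (F.i x)) - Real.log (nsM (pow h k) s (F.i y)) ≤ C := by
  obtain ⟨C, hC⟩ := osc_of_low' K h hnef hk hc1 hlow v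
  refine ⟨C, ?_⟩
  intro U F hv s hs hnz x y
  let _ : MeasurableSpace F.V := borel F.V
  have : BorelSpace F.V := ⟨rfl⟩
  have : CompactSpace F.V := by
    have h1 := F.proper U (Subset.refl _) (Set.toFinite U).isCompact
    have h2 : F.y ⁻¹' U = univ := eq_univ_of_forall F.mem
    rw [h2] at h1
    exact ⟨h1⟩
  have : ConnectedSpace F.V := by
    have h1 := F.conn (F.y x) (F.mem x)
    have h2 : F.y ⁻¹' {F.y x} = univ := eq_univ_of_forall fun z => Subsingleton.elim _ _
    rw [h2] at h1
    exact connectedSpace_iff_univ.2 h1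
  exact hC F.V F.B F.P F.i F.hol F.imm s hs (fun t => nsM_pos_of _ fun i hx => hnz t i hx) hv x y

end

end Crest.Agent.R281.Har_331
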