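import Crest.Agent.R281.S6V4_664

/-!
# R281 (S0424), S6-V part 5 (helper664): leaves, tangent spaces, the Lagrangian property

* `ker_tube`  : two tubes at the same point have the same tangent space of the leaf;
* `leafBM`    : the base map of a single leaf (`m = 0`), `exists_leaf`;
* `lag_of`    : a family inside a Lagrangian fibration has Lagrangian fibres.
-/

set_option autoImplicit false
set_option linter.unusedSectionVars false

open Set Filter Topology Complex Function Metric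
open scoped ContDiff Matrix ComplexConjugate ComplexOrder

namespace Crest.Agent.R281.S6V_664

open Crest.Agent.R275.Geo Crest.Agent.R275.Core144 Crest.Agent.R275.GC293
open Crest.Agent.R275.Prod363 Crest.Agent.R273.Map_835 Crest.Agent.R281.S6D_664
open Crest.Agent.R281.Defs_273

noncomputable section

variable {N d k m n : ℕ} {M : Type} [TopologicalSpace M] {A : Atl N M} {Tf : M → Set M}

/-- a tube read in a chart -/
theorem Tube.diffAt (τ : Tube A k Tf) {i : A.ι} {x : M} (hi : x ∈ (A.e i).source) (hx : x ∈ τ.W) :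
    DifferentiableAt ℂ (fun z => τ.f ((A.e i).symm z)) (A.e i x) := by
  refine (τ.hol i).differentiableAt
    (((A.e i).isOpen_inter_preimage_symm τ.oW).mem_nhds ⟨(A.e i).map_source hi, ?_⟩)
  rw [mem_preimage, (A.e i).left_inv hi]
  exact hx

/-- two tubes at the same point: the tangent spaces of the leaf agree -/
theorem ker_tube (hN : N = d + k) (τ τ' : Tube A k Tf) {i : A.ι} {x : M}
    (hi : x ∈ (A.e i).source) (hx : x ∈ τ.W) (hx' : x ∈ τ'.W) {v : Cn N}
    (hv : fderiv ℂ (fun z => τ.f ((A.e i).symm z)) (A.e i x) v = 0) :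
    fderiv ℂ (fun z => τ'.f ((A.e i).symm z)) (A.e i x) v = 0 := by
  obtain ⟨S, hS⟩ := exists_spC (d := d) hN A τ hx
  have hzt : A.e i x ∈ (A.e i).target := (A.e i).map_source hi
  -- the chart `χ ∘ e⁻¹` and its inverse
  have h1 : DifferentiableAt ℂ (fun z => S.χ ((A.e i).symm z)) (A.e i x) := by
    refine (S.hol' i).differentiableAt
      (((A.e i).isOpen_inter_preimage_symm S.χ.open_source).mem_nhds ⟨hzt, ?_⟩)
    rw [mem_preimage, (A.e i).left_inv hi]
    exact hS
  have hxi : S.χ.symm (S.χ x) ∈ (A.e i).source := by rw [S.χ.left_inv hS]; exact hi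
  have h2 : DifferentiableAt ℂ (fun w => A.e i (S.χ.symm w)) (S.χ x) :=
    (S.hol i).differentiableAt
      ((S.χ.isOpen_inter_preimage_symm (A.e i).open_source).mem_nhds ⟨S.χ.map_source hS, hxi⟩)
  -- `e ∘ χ⁻¹ ∘ χ ∘ e⁻¹ = id`
  have h3 : (fun z => (fun w => A.e i (S.χ.symm w)) (S.χ ((A.e i).symm z))) =ᶠ[𝓝 (A.e i x)] id := by
    have h4 : (A.e i).target ∩ (A.e i).symm ⁻¹' S.χ.source ∈ 𝓝 (A.e i x) :=
      ((A.e i).isOpen_inter_preimage_symm S.χ.open_source).mem_nhds ⟨hzt, by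
        rw [mem_preimage, (A.e i).left_inv hi]; exact hS⟩
    filter_upwards [h4] with z hz
    show A.e i (S.χ.symm (S.χ ((A.e i).symm z))) = z
    rw [S.χ.left_inv hz.2, (A.e i).right_inv hz.1]
  have hex : S.χ ((A.e i).symm (A.e i x)) = S.χ x := by rw [(A.e i).left_inv hi]
  have h5 : v = fderiv ℂ (fun w => A.e i (S.χ.symm w)) (S.χ x)
      (fderiv ℂ (fun z => S.χ ((A.e i).symm z)) (A.e i x) v) := by
    have h6 := fderiv_comp (A.e i x) (g := fun w => A.e i (S.χ.symm w))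
      (f := fun z => S.χ ((A.e i).symm z)) (by rw [hex]; exact h2) h1
    have h7 : fderiv ℂ (fun z => (fun w => A.e i (S.χ.symm w)) (S.χ ((A.e i).symm z)))
        (A.e i x) = _ := h6
    rw [h3.fderiv_eq, fderiv_id, hex] at h7
    have h8 := congrArg (fun L => L v) h7
    exact h8
  -- the second component of the derivative vanishes
  have h9 : (fderiv ℂ (fun z => S.χ ((A.e i).symm z)) (A.e i x) v).2 = 0 := by
    have h10 : (fun z => (S.χ ((A.e i).symm z)).2) =ᶠ[𝓝 (A.e i x)]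
        fun z => τ.f ((A.e i).symm z) := by
      have h4 : (A.e i).target ∩ (A.e i).symm ⁻¹' S.χ.source ∈ 𝓝 (A.e i x) :=
        ((A.e i).isOpen_inter_preimage_symm S.χ.open_source).mem_nhds ⟨hzt, by
          rw [mem_preimage, (A.e i).left_inv hi]; exact hS⟩
      filter_upwards [h4] with z hz
      exact S.snd _ hz.2
    have h11 : fderiv ℂ (fun z => (S.χ ((A.e i).symm z)).2) (A.e i x) v =
        (fderiv ℂ (fun z => S.χ ((A.e i).symm z)) (A.e i x) v).2 := by
      have h12 : HasFDerivAt (fun z => (S.χ ((A.e i).symm z)).2)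
          ((ContinuousLinearMap.snd ℂ (Cn d) (Cn k)).comp
            (fderiv ℂ (fun z => S.χ ((A.e i).symm z)) (A.e i x))) (A.e i x) :=
        (ContinuousLinearMap.snd ℂ (Cn d) (Cn k)).hasFDerivAt.comp _ h1.hasFDerivAt
      rw [h12.fderiv]
      rfl
    rw [← h11, h10.fderiv_eq]
    exact hv
  -- along the leaf `τ'.f` is constant
  set w := fderiv ℂ (fun z => S.χ ((A.e i).symm z)) (A.e i x) v with hw
  have h13 : w = (w.1, (0 : Cn k)) := Prod.ext rfl h9
  have h14 : (fun b : Cn d => τ'.f (S.χ.symm (b, (S.χ x).2))) =ᶠ[𝓝 (S.χ x).1]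
      fun _ => τ'.f x := by
    have h15 : (S.χ.target ∩ S.χ.symm ⁻¹' τ'.W) ∈ 𝓝 ((S.χ x).1, (S.χ x).2) :=
      (S.χ.isOpen_inter_preimage_symm τ'.oW).mem_nhds ⟨S.χ.map_source hS, by
        rw [mem_preimage, Prod.mk.eta, S.χ.left_inv hS]; exact hx'⟩
    have h16 : ContinuousAt (fun b : Cn d => (b, (S.χ x).2)) (S.χ x).1 := by fun_prop
    filter_upwards [h16.preimage_mem_nhds h15] with b hb
    have hb1 : S.χ.symm (b, (S.χ x).2) ∈ S.χ.source := S.χ.map_target hb.1
    have hb2 : τ.f (S.χ.symm (b, (S.χ x).2)) = τ.f x := by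
      rw [← S.snd _ hb1, S.χ.right_inv hb.1, ← S.snd _ hS]
    have hb3 : S.χ.symm (b, (S.χ x).2) ∈ Tf x := by
      rw [τ.fib x hx]
      exact ⟨S.sub hb1, hb2⟩
    rw [τ'.fib x hx'] at hb3
    exact hb3.2
  have h17 : DifferentiableAt ℂ (fun z => τ'.f ((A.e i).symm z)) (A.e i (S.χ.symm (S.χ x))) := by
    rw [S.χ.left_inv hS]
    exact Tube.diffAt τ' hi hx'
  have h18 : HasFDerivAt (fun b : Cn d => (b, (S.χ x).2))
      (ContinuousLinearMap.inl ℂ (Cn d) (Cn k)) (S.χ x).1 := hasFDerivAt_prodMk_left _ _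
  have h19 : HasFDerivAt (fun b : Cn d => (fun w => A.e i (S.χ.symm w)) (b, (S.χ x).2))
      ((fderiv ℂ (fun w => A.e i (S.χ.symm w)) (S.χ x)).comp
        (ContinuousLinearMap.inl ℂ (Cn d) (Cn k))) (S.χ x).1 :=
    HasFDerivAt.comp (S.χ x).1 (g := fun w => A.e i (S.χ.symm w)) (by exact h2.hasFDerivAt) h18
  have h20 : HasFDerivAt (fun b : Cn d => (fun z => τ'.f ((A.e i).symm z))
      ((fun w => A.e i (S.χ.symm w)) (b, (S.χ x).2)))
      ((fderiv ℂ (fun z => τ'.f ((A.e i).symm z)) (A.e i x)).comp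
        ((fderiv ℂ (fun w => A.e i (S.χ.symm w)) (S.χ x)).comp
          (ContinuousLinearMap.inl ℂ (Cn d) (Cn k)))) (S.χ x).1 := by
    refine HasFDerivAt.comp (S.χ x).1 (g := fun z => τ'.f ((A.e i).symm z)) ?_ h19
    show HasFDerivAt (fun z => τ'.f ((A.e i).symm z)) _ (A.e i (S.χ.symm (S.χ x)))
    rw [S.χ.left_inv hS]
    exact (Tube.diffAt τ' hi hx').hasFDerivAt
  have h21 : (fun b : Cn d => (fun z => τ'.f ((A.e i).symm z))
      ((fun w => A.e i (S.χ.symm w)) (b, (S.χ x).2))) =ᶠ[𝓝 (S.χ x).1] fun _ => τ'.f x := by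
    have h22 : (S.χ.target ∩ S.χ.symm ⁻¹' (A.e i).source) ∈ 𝓝 ((S.χ x).1, (S.χ x).2) :=
      (S.χ.isOpen_inter_preimage_symm (A.e i).open_source).mem_nhds ⟨S.χ.map_source hS, hxi⟩
    have h16 : ContinuousAt (fun b : Cn d => (b, (S.χ x).2)) (S.χ x).1 := by fun_prop
    filter_upwards [h16.preimage_mem_nhds h22, h14] with b hb hb'
    show τ'.f ((A.e i).symm (A.e i (S.χ.symm (b, (S.χ x).2)))) = τ'.f x
    rw [(A.e i).left_inv hb.2, hb']
  have h23 : (fderiv ℂ (fun z => τ'.f ((A.e i).symm z)) (A.e i x)).comp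
        ((fderiv ℂ (fun w => A.e i (S.χ.symm w)) (S.χ x)).comp
          (ContinuousLinearMap.inl ℂ (Cn d) (Cn k))) = 0 := by
    rw [← h20.fderiv, h21.fderiv_eq]
    simp
  rw [h5, h13]
  have h24 := congrArg (fun L => L w.1) h23
  exact h24

/-! ### a single leaf -/

/-- the base map of a leaf -/
def leafBM (A : Atl N M) (τ : Tube A k Tf) {x : M} (hx : x ∈ τ.W) : BM A Tf k 0 where
  U := univ
  Γ _ := x
  oU := isOpen_univ
  cube u _ p := p.1.elim0
  cont := continuousOn_const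
  hol i := differentiableOn_const _
  tb u _ := ⟨τ, hx⟩
  tr u _ τ' _ a b _ := Subsingleton.elim a b

/-- **a leaf of a tube as a compact family without parameters** -/
theorem exists_leaf [T2Space M] [SecondCountableTopology M] (hN : N = d + k) (τ : Tube A k Tf)
    {x : M} (hx : x ∈ τ.W) : ∃ F : Fam A d 0 univ, range F.i = Tf x ∧ Injective F.i := by
  obtain ⟨F, h1, h2⟩ := (leafBM A τ hx).exists_fam (d := d) hN univ_nonempty
  refine ⟨F, ?_, fun v w h => F.inj v w (Subsingleton.elim _ _) h⟩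
  ext y
  constructor
  · rintro ⟨v, rfl⟩
    exact h1 v
  · intro hy
    obtain ⟨v, -, hv⟩ := h2 0 (mem_univ _) y hy
    exact ⟨v, hv⟩

/-! ### the Lagrangian property -/

/-- the fibre directions of a family inside the leaves are tangent to the leaves -/
theorem ker_of_fam {G : BM A Tf k m} (F : Fam A d m G.U) (h : ∀ v, F.i v ∈ Tf (G.Γ (F.y v)))
    (τ : Tube A k Tf) {j : F.B.ι} {i : A.ι} {v : F.V} (hj : v ∈ (F.B.e j).source)
    (hi : F.i v ∈ (A.e i).source) (hτ : G.Γ (F.y v) ∈ τ.W) (a : Fin d) :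
    fderiv ℂ (fun z => τ.f ((A.e i).symm z)) (A.e i (F.i v))
      (fderiv ℂ (rd F.B A F.i j i) (F.B.e j v) (EuclideanSpace.single (Fin.castAdd m a) 1)) = 0 := by
  set w0 := F.B.e j v with hw0
  have hw0t : w0 ∈ (F.B.e j).target := (F.B.e j).map_source hj
  have hsy : (F.B.e j).symm w0 = v := (F.B.e j).left_inv hj
  have hdm : w0 ∈ dm F.B A F.i j i := mem_dm hj hi
  have h1 : DifferentiableAt ℂ (rd F.B A F.i j i) w0 := F.hol.diffAt hdm
  -- `y` in the chart
  have hy : ∀ w ∈ (F.B.e j).target, F.y ((F.B.e j).symm w) = sndL d m w := by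
    intro w hw
    ext b
    rw [← F.last j _ ((F.B.e j).map_target hw) b, (F.B.e j).right_inv hw]
    rfl
  have hyv : sndL d m w0 = F.y v := by rw [← hy w0 hw0t, hsy]
  have hW0 : F.i v ∈ τ.W := by
    have h2 := h v
    rw [τ.fib _ hτ] at h2
    exact h2.1
  have hrd0 : rd F.B A F.i j i w0 = A.e i (F.i v) := by
    show A.e i (F.i ((F.B.e j).symm w0)) = _
    rw [hsy]
  have h3 : DifferentiableAt ℂ (fun z => τ.f ((A.e i).symm z)) (rd F.B A F.i j i w0) := by
    rw [hrd0]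
    exact Tube.diffAt τ hi hW0
  -- the composition is a function of the base coordinate
  have h4 : (fun w => (fun z => τ.f ((A.e i).symm z)) (rd F.B A F.i j i w)) =ᶠ[𝓝 w0]
      fun w => τ.f (G.Γ (sndL d m w)) := by
    have h5 : dm F.B A F.i j i ∩ {w | sndL d m w ∈ G.U ∩ G.Γ ⁻¹' τ.W} ∈ 𝓝 w0 := by
      refine inter_mem ((F.hol.isOpen_dm j i).mem_nhds hdm) ?_
      refine (sndL d m).continuous.continuousAt.preimage_mem_nhds ?_
      rw [hyv]
      exact (G.isOpen_pre τ.oW).mem_nhds ⟨F.mem v, hτ⟩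
    filter_upwards [h5] with w hw
    have hwt : w ∈ (F.B.e j).target := hw.1.1
    show τ.f ((A.e i).symm (A.e i (F.i ((F.B.e j).symm w)))) = _
    rw [(A.e i).left_inv hw.1.2]
    have h6 := h ((F.B.e j).symm w)
    rw [hy w hwt, τ.fib _ hw.2.2] at h6
    exact h6.2
  have h7 := fderiv_comp w0 (g := fun z => τ.f ((A.e i).symm z)) (f := rd F.B A F.i j i) h3 h1
  have h8 : fderiv ℂ (fun w => (fun z => τ.f ((A.e i).symm z)) (rd F.B A F.i j i w)) w0 = _ := h7
  rw [h4.fderiv_eq, hrd0] at h8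
  have h9 := congrArg (fun L => L (EuclideanSpace.single (Fin.castAdd m a) 1)) h8
  rw [ContinuousLinearMap.comp_apply] at h9
  rw [← h9]
  have hU : sndL d m w0 ∈ G.U := by rw [hyv]; exact F.mem v
  have hWW : G.Γ (sndL d m w0) ∈ τ.W := by rw [hyv]; exact hτ
  have h10 : HasFDerivAt (fun w : Cn (d + m) => τ.f (G.Γ (sndL d m w)))
      ((fderiv ℂ (fun u => τ.f (G.Γ u)) (sndL d m w0)).comp (sndL d m)) w0 :=
    (G.diff_f τ hU hWW).hasFDerivAt.comp w0 (sndL d m).hasFDerivAt
  rw [h10.fderiv, ContinuousLinearMap.comp_apply]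
  have h11 : sndL d m (EuclideanSpace.single (Fin.castAdd m a) 1) = 0 := by
    rw [← app_single_left (m := m) a 1, sndL_app]
  rw [h11, map_zero]

end

end Crest.Agent.R281.S6V_664
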