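import Crest.Agent.R281.D6f_986
import Crest.Agent.R281.Har5_331
import Crest.Agent.R281.S6V5_664

/-!
# R281 (S0424), END6, node N2 (helper373): the uniform Harnack inequality as the node `Harn`

* `leafy_leaf` : 664's leaf of a tube is `Leafy`;
* `harn_of`    : `NefW`, `Low` (389), `LeafVol` ⟹ `Harn o h`.
-/

set_option autoImplicit false
set_option linter.unusedSectionVars false

open Set Filter Topology Complex MeasureTheory Function
open scoped ContDiff Matrix ComplexConjugate ComplexOrder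

namespace Crest.Agent.R281.N2_373

open Crest.Agent.R275.Geo Crest.Agent.R275.Core144 Crest.Agent.R275.GC293
open Crest.Agent.R273.Defs_333 Crest.Agent.R273.Kah_333 Crest.Agent.R273.HM_333
open Crest.Agent.R281.Defs_273 Crest.Agent.R281.D6_986
open Crest.Agent.R281.S6D_664 Crest.Agent.R281.Har_331
open Crest.Agent.R273.FIb0_597 (ch mem_ch)

noncomputable section

variable {n : ℕ} {M : Type} [TopologicalSpace M] {A : Atl (2 * n) M}
variable {σ : HSymp A} {L : LB A}

/-- the points of a leaf -/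
theorem tf_eq {F : LFib A σ} {x y : M} (hx : x ∈ F.Om) (hy : y ∈ F.Tf x) :
    y ∈ F.Om ∧ F.Tf y = F.Tf x := by
  obtain ⟨τ, hτ, hW, -⟩ := F.tube x hx
  rw [τ.fib x hτ] at hy
  refine ⟨hW hy.1, ?_⟩
  rw [τ.fib y hy.1, τ.fib x hτ, show τ.f y = τ.f x from hy.2]

theorem self_tf {F : LFib A σ} {x : M} (hx : x ∈ F.Om) : x ∈ F.Tf x := by
  obtain ⟨τ, hτ, hW, -⟩ := F.tube x hx
  rw [τ.fib x hτ]
  exact ⟨hτ, rfl⟩

/-- every leaf in `Om` is a `Leafy` family over a point -/
theorem exists_leafy [T2Space M] [SecondCountableTopology M] (F : LFib A σ) {x : M}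
    (hx : x ∈ F.Om) : ∃ F0 : Fam A n 0 univ, Leafy F F0 ∧ range F0.i = F.Tf x ∧
      Injective F0.i := by
  obtain ⟨τ, hτ, hW, -⟩ := F.tube x hx
  obtain ⟨F0, h1, h2⟩ := S6V_664.exists_leaf (d := n) (two_mul n) τ hτ
  refine ⟨F0, fun v => ?_, h1, h2⟩
  have hv : F0.i v ∈ F.Tf x := by rw [← h1]; exact mem_range_self v
  have h3 := tf_eq hx hv
  refine ⟨h3.1, ?_⟩
  have h4 : F0.y ⁻¹' {F0.y v} = univ := eq_univ_of_forall fun z => Subsingleton.elim _ _
  rw [h3.2, h4, image_univ, h1]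

/-- **the node `Harn`** -/
theorem harn_of [T2Space M] [CompactSpace M] [SecondCountableTopology M] (K : Kah A) (h : HM L)
    (o : OmOut σ L) (hnef : NefW K L) {c1 : ℝ} (hc1 : 0 < c1)
    (hlow : Low K (pow h o.k) n c1) {v : ℝ} (hv : LeafVol o.F K v) : Harn o h := by
  obtain ⟨C, hC⟩ := harnack_leaf K h hnef o.k_pos hc1 hlow (max v 0)
  refine ⟨C, fun x hx y hy => ?_⟩
  obtain ⟨F0, hl, hr, -⟩ := exists_leafy o.F hx
  have hvol : (F0.mu K univ).toReal ≤ max v 0 := by
    have h1 := hv F0 hl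
    have h2 := ENNReal.toReal_mono ENNReal.ofReal_ne_top h1
    rwa [ENNReal.toReal_ofReal', ] at h2
  have hnz : F0.NZ o.s := fun w i hi => o.nz _ (hl w).1 i hi
  obtain ⟨vx, hvx⟩ : x ∈ range F0.i := by rw [hr]; exact self_tf hx
  obtain ⟨vy, hvy⟩ : y ∈ range F0.i := by rw [hr]; exact hy
  have h1 := hC univ F0 hvol o.s o.hs hnz vx vy
  have h2 := hC univ F0 hvol o.s o.hs hnz vy vx
  rw [hvx, hvy] at h1 h2
  rw [abs_le]
  constructor
  · have : o.rho h x - o.rho h y ≤ C := h1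
    linarith
  · exact h2

end

end Crest.Agent.R281.N2_373
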