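import Crest.Agent.R281.D6f_986
import Crest.Agent.R281.Con5_166
import Crest.Agent.R281.Con2_166
import Crest.Agent.R281.Mv8_757
import Crest.Agent.R281.N2_373

/-!
# R281 (S0424), END6, CONTVOL (helper254): the node `ContVol` from `LeafVol`

* `low_leaf`     : lower bound for the volume of a leaf in a small ball of a chart;
* `cover_leaf`   : covering numbers of a leaf in a chart ball;
* `near_Z`       : the limit fibre `Z x0` in a chart ball is close to leaves;
* `contVol_of`   : `LeafVol F K v → ContVol c`.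
-/

set_option autoImplicit false
set_option linter.unusedSectionVars false

open Set Filter Topology Complex MeasureTheory Function
open scoped ContDiff Matrix ComplexConjugate ComplexOrder ENNReal

namespace Crest.Agent.R281.Cv_254

open Crest.Agent.R275.Geo Crest.Agent.R275.Core144 Crest.Agent.R275.GC293
open Crest.Agent.R273.Defs_333 Crest.Agent.R273.Kah_333 Crest.Agent.R273.HM_333
open Crest.Agent.R273.Vol_333 Crest.Agent.R273.Vm_333 Crest.Agent.R273.Map_835
open Crest.Agent.R281.Defs_273 Crest.Agent.R281.D6_986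
open Crest.Agent.R281.S6D_664 Crest.Agent.R281.Mv_757 Crest.Agent.R281.Con_166

noncomputable section

section leaf

variable {N n : ℕ} {M : Type} [TopologicalSpace M] [T2Space M] {A : Atl N M}

/-- the space of a family over a point is compact -/
theorem compactSpace_V (T : Fam A n 0 univ) : CompactSpace T.V := by
  refine ⟨?_⟩
  have h1 : IsCompact (univ : Set (Cn 0)) := Set.subsingleton_univ.isCompact
  have h2 := T.proper univ subset_rfl h1
  rwa [preimage_univ] at h2

/-- the data of 757 with weight `1` -/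
theorem mdl_one (T : Fam A n 0 univ) {j : A.ι} {q : M} {δ : ℝ} (hδ : 0 < δ)
    (hball : Metric.closedBall (A.e j q) δ ⊆ (A.e j).target) :
    MDL T.B (T.i ⁻¹' (A.e j).source) (Phi T j q) (fun _ => (1 : ℝ)) (δ ^ 2) := by
  have := compactSpace_V T
  refine ⟨(A.e j).open_source.preimage T.hol.cont, hol_Phi T j q, ?_, fun _ => zero_le_one,
    ?_, ?_⟩
  · intro k
    exact contDiffOn_const
  · intro k x hx hxW hxs
    have h1 : hsf T.B (fun _ => (1 : ℝ)) k x = 0 := by
      show Crest.Agent.R273.Hess_333.hess (fun _ => (1 : ℝ)) (T.B.e k x) = 0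
      ext a b
      rw [Crest.Agent.R273.Hess_333.hess_apply]
      have h4 : Crest.Agent.R275.EDR890.wd (true, b)
          (Crest.Agent.R273.Hess_333.cu (fun _ : Cn (n + 0) => (1 : ℝ))) = fun _ => (0 : ℂ) := by
        funext z
        exact Crest.Agent.R275.EDR890.wd_const _ _ _
      rw [h4]
      exact Crest.Agent.R275.EDR890.wd_const _ _ _
    rw [h1]
    exact Matrix.PosSemidef.zero
  · intro r' hr'
    have hcl : IsClosed {x | x ∈ T.i ⁻¹' (A.e j).source ∧ sF (Phi T j q) x ≤ r'} := by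
      rcases lt_or_ge r' 0 with h0 | h0
      · have : {x | x ∈ T.i ⁻¹' (A.e j).source ∧ sF (Phi T j q) x ≤ r'} = ∅ := by
          ext x
          simp only [mem_ofPred_eq, mem_empty_iff_false, iff_false, not_and, not_le]
          intro _
          exact h0.trans_le (sF_nonneg _ x)
        rw [this]
        exact isClosed_empty
      · have h1 : Real.sqrt r' ≤ δ := by
          rw [← Real.sqrt_sq hδ.le]
          exact Real.sqrt_le_sqrt hr'.le
        have h2 := closed_Phi T j (q := q) (Real.sqrt_nonneg r')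
          ((Metric.closedBall_subset_closedBall h1).trans hball)
        rwa [Real.sq_sqrt h0] at h2
    exact ((isClosed_tsupport _).inter hcl).isCompact

/-- **lower volume bound of a leaf in a ball of a chart** -/
theorem low_leaf (hn : 0 < n) (T : Fam A n 0 univ) (K : Kah A) {j : A.ι} {q : M}
    (hq : q ∈ (A.e j).source) {δ C : ℝ} (hδ : 0 < δ)
    (hball : Metric.closedBall (A.e j q) δ ⊆ (A.e j).target)
    (hG : ∀ z ∈ Metric.closedBall (A.e j q) δ,
      ((C : ℂ) • K.g j ((A.e j).symm z) - 1).PosSemidef)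
    {vq : T.V} (hvq : T.i vq = q) :
    ENNReal.ofReal (bv n * (δ ^ 2) ^ n) ≤ ENNReal.ofReal (C ^ n) *
      T.mu K {v | T.i v ∈ (A.e j).source ∧ A.e j (T.i v) ∈ Metric.ball (A.e j q) δ} := by
  let _ : MeasurableSpace T.V := borel T.V
  have _ : BorelSpace T.V := ⟨rfl⟩
  have D : MDL T.B (T.i ⁻¹' (A.e j).source) (Phi T j q) (fun _ => (1 : ℝ)) (δ ^ 2) :=
    mdl_one T hδ hball
  obtain ⟨k, hk⟩ := T.B.cover vq
  have hq0 : vq ∈ T.i ⁻¹' (A.e j).source := by
    show T.i vq ∈ (A.e j).source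
    rw [hvq]
    exact hq
  have hPhi0 : Phi T j q vq = 0 := by
    funext b
    simp [Phi, hvq]
  have hd : (DF T.B (Phi T j q) k vq * (DF T.B (Phi T j q) k vq)ᴴ).det ≠ 0 := by
    refine det_ne_of_inj fun ξ hξ => inj_Phi T j q hk hq0 ?_
    funext b
    have := hξ b
    rw [Matrix.vecMul, dotProduct, Pi.zero_apply, ← this]
    exact Finset.sum_congr rfl fun a _ => mul_comm _ _
  have hrho : ∀ x ∈ T.i ⁻¹' (A.e j).source, sF (Phi T j q) x < δ ^ 2 →
      rhoL (volK (T.kah K)) (T.i ⁻¹' (A.e j).source) (Phi T j q) x ≤ C ^ n := by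
    intro x hx hxs
    obtain ⟨l, hl⟩ := T.B.cover x
    have h1 := rhoL_mul (volK (T.kah K)) (W0 := T.i ⁻¹' (A.e j).source) (F := Phi T j q)
      D.hol D.op hl
    rw [dFL_on hx] at h1
    have h2 := (volK (T.kah K)).pos l x hl
    have hxz : A.e j (T.i x) ∈ Metric.closedBall (A.e j q) δ := by
      rw [mem_closedBall_iff_norm]
      rw [sF_Phi] at hxs
      exact ((pow_lt_pow_iff_left₀ (norm_nonneg _) hδ.le two_ne_zero).1 hxs).le
    have h3 := hG _ hxz
    rw [(A.e j).left_inv hx] at h3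
    have h4 := det_Phi_le T K (q := q) hl hx h3
    rw [← h1] at h4
    have h5 : (volK (T.kah K)).w l x * rhoL (volK (T.kah K)) (T.i ⁻¹' (A.e j).source)
        (Phi T j q) x ≤ (volK (T.kah K)).w l x * C ^ n := by
      rw [mul_comm _ (C ^ n)]
      exact h4
    exact le_of_mul_le_mul_left h5 h2
  have h1 := D.mvi_C (volK (T.kah K)) T.P (by positivity) hn hq0 hPhi0 hk hd hrho
  have h2 : ∫⁻ x in {x | x ∈ T.i ⁻¹' (A.e j).source ∧ sF (Phi T j q) x < δ ^ 2},
      ENNReal.ofReal ((fun _ => (1 : ℝ)) x) ∂(vm (volK (T.kah K))) =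
      T.mu K {v | T.i v ∈ (A.e j).source ∧ A.e j (T.i v) ∈ Metric.ball (A.e j q) δ} := by
    have h3 : {x | x ∈ T.i ⁻¹' (A.e j).source ∧ sF (Phi T j q) x < δ ^ 2} =
        {v | T.i v ∈ (A.e j).source ∧ A.e j (T.i v) ∈ Metric.ball (A.e j q) δ} := by
      ext x
      simp only [mem_ofPred_eq, mem_preimage]
      rw [sF_Phi, mem_ball_iff_norm, pow_lt_pow_iff_left₀ (norm_nonneg _) hδ.le two_ne_zero]
    rw [h3]
    simp only [ENNReal.ofReal_one, lintegral_const, one_mul]
    rw [Measure.restrict_apply_univ]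
    rfl
  rw [h2] at h1
  simpa using h1

/-- **covering numbers of a leaf in a chart ball** -/
theorem cover_leaf (hn : 0 < n) (T : Fam A n 0 univ) (K : Kah A) {j : A.ι} {p : Cn N}
    {ρ C v : ℝ} (hC : 0 < C) (hv0 : 0 ≤ v)
    (hball : Metric.closedBall p (3 * ρ) ⊆ (A.e j).target)
    (hG : ∀ z ∈ Metric.closedBall p (3 * ρ), ((C : ℂ) • K.g j ((A.e j).symm z) - 1).PosSemidef)
    (hv : T.mu K univ ≤ ENNReal.ofReal v) {r : ℝ} (hr : 0 < r) (hrρ : r < ρ) :
    ∃ s : Finset (Cn N), (A.e j) '' (range T.i ∩ (A.e j).source) ∩ Metric.closedBall p (2 * ρ) ⊆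
      (⋃ q ∈ s, Metric.ball q r) ∧
      (s.card : ℝ) * ((C ^ n)⁻¹ * (bv n * ((r / 2) ^ 2) ^ n)) ≤ v := by
  let _ : MeasurableSpace T.V := borel T.V
  have _ : BorelSpace T.V := ⟨rfl⟩
  set S : Set T.V := T.i ⁻¹' (A.e j).source with hS
  have hSo : IsOpen S := (A.e j).open_source.preimage T.hol.cont
  set g : T.V → Cn N := fun v => A.e j (T.i v) with hg
  have hgc : ContinuousOn g S := (A.e j).continuousOn.comp T.hol.cont.continuousOn fun _ hv => hv
  have hgm : AEMeasurable g ((T.mu K).restrict S) := hgc.aemeasurable hSo.measurableSet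
  set μ : Measure (Cn N) := Measure.map g ((T.mu K).restrict S) with hμ
  have hμb : ∀ q r, μ (Metric.ball q r) =
      T.mu K {v | T.i v ∈ (A.e j).source ∧ A.e j (T.i v) ∈ Metric.ball q r} := by
    intro q r
    rw [hμ, Measure.map_apply_of_aemeasurable hgm Metric.isOpen_ball.measurableSet,
      Measure.restrict_apply' hSo.measurableSet]
    congr 1
    ext v
    simp only [hS, hg, mem_inter_iff, mem_preimage, mem_ofPred_eq]
    exact and_comm
  have k1 : ∀ q ∈ (A.e j) '' (range T.i ∩ (A.e j).source) ∩ Metric.closedBall p (2 * ρ),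
      ENNReal.ofReal ((C ^ n)⁻¹ * (bv n * ((r / 2) ^ 2) ^ n)) ≤ μ (Metric.ball q (r / 2)) := by
    rintro q ⟨⟨x, ⟨⟨w, hw⟩, hx⟩, rfl⟩, hq⟩
    have hsub : Metric.closedBall (A.e j x) (r / 2) ⊆ Metric.closedBall p (3 * ρ) := by
      refine Metric.closedBall_subset_closedBall' ?_
      rw [Metric.mem_closedBall] at hq
      linarith
    have h1 := low_leaf hn T K hx (half_pos hr) (hsub.trans hball)
      (fun z hz => hG z (hsub hz)) hw
    rw [hμb, ENNReal.ofReal_mul (by positivity), ENNReal.ofReal_inv_of_pos (by positivity)]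
    calc (ENNReal.ofReal (C ^ n))⁻¹ * ENNReal.ofReal (bv n * ((r / 2) ^ 2) ^ n)
        ≤ (ENNReal.ofReal (C ^ n))⁻¹ * (ENNReal.ofReal (C ^ n) *
          T.mu K {v | T.i v ∈ (A.e j).source ∧
            A.e j (T.i v) ∈ Metric.ball (A.e j x) (r / 2)}) := by gcongr
      _ = T.mu K {v | T.i v ∈ (A.e j).source ∧
            A.e j (T.i v) ∈ Metric.ball (A.e j x) (r / 2)} := by
          rw [← mul_assoc, ENNReal.inv_mul_cancel, one_mul]
          · exact (ENNReal.ofReal_pos.2 (by positivity)).ne'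
          · exact ENNReal.ofReal_ne_top
  have k2 : μ univ ≤ ENNReal.ofReal v := by
    rw [hμ, Measure.map_apply_of_aemeasurable hgm MeasurableSet.univ, preimage_univ,
      Measure.restrict_apply_univ]
    exact (measure_mono (subset_univ _)).trans hv
  have hbn := bv_pos (n := n)
  obtain ⟨s, -, h2, h3⟩ := exists_cover μ
    ((A.e j) '' (range T.i ∩ (A.e j).source) ∩ Metric.closedBall p (2 * ρ)) hr
    (a := (C ^ n)⁻¹ * (bv n * ((r / 2) ^ 2) ^ n)) (v := v) (by positivity) hv0 k1 k2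
  exact ⟨s, h2, h3⟩

end leaf

section cont

variable {n : ℕ} {M : Type} [TopologicalSpace M] {A : Atl (2 * n) M}
variable {σ : HSymp A}

/-- a compact part of the limit fibre `Z x0` in a chart is close to `Z x` for `x` near `x0` -/
theorem near_Z {F : LFib A σ} (c : ContOut F) (x0 : M) {j : A.ι} {S : Set M} (hS : IsCompact S)
    (hSZ : S ⊆ c.Z x0) (hSs : S ⊆ (A.e j).source) {r : ℝ} (hr : 0 < r) :
    ∀ᶠ x in 𝓝 x0, ∀ q ∈ S, ∃ q' ∈ c.Z x ∩ (A.e j).source, dist (A.e j q) (A.e j q') < r := by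
  have hcov : ∀ q ∈ S, ∃ V ∈ 𝓝[S] q, ∀ᶠ x in 𝓝 x0, ∀ p ∈ V,
      ∃ q' ∈ c.Z x ∩ (A.e j).source, dist (A.e j p) (A.e j q') < r := by
    intro q hq
    have hW : IsOpen ((A.e j).source ∩ A.e j ⁻¹' Metric.ball (A.e j q) (r / 2)) :=
      (A.e j).isOpen_inter_preimage Metric.isOpen_ball
    have hqW : q ∈ (A.e j).source ∩ A.e j ⁻¹' Metric.ball (A.e j q) (r / 2) :=
      ⟨hSs hq, Metric.mem_ball_self (half_pos hr)⟩
    refine ⟨_, mem_nhdsWithin_of_mem_nhds (hW.mem_nhds hqW), ?_⟩
    filter_upwards [c.lsc x0 q (hSZ hq) _ hW hqW] with x hx p hp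
    obtain ⟨q', hq', hq1, hq2⟩ := hx
    refine ⟨q', ⟨hq', hq1⟩, ?_⟩
    have h1 : dist (A.e j p) (A.e j q) < r / 2 := hp.2
    have h2 : dist (A.e j q') (A.e j q) < r / 2 := hq2
    have h3 := dist_triangle_right (A.e j p) (A.e j q') (A.e j q)
    linarith
  exact hS.induction_on (p := fun s => ∀ᶠ x in 𝓝 x0, ∀ q ∈ s,
      ∃ q' ∈ c.Z x ∩ (A.e j).source, dist (A.e j q) (A.e j q') < r) (by simp)
    (fun s t hst h => h.mono fun x hx p hp => hx p (hst hp))
    (fun s t h1 h2 => by
      filter_upwards [h1, h2] with x a b p hp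
      exact hp.elim (a p) (b p)) hcov

/-- **the node `ContVol`** -/
theorem contVol_of [T2Space M] [SecondCountableTopology M] (K : Kah A) {F : LFib A σ}
    (c : ContOut F) {v : ℝ} (hv : LeafVol F K v) : ContVol c := by
  intro x0
  obtain ⟨j, hj⟩ := A.cover x0
  obtain ⟨δ, hδ, C, hC, hball, hG⟩ : ∃ δ : ℝ, 0 < δ ∧ ∃ C : ℝ, 0 < C ∧
      Metric.closedBall (A.e j x0) δ ⊆ (A.e j).target ∧
      ∀ z ∈ Metric.closedBall (A.e j x0) δ,
        ((C : ℂ) • K.g j ((A.e j).symm z) - 1).PosSemidef := by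
    have ht : A.e j x0 ∈ (A.e j).target := (A.e j).map_source hj
    have hto : (A.e j).target ∈ 𝓝 (A.e j x0) := (A.e j).open_target.mem_nhds ht
    have hKc : ContinuousAt (fun z => K.g j ((A.e j).symm z)) (A.e j x0) := by
      refine continuousAt_pi.2 fun a => continuousAt_pi.2 fun b => ?_
      exact ((K.sm j a b).continuousOn.continuousAt hto)
    obtain ⟨C, hC, h1⟩ := D6_986.dom_near (K := fun z => K.g j ((A.e j).symm z))
      (G := fun _ => (1 : Matrix (Fin (2 * n)) (Fin (2 * n)) ℂ)) hKc continuousAt_const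
      (by filter_upwards [hto] with z hz using (K.pos j _ ((A.e j).map_target hz)).isHermitian)
      (Eventually.of_forall fun _ => Matrix.isHermitian_one)
      (K.pos j _ ((A.e j).map_target ht))
    obtain ⟨r, hr, hrs⟩ := Metric.eventually_nhds_iff.1 (h1.and hto)
    refine ⟨r / 2, by positivity, C, hC, fun z hz => (hrs ?_).2, fun z hz => (hrs ?_).1⟩
    · rw [Metric.mem_closedBall] at hz
      linarith
    · rw [Metric.mem_closedBall] at hz
      linarith
  set ρ : ℝ := δ / 3 with hρ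
  have hρ0 : 0 < ρ := by positivity
  have h3ρ : 3 * ρ = δ := by rw [hρ]; ring
  have hballρ : Metric.closedBall (A.e j x0) ρ ⊆ (A.e j).target :=
    (Metric.closedBall_subset_closedBall (by linarith)).trans hball
  refine ⟨j, hj, ρ, hρ0, hballρ, ?_⟩
  rcases Nat.eq_zero_or_pos n with hn | hn
  · -- dimension zero
    subst hn
    have : Subsingleton (Cn (2 * 0)) := by
      refine ⟨fun a b => ?_⟩
      ext i
      exact absurd i.2 (by simp)
    refine lt_of_le_of_lt ?_ ENNReal.one_lt_top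
    have h1 := Measure.hausdorffMeasure_le_one_of_subsingleton (d := ((2 * 0 : ℕ) : ℝ))
      (s := (A.e j) '' (c.Z x0 ∩ (A.e j).source) ∩ Metric.closedBall (A.e j x0) ρ)
      (Set.subsingleton_of_subsingleton) (by simp)
    exact h1
  -- the compact part of the fibre
  set S : Set M := c.Z x0 ∩ (A.e j).symm '' Metric.closedBall (A.e j x0) ρ with hS
  have hScl : IsCompact ((A.e j).symm '' Metric.closedBall (A.e j x0) ρ) :=
    (isCompact_closedBall _ _).image_of_continuousOn ((A.e j).continuousOn_symm.mono hballρ)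
  have hSc : IsCompact S := (c.cpt x0).inter_right hScl.isClosed
  have hSs : S ⊆ (A.e j).source := by
    rintro y ⟨-, z, hz, rfl⟩
    exact (A.e j).map_target (hballρ hz)
  have hKS : (A.e j) '' (c.Z x0 ∩ (A.e j).source) ∩ Metric.closedBall (A.e j x0) ρ ⊆
      (A.e j) '' S := by
    rintro z ⟨⟨y, ⟨hy1, hy2⟩, rfl⟩, hz⟩
    exact ⟨y, ⟨hy1, A.e j y, hz, (A.e j).left_inv hy2⟩, rfl⟩
  have hbn := bv_pos (n := n)
  set a0 : ℝ := (C ^ n)⁻¹ * bv n with ha0
  have ha0p : 0 < a0 := by positivity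
  -- covering numbers of the limit fibre
  have hcov : ∀ r : ℝ, 0 < r → r < 2 * ρ → ∃ s : Finset (Cn (2 * n)),
      (A.e j) '' (c.Z x0 ∩ (A.e j).source) ∩ Metric.closedBall (A.e j x0) ρ ⊆
        (⋃ p ∈ s, Metric.ball p r) ∧
      (s.card : ℝ) * r ^ (2 * n) ≤ 4 ^ (2 * n) * (max v 0 / a0) := by
    intro r hr hrρ
    obtain ⟨x, hxO, hx⟩ := F.dns.inter_nhds_nonempty
      (near_Z c x0 hSc inter_subset_left hSs (half_pos hr))
    obtain ⟨T, hTl, hTr, -⟩ := N2_373.exists_leafy F hxO
    obtain ⟨s, hs1, hs2⟩ := cover_leaf hn T K (j := j) (p := A.e j x0) (v := max v 0) hC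
      (le_max_right _ _) (by rw [h3ρ]; exact hball) (by rw [h3ρ]; exact hG)
      ((hv T hTl).trans (ENNReal.ofReal_le_ofReal (le_max_left _ _)))
      (half_pos hr) (by linarith)
    refine ⟨s, fun z hz => ?_, ?_⟩
    · obtain ⟨y, hy, hyz⟩ := hKS hz
      obtain ⟨q', hq', hd⟩ := hx y hy
      have hq1 : A.e j q' ∈ (A.e j) '' (range T.i ∩ (A.e j).source) ∩
          Metric.closedBall (A.e j x0) (2 * ρ) := by
        refine ⟨⟨q', ⟨?_, hq'.2⟩, rfl⟩, ?_⟩
        · rw [hTr, ← c.eq x hxO]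
          exact hq'.1
        · have h1 : dist z (A.e j x0) ≤ ρ := hz.2
          rw [← hyz] at h1
          rw [Metric.mem_closedBall]
          have h2 := dist_triangle_left (A.e j q') (A.e j x0) (A.e j y)
          linarith
      obtain ⟨p, hp, hpq⟩ := mem_iUnion₂.1 (hs1 hq1)
      refine mem_iUnion₂.2 ⟨p, hp, ?_⟩
      rw [Metric.mem_ball] at hpq ⊢
      rw [← hyz]
      have := dist_triangle (A.e j y) (A.e j q') p
      linarith
    · have e1 : (C ^ n)⁻¹ * (bv n * ((r / 2 / 2) ^ 2) ^ n) = a0 * (r ^ (2 * n) / 4 ^ (2 * n)) := by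
        rw [ha0, ← pow_mul, div_div, div_pow]
        norm_num
        ring
      rw [e1] at hs2
      have h4 : (0 : ℝ) < 4 ^ (2 * n) := by positivity
      have e2 : (s.card : ℝ) * r ^ (2 * n) =
          4 ^ (2 * n) * (((s.card : ℝ) * (a0 * (r ^ (2 * n) / 4 ^ (2 * n)))) / a0) := by
        field_simp
      rw [e2]
      gcongr
  exact (hausdorff_le_of_cover _ (by positivity) (by positivity : (0 : ℝ) < 2 * ρ) hcov).trans_lt
    ENNReal.ofReal_lt_top

end cont

end

end Crest.Agent.R281.Cv_254
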