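import Crest.Agent.R281.LEnd0_10
import Crest.Agent.R281.ThnM_280
import Crest.Agent.R273.FS_333

/-!
# R281 (S0424), S6-ASM (helper986), part a: the bottom of the skeleton of DIV 6

`ThinL A S`     : 710's exceptional sets
`RichStmt`      : the statement of 710's smoothing theorem (Richberg) for bounded potentials (791),
                  exceptional set closed and `σ`-thin (280)
`EndStmt`       : 10/946/578: `EndIn K L x0 → LocGen L x0`
`SMet L`        : a metric `h e^{-u}` of `L`, `u` bounded, smooth and semipositive off a thin set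
`Tube m x0`     : a neighbourhood of the fibre through `x0` with a basic map `w`, a frame `τ`, and
                  curvature `≥ ε ∂∂̄|w|²` off the thin set
`Tube.endIn`    : RICH + Tube ⟹ EndIn
`semiAmple_of_tubes`
`exists_tube_nhds` : shrinking (topology)
-/

set_option autoImplicit false
set_option linter.unusedSectionVars false

open Set Filter Topology Complex
open scoped ContDiff Matrix ComplexConjugate Manifold ComplexOrder

namespace Crest.Agent.R281.D6_986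

open Crest.Agent.R275.Geo Crest.Agent.R275.Core144 Crest.Agent.R275.GC293
open Crest.Agent.R273.Defs_333 Crest.Agent.R273.Kah_333 Crest.Agent.R273.HM_333
open Crest.Agent.R273.Hess_333 Crest.Agent.R273.HessB_333
open Crest.Agent.R281.Defs_273 Crest.Agent.R281.LEnd_10
open Crest.Agent.R281.ThnM_280 (SThM)

noncomputable section

variable {n : ℕ} {M : Type} [TopologicalSpace M] {A : Atl n M}

/-- 710 #7355: closed, and for a dense set of discs the trace on the disc is countable -/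
def ThinL (A : Atl n M) (S : Set M) : Prop :=
  IsClosed S ∧ ∀ i, ∀ z ∈ (A.e i).target, ∃ r > 0, Metric.ball z r ⊆ (A.e i).target ∧
    ∀ x ∈ Metric.ball z (r / 2), ∀ v : Cn n, ‖v‖ < r / 2 →
      (x, v) ∈ closure {p : Cn n × Cn n | (A.e i).symm p.1 ∉ S ∧
        {w : ℂ | ‖w‖ ≤ 1 ∧ p.1 + w • p.2 ∈ (A.e i).target ∧
          (A.e i).symm (p.1 + w • p.2) ∈ S}.Countable}

/-- the output of 710 + 791 (S6-RICH, bounded potentials) -/
def RichStmt : Prop :=
  ∀ {n : ℕ} {M : Type} [TopologicalSpace M] [CompactSpace M] [T2Space M] (A : Atl n M)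
    [Finite A.ι] (_ : Part A) (K : Kah A) (L : LB A) (h : HM L) (u : M → ℝ) (B : ℝ)
    (_ : ∀ x, |u x| ≤ B)
    (S : Set M) (_ : IsClosed S) (_ : SThM A S)
    (_ : ∀ i, ∀ z ∈ (A.e i).target, (A.e i).symm z ∉ S →
      ContDiffAt ℝ ∞ (fun w => u ((A.e i).symm w)) z)
    (_ : ∀ i, ∀ x ∈ (A.e i).source, x ∉ S → (cur h i x + hsf A u i x).PosSemidef)
    (U : Set M) (_ : IsOpen U) (ρ : M → ℝ)
    (_ : ∀ i, ∀ z ∈ (A.e i).target, (A.e i).symm z ∈ U →
      ContDiffAt ℝ ∞ (fun w => ρ ((A.e i).symm w)) z)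
    (_ : ∀ i, ∀ x ∈ (A.e i).source, x ∈ U → x ∉ S →
      (cur h i x + hsf A u i x - hsf A ρ i x).PosSemidef)
    (C : Set M) (_ : IsCompact C) (_ : C ⊆ U) (δ : ℝ) (_ : 0 < δ),
    ∃ v : M → ℝ, A.Sm v ∧ (∀ x, |v x| ≤ B + 1) ∧
      (∀ i, ∀ x ∈ (A.e i).source, (cur h i x + hsf A v i x + (δ : ℂ) • K.g i x).PosSemidef) ∧
      (∀ i, ∀ x ∈ (A.e i).source, x ∈ C →
        (cur h i x + hsf A v i x + (δ : ℂ) • K.g i x - hsf A ρ i x).PosSemidef)

/-- the output of 10/946/578 (S6-L2END) at one point -/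
def EndStmt (K : Kah A) (L : LB A) : Prop := ∀ x0 : M, Nonempty (EndIn K L x0) → LocGen L x0

/-- a metric `h e^{-u}` on `L`, `u` bounded, smooth with semipositive curvature off a thin set -/
structure SMet (L : LB A) where
  h : HM L
  u : M → ℝ
  B : ℝ
  bdd : ∀ x, |u x| ≤ B
  S : Set M
  cl : IsClosed S
  sth : SThM A S
  sm : ∀ i, ∀ z ∈ (A.e i).target, (A.e i).symm z ∉ S →
    ContDiffAt ℝ ∞ (fun w => u ((A.e i).symm w)) z
  pos : ∀ i, ∀ x ∈ (A.e i).source, x ∉ S → (cur h i x + hsf A u i x).PosSemidef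

/-- the neighbourhood of the fibre through `x0` -/
structure Tube {L : LB A} (m : SMet L) (x0 : M) where
  k0 : ℕ
  k0_pos : 0 < k0
  U : Set M
  isOpen_U : IsOpen U
  mem_U : x0 ∈ U
  r : ℕ
  w : M → Fin r → ℂ
  hol : ∀ i k, HolAt A i U (fun x => w x k)
  w_zero : ∀ k, w x0 k = 0
  ρ : ℝ
  ρ_pos : 0 < ρ
  cpt : IsCompact {x | x ∈ U ∧ sqw w x ≤ ρ}
  τ : A.ι → M → ℂ
  isHS : IsHS (L ^ k0) U τ
  ne : ∀ i, ∀ x ∈ (A.e i).source, x ∈ U → τ i x ≠ 0
  ε : ℝ
  ε_pos : 0 < ε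
  pos : ∀ i, ∀ x ∈ (A.e i).source, x ∈ U → x ∉ m.S →
    (cur m.h i x + hsf A m.u i x - (ε : ℂ) • hsf A (sqw w) i x).PosSemidef

theorem contDiffAt_sqw {U : Set M} {r : ℕ} {w : M → Fin r → ℂ} (hU : IsOpen U)
    (hol : ∀ i k, HolAt A i U (fun x => w x k)) (i : A.ι) {z : Cn n} (hz : z ∈ (A.e i).target)
    (hzU : (A.e i).symm z ∈ U) : ContDiffAt ℝ ∞ (fun z => sqw w ((A.e i).symm z)) z := by
  have ho : IsOpen ((A.e i).target ∩ (A.e i).symm ⁻¹' U) :=
    (A.e i).isOpen_inter_preimage_symm hU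
  have h1 : ∀ k, ContDiffAt ℝ ∞ (fun z => w ((A.e i).symm z) k) z := fun k => by
    have h2 : DifferentiableOn ℂ (fun z => w ((A.e i).symm z) k)
        ((A.e i).target ∩ (A.e i).symm ⁻¹' U) := hol i k
    exact Crest.Agent.R273.FS_333.contDiffAt_of_hol ho h2 ⟨hz, hzU⟩
  have h4 : (fun z => sqw w ((A.e i).symm z)) = fun z => ∑ k, ‖w ((A.e i).symm z) k‖ ^ 2 := rfl
  rw [h4]
  exact ContDiffAt.sum fun k _ => (h1 k).norm_sq ℝ

/-- RICH turns a tube into the input of the last step -/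
theorem Tube.endIn [CompactSpace M] [T2Space M] [Finite A.ι] (rich : RichStmt) (P : Part A)
    (K : Kah A)
    {L : LB A} (m : SMet L) {x0 : M} (t : Tube m x0) : Nonempty (EndIn K L x0) := by
  have hsq : ∀ i, ∀ z ∈ (A.e i).target, (A.e i).symm z ∈ t.U →
      ContDiffAt ℝ ∞ (fun z => t.ε * sqw t.w ((A.e i).symm z)) z := fun i z hz hzU =>
    contDiffAt_const.mul (contDiffAt_sqw t.isOpen_U t.hol i hz hzU)
  have hh : ∀ i, ∀ x ∈ (A.e i).source, x ∈ t.U →
      hsf A (fun x => t.ε * sqw t.w x) i x = (t.ε : ℂ) • hsf A (sqw t.w) i x := fun i x hx hxU =>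
    hess_const_mul (u := fun z => sqw t.w ((A.e i).symm z)) t.ε
      (contDiffAt_sqw t.isOpen_U t.hol i ((A.e i).map_source hx)
        (by rw [(A.e i).left_inv hx]; exact hxU))
  refine ⟨⟨t.k0, t.k0_pos, t.U, t.isOpen_U, t.mem_U, t.r, t.w, t.hol, t.w_zero, t.ρ, t.ρ_pos,
    t.cpt, t.τ, t.isHS, t.ne, m.h, t.ε, t.ε_pos, m.B + 1, fun δ hδ => ?_⟩⟩
  obtain ⟨v, hv, hvu, hv1, hv2⟩ := rich A P K L m.h m.u m.B m.bdd m.S m.cl m.sth m.sm m.pos t.U
    t.isOpen_U
    (fun x => t.ε * sqw t.w x) hsq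
    (fun i x hx hxU hxS => by rw [hh i x hx hxU]; exact t.pos i x hx hxU hxS)
    {x | x ∈ t.U ∧ sqw t.w x ≤ t.ρ} t.cpt (fun x hx => hx.1) (min δ 1) (lt_min hδ one_pos)
  have hδ' : ∀ i, ∀ x ∈ (A.e i).source,
      ((δ - min δ 1 : ℝ) • K.g i x).PosSemidef := fun i x hx =>
    (K.pos i x hx).posSemidef.smul (sub_nonneg.2 (min_le_left _ _))
  have hsm : ∀ (X : Matrix (Fin n) (Fin n) ℂ) (i : A.ι) (x : M),
      X + (δ : ℂ) • K.g i x = (X + ((min δ 1 : ℝ) : ℂ) • K.g i x) +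
        (δ - min δ 1 : ℝ) • K.g i x := by
    intro X i x
    ext a b
    simp only [Matrix.add_apply, Matrix.smul_apply, smul_eq_mul, Complex.real_smul]
    push_cast
    ring
  refine ⟨v, hv, hvu, fun i x hx => ?_, fun i x hx hxU hxr => ?_⟩
  · rw [hsm]
    exact (hv1 i x hx).add (hδ' i x hx)
  · rw [hsm, ← hh i x hx hxU, add_sub_right_comm]
    exact (hv2 i x hx ⟨hxU, hxr⟩).add (hδ' i x hx)

/-- the bottom of DIV 6 -/
theorem semiAmple_of_tubes [CompactSpace M] [T2Space M] [Finite A.ι] (rich : RichStmt)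
    (P : Part A) (K : Kah A)
    {L : LB A} (hend : EndStmt K L) (m : SMet L) (ht : ∀ x0, Nonempty (Tube m x0)) :
    SemiAmple L :=
  semiAmple_of_locGen fun x0 => hend x0 ((ht x0).elim fun t => t.endIn rich P K m)

/-- shrinking: a neighbourhood on which `{|w|² ≤ ρ}` is compact -/
theorem exists_shrink [CompactSpace M] [T2Space M] {U Z : Set M} (hU : IsOpen U)
    (hZ : IsCompact Z) (hZU : Z ⊆ U) {r : ℕ} {w : M → Fin r → ℂ} (hw : ContinuousOn w U)
    (hne : ∀ x ∈ U, x ∉ Z → w x ≠ 0) :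
    ∃ V : Set M, IsOpen V ∧ Z ⊆ V ∧ V ⊆ U ∧ ∃ ρ : ℝ, 0 < ρ ∧
      IsCompact {x | x ∈ V ∧ sqw w x ≤ ρ} := by
  obtain ⟨V, hV, hZV, hVU⟩ := normal_exists_closure_subset hZ.isClosed hU hZU
  have hcont : ContinuousOn (sqw w) U := by
    unfold sqw
    exact continuousOn_finsetSum _ fun k _ => ((continuousOn_pi.1 hw k).norm.pow 2)
  have hpos : ∀ x ∈ U, x ∉ Z → 0 < sqw w x := by
    intro x hx hxZ
    have h1 := hne x hx hxZ
    obtain ⟨k, hk⟩ : ∃ k, w x k ≠ 0 := by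
      by_contra h
      push Not at h
      exact h1 (funext h)
    refine Finset.sum_pos' (fun k _ => by positivity) ⟨k, Finset.mem_univ _, ?_⟩
    have := norm_pos_iff.2 hk
    positivity
  have hfr : IsCompact (frontier V) := isClosed_frontier.isCompact
  have hfrU : frontier V ⊆ U := frontier_subset_closure.trans hVU
  have hfrZ : ∀ x ∈ frontier V, x ∉ Z := by
    intro x hx hxZ
    rw [hV.frontier_eq] at hx
    exact hx.2 (hZV hxZ)
  have key : ∃ ρ : ℝ, 0 < ρ ∧ ∀ x ∈ frontier V, ρ < sqw w x := by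
    rcases (frontier V).eq_empty_or_nonempty with h0 | h0
    · exact ⟨1, one_pos, fun x hx => by rw [h0] at hx; exact absurd hx (by simp)⟩
    · obtain ⟨y, hy, hmin⟩ := hfr.exists_isMinOn h0 (hcont.mono hfrU)
      have hy0 := hpos y (hfrU hy) (hfrZ y hy)
      refine ⟨sqw w y / 2, by linarith, fun x hx => ?_⟩
      have := isMinOn_iff.1 hmin x hx
      linarith
  obtain ⟨ρ, hρ, hfr2⟩ := key
  refine ⟨V, hV, hZV, subset_closure.trans hVU, ρ, hρ, ?_⟩
  have h1 : {x | x ∈ V ∧ sqw w x ≤ ρ} = closure V ∩ sqw w ⁻¹' (Iic ρ) := by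
    ext x
    constructor
    · rintro ⟨h1, h2⟩
      exact ⟨subset_closure h1, h2⟩
    · rintro ⟨h1, h2⟩
      refine ⟨?_, h2⟩
      by_contra hxV
      have hxf : x ∈ frontier V := by
        rw [hV.frontier_eq]
        exact ⟨h1, hxV⟩
      exact absurd (hfr2 x hxf) (not_lt.2 h2)
  rw [h1]
  exact ((hcont.mono hVU).preimage_isClosed_of_isClosed isClosed_closure isClosed_Iic).isCompact

end

end Crest.Agent.R281.D6_986
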