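import Crest.Agent.R281.D6a_986
import Crest.Agent.R281.S6D_664

/-!
# R281 (S0424), S6-ASM (helper986), part b: the nodes of DIV 6 as literal Props

`OmOut K σ L`   : output of S6-OMEGA (854/524/280/677/519): a Lagrangian fibration on a dense open
                  set with thin complement and a section of `L^k` without zeros there;
`Harn`          : output of S6-HARN (331/389);
`UOut`          : output of S6-SK (507/479/425 + glue of 986): the function `u`;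
`ContOut`       : output of S6-CONT (166/563/192/757): the partition `Z`;
`FrameAt`       : output of S6-FRAME (316/341/941) at a point;
-/

set_option autoImplicit false
set_option linter.unusedSectionVars false

open Set Filter Topology Complex
open scoped ContDiff Matrix ComplexConjugate Manifold ComplexOrder

namespace Crest.Agent.R281.D6_986

open Crest.Agent.R275.Geo Crest.Agent.R275.Core144 Crest.Agent.R275.GC293
open Crest.Agent.R273.Defs_333 Crest.Agent.R273.Kah_333 Crest.Agent.R273.HM_333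
open Crest.Agent.R273.Hess_333 Crest.Agent.R273.HessB_333
open Crest.Agent.R281.Defs_273 Crest.Agent.R281.LEnd_10
open Crest.Agent.R281.S6D_664 (LFib)
open Crest.Agent.R273.FIb0_597 (ch mem_ch)

noncomputable section

variable {n : ℕ} {M : Type} [TopologicalSpace M] {A : Atl (2 * n) M}

/-- output of S6-OMEGA -/
structure OmOut (σ : HSymp A) (L : LB A) where
  F : LFib A σ
  k : ℕ
  k_pos : 0 < k
  s : A.ι → M → ℂ
  hs : IsHS (L ^ k) univ s
  nz : ∀ x ∈ F.Om, ∀ i, x ∈ (A.e i).source → s i x ≠ 0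

variable {σ : HSymp A} {L : LB A}

/-- the complement of `Om` is thin in the sense of 710 -/
theorem thinL_of_lfib (F : LFib A σ) : ThinL A F.Omᶜ := by
  refine ⟨F.op.isClosed_compl, fun i z hz => ?_⟩
  obtain ⟨r, hr, hball⟩ := Metric.isOpen_iff.1 (A.e i).open_target z hz
  refine ⟨r, hr, hball, fun x hx v hv => ?_⟩
  rw [Metric.mem_closure_iff]
  intro ε hε
  have hxt : x ∈ (A.e i).target := hball (Metric.ball_subset_ball (by linarith) hx)
  -- a point of `Om` near `x`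
  have ho : IsOpen ((A.e i).symm '' (Metric.ball x ε ∩ (A.e i).target)) :=
    (A.e i).symm.isOpen_image_of_subset_source (Metric.isOpen_ball.inter (A.e i).open_target)
      inter_subset_right
  have hne : ((A.e i).symm '' (Metric.ball x ε ∩ (A.e i).target)).Nonempty :=
    ⟨(A.e i).symm x, x, ⟨Metric.mem_ball_self hε, hxt⟩, rfl⟩
  obtain ⟨y, hyO, hy⟩ := F.dns.inter_open_nonempty _ ho hne
  obtain ⟨x', ⟨hx'b, hx't⟩, rfl⟩ := hyO
  obtain ⟨v', hv'D, hv'⟩ := (F.thin i x' hx't hy).exists_dist_lt v hε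
  refine ⟨(x', v'), ⟨by simpa using hy, ?_⟩, ?_⟩
  · refine Set.Countable.mono ?_ hv'D
    rintro c ⟨_, hc1, hc2⟩
    exact ⟨hc1, by simpa using hc2⟩
  · rw [Prod.dist_eq]
    exact max_lt (by rw [dist_comm]; exact hx'b) hv'

/-- `ρ = log |s|²_h` -/
def OmOut.rho (o : OmOut σ L) (h : HM L) (x : M) : ℝ :=
  Real.log (nsq (pow h o.k) o.s (ch A x) x)

/-- output of S6-HARN -/
def Harn (o : OmOut σ L) (h : HM L) : Prop :=
  ∃ C : ℝ, ∀ x ∈ o.F.Om, ∀ y ∈ o.F.Tf x, |o.rho h y - o.rho h x| ≤ C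

/-- `w` is holomorphic on `U ∩ Om` and constant on the fibres -/
structure BasicOn (F : LFib A σ) (U : Set M) (w : M → ℂ) : Prop where
  op : IsOpen U
  sat : ∀ x ∈ U, x ∈ F.Om → F.Tf x ⊆ U
  hol : ∀ i, HolAt A i U w
  const : ∀ x ∈ U, x ∈ F.Om → ∀ y ∈ F.Tf x, w y = w x

/-- output of S6-SK and S6-HARN: the basic metric `h e^{-u}` over `Om`, `u` bounded -/
structure UOut (K : Kah A) (o : OmOut σ L) (h : HM L) where
  u : M → ℝ
  B : ℝ
  bdd : ∀ x, |u x| ≤ B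
  sm : ∀ i, ∀ z ∈ (A.e i).target, (A.e i).symm z ∈ o.F.Om →
    ContDiffAt ℝ ∞ (fun w => u ((A.e i).symm w)) z
  pos : ∀ i, ∀ x ∈ (A.e i).source, x ∈ o.F.Om → (cur h i x + hsf A u i x).PosSemidef
  c : ℝ
  c_pos : 0 < c
  /-- `θ + ∂∂̄u ≥ c B⁻¹ ∂∂̄|w|²` for basic `w` with `∂w ⊗ ∂̄w ≤ B K` -/
  strict : ∀ (U : Set M) (w : M → ℂ), BasicOn o.F U w → ∀ B : ℝ, 0 < B →
    (∀ i, ∀ x ∈ (A.e i).source, x ∈ U → x ∈ o.F.Om →
      ((B : ℂ) • K.g i x - hsf A (fun y => ‖w y‖ ^ 2) i x).PosSemidef) →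
    ∀ i, ∀ x ∈ (A.e i).source, x ∈ U → x ∈ o.F.Om →
      (cur h i x + hsf A u i x - ((c / B : ℝ) : ℂ) • hsf A (fun y => ‖w y‖ ^ 2) i x).PosSemidef

/-- output of S6-CONT: the partition of `M` into limit fibres -/
structure ContOut (F : LFib A σ) where
  Z : M → Set M
  eq : ∀ x ∈ F.Om, Z x = F.Tf x
  mem : ∀ x, x ∈ Z x
  part : ∀ x, ∀ y ∈ Z x, Z y = Z x
  cpt : ∀ x, IsCompact (Z x)
  conn : ∀ x, IsConnected (Z x)
  usc : ∀ x, ∀ W, IsOpen W → Z x ⊆ W → ∀ᶠ y in 𝓝 x, Z y ⊆ W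
  lsc : ∀ x, ∀ y ∈ Z x, ∀ W, IsOpen W → y ∈ W → ∀ᶠ x' in 𝓝 x, (Z x' ∩ W).Nonempty

/-- output of S6-FRAME at `x0` -/
structure FrameAt (F : LFib A σ) (c : ContOut F) (L : LB A) (x0 : M) where
  U : Set M
  op : IsOpen U
  sub : c.Z x0 ⊆ U
  sat : ∀ x ∈ U, c.Z x ⊆ U
  r : ℕ
  w : M → Fin r → ℂ
  hol : ∀ i k, HolAt A i U (fun x => w x k)
  const : ∀ x ∈ U, ∀ y ∈ c.Z x, w y = w x
  w_zero : w x0 = 0
  sep : ∀ x ∈ U, w x = 0 → x ∈ c.Z x0
  k0 : ℕ
  k0_pos : 0 < k0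
  τ : A.ι → M → ℂ
  isHS : IsHS (L ^ k0) U τ
  ne : ∀ i, ∀ x ∈ (A.e i).source, x ∈ U → τ i x ≠ 0

end

end Crest.Agent.R281.D6_986
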