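import Crest.Agent.R281.D6b_986
import Crest.Agent.R281.Con1_166

/-!
# R281 (S0424), S6-ASM (helper986), part c: `FrameAt + UOut + UCont ⟹ SMet, Tube`

* `psd_congr`, `dom_near`, `exists_bound` : `B K ≥ ∂∂̄|w|²` on compact sets;
* `FrameAt.tube` : the tube of part a from the nodes of part b;
* `semiAmple_of_nodes`.
-/

set_option autoImplicit false
set_option linter.unusedSectionVars false

open Set Filter Topology Complex
open scoped ContDiff Matrix ComplexConjugate Manifold ComplexOrder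

namespace Crest.Agent.R281.D6_986

open Crest.Agent.R275.Geo Crest.Agent.R275.Core144 Crest.Agent.R275.GC293
open Crest.Agent.R273.Defs_333 Crest.Agent.R273.Kah_333 Crest.Agent.R273.HM_333
open Crest.Agent.R273.Hess_333 Crest.Agent.R273.HessB_333
open Crest.Agent.R281.Defs_273 Crest.Agent.R281.LEnd_10
open Crest.Agent.R281.S6D_664 (LFib)

noncomputable section

section Mat

variable {N : ℕ}

theorem psd_congr {J H : Matrix (Fin N) (Fin N) ℂ} (h : H.PosSemidef) :
    (Jᵀ * H * J.map conj).PosSemidef := by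
  have h1 := h.conjTranspose_mul_mul_same (J.map conj)
  have h2 : (J.map conj)ᴴ = Jᵀ := by
    ext a b
    simp [Matrix.conjTranspose_apply]
  rwa [h2] at h1

/-- the real part of the Hermitian form -/
def hf (H : Matrix (Fin N) (Fin N) ℂ) (v : Fin N → ℂ) : ℝ := (star v ⬝ᵥ (H *ᵥ v)).re

theorem continuous_hf : Continuous fun p : Matrix (Fin N) (Fin N) ℂ × (Fin N → ℂ) =>
    hf p.1 p.2 := by
  unfold hf
  fun_prop

theorem hf_smul (H : Matrix (Fin N) (Fin N) ℂ) (c : ℝ) (v : Fin N → ℂ) :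
    hf H ((c : ℂ) • v) = c ^ 2 * hf H v := by
  simp only [hf, star_smul, Matrix.mulVec_smul, dotProduct_smul, smul_dotProduct, smul_eq_mul]
  have h1 : star (c : ℂ) = c := Complex.conj_ofReal c
  rw [h1, ← mul_assoc, ← ofReal_mul, re_ofReal_mul]
  ring

theorem hf_sub (B : ℝ) (H H' : Matrix (Fin N) (Fin N) ℂ) (v : Fin N → ℂ) :
    hf ((B : ℂ) • H - H') v = B * hf H v - hf H' v := by
  simp only [hf, Matrix.sub_mulVec, Matrix.smul_mulVec, dotProduct_sub, dotProduct_smul,
    smul_eq_mul, sub_re, re_ofReal_mul]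

theorem psd_of_hf {H : Matrix (Fin N) (Fin N) ℂ} (hH : H.IsHermitian)
    (h : ∀ v ∈ Metric.sphere (0 : Fin N → ℂ) 1, 0 ≤ hf H v) : H.PosSemidef := by
  refine Matrix.PosSemidef.of_dotProduct_mulVec_nonneg hH fun v => ?_
  rw [Complex.le_def]
  refine ⟨?_, ?_⟩
  · show (0 : ℝ) ≤ hf _ v
    rcases eq_or_ne v 0 with rfl | hv
    · simp [hf]
    · have hn : 0 < ‖v‖ := norm_pos_iff.2 hv
      have hv1 : (((‖v‖⁻¹ : ℝ) : ℂ)) • v ∈ Metric.sphere (0 : Fin N → ℂ) 1 := by
        rw [mem_sphere_zero_iff_norm, norm_smul, Complex.norm_real, Real.norm_eq_abs,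
          abs_of_pos (inv_pos.2 hn), inv_mul_cancel₀ hn.ne']
      have h2 := h _ hv1
      rw [hf_smul] at h2
      have h3 : 0 < ‖v‖⁻¹ ^ 2 := by positivity
      exact nonneg_of_mul_nonneg_right h2 h3
  · have := hH.im_star_dotProduct_mulVec_self v
    simpa using this.symm

theorem dom_near {X : Type*} [TopologicalSpace X] {x0 : X}
    {K G : X → Matrix (Fin N) (Fin N) ℂ} (hK : ContinuousAt K x0) (hG : ContinuousAt G x0)
    (hKh : ∀ᶠ x in 𝓝 x0, (K x).IsHermitian) (hGh : ∀ᶠ x in 𝓝 x0, (G x).IsHermitian)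
    (hp : (K x0).PosDef) :
    ∃ B : ℝ, 0 < B ∧ ∀ᶠ x in 𝓝 x0, ((B : ℂ) • K x - G x).PosSemidef := by
  have hS : IsCompact (Metric.sphere (0 : Fin N → ℂ) 1) := isCompact_sphere _ _
  have hpos : ∀ v ∈ Metric.sphere (0 : Fin N → ℂ) 1, 0 < hf (K x0) v := by
    intro v hv
    have hv0 : v ≠ 0 := by
      rintro rfl
      simp at hv
    exact hp.re_dotProduct_pos hv0
  have hc1 : ∀ H : Matrix (Fin N) (Fin N) ℂ, Continuous fun v => hf H v := fun H =>
    continuous_hf.comp (continuous_const.prodMk continuous_id)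
  obtain ⟨C, hC⟩ := hS.exists_bound_of_continuousOn
    (f := fun v => hf (G x0) v / hf (K x0) v)
    ((hc1 _).continuousOn.div (hc1 _).continuousOn fun v hv => (hpos v hv).ne')
  have hB : 0 < |C| + 1 := by positivity
  refine ⟨|C| + 1, hB, ?_⟩
  have h1 : ∀ᶠ x in 𝓝 x0, ∀ v ∈ Metric.sphere (0 : Fin N → ℂ) 1,
      0 < (|C| + 1) * hf (K x) v - hf (G x) v := by
    refine hS.eventually_forall_of_forall_eventually
      (P := fun x v => 0 < (|C| + 1) * hf (K x) v - hf (G x) v) fun v hv => ?_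
    have hK' : ContinuousAt (fun p : X × (Fin N → ℂ) => hf (K p.1) p.2) (x0, v) :=
      ContinuousAt.comp (f := fun p : X × (Fin N → ℂ) => (K p.1, p.2))
        (g := fun q : Matrix (Fin N) (Fin N) ℂ × (Fin N → ℂ) => hf q.1 q.2)
        continuous_hf.continuousAt
        ((hK.comp (x := (x0, v)) continuousAt_fst).prodMk continuousAt_snd)
    have hG' : ContinuousAt (fun p : X × (Fin N → ℂ) => hf (G p.1) p.2) (x0, v) :=
      ContinuousAt.comp (f := fun p : X × (Fin N → ℂ) => (G p.1, p.2))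
        (g := fun q : Matrix (Fin N) (Fin N) ℂ × (Fin N → ℂ) => hf q.1 q.2)
        continuous_hf.continuousAt
        ((hG.comp (x := (x0, v)) continuousAt_fst).prodMk continuousAt_snd)
    have h2 := (hK'.const_mul (|C| + 1)).sub hG'
    have h3 := hpos v hv
    have h4 := hC v hv
    rw [Real.norm_eq_abs, abs_div, abs_of_pos h3, div_le_iff₀ h3] at h4
    have h5 := le_abs_self (hf (G x0) v)
    have h6 := mul_le_mul_of_nonneg_right (le_abs_self C) h3.le
    have h7 : 0 < (|C| + 1) * hf (K x0) v - hf (G x0) v := by linarith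
    exact h2.eventually (lt_mem_nhds h7)
  filter_upwards [h1, hKh, hGh] with x hx hxK hxG
  have hH : ((((|C| + 1 : ℝ) : ℂ)) • K x - G x).IsHermitian := by
    refine Matrix.IsHermitian.sub ?_ hxG
    unfold Matrix.IsHermitian at hxK ⊢
    rw [Matrix.conjTranspose_smul, hxK]
    congr 1
    exact Complex.conj_ofReal _
  refine psd_of_hf hH fun v hv => ?_
  rw [hf_sub]
  exact (hx v hv).le

end Mat

section Dom

variable {N : ℕ} {M : Type} [TopologicalSpace M] {A : Atl N M}

theorem contAt_of_chart {f : M → ℂ} {i : A.ι} {x : M} (hx : x ∈ (A.e i).source)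
    {W : Set (Cn N)} (hW : IsOpen W) (hf : ContinuousOn (fun z => f ((A.e i).symm z)) W)
    (hxW : A.e i x ∈ W) : ContinuousAt f x := by
  have h1 : ContinuousAt (fun z => f ((A.e i).symm z)) (A.e i x) :=
    hf.continuousAt (hW.mem_nhds hxW)
  have h2 : ContinuousAt (fun y => f ((A.e i).symm (A.e i y))) x :=
    h1.comp (f := A.e i) (x := x) ((A.e i).continuousAt hx)
  refine h2.congr ?_
  filter_upwards [(A.e i).open_source.mem_nhds hx] with y hy
  rw [(A.e i).left_inv hy]

theorem contAt_kah (K : Kah A) {i : A.ι} {x : M} (hx : x ∈ (A.e i).source) :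
    ContinuousAt (fun y => K.g i y) x := by
  refine continuousAt_pi.2 fun a => continuousAt_pi.2 fun b => ?_
  exact contAt_of_chart (f := fun y => K.g i y a b) hx (A.e i).open_target
    (K.sm i a b).continuousOn ((A.e i).map_source hx)

variable {U : Set M} {w : M → ℂ}

/-- `|w|²` for holomorphic `w` -/
theorem contDiffOn_nsq (hU : IsOpen U) {i : A.ι} (hw : HolAt A i U w) :
    ContDiffOn ℝ ∞ (fun z => ‖w ((A.e i).symm z)‖ ^ 2)
      ((A.e i).target ∩ (A.e i).symm ⁻¹' U) := by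
  have ho : IsOpen ((A.e i).target ∩ (A.e i).symm ⁻¹' U) :=
    (A.e i).isOpen_inter_preimage_symm hU
  intro z hz
  exact ((Crest.Agent.R273.FS_333.contDiffAt_of_hol ho hw hz).norm_sq ℝ).contDiffWithinAt

theorem contAt_hsf (hU : IsOpen U) {f : M → ℝ} {i : A.ι}
    (hf : ContDiffOn ℝ ∞ (fun z => f ((A.e i).symm z)) ((A.e i).target ∩ (A.e i).symm ⁻¹' U))
    {x : M} (hx : x ∈ (A.e i).source) (hxU : x ∈ U) : ContinuousAt (fun y => hsf A f i y) x := by
  have ho : IsOpen ((A.e i).target ∩ (A.e i).symm ⁻¹' U) :=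
    (A.e i).isOpen_inter_preimage_symm hU
  have hxW : A.e i x ∈ (A.e i).target ∩ (A.e i).symm ⁻¹' U :=
    ⟨(A.e i).map_source hx, by rw [mem_preimage, (A.e i).left_inv hx]; exact hxU⟩
  refine continuousAt_pi.2 fun a => continuousAt_pi.2 fun b => ?_
  refine contAt_of_chart (f := fun y => hsf A f i y a b) hx ho ?_ hxW
  refine (contDiffOn_hess ho hf a b).continuousOn.congr fun z hz => ?_
  simp only [hsf_read f i hz.1]

theorem hsf_herm (hU : IsOpen U) {f : M → ℝ} {i : A.ι}
    (hf : ContDiffOn ℝ ∞ (fun z => f ((A.e i).symm z)) ((A.e i).target ∩ (A.e i).symm ⁻¹' U))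
    {x : M} (hx : x ∈ (A.e i).source) (hxU : x ∈ U) : (hsf A f i x).IsHermitian := by
  have ho : IsOpen ((A.e i).target ∩ (A.e i).symm ⁻¹' U) :=
    (A.e i).isOpen_inter_preimage_symm hU
  have hxW : A.e i x ∈ (A.e i).target ∩ (A.e i).symm ⁻¹' U :=
    ⟨(A.e i).map_source hx, by rw [mem_preimage, (A.e i).left_inv hx]; exact hxU⟩
  exact hess_herm (hf.contDiffAt (ho.mem_nhds hxW))

/-- transformation law for a function which is smooth near `x` -/
theorem hsf_tr_at (hU : IsOpen U) {f : M → ℝ}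
    (hf : ∀ i, ContDiffOn ℝ ∞ (fun z => f ((A.e i).symm z))
      ((A.e i).target ∩ (A.e i).symm ⁻¹' U)) {i j : A.ι} {x : M}
    (hx : x ∈ (A.e i).source ∩ (A.e j).source) (hxU : x ∈ U) :
    hsf A f i x = (Jm A i j x)ᵀ * hsf A f j x * (Jm A i j x).map conj := by
  have ho : IsOpen (A.ov i j) := isOpen_ov i j
  have hm : A.e i x ∈ A.ov i j := mem_ov hx
  have hc : ∀ i, x ∈ (A.e i).source → ContDiffAt ℝ ∞ (fun z => f ((A.e i).symm z)) (A.e i x) :=
    fun i hxi => (hf i).contDiffAt (((A.e i).isOpen_inter_preimage_symm hU).mem_nhds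
      ⟨(A.e i).map_source hxi, by rw [mem_preimage, (A.e i).left_inv hxi]; exact hxU⟩)
  refine hess_tr (f := fun _ => (1 : ℂ)) hx (hc i hx.1) (hc j hx.2)
    (Eventually.of_forall fun w => differentiableAt_const _) one_ne_zero ?_
  filter_upwards [ho.mem_nhds hm] with w hw
  rw [(A.e j).left_inv hw.2]
  simp

/-- `B K ≥ ∂∂̄ f` on compact sets -/
theorem exists_bound (K : Kah A) (hU : IsOpen U) {f : M → ℝ}
    (hf : ∀ i, ContDiffOn ℝ ∞ (fun z => f ((A.e i).symm z))
      ((A.e i).target ∩ (A.e i).symm ⁻¹' U)) {C : Set M} (hC : IsCompact C) (hCU : C ⊆ U) :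
    ∃ B : ℝ, 0 < B ∧ ∀ i, ∀ x ∈ (A.e i).source, x ∈ C →
      ((B : ℂ) • K.g i x - hsf A f i x).PosSemidef := by
  -- chart independence
  have hind : ∀ (B : ℝ) (i j : A.ι) (x : M), x ∈ (A.e i).source ∩ (A.e j).source → x ∈ U →
      ((B : ℂ) • K.g j x - hsf A f j x).PosSemidef →
      ((B : ℂ) • K.g i x - hsf A f i x).PosSemidef := by
    intro B i j x hx hxU h
    have h1 := psd_congr (J := Jm A i j x) h
    have h2 : (Jm A i j x)ᵀ * ((B : ℂ) • K.g j x - hsf A f j x) * (Jm A i j x).map conj =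
        (B : ℂ) • K.g i x - hsf A f i x := by
      rw [Matrix.mul_sub, Matrix.sub_mul, Matrix.mul_smul, Matrix.smul_mul, ← K.tr i j x hx,
        ← hsf_tr_at hU hf hx hxU]
    rwa [h2] at h1
  have hmono : ∀ (B B' : ℝ), B ≤ B' → ∀ i, ∀ x ∈ (A.e i).source,
      ((B : ℂ) • K.g i x - hsf A f i x).PosSemidef →
      ((B' : ℂ) • K.g i x - hsf A f i x).PosSemidef := by
    intro B B' hBB i x hx h
    have h1 := h.add ((K.pos i x hx).posSemidef.smul (sub_nonneg.2 hBB) : 
      ((B' - B) • K.g i x).PosSemidef)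
    have h2 : ((B : ℂ) • K.g i x - hsf A f i x) + (B' - B) • K.g i x =
        (B' : ℂ) • K.g i x - hsf A f i x := by
      ext a b
      simp only [Matrix.add_apply, Matrix.sub_apply, Matrix.smul_apply, smul_eq_mul,
        Complex.real_smul]
      push_cast
      ring
    rwa [h2] at h1
  have key : ∀ x ∈ C, ∃ B : ℝ, 0 < B ∧ ∀ᶠ y in 𝓝 x, ∀ i, y ∈ (A.e i).source →
      ((B : ℂ) • K.g i y - hsf A f i y).PosSemidef := by
    intro x hxC
    obtain ⟨j, hj⟩ := A.cover x
    obtain ⟨B, hB, hBx⟩ := dom_near (K := fun y => K.g j y) (G := fun y => hsf A f j y)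
      (contAt_kah K hj) (contAt_hsf hU (hf j) hj (hCU hxC))
      (by
        filter_upwards [(A.e j).open_source.mem_nhds hj] with y hy
        exact (K.pos j y hy).1)
      (by
        filter_upwards [(A.e j).open_source.mem_nhds hj, hU.mem_nhds (hCU hxC)] with y hy hyU
        exact hsf_herm hU (hf j) hy hyU)
      (K.pos j x hj)
    refine ⟨B, hB, ?_⟩
    filter_upwards [hBx, (A.e j).open_source.mem_nhds hj, hU.mem_nhds (hCU hxC)] with y h1 h2 h3
    intro i hi
    exact hind B i j y ⟨hi, h2⟩ h3 h1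
  choose! B hB hBx using key
  obtain ⟨t, htC, ht⟩ := hC.elim_nhds_subcover
    (fun x => {y | ∀ i, y ∈ (A.e i).source → ((B x : ℂ) • K.g i y - hsf A f i y).PosSemidef})
    (fun x hx => hBx x hx)
  refine ⟨1 + ∑ x ∈ t, B x, ?_, fun i x hx hxC => ?_⟩
  · have : 0 ≤ ∑ x ∈ t, B x := Finset.sum_nonneg fun x hx => (hB x (htC x hx)).le
    linarith
  · obtain ⟨y, hyt, hy⟩ := mem_iUnion₂.1 (ht hxC)
    refine hmono (B y) _ ?_ i x hx (hy i hx)
    have := Finset.single_le_sum (f := B) (fun x hx => (hB x (htC x hx)).le) hyt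
    linarith

end Dom

end

end Crest.Agent.R281.D6_986
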