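import Crest.Agent.R281.D6c_986

/-!
# R281 (S0424), S6-ASM (helper986), part d: `FrameAt + UOut ⟹ SMet, Tube`

* `UOut.smet`, `FrameAt.tube`, `semiAmple_of_nodes`, `contOut_of_PD`
-/

set_option autoImplicit false
set_option linter.unusedSectionVars false

open Set Filter Topology Complex
open scoped ContDiff Matrix ComplexConjugate Manifold ComplexOrder

namespace Crest.Agent.R281.D6_986

open Crest.Agent.R275.Geo Crest.Agent.R275.Core144 Crest.Agent.R275.GC293
open Crest.Agent.R273.Defs_333 Crest.Agent.R273.Kah_333 Crest.Agent.R273.HM_333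
open Crest.Agent.R273.Hess_333 Crest.Agent.R273.HessB_333
open Crest.Agent.R281.Defs_273 Crest.Agent.R281.LEnd_10
open Crest.Agent.R281.S6D_664 (LFib)

noncomputable section

variable {n : ℕ} {M : Type} [TopologicalSpace M] {A : Atl (2 * n) M}
variable {σ : HSymp A} {L : LB A}

/-- the bounded metric from `UOut` -/
def UOut.smet {K : Kah A} {o : OmOut σ L} {h : HM L} (uo : UOut K o h) : SMet L where
  h := h
  u := uo.u
  B := uo.B
  bdd := uo.bdd
  S := o.F.Omᶜ
  cl := o.F.op.isClosed_compl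
  sth := o.F.sth
  sm := fun i z hz hzS => uo.sm i z hz (by simpa using hzS)
  pos := fun i x hx hxS => uo.pos i x hx (by simpa using hxS)

theorem hess_zero' {N : ℕ} (z : Cn N) : hess (fun _ : Cn N => (0 : ℝ)) z = 0 := by
  have h := hess_sub (u := fun _ : Cn N => (0 : ℝ)) (v := fun _ : Cn N => (0 : ℝ)) (z := z)
    contDiffAt_const contDiffAt_const
  rw [sub_self] at h
  simpa using h

theorem hess_fsum {N : ℕ} {κ : Type*} (s : Finset κ) {u : κ → Cn N → ℝ} {z : Cn N}
    (hu : ∀ k ∈ s, ContDiffAt ℝ ∞ (u k) z) :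
    hess (fun w => ∑ k ∈ s, u k w) z = ∑ k ∈ s, hess (u k) z := by
  classical
  induction s using Finset.induction_on with
  | empty => simpa using hess_zero' z
  | insert a s ha ih =>
    simp only [Finset.sum_insert ha]
    rw [hess_add (hu a (Finset.mem_insert_self _ _))
      (ContDiffAt.sum fun k hk => hu k (Finset.mem_insert_of_mem hk)),
      ih fun k hk => hu k (Finset.mem_insert_of_mem hk)]

theorem hsf_sqw {N : ℕ} {A : Atl N M} {U : Set M} (hU : IsOpen U) {r : ℕ} {w : M → Fin r → ℂ}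
    (hol : ∀ i k, HolAt A i U (fun x => w x k)) {i : A.ι} {x : M} (hx : x ∈ (A.e i).source)
    (hxU : x ∈ U) : hsf A (sqw w) i x = ∑ k, hsf A (fun y => ‖w y k‖ ^ 2) i x := by
  have ho : IsOpen ((A.e i).target ∩ (A.e i).symm ⁻¹' U) :=
    (A.e i).isOpen_inter_preimage_symm hU
  exact hess_fsum Finset.univ fun k _ => (contDiffOn_nsq hU (hol i k)).contDiffAt
    (ho.mem_nhds ⟨(A.e i).map_source hx, by rw [mem_preimage, (A.e i).left_inv hx]; exact hxU⟩)

theorem continuousOn_of_hol {N : ℕ} {A : Atl N M} {U : Set M} (hU : IsOpen U) {w : M → ℂ}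
    (hol : ∀ i, HolAt A i U w) : ContinuousOn w U := by
  intro x hxU
  obtain ⟨i, hi⟩ := A.cover x
  have ho : IsOpen ((A.e i).target ∩ (A.e i).symm ⁻¹' U) :=
    (A.e i).isOpen_inter_preimage_symm hU
  exact (contAt_of_chart hi ho (hol i).continuousOn ⟨(A.e i).map_source hi, by
    rw [mem_preimage, (A.e i).left_inv hi]; exact hxU⟩).continuousWithinAt

/-- the saturated open sets of a partition -/
theorem ContOut.isOpen_sat {F : LFib A σ} (c : ContOut F) {V : Set M} (hV : IsOpen V) :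
    IsOpen {x | c.Z x ⊆ V} := by
  rw [isOpen_iff_mem_nhds]
  intro x hx
  exact c.usc x V hV hx

theorem FrameAt.tube [CompactSpace M] [T2Space M] {K : Kah A} {o : OmOut σ L} {h : HM L}
    (uo : UOut K o h) {c : ContOut o.F} {x0 : M} (f : FrameAt o.F c L x0) :
    Nonempty (Tube uo.smet x0) := by
  obtain ⟨V1, hV1, hZV1, hV1U⟩ :=
    normal_exists_closure_subset (c.cpt x0).isClosed f.op f.sub
  set U1 : Set M := {x | c.Z x ⊆ V1} with hU1
  have hU1o : IsOpen U1 := c.isOpen_sat hV1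
  have hU1V : U1 ⊆ V1 := fun x hx => hx (c.mem x)
  have hU1U : U1 ⊆ f.U := hU1V.trans (subset_closure.trans hV1U)
  have hZU1 : c.Z x0 ⊆ U1 := fun y hy => by
    show c.Z y ⊆ V1
    rw [c.part x0 y hy]; exact hZV1
  have hC : IsCompact (closure V1) := isClosed_closure.isCompact
  have hbd : ∀ k : Fin f.r, ∃ B : ℝ, 0 < B ∧ ∀ i, ∀ x ∈ (A.e i).source, x ∈ closure V1 →
      ((B : ℂ) • K.g i x - hsf A (fun y => ‖f.w y k‖ ^ 2) i x).PosSemidef := fun k =>
    exists_bound K f.op (fun i => contDiffOn_nsq f.op (f.hol i k)) hC hV1U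
  choose B hB hBx using hbd
  set B1 : ℝ := 1 + ∑ k, B k with hB1
  have hB1pos : 0 < B1 := by
    have : 0 ≤ ∑ k, B k := Finset.sum_nonneg fun k _ => (hB k).le
    linarith
  have hBk : ∀ k, B k ≤ B1 := fun k => by
    have := Finset.single_le_sum (f := B) (fun k _ => (hB k).le) (Finset.mem_univ k)
    linarith
  have hdom : ∀ k i, ∀ x ∈ (A.e i).source, x ∈ U1 → x ∈ o.F.Om →
      ((B1 : ℂ) • K.g i x - hsf A (fun y => ‖f.w y k‖ ^ 2) i x).PosSemidef := by
    intro k i x hx hxU _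
    have h1 := (hBx k i x hx (subset_closure (hU1V hxU))).add
      ((K.pos i x hx).posSemidef.smul (sub_nonneg.2 (hBk k)) :
        ((B1 - B k) • K.g i x).PosSemidef)
    have h2 : ((B k : ℂ) • K.g i x - hsf A (fun y => ‖f.w y k‖ ^ 2) i x) +
        (B1 - B k) • K.g i x = (B1 : ℂ) • K.g i x - hsf A (fun y => ‖f.w y k‖ ^ 2) i x := by
      ext a b
      simp only [Matrix.add_apply, Matrix.sub_apply, Matrix.smul_apply, smul_eq_mul,
        Complex.real_smul]
      push_cast
      ring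
    rwa [h2] at h1
  have hbas : ∀ k, BasicOn o.F U1 (fun y => f.w y k) := fun k =>
    { op := hU1o
      sat := fun x hx hxO y hy => by
        rw [← c.eq x hxO] at hy
        show c.Z y ⊆ V1
        rw [c.part x y hy]; exact hx
      hol := fun i => (f.hol i k).mono hU1U
      const := fun x hx hxO y hy => by
        rw [← c.eq x hxO] at hy
        rw [f.const x (hU1U hx) y hy] }
  have hstr := fun k => uo.strict U1 (fun y => f.w y k) (hbas k) B1 hB1pos (hdom k)
  obtain ⟨V, hV, hZV, hVU, ρ, hρ, hcpt⟩ := exists_shrink (w := f.w) hU1o (c.cpt x0) hZU1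
    (continuousOn_pi.2 fun k => (continuousOn_of_hol f.op fun i => f.hol i k).mono hU1U)
    (fun x hx hxZ h0 => hxZ (f.sep x (hU1U hx) h0))
  have hVf : V ⊆ f.U := hVU.trans hU1U
  have hr : (0 : ℝ) < (f.r : ℝ) + 1 := by positivity
  refine ⟨⟨f.k0, f.k0_pos, V, hV, hZV (c.mem x0), f.r, f.w, fun i k => (f.hol i k).mono hVf,
    fun k => by rw [f.w_zero]; rfl, ρ, hρ, hcpt, f.τ, f.isHS.mono hVf,
    fun i x hx hxV => f.ne i x hx (hVf hxV), uo.c / B1 / (f.r + 1), by
      have := uo.c_pos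
      positivity, fun i x hx hxV hxS => ?_⟩⟩
  have hxO : x ∈ o.F.Om := by
    have : x ∉ o.F.Omᶜ := hxS
    simpa using this
  have h1 : uo.smet.h = h := rfl
  have h2 : uo.smet.u = uo.u := rfl
  rw [h1, h2, hsf_sqw hV (fun i k => (f.hol i k).mono hVf) hx hxV]
  have h3 : (((f.r : ℝ) + 1)⁻¹ • ((cur h i x + hsf A uo.u i x) +
      ∑ k, (cur h i x + hsf A uo.u i x -
        ((uo.c / B1 : ℝ) : ℂ) • hsf A (fun y => ‖f.w y k‖ ^ 2) i x))).PosSemidef := by
    refine Matrix.PosSemidef.smul ?_ (inv_nonneg.2 hr.le)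
    refine (uo.pos i x hx hxO).add ?_
    exact Matrix.posSemidef_sum _ fun k _ => hstr k i x hx (hVU hxV) hxO
  have h4 : (((f.r : ℝ) + 1)⁻¹ • ((cur h i x + hsf A uo.u i x) +
      ∑ k, (cur h i x + hsf A uo.u i x -
        ((uo.c / B1 : ℝ) : ℂ) • hsf A (fun y => ‖f.w y k‖ ^ 2) i x))) =
      cur h i x + hsf A uo.u i x - ((uo.c / B1 / (f.r + 1) : ℝ) : ℂ) •
        ∑ k, hsf A (fun y => ‖f.w y k‖ ^ 2) i x := by
    rw [Finset.sum_sub_distrib, Finset.sum_const, Finset.card_univ, Fintype.card_fin,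
      ← Finset.smul_sum]
    generalize (∑ k, hsf A (fun y => ‖f.w y k‖ ^ 2) i x) = S
    generalize (cur h i x + hsf A uo.u i x) = T
    have hr' : ((f.r : ℂ) + 1) ≠ 0 := by exact_mod_cast hr.ne'
    rw [← Nat.cast_smul_eq_nsmul ℂ f.r T]
    ext a b
    simp only [Matrix.add_apply, Matrix.sub_apply, Matrix.smul_apply, smul_eq_mul,
      Complex.real_smul]
    push_cast
    field_simp
    ring
  rwa [h4] at h3

/-- the skeleton: from the nodes to `SemiAmple` -/
theorem semiAmple_of_nodes [CompactSpace M] [T2Space M] [Finite A.ι] (rich : RichStmt)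
    (P : Part A) (K : Kah A) (hend : EndStmt K L) {h : HM L} (o : OmOut σ L) (uo : UOut K o h)
    (c : ContOut o.F) (hf : ∀ x0, Nonempty (FrameAt o.F c L x0)) :
    SemiAmple L := by
  refine semiAmple_of_tubes rich P K hend uo.smet fun x0 => ?_
  obtain ⟨f⟩ := hf x0
  exact f.tube uo

end

end Crest.Agent.R281.D6_986
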