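import Crest.Agent.R281.D6d_986

/-!
# R281 (S0424), S6-ASM (helper986), part e: `PD ⟹ ContOut`, independence of the Kaehler metric

* `contOut_of_PD` : 166's partition data ⟹ the node `ContOut`;
* `exists_kah_le` : `K ≤ C K'`;
* `nefW_change`   : `NefW K L → NefW K' L`.
-/

set_option autoImplicit false
set_option linter.unusedSectionVars false

open Set Filter Topology Complex
open scoped ContDiff Matrix ComplexConjugate Manifold ComplexOrder

namespace Crest.Agent.R281.D6_986

open Crest.Agent.R275.Geo Crest.Agent.R275.Core144 Crest.Agent.R275.GC293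
open Crest.Agent.R273.Defs_333 Crest.Agent.R273.Kah_333 Crest.Agent.R273.HM_333
open Crest.Agent.R273.Hess_333 Crest.Agent.R273.HessB_333
open Crest.Agent.R281.Defs_273 Crest.Agent.R281.LEnd_10
open Crest.Agent.R281.S6D_664 (LFib)
open Crest.Agent.R281

noncomputable section

section cont

variable {n : ℕ} {M : Type} [MetricSpace M] [CompactSpace M] {A : Atl (2 * n) M}
variable {σ : HSymp A}

/-- the node `ContOut` from 166's partition data -/
def contOut_of_PD (F : LFib A σ) (P : Con_166.PD M) (hO : P.Om = F.Om)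
    (hT : ∀ x ∈ F.Om, P.T x = F.Tf x) : ContOut F where
  Z := P.Z
  eq := fun x hx => by rw [P.Z_eq_T (hO ▸ hx), hT x hx]
  mem := P.mem_Z
  part := fun _ _ hy => P.Z_eq_of_mem hy
  cpt := P.isCompact_Z
  conn := P.isConnected_Z
  usc := fun _ _ hW h => P.eventually_Z_subset hW h
  lsc := fun _ _ hy _ hW h => P.eventually_Z_inter hW hy h

end cont

section kah

variable {N : ℕ} {M : Type} [TopologicalSpace M] {A : Atl N M}

theorem exists_kah_le [CompactSpace M] (K K' : Kah A) : ∃ C : ℝ, 0 < C ∧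
    ∀ i, ∀ x ∈ (A.e i).source, ((C : ℂ) • K'.g i x - K.g i x).PosSemidef := by
  have hind : ∀ (B : ℝ) (i j : A.ι) (x : M), x ∈ (A.e i).source ∩ (A.e j).source →
      ((B : ℂ) • K'.g j x - K.g j x).PosSemidef →
      ((B : ℂ) • K'.g i x - K.g i x).PosSemidef := by
    intro B i j x hx h
    have h1 := psd_congr (J := Jm A i j x) h
    have h2 : (Jm A i j x)ᵀ * ((B : ℂ) • K'.g j x - K.g j x) * (Jm A i j x).map conj =
        (B : ℂ) • K'.g i x - K.g i x := by
      rw [Matrix.mul_sub, Matrix.sub_mul, Matrix.mul_smul, Matrix.smul_mul, ← K'.tr i j x hx,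
        ← K.tr i j x hx]
    rwa [h2] at h1
  have hmono : ∀ (B B' : ℝ), B ≤ B' → ∀ i, ∀ x ∈ (A.e i).source,
      ((B : ℂ) • K'.g i x - K.g i x).PosSemidef →
      ((B' : ℂ) • K'.g i x - K.g i x).PosSemidef := by
    intro B B' hBB i x hx h
    have h1 := h.add ((K'.pos i x hx).posSemidef.smul (sub_nonneg.2 hBB) :
      ((B' - B) • K'.g i x).PosSemidef)
    have h2 : ((B : ℂ) • K'.g i x - K.g i x) + (B' - B) • K'.g i x =
        (B' : ℂ) • K'.g i x - K.g i x := by
      ext a b
      simp only [Matrix.add_apply, Matrix.sub_apply, Matrix.smul_apply, smul_eq_mul,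
        Complex.real_smul]
      push_cast
      ring
    rwa [h2] at h1
  have key : ∀ x : M, ∃ B : ℝ, 0 < B ∧ ∀ᶠ y in 𝓝 x, ∀ i, y ∈ (A.e i).source →
      ((B : ℂ) • K'.g i y - K.g i y).PosSemidef := by
    intro x
    obtain ⟨j, hj⟩ := A.cover x
    obtain ⟨B, hB, hBx⟩ := dom_near (K := fun y => K'.g j y) (G := fun y => K.g j y)
      (contAt_kah K' hj) (contAt_kah K hj)
      (by
        filter_upwards [(A.e j).open_source.mem_nhds hj] with y hy
        exact (K'.pos j y hy).1)
      (by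
        filter_upwards [(A.e j).open_source.mem_nhds hj] with y hy
        exact (K.pos j y hy).1)
      (K'.pos j x hj)
    refine ⟨B, hB, ?_⟩
    filter_upwards [hBx, (A.e j).open_source.mem_nhds hj] with y h1 h2
    intro i hi
    exact hind B i j y ⟨hi, h2⟩ h1
  choose B hB hBx using key
  obtain ⟨t, ht⟩ := isCompact_univ.elim_nhds_subcover
    (fun x => {y | ∀ i, y ∈ (A.e i).source → ((B x : ℂ) • K'.g i y - K.g i y).PosSemidef})
    (fun x _ => hBx x)
  refine ⟨1 + ∑ x ∈ t, B x, ?_, fun i x hx => ?_⟩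
  · have : 0 ≤ ∑ x ∈ t, B x := Finset.sum_nonneg fun x _ => (hB x).le
    linarith
  · obtain ⟨y, hyt, hy⟩ := mem_iUnion₂.1 (ht.2 (mem_univ x))
    refine hmono (B y) _ ?_ i x hx (hy i hx)
    have := Finset.single_le_sum (f := B) (fun x _ => (hB x).le) hyt
    linarith

theorem nefW_change [CompactSpace M] {K K' : Kah A} {L : LB A} (h : NefW K L) : NefW K' L := by
  obtain ⟨C, hC, hK⟩ := exists_kah_le K K'
  intro ε hε
  obtain ⟨h0, hh⟩ := h (ε / C) (by positivity)
  refine ⟨h0, fun i x hx => ?_⟩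
  have h1 := (hh i x hx).add (((hK i x hx).smul (by positivity : (0 : ℝ) ≤ ε / C) :
    ((ε / C : ℝ) • ((C : ℂ) • K'.g i x - K.g i x)).PosSemidef))
  have h2 : cur h0 i x + ((ε / C : ℝ) : ℂ) • K.g i x +
      (ε / C : ℝ) • ((C : ℂ) • K'.g i x - K.g i x) = cur h0 i x + (ε : ℂ) • K'.g i x := by
    have hC' : (C : ℂ) ≠ 0 := by exact_mod_cast hC.ne'
    ext a b
    simp only [Matrix.add_apply, Matrix.sub_apply, Matrix.smul_apply, smul_eq_mul,
      Complex.real_smul]
    push_cast
    field_simp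
    ring
  rwa [h2] at h1

end kah

end

end Crest.Agent.R281.D6_986
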