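import Crest.Agent.R281.S6V5_664

/-!
# R281 (S0424), S6-V part 6 (helper664): the Lagrangian property and disc families

* `lag_of`      : a family inside an `LFib` has Lagrangian fibres;
* `ball_diff`   : a disc minus a countable set is connected;
* `LineD`       : a complex line in a chart, `Kr`: the line is tangent to the leaf;
* `LineD.bad`, `bad_closed`, `bad_countable`;
* `discBM`, `exists_disc` : the disc family over the disc minus the closed countable set `bad`.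
-/

set_option autoImplicit false
set_option linter.unusedSectionVars false

open Set Filter Topology Complex Function Metric
open scoped ContDiff Matrix ComplexConjugate ComplexOrder

namespace Crest.Agent.R281.S6V_664

open Crest.Agent.R275.Geo Crest.Agent.R275.Core144 Crest.Agent.R275.GC293
open Crest.Agent.R275.Prod363 Crest.Agent.R273.Map_835 Crest.Agent.R281.S6D_664
open Crest.Agent.R281.Defs_273

noncomputable section

section Lag

variable {n m : ℕ} {M : Type} [TopologicalSpace M] {A : Atl (2 * n) M} {σ : HSymp A}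

/-- **families inside a Lagrangian fibration have Lagrangian fibres** -/
theorem lag_of (F0 : LFib A σ) {G : BM A F0.Tf n m} (F : Fam A n m G.U)
    (h : ∀ v, F.i v ∈ F0.Tf (G.Γ (F.y v))) (hOm : ∀ u ∈ G.U, G.Γ u ∈ F0.Om) :
    F.Lag σ.toH2 := by
  intro j i v hj hi
  obtain ⟨τ, hτ, -, hlag⟩ := F0.tube (G.Γ (F.y v)) (hOm _ (F.mem v))
  have hW : F.i v ∈ τ.W := by
    have h2 := h v
    rw [τ.fib _ hτ] at h2
    exact h2.1
  ext a b
  have h3 := ker_of_fam F h τ hj hi hτ a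
  have h4 := ker_of_fam F h τ hj hi hτ b
  have h5 := hlag i (F.i v) ⟨hi, hW⟩ _ _ h3 h4
  have h6 : (fb ((Jp F.B A F.i j i v)ᵀ * σ.s i (F.i v) * Jp F.B A F.i j i v)) a b =
      ∑ p, ∑ q, (fderiv ℂ (rd F.B A F.i j i) (F.B.e j v)
        (EuclideanSpace.single (Fin.castAdd m a) 1)) p * σ.s i (F.i v) p q *
        (fderiv ℂ (rd F.B A F.i j i) (F.B.e j v)
        (EuclideanSpace.single (Fin.castAdd m b) 1)) q := by
    simp only [fb, Matrix.submatrix_apply, Matrix.mul_apply, Matrix.transpose_apply, Jp,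
      Matrix.of_apply, Finset.sum_mul]
    rw [Finset.sum_comm]
  rw [h6, h5]
  rfl

end Lag

/-- a disc minus a countable set is connected -/
theorem ball_diff {R : ℝ} (hR : 0 < R) {E : Set ℂ} (hE : E.Countable) :
    IsConnected (ball (0 : ℂ) R \ E) := by
  have h0 : 1 < Module.rank ℝ ℂ := by rw [rank_real_complex]; exact Nat.one_lt_ofNat
  let e : OpenPartialHomeomorph ℂ ℂ := OpenPartialHomeomorph.univBall (0 : ℂ) R
  have hs : e.source = univ := OpenPartialHomeomorph.univBall_source _ _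
  have ht : e.target = ball 0 R := OpenPartialHomeomorph.univBall_target _ hR
  have hinj : Injective e := by
    intro x y hxy
    exact e.injOn (by rw [hs]; trivial) (by rw [hs]; trivial) hxy
  have hcont : Continuous e := by
    have := e.continuousOn
    rw [hs] at this
    exact continuousOn_univ.1 this
  have h1 : (e ⁻¹' E).Countable := hE.preimage hinj
  have h2 := (h1.isConnected_compl_of_one_lt_rank h0).image e hcont.continuousOn
  have h3 : e '' (e ⁻¹' E)ᶜ = ball 0 R \ E := by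
    ext z
    constructor
    · rintro ⟨w, hw, rfl⟩
      refine ⟨?_, hw⟩
      rw [← ht]
      exact e.map_source (by rw [hs]; trivial)
    · rintro ⟨hz, hzE⟩
      rw [← ht] at hz
      refine ⟨e.symm z, ?_, e.right_inv hz⟩
      show ¬ (e (e.symm z) ∈ E)
      rw [e.right_inv hz]
      exact hzE
  rw [← h3]
  exact h2

variable {N d k : ℕ} {M : Type} [TopologicalSpace M]

/-- a complex line in a chart -/
structure LineD (A : Atl N M) (Tf : M → Set M) (k d : ℕ) where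
  hN : N = d + k
  Om : Set M
  oOm : IsOpen Om
  tb : ∀ x ∈ Om, ∃ τ : Tube A k Tf, x ∈ τ.W
  i : A.ι
  z : Cn N
  v : Cn N
  R : ℝ
  R_pos : 0 < R
  mem : ∀ c : ℂ, ‖c‖ ≤ R → z + c • v ∈ (A.e i).target

variable {A : Atl N M} {Tf : M → Set M}

namespace LineD

variable (D : LineD A Tf k d)

/-- the point of the line -/
def pt (c : ℂ) : M := (A.e D.i).symm (D.z + c • D.v)

theorem pt_mem {c : ℂ} (hc : ‖c‖ ≤ D.R) : D.pt c ∈ (A.e D.i).source :=
  (A.e D.i).map_target (D.mem c hc)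

theorem e_pt {c : ℂ} (hc : ‖c‖ ≤ D.R) : A.e D.i (D.pt c) = D.z + c • D.v :=
  (A.e D.i).right_inv (D.mem c hc)

theorem cont_pt : ContinuousOn D.pt (closedBall 0 D.R) := by
  refine (A.e D.i).continuousOn_symm.comp (by fun_prop) fun c hc => D.mem c ?_
  simpa using hc

/-- the line is tangent to the leaf at the parameter `c` -/
def Kr (c : ℂ) : Prop := ∃ τ : Tube A k Tf, D.pt c ∈ τ.W ∧
  fderiv ℂ (fun z => τ.f ((A.e D.i).symm z)) (D.z + c • D.v) D.v = 0

theorem kr_iff {c : ℂ} (hc : ‖c‖ ≤ D.R) {τ : Tube A k Tf} (hτ : D.pt c ∈ τ.W) :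
    D.Kr c ↔ fderiv ℂ (fun z => τ.f ((A.e D.i).symm z)) (D.z + c • D.v) D.v = 0 := by
  constructor
  · rintro ⟨τ', hτ', h⟩
    rw [← D.e_pt hc] at h ⊢
    exact ker_tube D.hN τ' τ (D.pt_mem hc) hτ' hτ h
  · intro h
    exact ⟨τ, hτ, h⟩

/-- the derivative along the line is holomorphic -/
theorem analyticAt_der {c : ℂ} (hc : ‖c‖ < D.R) {τ : Tube A k Tf} (hτ : D.pt c ∈ τ.W) :
    AnalyticAt ℂ (fun c : ℂ => fderiv ℂ (fun z => τ.f ((A.e D.i).symm z)) (D.z + c • D.v) D.v)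
      c := by
  have h1 : AnalyticAt ℂ (fun z => τ.f ((A.e D.i).symm z)) (D.z + c • D.v) := by
    refine Crest.Agent.R266.SCV.analyticOnNhd_of_differentiableOn
      ((A.e D.i).isOpen_inter_preimage_symm τ.oW) (τ.hol D.i) _ ⟨D.mem c hc.le, hτ⟩
  have h2 : AnalyticAt ℂ (fun c : ℂ => D.z + c • D.v) c := by fun_prop
  have h3 : AnalyticAt ℂ (fun c : ℂ => fderiv ℂ (fun z => τ.f ((A.e D.i).symm z))
      (D.z + c • D.v)) c := AnalyticAt.comp (g := fderiv ℂ (fun z => τ.f ((A.e D.i).symm z)))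
        h1.fderiv h2
  exact (ContinuousLinearMap.apply ℂ (Cn k) D.v).analyticAt _ |>.comp h3

theorem ev_tube {c : ℂ} (hc : ‖c‖ < D.R) {O : Set M} (hO : IsOpen O) (h : D.pt c ∈ O) :
    ∀ᶠ c' in 𝓝 c, ‖c'‖ < D.R ∧ D.pt c' ∈ O := by
  have h1 : ContinuousAt D.pt c := D.cont_pt.continuousAt
    (mem_of_superset (isOpen_ball.mem_nhds (by simpa using hc)) ball_subset_closedBall)
  have h2 : ∀ᶠ c' in 𝓝 c, ‖c'‖ < D.R := continuous_norm.continuousAt.eventually_lt
    continuousAt_const hc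
  exact h2.and (h1.preimage_mem_nhds (hO.mem_nhds h))

/-- dichotomy -/
theorem dich {c : ℂ} (hc : ‖c‖ < D.R) (hOm : D.pt c ∈ D.Om) :
    (∀ᶠ c' in 𝓝 c, D.Kr c') ∨ ∀ᶠ c' in 𝓝[≠] c, ¬ D.Kr c' := by
  obtain ⟨τ, hτ⟩ := D.tb _ hOm
  rcases (D.analyticAt_der hc hτ).eventually_eq_zero_or_eventually_ne_zero with h | h
  · left
    filter_upwards [h, D.ev_tube hc τ.oW hτ] with c' h1 h2
    exact ⟨τ, h2.2, h1⟩
  · right
    filter_upwards [h, (D.ev_tube hc τ.oW hτ).filter_mono nhdsWithin_le_nhds] with c' h1 h2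
    rw [D.kr_iff h2.1.le h2.2]
    exact h1

/-- the bad parameters -/
def bad : Set ℂ := {c | ‖c‖ ≤ D.R ∧ (D.pt c ∉ D.Om ∨ D.Kr c)}

theorem not_bad {c : ℂ} (hc : ‖c‖ ≤ D.R) (h : c ∉ D.bad) : D.pt c ∈ D.Om ∧ ¬ D.Kr c := by
  constructor
  · by_contra h1
    exact h ⟨hc, Or.inl h1⟩
  · intro h1
    exact h ⟨hc, Or.inr h1⟩

/-- openness of the good parameters in the open disc -/
theorem good_ev {c : ℂ} (hc : ‖c‖ < D.R) (h : c ∉ D.bad) : ∀ᶠ c' in 𝓝 c, c' ∉ D.bad := by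
  obtain ⟨h1, h2⟩ := D.not_bad hc.le h
  obtain ⟨τ, hτ⟩ := D.tb _ h1
  rw [D.kr_iff hc.le hτ] at h2
  filter_upwards [(D.analyticAt_der hc hτ).continuousAt.eventually_ne h2,
    D.ev_tube hc τ.oW hτ, D.ev_tube hc D.oOm h1] with c' g1 g2 g3
  rintro ⟨-, g4 | g4⟩
  · exact g4 g3.2
  · rw [D.kr_iff g2.1.le g2.2] at g4
    exact g1 g4

variable (hcount : {c : ℂ | ‖c‖ ≤ D.R ∧ D.pt c ∉ D.Om}.Countable) {c0 : ℂ} (hc0 : ‖c0‖ < D.R)
  (hc0b : c0 ∉ D.bad)

include hcount hc0 hc0b in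
theorem isolated {c : ℂ} (hc : ‖c‖ < D.R) (hOm : D.pt c ∈ D.Om) :
    ∀ᶠ c' in 𝓝[≠] c, ¬ D.Kr c' := by
  -- `D0` is connected
  set E : Set ℂ := {c : ℂ | ‖c‖ ≤ D.R ∧ D.pt c ∉ D.Om} with hE
  set D0 : Set ℂ := ball (0 : ℂ) D.R \ E with hD0
  have hD0' : ∀ c, c ∈ D0 ↔ ‖c‖ < D.R ∧ D.pt c ∈ D.Om := by
    intro c
    rw [hD0, Set.mem_sdiff, mem_ball_zero_iff, hE, mem_ofPred_eq]
    constructor
    · rintro ⟨h1, h2⟩
      refine ⟨h1, ?_⟩
      by_contra h3
      exact h2 ⟨h1.le, h3⟩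
    · rintro ⟨h1, h2⟩
      exact ⟨h1, fun h3 => h3.2 h2⟩
  have hconn : IsPreconnected D0 := (ball_diff D.R_pos hcount).isPreconnected
  set U1 : Set ℂ := {c | ∀ᶠ c' in 𝓝 c, D.Kr c'} with hU1
  set U2 : Set ℂ := {c | ∀ᶠ c' in 𝓝[≠] c, ¬ D.Kr c'} with hU2
  have hU1o : IsOpen U1 := isOpen_setOfPred_eventually_nhds
  -- the interior of `U2` contains `D0 ∩ U2`
  have hU2o : D0 ∩ U2 ⊆ interior U2 := by
    rintro c ⟨-, hc⟩
    rw [mem_interior_iff_mem_nhds]
    have h1 : ∀ᶠ c' in 𝓝 c, c' ≠ c → ¬ D.Kr c' := eventually_nhdsWithin_iff.1 hc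
    have h2 := eventually_eventually_nhds.2 h1
    filter_upwards [h2] with c' hc'
    by_cases h3 : c' = c
    · rw [h3]; exact hc
    · have h4 : ∀ᶠ c'' in 𝓝 c', c'' ≠ c := (isOpen_ne.mem_nhds h3)
      exact ((hc'.and h4).mono fun c'' h5 => h5.1 h5.2).filter_mono nhdsWithin_le_nhds
  by_contra hcon
  have h5 : c ∈ U1 := by
    rcases D.dich hc hOm with h | h
    · exact h
    · exact absurd h hcon
  have hc0' : c0 ∈ U2 := (D.good_ev hc0 hc0b).filter_mono nhdsWithin_le_nhds |>.and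
    (((D.ev_tube hc0 isOpen_univ trivial).filter_mono nhdsWithin_le_nhds)) |>.mono
      fun c' h6 h7 => h6.1 ⟨h6.2.1.le, Or.inr h7⟩
  have hc0D : c0 ∈ D0 := (hD0' c0).2 ⟨hc0, (D.not_bad hc0.le hc0b).1⟩
  obtain ⟨x, hx, hx1, hx2⟩ := hconn U1 (interior U2) hU1o isOpen_interior
    (fun x hx => by
      obtain ⟨g1, g2⟩ := (hD0' x).1 hx
      rcases D.dich g1 g2 with h | h
      · exact Or.inl h
      · exact Or.inr (hU2o ⟨hx, h⟩)) ⟨c, (hD0' c).2 ⟨hc, hOm⟩, h5⟩ ⟨c0, hc0D, hU2o ⟨hc0D, hc0'⟩⟩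
  have hx1' : ∀ᶠ c' in 𝓝[≠] x, D.Kr c' := hx1.filter_mono nhdsWithin_le_nhds
  have hx3 : x ∈ U2 := interior_subset hx2
  have hx2' : ∀ᶠ c' in 𝓝[≠] x, ¬ D.Kr c' := hx3
  obtain ⟨y, hy1, hy2⟩ := (hx1'.and hx2').exists
  exact hy2 hy1

include hcount hc0 hc0b in
/-- **the bad parameters in the open disc are countable** -/
theorem bad_countable : (D.bad ∩ ball 0 D.R).Countable := by
  have h1 : {c : ℂ | ‖c‖ < D.R ∧ D.pt c ∈ D.Om ∧ D.Kr c}.Countable := by
    set S := {c : ℂ | ‖c‖ < D.R ∧ D.pt c ∈ D.Om ∧ D.Kr c} with hS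
    have h2 : ∀ c ∈ S, ∃ t : Set ℂ, t ∈ 𝓝[S] c ∧ t ∩ S ⊆ {c} := by
      intro c hc
      have h3 := eventually_nhdsWithin_iff.1 (D.isolated hcount hc0 hc0b hc.1 hc.2.1)
      refine ⟨{c' | c' ≠ c → ¬ D.Kr c'}, mem_nhdsWithin_of_mem_nhds h3, ?_⟩
      rintro c' ⟨h4, h5⟩
      by_contra h6
      exact h4 h6 h5.2.2
    choose! t ht1 ht2 using h2
    obtain ⟨T, hTS, hTc, hT⟩ := TopologicalSpace.countable_cover_nhdsWithin ht1
    refine (hTc.biUnion (t := fun c _ => ({c} : Set ℂ)) fun c _ => countable_singleton c).mono ?_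
    intro c hc
    obtain ⟨c', hc', hcc⟩ := mem_iUnion₂.1 (hT hc)
    exact mem_iUnion₂.2 ⟨c', hc', ht2 c' (hTS hc') ⟨hcc, hc⟩⟩
  refine (hcount.union h1).mono ?_
  rintro c ⟨⟨h3, h4⟩, h5⟩
  rw [mem_ball_zero_iff] at h5
  by_cases h6 : D.pt c ∈ D.Om
  · rcases h4 with h7 | h7
    · exact absurd h6 h7
    · exact Or.inr ⟨h5, h6, h7⟩
  · exact Or.inl ⟨h3, h6⟩

/-! ### the disc family -/

/-- centre of the unit square -/
def kp : ℂ := (1 / 2 : ℂ) + (1 / 2 : ℂ) * Complex.I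

/-- the parameter of the line in terms of the base coordinate -/
def cp (u : Cn 1) : ℂ := ((2 * D.R : ℝ) : ℂ) * (u 0 - kp)

/-- the base of the disc family -/
def UU : Set (Cn 1) := {u | ‖u 0 - kp‖ < 1 / 2 ∧ D.cp u ∉ D.bad}

theorem norm_cp (u : Cn 1) : ‖D.cp u‖ = 2 * D.R * ‖u 0 - kp‖ := by
  have := D.R_pos
  unfold cp
  rw [norm_mul, Complex.norm_real, Real.norm_of_nonneg (by positivity)]

theorem cp_lt {u : Cn 1} (hu : ‖u 0 - kp‖ < 1 / 2) : ‖D.cp u‖ < D.R := by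
  have := D.R_pos
  rw [norm_cp]
  calc 2 * D.R * ‖u 0 - kp‖ < 2 * D.R * (1 / 2) := by gcongr
    _ = D.R := by ring

theorem continuous_cp : Continuous D.cp := by
  unfold cp
  fun_prop

theorem isOpen_UU : IsOpen D.UU := by
  rw [isOpen_iff_mem_nhds]
  rintro u ⟨h1, h2⟩
  have h3 : ∀ᶠ u' : Cn 1 in 𝓝 u, ‖u' 0 - kp‖ < 1 / 2 := by
    have : Continuous fun u' : Cn 1 => ‖u' 0 - kp‖ := by fun_prop
    exact this.continuousAt.eventually_lt continuousAt_const h1
  have h4 := (D.continuous_cp.continuousAt (x := u)).eventually (D.good_ev (D.cp_lt h1) h2)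
  filter_upwards [h3, h4] with u' h5 h6
  exact ⟨h5, h6⟩

/-- the base map of the line -/
def discBM : BM A Tf k 1 where
  U := D.UU
  Γ u := D.pt (D.cp u)
  oU := D.isOpen_UU
  cube u hu p := by
    have h1 : ‖u 0 - kp‖ < 1 / 2 := hu.1
    have h2 : p.1 = 0 := Subsingleton.elim _ _
    have h4 : |(u 0 - kp).re| < 1 / 2 := (Complex.abs_re_le_norm _).trans_lt h1
    have h5 : |(u 0 - kp).im| < 1 / 2 := (Complex.abs_im_le_norm _).trans_lt h1
    have h6 : (u 0 - kp).re = (u 0).re - 1 / 2 := by simp [kp]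
    have h7 : (u 0 - kp).im = (u 0).im - 1 / 2 := by simp [kp]
    rw [h6, abs_lt] at h4
    rw [h7, abs_lt] at h5
    unfold rc
    rw [h2]
    split_ifs
    · constructor <;> linarith [h4.1, h4.2]
    · constructor <;> linarith [h5.1, h5.2]
  cont := D.cont_pt.comp D.continuous_cp.continuousOn fun u hu => by
    rw [mem_closedBall_zero_iff]
    exact (D.cp_lt hu.1).le
  hol j := by
    intro u hu
    have h1 : DifferentiableAt ℂ (fun z => A.e j ((A.e D.i).symm z)) (D.z + D.cp u • D.v) := by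
      refine (A.holo D.i j).differentiableAt
        (((A.e D.i).isOpen_inter_preimage_symm (A.e j).open_source).mem_nhds
          ⟨D.mem _ (D.cp_lt hu.1.1).le, hu.2⟩)
    have h2 : DifferentiableAt ℂ (fun u : Cn 1 => D.z + D.cp u • D.v) u := by
      unfold cp
      fun_prop
    exact (DifferentiableAt.comp u h1 h2).differentiableWithinAt
  tb u hu := D.tb _ (D.not_bad (D.cp_lt hu.1).le hu.2).1
  tr u hu τ hτ := by
    obtain ⟨h1, h2⟩ := D.not_bad (D.cp_lt hu.1).le hu.2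
    rw [D.kr_iff (D.cp_lt hu.1).le hτ] at h2
    set F : Cn N →L[ℂ] Cn k := fderiv ℂ (fun z => τ.f ((A.e D.i).symm z)) (D.z + D.cp u • D.v)
      with hF
    have h3 : HasFDerivAt (fun z => τ.f ((A.e D.i).symm z)) F (D.z + D.cp u • D.v) := by
      have h4 : DifferentiableAt ℂ (fun z => τ.f ((A.e D.i).symm z)) (D.z + D.cp u • D.v) :=
        (τ.hol D.i).differentiableAt
          (((A.e D.i).isOpen_inter_preimage_symm τ.oW).mem_nhds
            ⟨D.mem _ (D.cp_lt hu.1).le, hτ⟩)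
      exact h4.hasFDerivAt
    have h5 : HasFDerivAt (fun u : Cn 1 => D.z + D.cp u • D.v)
        (((((2 * D.R : ℝ) : ℂ)) • (EuclideanSpace.proj (0 : Fin 1) : Cn 1 →L[ℂ] ℂ)).smulRight D.v)
        u := by
      have h6 : HasFDerivAt (fun u : Cn 1 => u 0)
          (EuclideanSpace.proj (0 : Fin 1) : Cn 1 →L[ℂ] ℂ) u :=
        (EuclideanSpace.proj (0 : Fin 1) : Cn 1 →L[ℂ] ℂ).hasFDerivAt
      have h7 : HasFDerivAt D.cp
          ((((2 * D.R : ℝ) : ℂ)) • (EuclideanSpace.proj (0 : Fin 1) : Cn 1 →L[ℂ] ℂ)) u :=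
        (h6.sub_const kp).const_mul _
      exact (h7.smul_const D.v).const_add _
    have h8 : HasFDerivAt (fun u : Cn 1 => τ.f (D.pt (D.cp u))) (F.comp
        (((((2 * D.R : ℝ) : ℂ)) • (EuclideanSpace.proj (0 : Fin 1) : Cn 1 →L[ℂ] ℂ)).smulRight D.v))
        u := HasFDerivAt.comp u (g := fun z => τ.f ((A.e D.i).symm z)) h3 h5
    rw [h8.fderiv, injective_iff_map_eq_zero]
    intro x hx
    have h9 : (((2 * D.R : ℝ) : ℂ) * x 0) • F D.v = 0 := by
      rw [← map_smul]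
      exact hx
    have h10 : ((2 * D.R : ℝ) : ℂ) ≠ 0 := by
      have := D.R_pos
      exact_mod_cast (by positivity : (2 * D.R : ℝ) ≠ 0)
    rcases smul_eq_zero.1 h9 with h11 | h11
    · rcases mul_eq_zero.1 h11 with h12 | h12
      · exact absurd h12 h10
      · ext a
        rw [Subsingleton.elim a 0]
        exact h12
    · exact absurd h11 h2

/-- **the disc family of a line**: over the disc minus the countable closed set `bad` -/
theorem exists_disc [T2Space M] [SecondCountableTopology M] (hne : D.UU.Nonempty) :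
    ∃ F : Fam A d 1 D.UU, (∀ v, F.i v ∈ Tf (D.pt (D.cp (F.y v)))) ∧
      ∀ u ∈ D.UU, ∀ x ∈ Tf (D.pt (D.cp u)), ∃ v, F.y v = u ∧ F.i v = x :=
  D.discBM.exists_fam D.hN hne

end LineD

/-! ### lines in a Lagrangian fibration -/

section LFibLine

variable {n : ℕ} {A : Atl (2 * n) M} {σ : HSymp A}

/-- the line data of a fibration -/
def lineD (F0 : LFib A σ) (i : A.ι) (z v : Cn (2 * n)) {R : ℝ} (hR : 0 < R)
    (h : ∀ c : ℂ, ‖c‖ ≤ R → z + c • v ∈ (A.e i).target) : LineD A F0.Tf n n where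
  hN := two_mul n
  Om := F0.Om
  oOm := F0.op
  tb x hx := by
    obtain ⟨τ, h1, -⟩ := F0.tube x hx
    exact ⟨τ, h1⟩
  i := i
  z := z
  v := v
  R := R
  R_pos := hR
  mem := h

/-- **the disc family of a line in a Lagrangian fibration** -/
theorem exists_disc_lag [T2Space M] [SecondCountableTopology M] (F0 : LFib A σ) (i : A.ι)
    (z v : Cn (2 * n)) {R : ℝ} (hR : 0 < R)
    (h : ∀ c : ℂ, ‖c‖ ≤ R → z + c • v ∈ (A.e i).target)
    (hne : (lineD F0 i z v hR h).UU.Nonempty) :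
    ∃ F : Fam A n 1 (lineD F0 i z v hR h).UU,
      (∀ w, F.i w ∈ F0.Tf ((lineD F0 i z v hR h).pt ((lineD F0 i z v hR h).cp (F.y w)))) ∧
      (∀ u ∈ (lineD F0 i z v hR h).UU, ∀ x ∈ F0.Tf ((lineD F0 i z v hR h).pt
        ((lineD F0 i z v hR h).cp u)), ∃ w, F.y w = u ∧ F.i w = x) ∧ F.Lag σ.toH2 := by
  obtain ⟨F, h1, h2⟩ := (lineD F0 i z v hR h).exists_disc hne
  refine ⟨F, h1, h2, lag_of F0 (G := (lineD F0 i z v hR h).discBM) F h1 fun u hu => ?_⟩
  exact ((lineD F0 i z v hR h).not_bad ((lineD F0 i z v hR h).cp_lt hu.1).le hu.2).1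

end LFibLine

end

end Crest.Agent.R281.S6V_664
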