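import Crest.Agent.R281.SK1_507

/-!
# R281 (S0424), S6-SK (helper507), part 2: relative Stokes and relative volume invariance

* `wt D i = |r_i|^(2m)`, `Bas B φ` : `φ` is smooth and constant along the fibres (infinitesimally);
  `bas_comp` : `χ ∘ y` is basic
* `Yr`       : the relative cofactor vector density; `vd10_Yr`, `div_Yr`
* `green0`   : `∫ φ |r|^(2m) tr (adj C · ∂_f ∂̄_f u) = 0`
* `rvol`     : **relative volume invariance**
  `∫ φ |r|^(2m) det (C + ∂_f ∂̄_f u) = ∫ φ |r|^(2m) det C`
-/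

set_option autoImplicit false
set_option linter.unusedSectionVars false

open Set Filter Topology Complex
open scoped ContDiff Matrix ComplexConjugate Polynomial

namespace Crest.Agent.R281.SK2_507

open Crest.Agent.R275 Crest.Agent.R275.Geo Crest.Agent.R275.Core144 Crest.Agent.R275.EDR890
open Crest.Agent.R275.Pai323 Crest.Agent.R275.C1d194
open Crest.Agent.R275.SerG398 (lint dens OffZ)
open Crest.Agent.R275.OmT75 (dj dl dl_chain dl_mul db_chain dj_sum dj_congr dbj_congr dj_comp)
open Crest.Agent.R273.Defs_333 Crest.Agent.R273.Hess_333 Crest.Agent.R273.HessB_333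
open Crest.Agent.R273.HM_333 Crest.Agent.R273.Kah_333 Crest.Agent.R273.Vol_333
open Crest.Agent.R273.Piola_5 Crest.Agent.R273.Green_5
open Crest.Agent.R273.VolInv_5 (dp eval_dp natDegree_dp contDiffOn_coeff_prod eval_derivative_dp)
open Crest.Agent.R273.StokesV_332
open Crest.Agent.R281.SK1_507

noncomputable section

variable {d m : ℕ} {V : Type} [TopologicalSpace V] {B : Atl (d + m) V} {y : V → Cn m}

/-- the weight `|r_i|^(2m)` -/
def wt (D : Ada B y) (i : B.ι) : ℂ := ((‖D.r i‖ ^ (2 * m) : ℝ) : ℂ)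

/-- basic functions -/
structure Bas (B : Atl (d + m) V) (φ : V → ℂ) : Prop where
  sm : ∀ i, B.SmAt i φ
  dl0 : ∀ i, ∀ x ∈ (B.e i).source, ∀ a : Fin d, dl B i (fi a) φ x = 0

theorem dens_eq' (D : Ada B y) {i j : B.ι} {x : V} (hx : x ∈ (B.e i).source ∩ (B.e j).source) :
    ((‖(Jf B i j x).det‖ ^ 2 : ℝ) : ℂ) * wt D i = dens B i j x * wt D j := by
  have h1 : dens B i j x = ((‖(Jm B i j x).det‖ ^ 2 : ℝ) : ℂ) := rfl
  have hr : ‖D.r j‖ ≠ 0 := norm_ne_zero_iff.2 (D.r_ne j)
  rw [h1, det_Jm D hx, wt, wt, ← ofReal_mul, ← ofReal_mul]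
  congr 1
  rw [norm_mul, norm_pow, norm_div, mul_pow, mul_assoc]
  congr 1
  rw [← pow_mul, mul_comm m 2, div_pow, div_mul_cancel₀]
  exact pow_ne_zero _ hr

/-- derivative of `y` along the fibres -/
theorem y_sl (D : Ada B y) {i : B.ι} {z : Cn (d + m)} (hz : z ∈ (B.e i).target) (χ : Cn m → ℂ)
    (hχ : ContDiff ℝ ∞ χ) (a : Fin d) :
    wd (false, fi a) (fun w => χ (y ((B.e i).symm w))) z = 0 := by
  have hd : DifferentiableAt ℝ (fun w => χ (y ((B.e i).symm w))) z := by
    have h1 : (fun w => χ (y ((B.e i).symm w))) =ᶠ[𝓝 z]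
        fun w => χ (WithLp.toLp 2 fun c => D.r i * w (bi c) + D.b i c) := by
      filter_upwards [(B.e i).open_target.mem_nhds hz] with w hw
      congr 1
      ext c
      rw [D.eq i _ ((B.e i).map_target hw), (B.e i).right_inv hw]
    refine DifferentiableAt.congr_of_eventuallyEq ?_ h1
    refine DifferentiableAt.comp z (hχ.differentiable (by simp) _) ?_
    rw [differentiableAt_piLp 2]
    intro c
    show DifferentiableAt ℝ (fun w : Cn (d + m) => D.r i * w (bi c) + D.b i c) z
    have : DifferentiableAt ℝ (fun w : Cn (d + m) => w (bi c)) z :=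
      ((EuclideanSpace.proj (bi c) : Cn (d + m) →L[ℂ] ℂ).restrictScalars ℝ).differentiableAt
    exact (this.const_mul _).add_const _
  rw [← wd_sl (F := fun w => χ (y ((B.e i).symm w))) hd a]
  have h2 : (fun w => χ (y ((B.e i).symm (sl z w)))) =ᶠ[𝓝 (pr z)] fun _ => χ (y ((B.e i).symm z)) := by
    obtain ⟨L, hL, _⟩ := hasFDerivAt_sl z (pr z)
    have hc : Tendsto (sl z) (𝓝 (pr z)) (𝓝 z) := by
      have := hL.continuousAt
      rwa [ContinuousAt, sl_pr] at this
    filter_upwards [hc.eventually ((B.e i).open_target.mem_nhds hz)] with w hw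
    congr 1
    ext c
    rw [D.eq i _ ((B.e i).map_target hw), (B.e i).right_inv hw, D.eq i _ ((B.e i).map_target hz),
      (B.e i).right_inv hz, sl_bi]
  rw [wd_congr h2]
  exact wd_const _ _ _

theorem smAt_comp_y (D : Ada B y) {W : Type*} [NormedAddCommGroup W] [NormedSpace ℝ W]
    {χ : Cn m → W} (hχ : ContDiff ℝ ∞ χ) (i : B.ι) : B.SmAt i (fun x => χ (y x)) := by
  have h1 : ContDiff ℝ ∞ (fun w : Cn (d + m) =>
      (WithLp.toLp 2 fun c => D.r i * w (bi c) + D.b i c : Cn m)) := by
    rw [contDiff_piLp 2]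
    intro c
    show ContDiff ℝ ∞ (fun w : Cn (d + m) => D.r i * w (bi c) + D.b i c)
    exact (contDiff_const.mul
      ((EuclideanSpace.proj (bi c) : Cn (d + m) →L[ℂ] ℂ).restrictScalars ℝ).contDiff).add
      contDiff_const
  refine ((hχ.comp h1).contDiffOn (s := (B.e i).target)).congr fun w hw => ?_
  show χ (y ((B.e i).symm w)) = χ _
  congr 1
  ext c
  rw [D.eq i _ ((B.e i).map_target hw), (B.e i).right_inv hw]

theorem bas_comp (D : Ada B y) {χ : Cn m → ℂ} (hχ : ContDiff ℝ ∞ χ) : Bas B (fun x => χ (y x)) where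
  sm i := smAt_comp_y D hχ i
  dl0 i x hx a := by
    have h := y_sl D ((B.e i).map_source hx) χ hχ a
    have h2 := dl_read (A := B) (fun x => χ (y x)) i (fi a) ((B.e i).map_source hx)
    rw [(B.e i).left_inv hx] at h2
    rw [h2, h]

/-- fibre block of `∂∂̄u` -/
def fhm (B : Atl (d + m) V) (u : V → ℂ) (i : B.ι) (x : V) : Matrix (Fin d) (Fin d) ℂ :=
  Matrix.of fun a b => hm B u i x (fi a) (fi b)

/-- the relative cofactor vector density -/
def Yr (D : Ada B y) (C : B.ι → V → Matrix (Fin d) (Fin d) ℂ) (φ u : V → ℂ) (i : B.ι)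
    (k : Fin (d + m)) (x : V) : ℂ :=
  Fin.addCases (motive := fun _ => ℂ)
    (fun a => φ x * wt D i * ∑ b, (C i x).adjugate b a * B.db i (fi b) u x) (fun _ => 0) k

theorem Yr_fi (D : Ada B y) (C : B.ι → V → Matrix (Fin d) (Fin d) ℂ) (φ u : V → ℂ) (i : B.ι)
    (a : Fin d) : Yr D C φ u i (fi a) =
      fun x => φ x * wt D i * ∑ b, (C i x).adjugate b a * B.db i (fi b) u x := by
  funext x
  simp [Yr, fi]

theorem Yr_bi (D : Ada B y) (C : B.ι → V → Matrix (Fin d) (Fin d) ℂ) (φ u : V → ℂ) (i : B.ι)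
    (c : Fin m) : Yr D C φ u i (bi c) = fun _ => 0 := by
  funext x
  simp [Yr, bi]

theorem smAt_sum {C : B.ι → V → Matrix (Fin d) (Fin d) ℂ} (hC : RCF B C) {u : V → ℂ} {i : B.ι}
    (hu : B.SmAt i u) (a : Fin d) :
    B.SmAt i (fun x => ∑ b, (C i x).adjugate b a * B.db i (fi b) u x) :=
  ContDiffOn.sum fun b _ => (hC.smAt_adj i a b).mul (hu.db (fi b))

theorem vd10_Yr (D : Ada B y) {C : B.ι → V → Matrix (Fin d) (Fin d) ℂ} (hC : RCF B C)
    {φ u : V → ℂ} (hφ : Bas B φ) (hu : ∀ i, B.SmAt i u) : VD10 B (Yr D C φ u) where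
  sm i k := by
    refine Fin.addCases (fun a => ?_) (fun c => ?_) k
    · rw [Yr_fi]
      exact ((hφ.sm i).mul contDiffOn_const).mul (smAt_sum hC (hu i) a)
    · rw [Yr_bi]
      exact contDiffOn_const
  tr i j x hx k := by
    rw [Fin.sum_univ_add]
    have hb : ∀ c : Fin m, B.J i j x k (bi c) * Yr D C φ u i (bi c) x = 0 := fun c => by
      rw [Yr_bi, mul_zero]
    rw [Finset.sum_congr rfl (fun c _ => hb c), Finset.sum_const_zero, add_zero]
    refine Fin.addCases (fun e => ?_) (fun c => ?_) k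
    · -- fibre component
      have h1 : ∀ b : Fin d, B.db i (fi b) u x =
          ∑ c : Fin d, conj (Jf B i j x c b) * B.db j (fi c) u x := by
        intro b
        have h := db_chain (Atl.SmAt.diffAt (hu j) hx.2) hx (fi b)
        rw [Fin.sum_univ_add] at h
        have h0 : ∀ c : Fin m, conj (B.J i j x (bi c) (fi b)) • B.db j (bi c) u x = 0 := fun c => by
          rw [J_base D hx, map_zero, zero_smul]
        rw [Finset.sum_congr rfl (fun c _ => h0 c), Finset.sum_const_zero, add_zero] at h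
        exact h
      set J := Jf B i j x with hJ
      have e2 : J * ((C i x).adjugate)ᵀ * (J.map conj)ᵀ =
          ((‖J.det‖ ^ 2 : ℝ) : ℂ) • ((C j x).adjugate)ᵀ := by
        have e1 : (J.map conj).det = conj J.det := by
          rw [← RingHom.mapMatrix_apply, ← RingHom.map_det]
        have e3 : (C i x).adjugate = (J.map conj).adjugate * ((C j x).adjugate * Jᵀ.adjugate) := by
          rw [hC.tr i j x hx, Matrix.adjugate_mul_distrib, Matrix.adjugate_mul_distrib]
        have e4 : (J.map conj) * (C i x).adjugate * Jᵀ = ((‖J.det‖ ^ 2 : ℝ) : ℂ) • (C j x).adjugate := by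
          rw [e3]
          calc (J.map conj) * ((J.map conj).adjugate * ((C j x).adjugate * Jᵀ.adjugate)) * Jᵀ
              = ((J.map conj) * (J.map conj).adjugate) * ((C j x).adjugate * (Jᵀ.adjugate * Jᵀ)) := by
                simp only [Matrix.mul_assoc]
            _ = ((‖J.det‖ ^ 2 : ℝ) : ℂ) • (C j x).adjugate := by
                rw [Matrix.mul_adjugate, Matrix.adjugate_mul, e1, Matrix.det_transpose,
                  Matrix.smul_mul, Matrix.one_mul, Matrix.mul_smul, Matrix.mul_one, smul_smul]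
                congr 1
                rw [mul_comm, Complex.mul_conj, Complex.normSq_eq_norm_sq]
        have e5 := congrArg Matrix.transpose e4
        rw [Matrix.transpose_mul, Matrix.transpose_mul, Matrix.transpose_transpose,
          Matrix.transpose_smul, ← Matrix.mul_assoc] at e5
        exact e5
      calc ∑ a : Fin d, B.J i j x (fi e) (fi a) * Yr D C φ u i (fi a) x
          = φ x * wt D i * ∑ c : Fin d, (J * ((C i x).adjugate)ᵀ * (J.map conj)ᵀ) e c *
              B.db j (fi c) u x := by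
            simp only [Yr_fi]
            simp only [Matrix.mul_apply, Matrix.transpose_apply, Matrix.map_apply]
            rw [Finset.mul_sum]
            simp only [Finset.sum_mul, Finset.mul_sum]
            rw [Finset.sum_comm]
            have s1 : ∀ a : Fin d, ∀ b : Fin d, B.J i j x (fi e) (fi a) *
                (φ x * wt D i * ((C i x).adjugate b a * B.db i (fi b) u x)) =
                ∑ c : Fin d, φ x * wt D i * (J e a * (C i x).adjugate b a * conj (J c b) *
                  B.db j (fi c) u x) := by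
              intro a b
              rw [h1 b, Finset.mul_sum, Finset.mul_sum, Finset.mul_sum]
              exact Finset.sum_congr rfl fun c _ => by rw [hJ, Jf_apply (a := e)]; ring
            rw [Finset.sum_congr rfl fun b _ => Finset.sum_congr rfl fun a _ => s1 a b]
            rw [Finset.sum_congr rfl fun b _ => Finset.sum_comm, Finset.sum_comm]
        _ = dens B i j x * Yr D C φ u j (fi e) x := by
            rw [e2, Yr_fi]
            simp only [Matrix.smul_apply, Matrix.transpose_apply, smul_eq_mul]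
            have h3 := dens_eq' D hx
            rw [← hJ] at h3
            rw [show (∑ c : Fin d, ((‖J.det‖ ^ 2 : ℝ) : ℂ) * (C j x).adjugate c e * B.db j (fi c) u x) =
              ((‖J.det‖ ^ 2 : ℝ) : ℂ) * ∑ c : Fin d, (C j x).adjugate c e * B.db j (fi c) u x by
                rw [Finset.mul_sum]; exact Finset.sum_congr rfl fun c _ => by ring]
            calc φ x * wt D i * (((‖J.det‖ ^ 2 : ℝ) : ℂ) *
                  ∑ c : Fin d, (C j x).adjugate c e * B.db j (fi c) u x)
                = φ x * (((‖J.det‖ ^ 2 : ℝ) : ℂ) * wt D i) *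
                  ∑ c : Fin d, (C j x).adjugate c e * B.db j (fi c) u x := by ring
              _ = _ := by rw [h3]; ring
    · have h0 : ∀ a : Fin d, B.J i j x (bi c) (fi a) * Yr D C φ u i (fi a) x = 0 := fun a => by
        rw [J_base D hx, zero_mul]
      rw [Finset.sum_congr rfl (fun a _ => h0 a), Finset.sum_const_zero, Yr_bi, mul_zero]

theorem div_Yr (D : Ada B y) {C : B.ι → V → Matrix (Fin d) (Fin d) ℂ} (hC : RCF B C)
    {φ u : V → ℂ} (hφ : Bas B φ) {i : B.ι} (hu : B.SmAt i u) {x : V} (hx : x ∈ (B.e i).source) :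
    ∑ k, dl B i k (Yr D C φ u i k) x =
      φ x * wt D i * ((C i x).adjugate * fhm B u i x).trace := by
  have hz := (B.e i).map_source hx
  rw [Fin.sum_univ_add]
  have hb : ∀ c : Fin m, dl B i (bi c) (Yr D C φ u i (bi c)) x = 0 := fun c => by
    rw [Yr_bi]
    unfold OmT75.dl
    rw [dj_eq_wd]
    exact wd_const _ _ _
  rw [Finset.sum_congr rfl (fun c _ => hb c), Finset.sum_const_zero, add_zero]
  have hs : ∀ a b : Fin d, B.SmAt i (fun x => (C i x).adjugate b a * B.db i (fi b) u x) := fun a b =>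
    (hC.smAt_adj i a b).mul (hu.db (fi b))
  have hw : B.SmAt i (fun x => φ x * wt D i) := (hφ.sm i).mul contDiffOn_const
  have hw0 : ∀ a : Fin d, dl B i (fi a) (fun x => φ x * wt D i) x = 0 := fun a => by
    rw [dl_mul (Atl.SmAt.diffAt (hφ.sm i) hx) (differentiableAt_const _) hx, hφ.dl0 i x hx a,
      zero_mul, zero_add]
    have : dl B i (fi a) (fun _ => wt D i) x = 0 := by
      unfold OmT75.dl
      rw [dj_eq_wd]
      exact wd_const _ _ _
    rw [this, mul_zero]
  have h1 : ∀ a : Fin d, dl B i (fi a) (Yr D C φ u i (fi a)) x =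
      φ x * wt D i * ∑ b, (dl B i (fi a) (fun y => (C i y).adjugate b a) x * B.db i (fi b) u x +
        (C i x).adjugate b a * hm B u i x (fi a) (fi b)) := by
    intro a
    rw [Yr_fi, dl_mul (f := fun x => φ x * wt D i) (Atl.SmAt.diffAt hw hx)
      (Atl.SmAt.diffAt (smAt_sum hC hu a) hx) hx, hw0 a, zero_mul, zero_add]
    congr 1
    have hsum : dl B i (fi a) (fun y => ∑ b, (C i y).adjugate b a * B.db i (fi b) u y) x =
        ∑ b, dl B i (fi a) (fun y => (C i y).adjugate b a * B.db i (fi b) u y) x := by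
      unfold OmT75.dl
      exact dj_sum fun b _ => Atl.SmAt.diffAt (hs a b) hx
    rw [hsum]
    refine Finset.sum_congr rfl fun b _ => ?_
    rw [dl_mul (Atl.SmAt.diffAt (hC.smAt_adj i a b) hx) (Atl.SmAt.diffAt (hu.db (fi b)) hx) hx]
    rfl
  have h2 : ∀ b : Fin d, ∑ a, dl B i (fi a) (fun y => (C i y).adjugate b a) x = 0 := by
    intro b
    have := hC.piola hz b
    rw [← this]
    refine Finset.sum_congr rfl fun a _ => ?_
    have e := dl_read (A := B) (fun y => (C i y).adjugate b a) i (fi a) hz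
    rw [(B.e i).left_inv hx] at e
    exact e
  rw [Finset.sum_congr rfl fun a _ => h1 a, ← Finset.mul_sum]
  congr 1
  have e1 : ∑ a : Fin d, ∑ b, (dl B i (fi a) (fun y => (C i y).adjugate b a) x * B.db i (fi b) u x +
      (C i x).adjugate b a * hm B u i x (fi a) (fi b)) =
      ∑ b, (∑ a, dl B i (fi a) (fun y => (C i y).adjugate b a) x) * B.db i (fi b) u x +
        ∑ b, ∑ a, (C i x).adjugate b a * hm B u i x (fi a) (fi b) := by
    rw [Finset.sum_comm, ← Finset.sum_add_distrib]
    refine Finset.sum_congr rfl fun b _ => ?_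
    rw [Finset.sum_add_distrib, Finset.sum_mul]
  rw [e1, Finset.sum_eq_zero fun b _ => by rw [h2 b, zero_mul], zero_add]
  rfl

/-! ### Stokes -/

variable [T2Space V]

theorem green0 (P : Part B) (D : Ada B y) {C : B.ι → V → Matrix (Fin d) (Fin d) ℂ} (hC : RCF B C)
    {φ u : V → ℂ} (hφ : Bas B φ) (hu : ∀ i, B.SmAt i u) {K : Set V} (hK : IsCompact K)
    (h0 : ∀ x ∉ K, φ x = 0) :
    intD P (fun i x => φ x * wt D i * ((C i x).adjugate * fhm B u i x).trace) = 0 := by
  rw [← stokes10 P (vd10_Yr D hC hφ hu) hK fun k i x hx hxK => ?_]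
  · exact intD_congr P fun i x hx => (div_Yr D hC hφ (hu i) hx).symm
  · refine Fin.addCases (fun a => ?_) (fun c => ?_) k
    · show Yr D C φ u i (fi a) x = 0
      rw [Yr_fi]
      simp only [h0 x hxK, zero_mul]
    · show Yr D C φ u i (bi c) x = 0
      rw [Yr_bi]

theorem fhm_ofReal {u : V → ℝ} {i : B.ι} {x : V} (hx : x ∈ (B.e i).source) :
    fhm B (fun z => (u z : ℂ)) i x = fib (hsf B u) i x := by
  ext a b
  show hm B (fun z => (u z : ℂ)) i x (fi a) (fi b) = _
  rw [hm_ofReal u i hx]
  rfl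

/-- coefficients of `det (C + X H)` are smooth -/
theorem smAt_coeff_dp' {g H : V → Matrix (Fin d) (Fin d) ℂ} {i : B.ι}
    (hg : ∀ a b, B.SmAt i (fun x => g x a b)) (hH : ∀ a b, B.SmAt i (fun x => H x a b)) (k : ℕ) :
    B.SmAt i (fun x => (dp (g x) (H x)).coeff k) := by
  have h1 : ContDiffOn ℝ ∞ (fun z => (dp (g ((B.e i).symm z)) (H ((B.e i).symm z))).coeff k)
      (B.e i).target := by
    unfold dp
    simp only [Matrix.det_apply', Polynomial.finsetSum_coeff]
    refine ContDiffOn.sum fun σ _ => ?_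
    have h2 : ∀ z, ((((Equiv.Perm.sign σ : ℤ) : ℂ[X]) * ∏ b, (Matrix.of fun a b =>
        Polynomial.C (g ((B.e i).symm z) a b) +
          Polynomial.X * Polynomial.C (H ((B.e i).symm z) a b)) (σ b) b).coeff k) =
        ((Equiv.Perm.sign σ : ℤ) : ℂ) * ((∏ b, (Polynomial.C (g ((B.e i).symm z) (σ b) b) +
          Polynomial.X * Polynomial.C (H ((B.e i).symm z) (σ b) b))).coeff k) := by
      intro z
      have h3 : (((Equiv.Perm.sign σ : ℤ) : ℂ[X])) =
          Polynomial.C (((Equiv.Perm.sign σ : ℤ) : ℂ)) := by simp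
      rw [h3, Polynomial.coeff_C_mul]
      rfl
    simp only [h2]
    refine contDiffOn_const.mul (contDiffOn_coeff_prod _ (fun b _ k => ?_) k)
    have h4 : ∀ z, ((Polynomial.C (g ((B.e i).symm z) (σ b) b) +
        Polynomial.X * Polynomial.C (H ((B.e i).symm z) (σ b) b)).coeff k) =
        (if k = 0 then g ((B.e i).symm z) (σ b) b else 0) +
          (if k = 1 then H ((B.e i).symm z) (σ b) b else 0) := by
      intro z
      rw [Polynomial.coeff_add, Polynomial.coeff_C]
      congr 1
      rcases k with _ | k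
      · simp
      · rw [Polynomial.coeff_X_mul, Polynomial.coeff_C]
        simp
    simp only [h4]
    refine ContDiffOn.add ?_ ?_
    · split_ifs
      · exact hg _ _
      · exact contDiffOn_const
    · split_ifs
      · exact hH _ _
      · exact contDiffOn_const
  exact h1

/-- the polynomial `t ↦ ∫ φ |r|^(2m) det (C + t S)` -/
theorem int_dp (P : Part B) (D : Ada B y) {C S : B.ι → V → Matrix (Fin d) (Fin d) ℂ}
    (hC : ∀ i a b, B.SmAt i (fun x => C i x a b)) (hS : ∀ i a b, B.SmAt i (fun x => S i x a b))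
    {φ : V → ℂ} (hφ : ∀ i, B.SmAt i φ) {K : Set V} (hK : IsCompact K) (h0 : ∀ x ∉ K, φ x = 0)
    (t : ℂ) :
    intD P (fun i x => φ x * wt D i * (C i x + t • S i x).det) =
      ∑ k ∈ Finset.range (d + 2), t ^ k *
        intD P (fun i x => φ x * wt D i * (dp (C i x) (S i x)).coeff k) := by
  have hcs : ∀ k i, B.SmAt i (fun x => φ x * wt D i * (dp (C i x) (S i x)).coeff k) :=
    fun k i => ((hφ i).mul contDiffOn_const).mul (smAt_coeff_dp' (hC i) (hS i) k)
  have hoff : ∀ k, OffK B (fun i x => φ x * wt D i * (dp (C i x) (S i x)).coeff k) K :=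
    fun k i x _ hxK => by
      show φ x * wt D i * _ = 0
      rw [h0 x hxK, zero_mul, zero_mul]
  have h1 : intD P (fun i x => φ x * wt D i * (C i x + t • S i x).det) =
      intD P (fun i x => ∑ k ∈ Finset.range (d + 2),
        t ^ k * (φ x * wt D i * (dp (C i x) (S i x)).coeff k)) := by
    refine intD_congr P fun i x _ => ?_
    rw [← eval_dp, Polynomial.eval_eq_sum_range' (n := d + 2)
      (lt_of_le_of_lt (natDegree_dp _ _) (by omega)), Finset.mul_sum]
    exact Finset.sum_congr rfl fun k _ => by ring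
  rw [h1, intD_sum P _ (F := fun (k : ℕ) i x =>
      t ^ k * (φ x * wt D i * (dp (C i x) (S i x)).coeff k))
    (fun k _ i => (contDiffOn_const (c := t ^ k)).mul (hcs k i)) hK
    (fun k _ => (hoff k).mul_left fun _ _ => t ^ k)]
  exact Finset.sum_congr rfl fun k _ => intD_smul P _ hK (hoff k)

theorem sm_fib_hsf {u : V → ℝ} (hu : B.Sm u) (i : B.ι) (a b : Fin d) :
    B.SmAt i (fun x => fib (hsf B u) i x a b) := (hsf_cf hu).sm i _ _

/-- **relative volume invariance**, with parameter -/
theorem rvol_poly (P : Part B) (D : Ada B y) {C : B.ι → V → Matrix (Fin d) (Fin d) ℂ}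
    (hC : RCF B C) {φ : V → ℂ} (hφ : Bas B φ) {u : V → ℝ} (hu : B.Sm u) {K : Set V}
    (hK : IsCompact K) (h0 : ∀ x ∉ K, φ x = 0) (t : ℝ) :
    intD P (fun i x => φ x * wt D i * (C i x + (t : ℂ) • fib (hsf B u) i x).det) =
      intD P (fun i x => φ x * wt D i * (C i x).det) := by
  set S := fib (hsf B u) with hS
  set T : ℕ → ℂ := fun k => intD P (fun i x => φ x * wt D i * (dp (C i x) (S i x)).coeff k) with hT
  have hSs : ∀ i a b, B.SmAt i (fun x => S i x a b) := fun i a b => sm_fib_hsf hu i a b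
  have hp : ∀ t : ℝ, intD P (fun i x => φ x * wt D i * (C i x + (t : ℂ) • S i x).det) =
      ∑ k ∈ Finset.range (d + 2), (t : ℂ) ^ k * T k := fun t =>
    int_dp P D hC.sm hSs hφ.sm hK h0 t
  have hoff : ∀ k, OffK B (fun i x => φ x * wt D i * (dp (C i x) (S i x)).coeff k) K :=
    fun k i x _ hxK => by
      show φ x * wt D i * _ = 0
      rw [h0 x hxK, zero_mul, zero_mul]
  have hcs : ∀ k i, B.SmAt i (fun x => φ x * wt D i * (dp (C i x) (S i x)).coeff k) :=
    fun k i => ((hφ.sm i).mul contDiffOn_const).mul (smAt_coeff_dp' (hC.sm i) (hSs i) k)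
  have hd : ∀ t : ℝ, HasDerivAt (fun s : ℝ => ∑ k ∈ Finset.range (d + 2), (s : ℂ) ^ k * T k) 0 t := by
    intro t
    have h1 : HasDerivAt (fun s : ℝ => ∑ k ∈ Finset.range (d + 2), (s : ℂ) ^ k * T k)
        (∑ k ∈ Finset.range (d + 2), ((k : ℂ) * (t : ℂ) ^ (k - 1)) * T k) t := by
      refine HasDerivAt.fun_sum fun k _ => ?_
      exact ((hasDerivAt_pow k (t : ℂ)).comp_ofReal).mul_const _
    have h2 : ∑ k ∈ Finset.range (d + 2), ((k : ℂ) * (t : ℂ) ^ (k - 1)) * T k = 0 := by
      have h3 : ∑ k ∈ Finset.range (d + 2), ((k : ℂ) * (t : ℂ) ^ (k - 1)) * T k =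
          intD P (fun i x => ∑ k ∈ Finset.range (d + 2), ((k : ℂ) * (t : ℂ) ^ (k - 1)) *
            (φ x * wt D i * (dp (C i x) (S i x)).coeff k)) := by
        rw [intD_sum P _ (F := fun (k : ℕ) i x => ((k : ℂ) * (t : ℂ) ^ (k - 1)) *
            (φ x * wt D i * (dp (C i x) (S i x)).coeff k))
          (fun k _ i => (contDiffOn_const (c := (k : ℂ) * (t : ℂ) ^ (k - 1))).mul (hcs k i)) hK
          (fun k _ => (hoff k).mul_left fun _ _ => (k : ℂ) * (t : ℂ) ^ (k - 1))]
        exact Finset.sum_congr rfl fun k _ => (intD_smul P _ hK (hoff k)).symm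
      rw [h3]
      have hCt : RCF B (fun i x => C i x + (t : ℂ) • S i x) :=
        hC.add ((rcf_fib D (hsf_cf hu)).smul (t : ℂ))
      rw [← green0 P D hCt hφ (u := fun z => (u z : ℂ)) (fun i => smAt_ofReal (hu i)) hK h0]
      refine intD_congr P fun i x hx => ?_
      rw [fhm_ofReal hx, ← hS, ← eval_derivative_dp]
      rw [Polynomial.eval_eq_sum_range' (n := d + 1)
        ((Polynomial.natDegree_derivative_le _).trans_lt
          (lt_of_le_of_lt (Nat.sub_le _ _) (Nat.lt_succ_of_le (natDegree_dp _ _))))]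
      rw [Finset.sum_range_succ', Finset.mul_sum]
      simp only [Nat.cast_zero, zero_mul, add_zero, Polynomial.coeff_derivative]
      refine Finset.sum_congr rfl fun k _ => ?_
      rw [Nat.add_sub_cancel]
      push_cast
      ring
    rw [h2] at h1
    exact h1
  have hconst := is_const_of_deriv_eq_zero (fun t => (hd t).differentiableAt) (fun t => (hd t).deriv)
  have h1 := hconst t 0
  rw [← hp t, ← hp 0] at h1
  rw [h1]
  refine intD_congr P fun i x _ => ?_
  rw [ofReal_zero, zero_smul, add_zero]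

/-- **relative volume invariance** -/
theorem rvol (P : Part B) (D : Ada B y) {C : B.ι → V → Matrix (Fin d) (Fin d) ℂ}
    (hC : RCF B C) {φ : V → ℂ} (hφ : Bas B φ) {u : V → ℝ} (hu : B.Sm u) {K : Set V}
    (hK : IsCompact K) (h0 : ∀ x ∉ K, φ x = 0) :
    intD P (fun i x => φ x * wt D i * (C i x + fib (hsf B u) i x).det) =
      intD P (fun i x => φ x * wt D i * (C i x).det) := by
  have h := rvol_poly P D hC hφ hu hK h0 1
  simp only [ofReal_one, one_smul] at h
  exact h

end

end Crest.Agent.R281.SK2_507
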