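import Crest.Agent.R281.D6f_986
import Crest.Agent.R281.SK2_507
import Crest.Agent.R281.S6V6_664
import Crest.Agent.R281.Fub5_163
import Crest.Agent.R273.LeviR_155
import Crest.Agent.R273.UpV_914

/-!
# R281 (S0424), S6-ASM (helper986), part g: towards `UPre ⟹ UOut`

* `det_sub_last`, `det_le_of_psd` : `B G ≥ t E_ll ⟹ t det(fb G) ≤ B det G`;
* `hf_pull`     : Hermitian forms and congruence;
* `blk_single`, `pull_sq` : the pull back of `∂∂̄|w|²` to a disc family;
* `LFib.tf_eq`, `leafy_of` : families from base maps are leafy;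
* `exists_tangent` : transversal vectors are tangent to the disc family.
-/

set_option autoImplicit false
set_option linter.unusedSectionVars false

open Set Filter Topology Complex MeasureTheory
open scoped ContDiff Matrix ComplexConjugate Manifold ComplexOrder

namespace Crest.Agent.R281.D6_986

open Crest.Agent.R275.Geo Crest.Agent.R275.Core144 Crest.Agent.R275.GC293
open Crest.Agent.R273.Defs_333 Crest.Agent.R273.Kah_333 Crest.Agent.R273.HM_333
open Crest.Agent.R273.Hess_333 Crest.Agent.R273.HessB_333 Crest.Agent.R273.KahI_645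
open Crest.Agent.R273.Map_835 Crest.Agent.R275.EDR890
open Crest.Agent.R273.StokesV_332 (intD Den NonnegD)
open Crest.Agent.R275.Prod363 (sndL)
open Crest.Agent.R273.Sus_333 (blk)
open Crest.Agent.R281.Defs_273 Crest.Agent.R281.LEnd_10
open Crest.Agent.R281.S6D_664 (LFib Fam fb)
open Crest.Agent.R281.S6V_664 (BM LineD)
open Crest.Agent.R281.Fib2_425 (push Prj)
open Crest.Agent.R281.Fib4_425 (Tst)

noncomputable section

section mat

variable {n : ℕ}

theorem det_sub_last (G : Matrix (Fin (n + 1)) (Fin (n + 1)) ℂ) (t : ℂ) :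
    (G - t • Matrix.single (Fin.last n) (Fin.last n) (1 : ℂ)).det =
      G.det - t * (fb (d := n) (m := 1) G).det := by
  have hsub : ∀ j : Fin (n + 1), (G - t • Matrix.single (Fin.last n) (Fin.last n)
      (1 : ℂ)).submatrix (Fin.last n).succAbove j.succAbove =
        G.submatrix (Fin.last n).succAbove j.succAbove := by
    intro j
    ext a b
    have h : ¬ (Fin.last n = (Fin.last n).succAbove a) := fun h =>
      (Fin.succAbove_ne _ _) h.symm
    simp only [Matrix.submatrix_apply, Matrix.sub_apply, Matrix.smul_apply, Matrix.single_apply,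
      h, false_and, if_false, smul_zero, sub_zero]
  rw [Matrix.det_succ_row _ (Fin.last n), Matrix.det_succ_row G (Fin.last n)]
  simp only [hsub]
  rw [Fin.sum_univ_castSucc, Fin.sum_univ_castSucc]
  have h1 : ∀ j : Fin n, (G - t • Matrix.single (Fin.last n) (Fin.last n) (1 : ℂ)) (Fin.last n)
      j.castSucc = G (Fin.last n) j.castSucc := by
    intro j
    have h : ¬ (Fin.last n = j.castSucc) := (Fin.castSucc_lt_last j).ne'
    simp only [Matrix.sub_apply, Matrix.smul_apply, Matrix.single_apply,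
      h, and_false, if_false, smul_zero, sub_zero]
  simp only [h1]
  have h2 : (G - t • Matrix.single (Fin.last n) (Fin.last n) (1 : ℂ)) (Fin.last n) (Fin.last n) =
      G (Fin.last n) (Fin.last n) - t := by
    simp [Matrix.sub_apply]
  have h3 : G.submatrix (Fin.last n).succAbove (Fin.last n).succAbove =
      fb (d := n) (m := 1) G := by
    ext a b
    simp only [Matrix.submatrix_apply, Fin.succAbove_last]
    rfl
  have h4 : ((-1 : ℂ)) ^ ((Fin.last n : ℕ) + (Fin.last n : ℕ)) = 1 := by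
    rw [← two_mul, pow_mul]
    norm_num
  rw [h2, h3, h4]
  ring

theorem fb_smul (c : ℂ) (G : Matrix (Fin (n + 1)) (Fin (n + 1)) ℂ) :
    fb (d := n) (m := 1) (c • G) = c • fb (d := n) (m := 1) G := rfl

theorem det_le_of_psd {G : Matrix (Fin (n + 1)) (Fin (n + 1)) ℂ} {B t : ℝ} (hB : 0 < B)
    (h : ((B : ℂ) • G - (t : ℂ) • Matrix.single (Fin.last n) (Fin.last n)
      (1 : ℂ)).PosSemidef) :
    t * (fb (d := n) (m := 1) G).det.re ≤ B * G.det.re := by
  have h1 := h.det_nonneg
  rw [det_sub_last, fb_smul, Matrix.det_smul, Matrix.det_smul, Fintype.card_fin,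
    Fintype.card_fin] at h1
  have h2 := (Complex.le_def.1 h1).1
  rw [Complex.zero_re, ← ofReal_pow, ← ofReal_pow, Complex.sub_re, Complex.re_ofReal_mul,
    Complex.re_ofReal_mul, Complex.re_ofReal_mul, pow_succ] at h2
  have h3 : 0 < B ^ n := pow_pos hB n
  have h4 : 0 ≤ B ^ n * (B * G.det.re - t * (fb (d := n) (m := 1) G).det.re) := by
    calc (0 : ℝ) ≤ _ := h2
      _ = _ := by ring
  have h5 := nonneg_of_mul_nonneg_right h4 h3
  linarith

theorem hf_pull {N k : ℕ} (J : Matrix (Fin N) (Fin k) ℂ) (H : Matrix (Fin N) (Fin N) ℂ)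
    (η : Fin k → ℂ) : hf (Jᵀ * H * J.map conj) (star η) = hf H (star (J *ᵥ η)) := by
  unfold hf
  congr 1
  have h1 : star (J *ᵥ η) = (J.map conj) *ᵥ star η := by
    ext a
    simp [Matrix.mulVec, dotProduct]
  rw [h1]
  have h2 : star (J.map conj *ᵥ star η) = J *ᵥ η := by
    rw [← h1, star_star]
  rw [h2, star_star, ← Matrix.mulVec_mulVec, ← Matrix.mulVec_mulVec, Matrix.dotProduct_mulVec,
    Matrix.vecMul_transpose]

theorem hf_single (c : ℝ) (v : Fin (n + 1) → ℂ) :
    hf ((c : ℂ) • Matrix.single (Fin.last n) (Fin.last n) (1 : ℂ)) v = c * ‖v (Fin.last n)‖ ^ 2 := by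
  unfold hf
  have h1 : ((c : ℂ) • Matrix.single (Fin.last n) (Fin.last n) (1 : ℂ)) *ᵥ v =
      Pi.single (Fin.last n) ((c : ℂ) * v (Fin.last n)) := by
    ext a
    rw [Matrix.smul_mulVec, Matrix.single_mulVec]
    by_cases h : a = Fin.last n
    · subst h; simp
    · simp [h]
  rw [h1, dotProduct_single]
  have h2 : star v (Fin.last n) * ((c : ℂ) * v (Fin.last n)) =
      ((c * ‖v (Fin.last n)‖ ^ 2 : ℝ) : ℂ) := by
    rw [ofReal_mul, ← Complex.normSq_eq_norm_sq, ← Complex.mul_conj, Pi.star_apply]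
    show conj (v (Fin.last n)) * _ = _
    ring
  rw [h2, ofReal_re]

theorem hf_sub' (H H' : Matrix (Fin n) (Fin n) ℂ) (v : Fin n → ℂ) :
    hf (H - H') v = hf H v - hf H' v := by
  simp only [hf, Matrix.sub_mulVec, dotProduct_sub, sub_re]

theorem hf_add' (H H' : Matrix (Fin n) (Fin n) ℂ) (v : Fin n → ℂ) :
    hf (H + H') v = hf H v + hf H' v := by
  simp only [hf, Matrix.add_mulVec, dotProduct_add, add_re]

theorem hf_smul' (c : ℝ) (H : Matrix (Fin n) (Fin n) ℂ) (v : Fin n → ℂ) :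
    hf ((c : ℂ) • H) v = c * hf H v := by
  simp only [hf, Matrix.smul_mulVec, dotProduct_smul, smul_eq_mul, re_ofReal_mul]

theorem continuous_hf' (H : Matrix (Fin n) (Fin n) ℂ) : Continuous fun v => hf H v :=
  continuous_hf.comp (continuous_const.prodMk continuous_id)

theorem blk_single (X : Matrix (Fin 1) (Fin 1) ℂ) :
    blk (g := n) (d := 1) 0 X = X 0 0 • Matrix.single (Fin.last n) (Fin.last n) (1 : ℂ) := by
  symm
  refine Crest.Agent.R273.Sus_333.blk_ext _ _ (fun a b => ?_) (fun a b => ?_) (fun a b => ?_)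
    (fun a b => ?_)
  · have h : ¬ (Fin.last n = Fin.castAdd 1 a) := (Fin.castSucc_lt_last a).ne'
    simp [Matrix.single_apply, h]
  · have ha : (Fin.natAdd n a : Fin (n + 1)) = Fin.last n := by
      ext; simp
    have hb : (Fin.natAdd n b : Fin (n + 1)) = Fin.last n := by
      ext; simp
    rw [ha, hb, Subsingleton.elim a 0, Subsingleton.elim b 0]
    simp
  · have h : ¬ (Fin.last n = Fin.castAdd 1 a) := (Fin.castSucc_lt_last a).ne'
    simp [Matrix.single_apply, h]
  · have h : ¬ (Fin.last n = Fin.castAdd 1 b) := (Fin.castSucc_lt_last b).ne'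
    simp [Matrix.single_apply, h]

/-- forms which are nonnegative on transversal vectors -/
theorem psd_of_dense {H : Matrix (Fin n) (Fin n) ℂ} (hH : H.IsHermitian) {P : (Fin n → ℂ) → Prop}
    (h : ∀ v, P v → 0 ≤ hf H v) {v1 : Fin n → ℂ}
    (hP : ∀ v, ¬ P v → ∀ t : ℝ, t ≠ 0 → P (v + (t : ℂ) • v1)) : H.PosSemidef := by
  refine psd_of_hf hH fun v _ => ?_
  by_cases hv : P v
  · exact h v hv
  have hc : Continuous fun t : ℝ => hf H (v + (t : ℂ) • v1) :=
    (continuous_hf' H).comp (by fun_prop)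
  have h1 : ContinuousAt (fun t : ℝ => hf H (v + (t : ℂ) • v1)) 0 := hc.continuousAt
  have h2 : Tendsto (fun t : ℝ => hf H (v + (t : ℂ) • v1)) (𝓝[≠] 0) (𝓝 (hf H v)) := by
    have h3 := h1.tendsto
    simp only [ofReal_zero, zero_smul, add_zero] at h3
    exact h3.mono_left nhdsWithin_le_nhds
  refine ge_of_tendsto h2 ?_
  filter_upwards [self_mem_nhdsWithin] with t ht
  exact h _ (hP v hv t ht)

end mat

section leaf

variable {n : ℕ} {M : Type} [TopologicalSpace M] {A : Atl (2 * n) M} {σ : HSymp A}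

theorem tf_eq (F : LFib A σ) {x y : M} (hx : x ∈ F.Om) (hy : y ∈ F.Tf x) :
    y ∈ F.Om ∧ F.Tf y = F.Tf x := by
  obtain ⟨τ, h1, h2, -⟩ := F.tube x hx
  have h3 := hy
  rw [τ.fib x h1] at h3
  refine ⟨h2 h3.1, ?_⟩
  rw [τ.fib x h1, τ.fib y h3.1, h3.2]

theorem mem_tf (F : LFib A σ) {x : M} (hx : x ∈ F.Om) : x ∈ F.Tf x := by
  obtain ⟨τ, h1, h2, -⟩ := F.tube x hx
  rw [τ.fib x h1]
  exact ⟨h1, rfl⟩

/-- families from base maps are leafy -/
theorem leafy_of {F : LFib A σ} {m : ℕ} {D : Set (Cn m)} {Γ : Cn m → M} (F1 : Fam A n m D)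
    (h1 : ∀ v, F1.i v ∈ F.Tf (Γ (F1.y v)))
    (h2 : ∀ u ∈ D, ∀ x ∈ F.Tf (Γ u), ∃ v, F1.y v = u ∧ F1.i v = x)
    (hOm : ∀ u ∈ D, Γ u ∈ F.Om) : Leafy F F1 := by
  intro v
  obtain ⟨h3, h4⟩ := tf_eq F (hOm _ (F1.mem v)) (h1 v)
  refine ⟨h3, ?_⟩
  rw [h4]
  ext x
  constructor
  · intro hx
    obtain ⟨v', h5, h6⟩ := h2 _ (F1.mem v) x hx
    exact ⟨v', h5, h6⟩
  · rintro ⟨v', h5, rfl⟩
    have h6 : F1.y v' = F1.y v := h5
    rw [← h6]
    exact h1 v'

end leaf

end

end Crest.Agent.R281.D6_986
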