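import Crest.Agent.R281.D6g_986

/-!
# R281 (S0424), S6-ASM (helper986), part h: the disc families and `|w|²`

* `exists_tangent` : transversal vectors are tangent to the disc family;
* `pull_sq`        : the pull back of `∂∂̄|w|²` to a disc family;
* `den_fb`         : `det fb K` is a density.
-/

set_option autoImplicit false
set_option linter.unusedSectionVars false

open Set Filter Topology Complex MeasureTheory
open scoped ContDiff Matrix ComplexConjugate Manifold ComplexOrder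

namespace Crest.Agent.R281.D6_986

open Crest.Agent.R275.Geo Crest.Agent.R275.Core144 Crest.Agent.R275.GC293
open Crest.Agent.R273.Defs_333 Crest.Agent.R273.Kah_333 Crest.Agent.R273.HM_333
open Crest.Agent.R273.Hess_333 Crest.Agent.R273.HessB_333 Crest.Agent.R273.KahI_645
open Crest.Agent.R273.Map_835 Crest.Agent.R275.EDR890
open Crest.Agent.R273.StokesV_332 (intD Den NonnegD)
open Crest.Agent.R275.Prod363 (sndL app)
open Crest.Agent.R273.Sus_333 (blk)
open Crest.Agent.R281.Defs_273 Crest.Agent.R281.LEnd_10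
open Crest.Agent.R281.S6D_664 (LFib Fam fb)
open Crest.Agent.R281.S6V_664 (BM LineD)
open Crest.Agent.R281.Fib2_425 (push Prj)
open Crest.Agent.R281.Fib4_425 (Tst)

noncomputable section

section tan

variable {n : ℕ} {M : Type} [TopologicalSpace M] {A : Atl (2 * n) M} {Tf : M → Set M}

/-- the differential of the tube map along a disc family -/
theorem tube_disc (D : LineD A Tf n n) (F1 : Fam A n 1 D.UU)
    (h1 : ∀ v, F1.i v ∈ Tf (D.pt (D.cp (F1.y v))))
    {v : F1.V} {k : F1.B.ι} (hk : v ∈ (F1.B.e k).source) (hv : F1.i v = D.pt (D.cp (F1.y v)))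
    {τ : S6D_664.Tube A n Tf} (hτ : D.pt (D.cp (F1.y v)) ∈ τ.W) (ζ : Cn (n + 1)) :
    fderiv ℂ (fun z => τ.f ((A.e D.i).symm z)) (A.e D.i (F1.i v))
      (fderiv ℂ (rd F1.B A F1.i k D.i) (F1.B.e k v) ζ) =
    (((2 * D.R : ℝ) : ℂ) * ζ (Fin.last n)) •
      fderiv ℂ (fun z => τ.f ((A.e D.i).symm z)) (A.e D.i (F1.i v)) D.v := by
  set w0 := F1.B.e k v with hw0
  have hw0t : w0 ∈ (F1.B.e k).target := (F1.B.e k).map_source hk
  have hsy : (F1.B.e k).symm w0 = v := (F1.B.e k).left_inv hk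
  have hu : F1.y v ∈ D.UU := F1.mem v
  have hcR : ‖D.cp (F1.y v)‖ < D.R := D.cp_lt hu.1
  have hi : F1.i v ∈ (A.e D.i).source := by rw [hv]; exact D.pt_mem hcR.le
  have hdm : w0 ∈ dm F1.B A F1.i k D.i := mem_dm hk hi
  have h2 : DifferentiableAt ℂ (rd F1.B A F1.i k D.i) w0 := F1.hol.diffAt hdm
  have hy : ∀ w ∈ (F1.B.e k).target, F1.y ((F1.B.e k).symm w) = sndL n 1 w := by
    intro w hw
    ext b
    rw [← F1.last k _ ((F1.B.e k).map_target hw) b, (F1.B.e k).right_inv hw]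
    rfl
  have hyv : sndL n 1 w0 = F1.y v := by rw [← hy w0 hw0t, hsy]
  have hrd0 : rd F1.B A F1.i k D.i w0 = A.e D.i (F1.i v) := by
    show A.e D.i (F1.i ((F1.B.e k).symm w0)) = _
    rw [hsy]
  have hW0 : F1.i v ∈ τ.W := by rw [hv]; exact hτ
  have h3 : DifferentiableAt ℂ (fun z => τ.f ((A.e D.i).symm z)) (A.e D.i (F1.i v)) :=
    S6V_664.Tube.diffAt τ hi hW0
  have hez : A.e D.i (F1.i v) = D.z + D.cp (F1.y v) • D.v := by
    rw [hv]; exact D.e_pt hcR.le
  -- the composition is a function of the base coordinate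
  have h4 : (fun w => (fun z => τ.f ((A.e D.i).symm z)) (rd F1.B A F1.i k D.i w)) =ᶠ[𝓝 w0]
      fun w => (fun z => τ.f ((A.e D.i).symm z)) (D.z + D.cp (sndL n 1 w) • D.v) := by
    have h5 : dm F1.B A F1.i k D.i ∩ {w | sndL n 1 w ∈ D.UU ∩ {u | D.pt (D.cp u) ∈ τ.W}} ∈
        𝓝 w0 := by
      refine inter_mem ((F1.hol.isOpen_dm k D.i).mem_nhds hdm) ?_
      have h6 : D.UU ∩ {u | D.pt (D.cp u) ∈ τ.W} ∈ 𝓝 (sndL n 1 w0) := by
        rw [hyv]
        have h7 := (D.discBM.isOpen_pre τ.oW).mem_nhds (show F1.y v ∈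
          D.discBM.U ∩ D.discBM.Γ ⁻¹' τ.W from ⟨hu, hτ⟩)
        exact h7
      exact (sndL n 1).continuous.continuousAt.preimage_mem_nhds h6
    filter_upwards [h5] with w hw
    have hwt : w ∈ (F1.B.e k).target := hw.1.1
    show τ.f ((A.e D.i).symm (A.e D.i (F1.i ((F1.B.e k).symm w)))) =
      τ.f (D.pt (D.cp (sndL n 1 w)))
    rw [(A.e D.i).left_inv hw.1.2]
    have h6 := h1 ((F1.B.e k).symm w)
    rw [hy w hwt, τ.fib _ hw.2.2] at h6
    exact h6.2
  have h7 : HasFDerivAt (fun w => (fun z => τ.f ((A.e D.i).symm z)) (rd F1.B A F1.i k D.i w))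
      ((fderiv ℂ (fun z => τ.f ((A.e D.i).symm z)) (A.e D.i (F1.i v))).comp
        (fderiv ℂ (rd F1.B A F1.i k D.i) w0)) w0 := by
    have h8 := h3.hasFDerivAt
    rw [← hrd0] at h8
    have h9 := h8.comp w0 h2.hasFDerivAt
    rwa [hrd0] at h9
  have h10 : HasFDerivAt (fun w : Cn (n + 1) => D.z + D.cp (sndL n 1 w) • D.v)
      ((((((2 * D.R : ℝ) : ℂ)) • (EuclideanSpace.proj (Fin.last n) :
        Cn (n + 1) →L[ℂ] ℂ))).smulRight D.v) w0 := by
    have h11 : HasFDerivAt (fun w : Cn (n + 1) => w (Fin.last n))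
        (EuclideanSpace.proj (Fin.last n) : Cn (n + 1) →L[ℂ] ℂ) w0 :=
      (EuclideanSpace.proj (Fin.last n) : Cn (n + 1) →L[ℂ] ℂ).hasFDerivAt
    have h12 : HasFDerivAt (fun w : Cn (n + 1) => D.cp (sndL n 1 w))
        (((((2 * D.R : ℝ) : ℂ)) • (EuclideanSpace.proj (Fin.last n) :
        Cn (n + 1) →L[ℂ] ℂ))) w0 := by
      have h13 := (h11.sub_const LineD.kp).const_mul (((2 * D.R : ℝ) : ℂ))
      exact h13
    exact (h12.smul_const D.v).const_add _
  have h14 : HasFDerivAt (fun w => (fun z => τ.f ((A.e D.i).symm z))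
      (D.z + D.cp (sndL n 1 w) • D.v))
      ((fderiv ℂ (fun z => τ.f ((A.e D.i).symm z)) (A.e D.i (F1.i v))).comp
        ((((((2 * D.R : ℝ) : ℂ)) • (EuclideanSpace.proj (Fin.last n) :
        Cn (n + 1) →L[ℂ] ℂ))).smulRight D.v)) w0 := by
    have h15 : D.z + D.cp (sndL n 1 w0) • D.v = A.e D.i (F1.i v) := by rw [hyv, hez]
    have h16 := h3.hasFDerivAt
    rw [← h15] at h16
    have h17 := HasFDerivAt.comp w0 (g := fun z => τ.f ((A.e D.i).symm z)) h16 h10
    rwa [h15] at h17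
  have h18 := (h14.congr_of_eventuallyEq h4).unique h7
  have h19 := congrArg (fun L => L ζ) h18
  simp only [ContinuousLinearMap.comp_apply] at h19
  rw [← h19, ← map_smul]
  rfl

/-- transversal vectors are tangent to the disc family -/
theorem exists_tangent (D : LineD A Tf n n) (F1 : Fam A n 1 D.UU)
    (h1 : ∀ v, F1.i v ∈ Tf (D.pt (D.cp (F1.y v))))
    {v : F1.V} {k : F1.B.ι} (hk : v ∈ (F1.B.e k).source) (hv : F1.i v = D.pt (D.cp (F1.y v)))
    {τ : S6D_664.Tube A n Tf} (hτ : D.pt (D.cp (F1.y v)) ∈ τ.W) :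
    ∃ η : Cn (n + 1), fderiv ℂ (rd F1.B A F1.i k D.i) (F1.B.e k v) η = D.v := by
  have hu : F1.y v ∈ D.UU := F1.mem v
  have hcR : ‖D.cp (F1.y v)‖ < D.R := D.cp_lt hu.1
  have hi : F1.i v ∈ (A.e D.i).source := by rw [hv]; exact D.pt_mem hcR.le
  have hW0 : F1.i v ∈ τ.W := by rw [hv]; exact hτ
  have hRc : ((2 * D.R : ℝ) : ℂ) ≠ 0 := by
    have := D.R_pos
    exact_mod_cast (by positivity : (2 * D.R : ℝ) ≠ 0)
  have hinj := F1.imm k D.i v hk hi
  have hsur := τ.sub D.i (F1.i v) ⟨hi, hW0⟩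
  have htd := tube_disc D F1 h1 hk hv hτ
  set T : Cn (n + 1) →L[ℂ] Cn (2 * n) := fderiv ℂ (rd F1.B A F1.i k D.i) (F1.B.e k v) with hT
  set φ : Cn (2 * n) →L[ℂ] Cn n := fderiv ℂ (fun z => τ.f ((A.e D.i).symm z))
    (A.e D.i (F1.i v)) with hφ
  -- the fibre directions
  let ι0 : Cn n →ₗ[ℂ] Cn (n + 1) :=
    { toFun := fun ζ => app ζ 0
      map_add' := fun a b => by
        ext c
        induction c using Fin.addCases with
        | left c => simp
        | right c => simp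
      map_smul' := fun a b => by
        ext c
        induction c using Fin.addCases with
        | left c => simp
        | right c => simp }
  have hlast : ∀ ζ : Cn n, (ι0 ζ) (Fin.last n) = 0 := by
    intro ζ
    have : (Fin.last n : Fin (n + 1)) = Fin.natAdd n (0 : Fin 1) := by ext; simp
    show (app ζ (0 : Cn 1)) (Fin.last n) = 0
    rw [this]
    simp
  have hker : ∀ ζ : Cn n, (T.toLinearMap.comp ι0) ζ ∈ LinearMap.ker φ.toLinearMap := by
    intro ζ
    rw [LinearMap.mem_ker]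
    show φ (T (ι0 ζ)) = 0
    rw [htd, hlast, mul_zero, zero_smul]
  let T' : Cn n →ₗ[ℂ] LinearMap.ker φ.toLinearMap := (T.toLinearMap.comp ι0).codRestrict _ hker
  have hT'inj : Function.Injective T' := by
    intro a b hab
    have h3 : T (ι0 a) = T (ι0 b) := congrArg Subtype.val hab
    have h4 := hinj h3
    ext c
    have h5 := congrArg (fun z : Cn (n + 1) => z (Fin.castAdd 1 c)) h4
    simpa [ι0] using h5
  have hfr : Module.finrank ℂ (LinearMap.ker φ.toLinearMap) = n := by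
    have h3 := LinearMap.finrank_range_add_finrank_ker φ.toLinearMap
    rw [LinearMap.range_eq_top.2 hsur, finrank_top, finrank_euclideanSpace_fin,
      finrank_euclideanSpace_fin] at h3
    omega
  have hT'sur : Function.Surjective T' :=
    (LinearMap.injective_iff_surjective_of_finrank_eq_finrank
      (by rw [hfr, finrank_euclideanSpace_fin])).1 hT'inj
  -- the last coordinate vector
  set ε : Cn (n + 1) := EuclideanSpace.single (Fin.last n) (1 : ℂ) with hε
  have h6 : φ (D.v - (((2 * D.R : ℝ) : ℂ))⁻¹ • T ε) = 0 := by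
    rw [map_sub, map_smul, htd, hε]
    simp only [PiLp.single_apply, if_true, mul_one]
    rw [smul_smul, inv_mul_cancel₀ hRc, one_smul, sub_self]
  obtain ⟨ζ, hζ⟩ := hT'sur ⟨D.v - (((2 * D.R : ℝ) : ℂ))⁻¹ • T ε, h6⟩
  have h7 : T (ι0 ζ) = D.v - (((2 * D.R : ℝ) : ℂ))⁻¹ • T ε := congrArg Subtype.val hζ
  refine ⟨ι0 ζ + (((2 * D.R : ℝ) : ℂ))⁻¹ • ε, ?_⟩
  rw [map_add, map_smul, h7, sub_add_cancel]

end tan

section pull

variable {N n : ℕ} {M : Type} [TopologicalSpace M] {A : Atl N M}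

/-- the pull back of `∂∂̄|w|²` to a disc family -/
theorem pull_sq {U : Set M} (hU : IsOpen U) {w : M → ℂ} (hol : ∀ i, HolAt A i U w)
    {D1 : Set (Cn 1)} (hD : IsOpen D1) (F1 : Fam A n 1 D1) {W : Cn 1 → ℂ}
    (hW : DifferentiableOn ℂ W D1) (hWw : ∀ v, w (F1.i v) = W (F1.y v))
    {k : F1.B.ι} {v : F1.V} {i : A.ι} (hk : v ∈ (F1.B.e k).source)
    (hi : F1.i v ∈ (A.e i).source) (hvU : F1.i v ∈ U) :
    (Jp F1.B A F1.i k i v)ᵀ * hsf A (fun y => ‖w y‖ ^ 2) i (F1.i v) *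
      (Jp F1.B A F1.i k i v).map conj =
    hess (fun u => ‖W u‖ ^ 2) (F1.y v) 0 0 • Matrix.single (Fin.last n) (Fin.last n) (1 : ℂ) := by
  set w0 := F1.B.e k v with hw0
  have hw0t : w0 ∈ (F1.B.e k).target := (F1.B.e k).map_source hk
  have hsy : (F1.B.e k).symm w0 = v := (F1.B.e k).left_inv hk
  have hdm : w0 ∈ dm F1.B A F1.i k i := mem_dm hk hi
  have hy : ∀ w ∈ (F1.B.e k).target, F1.y ((F1.B.e k).symm w) = sndL n 1 w := by
    intro w hw
    ext b
    rw [← F1.last k _ ((F1.B.e k).map_target hw) b, (F1.B.e k).right_inv hw]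
    rfl
  have hyv : sndL n 1 w0 = F1.y v := by rw [← hy w0 hw0t, hsy]
  have hrd0 : rd F1.B A F1.i k i w0 = A.e i (F1.i v) := by
    show A.e i (F1.i ((F1.B.e k).symm w0)) = _
    rw [hsy]
  have hTa : AnalyticAt ℂ (rd F1.B A F1.i k i) w0 :=
    Crest.Agent.R266.SCV.analyticOnNhd_of_differentiableOn (F1.hol.isOpen_dm k i)
      (F1.hol.hol k i) _ hdm
  have ho : IsOpen ((A.e i).target ∩ (A.e i).symm ⁻¹' U) :=
    (A.e i).isOpen_inter_preimage_symm hU
  have h1 : ContDiffAt ℝ ∞ (fun z => ‖w ((A.e i).symm z)‖ ^ 2) (A.e i (F1.i v)) :=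
    (contDiffOn_nsq hU (hol i)).contDiffAt (ho.mem_nhds ⟨(A.e i).map_source hi, by
      rw [mem_preimage, (A.e i).left_inv hi]; exact hvU⟩)
  have h2 : ContDiffAt ℝ 2 (fun z => ‖w ((A.e i).symm z)‖ ^ 2) (rd F1.B A F1.i k i w0) := by
    rw [hrd0]
    exact h1.of_le (WithTop.coe_le_coe.2 (le_top : (2 : ℕ∞) ≤ ⊤))
  have h3 := Crest.Agent.R273.LeviR_155.hess_compR hTa h2
  rw [hrd0] at h3
  have h4 : (Jp F1.B A F1.i k i v)ᵀ * hsf A (fun y => ‖w y‖ ^ 2) i (F1.i v) *
      (Jp F1.B A F1.i k i v).map conj =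
      hess (fun z => ‖w ((A.e i).symm (rd F1.B A F1.i k i z))‖ ^ 2) w0 := by
    rw [h3]
    rfl
  rw [h4]
  have h5 : (fun z => ‖w ((A.e i).symm (rd F1.B A F1.i k i z))‖ ^ 2) =ᶠ[𝓝 w0]
      fun z => (fun u => ‖W u‖ ^ 2) (sndL n 1 z) := by
    filter_upwards [(F1.hol.isOpen_dm k i).mem_nhds hdm] with z hz
    show ‖w ((A.e i).symm (A.e i (F1.i ((F1.B.e k).symm z))))‖ ^ 2 = ‖W (sndL n 1 z)‖ ^ 2
    rw [(A.e i).left_inv hz.2, hWw, hy z hz.1]
  have h6 : ContDiffAt ℝ ∞ (fun u => ‖W u‖ ^ 2) (sndL n 1 w0) := by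
    rw [hyv]
    exact (Crest.Agent.R273.FS_333.contDiffAt_of_hol hD hW (F1.mem v)).norm_sq ℝ
  rw [hess_congr h5, Crest.Agent.R273.UpV_914.hess_snd h6, blk_single, hyv]

/-- `det fb K` is a density -/
theorem den_fb {d m : ℕ} {D1 : Set (Cn m)} (F1 : Fam A d m D1) (K : Kah A) :
    Den F1.B (fun k v => (fb ((F1.kah K).g k v)).det) where
  sm i := Fub5_163.smAt_fbD F1 K i
  tr i j x hx := by
    let D : SK1_507.Ada F1.B F1.y :=
      { r := fun _ => 1
        b := fun _ => 0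
        r_ne := fun _ => one_ne_zero
        eq := fun i x hx c => by
          rw [one_mul]
          show _ = _ + (0 : ℂ)
          rw [add_zero]
          exact (F1.last i x hx c).symm }
    have h1 := SK1_507.fib_tr D (g := (F1.kah K).g) hx ((F1.kah K).tr i j x hx)
    have h2 := SK1_507.det_Jm D hx
    have h3 : (D.r i / D.r j) ^ m = 1 := by
      show ((1 : ℂ) / 1) ^ m = 1
      simp
    rw [h3, mul_one] at h2
    have h4 : Crest.Agent.R275.SerG398.dens F1.B i j x =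
        (Jm F1.B i j x).det * conj (Jm F1.B i j x).det := by
      rw [Complex.mul_conj, Complex.normSq_eq_norm_sq]
      rfl
    show (SK1_507.fib (F1.kah K).g i x).det = Crest.Agent.R275.SerG398.dens F1.B i j x *
      (SK1_507.fib (F1.kah K).g j x).det
    rw [h1, Matrix.det_mul, Matrix.det_mul, Matrix.det_transpose, Fub5_163.det_conj_map, h4, h2]
    ring

end pull

end

end Crest.Agent.R281.D6_986
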