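import Crest.Agent.R281.D6h_986

/-!
# R281 (S0424), S6-ASM (helper986), part i: `UPre ⟹ UOut`

* `UPre.form` : the curvature on transversal vectors;
* `UPre.strict`, `UPre.out`.
-/

set_option autoImplicit false
set_option linter.unusedSectionVars false

open Set Filter Topology Complex MeasureTheory
open scoped ContDiff Matrix ComplexConjugate Manifold ComplexOrder

namespace Crest.Agent.R281.D6_986

open Crest.Agent.R275.Geo Crest.Agent.R275.Core144 Crest.Agent.R275.GC293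
open Crest.Agent.R273.Defs_333 Crest.Agent.R273.Kah_333 Crest.Agent.R273.HM_333
open Crest.Agent.R273.Hess_333 Crest.Agent.R273.HessB_333 Crest.Agent.R273.KahI_645
open Crest.Agent.R273.Map_835 Crest.Agent.R275.EDR890
open Crest.Agent.R273.StokesV_332 (intD Den NonnegD)
open Crest.Agent.R275.Prod363 (sndL app)
open Crest.Agent.R273.Sus_333 (blk)
open Crest.Agent.R281.Defs_273 Crest.Agent.R281.LEnd_10
open Crest.Agent.R281.S6D_664 (LFib Fam fb)
open Crest.Agent.R281.S6V_664 (BM LineD)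
open Crest.Agent.R281.Fib2_425 (push Prj)
open Crest.Agent.R281.Fib4_425 (Tst)

noncomputable section

/-- congruence by a rectangular matrix -/
theorem psd_congr' {N k : ℕ} {J : Matrix (Fin N) (Fin k) ℂ} {H : Matrix (Fin N) (Fin N) ℂ}
    (h : H.PosSemidef) : (Jᵀ * H * J.map conj).PosSemidef := by
  have h1 := h.conjTranspose_mul_mul_same (J.map conj)
  have h2 : (J.map conj)ᴴ = Jᵀ := by
    ext a b
    simp [Matrix.conjTranspose_apply]
  rwa [h2] at h1

theorem mt_mulVec' {N k : ℕ} (T : Cn k →L[ℂ] Cn N) (η : Cn k) :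
    (Crest.Agent.R273.Map_835.mt T) *ᵥ (fun a => η a) = fun b => (T η) b := by
  have h1 : η = ∑ a, η a • (EuclideanSpace.single a (1 : ℂ) : Cn k) := by
    ext b
    rw [WithLp.ofLp_sum, Finset.sum_apply]
    simp [PiLp.single_apply]
  funext b
  conv_rhs => rw [h1, map_sum]
  rw [WithLp.ofLp_sum, Finset.sum_apply]
  simp only [Matrix.mulVec, dotProduct, Crest.Agent.R273.Map_835.mt, Matrix.of_apply]
  refine Finset.sum_congr rfl fun a _ => ?_
  rw [map_smul, mul_comm]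
  rfl

section main

variable {n : ℕ} {M : Type} [TopologicalSpace M] [T2Space M] [SecondCountableTopology M]
  {A : Atl (2 * n) M} {σ : HSymp A} {L : LB A} {K : Kah A} {o : OmOut σ L} {h : HM L}

theorem UPre.form (up : UPre K o h) {U : Set M} {w : M → ℂ} (hb : BasicOn o.F U w) {B : ℝ}
    (hB : 0 < B)
    (hdom : ∀ i, ∀ x ∈ (A.e i).source, x ∈ U → x ∈ o.F.Om →
      ((B : ℂ) • K.g i x - hsf A (fun y => ‖w y‖ ^ 2) i x).PosSemidef)
    {i : A.ι} {x : M} (hx : x ∈ (A.e i).source) (hxU : x ∈ U) (hxO : x ∈ o.F.Om)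
    {τ : S6D_664.Tube A n o.F.Tf} (hτ : x ∈ τ.W) (ξ : Cn (2 * n))
    (hξ : fderiv ℂ (fun z => τ.f ((A.e i).symm z)) (A.e i x) ξ ≠ 0) :
    0 ≤ hf (cur h i x + hsf A up.u i x - ((up.a * up.vol / B : ℝ) : ℂ) •
      hsf A (fun y => ‖w y‖ ^ 2) i x) (star fun a => ξ a) := by
  -- the line
  obtain ⟨R, hR, hRt⟩ : ∃ R : ℝ, 0 < R ∧ ∀ c : ℂ, ‖c‖ ≤ R → A.e i x + c • ξ ∈ (A.e i).target := by
    have h1 : ContinuousAt (fun c : ℂ => A.e i x + c • ξ) 0 := by fun_prop
    have h2 : (A.e i).target ∈ 𝓝 (A.e i x + (0 : ℂ) • ξ) := by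
      rw [zero_smul, add_zero]
      exact (A.e i).open_target.mem_nhds ((A.e i).map_source hx)
    obtain ⟨ε, hε, hball⟩ := Metric.eventually_nhds_iff_ball.1 (h1.eventually h2)
    refine ⟨ε / 2, half_pos hε, fun c hc => hball c ?_⟩
    rw [mem_ball_zero_iff]
    linarith
  let D : LineD A o.F.Tf n n :=
    { hN := two_mul n
      Om := U ∩ o.F.Om
      oOm := hb.op.inter o.F.op
      tb := fun x hx => by
        obtain ⟨τ, h1, -⟩ := o.F.tube x hx.2
        exact ⟨τ, h1⟩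
      i := i
      z := A.e i x
      v := ξ
      R := R
      R_pos := hR
      mem := hRt }
  have hpt0 : D.pt 0 = x := by
    show (A.e i).symm (A.e i x + (0 : ℂ) • ξ) = x
    rw [zero_smul, add_zero, (A.e i).left_inv hx]
  have hnb : (0 : ℂ) ∉ D.bad := by
    rintro ⟨-, h1 | h1⟩
    · rw [hpt0] at h1
      exact h1 ⟨hxU, hxO⟩
    · have h2 := (D.kr_iff (c := 0) (by rw [norm_zero]; exact hR.le) (τ := τ)
        (by rw [hpt0]; exact hτ)).1 h1
      have h3 : D.z + (0 : ℂ) • D.v = A.e i x := by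
        show A.e i x + (0 : ℂ) • ξ = _
        rw [zero_smul, add_zero]
      rw [h3] at h2
      exact hξ h2
  let u0 : Cn 1 := WithLp.toLp 2 fun _ => LineD.kp
  have hcp0 : D.cp u0 = 0 := by
    show ((2 * D.R : ℝ) : ℂ) * (LineD.kp - LineD.kp) = 0
    rw [sub_self, mul_zero]
  have hu0 : u0 ∈ D.UU := by
    refine ⟨?_, ?_⟩
    · show ‖LineD.kp - LineD.kp‖ < 1 / 2
      rw [sub_self, norm_zero]; norm_num
    · rw [hcp0]; exact hnb
  have hgood : ∀ u ∈ D.UU, D.pt (D.cp u) ∈ U ∧ D.pt (D.cp u) ∈ o.F.Om := fun u hu =>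
    (D.not_bad (D.cp_lt hu.1).le hu.2).1
  obtain ⟨F1, h1, h2⟩ := D.exists_disc ⟨u0, hu0⟩
  have hL : Leafy o.F F1 := leafy_of (Γ := fun u => D.pt (D.cp u)) F1 h1 h2
    fun u hu => (hgood u hu).2
  obtain ⟨v0, hy0, hv0⟩ := h2 u0 hu0 x (by rw [hcp0, hpt0]; exact mem_tf o.F hxO)
  -- the function on the base
  let W : Cn 1 → ℂ := fun u => w (D.pt (D.cp u))
  have hWw : ∀ v, w (F1.i v) = W (F1.y v) := fun v =>
    hb.const _ (hgood _ (F1.mem v)).1 (hgood _ (F1.mem v)).2 _ (h1 v)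
  have hFU : ∀ v, F1.i v ∈ U := fun v =>
    hb.sat _ (hgood _ (F1.mem v)).1 (hgood _ (F1.mem v)).2 (h1 v)
  have hWd : DifferentiableOn ℂ W D.UU := by
    intro u hu
    have h3 : DifferentiableAt ℂ (fun z => w ((A.e i).symm z)) (D.z + D.cp u • D.v) := by
      refine (hb.hol i).differentiableAt
        (((A.e i).isOpen_inter_preimage_symm hb.op).mem_nhds ⟨?_, ?_⟩)
      · exact D.mem _ (D.cp_lt hu.1).le
      · exact (hgood u hu).1
    have h4 : DifferentiableAt ℂ (fun u : Cn 1 => D.z + D.cp u • D.v) u := by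
      unfold LineD.cp
      fun_prop
    exact (DifferentiableAt.comp u (g := fun z => w ((A.e i).symm z)) h3
      h4).differentiableWithinAt
  have hWs : ContDiffOn ℝ ∞ (fun u => ‖W u‖ ^ 2) D.UU := fun u hu =>
    ((Crest.Agent.R273.FS_333.contDiffAt_of_hol D.isOpen_UU hWd hu).norm_sq
      ℝ).contDiffWithinAt
  set t : Cn 1 → ℝ := fun u => (hess (fun u => ‖W u‖ ^ 2) u 0 0).re with ht
  have htc : ∀ u ∈ D.UU, hess (fun u => ‖W u‖ ^ 2) u 0 0 = (t u : ℂ) := by
    intro u hu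
    have h3 := hess_herm (hWs.contDiffAt (D.isOpen_UU.mem_nhds hu))
    have h4 := h3.apply 0 0
    exact (Complex.conj_eq_iff_re.1 h4).symm
  have hprj : Prj F1.B F1.y D.UU := ⟨F1.last, F1.mem, F1.proper, D.isOpen_UU⟩
  -- the pull back
  obtain ⟨k, hk⟩ := F1.B.cover v0
  have hxv : F1.i v0 ∈ (A.e i).source := by rw [hv0]; exact hx
  have hid := up.id D.UU D.isOpen_UU F1 hL k v0 hk i hxv
  have hsq := pull_sq hb.op hb.hol D.isOpen_UU F1 hWd hWw hk hxv (hFU v0)
  -- reality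
  have hdet : ∀ k, ∀ v ∈ (F1.B.e k).source, 0 ≤ ((F1.kah K).g k v).det.re ∧
      ((F1.kah K).g k v).det.im = 0 := fun k v hv => Fub5_163.nonnegD_det (F1.kah K) k v hv
  have hPim : (push F1.P (fun k v => ((F1.kah K).g k v).det) (F1.y v0)).im = 0 :=
    Fib4_425.push_real hprj (F1.mem v0) fun k v hv _ => (hdet k v hv).2
  set P : ℝ := (push F1.P (fun k v => ((F1.kah K).g k v).det) (F1.y v0)).re with hP
  have hPc : push F1.P (fun k v => ((F1.kah K).g k v).det) (F1.y v0) = (P : ℂ) := by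
    apply Complex.ext
    · rw [ofReal_re]
    · rw [ofReal_im, hPim]
  -- the inequality
  have key : t (F1.y v0) * up.vol ≤ B * P := by
    have hφ : F1.B.Sm (fun v => ((t (F1.y v) : ℝ) : ℂ)) := by
      have h3 : ContDiffOn ℝ ∞ (fun u => ((t u : ℝ) : ℂ)) D.UU :=
        (contDiffOn_hess D.isOpen_UU hWs 0 0).congr fun u hu => (htc u hu).symm
      exact hprj.sm h3
    have h3 := Fib4_425.push_mono (P := F1.P) hprj
      (η := fun k v => ((t (F1.y v) : ℝ) : ℂ) * (fb ((F1.kah K).g k v)).det)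
      (θ := fun k v => (B : ℂ) * ((F1.kah K).g k v).det)
      ((den_fb F1 K).mulF hφ) ((Fub5_163.den_det (F1.kah K)).smul (B : ℂ))
      (fun k v hv => by
        have h4 := Fub5_163.fbD_re F1 K hv
        have h5 : (fb ((F1.kah K).g k v)).det.im = 0 := by
          have h6 : Fub5_163.fbD F1 K k v = (fb ((F1.kah K).g k v)).det := rfl
          rw [← h6, ← h4, ofReal_im]
        rw [Complex.im_ofReal_mul, Complex.im_ofReal_mul, h5, (hdet k v hv).2, mul_zero,
          mul_zero]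
        exact ⟨rfl, rfl⟩)
      (fun k v hv => by
        rw [Complex.re_ofReal_mul, Complex.re_ofReal_mul]
        refine det_le_of_psd hB ?_
        obtain ⟨j, hj⟩ := A.cover (F1.i v)
        have h4 := psd_congr' (J := Jp F1.B A F1.i k j v)
          (hdom j (F1.i v) hj (hFU v) (hL v).1)
        have h5 := pull_sq hb.op hb.hol D.isOpen_UU F1 hWd hWw hv hj (hFU v)
        have h6 : (F1.kah K).g k v = (Jp F1.B A F1.i k j v)ᵀ * K.g j (F1.i v) *
            (Jp F1.B A F1.i k j v).map conj := pullI_g K F1.hol F1.imm hv hj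
        rw [Matrix.mul_sub, Matrix.sub_mul, h5, Matrix.mul_smul, Matrix.smul_mul, ← h6,
          htc _ (F1.mem v)] at h4
        exact h4)
      (F1.y v0) (F1.mem v0)
    rw [Fib2_425.push_mul_base hprj (fun u => ((t u : ℝ) : ℂ)) (F1.mem v0),
      up.fvol D.UU D.isOpen_UU F1 hL _ (F1.mem v0), Fib2_425.push_smul hprj _ (F1.mem v0), hPc,
      ← ofReal_mul, ← ofReal_mul, ofReal_re, ofReal_re] at h3
    exact h3
  -- the tangent vector
  have hD0 : F1.i v0 = D.pt (D.cp (F1.y v0)) := by rw [hy0, hcp0, hpt0, hv0]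
  obtain ⟨η, hη⟩ := exists_tangent D F1 h1 hk hD0 (τ := τ) (by rw [← hD0, hv0]; exact hτ)
  have hJ : (Jp F1.B A F1.i k i v0) *ᵥ (fun a => η a) = fun a => ξ a := by
    have h3 := mt_mulVec' (fderiv ℂ (rd F1.B A F1.i k i) (F1.B.e k v0)) η
    have h4 : (fun b => (fderiv ℂ (rd F1.B A F1.i k i) (F1.B.e k v0) η) b) = fun a => ξ a := by
      have h5 : fderiv ℂ (rd F1.B A F1.i k i) (F1.B.e k v0) η = ξ := hη
      rw [h5]
    rw [← h4, ← h3]
    rfl
  rw [← hJ, ← hf_pull]
  rw [hv0] at hid hsq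
  rw [Matrix.mul_sub, Matrix.sub_mul, hid, Matrix.mul_smul, Matrix.smul_mul, hsq,
    htc _ (F1.mem v0), hPc, smul_smul, ← sub_smul]
  have h7 : (((up.a : ℂ) * (P : ℂ)) - ((up.a * up.vol / B : ℝ) : ℂ) * (t (F1.y v0) : ℂ)) =
      ((up.a * P - up.a * up.vol / B * t (F1.y v0) : ℝ) : ℂ) := by
    push_cast
    ring
  rw [h7, hf_single]
  refine mul_nonneg ?_ (by positivity)
  have h8 : up.a * up.vol / B * t (F1.y v0) = up.a / B * (t (F1.y v0) * up.vol) := by ring
  have h9 : up.a / B * (t (F1.y v0) * up.vol) ≤ up.a / B * (B * P) :=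
    mul_le_mul_of_nonneg_left key (div_nonneg up.a_pos.le hB.le)
  have h10 : up.a / B * (B * P) = up.a * P := by
    field_simp
  rw [h8]
  linarith

theorem UPre.strict (up : UPre K o h) (hn : 1 ≤ n) {U : Set M} {w : M → ℂ}
    (hb : BasicOn o.F U w) {B : ℝ} (hB : 0 < B)
    (hdom : ∀ i, ∀ x ∈ (A.e i).source, x ∈ U → x ∈ o.F.Om →
      ((B : ℂ) • K.g i x - hsf A (fun y => ‖w y‖ ^ 2) i x).PosSemidef)
    {i : A.ι} {x : M} (hx : x ∈ (A.e i).source) (hxU : x ∈ U) (hxO : x ∈ o.F.Om) :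
    (cur h i x + hsf A up.u i x - ((up.a * up.vol / B : ℝ) : ℂ) •
      hsf A (fun y => ‖w y‖ ^ 2) i x).PosSemidef := by
  obtain ⟨τ, hτ, hτO, -⟩ := o.F.tube x hxO
  have hsur := τ.sub i x ⟨hx, hτ⟩
  set φ : Cn (2 * n) →L[ℂ] Cn n := fderiv ℂ (fun z => τ.f ((A.e i).symm z)) (A.e i x) with hφ
  obtain ⟨ξ1, hξ1⟩ := hsur (EuclideanSpace.single ⟨0, hn⟩ (1 : ℂ))
  have hξ1' : φ ξ1 ≠ 0 := by
    rw [hξ1]
    intro h0
    have h1 := congrArg (fun z : Cn n => z ⟨0, hn⟩) h0
    simp at h1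
  have hH : (cur h i x + hsf A up.u i x - ((up.a * up.vol / B : ℝ) : ℂ) •
      hsf A (fun y => ‖w y‖ ^ 2) i x).IsHermitian := by
    refine ((cur_herm h i hx).add ?_).sub ?_
    · exact hess_herm (up.sm i _ ((A.e i).map_source hx) (by rw [(A.e i).left_inv hx]; exact hxO))
    · have h1 := hsf_herm (f := fun y => ‖w y‖ ^ 2) hb.op (contDiffOn_nsq hb.op (hb.hol i)) hx hxU
      unfold Matrix.IsHermitian at h1 ⊢
      rw [Matrix.conjTranspose_smul, h1]
      congr 1
      exact Complex.conj_ofReal _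
  refine psd_of_dense hH (P := fun v => φ (WithLp.toLp 2 (star v)) ≠ 0) (fun v hv => ?_)
    (v1 := star fun a => ξ1 a) (fun v hv t ht => ?_)
  · have h1 := up.form hb hB hdom hx hxU hxO hτ (WithLp.toLp 2 (star v)) hv
    have h2 : (star fun a => (WithLp.toLp 2 (star v) : Cn (2 * n)) a) = v := star_star v
    rwa [h2] at h1
  · show φ (WithLp.toLp 2 (star (v + (t : ℂ) • star fun a => ξ1 a))) ≠ 0
    have h1 : (WithLp.toLp 2 (star (v + (t : ℂ) • star fun a => ξ1 a)) : Cn (2 * n)) =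
        WithLp.toLp 2 (star v) + (t : ℂ) • ξ1 := by
      ext a
      simp
    have h2 : φ (WithLp.toLp 2 (star v)) = 0 := by
      by_contra h3
      exact hv h3
    rw [h1, map_add, map_smul, h2, zero_add]
    exact smul_ne_zero (by exact_mod_cast ht) hξ1'

/-- the node `UOut` from 425's output -/
def UPre.out (up : UPre K o h) (hn : 1 ≤ n) : UOut K o h where
  u := up.u
  B := up.B
  bdd := up.bdd
  sm := up.sm
  pos := fun i x hx hxO => by
    have hb : BasicOn o.F univ (fun _ : M => (0 : ℂ)) :=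
      ⟨isOpen_univ, fun _ _ _ => subset_univ _, fun i => differentiableOn_const _,
        fun _ _ _ _ _ => rfl⟩
    have h0 : ∀ i x, hsf A (fun _ : M => ‖(0 : ℂ)‖ ^ 2) i x = 0 := fun i x => by
      have : (fun _ : M => ‖(0 : ℂ)‖ ^ 2) = fun _ => (0 : ℝ) := by simp
      rw [this]
      exact hess_zero' _
    have h1 := up.strict hn hb one_pos (fun i x hx _ _ => by
      rw [h0, sub_zero, ofReal_one, one_smul]
      exact (K.pos i x hx).posSemidef) hx (mem_univ x) hxO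
    rwa [h0, smul_zero, sub_zero] at h1
  c := up.a * up.vol
  c_pos := mul_pos up.a_pos up.vol_pos
  strict := fun _ _ hb _ hB hdom i x hx hxU hxO => up.strict hn hb hB hdom hx hxU hxO

end main

end

end Crest.Agent.R281.D6_986
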