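import Crest.Agent.R281.Lf2_425
import Crest.Agent.R273.GreenG_5

/-!
# R281 (S0424), leaf integrals, part 3 (helper425): mixed determinants

* `quad`      : exact quadrature `∫₀¹ p = ∑_j qw D j * p(j)` for polynomials of degree `≤ D`;
* `xi A C`    : `∫₀¹ det(A + t C) dt`; `xi_sum`, `xi_conj`, `det_add_sub` :
  `det(A + C) - det A = ∑_j qw n j * tr(adj(A + j C) C)` (size `n + 1`);
* `mixDen`    : the leaf density `a * ∫₀¹ det(Jᵀ (G + t (G' - G)) J̄) dt`, `pb_mixDen`,
  `mixDen_smOn`; `detDen K`.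
-/

set_option autoImplicit false
set_option linter.unusedSectionVars false

open Set Filter Topology Complex Function MeasureTheory
open scoped ContDiff Matrix ComplexConjugate Polynomial

namespace Crest.Agent.R281.Lf3_425

open Crest.Agent.R275.Geo Crest.Agent.R275.Core144 Crest.Agent.R275.EDR890
open Crest.Agent.R273.Map_835 (HolMap Jp dm mem_dm)
open Crest.Agent.R273.Defs_333 Crest.Agent.R273.Kah_333 Crest.Agent.R273.KahI_645
open Crest.Agent.R273.Green_5 Crest.Agent.R273.Piola_5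
open Crest.Agent.R273.VolInv_5 (dp eval_dp natDegree_dp eval_derivative_dp)
open Crest.Agent.R273.StokesV_332 Crest.Agent.R281.S6D_664 Crest.Agent.R281.Lf1_425
open Crest.Agent.R273.FIb0_597 (ch mem_ch)
open Crest.Agent.R281.Fub_192 Crest.Agent.R281.Lf2_425

noncomputable section

/-! ### exact quadrature -/

/-- quadrature weights with nodes `0, 1, …, D` -/
def qw (D : ℕ) (j : Fin (D + 1)) : ℂ :=
  ∫ t in (0 : ℝ)..1, (Lagrange.basis Finset.univ (fun i : Fin (D + 1) => (((i : ℕ) : ℝ) : ℂ)) j).eval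
    (t : ℂ)

theorem continuous_evalR (p : ℂ[X]) : Continuous (fun t : ℝ => p.eval (t : ℂ)) :=
  p.continuous.comp Complex.continuous_ofReal

theorem quad {D : ℕ} {p : ℂ[X]} (hp : p.natDegree ≤ D) :
    ∫ t in (0 : ℝ)..1, p.eval (t : ℂ) =
      ∑ j : Fin (D + 1), qw D j * p.eval (((j : ℕ) : ℝ) : ℂ) := by
  set v : Fin (D + 1) → ℂ := fun i => (((i : ℕ) : ℝ) : ℂ) with hv
  have hinj : Set.InjOn v (Finset.univ : Finset (Fin (D + 1))) := by
    intro i _ j _ h
    have h1 : ((i : ℕ) : ℝ) = ((j : ℕ) : ℝ) := Complex.ofReal_injective h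
    exact Fin.ext (Nat.cast_injective h1)
  have hdeg : p.degree < (Finset.univ : Finset (Fin (D + 1))).card := by
    rw [Finset.card_univ, Fintype.card_fin]
    refine lt_of_le_of_lt Polynomial.degree_le_natDegree ?_
    exact_mod_cast Nat.lt_succ_of_le hp
  have h1 := Lagrange.eq_interpolate (f := p) hinj hdeg
  have h2 : ∀ t : ℝ, p.eval (t : ℂ) = ∑ j : Fin (D + 1), p.eval (v j) *
      (Lagrange.basis Finset.univ v j).eval (t : ℂ) := by
    intro t
    conv_lhs => rw [h1]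
    rw [Lagrange.interpolate_apply, Polynomial.eval_finsetSum]
    refine Finset.sum_congr rfl fun j _ => ?_
    rw [Polynomial.eval_mul, Polynomial.eval_C]
  have h4 : ∫ t in (0 : ℝ)..1, p.eval (t : ℂ) = ∫ t in (0 : ℝ)..1, ∑ j : Fin (D + 1),
      p.eval (v j) * (Lagrange.basis Finset.univ v j).eval (t : ℂ) := by
    congr 1
    funext t
    exact h2 t
  rw [h4, intervalIntegral.integral_finsetSum]
  · refine Finset.sum_congr rfl fun j _ => ?_
    rw [intervalIntegral.integral_const_mul, mul_comm]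
    rfl
  · intro j _
    exact (((continuous_evalR _).const_mul _).intervalIntegrable _ _)

theorem sum_qw (D : ℕ) : ∑ j : Fin (D + 1), qw D j = 1 := by
  have h := quad (D := D) (p := 1) (by simp)
  simpa using h.symm

/-! ### mixed determinants -/

section alg

variable {n : ℕ}

/-- `∫₀¹ det(A + t C) dt` -/
def xi (A C : Matrix (Fin n) (Fin n) ℂ) : ℂ := ∫ t in (0 : ℝ)..1, (A + (t : ℂ) • C).det

theorem xi_sum (A C : Matrix (Fin n) (Fin n) ℂ) :
    xi A C = ∑ j : Fin (n + 1), qw n j * (A + ((((j : ℕ) : ℝ) : ℂ)) • C).det := by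
  unfold xi
  have h := quad (natDegree_dp A C)
  simp only [eval_dp] at h
  exact h

theorem xi_zero (A : Matrix (Fin n) (Fin n) ℂ) : xi A 0 = A.det := by
  unfold xi
  simp

theorem det_map_conj (S : Matrix (Fin n) (Fin n) ℂ) : (S.map conj).det = conj S.det := by
  rw [← RingHom.mapMatrix_apply, ← RingHom.map_det]

theorem xi_conj (A C S : Matrix (Fin n) (Fin n) ℂ) :
    xi (Sᵀ * A * S.map conj) (Sᵀ * C * S.map conj) = ((‖S.det‖ ^ 2 : ℝ) : ℂ) * xi A C := by
  unfold xi
  rw [← intervalIntegral.integral_const_mul]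
  congr 1
  funext t
  have h1 : Sᵀ * A * S.map conj + (t : ℂ) • (Sᵀ * C * S.map conj) =
      Sᵀ * (A + (t : ℂ) • C) * S.map conj := by
    rw [Matrix.mul_add, Matrix.add_mul, Matrix.mul_smul, Matrix.smul_mul]
  rw [h1, Matrix.det_mul, Matrix.det_mul, Matrix.det_transpose, det_map_conj]
  have h2 : S.det * conj S.det = ((‖S.det‖ ^ 2 : ℝ) : ℂ) := by
    rw [Complex.mul_conj, Complex.normSq_eq_norm_sq]
  rw [← h2]
  ring

/-- the determinant along a segment, size `n + 1` -/
theorem det_add_sub (A C : Matrix (Fin (n + 1)) (Fin (n + 1)) ℂ) :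
    (A + C).det - A.det = ∑ j : Fin (n + 1), qw n j *
      ((A + ((((j : ℕ) : ℝ) : ℂ)) • C).adjugate * C).trace := by
  have hdeg : (Polynomial.derivative (dp A C)).natDegree ≤ n := by
    have h1 := Polynomial.natDegree_derivative_le (dp A C)
    have h2 := natDegree_dp A C
    omega
  have h := quad hdeg
  simp only [eval_derivative_dp] at h
  rw [← h]
  have h3 : ∀ t : ℝ, HasDerivAt (fun s : ℝ => (dp A C).eval (s : ℂ))
      (((A + (t : ℂ) • C).adjugate * C).trace) t := by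
    intro t
    rw [← eval_derivative_dp]
    exact ((dp A C).hasDerivAt (t : ℂ)).comp_ofReal
  have h4 := intervalIntegral.integral_eq_sub_of_hasDerivAt (a := 0) (b := 1)
    (f := fun s : ℝ => (dp A C).eval (s : ℂ))
    (f' := fun t : ℝ => ((A + (t : ℂ) • C).adjugate * C).trace) (fun t _ => h3 t) ?_
  · rw [h4]
    simp only [eval_dp]
    simp
  · have h5 : (fun t : ℝ => ((A + (t : ℂ) • C).adjugate * C).trace) =
        fun t : ℝ => (Polynomial.derivative (dp A C)).eval (t : ℂ) := by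
      funext t
      rw [eval_derivative_dp]
    rw [h5]
    exact (continuous_evalR _).intervalIntegrable _ _

end alg

/-! ### the leaf density of mixed determinants -/

variable {N d m : ℕ} {M : Type} [TopologicalSpace M] {A : Atl N M} {U : Set (Cn m)}
  {G G' : A.ι → M → Matrix (Fin N) (Fin N) ℂ}

/-- pull-back of a matrix by a frame -/
def pm (J : Matrix (Fin N) (Fin d) ℂ) (G : Matrix (Fin N) (Fin N) ℂ) : Matrix (Fin d) (Fin d) ℂ :=
  Jᵀ * G * J.map conj

theorem pm_mul (J : Matrix (Fin N) (Fin d) ℂ) (S : Matrix (Fin d) (Fin d) ℂ)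
    (G : Matrix (Fin N) (Fin N) ℂ) : pm (J * S) G = Sᵀ * pm J G * S.map conj := by
  unfold pm
  rw [Matrix.transpose_mul, Matrix.map_mul]
  simp only [Matrix.mul_assoc]

theorem pm_tr (J : Matrix (Fin N) (Fin d) ℂ) (T G : Matrix (Fin N) (Fin N) ℂ) :
    pm (T * J) G = pm J (Tᵀ * G * T.map conj) := by
  unfold pm
  rw [Matrix.transpose_mul, Matrix.map_mul]
  simp only [Matrix.mul_assoc]

theorem pm_sub (J : Matrix (Fin N) (Fin d) ℂ) (G G' : Matrix (Fin N) (Fin N) ℂ) :
    pm J (G - G') = pm J G - pm J G' := by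
  unfold pm
  rw [Matrix.mul_sub, Matrix.sub_mul]

/-- the leaf density `a * ∫₀¹ det(Jᵀ (G + t (G' - G)) J̄) dt` -/
def mixDen (d : ℕ) (hG : CF A G) (hG' : CF A G') (a : M → ℝ) : LDen A d where
  Φ i x J := (a x : ℂ) * xi (pm (Matrix.of J) (G i x)) (pm (Matrix.of J) (G' i x - G i x))
  hom i x _ J S := by
    show (a x : ℂ) * xi (pm (J * S) (G i x)) (pm (J * S) (G' i x - G i x)) =
      _ * ((a x : ℂ) * xi (pm J (G i x)) (pm J (G' i x - G i x)))
    rw [pm_mul, pm_mul, xi_conj]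
    ring
  tr i j x hx J := by
    show (a x : ℂ) * xi (pm J (G i x)) (pm J (G' i x - G i x)) =
      (a x : ℂ) * xi (pm (Jm A i j x * J) (G j x)) (pm (Jm A i j x * J) (G' j x - G j x))
    rw [pm_tr, pm_tr, hG.tr i j x hx, hG'.tr i j x hx, Matrix.mul_sub, Matrix.sub_mul]

theorem fb_pm (J : Matrix (Fin N) (Fin (d + m)) ℂ) (G : Matrix (Fin N) (Fin N) ℂ) :
    fb (Jᵀ * G * J.map conj) = pm (fc J) G := by
  ext a b
  simp [fb, pm, fc, Matrix.mul_apply]

/-- **the density on a family, Kaehler metrics** -/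
theorem pb_mixDen (K K' : Kah A) (a : M → ℝ) (F : Fam A d m U) {k : F.B.ι} {v : F.V}
    (hv : v ∈ (F.B.e k).source) :
    (mixDen d (kah_cf K) (kah_cf K') a).pb F k v = (a (F.i v) : ℂ) *
      xi (fb ((F.kah K).g k v)) (fb ((F.kah K').g k v) - fb ((F.kah K).g k v)) := by
  have hc := mem_ch A (F.i v)
  have h1 : (F.kah K).g k v = _ := pullI_g K F.hol F.imm hv hc
  have h2 : (F.kah K').g k v = _ := pullI_g K' F.hol F.imm hv hc
  have h3 : fb ((F.kah K).g k v) = pm (fc (Jp F.B A F.i k (ch A (F.i v)) v))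
      (K.g (ch A (F.i v)) (F.i v)) := by
    rw [h1]; exact fb_pm _ _
  have h4 : fb ((F.kah K').g k v) = pm (fc (Jp F.B A F.i k (ch A (F.i v)) v))
      (K'.g (ch A (F.i v)) (F.i v)) := by
    rw [h2]; exact fb_pm _ _
  rw [h3, h4, ← pm_sub]
  rfl

theorem contDiffAt_det {E : Type*} [NormedAddCommGroup E] [NormedSpace ℝ E] {n : ℕ}
    {F : E → Matrix (Fin n) (Fin n) ℂ} {z : E} (h : ∀ a b, ContDiffAt ℝ ∞ (fun x => F x a b) z) :
    ContDiffAt ℝ ∞ (fun x => (F x).det) z := by
  simp only [Matrix.det_apply]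
  refine ContDiffAt.sum fun σ _ => ?_
  have h1 : ContDiffAt ℝ ∞ (fun x => ∏ i, F x (σ i) i) z :=
    contDiffAt_prod fun i _ => h _ _
  exact h1.const_smul _

/-- smoothness of the mixed density where `a` is smooth -/
theorem mixDen_smOn (hG : CF A G) (hG' : CF A G') {a : M → ℝ} {O : Set M}
    (ha : ∀ i, ∀ z ∈ (A.e i).target, (A.e i).symm z ∈ O →
      ContDiffAt ℝ ∞ (fun w => a ((A.e i).symm w)) z) :
    (mixDen d hG hG' a).SmOn O := by
  intro i z hz hO J
  show ContDiffAt ℝ ∞ (fun q : Cn N × (Fin N → Fin d → ℂ) => ((a ((A.e i).symm q.1) : ℝ) : ℂ) *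
    xi (pm (Matrix.of q.2) (G i ((A.e i).symm q.1)))
      (pm (Matrix.of q.2) (G' i ((A.e i).symm q.1) - G i ((A.e i).symm q.1)))) (z, J)
  simp only [xi_sum]
  have hfst : ContDiffAt ℝ ∞ (fun q : Cn N × (Fin N → Fin d → ℂ) => q.1) (z, J) :=
    contDiffAt_fst
  have h1 : ContDiffAt ℝ ∞ (fun q : Cn N × (Fin N → Fin d → ℂ) =>
      ((a ((A.e i).symm q.1) : ℝ) : ℂ)) (z, J) := by
    have h2 : ContDiffAt ℝ ∞ (fun q : Cn N × (Fin N → Fin d → ℂ) => a ((A.e i).symm q.1)) (z, J) :=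
      ContDiffAt.comp (z, J) (g := fun w => a ((A.e i).symm w))
        (f := fun q : Cn N × (Fin N → Fin d → ℂ) => q.1) (ha i z hz hO) hfst
    exact Complex.ofRealCLM.contDiff.contDiffAt.comp (z, J) h2
  have hg : ∀ {H : A.ι → M → Matrix (Fin N) (Fin N) ℂ}, CF A H → ∀ a b,
      ContDiffAt ℝ ∞ (fun q : Cn N × (Fin N → Fin d → ℂ) => H i ((A.e i).symm q.1) a b) (z, J) := by
    intro H hH a b
    exact ContDiffAt.comp (z, J) (g := fun w => H i ((A.e i).symm w) a b)
      (f := fun q : Cn N × (Fin N → Fin d → ℂ) => q.1)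
      ((hH.sm i a b).contDiffAt ((A.e i).open_target.mem_nhds hz)) hfst
  have hJ : ∀ (a : Fin N) (b : Fin d),
      ContDiffAt ℝ ∞ (fun q : Cn N × (Fin N → Fin d → ℂ) => q.2 a b) (z, J) := by
    intro a b
    have h3 : ContDiffAt ℝ ∞ (fun q : Cn N × (Fin N → Fin d → ℂ) => q.2) (z, J) := contDiffAt_snd
    exact contDiffAt_pi.1 (contDiffAt_pi.1 h3 a) b
  have hJc : ∀ (a : Fin N) (b : Fin d),
      ContDiffAt ℝ ∞ (fun q : Cn N × (Fin N → Fin d → ℂ) => conj (q.2 a b)) (z, J) := fun a b =>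
    Complex.conjCLE.contDiff.contDiffAt.comp (z, J) (hJ a b)
  have hpm : ∀ {H : (Cn N × (Fin N → Fin d → ℂ)) → Matrix (Fin N) (Fin N) ℂ},
      (∀ a b, ContDiffAt ℝ ∞ (fun q => H q a b) (z, J)) → ∀ a b,
      ContDiffAt ℝ ∞ (fun q : Cn N × (Fin N → Fin d → ℂ) => pm (Matrix.of q.2) (H q) a b)
        (z, J) := by
    intro H hH a b
    simp only [pm, Matrix.mul_apply, Matrix.transpose_apply, Matrix.map_apply, Matrix.of_apply]
    exact ContDiffAt.sum fun c _ => ContDiffAt.mul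
      (ContDiffAt.sum fun e _ => (hJ e a).mul (hH e c)) (hJc c b)
  refine h1.mul (ContDiffAt.sum fun j _ => ?_)
  refine contDiffAt_const.mul (contDiffAt_det fun a b => ?_)
  refine (hpm (H := fun q => G i ((A.e i).symm q.1)) (hg hG) a b).add ?_
  refine contDiffAt_const.mul (hpm (H := fun q => G' i ((A.e i).symm q.1) -
    G i ((A.e i).symm q.1)) (fun a b => (hg hG' a b).sub (hg hG a b)) a b)

/-- the volume density of `K` -/
def detDen (d : ℕ) (K : Kah A) : LDen A d := mixDen d (kah_cf K) (kah_cf K) (fun _ => 1)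

theorem pb_detDen (K : Kah A) (F : Fam A d m U) {k : F.B.ι} {v : F.V}
    (hv : v ∈ (F.B.e k).source) : (detDen d K).pb F k v = (fb ((F.kah K).g k v)).det := by
  unfold detDen
  rw [pb_mixDen K K _ F hv, sub_self, xi_zero]
  simp

theorem detDen_smOn (K : Kah A) (O : Set M) : (detDen d K).SmOn O :=
  mixDen_smOn _ _ fun _ _ _ _ => contDiffAt_const

/-- the volume of a leaf depends only on its image -/
theorem vol_unique [T2Space M] (K : Kah A) (F F' : Fam A d 0 univ) (h : range F.i = range F'.i) :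
    intD F.P (fun k v => ((F.kah K).g k v).det) = intD F'.P (fun k v => ((F'.kah K).g k v).det) := by
  have h1 := leaf_unique (Φ := detDen d K) F F' h (detDen_smOn K univ) fun _ => mem_univ _
  have h2 : ∀ F : Fam A d 0 univ, intD F.P ((detDen d K).pb F) =
      intD F.P (fun k v => ((F.kah K).g k v).det) := by
    intro F
    refine intD_congr F.P fun k v hv => ?_
    rw [pb_detDen K F hv]
    rfl
  rwa [h2, h2] at h1

end

end Crest.Agent.R281.Lf3_425
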