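import Crest.Agent.R281.Fib4_425
import Crest.Agent.R281.Lf3_425

/-!
# R281 (S0424), leaf S6-FIB, part 5 (helper425): the fibre integral of `tr(adj(g) ∂∂̄H)`

* `push_tr_adj`  : `f_*(tr(adj(g) ∂∂̄H)) = ∑_k ∂_k f_*(∑_b adj(g)_{b,y_k} ∂̄_b H)`;
* `push_grad`    : `f_*(∑_a adj(g)_{y_k,a} ∂_a H) = ∑_l ∂_l f_*(H adj(g)_{y_k,y_l})`;
* `push_tr_ddb`  : `g` Hermitian, `H` real:
  `f_*(tr(adj(g) ∂∂̄H)) = ∑_k ∑_l ∂_k ∂̄_l f_*(H adj(g)_{y_l,y_k})`;
* `push_det_sub` : base of dimension one: `f_*(det(g + ∂∂̄H) - det g) =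
  ∂ ∂̄ f_*(H * ∫₀¹ det fb(g + t ∂∂̄H) dt)`.
-/

set_option autoImplicit false
set_option linter.unusedSectionVars false

open Set Filter Topology Complex MeasureTheory
open scoped ContDiff ComplexConjugate Matrix

namespace Crest.Agent.R281.Fib5_425

open Crest.Agent.R275.Geo Crest.Agent.R275.Tor812 Crest.Agent.R275.TorS666
open Crest.Agent.R275.Core144 Crest.Agent.R275.EDR890
open Crest.Agent.R275.C1d194 Crest.Agent.R275.Pai323 Crest.Agent.R275.OmT75
open Crest.Agent.R275.SerG398 (lint dens DPair)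
open Crest.Agent.R273.Defs_333 Crest.Agent.R273.Hess_333 Crest.Agent.R273.Kah_333
open Crest.Agent.R273.Green_5
open Crest.Agent.R273.StokesV_332 Crest.Agent.R281.Fib1_425 Crest.Agent.R281.Fib2_425
open Crest.Agent.R281.Fib3_425 Crest.Agent.R281.Fib4_425 Crest.Agent.R281.S6D_664
open Crest.Agent.R281.Lf3_425

noncomputable section

variable {d m : ℕ} {V : Type} [TopologicalSpace V] {y : V → Cn m} {U : Set (Cn m)}

section any

variable {B : Atl (d + m) V} {P : Part B} {H : V → ℂ}
  {g : B.ι → V → Matrix (Fin (d + m)) (Fin (d + m)) ℂ}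

theorem vd10_adj (hg : CF B g) {φ u : V → ℂ} (hφ : ∀ i, B.SmAt i φ) (hu : ∀ i, B.SmAt i u) :
    VD10 B (fun i a x => adjY B g φ u i x a) :=
  ⟨(v10_adj hg hφ hu).sm, (v10_adj hg hφ hu).tr⟩

theorem dl_const0 (i : B.ι) (a : Fin (d + m)) (c : ℂ) (x : V) : dl B i a (fun _ => c) x = 0 := by
  unfold dl
  rw [dj_eq_wd]
  exact wd_const _ _ _

variable [T2Space V]

/-- first step -/
theorem push_tr_adj (h : Prj B y U) (hg : CF B g) (hH : ∀ i, B.SmAt i H) {w : Cn m} (hw : w ∈ U) :
    push P (fun i x => ((g i x).adjugate * hm B H i x).trace) w =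
      ∑ k, dj k (push P (fun i x => ∑ b, (g i x).adjugate b (Fin.natAdd d k) *
        B.db i b H x)) w := by
  have h1 := transport10 (P := P) h
    (vd10_adj hg (φ := fun _ => (1 : ℂ)) (u := H) (fun _ => contDiffOn_const) hH) w hw
  have h2 : push P (fun i x => ∑ a, dl B i a (fun x => adjY B g (fun _ => (1 : ℂ)) H i x a) x) w =
      push P (fun i x => ((g i x).adjugate * hm B H i x).trace) w := by
    refine push_congr h fun i x hx _ => ?_
    rw [div_adjY hg (φ := fun _ => (1 : ℂ)) contDiffOn_const (hH i) hx]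
    simp only [dl_const0, mul_zero, zero_mul, Finset.sum_const_zero, add_zero, one_mul]
  rw [← h2, h1]
  refine Finset.sum_congr rfl fun k _ => ?_
  congr 2
  funext i x
  unfold adjY
  rw [one_mul]

/-- `ȳ_k` is smooth -/
theorem smAt_yc (h : Prj B y U) (k : Fin m) (i : B.ι) : B.SmAt i (fun v => conj (y v k)) := by
  have h1 : ContDiffOn ℝ ∞ (fun z : Cn m => conj (z k)) U := by
    refine ContDiff.contDiffOn ?_
    exact Complex.conjCLE.contDiff.comp
      ((EuclideanSpace.proj (𝕜 := ℂ) k).restrictScalars ℝ).contDiff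
  exact h.sm h1 i

theorem dl_y (h : Prj B y U) {i : B.ι} {x : V} (hx : x ∈ (B.e i).source) (k : Fin m)
    (a : Fin (d + m)) : dl B i a (fun v => y v k) x = if a = Fin.natAdd d k then 1 else 0 := by
  have h1 : (fun z => y ((B.e i).symm z) k) =ᶠ[𝓝 (B.e i x)] fun z => z (Fin.natAdd d k) := by
    filter_upwards [(B.e i).open_target.mem_nhds ((B.e i).map_source hx)] with z hz
    rw [h.y_symm hz, bs_apply]
  have h2 : HasFDerivAt (fun z : Cn (d + m) => z (Fin.natAdd d k))
      ((EuclideanSpace.proj (𝕜 := ℂ) (Fin.natAdd d k)).restrictScalars ℝ : Cn (d + m) →L[ℝ] ℂ)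
      (B.e i x) :=
    ((EuclideanSpace.proj (𝕜 := ℂ) (Fin.natAdd d k)).restrictScalars ℝ :
      Cn (d + m) →L[ℝ] ℂ).hasFDerivAt
  unfold dl dj
  rw [h1.fderiv_eq, h2.fderiv]
  by_cases ha : a = Fin.natAdd d k
  · subst ha
    simp only [if_pos]
    show (1 / 2 : ℂ) * ((EuclideanSpace.single (Fin.natAdd d k) (1 : ℂ) : Cn (d + m))
      (Fin.natAdd d k) - I * (EuclideanSpace.single (Fin.natAdd d k) I : Cn (d + m))
      (Fin.natAdd d k)) = 1
    simp only [PiLp.single_apply, if_pos]
    rw [Complex.I_mul_I]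
    norm_num
  · rw [if_neg ha]
    show (1 / 2 : ℂ) * ((EuclideanSpace.single a (1 : ℂ) : Cn (d + m))
      (Fin.natAdd d k) - I * (EuclideanSpace.single a I : Cn (d + m))
      (Fin.natAdd d k)) = 0
    simp only [PiLp.single_apply, if_neg (fun h => ha h.symm : ¬ Fin.natAdd d k = a)]
    simp

theorem db_yc (h : Prj B y U) {i : B.ι} {x : V} (hx : x ∈ (B.e i).source) (k : Fin m)
    (a : Fin (d + m)) :
    B.db i a (fun v => conj (y v k)) x = if a = Fin.natAdd d k then 1 else 0 := by
  have h1 := dl_conj (A := B) i a (fun v => conj (y v k)) x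
  simp only [Complex.conj_conj] at h1
  rw [dl_y h hx k a] at h1
  have h2 := congrArg conj h1
  rw [Complex.conj_conj] at h2
  rw [← h2]
  split_ifs <;> simp

theorem hm_yc (h : Prj B y U) {i : B.ι} {x : V} (hx : x ∈ (B.e i).source) (k : Fin m) :
    hm B (fun v => conj (y v k)) i x = 0 := by
  ext a b
  rw [hm_apply]
  have h1 : dl B i a (B.db i b (fun v => conj (y v k))) x =
      dl B i a (fun _ => if b = Fin.natAdd d k then (1 : ℂ) else 0) x := by
    unfold dl
    refine dj_congr ?_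
    filter_upwards [(B.e i).open_target.mem_nhds ((B.e i).map_source hx)] with z hz
    exact db_yc h ((B.e i).map_target hz) k b
  rw [h1, dl_const0]
  rfl

/-- second step -/
theorem push_grad (h : Prj B y U) (hg : CF B g) (hH : ∀ i, B.SmAt i H) (k : Fin m) {w : Cn m}
    (hw : w ∈ U) :
    push P (fun i x => ∑ a, (g i x).adjugate (Fin.natAdd d k) a * dl B i a H x) w =
      ∑ l, dj l (push P (fun i x => H x *
        (g i x).adjugate (Fin.natAdd d k) (Fin.natAdd d l))) w := by
  have h1 := transport10 (P := P) h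
    (vd10_adj hg (φ := H) (u := fun v => conj (y v k)) hH (smAt_yc h k)) w hw
  have h2 : push P (fun i x => ∑ a, dl B i a
      (fun x => adjY B g H (fun v => conj (y v k)) i x a) x) w =
      push P (fun i x => ∑ a, (g i x).adjugate (Fin.natAdd d k) a * dl B i a H x) w := by
    refine push_congr h fun i x hx _ => ?_
    rw [div_adjY hg (hH i) (smAt_yc h k i) hx, hm_yc h hx, Matrix.mul_zero, Matrix.trace_zero,
      mul_zero, zero_add]
    refine Finset.sum_congr rfl fun a _ => ?_
    rw [Finset.sum_eq_single (Fin.natAdd d k)]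
    · rw [db_yc h hx, if_pos rfl, mul_one]
    · intro b _ hb
      rw [db_yc h hx, if_neg hb, mul_zero]
    · intro hb
      exact absurd (Finset.mem_univ _) hb
  rw [← h2, h1]
  refine Finset.sum_congr rfl fun l _ => ?_
  have h3 : push P (fun i x => adjY B g H (fun v => conj (y v k)) i x (Fin.natAdd d l)) =ᶠ[𝓝 w]
      push P (fun i x => H x * (g i x).adjugate (Fin.natAdd d k) (Fin.natAdd d l)) := by
    filter_upwards with z
    refine push_congr h fun i x hx _ => ?_
    unfold adjY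
    congr 1
    rw [Finset.sum_eq_single (Fin.natAdd d k)]
    · rw [db_yc h hx, if_pos rfl, mul_one]
    · intro b _ hb
      rw [db_yc h hx, if_neg hb, mul_zero]
    · intro hb
      exact absurd (Finset.mem_univ _) hb
  exact dj_congr h3

/-- conjugate of the adjugate of a Hermitian matrix -/
theorem adj_conj {n : ℕ} {G : Matrix (Fin n) (Fin n) ℂ} (hG : G.IsHermitian) (a b : Fin n) :
    conj (G.adjugate a b) = G.adjugate b a := by
  have h1 : G.adjugateᴴ = G.adjugate := by
    rw [Matrix.adjugate_conjTranspose, hG.eq]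
  have h2 := congrFun (congrFun h1 b) a
  rw [Matrix.conjTranspose_apply] at h2
  exact h2

/-- second step, conjugated -/
theorem push_grad_db (h : Prj B y U) (hg : CF B g)
    (hg' : ∀ i, ∀ x ∈ (B.e i).source, (g i x).IsHermitian) {H : V → ℝ} (hH : B.Sm H)
    (k : Fin m) {w : Cn m} (hw : w ∈ U) :
    push P (fun i x => ∑ b, (g i x).adjugate b (Fin.natAdd d k) *
        B.db i b (fun v => (H v : ℂ)) x) w =
      ∑ l, dbj l (push P (fun i x => (H x : ℂ) *
        (g i x).adjugate (Fin.natAdd d l) (Fin.natAdd d k))) w := by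
  have hH' : ∀ i, B.SmAt i (fun v => (H v : ℂ)) := fun i => smAt_ofReal (hH i)
  have h1 := push_grad (P := P) h hg hH' k hw
  have h2 := congrArg conj h1
  rw [← push_conj h hw, map_sum] at h2
  have h3 : push P (fun i x => conj (∑ a, (g i x).adjugate (Fin.natAdd d k) a *
      dl B i a (fun v => (H v : ℂ)) x)) w =
      push P (fun i x => ∑ b, (g i x).adjugate b (Fin.natAdd d k) *
        B.db i b (fun v => (H v : ℂ)) x) w := by
    refine push_congr h fun i x hx _ => ?_
    rw [map_sum]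
    refine Finset.sum_congr rfl fun a _ => ?_
    rw [map_mul, adj_conj (hg' i x hx)]
    congr 1
    have h4 := dl_conj (A := B) i a (fun v => (H v : ℂ)) x
    simp only [Complex.conj_ofReal] at h4
    rw [h4, Complex.conj_conj]
  rw [h3] at h2
  rw [h2]
  refine Finset.sum_congr rfl fun l _ => ?_
  rw [← dbj_conj]
  refine dbj_congr ?_
  filter_upwards [h.opn.mem_nhds hw] with z hz
  rw [← push_conj h hz]
  refine push_congr h fun i x hx _ => ?_
  rw [map_mul, Complex.conj_ofReal, adj_conj (hg' i x hx)]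

theorem smAt_Hadj (hg : CF B g) {H : V → ℝ} (hH : B.Sm H) (a b : Fin (d + m)) (i : B.ι) :
    B.SmAt i (fun x => (H x : ℂ) * (g i x).adjugate b a) :=
  (smAt_ofReal (hH i)).mul (smAt_adj hg i a b)

/-- **the fibre integral of `tr(adj(g) ∂∂̄H)`** -/
theorem push_tr_ddb (h : Prj B y U) (hg : CF B g)
    (hg' : ∀ i, ∀ x ∈ (B.e i).source, (g i x).IsHermitian) {H : V → ℝ} (hH : B.Sm H)
    {w : Cn m} (hw : w ∈ U) :
    push P (fun i x => ((g i x).adjugate * hsf B H i x).trace) w =
      ∑ k, ∑ l, dj k (dbj l (push P (fun i x => (H x : ℂ) *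
        (g i x).adjugate (Fin.natAdd d l) (Fin.natAdd d k)))) w := by
  have hH' : ∀ i, B.SmAt i (fun v => (H v : ℂ)) := fun i => smAt_ofReal (hH i)
  have h1 := push_tr_adj (P := P) h hg hH' hw
  have h2 : push P (fun i x => ((g i x).adjugate * hm B (fun v => (H v : ℂ)) i x).trace) w =
      push P (fun i x => ((g i x).adjugate * hsf B H i x).trace) w := by
    refine push_congr h fun i x hx _ => ?_
    rw [hm_ofReal H i hx]
  rw [← h2, h1]
  refine Finset.sum_congr rfl fun k _ => ?_
  have h3 : push P (fun i x => ∑ b, (g i x).adjugate b (Fin.natAdd d k) *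
      B.db i b (fun v => (H v : ℂ)) x) =ᶠ[𝓝 w] fun z => ∑ l, dbj l (push P (fun i x => (H x : ℂ) *
        (g i x).adjugate (Fin.natAdd d l) (Fin.natAdd d k))) z := by
    filter_upwards [h.opn.mem_nhds hw] with z hz
    exact push_grad_db h hg hg' hH k hz
  rw [dj_congr h3, dj_sum]
  intro l _
  exact ((Fib4_425.contDiffOn_dbj h.opn (contDiffOn_push h (smAt_Hadj hg hH _ _)) l).contDiffAt
    (h.opn.mem_nhds hw)).differentiableAt (by simp)

end any

/-! ### linearity of the derivatives on the base -/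

section lin

theorem dj_lin {ι : Type*} (s : Finset ι) (c : ι → ℂ) {F : ι → Cn m → ℂ} {z : Cn m}
    (hF : ∀ j ∈ s, DifferentiableAt ℝ (F j) z) (k : Fin m) :
    dj k (fun w => ∑ j ∈ s, c j * F j w) z = ∑ j ∈ s, c j * dj k (F j) z := by
  rw [dj_sum fun j hj => (hF j hj).const_mul (c j)]
  refine Finset.sum_congr rfl fun j hj => ?_
  unfold dj
  rw [fderiv_const_mul (hF j hj)]
  simp only [_root_.smul_apply, smul_eq_mul]
  ring

theorem dbj_lin {ι : Type*} (s : Finset ι) (c : ι → ℂ) {F : ι → Cn m → ℂ} {z : Cn m}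
    (hF : ∀ j ∈ s, DifferentiableAt ℝ (F j) z) (k : Fin m) :
    dbj k (fun w => ∑ j ∈ s, c j * F j w) z = ∑ j ∈ s, c j * dbj k (F j) z := by
  rw [R275.OmT75.dbj_sum fun j hj => (hF j hj).const_mul (c j)]
  refine Finset.sum_congr rfl fun j hj => ?_
  unfold dbj
  rw [fderiv_const_mul (hF j hj)]
  simp only [_root_.smul_apply, smul_eq_mul]
  ring

theorem ddb_lin (hU : IsOpen U) {ι : Type*} (s : Finset ι) (c : ι → ℂ) {F : ι → Cn m → ℂ}
    (hF : ∀ j ∈ s, ContDiffOn ℝ ∞ (F j) U) (k l : Fin m) {z : Cn m} (hz : z ∈ U) :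
    dj k (dbj l (fun w => ∑ j ∈ s, c j * F j w)) z = ∑ j ∈ s, c j * dj k (dbj l (F j)) z := by
  have h1 : dbj l (fun w => ∑ j ∈ s, c j * F j w) =ᶠ[𝓝 z] fun w => ∑ j ∈ s, c j * dbj l (F j) w := by
    filter_upwards [hU.mem_nhds hz] with w hw
    exact dbj_lin s c (fun j hj => ((hF j hj).contDiffAt (hU.mem_nhds hw)).differentiableAt
      (by simp)) l
  rw [dj_congr h1]
  exact dj_lin s c (fun j hj => ((Fib4_425.contDiffOn_dbj hU (hF j hj) l).contDiffAt
    (hU.mem_nhds hz)).differentiableAt (by simp)) k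

theorem ddb_congr (hU : IsOpen U) {F G : Cn m → ℂ} (h : EqOn F G U) (k l : Fin m) {z : Cn m}
    (hz : z ∈ U) : dj k (dbj l F) z = dj k (dbj l G) z := by
  refine dj_congr ?_
  filter_upwards [hU.mem_nhds hz] with w hw
  refine dbj_congr ?_
  filter_upwards [hU.mem_nhds hw] with w' hw'
  exact h hw'

end lin

/-! ### base of dimension one -/

section one

variable {B : Atl (d + 1) V} {y : V → Cn 1} {U : Set (Cn 1)} {P : Part B} {H : V → ℝ}
  {g : B.ι → V → Matrix (Fin (d + 1)) (Fin (d + 1)) ℂ}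

theorem natAdd_zero_eq (d : ℕ) (k : Fin 1) : Fin.natAdd d k = Fin.last d := by
  ext
  simp

theorem adj_last (G : Matrix (Fin (d + 1)) (Fin (d + 1)) ℂ) :
    G.adjugate (Fin.last d) (Fin.last d) = (fb (d := d) (m := 1) G).det := by
  rw [Matrix.adjugate_fin_succ_eq_det_submatrix]
  have h1 : G.submatrix (Fin.last d).succAbove (Fin.last d).succAbove =
      fb (d := d) (m := 1) G := by
    rw [Fin.succAbove_last]
    rfl
  rw [h1, ← two_mul, pow_mul]
  simp

theorem fb_add (G G' : Matrix (Fin (d + m)) (Fin (d + m)) ℂ) : fb (G + G') = fb G + fb G' := rfl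

theorem fb_smul (c : ℂ) (G : Matrix (Fin (d + m)) (Fin (d + m)) ℂ) : fb (c • G) = c • fb G := rfl

theorem smAt_detG {n : ℕ} {B : Atl (d + m) V} {i : B.ι} {S : V → Matrix (Fin n) (Fin n) ℂ}
    (h : ∀ a b, B.SmAt i (fun x => S x a b)) : B.SmAt i (fun x => (S x).det) := by
  have h1 : ContDiffOn ℝ ∞ (fun z => (S ((B.e i).symm z)).det) (B.e i).target := by
    simp only [Matrix.det_apply]
    refine ContDiffOn.sum fun σ _ => ?_
    refine ContDiffOn.const_smul _ ?_
    exact contDiffOn_prod fun b _ => h (σ b) b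
  exact h1

theorem smAt_H {B : Atl (d + m) V} {g : B.ι → V → Matrix (Fin (d + m)) (Fin (d + m)) ℂ}
    (hg : CF B g) {H : V → ℝ} (hH : B.Sm H) (i : B.ι) :
    B.SmAt i (fun x => (H x : ℂ) * (fb (g i x)).det) := by
  refine (smAt_ofReal (hH i)).mul ?_
  exact smAt_detG (S := fun x => fb (g i x)) fun a b => hg.sm i _ _

variable [T2Space V]

theorem push_tr_one (h : Prj B y U) (hg : CF B g)
    (hg' : ∀ i, ∀ x ∈ (B.e i).source, (g i x).IsHermitian) (hH : B.Sm H)
    {w : Cn 1} (hw : w ∈ U) :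
    push P (fun i x => ((g i x).adjugate * hsf B H i x).trace) w =
      dj 0 (dbj 0 (push P (fun i x => (H x : ℂ) * (fb (d := d) (m := 1) (g i x)).det))) w := by
  rw [push_tr_ddb h hg hg' hH hw]
  simp only [Fin.sum_univ_one, Fin.isValue, natAdd_zero_eq, adj_last]

/-- **the defect of the fibre volume** -/
theorem push_det_sub (h : Prj B y U) (hg : CF B g)
    (hg' : ∀ i, ∀ x ∈ (B.e i).source, (g i x).IsHermitian) (hH : B.Sm H)
    {w : Cn 1} (hw : w ∈ U) :
    push P (fun i x => (g i x + hsf B H i x).det - (g i x).det) w =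
      dj 0 (dbj 0 (push P (fun i x => (H x : ℂ) *
        xi (fb (d := d) (m := 1) (g i x)) (fb (d := d) (m := 1) (hsf B H i x))))) w := by
  set gj : Fin (d + 1) → B.ι → V → Matrix (Fin (d + 1)) (Fin (d + 1)) ℂ := fun j i x =>
    g i x + (((j : ℕ) : ℝ) : ℂ) • hsf B H i x with hgj
  have hcf : ∀ j, CF B (gj j) := fun j => hg.add ((hsf_cf hH).smul _)
  have hher : ∀ j, ∀ i, ∀ x ∈ (B.e i).source, (gj j i x).IsHermitian := by
    intro j i x hx
    refine (hg' i x hx).add ?_
    have h1 : (hsf B H i x).IsHermitian := R273.GreenM_5.hsf_herm hH hx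
    show ((((j : ℕ) : ℝ) : ℂ) • hsf B H i x)ᴴ = _
    rw [Matrix.conjTranspose_smul, h1.eq]
    congr 1
    exact Complex.conj_ofReal _
  have e1 : push P (fun i x => (g i x + hsf B H i x).det - (g i x).det) w =
      ∑ j : Fin (d + 1), qw d j *
        push P (fun i x => ((gj j i x).adjugate * hsf B H i x).trace) w := by
    have e2 : push P (fun i x => (g i x + hsf B H i x).det - (g i x).det) w =
        push P (fun i x => ∑ j : Fin (d + 1), qw d j *
          ((gj j i x).adjugate * hsf B H i x).trace) w :=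
      push_congr h fun i x _ _ => det_add_sub _ _
    rw [e2, push_finsum h Finset.univ
      (F := fun j i x => qw d j * ((gj j i x).adjugate * hsf B H i x).trace) ?_ hw]
    · exact Finset.sum_congr rfl fun j _ => push_smul h _ hw
    · intro j _ i
      refine contDiffOn_const.mul ?_
      refine (smAt_tr (hcf j) (u := fun v => (H v : ℂ)) (smAt_ofReal (hH i))).congr fun z hz => ?_
      show ((gj j i ((B.e i).symm z)).adjugate * hsf B H i ((B.e i).symm z)).trace =
        ((gj j i ((B.e i).symm z)).adjugate * hm B (fun v => (H v : ℂ)) i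
          ((B.e i).symm z)).trace
      rw [hm_ofReal H i ((B.e i).map_target hz)]
  rw [e1]
  have hsm : ∀ j, ∀ i, B.SmAt i (fun x => (H x : ℂ) * (fb (d := d) (m := 1) (gj j i x)).det) :=
    fun j i => smAt_H (hcf j) hH i
  have e3 : ∀ z ∈ U, push P (fun i x => (H x : ℂ) *
      xi (fb (d := d) (m := 1) (g i x)) (fb (d := d) (m := 1) (hsf B H i x))) z =
      ∑ j : Fin (d + 1), qw d j * push P (fun i x => (H x : ℂ) *
        (fb (d := d) (m := 1) (gj j i x)).det) z := by
    intro z hz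
    have e4 : push P (fun i x => (H x : ℂ) *
        xi (fb (d := d) (m := 1) (g i x)) (fb (d := d) (m := 1) (hsf B H i x))) z =
        push P (fun i x => ∑ j : Fin (d + 1), qw d j * ((H x : ℂ) *
          (fb (d := d) (m := 1) (gj j i x)).det)) z := by
      refine push_congr h fun i x _ _ => ?_
      rw [xi_sum, Finset.mul_sum]
      refine Finset.sum_congr rfl fun j _ => ?_
      rw [← mul_assoc, mul_comm (H x : ℂ), mul_assoc]
      rfl
    rw [e4, push_finsum h Finset.univ (F := fun j i x => qw d j * ((H x : ℂ) *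
      (fb (d := d) (m := 1) (gj j i x)).det)) (fun j _ i => contDiffOn_const.mul (hsm j i)) hz]
    exact Finset.sum_congr rfl fun j _ => push_smul h _ hz
  rw [ddb_congr h.opn e3 0 0 hw, ddb_lin h.opn Finset.univ (qw d)
    (fun j _ => contDiffOn_push h (hsm j)) 0 0 hw]
  refine Finset.sum_congr rfl fun j _ => ?_
  rw [push_tr_one h (hcf j) (hher j) hH hw]

end one

end

end Crest.Agent.R281.Fib5_425
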