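import Crest.Agent.R281.Har3_331

/-!
# R281 (S0424), leaf S6-HARN (helper331), part 4: assembly

* `sm_pull`   : `u ∘ f` is smooth
* `Low`       : the lower bound `c1` (helper389), as a property of `(M, K, h')`
* `osc_of_low`: uniform Harnack inequality for compact connected immersed `T` of bounded volume
-/

set_option autoImplicit false
set_option linter.unusedSectionVars false

open Set Filter Topology Complex MeasureTheory Function
open scoped ContDiff Matrix ComplexConjugate ComplexOrder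

namespace Crest.Agent.R281.Har_331

open Crest.Agent.R275 Crest.Agent.R275.Geo Crest.Agent.R275.Core144 Crest.Agent.R275.EDR890
open Crest.Agent.R273.Defs_333 Crest.Agent.R273.Hess_333 Crest.Agent.R273.HessB_333
open Crest.Agent.R273.HM_333 Crest.Agent.R273.Kah_333 Crest.Agent.R273.Vol_333
open Crest.Agent.R273.Vm_333 Crest.Agent.R273.Map_835 Crest.Agent.R273.KahI_645
open Crest.Agent.R273.Green_5 Crest.Agent.R273.FIa0_597 Crest.Agent.R273.FIb0_597
open Crest.Agent.R273.FIc0_597 Crest.Agent.R273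
open Crest.Agent.R273.SchI_152 (Dg sm_sq Dg_nonneg continuous_Dg)
open Crest.Agent.R281.Glob1_484 Crest.Agent.R281.S6D_664 Crest.Agent.R281.Defs_273

noncomputable section

variable {m n : ℕ}
variable {M T : Type} [TopologicalSpace M] [TopologicalSpace T] {A : Atl n M} {B : Atl m T}
  {L L' : LB A}

theorem sm_pull {f : T → M} (hf : HolMap B A f) {u : M → ℝ} (hu : A.Sm u) :
    B.Sm fun t => u (f t) := by
  intro j z hz
  obtain ⟨i, hi⟩ := A.cover (f ((B.e j).symm z))
  have hz' : z ∈ dm B A f j i := ⟨hz, hi⟩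
  have hy := (B.e j).map_target hz
  have h1 := near_pull hf (u := u) hy hi
  rw [(B.e j).right_inv hz] at h1
  have hT : AnalyticAt ℂ (rd B A f j i) z := hf.analyticAt hz'
  have hTc : ContDiffAt ℝ ∞ (rd B A f j i) z := hT.contDiffAt.restrict_scalars ℝ
  have hv : rd B A f j i z = A.e i (f ((B.e j).symm z)) := rfl
  have h2 : ContDiffAt ℝ ∞ (fun w => u ((A.e i).symm (rd B A f j i w))) z :=
    ContDiffAt.comp z (g := fun z => u ((A.e i).symm z)) (by rw [hv]; exact sm_at hu hi) hTc
  exact (h2.congr_of_eventuallyEq h1).contDiffWithinAt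

theorem hsf_log_nsM (h : HM L) {s : A.ι → M → ℂ} (hs : IsHS L univ s) {i : A.ι}
    {x : M} (hx : x ∈ (A.e i).source) (hp : 0 < nsM h s x) :
    hsf A (fun y => Real.log (nsM h s y)) i x = - cur h i x := by
  have hz := (A.e i).map_source hx
  have h0 : s i x ≠ 0 := by
    intro h0
    rw [nsM_eq h hs hx, nsq, h0] at hp
    simp at hp
  have h0' : (fun w => s i ((A.e i).symm w)) (A.e i x) ≠ 0 := by
    show s i ((A.e i).symm (A.e i x)) ≠ 0
    rw [(A.e i).left_inv hx]; exact h0
  have hhol := hol_at hs i hz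
  have h1 : (fun z => Real.log (nsM h s ((A.e i).symm z))) =ᶠ[𝓝 (A.e i x)]
      fun z => Real.log (‖s i ((A.e i).symm z)‖ ^ 2) - h.wt i z := by
    have hc : ContinuousAt (fun w => s i ((A.e i).symm w)) (A.e i x) :=
      hhol.self_of_nhds.continuousAt
    filter_upwards [hc.eventually_ne h0', (A.e i).open_target.mem_nhds hz] with z hz1 hz2
    have hz3 := (A.e i).map_target hz2
    rw [nsM_eq h hs hz3, nsq, HM.wt, Real.log_mul _ (h.pos i _ hz3).ne', sub_neg_eq_add]
    exact pow_ne_zero 2 (norm_ne_zero_iff.2 hz1)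
  have hw : ContDiffAt ℝ ∞ (h.wt i) (A.e i x) :=
    (wt_smooth h i).contDiffAt ((A.e i).open_target.mem_nhds hz)
  have hs2 : ContDiffAt ℝ ∞ (fun z => Real.log (‖s i ((A.e i).symm z)‖ ^ 2)) (A.e i x) := by
    have h3 := ((cd_at hs i).norm_sq ℝ).contDiffAt ((A.e i).open_target.mem_nhds hz)
    exact h3.log (pow_ne_zero 2 (norm_ne_zero_iff.2 h0'))
  show hess (fun z => Real.log (nsM h s ((A.e i).symm z))) (A.e i x) = _
  rw [hess_congr h1, hess_sub hs2 hw, hess_log_norm hhol h0', zero_sub]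
  rfl

/-- `log |s ∘ f|²` -/
def rho (h : HM L) (s : A.ι → M → ℂ) (f : T → M) (t : T) : ℝ := Real.log (nsM h s (f t))

theorem sm_rho (h : HM L) {s : A.ι → M → ℂ} (hs : IsHS L univ s) {f : T → M} (hf : HolMap B A f)
    (hp : ∀ t, 0 < nsM h s (f t)) : B.Sm (rho h s f) := by
  intro j
  have h1 := sm_pull hf (sm_nsM h hs) j
  exact ContDiffOn.log h1 fun z hz => (hp _).ne'

section imm

variable (K : Kah A) {f : T → M} (hf : HolMap B A f) (hi : Imm B A f)

theorem lap_pull {u : M → ℝ} (huf : B.Sm fun t => u (f t)) {i : A.ι} {y : T}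
    (hx : f y ∈ (A.e i).source)
    (hu : ContDiffAt ℝ ∞ (fun z => u ((A.e i).symm z)) (A.e i (f y))) :
    Lap (pullI K hf hi) (fun t => u (f t)) y =
      ((((pullI K hf hi).g (ch B y) y)⁻¹ * ((Jp B A f (ch B y) i y)ᵀ * hsf A u i (f y) *
        (Jp B A f (ch B y) i y).map conj)).trace).re := by
  rw [Lap_read _ huf (mem_ch B y)]
  unfold trC
  rw [hsf_pull hf (mem_ch B y) hx hu]

theorem lap_rho (h : HM L) {s : A.ι → M → ℂ} (hs : IsHS L univ s)
    (hp : ∀ t, 0 < nsM h s (f t)) {i : A.ι} {y : T} (hx : f y ∈ (A.e i).source) :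
    Lap (pullI K hf hi) (rho h s f) y =
      -((((pullI K hf hi).g (ch B y) y)⁻¹ * ((Jp B A f (ch B y) i y)ᵀ * cur h i (f y) *
        (Jp B A f (ch B y) i y).map conj)).trace).re := by
  have hu : ContDiffAt ℝ ∞ (fun z => Real.log (nsM h s ((A.e i).symm z))) (A.e i (f y)) := by
    refine ContDiffAt.log (sm_at (sm_nsM h hs) hx) ?_
    rw [(A.e i).left_inv hx]; exact (hp y).ne'
  have h1 := lap_pull K hf hi (u := fun x => Real.log (nsM h s x)) (sm_rho h hs hf hp) hx hu
  rw [hsf_log_nsM h hs hx (hp y)] at h1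
  rw [Matrix.mul_neg, Matrix.neg_mul, Matrix.mul_neg, Matrix.trace_neg, Complex.neg_re] at h1
  exact h1

end imm

/-- the lower bound of helper389 -/
def Low (K : Kah A) (h : HM L) (d : ℕ) (c1 : ℝ) : Prop :=
  ∀ (T : Type) [TopologicalSpace T] [T2Space T] [CompactSpace T] [ConnectedSpace T]
    [MeasurableSpace T] [BorelSpace T] (B : Atl d T) [Finite B.ι] (_ : Part B) (f : T → M)
    (hf : HolMap B A f) (hi : Imm B A f) (s : A.ι → M → ℂ), IsHS L univ s →
    (∀ t, 0 < nsM h s (f t)) → ∀ q : T,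
    c1 ≤ (vm (volK (pullI K hf hi))).real
        {x | rho h s f q - 1 < rho h s f x ∧ rho h s f x < rho h s f q + 1} +
      ∫ x in {x | rho h s f q - 1 < rho h s f x ∧ rho h s f x < rho h s f q + 1},
        Dg (pullI K hf hi) (rho h s f) x ∂(vm (volK (pullI K hf hi)))

/-- **uniform Harnack inequality** for compact connected immersed `T` of volume at most `v` -/
theorem osc_of_low [CompactSpace M] (K : Kah A) (h : HM L) (hnef : NefW K L) {k : ℕ} (hk : 0 < k)
    {d : ℕ} {c1 : ℝ} (hc1 : 0 < c1) (hlow : Low K (pow h k) d c1) (v : ℝ) :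
    ∃ C : ℝ, ∀ (T : Type) [TopologicalSpace T] [T2Space T] [CompactSpace T] [ConnectedSpace T]
      [MeasurableSpace T] [BorelSpace T] (B : Atl d T) [Finite B.ι] (_ : Part B) (f : T → M)
      (hf : HolMap B A f) (hi : Imm B A f) (s : A.ι → M → ℂ), IsHS (L ^ k) univ s →
      (∀ t, 0 < nsM (pow h k) s (f t)) → (vm (volK (pullI K hf hi))).real univ ≤ v →
      ∀ x y : T, rho (pow h k) s f x - rho (pow h k) s f y ≤ C := by
  set v' := max v 0 with hv'
  have hv0 : 0 ≤ v' := le_max_right _ _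
  set ε : ℝ := c1 / (8 * (k * d * v') + 1) with hε
  have hden : 0 < 8 * ((k : ℝ) * d * v') + 1 := by positivity
  have hε0 : 0 < ε := div_pos hc1 hden
  obtain ⟨hε', hpos⟩ := hnef ε hε0
  set φ := ratio hε' h with hφ
  have sφ : A.Sm φ := sm_ratio _ _
  have hpos' : ∀ i, ∀ x ∈ (A.e i).source,
      (cur h i x + hsf A φ i x + (ε : ℂ) • K.g i x).PosSemidef := by
    intro i x hx
    have h1 := cur_ratio hε' h i hx
    have h2 : cur h i x + hsf A φ i x = cur hε' i x := by rw [h1]; simp [hφ]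
    rw [h2]; exact hpos i x hx
  obtain ⟨D0, hD0⟩ := isCompact_univ.exists_bound_of_continuousOn
    (continuous_Dg K sφ).continuousOn
  set D : ℝ := max D0 1 with hD
  have hDb : ∀ x, Dg K φ x ≤ D ^ 2 := by
    intro x
    have h1 := (le_abs_self _).trans (hD0 x (mem_univ x))
    have h2 : D0 ≤ D := le_max_left _ _
    have h3 : 1 ≤ D := le_max_right _ _
    nlinarith
  refine ⟨6 + 4 / c1 * (v' + (k : ℝ) ^ 2 * D ^ 2 * v'), ?_⟩
  intro T _ _ _ _ _ _ B _ P f hf hi s hs hp hvol x y
  have := Fintype.ofFinite B.ι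
  set KT := pullI K hf hi with hKT
  set μ := vm (volK KT) with hμ
  have : IsFiniteMeasure μ := isFinite_vm _
  set ρ := rho (pow h k) s f with hρ
  have sρ : B.Sm ρ := sm_rho _ hs hf hp
  have sφT : B.Sm fun t => φ (f t) := sm_pull hf sφ
  have hk0 : (k : ℝ) ≠ 0 := by exact_mod_cast hk.ne'
  set Q : T → ℝ := fun t => -(1 / (k : ℝ)) * Lap KT ρ t with hQ
  have cQ : Continuous Q := continuous_const.mul (cont_sm (sm_Lap KT sρ))
  have hμv : μ.real univ ≤ v' := hvol.trans (le_max_left _ _)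
  have hμ0 : 0 ≤ μ.real univ := measureReal_nonneg
  have H : Har μ ρ (Dg KT ρ) Q (fun x => Q x + Lap KT (fun t => φ (f t)) x)
      (Gb KT ρ fun t => φ (f t)) k (ε * d) D := by
    refine har_compact P KT sρ sφT cQ (Nat.cast_nonneg k) (by positivity) (fun t => ?_)
      (fun t => ?_) fun t => ?_
    · exact (Dg_pull K hf hi sφ sφT t).trans (hDb _)
    · simp only [hQ]; field_simp
    · obtain ⟨i, hx⟩ := A.cover (f t)
      have h1 := lap_rho K hf hi (pow h k) hs hp (y := t) hx
      have h2 := lap_pull K hf hi (u := φ) sφT hx (sm_at sφ hx)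
      rw [cur_pow h k i hx, Matrix.mul_smul, Matrix.smul_mul, Matrix.mul_smul,
        Matrix.trace_smul, smul_eq_mul, ← Complex.ofReal_natCast, Complex.re_ofReal_mul] at h1
      have h3 := tr_pull K hf hi (j := ch B t) (mem_ch B t) hx (hpos' i _ hx)
      rw [Matrix.mul_add, Matrix.add_mul, Matrix.mul_add, Matrix.trace_add, Complex.add_re,
        ← h2] at h3
      refine h3.trans (le_of_eq ?_)
      congr 1
      show _ = -(1 / (k : ℝ)) * Lap (pullI K hf hi) (rho (pow h k) s f) t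
      rw [h1]
      field_simp
  have he : 8 * (k * (ε * d) * μ.real univ) ≤ c1 := by
    have h1 : (k : ℝ) * (ε * d) * μ.real univ ≤ k * (ε * d) * v' :=
      mul_le_mul_of_nonneg_left hμv (by positivity)
    have h2 : 8 * ((k : ℝ) * (ε * d) * v') = ε * (8 * (k * d * v')) := by ring
    have h3 : ε * (8 * ((k : ℝ) * d * v') + 1) = c1 := div_mul_cancel₀ _ hden.ne'
    nlinarith
  have cρ : Continuous ρ := cont_sm sρ
  rcases le_total (ρ x) (ρ y) with hxy | hxy
  · have : 0 ≤ 6 + 4 / c1 * (v' + (k : ℝ) ^ 2 * D ^ 2 * v') := by positivity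
    linarith
  · have h1 := H.osc_le (continuous_Dg KT sρ).measurable hc1 hxy (fun c h0 h1 => by
      obtain ⟨q, rfl⟩ := mem_range_of_exists_le_of_exists_ge cρ ⟨y, h0⟩ ⟨x, h1⟩
      exact hlow T B P f hf hi s hs hp q) he
    refine h1.trans ?_
    have h2 : μ.real univ + (k : ℝ) ^ 2 * D ^ 2 * μ.real univ ≤
        v' + (k : ℝ) ^ 2 * D ^ 2 * v' :=
      add_le_add hμv (mul_le_mul_of_nonneg_left hμv (by positivity))
    have h3 := mul_le_mul_of_nonneg_left h2 (by positivity : 0 ≤ 4 / c1)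
    linarith

end

end Crest.Agent.R281.Har_331
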