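import Crest.Agent.R281.D6h_986
import Crest.Agent.R281.Fib5_425
import Crest.Agent.R281.Har4_331

/-!
# R281 (S0424), S6-ASM (helper986), part u: the pointwise identity `UPre.id`

`u ∘ i = (ρ/k) ∘ i + Re push(H ξ) / vol` on a disc family, `H = (φ - ρ/k) ∘ i`, implies
`Jᵀ (cur h + hsf u) conj J = ((lam - 1)/vol) push(det K_V) E_ll`.

* `hsf_comp_y` : the Hessian of a function of `y`;
* `Hf`, `sm_Hf`, `hsf_Hf` : `hsf (H) = K'_V - K_V`;
* `push_lam`  : `push(det K'_V) = lam push(det K_V)`;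
* `push_diff` : `(lam - 1) push(det K_V) = ∂∂̄ push(H ξ)`;
* `upre_id`.
-/

set_option autoImplicit false
set_option linter.unusedSectionVars false

open Set Filter Topology Complex MeasureTheory
open scoped ContDiff Matrix ComplexConjugate Manifold ComplexOrder

namespace Crest.Agent.R281.D6_986

open Crest.Agent.R275.Geo Crest.Agent.R275.Core144 Crest.Agent.R275.GC293
open Crest.Agent.R273.Defs_333 Crest.Agent.R273.Kah_333 Crest.Agent.R273.HM_333
open Crest.Agent.R273.Hess_333 Crest.Agent.R273.HessB_333 Crest.Agent.R273.KahI_645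
open Crest.Agent.R273.Map_835 Crest.Agent.R275.EDR890
open Crest.Agent.R273.Green_5
open Crest.Agent.R273.StokesV_332 (intD Den NonnegD OffK)
open Crest.Agent.R275.Prod363 (sndL app)
open Crest.Agent.R273.Sus_333 (blk)
open Crest.Agent.R281.Defs_273 Crest.Agent.R281.LEnd_10 Crest.Agent.R281.Glob1_484
open Crest.Agent.R281.S6D_664 (LFib Fam fb)
open Crest.Agent.R281.S6V_664 (BM LineD)
open Crest.Agent.R281.Fib2_425 (push Prj)
open Crest.Agent.R281.Fib4_425 (Tst)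
open Crest.Agent.R281.Lf3_425 (xi)
open Crest.Agent.R281.Har_331 (sm_pull sm_rho hsf_pull hsf_log_nsM rho)

noncomputable section

section fam

variable {N n : ℕ} {M : Type} [TopologicalSpace M] {A : Atl N M} {D : Set (Cn 1)}

/-- the Hessian of a function of the base -/
theorem hsf_comp_y (hD : IsOpen D) (F1 : Fam A n 1 D) {G : Cn 1 → ℝ} (hG : ContDiffOn ℝ ∞ G D)
    {k : F1.B.ι} {v : F1.V} (hk : v ∈ (F1.B.e k).source) :
    hsf F1.B (fun v => G (F1.y v)) k v =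
      hess G (F1.y v) 0 0 • Matrix.single (Fin.last n) (Fin.last n) (1 : ℂ) := by
  set w0 := F1.B.e k v with hw0
  have hw0t : w0 ∈ (F1.B.e k).target := (F1.B.e k).map_source hk
  have hsy : (F1.B.e k).symm w0 = v := (F1.B.e k).left_inv hk
  have hy : ∀ w ∈ (F1.B.e k).target, F1.y ((F1.B.e k).symm w) = sndL n 1 w := by
    intro w hw
    ext b
    rw [← F1.last k _ ((F1.B.e k).map_target hw) b, (F1.B.e k).right_inv hw]
    rfl
  have hyv : sndL n 1 w0 = F1.y v := by rw [← hy w0 hw0t, hsy]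
  have h5 : (fun z => G (F1.y ((F1.B.e k).symm z))) =ᶠ[𝓝 w0] fun z => G (sndL n 1 z) := by
    filter_upwards [(F1.B.e k).open_target.mem_nhds hw0t] with z hz
    rw [hy z hz]
  have h6 : ContDiffAt ℝ ∞ G (sndL n 1 w0) := by
    rw [hyv]
    exact hG.contDiffAt (hD.mem_nhds (F1.mem v))
  show hess (fun z => G (F1.y ((F1.B.e k).symm z))) w0 = _
  rw [hess_congr h5, Crest.Agent.R273.UpV_914.hess_snd h6, blk_single, hyv]

end fam

variable {n : ℕ} {M : Type} [TopologicalSpace M] [T2Space M] {A : Atl (2 * n) M}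
variable {σ : HSymp A} {L : LB A} {K : Kah A} {o : OmOut σ L} {h : HM L}

/-- `φ - ρ/k` on a family -/
def Hf (sk : SKOut K o h) {m : ℕ} {D : Set (Cn m)} (F1 : Fam A n m D) (v : F1.V) : ℝ :=
  sk.φ (F1.i v) - (o.k : ℝ)⁻¹ * o.rho h (F1.i v)

theorem nsM_pos (o : OmOut σ L) (h : HM L) {x : M} (hx : x ∈ o.F.Om) :
    0 < nsM (pow h o.k) o.s x := by
  obtain ⟨i, hi⟩ := A.cover x
  rw [nsM_eq (pow h o.k) o.hs hi]
  unfold Crest.Agent.R273.HM_333.nsq
  have h1 := norm_pos_iff.2 (o.nz x hx i hi)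
  have h2 := (pow h o.k).pos i x hi
  positivity

section anym

variable {m : ℕ} {D : Set (Cn m)} {F1 : Fam A n m D} (hL : Leafy o.F F1)
  (sk : SKOut K o h)

include hL in
theorem sm_rho_fam : F1.B.Sm (fun v => o.rho h (F1.i v)) :=
  sm_rho (pow h o.k) o.hs F1.hol fun v => nsM_pos o h (hL v).1

include hL in
theorem sm_Hf : F1.B.Sm (Hf sk F1) := fun k =>
  (sm_pull F1.hol sk.sm k).sub ((sm_rho_fam hL k).const_smul ((o.k : ℝ)⁻¹))

include hL in
theorem hsf_rho_fam {k : F1.B.ι} {v : F1.V} {i : A.ι} (hk : v ∈ (F1.B.e k).source)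
    (hi : F1.i v ∈ (A.e i).source) : hsf F1.B (fun v => o.rho h (F1.i v)) k v =
      -((o.k : ℂ) • ((Jp F1.B A F1.i k i v)ᵀ * cur h i (F1.i v) *
        (Jp F1.B A F1.i k i v).map conj)) := by
  have hp := nsM_pos o h (hL v).1
  have hz := (A.e i).map_source hi
  have h1 : ContDiffAt ℝ ∞ (fun z => o.rho h ((A.e i).symm z)) (A.e i (F1.i v)) := by
    have h2 : ContDiffAt ℝ ∞ (fun z => nsM (pow h o.k) o.s ((A.e i).symm z)) (A.e i (F1.i v)) :=
      (sm_nsM (pow h o.k) o.hs i).contDiffAt ((A.e i).open_target.mem_nhds hz)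
    refine h2.log ?_
    rw [(A.e i).left_inv hi]
    exact hp.ne'
  have h3 := hsf_pull F1.hol (u := o.rho h) hk hi h1
  have h4 : hsf A (o.rho h) i (F1.i v) = - cur (pow h o.k) i (F1.i v) :=
    hsf_log_nsM (pow h o.k) o.hs hi hp
  rw [h3, h4, cur_pow h o.k i hi, Matrix.mul_neg, Matrix.neg_mul, Matrix.mul_smul,
    Matrix.smul_mul]

include hL in
theorem hsf_Hf {k : F1.B.ι} {v : F1.V} (hk : v ∈ (F1.B.e k).source) :
    hsf F1.B (Hf sk F1) k v = (F1.kah sk.K').g k v - (F1.kah K).g k v := by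
  obtain ⟨i, hi⟩ := A.cover (F1.i v)
  have hkz := (F1.B.e k).map_source hk
  have hz := (A.e i).map_source hi
  have h1 : ContDiffAt ℝ ∞ (fun z => sk.φ (F1.i ((F1.B.e k).symm z))) (F1.B.e k v) :=
    (sm_pull F1.hol sk.sm k).contDiffAt ((F1.B.e k).open_target.mem_nhds hkz)
  have h2 : ContDiffAt ℝ ∞ (fun z => o.rho h (F1.i ((F1.B.e k).symm z))) (F1.B.e k v) :=
    (sm_rho_fam (h := h) hL k).contDiffAt ((F1.B.e k).open_target.mem_nhds hkz)
  have h3 : hsf F1.B (Hf sk F1) k v = hsf F1.B (fun v => sk.φ (F1.i v)) k v -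
      (((o.k : ℝ)⁻¹ : ℝ) : ℂ) • hsf F1.B (fun v => o.rho h (F1.i v)) k v := by
    have h4 := hess_sub (z := F1.B.e k v) h1 (contDiffAt_const.mul h2 : ContDiffAt ℝ ∞
      (fun z => (o.k : ℝ)⁻¹ * o.rho h (F1.i ((F1.B.e k).symm z))) (F1.B.e k v))
    have h5 := hess_const_mul ((o.k : ℝ)⁻¹) h2
    rw [h5] at h4
    exact h4
  have h6 := hsf_pull F1.hol (u := sk.φ) hk hi
    ((sk.sm i).contDiffAt ((A.e i).open_target.mem_nhds hz))
  rw [h3, h6, hsf_rho_fam (h := h) hL hk hi]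
  have hK : (F1.kah K).g k v = (Jp F1.B A F1.i k i v)ᵀ * K.g i (F1.i v) *
      (Jp F1.B A F1.i k i v).map conj := pullI_g K F1.hol F1.imm hk hi
  have hK' : (F1.kah sk.K').g k v = (Jp F1.B A F1.i k i v)ᵀ * sk.K'.g i (F1.i v) *
      (Jp F1.B A F1.i k i v).map conj := pullI_g sk.K' F1.hol F1.imm hk hi
  have hk0 : (o.k : ℂ) ≠ 0 := by exact_mod_cast o.k_pos.ne'
  rw [hK, hK', sk.eq i _ hi, smul_neg, smul_smul]
  have h7 : (((o.k : ℝ)⁻¹ : ℝ) : ℂ) * (o.k : ℂ) = 1 := by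
    push_cast
    exact inv_mul_cancel₀ hk0
  rw [h7, one_smul]
  simp only [Matrix.mul_add, Matrix.add_mul]
  abel

end anym

section leafy

variable {D : Set (Cn 1)} (hD : IsOpen D) {F1 : Fam A n 1 D} (hL : Leafy o.F F1)
  (sk : SKOut K o h)

/-- the density `H ξ` -/
def Xd (sk : SKOut K o h) {D : Set (Cn 1)} (F1 : Fam A n 1 D) : F1.B.ι → F1.V → ℂ := fun k v =>
  ((Hf sk F1 v : ℝ) : ℂ) * xi (fb (d := n) (m := 1) ((F1.kah K).g k v))
    (fb (d := n) (m := 1) ((F1.kah sk.K').g k v - (F1.kah K).g k v))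

theorem xi_im {A C : Matrix (Fin n) (Fin n) ℂ} (hA : A.IsHermitian) (hC : C.IsHermitian) :
    (xi A C).im = 0 := by
  have h1 : ∀ t : ℝ, (A + (t : ℂ) • C).det = (((A + (t : ℂ) • C).det.re : ℝ) : ℂ) := by
    intro t
    have h2 : (A + (t : ℂ) • C).IsHermitian := by
      refine hA.add ?_
      unfold Matrix.IsHermitian at hC ⊢
      rw [Matrix.conjTranspose_smul, hC]
      congr 1
      exact Complex.conj_ofReal _
    have h3 : star (A + (t : ℂ) • C).det = (A + (t : ℂ) • C).det := by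
      rw [← Matrix.det_conjTranspose, h2.eq]
    exact (Complex.conj_eq_iff_re.1 h3).symm
  have h3 : xi A C = ((∫ t in (0 : ℝ)..1, (A + (t : ℂ) • C).det.re : ℝ) : ℂ) := by
    unfold Lf3_425.xi
    rw [← intervalIntegral.integral_ofReal]
    exact intervalIntegral.integral_congr fun t _ => h1 t
  rw [h3, ofReal_im]

theorem herm_fb {G : Matrix (Fin (n + 1)) (Fin (n + 1)) ℂ} (hG : G.IsHermitian) :
    (fb (d := n) (m := 1) G).IsHermitian := hG.submatrix _

theorem Xd_im {k : F1.B.ι} {v : F1.V} (hk : v ∈ (F1.B.e k).source) : (Xd sk F1 k v).im = 0 := by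
  unfold Xd
  rw [Complex.im_ofReal_mul, xi_im (herm_fb ((F1.kah K).pos k v hk).1)
    (herm_fb (((F1.kah sk.K').pos k v hk).1.sub ((F1.kah K).pos k v hk).1)), mul_zero]

/-- the function `push (H ξ)` -/
def Th (sk : SKOut K o h) {D : Set (Cn 1)} (F1 : Fam A n 1 D) : Cn 1 → ℂ :=
  push F1.P (Xd sk F1)

include hD in
theorem prjF : Prj F1.B F1.y D := ⟨F1.last, F1.mem, F1.proper, hD⟩

include hD in
theorem push_lam (hL : Leafy o.F F1) (sk : SKOut K o h) {w : Cn 1} (hw : w ∈ D) :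
    push F1.P (fun k v => ((F1.kah sk.K').g k v).det) w =
      (sk.lam : ℂ) * push F1.P (fun k v => ((F1.kah K).g k v).det) w := by
  have hp := prjF hD (F1 := F1)
  have h1 := Fub5_163.den_det (F1.kah sk.K')
  have h2 := Fub5_163.den_det (F1.kah K)
  have h3 := Fib4_425.push_eq_of_weak (P := F1.P) (P' := F1.P) hp h1.sm
    (Θ := fun k v => (sk.lam : ℂ) * ((F1.kah K).g k v).det) (h2.smul (sk.lam : ℂ)).sm
    (fun χ hχ => by
      rw [sk.vol D hD F1 hL χ hχ]
      have h4 : OffK F1.B (fun k v => (χ (F1.y v) : ℂ) * ((F1.kah K).g k v).det)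
          (F1.y ⁻¹' tsupport χ) := by
        intro k v _ hv
        show (χ (F1.y v) : ℂ) * _ = 0
        rw [image_eq_zero_of_notMem_tsupport hv, ofReal_zero, zero_mul]
      rw [← R273.StokesV_332.intD_smul F1.P (sk.lam : ℂ) (F1.proper _ hχ.sub hχ.cpt) h4]
      congr 1
      funext k v
      ring) w hw
  rw [h3, Fib2_425.push_smul hp _ hw]

/-- the function `φ - ρ/k` on `M` -/
def aF (sk : SKOut K o h) (x : M) : ℝ := sk.φ x - (o.k : ℝ)⁻¹ * o.rho h x

/-- the leaf density of `u` -/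
def uDen (sk : SKOut K o h) : Lf2_425.LDen A n :=
  Lf3_425.mixDen n (kah_cf K) (kah_cf sk.K') (aF sk)

theorem sm_rho_at (o : OmOut σ L) (h : HM L) {i : A.ι} {z : Cn (2 * n)} (hz : z ∈ (A.e i).target)
    (hO : (A.e i).symm z ∈ o.F.Om) : ContDiffAt ℝ ∞ (fun w => o.rho h ((A.e i).symm w)) z := by
  have h2 : ContDiffAt ℝ ∞ (fun z => nsM (pow h o.k) o.s ((A.e i).symm z)) z :=
    (sm_nsM (pow h o.k) o.hs i).contDiffAt ((A.e i).open_target.mem_nhds hz)
  exact h2.log (nsM_pos o h hO).ne'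

theorem uDen_sm (sk : SKOut K o h) : (uDen sk).SmOn o.F.Om :=
  Lf3_425.mixDen_smOn _ _ fun i z hz hO =>
    ((sk.sm i).contDiffAt ((A.e i).open_target.mem_nhds hz)).sub
      (contDiffAt_const.mul (sm_rho_at o h hz hO))

theorem uDen_pb (sk : SKOut K o h) {D : Set (Cn 1)} (F1 : Fam A n 1 D) {k : F1.B.ι} {v : F1.V}
    (hk : v ∈ (F1.B.e k).source) : (uDen sk).pb F1 k v = Xd sk F1 k v :=
  Lf3_425.pb_mixDen K sk.K' (aF sk) F1 hk

theorem Th_eq (hD : IsOpen D) (sk : SKOut K o h) : Th sk F1 = push F1.P ((uDen sk).pb F1) := by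
  funext w
  exact Fib2_425.push_congr (prjF hD) fun k v hk _ => (uDen_pb sk F1 hk).symm

include hL in
theorem sm_Th (hD : IsOpen D) (sk : SKOut K o h) : ContDiffOn ℝ ∞ (Th sk F1) D := by
  rw [Th_eq hD sk]
  exact Fib2_425.contDiffOn_push (prjF hD)
    (Lf2_425.LDen.pb_smAt F1 (uDen_sm sk) fun v => (hL v).1)

theorem Th_im (hD : IsOpen D) (sk : SKOut K o h) {w : Cn 1} (hw : w ∈ D) :
    (Th sk F1 w).im = 0 :=
  Fib4_425.push_real (prjF hD) hw fun k v hk _ => Xd_im sk hk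

include hL in
theorem push_diff (hD : IsOpen D) (sk : SKOut K o h) {w : Cn 1} (hw : w ∈ D) :
    Crest.Agent.R275.OmT75.dj 0 (dbj 0 (Th sk F1)) w =
      ((sk.lam : ℂ) - 1) * push F1.P (fun k v => ((F1.kah K).g k v).det) w := by
  have hp := prjF hD (F1 := F1)
  have h1 := Fib5_425.push_det_sub (P := F1.P) hp (kah_cf (F1.kah K))
    (fun k v hk => ((F1.kah K).pos k v hk).1) (sm_Hf hL sk) hw
  have h2 : push F1.P (fun k v => ((Hf sk F1 v : ℝ) : ℂ) *
      xi (fb (d := n) (m := 1) ((F1.kah K).g k v))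
        (fb (d := n) (m := 1) (hsf F1.B (Hf sk F1) k v))) = Th sk F1 := by
    funext w
    exact Fib2_425.push_congr hp fun k v hk _ => by
      rw [hsf_Hf hL sk hk]
      rfl
  have h3 : push F1.P (fun k v => ((F1.kah K).g k v + hsf F1.B (Hf sk F1) k v).det -
      ((F1.kah K).g k v).det) w =
      push F1.P (fun k v => ((F1.kah sk.K').g k v).det - ((F1.kah K).g k v).det) w :=
    Fib2_425.push_congr hp fun k v hk _ => by
      rw [hsf_Hf hL sk hk, add_sub_cancel]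
  rw [h2, h3, Fib2_425.push_sub hp (Fub5_163.den_det (F1.kah sk.K')).sm
    (Fub5_163.den_det (F1.kah K)).sm hw, push_lam hD hL sk hw] at h1
  rw [← h1]
  ring

include hL in
/-- **the pointwise identity** -/
theorem upre_id (hD : IsOpen D) (sk : SKOut K o h) {u : M → ℝ}
    (hsm : ∀ i, ∀ z ∈ (A.e i).target, (A.e i).symm z ∈ o.F.Om →
      ContDiffAt ℝ ∞ (fun w => u ((A.e i).symm w)) z) {vol : ℝ}
    (hu : ∀ v, u (F1.i v) = (o.k : ℝ)⁻¹ * o.rho h (F1.i v) + vol⁻¹ * (Th sk F1 (F1.y v)).re)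
    {k : F1.B.ι} {v : F1.V} (hk : v ∈ (F1.B.e k).source) {i : A.ι}
    (hi : F1.i v ∈ (A.e i).source) :
    (Jp F1.B A F1.i k i v)ᵀ * (cur h i (F1.i v) + hsf A u i (F1.i v)) *
        (Jp F1.B A F1.i k i v).map conj =
      (((vol⁻¹ * (sk.lam - 1) : ℝ) : ℂ) *
        push F1.P (fun k v => ((F1.kah K).g k v).det) (F1.y v)) •
        Matrix.single (Fin.last n) (Fin.last n) (1 : ℂ) := by
  have hkz := (F1.B.e k).map_source hk
  have hz := (A.e i).map_source hi
  have hw := F1.mem v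
  have h1 := hsf_pull F1.hol (u := u) hk hi (hsm i _ hz (by
    rw [(A.e i).left_inv hi]; exact (hL v).1))
  rw [Matrix.mul_add, Matrix.add_mul, ← h1]
  have hG : ContDiffOn ℝ ∞ (fun w => vol⁻¹ * (Th sk F1 w).re) D := by
    have h2 := sm_Th hL hD sk
    exact contDiffOn_const.mul (Complex.reCLM.contDiff.comp_contDiffOn h2)
  have hρ : ContDiffAt ℝ ∞ (fun z => o.rho h (F1.i ((F1.B.e k).symm z))) (F1.B.e k v) :=
    (sm_rho_fam (h := h) hL k).contDiffAt ((F1.B.e k).open_target.mem_nhds hkz)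
  have hGy : ContDiffAt ℝ ∞ (fun z => vol⁻¹ * (Th sk F1 (F1.y ((F1.B.e k).symm z))).re)
      (F1.B.e k v) :=
    ((prjF hD (F1 := F1)).sm hG k).contDiffAt ((F1.B.e k).open_target.mem_nhds hkz)
  have h2 : hsf F1.B (fun t => u (F1.i t)) k v =
      (((o.k : ℝ)⁻¹ : ℝ) : ℂ) • hsf F1.B (fun v => o.rho h (F1.i v)) k v +
        hsf F1.B (fun v => (fun w => vol⁻¹ * (Th sk F1 w).re) (F1.y v)) k v := by
    have h3 : (fun t => u (F1.i t)) = fun v => (o.k : ℝ)⁻¹ * o.rho h (F1.i v) +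
        vol⁻¹ * (Th sk F1 (F1.y v)).re := funext hu
    have h4 := hess_add (z := F1.B.e k v) (contDiffAt_const.mul hρ : ContDiffAt ℝ ∞
      (fun z => (o.k : ℝ)⁻¹ * o.rho h (F1.i ((F1.B.e k).symm z))) (F1.B.e k v)) hGy
    rw [hess_const_mul ((o.k : ℝ)⁻¹) hρ] at h4
    rw [h3]
    exact h4
  rw [h2, hsf_rho_fam (h := h) hL hk hi, hsf_comp_y hD F1 hG hk]
  have hk0 : (o.k : ℂ) ≠ 0 := by exact_mod_cast o.k_pos.ne'
  have h7 : (((o.k : ℝ)⁻¹ : ℝ) : ℂ) * (o.k : ℂ) = 1 := by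
    push_cast
    exact inv_mul_cancel₀ hk0
  rw [smul_neg, smul_smul, h7, one_smul, ← add_assoc, add_neg_cancel, zero_add]
  congr 1
  -- the Hessian on the base
  have hTh := (sm_Th hL hD sk).contDiffAt (hD.mem_nhds hw)
  have hre : ContDiffAt ℝ ∞ (fun w => (Th sk F1 w).re) (F1.y v) :=
    Complex.reCLM.contDiff.contDiffAt.comp (F1.y v) hTh
  have h8 : hess (fun w => vol⁻¹ * (Th sk F1 w).re) (F1.y v) =
      ((vol⁻¹ : ℝ) : ℂ) • hess (fun w => (Th sk F1 w).re) (F1.y v) :=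
    hess_const_mul vol⁻¹ hre
  have h9 : hess (fun w => (Th sk F1 w).re) (F1.y v) 0 0 =
      Crest.Agent.R275.OmT75.dj 0 (dbj 0 (Th sk F1)) (F1.y v) := by
    rw [hess_apply, dj_eq_wd]
    have h10 : ∀ w ∈ D, cu (fun w => (Th sk F1 w).re) w = Th sk F1 w := by
      intro w hw
      apply Complex.ext
      · exact ofReal_re _
      · rw [Th_im hD sk hw]
        exact ofReal_im _
    have h11 : ∀ w ∈ D, wd (true, 0) (cu fun w => (Th sk F1 w).re) w =
        dbj 0 (Th sk F1) w := by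
      intro w hw
      rw [← wd_true]
      exact wd_congr (by filter_upwards [hD.mem_nhds hw] with w' hw'; exact h10 w' hw') _
    exact wd_congr (by filter_upwards [hD.mem_nhds hw] with w' hw'; exact h11 w' hw') _
  rw [h8, Matrix.smul_apply, smul_eq_mul, h9, push_diff hL hD sk hw]
  push_cast
  ring

end leafy

end

end Crest.Agent.R281.D6_986
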