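import Crest.Agent.R281.LEnd6_10

/-!
# R281 (S0424), S6-L2END (helper10), part 7: the last step of division 6

`locGen`     : `EndIn K L x0`, a flat metric of the canonical bundle ⟹ `LocGen L x0`
`semiAmple`  : `EndIn` at every point ⟹ `SemiAmple L` (compact `M`)
-/

set_option autoImplicit false
set_option linter.unusedSectionVars false

open Set Filter Topology Complex MeasureTheory Metric Asymptotics
open scoped ContDiff Matrix ComplexConjugate Kronecker ComplexOrder ENNReal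

namespace Crest.Agent.R281.LEnd_10

open Crest.Agent.R275 Crest.Agent.R275.Geo Crest.Agent.R275.Core144 Crest.Agent.R275.Dg199
open Crest.Agent.R275.EDR890
open Crest.Agent.R273.Defs_333 Crest.Agent.R273.HM_333 Crest.Agent.R273.Kah_333
open Crest.Agent.R273.Hess_333 Crest.Agent.R273.HessB_333 Crest.Agent.R273.FS_333
open Crest.Agent.R273.LamN127 Crest.Agent.R273.NormC_505 Crest.Agent.R273.DnInt_505
open Crest.Agent.R273.DVec_733 Crest.Agent.R273.DMet_733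
open Crest.Agent.R273.HDN_505 (HB HB_pos)
open Crest.Agent.R273.SerA_945 Crest.Agent.R273.SerB_945
open Crest.Agent.R281.Defs_273
open Crest.Agent.R272.Kod5_410 (Yf)

noncomputable section

variable {n : ℕ} {M : Type} [TopologicalSpace M] {A : Atl n M}
variable {K : Kah A} {L : LB A} {x0 : M} (E : EndIn K L x0)

/-- the chart `i0` with coordinates in `Fin n → ℂ` -/
def ch (i0 : A.ι) (ζ : Fin n → ℂ) : M := (A.e i0).symm (WithLp.toLp 2 ζ)

theorem tendsto_toLp (z : Cn n) : Tendsto (fun ζ : Fin n → ℂ => (WithLp.toLp 2 ζ : Cn n))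
    (𝓝 (WithLp.ofLp z)) (𝓝 z) :=
  (PiLp.continuous_toLp 2 (fun _ : Fin n => ℂ)).continuousAt (x := WithLp.ofLp z)

/-- `|w|² = O(|ζ - ζ0|²)` at `x0` -/
theorem EndIn.exists_Cw {i0 : A.ι} (h0 : x0 ∈ (A.e i0).source) :
    ∃ Cw : ℝ, 0 ≤ Cw ∧ ∀ᶠ ζ in 𝓝 (WithLp.ofLp (A.e i0 x0)),
      sqw E.w (ch i0 ζ) ≤ Cw * ‖ζ - WithLp.ofLp (A.e i0 x0)‖ ^ 2 := by
  set p0 : Fin n → ℂ := WithLp.ofLp (A.e i0 x0) with hp0
  have hk : ∀ k : Fin E.r, ∃ c : ℝ, 0 ≤ c ∧ ∀ᶠ ζ in 𝓝 p0,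
      ‖E.w (ch i0 ζ) k‖ ≤ c * ‖ζ - p0‖ := by
    intro k
    have hd : DifferentiableAt ℂ (fun z => E.w ((A.e i0).symm z) k) (A.e i0 x0) :=
      (E.hol_wr i0 k).differentiableAt ((E.isOpen_V i0).mem_nhds (E.mem_V h0 E.mem_U))
    have hE : DifferentiableAt ℂ (fun ζ : Fin n → ℂ => (WithLp.toLp 2 ζ : Cn n)) p0 :=
      ((PiLp.continuousLinearEquiv 2 ℂ (fun _ : Fin n => ℂ)).symm : (Fin n → ℂ) →L[ℂ]
        Cn n).differentiableAt
    have h1 : DifferentiableAt ℂ (fun ζ => E.w (ch i0 ζ) k) p0 :=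
      DifferentiableAt.comp (g := fun z => E.w ((A.e i0).symm z) k) p0 hd hE
    obtain ⟨c, hc, h2⟩ := h1.hasFDerivAt.isBigO_sub.exists_nonneg
    refine ⟨c, hc, ?_⟩
    filter_upwards [h2.bound] with ζ hζ
    have h3 : E.w (ch i0 p0) k = 0 := by
      have : ch i0 p0 = x0 := (A.e i0).left_inv h0
      rw [this, E.w_zero]
    rwa [h3, sub_zero] at hζ
  choose c hc0 hc using hk
  refine ⟨∑ k, c k ^ 2, Finset.sum_nonneg fun k _ => sq_nonneg _, ?_⟩
  filter_upwards [eventually_all.2 hc] with ζ hζ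
  unfold sqw
  rw [Finset.sum_mul]
  refine Finset.sum_le_sum fun k _ => ?_
  rw [← mul_pow]
  exact pow_le_pow_left₀ (norm_nonneg _) (hζ k) 2

variable [T2Space M] [CompactSpace M] [Finite A.ι] (P : Part A)

include P in
/-- **the last step of division 6, at one point** -/
theorem locGen_of (hX : HM (KB A)) (hflat : ∀ i, ∀ x ∈ (A.e i).source, cur hX i x = 0)
    (hWt : HasWt E (n + 2)) : LocGen L x0 := by
  obtain ⟨C3, C4, hWt⟩ := hWt
  obtain ⟨i0, hi0⟩ := A.cover x0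
  -- the power
  obtain ⟨p, hp⟩ := exists_nat_ge (max 1 ((C3 + 1) / E.ε))
  have hp1 : (1 : ℝ) ≤ p := (le_max_left _ _).trans hp
  have hp0 : 0 < p := by exact_mod_cast lt_of_lt_of_le one_pos hp1
  have hp2 : C3 + 1 ≤ p * E.ε := by
    have := (le_max_right _ _).trans hp
    rwa [div_le_iff₀ E.ε_pos] at this
  set q : ℕ := E.k0 * p with hq
  have hqp : 0 < q := Nat.mul_pos E.k0_pos hp0
  have hqR : (0 : ℝ) < q := by exact_mod_cast hqp
  have hqε : C3 + 1 ≤ q * E.ε := by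
    refine hp2.trans ?_
    rw [hq, Nat.cast_mul]
    refine mul_le_mul_of_nonneg_right ?_ E.ε_pos.le
    have : (1 : ℝ) ≤ E.k0 := by exact_mod_cast E.k0_pos
    nlinarith
  have hL2 := l2User P K hX hflat
  set N : LB A := L ^ q with hN
  -- sections
  set φ1 : ℝ → ℝ := fun t => Real.sqrt E.ρ * deriv (cf E.ρ) t with hφ1
  have hz0 : ∀ t, E.ρ ≤ t → cf E.ρ t = 0 := fun t ht => cf_zero E.ρ_pos (by linarith [E.ρ_pos])
  have hz1 : ∀ t, E.ρ ≤ t → φ1 t = 0 := fun t ht => by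
    rw [hφ1]
    simp only
    rw [dcf_gt E.ρ_pos (by linarith [E.ρ_pos]), mul_zero]
  have hs0 : SmS N (cutS E (cf E.ρ) p) := smS_cutS E (cf_smooth E.ρ) hz0
  have hs1 : SmS N (cutS E φ1 p) := smS_cutS E (dcf_smooth E.ρ) hz1
  have ho0 := cutS_off E (φ := cf E.ρ) (p := p)
  have ho1 := cutS_off E (φ := φ1) (p := p)
  let u1 : Sec (BN N) := ⟨embN (cutS E φ1 p), (embN_mem hs1 ho1).1⟩
  set D : ℝ := Real.exp (q * E.C + C4) * (HB K (mul (inv hX) (pow E.h q))).sn P u1 ^ 2 with hD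
  have hD0 : 0 ≤ D := by positivity
  -- the metrics
  choose u huS huC hu1 hu2 using fun ν : ℕ => E.met (1 / ((ν : ℝ) + 1)) (by positivity)
  have hcS : A.Sm (fun _ : M => E.C) := fun _ => contDiffOn_const
  -- local constants
  obtain ⟨Cw, hCw0, hCw⟩ := E.exists_Cw hi0
  set W' : Set M := {x | x ∈ E.U ∧ sqw E.w x < E.ρ / 8} with hW'
  have hcont : ContinuousOn (sqw E.w) E.U := fun x hx =>
    (E.smN_sqw hx).continuousAt.continuousWithinAt
  have hW'o : IsOpen W' := hcont.isOpen_inter_preimage E.isOpen_U isOpen_Iio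
  have hx0W : x0 ∈ W' := by
    refine ⟨E.mem_U, ?_⟩
    have : sqw E.w x0 = 0 := Finset.sum_eq_zero fun k _ => by rw [E.w_zero, norm_zero]; norm_num
    rw [this]
    linarith [E.ρ_pos]
  obtain ⟨r0, hr0, hrW, hlow⟩ := lowerB P K N hi0 hW'o hx0W
  set p0 : Fin n → ℂ := WithLp.ofLp (A.e i0 x0) with hp0'
  set G : M → ℝ := fun x => (mul (inv hX) (pow E.h q)).w i0 x with hG
  have hGp : 0 < G x0 := (mul (inv hX) (pow E.h q)).pos i0 x0 hi0
  have hGc : ContinuousAt G x0 :=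
    (Dg199.SmAt.smN ((mul (inv hX) (pow E.h q)).sm i0) hi0).continuousAt
  have hGe : ∀ᶠ ζ in 𝓝 p0, G x0 / 2 < G (ch i0 ζ) :=
    (tendsto_toLp (A.e i0 x0)).eventually
      (ev_symm hi0 (hGc.eventually (lt_mem_nhds (by linarith : G x0 / 2 < G x0))))
  obtain ⟨r1, hr1, hball⟩ := Metric.eventually_nhds_iff_ball.1 (hCw.and hGe)
  set c : ℝ := G x0 / 2 * Real.exp (-(q * E.C)) with hc
  have hc0 : 0 < c := by positivity
  set B : ℝ := Real.sqrt (c⁻¹ * (Cw + 1) ^ (n + 2) * D) with hB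
  have hB0 : 0 ≤ B := Real.sqrt_nonneg _
  have hB2 : B ^ 2 = c⁻¹ * (Cw + 1) ^ (n + 2) * D := Real.sq_sqrt (by positivity)
  obtain ⟨CJ, hCJ0, hCJ⟩ := Crest.Agent.R272.Kod4_410.small_jet n
  have hτ : 0 < ‖E.τ i0 x0 ^ p‖ := by
    rw [norm_pos_iff]
    exact pow_ne_zero _ (E.ne i0 x0 hi0 E.mem_U)
  -- choice of the radius
  obtain ⟨s, hs, hs1', hsr0, hsr1, hs2⟩ : ∃ s : ℝ, 0 < s ∧ s ≤ 1 ∧ s ≤ r0 ∧ s < r1 ∧
      CJ * B * s ^ 2 < ‖E.τ i0 x0 ^ p‖ := by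
    set t : ℝ := ‖E.τ i0 x0 ^ p‖ with ht
    refine ⟨min (min 1 r0) (min (r1 / 2) (t / (2 * (CJ * B + 1)))), by positivity,
      (min_le_left _ _).trans (min_le_left _ _), (min_le_left _ _).trans (min_le_right _ _),
      lt_of_le_of_lt ((min_le_right _ _).trans (min_le_left _ _)) (by linarith), ?_⟩
    set s := min (min 1 r0) (min (r1 / 2) (t / (2 * (CJ * B + 1))))
    have h1 : s ≤ 1 := (min_le_left _ _).trans (min_le_left _ _)
    have h2 : s ≤ t / (2 * (CJ * B + 1)) := (min_le_right _ _).trans (min_le_right _ _)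
    have h0 : 0 < s := by positivity
    have hCB : 0 ≤ CJ * B := mul_nonneg hCJ0 hB0
    rw [le_div_iff₀ (by positivity)] at h2
    have h3 : s ^ 2 ≤ s := by nlinarith
    nlinarith
  set e : ℝ := s ^ 2 with he
  have he0 : 0 < e := by positivity
  have he1 : e ≤ 1 := by rw [he]; nlinarith
  obtain ⟨Φ, hΦS, hΦ1, hΦ2, hΦ3, hΦ4⟩ := hWt e he0 he1
  -- the `L²` theorem
  obtain ⟨σ, hσ, hσn⟩ := hL2 N (fun ν => mt E q (huS ν) hΦS) (mt E q hcS hΦS)
    (fun ν i x hx => by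
      rw [mt_w, mt_w]
      refine mul_le_mul_of_nonneg_left ?_ (pow_pos (E.h.pos i x hx) q).le
      refine Real.exp_le_exp.2 ?_
      have f1 := (abs_le.1 (huC ν x)).2
      have f2 := mul_le_mul_of_nonneg_left f1 hqR.le
      linarith)
    (fun ν => q * (1 / ((ν : ℝ) + 1))) (fun ν => by positivity)
    (by
      have := (tendsto_one_div_add_atTop_nhds_zero_nat (𝕜 := ℝ)).const_mul (q : ℝ)
      rwa [mul_zero] at this)
    (fun ν i x hx => psd_all E (huS ν) hΦS hqε (hu1 ν) (hu2 ν) hΦ1 hΦ2 i x hx)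
    (cutS E (cf E.ρ) p) (cutS E φ1 p) hs0 ho0 hs1 ho1 D
    (fun ν => sn_y1 E P hX (huS ν) hΦS (huC ν) hΦ3 p rfl)
    (fun ν i x hx ξ => pt_all E (huS ν) hΦS hqε (hu1 ν) (hu2 ν) hΦ1 hΦ2 p i x hx ξ)
  -- the difference
  have hmF := (FF N 0).sub_mem (embN_mem hs0 ho0) (embN_mem (IsHS.smS hσ) hσ.off)
  let y : Sec (BN N) := ⟨embN (cutS E (cf E.ρ) p) - embN σ, hmF.1⟩
  have hyn : (HB K (mul (inv hX) (mt E q hcS hΦS))).sn P y ^ 2 ≤ D := hσn y rfl
  set DL : ℝ := c * ((Cw * s ^ 2 + e) ^ (n + 2))⁻¹ with hDL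
  have hse : 0 < Cw * s ^ 2 + e := by positivity
  have hDL0 : 0 < DL := by positivity
  have hint := hlow (mul (inv hX) (mt E q hcS hΦS)) DL s hs hsr0 hDL0 (fun ζ hζ => by
    have hζW := hrW ζ (closedBall_subset_closedBall hsr0 hζ)
    have hζb : ζ ∈ ball p0 r1 := closedBall_subset_ball hsr1 hζ
    obtain ⟨g1, g2⟩ := hball ζ hζb
    have g3 : sqw E.w (ch i0 ζ) ≤ Cw * s ^ 2 := by
      refine g1.trans (mul_le_mul_of_nonneg_left ?_ hCw0)
      have : ‖ζ - p0‖ ≤ s := by rw [← dist_eq_norm]; exact mem_closedBall.1 hζ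
      exact pow_le_pow_left₀ (norm_nonneg _) this 2
    have g4 : Φ (ch i0 ζ) = ((n + 2 : ℕ) : ℝ) * Real.log (sqw E.w (ch i0 ζ) + e) :=
      hΦ4 _ hζW.2.1 hζW.2.2.le
    have g5 : 0 < sqw E.w (ch i0 ζ) + e := add_pos_of_nonneg_of_pos (sqw_nonneg _ _) he0
    have g6 : (mul (inv hX) (mt E q hcS hΦS)).w i0 (ch i0 ζ) =
        G (ch i0 ζ) * Real.exp (-(q * E.C)) * ((sqw E.w (ch i0 ζ) + e) ^ (n + 2))⁻¹ := by
      show (hX.w i0 (ch i0 ζ))⁻¹ * (mt E q hcS hΦS).w i0 (ch i0 ζ) =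
        (hX.w i0 (ch i0 ζ))⁻¹ * (pow E.h q).w i0 (ch i0 ζ) * _ * _
      rw [mt_w, pow_w, g4, neg_add, Real.exp_add, ← Real.log_pow, Real.exp_neg (Real.log _),
        Real.exp_log (pow_pos g5 _)]
      ring
    show DL ≤ (mul (inv hX) (mt E q hcS hΦS)).w i0 (ch i0 ζ)
    rw [g6, hDL, hc]
    refine mul_le_mul ?_ ?_ (by positivity) ?_
    · exact mul_le_mul_of_nonneg_right g2.le (Real.exp_pos _).le
    · refine inv_anti₀ (pow_pos g5 _) ?_
      exact pow_le_pow_left₀ g5.le (by linarith) _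
    · exact mul_nonneg (by linarith) (Real.exp_pos _).le) y
  have hint2 : ∫⁻ ζ in closedBall p0 s, ‖Yf i0 y.1 ζ‖ₑ ^ 2 ≤
      ENNReal.ofReal (B ^ 2 * s ^ (2 * n + 4)) := by
    refine hint.trans (ENNReal.ofReal_le_ofReal ?_)
    have h2 : (Cw * s ^ 2 + e) ^ (n + 2) = (Cw + 1) ^ (n + 2) * s ^ (2 * n + 4) := by
      rw [he, ← add_one_mul, mul_pow, ← pow_mul]
      congr 2
    have h3 : DL⁻¹ = c⁻¹ * ((Cw + 1) ^ (n + 2) * s ^ (2 * n + 4)) := by
      rw [hDL, _root_.mul_inv, inv_inv, h2]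
    rw [h3, hB2]
    calc c⁻¹ * ((Cw + 1) ^ (n + 2) * s ^ (2 * n + 4)) *
          (HB K (mul (inv hX) (mt E q hcS hΦS))).sn P y ^ 2
        ≤ c⁻¹ * ((Cw + 1) ^ (n + 2) * s ^ (2 * n + 4)) * D :=
          mul_le_mul_of_nonneg_left hyn (by positivity)
      _ = _ := by ring
  -- holomorphy
  set DD : Set (Fin n → ℂ) := {ζ | WithLp.toLp 2 ζ ∈ (A.e i0).target ∧
    (A.e i0).symm (WithLp.toLp 2 ζ) ∈ W'} with hDD
  have hcontL : Continuous (fun ζ : Fin n → ℂ => (WithLp.toLp 2 ζ : Cn n)) :=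
    PiLp.continuous_toLp 2 (fun _ : Fin n => ℂ)
  have hDDo : IsOpen DD := (isOpen_ti (A := A) (i := i0) hW'o).preimage hcontL
  have hYeq : ∀ ζ ∈ DD, Yf i0 y.1 ζ = E.τ i0 (ch i0 ζ) ^ p - σ i0 (ch i0 ζ) := by
    intro ζ hζ
    have e1 : Yf i0 y.1 ζ = cutS E (cf E.ρ) p i0 (ch i0 ζ) - σ i0 (ch i0 ζ) := by
      show embN (cutS E (cf E.ρ) p) i0 (ch i0 ζ) ((∅ : Finset (Fin n)), ()) -
        embN σ i0 (ch i0 ζ) ((∅ : Finset (Fin n)), ()) = _
      have a1 : ∀ f : Fn A, embN f i0 (ch i0 ζ) ((∅ : Finset (Fin n)), ()) = f i0 (ch i0 ζ) :=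
        fun f => if_pos rfl
      rw [a1, a1]
    have e2 : ch i0 ζ ∈ (A.e i0).source := (A.e i0).map_target hζ.1
    have e3 : ch i0 ζ ∈ W' := hζ.2
    rw [e1, cutS_eq E e2 e3.1, cf_one E.ρ_pos (by linarith [e3.2, E.ρ_pos]), ofReal_one, one_mul]
  have hYd : DifferentiableOn ℂ (Yf i0 y.1) DD := by
    intro ζ hζ
    have hE : DifferentiableAt ℂ (fun ζ : Fin n → ℂ => (WithLp.toLp 2 ζ : Cn n)) ζ :=
      ((PiLp.continuousLinearEquiv 2 ℂ (fun _ : Fin n => ℂ)).symm : (Fin n → ℂ) →L[ℂ]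
        Cn n).differentiableAt
    have h1 : DifferentiableAt ℂ (fun z => E.τ i0 ((A.e i0).symm z) ^ p) (WithLp.toLp 2 ζ) :=
      ((E.isHS.hol i0).differentiableAt ((E.isOpen_V i0).mem_nhds ⟨hζ.1, hζ.2.1⟩)).pow p
    have h2 : DifferentiableAt ℂ (fun z => σ i0 ((A.e i0).symm z)) (WithLp.toLp 2 ζ) :=
      DifferentiableOn.differentiableAt (hσ.hol i0)
        ((isOpen_ti (A := A) isOpen_univ).mem_nhds ⟨hζ.1, mem_univ _⟩)
    have h3 : DifferentiableAt ℂ (fun ζ => E.τ i0 (ch i0 ζ) ^ p - σ i0 (ch i0 ζ)) ζ :=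
      DifferentiableAt.comp (g := fun z => E.τ i0 ((A.e i0).symm z) ^ p -
        σ i0 ((A.e i0).symm z)) ζ (h1.sub h2) hE
    refine (h3.congr_of_eventuallyEq ?_).differentiableWithinAt
    filter_upwards [hDDo.mem_nhds hζ] with ξ hξ
    exact hYeq ξ hξ
  have hsub : closedBall p0 s ⊆ DD := fun ζ hζ =>
    hrW ζ (closedBall_subset_closedBall hsr0 hζ)
  obtain ⟨hj1, -⟩ := hCJ DD p0 s (Yf i0 y.1) B hDDo hYd hs hsub hB0 hint2
  have hch0 : ch i0 p0 = x0 := (A.e i0).left_inv hi0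
  have hY0 := hYeq p0 (hsub (mem_closedBall_self hs.le))
  rw [hch0] at hY0
  refine ⟨q, hqp, σ, hσ, i0, hi0, fun h0 => ?_⟩
  rw [h0, sub_zero] at hY0
  rw [hY0] at hj1
  exact absurd (hj1.trans_lt hs2) (lt_irrefl _)

include E P in
/-- **the last step of division 6** -/
theorem locGen (hX : HM (KB A)) (hflat : ∀ i, ∀ x ∈ (A.e i).source, cur hX i x = 0) :
    LocGen L x0 :=
  locGen_of E P hX hflat (Crest.Agent.R281.End_946.hasWt E (n + 2))

include P in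
/-- **division 6, last step**: local data at every point make `L` semiample -/
theorem semiAmple_of (K : Kah A) (σ : HSymp A) {L : LB A} (H : ∀ x0 : M, Nonempty (EndIn K L x0)) :
    SemiAmple L :=
  semiAmple_of_locGen fun x => by
    obtain ⟨E⟩ := H x
    exact locGen E P (flatKB σ) (fun i x hx => cur_flatKB σ i hx)

end

end Crest.Agent.R281.LEnd_10
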