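import Crest.Agent.R281.Fub1_192

/-!
# R281 (S0424), DIV 6, S6-FUB part 2 (helper192): Fubini on a family

`fibI F f u` : the integral of `f` over the leaf `F.leaf u`;
`intD_fub`   : `intD F.P f = ∫_u fibI F f u`, for `f` continuous in the charts with compact support
               (no transformation law is needed);
`integrable_fibI`.
-/

set_option autoImplicit false
set_option linter.unusedSectionVars false

open Set Filter Topology Complex Function MeasureTheory
open scoped ContDiff Matrix ComplexConjugate ComplexOrder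

namespace Crest.Agent.R281.Fub_192

open Crest.Agent.R275.Geo Crest.Agent.R275.Core144 Crest.Agent.R275.EDR890
open Crest.Agent.R273.Defs_333 Crest.Agent.R273.Kah_333 Crest.Agent.R273.Hess_333
open Crest.Agent.R273.Map_835 (HolMap Jp dm mem_dm)
open Crest.Agent.R273.KahI_645 Crest.Agent.R273.Vol_333
open Crest.Agent.R273.Vm_333 Crest.Agent.R281.Defs_273 Crest.Agent.R281.S6D_664
open Crest.Agent.R273.StokesV_332 (intD Den OffK)
open Crest.Agent.R275.SerG398 (lint)
open Crest.Agent.R275.C1d194 (Ui rd_of_mem rd_off rc_eq rcL continuous_cc)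
open Crest.Agent.R275.Tor812 Crest.Agent.R275.TorS666 Crest.Agent.R275.Pai323

noncomputable section

/-! ### splitting the real coordinates -/

section split_

variable {d m : ℕ}

/-- `RI d ⊕ RI m ≃ RI (d+m)` -/
def riE (d m : ℕ) : RI d ⊕ RI m ≃ RI (d + m) :=
  (Equiv.sumProdDistrib (Fin d) (Fin m) (Fin 2)).symm.trans
    (Equiv.prodCongr finSumFinEquiv (Equiv.refl _))

theorem riE_inl (p : RI d) : riE d m (Sum.inl p) = (Fin.castAdd m p.1, p.2) := rfl

theorem riE_inr (p : RI m) : riE d m (Sum.inr p) = (Fin.natAdd d p.1, p.2) := rfl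

/-- `(z,y)` in real coordinates -/
def jn (p : (RI d → ℝ) × (RI m → ℝ)) : RI (d + m) → ℝ := rc (glue (cc p.2) (cc p.1))

/-- the measurable equivalence -/
def jnE (d m : ℕ) : ((RI d → ℝ) × (RI m → ℝ)) ≃ᵐ (RI (d + m) → ℝ) :=
  (MeasurableEquiv.sumPiEquivProdPi (fun _ : RI d ⊕ RI m => ℝ)).symm.trans
    (MeasurableEquiv.piCongrLeft (fun _ : RI (d + m) => ℝ) (riE d m))

theorem jnE_apply (p : (RI d → ℝ) × (RI m → ℝ)) (s : RI d ⊕ RI m) :
    jnE d m p (riE d m s) = Sum.elim p.1 p.2 s := by
  unfold jnE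
  rw [MeasurableEquiv.trans_apply, MeasurableEquiv.piCongrLeft_apply_apply
    (β := fun _ : RI (d + m) => ℝ)]
  rcases s with s | s <;> rfl

theorem jnE_eq (p : (RI d → ℝ) × (RI m → ℝ)) : jnE d m p = jn p := by
  funext q
  obtain ⟨s, rfl⟩ := (riE d m).surjective q
  rw [jnE_apply]
  rcases s with ⟨a, b⟩ | ⟨a, b⟩
  · rw [riE_inl]
    change p.1 (a, b) = rc (glue (cc p.2) (cc p.1)) (Fin.castAdd m a, b)
    have h : rc (cc p.1) (a, b) = p.1 (a, b) := by rw [rc_cc]
    rw [← h]
    fin_cases b <;> simp [rc]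
  · rw [riE_inr]
    change p.2 (a, b) = rc (glue (cc p.2) (cc p.1)) (Fin.natAdd d a, b)
    have h : rc (cc p.2) (a, b) = p.2 (a, b) := by rw [rc_cc]
    rw [← h]
    fin_cases b <;> simp [rc]

theorem mp_jnE : MeasurePreserving (jnE d m) (volume.prod volume) volume := by
  have h1 := (volume_measurePreserving_sumPiEquivProdPi_symm (fun _ : RI d ⊕ RI m => ℝ))
  have h2 := volume_measurePreserving_piCongrLeft (fun _ : RI (d + m) => ℝ) (riE d m)
  exact h2.comp h1

theorem integrable_jn {H : (RI (d + m) → ℝ) → ℂ} (hH : Integrable H) :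
    Integrable (fun p : (RI d → ℝ) × (RI m → ℝ) => H (jn p)) (volume.prod volume) := by
  have h := (mp_jnE (d := d) (m := m)).integrable_comp_emb (jnE d m).measurableEmbedding (g := H)
  have h2 := h.2 hH
  refine h2.congr (Eventually.of_forall fun p => ?_)
  simp only [Function.comp, jnE_eq]

/-- **Fubini in the coordinates `(z,y)`** -/
theorem integral_split {H : (RI (d + m) → ℝ) → ℂ} (hH : Integrable H) :
    ∫ x, H x = ∫ y : RI m → ℝ, ∫ z : RI d → ℝ, H (rc (glue (cc y) (cc z))) := by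
  rw [← (mp_jnE (d := d) (m := m)).integral_comp (jnE d m).measurableEmbedding H]
  have e : (fun p : (RI d → ℝ) × (RI m → ℝ) => H (jnE d m p)) = fun p => H (jn p) := by
    funext p; rw [jnE_eq]
  rw [e, integral_prod_symm _ (integrable_jn hH)]
  rfl

theorem integrable_split {H : (RI (d + m) → ℝ) → ℂ} (hH : Integrable H) :
    Integrable (fun y : RI m → ℝ => ∫ z : RI d → ℝ, H (rc (glue (cc y) (cc z)))) :=
  (integrable_jn hH).integral_prod_right

end split_

/-! ### functions with compact support in a chart -/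

section chart_

variable {n : ℕ} {M : Type} [TopologicalSpace M] {A : Atl n M}

/-- reading of a function with compact support in the chart: continuous with compact support -/
theorem rd_cont [T2Space M] {i : A.ι} {g : M → ℂ}
    (hg : ContinuousOn (fun z => g ((A.e i).symm z)) (A.e i).target)
    {K : Set M} (hK : IsCompact K) (hKi : K ⊆ (A.e i).source)
    (h0 : ∀ x ∈ (A.e i).source, x ∉ K → g x = 0) :
    Continuous (rd A i g) ∧ HasCompactSupport (rd A i g) := by
  set L : Set (RI n → ℝ) := rc '' (A.e i '' K) with hL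
  have hrc : Continuous (rc : Cn n → RI n → ℝ) := by rw [rc_eq]; exact (rcL n).continuous
  have hLc : IsCompact L := (hK.image_of_continuousOn ((A.e i).continuousOn.mono hKi)).image hrc
  have hLU : L ⊆ Ui A i := by
    rintro _ ⟨_, ⟨x, hx, rfl⟩, rfl⟩
    exact mem_Ui (hKi hx)
  have hoff : ∀ x, x ∉ L → rd A i g x = 0 := by
    intro x hx
    by_cases hU : x ∈ Ui A i
    · rw [rd_of_mem hU]
      refine h0 _ ((A.e i).map_target hU) fun hK' => hx ⟨_, ⟨_, hK', rfl⟩, ?_⟩
      rw [(A.e i).right_inv hU, rc_cc]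
    · exact rd_off hU
  have hon : ContinuousOn (rd A i g) (Ui A i) := by
    refine ContinuousOn.congr (f := fun x => g ((A.e i).symm (cc x))) ?_ fun x hx => rd_of_mem hx
    exact hg.comp continuous_cc.continuousOn fun x hx => hx
  refine ⟨?_, HasCompactSupport.intro hLc fun x hx => hoff x hx⟩
  rw [continuous_iff_continuousAt]
  intro x
  by_cases hx : x ∈ Ui A i
  · exact hon.continuousAt ((isOpen_Ui i).mem_nhds hx)
  · have hxL : x ∈ Lᶜ := fun h => hx (hLU h)
    have h1 : rd A i g =ᶠ[𝓝 x] fun _ => (0 : ℂ) := by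
      filter_upwards [hLc.isClosed.isOpen_compl.mem_nhds hxL] with w hw
      exact hoff w hw
    exact continuousAt_const.congr h1.symm

theorem ψ_sub (P : Part A) (i : A.ι) : tsupport (P.ψ i) ⊆ tsupport (P.χ i) := by
  intro x hx
  have h := (P.χ_one i x hx).self_of_nhds
  refine subset_tsupport _ ?_
  rw [Function.mem_support, h]
  exact one_ne_zero

theorem rd_psi [T2Space M] (P : Part A) {i : A.ι} {f : M → ℂ}
    (hf : ContinuousOn (fun z => f ((A.e i).symm z)) (A.e i).target) :
    Continuous (rd A i (fun x => (P.ψ i x : ℂ) * f x)) ∧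
      HasCompactSupport (rd A i (fun x => (P.ψ i x : ℂ) * f x)) := by
  have hcpt : IsCompact (tsupport (P.ψ i)) :=
    (P.χ_cpt i).of_isClosed_subset (isClosed_tsupport _) (ψ_sub P i)
  refine rd_cont ?_ hcpt ((ψ_sub P i).trans (P.χ_sub i)) ?_
  · refine ContinuousOn.mul ?_ hf
    exact Complex.continuous_ofReal.comp_continuousOn (P.ψ_sm i i).continuousOn
  · intro x _ hx
    rw [image_eq_zero_of_notMem_tsupport hx]
    simp

end chart_

/-! ### Fubini -/

variable {N d m : ℕ} {M : Type} [TopologicalSpace M] {A : Atl N M} {U : Set (Cn m)}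

open Classical in
/-- the integral over the leaf (zero if `u ∉ U`) -/
def fibI (F : Fam A d m U) (f : F.B.ι → F.V → ℂ) (u : Cn m) : ℂ :=
  if hu : u ∈ U then intD (lpart F hu) (fun k v => f k v.1) else 0

theorem fibI_of_mem (F : Fam A d m U) (f : F.B.ι → F.V → ℂ) {u : Cn m} (hu : u ∈ U) :
    fibI F f u = intD (lpart F hu) (fun k v => f k v.1) := dif_pos hu

theorem fibI_leaf (F : Fam A d m U) (f : F.B.ι → F.V → ℂ) {u : Cn m} (hu : u ∈ U) :
    fibI F f u = intD (leaf F hu).P (fun k v => f k v.1) := dif_pos hu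

theorem fibI_off (F : Fam A d m U) (f : F.B.ι → F.V → ℂ) {u : Cn m} (hu : u ∉ U) :
    fibI F f u = 0 := dif_neg hu

/-- the reading on a leaf -/
theorem rd_on_leaf (F : Fam A d m U) {k : F.B.ι} (g : F.V → ℂ) {u : Cn m} (hu : u ∈ U)
    (z : RI d → ℝ) :
    rd F.B k g (rc (glue u (cc z))) = rd (latl F hu) k (fun v => g v.1) z := by
  by_cases hz : glue u (cc z) ∈ (F.B.e k).target
  · have h1 : rc (glue u (cc z)) ∈ Ui F.B k := by
      have h' : cc (rc (glue u (cc z))) ∈ (F.B.e k).target := by rwa [cc_rc]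
      exact h'
    have h2 : z ∈ Ui (latl F hu) k := hz
    rw [rd_of_mem h1, rd_of_mem h2, cc_rc]
    change _ = g ((lch F hu k).symm (cc z)).1
    rw [lch_symm_val F hu hz]
  · have h1 : rc (glue u (cc z)) ∉ Ui F.B k := by
      intro h
      apply hz
      have h' : cc (rc (glue u (cc z))) ∈ (F.B.e k).target := h
      rwa [cc_rc] at h'
    have h2 : z ∉ Ui (latl F hu) k := hz
    rw [rd_off h1, rd_off h2]

theorem rd_off_U (F : Fam A d m U) {k : F.B.ι} (g : F.V → ℂ) {u : Cn m} (hu : u ∉ U)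
    (z : RI d → ℝ) : rd F.B k g (rc (glue u (cc z))) = 0 := by
  refine rd_off fun h => hu ?_
  have h' : cc (rc (glue u (cc z))) ∈ (F.B.e k).target := h
  rw [cc_rc] at h'
  have h2 := F.mem ((F.B.e k).symm (glue u (cc z)))
  rwa [y_symm_glue F h'] at h2

/-- one chart -/
theorem lint_split (F : Fam A d m U) {f : F.B.ι → F.V → ℂ}
    (hf : ∀ k, ContinuousOn (fun z => f k ((F.B.e k).symm z)) (F.B.e k).target) (k : F.B.ι) :
    Integrable (fun y : RI m → ℝ => ∫ z : RI d → ℝ,
      rd F.B k (fun x => (F.P.ψ k x : ℂ) * f k x) (rc (glue (cc y) (cc z)))) ∧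
    lint F.B k (fun x => (F.P.ψ k x : ℂ) * f k x) = ∫ y : RI m → ℝ, ∫ z : RI d → ℝ,
      rd F.B k (fun x => (F.P.ψ k x : ℂ) * f k x) (rc (glue (cc y) (cc z))) := by
  obtain ⟨h1, h2⟩ := rd_psi F.P (hf k)
  have h3 := h1.integrable_of_hasCompactSupport (μ := volume) h2
  exact ⟨integrable_split h3, integral_split h3⟩

theorem psi_mul_eq_zero (F : Fam A d m U) {f : F.B.ι → F.V → ℂ} {C : Set F.V}
    (h0 : ∀ k, ∀ x ∈ (F.B.e k).source, x ∉ C → f k x = 0) {k : F.B.ι}
    (hk : ¬ (tsupport (F.P.χ k) ∩ C).Nonempty) (x : F.V) : (F.P.ψ k x : ℂ) * f k x = 0 := by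
  by_cases hx : x ∈ tsupport (F.P.ψ k)
  · have hs := ψ_sub F.P k hx
    have hC : x ∉ C := fun h => hk ⟨x, hs, h⟩
    rw [h0 k x (F.P.χ_sub k hs) hC, mul_zero]
  · rw [image_eq_zero_of_notMem_tsupport hx]
    simp

theorem lint_zero {n : ℕ} {M : Type} [TopologicalSpace M] {A : Atl n M} {i : A.ι} {g : M → ℂ}
    (h : ∀ x, g x = 0) : lint A i g = 0 := by
  unfold lint
  have : rd A i g = fun _ => 0 := by
    funext x
    by_cases hx : x ∈ Ui A i
    · rw [rd_of_mem hx, h]
    · rw [rd_off hx]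
  rw [this]
  simp

/-- the fibre integral as a finite sum of iterated integrals -/
theorem fibI_eq_sum (F : Fam A d m U) {f : F.B.ι → F.V → ℂ} {C : Set F.V} (hC : IsCompact C)
    (h0 : ∀ k, ∀ x ∈ (F.B.e k).source, x ∉ C → f k x = 0) (y : RI m → ℝ) :
    fibI F f (cc y) = ∑ k ∈ (F.P.lf C hC).toFinset, ∫ z : RI d → ℝ,
      rd F.B k (fun x => (F.P.ψ k x : ℂ) * f k x) (rc (glue (cc y) (cc z))) := by
  by_cases hu : cc y ∈ U
  · rw [fibI_of_mem F f hu]
    change (∑ᶠ k : F.B.ι, lint (latl F hu) k (fun v => (F.P.ψ k v.1 : ℂ) * f k v.1)) = _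
    rw [finsum_eq_sum_of_support_subset (s := (F.P.lf C hC).toFinset)]
    · refine Finset.sum_congr rfl fun k _ => ?_
      unfold lint
      refine integral_congr_ae (Eventually.of_forall fun z => ?_)
      exact (rd_on_leaf F (fun x => (F.P.ψ k x : ℂ) * f k x) hu z).symm
    · intro k hk
      rw [Finite.coe_toFinset]
      by_contra hk'
      exact hk (lint_zero fun v => psi_mul_eq_zero F h0 hk' v.1)
  · rw [fibI_off F f hu]
    symm
    refine Finset.sum_eq_zero fun k _ => ?_
    simp only [rd_off_U F _ hu, integral_zero]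

theorem integrable_fibI (F : Fam A d m U) {f : F.B.ι → F.V → ℂ}
    (hf : ∀ k, ContinuousOn (fun z => f k ((F.B.e k).symm z)) (F.B.e k).target) {C : Set F.V}
    (hC : IsCompact C) (h0 : ∀ k, ∀ x ∈ (F.B.e k).source, x ∉ C → f k x = 0) :
    Integrable (fun y : RI m → ℝ => fibI F f (cc y)) := by
  simp only [fibI_eq_sum F hC h0]
  exact integrable_finsetSum _ fun k _ => (lint_split F hf k).1

/-- **Fubini on a family** -/
theorem intD_fub (F : Fam A d m U) {f : F.B.ι → F.V → ℂ}
    (hf : ∀ k, ContinuousOn (fun z => f k ((F.B.e k).symm z)) (F.B.e k).target) {C : Set F.V}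
    (hC : IsCompact C) (h0 : ∀ k, ∀ x ∈ (F.B.e k).source, x ∉ C → f k x = 0) :
    intD F.P f = ∫ y : RI m → ℝ, fibI F f (cc y) := by
  simp only [fibI_eq_sum F hC h0]
  rw [integral_finsetSum _ fun k _ => (lint_split F hf k).1]
  unfold intD
  rw [finsum_eq_sum_of_support_subset (s := (F.P.lf C hC).toFinset)]
  · exact Finset.sum_congr rfl fun k _ => (lint_split F hf k).2
  · intro k hk
    rw [Finite.coe_toFinset]
    by_contra hk'
    exact hk (lint_zero fun v => psi_mul_eq_zero F h0 hk' v)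

/-- the density version -/
theorem intD_fub' (F : Fam A d m U) {f : F.B.ι → F.V → ℂ} (hf : Den F.B f) {C : Set F.V}
    (hC : IsCompact C) (h0 : OffK F.B f C) :
    intD F.P f = ∫ y : RI m → ℝ, fibI F f (cc y) :=
  intD_fub F (fun k => (hf.sm k).continuousOn) hC h0

/-- a factor depending on `y` only comes out of the fibre integral -/
theorem fibI_mul (F : Fam A d m U) (a : Cn m → ℂ) (f : F.B.ι → F.V → ℂ) (u : Cn m) :
    fibI F (fun k v => a (F.y v) * f k v) u = a u * fibI F f u := by
  by_cases hu : u ∈ U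
  · rw [fibI_of_mem _ _ hu, fibI_of_mem _ _ hu]
    unfold intD
    have h1 : ∀ k, lint (latl F hu) k (fun v => ((lpart F hu).ψ k v : ℂ) *
        (a (F.y v.1) * f k v.1)) = a u * lint (latl F hu) k (fun v => ((lpart F hu).ψ k v : ℂ) *
        f k v.1) := by
      intro k
      unfold lint
      rw [← integral_const_mul]
      refine integral_congr_ae (Eventually.of_forall fun z => ?_)
      simp only
      by_cases hz : z ∈ Ui (latl F hu) k
      · rw [rd_of_mem hz, rd_of_mem hz, ((latl F hu).e k |>.symm (cc z)).2]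
        ring
      · rw [rd_off hz, rd_off hz, mul_zero]
    rw [finsum_congr h1]
    rw [mul_finsum]
  · rw [fibI_off _ _ hu, fibI_off _ _ hu, mul_zero]

end

end Crest.Agent.R281.Fub_192
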