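import Crest.Agent.R281.Lf1_425
import Crest.Agent.R281.Fub2_192

/-!
# R281 (S0424), leaf integrals, part 2 (helper425): leaf densities and uniqueness

* `holMap_lift` : a continuous lift through a holomorphic immersion is holomorphic;
* `LDen A d`    : a leaf density of degree `d` on `M`: `Φ i x J`, `J` = tangent frame of the leaf,
  `Φ (J S) = |det S|² Φ J`;
* `LDen.pb Φ F` : the density on the family `F : Fam A d m U`;
* `leaf_unique` : the integral over a compact leaf depends only on its image in `M`.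
-/

set_option autoImplicit false
set_option linter.unusedSectionVars false

open Set Filter Topology Complex Function MeasureTheory
open scoped ContDiff Matrix ComplexConjugate

namespace Crest.Agent.R281.Lf2_425

open Crest.Agent.R275.Geo Crest.Agent.R275.Core144 Crest.Agent.R275.EDR890
open Crest.Agent.R273.Map_835 (HolMap Jp dm mem_dm mt Jp_eq Jm_eq mt_comp mt_id mt_injective Jp_comp)
open Crest.Agent.R273.StokesV_332 Crest.Agent.R281.S6D_664 Crest.Agent.R281.Lf1_425
open Crest.Agent.R275.SerG398 (dens)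
open Crest.Agent.R273.FIb0_597 (ch mem_ch)
open Crest.Agent.R281.Fub_192

noncomputable section

/-! ### lifts through immersions -/

section lift

variable {N n n' : ℕ} {M V V' : Type} [TopologicalSpace M] [TopologicalSpace V]
  [TopologicalSpace V'] {A : Atl N M} {B : Atl n V} {B' : Atl n' V'}

/-- a continuous lift through a holomorphic immersion is holomorphic -/
theorem holMap_lift {f : V → M} {f' : V' → M} {φ : V → V'} (hf : HolMap B A f)
    (hf' : HolMap B' A f') (himm : Imm B' A f') (hφ : Continuous φ) (he : ∀ v, f' (φ v) = f v) :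
    HolMap B B' φ := by
  refine ⟨hφ, fun k k' z hz => ?_⟩
  set v := (B.e k).symm z with hv
  have hvk : v ∈ (B.e k).source := (B.e k).map_target hz.1
  have hvk' : φ v ∈ (B'.e k').source := hz.2
  obtain ⟨j, hj⟩ := A.cover (f v)
  have hj' : f' (φ v) ∈ (A.e j).source := by rw [he]; exact hj
  set w0 := B'.e k' (φ v) with hw0
  have hw0d : w0 ∈ dm B' A f' k' j := mem_dm hvk' hj'
  have hD : Injective (fderiv ℂ (Crest.Agent.R273.Map_835.rd B' A f' k' j) w0) :=
    himm k' j (φ v) hvk' hj'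
  set D := fderiv ℂ (Crest.Agent.R273.Map_835.rd B' A f' k' j) w0 with hDdef
  obtain ⟨p0, hp0⟩ := LinearMap.exists_leftInverse_of_injective D.toLinearMap
    (LinearMap.ker_eq_bot.2 hD)
  let p : Cn N →L[ℂ] Cn n' := LinearMap.toContinuousLinearMap p0
  have hpD : p.comp D = ContinuousLinearMap.id ℂ (Cn n') := by
    ext1 x
    have := congrArg (fun L : Cn n' →ₗ[ℂ] Cn n' => L x) hp0
    exact this
  have hg : AnalyticAt ℂ (fun w => p (Crest.Agent.R273.Map_835.rd B' A f' k' j w)) w0 :=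
    (p.analyticAt _).comp (hf'.analyticAt hw0d)
  have hgD : HasFDerivAt (fun w => p (Crest.Agent.R273.Map_835.rd B' A f' k' j w))
      ((ContinuousLinearEquiv.refl ℂ (Cn n') : Cn n' ≃L[ℂ] Cn n') : Cn n' →L[ℂ] Cn n') w0 := by
    have h1 : HasFDerivAt (fun w => p (Crest.Agent.R273.Map_835.rd B' A f' k' j w))
        (p.comp D) w0 := p.hasFDerivAt.comp w0 (hf'.diffAt hw0d).hasFDerivAt
    rw [hpD] at h1
    exact h1
  obtain ⟨Θ, hwΘ, hsub, hΘ, han, hans⟩ :=
    Crest.Agent.R266.SCV.exists_analytic_openPartialHomeomorph hg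
      (ContinuousLinearEquiv.refl ℂ (Cn n')) hgD
      ((hf'.isOpen_dm k' j).mem_nhds hw0d)
  -- the map `z' ↦ B'.e k' (φ (B.e k).symm z')` is continuous at `z`
  have hcont : ContinuousAt (fun z' => B'.e k' (φ ((B.e k).symm z'))) z := by
    have h1 : ContinuousAt (B.e k).symm z := (B.e k).symm.continuousAt hz.1
    have h2 : ContinuousAt (fun z' => φ ((B.e k).symm z')) z := hφ.continuousAt.comp h1
    exact ContinuousAt.comp (g := B'.e k') ((B'.e k').continuousAt hvk') h2
  have hev1 : ∀ᶠ z' in 𝓝 z, B'.e k' (φ ((B.e k).symm z')) ∈ Θ.source :=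
    hcont (Θ.open_source.mem_nhds hwΘ)
  have hzd : z ∈ dm B A f k j := ⟨hz.1, hj⟩
  have hev2 : ∀ᶠ z' in 𝓝 z, z' ∈ dm B A f k j := (hf.isOpen_dm k j).mem_nhds hzd
  have hopen : IsOpen ((B.e k).target ∩ (B.e k).symm ⁻¹' (φ ⁻¹' (B'.e k').source)) :=
    (B.e k).isOpen_inter_preimage_symm ((B'.e k').open_source.preimage hφ)
  have hev3 := hopen.mem_nhds hz
  have heq : (fun z' => B'.e k' (φ ((B.e k).symm z'))) =ᶠ[𝓝 z]
      fun z' => Θ.symm (p (Crest.Agent.R273.Map_835.rd B A f k j z')) := by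
    filter_upwards [hev1, hev2, hev3] with z' h1 h2 h3
    have h4 : p (Crest.Agent.R273.Map_835.rd B A f k j z') =
        Θ (B'.e k' (φ ((B.e k).symm z'))) := by
      rw [hΘ]
      show p (A.e j (f ((B.e k).symm z'))) =
        p (A.e j (f' ((B'.e k').symm (B'.e k' (φ ((B.e k).symm z'))))))
      rw [(B'.e k').left_inv h3.2, he]
    rw [h4, Θ.left_inv h1]
  have hval : p (Crest.Agent.R273.Map_835.rd B A f k j z) = Θ w0 := by
    rw [hΘ]
    show p (A.e j (f ((B.e k).symm z))) =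
      p (A.e j (f' ((B'.e k').symm (B'.e k' (φ ((B.e k).symm z))))))
    rw [(B'.e k').left_inv hvk', he]
  have hd1 : DifferentiableAt ℂ Θ.symm (p (Crest.Agent.R273.Map_835.rd B A f k j z)) := by
    rw [hval]
    exact (hans _ (Θ.map_source hwΘ)).differentiableAt
  have hd2 : DifferentiableAt ℂ (fun z' => p (Crest.Agent.R273.Map_835.rd B A f k j z')) z :=
    p.differentiableAt.comp z (hf.diffAt hzd)
  have hd3 : DifferentiableAt ℂ
      (fun z' => Θ.symm (p (Crest.Agent.R273.Map_835.rd B A f k j z'))) z :=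
    DifferentiableAt.comp z (g := Θ.symm) hd1 hd2
  exact (hd3.congr_of_eventuallyEq heq).differentiableWithinAt

end lift

/-! ### leaf densities -/

variable {N d m m' : ℕ} {M : Type} [TopologicalSpace M] {A : Atl N M} {U : Set (Cn m)}
  {U' : Set (Cn m')}

/-- a leaf density of degree `d` on `M` -/
structure LDen (A : Atl N M) (d : ℕ) where
  Φ : A.ι → M → (Fin N → Fin d → ℂ) → ℂ
  hom : ∀ i, ∀ x ∈ (A.e i).source, ∀ (J : Matrix (Fin N) (Fin d) ℂ) (S : Matrix (Fin d) (Fin d) ℂ),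
    Φ i x (J * S : Matrix (Fin N) (Fin d) ℂ) = ((‖S.det‖ ^ 2 : ℝ) : ℂ) * Φ i x J
  tr : ∀ i j, ∀ x ∈ (A.e i).source ∩ (A.e j).source, ∀ J : Matrix (Fin N) (Fin d) ℂ,
    Φ i x J = Φ j x (Jm A i j x * J : Matrix (Fin N) (Fin d) ℂ)

/-- smoothness of a leaf density on a set -/
def LDen.SmOn (Φ : LDen A d) (O : Set M) : Prop :=
  ∀ i, ∀ z ∈ (A.e i).target, (A.e i).symm z ∈ O → ∀ J : Fin N → Fin d → ℂ,
    ContDiffAt ℝ ∞ (fun q : Cn N × (Fin N → Fin d → ℂ) => Φ.Φ i ((A.e i).symm q.1) q.2) (z, J)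

/-- the fibre part of a frame -/
def fc (J : Matrix (Fin N) (Fin (d + m)) ℂ) : Matrix (Fin N) (Fin d) ℂ :=
  J.submatrix id (Fin.castAdd m)

/-- the density of `Φ` on the family `F` -/
def LDen.pb (Φ : LDen A d) (F : Fam A d m U) (k : F.B.ι) (v : F.V) : ℂ :=
  Φ.Φ (ch A (F.i v)) (F.i v) (fc (Jp F.B A F.i k (ch A (F.i v)) v))

theorem fc_mul (T : Matrix (Fin N) (Fin N) ℂ) (J : Matrix (Fin N) (Fin (d + m)) ℂ) :
    fc (T * J) = T * fc J := by
  ext a b
  simp [fc, Matrix.mul_apply]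

variable {Φ : LDen A d}

theorem LDen.pb_eq (F : Fam A d m U) {k : F.B.ι} {v : F.V} (hv : v ∈ (F.B.e k).source) {i : A.ι}
    (hi : F.i v ∈ (A.e i).source) :
    Φ.pb F k v = Φ.Φ i (F.i v) (fc (Jp F.B A F.i k i v)) := by
  have hc := mem_ch A (F.i v)
  unfold LDen.pb
  rw [Φ.tr _ i _ ⟨hc, hi⟩, ← fc_mul, F.hol.Jp_right hv ⟨hc, hi⟩]

/-- base rows of the Jacobian of two adapted charts -/
theorem J_base (F : Fam A d m U) {k k' : F.B.ι} {v : F.V}
    (hv : v ∈ (F.B.e k).source ∩ (F.B.e k').source) (c : Fin m) (a : Fin (d + m)) :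
    Jm F.B k k' v (Fin.natAdd d c) a = if Fin.natAdd d c = a then 1 else 0 := by
  show (fderiv ℂ (fun z => F.B.e k' ((F.B.e k).symm z)) (F.B.e k v)
    (EuclideanSpace.single a 1)) (Fin.natAdd d c) = _
  have hov : F.B.e k v ∈ F.B.ov k k' := mem_ov hv
  have hd : DifferentiableAt ℂ (fun z => F.B.e k' ((F.B.e k).symm z)) (F.B.e k v) :=
    (F.B.holo k k').differentiableAt ((isOpen_ov k k').mem_nhds hov)
  have h1 : (fun z => (F.B.e k' ((F.B.e k).symm z)) (Fin.natAdd d c)) =ᶠ[𝓝 (F.B.e k v)]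
      fun z => z (Fin.natAdd d c) := by
    filter_upwards [(isOpen_ov (A := F.B) k k').mem_nhds hov] with z hz
    rw [F.last k' _ hz.2, ← F.last k _ ((F.B.e k).map_target hz.1), (F.B.e k).right_inv hz.1]
  have h2 : HasFDerivAt (fun z : Cn (d + m) => z (Fin.natAdd d c))
      (EuclideanSpace.proj (Fin.natAdd d c) : Cn (d + m) →L[ℂ] ℂ) (F.B.e k v) :=
    (EuclideanSpace.proj (Fin.natAdd d c) : Cn (d + m) →L[ℂ] ℂ).hasFDerivAt
  have h3 : HasFDerivAt (fun z => (F.B.e k' ((F.B.e k).symm z)) (Fin.natAdd d c))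
      ((EuclideanSpace.proj (Fin.natAdd d c) : Cn (d + m) →L[ℂ] ℂ).comp
        (fderiv ℂ (fun z => F.B.e k' ((F.B.e k).symm z)) (F.B.e k v))) (F.B.e k v) :=
    (EuclideanSpace.proj (Fin.natAdd d c) : Cn (d + m) →L[ℂ] ℂ).hasFDerivAt.comp _ hd.hasFDerivAt
  have h4 := (h2.congr_of_eventuallyEq h1).unique h3
  have h5 := congrArg (fun T : Cn (d + m) →L[ℂ] ℂ => T (EuclideanSpace.single a 1)) h4
  have h6 : (EuclideanSpace.single a (1 : ℂ) : Cn (d + m)) (Fin.natAdd d c) =
      if Fin.natAdd d c = a then 1 else 0 := PiLp.single_apply _ _ _ _ _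
  rw [← h6]
  exact h5.symm

/-- the fibre block of the Jacobian -/
def Sf (F : Fam A d m U) (k k' : F.B.ι) (v : F.V) : Matrix (Fin d) (Fin d) ℂ :=
  fb (Jm F.B k k' v)

theorem fc_mul_Jm (F : Fam A d m U) {k k' : F.B.ι} {v : F.V}
    (hv : v ∈ (F.B.e k).source ∩ (F.B.e k').source) (J : Matrix (Fin N) (Fin (d + m)) ℂ) :
    fc (J * Jm F.B k k' v) = fc J * Sf F k k' v := by
  ext a b
  simp only [fc, Matrix.submatrix_apply, Matrix.mul_apply, id_eq]
  rw [Fin.sum_univ_add]
  have h1 : ∀ c : Fin m, J a (Fin.natAdd d c) * Jm F.B k k' v (Fin.natAdd d c) (Fin.castAdd m b) = 0 := by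
    intro c
    rw [J_base F hv c, if_neg, mul_zero]
    intro h
    have := congrArg Fin.val h
    simp at this
    omega
  rw [Finset.sum_eq_zero fun c _ => h1 c, add_zero]
  rfl

theorem det_Jm_eq (F : Fam A d m U) {k k' : F.B.ι} {v : F.V}
    (hv : v ∈ (F.B.e k).source ∩ (F.B.e k').source) :
    (Jm F.B k k' v).det = (Sf F k k' v).det := by
  have h1 : (Jm F.B k k' v).reindex finSumFinEquiv.symm finSumFinEquiv.symm =
      Matrix.fromBlocks (Sf F k k' v)
        (Matrix.of fun (a : Fin d) (c : Fin m) => Jm F.B k k' v (Fin.castAdd m a) (Fin.natAdd d c))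
        0 1 := by
    ext s t
    rcases s with a | c
    · rcases t with b | e
      · rfl
      · rfl
    · rcases t with b | e
      · show Jm F.B k k' v (Fin.natAdd d c) (Fin.castAdd m b) = 0
        rw [J_base F hv c, if_neg]
        intro h
        have := congrArg Fin.val h
        simp at this
        omega
      · show Jm F.B k k' v (Fin.natAdd d c) (Fin.natAdd d e) = (1 : Matrix (Fin m) (Fin m) ℂ) c e
        rw [J_base F hv c, Matrix.one_apply]
        by_cases hce : c = e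
        · subst hce; simp
        · rw [if_neg hce, if_neg]
          intro h
          exact hce (Fin.natAdd_injective m d h)
  rw [← Matrix.det_reindex_self finSumFinEquiv.symm, h1, Matrix.det_fromBlocks_zero₂₁,
    Matrix.det_one, mul_one]

/-- `Φ.pb F` transforms as a density -/
theorem LDen.pb_tr (F : Fam A d m U) {k k' : F.B.ι} {v : F.V}
    (hv : v ∈ (F.B.e k).source ∩ (F.B.e k').source) :
    Φ.pb F k v = dens F.B k k' v * Φ.pb F k' v := by
  have hc := mem_ch A (F.i v)
  have h1 : Jp F.B A F.i k (ch A (F.i v)) v =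
      Jp F.B A F.i k' (ch A (F.i v)) v * Jm F.B k k' v := (F.hol.Jp_left hv hc).symm
  unfold LDen.pb
  rw [h1, fc_mul_Jm F hv, Φ.hom _ _ hc, ← det_Jm_eq F hv]
  rfl

/-- smoothness of the density on the family -/
theorem LDen.pb_smAt (F : Fam A d m U) {O : Set M} (hΦ : Φ.SmOn O) (hO : ∀ v, F.i v ∈ O)
    (k : F.B.ι) : F.B.SmAt k (Φ.pb F k) := by
  intro z hz
  set v := (F.B.e k).symm z with hv
  have hvk : v ∈ (F.B.e k).source := (F.B.e k).map_target hz
  obtain ⟨i, hi⟩ := A.cover (F.i v)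
  have hzd : z ∈ dm F.B A F.i k i := ⟨hz, hi⟩
  have h1 : ContDiffAt ℝ ∞ (Crest.Agent.R273.Map_835.rd F.B A F.i k i) z := by
    have h2 : ContDiffAt ℂ ∞ (Crest.Agent.R273.Map_835.rd F.B A F.i k i) z :=
      (F.hol.analyticAt hzd).contDiffAt
    exact h2.restrict_scalars ℝ
  have h3 : ∀ (a : Fin N) (b : Fin d), ContDiffAt ℝ ∞
      (fun z' => Jp F.B A F.i k i ((F.B.e k).symm z') a (Fin.castAdd m b)) z := by
    intro a b
    have h4 := F.hol.holAt_Jp k i a (Fin.castAdd m b)
    have h5 : ContDiffAt ℂ ∞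
        (fun z' => Jp F.B A F.i k i ((F.B.e k).symm z') a (Fin.castAdd m b)) z :=
      (Crest.Agent.R266.SCV.analyticOnNhd_of_differentiableOn (F.hol.isOpen_dm k i) h4 z
        hzd).contDiffAt
    exact h5.restrict_scalars ℝ
  have h6 : ContDiffAt ℝ ∞ (fun z' => (fun a b => Jp F.B A F.i k i ((F.B.e k).symm z') a
      (Fin.castAdd m b) : Fin N → Fin d → ℂ)) z :=
    contDiffAt_pi.2 fun a => contDiffAt_pi.2 fun b => h3 a b
  have hval : (A.e i).symm (Crest.Agent.R273.Map_835.rd F.B A F.i k i z) = F.i v :=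
    (A.e i).left_inv hi
  have h7 := hΦ i (Crest.Agent.R273.Map_835.rd F.B A F.i k i z) ((A.e i).map_source hi)
    (by rw [hval]; exact hO v)
    (fun a b => Jp F.B A F.i k i ((F.B.e k).symm z) a (Fin.castAdd m b))
  have h8 : ContDiffAt ℝ ∞ (fun z' => Φ.Φ i ((A.e i).symm
      (Crest.Agent.R273.Map_835.rd F.B A F.i k i z'))
      (fun a b => Jp F.B A F.i k i ((F.B.e k).symm z') a (Fin.castAdd m b))) z :=
    ContDiffAt.comp z (g := fun q : Cn N × (Fin N → Fin d → ℂ) =>
      Φ.Φ i ((A.e i).symm q.1) q.2)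
      (f := fun z' => (Crest.Agent.R273.Map_835.rd F.B A F.i k i z',
        (fun a b => Jp F.B A F.i k i ((F.B.e k).symm z') a (Fin.castAdd m b)))) h7 (h1.prodMk h6)
  refine (h8.congr_of_eventuallyEq ?_).contDiffWithinAt
  filter_upwards [(F.hol.isOpen_dm k i).mem_nhds hzd] with z' hz'
  rw [LDen.pb_eq F ((F.B.e k).map_target hz'.1) hz'.2]
  show Φ.Φ i (F.i ((F.B.e k).symm z')) _ = Φ.Φ i ((A.e i).symm (A.e i (F.i ((F.B.e k).symm z')))) _
  rw [(A.e i).left_inv hz'.2]
  rfl

theorem LDen.pb_den (F : Fam A d m U) {O : Set M} (hΦ : Φ.SmOn O) (hO : ∀ v, F.i v ∈ O) :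
    Den F.B (Φ.pb F) := ⟨LDen.pb_smAt F hΦ hO, fun _ _ _ hv => LDen.pb_tr F hv⟩

/-- the density of a leaf is the restriction of the density of the family -/
theorem LDen.pb_leaf (F : Fam A d m U) {u : Cn m} (hu : u ∈ U) {k : F.B.ι} {v : Lf F u}
    (hv : v.1 ∈ (F.B.e k).source) : Φ.pb (leaf F hu) k v = Φ.pb F k v.1 := by
  have hc := mem_ch A (F.i v.1)
  have h1 : fc (Jp (leaf F hu).B A (leaf F hu).i k (ch A (F.i v.1)) v) =
      fc (Jp F.B A F.i k (ch A (F.i v.1)) v.1) := by
    ext a b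
    exact Jp_leaf F hu hv hc a b
  show Φ.Φ _ _ (fc (Jp (leaf F hu).B A (leaf F hu).i k (ch A (F.i v.1)) v)) = Φ.Φ _ _ _
  rw [h1]
  rfl

/-! ### uniqueness -/

theorem compact_leaf (F : Fam A d 0 univ) : CompactSpace F.V := by
  have h1 := F.proper {0} (subset_univ _) isCompact_singleton
  have h2 : F.y ⁻¹' {0} = univ := eq_univ_of_forall fun v => Subsingleton.elim _ _
  rw [h2] at h1
  exact isCompact_univ_iff.1 h1

theorem inj_leaf (F : Fam A d 0 univ) : Injective F.i := fun v w h =>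
  F.inj v w (Subsingleton.elim _ _) h

/-- the identification of two leaves with the same image -/
def lmap (F F' : Fam A d 0 univ) (h : range F.i = range F'.i) : F.V ≃ F'.V :=
  (Equiv.ofInjective F.i (inj_leaf F)).trans
    ((Equiv.setCongr h).trans (Equiv.ofInjective F'.i (inj_leaf F')).symm)

theorem lmap_i (F F' : Fam A d 0 univ) (h : range F.i = range F'.i) (v : F.V) :
    F'.i (lmap F F' h v) = F.i v := by
  unfold lmap
  simp only [Equiv.trans_apply]
  rw [Equiv.apply_ofInjective_symm (inj_leaf F')]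
  rfl

theorem continuous_lmap [T2Space M] (F F' : Fam A d 0 univ) (h : range F.i = range F'.i) :
    Continuous (lmap F F' h) := by
  have := compact_leaf F'
  have h1 : IsEmbedding F'.i := (F'.hol.cont.isClosedEmbedding (inj_leaf F')).isEmbedding
  rw [h1.continuous_iff]
  exact F.hol.cont.congr fun v => (lmap_i F F' h v).symm

/-- the identification as a homeomorphism -/
def lhom [T2Space M] (F F' : Fam A d 0 univ) (h : range F.i = range F'.i) : F.V ≃ₜ F'.V where
  toEquiv := lmap F F' h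
  continuous_toFun := continuous_lmap F F' h
  continuous_invFun := by
    have h1 : (lmap F F' h).symm = lmap F' F h.symm := by
      ext v
      apply inj_leaf F
      rw [lmap_i]
      have := lmap_i F F' h ((lmap F F' h).symm v)
      rw [Equiv.apply_symm_apply] at this
      exact this.symm
    have h2 := continuous_lmap F' F h.symm
    rw [← h1] at h2
    exact h2

theorem lhom_i [T2Space M] (F F' : Fam A d 0 univ) (h : range F.i = range F'.i) (v : F.V) :
    F'.i (lhom F F' h v) = F.i v := lmap_i F F' h v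

theorem lhom_symm_i [T2Space M] (F F' : Fam A d 0 univ) (h : range F.i = range F'.i) (v : F'.V) :
    F.i ((lhom F F' h).symm v) = F'.i v := by
  have := lhom_i F F' h ((lhom F F' h).symm v)
  rw [Homeomorph.apply_symm_apply] at this
  exact this.symm

/-- **leaf uniqueness**: the integral over a leaf depends only on its image -/
theorem leaf_unique [T2Space M] (F F' : Fam A d 0 univ) (h : range F.i = range F'.i)
    {O : Set M} (hΦ : Φ.SmOn O) (hO : ∀ v, F.i v ∈ O) :
    intD F.P (Φ.pb F) = intD F'.P (Φ.pb F') := by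
  have hc := compact_leaf F
  have hO' : ∀ v, F'.i v ∈ O := by
    intro v
    obtain ⟨w, hw⟩ : F'.i v ∈ range F.i := by rw [h]; exact mem_range_self v
    rw [← hw]
    exact hO w
  have h1 : HolMap F.B F'.B (lhom F F' h) :=
    holMap_lift F.hol F'.hol F'.imm (lhom F F' h).continuous (lhom_i F F' h)
  have h2 : HolMap F'.B F.B (lhom F F' h).symm :=
    holMap_lift F'.hol F.hol F.imm (lhom F F' h).symm.continuous (lhom_symm_i F F' h)
  refine intD_bih (lhom F F' h) h1 h2 (LDen.pb_den F hΦ hO) (LDen.pb_den F' hΦ hO') ?_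
    isCompact_univ (offK_univ _) F.P F'.P
  intro i j x hx hj
  have hcx := mem_ch A (F.i x)
  have hcx' : F'.i (lhom F F' h x) ∈ (A.e (ch A (F.i x))).source := by rw [lhom_i]; exact hcx
  rw [LDen.pb_eq F hx hcx, LDen.pb_eq F' hj hcx', lhom_i]
  have h3 : Jp F'.B A F'.i j (ch A (F.i x)) (lhom F F' h x) *
      Jp F.B F'.B (lhom F F' h) i j x = Jp F.B A F.i i (ch A (F.i x)) x := by
    rw [Jp_comp F'.hol h1 hx hj hcx']
    have h4 : (fun x => F'.i (lhom F F' h x)) = F.i := funext fun x => lhom_i F F' h x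
    rw [h4]
  rw [← h3]
  -- degree `d + 0`
  have h5 : fc (m := 0) (Jp F'.B A F'.i j (ch A (F.i x)) (lhom F F' h x) *
      Jp F.B F'.B (lhom F F' h) i j x) =
      fc (m := 0) (Jp F'.B A F'.i j (ch A (F.i x)) (lhom F F' h x)) *
        (Jp F.B F'.B (lhom F F' h) i j x : Matrix (Fin d) (Fin d) ℂ) := by
    ext a b
    rfl
  rw [h5, Φ.hom _ _ hcx]

end

end Crest.Agent.R281.Lf2_425
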