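import Crest.Agent.R281.Mass4_519
import Crest.Agent.R281.Lf2_425
import Crest.Agent.R281.S6V7_664

/-!
# R281 (S0424), S6-GMASS (helper519): the volume of the leaves of a fibration is constant

* `kDen K`        : `det (Jᵀ K conj J)` as a leaf density (helper425's `LDen`); `kDen_pb`;
* `mu_unique`     : `F.mu K univ` depends only on `range F.i` (compact leaves);
* `mass_of_const` : pointwise constancy of the leaf volume gives the measure form `Mass F K v`;
* `local_const`   : near every leaf of a tube;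
* `vol_const`     : on a preconnected union of tubes all leaves have the same volume, and every family
  of leaves has `Mass F K v` with the same `v`; `LFib.vol_const`.
-/

set_option autoImplicit false
set_option linter.unusedSectionVars false
set_option linter.style.haveILetI false

open Set Filter Topology Complex Function MeasureTheory Metric
open scoped ContDiff Matrix ComplexConjugate ComplexOrder ENNReal

namespace Crest.Agent.R281.Mass5_519

open Crest.Agent.R275 Crest.Agent.R275.Geo Crest.Agent.R275.Core144 Crest.Agent.R275.EDR890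
open Crest.Agent.R275.Pai323 Crest.Agent.R275.C1d194 Crest.Agent.R275.GC293
open Crest.Agent.R273.Map_835 (HolMap Jp)
open Crest.Agent.R273.Defs_333 Crest.Agent.R273.Kah_333 Crest.Agent.R273.Hess_333
open Crest.Agent.R273.Vol_333 Crest.Agent.R273.Vm_333 Crest.Agent.R273.KahI_645
open Crest.Agent.R273.StokesV_332 Crest.Agent.R281.Defs_273 Crest.Agent.R281.S6D_664
open Crest.Agent.R281.Mass1_519 Crest.Agent.R281.Mass2_519 Crest.Agent.R281.Mass3_519
open Crest.Agent.R281.Mass4_519
open Crest.Agent.R281.Lf2_425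
open Crest.Agent.R281.Fub_192 (leaf Lf)
open Crest.Agent.R281.Fub5_163 (mass mass_const_of mass_eq_leaf mass_pos intD_mass)
open Crest.Agent.R281.S6V_664

noncomputable section

variable {N d k m : ℕ} {M : Type} [TopologicalSpace M] {A : Atl N M} {U : Set (Cn m)}

/-! ### the leaf density of a Kaehler metric -/

/-- `det (Jᵀ K conj J)` -/
def kDen (K : Kah A) (d : ℕ) : LDen A d where
  Φ i x J := ((Matrix.of J)ᵀ * K.g i x * (Matrix.of J).map conj).det
  hom i x _ J S := by
    show ((J * S)ᵀ * K.g i x * (J * S).map conj).det = _ * (Jᵀ * K.g i x * J.map conj).det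
    have h2 : (S.map conj).det = conj S.det := by
      rw [← RingHom.mapMatrix_apply, ← RingHom.map_det]
    have h3 : ((‖S.det‖ ^ 2 : ℝ) : ℂ) = S.det * conj S.det := by
      rw [Complex.mul_conj, Complex.normSq_eq_norm_sq]
    have h4 : (J * S)ᵀ * K.g i x * (J * S).map conj =
        Sᵀ * (Jᵀ * K.g i x * J.map conj) * S.map conj := by
      rw [Matrix.transpose_mul, Matrix.map_mul]
      simp only [Matrix.mul_assoc]
    rw [h4, Matrix.det_mul, Matrix.det_mul, Matrix.det_transpose, h2, h3]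
    ring
  tr i j x hx J := by
    show (Jᵀ * K.g i x * J.map conj).det =
      ((Jm A i j x * J)ᵀ * K.g j x * (Jm A i j x * J).map conj).det
    rw [K.tr i j x hx, Matrix.transpose_mul, Matrix.map_mul]
    simp only [Matrix.mul_assoc]

theorem kDen_sm (K : Kah A) (d : ℕ) : (kDen K d).SmOn univ := by
  intro i z hz _ J
  have h0 : ContDiffAt ℝ ∞ (fun q : Cn N × (Fin N → Fin d → ℂ) =>
      fun a b => ∑ c, ∑ e, q.2 e a * K.g i ((A.e i).symm q.1) e c * conj (q.2 c b)) (z, J) := by
    refine contDiffAt_pi.2 fun a => contDiffAt_pi.2 fun b => ContDiffAt.sum fun c _ =>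
      ContDiffAt.sum fun e _ => ?_
    have h1 : ∀ (a : Fin N) (b : Fin d), ContDiffAt ℝ ∞
        (fun q : Cn N × (Fin N → Fin d → ℂ) => q.2 a b) (z, J) := fun a b =>
      contDiffAt_pi.1 (contDiffAt_pi.1 contDiffAt_snd a) b
    have h2 : ContDiffAt ℝ ∞ (fun q : Cn N × (Fin N → Fin d → ℂ) =>
        K.g i ((A.e i).symm q.1) e c) (z, J) := by
      have h3 : ContDiffAt ℝ ∞ (fun w => K.g i ((A.e i).symm w) e c) z :=
        (K.sm i e c).contDiffAt ((A.e i).open_target.mem_nhds hz)
      exact ContDiffAt.comp (z, J) (g := fun w => K.g i ((A.e i).symm w) e c)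
        (f := Prod.fst) h3 contDiffAt_fst
    exact ((h1 e a).mul h2).mul
      ((conjCLE : ℂ →L[ℝ] ℂ).contDiff.contDiffAt.comp _ (h1 c b))
  have h5 : (fun q : Cn N × (Fin N → Fin d → ℂ) => (kDen K d).Φ i ((A.e i).symm q.1) q.2) =
      fun q => (Matrix.of (fun a b => ∑ c, ∑ e, q.2 e a * K.g i ((A.e i).symm q.1) e c *
        conj (q.2 c b)) : Matrix (Fin d) (Fin d) ℂ).det := by
    funext q
    show ((Matrix.of q.2)ᵀ * K.g i ((A.e i).symm q.1) * (Matrix.of q.2).map conj).det = _
    congr 1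
    ext a b
    simp only [Matrix.mul_apply, Matrix.transpose_apply, Matrix.map_apply, Matrix.of_apply,
      Finset.sum_mul]
  rw [h5]
  simp only [Matrix.det_apply]
  refine ContDiffAt.sum fun σ _ => ContDiffAt.const_smul _ ?_
  exact contDiffAt_prod fun b _ => contDiffAt_pi.1 (contDiffAt_pi.1 h0 _) _

theorem kDen_pb (F : Fam A d m U) (K : Kah A) {j : F.B.ι} {v : F.V} (hv : v ∈ (F.B.e j).source) :
    (kDen K d).pb F j v = (fb ((F.kah K).g j v)).det := by
  obtain ⟨i, hi⟩ := A.cover (F.i v)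
  rw [LDen.pb_eq F hv hi]
  have h1 : (F.kah K).g j v = (Jp F.B A F.i j i v)ᵀ * K.g i (F.i v) *
      (Jp F.B A F.i j i v).map conj := pullI_g K F.hol F.imm hv hi
  rw [h1]
  show ((fc (Jp F.B A F.i j i v))ᵀ * K.g i (F.i v) * (fc (Jp F.B A F.i j i v)).map conj).det = _
  congr 1

/-! ### uniqueness -/

theorem intD_kah_unique [T2Space M] (F F' : Fam A d 0 univ) (h : range F.i = range F'.i)
    (K : Kah A) : intD F.P (fun j v => ((F.kah K).g j v).det) =
      intD F'.P (fun j v => ((F'.kah K).g j v).det) := by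
  have h1 := leaf_unique F F' h (kDen_sm K d) fun v => mem_univ _
  have e : ∀ F : Fam A d 0 univ, intD F.P ((kDen K d).pb F) =
      intD F.P (fun j v => ((F.kah K).g j v).det) := by
    intro F
    refine intD_congr F.P fun j v hv => ?_
    rw [kDen_pb F K hv]
    rfl
  rw [e F, e F'] at h1
  exact h1

/-- **the volume of a leaf depends only on its image** -/
theorem mu_unique [T2Space M] (F F' : Fam A d 0 univ) (h : range F.i = range F'.i) (K : Kah A) :
    F.mu K univ = F'.mu K univ := by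
  have := compact_leaf F
  have := compact_leaf F'
  rw [mu_univ, mu_univ, intD_kah_unique F F' h K]

theorem range_leaf (F : Fam A d m U) {u : Cn m} (hu : u ∈ U) :
    range (leaf F hu).i = F.i '' (F.y ⁻¹' {u}) := by
  ext x
  constructor
  · rintro ⟨v, rfl⟩
    exact ⟨v.1, v.2, rfl⟩
  · rintro ⟨v, hv, rfl⟩
    exact ⟨⟨v, hv⟩, rfl⟩

/-! ### from leaves to the measure form -/

theorem mass_of_const (F : Fam A d m U) (K : Kah A) (hU : IsOpen U) {v : ℝ} (hv : 0 ≤ v)
    (h : ∀ u ∈ U, mass F K u = v) : Mass F K v := by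
  refine ⟨hv, fun ⟨u, hu⟩ => ?_, ?_⟩
  · rw [← h u hu]
    exact mass_pos F K hu
  intro i1 i2
  have hlf' := isLocallyFinite_vm (volF (adl F) (F.kah K))
  have hlf : IsLocallyFiniteMeasure (nu F K) := hlf'
  have hyc : Continuous F.y := cont_y F
  have hry := cont_ry F
  -- finite on compacts
  have hν : ∀ C ⊆ cc ⁻¹' U, IsCompact C → Measure.map (fun x => rc (F.y x)) (nu F K) C < ⊤ := by
    intro C hCU hC
    rw [Measure.map_apply hry.measurable hC.measurableSet]
    have h1 : (fun x => rc (F.y x)) ⁻¹' C = F.y ⁻¹' (cc '' C) := by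
      ext x
      constructor
      · intro hx
        exact ⟨rc (F.y x), hx, cc_rc _⟩
      · rintro ⟨z, hz, hzx⟩
        show rc (F.y x) ∈ C
        rw [← hzx, rc_cc]
        exact hz
    rw [h1]
    refine (F.proper _ ?_ (hC.image continuous_cc)).measure_lt_top
    rintro _ ⟨z, hz, rfl⟩
    exact hCU hz
  -- tested form
  have ht : ∀ χ : (RI m → ℝ) → ℝ, ContDiff ℝ ∞ χ → HasCompactSupport χ → tsupport χ ⊆ cc ⁻¹' U →
      ∫ z, χ z ∂(Measure.map (fun x => rc (F.y x)) (nu F K)) = v * ∫ z, χ z := by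
    intro χ hχ hχc hχU
    set X : Cn m → ℂ := fun z => ((χ (rc z) : ℝ) : ℂ) with hX
    have hXc : Continuous X := continuous_ofReal.comp (hχ.continuous.comp continuous_rc)
    have hts : tsupport X ⊆ cc '' tsupport χ := by
      refine closure_minimal ?_ (hχc.isCompact.image continuous_cc).isClosed
      intro z hz
      refine ⟨rc z, subset_tsupport _ ?_, cc_rc z⟩
      intro h0
      apply hz
      show ((χ (rc z) : ℝ) : ℂ) = 0
      rw [h0, Complex.ofReal_zero]
    have hcc : HasCompactSupport X :=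
      (hχc.isCompact.image continuous_cc).of_isClosed_subset (isClosed_tsupport _) hts
    have htU : tsupport X ⊆ U := by
      intro z hz
      obtain ⟨t, ht, rfl⟩ := hts hz
      exact hχU ht
    have hpc : IsCompact (F.y ⁻¹' tsupport X) := F.proper _ htU hcc
    have h1 := intD_mass F K hXc hcc htU
    have h0 : ∀ x, x ∉ F.y ⁻¹' tsupport X → X (F.y x) = 0 := fun x hx =>
      image_eq_zero_of_notMem_tsupport hx
    have h2 : Integrable (fun x => X (F.y x)) (vm (volF (adl F) (F.kah K))) :=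
      integrable_cc _ (hXc.comp hyc) hpc h0
    have h3 := int_fb F.P (adl F) (F.kah K) h2 hpc h0
    rw [h3] at h1
    have h4 : ∫ x : RI m → ℝ, X (cc x) * (mass F K (cc x) : ℂ) = ((v * ∫ z, χ z : ℝ) : ℂ) := by
      have h5 : ∀ x : RI m → ℝ, X (cc x) * (mass F K (cc x) : ℂ) = ((v * χ x : ℝ) : ℂ) := by
        intro x
        by_cases hx : cc x ∈ U
        · rw [h _ hx, hX]
          simp only [rc_cc]
          push_cast
          ring
        · have h6 : X (cc x) = 0 := image_eq_zero_of_notMem_tsupport fun h' => hx (htU h')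
          have h7 : χ x = 0 := image_eq_zero_of_notMem_tsupport fun h' => hx (hχU h')
          rw [h6, h7]; simp
      simp only [h5]
      have h8 : ∫ x : RI m → ℝ, ((v * χ x : ℝ) : ℂ) = ((∫ x : RI m → ℝ, v * χ x : ℝ) : ℂ) :=
        integral_ofReal (𝕜 := ℂ)
      rw [h8, integral_const_mul]
    rw [h4] at h1
    have h9 : ∫ x, X (F.y x) ∂(vm (volF (adl F) (F.kah K))) =
        ((∫ x, χ (rc (F.y x)) ∂(vm (volF (adl F) (F.kah K))) : ℝ) : ℂ) := integral_ofReal (𝕜 := ℂ)
    rw [h9] at h1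
    rw [integral_map hry.aemeasurable hχ.continuous.aestronglyMeasurable]
    exact_mod_cast h1
  -- local equality on balls
  have hcU : IsOpen (cc ⁻¹' U : Set (RI m → ℝ)) := hU.preimage continuous_cc
  have loc : ∀ x : RI m → ℝ, ∃ r : ℝ, x ∈ cc ⁻¹' U → 0 < r ∧ ball x r ⊆ cc ⁻¹' U ∧
      (Measure.map (fun x => rc (F.y x)) (nu F K)).restrict (ball x r) =
        ENNReal.ofReal v • volume.restrict (ball x r) := by
    intro x
    by_cases hx : x ∈ cc ⁻¹' U
    swap
    · exact ⟨0, fun h => absurd h hx⟩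
    obtain ⟨ε, hε, hεU⟩ := Metric.isOpen_iff.1 hcU x hx
    have hsub : closedBall x (ε / 2) ⊆ cc ⁻¹' U := (closedBall_subset_ball (by linarith)).trans hεU
    refine ⟨ε / 2, fun _ => ⟨by positivity, ball_subset_closedBall.trans hsub, ?_⟩⟩
    refine restrict_eq ((measure_mono ball_subset_closedBall).trans_lt
      (hν _ hsub (isCompact_closedBall _ _))) measure_ball_lt_top hv fun χ h1 h2 => ?_
    exact ht χ h1 (compact_of_tsupport h2) (h2.trans hsub)
  choose r hr using loc
  obtain ⟨T, hTU, hTc, hT⟩ := TopologicalSpace.isOpen_biUnion_countable (cc ⁻¹' U)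
    (fun x => ball x (r x)) (fun x _ => isOpen_ball)
  have hUeq : ⋃ x ∈ T, ball x (r x) = cc ⁻¹' U := by
    rw [hT]
    refine Subset.antisymm (iUnion₂_subset fun x hx => (hr x hx).2.1) fun x hx => ?_
    exact mem_iUnion₂.2 ⟨x, hx, mem_ball_self (hr x hx).1⟩
  have h1 : (Measure.map (fun x => rc (F.y x)) (nu F K)).restrict (⋃ x ∈ T, ball x (r x)) =
      (ENNReal.ofReal v • volume).restrict (⋃ x ∈ T, ball x (r x)) := by
    rw [Measure.restrict_biUnion_congr hTc]
    intro x hx
    rw [Measure.restrict_smul, (hr x (hTU hx)).2.2]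
  rw [hUeq, Measure.restrict_smul] at h1
  rw [← h1]
  symm
  refine Measure.restrict_eq_self_of_ae_mem ?_
  refine (ae_map_iff (p := fun z => z ∈ cc ⁻¹' U) hry.aemeasurable
    hcU.measurableSet).2 (Eventually.of_forall fun x => ?_)
  show cc (rc (F.y x)) ∈ U
  rw [cc_rc]
  exact F.mem x

/-! ### tubes -/

variable {Tf : M → Set M}

/-- near a leaf of a tube -/
theorem local_const [T2Space M] [SecondCountableTopology M] (hN : N = d + k) (τ : Tube A k Tf)
    (K : Kah A) {x0 : M} (hx0 : x0 ∈ τ.W) : ∃ v : ℝ, 0 < v ∧ ∃ O : Set M, IsOpen O ∧ x0 ∈ O ∧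
      ∀ x ∈ O, ∀ G : Fam A d 0 univ, range G.i = Tf x → G.mu K univ = ENNReal.ofReal v := by
  obtain ⟨r, hr, F, h1, h2, h3, -, h5⟩ := exists_tubeFam (d := d) hN τ hx0
  have hUe : {u | (aff (τ.f x0) r hr).symm u ∈ ball (τ.f x0) r} =
      aff (τ.f x0) r hr '' ball (τ.f x0) r :=
    ((aff (τ.f x0) r hr).image_eq_preimage_symm _).symm
  have hUo : IsOpen {u | (aff (τ.f x0) r hr).symm u ∈ ball (τ.f x0) r} := by
    rw [hUe]; exact (aff (τ.f x0) r hr).isOpenMap _ isOpen_ball
  have hUc : IsPreconnected {u | (aff (τ.f x0) r hr).symm u ∈ ball (τ.f x0) r} := by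
    rw [hUe]
    exact (convex_ball _ _).isPreconnected.image _ (aff (τ.f x0) r hr).continuous.continuousOn
  have hne : {u | (aff (τ.f x0) r hr).symm u ∈ ball (τ.f x0) r}.Nonempty := by
    rw [hUe]
    exact ⟨_, _, mem_ball_self hr, rfl⟩
  obtain ⟨v, hv, -, -, h6⟩ := leaf_mu_const F K hUo hUc hne
  refine ⟨v, hv, τ.W ∩ τ.f ⁻¹' ball (τ.f x0) r, ?_, ⟨hx0, mem_ball_self hr⟩, ?_⟩
  · rw [← h3]
    exact h2.isOpen_range
  · intro x hx G hG
    rw [← h3] at hx
    obtain ⟨w, rfl⟩ := hx
    rw [← h6 (F.y w) (F.mem w)]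
    refine mu_unique G _ ?_ K
    rw [hG, range_leaf, h5 w]

/-- **the volume of the leaves is constant on a preconnected union of tubes** -/
theorem vol_const [T2Space M] [SecondCountableTopology M] (hN : N = d + k) {Om : Set M}
    (hOm : IsPreconnected Om) (tb : ∀ x ∈ Om, ∃ τ : Tube A k Tf, x ∈ τ.W) (K : Kah A) :
    ∃ v : ℝ, 0 < v ∧ ∀ x ∈ Om, ∀ G : Fam A d 0 univ, range G.i = Tf x →
      G.mu K univ = ENNReal.ofReal v := by
  -- the local value
  have hl : ∀ x : Om, ∃ v : ℝ, 0 < v ∧ ∃ O : Set M, IsOpen O ∧ (x : M) ∈ O ∧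
      ∀ x' ∈ O, ∀ G : Fam A d 0 univ, range G.i = Tf x' → G.mu K univ = ENNReal.ofReal v := by
    intro x
    obtain ⟨τ, hτ⟩ := tb x x.2
    exact local_const hN τ K hτ
  choose v hv O hO hxO hG using hl
  have hps : PreconnectedSpace Om := isPreconnected_iff_preconnectedSpace.1 hOm
  have hlc : IsLocallyConstant v := by
    rw [IsLocallyConstant.iff_eventually_eq]
    intro x
    filter_upwards [continuous_subtype_val.continuousAt.eventually ((hO x).mem_nhds (hxO x))]
      with y hy
    obtain ⟨τ, hτ⟩ := tb y y.2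
    obtain ⟨G, hG1, -⟩ := exists_leaf (d := d) hN τ hτ
    have e1 := hG x y hy G hG1
    have e2 := hG y y (hxO y) G hG1
    rw [e1] at e2
    exact ((ENNReal.ofReal_eq_ofReal_iff (hv x).le (hv y).le).1 e2).symm
  rcases isEmpty_or_nonempty Om with he | ⟨⟨x0⟩⟩
  · exact ⟨1, one_pos, fun x hx => (he.false ⟨x, hx⟩).elim⟩
  refine ⟨v x0, hv x0, fun x hx G hGx => ?_⟩
  rw [← hlc.apply_eq_of_preconnectedSpace ⟨x, hx⟩ x0]
  exact hG ⟨x, hx⟩ x (hxO ⟨x, hx⟩) G hGx

/-- the global constant, for leaves and for families of leaves -/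
structure VolC (A : Atl N M) (Tf : M → Set M) (Om : Set M) (d : ℕ) (K : Kah A) (v : ℝ) : Prop where
  pos : 0 < v
  leaf : ∀ x ∈ Om, ∀ G : Fam A d 0 univ, range G.i = Tf x → G.mu K univ = ENNReal.ofReal v

theorem exists_volC [T2Space M] [SecondCountableTopology M] (hN : N = d + k) {Om : Set M}
    (hOm : IsPreconnected Om) (tb : ∀ x ∈ Om, ∃ τ : Tube A k Tf, x ∈ τ.W) (K : Kah A) :
    ∃ v, VolC A Tf Om d K v := by
  obtain ⟨v, h1, h2⟩ := vol_const hN hOm tb K
  exact ⟨v, h1, h2⟩

namespace VolC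

variable {Om : Set M} {K : Kah A} {v : ℝ}

/-- the volume of the leaves of a family -/
theorem mass_eq (h : VolC A Tf Om d K v) (F : Fam A d m U)
    (hF : ∀ u ∈ U, ∃ x ∈ Om, F.i '' (F.y ⁻¹' {u}) = Tf x) : ∀ u ∈ U, mass F K u = v := by
  intro u hu
  obtain ⟨x, hx, hx2⟩ := hF u hu
  have h1 := h.leaf x hx (Fub_192.leaf F hu) (by rw [range_leaf, hx2])
  rw [leaf_mu F K hu] at h1
  exact (ENNReal.ofReal_eq_ofReal_iff (mass_pos F K hu).le h.pos.le).1 h1

/-- **every family of leaves has mass `v`** (`U` need not be connected) -/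
theorem mass (h : VolC A Tf Om d K v) (F : Fam A d m U) (hU : IsOpen U)
    (hF : ∀ u ∈ U, ∃ x ∈ Om, F.i '' (F.y ⁻¹' {u}) = Tf x) : Mass F K v :=
  mass_of_const F K hU h.pos.le (h.mass_eq F hF)

/-- the compact form: the total volume as an integral -/
theorem intD_leaf (h : VolC A Tf Om d K v) {x : M} (hx : x ∈ Om) (G : Fam A d 0 univ)
    (hG : range G.i = Tf x) : intD G.P (fun j w => ((G.kah K).g j w).det) = v := by
  have hc := compact_leaf G
  have h1 := h.leaf x hx G hG
  rw [mu_univ] at h1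
  have hne : Nonempty G.V := (G.conn 0 (mem_univ _)).nonempty.to_subtype.map Subtype.val
  have h2 := Fub5_163.vol_pos G.P (G.kah K)
  have h3 := (ENNReal.ofReal_eq_ofReal_iff h2.1.le h.pos.le).1 h1
  apply Complex.ext
  · rw [h3, Complex.ofReal_re]
  · rw [h2.2, Complex.ofReal_im]

end VolC

/-- **Lagrangian fibrations**: all leaves have the same volume -/
theorem exists_volC_LFib {n : ℕ} [T2Space M] [SecondCountableTopology M] {A : Atl (2 * n) M}
    {σ : HSymp A} (F0 : LFib A σ) (K : Kah A) : ∃ v, VolC A F0.Tf F0.Om n K v :=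
  exists_volC (k := n) (by omega) F0.cn (fun x hx => by
    obtain ⟨τ, hτ, -⟩ := F0.tube x hx
    exact ⟨τ, hτ⟩) K

end

end Crest.Agent.R281.Mass5_519
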