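import Crest.Agent.R273.YauMax_635
import Crest.Agent.R273.FIa0_597
import Crest.Agent.R273.FIlin_332

/-!
# R281 (HK / YAU), helper487: uniqueness in Calabi's problem (functions of class `C²`)

* C² calculus of the complex Hessian `cH` (`cH_eq_hess2`, `cH_add`, `cH_sub`, `cH_const_mul`, `cH_psd`,
  `cH_nsd_of_localMax`, `continuousOn_cH`), the barrier `exp (-α |w - c|²)` (`cH_bar`, `tr_bar`)
* `smp_local` : E. Hopf's strong maximum principle for `tr (Q ∂∂̄ w) ≥ 0`, `Q > 0` continuous
* `unique_gen`, `unique`, `unique_kah`, `unique_ma` : uniqueness for the Monge-Ampere equation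
-/

set_option autoImplicit false
set_option linter.unusedSectionVars false

open Set Filter Topology Complex Metric
open scoped ContDiff Matrix ComplexConjugate ComplexOrder MatrixOrder

namespace Crest.Agent.R281.KpU_487

open Crest.Agent.R275.Geo Crest.Agent.R275.Core144 Crest.Agent.R275.GC293
open Crest.Agent.R275.OmT75 Crest.Agent.R275.EDR890
open Crest.Agent.R273.Defs_333 Crest.Agent.R273.YauDefs_635 Crest.Agent.R273.HM_333
open Crest.Agent.R273.YauCh_635 Crest.Agent.R273.Hess_333 Crest.Agent.R273.HessB_333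
open Crest.Agent.R273.Kah_333 Crest.Agent.R273
open Crest.Agent.R273.YauMax_635

noncomputable section

variable {n : ℕ}

/-! ### complex Hessians of functions of class `C²` -/

theorem cH_eq_hess2 {u : Cn n → ℝ} {z : Cn n} (h : ContDiffAt ℝ 2 u z) : cH u z = hess u z := by
  ext a b
  rw [cH_eq_hs h, hess_apply]
  simp only [Levi_145.hs, dj, wd, wdL, cI_false]
  rw [neg_smul, ← sub_eq_add_neg]
  rfl

theorem cH_congr {u v : Cn n → ℝ} {z : Cn n} (h : u =ᶠ[𝓝 z] v) : cH u z = cH v z := by
  have h2 : fderiv ℝ u =ᶠ[𝓝 z] fderiv ℝ v := h.fderiv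
  simp only [cH, D2, h2.fderiv_eq]

theorem cH_add {u v : Cn n → ℝ} {z : Cn n} (hu : ContDiffAt ℝ 2 u z) (hv : ContDiffAt ℝ 2 v z) :
    cH (fun w => u w + v w) z = cH u z + cH v z := by
  ext a b
  rw [Matrix.add_apply, cH_eq_hs (hu.add hv), cH_eq_hs hu, cH_eq_hs hv,
    ← Levi_145.hs_add (Levi_145.cx_c2 hu) (Levi_145.cx_c2 hv)]
  congr 1
  funext w
  simp [Levi_145.cx]

theorem cH_const_mul {u : Cn n → ℝ} {z : Cn n} (c : ℝ) (hu : ContDiffAt ℝ 2 u z) :
    cH (fun w => c * u w) z = (c : ℂ) • cH u z := by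
  ext a b
  rw [Matrix.smul_apply, cH_eq_hs (contDiffAt_const.mul hu), cH_eq_hs hu, smul_eq_mul,
    ← Levi_145.hs_const_mul (c : ℂ) (Levi_145.cx_c2 hu)]
  congr 1
  funext w
  simp [Levi_145.cx]

theorem cH_const (c : ℝ) (z : Cn n) : cH (fun _ => c) z = 0 := by
  ext a b
  simp [cH, D2]

theorem cH_sub {u v : Cn n → ℝ} {z : Cn n} (hu : ContDiffAt ℝ 2 u z) (hv : ContDiffAt ℝ 2 v z) :
    cH (fun w => u w - v w) z = cH u z - cH v z := by
  have h1 : cH (fun w => u w + (-1) * v w) z = cH u z + ((-1 : ℝ) : ℂ) • cH v z := by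
    rw [cH_add hu (contDiffAt_const.mul hv), cH_const_mul _ hv]
  have h2 : (fun w => u w - v w) = fun w => u w + (-1) * v w := by
    funext w
    ring
  rw [h2, h1]
  push_cast
  rw [neg_smul, one_smul, sub_eq_add_neg]

theorem cH_neg {u : Cn n → ℝ} {z : Cn n} (hu : ContDiffAt ℝ 2 u z) :
    cH (fun w => - u w) z = - cH u z := by
  have h1 := cH_sub (u := fun _ => 0) (z := z) contDiffAt_const hu
  rw [cH_const, zero_sub] at h1
  rw [← h1]
  congr 1
  funext w
  ring

theorem cH_psd {u : Cn n → ℝ} {z : Cn n} (hu : ContDiffAt ℝ 2 u z)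
    (h : ∀ v, 0 ≤ lev u z v) : (cH u z).PosSemidef := by
  have hh : (cH u z).IsHermitian := by
    ext a b
    rw [Matrix.conjTranspose_apply, cH_eq_hs hu, cH_eq_hs hu]
    exact Levi_145.hs_herm hu b a
  refine Matrix.PosSemidef.of_dotProduct_mulVec_nonneg hh fun x => ?_
  set v : Cn n := WithLp.toLp 2 (fun a => conj (x a)) with hv
  have h1 := h v
  rw [lev333_eq_lev145] at h1
  have h2 := Levi_145.lev_eq hu v
  have h3 : star x ⬝ᵥ (cH u z) *ᵥ x
      = ∑ a, ∑ b, Levi_145.hs (Levi_145.cx u) z a b * v a * conj (v b) := by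
    simp only [dotProduct, Matrix.mulVec, Pi.star_apply, RCLike.star_def, Finset.mul_sum, hv,
      Complex.conj_conj, cH_eq_hs hu]
    refine Finset.sum_congr rfl fun a _ => Finset.sum_congr rfl fun b _ => ?_
    ring
  rw [h3, ← h2]
  exact_mod_cast (by linarith : (0 : ℝ) ≤ Levi_145.lev u z v)

theorem cH_nsd_of_localMax {u : Cn n → ℝ} {z : Cn n} (hu : ContDiffAt ℝ 2 u z)
    (hm : IsLocalMax u z) : (-(cH u z)).PosSemidef := by
  rw [← cH_neg hu]
  exact cH_psd hu.neg (lev_nonneg_of_localMin hu.neg hm.neg)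

theorem cH_psd_of_localMin {u : Cn n → ℝ} {z : Cn n} (hu : ContDiffAt ℝ 2 u z)
    (hm : IsLocalMin u z) : (cH u z).PosSemidef :=
  cH_psd hu (lev_nonneg_of_localMin hu hm)

theorem continuousOn_cH {u : Cn n → ℝ} {U : Set (Cn n)} (hU : IsOpen U)
    (hu : ContDiffOn ℝ 2 u U) (a b : Fin n) : ContinuousOn (fun z => cH u z a b) U := by
  have h1 := contDiffOn_fd2 hU hu
  have h2 : ∀ v w : Cn n, ContinuousOn (fun z => ((D2 u z v w : ℝ) : ℂ)) U := fun v w =>
    Complex.continuous_ofReal.comp_continuousOn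
      ((h1.clm_apply continuousOn_const).clm_apply continuousOn_const)
  simp only [cH, Matrix.of_apply, Complex.ofReal_add, Complex.ofReal_sub]
  exact continuousOn_const.mul (((h2 _ _).add (h2 _ _)).add
    (continuousOn_const.mul ((h2 _ _).sub (h2 _ _))))

/-! ### the barrier -/

/-- `|w - c|²` -/
def rho (c w : Cn n) : ℝ := Levi_145.sumSq (fun k (w : Cn n) => w k - c k) w

theorem rho_eq (c w : Cn n) : rho c w = ‖w - c‖ ^ 2 := by
  rw [EuclideanSpace.norm_sq_eq]
  rfl

theorem anal_coord (c : Cn n) (k : Fin n) (z : Cn n) :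
    AnalyticAt ℂ (fun w : Cn n => w k - c k) z := by
  have h : AnalyticAt ℂ (fun w : Cn n => w k) z :=
    (EuclideanSpace.proj k : Cn n →L[ℂ] ℂ).analyticAt z
  exact h.sub analyticAt_const

theorem fderiv_coord (c : Cn n) (k : Fin n) (z v : Cn n) :
    fderiv ℂ (fun w : Cn n => w k - c k) z v = v k := by
  have h : HasFDerivAt (fun w : Cn n => w k - c k) (EuclideanSpace.proj k : Cn n →L[ℂ] ℂ) z :=
    (EuclideanSpace.proj k : Cn n →L[ℂ] ℂ).hasFDerivAt.sub_const _
  rw [h.fderiv]
  rfl

theorem c2_rho (c z : Cn n) (k : ℕ∞ω) : ContDiffAt ℝ k (rho c) z :=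
  Levi_145.c2_sumSq (fun j => anal_coord c j z) k

theorem cx_rho (c : Cn n) :
    Levi_145.cx (rho c) = fun w => ∑ j, (w j - c j) * conj (w j - c j) := by
  funext w
  simp only [Levi_145.cx, rho, Levi_145.sumSq]
  push_cast
  exact Finset.sum_congr rfl fun j _ => by rw [Complex.mul_conj']

theorem diff_term (c : Cn n) (j : Fin n) (z : Cn n) :
    DifferentiableAt ℝ (fun w : Cn n => (w j - c j) * conj (w j - c j)) z := by
  have hr : DifferentiableAt ℝ (fun w : Cn n => w j - c j) z :=
    (anal_coord c j z).differentiableAt.restrictScalars ℝ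
  exact hr.mul ((Complex.conjCLE : ℂ →L[ℝ] ℂ).differentiableAt.comp z hr)

theorem dj_rho (c z : Cn n) (a : Fin n) : dj a (Levi_145.cx (rho c)) z = conj (z a - c a) := by
  rw [cx_rho, dj_sum (f := fun j (w : Cn n) => (w j - c j) * conj (w j - c j))
    (fun j _ => diff_term c j z)]
  rw [Finset.sum_eq_single a]
  · rw [Levi_145.dj_normSq (anal_coord c a z).differentiableAt, fderiv_coord]
    simp
  · intro j _ hj
    rw [Levi_145.dj_normSq (anal_coord c j z).differentiableAt, fderiv_coord]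
    simp [hj]
  · simp

theorem dbj_rho (c z : Cn n) (a : Fin n) : dbj a (Levi_145.cx (rho c)) z = z a - c a := by
  have h1 := Levi_145.dj_conj (f := Levi_145.cx (rho c)) (z := z)
    (Levi_145.cx_diff ((c2_rho c z 1).differentiableAt (by norm_num))) a
  have h2 : (fun y => conj (Levi_145.cx (rho c) y)) = Levi_145.cx (rho c) := by
    funext y
    simp [Levi_145.cx]
  rw [h2, dj_rho] at h1
  have h3 := congrArg conj h1
  rw [Complex.conj_conj, Complex.conj_conj] at h3
  exact h3.symm

theorem hs_rho (c z : Cn n) (a b : Fin n) :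
    Levi_145.hs (Levi_145.cx (rho c)) z a b = if a = b then 1 else 0 := by
  unfold Levi_145.hs
  have h1 : dbj b (Levi_145.cx (rho c)) = fun w => w b - c b := by
    funext w
    exact dbj_rho c w b
  rw [h1, Levi_145.dj_holo (anal_coord c b z).differentiableAt, fderiv_coord]
  simp [eq_comm]

/-- the barrier `exp (-α |w - c|²)` -/
def bar (α : ℝ) (c w : Cn n) : ℝ := Real.exp (-α * rho c w)

theorem c2_bar (α : ℝ) (c z : Cn n) : ContDiffAt ℝ 2 (bar α c) z :=
  (contDiffAt_const.mul (c2_rho c z 2)).exp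

theorem cH_bar (α : ℝ) (c z : Cn n) : cH (bar α c) z =
    ((bar α c z : ℝ) : ℂ) • (((α ^ 2 : ℝ) : ℂ) • Matrix.vecMulVec (fun a => conj (z a - c a))
      (fun b => z b - c b) - (α : ℂ) • (1 : Matrix (Fin n) (Fin n) ℂ)) := by
  ext a b
  rw [cH_eq_hs (c2_bar α c z)]
  have h := Levi_145.hs_comp_real (u := rho c) (z := z) (χ := fun t => Real.exp (-α * t))
    (χ' := fun t => -α * Real.exp (-α * t)) (χ'' := α ^ 2 * Real.exp (-α * rho c z))
    (c2_rho c z 2)
    (Eventually.of_forall fun t => by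
      have h1 : HasDerivAt (fun t : ℝ => -α * t) (-α) t := by
        simpa using (hasDerivAt_id t).const_mul (-α)
      have h2 := h1.exp
      convert h2 using 1
      ring)
    (by
      have h1 : HasDerivAt (fun t : ℝ => -α * t) (-α) (rho c z) := by
        simpa using (hasDerivAt_id (rho c z)).const_mul (-α)
      have h2 := (h1.exp).const_mul (-α)
      have e2 : α ^ 2 * Real.exp (-α * rho c z) = -α * (Real.exp (-α * rho c z) * -α) := by ring
      rw [e2]
      exact h2) a b
  have e : (fun y => Real.exp (-α * rho c y)) = bar α c := rfl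
  rw [e, dj_rho, dbj_rho, hs_rho] at h
  rw [h]
  simp only [Matrix.smul_apply, Matrix.sub_apply, Matrix.vecMulVec_apply, smul_eq_mul, bar,
    Matrix.one_apply]
  push_cast
  ring

theorem tr_bar (Q : Matrix (Fin n) (Fin n) ℂ) (α : ℝ) (c z : Cn n) :
    (Q * cH (bar α c) z).trace.re = bar α c z *
      (α ^ 2 * (star (fun a => conj (z a - c a)) ⬝ᵥ Q *ᵥ (fun a => conj (z a - c a))).re
        - α * Q.trace.re) := by
  have h1 : (Q * Matrix.vecMulVec (fun a => conj (z a - c a)) (fun b => z b - c b)).trace =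
      star (fun a => conj (z a - c a)) ⬝ᵥ Q *ᵥ (fun a => conj (z a - c a)) := by
    rw [Matrix.mul_vecMulVec, Matrix.trace_vecMulVec]
    simp only [dotProduct, Pi.star_apply, RCLike.star_def, Complex.conj_conj]
    exact Finset.sum_congr rfl fun a _ => mul_comm _ _
  rw [cH_bar, Matrix.mul_smul, Matrix.trace_smul, Matrix.mul_sub, Matrix.trace_sub,
    Matrix.mul_smul, Matrix.mul_smul, Matrix.trace_smul, Matrix.trace_smul, h1, Matrix.mul_one]
  simp only [smul_eq_mul, Complex.re_ofReal_mul, Complex.sub_re]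

/-! ### the strong maximum principle -/

theorem tr_nonneg' {Q S : Matrix (Fin n) (Fin n) ℂ} (hQ : Q.PosDef) (hS : S.PosSemidef) :
    0 ≤ ((Q * S).trace).re := by
  have h := FIa0_597.tr_re_nonneg hQ.inv hS
  rwa [Matrix.nonsing_inv_nonsing_inv _ ((Matrix.isUnit_iff_isUnit_det _).1 hQ.isUnit)] at h

/-- no interior maximum for strict subsolutions -/
theorem no_max {Q : Matrix (Fin n) (Fin n) ℂ} (hQ : Q.PosDef) {φ : Cn n → ℝ} {z : Cn n}
    (hφ : ContDiffAt ℝ 2 φ z) (hL : 0 < ((Q * cH φ z).trace).re) : ¬ IsLocalMax φ z := fun hm => by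
  have h1 := tr_nonneg' hQ (cH_nsd_of_localMax hφ hm)
  rw [Matrix.mul_neg, Matrix.trace_neg, Complex.neg_re] at h1
  linarith

theorem par_dist {z1 y z : Cn n} (h : dist z ((2 : ℝ)⁻¹ • (z1 + y)) ≤ dist y z1 / 2)
    (hne : z ≠ y) : dist z z1 < dist y z1 := by
  set c : Cn n := (2 : ℝ)⁻¹ • (z1 + y) with hc
  have h1 := parallelogram_law_with_norm ℝ (z - c) ((2 : ℝ)⁻¹ • (y - z1))
  have e1 : z - c + (2 : ℝ)⁻¹ • (y - z1) = z - z1 := by
    rw [hc]
    module
  have e2 : z - c - (2 : ℝ)⁻¹ • (y - z1) = z - y := by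
    rw [hc]
    module
  rw [e1, e2, norm_smul] at h1
  rw [dist_eq_norm] at h ⊢
  rw [dist_eq_norm] at h ⊢
  have h2 : 0 < ‖z - y‖ := norm_pos_iff.2 (sub_ne_zero.2 hne)
  have h3 := norm_nonneg (z - c)
  have h4 := norm_nonneg (z - z1)
  have h5 := norm_nonneg (y - z1)
  have e3 : ‖(2 : ℝ)⁻¹‖ = 1 / 2 := by
    rw [Real.norm_of_nonneg (by norm_num)]
    norm_num
  rw [e3] at h1
  by_contra hcon
  push Not at hcon
  nlinarith

theorem smp_local {U : Set (Cn n)} (hU : IsOpen U) {w : Cn n → ℝ} (hw : ContDiffOn ℝ 2 w U)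
    {Q : Cn n → Matrix (Fin n) (Fin n) ℂ} (hQ : ∀ z ∈ U, (Q z).PosDef)
    (hQc : ∀ a b, ContinuousOn (fun z => Q z a b) U)
    (hL : ∀ z ∈ U, 0 ≤ (Q z * cH w z).trace.re) {m : ℝ} (hm : ∀ z ∈ U, w z ≤ m)
    {z0 : Cn n} (hz0 : z0 ∈ U) (h0 : w z0 = m) : ∀ᶠ z in 𝓝 z0, w z = m := by
  by_contra hne
  have hwc : ContinuousOn w U := hw.continuousOn
  have hwa : ∀ z ∈ U, ContDiffAt ℝ 2 w z := fun z hz => hw.contDiffAt (hU.mem_nhds hz)
  obtain ⟨R, hR, hRU⟩ : ∃ R > 0, ball z0 (4 * R) ⊆ U := by
    obtain ⟨R, hR, h⟩ := Metric.isOpen_iff.1 hU z0 hz0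
    exact ⟨R / 4, by positivity, by rwa [mul_div_cancel₀ _ (by norm_num : (4 : ℝ) ≠ 0)]⟩
  have hfreq : ∃ᶠ z in 𝓝 z0, w z ≠ m := by simpa [Filter.not_eventually] using hne
  obtain ⟨z1, hz1w, hz1⟩ := (hfreq.and_eventually (ball_mem_nhds z0 hR)).exists
  -- the contact set
  have hcl : closedBall z1 (dist z0 z1) ⊆ U := fun z hz => hRU (by
    rw [mem_ball]
    rw [mem_closedBall] at hz
    have := dist_triangle z z1 z0
    rw [dist_comm z0 z1] at hz
    linarith)
  set Z : Set (Cn n) := closedBall z1 (dist z0 z1) ∩ w ⁻¹' {m} with hZ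
  have hZc : IsCompact Z := by
    refine (isCompact_closedBall z1 (dist z0 z1)).of_isClosed_subset ?_ inter_subset_left
    exact (hwc.mono hcl).preimage_isClosed_of_isClosed isClosed_closedBall isClosed_singleton
  have hz0Z : z0 ∈ Z := ⟨mem_closedBall.2 le_rfl, h0⟩
  obtain ⟨y, hyZ, hymin⟩ := hZc.exists_isMinOn ⟨z0, hz0Z⟩
    (f := fun z => dist z z1) (by fun_prop)
  have hd : 0 < dist y z1 := by
    rw [dist_pos]
    rintro rfl
    exact hz1w hyZ.2
  have hdR : dist y z1 < R := by
    have h1 : dist y z1 ≤ dist z0 z1 := mem_closedBall.1 hyZ.1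
    rw [dist_comm z0 z1] at h1
    linarith
  have hyU : y ∈ U := hcl hyZ.1
  have hwy : w y = m := hyZ.2
  have hlt : ∀ z, dist z z1 < dist y z1 → w z < m := by
    intro z hz
    have hz' : z ∈ closedBall z1 (dist z0 z1) := by
      rw [mem_closedBall]
      exact hz.le.trans (mem_closedBall.1 hyZ.1)
    refine lt_of_le_of_ne (hm z (hcl hz')) fun h => ?_
    have := hymin (show z ∈ Z from ⟨hz', h⟩)
    simp only [mem_ofPred_eq] at this
    linarith
  set c : Cn n := (2 : ℝ)⁻¹ • (z1 + y) with hc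
  have hyc : dist y c = dist y z1 / 2 := by
    rw [dist_eq_norm, dist_eq_norm]
    have : y - c = (2 : ℝ)⁻¹ • (y - z1) := by
      rw [hc]
      module
    rw [this, norm_smul, Real.norm_of_nonneg (by norm_num)]
    ring
  set r1 : ℝ := dist y z1 / 4 with hr1
  have hr1p : 0 < r1 := by positivity
  have hBU : closedBall y r1 ⊆ U := fun z hz => hRU (by
    rw [mem_closedBall] at hz
    rw [mem_ball]
    have h1 := dist_triangle z y z0
    have h2 := dist_triangle y z1 z0
    linarith)
  have hne : ∀ z ∈ closedBall y r1, z ≠ c := by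
    rintro z hz rfl
    rw [mem_closedBall, dist_comm, hyc] at hz
    linarith
  -- quadratic form and trace
  have hQre : ∀ a b, ContinuousOn (fun z => Q z a b) (closedBall y r1) := fun a b =>
    (hQc a b).mono hBU
  have hcoord : ∀ a : Fin n, Continuous (fun z : Cn n => conj (z a - c a)) := fun a => by fun_prop
  set q : Cn n → ℝ := fun z =>
    (star (fun a => conj (z a - c a)) ⬝ᵥ Q z *ᵥ (fun a => conj (z a - c a))).re with hq
  set t : Cn n → ℝ := fun z => (Q z).trace.re with ht
  have hqc : ContinuousOn q (closedBall y r1) := by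
    simp only [hq, dotProduct, Matrix.mulVec, Pi.star_apply]
    refine Complex.continuous_re.comp_continuousOn ?_
    refine continuousOn_finsetSum _ fun a _ => ?_
    refine ContinuousOn.mul ?_ (continuousOn_finsetSum _ fun b _ =>
      (hQre a b).mul (hcoord b).continuousOn)
    exact (continuous_star.comp (hcoord a)).continuousOn
  have htc : ContinuousOn t (closedBall y r1) := by
    simp only [ht, Matrix.trace, Matrix.diag]
    exact Complex.continuous_re.comp_continuousOn
      (continuousOn_finsetSum _ fun a _ => hQre a a)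
  have hqp : ∀ z ∈ closedBall y r1, 0 < q z := by
    intro z hz
    have h1 : (fun a => conj (z a - c a)) ≠ 0 := by
      intro h
      apply hne z hz
      ext a
      have h2 := congrFun h a
      simp only [Pi.zero_apply, map_eq_zero, sub_eq_zero] at h2
      exact h2
    exact (Complex.lt_def.1 ((hQ z (hBU hz)).dotProduct_mulVec_pos h1)).1
  obtain ⟨C, hC⟩ := (isCompact_closedBall y r1).exists_bound_of_continuousOn
    (htc.div hqc fun z hz => (hqp z hz).ne')
  set α : ℝ := |C| + 1 with hα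
  have hα0 : 0 < α := by positivity
  have hbar : ∀ z ∈ closedBall y r1, 0 < (Q z * cH (bar α c) z).trace.re := by
    intro z hz
    rw [tr_bar]
    refine mul_pos (Real.exp_pos _) ?_
    have h1 := hC z hz
    have h2 := hqp z hz
    rw [Real.norm_eq_abs, abs_le] at h1
    have h3 : t z ≤ C * q z := by
      have := (div_le_iff₀ h2).1 h1.2
      exact this
    have h4 : C ≤ |C| := le_abs_self C
    change 0 < α ^ 2 * q z - α * t z
    have h5 : α ^ 2 * q z - α * t z ≥ α * q z * (α - C) := by nlinarith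
    have h6 : 0 < α * q z * (α - C) := mul_pos (mul_pos hα0 h2) (by rw [hα]; linarith)
    linarith
  -- strict inequality on the inner part of the sphere
  have hSc : IsCompact (sphere y r1 ∩ closedBall c (dist y z1 / 2)) :=
    (isCompact_sphere y r1).inter_right isClosed_closedBall
  have hSU : sphere y r1 ∩ closedBall c (dist y z1 / 2) ⊆ U := fun z hz =>
    hBU (sphere_subset_closedBall hz.1)
  obtain ⟨η, hη, hη2⟩ := hSc.exists_forall_le' (f := fun z => m - w z) (a := 0)
    (continuousOn_const.sub (hwc.mono hSU)) (fun z hz => by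
      have h1 : z ≠ y := by
        rintro rfl
        have := mem_sphere.1 hz.1
        rw [dist_self] at this
        linarith
      have := hlt z (par_dist (mem_closedBall.1 hz.2) h1)
      linarith)
  set φ : Cn n → ℝ := fun z => w z + η / 2 * bar α c z with hφ
  have hφa : ∀ z ∈ U, ContDiffAt ℝ 2 φ z := fun z hz =>
    (hwa z hz).add (contDiffAt_const.mul (c2_bar α c z))
  have hb1 : ∀ z, bar α c z ≤ 1 := fun z => by
    unfold bar
    rw [rho_eq, Real.exp_le_one_iff]
    have : 0 ≤ α * ‖z - c‖ ^ 2 := by positivity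
    linarith
  have hb0 : ∀ z, 0 < bar α c z := fun z => Real.exp_pos _
  have hsph : ∀ z ∈ sphere y r1, φ z < φ y := by
    intro z hz
    by_cases hzc : z ∈ closedBall c (dist y z1 / 2)
    · have h1 : η ≤ m - w z := hη2 z ⟨hz, hzc⟩
      simp only [hφ, hwy]
      have h2 := hb1 z
      have h3 := mul_pos (half_pos hη) (hb0 y)
      nlinarith
    · rw [mem_closedBall, not_le] at hzc
      have h1 : bar α c z < bar α c y := by
        unfold bar
        rw [rho_eq, rho_eq, Real.exp_lt_exp]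
        rw [← dist_eq_norm, ← dist_eq_norm, hyc]
        have h2 : (dist y z1 / 2) ^ 2 < dist z c ^ 2 := by
          exact pow_lt_pow_left₀ hzc (by positivity) (by norm_num)
        nlinarith
      have h2 := hm z (hBU (sphere_subset_closedBall hz))
      simp only [hφ, hwy]
      have := mul_lt_mul_of_pos_left h1 (half_pos hη)
      linarith
  obtain ⟨x, hx, hxmax⟩ := (isCompact_closedBall y r1).exists_isMaxOn
    ⟨y, mem_closedBall_self hr1p.le⟩
    (fun z hz => (hφa z (hBU hz)).continuousAt.continuousWithinAt)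
  have hxb : x ∈ ball y r1 := by
    rcases (mem_closedBall.1 hx).lt_or_eq with h | h
    · exact h
    · exfalso
      have h1 := hsph x h
      have h2 := hxmax (mem_closedBall_self hr1p.le : y ∈ closedBall y r1)
      simp only [mem_ofPred_eq] at h2
      linarith
  have hloc : IsLocalMax φ x :=
    hxmax.isLocalMax (mem_of_superset (isOpen_ball.mem_nhds hxb) ball_subset_closedBall)
  refine no_max (hQ x (hBU hx)) (hφa x (hBU hx)) ?_ hloc
  have e : cH φ x = cH w x + ((η / 2 : ℝ) : ℂ) • cH (bar α c) x := by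
    rw [hφ, cH_add (hwa x (hBU hx)) (contDiffAt_const.mul (c2_bar α c x)),
      cH_const_mul _ (c2_bar α c x)]
  rw [e, Matrix.mul_add, Matrix.mul_smul, Matrix.trace_add, Matrix.trace_smul, Complex.add_re,
    smul_eq_mul, Complex.re_ofReal_mul]
  have h1 := hL x (hBU hx)
  have h2 := mul_pos (half_pos hη) (hbar x hx)
  linarith

/-! ### uniqueness on compact connected manifolds -/

theorem contOn_inv {U : Set (Cn n)} {G : Cn n → Matrix (Fin n) (Fin n) ℂ}
    (hG : ∀ a b, ContinuousOn (fun z => G z a b) U) (h0 : ∀ z ∈ U, (G z).det ≠ 0) (a b : Fin n) :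
    ContinuousOn (fun z => (G z)⁻¹ a b) U := by
  have h1 : Continuous fun z : U => G z := by
    refine continuous_matrix fun a b => ?_
    exact (continuousOn_iff_continuous_domRestrict.1 (hG a b))
  rw [continuousOn_iff_continuous_domRestrict]
  have h2 : (fun z : U => (G z)⁻¹ a b) = fun z : U => ((G z).det)⁻¹ * (G z).adjugate a b := by
    funext z
    simp only [Matrix.inv_def, Ring.inverse_eq_inv', Matrix.smul_apply, smul_eq_mul]
  have h3 : Continuous (fun z : U => (G z)⁻¹ a b) := by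
    rw [h2]
    exact (h1.matrix_det.inv₀ fun z => h0 z z.2).mul (h1.matrix_adjugate.matrix_elem a b)
  exact h3

/-- arithmetic-geometric mean inequality: volume preserving Hermitian perturbations have nonnegative
trace -/
theorem tr_inv_nonneg {G B : Matrix (Fin n) (Fin n) ℂ} (hG : G.PosDef) (hGB : (G + B).PosDef)
    (hdet : (G + B).det = G.det) : 0 ≤ ((G⁻¹ * B).trace).re := by
  rcases Nat.eq_zero_or_pos n with rfl | hn
  · simp [Matrix.trace]
  have h1 := FIlin_332.amgm hn hG hGB.posSemidef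
  have h2 : 0 < G.det.re := (Complex.lt_def.1 hG.det_pos).1
  rw [hdet, div_self h2.ne', Real.one_rpow, mul_one, Matrix.mul_add, Matrix.trace_add,
    FIa0_597.tr_self hG, Complex.add_re, Complex.natCast_re] at h1
  linarith

variable {M : Type} [TopologicalSpace M] {A : Atl n M}

/-- class `C²` in the charts -/
def C2f (A : Atl n M) (u : M → ℝ) : Prop :=
  ∀ i, ContDiffOn ℝ 2 (fun z => u ((A.e i).symm z)) (A.e i).target

theorem C2f.of_sm {u : M → ℝ} (h : A.Sm u) : C2f A u := fun i => (h i).of_le two_le_inf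

theorem C2f.continuous {u : M → ℝ} (h : C2f A u) : Continuous u := by
  rw [continuous_iff_continuousAt]
  intro x
  obtain ⟨i, hi⟩ := A.cover x
  have h1 : ContinuousAt (fun z => u ((A.e i).symm z)) (A.e i x) :=
    ((h i).contDiffAt ((A.e i).open_target.mem_nhds ((A.e i).map_source hi))).continuousAt
  have h2 : ContinuousAt (fun y => (fun z => u ((A.e i).symm z)) (A.e i y)) x :=
    ContinuousAt.comp (f := A.e i) h1 ((A.e i).continuousAt hi)
  refine h2.congr ?_
  filter_upwards [(A.e i).open_source.mem_nhds hi] with y hy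
  simp [(A.e i).left_inv hy]

theorem C2f.sub {u v : M → ℝ} (hu : C2f A u) (hv : C2f A v) : C2f A (fun x => u x - v x) :=
  fun i => (hu i).sub (hv i)

theorem C2f.hsf_eq {u : M → ℝ} (hu : C2f A u) (i : A.ι) {x : M} (hx : x ∈ (A.e i).source) :
    hsf A u i x = cH (fun z => u ((A.e i).symm z)) (A.e i x) :=
  (cH_eq_hess2 ((hu i).contDiffAt ((A.e i).open_target.mem_nhds ((A.e i).map_source hx)))).symm

theorem C2f.hsf_sub {u v : M → ℝ} (hu : C2f A u) (hv : C2f A v) (i : A.ι) {x : M}
    (hx : x ∈ (A.e i).source) : hsf A (fun x => u x - v x) i x = hsf A u i x - hsf A v i x := by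
  have hz := (A.e i).open_target.mem_nhds ((A.e i).map_source hx)
  rw [(hu.sub hv).hsf_eq i hx, hu.hsf_eq i hx, hv.hsf_eq i hx,
    cH_sub ((hu i).contDiffAt hz) ((hv i).contDiffAt hz)]

theorem localMax_chart {u : M → ℝ} {x : M} (hm : ∀ y, u y ≤ u x) (i : A.ι)
    (hx : x ∈ (A.e i).source) : IsLocalMax (fun z => u ((A.e i).symm z)) (A.e i x) := by
  refine Eventually.of_forall fun z => ?_
  simp only [(A.e i).left_inv hx]
  exact hm _

theorem hsf_nsd {u : M → ℝ} (hu : C2f A u) {x : M} (hm : ∀ y, u y ≤ u x) (i : A.ι)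
    (hx : x ∈ (A.e i).source) : (-(hsf A u i x)).PosSemidef := by
  rw [hu.hsf_eq i hx]
  exact cH_nsd_of_localMax
    ((hu i).contDiffAt ((A.e i).open_target.mem_nhds ((A.e i).map_source hx)))
    (localMax_chart hm i hx)

/-- a comparison of determinants at a maximum of `u - v` -/
theorem det_le_of_max {G : A.ι → M → Matrix (Fin n) (Fin n) ℂ} {u v : M → ℝ} (hu : C2f A u)
    (hv : C2f A v) {x : M} (hm : ∀ y, u y - v y ≤ u x - v x) {i : A.ι}
    (hx : x ∈ (A.e i).source) (hpu : (G i x + hsf A u i x).PosDef) :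
    (G i x + hsf A u i x).det ≤ (G i x + hsf A v i x).det := by
  have h1 := hsf_nsd (hu.sub hv) hm i hx
  rw [hu.hsf_sub hv i hx] at h1
  have h2 := det_le_det_add hpu h1
  have e : G i x + hsf A u i x + -(hsf A u i x - hsf A v i x) = G i x + hsf A v i x := by abel
  rwa [e] at h2

/-- **Uniqueness in Calabi's problem, `C²` version** (`G` need not be closed or smooth). -/
theorem unique_gen [CompactSpace M] [ConnectedSpace M]
    (G : A.ι → M → Matrix (Fin n) (Fin n) ℂ)
    (hG : ∀ i a b, ContinuousOn (fun z => G i ((A.e i).symm z) a b) (A.e i).target)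
    {u v : M → ℝ} (hu : C2f A u) (hv : C2f A v)
    (hpu : ∀ i, ∀ x ∈ (A.e i).source, (G i x + hsf A u i x).PosDef)
    (hpv : ∀ i, ∀ x ∈ (A.e i).source, (G i x + hsf A v i x).PosDef)
    {c : ℝ} (hdet : ∀ i, ∀ x ∈ (A.e i).source,
      (G i x + hsf A u i x).det = (c : ℂ) * (G i x + hsf A v i x).det) :
    c = 1 ∧ ∃ k : ℝ, ∀ x, u x - v x = k := by
  have hwc : Continuous fun x => u x - v x := (hu.sub hv).continuous
  obtain ⟨x0⟩ := (inferInstance : Nonempty M)
  obtain ⟨x1, -, hx1⟩ := isCompact_univ.exists_isMaxOn (⟨x0, mem_univ x0⟩ : (univ : Set M).Nonempty)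
    hwc.continuousOn
  obtain ⟨x2, -, hx2⟩ := isCompact_univ.exists_isMinOn (⟨x0, mem_univ x0⟩ : (univ : Set M).Nonempty)
    hwc.continuousOn
  have hmax : ∀ y, u y - v y ≤ u x1 - v x1 := fun y => hx1 (mem_univ y)
  have hmin : ∀ y, v y - u y ≤ v x2 - u x2 := fun y => by
    have : u x2 - v x2 ≤ u y - v y := hx2 (mem_univ y)
    linarith
  have hc : c = 1 := by
    apply le_antisymm
    · obtain ⟨i, hi⟩ := A.cover x1
      have h1 := det_le_of_max hu hv hmax hi (hpu i x1 hi)
      have h2 := (hpv i x1 hi).det_pos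
      rw [hdet i x1 hi] at h1
      have h3 := (Complex.lt_def.1 h2).1
      have h4 := (Complex.le_def.1 h1).1
      rw [Complex.re_ofReal_mul] at h4
      by_contra hcon
      push Not at hcon
      simp only [Complex.zero_re] at h3
      nlinarith
    · obtain ⟨i, hi⟩ := A.cover x2
      have h1 := det_le_of_max hv hu hmin hi (hpv i x2 hi)
      have h2 := (hpv i x2 hi).det_pos
      rw [hdet i x2 hi] at h1
      have h3 := (Complex.lt_def.1 h2).1
      have h4 := (Complex.le_def.1 h1).1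
      rw [Complex.re_ofReal_mul] at h4
      by_contra hcon
      push Not at hcon
      simp only [Complex.zero_re] at h3
      nlinarith
  refine ⟨hc, u x1 - v x1, ?_⟩
  subst hc
  set m : ℝ := u x1 - v x1 with hm
  have hclosed : IsClosed {x | u x - v x = m} := isClosed_eq hwc continuous_const
  have hopen : IsOpen {x | u x - v x = m} := by
    rw [isOpen_iff_mem_nhds]
    intro x hx
    obtain ⟨i, hi⟩ := A.cover x
    have hzt := (A.e i).map_source hi
    have hC2 := (hu.sub hv) i
    set Gv : Cn n → Matrix (Fin n) (Fin n) ℂ := fun z =>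
      G i ((A.e i).symm z) + cH (fun z => v ((A.e i).symm z)) z with hGv
    have hGv' : ∀ z ∈ (A.e i).target, Gv z =
        G i ((A.e i).symm z) + hsf A v i ((A.e i).symm z) := by
      intro z hz
      rw [hv.hsf_eq i ((A.e i).map_target hz), (A.e i).right_inv hz]
    have hGu' : ∀ z ∈ (A.e i).target, Gv z + cH (fun z => u ((A.e i).symm z) -
        v ((A.e i).symm z)) z = G i ((A.e i).symm z) + hsf A u i ((A.e i).symm z) := by
      intro z hz
      have h1 := hu.hsf_sub hv i ((A.e i).map_target hz)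
      rw [(hu.sub hv).hsf_eq i ((A.e i).map_target hz), (A.e i).right_inv hz] at h1
      rw [hGv' z hz, h1]
      abel
    have hpd : ∀ z ∈ (A.e i).target, (Gv z).PosDef := fun z hz => by
      rw [hGv' z hz]
      exact hpv i _ ((A.e i).map_target hz)
    have hGvc : ∀ a b, ContinuousOn (fun z => Gv z a b) (A.e i).target := fun a b => by
      simp only [hGv, Matrix.add_apply]
      exact (hG i a b).add (continuousOn_cH (A.e i).open_target (hv i) a b)
    have key := smp_local (A.e i).open_target hC2 (Q := fun z => (Gv z)⁻¹)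
      (fun z hz => (hpd z hz).inv)
      (fun a b => contOn_inv hGvc (fun z hz => (hpd z hz).det_pos.ne') a b)
      (fun z hz => by
        have h1 := hpu i _ ((A.e i).map_target hz)
        have h2 := hdet i _ ((A.e i).map_target hz)
        rw [← hGu' z hz] at h1 h2
        rw [← hGv' z hz, Complex.ofReal_one, one_mul] at h2
        exact tr_inv_nonneg (hpd z hz) h1 h2)
      (m := m) (fun z _ => hmax _) hzt (by
        simp only [(A.e i).left_inv hi]
        exact hx)
    have h3 := ((A.e i).continuousAt hi).eventually key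
    filter_upwards [h3, (A.e i).open_source.mem_nhds hi] with y hy hys
    rw [(A.e i).left_inv hys] at hy
    exact hy
  have huniv : {x | u x - v x = m} = univ :=
    IsClopen.eq_univ ⟨hclosed, hopen⟩ ⟨x1, rfl⟩
  intro x
  have : x ∈ {x | u x - v x = m} := by
    rw [huniv]
    exact mem_univ x
  exact this

/-- **Uniqueness for Kaehler metrics `K + i∂∂̄u`, `K + i∂∂̄v`.** -/
theorem unique [CompactSpace M] [ConnectedSpace M] (K : Kah A)
    {u v : M → ℝ} (hu : C2f A u) (hv : C2f A v)
    (hpu : ∀ i, ∀ x ∈ (A.e i).source, (K.g i x + hsf A u i x).PosDef)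
    (hpv : ∀ i, ∀ x ∈ (A.e i).source, (K.g i x + hsf A v i x).PosDef)
    {c : ℝ} (hdet : ∀ i, ∀ x ∈ (A.e i).source,
      (K.g i x + hsf A u i x).det = (c : ℂ) * (K.g i x + hsf A v i x).det) :
    c = 1 ∧ ∃ k : ℝ, ∀ x, u x - v x = k :=
  unique_gen K.g (fun i a b => (K.sm i a b).continuousOn) hu hv hpu hpv hdet

/-- two Kaehler metrics of the same class with proportional volume forms are equal -/
theorem unique_kah [CompactSpace M] [ConnectedSpace M] (K K₁ K₂ : Kah A)
    {u v : M → ℝ} (hu : C2f A u) (hv : C2f A v)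
    (h₁ : ∀ i, ∀ x ∈ (A.e i).source, K₁.g i x = K.g i x + hsf A u i x)
    (h₂ : ∀ i, ∀ x ∈ (A.e i).source, K₂.g i x = K.g i x + hsf A v i x)
    {c : ℝ} (hdet : ∀ i, ∀ x ∈ (A.e i).source, (K₁.g i x).det = (c : ℂ) * (K₂.g i x).det) :
    c = 1 ∧ (∃ k : ℝ, ∀ x, u x - v x = k) ∧ ∀ i, ∀ x ∈ (A.e i).source, K₁.g i x = K₂.g i x := by
  obtain ⟨h3, k, hk⟩ := unique K hu hv (fun i x hx => by rw [← h₁ i x hx]; exact K₁.pos i x hx)
    (fun i x hx => by rw [← h₂ i x hx]; exact K₂.pos i x hx) (c := c) (fun i x hx => by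
      rw [← h₁ i x hx, ← h₂ i x hx]
      exact hdet i x hx)
  refine ⟨h3, ⟨k, hk⟩, fun i x hx => ?_⟩
  have h4 := hu.hsf_sub hv i hx
  have h5 : (fun x => u x - v x) = fun _ => k := funext hk
  rw [(hu.sub hv).hsf_eq i hx] at h4
  have h6 : (fun z => u ((A.e i).symm z) - v ((A.e i).symm z)) = fun _ => k := funext fun z => hk _
  rw [h6, cH_const] at h4
  rw [h₁ i x hx, h₂ i x hx, sub_eq_zero.1 h4.symm]

/-- **Uniqueness with prescribed volume form**: solutions of `det (G + hess u) = exp (F + c) det G₀`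
differ by constants, and the constants `c` agree. -/
theorem unique_ma [CompactSpace M] [ConnectedSpace M]
    (G : A.ι → M → Matrix (Fin n) (Fin n) ℂ)
    (hG : ∀ i a b, ContinuousOn (fun z => G i ((A.e i).symm z) a b) (A.e i).target)
    {u v : M → ℝ} (hu : C2f A u) (hv : C2f A v)
    (hpu : ∀ i, ∀ x ∈ (A.e i).source, (G i x + hsf A u i x).PosDef)
    (hpv : ∀ i, ∀ x ∈ (A.e i).source, (G i x + hsf A v i x).PosDef)
    {c c' : ℝ} {D : A.ι → M → ℂ} (hdu : ∀ i, ∀ x ∈ (A.e i).source,
      (G i x + hsf A u i x).det = (Real.exp c : ℂ) * D i x)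
    (hdv : ∀ i, ∀ x ∈ (A.e i).source, (G i x + hsf A v i x).det = (Real.exp c' : ℂ) * D i x) :
    c = c' ∧ ∃ k : ℝ, ∀ x, u x - v x = k := by
  obtain ⟨h1, h2⟩ := unique_gen G hG hu hv hpu hpv (c := Real.exp (c - c')) (fun i x hx => by
    rw [hdu i x hx, hdv i x hx, ← mul_assoc, ← Complex.ofReal_mul, ← Real.exp_add,
      sub_add_cancel])
  refine ⟨?_, h2⟩
  have := Real.exp_eq_one_iff _ |>.1 h1
  linarith

end

end Crest.Agent.R281.KpU_487
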