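import Crest.Prelude.Def_CXForm
import Crest.Prelude.Def_CXLineBundle
import Crest.Prelude.Def_CXIntegral
import Crest.Agent.R281.Defs_273
import Crest.Agent.R281.Rk3_599

/-!
# R281 (S0424), SKEL281 (helper474): level A

* `S0424Stmt` : the frozen statement S0424, verbatim;
* `Rich A L`  : `n + 1` sections of some positive power of `L` whose ratios have rank `n` somewhere;
* `END6`      : division 6: under the hypotheses of `Main281`, `Rich A L` implies `SemiAmple L`;
* `RANK281`   : divisions 1-5 and 7: the hypotheses of `Main281` imply `Rich A L`;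
* `main281_of`, `s0424_of`.
-/

set_option autoImplicit false
set_option linter.unusedSectionVars false

open Set Filter Topology Complex
open scoped ContDiff Matrix ComplexConjugate Manifold

namespace Crest.Agent.R281.Sk_474

open Crest.Agent.R275.Geo Crest.Agent.R275.Core144 Crest.Agent.R275.GC293
open Crest.Agent.R273.Defs_333 Crest.Agent.R273.Kah_333
open Crest.Agent.R281.Defs_273 Crest.Agent.R281.Rk_599

noncomputable section

universe u

open Crest.CxGeometry Crest.AlgGeometry in
/-- the frozen statement S0424 -/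
def S0424Stmt : Prop :=
  ∀ {n : ℕ} {X : Type u} [TopologicalSpace X] [ChartedSpace (Crest.CxGeometry.Cn (2 * n)) X]
    [IsManifold 𝓘(ℂ, Crest.CxGeometry.Cn (2 * n)) ω X] [CompactSpace X] [T2Space X]
    (_hn : 1 ≤ n) (_hX : IsIrreducibleHolSymplectic (2 * n) X)
    (L : HolLineBundle (2 * n) X) (_hnef : L.IsNef) (_hc1 : L.ChernClassNeZero)
    (_hiso : ∀ σ : Form (2 * n) X 2, IsHolSymplectic σ →
      ∀ (h : L.HermMetric) (P : ChartPartition (2 * n) X), bbfQuadratic P σ h.chernForm = 0),
    L.IsSemiample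

/-- `n + 1` sections of some positive power of `L` whose ratios have rank `n` somewhere -/
def Rich {n : ℕ} {M : Type} [TopologicalSpace M] (A : Atl (2 * n) M) (L : LB A) : Prop :=
  ∃ k : ℕ, 0 < k ∧ ∃ s : Fin (n + 1) → A.ι → M → ℂ, (∀ a, IsHS (L ^ k) univ (s a)) ∧
    ∃ i x, Rk A s i x

/-- division 6 -/
def END6 : Prop :=
  ∀ (n : ℕ) (M : Type) [TopologicalSpace M] [T2Space M] [CompactSpace M] [SimplyConnectedSpace M]
    (A : Atl (2 * n) M) [Finite A.ι], 1 ≤ n → GoodA A → ∀ (P : Part A) (K : Kah A) (σ : HSymp A),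
    σ.Uniq → ∀ L : LB A, NefW K L → NonFlat L → Isotropic P σ L → Rich A L → SemiAmple L

/-- divisions 1-5 and 7 -/
def RANK281 : Prop :=
  ∀ (n : ℕ) (M : Type) [TopologicalSpace M] [T2Space M] [CompactSpace M] [SimplyConnectedSpace M]
    (A : Atl (2 * n) M) [Finite A.ι], 1 ≤ n → GoodA A → ∀ (P : Part A) (K : Kah A) (σ : HSymp A),
    σ.Uniq → ∀ L : LB A, NefW K L → NonFlat L → Isotropic P σ L → Rich A L

theorem main281_of (hE : END6) (hR : RANK281) : Main281 := by
  intro n M _ _ _ _ A _ hn hA P K σ hσ L h1 h2 h3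
  exact hE n M A hn hA P K σ hσ L h1 h2 h3 (hR n M A hn hA P K σ hσ L h1 h2 h3)

theorem s0424_of (hD : Main281 → S0424Stmt.{u}) (hE : END6) (hR : RANK281) : S0424Stmt.{u} :=
  hD (main281_of hE hR)

end

end Crest.Agent.R281.Sk_474
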