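import Crest.Agent.R281.RF1_373
import Crest.Agent.R281.D6e_986
import Crest.Agent.R281.Sk0_474
import Crest.Agent.R273.BKNe_37
import Crest.Agent.R281.KpU_487

/-!
# R281 (S0424), S6-RF (helper373), part 2: the two Yau metrics and `λ > 1`

* `addC`      : the Kaehler metric `K + cur h`;
* `exists_pair` : `NefW K L`, `σ.Uniq` ⟹ `h : HM L`, `K' = K + cur h`, `HK K' (r σ)`, `r > 0`;
* `one_lt`    : for `HK K σ`, `L` nef, isotropic, not flat: `r > 1`;
* `two_yau`   : both;
* `isotropic_smul`, `end6_of` : `END6` follows from the same statement for hyperkaehler pairs.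
-/

set_option autoImplicit false
set_option linter.unusedSectionVars false

open Set Filter Topology Complex
open scoped ContDiff Matrix ComplexConjugate ComplexOrder

namespace Crest.Agent.R281.RF_373

open Crest.Agent.R275.Geo Crest.Agent.R275.Core144 Crest.Agent.R275.EDR890
open Crest.Agent.R275.GC293
open Crest.Agent.R273.Hess_333 Crest.Agent.R273.HessB_333 Crest.Agent.R273.Defs_333
open Crest.Agent.R273.HM_333 Crest.Agent.R273.Kah_333 Crest.Agent.R273.Vol_333
open Crest.Agent.R273.StV_37 Crest.Agent.R273.Green_5 Crest.Agent.R273.GreenG_5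
open Crest.Agent.R273.GreenM_5 Crest.Agent.R273.VolInv_5
open Crest.Agent.R273.StokesV_332 (intD Den offK_univ NonnegD intD_nonneg eq_zero_of_intD)
open Crest.Agent.R273.BKNe_37 (intD_eq_totc)
open Crest.Agent.R281.Defs_273 Crest.Agent.R281.HkP3_508

noncomputable section

variable {n : ℕ} {M : Type} [TopologicalSpace M] {A : Atl n M} {L : LB A}

/-- the Kaehler metric `K + cur h` -/
def addC (K : Kah A) (h : HM L)
    (hp : ∀ i, ∀ x ∈ (A.e i).source, (K.g i x + cur h i x).PosDef) : Kah A where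
  g i x := K.g i x + cur h i x
  sm := ((kah_cf K).add (cur_cf h)).sm
  pos := hp
  tr := ((kah_cf K).add (cur_cf h)).tr
  closed := ((kah_cf K).add (cur_cf h)).closed
  closed' i z hz a b c := by
    have hK : ∀ b, DifferentiableAt ℝ (fun w => K.g i ((A.e i).symm w) a b) z := fun b =>
      (kah_cf K).diffAt hz a b
    have hU : ∀ b, DifferentiableAt ℝ (fun w => cur h i ((A.e i).symm w) a b) z := fun b =>
      (cur_cf h).diffAt hz a b
    have e : ∀ b c, wd (true, c) (fun w =>
        (K.g i ((A.e i).symm w) + cur h i ((A.e i).symm w)) a b) z =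
        wd (true, c) (fun w => K.g i ((A.e i).symm w) a b) z +
          wd (true, c) (fun w => cur h i ((A.e i).symm w) a b) z := fun b c =>
      wd_add (hK b) (hU b) _
    rw [e b c, e c b, K.closed' i z hz, cur_closed' h i hz]

/-- the second hyperkaehler metric -/
theorem exists_pair [T2Space M] [CompactSpace M] [ConnectedSpace M] [Finite A.ι] (P : Part A)
    (K : Kah A) (σ : HSymp A) (hu : σ.Uniq) (hnef : NefW K L) :
    ∃ (h : HM L) (K' : Kah A) (r : ℝ) (hr : (r : ℂ) ≠ 0), 0 < r ∧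
      (∀ i, ∀ x, K'.g i x = K.g i x + cur h i x ∨ x ∉ (A.e i).source) ∧
      HK K' (smulHS (r : ℂ) hr σ) := by
  obtain ⟨h0, hh⟩ := hnef (1 / 2) (by norm_num)
  have hp0 : ∀ i, ∀ x ∈ (A.e i).source, (K.g i x + cur h0 i x).PosDef := by
    intro i x hx
    have h1 : ((1 / 2 : ℝ) • K.g i x).PosDef := (K.pos i x hx).smul (by norm_num)
    have h2 := h1.add_posSemidef (hh i x hx)
    have h3 : (1 / 2 : ℝ) • K.g i x + (cur h0 i x + ((1 / 2 : ℝ) : ℂ) • K.g i x) =
        K.g i x + cur h0 i x := by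
      ext a b
      simp only [Matrix.add_apply, Matrix.smul_apply, smul_eq_mul, Complex.real_smul]
      push_cast
      ring
    rwa [h3] at h2
  obtain ⟨u, hs, hp, r, hr, hr0, hHK⟩ :=
    exists_HK_class P (KpK_487.yau_kah A) (addC K h0 hp0) σ hu
  refine ⟨tw h0 u hs, addK (addC K h0 hp0) u hs hp, r, hr, hr0, fun i x => ?_, hHK⟩
  by_cases hx : x ∈ (A.e i).source
  · refine Or.inl ?_
    show K.g i x + cur h0 i x + hsf A u i x = _
    rw [cur_tw h0 hs i hx, add_assoc]
  · exact Or.inr hx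

theorem smAt_cmul {i : A.ι} {f : M → ℂ} (c : ℂ) (hf : A.SmAt i f) :
    A.SmAt i (fun x => c * f x) := (contDiffOn_const (c := c)).mul hf

section

variable [T2Space M] [CompactSpace M] (P : Part A)

theorem den_det (K : Kah A) : Den A (fun i x => (K.g i x).det) where
  sm i := smAt_det (K.sm i)
  tr i j x hx := by
    rw [K.tr i j x hx, Matrix.det_mul, Matrix.det_mul, Matrix.det_transpose, dens_Jm]
    have h2 : ((Jm A i j x).map conj).det = conj (Jm A i j x).det := by
      rw [← RingHom.mapMatrix_apply, ← RingHom.map_det]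
    rw [h2]
    ring

theorem den_tr {G S : A.ι → M → Matrix (Fin n) (Fin n) ℂ} (hG : CF A G) (hS : CF A S) :
    Den A (fun i x => ((G i x).adjugate * S i x).trace) where
  sm i := smAt_trA hG hS i
  tr i j x hx := trA_dn hG.tr hS.tr i j x hx

/-- `∫ det K > 0` -/
theorem vol_pos [Nonempty M] (K : Kah A) : 0 < (totc P (fun i x => (K.g i x).det)).re := by
  rw [← intD_eq_totc]
  have hn : NonnegD A (fun i x => (K.g i x).det) := fun i x hx => by
    have h1 := (K.pos i x hx).det_pos
    exact ⟨(Complex.lt_def.1 h1).1.le, (Complex.lt_def.1 h1).2.symm⟩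
  have h0 := intD_nonneg P (den_det K) hn isCompact_univ (offK_univ _)
  refine lt_of_le_of_ne h0.1 fun h1 => ?_
  obtain ⟨x⟩ := ‹Nonempty M›
  obtain ⟨i, hi⟩ := A.cover x
  have h2 := eq_zero_of_intD P (den_det K) hn isCompact_univ (offK_univ _) h1.symm i x hi
  exact (K.pos i x hi).det_pos.ne' h2

theorem vol_im (K : Kah A) : (totc P (fun i x => (K.g i x).det)).im = 0 := by
  rw [← intD_eq_totc]
  have hn : NonnegD A (fun i x => (K.g i x).det) := fun i x hx => by
    have h1 := (K.pos i x hx).det_pos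
    exact ⟨(Complex.lt_def.1 h1).1.le, (Complex.lt_def.1 h1).2.symm⟩
  exact (intD_nonneg P (den_det K) hn isCompact_univ (offK_univ _)).2

/-- the degree does not depend on the metric of `L` -/
theorem deg_indep (K : Kah A) (h h' : HM L) :
    totc P (fun i x => ((K.g i x).adjugate * cur h' i x).trace) =
      totc P (fun i x => ((K.g i x).adjugate * cur h i x).trace) := by
  have h0 : A.Sm (fun _ : M => (0 : ℝ)) := fun i => contDiffOn_const
  have h1 : A.Sm (fun x => - ratio h h' x) := fun i => (sm_ratio h h' i).neg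
  rw [← mixed P (kah_cf K) (cur_cf h) h0 h1]
  refine totc_congr P fun i x hx => ?_
  have hz := (A.e i).map_source hx
  have e1 : hsf A (fun _ : M => (0 : ℝ)) i x = 0 := D6_986.hess_zero' _
  have e2 : hsf A (fun x => - ratio h h' x) i x = - hsf A (ratio h h') i x := by
    have h1 := hsf_read (A := A) (fun x => - ratio h h' x) i hz
    have h2 := hsf_read (A := A) (ratio h h') i hz
    rw [(A.e i).left_inv hx] at h1 h2
    rw [h1, h2, ← hess_neg (sm_contDiffAt (sm_ratio h h') i hz)]
  show ((K.g i x).adjugate * cur h' i x).trace =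
    ((K.g i x + hsf A (fun _ : M => (0 : ℝ)) i x).adjugate *
      (cur h i x + hsf A (fun x => - ratio h h' x) i x)).trace
  rw [e1, e2, add_zero, cur_ratio h h' i hx, sub_eq_add_neg]

/-- a nef class has nonnegative degree -/
theorem deg_nonneg (K : Kah A) (hnef : NefW K L) (h : HM L) :
    0 ≤ (totc P (fun i x => ((K.g i x).adjugate * cur h i x).trace)).re := by
  have hself : ∀ X : Matrix (Fin n) (Fin n) ℂ, (X.adjugate * X).trace = n * X.det := by
    intro X
    rw [Matrix.adjugate_mul, Matrix.trace_smul, Matrix.trace_one, Fintype.card_fin, smul_eq_mul,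
      mul_comm]
  have key : ∀ ε : ℝ, 0 < ε →
      0 ≤ (totc P (fun i x => ((K.g i x).adjugate * cur h i x).trace)).re +
        ε * (n * (totc P (fun i x => (K.g i x).det)).re) := by
    intro ε hε
    obtain ⟨h', hh⟩ := hnef ε hε
    have hcf : CF A (fun i x => cur h' i x + (ε : ℂ) • K.g i x) :=
      (cur_cf h').add ((kah_cf K).smul _)
    have hnn : NonnegD A (fun i x =>
        ((K.g i x).adjugate * (cur h' i x + (ε : ℂ) • K.g i x)).trace) := fun i x hx => by
      have h1 := trace_adj_nonneg (K.pos i x hx) (hh i x hx)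
      exact ⟨(Complex.le_def.1 h1).1, (Complex.le_def.1 h1).2.symm⟩
    have h1 := (intD_nonneg P (den_tr (kah_cf K) hcf) hnn isCompact_univ (offK_univ _)).1
    rw [intD_eq_totc] at h1
    have h2 : totc P (fun i x =>
        ((K.g i x).adjugate * (cur h' i x + (ε : ℂ) • K.g i x)).trace) =
        totc P (fun i x => ((K.g i x).adjugate * cur h i x).trace) +
          (ε : ℂ) * ((n : ℂ) * totc P (fun i x => (K.g i x).det)) := by
      have h3 : totc P (fun i x =>
          ((K.g i x).adjugate * (cur h' i x + (ε : ℂ) • K.g i x)).trace) =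
          totc P (fun i x => ((K.g i x).adjugate * cur h' i x).trace +
            ((ε : ℂ) * n) * (K.g i x).det) := by
        refine totc_congr P fun i x _ => ?_
        rw [Matrix.mul_add, Matrix.trace_add, Matrix.mul_smul, Matrix.trace_smul, hself,
          smul_eq_mul]
        ring
      rw [h3, totc_add P (fun i => smAt_trA (kah_cf K) (cur_cf h') i)
        (fun i => smAt_cmul ((ε : ℂ) * n) (smAt_det (K.sm i))), totc_smul,
        deg_indep P K h h']
      ring
    rw [h2, Complex.add_re, Complex.re_ofReal_mul] at h1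
    have h4 : ((n : ℂ) * totc P (fun i x => (K.g i x).det)).re =
        n * (totc P (fun i x => (K.g i x).det)).re := by
      simp
    rwa [h4] at h1
  refine le_of_forall_pos_le_add fun ε hε => ?_
  set V := (n : ℝ) * (totc P (fun i x => (K.g i x).det)).re with hV
  have h5 := key (ε / (|V| + 1)) (by positivity)
  have h6 : ε / (|V| + 1) * V ≤ ε := by
    rw [div_mul_eq_mul_div, div_le_iff₀ (by positivity)]
    have := le_abs_self V
    nlinarith
  linarith

/-- **`λ > 1`** -/
theorem one_lt [Nonempty M] (K : Kah A) (σ : HSymp A) (hK : HK K σ) (hnef : NefW K L)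
    (hnf : NonFlat L) (hiso : Isotropic P σ L) (hn : 0 < n) {h : HM L} {K' : Kah A} {r : ℝ}
    {hr : (r : ℂ) ≠ 0} (hr0 : 0 < r)
    (hg : ∀ i, ∀ x, K'.g i x = K.g i x + cur h i x ∨ x ∉ (A.e i).source)
    (hK' : HK K' (smulHS (r : ℂ) hr σ)) : 1 < r := by
  set V := totc P (fun i x => (K.g i x).det) with hV
  set D := totc P (fun i x => ((K.g i x).adjugate * cur h i x).trace) with hD
  have hVp : 0 < V.re := vol_pos P K
  have hVi : V.im = 0 := vol_im P K
  have hDp : 0 ≤ D.re := deg_nonneg P K hnef h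
  have hg' : ∀ i, ∀ x ∈ (A.e i).source, K'.g i x = K.g i x + cur h i x := fun i x hx =>
    (hg i x).resolve_right (not_not.2 hx)
  -- the pointwise identity
  have hpt : ∀ i, ∀ x ∈ (A.e i).source, qd σ (cur h) (cur h) i x =
      ((n : ℂ) * ((r ^ 2 : ℝ) : ℂ) - n) * (K.g i x).det +
        (-2) * ((K.g i x).adjugate * cur h i x).trace := by
    intro i x hx
    have e1 := hK'.rel i x hx
    have e2 := hK'.det i hx
    have e3 := K'.pos i x hx
    rw [hg' i x hx] at e1 e2 e3
    have := qm_pair (S := σ.s i x) (G := K.g i x) (Θ := cur h i x) (σ.alt i x hx) (σ.nd i x hx)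
      (hK.rel i x hx) (K.pos i x hx) (hK.det i hx) hr0 e1 e3 e2
    show qm (σ.s i x) (cur h i x) (cur h i x) = _
    linear_combination (-1 : ℂ) * this
  have hint : (0 : ℂ) = ((n : ℂ) * ((r ^ 2 : ℝ) : ℂ) - n) * V + (-2) * D := by
    have h1 := hiso h
    rw [intD_eq_totc, totc_congr P hpt, totc_add P
      (fun i => smAt_cmul ((n : ℂ) * ((r ^ 2 : ℝ) : ℂ) - n) (smAt_det (K.sm i)))
      (fun i => smAt_cmul (-2 : ℂ) (smAt_trA (kah_cf K) (cur_cf h) i)),
      totc_smul, totc_smul] at h1
    exact h1.symm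
  have hre : 0 = n * (r ^ 2 - 1) * V.re - 2 * D.re := by
    have h1 := congrArg Complex.re hint
    have h2 : ((n : ℂ) * ((r ^ 2 : ℝ) : ℂ) - n) = ((n * (r ^ 2 - 1) : ℝ) : ℂ) := by
      push_cast; ring
    have h3 : (-2 : ℂ) = ((-2 : ℝ) : ℂ) := by push_cast; ring
    rw [h2, h3, Complex.add_re, Complex.re_ofReal_mul, Complex.re_ofReal_mul, Complex.zero_re] at h1
    linarith
  have hn' : (0 : ℝ) < n := by exact_mod_cast hn
  have hr1 : 1 ≤ r := by
    by_contra hlt
    push Not at hlt
    have h1 : r ^ 2 - 1 < 0 := by nlinarith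
    have h2 : n * (r ^ 2 - 1) * V.re < 0 := by
      have := mul_neg_of_pos_of_neg hn' h1
      exact mul_neg_of_neg_of_pos this hVp
    linarith
  refine lt_of_le_of_ne hr1 fun he => ?_
  -- `r = 1`
  subst he
  have hD0 : D.re = 0 := by
    have : (1 : ℝ) ^ 2 - 1 = 0 := by norm_num
    rw [this] at hre
    linarith
  have hdet : ∀ i, ∀ x ∈ (A.e i).source, (K'.g i x).det = (K.g i x).det := by
    intro i x hx
    rw [hK'.det i hx, hK.det i hx]
    show ((‖(((1 : ℝ) : ℂ) • σ.s i x).det‖ : ℝ) : ℂ) = _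
    rw [Complex.ofReal_one, one_smul]
  have hcf : CF A (cur h) := cur_cf h
  have hge : ∀ i, ∀ x ∈ (A.e i).source, 0 ≤ (((K.g i x)⁻¹ * cur h i x).trace).re := by
    intro i x hx
    refine Crest.Agent.R281.KpU_487.tr_inv_nonneg (K.pos i x hx) ?_ ?_
    · rw [← hg' i x hx]; exact K'.pos i x hx
    · rw [← hg' i x hx]; exact hdet i x hx
  have htr : ∀ i, ∀ x ∈ (A.e i).source, ((K.g i x).adjugate * cur h i x).trace =
      (K.g i x).det * ((K.g i x)⁻¹ * cur h i x).trace := by
    intro i x hx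
    rw [adjugate_eq (K.pos i x hx), Matrix.smul_mul, Matrix.trace_smul, smul_eq_mul]
  have him : ∀ i, ∀ x ∈ (A.e i).source, (((K.g i x)⁻¹ * cur h i x).trace).im = 0 := by
    intro i x hx
    have h1 : conj (((K.g i x)⁻¹ * cur h i x).trace) = ((K.g i x)⁻¹ * cur h i x).trace := by
      have e := Matrix.trace_conjTranspose ((K.g i x)⁻¹ * cur h i x)
      rw [Matrix.conjTranspose_mul, Matrix.conjTranspose_nonsing_inv, (K.pos i x hx).1.eq,
        (cur_herm h i hx).eq, Matrix.trace_mul_comm] at e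
      exact e.symm
    exact Complex.conj_eq_iff_im.1 h1
  have hnn : NonnegD A (fun i x => ((K.g i x).adjugate * cur h i x).trace) := fun i x hx => by
    show 0 ≤ (((K.g i x).adjugate * cur h i x).trace).re ∧
      (((K.g i x).adjugate * cur h i x).trace).im = 0
    rw [htr i x hx]
    have h1 := (K.pos i x hx).det_pos
    have h2 : ((K.g i x).det).im = 0 := (Complex.lt_def.1 h1).2.symm
    have h3 : 0 < ((K.g i x).det).re := (Complex.lt_def.1 h1).1
    constructor
    · rw [Complex.mul_re, h2, zero_mul, sub_zero]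
      exact mul_nonneg h3.le (hge i x hx)
    · rw [Complex.mul_im, h2, zero_mul, add_zero, him i x hx, mul_zero]
  have hz := eq_zero_of_intD P (den_tr (kah_cf K) hcf) hnn isCompact_univ (offK_univ _)
    (by rw [intD_eq_totc]; exact hD0)
  obtain ⟨i, x, hx, hne⟩ := hnf h
  apply hne
  have h1 : ((K.g i x)⁻¹ * cur h i x).trace = 0 := by
    have h2 := hz i x hx
    rw [htr i x hx] at h2
    exact (mul_eq_zero.1 h2).resolve_left (K.pos i x hx).det_pos.ne'
  have h2 : K'.g i x = K.g i x := by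
    refine eq_of_tr (K.pos i x hx) (K'.pos i x hx).posSemidef (hdet i x hx) ?_
    rw [hg' i x hx, Matrix.mul_add, Matrix.trace_add, h1, add_zero,
      Matrix.nonsing_inv_mul _ (isUnit_iff_ne_zero.2 (K.pos i x hx).det_pos.ne'),
      Matrix.trace_one, Fintype.card_fin, Complex.natCast_re]
  rw [hg' i x hx] at h2
  simpa using h2

/-- **the two hyperkaehler metrics** -/
theorem two_yau [ConnectedSpace M] [Finite A.ι] (hn : 0 < n) (K : Kah A) (σ : HSymp A)
    (hu : σ.Uniq) (hK : HK K σ) (hnef : NefW K L) (hnf : NonFlat L) (hiso : Isotropic P σ L) :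
    ∃ (h : HM L) (K' : Kah A) (r : ℝ) (hr : (r : ℂ) ≠ 0), 1 < r ∧
      (∀ i, ∀ x ∈ (A.e i).source, K'.g i x = K.g i x + cur h i x) ∧
      HK K' (smulHS (r : ℂ) hr σ) := by
  obtain ⟨h, K', r, hr, hr0, hg, hK'⟩ := exists_pair P K σ hu hnef
  exact ⟨h, K', r, hr, one_lt P K σ hK hnef hnf hiso hn hr0 hg hK', fun i x hx =>
    (hg i x).resolve_right (not_not.2 hx), hK'⟩

theorem isotropic_smul {σ : HSymp A} (hiso : Isotropic P σ L) {r : ℝ} (hr : (r : ℂ) ≠ 0)
    (hr0 : 0 < r) : Isotropic P (smulHS (r : ℂ) hr σ) L := by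
  intro h
  have h1 : ∀ i, ∀ x ∈ (A.e i).source, qd (smulHS (r : ℂ) hr σ) (cur h) (cur h) i x =
      (((r ^ 2 : ℝ) : ℂ)⁻¹ * ((r ^ n : ℝ) : ℂ)) * qd σ (cur h) (cur h) i x := by
    intro i x hx
    have h2 := qm_smulS (S := σ.s i x) (σ.nd i x hx) hr0 (cur h i x) (cur h i x)
    have h3 : ((r ^ 2 : ℝ) : ℂ) ≠ 0 := by exact_mod_cast (pow_pos hr0 2).ne'
    show qm ((r : ℂ) • σ.s i x) (cur h i x) (cur h i x) = _ * qm (σ.s i x) (cur h i x) (cur h i x)
    rw [mul_assoc, ← h2, inv_mul_cancel_left₀ h3]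
  rw [intD_eq_totc, totc_congr P h1, totc_smul, ← intD_eq_totc, hiso h, mul_zero]

end

/-- `END6` for hyperkaehler pairs -/
def END6K : Prop :=
  ∀ (n : ℕ) (M : Type) [TopologicalSpace M] [T2Space M] [CompactSpace M] [SimplyConnectedSpace M]
    (A : Atl (2 * n) M) [Finite A.ι], 1 ≤ n → GoodA A → ∀ (P : Part A) (K : Kah A) (σ : HSymp A),
    σ.Uniq → HK K σ → ∀ L : LB A, NefW K L → Isotropic P σ L → Sk_474.Rich A L →
    ∀ (h : HM L) (K' : Kah A) (r : ℝ) (hr : (r : ℂ) ≠ 0), 1 < r →
      (∀ i, ∀ x ∈ (A.e i).source, K'.g i x = K.g i x + cur h i x) →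
      HK K' (smulHS (r : ℂ) hr σ) → SemiAmple L

/-- reduction to hyperkaehler pairs -/
theorem end6_of (H : END6K) : Sk_474.END6 := by
  intro n M _ _ _ _ A _ hn hA P K σ hu L hnef hnf hiso hrich
  have : ConnectedSpace M := inferInstance
  obtain ⟨u, hs, hp, s, hs', hs0, hK⟩ := exists_HK_class P (KpK_487.yau_kah A) K σ hu
  have hnef' : NefW (addK K u hs hp) L := D6_986.nefW_change hnef
  have hu' : (smulHS (s : ℂ) hs' σ).Uniq := smulHS_uniq _ _ hu
  have hiso' : Isotropic P (smulHS (s : ℂ) hs' σ) L := isotropic_smul P hiso hs' hs0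
  obtain ⟨h, K', r, hr, hr1, hg, hK'⟩ :=
    two_yau P (by omega) (addK K u hs hp) (smulHS (s : ℂ) hs' σ) hu' hK hnef' hnf hiso'
  exact H n M A hn hA P (addK K u hs hp) (smulHS (s : ℂ) hs' σ) hu' hK L hnef' hiso' hrich h K' r
    hr hr1 hg hK'

end

end Crest.Agent.R281.RF_373
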