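import Mathlib

/-!
Row 281, DIV 6, N5 (g2) (helper341): finitely many monomials separate `d`-tuples of points of `ℂ^N`.

`sep_mono` : if the sums over the two `d`-tuples `a`, `b` of all monomials `∏ z_i ^ (m i)`, `m i ≤ 2 d`,
agree, then every `a k` is some `b l`.
-/

set_option autoImplicit false
open Finset

namespace Crest.Agent.R281.Sep_341

/-- the monomial with exponents `m` -/
def mono {N D : ℕ} (m : Fin N → Fin (D + 1)) (z : Fin N → ℂ) : ℂ := ∏ i, z i ^ (m i : ℕ)

theorem differentiable_mono {N D : ℕ} (m : Fin N → Fin (D + 1)) :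
    Differentiable ℂ (mono m) := by
  unfold mono
  fun_prop

theorem continuous_mono {N D : ℕ} (m : Fin N → Fin (D + 1)) : Continuous (mono m) :=
  (differentiable_mono m).continuous

/-- sums of polynomials of small degree agree as soon as the sums of monomials do -/
theorem sum_eval_eq {N D : ℕ} {κ κ' : Type*} [Fintype κ] [Fintype κ'] (a : κ → Fin N → ℂ)
    (b : κ' → Fin N → ℂ) (h : ∀ m : Fin N → Fin (D + 1), ∑ k, mono m (a k) = ∑ k, mono m (b k))
    (P : MvPolynomial (Fin N) ℂ) (hP : P.totalDegree ≤ D) :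
    ∑ k, MvPolynomial.eval (a k) P = ∑ k, MvPolynomial.eval (b k) P := by
  simp only [MvPolynomial.eval_eq']
  rw [Finset.sum_comm, Finset.sum_comm (γ := κ')]
  refine Finset.sum_congr rfl fun e he => ?_
  rw [← Finset.mul_sum, ← Finset.mul_sum]
  congr 1
  have he1 : ∀ i, e i ≤ D := by
    intro i
    have h1 := MvPolynomial.le_totalDegree he
    have h2 : e i ≤ e.sum fun _ k => k := by
      by_cases h3 : i ∈ e.support
      · exact Finset.single_le_sum (f := fun j => e j) (fun _ _ => Nat.zero_le _) h3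
      · rw [Finsupp.notMem_support_iff] at h3
        rw [h3]; exact Nat.zero_le _
    exact h2.trans (h1.trans hP)
  have h4 := h fun i => ⟨e i, Nat.lt_succ_of_le (he1 i)⟩
  simpa [mono] using h4

/-- **finitely many monomials separate `d`-tuples** -/
theorem sep_mono {N d : ℕ} {κ κ' : Type*} [Fintype κ] [Fintype κ'] (hκ : Fintype.card κ = d)
    (hκ' : Fintype.card κ' = d) (a : κ → Fin N → ℂ) (b : κ' → Fin N → ℂ)
    (h : ∀ m : Fin N → Fin (2 * d + 1), ∑ k, mono m (a k) = ∑ k, mono m (b k)) (k : κ) :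
    ∃ l, a k = b l := by
  classical
  by_contra hcon
  push Not at hcon
  set Q : Finset (Fin N → ℂ) := (univ.image a ∪ univ.image b).erase (a k) with hQ
  have hQc : Q.card ≤ 2 * d := by
    refine (Finset.card_le_card (Finset.erase_subset _ _)).trans
      ((Finset.card_union_le _ _).trans ?_)
    have h1 : (univ.image a).card ≤ d := by
      rw [← hκ]; exact Finset.card_image_le
    have h2 : (univ.image b).card ≤ d := by
      rw [← hκ']; exact Finset.card_image_le
    omega
  have hne : Nonempty (Fin N) := by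
    by_contra hN
    rw [not_nonempty_iff] at hN
    have h1 : 0 < Fintype.card κ' := by
      rw [hκ', ← hκ]; exact Fintype.card_pos_iff.2 ⟨k⟩
    obtain ⟨l⟩ := Fintype.card_pos_iff.1 h1
    exact hcon l (Subsingleton.elim _ _)
  have hex : ∀ q ∈ Q, ∃ i, a k i ≠ q i := by
    intro q hq
    by_contra hc
    push Not at hc
    exact (Finset.ne_of_mem_erase hq) (funext fun i => (hc i).symm)
  choose! ix hix using hex
  set P : MvPolynomial (Fin N) ℂ := ∏ q ∈ Q, (MvPolynomial.X (ix q) - MvPolynomial.C (q (ix q)))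
    with hP
  have hPd : P.totalDegree ≤ 2 * d := by
    refine (MvPolynomial.totalDegree_finsetProd _ _).trans ?_
    refine le_trans (Finset.sum_le_card_nsmul _ _ 1 fun q _ => ?_) (by simpa using hQc)
    refine (MvPolynomial.totalDegree_sub _ _).trans ?_
    simp
  have hev : ∀ z : Fin N → ℂ, MvPolynomial.eval z P = ∏ q ∈ Q, (z (ix q) - q (ix q)) := by
    intro z
    simp [hP, map_prod]
  have hmem : ∀ z ∈ Q, MvPolynomial.eval z P = 0 := by
    intro z hz
    rw [hev]
    exact Finset.prod_eq_zero hz (sub_self _)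
  have h0 : MvPolynomial.eval (a k) P ≠ 0 := by
    rw [hev]
    refine Finset.prod_ne_zero_iff.2 fun q hq => sub_ne_zero.2 (hix q hq)
  have hsum := sum_eval_eq a b h P hPd
  have hb : ∑ l, MvPolynomial.eval (b l) P = 0 := by
    refine Finset.sum_eq_zero fun l _ => hmem _ ?_
    rw [hQ, Finset.mem_erase]
    exact ⟨fun hbl => hcon l hbl.symm, Finset.mem_union_right _
      (Finset.mem_image_of_mem _ (Finset.mem_univ l))⟩
  have ha : ∑ j, MvPolynomial.eval (a j) P
      = ((univ.filter fun j => a j = a k).card : ℂ) * MvPolynomial.eval (a k) P := by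
    rw [← Finset.sum_filter_add_sum_filter_not univ (fun j => a j = a k)]
    have h2 : ∑ j ∈ univ.filter (fun j => ¬ a j = a k), MvPolynomial.eval (a j) P = 0 := by
      refine Finset.sum_eq_zero fun j hj => hmem _ ?_
      rw [Finset.mem_filter] at hj
      rw [hQ, Finset.mem_erase]
      exact ⟨hj.2, Finset.mem_union_left _ (Finset.mem_image_of_mem _ (Finset.mem_univ j))⟩
    rw [h2, add_zero]
    rw [Finset.sum_congr rfl (g := fun _ => MvPolynomial.eval (a k) P)
      (fun j hj => by rw [Finset.mem_filter] at hj; rw [hj.2])]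
    simp
  rw [hb, ha] at hsum
  have hc : ((univ.filter fun j => a j = a k).card : ℂ) ≠ 0 := by
    rw [Nat.cast_ne_zero]
    exact Finset.card_ne_zero_of_mem (Finset.mem_filter.2 ⟨Finset.mem_univ k, rfl⟩)
  exact (mul_ne_zero hc h0) hsum

/-- the form of 941 (`Cn m = EuclideanSpace ℂ (Fin m)`) -/
theorem sep_monoE {m d : ℕ} (a b : Fin d → EuclideanSpace ℂ (Fin m))
    (h : ∀ μ : Fin m → Fin (2 * d + 1),
      ∑ i, ∏ k, (a i k) ^ (μ k : ℕ) = ∑ i, ∏ k, (b i k) ^ (μ k : ℕ)) :
    ∀ i, ∃ j, a i = b j := by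
  intro i
  obtain ⟨l, hl⟩ := sep_mono (d := d) (by simp) (by simp) (fun j => (a j : Fin m → ℂ))
    (fun j => (b j : Fin m → ℂ)) (fun μ => by simpa [mono] using h μ) i
  refine ⟨l, ?_⟩
  ext k
  exact congrFun hl k

end Crest.Agent.R281.Sep_341
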