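import Crest.Agent.R281.Tc4_941
import Crest.Agent.R281.Sep_341

/-!
# R281 (S0424), S6-FRAME, part 5 (helper941): the norm and the literal node `FrameAt`
-/

set_option autoImplicit false
set_option linter.unusedSectionVars false

open Set Filter Topology Complex
open scoped ContDiff Matrix ComplexConjugate Manifold ComplexOrder ENNReal

namespace Crest.Agent.R281.Tc_941

open Crest.Agent.R275.Geo Crest.Agent.R275.Core144 Crest.Agent.R275.GC293
open Crest.Agent.R273.Defs_333 Crest.Agent.R273.Kah_333 Crest.Agent.R273.HM_333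
open Crest.Agent.R281.Defs_273 Crest.Agent.R281.D6_986
open Crest.Agent.R281.S6D_664 (LFib)
open Crest.Agent.R281.Thn_280 Crest.Agent.R281.ThnM_280
open Crest.Agent.R273.FIb0_597 (ch mem_ch)

noncomputable section

section pure

variable {E : Type} {h : E → ℂ}

/-- bounds of the norm (squares) -/
theorem sq_prod_le {d : ℕ} {s : Finset E} (hs : s.card = d) {q B : ℝ}
    (hq : ∀ z ∈ s, ‖h z‖ ^ 2 ≤ B * q) : ‖∏ z ∈ s, h z‖ ^ 2 ≤ B ^ d * q ^ d := by
  rw [norm_prod, ← Finset.prod_pow, ← mul_pow, ← hs, ← Finset.prod_const]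
  exact Finset.prod_le_prod (fun _ _ => by positivity) hq

theorem le_sq_prod {d : ℕ} {s : Finset E} (hs : s.card = d) {q b : ℝ} (hb : 0 ≤ b * q)
    (hq : ∀ z ∈ s, b * q ≤ ‖h z‖ ^ 2) : b ^ d * q ^ d ≤ ‖∏ z ∈ s, h z‖ ^ 2 := by
  rw [norm_prod, ← Finset.prod_pow, ← mul_pow, ← hs, ← Finset.prod_const]
  exact Finset.prod_le_prod (fun _ _ => hb) hq

end pure

variable {n : ℕ} {M : Type} [TopologicalSpace M] {A : Atl (2 * n) M}
variable {σ : HSymp A} {L : LB A}

theorem continuousOn_w {N : ℕ} {A : Atl N M} {L : LB A} (h : HM L) (i : A.ι) :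
    ContinuousOn (h.w i) (A.e i).source := by
  intro x hx
  have hwc : ContinuousAt (fun z => h.w i ((A.e i).symm z)) (A.e i x) :=
    ((h.sm i).continuousOn).continuousAt ((A.e i).open_target.mem_nhds ((A.e i).map_source hx))
  have h1 : Tendsto (fun y => h.w i ((A.e i).symm (A.e i y))) (𝓝 x)
      (𝓝 (h.w i ((A.e i).symm (A.e i x)))) := hwc.tendsto.comp ((A.e i).continuousAt hx)
  rw [(A.e i).left_inv hx] at h1
  refine ContinuousAt.continuousWithinAt (h1.congr' ?_)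
  filter_upwards [(A.e i).open_source.mem_nhds hx] with y hy
  rw [(A.e i).left_inv hy]

theorem continuousOn_sec {N : ℕ} {A : Atl N M} {L : LB A} {U : Set M} (hU : IsOpen U)
    {s : A.ι → M → ℂ} (hs : IsHS L U s) (i : A.ι) : ContinuousOn (s i) (U ∩ (A.e i).source) := by
  intro x hx
  have h1 : ContinuousAt (fun z => s i ((A.e i).symm z)) (A.e i x) :=
    (HolAt.diffAt (hs.hol i) hU hx.2 hx.1).continuousAt
  have h2 : Tendsto (fun y => s i ((A.e i).symm (A.e i y))) (𝓝 x)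
      (𝓝 (s i ((A.e i).symm (A.e i x)))) := h1.tendsto.comp ((A.e i).continuousAt hx.2)
  rw [(A.e i).left_inv hx.2] at h2
  refine ContinuousAt.continuousWithinAt (h2.congr' ?_)
  filter_upwards [(A.e i).open_source.mem_nhds hx.2] with y hy
  rw [(A.e i).left_inv hy]

/-- **the norm of the section over the slice.** -/
theorem SliceAt.exists_norm {o : OmOut σ L} {h : HM L} (hH : Harn o h) {c : ContOut o.F} {x0 : M}
    (S : SliceAt o.F c x0) : ∃ (N : M → ℂ) (b B : ℝ), 0 < b ∧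
      (∀ i, HolAt A i (S.U ∩ o.F.Om) N) ∧
      ∀ i, ∀ y ∈ (A.e i).source, y ∈ S.U → y ∈ o.F.Om →
        b * (‖o.s i y‖ ^ 2 * (Crest.Agent.R273.HM_333.pow h o.k).w i y) ^ S.d ≤ ‖N y‖ ^ 2 ∧
        ‖N y‖ ^ 2 ≤ B * (‖o.s i y‖ ^ 2 * (Crest.Agent.R273.HM_333.pow h o.k).w i y) ^ S.d := by
  classical
  set hk : HM (L ^ o.k) := Crest.Agent.R273.HM_333.pow h o.k with hhk
  obtain ⟨C, hC⟩ := hH
  -- the section in the chart
  set g : Cn (2 * n) → ℂ := fun z => o.s S.i ((A.e S.i).symm z) with hg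
  have hgd : DifferentiableOn ℂ g (Metric.ball (A.e S.i x0) S.r) := by
    have h1 : DifferentiableOn ℂ g ((A.e S.i).target ∩ (A.e S.i).symm ⁻¹' univ) := o.hs.hol S.i
    exact h1.mono fun z hz => ⟨S.ball (Metric.ball_subset_closedBall hz), mem_univ _⟩
  choose T hT1 hT2 hT3 hT4 using fun j : ℕ => S.trace (fun z => g z ^ j) (hgd.pow j)
  obtain ⟨Q, hQ⟩ := newton.{0} S.d
  set N : M → ℂ := fun x => MvPolynomial.eval (fun j => T j x) Q with hNdef
  have hNhol : ∀ i, HolAt A i (S.U ∩ o.F.Om) N := fun i =>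
    diff_eval (T := fun j z => T j ((A.e i).symm z)) (fun j => hT1 j i) Q
  have hNR : ∀ x ∈ S.R, N x = ∏ z ∈ S.P x, g z := by
    intro x hx
    have h1 : N x = MvPolynomial.eval (fun j => ∑ z ∈ S.P x, g z ^ j) Q := by
      show MvPolynomial.eval (fun j => T j x) Q = _
      congr 2
      funext j
      exact hT4 j x hx
    rw [h1, hQ _ (S.P x) g, ← S.card x hx, Finset.powersetCard_self, Finset.sum_singleton]
  -- the weight on the closed ball
  have hwc : ContinuousOn (fun z => hk.w S.i ((A.e S.i).symm z))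
      (Metric.closedBall (A.e S.i x0) S.r) := ((hk.sm S.i).continuousOn).mono S.ball
  have hwpos : ∀ z ∈ Metric.closedBall (A.e S.i x0) S.r, 0 < hk.w S.i ((A.e S.i).symm z) :=
    fun z hz => hk.pos S.i _ ((A.e S.i).map_target (S.ball hz))
  obtain ⟨m, hm, hmw⟩ : ∃ m : ℝ, 0 < m ∧ ∀ z ∈ Metric.closedBall (A.e S.i x0) S.r,
      m ≤ hk.w S.i ((A.e S.i).symm z) := by
    obtain ⟨z, hz, hmin⟩ := (isCompact_closedBall (A.e S.i x0) S.r).exists_isMinOn
      ⟨A.e S.i x0, Metric.mem_closedBall_self S.r_pos.le⟩ hwc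
    exact ⟨_, hwpos z hz, fun y hy => hmin hy⟩
  obtain ⟨m', hm', hmw'⟩ : ∃ m : ℝ, 0 < m ∧ ∀ z ∈ Metric.closedBall (A.e S.i x0) S.r,
      hk.w S.i ((A.e S.i).symm z) ≤ m := by
    obtain ⟨z, hz, hmax⟩ := (isCompact_closedBall (A.e S.i x0) S.r).exists_isMaxOn
      ⟨A.e S.i x0, Metric.mem_closedBall_self S.r_pos.le⟩ hwc
    exact ⟨_, hwpos z hz, fun y hy => hmax hy⟩
  -- `|s|²`
  have hns : ∀ (i : A.ι) (y : M), y ∈ (A.e i).source → y ∈ o.F.Om →
      0 < ‖o.s i y‖ ^ 2 * hk.w i y := by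
    intro i y hy hyO
    have h1 := hk.pos i y hy
    have h2 : 0 < ‖o.s i y‖ := norm_pos_iff.mpr (o.nz y hyO i hy)
    positivity
  have hrho : ∀ (i : A.ι) (y : M), y ∈ (A.e i).source →
      o.rho h y = Real.log (‖o.s i y‖ ^ 2 * hk.w i y) := by
    intro i y hy
    show Real.log (nsq hk o.s (ch A y) y) = Real.log (nsq hk o.s i y)
    rw [nsq_indep hk o.hs ⟨mem_ch A y, hy⟩ (mem_univ y)]
  have hpt : ∀ x ∈ S.R, ∀ i, x ∈ (A.e i).source → ∀ z ∈ S.P x,
      Real.exp (-C) / m' * (‖o.s i x‖ ^ 2 * hk.w i x) ≤ ‖g z‖ ^ 2 ∧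
      ‖g z‖ ^ 2 ≤ Real.exp C / m * (‖o.s i x‖ ^ 2 * hk.w i x) := by
    intro x hx i hi z hz
    obtain ⟨hzb, hzT⟩ := S.P_mem x hx z hz
    have hzc := Metric.ball_subset_closedBall hzb
    have hxO : x ∈ o.F.Om := (S.R_sub hx).2
    have hyO : (A.e S.i).symm z ∈ o.F.Om := Tf_sub_Om hxO hzT
    have hys : (A.e S.i).symm z ∈ (A.e S.i).source := (A.e S.i).map_target (S.ball hzc)
    have h1 := hC x hxO _ hzT
    rw [hrho S.i _ hys, hrho i x hi, abs_le] at h1
    have hq0 := hns i x hi hxO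
    have hp0 := hns S.i _ hys hyO
    set q := ‖o.s i x‖ ^ 2 * hk.w i x with hq
    set W := hk.w S.i ((A.e S.i).symm z) with hW
    have hW0 : 0 < W := hwpos z hzc
    have hup : ‖g z‖ ^ 2 * W ≤ Real.exp C * q := by
      have h2 : Real.log (‖g z‖ ^ 2 * W) ≤ Real.log (Real.exp C * q) := by
        rw [Real.log_mul (Real.exp_pos C).ne' hq0.ne', Real.log_exp]
        have := h1.2
        show Real.log (‖o.s S.i ((A.e S.i).symm z)‖ ^ 2 * W) ≤ _
        linarith
      exact (Real.log_le_log_iff hp0 (by positivity)).mp h2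
    have hlo : Real.exp (-C) * q ≤ ‖g z‖ ^ 2 * W := by
      have h2 : Real.log (Real.exp (-C) * q) ≤ Real.log (‖g z‖ ^ 2 * W) := by
        rw [Real.log_mul (Real.exp_pos _).ne' hq0.ne', Real.log_exp]
        have := h1.1
        show _ ≤ Real.log (‖o.s S.i ((A.e S.i).symm z)‖ ^ 2 * W)
        linarith
      exact (Real.log_le_log_iff (by positivity) hp0).mp h2
    constructor
    · rw [div_mul_eq_mul_div, div_le_iff₀ hm']
      exact hlo.trans (mul_le_mul_of_nonneg_left (hmw' z hzc) (by positivity))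
    · rw [div_mul_eq_mul_div, le_div_iff₀ hm]
      exact (mul_le_mul_of_nonneg_left (hmw z hzc) (by positivity)).trans hup
  have hR : ∀ x ∈ S.R, ∀ i, x ∈ (A.e i).source →
      (Real.exp (-C) / m') ^ S.d * (‖o.s i x‖ ^ 2 * hk.w i x) ^ S.d ≤ ‖N x‖ ^ 2 ∧
      ‖N x‖ ^ 2 ≤ (Real.exp C / m) ^ S.d * (‖o.s i x‖ ^ 2 * hk.w i x) ^ S.d := by
    intro x hx i hi
    rw [hNR x hx]
    have hq0 := hns i x hi (S.R_sub hx).2
    exact ⟨le_sq_prod (S.card x hx) (by positivity) fun z hz => (hpt x hx i hi z hz).1,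
      sq_prod_le (S.card x hx) fun z hz => (hpt x hx i hi z hz).2⟩
  refine ⟨N, (Real.exp (-C) / m') ^ S.d, (Real.exp C / m) ^ S.d, by positivity, hNhol,
    fun i y hy hyU hyO => ?_⟩
  -- density
  have hUO : IsOpen (S.U ∩ o.F.Om) := S.op.inter o.F.op
  have hyc : y ∈ closure (S.R ∩ (A.e i).source) := by
    rw [mem_closure_iff]
    intro O hO hyO'
    obtain ⟨x, hx1, hx2⟩ := (mem_closure_iff.mp (S.R_dns hyU)) (O ∩ (A.e i).source)
      (hO.inter (A.e i).open_source) ⟨hyO', hy⟩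
    exact ⟨x, hx1.1, hx2, hx1.2⟩
  have hNc : ContinuousWithinAt (fun x => ‖N x‖ ^ 2) (S.R ∩ (A.e i).source) y :=
    ((((continuousOn_of_hol hUO hNhol).continuousAt
      (hUO.mem_nhds ⟨hyU, hyO⟩)).norm).pow 2).continuousWithinAt
  have hsc : ContinuousWithinAt (fun x => (‖o.s i x‖ ^ 2 * hk.w i x) ^ S.d)
      (S.R ∩ (A.e i).source) y := by
    have h1 : ContinuousAt (o.s i) y := (continuousOn_sec isOpen_univ o.hs i).continuousAt
      ((isOpen_univ.inter (A.e i).open_source).mem_nhds ⟨mem_univ y, hy⟩)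
    have h2 : ContinuousAt (hk.w i) y := (continuousOn_w hk i).continuousAt
      ((A.e i).open_source.mem_nhds hy)
    exact (((h1.norm.pow 2).mul h2).pow S.d).continuousWithinAt
  constructor
  · exact ContinuousWithinAt.closure_le hyc (continuousWithinAt_const.mul hsc) hNc
      fun x hx => (hR x hx.1 i hx.2).1
  · exact ContinuousWithinAt.closure_le hyc hNc (continuousWithinAt_const.mul hsc)
      fun x hx => (hR x hx.1 i hx.2).2

/-- **node N5**: the literal `FrameAt` of D6b_986. -/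
theorem frameAt [T2Space M] {o : OmOut σ L} {h : HM L} (hH : Harn o h) (c : ContOut o.F)
    (hS : SThM A o.F.Omᶜ) {x0 : M} (S : SliceAt o.F c x0) (hsep : SepMono (2 * n) S.d) :
    Nonempty (FrameAt o.F c L x0) := by
  obtain ⟨r, w, hw1, hw2, hw3, hw4⟩ := S.exists_w hS hsep
  obtain ⟨N, b, B, hb, hN, hbd⟩ := S.exists_norm hH
  obtain ⟨τ, hτ, hτ0, -, -⟩ := frame (rem_of_sth o.F.op hS) o.F.op o.F.dns S.op
    (Crest.Agent.R273.HM_333.pow h o.k) (o.hs.mono (subset_univ S.U))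
    (fun i x hx hxU hev => by
      obtain ⟨y, ⟨hy1, hy2⟩, hyO⟩ := mem_closure_iff_nhds.mp (o.F.dns x) _
        (hev.and ((A.e i).open_source.mem_nhds hx))
      exact o.nz y hyO i hy2 hy1) hN hb
    (fun i y hy hyU hyO => (hbd i y hy hyU hyO).1)
    (fun i y hy hyU hyO => (hbd i y hy hyU hyO).2)
  rw [← pow_mul] at hτ
  exact ⟨{ U := S.U, op := S.op, sub := S.sub, sat := S.sat, r := r, w := w, hol := hw1,
           const := hw2, w_zero := hw3, sep := hw4, k0 := o.k * S.d,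
           k0_pos := Nat.mul_pos o.k_pos S.d_pos, τ := τ, isHS := hτ, ne := hτ0 }⟩

/-- **node N5** (final form). -/
theorem frameAt_of_slice [T2Space M] {o : OmOut σ L} {h : HM L} (hH : Harn o h)
    (c : ContOut o.F) (hS : SThM A o.F.Omᶜ) {x0 : M} (S : SliceAt o.F c x0) :
    Nonempty (FrameAt o.F c L x0) :=
  frameAt hH c hS S fun a b h => Crest.Agent.R281.Sep_341.sep_monoE a b h

end

end Crest.Agent.R281.Tc_941
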