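import Crest.Agent.R281.D6y_986
import Crest.Agent.R281.D6i_986
import Crest.Agent.R281.RF2_373
import Crest.Agent.R281.N2_373
import Crest.Agent.R281.Mass5_519
import Crest.Agent.R281.Tc5_941
import Crest.Agent.R281.LEnd7_10
import Crest.Agent.R273.AsmB_73

/-!
# R281 (S0424), S6-ASM (helper986), part z: `END6` from the remaining nodes (part y)

* `end6_of_nodes` : the seven statements of `D6y_986` imply `Sk_474.END6`.
-/

set_option autoImplicit false
set_option linter.unusedSectionVars false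

open Set Filter Topology Complex MeasureTheory
open scoped ContDiff Matrix ComplexConjugate Manifold ComplexOrder

namespace Crest.Agent.R281.D6_986

open Crest.Agent.R275.Geo Crest.Agent.R275.Core144 Crest.Agent.R275.GC293
open Crest.Agent.R273.Defs_333 Crest.Agent.R273.Kah_333 Crest.Agent.R273.HM_333
open Crest.Agent.R273.Hess_333 Crest.Agent.R273.HessB_333
open Crest.Agent.R281.Defs_273 Crest.Agent.R281.LEnd_10
open Crest.Agent.R281.S6D_664 (LFib Fam fb)
open Crest.Agent.R281.HkP3_508 (HK smulHS)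
open Crest.Agent.R281.Har_331 (Low)
open Crest.Agent.R281.Tc_941 (SliceAt)

noncomputable section

theorem leafVol_of_volC {n : ℕ} {M : Type} [TopologicalSpace M] {A : Atl (2 * n) M} {σ : HSymp A}
    {F : LFib A σ} {K : Kah A} {v : ℝ} (hv : Mass5_519.VolC A F.Tf F.Om n K v) :
    LeafVol F K v := by
  intro F0 hl
  by_cases hne : Nonempty F0.V
  · obtain ⟨v0⟩ := hne
    obtain ⟨h1, h2⟩ := hl v0
    refine (hv.leaf (F0.i v0) h1 F0 ?_).le
    rw [h2]
    ext x
    constructor
    · rintro ⟨w, rfl⟩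
      exact ⟨w, Subsingleton.elim _ _, rfl⟩
    · rintro ⟨w, -, rfl⟩
      exact ⟨w, rfl⟩
  · exfalso
    obtain ⟨w, -⟩ := (F0.conn 0 (mem_univ _)).nonempty
    exact hne ⟨w⟩

/-- **division 6 from its nodes** -/
theorem end6K_of_nodes (rich : RichStmt) (low : LowStmt) (om : OmStmt) (sk : SKStmt)
    (up : UPreStmt) (ct : ContStmt) (sl : SliceStmt) : RF_373.END6K := by
  intro n M _ _ _ _ A _ hn hA P K σ hu hK L hnef hiso hrich h K' r hr hr1 hg hK'
  have _ : SecondCountableTopology M := Crest.Agent.R273.AsmA_73.secM (A := A)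
  obtain ⟨o⟩ := om n M A hn hA P K σ hu hK L hnef hiso hrich
  obtain ⟨c1, hc1, hlow⟩ := low n M A hn P K (L ^ o.k) (pow h o.k)
  obtain ⟨v, hv⟩ := Mass5_519.exists_volC_LFib o.F K
  have hH : Harn o h := N2_373.harn_of K h o hnef hc1 hlow (leafVol_of_volC hv)
  obtain ⟨skO⟩ := sk n M A hn P K σ hK L h K' r hr hr1 hg hK' o
  obtain ⟨upO⟩ := up n M A hn P K σ L h o skO hH
  obtain ⟨c, hc⟩ := ct n M A hn P K σ L h o upO
  have hslice := sl n M A hn P K σ o.F c hc
  have hf : ∀ x0, Nonempty (FrameAt o.F c L x0) := fun x0 => by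
    obtain ⟨S⟩ := hslice x0
    exact Tc_941.frameAt_of_slice hH c o.F.sth S
  refine LEnd_10.semiAmple_of P K σ fun x0 => ?_
  obtain ⟨f⟩ := hf x0
  obtain ⟨t⟩ := f.tube (upO.out hn)
  exact t.endIn rich P K _

theorem end6_of_nodes (rich : RichStmt) (low : LowStmt) (om : OmStmt) (sk : SKStmt)
    (up : UPreStmt) (ct : ContStmt) (sl : SliceStmt) : Sk_474.END6 :=
  RF_373.end6_of (end6K_of_nodes rich low om sk up ct sl)

end

end Crest.Agent.R281.D6_986
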