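import Crest.Agent.R281.Mass2_519
import Crest.Agent.R281.Fub3_163
import Crest.Agent.R273.VolInv_5

/-!
# R281 (S0424), leaf S6-S4 (helper163): the weak form of the variation of `det`

* `int_dpn`        : `∫ φ det (C + t S)` is a polynomial in `t` (`φ` with compact support)
* `interval_det`   : `∫_0^1 det (C + s S) ds` in terms of the coefficients
* `green_symm`     : `∫ φ tr (adj G · ∂∂̄H) = ∫ H tr (adj G · ∂∂̄φ)` (`G` closed, Hermitian; `φ` of
  compact support, both real)
* `hsf_comp_y`     : `∂∂̄(χ ∘ y)` is supported at the base entry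
* `ddb_weak`       : **the formula of 507** (#8284, (S4))
-/

set_option autoImplicit false
set_option linter.unusedSectionVars false

open Set Filter Topology Complex Function MeasureTheory
open scoped ContDiff Matrix ComplexConjugate ComplexOrder Polynomial Interval

namespace Crest.Agent.R281.Dbw_163

open Crest.Agent.R275 Crest.Agent.R275.Geo Crest.Agent.R275.Core144 Crest.Agent.R275.EDR890
open Crest.Agent.R275.Pai323 Crest.Agent.R275.C1d194
open Crest.Agent.R275.SerG398 (lint dens OffZ)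
open Crest.Agent.R275.OmT75 (dj dl dl_chain dl_mul db_chain dj_sum dj_congr dbj_congr)
open Crest.Agent.R273.Defs_333 Crest.Agent.R273.Kah_333 Crest.Agent.R273.Hess_333
open Crest.Agent.R273.HessB_333 Crest.Agent.R273.KahI_645
open Crest.Agent.R273.Green_5 Crest.Agent.R273.Vol_333
open Crest.Agent.R273.VolInv_5 (dp eval_dp natDegree_dp contDiffOn_coeff_prod eval_derivative_dp
  smAt_coeff_dp)
open Crest.Agent.R273.StokesV_332 Crest.Agent.R281.S6D_664 Crest.Agent.R281.Mass2_519
open Crest.Agent.R281.Fub3_163 (Adp)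

noncomputable section

/-! ### `det (C + t S)` as a polynomial -/

section pol

variable {n : ℕ}

theorem det_eq_sum (C S : Matrix (Fin n) (Fin n) ℂ) (t : ℂ) :
    (C + t • S).det = ∑ k ∈ Finset.range (n + 1), t ^ k * (dp C S).coeff k := by
  rw [← eval_dp, Polynomial.eval_eq_sum_range' (n := n + 1)
      (lt_of_le_of_lt (natDegree_dp _ _) (by omega))]
  exact Finset.sum_congr rfl fun k _ => by ring

/-- `∫_0^1 det (C + s S) ds` -/
theorem interval_det (C S : Matrix (Fin n) (Fin n) ℂ) :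
    ∫ s in (0:ℝ)..1, (C + (s : ℂ) • S).det =
      ∑ k ∈ Finset.range (n + 1), (dp C S).coeff k / ((k : ℂ) + 1) := by
  have h1 : ∀ s : ℝ, (C + (s : ℂ) • S).det =
      ∑ k ∈ Finset.range (n + 1), ((s : ℂ)) ^ k * (dp C S).coeff k := fun s => det_eq_sum C S s
  simp only [h1]
  rw [intervalIntegral.integral_finsetSum]
  · refine Finset.sum_congr rfl fun k _ => ?_
    rw [intervalIntegral.integral_mul_const]
    have h2 : ∫ s in (0:ℝ)..1, (s : ℂ) ^ k = 1 / ((k : ℂ) + 1) := by
      have h3 : (fun s : ℝ => (s : ℂ) ^ k) = fun s : ℝ => ((s ^ k : ℝ) : ℂ) := by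
        funext s; push_cast; rfl
      rw [h3, intervalIntegral.integral_ofReal, integral_pow]
      push_cast
      simp
    rw [h2]
    ring
  · intro k _
    exact (Continuous.mul (by fun_prop) continuous_const).intervalIntegrable _ _

theorem interval_smul (c : ℂ) (f : ℝ → ℂ) :
    ∫ s in (0:ℝ)..1, c * f s = c * ∫ s in (0:ℝ)..1, f s := intervalIntegral.integral_const_mul c f

end pol

section man

variable {n : ℕ} {M : Type} [TopologicalSpace M] {A : Atl n M}

variable [T2Space M]

/-- `∫ φ det (C + t S)` is a polynomial in `t` -/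
theorem int_dpn (P : Part A) {C S : A.ι → M → Matrix (Fin n) (Fin n) ℂ}
    (hC : ∀ i a b, A.SmAt i (fun x => C i x a b)) (hS : ∀ i a b, A.SmAt i (fun x => S i x a b))
    {φ : M → ℂ} (hφ : ∀ i, A.SmAt i φ) {K : Set M} (hK : IsCompact K) (h0 : ∀ x ∉ K, φ x = 0)
    (t : ℂ) :
    intD P (fun i x => φ x * (C i x + t • S i x).det) =
      ∑ k ∈ Finset.range (n + 1), t ^ k *
        intD P (fun i x => φ x * (dp (C i x) (S i x)).coeff k) := by
  have hcs : ∀ k i, A.SmAt i (fun x => φ x * (dp (C i x) (S i x)).coeff k) :=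
    fun k i => (hφ i).mul (smAt_coeff_dp (hC i) (hS i) k)
  have hoff : ∀ k, OffK A (fun i x => φ x * (dp (C i x) (S i x)).coeff k) K :=
    fun k i x _ hxK => by
      show φ x * _ = 0
      rw [h0 x hxK, zero_mul]
  have h1 : intD P (fun i x => φ x * (C i x + t • S i x).det) =
      intD P (fun i x => ∑ k ∈ Finset.range (n + 1),
        t ^ k * (φ x * (dp (C i x) (S i x)).coeff k)) := by
    refine intD_congr P fun i x _ => ?_
    rw [det_eq_sum, Finset.mul_sum]
    exact Finset.sum_congr rfl fun k _ => by ring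
  rw [h1, intD_sum P _ (F := fun (k : ℕ) i x =>
      t ^ k * (φ x * (dp (C i x) (S i x)).coeff k))
    (fun k _ i => (contDiffOn_const (c := t ^ k)).mul (hcs k i)) hK
    (fun k _ => (hoff k).mul_left fun _ _ => t ^ k)]
  exact Finset.sum_congr rfl fun k _ => intD_smul P _ hK (hoff k)

/-- the derivative of `∫ φ det (C + t S)` -/
theorem int_dpn' (P : Part A) {C S : A.ι → M → Matrix (Fin n) (Fin n) ℂ}
    (hC : ∀ i a b, A.SmAt i (fun x => C i x a b)) (hS : ∀ i a b, A.SmAt i (fun x => S i x a b))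
    {φ : M → ℂ} (hφ : ∀ i, A.SmAt i φ) {K : Set M} (hK : IsCompact K) (h0 : ∀ x ∉ K, φ x = 0)
    (t : ℝ) :
    HasDerivAt (fun s : ℝ => intD P (fun i x => φ x * (C i x + (s : ℂ) • S i x).det))
      (intD P (fun i x => φ x * ((C i x + (t : ℂ) • S i x).adjugate * S i x).trace)) t := by
  have hcs : ∀ k i, A.SmAt i (fun x => φ x * (dp (C i x) (S i x)).coeff k) :=
    fun k i => (hφ i).mul (smAt_coeff_dp (hC i) (hS i) k)
  have hoff : ∀ k, OffK A (fun i x => φ x * (dp (C i x) (S i x)).coeff k) K :=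
    fun k i x _ hxK => by
      show φ x * _ = 0
      rw [h0 x hxK, zero_mul]
  set T : ℕ → ℂ := fun k => intD P (fun i x => φ x * (dp (C i x) (S i x)).coeff k) with hT
  have hp : (fun s : ℝ => intD P (fun i x => φ x * (C i x + (s : ℂ) • S i x).det)) =
      fun s : ℝ => ∑ k ∈ Finset.range (n + 1), (s : ℂ) ^ k * T k := by
    funext s
    exact int_dpn P hC hS hφ hK h0 s
  rw [hp]
  have h1 : HasDerivAt (fun s : ℝ => ∑ k ∈ Finset.range (n + 1), (s : ℂ) ^ k * T k)
      (∑ k ∈ Finset.range (n + 1), ((k : ℂ) * (t : ℂ) ^ (k - 1)) * T k) t := by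
    refine HasDerivAt.fun_sum fun k _ => ?_
    exact ((hasDerivAt_pow k (t : ℂ)).comp_ofReal).mul_const _
  convert h1 using 1
  have h3 : ∑ k ∈ Finset.range (n + 1), ((k : ℂ) * (t : ℂ) ^ (k - 1)) * T k =
      intD P (fun i x => ∑ k ∈ Finset.range (n + 1), ((k : ℂ) * (t : ℂ) ^ (k - 1)) *
        (φ x * (dp (C i x) (S i x)).coeff k)) := by
    rw [intD_sum P _ (F := fun (k : ℕ) i x => ((k : ℂ) * (t : ℂ) ^ (k - 1)) *
        (φ x * (dp (C i x) (S i x)).coeff k))
      (fun k _ i => (contDiffOn_const (c := (k : ℂ) * (t : ℂ) ^ (k - 1))).mul (hcs k i)) hK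
      (fun k _ => (hoff k).mul_left fun _ _ => (k : ℂ) * (t : ℂ) ^ (k - 1))]
    exact Finset.sum_congr rfl fun k _ => (intD_smul P _ hK (hoff k)).symm
  rw [h3]
  refine intD_congr P fun i x hx => ?_
  rw [← eval_derivative_dp]
  rw [Polynomial.eval_eq_sum_range' (n := n + 1)
    ((Polynomial.natDegree_derivative_le _).trans_lt
      (lt_of_le_of_lt (Nat.sub_le _ _) (Nat.lt_succ_of_le (natDegree_dp _ _))))]
  rw [Finset.sum_range_succ' (fun k => ((k : ℂ) * (t : ℂ) ^ (k - 1)) *
        (φ x * (dp (C i x) (S i x)).coeff k))]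
  simp only [Nat.cast_zero, zero_mul, add_zero]
  rw [Finset.sum_range_succ]
  have h5 : (Polynomial.derivative (dp (C i x) (S i x))).coeff n = 0 := by
    rw [Polynomial.coeff_derivative, Polynomial.coeff_eq_zero_of_natDegree_lt
      (lt_of_le_of_lt (natDegree_dp _ _) (Nat.lt_succ_self n)), zero_mul]
  rw [h5, zero_mul, add_zero, Finset.mul_sum]
  refine Finset.sum_congr rfl fun k _ => ?_
  rw [Polynomial.coeff_derivative]
  simp only [Nat.add_sub_cancel]
  push_cast
  ring

/-! ### symmetric Green -/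

theorem hsf_herm {u : M → ℝ} (hu : A.Sm u) {i : A.ι} {x : M} (hx : x ∈ (A.e i).source) :
    (hsf A u i x).IsHermitian := by
  have hz := (A.e i).map_source hx
  have h1 := hsf_read (A := A) u i hz
  rw [(A.e i).left_inv hx] at h1
  rw [h1]
  exact hess_herm (sm_contDiffAt hu i hz)

theorem adj_herm {G : Matrix (Fin n) (Fin n) ℂ} (hG : G.IsHermitian) : G.adjugate.IsHermitian :=
  hG.adjugate

theorem conj_trace {G S : Matrix (Fin n) (Fin n) ℂ} (hG : G.IsHermitian) (hS : S.IsHermitian) :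
    conj (G * S).trace = (G * S).trace := by
  have h2 := Matrix.trace_conjTranspose (G * S)
  rw [Matrix.conjTranspose_mul, hS.eq, hG.eq, Matrix.trace_mul_comm] at h2
  exact h2.symm

theorem dl_conj_real {u : M → ℝ} (i : A.ι) (a : Fin n) (x : M) :
    conj (dl A i a (fun y => (u y : ℂ)) x) = A.db i a (fun y => (u y : ℂ)) x := by
  rw [← db_conj]
  simp only [Complex.conj_ofReal]

theorem db_conj_real {u : M → ℝ} (i : A.ι) (a : Fin n) (x : M) :
    conj (A.db i a (fun y => (u y : ℂ)) x) = dl A i a (fun y => (u y : ℂ)) x := by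
  rw [← dl_conj]
  simp only [Complex.conj_ofReal]

/-- Green with a multiplier, `intD` form; the field vanishes off `K` -/
theorem greenD (P : Part A) {g : A.ι → M → Matrix (Fin n) (Fin n) ℂ} (hg : CF A g) {φ u : M → ℂ}
    (hφ : ∀ i, A.SmAt i φ) (hu : ∀ i, A.SmAt i u) {K : Set M} (hK : IsCompact K)
    (h0 : (∀ x ∉ K, φ x = 0) ∨ (∀ x ∉ K, u x = 0)) :
    intD P (fun i x => φ x * ((g i x).adjugate * hm A u i x).trace) =
      - intD P (fun i x => ∑ a, ∑ b, (g i x).adjugate b a * dl A i a φ x * A.db i b u x) := by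
  have hKo : ∀ {x}, x ∉ K → Kᶜ ∈ 𝓝 x := fun hx => hK.isClosed.isOpen_compl.mem_nhds hx
  have hdb : ∀ {f : M → ℂ}, (∀ x ∉ K, f x = 0) → ∀ i, ∀ x ∈ (A.e i).source, x ∉ K → ∀ b,
      A.db i b f x = 0 := by
    intro f hf i x hx hxK b
    exact db_zero_of hx (by filter_upwards [hKo hxK] with y hy using hf y hy) b
  have hdl : ∀ {f : M → ℂ}, (∀ x ∉ K, f x = 0) → ∀ i, ∀ x ∈ (A.e i).source, x ∉ K → ∀ b,
      dl A i b f x = 0 := by
    intro f hf i x hx hxK b
    have h1 := hdb (f := fun y => conj (f y)) (fun y hy => by rw [hf y hy, map_zero]) i x hx hxK b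
    rw [db_conj] at h1
    exact (map_eq_zero _).1 h1
  have hv := v10_adj hg hφ hu
  have hvd : VD10 A (fun i a x => adjY A g φ u i x a) := ⟨hv.sm, hv.tr⟩
  have hst := stokes10 P hvd hK fun a i x hx hxK => by
    show φ x * ∑ b, (g i x).adjugate b a * A.db i b u x = 0
    rcases h0 with h | h
    · rw [h x hxK, zero_mul]
    · rw [Finset.sum_eq_zero fun b _ => by rw [hdb h i x hx hxK, mul_zero], mul_zero]
  have hE : OffK A (fun i x => ∑ a, ∑ b, (g i x).adjugate b a * dl A i a φ x * A.db i b u x) K := by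
    intro i x hx hxK
    show ∑ a, ∑ b, (g i x).adjugate b a * dl A i a φ x * A.db i b u x = 0
    refine Finset.sum_eq_zero fun a _ => Finset.sum_eq_zero fun b _ => ?_
    rcases h0 with h | h
    · rw [hdl h i x hx hxK, mul_zero, zero_mul]
    · rw [hdb h i x hx hxK, mul_zero]
  have hT : OffK A (fun i x => φ x * ((g i x).adjugate * hm A u i x).trace) K := by
    intro i x hx hxK
    show φ x * ((g i x).adjugate * hm A u i x).trace = 0
    rcases h0 with h | h
    · rw [h x hxK, zero_mul]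
    · have h1 : hm A u i x = 0 := by
        ext a b
        rw [hm_apply, Matrix.zero_apply]
        have h2 : A.db i b u =ᶠ[𝓝 x] fun _ => (0 : ℂ) := by
          filter_upwards [hKo hxK, (A.e i).open_source.mem_nhds hx] with y hy hy'
          exact hdb h i y hy' hy b
        have h3 : (fun z => A.db i b u ((A.e i).symm z)) =ᶠ[𝓝 (A.e i x)] fun _ => (0 : ℂ) := by
          have hc : Tendsto (A.e i).symm (𝓝 (A.e i x)) (𝓝 x) := by
            have := (A.e i).continuousAt_symm ((A.e i).map_source hx)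
            rw [ContinuousAt, (A.e i).left_inv hx] at this
            exact this
          exact hc.eventually h2
        unfold OmT75.dl
        rw [dj_congr h3, dj_eq_wd]
        exact wd_const _ _ _
      rw [h1, Matrix.mul_zero, Matrix.trace_zero, mul_zero]
  rw [intD_congr P fun i x hx => div_adjY hg (hφ i) (hu i) hx,
    intD_add P (f := fun i x => φ x * ((g i x).adjugate * hm A u i x).trace)
      (g := fun i x => ∑ a, ∑ b, (g i x).adjugate b a * dl A i a φ x * A.db i b u x)
      (fun i => (hφ i).mul (smAt_tr hg (hu i))) (fun i => smAt_grad hg (hφ i) (hu i)) hK hT hE] at hst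
  exact eq_neg_of_add_eq_zero_left hst

/-- **symmetric Green formula** -/
theorem green_symm (P : Part A) {G : A.ι → M → Matrix (Fin n) (Fin n) ℂ} (hG : CF A G)
    (hGH : ∀ k, ∀ x ∈ (A.e k).source, (G k x).IsHermitian) {φ H : M → ℝ} (hφ : A.Sm φ)
    (hH : A.Sm H) {K : Set M} (hK : IsCompact K) (h0 : ∀ x ∉ K, φ x = 0) :
    intD P (fun k x => (φ x : ℂ) * ((G k x).adjugate * hsf A H k x).trace) =
      intD P (fun k x => (H x : ℂ) * ((G k x).adjugate * hsf A φ k x).trace) := by
  have h0' : ∀ x ∉ K, (fun y => (φ y : ℂ)) x = 0 := fun x hx => by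
    show (φ x : ℂ) = 0
    rw [h0 x hx, ofReal_zero]
  have e1 := greenD P hG (φ := fun y => (φ y : ℂ)) (u := fun y => (H y : ℂ))
    (fun i => smAt_ofReal (hφ i)) (fun i => smAt_ofReal (hH i)) hK (Or.inl h0')
  have e2 := greenD P hG (φ := fun y => (H y : ℂ)) (u := fun y => (φ y : ℂ))
    (fun i => smAt_ofReal (hH i)) (fun i => smAt_ofReal (hφ i)) hK (Or.inr h0')
  have hoff : OffK A (fun i x => (φ x : ℂ) * ((G i x).adjugate * hm A (fun y => (H y : ℂ)) i x).trace)
      K := fun i x _ hxK => by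
    show (φ x : ℂ) * _ = 0
    rw [h0 x hxK, ofReal_zero, zero_mul]
  have hoff2 : OffK A (fun i x => ∑ a, ∑ b, (G i x).adjugate b a *
      dl A i a (fun y => (φ y : ℂ)) x * A.db i b (fun y => (H y : ℂ)) x) K := by
    intro i x hx hxK
    show ∑ a, ∑ b, (G i x).adjugate b a * dl A i a (fun y => (φ y : ℂ)) x *
      A.db i b (fun y => (H y : ℂ)) x = 0
    refine Finset.sum_eq_zero fun a _ => Finset.sum_eq_zero fun b _ => ?_
    have h1 : A.db i a (fun y => (φ y : ℂ)) x = 0 := by
      refine db_zero_of hx ?_ a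
      filter_upwards [hK.isClosed.isOpen_compl.mem_nhds hxK] with y hy
      exact h0' y hy
    rw [← db_conj_real, h1, map_zero, mul_zero, zero_mul]
  -- the gradient terms are conjugate
  have e3 : intD P (fun i x => ∑ a, ∑ b, (G i x).adjugate b a *
      dl A i a (fun y => (H y : ℂ)) x * A.db i b (fun y => (φ y : ℂ)) x) =
      conj (intD P (fun i x => ∑ a, ∑ b, (G i x).adjugate b a *
        dl A i a (fun y => (φ y : ℂ)) x * A.db i b (fun y => (H y : ℂ)) x)) := by
    rw [← intD_conj P hK hoff2]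
    refine intD_congr P fun i x hx => ?_
    simp only [map_sum, map_mul]
    rw [Finset.sum_comm]
    refine Finset.sum_congr rfl fun b _ => Finset.sum_congr rfl fun a _ => ?_
    have h1 : conj ((G i x).adjugate a b) = (G i x).adjugate b a := by
      have := congrFun (congrFun (adj_herm (hGH i x hx)).eq b) a
      rw [Matrix.conjTranspose_apply] at this
      exact this
    rw [dl_conj_real, db_conj_real, h1]
    ring
  calc intD P (fun k x => (φ x : ℂ) * ((G k x).adjugate * hsf A H k x).trace)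
      = intD P (fun k x => conj ((φ x : ℂ) *
          ((G k x).adjugate * hm A (fun y => (H y : ℂ)) k x).trace)) := by
        refine intD_congr P fun k x hx => ?_
        rw [hm_ofReal H k hx, map_mul, conj_ofReal,
          conj_trace (adj_herm (hGH k x hx)) (hsf_herm hH hx)]
    _ = intD P (fun k x => (H x : ℂ) * ((G k x).adjugate * hm A (fun y => (φ y : ℂ)) k x).trace) := by
        rw [intD_conj P hK hoff, e1, e2, e3, map_neg]
    _ = _ := intD_congr P fun k x hx => by rw [hm_ofReal φ k hx]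

end man

/-! ### functions of the base coordinate -/

section base

variable {d : ℕ} {V : Type} [TopologicalSpace V] {B : Atl (d + 1) V} {y : V → Cn 1}

/-- `∂∂̄` of a function of `y` -/
theorem hsf_comp_y (hy : Adp B y) {χ : Cn 1 → ℝ} (hχ : ContDiff ℝ ∞ χ) (k : B.ι) {x : V}
    (hx : x ∈ (B.e k).source) (p q : Fin (d + 1)) :
    hsf B (fun v => χ (y v)) k x p q =
      if p = Fin.natAdd d 0 ∧ q = Fin.natAdd d 0 then
        dbj 0 (dj 0 (fun z => (χ z : ℂ))) (y x) else 0 := by
  have hy' : AdL B y := hy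
  have hχc : ContDiff ℝ ∞ (fun z : Cn 1 => (χ z : ℂ)) := Complex.ofRealCLM.contDiff.comp hχ
  have hz := (B.e k).map_source hx
  rw [← hm_ofReal (fun v => χ (y v)) k hx]
  have h1 := hm_read (A := B) (fun v => (χ (y v) : ℂ)) k hz p q
  rw [(B.e k).left_inv hx] at h1
  rw [h1]
  -- first derivative
  have hfst : ∀ z ∈ (B.e k).target, wd (true, q) (fun w => (χ (y ((B.e k).symm w)) : ℂ)) z =
      (if Fin.natAdd d 0 = q then 1 else 0) * wd (true, 0) (fun z => (χ z : ℂ)) (prB d 1 z) := by
    intro z hz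
    have h2 : (fun w => (χ (y ((B.e k).symm w)) : ℂ)) =ᶠ[𝓝 z] fun w => (χ (prB d 1 w) : ℂ) := by
      filter_upwards [(B.e k).open_target.mem_nhds hz] with w hw
      rw [hy'.read k hw]
    rw [wd_congr h2, wd_comp' (f := fun z : Cn 1 => (χ z : ℂ)) (φ := prB d 1)
      (hχc.differentiable (by simp) _) (prB d 1).differentiableAt]
    rw [Fin.sum_univ_one, ContinuousLinearMap.fderiv, smul_eq_mul, prB_apply]
    simp only [PiLp.single_apply]
    congr 1
    split_ifs <;> simp [cj]
  have h3 : wd (true, q) (fun w => (χ (y ((B.e k).symm w)) : ℂ)) =ᶠ[𝓝 (B.e k x)]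
      fun z => (if Fin.natAdd d 0 = q then (1:ℂ) else 0) •
        wd (true, 0) (fun z => (χ z : ℂ)) (prB d 1 z) := by
    filter_upwards [(B.e k).open_target.mem_nhds hz] with z hz
    exact hfst z hz
  have hsm : ContDiff ℝ ∞ (wd (true, (0 : Fin 1)) (fun z : Cn 1 => (χ z : ℂ))) := by
    rw [contDiff_iff_contDiffAt]
    intro z
    exact contDiffAt_wd hχc.contDiffAt _
  have hds : DifferentiableAt ℝ (fun z => wd (true, (0 : Fin 1)) (fun z : Cn 1 => (χ z : ℂ))
      (prB d 1 z)) (B.e k x) := ((hsm.comp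
    ((prB d 1).restrictScalars ℝ).contDiff).differentiable (by simp)) _
  rw [wd_congr h3, wd_const_smul _ hds]
  rw [wd_comp' (f := wd (true, (0 : Fin 1)) (fun z : Cn 1 => (χ z : ℂ))) (φ := prB d 1)
      (hsm.differentiable (by simp) _) (prB d 1).differentiableAt, ← hy'.read' k hx]
  rw [Fin.sum_univ_one, ContinuousLinearMap.fderiv, smul_eq_mul, smul_eq_mul, prB_apply, cj_false]
  simp only [PiLp.single_apply]
  have h4 : wd (false, (0 : Fin 1)) (wd (true, (0 : Fin 1)) (fun z : Cn 1 => (χ z : ℂ))) (y x) =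
      dbj 0 (dj 0 (fun z => (χ z : ℂ))) (y x) := by
    rw [wd_comm hχc.contDiffAt, wd_true]
    have h5 : wd (false, (0 : Fin 1)) (fun z : Cn 1 => (χ z : ℂ)) =
        dj 0 (fun z : Cn 1 => (χ z : ℂ)) := by
      funext z
      rw [dj_eq_wd]
    rw [h5]
  rw [h4]
  by_cases hp : p = Fin.natAdd d 0
  · by_cases hq : q = Fin.natAdd d 0
    · rw [if_pos hq.symm, if_pos hp.symm, if_pos ⟨hp, hq⟩, one_mul, one_mul]
    · have hq' : ¬ (Fin.natAdd d 0 = q) := fun h => hq h.symm
      have hr : ¬ (p = Fin.natAdd d 0 ∧ q = Fin.natAdd d 0) := fun h => hq h.2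
      rw [if_neg hq', if_neg hr, zero_mul]
  · have hp' : ¬ (Fin.natAdd d 0 = p) := fun h => hp h.symm
    have hr : ¬ (p = Fin.natAdd d 0 ∧ q = Fin.natAdd d 0) := fun h => hp h.1
    rw [if_neg hp', if_neg hr, zero_mul, mul_zero]

theorem trace_adj_base (G S : Matrix (Fin (d + 1)) (Fin (d + 1)) ℂ) (c : ℂ)
    (hS : ∀ p q, S p q = if p = Fin.natAdd d 0 ∧ q = Fin.natAdd d 0 then c else 0) :
    (G.adjugate * S).trace = c * (fb G).det := by
  have h1 := adj_rowE (d := d) (m := 1) G 0
  have h2 : bs d (0 : Fin 1) = ∅ := by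
    unfold bs
    rw [Finset.map_eq_empty]
    rfl
  have h3 : rowE (bs d (0 : Fin 1)) G = G := by
    rw [h2]
    ext i j
    simp [rowE]
  rw [h3] at h1
  rw [Matrix.trace, Finset.sum_eq_single (Fin.natAdd d 0)]
  · rw [Matrix.diag_apply, Matrix.mul_apply, Finset.sum_eq_single (Fin.natAdd d 0)]
    · rw [hS, if_pos ⟨rfl, rfl⟩, h1, mul_comm]
    · intro p _ hp
      rw [hS, if_neg fun h => hp h.1, mul_zero]
    · intro h; exact absurd (Finset.mem_univ _) h
  · intro p _ hp
    rw [Matrix.diag_apply, Matrix.mul_apply]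
    refine Finset.sum_eq_zero fun q _ => ?_
    rw [hS, if_neg fun h => hp h.2, mul_zero]
  · intro h; exact absurd (Finset.mem_univ _) h

theorem fb_add_smul (G S : Matrix (Fin (d + 1)) (Fin (d + 1)) ℂ) (s : ℂ) :
    fb (G + s • S) = fb G + s • fb S := rfl

variable [T2Space V]

/-- **the weak form** (507 #8284, (S4)) -/
theorem ddb_weak (hy : Adp B y) (P : Part B)
    {g : B.ι → V → Matrix (Fin (d + 1)) (Fin (d + 1)) ℂ} (hg : CF B g)
    (hgH : ∀ k, ∀ x ∈ (B.e k).source, (g k x).IsHermitian)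
    {H : V → ℝ} (hH : B.Sm H) {χ : Cn 1 → ℝ} (hχ : ContDiff ℝ ∞ χ)
    {C : Set V} (hC : IsCompact C) (h0 : ∀ x ∉ C, y x ∉ tsupport χ) :
    intD P (fun k x => (χ (y x) : ℂ) * ((g k x + hsf B H k x).det - (g k x).det)) =
      intD P (fun k x => (H x : ℂ) * (dbj 0 (dj 0 (fun z => (χ z : ℂ))) (y x)) *
        (∫ s in (0:ℝ)..1, (fb (g k x + (s : ℂ) • hsf B H k x)).det)) := by
  have hy' : AdL B y := hy
  have hS := hsf_cf hH
  have hφs : B.Sm (fun x => χ (y x)) := fun i => hy'.sm_comp hχ i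
  have hφ0 : ∀ x ∉ C, χ (y x) = 0 := fun x hx => image_eq_zero_of_notMem_tsupport (h0 x hx)
  have hφc : ∀ i, B.SmAt i (fun x => (χ (y x) : ℂ)) := fun i => smAt_ofReal (hφs i)
  have hφc0 : ∀ x ∉ C, (fun x => (χ (y x) : ℂ)) x = 0 := fun x hx => by
    show (χ (y x) : ℂ) = 0
    rw [hφ0 x hx, ofReal_zero]
  -- the second derivative
  have hχc : ContDiff ℝ ∞ (fun z : Cn 1 => (χ z : ℂ)) := Complex.ofRealCLM.contDiff.comp hχ
  set c : Cn 1 → ℂ := dbj 0 (dj 0 (fun z => (χ z : ℂ))) with hc
  have hcc : ContDiff ℝ ∞ c := by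
    have h1 : ContDiff ℝ ∞ (wd (false, (0 : Fin 1)) (fun z : Cn 1 => (χ z : ℂ))) := by
      rw [contDiff_iff_contDiffAt]
      intro z
      exact contDiffAt_wd hχc.contDiffAt _
    have h2 : c = wd (true, (0 : Fin 1)) (wd (false, (0 : Fin 1)) (fun z : Cn 1 => (χ z : ℂ))) := by
      funext z
      rw [wd_true, hc]
      have h5 : wd (false, (0 : Fin 1)) (fun z : Cn 1 => (χ z : ℂ)) =
          dj 0 (fun z : Cn 1 => (χ z : ℂ)) := by
        funext z
        rw [dj_eq_wd]
      rw [h5]
    rw [h2, contDiff_iff_contDiffAt]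
    intro z
    exact contDiffAt_wd h1.contDiffAt _
  have hc0 : ∀ x ∉ C, c (y x) = 0 := by
    intro x hx
    have h1 : (fun z : Cn 1 => (χ z : ℂ)) =ᶠ[𝓝 (y x)] fun _ => (0 : ℂ) := by
      filter_upwards [notMem_tsupport_iff_eventuallyEq.1 (h0 x hx)] with z hz
      rw [hz]; simp
    have h2 : dj 0 (fun z : Cn 1 => (χ z : ℂ)) =ᶠ[𝓝 (y x)] fun _ => (0 : ℂ) := by
      filter_upwards [h1.eventually_nhds] with z hz
      rw [dj_congr hz, dj_eq_wd]
      exact wd_const _ _ _
    rw [hc, OmT75.dbj_congr h2]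
    simp [dbj]
  -- multiplier of the right side
  set ψ : V → ℂ := fun x => (H x : ℂ) * c (y x) with hψ
  have hψs : ∀ i, B.SmAt i ψ := fun i => (smAt_ofReal (hH i)).mul (hy'.sm_comp hcc i)
  have hψ0 : ∀ x ∉ C, ψ x = 0 := fun x hx => by
    show (H x : ℂ) * c (y x) = 0
    rw [hc0 x hx, mul_zero]
  set p : ℝ → ℂ := fun s => intD P (fun i x => (χ (y x) : ℂ) * (g i x + (s : ℂ) • hsf B H i x).det)
    with hp
  -- the coefficients of the fibre block
  set U : ℕ → ℂ := fun k => intD P (fun i x => ψ x * (dp (fb (g i x)) (fb (hsf B H i x))).coeff k)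
    with hU
  have hsmf : ∀ i k, B.SmAt i (fun x => (dp (fb (g i x)) (fb (hsf B H i x))).coeff k) := by
    intro i k
    have h1 : ContDiffOn ℝ ∞ (fun z => (dp (fb (g i ((B.e i).symm z)))
        (fb (hsf B H i ((B.e i).symm z)))).coeff k) (B.e i).target := by
      unfold dp
      simp only [Matrix.det_apply', Polynomial.finsetSum_coeff]
      refine ContDiffOn.sum fun σ _ => ?_
      have h2 : ∀ z, ((((Equiv.Perm.sign σ : ℤ) : ℂ[X]) * ∏ b, (Matrix.of fun a b =>
          Polynomial.C (fb (g i ((B.e i).symm z)) a b) +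
            Polynomial.X * Polynomial.C (fb (hsf B H i ((B.e i).symm z)) a b)) (σ b) b).coeff k) =
          ((Equiv.Perm.sign σ : ℤ) : ℂ) * ((∏ b, (Polynomial.C (fb (g i ((B.e i).symm z)) (σ b) b) +
            Polynomial.X * Polynomial.C (fb (hsf B H i ((B.e i).symm z)) (σ b) b))).coeff k) := by
        intro z
        have h3 : (((Equiv.Perm.sign σ : ℤ) : ℂ[X])) =
            Polynomial.C (((Equiv.Perm.sign σ : ℤ) : ℂ)) := by simp
        rw [h3, Polynomial.coeff_C_mul]
        rfl
      simp only [h2]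
      refine contDiffOn_const.mul (contDiffOn_coeff_prod _ (fun b _ k => ?_) k)
      have h4 : ∀ z, ((Polynomial.C (fb (g i ((B.e i).symm z)) (σ b) b) +
          Polynomial.X * Polynomial.C (fb (hsf B H i ((B.e i).symm z)) (σ b) b)).coeff k) =
          (if k = 0 then fb (g i ((B.e i).symm z)) (σ b) b else 0) +
            (if k = 1 then fb (hsf B H i ((B.e i).symm z)) (σ b) b else 0) := by
        intro z
        rw [Polynomial.coeff_add, Polynomial.coeff_C]
        congr 1
        rcases k with _ | k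
        · simp
        · rw [Polynomial.coeff_X_mul, Polynomial.coeff_C]
          simp
      simp only [h4]
      refine ContDiffOn.add ?_ ?_
      · split_ifs
        · exact hg.sm i _ _
        · exact contDiffOn_const
      · split_ifs
        · exact hS.sm i _ _
        · exact contDiffOn_const
    exact h1
  have hUoff : ∀ k, OffK B (fun i x => ψ x * (dp (fb (g i x)) (fb (hsf B H i x))).coeff k) C :=
    fun k i x _ hx => by
      show ψ x * _ = 0
      rw [hψ0 x hx, zero_mul]
  have hUs : ∀ k i, B.SmAt i (fun x => ψ x * (dp (fb (g i x)) (fb (hsf B H i x))).coeff k) :=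
    fun k i => (hψs i).mul (hsmf i k)
  have hsumU : ∀ w : ℕ → ℂ, intD P (fun i x => ψ x * ∑ k ∈ Finset.range (d + 1),
      w k * (dp (fb (g i x)) (fb (hsf B H i x))).coeff k) = ∑ k ∈ Finset.range (d + 1), w k * U k := by
    intro w
    rw [intD_congr P (g := fun i x => ∑ k ∈ Finset.range (d + 1),
      w k * (ψ x * (dp (fb (g i x)) (fb (hsf B H i x))).coeff k)) fun i x _ => by
        rw [Finset.mul_sum]; exact Finset.sum_congr rfl fun k _ => by ring]
    rw [intD_sum P _ (F := fun (k : ℕ) i x =>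
      w k * (ψ x * (dp (fb (g i x)) (fb (hsf B H i x))).coeff k))
      (fun k _ i => (contDiffOn_const (c := w k)).mul (hUs k i)) hC
      (fun k _ => (hUoff k).mul_left fun _ _ => w k)]
    exact Finset.sum_congr rfl fun k _ => intD_smul P _ hC (hUoff k)
  -- the derivative
  have hder : ∀ s : ℝ, HasDerivAt p (∑ k ∈ Finset.range (d + 1), (s : ℂ) ^ k * U k) s := by
    intro s
    have h1 := int_dpn' P (C := g) (S := hsf B H) hg.sm hS.sm hφc hC hφc0 s
    convert h1 using 1
    have hGs : CF B (fun i x => g i x + (s : ℂ) • hsf B H i x) := hg.add (hS.smul s)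
    have hGH : ∀ k, ∀ x ∈ (B.e k).source, (g k x + (s : ℂ) • hsf B H k x).IsHermitian := by
      intro k x hx
      refine (hgH k x hx).add ?_
      rw [Matrix.IsHermitian, Matrix.conjTranspose_smul, (hsf_herm hH hx).eq]
      simp
    rw [green_symm P hGs hGH hφs hH hC hφ0, ← hsumU fun k => (s : ℂ) ^ k]
    refine intD_congr P fun k x hx => ?_
    rw [trace_adj_base _ _ (c (y x)) (hsf_comp_y hy hχ k hx), fb_add_smul, ← det_eq_sum, hψ]
    ring
  have hint : ∫ s in (0:ℝ)..1, (∑ k ∈ Finset.range (d + 1), (s : ℂ) ^ k * U k) = p 1 - p 0 := by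
    refine intervalIntegral.integral_eq_sub_of_hasDerivAt (fun s _ => hder s) ?_
    exact (continuous_finsetSum _ fun k _ => Continuous.mul (by fun_prop)
      continuous_const).intervalIntegrable _ _
  have hint2 : ∫ s in (0:ℝ)..1, (∑ k ∈ Finset.range (d + 1), (s : ℂ) ^ k * U k) =
      ∑ k ∈ Finset.range (d + 1), (1 / ((k : ℂ) + 1)) * U k := by
    rw [intervalIntegral.integral_finsetSum]
    · refine Finset.sum_congr rfl fun k _ => ?_
      rw [intervalIntegral.integral_mul_const]
      have h2 : ∫ s in (0:ℝ)..1, (s : ℂ) ^ k = 1 / ((k : ℂ) + 1) := by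
        have h3 : (fun s : ℝ => (s : ℂ) ^ k) = fun s : ℝ => ((s ^ k : ℝ) : ℂ) := by
          funext s; push_cast; rfl
        rw [h3, intervalIntegral.integral_ofReal, integral_pow]
        push_cast
        simp
      rw [h2]
    · intro k _
      exact (Continuous.mul (by fun_prop) continuous_const).intervalIntegrable _ _
  -- the left side
  have hL : intD P (fun k x => (χ (y x) : ℂ) * ((g k x + hsf B H k x).det - (g k x).det)) =
      p 1 - p 0 := by
    have ho1 : OffK B (fun i x => (χ (y x) : ℂ) * (g i x + ((1:ℝ) : ℂ) • hsf B H i x).det) C :=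
      fun i x _ hx => by
        show (χ (y x) : ℂ) * _ = 0
        rw [hφ0 x hx, ofReal_zero, zero_mul]
    have ho0 : OffK B (fun i x => (χ (y x) : ℂ) * (g i x + ((0:ℝ) : ℂ) • hsf B H i x).det) C :=
      fun i x _ hx => by
        show (χ (y x) : ℂ) * _ = 0
        rw [hφ0 x hx, ofReal_zero, zero_mul]
    have hs : ∀ (s : ℝ) i, B.SmAt i (fun x => (χ (y x) : ℂ) *
        (g i x + (s : ℂ) • hsf B H i x).det) := fun s i =>
      (hφc i).mul (smAt_det ((hg.add (hS.smul s)).sm i))
    rw [hp]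
    show _ = intD P _ - intD P _
    rw [← intD_sub P (hs 1) (hs 0) hC ho1 ho0]
    refine intD_congr P fun i x _ => ?_
    rw [ofReal_one, ofReal_zero, one_smul, zero_smul, add_zero]
    ring
  rw [hL, ← hint, hint2, ← hsumU fun k => 1 / ((k : ℂ) + 1)]
  refine intD_congr P fun i x _ => ?_
  have h6 : ∫ s in (0:ℝ)..1, (fb (g i x + (s : ℂ) • hsf B H i x)).det =
      ∑ k ∈ Finset.range (d + 1), (dp (fb (g i x)) (fb (hsf B H i x))).coeff k / ((k : ℂ) + 1) :=
    interval_det (fb (g i x)) (fb (hsf B H i x))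
  rw [h6]
  show (H x : ℂ) * c (y x) * _ = (H x : ℂ) * c (y x) * _
  congr 1
  exact Finset.sum_congr rfl fun k _ => by ring

end base

end

end Crest.Agent.R281.Dbw_163
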