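import Crest.Prelude.Def_CXIntegral

/-!
# R281 (S0424), HK-DIC-INT part 1 (helper699): naturality of `wedgeTopEval`, Lebesgue measure

* `sbasis N`        : `stdRealBasis N` as a real basis of `ℂᴺ`;
* `wet_comp`        : `wedgeTopEval (β ∘ T) = det T • wedgeTopEval β` for real linear `T`;
* `wet_compC`       : the same for complex linear `T`, with `|det_ℂ T|²`;
* `rcE`, `mp_rc`    : real coordinates `ℂᴺ → (Fin N × Fin 2 → ℝ)` preserve Lebesgue measure.
-/

set_option autoImplicit false

open Set Filter Topology MeasureTheory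
open scoped ContDiff

namespace Crest.Agent.R281.Dci1_699

open Crest.CxGeometry

noncomputable section

variable {N : ℕ}

/-! ### alternating maps with values in `ℂ` -/

theorem alt_eq {ι V : Type*} [Fintype ι] [DecidableEq ι] [AddCommGroup V] [Module ℝ V]
    (e : Module.Basis ι ℝ V) (f : V [⋀^ι]→ₗ[ℝ] ℂ) (v : ι → V) : f v = (e.det v) • f e := by
  have h : f = ((LinearMap.toSpanSingleton ℝ ℂ (f e)).compAlternatingMap e.det) := by
    refine Module.Basis.ext_alternating e fun i h => ?_
    let σ : Equiv.Perm ι := Equiv.ofBijective i (Finite.injective_iff_bijective.1 h)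
    change f (e ∘ σ) = ((LinearMap.toSpanSingleton ℝ ℂ (f e)).compAlternatingMap e.det) (e ∘ σ)
    rw [AlternatingMap.map_perm, AlternatingMap.map_perm]
    congr 1
    simp [Module.Basis.det_self]
  conv_lhs => rw [h]
  simp

/-- the product `∏ β_k (v (k,0), v (k,1))` as a multilinear map -/
def prodM (β : Fin N → (Cn N) [⋀^Fin 2]→L[ℝ] ℂ) :
    MultilinearMap ℝ (fun _ : Fin N × Fin 2 => Cn N) ℂ where
  toFun v := ∏ k : Fin N, β k ![v (k, 0), v (k, 1)]
  map_update_add' := by
    intro _ v p x y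
    obtain ⟨k, a⟩ := p
    rw [← Finset.mul_prod_erase _ _ (Finset.mem_univ k),
      ← Finset.mul_prod_erase _ _ (Finset.mem_univ k),
      ← Finset.mul_prod_erase _ _ (Finset.mem_univ k)]
    have h0 : ∀ z, ∏ l ∈ Finset.univ.erase k, β l ![Function.update v (k, a) z (l, 0),
        Function.update v (k, a) z (l, 1)] = ∏ l ∈ Finset.univ.erase k, β l ![v (l, 0), v (l, 1)] := by
      intro z
      refine Finset.prod_congr rfl fun l hl => ?_
      have hl' : l ≠ k := (Finset.mem_erase.1 hl).1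
      rw [Function.update_of_ne (by simp [hl']), Function.update_of_ne (by simp [hl'])]
    rw [h0, h0, h0, ← add_mul]
    congr 1
    have h1 : ∀ z, (![Function.update v (k, a) z (k, 0), Function.update v (k, a) z (k, 1)] :
        Fin 2 → Cn N) = Function.update ![v (k, 0), v (k, 1)] a z := by
      intro z
      ext b
      fin_cases a <;> fin_cases b <;> simp [Function.update]
    rw [h1, h1, h1]
    exact (β k).map_update_add _ a x y
  map_update_smul' := by
    intro _ v p c x
    obtain ⟨k, a⟩ := p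
    rw [← Finset.mul_prod_erase _ _ (Finset.mem_univ k),
      ← Finset.mul_prod_erase _ _ (Finset.mem_univ k)]
    have h0 : ∀ z, ∏ l ∈ Finset.univ.erase k, β l ![Function.update v (k, a) z (l, 0),
        Function.update v (k, a) z (l, 1)] = ∏ l ∈ Finset.univ.erase k, β l ![v (l, 0), v (l, 1)] := by
      intro z
      refine Finset.prod_congr rfl fun l hl => ?_
      have hl' : l ≠ k := (Finset.mem_erase.1 hl).1
      rw [Function.update_of_ne (by simp [hl']), Function.update_of_ne (by simp [hl'])]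
    rw [h0, h0, ← smul_mul_assoc]
    congr 1
    have h1 : ∀ z, (![Function.update v (k, a) z (k, 0), Function.update v (k, a) z (k, 1)] :
        Fin 2 → Cn N) = Function.update ![v (k, 0), v (k, 1)] a z := by
      intro z
      ext b
      fin_cases a <;> fin_cases b <;> simp [Function.update]
    rw [h1, h1]
    exact (β k).map_update_smul _ a c x

theorem prodM_apply (β : Fin N → (Cn N) [⋀^Fin 2]→L[ℝ] ℂ) (v : Fin N × Fin 2 → Cn N) :
    prodM β v = ∏ k : Fin N, β k ![v (k, 0), v (k, 1)] := rfl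

/-- the top form `β₀ ∧ ⋯ ∧ β_{N-1}` (times `2ᴺ`) as an alternating map -/
def topM (β : Fin N → (Cn N) [⋀^Fin 2]→L[ℝ] ℂ) : (Cn N) [⋀^Fin N × Fin 2]→ₗ[ℝ] ℂ :=
  MultilinearMap.alternatization (prodM β)

theorem topM_apply (β : Fin N → (Cn N) [⋀^Fin 2]→L[ℝ] ℂ) (v : Fin N × Fin 2 → Cn N) :
    topM β v = ∑ π : Equiv.Perm (Fin N × Fin 2), ((Equiv.Perm.sign π : ℤ) : ℂ) *
      ∏ k : Fin N, β k ![v (π (k, 0)), v (π (k, 1))] := by
  unfold topM
  rw [MultilinearMap.alternatization_apply]
  refine Finset.sum_congr rfl fun π _ => ?_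
  rw [Units.smul_def, zsmul_eq_mul, MultilinearMap.domDomCongr_apply, prodM_apply]

theorem wet_eq (β : Fin N → (Cn N) [⋀^Fin 2]→L[ℝ] ℂ) :
    wedgeTopEval β = (1 / (2 : ℂ) ^ N) * topM β (stdRealBasis N) := by
  rw [topM_apply]
  rfl

/-! ### the standard real basis -/

theorem sb0 (k : Fin N) : stdRealBasis N (k, 0) = EuclideanSpace.single k (1 : ℂ) := by
  simp [stdRealBasis]

theorem sb1 (k : Fin N) : stdRealBasis N (k, 1) = EuclideanSpace.single k Complex.I := by
  simp [stdRealBasis]

theorem orthonormal_sb (N : ℕ) : Orthonormal ℝ (stdRealBasis N) := by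
  classical
  rw [orthonormal_iff_ite]
  rintro ⟨k, a⟩ ⟨l, b⟩
  have h : inner ℝ (stdRealBasis N (k, a)) (stdRealBasis N (l, b)) =
      ∑ j, inner ℝ (stdRealBasis N (k, a) j) (stdRealBasis N (l, b) j) := PiLp.inner_apply _ _
  rw [h]
  fin_cases a <;> fin_cases b <;>
    simp [sb0, sb1, PiLp.single_apply, Complex.inner]
  · simp only [apply_ite Complex.re, Complex.one_re, Complex.zero_re]
    rw [Finset.sum_ite_eq' Finset.univ k (fun x => if x = l then (1 : ℝ) else 0)]
    simp
  · simp [apply_ite Complex.re]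
  · simp [apply_ite Complex.re, apply_ite (starRingEnd ℂ)]
  · simp only [apply_ite (starRingEnd ℂ), mul_ite, apply_ite Complex.re, Complex.conj_I, map_zero,
      mul_zero, mul_neg, Complex.I_mul_I, neg_neg, Complex.one_re, Complex.zero_re]
    rw [Finset.sum_ite_eq' Finset.univ l (fun x => if x = k then (1 : ℝ) else 0)]
    simp [eq_comm]

/-- the orthonormal basis `stdRealBasis` -/
def onb (N : ℕ) : OrthonormalBasis (Fin N × Fin 2) ℝ (Cn N) :=
  OrthonormalBasis.mk (orthonormal_sb N) (by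
    rw [top_le_iff]
    refine (orthonormal_sb N).linearIndependent.span_eq_top_of_card_eq_finrank' ?_
    rw [Fintype.card_prod, Fintype.card_fin, Fintype.card_fin, finrank_real_of_complex,
      finrank_euclideanSpace, Fintype.card_fin, mul_comm])

theorem onb_coe (N : ℕ) : ⇑(onb N) = stdRealBasis N := OrthonormalBasis.coe_mk _ _

theorem onb_toBasis (N : ℕ) : ⇑((onb N).toBasis) = stdRealBasis N := by
  rw [OrthonormalBasis.coe_toBasis, onb_coe]

/-! ### naturality -/

theorem topM_comp (β : Fin N → (Cn N) [⋀^Fin 2]→L[ℝ] ℂ) (T : Cn N →L[ℝ] Cn N)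
    (v : Fin N × Fin 2 → Cn N) :
    topM (fun k => (β k).compContinuousLinearMap T) v = topM β (fun p => T (v p)) := by
  rw [topM_apply, topM_apply]
  refine Finset.sum_congr rfl fun π _ => ?_
  congr 1
  refine Finset.prod_congr rfl fun k _ => ?_
  rw [ContinuousAlternatingMap.compContinuousLinearMap_apply]
  congr 1
  ext a : 1
  fin_cases a <;> rfl

/-- naturality of `wedgeTopEval` under real linear maps -/
theorem wet_comp (β : Fin N → (Cn N) [⋀^Fin 2]→L[ℝ] ℂ) (T : Cn N →L[ℝ] Cn N) :
    wedgeTopEval (fun k => (β k).compContinuousLinearMap T) =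
      ((LinearMap.det (T : Cn N →ₗ[ℝ] Cn N) : ℝ) : ℂ) * wedgeTopEval β := by
  rw [wet_eq, wet_eq, topM_comp, alt_eq (onb N).toBasis (topM β), onb_toBasis]
  have h : (onb N).toBasis.det (fun p => T (stdRealBasis N p)) =
      LinearMap.det (T : Cn N →ₗ[ℝ] Cn N) := by
    have := (onb N).toBasis.det_comp (T : Cn N →ₗ[ℝ] Cn N) (onb N).toBasis
    rw [Module.Basis.det_self, mul_one] at this
    rw [← this]
    congr 1
    funext p
    simp [onb_coe]
  rw [h, Complex.real_smul]
  ring

theorem det_restrict (T : Cn N →L[ℂ] Cn N) :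
    LinearMap.det ((T.restrictScalars ℝ : Cn N →L[ℝ] Cn N) : Cn N →ₗ[ℝ] Cn N) =
      ‖LinearMap.det (T : Cn N →ₗ[ℂ] Cn N)‖ ^ 2 := by
  have h : ((T.restrictScalars ℝ : Cn N →L[ℝ] Cn N) : Cn N →ₗ[ℝ] Cn N) =
      (T : Cn N →ₗ[ℂ] Cn N).restrictScalars ℝ := rfl
  rw [h, LinearMap.det_restrictScalars, Algebra.norm_complex_apply, Complex.normSq_eq_norm_sq]

/-- naturality under complex linear maps -/
theorem wet_compC (β : Fin N → (Cn N) [⋀^Fin 2]→L[ℝ] ℂ) (T : Cn N →L[ℂ] Cn N) :
    wedgeTopEval (fun k => (β k).compContinuousLinearMap (T.restrictScalars ℝ)) =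
      ((‖LinearMap.det (T : Cn N →ₗ[ℂ] Cn N)‖ ^ 2 : ℝ) : ℂ) * wedgeTopEval β := by
  rw [wet_comp, det_restrict]

/-! ### Lebesgue measure -/

/-- real coordinates -/
def rcE (z : Cn N) : Fin N × Fin 2 → ℝ := fun p => if p.2 = 0 then (z p.1).re else (z p.1).im

theorem rcE_eq (z : Cn N) : rcE z = ((onb N).repr z).ofLp := by
  funext p
  obtain ⟨k, a⟩ := p
  rw [OrthonormalBasis.repr_apply_apply, onb_coe]
  have h : inner ℝ (stdRealBasis N (k, a)) z = ∑ j, inner ℝ (stdRealBasis N (k, a) j) (z j) :=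
    PiLp.inner_apply _ _
  rw [h]
  fin_cases a
  · simp [rcE, sb0, PiLp.single_apply, Complex.inner, apply_ite (starRingEnd ℂ),
      apply_ite Complex.re]
  · simp [rcE, sb1, PiLp.single_apply, Complex.inner, apply_ite (starRingEnd ℂ),
      apply_ite Complex.re]

theorem mp_rc (N : ℕ) : MeasurePreserving (rcE (N := N)) := by
  have h1 := (onb N).measurePreserving_measurableEquiv
  have h2 := EuclideanSpace.volume_preserving_symm_measurableEquiv_toLp (Fin N × Fin 2)
  have e : rcE (N := N) = ⇑(MeasurableEquiv.toLp 2 (Fin N × Fin 2 → ℝ)).symm ∘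
      ⇑(onb N).measurableEquiv := by
    funext z
    exact rcE_eq z
  rw [e]
  exact h2.comp h1

theorem me_rc (N : ℕ) : MeasurableEmbedding (rcE (N := N)) := by
  have e : rcE (N := N) = ⇑(MeasurableEquiv.toLp 2 (Fin N × Fin 2 → ℝ)).symm ∘
      ⇑(onb N).measurableEquiv := by
    funext z
    exact rcE_eq z
  rw [e]
  exact (MeasurableEquiv.measurableEmbedding _).comp (MeasurableEquiv.measurableEmbedding _)

theorem integral_rc {E : Type*} [NormedAddCommGroup E] [NormedSpace ℝ E]
    (f : (Fin N × Fin 2 → ℝ) → E) : ∫ z : Cn N, f (rcE z) = ∫ x, f x :=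
  (mp_rc N).integral_comp (me_rc N) f

end

end Crest.Agent.R281.Dci1_699
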