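import Crest.Agent.R275.GAtl_293
import Crest.Agent.R275.Core_144
import Crest.Prelude.Def_CXForm

/-!
# R281 (S0424), HK-DIC part A (helper273): the model in `Type` and the link with the preferred charts

`exists_model` : a compact Hausdorff space charted over `Cn n` is homeomorphic to a space in `Type`.
`tc g e`       : the chart `e` of `X` as a chart of `M` (`g : M ≃ₜ X`).
`chartedM g`   : charted space structure of `M` whose atlas consists of the PREFERRED charts of `X`.
`Lk A X`       : `g : M ≃ₜ X`; every chart of `A : Atl n M` is an affine image of a preferred chart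
                 `chartAt (Cn n) (y i)` of `X`, with a common scaling factor `ρ`.
`exists_lk`    : existence, subordinate to an open cover.
`Lk.tD i x`    : derivative of the change from the coordinates of the chart `i` of `A` to the
                 preferred coordinates at `g x` (complex linear); `transDeriv_eq`, `tD_tr`, `tD_inv`.
-/

set_option autoImplicit false
set_option linter.unusedSectionVars false

open Set Filter Topology Complex
open scoped ContDiff Manifold

namespace Crest.Agent.R281.DicA_273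

open Crest.Agent.R275.Geo Crest.Agent.R275.Core144 Crest.Agent.R275.GC293
open Crest.CxGeometry (Form chartRep transDeriv chartWindow)

noncomputable section

universe u

theorem exists_model (n : ℕ) (X : Type u) [TopologicalSpace X] [T2Space X] [CompactSpace X]
    [ChartedSpace (Cn n) X] :
    ∃ (M : Type) (_ : TopologicalSpace M), Nonempty (M ≃ₜ X) := by
  have : SecondCountableTopology X := ChartedSpace.secondCountable_of_sigmaCompact (Cn n) X
  obtain ⟨f, hf⟩ := TopologicalSpace.exists_embedding_l_infty X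
  exact ⟨range f, inferInstance, ⟨hf.toHomeomorph.symm⟩⟩

variable {n : ℕ} {X : Type u} [TopologicalSpace X] [ChartedSpace (Cn n) X]
  {M : Type} [TopologicalSpace M]

/-- the chart `e` of `X` as a chart of `M` -/
def tc (g : M ≃ₜ X) (e : OpenPartialHomeomorph X (Cn n)) : OpenPartialHomeomorph M (Cn n) :=
  g.toOpenPartialHomeomorph ≫ₕ e

theorem tc_apply (g : M ≃ₜ X) (e : OpenPartialHomeomorph X (Cn n)) (x : M) :
    tc g e x = e (g x) := rfl

theorem tc_symm_apply (g : M ≃ₜ X) (e : OpenPartialHomeomorph X (Cn n)) (z : Cn n) :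
    (tc g e).symm z = g.symm (e.symm z) := rfl

theorem tc_source (g : M ≃ₜ X) (e : OpenPartialHomeomorph X (Cn n)) :
    (tc g e).source = g ⁻¹' e.source := by
  ext x
  simp [tc]

theorem tc_target (g : M ≃ₜ X) (e : OpenPartialHomeomorph X (Cn n)) :
    (tc g e).target = e.target := by
  ext x
  simp [tc]

/-- the charted space structure of `M`: only the preferred charts of `X` -/
@[reducible] def chartedM (g : M ≃ₜ X) : ChartedSpace (Cn n) M where
  atlas := range fun y : X => tc g (chartAt (Cn n) y)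
  chartAt x := tc g (chartAt (Cn n) (g x))
  mem_chart_source x := by
    rw [tc_source]
    exact mem_chart_source (Cn n) (g x)
  chart_mem_atlas x := ⟨g x, rfl⟩

theorem isManifold_chartedM (g : M ≃ₜ X) [IsManifold 𝓘(ℂ, Cn n) ω X] :
    let _ := chartedM (n := n) g
    IsManifold 𝓘(ℂ, Cn n) 1 M := by
  let _ := chartedM (n := n) g
  apply isManifold_of_contDiffOn
  rintro _ _ ⟨y, rfl⟩ ⟨y', rfl⟩
  set e := chartAt (Cn n) y
  set e' := chartAt (Cn n) y'
  have h0 : ContDiffOn ℂ ω (e.symm ≫ₕ e') (e.symm ≫ₕ e').source := by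
    have := contMDiffOn_of_mem_contDiffGroupoid (n := ω) (I := 𝓘(ℂ, Cn n))
      (HasGroupoid.compatible (G := contDiffGroupoid ω 𝓘(ℂ, Cn n)) (chart_mem_atlas (Cn n) y)
        (chart_mem_atlas (Cn n) y'))
    exact contMDiffOn_iff_contDiffOn.1 this
  have h1 : ContDiffOn ℂ 1 (e.symm ≫ₕ e') (e.symm ≫ₕ e').source := h0.of_le le_top
  refine h1.congr_mono ?_ ?_
  · intro z _
    simp [tc_apply, tc_symm_apply, e, e']
  · intro z hz
    have h2 := hz.1
    simp only [mem_preimage, modelWithCornersSelf_coe_symm, id_eq, OpenPartialHomeomorph.trans_source,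
      OpenPartialHomeomorph.symm_source, tc_target, tc_source, mem_inter_iff] at h2 ⊢
    refine ⟨h2.1, ?_⟩
    have h3 := h2.2
    rw [tc_symm_apply] at h3
    simpa using h3

/-- comparison data -/
structure Lk (A : Atl n M) (X : Type u) [TopologicalSpace X] [ChartedSpace (Cn n) X] where
  g : M ≃ₜ X
  y : A.ι → X
  ρ : ℝ
  ρ_pos : 0 < ρ
  b : A.ι → Cn n
  src : ∀ i, ∀ x ∈ (A.e i).source, g x ∈ (chartAt (Cn n) (y i)).source
  ap : ∀ i, ∀ x ∈ (A.e i).source, chartAt (Cn n) (y i) (g x) = (ρ : ℂ) • A.e i x + b i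

theorem exists_lk {X : Type u} [TopologicalSpace X] [ChartedSpace (Cn n) X]
    [IsManifold 𝓘(ℂ, Cn n) ω X] {M : Type} [TopologicalSpace M] [T2Space M] [CompactSpace M]
    (g : M ≃ₜ X) {κ : Type*} (O : κ → Set X) (hO : ∀ k, IsOpen (O k)) (hOc : ∀ x, ∃ k, x ∈ O k) :
    ∃ A : Atl n M, Finite A.ι ∧ GoodA A ∧ Nonempty (Part A) ∧ ∃ K : Lk A X, K.g = g ∧
      ∀ i, ∃ k, (A.e i).source ⊆ K.g ⁻¹' O k := by
  let _ := chartedM (n := n) g
  have : IsManifold 𝓘(ℂ, Cn n) 1 M := isManifold_chartedM g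
  obtain ⟨G, hG, hP, hF, hs⟩ := exists_goodAtl (m := n) (M := M) (fun k => g ⁻¹' O k)
    (fun k => (hO k).preimage g.continuous) (fun x => hOc (g x))
  refine ⟨goodAtl G, hF, hG, hP, ?_⟩
  choose y hy using fun i => G.e_mem i
  have key : ∀ (i : Fin G.n) (x : M), x ∈ ((goodAtl G).e i).source → x ∈ (G.e i).source := by
    intro i x hx
    have h0 : x ∈ G.B i := (goodAtl_source G i) ▸ hx
    exact cball_subset_source _ _ _ h0
  refine ⟨⟨g, y, 2 * G.r, by have := G.r_pos; positivity,
    fun i => (G.e i (G.c i) - ((2 * G.r : ℝ) : ℂ) • ctr n), ?_, ?_⟩, rfl, hs⟩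
  · intro i x hx
    have h1 := key i x hx
    rw [← hy i, tc_source] at h1
    exact h1
  · intro i x hx
    have h1 : (goodAtl G).e i x = aff (G.e i (G.c i)) G.r G.r_pos (G.e i x) := rfl
    have h2 : G.e i x = (aff (G.e i (G.c i)) G.r G.r_pos).symm ((goodAtl G).e i x) := by
      rw [h1, Homeomorph.symm_apply_apply]
    have h3 : chartAt (Cn n) (y i) (g x) = G.e i x := by
      rw [← hy i, tc_apply]
    rw [h3, h2, aff_symm_apply, smul_sub]
    abel

variable {A : Atl n M}

namespace Lk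

variable (K : Lk A X)

/-- the preferred chart attached to the index `i` -/
def c (i : A.ι) : OpenPartialHomeomorph X (Cn n) := chartAt (Cn n) (K.y i)

/-- the affine map -/
def ps (i : A.ι) (z : Cn n) : Cn n := (K.ρ : ℂ) • z + K.b i

/-- its inverse -/
def qs (i : A.ι) (w : Cn n) : Cn n := (K.ρ : ℂ)⁻¹ • (w - K.b i)

theorem ρ_ne : (K.ρ : ℂ) ≠ 0 := by exact_mod_cast K.ρ_pos.ne'

theorem ps_e {i : A.ι} {x : M} (hx : x ∈ (A.e i).source) : K.ps i (A.e i x) = K.c i (K.g x) :=
  (K.ap i x hx).symm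

theorem qs_ps (i : A.ι) (z : Cn n) : K.qs i (K.ps i z) = z := by
  unfold qs ps
  rw [add_sub_cancel_right, smul_smul, inv_mul_cancel₀ K.ρ_ne, one_smul]

theorem ps_qs (i : A.ι) (z : Cn n) : K.ps i (K.qs i z) = z := by
  unfold qs ps
  rw [smul_smul, mul_inv_cancel₀ K.ρ_ne, one_smul, sub_add_cancel]

theorem e_eq {i : A.ι} {x : M} (hx : x ∈ (A.e i).source) : A.e i x = K.qs i (K.c i (K.g x)) := by
  rw [← K.ps_e hx, K.qs_ps]

theorem ps_mem {i : A.ι} {z : Cn n} (hz : z ∈ (A.e i).target) : K.ps i z ∈ (K.c i).target := by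
  have h1 := (A.e i).map_target hz
  have h2 := K.ps_e h1
  rw [(A.e i).right_inv hz] at h2
  rw [h2]
  exact (K.c i).map_source (K.src i _ h1)

theorem g_symm {i : A.ι} {z : Cn n} (hz : z ∈ (A.e i).target) :
    K.g ((A.e i).symm z) = (K.c i).symm (K.ps i z) := by
  have h1 := (A.e i).map_target hz
  have h2 := K.ps_e h1
  rw [(A.e i).right_inv hz] at h2
  rw [h2, (K.c i).left_inv (K.src i _ h1)]

theorem c_symm {i : A.ι} {z : Cn n} (hz : z ∈ (A.e i).target) :
    K.c i (K.g ((A.e i).symm z)) = K.ps i z := by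
  rw [K.g_symm hz, (K.c i).right_inv (K.ps_mem hz)]

theorem hasFDerivAt_ps (i : A.ι) (z : Cn n) :
    HasFDerivAt (K.ps i) ((K.ρ : ℂ) • ContinuousLinearMap.id ℂ (Cn n)) z :=
  (((K.ρ : ℂ) • ContinuousLinearMap.id ℂ (Cn n)).hasFDerivAt).add_const (K.b i)

theorem differentiable_ps (i : A.ι) : Differentiable ℂ (K.ps i) := fun z =>
  (K.hasFDerivAt_ps i z).differentiableAt

theorem differentiable_qs (i : A.ι) : Differentiable ℂ (K.qs i) := by
  have : K.qs i = fun w => (K.ρ : ℂ)⁻¹ • (w - K.b i) := rfl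
  rw [this]
  fun_prop

theorem contDiff_ps (i : A.ι) : ContDiff ℝ ∞ (K.ps i) := by
  have : K.ps i = fun z => (K.ρ : ℂ) • z + K.b i := rfl
  rw [this]
  fun_prop

theorem contDiff_qs (i : A.ι) : ContDiff ℝ ∞ (K.qs i) := by
  have : K.qs i = fun z => (K.ρ : ℂ)⁻¹ • (z - K.b i) := rfl
  rw [this]
  fun_prop

theorem continuous_ps (i : A.ι) : Continuous (K.ps i) := (K.differentiable_ps i).continuous

theorem continuous_qs (i : A.ι) : Continuous (K.qs i) := (K.differentiable_qs i).continuous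

end Lk

/-! ### transition maps of `X` -/

theorem diff_trans [IsManifold 𝓘(ℂ, Cn n) ω X] (y y' : X) :
    DifferentiableOn ℂ (chartAt (Cn n) y' ∘ (chartAt (Cn n) y).symm)
      ((chartAt (Cn n) y).symm ≫ₕ chartAt (Cn n) y').source := by
  have := contMDiffOn_of_mem_contDiffGroupoid (n := ω) (I := 𝓘(ℂ, Cn n))
      (HasGroupoid.compatible (G := contDiffGroupoid ω 𝓘(ℂ, Cn n)) (chart_mem_atlas (Cn n) y)
        (chart_mem_atlas (Cn n) y'))
  exact (contMDiffOn_iff_contDiffOn.1 this).differentiableOn (by simp)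

theorem diffAt_trans' [IsManifold 𝓘(ℂ, Cn n) ω X] {y y' : X} {w : Cn n}
    (hw : w ∈ (chartAt (Cn n) y).target) (hw' : (chartAt (Cn n) y).symm w ∈
      (chartAt (Cn n) y').source) :
    DifferentiableAt ℂ (fun v => chartAt (Cn n) y' ((chartAt (Cn n) y).symm v)) w := by
  refine (diff_trans y y').differentiableAt
    (((chartAt (Cn n) y).symm ≫ₕ chartAt (Cn n) y').open_source.mem_nhds ?_)
  simp [hw, hw']

theorem diffAt_trans [IsManifold 𝓘(ℂ, Cn n) ω X] {y y' : X} {x : X}
    (hx : x ∈ (chartAt (Cn n) y).source) (hx' : x ∈ (chartAt (Cn n) y').source) :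
    DifferentiableAt ℂ (fun v => chartAt (Cn n) y' ((chartAt (Cn n) y).symm v))
      (chartAt (Cn n) y x) :=
  diffAt_trans' ((chartAt (Cn n) y).map_source hx)
    (by rw [(chartAt (Cn n) y).left_inv hx]; exact hx')

/-- the derivative in `transDeriv` in explicit form -/
theorem transDeriv_eq [IsManifold 𝓘(ℂ, Cn n) ω X] (x₀ : X) {w : Cn n}
    (hw : w ∈ (chartAt (Cn n) x₀).target) :
    transDeriv x₀ w = (fderiv ℂ (fun v => chartAt (Cn n) ((chartAt (Cn n) x₀).symm w)
      ((chartAt (Cn n) x₀).symm v)) w).restrictScalars ℝ := by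
  have : IsManifold 𝓘(ℂ, Cn n) 1 X := IsManifold.of_le (n := ω) le_top
  unfold Crest.CxGeometry.transDeriv
  congr 1
  have h1 : MDifferentiableAt 𝓘(ℂ, Cn n) 𝓘(ℂ, Cn n) (chartAt (Cn n) x₀).symm w :=
    mdifferentiableAt_atlas_symm (chart_mem_atlas (Cn n) x₀) hw
  rw [mfderiv, if_pos h1]
  simp only [writtenInExtChartAt, extChartAt, mfld_simps, fderivWithin_univ]
  rfl

namespace Lk

variable (K : Lk A X)

/-- derivative of the change from the coordinates of the chart `i` of `A` to the preferred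
coordinates at `g x` -/
def tD (i : A.ι) (x : M) : Cn n →L[ℂ] Cn n :=
  fderiv ℂ (fun z => chartAt (Cn n) (K.g x) (K.g ((A.e i).symm z))) (A.e i x)

variable [IsManifold 𝓘(ℂ, Cn n) ω X]

/-- a change of coordinates from `A.e i` to any preferred chart -/
theorem hasFDerivAt_chg {i : A.ι} {x : M} (hx : x ∈ (A.e i).source) {y : X}
    (hy : K.g x ∈ (chartAt (Cn n) y).source) :
    HasFDerivAt (fun z => chartAt (Cn n) y (K.g ((A.e i).symm z)))
      ((fderiv ℂ (fun v => chartAt (Cn n) y ((K.c i).symm v)) (K.c i (K.g x))).comp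
        ((K.ρ : ℂ) • ContinuousLinearMap.id ℂ (Cn n))) (A.e i x) := by
  have h1 : (fun z => chartAt (Cn n) y (K.g ((A.e i).symm z))) =ᶠ[𝓝 (A.e i x)]
      fun z => (fun v => chartAt (Cn n) y ((K.c i).symm v)) (K.ps i z) := by
    filter_upwards [(A.e i).open_target.mem_nhds ((A.e i).map_source hx)] with z hz
    rw [K.g_symm hz]
  have h2 : HasFDerivAt (fun v => chartAt (Cn n) y ((K.c i).symm v))
      (fderiv ℂ (fun v => chartAt (Cn n) y ((K.c i).symm v)) (K.c i (K.g x)))
      (K.ps i (A.e i x)) := by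
    rw [K.ps_e hx]
    exact (diffAt_trans (K.src i x hx) hy).hasFDerivAt
  exact (h2.comp (A.e i x) (K.hasFDerivAt_ps i (A.e i x))).congr_of_eventuallyEq h1

theorem tD_eq {i : A.ι} {x : M} (hx : x ∈ (A.e i).source) :
    K.tD i x = (fderiv ℂ (fun v => chartAt (Cn n) (K.g x) ((K.c i).symm v)) (K.c i (K.g x))).comp
        ((K.ρ : ℂ) • ContinuousLinearMap.id ℂ (Cn n)) :=
  (K.hasFDerivAt_chg hx (mem_chart_source (Cn n) (K.g x))).fderiv

/-- `tD` is `transDeriv` in the preferred chart of the index `i`, scaled -/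
theorem tD_transDeriv {i : A.ι} {x : M} (hx : x ∈ (A.e i).source) (v : Cn n) :
    K.tD i x v = transDeriv (K.y i) (K.c i (K.g x)) ((K.ρ : ℂ) • v) := by
  have h0 : K.c i (K.g x) ∈ (chartAt (Cn n) (K.y i)).target := (K.c i).map_source (K.src i x hx)
  rw [transDeriv_eq (K.y i) h0, K.tD_eq hx]
  have h1 : (chartAt (Cn n) (K.y i)).symm (K.c i (K.g x)) = K.g x :=
    (K.c i).left_inv (K.src i x hx)
  rw [h1]
  rfl

theorem hasFDerivAt_tr {i j : A.ι} {x : M} (hx : x ∈ (A.e i).source ∩ (A.e j).source) :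
    HasFDerivAt (fun z => A.e j ((A.e i).symm z))
      (fderiv ℂ (fun z => A.e j ((A.e i).symm z)) (A.e i x)) (A.e i x) :=
  ((A.holo i j).differentiableAt ((Crest.Agent.R275.Geo.isOpen_ov (A := A) i j).mem_nhds (mem_ov hx))).hasFDerivAt

/-- chain rule -/
theorem tD_tr {i j : A.ι} {x : M} (hx : x ∈ (A.e i).source ∩ (A.e j).source) :
    K.tD i x = (K.tD j x).comp (fderiv ℂ (fun z => A.e j ((A.e i).symm z)) (A.e i x)) := by
  have h1 : (fun z => chartAt (Cn n) (K.g x) (K.g ((A.e i).symm z))) =ᶠ[𝓝 (A.e i x)]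
      fun z => (fun w => chartAt (Cn n) (K.g x) (K.g ((A.e j).symm w)))
        (A.e j ((A.e i).symm z)) := by
    filter_upwards [(Crest.Agent.R275.Geo.isOpen_ov (A := A) i j).mem_nhds (mem_ov hx)] with z hz
    rw [(A.e j).left_inv hz.2]
  have h2 := K.hasFDerivAt_chg hx.2 (mem_chart_source (Cn n) (K.g x))
  rw [← K.tD_eq hx.2] at h2
  have h3 : HasFDerivAt (fun w => chartAt (Cn n) (K.g x) (K.g ((A.e j).symm w))) (K.tD j x)
      (A.e j ((A.e i).symm (A.e i x))) := by rwa [(A.e i).left_inv hx.1]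
  have h4 := h3.comp (A.e i x) (hasFDerivAt_tr hx)
  exact (h4.congr_of_eventuallyEq h1).fderiv

end Lk

end

end Crest.Agent.R281.DicA_273
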