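import Crest.Agent.R281.Dci1_699
import Crest.Agent.R281.DicA_273
import Crest.Agent.R273.Vm_333
import Crest.Agent.R273.StokesV_332

/-!
# R281 (S0424), HK-DIC-INT part 2 (helper699): frozen forms in the charts of `A`

`K : Lk A X` is helper273's link. For a frozen form `β`:

* `rp K β i x`  : `β` at `g x` in the coordinates of the chart `i`;
* `rp_chg`      : `rp K β i x = (chartRep β c w) ∘ D(change of charts)`, `w = chartAt c (g x)`;
* `rp_ps`       : in the chart `i`, `rp` is `chartRep β (y i)` composed with the affine map;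
* `wd K β`      : the density `wedgeTopEval` of `N` two-forms in the charts; `wd_den : Den A`.
-/

set_option autoImplicit false
set_option linter.unusedSectionVars false

open Set Filter Topology MeasureTheory
open scoped ContDiff Manifold

namespace Crest.Agent.R281.Dci2_699

open Crest.CxGeometry (Form chartRep transDeriv chartWindow wedgeTopEval IsSmoothOn)
open Crest.Agent.R275.Geo Crest.Agent.R275.Core144
open Crest.Agent.R275.SerG398 (lint dens)
open Crest.Agent.R273.StokesV_332 (Den intD)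
open Crest.Agent.R281.DicA_273 Crest.Agent.R281.Dci1_699

noncomputable section

universe u

variable {n : ℕ} {X : Type u} [TopologicalSpace X] [ChartedSpace (Cn n) X]
  {M : Type} [TopologicalSpace M] {A : Atl n M} (K : Lk A X)

/-- the frozen form `β` at `g x`, in the coordinates of the chart `i` of `A` -/
def rp {k : ℕ} (β : Form n X k) (i : A.ι) (x : M) : (Cn n) [⋀^Fin k]→L[ℝ] ℂ :=
  (β (K.g x)).compContinuousLinearMap ((K.tD i x).restrictScalars ℝ)

/-- the change of coordinates from the chart `i` of `A` to the preferred chart at `c` -/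
def chg (i : A.ι) (c : X) (z : Cn n) : Cn n := chartAt (Cn n) c (K.g ((A.e i).symm z))

/-- its derivative -/
def dchg (i : A.ι) (c : X) (x : M) : Cn n →L[ℂ] Cn n := fderiv ℂ (chg K i c) (A.e i x)

variable [IsManifold 𝓘(ℂ, Cn n) ω X]

theorem hasFDerivAt_chg {i : A.ι} {x : M} (hx : x ∈ (A.e i).source) {c : X}
    (hc : K.g x ∈ (chartAt (Cn n) c).source) :
    HasFDerivAt (chg K i c) (dchg K i c x) (A.e i x) :=
  (K.hasFDerivAt_chg hx hc).differentiableAt.hasFDerivAt

theorem tD_chg {i : A.ι} {x : M} (hx : x ∈ (A.e i).source) {c : X}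
    (hc : K.g x ∈ (chartAt (Cn n) c).source) :
    (K.tD i x).restrictScalars ℝ = (transDeriv c (chartAt (Cn n) c (K.g x))).comp
      ((dchg K i c x).restrictScalars ℝ) := by
  rw [transDeriv_eq c ((chartAt (Cn n) c).map_source hc), (chartAt (Cn n) c).left_inv hc]
  have h1 : HasFDerivAt (fun v => chartAt (Cn n) (K.g x) ((chartAt (Cn n) c).symm v))
      (fderiv ℂ (fun v => chartAt (Cn n) (K.g x) ((chartAt (Cn n) c).symm v))
        (chartAt (Cn n) c (K.g x))) (chg K i c (A.e i x)) := by
    have : chg K i c (A.e i x) = chartAt (Cn n) c (K.g x) := by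
      unfold chg
      rw [(A.e i).left_inv hx]
    rw [this]
    exact (diffAt_trans hc (mem_chart_source (Cn n) (K.g x))).hasFDerivAt
  have h2 := h1.comp (A.e i x) (hasFDerivAt_chg K hx hc)
  have h3 : (fun z => chartAt (Cn n) (K.g x) (K.g ((A.e i).symm z))) =ᶠ[𝓝 (A.e i x)]
      (fun v => chartAt (Cn n) (K.g x) ((chartAt (Cn n) c).symm v)) ∘ chg K i c := by
    have h4 : ContinuousAt (fun z => K.g ((A.e i).symm z)) (A.e i x) :=
      K.g.continuous.continuousAt.comp ((A.e i).continuousAt_symm ((A.e i).map_source hx))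
    have h5 : K.g ((A.e i).symm (A.e i x)) ∈ (chartAt (Cn n) c).source := by
      rw [(A.e i).left_inv hx]
      exact hc
    filter_upwards [h4.preimage_mem_nhds ((chartAt (Cn n) c).open_source.mem_nhds h5)] with z hz
    show _ = chartAt (Cn n) (K.g x) ((chartAt (Cn n) c).symm (chartAt (Cn n) c _))
    rw [(chartAt (Cn n) c).left_inv hz]
  have h6 : K.tD i x = _ := (h2.congr_of_eventuallyEq h3).fderiv
  rw [h6]
  rfl

theorem rp_chg {k : ℕ} (β : Form n X k) {i : A.ι} {x : M} (hx : x ∈ (A.e i).source) {c : X}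
    (hc : K.g x ∈ (chartAt (Cn n) c).source) :
    rp K β i x = (chartRep β c (chartAt (Cn n) c (K.g x))).compContinuousLinearMap
      ((dchg K i c x).restrictScalars ℝ) := by
  unfold rp chartRep
  rw [tD_chg K hx hc, (chartAt (Cn n) c).left_inv hc]
  rfl

/-- the change of charts to the preferred chart of the index is affine -/
theorem dchg_y {i : A.ι} {x : M} (hx : x ∈ (A.e i).source) :
    dchg K i (K.y i) x = (K.ρ : ℂ) • ContinuousLinearMap.id ℂ (Cn n) := by
  have h1 : chg K i (K.y i) =ᶠ[𝓝 (A.e i x)] K.ps i := by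
    filter_upwards [(A.e i).open_target.mem_nhds ((A.e i).map_source hx)] with z hz
    exact K.c_symm hz
  exact ((K.hasFDerivAt_ps i (A.e i x)).congr_of_eventuallyEq h1).fderiv

theorem rp_ps {k : ℕ} (β : Form n X k) {i : A.ι} {z : Cn n} (hz : z ∈ (A.e i).target) :
    rp K β i ((A.e i).symm z) = (chartRep β (K.y i) (K.ps i z)).compContinuousLinearMap
      (((K.ρ : ℂ) • ContinuousLinearMap.id ℂ (Cn n)).restrictScalars ℝ) := by
  have hx := (A.e i).map_target hz
  rw [rp_chg K β hx (K.src i _ hx), dchg_y K hx]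
  congr 2
  exact K.c_symm hz

/-- transformation law of `rp` -/
theorem rp_tr {k : ℕ} (β : Form n X k) {i j : A.ι} {x : M}
    (hx : x ∈ (A.e i).source ∩ (A.e j).source) :
    rp K β i x = (rp K β j x).compContinuousLinearMap
      ((fderiv ℂ (fun z => A.e j ((A.e i).symm z)) (A.e i x)).restrictScalars ℝ) := by
  unfold rp
  rw [K.tD_tr hx]
  rfl

/-- the density of `β₀ ∧ ⋯ ∧ β_{n-1}` in the charts of `A` -/
def wd (β : Fin n → Form n X 2) (i : A.ι) (x : M) : ℂ := wedgeTopEval fun k => rp K (β k) i x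

theorem wd_chg (β : Fin n → Form n X 2) {i : A.ι} {x : M} (hx : x ∈ (A.e i).source) {c : X}
    (hc : K.g x ∈ (chartAt (Cn n) c).source) :
    wd K β i x = ((‖LinearMap.det (dchg K i c x : Cn n →ₗ[ℂ] Cn n)‖ ^ 2 : ℝ) : ℂ) *
      wedgeTopEval fun k => chartRep (β k) c (chartAt (Cn n) c (K.g x)) := by
  unfold wd
  rw [← wet_compC]
  congr 1
  funext k
  exact rp_chg K (β k) hx hc

theorem det_J (i j : A.ι) (x : M) :
    (Matrix.of (A.J i j x)).det =
      LinearMap.det (fderiv ℂ (fun z => A.e j ((A.e i).symm z)) (A.e i x) : Cn n →ₗ[ℂ] Cn n) := by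
  rw [← LinearMap.det_toMatrix (EuclideanSpace.basisFun (Fin n) ℂ).toBasis]
  congr 1

theorem wd_tr (β : Fin n → Form n X 2) {i j : A.ι} {x : M}
    (hx : x ∈ (A.e i).source ∩ (A.e j).source) :
    wd K β i x = dens A i j x * wd K β j x := by
  unfold wd dens
  rw [det_J, ← wet_compC]
  congr 1
  funext k
  exact rp_tr K (β k) hx

/-! ### smoothness -/

theorem contDiffOn_wet {E : Type*} [NormedAddCommGroup E] [NormedSpace ℝ E] {s : Set E}
    {r : WithTop ℕ∞} {b : Fin n → E → (Cn n) [⋀^Fin 2]→L[ℝ] ℂ}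
    (hb : ∀ k, ContDiffOn ℝ r (b k) s) : ContDiffOn ℝ r (fun z => wedgeTopEval fun k => b k z) s := by
  unfold wedgeTopEval
  refine contDiffOn_const.mul (ContDiffOn.sum fun π _ => contDiffOn_const.mul ?_)
  refine contDiffOn_prod fun k _ => ?_
  have h : (fun z => b k z ![Crest.CxGeometry.stdRealBasis n (π (k, 0)),
      Crest.CxGeometry.stdRealBasis n (π (k, 1))]) = fun z =>
        (ContinuousAlternatingMap.apply ℝ (Cn n) ℂ ![Crest.CxGeometry.stdRealBasis n (π (k, 0)),
      Crest.CxGeometry.stdRealBasis n (π (k, 1))]) (b k z) := rfl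
  rw [h]
  exact (ContinuousLinearMap.contDiff _).comp_contDiffOn (hb k)

theorem window_univ (c : X) : chartWindow c (univ : Set X) = (chartAt (Cn n) c).target := by
  unfold Crest.CxGeometry.chartWindow
  simp

theorem contDiffOn_rep {k : ℕ} {β : Form n X k} (hβ : IsSmoothOn β univ) (c : X) :
    ContDiffOn ℝ ∞ (chartRep β c) (chartAt (Cn n) c).target := by
  have := hβ c
  rwa [window_univ] at this

theorem wd_ps (β : Fin n → Form n X 2) {i : A.ι} {z : Cn n} (hz : z ∈ (A.e i).target) :
    wd K β i ((A.e i).symm z) =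
      ((‖LinearMap.det (((K.ρ : ℂ) • ContinuousLinearMap.id ℂ (Cn n) : Cn n →L[ℂ] Cn n) :
        Cn n →ₗ[ℂ] Cn n)‖ ^ 2 : ℝ) : ℂ) *
      wedgeTopEval fun k => chartRep (β k) (K.y i) (K.ps i z) := by
  unfold wd
  rw [← wet_compC]
  congr 1
  funext k
  exact rp_ps K (β k) hz

theorem wd_sm {β : Fin n → Form n X 2} (hβ : ∀ k, IsSmoothOn (β k) univ) (i : A.ι) :
    A.SmAt i (wd K β i) := by
  refine ContDiffOn.congr ?_ fun z hz => wd_ps K β hz
  refine contDiffOn_const.mul ?_
  refine (contDiffOn_wet fun k => contDiffOn_rep (hβ k) (K.y i)).comp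
    (K.contDiff_ps i).contDiffOn fun z hz => ?_
  exact K.ps_mem hz

theorem wd_den {β : Fin n → Form n X 2} (hβ : ∀ k, IsSmoothOn (β k) univ) : Den A (wd K β) where
  sm i := wd_sm K hβ i
  tr _ _ _ hx := wd_tr K β hx

end

end Crest.Agent.R281.Dci2_699
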