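import Crest.Agent.R281.Dci2_699

/-!
# R281 (S0424), HK-DIC-INT part 3 (helper699): `integralTop = intD`

* `int_chg`        : change of variables between a preferred chart of `X` and a chart of `A`;
* `lint_eq`        : `lint A i F = ∫_{target} F`;
* `integralTop_eq` : for EVERY frozen chart partition `P` and every `Q : Part A`,
  `integralTop P β = intD Q (wd K β)`.
-/

set_option autoImplicit false
set_option linter.unusedSectionVars false

open Set Filter Topology MeasureTheory
open scoped ContDiff Manifold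

namespace Crest.Agent.R281.Dci3_699

open Crest.CxGeometry (Form chartRep transDeriv chartWindow wedgeTopEval IsSmoothOn
  ChartPartition integralTop)
open Crest.Agent.R275.Geo Crest.Agent.R275.Core144
open Crest.Agent.R275.SerG398 (lint dens)
open Crest.Agent.R273.StokesV_332 (Den intD intD_fintype)
open Crest.Agent.R281.DicA_273 Crest.Agent.R281.Dci1_699 Crest.Agent.R281.Dci2_699

noncomputable section

universe u

variable {n : ℕ} {X : Type u} [TopologicalSpace X] [ChartedSpace (Cn n) X]
  {M : Type} [TopologicalSpace M] {A : Atl n M} (K : Lk A X)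

/-- the overlap in the coordinates of the chart `i` -/
def Sd (i : A.ι) (c : X) : Set (Cn n) :=
  {z | z ∈ (A.e i).target ∧ K.g ((A.e i).symm z) ∈ (chartAt (Cn n) c).source}

theorem isOpen_Sd (i : A.ι) (c : X) : IsOpen (Sd K i c) := by
  have h1 : ContinuousOn (fun z => K.g ((A.e i).symm z)) (A.e i).target :=
    K.g.continuous.comp_continuousOn (A.e i).continuousOn_symm
  exact h1.isOpen_inter_preimage (A.e i).open_target (chartAt (Cn n) c).open_source

theorem injOn_chg (i : A.ι) (c : X) : InjOn (chg K i c) (Sd K i c) := by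
  intro z hz w hw h
  unfold chg at h
  have h1 := (chartAt (Cn n) c).injOn hz.2 hw.2 h
  have h2 := K.g.injective h1
  exact (A.e i).symm.injOn (by simpa using hz.1) (by simpa using hw.1) h2

theorem image_Sd (i : A.ι) (c : X) : chg K i c '' Sd K i c =
    {w | w ∈ (chartAt (Cn n) c).target ∧ K.g.symm ((chartAt (Cn n) c).symm w) ∈ (A.e i).source} := by
  ext w
  constructor
  · rintro ⟨z, hz, rfl⟩
    refine ⟨(chartAt (Cn n) c).map_source hz.2, ?_⟩
    unfold chg
    rw [(chartAt (Cn n) c).left_inv hz.2, K.g.symm_apply_apply]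
    exact (A.e i).map_target hz.1
  · rintro ⟨h1, h2⟩
    refine ⟨A.e i (K.g.symm ((chartAt (Cn n) c).symm w)), ⟨(A.e i).map_source h2, ?_⟩, ?_⟩
    · rw [(A.e i).left_inv h2, K.g.apply_symm_apply]
      exact (chartAt (Cn n) c).map_target h1
    · unfold chg
      rw [(A.e i).left_inv h2, K.g.apply_symm_apply, (chartAt (Cn n) c).right_inv h1]

variable [IsManifold 𝓘(ℂ, Cn n) ω X]

theorem int_chg (β : Fin n → Form n X 2) {i : A.ι} {c : X} {a : M → ℂ}
    (h0 : ∀ x, x ∉ (A.e i).source → a x = 0)
    (h1 : ∀ x, K.g x ∉ (chartAt (Cn n) c).source → a x = 0) :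
    ∫ w in (chartAt (Cn n) c).target, a (K.g.symm ((chartAt (Cn n) c).symm w)) *
        wedgeTopEval (fun k => chartRep (β k) c w) =
      ∫ z in (A.e i).target, a ((A.e i).symm z) * wd K β i ((A.e i).symm z) := by
  have e1 : ∫ w in (chartAt (Cn n) c).target, a (K.g.symm ((chartAt (Cn n) c).symm w)) *
        wedgeTopEval (fun k => chartRep (β k) c w) =
      ∫ w in chg K i c '' Sd K i c, a (K.g.symm ((chartAt (Cn n) c).symm w)) *
        wedgeTopEval (fun k => chartRep (β k) c w) := by
    refine setIntegral_eq_of_subset_of_forall_sdiff_eq_zero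
      (chartAt (Cn n) c).open_target.measurableSet ?_ ?_
    · rw [image_Sd]
      exact fun w hw => hw.1
    · rintro w ⟨hw, hw'⟩
      rw [image_Sd] at hw'
      rw [h0 _ fun h => hw' ⟨hw, h⟩, zero_mul]
  have e2 : ∫ z in (A.e i).target, a ((A.e i).symm z) * wd K β i ((A.e i).symm z) =
      ∫ z in Sd K i c, a ((A.e i).symm z) * wd K β i ((A.e i).symm z) := by
    refine setIntegral_eq_of_subset_of_forall_sdiff_eq_zero (A.e i).open_target.measurableSet
      (fun z hz => hz.1) ?_
    rintro z ⟨hz, hz'⟩
    rw [h1 _ fun h => hz' ⟨hz, h⟩, zero_mul]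
  rw [e1, e2]
  have hd : ∀ z ∈ Sd K i c, HasFDerivWithinAt (chg K i c)
      ((dchg K i c ((A.e i).symm z)).restrictScalars ℝ) (Sd K i c) z := by
    intro z hz
    have h2 := hasFDerivAt_chg K ((A.e i).map_target hz.1) hz.2
    rw [(A.e i).right_inv hz.1] at h2
    exact (h2.restrictScalars ℝ).hasFDerivWithinAt
  rw [integral_image_eq_integral_abs_det_fderiv_smul volume (isOpen_Sd K i c).measurableSet hd
    (injOn_chg K i c)]
  refine setIntegral_congr_fun (isOpen_Sd K i c).measurableSet fun z hz => ?_
  have hx := (A.e i).map_target hz.1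
  have h3 : (chartAt (Cn n) c).symm (chg K i c z) = K.g ((A.e i).symm z) :=
    (chartAt (Cn n) c).left_inv hz.2
  have h4 : ContinuousLinearMap.det ((dchg K i c ((A.e i).symm z)).restrictScalars ℝ) =
      ‖LinearMap.det (dchg K i c ((A.e i).symm z) : Cn n →ₗ[ℂ] Cn n)‖ ^ 2 := det_restrict _
  show |ContinuousLinearMap.det ((dchg K i c ((A.e i).symm z)).restrictScalars ℝ)| •
    (a (K.g.symm ((chartAt (Cn n) c).symm (chg K i c z))) *
        wedgeTopEval (fun k => chartRep (β k) c (chg K i c z))) =
    a ((A.e i).symm z) * wd K β i ((A.e i).symm z)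
  rw [h3, K.g.symm_apply_apply, h4, abs_of_nonneg (by positivity), wd_chg K β hx hz.2,
    Complex.real_smul]
  unfold chg
  ring

/-! ### `lint` -/

theorem lint_eq (i : A.ι) (F : M → ℂ) :
    lint A i F = ∫ z in (A.e i).target, F ((A.e i).symm z) := by
  classical
  rw [← integral_indicator (A.e i).open_target.measurableSet]
  show ∫ x : RI n → ℝ, rd A i F x = _
  rw [← integral_rc]
  congr 1
  funext z
  have h : cc (rcE z) = z := cc_rc z
  unfold rd
  rw [h, Set.indicator_apply]

/-! ### integrability -/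

theorem intOn {Y : Type*} [TopologicalSpace Y] (E : OpenPartialHomeomorph Y (Cn n)) {T : Set Y}
    (hT : IsCompact T) (hs : T ⊆ E.source) {F : Cn n → ℂ} (hF : ContinuousOn F E.target)
    (h0 : ∀ w ∈ E.target, E.symm w ∉ T → F w = 0) : IntegrableOn F E.target := by
  have h1 : IsCompact (E '' T) := hT.image_of_continuousOn (E.continuousOn.mono hs)
  have h2 : E '' T ⊆ E.target := by
    rintro _ ⟨y, hy, rfl⟩
    exact E.map_source (hs hy)
  have h3 : IntegrableOn F (E '' T) := (hF.mono h2).integrableOn_compact h1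
  refine h3.of_forall_sdiff_eq_zero E.open_target.measurableSet ?_
  rintro w ⟨hw, hw'⟩
  refine h0 w hw fun h => hw' ⟨E.symm w, h, E.right_inv hw⟩

theorem cont_of_sm {f : M → ℝ} (h : A.Sm f) : Continuous f := by
  rw [continuous_iff_continuousAt]
  intro x
  obtain ⟨i, hi⟩ := A.cover x
  have h1 : ContinuousAt (fun z => f ((A.e i).symm z)) (A.e i x) :=
    (h i).continuousOn.continuousAt ((A.e i).open_target.mem_nhds ((A.e i).map_source hi))
  have h2 := h1.comp ((A.e i).continuousAt hi)
  refine h2.congr ?_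
  filter_upwards [(A.e i).open_source.mem_nhds hi] with y hy
  show f ((A.e i).symm (A.e i y)) = f y
  rw [(A.e i).left_inv hy]

/-! ### the main statement -/

theorem continuousOn_rep {β : Fin n → Form n X 2} (hβ : ∀ k, IsSmoothOn (β k) univ) (c : X) :
    ContinuousOn (fun w => wedgeTopEval (fun k => chartRep (β k) c w)) (chartAt (Cn n) c).target :=
  (contDiffOn_wet fun k => contDiffOn_rep (hβ k) c).continuousOn

theorem integralTop_eq [T2Space M] [CompactSpace M] [Finite A.ι] {β : Fin n → Form n X 2}
    (hβ : ∀ k, IsSmoothOn (β k) univ) (P : ChartPartition n X) (Q : Part A) :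
    integralTop P β = intD Q (wd K β) := by
  classical
  cases nonempty_fintype A.ι
  have : CompactSpace X := K.g.compactSpace
  have : T2Space X := K.g.t2Space
  -- the finite set of indices
  have hfin : {c : X | (Function.support (P.ρ c)).Nonempty}.Finite :=
    P.ρ.locallyFinite.finite_nonempty_of_compact
  set F : Finset X := hfin.toFinset with hF
  have hF0 : ∀ c, c ∉ F → ∀ y, P.ρ c y = 0 := by
    intro c hc y
    by_contra h
    exact hc (by rw [hF, Set.Finite.mem_toFinset]; exact ⟨y, h⟩)
  have hsumc : ∀ y, ∑ c ∈ F, P.ρ c y = 1 := by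
    intro y
    rw [← P.ρ.sum_eq_one (mem_univ y)]
    symm
    refine finsum_eq_sum_of_support_subset _ fun c hc => ?_
    by_contra h
    exact hc (hF0 c h y)
  have hsumi : ∀ x, ∑ i, Q.ψ i x = 1 := fun x => by
    rw [← Q.sum_one x, finsum_eq_sum_of_fintype]
  -- continuity
  have hψc : ∀ i, Continuous (Q.ψ i) := fun i =>
    cont_of_sm (Q.ψ_sm i)
  have hρc : ∀ c, Continuous fun y => ((P.ρ c y : ℝ) : ℂ) := fun c =>
    Complex.continuous_ofReal.comp (P.ρ c).continuous
  have hψ0 : ∀ i x, x ∉ (A.e i).source → Q.ψ i x = 0 := fun i x hx =>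
    Crest.Agent.R273.StokesV_332.psi_zero_off Q i fun h => hx (Q.χ_sub i h)
  have hρ0 : ∀ c y, y ∉ (chartAt (Cn n) c).source → P.ρ c y = 0 := fun c y hy =>
    image_eq_zero_of_notMem_tsupport fun h => hy (P.subordinate c h)
  -- one chart
  have step : ∀ c, ∫ w in (chartAt (Cn n) c).target,
      ((P.ρ c ((chartAt (Cn n) c).symm w) : ℝ) : ℂ) *
        wedgeTopEval (fun k => chartRep (β k) c w) =
      ∑ i, ∫ z in (A.e i).target, (((P.ρ c (K.g ((A.e i).symm z)) : ℝ) : ℂ) *
        ((Q.ψ i ((A.e i).symm z) : ℝ) : ℂ)) * wd K β i ((A.e i).symm z) := by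
    intro c
    have h1 : ∀ i, ∫ z in (A.e i).target, (((P.ρ c (K.g ((A.e i).symm z)) : ℝ) : ℂ) *
        ((Q.ψ i ((A.e i).symm z) : ℝ) : ℂ)) * wd K β i ((A.e i).symm z) =
        ∫ w in (chartAt (Cn n) c).target,
          (((P.ρ c ((chartAt (Cn n) c).symm w) : ℝ) : ℂ) *
            ((Q.ψ i (K.g.symm ((chartAt (Cn n) c).symm w)) : ℝ) : ℂ)) *
          wedgeTopEval (fun k => chartRep (β k) c w) := by
      intro i
      have h2 := int_chg K β (i := i) (c := c)
        (a := fun x => ((P.ρ c (K.g x) : ℝ) : ℂ) * ((Q.ψ i x : ℝ) : ℂ))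
        (fun x hx => by simp only [hψ0 i x hx, Complex.ofReal_zero, mul_zero])
        (fun x hx => by simp only [hρ0 c _ hx, Complex.ofReal_zero, zero_mul])
      rw [← h2]
      refine setIntegral_congr_fun (chartAt (Cn n) c).open_target.measurableSet fun w _ => ?_
      simp only [K.g.apply_symm_apply]
    rw [Finset.sum_congr rfl fun i _ => h1 i, ← integral_finsetSum]
    · refine setIntegral_congr_fun (chartAt (Cn n) c).open_target.measurableSet fun w _ => ?_
      rw [← Finset.sum_mul, ← Finset.mul_sum, ← Complex.ofReal_sum, hsumi, Complex.ofReal_one,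
        mul_one]
    · intro i _
      refine intOn (chartAt (Cn n) c) (T := tsupport (P.ρ c)) (isClosed_tsupport _).isCompact
        (P.subordinate c) ?_ ?_
      · refine ContinuousOn.mul (ContinuousOn.mul ?_ ?_) (continuousOn_rep hβ c)
        · exact (hρc c).comp_continuousOn (chartAt (Cn n) c).continuousOn_symm
        · exact (Complex.continuous_ofReal.comp ((hψc i).comp
            K.g.symm.continuous)).comp_continuousOn (chartAt (Cn n) c).continuousOn_symm
      · intro w _ hw
        rw [image_eq_zero_of_notMem_tsupport hw, Complex.ofReal_zero, zero_mul, zero_mul]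
  -- the sum over `c`
  have e1 : integralTop P β = ∑ c ∈ F, ∫ w in (chartAt (Cn n) c).target,
      ((P.ρ c ((chartAt (Cn n) c).symm w) : ℝ) : ℂ) *
        wedgeTopEval (fun k => chartRep (β k) c w) := by
    refine finsum_eq_sum_of_support_subset _ fun c hc => ?_
    by_contra h
    refine hc ?_
    simp only [hF0 c h, Complex.ofReal_zero, zero_mul, integral_zero]
  rw [e1, Finset.sum_congr rfl fun c _ => step c, Finset.sum_comm, intD_fintype]
  refine Finset.sum_congr rfl fun i _ => ?_
  rw [lint_eq, ← integral_finsetSum]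
  · refine setIntegral_congr_fun (A.e i).open_target.measurableSet fun z _ => ?_
    rw [← Finset.sum_mul, ← Finset.sum_mul, ← Complex.ofReal_sum, hsumc, Complex.ofReal_one,
      one_mul]
  · intro c _
    refine intOn (A.e i) (T := tsupport (Q.χ i)) (Q.χ_cpt i) (Q.χ_sub i) ?_ ?_
    · refine ContinuousOn.mul (ContinuousOn.mul ?_ ?_) (wd_sm K hβ i).continuousOn
      · exact ((hρc c).comp K.g.continuous).comp_continuousOn (A.e i).continuousOn_symm
      · exact (Complex.continuous_ofReal.comp (hψc i)).comp_continuousOn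
          (A.e i).continuousOn_symm
    · intro z _ hz
      rw [Crest.Agent.R273.StokesV_332.psi_zero_off Q i hz, Complex.ofReal_zero, mul_zero,
        zero_mul]

end

end Crest.Agent.R281.Dci3_699
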