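import Crest.Agent.R281.Dci3_699
import Crest.Agent.R266.Osgood

/-!
# R281 (S0424), HK-DIC-INT part 4 (helper699): `bbfQuadratic` through `intD`

* `hol_smooth`, `conj_smooth`, `fl_smooth` : the factor lists are smooth;
* `exists_cp`   : a frozen chart partition exists on a compact Hausdorff manifold;
* `bbf_eq`      : `bbfQuadratic P σ α` in terms of `intD Q`.
-/

set_option autoImplicit false
set_option linter.unusedSectionVars false

open Set Filter Topology MeasureTheory
open scoped ContDiff Manifold

namespace Crest.Agent.R281.Dci4_699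

open Crest.CxGeometry (Form chartRep transDeriv chartWindow wedgeTopEval IsSmoothOn
  ChartPartition integralTop IsHolomorphicOn conjForm factorList bbfQuadratic)
open Crest.Agent.R275.Geo Crest.Agent.R275.Core144
open Crest.Agent.R273.StokesV_332 (Den intD intD_fintype)
open Crest.Agent.R281.DicA_273 Crest.Agent.R281.Dci1_699 Crest.Agent.R281.Dci2_699
open Crest.Agent.R281.Dci3_699

noncomputable section

universe u

variable {n : ℕ} {X : Type u} [TopologicalSpace X] [ChartedSpace (Cn n) X]
  [IsManifold 𝓘(ℂ, Cn n) ω X]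

theorem hol_smooth {k : ℕ} {σ : Form n X k} (h : IsHolomorphicOn σ univ) : IsSmoothOn σ univ := by
  intro c
  have h1 : DifferentiableOn ℂ (chartRep σ c) (chartAt (Cn n) c).target := by
    have := h.2 c
    rwa [window_univ] at this
  rw [window_univ]
  have h2 := R266.SCV.contDiffOn_omega_of_differentiableOn (chartAt (Cn n) c).open_target h1
  exact (h2.restrict_scalars ℝ).of_le le_top

/-- conjugation of alternating forms as a continuous linear map -/
theorem conj_rep {k : ℕ} (σ : Form n X k) (c : X) (w : Cn n) :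
    chartRep (conjForm σ) c w =
      (Complex.conjCLE : ℂ ≃L[ℝ] ℂ).toContinuousLinearMap.compContinuousAlternatingMap
        (chartRep σ c w) := by
  ext v
  rfl

theorem conj_smooth {k : ℕ} {σ : Form n X k} (h : IsSmoothOn σ univ) :
    IsSmoothOn (conjForm σ) univ := by
  intro c
  have h1 := h c
  have h2 : chartRep (conjForm σ) c = fun w =>
      (ContinuousLinearMap.compContinuousAlternatingMapCLM ℝ (Cn n) ℂ ℂ (Fin k)
        (Complex.conjCLE : ℂ ≃L[ℝ] ℂ).toContinuousLinearMap) (chartRep σ c w) := by
    funext w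
    exact conj_rep σ c w
  rw [h2]
  exact (ContinuousLinearMap.contDiff _).comp_contDiffOn h1

theorem fl_smooth {a b : ℕ} {σ τ α : Form n X 2} (hσ : IsSmoothOn σ univ) (hτ : IsSmoothOn τ univ)
    (hα : IsSmoothOn α univ) (k : Fin n) : IsSmoothOn (factorList a b σ τ α k) univ := by
  unfold factorList
  split_ifs
  · exact hσ
  · exact hτ
  · exact hα

theorem exists_cp [CompactSpace X] [T2Space X] : Nonempty (ChartPartition n X) := by
  obtain ⟨f, hf⟩ := PartitionOfUnity.exists_isSubordinate (s := (univ : Set X)) isClosed_univ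
    (fun c : X => (chartAt (Cn n) c).source) (fun c => (chartAt (Cn n) c).open_source)
    (fun x _ => mem_iUnion.2 ⟨x, mem_chart_source (Cn n) x⟩)
  exact ⟨⟨f, hf⟩⟩

variable {M : Type} [TopologicalSpace M] [T2Space M] [CompactSpace M] {A : Atl n M} [Finite A.ι]
  (K : Lk A X)

theorem bbf_eq {σ α : Form n X 2} (hσ : IsSmoothOn σ univ) (hα : IsSmoothOn α univ)
    (P : ChartPartition n X) (Q : Part A) :
    bbfQuadratic P σ α = ((n / 2 : ℕ) : ℂ) / 2 *
        intD Q (wd K (factorList (n / 2) (n / 2) σ (conjForm σ) α)) *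
        intD Q (wd K (factorList (n / 2 - 1) (n / 2 - 1) σ (conjForm σ) α)) +
      (1 - ((n / 2 : ℕ) : ℂ)) *
        intD Q (wd K (factorList (n / 2 - 1) (n / 2) σ (conjForm σ) α)) *
        intD Q (wd K (factorList (n / 2) (n / 2 - 1) σ (conjForm σ) α)) := by
  unfold bbfQuadratic
  rw [integralTop_eq K (fl_smooth hσ (conj_smooth hσ) hα) P Q,
    integralTop_eq K (fl_smooth hσ (conj_smooth hσ) hα) P Q,
    integralTop_eq K (fl_smooth hσ (conj_smooth hσ) hα) P Q,
    integralTop_eq K (fl_smooth hσ (conj_smooth hσ) hα) P Q]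

/-- the chart form of the conjugate -/
theorem rp_conj {k : ℕ} (σ : Form n X k) (i : A.ι) (x : M) :
    rp K (conjForm σ) i x =
      (Complex.conjCLE : ℂ ≃L[ℝ] ℂ).toContinuousLinearMap.compContinuousAlternatingMap
        (rp K σ i x) := by
  ext v
  rfl

end

end Crest.Agent.R281.Dci4_699
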