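import Crest.Agent.R281.Nef1_252
import Crest.Agent.R281.HkR9_835
import Crest.Agent.R273.Vol_333

/-!
# Row 281, NEF-OPEN, part 3 (helper252): dictionary with the atlas language

`A : Atl d X`, `jA A` = multiplication by `i` on the real charts `ofAtl A`.

* `pos_f2`     : `Pos (jA A) K.f2 ↔` all matrices positive definite (`K : K11 A`)
* `KCls_jA`    : `KCls (jA A) w ↔ ∃ K : Kah A, Ex ((ofKah K).f2 - w)`
* `ddc_hess`   : `dd^c u` is the form of `4 ∂∂̄ u`
* `curK h`     : the curvature form of a metric; `ex_cur`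
* `nefW_iff`   : `NefW K L ↔ NefC (jA A) (ofKah K).f2 (curK h).f2` (`dd^c`-lemma for `jA A`)
-/

set_option autoImplicit false
set_option maxSynthPendingDepth 3
set_option linter.unusedSectionVars false

open Set Filter Topology Complex
open scoped ContDiff Matrix ComplexConjugate ComplexOrder InnerProductSpace

namespace Crest.Agent.R281.Nef_252

open Crest.Agent.R275.Geo Crest.Agent.R275.Core144 Crest.Agent.R275.EDR890
open Crest.Agent.R275.GC293
open Crest.Agent.R273.Kah_333 Crest.Agent.R273.Hess_333 Crest.Agent.R273.HessB_333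
open Crest.Agent.R273.Defs_333 Crest.Agent.R273.HM_333 Crest.Agent.R273.Vol_333
open Crest.Agent.R281.Defs_273
open Crest.Agent.R260.ACM_580 Crest.Agent.R281.HkR_835 Crest.Agent.R281.Ti_846
open Crest.Agent.R281.NefO_476

noncomputable section

variable {d : ℕ} {X : Type} [TopologicalSpace X] {A : Atl d X}

/-- multiplication by `i` in the charts of a holomorphic atlas -/
def jA (A : Atl d X) : AJ (ofAtl A) where
  J _ _ := iL
  sm _ := contDiffOn_const
  tr _ _ _ hz v := ofAtl_dt_I hz v

@[simp] theorem jA_J (i : A.ι) (z v : Cn d) : (jA A).J i z v = I • v := rfl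

theorem II_smul (v : Cn d) : I • I • v = -v := by rw [smul_smul, I_mul_I, neg_one_smul]

theorem cx_jA : Cx (jA A) where
  sq _ _ _ v := II_smul v
  int _ z _ v w := by
    show Nij (fun _ => iL) z v w = 0
    unfold Nij
    simp

/-! ### Hermitian matrices -/

theorem hb_add (G H : Matrix (Fin d) (Fin d) ℂ) (u v : Cn d) :
    hb (G + H) u v = hb G u v + hb H u v := (hbL u v).map_add G H

theorem hb_smul (c : ℂ) (G : Matrix (Fin d) (Fin d) ℂ) (u v : Cn d) :
    hb (c • G) u v = c * hb G u v := (hbL u v).map_smul c G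

theorem hb_self_re {G : Matrix (Fin d) (Fin d) ℂ} (hG : G.IsHermitian) (v : Cn d) :
    (((hb G v v).re : ℝ) : ℂ) = hb G v v := by
  have h := hb_conj hG v v
  exact Complex.conj_eq_iff_re.1 h

theorem posDef_of_hb {G : Matrix (Fin d) (Fin d) ℂ} (hG : G.IsHermitian)
    (h : ∀ v : Cn d, v ≠ 0 → 0 < (hb G v v).re) : G.PosDef := by
  refine Matrix.PosDef.of_dotProduct_mulVec_pos hG fun y hy => ?_
  set v : Cn d := WithLp.toLp 2 (fun b => conj (y b)) with hv
  have h1 : star y ⬝ᵥ (G *ᵥ y) = hb G v v := by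
    rw [hb_self]
    congr 2
    · funext b
      simp [hv]
    · funext b
      simp [hv]
  have hv0 : v ≠ 0 := by
    intro h0
    apply hy
    funext b
    have : v b = 0 := by rw [h0]; rfl
    simpa [hv] using this
  rw [h1, ← hb_self_re hG]
  exact_mod_cast h v hv0

theorem hb_pos {G : Matrix (Fin d) (Fin d) ℂ} (hG : G.PosDef) {v : Cn d} (hv : v ≠ 0) :
    0 < (hb G v v).re := by
  rw [hb_self]
  exact (Complex.lt_def.1 (hG.dotProduct_mulVec_pos (conj_ne hv))).1

theorem hb_nonneg {G : Matrix (Fin d) (Fin d) ℂ} (hG : G.PosSemidef) (v : Cn d) :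
    0 ≤ (hb G v v).re := by
  rw [hb_self]
  exact (Complex.le_def.1 (hG.dotProduct_mulVec_nonneg _)).1

/-! ### (1,1)-forms and matrices -/

theorem T11_f2 (K : K11 A) : T11 (jA A) K.f2 := fun _ _ hz u v => K.f2_inv hz u v

/-- `w (v, i v)` of the form of a matrix -/
theorem re_I_hb (G : Matrix (Fin d) (Fin d) ℂ) (v : Cn d) :
    (I * hb G v (I • v)).re = (hb G v v).re := by
  rw [hb_I_right]
  have : I * (-I * hb G v v) = hb G v v := by linear_combination (-hb G v v) * I_mul_I
  rw [this]

theorem f2_self (K : K11 A) {i : A.ι} {z : Cn d} (hz : z ∈ (A.e i).target) (v : Cn d) :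
    K.f2.w i z v (I • v) = (hb (K.g i ((A.e i).symm z)) v v).re := by
  rw [K.f2_w hz, re_I_hb]

theorem pos_f2 (K : K11 A) :
    Pos (jA A) K.f2 ↔ ∀ i, ∀ x ∈ (A.e i).source, (K.g i x).PosDef := by
  constructor
  · intro h i x hx
    refine posDef_of_hb (K.herm i x hx) fun v hv => ?_
    have h1 := h i _ ((A.e i).map_source hx) v hv
    rw [jA_J, f2_self K ((A.e i).map_source hx), (A.e i).left_inv hx] at h1
    exact h1
  · intro h i z hz v hv
    have h1 := f2_self K hz v
    show 0 < K.f2.w i z v (I • v)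
    rw [h1]
    exact hb_pos (h i _ ((A.e i).map_target hz)) hv

theorem T11_kah (K : Kah A) : T11 (jA A) (ofKah K).f2 := T11_f2 _

theorem Pos_kah (K : Kah A) : Pos (jA A) (ofKah K).f2 := (pos_f2 _).2 K.pos

/-- exactness only depends on the values on the targets -/
theorem ex_congr {V : Type} [NormedAddCommGroup V] [NormedSpace ℝ V] {C : RCh V X} {w w' : F2 C}
    (h : ∀ i, ∀ z ∈ (C.e i).target, ∀ u v, w.w i z u v = w'.w i z u v) (he : Ex w) : Ex w' := by
  obtain ⟨η, hη⟩ := he
  exact ⟨η, fun i z hz u v => by rw [← h i z hz, hη i z hz]⟩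

/-- a Kaehler class in the atlas language -/
theorem KCls_jA (w : F2 (ofAtl A)) :
    KCls (jA A) w ↔ ∃ K : Kah A, Ex ((ofKah K).f2 - w) := by
  constructor
  · rintro ⟨w', h1, h2, h3⟩
    set K1 : K11 A := w'.k11 h2 with hK1
    have hval : ∀ i, ∀ z ∈ (A.e i).target, K1.f2.w i z = w'.w i z := fun i z hz =>
      F2.k11_f2 w' h2 hz
    have hp : Pos (jA A) K1.f2 := fun i z hz v hv => by
      rw [hval i z hz]; exact h3 i z hz v hv
    refine ⟨K1.kah ((pos_f2 K1).1 hp), ex_congr (w := w' - w) (fun i z hz u v => ?_) h1⟩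
    show (w' - w).w i z u v = (K1.f2 - w).w i z u v
    rw [F2.sub_w, F2.sub_w, hval i z hz]
  · rintro ⟨K, hK⟩
    exact ⟨_, hK, T11_kah K, Pos_kah K⟩

/-! ### `dd^c` and the complex Hessian -/

/-- an alternating `i`-invariant form is determined by `w (v, i v)` -/
theorem bil_ext {B B' : Cn d → Cn d → ℝ} (hl : ∀ u u' v, B (u + u') v = B u v + B u' v)
    (hr : ∀ u v v', B u (v + v') = B u v + B u v')
    (hl' : ∀ u u' v, B' (u + u') v = B' u v + B' u' v)
    (hr' : ∀ u v v', B' u (v + v') = B' u v + B' u v')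
    (ha : ∀ u v, B u v = -B v u) (ha' : ∀ u v, B' u v = -B' v u)
    (hi : ∀ u v, B (I • u) (I • v) = B u v) (hi' : ∀ u v, B' (I • u) (I • v) = B' u v)
    (h : ∀ v, B v (I • v) = B' v (I • v)) (u v : Cn d) : B u v = B' u v := by
  have n1 : ∀ (F : Cn d → Cn d → ℝ), (∀ u v v', F u (v + v') = F u v + F u v') →
      ∀ u v, F u (-v) = -F u v := by
    intro F hF u v
    have h0 : F u 0 = 0 := by
      have := hF u 0 0
      rw [add_zero] at this
      linarith
    have := hF u v (-v)
    rw [add_neg_cancel, h0] at this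
    linarith
  have s1 : ∀ u v, B u (I • v) = B v (I • u) := by
    intro u v
    rw [← hi u (I • v), II_smul, n1 B hr, ha (I • u) v, neg_neg]
  have s1' : ∀ u v, B' u (I • v) = B' v (I • u) := by
    intro u v
    rw [← hi' u (I • v), II_smul, n1 B' hr', ha' (I • u) v, neg_neg]
  have key : ∀ u v, B u (I • v) = B' u (I • v) := by
    intro u v
    have e := h (u + v)
    rw [smul_add, hl, hr, hr, hl', hr', hr', h u, h v, s1 v u, s1' v u] at e
    linarith
  have := key u (-(I • v))
  rwa [smul_neg, II_smul, neg_neg] at this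

variable [MeasurableSpace (Cn d)] [BorelSpace (Cn d)]

theorem ddc_self {u : X → ℝ} (hu : Sm (ofAtl A) u) {i : A.ι} {z : Cn d}
    (hz : z ∈ (A.e i).target) (v : Cn d) :
    (ddc (jA A) u hu).w i z v (I • v) = lev (uc (ofAtl A) u i) z v := by
  rw [ddc_w (jA A) u hu hz]
  unfold ddcF lev
  have hJ : fderiv ℝ ((jA A).J i) z = 0 := by
    have : (jA A).J i = fun _ => iL := rfl
    rw [this]
    simp
  rw [hJ, iteratedFDeriv_two_apply, iteratedFDeriv_two_apply]
  simp only [jA_J, zero_apply, map_zero, add_zero, II_smul, map_neg, neg_neg]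
  rfl

/-- `dd^c u` is the form of `4 ∂∂̄ u` -/
theorem ddc_hess {u : X → ℝ} (hu : Sm (ofAtl A) u) {i : A.ι} {z : Cn d}
    (hz : z ∈ (A.e i).target) (a b : Cn d) :
    (ddc (jA A) u hu).w i z a b = (I * hb ((4 : ℂ) • hess (uc (ofAtl A) u i) z) a b).re := by
  have hh : (hess (uc (ofAtl A) u i) z).IsHermitian := hess_herm (hu.at hz)
  set G : Matrix (Fin d) (Fin d) ℂ := (4 : ℂ) • hess (uc (ofAtl A) u i) z with hG
  have hGh : G.IsHermitian := by
    rw [hG, Matrix.IsHermitian, Matrix.conjTranspose_smul, hh.eq]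
    simp
  have ht := ddc_T11 cx_jA u hu
  refine bil_ext (B := fun a b => (ddc (jA A) u hu).w i z a b)
    (B' := fun a b => (I * hb G a b).re) ?_ ?_ ?_ ?_ ?_ ?_ ?_ ?_ ?_ a b
  · intro u u' v; simp
  · intro u v v'; simp
  · intro u u' v
    simp only [hb, PiLp.add_apply, mul_add, add_mul, Finset.sum_add_distrib, Complex.add_re]
  · intro u v v'
    simp only [hb, PiLp.add_apply, map_add, mul_add, Finset.sum_add_distrib, Complex.add_re]
  · exact fun u v => (ddc (jA A) _ hu).alt i z hz u v
  · intro u v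
    rw [← hb_conj hGh v u]
    simp
  · exact fun u v => ht i z hz u v
  · intro u v
    rw [hb_I_left, hb_I_right]
    congr 2
    linear_combination (-hb G u v) * I_mul_I
  · intro v
    rw [re_I_hb, ddc_self hu hz, hG, hb_smul]
    have := lev_eq (hu.at hz) v
    have e : (4 : ℂ) * hb (hess (uc (ofAtl A) u i) z) v v = ((lev (uc (ofAtl A) u i) z v : ℝ) : ℂ) :=
      this.symm
    rw [e, Complex.ofReal_re]

/-! ### curvature forms -/

omit [MeasurableSpace (Cn d)] [BorelSpace (Cn d)] in
/-- the curvature form of a metric -/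
def curK {L : LB A} (h : HM L) : K11 A where
  g := cur h
  sm := cur_smooth h
  herm i _ hx := cur_herm h i hx
  tr _ _ _ hx := cur_tr h hx
  closed i _ hz a b c := cur_closed h i hz a b c

/-- the class of the curvature form does not depend on the metric -/
theorem ex_cur {L : LB A} (h h' : HM L) : Ex ((curK h').f2 - (curK h).f2) := by
  set u : X → ℝ := fun x => (-(1 / 4) : ℝ) * ratio h h' x with hu'
  have hu : Sm (ofAtl A) u := fun i => contDiffOn_const.mul (sm_ratio h h' i)
  refine ex_congr (w := ddc (jA A) u hu) (fun i z hz a b => ?_) (ddc_Ex _ u hu)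
  have hx := (A.e i).map_target hz
  have hz' : A.e i ((A.e i).symm z) = z := (A.e i).right_inv hz
  rw [ddc_hess hu hz, F2.sub_w, sub_apply, sub_apply, K11.f2_w _ hz, K11.f2_w _ hz]
  have h1 : cur h' i ((A.e i).symm z) = cur h i ((A.e i).symm z) -
      hess (fun y => ratio h h' ((A.e i).symm y)) z := by
    rw [cur_ratio h h' i hx]
    show _ - hess (fun y => ratio h h' ((A.e i).symm y)) (A.e i ((A.e i).symm z)) = _
    rw [hz']
  have h2 : (4 : ℂ) • hess (uc (ofAtl A) u i) z = -hess (fun y => ratio h h' ((A.e i).symm y)) z := by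
    have : uc (ofAtl A) u i = fun y => (-(1 / 4) : ℝ) * ratio h h' ((A.e i).symm y) := rfl
    rw [this, hess_const_mul _ (sm_contDiffAt (sm_ratio h h') i hz), smul_smul]
    norm_num
  show _ = (I * hb (cur h' i ((A.e i).symm z)) a b).re - (I * hb (cur h i ((A.e i).symm z)) a b).re
  rw [h1, h2, sub_eq_add_neg (cur h i _), hb_add, mul_add, Complex.add_re]
  ring

/-- nef in the atlas language implies nef at the class level -/
theorem nefC_of_nefW (K : Kah A) {L : LB A} (hn : NefW K L) (h : HM L) :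
    NefC (jA A) (ofKah K).f2 (curK h).f2 := by
  intro N
  rcases Nat.eq_zero_or_pos N with rfl | hN
  · rw [Nat.cast_zero, zero_smul, add_zero]
    exact KCls.of (T11_kah K) (Pos_kah K)
  have hN' : (0 : ℝ) < N := by exact_mod_cast hN
  obtain ⟨h', hh'⟩ := hn (1 / (2 * N)) (by positivity)
  refine KCls.congr (w := (ofKah K).f2 + (N : ℝ) • (curK h').f2) (KCls.of
    ((T11_kah K).add ((T11_f2 _).smul _)) ?_) ?_
  · intro i z hz v hv
    have hx := (A.e i).map_target hz
    have g1 := f2_self (ofKah K) hz v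
    have g2 := f2_self (curK h') hz v
    show 0 < (ofKah K).f2.w i z v (I • v) + (N : ℝ) * (curK h').f2.w i z v (I • v)
    rw [g1, g2]
    have h1 := hb_nonneg (hh' i _ hx) v
    have h2 := hb_pos (K.pos i _ hx) hv
    rw [hb_add, hb_smul, Complex.add_re, Complex.re_ofReal_mul] at h1
    have h3 : (0 : ℝ) ≤ N * ((hb (cur h' i ((A.e i).symm z)) v v).re +
        1 / (2 * N) * (hb (K.g i ((A.e i).symm z)) v v).re) := by positivity
    have h4 : (N : ℝ) * ((hb (cur h' i ((A.e i).symm z)) v v).re +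
        1 / (2 * N) * (hb (K.g i ((A.e i).symm z)) v v).re) =
        N * (hb (cur h' i ((A.e i).symm z)) v v).re +
          1 / 2 * (hb (K.g i ((A.e i).symm z)) v v).re := by
      field_simp
    rw [h4] at h3
    show 0 < (hb (K.g i ((A.e i).symm z)) v v).re +
      N * (hb (cur h' i ((A.e i).symm z)) v v).re
    linarith
  · rw [add_sub_add_left_eq_sub, ← smul_sub]
    exact ex_smul _ (ex_cur h h')

/-- nef at the class level implies nef in the atlas language -/
theorem nefW_of_nefC (K : Kah A) {L : LB A} (h : HM L) (hd : DDb (jA A))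
    (hn : NefC (jA A) (ofKah K).f2 (curK h).f2) : NefW K L := by
  intro ε hε
  obtain ⟨N, hN⟩ := exists_nat_gt (1 / ε)
  have hN' : (0 : ℝ) < N := lt_trans (by positivity) hN
  have hNe : 1 / (N : ℝ) < ε := by
    rw [div_lt_iff₀ hN']
    rwa [div_lt_iff₀ hε, mul_comm] at hN
  obtain ⟨u, hu, hp⟩ := (KCls_iff cx_jA hd ((T11_kah K).add ((T11_f2 (curK h)).smul _))).1 (hn N)
  set f : X → ℝ := fun x => (4 / N : ℝ) * u x with hf'
  have hf : A.Sm f := fun i => contDiffOn_const.mul (hu i)
  refine ⟨tw h f hf, fun i x hx => ?_⟩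
  have hz := (A.e i).map_source hx
  have hKh := (K.pos i x hx).isHermitian
  have hch := cur_herm (tw h f hf) i hx
  refine (posDef_of_hb ?_ fun v hv => ?_).posSemidef
  · rw [Matrix.IsHermitian, Matrix.conjTranspose_add, Matrix.conjTranspose_smul, hch.eq, hKh.eq]
    simp
  · have h1 : 0 < (ofKah K).f2.w i (A.e i x) v (I • v) +
        (N : ℝ) * (curK h).f2.w i (A.e i x) v (I • v) +
        (ddc (jA A) u hu).w i (A.e i x) v (I • v) := hp i _ hz v hv
    rw [f2_self _ hz, f2_self _ hz, ddc_hess hu hz, re_I_hb, (A.e i).left_inv hx] at h1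
    have e1 : hsf A f i x = ((4 / N : ℝ) : ℂ) • hess (uc (ofAtl A) u i) (A.e i x) := by
      unfold hsf
      have : (fun z => f ((A.e i).symm z)) = fun z => (4 / N : ℝ) * uc (ofAtl A) u i z := rfl
      rw [this, hess_const_mul _ (hu.at hz)]
    rw [cur_tw h hf i hx, e1, hb_add, hb_add, hb_smul, hb_smul, Complex.add_re, Complex.add_re,
      Complex.re_ofReal_mul, Complex.re_ofReal_mul]
    have h2 := hb_pos (K.pos i x hx) hv
    rw [hb_smul, Complex.mul_re] at h1
    simp only [Complex.re_ofNat, Complex.im_ofNat, zero_mul, sub_zero] at h1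
    have h1' : 0 < (hb (K.g i x) v v).re + N * (hb (cur h i x) v v).re +
        4 * (hb (hess (uc (ofAtl A) u i) (A.e i x)) v v).re := h1
    have h3 : (0 : ℝ) < 1 / N * ((hb (K.g i x) v v).re + N * (hb (cur h i x) v v).re +
        4 * (hb (hess (uc (ofAtl A) u i) (A.e i x)) v v).re) := by positivity
    have h4 : 1 / N * ((hb (K.g i x) v v).re + N * (hb (cur h i x) v v).re +
        4 * (hb (hess (uc (ofAtl A) u i) (A.e i x)) v v).re) =
        (hb (cur h i x) v v).re + 4 / N * (hb (hess (uc (ofAtl A) u i) (A.e i x)) v v).re +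
          1 / N * (hb (K.g i x) v v).re := by
      field_simp
      ring
    rw [h4] at h3
    have h5 : 1 / (N : ℝ) * (hb (K.g i x) v v).re ≤ ε * (hb (K.g i x) v v).re :=
      mul_le_mul_of_nonneg_right hNe.le h2.le
    linarith

/-- **dictionary** -/
theorem nefW_iff (K : Kah A) {L : LB A} (h : HM L) (hd : DDb (jA A)) :
    NefW K L ↔ NefC (jA A) (ofKah K).f2 (curK h).f2 :=
  ⟨fun hn => nefC_of_nefW K hn h, nefW_of_nefC K h hd⟩

end

end Crest.Agent.R281.Nef_252
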