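import Crest.Agent.R281.PL2_713
import Crest.Agent.R281.Nef2_252

/-!
# R281 (S0424), DICT (helper323, second owner), part 1: from `LB A` + metric to `PL (ofAtl A)`

* `ofLB h : PL (ofAtl A)`  : the unitary bundle with Chern connection of `(L, h)`
* `ofLB_F`                 : curvature `= -2 (curK h).f2`
* `ofLB_pow`               : `(ofLB h).pow m = ofLB (pow h m)`
* `toSec`                  : a smooth section of `L` in the unitary frames
* `equivH0 : HS L univ ≃ₗ[ℂ] (ofLB h).H0 (iJ A)`, `equivH0_u`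
-/

set_option autoImplicit false
set_option linter.unusedSectionVars false
set_option maxSynthPendingDepth 3

open Set Filter Topology Complex
open scoped ContDiff Matrix ComplexConjugate InnerProductSpace

namespace Crest.Agent.R281.Dct_323

open Crest.Agent.R275.Geo Crest.Agent.R275.Core144
open Crest.Agent.R273.Kah_333 Crest.Agent.R273.Hess_333 Crest.Agent.R273.HessB_333
open Crest.Agent.R273.Defs_333 Crest.Agent.R273.HM_333
open Crest.Agent.R281.HkR_835 Crest.Agent.R281.Ti_846 Crest.Agent.R281.PL_713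
open Crest.Agent.R281.Nef_252

noncomputable section

variable {d : ℕ} {X : Type} [TopologicalSpace X] {A : Atl d X} {L L' : LB A}

/-! ### one nowhere vanishing holomorphic function -/

section one

variable {E : Type*} [NormedAddCommGroup E] [NormedSpace ℂ E]

/-- derivative of `log ‖γ‖²` -/
theorem fderiv_lognsq {γ : E → ℂ} {z : E} (h : DifferentiableAt ℝ γ z) (h0 : γ z ≠ 0) :
    HasFDerivAt (fun y => Real.log (‖γ y‖ ^ 2))
      ((‖γ z‖ ^ 2)⁻¹ • (2 • (innerSL ℝ (γ z)).comp (fderiv ℝ γ z))) z := by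
  have h1 : HasFDerivAt (fun y => ‖γ y‖ ^ 2) (2 • (innerSL ℝ (γ z)).comp (fderiv ℝ γ z)) z :=
    h.hasFDerivAt.norm_sq
  exact h1.log (by positivity)

theorem lognsq_apply {γ : E → ℂ} {z : E} (h : DifferentiableAt ℝ γ z) (h0 : γ z ≠ 0) (v : E) :
    fderiv ℝ (fun y => Real.log (‖γ y‖ ^ 2)) z v = 2 * (fderiv ℝ γ z v / γ z).re := by
  rw [(fderiv_lognsq h h0).fderiv]
  have h1 : ‖γ z‖ ^ 2 = Complex.normSq (γ z) := (Complex.normSq_eq_norm_sq _).symm
  simp only [smul_apply, nsmul_eq_mul, ContinuousLinearMap.comp_apply, innerSL_apply_apply,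
    smul_eq_mul]
  rw [Complex.inner, h1, Complex.div_re, Complex.mul_re, Complex.conj_re, Complex.conj_im]
  push_cast
  ring

/-- the phase `γ / |γ|` -/
def ph (γ : ℂ) : ℂ := γ / ((‖γ‖ : ℝ) : ℂ)

theorem ph_norm {γ : ℂ} (h : γ ≠ 0) : ‖ph γ‖ = 1 := by
  unfold ph
  rw [norm_div, Complex.norm_real, norm_norm, div_self (norm_ne_zero_iff.2 h)]

theorem ph_mul (a b : ℂ) : ph (a * b) = ph a * ph b := by
  unfold ph
  rw [norm_mul]
  push_cast
  rw [mul_div_mul_comm]

theorem ph_pow (a : ℂ) (m : ℕ) : ph (a ^ m) = ph a ^ m := by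
  unfold ph
  rw [norm_pow]
  push_cast
  rw [div_pow]

theorem ph_one : ph 1 = 1 := by simp [ph]

theorem ph_eq {γ : ℂ} (h : γ ≠ 0) :
    ph γ = γ * Complex.exp (((-(Real.log (‖γ‖ ^ 2)) / 2 : ℝ) : ℂ)) := by
  unfold ph
  have h1 : 0 < ‖γ‖ := norm_pos_iff.2 h
  have h2 : Real.exp (-(Real.log (‖γ‖ ^ 2)) / 2) = ‖γ‖⁻¹ := by
    rw [Real.log_pow]
    have : -((2 : ℕ) * Real.log ‖γ‖) / 2 = -Real.log ‖γ‖ := by push_cast; ring
    rw [this, Real.exp_neg, Real.exp_log h1]
  rw [← Complex.ofReal_exp, h2]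
  push_cast
  rw [div_eq_mul_inv]

/-- derivative of the phase -/
theorem ph_deriv {γ : E → ℂ} {z : E} (h : DifferentiableAt ℝ γ z) (h0 : γ z ≠ 0) (v : E) :
    fderiv ℝ (fun y => ph (γ y)) z v = I * (((fderiv ℝ γ z v / γ z).im : ℝ) : ℂ) * ph (γ z) := by
  have h1 : (fun y => ph (γ y)) =ᶠ[𝓝 z]
      fun y => γ y * Complex.exp (((-(Real.log (‖γ y‖ ^ 2)) / 2 : ℝ) : ℂ)) := by
    filter_upwards [h.continuousAt.eventually_ne h0] with y hy using ph_eq hy
  have h2 := fderiv_lognsq h h0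
  have h3 : HasFDerivAt (fun y => -(Real.log (‖γ y‖ ^ 2)) / 2)
      ((-(1 / 2) : ℝ) • ((‖γ z‖ ^ 2)⁻¹ • (2 • (innerSL ℝ (γ z)).comp (fderiv ℝ γ z)))) z := by
    have := h2.const_mul (-(1 / 2) : ℝ)
    refine this.congr_of_eventuallyEq (Eventually.of_forall fun y => ?_)
    show -(Real.log (‖γ y‖ ^ 2)) / 2 = -(1 / 2) * Real.log (‖γ y‖ ^ 2)
    ring
  have h4 : HasFDerivAt (fun y => ((-(Real.log (‖γ y‖ ^ 2)) / 2 : ℝ) : ℂ)) (Complex.ofRealCLM.comp
      ((-(1 / 2) : ℝ) • ((‖γ z‖ ^ 2)⁻¹ • (2 • (innerSL ℝ (γ z)).comp (fderiv ℝ γ z))))) z :=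
    Complex.ofRealCLM.hasFDerivAt.comp z h3
  have h5 := h4.cexp
  have h6 : HasFDerivAt (fun y => γ y * Complex.exp (((-(Real.log (‖γ y‖ ^ 2)) / 2 : ℝ) : ℂ))) _ z :=
    h.hasFDerivAt.mul h5
  have h7 := lognsq_apply h h0 v
  rw [h2.fderiv] at h7
  rw [h1.fderiv_eq, h6.fderiv, ph_eq h0]
  set T := (‖γ z‖ ^ 2)⁻¹ • (2 • (innerSL ℝ (γ z)).comp (fderiv ℝ γ z)) with hT
  simp only [add_apply, smul_apply, ContinuousLinearMap.comp_apply, Complex.ofRealCLM_apply,
    smul_eq_mul]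
  rw [h7]
  have h8 : fderiv ℝ γ z v = γ z * (fderiv ℝ γ z v / γ z) := by field_simp
  set q := fderiv ℝ γ z v / γ z with hq
  rw [h8]
  have h9 : q = ((q.re : ℝ) : ℂ) + ((q.im : ℝ) : ℂ) * I := (Complex.re_add_im q).symm
  set e := Complex.exp (((-(Real.log (‖γ z‖ ^ 2)) / 2 : ℝ) : ℂ)) with he
  push_cast
  linear_combination (γ z * e) * h9

end one

/-! ### the unitary bundle of `(L, h)` -/

/-- the transition function read in the chart `i` -/
def gr (L : LB A) (i j : A.ι) (z : Cn d) : ℂ := L.g i j ((A.e i).symm z)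

theorem gr_ne (L : LB A) (i j : A.ι) (z : Cn d) : gr L i j z ≠ 0 := L.ne_zero _ _ _

theorem gr_hol (L : LB A) (i j : A.ι) : DifferentiableOn ℂ (gr L i j) ((ofAtl A).ov i j) :=
  L.hol i j

theorem gr_diff (L : LB A) {i j : A.ι} {z : Cn d} (hz : z ∈ (ofAtl A).ov i j) :
    DifferentiableAt ℂ (gr L i j) z :=
  (gr_hol L i j).differentiableAt ((RCh.isOpen_ov (C := ofAtl A) i j).mem_nhds hz)

theorem gr_diffR (L : LB A) {i j : A.ι} {z : Cn d} (hz : z ∈ (ofAtl A).ov i j) :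
    DifferentiableAt ℝ (gr L i j) z := (gr_diff L hz).restrictScalars ℝ

theorem gr_I (L : LB A) {i j : A.ι} {z : Cn d} (hz : z ∈ (ofAtl A).ov i j) (v : Cn d) :
    fderiv ℝ (gr L i j) z (I • v) = I * fderiv ℝ (gr L i j) z v := by
  rw [(gr_diff L hz).fderiv_restrictScalars ℝ]
  exact map_smul (fderiv ℂ (gr L i j) z) I v

theorem gr_sm (L : LB A) (i j : A.ι) : ContDiffOn ℝ ∞ (gr L i j) ((ofAtl A).ov i j) :=
  (L.hol i j).contDiffOn (A.e j).open_source

/-- the connection form of the unitary frame -/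
def thH (h : HM L) (i : A.ι) (z : Cn d) : Cn d →L[ℝ] ℝ :=
  (1 / 2 : ℝ) • (fderiv ℝ (h.wt i) z).comp iL

theorem thH_apply (h : HM L) (i : A.ι) (z v : Cn d) :
    thH h i z v = 1 / 2 * fderiv ℝ (h.wt i) z (I • v) := rfl

theorem fdwt_sm (h : HM L) (i : A.ι) : ContDiffOn ℝ ∞ (fderiv ℝ (h.wt i)) (A.e i).target :=
  (wt_smooth h i).fderiv_of_isOpen (A.e i).open_target (by simp)

theorem thH_sm (h : HM L) (i : A.ι) : ContDiffOn ℝ ∞ (thH h i) (A.e i).target :=
  ((fdwt_sm h i).clm_comp contDiffOn_const).const_smul (1 / 2 : ℝ)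

/-- law of the connection forms -/
theorem thH_law (h : HM L) {i j : A.ι} {z : Cn d} (hz : z ∈ (ofAtl A).ov i j) (v : Cn d) :
    thH h j ((ofAtl A).t i j z) (fderiv ℝ ((ofAtl A).t i j) z v) - thH h i z v =
      (fderiv ℝ (gr L i j) z v / gr L i j z).im := by
  have hj : (ofAtl A).t i j z ∈ (A.e j).target := (RCh.t_mem hz).1
  have h1 : HasFDerivAt (h.wt j) (fderiv ℝ (h.wt j) ((ofAtl A).t i j z)) ((ofAtl A).t i j z) :=
    ((wt_contDiffAt h j hj).differentiableAt (by simp)).hasFDerivAt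
  have h2 : HasFDerivAt (fun y => h.wt j ((ofAtl A).t i j y)) _ z :=
    h1.comp z (RCh.t_diff hz).hasFDerivAt
  have h3 : (fun y => h.wt j ((ofAtl A).t i j y)) =ᶠ[𝓝 z]
      fun y => h.wt i y - Real.log (‖gr L i j y‖ ^ 2) := by
    filter_upwards [(RCh.isOpen_ov (C := ofAtl A) i j).mem_nhds hz] with y hy
    exact wt_tr h hy
  have h4 : HasFDerivAt (fun y => h.wt i y - Real.log (‖gr L i j y‖ ^ 2)) _ z :=
    ((wt_contDiffAt h i hz.1).differentiableAt (by simp)).hasFDerivAt.sub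
      (fderiv_lognsq (gr_diffR L hz) (gr_ne L i j z))
  have h5 := h2.fderiv
  rw [h3.fderiv_eq, h4.fderiv] at h5
  have h6 := congrArg (fun T : Cn d →L[ℝ] ℝ => T (I • v)) h5
  have h7 := lognsq_apply (gr_diffR L hz) (gr_ne L i j z) (I • v)
  rw [(fderiv_lognsq (gr_diffR L hz) (gr_ne L i j z)).fderiv] at h7
  simp only [sub_apply, ContinuousLinearMap.comp_apply] at h6
  rw [h7, gr_I L hz, ofAtl_dt_I hz] at h6
  rw [thH_apply, thH_apply, ← h6]
  have h8 : I * fderiv ℝ (gr L i j) z v / gr L i j z =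
      I * (fderiv ℝ (gr L i j) z v / gr L i j z) := mul_div_assoc _ _ _
  rw [h8, Complex.mul_re, Complex.I_re, Complex.I_im]
  ring

/-- **the unitary bundle with the Chern connection of `(L, h)`** -/
def ofLB (h : HM L) : PL (ofAtl A) where
  g i j z := ph (gr L i j z)
  sm i j := by
    have h1 : ContDiffOn ℝ ∞ (fun z => ((‖gr L i j z‖ : ℝ) : ℂ)) ((ofAtl A).ov i j) :=
      Complex.ofRealCLM.contDiff.comp_contDiffOn
        ((gr_sm L i j).norm ℝ fun z _ => gr_ne L i j z)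
    have h2 : ContDiffOn ℝ ∞ (fun z => ((‖gr L i j z‖ : ℝ) : ℂ)⁻¹) ((ofAtl A).ov i j) :=
      h1.inv fun z _ => Complex.ofReal_ne_zero.2 (norm_ne_zero_iff.2 (gr_ne L i j z))
    refine ((gr_sm L i j).mul h2).congr fun z _ => ?_
    exact div_eq_mul_inv _ _
  unit i j z _ := ph_norm (gr_ne L i j z)
  coc i j k z hz hz' := by
    rw [← ph_mul]
    congr 1
    have hx : (A.e j).symm ((ofAtl A).t i j z) = (A.e i).symm z := (A.e j).left_inv hz.2
    unfold gr
    rw [hx]
    exact (L.mul i j k _ ⟨⟨(A.e i).map_target hz.1, hz.2⟩, hz'.2⟩).symm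
  th := thH h
  th_sm := thH_sm h
  law i j z hz v := by
    rw [ph_deriv (gr_diffR L hz) (gr_ne L i j z), thH_law h hz]

@[simp] theorem ofLB_g (h : HM L) (i j : A.ι) (z : Cn d) : (ofLB h).g i j z = ph (gr L i j z) := rfl
@[simp] theorem ofLB_th (h : HM L) (i : A.ι) : (ofLB h).th i = thH h i := rfl

/-- powers -/
theorem ofLB_pow (h : HM L) (m : ℕ) : (ofLB h).pow m = ofLB (pow h m) := by
  refine PL.ext ?_ ?_
  · funext i j z
    show ph (gr L i j z) ^ m = ph (gr (L ^ m) i j z)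
    rw [← ph_pow]
    congr 1
    exact (LB_pow_g L m i j _).symm
  · funext i z
    ext v
    have h1 : (pow h m).wt i = (m : ℝ) • h.wt i := by
      funext y
      exact wt_pow h m i y
    have h2 : fderiv ℝ ((pow h m).wt i) z = (m : ℝ) • fderiv ℝ (h.wt i) z := by
      rw [h1, fderiv_const_smul_field]
      rfl
    show (m : ℝ) * (1 / 2 * fderiv ℝ (h.wt i) z (I • v)) =
      1 / 2 * fderiv ℝ ((pow h m).wt i) z (I • v)
    rw [h2]
    simp only [smul_apply, smul_eq_mul]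
    ring

/-- **the curvature of `ofLB h` is `-2` times the curvature form** -/
theorem ofLB_F (h : HM L) {i : A.ι} {z : Cn d} (hz : z ∈ (A.e i).target) (u v : Cn d) :
    (ofLB h).F.w i z u v = -2 * (curK h).f2.w i z u v := by
  have hw := wt_contDiffAt h i hz
  have hd2 : DifferentiableAt ℝ (fderiv ℝ (h.wt i)) z :=
    ((fdwt_sm h i).contDiffAt ((A.e i).open_target.mem_nhds hz)).differentiableAt (by simp)
  have h0 : ∀ a b, fderiv ℝ (thH h i) z a b = 1 / 2 * fderiv ℝ (fderiv ℝ (h.wt i)) z a (I • b) := by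
    intro a b
    have h1 : HasFDerivAt (thH h i) _ z :=
      (hd2.hasFDerivAt.clm_comp (hasFDerivAt_const iL z)).const_smul (1 / 2 : ℝ)
    rw [h1.fderiv]
    simp
  have hF : ∀ a b, (ofLB h).F.w i z a b =
      1 / 2 * fderiv ℝ (fderiv ℝ (h.wt i)) z a (I • b) -
        1 / 2 * fderiv ℝ (fderiv ℝ (h.wt i)) z b (I • a) := by
    intro a b
    show fderiv ℝ (thH h i) z a b - fderiv ℝ (thH h i) z b a = _
    rw [h0, h0]
  have hs := sym2 hw
  set D := fderiv ℝ (fderiv ℝ (h.wt i)) z with hD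
  set G := cur h i ((A.e i).symm z) with hG
  have hGh : G.IsHermitian := cur_herm h i ((A.e i).map_target hz)
  rw [K11.f2_w _ hz]
  show _ = -2 * (I * hb G u v).re
  rw [hF]
  refine bil_ext (B := fun a b => 1 / 2 * D a (I • b) - 1 / 2 * D b (I • a))
    (B' := fun a b => -2 * (I * hb G a b).re) ?_ ?_ ?_ ?_ ?_ ?_ ?_ ?_ ?_ u v
  · intro a a' b
    simp only [map_add, add_apply, smul_add]
    ring
  · intro a b b'
    simp only [map_add, add_apply, smul_add]
    ring
  · intro a a' b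
    simp only [hb, PiLp.add_apply, mul_add, add_mul, Finset.sum_add_distrib, Complex.add_re]
  · intro a b b'
    simp only [hb, PiLp.add_apply, map_add, mul_add, Finset.sum_add_distrib, Complex.add_re]
  · intro a b
    ring
  · intro a b
    rw [← hb_conj hGh b a]
    simp
  · intro a b
    simp only [II_smul, map_neg]
    rw [hs (I • a) b, hs (I • b) a]
    ring
  · intro a b
    rw [hb_I_left, hb_I_right]
    congr 3
    linear_combination (-hb G a b) * I_mul_I
  · intro b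
    simp only [re_I_hb, II_smul, map_neg]
    have h3 := lev_eq hw b
    have h4 : ((lev (h.wt i) z b : ℝ) : ℂ) = 4 * hb G b b := by
      rw [h3, hG, cur_read h i hz]
      rfl
    have h5 : lev (h.wt i) z b = 4 * (hb G b b).re := by
      have := congrArg Complex.re h4
      simpa using this
    have h6 : lev (h.wt i) z b = D b b + D (I • b) (I • b) := by
      unfold lev
      rw [iteratedFDeriv_two_apply, iteratedFDeriv_two_apply]
      rfl
    rw [h6] at h5
    linarith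

end

end Crest.Agent.R281.Dct_323
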