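import Crest.Agent.R281.Dct1_323

/-!
# R281 (S0424), DICT (helper323, second owner), part 2: sections

* `IsSS L s`, `SS L`             : smooth sections of a holomorphic line bundle
* `equivS h : SS L ≃ₗ[ℂ] Sec (ofLB h)`, `toSec_u` : `u_i = s_i √w_i`
* `toSec_db`                     : `db u (v) = √w (s'(v) + I s'(I v))`
* `toSec_mem`                    : `toSec s ∈ (ofLB h).H0 (iJ A) ↔ IsHS L univ s`
* `equivH0 h : HS L univ ≃ₗ[ℂ] (ofLB h).H0 (iJ A)`, `hasN_iff`, `hasN_pow_iff`, `finrank_eq`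
* `toSec_mul_u`, `toSec_norm`, `toSec_zero_iff`
-/

set_option autoImplicit false
set_option linter.unusedSectionVars false
set_option maxSynthPendingDepth 3

open Set Filter Topology Complex
open scoped ContDiff Matrix ComplexConjugate InnerProductSpace

namespace Crest.Agent.R281.Dct_323

open Crest.Agent.R275.Geo Crest.Agent.R275.Core144
open Crest.Agent.R273.Kah_333 Crest.Agent.R273.Hess_333 Crest.Agent.R273.HessB_333
open Crest.Agent.R273.Defs_333 Crest.Agent.R273.HM_333
open Crest.Agent.R281.HkR_835 Crest.Agent.R281.Ti_846 Crest.Agent.R281.PL_713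
open Crest.Agent.R281.Nef_252

noncomputable section

variable {d : ℕ} {X : Type} [TopologicalSpace X] {A : Atl d X} {L L' : LB A}

/-! ### the length of the frame -/

/-- `√w` read in the chart `i` -/
def rho (h : HM L) (i : A.ι) (z : Cn d) : ℝ := Real.exp (-(h.wt i z) / 2)

theorem rho_pos (h : HM L) (i : A.ι) (z : Cn d) : 0 < rho h i z := Real.exp_pos _

theorem rho_neC (h : HM L) (i : A.ι) (z : Cn d) : ((rho h i z : ℝ) : ℂ) ≠ 0 :=
  Complex.ofReal_ne_zero.2 (rho_pos h i z).ne'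

theorem rho_sm (h : HM L) (i : A.ι) : ContDiffOn ℝ ∞ (rho h i) (A.e i).target :=
  Real.contDiff_exp.comp_contDiffOn ((wt_smooth h i).neg.div_const 2)

theorem rho_smC (h : HM L) (i : A.ι) :
    ContDiffOn ℝ ∞ (fun z => ((rho h i z : ℝ) : ℂ)) (A.e i).target :=
  Complex.ofRealCLM.contDiff.comp_contDiffOn (rho_sm h i)

theorem rho_sq (h : HM L) {i : A.ι} {z : Cn d} (hz : z ∈ (A.e i).target) :
    rho h i z ^ 2 = h.w i ((A.e i).symm z) := by
  have h0 := h.pos i _ ((A.e i).map_target hz)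
  have h1 : rho h i z ^ 2 = Real.exp (Real.log (h.w i ((A.e i).symm z))) := by
    unfold rho HM.wt
    rw [← Real.exp_nat_mul]
    congr 1
    push_cast
    ring
  rw [h1, Real.exp_log h0]

theorem rho_tr (h : HM L) {i j : A.ι} {z : Cn d} (hz : z ∈ (ofAtl A).ov i j) :
    rho h j ((ofAtl A).t i j z) = ‖gr L i j z‖ * rho h i z := by
  have h1 : rho h j ((ofAtl A).t i j z) ^ 2 = (‖gr L i j z‖ * rho h i z) ^ 2 := by
    rw [mul_pow, rho_sq h hz.1]
    refine (rho_sq h (RCh.t_mem hz).1).trans ?_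
    have hx : (A.e j).symm ((ofAtl A).t i j z) = (A.e i).symm z := (A.e j).left_inv hz.2
    rw [hx]
    exact h.tr i j _ ⟨(A.e i).map_target hz.1, hz.2⟩
  exact (sq_eq_sq₀ (rho_pos h _ _).le (mul_nonneg (norm_nonneg _) (rho_pos h _ _).le)).1 h1

theorem ph_mul_norm {γ : ℂ} (h : γ ≠ 0) : ph γ * ((‖γ‖ : ℝ) : ℂ) = γ := by
  unfold ph
  exact div_mul_cancel₀ _ (Complex.ofReal_ne_zero.2 (norm_ne_zero_iff.2 h))

/-! ### smooth sections -/

/-- smooth sections of a holomorphic line bundle -/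
structure IsSS (L : LB A) (s : A.ι → X → ℂ) : Prop where
  sm : ∀ i, ContDiffOn ℝ ∞ (fun z => s i ((A.e i).symm z)) (A.e i).target
  off : ∀ i, ∀ x ∉ (A.e i).source, s i x = 0
  tr : ∀ i j, ∀ x ∈ (A.e i).source ∩ (A.e j).source, s i x = L.g i j x * s j x

/-- smooth sections as a module -/
def SS (L : LB A) : Submodule ℂ (A.ι → X → ℂ) where
  carrier := {s | IsSS L s}
  add_mem' {s t} hs ht := ⟨fun i => (hs.sm i).add (ht.sm i), fun i x hx => by
      rw [Pi.add_apply, Pi.add_apply, hs.off i x hx, ht.off i x hx, add_zero], fun i j x hx => by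
      rw [Pi.add_apply, Pi.add_apply, Pi.add_apply, Pi.add_apply, hs.tr i j x hx, ht.tr i j x hx,
        mul_add]⟩
  zero_mem' := ⟨fun _ => contDiffOn_const, fun _ _ _ => rfl, fun _ _ _ _ => by simp⟩
  smul_mem' c s hs := ⟨fun i => contDiffOn_const.mul (hs.sm i), fun i x hx => by
      rw [Pi.smul_apply, Pi.smul_apply, hs.off i x hx, smul_zero], fun i j x hx => by
      rw [Pi.smul_apply, Pi.smul_apply, Pi.smul_apply, Pi.smul_apply, hs.tr i j x hx, smul_eq_mul,
        smul_eq_mul]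
      ring⟩

@[simp] theorem mem_SS {s : A.ι → X → ℂ} : s ∈ SS L ↔ IsSS L s := Iff.rfl

theorem IsSS.of {s : A.ι → X → ℂ} (hs : IsHS L univ s) : IsSS L s where
  sm i := by
    have h1 := (hs.hol i).contDiffOn isOpen_univ
    rwa [preimage_univ, inter_univ] at h1
  off := hs.off
  tr i j x hx := hs.tr i j x hx (mem_univ x)

open Classical in
/-- the components of a section in the unitary frames -/
def toF (h : HM L) (s : A.ι → X → ℂ) (i : A.ι) (z : Cn d) : ℂ :=
  if z ∈ (A.e i).target then s i ((A.e i).symm z) * ((rho h i z : ℝ) : ℂ) else 0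

theorem toF_of (h : HM L) (s : A.ι → X → ℂ) {i : A.ι} {z : Cn d} (hz : z ∈ (A.e i).target) :
    toF h s i z = s i ((A.e i).symm z) * ((rho h i z : ℝ) : ℂ) := if_pos hz

/-- a smooth section in the unitary frames -/
def toSec (h : HM L) (s : A.ι → X → ℂ) (hs : IsSS L s) : Sec (ofLB h) where
  u := toF h s
  sm i := ((hs.sm i).mul (rho_smC h i)).congr fun _ hz => toF_of h s hz
  tr i j z hz := by
    have hj : (ofAtl A).t i j z ∈ (A.e j).target := (RCh.t_mem hz).1
    have hx : (A.e j).symm ((ofAtl A).t i j z) = (A.e i).symm z := (A.e j).left_inv hz.2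
    have h1 := toF_of h s (i := i) hz.1
    have h2 := toF_of h s (i := j) hj
    rw [hx, rho_tr h hz] at h2
    refine h1.trans ?_
    have h3 : (ofLB h).g i j z * toF h s j ((ofAtl A).t i j z) =
        ph (gr L i j z) * (s j ((A.e i).symm z) * ((‖gr L i j z‖ * rho h i z : ℝ) : ℂ)) := by
      rw [← h2]
      rfl
    refine Eq.trans ?_ h3.symm
    rw [hs.tr i j _ ⟨(A.e i).map_target hz.1, hz.2⟩]
    push_cast
    have h4 := ph_mul_norm (gr_ne L i j z)
    have h5 : L.g i j ((A.e i).symm z) = gr L i j z := rfl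
    rw [h5]
    linear_combination (-(s j ((A.e i).symm z) * ((rho h i z : ℝ) : ℂ))) * h4
  off i z hz := if_neg hz

theorem toSec_u (h : HM L) {s : A.ι → X → ℂ} (hs : IsSS L s) {i : A.ι} {z : Cn d}
    (hz : z ∈ (A.e i).target) :
    (toSec h s hs).u i z = s i ((A.e i).symm z) * ((rho h i z : ℝ) : ℂ) := toF_of h s hz

open Classical in
/-- the inverse -/
def ofSec (h : HM L) (u : Sec (ofLB h)) (i : A.ι) (x : X) : ℂ :=
  if x ∈ (A.e i).source then u.u i (A.e i x) / ((rho h i (A.e i x) : ℝ) : ℂ) else 0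

theorem ofSec_of (h : HM L) (u : Sec (ofLB h)) {i : A.ι} {x : X} (hx : x ∈ (A.e i).source) :
    ofSec h u i x = u.u i (A.e i x) / ((rho h i (A.e i x) : ℝ) : ℂ) := if_pos hx

theorem ofSec_symm (h : HM L) (u : Sec (ofLB h)) {i : A.ι} {z : Cn d} (hz : z ∈ (A.e i).target) :
    ofSec h u i ((A.e i).symm z) = u.u i z / ((rho h i z : ℝ) : ℂ) := by
  rw [ofSec_of h u ((A.e i).map_target hz), (A.e i).right_inv hz]

theorem ofSec_isSS (h : HM L) (u : Sec (ofLB h)) : IsSS L (ofSec h u) where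
  sm i := by
    have h1 : ContDiffOn ℝ ∞ (fun z => u.u i z * ((rho h i z : ℝ) : ℂ)⁻¹) (A.e i).target :=
      (u.sm i).mul ((rho_smC h i).inv fun z _ => rho_neC h i z)
    refine h1.congr fun z hz => ?_
    rw [ofSec_symm h u hz, div_eq_mul_inv]
  off i x hx := if_neg hx
  tr i j x hx := by
    have hz : A.e i x ∈ (ofAtl A).ov i j := by
      refine ⟨(A.e i).map_source hx.1, ?_⟩
      show (A.e i).symm (A.e i x) ∈ (A.e j).source
      rw [(A.e i).left_inv hx.1]
      exact hx.2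
    have ht : (ofAtl A).t i j (A.e i x) = A.e j x := by
      show A.e j ((A.e i).symm (A.e i x)) = A.e j x
      rw [(A.e i).left_inv hx.1]
    have h1 : u.u i (A.e i x) = ph (gr L i j (A.e i x)) * u.u j (A.e j x) := by
      have := u.tr i j _ hz
      rw [ht] at this
      exact this
    have h2 := rho_tr h hz
    rw [ht] at h2
    have h3 : gr L i j (A.e i x) = L.g i j x := by
      unfold gr
      rw [(A.e i).left_inv hx.1]
    have h4 := gr_ne L i j (A.e i x)
    rw [ofSec_of h u hx.1, ofSec_of h u hx.2, h1, h2, ← h3]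
    have h5 := ph_mul_norm h4
    have h6 := rho_neC h i (A.e i x)
    have h7 : ((‖gr L i j (A.e i x)‖ : ℝ) : ℂ) ≠ 0 :=
      Complex.ofReal_ne_zero.2 (norm_ne_zero_iff.2 h4)
    push_cast
    set P := ph (gr L i j (A.e i x))
    set N := ((‖gr L i j (A.e i x)‖ : ℝ) : ℂ)
    rw [← h5]
    field_simp

/-- **smooth sections of `L` and sections in the unitary frames** -/
def equivS (h : HM L) : SS L ≃ₗ[ℂ] Sec (ofLB h) where
  toFun s := toSec h s.1 (mem_SS.1 s.2)
  invFun u := ⟨ofSec h u, ofSec_isSS h u⟩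
  map_add' s t := by
    refine Sec.ext' fun i z hz => ?_
    refine (toSec_u h (mem_SS.1 (s + t).2) hz).trans ?_
    have h1 := toSec_u h (mem_SS.1 s.2) hz
    have h2 := toSec_u h (mem_SS.1 t.2) hz
    refine Eq.trans ?_ (congrArg₂ (· + ·) h1 h2).symm
    show (s.1 i _ + t.1 i _) * _ = _
    ring
  map_smul' c s := by
    refine Sec.ext' fun i z hz => ?_
    refine (toSec_u h (mem_SS.1 (c • s).2) hz).trans ?_
    have h1 := toSec_u h (mem_SS.1 s.2) hz
    refine Eq.trans ?_ (congrArg (c * ·) h1).symm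
    show (c * s.1 i _) * _ = _
    ring
  left_inv s := by
    refine Subtype.ext ?_
    funext i x
    show ofSec h (toSec h s.1 (mem_SS.1 s.2)) i x = s.1 i x
    by_cases hx : x ∈ (A.e i).source
    · rw [ofSec_of h _ hx, toSec_u h (mem_SS.1 s.2) ((A.e i).map_source hx), (A.e i).left_inv hx,
        mul_div_cancel_right₀ _ (rho_neC h i _)]
    · rw [(mem_SS.1 s.2).off i x hx]
      exact if_neg hx
  right_inv u := by
    refine Sec.ext' fun i z hz => ?_
    refine (toSec_u h (ofSec_isSS h u) hz).trans ?_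
    rw [ofSec_symm h u hz, div_mul_cancel₀ _ (rho_neC h i _)]

@[simp] theorem equivS_apply (h : HM L) (s : SS L) :
    equivS h s = toSec h s.1 (mem_SS.1 s.2) := rfl
@[simp] theorem equivS_symm_apply (h : HM L) (u : Sec (ofLB h)) :
    ((equivS h).symm u : A.ι → X → ℂ) = ofSec h u := rfl

/-! ### the operator `db` -/

/-- **`db u (v) = √w (s'(v) + I s'(I v))`** -/
theorem toSec_db (h : HM L) {s : A.ι → X → ℂ} (hs : IsSS L s) {i : A.ι} {z : Cn d}
    (hz : z ∈ (A.e i).target) (v : Cn d) :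
    (toSec h s hs).db (iJ A) i z v = ((rho h i z : ℝ) : ℂ) *
      (fderiv ℝ (fun y => s i ((A.e i).symm y)) z v +
        I * fderiv ℝ (fun y => s i ((A.e i).symm y)) z (I • v)) := by
  have ho := (A.e i).open_target.mem_nhds hz
  set f : Cn d → ℂ := fun y => s i ((A.e i).symm y) with hf
  have h1 : (toSec h s hs).u i =ᶠ[𝓝 z] fun y => f y * ((rho h i y : ℝ) : ℂ) := by
    filter_upwards [ho] with y hy using toSec_u h hs hy
  have h2 : HasFDerivAt f (fderiv ℝ f z) z :=
    (((hs.sm i).contDiffAt ho).differentiableAt (by simp)).hasFDerivAt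
  have h3 : HasFDerivAt (h.wt i) (fderiv ℝ (h.wt i) z) z :=
    ((wt_contDiffAt h i hz).differentiableAt (by simp)).hasFDerivAt
  have h4 : HasFDerivAt (fun y => -(h.wt i y) / 2) ((-(1 / 2) : ℝ) • fderiv ℝ (h.wt i) z) z := by
    refine (h3.const_mul (-(1 / 2) : ℝ)).congr_of_eventuallyEq (Eventually.of_forall fun y => ?_)
    show -(h.wt i y) / 2 = -(1 / 2) * h.wt i y
    ring
  have h5 : HasFDerivAt (rho h i) (rho h i z • ((-(1 / 2) : ℝ) • fderiv ℝ (h.wt i) z)) z := h4.exp
  have h6 : HasFDerivAt (fun y => ((rho h i y : ℝ) : ℂ))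
      (Complex.ofRealCLM.comp (rho h i z • ((-(1 / 2) : ℝ) • fderiv ℝ (h.wt i) z))) z :=
    Complex.ofRealCLM.hasFDerivAt.comp z h5
  have h7 : HasFDerivAt (fun y => f y * ((rho h i y : ℝ) : ℂ)) _ z := h2.mul h6
  have hD : ∀ w : Cn d, (toSec h s hs).D i z w = ((rho h i z : ℝ) : ℂ) *
      (fderiv ℝ f z w - 1 / 2 * ((fderiv ℝ (h.wt i) z w : ℝ) : ℂ) * f z +
        I * (1 / 2 * ((fderiv ℝ (h.wt i) z (I • w) : ℝ) : ℂ)) * f z) := by
    intro w
    unfold Sec.D
    rw [h1.fderiv_eq, h7.fderiv, toSec_u h hs hz]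
    rw [ofLB_th, thH_apply]
    have e : s i ((A.e i).symm z) = f z := rfl
    rw [e]
    simp only [add_apply, smul_apply, smul_eq_mul, ContinuousLinearMap.comp_apply,
      Complex.ofRealCLM_apply]
    push_cast
    ring
  unfold Sec.db
  show (toSec h s hs).D i z v + I * (toSec h s hs).D i z (I • v) = _
  rw [hD, hD, smul_smul, I_mul_I, neg_smul, one_smul, map_neg]
  push_cast
  linear_combination (-((rho h i z : ℝ) : ℂ) * (1 / 2 * ((fderiv ℝ (h.wt i) z v : ℝ) : ℂ)) * f z) *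
    I_mul_I

theorem toSec_mem (h : HM L) {s : A.ι → X → ℂ} (hs : IsSS L s) :
    toSec h s hs ∈ (ofLB h).H0 (iJ A) ↔ IsHS L univ s := by
  constructor
  · intro hH
    refine ⟨fun i => ?_, hs.off, fun i j x hx _ => hs.tr i j x hx⟩
    intro z hz
    have hz1 : z ∈ (A.e i).target := hz.1
    have ho := (A.e i).open_target.mem_nhds hz1
    have h1 : DifferentiableAt ℝ (fun y => s i ((A.e i).symm y)) z :=
      ((hs.sm i).contDiffAt ho).differentiableAt (by simp)
    refine (Crest.Agent.R260.NNB_580.differentiableAt_of_real h1 fun v => ?_).differentiableWithinAt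
    have h2 : (toSec h s hs).db (iJ A) i z v = 0 := hH i z hz1 v
    rw [toSec_db h hs hz1] at h2
    have h3 := (mul_eq_zero.1 h2).resolve_left (rho_neC h i z)
    rw [smul_eq_mul]
    linear_combination (-I) * h3 + fderiv ℝ (fun y => s i ((A.e i).symm y)) z (I • v) * I_mul_I
  · intro hH i z hz v
    have h1 := toSec_db h hs (i := i) hz v
    refine h1.trans ?_
    have hz' : z ∈ (A.e i).target ∩ (A.e i).symm ⁻¹' univ := ⟨hz, mem_univ _⟩
    have ho : (A.e i).target ∩ (A.e i).symm ⁻¹' univ ∈ 𝓝 z :=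
      (isOpen_ti isOpen_univ).mem_nhds hz'
    have h2 : DifferentiableAt ℂ (fun y => s i ((A.e i).symm y)) z :=
      (hH.hol i).differentiableAt ho
    rw [Crest.Agent.R260.NNB_580.fderiv_real_I h2, smul_eq_mul]
    linear_combination (((rho h i z : ℝ) : ℂ) *
      fderiv ℝ (fun y => s i ((A.e i).symm y)) z v) * I_mul_I

/-- **holomorphic sections of `L`** -/
def equivH0 (h : HM L) : HS L univ ≃ₗ[ℂ] (ofLB h).H0 (iJ A) where
  toFun s := ⟨toSec h s.1 (IsSS.of s.2), (toSec_mem h (IsSS.of s.2)).2 s.2⟩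
  invFun u := ⟨ofSec h u.1, by
    have h1 : toSec h (ofSec h u.1) (ofSec_isSS h u.1) = u.1 := (equivS h).right_inv u.1
    have h2 := u.2
    rw [← h1] at h2
    exact (toSec_mem h (ofSec_isSS h u.1)).1 h2⟩
  map_add' s t := Subtype.ext ((equivS h).map_add ⟨s.1, IsSS.of s.2⟩ ⟨t.1, IsSS.of t.2⟩)
  map_smul' c s := Subtype.ext ((equivS h).map_smul c ⟨s.1, IsSS.of s.2⟩)
  left_inv s := by
    have h1 := congrArg Subtype.val ((equivS h).left_inv ⟨s.1, IsSS.of s.2⟩)
    exact Subtype.ext h1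
  right_inv u := Subtype.ext ((equivS h).right_inv u.1)

theorem equivH0_val (h : HM L) (s : HS L univ) :
    ((equivH0 h s : (ofLB h).H0 (iJ A)) : Sec (ofLB h)) = toSec h s.1 (IsSS.of s.2) := rfl

theorem equivH0_u (h : HM L) (s : HS L univ) {i : A.ι} {z : Cn d} (hz : z ∈ (A.e i).target) :
    ((equivH0 h s : (ofLB h).H0 (iJ A)) : Sec (ofLB h)).u i z =
      s.1 i ((A.e i).symm z) * ((rho h i z : ℝ) : ℂ) := toSec_u h (IsSS.of s.2) hz

theorem equivH0_symm_val (h : HM L) (u : (ofLB h).H0 (iJ A)) :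
    (((equivH0 h).symm u : HS L univ) : A.ι → X → ℂ) = ofSec h u.1 := rfl

theorem finrank_eq (h : HM L) :
    Module.finrank ℂ ((ofLB h).H0 (iJ A)) = Module.finrank ℂ (HS L univ) :=
  (equivH0 h).finrank_eq.symm

theorem hasN_iff (h : HM L) (N : ℕ) : (ofLB h).HasN (iJ A) N ↔
    ∃ f : Fin N → (A.ι → X → ℂ), LinearIndependent ℂ f ∧ ∀ k, IsHS L univ (f k) := by
  constructor
  · rintro ⟨f, hf, hm⟩
    set g : Fin N → (ofLB h).H0 (iJ A) := fun k => ⟨f k, hm k⟩ with hg
    have h1 : LinearIndependent ℂ g := by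
      have : LinearIndependent ℂ (((ofLB h).H0 (iJ A)).subtype ∘ g) := hf
      exact LinearIndependent.of_comp _ this
    have h2 : LinearIndependent ℂ (fun k => (equivH0 h).symm (g k)) :=
      h1.map' (equivH0 h).symm.toLinearMap (LinearEquiv.ker _)
    exact ⟨fun k => ((equivH0 h).symm (g k)).1, h2.map' (HS L univ).subtype (Submodule.ker_subtype _),
      fun k => ((equivH0 h).symm (g k)).2⟩
  · rintro ⟨f, hf, hm⟩
    set g : Fin N → HS L univ := fun k => ⟨f k, hm k⟩ with hg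
    have h1 : LinearIndependent ℂ g := by
      have : LinearIndependent ℂ ((HS L univ).subtype ∘ g) := hf
      exact LinearIndependent.of_comp _ this
    have h2 : LinearIndependent ℂ (fun k => equivH0 h (g k)) :=
      h1.map' (equivH0 h).toLinearMap (LinearEquiv.ker _)
    exact ⟨fun k => (equivH0 h (g k)).1,
      h2.map' ((ofLB h).H0 (iJ A)).subtype (Submodule.ker_subtype _), fun k => (equivH0 h (g k)).2⟩

theorem hasN_pow_iff (h : HM L) (m N : ℕ) : ((ofLB h).pow m).HasN (iJ A) N ↔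
    ∃ f : Fin N → (A.ι → X → ℂ), LinearIndependent ℂ f ∧ ∀ k, IsHS (L ^ m) univ (f k) := by
  rw [ofLB_pow]
  exact hasN_iff (pow h m) N

/-! ### products and lengths -/

theorem IsSS.mul {s t : A.ι → X → ℂ} (hs : IsSS L s) (ht : IsSS L' t) : IsSS (L * L') (s * t) where
  sm i := (hs.sm i).mul (ht.sm i)
  off i x hx := by rw [Pi.mul_apply, Pi.mul_apply, hs.off i x hx, zero_mul]
  tr i j x hx := by
    rw [Pi.mul_apply, Pi.mul_apply, Pi.mul_apply, Pi.mul_apply, hs.tr i j x hx, ht.tr i j x hx,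
      LB.mul_g]
    ring

theorem wt_mul (h : HM L) (h' : HM L') {i : A.ι} {z : Cn d} (hz : z ∈ (A.e i).target) :
    (mul h h').wt i z = h.wt i z + h'.wt i z := by
  show -Real.log (h.w i _ * h'.w i _) = -Real.log (h.w i _) + -Real.log (h'.w i _)
  rw [Real.log_mul (h.pos i _ ((A.e i).map_target hz)).ne' (h'.pos i _ ((A.e i).map_target hz)).ne']
  ring

theorem rho_mul (h : HM L) (h' : HM L') {i : A.ι} {z : Cn d} (hz : z ∈ (A.e i).target) :
    rho (mul h h') i z = rho h i z * rho h' i z := by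
  unfold rho
  rw [wt_mul h h' hz, ← Real.exp_add]
  congr 1
  ring

/-- products of sections -/
theorem toSec_mul_u (h : HM L) (h' : HM L') {s t : A.ι → X → ℂ} (hs : IsSS L s)
    (ht : IsSS L' t) : ((toSec h s hs).mul (toSec h' t ht)).u =
      (toSec (mul h h') (s * t) (hs.mul ht)).u := by
  funext i z
  by_cases hz : z ∈ (A.e i).target
  · have h1 := toSec_u h hs hz
    have h2 := toSec_u h' ht hz
    have h3 := toSec_u (mul h h') (hs.mul ht) hz
    refine Eq.trans ?_ h3.symm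
    refine (congrArg₂ (· * ·) h1 h2).trans ?_
    rw [rho_mul h h' hz]
    push_cast
    show _ = s i _ * t i _ * _
    ring
  · have h1 := ((toSec h s hs).mul (toSec h' t ht)).off i z hz
    have h2 := (toSec (mul h h') (s * t) (hs.mul ht)).off i z hz
    rw [h1, h2]

theorem toSec_norm (h : HM L) {s : A.ι → X → ℂ} (hs : IsSS L s) {i : A.ι} {z : Cn d}
    (hz : z ∈ (A.e i).target) :
    ‖(toSec h s hs).u i z‖ ^ 2 = nsq h s i ((A.e i).symm z) := by
  rw [toSec_u h hs hz, norm_mul, mul_pow, Complex.norm_real, Real.norm_eq_abs, sq_abs, rho_sq h hz]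
  rfl

theorem toSec_zero_iff (h : HM L) {s : A.ι → X → ℂ} (hs : IsSS L s) {i : A.ι} {z : Cn d}
    (hz : z ∈ (A.e i).target) :
    (toSec h s hs).u i z = 0 ↔ s i ((A.e i).symm z) = 0 := by
  rw [toSec_u h hs hz]
  exact ⟨fun h0 => (mul_eq_zero.1 h0).resolve_right (rho_neC h i z), fun h0 => by rw [h0, zero_mul]⟩

end

end Crest.Agent.R281.Dct_323
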