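import Crest.Agent.R273.FIb0_597
import Crest.Agent.R273.SteinL_794
import Crest.Agent.R272.PosCl1_732

/-!
# R281, S6-DEG (helper751), part 1: the curvature of `log (ε + ∑ |s_k|²_h)`

* `Qf h s`     : the function `∑ |s_k|²_h`; `sm_Qf`
* `dot_hess`   : `x* (hess u) x` is the Levi form
* `Sm' ...`    : `S ε = ∂∂̄ log (ε + Q) + Q/(ε+Q) Θ` is positive semidefinite, and bounded below by
                 the rank one matrix of the Wronskian of two sections
* `trM` calculus.
-/

set_option autoImplicit false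
set_option linter.unusedSectionVars false

open Set Filter Topology Complex MeasureTheory
open scoped ContDiff Matrix ComplexConjugate ComplexOrder

namespace Crest.Agent.R281.Deg_751

open Crest.Agent.R275 Crest.Agent.R275.Geo Crest.Agent.R275.Core144 Crest.Agent.R275.EDR890
open Crest.Agent.R275.Pai323 Crest.Agent.R275.SerG398 Crest.Agent.R275.C1d194
open Crest.Agent.R273.Defs_333 (HM HM.wt)
open Crest.Agent.R273.Hess_333 Crest.Agent.R273.HessB_333
open Crest.Agent.R273.HM_333 Crest.Agent.R273.Kah_333 Crest.Agent.R273.Vol_333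
open Crest.Agent.R273.Vm_333 Crest.Agent.R273.FIa0_597 Crest.Agent.R273.FIb0_597
open Crest.Agent.R272.PosCl1_732 (se cov c2_se se_nonneg se_pos lse_eq)

noncomputable section

variable {n : ℕ} {M : Type} [TopologicalSpace M] {A : Atl n M} {L : LB A}

/-- the squared length of a finite family of sections -/
def Qf {m : ℕ} (h : HM L) (s : Fin m → A.ι → M → ℂ) (x : M) : ℝ :=
  ∑ k, nsq h (s k) (ch A x) x

theorem Qf_eq {m : ℕ} (h : HM L) {s : Fin m → A.ι → M → ℂ} (hs : ∀ k, IsHS L univ (s k))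
    {i : A.ι} {x : M} (hx : x ∈ (A.e i).source) :
    Qf h s x = ∑ k, ‖s k i x‖ ^ 2 * h.w i x :=
  Finset.sum_congr rfl fun k _ => nsq_indep h (hs k) ⟨mem_ch A x, hx⟩ (mem_univ x)

theorem Qf_nonneg {m : ℕ} (h : HM L) (s : Fin m → A.ι → M → ℂ) (x : M) : 0 ≤ Qf h s x :=
  Finset.sum_nonneg fun k _ => mul_nonneg (by positivity) (h.pos _ x (mem_ch A x)).le

theorem anal_sec {s : A.ι → M → ℂ} (hs : IsHS L univ s) (i : A.ι) {z : Cn n}
    (hz : z ∈ (A.e i).target) : AnalyticAt ℂ (fun w => s i ((A.e i).symm w)) z := by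
  have hd : DifferentiableOn ℂ (fun w => s i ((A.e i).symm w)) (A.e i).target :=
    DifferentiableOn.mono (hs.hol i) fun w hw => ⟨hw, mem_univ _⟩
  exact Crest.Agent.R266.SCV.analyticOnNhd_of_differentiableOn (A.e i).open_target hd z hz

/-- the terms of the log-sum-exp: constant `√ε`, and the sections -/
def ft {m : ℕ} (ε : ℝ) (s : Fin m → A.ι → M → ℂ) (i : A.ι) : Option (Fin m) → Cn n → ℂ
  | none => fun _ => ((Real.sqrt ε : ℝ) : ℂ)
  | some k => fun w => s k i ((A.e i).symm w)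

/-- the weights of the log-sum-exp -/
def ut {m : ℕ} (h : HM L) (i : A.ι) : Option (Fin m) → Cn n → ℝ
  | none => fun _ => 0
  | some _ => fun w => - h.wt i w

theorem exp_ut {m : ℕ} (h : HM L) (i : A.ι) (k : Fin m) {z : Cn n} (hz : z ∈ (A.e i).target) :
    Real.exp (ut h i (some k) z) = h.w i ((A.e i).symm z) := by
  show Real.exp (- - Real.log _) = _
  rw [neg_neg, Real.exp_log (h.pos i _ ((A.e i).map_target hz))]

theorem se_ft {m : ℕ} (h : HM L) {s : Fin m → A.ι → M → ℂ} (hs : ∀ k, IsHS L univ (s k)) {ε : ℝ}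
    (hε : 0 < ε) (i : A.ι) {z : Cn n} (hz : z ∈ (A.e i).target) :
    se (ft ε s i) (ut h i) z = ε + Qf h s ((A.e i).symm z) := by
  unfold se
  rw [Fintype.sum_option, Qf_eq h hs ((A.e i).map_target hz)]
  congr 1
  · show ‖((Real.sqrt ε : ℝ) : ℂ)‖ ^ 2 * Real.exp 0 = ε
    rw [Real.exp_zero, mul_one, Complex.norm_real, Real.norm_of_nonneg (Real.sqrt_nonneg _),
      Real.sq_sqrt hε.le]
  · refine Finset.sum_congr rfl fun k _ => ?_
    rw [exp_ut h i k hz]
    rfl

theorem anal_ft {m : ℕ} {s : Fin m → A.ι → M → ℂ} (hs : ∀ k, IsHS L univ (s k)) (ε : ℝ) (i : A.ι)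
    {z : Cn n} (hz : z ∈ (A.e i).target) (a : Option (Fin m)) : AnalyticAt ℂ (ft ε s i a) z := by
  cases a with
  | none => exact analyticAt_const
  | some k => exact anal_sec (hs k) i hz

theorem sm_ut {m : ℕ} (h : HM L) (i : A.ι) {z : Cn n} (hz : z ∈ (A.e i).target)
    (a : Option (Fin m)) : ContDiffAt ℝ ∞ (ut h i a) z := by
  cases a with
  | none => exact contDiffAt_const
  | some k => exact (wt_contDiffAt h i hz).neg

/-- the function `log (ε + ∑ |s_k|²)` -/
def lg {m : ℕ} (h : HM L) (s : Fin m → A.ι → M → ℂ) (ε : ℝ) (x : M) : ℝ :=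
  Real.log (ε + Qf h s x)

theorem lg_ev {m : ℕ} (h : HM L) {s : Fin m → A.ι → M → ℂ} (hs : ∀ k, IsHS L univ (s k)) {ε : ℝ}
    (hε : 0 < ε) (i : A.ι) {z : Cn n} (hz : z ∈ (A.e i).target) :
    (fun w => lg h s ε ((A.e i).symm w)) =ᶠ[𝓝 z] fun w => Real.log (se (ft ε s i) (ut h i) w) := by
  filter_upwards [(A.e i).open_target.mem_nhds hz] with w hw
  rw [se_ft h hs hε i hw]
  rfl

theorem ft_ne {m : ℕ} (s : Fin m → A.ι → M → ℂ) {ε : ℝ} (hε : 0 < ε) (i : A.ι) (z : Cn n) :
    ∃ a, ft ε s i a z ≠ 0 :=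
  ⟨none, by
    show ((Real.sqrt ε : ℝ) : ℂ) ≠ 0
    have := Real.sqrt_pos.2 hε
    exact_mod_cast this.ne'⟩

theorem sm_lg {m : ℕ} (h : HM L) {s : Fin m → A.ι → M → ℂ} (hs : ∀ k, IsHS L univ (s k)) {ε : ℝ}
    (hε : 0 < ε) : A.Sm (lg h s ε) := by
  intro i z hz
  have h1 : ContDiffAt ℝ ∞ (fun w => Real.log (se (ft ε s i) (ut h i) w)) z :=
    (c2_se (anal_ft hs ε i hz) (sm_ut h i hz)).log (se_pos (ft_ne s hε i z)).ne'
  exact (h1.congr_of_eventuallyEq (lg_ev h hs hε i hz)).contDiffWithinAt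

theorem sm_Qf {m : ℕ} (h : HM L) {s : Fin m → A.ι → M → ℂ} (hs : ∀ k, IsHS L univ (s k)) :
    A.Sm (Qf h s) := by
  intro i z hz
  have h1 : ContDiffAt ℝ ∞ (fun w => se (ft 1 s i) (ut h i) w - 1) z :=
    (c2_se (anal_ft hs 1 i hz) (sm_ut h i hz)).sub contDiffAt_const
  refine (h1.congr_of_eventuallyEq ?_).contDiffWithinAt
  filter_upwards [(A.e i).open_target.mem_nhds hz] with w hw
  show Qf h s _ = _
  rw [se_ft h hs one_pos i hw]
  ring

/-! ### quadratic form of the Hessian -/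

theorem hq_lev {u : Cn n → ℝ} {z : Cn n} (hu : ContDiffAt ℝ ∞ u z) (v : Cn n) :
    hq u z v = ((Crest.Agent.R273.Levi_145.lev u z v : ℝ) : ℂ) := by
  rw [hq_real hu]
  congr 1
  unfold Crest.Agent.R273.Defs_333.lev Crest.Agent.R273.Levi_145.lev
  rw [iteratedFDeriv_two_apply, iteratedFDeriv_two_apply]
  simp

theorem dot_hess {u : Cn n → ℝ} {z : Cn n} (hu : ContDiffAt ℝ ∞ u z) (x : Fin n → ℂ) :
    star x ⬝ᵥ ((hess u z) *ᵥ x) =
      ((Crest.Agent.R273.Levi_145.lev u z (WithLp.toLp 2 (fun a => conj (x a))) : ℝ) : ℂ) := by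
  rw [hq_eq_dot, hq_lev hu]

/-- the Wronskian covector of the sections `k`, `l` -/
def Wr {m : ℕ} (s : Fin m → A.ι → M → ℂ) (i : A.ι) (z : Cn n) (k l : Fin m) (v : Cn n) : ℂ :=
  s k i ((A.e i).symm z) * fderiv ℂ (fun w => s l i ((A.e i).symm w)) z v -
    s l i ((A.e i).symm z) * fderiv ℂ (fun w => s k i ((A.e i).symm w)) z v

/-- **the Levi form** of `log (ε + Q)` plus `Q/(ε+Q)` times the weight -/
theorem lev_lg {m : ℕ} (h : HM L) {s : Fin m → A.ι → M → ℂ} (hs : ∀ k, IsHS L univ (s k)) {ε : ℝ}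
    (hε : 0 < ε) (hε1 : ε ≤ 1) (i : A.ι) {z : Cn n} (hz : z ∈ (A.e i).target) (v : Cn n)
    (k l : Fin m) :
    (h.w i ((A.e i).symm z)) ^ 2 * ‖Wr s i z k l v‖ ^ 2 / (2 * (1 + Qf h s ((A.e i).symm z)) ^ 2) ≤
      Crest.Agent.R273.Levi_145.lev (fun w => lg h s ε ((A.e i).symm w)) z v +
        Qf h s ((A.e i).symm z) / (ε + Qf h s ((A.e i).symm z)) *
          Crest.Agent.R273.Levi_145.lev (h.wt i) z v := by
  set Q := Qf h s ((A.e i).symm z) with hQ
  have hQ0 : 0 ≤ Q := Qf_nonneg h s _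
  have hx := (A.e i).map_target hz
  have hw := h.pos i _ hx
  set w := h.w i ((A.e i).symm z) with hwd
  have hu2 : ∀ a : Option (Fin m), ContDiffAt ℝ 2 (ut h i a) z := fun a =>
    (sm_ut h i hz a).of_le (WithTop.coe_le_coe.2 le_top)
  rw [Crest.Agent.R273.Levi_145.lev_congr (lg_ev h hs hε i hz),
    lse_eq (anal_ft hs ε i hz) hu2 (ft_ne s hε i z), se_ft h hs hε i hz]
  have e1 : (∑ a : Option (Fin m), Real.exp (ut h i a z) *
      (‖ft ε s i a z‖ ^ 2 * Crest.Agent.R273.Levi_145.lev (ut h i a) z v)) =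
      - (Q * Crest.Agent.R273.Levi_145.lev (h.wt i) z v) := by
    rw [Fintype.sum_option]
    have e2 : Crest.Agent.R273.Levi_145.lev (ut (m := m) h i none) z v = 0 :=
      Crest.Agent.R273.Levi_145.lev_const 0 v
    have e3 : ∀ k : Fin m, Crest.Agent.R273.Levi_145.lev (ut h i (some k)) z v =
        - Crest.Agent.R273.Levi_145.lev (h.wt i) z v := fun k =>
      Crest.Agent.R273.Levi_145.lev_neg ((wt_contDiffAt h i hz).of_le (WithTop.coe_le_coe.2 le_top)) v
    rw [e2, mul_zero, mul_zero, zero_add, hQ, Qf_eq h hs hx, Finset.sum_mul, ← Finset.sum_neg_distrib]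
    refine Finset.sum_congr rfl fun k _ => ?_
    rw [e3, exp_ut h i k hz]
    show w * (‖s k i ((A.e i).symm z)‖ ^ 2 * _) = _
    ring
  rw [e1]
  have e4 : -(Q * Crest.Agent.R273.Levi_145.lev (h.wt i) z v) / (ε + Q) +
      Q / (ε + Q) * Crest.Agent.R273.Levi_145.lev (h.wt i) z v = 0 := by
    rw [neg_div, mul_div_right_comm]
    ring
  rw [add_assoc, e4, add_zero]
  -- the pair term
  have e5 : w ^ 2 * ‖Wr s i z k l v‖ ^ 2 ≤
      ∑ a : Option (Fin m), ∑ b : Option (Fin m), Real.exp (ut h i a z) * Real.exp (ut h i b z) *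
        ‖ft ε s i a z * cov (ft ε s i) (ut h i) z v b -
          ft ε s i b z * cov (ft ε s i) (ut h i) z v a‖ ^ 2 := by
    have h1 : ∀ a : Option (Fin m), 0 ≤ ∑ b : Option (Fin m),
        Real.exp (ut h i a z) * Real.exp (ut h i b z) *
        ‖ft ε s i a z * cov (ft ε s i) (ut h i) z v b -
          ft ε s i b z * cov (ft ε s i) (ut h i) z v a‖ ^ 2 := fun a =>
      Finset.sum_nonneg fun b _ => by positivity
    refine le_trans ?_ (Finset.single_le_sum (fun a _ => h1 a) (Finset.mem_univ (some k)))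
    refine le_trans (le_of_eq ?_)
      (Finset.single_le_sum (fun b _ => by positivity) (Finset.mem_univ (some l)))
    rw [exp_ut h i k hz, exp_ut h i l hz]
    have : ft ε s i (some k) z * cov (ft ε s i) (ut h i) z v (some l) -
        ft ε s i (some l) z * cov (ft ε s i) (ut h i) z v (some k) = Wr s i z k l v := by
      show s k i ((A.e i).symm z) * (fderiv ℂ (fun w => s l i ((A.e i).symm w)) z v +
          s l i ((A.e i).symm z) * _) - s l i ((A.e i).symm z) *
            (fderiv ℂ (fun w => s k i ((A.e i).symm w)) z v + s k i ((A.e i).symm z) * _) = _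
      unfold Wr
      have e6 : Crest.Agent.R273.Levi_145.gr (ut (m := m) h i (some l)) z v =
          Crest.Agent.R273.Levi_145.gr (ut (m := m) h i (some k)) z v := rfl
      rw [e6]
      ring
    rw [this]
    ring
  refine le_trans ?_ (div_le_div_of_nonneg_right e5 (by positivity))
  refine div_le_div_of_nonneg_left (by positivity) (by positivity) ?_
  have : (ε + Q) ^ 2 ≤ (1 + Q) ^ 2 := by
    apply pow_le_pow_left₀ (by positivity)
    linarith
  linarith

end

end Crest.Agent.R281.Deg_751
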