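import Crest.Agent.R281.Deg1_751

/-!
# R281, S6-DEG (helper751), part 2: pointwise traces

* `Se h s ε i x = ∂∂̄ log (ε + Q) + Q/(ε+Q) Θ`, `Se_rank` : `≥ c W W*` (`W` the Wronskian covector)
* `TT K h s ε x = Lap log (ε + Q) + Q/(ε+Q) tr Θ`, `TT_nonneg`, `TT_ge`
* `exists_low` : if the Wronskian of two of the sections does not vanish at a point of `M`, there are a
                nonempty open `U` and `c > 0` with `c ≤ TT K h s ε x` for `x ∈ U`, `0 < ε ≤ 1`.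
-/

set_option autoImplicit false
set_option linter.unusedSectionVars false

open Set Filter Topology Complex MeasureTheory
open scoped ContDiff Matrix ComplexConjugate ComplexOrder

namespace Crest.Agent.R281.Deg_751

open Crest.Agent.R275 Crest.Agent.R275.Geo Crest.Agent.R275.Core144 Crest.Agent.R275.EDR890
open Crest.Agent.R275.Pai323 Crest.Agent.R275.SerG398 Crest.Agent.R275.C1d194
open Crest.Agent.R273.Defs_333 (HM HM.wt)
open Crest.Agent.R273.Hess_333 Crest.Agent.R273.HessB_333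
open Crest.Agent.R273.HM_333 Crest.Agent.R273.Kah_333 Crest.Agent.R273.Vol_333
open Crest.Agent.R273.Vm_333 Crest.Agent.R273.FIa0_597 Crest.Agent.R273.FIb0_597

noncomputable section

variable {n : ℕ} {M : Type} [TopologicalSpace M] {A : Atl n M} {L : LB A}

/-- `Q / (ε + Q)` -/
def ce {m : ℕ} (h : HM L) (s : Fin m → A.ι → M → ℂ) (ε : ℝ) (x : M) : ℝ :=
  Qf h s x / (ε + Qf h s x)

theorem ce_nonneg {m : ℕ} (h : HM L) (s : Fin m → A.ι → M → ℂ) {ε : ℝ} (hε : 0 < ε) (x : M) :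
    0 ≤ ce h s ε x := by
  have := Qf_nonneg h s x
  unfold ce
  positivity

theorem ce_le {m : ℕ} (h : HM L) (s : Fin m → A.ι → M → ℂ) {ε : ℝ} (hε : 0 < ε) (x : M) :
    ce h s ε x ≤ 1 := by
  have := Qf_nonneg h s x
  unfold ce
  rw [div_le_one (by positivity)]
  linarith

/-- `∂∂̄ log (ε + Q) + Q/(ε+Q) Θ` -/
def Se {m : ℕ} (h : HM L) (s : Fin m → A.ι → M → ℂ) (ε : ℝ) (i : A.ι) (x : M) :
    Matrix (Fin n) (Fin n) ℂ :=
  hsf A (lg h s ε) i x + ((ce h s ε x : ℝ) : ℂ) • cur h i x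

/-- the Wronskian covector in coordinates -/
def Wv {m : ℕ} (s : Fin m → A.ι → M → ℂ) (i : A.ι) (z : Cn n) (k l : Fin m) (a : Fin n) : ℂ :=
  Wr s i z k l (EuclideanSpace.single a 1)

theorem Wr_sum {m : ℕ} (s : Fin m → A.ι → M → ℂ) (i : A.ι) (z : Cn n) (k l : Fin m) (v : Cn n) :
    Wr s i z k l v = ∑ a, v a * Wv s i z k l a := by
  have hv : v = ∑ a, v a • (EuclideanSpace.single a 1 : Cn n) := by
    ext b
    simp [Pi.single_apply]
  unfold Wv Wr
  conv_lhs => rw [hv]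
  rw [map_sum, map_sum, Finset.mul_sum, Finset.mul_sum, ← Finset.sum_sub_distrib]
  refine Finset.sum_congr rfl fun a _ => ?_
  rw [map_smul, map_smul]
  simp only [smul_eq_mul]
  ring

/-- the constant of the lower bound -/
def cc0 {m : ℕ} (h : HM L) (s : Fin m → A.ι → M → ℂ) (i : A.ι) (x : M) : ℝ :=
  (h.w i x) ^ 2 / (2 * (1 + Qf h s x) ^ 2)

theorem cc0_nonneg {m : ℕ} (h : HM L) (s : Fin m → A.ι → M → ℂ) (i : A.ι) (x : M) :
    0 ≤ cc0 h s i x := by
  unfold cc0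
  positivity

theorem cc0_pos {m : ℕ} (h : HM L) (s : Fin m → A.ι → M → ℂ) {i : A.ι} {x : M}
    (hx : x ∈ (A.e i).source) : 0 < cc0 h s i x := by
  have := h.pos i x hx
  have := Qf_nonneg h s x
  unfold cc0
  positivity

/-- the rank one matrix -/
def R1 {m : ℕ} (h : HM L) (s : Fin m → A.ι → M → ℂ) (i : A.ι) (x : M) (k l : Fin m) :
    Matrix (Fin n) (Fin n) ℂ :=
  ((cc0 h s i x : ℝ) : ℂ) • Matrix.vecMulVec (Wv s i (A.e i x) k l) (star (Wv s i (A.e i x) k l))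

theorem dot_R1 {m : ℕ} (h : HM L) (s : Fin m → A.ι → M → ℂ) (i : A.ι) (x : M) (k l : Fin m)
    (y : Fin n → ℂ) :
    star y ⬝ᵥ ((R1 h s i x k l) *ᵥ y) =
      ((cc0 h s i x * ‖Wr s i (A.e i x) k l (WithLp.toLp 2 fun a => conj (y a))‖ ^ 2 : ℝ) : ℂ) := by
  have h1 : Wr s i (A.e i x) k l (WithLp.toLp 2 fun a => conj (y a)) =
      star y ⬝ᵥ Wv s i (A.e i x) k l := by
    rw [Wr_sum]
    rfl
  rw [h1]
  unfold R1
  rw [Matrix.smul_mulVec, dotProduct_smul, Matrix.vecMulVec_mulVec, smul_eq_mul]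
  set W := Wv s i (A.e i x) k l with hW
  have h2 : star W ⬝ᵥ y = conj (star y ⬝ᵥ W) := by
    simp only [dotProduct, map_sum, map_mul, Pi.star_apply, RCLike.star_def, Complex.conj_conj]
    exact Finset.sum_congr rfl fun a _ => mul_comm _ _
  have h3 : star y ⬝ᵥ (MulOpposite.op (star W ⬝ᵥ y) • W) = (star y ⬝ᵥ W) * (star W ⬝ᵥ y) := by
    rw [dotProduct_smul]
    simp
  rw [h3, h2, Complex.mul_conj, Complex.normSq_eq_norm_sq]
  push_cast
  ring

theorem R1_herm {m : ℕ} (h : HM L) (s : Fin m → A.ι → M → ℂ) (i : A.ι) (x : M) (k l : Fin m) :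
    (R1 h s i x k l).IsHermitian := by
  unfold R1 Matrix.IsHermitian
  rw [Matrix.conjTranspose_smul, Matrix.conjTranspose_vecMulVec]
  simp

theorem cast_hsf {f : M → ℝ} (hf : A.Sm f) {i : A.ι} {x : M} (hx : x ∈ (A.e i).source) :
    ContDiffAt ℝ ∞ (fun z => f ((A.e i).symm z)) (A.e i x) :=
  sm_contDiffAt hf i ((A.e i).map_source hx)

theorem Se_herm {m : ℕ} (h : HM L) {s : Fin m → A.ι → M → ℂ} (hs : ∀ k, IsHS L univ (s k)) {ε : ℝ}
    (hε : 0 < ε) {i : A.ι} {x : M} (hx : x ∈ (A.e i).source) : (Se h s ε i x).IsHermitian := by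
  have h1 : (hsf A (lg h s ε) i x).IsHermitian := hess_herm (cast_hsf (sm_lg h hs hε) hx)
  have h2 : (((ce h s ε x : ℝ) : ℂ) • cur h i x).IsHermitian := by
    unfold Matrix.IsHermitian
    rw [Matrix.conjTranspose_smul, (cur_herm h i hx).eq]
    simp
  exact h1.add h2

/-- **lower bound of the curvature by the Wronskian** -/
theorem Se_sub {m : ℕ} (h : HM L) {s : Fin m → A.ι → M → ℂ} (hs : ∀ k, IsHS L univ (s k)) {ε : ℝ}
    (hε : 0 < ε) (hε1 : ε ≤ 1) {i : A.ι} {x : M} (hx : x ∈ (A.e i).source) (k l : Fin m) :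
    (Se h s ε i x - R1 h s i x k l).PosSemidef := by
  refine Matrix.PosSemidef.of_dotProduct_mulVec_nonneg
    ((Se_herm h hs hε hx).sub (R1_herm h s i x k l)) fun y => ?_
  have hz := (A.e i).map_source hx
  have key := lev_lg h hs hε hε1 i hz (WithLp.toLp 2 fun a => conj (y a)) k l
  rw [(A.e i).left_inv hx] at key
  rw [Matrix.sub_mulVec, dotProduct_sub, dot_R1]
  unfold Se
  rw [Matrix.add_mulVec, dotProduct_add, Matrix.smul_mulVec, dotProduct_smul]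
  have e1 : star y ⬝ᵥ ((hsf A (lg h s ε) i x) *ᵥ y) = _ := dot_hess (cast_hsf (sm_lg h hs hε) hx) y
  have e2 : star y ⬝ᵥ ((cur h i x) *ᵥ y) = _ := dot_hess (wt_contDiffAt h i hz) y
  rw [e1, e2, smul_eq_mul]
  have e3 : (0 : ℝ) ≤ (Crest.Agent.R273.Levi_145.lev (fun w => lg h s ε ((A.e i).symm w)) (A.e i x)
        (WithLp.toLp 2 fun a => conj (y a)) + ce h s ε x *
          Crest.Agent.R273.Levi_145.lev (h.wt i) (A.e i x) (WithLp.toLp 2 fun a => conj (y a))) -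
        cc0 h s i x * ‖Wr s i (A.e i x) k l (WithLp.toLp 2 fun a => conj (y a))‖ ^ 2 := by
    have : cc0 h s i x * ‖Wr s i (A.e i x) k l (WithLp.toLp 2 fun a => conj (y a))‖ ^ 2 =
        (h.w i x) ^ 2 * ‖Wr s i (A.e i x) k l (WithLp.toLp 2 fun a => conj (y a))‖ ^ 2 /
          (2 * (1 + Qf h s x) ^ 2) := by
      unfold cc0; ring
    rw [this]
    unfold ce
    linarith
  have e4 : (0 : ℂ) ≤ (((Crest.Agent.R273.Levi_145.lev (fun w => lg h s ε ((A.e i).symm w)) (A.e i x)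
        (WithLp.toLp 2 fun a => conj (y a)) + ce h s ε x *
          Crest.Agent.R273.Levi_145.lev (h.wt i) (A.e i x) (WithLp.toLp 2 fun a => conj (y a))) -
        cc0 h s i x * ‖Wr s i (A.e i x) k l (WithLp.toLp 2 fun a => conj (y a))‖ ^ 2 : ℝ) : ℂ) :=
    Complex.zero_le_real.2 e3
  push_cast at e4 ⊢
  exact e4

theorem Wr_self {m : ℕ} (s : Fin m → A.ι → M → ℂ) (i : A.ι) (z : Cn n) (k : Fin m) (v : Cn n) :
    Wr s i z k k v = 0 := by
  unfold Wr; ring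

theorem Se_psd {m : ℕ} (h : HM L) {s : Fin m → A.ι → M → ℂ} (hs : ∀ k, IsHS L univ (s k)) {ε : ℝ}
    (hε : 0 < ε) (hε1 : ε ≤ 1) {i : A.ι} {x : M} (hx : x ∈ (A.e i).source) (k : Fin m) :
    (Se h s ε i x).PosSemidef := by
  have h1 := Se_sub h hs hε hε1 hx k k
  have h2 : R1 h s i x k k = 0 := by
    have : Wv s i (A.e i x) k k = 0 := by
      funext a
      exact Wr_self s i _ k _
    unfold R1
    rw [this]
    simp [Matrix.vecMulVec_zero]
  rwa [h2, sub_zero] at h1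

/-! ### traces -/

/-- `Lap log (ε + Q) + Q/(ε+Q) tr Θ` -/
def TT {m : ℕ} (K : Kah A) (h : HM L) (s : Fin m → A.ι → M → ℂ) (ε : ℝ) (x : M) : ℝ :=
  Lap K (lg h s ε) x + ce h s ε x * trM K (cur h) x

theorem TT_eq {m : ℕ} (K : Kah A) (h : HM L) {s : Fin m → A.ι → M → ℂ}
    (hs : ∀ k, IsHS L univ (s k)) {ε : ℝ} (hε : 0 < ε) {i : A.ι} {x : M}
    (hx : x ∈ (A.e i).source) : TT K h s ε x = (((K.g i x)⁻¹ * Se h s ε i x).trace).re := by
  have h1 : Lap K (lg h s ε) x = (trC K (hsf A (lg h s ε)) i x).re :=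
    trM_eq K (tf_hsf (sm_lg h hs hε)) hx
  have h2 : trM K (cur h) x = (trC K (cur h) i x).re := trM_eq K (tf_cur h) hx
  unfold TT Se
  rw [h1, h2, Matrix.mul_add, Matrix.trace_add, Matrix.mul_smul, Matrix.trace_smul, smul_eq_mul,
    Complex.add_re, Complex.re_ofReal_mul]
  rfl

theorem TT_nonneg {m : ℕ} (K : Kah A) (h : HM L) {s : Fin m → A.ι → M → ℂ}
    (hs : ∀ k, IsHS L univ (s k)) {ε : ℝ} (hε : 0 < ε) (hε1 : ε ≤ 1) (k : Fin m) (x : M) :
    0 ≤ TT K h s ε x := by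
  rw [TT_eq K h hs hε (mem_ch A x)]
  exact tr_re_nonneg (K.pos _ x (mem_ch A x)) (Se_psd h hs hε hε1 (mem_ch A x) k)

/-- the lower bound in the chart `i` -/
def lowb {m : ℕ} (K : Kah A) (h : HM L) (s : Fin m → A.ι → M → ℂ) (k l : Fin m) (i : A.ι) (x : M) :
    ℝ :=
  (((K.g i x)⁻¹ * R1 h s i x k l).trace).re

theorem TT_ge {m : ℕ} (K : Kah A) (h : HM L) {s : Fin m → A.ι → M → ℂ}
    (hs : ∀ k, IsHS L univ (s k)) {ε : ℝ} (hε : 0 < ε) (hε1 : ε ≤ 1) (k l : Fin m) {i : A.ι} {x : M}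
    (hx : x ∈ (A.e i).source) : lowb K h s k l i x ≤ TT K h s ε x := by
  rw [TT_eq K h hs hε hx]
  have h1 := tr_re_nonneg (K.pos _ x hx) (Se_sub h hs hε hε1 hx k l)
  rw [Matrix.mul_sub, Matrix.trace_sub, Complex.sub_re] at h1
  unfold lowb
  linarith

theorem lowb_eq {m : ℕ} (K : Kah A) (h : HM L) (s : Fin m → A.ι → M → ℂ) (k l : Fin m) (i : A.ι)
    (x : M) : lowb K h s k l i x = cc0 h s i x *
      (∑ a, ∑ b, (K.g i x)⁻¹ a b * (Wv s i (A.e i x) k l b * conj (Wv s i (A.e i x) k l a))).re := by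
  unfold lowb R1
  rw [Matrix.mul_smul, Matrix.trace_smul, smul_eq_mul, Complex.re_ofReal_mul]
  congr 2

theorem lowb_pos {m : ℕ} (K : Kah A) (h : HM L) (s : Fin m → A.ι → M → ℂ) {k l : Fin m} {i : A.ι}
    {x : M} (hx : x ∈ (A.e i).source) (hW : Wv s i (A.e i x) k l ≠ 0) :
    0 < lowb K h s k l i x := by
  rw [lowb_eq]
  refine mul_pos (cc0_pos h s hx) ?_
  set W := Wv s i (A.e i x) k l with hWd
  have h1 := (K.pos i x hx).inv
  have h2 := h1.dotProduct_mulVec_pos hW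
  have h3 : star W ⬝ᵥ ((K.g i x)⁻¹ *ᵥ W) =
      ∑ a, ∑ b, (K.g i x)⁻¹ a b * (W b * conj (W a)) := by
    simp only [dotProduct, Matrix.mulVec, Pi.star_apply, RCLike.star_def, Finset.mul_sum]
    exact Finset.sum_congr rfl fun a _ => Finset.sum_congr rfl fun b _ => by ring
  rw [h3] at h2
  exact (Complex.lt_def.1 h2).1

end

end Crest.Agent.R281.Deg_751
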