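import Crest.Agent.R281.Deg2_751

/-!
# R281, S6-DEG (helper751), part 3: the degree of a line bundle with respect to a Kaehler form

`deg P K h = ∫ tr (adj g · cur h)` (`= ∫ tr_K Θ dvol_K`, `deg_eq`), `h : HM L`:
* `deg_indep`     : independent of the metric
* `deg_mul`, `deg_pow`, `deg_inv`
* `deg_nonneg`    : `L` has a nonzero section
* `deg_pos`       : `L` has two non-proportional sections (`deg_pos_of_wr` : nonzero Wronskian)
* `deg_nef`       : `L` nef ==> `0 ≤ deg`
* `deg_curv_pos`  : positive curvature ==> `0 < deg`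
-/

set_option autoImplicit false
set_option linter.unusedSectionVars false
set_option linter.style.haveILetI false

open Set Filter Topology Complex MeasureTheory
open scoped ContDiff Matrix ComplexConjugate ComplexOrder

namespace Crest.Agent.R281.Deg_751

open Crest.Agent.R275 Crest.Agent.R275.Geo Crest.Agent.R275.Core144 Crest.Agent.R275.EDR890
open Crest.Agent.R275.Pai323 Crest.Agent.R275.SerG398 Crest.Agent.R275.C1d194
open Crest.Agent.R273.Defs_333 (HM HM.wt HM.Pos)
open Crest.Agent.R273.Hess_333 Crest.Agent.R273.HessB_333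
open Crest.Agent.R273.HM_333 Crest.Agent.R273.Kah_333 Crest.Agent.R273.Vol_333
open Crest.Agent.R273.Vm_333 Crest.Agent.R273.FIa0_597 Crest.Agent.R273.FIb0_597
open Crest.Agent.R273.StV_37 (totc)
open Crest.Agent.R273.StokesV_332 (intD intD_congr intD_add intD_smul offK_univ)
open Crest.Agent.R273.SteinC_794 Crest.Agent.R273.SteinD_794 Crest.Agent.R273.SteinL_794

noncomputable section

variable {n : ℕ} {M : Type} [TopologicalSpace M] {A : Atl n M} {L L' : LB A}

/-! ### the open set where the lower bound is effective -/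

theorem cont_Wv {m : ℕ} {s : Fin m → A.ι → M → ℂ} (hs : ∀ k, IsHS L univ (s k)) (i : A.ι)
    (k l : Fin m) (a : Fin n) : ContinuousOn (fun z => Wv s i z k l a) (A.e i).target := by
  intro z hz
  have h1 := anal_sec (hs k) i hz
  have h2 := anal_sec (hs l) i hz
  unfold Wv Wr
  exact ((h1.continuousAt.mul (h2.fderiv.continuousAt.clm_apply continuousAt_const)).sub
    (h2.continuousAt.mul (h1.fderiv.continuousAt.clm_apply continuousAt_const))).continuousWithinAt

theorem cont_lowb {m : ℕ} (K : Kah A) (h : HM L) {s : Fin m → A.ι → M → ℂ}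
    (hs : ∀ k, IsHS L univ (s k)) (k l : Fin m) (i : A.ι) :
    ContinuousOn (fun z => lowb K h s k l i ((A.e i).symm z)) (A.e i).target := by
  have h1 : ContinuousOn (fun z => cc0 h s i ((A.e i).symm z) *
      (∑ a, ∑ b, (K.g i ((A.e i).symm z))⁻¹ a b *
        (Wv s i z k l b * conj (Wv s i z k l a))).re) (A.e i).target := by
    refine ContinuousOn.mul ?_ (Complex.continuous_re.comp_continuousOn ?_)
    · have hw : ContinuousOn (fun z => h.w i ((A.e i).symm z)) (A.e i).target :=
        (h.sm i).continuousOn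
      have hq : ContinuousOn (fun z => Qf h s ((A.e i).symm z)) (A.e i).target :=
        (sm_Qf h hs i).continuousOn
      refine (hw.pow 2).div (continuousOn_const.mul ((continuousOn_const.add hq).pow 2))
        fun z _ => ?_
      have := Qf_nonneg h s ((A.e i).symm z)
      positivity
    · refine continuousOn_finsetSum _ fun a _ => continuousOn_finsetSum _ fun b _ => ?_
      exact ((smAt_inv K i a b).continuousOn).mul ((cont_Wv hs i k l b).mul
        (Complex.continuous_conj.comp_continuousOn (cont_Wv hs i k l a)))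
  refine h1.congr fun z hz => ?_
  simp only [lowb_eq]
  rw [(A.e i).right_inv hz]

theorem exists_low {m : ℕ} (K : Kah A) (h : HM L) {s : Fin m → A.ι → M → ℂ}
    (hs : ∀ k, IsHS L univ (s k)) {k l : Fin m} {i : A.ι} {z : Cn n} (hz : z ∈ (A.e i).target)
    (hW : Wv s i z k l ≠ 0) :
    ∃ U : Set M, IsOpen U ∧ U.Nonempty ∧ ∃ c : ℝ, 0 < c ∧
      ∀ ε : ℝ, 0 < ε → ε ≤ 1 → ∀ x ∈ U, c ≤ TT K h s ε x := by
  have hx := (A.e i).map_target hz
  have hp : 0 < lowb K h s k l i ((A.e i).symm z) :=
    lowb_pos K h s hx (by rwa [(A.e i).right_inv hz])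
  set c := lowb K h s k l i ((A.e i).symm z) / 2 with hc
  have hV : IsOpen ((A.e i).target ∩ (fun z => lowb K h s k l i ((A.e i).symm z)) ⁻¹' Ioi c) :=
    (cont_lowb K h hs k l i).isOpen_inter_preimage (A.e i).open_target isOpen_Ioi
  refine ⟨_, (A.e i).isOpen_inter_preimage hV, ⟨(A.e i).symm z, hx, ?_⟩, c, by positivity,
    fun ε hε hε1 x hxU => ?_⟩
  · rw [mem_preimage, (A.e i).right_inv hz]
    refine ⟨hz, ?_⟩
    show c < lowb K h s k l i ((A.e i).symm z)
    rw [hc]
    linarith
  · have h2 : c < lowb K h s k l i ((A.e i).symm (A.e i x)) := hxU.2.2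
    rw [(A.e i).left_inv hxU.1] at h2
    exact h2.le.trans (TT_ge K h hs hε hε1 k l hxU.1)

/-! ### the degree -/

/-- the degree of `L` with respect to `K`, computed with the metric `h` -/
def deg (P : Part A) (K : Kah A) (h : HM L) : ℝ :=
  (intD P fun i x => ((K.g i x).adjugate * cur h i x).trace).re

section mass

variable [T2Space M] [CompactSpace M] [Fintype A.ι] [MeasurableSpace M] [BorelSpace M]

theorem integrable_trM (K : Kah A) {S : A.ι → M → Matrix (Fin n) (Fin n) ℂ} (hS : TF A S)
    (h : HM (KB A)⁻¹) : Integrable (trM K S) (vm h) := by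
  have := isFinite_vm h
  obtain ⟨C, hC⟩ := isCompact_univ.exists_bound_of_continuousOn (cont_trM K hS).continuousOn
  exact Integrable.of_bound (cont_trM K hS).measurable.aestronglyMeasurable C
    (Eventually.of_forall fun x => hC x (mem_univ x))

theorem deg_eq (P : Part A) (K : Kah A) (h : HM L) :
    deg P K h = ∫ x, trM K (cur h) x ∂(vm (volK K)) := by
  have hT := tf_cur (A := A) h
  have hGc : Continuous (fun x => trC K (cur h) (ch A x) x) := sm_continuous (smC_trC K hT)
  have h1 : ∫ x, trC K (cur h) (ch A x) x ∂(vm (volK K)) =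
      totc P (fun i x => ((K.g i x).adjugate * cur h i x).trace) := by
    refine int_eq_totc P (volK K) hGc fun i x hx => ?_
    rw [trC_indep K hT ⟨mem_ch A x, hx⟩, volK_w K i hx, trC_det K _ hx]
  have h2 : Integrable (fun x => trC K (cur h) (ch A x) x) (vm (volK K)) := by
    have := isFinite_vm (volK K)
    obtain ⟨C, hC⟩ := isCompact_univ.exists_bound_of_continuousOn hGc.continuousOn
    exact Integrable.of_bound hGc.measurable.aestronglyMeasurable C
      (Eventually.of_forall fun x => hC x (mem_univ x))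
  have h3 : ∫ x, trM K (cur h) x ∂(vm (volK K)) =
      (∫ x, trC K (cur h) (ch A x) x ∂(vm (volK K))).re := integral_re h2
  rw [h3, h1, totc_eq_sum]
  unfold deg
  rw [intD, finsum_eq_sum_of_fintype]

theorem int_Lap0 (P : Part A) (K : Kah A) {f : M → ℝ} (hf : A.Sm f) :
    ∫ x, Lap K f x ∂(vm (volK K)) = 0 :=
  int_Lap P K (volK K) (c := 0) (fun i x _ => by simp) hf

theorem measurable_ce {m : ℕ} (h : HM L) {s : Fin m → A.ι → M → ℂ} (hs : ∀ k, IsHS L univ (s k))
    {ε : ℝ} (hε : 0 < ε) : Continuous (ce h s ε) := by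
  have hq : Continuous (Qf h s) := sm_continuous (sm_Qf h hs)
  refine hq.div (continuous_const.add hq) fun x => ?_
  have := Qf_nonneg h s x
  positivity

theorem int_TT (P : Part A) (K : Kah A) (h : HM L) {m : ℕ} {s : Fin m → A.ι → M → ℂ}
    (hs : ∀ k, IsHS L univ (s k)) {ε : ℝ} (hε : 0 < ε) :
    Integrable (TT K h s ε) (vm (volK K)) ∧
    ∫ x, TT K h s ε x ∂(vm (volK K)) = ∫ x, ce h s ε x * trM K (cur h) x ∂(vm (volK K)) := by
  have := isFinite_vm (volK K)
  have i1 : Integrable (Lap K (lg h s ε)) (vm (volK K)) :=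
    integrable_trM K (tf_hsf (sm_lg h hs hε)) _
  have i2 : Integrable (fun x => ce h s ε x * trM K (cur h) x) (vm (volK K)) := by
    have hc : Continuous fun x => ce h s ε x * trM K (cur h) x :=
      (measurable_ce h hs hε).mul (cont_trM K (tf_cur h))
    obtain ⟨C, hC⟩ := isCompact_univ.exists_bound_of_continuousOn hc.continuousOn
    exact Integrable.of_bound hc.measurable.aestronglyMeasurable C
      (Eventually.of_forall fun x => hC x (mem_univ x))
  refine ⟨i1.add i2, ?_⟩
  unfold TT
  rw [integral_add i1 i2, int_Lap0 P K (sm_lg h hs hε), zero_add]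

/-- the limit `ε → 0` -/
theorem tendsto_ce [ConnectedSpace M] (P : Part A) (K : Kah A) (h : HM L) {m : ℕ}
    {s : Fin m → A.ι → M → ℂ} (hs : ∀ k, IsHS L univ (s k)) {k : Fin m}
    (h0 : ∃ i, ∃ x ∈ (A.e i).source, s k i x ≠ 0) :
    Tendsto (fun j : ℕ => ∫ x, ce h s (1 / ((j : ℝ) + 1)) x * trM K (cur h) x ∂(vm (volK K)))
      atTop (𝓝 (deg P K h)) := by
  have := isFinite_vm (volK K)
  rw [deg_eq P K h]
  have hc := cont_trM K (tf_cur (A := A) h)
  obtain ⟨C, hC⟩ := isCompact_univ.exists_bound_of_continuousOn hc.continuousOn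
  have hε : ∀ j : ℕ, (0 : ℝ) < 1 / ((j : ℝ) + 1) := fun j => by positivity
  refine tendsto_integral_of_dominated_convergence (fun _ => C) (fun j => ?_)
    (integrable_const _) (fun j => ?_) ?_
  · exact ((measurable_ce h hs (hε j)).mul hc).measurable.aestronglyMeasurable
  · refine Eventually.of_forall fun x => ?_
    rw [norm_mul, Real.norm_of_nonneg (ce_nonneg h s (hε j) x)]
    have h1 := hC x (mem_univ x)
    have h2 := ce_le h s (hε j) x
    have h3 := ce_nonneg h s (hε j) x
    calc ce h s (1 / ((j : ℝ) + 1)) x * ‖trM K (cur h) x‖ ≤ 1 * ‖trM K (cur h) x‖ :=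
          mul_le_mul_of_nonneg_right h2 (norm_nonneg _)
      _ ≤ C := by rw [one_mul]; exact h1
  · have hnull := null_nz (volK K) (hs k) h0
    have hae : ∀ᵐ x ∂(vm (volK K)), x ∈ nz (s k) := by
      rw [ae_iff]
      exact hnull
    filter_upwards [hae] with x hx
    have hq : 0 < Qf h s x := by
      have h1 : 0 < nsq h (s k) (ch A x) x := by
        have h2 : s k (ch A x) x ≠ 0 := (mem_nz (hs k) (mem_ch A x)).1 hx
        have h3 := h.pos _ x (mem_ch A x)
        unfold nsq
        positivity
      exact h1.trans_le (Finset.single_le_sum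
        (f := fun k => nsq h (s k) (ch A x) x)
        (fun l _ => mul_nonneg (by positivity) (h.pos _ x (mem_ch A x)).le) (Finset.mem_univ k))
    have h1 : Tendsto (fun j : ℕ => ce h s (1 / ((j : ℝ) + 1)) x) atTop (𝓝 1) := by
      unfold ce
      have h2 : Tendsto (fun j : ℕ => (1 : ℝ) / ((j : ℝ) + 1)) atTop (𝓝 0) :=
        tendsto_one_div_add_atTop_nhds_zero_nat
      have h3 := (tendsto_const_nhds (x := Qf h s x)).div (h2.add_const (Qf h s x))
        (by rw [zero_add]; exact hq.ne')
      rw [zero_add, div_self hq.ne'] at h3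
      exact h3
    have h4 := h1.mul_const (trM K (cur h) x)
    rwa [one_mul] at h4

end mass

section main

variable [T2Space M] [CompactSpace M] [Finite A.ι]

/-- **the degree does not depend on the metric** -/
theorem deg_indep (P : Part A) (K : Kah A) (h h' : HM L) : deg P K h = deg P K h' := by
  classical
  letI : Fintype A.ι := Fintype.ofFinite A.ι
  letI : MeasurableSpace M := borel M
  haveI : BorelSpace M := ⟨rfl⟩
  set f : M → ℝ := fun x => h'.wt (ch A x) (A.e (ch A x) x) - h.wt (ch A x) (A.e (ch A x) x) with hf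
  have hfi : ∀ i, ∀ z ∈ (A.e i).target, f ((A.e i).symm z) = h'.wt i z - h.wt i z := by
    intro i z hz
    set x := (A.e i).symm z with hx
    have hxi : x ∈ (A.e i).source := (A.e i).map_target hz
    have hz' : z ∈ A.ov i (ch A x) := ⟨hz, mem_ch A x⟩
    have h1 := wt_tr h hz'
    have h2 := wt_tr h' hz'
    rw [hf]
    simp only
    rw [← hx] at h1 h2
    rw [h1, h2]
    ring
  have hsm : A.Sm f := by
    intro i
    exact ((wt_smooth h' i).sub (wt_smooth h i)).congr fun z hz => hfi i z hz
  have hcur : ∀ i, ∀ x ∈ (A.e i).source, cur h' i x = cur h i x + hsf A f i x := by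
    intro i x hx
    have hz := (A.e i).map_source hx
    unfold cur hsf
    rw [← hess_add (wt_contDiffAt h i hz) (sm_contDiffAt hsm i hz)]
    refine hess_congr ?_
    filter_upwards [(A.e i).open_target.mem_nhds hz] with w hw
    rw [hfi i w hw]
    ring
  have e1 : ∀ x, trM K (cur h') x = trM K (cur h) x + Lap K f x := by
    intro x
    unfold Lap trM
    have : trC K (cur h') (ch A x) x = trC K (cur h) (ch A x) x + trC K (hsf A f) (ch A x) x := by
      unfold trC
      rw [hcur _ _ (mem_ch A x), Matrix.mul_add, Matrix.trace_add]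
    rw [this, Complex.add_re]
  rw [deg_eq P K h, deg_eq P K h']
  simp only [e1]
  have i2 : Integrable (Lap K f) (vm (volK K)) := integrable_trM K (tf_hsf hsm) _
  rw [integral_add (integrable_trM K (tf_cur h) _) i2, int_Lap0 P K hsm, add_zero]

/-- a nonzero section ==> degree `≥ 0` -/
theorem deg_nonneg [ConnectedSpace M] (P : Part A) (K : Kah A) (h : HM L) {s : A.ι → M → ℂ}
    (hs : IsHS L univ s) (h0 : ∃ i, ∃ x ∈ (A.e i).source, s i x ≠ 0) : 0 ≤ deg P K h := by
  classical
  letI : Fintype A.ι := Fintype.ofFinite A.ι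
  letI : MeasurableSpace M := borel M
  haveI : BorelSpace M := ⟨rfl⟩
  have hs' : ∀ k : Fin 1, IsHS L univ ((fun _ => s) k : A.ι → M → ℂ) := fun _ => hs
  refine ge_of_tendsto (tendsto_ce P K h hs' (k := 0) h0) (Eventually.of_forall fun j => ?_)
  have hε : (0 : ℝ) < 1 / ((j : ℝ) + 1) := by positivity
  have hε1 : 1 / ((j : ℝ) + 1) ≤ 1 := by
    rw [div_le_one (by positivity)]
    have : (0 : ℝ) ≤ j := Nat.cast_nonneg j
    linarith
  rw [← (int_TT P K h hs' hε).2]
  exact integral_nonneg fun x => TT_nonneg K h hs' hε hε1 0 x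

/-- two sections with a nonzero Wronskian ==> degree `> 0` -/
theorem deg_pos_of_wr [ConnectedSpace M] (P : Part A) (K : Kah A) (h : HM L)
    {s : Fin 2 → A.ι → M → ℂ} (hs : ∀ k, IsHS L univ (s k)) {i : A.ι} {z : Cn n}
    (hz : z ∈ (A.e i).target) {v : Cn n} (hW : Wr s i z 0 1 v ≠ 0) : 0 < deg P K h := by
  classical
  letI : Fintype A.ι := Fintype.ofFinite A.ι
  letI : MeasurableSpace M := borel M
  haveI : BorelSpace M := ⟨rfl⟩
  have hfin := isFinite_vm (volK K)
  have hop := isOpenPos_vm (volK K)
  have hW' : Wv s i z 0 1 ≠ 0 := by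
    intro h1
    apply hW
    rw [Wr_sum, h1]
    simp
  obtain ⟨U, hU, hUn, c, hc, hlow⟩ := exists_low K h hs hz hW'
  have hx := (A.e i).map_target hz
  -- one of the two sections is nonzero
  obtain ⟨k, hk⟩ : ∃ k : Fin 2, ∃ i, ∃ x ∈ (A.e i).source, s k i x ≠ 0 := by
    by_contra hcon
    push Not at hcon
    apply hW
    unfold Wr
    rw [hcon 0 i _ hx, hcon 1 i _ hx]
    ring
  have hmU : 0 < (vm (volK K)).real U :=
    ENNReal.toReal_pos (hU.measure_pos _ hUn).ne' (measure_ne_top _ _)
  have key : c * (vm (volK K)).real U ≤ deg P K h := by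
    refine ge_of_tendsto (tendsto_ce P K h hs hk) (Eventually.of_forall fun j => ?_)
    have hε : (0 : ℝ) < 1 / ((j : ℝ) + 1) := by positivity
    have hε1 : 1 / ((j : ℝ) + 1) ≤ 1 := by
      rw [div_le_one (by positivity)]
      have : (0 : ℝ) ≤ j := Nat.cast_nonneg j
      linarith
    rw [← (int_TT P K h hs hε).2]
    have h1 : ∫ x, U.indicator (fun _ => c) x ∂(vm (volK K)) = c * (vm (volK K)).real U := by
      rw [integral_indicator_const _ hU.measurableSet, smul_eq_mul, mul_comm]
    rw [← h1]
    refine integral_mono ((integrable_const c).indicator hU.measurableSet) (int_TT P K h hs hε).1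
      fun x => ?_
    by_cases hxU : x ∈ U
    · simp only [indicator_of_mem hxU]
      exact hlow _ hε hε1 x hxU
    · simp only [indicator_of_notMem hxU]
      exact TT_nonneg K h hs hε hε1 0 x
  exact lt_of_lt_of_le (by positivity) key

end main

end

end Crest.Agent.R281.Deg_751
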