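import Crest.Agent.R281.Deg3_751
import Crest.Agent.R281.Defs_273

/-!
# R281, S6-DEG (helper751), part 4: consequences

* `exists_wr`    : two non-proportional sections have a nonzero Wronskian somewhere
* `deg_pos`      : two non-proportional sections ==> `0 < deg`
* `deg_mul`, `deg_pow`, `deg_inv`, `deg_one`
* `deg_nef`      : `NefW K L` ==> `0 ≤ deg`
* `deg_curv_pos` : `h.Pos`, `0 < n` ==> `0 < deg`
* `deg_zero_of_triv` : a nowhere vanishing section ==> `deg = 0`
* `Deg P K L`    : the degree of `L` (any metric)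
-/

set_option autoImplicit false
set_option linter.unusedSectionVars false
set_option linter.style.haveILetI false

open Set Filter Topology Complex MeasureTheory
open scoped ContDiff Matrix ComplexConjugate ComplexOrder

namespace Crest.Agent.R281.Deg_751

open Crest.Agent.R275 Crest.Agent.R275.Geo Crest.Agent.R275.Core144 Crest.Agent.R275.EDR890
open Crest.Agent.R275.Pai323 Crest.Agent.R275.SerG398 Crest.Agent.R275.C1d194
open Crest.Agent.R273.Defs_333 (HM HM.wt HM.Pos)
open Crest.Agent.R273.Hess_333 Crest.Agent.R273.HessB_333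
open Crest.Agent.R273.HM_333 Crest.Agent.R273.Kah_333 Crest.Agent.R273.Vol_333
open Crest.Agent.R273.Vm_333 Crest.Agent.R273.FIa0_597 Crest.Agent.R273.FIb0_597
open Crest.Agent.R273.StokesV_332 (intD intD_congr intD_add intD_smul offK_univ)
open Crest.Agent.R273.SteinC_794 Crest.Agent.R273.SteinD_794 Crest.Agent.R273.SteinL_794
open Crest.Agent.R281.Defs_273 (NefW)
open Crest.Agent.R273.Green_5 (smAt_adj kah_cf)
open Crest.Agent.R273.VolInv_5

noncomputable section

variable {n : ℕ} {M : Type} [TopologicalSpace M] {A : Atl n M} {L L' : LB A}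

/-- two non-proportional sections have a nonzero Wronskian at some point -/
theorem exists_wr [ConnectedSpace M] {s : Fin 2 → A.ι → M → ℂ} (hs : ∀ k, IsHS L univ (s k))
    (hnp : ∀ a b : ℂ, (∀ i, ∀ x ∈ (A.e i).source, a * s 0 i x + b * s 1 i x = 0) → a = 0 ∧ b = 0) :
    ∃ i, ∃ z ∈ (A.e i).target, ∃ v, Wr s i z 0 1 v ≠ 0 := by
  by_contra hcon
  push Not at hcon
  -- a point where `s 0 ≠ 0`
  obtain ⟨i, x, hx, h0⟩ : ∃ i, ∃ x ∈ (A.e i).source, s 0 i x ≠ 0 := by
    by_contra h1
    push Not at h1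
    have := hnp 1 0 fun i x hx => by rw [h1 i x hx]; ring
    exact one_ne_zero this.1
  set z := A.e i x with hz
  have hzt : z ∈ (A.e i).target := (A.e i).map_source hx
  have hsz : (A.e i).symm z = x := (A.e i).left_inv hx
  set f : Cn n → ℂ := fun w => s 0 i ((A.e i).symm w) with hf
  set g : Cn n → ℂ := fun w => s 1 i ((A.e i).symm w) with hg
  have hfz : f z ≠ 0 := by
    show s 0 i ((A.e i).symm z) ≠ 0
    rwa [hsz]
  have hfc : ContinuousAt f z := (anal_sec (hs 0) i hzt).continuousAt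
  obtain ⟨r, hr, hb⟩ := Metric.mem_nhds_iff.1
    (inter_mem ((A.e i).open_target.mem_nhds hzt) (hfc.eventually_ne hfz))
  have hqd : DifferentiableOn ℂ (fun w => g w * (f w)⁻¹) (Metric.ball z r) := fun w hw => by
    have d0 : DifferentiableAt ℂ f w := (anal_sec (hs 0) i (hb hw).1).differentiableAt
    have d1 : DifferentiableAt ℂ g w := (anal_sec (hs 1) i (hb hw).1).differentiableAt
    exact (d1.mul (d0.inv (hb hw).2)).differentiableWithinAt
  have hq0 : (Metric.ball z r).EqOn (fderiv ℂ (fun w => g w * (f w)⁻¹)) 0 := by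
    intro w hw
    have d0 : DifferentiableAt ℂ f w := (anal_sec (hs 0) i (hb hw).1).differentiableAt
    have d1 : DifferentiableAt ℂ g w := (anal_sec (hs 1) i (hb hw).1).differentiableAt
    have hfw : f w ≠ 0 := (hb hw).2
    have h1 : HasFDerivAt (fun w => g w * (f w)⁻¹)
        ((f w)⁻¹ • fderiv ℂ g w + g w • ((-(f w ^ 2)⁻¹) • fderiv ℂ f w)) w := by
      have h2 : HasFDerivAt (fun w => (f w)⁻¹) ((-(f w ^ 2)⁻¹) • fderiv ℂ f w) w :=
        (hasDerivAt_inv hfw).comp_hasFDerivAt w d0.hasFDerivAt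
      have h3 := d1.hasFDerivAt.mul h2
      rw [add_comm]
      exact h3
    rw [h1.fderiv]
    ext v
    have h5 := hcon i w (hb hw).1 v
    have h6 : f w * fderiv ℂ g w v - g w * fderiv ℂ f w v = 0 := h5
    simp only [_root_.add_apply, _root_.smul_apply, smul_eq_mul,
      Pi.zero_apply, _root_.zero_apply]
    have h7 : (f w)⁻¹ * fderiv ℂ g w v + g w * (-(f w ^ 2)⁻¹ * fderiv ℂ f w v) =
        (f w * fderiv ℂ g w v - g w * fderiv ℂ f w v) / (f w) ^ 2 := by
      field_simp
      ring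
    rw [h7, h6, zero_div]
  have hconst : ∀ w ∈ Metric.ball z r, g w * (f w)⁻¹ = g z * (f z)⁻¹ := fun w hw =>
    Metric.isOpen_ball.is_const_of_fderiv_eq_zero (convex_ball z r).isPreconnected hqd hq0 hw
      (Metric.mem_ball_self hr)
  set c := g z * (f z)⁻¹ with hc
  have hu : IsHS L univ (s 1 + (-c) • s 0) := (hs 1).add ((hs 0).smul (-c))
  have hev : ∀ᶠ y in 𝓝 x, (s 1 + (-c) • s 0) i y = 0 := by
    have h1 : ∀ᶠ y in 𝓝 x, A.e i y ∈ Metric.ball z r :=
      ((A.e i).continuousAt hx).eventually (Metric.ball_mem_nhds z hr)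
    filter_upwards [h1, (A.e i).open_source.mem_nhds hx] with y hy hys
    have h2 := hconst _ hy
    have h3 : f (A.e i y) ≠ 0 := (hb hy).2
    rw [← div_eq_mul_inv, div_eq_iff h3] at h2
    have h4 : g (A.e i y) = s 1 i y := by
      show s 1 i ((A.e i).symm (A.e i y)) = _
      rw [(A.e i).left_inv hys]
    have h5 : f (A.e i y) = s 0 i y := by
      show s 0 i ((A.e i).symm (A.e i y)) = _
      rw [(A.e i).left_inv hys]
    rw [h4, h5] at h2
    simp only [Pi.add_apply, Pi.smul_apply, smul_eq_mul]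
    rw [h2]
    ring
  have hall : ∀ j, ∀ y ∈ (A.e j).source, (s 1 + (-c) • s 0) j y = 0 := by
    by_contra h1
    push Not at h1
    obtain ⟨j, y, hy, hne⟩ := h1
    exact id_thm hu ⟨j, y, hy, hne⟩ i hx hev
  have := hnp (-c) 1 fun j y hy => by
    have h1 := hall j y hy
    simp only [Pi.add_apply, Pi.smul_apply, smul_eq_mul] at h1
    rw [one_mul, add_comm]
    exact h1
  exact one_ne_zero this.2

theorem tr_re_pos {G S : Matrix (Fin n) (Fin n) ℂ} (hn : 0 < n) (hG : G.PosDef) (hS : S.PosDef) :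
    0 < ((G⁻¹ * S).trace).re := by
  have : Nonempty (Fin n) := ⟨⟨0, hn⟩⟩
  obtain ⟨B, hB⟩ := exists_sq hG.inv.posSemidef
  have hBu : IsUnit B := by
    have h1 : IsUnit (Bᴴ * B) := by rw [← hB]; exact hG.inv.isUnit
    have h2 := (Matrix.isUnit_iff_isUnit_det _).1 h1
    rw [Matrix.det_mul] at h2
    exact (Matrix.isUnit_iff_isUnit_det _).2 (isUnit_of_mul_isUnit_right h2)
  rw [hB, Matrix.mul_assoc, Matrix.trace_mul_comm]
  have h3 : (B * S * Bᴴ).PosDef := by
    have h4 := hS.mul_mul_conjTranspose_same (B := B)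
      (Matrix.vecMul_injective_iff_isUnit.2 hBu)
    exact h4
  exact (Complex.lt_def.1 h3.trace_pos).1

section alg

variable [T2Space M] [CompactSpace M] [Finite A.ι]

theorem sm_adj (K : Kah A) (S : A.ι → M → Matrix (Fin n) (Fin n) ℂ)
    (hS : ∀ i a b, A.SmAt i (fun x => S i x a b)) (i : A.ι) :
    A.SmAt i (fun x => ((K.g i x).adjugate * S i x).trace) := by
  have h1 : (fun x => ((K.g i x).adjugate * S i x).trace) =
      fun x => ∑ a, ∑ b, (K.g i x).adjugate a b * S i x b a := by
    funext x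
    simp only [Matrix.trace, Matrix.diag, Matrix.mul_apply]
  rw [h1]
  exact ContDiffOn.sum fun a _ => ContDiffOn.sum fun b _ =>
    (smAt_adj (kah_cf K) i b a).mul (hS i b a)

theorem deg_mul (P : Part A) (K : Kah A) (h : HM L) (h' : HM L') :
    deg P K (mul h h') = deg P K h + deg P K h' := by
  unfold deg
  rw [← Complex.add_re, ← intD_add P (sm_adj K _ (cur_smooth h)) (sm_adj K _ (cur_smooth h'))
    isCompact_univ (offK_univ _) (offK_univ _)]
  congr 1
  refine intD_congr P fun i x hx => ?_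
  rw [cur_mul h h' i hx, Matrix.mul_add, Matrix.trace_add]

theorem deg_pow (P : Part A) (K : Kah A) (h : HM L) (m : ℕ) :
    deg P K (pow h m) = m * deg P K h := by
  unfold deg
  have h1 : intD P (fun i x => ((K.g i x).adjugate * cur (pow h m) i x).trace) =
      (m : ℂ) * intD P (fun i x => ((K.g i x).adjugate * cur h i x).trace) := by
    rw [← intD_smul P (m : ℂ) isCompact_univ (offK_univ _)]
    refine intD_congr P fun i x hx => ?_
    rw [cur_pow h m i hx, Matrix.mul_smul, Matrix.trace_smul, smul_eq_mul]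
  rw [h1]
  have : ((m : ℂ)) = ((m : ℝ) : ℂ) := by push_cast; rfl
  rw [this, Complex.re_ofReal_mul]

theorem deg_inv (P : Part A) (K : Kah A) (h : HM L) : deg P K (inv h) = - deg P K h := by
  unfold deg
  have h1 : intD P (fun i x => ((K.g i x).adjugate * cur (inv h) i x).trace) =
      (-1 : ℂ) * intD P (fun i x => ((K.g i x).adjugate * cur h i x).trace) := by
    rw [← intD_smul P (-1 : ℂ) isCompact_univ (offK_univ _)]
    refine intD_congr P fun i x hx => ?_
    rw [cur_inv h i hx, Matrix.mul_neg, Matrix.trace_neg]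
    ring
  rw [h1]
  simp

end alg

section main

variable [T2Space M] [CompactSpace M] [Finite A.ι]

/-- **two non-proportional sections ==> degree `> 0`** -/
theorem deg_pos [ConnectedSpace M] (P : Part A) (K : Kah A) (h : HM L) {s : Fin 2 → A.ι → M → ℂ}
    (hs : ∀ k, IsHS L univ (s k))
    (hnp : ∀ a b : ℂ, (∀ i, ∀ x ∈ (A.e i).source, a * s 0 i x + b * s 1 i x = 0) → a = 0 ∧ b = 0) :
    0 < deg P K h := by
  obtain ⟨i, z, hz, v, hW⟩ := exists_wr hs hnp
  exact deg_pos_of_wr P K h hs hz hW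

/-- **nef ==> degree `≥ 0`** -/
theorem deg_nef (P : Part A) (K : Kah A) (hL : NefW K L) (h : HM L) : 0 ≤ deg P K h := by
  classical
  letI : Fintype A.ι := Fintype.ofFinite A.ι
  letI : MeasurableSpace M := borel M
  haveI : BorelSpace M := ⟨rfl⟩
  have hfin := isFinite_vm (volK K)
  set V : ℝ := n * (vm (volK K)).real univ with hV
  have hV0 : 0 ≤ V := by positivity
  have key : ∀ ε : ℝ, 0 < ε → - (ε * V) ≤ deg P K h := by
    intro ε hε
    obtain ⟨h', hh'⟩ := hL ε hε
    rw [deg_indep P K h h', deg_eq P K h']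
    have h1 : ∀ x, - (ε * n) ≤ trM K (cur h') x := by
      intro x
      have h2 := tr_re_nonneg (K.pos _ x (mem_ch A x)) (hh' _ x (mem_ch A x))
      rw [Matrix.mul_add, Matrix.trace_add, Matrix.mul_smul, Matrix.trace_smul,
        tr_self (K.pos _ x (mem_ch A x)), Complex.add_re, smul_eq_mul, Complex.re_ofReal_mul,
        Complex.natCast_re] at h2
      unfold trM trC
      linarith
    have h3 : ∫ _x, (- (ε * n)) ∂(vm (volK K)) ≤ ∫ x, trM K (cur h') x ∂(vm (volK K)) :=
      integral_mono (integrable_const _) (integrable_trM K (tf_cur h') _) h1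
    rw [integral_const, smul_eq_mul] at h3
    refine le_trans (le_of_eq ?_) h3
    rw [hV]
    ring
  refine le_of_forall_pos_lt_add fun δ hδ => ?_
  have h1 := key (δ / (V + 1)) (by positivity)
  have h2 : δ / (V + 1) * V < δ := by
    rw [div_mul_eq_mul_div, div_lt_iff₀ (by positivity)]
    nlinarith
  linarith

/-- positive curvature ==> degree `> 0` -/
theorem deg_curv_pos [Nonempty M] (hn : 0 < n) (P : Part A) (K : Kah A) {h : HM L} (hp : h.Pos) :
    0 < deg P K h := by
  classical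
  letI : Fintype A.ι := Fintype.ofFinite A.ι
  letI : MeasurableSpace M := borel M
  haveI : BorelSpace M := ⟨rfl⟩
  have hfin := isFinite_vm (volK K)
  have hop := isOpenPos_vm (volK K)
  have hc := cont_trM K (tf_cur (A := A) h)
  obtain ⟨x₀, -, hx₀⟩ := isCompact_univ.exists_isMinOn univ_nonempty hc.continuousOn
  have h0 : 0 < trM K (cur h) x₀ :=
    tr_re_pos hn (K.pos _ x₀ (mem_ch A x₀)) (cur_posDef hp _ (mem_ch A x₀))
  rw [deg_eq P K h]
  have h1 : ∫ _x, (trM K (cur h) x₀) ∂(vm (volK K)) ≤ ∫ x, trM K (cur h) x ∂(vm (volK K)) :=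
    integral_mono (integrable_const _) (integrable_trM K (tf_cur h) _)
      fun x => hx₀ (mem_univ x)
  rw [integral_const, smul_eq_mul] at h1
  refine lt_of_lt_of_le (mul_pos ?_ h0) h1
  exact ENNReal.toReal_pos (isOpen_univ.measure_pos _ univ_nonempty).ne' (measure_ne_top _ _)

/-- a section without zeros ==> degree `0` -/
theorem deg_zero_of_triv [ConnectedSpace M] (P : Part A) (K : Kah A) (h : HM L)
    {s : A.ι → M → ℂ} (hs : IsHS L univ s) (h0 : ∀ i, ∀ x ∈ (A.e i).source, s i x ≠ 0) :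
    deg P K h = 0 := by
  obtain ⟨x⟩ : Nonempty M := inferInstance
  have h1 := deg_nonneg P K h hs ⟨_, x, mem_ch A x, h0 _ x (mem_ch A x)⟩
  have hs' := hs.inv fun i x hx _ => h0 i x hx
  have h2 := deg_nonneg P K (inv h) hs' ⟨_, x, mem_ch A x, by
    simpa using h0 _ x (mem_ch A x)⟩
  rw [deg_inv] at h2
  linarith

theorem deg_one (P : Part A) (K : Kah A) : deg P K (one A) = 0 := by
  have h3 : deg P K (one A) = (0 : ℕ) * deg P K (one A) := by
    have := deg_pow P K (one A) 0
    rw [← this]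
    rfl
  simpa using h3

open Classical in
/-- the degree of `L` -/
def Deg (P : Part A) (K : Kah A) (L : LB A) : ℝ := deg P K (exists_hm P L).some

theorem Deg_eq (P : Part A) (K : Kah A) (h : HM L) : Deg P K L = deg P K h := deg_indep P K _ _

theorem Deg_mul (P : Part A) (K : Kah A) (L L' : LB A) :
    Deg P K (L * L') = Deg P K L + Deg P K L' := by
  obtain ⟨h⟩ := exists_hm P L
  obtain ⟨h'⟩ := exists_hm P L'
  rw [Deg_eq P K h, Deg_eq P K h', Deg_eq P K (mul h h'), deg_mul]

theorem Deg_pow (P : Part A) (K : Kah A) (L : LB A) (m : ℕ) : Deg P K (L ^ m) = m * Deg P K L := by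
  obtain ⟨h⟩ := exists_hm P L
  rw [Deg_eq P K h, Deg_eq P K (pow h m), deg_pow]

theorem Deg_inv (P : Part A) (K : Kah A) (L : LB A) : Deg P K L⁻¹ = - Deg P K L := by
  obtain ⟨h⟩ := exists_hm P L
  rw [Deg_eq P K h, Deg_eq P K (inv h), deg_inv]

theorem Deg_zpow (P : Part A) (K : Kah A) (L : LB A) (m : ℤ) : Deg P K (L ^ m) = m * Deg P K L := by
  cases m with
  | ofNat m => simpa using Deg_pow P K L m
  | negSucc m =>
    rw [zpow_negSucc, Deg_inv, Deg_pow]
    push_cast
    ring

theorem Deg_nonneg [ConnectedSpace M] (P : Part A) (K : Kah A) {s : A.ι → M → ℂ}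
    (hs : IsHS L univ s) (h0 : ∃ i, ∃ x ∈ (A.e i).source, s i x ≠ 0) : 0 ≤ Deg P K L :=
  deg_nonneg P K _ hs h0

theorem Deg_pos [ConnectedSpace M] (P : Part A) (K : Kah A) {s : Fin 2 → A.ι → M → ℂ}
    (hs : ∀ k, IsHS L univ (s k))
    (hnp : ∀ a b : ℂ, (∀ i, ∀ x ∈ (A.e i).source, a * s 0 i x + b * s 1 i x = 0) → a = 0 ∧ b = 0) :
    0 < Deg P K L :=
  deg_pos P K _ hs hnp

theorem Deg_nef (P : Part A) (K : Kah A) (hL : NefW K L) : 0 ≤ Deg P K L := deg_nef P K hL _

/-- the sign of the exponent: `N ^ k = L ^ a`, `0 < k`, `L` nef, `N` with two non-proportional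
sections ==> `0 < a` -/
theorem exp_pos [ConnectedSpace M] (P : Part A) (K : Kah A) {N : LB A} {k : ℕ} {a : ℤ} (hk : 0 < k)
    (hNL : N ^ k = L ^ a) (hL : NefW K L) {s : Fin 2 → A.ι → M → ℂ} (hs : ∀ k, IsHS N univ (s k))
    (hnp : ∀ a b : ℂ, (∀ i, ∀ x ∈ (A.e i).source, a * s 0 i x + b * s 1 i x = 0) → a = 0 ∧ b = 0) :
    0 < a := by
  have h1 := Deg_pos P K hs hnp
  have h2 := Deg_nef P K hL
  have h3 : (k : ℝ) * Deg P K N = a * Deg P K L := by
    rw [← Deg_pow, ← Deg_zpow, hNL]
  have h4 : 0 < (a : ℝ) * Deg P K L := by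
    rw [← h3]
    have : (0 : ℝ) < k := by exact_mod_cast hk
    positivity
  have h5 : 0 < (a : ℝ) := by
    by_contra h6
    push Not at h6
    exact absurd h4 (not_lt.2 (mul_nonpos_of_nonpos_of_nonneg h6 h2))
  exact_mod_cast h5

end main

end

end Crest.Agent.R281.Deg_751
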