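/-
R281 / S-DIAM (helper612), part 1: length averages of Euclidean segments and rays.
Mathlib only.
-/
import Mathlib

namespace Crest.Agent.R281.Di1_612

open MeasureTheory Measure Set Metric Module
open scoped ENNReal NNReal

variable {E : Type*} [NormedAddCommGroup E] [NormedSpace ℝ E] [FiniteDimensional ℝ E]
  [MeasurableSpace E] [BorelSpace E] {μ : Measure E} [μ.IsAddHaarMeasure]

/-- affine change of variables `x ↦ c • x + b` for non-negative functions -/
theorem lintegral_affine {f : E → ℝ≥0∞} (hf : Measurable f) {c : ℝ} (hc : 0 < c) (b : E) :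
    ∫⁻ x, f (c • x + b) ∂μ = ENNReal.ofReal ((c ^ finrank ℝ E)⁻¹) * ∫⁻ x, f x ∂μ := by
  have hfb : Measurable fun z : E => f (z + b) := hf.comp (measurable_id.add_const b)
  have h1 : ∫⁻ x, f (c • x + b) ∂μ = ∫⁻ z, f (z + b) ∂(Measure.map (fun x : E => c • x) μ) := by
    rw [lintegral_map hfb (measurable_const_smul c)]
  rw [h1, Measure.map_addHaar_smul μ hc.ne', lintegral_smul_measure,
    lintegral_add_right_eq_self (μ := μ) f b]
  have : 0 < (c ^ finrank ℝ E)⁻¹ := inv_pos.2 (pow_pos hc _)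
  rw [abs_of_pos this, smul_eq_mul]

/-- (D1), one slice: for `x, z ∈ K` convex, averaging `S` over `c • x + (1-c) • z` -/
theorem slice_le {K : Set E} (hK : Convex ℝ K) (hKm : MeasurableSet K) {S : E → ℝ≥0∞}
    (hS : Measurable S) {c : ℝ} (hc : 0 < c) (hc1 : c ≤ 1) {z : E} (hz : z ∈ K) :
    ∫⁻ x in K, S (c • x + (1 - c) • z) ∂μ ≤
      ENNReal.ofReal ((c ^ finrank ℝ E)⁻¹) * ∫⁻ x in K, S x ∂μ := by
  rw [← lintegral_indicator hKm S, ← lintegral_affine (hS.indicator hKm) hc ((1 - c) • z),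
    ← lintegral_indicator hKm]
  refine lintegral_mono fun x => ?_
  by_cases hx : x ∈ K
  · have : c • x + (1 - c) • z ∈ K := hK hx hz hc.le (by linarith) (by ring)
    simp [indicator, hx, this]
  · simp [indicator, hx]

/-- (D1) SEGMENTS: the average over pairs of points of a convex set of the integral of `S` over
the segment is at most `2^d` times the integral of `S`. -/
theorem segment_le {K : Set E} (hK : Convex ℝ K) (hKm : MeasurableSet K) {S : E → ℝ≥0∞}
    (hS : Measurable S) :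
    ∫⁻ x in K, ∫⁻ y in K, ∫⁻ t in Icc (0 : ℝ) 1, S (x + t • (y - x)) ∂volume ∂μ ∂μ ≤
      2 ^ finrank ℝ E * (μ K * ∫⁻ x in K, S x ∂μ) := by
  classical
  set d := finrank ℝ E
  set A : ℝ≥0∞ := 2 ^ d * (μ K * ∫⁻ x in K, S x ∂μ) with hA
  have hm3 : Measurable (fun p : (ℝ × E) × E => S (p.1.2 + p.1.1 • (p.2 - p.1.2))) := by
    refine hS.comp ?_
    fun_prop
  -- swap the `t` integral to the outside
  have e1 : ∀ x : E, ∫⁻ y in K, ∫⁻ t in Icc (0 : ℝ) 1, S (x + t • (y - x)) ∂volume ∂μ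
      = ∫⁻ t in Icc (0 : ℝ) 1, ∫⁻ y in K, S (x + t • (y - x)) ∂μ ∂volume := by
    intro x
    refine lintegral_lintegral_swap ?_
    refine Measurable.aemeasurable ?_
    refine hS.comp ?_
    fun_prop
  have e2 : ∫⁻ x in K, ∫⁻ t in Icc (0 : ℝ) 1, ∫⁻ y in K, S (x + t • (y - x)) ∂μ ∂volume ∂μ
      = ∫⁻ t in Icc (0 : ℝ) 1, ∫⁻ x in K, ∫⁻ y in K, S (x + t • (y - x)) ∂μ ∂μ ∂volume := by
    refine lintegral_lintegral_swap ?_
    refine Measurable.aemeasurable ?_
    have : Measurable (fun p : (E × ℝ) × E => S (p.1.1 + p.1.2 • (p.2 - p.1.1))) := by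
      refine hS.comp ?_
      fun_prop
    exact this.lintegral_prod_right'
  rw [lintegral_congr e1, e2]
  have key : ∀ t ∈ Icc (0 : ℝ) 1,
      ∫⁻ x in K, ∫⁻ y in K, S (x + t • (y - x)) ∂μ ∂μ ≤ A := by
    intro t ht
    have two : ∀ c : ℝ, 1 / 2 ≤ c → ENNReal.ofReal ((c ^ d)⁻¹) ≤ 2 ^ d := by
      intro c hc
      have h0 : (0 : ℝ) < c := by linarith
      have : (c ^ d)⁻¹ ≤ (2 : ℝ) ^ d := by
        rw [← inv_pow]
        refine pow_le_pow_left₀ (inv_nonneg.2 h0.le) ?_ _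
        rw [inv_le_comm₀ h0 (by norm_num)]
        linarith
      calc ENNReal.ofReal ((c ^ d)⁻¹) ≤ ENNReal.ofReal ((2 : ℝ) ^ d) := ENNReal.ofReal_le_ofReal this
        _ = 2 ^ d := by
          rw [ENNReal.ofReal_pow (by norm_num)]; norm_num
    rcases le_total t (1 / 2) with h | h
    · -- integrate in `x` first
      have e3 : ∫⁻ x in K, ∫⁻ y in K, S (x + t • (y - x)) ∂μ ∂μ
          = ∫⁻ y in K, ∫⁻ x in K, S (x + t • (y - x)) ∂μ ∂μ := by
        refine lintegral_lintegral_swap ?_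
        refine Measurable.aemeasurable ?_
        refine hS.comp ?_
        fun_prop
      rw [e3]
      calc ∫⁻ y in K, ∫⁻ x in K, S (x + t • (y - x)) ∂μ ∂μ
          ≤ ∫⁻ y in K, (2 ^ d * ∫⁻ x in K, S x ∂μ) ∂μ := by
            refine setLIntegral_mono measurable_const fun y hy => ?_
            have h2 := slice_le (μ := μ) hK hKm hS (c := 1 - t) (by linarith) (by linarith [ht.1]) hy
            refine le_trans (le_of_eq ?_) (h2.trans ?_)
            · refine lintegral_congr fun x => ?_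
              congr 1
              module
            · gcongr
              exact two _ (by linarith)
        _ = A := by
            rw [lintegral_const, Measure.restrict_apply_univ, hA]
            ring
    · calc ∫⁻ x in K, ∫⁻ y in K, S (x + t • (y - x)) ∂μ ∂μ
          ≤ ∫⁻ x in K, (2 ^ d * ∫⁻ x in K, S x ∂μ) ∂μ := by
            refine setLIntegral_mono measurable_const fun x hx => ?_
            have h2 := slice_le (μ := μ) hK hKm hS (c := t) (by linarith) ht.2 hx
            refine le_trans (le_of_eq ?_) (h2.trans ?_)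
            · refine lintegral_congr fun y => ?_
              congr 1
              module
            · gcongr
              exact two _ h
        _ = A := by
            rw [lintegral_const, Measure.restrict_apply_univ, hA]
            ring
  calc ∫⁻ t in Icc (0 : ℝ) 1, ∫⁻ x in K, ∫⁻ y in K, S (x + t • (y - x)) ∂μ ∂μ ∂volume
      ≤ ∫⁻ t in Icc (0 : ℝ) 1, A ∂volume := setLIntegral_mono measurable_const key
    _ = A := by
      rw [lintegral_const, Measure.restrict_apply_univ, Real.volume_Icc]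
      simp

/-- (D2), general form: RAYS. If `∫_{B(y,s)} G ≤ M(s) μ(B(y,s))` for all `0 < s ≤ r`, then the
average over `z ∈ B(y,r)` of `∫_0^1 G(y + t(z-y)) dt` is at most `∫_0^1 M(t r) dt`. -/
theorem ray_le {y : E} {r : ℝ} (hr : 0 < r) {G : E → ℝ≥0∞} (hG : Measurable G)
    {M : ℝ → ℝ≥0∞}
    (hM : ∀ s, 0 < s → s ≤ r → ∫⁻ z in ball y s, G z ∂μ ≤ M s * μ (ball y s)) :
    ∫⁻ z in ball y r, ∫⁻ t in Ioc (0 : ℝ) 1, G (y + t • (z - y)) ∂volume ∂μ ≤
      (∫⁻ t in Ioc (0 : ℝ) 1, M (t * r) ∂volume) * μ (ball y r) := by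
  classical
  set d := finrank ℝ E
  have e1 : ∫⁻ z in ball y r, ∫⁻ t in Ioc (0 : ℝ) 1, G (y + t • (z - y)) ∂volume ∂μ
      = ∫⁻ t in Ioc (0 : ℝ) 1, ∫⁻ z in ball y r, G (y + t • (z - y)) ∂μ ∂volume := by
    refine lintegral_lintegral_swap ?_
    refine Measurable.aemeasurable ?_
    refine hG.comp ?_
    fun_prop
  rw [e1]
  have hfin : μ (ball y r) ≠ ∞ := measure_ball_lt_top.ne
  rw [← lintegral_mul_const' _ _ hfin]
  refine setLIntegral_mono' measurableSet_Ioc fun t ht => ?_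
  have ht0 : 0 < t := ht.1
  have hmem : ∀ z, z ∈ ball y r ↔ t • z + (1 - t) • y ∈ ball y (t * r) := by
    intro z
    rw [mem_ball_iff_norm, mem_ball_iff_norm]
    have : t • z + (1 - t) • y - y = t • (z - y) := by module
    rw [this, norm_smul, Real.norm_of_nonneg ht0.le]
    exact (mul_lt_mul_iff_right₀ ht0).symm
  calc ∫⁻ z in ball y r, G (y + t • (z - y)) ∂μ
      = ∫⁻ z, (ball y (t * r)).indicator G (t • z + (1 - t) • y) ∂μ := by
        rw [← lintegral_indicator measurableSet_ball]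
        refine lintegral_congr fun z => ?_
        by_cases hz : z ∈ ball y r
        · have h2 := (hmem z).1 hz
          rw [indicator_of_mem hz, indicator_of_mem h2]
          congr 1
          module
        · have h2 : t • z + (1 - t) • y ∉ ball y (t * r) := fun h => hz ((hmem z).2 h)
          rw [indicator_of_notMem hz, indicator_of_notMem h2]
    _ = ENNReal.ofReal ((t ^ d)⁻¹) * ∫⁻ z in ball y (t * r), G z ∂μ := by
        rw [lintegral_affine (hG.indicator measurableSet_ball) ht0, lintegral_indicator measurableSet_ball]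
    _ ≤ ENNReal.ofReal ((t ^ d)⁻¹) * (M (t * r) * μ (ball y (t * r))) := by
        gcongr
        exact hM _ (mul_pos ht0 hr) (by nlinarith [ht.2])
    _ = M (t * r) * μ (ball y r) := by
        have h3 : μ (ball y (t * r)) = ENNReal.ofReal (t ^ d) * μ (ball y r) := by
          rw [Measure.addHaar_ball_mul_of_pos μ y ht0 r]
          rw [Measure.addHaar_ball_center μ y r]
        rw [h3]
        have h4 : ENNReal.ofReal ((t ^ d)⁻¹) * ENNReal.ofReal (t ^ d) = 1 := by
          rw [← ENNReal.ofReal_mul (inv_nonneg.2 (pow_nonneg ht0.le _)),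
            inv_mul_cancel₀ (pow_ne_zero _ ht0.ne'), ENNReal.ofReal_one]
        calc ENNReal.ofReal ((t ^ d)⁻¹) * (M (t * r) * (ENNReal.ofReal (t ^ d) * μ (ball y r)))
            = (ENNReal.ofReal ((t ^ d)⁻¹) * ENNReal.ofReal (t ^ d)) * (M (t * r) * μ (ball y r)) := by
              ring
          _ = M (t * r) * μ (ball y r) := by rw [h4, one_mul]

/-- (D2) with a constant bound -/
theorem ray_le_const {y : E} {r : ℝ} (hr : 0 < r) {G : E → ℝ≥0∞} (hG : Measurable G)
    {M : ℝ≥0∞}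
    (hM : ∀ s, 0 < s → s ≤ r → ∫⁻ z in ball y s, G z ∂μ ≤ M * μ (ball y s)) :
    ∫⁻ z in ball y r, ∫⁻ t in Ioc (0 : ℝ) 1, G (y + t • (z - y)) ∂volume ∂μ ≤
      M * μ (ball y r) := by
  refine (ray_le hr hG hM).trans (le_of_eq ?_)
  congr 1
  rw [lintegral_const, Measure.restrict_apply_univ, Real.volume_Ioc]
  simp

/-- Cauchy-Schwarz on a set of finite measure, `S^(1/2)` version -/
theorem lintegral_sqrt_le {α : Type*} [MeasurableSpace α] {ν : Measure α} {S : α → ℝ≥0∞}
    (hS : Measurable S) :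
    ∫⁻ x, (S x) ^ (1 / 2 : ℝ) ∂ν ≤ (∫⁻ x, S x ∂ν) ^ (1 / 2 : ℝ) * (ν univ) ^ (1 / 2 : ℝ) := by
  have h := ENNReal.lintegral_mul_le_Lp_mul_Lq ν (p := 2) (q := 2)
    (Real.HolderConjugate.two_two) (f := fun x => (S x) ^ (1 / 2 : ℝ)) (g := fun _ => 1)
    (hS.pow_const _).aemeasurable aemeasurable_const
  simp only [Pi.mul_apply, mul_one, ENNReal.one_rpow, lintegral_const, one_mul] at h
  refine h.trans (le_of_eq ?_)
  congr 2
  refine lintegral_congr fun x => ?_
  rw [← ENNReal.rpow_mul]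
  norm_num

/-- (D2) RAYS with the Euclidean maximal function of `S` bounded by `K` at `y`. -/
theorem ray_sqrt_le {y : E} {r : ℝ} (hr : 0 < r) {S : E → ℝ≥0∞} (hS : Measurable S)
    {K : ℝ≥0∞}
    (hK : ∀ s, 0 < s → s ≤ r → ∫⁻ z in ball y s, S z ∂μ ≤ K * μ (ball y s)) :
    ∫⁻ z in ball y r, ∫⁻ t in Ioc (0 : ℝ) 1, (S (y + t • (z - y))) ^ (1 / 2 : ℝ) ∂volume ∂μ ≤
      K ^ (1 / 2 : ℝ) * μ (ball y r) := by
  refine ray_le_const hr (hS.pow_const _) fun s hs hsr => ?_
  refine (lintegral_sqrt_le (ν := μ.restrict (ball y s)) hS).trans ?_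
  rw [Measure.restrict_apply_univ]
  have h1 : (∫⁻ x in ball y s, S x ∂μ) ^ (1 / 2 : ℝ) ≤ (K * μ (ball y s)) ^ (1 / 2 : ℝ) :=
    ENNReal.rpow_le_rpow (hK s hs hsr) (by norm_num)
  calc (∫⁻ x in ball y s, S x ∂μ) ^ (1 / 2 : ℝ) * μ (ball y s) ^ (1 / 2 : ℝ)
      ≤ (K * μ (ball y s)) ^ (1 / 2 : ℝ) * μ (ball y s) ^ (1 / 2 : ℝ) := by gcongr
    _ = K ^ (1 / 2 : ℝ) * (μ (ball y s) ^ (1 / 2 : ℝ) * μ (ball y s) ^ (1 / 2 : ℝ)) := by
        rw [ENNReal.mul_rpow_of_nonneg _ _ (by norm_num), mul_assoc]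
    _ = K ^ (1 / 2 : ℝ) * μ (ball y s) := by
        rw [← ENNReal.rpow_add_of_nonneg _ _ (by norm_num) (by norm_num)]
        norm_num

omit [μ.IsAddHaarMeasure] in
/-- Markov for rays: the set of `z ∈ B(y,r)` whose ray integral is `> A M` has measure
`≤ μ(B(y,r)) / A`. -/
theorem ray_markov {y : E} {r : ℝ} {G : E → ℝ≥0∞} (hG : Measurable G)
    {M : ℝ≥0∞}
    (h : ∫⁻ z in ball y r, ∫⁻ t in Ioc (0 : ℝ) 1, G (y + t • (z - y)) ∂volume ∂μ ≤
      M * μ (ball y r)) {A : ℝ≥0∞} (hA : A ≠ 0) (hA' : A ≠ ∞) (hM : M ≠ 0) (hM' : M ≠ ∞) :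
    μ {z ∈ ball y r | A * M ≤ ∫⁻ t in Ioc (0 : ℝ) 1, G (y + t • (z - y))} ≤
      μ (ball y r) / A := by
  have hmeas : Measurable fun z : E => ∫⁻ t in Ioc (0 : ℝ) 1, G (y + t • (z - y)) := by
    have : Measurable (fun p : E × ℝ => G (y + p.2 • (p.1 - y))) := by
      refine hG.comp ?_
      fun_prop
    exact this.lintegral_prod_right'
  have h1 := mul_meas_ge_le_lintegral (μ := μ.restrict (ball y r)) hmeas (A * M)
  rw [Measure.restrict_apply (measurableSet_le measurable_const hmeas)] at h1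
  have h2 : {z ∈ ball y r | A * M ≤ ∫⁻ t in Ioc (0 : ℝ) 1, G (y + t • (z - y))}
      = {z | A * M ≤ ∫⁻ t in Ioc (0 : ℝ) 1, G (y + t • (z - y))} ∩ ball y r := by
    ext z; simp [and_comm]
  rw [h2]
  rw [ENNReal.le_div_iff_mul_le (Or.inl hA) (Or.inl hA')]
  have h3 := h1.trans h
  set X := μ ({z | A * M ≤ ∫⁻ t in Ioc (0 : ℝ) 1, G (y + t • (z - y))} ∩ ball y r)
  have h4 : M * (X * A) ≤ M * μ (ball y r) := by
    calc M * (X * A) = A * M * X := by ring
      _ ≤ _ := h3
  exact (ENNReal.mul_le_mul_iff_right hM hM').1 h4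

end Crest.Agent.R281.Di1_612
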