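/-
R281 / S-DIAM (helper612), part 2: metric forms of the segment / ray averages and the diameter
bound from the annulus form of Bishop-Gromov.
-/
import Crest.Agent.R281.Di1_612

namespace Crest.Agent.R281.Di2_612

open MeasureTheory Measure Set Metric Module
open scoped ENNReal NNReal
open Crest.Agent.R281.Di1_612

section seg

variable {E : Type*} [NormedAddCommGroup E] [NormedSpace ℝ E] [FiniteDimensional ℝ E]
  [MeasurableSpace E] [BorelSpace E] {μ : Measure E} [μ.IsAddHaarMeasure]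
  {X : Type*} [PseudoEMetricSpace X]

/-- length of the straight segment from `a` to `b` for the conformal factor `g` -/
noncomputable def len (g : E → ℝ≥0∞) (a b : E) : ℝ≥0∞ :=
  (∫⁻ t in Icc (0 : ℝ) 1, g (a + t • (b - a))) * ‖b - a‖ₑ

omit [FiniteDimensional ℝ E] in
theorem measurable_len [SecondCountableTopology E] {g : E → ℝ≥0∞} (hg : Measurable g) :
    Measurable (fun p : E × E => len g p.1 p.2) := by
  unfold len
  refine Measurable.mul ?_ ?_
  · have : Measurable (fun q : (E × E) × ℝ => g (q.1.1 + q.2 • (q.1.2 - q.1.1))) := by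
      refine hg.comp ?_
      fun_prop
    exact this.lintegral_prod_right'
  · fun_prop

/-- (D1), length version: the total length over pairs of points of a bounded convex set. -/
theorem len_le {K : Set E} (hK : Convex ℝ K) (hKm : MeasurableSet K) {g : E → ℝ≥0∞}
    (hg : Measurable g) :
    ∫⁻ a in K, ∫⁻ b in K, len g a b ∂μ ∂μ ≤
      ediam K * (2 ^ finrank ℝ E * (μ K * ∫⁻ x in K, g x ∂μ)) := by
  have h1 : ∫⁻ a in K, ∫⁻ b in K, len g a b ∂μ ∂μ ≤
      ∫⁻ a in K, ∫⁻ b in K, ediam K * (∫⁻ t in Icc (0 : ℝ) 1, g (a + t • (b - a)) ∂volume) ∂μ ∂μ := by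
    refine setLIntegral_mono' hKm fun a ha => ?_
    refine setLIntegral_mono' hKm fun b hb => ?_
    unfold len
    rw [mul_comm]
    gcongr
    rw [← edist_eq_enorm_sub]
    exact edist_le_ediam_of_mem hb ha
  refine h1.trans ?_
  have hm : Measurable (fun q : (E × E) × ℝ => g (q.1.1 + q.2 • (q.1.2 - q.1.1))) := by
    refine hg.comp ?_
    fun_prop
  have hm2 : Measurable (fun p : E × E => ∫⁻ t in Icc (0 : ℝ) 1, g (p.1 + t • (p.2 - p.1))) :=
    hm.lintegral_prod_right'
  have hm3 : Measurable (fun a : E => ∫⁻ b in K, ∫⁻ t in Icc (0 : ℝ) 1, g (a + t • (b - a)) ∂volume ∂μ) :=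
    hm2.lintegral_prod_right'
  calc ∫⁻ a in K, ∫⁻ b in K, ediam K * (∫⁻ t in Icc (0 : ℝ) 1, g (a + t • (b - a)) ∂volume) ∂μ ∂μ
      = ∫⁻ a in K, ediam K * (∫⁻ b in K, ∫⁻ t in Icc (0 : ℝ) 1, g (a + t • (b - a)) ∂volume ∂μ) ∂μ := by
        refine lintegral_congr fun a => ?_
        have hma : Measurable (fun b : E => ∫⁻ t in Icc (0 : ℝ) 1, g (a + t • (b - a))) :=
          hm2.comp (measurable_prodMk_left (x := a))
        exact lintegral_const_mul _ hma
    _ = ediam K * ∫⁻ a in K, ∫⁻ b in K, ∫⁻ t in Icc (0 : ℝ) 1, g (a + t • (b - a)) ∂volume ∂μ ∂μ := by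
        rw [lintegral_const_mul _ hm3]
    _ ≤ _ := by
        gcongr
        exact segment_le hK hKm hg

/-- (D1)+Markov: one base point `a` (outside a given null set) from which most points of `K` are
reached by segments of length at most `ρ`. -/
theorem exists_center {K : Set E} (hK : Convex ℝ K) (hKm : MeasurableSet K)
    (h0 : μ K ≠ 0) (h1 : μ K ≠ ∞) {g : E → ℝ≥0∞} (hg : Measurable g)
    {P : E → Prop} (hP : ∀ᵐ a ∂(μ.restrict K), P a) :
    ∃ a ∈ K, P a ∧ ∀ ρ : ℝ≥0∞, ρ ≠ 0 → ρ ≠ ∞ →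
      μ {b ∈ K | ρ < len g a b} ≤ ediam K * (2 ^ finrank ℝ E * ∫⁻ x in K, g x ∂μ) / ρ := by
  have hm := measurable_len (E := E) hg
  have hm1 : Measurable (fun a : E => ∫⁻ b in K, len g a b ∂μ) := hm.lintegral_prod_right'
  have hne : μ.restrict K ≠ 0 := by
    intro h
    exact h0 (Measure.restrict_eq_zero.1 h)
  have : IsFiniteMeasure (μ.restrict K) := ⟨by rw [Measure.restrict_apply_univ]; exact h1.lt_top⟩
  have hKa : ∀ᵐ a ∂(μ.restrict K), a ∈ K := ae_restrict_mem hKm
  have hN : (μ.restrict K) {a | ¬ (P a ∧ a ∈ K)} = 0 := by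
    exact hP.and hKa
  obtain ⟨a, haN, ha⟩ := exists_notMem_null_le_laverage hne hm1.aemeasurable hN
  have ha' : P a ∧ a ∈ K := by
    by_contra h
    exact haN h
  refine ⟨a, ha'.2, ha'.1, fun ρ hρ hρ' => ?_⟩
  have h2 : ∫⁻ b in K, len g a b ∂μ ≤ ediam K * (2 ^ finrank ℝ E * ∫⁻ x in K, g x ∂μ) := by
    refine ha.trans ?_
    rw [laverage_eq, Measure.restrict_apply_univ]
    refine ENNReal.div_le_of_le_mul ?_
    refine (len_le hK hKm hg).trans (le_of_eq ?_)
    ring
  have hma : Measurable (fun b : E => len g a b) := hm.comp measurable_prodMk_left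
  have h3 := mul_meas_ge_le_lintegral (μ := μ.restrict K) hma ρ
  rw [Measure.restrict_apply (measurableSet_le measurable_const hma)] at h3
  rw [ENNReal.le_div_iff_mul_le (Or.inl hρ) (Or.inl hρ')]
  calc μ {b ∈ K | ρ < len g a b} * ρ ≤ μ ({x | ρ ≤ len g a x} ∩ K) * ρ := by
        gcongr
        intro b hb
        exact ⟨hb.2.le, hb.1⟩
    _ = ρ * μ ({x | ρ ≤ len g a x} ∩ K) := mul_comm _ _
    _ ≤ _ := h3
    _ ≤ _ := h2

/-- (D3) METRIC FORM. `F : E → X` on a convex set `K` with `edist (F a) (F b) ≤` length of the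
segment for almost every pair, `ν` a measure on `X` with `map F (μ|K) ≤ ν`: some closed ball of
radius `ρ` around a point of `F(K)` has `ν`-mass at least `μ(K) - diam K 2^d ∫_K g / ρ`. -/
theorem exists_ball_mass [MeasurableSpace X] [OpensMeasurableSpace X]
    {K : Set E} (hK : Convex ℝ K) (hKm : MeasurableSet K)
    (h0 : μ K ≠ 0) (h1 : μ K ≠ ∞) {g : E → ℝ≥0∞} (hg : Measurable g)
    {F : E → X} (hF : AEMeasurable F (μ.restrict K))
    (hlen : ∀ᵐ a ∂(μ.restrict K), ∀ᵐ b ∂(μ.restrict K), edist (F a) (F b) ≤ len g a b)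
    {ν : Measure X} (hν : Measure.map F (μ.restrict K) ≤ ν) {P : E → Prop}
    (hP : ∀ᵐ a ∂(μ.restrict K), P a)
    {ρ : ℝ≥0∞} (hρ : ρ ≠ 0) (hρ' : ρ ≠ ∞) :
    ∃ a ∈ K, P a ∧
      μ K ≤ ν {x | edist (F a) x ≤ ρ} + ediam K * (2 ^ finrank ℝ E * ∫⁻ x in K, g x ∂μ) / ρ := by
  obtain ⟨a, haK, ⟨ha, hPa⟩, hbad⟩ := exists_center hK hKm h0 h1 hg (hlen.and hP)
  refine ⟨a, haK, hPa, ?_⟩
  have hset : MeasurableSet {x : X | edist (F a) x ≤ ρ} := by
    exact (isClosed_le (continuous_const.edist continuous_id) continuous_const).measurableSet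
  have hm := measurable_len (E := E) hg
  have hma : Measurable (fun b : E => len g a b) := hm.comp measurable_prodMk_left
  have hgood : (μ.restrict K) {b | len g a b ≤ ρ} ≤ ν {x | edist (F a) x ≤ ρ} := by
    calc (μ.restrict K) {b | len g a b ≤ ρ} ≤ (μ.restrict K) (F ⁻¹' {x | edist (F a) x ≤ ρ}) := by
          refine measure_mono_ae ?_
          filter_upwards [ha] with b hb h
          exact hb.trans h
      _ = Measure.map F (μ.restrict K) {x | edist (F a) x ≤ ρ} :=
          (Measure.map_apply_of_aemeasurable hF hset).symm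
      _ ≤ _ := hν _
  have hsplit : μ K ≤ (μ.restrict K) {b | len g a b ≤ ρ} + μ {b ∈ K | ρ < len g a b} := by
    have e : μ K = (μ.restrict K) {b | len g a b ≤ ρ} + (μ.restrict K) {b | len g a b ≤ ρ}ᶜ := by
      rw [measure_add_measure_compl (measurableSet_le hma measurable_const),
        Measure.restrict_apply_univ]
    rw [e]
    refine add_le_add_right ?_ _
    rw [Measure.restrict_apply (measurableSet_le hma measurable_const).compl]
    refine measure_mono ?_
    intro b hb
    exact ⟨hb.2, not_le.1 hb.1⟩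
  exact hsplit.trans (add_le_add hgood (hbad ρ hρ hρ'))

omit [μ.IsAddHaarMeasure] in
/-- (D2)+(D3), rays from `y`: if the average over `z ∈ B(y,r)` of `∫_0^1 G(y+t(z-y))dt` is at most
`M`, the set of `z` with `edist (F y) (F z) > A M r` has measure at most `μ(B(y,r))/A`. -/
theorem ray_ball_mass [MeasurableSpace X] [OpensMeasurableSpace X]
    {y : E} {r : ℝ} {G : E → ℝ≥0∞} (hG : Measurable G) {M : ℝ≥0∞}
    (h : ∫⁻ z in ball y r, ∫⁻ t in Ioc (0 : ℝ) 1, G (y + t • (z - y)) ∂volume ∂μ ≤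
      M * μ (ball y r)) {A : ℝ≥0∞} (hA : A ≠ 0) (hA' : A ≠ ∞) (hM : M ≠ 0) (hM' : M ≠ ∞)
    {F : E → X} (hF : AEMeasurable F (μ.restrict (ball y r)))
    (hlen : ∀ᵐ z ∂(μ.restrict (ball y r)), edist (F y) (F z) ≤
      (∫⁻ t in Ioc (0 : ℝ) 1, G (y + t • (z - y))) * ‖z - y‖ₑ)
    {ν : Measure X} (hν : Measure.map F (μ.restrict (ball y r)) ≤ ν) :
    μ (ball y r) ≤ ν {x | edist (F y) x ≤ A * M * ENNReal.ofReal r} + μ (ball y r) / A := by
  have hmeas : Measurable fun z : E => ∫⁻ t in Ioc (0 : ℝ) 1, G (y + t • (z - y)) := by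
    have : Measurable (fun p : E × ℝ => G (y + p.2 • (p.1 - y))) := by
      refine hG.comp ?_
      fun_prop
    exact this.lintegral_prod_right'
  have hset : MeasurableSet {x : X | edist (F y) x ≤ A * M * ENNReal.ofReal r} := by
    exact (isClosed_le (continuous_const.edist continuous_id) continuous_const).measurableSet
  set I : E → ℝ≥0∞ := fun z => ∫⁻ t in Ioc (0 : ℝ) 1, G (y + t • (z - y)) with hI
  have hgood : (μ.restrict (ball y r)) {z | I z ≤ A * M} ≤
      ν {x | edist (F y) x ≤ A * M * ENNReal.ofReal r} := by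
    calc (μ.restrict (ball y r)) {z | I z ≤ A * M}
        ≤ (μ.restrict (ball y r)) (F ⁻¹' {x | edist (F y) x ≤ A * M * ENNReal.ofReal r}) := by
          refine measure_mono_ae ?_
          filter_upwards [hlen, ae_restrict_mem measurableSet_ball] with z hz hzb h
          refine hz.trans ?_
          have hz2 : ‖z - y‖ₑ ≤ ENNReal.ofReal r := by
            rw [← ofReal_norm]
            exact ENNReal.ofReal_le_ofReal (mem_ball_iff_norm.1 hzb).le
          exact mul_le_mul' h hz2
      _ = Measure.map F (μ.restrict (ball y r)) {x | edist (F y) x ≤ A * M * ENNReal.ofReal r} :=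
          (Measure.map_apply_of_aemeasurable hF hset).symm
      _ ≤ _ := hν _
  have hbad := ray_markov (μ := μ) hG h hA hA' hM hM'
  have hsplit : μ (ball y r) ≤ (μ.restrict (ball y r)) {z | I z ≤ A * M} +
      μ {z ∈ ball y r | A * M ≤ I z} := by
    have e : μ (ball y r) = (μ.restrict (ball y r)) {z | I z ≤ A * M} +
        (μ.restrict (ball y r)) {z | I z ≤ A * M}ᶜ := by
      rw [measure_add_measure_compl (measurableSet_le hmeas measurable_const),
        Measure.restrict_apply_univ]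
    conv_lhs => rw [e]
    refine add_le_add_right ?_ _
    rw [Measure.restrict_apply (measurableSet_le hmeas measurable_const).compl]
    refine measure_mono ?_
    intro b hb
    have hb1 : ¬ (I b ≤ A * M) := hb.1
    exact ⟨hb.2, (not_le.1 hb1).le⟩
  exact hsplit.trans (add_le_add hgood hbad)

end seg

section diam

/-- (D4) distance bound from the annulus form of Bishop-Gromov (`Ric ≥ 0`) and one ball of
`ν`-mass at least `c ν(X)`. -/
theorem dist_le_of_annulus {X : Type*} [PseudoMetricSpace X] [MeasurableSpace X] {ν : Measure X}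
    {n : ℕ} {p0 : X} {ρ c : ℝ} (hρ : 0 < ρ) (hc : 0 < c) (hfin : ν univ ≠ ∞)
    (hpos : ν univ ≠ 0)
    (hBG : ∀ q : X, ∀ r R : ℝ, 0 < r → r ≤ R →
      ν (closedBall q R \ closedBall q r) ≤ ENNReal.ofReal ((R / r) ^ n - 1) * ν (closedBall q r))
    (hmass : ENNReal.ofReal c * ν univ ≤ ν (closedBall p0 ρ)) (q : X) :
    dist q p0 ≤ (1 + 2 / ((1 + c / 2) ^ ((1 : ℝ) / (n + 1)) - 1)) * ρ := by
  by_contra hcon
  push Not at hcon
  set a : ℝ := (1 + c / 2) ^ ((1 : ℝ) / (n + 1)) with ha
  have ha1 : 1 < a := by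
    rw [ha]
    exact Real.one_lt_rpow (by linarith) (by positivity)
  have ha0 : 0 < a := by linarith
  set s := dist q p0 with hs
  have hpos1 : 0 < 2 / (a - 1) := div_pos two_pos (by linarith)
  have hsρ : ρ < s := by nlinarith
  -- (s+ρ)/a < s-ρ
  have hratio : (s + ρ) / a < s - ρ := by
    rw [div_lt_iff₀ ha0]
    have h2 : 2 / (a - 1) * ρ < s - ρ := by linarith
    have h3 : 2 * ρ < (s - ρ) * (a - 1) := by
      have := (mul_lt_mul_iff_left₀ (show 0 < a - 1 by linarith)).2 h2
      have e : 2 / (a - 1) * ρ * (a - 1) = 2 * ρ := by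
        field_simp [show a - 1 ≠ 0 by linarith]
      linarith
    linarith
  set r := (s + ρ) / a with hr
  have hr0 : 0 < r := div_pos (by linarith) ha0
  have hR : r ≤ s + ρ := by linarith
  have hpow : ((s + ρ) / r) ^ n ≤ 1 + c / 2 := by
    have hsp : s + ρ ≠ 0 := by linarith
    have e : (s + ρ) / r = a := by
      rw [hr]
      field_simp
    rw [e]
    calc a ^ n ≤ a ^ (n + 1) := pow_le_pow_right₀ ha1.le (Nat.le_succ n)
      _ = 1 + c / 2 := by
        rw [ha, ← Real.rpow_natCast, ← Real.rpow_mul (by linarith)]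
        have : (1 : ℝ) / (n + 1) * ((n + 1 : ℕ) : ℝ) = 1 := by
          push_cast
          field_simp
        rw [this, Real.rpow_one]
  have hsub : closedBall p0 ρ ⊆ closedBall q (s + ρ) \ closedBall q r := by
    intro x hx
    rw [mem_closedBall] at hx
    refine ⟨?_, ?_⟩
    · rw [mem_closedBall]
      have := dist_triangle x p0 q
      rw [dist_comm p0 q] at this
      linarith
    · rw [mem_closedBall, not_le]
      have := dist_triangle q x p0
      rw [dist_comm q x] at this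
      linarith
  have h1 := hBG q r (s + ρ) hr0 hR
  have h2 : ENNReal.ofReal c * ν univ ≤ ENNReal.ofReal (c / 2) * ν univ := by
    calc ENNReal.ofReal c * ν univ ≤ ν (closedBall p0 ρ) := hmass
      _ ≤ ν (closedBall q (s + ρ) \ closedBall q r) := measure_mono hsub
      _ ≤ _ := h1
      _ ≤ ENNReal.ofReal (c / 2) * ν univ := by
        refine mul_le_mul' (ENNReal.ofReal_le_ofReal (by linarith)) (measure_mono (subset_univ _))
  have h3 : ENNReal.ofReal c ≤ ENNReal.ofReal (c / 2) :=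
    (ENNReal.mul_le_mul_iff_left hpos hfin).1 h2
  rw [ENNReal.ofReal_le_ofReal_iff (by linarith)] at h3
  linarith

/-- the constant of the diameter bound -/
noncomputable def diamC (n : ℕ) (c : ℝ) : ℝ :=
  2 * (1 + 2 / ((1 + c / 2) ^ ((1 : ℝ) / (n + 1)) - 1))

/-- (D4) DIAMETER. -/
theorem diam_le_of_annulus {X : Type*} [PseudoMetricSpace X] [MeasurableSpace X] {ν : Measure X}
    {n : ℕ} {p0 : X} {ρ c : ℝ} (hρ : 0 < ρ) (hc : 0 < c) (hfin : ν univ ≠ ∞)
    (hpos : ν univ ≠ 0)
    (hBG : ∀ q : X, ∀ r R : ℝ, 0 < r → r ≤ R →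
      ν (closedBall q R \ closedBall q r) ≤ ENNReal.ofReal ((R / r) ^ n - 1) * ν (closedBall q r))
    (hmass : ENNReal.ofReal c * ν univ ≤ ν (closedBall p0 ρ)) (x y : X) :
    dist x y ≤ diamC n c * ρ := by
  have h1 := dist_le_of_annulus hρ hc hfin hpos hBG hmass x
  have h2 := dist_le_of_annulus hρ hc hfin hpos hBG hmass y
  have h3 := dist_triangle x p0 y
  rw [dist_comm p0 y] at h3
  unfold diamC
  linarith

/-- (D1)+(D3)+(D4) = (T1) of #5993, `ν` of total mass `V`: if a convex set `K` of the model,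
with `F_*(μ|K) ≤ ν`, `ν(X) ≤ V ≤ A μ(K)`, `∫_K g ≤ B μ(K)`, `diam K ≤ D`, and the `X`-distance is
bounded by the length of segments, then `diam X ≤ C(n, A) 2^(d+1) B D`. -/
theorem diam_le {E : Type*} [NormedAddCommGroup E] [NormedSpace ℝ E] [FiniteDimensional ℝ E]
    [MeasurableSpace E] [BorelSpace E] {μ : Measure E} [μ.IsAddHaarMeasure]
    {X : Type*} [PseudoMetricSpace X] [MeasurableSpace X] [OpensMeasurableSpace X]
    {n : ℕ} {ν : Measure X} (hfin : ν univ ≠ ∞)
    (hBG : ∀ q : X, ∀ r R : ℝ, 0 < r → r ≤ R →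
      ν (closedBall q R \ closedBall q r) ≤ ENNReal.ofReal ((R / r) ^ n - 1) * ν (closedBall q r))
    {K : Set E} (hK : Convex ℝ K) (hKm : MeasurableSet K)
    (h0 : μ K ≠ 0) (h1 : μ K ≠ ∞) {g : E → ℝ≥0∞} (hg : Measurable g)
    {F : E → X} (hF : AEMeasurable F (μ.restrict K))
    (hlen : ∀ᵐ a ∂(μ.restrict K), ∀ᵐ b ∂(μ.restrict K), edist (F a) (F b) ≤ len g a b)
    (hν : Measure.map F (μ.restrict K) ≤ ν)
    {A B D : ℝ} (hA : 0 < A) (hB : 0 < B) (hD : 0 < D)
    (hAν : ν univ ≤ ENNReal.ofReal A * μ K)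
    (hBg : ∫⁻ x in K, g x ∂μ ≤ ENNReal.ofReal B * μ K)
    (hDK : ediam K ≤ ENNReal.ofReal D) (x y : X) :
    dist x y ≤ diamC n (1 / (2 * A)) * (2 ^ (finrank ℝ E + 1) * B * D) := by
  classical
  set d := finrank ℝ E
  set ρ : ℝ := 2 ^ (d + 1) * B * D with hρdef
  have hρ : 0 < ρ := by positivity
  obtain ⟨a, haK, -, hmass⟩ := exists_ball_mass (μ := μ) hK hKm h0 h1 hg hF hlen hν
    (P := fun _ => True) (Filter.Eventually.of_forall fun _ => trivial)
    (ρ := ENNReal.ofReal ρ) (by simpa using hρ) ENNReal.ofReal_ne_top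
  have hset : {x : X | edist (F a) x ≤ ENNReal.ofReal ρ} = closedBall (F a) ρ := by
    ext x
    rw [mem_ofPred_eq, mem_closedBall, edist_dist, ENNReal.ofReal_le_ofReal_iff hρ.le, dist_comm]
  rw [hset] at hmass
  have hbad : ediam K * (2 ^ d * ∫⁻ x in K, g x ∂μ) / ENNReal.ofReal ρ ≤ μ K / 2 := by
    refine ENNReal.div_le_of_le_mul ?_
    calc ediam K * (2 ^ d * ∫⁻ x in K, g x ∂μ)
        ≤ ENNReal.ofReal D * (2 ^ d * (ENNReal.ofReal B * μ K)) := by gcongr
      _ = μ K * ENNReal.ofReal (2 ^ d * B * D) := by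
          have hB' : (0 : ℝ) ≤ 2 ^ d * B := by positivity
          rw [ENNReal.ofReal_mul hB', ENNReal.ofReal_mul (by positivity : (0 : ℝ) ≤ 2 ^ d),
            ENNReal.ofReal_pow (by norm_num)]
          norm_num
          ring
      _ = μ K / 2 * ENNReal.ofReal ρ := by
          have e : ρ = 2 * (2 ^ d * B * D) := by rw [hρdef]; ring
          rw [e, ENNReal.ofReal_mul (p := 2) (by norm_num), ENNReal.div_eq_inv_mul]
          have h2 : ENNReal.ofReal 2 = 2 := by norm_num
          rw [h2]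
          calc μ K * ENNReal.ofReal (2 ^ d * B * D)
              = (2⁻¹ * 2) * (μ K * ENNReal.ofReal (2 ^ d * B * D)) := by
                rw [ENNReal.inv_mul_cancel (by norm_num) (by norm_num), one_mul]
            _ = _ := by ring
  have hhalf : μ K / 2 ≤ ν (closedBall (F a) ρ) := by
    have h2 : μ K ≤ ν (closedBall (F a) ρ) + μ K / 2 := hmass.trans (by gcongr)
    have h3 : μ K / 2 + μ K / 2 ≤ ν (closedBall (F a) ρ) + μ K / 2 := by
      rwa [ENNReal.add_halves]
    exact (ENNReal.add_le_add_iff_right (ENNReal.div_ne_top h1 (by norm_num))).1 h3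
  have hmass' : ENNReal.ofReal (1 / (2 * A)) * ν univ ≤ ν (closedBall (F a) ρ) := by
    calc ENNReal.ofReal (1 / (2 * A)) * ν univ
        ≤ ENNReal.ofReal (1 / (2 * A)) * (ENNReal.ofReal A * μ K) := by gcongr
      _ = μ K / 2 := by
          rw [← mul_assoc, ← ENNReal.ofReal_mul (by positivity)]
          have e : 1 / (2 * A) * A = 2⁻¹ := by field_simp
          rw [e, ENNReal.ofReal_inv_of_pos (by norm_num), ENNReal.div_eq_inv_mul]
          norm_num
      _ ≤ _ := hhalf
  have hpos : ν univ ≠ 0 := by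
    intro h
    have : μ K / 2 ≤ 0 := hhalf.trans ((measure_mono (subset_univ _)).trans h.le)
    have h3 : μ K / 2 = 0 := le_antisymm this bot_le
    rw [ENNReal.div_eq_zero_iff] at h3
    rcases h3 with h3 | h3
    · exact h0 h3
    · norm_num at h3
  exact diam_le_of_annulus hρ (by positivity) hfin hpos hBG hmass' x y

end diam

end Crest.Agent.R281.Di2_612
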