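/-
R281 / S-DIAM-CF (helper612), part 1: chart-free diameter bound, abstract form.
-/
import Crest.Agent.R281.Di2_612

namespace Crest.Agent.R281.Df1_612

open MeasureTheory Measure Set Metric Module
open scoped ENNReal NNReal
open Crest.Agent.R281.Di1_612 Crest.Agent.R281.Di2_612

section

variable {E : Type*} [NormedAddCommGroup E] [NormedSpace ℝ E] [FiniteDimensional ℝ E]
  [MeasurableSpace E] [BorelSpace E] {m : Measure E} [m.IsAddHaarMeasure]

/-- bad base points: `{a ∈ K | T m(K) < ∫_K len g a q dq}` has measure at most `m(K)/lam` if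
`T = 2^k D C lam`. -/
theorem bad_base {K : Set E} (hK : Convex ℝ K) (hKm : MeasurableSet K) (h0 : m K ≠ 0)
    (h1 : m K ≠ ∞) {g : E → ℝ≥0∞} (hg : Measurable g) {C D lam : ℝ} (hC : 0 < C) (hD : 0 < D)
    (hlam : 0 < lam)
    (hgC : ∫⁻ x in K, g x ∂m ≤ ENNReal.ofReal C * m K)
    (hDK : ediam K ≤ ENNReal.ofReal D) :
    MeasurableSet {a ∈ K | ENNReal.ofReal (2 ^ finrank ℝ E * D * C * lam) * m K <
        ∫⁻ q in K, len g a q ∂m} ∧
    m {a ∈ K | ENNReal.ofReal (2 ^ finrank ℝ E * D * C * lam) * m K <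
        ∫⁻ q in K, len g a q ∂m} ≤ ENNReal.ofReal (1 / lam) * m K := by
  set k := finrank ℝ E
  set T : ℝ := 2 ^ k * D * C * lam with hT
  have hT0 : 0 < T := by positivity
  have hm := measurable_len (E := E) hg
  have hm1 : Measurable (fun a : E => ∫⁻ q in K, len g a q ∂m) := hm.lintegral_prod_right'
  have hset : MeasurableSet {a ∈ K | ENNReal.ofReal T * m K < ∫⁻ q in K, len g a q ∂m} :=
    hKm.inter (measurableSet_lt measurable_const hm1)
  refine ⟨hset, ?_⟩
  have hX0 : ENNReal.ofReal T * m K ≠ 0 := mul_ne_zero (by simpa using hT0) h0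
  have hX1 : ENNReal.ofReal T * m K ≠ ∞ := ENNReal.mul_ne_top ENNReal.ofReal_ne_top h1
  have h2 := mul_meas_ge_le_lintegral (μ := m.restrict K) hm1 (ENNReal.ofReal T * m K)
  rw [Measure.restrict_apply (measurableSet_le measurable_const hm1)] at h2
  have h3 : ∫⁻ a in K, ∫⁻ q in K, len g a q ∂m ∂m ≤
      ENNReal.ofReal (2 ^ k * D * C) * m K * m K := by
    refine (len_le hK hKm hg).trans ?_
    calc ediam K * (2 ^ k * (m K * ∫⁻ x in K, g x ∂m))
        ≤ ENNReal.ofReal D * (2 ^ k * (m K * (ENNReal.ofReal C * m K))) := by gcongr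
      _ = ENNReal.ofReal (2 ^ k * D * C) * m K * m K := by
          rw [ENNReal.ofReal_mul (by positivity : (0:ℝ) ≤ 2 ^ k * D),
            ENNReal.ofReal_mul (by positivity : (0:ℝ) ≤ 2 ^ k), ENNReal.ofReal_pow (by norm_num)]
          norm_num
          ring
  have h4 : m {a ∈ K | ENNReal.ofReal T * m K < ∫⁻ q in K, len g a q ∂m} ≤
      m ({a | ENNReal.ofReal T * m K ≤ ∫⁻ q in K, len g a q ∂m} ∩ K) :=
    measure_mono fun a ha => ⟨ha.2.le, ha.1⟩
  refine h4.trans ?_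
  have h5 : ENNReal.ofReal T * m K * m ({a | ENNReal.ofReal T * m K ≤ ∫⁻ q in K, len g a q ∂m} ∩ K)
      ≤ ENNReal.ofReal T * m K * (ENNReal.ofReal (1 / lam) * m K) := by
    refine (h2.trans h3).trans (le_of_eq ?_)
    have e : (2 : ℝ) ^ k * D * C = T * (1 / lam) := by
      rw [hT]; field_simp
    rw [e, ENNReal.ofReal_mul hT0.le]
    ring
  exact (ENNReal.mul_le_mul_iff_right hX0 hX1).1 h5

omit [m.IsAddHaarMeasure] in
/-- For a good base point, the set of far targets is small. -/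
theorem far_targets {K : Set E} {g : E → ℝ≥0∞} (hg : Measurable g)
    {a : E} {T : ℝ≥0∞} (ha : ∫⁻ q in K, len g a q ∂m ≤ T * m K) {ρ : ℝ≥0∞} (hρ : ρ ≠ 0)
    (hρ' : ρ ≠ ∞) :
    (m.restrict K) {q | ρ < len g a q} ≤ T * m K / ρ := by
  have hm := measurable_len (E := E) hg
  have hma : Measurable (fun b : E => len g a b) := hm.comp measurable_prodMk_left
  have h3 := mul_meas_ge_le_lintegral (μ := m.restrict K) hma ρ
  rw [ENNReal.le_div_iff_mul_le (Or.inl hρ) (Or.inl hρ')]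
  calc (m.restrict K) {b | ρ < len g a b} * ρ ≤ (m.restrict K) {x | ρ ≤ len g a x} * ρ := by
        gcongr
        exact fun h => le_of_lt h
    _ = ρ * (m.restrict K) {x | ρ ≤ len g a x} := mul_comm _ _
    _ ≤ _ := h3
    _ ≤ _ := ha

omit [m.IsAddHaarMeasure] in
/-- PIGEONHOLE: among `d+1` good points two are within `2 ρ`. -/
theorem pigeon {X : Type*} [PseudoMetricSpace X] {K : Set E} (h0 : m K ≠ 0) (h1 : m K ≠ ∞)
    {g : E → ℝ≥0∞} (hg : Measurable g) {D : Set X} {ζ : X → E} {d : ℕ}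
    (hd : ∀ᵐ q ∂(m.restrict K), {y ∈ D | ζ y = q}.encard ≤ d)
    {T ρ : ℝ} (hT : 0 < T) (hρ : 2 * (d + 1) * T ≤ ρ)
    {S : Finset X} (hS : d < S.card)
    (hlift : ∀ x ∈ S, ∀ᵐ q ∂(m.restrict K), ∃ y ∈ D, ζ y = q ∧ edist x y ≤ len g (ζ x) q)
    (hgood : ∀ x ∈ S, ∫⁻ q in K, len g (ζ x) q ∂m ≤ ENNReal.ofReal T * m K) :
    ∃ x ∈ S, ∃ y ∈ S, x ≠ y ∧ dist x y ≤ 2 * ρ := by
  classical
  obtain ⟨S', hS', hcard⟩ := Finset.exists_subset_card_eq (s := S) (n := d + 1) (by omega)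
  have hρ0 : 0 < ρ := lt_of_lt_of_le (by positivity) hρ
  -- the union of the bad sets is not everything
  have hbad : (m.restrict K) (⋃ x ∈ S', {q | ENNReal.ofReal ρ < len g (ζ x) q}) ≤ m K / 2 := by
    refine (measure_biUnion_finset_le _ _).trans ?_
    calc ∑ x ∈ S', (m.restrict K) {q | ENNReal.ofReal ρ < len g (ζ x) q}
        ≤ ∑ x ∈ S', ENNReal.ofReal T * m K / ENNReal.ofReal ρ := by
          refine Finset.sum_le_sum fun x hx => ?_
          exact far_targets hg (hgood x (hS' hx)) (by simpa using hρ0) ENNReal.ofReal_ne_top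
      _ = (d + 1 : ℕ) * (ENNReal.ofReal T * m K / ENNReal.ofReal ρ) := by
          rw [Finset.sum_const, hcard, nsmul_eq_mul]
      _ ≤ m K / 2 := by
          rw [← mul_div_assoc]
          refine ENNReal.div_le_of_le_mul ?_
          have h2 : ((d + 1 : ℕ) : ℝ≥0∞) * (ENNReal.ofReal T * m K) =
              ENNReal.ofReal ((d + 1) * T) * m K := by
            rw [ENNReal.ofReal_mul (by positivity)]
            have : ENNReal.ofReal ((d : ℝ) + 1) = ((d + 1 : ℕ) : ℝ≥0∞) := by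
              rw [← ENNReal.ofReal_natCast]; push_cast; rfl
            rw [this]; ring
          rw [h2]
          have h3 : ENNReal.ofReal ((d + 1) * T) ≤ 2⁻¹ * ENNReal.ofReal ρ := by
            have h4 : (2⁻¹ : ℝ≥0∞) = ENNReal.ofReal (2⁻¹) := by
              rw [ENNReal.ofReal_inv_of_pos (by norm_num)]; norm_num
            rw [h4, ← ENNReal.ofReal_mul (by norm_num)]
            exact ENNReal.ofReal_le_ofReal (by nlinarith)
          calc ENNReal.ofReal ((d + 1) * T) * m K ≤ 2⁻¹ * ENNReal.ofReal ρ * m K := by gcongr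
            _ = m K / 2 * ENNReal.ofReal ρ := by
              rw [ENNReal.div_eq_inv_mul]; ring
  have hlift' : ∀ᵐ q ∂(m.restrict K), ∀ x ∈ S', ∃ y ∈ D, ζ y = q ∧ edist x y ≤ len g (ζ x) q := by
    exact (Filter.eventually_all_finset S').2 fun x hx => hlift x (hS' hx)
  have hpos : m K / 2 < m K := ENNReal.half_lt_self h0 h1
  have hex : ∃ q, (q ∉ ⋃ x ∈ S', {q | ENNReal.ofReal ρ < len g (ζ x) q}) ∧
      (∀ x ∈ S', ∃ y ∈ D, ζ y = q ∧ edist x y ≤ len g (ζ x) q) ∧
      {y ∈ D | ζ y = q}.encard ≤ d := by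
    by_contra hcon
    push Not at hcon
    have h5 : ∀ᵐ q ∂(m.restrict K), q ∈ ⋃ x ∈ S', {q | ENNReal.ofReal ρ < len g (ζ x) q} := by
      filter_upwards [hlift', hd] with q hq1 hq2
      by_contra hq
      exact absurd hq2 (not_le.2 (hcon q hq hq1))
    have h6 : (m.restrict K) univ ≤
        (m.restrict K) (⋃ x ∈ S', {q | ENNReal.ofReal ρ < len g (ζ x) q}) :=
      measure_mono_ae (by filter_upwards [h5] with q hq _ using hq)
    rw [Measure.restrict_apply_univ] at h6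
    exact absurd (h6.trans hbad) (not_le.2 hpos)
  obtain ⟨q, hq1, hq2, hq3⟩ := hex
  choose! y hyD hyζ hydist using hq2
  have hfin : {y ∈ D | ζ y = q}.Finite := Set.finite_of_encard_le_coe hq3
  -- pigeonhole
  obtain ⟨a, ha, b, hb, hab, heq⟩ := Finset.exists_ne_map_eq_of_card_lt_of_maps_to
    (s := S') (t := hfin.toFinset) (f := y) (by
      have : hfin.toFinset.card ≤ d := by
        have h7 := hq3
        rw [hfin.encard_eq_coe_toFinset_card] at h7
        exact_mod_cast h7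
      omega) (fun x hx => by
        rw [Finset.mem_coe, Set.Finite.mem_toFinset]
        exact ⟨hyD x hx, hyζ x hx⟩)
  refine ⟨a, hS' ha, b, hS' hb, hab, ?_⟩
  have hlen : ∀ x ∈ S', dist x (y x) ≤ ρ := by
    intro x hx
    have h8 : ¬ ENNReal.ofReal ρ < len g (ζ x) q := by
      intro h
      exact hq1 (mem_iUnion₂.2 ⟨x, hx, h⟩)
    have h9 := (hydist x hx).trans (not_lt.1 h8)
    rwa [edist_dist, ENNReal.ofReal_le_ofReal_iff hρ0.le] at h9
  have h10 := hlen a ha
  have h11 := hlen b hb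
  rw [← heq] at h11
  have h12 := dist_triangle a (y a) b
  rw [dist_comm (y a) b] at h12
  linarith

/-- A set in which among any `d+1` points two are `r`-close is covered by `d` closed `r`-balls. -/
theorem exists_cover {X : Type*} [PseudoMetricSpace X] {G : Set X} {d : ℕ} {r : ℝ} (hr : 0 ≤ r)
    (h : ∀ S : Finset X, (↑S : Set X) ⊆ G → d < S.card → ∃ x ∈ S, ∃ y ∈ S, x ≠ y ∧ dist x y ≤ r) :
    ∃ S : Finset X, S.card ≤ d ∧ G ⊆ ⋃ p ∈ S, closedBall p r := by
  classical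
  let P : ℕ → Prop := fun k => ∃ S : Finset X, (↑S : Set X) ⊆ G ∧ S.card = k ∧
    ∀ x ∈ S, ∀ y ∈ S, x ≠ y → r < dist x y
  have hP0 : P 0 := ⟨∅, by simp, rfl, by simp⟩
  have hPd : ∀ k, P k → k ≤ d := by
    rintro k ⟨S, hSG, hk, hsep⟩
    by_contra hcon
    obtain ⟨x, hx, y, hy, hxy, hd⟩ := h S hSG (by omega)
    exact absurd hd (not_le.2 (hsep x hx y hy hxy))
  have hk := Nat.findGreatest_spec (P := P) (Nat.zero_le d) hP0
  set k := Nat.findGreatest P d
  obtain ⟨S, hSG, hSk, hsep⟩ := hk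
  refine ⟨S, by rw [hSk]; exact Nat.findGreatest_le d, fun x hx => ?_⟩
  by_contra hcon
  have hfar : ∀ p ∈ S, r < dist x p := by
    intro p hp
    by_contra hle
    exact hcon (mem_iUnion₂.2 ⟨p, hp, mem_closedBall.2 (not_lt.1 hle)⟩)
  have hxS : x ∉ S := by
    intro hxS
    have := hfar x hxS
    rw [dist_self] at this
    linarith
  have hPk : P (k + 1) := by
    refine ⟨insert x S, ?_, ?_, ?_⟩
    · rw [Finset.coe_insert]
      exact insert_subset hx hSG
    · rw [Finset.card_insert_of_notMem hxS, hSk]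
    · intro a ha b hb hab
      rw [Finset.mem_insert] at ha hb
      rcases ha with rfl | ha <;> rcases hb with rfl | hb
      · exact absurd rfl hab
      · exact hfar b hb
      · rw [dist_comm]; exact hfar a ha
      · exact hsep a ha b hb hab
  have h13 := Nat.le_findGreatest (hPd _ hPk) hPk
  omega

/-- (CF1) one ball of radius `C L` and definite mass. -/
theorem exists_ball {X : Type*} [PseudoMetricSpace X] [MeasurableSpace X]
    {ν : Measure X} (hν0 : ν univ ≠ 0) (hν1 : ν univ ≠ ∞)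
    {K : Set E} (hK : Convex ℝ K) (hKm : MeasurableSet K) (h0 : m K ≠ 0) (h1 : m K ≠ ∞)
    {g : E → ℝ≥0∞} (hg : Measurable g) {G D : Set X} {ζ : X → E} {d : ℕ}
    {B C Dm c : ℝ} (hB : 0 < B) (hC : 0 < C) (hDm : 0 < Dm) (hc : 0 < c)
    (hζ : ∀ x ∈ G, ζ x ∈ K)
    (hlift : ∀ x ∈ G, ∀ᵐ q ∂(m.restrict K), ∃ y ∈ D, ζ y = q ∧ edist x y ≤ len g (ζ x) q)
    (hd : ∀ᵐ q ∂(m.restrict K), {y ∈ D | ζ y = q}.encard ≤ d)
    (hpush : ∀ A : Set E, A ⊆ K → MeasurableSet A →
      ν (G ∩ ζ ⁻¹' A) * m K ≤ ENNReal.ofReal B * m A * ν univ)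
    (hgC : ∫⁻ x in K, g x ∂m ≤ ENNReal.ofReal C * m K)
    (hDK : ediam K ≤ ENNReal.ofReal Dm)
    (hG : ENNReal.ofReal c * ν univ ≤ ν G) :
    0 < d ∧ ∃ p : X, ENNReal.ofReal (c / (4 * d)) * ν univ ≤
      ν (closedBall p (2 * (2 * (d + 1) * (2 ^ finrank ℝ E * Dm * C * (2 * B / c))))) := by
  classical
  set lam : ℝ := 2 * B / c with hlam
  have hlam0 : 0 < lam := by positivity
  set T : ℝ := 2 ^ finrank ℝ E * Dm * C * lam with hT
  have hT0 : 0 < T := by positivity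
  set ρ : ℝ := 2 * (d + 1) * T with hρ
  have hρ0 : 0 < ρ := by positivity
  obtain ⟨hbm, hbad⟩ := bad_base (m := m) hK hKm h0 h1 hg hC hDm hlam0 hgC hDK
  set Bad : Set E := {a ∈ K | ENNReal.ofReal T * m K < ∫⁻ q in K, len g a q ∂m} with hBad
  have hνbad : ν (G ∩ ζ ⁻¹' Bad) ≤ ENNReal.ofReal (c / 2) * ν univ := by
    have h2 := hpush Bad (fun a ha => ha.1) hbm
    have h3 : ν (G ∩ ζ ⁻¹' Bad) * m K ≤ ENNReal.ofReal (c / 2) * ν univ * m K := by
      refine h2.trans ?_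
      calc ENNReal.ofReal B * m Bad * ν univ
          ≤ ENNReal.ofReal B * (ENNReal.ofReal (1 / lam) * m K) * ν univ := by gcongr
        _ = ENNReal.ofReal (c / 2) * ν univ * m K := by
            have e : c / 2 = B * (1 / lam) := by rw [hlam]; field_simp
            rw [e, ENNReal.ofReal_mul hB.le]
            ring
    exact (ENNReal.mul_le_mul_iff_left h0 h1).1 h3
  set G' : Set X := G \ ζ ⁻¹' Bad with hG'
  have hνG' : ENNReal.ofReal (c / 2) * ν univ ≤ ν G' := by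
    have h4 : ν G ≤ ν (G ∩ ζ ⁻¹' Bad) + ν G' := by
      have : G = (G ∩ ζ ⁻¹' Bad) ∪ G' := by
        rw [hG']; exact (inter_union_sdiff G _).symm
      calc ν G = ν ((G ∩ ζ ⁻¹' Bad) ∪ G') := by rw [← this]
        _ ≤ _ := measure_union_le _ _
    have h5 : ENNReal.ofReal (c / 2) * ν univ + ENNReal.ofReal (c / 2) * ν univ ≤
        ENNReal.ofReal (c / 2) * ν univ + ν G' := by
      calc ENNReal.ofReal (c / 2) * ν univ + ENNReal.ofReal (c / 2) * ν univ
          = ENNReal.ofReal c * ν univ := by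
            rw [← add_mul, ← ENNReal.ofReal_add (by positivity) (by positivity)]
            congr 2
            ring
        _ ≤ ν G := hG
        _ ≤ ν (G ∩ ζ ⁻¹' Bad) + ν G' := h4
        _ ≤ _ := by gcongr
    exact (ENNReal.add_le_add_iff_left (ENNReal.mul_ne_top ENNReal.ofReal_ne_top hν1)).1 h5
  obtain ⟨S, hScard, hScov⟩ := exists_cover (G := G') (d := d) (r := 2 * ρ) (by positivity)
    (fun S hSG hS => by
      refine pigeon h0 h1 hg hd hT0 le_rfl hS (fun x hx => hlift x (hSG hx).1) (fun x hx => ?_)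
      have h6 := (hSG hx).2
      have h7 := hζ x (hSG hx).1
      by_contra hcon
      exact h6 ⟨h7, not_le.1 hcon⟩)
  have hpos2 : 0 < ENNReal.ofReal (c / 2) * ν univ :=
    ENNReal.mul_pos (by simpa using hc) hν0
  have hSne : S.Nonempty := by
    by_contra hS
    rw [Finset.not_nonempty_iff_eq_empty] at hS
    rw [hS] at hScov
    simp only [Finset.notMem_empty, iUnion_of_empty, iUnion_empty, subset_empty_iff] at hScov
    rw [hScov, measure_empty] at hνG'
    exact absurd hνG' (not_le.2 hpos2)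
  have hd0 : 0 < d := lt_of_lt_of_le (Finset.card_pos.2 hSne) hScard
  refine ⟨hd0, ?_⟩
  by_contra hcon
  push Not at hcon
  have hd0' : (0 : ℝ) < d := by exact_mod_cast hd0
  have h8 : ν G' ≤ ENNReal.ofReal (c / 4) * ν univ := by
    calc ν G' ≤ ν (⋃ p ∈ S, closedBall p (2 * ρ)) := measure_mono hScov
      _ ≤ ∑ p ∈ S, ν (closedBall p (2 * ρ)) := measure_biUnion_finset_le _ _
      _ ≤ ∑ p ∈ S, ENNReal.ofReal (c / (4 * d)) * ν univ :=
          Finset.sum_le_sum fun p _ => (hcon p).le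
      _ = (S.card : ℝ≥0∞) * (ENNReal.ofReal (c / (4 * d)) * ν univ) := by
          rw [Finset.sum_const, nsmul_eq_mul]
      _ ≤ (d : ℝ≥0∞) * (ENNReal.ofReal (c / (4 * d)) * ν univ) := by
          gcongr
      _ = ENNReal.ofReal (c / 4) * ν univ := by
          rw [← mul_assoc, ← ENNReal.ofReal_natCast d, ← ENNReal.ofReal_mul hd0'.le]
          congr 2
          field_simp
  have h9 : ENNReal.ofReal (c / 2) * ν univ ≤ ENNReal.ofReal (c / 4) * ν univ := hνG'.trans h8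
  have h10 := (ENNReal.mul_le_mul_iff_left hν0 hν1).1 h9
  rw [ENNReal.ofReal_le_ofReal_iff (by linarith)] at h10
  linarith

/-- (CF1) CHART-FREE DIAMETER BOUND. -/
theorem diam_le_cf {X : Type*} [PseudoMetricSpace X] [MeasurableSpace X] {n : ℕ}
    {ν : Measure X} (hν0 : ν univ ≠ 0) (hν1 : ν univ ≠ ∞)
    (hBG : ∀ q : X, ∀ r R : ℝ, 0 < r → r ≤ R →
      ν (closedBall q R \ closedBall q r) ≤ ENNReal.ofReal ((R / r) ^ n - 1) * ν (closedBall q r))
    {K : Set E} (hK : Convex ℝ K) (hKm : MeasurableSet K) (h0 : m K ≠ 0) (h1 : m K ≠ ∞)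
    {g : E → ℝ≥0∞} (hg : Measurable g) {G D : Set X} {ζ : X → E} {d : ℕ}
    {B C Dm c : ℝ} (hB : 0 < B) (hC : 0 < C) (hDm : 0 < Dm) (hc : 0 < c)
    (hζ : ∀ x ∈ G, ζ x ∈ K)
    (hlift : ∀ x ∈ G, ∀ᵐ q ∂(m.restrict K), ∃ y ∈ D, ζ y = q ∧ edist x y ≤ len g (ζ x) q)
    (hd : ∀ᵐ q ∂(m.restrict K), {y ∈ D | ζ y = q}.encard ≤ d)
    (hpush : ∀ A : Set E, A ⊆ K → MeasurableSet A →
      ν (G ∩ ζ ⁻¹' A) * m K ≤ ENNReal.ofReal B * m A * ν univ)
    (hgC : ∫⁻ x in K, g x ∂m ≤ ENNReal.ofReal C * m K)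
    (hDK : ediam K ≤ ENNReal.ofReal Dm)
    (hG : ENNReal.ofReal c * ν univ ≤ ν G) (x y : X) :
    dist x y ≤ diamC n (c / (4 * d)) *
      (2 * (2 * (d + 1) * (2 ^ finrank ℝ E * Dm * C * (2 * B / c)))) := by
  obtain ⟨hd0, p, hp⟩ := exists_ball (m := m) hν0 hν1 hK hKm h0 h1 hg hB hC hDm hc hζ hlift hd
    hpush hgC hDK hG
  have hd0' : (0 : ℝ) < d := by exact_mod_cast hd0
  exact diam_le_of_annulus (by positivity) (by positivity) hν1 hν0 hBG hp x y

end

end Crest.Agent.R281.Df1_612
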