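/-
R281 / S-DIAM-CF (helper612), part 2: almost every segment misses a holomorphic hypersurface.
Mathlib only.
-/
import Mathlib

namespace Crest.Agent.R281.Df2_612

open MeasureTheory Measure Set Metric Module Complex
open scoped ENNReal NNReal Real

variable {E : Type*} [NormedAddCommGroup E] [NormedSpace ℂ E] [FiniteDimensional ℂ E]
  [MeasurableSpace E] [BorelSpace E] {m : Measure E} [m.IsAddHaarMeasure]

/-- rotations preserve Haar measure -/
theorem measurePreserving_rot (θ : ℝ) :
    MeasurePreserving (fun v : E => Complex.exp (θ * I) • v) m m := by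
  have : FiniteDimensional ℝ E := FiniteDimensional.complexToReal E
  set c : ℂ := Complex.exp (θ * I)
  have hc : ‖c‖ = 1 := Complex.norm_exp_ofReal_mul_I θ
  have hc0 : c ≠ 0 := by
    intro h
    rw [h, norm_zero] at hc
    exact zero_ne_one hc
  let L : E →ₗ[ℝ] E :=
    { toFun := fun v => c • v
      map_add' := fun a b => smul_add c a b
      map_smul' := fun r a => by
        simp only [RingHom.id_apply]
        exact smul_comm c r a }
  have hLball : L ⁻¹' (ball (0 : E) 1) = ball (0 : E) 1 := by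
    ext v
    simp only [mem_preimage, mem_ball_zero_iff]
    change ‖c • v‖ < 1 ↔ ‖v‖ < 1
    rw [norm_smul, hc, one_mul]
  have hdet : LinearMap.det L ≠ 0 := by
    intro h
    have hinj : Function.Injective L := by
      intro a b hab
      exact smul_right_injective E hc0 hab
    have := LinearMap.isUnit_iff_ker_eq_bot L |>.2 (LinearMap.ker_eq_bot.2 hinj)
    exact (LinearMap.isUnit_det L this).ne_zero h
  have h1 := Measure.addHaar_preimage_linearMap m hdet (ball (0 : E) 1)
  rw [hLball] at h1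
  have hb0 : m (ball (0 : E) 1) ≠ 0 := (measure_ball_pos m 0 one_pos).ne'
  have hb1 : m (ball (0 : E) 1) ≠ ∞ := measure_ball_lt_top.ne
  have h2 : ENNReal.ofReal |(LinearMap.det L)⁻¹| = 1 := by
    have h3 : ENNReal.ofReal |(LinearMap.det L)⁻¹| * m (ball (0 : E) 1) = 1 * m (ball (0 : E) 1) := by
      rw [one_mul]; exact h1.symm
    exact (ENNReal.mul_left_inj hb0 hb1).1 h3
  refine ⟨?_, ?_⟩
  · fun_prop
  · have h4 : Measure.map L m = ENNReal.ofReal |(LinearMap.det L)⁻¹| • m :=
      Measure.map_linearMap_addHaar_eq_smul_addHaar m hdet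
    rw [h2, one_smul] at h4
    exact h4

/-- zeros of a non-zero analytic function of one complex variable on real rays: the set of
directions `θ` for which the ray meets the zero set is countable. -/
theorem countable_dirs {h : ℂ → ℂ} (hh : Differentiable ℂ h) (h0 : h 0 ≠ 0) :
    {θ : ℝ | ∃ t ∈ Icc (0 : ℝ) 1, h (t * Complex.exp (θ * I)) = 0}.Countable := by
  have hcount : (h ⁻¹' {0}).Countable := by
    have han : AnalyticOnNhd ℂ h univ := fun z _ => hh.analyticAt z
    have hd : (h ⁻¹' {0})ᶜ ∈ Filter.codiscrete ℂ := by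
      have := han.preimage_zero_mem_codiscrete (x := 0) h0
      exact this
    have hdisc : IsDiscrete (h ⁻¹' {0}) := by
      have h3 := mem_codiscrete'.1 hd
      have h4 := h3.2
      rw [compl_compl] at h4
      exact h4
    have : DiscreteTopology (h ⁻¹' {0} : Set ℂ) := hdisc.to_subtype
    have hc : Countable (h ⁻¹' {0} : Set ℂ) := countable_of_Lindelof_of_discrete
    exact hc.to_set
  have hsub : {θ : ℝ | ∃ t ∈ Icc (0 : ℝ) 1, h (t * Complex.exp (θ * I)) = 0} ⊆
      ⋃ τ ∈ h ⁻¹' {0}, {θ : ℝ | (‖τ‖ : ℂ) * Complex.exp (θ * I) = τ} := by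
    rintro θ ⟨t, ht, hz⟩
    refine mem_iUnion₂.2 ⟨t * Complex.exp (θ * I), hz, ?_⟩
    have : ‖(t : ℂ) * Complex.exp (θ * I)‖ = t := by
      rw [norm_mul, Complex.norm_exp_ofReal_mul_I, mul_one, Complex.norm_real, Real.norm_of_nonneg ht.1]
    simp only [mem_ofPred_eq, this]
  refine Countable.mono hsub (hcount.biUnion fun τ hτ => ?_)
  have hτ0 : τ ≠ 0 := by
    rintro rfl
    exact h0 hτ
  by_cases hne : ∃ θ0 : ℝ, (‖τ‖ : ℂ) * Complex.exp (θ0 * I) = τ
  · obtain ⟨θ0, hθ0⟩ := hne
    refine Countable.mono ?_ (countable_range fun n : ℤ => θ0 + n * (2 * π))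
    intro θ hθ
    have h1 : Complex.exp (θ * I) = Complex.exp (θ0 * I) := by
      have h2 : (‖τ‖ : ℂ) ≠ 0 := by
        simpa using hτ0
      exact mul_left_cancel₀ h2 (hθ.trans hθ0.symm)
    obtain ⟨n, hn⟩ := Complex.exp_eq_exp_iff_exists_int.1 h1
    refine ⟨n, ?_⟩
    have h3 : (θ : ℂ) * I = ((θ0 : ℂ) + n * (2 * π)) * I := by rw [hn]; ring
    have h4 : (θ : ℂ) = (θ0 : ℂ) + n * (2 * π) := mul_right_cancel₀ I_ne_zero h3
    have h5 : θ = θ0 + n * (2 * π) := by exact_mod_cast h4
    exact h5.symm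
  · push Not at hne
    have : {θ : ℝ | (‖τ‖ : ℂ) * Complex.exp (θ * I) = τ} = ∅ := by
      ext θ
      simpa using hne θ
    rw [this]
    exact countable_empty

/-- (CF2), centred: `F` entire, `F z0 ≠ 0`: almost every `v` has `F (z0 + t v) ≠ 0` on `[0,1]`. -/
theorem ae_ray_ne_zero {F : E → ℂ} (hF : Differentiable ℂ F) {z0 : E} (h0 : F z0 ≠ 0) :
    ∀ᵐ v ∂m, ∀ t ∈ Icc (0 : ℝ) 1, F (z0 + t • v) ≠ 0 := by
  have : FiniteDimensional ℝ E := FiniteDimensional.complexToReal E
  have : SecondCountableTopology E := by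
    have : ProperSpace E := FiniteDimensional.proper ℝ E
    infer_instance
  set Bad : Set E := {v | ∃ t ∈ Icc (0 : ℝ) 1, F (z0 + t • v) = 0} with hBad
  have hclosed : IsClosed Bad := by
    have h1 : IsClosed {p : E × Icc (0 : ℝ) 1 | F (z0 + (p.2 : ℝ) • p.1) = 0} := by
      refine isClosed_eq (hF.continuous.comp ?_) continuous_const
      fun_prop
    have h2 := isClosedMap_fst_of_compactSpace (X := E) (Y := Icc (0 : ℝ) 1) _ h1
    have h3 : Bad = Prod.fst '' {p : E × Icc (0 : ℝ) 1 | F (z0 + (p.2 : ℝ) • p.1) = 0} := by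
      ext v
      constructor
      · rintro ⟨t, ht, hz⟩
        exact ⟨(v, ⟨t, ht⟩), hz, rfl⟩
      · rintro ⟨⟨v', t⟩, hz, rfl⟩
        exact ⟨t, t.2, hz⟩
    rw [h3]
    exact h2
  have hmeas : MeasurableSet Bad := hclosed.measurableSet
  suffices hzero : m Bad = 0 by
    rw [ae_iff]
    refine measure_mono_null ?_ hzero
    intro v hv
    simp only [mem_ofPred_eq, not_forall, not_not] at hv
    obtain ⟨t, ht, hz⟩ := hv
    exact ⟨t, ht, hz⟩
  -- Fubini over the rotations
  have hrot : ∀ θ : ℝ, m ((fun v : E => Complex.exp (θ * I) • v) ⁻¹' Bad) = m Bad := fun θ =>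
    (measurePreserving_rot (m := m) θ).measure_preimage hmeas.nullMeasurableSet
  have hfib : ∀ v : E, (volume.restrict (Ioc (0 : ℝ) 1)) {θ : ℝ | Complex.exp (θ * I) • v ∈ Bad} = 0 := by
    intro v
    refine le_antisymm ((Measure.restrict_apply_le _ _).trans ?_) bot_le
    have hc : {θ : ℝ | Complex.exp (θ * I) • v ∈ Bad}.Countable := by
      have hd : Differentiable ℂ (fun τ : ℂ => F (z0 + τ • v)) := by
        refine hF.comp ?_
        fun_prop
      refine Countable.mono ?_ (countable_dirs hd (by simpa using h0))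
      rintro θ ⟨t, ht, hz⟩
      refine ⟨t, ht, ?_⟩
      rw [← hz]
      congr 2
      rw [mul_smul]
      exact (RCLike.real_smul_eq_coe_smul (K := ℂ) t _).symm
    exact (hc.measure_zero volume).le
  have hprod : MeasurableSet {p : E × ℝ | Complex.exp (p.2 * I) • p.1 ∈ Bad} := by
    refine hmeas.preimage ?_
    fun_prop
  have h5 : (m.prod (volume.restrict (Ioc (0 : ℝ) 1))) {p : E × ℝ | Complex.exp (p.2 * I) • p.1 ∈ Bad} = 0 := by
    rw [Measure.measure_prod_null hprod]
    exact Filter.Eventually.of_forall fun v => hfib v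
  have h6 : (m.prod (volume.restrict (Ioc (0 : ℝ) 1))) {p : E × ℝ | Complex.exp (p.2 * I) • p.1 ∈ Bad}
      = ∫⁻ θ in Ioc (0 : ℝ) 1, m Bad := by
    rw [Measure.prod_apply_symm hprod]
    refine lintegral_congr fun θ => ?_
    exact hrot θ
  rw [h5, setLIntegral_const, Real.volume_Ioc] at h6
  simpa using h6.symm

/-- (CF2) NULL SETS: `F` entire on `E`, `F z0 ≠ 0`: for almost every `q` the closed segment
`[z0, q]` misses the zero set of `F`. -/
theorem ae_segment_ne_zero {F : E → ℂ} (hF : Differentiable ℂ F) {z0 : E} (h0 : F z0 ≠ 0) :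
    ∀ᵐ q ∂m, ∀ t ∈ Icc (0 : ℝ) 1, F (z0 + t • (q - z0)) ≠ 0 := by
  have h1 := ae_ray_ne_zero (m := m) hF h0
  have h2 : MeasurePreserving (fun q : E => q - z0) m m := measurePreserving_sub_right m z0
  exact h2.quasiMeasurePreserving.ae h1

end Crest.Agent.R281.Df2_612
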