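/-
R281 / S-DIAM-CF (helper612), part 3: lifting of straight segments through a covering and the
length of the lift.
-/
import Crest.Agent.R281.Df1_612
import Crest.Agent.R281.Df2_612

namespace Crest.Agent.R281.Df3_612

open MeasureTheory Measure Set Metric Module Complex
open scoped ENNReal NNReal Real Topology unitInterval

/-- A curve whose local speed is at most the continuous function `c` has length at most `∫ c`. -/
theorem dist_le_integral {X : Type*} [PseudoMetricSpace X] {γ : ℝ → X} (hγ : Continuous γ)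
    {c : ℝ → ℝ} (hc : Continuous c)
    (hloc : ∀ t ∈ Ico (0 : ℝ) 1, ∀ ε > 0, ∀ᶠ u in 𝓝[>] t, dist (γ t) (γ u) ≤ (c t + ε) * (u - t)) :
    dist (γ 0) (γ 1) ≤ ∫ t in (0 : ℝ)..1, c t := by
  set F : ℝ → ℝ := fun t => dist (γ 0) (γ t) with hF
  set B : ℝ → ℝ := fun t => ∫ s in (0 : ℝ)..t, c s with hB
  have hBd : ∀ x : ℝ, HasDerivAt B (c x) x := fun x =>
    (hc.integral_hasStrictDerivAt 0 x).hasDerivAt
  have hBc : Continuous B := continuous_iff_continuousAt.2 fun x => (hBd x).continuousAt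
  have h1 := image_le_of_liminf_slope_right_le_deriv_boundary (f := F) (a := 0) (b := 1)
    (continuous_const.dist hγ).continuousOn (B := B) (B' := c)
    (by simp [hF, hB]) hBc.continuousOn (fun x _ => (hBd x).hasDerivWithinAt)
    (fun x hx r hr => by
      refine Filter.Eventually.frequently ?_
      have h2 := hloc x hx ((r - c x) / 2) (by linarith)
      filter_upwards [h2, self_mem_nhdsWithin] with u hu hxu
      have hxu' : x < u := hxu
      have hpos : 0 < u - x := by linarith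
      rw [slope_def_field, div_lt_iff₀ hpos]
      have h3 : F u - F x ≤ dist (γ x) (γ u) := by
        have := dist_triangle (γ 0) (γ x) (γ u)
        simp only [hF]
        linarith
      have h4 : (c x + (r - c x) / 2) * (u - x) < r * (u - x) := by
        refine mul_lt_mul_of_pos_right ?_ hpos
        linarith
      linarith)
  exact h1 (x := 1) (by simp)

variable {ι : Type*} [Fintype ι]

/-- coordinatewise exponential -/
noncomputable def expPi (z : ι → ℂ) : ι → ℂ := fun j => Complex.exp (z j)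

omit [Fintype ι] in
theorem continuous_expPi : Continuous (expPi (ι := ι)) := by
  unfold expPi; fun_prop

theorem differentiable_expPi : Differentiable ℂ (expPi (ι := ι)) := by
  unfold expPi; fun_prop

omit [Fintype ι] in
theorem expPi_ne_zero (z : ι → ℂ) (j : ι) : expPi z j ≠ 0 := Complex.exp_ne_zero _

/-- local sections with the metric estimate: near `p` the inverse branch of `log f` is
`(sg p + ε)`-Lipschitz. -/
def LenAt {X : Type*} [PseudoMetricSpace X] (f : X → ι → ℂ) (sg : X → ℝ) (p : X) : Prop :=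
  ∀ ζ0 : ι → ℂ, expPi ζ0 = f p → ∀ ε > 0, ∃ δ > 0, ∃ s : (ι → ℂ) → X, s ζ0 = p ∧
    (∀ ζ ∈ ball ζ0 δ, f (s ζ) = expPi ζ) ∧
    ∀ ζ ∈ ball ζ0 δ, dist p (s ζ) ≤ (sg p + ε) * ‖ζ - ζ0‖

/-- the lift of a straight segment and its length -/
theorem exists_lift {X : Type*} [PseudoMetricSpace X] {f : X → ι → ℂ} {U : Set (ι → ℂ)}
    (cov : IsCoveringMapOn f U) {sg : X → ℝ} (hsg : ContinuousOn sg (f ⁻¹' U))
    (hsg0 : ∀ p ∈ f ⁻¹' U, 0 ≤ sg p)
    (hlen : ∀ p ∈ f ⁻¹' U, LenAt f sg p) {x : X} {ζ0 q : ι → ℂ}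
    (hx : f x = expPi ζ0) (hU : ∀ t ∈ Icc (0 : ℝ) 1, expPi (ζ0 + t • (q - ζ0)) ∈ U) :
    ∃ Γ : ℝ → X, Continuous Γ ∧ Γ 0 = x ∧
      (∀ t ∈ Icc (0 : ℝ) 1, f (Γ t) = expPi (ζ0 + t • (q - ζ0))) ∧
      (∀ t, Γ t ∈ f ⁻¹' U) ∧
      dist x (Γ 1) ≤ ∫ t in (0 : ℝ)..1, ‖q - ζ0‖ * sg (Γ t) := by
  have hcont : Continuous fun t : unitInterval => expPi (ζ0 + (t : ℝ) • (q - ζ0)) := by
    refine continuous_expPi.comp ?_
    fun_prop
  obtain ⟨G, hG0, hGf⟩ : ∃ G : C(unitInterval, X), G 0 = x ∧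
      ∀ t : unitInterval, f (G t) = expPi (ζ0 + (t : ℝ) • (q - ζ0)) := by
    have hxU : f x ∈ U := by
      have := hU 0 (by simp)
      rw [hx]
      simpa using this
    obtain ⟨G, hG, hG0⟩ := cov.isCoveringMap_restrictPreimage.exists_path_lifts
      (⟨fun t : unitInterval => ⟨expPi (ζ0 + (t : ℝ) • (q - ζ0)), hU t t.2⟩,
        hcont.subtype_mk _⟩ : C(unitInterval, U)) ⟨x, hxU⟩
      (by
        apply Subtype.ext
        simpa using hx.symm)
    refine ⟨⟨fun t => (G t : X), continuous_subtype_val.comp G.continuous⟩, ?_, fun t => ?_⟩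
    · change ((G 0 : f ⁻¹' U) : X) = x
      rw [hG0]
    · have := congrFun hG t
      exact congrArg Subtype.val this
  set Γ : ℝ → X := fun t => G (projIcc 0 1 zero_le_one t) with hΓ
  have hΓc : Continuous Γ := G.continuous.comp continuous_projIcc
  have hΓ0 : Γ 0 = x := by
    simp only [hΓ]
    rw [projIcc_left]
    exact hG0
  have hΓf : ∀ t ∈ Icc (0 : ℝ) 1, f (Γ t) = expPi (ζ0 + t • (q - ζ0)) := by
    intro t ht
    simp only [hΓ]
    rw [hGf, projIcc_of_mem zero_le_one ht]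
  have hΓU : ∀ t, Γ t ∈ f ⁻¹' U := by
    intro t
    simp only [hΓ, mem_preimage]
    rw [hGf]
    exact hU _ (projIcc 0 1 zero_le_one t).2
  refine ⟨Γ, hΓc, hΓ0, hΓf, hΓU, ?_⟩
  have hsgc : Continuous fun t => sg (Γ t) := by
    rw [continuous_iff_continuousAt]
    intro t
    exact (hsg.comp_continuous hΓc hΓU).continuousAt
  have h0 := dist_le_integral hΓc (c := fun t => ‖q - ζ0‖ * sg (Γ t))
    (continuous_const.mul hsgc)
    (fun t ht ε hε => ?_)
  · rw [hΓ0] at h0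
    exact h0
  -- local estimate
  set v := q - ζ0 with hv
  have htI : t ∈ Icc (0 : ℝ) 1 := ⟨ht.1, ht.2.le⟩
  have hpU := hΓU t
  obtain ⟨δ, hδ, s, hs0, hsf, hsd⟩ := hlen (Γ t) hpU (ζ0 + t • v) (hΓf t htI).symm
    (ε / (‖v‖ + 1)) (by positivity)
  -- `f` is injective near `Γ t`
  obtain ⟨φ, hφm, hφ⟩ := cov.isLocalHomeomorphOn (Γ t) hpU
  have hφf : ∀ y, φ y = f y := fun y => congrFun hφ.symm y
  have hsgp := hsg0 _ hpU
  -- `s` is continuous at the centre
  have hsc : Filter.Tendsto (fun u : ℝ => s (ζ0 + u • v)) (𝓝[>] t) (𝓝 (Γ t)) := by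
    rw [tendsto_iff_dist_tendsto_zero]
    have hb : ∀ᶠ u in 𝓝[>] t, ζ0 + u • v ∈ ball (ζ0 + t • v) δ := by
      have hc1 : Continuous fun u : ℝ => ζ0 + u • v := by fun_prop
      exact (hc1.tendsto t).mono_left nhdsWithin_le_nhds (ball_mem_nhds _ hδ)
    have hlim : Filter.Tendsto (fun u : ℝ => (sg (Γ t) + ε / (‖v‖ + 1)) * ‖(ζ0 + u • v) - (ζ0 + t • v)‖)
        (𝓝[>] t) (𝓝 0) := by
      have hc1 : Continuous fun u : ℝ => (sg (Γ t) + ε / (‖v‖ + 1)) * ‖(ζ0 + u • v) - (ζ0 + t • v)‖ := by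
        fun_prop
      have := (hc1.tendsto t).mono_left (nhdsWithin_le_nhds (s := Ioi t))
      simpa using this
    refine squeeze_zero' (Filter.Eventually.of_forall fun u => dist_nonneg) ?_ hlim
    filter_upwards [hb] with u hu
    rw [dist_comm]
    exact hsd _ hu
  have hev1 : ∀ᶠ u in 𝓝[>] t, s (ζ0 + u • v) ∈ φ.source :=
    hsc (φ.open_source.mem_nhds hφm)
  have hev2 : ∀ᶠ u in 𝓝[>] t, Γ u ∈ φ.source :=
    ((hΓc.tendsto t).mono_left nhdsWithin_le_nhds) (φ.open_source.mem_nhds hφm)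
  have hev3 : ∀ᶠ u in 𝓝[>] t, u ∈ Ioo t 1 := Ioo_mem_nhdsGT ht.2
  have hev4 : ∀ᶠ u in 𝓝[>] t, ζ0 + u • v ∈ ball (ζ0 + t • v) δ := by
    have hc1 : Continuous fun u : ℝ => ζ0 + u • v := by fun_prop
    exact (hc1.tendsto t).mono_left nhdsWithin_le_nhds (ball_mem_nhds _ hδ)
  filter_upwards [hev1, hev2, hev3, hev4] with u hu1 hu2 hu3 hu4
  have huI : u ∈ Icc (0 : ℝ) 1 := ⟨by linarith [ht.1, hu3.1], hu3.2.le⟩
  have heq : s (ζ0 + u • v) = Γ u := by
    refine φ.injOn hu1 hu2 ?_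
    rw [hφf, hφf, hsf _ hu4, hΓf u huI]
  rw [← heq]
  refine (hsd _ hu4).trans ?_
  have hnorm : ‖(ζ0 + u • v) - (ζ0 + t • v)‖ = (u - t) * ‖v‖ := by
    have : (ζ0 + u • v) - (ζ0 + t • v) = (u - t) • v := by module
    rw [this, norm_smul, Real.norm_of_nonneg (by linarith [hu3.1])]
  rw [hnorm]
  have h5 : ε / (‖v‖ + 1) * ‖v‖ ≤ ε := by
    rw [div_mul_eq_mul_div, div_le_iff₀ (by positivity)]
    nlinarith [norm_nonneg v]
  have h6 : 0 < u - t := by linarith [hu3.1]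
  calc (sg (Γ t) + ε / (‖v‖ + 1)) * ((u - t) * ‖v‖)
      = (‖v‖ * sg (Γ t) + ε / (‖v‖ + 1) * ‖v‖) * (u - t) := by ring
    _ ≤ (‖v‖ * sg (Γ t) + ε) * (u - t) := by
      refine mul_le_mul_of_nonneg_right ?_ h6.le
      linarith

/-- sum over the fibre -/
noncomputable def fiberSum {X B : Type*} (f : X → B) (φ : X → ℝ≥0∞) (w : B) : ℝ≥0∞ :=
  ∑' y : f ⁻¹' {w}, φ y

theorem le_fiberSum {X B : Type*} {f : X → B} {φ : X → ℝ≥0∞} {w : B} {y : X} (hy : f y = w) :
    φ y ≤ fiberSum f φ w :=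
  ENNReal.le_tsum (f := fun y : f ⁻¹' {w} => φ y) ⟨y, hy⟩

end Crest.Agent.R281.Df3_612
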