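/-
R281 / S-DIAM-CF (helper612), part 4: sums over the fibres of a finite covering: continuity, and
the change of variables `∫_{f^{-1}(exp A)} φ = ∫_A Σ_fibre φ`.
-/
import Crest.Agent.R281.Df3_612

namespace Crest.Agent.R281.Df4_612

open MeasureTheory Measure Set Metric Module Complex
open scoped ENNReal NNReal Real Topology
open Crest.Agent.R281.Df3_612

section fib

variable {X B : Type*} [TopologicalSpace X] [TopologicalSpace B] {f : X → B}

/-- local sections of a covering with finite fibres -/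
theorem exists_sections {w0 : B} {U : Set B} (hw0 : w0 ∈ U)
    (cov : IsCoveringMapOn f U) (hfin : (f ⁻¹' {w0}).Finite) :
    ∃ (V : Set B) (n : ℕ) (S : Fin n → B → X), IsOpen V ∧ w0 ∈ V ∧
      (∀ i, ContinuousOn (S i) V) ∧ (∀ i, ∀ w ∈ V, f (S i w) = w) ∧
      (∀ w ∈ V, ∀ i j, S i w = S j w → i = j) ∧
      (∀ w ∈ V, ∀ x, f x = w → ∃ i, S i w = x) := by
  obtain ⟨hdisc, V, hwV, hV, hfV, H, hH⟩ := cov w0 hw0
  have hfI : Finite (f ⁻¹' {w0}) := hfin
  obtain ⟨n, ⟨e⟩⟩ := Finite.exists_equiv_fin (f ⁻¹' {w0})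
  rcases isEmpty_or_nonempty X with hX | hX
  · refine ⟨V, 0, fun i => i.elim0, hV, hwV, fun i => i.elim0, fun i => i.elim0,
      fun w _ i => i.elim0, fun w _ x => (hX.false x).elim⟩
  classical
  refine ⟨V, n, fun i w => if hw : w ∈ V then (H.symm (⟨w, hw⟩, e.symm i) : X) else Classical.arbitrary X,
    hV, hwV, fun i => ?_, fun i w hw => ?_, fun w hw i j hij => ?_, fun w hw x hx => ?_⟩
  · rw [continuousOn_iff_continuous_domRestrict]
    have : (V.domRestrict fun w => if hw : w ∈ V then (H.symm (⟨w, hw⟩, e.symm i) : X)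
        else Classical.arbitrary X) = fun w : V => (H.symm (w, e.symm i) : X) := by
      funext w
      simp [Set.domRestrict]
    rw [this]
    exact continuous_subtype_val.comp (H.symm.continuous.comp (by fun_prop))
  · simp only [dif_pos hw]
    have := hH (H.symm (⟨w, hw⟩, e.symm i))
    rw [H.apply_symm_apply] at this
    exact this.symm
  · simp only [dif_pos hw] at hij
    have h1 := H.symm.injective (Subtype.ext hij)
    have h2 : e.symm i = e.symm j := (Prod.mk.inj h1).2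
    exact e.symm.injective h2
  · have hxV : x ∈ f ⁻¹' V := by
      rw [mem_preimage, hx]; exact hw
    refine ⟨e (H ⟨x, hxV⟩).2, ?_⟩
    simp only [dif_pos hw, Equiv.symm_apply_apply]
    have h3 : (⟨w, hw⟩, (H ⟨x, hxV⟩).2) = H ⟨x, hxV⟩ := by
      refine Prod.ext (Subtype.ext ?_) rfl
      rw [hH]
      exact hx.symm
    rw [h3, H.symm_apply_apply]

omit [TopologicalSpace X] [TopologicalSpace B] in
/-- the fibre sum through sections -/
theorem fiberSum_eq {V : Set B} {n : ℕ} {S : Fin n → B → X}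
    (hS : ∀ i, ∀ w ∈ V, f (S i w) = w) (hinj : ∀ w ∈ V, ∀ i j, S i w = S j w → i = j)
    (hsurj : ∀ w ∈ V, ∀ x, f x = w → ∃ i, S i w = x) (φ : X → ℝ≥0∞) {w : B} (hw : w ∈ V) :
    fiberSum f φ w = ∑ i, φ (S i w) := by
  have hbij : Function.Bijective (fun i : Fin n => (⟨S i w, hS i w hw⟩ : f ⁻¹' {w})) := by
    constructor
    · intro i j hij
      exact hinj w hw i j (congrArg Subtype.val hij)
    · rintro ⟨x, hx⟩
      obtain ⟨i, hi⟩ := hsurj w hw x hx
      exact ⟨i, Subtype.ext hi⟩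
  unfold fiberSum
  rw [← (Equiv.ofBijective _ hbij).tsum_eq, tsum_fintype]
  rfl

theorem fiberSum_continuousOn {U : Set B} (cov : IsCoveringMapOn f U)
    (hfin : ∀ w ∈ U, (f ⁻¹' {w}).Finite) {φ : X → ℝ≥0∞} (hφ : ContinuousOn φ (f ⁻¹' U))
    (hU : IsOpen U) : ContinuousOn (fiberSum f φ) U := by
  intro w0 hw0
  refine ContinuousAt.continuousWithinAt ?_
  obtain ⟨V, n, S, hV, hwV, hSc, hS, hinj, hsurj⟩ := exists_sections hw0 cov (hfin w0 hw0)
  have hVU : V ∩ U ∈ 𝓝 w0 := (hV.inter hU).mem_nhds ⟨hwV, hw0⟩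
  have h1 : ContinuousOn (fun w => ∑ i, φ (S i w)) (V ∩ U) := by
    refine continuousOn_finsetSum _ fun i _ => ?_
    refine hφ.comp ((hSc i).mono inter_subset_left) ?_
    intro w hw
    rw [mem_preimage, hS i w hw.1]
    exact hw.2
  have h2 : ContinuousAt (fun w => ∑ i, φ (S i w)) w0 := h1.continuousAt hVU
  refine h2.congr ?_
  filter_upwards [hVU] with w hw
  exact (fiberSum_eq hS hinj hsurj φ hw.1).symm

end fib

section meas

variable {ι : Type*} [Fintype ι]

omit [Fintype ι] in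
theorem expPi_injOn_of_im {K : Set (ι → ℂ)}
    (hK : ∀ z ∈ K, ∀ w ∈ K, ∀ j, |(z j).im - (w j).im| < 2 * π) : InjOn (expPi (ι := ι)) K := by
  intro z hz w hw h
  funext j
  have h1 : Complex.exp (z j) = Complex.exp (w j) := congrFun h j
  obtain ⟨n, hn⟩ := Complex.exp_eq_exp_iff_exists_int.1 h1
  have h2 : (z j).im - (w j).im = n * (2 * π) := by
    have := congrArg Complex.im hn
    simp at this
    linarith
  have h3 := hK z hz w hw j
  rw [h2, abs_mul, abs_of_pos (show (0 : ℝ) < 2 * π by positivity)] at h3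
  have h4 : |(n : ℝ)| < 1 := by
    have hpi : (0 : ℝ) < 2 * π := by positivity
    by_contra hcon
    push Not at hcon
    nlinarith
  have h5 : n = 0 := by
    rw [← Int.cast_abs] at h4
    have : |n| < 1 := by exact_mod_cast h4
    exact Int.abs_lt_one_iff.1 this
  rw [h5] at hn
  simpa using hn

/-- local change of variables for the inverse branches of `log f` -/
def MeasAt {X : Type*} [TopologicalSpace X] [MeasurableSpace X] (f : X → ι → ℂ)
    (mX : Measure X) (p : X) : Prop :=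
  ∀ ζ0 : ι → ℂ, expPi ζ0 = f p → ∃ δ > 0, ∃ s : (ι → ℂ) → X, s ζ0 = p ∧
    ContinuousOn s (ball ζ0 δ) ∧ (∀ ζ ∈ ball ζ0 δ, f (s ζ) = expPi ζ) ∧
    ∀ φ : X → ℝ≥0∞, Measurable φ → ∀ A ⊆ ball ζ0 δ, MeasurableSet A →
      ∫⁻ x in s '' A, φ x ∂mX = ∫⁻ z in A, φ (s z)

theorem local_cov {X : Type*} [TopologicalSpace X] [T2Space X] [MeasurableSpace X] [BorelSpace X]
    {f : X → ι → ℂ} {mX : Measure X} {U : Set (ι → ℂ)}
    (cov : IsCoveringMapOn f U) (hfin : ∀ w ∈ U, (f ⁻¹' {w}).Finite)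
    (hmeas : ∀ p ∈ f ⁻¹' U, MeasAt f mX p) {z0 : ι → ℂ} (hz0 : expPi z0 ∈ U) :
    ∃ ε > 0, ∀ φ : X → ℝ≥0∞, Measurable φ → ∀ A ⊆ ball z0 ε, MeasurableSet A →
      MeasurableSet (f ⁻¹' (expPi '' A)) ∧
      ∫⁻ x in f ⁻¹' (expPi '' A), φ x ∂mX = ∫⁻ z in A, fiberSum f φ (expPi z) := by
  classical
  obtain ⟨V, n, S, hV, hwV, hSc, hS, hinj, hsurj⟩ := exists_sections hz0 cov (hfin _ hz0)
  have hp : ∀ i, S i (expPi z0) ∈ f ⁻¹' U := fun i => by
    rw [mem_preimage, hS i _ hwV]; exact hz0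
  choose δ hδ s hs0 hsc hsf hsm using fun i => hmeas _ (hp i) z0 (hS i _ hwV).symm
  -- agreement of the two sections near `z0`
  have hagree : ∀ i, ∃ ε > 0, ε ≤ δ i ∧ ∀ z ∈ ball z0 ε, expPi z ∈ V ∧ s i z = S i (expPi z) := by
    intro i
    obtain ⟨ψ, hψm, hψ⟩ := cov.isLocalHomeomorphOn _ (hp i)
    have hψf : ∀ y, ψ y = f y := fun y => congrFun hψ.symm y
    have h1 : ContinuousAt (fun z => S i (expPi z)) z0 := by
      refine ContinuousAt.comp (f := expPi) (g := S i) ?_ continuous_expPi.continuousAt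
      exact (hSc i).continuousAt (hV.mem_nhds hwV)
    have h2 : ContinuousAt (s i) z0 := (hsc i).continuousAt (ball_mem_nhds _ (hδ i))
    have e1 : ∀ᶠ z in 𝓝 z0, S i (expPi z) ∈ ψ.source := h1 (ψ.open_source.mem_nhds hψm)
    have e2 : ∀ᶠ z in 𝓝 z0, s i z ∈ ψ.source := by
      refine h2 (ψ.open_source.mem_nhds ?_)
      rw [hs0 i]; exact hψm
    have e3 : ∀ᶠ z in 𝓝 z0, expPi z ∈ V :=
      continuous_expPi.continuousAt (hV.mem_nhds hwV)
    have e4 : ∀ᶠ z in 𝓝 z0, z ∈ ball z0 (δ i) := ball_mem_nhds _ (hδ i)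
    obtain ⟨ε, hε, hball⟩ := Metric.eventually_nhds_iff_ball.1 (e1.and (e2.and (e3.and e4)))
    refine ⟨min ε (δ i), lt_min hε (hδ i), min_le_right _ _, fun z hz => ?_⟩
    obtain ⟨a1, a2, a3, a4⟩ := hball z (ball_subset_ball (min_le_left _ _) hz)
    refine ⟨a3, ψ.injOn a2 a1 ?_⟩
    rw [hψf, hψf, hsf i z a4, hS i _ a3]
  choose ε hε hεδ hεag using hagree
  have e5 : ∀ᶠ z in 𝓝 z0, expPi z ∈ V := continuous_expPi.continuousAt (hV.mem_nhds hwV)
  obtain ⟨ε0, hε0, hball0⟩ := Metric.eventually_nhds_iff_ball.1 e5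
  -- a common radius
  obtain ⟨r, hr, hrε⟩ : ∃ r > 0, ∀ i, r ≤ ε i := by
    rcases isEmpty_or_nonempty (Fin n) with hE | hE
    · exact ⟨1, one_pos, fun i => hE.elim i⟩
    · refine ⟨Finset.univ.inf' Finset.univ_nonempty ε, ?_, fun i => Finset.inf'_le _ (Finset.mem_univ i)⟩
      rw [gt_iff_lt, Finset.lt_inf'_iff]
      exact fun i _ => hε i
  refine ⟨min (min r ε0) 1, lt_min (lt_min hr hε0) one_pos, fun φ hφ A hA hAm => ?_⟩
  set R := min (min r ε0) 1
  have hAi : ∀ i, A ⊆ ball z0 (ε i) := fun i =>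
    hA.trans (ball_subset_ball (((min_le_left _ _).trans (min_le_left _ _)).trans (hrε i)))
  have hAδ : ∀ i, A ⊆ ball z0 (δ i) := fun i => (hAi i).trans (ball_subset_ball (hεδ i))
  have hAV : ∀ z ∈ A, expPi z ∈ V := fun z hz =>
    hball0 z (ball_subset_ball ((min_le_left _ _).trans (min_le_right _ _)) (hA hz))
  have hA1 : A ⊆ ball z0 1 := hA.trans (ball_subset_ball (min_le_right _ _))
  have hinjA : InjOn (expPi (ι := ι)) A := by
    refine expPi_injOn_of_im fun z hz w hw j => ?_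
    have h1 := hA1 hz
    have h2 := hA1 hw
    rw [mem_ball, dist_eq_norm] at h1 h2
    have h3 : |(z j).im - (w j).im| ≤ ‖z - w‖ := by
      have h4 : (z j).im - (w j).im = ((z - w) j).im := by simp
      rw [h4]
      exact (Complex.abs_im_le_norm _).trans (norm_le_pi_norm (z - w) j)
    have h5 : ‖z - w‖ < 2 := by
      calc ‖z - w‖ = ‖(z - z0) - (w - z0)‖ := by congr 1; abel
        _ ≤ ‖z - z0‖ + ‖w - z0‖ := norm_sub_le _ _
        _ < 2 := by linarith
    have h6 := Real.pi_gt_three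
    linarith
  have hsinj : ∀ i, InjOn (s i) A := by
    intro i z hz w hw h
    refine hinjA hz hw ?_
    rw [← hsf i z (hAδ i hz), ← hsf i w (hAδ i hw), h]
  have him : ∀ i, MeasurableSet (s i '' A) := fun i =>
    hAm.image_of_continuousOn_injOn ((hsc i).mono (hAδ i)) (hsinj i)
  have hunion : f ⁻¹' (expPi '' A) = ⋃ i, s i '' A := by
    ext x
    simp only [mem_preimage, mem_image, mem_iUnion]
    constructor
    · rintro ⟨z, hz, hzx⟩
      obtain ⟨i, hi⟩ := hsurj (expPi z) (hAV z hz) x hzx.symm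
      exact ⟨i, z, hz, by rw [(hεag i z (hAi i hz)).2, hi]⟩
    · rintro ⟨i, z, hz, rfl⟩
      exact ⟨z, hz, (hsf i z (hAδ i hz)).symm⟩
  have hdisj : Pairwise (Function.onFun Disjoint fun i => s i '' A) := by
    intro i j hij
    rw [Function.onFun, Set.disjoint_left]
    rintro x ⟨z, hz, rfl⟩ ⟨w, hw, hwz⟩
    have h1 : expPi w = expPi z := by
      rw [← hsf i z (hAδ i hz), ← hsf j w (hAδ j hw), hwz]
    have h2 := hinjA hw hz h1
    subst h2
    rw [(hεag i w (hAi i hw)).2, (hεag j w (hAi j hw)).2] at hwz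
    exact hij (hinj _ (hAV w hw) _ _ hwz.symm)
  refine ⟨by rw [hunion]; exact MeasurableSet.iUnion him, ?_⟩
  rw [hunion, lintegral_iUnion him hdisj, tsum_fintype]
  have h7 : ∀ i, ∫⁻ x in s i '' A, φ x ∂mX = ∫⁻ z in A, φ (s i z) := fun i =>
    hsm i φ hφ A (hAδ i) hAm
  simp_rw [h7]
  have hae : ∀ i, AEMeasurable (fun z => φ (s i z)) (volume.restrict A) := fun i =>
    hφ.comp_aemeasurable (((hsc i).mono (hAδ i)).aemeasurable hAm)
  rw [← lintegral_finsetSum' Finset.univ (fun i _ => hae i)]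
  refine setLIntegral_congr_fun hAm fun z hz => ?_
  rw [fiberSum_eq hS hinj hsurj φ (hAV z hz)]
  exact Finset.sum_congr rfl fun i _ => by rw [(hεag i z (hAi i hz)).2]

/-- GLOBAL CHANGE OF VARIABLES. -/
theorem lintegral_cov {X : Type*} [TopologicalSpace X] [T2Space X] [MeasurableSpace X]
    [BorelSpace X] {f : X → ι → ℂ} {mX : Measure X} {U : Set (ι → ℂ)}
    (cov : IsCoveringMapOn f U) (hfin : ∀ w ∈ U, (f ⁻¹' {w}).Finite)
    (hmeas : ∀ p ∈ f ⁻¹' U, MeasAt f mX p) {A : Set (ι → ℂ)} (hAm : MeasurableSet A)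
    (hAU : ∀ z ∈ A, expPi z ∈ U) (hinj : InjOn (expPi (ι := ι)) A)
    {φ : X → ℝ≥0∞} (hφ : Measurable φ) :
    MeasurableSet (f ⁻¹' (expPi '' A)) ∧
      ∫⁻ x in f ⁻¹' (expPi '' A), φ x ∂mX = ∫⁻ z in A, fiberSum f φ (expPi z) := by
  classical
  choose! ε hε hloc using fun (z0 : ι → ℂ) (hz0 : z0 ∈ A) => local_cov cov hfin hmeas (hAU z0 hz0)
  obtain ⟨t, htA, htc, hcov⟩ := TopologicalSpace.countable_cover_nhdsWithin
    (s := A) (f := fun z => ball z (ε z)) (fun z hz =>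
      mem_nhdsWithin_of_mem_nhds (ball_mem_nhds z (hε z hz)))
  rcases t.eq_empty_or_nonempty with rfl | htne
  · have hA0 : A = ∅ := by
      simpa using hcov
    subst hA0
    simp
  obtain ⟨u, hu⟩ := htc.exists_eq_range htne
  have huA : ∀ k, u k ∈ A := fun k => htA (by rw [hu]; exact mem_range_self k)
  set B : ℕ → Set (ι → ℂ) := fun k => A ∩ ball (u k) (ε (u k)) with hB
  have hBm : ∀ k, MeasurableSet (B k) := fun k => hAm.inter measurableSet_ball
  set D : ℕ → Set (ι → ℂ) := disjointed B with hD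
  have hDm : ∀ k, MeasurableSet (D k) := fun k => MeasurableSet.disjointed hBm k
  have hDB : ∀ k, D k ⊆ B k := fun k => disjointed_subset B k
  have hDA : ∀ k, D k ⊆ A := fun k => (hDB k).trans inter_subset_left
  have hDU : ⋃ k, D k = A := by
    rw [hD, iUnion_disjointed]
    refine subset_antisymm (iUnion_subset fun k => inter_subset_left) fun z hz => ?_
    obtain ⟨y, hy, hzy⟩ := mem_iUnion₂.1 (hcov hz)
    rw [hu] at hy
    obtain ⟨k, rfl⟩ := hy
    exact mem_iUnion.2 ⟨k, hz, hzy⟩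
  have hDd : Pairwise (Function.onFun Disjoint D) := disjoint_disjointed B
  have hk := fun k => hloc (u k) (huA k) φ hφ (D k) ((hDB k).trans inter_subset_right) (hDm k)
  have hset : f ⁻¹' (expPi '' A) = ⋃ k, f ⁻¹' (expPi '' (D k)) := by
    rw [← preimage_iUnion, ← image_iUnion, hDU]
  have hdisj : Pairwise (Function.onFun Disjoint fun k => f ⁻¹' (expPi '' (D k))) := by
    intro i j hij
    rw [Function.onFun, Set.disjoint_left]
    rintro x ⟨z, hz, hzx⟩ ⟨w, hw, hwx⟩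
    have h1 : z = w := hinj (hDA i hz) (hDA j hw) (hzx.trans hwx.symm)
    subst h1
    exact Set.disjoint_left.1 (hDd hij) hz hw
  refine ⟨by rw [hset]; exact MeasurableSet.iUnion fun k => (hk k).1, ?_⟩
  rw [hset, lintegral_iUnion (fun k => (hk k).1) hdisj]
  conv_rhs => rw [← hDU]
  rw [lintegral_iUnion hDm hDd]
  exact tsum_congr fun k => (hk k).2

end meas

end Crest.Agent.R281.Df4_612
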