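/-
R281 / S-DIAM-CF (helper612), part 5: THE CHART-FREE DIAMETER BOUND for a space with a map
`f : X → ℂ^ι` which is a finite covering over `{w : w_j ≠ 0, P(w) ≠ 0}`.
-/
import Crest.Agent.R281.Df4_612

namespace Crest.Agent.R281.Df5_612

open MeasureTheory Measure Set Metric Module Complex
open scoped ENNReal NNReal Real Topology
open Crest.Agent.R281.Di1_612 Crest.Agent.R281.Di2_612 Crest.Agent.R281.Df1_612
open Crest.Agent.R281.Df2_612 Crest.Agent.R281.Df3_612 Crest.Agent.R281.Df4_612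

variable {ι : Type*} [Fintype ι]

/-- the half-open period rectangle -/
def strip (a : ℝ) : Set ℂ := {w | |w.re| ≤ a ∧ 0 < w.im ∧ w.im ≤ 2 * π}

/-- the period box -/
def box (ι : Type*) (a : ℝ) : Set (ι → ℂ) := {z | ∀ j, z j ∈ strip a}

theorem strip_eq (a : ℝ) : strip a = measurableEquivRealProd ⁻¹' (Icc (-a) a ×ˢ Ioc 0 (2 * π)) := by
  ext w
  simp [strip, abs_le, measurableEquivRealProd, and_assoc]

theorem measurableSet_strip (a : ℝ) : MeasurableSet (strip a) := by
  rw [strip_eq]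
  exact measurableEquivRealProd.measurable (measurableSet_Icc.prod measurableSet_Ioc)

theorem volume_strip (a : ℝ) : volume (strip a) = ENNReal.ofReal (4 * π * a) := by
  rw [strip_eq, volume_preserving_equiv_real_prod.measure_preimage_equiv, Measure.volume_eq_prod,
    Measure.prod_prod, Real.volume_Icc, Real.volume_Ioc, sub_zero,
    ← ENNReal.ofReal_mul' (by positivity)]
  congr 1
  ring

theorem convex_strip (a : ℝ) : Convex ℝ (strip a) := by
  have : strip a = (reLm ⁻¹' (Icc (-a) a)) ∩ (imLm ⁻¹' (Ioc 0 (2 * π))) := by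
    ext w
    simp [strip, abs_le]
  rw [this]
  exact ((convex_Icc _ _).linear_preimage reLm).inter ((convex_Ioc _ _).linear_preimage imLm)

omit [Fintype ι] in
theorem box_eq (a : ℝ) : box ι a = Set.pi univ fun _ => strip a := by
  ext z; simp [box]

theorem measurableSet_box (a : ℝ) : MeasurableSet (box ι a) := by
  rw [box_eq]
  exact MeasurableSet.univ_pi fun _ => measurableSet_strip a

omit [Fintype ι] in
theorem convex_box (a : ℝ) : Convex ℝ (box ι a) := by
  rw [box_eq]
  exact convex_pi fun _ _ => convex_strip a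

theorem volume_box (a : ℝ) :
    volume (box ι a) = ENNReal.ofReal (4 * π * a) ^ Fintype.card ι := by
  rw [box_eq, volume_pi_pi]
  simp [volume_strip]

theorem ediam_box_le {a : ℝ} (ha : 0 < a) :
    ediam (box ι a) ≤ ENNReal.ofReal (2 * a + 2 * π) := by
  refine ediam_le fun z hz w hw => ?_
  rw [edist_dist]
  refine ENNReal.ofReal_le_ofReal ?_
  have hpi := Real.pi_pos
  rw [dist_pi_le_iff (by positivity)]
  intro j
  obtain ⟨z1, z2, z3⟩ := hz j
  obtain ⟨w1, w2, w3⟩ := hw j
  rw [dist_eq_norm]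
  refine (Complex.norm_le_abs_re_add_abs_im _).trans ?_
  rw [abs_le] at z1 w1
  refine add_le_add ?_ ?_
  · rw [sub_re, abs_le]; constructor <;> linarith
  · rw [sub_im, abs_le]; constructor <;> linarith

omit [Fintype ι] in
theorem injOn_box (a : ℝ) : InjOn (expPi (ι := ι)) (box ι a) := by
  refine expPi_injOn_of_im fun z hz w hw j => ?_
  obtain ⟨-, z2, z3⟩ := hz j
  obtain ⟨-, w2, w3⟩ := hw j
  rw [abs_lt]; constructor <;> linarith

/-- the branch of the logarithm with imaginary part in `(0, 2π]` -/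
noncomputable def lg (w : ι → ℂ) : ι → ℂ := fun j => Complex.log (-(w j)) + π * I

omit [Fintype ι] in
theorem lg_re (w : ι → ℂ) (j : ι) : (lg w j).re = Real.log ‖w j‖ := by
  simp [lg, log_re]

omit [Fintype ι] in
theorem lg_im (w : ι → ℂ) (j : ι) : 0 < (lg w j).im ∧ (lg w j).im ≤ 2 * π := by
  have h1 := neg_pi_lt_log_im (-(w j))
  have h2 := log_im_le_pi (-(w j))
  simp only [lg, add_im, mul_im, ofReal_re, I_im, mul_one, ofReal_im, I_re, mul_zero, add_zero]
  constructor <;> linarith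

omit [Fintype ι] in
theorem expPi_lg {w : ι → ℂ} (hw : ∀ j, w j ≠ 0) : expPi (lg w) = w := by
  funext j
  simp only [expPi, lg, Complex.exp_add, exp_pi_mul_I]
  rw [Complex.exp_log (neg_ne_zero.2 (hw j))]
  ring

omit [Fintype ι] in
theorem lg_mem_box {w : ι → ℂ} {a : ℝ} (hw : ∀ j, |Real.log ‖w j‖| ≤ a) : lg w ∈ box ι a :=
  fun j => ⟨by rw [lg_re]; exact hw j, lg_im w j⟩

omit [Fintype ι] in
theorem lg_expPi {q : ι → ℂ} {a : ℝ} (hq : q ∈ box ι a) : lg (expPi q) = q := by
  have h1 : lg (expPi q) ∈ box ι a := by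
    refine lg_mem_box fun j => ?_
    have : ‖expPi q j‖ = Real.exp (q j).re := Complex.norm_exp _
    rw [this, Real.log_exp]
    exact (hq j).1
  exact injOn_box a h1 hq (expPi_lg (expPi_ne_zero q))

/-- the set of the points of `X` over the region `|log|f_j|| ≤ a` of the covering. -/
def reg {X : Type*} (f : X → ι → ℂ) (P : (ι → ℂ) → ℂ) (a : ℝ) : Set X :=
  {x | (∀ j, f x j ≠ 0) ∧ P (f x) ≠ 0 ∧ ∀ j, |Real.log ‖f x j‖| ≤ a}

omit [Fintype ι] in
theorem norm_expPi (q : ι → ℂ) (j : ι) : ‖expPi q j‖ = Real.exp (q j).re := Complex.norm_exp _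

/-- **(CF) CHART-FREE DIAMETER BOUND.** -/
theorem diam_le_fin [Nonempty ι] {X : Type*} [MetricSpace X] [MeasurableSpace X] [BorelSpace X]
    {n : ℕ} {ν mX : Measure X} (hν0 : ν univ ≠ 0) (hν1 : ν univ ≠ ∞)
    (hBG : ∀ q : X, ∀ r R : ℝ, 0 < r → r ≤ R →
      ν (closedBall q R \ closedBall q r) ≤ ENNReal.ofReal ((R / r) ^ n - 1) * ν (closedBall q r))
    {f : X → ι → ℂ} {P : (ι → ℂ) → ℂ} (hfm : Measurable f) (hP : Differentiable ℂ P)
    (cov : IsCoveringMapOn f {w | (∀ j, w j ≠ 0) ∧ P w ≠ 0}) {d : ℕ}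
    (hd : ∀ w : ι → ℂ, (∀ j, w j ≠ 0) → P w ≠ 0 → (f ⁻¹' {w}).encard ≤ d)
    {sg : X → ℝ} (hsg : ContinuousOn sg (f ⁻¹' {w | (∀ j, w j ≠ 0) ∧ P w ≠ 0}))
    (hsg0 : ∀ x, 0 ≤ sg x)
    (hlen : ∀ p, (∀ j, f p j ≠ 0) → P (f p) ≠ 0 → LenAt f sg p)
    (hmeas : ∀ p, (∀ j, f p j ≠ 0) → P (f p) ≠ 0 → MeasAt f mX p)
    {G : Set X} {a B C c : ℝ} (ha : 0 < a) (hB : 0 < B) (hC : 0 < C) (hc : 0 < c)
    (hGr : G ⊆ reg f P a)
    (hdens : ∀ A : Set (ι → ℂ), A ⊆ box ι a → MeasurableSet A →
      ν (G ∩ f ⁻¹' (expPi '' A)) * volume (box ι a) ≤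
        ENNReal.ofReal B * mX (f ⁻¹' (expPi '' A) ∩ reg f P a) * ν univ)
    (hE : ∫⁻ x in reg f P a, ENNReal.ofReal (sg x) ∂mX ≤ ENNReal.ofReal C * volume (box ι a))
    (hG : ENNReal.ofReal c * ν univ ≤ ν G) (x y : X) :
    dist x y ≤ diamC n (c / (4 * d)) *
      (2 * (2 * (d + 1) * (2 ^ (2 * Fintype.card ι) * (2 * a + 2 * π) * C * (2 * (B * d) / c)))) := by
  classical
  set U : Set (ι → ℂ) := {w | (∀ j, w j ≠ 0) ∧ P w ≠ 0} with hUdef
  have hUo : IsOpen U := by
    have h1 : IsOpen {w : ι → ℂ | ∀ j, w j ≠ 0} := by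
      simp only [ofPred_forall]
      exact isOpen_iInter_of_finite fun j => isOpen_ne.preimage (continuous_apply j)
    exact h1.inter (isOpen_ne.preimage hP.continuous)
  have hpi := Real.pi_pos
  have hfin : ∀ w ∈ U, (f ⁻¹' {w}).Finite := fun w hw => by
    have := hd w hw.1 hw.2
    exact finite_of_encard_le_coe this
  have hmeas' : ∀ p ∈ f ⁻¹' U, MeasAt f mX p := fun p hp => hmeas p hp.1 hp.2
  have hlen' : ∀ p ∈ f ⁻¹' U, LenAt f sg p := fun p hp => hlen p hp.1 hp.2
  have hfU : MeasurableSet (f ⁻¹' U) := hfm hUo.measurableSet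
  set φ : X → ℝ≥0∞ := (f ⁻¹' U).indicator (fun x => ENNReal.ofReal (sg x)) with hφ
  have hsgc : ContinuousOn (fun x => ENNReal.ofReal (sg x)) (f ⁻¹' U) :=
    ENNReal.continuous_ofReal.comp_continuousOn hsg
  have hφm : Measurable φ := by
    rw [hφ, ← piecewise_eq_indicator]
    exact hsgc.measurable_piecewise continuousOn_const hfU
  have hφc : ContinuousOn φ (f ⁻¹' U) := hsgc.congr fun x hx => indicator_of_mem hx _
  set V : Set (ι → ℂ) := expPi ⁻¹' U with hV
  have hVo : IsOpen V := hUo.preimage continuous_expPi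
  have hfs := fiberSum_continuousOn cov hfin hφc hUo
  set g : (ι → ℂ) → ℝ≥0∞ := V.indicator (fun z => fiberSum f φ (expPi z)) with hg
  have hgc : ContinuousOn (fun z => fiberSum f φ (expPi z)) V :=
    hfs.comp continuous_expPi.continuousOn fun z hz => hz
  have hgm : Measurable g := by
    rw [hg, ← piecewise_eq_indicator]
    exact hgc.measurable_piecewise continuousOn_const hVo.measurableSet
  have hregU : reg f P a ⊆ f ⁻¹' U := fun x hx => ⟨hx.1, hx.2.1⟩
  have hK0 : volume (box ι a) ≠ 0 := by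
    rw [volume_box]
    exact pow_ne_zero _ (by simpa using (by positivity : 0 < 4 * π * a))
  have hK1 : volume (box ι a) ≠ ∞ := by
    rw [volume_box]
    exact ENNReal.pow_ne_top ENNReal.ofReal_ne_top
  have hregV : f ⁻¹' (expPi '' (box ι a ∩ V)) = reg f P a := by
    ext x
    simp only [mem_preimage, mem_image, mem_inter_iff]
    constructor
    · rintro ⟨z, ⟨hz, hzV⟩, hzx⟩
      have h1 : f x ∈ U := by rw [← hzx]; exact hzV
      refine ⟨h1.1, h1.2, fun j => ?_⟩
      rw [← hzx, norm_expPi, Real.log_exp]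
      exact (hz j).1
    · rintro ⟨h1, h2, h3⟩
      refine ⟨lg (f x), ⟨lg_mem_box h3, ?_⟩, expPi_lg h1⟩
      rw [hV, mem_preimage, expPi_lg h1]
      exact ⟨h1, h2⟩
  have hKV : MeasurableSet (box ι a ∩ V) := (measurableSet_box a).inter hVo.measurableSet
  have hgint : ∫⁻ z in box ι a, g z = ∫⁻ x in reg f P a, φ x ∂mX := by
    have h1 := (lintegral_cov cov hfin hmeas' hKV (fun z hz => hz.2)
      ((injOn_box a).mono inter_subset_left) hφm).2
    rw [hregV] at h1
    rw [h1, hg, setLIntegral_indicator hVo.measurableSet, inter_comm]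
  have hregm : MeasurableSet (reg f P a) := by
    have h1 := (lintegral_cov cov hfin hmeas' hKV (fun z hz => hz.2)
      ((injOn_box a).mono inter_subset_left) hφm).1
    rwa [hregV] at h1
  have key := diam_le_cf (m := (volume : Measure (ι → ℂ))) (n := n) hν0 hν1 hBG (convex_box a)
    (measurableSet_box a) hK0 hK1 hgm (G := G) (D := reg f P a) (ζ := fun x => lg (f x)) (d := d)
    (B := B * d) (C := C) (Dm := 2 * a + 2 * π) (c := c)
  have hd0 : (0 : ℝ) < d := by
    -- `G` is nonempty, so some fibre is nonempty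
    have hGne : (ν G) ≠ 0 := by
      intro h0
      rw [h0] at hG
      have := le_antisymm hG zero_le
      rw [mul_eq_zero] at this
      rcases this with h | h
      · simp at h; linarith
      · exact hν0 h
    obtain ⟨x0, hx0⟩ : G.Nonempty := by
      by_contra hcon
      rw [not_nonempty_iff_eq_empty] at hcon
      rw [hcon] at hGne
      simp at hGne
    have h1 := hd (f x0) (hGr hx0).1 (hGr hx0).2.1
    have h2 : (1 : ℕ∞) ≤ (f ⁻¹' {f x0}).encard :=
      one_le_encard_iff_nonempty.2 ⟨x0, rfl⟩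
    have h3 : (1 : ℕ∞) ≤ d := h2.trans h1
    have : 1 ≤ d := by exact_mod_cast h3
    exact_mod_cast this
  have hfr : finrank ℝ (ι → ℂ) = 2 * Fintype.card ι := by
    rw [finrank_pi_fintype]
    simp [mul_comm]
  rw [hfr] at key
  refine key (by positivity) hC (by positivity) hc (fun x hx => lg_mem_box (hGr hx).2.2)
    ?_ ?_ ?_ ?_ (ediam_box_le ha) hG x y
  · -- lifting
    intro x hx
    have hxr := hGr hx
    have hF0 : (fun z => P (expPi z)) (lg (f x)) ≠ 0 := by
      simp only [expPi_lg hxr.1]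
      exact hxr.2.1
    have hae := ae_segment_ne_zero (m := (volume : Measure (ι → ℂ)))
      (hP.comp differentiable_expPi) hF0
    refine (ae_restrict_iff' (measurableSet_box a)).2 ?_
    filter_upwards [hae] with q hq hqK
    obtain ⟨Γ, hΓc, hΓ0, hΓf, hΓU, hΓd⟩ := exists_lift cov hsg (fun p _ => hsg0 p) hlen'
      (x := x) (ζ0 := lg (f x)) (q := q) (expPi_lg hxr.1).symm
      (fun t ht => ⟨fun j => expPi_ne_zero _ j, hq t ht⟩)
    have h1 : f (Γ 1) = expPi q := by
      rw [hΓf 1 (by simp)]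
      congr 1
      module
    have hreg1 : Γ 1 ∈ reg f P a := by
      have h2 := hΓU 1
      refine ⟨h2.1, h2.2, fun j => ?_⟩
      rw [h1, norm_expPi, Real.log_exp]
      exact (hqK j).1
    refine ⟨Γ 1, hreg1, ?_, ?_⟩
    · simp only [h1]
      exact lg_expPi hqK
    · rw [edist_dist]
      have hint : ENNReal.ofReal (∫ t in (0 : ℝ)..1, ‖q - lg (f x)‖ * sg (Γ t)) =
          ‖q - lg (f x)‖ₑ * ∫⁻ t in Ioc (0 : ℝ) 1, ENNReal.ofReal (sg (Γ t)) := by
        have hcs : Continuous fun t => sg (Γ t) := by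
          rw [continuous_iff_continuousAt]
          intro t
          exact (hsg.comp_continuous hΓc hΓU).continuousAt
        rw [intervalIntegral.integral_of_le zero_le_one, integral_const_mul,
          ENNReal.ofReal_mul (norm_nonneg _), ofReal_norm,
          ofReal_integral_eq_lintegral_ofReal]
        · exact (hcs.continuousOn.integrableOn_compact isCompact_Icc).mono_set Ioc_subset_Icc_self
        · exact Filter.Eventually.of_forall fun t => hsg0 _
      refine (ENNReal.ofReal_le_ofReal hΓd).trans ?_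
      rw [hint]
      unfold len
      rw [mul_comm]
      refine mul_le_mul' ?_ le_rfl
      refine le_trans (lintegral_mono_set Ioc_subset_Icc_self) ?_
      refine setLIntegral_mono' measurableSet_Icc fun t ht => ?_
      have h3 : lg (f x) + t • (q - lg (f x)) ∈ V := by
        rw [hV, mem_preimage, ← hΓf t ht]
        exact hΓU t
      have h4 : g (lg (f x) + t • (q - lg (f x))) =
          fiberSum f φ (expPi (lg (f x) + t • (q - lg (f x)))) := by
        rw [hg, indicator_of_mem h3]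
      rw [h4]
      have h5 : φ (Γ t) = ENNReal.ofReal (sg (Γ t)) := by
        rw [hφ, indicator_of_mem (hΓU t)]
      rw [← h5]
      exact le_fiberSum (hΓf t ht)
  · -- fibres
    refine Filter.Eventually.of_forall fun q => ?_
    by_cases hne : ({y ∈ reg f P a | lg (f y) = q}).Nonempty
    · obtain ⟨y0, hy0, hq0⟩ := hne
      refine (encard_le_encard (fun y hy => ?_)).trans (hd (f y0) hy0.1 hy0.2.1)
      rw [mem_preimage, mem_singleton_iff]
      have h1 : expPi (lg (f y)) = expPi (lg (f y0)) := by rw [hy.2, hq0]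
      rwa [expPi_lg hy.1.1, expPi_lg hy0.1] at h1
    · rw [not_nonempty_iff_eq_empty] at hne
      rw [hne]
      simp
  · -- push forward
    intro A hA hAm
    have hset : G ∩ (fun x => lg (f x)) ⁻¹' A ⊆ G ∩ f ⁻¹' (expPi '' A) := by
      rintro x ⟨hx, hxA⟩
      exact ⟨hx, lg (f x), hxA, expPi_lg (hGr hx).1⟩
    have hAV : MeasurableSet (A ∩ V) := hAm.inter hVo.measurableSet
    have hinjA : InjOn (expPi (ι := ι)) A := (injOn_box a).mono hA
    have h1 := (lintegral_cov cov hfin hmeas' hAV (fun z hz => hz.2)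
      (hinjA.mono inter_subset_left) (φ := fun _ => 1) measurable_const).2
    have h2 : f ⁻¹' (expPi '' A) ∩ reg f P a ⊆ f ⁻¹' (expPi '' (A ∩ V)) := by
      rintro x ⟨⟨z, hz, hzx⟩, hxr⟩
      refine ⟨z, ⟨hz, ?_⟩, hzx⟩
      rw [hV, mem_preimage, hzx]
      exact ⟨hxr.1, hxr.2.1⟩
    have h3 : mX (f ⁻¹' (expPi '' A) ∩ reg f P a) ≤ d * volume A := by
      refine (measure_mono h2).trans ?_
      rw [setLIntegral_one] at h1
      rw [h1]
      calc ∫⁻ z in A ∩ V, fiberSum f (fun _ => 1) (expPi z)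
          ≤ ∫⁻ _ in A ∩ V, (d : ℝ≥0∞) := by
            refine setLIntegral_mono' hAV fun z hz => ?_
            unfold fiberSum
            rw [ENNReal.tsum_one, ENat.card_coe_set_eq]
            have := hd (expPi z) hz.2.1 hz.2.2
            calc (((f ⁻¹' {expPi z}).encard : ℕ∞) : ℝ≥0∞) ≤ ((d : ℕ∞) : ℝ≥0∞) := by
                  exact_mod_cast this
              _ = d := by simp
        _ = d * volume (A ∩ V) := by rw [setLIntegral_const]
        _ ≤ d * volume A := by gcongr; exact inter_subset_left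
    calc ν (G ∩ (fun x => lg (f x)) ⁻¹' A) * volume (box ι a)
        ≤ ν (G ∩ f ⁻¹' (expPi '' A)) * volume (box ι a) := by
          gcongr
      _ ≤ ENNReal.ofReal B * mX (f ⁻¹' (expPi '' A) ∩ reg f P a) * ν univ := hdens A hA hAm
      _ ≤ ENNReal.ofReal B * (d * volume A) * ν univ := by gcongr
      _ = ENNReal.ofReal (B * d) * volume A * ν univ := by
          rw [ENNReal.ofReal_mul hB.le, ENNReal.ofReal_natCast]
          ring
  · -- mass of g
    rw [hgint]
    refine le_trans (le_of_eq ?_) hE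
    refine setLIntegral_congr_fun hregm fun x hx => ?_
    simp only [hφ]
    rw [indicator_of_mem (hregU hx)]

end Crest.Agent.R281.Df5_612
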