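/-
R281 / S-DIAM-INST (helper612), part 1: topology of finite coverings.
-/
import Mathlib

namespace Crest.Agent.R281.Dg1_612

open Set Filter Topology

section cover

variable {X B : Type*} [TopologicalSpace X] [T2Space X] [CompactSpace X] [TopologicalSpace B]
  [T2Space B] {f : X → B} {U : Set B}

/-- A local homeomorphism which is locally (over `U`) bounded away from the boundary of `f⁻¹U` is
a finite covering over `U`. -/
theorem covering_of_closure (hU : IsOpen U) (hZ : IsOpen (f ⁻¹' U))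
    (hloc : IsLocalHomeomorphOn f (f ⁻¹' U))
    (hprop : ∀ w ∈ U, ∃ V ∈ 𝓝 w, closure (f ⁻¹' V) ⊆ f ⁻¹' U) :
    IsCoveringMapOn f U ∧ ∀ w ∈ U, (f ⁻¹' {w}).Finite := by
  have hf : ContinuousOn f (f ⁻¹' U) := hloc.continuousOn
  have hfib : ∀ w ∈ U, (f ⁻¹' {w}).Finite := by
    intro w hw
    obtain ⟨V, hV, hVZ⟩ := hprop w hw
    have hsub : f ⁻¹' {w} ⊆ closure (f ⁻¹' V) := by
      refine Subset.trans ?_ subset_closure
      intro x hx
      rw [mem_preimage, mem_singleton_iff] at hx
      rw [mem_preimage, hx]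
      exact mem_of_mem_nhds hV
    have hcont : ContinuousOn f (closure (f ⁻¹' V)) := hf.mono hVZ
    have hcl : IsClosed (f ⁻¹' {w}) := by
      have := hcont.preimage_isClosed_of_isClosed isClosed_closure (isClosed_singleton (x := w))
      rwa [inter_eq_right.2 hsub] at this
    refine hcl.isCompact.finite ?_
    refine IsDiscrete.of_openPartialHomeomorph f (x := w) subset_rfl fun e he => ?_
    have he' : e ∈ f ⁻¹' U := by
      rw [mem_preimage, mem_singleton_iff] at he
      rw [mem_preimage, he]; exact hw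
    obtain ⟨φ, hφ, h⟩ := hloc e he'
    exact ⟨φ, hφ, h.symm⟩
  refine ⟨?_, hfib⟩
  refine IsCoveringMapOn.of_isCoveringMap_restrictPreimage U hU hZ ?_
  have hlh : IsLocalHomeomorph (U.restrictPreimage f) := by
    have h1 : IsLocalHomeomorph (Subtype.val ∘ U.restrictPreimage f : f ⁻¹' U → B) := by
      rw [isLocalHomeomorph_iff_isLocalHomeomorphOn_univ]
      have h2 : IsLocalHomeomorphOn (Subtype.val : f ⁻¹' U → X) univ :=
        (hZ.isOpenEmbedding_subtypeVal.isLocalHomeomorph).isLocalHomeomorphOn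
      exact hloc.comp h2 (fun x _ => x.2)
    exact IsLocalHomeomorph.of_comp h1 hU.isOpenEmbedding_subtypeVal.isLocalHomeomorph
      (Continuous.subtype_mk (hf.comp_continuous continuous_subtype_val fun x => x.2) _)
  have hclosed : IsClosedMap (U.restrictPreimage f) := by
    intro C hC
    obtain ⟨C', hC', rfl⟩ := isClosed_induced_iff.1 hC
    rw [← closure_subset_iff_isClosed]
    rintro ⟨w, hw⟩ hwcl
    obtain ⟨V, hV, hVZ⟩ := hprop w hw
    set F : Set X := closure (f ⁻¹' V) ∩ C' with hF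
    have hFc : IsCompact F := (isClosed_closure.inter hC').isCompact
    have hFi : IsCompact (f '' F) := hFc.image_of_continuousOn (hf.mono (inter_subset_left.trans hVZ))
    have h3 : w ∈ closure (f '' F) := by
      rw [mem_closure_iff_nhds]
      intro N hN
      have hN' : (Subtype.val ⁻¹' (N ∩ V) : Set U) ∈ 𝓝 (⟨w, hw⟩ : U) :=
        continuous_subtype_val.continuousAt (Filter.inter_mem hN hV)
      obtain ⟨w', hw'1, hw'2⟩ := mem_closure_iff_nhds.1 hwcl _ hN'
      obtain ⟨x, hx, rfl⟩ := hw'2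
      refine ⟨f x, hw'1.1, x, ⟨subset_closure hw'1.2, hx⟩, rfl⟩
    rw [hFi.isClosed.closure_eq] at h3
    obtain ⟨x, hx, hxw⟩ := h3
    refine ⟨⟨x, hVZ hx.1⟩, hx.2, Subtype.ext hxw⟩
  rw [isCoveringMap_iff_isCoveringMapOn_univ]
  refine hclosed.isCoveringMapOn_of_isLocalHomeomorphOn (fun w _ => ?_)
    (hlh.isLocalHomeomorphOn.mono (subset_univ _))
  refine Finite.of_finite_image (f := Subtype.val) ((hfib w w.2).subset ?_)
    (Subtype.val_injective.injOn)
  rintro _ ⟨x, hx, rfl⟩
  exact congrArg Subtype.val hx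

end cover

/-- the cardinality of the fibres of a finite covering is constant over a preconnected set -/
theorem card_fiber_const {X B : Type*} [TopologicalSpace X] [TopologicalSpace B] {f : X → B}
    {U : Set B} (cov : IsCoveringMapOn f U) {S : Set B} (hS : IsPreconnected S) (hSU : S ⊆ U)
    {w w' : B} (hw : w ∈ S) (hw' : w' ∈ S) : (f ⁻¹' {w}).ncard = (f ⁻¹' {w'}).ncard := by
  have hlc : ∀ w0 ∈ U, ∃ V : Set B, IsOpen V ∧ w0 ∈ V ∧
      ∀ w ∈ V, (f ⁻¹' {w}).ncard = (f ⁻¹' {w0}).ncard := by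
    intro w0 hw0
    obtain ⟨hdisc, V, hwV, hV, hfV, H, hH⟩ := cov w0 hw0
    refine ⟨V, hV, hwV, fun w hw => ?_⟩
    -- the fibre over `w ∈ V` is in bijection with the fibre over `w0`
    refine Set.ncard_congr' ?_
    refine Equiv.symm (Equiv.ofBijective (fun i : f ⁻¹' {w0} => (⟨(H.symm (⟨w, hw⟩, i) : X), ?_⟩ : f ⁻¹' {w})) ⟨?_, ?_⟩)
    · have := hH (H.symm (⟨w, hw⟩, i))
      rw [H.apply_symm_apply] at this
      exact this.symm
    · intro i j hij
      have h1 : ((H.symm (⟨w, hw⟩, i) : f ⁻¹' V) : X) = ((H.symm (⟨w, hw⟩, j) : f ⁻¹' V) : X) :=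
        congrArg (fun z : f ⁻¹' {w} => (z : X)) hij
      exact (Prod.mk.inj (H.symm.injective (Subtype.ext h1))).2
    · rintro ⟨x, hx⟩
      have hx' : f x = w := hx
      have hxV : x ∈ f ⁻¹' V := by rw [mem_preimage, hx']; exact hw
      refine ⟨(H ⟨x, hxV⟩).2, ?_⟩
      apply Subtype.ext
      have h3 : ((⟨w, hw⟩ : V), (H ⟨x, hxV⟩).2) = H ⟨x, hxV⟩ := by
        refine Prod.ext (Subtype.ext ?_) rfl
        rw [hH]
        exact hx'.symm
      simp only
      rw [h3, H.symm_apply_apply]
  have hcont : ContinuousOn (fun w => (f ⁻¹' {w}).ncard) S := by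
    intro w0 hw0
    obtain ⟨V, hV, hwV, h⟩ := hlc w0 (hSU hw0)
    refine ContinuousAt.continuousWithinAt ?_
    refine (continuousAt_const (y := (f ⁻¹' {w0}).ncard)).congr ?_
    filter_upwards [hV.mem_nhds hwV] with w hw
    exact (h w hw).symm
  exact hS.constant hcont hw hw'

/-- the complement of the zero set of an entire function is preconnected -/
theorem isPreconnected_ne_zero {E : Type*} [NormedAddCommGroup E] [NormedSpace ℂ E]
    {F : E → ℂ} (hF : Differentiable ℂ F) : IsPreconnected {z | F z ≠ 0} := by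
  rcases Set.eq_empty_or_nonempty {z | F z ≠ 0} with h0 | ⟨z0, hz0⟩
  · rw [h0]; exact isPreconnected_empty
  refine isPreconnected_of_forall z0 fun z hz => ?_
  -- the complex line through `z0` and `z`
  set G : ℂ → ℂ := fun τ => F (z0 + τ • (z - z0)) with hG
  have hGd : Differentiable ℂ G := hF.comp (by fun_prop)
  have hG0 : G 0 ≠ 0 := by simpa [hG] using hz0
  have hG1 : G 1 ≠ 0 := by simpa [hG] using hz
  have hcount : (G ⁻¹' {0}).Countable := by
    have han : AnalyticOnNhd ℂ G univ := fun z _ => hGd.analyticAt z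
    have hd : (G ⁻¹' {0})ᶜ ∈ Filter.codiscrete ℂ := by
      have := han.preimage_zero_mem_codiscrete (x := 0) hG0
      exact this
    have hdisc : IsDiscrete (G ⁻¹' {0}) := by
      have h3 := mem_codiscrete'.1 hd
      have h4 := h3.2
      rw [compl_compl] at h4
      exact h4
    have : DiscreteTopology (G ⁻¹' {0} : Set ℂ) := hdisc.to_subtype
    have hc : Countable (G ⁻¹' {0} : Set ℂ) := countable_of_Lindelof_of_discrete
    exact hc.to_set
  have hpc : IsPathConnected (G ⁻¹' {0})ᶜ :=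
    hcount.isPathConnected_compl_of_one_lt_rank (by
      rw [Complex.rank_real_complex]
      norm_num)
  refine ⟨(fun τ : ℂ => z0 + τ • (z - z0)) '' (G ⁻¹' {0})ᶜ, ?_, ⟨0, ?_, by simp⟩, ⟨1, ?_, by simp⟩, ?_⟩
  · rintro _ ⟨τ, hτ, rfl⟩
    exact hτ
  · simpa using hG0
  · simpa using hG1
  · exact hpc.isConnected.isPreconnected.image _ (by fun_prop)

end Crest.Agent.R281.Dg1_612
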