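/-
R281 / S-DIAM-INST (helper612), part 2: Siegel relations between sections (from 101's Siegel bound).
-/
import Crest.Agent.R273.Sg4_101

set_option autoImplicit false
set_option linter.unusedSectionVars false

namespace Crest.Agent.R281.Dg2_612

open Set Filter Topology Complex
open Crest.Agent.R275.Geo Crest.Agent.R275.Core144
open Crest.Agent.R273.Sg2_101 Crest.Agent.R273.Sg3_101 Crest.Agent.R273.Sg4_101

noncomputable section

variable {n : ℕ} {M : Type} [TopologicalSpace M] {A : Atl n M}

/-- any `n + 1` quotients of sections satisfy a polynomial relation -/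
theorem siegel_rel [CompactSpace M] [T2Space M] (L : Fin (n + 1) → LB A)
    {u t : Fin (n + 1) → A.ι → M → ℂ} (hu : ∀ k, IsHS (L k) univ (u k))
    (ht : ∀ k, IsHS (L k) univ (t k)) :
    ∃ F : MvPolynomial (Fin (n + 1)) ℂ, F ≠ 0 ∧ ∀ i, ∀ x ∈ (A.e i).source,
      (∀ k, t k i x ≠ 0) → MvPolynomial.eval (fun k => u k i x / t k i x) F = 0 := by
  classical
  obtain ⟨N, c, h⟩ := siegel A
  set C : ℕ := ∑ k, c (L k) with hC
  set q : ℕ := N * (C + 2) ^ n with hq
  obtain ⟨hfin, hle⟩ := h (Fin (n + 1)) Finset.univ L (fun _ => q)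
  set P : LB A := ∏ k, L k ^ q with hP
  have hS : ∀ a : Fin (n + 1) → Fin (q + 1), IsHS P univ (mon u t (fun _ => q) (fun k => (a k : ℕ))) :=
    fun a => isHS_mon hu ht fun k => Nat.lt_succ_iff.1 (a k).2
  have hnot : ¬ LinearIndependent ℂ (fun a : Fin (n + 1) → Fin (q + 1) =>
      (⟨_, hS a⟩ : HS P univ)) := by
    intro hli
    have h1 := hli.fintype_card_le_finrank.trans hle
    rw [Fintype.card_fun, Fintype.card_fin, Fintype.card_fin] at h1
    have h2 : ∑ k ∈ Finset.univ, q * c (L k) + 2 ≤ (q + 1) * (C + 2) := by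
      rw [← Finset.mul_sum, ← hC]
      nlinarith
    have h3 : N * (∑ k ∈ Finset.univ, q * c (L k) + 2) ^ n ≤ N * ((q + 1) * (C + 2)) ^ n := by
      gcongr
    have h4 : N * ((q + 1) * (C + 2)) ^ n = q * (q + 1) ^ n := by
      rw [mul_pow, hq]; ring
    have h5 : (q + 1) ^ (n + 1) ≤ q * (q + 1) ^ n := h1.trans (h3.trans h4.le)
    have h6 : q * (q + 1) ^ n < (q + 1) ^ (n + 1) := by
      rw [pow_succ']
      exact Nat.mul_lt_mul_of_pos_right (Nat.lt_succ_self q) (by positivity)
    omega
  rw [Fintype.linearIndependent_iff] at hnot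
  push Not at hnot
  obtain ⟨g, hg, a0, ha0⟩ := hnot
  have hg' : ∑ a, g a • mon u t (fun _ => q) (fun k => (a k : ℕ)) = 0 := by
    have h1 := congrArg Subtype.val hg
    simpa using h1
  set em : (Fin (n + 1) → Fin (q + 1)) → (Fin (n + 1) →₀ ℕ) := fun a =>
    Finsupp.equivFunOnFinite.symm fun k => (a k : ℕ) with hem
  have hinj : Function.Injective em := by
    intro a b hab
    funext k
    have h1 := congrArg (fun f : Fin (n + 1) →₀ ℕ => f k) hab
    exact Fin.ext h1
  refine ⟨∑ a, MvPolynomial.monomial (em a) (g a), ?_, fun i x hx ht0 => ?_⟩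
  · intro h0
    have h1 := congrArg (MvPolynomial.coeff (em a0)) h0
    rw [MvPolynomial.coeff_sum, MvPolynomial.coeff_zero] at h1
    rw [Finset.sum_eq_single a0 (fun b _ hb => ?_) (fun h => absurd (Finset.mem_univ _) h)] at h1
    · rw [MvPolynomial.coeff_monomial, if_pos rfl] at h1
      exact ha0 h1
    · rw [MvPolynomial.coeff_monomial, if_neg (fun h => hb (hinj h))]
  · rw [map_sum]
    have h1 := congrFun (congrFun hg' i) x
    simp only [Finset.sum_apply, Pi.smul_apply, smul_eq_mul, Pi.zero_apply] at h1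
    have h2 : ∀ a : Fin (n + 1) → Fin (q + 1), mon u t (fun _ => q) (fun k => (a k : ℕ)) i x =
        (∏ k, t k i x ^ q) * ∏ k, (u k i x / t k i x) ^ (a k : ℕ) := by
      intro a
      unfold mon
      rw [if_pos hx, ← Finset.prod_mul_distrib]
      refine Finset.prod_congr rfl fun k _ => ?_
      have h3 : t k i x ^ q = t k i x ^ (a k : ℕ) * t k i x ^ (q - (a k : ℕ)) := by
        rw [← pow_add]
        congr 1
        have := (a k).2
        omega
      rw [h3, div_pow]
      field_simp [ht0 k]
    have h4 : (∏ k, t k i x ^ q) ≠ 0 := Finset.prod_ne_zero_iff.2 fun k _ => pow_ne_zero _ (ht0 k)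
    have h5 : ∀ a : Fin (n + 1) → Fin (q + 1),
        MvPolynomial.eval (fun k => u k i x / t k i x) (MvPolynomial.monomial (em a) (g a)) =
        g a * ∏ k, (u k i x / t k i x) ^ (a k : ℕ) := by
      intro a
      rw [MvPolynomial.eval_monomial, Finsupp.prod_fintype _ _ (fun _ => pow_zero _)]
      rfl
    simp_rw [h5]
    have h6 : (∏ k, t k i x ^ q) * ∑ a, g a * ∏ k, (u k i x / t k i x) ^ ((a k : Fin (q + 1)) : ℕ) = 0 := by
      rw [Finset.mul_sum, ← h1]
      refine Finset.sum_congr rfl fun a _ => ?_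
      rw [h2 a]
      ring
    exact (mul_eq_zero.1 h6).resolve_left h4

open Polynomial in
/-- relation in the form `G(f(x); y(x)) = 0`, `G` a nonzero polynomial in one variable over the
polynomials in `n` variables; `G` has nonzero constant coefficient if `y` is not locally zero. -/
theorem siegel_rel_one [CompactSpace M] [T2Space M] {L L' : LB A}
    {s0 v w : A.ι → M → ℂ} {s : Fin n → A.ι → M → ℂ} (hs0 : IsHS L univ s0)
    (hs : ∀ j, IsHS L univ (s j)) (hv : IsHS L' univ v) (hw : IsHS L' univ w) :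
    ∃ G : Polynomial (MvPolynomial (Fin n) ℂ), G ≠ 0 ∧ ∀ i, ∀ x ∈ (A.e i).source,
      s0 i x ≠ 0 → w i x ≠ 0 →
        (G.map (MvPolynomial.eval (fun j => s j i x / s0 i x))).eval (v i x / w i x) = 0 := by
  obtain ⟨F, hF0, hF⟩ := siegel_rel (A := A) (Fin.cons L' fun _ => L)
    (u := Fin.cons v s) (t := Fin.cons w fun _ => s0)
    (fun k => by
      refine Fin.cases ?_ (fun j => ?_) k
      · simpa using hv
      · simpa using hs j)
    (fun k => by
      refine Fin.cases ?_ (fun j => ?_) k
      · simpa using hw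
      · simpa using hs0)
  refine ⟨MvPolynomial.finSuccEquiv ℂ n F, ?_, fun i x hx h0 hw0 => ?_⟩
  · intro h
    exact hF0 ((MvPolynomial.finSuccEquiv ℂ n).injective (h.trans (map_zero _).symm))
  · have h1 := hF i x hx (fun k => by
      refine Fin.cases ?_ (fun j => ?_) k
      · simpa using hw0
      · simpa using h0)
    have h2 : (fun k : Fin (n + 1) => (Fin.cons v s : Fin (n + 1) → A.ι → M → ℂ) k i x /
        (Fin.cons w (fun _ => s0) : Fin (n + 1) → A.ι → M → ℂ) k i x) =
        Fin.cons (v i x / w i x) (fun j => s j i x / s0 i x) := by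
      funext k
      refine Fin.cases ?_ (fun j => ?_) k
      · simp
      · simp
    rw [h2, MvPolynomial.eval_eq_eval_mv_eval'] at h1
    exact h1

end

end Crest.Agent.R281.Dg2_612
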