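/-
R281 / S-DIAM-INST (helper612), part 3: root bounds, the Jacobian section.
-/
import Crest.Agent.R281.Dg2_612
import Crest.Agent.R273.SteinD_794

set_option autoImplicit false
set_option linter.unusedSectionVars false
set_option linter.ambiguousOpen false

namespace Crest.Agent.R281.Dg3_612

open Set Filter Complex
open scoped _root_.Topology
open Crest.Agent.R275.Geo Crest.Agent.R275.Core144
open Crest.Agent.R273.SteinC_794 Crest.Agent.R273.SteinD_794

noncomputable section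

/-! ### polynomials in one variable over polynomials -/

section poly

variable {n : ℕ}

/-- `G(w; y)` -/
def ev2 (G : Polynomial (MvPolynomial (Fin n) ℂ)) (w : Fin n → ℂ) (y : ℂ) : ℂ :=
  (G.map (MvPolynomial.eval w)).eval y

theorem ev2_eq (G : Polynomial (MvPolynomial (Fin n) ℂ)) (w : Fin n → ℂ) (y : ℂ) :
    ev2 G w y = ∑ i ∈ Finset.range (G.natDegree + 1), MvPolynomial.eval w (G.coeff i) * y ^ i := by
  unfold ev2
  rw [Polynomial.eval_map, Polynomial.eval₂_eq_sum_range]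

theorem continuous_ev2 (G : Polynomial (MvPolynomial (Fin n) ℂ)) :
    Continuous fun p : (Fin n → ℂ) × ℂ => ev2 G p.1 p.2 := by
  simp_rw [ev2_eq]
  refine continuous_finsetSum _ fun i _ => ?_
  exact ((MvPolynomial.continuous_eval _).comp continuous_fst).mul (continuous_snd.pow i)

theorem ev2_zero (G : Polynomial (MvPolynomial (Fin n) ℂ)) (w : Fin n → ℂ) :
    ev2 G w 0 = MvPolynomial.eval w (G.coeff 0) := by
  unfold ev2
  rw [← Polynomial.coeff_zero_eq_eval_zero, Polynomial.coeff_map]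

theorem root_bound_num {d : ℕ} {a : ℕ → ℂ} {l y : ℂ} (hl : l ≠ 0)
    (h : ∑ i ∈ Finset.range d, a i * y ^ i + l * y ^ d = 0) :
    ‖y‖ ≤ (∑ i ∈ Finset.range d, ‖a i‖) / ‖l‖ + 1 := by
  have hl0 : 0 < ‖l‖ := norm_pos_iff.2 hl
  have hS0 : 0 ≤ ∑ i ∈ Finset.range d, ‖a i‖ := Finset.sum_nonneg fun _ _ => norm_nonneg _
  have hq0 : 0 ≤ (∑ i ∈ Finset.range d, ‖a i‖) / ‖l‖ := div_nonneg hS0 hl0.le
  by_cases hy1 : ‖y‖ ≤ 1
  · linarith
  push Not at hy1
  have h3 : ‖l‖ * ‖y‖ ^ d ≤ ∑ i ∈ Finset.range d, ‖a i‖ * ‖y‖ ^ i := by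
    have h4 : l * y ^ d = - ∑ i ∈ Finset.range d, a i * y ^ i := by linear_combination h
    calc ‖l‖ * ‖y‖ ^ d = ‖l * y ^ d‖ := by rw [norm_mul, norm_pow]
      _ = ‖∑ i ∈ Finset.range d, a i * y ^ i‖ := by rw [h4, norm_neg]
      _ ≤ ∑ i ∈ Finset.range d, ‖a i * y ^ i‖ := norm_sum_le _ _
      _ = _ := by simp_rw [norm_mul, norm_pow]
  rcases Nat.eq_zero_or_pos d with hd | hd
  · subst hd
    simp at h3
    exact absurd h3 hl
  have h5 : ∑ i ∈ Finset.range d, ‖a i‖ * ‖y‖ ^ i ≤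
      (∑ i ∈ Finset.range d, ‖a i‖) * ‖y‖ ^ (d - 1) := by
    rw [Finset.sum_mul]
    refine Finset.sum_le_sum fun i hi => ?_
    have hi' : i ≤ d - 1 := by
      have := Finset.mem_range.1 hi
      omega
    exact mul_le_mul_of_nonneg_left (pow_le_pow_right₀ hy1.le hi') (norm_nonneg _)
  have h6 : ‖y‖ ^ d = ‖y‖ ^ (d - 1) * ‖y‖ := by
    rw [← pow_succ]
    congr 1
    omega
  have h7 : 0 < ‖y‖ ^ (d - 1) := by positivity
  have h8 : ‖l‖ * ‖y‖ ≤ ∑ i ∈ Finset.range d, ‖a i‖ := by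
    have h9 := h3.trans h5
    rw [h6] at h9
    refine le_of_mul_le_mul_right ?_ h7
    calc ‖l‖ * ‖y‖ * ‖y‖ ^ (d - 1) = ‖l‖ * (‖y‖ ^ (d - 1) * ‖y‖) := by ring
      _ ≤ _ := h9
  have h10 : ‖y‖ ≤ (∑ i ∈ Finset.range d, ‖a i‖) / ‖l‖ := by
    rw [le_div_iff₀ hl0]
    linarith
  linarith

theorem root_bound {G : Polynomial (MvPolynomial (Fin n) ℂ)} {w0 : Fin n → ℂ}
    (h0 : MvPolynomial.eval w0 G.leadingCoeff ≠ 0) :
    ∃ R : ℝ, ∀ᶠ w in 𝓝 w0, ∀ y, ev2 G w y = 0 → ‖y‖ ≤ R := by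
  have hBc : ContinuousAt (fun w : Fin n → ℂ => (∑ i ∈ Finset.range G.natDegree,
    ‖MvPolynomial.eval w (G.coeff i)‖) / ‖MvPolynomial.eval w G.leadingCoeff‖ + 1) w0 := by
    refine ContinuousAt.add (ContinuousAt.div ?_ ?_ ?_) continuousAt_const
    · exact (continuous_finsetSum _ fun i _ =>
        (MvPolynomial.continuous_eval (G.coeff i)).norm).continuousAt
    · exact (MvPolynomial.continuous_eval G.leadingCoeff).norm.continuousAt
    · exact norm_ne_zero_iff.2 h0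
  refine ⟨((∑ i ∈ Finset.range G.natDegree,
    ‖MvPolynomial.eval w0 (G.coeff i)‖) / ‖MvPolynomial.eval w0 G.leadingCoeff‖ + 1) + 1, ?_⟩
  have h1 := hBc.eventually_lt (continuousAt_const (y := ((∑ i ∈ Finset.range G.natDegree,
    ‖MvPolynomial.eval w0 (G.coeff i)‖) / ‖MvPolynomial.eval w0 G.leadingCoeff‖ + 1) + 1))
    (lt_add_one _)
  have h2 : ∀ᶠ w in 𝓝 w0, MvPolynomial.eval w G.leadingCoeff ≠ 0 :=
    (MvPolynomial.continuous_eval G.leadingCoeff).continuousAt.eventually_ne h0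
  filter_upwards [h1, h2] with w hw1 hw2 y hy
  refine le_trans ?_ hw1.le
  rw [ev2_eq, Finset.sum_range_succ] at hy
  exact root_bound_num (a := fun i => MvPolynomial.eval w (G.coeff i)) hw2 hy

theorem exists_lowest {G : Polynomial (MvPolynomial (Fin n) ℂ)} (hG : G ≠ 0) :
    ∃ (G1 : Polynomial (MvPolynomial (Fin n) ℂ)) (m : ℕ), G1.coeff 0 ≠ 0 ∧
      ∀ w y, ev2 G w y = y ^ m * ev2 G1 w y := by
  obtain ⟨q, hq, hnd⟩ := Polynomial.exists_eq_pow_rootMultiplicity_mul_and_not_dvd G hG 0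
  rw [Polynomial.C_0, sub_zero] at hq hnd
  refine ⟨q, Polynomial.rootMultiplicity 0 G, fun h => hnd (Polynomial.X_dvd_iff.2 h), ?_⟩
  intro w y
  unfold ev2
  conv_lhs => rw [hq]
  simp [Polynomial.map_mul, Polynomial.eval_mul]

end poly

/-! ### the ratio map -/

variable {n : ℕ} {M : Type} [TopologicalSpace M] {A : Atl n M} {L L' : LB A}

/-- `f = (s_1/s_0, .., s_n/s_0)` -/
def rf (s0 : A.ι → M → ℂ) (s : Fin n → A.ι → M → ℂ) (x : M) : Fin n → ℂ := fun j => qt (s j) s0 x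

variable {s0 : A.ι → M → ℂ} {s : Fin n → A.ι → M → ℂ}

theorem rf_eq (hs0 : IsHS L univ s0) (hs : ∀ j, IsHS L univ (s j)) {i : A.ι} {x : M}
    (hx : x ∈ (A.e i).source) : rf s0 s x = fun j => s j i x / s0 i x := by
  funext j
  exact qt_eq (hs j) hs0 hx

theorem qt_zero (hs0 : IsHS L univ s0) {u : A.ι → M → ℂ} (hu : IsHS L univ u) {x : M}
    (hx : x ∉ nz s0) : qt u s0 x = 0 := by
  obtain ⟨i, hi⟩ := A.cover x
  rw [qt_eq hu hs0 hi]
  rw [mem_nz hs0 hi, not_not] at hx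
  rw [hx, div_zero]

theorem qt_continuousOn (hs0 : IsHS L univ s0) {u : A.ι → M → ℂ} (hu : IsHS L univ u) :
    ContinuousOn (qt u s0) (nz s0) := by
  intro x hx
  obtain ⟨i, hi⟩ := A.cover x
  refine ContinuousAt.continuousWithinAt ?_
  exact continuousAt_of_holAt (isOpen_nz hs0) (qt_hol hu hs0 i) hi hx

theorem rf_continuousOn (hs0 : IsHS L univ s0) (hs : ∀ j, IsHS L univ (s j)) :
    ContinuousOn (rf s0 s) (nz s0) :=
  continuousOn_pi.2 fun j => qt_continuousOn hs0 (hs j)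

/-- a quotient `v/w` of sections satisfies a relation with nonzero lowest coefficient -/
theorem rel_lowest [ConnectedSpace M] [CompactSpace M] [T2Space M] {v w : A.ι → M → ℂ}
    (hs0 : IsHS L univ s0) (hs : ∀ j, IsHS L univ (s j)) (hv : IsHS L' univ v)
    (hw : IsHS L' univ w) (hv0 : ∃ i, ∃ x ∈ (A.e i).source, v i x ≠ 0)
    (hw0 : ∀ x ∈ nz s0, x ∈ nz w) :
    ∃ c : MvPolynomial (Fin n) ℂ, c ≠ 0 ∧ ∀ x ∈ nz s0, MvPolynomial.eval (rf s0 s x) c ≠ 0 →
      x ∈ nz v := by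
  obtain ⟨G, hG, hrel⟩ := Dg2_612.siegel_rel_one hs0 hs hv hw
  obtain ⟨G1, m, hc, hG1⟩ := exists_lowest hG
  refine ⟨G1.coeff 0, hc, fun x hx hcx => ?_⟩
  obtain ⟨i, hi⟩ := A.cover x
  -- the relation for `G1` holds at `x`
  have hcont : ContinuousAt (fun y => ev2 G1 (rf s0 s y) (qt v w y)) x := by
    have h1 : ContinuousAt (fun y => (rf s0 s y, qt v w y)) x :=
      ((rf_continuousOn hs0 hs).continuousAt ((isOpen_nz hs0).mem_nhds hx)).prodMk
        ((qt_continuousOn hw hv).continuousAt ((isOpen_nz hw).mem_nhds (hw0 x hx)))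
    exact ContinuousAt.comp (g := fun p : (Fin n → ℂ) × ℂ => ev2 G1 p.1 p.2)
      (continuous_ev2 G1).continuousAt h1
  have hfreq : ∃ᶠ y in 𝓝 x, ev2 G1 (rf s0 s y) (qt v w y) = 0 := by
    have h1 := id_thm hv hv0 i hi
    have h2 : ∃ᶠ y in 𝓝 x, v i y ≠ 0 := by
      rw [Filter.Frequently]
      simpa using h1
    have h3 : ∀ᶠ y in 𝓝 x, y ∈ (A.e i).source ∧ y ∈ nz s0 := by
      filter_upwards [(A.e i).open_source.mem_nhds hi, (isOpen_nz hs0).mem_nhds hx] with y h1 h2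
      exact ⟨h1, h2⟩
    refine (h2.and_eventually h3).mono ?_
    rintro y ⟨hy, hyi, hys⟩
    have h4 := hrel i y hyi ((mem_nz hs0 hyi).1 hys) ((mem_nz hw hyi).1 (hw0 y hys))
    have h5 : qt v w y ≠ 0 := by
      rw [qt_eq hv hw hyi]
      exact div_ne_zero hy ((mem_nz hw hyi).1 (hw0 y hys))
    have h6 : ev2 G (rf s0 s y) (qt v w y) = 0 := by
      rw [rf_eq hs0 hs hyi, qt_eq hv hw hyi]
      exact h4
    rw [hG1] at h6
    exact (mul_eq_zero.1 h6).resolve_left (pow_ne_zero _ h5)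
  have hz : ev2 G1 (rf s0 s x) (qt v w x) = 0 := by
    by_contra hne
    exact hfreq ((hcont.eventually_ne hne).mono fun y hy => hy)
  rw [mem_nz hv hi]
  intro h0
  have h1 : qt v w x = 0 := by rw [qt_eq hv hw hi, h0, zero_div]
  rw [h1, ev2_zero] at hz
  exact hcx hz

end

end Crest.Agent.R281.Dg3_612
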