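/-
R281 / S-DIAM-INST (helper612), part 4: the Jacobian of the ratio map as a section of
`L^(2n) ⊗ K_M`.
-/
import Crest.Agent.R281.Dg3_612
import Crest.Agent.R273.HM_333

set_option autoImplicit false
set_option linter.unusedSectionVars false
set_option linter.ambiguousOpen false

namespace Crest.Agent.R281.Dg4_612

open Set Filter Complex
open scoped _root_.Topology
open Crest.Agent.R275.Geo Crest.Agent.R275.Core144
open Crest.Agent.R273.SteinC_794 Crest.Agent.R273.SteinD_794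
open Crest.Agent.R281.Dg3_612

noncomputable section

variable {n : ℕ} {M : Type} [TopologicalSpace M] {A : Atl n M} {L L' : LB A}

/-- `∂F/∂z_a` in the chart `i` -/
def dc (A : Atl n M) (i : A.ι) (a : Fin n) (F : M → ℂ) (x : M) : ℂ :=
  fderiv ℂ (fun z => F ((A.e i).symm z)) (A.e i x) (EuclideanSpace.single a 1)

theorem holAt_dc {i : A.ι} {U : Set M} (hU : IsOpen U) {F : M → ℂ} (hF : HolAt A i U F)
    (a : Fin n) : HolAt A i U (dc A i a F) := by
  have ho := isOpen_ti (A := A) (i := i) hU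
  have h1 : DifferentiableOn ℂ (fderiv ℂ (fun z => F ((A.e i).symm z)))
      ((A.e i).target ∩ (A.e i).symm ⁻¹' U) :=
    ((Crest.Agent.R266.SCV.analyticOnNhd_of_differentiableOn ho hF).fderiv).differentiableOn
  have h2 : DifferentiableOn ℂ (fun z => (fderiv ℂ (fun z => F ((A.e i).symm z)) z
      (EuclideanSpace.single a 1))) ((A.e i).target ∩ (A.e i).symm ⁻¹' U) :=
    h1.clm_apply (differentiableOn_const _)
  refine DifferentiableOn.congr h2 fun z hz => ?_
  simp only [dc, (A.e i).right_inv hz.1]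

theorem dc_congr {i : A.ι} {x : M} (hx : x ∈ (A.e i).source) {F G : M → ℂ} {a : Fin n}
    (h : F =ᶠ[𝓝 x] G) : dc A i a F x = dc A i a G x := by
  have hc : Tendsto (A.e i).symm (𝓝 (A.e i x)) (𝓝 x) := by
    have := (A.e i).continuousAt_symm ((A.e i).map_source hx)
    rwa [ContinuousAt, (A.e i).left_inv hx] at this
  have h1 : (fun z => F ((A.e i).symm z)) =ᶠ[𝓝 (A.e i x)] fun z => G ((A.e i).symm z) :=
    hc.eventually h
  unfold dc
  rw [h1.fderiv_eq]

theorem dc_mul {i : A.ι} {x : M} (hx : x ∈ (A.e i).source) {F G : M → ℂ} {a : Fin n}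
    (hF : DifferentiableAt ℂ (fun z => F ((A.e i).symm z)) (A.e i x))
    (hG : DifferentiableAt ℂ (fun z => G ((A.e i).symm z)) (A.e i x)) :
    dc A i a (fun y => F y * G y) x = F x * dc A i a G x + G x * dc A i a F x := by
  unfold dc
  rw [fderiv_fun_mul hF hG]
  simp only [ContinuousLinearMap.add_apply, ContinuousLinearMap.smul_apply, smul_eq_mul,
    (A.e i).left_inv hx]

theorem dc_chg {i j : A.ι} {x : M} (hx : x ∈ (A.e i).source ∩ (A.e j).source) {F : M → ℂ}
    (hF : DifferentiableAt ℂ (fun z => F ((A.e j).symm z)) (A.e j x)) (a : Fin n) :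
    dc A i a F x = ∑ b, dc A j b F x * A.J i j x b a := by
  have hij : DifferentiableAt ℂ (fun z => A.e j ((A.e i).symm z)) (A.e i x) :=
    (A.holo i j).differentiableAt ((isOpen_ov (A := A) i j).mem_nhds (mem_ov hx))
  have he : (fun z => F ((A.e i).symm z)) =ᶠ[𝓝 (A.e i x)]
      (fun z => F ((A.e j).symm z)) ∘ (fun z => A.e j ((A.e i).symm z)) := by
    filter_upwards [(isOpen_ov (A := A) i j).mem_nhds (mem_ov hx)] with z hz
    simp [(A.e j).left_inv hz.2]
  have hval : A.e j ((A.e i).symm (A.e i x)) = A.e j x := by rw [(A.e i).left_inv hx.1]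
  have hch : fderiv ℂ (fun z => F ((A.e i).symm z)) (A.e i x) =
      (fderiv ℂ (fun z => F ((A.e j).symm z)) (A.e j x)).comp
        (fderiv ℂ (fun z => A.e j ((A.e i).symm z)) (A.e i x)) := by
    rw [he.fderiv_eq, fderiv_comp _ (by rw [hval]; exact hF) hij, hval]
  unfold dc
  rw [hch]
  simp only [ContinuousLinearMap.coe_comp, Function.comp_apply, Atl.J]
  set v := (fderiv ℂ (fun z => A.e j ((A.e i).symm z)) (A.e i x)) (EuclideanSpace.single a 1)
  have hv : v = ∑ c, v c • (EuclideanSpace.single c (1 : ℂ) : Cn n) := by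
    ext d
    simp [Finset.sum_apply, Pi.single_apply]
  conv_lhs => rw [hv, map_sum]
  simp [mul_comm]

theorem hs_diffAt {u : A.ι → M → ℂ} (hu : IsHS L univ u) (i : A.ι) {j : A.ι} {x : M}
    (hx : x ∈ (A.e j).source) (hxi : x ∈ (A.e i).source) :
    DifferentiableAt ℂ (fun z => u i ((A.e j).symm z)) (A.e j x) := by
  have h1 := (hu.hol i).chg isOpen_univ j
  exact h1.diffAt (isOpen_univ.inter (A.e i).open_source) hx ⟨mem_univ _, hxi⟩

/-- `s₀ ∂_a u - u ∂_a s₀` -/
def wr (s0 u : A.ι → M → ℂ) (i : A.ι) (a : Fin n) (x : M) : ℂ :=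
  s0 i x * dc A i a (u i) x - u i x * dc A i a (s0 i) x

variable {s0 u : A.ι → M → ℂ} {s : Fin n → A.ι → M → ℂ}

theorem wr_tr (hs0 : IsHS L univ s0) (hu : IsHS L univ u) {i j : A.ι} {x : M}
    (hx : x ∈ (A.e i).source ∩ (A.e j).source) (a : Fin n) :
    wr s0 u i a x = L.g i j x ^ 2 * ∑ b, wr s0 u j b x * A.J i j x b a := by
  have hnb : ∀ {v : A.ι → M → ℂ}, IsHS L univ v → v i =ᶠ[𝓝 x] fun y => L.g i j y * v j y := by
    intro v hv
    filter_upwards [((A.e i).open_source.inter (A.e j).open_source).mem_nhds hx] with y hy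
    exact hv.tr i j y hy (mem_univ y)
  have hgd : DifferentiableAt ℂ (fun z => L.g i j ((A.e i).symm z)) (A.e i x) :=
    (L.hol i j).diffAt (A.e j).open_source hx.1 hx.2
  have key : ∀ {v : A.ι → M → ℂ}, IsHS L univ v → dc A i a (v i) x =
      L.g i j x * (∑ b, dc A j b (v j) x * A.J i j x b a) + v j x * dc A i a (L.g i j) x := by
    intro v hv
    rw [dc_congr hx.1 (hnb hv), dc_mul hx.1 hgd (hs_diffAt hv j hx.1 hx.2),
      dc_chg hx (hs_diffAt hv j hx.2 hx.2)]
  unfold wr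
  rw [key hs0, key hu, hs0.tr i j x hx (mem_univ x), hu.tr i j x hx (mem_univ x)]
  simp only [sub_mul, Finset.sum_sub_distrib, mul_assoc]
  rw [← Finset.mul_sum, ← Finset.mul_sum]
  ring

/-- the matrix `(s₀ ∂_a s_j - s_j ∂_a s₀)_{j a}` -/
def Wm (s0 : A.ι → M → ℂ) (s : Fin n → A.ι → M → ℂ) (i : A.ι) (x : M) :
    Matrix (Fin n) (Fin n) ℂ := Matrix.of fun j a => wr s0 (s j) i a x

theorem Wm_tr (hs0 : IsHS L univ s0) (hs : ∀ j, IsHS L univ (s j)) {i j : A.ι} {x : M}
    (hx : x ∈ (A.e i).source ∩ (A.e j).source) :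
    Wm s0 s i x = (L.g i j x ^ 2) • (Wm s0 s j x * Jm A i j x) := by
  ext k a
  simp only [Wm, Matrix.of_apply, Matrix.smul_apply, Matrix.mul_apply, smul_eq_mul, Jm_apply]
  exact wr_tr hs0 (hs k) hx a

open Classical in
/-- the Jacobian section -/
def jsec (s0 : A.ι → M → ℂ) (s : Fin n → A.ι → M → ℂ) : A.ι → M → ℂ := fun i x =>
  if x ∈ (A.e i).source then (Wm s0 s i x).det else 0

theorem holAt_det {i : A.ι} {U : Set M} {m : M → Matrix (Fin n) (Fin n) ℂ}
    (h : ∀ a b, HolAt A i U (fun x => m x a b)) : HolAt A i U fun x => (m x).det := by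
  simp only [Matrix.det_apply]
  refine HolAt.sum _ fun σ _ => ?_
  have h2 : HolAt A i U fun x => ∏ b, m x (σ b) b := HolAt.prod _ fun b _ => h (σ b) b
  simp only [Units.smul_def, zsmul_eq_mul]
  exact h2.const_mul _

theorem isHS_jsec (hs0 : IsHS L univ s0) (hs : ∀ j, IsHS L univ (s j)) :
    IsHS (L ^ (2 * n) * KB A) univ (jsec s0 s) := by
  refine ⟨fun i => ?_, fun i x hx => if_neg hx, fun i j x hx _ => ?_⟩
  · have h1 : HolAt A i univ fun x => (Wm s0 s i x).det := by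
      refine holAt_det fun j a => ?_
      exact ((hs0.hol i).mul (holAt_dc isOpen_univ ((hs j).hol i) a)).sub
        (((hs j).hol i).mul (holAt_dc isOpen_univ (hs0.hol i) a))
    exact h1.congr fun x hx _ => (if_pos hx).symm
  · unfold jsec
    rw [if_pos hx.1, if_pos hx.2, Wm_tr hs0 hs hx, Matrix.det_smul, Matrix.det_mul, LB.mul_g,
      Crest.Agent.R273.HM_333.LB_pow_g, KB_g hx, Fintype.card_fin, ← pow_mul]
    ring

/-- derivative of the ratio map -/
theorem dc_qt (hs0 : IsHS L univ s0) (hu : IsHS L univ u) {i : A.ι} {x : M}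
    (hx : x ∈ (A.e i).source) (h0 : x ∈ nz s0) (a : Fin n) :
    dc A i a (qt u s0) x = wr s0 u i a x / s0 i x ^ 2 := by
  have hne : s0 i x ≠ 0 := (mem_nz hs0 hx).1 h0
  -- `u = qt * s0` near `x`
  have h1 : u i =ᶠ[𝓝 x] fun y => qt u s0 y * s0 i y := by
    filter_upwards [(A.e i).open_source.mem_nhds hx, (isOpen_nz hs0).mem_nhds h0] with y hy hy0
    rw [qt_eq hu hs0 hy, div_mul_cancel₀ _ ((mem_nz hs0 hy).1 hy0)]
  have hq : DifferentiableAt ℂ (fun z => qt u s0 ((A.e i).symm z)) (A.e i x) :=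
    (qt_hol hu hs0 i).diffAt (isOpen_nz hs0) hx h0
  have h2 := dc_congr (A := A) (a := a) hx h1
  rw [dc_mul hx hq (hs_diffAt hs0 i hx hx)] at h2
  unfold wr
  rw [h2, qt_eq hu hs0 hx]
  field_simp
  ring

/-- the Jacobian matrix of the ratio map in the chart `i` -/
def Df (s0 : A.ι → M → ℂ) (s : Fin n → A.ι → M → ℂ) (i : A.ι) (x : M) :
    Matrix (Fin n) (Fin n) ℂ := Matrix.of fun j a => dc A i a (qt (s j) s0) x

theorem Df_eq (hs0 : IsHS L univ s0) (hs : ∀ j, IsHS L univ (s j)) {i : A.ι} {x : M}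
    (hx : x ∈ (A.e i).source) (h0 : x ∈ nz s0) :
    Wm s0 s i x = (s0 i x ^ 2) • Df s0 s i x := by
  ext j a
  simp only [Wm, Df, Matrix.of_apply, Matrix.smul_apply, smul_eq_mul]
  rw [dc_qt hs0 (hs j) hx h0]
  have hne : s0 i x ≠ 0 := (mem_nz hs0 hx).1 h0
  field_simp

theorem jsec_ne_zero_iff (hs0 : IsHS L univ s0) (hs : ∀ j, IsHS L univ (s j)) {i : A.ι} {x : M}
    (hx : x ∈ (A.e i).source) (h0 : x ∈ nz s0) :
    x ∈ nz (jsec s0 s) ↔ (Df s0 s i x).det ≠ 0 := by
  rw [mem_nz (isHS_jsec hs0 hs) hx]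
  unfold jsec
  rw [if_pos hx, Df_eq hs0 hs hx h0, Matrix.det_smul]
  have hne : (s0 i x ^ 2) ^ Fintype.card (Fin n) ≠ 0 :=
    pow_ne_zero _ (pow_ne_zero _ ((mem_nz hs0 hx).1 h0))
  constructor
  · intro h h'
    rw [h', mul_zero] at h
    exact h rfl
  · intro h
    exact mul_ne_zero hne h

end

end Crest.Agent.R281.Dg4_612
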