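/-
R281 / S-DIAM-INST (helper612), part 5: the ratio map of `n + 1` sections is a finite covering over
`{w_j ≠ 0, P(w) ≠ 0}` for some nonzero polynomial `P`.
-/
import Crest.Agent.R281.Dg1_612
import Crest.Agent.R281.Dg4_612

set_option autoImplicit false
set_option linter.unusedSectionVars false
set_option linter.ambiguousOpen false

namespace Crest.Agent.R281.Dg5_612

open Set Filter Complex
open scoped _root_.Topology
open Crest.Agent.R275.Geo Crest.Agent.R275.Core144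
open Crest.Agent.R273.SteinC_794 Crest.Agent.R273.SteinD_794
open Crest.Agent.R281.Dg3_612 Crest.Agent.R281.Dg4_612

noncomputable section

variable {n : ℕ} {M : Type} [TopologicalSpace M] {A : Atl n M} {L L' : LB A}
variable {s0 u : A.ι → M → ℂ} {s : Fin n → A.ι → M → ℂ}

/-- the ratio map read in the chart `i` -/
def rc' (s0 : A.ι → M → ℂ) (s : Fin n → A.ι → M → ℂ) (i : A.ι) (z : Cn n) : Fin n → ℂ :=
  rf s0 s ((A.e i).symm z)

theorem rc'_diffOn (hs0 : IsHS L univ s0) (hs : ∀ j, IsHS L univ (s j)) (i : A.ι) :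
    DifferentiableOn ℂ (rc' s0 s i) ((A.e i).target ∩ (A.e i).symm ⁻¹' (nz s0)) :=
  differentiableOn_pi.2 fun j => qt_hol (hs j) hs0 i

/-- the matrix of the derivative -/
theorem fderiv_rc' (hs0 : IsHS L univ s0) (hs : ∀ j, IsHS L univ (s j)) {i : A.ι} {x : M}
    (hx : x ∈ (A.e i).source) (h0 : x ∈ nz s0) (v : Cn n) :
    fderiv ℂ (rc' s0 s i) (A.e i x) v = (Df s0 s i x).mulVec v := by
  have hd : DifferentiableAt ℂ (rc' s0 s i) (A.e i x) :=
    (rc'_diffOn hs0 hs i).differentiableAt ((isOpen_ti (isOpen_nz hs0)).mem_nhds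
      ⟨(A.e i).map_source hx, by rw [mem_preimage, (A.e i).left_inv hx]; exact h0⟩)
  have hv : v = ∑ c, v c • (EuclideanSpace.single c (1 : ℂ) : Cn n) := by
    ext d
    simp [Finset.sum_apply, Pi.single_apply]
  funext j
  have hj : fderiv ℂ (rc' s0 s i) (A.e i x) v j =
      fderiv ℂ (fun z => rc' s0 s i z j) (A.e i x) v := by
    rw [fderiv_apply hd]
    rfl
  rw [hj]
  conv_lhs => rw [hv, map_sum]
  simp only [map_smul, smul_eq_mul, Matrix.mulVec, dotProduct, Df, Matrix.of_apply]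
  refine Finset.sum_congr rfl fun a _ => ?_
  rw [mul_comm]
  rfl

/-- local homeomorphism at the points where the Jacobian does not vanish -/
theorem exists_chart (hs0 : IsHS L univ s0) (hs : ∀ j, IsHS L univ (s j)) {i : A.ι} {x : M}
    (hx : x ∈ (A.e i).source) (h0 : x ∈ nz s0) (hJ : (Df s0 s i x).det ≠ 0) :
    ∃ e : OpenPartialHomeomorph M (Fin n → ℂ), x ∈ e.source ∧ EqOn (rf s0 s) e e.source := by
  have ho := isOpen_ti (A := A) (i := i) (isOpen_nz hs0)
  have hz : A.e i x ∈ (A.e i).target ∩ (A.e i).symm ⁻¹' (nz s0) :=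
    ⟨(A.e i).map_source hx, by rw [mem_preimage, (A.e i).left_inv hx]; exact h0⟩
  have han : AnalyticAt ℂ (rc' s0 s i) (A.e i x) :=
    Crest.Agent.R266.SCV.analyticOnNhd_of_differentiableOn ho (rc'_diffOn hs0 hs i) _ hz
  have hinj : Function.Injective (fderiv ℂ (rc' s0 s i) (A.e i x)) := by
    rw [injective_iff_map_eq_zero]
    intro v hv
    rw [fderiv_rc' hs0 hs hx h0] at hv
    have h1 := Matrix.eq_zero_of_mulVec_eq_zero hJ hv
    ext a
    exact congrFun h1 a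
  set D : Cn n ≃L[ℂ] (Fin n → ℂ) := (LinearEquiv.ofInjectiveOfFinrankEq
    (fderiv ℂ (rc' s0 s i) (A.e i x)).toLinearMap hinj (by simp)).toContinuousLinearEquiv with hD
  have hDe : (D : Cn n →L[ℂ] (Fin n → ℂ)) = fderiv ℂ (rc' s0 s i) (A.e i x) := by
    ext v : 1
    rfl
  have hst : HasStrictFDerivAt (rc' s0 s i) (D : Cn n →L[ℂ] (Fin n → ℂ)) (A.e i x) := by
    rw [hDe]
    exact han.hasStrictFDerivAt
  refine ⟨(A.e i).trans (hst.toOpenPartialHomeomorph _), ?_, ?_⟩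
  · rw [OpenPartialHomeomorph.trans_source]
    exact ⟨hx, hst.mem_toOpenPartialHomeomorph_source⟩
  · intro y hy
    rw [OpenPartialHomeomorph.trans_source] at hy
    rw [OpenPartialHomeomorph.coe_trans, Function.comp_apply,
      HasStrictFDerivAt.toOpenPartialHomeomorph_coe]
    unfold rc'
    rw [(A.e i).left_inv hy.1]

theorem nz_of_rf (hn : 0 < n) (hs0 : IsHS L univ s0) (hs : ∀ j, IsHS L univ (s j)) {x : M}
    (hx : ∀ j, rf s0 s x j ≠ 0) : x ∈ nz s0 := by
  by_contra h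
  exact hx ⟨0, hn⟩ (qt_zero hs0 (hs _) h)

/-- **the covering** -/
theorem exists_P [ConnectedSpace M] [CompactSpace M] [T2Space M] (hn : 0 < n)
    (hs0 : IsHS L univ s0) (hs : ∀ j, IsHS L univ (s j)) {κ : Type} [Finite κ]
    {t : κ → A.ι → M → ℂ} (ht : ∀ k, IsHS L univ (t k)) (ht0 : ∀ x, ∃ k, x ∈ nz (t k))
    {Om : A.ι → M → ℂ} (hOm : IsHS (KB A) univ Om) (hOm0 : ∀ x, x ∈ nz Om)
    (hJ : ∃ x, x ∈ nz (jsec s0 s)) :
    ∃ P : MvPolynomial (Fin n) ℂ, P ≠ 0 ∧
      (∀ x ∈ nz s0, MvPolynomial.eval (rf s0 s x) P ≠ 0 → x ∈ nz (jsec s0 s)) ∧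
      IsCoveringMapOn (rf s0 s) {w | (∀ j, w j ≠ 0) ∧ MvPolynomial.eval w P ≠ 0} ∧
      ∀ w, (∀ j, w j ≠ 0) → MvPolynomial.eval w P ≠ 0 → (rf s0 s ⁻¹' {w}).Finite := by
  classical
  have := Fintype.ofFinite κ
  choose G hG hrel using fun k => Dg2_612.siegel_rel_one hs0 hs (ht k) hs0
  -- the Jacobian
  have h2n : 0 < 2 * n := by omega
  have hpow : IsHS (L ^ (2 * n)) univ (s0 ^ (2 * n)) := by
    obtain ⟨m, hm⟩ := Nat.exists_eq_succ_of_ne_zero h2n.ne'
    rw [hm]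
    clear hm
    induction m with
    | zero => simpa using hs0
    | succ m ih =>
      rw [pow_succ L, pow_succ s0]
      exact ih.mul hs0
  have hw : IsHS (L ^ (2 * n) * KB A) univ (s0 ^ (2 * n) * Om) := hpow.mul hOm
  have hJ' : ∃ i, ∃ x ∈ (A.e i).source, jsec s0 s i x ≠ 0 := by
    obtain ⟨x, hx⟩ := hJ
    obtain ⟨i, hi⟩ := A.cover x
    exact ⟨i, x, hi, (mem_nz (isHS_jsec hs0 hs) hi).1 hx⟩
  obtain ⟨c, hc, hcx⟩ := rel_lowest hs0 hs (isHS_jsec hs0 hs) hw hJ' (fun x hx => by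
    obtain ⟨i, hi⟩ := A.cover x
    rw [mem_nz hw hi]
    exact mul_ne_zero (pow_ne_zero _ ((mem_nz hs0 hi).1 hx)) ((mem_nz hOm hi).1 (hOm0 x)))
  set P : MvPolynomial (Fin n) ℂ := (∏ k, (G k).leadingCoeff) * c with hP
  have hP0 : P ≠ 0 := mul_ne_zero (Finset.prod_ne_zero_iff.2 fun k _ =>
    Polynomial.leadingCoeff_ne_zero.2 (hG k)) hc
  have hPk : ∀ w, MvPolynomial.eval w P ≠ 0 → (∀ k, MvPolynomial.eval w (G k).leadingCoeff ≠ 0) ∧
      MvPolynomial.eval w c ≠ 0 := by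
    intro w hw
    rw [hP, map_mul, map_prod] at hw
    exact ⟨fun k => Finset.prod_ne_zero_iff.1 (left_ne_zero_of_mul hw) k (Finset.mem_univ k),
      right_ne_zero_of_mul hw⟩
  have hPj : ∀ x ∈ nz s0, MvPolynomial.eval (rf s0 s x) P ≠ 0 → x ∈ nz (jsec s0 s) :=
    fun x hx hxP => hcx x hx (hPk _ hxP).2
  set U : Set (Fin n → ℂ) := {w | (∀ j, w j ≠ 0) ∧ MvPolynomial.eval w P ≠ 0} with hU
  have hUo : IsOpen U := by
    have h1 : IsOpen {w : Fin n → ℂ | ∀ j, w j ≠ 0} := by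
      simp only [ofPred_forall]
      exact isOpen_iInter_of_finite fun j => isOpen_ne.preimage (continuous_apply j)
    exact h1.inter (isOpen_ne.preimage (MvPolynomial.continuous_eval P))
  have hUs : rf s0 s ⁻¹' U ⊆ nz s0 := fun x hx => nz_of_rf hn hs0 hs hx.1
  have hZo : IsOpen (rf s0 s ⁻¹' U) := by
    have := (rf_continuousOn hs0 hs).isOpen_inter_preimage (isOpen_nz hs0) hUo
    rwa [inter_eq_right.2 hUs] at this
  have hloc : IsLocalHomeomorphOn (rf s0 s) (rf s0 s ⁻¹' U) := by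
    refine IsLocalHomeomorphOn.mk _ _ fun x hx => ?_
    obtain ⟨i, hi⟩ := A.cover x
    exact exists_chart hs0 hs hi (hUs hx)
      ((jsec_ne_zero_iff hs0 hs hi (hUs hx)).1 (hPj x (hUs hx) hx.2))
  have hmain := Dg1_612.covering_of_closure hUo hZo hloc (fun w0 hw0 => by
    choose R hR using fun k => root_bound ((hPk w0 hw0.2).1 k)
    have hev : ∀ᶠ w in 𝓝 w0, (∀ k, ∀ y, ev2 (G k) w y = 0 → ‖y‖ ≤ R k) ∧ w ∈ U := by
      filter_upwards [eventually_all.2 hR, hUo.mem_nhds hw0] with w h1 h2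
      exact ⟨h1, h2⟩
    obtain ⟨ε, hε, hball⟩ := Metric.nhds_basis_closedBall.mem_iff.1 hev
    refine ⟨Metric.closedBall w0 ε, Metric.closedBall_mem_nhds w0 hε, fun x hx => ?_⟩
    have hfreq := mem_closure_iff_frequently.1 hx
    -- `s0` does not vanish at `x`
    have hx0 : x ∈ nz s0 := by
      obtain ⟨i, hi⟩ := A.cover x
      obtain ⟨k, hk⟩ := ht0 x
      rw [mem_nz (ht k) hi] at hk
      rw [mem_nz hs0 hi]
      intro h0
      have hc1 : ContinuousAt (t k i) x :=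
        continuousAt_of_holAt isOpen_univ ((ht k).hol i) hi (mem_univ x)
      have hc0 : ContinuousAt (s0 i) x :=
        continuousAt_of_holAt isOpen_univ (hs0.hol i) hi (mem_univ x)
      have hlt : R k * ‖s0 i x‖ < ‖t k i x‖ := by
        rw [h0]
        simpa using hk
      have hev2 : ∀ᶠ y in 𝓝 x, R k * ‖s0 i y‖ < ‖t k i y‖ :=
        (continuousAt_const.mul hc0.norm).eventually_lt hc1.norm hlt
      have hev3 : ∀ᶠ y in 𝓝 x, y ∈ (A.e i).source := (A.e i).open_source.mem_nhds hi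
      obtain ⟨y, hy, hy2, hy3⟩ := (hfreq.and_eventually (hev2.and hev3)).exists
      have hyV := hball hy
      have hy0 : y ∈ nz s0 := nz_of_rf hn hs0 hs hyV.2.1
      have hsy : s0 i y ≠ 0 := (mem_nz hs0 hy3).1 hy0
      have h4 := hrel k i y hy3 hsy hsy
      have h5 : ev2 (G k) (rf s0 s y) (t k i y / s0 i y) = 0 := by
        rw [rf_eq hs0 hs hy3]
        exact h4
      have h6 := hyV.1 k _ h5
      rw [norm_div, div_le_iff₀ (norm_pos_iff.2 hsy)] at h6
      linarith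
    have hfx : ContinuousAt (rf s0 s) x :=
      (rf_continuousOn hs0 hs).continuousAt ((isOpen_nz hs0).mem_nhds hx0)
    have h7 : rf s0 s x ∈ closure (Metric.closedBall w0 ε) := by
      rw [mem_closure_iff_frequently]
      exact hfx.tendsto.frequently hfreq
    rw [Metric.isClosed_closedBall.closure_eq] at h7
    exact (hball h7).2)
  exact ⟨P, hP0, hPj, hmain.1, fun w h1 h2 => hmain.2 w ⟨h1, h2⟩⟩

end

end Crest.Agent.R281.Dg5_612
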