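import Crest.Agent.R281.Per6_368

/-!
S-PER (task 1725), part 6b: volume of the image of the strip map.

* `image_lint` : `W` measurable, `W ⊆ Φ '' B` ==> `∫_W f dvm ≤ ∫_B det(Φ^*K) f(Φ ζ) dζ`
-/

set_option autoImplicit false
set_option linter.unusedSectionVars false
set_option maxSynthPendingDepth 3

open Set Filter Topology Complex MeasureTheory
open scoped ContDiff Matrix ComplexConjugate ComplexOrder ENNReal

namespace Crest.Agent.R281.Per_368

open Crest.Agent.R275.Geo Crest.Agent.R275.Core144 Crest.Agent.R275.EDR890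
open Crest.Agent.R273.Defs_333 Crest.Agent.R273.Hess_333 Crest.Agent.R273.HessB_333
open Crest.Agent.R273.HM_333 Crest.Agent.R273.Kah_333 Crest.Agent.R273.Vol_333
open Crest.Agent.R273.Vm_333 Crest.Agent.R273.FIb0_597
open Crest.Agent.R275.Pai323 Crest.Agent.R275.C1d194
open Crest.Agent.R273.SteinM_794 (kap kap_eq mp_kap rc_kap kap_rc me_kap)
open Crest.Agent.R281.Tor_922 Crest.Agent.R281.SIn_14

noncomputable section

variable {N : ℕ} {M : Type} [TopologicalSpace M] {A : Atl N M}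
variable [MeasurableSpace M] [BorelSpace M] [Countable A.ι]

theorem piece_meas {S : Set (Fin N → ℂ)} {Φ : (Fin N → ℂ) → M} (h : HolI A S Φ)
    {B : Set (Fin N → ℂ)} (hB : MeasurableSet B) (hBS : B ⊆ S) (i : A.ι) :
    MeasurableSet {y : RI N → ℝ | kap y ∈ B ∧ Φ (kap y) ∈ Dj A i} := by
  have hkc : Continuous (kap : (RI N → ℝ) → (Fin N → ℂ)) := by
    unfold kap; fun_prop
  have hc : ContinuousOn (fun y : RI N → ℝ => Φ (kap y)) (kap ⁻¹' S) :=
    h.cont.comp hkc.continuousOn fun y hy => hy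
  have h1 : Measurable ((kap ⁻¹' S : Set (RI N → ℝ)).domRestrict fun y => Φ (kap y)) :=
    (continuousOn_iff_continuous_domRestrict.1 hc).measurable
  have h2 := (h.op.preimage hkc).measurableSet.subtype_image (h1 (meas_Dj i))
  have h3 : {y : RI N → ℝ | kap y ∈ B ∧ Φ (kap y) ∈ Dj A i} =
      (kap ⁻¹' B) ∩ (Subtype.val '' ((kap ⁻¹' S :
        Set (RI N → ℝ)).domRestrict (fun y => Φ (kap y)) ⁻¹' Dj A i)) := by
    ext y
    constructor
    · rintro ⟨hy1, hy2⟩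
      exact ⟨hy1, ⟨⟨y, hBS hy1⟩, hy2, rfl⟩⟩
    · rintro ⟨hy1, ⟨⟨a, ha⟩, haE, rfl⟩⟩
      exact ⟨hy1, haE⟩
  rw [h3]
  exact ((mp_kap N).measurable hB).inter h2

/-- change of variables on one piece in one chart -/
theorem piece_eq {S : Set (Fin N → ℂ)} {Φ : (Fin N → ℂ) → M} (h : HolI A S Φ) (K : Kah A)
    {i : A.ι} {T : Set (RI N → ℝ)} (hT : MeasurableSet T)
    (hmem : ∀ y ∈ T, kap y ∈ S ∧ Φ (kap y) ∈ (A.e i).source)
    (hinj : InjOn (fun y => Φ (kap y)) T) (f : M → ℝ≥0∞) :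
    ∫⁻ y in T, ENNReal.ofReal (pbg K Φ (kap y)).det.re * f (Φ (kap y)) =
      ∫⁻ u in (fun y => rc (A.e i (Φ (kap y)))) '' T, dn (volK K) i u * f (sg A i u) := by
  have hL : ∀ y : RI N → ℝ, ∃ L : (RI N → ℝ) →L[ℝ] (RI N → ℝ), y ∈ T →
      (HasFDerivAt (fun y => rc (A.e i (Φ (kap y)))) L y ∧
        |L.det| = ‖(jac A Φ i (kap y)).det‖ ^ 2) := by
    intro y
    by_cases hy : y ∈ T
    · obtain ⟨L, hL⟩ := h.hasFDerivAt_real (hmem y hy).1 (hmem y hy).2
      exact ⟨L, fun _ => hL⟩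
    · exact ⟨0, fun h => absurd h hy⟩
  choose L hL using hL
  set G : (RI N → ℝ) → (RI N → ℝ) := fun y => rc (A.e i (Φ (kap y))) with hG
  have hsgG : ∀ y ∈ T, sg A i (G y) = Φ (kap y) := fun y hy => sg_rc (hmem y hy).2
  have hGinj : InjOn G T := by
    intro a ha b hb hab
    have h1 : Φ (kap a) = Φ (kap b) := by rw [← hsgG a ha, ← hsgG b hb, hab]
    exact hinj ha hb h1
  rw [lintegral_image_eq_lintegral_abs_det_fderiv_mul volume hT
    (fun y hy => (hL y hy).1.hasFDerivWithinAt) hGinj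
    (fun u => dn (volK K) i u * f (sg A i u))]
  refine setLIntegral_congr_fun hT fun y hy => ?_
  have hK : 0 ≤ ‖(jac A Φ i (kap y)).det‖ ^ 2 := by positivity
  show ENNReal.ofReal (pbg K Φ (kap y)).det.re * f (Φ (kap y)) =
    ENNReal.ofReal |(L y).det| * (ENNReal.ofReal ((K.g i (sg A i (G y))).det.re) *
      f (sg A i (G y)))
  rw [hsgG y hy, (hL y hy).2, h.det_pbg K (hmem y hy).1 (hmem y hy).2,
    ENNReal.ofReal_mul hK, mul_assoc]

/-- **the image**: `B = ⋃ B k` disjoint measurable injective pieces -/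
theorem image_lint_of {S : Set (Fin N → ℂ)} {Φ : (Fin N → ℂ) → M} (h : HolI A S Φ) (K : Kah A)
    {B : ℕ → Set (Fin N → ℂ)} (hB : ∀ k, MeasurableSet (B k)) (hBS : ∀ k, B k ⊆ S)
    (hdis : Pairwise (Function.onFun Disjoint B))
    (hinj : ∀ k, InjOn Φ (B k)) {f : M → ℝ≥0∞} (hf : Measurable f) {W : Set M}
    (hW : MeasurableSet W) (hWB : W ⊆ Φ '' (⋃ k, B k)) :
    ∫⁻ x in W, f x ∂(vm (volK K)) ≤
      ∫⁻ ζ in ⋃ k, B k, ENNReal.ofReal (pbg K Φ ζ).det.re * f (Φ ζ) := by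
  classical
  rw [Crest.Agent.R281.Qr_770.lintegral_vm (volK K) hW hf]
  set T : A.ι → ℕ → Set (RI N → ℝ) := fun i k =>
    {y | kap y ∈ B k ∧ Φ (kap y) ∈ Dj A i} with hT
  have hTm : ∀ i k, MeasurableSet (T i k) := fun i k => piece_meas h (hB k) (hBS k) i
  have h1 : ∀ i, ∫⁻ y in {y | y ∈ Ui A i ∧ sg A i y ∈ Dj A i ∩ W},
      dn (volK K) i y * f (sg A i y) ≤
      ∑' k, ∫⁻ y in T i k, ENNReal.ofReal (pbg K Φ (kap y)).det.re * f (Φ (kap y)) := by
    intro i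
    have hsub : {y | y ∈ Ui A i ∧ sg A i y ∈ Dj A i ∩ W} ⊆
        ⋃ k, (fun y => rc (A.e i (Φ (kap y)))) '' (T i k) := by
      rintro u ⟨hu1, hu2, hu3⟩
      obtain ⟨ζ, hζ, he⟩ := hWB hu3
      obtain ⟨k, hk⟩ := mem_iUnion.1 hζ
      refine mem_iUnion.2 ⟨k, rc (WithLp.toLp 2 ζ : Cn N), ⟨?_, ?_⟩, ?_⟩
      · rw [kap_rc]; exact hk
      · rw [kap_rc, he]; exact hu2
      · show rc (A.e i (Φ (kap (rc (WithLp.toLp 2 ζ : Cn N))))) = u
        rw [kap_rc, he]
        show rc (A.e i ((A.e i).symm (cc u))) = u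
        rw [(A.e i).right_inv hu1, rc_cc]
    calc ∫⁻ y in {y | y ∈ Ui A i ∧ sg A i y ∈ Dj A i ∩ W}, dn (volK K) i y * f (sg A i y)
        ≤ ∫⁻ y in ⋃ k, (fun y => rc (A.e i (Φ (kap y)))) '' (T i k),
            dn (volK K) i y * f (sg A i y) := lintegral_mono_set hsub
      _ ≤ ∑' k, ∫⁻ y in (fun y => rc (A.e i (Φ (kap y)))) '' (T i k),
            dn (volK K) i y * f (sg A i y) := lintegral_iUnion_le _ _
      _ = _ := by
          refine tsum_congr fun k => ?_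
          refine (piece_eq h K (hTm i k) (fun y hy => ⟨hBS k hy.1, hy.2.1⟩) ?_ f).symm
          intro a ha b hb hab
          have := hinj k ha.1 hb.1 hab
          rw [← rc_kap a, ← rc_kap b, this]
  refine (ENNReal.tsum_le_tsum h1).trans (le_of_eq ?_)
  have h0 : ∫⁻ ζ in ⋃ k, B k, ENNReal.ofReal (pbg K Φ ζ).det.re * f (Φ ζ) =
      ∫⁻ y in kap ⁻¹' (⋃ k, B k), ENNReal.ofReal (pbg K Φ (kap y)).det.re * f (Φ (kap y)) :=
    ((mp_kap N).setLIntegral_comp_preimage_emb (me_kap N)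
      (fun ζ => ENNReal.ofReal (pbg K Φ ζ).det.re * f (Φ ζ)) _).symm
  rw [h0]
  have hU : (kap ⁻¹' (⋃ k, B k) : Set (RI N → ℝ)) = ⋃ p : A.ι × ℕ, T p.1 p.2 := by
    ext y
    constructor
    · intro hy
      obtain ⟨i, hi⟩ := exists_Dj (A := A) (Φ (kap y))
      obtain ⟨k, hk⟩ := mem_iUnion.1 (show kap y ∈ ⋃ k, B k from hy)
      exact mem_iUnion.2 ⟨(i, k), hk, hi⟩
    · intro hy
      obtain ⟨p, hp⟩ := mem_iUnion.1 hy
      exact mem_iUnion.2 ⟨p.2, hp.1⟩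
  have hd2 : Pairwise (Function.onFun Disjoint fun p : A.ι × ℕ => T p.1 p.2) := by
    rintro ⟨i, k⟩ ⟨j, l⟩ hne
    rw [Function.onFun, Set.disjoint_left]
    intro y hy1 hy2
    by_cases hij : i = j
    · have hkl : k ≠ l := fun hkl => hne (by rw [hij, hkl])
      exact Set.disjoint_left.1 (hdis hkl) hy1.1 hy2.1
    · exact Set.disjoint_left.1 (Dj_disjoint hij) hy1.2 hy2.2
  rw [hU, lintegral_iUnion (s := fun p : A.ι × ℕ => T p.1 p.2) (fun p => hTm p.1 p.2) hd2]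
  exact (ENNReal.tsum_prod
    (f := fun (i : A.ι) (k : ℕ) => ∫⁻ y in T i k,
      ENNReal.ofReal (pbg K Φ (kap y)).det.re * f (Φ (kap y)))).symm

/-- **the image of the strip map** -/
theorem image_lint {F : M → Fin N → ℂ} {d : ℕ} {ζ0 : Fin N → ℂ} {r : ℝ}
    {Lam : AddSubgroup (Fin N → ℂ)} {Φ : (Fin N → ℂ) → M} (h : Strip A F d ζ0 r Lam Φ)
    (K : Kah A) {B : Set (Fin N → ℂ)} (hB : MeasurableSet B) (hBS : B ⊆ strip ζ0 r)
    {f : M → ℝ≥0∞} (hf : Measurable f) {W : Set M} (hW : MeasurableSet W)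
    (hWB : W ⊆ Φ '' B) :
    ∫⁻ x in W, f x ∂(vm (volK K)) ≤
      ∫⁻ ζ in B, ENNReal.ofReal (pbg K Φ ζ).det.re * f (Φ ζ) := by
  classical
  obtain ⟨c, hc⟩ := TopologicalSpace.exists_dense_seq (Fin N → ℂ)
  set D : ℕ → Set (Fin N → ℂ) := fun k => B ∩ Metric.ball (c k) 1 with hD
  have hDm : ∀ k, MeasurableSet (D k) := fun k => hB.inter measurableSet_ball
  have hUD : ⋃ k, disjointed D k = B := by
    rw [iUnion_disjointed]
    ext ζ
    constructor
    · intro hζ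
      obtain ⟨k, hk⟩ := mem_iUnion.1 hζ
      exact hk.1
    · intro hζ
      obtain ⟨k, hk⟩ := hc.exists_dist_lt ζ (zero_lt_one (α := ℝ))
      exact mem_iUnion.2 ⟨k, hζ, Metric.mem_ball.2 hk⟩
  have hsub : ∀ k, disjointed D k ⊆ D k := fun k => disjointed_subset D k
  have := image_lint_of (strip_holI h) K (B := disjointed D)
    (fun k => MeasurableSet.disjointed hDm k)
    (fun k ζ hζ => hBS (hsub k hζ).1) (disjoint_disjointed D)
    (fun k => strip_inj h (fun ζ hζ => hBS (hsub k hζ).1) fun a ha b hb => by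
      have e1 := Metric.mem_ball.1 (hsub k ha).2
      have e2 := Metric.mem_ball.1 (hsub k hb).2
      have e3 := dist_triangle_right a b (c k)
      rw [← dist_eq_norm]
      linarith [Real.pi_gt_three]) hf hW (by rw [hUD]; exact hWB)
  rwa [hUD] at this

/-- volume of a set in the image of a ball on which `det ≤ c` -/
theorem image_vol {F : M → Fin N → ℂ} {d : ℕ} {ζ0 : Fin N → ℂ} {r : ℝ}
    {Lam : AddSubgroup (Fin N → ℂ)} {Φ : (Fin N → ℂ) → M} (h : Strip A F d ζ0 r Lam Φ)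
    (K : Kah A) {B : Set (Fin N → ℂ)} (hB : MeasurableSet B) (hBS : B ⊆ strip ζ0 r) {W : Set M}
    (hW : MeasurableSet W) (hWB : W ⊆ Φ '' B) {c : ℝ}
    (hup : ∀ ζ ∈ B, (pbg K Φ ζ).det.re ≤ c) :
    vm (volK K) W ≤ ENNReal.ofReal c * volume B := by
  have h1 := image_lint h K hB hBS (f := fun _ => 1) measurable_const hW hWB
  rw [setLIntegral_one] at h1
  refine h1.trans ?_
  rw [← setLIntegral_const]
  refine setLIntegral_mono' hB fun ζ hζ => ?_
  rw [mul_one]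
  exact ENNReal.ofReal_le_ofReal (hup ζ hζ)

end

end Crest.Agent.R281.Per_368
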