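/-
R281 / S-DIAM-INST (helper612), part 6: the logarithmic coordinates of `n + 1` sections: local
inverse branches and the change of variables.
-/
import Crest.Agent.R281.Per6b_368
import Crest.Agent.R281.Dg5_612
import Crest.Agent.R281.Df4_612

set_option autoImplicit false
set_option linter.unusedSectionVars false
set_option linter.ambiguousOpen false
set_option maxSynthPendingDepth 3

namespace Crest.Agent.R281.Dh1_612

open Set Filter Complex MeasureTheory Metric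
open scoped _root_.Topology ContDiff Matrix ComplexConjugate ComplexOrder ENNReal
open Crest.Agent.R275.Geo Crest.Agent.R275.Core144
open Crest.Agent.R273.Defs_333 Crest.Agent.R273.HM_333 Crest.Agent.R273.Kah_333
open Crest.Agent.R273.Vol_333 Crest.Agent.R273.Vm_333 Crest.Agent.R273.FIb0_597
open Crest.Agent.R273.SteinC_794 Crest.Agent.R273.SteinD_794
open Crest.Agent.R281.Dg3_612 Crest.Agent.R281.Dg4_612 Crest.Agent.R281.Dg5_612
open Crest.Agent.R281.SIn_14 Crest.Agent.R281.Per_368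
open Crest.Agent.R281.Df3_612 (expPi continuous_expPi differentiable_expPi)

noncomputable section

variable {N : ℕ} {M : Type} [TopologicalSpace M] {A : Atl N M} {Lb : LB A}
  {s : Fin (N + 1) → A.ι → M → ℂ}

/-- the sections `s_1 .. s_N` -/
abbrev tl (s : Fin (N + 1) → A.ι → M → ℂ) : Fin N → A.ι → M → ℂ := fun j => s j.succ

theorem quo_rf (s : Fin (N + 1) → A.ι → M → ℂ) : quo s = rf (s 0) (tl s) := rfl

theorem nz_iff {x : M} : NZ s x ↔ ∀ j, x ∈ nz (s j) := Iff.rfl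

theorem isOpen_NZ (hs : ∀ j, IsHS Lb univ (s j)) : IsOpen {x : M | NZ s x} := by
  have : {x : M | NZ s x} = ⋂ j, nz (s j) := by
    ext x; simp [nz_iff]
  rw [this]
  exact isOpen_iInter_of_finite fun j => isOpen_nz (hs j)

theorem NZ_chart (hs : ∀ j, IsHS Lb univ (s j)) {i : A.ι} {x : M} (hx : x ∈ (A.e i).source) :
    NZ s x ↔ ∀ j, s j i x ≠ 0 := by
  rw [nz_iff]
  exact forall_congr' fun j => mem_nz (hs j) hx

theorem quo_eq (hs : ∀ j, IsHS Lb univ (s j)) {i : A.ι} {x : M} (hx : x ∈ (A.e i).source)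
    (j : Fin N) : quo s x j = s j.succ i x / s 0 i x := qt_eq (hs j.succ) (hs 0) hx

theorem quo_ne (hs : ∀ j, IsHS Lb univ (s j)) {x : M} (h : NZ s x) (j : Fin N) :
    quo s x j ≠ 0 := div_ne_zero (h j.succ) (h 0)

theorem NZ_of_quo (hN : 0 < N) (hs : ∀ j, IsHS Lb univ (s j)) {x : M}
    (h : ∀ j, quo s x j ≠ 0) : NZ s x := by
  have h0 : x ∈ nz (s 0) := nz_of_rf hN (hs 0) (fun j => hs j.succ) h
  intro j
  refine Fin.cases h0 (fun j => ?_) j
  have := h j
  intro h1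
  apply this
  show s j.succ (ch A x) x / s 0 (ch A x) x = 0
  rw [h1, zero_div]

/-- `eta = diag(1/F) · DF` -/
theorem eta_eq (hs : ∀ j, IsHS Lb univ (s j)) {i : A.ι} {x : M} (hx : x ∈ (A.e i).source)
    (h : NZ s x) : eta s i x = Matrix.diagonal (fun j => (quo s x j)⁻¹) *
      Df (s 0) (tl s) i x := by
  ext j a
  rw [Matrix.diagonal_mul]
  have h0 : s 0 i x ≠ 0 := (mem_nz (hs 0) hx).1 (h 0)
  have hj : s j.succ i x ≠ 0 := (mem_nz (hs j.succ) hx).1 (h j.succ)
  show pd A i (s j.succ i) x a / s j.succ i x - pd A i (s 0 i) x a / s 0 i x =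
    (quo s x j)⁻¹ * dc A i a (qt (s j.succ) (s 0)) x
  rw [dc_qt (hs 0) (hs j.succ) hx (h 0), quo_eq hs hx]
  show pd A i (s j.succ i) x a / s j.succ i x - pd A i (s 0 i) x a / s 0 i x =
    (s j.succ i x / s 0 i x)⁻¹ * ((s 0 i x * pd A i (s j.succ i) x a -
      s j.succ i x * pd A i (s 0 i) x a) / s 0 i x ^ 2)
  field_simp

theorem Df_tr (hs : ∀ j, IsHS Lb univ (s j)) {i k : A.ι} {x : M}
    (hx : x ∈ (A.e i).source ∩ (A.e k).source) (h0 : x ∈ nz (s 0)) :
    Df (s 0) (tl s) i x = Df (s 0) (tl s) k x * Jm A i k x := by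
  ext j a
  rw [Matrix.mul_apply]
  exact dc_chg hx ((qt_hol (hs j.succ) (hs 0) k).diffAt (isOpen_nz (hs 0)) hx.2 h0) a

theorem eta_tr (hs : ∀ j, IsHS Lb univ (s j)) {i k : A.ι} {x : M}
    (hx : x ∈ (A.e i).source ∩ (A.e k).source) (h : NZ s x) :
    eta s i x = eta s k x * Jm A i k x := by
  rw [eta_eq hs hx.1 h, eta_eq hs hx.2 h, Df_tr hs hx (h 0), Matrix.mul_assoc]

theorem Jm_det_ne {i k : A.ι} {x : M} (hx : x ∈ (A.e i).source ∩ (A.e k).source) :
    (Jm A i k x).det ≠ 0 := by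
  rw [← KB_g hx]; exact (KB A).ne_zero i k x

theorem det_g_tr (K : Kah A) {i k : A.ι} {x : M} (hx : x ∈ (A.e i).source ∩ (A.e k).source) :
    (K.g i x).det.re = ‖(Jm A i k x).det‖ ^ 2 * (K.g k x).det.re := by
  have h1 : (K.g k x).det.re = ‖(KB A)⁻¹.g i k x‖ ^ 2 * (K.g i x).det.re := (volK K).tr i k x hx
  rw [LB.inv_g, KB_g hx] at h1
  have h4 := Jm_det_ne hx
  rw [h1, norm_inv, ← mul_assoc, inv_pow, mul_inv_cancel₀ (by positivity), one_mul]

theorem Jsq_chart (K : Kah A) (hs : ∀ j, IsHS Lb univ (s j)) {i : A.ι} {x : M}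
    (hx : x ∈ (A.e i).source) (h : NZ s x) :
    Jsq K s x = ‖(eta s i x).det‖ ^ 2 / (K.g i x).det.re := by
  have hc := mem_ch A x
  have hJ := Jm_det_ne (A := A) (i := i) (k := ch A x) ⟨hx, hc⟩
  unfold Jsq
  rw [eta_tr hs ⟨hx, hc⟩ h, det_g_tr K (i := i) (k := ch A x) ⟨hx, hc⟩, Matrix.det_mul, norm_mul,
    mul_pow, mul_comm (‖(eta s (ch A x) x).det‖ ^ 2)]
  rw [mul_div_mul_left]
  positivity

theorem det_eta (hs : ∀ j, IsHS Lb univ (s j)) {i : A.ι} {x : M} (hx : x ∈ (A.e i).source)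
    (h : NZ s x) : (eta s i x).det = (∏ j, (quo s x j)⁻¹) * (Df (s 0) (tl s) i x).det := by
  rw [eta_eq hs hx h, Matrix.det_mul, Matrix.det_diagonal]

theorem Jsq_ne_iff (K : Kah A) (hs : ∀ j, IsHS Lb univ (s j)) {i : A.ι} {x : M}
    (hx : x ∈ (A.e i).source) (h : NZ s x) :
    Jsq K s x ≠ 0 ↔ (eta s i x).det ≠ 0 := by
  rw [Jsq_chart K hs hx h]
  have hg : (K.g i x).det.re ≠ 0 := (det_re_pos (K.pos i x hx)).ne'
  simp [hg]

theorem eta_det_ne_iff (hs : ∀ j, IsHS Lb univ (s j)) {i : A.ι} {x : M}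
    (hx : x ∈ (A.e i).source) (h : NZ s x) :
    (eta s i x).det ≠ 0 ↔ (Df (s 0) (tl s) i x).det ≠ 0 := by
  rw [det_eta hs hx h]
  have : (∏ j, (quo s x j)⁻¹) ≠ 0 := Finset.prod_ne_zero_iff.2 fun j _ =>
    inv_ne_zero (quo_ne hs h j)
  constructor
  · exact fun h => right_ne_zero_of_mul h
  · exact fun h => mul_ne_zero this h

theorem Jsq_ne_iff_nz (K : Kah A) (hs : ∀ j, IsHS Lb univ (s j)) {x : M} (h : NZ s x) :
    Jsq K s x ≠ 0 ↔ x ∈ nz (jsec (s 0) (tl s)) := by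
  have hc := mem_ch A x
  rw [Jsq_ne_iff K hs hc h, eta_det_ne_iff hs hc h,
    jsec_ne_zero_iff (hs 0) (fun j => hs j.succ) hc (h 0)]

/-! ### continuity -/

theorem continuousAt_of_smAt {i : A.ι} {f : M → ℂ} (hf : A.SmAt i f) {x : M}
    (hx : x ∈ (A.e i).source) : ContinuousAt f x := by
  have h1 : ContinuousAt (fun z => f ((A.e i).symm z)) (A.e i x) :=
    (hf.continuousOn).continuousAt ((A.e i).open_target.mem_nhds ((A.e i).map_source hx))
  have h2 : ContinuousAt (fun y => f ((A.e i).symm (A.e i y))) x :=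
    ContinuousAt.comp (g := fun z => f ((A.e i).symm z)) h1 ((A.e i).continuousAt hx)
  refine h2.congr ?_
  filter_upwards [(A.e i).open_source.mem_nhds hx] with y hy
  rw [(A.e i).left_inv hy]

theorem holAt_eta (hs : ∀ j, IsHS Lb univ (s j)) (i : A.ι) (j a : Fin N) :
    HolAt A i {x | NZ s x} (fun x => eta s i x j a) := by
  have key : ∀ k, HolAt A i {x | NZ s x} (fun x => dc A i a (s k i) x * (s k i x)⁻¹) := by
    intro k
    have h1 : HolAt A i {x | NZ s x} (dc A i a (s k i)) :=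
      (holAt_dc isOpen_univ ((hs k).hol i) a).mono (subset_univ _)
    have h2 : HolAt A i {x | NZ s x} (fun x => (s k i x)⁻¹) :=
      (((hs k).hol i).mono (subset_univ _)).inv fun x hx hn => (mem_nz (hs k) hx).1 (hn k)
    exact h1.mul h2
  refine ((key j.succ).sub (key 0)).congr fun x hx hn => ?_
  rw [← div_eq_mul_inv, ← div_eq_mul_inv]
  rfl

theorem continuousAt_eta (hs : ∀ j, IsHS Lb univ (s j)) {i : A.ι} {x : M}
    (hx : x ∈ (A.e i).source) (h : NZ s x) (j a : Fin N) :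
    ContinuousAt (fun y => eta s i y j a) x :=
  continuousAt_of_holAt (isOpen_NZ hs) (holAt_eta hs i j a) hx h

theorem continuousAt_mat_det {m : M → Matrix (Fin N) (Fin N) ℂ} {x : M}
    (h : ∀ j a, ContinuousAt (fun y => m y j a) x) : ContinuousAt (fun y => (m y).det) x := by
  simp only [Matrix.det_apply]
  refine tendsto_finsetSum _ fun σ _ => ?_
  exact (tendsto_finsetProd _ fun b _ => h (σ b) b).const_smul _

theorem continuousOn_Jsq (K : Kah A) (hs : ∀ j, IsHS Lb univ (s j)) :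
    ContinuousOn (Jsq K s) {x | NZ s x} := by
  intro x h
  refine ContinuousAt.continuousWithinAt ?_
  have hc := mem_ch A x
  have h1 : ContinuousAt (fun y => ‖(eta s (ch A x) y).det‖ ^ 2 / (K.g (ch A x) y).det.re) x := by
    refine ContinuousAt.div ?_ ?_ (det_re_pos (K.pos _ x hc)).ne'
    · exact ((continuousAt_mat_det fun j a => continuousAt_eta hs hc h j a).norm).pow 2
    · exact Complex.continuous_re.continuousAt.comp
        (continuousAt_mat_det fun j a => continuousAt_of_smAt (K.sm _ j a) hc)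
  refine h1.congr ?_
  filter_upwards [(A.e (ch A x)).open_source.mem_nhds hc, (isOpen_NZ hs).mem_nhds h] with y hy hn
  exact (Jsq_chart K hs hy hn).symm

theorem continuousOn_quo (hs : ∀ j, IsHS Lb univ (s j)) :
    ContinuousOn (quo s) {x | NZ s x} :=
  (rf_continuousOn (hs 0) (fun j => hs j.succ)).mono fun _ h => h 0

/-! ### local inverses -/

/-- the set where the logarithmic coordinates are local coordinates -/
def Reg (K : Kah A) (s : Fin (N + 1) → A.ι → M → ℂ) : Set M := {x | NZ s x ∧ Jsq K s x ≠ 0}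

theorem isOpen_Reg (K : Kah A) (hs : ∀ j, IsHS Lb univ (s j)) : IsOpen (Reg K s) :=
  (continuousOn_Jsq K hs).isOpen_inter_preimage (isOpen_NZ hs) isOpen_ne

/-- **local inverse branches of `log F`** -/
theorem exists_branch (K : Kah A) (hs : ∀ j, IsHS Lb univ (s j)) {p : M} (hp : p ∈ Reg K s)
    {ζ0 : Fin N → ℂ} (hζ0 : expPi ζ0 = quo s p) :
    ∃ δ > 0, ∃ Φ : (Fin N → ℂ) → M, Φ ζ0 = p ∧ HolI A (ball ζ0 δ) Φ ∧
      (∀ ζ ∈ ball ζ0 δ, quo s (Φ ζ) = expPi ζ ∧ Φ ζ ∈ Reg K s) ∧ InjOn Φ (ball ζ0 δ) ∧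
      (∀ B ⊆ ball ζ0 δ, IsOpen B → IsOpen (Φ '' B)) ∧
      ∀ ζ ∈ ball ζ0 δ, ∀ i, Φ ζ ∈ (A.e i).source → eta s i (Φ ζ) * jac A Φ i ζ = 1 := by
  have hc := mem_ch A p
  have hDf : (Df (s 0) (tl s) (ch A p) p).det ≠ 0 :=
    (eta_det_ne_iff hs hc hp.1).1 ((Jsq_ne_iff K hs hc hp.1).1 hp.2)
  obtain ⟨e, hpe, he⟩ := exists_chart (hs 0) (fun j => hs j.succ) hc (hp.1 0) hDf
  have hep : e p = expPi ζ0 := by rw [← he hpe, hζ0]; rfl
  have htgt : expPi ζ0 ∈ e.target := by rw [← hep]; exact e.map_source hpe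
  set Φ : (Fin N → ℂ) → M := fun ζ => e.symm (expPi ζ) with hΦ
  have hΦ0 : Φ ζ0 = p := by
    simp only [hΦ]
    rw [← hep, e.left_inv hpe]
  have hcont0 : ContinuousAt Φ ζ0 :=
    ContinuousAt.comp (g := e.symm) (e.continuousAt_symm htgt) continuous_expPi.continuousAt
  have h1 : ∀ᶠ ζ in 𝓝 ζ0, expPi ζ ∈ e.target :=
    continuous_expPi.continuousAt.eventually_mem (e.open_target.mem_nhds htgt)
  have h2 : ∀ᶠ ζ in 𝓝 ζ0, Φ ζ ∈ Reg K s :=
    hcont0.eventually_mem ((isOpen_Reg K hs).mem_nhds (by rw [hΦ0]; exact hp))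
  obtain ⟨δ0, hδ0, hball0⟩ := Metric.mem_nhds_iff.1 (inter_mem h1 h2)
  set δ := min δ0 1 with hδ
  have hball : ball ζ0 δ ⊆ _ := (ball_subset_ball (min_le_left δ0 1)).trans hball0
  have hcont : ContinuousOn Φ (ball ζ0 δ) := fun ζ hζ =>
    (ContinuousAt.comp (g := e.symm) (e.continuousAt_symm (hball hζ).1)
      continuous_expPi.continuousAt).continuousWithinAt
  have hquo : ∀ ζ ∈ ball ζ0 δ, quo s (Φ ζ) = expPi ζ := by
    intro ζ hζ
    have h3 : Φ ζ ∈ e.source := e.map_target (hball hζ).1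
    have h4 : rf (s 0) (tl s) (Φ ζ) = e (Φ ζ) := he h3
    rw [quo_rf, h4]
    exact e.right_inv (hball hζ).1
  have hinjE : InjOn (expPi (ι := Fin N)) (ball ζ0 δ) := by
    refine Df4_612.expPi_injOn_of_im fun z hz w hw j => ?_
    have e1 := mem_ball.1 (ball_subset_ball (min_le_right δ0 1) hz)
    have e2 := mem_ball.1 (ball_subset_ball (min_le_right δ0 1) hw)
    rw [dist_eq_norm] at e1 e2
    have e3 : |(z j).im - (w j).im| ≤ ‖z - w‖ := by
      have h4 : (z j).im - (w j).im = ((z - w) j).im := by simp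
      rw [h4]
      exact (Complex.abs_im_le_norm _).trans (norm_le_pi_norm (z - w) j)
    have e4 : ‖z - w‖ < 2 := by
      calc ‖z - w‖ = ‖(z - ζ0) - (w - ζ0)‖ := by congr 1; abel
        _ ≤ ‖z - ζ0‖ + ‖w - ζ0‖ := norm_sub_le _ _
        _ < 2 := by linarith
    have h6 := Real.pi_gt_three
    linarith
  have hinj : InjOn Φ (ball ζ0 δ) := by
    intro z hz w hw hzw
    refine hinjE hz hw ?_
    rw [← hquo z hz, ← hquo w hw, hzw]
  have hexpd : ∀ ζ : Fin N → ℂ, HasFDerivAt (expPi (ι := Fin N))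
      (ContinuousLinearMap.pi fun j => Complex.exp (ζ j) •
        (ContinuousLinearMap.proj j : (Fin N → ℂ) →L[ℂ] ℂ)) ζ := by
    intro ζ
    refine hasFDerivAt_pi.2 fun j => ?_
    have h3 : HasDerivAt Complex.exp (Complex.exp (ζ j)) (ζ j) := Complex.hasDerivAt_exp _
    have h4 : HasFDerivAt (fun z : Fin N → ℂ => z j)
      (ContinuousLinearMap.proj j : (Fin N → ℂ) →L[ℂ] ℂ) ζ :=
      (ContinuousLinearMap.proj j : (Fin N → ℂ) →L[ℂ] ℂ).hasFDerivAt
    have h5 := h3.comp_hasFDerivAt ζ h4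
    exact h5
  -- holomorphy in the charts
  have hdiff : ∀ ζ ∈ ball ζ0 δ, ∀ i, Φ ζ ∈ (A.e i).source →
      DifferentiableAt ℂ (fun w => A.e i (Φ w)) ζ := by
    intro ζ hζ i hi
    have hR := (hball hζ).2
    have hDf' : (Df (s 0) (tl s) i (Φ ζ)).det ≠ 0 :=
      (eta_det_ne_iff hs hi hR.1).1 ((Jsq_ne_iff K hs hi hR.1).1 hR.2)
    -- the coordinate change `ψ`
    set ψ : OpenPartialHomeomorph (Cn N) (Fin N → ℂ) := (A.e i).symm.trans e with hψ
    have hzt : A.e i (Φ ζ) ∈ ψ.source := by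
      rw [hψ, OpenPartialHomeomorph.trans_source]
      refine ⟨(A.e i).map_source hi, ?_⟩
      rw [mem_preimage, (A.e i).left_inv hi]
      exact e.map_target (hball hζ).1
    have hψv : ψ (A.e i (Φ ζ)) = expPi ζ := by
      show e ((A.e i).symm (A.e i (Φ ζ))) = _
      rw [(A.e i).left_inv hi]
      exact e.right_inv (hball hζ).1
    have hψt : expPi ζ ∈ ψ.target := by rw [← hψv]; exact ψ.map_source hzt
    have hψs : ψ.symm (expPi ζ) = A.e i (Φ ζ) := by rw [← hψv, ψ.left_inv hzt]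
    have hdr : HasFDerivAt ψ (fderiv ℂ (rc' (s 0) (tl s) i) (A.e i (Φ ζ))) (A.e i (Φ ζ)) := by
      have hd : DifferentiableAt ℂ (rc' (s 0) (tl s) i) (A.e i (Φ ζ)) :=
        (rc'_diffOn (hs 0) (fun j => hs j.succ) i).differentiableAt
          ((isOpen_ti (isOpen_nz (hs 0))).mem_nhds
          ⟨(A.e i).map_source hi, by rw [mem_preimage, (A.e i).left_inv hi]; exact hR.1 0⟩)
      refine hd.hasFDerivAt.congr_of_eventuallyEq ?_
      filter_upwards [ψ.open_source.mem_nhds hzt] with z hz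
      have hz' : (A.e i).symm z ∈ e.source := by
        rw [hψ, OpenPartialHomeomorph.trans_source] at hz
        exact hz.2
      exact (he hz').symm
    have hinjd : Function.Injective (fderiv ℂ (rc' (s 0) (tl s) i) (A.e i (Φ ζ))) := by
      rw [injective_iff_map_eq_zero]
      intro v hv
      rw [fderiv_rc' (hs 0) (fun j => hs j.succ) hi (hR.1 0)] at hv
      have h1 := Matrix.eq_zero_of_mulVec_eq_zero hDf' hv
      ext a
      exact congrFun h1 a
    set D : Cn N ≃L[ℂ] (Fin N → ℂ) := (LinearEquiv.ofInjectiveOfFinrankEq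
      (fderiv ℂ (rc' (s 0) (tl s) i) (A.e i (Φ ζ))).toLinearMap hinjd
        (by simp)).toContinuousLinearEquiv with hD
    have hDe : (D : Cn N →L[ℂ] (Fin N → ℂ)) =
        fderiv ℂ (rc' (s 0) (tl s) i) (A.e i (Φ ζ)) := by
      ext v : 1
      rfl
    have h5 : HasFDerivAt ψ.symm (D.symm : (Fin N → ℂ) →L[ℂ] Cn N) (expPi ζ) :=
      ψ.hasFDerivAt_symm hψt (by rw [hψs, hDe]; exact hdr)
    have h6 := HasFDerivAt.comp (g := ψ.symm) (f := expPi (ι := Fin N)) ζ h5 (hexpd ζ)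
    exact h6.differentiableAt
  -- the product is the identity
  have hmul : ∀ ζ ∈ ball ζ0 δ, ∀ i, Φ ζ ∈ (A.e i).source →
      eta s i (Φ ζ) * jac A Φ i ζ = 1 := by
    intro ζ hζ i hi
    have hR := (hball hζ).2
    have hd := hdiff ζ hζ i hi
    have hdr : DifferentiableAt ℂ (rc' (s 0) (tl s) i) (A.e i (Φ ζ)) :=
      (rc'_diffOn (hs 0) (fun j => hs j.succ) i).differentiableAt
        ((isOpen_ti (isOpen_nz (hs 0))).mem_nhds
        ⟨(A.e i).map_source hi, by rw [mem_preimage, (A.e i).left_inv hi]; exact hR.1 0⟩)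
    have hcomp := HasFDerivAt.comp (g := rc' (s 0) (tl s) i) (f := fun w => A.e i (Φ w)) ζ
      hdr.hasFDerivAt hd.hasFDerivAt
    have heq : (expPi (ι := Fin N)) =ᶠ[𝓝 ζ] (rc' (s 0) (tl s) i) ∘ fun w => A.e i (Φ w) := by
      have hpre : ∀ᶠ w in 𝓝 ζ, Φ w ∈ (A.e i).source :=
        (hcont.continuousAt (isOpen_ball.mem_nhds hζ)).eventually_mem
          ((A.e i).open_source.mem_nhds hi)
      filter_upwards [hpre, isOpen_ball.mem_nhds hζ] with w hw hwb
      show expPi w = rf (s 0) (tl s) ((A.e i).symm (A.e i (Φ w)))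
      rw [(A.e i).left_inv hw, ← hquo w hwb]
      rfl
    have huniq := (hcomp.congr_of_eventuallyEq heq).unique (hexpd ζ)
    rw [eta_eq hs hi hR.1, Matrix.mul_assoc]
    ext j a
    rw [Matrix.diagonal_mul, Matrix.mul_apply]
    have h7 := congrArg (fun T : (Fin N → ℂ) →L[ℂ] (Fin N → ℂ) => T (Pi.single a 1) j) huniq
    simp only [ContinuousLinearMap.coe_comp, Function.comp_apply] at h7
    rw [fderiv_rc' (hs 0) (fun j => hs j.succ) hi (hR.1 0)] at h7
    have h8 : ∑ b, Df (s 0) (tl s) i (Φ ζ) j b * jac A Φ i ζ b a =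
        Complex.exp (ζ j) * (if j = a then 1 else 0) := by
      refine Eq.trans ?_ (h7.trans ?_)
      · rfl
      · simp [Pi.single_apply]
    rw [h8, hquo ζ hζ]
    show (Complex.exp (ζ j))⁻¹ * (Complex.exp (ζ j) * (if j = a then 1 else 0)) = _
    rw [← mul_assoc, inv_mul_cancel₀ (Complex.exp_ne_zero _), one_mul, Matrix.one_apply]
  have hHol : HolI A (ball ζ0 δ) Φ := ⟨isOpen_ball, hcont, fun ζ hζ i hi => by
    refine ⟨hdiff ζ hζ i hi, fun h0 => ?_⟩
    have h9 := congrArg Matrix.det (hmul ζ hζ i hi)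
    rw [Matrix.det_mul, h0, mul_zero, Matrix.det_one] at h9
    exact zero_ne_one h9⟩
  refine ⟨δ, lt_min hδ0 one_pos, Φ, hΦ0, hHol, fun ζ hζ => ⟨hquo ζ hζ, (hball hζ).2⟩, hinj,
    fun B hB hBo => ?_, hmul⟩
  -- openness
  have hopen : IsOpenMap (expPi (ι := Fin N)) := by
    have h1 : (expPi (ι := Fin N)) = Pi.map (fun _ : Fin N => Complex.exp) := rfl
    rw [h1]
    exact IsOpenMap.piMap (fun _ => Complex.isOpenMap_exp) (by simp)
  have himg : Φ '' B = e.symm '' (expPi '' B) := by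
    rw [image_image]
  rw [himg]
  refine e.symm.isOpen_image_of_subset_source (hopen B hBo) ?_
  rintro _ ⟨ζ, hζ, rfl⟩
  exact (hball (hB hζ)).1

end

end Crest.Agent.R281.Dh1_612
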