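/-
R281 / S-DIAM-INST (helper612), part 7: the pulled back Lebesgue measure; the covering of `SDat`.
-/
import Crest.Agent.R281.Dh1_612

set_option autoImplicit false
set_option linter.unusedSectionVars false
set_option linter.ambiguousOpen false
set_option maxSynthPendingDepth 3

namespace Crest.Agent.R281.Dh2_612

open Set Filter Complex MeasureTheory Metric
open scoped _root_.Topology ContDiff Matrix ComplexConjugate ComplexOrder ENNReal
open Crest.Agent.R275.Geo Crest.Agent.R275.Core144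
open Crest.Agent.R273.Defs_333 Crest.Agent.R273.HM_333 Crest.Agent.R273.Kah_333
open Crest.Agent.R273.Vol_333 Crest.Agent.R273.Vm_333 Crest.Agent.R273.FIb0_597
open Crest.Agent.R273.SteinC_794 Crest.Agent.R273.SteinD_794
open Crest.Agent.R281.Dg3_612 Crest.Agent.R281.Dg4_612 Crest.Agent.R281.Dg5_612
open Crest.Agent.R281.SIn_14 Crest.Agent.R281.Per_368 Crest.Agent.R281.Dh1_612
open Crest.Agent.R281.Df3_612 (expPi continuous_expPi differentiable_expPi)

noncomputable section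

variable {N : ℕ} {M : Type} [TopologicalSpace M] {A : Atl N M} {Lb : LB A}
  {s : Fin (N + 1) → A.ι → M → ℂ}

/-- `J_Φ² · Jsq = 1` for an inverse branch of `log F` -/
theorem pbg_Jsq (K : Kah A) (hs : ∀ j, IsHS Lb univ (s j)) {S : Set (Fin N → ℂ)}
    {Φ : (Fin N → ℂ) → M} (h : HolI A S Φ) {ζ : Fin N → ℂ} (hζ : ζ ∈ S) (hN : NZ s (Φ ζ))
    (hmul : ∀ i, Φ ζ ∈ (A.e i).source → eta s i (Φ ζ) * jac A Φ i ζ = 1) :
    (pbg K Φ ζ).det.re * Jsq K s (Φ ζ) = 1 := by
  have hc := mem_ch A (Φ ζ)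
  have hg := det_re_pos (K.pos _ _ hc)
  rw [h.det_pbg K hζ hc, Jsq_chart K hs hc hN]
  have h1 := congrArg Matrix.det (hmul _ hc)
  rw [Matrix.det_mul, Matrix.det_one] at h1
  have h2 : ‖(eta s (ch A (Φ ζ)) (Φ ζ)).det‖ * ‖(jac A Φ (ch A (Φ ζ)) ζ).det‖ = 1 := by
    rw [← norm_mul, h1, norm_one]
  have h3 : (‖(eta s (ch A (Φ ζ)) (Φ ζ)).det‖ * ‖(jac A Φ (ch A (Φ ζ)) ζ).det‖) ^ 2 = 1 := by
    rw [h2, one_pow]
  rw [← h3]
  field_simp

open Classical in
/-- the density of the pulled back Lebesgue measure -/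
def dJ (K : Kah A) (s : Fin (N + 1) → A.ι → M → ℂ) (x : M) : ℝ≥0∞ :=
  if NZ s x then ENNReal.ofReal (Jsq K s x) else 0

variable [MeasurableSpace M] [BorelSpace M]

theorem measurable_dJ (K : Kah A) (hs : ∀ j, IsHS Lb univ (s j)) : Measurable (dJ K s) := by
  classical
  have h1 : dJ K s = ({x : M | NZ s x}).piecewise (fun x => ENNReal.ofReal (Jsq K s x))
      (fun _ => 0) := by
    funext x
    by_cases h : NZ s x
    · rw [piecewise_eq_of_mem _ _ _ h]
      simp [dJ, h]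
    · rw [piecewise_eq_of_notMem _ _ _ h]
      simp [dJ, h]
  rw [h1]
  exact (ENNReal.continuous_ofReal.comp_continuousOn (continuousOn_Jsq K hs)).measurable_piecewise
    continuousOn_const (isOpen_NZ hs).measurableSet

variable [Countable A.ι]

/-- the pulled back Lebesgue measure -/
def mM (K : Kah A) (s : Fin (N + 1) → A.ι → M → ℂ) : Measure M := (vm (volK K)).withDensity (dJ K s)

theorem lint_mM (K : Kah A) (hs : ∀ j, IsHS Lb univ (s j)) {W : Set M} (hW : MeasurableSet W)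
    {φ : M → ℝ≥0∞} (hφ : Measurable φ) :
    ∫⁻ x in W, φ x ∂(mM K s) = ∫⁻ x in W, dJ K s x * φ x ∂(vm (volK K)) :=
  setLIntegral_withDensity_eq_setLIntegral_mul _ (measurable_dJ K hs) hφ hW

theorem branch_lint [T2Space M] (K : Kah A) (hs : ∀ j, IsHS Lb univ (s j)) {ζ0 : Fin N → ℂ}
    {δ : ℝ} {Φ : (Fin N → ℂ) → M} (h : HolI A (ball ζ0 δ) Φ)
    (hR : ∀ ζ ∈ ball ζ0 δ, quo s (Φ ζ) = expPi ζ ∧ Φ ζ ∈ Reg K s) (hinj : InjOn Φ (ball ζ0 δ))
    (hmul : ∀ ζ ∈ ball ζ0 δ, ∀ i, Φ ζ ∈ (A.e i).source → eta s i (Φ ζ) * jac A Φ i ζ = 1)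
    {φ : M → ℝ≥0∞} (hφ : Measurable φ) {B : Set (Fin N → ℂ)} (hB : B ⊆ ball ζ0 δ)
    (hBm : MeasurableSet B) :
    MeasurableSet (Φ '' B) ∧ ∫⁻ x in Φ '' B, φ x ∂(mM K s) = ∫⁻ ζ in B, φ (Φ ζ) := by
  have hW : MeasurableSet (Φ '' B) :=
    hBm.image_of_continuousOn_injOn (h.cont.mono hB) (hinj.mono hB)
  refine ⟨hW, ?_⟩
  rw [lint_mM K hs hW hφ]
  set f : M → ℝ≥0∞ := fun x => dJ K s x * φ x with hf
  have hfm : Measurable f := (measurable_dJ K hs).mul hφ
  have key : ∫⁻ ζ in B, ENNReal.ofReal (pbg K Φ ζ).det.re * f (Φ ζ) = ∫⁻ ζ in B, φ (Φ ζ) := by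
    refine setLIntegral_congr_fun hBm fun ζ hζ => ?_
    obtain ⟨-, hN, hJ⟩ := hR ζ (hB hζ)
    simp only [hf, dJ, if_pos hN]
    rw [← mul_assoc, ← ENNReal.ofReal_mul', pbg_Jsq K hs h (hB hζ) hN (hmul ζ (hB hζ)),
      ENNReal.ofReal_one, one_mul]
    have hc := mem_ch A (Φ ζ)
    have hg := det_re_pos (K.pos _ _ hc)
    unfold Jsq
    positivity
  rw [← key]
  refine le_antisymm ?_ ?_
  · classical
    set Bk : ℕ → Set (Fin N → ℂ) := fun k => if k = 0 then B else ∅ with hBk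
    have hU : ⋃ k, Bk k = B := by
      ext ζ
      simp only [hBk, mem_iUnion]
      constructor
      · rintro ⟨k, hk⟩
        split_ifs at hk
        · exact hk
        · exact absurd hk (notMem_empty _)
      · intro hζ
        exact ⟨0, by simpa using hζ⟩
    have hsub : ∀ k, Bk k ⊆ B := fun k => by
      simp only [hBk]
      split_ifs
      · exact subset_rfl
      · exact empty_subset _
    have h1 := image_lint_of h K (B := Bk)
      (fun k => by
        simp only [hBk]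
        split_ifs
        · exact hBm
        · exact MeasurableSet.empty)
      (fun k => (hsub k).trans hB)
      (fun i j hij => by
        rw [Function.onFun, Set.disjoint_left]
        intro ζ h1 h2
        simp only [hBk] at h1 h2
        split_ifs at h1 h2
        · omega
        · exact notMem_empty _ h2
        · exact notMem_empty _ h1
        · exact notMem_empty _ h1)
      (fun k => hinj.mono ((hsub k).trans hB)) hfm hW (by rw [hU])
    rwa [hU] at h1
  · exact cv_inj' h K hBm hB (hinj.mono hB) hfm hW (mapsTo_image Φ B)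

/-- the change of variables hypothesis of the diameter theorem, on `M` -/
theorem measAt [T2Space M] (K : Kah A) (hs : ∀ j, IsHS Lb univ (s j)) {p : M} (hp : p ∈ Reg K s) :
    Df4_612.MeasAt (quo s) (mM K s) p := by
  intro ζ0 hζ0
  obtain ⟨δ, hδ, Φ, h0, hH, hR, hinj, -, hmul⟩ := exists_branch K hs hp hζ0
  exact ⟨δ, hδ, Φ, h0, hH.cont, fun ζ hζ => (hR ζ hζ).1, fun φ hφ B hB hBm =>
    (branch_lint K hs hH hR hinj hmul hφ hB hBm).2⟩

omit [MeasurableSpace M] [BorelSpace M] [Countable A.ι] in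
theorem quo_local (K : Kah A) (hs : ∀ j, IsHS Lb univ (s j)) :
    IsLocalHomeomorphOn (quo s) (Reg K s) := by
  refine IsLocalHomeomorphOn.mk _ _ fun x hx => ?_
  have hc := mem_ch A x
  have hDf : (Df (s 0) (tl s) (ch A x) x).det ≠ 0 :=
    (eta_det_ne_iff hs hc hx.1).1 ((Jsq_ne_iff K hs hc hx.1).1 hx.2)
  exact exists_chart (hs 0) (fun j => hs j.succ) hc (hx.1 0) hDf

omit [MeasurableSpace M] [BorelSpace M] [Countable A.ι] in
/-- the covering from the field `cov` of `SDat` -/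
theorem covering [T2Space M] [CompactSpace M] (hN : 0 < N) (K : Kah A)
    (hs : ∀ j, IsHS Lb univ (s j)) {P : MvPolynomial (Fin N) ℂ}
    (hPJ : ∀ x, NZ s x → MvPolynomial.eval (quo s x) P ≠ 0 → Jsq K s x ≠ 0)
    (hprop : ∀ C : Set (Fin N → ℂ), IsCompact C →
      (∀ w ∈ C, (∀ j, w j ≠ 0) ∧ MvPolynomial.eval w P ≠ 0) →
      IsCompact {x | NZ s x ∧ quo s x ∈ C}) :
    IsCoveringMapOn (quo s) {w | (∀ j, w j ≠ 0) ∧ MvPolynomial.eval w P ≠ 0} ∧
    ∀ w ∈ {w : Fin N → ℂ | (∀ j, w j ≠ 0) ∧ MvPolynomial.eval w P ≠ 0},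
      (quo s ⁻¹' {w}).Finite := by
  set U : Set (Fin N → ℂ) := {w | (∀ j, w j ≠ 0) ∧ MvPolynomial.eval w P ≠ 0} with hU
  have hUo : IsOpen U := by
    have h1 : IsOpen {w : Fin N → ℂ | ∀ j, w j ≠ 0} := by
      simp only [ofPred_forall]
      exact isOpen_iInter_of_finite fun j => isOpen_ne.preimage (continuous_apply j)
    exact h1.inter (isOpen_ne.preimage (MvPolynomial.continuous_eval P))
  have hUs : quo s ⁻¹' U ⊆ Reg K s := fun x hx => by
    have h1 := NZ_of_quo hN hs hx.1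
    exact ⟨h1, hPJ x h1 hx.2⟩
  have hZo : IsOpen (quo s ⁻¹' U) := by
    have := (continuousOn_quo hs).isOpen_inter_preimage (isOpen_NZ hs) hUo
    have hsub : quo s ⁻¹' U ⊆ {x | NZ s x} := fun x hx => (hUs hx).1
    rwa [inter_eq_right.2 hsub] at this
  refine Dg1_612.covering_of_closure hUo hZo ((quo_local K hs).mono hUs) fun w0 hw0 => ?_
  obtain ⟨ε, hε, hball⟩ := Metric.nhds_basis_closedBall.mem_iff.1 (hUo.mem_nhds hw0)
  have h1 := hprop (closedBall w0 ε) (isCompact_closedBall _ _) fun w hw => hball hw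
  refine ⟨closedBall w0 ε, closedBall_mem_nhds w0 hε, ?_⟩
  have h2 : quo s ⁻¹' closedBall w0 ε ⊆ {x | NZ s x ∧ quo s x ∈ closedBall w0 ε} :=
    fun x hx => ⟨NZ_of_quo hN hs (hball hx).1, hx⟩
  exact (closure_minimal h2 h1.isClosed).trans fun x hx => hball hx.2

end

end Crest.Agent.R281.Dh2_612
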