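import Crest.Agent.R281.Ins1_615
import Crest.Agent.R247.Ms10_322
import Crest.Agent.R247.GluM1_923

/-!
# R281, S-INST (helper615), part 2: the calculus of R247 on 798's manifolds `R.M`, `R : RAtl d N`,
in an arbitrary chart of `R`

* `pull_ij`       : the transition maps are local isometries
* `contMDiffAt_iff` : smoothness in any chart
* `mLap_chart`, `mGam_chart`, `mHessSq_chart` : the Laplacian, the gradient form and the square of
  the Hessian in any chart
* `lintegral_ch`  : `∫⁻_{source i} f dμHE = ∫⁻_{target i} √(det G_i) f`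
-/

set_option autoImplicit false
set_option linter.unusedSectionVars false

open Set Filter Topology Metric Manifold Bundle MeasureTheory
open scoped ContDiff Manifold Bundle
open Crest.GeometryTopology.CoordMetric Crest.GeometryTopology.ChartCurvature
  Crest.GeometryTopology.PointedLimit
open Crest.Agent.R202.Tens
open Crest.Agent.R273.RMan_798

noncomputable section

namespace Crest.Agent.R281.Ins_615

/-! ### congruence in the metric -/

section Congr

variable {n : ℕ} {g g' : MetricField n} {x : EuclideanSpace ℝ (Fin n)}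

theorem lap_congr_metric (h : g =ᶠ[𝓝 x] g') (f : EuclideanSpace ℝ (Fin n) → ℝ) :
    laplaceBeltrami g f x = laplaceBeltrami g' f x := by
  unfold laplaceBeltrami pderiv
  rw [h.self_of_nhds]
  congr 1
  refine Finset.sum_congr rfl fun i _ => ?_
  have h1 : (fun y => Real.sqrt (g y).det * ∑ j, inverseField g y i j *
      fderiv ℝ f y (EuclideanSpace.single j 1)) =ᶠ[𝓝 x] fun y => Real.sqrt (g' y).det *
        ∑ j, inverseField g' y i j * fderiv ℝ f y (EuclideanSpace.single j 1) := by
    filter_upwards [h] with y hy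
    simp only [inverseField, hy]
  rw [h1.fderiv_eq]

theorem gam_congr_metric (h : g x = g' x) (f k : EuclideanSpace ℝ (Fin n) → ℝ) :
    Crest.Agent.R247.Bo84.gam g f k x = Crest.Agent.R247.Bo84.gam g' f k x := by
  unfold Crest.Agent.R247.Bo84.gam inverseField
  rw [h]

theorem christoffel_congr' (h : g =ᶠ[𝓝 x] g') (k i j : Fin n) :
    christoffel g x k i j = christoffel g' x k i j := by
  have h1 : ∀ a b, (fun y => g y a b) =ᶠ[𝓝 x] fun y => g' y a b := fun a b => by
    filter_upwards [h] with y hy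
    rw [hy]
  unfold christoffel pderiv inverseField
  rw [h.self_of_nhds]
  simp only [(h1 _ _).fderiv_eq]

theorem Gam_congr' (h : g =ᶠ[𝓝 x] g') : Gam g x = Gam g' x := by
  unfold Gam
  simp only [christoffel_congr' h]

theorem grad_congr_metric (h : g =ᶠ[𝓝 x] g') (f : EuclideanSpace ℝ (Fin n) → ℝ) :
    Crest.Agent.R247.Bo84.grad g f =ᶠ[𝓝 x] Crest.Agent.R247.Bo84.grad g' f := by
  filter_upwards [h] with y hy
  unfold Crest.Agent.R247.Bo84.grad inverseField
  rw [hy]

theorem hessE_congr_metric (h : g =ᶠ[𝓝 x] g') (f : EuclideanSpace ℝ (Fin n) → ℝ) :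
    Crest.Agent.R247.Bo84.hessE g f x = Crest.Agent.R247.Bo84.hessE g' f x := by
  have h1 := grad_congr_metric h f
  unfold Crest.Agent.R247.Bo84.hessE Crest.Agent.R247.Bo84.cov
  rw [h1.fderiv_eq, Gam_congr' h, h1.self_of_nhds]

theorem hessSq_congr_metric (h : g =ᶠ[𝓝 x] g') (f : EuclideanSpace ℝ (Fin n) → ℝ) :
    Crest.Agent.R247.Bo84.hessSq g f x = Crest.Agent.R247.Bo84.hessSq g' f x := by
  unfold Crest.Agent.R247.Bo84.hessSq
  rw [hessE_congr_metric h]

end Congr

variable {d : ℕ} {N : Type} [TopologicalSpace N] (R : RAtl d N)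

theorem isRiem (i : R.ι) : IsRiemannianOn (R.G i) (R.c i).target :=
  ⟨(R.c i).open_target, R.Gsm i, R.Gpd i⟩

/-- the domain of the transition map -/
def ov (i j : R.ι) : Set (EE d) := {y | y ∈ (R.c i).target ∧ (R.c i).symm y ∈ (R.c j).source}

theorem isOpen_ov (i j : R.ι) : IsOpen (ov R i j) :=
  (R.c i).isOpen_inter_preimage_symm (R.c j).open_source

/-- the transition map -/
def tr (i j : R.ι) (y : EE d) : EE d := R.c j ((R.c i).symm y)

theorem tr_mem {i j : R.ι} {y : EE d} (hy : y ∈ ov R i j) : tr R i j y ∈ (R.c j).target :=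
  (R.c j).map_source hy.2

theorem symm_tr {i j : R.ι} {y : EE d} (hy : y ∈ ov R i j) :
    (R.c j).symm (tr R i j y) = (R.c i).symm y := (R.c j).left_inv hy.2

theorem bil_tr' {i j : R.ι} {y : EE d} (hy : y ∈ ov R i j) (v w : EE d) :
    R.bil i y v w = R.bil j (tr R i j y) (fderiv ℝ (tr R i j) y v) (fderiv ℝ (tr R i j) y w) := by
  have h1 : (R.c i).symm y ∈ (R.c i).source := (R.c i).map_target hy.1
  have h2 := R.bil_tr i j (x := (R.c i).symm y) h1 hy.2 v w
  have h3 : R.c i ((R.c i).symm y) = y := (R.c i).right_inv hy.1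
  unfold RAtl.T at h2
  rw [h3] at h2
  exact h2

/-- the transition maps are local isometries -/
theorem pull_ij (i j : R.ι) : Pull (R.G i) (R.G j) (tr R i j) (ov R i j) (R.c j).target where
  isOpen := isOpen_ov R i j
  riem := isRiem R j
  maps y hy := tr_mem R hy
  smooth := R.smt i j
  pull y hy a b := by
    have h := bil_tr' R hy (EuclideanSpace.single a 1) (EuclideanSpace.single b 1)
    rw [R.bil_apply, R.bil_apply] at h
    refine Eq.trans ?_ h
    simp
  inj y hy := by
    intro u v h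
    by_contra hne
    have h0 : fderiv ℝ (tr R i j) y (u - v) = 0 := by rw [map_sub, h, sub_self]
    have h1 := bil_tr' R hy (u - v) (u - v)
    rw [h0] at h1
    have h2 := R.bil_pos i hy.1 (u - v) (sub_ne_zero.2 hne)
    rw [h1] at h2
    simp at h2

/-! ### smoothness -/

theorem ch_mem (i : R.ι) : R.ch i ∈ IsManifold.maximalAtlas (𝓡 d) ∞ R.M :=
  IsManifold.subset_maximalAtlas ⟨i, rfl⟩

theorem contMDiffAt_iff {W : Type*} [NormedAddCommGroup W] [NormedSpace ℝ W] {k : WithTop ℕ∞}
    (hk : k ≤ ∞) {f : R.M → W} {i : R.ι} {x : R.M} (hx : x ∈ (R.ch i).source) :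
    ContMDiffAt (𝓡 d) 𝓘(ℝ, W) k f x ↔
      ContDiffAt ℝ k (fun y => f ((R.ch i).symm y)) (R.ch i x) := by
  have hxt : R.ch i x ∈ (R.ch i).target := (R.ch i).map_source hx
  have hxx : (R.ch i).symm (R.ch i x) = x := (R.ch i).left_inv hx
  constructor
  · intro h
    have h1 : ContMDiffAt (𝓡 d) (𝓡 d) k (R.ch i).symm (R.ch i x) :=
      (contMDiffAt_symm_of_mem_maximalAtlas (ch_mem R i) hxt).of_le hk
    have h2 : ContMDiffAt (𝓡 d) 𝓘(ℝ, W) k f ((R.ch i).symm (R.ch i x)) := by rw [hxx]; exact h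
    have h3 := h2.comp (R.ch i x) h1
    exact h3.contDiffAt
  · intro h
    have h1 : ContMDiffAt (𝓡 d) (𝓡 d) k (R.ch i) x :=
      (contMDiffAt_of_mem_maximalAtlas (ch_mem R i) hx).of_le hk
    have h2 := h.contMDiffAt.comp x h1
    refine h2.congr_of_eventuallyEq ?_
    filter_upwards [(R.ch i).open_source.mem_nhds hx] with y hy
    exact congrArg f ((R.ch i).left_inv hy).symm

/-! ### the calculus in any chart -/

theorem chartMetric_ev (x : R.M) :
    chartMetric d R.M x =ᶠ[𝓝 (R.ch (R.idx x) x)] R.G (R.idx x) := by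
  filter_upwards [(R.c (R.idx x)).open_target.mem_nhds (R.mem_target x)] with y hy
  exact R.chartMetric_eq x hy

theorem inCh_eq' (x : R.M) (f : R.M → ℝ) :
    Crest.Agent.R247.Bo84.inCh d x f = fun y => f ((R.ch (R.idx x)).symm y) := rfl

theorem mem_ov {i j : R.ι} {x : R.M} (hi : x ∈ (R.ch i).source) (hj : x ∈ (R.ch j).source) :
    R.ch i x ∈ ov R i j :=
  ⟨(R.ch i).map_source hi, by
    have : (R.c i).symm (R.ch i x) = x := (R.ch i).left_inv hi
    rw [this]; exact hj⟩

theorem tr_ch {i j : R.ι} {x : R.M} (hi : x ∈ (R.ch i).source) :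
    tr R i j (R.ch i x) = R.ch j x := by
  unfold tr
  have : (R.c i).symm (R.ch i x) = x := (R.ch i).left_inv hi
  rw [this]; rfl

theorem ev_tr (f : R.M → ℝ) {i j : R.ι} {y : EE d} (hy : y ∈ ov R i j) :
    (fun z => (fun w => f ((R.ch j).symm w)) (tr R i j z)) =ᶠ[𝓝 y]
      fun z => f ((R.ch i).symm z) := by
  filter_upwards [(isOpen_ov R i j).mem_nhds hy] with z hz
  exact congrArg f (symm_tr R hz)

theorem mLap_chart {f : R.M → ℝ} {i : R.ι} {x : R.M} (hx : x ∈ (R.ch i).source)
    (hf : ContMDiffAt (𝓡 d) 𝓘(ℝ, ℝ) 2 f x) :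
    Crest.Agent.R247.Bo84.mLap d f x =
      laplaceBeltrami (R.G i) (fun y => f ((R.ch i).symm y)) (R.ch i x) := by
  have h0 : Crest.Agent.R247.Bo84.mLap d f x =
      laplaceBeltrami (R.G (R.idx x)) (fun y => f ((R.ch (R.idx x)).symm y))
        (R.ch (R.idx x) x) := by
    rw [← lap_congr_metric (chartMetric_ev R x)]
    rfl
  have hy := mem_ov R hx (R.idx_mem x)
  have hf' := (contMDiffAt_iff R Crest.Agent.R247.Bo84.two_le_infty (R.idx_mem x)).1 hf
  rw [← tr_ch R hx] at hf'
  have h1 := Crest.Agent.R247.Bo84.lap_pull (pull_ij R i (R.idx x)) hy hf'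
  rw [h0, ← tr_ch R hx, ← h1]
  exact Crest.Agent.R247.Bo84.lap_congr (ev_tr R f hy)

/-- differentiability in one chart gives differentiability in every chart -/
theorem diff_chart {W : Type*} [NormedAddCommGroup W] [NormedSpace ℝ W] {f : R.M → W} {i j : R.ι}
    {x : R.M} (hi : x ∈ (R.ch i).source) (hj : x ∈ (R.ch j).source)
    (hf : DifferentiableAt ℝ (fun y => f ((R.ch i).symm y)) (R.ch i x)) :
    DifferentiableAt ℝ (fun y => f ((R.ch j).symm y)) (R.ch j x) := by
  have hy := mem_ov R hj hi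
  have h1 : DifferentiableAt ℝ (tr R j i) (R.ch j x) :=
    ((R.smt j i).contDiffAt ((isOpen_ov R j i).mem_nhds hy)).differentiableAt (by simp)
  have h2 : DifferentiableAt ℝ (fun y => f ((R.ch i).symm y)) (tr R j i (R.ch j x)) := by
    rw [tr_ch R hj]; exact hf
  refine (h2.comp (R.ch j x) h1).congr_of_eventuallyEq ?_
  filter_upwards [(isOpen_ov R j i).mem_nhds hy] with z hz
  exact congrArg f (symm_tr R hz).symm

theorem mGam_chart {f h : R.M → ℝ} {i : R.ι} {x : R.M} (hx : x ∈ (R.ch i).source)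
    (hf : DifferentiableAt ℝ (fun y => f ((R.ch i).symm y)) (R.ch i x))
    (hh : DifferentiableAt ℝ (fun y => h ((R.ch i).symm y)) (R.ch i x)) :
    Crest.Agent.R247.Bo84.mGam d f h x =
      Crest.Agent.R247.Bo84.gam (R.G i) (fun y => f ((R.ch i).symm y))
        (fun y => h ((R.ch i).symm y)) (R.ch i x) := by
  have h0 : Crest.Agent.R247.Bo84.mGam d f h x =
      Crest.Agent.R247.Bo84.gam (R.G (R.idx x)) (fun y => f ((R.ch (R.idx x)).symm y))
        (fun y => h ((R.ch (R.idx x)).symm y)) (R.ch (R.idx x) x) := by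
    rw [← gam_congr_metric (chartMetric_ev R x).self_of_nhds]
    rfl
  have hy := mem_ov R hx (R.idx_mem x)
  have hf' := diff_chart R hx (R.idx_mem x) hf
  have hh' := diff_chart R hx (R.idx_mem x) hh
  rw [← tr_ch R hx] at hf' hh'
  have h1 := Crest.Agent.R247.Bo84.gam_pull (pull_ij R i (R.idx x)) hy hf' hh'
  rw [h0, ← tr_ch R hx, ← h1]
  exact Crest.Agent.R247.Bo84.gam_congr (ev_tr R f hy) (ev_tr R h hy)

theorem mHessSq_chart {f : R.M → ℝ} {i : R.ι} {x : R.M} (hx : x ∈ (R.ch i).source)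
    (hf : ContMDiffAt (𝓡 d) 𝓘(ℝ, ℝ) 2 f x) :
    Crest.Agent.R247.Bo84.mHessSq d f x =
      Crest.Agent.R247.Bo84.hessSq (R.G i) (fun y => f ((R.ch i).symm y)) (R.ch i x) := by
  have h0 : Crest.Agent.R247.Bo84.mHessSq d f x =
      Crest.Agent.R247.Bo84.hessSq (R.G (R.idx x)) (fun y => f ((R.ch (R.idx x)).symm y))
        (R.ch (R.idx x) x) := by
    rw [← hessSq_congr_metric (chartMetric_ev R x)]
    rfl
  have hy := mem_ov R hx (R.idx_mem x)
  have hf' := (contMDiffAt_iff R Crest.Agent.R247.Bo84.two_le_infty (R.idx_mem x)).1 hf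
  rw [← tr_ch R hx] at hf'
  have h1 := Crest.Agent.R247.Bo84.hessSq_pull (pull_ij R i (R.idx x)) hy hf'
  rw [h0, ← tr_ch R hx, ← h1]
  exact Crest.Agent.R247.Bo84.hessSq_congr (ev_tr R f hy)

end Crest.Agent.R281.Ins_615
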