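import Crest.Agent.R281.TorE_922

/-!
# R281 (S0424), leaf S-TOR (helper922), file F: the image of the strip contains a ball

`|dlog F_j (v)| ≤ C' ‖v‖` on `W`, `ball y ρ ⊆ W`, `C' * ρ ≤ r`: then `ball y ρ ⊆ Φ '' strip ζ0 r`.
-/

set_option autoImplicit false
set_option linter.unusedSectionVars false

open Set Filter Topology Metric Manifold Bundle
open scoped ContDiff Manifold Bundle ENNReal

namespace Crest.Agent.R281.Tor_922

/-- `log ‖w‖` is smooth away from zero with derivative of norm `≤ ‖v‖ / ‖w‖` -/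
theorem log_norm_deriv {w0 : ℂ} (hw : w0 ≠ 0) :
    ContDiffAt ℝ 1 (fun w : ℂ => Real.log ‖w‖) w0 ∧
    ∃ L : ℂ →L[ℝ] ℝ, HasFDerivAt (fun w : ℂ => Real.log ‖w‖) L w0 ∧ ∀ v, |L v| ≤ ‖v / w0‖ := by
  have he : (fun w : ℂ => Real.log ‖w‖) =ᶠ[𝓝 w0]
      fun w => (Complex.log (w / w0)).re + Real.log ‖w0‖ := by
    filter_upwards [isOpen_ne.mem_nhds hw] with w hw1
    rw [Complex.log_re, norm_div, Real.log_div (norm_ne_zero_iff.2 hw1) (norm_ne_zero_iff.2 hw)]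
    ring
  have h1 : w0 / w0 ∈ Complex.slitPlane := by rw [div_self hw]; exact Complex.one_mem_slitPlane
  constructor
  · refine ContDiffAt.congr_of_eventuallyEq ?_ he
    refine ContDiffAt.add ?_ contDiffAt_const
    have h2 : ContDiffAt ℝ 1 (fun w : ℂ => Complex.log (w / w0)) w0 := by
      have h3 : ContDiffAt ℂ 1 (fun w : ℂ => Complex.log (w / w0)) w0 :=
        ContDiffAt.comp (g := Complex.log) (f := fun w : ℂ => w / w0) w0
          (Complex.contDiffAt_log h1) (contDiffAt_id.div_const w0)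
      exact h3.restrict_scalars ℝ
    exact Complex.reCLM.contDiff.contDiffAt.comp w0 h2
  · have h2 : HasDerivAt (fun w : ℂ => Complex.log (w / w0)) (1 / w0) w0 := by
      have := ((hasDerivAt_id w0).div_const w0).clog h1
      simpa [div_self hw] using this
    have h3 := (Complex.reCLM.hasFDerivAt.comp w0 (h2.hasFDerivAt.restrictScalars ℝ)).add_const
      (Real.log ‖w0‖)
    refine ⟨_, h3.congr_of_eventuallyEq he, fun v => ?_⟩
    have e : (Complex.reCLM.comp (ContinuousLinearMap.restrictScalars ℝ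
        (ContinuousLinearMap.toSpanSingleton ℂ (1 / w0)))) v = (v / w0).re := by
      simp [div_eq_mul_inv]
    refine le_trans (le_of_eq ?_) (Complex.abs_re_le_norm (v / w0))
    exact congrArg abs e

variable {E : Type*} [NormedAddCommGroup E] [NormedSpace ℝ E]
  {M : Type*} [MetricSpace M] [ChartedSpace E M]
  [RiemannianBundle (fun x : M => TangentSpace 𝓘(ℝ, E) x)] [IsManifold 𝓘(ℝ, E) 1 M]
  [IsRiemannianManifold 𝓘(ℝ, E) M]
variable {ι : Type*} [Fintype ι]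

/-- along a `C¹` path in `W` the function `log ‖F_j‖` changes by at most `C'` times the length -/
theorem log_norm_path {F : M → ι → ℂ} {W : Set M} {C C' : ℝ} (hFr : FrameBd (E := E) F W C)
    (hW : IsOpen W) (hC' : 0 ≤ C')
    (hF' : ∀ p ∈ W, ∀ v : TangentSpace 𝓘(ℝ, E) p, ∀ j,
      ‖(mfderiv 𝓘(ℝ, E) 𝓘(ℝ, ι → ℂ) F p v : ι → ℂ) j / F p j‖ ≤ C' * ‖v‖)
    {γ : ℝ → M} (hγ : ContMDiffOn 𝓘(ℝ, ℝ) 𝓘(ℝ, E) 1 γ (Icc 0 1)) (hγW : ∀ t ∈ Icc (0 : ℝ) 1, γ t ∈ W)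
    (j : ι) {t : ℝ} (ht : t ∈ Icc (0 : ℝ) 1) :
    ENNReal.ofReal |Real.log ‖F (γ t) j‖ - Real.log ‖F (γ 0) j‖| ≤
      ENNReal.ofReal C' * pathELength 𝓘(ℝ, E) γ 0 1 := by
  set u : M → ℝ := fun p => Real.log ‖F p j‖ with hu
  let Du : M → E →L[ℝ] ℝ := fun p => mfderiv 𝓘(ℝ, E) 𝓘(ℝ, ℝ) u p
  have hud : ∀ p ∈ W, ContMDiffAt 𝓘(ℝ, E) 𝓘(ℝ, ℝ) 1 u p ∧
      ∀ v : TangentSpace 𝓘(ℝ, E) p, ‖Du p v‖ ≤ C' * ‖v‖ := by
    intro p hp
    obtain ⟨h1, L, hL, hLv⟩ := log_norm_deriv (hFr.ne_zero p hp j)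
    have hFp : ContMDiffAt 𝓘(ℝ, E) 𝓘(ℝ, ι → ℂ) 1 F p := hFr.smooth.contMDiffAt (hW.mem_nhds hp)
    have hFd : MDifferentiableAt 𝓘(ℝ, E) 𝓘(ℝ, ι → ℂ) F p := hFp.mdifferentiableAt (by simp)
    constructor
    · have h2 : ContDiffAt ℝ 1 (fun w : ι → ℂ => Real.log ‖w j‖) (F p) :=
        h1.comp (F p) (contDiff_apply ℝ ℂ j).contDiffAt
      exact h2.contMDiffAt.comp p hFp
    · intro v
      have h2 : HasFDerivAt (fun w : ι → ℂ => Real.log ‖w j‖)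
          (L.comp (ContinuousLinearMap.proj j : (ι → ℂ) →L[ℝ] ℂ)) (F p) := by
        have h3 : HasFDerivAt (fun w : ι → ℂ => w j)
          (ContinuousLinearMap.proj j : (ι → ℂ) →L[ℝ] ℂ) (F p) :=
          (ContinuousLinearMap.proj j : (ι → ℂ) →L[ℝ] ℂ).hasFDerivAt
        exact HasFDerivAt.comp (g := fun w : ℂ => Real.log ‖w‖) (F p) hL h3
      have h4 := (h2.hasMFDerivAt.comp p hFd.hasMFDerivAt).mfderiv
      have h5 : Du p v = L ((mfderiv 𝓘(ℝ, E) 𝓘(ℝ, ι → ℂ) F p v : ι → ℂ) j) := by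
        have : mfderiv 𝓘(ℝ, E) 𝓘(ℝ, ℝ) u p = _ := h4
        change (mfderiv 𝓘(ℝ, E) 𝓘(ℝ, ℝ) u p : E →L[ℝ] ℝ) v = _
        rw [this]
        rfl
      rw [h5, Real.norm_eq_abs]
      exact (hLv _).trans (hF' p hp v j)
  set h : ℝ → ℝ := u ∘ γ with hh
  have hs : ContMDiffOn 𝓘(ℝ, ℝ) 𝓘(ℝ, ℝ) 1 h (Icc 0 1) := fun s hs' =>
    ContMDiffAt.comp_contMDiffWithinAt s (hud _ (hγW s hs')).1 (hγ s hs')
  have h1 : riemannianEDist 𝓘(ℝ, ℝ) (h 0) (h t) ≤ pathELength 𝓘(ℝ, ℝ) h 0 t :=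
    riemannianEDist_le_pathELength (hs.mono (Icc_subset_Icc_right ht.2)) rfl rfl ht.1
  have h2 : pathELength 𝓘(ℝ, ℝ) h 0 t ≤ pathELength 𝓘(ℝ, ℝ) h 0 1 := pathELength_mono le_rfl ht.2
  have h3 : pathELength 𝓘(ℝ, ℝ) h 0 1 ≤ ENNReal.ofReal C' * pathELength 𝓘(ℝ, E) γ 0 1 := by
    rw [pathELength_eq_lintegral_mfderivWithin_Icc, pathELength_eq_lintegral_mfderivWithin_Icc,
      ← MeasureTheory.lintegral_const_mul' _ _ ENNReal.ofReal_ne_top]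
    refine MeasureTheory.setLIntegral_mono' measurableSet_Icc fun s hs' => ?_
    have h4 : mfderivWithin 𝓘(ℝ, ℝ) 𝓘(ℝ, ℝ) (u ∘ γ) (Icc 0 1) s =
        (mfderiv 𝓘(ℝ, E) 𝓘(ℝ, ℝ) u (γ s)).comp (mfderivWithin 𝓘(ℝ, ℝ) 𝓘(ℝ, E) γ (Icc 0 1) s) := by
      apply mfderiv_comp_mfderivWithin
      · exact (hud _ (hγW s hs')).1.mdifferentiableAt (by simp)
      · exact hγ.mdifferentiableOn (by simp) s hs'
      · rw [uniqueMDiffWithinAt_iff_uniqueDiffWithinAt]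
        exact uniqueDiffOn_Icc zero_lt_one s hs'
    rw [hh, h4]
    have h5 := (hud _ (hγW s hs')).2 (mfderivWithin 𝓘(ℝ, ℝ) 𝓘(ℝ, E) γ (Icc 0 1) s 1)
    have h6 : ‖Du (γ s) (mfderivWithin 𝓘(ℝ, ℝ) 𝓘(ℝ, E) γ (Icc 0 1) s 1)‖ₑ ≤
        ENNReal.ofReal C' * ‖(mfderivWithin 𝓘(ℝ, ℝ) 𝓘(ℝ, E) γ (Icc 0 1) s 1 :
          TangentSpace 𝓘(ℝ, E) (γ s))‖ₑ := by
      rw [← ofReal_norm, ← ofReal_norm, ← ENNReal.ofReal_mul hC']
      exact ENNReal.ofReal_le_ofReal h5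
    rw [enorm_tangentSpace_vectorSpace]
    exact h6
  have h7 := (h1.trans h2).trans h3
  rw [← IsRiemannianManifold.out (I := 𝓘(ℝ, ℝ)), edist_dist, Real.dist_eq, abs_sub_comm] at h7
  exact h7

/-- **the image of the strip contains a ball** -/
theorem TorusStrip.ball_subset_image {F : M → ι → ℂ} {W : Set M} {C C' : ℝ}
    (hFr : FrameBd (E := E) F W C) (hW : IsOpen W) (hC' : 0 ≤ C')
    (hF' : ∀ p ∈ W, ∀ v : TangentSpace 𝓘(ℝ, E) p, ∀ j,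
      ‖(mfderiv 𝓘(ℝ, E) 𝓘(ℝ, ι → ℂ) F p v : ι → ℂ) j / F p j‖ ≤ C' * ‖v‖) {d : ℕ} {y : M}
    {ζ0 : ι → ℂ} {r : ℝ} {Lam : AddSubgroup (ι → ℂ)} {Φ : (ι → ℂ) → M}
    (h : TorusStrip F W C d y ζ0 r Lam Φ) (hr : 0 < r) {ρ : ℝ} (hρ : C' * ρ ≤ r)
    (hball : ball y ρ ⊆ W) : ball y ρ ⊆ Φ '' strip ζ0 r := by
  intro p hp
  have hρ0 : 0 < ρ := dist_nonneg.trans_lt hp
  have h1 : riemannianEDist 𝓘(ℝ, E) y p < ENNReal.ofReal ρ := by
    rw [← IsRiemannianManifold.out (I := 𝓘(ℝ, E)), edist_dist, dist_comm]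
    exact (ENNReal.ofReal_lt_ofReal_iff hρ0).2 hp
  obtain ⟨γ, h0, h1', hs, hl⟩ := exists_lt_of_riemannianEDist_lt h1
  have hγb : ∀ t ∈ Icc (0 : ℝ) 1, γ t ∈ ball y ρ := by
    intro t ht
    have h2 : riemannianEDist 𝓘(ℝ, E) y (γ t) ≤ pathELength 𝓘(ℝ, E) γ 0 1 :=
      (riemannianEDist_le_pathELength (hs.mono (Icc_subset_Icc_right ht.2)) h0 rfl ht.1).trans
        (pathELength_mono le_rfl ht.2)
    have h3 := h2.trans_lt hl
    rw [← IsRiemannianManifold.out (I := 𝓘(ℝ, E)), edist_dist, dist_comm] at h3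
    exact (ENNReal.ofReal_lt_ofReal_iff hρ0).1 h3
  have hγW : ∀ t ∈ Icc (0 : ℝ) 1, γ t ∈ W := fun t ht => hball (hγb t ht)
  have hζ0 : ζ0 ∈ strip ζ0 r := fun j => by rw [sub_self, abs_zero]; exact hr
  have hFy : ∀ j, Real.log ‖F y j‖ = (ζ0 j).re := by
    intro j
    have := h.lift ζ0 hζ0
    rw [h.base] at this
    rw [this]
    unfold expPi
    rw [Complex.norm_exp, Real.log_exp]
  have hV : IsPreconnected (γ '' Icc 0 1) := isPreconnected_Icc.image _ hs.continuousOn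
  refine h.image (γ '' Icc 0 1) ?_ hV ⟨0, ⟨le_rfl, zero_le_one⟩, h0⟩ ?_
    ⟨1, ⟨zero_le_one, le_rfl⟩, h1'⟩
  · rintro _ ⟨t, ht, rfl⟩
    exact hγW t ht
  · rintro _ ⟨t, ht, rfl⟩ j
    refine ⟨hFr.ne_zero _ (hγW t ht) j, ?_⟩
    have h4 := log_norm_path hFr hW hC' hF' hs hγW j ht
    rw [h0, hFy] at h4
    rcases hC'.eq_or_lt with hz | hpos
    · rw [← hz, ENNReal.ofReal_zero, zero_mul] at h4
      have h5 : |Real.log ‖F (γ t) j‖ - (ζ0 j).re| ≤ 0 := by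
        rwa [nonpos_iff_eq_zero, ENNReal.ofReal_eq_zero] at h4
      exact h5.trans_lt hr
    · have h5 : ENNReal.ofReal C' * pathELength 𝓘(ℝ, E) γ 0 1 <
          ENNReal.ofReal C' * ENNReal.ofReal ρ :=
        ENNReal.mul_lt_mul_right (by simpa using hpos) ENNReal.ofReal_ne_top hl
      have h6 := h4.trans_lt h5
      rw [← ENNReal.ofReal_mul hC', ENNReal.ofReal_lt_ofReal_iff (by positivity)] at h6
      exact h6.trans_le hρ

end Crest.Agent.R281.Tor_922
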