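import Crest.Agent.R273.RMan4_798
import Crest.Agent.R281.Ins2_615
import Crest.Agent.R281.TorF_922

/-!
# R281 (S0424), S-FRAME (helper922), file 1: the frame bound on `(ofKah K).M` from chart data

`A : Atl n M`, `K : Kah A`, `X = (ofKah K).M` (798).
* `HolW A W F`   : `F` is holomorphic on `W` in the charts;
* `dlg A F i z v`: `dlog F_j (v)`, read in the chart `i` at `z`;
* `norm_sq_idx`  : `‖v‖² = g(v, v)` in the preferred chart;
* `mfderiv_idx`  : `mfderiv F x v` in the preferred chart;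
* `frameBd`      : `g(v,v) ≤ (C max_j |dlog F_j v|)²` in all charts ⟹ `FrameBd F W C`;
* `up_bound`     : `|dlog F_j v|² ≤ C'² g(v,v)` in all charts ⟹ the hypothesis of `ball_subset_image`.
-/

set_option autoImplicit false
set_option linter.unusedSectionVars false

open Set Filter Topology Complex Metric Manifold Bundle
open scoped ContDiff Matrix ComplexConjugate Manifold Bundle

namespace Crest.Agent.R281.Fra_922

open Crest.Agent.R275.Geo
open Crest.Agent.R273.Defs_333
open Crest.Agent.R273.Kah_333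
open Crest.Agent.R273.Ric_798 Crest.Agent.R273.RMan_798 Crest.Agent.R273.RMan4_798
open Crest.Agent.R281.Tor_922

noncomputable section

variable {n : ℕ} {M : Type} [TopologicalSpace M] {A : Atl n M}

/-- `F` is holomorphic on `W` in the charts of `A` -/
def HolW (A : Atl n M) (W : Set M) {V' : Type*} [NormedAddCommGroup V'] [NormedSpace ℂ V']
    (F : M → V') : Prop :=
  ∀ i, DifferentiableOn ℂ (fun z => F ((A.e i).symm z)) {z | z ∈ (A.e i).target ∧
    (A.e i).symm z ∈ W}

theorem isOpen_chart (A : Atl n M) {W : Set M} (hW : IsOpen W) (i : A.ι) :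
    IsOpen {z | z ∈ (A.e i).target ∧ (A.e i).symm z ∈ W} :=
  (A.e i).isOpen_inter_preimage_symm hW

/-- the logarithmic differential of `F`, in the chart `i`, at `z`, applied to `v` -/
def dlg {m : ℕ} (A : Atl n M) (F : M → Fin m → ℂ) (i : A.ι) (z v : Cn n) : Fin m → ℂ :=
  fun j => (fderiv ℂ (fun w => F ((A.e i).symm w)) z v) j / F ((A.e i).symm z) j

/-- a function on `M` seen on the Riemannian manifold `(ofKah K).M` -/
def onX (K : Kah A) {β : Type*} (F : M → β) : (ofKah K).M → β := F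

theorem onX_apply (K : Kah A) {β : Type*} (F : M → β) (x : M) : onX K F x = F x := rfl

/-- norm of a tangent vector in the preferred chart -/
theorem norm_sq_idx (K : Kah A) (x : (ofKah K).M) (v : TangentSpace (𝓡 (2 * n)) x) :
    ‖v‖ ^ 2 = G (KK K ((ofKah K).idx x)) (A.e ((ofKah K).idx x) x) ((eR n).symm v)
      ((eR n).symm v) := by
  set i := (ofKah K).idx x with hi
  have h1 : ‖v‖ ^ 2 = inner ℝ v v := (real_inner_self_eq_norm_sq v).symm
  have hxs : x ∈ (A.e i).source := by
    have := (ofKah K).idx_mem x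
    have h2 : ((ofKah K).ch i).source = (A.e i).source := cR_source i
    rw [← h2]
    exact this
  have h0 : (eR n).symm (cR A i x) = A.e i x := (eR n).symm_apply_apply (A.e i x)
  rw [h1, RAtl.inner_M]
  have key : ∀ w : EE (2 * n), (ofKah K).inn x w w =
      G (KK K i) (A.e i x) ((eR n).symm w) ((eR n).symm w) := by
    intro w
    have h3 : (ofKah K).inn x w w = ∑ a, ∑ b, hm (eR n) (KK K i) (cR A i x) a b * w a * w b :=
      (ofKah K).bil_apply i _ _ _
    rw [h3, sum_hm (eR n) (by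
      rw [h0]
      exact ((kd K i).pd _ ((A.e i).map_source hxs)).1), h0]
  exact key v

variable {m : ℕ}

/-- smoothness and derivative of a chartwise holomorphic map, in the preferred chart -/
theorem contMDiffAt_idx (K : Kah A) {W : Set M} (hW : IsOpen W) {F : M → Fin m → ℂ}
    (hF : HolW A W F) {x : (ofKah K).M} (hx : (x : M) ∈ W) :
    ContMDiffAt (𝓡 (2 * n)) 𝓘(ℝ, Fin m → ℂ) 1 (onX K F) x ∧
    ∀ v : EE (2 * n), (mfderiv (𝓡 (2 * n)) 𝓘(ℝ, Fin m → ℂ) (onX K F) x v :
      Fin m → ℂ) = fderiv ℂ (fun w => F ((A.e ((ofKah K).idx x)).symm w))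
        (A.e ((ofKah K).idx x) x) ((eR n).symm v) := by
  set i := (ofKah K).idx x with hi
  have hxi : x ∈ ((ofKah K).ch i).source := (ofKah K).idx_mem x
  have hxs : x ∈ (A.e i).source := by
    have h2 : ((ofKah K).ch i).source = (A.e i).source := cR_source i
    rw [← h2]
    exact hxi
  have hz : A.e i x ∈ (A.e i).target := (A.e i).map_source hxs
  have hmem : A.e i x ∈ {z | z ∈ (A.e i).target ∧ (A.e i).symm z ∈ W} :=
    ⟨hz, by rw [(A.e i).left_inv hxs]; exact hx⟩
  have hO := isOpen_chart A hW i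
  have hd : DifferentiableAt ℂ (fun z => F ((A.e i).symm z)) (A.e i x) :=
    (hF i).differentiableAt (hO.mem_nhds hmem)
  have hcd : ContDiffAt ℝ 1 (fun z => F ((A.e i).symm z)) (A.e i x) := by
    have h1 := ((Crest.Agent.R266.SCV.contDiffOn_omega_of_differentiableOn hO
      (hF i)).restrict_scalars ℝ).contDiffAt (hO.mem_nhds hmem)
    exact h1.of_le le_top
  have h0 : (eR n).symm ((ofKah K).ch i x) = A.e i x :=
    (eR n).symm_apply_apply (A.e i x)
  have hcd2 : ContDiffAt ℝ 1 (fun y : EE (2 * n) => F ((A.e i).symm ((eR n).symm y)))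
      ((ofKah K).ch i x) := by
    have h1 : ContDiffAt ℝ 1 (fun z => F ((A.e i).symm z)) ((eR n).symm ((ofKah K).ch i x)) := by
      rw [h0]; exact hcd
    exact h1.comp ((ofKah K).ch i x) (eR n).symm.contDiff.contDiffAt
  have hM : ContMDiffAt (𝓡 (2 * n)) 𝓘(ℝ, Fin m → ℂ) 1 (onX K F) x :=
    (Crest.Agent.R281.Ins_615.contMDiffAt_iff (R := ofKah K) (by simp) hxi).2 hcd2
  refine ⟨hM, fun v => ?_⟩
  have hmf := (hM.mdifferentiableAt (by simp)).mfderiv
  have h1 : HasFDerivAt (fun y : EE (2 * n) => F ((A.e i).symm ((eR n).symm y)))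
      (((fderiv ℂ (fun z => F ((A.e i).symm z)) (A.e i x)).restrictScalars ℝ).comp
        ((eR n).symm : EE (2 * n) →L[ℝ] Cn n)) ((ofKah K).ch i x) := by
    have h2 : HasFDerivAt (fun z => F ((A.e i).symm z))
        ((fderiv ℂ (fun z => F ((A.e i).symm z)) (A.e i x)).restrictScalars ℝ)
        ((eR n).symm ((ofKah K).ch i x)) := by
      rw [h0]
      exact hd.hasFDerivAt.restrictScalars ℝ
    exact h2.comp ((ofKah K).ch i x) ((eR n).symm : EE (2 * n) →L[ℝ] Cn n).hasFDerivAt
  have h3 : (mfderiv (𝓡 (2 * n)) 𝓘(ℝ, Fin m → ℂ) (onX K F) x :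
      EE (2 * n) →L[ℝ] (Fin m → ℂ)) =
      fderiv ℝ (fun y : EE (2 * n) => F ((A.e i).symm ((eR n).symm y))) ((ofKah K).ch i x) := by
    rw [hmf]
    simp only [writtenInExtChartAt, extChartAt_model_space_eq_id, modelWithCornersSelf_coe,
      range_id, fderivWithin_univ]
    rfl
  rw [h3, h1.fderiv]
  rfl

/-- **the frame bound from the charts** -/
theorem frameBd [T2Space M] [ConnectedSpace M] (K : Kah A) {W : Set M} (hW : IsOpen W)
    {F : M → Fin m → ℂ} (hF : HolW A W F) (hne : ∀ p ∈ W, ∀ j, F p j ≠ 0) {C : ℝ} (hC : 0 ≤ C)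
    (hb : ∀ i, ∀ z ∈ (A.e i).target, (A.e i).symm z ∈ W → ∀ v : Cn n,
      G (KK K i) z v v ≤ (C * ‖dlg A F i z v‖) ^ 2) :
    FrameBd (E := EE (2 * n)) (onX K F) (W : Set (ofKah K).M) C where
  smooth := fun x hx => (contMDiffAt_idx K hW hF hx).1.contMDiffWithinAt
  ne_zero := hne
  bound := by
    intro x hx v
    set i := (ofKah K).idx x with hi
    have hxs : x ∈ (A.e i).source := by
      have h2 : ((ofKah K).ch i).source = (A.e i).source := cR_source i
      rw [← h2]
      exact (ofKah K).idx_mem x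
    have hz : A.e i x ∈ (A.e i).target := (A.e i).map_source hxs
    have hsx : (A.e i).symm (A.e i x) = x := (A.e i).left_inv hxs
    have h1 := norm_sq_idx K x v
    have h2 := hb i (A.e i x) hz (by rw [hsx]; exact hx) ((eR n).symm v)
    rw [← h1] at h2
    have h3 : dlg A F i (A.e i x) ((eR n).symm v) = fun j =>
        (mfderiv (𝓡 (2 * n)) 𝓘(ℝ, Fin m → ℂ) (onX K F) x v :
          Fin m → ℂ) j / F x j := by
      funext j
      rw [(contMDiffAt_idx K hW hF hx).2 v]
      unfold dlg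
      rw [hsx]
    rw [h3] at h2
    exact (pow_le_pow_iff_left₀ (norm_nonneg _) (by positivity) two_ne_zero).1 h2

/-- the reverse bound -/
theorem up_bound [T2Space M] [ConnectedSpace M] (K : Kah A) {W : Set M} (hW : IsOpen W)
    {F : M → Fin m → ℂ} (hF : HolW A W F) {C' : ℝ} (hC' : 0 ≤ C')
    (hb : ∀ i, ∀ z ∈ (A.e i).target, (A.e i).symm z ∈ W → ∀ v : Cn n, ∀ j,
      ‖dlg A F i z v j‖ ^ 2 ≤ C' ^ 2 * G (KK K i) z v v) (x : (ofKah K).M) (hx : (x : M) ∈ W)
    (v : TangentSpace (𝓡 (2 * n)) x) (j : Fin m) :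
    ‖(mfderiv (𝓡 (2 * n)) 𝓘(ℝ, Fin m → ℂ) (onX K F) x v :
      Fin m → ℂ) j / F x j‖ ≤ C' * ‖v‖ := by
  set i := (ofKah K).idx x with hi
  have hxs : x ∈ (A.e i).source := by
    have h2 : ((ofKah K).ch i).source = (A.e i).source := cR_source i
    rw [← h2]
    exact (ofKah K).idx_mem x
  have hz : A.e i x ∈ (A.e i).target := (A.e i).map_source hxs
  have hsx : (A.e i).symm (A.e i x) = x := (A.e i).left_inv hxs
  have h1 := norm_sq_idx K x v
  have h2 := hb i (A.e i x) hz (by rw [hsx]; exact hx) ((eR n).symm v) j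
  rw [← h1, ← mul_pow] at h2
  have h3 : dlg A F i (A.e i x) ((eR n).symm v) j =
      (mfderiv (𝓡 (2 * n)) 𝓘(ℝ, Fin m → ℂ) (onX K F) x v :
        Fin m → ℂ) j / F x j := by
    rw [(contMDiffAt_idx K hW hF hx).2 v]
    unfold dlg
    rw [hsx]
  rw [h3] at h2
  exact (pow_le_pow_iff_left₀ (norm_nonneg _) (by positivity) two_ne_zero).1 h2

theorem finrank_EE (n : ℕ) : Module.finrank ℝ (EE (2 * n)) = 2 * Fintype.card (Fin n) := by
  rw [finrank_euclideanSpace_fin, Fintype.card_fin]

end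

end Crest.Agent.R281.Fra_922
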