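/-
R281 / S-DIAM-INST (helper612), part 8: the length of the inverse branches of `log F` in the
metric of `(ofKah K).M`.
-/
import Crest.Agent.R281.Dh2_612
import Crest.Agent.R281.Fra1_922
import Crest.Agent.R273.C2a_289

set_option autoImplicit false
set_option linter.unusedSectionVars false
set_option linter.ambiguousOpen false
set_option maxSynthPendingDepth 3

namespace Crest.Agent.R281.Dh3_612

open Set Filter Complex MeasureTheory Metric Matrix
open scoped _root_.Topology ContDiff Matrix ComplexConjugate ComplexOrder ENNReal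
open scoped Manifold
open Crest.Agent.R275.Geo Crest.Agent.R275.Core144
open Crest.Agent.R273.Defs_333 Crest.Agent.R273.HM_333 Crest.Agent.R273.Kah_333
open Crest.Agent.R273.Vol_333 Crest.Agent.R273.Vm_333 Crest.Agent.R273.FIb0_597
open Crest.Agent.R273.SteinC_794 Crest.Agent.R273.SteinD_794
open Crest.Agent.R273.Ric_798 Crest.Agent.R273.RMan_798 Crest.Agent.R273.RMan4_798
open Crest.Agent.R281.Dg3_612 Crest.Agent.R281.Dg4_612 Crest.Agent.R281.Dg5_612
open Crest.Agent.R281.SIn_14 Crest.Agent.R281.Per_368 Crest.Agent.R281.Dh1_612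
open Crest.Agent.R281.Fra_922
open Crest.Agent.R281.Df3_612 (expPi continuous_expPi differentiable_expPi)

noncomputable section

variable {N : ℕ} {M : Type} [TopologicalSpace M] {A : Atl N M} {Lb : LB A}
  {s : Fin (N + 1) → A.ι → M → ℂ}

/-- `∑_j η_j ⊗ η̄_j` for the square matrix `E` with rows `η_j` -/
def Xe (E : Matrix (Fin N) (Fin N) ℂ) : Matrix (Fin N) (Fin N) ℂ := Eᵀ * E.map conj

theorem bf_Xe (E : Matrix (Fin N) (Fin N) ℂ) (v : Fin N → ℂ) :
    Crest.Agent.R273.C2a_289.bf (Xe E) v v = ((∑ j, ‖(E *ᵥ v) j‖ ^ 2 : ℝ) : ℂ) := by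
  unfold Crest.Agent.R273.C2a_289.bf Xe
  rw [← Matrix.mulVec_mulVec, Matrix.dotProduct_mulVec, Matrix.vecMul_transpose]
  have h1 : E.map conj *ᵥ star v = star (E *ᵥ v) := by
    funext j
    simp [Matrix.mulVec, dotProduct]
  rw [h1]
  simp only [dotProduct, Pi.star_apply, Complex.ofReal_sum]
  refine Finset.sum_congr rfl fun j _ => ?_
  rw [← Complex.normSq_eq_norm_sq, ← Complex.mul_conj]
  rfl

theorem Xe_posDef {E : Matrix (Fin N) (Fin N) ℂ} (hE : E.det ≠ 0) : (Xe E).PosDef := by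
  have h1 : Xe E = (E.map conj)ᴴ * E.map conj := by
    unfold Xe
    congr 1
    ext i j
    simp
  rw [h1]
  refine Matrix.PosDef.conjTranspose_mul_self _ ?_
  refine Matrix.mulVec_injective_of_isUnit ?_
  rw [Matrix.isUnit_iff_isUnit_det]
  have h2 : (E.map conj).det = conj E.det := by
    rw [← RingHom.mapMatrix_apply, ← RingHom.map_det]
  rw [h2, isUnit_iff_ne_zero]
  simpa using hE

/-- `tr_E g = ∑` of the squared lengths of the dual frame -/
def tz (E g : Matrix (Fin N) (Fin N) ℂ) : ℝ := ((Xe E)⁻¹ * g).trace.re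

theorem tz_nonneg {E g : Matrix (Fin N) (Fin N) ℂ} (hE : E.det ≠ 0) (hg : g.PosDef) :
    0 ≤ tz E g := by
  have h1 := Crest.Agent.R273.C2a_289.trace_mul_nonneg (Xe_posDef hE).inv.posSemidef
    hg.posSemidef
  exact (Complex.le_def.1 h1).1

/-- `|v|_g² ≤ tr_E(g) ∑ |η_j(v)|²` -/
theorem form_le_tz {E g : Matrix (Fin N) (Fin N) ℂ} (hE : E.det ≠ 0) (hg : g.PosDef)
    (v : Fin N → ℂ) :
    (star v ⬝ᵥ (gᵀ *ᵥ v)).re ≤ tz E g * ∑ j, ‖(E *ᵥ v) j‖ ^ 2 := by
  have h0 : star v ⬝ᵥ (gᵀ *ᵥ v) = Crest.Agent.R273.C2a_289.bf g v v := by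
    unfold Crest.Agent.R273.C2a_289.bf
    rw [Matrix.mulVec_transpose, Matrix.dotProduct_mulVec, dotProduct_comm]
  rw [h0]
  by_cases hv : v = 0
  · subst hv
    simp [Crest.Agent.R273.C2a_289.bf]
  have h1 := Crest.Agent.R273.C2a_289.bf_le_trace (Xe_posDef hE) hg.posSemidef hv
  rw [bf_Xe] at h1
  have h2 := (Complex.le_def.1 h1).1
  rwa [Complex.re_mul_ofReal] at h2

theorem sum_sq_le (w : Fin N → ℂ) : ∑ j, ‖w j‖ ^ 2 ≤ N * ‖w‖ ^ 2 := by
  calc ∑ j, ‖w j‖ ^ 2 ≤ ∑ _j : Fin N, ‖w‖ ^ 2 := by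
        refine Finset.sum_le_sum fun j _ => ?_
        have := norm_le_pi_norm w j
        gcongr
    _ = N * ‖w‖ ^ 2 := by simp

/-- transformation -/
theorem tz_tr {E g J : Matrix (Fin N) (Fin N) ℂ} (hJ : J.det ≠ 0) :
    tz (E * J) (Jᵀ * g * J.map conj) = tz E g := by
  unfold tz Xe
  have hJu : IsUnit J.det := isUnit_iff_ne_zero.2 hJ
  have hJc : IsUnit (J.map conj).det := by
    have h2 : (J.map conj).det = conj J.det := by
      rw [← RingHom.mapMatrix_apply, ← RingHom.map_det]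
    rw [h2, isUnit_iff_ne_zero]
    simpa using hJ
  have hJt : IsUnit (Jᵀ).det := by rw [Matrix.det_transpose]; exact hJu
  have h1 : (E * J)ᵀ * (E * J).map conj = Jᵀ * (Eᵀ * E.map conj) * J.map conj := by
    rw [Matrix.transpose_mul, Matrix.map_mul]
    simp only [Matrix.mul_assoc]
  rw [h1, Matrix.mul_inv_rev, Matrix.mul_inv_rev]
  have h2 : (J.map conj)⁻¹ * ((Eᵀ * E.map conj)⁻¹ * (Jᵀ)⁻¹) * (Jᵀ * g * J.map conj) =
      (J.map conj)⁻¹ * ((Eᵀ * E.map conj)⁻¹ * g * J.map conj) := by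
    calc _ = (J.map conj)⁻¹ * ((Eᵀ * E.map conj)⁻¹ * (((Jᵀ)⁻¹ * Jᵀ) * (g * J.map conj))) := by
          simp only [Matrix.mul_assoc]
      _ = _ := by
          rw [Matrix.nonsing_inv_mul _ hJt, Matrix.one_mul]
          simp only [Matrix.mul_assoc]
  rw [h2, Matrix.trace_mul_comm, Matrix.mul_assoc, Matrix.mul_nonsing_inv _ hJc, Matrix.mul_one]

/-- the local Lipschitz constant of the inverse branches -/
def sg (K : Kah A) (s : Fin (N + 1) → A.ι → M → ℂ) (x : M) : ℝ :=
  Real.sqrt (N * tz (eta s (ch A x) x) (K.g (ch A x) x))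

theorem sg_nonneg (K : Kah A) (x : M) : 0 ≤ sg K s x := Real.sqrt_nonneg _

theorem tz_chart (K : Kah A) (hs : ∀ j, IsHS Lb univ (s j)) {i : A.ι} {x : M}
    (hx : x ∈ (A.e i).source) (hR : x ∈ Reg K s) :
    tz (eta s (ch A x) x) (K.g (ch A x) x) = tz (eta s i x) (K.g i x) := by
  have hc := mem_ch A x
  rw [eta_tr hs ⟨hx, hc⟩ hR.1, K.tr i (ch A x) x ⟨hx, hc⟩,
    tz_tr (Jm_det_ne ⟨hx, hc⟩)]

theorem continuousAt_tz {E g : M → Matrix (Fin N) (Fin N) ℂ} {x : M}
    (hE : ContinuousAt E x) (hg : ContinuousAt g x) (h0 : (E x).det ≠ 0) :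
    ContinuousAt (fun y => tz (E y) (g y)) x := by
  have hX : ContinuousAt (fun y => Xe (E y)) x := by
    have h1 : Continuous fun B : Matrix (Fin N) (Fin N) ℂ => Xe B := by
      unfold Xe
      exact (continuous_id.matrix_transpose).matrix_mul
        (continuous_id.matrix_map Complex.continuous_conj)
    exact (h1.tendsto (E x)).comp hE
  have hX0 : (Xe (E x)).det ≠ 0 := (Xe_posDef h0).det_pos.ne'
  have hadj : ContinuousAt (fun y => ((Xe (E y)).adjugate * g y).trace) x := by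
    have a1 : ContinuousAt (fun y => (Xe (E y)).adjugate) x := by
      have b1 : Continuous fun B : Matrix (Fin N) (Fin N) ℂ => B.adjugate :=
        continuous_id.matrix_adjugate
      exact (b1.tendsto (Xe (E x))).comp hX
    have a2 : ∀ i j, ContinuousAt (fun y => (Xe (E y)).adjugate i j) x := fun i j =>
      (continuousAt_pi.1 ((continuousAt_pi.1 a1) i)) j
    have a3 : ∀ i j, ContinuousAt (fun y => g y i j) x := fun i j =>
      (continuousAt_pi.1 ((continuousAt_pi.1 hg) i)) j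
    simp only [Matrix.trace, Matrix.diag, Matrix.mul_apply]
    exact tendsto_finsetSum _ fun i _ => tendsto_finsetSum _ fun j _ => (a2 i j).mul (a3 j i)
  have hdet : ContinuousAt (fun y => (Xe (E y)).det) x := by
    have h1 : Continuous fun B : Matrix (Fin N) (Fin N) ℂ => B.det := continuous_id.matrix_det
    exact (h1.tendsto (Xe (E x))).comp hX
  have h2 : ContinuousAt (fun y => ((Xe (E y)).det⁻¹ * ((Xe (E y)).adjugate * g y).trace).re) x :=
    Complex.continuous_re.continuousAt.comp ((hdet.inv₀ hX0).mul hadj)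
  refine h2.congr (Filter.Eventually.of_forall fun y => ?_)
  show ((Xe (E y)).det⁻¹ * ((Xe (E y)).adjugate * g y).trace).re = ((Xe (E y))⁻¹ * g y).trace.re
  rw [Matrix.inv_def, Ring.inverse_eq_inv', Matrix.smul_mul, Matrix.trace_smul, smul_eq_mul]

theorem continuousOn_sg' (K : Kah A) (hs : ∀ j, IsHS Lb univ (s j)) :
    ContinuousOn (sg K s) (Reg K s) := by
  intro x hR
  refine ContinuousAt.continuousWithinAt ?_
  have hc := mem_ch A x
  have h1 : ContinuousAt (fun y => tz (eta s (ch A x) y) (K.g (ch A x) y)) x := by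
    refine continuousAt_tz ?_ ?_ ((Jsq_ne_iff K hs hc hR.1).1 hR.2)
    · exact continuousAt_pi.2 fun j => continuousAt_pi.2 fun a => continuousAt_eta hs hc hR.1 j a
    · exact continuousAt_pi.2 fun j => continuousAt_pi.2 fun a =>
        continuousAt_of_smAt (K.sm _ j a) hc
  have h2 : ContinuousAt (fun y => Real.sqrt (N * tz (eta s (ch A x) y) (K.g (ch A x) y))) x :=
    (continuousAt_const.mul h1).sqrt
  refine h2.congr ?_
  filter_upwards [(A.e (ch A x)).open_source.mem_nhds hc, (isOpen_Reg K hs).mem_nhds hR] with y hy hn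
  unfold sg
  rw [tz_chart K hs hy hn]

/-- `dlog F` is the matrix `eta` -/
theorem dlg_eta (hs : ∀ j, IsHS Lb univ (s j)) {i : A.ι} {z : Cn N} (hz : z ∈ (A.e i).target)
    (h : NZ s ((A.e i).symm z)) (v : Cn N) :
    dlg A (quo s) i z v = eta s i ((A.e i).symm z) *ᵥ v.ofLp := by
  have hx := (A.e i).map_target hz
  funext j
  unfold dlg
  have h1 := fderiv_rc' (hs 0) (fun j => hs j.succ) hx (h 0) v
  rw [(A.e i).right_inv hz] at h1
  have h2 : (fderiv ℂ (fun w => quo s ((A.e i).symm w)) z v) j =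
      (Df (s 0) (tl s) i ((A.e i).symm z) *ᵥ v.ofLp) j := congrFun h1 j
  rw [h2, eta_eq hs hx h, ← Matrix.mulVec_mulVec, Matrix.mulVec_diagonal, div_eq_inv_mul]

/-- **length of the inverse branches** -/
theorem lenAt [T2Space M] [ConnectedSpace M] [CompactSpace M] (K : Kah A)
    (hs : ∀ j, IsHS Lb univ (s j)) {p : M} (hp : p ∈ Reg K s) :
    Df3_612.LenAt (X := (ofKah K).M) (onX K (quo s)) (onX K (sg K s)) p := by
  intro ζ0 hζ0 ε hε
  set W : Set M := Reg K s ∩ {x | sg K s x < sg K s p + ε} with hWdef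
  have hW : IsOpen W := by
    have := (continuousOn_sg' K hs).isOpen_inter_preimage (isOpen_Reg K hs)
      (isOpen_Iio (a := sg K s p + ε))
    exact this
  have hpW : p ∈ W := ⟨hp, by show sg K s p < sg K s p + ε; linarith⟩
  have hC : 0 ≤ sg K s p + ε := by have := sg_nonneg (s := s) K p; linarith
  have hHol : HolW A W (quo s) := by
    intro i
    refine differentiableOn_pi.2 fun j => ?_
    exact DifferentiableOn.mono (qt_hol (hs j.succ) (hs 0) i) fun z hz => ⟨hz.1, hz.2.1.1 0⟩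
  have hne : ∀ q ∈ W, ∀ j, quo s q j ≠ 0 := fun q hq j => quo_ne hs hq.1.1 j
  have hFr : Crest.Agent.R281.Tor_922.FrameBd (E := EE (2 * N)) (onX K (quo s))
      (W : Set (ofKah K).M) (sg K s p + ε) := by
    refine frameBd K hW hHol hne hC fun i z hz hzW v => ?_
    have hx := (A.e i).map_target hz
    have hdet := (Jsq_ne_iff K hs hx hzW.1.1).1 hzW.1.2
    have h1 := form_le_tz hdet (K.pos i _ hx) v.ofLp
    have h2 : G (KK K i) z v v = (star v.ofLp ⬝ᵥ ((K.g i ((A.e i).symm z))ᵀ *ᵥ v.ofLp)).re := rfl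
    rw [h2, dlg_eta hs hz hzW.1.1]
    refine h1.trans ?_
    have h3 := sum_sq_le (eta s i ((A.e i).symm z) *ᵥ v.ofLp)
    have h4 := tz_nonneg hdet (K.pos i _ hx)
    have h5 : (N : ℝ) * tz (eta s i ((A.e i).symm z)) (K.g i ((A.e i).symm z)) ≤
        (sg K s p + ε) ^ 2 := by
      have h6 : sg K s ((A.e i).symm z) < sg K s p + ε := hzW.2
      unfold sg at h6
      rw [tz_chart K hs hx hzW.1] at h6
      exact (Real.sqrt_le_left hC).1 h6.le
    calc tz (eta s i ((A.e i).symm z)) (K.g i ((A.e i).symm z)) *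
        ∑ j, ‖(eta s i ((A.e i).symm z) *ᵥ v.ofLp) j‖ ^ 2
        ≤ tz (eta s i ((A.e i).symm z)) (K.g i ((A.e i).symm z)) *
          (N * ‖eta s i ((A.e i).symm z) *ᵥ v.ofLp‖ ^ 2) := mul_le_mul_of_nonneg_left h3 h4
      _ = (N * tz (eta s i ((A.e i).symm z)) (K.g i ((A.e i).symm z))) *
          ‖eta s i ((A.e i).symm z) *ᵥ v.ofLp‖ ^ 2 := by ring
      _ ≤ (sg K s p + ε) ^ 2 * ‖eta s i ((A.e i).symm z) *ᵥ v.ofLp‖ ^ 2 :=
          mul_le_mul_of_nonneg_right h5 (by positivity)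
      _ = _ := by rw [mul_pow]
  have hlcx := hFr.lcx hC hW (finrank_EE N)
  obtain ⟨δ, hδ, b, hb0, hb1, hb2⟩ := hlcx p hpW ζ0 hζ0
  refine ⟨δ, hδ, b, hb0, fun ζ hζ => (hb1 ζ hζ).2, fun ζ hζ => ?_⟩
  have h7 := hb2 ζ0 (mem_ball_self hδ) ζ hζ
  rw [hb0] at h7
  rw [norm_sub_rev] at h7
  exact h7

end

end Crest.Agent.R281.Dh3_612
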