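import Crest.Agent.R281.Ins2_615
import Crest.Agent.R273.Vm_333

/-!
# R281, S-INST (helper615), part 3: THE MEASURE.

`map_vm` : the Riemannian volume `μHE[2n]` of `(ofKah K).M` is the measure `vm (volK K)` of R273.
-/

set_option autoImplicit false
set_option linter.unusedSectionVars false

open Set Filter Topology Complex MeasureTheory Matrix
open scoped ContDiff ComplexConjugate ComplexOrder
open Crest.GeometryTopology.CoordMetric
open Crest.Agent.R202.Tens
open Crest.Agent.R273.Ric_798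
open Crest.Agent.R275.Geo Crest.Agent.R275.EDR890 Crest.Agent.R275.C1d194
open Crest.Agent.R273.RMan_798 Crest.Agent.R273.RMan4_798

namespace Crest.Agent.R281.Ins_615

noncomputable section

variable {n : ℕ}

/-- the enumeration of the real coordinates -/
def eps (n : ℕ) : Fin (2 * n) ≃ Fin n × Fin 2 :=
  (finProdFinEquiv (m := 2) (n := n)).symm.trans (Equiv.prodComm _ _)

/-- the standard real coordinates -/
def stE (n : ℕ) : (RI n → ℝ) ≃ₗ[ℝ] EE (2 * n) :=
  (LinearEquiv.funCongrLeft ℝ ℝ (eps n)).trans (WithLp.linearEquiv 2 ℝ (Fin (2 * n) → ℝ)).symm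

theorem stE_apply (y : RI n → ℝ) (k : Fin (2 * n)) : stE n y k = y (eps n k) := rfl

theorem vp_stE : MeasurePreserving (stE n) volume volume := by
  have h1 : MeasurePreserving (MeasurableEquiv.piCongrLeft (fun _ : Fin (2 * n) => ℝ) (eps n).symm)
      volume volume := volume_measurePreserving_piCongrLeft _ _
  have h2 : MeasurePreserving (WithLp.toLp 2 : (Fin (2 * n) → ℝ) → EE (2 * n)) volume volume :=
    PiLp.volume_preserving_toLp (Fin (2 * n))
  have h3 := h2.comp h1
  refine ⟨?_, ?_⟩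
  · exact (stE n).toLinearMap.continuous_of_finiteDimensional.measurable
  · have h4 : (stE n : (RI n → ℝ) → EE (2 * n)) =
      (WithLp.toLp 2 : (Fin (2 * n) → ℝ) → EE (2 * n)) ∘
        (MeasurableEquiv.piCongrLeft (fun _ : Fin (2 * n) => ℝ) (eps n).symm) := by
      funext y
      ext k
      have h5 := MeasurableEquiv.piCongrLeft_apply_apply (eps n).symm (β := fun _ => ℝ) y (eps n k)
      rw [Equiv.symm_apply_apply] at h5
      exact h5.symm
    rw [h4]
    exact h3.map_eq

/-- the real coordinates of `ofKah` in terms of the real coordinates of R273 -/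
def Lc (n : ℕ) : (RI n → ℝ) ≃ₗ[ℝ] EE (2 * n) := (rcE n).symm.trans (eR n).toLinearEquiv

theorem Lc_apply (y : RI n → ℝ) : Lc n y = eR n (cc y) := rfl

/-- the Jacobian of `Lc` -/
def dT (n : ℕ) : ℝ :=
  |LinearMap.det (((stE n).symm : EE (2 * n) →ₗ[ℝ] (RI n → ℝ)) ∘ₗ
    (Lc n : (RI n → ℝ) →ₗ[ℝ] EE (2 * n)))|

theorem dT_pos (n : ℕ) : 0 < dT n := by
  unfold dT
  rw [abs_pos]
  have h : ((stE n).symm : EE (2 * n) →ₗ[ℝ] (RI n → ℝ)) ∘ₗ (Lc n : (RI n → ℝ) →ₗ[ℝ] EE (2 * n)) =
      (((Lc n).trans (stE n).symm : (RI n → ℝ) ≃ₗ[ℝ] (RI n → ℝ)) :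
        (RI n → ℝ) →ₗ[ℝ] (RI n → ℝ)) := rfl
  rw [h]
  exact (LinearEquiv.isUnit_det' _).ne_zero

theorem emb_Lc : MeasurableEmbedding (Lc n : (RI n → ℝ) → EE (2 * n)) :=
  (Lc n).toContinuousLinearEquiv.toHomeomorph.measurableEmbedding

theorem map_Lc : Measure.map (Lc n) (volume : Measure (RI n → ℝ)) =
    ENNReal.ofReal (dT n)⁻¹ • (volume : Measure (EE (2 * n))) := by
  set f : (RI n → ℝ) →ₗ[ℝ] (RI n → ℝ) := ((stE n).symm : EE (2 * n) →ₗ[ℝ] (RI n → ℝ)) ∘ₗ
    (Lc n : (RI n → ℝ) →ₗ[ℝ] EE (2 * n)) with hf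
  have hd : LinearMap.det f ≠ 0 := by
    have := dT_pos n
    unfold dT at this
    exact abs_pos.1 this
  have h1 := Measure.map_linearMap_addHaar_eq_smul_addHaar (volume : Measure (RI n → ℝ)) hd
  have h2 : (Lc n : (RI n → ℝ) → EE (2 * n)) = (stE n) ∘ f := by
    funext y
    simp [hf]
  have hfm : Measurable f := f.continuous_of_finiteDimensional.measurable
  rw [h2, ← Measure.map_map vp_stE.measurable hfm, h1, Measure.map_smul, vp_stE.map_eq, abs_inv]
  rfl

/-- change of variables -/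
theorem lint_Lc (F : EE (2 * n) → ENNReal) {B : Set (EE (2 * n))} :
    ∫⁻ a in B, F a = ENNReal.ofReal (dT n) * ∫⁻ y in (Lc n) ⁻¹' B, F (Lc n y) := by
  have h1 : (volume : Measure (EE (2 * n))) =
      ENNReal.ofReal (dT n) • Measure.map (Lc n) (volume : Measure (RI n → ℝ)) := by
    rw [map_Lc, smul_smul, ← ENNReal.ofReal_mul (dT_pos n).le, mul_inv_cancel₀ (dT_pos n).ne']
    simp
  conv_lhs => rw [h1]
  rw [Measure.restrict_smul, lintegral_smul_measure, emb_Lc.restrict_map, emb_Lc.lintegral_map]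
  rfl

/-! ### the determinant of the real metric -/

theorem det_real_frame {K : V n → Matrix (Fin n) (Fin n) ℂ} {y : EE (2 * n)}
    (hpd : (K ((eR n).symm y)).PosDef) :
    Real.sqrt (hm (eR n) K y).det = (dT n)⁻¹ * (K ((eR n).symm y)).det.re := by
  obtain ⟨P, hP, hPP⟩ := exists_unitary hpd
  have hfr := isFrame_cols (eR n) (eps n) hpd.1 hP
  -- the frame matrix
  set Ξ : Matrix (Fin (2 * n)) (Fin (2 * n)) ℝ :=
    Matrix.of fun i a => (eR n (cl2 P (eps n a))) i with hΞ
  have h1 : Ξᵀ * (hm (eR n) K y * Ξ) = 1 := by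
    ext a b
    rw [Matrix.mul_apply, Matrix.one_apply, ← hfr.orth a b, bil_apply]
    refine Finset.sum_congr rfl fun i _ => ?_
    rw [Matrix.mul_apply, Finset.mul_sum]
    refine Finset.sum_congr rfl fun j _ => ?_
    simp only [hΞ, Matrix.transpose_apply, Matrix.of_apply]
    ring
  have h2 : Ξ.det * ((hm (eR n) K y).det * Ξ.det) = 1 := by
    have := congrArg Matrix.det h1
    rwa [Matrix.det_mul, Matrix.det_mul, Matrix.det_transpose, Matrix.det_one] at this
  -- the determinant of the frame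
  let PL : Cn n →ₗ[ℂ] Cn n := Matrix.toLin (EuclideanSpace.basisFun (Fin n) ℂ).toBasis
    (EuclideanSpace.basisFun (Fin n) ℂ).toBasis P
  have hdP : LinearMap.det PL = P.det := LinearMap.det_toLin _ _
  have hPL : ∀ a : Fin n, PL (EuclideanSpace.single a 1) = cl P a := by
    intro a
    have h3 := Matrix.toLin_self (EuclideanSpace.basisFun (Fin n) ℂ).toBasis
      (EuclideanSpace.basisFun (Fin n) ℂ).toBasis P a
    simp only [OrthonormalBasis.coe_toBasis, EuclideanSpace.basisFun_apply] at h3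
    have h4 : PL (EuclideanSpace.single a 1) = ∑ b, P b a • EuclideanSpace.single b (1 : ℂ) := h3
    rw [h4]
    ext c
    simp [cl_apply, Finset.sum_apply, Pi.single_apply]
  let X : EE (2 * n) →ₗ[ℝ] EE (2 * n) := Matrix.toLin
    (EuclideanSpace.basisFun (Fin (2 * n)) ℝ).toBasis
    (EuclideanSpace.basisFun (Fin (2 * n)) ℝ).toBasis Ξ
  have hdX : LinearMap.det X = Ξ.det := LinearMap.det_toLin _ _
  have hX : ∀ k : Fin (2 * n), X (EuclideanSpace.single k 1) = eR n (cl2 P (eps n k)) := by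
    intro a
    have h3 := Matrix.toLin_self (EuclideanSpace.basisFun (Fin (2 * n)) ℝ).toBasis
      (EuclideanSpace.basisFun (Fin (2 * n)) ℝ).toBasis Ξ a
    simp only [OrthonormalBasis.coe_toBasis, EuclideanSpace.basisFun_apply] at h3
    have h4 : X (EuclideanSpace.single a 1) = ∑ b, Ξ b a • EuclideanSpace.single b (1 : ℝ) := h3
    rw [h4]
    ext c
    simp [hΞ, Finset.sum_apply, Pi.single_apply]
  -- the factorisation
  set T : (RI n → ℝ) →ₗ[ℝ] (RI n → ℝ) := ((stE n).symm : EE (2 * n) →ₗ[ℝ] (RI n → ℝ)) ∘ₗ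
    (Lc n : (RI n → ℝ) →ₗ[ℝ] EE (2 * n)) with hT
  set Q : (RI n → ℝ) →ₗ[ℝ] (RI n → ℝ) :=
    ((rcE n : Cn n →ₗ[ℝ] (RI n → ℝ)) ∘ₗ (PL.restrictScalars ℝ)) ∘ₗ
      ((rcE n).symm : (RI n → ℝ) →ₗ[ℝ] Cn n) with hQ
  have hdQ : LinearMap.det Q = ‖P.det‖ ^ 2 := by
    have := Crest.Agent.R275.Pai323.det_real (LinearMap.toContinuousLinearMap PL)
    rw [← hdP]
    exact this
  have hfac : X = ((stE n : (RI n → ℝ) →ₗ[ℝ] EE (2 * n)) ∘ₗ (T ∘ₗ Q)) ∘ₗ
      ((stE n).symm : EE (2 * n) →ₗ[ℝ] (RI n → ℝ)) := by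
    refine (EuclideanSpace.basisFun (Fin (2 * n)) ℝ).toBasis.ext fun k => ?_
    simp only [OrthonormalBasis.coe_toBasis, EuclideanSpace.basisFun_apply]
    rw [hX]
    simp only [hT, hQ, LinearMap.comp_apply, LinearEquiv.coe_coe, LinearEquiv.apply_symm_apply,
      LinearMap.coe_restrictScalars]
    have h3 : (stE n).symm (EuclideanSpace.single k 1) = Pi.single (eps n k) 1 := by
      rw [LinearEquiv.symm_apply_eq]
      ext j
      rw [stE_apply]
      simp [Pi.single_apply]
    rw [h3]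
    have h4 : (Lc n) ((rcE n) (PL ((rcE n).symm (Pi.single (eps n k) 1)))) =
        eR n (PL ((rcE n).symm (Pi.single (eps n k) 1))) := by
      unfold Lc
      simp
    rw [h4]
    congr 1
    have h5 : ∀ p : Fin n × Fin 2, (rcE n).symm (Pi.single p 1) =
        if p.2 = 0 then EuclideanSpace.single p.1 (1 : ℂ) else I • EuclideanSpace.single p.1 (1 : ℂ) := by
      rintro ⟨a, s⟩
      have h6 : (rcE n).symm (Pi.single (a, s) 1) = cc (Pi.single (a, s) 1) := rfl
      rw [h6]
      ext b
      rw [cc_apply]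
      fin_cases s
      · by_cases hab : b = a
        · subst hab; simp
        · simp [hab]
      · by_cases hab : b = a
        · subst hab; simp
        · simp [hab]
    rw [h5]
    unfold cl2
    split_ifs with h0
    · rw [hPL]
    · rw [map_smul, hPL]
  have hdet : Ξ.det = LinearMap.det T * ‖P.det‖ ^ 2 := by
    rw [← hdX, hfac, LinearMap.comp_assoc, LinearMap.det_conj, LinearMap.det_comp, hdQ]
  -- conclusion
  have hPd : ((‖P.det‖ ^ 2 : ℝ) : ℂ) = (K ((eR n).symm y)).det⁻¹ := by
    have h3 := congrArg Matrix.det hPP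
    rw [Matrix.det_mul, Matrix.det_conjTranspose, Matrix.det_nonsing_inv,
      Ring.inverse_eq_inv'] at h3
    rw [← h3]
    simp only [RCLike.star_def]
    rw [Complex.mul_conj, Complex.normSq_eq_norm_sq]
  have hKd : (((K ((eR n).symm y)).det.re : ℝ) : ℂ) = (K ((eR n).symm y)).det :=
    Crest.Agent.R273.Vol_333.det_real hpd.1
  have hKp : 0 < (K ((eR n).symm y)).det.re := Crest.Agent.R273.Vol_333.det_re_pos hpd
  have hPd' : ‖P.det‖ ^ 2 = ((K ((eR n).symm y)).det.re)⁻¹ := by
    rw [← hKd] at hPd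
    exact_mod_cast hPd
  have hTd : |LinearMap.det T| = dT n := rfl
  have hdp : 0 < dT n := dT_pos n
  have h7 : |Ξ.det| = dT n * ((K ((eR n).symm y)).det.re)⁻¹ := by
    rw [hdet, abs_mul, hTd, hPd', abs_of_pos (inv_pos.2 hKp)]
  have h8 : (hm (eR n) K y).det = (|Ξ.det|⁻¹) ^ 2 := by
    have h9 : Ξ.det ≠ 0 := by
      intro h0
      rw [h0, zero_mul] at h2
      exact zero_ne_one h2
    rw [inv_pow, sq_abs]
    field_simp
    linarith
  rw [h8, Real.sqrt_sq (by positivity), h7, mul_inv, inv_inv]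

/-! ### the measure -/

open Crest.Agent.R275.Core144 Crest.Agent.R273.Defs_333 Crest.Agent.R273.Kah_333
open Crest.Agent.R273.Vol_333 Crest.Agent.R273.Vm_333

variable {M : Type} [TopologicalSpace M] {A : Atl n M}

/-- the identity map -/
def toX (K : Kah A) : M ≃ₜ (ofKah K).M := Homeomorph.refl M

@[simp] theorem toX_apply (K : Kah A) (x : M) : toX K x = x := rfl

theorem emb_toX [MeasurableSpace M] [BorelSpace M] (K : Kah A) : MeasurableEmbedding (toX K) :=
  (toX K).measurableEmbedding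

variable [T2Space M] [ConnectedSpace M] [MeasurableSpace M] [BorelSpace M]

theorem muHE_chart (K : Kah A) (x : (ofKah K).M) {E : Set M} (hE : MeasurableSet E)
    (hs : E ⊆ (A.e ((ofKah K).idx x)).source) :
    (Measure.euclideanHausdorffMeasure (2 * n) : Measure (ofKah K).M) (toX K '' E) =
      chm (volK K) ((ofKah K).idx x) E := by
  set i : A.ι := (ofKah K).idx x with hi
  set S : Set (RI n → ℝ) := {y | y ∈ Ui A i ∧ sg A i y ∈ E} with hS
  have hSm : MeasurableSet S := meas_inter (A := A) i hE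
  set B : Set (EE (2 * n)) := (Lc n).symm ⁻¹' S with hB
  have hBm : MeasurableSet B :=
    (Lc n).symm.toContinuousLinearEquiv.continuous.measurable hSm
  have hLs : ∀ a : EE (2 * n), cc ((Lc n).symm a) = (eR n).symm a := by
    intro a
    have h1 : eR n (cc ((Lc n).symm a)) = a := by
      rw [← Lc_apply, LinearEquiv.apply_symm_apply]
    rw [← h1, ContinuousLinearEquiv.symm_apply_apply]
    rw [h1]
  have hBt : ∀ a ∈ B, (eR n).symm a ∈ (A.e i).target ∧ (A.e i).symm ((eR n).symm a) ∈ E := by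
    intro a ha
    have h1 : cc ((Lc n).symm a) ∈ (A.e i).target := ha.1
    have h2 : (A.e i).symm (cc ((Lc n).symm a)) ∈ E := ha.2
    rw [hLs] at h1 h2
    exact ⟨h1, h2⟩
  have hBsub : B ⊆ (chartAt (EE (2 * n)) x).target := by
    intro a ha
    exact (Set.ext_iff.1 (cR_target (A := A) i) a).2 (hBt a ha).1
  have himg : (chartAt (EE (2 * n)) x).symm '' B = toX K '' E := by
    ext p
    constructor
    · rintro ⟨a, ha, rfl⟩
      exact ⟨_, (hBt a ha).2, rfl⟩
    · rintro ⟨q, hq, rfl⟩
      refine ⟨eR n (A.e i q), ?_, ?_⟩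
      · have h1 : (Lc n).symm (eR n (A.e i q)) = rc (A.e i q) := by
          rw [LinearEquiv.symm_apply_eq, Lc_apply, cc_rc]
        change (Lc n).symm (eR n (A.e i q)) ∈ S
        rw [h1]
        refine ⟨mem_Ui (hs hq), ?_⟩
        rw [sg_rc (hs hq)]
        exact hq
      · have h1 : (chartAt (EE (2 * n)) x).symm (eR n (A.e i q)) =
            (A.e i).symm ((eR n).symm (eR n (A.e i q))) := rfl
        rw [h1, ContinuousLinearEquiv.symm_apply_apply, (A.e i).left_inv (hs hq)]
        rfl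
  rw [← himg, Crest.Agent.R247.Ms322.muHE_symm_image x hBsub hBm, lint_Lc, chm_apply _ i hE]
  have hpre : (Lc n) ⁻¹' B = S := by
    ext y
    simp only [hB, mem_preimage, LinearEquiv.symm_apply_apply]
  rw [hpre, ← lintegral_const_mul' _ _ ENNReal.ofReal_ne_top]
  refine setLIntegral_congr_fun hSm fun y hy => ?_
  have hyB : Lc n y ∈ B := by
    rw [hB, mem_preimage, LinearEquiv.symm_apply_apply]; exact hy
  have hz : (eR n).symm (Lc n y) = cc y := by
    rw [Lc_apply, ContinuousLinearEquiv.symm_apply_apply]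
  have hzt : (eR n).symm (Lc n y) ∈ (A.e i).target := (hBt _ hyB).1
  have hdens : Crest.Agent.R247.Ms322.dens (n := 2 * n) x (Lc n y) =
      (dT n)⁻¹ * (K.g i (sg A i y)).det.re := by
    unfold Crest.Agent.R247.Ms322.dens
    rw [(ofKah K).chartMetric_eq x (hBsub hyB)]
    have h1 := det_real_frame (K := KK K i) (y := Lc n y) ((kd K i).pd _ hzt)
    refine Eq.trans h1 ?_
    rw [hz]
    unfold KK
    rw [Matrix.det_transpose]
    rfl
  rw [hdens, ← ENNReal.ofReal_mul (dT_pos n).le, ← mul_assoc, mul_inv_cancel₀ (dT_pos n).ne',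
    one_mul]
  rfl

/-- **the Riemannian volume is the measure of the volume form** -/
theorem map_vm [Countable A.ι] (K : Kah A) :
    Measure.map (toX K) (vm (volK K)) =
      (Measure.euclideanHausdorffMeasure (2 * n) : Measure (ofKah K).M) := by
  set T : Set A.ι := range (ofKah K).idx with hT
  have hTc : T.Countable := Set.to_countable T
  have hcov : ⋃ i ∈ T, toX K '' (A.e i).source = univ := by
    refine eq_univ_of_forall fun x => ?_
    refine mem_iUnion₂.2 ⟨(ofKah K).idx x, ⟨x, rfl⟩, x, ?_, rfl⟩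
    exact (Set.ext_iff.1 (cR_source (A := A) ((ofKah K).idx x)) x).1 ((ofKah K).idx_mem x)
  have key : ∀ i ∈ T, (Measure.map (toX K) (vm (volK K))).restrict (toX K '' (A.e i).source) =
      (Measure.euclideanHausdorffMeasure (2 * n) : Measure (ofKah K).M).restrict
        (toX K '' (A.e i).source) := by
    rintro _ ⟨x, rfl⟩
    set i : A.ι := (ofKah K).idx x
    ext E hE
    rw [Measure.restrict_apply hE, Measure.restrict_apply hE]
    have hE' : MeasurableSet ((toX K) ⁻¹' E) := (emb_toX K).measurable hE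
    have hEs : MeasurableSet ((toX K) ⁻¹' E ∩ (A.e i).source) :=
      hE'.inter (A.e i).open_source.measurableSet
    have himg : E ∩ toX K '' (A.e i).source = toX K '' ((toX K) ⁻¹' E ∩ (A.e i).source) := by
      rw [image_preimage_inter]
    rw [himg, muHE_chart K x hEs inter_subset_right, (emb_toX K).map_apply,
      (toX K).injective.preimage_image, vm_apply_chart _ hEs inter_subset_right]
  have h1 := (Measure.restrict_biUnion_congr (μ := Measure.map (toX K) (vm (volK K)))
    (ν := (Measure.euclideanHausdorffMeasure (2 * n) : Measure (ofKah K).M))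
    (t := fun i => toX K '' (A.e i).source) hTc).2 key
  rwa [hcov, Measure.restrict_univ, Measure.restrict_univ] at h1

/-- integrals -/
theorem integral_muHE [Countable A.ι] (K : Kah A) {W : Type*} [NormedAddCommGroup W]
    [NormedSpace ℝ W] (f : M → W) :
    ∫ x : (ofKah K).M, f x ∂(Measure.euclideanHausdorffMeasure (2 * n)) = ∫ x, f x ∂(vm (volK K)) := by
  rw [← map_vm K]
  exact (emb_toX K).integral_map f

theorem lintegral_muHE [Countable A.ι] (K : Kah A) (f : M → ENNReal) :
    ∫⁻ x : (ofKah K).M, f x ∂(Measure.euclideanHausdorffMeasure (2 * n)) =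
      ∫⁻ x, f x ∂(vm (volK K)) := by
  rw [← map_vm K]
  exact (emb_toX K).lintegral_map f

theorem muHE_apply [Countable A.ι] (K : Kah A) (E : Set M) :
    (Measure.euclideanHausdorffMeasure (2 * n) : Measure (ofKah K).M) (toX K '' E) =
      vm (volK K) E := by
  rw [← map_vm K, (emb_toX K).map_apply, (toX K).injective.preimage_image]

end

end Crest.Agent.R281.Ins_615
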