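import Crest.Agent.R281.Ins3_615
import Crest.Agent.R247.Bgr3_546
import Crest.Agent.R273.SchI_152

/-!
# R281, S-INST (helper615), part 4: `(ofKah K).M` for a Kaehler metric `K : Kah A`

* `contMDiffAt_iffK`, `contMDiff_of_sm` : smoothness
* `mLap_loc`, `mLap_eq`  : `mLap f = 4 tr (g⁻¹ ∂∂̄ f) = 4 Lap K f`
* `mGam_loc`, `mGam_eq`  : `mGam f f = 4 Dg K f`
* `instCompact`, `instComplete`, `rad` : compact, complete, radial contraction structure (`Ric ≥ 0`)
* `sc c K`               : the metric `c K`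
-/

set_option autoImplicit false
set_option linter.unusedSectionVars false

open Set Filter Topology Complex MeasureTheory Matrix Manifold Bundle
open scoped ContDiff ComplexConjugate ComplexOrder Manifold
open Crest.GeometryTopology.CoordMetric Crest.GeometryTopology.PointedLimit
open Crest.Agent.R273.Ric_798
open Crest.Agent.R275.Geo Crest.Agent.R275.EDR890 Crest.Agent.R275.C1d194
open Crest.Agent.R273.RMan_798 Crest.Agent.R273.RMan4_798
open Crest.Agent.R275.Core144 Crest.Agent.R273.Defs_333 Crest.Agent.R273.Kah_333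
open Crest.Agent.R273.Vol_333 Crest.Agent.R273.Vm_333 Crest.Agent.R273.FIb0_597
open Crest.Agent.R273.Hess_333 (cu)
open Crest.Agent.R247.Bo84 (mLap mGam)

namespace Crest.Agent.R281.Ins_615

noncomputable section

variable {n : ℕ} {M : Type} [TopologicalSpace M] {A : Atl n M}

/-! ### smoothness -/

theorem mem_ch_iff (K : Kah A) {i : A.ι} {x : M} :
    (x : (ofKah K).M) ∈ ((ofKah K).ch i).source ↔ x ∈ (A.e i).source :=
  Set.ext_iff.1 (cR_source (A := A) i) x

theorem contMDiffAt_iffK (K : Kah A) {W : Type*} [NormedAddCommGroup W] [NormedSpace ℝ W]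
    {k : WithTop ℕ∞} (hk : k ≤ ∞) {f : M → W} {i : A.ι} {x : M} (hx : x ∈ (A.e i).source) :
    ContMDiffAt (𝓡 (2 * n)) 𝓘(ℝ, W) k (fun p : (ofKah K).M => f p) x ↔
      ContDiffAt ℝ k (fun z => f ((A.e i).symm z)) (A.e i x) := by
  rw [contMDiffAt_iff (ofKah K) hk ((mem_ch_iff K).2 hx)]
  have e0 : (eR n).symm (eR n (A.e i x)) = A.e i x := (eR n).symm_apply_apply _
  constructor
  · intro h
    have h1 : ContDiffAt ℝ k (fun y : EE (2 * n) => f ((A.e i).symm ((eR n).symm y)))
        (eR n (A.e i x)) := h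
    have h2 := h1.comp (A.e i x) (eR n).contDiff.contDiffAt
    refine h2.congr_of_eventuallyEq (Eventually.of_forall fun z => ?_)
    simp
  · intro h
    have h1 : ContDiffAt ℝ k (fun z => f ((A.e i).symm z)) ((eR n).symm (eR n (A.e i x))) := by
      rw [e0]; exact h
    exact h1.comp (eR n (A.e i x)) (eR n).symm.contDiff.contDiffAt

theorem contMDiff_of_sm (K : Kah A) {f : M → ℝ} (hf : A.Sm f) :
    ContMDiff (𝓡 (2 * n)) 𝓘(ℝ, ℝ) ∞ (fun p : (ofKah K).M => f p) := by
  rintro (x : M)
  obtain ⟨i, hi⟩ := A.cover x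
  exact (contMDiffAt_iffK K le_rfl hi).2 ((hf i).contDiffAt
    ((A.e i).open_target.mem_nhds ((A.e i).map_source hi)))

/-! ### the Laplacian and the gradient -/

theorem KK_at (K : Kah A) {i : A.ι} {x : M} (hx : x ∈ (A.e i).source) :
    KK K i ((eR n).symm (eR n (A.e i x))) = (K.g i x)ᵀ := by
  rw [(eR n).symm_apply_apply, KK, (A.e i).left_inv hx]

/-- **the Laplacian**, local form, in any chart -/
theorem mLap_loc (K : Kah A) {f : M → ℝ} {i : A.ι} {x : M} (hx : x ∈ (A.e i).source)
    (hf : ContDiffAt ℝ ∞ (fun z => f ((A.e i).symm z)) (A.e i x)) :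
    mLap (2 * n) (fun p : (ofKah K).M => f p) x = 4 * (trC K (hsf A f) i x).re := by
  have hC : ContMDiffAt (𝓡 (2 * n)) 𝓘(ℝ, ℝ) 2 (fun p : (ofKah K).M => f p) x :=
    (contMDiffAt_iffK K Crest.Agent.R247.Bo84.two_le_infty hx).2
      (hf.of_le Crest.Agent.R247.Bo84.two_le_infty)
  rw [mLap_chart (ofKah K) ((mem_ch_iff K).2 hx) hC]
  have hy : (eR n).symm (eR n (A.e i x)) ∈ (A.e i).target := by
    rw [(eR n).symm_apply_apply]; exact (A.e i).map_source hx
  have hf' : ContDiffAt ℝ ∞ (fun z => f ((A.e i).symm z)) ((eR n).symm (eR n (A.e i x))) := by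
    rw [(eR n).symm_apply_apply]; exact hf
  have h1 := lap_hm (eR n) (eps n) (kd K i) hy (u := fun z => f ((A.e i).symm z)) hf'
  refine Eq.trans h1 ?_
  rw [KK_at K hx, (eR n).symm_apply_apply]
  congr 2
  unfold trC hsf
  rw [← Matrix.transpose_nonsing_inv, Matrix.trace]
  simp only [Matrix.diag_apply, Matrix.mul_apply, Matrix.transpose_apply]
  rw [Finset.sum_comm]

/-- **the Laplacian** -/
theorem mLap_eq (K : Kah A) {f : M → ℝ} (hf : A.Sm f) (x : M) :
    mLap (2 * n) (fun p : (ofKah K).M => f p) x = 4 * Lap K f x := by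
  obtain ⟨i, hi⟩ := A.cover x
  rw [mLap_loc K hi ((hf i).contDiffAt ((A.e i).open_target.mem_nhds ((A.e i).map_source hi))),
    Lap, trM_eq K (tf_hsf hf) hi]

/-- **the gradient form**, local form, in any chart -/
theorem mGam_loc (K : Kah A) {f h : M → ℝ} {i : A.ι} {x : M} (hx : x ∈ (A.e i).source)
    (hf : DifferentiableAt ℝ (fun z => f ((A.e i).symm z)) (A.e i x))
    (hh : DifferentiableAt ℝ (fun z => h ((A.e i).symm z)) (A.e i x)) :
    mGam (2 * n) (fun p : (ofKah K).M => f p) (fun p : (ofKah K).M => h p) x =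
      4 * (∑ b, ∑ c, (K.g i x)⁻¹ c b *
        (wd (false, b) (cu fun z => f ((A.e i).symm z)) (A.e i x) *
          wd (true, c) (cu fun z => h ((A.e i).symm z)) (A.e i x))).re := by
  have hy : (eR n).symm (eR n (A.e i x)) ∈ (A.e i).target := by
    rw [(eR n).symm_apply_apply]; exact (A.e i).map_source hx
  have hf' : DifferentiableAt ℝ (fun z => f ((A.e i).symm z)) ((eR n).symm (eR n (A.e i x))) := by
    rw [(eR n).symm_apply_apply]; exact hf
  have hh' : DifferentiableAt ℝ (fun z => h ((A.e i).symm z)) ((eR n).symm (eR n (A.e i x))) := by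
    rw [(eR n).symm_apply_apply]; exact hh
  have hC : DifferentiableAt ℝ (fun y => (fun p : (ofKah K).M => f p)
      (((ofKah K).ch i).symm y)) ((ofKah K).ch i x) :=
    hf'.comp (eR n (A.e i x)) (eR n).symm.differentiableAt
  have hC' : DifferentiableAt ℝ (fun y => (fun p : (ofKah K).M => h p)
      (((ofKah K).ch i).symm y)) ((ofKah K).ch i x) :=
    hh'.comp (eR n (A.e i x)) (eR n).symm.differentiableAt
  rw [mGam_chart (ofKah K) ((mem_ch_iff K).2 hx) hC hC']
  have h1 := gam_hm (eR n) (eps n) (kd K i) hy (u := fun z => f ((A.e i).symm z))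
    (h := fun z => h ((A.e i).symm z)) hf' hh'
  refine Eq.trans h1 ?_
  rw [KK_at K hx, (eR n).symm_apply_apply]
  congr 2
  rw [← Matrix.transpose_nonsing_inv]
  rfl

/-- the two Laplacians of R273 agree -/
theorem lap_same (K : Kah A) (f : M → ℝ) : Crest.Agent.R273.SchH_152.Lap K f = Lap K f := rfl

/-- **the gradient form** -/
theorem mGam_eq (K : Kah A) {f : M → ℝ} (hf : A.Sm f) (x : M) :
    mGam (2 * n) (fun p : (ofKah K).M => f p) (fun p : (ofKah K).M => f p) x =
      4 * Crest.Agent.R273.SchI_152.Dg K f x := by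
  have hC : ContMDiffAt (𝓡 (2 * n)) 𝓘(ℝ, ℝ) 2 (fun p : (ofKah K).M => f p) x :=
    (contMDiff_of_sm K hf x).of_le Crest.Agent.R247.Bo84.two_le_infty
  have h1 := Crest.Agent.R247.Bo84.mLap_mul hC hC
  have h2 := mLap_eq K (Crest.Agent.R273.SchI_152.sm_sq hf) x
  have h3 := mLap_eq K hf x
  have h4 : (fun p : (ofKah K).M => f p * f p) = fun p : (ofKah K).M => f p ^ 2 := by
    funext p; ring
  rw [h4, h2, h3] at h1
  unfold Crest.Agent.R273.SchI_152.Dg
  rw [lap_same, lap_same]
  linarith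

/-- polarised form -/
theorem mGam_eq2 (K : Kah A) {f h : M → ℝ} (hf : A.Sm f) (hh : A.Sm h) (x : M) :
    mGam (2 * n) (fun p : (ofKah K).M => f p) (fun p : (ofKah K).M => h p) x =
      2 * (Lap K (fun p => f p * h p) x - f x * Lap K h x - h x * Lap K f x) := by
  have hC : ContMDiffAt (𝓡 (2 * n)) 𝓘(ℝ, ℝ) 2 (fun p : (ofKah K).M => f p) x :=
    (contMDiff_of_sm K hf x).of_le Crest.Agent.R247.Bo84.two_le_infty
  have hC' : ContMDiffAt (𝓡 (2 * n)) 𝓘(ℝ, ℝ) 2 (fun p : (ofKah K).M => h p) x :=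
    (contMDiff_of_sm K hh x).of_le Crest.Agent.R247.Bo84.two_le_infty
  have h1 := Crest.Agent.R247.Bo84.mLap_mul hC hC'
  have h2 : mLap (2 * n) (fun p : (ofKah K).M => f p * h p) x =
      4 * Lap K (fun p => f p * h p) x := mLap_eq K (fun i => (hf i).mul (hh i)) x
  rw [h2, mLap_eq K hf, mLap_eq K hh] at h1
  linarith

/-! ### the class of R247 -/

instance instCompact (K : Kah A) [CompactSpace M] : CompactSpace (ofKah K).M :=
  inferInstanceAs (CompactSpace M)

instance instNonempty (K : Kah A) [Nonempty M] : Nonempty (ofKah K).M :=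
  inferInstanceAs (Nonempty M)

variable [T2Space M] [ConnectedSpace M]

instance instComplete (K : Kah A) [CompactSpace M] : CompleteSpace (ofKah K).M :=
  complete_of_compact

instance instProper (K : Kah A) [CompactSpace M] : ProperSpace (ofKah K).M :=
  proper_of_compact

/-- **the radial contraction structure** (Bishop–Gromov, segment inequality) -/
theorem rad [CompactSpace M] (K : Kah A) (hK : (volK K).Semipos) :
    Nonempty (Crest.Agent.R247.Mcp688.Rad (2 * n) 0 (ofKah K).M
      (Measure.euclideanHausdorffMeasure (2 * n))) := by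
  refine Crest.Agent.R247.Bgr546.rad_all (2 * n) 0 le_rfl (ofKah K).M ?_
  rw [neg_zero]
  exact hasRicci K hK

instance instSC (K : Kah A) [CompactSpace M] : SecondCountableTopology (ofKah K).M :=
  inferInstance

/-- the frame gradient of R247 -/
theorem norm_Gr_eq [CompactSpace M] (K : Kah A) {f : M → ℝ} (hf : A.Sm f) (x : M) :
    ‖Crest.Agent.R247.Ms322.Gr (n := 2 * n) (fun p : (ofKah K).M => f p) x‖ ^ 2 =
      4 * Crest.Agent.R273.SchI_152.Dg K f x :=
  (Crest.Agent.R247.Ms322.norm_Gr_sq_eq_mGam (n := 2 * n) (M := (ofKah K).M)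
    (fun p : (ofKah K).M => f p) x).trans (mGam_eq K hf x)

/-- closed balls have finite positive volume -/
theorem finite_muHE [CompactSpace M] (K : Kah A) :
    IsFiniteMeasure (Measure.euclideanHausdorffMeasure (2 * n) : Measure (ofKah K).M) := by
  have h1 : IsLocallyFiniteMeasure
      (Measure.euclideanHausdorffMeasure (2 * n) : Measure (ofKah K).M) :=
    Crest.Agent.R247.Ms322.isLocallyFiniteMeasure (2 * n) (ofKah K).M
  exact ⟨isCompact_univ.measure_lt_top⟩

/-! ### rescaling -/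

omit [T2Space M] [ConnectedSpace M] in
/-- the metric `c K` -/
def sc (c : ℝ) (hc : 0 < c) (K : Kah A) : Kah A where
  g i x := (c : ℂ) • K.g i x
  sm i a b := contDiffOn_const.mul (K.sm i a b)
  pos i x hx := by
    have h : (0 : ℂ) < (c : ℂ) := by exact_mod_cast hc
    exact (K.pos i x hx).smul h
  tr i j x hx := by
    rw [K.tr i j x hx, Matrix.mul_smul, Matrix.smul_mul]
  closed i z hz a b d := by
    have hd : ∀ a b, DifferentiableAt ℝ (fun w => K.g i ((A.e i).symm w) a b) z := fun a b =>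
      ((K.sm i a b).contDiffAt ((A.e i).open_target.mem_nhds hz)).differentiableAt (by simp)
    have h1 : ∀ s : WI n, ∀ a b, wd s (fun w => ((c : ℂ) • K.g i ((A.e i).symm w)) a b) z =
        (c : ℂ) * wd s (fun w => K.g i ((A.e i).symm w) a b) z := by
      intro s a b
      have := wd_mul (differentiableAt_const (c : ℂ)) (hd a b) s
      rw [wd_const] at this
      simpa using this
    rw [h1, h1, K.closed i z hz]
  closed' i z hz a b d := by
    have hd : ∀ a b, DifferentiableAt ℝ (fun w => K.g i ((A.e i).symm w) a b) z := fun a b =>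
      ((K.sm i a b).contDiffAt ((A.e i).open_target.mem_nhds hz)).differentiableAt (by simp)
    have h1 : ∀ s : WI n, ∀ a b, wd s (fun w => ((c : ℂ) • K.g i ((A.e i).symm w)) a b) z =
        (c : ℂ) * wd s (fun w => K.g i ((A.e i).symm w) a b) z := by
      intro s a b
      have := wd_mul (differentiableAt_const (c : ℂ)) (hd a b) s
      rw [wd_const] at this
      simpa using this
    rw [h1, h1, K.closed' i z hz]

omit [T2Space M] [ConnectedSpace M] in
theorem sc_g (c : ℝ) (hc : 0 < c) (K : Kah A) (i : A.ι) (x : M) :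
    (sc c hc K).g i x = (c : ℂ) • K.g i x := rfl

omit [T2Space M] [ConnectedSpace M] in
theorem trC_sc (c : ℝ) (hc : 0 < c) (K : Kah A) (S : A.ι → M → Matrix (Fin n) (Fin n) ℂ)
    (i : A.ι) {x : M} (hx : x ∈ (A.e i).source) :
    trC (sc c hc K) S i x = (c : ℂ)⁻¹ * trC K S i x := by
  unfold trC
  have h1 : ((sc c hc K).g i x)⁻¹ = (c : ℂ)⁻¹ • (K.g i x)⁻¹ := by
    have hc' : (c : ℂ) ≠ 0 := by exact_mod_cast hc.ne'
    have hu : IsUnit (K.g i x).det := isUnit_iff_ne_zero.2 (K.pos i x hx).det_pos.ne'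
    apply Matrix.inv_eq_left_inv
    rw [sc_g, Matrix.smul_mul, Matrix.mul_smul, smul_smul, inv_mul_cancel₀ hc', one_smul,
      Matrix.nonsing_inv_mul _ hu]
  rw [h1, Matrix.smul_mul, Matrix.trace_smul, smul_eq_mul]

omit [T2Space M] [ConnectedSpace M] in
theorem Lap_sc (c : ℝ) (hc : 0 < c) (K : Kah A) (f : M → ℝ) (x : M) :
    Lap (sc c hc K) f x = c⁻¹ * Lap K f x := by
  unfold Lap trM
  rw [trC_sc c hc K _ _ (mem_ch A x), ← Complex.ofReal_inv, Complex.re_ofReal_mul]

omit [T2Space M] [ConnectedSpace M] in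
theorem Dg_sc (c : ℝ) (hc : 0 < c) (K : Kah A) (f : M → ℝ) (x : M) :
    Crest.Agent.R273.SchI_152.Dg (sc c hc K) f x =
      c⁻¹ * Crest.Agent.R273.SchI_152.Dg K f x := by
  unfold Crest.Agent.R273.SchI_152.Dg
  rw [lap_same, lap_same, lap_same, lap_same, Lap_sc, Lap_sc]
  ring

omit [T2Space M] [ConnectedSpace M] in
theorem volK_sc (c : ℝ) (hc : 0 < c) (K : Kah A) (i : A.ι) (x : M) :
    (volK (sc c hc K)).w i x = c ^ n * (volK K).w i x := by
  show ((sc c hc K).g i x).det.re = c ^ n * (K.g i x).det.re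
  rw [sc_g, Matrix.det_smul, Fintype.card_fin, ← Complex.ofReal_pow, Complex.re_ofReal_mul]

omit [T2Space M] [ConnectedSpace M] in
theorem cur_volK_sc (c : ℝ) (hc : 0 < c) (K : Kah A) (i : A.ι) {x : M}
    (hx : x ∈ (A.e i).source) : cur (volK (sc c hc K)) i x = cur (volK K) i x := by
  refine cur_const (volK K) (volK (sc c hc K)) (Real.log (c ^ n)) (fun j y _ => ?_) i hx
  rw [volK_sc, Real.exp_log (by positivity)]

omit [T2Space M] [ConnectedSpace M] in
theorem semipos_sc {c : ℝ} (hc : 0 < c) {K : Kah A} (hK : (volK K).Semipos) :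
    (volK (sc c hc K)).Semipos := by
  refine semipos_of_cur fun i x hx => ?_
  rw [cur_volK_sc c hc K i hx]
  exact cur_posSemidef hK i hx

omit [T2Space M] [ConnectedSpace M] in
theorem vm_sc [Countable A.ι] [MeasurableSpace M] [BorelSpace M] {c : ℝ} (hc : 0 < c) (K : Kah A) :
    vm (volK (sc c hc K)) = ENNReal.ofReal (c ^ n) • vm (volK K) := by
  symm
  apply ext_vm
  intro i
  rw [Measure.restrict_smul, vm_restrict]
  ext E hE
  rw [Measure.smul_apply, chm_apply _ i hE, chm_apply _ i hE, smul_eq_mul,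
    ← lintegral_const_mul' _ _ ENNReal.ofReal_ne_top]
  refine setLIntegral_congr_fun (meas_inter i hE) fun y _ => ?_
  unfold dn
  rw [volK_sc, ENNReal.ofReal_mul (by positivity)]

end

end Crest.Agent.R281.Ins_615
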