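/-
R281 / S-DIAM-INST (helper612), part 9: the identity `Jsq · tr_E g = tr adj(Gram)`, the null set
`{P(F) = 0}`, measurability, and the transfer to `(ofKah K).M`.
-/
import Crest.Agent.R281.Dh3_612
import Crest.Agent.R281.Ins3_615
import Crest.Agent.R281.Ins4_615
import Crest.Agent.R281.Df5_612

set_option autoImplicit false
set_option linter.unusedSectionVars false
set_option linter.ambiguousOpen false
set_option maxSynthPendingDepth 3

namespace Crest.Agent.R281.Dh4_612

open Set Filter Complex MeasureTheory Metric Matrix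
open scoped _root_.Topology ContDiff Matrix ComplexConjugate ComplexOrder ENNReal
open scoped Manifold
open Crest.Agent.R275.Geo Crest.Agent.R275.Core144
open Crest.Agent.R273.Defs_333 Crest.Agent.R273.HM_333 Crest.Agent.R273.Kah_333
open Crest.Agent.R273.Vol_333 Crest.Agent.R273.Vm_333 Crest.Agent.R273.FIb0_597
open Crest.Agent.R273.SteinC_794 Crest.Agent.R273.SteinD_794
open Crest.Agent.R273.Ric_798 Crest.Agent.R273.RMan_798 Crest.Agent.R273.RMan4_798
open Crest.Agent.R281.Dg3_612 Crest.Agent.R281.Dg4_612 Crest.Agent.R281.Dg5_612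
open Crest.Agent.R281.SIn_14 Crest.Agent.R281.Per_368 Crest.Agent.R281.Dh1_612
open Crest.Agent.R281.Dh2_612 Crest.Agent.R281.Dh3_612
open Crest.Agent.R281.Fra_922 Crest.Agent.R281.Ins_615
open Crest.Agent.R281.Df3_612 (expPi continuous_expPi differentiable_expPi)

noncomputable section

section linalg

variable {N : ℕ}

theorem det_map_conj (E : Matrix (Fin N) (Fin N) ℂ) : (E.map conj).det = conj E.det := by
  rw [← RingHom.mapMatrix_apply, ← RingHom.map_det]

theorem det_gram {E g : Matrix (Fin N) (Fin N) ℂ} (hg : g.PosDef) :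
    (E.map conj * g⁻¹ * Eᵀ).det = ((‖E.det‖ ^ 2 / g.det.re : ℝ) : ℂ) := by
  have hgr : ((g.det.re : ℝ) : ℂ) = g.det := by
    have h1 := hg.det_pos
    have h2 := (Complex.lt_def.1 h1).2
    exact Complex.ext (by simp) (by simpa using h2)
  rw [Matrix.det_mul, Matrix.det_mul, det_map_conj, Matrix.det_transpose,
    Matrix.det_nonsing_inv, Ring.inverse_eq_inv', ← Complex.normSq_eq_norm_sq]
  push_cast
  rw [hgr, ← Complex.mul_conj]
  ring

/-- `|det E|²/det g · tr((E^* E)⁻¹ g) = tr adj(E g⁻¹ E^*)` -/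
theorem adj_gram {E g : Matrix (Fin N) (Fin N) ℂ} (hE : E.det ≠ 0) (hg : g.PosDef) :
    (E.map conj * g⁻¹ * Eᵀ).adjugate.trace.re = ‖E.det‖ ^ 2 / g.det.re * tz E g := by
  have hgu : IsUnit g.det := (Matrix.isUnit_iff_isUnit_det _).1 hg.isUnit
  have hEu : IsUnit E.det := isUnit_iff_ne_zero.2 hE
  have hEt : IsUnit (Eᵀ).det := by rw [Matrix.det_transpose]; exact hEu
  have hEc : IsUnit (E.map conj).det := by
    rw [det_map_conj, isUnit_iff_ne_zero]
    simpa using hE
  set Gr := E.map conj * g⁻¹ * Eᵀ with hGr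
  have hdet : Gr.det = ((‖E.det‖ ^ 2 / g.det.re : ℝ) : ℂ) := det_gram hg
  have hG0 : Gr.det ≠ 0 := by
    rw [hGr, Matrix.det_mul, Matrix.det_mul, Matrix.det_nonsing_inv, Ring.inverse_eq_inv']
    exact mul_ne_zero (mul_ne_zero hEc.ne_zero (inv_ne_zero hgu.ne_zero)) hEt.ne_zero
  have h1 : Gr.adjugate = Gr.det • Gr⁻¹ := by
    rw [Matrix.inv_def, Ring.inverse_eq_inv', smul_smul, mul_inv_cancel₀ hG0, one_smul]
  have h2 : Gr⁻¹.trace = ((Xe E)⁻¹ * g).trace := by
    unfold Xe
    rw [hGr, Matrix.mul_inv_rev, Matrix.mul_inv_rev, Matrix.mul_inv_rev,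
      Matrix.nonsing_inv_nonsing_inv _ hgu]
    rw [← Matrix.mul_assoc, Matrix.trace_mul_comm, ← Matrix.mul_assoc]
  rw [h1, Matrix.trace_smul, h2, hdet, smul_eq_mul, Complex.re_ofReal_mul]
  rfl

end linalg

theorem differentiable_eval {N : ℕ} (P : MvPolynomial (Fin N) ℂ) :
    Differentiable ℂ fun w : Fin N → ℂ => MvPolynomial.eval w P := by
  induction P using MvPolynomial.induction_on with
  | C a =>
    simp only [MvPolynomial.eval_C]
    exact differentiable_const a
  | add p q hp hq =>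
    simp only [map_add]
    exact hp.add hq
  | mul_X p j hp =>
    simp only [map_mul, MvPolynomial.eval_X]
    exact hp.mul (differentiable_pi.1 differentiable_id j)

/-- a nonzero polynomial does not vanish identically on the torus -/
theorem exists_eval_ne {N : ℕ} {P : MvPolynomial (Fin N) ℂ} (hP : P ≠ 0) :
    ∃ w : Fin N → ℂ, (∀ j, w j ≠ 0) ∧ MvPolynomial.eval w P ≠ 0 := by
  by_contra hcon
  push Not at hcon
  have h1 : P * ∏ j, MvPolynomial.X j = 0 := by
    refine MvPolynomial.funext fun w => ?_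
    rw [map_mul, map_zero, map_prod]
    by_cases h : ∀ j, w j ≠ 0
    · rw [hcon w h, zero_mul]
    · push Not at h
      obtain ⟨j, hj⟩ := h
      refine mul_eq_zero_of_right _ (Finset.prod_eq_zero (Finset.mem_univ j) ?_)
      rw [MvPolynomial.eval_X, hj]
  rcases mul_eq_zero.1 h1 with h | h
  · exact hP h
  · exact (Finset.prod_ne_zero_iff.2 fun j _ => MvPolynomial.X_ne_zero j) h

/-- `{ζ | P(exp ζ) = 0}` is a null set -/
theorem volume_zero {N : ℕ} {P : MvPolynomial (Fin N) ℂ} (hP : P ≠ 0) :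
    volume {ζ : Fin N → ℂ | MvPolynomial.eval (expPi ζ) P = 0} = 0 := by
  obtain ⟨w, hw, hPw⟩ := exists_eval_ne hP
  have h1 := Df2_612.ae_segment_ne_zero (m := (volume : Measure (Fin N → ℂ)))
    (F := fun ζ => MvPolynomial.eval (expPi ζ) P)
    ((differentiable_eval P).comp differentiable_expPi) (z0 := Df5_612.lg w)
    (by
      show MvPolynomial.eval (expPi (Df5_612.lg w)) P ≠ 0
      rw [Df5_612.expPi_lg hw]; exact hPw)
  have h2 : ∀ᵐ ζ : Fin N → ℂ, MvPolynomial.eval (expPi ζ) P ≠ 0 := by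
    filter_upwards [h1] with ζ hζ
    have h3 := hζ 1 ⟨zero_le_one, le_rfl⟩
    have h4 : Df5_612.lg w + (1 : ℝ) • (ζ - Df5_612.lg w) = ζ := by
      rw [one_smul]; abel
    rwa [h4] at h3
  rw [ae_iff] at h2
  simpa using h2

variable {N : ℕ} {M : Type} [TopologicalSpace M] {A : Atl N M} {Lb : LB A}
  {s : Fin (N + 1) → A.ι → M → ℂ}

theorem quo_zero {x : M} (h : x ∉ nz (s 0)) : quo s x = 0 := by
  funext j
  have h0 : s 0 (ch A x) x = 0 := by
    by_contra hne
    exact h hne
  show s j.succ (ch A x) x / s 0 (ch A x) x = 0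
  rw [h0, div_zero]

variable [MeasurableSpace M] [BorelSpace M]

theorem measurable_quo (hs : ∀ j, IsHS Lb univ (s j)) : Measurable (quo s) := by
  classical
  have h1 : quo s = (nz (s 0)).piecewise (quo s) (fun _ => 0) := by
    funext x
    by_cases h : x ∈ nz (s 0)
    · rw [piecewise_eq_of_mem _ _ _ h]
    · rw [piecewise_eq_of_notMem _ _ _ h, quo_zero h]
  rw [h1]
  exact (rf_continuousOn (hs 0) (fun j => hs j.succ)).measurable_piecewise continuousOn_const
    (isOpen_nz (hs 0)).measurableSet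

variable [Countable A.ι] [T2Space M] [SecondCountableTopology M]

/-- `{P(F) = 0}` is a null set for the pulled back Lebesgue measure -/
theorem mM_zero (K : Kah A) (hs : ∀ j, IsHS Lb univ (s j)) {P : MvPolynomial (Fin N) ℂ}
    (hP : P ≠ 0) : mM K s {x | x ∈ Reg K s ∧ MvPolynomial.eval (quo s x) P = 0} = 0 := by
  have hloc : ∀ p ∈ Reg K s, ∃ O : Set M, IsOpen O ∧ p ∈ O ∧
      mM K s (O ∩ {x | x ∈ Reg K s ∧ MvPolynomial.eval (quo s x) P = 0}) = 0 := by
    intro p hp
    have hq : expPi (Df5_612.lg (quo s p)) = quo s p := Df5_612.expPi_lg fun j => quo_ne hs hp.1 j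
    obtain ⟨δ, hδ, Φ, h0, hH, hR, hinj, hop, hmul⟩ := exists_branch K hs hp hq
    refine ⟨Φ '' ball (Df5_612.lg (quo s p)) δ, hop _ subset_rfl isOpen_ball,
      ⟨_, mem_ball_self hδ, h0⟩, ?_⟩
    set B : Set (Fin N → ℂ) := ball (Df5_612.lg (quo s p)) δ ∩
      {ζ | MvPolynomial.eval (expPi ζ) P = 0} with hB
    have hBm : MeasurableSet B := by
      refine measurableSet_ball.inter ?_
      exact (isClosed_singleton (x := (0 : ℂ))).measurableSet.preimage
        ((differentiable_eval P).continuous.comp continuous_expPi).measurable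
    have h1 := (branch_lint K hs hH hR hinj hmul (φ := fun _ => 1) measurable_const
      (B := B) inter_subset_left hBm).2
    rw [setLIntegral_one, setLIntegral_one] at h1
    have h2 : volume B = 0 := measure_mono_null inter_subset_right (volume_zero hP)
    rw [h2] at h1
    refine measure_mono_null ?_ h1
    rintro _ ⟨⟨ζ, hζ, rfl⟩, hx⟩
    refine ⟨ζ, ⟨hζ, ?_⟩, rfl⟩
    show MvPolynomial.eval (expPi ζ) P = 0
    rw [← (hR ζ hζ).1]
    exact hx.2
  choose! O hO hpO hnull using hloc
  obtain ⟨T, hTR, hTc, hT⟩ := TopologicalSpace.countable_cover_nhdsWithin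
    (s := Reg K s) (f := O) (fun p hp => mem_nhdsWithin_of_mem_nhds ((hO p hp).mem_nhds (hpO p hp)))
  refine measure_mono_null (t := ⋃ p ∈ T, O p ∩ {x | x ∈ Reg K s ∧
    MvPolynomial.eval (quo s x) P = 0}) ?_ ?_
  · intro x hx
    obtain ⟨p, hp, hxp⟩ := mem_iUnion₂.1 (hT hx.1)
    exact mem_iUnion₂.2 ⟨p, hp, hxp, hx⟩
  · exact (measure_biUnion_null_iff hTc).2 fun p hp => hnull p (hTR hp)

/-- ... and for the volume -/
theorem vm_zero (K : Kah A) (hs : ∀ j, IsHS Lb univ (s j)) {P : MvPolynomial (Fin N) ℂ}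
    (hP : P ≠ 0) :
    vm (volK K) {x | x ∈ Reg K s ∧ MvPolynomial.eval (quo s x) P = 0} = 0 := by
  set S : Set M := {x | x ∈ Reg K s ∧ MvPolynomial.eval (quo s x) P = 0} with hS
  have hSm : MeasurableSet S := by
    refine (isOpen_Reg K hs).measurableSet.inter ?_
    exact (isClosed_singleton (x := (0 : ℂ))).measurableSet.preimage
      ((differentiable_eval P).continuous.measurable.comp (measurable_quo hs))
  have h1 := mM_zero K hs hP
  rw [← hS, mM, withDensity_apply _ hSm, lintegral_eq_zero_iff (measurable_dJ K hs)] at h1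
  rw [Filter.EventuallyEq, ae_restrict_iff' hSm] at h1
  rw [← nonpos_iff_eq_zero]
  refine le_trans (measure_mono fun x hx => ?_) (ae_iff.1 h1).le
  show ¬ (x ∈ S → Dh2_612.dJ K s x = (0 : M → ℝ≥0∞) x)
  intro hcon
  have h2 := hcon hx
  have h3 : Dh2_612.dJ K s x = ENNReal.ofReal (Jsq K s x) := by simp [Dh2_612.dJ, hx.1.1]
  rw [h3, Pi.zero_apply, ENNReal.ofReal_eq_zero] at h2
  have h4 : 0 ≤ Jsq K s x := by
    have hc := mem_ch A x
    have hg := det_re_pos (K.pos _ _ hc)
    unfold Jsq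
    positivity
  exact hx.1.2 (le_antisymm h2 h4)

end

end Crest.Agent.R281.Dh4_612
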