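import Crest.Agent.R281.HfA2_593

/-!
# Row 281 (S0424), S-HALFA (helper593), part 3: the analytic half of Theorem S

* `DiamStmt` : the diameter bound (612), the only hypothesis;
* `halfA_of : DiamStmt → HalfA`.
-/

set_option autoImplicit false
set_option linter.unusedSectionVars false

open Set Filter Topology Complex MeasureTheory
open scoped ContDiff Matrix ComplexConjugate ComplexOrder ENNReal NNReal

namespace Crest.Agent.R281.HfA_593

open Crest.Agent.R275.Geo Crest.Agent.R275.Core144 Crest.Agent.R275.EDR890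
open Crest.Agent.R273.Defs_333 Crest.Agent.R273.Hess_333 Crest.Agent.R273.HessB_333
open Crest.Agent.R273.HM_333 Crest.Agent.R273.Kah_333 Crest.Agent.R273.Vol_333
open Crest.Agent.R273.Vm_333 Crest.Agent.R273.FIb0_597
open Crest.Agent.R273.Ric_798 Crest.Agent.R273.RMan_798 Crest.Agent.R273.RMan4_798
open Crest.Agent.R273.SchI_152 (Dg Dg_nonneg continuous_Dg)
open Crest.Agent.R281.Tor_922 Crest.Agent.R281.SIn_14
open Crest.Agent.R281.SAsm_790 Crest.Agent.R281.Fra_922 Crest.Agent.R281.SGP_790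
open Crest.Agent.R281.TI_671 (gM gm gM_eq gM_posSemidef VS hf_VS VS_eq_eta NZ_iff_pos exists_fields)
open Crest.Agent.R281.St_405 Crest.Agent.R281.Mx_405 Crest.Agent.R281.Ins_615
open Crest.Agent.R281.Spi_405 Crest.Agent.R281.T6_16
open Crest.Agent.R281.Glob1_484 (nsM sm_nsM nsM_nonneg)

noncomputable section

/-! ### the normalised volume against the measure of the volume form -/

section measure

variable {N : ℕ} {M : Type} [TopologicalSpace M] {A : Atl N M} [T2Space M] [CompactSpace M]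
  [ConnectedSpace M] [MeasurableSpace M] [BorelSpace M] [Countable A.ι]

theorem muHE_eq_vm (K : Kah A) (E : Set (ofKah K).M) :
    (Measure.euclideanHausdorffMeasure (2 * N) : Measure (ofKah K).M) E =
      vm (volK K) (show Set M from E) := by
  have h := muHE_apply K (show Set M from E)
  have h1 : (toX K '' (show Set M from E)) = E := by
    ext x
    constructor
    · rintro ⟨z, hz, rfl⟩
      exact hz
    · intro hx
      exact ⟨(show M from x), hx, rfl⟩
  rwa [h1] at h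

theorem vm_univ_pos (K : Kah A) : 0 < vm (volK K) univ := by
  have := muHE_univ_pos K
  rwa [muHE_eq_vm] at this

theorem vm_univ_ne_top (K : Kah A) : vm (volK K) univ ≠ ⊤ := by
  have := muHE_univ_ne_top K
  rwa [muHE_eq_vm] at this

theorem muX_apply (K : Kah A) (E : Set (ofKah K).M) :
    muX K E = (vm (volK K) univ)⁻¹ * vm (volK K) (show Set M from E) := by
  unfold muX
  rw [Measure.smul_apply, smul_eq_mul, muHE_eq_vm, muHE_eq_vm]
  rfl

/-- integrals on measurable sets -/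
theorem setLIntegral_vm (K : Kah A) (f : M → ℝ≥0∞) {E : Set (ofKah K).M} (hE : MeasurableSet E) :
    ∫⁻ x in E, f x ∂(Measure.euclideanHausdorffMeasure (2 * N) : Measure (ofKah K).M) =
      ∫⁻ x in (show Set M from E), f x ∂(vm (volK K)) := by
  have hE' : MeasurableSet (show Set M from E) := (emb_toX K).measurable hE
  have h1 := lintegral_indicator hE (f : (ofKah K).M → ℝ≥0∞)
    (μ := (Measure.euclideanHausdorffMeasure (2 * N) : Measure (ofKah K).M))
  have h2 := lintegral_indicator hE' f (μ := vm (volK K))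
  exact h1.symm.trans ((lintegral_muHE K (fun x : M => (show Set M from E).indicator f x)).trans h2)

theorem lintegral_muX (K : Kah A) (g : (ofKah K).M → ℝ≥0∞) :
    ∫⁻ x, g x ∂(muX K) =
      ((Measure.euclideanHausdorffMeasure (2 * N) : Measure (ofKah K).M) univ)⁻¹ *
        ∫⁻ x, g x ∂(Measure.euclideanHausdorffMeasure (2 * N)) := by
  unfold muX
  rw [lintegral_smul_measure, smul_eq_mul]

theorem setLIntegral_muX (K : Kah A) (g : (ofKah K).M → ℝ≥0∞) (E : Set (ofKah K).M) :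
    ∫⁻ x in E, g x ∂(muX K) =
      ((Measure.euclideanHausdorffMeasure (2 * N) : Measure (ofKah K).M) univ)⁻¹ *
        ∫⁻ x in E, g x ∂(Measure.euclideanHausdorffMeasure (2 * N)) := by
  rw [restrict_muX, lintegral_smul_measure, smul_eq_mul]

theorem lintegral_muX_le (K : Kah A) {f : M → ℝ≥0∞} {g : (ofKah K).M → ℝ≥0∞}
    (hg : ∀ x : M, g x = f x)
    (hf : ∫⁻ x, f x ∂(vm (volK K)) ≤ vm (volK K) univ) :
    ∫⁻ x, g x ∂(muX K) ≤ 1 := by
  have hgf : g = f := funext hg
  rw [lintegral_muX]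
  have h2 : ∫⁻ x, g x ∂(Measure.euclideanHausdorffMeasure (2 * N)) ≤
      (Measure.euclideanHausdorffMeasure (2 * N) : Measure (ofKah K).M) univ := by
    rw [muHE_eq_vm]
    subst hgf
    exact (le_of_eq (lintegral_muHE K g)).trans hf
  refine (mul_le_mul_right h2 _).trans ?_
  exact ENNReal.inv_mul_le_one _

/-- the mean bound of `GoodPt` from the maximal function -/
theorem avg_of_Mx (K : Kah A) {Cc : ℝ≥0} (hD : Dbl (muX K) Cc) {f : M → ℝ≥0∞}
    {g : (ofKah K).M → ℝ≥0∞} (hg : ∀ x : M, g x = f x)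
    {lam : ℝ≥0∞} {y : (ofKah K).M}
    (hM : Mx (muX K) g y ≤ lam) {ρ : ℝ} (hρ : 0 < ρ) :
    ∫⁻ x in cbX K y ρ, f x ∂(vm (volK K)) ≤ lam * vm (volK K) (cbX K y ρ) := by
  have hgf : g = f := funext hg
  have h1 := (avg_le_Mx (μ := muX K) g y hρ).trans hM
  unfold avg at h1
  rw [ENNReal.div_le_iff (hD.pos y ρ hρ).ne' (hD.fin y ρ).ne, setLIntegral_muX, muX_apply,
    muHE_eq_vm] at h1
  subst hgf
  have h3 := setLIntegral_vm K g (E := Metric.closedBall y ρ)
    Metric.isClosed_closedBall.measurableSet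
  have h2 : (vm (volK K) univ)⁻¹ * ∫⁻ x in cbX K y ρ, g x ∂(vm (volK K)) ≤
      (vm (volK K) univ)⁻¹ * (lam * vm (volK K) (cbX K y ρ)) := by
    refine (le_of_eq ?_).trans (h1.trans (le_of_eq ?_))
    · exact congrArg (fun z => (vm (volK K) univ)⁻¹ * z) h3.symm
    · rw [mul_left_comm]
      rfl
  exact (ENNReal.mul_le_mul_iff_right (ENNReal.inv_ne_zero.2 (vm_univ_ne_top K))
    (ENNReal.inv_ne_top.2 (vm_univ_pos K).ne')).1 h2

/-- mass of a set, normalised -/
theorem le_muX (K : Kah A) {c : ℝ} (hc : 0 ≤ c) {S : Set M} {S' : Set (ofKah K).M}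
    (hSS : ∀ x : M, x ∈ S → (x : (ofKah K).M) ∈ S')
    (h : c * (vm (volK K)).real univ ≤ (vm (volK K)).real S) : ENNReal.ofReal c ≤ muX K S' := by
  rw [muX_apply]
  have h0 : vm (volK K) univ ≠ ⊤ := vm_univ_ne_top K
  have h1 : vm (volK K) S ≠ ⊤ := ne_top_of_le_ne_top h0 (measure_mono (subset_univ _))
  have h2 : ENNReal.ofReal c * vm (volK K) univ ≤ vm (volK K) S := by
    rw [← ofReal_measureReal h0, ← ofReal_measureReal h1, ← ENNReal.ofReal_mul hc]
    exact ENNReal.ofReal_le_ofReal h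
  have h3 : vm (volK K) S ≤ vm (volK K) (show Set M from S') := measure_mono fun x hx => hSS x hx
  rw [← ENNReal.div_eq_inv_mul, ENNReal.le_div_iff_mul_le (Or.inl (vm_univ_pos K).ne') (Or.inl h0)]
  exact h2.trans h3

end measure

/-! ### normalisation of a section -/

theorem exists_scale {X : Type*} [TopologicalSpace X] [CompactSpace X] {u : X → ℝ}
    (hu : Continuous u) {x0 : X} (h0 : 0 < u x0) :
    ∃ t : ℝ, 0 < t ∧ (∀ x, t * u x ≤ 1) ∧ ∃ p, t * u p = 1 := by
  obtain ⟨p, -, hp⟩ := isCompact_univ.exists_isMaxOn (f := u) ⟨x0, mem_univ x0⟩ hu.continuousOn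
  have hp' : ∀ x, u x ≤ u p := fun x => hp (mem_univ x)
  have hpos : 0 < u p := h0.trans_le (hp' x0)
  refine ⟨(u p)⁻¹, inv_pos.2 hpos, fun x => ?_, p, inv_mul_cancel₀ hpos.ne'⟩
  rw [inv_mul_le_iff₀ hpos, mul_one]
  exact hp' x

/-! ### the diameter -/

/-- the diameter bound -/
def DiamStmt : Prop :=
  ∀ (N : ℕ) (m v C0 c : ℝ) (d : ℕ), 1 ≤ N → 0 < m → 0 < v → 0 < c →
    ∃ C1 L1 : ℝ, 0 < C1 ∧ 1 ≤ L1 ∧ ∀ L : ℝ, L1 ≤ L →
    ∀ (M : Type) [TopologicalSpace M] [T2Space M] [CompactSpace M] [ConnectedSpace M]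
      [MeasurableSpace M] [BorelSpace M] (A : Atl N M) [Finite A.ι], Part A →
    ∀ (K : Kah A) (Lb : LB A) (h : HM Lb) (s : Fin (N + 1) → A.ι → M → ℂ) (om : A.ι → M → ℂ),
      SDat A K Lb h s om m v C0 c d L → ∀ x y : (ofKah K).M, dist x y ≤ C1 * L

/-- existence of a point outside two small bad sets -/
theorem exists_pt {X : Type*} [MeasurableSpace X] {μ : Measure X} {c : ℝ} (hc : 0 < c)
    {S B1 B2 : Set X} (hS : ENNReal.ofReal c ≤ μ S) (h1 : μ B1 ≤ ENNReal.ofReal (c / 4))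
    (h2 : μ B2 ≤ ENNReal.ofReal (c / 4)) : ∃ y ∈ S, y ∉ B1 ∧ y ∉ B2 := by
  by_contra hcon
  push Not at hcon
  have hsub : S ⊆ B1 ∪ B2 := by
    intro y hy
    by_cases h : y ∈ B1
    · exact Or.inl h
    · exact Or.inr (hcon y hy h)
  have h3 : ENNReal.ofReal c ≤ ENNReal.ofReal (c / 4 + c / 4) := by
    rw [ENNReal.ofReal_add (by positivity) (by positivity)]
    exact hS.trans ((measure_mono hsub).trans ((measure_union_le _ _).trans (add_le_add h1 h2)))
  rw [ENNReal.ofReal_le_ofReal_iff (by positivity)] at h3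
  linarith

theorem nine_le (N : ℕ) (hN : 1 ≤ N) : (9 : ℝ≥0) ≤ Csp N := by
  have h1 := Csp_poi N
  have h2 : (4 : ℝ) ^ 2 ≤ 4 ^ (2 * N) := pow_le_pow_right₀ (by norm_num) (by omega)
  have h3 : (9 : ℝ) ≤ (Csp N : ℝ) := by nlinarith
  exact_mod_cast h3

set_option maxHeartbeats 1600000 in
/-- **the analytic half of Theorem S** -/
theorem halfA_of (hD : DiamStmt) : HalfA := by
  intro N m v C0 c d hN hm hv hc
  obtain ⟨C1, L1, hC1, hL1, hdiam⟩ := hD N m v C0 c d hN hm hv hc
  have hN' : (1 : ℝ) ≤ N := by exact_mod_cast hN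
  have hC9 : (9 : ℝ) ≤ (Csp N : ℝ) := by exact_mod_cast nine_le N hN
  have hCpos : (0 : ℝ) < (Csp N : ℝ) := by linarith
  obtain ⟨Lam, K0, hLam, hK0, hT25⟩ := T25.{0} (Csp N) (m * N) C1 (by positivity) hC1 (N + 1)
    (c / 4) (by positivity)
  have hKT : 0 < KT N K0 := KT_pos hN hK0
  set lo : ℝ := c / 4 / (Csp N * KT N K0) ^ (N - 1) with hlo
  set hi : ℝ := Csp N * KT N K0 with hhi
  have hhi0 : 0 < hi := by positivity
  have hlo0 : 0 < lo := by positivity
  set lam : ℝ := 4 * (Csp N : ℝ) ^ 2 / c with hlam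
  have hlam0 : 0 < lam := by positivity
  set θ : ℝ := th (Csp N) (KT N K0) N (Real.sqrt c) with hθ
  have hθ0 : 0 < θ := th_pos hCpos.le N (Real.sqrt_pos.2 hc)
  have hθ1 : θ ≤ 1 / 24 := th_le _ _ _ _
  refine ⟨lo, hi, lam, hlo0, hhi0, hlam0, fun R hR => ?_⟩
  have hR' : 0 < R / θ := div_pos hR hθ0
  have hθR : θ * (R / θ) = R := by field_simp
  have hRR' : R ≤ R / θ := by
    rw [le_div_iff₀ hθ0]; nlinarith
  obtain ⟨rho, Aa, L₀, -, -, hL₀, hT⟩ := hT25 (R / θ) hR'
  refine ⟨max (max 1 L1) (max L₀ m), (le_max_left _ _).trans (le_max_left _ _), ?_⟩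
  intro L hL M _ _ _ _ _ _ A _ P K Lb h s om hSD f hf hf1
  cases nonempty_fintype A.ι
  have hLa : 1 ≤ L := ((le_max_left _ _).trans (le_max_left _ _)).trans hL
  have hLb : L1 ≤ L := ((le_max_right _ _).trans (le_max_left _ _)).trans hL
  have hLc : L₀ ≤ L := ((le_max_left _ _).trans (le_max_right _ _)).trans hL
  have hLd : m ≤ L := ((le_max_right _ _).trans (le_max_right _ _)).trans hL
  have hL0 : 0 < L := by linarith
  have hric := Crest.Agent.R281.Glob3_484.cur_volK_zero K hSD.omh hSD.omn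
  have hsemi : (volK K).Semipos := by
    refine semipos_of_cur fun i x hx => ?_
    rw [hric i x hx]
    exact Matrix.PosSemidef.zero
  have hS : Sp (calcX P K) (Csp N) := sp_calcX hN P K hsemi
  have hprob := prob_muX K
  -- the section data
  have hm0 : 0 ≤ m / L := by positivity
  have hm1 : m / L ≤ 1 := (div_le_one hL0).2 hLd
  have hsec0 : ∀ j, SecD (calcX P K) (Csp N) (m * N / L) (nsM h (s j) : (ofKah K).M → ℝ)
      (Crest.Agent.R281.Glob3_484.wM K h (s j) (m / L)) := by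
    intro j
    have h1 := Crest.Agent.R281.Glob3_484.secD (n := N) P hSD.curv hric (hSD.hol j) hm0 hm1 hN
      (nine_le N hN)
    have h2 : m / L * N = m * N / L := by ring
    rwa [h2] at h1
  -- the mass set
  set S' : Set (ofKah K).M := {x | NZ (A := A) (M := M) s x ∧ c ≤ Jsq K (M := M) s x} with hS'
  have hmass : ENNReal.ofReal c ≤ muX K S' :=
    le_muX K hc.le (fun x hx => ⟨hx.1, hx.2.2⟩) hSD.mass
  have hne : S'.Nonempty := by
    by_contra hcon
    rw [not_nonempty_iff_eq_empty] at hcon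
    rw [hcon, measure_empty] at hmass
    have : ENNReal.ofReal c ≤ 0 := hmass
    simp at this
    linarith
  obtain ⟨x0, hx0⟩ := hne
  have hpos0 : ∀ j, 0 < nsM h (s j) x0 := (NZ_iff_pos (A := A) (M := M) h).1 hx0.1
  have hscale : ∀ j, ∃ t : ℝ, 0 < t ∧ (∀ x : (ofKah K).M, t * nsM h (s j) x ≤ 1) ∧
      ∃ p : (ofKah K).M, t * nsM h (s j) p = 1 := fun j =>
    exists_scale (X := (ofKah K).M) (u := nsM h (s j))
      ((calcX P K).cont _ (sm_nsM h (hSD.hol j))) (hpos0 j)
  choose t ht ht1 ht2 using hscale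
  have hsec : ∀ j, SecD (calcX P K) (Csp N) (m * N / L) (fun x => t j * nsM h (s j) x)
      (fun x => t j * Crest.Agent.R281.Glob3_484.wM K h (s j) (m / L) x) :=
    fun j => smul_secD (hsec0 j) (ht j)
  have hbad1 := hT (ofKah K).M (muX K) (calcX P K) hS L hLc
    (hdiam L hLb M A P K Lb h s om hSD) (Fin (N + 1)) (by simp)
    (fun j x => t j * nsM h (s j) x)
    (fun j x => t j * Crest.Agent.R281.Glob3_484.wM K h (s j) (m / L) x) hsec
    (fun j => ⟨ht1 j, ht2 j⟩)
  obtain ⟨g, hg⟩ : ∃ g : (ofKah K).M → ℝ≥0∞, ∀ x : M, g x = f x := ⟨fun x => f x, fun _ => rfl⟩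
  have hbad2 : muX K {y | ENNReal.ofReal lam * 1 < Mx (muX K) g y} ≤
      ENNReal.ofReal (c / 4) := by
    have h1 := meas_bad_le hS.dbl g 1 (ENNReal.ofReal lam) one_ne_zero
      ENNReal.one_ne_top (by simpa using hlam0) ENNReal.ofReal_ne_top (lintegral_muX_le K hg hf1)
    refine h1.trans (le_of_eq ?_)
    have h2 : c / 4 = (Csp N : ℝ) ^ 2 / lam := by
      rw [hlam]; field_simp
    rw [h2, ENNReal.ofReal_div_of_pos hlam0, ENNReal.ofReal_pow (NNReal.coe_nonneg _),
      ENNReal.ofReal_coe_nnreal]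
  obtain ⟨y, hyS, hy1, hy2⟩ := exists_pt hc hmass hbad1 hbad2
  have hgood : ∀ j, GoodAt (calcX P K) (Csp N) (Real.exp (Lam * L)) K0 (R / θ) rho Aa
      (fun x => t j * nsM h (s j) x)
      (fun x => t j * Crest.Agent.R281.Glob3_484.wM K h (s j) (m / L) x) y := by
    by_contra hcon
    exact hy1 hcon
  have hMx : Mx (muX K) g y ≤ ENNReal.ofReal lam := by
    by_contra hcon
    refine hy2 ?_
    show ENNReal.ofReal lam * 1 < _
    rw [mul_one]
    exact not_le.1 hcon
  obtain ⟨hnz, hpin⟩ := core P K hS h hSD.hol hSD.omh hSD.omn ht hsec (Real.exp_pos _) hR' hgood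
    hc hyS.2
  rw [← hθ, hθR] at hpin
  have hsub : ∀ x : (ofKah K).M, (show M from x) ∈ bX K y R → x ∈ Metric.closedBall y R :=
    fun x hx => Metric.ball_subset_closedBall hx
  have hnz' : ∀ x : M, x ∈ bX K y R → NZ s x := fun x hx =>
    hnz x (Metric.closedBall_subset_closedBall hRR' (hsub x hx))
  refine ⟨y, hnz', ?_, ?_, ?_⟩
  · intro i x hx hxb w
    exact qf_lower K h hSD.hol hx (hnz' x hxb) hlo0 (hpin x (hsub x hxb)).1 w
  · intro i x hx hxb w
    exact qf_upper K h hSD.hol hx (hnz' x hxb) hhi0 (hpin x (hsub x hxb)).2 w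
  · intro ρ hρ
    exact avg_of_Mx K hS.dbl hg hMx hρ

end

end Crest.Agent.R281.HfA_593
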