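import Crest.Agent.R281.Glob1_484

/-!
# R281 (S0424), leaf S-GLOB, part 2 (helper484): the calculus `(Sm, Dg, Lap)` for compositions with
functions smooth on an open set; integrated inequalities

* `sm_compOn`, `Lap_compOn`, `Dg_compOn` : `φ` smooth on the open set `U ⊇ range u`
* `Lap_const`, `Lap_const_mul`, `Lap_add`, `Dg_const_mul`, `Dg_le_two` ..
* `int_of_lap_ge` : `τ - c ≤ Lap f` ⟹ `∫ τ ≤ c vol`
-/

set_option autoImplicit false
set_option linter.unusedSectionVars false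

open Set Filter Topology Complex MeasureTheory
open scoped ContDiff Matrix ComplexConjugate ComplexOrder

namespace Crest.Agent.R281.Glob2_484

open Crest.Agent.R275 Crest.Agent.R275.Geo Crest.Agent.R275.Core144 Crest.Agent.R275.EDR890
open Crest.Agent.R273.Defs_333 Crest.Agent.R273.Hess_333 Crest.Agent.R273.HessB_333
open Crest.Agent.R273.HM_333 Crest.Agent.R273.Kah_333 Crest.Agent.R273.Vol_333
open Crest.Agent.R273.Vm_333
open Crest.Agent.R273.Green_5 Crest.Agent.R273.FIa0_597 Crest.Agent.R273.FIb0_597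
open Crest.Agent.R273.FIc0_597 Crest.Agent.R273
open Crest.Agent.R273.SchI_152 (Dg sm_sq Dg_nonneg continuous_Dg)
open Crest.Agent.R281.Glob1_484

noncomputable section

variable {n : ℕ} {M : Type} [TopologicalSpace M] {A : Atl n M} {L L' : LB A}

/-! ### compositions -/

theorem sm_compOn {φ : ℝ → ℝ} {U : Set ℝ} (hφ : ContDiffOn ℝ ∞ φ U) {u : M → ℝ}
    (hu : A.Sm u) (hr : ∀ x, u x ∈ U) : A.Sm (fun x => φ (u x)) := fun i =>
  hφ.comp (hu i) fun _ _ => hr _

theorem deriv1 {φ : ℝ → ℝ} {U : Set ℝ} (hU : IsOpen U) (hφ : ContDiffOn ℝ ∞ φ U) {s : ℝ}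
    (hs : s ∈ U) : ∀ᶠ t in 𝓝 s, HasDerivAt φ (deriv φ t) t := by
  filter_upwards [hU.mem_nhds hs] with t ht
  exact ((hφ.contDiffAt (hU.mem_nhds ht)).differentiableAt (by simp)).hasDerivAt

theorem deriv2 {φ : ℝ → ℝ} {U : Set ℝ} (hU : IsOpen U) (hφ : ContDiffOn ℝ ∞ φ U) {s : ℝ}
    (hs : s ∈ U) : HasDerivAt (deriv φ) (deriv (deriv φ) s) s := by
  have h1 : ContDiffOn ℝ ∞ (deriv φ) U := hφ.deriv_of_isOpen hU (by simp)
  exact ((h1.contDiffAt (hU.mem_nhds hs)).differentiableAt (by simp)).hasDerivAt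

theorem Lap_compOn (K : Kah A) {φ : ℝ → ℝ} {U : Set ℝ} (hU : IsOpen U)
    (hφ : ContDiffOn ℝ ∞ φ U) {u : M → ℝ} (hu : A.Sm u) (hr : ∀ x, u x ∈ U) (x : M) :
    Lap K (fun y => φ (u y)) x = deriv φ (u x) * Lap K u x + deriv (deriv φ) (u x) * Dg K u x := by
  have hx := mem_ch A x
  rw [Lap_read K (sm_compOn hφ hu hr) hx, Lap_read K hu hx, Dg_eq K hu hx]
  exact trC_comp K hx (sm_at hu hx) (deriv1 hU hφ (hr x)) (deriv2 hU hφ (hr x))

theorem Dg_compOn (K : Kah A) {φ : ℝ → ℝ} {U : Set ℝ} (hU : IsOpen U)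
    (hφ : ContDiffOn ℝ ∞ φ U) {u : M → ℝ} (hu : A.Sm u) (hr : ∀ x, u x ∈ U) (x : M) :
    Dg K (fun y => φ (u y)) x = deriv φ (u x) ^ 2 * Dg K u x := by
  have e1 := Lap_compOn K hU hφ hu hr x
  have e2 := Lap_compOn K (φ := fun s => φ s ^ 2) hU (hφ.pow 2) hu hr x
  have e3 : Dg K (fun y => φ (u y)) x =
      (1 / 2) * Lap K (fun y => φ (u y) ^ 2) x - φ (u x) * Lap K (fun y => φ (u y)) x := rfl
  have d1 : ∀ᶠ t in 𝓝 (u x), HasDerivAt (fun s => φ s ^ 2) (2 * φ t * deriv φ t) t := by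
    filter_upwards [deriv1 hU hφ (hr x)] with t ht
    have h := ht.fun_pow 2
    simpa [mul_comm, mul_left_comm, mul_assoc] using h
  have d2 : deriv (fun s => φ s ^ 2) =ᶠ[𝓝 (u x)] fun t => 2 * φ t * deriv φ t := by
    filter_upwards [d1] with t ht
    exact ht.deriv
  have d3 : deriv (deriv fun s => φ s ^ 2) (u x) =
      2 * deriv φ (u x) * deriv φ (u x) + 2 * φ (u x) * deriv (deriv φ) (u x) := by
    rw [d2.deriv_eq]
    exact (((deriv1 hU hφ (hr x)).self_of_nhds.const_mul 2).mul (deriv2 hU hφ (hr x))).deriv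
  rw [e3, e1, e2, d3, d1.self_of_nhds.deriv]
  ring

/-! ### linearity -/

theorem sm_const (c : ℝ) : A.Sm (fun _ : M => c) := fun _ => contDiffOn_const

theorem sm_add {u v : M → ℝ} (hu : A.Sm u) (hv : A.Sm v) : A.Sm (fun y => u y + v y) :=
  fun i => (hu i).add (hv i)

theorem sm_sub {u v : M → ℝ} (hu : A.Sm u) (hv : A.Sm v) : A.Sm (fun y => u y - v y) :=
  fun i => (hu i).sub (hv i)

theorem sm_mul {u v : M → ℝ} (hu : A.Sm u) (hv : A.Sm v) : A.Sm (fun y => u y * v y) :=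
  fun i => (hu i).mul (hv i)

theorem Lap_const (K : Kah A) (c : ℝ) (x : M) : Lap K (fun _ => c) x = 0 := by
  have h := Lap_compOn K (φ := fun _ => c) isOpen_univ contDiffOn_const
    (sm_const (A := A) 0) (fun _ => mem_univ _) x
  simpa using h

theorem Lap_add (K : Kah A) {u v : M → ℝ} (hu : A.Sm u) (hv : A.Sm v) (x : M) :
    Lap K (fun y => u y + v y) x = Lap K u x + Lap K v x := by
  have hx := mem_ch A x
  rw [Lap_read K (sm_add hu hv) hx, Lap_read K hu hx, Lap_read K hv hx]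
  have h : hsf A (fun y => u y + v y) (ch A x) x = hsf A u (ch A x) x + hsf A v (ch A x) x :=
    hess_add (sm_at hu hx) (sm_at hv hx)
  unfold trC
  rw [h, Matrix.mul_add, Matrix.trace_add, Complex.add_re]

theorem Lap_const_mul (K : Kah A) (c : ℝ) {u : M → ℝ} (hu : A.Sm u) (x : M) :
    Lap K (fun y => c * u y) x = c * Lap K u x := by
  have h := Lap_compOn K (φ := fun s => c * s) isOpen_univ
    ((contDiff_const.mul contDiff_id).contDiffOn) hu (fun _ => mem_univ _) x
  have e1 : deriv (fun s : ℝ => c * s) = fun _ => c := by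
    funext s
    simpa using ((hasDerivAt_id s).const_mul c).deriv
  rw [h, e1]
  simp

theorem Lap_mul (K : Kah A) {u v : M → ℝ} (hu : A.Sm u) (hv : A.Sm v) (x : M) :
    Lap K (fun y => u y * v y) x = u x * Lap K v x + v x * Lap K u x +
      (Dg K (fun y => u y + v y) x - Dg K u x - Dg K v x) := by
  have h1 : Dg K (fun y => u y + v y) x = (1 / 2) * Lap K (fun y => (u y + v y) ^ 2) x -
      (u x + v x) * Lap K (fun y => u y + v y) x := rfl
  have h2 : Dg K u x = (1 / 2) * Lap K (fun y => u y ^ 2) x - u x * Lap K u x := rfl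
  have h3 : Dg K v x = (1 / 2) * Lap K (fun y => v y ^ 2) x - v x * Lap K v x := rfl
  have h4 : Lap K (fun y => (u y + v y) ^ 2) x = Lap K (fun y => u y ^ 2) x +
      2 * Lap K (fun y => u y * v y) x + Lap K (fun y => v y ^ 2) x := by
    have e : (fun y => (u y + v y) ^ 2) = fun y => (u y ^ 2 + 2 * (u y * v y)) + v y ^ 2 := by
      funext y; ring
    have s1 : A.Sm (fun y => 2 * (u y * v y)) := sm_mul (sm_const 2) (sm_mul hu hv)
    rw [e, Lap_add K (sm_add (sm_sq hu) s1) (sm_sq hv), Lap_add K (sm_sq hu) s1,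
      Lap_const_mul K 2 (sm_mul hu hv)]
  rw [h1, h2, h3, h4, Lap_add K hu hv]
  ring

/-! ### integrals -/

section int

variable [T2Space M] [CompactSpace M] [Fintype A.ι] [MeasurableSpace M] [BorelSpace M]

/-- `τ - c ≤ Lap f` ⟹ `∫ τ ≤ c · vol` -/
theorem int_of_lap_ge (P : Part A) (K : Kah A) {f τ : M → ℝ} {c : ℝ} (hf : A.Sm f)
    (hτ : Integrable τ (vm (volK K))) (h : ∀ x, τ x - c ≤ Lap K f x) :
    ∫ x, τ x ∂(vm (volK K)) ≤ c * (vm (volK K)).real univ := by
  have := isFinite_vm (volK K)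
  have h1 : ∫ x, (τ x - c) ∂(vm (volK K)) ≤ ∫ x, Lap K f x ∂(vm (volK K)) :=
    integral_mono (hτ.sub (integrable_const _)) (integrable_cont _ (cont_sm (sm_Lap K hf))) h
  rw [int_lap P K hf, integral_sub hτ (integrable_const _), integral_const, smul_eq_mul] at h1
  linarith

/-- `∫ (u Lap v + v Lap u) = - ∫ (Dg (u+v) - Dg u - Dg v)` -/
theorem int_mul (P : Part A) (K : Kah A) {u v : M → ℝ} (hu : A.Sm u) (hv : A.Sm v) :
    ∫ x, (u x * Lap K v x + v x * Lap K u x) ∂(vm (volK K)) =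
      - ∫ x, (Dg K (fun y => u y + v y) x - Dg K u x - Dg K v x) ∂(vm (volK K)) := by
  have h1 := int_lap P K (sm_mul hu hv)
  have c1 : Continuous fun x => u x * Lap K v x + v x * Lap K u x :=
    ((cont_sm hu).mul (cont_sm (sm_Lap K hv))).add ((cont_sm hv).mul (cont_sm (sm_Lap K hu)))
  have c2 : Continuous fun x => Dg K (fun y => u y + v y) x - Dg K u x - Dg K v x :=
    ((continuous_Dg K (sm_add hu hv)).sub (continuous_Dg K hu)).sub (continuous_Dg K hv)
  have e : (fun x => Lap K (fun y => u y * v y) x) = fun x =>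
      (u x * Lap K v x + v x * Lap K u x) +
        (Dg K (fun y => u y + v y) x - Dg K u x - Dg K v x) := by
    funext x
    rw [Lap_mul K hu hv x]
  rw [e, integral_add (integrable_cont _ c1) (integrable_cont _ c2)] at h1
  linarith

end int

end

end Crest.Agent.R281.Glob2_484
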