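import Crest.Agent.R281.Mx2_405

/-! Row 281, S-T25 (helper405), part 1: abstract calculus and space hypotheses; the functions
`log (1 + M u)`, energy bound, sup bound (T2). -/

set_option autoImplicit false
open MeasureTheory Metric Set Filter Topology
open scoped ENNReal NNReal ContDiff

namespace Crest.Agent.R281.St_405
open Crest.Agent.R281.Mx_405

/-- Smooth functions with `Gam f = |∂f|²` and `Lap f = g^{j k̄} f_{j k̄}` on a compact space. -/
structure Calc {X : Type*} [PseudoMetricSpace X] [MeasurableSpace X] (μ : Measure X) where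
  Sm : Set (X → ℝ)
  Gam : (X → ℝ) → X → ℝ
  Lap : (X → ℝ) → X → ℝ
  cont : ∀ f ∈ Sm, Continuous f
  contGam : ∀ f ∈ Sm, Continuous (Gam f)
  contLap : ∀ f ∈ Sm, Continuous (Lap f)
  Gam_nonneg : ∀ f ∈ Sm, ∀ x, 0 ≤ Gam f x
  comp_mem : ∀ f ∈ Sm, ∀ (U : Set ℝ) (φ : ℝ → ℝ), IsOpen U → (∀ x, f x ∈ U) →
    ContDiffOn ℝ ∞ φ U → (fun x => φ (f x)) ∈ Sm
  Gam_comp : ∀ f ∈ Sm, ∀ (U : Set ℝ) (φ : ℝ → ℝ), IsOpen U → (∀ x, f x ∈ U) →
    ContDiffOn ℝ ∞ φ U → ∀ x, Gam (fun x => φ (f x)) x = (deriv φ (f x)) ^ 2 * Gam f x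
  Lap_comp : ∀ f ∈ Sm, ∀ (U : Set ℝ) (φ : ℝ → ℝ), IsOpen U → (∀ x, f x ∈ U) →
    ContDiffOn ℝ ∞ φ U → ∀ x, Lap (fun x => φ (f x)) x =
      deriv φ (f x) * Lap f x + deriv (deriv φ) (f x) * Gam f x
  int_Lap : ∀ f ∈ Sm, ∫ x, Lap f x ∂μ = 0

/-- `L¹` Poincare inequality on all balls for the pair `(f, G)` (`G = |∇f|`). -/
def PI {X : Type*} [PseudoMetricSpace X] [MeasurableSpace X] (μ : Measure X) (f G : X → ℝ)
    (P : ℝ) : Prop :=
  ∀ (x : X) (r : ℝ), 0 < r →
    ⨍ z in closedBall x r, |f z - ⨍ z' in closedBall x r, f z' ∂μ| ∂μ ≤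
      P * r * ⨍ z in closedBall x (2 * r), G z ∂μ

/-- Space hypotheses; all constants are one `C`. -/
structure Sp {X : Type*} [PseudoMetricSpace X] [MeasurableSpace X] {μ : Measure X}
    (cal : Calc μ) (C : ℝ≥0) : Prop where
  prob : IsProbabilityMeasure μ
  dbl : Dbl μ C
  POI : ∀ f ∈ cal.Sm, PI μ f (fun x => Real.sqrt (cal.Gam f x)) C
  DG1 : ∀ f ∈ cal.Sm, (∀ x, 0 ≤ f x) → ∀ (y : X) (r A B : ℝ), 0 < r → 0 ≤ A → 0 ≤ B →
    B * r ^ 2 ≤ 1 → (∀ x ∈ closedBall y r, - A - B * f x ≤ cal.Lap f x) →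
    ∀ x ∈ closedBall y (r / 2), f x ≤ C * ((⨍ z in closedBall y r, f z ∂μ) + A * r ^ 2)
  CAC : ∀ f ∈ cal.Sm, (∀ x, 0 ≤ f x) → ∀ (h : X → ℝ), Continuous h → (∀ x, 0 ≤ h x) →
    ∀ (y : X) (r A B : ℝ), 0 < r → 0 ≤ A → 0 ≤ B → (∀ x ∈ closedBall y r, f x ≤ A) →
    (∀ x ∈ closedBall y r, h x ≤ cal.Lap f x + B) →
    ⨍ x in closedBall y (r / 2), h x ∂μ ≤ C * (A / r ^ 2 + B)
  LIP : ∀ f ∈ cal.Sm, ∀ (y : X) (r G : ℝ), 0 < r → 0 ≤ G →
    (∀ x ∈ closedBall y r, cal.Gam f x ≤ G ^ 2) →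
    ∀ p ∈ closedBall y (r / 3), ∀ q ∈ closedBall y (r / 3), |f p - f q| ≤ C * G * dist p q

/-- Data of a section: `u = |s|²`, `w = |∇s|²` (line bundle: `|∂ u|² = u w` exactly);
`b_e = u/(u+w+e)` has small energy for arbitrarily small `e`. -/
structure SecD {X : Type*} [PseudoMetricSpace X] [MeasurableSpace X] {μ : Measure X}
    (cal : Calc μ) (C : ℝ≥0) (kap : ℝ) (u w : X → ℝ) : Prop where
  u_mem : u ∈ cal.Sm
  w_mem : w ∈ cal.Sm
  u_nonneg : ∀ x, 0 ≤ u x
  w_nonneg : ∀ x, 0 ≤ w x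
  Lap_u : ∀ x, cal.Lap u x = w x - kap * u x
  Gam_u : ∀ x, cal.Gam u x = u x * w x
  Lap_w : ∀ x, - (C * kap * w x) ≤ cal.Lap w x
  jet : ∀ e₁ : ℝ, 0 < e₁ → ∃ e, 0 < e ∧ e ≤ e₁ ∧ (fun x => u x / (u x + w x + e)) ∈ cal.Sm ∧
    ∫ x, cal.Gam (fun x => u x / (u x + w x + e)) x ∂μ ≤ C * kap

/-! ### real functions -/

/-- softplus `log (1 + e^t)`. -/
noncomputable def sp (t : ℝ) : ℝ := Real.log (1 + Real.exp t)

lemma one_add_exp_pos (t : ℝ) : 0 < 1 + Real.exp t := by positivity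

lemma sp_nonneg (t : ℝ) : 0 ≤ sp t := Real.log_nonneg (by have := Real.exp_pos t; linarith)

lemma le_sp (t : ℝ) : t ≤ sp t := by
  have : Real.log (Real.exp t) ≤ Real.log (1 + Real.exp t) :=
    Real.log_le_log (Real.exp_pos t) (by linarith)
  rwa [Real.log_exp] at this

lemma sp_le (t : ℝ) : sp t ≤ Real.log 2 + |t| := by
  unfold sp
  have h1 : 1 + Real.exp t ≤ 2 * Real.exp |t| := by
    have h2 : Real.exp t ≤ Real.exp |t| := Real.exp_le_exp.2 (le_abs_self t)
    have h3 : 1 ≤ Real.exp |t| := Real.one_le_exp (abs_nonneg t)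
    linarith
  calc Real.log (1 + Real.exp t) ≤ Real.log (2 * Real.exp |t|) :=
        Real.log_le_log (one_add_exp_pos t) h1
    _ = Real.log 2 + |t| := by
        rw [Real.log_mul (by norm_num) (Real.exp_pos _).ne', Real.log_exp]

/-- logistic function. -/
noncomputable def sg (t : ℝ) : ℝ := Real.exp t / (1 + Real.exp t)

lemma sg_nonneg (t : ℝ) : 0 ≤ sg t := by unfold sg; positivity

lemma sg_le_one (t : ℝ) : sg t ≤ 1 := by
  unfold sg
  rw [div_le_one (one_add_exp_pos t)]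
  linarith

lemma hasDerivAt_sp (t : ℝ) : HasDerivAt sp (sg t) t := by
  have h1 : HasDerivAt (fun s : ℝ => 1 + Real.exp s) (Real.exp t) t := by
    simpa using (Real.hasDerivAt_exp t).const_add 1
  exact h1.log (one_add_exp_pos t).ne'

lemma hasDerivAt_sg (t : ℝ) : HasDerivAt sg (sg t * (1 - sg t)) t := by
  have h1 : HasDerivAt (fun s : ℝ => 1 + Real.exp s) (Real.exp t) t := by
    simpa using (Real.hasDerivAt_exp t).const_add 1
  have h2 := (Real.hasDerivAt_exp t).div h1 (one_add_exp_pos t).ne'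
  refine h2.congr_deriv ?_
  unfold sg
  have := (one_add_exp_pos t).ne'
  field_simp

lemma contDiff_sp : ContDiff ℝ ∞ sp := by
  unfold sp
  exact (contDiff_const.add Real.contDiff_exp).log fun x => (one_add_exp_pos x).ne'

section
variable {X : Type*} [PseudoMetricSpace X] [MeasurableSpace X] {μ : Measure X} {cal : Calc μ}

lemma sp_shift_mem {f : X → ℝ} (hf : f ∈ cal.Sm) (c : ℝ) : (fun x => sp (f x - c)) ∈ cal.Sm :=
  cal.comp_mem f hf univ (fun t => sp (t - c)) isOpen_univ (fun _ => mem_univ _)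
    (contDiff_sp.comp (contDiff_id.sub contDiff_const)).contDiffOn

lemma Lap_sp_shift {f : X → ℝ} (hf : f ∈ cal.Sm) (c : ℝ) (x : X) :
    cal.Lap (fun x => sp (f x - c)) x =
      sg (f x - c) * cal.Lap f x + sg (f x - c) * (1 - sg (f x - c)) * cal.Gam f x := by
  have hd : deriv (fun t : ℝ => sp (t - c)) = fun t => sg (t - c) := by
    funext t
    have := (hasDerivAt_sp (t - c)).comp t ((hasDerivAt_id t).sub_const c)
    simpa [Function.comp_def] using this.deriv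
  have hd2 : deriv (fun t : ℝ => sg (t - c)) = fun t => sg (t - c) * (1 - sg (t - c)) := by
    funext t
    have := (hasDerivAt_sg (t - c)).comp t ((hasDerivAt_id t).sub_const c)
    simpa [Function.comp_def] using this.deriv
  have h := cal.Lap_comp f hf univ (fun t => sp (t - c)) isOpen_univ (fun _ => mem_univ _)
    (contDiff_sp.comp (contDiff_id.sub contDiff_const)).contDiffOn x
  rw [hd, hd2] at h
  exact h

lemma Lap_sp_shift_ge {f : X → ℝ} (hf : f ∈ cal.Sm) (c kap : ℝ) (hk : 0 ≤ kap) (x : X)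
    (h : - kap ≤ cal.Lap f x) : - kap ≤ cal.Lap (fun x => sp (f x - c)) x := by
  rw [Lap_sp_shift hf]
  have h1 := sg_nonneg (f x - c)
  have h2 := sg_le_one (f x - c)
  have h3 := cal.Gam_nonneg f hf x
  have h4 : 0 ≤ sg (f x - c) * (1 - sg (f x - c)) * cal.Gam f x :=
    mul_nonneg (mul_nonneg h1 (by linarith)) h3
  nlinarith

/-- the reflected softplus `sp (c - f)`. -/
lemma sp_refl_mem {f : X → ℝ} (hf : f ∈ cal.Sm) (c V : ℝ) :
    (fun x => sp (c - f x) / V) ∈ cal.Sm :=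
  cal.comp_mem f hf univ (fun t => sp (c - t) / V) isOpen_univ (fun _ => mem_univ _)
    ((contDiff_sp.comp (contDiff_const.sub contDiff_id)).div_const V).contDiffOn

lemma Lap_sp_refl {f : X → ℝ} (hf : f ∈ cal.Sm) (c V : ℝ) (x : X) :
    cal.Lap (fun x => sp (c - f x) / V) x =
      - (sg (c - f x) / V) * cal.Lap f x +
        sg (c - f x) * (1 - sg (c - f x)) / V * cal.Gam f x := by
  have hd : deriv (fun t : ℝ => sp (c - t) / V) = fun t => - (sg (c - t) / V) := by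
    funext t
    have := ((hasDerivAt_sp (c - t)).comp t ((hasDerivAt_id t).const_sub c)).div_const V
    simpa [Function.comp_def, neg_div] using this.deriv
  have hd2 : deriv (fun t : ℝ => - (sg (c - t) / V)) =
      fun t => sg (c - t) * (1 - sg (c - t)) / V := by
    funext t
    have := (((hasDerivAt_sg (c - t)).comp t ((hasDerivAt_id t).const_sub c)).div_const V).neg
    simpa [Function.comp_def, neg_div] using this.deriv
  have h := cal.Lap_comp f hf univ (fun t => sp (c - t) / V) isOpen_univ (fun _ => mem_univ _)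
    ((contDiff_sp.comp (contDiff_const.sub contDiff_id)).div_const V).contDiffOn x
  rw [hd, hd2] at h
  exact h

/-! ### `log (1 + M u)` -/

variable {C : ℝ≥0} {kap : ℝ} {u w : X → ℝ}

/-- the truncated logarithm. -/
noncomputable def lg (M : ℝ) (u : X → ℝ) (x : X) : ℝ := Real.log (1 + M * u x)

lemma contDiffOn_lg (M : ℝ) : ContDiffOn ℝ ∞ (fun t : ℝ => Real.log (1 + M * t))
    {t | 0 < 1 + M * t} := by
  refine ContDiffOn.log ?_ fun t ht => ne_of_gt ht
  exact (contDiff_const.add (contDiff_const.mul contDiff_id)).contDiffOn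

lemma isOpen_lg (M : ℝ) : IsOpen {t : ℝ | 0 < 1 + M * t} :=
  isOpen_lt continuous_const (by fun_prop)

lemma SecD.pos (h : SecD cal C kap u w) {M : ℝ} (hM : 0 ≤ M) (x : X) : 0 < 1 + M * u x := by
  have := mul_nonneg hM (h.u_nonneg x)
  linarith

lemma SecD.lg_mem (h : SecD cal C kap u w) {M : ℝ} (hM : 0 ≤ M) : lg M u ∈ cal.Sm :=
  cal.comp_mem u h.u_mem _ (fun t => Real.log (1 + M * t)) (isOpen_lg M) (fun x => h.pos hM x)
    (contDiffOn_lg M)

lemma hasDerivAt_lg {M t : ℝ} (ht : 0 < 1 + M * t) :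
    HasDerivAt (fun t : ℝ => Real.log (1 + M * t)) (M / (1 + M * t)) t := by
  have h1 : HasDerivAt (fun s : ℝ => 1 + M * s) M t := by
    simpa using ((hasDerivAt_id t).const_mul M).const_add 1
  exact h1.log ht.ne'

lemma deriv2_lg {M t : ℝ} (ht : 0 < 1 + M * t) :
    deriv (deriv (fun t : ℝ => Real.log (1 + M * t))) t = - (M ^ 2 / (1 + M * t) ^ 2) := by
  have h0 : deriv (fun t : ℝ => Real.log (1 + M * t)) =ᶠ[𝓝 t] fun s => M / (1 + M * s) := by
    filter_upwards [(isOpen_lg M).mem_nhds ht] with s hs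
    exact (hasDerivAt_lg hs).deriv
  rw [h0.deriv_eq]
  have h1 : HasDerivAt (fun s : ℝ => 1 + M * s) M t := by
    simpa using ((hasDerivAt_id t).const_mul M).const_add 1
  have h2 := (hasDerivAt_const t M).div h1 ht.ne'
  have h3 : HasDerivAt (fun s : ℝ => M / (1 + M * s)) ((0 * (1 + M * t) - M * M) / (1 + M * t) ^ 2)
      t := h2
  rw [h3.deriv]
  field_simp
  ring

lemma SecD.Gam_lg (h : SecD cal C kap u w) {M : ℝ} (hM : 0 ≤ M) (x : X) :
    cal.Gam (lg M u) x = (M / (1 + M * u x)) ^ 2 * cal.Gam u x := by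
  have := cal.Gam_comp u h.u_mem _ (fun t => Real.log (1 + M * t)) (isOpen_lg M)
    (fun x => h.pos hM x) (contDiffOn_lg M) x
  rw [(hasDerivAt_lg (h.pos hM x)).deriv] at this
  exact this

lemma SecD.Lap_lg_ge (h : SecD cal C kap u w) {M : ℝ} (hM : 0 ≤ M) (hk : 0 ≤ kap) (x : X) :
    - kap ≤ cal.Lap (lg M u) x := by
  have h0 := cal.Lap_comp u h.u_mem _ (fun t => Real.log (1 + M * t)) (isOpen_lg M)
    (fun x => h.pos hM x) (contDiffOn_lg M) x
  rw [(hasDerivAt_lg (h.pos hM x)).deriv, deriv2_lg (h.pos hM x), h.Lap_u x] at h0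
  have h0' : cal.Lap (lg M u) x = M / (1 + M * u x) * (w x - kap * u x) +
      - (M ^ 2 / (1 + M * u x) ^ 2) * cal.Gam u x := h0
  rw [h0']
  have hp := h.pos hM x
  set a := 1 + M * u x with ha
  have h1 : M ^ 2 / a ^ 2 * cal.Gam u x ≤ M ^ 2 / a ^ 2 * (u x * w x) := by
    rw [h.Gam_u x]
  have h2 : M / a * (w x - kap * u x) + - (M ^ 2 / a ^ 2) * cal.Gam u x + kap ≥ 0 := by
    have h3 : M / a * (w x - kap * u x) - M ^ 2 / a ^ 2 * (u x * w x) + kap =
        M * w x / a ^ 2 + kap / a := by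
      field_simp
      rw [ha]
      ring
    have h4 : 0 ≤ M * w x / a ^ 2 + kap / a := by
      have := h.w_nonneg x
      positivity
    linarith
  linarith

end

end Crest.Agent.R281.St_405
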