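import Crest.Agent.R281.Ins4_615
import Crest.Agent.R281.Glob2_484
import Crest.Agent.R281.St1_405

/-!
# R281, S-SPI (helper615), part 0: the calculus on `(ofKah K).M`

* `muX K` : the normalised volume of `(ofKah K).M` (`M` compact)
* `calcX P K : Calc (muX K)` : `Sm = A.Sm`, `Gam = Dg K`, `Lap = Lap K`
-/

set_option autoImplicit false
set_option linter.unusedSectionVars false

open Set Filter Topology MeasureTheory Matrix Manifold
open scoped ContDiff Manifold ENNReal NNReal
open Crest.Agent.R275.Geo Crest.Agent.R275.EDR890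
open Crest.Agent.R273.RMan_798 Crest.Agent.R273.RMan4_798
open Crest.Agent.R275.Core144 Crest.Agent.R273.Defs_333 Crest.Agent.R273.Kah_333
open Crest.Agent.R273.Vol_333 Crest.Agent.R273.Vm_333 Crest.Agent.R273.FIb0_597
open Crest.Agent.R273.SchI_152 (Dg Dg_nonneg continuous_Dg)
open Crest.Agent.R281.Glob1_484 Crest.Agent.R281.Glob2_484 Crest.Agent.R281.St_405

namespace Crest.Agent.R281.Ins_615

noncomputable section

variable {n : ℕ} {M : Type} [TopologicalSpace M] {A : Atl n M} [T2Space M] [ConnectedSpace M]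

/-- the normalised volume -/
def muX (K : Kah A) : Measure (ofKah K).M :=
  ((Measure.euclideanHausdorffMeasure (2 * n) : Measure (ofKah K).M) univ)⁻¹ •
    (Measure.euclideanHausdorffMeasure (2 * n) : Measure (ofKah K).M)

theorem muHE_univ_ne_top [CompactSpace M] (K : Kah A) :
    (Measure.euclideanHausdorffMeasure (2 * n) : Measure (ofKah K).M) univ ≠ ⊤ := by
  have := finite_muHE K
  exact measure_ne_top _ _

theorem muHE_univ_pos [CompactSpace M] (K : Kah A) :
    0 < (Measure.euclideanHausdorffMeasure (2 * n) : Measure (ofKah K).M) univ := by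
  have := Crest.Agent.R247.Ms322.isOpenPosMeasure (2 * n) (ofKah K).M
  exact isOpen_univ.measure_pos _ univ_nonempty

theorem prob_muX [CompactSpace M] (K : Kah A) : IsProbabilityMeasure (muX K) := by
  refine ⟨?_⟩
  unfold muX
  rw [Measure.smul_apply, smul_eq_mul]
  exact ENNReal.inv_mul_cancel (muHE_univ_pos K).ne' (muHE_univ_ne_top K)

/-- integrals against the normalised volume -/
theorem integral_muX (K : Kah A) (f : (ofKah K).M → ℝ) :
    ∫ x, f x ∂(muX K) =
      ((Measure.euclideanHausdorffMeasure (2 * n) : Measure (ofKah K).M).real univ)⁻¹ *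
        ∫ x, f x ∂(Measure.euclideanHausdorffMeasure (2 * n)) := by
  unfold muX
  rw [integral_smul_measure, smul_eq_mul, ENNReal.toReal_inv]
  rfl

theorem restrict_muX (K : Kah A) (s : Set (ofKah K).M) :
    (muX K).restrict s =
      ((Measure.euclideanHausdorffMeasure (2 * n) : Measure (ofKah K).M) univ)⁻¹ •
        (Measure.euclideanHausdorffMeasure (2 * n) : Measure (ofKah K).M).restrict s := by
  unfold muX
  rw [Measure.restrict_smul]

/-- means do not see the normalisation -/
theorem average_muX [CompactSpace M] (K : Kah A) (s : Set (ofKah K).M) (f : (ofKah K).M → ℝ) :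
    ⨍ x in s, f x ∂(muX K) = ⨍ x in s, f x ∂(Measure.euclideanHausdorffMeasure (2 * n)) := by
  rw [setAverage_eq, setAverage_eq, restrict_muX]
  have h0 : ((Measure.euclideanHausdorffMeasure (2 * n) : Measure (ofKah K).M).real univ) ≠ 0 :=
    (ENNReal.toReal_pos (muHE_univ_pos K).ne' (muHE_univ_ne_top K)).ne'
  have h1 : (muX K).real s =
      ((Measure.euclideanHausdorffMeasure (2 * n) : Measure (ofKah K).M).real univ)⁻¹ *
        (Measure.euclideanHausdorffMeasure (2 * n) : Measure (ofKah K).M).real s := by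
    unfold muX
    rw [measureReal_ennreal_smul_apply, ENNReal.toReal_inv]
    rfl
  rw [h1, integral_smul_measure, smul_eq_mul, smul_eq_mul, smul_eq_mul, ENNReal.toReal_inv]
  change _ * (((Measure.euclideanHausdorffMeasure (2 * n) : Measure (ofKah K).M).real univ)⁻¹ * _)
    = _
  rw [mul_inv, inv_inv]
  field_simp

variable [CompactSpace M] [Fintype A.ι]

/-- **the calculus on `(ofKah K).M`** -/
def calcX (P : Part A) (K : Kah A) : Calc (muX K) where
  Sm := {f | A.Sm (M := M) f}
  Gam := fun f => Dg K (M := M) f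
  Lap := fun f => Lap K (M := M) f
  cont f hf := Crest.Agent.R273.FIc0_597.cont_sm (A := A) hf
  contGam f hf := continuous_Dg K hf
  contLap f hf := Crest.Agent.R273.FIc0_597.cont_sm (sm_Lap K hf)
  Gam_nonneg f hf := Dg_nonneg K hf
  comp_mem f hf U φ _ hr hφ := sm_compOn (A := A) hφ hf hr
  Gam_comp f hf U φ hU hr hφ x := Dg_compOn K hU hφ hf hr x
  Lap_comp f hf U φ hU hr hφ x := Lap_compOn K hU hφ hf hr x
  int_Lap f hf := by
    let _ : MeasurableSpace M := borel M
    have : BorelSpace M := ⟨rfl⟩
    have h1 := integral_muHE K (fun x : M => Lap K (M := M) f x)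
    rw [int_lap P K hf] at h1
    refine (integral_muX K (fun x => Lap K (M := M) f x)).trans ?_
    exact (congrArg _ h1).trans (mul_zero _)

@[simp] theorem calcX_Lap (P : Part A) (K : Kah A) (f : (ofKah K).M → ℝ) (x : (ofKah K).M) :
    (calcX P K).Lap f x = Lap K (M := M) f x := rfl

@[simp] theorem calcX_Gam (P : Part A) (K : Kah A) (f : (ofKah K).M → ℝ) (x : (ofKah K).M) :
    (calcX P K).Gam f x = Dg K (M := M) f x := rfl

theorem mem_calcX (P : Part A) (K : Kah A) (f : (ofKah K).M → ℝ) :
    f ∈ (calcX P K).Sm ↔ A.Sm (M := M) f := Iff.rfl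

end

end Crest.Agent.R281.Ins_615
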