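import Crest.Agent.R247.Pyt1_710

/-!
# R281, leaf S-POINC (helper274), part 1: doubling and Poincaré inequalities from a radial
contraction structure `Rad n κ X μ` (R247: every complete manifold with `Ric ≥ -κ`)

* `ball_doubling`, `closedBall_doubling`, `closedBall_diff_le` (annuli), `ball_pos`
* `UG C f h` : `h` is an upper gradient of `f` along the minimisers of `C`;
  `UG.of_lip` : every locally Lipschitz `f` with pointwise constant `G`
* `poinc_pairs` (1,1), `poinc_pairs_sq` (2,2), mean forms `poinc_one`, `poinc_two`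
-/

set_option autoImplicit false
set_option linter.unusedSectionVars false
open MeasureTheory Set Filter Topology Metric Crest.Agent.R247.Mcp688 Crest.Agent.R247.Pyt710
open scoped ENNReal NNReal

noncomputable section
namespace Crest.Agent.R281.Poin_274

variable {n : ℕ} {κ : ℝ} {X : Type*} [MetricSpace X] [MeasurableSpace X] [BorelSpace X]
  {μ : Measure X} (C : Rad n κ X μ)

/-! ### Bishop–Gromov -/

include C in
/-- Bishop–Gromov for closed balls and the unweighted measure. -/
theorem mu_closedBall_le (hκ : 0 ≤ κ) (x : X) {r R : ℝ} (hr : 0 < r) (hR : r ≤ R) :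
    μ (closedBall x R) ≤
      ENNReal.ofReal (Real.exp (κ * R ^ 2 / 2) * (R / r) ^ n) * μ (closedBall x r) := by
  have h1 : ENNReal.ofReal (wt κ R) * μ (closedBall x R) ≤ wm μ κ x (closedBall x R) :=
    le_wm μ x hκ isClosed_closedBall.measurableSet fun z hz => by
      rw [dist_comm]; exact mem_closedBall.1 hz
  have h2 := C.closedBall_le x hr hR
  have h3 : wm μ κ x (closedBall x r) ≤ μ (closedBall x r) := wm_le μ x hκ _
  calc μ (closedBall x R)
      = ENNReal.ofReal (Real.exp (κ * R ^ 2 / 2)) *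
          (ENNReal.ofReal (wt κ R) * μ (closedBall x R)) := by
        rw [← mul_assoc, ← ENNReal.ofReal_mul (Real.exp_pos _).le, wt, ← Real.exp_add,
          add_neg_cancel, Real.exp_zero, ENNReal.ofReal_one, one_mul]
    _ ≤ ENNReal.ofReal (Real.exp (κ * R ^ 2 / 2)) *
          (ENNReal.ofReal ((R / r) ^ n) * μ (closedBall x r)) := by
        refine mul_le_mul_right (h1.trans (h2.trans ?_)) _
        gcongr
    _ = _ := by rw [← mul_assoc, ← ENNReal.ofReal_mul (Real.exp_pos _).le]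

/-- the doubling constant up to scale `r` -/
def dC (n : ℕ) (κ r : ℝ) : ℝ := Real.exp (κ * (2 * r) ^ 2 / 2) * 2 ^ n

theorem dC_pos (n : ℕ) (κ r : ℝ) : 0 < dC n κ r := by unfold dC; positivity

theorem one_le_dC (hκ : 0 ≤ κ) (n : ℕ) (r : ℝ) : 1 ≤ dC n κ r := by
  unfold dC
  have h1 : 1 ≤ Real.exp (κ * (2 * r) ^ 2 / 2) := Real.one_le_exp (by positivity)
  have h2 : (1 : ℝ) ≤ 2 ^ n := one_le_pow₀ (by norm_num)
  nlinarith

@[simp] theorem dC_zero (n : ℕ) (r : ℝ) : dC n 0 r = 2 ^ n := by simp [dC]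

theorem segC_eq (n : ℕ) (κ r : ℝ) : segC n κ (2 * r) = ENNReal.ofReal (dC n κ r) := rfl

include C in
theorem ball_doubling (hκ : 0 ≤ κ) (x : X) {r : ℝ} (hr : 0 < r) :
    μ (ball x (2 * r)) ≤ ENNReal.ofReal (dC n κ r) * μ (ball x r) := by
  have h := C.mu_ball_le hκ x hr (R := 2 * r) (by linarith)
  rwa [show 2 * r / r = 2 by field_simp] at h

include C in
theorem closedBall_doubling (hκ : 0 ≤ κ) (x : X) {r : ℝ} (hr : 0 < r) :
    μ (closedBall x (2 * r)) ≤ ENNReal.ofReal (dC n κ r) * μ (closedBall x r) := by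
  have h := mu_closedBall_le C hκ x hr (R := 2 * r) (by linarith)
  rwa [show 2 * r / r = 2 by field_simp] at h

include C in
/-- closed balls are controlled by open balls of the same radius -/
theorem closedBall_le_ball (hκ : 0 ≤ κ) (x : X) {r : ℝ} (hr : 0 < r) :
    μ (closedBall x r) ≤ ENNReal.ofReal (dC n κ r) * μ (ball x r) :=
  (measure_mono (closedBall_subset_ball (by linarith))).trans (ball_doubling C hκ x hr)

include C in
/-- Bishop–Gromov on annuli (`κ = 0`). -/
theorem closedBall_diff_le {μ : Measure X} (C : Rad n 0 X μ) (x : X) {r R : ℝ} (hr : 0 < r)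
    (hR : r ≤ R) (hfin : μ (closedBall x r) ≠ ∞) :
    μ (closedBall x R \ closedBall x r) ≤
      ENNReal.ofReal ((R / r) ^ n - 1) * μ (closedBall x r) := by
  have h := mu_closedBall_le C le_rfl x hr hR
  rw [zero_mul, zero_div, Real.exp_zero, one_mul] at h
  have h1 : (1 : ℝ) ≤ (R / r) ^ n := one_le_pow₀ ((one_le_div hr).2 hR)
  rw [measure_sdiff (closedBall_subset_closedBall hR)
    isClosed_closedBall.measurableSet.nullMeasurableSet hfin]
  rw [ENNReal.ofReal_sub _ zero_le_one, ENNReal.ofReal_one, ENNReal.sub_mul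
    (fun _ _ => hfin), one_mul]
  exact tsub_le_tsub_right h _

include C in
/-- all balls have positive measure -/
theorem ball_pos (hκ : 0 ≤ κ) (hμ : μ ≠ 0) (x : X) {r : ℝ} (hr : 0 < r) : 0 < μ (ball x r) := by
  rw [pos_iff_ne_zero]
  intro h0
  apply hμ
  have h1 : ∀ R : ℝ, r ≤ R → μ (ball x R) = 0 := by
    intro R hR
    have h := C.mu_ball_le hκ x hr hR
    rw [h0, mul_zero] at h
    exact le_antisymm h bot_le
  have h2 : (⋃ k : ℕ, ball x (r + k)) = univ := by
    rw [eq_univ_iff_forall]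
    intro y
    obtain ⟨k, hk⟩ := exists_nat_gt (dist y x)
    exact mem_iUnion.2 ⟨k, mem_ball.2 (by linarith)⟩
  rw [← Measure.measure_univ_eq_zero, ← h2]
  exact measure_iUnion_null fun k => h1 _ (by have : (0 : ℝ) ≤ k := Nat.cast_nonneg k; linarith)

include C in
theorem closedBall_pos (hκ : 0 ≤ κ) (hμ : μ ≠ 0) (x : X) {r : ℝ} (hr : 0 < r) :
    0 < μ (closedBall x r) :=
  (ball_pos C hκ hμ x hr).trans_le (measure_mono ball_subset_closedBall)

/-! ### upper gradients along the minimisers -/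

/-- `h` is an upper gradient of `f` along the minimisers of `C` -/
def UG (C : Rad n κ X μ) (f : X → ℝ) (h : X → ℝ≥0∞) : Prop :=
  ∀ u v, (u, v) ∈ C.U → ENNReal.ofReal |f u - f v| ≤
    ENNReal.ofReal (dist u v) * ∫⁻ t in Icc (0 : ℝ) 1, h (C.T u t v)

namespace UG
variable {C} {f g : X → ℝ} {h k : X → ℝ≥0∞}

theorem mono (H : UG C f h) (hk : ∀ x, h x ≤ k x) : UG C f k := fun u v huv =>
  (H u v huv).trans (by gcongr; exact hk _)

theorem const (c : ℝ) : UG C (fun _ => c) h := fun _ _ _ => by simp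

theorem of_abs_le (H : UG C f h) (hg : ∀ u v, |g u - g v| ≤ |f u - f v|) : UG C g h :=
  fun u v huv => (ENNReal.ofReal_le_ofReal (hg u v)).trans (H u v huv)

theorem neg (H : UG C f h) : UG C (fun x => -f x) h :=
  H.of_abs_le fun u v => by rw [← neg_sub', abs_neg]

theorem abs (H : UG C f h) : UG C (fun x => |f x|) h :=
  H.of_abs_le fun _ _ => abs_abs_sub_abs_le_abs_sub _ _

theorem add_const (H : UG C f h) (c : ℝ) : UG C (fun x => f x + c) h :=
  H.of_abs_le fun u v => by rw [add_sub_add_right_eq_sub]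

theorem max_const (H : UG C f h) (c : ℝ) : UG C (fun x => max (f x) c) h :=
  H.of_abs_le fun _ _ => abs_max_sub_max_le_abs _ _ c

theorem min_const (H : UG C f h) (c : ℝ) : UG C (fun x => min (f x) c) h :=
  H.of_abs_le fun u v => by
    have h1 := abs_min_sub_min_le_max (f u) c (f v) c
    simpa using h1

theorem const_mul (H : UG C f h) (c : ℝ) : UG C (fun x => c * f x)
    (fun x => ENNReal.ofReal |c| * h x) := fun u v huv => by
  rw [← mul_sub, abs_mul, ENNReal.ofReal_mul (abs_nonneg c),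
    lintegral_const_mul' _ _ ENNReal.ofReal_ne_top]
  calc ENNReal.ofReal |c| * ENNReal.ofReal |f u - f v|
      ≤ ENNReal.ofReal |c| * (ENNReal.ofReal (dist u v) *
          ∫⁻ t in Icc (0 : ℝ) 1, h (C.T u t v)) := by gcongr; exact H u v huv
    _ = _ := by ring

theorem add (H : UG C f h) (K : UG C g k) (hh : Measurable h) :
    UG C (fun x => f x + g x) (fun x => h x + k x) := fun u v huv => by
  have hm : Measurable fun t : ℝ => h (C.T u t v) := by
    refine hh.comp (C.measT.comp (measurable_const.prodMk (measurable_id.prodMk measurable_const)))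
  rw [lintegral_add_left hm, mul_add]
  refine le_trans ?_ (add_le_add (H u v huv) (K u v huv))
  rw [← ENNReal.ofReal_add (abs_nonneg _) (abs_nonneg _)]
  apply ENNReal.ofReal_le_ofReal
  rw [add_sub_add_comm]
  exact abs_add_le _ _

/-- **every locally Lipschitz function** with pointwise Lipschitz constant `≤ G` -/
theorem of_lip {G : X → ℝ} (hf : LocallyLipschitz f) (hG : ∀ x, 0 ≤ G x)
    (hp : ∀ x, ∀ ε > 0, ∀ᶠ y in 𝓝 x, |f y - f x| ≤ (G x + ε) * dist y x) :
    UG C f (fun x => ENNReal.ofReal (G x)) := by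
  intro u v huv
  set D := dist u v with hD
  set γ : ℝ → X := fun t => C.T u t v with hγ
  have hγd : ∀ s ∈ Icc (0 : ℝ) 1, ∀ t ∈ Icc (0 : ℝ) 1, dist (γ s) (γ t) = |s - t| * D :=
    C.dist_T u v huv
  have hDn : 0 ≤ D := dist_nonneg
  -- extend the curve
  set pr : ℝ → ℝ := fun t => projIcc (0 : ℝ) 1 zero_le_one t with hpr
  have hprm : ∀ t, pr t ∈ Icc (0 : ℝ) 1 := fun t => (projIcc (0 : ℝ) 1 zero_le_one t).2
  have hprI : ∀ t ∈ Icc (0 : ℝ) 1, pr t = t := fun t ht => by
    simp [hpr, projIcc_of_mem zero_le_one ht]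
  have hγL : LipschitzOnWith (Real.toNNReal D) γ (Icc 0 1) := by
    refine LipschitzOnWith.of_dist_le_mul fun s hs t ht => ?_
    rw [hγd s hs t ht, Real.coe_toNNReal _ hDn, Real.dist_eq, mul_comm]
  have hcomp : LocallyLipschitzOn (Icc (0 : ℝ) 1) (f ∘ γ) := by
    intro s hs
    obtain ⟨K, t, ht, hK⟩ := hf (γ s)
    have hc : ContinuousWithinAt γ (Icc 0 1) s := hγL.continuousOn s hs
    refine ⟨K * Real.toNNReal D, Icc 0 1 ∩ γ ⁻¹' t,
      inter_mem self_mem_nhdsWithin (hc.preimage_mem_nhdsWithin ht), ?_⟩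
    exact hK.comp (hγL.mono inter_subset_left) fun x hx => hx.2
  obtain ⟨K, hK⟩ := hcomp.exists_lipschitzOnWith_of_compact isCompact_Icc
  have hac : AbsolutelyContinuousOnInterval (f ∘ γ) 0 1 := by
    apply LipschitzOnWith.absolutelyContinuousOnInterval (K := K)
    rwa [uIcc_of_le zero_le_one]
  have hftc := hac.integral_deriv_eq_sub
  have h0 : γ 0 = u := C.T_zero u v huv
  have h1 : γ 1 = v := C.T_one u v huv
  simp only [Function.comp_apply, h0, h1] at hftc
  have hint := hac.intervalIntegrable_deriv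
  have hder : ∀ t ∈ Ioo (0 : ℝ) 1, |deriv (f ∘ γ) t| ≤ D * G (γ t) := by
    intro t ht
    by_cases hd : DifferentiableAt ℝ (f ∘ γ) t
    swap
    · rw [deriv_zero_of_not_differentiableAt hd, abs_zero]
      exact mul_nonneg hDn (hG _)
    have hlim : ∀ ε > 0, |deriv (f ∘ γ) t| ≤ (G (γ t) + ε) * D := by
      intro ε hε
      have hev : ∀ᶠ s in 𝓝 t, |f (γ s) - f (γ t)| ≤ (G (γ t) + ε) * dist (γ s) (γ t) := by
        have hc : ContinuousAt γ t := by
          have := hγL.continuousOn t ⟨ht.1.le, ht.2.le⟩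
          exact this.continuousAt (Icc_mem_nhds ht.1 ht.2)
        exact hc.eventually (hp (γ t) ε hε)
      have hev2 : ∀ᶠ s in 𝓝[≠] t, ‖slope (f ∘ γ) t s‖ ≤ (G (γ t) + ε) * D := by
        filter_upwards [nhdsWithin_le_nhds hev, self_mem_nhdsWithin,
          nhdsWithin_le_nhds (Icc_mem_nhds ht.1 ht.2)] with s hs hst hsI
        have hne : s - t ≠ 0 := sub_ne_zero.2 hst
        rw [slope_def_field, norm_div, Real.norm_eq_abs, Real.norm_eq_abs,
          div_le_iff₀ (abs_pos.2 hne)]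
        rw [hγd s hsI t ⟨ht.1.le, ht.2.le⟩] at hs
        simp only [Function.comp_apply]
        linarith [hs, mul_comm (|s - t|) D, mul_assoc (G (γ t) + ε) D (|s - t|)]
      have hlim' := (hasDerivAt_iff_tendsto_slope.1 hd.hasDerivAt).norm
      exact le_of_tendsto hlim' hev2
    have h3 : Tendsto (fun ε : ℝ => (G (γ t) + ε) * D) (𝓝[>] 0) (𝓝 ((G (γ t) + 0) * D)) := by
      have : Continuous fun ε : ℝ => (G (γ t) + ε) * D := by fun_prop
      exact (this.tendsto 0).mono_left nhdsWithin_le_nhds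
    have h4 := ge_of_tendsto h3 (by filter_upwards [self_mem_nhdsWithin] with ε hε using hlim ε hε)
    rw [add_zero] at h4
    linarith [mul_comm (G (γ t)) D]
  calc ENNReal.ofReal |f u - f v| = ENNReal.ofReal |∫ t in (0 : ℝ)..1, deriv (f ∘ γ) t| := by
        rw [hftc, abs_sub_comm]
    _ ≤ ∫⁻ t in Ioc (0 : ℝ) 1, ENNReal.ofReal |deriv (f ∘ γ) t| := by
        rw [intervalIntegral.integral_of_le zero_le_one]
        have := enorm_integral_le_lintegral_enorm (μ := volume.restrict (Ioc (0 : ℝ) 1))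
          (f := deriv (f ∘ γ))
        rw [Real.enorm_eq_ofReal_abs] at this
        refine this.trans (le_of_eq ?_)
        refine lintegral_congr fun t => ?_
        rw [Real.enorm_eq_ofReal_abs]
    _ ≤ ∫⁻ t in Ioc (0 : ℝ) 1, ENNReal.ofReal D * ENNReal.ofReal (G (γ t)) := by
        apply lintegral_mono_ae
        have h5 : ∀ᵐ t ∂(volume.restrict (Ioc (0 : ℝ) 1)), t ≠ 1 :=
          Measure.ae_ne _ 1
        rw [ae_restrict_iff' measurableSet_Ioc] at h5 ⊢
        filter_upwards [h5] with t ht htI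
        rw [← ENNReal.ofReal_mul hDn]
        exact ENNReal.ofReal_le_ofReal (hder t ⟨htI.1, lt_of_le_of_ne htI.2 (ht htI)⟩)
    _ = ENNReal.ofReal D * ∫⁻ t in Ioc (0 : ℝ) 1, ENNReal.ofReal (G (γ t)) := by
        rw [lintegral_const_mul' _ _ ENNReal.ofReal_ne_top]
    _ ≤ ENNReal.ofReal D * ∫⁻ t in Icc (0 : ℝ) 1, ENNReal.ofReal (G (γ t)) := by
        gcongr
        exact Ioc_subset_Icc_self

end UG

/-! ### Poincaré -/

include C in
theorem T_mem {x u v : X} {r : ℝ} (hu : u ∈ closedBall x r) (hv : v ∈ closedBall x r)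
    (h : (u, v) ∈ C.U) {t : ℝ} (ht : t ∈ Icc (0 : ℝ) 1) : C.T u t v ∈ closedBall x (2 * r) := by
  rw [mem_closedBall] at *
  have h1 := C.dist_left h ht
  have h2 := C.dist_right h ht
  have h3 : dist u v ≤ 2 * r := by
    have := dist_triangle_right u v x
    linarith
  have h4 := dist_triangle (C.T u t v) u x
  have h5 := dist_triangle (C.T u t v) v x
  rw [dist_comm _ u] at h4
  have h6 : 0 ≤ dist u v := dist_nonneg
  rcases le_total t (1 / 2) with h7 | h7
  · have : t * dist u v ≤ 1 / 2 * (2 * r) := by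
      apply mul_le_mul h7 h3 h6 (by norm_num)
    linarith
  · have : (1 - t) * dist u v ≤ 1 / 2 * (2 * r) := by
      apply mul_le_mul (by linarith) h3 h6 (by norm_num)
    linarith

variable {C} {f : X → ℝ} {h : X → ℝ≥0∞}

/-- **(1,1)-Poincaré on pairs** -/
theorem poinc_pairs [SFinite μ] (hκ : 0 ≤ κ) (H : UG C f h) (hh : Measurable h) (x : X) (r : ℝ) :
    ∫⁻ u in closedBall x r, ∫⁻ v in closedBall x r, ENNReal.ofReal |f u - f v| ∂μ ∂μ ≤
      ENNReal.ofReal (4 * r * dC n κ r) * μ (closedBall x r) *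
        ∫⁻ y in closedBall x (2 * r), h y ∂μ := by
  have h1 := poincare_pairs C hκ (A := closedBall x r) (W := closedBall x (2 * r))
    isClosed_closedBall.measurableSet isClosed_closedBall.measurableSet (D := 2 * r)
    (fun u hu v hv => by
      rw [mem_closedBall] at hu hv
      have := dist_triangle_right u v x
      linarith)
    (fun u hu v hv huv t ht => T_mem C hu hv huv ht) (G := h) (a := fun _ => 0) hh
    measurable_const (F := f) (fun u hu v hv huv => by
      rw [add_zero, add_zero]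
      refine (H u v huv).trans ?_
      gcongr
      rw [mem_closedBall] at hu hv
      have := dist_triangle_right u v x
      linarith)
  refine h1.trans (le_of_eq ?_)
  rw [lintegral_zero, mul_zero, mul_zero, add_zero, segC_eq]
  rcases le_or_gt r 0 with hr | hr
  · rw [ENNReal.ofReal_of_nonpos (by linarith), ENNReal.ofReal_of_nonpos (p := 4 * r * _)
      (by nlinarith [dC_pos n κ r]), zero_mul, zero_mul, zero_mul]
  · have h2 : ENNReal.ofReal (4 * r * dC n κ r) =
        ENNReal.ofReal (2 * r) * ENNReal.ofReal (dC n κ r) * 2 := by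
      have h3 : ENNReal.ofReal 2 = 2 := by simp
      rw [← h3, ← ENNReal.ofReal_mul (by linarith),
        ← ENNReal.ofReal_mul (mul_nonneg (by linarith) (dC_pos n κ r).le)]
      congr 1
      ring
    rw [h2]
    ring

/-- **(2,2)-Poincaré on pairs** -/
theorem poinc_pairs_sq [SFinite μ] (hκ : 0 ≤ κ) (H : UG C f h) (hh : Measurable h) (x : X)
    (r : ℝ) :
    ∫⁻ u in closedBall x r, ∫⁻ v in closedBall x r, ENNReal.ofReal |f u - f v| ^ 2 ∂μ ∂μ ≤
      ENNReal.ofReal (8 * r ^ 2 * dC n κ r) * μ (closedBall x r) *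
        ∫⁻ y in closedBall x (2 * r), h y ^ 2 ∂μ := by
  have hD : ∀ u ∈ closedBall x r, ∀ v ∈ closedBall x r, dist u v ≤ 2 * r := by
    intro u hu v hv
    rw [mem_closedBall] at hu hv
    have := dist_triangle_right u v x
    linarith
  have h1 := C.segment_le hκ (A := closedBall x r) (B := closedBall x r)
    (W := closedBall x (2 * r)) isClosed_closedBall.measurableSet
    isClosed_closedBall.measurableSet isClosed_closedBall.measurableSet (D := 2 * r) hD
    (fun u hu v hv huv t ht => T_mem C hu hv huv ht) (hh.pow_const 2)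
  have h2 : ∫⁻ u in closedBall x r, ∫⁻ v in closedBall x r, ENNReal.ofReal |f u - f v| ^ 2 ∂μ ∂μ ≤
      ∫⁻ u in closedBall x r, ∫⁻ v in closedBall x r, ENNReal.ofReal (2 * r) ^ 2 *
        ∫⁻ t in Icc (0 : ℝ) 1, h (C.T u t v) ^ 2 ∂volume ∂μ ∂μ := by
    apply setLIntegral_mono' isClosed_closedBall.measurableSet
    intro u hu
    apply lintegral_mono_ae
    rw [ae_restrict_iff' isClosed_closedBall.measurableSet]
    filter_upwards [C.ae_U u] with v huv hv
    have hm : Measurable fun t : ℝ => h (C.T u t v) :=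
      hh.comp (C.measT.comp (measurable_const.prodMk (measurable_id.prodMk measurable_const)))
    calc ENNReal.ofReal |f u - f v| ^ 2
        ≤ (ENNReal.ofReal (2 * r) * ∫⁻ t in Icc (0 : ℝ) 1, h (C.T u t v)) ^ 2 := by
          gcongr
          refine (H u v huv).trans ?_
          gcongr
          exact hD u hu v hv
      _ = ENNReal.ofReal (2 * r) ^ 2 * (∫⁻ t in Icc (0 : ℝ) 1, h (C.T u t v)) ^ 2 := mul_pow _ _ _
      _ ≤ ENNReal.ofReal (2 * r) ^ 2 * ∫⁻ t in Icc (0 : ℝ) 1, h (C.T u t v) ^ 2 := by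
          gcongr
          have := sq_lintegral_le (volume.restrict (Icc (0 : ℝ) 1)) hm.aemeasurable
          simpa using this
  refine h2.trans ?_
  have hHT' : Measurable (fun q : (X × X) × ℝ => h (C.T q.1.1 q.2 q.1.2) ^ 2) :=
    (hh.comp (C.measT.comp ((measurable_fst.comp measurable_fst).prodMk
      (measurable_snd.prodMk (measurable_snd.comp measurable_fst))))).pow_const 2
  have hm1 : Measurable (fun q : X × X => ∫⁻ t in Icc (0 : ℝ) 1, h (C.T q.1 t q.2) ^ 2) :=
    hHT'.lintegral_prod_right'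
  have h3 : ∫⁻ u in closedBall x r, ∫⁻ v in closedBall x r, ENNReal.ofReal (2 * r) ^ 2 *
        ∫⁻ t in Icc (0 : ℝ) 1, h (C.T u t v) ^ 2 ∂volume ∂μ ∂μ =
      ENNReal.ofReal (2 * r) ^ 2 * ∫⁻ u in closedBall x r, ∫⁻ v in closedBall x r,
        ∫⁻ t in Icc (0 : ℝ) 1, h (C.T u t v) ^ 2 ∂volume ∂μ ∂μ := by
    have ht : ENNReal.ofReal (2 * r) ^ 2 ≠ ∞ := ENNReal.pow_ne_top ENNReal.ofReal_ne_top
    rw [← lintegral_const_mul' _ _ ht]
    refine lintegral_congr fun u => ?_
    rw [lintegral_const_mul' _ _ ht]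
  rw [h3]
  calc ENNReal.ofReal (2 * r) ^ 2 * ∫⁻ u in closedBall x r, ∫⁻ v in closedBall x r,
        ∫⁻ t in Icc (0 : ℝ) 1, h (C.T u t v) ^ 2 ∂volume ∂μ ∂μ
      ≤ ENNReal.ofReal (2 * r) ^ 2 * (ENNReal.ofReal (dC n κ r) *
        (μ (closedBall x r) + μ (closedBall x r)) * ∫⁻ y in closedBall x (2 * r), h y ^ 2 ∂μ) := by
        gcongr
        exact h1
    _ ≤ _ := by
        rcases le_or_gt r 0 with hr | hr
        · rw [ENNReal.ofReal_of_nonpos (by linarith)]
          simp
        · apply le_of_eq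
          have h2 : ENNReal.ofReal (8 * r ^ 2 * dC n κ r) =
              ENNReal.ofReal (2 * r) ^ 2 * ENNReal.ofReal (dC n κ r) * 2 := by
            have h3 : ENNReal.ofReal 2 = 2 := by simp
            rw [← h3, ← ENNReal.ofReal_pow (by linarith), ← ENNReal.ofReal_mul (by positivity),
              ← ENNReal.ofReal_mul (mul_nonneg (by positivity) (dC_pos n κ r).le)]
            congr 1
            ring
          rw [h2]
          ring

/-! ### mean forms -/

/-- distance to the mean, from pairs (no integrability hypothesis: both sides in `ℝ≥0∞`) -/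
theorem sub_average_le {s : Set X} (hs : μ s ≠ ∞) (hs0 : μ s ≠ 0) {f : X → ℝ}
    (hf : IntegrableOn f s μ) (u : X) :
    ENNReal.ofReal |f u - ⨍ v in s, f v ∂μ| * μ s ≤ ∫⁻ v in s, ENNReal.ofReal |f u - f v| ∂μ := by
  have hm : (μ s).toReal ≠ 0 := (ENNReal.toReal_pos hs0 hs).ne'
  have hc : IntegrableOn (fun _ : X => f u) s μ := integrableOn_const hs
  have h1 : (f u - ⨍ v in s, f v ∂μ) * (μ s).toReal = ∫ v in s, (f u - f v) ∂μ := by
    rw [integral_sub hc hf, setIntegral_const, setAverage_eq, smul_eq_mul, smul_eq_mul,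
      Measure.real]
    field_simp
  have h2 : |f u - ⨍ v in s, f v ∂μ| * (μ s).toReal ≤ ∫ v in s, |f u - f v| ∂μ := by
    rw [← abs_of_nonneg (ENNReal.toReal_nonneg (a := μ s)), ← abs_mul, h1]
    exact abs_integral_le_integral_abs
  have h3 : ENNReal.ofReal (∫ v in s, |f u - f v| ∂μ) = ∫⁻ v in s, ENNReal.ofReal |f u - f v| ∂μ :=
    ofReal_integral_eq_lintegral_ofReal (hc.sub hf).abs (Eventually.of_forall fun v => abs_nonneg _)
  rw [← h3, ← ENNReal.ofReal_toReal hs, ← ENNReal.ofReal_mul (abs_nonneg _)]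
  exact ENNReal.ofReal_le_ofReal h2

/-- squared distance to the mean -/
theorem sub_average_sq_le {s : Set X} (hs : μ s ≠ ∞) (hs0 : μ s ≠ 0) {f : X → ℝ}
    (hf : IntegrableOn f s μ) (u : X) :
    ENNReal.ofReal |f u - ⨍ v in s, f v ∂μ| ^ 2 * μ s ≤
      ∫⁻ v in s, ENNReal.ofReal |f u - f v| ^ 2 ∂μ := by
  have h1 := sub_average_le hs hs0 hf u
  have hm : AEMeasurable (fun v => ENNReal.ofReal |f u - f v|) (μ.restrict s) := by
    have := hf.1.aemeasurable
    exact (measurable_id.abs.comp_aemeasurable (aemeasurable_const.sub this)).ennreal_ofReal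
  have h2 := sq_lintegral_le (μ.restrict s) hm
  rw [Measure.restrict_apply_univ] at h2
  have h3 : (ENNReal.ofReal |f u - ⨍ v in s, f v ∂μ| * μ s) ^ 2 ≤
      μ s * ∫⁻ v in s, ENNReal.ofReal |f u - f v| ^ 2 ∂μ :=
    (by gcongr : _ ≤ (∫⁻ v in s, ENNReal.ofReal |f u - f v| ∂μ) ^ 2).trans h2
  have h4 : μ s * (ENNReal.ofReal |f u - ⨍ v in s, f v ∂μ| ^ 2 * μ s) ≤
      μ s * ∫⁻ v in s, ENNReal.ofReal |f u - f v| ^ 2 ∂μ := by
    refine le_trans (le_of_eq ?_) h3
    ring
  exact (ENNReal.mul_le_mul_iff_right hs0 hs).1 h4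

/-- **(1,1)-Poincaré, mean form** -/
theorem poinc_one [SFinite μ] (hκ : 0 ≤ κ) (H : UG C f h) (hh : Measurable h) (x : X) {r : ℝ}
    (hfin : μ (closedBall x r) ≠ ∞) (hpos : μ (closedBall x r) ≠ 0)
    (hf : IntegrableOn f (closedBall x r) μ) :
    ∫⁻ u in closedBall x r, ENNReal.ofReal |f u - ⨍ v in closedBall x r, f v ∂μ| ∂μ ≤
      ENNReal.ofReal (4 * r * dC n κ r) * ∫⁻ y in closedBall x (2 * r), h y ∂μ := by
  have h1 := poinc_pairs hκ H hh x r
  have h2 : (∫⁻ u in closedBall x r, ENNReal.ofReal |f u - ⨍ v in closedBall x r, f v ∂μ| ∂μ) *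
      μ (closedBall x r) ≤
      ∫⁻ u in closedBall x r, ∫⁻ v in closedBall x r, ENNReal.ofReal |f u - f v| ∂μ ∂μ := by
    rw [← lintegral_mul_const' _ _ hfin]
    exact lintegral_mono fun u => sub_average_le hfin hpos hf u
  have h3 := h2.trans h1
  rw [mul_right_comm] at h3
  exact (ENNReal.mul_le_mul_iff_left hpos hfin).1 h3

/-- **(2,2)-Poincaré, mean form** -/
theorem poinc_two [SFinite μ] (hκ : 0 ≤ κ) (H : UG C f h) (hh : Measurable h) (x : X) {r : ℝ}
    (hfin : μ (closedBall x r) ≠ ∞) (hpos : μ (closedBall x r) ≠ 0)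
    (hf : IntegrableOn f (closedBall x r) μ) :
    ∫⁻ u in closedBall x r, ENNReal.ofReal |f u - ⨍ v in closedBall x r, f v ∂μ| ^ 2 ∂μ ≤
      ENNReal.ofReal (8 * r ^ 2 * dC n κ r) * ∫⁻ y in closedBall x (2 * r), h y ^ 2 ∂μ := by
  have h1 := poinc_pairs_sq hκ H hh x r
  have h2 : (∫⁻ u in closedBall x r,
        ENNReal.ofReal |f u - ⨍ v in closedBall x r, f v ∂μ| ^ 2 ∂μ) * μ (closedBall x r) ≤
      ∫⁻ u in closedBall x r, ∫⁻ v in closedBall x r, ENNReal.ofReal |f u - f v| ^ 2 ∂μ ∂μ := by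
    rw [← lintegral_mul_const' _ _ hfin]
    exact lintegral_mono fun u => sub_average_sq_le hfin hpos hf u
  have h3 := h2.trans h1
  rw [mul_right_comm] at h3
  exact (ENNReal.mul_le_mul_iff_left hpos hfin).1 h3

/-- (1,2) form: mean oscillation against the `L²` mean of the gradient -/
theorem poinc_onetwo [SFinite μ] (hκ : 0 ≤ κ) (H : UG C f h) (hh : Measurable h) (x : X) {r : ℝ}
    (hfin : μ (closedBall x r) ≠ ∞) (hpos : μ (closedBall x r) ≠ 0)
    (hf : IntegrableOn f (closedBall x r) μ) :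
    (∫⁻ u in closedBall x r, ENNReal.ofReal |f u - ⨍ v in closedBall x r, f v ∂μ| ∂μ) ^ 2 ≤
      ENNReal.ofReal (8 * r ^ 2 * dC n κ r) * μ (closedBall x r) *
        ∫⁻ y in closedBall x (2 * r), h y ^ 2 ∂μ := by
  have hm : AEMeasurable (fun u => ENNReal.ofReal |f u - ⨍ v in closedBall x r, f v ∂μ|)
      (μ.restrict (closedBall x r)) := by
    have := hf.1.aemeasurable
    exact (measurable_id.abs.comp_aemeasurable (this.sub aemeasurable_const)).ennreal_ofReal
  have h2 := sq_lintegral_le (μ.restrict (closedBall x r)) hm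
  rw [Measure.restrict_apply_univ] at h2
  refine h2.trans ?_
  calc μ (closedBall x r) * ∫⁻ u in closedBall x r,
        ENNReal.ofReal |f u - ⨍ v in closedBall x r, f v ∂μ| ^ 2 ∂μ
      ≤ μ (closedBall x r) * (ENNReal.ofReal (8 * r ^ 2 * dC n κ r) *
          ∫⁻ y in closedBall x (2 * r), h y ^ 2 ∂μ) := by
        gcongr
        exact poinc_two hκ H hh x hfin hpos hf
    _ = _ := by ring

end Crest.Agent.R281.Poin_274
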