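import Crest.Agent.R281.Th2_484

/-!
# R281 (S0424), DIV 4, THETA part 3 (helper484): the energy `e1`

* `mass` : `∫_R det(K + (β/8) Hm)/det K ≤ (1 + β N (2a+3) q)^N vol` if `cur h = q K`, on every set `R`
  where no `s_j` vanishes and `|log|F_j|| ≤ a`
* **`e1`** : `∫_R tr adj(Gram(η)) ≤ (CE N q a)^(N-1) vol` (literal form of helper612, #7974)
-/

set_option autoImplicit false
set_option linter.unusedSectionVars false

open Set Filter Topology Complex MeasureTheory
open scoped ContDiff Matrix ComplexConjugate ComplexOrder ENNReal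

namespace Crest.Agent.R281.Th3_484

open Crest.Agent.R275 Crest.Agent.R275.Geo Crest.Agent.R275.Core144 Crest.Agent.R275.EDR890
open Crest.Agent.R273.Defs_333 Crest.Agent.R273.Hess_333 Crest.Agent.R273.HessB_333
open Crest.Agent.R273.HM_333 Crest.Agent.R273.Kah_333 Crest.Agent.R273.Vol_333
open Crest.Agent.R273.Vm_333
open Crest.Agent.R273.FIa0_597 Crest.Agent.R273.FIb0_597 Crest.Agent.R273.FId0_597
open Crest.Agent.R273
open Crest.Agent.R281.Glob1_484 Crest.Agent.R281.SIn_14 Crest.Agent.R281.Th1_484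
open Crest.Agent.R281.Th2_484

noncomputable section

/-! ### numbers -/

theorem kap_ge {t : ℝ} (ht : |t| ≤ 1) : 1 / 8 ≤ Real.exp t / (Real.exp t + 1) ^ 2 := by
  have h1 : Real.exp t ≤ Real.exp 1 := Real.exp_le_exp.2 (abs_le.1 ht).2
  have h2 : Real.exp (-t) ≤ Real.exp 1 := Real.exp_le_exp.2 (by linarith [(abs_le.1 ht).1])
  have h3 : Real.exp 1 < 3 := lt_trans Real.exp_one_lt_d9 (by norm_num)
  have h4 : Real.exp t * Real.exp (-t) = 1 := by rw [← Real.exp_add]; simp
  have h5 := Real.exp_pos t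
  rw [div_le_div_iff₀ (by norm_num) (by positivity)]
  have h6 : 1 * (Real.exp t + 1) ^ 2 = Real.exp t * (Real.exp t + 2 + Real.exp (-t)) := by
    have : Real.exp t * (Real.exp t + 2 + Real.exp (-t)) =
        Real.exp t ^ 2 + 2 * Real.exp t + Real.exp t * Real.exp (-t) := by ring
    rw [this, h4]
    ring
  rw [h6]
  refine mul_le_mul_of_nonneg_left ?_ h5.le
  linarith

theorem kap_lim {u v t : ℝ} (hv : 0 < v) (hu : u = Real.exp t * v) (ht : |t| ≤ 1) :
    1 / 8 ≤ u * v / (u + v) ^ 2 := by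
  have h1 : u * v / (u + v) ^ 2 = Real.exp t / (Real.exp t + 1) ^ 2 := by
    rw [hu]
    have := Real.exp_pos t
    field_simp
  rw [h1]
  exact kap_ge ht

theorem round_mem {y a : ℝ} (hy : |y| ≤ a) : round y ∈ Ks (⌊a⌋₊ + 1) := by
  have h0 : 0 ≤ a := (abs_nonneg y).trans hy
  have h1 := abs_sub_round y
  have h2 : |(round y : ℝ)| < (⌊a⌋₊ : ℝ) + 2 := by
    have h3 : |(round y : ℝ)| ≤ |y| + 1 / 2 := by
      have : (round y : ℝ) = y - (y - round y) := by ring
      rw [this]
      exact (abs_sub _ _).trans (by linarith)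
    have h4 := Nat.lt_floor_add_one a
    linarith
  have h5 : |round y| < (⌊a⌋₊ : ℤ) + 2 := by exact_mod_cast h2
  rw [Ks, Finset.mem_Icc]
  have h6 := abs_lt.1 h5
  push_cast
  constructor <;> omega

/-! ### linear algebra -/

section Mat

variable {m : Type*} [Fintype m] [DecidableEq m]

theorem one_add_sum_le_prod {ι : Type*} (T : Finset ι) {f : ι → ℝ} (hf : ∀ i ∈ T, 0 ≤ f i) :
    1 + ∑ i ∈ T, f i ≤ ∏ i ∈ T, (1 + f i) := by
  classical
  induction T using Finset.induction_on with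
  | empty => simp
  | insert i T hi ih =>
    rw [Finset.sum_insert hi, Finset.prod_insert hi]
    have h1 := ih fun j hj => hf j (by simp [hj])
    have h2 := hf i (by simp)
    have h3 : 0 ≤ ∑ j ∈ T, f j := Finset.sum_nonneg fun j hj => hf j (by simp [hj])
    nlinarith

/-- `det(1 + B) ≥ tr adj B` for `B ≥ 0` -/
theorem tr_adj_le {B : Matrix m m ℂ} (hB : B.PosSemidef) :
    B.adjugate.trace.re ≤ (1 + B).det.re := by
  have hs := hB.1.spectral_theorem
  set U := hB.1.eigenvectorUnitary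
  set lam : m → ℝ := hB.1.eigenvalues with hlam
  have h4 : (U : Matrix m m ℂ) * star (U : Matrix m m ℂ) = 1 := Unitary.coe_mul_star_self U
  have h4' : star (U : Matrix m m ℂ) * (U : Matrix m m ℂ) = 1 := Unitary.coe_star_mul_self U
  have hB' : B = (U : Matrix m m ℂ) * Matrix.diagonal (fun i => (lam i : ℂ)) *
      star (U : Matrix m m ℂ) := hs
  have h7 : (U : Matrix m m ℂ).det * (star (U : Matrix m m ℂ)).det = 1 := by
    rw [← Matrix.det_mul, h4, Matrix.det_one]
  have h1 : (1 + B).det = ((∏ i, (1 + lam i) : ℝ) : ℂ) := by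
    have h2 : 1 + B = (U : Matrix m m ℂ) *
        (Matrix.diagonal fun i => 1 + (lam i : ℂ)) * star (U : Matrix m m ℂ) := by
      have h3 : (Matrix.diagonal fun i => 1 + (lam i : ℂ)) =
          (1 : Matrix m m ℂ) + Matrix.diagonal (fun i => (lam i : ℂ)) := by
        rw [← Matrix.diagonal_one, Matrix.diagonal_add]
      rw [h3, Matrix.mul_add, Matrix.add_mul, Matrix.mul_one, h4, ← hB']
    rw [h2, Matrix.det_mul, Matrix.det_mul, Matrix.det_diagonal]
    push_cast
    linear_combination (∏ i, (1 + (lam i : ℂ))) * h7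
  have h2 : B.adjugate.trace = ((∑ i, ∏ j ∈ Finset.univ.erase i, lam j : ℝ) : ℂ) := by
    have h3 : B.adjugate = (star (U : Matrix m m ℂ)).adjugate *
        ((Matrix.diagonal (fun i => (lam i : ℂ))).adjugate * (U : Matrix m m ℂ).adjugate) := by
      conv_lhs => rw [hB']
      rw [Matrix.adjugate_mul_distrib, Matrix.adjugate_mul_distrib]
    have h5 : (U : Matrix m m ℂ).adjugate * (star (U : Matrix m m ℂ)).adjugate = 1 := by
      rw [← Matrix.adjugate_mul_distrib, h4', Matrix.adjugate_one]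
    rw [h3, Matrix.trace_mul_comm, Matrix.mul_assoc, h5, Matrix.mul_one,
      Matrix.adjugate_diagonal, Matrix.trace_diagonal]
    push_cast
    rfl
  rw [h1, h2, Complex.ofReal_re, Complex.ofReal_re]
  have hl : ∀ i, 0 ≤ lam i := hB.eigenvalues_nonneg
  -- expand the product over subsets of the complement of one element
  have h8 : ∏ i, (1 + lam i) = ∑ t ∈ (Finset.univ : Finset m).powerset, ∏ i ∈ t, lam i := by
    rw [← Finset.prod_one_add]
  rw [h8]
  have h9 : ∑ i, ∏ j ∈ Finset.univ.erase i, lam j =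
      ∑ t ∈ (Finset.univ : Finset m).image (fun i => Finset.univ.erase i), ∏ j ∈ t, lam j := by
    rw [Finset.sum_image]
    intro i _ j _ hij
    by_contra hne
    have h10 : i ∈ (Finset.univ : Finset m).erase j := Finset.mem_erase.2 ⟨hne, Finset.mem_univ _⟩
    have hij' : (Finset.univ : Finset m).erase i = Finset.univ.erase j := hij
    rw [← hij'] at h10
    exact absurd h10 (Finset.notMem_erase _ _)
  rw [h9]
  exact Finset.sum_le_sum_of_subset_of_nonneg (fun t _ => by simp)
    fun t _ _ => Finset.prod_nonneg fun j _ => hl j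

/-- Sylvester form -/
theorem det_ratio {g E : Matrix m m ℂ} (hg : g.PosDef) (y : ℝ) :
    (g + (y : ℂ) • (Eᵀ * E.map conj)).det =
      g.det * (1 + (y : ℂ) • (E.map conj * g⁻¹ * Eᵀ)).det := by
  have hu : IsUnit g.det := (Matrix.isUnit_iff_isUnit_det _).1 hg.isUnit
  have h1 : g + (y : ℂ) • (Eᵀ * E.map conj) = g * (1 + (g⁻¹ * ((y : ℂ) • Eᵀ)) * E.map conj) := by
    rw [Matrix.mul_add, Matrix.mul_one, ← Matrix.mul_assoc, ← Matrix.mul_assoc,
      Matrix.mul_nonsing_inv _ hu, Matrix.one_mul, Matrix.smul_mul]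
  rw [h1, Matrix.det_mul, Matrix.det_one_add_mul_comm]
  congr 2
  rw [Matrix.mul_smul, Matrix.mul_smul, Matrix.mul_assoc]

theorem gram_psd {g E : Matrix m m ℂ} (hg : g.PosDef) :
    (E.map conj * g⁻¹ * Eᵀ).PosSemidef := by
  have h1 : Eᵀ = (E.map conj)ᴴ := by
    ext i j
    simp [Matrix.conjTranspose_apply]
  rw [h1]
  exact hg.inv.posSemidef.mul_mul_conjTranspose_same _

end Mat

variable {N : ℕ} {M : Type} [TopologicalSpace M] {A : Atl N M} {Lb : LB A}
  {s : Fin (N + 1) → A.ι → M → ℂ}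

/-- the Gram matrix of the forms `η_j` -/
def Gj (K : Kah A) (s : Fin (N + 1) → A.ι → M → ℂ) (i : A.ι) (x : M) : Matrix (Fin N) (Fin N) ℂ :=
  (eta s i x).map conj * (K.g i x)⁻¹ * (eta s i x)ᵀ

theorem dR_eq (K : Kah A) (s : Fin (N + 1) → A.ι → M → ℂ) (y : ℝ) (x : M) :
    dR K s y x = (1 + (y : ℂ) • Gj K s (ch A x) x).det.re := by
  have hx := mem_ch A x
  have hg := K.pos _ x hx
  unfold dR Gj
  rw [Hm_eq, det_ratio hg]
  have h1 : (K.g (ch A x) x).det = (((K.g (ch A x) x).det.re : ℝ) : ℂ) := by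
    have := volK_w K (ch A x) hx
    rw [← this, Complex.ofReal_re]
  have h2 : 0 < (K.g (ch A x) x).det.re := by
    have := (Complex.lt_def.1 hg.det_pos).1
    simpa using this
  rw [h1, Complex.re_ofReal_mul, Complex.ofReal_re, mul_div_cancel_left₀ _ h2.ne']

theorem adj_le_dR (K : Kah A) (s : Fin (N + 1) → A.ι → M → ℂ) {y : ℝ} (hy : 0 ≤ y) (x : M) :
    y ^ (N - 1) * (Gj K s (ch A x) x).adjugate.trace.re ≤ dR K s y x := by
  have hx := mem_ch A x
  have hB : (Gj K s (ch A x) x).PosSemidef := gram_psd (K.pos _ x hx)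
  have h1 := tr_adj_le (hB.smul (by exact_mod_cast hy : (0 : ℂ) ≤ (y : ℂ)))
  rw [← dR_eq, Matrix.adjugate_smul, Matrix.trace_smul, Fintype.card_fin, smul_eq_mul,
    ← Complex.ofReal_pow, Complex.re_ofReal_mul] at h1
  exact h1

/-! ### Fatou -/

section int

variable [T2Space M] [CompactSpace M] [Fintype A.ι] [MeasurableSpace M] [BorelSpace M]

theorem quo_exp (h : HM Lb) (hs : ∀ j, IsHS Lb univ (s j)) {x : M} (hn : NZ s x) (j : Fin N)
    (k : ℤ) : nsM h (sk s k) x =
      Real.exp (2 * (k - Real.log ‖quo s x j‖)) * nsM h (s j.succ) x := by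
  have h0 : 0 < ‖s 0 (ch A x) x‖ := norm_pos_iff.2 (hn 0)
  have h1 : 0 < ‖s j.succ (ch A x) x‖ := norm_pos_iff.2 (hn _)
  rw [nsM_sk]
  unfold nsM nsq quo
  have h2 : Real.exp (2 * ((k : ℝ) - Real.log ‖s j.succ (ch A x) x / s 0 (ch A x) x‖)) =
      Real.exp (2 * k) * (‖s 0 (ch A x) x‖ ^ 2 / ‖s j.succ (ch A x) x‖ ^ 2) := by
    rw [mul_sub, Real.exp_sub, norm_div]
    have h3 : Real.exp (2 * Real.log (‖s j.succ (ch A x) x‖ / ‖s 0 (ch A x) x‖)) =
        (‖s j.succ (ch A x) x‖ / ‖s 0 (ch A x) x‖) ^ 2 := by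
      rw [two_mul, Real.exp_add, Real.exp_log (by positivity)]
      ring
    rw [h3]
    field_simp
  rw [h2]
  field_simp

/-- **the mass bound** -/
theorem mass (P : Part A) (K : Kah A) (h : HM Lb) (hs : ∀ j, IsHS Lb univ (s j)) {q : ℝ}
    (hq : 0 ≤ q) (hc : ∀ i, ∀ x ∈ (A.e i).source, cur h i x = (q : ℂ) • K.g i x) {a : ℝ}
    (ha : 0 ≤ a) {β : ℝ} (hβ : 0 ≤ β) {R : Set M}
    (hR : ∀ x ∈ R, NZ s x ∧ ∀ j, |Real.log ‖quo s x j‖| ≤ a) :
    ∫⁻ x in R, ENNReal.ofReal (dR K s (β / 8) x) ∂(vm (volK K)) ≤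
      ENNReal.ofReal ((1 + β * (N * (2 * a + 3)) * q) ^ N) * vm (volK K) univ := by
  have hp : ∀ i, ∀ x ∈ (A.e i).source, (cur h i x).PosSemidef := by
    intro i x hx
    rw [hc i x hx]
    exact (K.pos i x hx).posSemidef.smul (by exact_mod_cast hq)
  set b : ℕ := ⌊a⌋₊ + 1 with hb
  set e : ℕ → ℝ := fun n => 1 / ((n : ℝ) + 1) with he
  have he0 : ∀ n, 0 < e n := fun n => by positivity
  have hel : Tendsto e atTop (𝓝 0) := tendsto_one_div_add_atTop_nhds_zero_nat
  set D : ℕ → M → ℝ≥0∞ := fun n x => ENNReal.ofReal (DT K h s b β (e n) x) with hD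
  have hDm : ∀ n, Measurable (D n) := fun n =>
    ENNReal.measurable_ofReal.comp (cont_DT K h hs hc b β (he0 n)).measurable
  -- pointwise
  have hpt : ∀ x ∈ R, ENNReal.ofReal (dR K s (β / 8) x) ≤ liminf (fun n => D n x) atTop := by
    intro x hx
    obtain ⟨hn, hlog⟩ := hR x hx
    have hxi := mem_ch A x
    set i := ch A x with hi
    set kk : Fin N → ℤ := fun j => round (Real.log ‖quo s x j‖) with hkk
    have hkm : ∀ j, kk j ∈ Ks b := fun j => round_mem (hlog j)
    set u : Fin N → ℝ := fun j => nsM h (sk s (kk j)) x with hu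
    set v : Fin N → ℝ := fun j => nsM h (s j.succ) x with hv
    have hv0 : ∀ j, 0 < v j := by
      intro j
      have h1 : 0 < ‖s j.succ i x‖ := norm_pos_iff.2 (hn _)
      have h2 := h.pos i x hxi
      show 0 < ‖s j.succ i x‖ ^ 2 * h.w i x
      positivity
    have hu0 : ∀ j, 0 ≤ u j := fun j => nsM_nonneg h _ x
    set κ : ℝ → Fin N → ℝ := fun ε j => u j * v j / (u j + v j + ε) ^ 2 with hκ
    set F : ℝ → ℝ := fun ε => (K.g i x + (β : ℂ) • ∑ j : Fin N, ((κ ε j : ℝ) : ℂ) •
      Matrix.vecMulVec (eta s i x j) (star (eta s i x j))).det.re / (K.g i x).det.re with hF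
    have hdet : 0 < (K.g i x).det.re := by
      have := (Complex.lt_def.1 (K.pos i x hxi).det_pos).1
      simpa using this
    have hF1 : ∀ n, F (e n) ≤ DT K h s b β (e n) x := by
      intro n
      have h1 := Tm_ge K h hs hβ b (he0 n) hxi (hp i x hxi) hn kk hkm
      exact div_le_div_of_nonneg_right h1 hdet.le
    have hF0 : dR K s (β / 8) x ≤ F 0 := by
      have h1 : ∀ j, 1 / 8 ≤ κ 0 j := by
        intro j
        have h2 := quo_exp h hs hn j (kk j)
        have h3 : |2 * ((kk j : ℝ) - Real.log ‖quo s x j‖)| ≤ 1 := by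
          rw [abs_mul, abs_two, abs_sub_comm]
          have := abs_sub_round (Real.log ‖quo s x j‖)
          linarith
        have h4 := kap_lim (hv0 j) h2 h3
        show 1 / 8 ≤ u j * v j / (u j + v j + 0) ^ 2
        rw [add_zero]
        exact h4
      have h5 : (K.g i x + ((β / 8 : ℝ) : ℂ) • Hm s i x).PosDef :=
        (K.pos i x hxi).add_posSemidef ((Hm_psd s i x).smul
          (by exact_mod_cast (by positivity : 0 ≤ β / 8)))
      have h6 : (∑ j : Fin N, ((β * (κ 0 j - 1 / 8) : ℝ) : ℂ) •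
          Matrix.vecMulVec (eta s i x j) (star (eta s i x j))).PosSemidef :=
        Matrix.posSemidef_sum _ fun j _ => (Matrix.posSemidef_vecMulVec_self_star _).smul
          (by exact_mod_cast mul_nonneg hβ (sub_nonneg.2 (h1 j)))
      have h7 := YauMax_635.det_le_det_add h5 h6
      have h8 : K.g i x + ((β / 8 : ℝ) : ℂ) • Hm s i x + (∑ j : Fin N,
          ((β * (κ 0 j - 1 / 8) : ℝ) : ℂ) •
            Matrix.vecMulVec (eta s i x j) (star (eta s i x j))) =
          K.g i x + (β : ℂ) • ∑ j : Fin N, ((κ 0 j : ℝ) : ℂ) •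
            Matrix.vecMulVec (eta s i x j) (star (eta s i x j)) := by
        rw [add_assoc, Hm, Finset.smul_sum, Finset.smul_sum, ← Finset.sum_add_distrib]
        congr 1
        refine Finset.sum_congr rfl fun j _ => ?_
        rw [smul_smul, ← add_smul]
        congr 1
        push_cast
        ring
      rw [h8] at h7
      exact div_le_div_of_nonneg_right (Complex.le_def.1 h7).1 hdet.le
    have hFl : Tendsto (fun n => F (e n)) atTop (𝓝 (F 0)) := by
      have h1 : ContinuousAt F 0 := by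
        have h2 : ∀ j, ContinuousAt (fun ε : ℝ => κ ε j) 0 := by
          intro j
          refine ContinuousAt.div continuousAt_const
            ((continuousAt_const.add continuousAt_id).pow 2) ?_
          have := hv0 j
          have := hu0 j
          show (u j + v j + 0) ^ 2 ≠ 0
          positivity
        have h3 : ContinuousAt (fun ε : ℝ => K.g i x + (β : ℂ) • ∑ j : Fin N,
            ((κ ε j : ℝ) : ℂ) • Matrix.vecMulVec (eta s i x j) (star (eta s i x j))) 0 := by
          refine continuousAt_const.add (ContinuousAt.const_smul ?_ (β : ℂ))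
          refine tendsto_finset_sum _ fun j _ => ?_
          exact (Complex.continuous_ofReal.continuousAt.comp (h2 j)).smul continuousAt_const
        have h4 : ContinuousAt (fun ε : ℝ => (K.g i x + (β : ℂ) • ∑ j : Fin N,
            ((κ ε j : ℝ) : ℂ) • Matrix.vecMulVec (eta s i x j) (star (eta s i x j))).det) 0 :=
          (Continuous.matrix_det continuous_id).continuousAt.comp h3
        exact (Complex.continuous_re.continuousAt.comp h4).div_const _
      exact h1.tendsto.comp hel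
    have hFl' : Tendsto (fun n => ENNReal.ofReal (F (e n))) atTop (𝓝 (ENNReal.ofReal (F 0))) :=
      (ENNReal.continuous_ofReal.tendsto _).comp hFl
    calc ENNReal.ofReal (dR K s (β / 8) x) ≤ ENNReal.ofReal (F 0) := ENNReal.ofReal_le_ofReal hF0
      _ = liminf (fun n => ENNReal.ofReal (F (e n))) atTop := hFl'.liminf_eq.symm
      _ ≤ liminf (fun n => D n x) atTop :=
        liminf_le_liminf (Eventually.of_forall fun n => ENNReal.ofReal_le_ofReal (hF1 n))
  have hab : (1 + β * (N * (2 * (b : ℝ) + 1)) * q) ^ N ≤ (1 + β * (N * (2 * a + 3)) * q) ^ N := by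
    have h1 : (b : ℝ) ≤ a + 1 := by
      rw [hb]
      push_cast
      linarith [Nat.floor_le ha]
    have h2 : (N : ℝ) * (2 * (b : ℝ) + 1) ≤ N * (2 * a + 3) :=
      mul_le_mul_of_nonneg_left (by linarith) (Nat.cast_nonneg _)
    have h3 : β * (N * (2 * (b : ℝ) + 1)) * q ≤ β * (N * (2 * a + 3)) * q :=
      mul_le_mul_of_nonneg_right (mul_le_mul_of_nonneg_left h2 hβ) hq
    exact pow_le_pow_left₀ (by positivity) (by linarith) N
  calc ∫⁻ x in R, ENNReal.ofReal (dR K s (β / 8) x) ∂(vm (volK K))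
      ≤ ∫⁻ x in R, liminf (fun n => D n x) atTop ∂(vm (volK K)) :=
        setLIntegral_mono (Measurable.liminf hDm) hpt
    _ ≤ ∫⁻ x, liminf (fun n => D n x) atTop ∂(vm (volK K)) := setLIntegral_le_lintegral _ _
    _ ≤ liminf (fun n => ∫⁻ x, D n x ∂(vm (volK K))) atTop := lintegral_liminf_le hDm
    _ = liminf (fun _ : ℕ => ENNReal.ofReal ((1 + β * (N * (2 * (b : ℝ) + 1)) * q) ^ N) *
          vm (volK K) univ) atTop := by
        congr 1
        funext n
        exact lint_DT P K h hs hq hc b hβ (he0 n)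
    _ = ENNReal.ofReal ((1 + β * (N * (2 * (b : ℝ) + 1)) * q) ^ N) * vm (volK K) univ :=
        liminf_const _
    _ ≤ _ := mul_le_mul_left (ENNReal.ofReal_le_ofReal hab) _

/-- the constant of `e1` -/
def CE (N : ℕ) : ℝ := 160 * N

theorem e1_aux (P : Part A) (K : Kah A) (h : HM Lb) (hs : ∀ j, IsHS Lb univ (s j)) {q a : ℝ}
    (hq : 0 ≤ q) (ha : 0 ≤ a)
    (curv : ∀ i, ∀ x ∈ (A.e i).source, cur h i x = (q : ℂ) • K.g i x) {y : ℝ} (hy : 0 ≤ y)
    {R : Set M} (hR : ∀ x ∈ R, NZ s x ∧ ∀ j, |Real.log ‖quo s x j‖| ≤ a) :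
    ENNReal.ofReal (y ^ (N - 1)) * ∫⁻ x in R,
      ENNReal.ofReal ((Gj K s (ch A x) x).adjugate.trace.re) ∂(vm (volK K)) ≤
      ENNReal.ofReal ((1 + 8 * y * (N * (2 * a + 3)) * q) ^ N) * vm (volK K) univ := by
  have h1 := mass P K h hs hq curv ha (β := 8 * y) (by positivity) hR
  refine le_trans ?_ h1
  rw [← lintegral_const_mul' _ _ ENNReal.ofReal_ne_top]
  refine lintegral_mono fun x => ?_
  rw [← ENNReal.ofReal_mul (by positivity)]
  refine ENNReal.ofReal_le_ofReal ?_
  have h2 : 8 * y / 8 = y := by ring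
  rw [h2]
  exact adj_le_dR K s hy x

/-- **energy of the inverse metric** (literal form of helper612) -/
theorem e1 (P : Part A) (K : Kah A) (h : HM Lb) (hs : ∀ j, IsHS Lb univ (s j)) {q a : ℝ}
    (hq : 0 ≤ q) (ha : 1 ≤ a)
    (curv : ∀ i, ∀ x ∈ (A.e i).source, cur h i x = (q : ℂ) • K.g i x) (hN : 1 ≤ N) :
    ∫⁻ x in {x | NZ s x ∧ ∀ j, |Real.log ‖quo s x j‖| ≤ a},
      ENNReal.ofReal (((eta s (ch A x) x).map conj * (K.g (ch A x) x)⁻¹ *
        (eta s (ch A x) x)ᵀ).adjugate.trace.re) ∂(vm (volK K)) ≤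
      ENNReal.ofReal ((CE N * q * a) ^ (N - 1)) * vm (volK K) univ := by
  have hfin := isFinite_vm (volK K)
  set R : Set M := {x | NZ s x ∧ ∀ j, |Real.log ‖quo s x j‖| ≤ a} with hRdef
  set I : ℝ≥0∞ := ∫⁻ x in R, ENNReal.ofReal ((Gj K s (ch A x) x).adjugate.trace.re)
    ∂(vm (volK K)) with hI
  change I ≤ _
  have haux : ∀ y : ℝ, 0 ≤ y → ENNReal.ofReal (y ^ (N - 1)) * I ≤
      ENNReal.ofReal ((1 + 8 * y * (N * (2 * a + 3)) * q) ^ N) * vm (volK K) univ := fun y hy =>
    e1_aux P K h hs hq (by linarith) curv hy fun x hx => hx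
  have hV : vm (volK K) univ ≠ ⊤ := measure_ne_top _ _
  rcases hN.eq_or_lt with h1 | h2
  · -- `N = 1`
    subst h1
    have h3 : I ≤ vm (volK K) univ := by
      rw [hI]
      calc ∫⁻ x in R, ENNReal.ofReal ((Gj K s (ch A x) x).adjugate.trace.re) ∂(vm (volK K))
          = ∫⁻ _ in R, 1 ∂(vm (volK K)) := by
            refine lintegral_congr fun x => ?_
            rw [Matrix.adjugate_subsingleton, Matrix.trace_one]
            simp
        _ = vm (volK K) R := by simp
        _ ≤ _ := measure_mono (subset_univ _)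
    simpa using h3
  · rcases hq.eq_or_lt with h3 | h3
    · -- `q = 0`
      subst h3
      by_contra hcon
      have hI0 : I ≠ 0 := by
        intro h0
        rw [h0] at hcon
        exact hcon bot_le
      obtain ⟨k, hk⟩ := ENNReal.exists_nat_mul_gt hI0 hV
      have h4 := haux ((k : ℝ) + 1) (by positivity)
      simp only [mul_zero, add_zero, one_pow, ENNReal.ofReal_one, one_mul] at h4
      have h5 : (k : ℝ≥0∞) ≤ ENNReal.ofReal (((k : ℝ) + 1) ^ (N - 1)) := by
        rw [← ENNReal.ofReal_natCast]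
        refine ENNReal.ofReal_le_ofReal ?_
        calc (k : ℝ) ≤ (k : ℝ) + 1 := by linarith
          _ = ((k : ℝ) + 1) ^ 1 := by ring
          _ ≤ ((k : ℝ) + 1) ^ (N - 1) := by
            refine pow_le_pow_right₀ ?_ (by omega)
            linarith [(Nat.cast_nonneg k : (0 : ℝ) ≤ k)]
      have h6 : (k : ℝ≥0∞) * I ≤ vm (volK K) univ := (mul_le_mul_left h5 _).trans h4
      exact absurd hk (not_lt.2 h6)
    · -- `q > 0`
      have hN0 : (0 : ℝ) < N := by exact_mod_cast (by omega : 0 < N)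
      set y : ℝ := 1 / (40 * N * q * a) with hy
      have ha0 : 0 < a := by linarith
      have hy0 : 0 < y := by positivity
      have h4 := haux y hy0.le
      have h5 : (1 + 8 * y * (N * (2 * a + 3)) * q) ^ N ≤ 2 ^ N := by
        refine pow_le_pow_left₀ (by positivity) ?_ N
        have h6 : 8 * y * (N * (2 * a + 3)) * q ≤ 8 * y * (N * (5 * a)) * q := by
          have h7 : (N : ℝ) * (2 * a + 3) ≤ N * (5 * a) :=
            mul_le_mul_of_nonneg_left (by linarith) hN0.le
          exact mul_le_mul_of_nonneg_right (mul_le_mul_of_nonneg_left h7 (by positivity)) hq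
        have h8 : 8 * y * (N * (5 * a)) * q = 1 := by
          rw [hy]
          field_simp
          norm_num
        linarith
      have h9 : ENNReal.ofReal (y ^ (N - 1)) * I ≤ ENNReal.ofReal (2 ^ N) * vm (volK K) univ :=
        h4.trans (mul_le_mul_left (ENNReal.ofReal_le_ofReal h5) _)
      have h10 : I = ENNReal.ofReal ((40 * N * q * a) ^ (N - 1)) *
          (ENNReal.ofReal (y ^ (N - 1)) * I) := by
        rw [← mul_assoc, ← ENNReal.ofReal_mul (by positivity), ← mul_pow]
        have : 40 * (N : ℝ) * q * a * y = 1 := by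
          rw [hy]
          field_simp
        rw [this, one_pow, ENNReal.ofReal_one, one_mul]
      calc I = ENNReal.ofReal ((40 * N * q * a) ^ (N - 1)) *
          (ENNReal.ofReal (y ^ (N - 1)) * I) := h10
        _ ≤ ENNReal.ofReal ((40 * N * q * a) ^ (N - 1)) *
          (ENNReal.ofReal (2 ^ N) * vm (volK K) univ) := mul_le_mul_right h9 _
        _ = ENNReal.ofReal ((40 * N * q * a) ^ (N - 1) * 2 ^ N) * vm (volK K) univ := by
          rw [← mul_assoc, ← ENNReal.ofReal_mul (by positivity)]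
        _ ≤ ENNReal.ofReal ((CE N * q * a) ^ (N - 1)) * vm (volK K) univ := by
          refine mul_le_mul_left (ENNReal.ofReal_le_ofReal ?_) _
          have e1 : CE N * q * a = 4 * (40 * N * q * a) := by unfold CE; ring
          have e3 : (CE N * q * a) ^ (N - 1) = 4 ^ (N - 1) * (40 * N * q * a) ^ (N - 1) := by
            rw [e1, mul_pow]
          rw [e3, mul_comm ((40 * N * q * a) ^ (N - 1))]
          have e2 : (2 : ℝ) ^ N ≤ 4 ^ (N - 1) := by
            calc (2 : ℝ) ^ N ≤ 2 ^ (2 * (N - 1)) := pow_le_pow_right₀ (by norm_num) (by omega)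
              _ = 4 ^ (N - 1) := by rw [pow_mul]; norm_num
          exact mul_le_mul_of_nonneg_right e2 (by positivity)

end int

end

end Crest.Agent.R281.Th3_484
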