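/-
R281 / S-DIAM-INST (helper612), part 10: THE DIAMETER BOUND OF THEOREM S (`DiamStmt` of 593).
-/
import Crest.Agent.R281.Dh4_612
import Crest.Agent.R281.Th3_484
import Crest.Agent.R281.Insp0_615
import Crest.Agent.R281.Poin1_274
import Crest.Agent.R281.HfA3_593

set_option autoImplicit false
set_option linter.unusedSectionVars false
set_option linter.ambiguousOpen false
set_option maxSynthPendingDepth 3

namespace Crest.Agent.R281.Dh5_612

open Set Filter Complex MeasureTheory Metric Matrix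
open scoped _root_.Topology ContDiff Matrix ComplexConjugate ComplexOrder ENNReal Real
open scoped Manifold
open Crest.Agent.R275.Geo Crest.Agent.R275.Core144
open Crest.Agent.R273.Defs_333 Crest.Agent.R273.HM_333 Crest.Agent.R273.Kah_333
open Crest.Agent.R273.Vol_333 Crest.Agent.R273.Vm_333 Crest.Agent.R273.FIb0_597
open Crest.Agent.R273.SteinC_794 (nz)
open Crest.Agent.R273.Ric_798 Crest.Agent.R273.RMan_798 Crest.Agent.R273.RMan4_798
open Crest.Agent.R281.SIn_14 Crest.Agent.R281.Per_368 Crest.Agent.R281.Dh1_612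
open Crest.Agent.R281.Dh2_612 Crest.Agent.R281.Dh3_612 Crest.Agent.R281.Dh4_612
open Crest.Agent.R281.Fra_922 Crest.Agent.R281.Ins_615
open Crest.Agent.R281.Df3_612 (expPi continuous_expPi differentiable_expPi expPi_ne_zero fiberSum)
open Crest.Agent.R281.Df5_612 (box strip reg norm_expPi measurableSet_box injOn_box volume_box
  lg_mem_box expPi_lg lg)

noncomputable section

/-- mass of the region of a finite covering -/
theorem mass_reg_le {ι : Type*} [Fintype ι] {X : Type*} [TopologicalSpace X] [T2Space X]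
    [MeasurableSpace X] [BorelSpace X] {mX : Measure X} {f : X → ι → ℂ} {P : (ι → ℂ) → ℂ}
    (hP : Continuous P) (cov : IsCoveringMapOn f {w | (∀ j, w j ≠ 0) ∧ P w ≠ 0}) {d : ℕ}
    (hd : ∀ w : ι → ℂ, (∀ j, w j ≠ 0) → P w ≠ 0 → (f ⁻¹' {w}).encard ≤ d)
    (hmeas : ∀ p, (∀ j, f p j ≠ 0) → P (f p) ≠ 0 → Df4_612.MeasAt f mX p) (a : ℝ) :
    MeasurableSet (reg f P a) ∧ mX (reg f P a) ≤ d * volume (box ι a) := by
  set U : Set (ι → ℂ) := {w | (∀ j, w j ≠ 0) ∧ P w ≠ 0} with hUdef
  have hUo : IsOpen U := by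
    have h1 : IsOpen {w : ι → ℂ | ∀ j, w j ≠ 0} := by
      simp only [ofPred_forall]
      exact isOpen_iInter_of_finite fun j => isOpen_ne.preimage (continuous_apply j)
    exact h1.inter (isOpen_ne.preimage hP)
  have hfin : ∀ w ∈ U, (f ⁻¹' {w}).Finite := fun w hw => by
    have := hd w hw.1 hw.2
    exact finite_of_encard_le_coe this
  set V : Set (ι → ℂ) := expPi ⁻¹' U with hV
  have hVo : IsOpen V := hUo.preimage continuous_expPi
  have hregV : f ⁻¹' (expPi '' (box ι a ∩ V)) = reg f P a := by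
    ext x
    simp only [mem_preimage, mem_image, mem_inter_iff]
    constructor
    · rintro ⟨z, ⟨hz, hzV⟩, hzx⟩
      have h1 : f x ∈ U := by rw [← hzx]; exact hzV
      refine ⟨h1.1, h1.2, fun j => ?_⟩
      rw [← hzx, norm_expPi, Real.log_exp]
      exact (hz j).1
    · rintro ⟨h1, h2, h3⟩
      refine ⟨lg (f x), ⟨lg_mem_box h3, ?_⟩, expPi_lg h1⟩
      rw [hV, mem_preimage, expPi_lg h1]
      exact ⟨h1, h2⟩
  have hKV : MeasurableSet (box ι a ∩ V) := (measurableSet_box a).inter hVo.measurableSet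
  have h1 := Df4_612.lintegral_cov cov hfin (fun p hp => hmeas p hp.1 hp.2) hKV (fun z hz => hz.2)
      ((injOn_box a).mono inter_subset_left) (φ := fun _ => 1) measurable_const
  rw [hregV] at h1
  refine ⟨h1.1, ?_⟩
  have h2 := h1.2
  rw [setLIntegral_one] at h2
  rw [h2]
  calc ∫⁻ z in box ι a ∩ V, fiberSum f (fun _ => 1) (expPi z)
      ≤ ∫⁻ _ in box ι a ∩ V, (d : ℝ≥0∞) := by
        refine setLIntegral_mono' hKV fun z hz => ?_
        unfold Df3_612.fiberSum
        rw [ENNReal.tsum_one, ENat.card_coe_set_eq]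
        have := hd (expPi z) hz.2.1 hz.2.2
        calc (((f ⁻¹' {expPi z}).encard : ℕ∞) : ℝ≥0∞) ≤ ((d : ℕ∞) : ℝ≥0∞) := by
              exact_mod_cast this
          _ = d := by simp
    _ = d * volume (box ι a ∩ V) := by rw [setLIntegral_const]
    _ ≤ d * volume (box ι a) := by gcongr; exact inter_subset_left

section transfer

variable {n : ℕ} {M : Type} [TopologicalSpace M] {A : Atl n M} [T2Space M] [ConnectedSpace M]
  [CompactSpace M] [MeasurableSpace M] [BorelSpace M]

theorem setLIntegral_toX (K : Kah A) (mu : Measure M) (φ : (ofKah K).M → ℝ≥0∞)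
    (S : Set (ofKah K).M) :
    ∫⁻ x in S, φ x ∂(Measure.map (toX K) mu) =
      ∫⁻ x in (show Set M from S), φ (toX K x) ∂mu := by
  rw [(emb_toX K).restrict_map, (emb_toX K).lintegral_map]
  rfl

theorem map_toX_apply (K : Kah A) (mu : Measure M) (S : Set (ofKah K).M) :
    (Measure.map (toX K) mu) S = mu (show Set M from S) := by
  rw [(emb_toX K).map_apply]
  rfl

theorem measAt_map {ι : Type*} [Fintype ι] (K : Kah A) {f : M → ι → ℂ} {mu : Measure M} {p : M}
    (h : Df4_612.MeasAt f mu p) :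
    Df4_612.MeasAt (X := (ofKah K).M) (onX K f) (Measure.map (toX K) mu) p := by
  intro ζ0 hζ0
  obtain ⟨δ, hδ, s, h0, hc, hf, hm⟩ := h ζ0 hζ0
  refine ⟨δ, hδ, s, h0, hc, hf, fun φ hφ B hB hBm => ?_⟩
  rw [setLIntegral_toX]
  exact hm (fun x => φ (toX K x)) (hφ.comp (emb_toX K).measurable) B hB hBm

end transfer

section onM

variable {N : ℕ} {M : Type} [TopologicalSpace M] {A : Atl N M} {Lb : LB A}
  {s : Fin (N + 1) → A.ι → M → ℂ}

theorem Jsq_nonneg (K : Kah A) (x : M) : 0 ≤ Jsq K s x := by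
  have hc := mem_ch A x
  have hg := det_re_pos (K.pos _ _ hc)
  unfold Jsq
  positivity

variable [T2Space M] [CompactSpace M] [Fintype A.ι] [MeasurableSpace M] [BorelSpace M]

/-- the energy of the length density over `Reg` -/
theorem lint_sg_sq (P : Part A) (K : Kah A) (h : HM Lb) (hs : ∀ j, IsHS Lb univ (s j)) {q a : ℝ}
    (hq : 0 ≤ q) (ha : 1 ≤ a)
    (curv : ∀ i, ∀ x ∈ (A.e i).source, cur h i x = (q : ℂ) • K.g i x) (hN : 1 ≤ N) :
    ∫⁻ x in {x | x ∈ Reg K s ∧ ∀ j, |Real.log ‖quo s x j‖| ≤ a},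
      ENNReal.ofReal (sg K s x ^ 2) ∂(mM K s) ≤
      ENNReal.ofReal (N * (Crest.Agent.R281.Th3_484.CE N * q * a) ^ (N - 1)) *
        vm (volK K) univ := by
  classical
  set R : Set M := {x | x ∈ Reg K s ∧ ∀ j, |Real.log ‖quo s x j‖| ≤ a} with hR
  have hRm : MeasurableSet R := by
    refine (isOpen_Reg K hs).measurableSet.inter ?_
    have h1 : {x : M | ∀ j, |Real.log ‖quo s x j‖| ≤ a} =
        ⋂ j, {x : M | |Real.log ‖quo s x j‖| ≤ a} := by
      ext x; simp
    show MeasurableSet {x : M | ∀ j, |Real.log ‖quo s x j‖| ≤ a}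
    rw [h1]
    refine MeasurableSet.iInter fun j => measurableSet_le ?_ measurable_const
    have h2 : Measurable fun x => quo s x j := (measurable_pi_apply j).comp (measurable_quo hs)
    exact (h2.norm.log).abs
  set φ : M → ℝ≥0∞ := (Reg K s).indicator (fun x => ENNReal.ofReal (sg K s x ^ 2)) with hφ
  have hφm : Measurable φ := by
    rw [hφ, ← piecewise_eq_indicator]
    exact (ENNReal.continuous_ofReal.comp_continuousOn
      ((continuousOn_sg' K hs).pow 2)).measurable_piecewise continuousOn_const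
      (isOpen_Reg K hs).measurableSet
  have h1 : ∫⁻ x in R, ENNReal.ofReal (sg K s x ^ 2) ∂(mM K s) = ∫⁻ x in R, φ x ∂(mM K s) := by
    refine setLIntegral_congr_fun hRm fun x hx => ?_
    simp only [hφ]
    rw [indicator_of_mem hx.1]
  rw [h1, lint_mM K hs hRm hφm]
  have h2 : ∫⁻ x in R, Dh2_612.dJ K s x * φ x ∂(vm (volK K)) =
      ∫⁻ x in R, ENNReal.ofReal N * ENNReal.ofReal (((eta s (ch A x) x).map conj *
        (K.g (ch A x) x)⁻¹ * (eta s (ch A x) x)ᵀ).adjugate.trace.re) ∂(vm (volK K)) := by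
    refine setLIntegral_congr_fun hRm fun x hx => ?_
    have hc := mem_ch A x
    have hE := (Jsq_ne_iff K hs hc hx.1.1).1 hx.1.2
    have hg := K.pos _ _ hc
    simp only [hφ]
    rw [indicator_of_mem hx.1, adj_gram hE hg, Dh2_612.dJ, if_pos hx.1.1]
    have h3 : sg K s x ^ 2 = N * tz (eta s (ch A x) x) (K.g (ch A x) x) := by
      unfold Dh3_612.sg
      rw [Real.sq_sqrt]
      exact mul_nonneg (by positivity) (tz_nonneg hE hg)
    rw [h3, ← ENNReal.ofReal_mul (Jsq_nonneg K x), ← ENNReal.ofReal_mul (by positivity)]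
    congr 1
    unfold Jsq
    ring
  rw [h2, lintegral_const_mul' _ _ ENNReal.ofReal_ne_top, ENNReal.ofReal_mul (by positivity),
    mul_assoc]
  refine mul_le_mul' le_rfl ?_
  refine le_trans (lintegral_mono_set fun x hx => ?_)
    (Crest.Agent.R281.Th3_484.e1 P K h hs hq ha curv hN)
  exact ⟨hx.1.1, hx.2⟩

/-- the mass of the pulled back measure dominates `c · vol` where `Jsq ≥ c` -/
theorem vm_le_mM (K : Kah A) {c : ℝ} {S : Set M} (hs : ∀ j, IsHS Lb univ (s j))
    (hS : ∀ x ∈ S, NZ s x ∧ c ≤ Jsq K s x) :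
    ENNReal.ofReal c * vm (volK K) S ≤ mM K s S := by
  refine le_trans ?_ (withDensity_apply_le _ _)
  rw [← setLIntegral_const]
  refine lintegral_mono_ae ?_
  rw [ae_restrict_iff (measurableSet_le measurable_const (measurable_dJ K hs))]
  refine Filter.Eventually.of_forall fun x hx => ?_
  rw [Dh2_612.dJ, if_pos (hS x hx).1]
  exact ENNReal.ofReal_le_ofReal (hS x hx).2

end onM

theorem le_sq_add_one (t : ℝ) : t ≤ t ^ 2 + 1 := by nlinarith [sq_nonneg (t - 1), sq_nonneg t]

set_option maxHeartbeats 1600000 in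
/-- **THE DIAMETER BOUND OF THEOREM S** -/
theorem diamStmt : Crest.Agent.R281.HfA_593.DiamStmt := by
  intro N m v C0 c d hN hm hv hc
  have hN0 : 0 < N := hN
  have : Nonempty (Fin N) := ⟨⟨0, hN0⟩⟩
  have hpi := Real.pi_pos
  set a0 : ℝ := max C0 1 with ha0
  have ha1 : 1 ≤ a0 := le_max_right _ _
  have haC : C0 ≤ a0 := le_max_left _ _
  have ha0p : 0 < a0 := by linarith
  set V0 : ℝ := (4 * π * a0) ^ N with hV0
  have hV0p : 0 < V0 := by positivity
  set B : ℝ := V0 * v / c with hB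
  have hBp : 0 < B := by positivity
  have hCE : 0 < Crest.Agent.R281.Th3_484.CE N := by
    unfold Crest.Agent.R281.Th3_484.CE
    have : (0 : ℝ) < N := by exact_mod_cast hN0
    positivity
  set E1 : ℝ := N * (Crest.Agent.R281.Th3_484.CE N * m * a0) ^ (N - 1) * v with hE1
  have hE1p : 0 < E1 := by
    have : (0 : ℝ) < N := by exact_mod_cast hN0
    positivity
  set C : ℝ := E1 / V0 + d with hC
  have hCp : 0 < C := by positivity
  set D : ℝ := Di2_612.diamC (2 * N) (c / (4 * d)) with hD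
  set Q : ℝ := 2 * (2 * (d + 1) * (2 ^ (2 * N) * (2 * a0 + 2 * π) * C * (2 * (B * d) / c))) with hQ
  have hQp : 0 ≤ Q := by positivity
  refine ⟨|D| * Q + 1, 1, by positivity, le_rfl, ?_⟩
  intro L hL M _ _ _ _ _ _ A _ PA K Lb h s om hS
  have := Fintype.ofFinite A.ι
  have hL0 : 0 < L := by linarith
  have hSC : SecondCountableTopology M := instSC K
  have hs := hS.hol
  obtain ⟨P, hP0, hPJ, hprop⟩ := hS.cov
  obtain ⟨hcov, hfin⟩ := covering hN0 K hs hPJ hprop
  set Pf : (Fin N → ℂ) → ℂ := fun w => MvPolynomial.eval w P with hPf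
  have hUR : ∀ x, (∀ j, quo s x j ≠ 0) → Pf (quo s x) ≠ 0 → x ∈ Reg K s := fun x h1 h2 => by
    have h3 := NZ_of_quo hN0 hs h1
    exact ⟨h3, hPJ x h3 h2⟩
  have hd : ∀ w : Fin N → ℂ, (∀ j, w j ≠ 0) → Pf w ≠ 0 → (quo s ⁻¹' {w}).encard ≤ d := by
    intro w hw hPw
    have h1 := hfin w ⟨hw, hPw⟩
    have h2 := hS.deg h1.toFinset (fun x hx => by
      have hx' : quo s x = w := by simpa using hx
      refine hUR x ?_ ?_
      · rw [hx']; exact hw
      · rw [hx']; exact hPw) (fun x hx y hy => by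
      have hx' : quo s x = w := by simpa using hx
      have hy' : quo s y = w := by simpa using hy
      rw [hx', hy'])
    rw [h1.encard_eq_coe_toFinset_card]
    exact_mod_cast h2
  -- volumes
  set V : ℝ≥0∞ := vm (volK K) univ with hV
  have hfinm : IsFiniteMeasure (vm (volK K)) := isFinite_vm (volK K)
  have hVt : V ≠ ⊤ := measure_ne_top _ _
  have hVr : V = ENNReal.ofReal ((vm (volK K)).real univ) := by
    rw [Measure.real, ENNReal.ofReal_toReal hVt]
  have hVle : V ≤ ENNReal.ofReal (v * L ^ N) := by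
    rw [hVr]; exact ENNReal.ofReal_le_ofReal hS.vol_le
  have hVge : ENNReal.ofReal (L ^ N) ≤ ENNReal.ofReal v * V := by
    rw [hVr, ← ENNReal.ofReal_mul hv.le]
    refine ENNReal.ofReal_le_ofReal ?_
    have h1 := mul_le_mul_of_nonneg_left hS.vol_ge hv.le
    rwa [← mul_assoc, mul_inv_cancel₀ hv.ne', one_mul] at h1
  set a : ℝ := a0 * L with ha
  have hap : 0 < a := by positivity
  have ha1' : 1 ≤ a := by
    rw [ha]
    calc (1 : ℝ) = 1 * 1 := (one_mul 1).symm
      _ ≤ a0 * L := mul_le_mul ha1 hL zero_le_one (by linarith)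
  have hbox : volume (box (Fin N) a) = ENNReal.ofReal (V0 * L ^ N) := by
    rw [volume_box, Fintype.card_fin, ← ENNReal.ofReal_pow (by positivity), hV0, ← mul_pow, ha]
    congr 2
    ring
  -- curvature
  have hq : 0 ≤ m / L := by positivity
  have hqa : m / L * a = m * a0 := by
    rw [ha]
    field_simp
  -- the measure on `X`
  set nu : Measure (ofKah K).M := Measure.euclideanHausdorffMeasure (2 * N) with hnu
  have hnuv : ∀ S : Set M, nu (show Set (ofKah K).M from S) = vm (volK K) S := by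
    intro S
    rw [hnu, ← map_vm K, map_toX_apply]
  set mX : Measure (ofKah K).M := Measure.map (toX K) (mM K s) with hmX
  have hmXv : ∀ S : Set M, mX (show Set (ofKah K).M from S) = mM K s S := by
    intro S
    rw [hmX, map_toX_apply]
  -- regions
  obtain ⟨hregm, hregM⟩ := mass_reg_le (mX := mM K s) (differentiable_eval P).continuous hcov hd
    (fun p h1 h2 => measAt K hs (hUR p h1 h2)) a
  have hEM : ∫⁻ x in reg (quo s) Pf a, ENNReal.ofReal (Dh3_612.sg K s x) ∂(mM K s) ≤
      ENNReal.ofReal C * volume (box (Fin N) a) := by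
    have h1 : ∫⁻ x in reg (quo s) Pf a, ENNReal.ofReal (Dh3_612.sg K s x) ∂(mM K s) ≤
        ∫⁻ x in reg (quo s) Pf a, (ENNReal.ofReal (Dh3_612.sg K s x ^ 2) + 1) ∂(mM K s) := by
      refine lintegral_mono fun x => ?_
      rw [← ENNReal.ofReal_one, ← ENNReal.ofReal_add (by positivity) zero_le_one]
      exact ENNReal.ofReal_le_ofReal (le_sq_add_one _)
    have h2 := lint_sg_sq PA K h hs hq ha1' hS.curv hN
    have h3 : ∫⁻ x in reg (quo s) Pf a, ENNReal.ofReal (Dh3_612.sg K s x ^ 2) ∂(mM K s) ≤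
        ENNReal.ofReal (E1 / V0) * volume (box (Fin N) a) := by
      refine (lintegral_mono_set fun x hx => ?_).trans (h2.trans ?_)
      · exact ⟨hUR x hx.1 hx.2.1, hx.2.2⟩
      · rw [mul_assoc (Crest.Agent.R281.Th3_484.CE N), hqa, hbox,
          ← ENNReal.ofReal_mul (by positivity)]
        refine (mul_le_mul' le_rfl hVle).trans ?_
        rw [← ENNReal.ofReal_mul (by positivity)]
        refine ENNReal.ofReal_le_ofReal (le_of_eq ?_)
        rw [hE1]
        field_simp
    refine h1.trans ?_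
    rw [lintegral_add_right _ measurable_const, setLIntegral_const, one_mul, hC,
      ENNReal.ofReal_add (by positivity) (by positivity), add_mul, ENNReal.ofReal_natCast]
    exact add_le_add h3 hregM
  -- the good set
  set G : Set M := {x | NZ s x ∧ (∀ j, |Real.log ‖quo s x j‖| ≤ a) ∧ c ≤ Jsq K s x ∧
    Pf (quo s x) ≠ 0} with hG
  have hGmass : ENNReal.ofReal c * V ≤ vm (volK K) G := by
    set S0 : Set M := {x | NZ s x ∧ (∀ j, |Real.log ‖quo s x j‖| ≤ C0 * L) ∧ c ≤ Jsq K s x}
      with hS0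
    have h1 : ENNReal.ofReal c * V ≤ vm (volK K) S0 := by
      rw [hVr, ← ENNReal.ofReal_mul hc.le]
      refine (ENNReal.ofReal_le_ofReal hS.mass).trans (le_of_eq ?_)
      rw [Measure.real, ENNReal.ofReal_toReal (measure_ne_top _ _)]
    refine h1.trans ?_
    have h2 : S0 ⊆ G ∪ {x | x ∈ Reg K s ∧ MvPolynomial.eval (quo s x) P = 0} := by
      intro x hx
      by_cases h0 : MvPolynomial.eval (quo s x) P = 0
      · refine Or.inr ⟨⟨hx.1, ?_⟩, h0⟩
        have := hx.2.2
        intro h4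
        rw [h4] at this
        linarith
      · refine Or.inl ⟨hx.1, fun j => (hx.2.1 j).trans ?_, hx.2.2, h0⟩
        exact mul_le_mul_of_nonneg_right haC hL0.le
    refine (measure_mono h2).trans ((measure_union_le _ _).trans ?_)
    rw [vm_zero K hs hP0, add_zero]
  have hGr : G ⊆ reg (quo s) Pf a := fun x hx =>
    ⟨fun j => quo_ne hs hx.1 j, hx.2.2.2, hx.2.1⟩
  have hdens : ∀ S : Set M, vm (volK K) (G ∩ S) * volume (box (Fin N) a) ≤
      ENNReal.ofReal B * mM K s (S ∩ reg (quo s) Pf a) * V := by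
    intro S
    have h1 : ENNReal.ofReal c * vm (volK K) (G ∩ S) ≤ mM K s (S ∩ reg (quo s) Pf a) := by
      refine (vm_le_mM K hs (fun x hx => ⟨hx.1.1, hx.1.2.2.1⟩)).trans (measure_mono ?_)
      exact fun x hx => ⟨hx.2, hGr hx.1⟩
    have h2 : volume (box (Fin N) a) ≤ ENNReal.ofReal (V0 * v) * V := by
      rw [hbox, ENNReal.ofReal_mul hV0p.le, ENNReal.ofReal_mul hV0p.le, mul_assoc]
      exact mul_le_mul' le_rfl hVge
    have h3 : ENNReal.ofReal (V0 * v) = ENNReal.ofReal B * ENNReal.ofReal c := by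
      rw [← ENNReal.ofReal_mul hBp.le, hB]
      congr 1
      field_simp
    calc vm (volK K) (G ∩ S) * volume (box (Fin N) a)
        ≤ vm (volK K) (G ∩ S) * (ENNReal.ofReal (V0 * v) * V) := mul_le_mul' le_rfl h2
      _ = ENNReal.ofReal B * (ENNReal.ofReal c * vm (volK K) (G ∩ S)) * V := by
          rw [h3]; ring
      _ ≤ _ := by gcongr
  -- the metric space
  have hK : (volK K).Semipos := by
    refine semipos_of_cur fun i x hx => ?_
    rw [Crest.Agent.R281.Glob3_484.cur_volK_zero K hS.omh hS.omn i x hx]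
    exact Matrix.PosSemidef.zero
  obtain ⟨rd⟩ := rad K hK
  have hBG : ∀ q : (ofKah K).M, ∀ r R : ℝ, 0 < r → r ≤ R →
      nu (closedBall q R \ closedBall q r) ≤
        ENNReal.ofReal ((R / r) ^ (2 * N) - 1) * nu (closedBall q r) := by
    intro q r R hr hR
    exact Crest.Agent.R281.Poin_274.closedBall_diff_le rd rd q hr hR
      ((measure_mono (subset_univ _)).trans_lt (lt_top_iff_ne_top.2 (muHE_univ_ne_top K))).ne
  intro x y
  have key := Df5_612.diam_le_fin (X := (ofKah K).M) (n := 2 * N) (ν := nu) (mX := mX)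
    (muHE_univ_pos K).ne' (muHE_univ_ne_top K) hBG (f := onX K (quo s)) (P := Pf)
    ((measurable_quo hs).comp (toX K).symm.measurable) (differentiable_eval P) hcov hd
    (sg := onX K (Dh3_612.sg K s))
    ((continuousOn_sg' K hs).mono fun p hp => hUR p hp.1 hp.2)
    (fun p => Dh3_612.sg_nonneg K p) (fun p h1 h2 => lenAt K hs (hUR p h1 h2))
    (fun p h1 h2 => measAt_map K (measAt K hs (hUR p h1 h2)))
    (G := G) hap hBp hCp hc hGr
    (fun S _ _ => by
      have h1 := hdens (quo s ⁻¹' (expPi '' S))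
      have e1 := hnuv (G ∩ quo s ⁻¹' (expPi '' S))
      have e2 := hmXv (quo s ⁻¹' (expPi '' S) ∩ reg (quo s) Pf a)
      have e3 := hnuv univ
      rw [← e1, ← e2, hV, ← e3] at h1
      exact h1)
    (by
      rw [hmX, setLIntegral_toX]
      exact hEM)
    (by
      have e1 := hnuv G
      have e3 := hnuv univ
      have h1 := hGmass
      rw [← e1, hV, ← e3] at h1
      exact h1) x y
  rw [Fintype.card_fin] at key
  refine key.trans ?_
  have h5 : 2 * a + 2 * π ≤ (2 * a0 + 2 * π) * L := by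
    rw [ha]
    nlinarith
  have h6 : 2 * (2 * ((d : ℝ) + 1) * (2 ^ (2 * N) * (2 * a + 2 * π) * C * (2 * (B * d) / c))) ≤
      Q * L := by
    have h7 : Q * L = 2 * (2 * ((d : ℝ) + 1) *
        (2 ^ (2 * N) * ((2 * a0 + 2 * π) * L) * C * (2 * (B * d) / c))) := by
      rw [hQ]; ring
    rw [h7]
    gcongr
  have h8 : 0 ≤ 2 * (2 * ((d : ℝ) + 1) *
      (2 ^ (2 * N) * (2 * a + 2 * π) * C * (2 * (B * d) / c))) := by positivity
  calc D * (2 * (2 * ((d : ℝ) + 1) * (2 ^ (2 * N) * (2 * a + 2 * π) * C * (2 * (B * d) / c))))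
      ≤ |D| * (2 * (2 * ((d : ℝ) + 1) *
          (2 ^ (2 * N) * (2 * a + 2 * π) * C * (2 * (B * d) / c)))) :=
        mul_le_mul_of_nonneg_right (le_abs_self D) h8
    _ ≤ |D| * (Q * L) := mul_le_mul_of_nonneg_left h6 (abs_nonneg D)
    _ ≤ (|D| * Q + 1) * L := by nlinarith

end

end Crest.Agent.R281.Dh5_612
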