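/-
R281 / S-DIAM (helper612), part 3: rays with a small deviation in measure
(equi-integrable form, 14 #5127 (5)).
-/
import Crest.Agent.R281.Di2_612

namespace Crest.Agent.R281.Di3_612

open MeasureTheory Measure Set Metric Module
open scoped ENNReal NNReal
open Crest.Agent.R281.Di1_612

variable {E : Type*} [NormedAddCommGroup E] [NormedSpace ℝ E] [FiniteDimensional ℝ E]
  [MeasurableSpace E] [BorelSpace E] {μ : Measure E} [μ.IsAddHaarMeasure]

omit [FiniteDimensional ℝ E] [NormedSpace ℝ E] [BorelSpace E] [μ.IsAddHaarMeasure] in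
/-- one scale: `G ≤ S^(1/2) + 1`, `∫_B S ≤ K μ(B)` and `μ{G > ε} ∩ B ≤ ε μ(B)` give
`∫_B G ≤ (2 ε + (ε K)^(1/2)) μ(B)`. -/
theorem scale_le {y : E} {s : ℝ} {G S : E → ℝ≥0∞} (hG : Measurable G) (hS : Measurable S)
    (hGS : ∀ z, G z ≤ (S z) ^ (1 / 2 : ℝ) + 1) {K ε : ℝ≥0∞}
    (hK : ∫⁻ z in ball y s, S z ∂μ ≤ K * μ (ball y s))
    (hε : μ ({z | ε < G z} ∩ ball y s) ≤ ε * μ (ball y s)) :
    ∫⁻ z in ball y s, G z ∂μ ≤ (2 * ε + (ε * K) ^ (1 / 2 : ℝ)) * μ (ball y s) := by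
  set B := ball y s
  set Z := {z | ε < G z}
  have hZ : MeasurableSet Z := measurableSet_lt measurable_const hG
  have h1 : ∫⁻ z in B, G z ∂μ ≤ ∫⁻ z in B, ε ∂μ +
      ∫⁻ z in B, Z.indicator (fun z => (S z) ^ (1 / 2 : ℝ) + 1) z ∂μ := by
    rw [← lintegral_add_left measurable_const]
    refine lintegral_mono fun z => ?_
    by_cases hz : z ∈ Z
    · rw [indicator_of_mem hz]
      exact (hGS z).trans le_add_self
    · rw [indicator_of_notMem hz, add_zero]
      exact not_lt.1 hz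
  have h2 : ∫⁻ z in B, Z.indicator (fun z => (S z) ^ (1 / 2 : ℝ) + 1) z ∂μ
      ≤ (ε * K) ^ (1 / 2 : ℝ) * μ B + ε * μ B := by
    rw [lintegral_indicator hZ, Measure.restrict_restrict hZ, lintegral_add_right _ measurable_const,
      setLIntegral_one]
    refine add_le_add ?_ hε
    refine (lintegral_sqrt_le (ν := μ.restrict (Z ∩ B)) hS).trans ?_
    rw [Measure.restrict_apply_univ]
    have h3 : (∫⁻ x in Z ∩ B, S x ∂μ) ^ (1 / 2 : ℝ) ≤ (K * μ B) ^ (1 / 2 : ℝ) :=
      ENNReal.rpow_le_rpow ((lintegral_mono_set inter_subset_right).trans hK) (by norm_num)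
    have h4 : μ (Z ∩ B) ^ (1 / 2 : ℝ) ≤ (ε * μ B) ^ (1 / 2 : ℝ) :=
      ENNReal.rpow_le_rpow hε (by norm_num)
    calc (∫⁻ x in Z ∩ B, S x ∂μ) ^ (1 / 2 : ℝ) * μ (Z ∩ B) ^ (1 / 2 : ℝ)
        ≤ (K * μ B) ^ (1 / 2 : ℝ) * (ε * μ B) ^ (1 / 2 : ℝ) := mul_le_mul' h3 h4
      _ = (ε * K) ^ (1 / 2 : ℝ) * (μ B ^ (1 / 2 : ℝ) * μ B ^ (1 / 2 : ℝ)) := by
          rw [ENNReal.mul_rpow_of_nonneg _ _ (by norm_num), ENNReal.mul_rpow_of_nonneg _ _ (by norm_num),
            ENNReal.mul_rpow_of_nonneg _ _ (by norm_num)]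
          ring
      _ = (ε * K) ^ (1 / 2 : ℝ) * μ B := by
          rw [← ENNReal.rpow_add_of_nonneg _ _ (by norm_num) (by norm_num)]
          norm_num
  refine h1.trans ?_
  rw [setLIntegral_const]
  calc ε * μ B + ∫⁻ z in B, Z.indicator (fun z => (S z) ^ (1 / 2 : ℝ) + 1) z ∂μ
      ≤ ε * μ B + ((ε * K) ^ (1 / 2 : ℝ) * μ B + ε * μ B) := by gcongr
    _ = _ := by ring

/-- (D2'), EQUI-INTEGRABLE RAYS. `G ≤ S^(1/2) + 1`, the means of `S` over `B(y,s)`, `s ≤ r`, are
`≤ K`, and at all scales `s ∈ [θ r, r]` the set `{G > ε}` has fraction `≤ ε`. Then the average of the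
ray integrals is `≤ 2 ε + (ε K)^(1/2) + θ (K^(1/2) + 1)`. -/
theorem ray_small {y : E} {r : ℝ} (hr : 0 < r) {G S : E → ℝ≥0∞} (hG : Measurable G)
    (hS : Measurable S) (hGS : ∀ z, G z ≤ (S z) ^ (1 / 2 : ℝ) + 1) {K ε : ℝ≥0∞} {θ : ℝ}
    (hθ0 : 0 ≤ θ)
    (hK : ∀ s, 0 < s → s ≤ r → ∫⁻ z in ball y s, S z ∂μ ≤ K * μ (ball y s))
    (hε : ∀ s, θ * r ≤ s → s ≤ r → μ ({z | ε < G z} ∩ ball y s) ≤ ε * μ (ball y s)) :
    ∫⁻ z in ball y r, ∫⁻ t in Ioc (0 : ℝ) 1, G (y + t • (z - y)) ∂volume ∂μ ≤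
      (2 * ε + (ε * K) ^ (1 / 2 : ℝ) + ENNReal.ofReal θ * (K ^ (1 / 2 : ℝ) + 1)) *
        μ (ball y r) := by
  classical
  set M1 : ℝ≥0∞ := 2 * ε + (ε * K) ^ (1 / 2 : ℝ)
  set M2 : ℝ≥0∞ := K ^ (1 / 2 : ℝ) + 1
  have hM : ∀ s, 0 < s → s ≤ r → ∫⁻ z in ball y s, G z ∂μ ≤
      (M1 + (Iio (θ * r)).indicator (fun _ => M2) s) * μ (ball y s) := by
    intro s hs hsr
    by_cases h : s < θ * r
    · rw [indicator_of_mem (mem_Iio.2 h)]
      have h1 : ∫⁻ z in ball y s, G z ∂μ ≤ M2 * μ (ball y s) := by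
        calc ∫⁻ z in ball y s, G z ∂μ ≤ ∫⁻ z in ball y s, ((S z) ^ (1 / 2 : ℝ) + 1) ∂μ :=
              lintegral_mono hGS
          _ = ∫⁻ z in ball y s, (S z) ^ (1 / 2 : ℝ) ∂μ + μ (ball y s) := by
              rw [lintegral_add_right _ measurable_const, setLIntegral_one]
          _ ≤ K ^ (1 / 2 : ℝ) * μ (ball y s) + μ (ball y s) := by
              gcongr
              refine (lintegral_sqrt_le (ν := μ.restrict (ball y s)) hS).trans ?_
              rw [Measure.restrict_apply_univ]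
              calc (∫⁻ x in ball y s, S x ∂μ) ^ (1 / 2 : ℝ) * μ (ball y s) ^ (1 / 2 : ℝ)
                  ≤ (K * μ (ball y s)) ^ (1 / 2 : ℝ) * μ (ball y s) ^ (1 / 2 : ℝ) := by
                    gcongr
                    exact hK s hs hsr
                _ = K ^ (1 / 2 : ℝ) * (μ (ball y s) ^ (1 / 2 : ℝ) * μ (ball y s) ^ (1 / 2 : ℝ)) := by
                    rw [ENNReal.mul_rpow_of_nonneg _ _ (by norm_num), mul_assoc]
                _ = K ^ (1 / 2 : ℝ) * μ (ball y s) := by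
                    rw [← ENNReal.rpow_add_of_nonneg _ _ (by norm_num) (by norm_num)]
                    norm_num
          _ = M2 * μ (ball y s) := by
              simp only [M2]
              ring
      refine h1.trans ?_
      gcongr
      exact le_add_self
    · rw [indicator_of_notMem (by simpa using h), add_zero]
      exact scale_le hG hS hGS (hK s hs hsr) (hε s (not_lt.1 h) hsr)
  refine (ray_le hr hG hM).trans ?_
  gcongr
  have hmeas : Measurable fun t : ℝ => (Iio (θ * r)).indicator (fun _ => M2) (t * r) := by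
    have : Measurable ((Iio (θ * r)).indicator (fun _ : ℝ => M2)) :=
      measurable_const.indicator measurableSet_Iio
    exact this.comp (measurable_id.mul_const r)
  rw [lintegral_add_left measurable_const]
  refine add_le_add ?_ ?_
  · rw [setLIntegral_const, Real.volume_Ioc]
    simp
  · calc ∫⁻ t in Ioc (0 : ℝ) 1, (Iio (θ * r)).indicator (fun _ => M2) (t * r)
        ≤ ∫⁻ t, (Ioc (0 : ℝ) θ).indicator (fun _ => M2) t := by
          rw [← lintegral_indicator measurableSet_Ioc]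
          refine lintegral_mono fun t => ?_
          by_cases h1 : t ∈ Ioc (0 : ℝ) 1
          · rw [indicator_of_mem h1]
            by_cases h2 : t * r ∈ Iio (θ * r)
            · rw [indicator_of_mem h2, indicator_of_mem]
              exact ⟨h1.1, ((mul_lt_mul_iff_left₀ hr).1 (mem_Iio.1 h2)).le⟩
            · rw [indicator_of_notMem h2]
              exact bot_le
          · rw [indicator_of_notMem h1]
            exact bot_le
      _ = ENNReal.ofReal θ * M2 := by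
          rw [lintegral_indicator measurableSet_Ioc, setLIntegral_const, Real.volume_Ioc, sub_zero,
            mul_comm]

end Crest.Agent.R281.Di3_612
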