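import Crest.Agent.R281.DicA_273
import Crest.Agent.R281.Defs_273

/-!
# R281 (S0424), HK-DIC part B (helper273): forms in the charts of `A`

* `rp K α i x`     : the frozen form `α` at `g x`, read in the coordinates of the chart `i`;
  `rp_eq`, `rp_tr`, `rp_smooth`, `rp_hol`.
* `mat11 β`        : the Hermitian matrix of a real `(1,1)`-form, `β(v,w) = -(1/π) Im ∑ M_ab v_a conj w_b`;
  `mat11_comp`, `mat11_quad`.
* `mat20 β`        : the matrix `β(e_a,e_b)` of a `(2,0)`-form; `mat20_comp`.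
* `kahOf`          : the Kaehler metric of a frozen Kaehler form.
* `hsympOf`        : the holomorphic symplectic form of a frozen one.
-/

set_option autoImplicit false
set_option linter.unusedSectionVars false

open Set Filter Topology Complex
open scoped ContDiff Matrix ComplexConjugate Manifold ComplexOrder

namespace Crest.Agent.R281.DicB_273

open Crest.Agent.R275.Geo Crest.Agent.R275.Core144 Crest.Agent.R275.EDR890
open Crest.Agent.R273.Defs_333 Crest.Agent.R273.Kah_333 Crest.Agent.R273.HessB_333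
open Crest.Agent.R281.DicA_273 Crest.Agent.R281.Defs_273
open Crest.CxGeometry (Form chartRep transDeriv chartWindow)

noncomputable section

universe u

/-! ### linear algebra -/

section Algebra

variable {n : ℕ}

/-- the standard basis -/
abbrev bs (a : Fin n) : Cn n := EuclideanSpace.single a (1 : ℂ)

theorem sum_bs (v : Cn n) : v = ∑ c, v c • (bs c : Cn n) := by
  ext d
  simp [Finset.sum_apply, Pi.single_apply, bs]

/-- the matrix of a linear map, `mx T b a = (T e_a)_b` -/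
def mx (T : Cn n →L[ℂ] Cn n) : Matrix (Fin n) (Fin n) ℂ := Matrix.of fun b a => (T (bs a)) b

theorem apply_bs (T : Cn n →L[ℂ] Cn n) (a : Fin n) : T (bs a) = ∑ c, mx T c a • (bs c : Cn n) :=
  sum_bs _

/-- the sesquilinear form attached to a 2-form -/
def ses (β : (Cn n) [⋀^Fin 2]→L[ℝ] ℂ) (v w : Cn n) : ℂ :=
  (Real.pi : ℂ) * (β ![v, I • w] - I * β ![v, w])

/-- type `(1,1)` -/
def T11 (β : (Cn n) [⋀^Fin 2]→L[ℝ] ℂ) : Prop := ∀ v w : Cn n, β ![I • v, I • w] = β ![v, w]

/-- real -/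
def RealF {k : ℕ} (β : (Cn n) [⋀^Fin k]→L[ℝ] ℂ) : Prop := ∀ v, (β v).im = 0

variable {β : (Cn n) [⋀^Fin 2]→L[ℝ] ℂ}

theorem upd0 (v w u : Cn n) : Function.update (![v, w] : Fin 2 → Cn n) 0 u = ![u, w] := by
  funext i
  fin_cases i <;> simp

theorem f2_add_left (β : (Cn n) [⋀^Fin 2]→L[ℝ] ℂ) (v v' w : Cn n) :
    β ![v + v', w] = β ![v, w] + β ![v', w] := by
  have := β.map_update_add ![v, w] 0 v v'
  rwa [upd0, upd0, upd0] at this

theorem f2_smul_left (β : (Cn n) [⋀^Fin 2]→L[ℝ] ℂ) (c : ℝ) (v w : Cn n) :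
    β ![c • v, w] = c • β ![v, w] := by
  have := β.map_update_smul ![v, w] 0 c v
  rwa [upd0, upd0] at this

theorem f2_swap (β : (Cn n) [⋀^Fin 2]→L[ℝ] ℂ) (v w : Cn n) : β ![w, v] = - β ![v, w] := by
  have := β.toAlternatingMap.map_swap ![v, w] (i := 0) (j := 1) (by decide)
  have h2 : (![v, w] : Fin 2 → Cn n) ∘ Equiv.swap 0 1 = ![w, v] := by
    funext i
    fin_cases i <;> simp
  rw [h2] at this
  exact this

theorem f2_add_right (β : (Cn n) [⋀^Fin 2]→L[ℝ] ℂ) (v w w' : Cn n) :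
    β ![v, w + w'] = β ![v, w] + β ![v, w'] := by
  rw [f2_swap, f2_add_left, f2_swap β v w, f2_swap β v w']
  ring

theorem f2_smul_right (β : (Cn n) [⋀^Fin 2]→L[ℝ] ℂ) (c : ℝ) (v w : Cn n) :
    β ![v, c • w] = c • β ![v, w] := by
  rw [f2_swap, f2_smul_left, f2_swap β v w, smul_neg, neg_neg]

theorem f2_neg_left (β : (Cn n) [⋀^Fin 2]→L[ℝ] ℂ) (v w : Cn n) : β ![-v, w] = - β ![v, w] := by
  have := f2_smul_left β (-1) v w
  simpa using this

theorem f2_neg_right (β : (Cn n) [⋀^Fin 2]→L[ℝ] ℂ) (v w : Cn n) : β ![v, -w] = - β ![v, w] := by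
  have := f2_smul_right β (-1) v w
  simpa using this

theorem II_smul (v : Cn n) : I • I • v = -v := by
  rw [smul_smul, I_mul_I, neg_smul, one_smul]

theorem T11.J_left (h : T11 β) (v w : Cn n) : β ![I • v, w] = - β ![v, I • w] := by
  have h1 := h v (I • w)
  rw [II_smul, f2_neg_right] at h1
  rw [← h1, neg_neg]

theorem ses_add_left (v v' w : Cn n) : ses β (v + v') w = ses β v w + ses β v' w := by
  unfold ses
  rw [f2_add_left, f2_add_left]
  ring

theorem ses_add_right (v w w' : Cn n) : ses β v (w + w') = ses β v w + ses β v w' := by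
  unfold ses
  rw [smul_add, f2_add_right, f2_add_right]
  ring

theorem cplx_smul_eq (c : ℂ) (v : Cn n) : c • v = (c.re : ℝ) • v + (c.im : ℝ) • (I • v) := by
  conv_lhs => rw [← Complex.re_add_im c, add_smul, mul_smul]
  rfl

theorem ses_rsmul_left (c : ℝ) (v w : Cn n) : ses β (c • v) w = (c : ℂ) * ses β v w := by
  unfold ses
  rw [f2_smul_left, f2_smul_left, Complex.real_smul, Complex.real_smul]
  ring

theorem ses_rsmul_right (c : ℝ) (v w : Cn n) : ses β v (c • w) = (c : ℂ) * ses β v w := by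
  unfold ses
  rw [smul_comm I c w, f2_smul_right, f2_smul_right, Complex.real_smul, Complex.real_smul]
  ring

theorem T11.ses_I_left (h : T11 β) (v w : Cn n) : ses β (I • v) w = I * ses β v w := by
  unfold ses
  rw [h v w, h.J_left v w]
  linear_combination ((Real.pi : ℂ) * β ![v, w]) * I_sq

theorem ses_I_right (v w : Cn n) : ses β v (I • w) = - I * ses β v w := by
  unfold ses
  rw [II_smul, f2_neg_right]
  linear_combination (- (Real.pi : ℂ) * β ![v, w]) * I_sq

theorem T11.ses_smul_left (h : T11 β) (c : ℂ) (v w : Cn n) : ses β (c • v) w = c * ses β v w := by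
  rw [cplx_smul_eq, ses_add_left, ses_rsmul_left, ses_rsmul_left, h.ses_I_left]
  conv_rhs => rw [← Complex.re_add_im c]
  ring

theorem ses_smul_right (c : ℂ) (v w : Cn n) :
    ses β v (c • w) = conj c * ses β v w := by
  rw [cplx_smul_eq, ses_add_right, ses_rsmul_right, ses_rsmul_right, ses_I_right]
  have : conj c = (c.re : ℂ) - (c.im : ℂ) * I := by
    apply Complex.ext <;> simp
  rw [this]
  ring

theorem ses_zero_left (w : Cn n) : ses β 0 w = 0 := by
  have := ses_rsmul_left (β := β) 0 0 w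
  simpa using this

theorem ses_zero_right (w : Cn n) : ses β w 0 = 0 := by
  have := ses_rsmul_right (β := β) 0 w 0
  simpa using this

theorem ses_sum_left {ι : Type*} (s : Finset ι) (f : ι → Cn n) (w : Cn n) :
    ses β (∑ i ∈ s, f i) w = ∑ i ∈ s, ses β (f i) w := by
  classical
  induction s using Finset.induction_on with
  | empty => simp [ses_zero_left]
  | insert a s ha ih => rw [Finset.sum_insert ha, Finset.sum_insert ha, ses_add_left, ih]

theorem ses_sum_right {ι : Type*} (s : Finset ι) (f : ι → Cn n) (w : Cn n) :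
    ses β w (∑ i ∈ s, f i) = ∑ i ∈ s, ses β w (f i) := by
  classical
  induction s using Finset.induction_on with
  | empty => simp [ses_zero_right]
  | insert a s ha ih => rw [Finset.sum_insert ha, Finset.sum_insert ha, ses_add_right, ih]

/-- the matrix of a `(1,1)`-form -/
def mat11 (β : (Cn n) [⋀^Fin 2]→L[ℝ] ℂ) : Matrix (Fin n) (Fin n) ℂ :=
  Matrix.of fun a b => ses β (bs a) (bs b)

theorem mat11_apply (β : (Cn n) [⋀^Fin 2]→L[ℝ] ℂ) (a b : Fin n) :
    mat11 β a b = (Real.pi : ℂ) * (β ![bs a, I • bs b] - I * β ![bs a, bs b]) := rfl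

theorem T11.ses_eq (h : T11 β) (v w : Cn n) :
    ses β v w = ∑ a, ∑ b, mat11 β a b * v a * conj (w b) := by
  conv_lhs => rw [sum_bs v, ses_sum_left]
  refine Finset.sum_congr rfl fun a _ => ?_
  conv_lhs => rw [sum_bs w, ses_sum_right]
  refine Finset.sum_congr rfl fun b _ => ?_
  rw [h.ses_smul_left, ses_smul_right]
  change v a * (conj (w b) * ses β (bs a) (bs b)) = ses β (bs a) (bs b) * v a * conj (w b)
  ring

/-- pull back of forms under a complex linear map -/
def pb {k : ℕ} (T : Cn n →L[ℂ] Cn n) (β : (Cn n) [⋀^Fin k]→L[ℝ] ℂ) : (Cn n) [⋀^Fin k]→L[ℝ] ℂ :=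
  β.compContinuousLinearMap (T.restrictScalars ℝ)

theorem pb_apply {k : ℕ} (T : Cn n →L[ℂ] Cn n) (β : (Cn n) [⋀^Fin k]→L[ℝ] ℂ) (v : Fin k → Cn n) :
    pb T β v = β (fun s => T (v s)) := rfl

theorem pb_apply2 (T : Cn n →L[ℂ] Cn n) (β : (Cn n) [⋀^Fin 2]→L[ℝ] ℂ) (v w : Cn n) :
    pb T β ![v, w] = β ![T v, T w] := by
  rw [pb_apply]
  congr 1
  funext s
  fin_cases s <;> rfl

theorem pb_comp {k : ℕ} (T T' : Cn n →L[ℂ] Cn n) (β : (Cn n) [⋀^Fin k]→L[ℝ] ℂ) :
    pb T (pb T' β) = pb (T'.comp T) β := rfl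

theorem T11.pb (h : T11 β) (T : Cn n →L[ℂ] Cn n) : T11 (pb T β) := by
  intro v w
  rw [pb_apply2, pb_apply2, map_smul, map_smul, h]

theorem ses_pb (T : Cn n →L[ℂ] Cn n) (β : (Cn n) [⋀^Fin 2]→L[ℝ] ℂ) (v w : Cn n) :
    ses (pb T β) v w = ses β (T v) (T w) := by
  unfold ses
  rw [pb_apply2, pb_apply2, map_smul]

/-- transformation law of the matrix of a `(1,1)`-form -/
theorem T11.mat11_pb (h : T11 β) (T : Cn n →L[ℂ] Cn n) :
    mat11 (DicB_273.pb T β) = (mx T)ᵀ * mat11 β * (mx T).map conj := by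
  ext a b
  change ses (DicB_273.pb T β) (bs a) (bs b) = _
  rw [ses_pb, h.ses_eq]
  simp only [Matrix.mul_apply, Matrix.transpose_apply, Matrix.map_apply, Finset.sum_mul]
  rw [Finset.sum_comm]
  refine Finset.sum_congr rfl fun c _ => Finset.sum_congr rfl fun d _ => ?_
  change mat11 β d c * mx T d a * conj (mx T c b) = mx T d a * mat11 β d c * conj (mx T c b)
  ring

theorem RealF.conj_eq {k : ℕ} {β : (Cn n) [⋀^Fin k]→L[ℝ] ℂ} (h : RealF β) (v : Fin k → Cn n) :
    conj (β v) = β v := Complex.conj_eq_iff_im.2 (h v)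

theorem mat11_herm (h : T11 β) (hr : RealF β) : (mat11 β).IsHermitian := by
  ext a b
  rw [Matrix.conjTranspose_apply, RCLike.star_def, mat11_apply, mat11_apply]
  simp only [map_mul, map_sub, Complex.conj_ofReal, hr.conj_eq, Complex.conj_I]
  have h1 : β ![bs b, I • bs a] = β ![bs a, I • bs b] := by
    rw [f2_swap, h.J_left, neg_neg]
  rw [h1, f2_swap β (bs a) (bs b)]
  ring

theorem ses_self (v : Cn n) : ses β v v = (Real.pi : ℂ) * β ![v, I • v] := by
  unfold ses
  have h1 : β ![v, v] = 0 := by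
    have := f2_swap β v v
    have h2 : (2 : ℂ) * β ![v, v] = 0 := by linear_combination this
    simpa using h2
  rw [h1]
  ring

/-- the quadratic form of the matrix, `x = conj v` -/
theorem mat11_dot (h : T11 β) (x : Fin n → ℂ) :
    star x ⬝ᵥ (mat11 β *ᵥ x) = (Real.pi : ℂ) * β ![WithLp.toLp 2 (fun a => conj (x a)),
      I • WithLp.toLp 2 (fun a => conj (x a))] := by
  rw [← ses_self, h.ses_eq]
  simp only [dotProduct, Matrix.mulVec, Pi.star_apply, RCLike.star_def, Finset.mul_sum,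
    Complex.conj_conj]
  refine Finset.sum_congr rfl fun a _ => Finset.sum_congr rfl fun b _ => ?_
  ring

theorem mat11_add (β β' : (Cn n) [⋀^Fin 2]→L[ℝ] ℂ) : mat11 (β + β') = mat11 β + mat11 β' := by
  ext a b
  rw [Matrix.add_apply, mat11_apply, mat11_apply, mat11_apply]
  simp only [ContinuousAlternatingMap.add_apply]
  ring

theorem mat11_posDef (h : T11 β) (hr : RealF β) (hp : ∀ v : Cn n, v ≠ 0 → 0 < (β ![v, I • v]).re) :
    (mat11 β).PosDef := by
  refine Matrix.PosDef.of_dotProduct_mulVec_pos (mat11_herm h hr) fun x hx => ?_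
  rw [mat11_dot h]
  set v : Cn n := WithLp.toLp 2 (fun a => conj (x a)) with hv
  have h0 : v ≠ 0 := by
    intro h1
    apply hx
    funext a
    have := congrArg (fun v : Cn n => v a) h1
    simpa [hv] using this
  have h1 := hp v h0
  have h2 : β ![v, I • v] = (((β ![v, I • v]).re : ℝ) : ℂ) := by
    apply Complex.ext
    · simp
    · simpa using hr _
  rw [h2]
  exact_mod_cast mul_pos Real.pi_pos h1

theorem mat11_posSemidef (h : T11 β) (hr : RealF β) (hp : ∀ v : Cn n, 0 ≤ (β ![v, I • v]).re) :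
    (mat11 β).PosSemidef := by
  refine Matrix.PosSemidef.of_dotProduct_mulVec_nonneg (mat11_herm h hr) fun x => ?_
  rw [mat11_dot h]
  set v : Cn n := WithLp.toLp 2 (fun a => conj (x a)) with hv
  have h1 := hp v
  have h2 : β ![v, I • v] = (((β ![v, I • v]).re : ℝ) : ℂ) := by
    apply Complex.ext
    · simp
    · simpa using hr _
  rw [h2]
  exact_mod_cast mul_nonneg Real.pi_pos.le h1

/-! ### (2,0)-forms -/

/-- the matrix of a 2-form on the complex basis -/
def mat20 (β : (Cn n) [⋀^Fin 2]→L[ℝ] ℂ) : Matrix (Fin n) (Fin n) ℂ :=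
  Matrix.of fun a b => β ![bs a, bs b]

/-- complex bilinear -/
def T20 (β : (Cn n) [⋀^Fin 2]→L[ℝ] ℂ) : Prop :=
  ∀ (c : ℂ) (v w : Cn n), β ![c • v, w] = c * β ![v, w]

theorem T20.right (h : T20 β) (c : ℂ) (v w : Cn n) : β ![v, c • w] = c * β ![v, w] := by
  rw [f2_swap, h, f2_swap β v w, mul_neg, neg_neg]

theorem f2_sum_left (β : (Cn n) [⋀^Fin 2]→L[ℝ] ℂ) {ι : Type*} (s : Finset ι) (f : ι → Cn n)
    (w : Cn n) : β ![∑ i ∈ s, f i, w] = ∑ i ∈ s, β ![f i, w] := by
  classical
  induction s using Finset.induction_on with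
  | empty =>
    have := f2_smul_left β 0 0 w
    simpa using this
  | insert a s ha ih => rw [Finset.sum_insert ha, Finset.sum_insert ha, f2_add_left, ih]

theorem f2_sum_right (β : (Cn n) [⋀^Fin 2]→L[ℝ] ℂ) {ι : Type*} (s : Finset ι) (f : ι → Cn n)
    (w : Cn n) : β ![w, ∑ i ∈ s, f i] = ∑ i ∈ s, β ![w, f i] := by
  rw [f2_swap, f2_sum_left, ← Finset.sum_neg_distrib]
  exact Finset.sum_congr rfl fun i _ => (f2_swap β (f i) w).symm

theorem T20.eq (h : T20 β) (v w : Cn n) : β ![v, w] = ∑ a, ∑ b, mat20 β a b * v a * w b := by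
  conv_lhs => rw [sum_bs v, f2_sum_left]
  refine Finset.sum_congr rfl fun a _ => ?_
  conv_lhs => rw [sum_bs w, f2_sum_right]
  refine Finset.sum_congr rfl fun b _ => ?_
  rw [h, h.right]
  change v a * (w b * β ![bs a, bs b]) = β ![bs a, bs b] * v a * w b
  ring

theorem T20.pb (h : T20 β) (T : Cn n →L[ℂ] Cn n) : T20 (pb T β) := by
  intro c v w
  rw [pb_apply2, pb_apply2, map_smul, h]

theorem T20.mat20_pb (h : T20 β) (T : Cn n →L[ℂ] Cn n) :
    mat20 (DicB_273.pb T β) = (mx T)ᵀ * mat20 β * mx T := by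
  ext a b
  change DicB_273.pb T β ![bs a, bs b] = _
  rw [pb_apply2, h.eq]
  simp only [Matrix.mul_apply, Matrix.transpose_apply, Finset.sum_mul]
  rw [Finset.sum_comm]
  refine Finset.sum_congr rfl fun c _ => Finset.sum_congr rfl fun d _ => ?_
  change mat20 β d c * mx T d a * mx T c b = mx T d a * mat20 β d c * mx T c b
  ring

theorem mat20_alt (β : (Cn n) [⋀^Fin 2]→L[ℝ] ℂ) : (mat20 β)ᵀ = - mat20 β := by
  ext a b
  exact f2_swap β (bs a) (bs b)

/-- `dz_a ∧ dz_b` as an alternating form -/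
def dzz (a b : Fin n) : (Cn n) [⋀^Fin 2]→L[ℝ] ℂ :=
  Crest.CxGeometry.ofBilin
    ((((EuclideanSpace.proj a : Cn n →L[ℂ] ℂ).restrictScalars ℝ).smulRight
      ((EuclideanSpace.proj b : Cn n →L[ℂ] ℂ).restrictScalars ℝ : Cn n →L[ℝ] ℂ)))

end Algebra

end

end Crest.Agent.R281.DicB_273
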