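import Crest.Agent.R281.DicB_273

/-!
# R281 (S0424), HK-DIC part C (helper273): forms in the charts of `A`

* `rp K α i x`     : the frozen form `α` at `g x`, read in the coordinates of the chart `i`;
  `rp_read`, `rp_tr`, `rp_smooth`, `rp_hol`, `rp_closed`.
* `kahOf`          : the Kaehler metric of a frozen Kaehler form.
* `hsympOf`        : the holomorphic symplectic form of a frozen one.
-/

set_option autoImplicit false
set_option linter.unusedSectionVars false

open Set Filter Topology Complex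
open scoped ContDiff Matrix ComplexConjugate Manifold ComplexOrder

namespace Crest.Agent.R281.DicC_273

open Crest.Agent.R275.Geo Crest.Agent.R275.Core144 Crest.Agent.R275.EDR890
open Crest.Agent.R273.Defs_333 Crest.Agent.R273.Kah_333 Crest.Agent.R273.HessB_333
open Crest.Agent.R281.DicA_273 Crest.Agent.R281.Defs_273 Crest.Agent.R281.DicB_273
open Crest.CxGeometry (Form chartRep transDeriv chartWindow)

noncomputable section

universe u

variable {n k : ℕ} {X : Type u} [TopologicalSpace X] [ChartedSpace (Cn n) X]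
  {M : Type} [TopologicalSpace M] {A : Atl n M}

/-! ### invertibility of `tD` -/

section Inv

variable (K : Lk A X)

/-- derivative of the change from the preferred coordinates at `g x` to the chart `i` -/
def tE (i : A.ι) (x : M) : Cn n →L[ℂ] Cn n :=
  fderiv ℂ (fun w => A.e i (K.g.symm ((chartAt (Cn n) (K.g x)).symm w)))
    (chartAt (Cn n) (K.g x) (K.g x))

variable [IsManifold 𝓘(ℂ, Cn n) ω X]

/-- the domain of the change of coordinates from the preferred chart at `y` to the chart `i` -/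
def Wd (y : X) (i : A.ι) : Set (Cn n) :=
  (chartAt (Cn n) y).target ∩ (chartAt (Cn n) y).symm ⁻¹' (K.g.symm ⁻¹' (A.e i).source)

theorem isOpen_Wd (y : X) (i : A.ι) : IsOpen (Wd K y i) :=
  (chartAt (Cn n) y).isOpen_inter_preimage_symm
    ((A.e i).open_source.preimage K.g.symm.continuous)

/-- the change of coordinates from the preferred chart at `y` to the chart `i` -/
def Fc (y : X) (i : A.ι) (w : Cn n) : Cn n := A.e i (K.g.symm ((chartAt (Cn n) y).symm w))

theorem Fc_mem {y : X} {i : A.ι} {w : Cn n} (hw : w ∈ Wd K y i) : Fc K y i w ∈ (A.e i).target :=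
  (A.e i).map_source hw.2

theorem Fc_symm {y : X} {i : A.ι} {w : Cn n} (hw : w ∈ Wd K y i) :
    (A.e i).symm (Fc K y i w) = K.g.symm ((chartAt (Cn n) y).symm w) := (A.e i).left_inv hw.2

theorem Fc_diff (y : X) (i : A.ι) : DifferentiableOn ℂ (Fc K y i) (Wd K y i) := by
  intro w hw
  apply DifferentiableAt.differentiableWithinAt
  have hs : (chartAt (Cn n) y).symm w ∈ (chartAt (Cn n) (K.y i)).source := by
    have := K.src i _ hw.2
    rwa [K.g.apply_symm_apply] at this
  have h1 : Fc K y i =ᶠ[𝓝 w] fun v => K.qs i ((fun v => chartAt (Cn n) (K.y i)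
      ((chartAt (Cn n) y).symm v)) v) := by
    filter_upwards [(isOpen_Wd K y i).mem_nhds hw] with v hv
    have := K.e_eq hv.2
    rw [K.g.apply_symm_apply] at this
    exact this
  refine DifferentiableAt.congr_of_eventuallyEq ?_ h1
  exact (K.differentiable_qs i).differentiableAt.comp w (diffAt_trans' hw.1 hs)

theorem tE_eq_fderiv (i : A.ι) (x : M) :
    tE K i x = fderiv ℂ (Fc K (K.g x) i) (chartAt (Cn n) (K.g x) (K.g x)) := rfl

theorem mem_Wd {i : A.ι} {x : M} (hx : x ∈ (A.e i).source) {y : X}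
    (hy : K.g x ∈ (chartAt (Cn n) y).source) : chartAt (Cn n) y (K.g x) ∈ Wd K y i := by
  refine ⟨(chartAt (Cn n) y).map_source hy, ?_⟩
  rw [mem_preimage, (chartAt (Cn n) y).left_inv hy, mem_preimage, K.g.symm_apply_apply]
  exact hx

/-- chain rule: coordinates `i` → preferred at `y` → coordinates `i` -/
theorem Fc_comp {i : A.ι} {x : M} (hx : x ∈ (A.e i).source) {y : X}
    (hy : K.g x ∈ (chartAt (Cn n) y).source) :
    (fderiv ℂ (Fc K y i) (chartAt (Cn n) y (K.g x))).comp
      (fderiv ℂ (fun z => chartAt (Cn n) y (K.g ((A.e i).symm z))) (A.e i x)) =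
      ContinuousLinearMap.id ℂ (Cn n) := by
  have h1 := (K.hasFDerivAt_chg hx hy)
  have h1' : HasFDerivAt (fun z => chartAt (Cn n) y (K.g ((A.e i).symm z)))
      (fderiv ℂ (fun z => chartAt (Cn n) y (K.g ((A.e i).symm z))) (A.e i x)) (A.e i x) := by
    rw [h1.fderiv]; exact h1
  have h2 : HasFDerivAt (Fc K y i) (fderiv ℂ (Fc K y i) (chartAt (Cn n) y (K.g x)))
      (chartAt (Cn n) y (K.g ((A.e i).symm (A.e i x)))) := by
    rw [(A.e i).left_inv hx]
    exact ((Fc_diff K y i).differentiableAt ((isOpen_Wd K y i).mem_nhds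
      (mem_Wd K hx hy))).hasFDerivAt
  have h3 := h2.comp (A.e i x) h1'
  have h4 : (Fc K y i ∘ fun z => chartAt (Cn n) y (K.g ((A.e i).symm z))) =ᶠ[𝓝 (A.e i x)] id := by
    have h5 : ∀ᶠ z in 𝓝 (A.e i x), K.g ((A.e i).symm z) ∈ (chartAt (Cn n) y).source := by
      have hc : ContinuousAt (fun z => K.g ((A.e i).symm z)) (A.e i x) :=
        K.g.continuous.continuousAt.comp ((A.e i).continuousAt_symm ((A.e i).map_source hx))
      refine hc.eventually ((chartAt (Cn n) y).open_source.mem_nhds ?_)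
      show K.g ((A.e i).symm (A.e i x)) ∈ _
      rw [(A.e i).left_inv hx]; exact hy
    filter_upwards [h5, (A.e i).open_target.mem_nhds ((A.e i).map_source hx)] with z hz hz'
    change A.e i (K.g.symm ((chartAt (Cn n) y).symm (chartAt (Cn n) y (K.g ((A.e i).symm z))))) = z
    rw [(chartAt (Cn n) y).left_inv hz, K.g.symm_apply_apply, (A.e i).right_inv hz']
  exact h3.unique ((hasFDerivAt_id _).congr_of_eventuallyEq h4)

theorem comp_Fc {i : A.ι} {x : M} (hx : x ∈ (A.e i).source) {y : X}
    (hy : K.g x ∈ (chartAt (Cn n) y).source) :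
    (fderiv ℂ (fun z => chartAt (Cn n) y (K.g ((A.e i).symm z))) (A.e i x)).comp
      (fderiv ℂ (Fc K y i) (chartAt (Cn n) y (K.g x))) =
      ContinuousLinearMap.id ℂ (Cn n) := by
  have h1 := Fc_comp K hx hy
  set S := fderiv ℂ (Fc K y i) (chartAt (Cn n) y (K.g x))
  set T := fderiv ℂ (fun z => chartAt (Cn n) y (K.g ((A.e i).symm z))) (A.e i x)
  have h2 : (S : Cn n →ₗ[ℂ] Cn n) * (T : Cn n →ₗ[ℂ] Cn n) = 1 := by
    ext v
    have := congrArg (fun L : Cn n →L[ℂ] Cn n => L v) h1
    simpa using congrArg (fun u : Cn n => u _) this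
  have h3 : (T : Cn n →ₗ[ℂ] Cn n) * (S : Cn n →ₗ[ℂ] Cn n) = 1 :=
    mul_eq_one_comm.1 h2
  ext1 v
  exact congrArg (fun L : Cn n →ₗ[ℂ] Cn n => L v) h3

theorem tE_tD {i : A.ι} {x : M} (hx : x ∈ (A.e i).source) :
    (tE K i x).comp (K.tD i x) = ContinuousLinearMap.id ℂ (Cn n) :=
  Fc_comp K hx (mem_chart_source (Cn n) (K.g x))

theorem tD_tE {i : A.ι} {x : M} (hx : x ∈ (A.e i).source) :
    (K.tD i x).comp (tE K i x) = ContinuousLinearMap.id ℂ (Cn n) :=
  comp_Fc K hx (mem_chart_source (Cn n) (K.g x))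

theorem tD_inj {i : A.ι} {x : M} (hx : x ∈ (A.e i).source) {v : Cn n} (h : K.tD i x v = 0) :
    v = 0 := by
  have := congrArg (fun L : Cn n →L[ℂ] Cn n => L v) (tE_tD K hx)
  simp only [ContinuousLinearMap.comp_apply, h, map_zero, ContinuousLinearMap.id_apply] at this
  exact this.symm

end Inv

/-! ### representatives -/

section Rep

variable (K : Lk A X)

/-- the form `α` at `g x` in the coordinates of the chart `i` -/
def rp (α : Form n X k) (i : A.ι) (x : M) : (Cn n) [⋀^Fin k]→L[ℝ] ℂ := pb (K.tD i x) (α (K.g x))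

variable [IsManifold 𝓘(ℂ, Cn n) ω X]

/-- scaling -/
abbrev rs (K : Lk A X) : Cn n →L[ℂ] Cn n := (K.ρ : ℂ) • ContinuousLinearMap.id ℂ (Cn n)

theorem rp_read' (α : Form n X k) (i : A.ι) {z : Cn n} (hz : z ∈ (A.e i).target) :
    rp K α i ((A.e i).symm z) = pb (rs K) (chartRep α (K.y i) (K.ps i z)) := by
  ext v
  have hx := (A.e i).map_target hz
  have h1 : K.c i (K.g ((A.e i).symm z)) = K.ps i z := K.c_symm hz
  have h2 : (chartAt (Cn n) (K.y i)).symm (K.ps i z) = K.g ((A.e i).symm z) := (K.g_symm hz).symm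
  rw [rp, pb_apply, pb_apply]
  unfold Crest.CxGeometry.chartRep
  rw [ContinuousAlternatingMap.compContinuousLinearMap_apply, h2]
  congr 1
  funext s
  rw [K.tD_transDeriv hx, h1]
  rfl

theorem rp_tr (α : Form n X k) {i j : A.ι} {x : M} (hx : x ∈ (A.e i).source ∩ (A.e j).source) :
    rp K α i x = pb (fderiv ℂ (fun z => A.e j ((A.e i).symm z)) (A.e i x)) (rp K α j x) := by
  unfold rp
  rw [pb_comp, ← K.tD_tr hx]

theorem mx_tr (i j : A.ι) (x : M) :
    mx (fderiv ℂ (fun z => A.e j ((A.e i).symm z)) (A.e i x)) = Jm A i j x := rfl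

/-- evaluation, complex linear in the form -/
def evC (v : Fin k → Cn n) : ((Cn n) [⋀^Fin k]→L[ℝ] ℂ) →L[ℂ] ℂ where
  toFun β := β v
  map_add' _ _ := rfl
  map_smul' _ _ := rfl
  cont := (ContinuousAlternatingMap.apply ℝ (Cn n) ℂ v).continuous

theorem evC_apply (v : Fin k → Cn n) (β : (Cn n) [⋀^Fin k]→L[ℝ] ℂ) : evC v β = β v := rfl

theorem win_mem {S : Set X} {i : A.ι} (hi : ∀ x ∈ (A.e i).source, K.g x ∈ S) {z : Cn n}
    (hz : z ∈ (A.e i).target) : K.ps i z ∈ chartWindow (K.y i) S := by
  refine ⟨K.ps_mem hz, ?_⟩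
  rw [mem_preimage]
  have h2 : (chartAt (Cn n) (K.y i)).symm (K.ps i z) = K.g ((A.e i).symm z) := (K.g_symm hz).symm
  rw [h2]
  exact hi _ ((A.e i).map_target hz)

theorem rp_smooth {α : Form n X k} {S : Set X} (hα : Crest.CxGeometry.IsSmoothOn α S) {i : A.ι}
    (hi : ∀ x ∈ (A.e i).source, K.g x ∈ S) (v : Fin k → Cn n) :
    A.SmAt i (fun x => rp K α i x v) := by
  have h1 : ContDiffOn ℝ ∞ (fun z => evC (fun s => rs K (v s)) (chartRep α (K.y i) (K.ps i z)))
      (A.e i).target :=
    (((evC (fun s => rs K (v s))).restrictScalars ℝ).contDiff).comp_contDiffOn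
      ((hα (K.y i)).comp (K.contDiff_ps i).contDiffOn fun z hz => win_mem K hi hz)
  refine ContDiffOn.congr h1 fun z hz => ?_
  show rp K α i ((A.e i).symm z) v = _
  rw [rp_read' K α i hz]
  rfl

theorem rp_hol {α : Form n X k} {S : Set X} (hα : Crest.CxGeometry.IsHolomorphicOn α S) {i : A.ι}
    (hi : ∀ x ∈ (A.e i).source, K.g x ∈ S) (v : Fin k → Cn n) :
    HolAt A i univ (fun x => rp K α i x v) := by
  have h1 : DifferentiableOn ℂ (fun z => evC (fun s => rs K (v s))
      (chartRep α (K.y i) (K.ps i z))) (A.e i).target :=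
    ((evC (fun s => rs K (v s))).differentiable).comp_differentiableOn
      ((hα.2 (K.y i)).comp (K.differentiable_ps i).differentiableOn fun z hz => win_mem K hi hz)
  refine (DifferentiableOn.congr h1 fun z hz => ?_).mono inter_subset_left
  show rp K α i ((A.e i).symm z) v = _
  rw [rp_read' K α i hz]
  rfl

/-- closed forms are closed in the charts of `A` -/
theorem rp_closed {α : Form n X k} {S : Set X} (hα : Crest.CxGeometry.IsSmoothOn α S)
    (hc : Crest.CxGeometry.IsClosedOn α S) (hS : IsOpen S) {i : A.ι}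
    (hi : ∀ x ∈ (A.e i).source, K.g x ∈ S) {z : Cn n} (hz : z ∈ (A.e i).target) :
    DifferentiableAt ℝ (fun w => rp K α i ((A.e i).symm w)) z ∧
      extDeriv (fun w => rp K α i ((A.e i).symm w)) z = 0 := by
  have h1 : (fun w => rp K α i ((A.e i).symm w)) =ᶠ[𝓝 z]
      fun w => (chartRep α (K.y i) (K.ps i w)).compContinuousLinearMap
        (fderiv ℝ (K.ps i) w) := by
    filter_upwards [(A.e i).open_target.mem_nhds hz] with w hw
    rw [rp_read' K α i hw, ((K.hasFDerivAt_ps i w).restrictScalars ℝ).fderiv]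
    rfl
  have ho : IsOpen (chartWindow (K.y i) S) :=
    (chartAt (Cn n) (K.y i)).isOpen_inter_preimage_symm hS
  have hd : DifferentiableAt ℝ (chartRep α (K.y i)) (K.ps i z) :=
    ((hα (K.y i)).contDiffAt (ho.mem_nhds (win_mem K hi hz))).differentiableAt (by simp)
  constructor
  · have h2 : DifferentiableAt ℝ (fun w => ContinuousAlternatingMap.compContinuousLinearMapCLM
        ((rs K).restrictScalars ℝ) (chartRep α (K.y i) (K.ps i w))) z :=
      (ContinuousLinearMap.differentiableAt _).comp z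
        (hd.comp z ((K.contDiff_ps i).differentiable (by simp)).differentiableAt)
    refine h2.congr_of_eventuallyEq ?_
    filter_upwards [(A.e i).open_target.mem_nhds hz] with w hw
    rw [rp_read' K α i hw]
    rfl
  · rw [h1.extDeriv_eq, extDeriv_pullback hd (r := ∞) (K.contDiff_ps i).contDiffAt
      (by rw [minSmoothness_of_isRCLikeNormedField]; exact WithTop.coe_le_coe.2 le_top),
      hc _ _ (win_mem K hi hz)]
    rfl

end Rep

end

end Crest.Agent.R281.DicC_273
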