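import Crest.Agent.R281.DicC_273

/-!
# R281 (S0424), HK-DIC part D (helper273): the Kaehler metric and the symplectic form

* `closed_wd`, `closed_wd'` : closedness of a `(1,1)`-form in Wirtinger derivatives;
* `kahOf K hα : Kah A`      : the Kaehler metric of a frozen Kaehler form, matrix `mat11 (rp K α i x)`;
* `hsympOf K hσ : HSymp A`  : matrix `mat20 (rp K σ i x)`;
* `dzz`, `T20.eq_sum`       : a `(2,0)`-form is `1/2 ∑ M_ab dz_a ∧ dz_b`;
* `backF K τ : Form n X 2`  : the frozen holomorphic 2-form of `τ : H2 A`; `uniq_of`.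
-/

set_option autoImplicit false
set_option linter.unusedSectionVars false

open Set Filter Topology Complex
open scoped ContDiff Matrix ComplexConjugate Manifold ComplexOrder

namespace Crest.Agent.R281.DicD_273

open Crest.Agent.R275.Geo Crest.Agent.R275.Core144 Crest.Agent.R275.EDR890
open Crest.Agent.R273.Defs_333 Crest.Agent.R273.Kah_333 Crest.Agent.R273.HessB_333
open Crest.Agent.R281.DicA_273 Crest.Agent.R281.Defs_273 Crest.Agent.R281.DicB_273
open Crest.Agent.R281.DicC_273
open Crest.CxGeometry (Form chartRep transDeriv chartWindow)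

noncomputable section

universe u

section Closed

variable {n : ℕ} {R : Cn n → (Cn n) [⋀^Fin 2]→L[ℝ] ℂ} {z : Cn n}

theorem three (hd : DifferentiableAt ℝ R z) (hc : extDeriv R z = 0) (p q r : Cn n) :
    fderiv ℝ (fun w => R w ![q, r]) z p - fderiv ℝ (fun w => R w ![p, r]) z q +
      fderiv ℝ (fun w => R w ![p, q]) z r = 0 := by
  have h1 : extDeriv R z ![p, q, r] = 0 := by rw [hc]; rfl
  rw [extDeriv_apply hd, Fin.sum_univ_three] at h1
  have e0 : (0 : Fin 3).removeNth (![p, q, r] : Fin 3 → Cn n) = ![q, r] := by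
    funext s; fin_cases s <;> rfl
  have e1 : (1 : Fin 3).removeNth (![p, q, r] : Fin 3 → Cn n) = ![p, r] := by
    funext s; fin_cases s <;> rfl
  have e2 : (2 : Fin 3).removeNth (![p, q, r] : Fin 3 → Cn n) = ![p, q] := by
    funext s; fin_cases s <;> rfl
  have h2 : (-1 : ℤ) ^ 0 • fderiv ℝ (fun w => R w ![q, r]) z p +
      (-1 : ℤ) ^ 1 • fderiv ℝ (fun w => R w ![p, r]) z q +
      (-1 : ℤ) ^ 2 • fderiv ℝ (fun w => R w ![p, q]) z r = 0 := by
    rw [← e0, ← e1, ← e2]
    exact h1
  simpa [sub_eq_add_neg] using h2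

theorem dev (hd : DifferentiableAt ℝ R z) (v : Fin 2 → Cn n) :
    DifferentiableAt ℝ (fun w => R w v) z :=
  ((ContinuousAlternatingMap.apply ℝ (Cn n) ℂ v).differentiableAt).comp z hd

/-- derivative of the matrix -/
theorem fderiv_mat11 (hd : DifferentiableAt ℝ R z) (a b : Fin n) (v : Cn n) :
    fderiv ℝ (fun w => mat11 (R w) a b) z v = (Real.pi : ℂ) *
      (fderiv ℝ (fun w => R w ![bs a, I • bs b]) z v - I * fderiv ℝ (fun w => R w ![bs a, bs b]) z v) := by
  have h1 := (dev hd ![bs a, I • bs b]).hasFDerivAt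
  have h2 := (dev hd ![bs a, bs b]).hasFDerivAt
  have h3 := (h1.sub (h2.const_smul I)).const_smul (Real.pi : ℂ)
  have h4 : HasFDerivAt (fun w => mat11 (R w) a b) _ z := h3
  rw [h4.fderiv]
  simp [smul_eq_mul]

theorem single_I (a : Fin n) : (EuclideanSpace.single a I : Cn n) = I • bs a := by
  ext c
  by_cases h : c = a <;> simp [h, bs]

theorem closed_wd (hd : DifferentiableAt ℝ R z) (hc : extDeriv R z = 0)
    (h11 : ∀ w, T11 (R w)) (a b c : Fin n) :
    wd (false, c) (fun w => mat11 (R w) a b) z = wd (false, a) (fun w => mat11 (R w) c b) z := by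
  unfold wd wdL
  rw [fderiv_mat11 hd, fderiv_mat11 hd, fderiv_mat11 hd, fderiv_mat11 hd]
  simp only [single_I, cI_false, smul_eq_mul]
  change (1 / 2 : ℂ) * ((Real.pi : ℂ) * (fderiv ℝ (fun w => R w ![bs a, I • bs b]) z (bs c) -
      I * fderiv ℝ (fun w => R w ![bs a, bs b]) z (bs c)) + -I * ((Real.pi : ℂ) *
      (fderiv ℝ (fun w => R w ![bs a, I • bs b]) z (I • bs c) -
      I * fderiv ℝ (fun w => R w ![bs a, bs b]) z (I • bs c)))) =
    (1 / 2 : ℂ) * ((Real.pi : ℂ) * (fderiv ℝ (fun w => R w ![bs c, I • bs b]) z (bs a) -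
      I * fderiv ℝ (fun w => R w ![bs c, bs b]) z (bs a)) + -I * ((Real.pi : ℂ) *
      (fderiv ℝ (fun w => R w ![bs c, I • bs b]) z (I • bs a) -
      I * fderiv ℝ (fun w => R w ![bs c, bs b]) z (I • bs a))))
  set A0 : Cn n := bs a
  set B0 : Cn n := bs b
  set C0 : Cn n := bs c
  -- identities between functions
  have hJ : ∀ p q r : Cn n, fderiv ℝ (fun w => R w ![I • p, I • q]) z r =
      fderiv ℝ (fun w => R w ![p, q]) z r := fun p q r => by
    have : (fun w => R w ![I • p, I • q]) = fun w => R w ![p, q] := funext fun w => h11 w p q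
    rw [this]
  have hJ1 : ∀ p q r : Cn n, fderiv ℝ (fun w => R w ![I • p, q]) z r =
      - fderiv ℝ (fun w => R w ![p, I • q]) z r := fun p q r => by
    have : (fun w => R w ![I • p, q]) = fun w => - R w ![p, I • q] :=
      funext fun w => (h11 w).J_left p q
    rw [this, fderiv_fun_neg]
    rfl
  have c1 := three hd hc C0 A0 B0
  have c2 := three hd hc C0 A0 (I • B0)
  have c7 := three hd hc (I • C0) (I • A0) B0
  have c8 := three hd hc (I • C0) (I • A0) (I • B0)
  simp only [hJ, hJ1] at c1 c2 c7 c8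
  linear_combination ((Real.pi : ℂ) / 2) * (c2 - c8 - I * (c1 - c7)) + ((Real.pi : ℂ) / 2) *
    (fderiv ℝ (fun w => R w ![A0, B0]) z (I • C0) -
      fderiv ℝ (fun w => R w ![C0, B0]) z (I • A0)) * I_sq

theorem closed_wd' (hd : DifferentiableAt ℝ R z) (hc : extDeriv R z = 0)
    (h11 : ∀ w, T11 (R w)) (a b c : Fin n) :
    wd (true, c) (fun w => mat11 (R w) a b) z = wd (true, b) (fun w => mat11 (R w) a c) z := by
  unfold wd wdL
  rw [fderiv_mat11 hd, fderiv_mat11 hd, fderiv_mat11 hd, fderiv_mat11 hd]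
  simp only [single_I, cI_true, smul_eq_mul]
  change (1 / 2 : ℂ) * ((Real.pi : ℂ) * (fderiv ℝ (fun w => R w ![bs a, I • bs b]) z (bs c) -
      I * fderiv ℝ (fun w => R w ![bs a, bs b]) z (bs c)) + I * ((Real.pi : ℂ) *
      (fderiv ℝ (fun w => R w ![bs a, I • bs b]) z (I • bs c) -
      I * fderiv ℝ (fun w => R w ![bs a, bs b]) z (I • bs c)))) =
    (1 / 2 : ℂ) * ((Real.pi : ℂ) * (fderiv ℝ (fun w => R w ![bs a, I • bs c]) z (bs b) -
      I * fderiv ℝ (fun w => R w ![bs a, bs c]) z (bs b)) + I * ((Real.pi : ℂ) *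
      (fderiv ℝ (fun w => R w ![bs a, I • bs c]) z (I • bs b) -
      I * fderiv ℝ (fun w => R w ![bs a, bs c]) z (I • bs b))))
  set A0 : Cn n := bs a
  set B0 : Cn n := bs b
  set C0 : Cn n := bs c
  have hJ : ∀ p q r : Cn n, fderiv ℝ (fun w => R w ![I • p, I • q]) z r =
      fderiv ℝ (fun w => R w ![p, q]) z r := fun p q r => by
    have : (fun w => R w ![I • p, I • q]) = fun w => R w ![p, q] := funext fun w => h11 w p q
    rw [this]
  have hJ1 : ∀ p q r : Cn n, fderiv ℝ (fun w => R w ![I • p, q]) z r =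
      - fderiv ℝ (fun w => R w ![p, I • q]) z r := fun p q r => by
    have : (fun w => R w ![I • p, q]) = fun w => - R w ![p, I • q] :=
      funext fun w => (h11 w).J_left p q
    rw [this, fderiv_fun_neg]
    rfl
  have hS : ∀ p q r : Cn n, fderiv ℝ (fun w => R w ![q, p]) z r =
      - fderiv ℝ (fun w => R w ![p, q]) z r := fun p q r => by
    have : (fun w => R w ![q, p]) = fun w => - R w ![p, q] := funext fun w => f2_swap _ p q
    rw [this, fderiv_fun_neg]
    rfl
  have c1 := three hd hc C0 A0 B0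
  have c2 := three hd hc C0 A0 (I • B0)
  have c5 := three hd hc (I • C0) A0 B0
  have c6 := three hd hc (I • C0) A0 (I • B0)
  have s1 : fderiv ℝ (fun w => R w ![A0, I • C0]) z B0 =
      fderiv ℝ (fun w => R w ![C0, I • A0]) z B0 := by
    rw [hS (I • C0) A0, hJ1, neg_neg]
  have s2 := hS C0 A0 B0
  have s3 : fderiv ℝ (fun w => R w ![A0, I • C0]) z (I • B0) =
      fderiv ℝ (fun w => R w ![C0, I • A0]) z (I • B0) := by
    rw [hS (I • C0) A0, hJ1, neg_neg]
  have s4 := hS C0 A0 (I • B0)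
  rw [s1, s2, s3, s4]
  simp only [hJ, hJ1] at c1 c2 c5 c6
  linear_combination ((Real.pi : ℂ) / 2) * (c2 + c5 - I * c1 + I * c6) - ((Real.pi : ℂ) / 2) *
    (fderiv ℝ (fun w => R w ![A0, B0]) z (I • C0) +
      fderiv ℝ (fun w => R w ![C0, A0]) z (I • B0)) * I_sq

end Closed

variable {n k : ℕ} {X : Type u} [TopologicalSpace X] [ChartedSpace (Cn n) X]
  [IsManifold 𝓘(ℂ, Cn n) ω X] {M : Type} [TopologicalSpace M] {A : Atl n M} (K : Lk A X)

/-! ### the Kaehler metric -/

theorem t11_rp {α : Form n X 2} (h : Crest.CxGeometry.IsType11 α) (i : A.ι) (x : M) :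
    T11 (rp K α i x) := T11.pb (fun v w => h (K.g x) v w) _

theorem real_rp {α : Form n X k} (h : Crest.CxGeometry.IsReal α) (i : A.ι) (x : M) :
    RealF (rp K α i x) := fun _ => h (K.g x) _

theorem mat11_rp_tr {α : Form n X 2} (h : Crest.CxGeometry.IsType11 α) {i j : A.ι} {x : M}
    (hx : x ∈ (A.e i).source ∩ (A.e j).source) : mat11 (rp K α i x) =
      (Jm A i j x)ᵀ * mat11 (rp K α j x) * (Jm A i j x).map conj := by
  rw [rp_tr K α hx, (t11_rp K h j x).mat11_pb, mx_tr]

theorem mat11_rp_smooth {α : Form n X 2} {S : Set X} (hα : Crest.CxGeometry.IsSmoothOn α S)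
    {i : A.ι} (hi : ∀ x ∈ (A.e i).source, K.g x ∈ S) (a b : Fin n) :
    A.SmAt i (fun x => mat11 (rp K α i x) a b) := by
  have h1 : ContDiffOn ℝ ∞ (fun z => (rp K α i ((A.e i).symm z)) ![bs a, I • bs b])
    (A.e i).target := rp_smooth K hα hi _
  have h2 : ContDiffOn ℝ ∞ (fun z => (rp K α i ((A.e i).symm z)) ![bs a, bs b])
    (A.e i).target := rp_smooth K hα hi _
  have h3 : ContDiffOn ℝ ∞ (fun z => (Real.pi : ℂ) * ((rp K α i ((A.e i).symm z))
      ![bs a, I • bs b] - I * (rp K α i ((A.e i).symm z)) ![bs a, bs b])) (A.e i).target :=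
    contDiffOn_const.mul (h1.sub (contDiffOn_const.mul h2))
  exact h3

theorem mat11_rp_pos {α : Form n X 2} (h : Crest.CxGeometry.IsType11 α)
    (hr : Crest.CxGeometry.IsReal α) (hp : Crest.CxGeometry.IsPositive α) {i : A.ι} {x : M}
    (hx : x ∈ (A.e i).source) : (mat11 (rp K α i x)).PosDef := by
  refine mat11_posDef (t11_rp K h i x) (real_rp K hr i x) fun v hv => ?_
  have h1 : rp K α i x ![v, I • v] = α (K.g x) ![K.tD i x v, I • K.tD i x v] := by
    rw [rp, pb_apply2, map_smul]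
  rw [h1]
  exact hp (K.g x) _ fun h0 => hv (tD_inj K hx h0)

/-- **the Kaehler metric of a frozen Kaehler form** -/
def kahOf {α : Form n X 2} (hα : Crest.CxGeometry.IsKaehlerForm α) : Kah A where
  g i x := mat11 (rp K α i x)
  sm i a b := mat11_rp_smooth K hα.1.1 (fun _ _ => mem_univ _) a b
  pos i x hx := mat11_rp_pos K hα.1.2.2.1 hα.1.2.1 hα.1.2.2.2 hx
  tr i j x hx := mat11_rp_tr K hα.1.2.2.1 hx
  closed i z hz a b c := by
    obtain ⟨hd, hc⟩ := rp_closed K hα.1.1 hα.2 isOpen_univ (i := i) (fun _ _ => mem_univ _) hz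
    exact closed_wd hd hc (fun w => t11_rp K hα.1.2.2.1 i _) a b c
  closed' i z hz a b c := by
    obtain ⟨hd, hc⟩ := rp_closed K hα.1.1 hα.2 isOpen_univ (i := i) (fun _ _ => mem_univ _) hz
    exact closed_wd' hd hc (fun w => t11_rp K hα.1.2.2.1 i _) a b c

/-! ### holomorphic 2-forms -/

theorem t20_of {α : Form n X 2} {S : Set X} (h : Crest.CxGeometry.IsTypeK0On α S) {y : X}
    (hy : y ∈ S) : T20 (α y) := by
  intro c v w
  have := h y hy ![v, w] 0 c
  rw [upd0] at this
  exact this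

theorem t20_rp {α : Form n X 2} (h : Crest.CxGeometry.IsTypeK0On α univ) (i : A.ι) (x : M) :
    T20 (rp K α i x) := T20.pb (t20_of h (mem_univ _)) _

/-- the holomorphic 2-form of a frozen one -/
def h2Of {α : Form n X 2} (hα : Crest.CxGeometry.IsHolomorphicOn α univ) : H2 A where
  s i x := mat20 (rp K α i x)
  hol i a b := rp_hol K hα (fun _ _ => mem_univ _) _
  alt i x _ := mat20_alt _
  tr i j x hx := by rw [rp_tr K α hx, (t20_rp K hα.1 j x).mat20_pb, mx_tr]

/-- **the holomorphic symplectic form** -/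
def hsympOf {α : Form n X 2} (hα : Crest.CxGeometry.IsHolSymplectic α) : HSymp A where
  toH2 := h2Of K hα.1
  nd i x hx := by
    intro h0
    obtain ⟨v, hv, hv0⟩ := Matrix.exists_mulVec_eq_zero_iff.2 h0
    set u : Cn n := WithLp.toLp 2 v with hu
    have hu0 : u ≠ 0 := by
      intro h1
      apply hv
      funext a
      exact congrArg (fun w : Cn n => w a) h1
    have h20 := t20_rp K hα.1.1 i x
    have h2 : ∀ w : Cn n, rp K α i x ![w, u] = 0 := by
      intro w
      rw [h20.eq]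
      refine Finset.sum_eq_zero fun a _ => ?_
      have h3 : ∑ b, mat20 (rp K α i x) a b * v b = 0 := congrFun hv0 a
      calc ∑ b, mat20 (rp K α i x) a b * w a * u b
          = w a * ∑ b, mat20 (rp K α i x) a b * v b := by
            rw [Finset.mul_sum]
            refine Finset.sum_congr rfl fun b _ => ?_
            change mat20 (rp K α i x) a b * w a * v b = _
            ring
        _ = 0 := by rw [h3, mul_zero]
    obtain ⟨w, hw⟩ := hα.2 (K.g x) (K.tD i x u) fun h1 => hu0 (tD_inj K hx h1)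
    apply hw
    have h4 := h2 (tE K i x w)
    have h5 : K.tD i x (tE K i x w) = w :=
      congrArg (fun L : Cn n →L[ℂ] Cn n => L w) (tD_tE K hx)
    rw [rp, pb_apply2, h5] at h4
    rw [f2_swap, h4, neg_zero]

end

end Crest.Agent.R281.DicD_273
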