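import Crest.Agent.R281.DicD_273

/-!
# R281 (S0424), HK-DIC part E (helper273): holomorphic 2-forms back to `X`

* `alt2`           : alternatization in degree 2
* `dzz a b`        : `dz_a ∧ dz_b`; `T20.eq_sum`
* `backF K τ`      : the frozen holomorphic 2-form of `τ : H2 A`
* `uniq_of`        : uniqueness of the symplectic form
-/

set_option autoImplicit false
set_option linter.unusedSectionVars false

open Set Filter Topology Complex
open scoped ContDiff Matrix ComplexConjugate Manifold ComplexOrder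

namespace Crest.Agent.R281.DicE_273

open Crest.Agent.R275.Geo Crest.Agent.R275.Core144 Crest.Agent.R275.EDR890
open Crest.Agent.R273.Defs_333 Crest.Agent.R273.Kah_333 Crest.Agent.R273.HessB_333
open Crest.Agent.R281.DicA_273 Crest.Agent.R281.Defs_273 Crest.Agent.R281.DicB_273
open Crest.Agent.R281.DicC_273 Crest.Agent.R281.DicD_273
open Crest.CxGeometry (Form chartRep transDeriv chartWindow)

noncomputable section

universe u

section Algebra

variable {n : ℕ}

theorem univ_perm2 : (Finset.univ : Finset (Equiv.Perm (Fin 2))) = {1, Equiv.swap 0 1} := by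
  decide

theorem alt2 (f : ContinuousMultilinearMap ℝ (fun _ : Fin 2 => Cn n) ℂ) (v w : Cn n) :
    (ContinuousMultilinearMap.alternatization f) ![v, w] = f ![v, w] - f ![w, v] := by
  rw [ContinuousMultilinearMap.alternatization_apply_apply, univ_perm2, Finset.sum_pair (by decide)]
  have h2 : (![v, w] : Fin 2 → Cn n) ∘ Equiv.swap 0 1 = ![w, v] := by
    funext i
    fin_cases i <;> simp
  rw [h2]
  simp [sub_eq_add_neg]

/-- `dz_a ∧ dz_b` -/
def dzz (a b : Fin n) : (Cn n) [⋀^Fin 2]→L[ℝ] ℂ :=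
  Crest.CxGeometry.ofBilin
    (((EuclideanSpace.proj a : Cn n →L[ℂ] ℂ).restrictScalars ℝ).smulRight
      ((EuclideanSpace.proj b : Cn n →L[ℂ] ℂ).restrictScalars ℝ : Cn n →L[ℝ] ℂ))

theorem dzz_apply (a b : Fin n) (v w : Cn n) : dzz a b ![v, w] = v a * w b - w a * v b := by
  unfold dzz Crest.CxGeometry.ofBilin
  rw [alt2]
  simp

theorem f2_ext {β β' : (Cn n) [⋀^Fin 2]→L[ℝ] ℂ} (h : ∀ v w : Cn n, β ![v, w] = β' ![v, w]) :
    β = β' := by
  ext v
  have : v = ![v 0, v 1] := by
    funext i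
    fin_cases i <;> rfl
  rw [this]
  exact h _ _

/-- the `(2,0)`-form of a matrix -/
def frm (S : Matrix (Fin n) (Fin n) ℂ) : (Cn n) [⋀^Fin 2]→L[ℝ] ℂ :=
  ∑ a, ∑ b, ((1 / 2 : ℂ) * S a b) • dzz a b

theorem frm_apply (S : Matrix (Fin n) (Fin n) ℂ) (v w : Cn n) :
    frm S ![v, w] = ∑ a, ∑ b, (1 / 2 : ℂ) * S a b * (v a * w b - w a * v b) := by
  unfold frm
  simp only [ContinuousAlternatingMap.sum_apply, ContinuousAlternatingMap.smul_apply, dzz_apply,
    smul_eq_mul]

theorem frm_apply' {S : Matrix (Fin n) (Fin n) ℂ} (hS : Sᵀ = -S) (v w : Cn n) :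
    frm S ![v, w] = ∑ a, ∑ b, S a b * v a * w b := by
  rw [frm_apply]
  have h1 : ∑ a, ∑ b, (1 / 2 : ℂ) * S a b * (w a * v b) =
      - ∑ a, ∑ b, (1 / 2 : ℂ) * S a b * (v a * w b) := by
    rw [Finset.sum_comm, ← Finset.sum_neg_distrib]
    refine Finset.sum_congr rfl fun b _ => ?_
    rw [← Finset.sum_neg_distrib]
    refine Finset.sum_congr rfl fun a _ => ?_
    have : S a b = - S b a := by
      have := congrFun (congrFun hS b) a
      simpa using this
    rw [this]
    ring
  calc ∑ a, ∑ b, (1 / 2 : ℂ) * S a b * (v a * w b - w a * v b)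
      = ∑ a, ∑ b, (1 / 2 : ℂ) * S a b * (v a * w b) -
          ∑ a, ∑ b, (1 / 2 : ℂ) * S a b * (w a * v b) := by
        simp only [mul_sub, Finset.sum_sub_distrib]
    _ = ∑ a, ∑ b, S a b * v a * w b := by
        rw [h1, sub_neg_eq_add, ← Finset.sum_add_distrib]
        refine Finset.sum_congr rfl fun a _ => ?_
        rw [← Finset.sum_add_distrib]
        refine Finset.sum_congr rfl fun b _ => ?_
        ring

theorem frm_t20 (S : Matrix (Fin n) (Fin n) ℂ) : T20 (frm S) := by
  intro c v w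
  rw [frm_apply, frm_apply, Finset.mul_sum]
  refine Finset.sum_congr rfl fun a _ => ?_
  rw [Finset.mul_sum]
  refine Finset.sum_congr rfl fun b _ => ?_
  simp only [PiLp.smul_apply, smul_eq_mul]
  ring

theorem eq_frm {β : (Cn n) [⋀^Fin 2]→L[ℝ] ℂ} (h : T20 β) : β = frm (mat20 β) :=
  f2_ext fun v w => by rw [frm_apply' (mat20_alt β), h.eq]

theorem mat20_frm {S : Matrix (Fin n) (Fin n) ℂ} (hS : Sᵀ = -S) : mat20 (frm S) = S := by
  ext a b
  change frm S ![bs a, bs b] = _
  rw [frm_apply' hS]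
  simp [bs]

theorem mx_comp (S T : Cn n →L[ℂ] Cn n) : mx (S.comp T) = mx S * mx T := by
  ext b a
  change (S (T (bs a))) b = _
  rw [apply_bs T a, map_sum]
  simp only [map_smul, Matrix.mul_apply]
  have h1 : (∑ c, mx T c a • S (bs c) : Cn n) b = ∑ c, mx T c a * (S (bs c)) b := by
    have := map_sum (EuclideanSpace.proj b : Cn n →L[ℂ] ℂ) (fun c => mx T c a • S (bs c))
      Finset.univ
    exact this
  rw [h1]
  refine Finset.sum_congr rfl fun c _ => ?_
  rw [mul_comm]
  rfl

theorem mx_id : mx (ContinuousLinearMap.id ℂ (Cn n)) = 1 := by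
  ext b a
  change (bs a : Cn n) b = _
  rw [Matrix.one_apply]
  by_cases h : b = a
  · simp [h, bs]
  · simp [h, bs]

theorem alt_cong {S G : Matrix (Fin n) (Fin n) ℂ} (hS : Sᵀ = -S) : (Gᵀ * S * G)ᵀ = -(Gᵀ * S * G) := by
  rw [Matrix.transpose_mul, Matrix.transpose_mul, Matrix.transpose_transpose, hS]
  simp [Matrix.mul_assoc]

end Algebra

variable {n k : ℕ} {X : Type u} [TopologicalSpace X] [ChartedSpace (Cn n) X]
  [IsManifold 𝓘(ℂ, Cn n) ω X] {M : Type} [TopologicalSpace M] {A : Atl n M} (K : Lk A X)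

/-- a chart of `A` around a point of `X` -/
def ki (y : X) : A.ι := (A.cover (K.g.symm y)).choose

theorem ki_mem (y : X) : K.g.symm y ∈ (A.e (ki K y)).source :=
  (A.cover (K.g.symm y)).choose_spec

theorem tE_tr {i j : A.ι} {x : M} (hx : x ∈ (A.e i).source ∩ (A.e j).source) :
    (fderiv ℂ (fun z => A.e j ((A.e i).symm z)) (A.e i x)).comp (tE K i x) = tE K j x := by
  have h1 := K.tD_tr hx
  have h2 : (tE K j x).comp ((K.tD i x).comp (tE K i x)) = tE K j x := by
    rw [tD_tE K hx.1, ContinuousLinearMap.comp_id]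
  rw [h1, ContinuousLinearMap.comp_assoc, ← ContinuousLinearMap.comp_assoc (tE K j x),
    tE_tD K hx.2, ContinuousLinearMap.id_comp] at h2
  exact h2

/-- the matrix at `y` in the preferred coordinates, computed with the chart `i` -/
def Sb (τ : H2 A) (i : A.ι) (x : M) : Matrix (Fin n) (Fin n) ℂ :=
  (mx (tE K i x))ᵀ * τ.s i x * mx (tE K i x)

theorem Sb_indep (τ : H2 A) {i j : A.ι} {x : M} (hx : x ∈ (A.e i).source ∩ (A.e j).source) :
    Sb K τ i x = Sb K τ j x := by
  unfold Sb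
  rw [τ.tr i j x hx, ← tE_tr K hx, mx_comp, mx_tr, Matrix.transpose_mul]
  simp only [Matrix.mul_assoc]

/-- the frozen form -/
def backF (τ : H2 A) : Form n X 2 := fun y => frm (Sb K τ (ki K y) (K.g.symm y))

theorem backF_eq (τ : H2 A) {i : A.ι} {y : X} (hy : K.g.symm y ∈ (A.e i).source) :
    backF K τ y = frm (Sb K τ i (K.g.symm y)) := by
  unfold backF
  rw [Sb_indep K τ ⟨ki_mem K y, hy⟩]

theorem mat20_rp_back (τ : H2 A) {i : A.ι} {x : M} (hx : x ∈ (A.e i).source) :
    mat20 (rp K (backF K τ) i x) = τ.s i x := by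
  have hx' : K.g.symm (K.g x) ∈ (A.e i).source := by rwa [K.g.symm_apply_apply]
  unfold rp
  rw [backF_eq K τ hx', K.g.symm_apply_apply, (frm_t20 _).mat20_pb]
  unfold Sb
  rw [mat20_frm (alt_cong (τ.alt i x hx))]
  have h1 : mx (tE K i x) * mx (K.tD i x) = 1 := by rw [← mx_comp, tE_tD K hx, mx_id]
  have h2 : (mx (K.tD i x))ᵀ * (mx (tE K i x))ᵀ = 1 := by
    rw [← Matrix.transpose_mul, h1, Matrix.transpose_one]
  calc (mx (K.tD i x))ᵀ * ((mx (tE K i x))ᵀ * τ.s i x * mx (tE K i x)) * mx (K.tD i x)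
      = ((mx (K.tD i x))ᵀ * (mx (tE K i x))ᵀ) * τ.s i x * (mx (tE K i x) * mx (K.tD i x)) := by
        simp only [Matrix.mul_assoc]
    _ = τ.s i x := by rw [h1, h2, Matrix.one_mul, Matrix.mul_one]

/-- chain rule for the change of coordinates from a preferred chart -/
theorem Fc_chain (i : A.ι) (x₀ : X) {w : Cn n} (hw : w ∈ Wd K x₀ i) :
    (tE K i (K.g.symm ((chartAt (Cn n) x₀).symm w))).comp
      (fderiv ℂ (fun v => chartAt (Cn n) ((chartAt (Cn n) x₀).symm w)
        ((chartAt (Cn n) x₀).symm v)) w) = fderiv ℂ (Fc K x₀ i) w := by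
  set y := (chartAt (Cn n) x₀).symm w with hy
  set x := K.g.symm y with hx
  have hgx : K.g x = y := K.g.apply_symm_apply y
  have hxi : x ∈ (A.e i).source := hw.2
  have h1 : HasFDerivAt (fun v => chartAt (Cn n) y ((chartAt (Cn n) x₀).symm v))
      (fderiv ℂ (fun v => chartAt (Cn n) y ((chartAt (Cn n) x₀).symm v)) w) w :=
    (diffAt_trans' hw.1 (mem_chart_source (Cn n) y)).hasFDerivAt
  have hm : chartAt (Cn n) (K.g x) (K.g x) ∈ Wd K (K.g x) i :=
    mem_Wd K hxi (mem_chart_source (Cn n) (K.g x))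
  have h2 : HasFDerivAt (Fc K (K.g x) i) (tE K i x) (chartAt (Cn n) (K.g x) (K.g x)) := by
    rw [tE_eq_fderiv]
    exact ((Fc_diff K (K.g x) i).differentiableAt ((isOpen_Wd K (K.g x) i).mem_nhds hm)).hasFDerivAt
  rw [hgx] at h2
  have h3 := HasFDerivAt.comp w (f := fun v => chartAt (Cn n) y ((chartAt (Cn n) x₀).symm v)) h2 h1
  have h4 : Fc K x₀ i =ᶠ[𝓝 w]
      (Fc K y i ∘ fun v => chartAt (Cn n) y ((chartAt (Cn n) x₀).symm v)) := by
    have hc : ContinuousAt (chartAt (Cn n) x₀).symm w := (chartAt (Cn n) x₀).continuousAt_symm hw.1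
    filter_upwards [hc.eventually ((chartAt (Cn n) y).open_source.mem_nhds
      (mem_chart_source (Cn n) y))] with v hv
    unfold Fc
    rw [Function.comp_apply, (chartAt (Cn n) y).left_inv hv]
  exact ((h3.congr_of_eventuallyEq h4).fderiv).symm

/-- the representative of the frozen form -/
theorem chartRep_back (τ : H2 A) (i : A.ι) (x₀ : X) {w : Cn n} (hw : w ∈ Wd K x₀ i) :
    chartRep (backF K τ) x₀ w = frm ((mx (fderiv ℂ (Fc K x₀ i) w))ᵀ *
      τ.s i ((A.e i).symm (Fc K x₀ i w)) * mx (fderiv ℂ (Fc K x₀ i) w)) := by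
  have h1 : chartRep (backF K τ) x₀ w = pb (fderiv ℂ (fun v => chartAt (Cn n)
      ((chartAt (Cn n) x₀).symm w) ((chartAt (Cn n) x₀).symm v)) w)
        (backF K τ ((chartAt (Cn n) x₀).symm w)) := by
    unfold Crest.CxGeometry.chartRep
    rw [transDeriv_eq x₀ hw.1]
    rfl
  rw [h1, backF_eq K τ hw.2, eq_frm ((frm_t20 _).pb _), (frm_t20 _).mat20_pb]
  unfold Sb
  rw [mat20_frm (alt_cong (τ.alt i _ hw.2)), ← Fc_chain K i x₀ hw, mx_comp, Fc_symm K hw,
    Matrix.transpose_mul]
  simp only [Matrix.mul_assoc]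

theorem diff_frm {S : Cn n → Matrix (Fin n) (Fin n) ℂ} {w : Cn n}
    (h : ∀ a b, DifferentiableAt ℂ (fun v => S v a b) w) : DifferentiableAt ℂ (fun v => frm (S v)) w := by
  unfold frm
  refine DifferentiableAt.fun_sum fun a _ => DifferentiableAt.fun_sum fun b _ => ?_
  exact ((h a b).const_mul _).smul_const _

theorem Fc_mx_diff (i : A.ι) (x₀ : X) {w : Cn n} (hw : w ∈ Wd K x₀ i) (a b : Fin n) :
    DifferentiableAt ℂ (fun v => mx (fderiv ℂ (Fc K x₀ i) v) a b) w := by
  have h1 : AnalyticOnNhd ℂ (fderiv ℂ (Fc K x₀ i)) (Wd K x₀ i) :=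
    (Crest.Agent.R266.SCV.analyticOnNhd_of_differentiableOn (isOpen_Wd K x₀ i)
      (Fc_diff K x₀ i)).fderiv
  have h2 : DifferentiableAt ℂ (fderiv ℂ (Fc K x₀ i)) w := (h1 w hw).differentiableAt
  have h3 : DifferentiableAt ℂ (fun v => fderiv ℂ (Fc K x₀ i) v (bs b)) w :=
    h2.clm_apply (differentiableAt_const _)
  exact ((EuclideanSpace.proj a : Cn n →L[ℂ] ℂ).differentiableAt).comp w h3

theorem diff_mul {m : ℕ} {P Q : Cn n → Matrix (Fin m) (Fin m) ℂ} {w : Cn n}
    (hP : ∀ a b, DifferentiableAt ℂ (fun v => P v a b) w)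
    (hQ : ∀ a b, DifferentiableAt ℂ (fun v => Q v a b) w) (a b : Fin m) :
    DifferentiableAt ℂ (fun v => (P v * Q v) a b) w := by
  simp only [Matrix.mul_apply]
  exact DifferentiableAt.fun_sum fun c _ => (hP a c).fun_mul (hQ c b)

theorem backF_hol (τ : H2 A) : Crest.CxGeometry.IsHolomorphicOn (backF K τ) univ := by
  constructor
  · intro y _ v i c
    have h20 : T20 (backF K τ y) := frm_t20 _
    have hv : v = ![v 0, v 1] := by
      funext i
      fin_cases i <;> rfl
    have h0 : Function.update v 0 (c • v 0) = ![c • v 0, v 1] := by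
      funext i
      fin_cases i <;> simp
    have h1 : Function.update v 1 (c • v 1) = ![v 0, c • v 1] := by
      funext i
      fin_cases i <;> simp
    fin_cases i
    · change backF K τ y (Function.update v 0 (c • v 0)) = _
      rw [h0, h20]
      conv_rhs => rw [hv]
      rfl
    · change backF K τ y (Function.update v 1 (c • v 1)) = _
      rw [h1, h20.right]
      conv_rhs => rw [hv]
      rfl
  · intro x₀ w hw
    apply DifferentiableAt.differentiableWithinAt
    set y := (chartAt (Cn n) x₀).symm w with hy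
    set i := ki K y with hi
    have hwi : w ∈ Wd K x₀ i := ⟨hw.1, ki_mem K y⟩
    have h1 : chartRep (backF K τ) x₀ =ᶠ[𝓝 w] fun w => frm ((mx (fderiv ℂ (Fc K x₀ i) w))ᵀ *
      τ.s i ((A.e i).symm (Fc K x₀ i w)) * mx (fderiv ℂ (Fc K x₀ i) w)) := by
      filter_upwards [(isOpen_Wd K x₀ i).mem_nhds hwi] with v hv
      exact chartRep_back K τ i x₀ hv
    refine DifferentiableAt.congr_of_eventuallyEq ?_ h1
    refine diff_frm fun a b => ?_
    refine diff_mul (fun a b => diff_mul (fun a b => ?_) (fun a b => ?_) a b)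
      (fun a b => Fc_mx_diff K i x₀ hwi a b) a b
    · exact Fc_mx_diff K i x₀ hwi b a
    · have h2 : DifferentiableOn ℂ (fun z => τ.s i ((A.e i).symm z) a b) (A.e i).target := by
        have := τ.hol i a b
        unfold HolAt at this
        simpa using this
      have h3 : DifferentiableAt ℂ (fun z => τ.s i ((A.e i).symm z) a b) (Fc K x₀ i w) :=
        h2.differentiableAt ((A.e i).open_target.mem_nhds (Fc_mem K hwi))
      exact DifferentiableAt.comp w h3 ((Fc_diff K x₀ i).differentiableAt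
        ((isOpen_Wd K x₀ i).mem_nhds hwi))

/-- **uniqueness of the symplectic form** -/
theorem uniq_of {σ : Form n X 2} (hσ : Crest.CxGeometry.IsHolSymplectic σ)
    (hu : ∀ τ : Form n X 2, Crest.CxGeometry.IsHolomorphicOn τ univ → ∃ c : ℂ, τ = c • σ) :
    (hsympOf K hσ).Uniq := by
  intro τ
  obtain ⟨c, hc⟩ := hu (backF K τ) (backF_hol K τ)
  refine ⟨c, fun i x hx => ?_⟩
  rw [← mat20_rp_back K τ hx, hc]
  ext a b
  rfl

end

end Crest.Agent.R281.DicE_273
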