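import Crest.Agent.R281.DicE_273
import Crest.Prelude.Def_CXLineBundle

/-!
# R281 (S0424), HK-DIC part F (helper273): line bundles and Hermitian metrics

* `Idx K L`        : for each chart of `A` a piece of the cover of `L` containing it
* `lbOf I : LB A`  : the cocycle in the charts of `A`
* `toHM I h`       : frozen metric → `HM (lbOf I)`
* `backHM I h`     : `HM (lbOf I)` → frozen metric; `toHM_back`
-/

set_option autoImplicit false
set_option linter.unusedSectionVars false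

open Set Filter Topology Complex
open scoped ContDiff Matrix ComplexConjugate Manifold ComplexOrder

namespace Crest.Agent.R281.DicF_273

open Crest.Agent.R275.Geo Crest.Agent.R275.Core144 Crest.Agent.R275.EDR890
open Crest.Agent.R273.Defs_333 Crest.Agent.R273.Kah_333 Crest.Agent.R273.HessB_333
open Crest.Agent.R281.DicA_273 Crest.Agent.R281.Defs_273 Crest.Agent.R281.DicB_273
open Crest.Agent.R281.DicC_273 Crest.Agent.R281.DicD_273 Crest.Agent.R281.DicE_273
open Crest.CxGeometry (Form chartRep transDeriv chartWindow HolLineBundle)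

noncomputable section

universe u

variable {n k : ℕ} {X : Type u} [TopologicalSpace X] [ChartedSpace (Cn n) X]
  [IsManifold 𝓘(ℂ, Cn n) ω X] {M : Type} [TopologicalSpace M] {A : Atl n M} (K : Lk A X)

/-! ### functions -/

theorem holAt_of {f : X → ℂ} {S : Set X} (hf : Crest.CxGeometry.IsHolFunOn (n := n) f S) (i : A.ι)
    {U : Set M} (hU : ∀ x ∈ (A.e i).source, x ∈ U → K.g x ∈ S) :
    HolAt A i U (fun x => f (K.g x)) := by
  have h1 : DifferentiableOn ℂ (fun z => (f ∘ (chartAt (Cn n) (K.y i)).symm) (K.ps i z))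
      ((A.e i).target ∩ (A.e i).symm ⁻¹' U) := by
    refine (hf (K.y i)).comp (K.differentiable_ps i).differentiableOn fun z hz => ?_
    refine ⟨K.ps_mem hz.1, ?_⟩
    have h2 : (chartAt (Cn n) (K.y i)).symm (K.ps i z) = K.g ((A.e i).symm z) :=
      (K.g_symm hz.1).symm
    rw [mem_preimage, h2]
    exact hU _ ((A.e i).map_target hz.1) hz.2
  refine DifferentiableOn.congr h1 fun z hz => ?_
  show f (K.g ((A.e i).symm z)) = _
  rw [K.g_symm hz.1]
  rfl

theorem smAt_of {u : X → ℝ} {S : Set X} (hu : Crest.CxGeometry.IsSmoothFunOn (n := n) u S)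
    {i : A.ι} (hi : ∀ x ∈ (A.e i).source, K.g x ∈ S) : A.SmAt i (fun x => u (K.g x)) := by
  have h1 : ContDiffOn ℝ ∞ (fun z => (u ∘ (chartAt (Cn n) (K.y i)).symm) (K.ps i z))
      (A.e i).target :=
    (hu (K.y i)).comp (K.contDiff_ps i).contDiffOn fun z hz => win_mem K hi hz
  refine ContDiffOn.congr h1 fun z hz => ?_
  show u (K.g ((A.e i).symm z)) = _
  rw [K.g_symm hz]
  rfl

/-- local criterion for holomorphy on `X` -/
theorem isHolFunOn_of {f : X → ℂ} {S : Set X} (h : ∀ y ∈ S, ∃ i, K.g.symm y ∈ (A.e i).source ∧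
    DifferentiableAt ℂ (fun z => f (K.g ((A.e i).symm z))) (A.e i (K.g.symm y))) :
    Crest.CxGeometry.IsHolFunOn (n := n) f S := by
  intro x₀ w hw
  apply DifferentiableAt.differentiableWithinAt
  obtain ⟨i, hi, hd⟩ := h _ hw.2
  have hwi : w ∈ Wd K x₀ i := ⟨hw.1, hi⟩
  have h1 : f ∘ (chartAt (Cn n) x₀).symm =ᶠ[𝓝 w]
      fun v => (fun z => f (K.g ((A.e i).symm z))) (Fc K x₀ i v) := by
    filter_upwards [(isOpen_Wd K x₀ i).mem_nhds hwi] with v hv
    show _ = f (K.g ((A.e i).symm (Fc K x₀ i v)))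
    rw [Fc_symm K hv, K.g.apply_symm_apply]
    rfl
  refine DifferentiableAt.congr_of_eventuallyEq ?_ h1
  exact DifferentiableAt.comp (g := fun z => f (K.g ((A.e i).symm z))) w hd
    ((Fc_diff K x₀ i).differentiableAt ((isOpen_Wd K x₀ i).mem_nhds hwi))

theorem Fc_contDiffAt (i : A.ι) (x₀ : X) {w : Cn n} (hw : w ∈ Wd K x₀ i) :
    ContDiffAt ℝ ∞ (Fc K x₀ i) w :=
  (((Crest.Agent.R266.SCV.contDiffOn_omega_of_differentiableOn (isOpen_Wd K x₀ i)
    (Fc_diff K x₀ i)).restrict_scalars ℝ).of_le le_top).contDiffAt ((isOpen_Wd K x₀ i).mem_nhds hw)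

/-- local criterion for smoothness on `X` -/
theorem isSmoothFunOn_of {f : X → ℝ} {S : Set X} (h : ∀ y ∈ S, ∃ i, K.g.symm y ∈ (A.e i).source ∧
    ContDiffAt ℝ ∞ (fun z => f (K.g ((A.e i).symm z))) (A.e i (K.g.symm y))) :
    Crest.CxGeometry.IsSmoothFunOn (n := n) f S := by
  intro x₀ w hw
  apply ContDiffAt.contDiffWithinAt
  obtain ⟨i, hi, hd⟩ := h _ hw.2
  have hwi : w ∈ Wd K x₀ i := ⟨hw.1, hi⟩
  have h1 : f ∘ (chartAt (Cn n) x₀).symm =ᶠ[𝓝 w]
      fun v => (fun z => f (K.g ((A.e i).symm z))) (Fc K x₀ i v) := by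
    filter_upwards [(isOpen_Wd K x₀ i).mem_nhds hwi] with v hv
    show _ = f (K.g ((A.e i).symm (Fc K x₀ i v)))
    rw [Fc_symm K hv, K.g.apply_symm_apply]
    rfl
  refine ContDiffAt.congr_of_eventuallyEq ?_ h1
  exact ContDiffAt.comp (g := fun z => f (K.g ((A.e i).symm z))) w hd (Fc_contDiffAt K i x₀ hwi)

/-! ### the bundle -/

/-- for each chart of `A` a piece of the cover of `L` containing it -/
structure Idx (L : HolLineBundle n X) where
  k : A.ι → L.ι
  sub : ∀ i, ∀ x ∈ (A.e i).source, K.g x ∈ L.U (k i)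

variable {K} {L : HolLineBundle n X} (J : Idx K L)

theorem L_self {L : HolLineBundle n X} {j : L.ι} {y : X} (hy : y ∈ L.U j) : L.g j j y = 1 := by
  have h1 := L.cocycle j j j y ⟨⟨hy, hy⟩, hy⟩
  have h2 := L.g_ne_zero j j y ⟨hy, hy⟩
  have h3 : L.g j j y * (L.g j j y - 1) = 0 := by linear_combination -h1
  rcases mul_eq_zero.1 h3 with h | h
  · exact absurd h h2
  · linear_combination h

open Classical in
/-- the cocycle in the charts of `A` -/
def lbOf : LB A where
  g i j x := if x ∈ (A.e i).source ∩ (A.e j).source then L.g (J.k i) (J.k j) (K.g x) else 1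
  hol i j := by
    have h1 : HolAt A i (A.e j).source (fun x => L.g (J.k i) (J.k j) (K.g x)) :=
      holAt_of K (L.g_hol (J.k i) (J.k j)) i fun x hx hx' => ⟨J.sub i x hx, J.sub j x hx'⟩
    refine h1.congr fun x hx hx' => ?_
    rw [if_pos ⟨hx, hx'⟩]
  off i j x hx := by rw [if_neg hx]
  self i x := by
    by_cases hx : x ∈ (A.e i).source
    · rw [if_pos ⟨hx, hx⟩, L_self (J.sub i x hx)]
    · rw [if_neg fun h => hx h.1]
  mul i j k x hx := by
    rw [if_pos ⟨hx.1.1, hx.1.2⟩, if_pos ⟨hx.1.2, hx.2⟩, if_pos ⟨hx.1.1, hx.2⟩]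
    exact (L.cocycle (J.k i) (J.k j) (J.k k) (K.g x)
      ⟨⟨J.sub i x hx.1.1, J.sub j x hx.1.2⟩, J.sub k x hx.2⟩).symm

theorem lbOf_g {i j : A.ι} {x : M} (hx : x ∈ (A.e i).source ∩ (A.e j).source) :
    (lbOf J).g i j x = L.g (J.k i) (J.k j) (K.g x) := if_pos hx

/-! ### metrics -/

/-- frozen metric → `HM` -/
def toHM (h : L.HermMetric) : HM (lbOf J) where
  w i x := h.h (J.k i) (K.g x)
  pos i x hx := h.h_pos _ _ (J.sub i x hx)
  sm i := smAt_of K (h.h_smooth (J.k i)) (J.sub i)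
  tr i j x hx := by
    rw [lbOf_g J hx]
    exact h.compat (J.k i) (J.k j) (K.g x) ⟨J.sub i x hx.1, J.sub j x hx.2⟩

/-- the value of the frozen metric computed with the chart `i` -/
def mv (h : HM (lbOf J)) (i : A.ι) (j : L.ι) (y : X) : ℝ :=
  ‖L.g (J.k i) j y‖ ^ 2 * h.w i (K.g.symm y)

theorem mem_kU {i : A.ι} {y : X} (hy : K.g.symm y ∈ (A.e i).source) : y ∈ L.U (J.k i) := by
  have := J.sub i _ hy
  rwa [K.g.apply_symm_apply] at this

theorem mv_indep (h : HM (lbOf J)) {i i' : A.ι} {j : L.ι} {y : X}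
    (hi : K.g.symm y ∈ (A.e i).source) (hi' : K.g.symm y ∈ (A.e i').source) (hj : y ∈ L.U j) :
    mv J h i j y = mv J h i' j y := by
  unfold mv
  have h1 := h.tr i i' _ ⟨hi, hi'⟩
  rw [lbOf_g J ⟨hi, hi'⟩, K.g.apply_symm_apply] at h1
  have h2 := L.cocycle (J.k i) (J.k i') j y ⟨⟨mem_kU J hi, mem_kU J hi'⟩, hj⟩
  rw [h1, h2, norm_mul]
  ring

/-- `HM` → frozen metric -/
def backHM (h : HM (lbOf J)) : L.HermMetric where
  h j y := mv J h (ki K y) j y
  h_pos j y hy := by
    have h1 := L.g_ne_zero (J.k (ki K y)) j y ⟨mem_kU J (ki_mem K y), hy⟩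
    have h2 := h.pos _ _ (ki_mem K y)
    have h3 : 0 < ‖L.g (J.k (ki K y)) j y‖ := norm_pos_iff.2 h1
    unfold mv
    positivity
  h_smooth j := by
    apply isSmoothFunOn_of K
    intro y hy
    refine ⟨ki K y, ki_mem K y, ?_⟩
    set i := ki K y with hi
    have hmem := ki_mem K y
    rw [← hi] at hmem
    set z := A.e i (K.g.symm y) with hz
    have hzt : z ∈ (A.e i).target := (A.e i).map_source hmem
    have hU : ∀ᶠ v in 𝓝 z, K.g ((A.e i).symm v) ∈ L.U j := by
      have hc : ContinuousAt (fun v => K.g ((A.e i).symm v)) z :=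
        K.g.continuous.continuousAt.comp ((A.e i).continuousAt_symm hzt)
      refine hc.eventually ((L.isOpen_U j).mem_nhds ?_)
      show K.g ((A.e i).symm z) ∈ L.U j
      rw [hz, (A.e i).left_inv hmem, K.g.apply_symm_apply]
      exact hy
    have h1 : (fun v => mv J h (ki K (K.g ((A.e i).symm v))) j (K.g ((A.e i).symm v))) =ᶠ[𝓝 z]
        fun v => ‖L.g (J.k i) j (K.g ((A.e i).symm v))‖ ^ 2 * h.w i ((A.e i).symm v) := by
      filter_upwards [hU, (A.e i).open_target.mem_nhds hzt] with v hv hvt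
      have h2 : K.g.symm (K.g ((A.e i).symm v)) ∈ (A.e i).source := by
        rw [K.g.symm_apply_apply]; exact (A.e i).map_target hvt
      rw [mv_indep J h (ki_mem K _) h2 hv]
      unfold mv
      rw [K.g.symm_apply_apply]
    refine ContDiffAt.congr_of_eventuallyEq ?_ h1
    refine ContDiffAt.mul ?_ ((h.sm i).contDiffAt ((A.e i).open_target.mem_nhds hzt))
    -- the transition function is holomorphic near `z`
    have h3 : HolAt A i (K.g ⁻¹' L.U j) (fun x => L.g (J.k i) j (K.g x)) :=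
      holAt_of K (L.g_hol (J.k i) j) i fun x hx hx' => ⟨J.sub i x hx, hx'⟩
    have ho : IsOpen (K.g ⁻¹' L.U j) := (L.isOpen_U j).preimage K.g.continuous
    have h4 : ContDiffAt ℝ ∞ (fun v => L.g (J.k i) j (K.g ((A.e i).symm v))) z := by
      refine (h3.contDiffOn ho).contDiffAt ((isOpen_ti ho).mem_nhds ⟨hzt, ?_⟩)
      show K.g ((A.e i).symm z) ∈ L.U j
      rw [hz, (A.e i).left_inv hmem, K.g.apply_symm_apply]
      exact hy
    exact h4.norm_sq ℝ
  compat j j' y hy := by
    have h1 := L.cocycle (J.k (ki K y)) j j' y ⟨⟨mem_kU J (ki_mem K y), hy.1⟩, hy.2⟩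
    unfold mv
    rw [h1, norm_mul]
    ring

theorem backHM_h (h : HM (lbOf J)) (j : L.ι) (y : X) : (backHM J h).h j y = mv J h (ki K y) j y := rfl

theorem toHM_back (h : HM (lbOf J)) {i : A.ι} {x : M} (hx : x ∈ (A.e i).source) :
    (toHM J (backHM J h)).w i x = h.w i x := by
  have hx' : K.g.symm (K.g x) ∈ (A.e i).source := by rwa [K.g.symm_apply_apply]
  change mv J h (ki K (K.g x)) (J.k i) (K.g x) = _
  rw [mv_indep J h (ki_mem K _) hx' (J.sub i x hx)]
  unfold mv
  rw [L_self (J.sub i x hx), K.g.symm_apply_apply]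
  simp

theorem cur_congr {L L' : LB A} {h : HM L} {h' : HM L'} (i : A.ι)
    (H : ∀ x ∈ (A.e i).source, h.w i x = h'.w i x) {x : M} (hx : x ∈ (A.e i).source) :
    cur h i x = cur h' i x := by
  unfold cur
  apply hess_congr
  filter_upwards [(A.e i).open_target.mem_nhds ((A.e i).map_source hx)] with z hz
  unfold HM.wt
  rw [H _ ((A.e i).map_target hz)]

theorem cur_toHM_back (h : HM (lbOf J)) {i : A.ι} {x : M} (hx : x ∈ (A.e i).source) :
    cur (toHM J (backHM J h)) i x = cur h i x :=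
  cur_congr i (fun _ hx => toHM_back J h hx) hx

end

end Crest.Agent.R281.DicF_273
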