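import Crest.Agent.R281.DicF_273

/-!
# R281 (S0424), HK-DIC part G (helper273): the Chern form

* `cf H`          : `(v,w) ↦ (H(Jv,w) - H(v,Jw))/(4π)` for a symmetric bilinear form `H`
* `mat11_cf`      : `mat11 (cf (D²u)) = hess u`
* `mat11_chern`   : the matrix of the frozen Chern form in the chart `i` is `cur (toHM J h) i x`
* `nonFlat_of`    : `ChernClassNeZero → NonFlat`
-/

set_option autoImplicit false
set_option linter.unusedSectionVars false

open Set Filter Topology Complex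
open scoped ContDiff Matrix ComplexConjugate Manifold ComplexOrder

namespace Crest.Agent.R281.DicG_273

open Crest.Agent.R275.Geo Crest.Agent.R275.Core144 Crest.Agent.R275.EDR890
open Crest.Agent.R273.Defs_333 Crest.Agent.R273.Kah_333 Crest.Agent.R273.HessB_333
open Crest.Agent.R273.Hess_333
open Crest.Agent.R281.DicA_273 Crest.Agent.R281.Defs_273 Crest.Agent.R281.DicB_273
open Crest.Agent.R281.DicC_273 Crest.Agent.R281.DicD_273 Crest.Agent.R281.DicE_273
open Crest.Agent.R281.DicF_273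
open Crest.CxGeometry (Form chartRep transDeriv chartWindow HolLineBundle Jl)

noncomputable section

universe u

section Algebra

variable {n : ℕ}

/-- real bilinear forms -/
abbrev Bil (n : ℕ) : Type := ContinuousMultilinearMap ℝ (fun _ : Fin 2 => Cn n) ℝ

/-- the real `(1,1)`-form attached to a symmetric bilinear form -/
def cf (H : Bil n) : (Cn n) [⋀^Fin 2]→L[ℝ] ℂ :=
  ContinuousMultilinearMap.alternatization
    (Complex.ofRealCLM.compContinuousMultilinearMap
      ((1 / (8 * Real.pi)) •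
        (H.compContinuousLinearMap ![Jl n, ContinuousLinearMap.id ℝ (Cn n)] -
          H.compContinuousLinearMap ![ContinuousLinearMap.id ℝ (Cn n), Jl n])))

theorem Jl_apply (v : Cn n) : Jl n v = I • v := rfl

theorem cf_apply (H : Bil n) (v w : Cn n) : cf H ![v, w] =
    ((1 / (8 * Real.pi) * (H ![I • v, w] - H ![v, I • w] - (H ![I • w, v] - H ![w, I • v])) : ℝ) : ℂ) := by
  unfold cf
  rw [alt2]
  have h1 : ∀ p q : Cn n, (Complex.ofRealCLM.compContinuousMultilinearMap
      ((1 / (8 * Real.pi)) •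
        (H.compContinuousLinearMap ![Jl n, ContinuousLinearMap.id ℝ (Cn n)] -
          H.compContinuousLinearMap ![ContinuousLinearMap.id ℝ (Cn n), Jl n]))) ![p, q] =
      ((1 / (8 * Real.pi) * (H ![I • p, q] - H ![p, I • q]) : ℝ) : ℂ) := by
    intro p q
    have e1 : (fun i => (![Jl n, ContinuousLinearMap.id ℝ (Cn n)] : Fin 2 → Cn n →L[ℝ] Cn n) i
        ((![p, q] : Fin 2 → Cn n) i)) = ![I • p, q] := by
      funext s; fin_cases s <;> rfl
    have e2 : (fun i => (![ContinuousLinearMap.id ℝ (Cn n), Jl n] : Fin 2 → Cn n →L[ℝ] Cn n) i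
        ((![p, q] : Fin 2 → Cn n) i)) = ![p, I • q] := by
      funext s; fin_cases s <;> rfl
    change ((((1 / (8 * Real.pi)) * (H (fun i => (![Jl n, ContinuousLinearMap.id ℝ (Cn n)] :
      Fin 2 → Cn n →L[ℝ] Cn n) i ((![p, q] : Fin 2 → Cn n) i)) - H (fun i =>
      (![ContinuousLinearMap.id ℝ (Cn n), Jl n] : Fin 2 → Cn n →L[ℝ] Cn n) i
        ((![p, q] : Fin 2 → Cn n) i)))) : ℝ) : ℂ) = _
    rw [e1, e2]
  rw [h1, h1]
  push_cast
  ring

theorem bil_neg_left (H : Bil n) (v w : Cn n) : H ![-v, w] = - H ![v, w] := by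
  have := H.map_update_smul ![v, w] 0 (-1) v
  rw [upd0, upd0] at this
  simpa using this

theorem upd1 (v w u : Cn n) : Function.update (![v, w] : Fin 2 → Cn n) 1 u = ![v, u] := by
  funext i
  fin_cases i <;> simp

theorem bil_neg_right (H : Bil n) (v w : Cn n) : H ![v, -w] = - H ![v, w] := by
  have := H.map_update_smul ![v, w] 1 (-1) w
  rw [upd1, upd1] at this
  simpa using this

theorem cf_t11 (H : Bil n) : T11 (cf H) := by
  intro v w
  rw [cf_apply, cf_apply, II_smul, II_smul, bil_neg_left, bil_neg_left, bil_neg_right,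
    bil_neg_right]
  congr 1
  ring

theorem cf_real (H : Bil n) : RealF (cf H) := by
  intro v
  have : v = ![v 0, v 1] := by
    funext i
    fin_cases i <;> rfl
  rw [this, cf_apply]
  exact Complex.ofReal_im _

theorem mat11_cf_apply (H : Bil n) (hH : ∀ v w : Cn n, H ![v, w] = H ![w, v]) (a b : Fin n) :
    mat11 (cf H) a b = (1 / 4 : ℂ) * ((H ![bs a, bs b] : ℝ) + (H ![I • bs a, I • bs b] : ℝ) -
      I * ((H ![I • bs a, bs b] : ℝ) - (H ![bs a, I • bs b] : ℝ))) := by
  rw [mat11_apply, cf_apply, cf_apply, II_smul, bil_neg_right, bil_neg_left,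
    hH (I • bs b) (bs a), hH (bs b) (I • bs a), hH (I • bs b) (I • bs a), hH (bs b) (bs a)]
  have hpi : (Real.pi : ℂ) ≠ 0 := by exact_mod_cast Real.pi_ne_zero
  push_cast
  field_simp
  ring

/-- the complex Hessian from the real one -/
theorem hess_eq_real {u : Cn n → ℝ} {z : Cn n} (hu : ContDiffAt ℝ ∞ u z) (a b : Fin n) :
    hess u z a b = (1 / 4 : ℂ) * ((fderiv ℝ (fderiv ℝ u) z (bs a) (bs b) : ℝ) +
      (fderiv ℝ (fderiv ℝ u) z (I • bs a) (I • bs b) : ℝ) -
      I * ((fderiv ℝ (fderiv ℝ u) z (I • bs a) (bs b) : ℝ) -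
        (fderiv ℝ (fderiv ℝ u) z (bs a) (I • bs b) : ℝ))) := by
  have hw : ∀ (s : WI n) (G : Cn n →L[ℝ] ℂ), wdLc s G = wdL s G := fun s G => rfl
  rw [hess_apply, wd, fderiv_wd (contDiffAt_cu hu)]
  unfold wdL
  simp only [ContinuousLinearMap.comp_apply, hw, wdL, fderiv2_cu hu, single_I, cI_true, cI_false,
    smul_eq_mul]
  linear_combination (-(1 / 4 : ℂ) * (fderiv ℝ (fderiv ℝ u) z (I • bs a) (I • bs b) : ℝ)) * I_sq

/-- the real Hessian -/
theorem mat11_cf {u : Cn n → ℝ} {z : Cn n} (hu : ContDiffAt ℝ ∞ u z) :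
    mat11 (cf (iteratedFDeriv ℝ 2 u z)) = hess u z := by
  ext a b
  have hs : IsSymmSndFDerivAt ℝ u z := by
    refine hu.isSymmSndFDerivAt ?_
    rw [minSmoothness_of_isRCLikeNormedField]
    exact WithTop.coe_le_coe.2 le_top
  have h1 : ∀ v w : Cn n, iteratedFDeriv ℝ 2 u z ![v, w] = fderiv ℝ (fderiv ℝ u) z v w := by
    intro v w
    rw [iteratedFDeriv_two_apply]
    rfl
  rw [mat11_cf_apply _ (fun v w => by rw [h1, h1]; exact hs v w), hess_eq_real hu]
  simp only [h1]

end Algebra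

variable {n k : ℕ} {X : Type u} [TopologicalSpace X] [ChartedSpace (Cn n) X]
  [IsManifold 𝓘(ℂ, Cn n) ω X] {M : Type} [TopologicalSpace M] {A : Atl n M} {K : Lk A X}
  {L : HolLineBundle n X} (J : Idx K L)

theorem chernFormOn_eq (h : L.HermMetric) (j : L.ι) (y : X) :
    h.chernFormOn j y = cf (h.weightHessian j y) := rfl

/-- smoothness of the weight in the preferred chart -/
theorem weight_smooth (h : L.HermMetric) {j : L.ι} {y : X} (hy : y ∈ L.U j) :
    ContDiffAt ℝ ∞ ((fun y => -Real.log (h.h j y)) ∘ (chartAt (Cn n) y).symm)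
      (chartAt (Cn n) y y) := by
  have ho : IsOpen (chartWindow y (L.U j)) :=
    (chartAt (Cn n) y).isOpen_inter_preimage_symm (L.isOpen_U j)
  have hm : chartAt (Cn n) y y ∈ chartWindow y (L.U j) := by
    refine ⟨mem_chart_target (Cn n) y, ?_⟩
    rw [mem_preimage, (chartAt (Cn n) y).left_inv (mem_chart_source (Cn n) y)]
    exact hy
  have h1 : ContDiffAt ℝ ∞ (h.h j ∘ (chartAt (Cn n) y).symm) (chartAt (Cn n) y y) :=
    (h.h_smooth j y).contDiffAt (ho.mem_nhds hm)
  have h2 : (h.h j ∘ (chartAt (Cn n) y).symm) (chartAt (Cn n) y y) ≠ 0 := by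
    rw [Function.comp_apply, (chartAt (Cn n) y).left_inv (mem_chart_source (Cn n) y)]
    exact (h.h_pos j y hy).ne'
  exact (h1.log h2).neg

/-- the matrix of the Chern form in the chart `i` -/
theorem mat11_chern0 (h : L.HermMetric) {j : L.ι} {i : A.ι} {x : M} (hx : x ∈ (A.e i).source)
    (hy : K.g x ∈ L.U j) : mat11 (rp K (h.chernFormOn j) i x) =
      hess (fun z => -Real.log (h.h j (K.g ((A.e i).symm z)))) (A.e i x) := by
  unfold rp
  rw [chernFormOn_eq, (cf_t11 _).mat11_pb]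
  unfold Crest.CxGeometry.HolLineBundle.HermMetric.weightHessian
  have hs := weight_smooth h hy
  rw [mat11_cf hs]
  set u : Cn n → ℝ := (fun y => -Real.log (h.h j y)) ∘ (chartAt (Cn n) (K.g x)).symm with hu
  set T : Cn n → Cn n := fun z => chartAt (Cn n) (K.g x) (K.g ((A.e i).symm z)) with hT
  have hTx : T (A.e i x) = chartAt (Cn n) (K.g x) (K.g x) := by
    rw [hT]; simp only [(A.e i).left_inv hx]
  -- the domain where everything is defined
  have hev : ∀ᶠ z in 𝓝 (A.e i x), z ∈ (A.e i).target ∧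
      K.g ((A.e i).symm z) ∈ (chartAt (Cn n) (K.g x)).source := by
    have hc : ContinuousAt (fun z => K.g ((A.e i).symm z)) (A.e i x) :=
      K.g.continuous.continuousAt.comp ((A.e i).continuousAt_symm ((A.e i).map_source hx))
    have h0 : (fun z => K.g ((A.e i).symm z)) (A.e i x) ∈ (chartAt (Cn n) (K.g x)).source := by
      show K.g ((A.e i).symm (A.e i x)) ∈ (chartAt (Cn n) (K.g x)).source
      rw [(A.e i).left_inv hx]
      exact mem_chart_source _ _
    filter_upwards [(A.e i).open_target.mem_nhds ((A.e i).map_source hx),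
      hc.eventually ((chartAt (Cn n) (K.g x)).open_source.mem_nhds h0)] with z hz hz'
    exact ⟨hz, hz'⟩
  have hTd : ∀ᶠ z in 𝓝 (A.e i x), DifferentiableAt ℂ T z := by
    filter_upwards [hev] with z hz
    have h1 := K.hasFDerivAt_chg ((A.e i).map_target hz.1) hz.2
    rw [(A.e i).right_inv hz.1] at h1
    exact h1.differentiableAt
  have hcomp : (fun z => -Real.log (h.h j (K.g ((A.e i).symm z)))) =ᶠ[𝓝 (A.e i x)]
      fun z => u (T z) := by
    filter_upwards [hev] with z hz
    simp only [hu, hT, Function.comp_apply, (chartAt (Cn n) (K.g x)).left_inv hz.2]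
  rw [hess_congr hcomp]
  ext a b
  rw [hess_comp (u := u) (T := T) (by rwa [hTx]) hTd, hTx]
  simp only [Matrix.mul_apply, Matrix.transpose_apply, Matrix.map_apply, Finset.sum_mul]
  rw [Finset.sum_comm]
  rfl

/-- **the frozen Chern form is `cur`** -/
theorem mat11_chern (h : L.HermMetric) {j : L.ι} {i : A.ι} {x : M} (hx : x ∈ (A.e i).source)
    (hy : K.g x ∈ L.U j) : mat11 (rp K (h.chernFormOn j) i x) = cur (toHM J h) i x := by
  rw [mat11_chern0 h hx hy]
  unfold cur
  set z := A.e i x with hz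
  have hzt : z ∈ (A.e i).target := (A.e i).map_source hx
  have hzx : (A.e i).symm z = x := (A.e i).left_inv hx
  have ho : IsOpen (K.g ⁻¹' L.U j) := (L.isOpen_U j).preimage K.g.continuous
  have hw : IsOpen ((A.e i).target ∩ (A.e i).symm ⁻¹' (K.g ⁻¹' L.U j)) := isOpen_ti ho
  have hzw : z ∈ (A.e i).target ∩ (A.e i).symm ⁻¹' (K.g ⁻¹' L.U j) := by
    refine ⟨hzt, ?_⟩
    show K.g ((A.e i).symm z) ∈ L.U j
    rw [hzx]; exact hy
  set f : Cn n → ℂ := fun z => L.g j (J.k i) (K.g ((A.e i).symm z)) with hf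
  have h3 : HolAt A i (K.g ⁻¹' L.U j) (fun x => L.g j (J.k i) (K.g x)) :=
    holAt_of K (L.g_hol j (J.k i)) i fun x hx hx' => ⟨hx', J.sub i x hx⟩
  have hfd : ∀ᶠ w in 𝓝 z, DifferentiableAt ℂ f w := by
    filter_upwards [hw.mem_nhds hzw] with w hw'
    exact DifferentiableOn.differentiableAt h3 (hw.mem_nhds hw')
  have hf0 : f z ≠ 0 := by
    simp only [hf, hzx]
    exact L.g_ne_zero _ _ _ ⟨hy, J.sub i x hx⟩
  have hev : (fun z => -Real.log (h.h j (K.g ((A.e i).symm z)))) =ᶠ[𝓝 z]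
      fun w => (toHM J h).wt i w + Real.log (‖f w‖ ^ 2) := by
    filter_upwards [hw.mem_nhds hzw] with w hw'
    have hU : K.g ((A.e i).symm w) ∈ L.U j ∩ L.U (J.k i) :=
      ⟨hw'.2, J.sub i _ ((A.e i).map_target hw'.1)⟩
    have h4 := h.compat j (J.k i) _ hU
    unfold HM.wt
    change -Real.log (h.h j (K.g ((A.e i).symm w))) =
      -Real.log (h.h (J.k i) (K.g ((A.e i).symm w))) + Real.log (‖f w‖ ^ 2)
    have h5 : 0 < h.h j (K.g ((A.e i).symm w)) := h.h_pos _ _ hU.1
    have h6 : ‖L.g j (J.k i) (K.g ((A.e i).symm w))‖ ^ 2 ≠ 0 := by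
      have := L.g_ne_zero _ _ _ hU
      have := norm_pos_iff.2 this
      positivity
    rw [h4, Real.log_mul h6 h5.ne']
    simp only [hf]
    ring
  have hsm1 : ContDiffAt ℝ ∞ ((toHM J h).wt i) z := wt_contDiffAt _ i hzt
  have hsm2 : ContDiffAt ℝ ∞ (fun w => Real.log (‖f w‖ ^ 2)) z := by
    obtain ⟨U, hU, hUo, hUz⟩ := eventually_nhds_iff.1 hfd
    have h1 : DifferentiableOn ℂ f U := fun w hw => (hU w hw).differentiableWithinAt
    have hfc : ContDiffAt ℝ ∞ f z :=
      (((Crest.Agent.R266.SCV.contDiffOn_omega_of_differentiableOn hUo h1).restrict_scalars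
        ℝ).of_le le_top).contDiffAt (hUo.mem_nhds hUz)
    refine (hfc.norm_sq ℝ).log ?_
    have := norm_pos_iff.2 hf0
    positivity
  rw [hess_congr hev, hess_add hsm1 hsm2, hess_log_norm hfd hf0, add_zero]

/-- `(1,1)`-forms are determined by their matrix -/
theorem t11_ext {β β' : (Cn n) [⋀^Fin 2]→L[ℝ] ℂ} (h : T11 β) (h' : T11 β') (hr : RealF β)
    (hr' : RealF β') (H : mat11 β = mat11 β') : β = β' := by
  refine f2_ext fun v w => ?_
  have h1 : ses β v w = ses β' v w := by rw [h.ses_eq, h'.ses_eq, H]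
  unfold ses at h1
  have hpi : (Real.pi : ℂ) ≠ 0 := by exact_mod_cast Real.pi_ne_zero
  have h2 := mul_left_cancel₀ hpi h1
  have h3 := congrArg Complex.im h2
  simp only [Complex.sub_im, Complex.mul_im, Complex.I_re, Complex.I_im, zero_mul, one_mul,
    zero_add, hr _, hr' _, zero_sub, neg_inj] at h3
  apply Complex.ext
  · exact h3
  · rw [hr, hr']

theorem zap {k : ℕ} (v : Fin k → Cn n) : (0 : (Cn n) [⋀^Fin k]→L[ℝ] ℂ) v = 0 := rfl

theorem zero_t11 : T11 (0 : (Cn n) [⋀^Fin 2]→L[ℝ] ℂ) := by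
  intro v w
  rw [zap, zap]

theorem zero_real : RealF (0 : (Cn n) [⋀^Fin 2]→L[ℝ] ℂ) := by
  intro v
  rw [zap, Complex.zero_im]

theorem mat11_zero : mat11 (0 : (Cn n) [⋀^Fin 2]→L[ℝ] ℂ) = 0 := by
  ext a b
  rw [mat11_apply, zap, zap,
    Matrix.zero_apply]
  ring

/-- a form vanishing in the chart vanishes -/
theorem eq_zero_of_rp {α : Form n X 2} {i : A.ι} {x : M} (hx : x ∈ (A.e i).source)
    (h : rp K α i x = 0) : α (K.g x) = 0 := by
  refine f2_ext fun v w => ?_
  have h1 : ∀ v, K.tD i x (tE K i x v) = v := fun v =>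
    congrArg (fun L : Cn n →L[ℂ] Cn n => L v) (tD_tE K hx)
  have h2 : rp K α i x ![tE K i x v, tE K i x w] = 0 := by
    rw [h, zap]
  rw [rp, pb_apply2, h1, h1] at h2
  rw [h2, zap]

theorem realF_pb {k : ℕ} {β : (Cn n) [⋀^Fin k]→L[ℝ] ℂ} (h : RealF β) (T : Cn n →L[ℂ] Cn n) :
    RealF (pb T β) := fun v => by
  rw [pb_apply]
  exact h _

theorem chern_t11 (h : L.HermMetric) (j : L.ι) (i : A.ι) (x : M) :
    T11 (rp K (h.chernFormOn j) i x) := by
  unfold rp
  rw [chernFormOn_eq]
  exact T11.pb (cf_t11 _) _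

theorem chern_real (h : L.HermMetric) (j : L.ι) (i : A.ι) (x : M) :
    RealF (rp K (h.chernFormOn j) i x) := by
  unfold rp
  rw [chernFormOn_eq]
  exact realF_pb (cf_real _) _

theorem chern_zero {h : L.HermMetric} {j : L.ι} {y : X} (hy : y ∈ L.U j)
    (H : ∀ i, ∀ x ∈ (A.e i).source, cur (toHM J h) i x = 0) : h.chernFormOn j y = 0 := by
  obtain ⟨i, hi⟩ := A.cover (K.g.symm y)
  have hgy : K.g (K.g.symm y) = y := K.g.apply_symm_apply y
  have h1 := mat11_chern J h (j := j) hi (by rw [hgy]; exact hy)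
  rw [H i _ hi] at h1
  have h2 : rp K (h.chernFormOn j) i (K.g.symm y) = 0 := by
    refine t11_ext ?_ zero_t11 ?_ zero_real ?_
    · exact chern_t11 h j i _
    · exact chern_real h j i _
    · rw [h1, mat11_zero]
  have h3 := eq_zero_of_rp hi h2
  rwa [hgy] at h3

/-- **no flat metric** -/
theorem nonFlat_of (hc : L.ChernClassNeZero) : NonFlat (lbOf J) := by
  intro h
  by_contra hcon
  push Not at hcon
  apply hc (backHM J h)
  refine ⟨0, fun x v => rfl, fun j => ⟨fun x₀ => ?_, fun x₀ w hw => ?_⟩⟩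
  · have : chartRep (0 : Form n X 1) x₀ = fun _ => 0 := by
      funext w
      rfl
    rw [this]
    exact contDiffOn_const
  · have h1 : chartRep (0 : Form n X 1) x₀ = fun _ => 0 := by
      funext w
      rfl
    have h2 : (backHM J h).chernFormOn j ((chartAt (Cn n) x₀).symm w) = 0 :=
      chern_zero J hw.2 fun i x hx => by rw [cur_toHM_back J h hx]; exact hcon i x hx
    have h3 : chartRep ((backHM J h).chernFormOn j) x₀ w = 0 := by
      unfold Crest.CxGeometry.chartRep
      rw [h2]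
      rfl
    rw [h1, h3]
    ext v
    rw [extDeriv_apply (differentiableAt_const _)]
    simp

end

end Crest.Agent.R281.DicG_273
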