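import Crest.Agent.R281.DicG_273

/-!
# R281 (S0424), HK-DIC part H (helper273): nefness and sections

* `cmp_compact`, `cmp_global` : comparison of Hermitian forms with a Kaehler metric
* `nefW_of`    : `IsNef → NefW`
* `backS`      : sections of `(lbOf J)^m` → `sectionSpace m`
* `semiample_of` : `SemiAmple (lbOf J) → L.IsSemiample`
-/

set_option autoImplicit false
set_option linter.unusedSectionVars false

open Set Filter Topology Complex
open scoped ContDiff Matrix ComplexConjugate Manifold ComplexOrder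

namespace Crest.Agent.R281.DicH_273

open Crest.Agent.R275.Geo Crest.Agent.R275.Core144 Crest.Agent.R275.EDR890
open Crest.Agent.R273.Defs_333 Crest.Agent.R273.Kah_333 Crest.Agent.R273.HessB_333
open Crest.Agent.R273.Hess_333 Crest.Agent.R273.HM_333
open Crest.Agent.R281.DicA_273 Crest.Agent.R281.Defs_273 Crest.Agent.R281.DicB_273
open Crest.Agent.R281.DicC_273 Crest.Agent.R281.DicD_273 Crest.Agent.R281.DicE_273
open Crest.Agent.R281.DicF_273 Crest.Agent.R281.DicG_273
open Crest.CxGeometry (Form chartRep transDeriv chartWindow HolLineBundle Jl)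

noncomputable section

universe u

/-! ### comparison of Hermitian matrices over compact sets -/

section Cmp

variable {n : ℕ}

/-- the quadratic form -/
def qf (G : Matrix (Fin n) (Fin n) ℂ) (v : Fin n → ℂ) : ℝ := (star v ⬝ᵥ (G *ᵥ v)).re

theorem qf_smul (G : Matrix (Fin n) (Fin n) ℂ) (c : ℝ) (v : Fin n → ℂ) :
    qf G ((c : ℂ) • v) = c ^ 2 * qf G v := by
  unfold qf
  rw [Matrix.mulVec_smul, dotProduct_smul, star_smul, smul_dotProduct]
  simp only [smul_eq_mul, RCLike.star_def, Complex.conj_ofReal]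
  rw [← mul_assoc, ← ofReal_mul, Complex.re_ofReal_mul]
  ring

theorem qf_cont {Y : Type*} [TopologicalSpace Y] {C : Set Y} {G : Y → Matrix (Fin n) (Fin n) ℂ}
    (hG : ContinuousOn G C) (S : Set (Fin n → ℂ)) :
    ContinuousOn (fun q : Y × (Fin n → ℂ) => qf (G q.1) q.2) (C ×ˢ S) := by
  have h1 : ContinuousOn (fun q : Y × (Fin n → ℂ) => G q.1) (C ×ˢ S) :=
    hG.comp continuousOn_fst fun q hq => hq.1
  have h2 : ∀ i j, ContinuousOn (fun q : Y × (Fin n → ℂ) => G q.1 i j) (C ×ˢ S) := fun i j =>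
    (continuousOn_pi.1 ((continuousOn_pi.1 h1) i)) j
  refine Complex.continuous_re.comp_continuousOn ?_
  show ContinuousOn (fun q : Y × (Fin n → ℂ) => ∑ i, star (q.2 i) * ∑ j, G q.1 i j * q.2 j) _
  refine continuousOn_finsetSum _ fun i _ => ContinuousOn.mul ?_ ?_
  · exact (continuous_star.comp ((continuous_apply i).comp continuous_snd)).continuousOn
  · refine continuousOn_finsetSum _ fun j _ => (h2 i j).mul ?_
    exact ((continuous_apply j).comp continuous_snd).continuousOn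

theorem psd_of_qf {G : Matrix (Fin n) (Fin n) ℂ} (hG : G.IsHermitian) (h : ∀ v, 0 ≤ qf G v) :
    G.PosSemidef := by
  refine Matrix.PosSemidef.of_dotProduct_mulVec_nonneg hG fun v => ?_
  rw [Complex.le_def]
  exact ⟨h v, (hG.im_star_dotProduct_mulVec_self v).symm⟩

theorem qf_sub (G H : Matrix (Fin n) (Fin n) ℂ) (v : Fin n → ℂ) :
    qf (G - H) v = qf G v - qf H v := by
  unfold qf
  rw [Matrix.sub_mulVec, dotProduct_sub, Complex.sub_re]

theorem qf_rsmul (T : ℝ) (G : Matrix (Fin n) (Fin n) ℂ) (v : Fin n → ℂ) :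
    qf ((T : ℂ) • G) v = T * qf G v := by
  unfold qf
  rw [Matrix.smul_mulVec, dotProduct_smul, smul_eq_mul, Complex.re_ofReal_mul]

theorem herm_rsmul {G : Matrix (Fin n) (Fin n) ℂ} (hG : G.IsHermitian) (T : ℝ) :
    ((T : ℂ) • G).IsHermitian := by
  unfold Matrix.IsHermitian
  rw [Matrix.conjTranspose_smul, hG.eq]
  congr 1
  exact Complex.conj_ofReal T

/-- a continuous family of Hermitian matrices is bounded by a multiple of a positive one -/
theorem cmp_compact {Y : Type*} [TopologicalSpace Y] {C : Set Y} (hC : IsCompact C)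
    {G H : Y → Matrix (Fin n) (Fin n) ℂ} (hG : ContinuousOn G C) (hH : ContinuousOn H C)
    (hp : ∀ x ∈ C, (G x).PosDef) (hh : ∀ x ∈ C, (H x).IsHermitian) :
    ∃ T : ℝ, 0 < T ∧ ∀ x ∈ C, ((T : ℂ) • G x - H x).PosSemidef := by
  set Sp : Set (Fin n → ℂ) := Metric.sphere 0 1 with hSp
  have hSpc : IsCompact Sp := isCompact_sphere 0 1
  have hpos : ∀ q ∈ C ×ˢ Sp, 0 < qf (G q.1) q.2 := by
    rintro ⟨x, v⟩ ⟨hx, hv⟩
    have hv0 : v ≠ 0 := by
      rintro rfl
      simp [hSp] at hv
    exact (Complex.lt_def.1 ((hp x hx).dotProduct_mulVec_pos hv0)).1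
  have hf : ContinuousOn (fun q : Y × (Fin n → ℂ) => qf (H q.1) q.2 / qf (G q.1) q.2) (C ×ˢ Sp) :=
    (qf_cont hH Sp).div (qf_cont hG Sp) fun q hq => (hpos q hq).ne'
  obtain ⟨T0, hT0⟩ := (hC.prod hSpc).exists_bound_of_continuousOn hf
  refine ⟨max T0 1, lt_of_lt_of_le one_pos (le_max_right _ _), fun x hx => ?_⟩
  refine psd_of_qf ((herm_rsmul (hp x hx).1 _).sub (hh x hx)) fun v => ?_
  rw [qf_sub, qf_rsmul]
  rcases eq_or_ne v 0 with rfl | hv
  · simp [qf]
  · set c : ℝ := ‖v‖ with hc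
    have hc0 : 0 < c := norm_pos_iff.2 hv
    set w : Fin n → ℂ := ((c⁻¹ : ℝ) : ℂ) • v with hw
    have hwS : w ∈ Sp := by
      rw [hSp, mem_sphere_zero_iff_norm, hw, norm_smul, Complex.norm_real, norm_inv, norm_norm,
        inv_mul_cancel₀ hc0.ne']
    have hvw : v = (c : ℂ) • w := by
      rw [hw, smul_smul, ← ofReal_mul, mul_inv_cancel₀ hc0.ne', ofReal_one, one_smul]
    have e1 : qf (G x) v = c ^ 2 * qf (G x) w := by rw [← qf_smul, ← hvw]
    have e2 : qf (H x) v = c ^ 2 * qf (H x) w := by rw [← qf_smul, ← hvw]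
    rw [e1, e2]
    have h1 := hpos (x, w) ⟨hx, hwS⟩
    have h2 := hT0 (x, w) ⟨hx, hwS⟩
    simp only at h1 h2
    have h3 : qf (H x) w / qf (G x) w ≤ max T0 1 :=
      (le_abs_self _).trans (h2.trans (le_max_left _ _))
    rw [div_le_iff₀ h1] at h3
    have h4 : 0 ≤ c ^ 2 * (max T0 1 * qf (G x) w - qf (H x) w) :=
      mul_nonneg (by positivity) (by linarith)
    linarith

end Cmp

section Global

variable {n : ℕ} {M : Type} [TopologicalSpace M] {A : Atl n M}

theorem contOn_of_smAt {i : A.ι} {f : M → ℂ} (h : A.SmAt i f) : ContinuousOn f (A.e i).source := by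
  have h1 : ContinuousOn (fun x => (fun z => f ((A.e i).symm z)) (A.e i x)) (A.e i).source :=
    ContinuousOn.comp (g := fun z => f ((A.e i).symm z)) h.continuousOn (A.e i).continuousOn
      fun x hx => (A.e i).map_source hx
  refine h1.congr fun x hx => ?_
  simp only [(A.e i).left_inv hx]

theorem cover_chi (P : Part A) (x : M) : ∃ i, x ∈ tsupport (P.χ i) := by
  by_contra hcon
  push Not at hcon
  have h1 : ∀ i, P.ψ i x = 0 := by
    intro i
    by_contra hne
    have h2 : x ∈ tsupport (P.ψ i) := subset_tsupport _ hne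
    have h3 := (P.χ_one i x h2).self_of_nhds
    exact hcon i (subset_tsupport _ (by simp [Function.mem_support, h3]))
  have h2 := P.sum_one x
  rw [finsum_eq_zero_of_forall_eq_zero h1] at h2
  exact zero_ne_one h2

/-- psd is preserved under the change of charts -/
theorem psd_tr {B J : Matrix (Fin n) (Fin n) ℂ} (h : B.PosSemidef) :
    (Jᵀ * B * J.map conj).PosSemidef := by
  have h1 := h.conjTranspose_mul_mul_same (J.map conj)
  have h2 : (J.map conj)ᴴ = Jᵀ := by
    ext a b
    simp [Matrix.conjTranspose_apply]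
  rwa [h2] at h1

theorem cmp_global [Finite A.ι] (P : Part A) (K : Kah A) (a : A.ι → M → Matrix (Fin n) (Fin n) ℂ)
    (hsm : ∀ i p q, A.SmAt i (fun x => a i x p q))
    (hh : ∀ i, ∀ x ∈ (A.e i).source, (a i x).IsHermitian)
    (htr : ∀ i j, ∀ x ∈ (A.e i).source ∩ (A.e j).source,
      a i x = (Jm A i j x)ᵀ * a j x * (Jm A i j x).map conj) :
    ∃ T : ℝ, 0 < T ∧ ∀ i, ∀ x ∈ (A.e i).source, ((T : ℂ) • K.g i x - a i x).PosSemidef := by
  have h1 : ∀ i, ∃ T : ℝ, 0 < T ∧ ∀ x ∈ tsupport (P.χ i),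
      ((T : ℂ) • K.g i x - a i x).PosSemidef := by
    intro i
    have hc : ∀ {F : M → Matrix (Fin n) (Fin n) ℂ}, (∀ p q, A.SmAt i (fun x => F x p q)) →
        ContinuousOn F (tsupport (P.χ i)) := by
      intro F hF
      refine continuousOn_pi.2 fun p => continuousOn_pi.2 fun q => ?_
      exact (contOn_of_smAt (hF p q)).mono (P.χ_sub i)
    exact cmp_compact (P.χ_cpt i) (hc (K.sm i)) (hc (hsm i))
      (fun x hx => K.pos i x (P.χ_sub i hx)) (fun x hx => hh i x (P.χ_sub i hx))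
  choose T hT0 hT using h1
  obtain ⟨B, hB⟩ := (Set.finite_range T).bddAbove
  have hB' : ∀ i, T i ≤ max B 1 := fun i => (hB ⟨i, rfl⟩).trans (le_max_left _ _)
  refine ⟨max B 1, lt_of_lt_of_le one_pos (le_max_right _ _), fun j x hx => ?_⟩
  obtain ⟨i, hi⟩ := cover_chi P x
  have hxi : x ∈ (A.e i).source := P.χ_sub i hi
  have h2 : (((max B 1 : ℝ) : ℂ) • K.g i x - a i x).PosSemidef := by
    have h3 := (hT i x hi).add ((K.pos i x hxi).posSemidef.smul
      (show (0 : ℂ) ≤ ((max B 1 - T i : ℝ) : ℂ) by exact_mod_cast sub_nonneg.2 (hB' i)))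
    have h4 : (T i : ℂ) • K.g i x - a i x + ((max B 1 - T i : ℝ) : ℂ) • K.g i x =
        ((max B 1 : ℝ) : ℂ) • K.g i x - a i x := by
      push_cast
      module
    rwa [h4] at h3
  have h5 := psd_tr (J := Jm A j i x) h2
  rw [Matrix.mul_sub, Matrix.sub_mul, Matrix.mul_smul, Matrix.smul_mul, ← K.tr j i x ⟨hx, hxi⟩,
    ← htr j i x ⟨hx, hxi⟩] at h5
  exact h5

end Global

variable {n k : ℕ} {X : Type u} [TopologicalSpace X] [ChartedSpace (Cn n) X]
  [IsManifold 𝓘(ℂ, Cn n) ω X] {M : Type} [TopologicalSpace M] {A : Atl n M} {K : Lk A X}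
  {L : HolLineBundle n X} (J : Idx K L)

theorem mat11_rsmul (c : ℝ) (β : (Cn n) [⋀^Fin 2]→L[ℝ] ℂ) : mat11 (c • β) = (c : ℂ) • mat11 β := by
  ext a b
  rw [Matrix.smul_apply, mat11_apply, mat11_apply]
  simp only [ContinuousAlternatingMap.smul_apply, Complex.real_smul, smul_eq_mul]
  ring

/-- **nefness** -/
theorem nefW_of [Finite A.ι] (P : Part A) (K' : Kah A) (hnef : L.IsNef) : NefW K' (lbOf J) := by
  obtain ⟨α, hα, hn⟩ := hnef
  obtain ⟨T, hT0, hT⟩ := cmp_global P K' (fun i x => mat11 (rp K α i x))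
    (fun i p q => mat11_rp_smooth K hα.1 (fun _ _ => mem_univ _) p q)
    (fun i x hx => mat11_herm (t11_rp K hα.2.2.1 i x) (real_rp K hα.2.1 i x))
    (fun i j x hx => mat11_rp_tr K hα.2.2.1 hx)
  intro ε hε
  obtain ⟨h, hh⟩ := hn (ε / T) (div_pos hε hT0)
  refine ⟨toHM J h, fun i x hx => ?_⟩
  have h1 : (mat11 (rp K (h.chernFormOn (J.k i)) i x + (ε / T) • rp K α i x)).PosSemidef := by
    refine mat11_posSemidef ?_ ?_ fun v => ?_
    · intro v w
      have e1 := chern_t11 (K := K) h (J.k i) i x v w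
      have e2 := t11_rp K hα.2.2.1 i x v w
      simp only [ContinuousAlternatingMap.add_apply, ContinuousAlternatingMap.smul_apply] at e1 e2 ⊢
      rw [e1, e2]
    · intro v
      have e1 := chern_real (K := K) h (J.k i) i x v
      have e2 := real_rp K hα.2.1 i x v
      simp only [ContinuousAlternatingMap.add_apply, ContinuousAlternatingMap.smul_apply,
        Complex.real_smul, Complex.add_im, Complex.im_ofReal_mul, e1, e2, mul_zero, add_zero]
    · have e3 := hh (J.k i) (K.g x) (J.sub i x hx) (K.tD i x v)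
      simp only [ContinuousAlternatingMap.add_apply, ContinuousAlternatingMap.smul_apply,
        Complex.real_smul, Complex.add_re, Complex.re_ofReal_mul]
      have e4 : ∀ β : Form n X 2, rp K β i x ![v, I • v] =
          β (K.g x) ![K.tD i x v, Crest.CxGeometry.J (K.tD i x v)] := by
        intro β
        rw [rp, pb_apply2, map_smul]
        rfl
      rw [e4, e4]
      linarith
  rw [mat11_add, mat11_rsmul, mat11_chern J h hx (J.sub i x hx)] at h1
  have h2 := (hT i x hx).smul (show (0 : ℂ) ≤ ((ε / T : ℝ) : ℂ) by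
    exact_mod_cast (div_pos hε hT0).le)
  have h3 := h1.add h2
  have h4 : cur (toHM J h) i x + ((ε / T : ℝ) : ℂ) • mat11 (rp K α i x) +
      ((ε / T : ℝ) : ℂ) • ((T : ℂ) • K'.g i x - mat11 (rp K α i x)) =
      cur (toHM J h) i x + (ε : ℂ) • K'.g i x := by
    have h5 : ((ε / T : ℝ) : ℂ) * (T : ℂ) = (ε : ℂ) := by
      rw [← ofReal_mul, div_mul_cancel₀ _ hT0.ne']
    rw [smul_sub, smul_smul, h5]
    abel
  rwa [h4] at h3

/-! ### sections -/

variable {m : ℕ} {s : A.ι → M → ℂ}

/-- the value in the piece `j` computed with the chart `i` -/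
def sv (m : ℕ) (s : A.ι → M → ℂ) (i : A.ι) (j : L.ι) (y : X) : ℂ :=
  L.g j (J.k i) y ^ m * s i (K.g.symm y)

theorem sv_indep (hs : IsHS (lbOf J ^ m) univ s) {i i' : A.ι} {j : L.ι} {y : X}
    (hi : K.g.symm y ∈ (A.e i).source) (hi' : K.g.symm y ∈ (A.e i').source) (hj : y ∈ L.U j) :
    sv J m s i j y = sv J m s i' j y := by
  unfold sv
  have h1 := hs.tr i i' _ ⟨hi, hi'⟩ (mem_univ _)
  rw [LB_pow_g, lbOf_g J ⟨hi, hi'⟩, K.g.apply_symm_apply] at h1
  have h2 := L.cocycle j (J.k i) (J.k i') y ⟨⟨hj, mem_kU J hi⟩, mem_kU J hi'⟩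
  rw [h1, h2]
  ring

open Classical in
/-- the frozen section -/
def backS (m : ℕ) (s : A.ι → M → ℂ) (j : L.ι) (y : X) : ℂ :=
  if y ∈ L.U j then sv J m s (ki K y) j y else 0

theorem backS_eq (hs : IsHS (lbOf J ^ m) univ s) {i : A.ι} {j : L.ι} {y : X}
    (hi : K.g.symm y ∈ (A.e i).source) (hj : y ∈ L.U j) : backS J m s j y = sv J m s i j y := by
  unfold backS
  rw [if_pos hj, sv_indep J hs (ki_mem K y) hi hj]

theorem backS_mem (hs : IsHS (lbOf J ^ m) univ s) : backS J m s ∈ L.sectionSpace (m : ℤ) := by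
  refine ⟨fun j => ?_, fun j y hy => if_neg hy, fun j j' y hy => ?_⟩
  · apply isHolFunOn_of K
    intro y hy
    refine ⟨ki K y, ki_mem K y, ?_⟩
    set i := ki K y with hi
    have hmem := ki_mem K y
    rw [← hi] at hmem
    set z := A.e i (K.g.symm y) with hz
    have hzt : z ∈ (A.e i).target := (A.e i).map_source hmem
    have hzU : K.g ((A.e i).symm z) ∈ L.U j := by
      rw [hz, (A.e i).left_inv hmem, K.g.apply_symm_apply]
      exact hy
    have ho : IsOpen (K.g ⁻¹' L.U j) := (L.isOpen_U j).preimage K.g.continuous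
    have hw : IsOpen ((A.e i).target ∩ (A.e i).symm ⁻¹' (K.g ⁻¹' L.U j)) := isOpen_ti ho
    have h1 : (fun v => backS J m s j (K.g ((A.e i).symm v))) =ᶠ[𝓝 z]
        fun v => L.g j (J.k i) (K.g ((A.e i).symm v)) ^ m * s i ((A.e i).symm v) := by
      filter_upwards [hw.mem_nhds ⟨hzt, hzU⟩] with v hv
      have h2 : K.g.symm (K.g ((A.e i).symm v)) ∈ (A.e i).source := by
        rw [K.g.symm_apply_apply]; exact (A.e i).map_target hv.1
      rw [backS_eq J hs h2 hv.2]
      unfold sv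
      rw [K.g.symm_apply_apply]
    refine DifferentiableAt.congr_of_eventuallyEq ?_ h1
    have h3 : HolAt A i (K.g ⁻¹' L.U j) (fun x => L.g j (J.k i) (K.g x)) :=
      holAt_of K (L.g_hol j (J.k i)) i fun x hx hx' => ⟨hx', J.sub i x hx⟩
    have h4 : DifferentiableAt ℂ (fun v => L.g j (J.k i) (K.g ((A.e i).symm v))) z :=
      DifferentiableOn.differentiableAt h3 (hw.mem_nhds ⟨hzt, hzU⟩)
    have h5 : DifferentiableOn ℂ (fun z => s i ((A.e i).symm z)) (A.e i).target := by
      have := hs.hol i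
      unfold HolAt at this
      simpa using this
    exact (h4.fun_pow m).fun_mul (h5.differentiableAt ((A.e i).open_target.mem_nhds hzt))
  · rw [backS_eq J hs (ki_mem K y) hy.1, backS_eq J hs (ki_mem K y) hy.2, zpow_natCast]
    unfold sv
    rw [L.cocycle j j' (J.k (ki K y)) y ⟨hy, mem_kU J (ki_mem K y)⟩]
    ring

/-- **semiampleness** -/
theorem semiample_of (h : SemiAmple (lbOf J)) : L.IsSemiample := by
  obtain ⟨m, hm, H⟩ := h
  refine ⟨m, hm, fun y => ?_⟩
  obtain ⟨s, hs, i, hi, hne⟩ := H (K.g.symm y)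
  refine ⟨backS J m s, backS_mem J hs, J.k i, mem_kU J hi, ?_⟩
  rw [backS_eq J hs hi (mem_kU J hi)]
  unfold sv
  rw [L_self (mem_kU J hi), one_pow, one_mul]
  exact hne

end

end Crest.Agent.R281.DicH_273
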