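import Mathlib

/-!
# R281 (S0424), HK-DIC part I (helper273): mixed Pfaffians

For matrices `B k` (`k : κ`) on the index set `κ × Fin 2`:
`F B = ∑_π sign π ∏_k B k (π (k,0)) (π (k,1))`.

* `F_cong`   : `F (gᵀ B g) = det g * F B`
* `inf_inv`  : `∑_k F (update B k (Aᵀ B_k + B_k A)) = tr A * F B`
* `F_perm`, `F_update_swap` : symmetry
* `hasDerivAt_F`
-/

set_option autoImplicit false
set_option linter.unusedSectionVars false

open Matrix Finset

namespace Crest.Agent.R281.DicI_273

noncomputable section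

variable {κ : Type} [Fintype κ] [DecidableEq κ]

/-- index set -/
abbrev I2 (κ : Type) : Type := κ × Fin 2

/-- matrices on the index set -/
abbrev Mt (κ : Type) : Type := Matrix (I2 κ) (I2 κ) ℂ

/-- the mixed Pfaffian -/
def F (B : κ → Mt κ) : ℂ :=
  ∑ π : Equiv.Perm (I2 κ), ((Equiv.Perm.sign π : ℤ) : ℂ) * ∏ k, B k (π (k, 0)) (π (k, 1))

/-! ### the alternating map -/

/-- `u ↦ ∏_k B_k (u (k,0), u (k,1))` -/
def mB (B : κ → Mt κ) : MultilinearMap ℂ (fun _ : I2 κ => I2 κ → ℂ) ℂ where
  toFun u := ∏ k, (u (k, 0) ⬝ᵥ (B k *ᵥ u (k, 1)))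
  map_update_add' := by
    intro inst u s x y
    obtain rfl : inst = instDecidableEqProd := Subsingleton.elim _ _
    obtain ⟨k0, j⟩ := s
    rw [← Finset.mul_prod_erase univ _ (mem_univ k0), ← Finset.mul_prod_erase univ _ (mem_univ k0),
      ← Finset.mul_prod_erase univ _ (mem_univ k0)]
    have hrest : ∀ z : I2 κ → ℂ, ∏ k ∈ univ.erase k0, (Function.update u (k0, j) z (k, 0) ⬝ᵥ
        (B k *ᵥ Function.update u (k0, j) z (k, 1))) =
        ∏ k ∈ univ.erase k0, (u (k, 0) ⬝ᵥ (B k *ᵥ u (k, 1))) := by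
      intro z
      refine prod_congr rfl fun k hk => ?_
      have hk' : k ≠ k0 := ne_of_mem_erase hk
      rw [Function.update_of_ne (fun h => hk' (congrArg Prod.fst h)),
        Function.update_of_ne (fun h => hk' (congrArg Prod.fst h))]
    rw [hrest, hrest, hrest, ← add_mul]
    congr 1
    fin_cases j
    · have h1 : ∀ z : I2 κ → ℂ, Function.update u (k0, (0 : Fin 2)) z (k0, 1) = u (k0, 1) :=
        fun z => Function.update_of_ne (by simp) _ _
      simp only [Fin.zero_eta, Function.update_self, h1, add_dotProduct]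
    · have h1 : ∀ z : I2 κ → ℂ, Function.update u (k0, (1 : Fin 2)) z (k0, 0) = u (k0, 0) :=
        fun z => Function.update_of_ne (by simp) _ _
      simp only [Fin.mk_one, Function.update_self, h1, mulVec_add, dotProduct_add]
  map_update_smul' := by
    intro inst u s c x
    obtain rfl : inst = instDecidableEqProd := Subsingleton.elim _ _
    obtain ⟨k0, j⟩ := s
    rw [← Finset.mul_prod_erase univ _ (mem_univ k0), ← Finset.mul_prod_erase univ _ (mem_univ k0)]
    have hrest : ∀ z : I2 κ → ℂ, ∏ k ∈ univ.erase k0, (Function.update u (k0, j) z (k, 0) ⬝ᵥ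
        (B k *ᵥ Function.update u (k0, j) z (k, 1))) =
        ∏ k ∈ univ.erase k0, (u (k, 0) ⬝ᵥ (B k *ᵥ u (k, 1))) := by
      intro z
      refine prod_congr rfl fun k hk => ?_
      have hk' : k ≠ k0 := ne_of_mem_erase hk
      rw [Function.update_of_ne (fun h => hk' (congrArg Prod.fst h)),
        Function.update_of_ne (fun h => hk' (congrArg Prod.fst h))]
    rw [hrest, hrest, smul_eq_mul, ← mul_assoc]
    congr 1
    fin_cases j
    · have h1 : ∀ z : I2 κ → ℂ, Function.update u (k0, (0 : Fin 2)) z (k0, 1) = u (k0, 1) :=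
        fun z => Function.update_of_ne (by simp) _ _
      simp only [Fin.zero_eta, Function.update_self, h1, smul_dotProduct, smul_eq_mul]
    · have h1 : ∀ z : I2 κ → ℂ, Function.update u (k0, (1 : Fin 2)) z (k0, 0) = u (k0, 0) :=
        fun z => Function.update_of_ne (by simp) _ _
      simp only [Fin.mk_one, Function.update_self, h1, mulVec_smul, dotProduct_smul, smul_eq_mul]

theorem mB_apply (B : κ → Mt κ) (u : I2 κ → I2 κ → ℂ) :
    mB B u = ∏ k, (u (k, 0) ⬝ᵥ (B k *ᵥ u (k, 1))) := rfl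

/-- the alternating map -/
def aB (B : κ → Mt κ) : (I2 κ → ℂ) [⋀^I2 κ]→ₗ[ℂ] ℂ := MultilinearMap.alternatization (mB B)

theorem aB_apply (B : κ → Mt κ) (u : I2 κ → I2 κ → ℂ) : aB B u =
    ∑ π : Equiv.Perm (I2 κ), ((Equiv.Perm.sign π : ℤ) : ℂ) *
      ∏ k, (u (π (k, 0)) ⬝ᵥ (B k *ᵥ u (π (k, 1)))) := by
  unfold aB
  rw [MultilinearMap.alternatization_apply]
  refine sum_congr rfl fun π _ => ?_
  rw [Units.smul_def, zsmul_eq_mul]
  rfl

theorem single_dot (B : Mt κ) (p q : I2 κ) :
    (Pi.single p (1 : ℂ) : I2 κ → ℂ) ⬝ᵥ (B *ᵥ Pi.single q 1) = B p q := by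
  simp

/-- value on the columns of `g` -/
theorem aB_cols (B : κ → Mt κ) (g : Mt κ) :
    aB B (fun s p => g p s) = F (fun k => gᵀ * B k * g) := by
  rw [aB_apply]
  unfold F
  refine sum_congr rfl fun π _ => ?_
  congr 1
  refine prod_congr rfl fun k _ => ?_
  simp only [Matrix.mul_apply, dotProduct, mulVec, transpose_apply, sum_mul, mul_sum]
  rw [sum_comm]
  refine sum_congr rfl fun p _ => sum_congr rfl fun q _ => ?_
  ring

theorem aB_basis (B : κ → Mt κ) : aB B (Pi.basisFun ℂ (I2 κ)) = F B := by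
  have h := aB_cols B 1
  have h1 : (fun s p => (1 : Mt κ) p s) = (Pi.basisFun ℂ (I2 κ) : I2 κ → I2 κ → ℂ) := by
    funext s p
    rw [Pi.basisFun_apply, Matrix.one_apply, Pi.single_apply]
  rw [h1] at h
  rw [h]
  congr 1
  funext k
  simp

/-- **congruence** -/
theorem F_cong (B : κ → Mt κ) (g : Mt κ) : F (fun k => gᵀ * B k * g) = g.det * F B := by
  rw [← aB_cols, AlternatingMap.eq_smul_basis_det (Pi.basisFun ℂ (I2 κ)) (aB B), aB_basis,
    AlternatingMap.smul_apply, Pi.basisFun_det_apply, smul_eq_mul, mul_comm]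
  congr 1
  rw [← Matrix.det_transpose]
  rfl

/-! ### derivatives -/

theorem F_update_eq (B : κ → Mt κ) (k : κ) (X : Mt κ) : F (Function.update B k X) =
    ∑ π : Equiv.Perm (I2 κ), ((Equiv.Perm.sign π : ℤ) : ℂ) *
      ((∏ l ∈ univ.erase k, B l (π (l, 0)) (π (l, 1))) * X (π (k, 0)) (π (k, 1))) := by
  unfold F
  refine sum_congr rfl fun π _ => ?_
  congr 1
  rw [← Finset.mul_prod_erase univ _ (mem_univ k), Function.update_self, mul_comm]
  congr 1
  refine prod_congr rfl fun l hl => ?_
  rw [Function.update_of_ne (ne_of_mem_erase hl)]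

theorem F_update_add (B : κ → Mt κ) (k : κ) (X Y : Mt κ) :
    F (Function.update B k (X + Y)) = F (Function.update B k X) + F (Function.update B k Y) := by
  rw [F_update_eq, F_update_eq, F_update_eq, ← sum_add_distrib]
  refine sum_congr rfl fun π _ => ?_
  rw [Matrix.add_apply]
  ring

theorem F_update_smul (B : κ → Mt κ) (k : κ) (c : ℂ) (X : Mt κ) :
    F (Function.update B k (c • X)) = c * F (Function.update B k X) := by
  rw [F_update_eq, F_update_eq, mul_sum]
  refine sum_congr rfl fun π _ => ?_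
  rw [Matrix.smul_apply, smul_eq_mul]
  ring

theorem F_update_zero (B : κ → Mt κ) (k : κ) : F (Function.update B k 0) = 0 := by
  have := F_update_smul B k 0 0
  simpa using this

theorem hasDerivAt_F {B : ℂ → κ → Mt κ} {B' : κ → Mt κ} {z : ℂ}
    (h : ∀ k p q, HasDerivAt (fun w => B w k p q) (B' k p q) z) :
    HasDerivAt (fun w => F (B w)) (∑ k, F (Function.update (B z) k (B' k))) z := by
  have h1 : HasDerivAt (fun w => F (B w)) (∑ π : Equiv.Perm (I2 κ),
      ((Equiv.Perm.sign π : ℤ) : ℂ) * ∑ k, (∏ l ∈ univ.erase k, B z l (π (l, 0)) (π (l, 1))) •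
        B' k (π (k, 0)) (π (k, 1))) z := by
    unfold F
    refine HasDerivAt.fun_sum fun π _ => ?_
    refine HasDerivAt.const_mul _ ?_
    exact HasDerivAt.fun_finsetProd fun k _ => h k _ _
  refine h1.congr_deriv ?_
  have h2 : ∀ k, F (Function.update (B z) k (B' k)) = ∑ π : Equiv.Perm (I2 κ),
      ((Equiv.Perm.sign π : ℤ) : ℂ) *
      ((∏ l ∈ univ.erase k, B z l (π (l, 0)) (π (l, 1))) * B' k (π (k, 0)) (π (k, 1))) :=
    fun k => F_update_eq _ _ _
  simp only [h2]
  rw [sum_comm]
  refine sum_congr rfl fun π _ => ?_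
  rw [mul_sum]
  rfl

/-- derivative of `det (1 + z A)` -/
theorem hasDerivAt_det {ι : Type} [Fintype ι] [DecidableEq ι] (A : Matrix ι ι ℂ) :
    HasDerivAt (fun z : ℂ => (1 + z • A).det) A.trace 0 := by
  have h1 : (fun z : ℂ => (1 + z • A).det) = fun z => 1 + A.trace * z +
      ((1 + (Polynomial.X : Polynomial ℂ) • A.map Polynomial.C).det.divX.divX.eval z) * z ^ 2 := by
    funext z
    exact Matrix.det_one_add_smul z A
  rw [h1]
  set P := (1 + (Polynomial.X : Polynomial ℂ) • A.map Polynomial.C).det.divX.divX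
  have h2 : HasDerivAt (fun z : ℂ => 1 + A.trace * z) A.trace 0 := by
    simpa using ((hasDerivAt_id (0 : ℂ)).const_mul A.trace).const_add 1
  have h3 : HasDerivAt (fun z : ℂ => P.eval z * z ^ 2) 0 0 := by
    have h4 := (P.hasDerivAt (0 : ℂ)).fun_mul ((hasDerivAt_id (0 : ℂ)).fun_pow 2)
    exact h4.congr_deriv (by simp)
  exact (h2.fun_add h3).congr_deriv (by simp)

/-- **infinitesimal invariance** -/
theorem inf_inv (B : κ → Mt κ) (A : Mt κ) :
    ∑ k, F (Function.update B k (Aᵀ * B k + B k * A)) = A.trace * F B := by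
  have h1 : ∀ z : ℂ, F (fun k => (1 + z • A)ᵀ * B k * (1 + z • A)) = (1 + z • A).det * F B :=
    fun z => F_cong B _
  have h2 : HasDerivAt (fun z : ℂ => (1 + z • A).det * F B) (A.trace * F B) 0 :=
    (hasDerivAt_det A).mul_const _
  have h3 : HasDerivAt (fun z : ℂ => F (fun k => (1 + z • A)ᵀ * B k * (1 + z • A)))
      (∑ k, F (Function.update (fun k => (1 + (0 : ℂ) • A)ᵀ * B k * (1 + (0 : ℂ) • A)) k
        (Aᵀ * B k + B k * A))) 0 := by
    refine hasDerivAt_F (B := fun z k => (1 + z • A)ᵀ * B k * (1 + z • A)) fun k p q => ?_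
    have h4 : (fun z : ℂ => ((1 + z • A)ᵀ * B k * (1 + z • A) : Mt κ) p q) = fun z =>
        B k p q + z * (Aᵀ * B k + B k * A) p q + z ^ 2 * (Aᵀ * B k * A) p q := by
      funext z
      have h5 : (1 + z • A)ᵀ * B k * (1 + z • A) =
          B k + z • (Aᵀ * B k + B k * A) + z ^ 2 • (Aᵀ * B k * A) := by
        rw [transpose_add, transpose_one, transpose_smul]
        simp only [Matrix.add_mul, Matrix.mul_add, Matrix.one_mul, Matrix.mul_one, Matrix.smul_mul,
          Matrix.mul_smul, smul_add, smul_smul, pow_two]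
        abel
      rw [h5]
      simp only [Matrix.add_apply, Matrix.smul_apply, smul_eq_mul]
    rw [h4]
    have h6 := (((hasDerivAt_id (0 : ℂ)).mul_const ((Aᵀ * B k + B k * A) p q)).const_add
      (B k p q)).fun_add (((hasDerivAt_id (0 : ℂ)).fun_pow 2).mul_const ((Aᵀ * B k * A) p q))
    exact h6.congr_deriv (by simp)
  have h7 : (fun z : ℂ => F (fun k => (1 + z • A)ᵀ * B k * (1 + z • A))) =
      fun z => (1 + z • A).det * F B := funext h1
  rw [h7] at h3
  have h8 := h3.unique h2
  simpa using h8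

/-! ### symmetry -/

theorem F_perm (B : κ → Mt κ) (τ : Equiv.Perm κ) : F (B ∘ τ) = F B := by
  unfold F
  set T : Equiv.Perm (I2 κ) := Equiv.prodCongrLeft (fun _ : Fin 2 => τ) with hT
  have hsign : Equiv.Perm.sign T = 1 := by
    rw [hT, Equiv.Perm.sign_prodCongrLeft, Fin.prod_univ_two]
    exact Int.units_mul_self _
  have hTa : ∀ k j, T (k, j) = (τ k, j) := fun k j => rfl
  refine (Fintype.sum_equiv (Equiv.mulRight T) _ _ fun π => ?_).symm
  have h2 : Equiv.Perm.sign (Equiv.mulRight T π) = Equiv.Perm.sign π := by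
    rw [Equiv.coe_mulRight, map_mul, hsign, mul_one]
  rw [h2]
  congr 1
  rw [← Equiv.prod_comp τ (fun k => B k (π (k, 0)) (π (k, 1)))]
  refine prod_congr rfl fun k _ => ?_
  simp only [Function.comp_apply, Equiv.coe_mulRight, Equiv.Perm.mul_apply, hTa]

theorem F_update_swap (B : κ → Mt κ) {k l : κ} (h : B k = B l) (X : Mt κ) :
    F (Function.update B k X) = F (Function.update B l X) := by
  rw [← F_perm (Function.update B k X) (Equiv.swap k l)]
  congr 1
  funext m
  rw [Function.comp_apply]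
  by_cases hm : m = l
  · subst hm
    rw [Equiv.swap_apply_right, Function.update_self, Function.update_self]
  · rw [Function.update_of_ne hm]
    by_cases hk : m = k
    · subst hk
      rw [Equiv.swap_apply_left, Function.update_of_ne (Ne.symm hm), h]
    · rw [Equiv.swap_apply_of_ne_of_ne hk hm, Function.update_of_ne hk]

/-- if the infinitesimal action is diagonal on the factors -/
theorem F_weight (B : κ → Mt κ) (A : Mt κ) (c : κ → ℂ) (h : ∀ k, Aᵀ * B k + B k * A = c k • B k) :
    (∑ k, c k) * F B = A.trace * F B := by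
  rw [← inf_inv B A, sum_mul]
  refine sum_congr rfl fun k _ => ?_
  rw [h, F_update_smul, Function.update_eq_self]

end

end Crest.Agent.R281.DicI_273
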