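import Crest.Agent.R281.DicI_273

/-!
# R281 (S0424), HK-DIC part J (helper273): mixed Pfaffians of `σ, σ̄, α`

`sg S`, `sb S'`, `al H` : block matrices of the forms of type (2,0), (0,2), (1,1).
`fl a b X Y Z` : the factor list.

* `F_type`   : `F (σ^a σ̄^b α^c) = 0` if `a ≠ b`
* `F_two`    : `n² F(σ^{n-1} σ̄^{n-1} α²) = tr (S'⁻¹ Hᵀ S⁻¹ H) F(σ^n σ̄^n)`
* `F_chain`, `F_pos` : `F(σ^n σ̄^n) ≠ 0` for the standard symplectic form
* `F_det`    : `F(σ^n σ̄^n) = c |det S|`, `S' = conj S`
-/

set_option autoImplicit false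
set_option linter.unusedSectionVars false

open Matrix Finset
open scoped ComplexConjugate

namespace Crest.Agent.R281.DicJ_273

open Crest.Agent.R281.DicI_273

noncomputable section

variable {N : ℕ}

/-- square matrices -/
abbrev Sq (N : ℕ) : Type := Matrix (Fin N) (Fin N) ℂ

/-- `(a,0)` is holomorphic, `(a,1)` antiholomorphic -/
def eqv (N : ℕ) : I2 (Fin N) ≃ Fin N ⊕ Fin N where
  toFun p := if p.2 = 0 then Sum.inl p.1 else Sum.inr p.1
  invFun := Sum.elim (fun a => (a, 0)) (fun a => (a, 1))
  left_inv p := by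
    obtain ⟨a, j⟩ := p
    fin_cases j <;> simp
  right_inv s := by
    cases s <;> simp

@[simp] theorem eqv_zero (a : Fin N) : eqv N (a, 0) = Sum.inl a := rfl
@[simp] theorem eqv_one (a : Fin N) : eqv N (a, 1) = Sum.inr a := rfl

/-- block matrices -/
def blk (P Q R T : Sq N) : Mt (Fin N) := (fromBlocks P Q R T).submatrix (eqv N) (eqv N)

theorem blk_mul (P Q R T P' Q' R' T' : Sq N) : blk P Q R T * blk P' Q' R' T' =
    blk (P * P' + Q * R') (P * Q' + Q * T') (R * P' + T * R') (R * Q' + T * T') := by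
  unfold blk
  rw [submatrix_mul_equiv, fromBlocks_multiply]

theorem blk_transpose (P Q R T : Sq N) : (blk P Q R T)ᵀ = blk Pᵀ Rᵀ Qᵀ Tᵀ := by
  unfold blk
  rw [transpose_submatrix, fromBlocks_transpose]

theorem blk_add (P Q R T P' Q' R' T' : Sq N) : blk P Q R T + blk P' Q' R' T' =
    blk (P + P') (Q + Q') (R + R') (T + T') := by
  unfold blk
  rw [← fromBlocks_add]
  rfl

theorem blk_smul (c : ℂ) (P Q R T : Sq N) :
    c • blk P Q R T = blk (c • P) (c • Q) (c • R) (c • T) := by
  unfold blk
  rw [← fromBlocks_smul]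
  rfl

theorem blk_zero : blk (0 : Sq N) 0 0 0 = 0 := by
  unfold blk
  rw [fromBlocks_zero]
  rfl

theorem blk_trace (P Q R T : Sq N) : (blk P Q R T).trace = P.trace + T.trace := by
  have h : (fromBlocks P Q R T).trace = P.trace + T.trace := by
    simp [Matrix.trace, Fintype.sum_sum_type]
  rw [← h]
  exact Equiv.sum_comp (eqv N) (fun j => fromBlocks P Q R T j j)

/-- forms of type (2,0) -/
abbrev sg (S : Sq N) : Mt (Fin N) := blk S 0 0 0
/-- forms of type (0,2) -/
abbrev sb (S : Sq N) : Mt (Fin N) := blk 0 0 0 S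
/-- forms of type (1,1) -/
abbrev al (H : Sq N) : Mt (Fin N) := blk 0 H (-Hᵀ) 0

/-- the infinitesimal action -/
def act (A B : Mt (Fin N)) : Mt (Fin N) := Aᵀ * B + B * A

theorem inf_inv' (B : Fin N → Mt (Fin N)) (A : Mt (Fin N)) :
    ∑ k, F (Function.update B k (act A (B k))) = A.trace * F B := inf_inv B A

theorem act_zero (A : Mt (Fin N)) : act A 0 = 0 := by simp [act]

/-- scaling of the holomorphic directions -/
theorem act_w_sg (S : Sq N) : act (blk 1 0 0 0) (sg S) = (2 : ℂ) • sg S := by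
  unfold act sg
  rw [blk_transpose, blk_mul, blk_mul, blk_add, blk_smul, two_smul]
  congr 1 <;> simp

theorem act_w_sb (S : Sq N) : act (blk 1 0 0 0) (sb S) = (0 : ℂ) • sb S := by
  unfold act sb
  rw [blk_transpose, blk_mul, blk_mul, blk_add, blk_smul]
  congr 1 <;> simp

theorem act_w_al (H : Sq N) : act (blk 1 0 0 0) (al H) = (1 : ℂ) • al H := by
  unfold act al
  rw [blk_transpose, blk_mul, blk_mul, blk_add, blk_smul]
  congr 1 <;> simp

/-- `X` maps holomorphic covectors to antiholomorphic ones -/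
theorem act_x_sg {S X : Sq N} (hS : Sᵀ = -S) : act (blk 0 X 0 0) (sg S) = al (S * X) := by
  unfold act sg al
  rw [blk_transpose, blk_mul, blk_mul, blk_add]
  congr 1
  · simp
  · simp
  · rw [transpose_mul, hS]; simp
  · simp

theorem act_x_sb (S X : Sq N) : act (blk 0 X 0 0) (sb S) = 0 := by
  unfold act sb
  rw [blk_transpose, blk_mul, blk_mul, blk_add, ← blk_zero]
  congr 1 <;> simp

theorem act_x_al (H X : Sq N) : act (blk 0 X 0 0) (al H) = sb (Xᵀ * H - Hᵀ * X) := by
  unfold act sb al
  rw [blk_transpose, blk_mul, blk_mul, blk_add]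
  congr 1
  · simp
  · simp
  · simp
  · simp [sub_eq_add_neg]

theorem act_d_sg (S X : Sq N) : act (blk 0 0 0 X) (sg S) = 0 := by
  unfold act sg
  rw [blk_transpose, blk_mul, blk_mul, blk_add, ← blk_zero]
  congr 1 <;> simp

theorem act_d_sb (S X : Sq N) : act (blk 0 0 0 X) (sb S) = sb (Xᵀ * S + S * X) := by
  unfold act sb
  rw [blk_transpose, blk_mul, blk_mul, blk_add]
  congr 1 <;> simp

theorem act_c_sg (S X : Sq N) : act (blk X 0 0 0) (sg S) = sg (Xᵀ * S + S * X) := by
  unfold act sg
  rw [blk_transpose, blk_mul, blk_mul, blk_add]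
  congr 1 <;> simp

theorem act_c_sb (S X : Sq N) : act (blk X 0 0 0) (sb S) = 0 := by
  unfold act sb
  rw [blk_transpose, blk_mul, blk_mul, blk_add, ← blk_zero]
  congr 1 <;> simp

/-- `a·S = T` -/
theorem half_act {S T : Sq N} (hS : Sᵀ = -S) (hT : Tᵀ = -T) (hd : IsUnit S.det) :
    ((1 / 2 : ℂ) • (S⁻¹ * T))ᵀ * S + S * ((1 / 2 : ℂ) • (S⁻¹ * T)) = T := by
  rw [transpose_smul, transpose_mul, transpose_nonsing_inv, hS, hT]
  have h1 : (-S)⁻¹ = -S⁻¹ := by
    refine Matrix.inv_eq_left_inv ?_
    rw [Matrix.neg_mul, Matrix.mul_neg, neg_neg, nonsing_inv_mul S hd]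
  rw [h1, Matrix.neg_mul, Matrix.mul_neg, neg_neg, Matrix.smul_mul, Matrix.mul_assoc, nonsing_inv_mul S hd,
    Matrix.mul_one, Matrix.mul_smul, ← Matrix.mul_assoc, mul_nonsing_inv S hd, Matrix.one_mul,
    ← add_smul]
  norm_num

/-! ### factor lists -/

/-- the factor list -/
def fl (a b : ℕ) (X Y Z : Mt (Fin N)) : Fin N → Mt (Fin N) := fun k =>
  if k.val < a then X else if k.val < a + b then Y else Z

theorem sum_three {N a b : ℕ} (h : a + b ≤ N) (x y z : ℂ) :
    (∑ k : Fin N, if k.val < a then x else if k.val < a + b then y else z) =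
      a * x + b * y + ((N : ℂ) - a - b) * z := by
  obtain ⟨c, rfl⟩ := Nat.exists_eq_add_of_le h
  rw [Fin.sum_univ_eq_sum_range (fun k => if k < a then x else if k < a + b then y else z),
    Finset.sum_range_add, Finset.sum_range_add]
  have h1 : ∑ k ∈ range a, (if k < a then x else if k < a + b then y else z) = a * x := by
    rw [sum_congr rfl fun k hk => if_pos (mem_range.1 hk)]
    simp
  have h2 : ∑ k ∈ range b, (if a + k < a then x else if a + k < a + b then y else z) = b * y := by
    rw [sum_congr rfl fun k hk => by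
      rw [if_neg (by omega), if_pos (by have := mem_range.1 hk; omega)]]
    simp
  have h3 : ∑ k ∈ range c, (if a + b + k < a then x else if a + b + k < a + b then y else z) =
      c * z := by
    rw [sum_congr rfl fun k hk => by rw [if_neg (by omega), if_neg (by omega)]]
    simp
  rw [h1, h2, h3]
  push_cast
  ring

/-- **types** -/
theorem F_type {a b : ℕ} (h : a + b ≤ N) (hab : a ≠ b) (S S' H : Sq N) :
    F (fl a b (sg S) (sb S') (al H)) = 0 := by
  have h1 := F_weight (fl a b (sg S) (sb S') (al H)) (blk 1 0 0 0)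
    (fun k => if k.val < a then 2 else if k.val < a + b then 0 else 1) (fun k => by
      change act _ _ = _
      unfold fl
      split_ifs
      · exact act_w_sg S
      · exact act_w_sb S'
      · exact act_w_al H)
  rw [sum_three h, blk_trace, trace_one, trace_zero, Fintype.card_fin] at h1
  have h2 : ((a : ℂ) - b) * F (fl a b (sg S) (sb S') (al H)) = 0 := by linear_combination h1
  rcases mul_eq_zero.1 h2 with h3 | h3
  · exact absurd (by exact_mod_cast sub_eq_zero.1 h3) hab
  · exact h3

/-- `F` with the factor at a position replaced -/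
theorem F_upd_sum {a b : ℕ} (h : a + b ≤ N) (X Y Z : Mt (Fin N)) (A : Mt (Fin N)) {x y z : ℂ}
    (hx : ∀ k : Fin N, k.val < a → F (Function.update (fl a b X Y Z) k (act A X)) = x)
    (hy : ∀ k : Fin N, ¬ k.val < a → k.val < a + b →
      F (Function.update (fl a b X Y Z) k (act A Y)) = y)
    (hz : ∀ k : Fin N, ¬ k.val < a + b → F (Function.update (fl a b X Y Z) k (act A Z)) = z) :
    a * x + b * y + ((N : ℂ) - a - b) * z = A.trace * F (fl a b X Y Z) := by
  rw [← inf_inv' (fl a b X Y Z) A, ← sum_three h]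
  refine sum_congr rfl fun k _ => ?_
  by_cases h1 : k.val < a
  · rw [if_pos h1]
    have : fl a b X Y Z k = X := if_pos h1
    rw [this, hx k h1]
  · rw [if_neg h1]
    by_cases h2 : k.val < a + b
    · rw [if_pos h2]
      have : fl a b X Y Z k = Y := by unfold fl; rw [if_neg h1, if_pos h2]
      rw [this, hy k h1 h2]
    · rw [if_neg h2]
      have : fl a b X Y Z k = Z := by unfold fl; rw [if_neg h1, if_neg h2]
      rw [this, hz k h2]

/-- the word `X^a Z Y^b Z^c` -/
theorem F_word {a b : ℕ} (h : a + 1 + b ≤ N) (X Y Z : Mt (Fin N)) {k : Fin N}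
    (hk : k.val < a + 1) : F (Function.update (fl (a + 1) b X Y Z) k Z) = F (fl a b X Y Z) := by
  have ha : a < N := by omega
  have h1 : fl (a + 1) b X Y Z k = fl (a + 1) b X Y Z ⟨a, ha⟩ := by
    unfold fl
    rw [if_pos hk, if_pos (by simp)]
  rw [F_update_swap _ h1, ← F_perm (fl a b X Y Z) (Equiv.swap ⟨a, ha⟩ ⟨a + b, by omega⟩)]
  congr 1
  funext m
  rw [Function.comp_apply]
  by_cases hm : m = ⟨a, ha⟩
  · subst hm
    rw [Equiv.swap_apply_left, Function.update_self]
    unfold fl
    rw [if_neg (by simp), if_neg (by simp)]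
  · rw [Function.update_of_ne hm]
    have hma : m.val ≠ a := fun h => hm (Fin.ext h)
    by_cases hm' : m = ⟨a + b, by omega⟩
    · subst hm'
      rw [Equiv.swap_apply_right]
      unfold fl
      have hb : b ≠ 0 := by
        rintro rfl
        exact hma rfl
      simp only
      rw [if_neg (by omega), if_pos (by omega), if_neg (by omega), if_pos (by omega)]
    · rw [Equiv.swap_apply_of_ne_of_ne hm hm']
      have hmb : m.val ≠ a + b := fun h => hm' (Fin.ext h)
      unfold fl
      by_cases h2 : m.val < a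
      · rw [if_pos (by omega), if_pos h2]
      · rw [if_neg (by omega), if_neg h2]
        by_cases h3 : m.val < a + b
        · rw [if_pos (by omega), if_pos h3]
        · rw [if_neg (by omega), if_neg h3]

theorem skew (X H : Sq N) : (Xᵀ * H - Hᵀ * X)ᵀ = -(Xᵀ * H - Hᵀ * X) := by
  rw [transpose_sub, transpose_mul, transpose_mul, transpose_transpose, transpose_transpose]
  abel

/-- **degree two in `α`** -/
theorem F_two {n : ℕ} (hn : 1 ≤ n) (hN : N = 2 * n) {S S' H : Sq N} (hS : Sᵀ = -S)
    (hS' : S'ᵀ = -S') (hd : IsUnit S.det) (hd' : IsUnit S'.det) (Z : Mt (Fin N)) :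
    (n : ℂ) ^ 2 * F (fl (n - 1) (n - 1) (sg S) (sb S') (al H)) =
      (S'⁻¹ * Hᵀ * S⁻¹ * H).trace * F (fl n n (sg S) (sb S') Z) := by
  obtain ⟨m, rfl⟩ : ∃ m, n = m + 1 := ⟨n - 1, by omega⟩
  rw [Nat.add_sub_cancel]
  set X : Sq N := S⁻¹ * H with hX
  have hXt : Xᵀ = -(Hᵀ * S⁻¹) := by
    rw [hX, transpose_mul, transpose_nonsing_inv, hS]
    have h1 : (-S)⁻¹ = -S⁻¹ := by
      refine Matrix.inv_eq_left_inv ?_
      rw [Matrix.neg_mul, Matrix.mul_neg, neg_neg, nonsing_inv_mul S hd]
    rw [h1, Matrix.mul_neg]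
  set T : Sq N := Xᵀ * H - Hᵀ * X with hT
  have hTe : T = (-2 : ℂ) • (Hᵀ * S⁻¹ * H) := by
    rw [hT, hXt, hX, Matrix.neg_mul, ← Matrix.mul_assoc]
    module
  have hTt : Tᵀ = -T := skew X H
  -- first step
  have hSX : S * X = H := by rw [hX, ← Matrix.mul_assoc, mul_nonsing_inv S hd, Matrix.one_mul]
  have hlast : 2 * m + 1 < N := by omega
  set kl : Fin N := ⟨2 * m + 1, hlast⟩ with hkl
  have s1 := F_upd_sum (N := N) (a := m + 1) (b := m) (by omega) (sg S) (sb S') (al H)
    (blk 0 X 0 0) (x := F (fl m m (sg S) (sb S') (al H))) (y := 0)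
    (z := F (Function.update (fl (m + 1) m (sg S) (sb S') (al H)) kl (sb T)))
    (fun k hk => by
      rw [act_x_sg hS, hSX]
      exact F_word (by omega) _ _ _ hk)
    (fun k _ _ => by rw [act_x_sb, F_update_zero])
    (fun k hk => by
      rw [act_x_al]
      have : k = kl := by
        apply Fin.ext
        have := k.isLt
        simp only [hkl]
        omega
      rw [this])
  rw [blk_trace, trace_zero, add_zero, zero_mul] at s1
  -- second step
  have hc := half_act hS' hTt hd'
  have s2 := F_upd_sum (N := N) (a := m + 1) (b := m + 1) (by omega) (sg S) (sb S') Z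
    (blk 0 0 0 ((1 / 2 : ℂ) • (S'⁻¹ * T))) (x := 0)
    (y := F (Function.update (fl (m + 1) (m + 1) (sg S) (sb S') Z) kl (sb T)))
    (z := 0)
    (fun k _ => by rw [act_d_sg, F_update_zero])
    (fun k hk hk' => by
      rw [act_d_sb, hc]
      refine F_update_swap _ ?_ _
      unfold fl
      simp only [hkl]
      rw [if_neg hk, if_pos hk', if_neg (by omega), if_pos (by omega)])
    (fun k hk => absurd k.isLt (by omega))
  rw [blk_trace, trace_zero, zero_add, trace_smul] at s2
  have e1 : Function.update (fl (m + 1) m (sg S) (sb S') (al H)) kl (sb T) =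
      Function.update (fl (m + 1) (m + 1) (sg S) (sb S') Z) kl (sb T) := by
    funext k
    by_cases hk : k = kl
    · subst hk
      rw [Function.update_self, Function.update_self]
    · rw [Function.update_of_ne hk, Function.update_of_ne hk]
      have hkv : k.val ≠ 2 * m + 1 := fun h => hk (Fin.ext h)
      have := k.isLt
      unfold fl
      by_cases h1 : k.val < m + 1
      · rw [if_pos h1, if_pos h1]
      · rw [if_neg h1, if_neg h1, if_pos (by omega), if_pos (by omega)]
  rw [e1] at s1
  have hNc : (N : ℂ) = 2 * ((m : ℂ) + 1) := by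
    rw [hN]; push_cast; ring
  rw [hNc] at s1 s2
  have htr : (S'⁻¹ * T).trace = -2 * (S'⁻¹ * Hᵀ * S⁻¹ * H).trace := by
    rw [hTe, Matrix.mul_smul, trace_smul, smul_eq_mul]
    simp only [Matrix.mul_assoc]
  rw [htr] at s2
  simp only [smul_eq_mul] at s2
  push_cast at s1 s2 ⊢
  linear_combination ((m : ℂ) + 1) * s1 - s2

/-! ### the chain -/

theorem F_chain {j : ℕ} (hj : 2 * j + 2 ≤ N) {S : Sq N} (hS : Sᵀ = -S) (hS2 : S * S = -1) :
    ((j : ℂ) + 1) * F (fl j j (sg S) (sb S) (al 1)) =
      - 2 * ((N : ℂ) - 2 * j - 1) * F (fl (j + 1) (j + 1) (sg S) (sb S) (al 1)) := by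
  have h0 : S * (-S) = 1 := by rw [Matrix.mul_neg, hS2, neg_neg]
  have s1 := F_upd_sum (N := N) (a := j + 1) (b := j) (by omega) (sg S) (sb S) (al 1)
    (blk 0 (-S) 0 0) (x := F (fl j j (sg S) (sb S) (al 1))) (y := 0)
    (z := 2 * F (fl (j + 1) (j + 1) (sg S) (sb S) (al 1)))
    (fun k hk => by
      rw [act_x_sg hS, h0]
      exact F_word (by omega) _ _ _ hk)
    (fun k _ _ => by rw [act_x_sb, F_update_zero])
    (fun k hk => by
      rw [act_x_al]
      have h1 : (-S)ᵀ * 1 - (1 : Sq N)ᵀ * (-S) = (2 : ℂ) • S := by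
        rw [transpose_neg, hS]
        simp only [neg_neg, Matrix.mul_one, transpose_one, Matrix.one_mul, sub_neg_eq_add]
        rw [two_smul]
      have h2 : sb ((2 : ℂ) • S) = (2 : ℂ) • sb S := by
        unfold sb
        rw [blk_smul]
        simp
      rw [h1, h2, F_update_smul]
      congr 1
      have hl : 2 * j + 1 < N := by omega
      have h3 : fl (j + 1) j (sg S) (sb S) (al 1) k =
          fl (j + 1) j (sg S) (sb S) (al 1) ⟨2 * j + 1, hl⟩ := by
        unfold fl
        simp only
        rw [if_neg (by omega), if_neg hk, if_neg (by omega), if_neg (by omega)]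
      rw [F_update_swap _ h3]
      congr 1
      funext m
      by_cases hm : m = ⟨2 * j + 1, hl⟩
      · subst hm
        rw [Function.update_self]
        unfold fl
        simp only
        rw [if_neg (by omega), if_pos (by omega)]
      · rw [Function.update_of_ne hm]
        have hmv : m.val ≠ 2 * j + 1 := fun h => hm (Fin.ext h)
        unfold fl
        by_cases h4 : m.val < j + 1
        · rw [if_pos h4, if_pos h4]
        · rw [if_neg h4, if_neg h4]
          by_cases h5 : m.val < j + 1 + j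
          · rw [if_pos h5, if_pos (by omega)]
          · rw [if_neg h5, if_neg (by omega)])
  rw [blk_trace, trace_zero, add_zero, zero_mul] at s1
  push_cast at s1
  linear_combination s1

/-! ### positivity of `F(ω^N)` -/

theorem al_one_zero (a b : Fin N) : al (1 : Sq N) (a, 0) (b, 0) = 0 := by
  change (fromBlocks (0 : Sq N) (1 : Sq N) (-(1 : Sq N)ᵀ) (0 : Sq N)) (Sum.inl a) (Sum.inl b) = 0
  rfl

theorem al_one_one (a b : Fin N) : al (1 : Sq N) (a, 1) (b, 1) = 0 := by
  change (fromBlocks (0 : Sq N) (1 : Sq N) (-(1 : Sq N)ᵀ) (0 : Sq N)) (Sum.inr a) (Sum.inr b) = 0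
  rfl

theorem al_one_zo (a b : Fin N) : al (1 : Sq N) (a, 0) (b, 1) = if a = b then 1 else 0 := by
  change (fromBlocks (0 : Sq N) (1 : Sq N) (-(1 : Sq N)ᵀ) (0 : Sq N)) (Sum.inl a) (Sum.inr b) = _
  rw [fromBlocks_apply₁₂, Matrix.one_apply]

theorem al_one_oz (a b : Fin N) : al (1 : Sq N) (a, 1) (b, 0) = if a = b then -1 else 0 := by
  change (fromBlocks (0 : Sq N) (1 : Sq N) (-(1 : Sq N)ᵀ) (0 : Sq N)) (Sum.inr a) (Sum.inl b) = _
  rw [fromBlocks_apply₂₁, Matrix.neg_apply, transpose_apply, Matrix.one_apply]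
  by_cases h : a = b
  · rw [if_pos h.symm, if_pos h]
  · rw [if_neg (fun h' => h h'.symm), if_neg h, neg_zero]

theorem al_one (p q : I2 (Fin N)) : al (1 : Sq N) p q =
    if p.1 = q.1 ∧ p.2 ≠ q.2 then (if p.2 = 0 then 1 else -1) else 0 := by
  obtain ⟨a, i⟩ := p
  obtain ⟨b, j⟩ := q
  fin_cases i <;> fin_cases j
  · simpa using al_one_zero a b
  · simpa using al_one_zo a b
  · have := al_one_oz a b
    simpa using this
  · simpa using al_one_one a b

/-- a term of `F(ω^N)` -/
theorem term_pos (π : Equiv.Perm (I2 (Fin N))) :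
    (((Equiv.Perm.sign π : ℤ) : ℂ) * ∏ k, al (1 : Sq N) (π (k, 0)) (π (k, 1)) = 0) ∨
    (((Equiv.Perm.sign π : ℤ) : ℂ) * ∏ k, al (1 : Sq N) (π (k, 0)) (π (k, 1)) = 1) := by
  by_cases h : ∀ k, (π (k, 0)).1 = (π (k, 1)).1 ∧ (π (k, 0)).2 ≠ (π (k, 1)).2
  · right
    -- the permutation of the first components
    have hsurj : Function.Surjective fun k => (π (k, 0)).1 := by
      intro a
      obtain ⟨⟨k, j⟩, hk⟩ := π.surjective (a, 0)
      refine ⟨k, ?_⟩
      fin_cases j
      · simp only [Fin.zero_eta] at hk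
        simp [hk]
      · simp only [Fin.mk_one] at hk
        have := (h k).1
        rw [hk] at this
        simpa using this
    have hbij : Function.Bijective fun k => (π (k, 0)).1 := hsurj.bijective_of_finite
    set τ : Equiv.Perm (Fin N) := Equiv.ofBijective _ hbij with hτ
    set ρ : Fin N → Equiv.Perm (Fin 2) := fun k => if (π (k, 0)).2 = 0 then 1 else Equiv.swap 0 1
      with hρ
    have hπ : π = Equiv.prodCongrLeft (fun _ : Fin 2 => τ) * Equiv.prodCongrRight ρ := by
      ext1 p
      obtain ⟨k, j⟩ := p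
      have h1 := h k
      change π (k, j) = (τ k, ρ k j)
      have hτk : τ k = (π (k, 0)).1 := rfl
      rw [hτk]
      simp only [hρ]
      by_cases h0 : (π (k, 0)).2 = 0
      · rw [if_pos h0]
        fin_cases j
        · simp only [Fin.zero_eta, Equiv.Perm.one_apply]
          exact Prod.ext rfl h0
        · simp only [Fin.mk_one, Equiv.Perm.one_apply]
          refine Prod.ext h1.1.symm ?_
          have := h1.2
          rw [h0] at this
          change (π (k, 1)).2 = 1
          omega
      · rw [if_neg h0]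
        have h01 : (π (k, 0)).2 = 1 := by omega
        fin_cases j
        · simp only [Fin.zero_eta, Equiv.swap_apply_left]
          exact Prod.ext rfl h01
        · simp only [Fin.mk_one, Equiv.swap_apply_right]
          refine Prod.ext h1.1.symm ?_
          have := h1.2
          rw [h01] at this
          change (π (k, 1)).2 = 0
          omega
    have hsign : ((Equiv.Perm.sign π : ℤ) : ℂ) = ∏ k, ((Equiv.Perm.sign (ρ k) : ℤ) : ℂ) := by
      conv_lhs => rw [hπ]
      rw [map_mul, Equiv.Perm.sign_prodCongrLeft, Fin.prod_univ_two, Int.units_mul_self, one_mul]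
      have := Equiv.Perm.sign_prodCongrRight ρ
      rw [this]
      push_cast
      rfl
    rw [hsign, ← prod_mul_distrib]
    refine prod_eq_one fun k _ => ?_
    rw [al_one, if_pos (h k)]
    simp only [hρ]
    by_cases h0 : (π (k, 0)).2 = 0
    · rw [if_pos h0, if_pos h0]
      simp
    · rw [if_neg h0, if_neg h0, Equiv.Perm.sign_swap (by decide)]
      simp
  · left
    push Not at h
    obtain ⟨k, hk⟩ := h
    have h1 : ∏ k, al (1 : Sq N) (π (k, 0)) (π (k, 1)) = 0 := by
      refine prod_eq_zero (mem_univ k) ?_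
      rw [al_one, if_neg]
      rintro ⟨h2, h3⟩
      exact h3 (hk h2)
    rw [h1, mul_zero]

theorem F_pos : 1 ≤ (F (fun _ : Fin N => al (1 : Sq N))).re := by
  unfold F
  rw [Complex.re_sum]
  have h1 : ((((Equiv.Perm.sign (1 : Equiv.Perm (I2 (Fin N))) : ℤ) : ℂ) *
      ∏ k, al (1 : Sq N) ((1 : Equiv.Perm (I2 (Fin N))) (k, 0)) ((1 : Equiv.Perm (I2 (Fin N))) (k, 1)))).re
      = 1 := by
    have h2 : ∏ k, al (1 : Sq N) ((1 : Equiv.Perm (I2 (Fin N))) (k, 0))
        ((1 : Equiv.Perm (I2 (Fin N))) (k, 1)) = 1 := by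
      refine prod_eq_one fun k _ => ?_
      rw [al_one]
      simp
    rw [h2]
    simp
  rw [← h1]
  refine Finset.single_le_sum (f := fun π : Equiv.Perm (I2 (Fin N)) =>
    (((Equiv.Perm.sign π : ℤ) : ℂ) * ∏ k, al (1 : Sq N) (π (k, 0)) (π (k, 1))).re) ?_ (mem_univ 1)
  intro π _
  rcases term_pos π with h | h
  · simp only [h]; simp
  · simp only [h]; simp

theorem fl_zero (X Y Z : Mt (Fin N)) : fl 0 0 X Y Z = fun _ => Z := by
  funext k
  unfold fl
  rw [if_neg (by omega), if_neg (by omega)]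

/-- `F(σ₀^n σ̄₀^n) ≠ 0` -/
theorem F_std_ne {n : ℕ} (hN : N = 2 * n) {S : Sq N} (hS : Sᵀ = -S) (hS2 : S * S = -1) :
    F (fl n n (sg S) (sb S) (al 1)) ≠ 0 := by
  have key : ∀ j, j ≤ n → F (fl j j (sg S) (sb S) (al 1)) ≠ 0 := by
    intro j
    induction j with
    | zero =>
      intro _ h0
      rw [fl_zero] at h0
      have := F_pos (N := N)
      rw [h0] at this
      norm_num at this
    | succ j ih =>
      intro hj h0
      have h1 := F_chain (N := N) (j := j) (by omega) hS hS2
      rw [h0, mul_zero] at h1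
      rcases mul_eq_zero.1 h1 with h2 | h2
      · have : ((j : ℂ) + 1) ≠ 0 := by exact_mod_cast Nat.succ_ne_zero j
        exact this h2
      · exact ih (by omega) h2
  exact key n le_rfl

end

end Crest.Agent.R281.DicJ_273
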