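import Crest.Agent.R281.DicJ_273

/-!
# R281 (S0424), HK-DIC part K (helper273): `F(σ^n σ̄^n) = c |det S|`

* `wronsk`   : `F(E S)² / det S` is constant for an affine family with infinitesimal action
* `D_sq`     : `D(S,S')² = K det S det S'`
* `stdS`     : standard symplectic matrix
* `F_det`    : `D(S, conj S) = D(S₀,S₀) ‖det S‖`, `D(S₀,S₀) ≠ 0`
-/

set_option autoImplicit false
set_option linter.unusedSectionVars false

open Matrix Finset
open scoped ComplexConjugate

namespace Crest.Agent.R281.DicK_273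

open Crest.Agent.R281.DicI_273 Crest.Agent.R281.DicJ_273

noncomputable section

variable {N : ℕ}

/-! ### complex lines of matrices -/

theorem hasDerivAt_det_line {S T : Sq N} {z : ℂ} (hd : IsUnit (S + z • T).det) :
    HasDerivAt (fun w : ℂ => (S + w • T).det)
      ((S + z • T).det * ((S + z • T)⁻¹ * T).trace) z := by
  set R := (S + z • T)⁻¹ * T with hR
  have h1 : (fun w : ℂ => (S + w • T).det) = fun w => (S + z • T).det * (1 + (w - z) • R).det := by
    funext w
    rw [← Matrix.det_mul]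
    congr 1
    rw [Matrix.mul_add, Matrix.mul_one, Matrix.mul_smul, hR, ← Matrix.mul_assoc,
      mul_nonsing_inv _ hd, Matrix.one_mul]
    module
  rw [h1]
  have h2 : HasDerivAt (fun w : ℂ => w - z) 1 z := (hasDerivAt_id z).sub_const z
  have h3 : HasDerivAt (fun x : ℂ => (1 + x • R).det) R.trace (z - z) := by
    rw [sub_self]; exact hasDerivAt_det R
  have h4 := HasDerivAt.comp (h := fun w : ℂ => w - z) z h3 h2
  rw [mul_one] at h4
  exact h4.const_mul _

theorem det_line_poly (S T : Sq N) : ∃ P : Polynomial ℂ, ∀ z, P.eval z = (S + z • T).det := by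
  refine ⟨(S.map Polynomial.C + (Polynomial.X : Polynomial ℂ) • T.map Polynomial.C).det,
    fun z => ?_⟩
  have h1 := RingHom.map_det (Polynomial.evalRingHom z)
    (S.map Polynomial.C + (Polynomial.X : Polynomial ℂ) • T.map Polynomial.C)
  rw [Polynomial.coe_evalRingHom] at h1
  rw [h1]
  congr 1
  ext a b
  simp
  ring

/-- the complement of the zeros of `det` on a complex line is connected -/
theorem omega_conn (S T : Sq N) (h0 : S.det ≠ 0) :
    IsOpen {z : ℂ | (S + z • T).det ≠ 0} ∧ IsPreconnected {z : ℂ | (S + z • T).det ≠ 0} := by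
  obtain ⟨P, hP⟩ := det_line_poly S T
  have hP0 : P ≠ 0 := by
    rintro rfl
    have := hP 0
    rw [Polynomial.eval_zero, zero_smul, add_zero] at this
    exact h0 this.symm
  have hfin : {z : ℂ | P.IsRoot z}.Finite := Polynomial.finite_setOfPred_isRoot hP0
  have he : {z : ℂ | (S + z • T).det ≠ 0} = {z : ℂ | P.IsRoot z}ᶜ := by
    ext z
    simp only [Set.mem_ofPred_eq, Set.mem_compl_iff, Polynomial.IsRoot.def, hP]
  rw [he]
  refine ⟨hfin.isClosed.isOpen_compl, ?_⟩
  refine (hfin.countable.isConnected_compl_of_one_lt_rank ?_).isPreconnected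
  rw [Complex.rank_real_complex]
  norm_num

/-- an affine family of tuples with the infinitesimal action -/
theorem wronsk (E E' : Sq N → Fin N → Mt (Fin N)) (Af : Sq N → Mt (Fin N))
    (hE : ∀ S T (w : ℂ) k, E (S + w • T) k = E S k + w • E' T k)
    (hAf : ∀ X, (Af X).trace = X.trace)
    (hact : ∀ S T : Sq N, Sᵀ = -S → Tᵀ = -T → IsUnit S.det → ∀ k,
      act (Af ((1 / 2 : ℂ) • (S⁻¹ * T))) (E S k) = E' T k)
    {S₀ S₁ : Sq N} (h0 : S₀ᵀ = -S₀) (h1 : S₁ᵀ = -S₁) (hd0 : S₀.det ≠ 0) (hd1 : S₁.det ≠ 0) :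
    F (E S₁) ^ 2 * S₀.det = F (E S₀) ^ 2 * S₁.det := by
  set T := S₁ - S₀ with hT
  have hTt : Tᵀ = -T := by rw [hT, transpose_sub, h0, h1]; abel
  have hSt : ∀ z : ℂ, (S₀ + z • T)ᵀ = -(S₀ + z • T) := by
    intro z
    rw [transpose_add, transpose_smul, h0, hTt]
    module
  obtain ⟨hop, hcon⟩ := omega_conn S₀ T hd0
  set Ω : Set ℂ := {z : ℂ | (S₀ + z • T).det ≠ 0} with hΩ
  have hderF : ∀ z ∈ Ω, HasDerivAt (fun w => F (E (S₀ + w • T)))
      ((1 / 2 : ℂ) * ((S₀ + z • T)⁻¹ * T).trace * F (E (S₀ + z • T))) z := by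
    intro z hz
    have h2 : HasDerivAt (fun w => F (E (S₀ + w • T)))
        (∑ k, F (Function.update (E (S₀ + z • T)) k (E' T k))) z := by
      refine hasDerivAt_F fun k p q => ?_
      have h3 : (fun w : ℂ => E (S₀ + w • T) k p q) = fun w => E S₀ k p q + w * E' T k p q := by
        funext w
        rw [hE]
        simp
      rw [h3]
      simpa using ((hasDerivAt_id z).mul_const (E' T k p q)).const_add (E S₀ k p q)
    refine h2.congr_deriv ?_
    have h4 := inf_inv' (E (S₀ + z • T)) (Af ((1 / 2 : ℂ) • ((S₀ + z • T)⁻¹ * T)))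
    rw [hAf, trace_smul, smul_eq_mul] at h4
    rw [← h4]
    refine sum_congr rfl fun k _ => ?_
    rw [hact _ _ (hSt z) hTt (isUnit_iff_ne_zero.2 hz)]
  have hderQ : ∀ z ∈ Ω, HasDerivAt (fun w => F (E (S₀ + w • T)) ^ 2 / (S₀ + w • T).det) 0 z := by
    intro z hz
    have h2 := (hderF z hz).fun_pow 2
    have h3 := h2.fun_div (hasDerivAt_det_line (isUnit_iff_ne_zero.2 hz)) hz
    refine h3.congr_deriv ?_
    have hz' : (S₀ + z • T).det ≠ 0 := hz
    rw [div_eq_zero_iff]
    left
    push_cast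
    ring
  have hconst := hop.is_const_of_deriv_eq_zero hcon
    (f := fun w => F (E (S₀ + w • T)) ^ 2 / (S₀ + w • T).det)
    (fun z hz => (hderQ z hz).differentiableAt.differentiableWithinAt)
    (fun z hz => (hderQ z hz).deriv) (x := 1) (y := 0)
    (by show (S₀ + (1 : ℂ) • T).det ≠ 0
        rw [one_smul, hT, add_sub_cancel]; exact hd1)
    (by show (S₀ + (0 : ℂ) • T).det ≠ 0
        rw [zero_smul, add_zero]; exact hd0)
  simp only [one_smul, zero_smul, add_zero] at hconst
  rw [hT, add_sub_cancel, div_eq_div_iff hd1 hd0] at hconst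
  exact hconst

/-- the density of `σ^n ∧ σ'^n` -/
def D (n : ℕ) (S S' : Sq N) : ℂ := F (fl n n (sg S) (sb S') 0)

theorem fl_full {n : ℕ} (hN : N = 2 * n) (X Y Z Z' : Mt (Fin N)) :
    fl n n X Y Z = fl n n X Y Z' := by
  funext k
  unfold fl
  have := k.isLt
  by_cases h : k.val < n
  · rw [if_pos h, if_pos h]
  · rw [if_neg h, if_neg h, if_pos (by omega), if_pos (by omega)]

theorem sg_line (S T : Sq N) (w : ℂ) : sg (S + w • T) = sg S + w • sg T := by
  unfold sg
  rw [blk_smul, blk_add]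
  simp

theorem sb_line (S T : Sq N) (w : ℂ) : sb (S + w • T) = sb S + w • sb T := by
  unfold sb
  rw [blk_smul, blk_add]
  simp

theorem D_first {n : ℕ} (S' : Sq N) {S₀ S₁ : Sq N} (h0 : S₀ᵀ = -S₀) (h1 : S₁ᵀ = -S₁)
    (hd0 : S₀.det ≠ 0) (hd1 : S₁.det ≠ 0) :
    D n S₁ S' ^ 2 * S₀.det = D n S₀ S' ^ 2 * S₁.det := by
  refine wronsk (fun S => fl n n (sg S) (sb S') 0) (fun T => fl n n (sg T) 0 0)
    (fun X => blk X 0 0 0) ?_ ?_ ?_ h0 h1 hd0 hd1
  · intro S T w k
    unfold fl
    split_ifs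
    · exact sg_line S T w
    · simp
    · simp
  · intro X
    rw [blk_trace, trace_zero, add_zero]
  · intro S T hS hT hd k
    unfold fl
    split_ifs
    · rw [act_c_sg, half_act hS hT hd]
    · exact act_c_sb _ _
    · exact act_zero _

theorem D_second {n : ℕ} (S : Sq N) {S₀ S₁ : Sq N} (h0 : S₀ᵀ = -S₀) (h1 : S₁ᵀ = -S₁)
    (hd0 : S₀.det ≠ 0) (hd1 : S₁.det ≠ 0) :
    D n S S₁ ^ 2 * S₀.det = D n S S₀ ^ 2 * S₁.det := by
  refine wronsk (fun S' => fl n n (sg S) (sb S') 0) (fun T => fl n n 0 (sb T) 0)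
    (fun X => blk 0 0 0 X) ?_ ?_ ?_ h0 h1 hd0 hd1
  · intro S' T w k
    unfold fl
    split_ifs
    · simp
    · exact sb_line S' T w
    · simp
  · intro X
    rw [blk_trace, trace_zero, zero_add]
  · intro S' T hS hT hd k
    unfold fl
    split_ifs
    · exact act_d_sg _ _
    · rw [act_d_sb, half_act hS hT hd]
    · exact act_zero _

theorem D_sq {n : ℕ} {S₀ S S' : Sq N} (h0 : S₀ᵀ = -S₀) (hd0 : S₀.det ^ 2 = 1)
    (hS : Sᵀ = -S) (hS' : S'ᵀ = -S') (hd : S.det ≠ 0) (hd' : S'.det ≠ 0) :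
    D n S S' ^ 2 = D n S₀ S₀ ^ 2 * (S.det * S'.det) := by
  have hne : S₀.det ≠ 0 := by
    intro h
    rw [h] at hd0
    norm_num at hd0
  have h1 := D_first (n := n) S' h0 hS hne hd
  have h2 := D_second (n := n) S₀ h0 hS' hne hd'
  linear_combination S₀.det * h1 + S.det * h2 - D n S S' ^ 2 * hd0

/-! ### the standard symplectic matrix -/

/-- the standard symplectic matrix -/
def stdS (n : ℕ) : Sq (2 * n) :=
  (Matrix.J (Fin n) ℂ).submatrix (finSumFinEquiv.trans (finCongr (two_mul n).symm)).symm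
    (finSumFinEquiv.trans (finCongr (two_mul n).symm)).symm

theorem stdS_alt (n : ℕ) : (stdS n)ᵀ = - stdS n := by
  unfold stdS
  rw [transpose_submatrix, Matrix.J_transpose]
  rfl

theorem stdS_sq (n : ℕ) : stdS n * stdS n = -1 := by
  unfold stdS
  rw [submatrix_mul_equiv, Matrix.J_squared]
  rw [submatrix_neg, Pi.neg_apply, Pi.neg_apply, submatrix_one_equiv]

theorem stdS_conj (n : ℕ) : (stdS n).map conj = stdS n := by
  ext a b
  unfold stdS Matrix.J
  simp only [submatrix_apply, map_apply]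
  set s := (finSumFinEquiv.trans (finCongr (two_mul n).symm)).symm a
  set t := (finSumFinEquiv.trans (finCongr (two_mul n).symm)).symm b
  rcases s with s | s <;> rcases t with t | t
  · simp
  · rw [fromBlocks_apply₁₂, Matrix.neg_apply, Matrix.one_apply]
    split_ifs <;> simp
  · simp only [fromBlocks_apply₂₁, Matrix.one_apply]
    split_ifs <;> simp
  · simp

theorem stdS_det (n : ℕ) : (stdS n).det ^ 2 = 1 := by
  rw [pow_two, ← det_mul, stdS_sq, det_neg, det_one, Fintype.card_fin, mul_one, pow_mul]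
  norm_num

theorem stdS_norm (n : ℕ) : ‖(stdS n).det‖ = 1 := by
  have h := congrArg norm (stdS_det n)
  rw [norm_pow, norm_one] at h
  have h2 := norm_nonneg (stdS n).det
  nlinarith

/-- the constant -/
def cD (n : ℕ) : ℂ := D n (stdS n) (stdS n)

theorem cD_ne (n : ℕ) : cD n ≠ 0 := by
  unfold cD D
  rw [fl_full rfl _ _ 0 (al 1)]
  exact F_std_ne rfl (stdS_alt n) (stdS_sq n)

theorem continuous_F {Y : Type*} [TopologicalSpace Y] {B : Y → Fin N → Mt (Fin N)}
    (h : ∀ k p q, Continuous fun y => B y k p q) : Continuous fun y => F (B y) := by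
  unfold F
  refine continuous_finsetSum _ fun π _ => continuous_const.mul ?_
  exact continuous_finsetProd _ fun k _ => h k _ _

/-- **the density of `(σ σ̄)^n`** -/
theorem F_det {n : ℕ} {S : Sq (2 * n)} (hS : Sᵀ = -S) (hd : S.det ≠ 0) :
    D n S (S.map conj) = cD n * ((‖S.det‖ : ℝ) : ℂ) := by
  set S₀ := stdS n with hS₀
  have h0 : S₀ᵀ = -S₀ := stdS_alt n
  have hd0 : S₀.det ^ 2 = 1 := stdS_det n
  have hne : S₀.det ≠ 0 := by
    intro h
    rw [h] at hd0
    norm_num at hd0
  set T := S - S₀ with hT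
  have hTt : Tᵀ = -T := by rw [hT, transpose_sub, h0, hS]; abel
  have hSt : ∀ z : ℂ, (S₀ + z • T)ᵀ = -(S₀ + z • T) := by
    intro z
    rw [transpose_add, transpose_smul, h0, hTt]
    module
  have hmc : ∀ R : Sq (2 * n), Rᵀ = -R → (R.map conj)ᵀ = -(R.map conj) := by
    intro R hR
    rw [← Matrix.transpose_map, hR]
    ext a b
    simp
  have hdc : ∀ R : Sq (2 * n), (R.map conj).det = conj R.det := by
    intro R
    rw [← RingHom.mapMatrix_apply, ← RingHom.map_det]
  obtain ⟨hop, hcon⟩ := omega_conn S₀ T hne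
  set Ω : Set ℂ := {z : ℂ | (S₀ + z • T).det ≠ 0} with hΩ
  set f : ℂ → ℂ := fun z => D n (S₀ + z • T) ((S₀ + z • T).map conj) /
    ((‖(S₀ + z • T).det‖ : ℝ) : ℂ) with hf
  have hcontS : ∀ a b, Continuous fun z : ℂ => (S₀ + z • T) a b := by
    intro a b
    have : (fun z : ℂ => (S₀ + z • T) a b) = fun z => S₀ a b + z * T a b := by
      funext z; simp
    rw [this]
    fun_prop
  have hcontD : Continuous fun z : ℂ => D n (S₀ + z • T) ((S₀ + z • T).map conj) := by
    unfold D
    refine continuous_F fun k p q => ?_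
    unfold fl
    split_ifs
    · unfold sg blk
      simp only [submatrix_apply]
      rcases eqv (2 * n) p with s | s <;> rcases eqv (2 * n) q with t | t
      · simpa using hcontS s t
      · simpa using continuous_const
      · simpa using continuous_const
      · simpa using continuous_const
    · unfold sb blk
      simp only [submatrix_apply]
      rcases eqv (2 * n) p with s | s <;> rcases eqv (2 * n) q with t | t
      · simpa using continuous_const
      · simpa using continuous_const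
      · simpa using continuous_const
      · exact Complex.continuous_conj.comp (hcontS s t)
    · exact continuous_const
  have hcontdet : Continuous fun z : ℂ => (S₀ + z • T).det :=
    Continuous.matrix_det (continuous_pi fun a => continuous_pi fun b => hcontS a b)
  have hfc : ContinuousOn f Ω := by
    refine ContinuousOn.div hcontD.continuousOn ?_ ?_
    · exact (Complex.continuous_ofReal.comp hcontdet.norm).continuousOn
    · intro z hz
      exact_mod_cast (norm_pos_iff.2 hz).ne'
  have hsq : Set.EqOn (f ^ 2) ((fun _ => cD n) ^ 2) Ω := by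
    intro z hz
    have hz' : (S₀ + z • T).det ≠ 0 := hz
    simp only [Pi.pow_apply, hf]
    rw [div_pow, D_sq h0 hd0 (hSt z) (hmc _ (hSt z)) hz' (by rw [hdc]; simpa using hz'), hdc,
      Complex.mul_conj, Complex.normSq_eq_norm_sq]
    have hn : ((‖(S₀ + z • T).det‖ : ℝ) : ℂ) ≠ 0 := by exact_mod_cast (norm_pos_iff.2 hz').ne'
    push_cast
    rw [mul_div_assoc, div_self (pow_ne_zero _ hn), mul_one]
    rfl
  have hz0 : (0 : ℂ) ∈ Ω := by
    show (S₀ + (0 : ℂ) • T).det ≠ 0
    rw [zero_smul, add_zero]; exact hne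
  have hz1 : (1 : ℂ) ∈ Ω := by
    show (S₀ + (1 : ℂ) • T).det ≠ 0
    rw [one_smul, hT, add_sub_cancel]; exact hd
  have hf0 : f 0 = cD n := by
    simp only [hf, zero_smul, add_zero]
    rw [hS₀, stdS_conj, stdS_norm]
    simp [cD]
  have hfinal := hcon.eq_of_sq_eq hfc continuousOn_const hsq (fun {x} _ => cD_ne n) hz0 hf0
  have h2 := hfinal hz1
  simp only [hf, one_smul] at h2
  rw [hT, add_sub_cancel] at h2
  have hn : ((‖S.det‖ : ℝ) : ℂ) ≠ 0 := by exact_mod_cast (norm_pos_iff.2 hd).ne'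
  rwa [div_eq_iff hn] at h2

end

end Crest.Agent.R281.DicK_273
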