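import Crest.Agent.R281.DicK_273
import Crest.Agent.R281.DicH_273
import Crest.Prelude.Def_CXIntegral

/-!
# R281 (S0424), HK-DIC part L (helper273): `wedgeTopEval` and mixed Pfaffians

* `Zm`          : the matrix of `(dz, dz̄)` on the real basis, `det Zm = (-2i)^N`
* `tabM β`      : the matrix of a 2-form on the real basis; `tab20`, `tab02`, `tab11`
* `wedge_nn`, `wedge_two`, `wedge_type` : the densities of `(σ σ̄)^n`, `(σ σ̄)^{n-1} α²`, and 0
-/

set_option autoImplicit false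
set_option linter.unusedSectionVars false

open Set Filter Topology Complex
open scoped ContDiff Matrix ComplexConjugate Manifold ComplexOrder

namespace Crest.Agent.R281.DicL_273

open Crest.Agent.R275.Geo
open Crest.Agent.R281.DicB_273 Crest.Agent.R281.DicI_273 Crest.Agent.R281.DicJ_273
open Crest.Agent.R281.DicK_273 Crest.Agent.R281.Defs_273
open Crest.CxGeometry (wedgeTopEval stdRealBasis)

noncomputable section

variable {N : ℕ}

/-- the matrix of a 2-form on the real basis -/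
def tabM (β : (Cn N) [⋀^Fin 2]→L[ℝ] ℂ) : Mt (Fin N) :=
  Matrix.of fun p q => β ![stdRealBasis N p, stdRealBasis N q]

theorem wedge_eq_F (β : Fin N → (Cn N) [⋀^Fin 2]→L[ℝ] ℂ) :
    wedgeTopEval β = (1 / (2 : ℂ) ^ N) * F (fun k => tabM (β k)) := rfl

/-- the 2x2 block -/
def w2 : Matrix (Fin 2) (Fin 2) ℂ := !![1, I; 1, -I]

/-- the matrix of `(dz, dz̄)` on the real basis -/
def Zm (N : ℕ) : Mt (Fin N) := Matrix.kroneckerMap (· * ·) (1 : Matrix (Fin N) (Fin N) ℂ) w2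

theorem Zm_apply (c a : Fin N) (s j : Fin 2) : Zm N (c, s) (a, j) = if c = a then w2 s j else 0 := by
  unfold Zm
  rw [Matrix.kroneckerMap_apply, Matrix.one_apply]
  split_ifs <;> simp

theorem det_Zm : (Zm N).det = (-(2 * I)) ^ N := by
  unfold Zm
  have h := Matrix.det_kronecker (1 : Matrix (Fin N) (Fin N) ℂ) w2
  rw [Matrix.det_one, one_pow, one_mul, Fintype.card_fin] at h
  have h2 : w2.det = -(2 * I) := by
    rw [w2, Matrix.det_fin_two_of]
    ring
  rw [← h2]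
  exact h

/-- congruence by `Zm` -/
theorem Zm_cong (B : Mt (Fin N)) (a b : Fin N) (j j' : Fin 2) :
    ((Zm N)ᵀ * B * Zm N) (a, j) (b, j') =
      ∑ s, ∑ t, w2 s j * B (a, s) (b, t) * w2 t j' := by
  rw [Matrix.mul_apply, Fintype.sum_prod_type, Finset.sum_eq_single b]
  · have h1 : ∀ t, ((Zm N)ᵀ * B) (a, j) (b, t) = ∑ s, w2 s j * B (a, s) (b, t) := by
      intro t
      rw [Matrix.mul_apply, Fintype.sum_prod_type, Finset.sum_eq_single a]
      · refine Finset.sum_congr rfl fun s _ => ?_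
        rw [Matrix.transpose_apply, Zm_apply, if_pos rfl]
      · intro c _ hc
        refine Finset.sum_eq_zero fun s _ => ?_
        rw [Matrix.transpose_apply, Zm_apply, if_neg hc, zero_mul]
      · intro h
        exact absurd (Finset.mem_univ a) h
    rw [Finset.sum_comm]
    refine Finset.sum_congr rfl fun t _ => ?_
    rw [h1, Zm_apply, if_pos rfl, Finset.sum_mul]
  · intro c _ hc
    refine Finset.sum_eq_zero fun s _ => ?_
    rw [Zm_apply, if_neg hc, mul_zero]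
  · intro h
    exact absurd (Finset.mem_univ b) h

theorem blk_00 (P Q R T : Sq N) (a b : Fin N) : blk P Q R T (a, 0) (b, 0) = P a b := rfl
theorem blk_01 (P Q R T : Sq N) (a b : Fin N) : blk P Q R T (a, 0) (b, 1) = Q a b := rfl
theorem blk_10 (P Q R T : Sq N) (a b : Fin N) : blk P Q R T (a, 1) (b, 0) = R a b := rfl
theorem blk_11 (P Q R T : Sq N) (a b : Fin N) : blk P Q R T (a, 1) (b, 1) = T a b := rfl

theorem w2_00 : w2 0 0 = 1 := rfl
theorem w2_01 : w2 0 1 = I := rfl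
theorem w2_10 : w2 1 0 = 1 := rfl
theorem w2_11 : w2 1 1 = -I := rfl

theorem Zm_blk (P Q R T : Sq N) (a b : Fin N) (j j' : Fin 2) :
    ((Zm N)ᵀ * blk P Q R T * Zm N) (a, j) (b, j') =
      w2 0 j * P a b * w2 0 j' + w2 0 j * Q a b * w2 1 j' +
        (w2 1 j * R a b * w2 0 j' + w2 1 j * T a b * w2 1 j') := by
  rw [Zm_cong, Fin.sum_univ_two, Fin.sum_univ_two, Fin.sum_univ_two, blk_00, blk_01, blk_10, blk_11]

theorem srb_zero (a : Fin N) : stdRealBasis N (a, 0) = bs a := rfl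

theorem srb_one (a : Fin N) : stdRealBasis N (a, 1) = I • bs a := by
  have : stdRealBasis N (a, 1) = EuclideanSpace.single a I := rfl
  rw [this, Crest.Agent.R281.DicD_273.single_I]

theorem tabM_apply (β : (Cn N) [⋀^Fin 2]→L[ℝ] ℂ) (p q : Fin N × Fin 2) :
    tabM β p q = β ![stdRealBasis N p, stdRealBasis N q] := rfl

theorem tab20 {β : (Cn N) [⋀^Fin 2]→L[ℝ] ℂ} (h : T20 β) :
    tabM β = (Zm N)ᵀ * sg (mat20 β) * Zm N := by
  ext ⟨a, j⟩ ⟨b, j'⟩
  rw [Zm_blk, tabM_apply]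
  have hm : mat20 β a b = β ![bs a, bs b] := rfl
  fin_cases j <;> fin_cases j'
  · simp only [Fin.zero_eta, srb_zero, w2_00, w2_10, hm, Matrix.zero_apply]
    ring
  · simp only [Fin.zero_eta, Fin.mk_one, srb_zero, srb_one, w2_00, w2_10, w2_01, w2_11, hm,
      Matrix.zero_apply, h.right]
    ring
  · simp only [Fin.zero_eta, Fin.mk_one, srb_zero, srb_one, w2_00, w2_10, w2_01, w2_11, hm,
      Matrix.zero_apply, h _ _ _]
    ring
  · simp only [Fin.mk_one, srb_one, w2_01, w2_11, hm, Matrix.zero_apply, h.right, h _ _ _]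
    ring

/-- conjugate of a form -/
def cj2 (β : (Cn N) [⋀^Fin 2]→L[ℝ] ℂ) : (Cn N) [⋀^Fin 2]→L[ℝ] ℂ :=
  (Complex.conjCLE : ℂ ≃L[ℝ] ℂ).toContinuousLinearMap.compContinuousAlternatingMap β

theorem cj2_apply (β : (Cn N) [⋀^Fin 2]→L[ℝ] ℂ) (v : Fin 2 → Cn N) : cj2 β v = conj (β v) := rfl

theorem tab02 {β : (Cn N) [⋀^Fin 2]→L[ℝ] ℂ} (h : T20 β) :
    tabM (cj2 β) = (Zm N)ᵀ * sb ((mat20 β).map conj) * Zm N := by
  ext ⟨a, j⟩ ⟨b, j'⟩
  rw [Zm_blk, tabM_apply, cj2_apply]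
  have hm : ((mat20 β).map conj) a b = conj (β ![bs a, bs b]) := rfl
  fin_cases j <;> fin_cases j'
  · simp only [Fin.zero_eta, srb_zero, w2_00, w2_10, hm, Matrix.zero_apply]
    ring
  · simp only [Fin.zero_eta, Fin.mk_one, srb_zero, srb_one, w2_00, w2_10, w2_01, w2_11, hm,
      Matrix.zero_apply, h.right, map_mul, Complex.conj_I]
    ring
  · simp only [Fin.zero_eta, Fin.mk_one, srb_zero, srb_one, w2_00, w2_10, w2_01, w2_11, hm,
      Matrix.zero_apply, h _ _ _, map_mul, Complex.conj_I]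
    ring
  · simp only [Fin.mk_one, srb_one, w2_01, w2_11, hm, Matrix.zero_apply, h.right, h _ _ _, map_mul,
      Complex.conj_I]
    ring

theorem tab11 {β : (Cn N) [⋀^Fin 2]→L[ℝ] ℂ} (h : T11 β) :
    tabM β = (Zm N)ᵀ * al ((I / (2 * Real.pi)) • mat11 β) * Zm N := by
  ext ⟨a, j⟩ ⟨b, j'⟩
  rw [Zm_blk, tabM_apply]
  have hpi : (Real.pi : ℂ) ≠ 0 := by exact_mod_cast Real.pi_ne_zero
  have hab : ((I / (2 * Real.pi) : ℂ) • mat11 β) a b =
      (I / 2) * (β ![bs a, I • bs b] - I * β ![bs a, bs b]) := by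
    rw [Matrix.smul_apply, mat11_apply, smul_eq_mul]
    field_simp
  have hba : (-((I / (2 * Real.pi) : ℂ) • mat11 β)ᵀ) a b =
      -(I / 2) * (β ![bs a, I • bs b] + I * β ![bs a, bs b]) := by
    rw [Matrix.neg_apply, Matrix.transpose_apply, Matrix.smul_apply, mat11_apply, smul_eq_mul]
    have h1 : β ![bs b, I • bs a] = β ![bs a, I • bs b] := by
      rw [f2_swap, h.J_left, neg_neg]
    rw [h1, f2_swap β (bs a) (bs b)]
    field_simp
    ring
  rw [hab, hba]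
  simp only [Matrix.zero_apply]
  fin_cases j <;> fin_cases j'
  · simp only [Fin.zero_eta, srb_zero, w2_00, w2_10]
    linear_combination (β ![bs a, bs b]) * I_sq
  · simp only [Fin.zero_eta, Fin.mk_one, srb_zero, srb_one, w2_00, w2_10, w2_01, w2_11]
    linear_combination (β ![bs a, I • bs b]) * I_sq
  · simp only [Fin.zero_eta, Fin.mk_one, srb_zero, srb_one, w2_00, w2_10, w2_01, w2_11,
      h.J_left]
    linear_combination (-β ![bs a, I • bs b]) * I_sq
  · simp only [Fin.mk_one, srb_one, w2_01, w2_11, h _ _]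
    linear_combination (β ![bs a, bs b] * (1 - I ^ 2)) * I_sq

/-! ### factor lists of forms -/

/-- the factor list of forms -/
def ff (a b : ℕ) (σ τ α : (Cn N) [⋀^Fin 2]→L[ℝ] ℂ) : Fin N → (Cn N) [⋀^Fin 2]→L[ℝ] ℂ := fun k =>
  if k.val < a then σ else if k.val < a + b then τ else α

theorem wedge_ff {σ α : (Cn N) [⋀^Fin 2]→L[ℝ] ℂ} (hσ : T20 σ) (hα : T11 α) (a b : ℕ) :
    wedgeTopEval (ff a b σ (cj2 σ) α) = (-I) ^ N *
      F (fl a b (sg (mat20 σ)) (sb ((mat20 σ).map conj)) (al ((I / (2 * Real.pi)) • mat11 α))) := by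
  rw [wedge_eq_F]
  have h1 : (fun k => tabM (ff a b σ (cj2 σ) α k)) = fun k => (Zm N)ᵀ *
      (fl a b (sg (mat20 σ)) (sb ((mat20 σ).map conj)) (al ((I / (2 * Real.pi)) • mat11 α))) k *
        Zm N := by
    funext k
    unfold ff fl
    split_ifs
    · exact tab20 hσ
    · exact tab02 hσ
    · exact tab11 hα
  rw [h1, F_cong, det_Zm, ← mul_assoc]
  congr 1
  rw [one_div, ← inv_pow, ← mul_pow]
  congr 1
  ring

/-- the constant of the density of `(σ σ̄)^n` -/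
def kap (n : ℕ) : ℂ := (-I) ^ (2 * n) * cD n

theorem kap_ne (n : ℕ) : kap n ≠ 0 :=
  mul_ne_zero (pow_ne_zero _ (neg_ne_zero.2 I_ne_zero)) (cD_ne n)

variable {n : ℕ}

theorem wedge_nn {σ α : (Cn (2 * n)) [⋀^Fin 2]→L[ℝ] ℂ} (hσ : T20 σ) (hα : T11 α)
    (hd : (mat20 σ).det ≠ 0) :
    wedgeTopEval (ff n n σ (cj2 σ) α) = kap n * ((‖(mat20 σ).det‖ : ℝ) : ℂ) := by
  rw [wedge_ff hσ hα, fl_full rfl _ _ _ 0]
  have := F_det (mat20_alt σ) hd
  unfold D at this
  rw [this, kap, mul_assoc]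

theorem wedge_two (hn : 1 ≤ n) {σ α : (Cn (2 * n)) [⋀^Fin 2]→L[ℝ] ℂ} (hσ : T20 σ) (hα : T11 α)
    (hd : (mat20 σ).det ≠ 0) :
    wedgeTopEval (ff (n - 1) (n - 1) σ (cj2 σ) α) =
      kap n / (4 * Real.pi ^ 2 * (n : ℂ) ^ 2) * qm (mat20 σ) (mat11 α) (mat11 α) := by
  set S := mat20 σ with hS
  set M := mat11 α with hM
  have hSt : Sᵀ = -S := mat20_alt σ
  have hSc : (S.map conj)ᵀ = -(S.map conj) := by
    rw [← Matrix.transpose_map, hSt]
    ext a b
    simp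
  have hdc : (S.map conj).det ≠ 0 := by
    rw [← RingHom.mapMatrix_apply, ← RingHom.map_det]
    simpa using hd
  have h1 := F_two hn rfl hSt hSc (isUnit_iff_ne_zero.2 hd) (isUnit_iff_ne_zero.2 hdc) 0
    (H := (I / (2 * Real.pi)) • M)
  have h2 := F_det hSt hd
  unfold D at h2
  rw [h2] at h1
  rw [wedge_ff hσ hα, ← hS, ← hM]
  have hpi : (Real.pi : ℂ) ≠ 0 := by exact_mod_cast Real.pi_ne_zero
  have hnc : (n : ℂ) ≠ 0 := by exact_mod_cast (by omega : n ≠ 0)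
  have h3 : ((S.map conj)⁻¹ * ((I / (2 * Real.pi) : ℂ) • M)ᵀ * S⁻¹ *
      ((I / (2 * Real.pi) : ℂ) • M)).trace =
      -(1 / (4 * Real.pi ^ 2)) * (S⁻¹ * M * (S.map conj)⁻¹ * Mᵀ).trace := by
    rw [Matrix.transpose_smul]
    simp only [Matrix.mul_smul, Matrix.smul_mul, Matrix.trace_smul, smul_smul, smul_eq_mul]
    have h4 : ((S.map conj)⁻¹ * Mᵀ * S⁻¹ * M).trace = (S⁻¹ * M * (S.map conj)⁻¹ * Mᵀ).trace := by
      rw [Matrix.mul_assoc ((S.map conj)⁻¹ * Mᵀ), Matrix.trace_mul_comm, ← Matrix.mul_assoc]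
    rw [h4]
    field_simp
    rw [I_sq]
    ring
  rw [h3] at h1
  unfold qm kap
  have h5 : F (fl (n - 1) (n - 1) (sg S) (sb (S.map conj)) (al ((I / (2 * Real.pi)) • M))) =
      -(1 / (4 * Real.pi ^ 2)) * (S⁻¹ * M * (S.map conj)⁻¹ * Mᵀ).trace *
        (cD n * ((‖S.det‖ : ℝ) : ℂ)) / (n : ℂ) ^ 2 := by
    rw [eq_div_iff (pow_ne_zero _ hnc), mul_comm]
    exact h1
  rw [h5]
  field_simp

theorem wedge_type {σ α : (Cn N) [⋀^Fin 2]→L[ℝ] ℂ} (hσ : T20 σ) (hα : T11 α) {a b : ℕ}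
    (h : a + b ≤ N) (hab : a ≠ b) : wedgeTopEval (ff a b σ (cj2 σ) α) = 0 := by
  rw [wedge_ff hσ hα, F_type h hab, mul_zero]

end

end Crest.Agent.R281.DicL_273
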