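import Crest.Agent.R281.DicL_273
import Crest.Agent.R281.Dci3_699

/-!
# R281 (S0424), HK-DIC part M (helper273): smoothness of the Chern form, isotropy

* `th a b`, `frm11`  : `β = frm11 (mat11 β)` for `β` of type `(1,1)`
* `chern_smooth`     : the frozen Chern form is smooth
* `iso_of`           : the frozen isotropy gives `Isotropic`
-/

set_option autoImplicit false
set_option linter.unusedSectionVars false

open Set Filter Topology Complex
open scoped ContDiff Matrix ComplexConjugate Manifold ComplexOrder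

namespace Crest.Agent.R281.DicM_273

open Crest.Agent.R275.Geo Crest.Agent.R275.Core144 Crest.Agent.R275.EDR890
open Crest.Agent.R273.Defs_333 Crest.Agent.R273.Kah_333 Crest.Agent.R273.HessB_333
open Crest.Agent.R273.StokesV_332 (Den intD intD_congr intD_smul NonnegD eq_zero_of_intD offK_univ)
open Crest.Agent.R281.DicA_273 Crest.Agent.R281.Defs_273 Crest.Agent.R281.DicB_273
open Crest.Agent.R281.DicC_273 Crest.Agent.R281.DicD_273 Crest.Agent.R281.DicE_273
open Crest.Agent.R281.DicF_273 Crest.Agent.R281.DicG_273 Crest.Agent.R281.DicH_273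
open Crest.Agent.R281.DicL_273
open Crest.CxGeometry (Form chartRep transDeriv chartWindow HolLineBundle)

noncomputable section

universe u

section Algebra

variable {n : ℕ}

/-- `(v,w) ↦ (i/2π)(v_a conj w_b - w_a conj v_b)` -/
def th (a b : Fin n) : (Cn n) [⋀^Fin 2]→L[ℝ] ℂ :=
  (I / (2 * Real.pi)) • Crest.CxGeometry.ofBilin
    (((EuclideanSpace.proj a : Cn n →L[ℂ] ℂ).restrictScalars ℝ).smulRight
      ((Complex.conjCLE : ℂ ≃L[ℝ] ℂ).toContinuousLinearMap.comp
        ((EuclideanSpace.proj b : Cn n →L[ℂ] ℂ).restrictScalars ℝ) : Cn n →L[ℝ] ℂ))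

theorem th_apply (a b : Fin n) (v w : Cn n) :
    th a b ![v, w] = (I / (2 * Real.pi)) * (v a * conj (w b) - w a * conj (v b)) := by
  unfold th Crest.CxGeometry.ofBilin
  rw [ContinuousAlternatingMap.smul_apply, alt2]
  simp

/-- the `(1,1)`-form of a matrix -/
def frm11 (S : Matrix (Fin n) (Fin n) ℂ) : (Cn n) [⋀^Fin 2]→L[ℝ] ℂ :=
  ∑ a, ∑ b, S a b • th a b

theorem frm11_apply (S : Matrix (Fin n) (Fin n) ℂ) (v w : Cn n) :
    frm11 S ![v, w] = (I / (2 * Real.pi)) *
      (∑ a, ∑ b, S a b * v a * conj (w b) - ∑ a, ∑ b, S a b * w a * conj (v b)) := by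
  unfold frm11
  simp only [ContinuousAlternatingMap.sum_apply, ContinuousAlternatingMap.smul_apply, th_apply,
    smul_eq_mul]
  rw [← Finset.sum_sub_distrib, Finset.mul_sum]
  refine Finset.sum_congr rfl fun a _ => ?_
  rw [← Finset.sum_sub_distrib, Finset.mul_sum]
  refine Finset.sum_congr rfl fun b _ => ?_
  ring

theorem eq_frm11 {β : (Cn n) [⋀^Fin 2]→L[ℝ] ℂ} (h : T11 β) : β = frm11 (mat11 β) := by
  refine f2_ext fun v w => ?_
  rw [frm11_apply, ← h.ses_eq, ← h.ses_eq]
  unfold ses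
  have h1 : β ![w, I • v] = β ![v, I • w] := by
    rw [f2_swap, h.J_left, neg_neg]
  rw [h1, f2_swap β v w]
  have hpi : (Real.pi : ℂ) ≠ 0 := by exact_mod_cast Real.pi_ne_zero
  field_simp
  linear_combination (2 * β ![v, w]) * I_sq

theorem cd_frm11 {r : WithTop ℕ∞} {S : Cn n → Matrix (Fin n) (Fin n) ℂ} {w : Cn n}
    (h : ∀ a b, ContDiffAt ℝ r (fun v => S v a b) w) :
    ContDiffAt ℝ r (fun v => frm11 (S v)) w := by
  unfold frm11
  exact ContDiffAt.sum fun a _ => ContDiffAt.sum fun b _ => (h a b).smul contDiffAt_const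

theorem cd_mul {r : WithTop ℕ∞} {P Q : Cn n → Matrix (Fin n) (Fin n) ℂ} {w : Cn n}
    (hP : ∀ a b, ContDiffAt ℝ r (fun v => P v a b) w)
    (hQ : ∀ a b, ContDiffAt ℝ r (fun v => Q v a b) w) (a b : Fin n) :
    ContDiffAt ℝ r (fun v => (P v * Q v) a b) w := by
  simp only [Matrix.mul_apply]
  exact ContDiffAt.sum fun c _ => (hP a c).mul (hQ c b)

end Algebra

variable {n k : ℕ} {X : Type u} [TopologicalSpace X] [ChartedSpace (Cn n) X]
  [IsManifold 𝓘(ℂ, Cn n) ω X] {M : Type} [TopologicalSpace M] {A : Atl n M} {K : Lk A X}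
  {L : HolLineBundle n X} (J : Idx K L)

/-- the representative in a preferred chart from the one in a chart of `A` -/
theorem chartRep_rp (K : Lk A X) (α : Form n X k) (i : A.ι) (x₀ : X) {w : Cn n}
    (hw : w ∈ Wd K x₀ i) : chartRep α x₀ w =
      pb (fderiv ℂ (Fc K x₀ i) w) (rp K α i (K.g.symm ((chartAt (Cn n) x₀).symm w))) := by
  have h1 : chartRep α x₀ w = pb (fderiv ℂ (fun v => chartAt (Cn n)
      ((chartAt (Cn n) x₀).symm w) ((chartAt (Cn n) x₀).symm v)) w)
        (α ((chartAt (Cn n) x₀).symm w)) := by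
    unfold Crest.CxGeometry.chartRep
    rw [transDeriv_eq x₀ hw.1]
    rfl
  rw [h1, ← Fc_chain K i x₀ hw]
  unfold rp
  rw [pb_comp, ← ContinuousLinearMap.comp_assoc, tD_tE K hw.2, ContinuousLinearMap.id_comp,
    K.g.apply_symm_apply]

theorem hol_cd {f : Cn n → ℂ} {S : Set (Cn n)} (hS : IsOpen S)
    (hf : ∀ w ∈ S, DifferentiableAt ℂ f w) {w : Cn n} (hw : w ∈ S) : ContDiffAt ℝ ∞ f w :=
  (((Crest.Agent.R266.SCV.contDiffOn_omega_of_differentiableOn hS
    fun w hw => (hf w hw).differentiableWithinAt).restrict_scalars ℝ).of_le le_top).contDiffAt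
      (hS.mem_nhds hw)

theorem cd_conj {r : WithTop ℕ∞} {f : Cn n → ℂ} {w : Cn n} (h : ContDiffAt ℝ r f w) :
    ContDiffAt ℝ r (fun v => conj (f v)) w :=
  (Complex.conjCLE.contDiff.contDiffAt).comp w h

/-! ### the glued Chern form -/

theorem idx_mem (y : X) : y ∈ L.U (L.idx y) := Classical.choose_spec (L.covers y)

theorem chernForm_apply (h : L.HermMetric) (y : X) :
    h.chernForm y = h.chernFormOn (L.idx y) y := rfl

theorem rp_chern (h : L.HermMetric) (i : A.ι) (x : M) :
    rp K h.chernForm i x = rp K (h.chernFormOn (L.idx (K.g x))) i x := by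
  unfold rp
  rw [chernForm_apply]

theorem cf11 (h : L.HermMetric) (i : A.ι) (x : M) : T11 (rp K h.chernForm i x) := by
  rw [rp_chern]
  exact chern_t11 h (L.idx (K.g x)) i x

theorem mat11_chernForm (h : L.HermMetric) {i : A.ι} {x : M} (hx : x ∈ (A.e i).source) :
    mat11 (rp K h.chernForm i x) = cur (toHM J h) i x := by
  rw [rp_chern]
  exact mat11_chern J h (j := L.idx (K.g x)) hx (idx_mem _)

include J in
theorem chern_smooth (h : L.HermMetric) : Crest.CxGeometry.IsSmoothOn h.chernForm univ := by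
  intro x₀ w hw
  apply ContDiffAt.contDiffWithinAt
  set i := ki K ((chartAt (Cn n) x₀).symm w) with hi
  have hwi : w ∈ Wd K x₀ i := ⟨hw.1, ki_mem K _⟩
  have h1 : chartRep h.chernForm x₀ =ᶠ[𝓝 w] fun w => frm11 ((mx (fderiv ℂ (Fc K x₀ i) w))ᵀ *
      cur (toHM J h) i ((A.e i).symm (Fc K x₀ i w)) *
        (mx (fderiv ℂ (Fc K x₀ i) w)).map conj) := by
    filter_upwards [(isOpen_Wd K x₀ i).mem_nhds hwi] with v hv
    rw [chartRep_rp K _ i x₀ hv, eq_frm11 (T11.pb (cf11 h i _) _), T11.mat11_pb (cf11 h i _),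
      mat11_chernForm J h hv.2, Fc_symm K hv]
  refine ContDiffAt.congr_of_eventuallyEq ?_ h1
  have hG : ∀ a b, ContDiffAt ℝ ∞ (fun v => mx (fderiv ℂ (Fc K x₀ i) v) a b) w := fun a b =>
    hol_cd (isOpen_Wd K x₀ i) (fun v hv => Fc_mx_diff K i x₀ hv a b) hwi
  refine cd_frm11 fun a b => cd_mul (fun a b => cd_mul (fun a b => hG b a) (fun a b => ?_) a b)
    (fun a b => cd_conj (hG a b)) a b
  have h2 : ContDiffAt ℝ ∞ (fun z => cur (toHM J h) i ((A.e i).symm z) a b) (Fc K x₀ i w) :=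
    (cur_smooth (toHM J h) i a b).contDiffAt ((A.e i).open_target.mem_nhds (Fc_mem K hwi))
  exact ContDiffAt.comp (g := fun z => cur (toHM J h) i ((A.e i).symm z) a b) w h2
    (Fc_contDiffAt K i x₀ hwi)

/-! ### the symplectic form and its conjugate -/

theorem smooth_of_hol {α : Form n X k} (hα : Crest.CxGeometry.IsHolomorphicOn α univ) :
    Crest.CxGeometry.IsSmoothOn α univ := fun x₀ => by
  have ho : IsOpen (chartWindow x₀ (univ : Set X)) :=
    (chartAt (Cn n) x₀).isOpen_inter_preimage_symm isOpen_univ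
  exact ((Crest.Agent.R266.SCV.contDiffOn_omega_of_differentiableOn ho
    (hα.2 x₀)).restrict_scalars ℝ).of_le le_top

theorem smooth_conj {α : Form n X k} (hα : Crest.CxGeometry.IsSmoothOn α univ) :
    Crest.CxGeometry.IsSmoothOn (Crest.CxGeometry.conjForm α) univ := fun x₀ => by
  have h1 : chartRep (Crest.CxGeometry.conjForm α) x₀ = fun w =>
      ContinuousLinearMap.compContinuousAlternatingMapCLM ℝ (Cn n) ℂ ℂ (Fin k)
        (Complex.conjCLE : ℂ ≃L[ℝ] ℂ).toContinuousLinearMap (chartRep α x₀ w) := by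
    funext w
    ext v
    rfl
  rw [h1]
  exact (ContinuousLinearMap.contDiff _).comp_contDiffOn (hα x₀)

theorem rp_conj (K : Lk A X) (α : Form n X 2) (i : A.ι) (x : M) :
    rp K (Crest.CxGeometry.conjForm α) i x = cj2 (rp K α i x) := rfl

end

end Crest.Agent.R281.DicM_273
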