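import Crest.Agent.R281.DicM_273

/-!
# R281 (S0424), HK-DIC part N (helper273): isotropy

* `iso_of` : the frozen isotropy (`bbfQuadratic = 0` for all metrics) gives `Isotropic`
* `exists_cp` : chart partitions exist on compact Hausdorff manifolds
-/

set_option autoImplicit false
set_option linter.unusedSectionVars false

open Set Filter Topology Complex
open scoped ContDiff Matrix ComplexConjugate Manifold ComplexOrder

namespace Crest.Agent.R281.DicN_273

open Crest.Agent.R275.Geo Crest.Agent.R275.Core144 Crest.Agent.R275.EDR890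
open Crest.Agent.R273.Defs_333 Crest.Agent.R273.Kah_333 Crest.Agent.R273.HessB_333
open Crest.Agent.R273.StokesV_332 (Den intD intD_congr intD_smul NonnegD eq_zero_of_intD offK_univ
  intD_zero)
open Crest.Agent.R281.DicA_273 Crest.Agent.R281.Defs_273 Crest.Agent.R281.DicB_273
open Crest.Agent.R281.DicC_273 Crest.Agent.R281.DicD_273 Crest.Agent.R281.DicE_273
open Crest.Agent.R281.DicF_273 Crest.Agent.R281.DicG_273 Crest.Agent.R281.DicH_273
open Crest.Agent.R281.DicL_273 Crest.Agent.R281.DicM_273
open Crest.CxGeometry (Form chartRep transDeriv chartWindow HolLineBundle wedgeTopEval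
  ChartPartition integralTop factorList conjForm bbfQuadratic IsSmoothOn IsHolSymplectic)

noncomputable section

universe u

section CP

variable {n : ℕ} {X : Type u} [TopologicalSpace X] [ChartedSpace (Cn n) X]
  [IsManifold 𝓘(ℂ, Cn n) ω X]

variable (n X) in
theorem exists_cp [CompactSpace X] [T2Space X] : Nonempty (ChartPartition n X) := by
  obtain ⟨f, hf⟩ := PartitionOfUnity.exists_isSubordinate (isClosed_univ (X := X))
    (fun c : X => (chartAt (Cn n) c).source) (fun c => (chartAt (Cn n) c).open_source)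
    (fun x _ => mem_iUnion.2 ⟨x, mem_chart_source (Cn n) x⟩)
  exact ⟨⟨f, hf⟩⟩

end CP

section Factor

variable {n : ℕ} {X : Type u} [TopologicalSpace X] [ChartedSpace (Cn n) X]
  [IsManifold 𝓘(ℂ, Cn n) ω X] {M : Type} [TopologicalSpace M] {A : Atl n M} (K : Lk A X)

theorem wd_factor (σ α : Form n X 2) (a b : ℕ) (i : A.ι) (x : M) :
    Dci2_699.wd K (factorList a b σ (conjForm σ) α) i x =
      wedgeTopEval (ff a b (rp K σ i x) (cj2 (rp K σ i x)) (rp K α i x)) := by
  unfold Dci2_699.wd
  congr 1
  funext k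
  unfold factorList ff
  split_ifs <;> rfl

theorem smooth_factor {σ α : Form n X 2} (hσ : IsSmoothOn σ univ) (hα : IsSmoothOn α univ)
    (a b : ℕ) (k : Fin n) : IsSmoothOn (factorList a b σ (conjForm σ) α k) univ := by
  unfold factorList
  split_ifs
  · exact hσ
  · exact smooth_conj hσ
  · exact hα

end Factor

variable {n : ℕ} {X : Type u} [TopologicalSpace X] [ChartedSpace (Cn (2 * n)) X]
  [IsManifold 𝓘(ℂ, Cn (2 * n)) ω X] {M : Type} [TopologicalSpace M] {A : Atl (2 * n) M}
  {K : Lk A X} {L : HolLineBundle (2 * n) X} (J : Idx K L)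

variable [T2Space M] [CompactSpace M] [Finite A.ι]

/-- **isotropy** -/
theorem iso_of [Nonempty M] (hn : 1 ≤ n) (Q : Part A) {σ : Form (2 * n) X 2}
    (hσ : IsHolSymplectic σ) (P : ChartPartition (2 * n) X)
    (hiso : ∀ h : L.HermMetric, bbfQuadratic P σ h.chernForm = 0) :
    Isotropic Q (hsympOf K hσ) (lbOf J) := by
  intro h'
  set h := backHM J h' with hh
  have hb := hiso h
  have hsm : IsSmoothOn h.chernForm univ := chern_smooth J h
  have hs0 : IsSmoothOn σ univ := smooth_of_hol hσ.1
  have h20 : ∀ i x, T20 (rp K σ i x) := fun i x => t20_rp K hσ.1.1 i x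
  have h11 : ∀ i x, T11 (rp K h.chernForm i x) := fun i x => cf11 h i x
  have hnd : ∀ i, ∀ x ∈ (A.e i).source, (mat20 (rp K σ i x)).det ≠ 0 := (hsympOf K hσ).nd
  have hI : ∀ a b, integralTop P (factorList a b σ (conjForm σ) h.chernForm) =
      intD Q (Dci2_699.wd K (factorList a b σ (conjForm σ) h.chernForm)) := fun a b =>
    Dci3_699.integralTop_eq K (smooth_factor hs0 hsm a b) P Q
  -- the three integrals
  have e1 : Den A (Dci2_699.wd K (factorList n n σ (conjForm σ) h.chernForm)) :=
    Dci2_699.wd_den K (smooth_factor hs0 hsm n n)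
  have n1 : integralTop P (factorList n n σ (conjForm σ) h.chernForm) ≠ 0 := by
    rw [hI]
    intro h0
    have hv : ∀ i, ∀ x ∈ (A.e i).source, (kap n)⁻¹ *
        Dci2_699.wd K (factorList n n σ (conjForm σ) h.chernForm) i x =
        ((‖(mat20 (rp K σ i x)).det‖ : ℝ) : ℂ) := by
      intro i x hx
      rw [wd_factor, wedge_nn (h20 i x) (h11 i x) (hnd i x hx), ← mul_assoc,
        inv_mul_cancel₀ (kap_ne n), one_mul]
    have h1 := eq_zero_of_intD Q (e1.smul (kap n)⁻¹) (fun i x hx => by
      rw [hv i x hx]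
      exact ⟨by rw [Complex.ofReal_re]; exact norm_nonneg _, Complex.ofReal_im _⟩)
      isCompact_univ (offK_univ _) (by
        rw [intD_smul Q _ isCompact_univ (offK_univ _), h0, mul_zero]
        rfl)
    obtain ⟨x⟩ := ‹Nonempty M›
    obtain ⟨i, hi⟩ := A.cover x
    have h2 := h1 i x hi
    rw [hv i x hi] at h2
    have h3 : ‖(mat20 (rp K σ i x)).det‖ = 0 := by exact_mod_cast h2
    exact hnd i x hi (norm_eq_zero.1 h3)
  have e2 : integralTop P (factorList (n - 1) (n - 1) σ (conjForm σ) h.chernForm) =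
      kap n / (4 * Real.pi ^ 2 * (n : ℂ) ^ 2) *
        intD Q (qd (hsympOf K hσ) (cur h') (cur h')) := by
    rw [hI, ← intD_smul Q _ isCompact_univ (offK_univ _)]
    refine intD_congr Q fun i x hx => ?_
    rw [wd_factor, wedge_two hn (h20 i x) (h11 i x) (hnd i x hx), mat11_chernForm J h hx,
      hh, cur_toHM_back J h' hx]
    rfl
  have e3 : integralTop P (factorList (n - 1) n σ (conjForm σ) h.chernForm) = 0 := by
    rw [hI, ← intD_zero Q]
    refine intD_congr Q fun i x hx => ?_
    rw [wd_factor, wedge_type (h20 i x) (h11 i x) (by omega) (by omega)]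
  unfold bbfQuadratic at hb
  rw [Nat.mul_div_cancel_left n two_pos, e3, e2, mul_zero, zero_mul, add_zero] at hb
  have hnc : (n : ℂ) ≠ 0 := by exact_mod_cast (by omega : n ≠ 0)
  have hpi : (Real.pi : ℂ) ≠ 0 := by exact_mod_cast Real.pi_ne_zero
  have h5 : kap n / (4 * Real.pi ^ 2 * (n : ℂ) ^ 2) ≠ 0 :=
    div_ne_zero (kap_ne n) (mul_ne_zero (mul_ne_zero four_ne_zero (pow_ne_zero _ hpi))
      (pow_ne_zero _ hnc))
  rcases mul_eq_zero.1 hb with h6 | h6
  · rcases mul_eq_zero.1 h6 with h7 | h7
    · exact absurd h7 (div_ne_zero hnc two_ne_zero)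
    · exact absurd h7 n1
  · rcases mul_eq_zero.1 h6 with h7 | h7
    · exact absurd h7 h5
    · exact h7

end

end Crest.Agent.R281.DicN_273
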