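import Crest.Agent.R281.DicN_273

/-!
# R281 (S0424), HK-DIC part O (helper273): `Main281 → S0424`

`of_main : Main281 → ` the frozen statement.
-/

set_option autoImplicit false
set_option linter.unusedSectionVars false

open Set Filter Topology Complex
open scoped ContDiff Manifold

namespace Crest.Agent.R281.DicO_273

open Crest.Agent.R275.Geo Crest.Agent.R275.GC293
open Crest.Agent.R281.DicA_273 Crest.Agent.R281.Defs_273 Crest.Agent.R281.DicD_273
open Crest.Agent.R281.DicE_273 Crest.Agent.R281.DicF_273 Crest.Agent.R281.DicG_273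
open Crest.Agent.R281.DicH_273 Crest.Agent.R281.DicN_273
open Crest.CxGeometry (Form HolLineBundle ChartPartition bbfQuadratic IsHolSymplectic
  IsIrreducibleHolSymplectic)

universe u

set_option maxHeartbeats 1000000 in
/-- **the frozen statement from the atlas form** -/
theorem of_main (hM : Main281)
    {n : ℕ} {X : Type u} [TopologicalSpace X] [ChartedSpace (Cn (2 * n)) X]
    [IsManifold 𝓘(ℂ, Cn (2 * n)) ω X] [CompactSpace X] [T2Space X]
    (hn : 1 ≤ n) (hX : IsIrreducibleHolSymplectic (2 * n) X)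
    (L : HolLineBundle (2 * n) X) (hnef : L.IsNef) (hc1 : L.ChernClassNeZero)
    (hiso : ∀ σ : Form (2 * n) X 2, IsHolSymplectic σ →
      ∀ (h : L.HermMetric) (P : ChartPartition (2 * n) X), bbfQuadratic P σ h.chernForm = 0) :
    L.IsSemiample := by
  obtain ⟨-, -, -, ⟨α, hα⟩, hsc, σ, hσ, hu⟩ := hX
  obtain ⟨M, tM, ⟨g⟩⟩ := exists_model (2 * n) X
  have hcM : CompactSpace M := g.symm.compactSpace
  have htM : T2Space M := g.symm.t2Space
  have hsM : SimplyConnectedSpace M :=
    ContinuousMap.HomotopyEquiv.simplyConnectedSpace (hY := hsc) g.toHomotopyEquiv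
  obtain ⟨A, hfin, hG, ⟨Q⟩, K, hKg, hs⟩ := exists_lk (n := 2 * n) g L.U L.isOpen_U L.covers
  choose k hk using hs
  let J : Idx K L := ⟨k, fun i x hx => hk i hx⟩
  obtain ⟨P⟩ := exists_cp (2 * n) X
  refine semiample_of J (hM n M A hn hG Q (kahOf K hα) (hsympOf K hσ) (uniq_of K hσ hu) (lbOf J)
    (nefW_of J Q _ hnef) (nonFlat_of J hc1) ?_)
  exact iso_of J hn Q hσ P fun h => hiso σ hσ h P

end Crest.Agent.R281.DicO_273
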