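import Crest.Agent.R281.DicO_273
import Crest.Agent.R281.Sk0_474

/-!
# R281 (S0424), HK-DIC part P (helper273): the node HK-DIC of the skeleton

`hk_dic : Main281 → S0424Stmt`
-/

set_option autoImplicit false

open Crest.CxGeometry in
theorem Crest.Agent.R281.DicO_273.hk_dic.{u} (hM : Crest.Agent.R281.Defs_273.Main281) :
    Crest.Agent.R281.Sk_474.S0424Stmt.{u} := by
  intro n X _ _ _ _ _ hn hX L hnef hc1 hiso
  exact Crest.Agent.R281.DicO_273.of_main hM hn hX L hnef hc1 hiso
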