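import Crest.Agent.R208.PF4

/-!
# Row 281, HK-DIC-INT, part 1 (helper691): mixed Pfaffians of block matrices

`mixS N = ∑_π sign π ∏_k N_k (π (k,0), π (k,1))` (R208/PF1).

* `mixS_congr` : `mixS (Bᵀ N_k B) = det B * mixS N`
* `mixS_der`   : `∑_k mixS (…, Bᵀ N_k + N_k B, …) = tr B * mixS N`
* `bl x y X`   : the block `X` at the position `(x, y)`; `FN a b`: `a` copies of the type (2,0),
  `b` copies of the type (0,2), the others of type (1,1)
* `type_zero`  : `FN a b = 0` if `a ≠ b`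
* `two_one`    : `n² FN (n-1) (n-1) = tr (S'⁻¹ Aᵀ S⁻¹ A) FN n n`
* `exists_top` : `FN n n = C |det S|` if `S' = conj S`, `C ≠ 0` depending on `n` only
-/

set_option autoImplicit false
set_option linter.unusedSectionVars false

namespace Crest.Agent.R281.DicW_691

open Matrix Finset Crest.Agent.R208.PF Polynomial
open scoped ComplexConjugate

section gen

variable {ι : Type*} [Fintype ι] [DecidableEq ι] {A : Type*} [CommRing A]

/-- **naturality** -/
theorem mixS_congr (B : Matrix (ι × Fin 2) (ι × Fin 2) A)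
    (N : ι → Matrix (ι × Fin 2) (ι × Fin 2) A) :
    mixS (fun j => Bᵀ * N j * B) = B.det * mixS N := by
  classical
  rw [mixS_expand (fun _ => B) (fun _ => B) N]
  have h00 : ∀ I : ι × Fin 2 → ι × Fin 2,
      (Matrix.of fun p q => (if p.2 = 0 then B (I p) q else B (I p) q)) = B.submatrix I id := by
    intro I
    ext p q
    simp
  simp only [h00]
  have h0 : ∀ I : ι × Fin 2 → ι × Fin 2, ¬ Function.Bijective I →
      (B.submatrix I id).det * ∏ j, N j (I (j, 0)) (I (j, 1)) = 0 := by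
    intro I hI
    have : ¬ Function.Injective I := fun h => hI (Finite.injective_iff_bijective.1 h)
    rw [Function.Injective] at this
    push Not at this
    obtain ⟨a, b, hab, hne⟩ := this
    rw [det_zero_of_row_eq hne (by ext q; simp [hab]), zero_mul]
  rw [mixS, Finset.mul_sum]
  symm
  refine Finset.sum_of_injOn (fun σ : Equiv.Perm (ι × Fin 2) => (σ : ι × Fin 2 → ι × Fin 2))
    (fun σ _ τ _ h => Equiv.ext (congrFun h)) (fun _ _ => Finset.mem_coe.2 (Finset.mem_univ _)) ?_ ?_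
  · intro I _ hI
    refine h0 I fun hb => hI ?_
    exact ⟨Equiv.ofBijective I hb, by simp, rfl⟩
  · intro σ _
    rw [det_permute]
    ring

/-- permuting the index set -/
theorem mixS_sub (N : ι → Matrix (ι × Fin 2) (ι × Fin 2) A) (π : Equiv.Perm (ι × Fin 2)) :
    mixS (fun j => (N j).submatrix π π) = ((Equiv.Perm.sign π : ℤ) : A) * mixS N := by
  unfold mixS
  rw [← Equiv.sum_comp (Equiv.mulLeft π)
    (fun σ : Equiv.Perm (ι × Fin 2) =>
      ((Equiv.Perm.sign σ : ℤ) : A) * ∏ j : ι, N j (σ (j, 0)) (σ (j, 1))), Finset.mul_sum]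
  refine Finset.sum_congr rfl fun σ _ => ?_
  rw [Equiv.coe_mulLeft, Equiv.Perm.sign_mul]
  simp only [submatrix_apply, Equiv.Perm.coe_mul, Function.comp_apply, Units.val_mul, Int.cast_mul]
  rw [← mul_assoc, ← mul_assoc, ← Int.cast_mul (Equiv.Perm.sign π : ℤ), Int.units_coe_mul_self,
    Int.cast_one, one_mul]

/-- reindexing -/
theorem mixS_reindex {κ : Type*} [Fintype κ] [DecidableEq κ] (e : κ ≃ ι)
    (N : ι → Matrix (ι × Fin 2) (ι × Fin 2) A) :
    mixS (fun j => (N (e j)).submatrix (e.prodCongr (Equiv.refl (Fin 2)))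
      (e.prodCongr (Equiv.refl (Fin 2)))) = mixS N := by
  unfold mixS
  set E := e.prodCongr (Equiv.refl (Fin 2)) with hE
  rw [← Equiv.sum_comp E.permCongr]
  refine Finset.sum_congr rfl fun σ _ => ?_
  rw [Equiv.Perm.sign_permCongr, ← Equiv.prod_comp e]
  congr 1
  refine Finset.prod_congr rfl fun j _ => ?_
  simp [hE, Equiv.permCongr_apply]

theorem mixS_update (N : ι → Matrix (ι × Fin 2) (ι × Fin 2) A) (k : ι)
    (Z : Matrix (ι × Fin 2) (ι × Fin 2) A) :
    mixS (Function.update N k Z) = ∑ σ : Equiv.Perm (ι × Fin 2), ((Equiv.Perm.sign σ : ℤ) : A) *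
      ((∏ j ∈ Finset.univ.erase k, N j (σ (j, 0)) (σ (j, 1))) * Z (σ (k, 0)) (σ (k, 1))) := by
  unfold mixS
  refine Finset.sum_congr rfl fun σ _ => ?_
  rw [← Finset.mul_prod_erase _ _ (Finset.mem_univ k), Function.update_self, mul_comm (Z _ _)]
  congr 2
  refine Finset.prod_congr rfl fun l hl => ?_
  rw [Function.update_of_ne (Finset.ne_of_mem_erase hl)]

theorem mixS_update_smul (N : ι → Matrix (ι × Fin 2) (ι × Fin 2) A) (k : ι) (c : A)
    (Z : Matrix (ι × Fin 2) (ι × Fin 2) A) :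
    mixS (Function.update N k (c • Z)) = c * mixS (Function.update N k Z) := by
  rw [mixS_update, mixS_update, Finset.mul_sum]
  refine Finset.sum_congr rfl fun σ _ => ?_
  rw [Matrix.smul_apply, smul_eq_mul]
  ring

/-- exchanging two slots -/
theorem mixS_swap (N : ι → Matrix (ι × Fin 2) (ι × Fin 2) A) {k l : ι} (h : N k = N l)
    (Z : Matrix (ι × Fin 2) (ι × Fin 2) A) :
    mixS (Function.update N k Z) = mixS (Function.update N l Z) := by
  rw [← mixS_perm (Function.update N l Z) (Equiv.swap k l)]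
  congr 1
  funext j
  by_cases hjk : j = k
  · subst hjk
    rw [Function.update_self, Equiv.swap_apply_left, Function.update_self]
  · by_cases hjl : j = l
    · subst hjl
      rw [Equiv.swap_apply_right, Function.update_of_ne hjk,
        Function.update_of_ne (Ne.symm hjk), h]
    · rw [Equiv.swap_apply_of_ne_of_ne hjk hjl, Function.update_of_ne hjk,
        Function.update_of_ne hjl]

end gen

section der

variable {ι : Type*} [Fintype ι] [DecidableEq ι]

/-- `1 + t B` -/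
def Tt (B : Matrix (ι × Fin 2) (ι × Fin 2) ℂ) (t : ℂ) : Matrix (ι × Fin 2) (ι × Fin 2) ℂ :=
  1 + t • B

theorem Tt_zero (B : Matrix (ι × Fin 2) (ι × Fin 2) ℂ) : Tt B 0 = 1 := by
  unfold Tt
  rw [zero_smul, add_zero]

theorem Tt_conj (B M : Matrix (ι × Fin 2) (ι × Fin 2) ℂ) (t : ℂ) :
    (Tt B t)ᵀ * M * Tt B t = M + (t • (Bᵀ * M + M * B) + t ^ 2 • (Bᵀ * M * B)) := by
  unfold Tt
  rw [transpose_add, transpose_one, transpose_smul, add_mul, one_mul, mul_add, mul_one,
    add_mul, smul_mul_assoc, mul_smul_comm, smul_mul_assoc, mul_smul_comm, smul_smul,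
    smul_add, pow_two]
  abel

theorem entry (B M : Matrix (ι × Fin 2) (ι × Fin 2) ℂ) (p q : ι × Fin 2) :
    HasDerivAt (fun t : ℂ => ((Tt B t)ᵀ * M * Tt B t) p q) ((Bᵀ * M + M * B) p q) 0 := by
  have h1 : (fun t : ℂ => ((Tt B t)ᵀ * M * Tt B t) p q) = fun t : ℂ =>
      M p q + (t * (Bᵀ * M + M * B) p q + t ^ 2 * (Bᵀ * M * B) p q) := by
    funext t
    rw [Tt_conj]
    simp only [Matrix.add_apply, Matrix.smul_apply, smul_eq_mul]
  rw [h1]
  have h2 : HasDerivAt (fun t : ℂ => t * (Bᵀ * M + M * B) p q) (1 * (Bᵀ * M + M * B) p q) 0 :=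
    (hasDerivAt_id (0 : ℂ)).mul_const _
  have h3 : HasDerivAt (fun t : ℂ => t ^ 2 * (Bᵀ * M * B) p q)
      (((2 : ℕ) : ℂ) * (0 : ℂ) ^ (2 - 1) * (Bᵀ * M * B) p q) 0 :=
    (hasDerivAt_pow 2 (0 : ℂ)).mul_const _
  refine ((h2.fun_add h3).const_add (M p q)).congr_deriv ?_
  simp

/-- **the derivation identity** -/
theorem mixS_der (B : Matrix (ι × Fin 2) (ι × Fin 2) ℂ)
    (N : ι → Matrix (ι × Fin 2) (ι × Fin 2) ℂ) :
    ∑ k, mixS (Function.update N k (Bᵀ * N k + N k * B)) = B.trace * mixS N := by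
  have h1 : HasDerivAt (fun t : ℂ => mixS (fun j => (Tt B t)ᵀ * N j * Tt B t))
      (∑ k, mixS (Function.update N k (Bᵀ * N k + N k * B))) 0 := by
    have e1 : ∑ k, mixS (Function.update N k (Bᵀ * N k + N k * B)) =
        ∑ σ : Equiv.Perm (ι × Fin 2), ((Equiv.Perm.sign σ : ℤ) : ℂ) *
          ∑ k, (∏ j ∈ Finset.univ.erase k,
            ((Tt B 0)ᵀ * N j * Tt B 0) (σ (j, 0)) (σ (j, 1))) •
            (Bᵀ * N k + N k * B) (σ (k, 0)) (σ (k, 1)) := by
      simp only [mixS_update, Finset.mul_sum]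
      rw [Finset.sum_comm]
      refine Finset.sum_congr rfl fun σ _ => Finset.sum_congr rfl fun k _ => ?_
      simp only [Tt_zero, transpose_one, one_mul, mul_one, smul_eq_mul]
    rw [e1]
    unfold mixS
    refine HasDerivAt.fun_sum fun σ _ => HasDerivAt.const_mul _ ?_
    exact HasDerivAt.fun_finsetProd fun k _ => entry B (N k) _ _
  have h2 : HasDerivAt (fun t : ℂ => mixS (fun j => (Tt B t)ᵀ * N j * Tt B t))
      (B.trace * mixS N) 0 := by
    have e2 : (fun t : ℂ => mixS (fun j => (Tt B t)ᵀ * N j * Tt B t)) = fun t : ℂ =>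
        (1 + (B.trace * t + (det (1 + (X : ℂ[X]) • B.map C)).divX.divX.eval t * t ^ 2)) *
          mixS N := by
      funext t
      rw [mixS_congr]
      unfold Tt
      rw [det_one_add_smul, add_assoc]
    rw [e2]
    have h3 : HasDerivAt (fun t : ℂ => B.trace * t) (B.trace * 1) 0 :=
      (hasDerivAt_id (0 : ℂ)).const_mul _
    have h4 : HasDerivAt (fun t : ℂ =>
        (det (1 + (X : ℂ[X]) • B.map C)).divX.divX.eval t * t ^ 2) _ 0 :=
      ((det (1 + (X : ℂ[X]) • B.map C)).divX.divX.hasDerivAt 0).mul (hasDerivAt_pow 2 (0 : ℂ))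
    refine (((h3.fun_add h4).const_add 1).mul_const (mixS N)).congr_deriv ?_
    simp
  exact h1.unique h2

end der

/-! ### blocks -/

section blocks

variable {ι : Type*} [Fintype ι] [DecidableEq ι]

/-- the block `X` at the position `(x, y)` -/
def bl (x y : Fin 2) (X : Matrix ι ι ℂ) : Matrix (ι × Fin 2) (ι × Fin 2) ℂ :=
  Matrix.of fun p q => if p.2 = x ∧ q.2 = y then X p.1 q.1 else 0

theorem bl_apply (x y : Fin 2) (X : Matrix ι ι ℂ) (p q : ι × Fin 2) :
    bl x y X p q = if p.2 = x ∧ q.2 = y then X p.1 q.1 else 0 := rfl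

theorem bl_mul (x y z : Fin 2) (X Y : Matrix ι ι ℂ) : bl x y X * bl y z Y = bl x z (X * Y) := by
  ext p q
  rw [mul_apply, bl_apply, Fintype.sum_prod_type, mul_apply]
  simp only [bl_apply]
  by_cases h1 : p.2 = x
  · by_cases h2 : q.2 = z
    · rw [if_pos ⟨h1, h2⟩]
      refine Finset.sum_congr rfl fun a _ => ?_
      rw [Finset.sum_eq_single y]
      · simp [h1, h2]
      · intro b _ hb
        simp [hb]
      · simp
    · simp [h2]
  · simp [h1]

theorem bl_mul_of_ne {x y y' z : Fin 2} (h : y ≠ y') (X Y : Matrix ι ι ℂ) :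
    bl x y X * bl y' z Y = 0 := by
  ext p q
  rw [mul_apply]
  refine Finset.sum_eq_zero fun r _ => ?_
  rw [bl_apply, bl_apply]
  by_cases h1 : r.2 = y
  · have h2 : r.2 ≠ y' := fun h3 => h (h1.symm.trans h3)
    simp [h2]
  · simp [h1]

theorem bl_t (x y : Fin 2) (X : Matrix ι ι ℂ) : (bl x y X)ᵀ = bl y x Xᵀ := by
  ext p q
  rw [transpose_apply, bl_apply, bl_apply, transpose_apply]
  by_cases h1 : p.2 = y <;> by_cases h2 : q.2 = x <;> simp [h1, h2]

theorem bl_add (x y : Fin 2) (X Y : Matrix ι ι ℂ) : bl x y (X + Y) = bl x y X + bl x y Y := by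
  ext p q
  rw [Matrix.add_apply, bl_apply, bl_apply, bl_apply]
  split_ifs <;> simp

theorem bl_smul (x y : Fin 2) (c : ℂ) (X : Matrix ι ι ℂ) : bl x y (c • X) = c • bl x y X := by
  ext p q
  rw [Matrix.smul_apply, bl_apply, bl_apply]
  split_ifs <;> simp

theorem bl_neg (x y : Fin 2) (X : Matrix ι ι ℂ) : bl x y (-X) = -bl x y X := by
  ext p q
  rw [Matrix.neg_apply, bl_apply, bl_apply]
  split_ifs <;> simp

theorem trace_bl (x : Fin 2) (X : Matrix ι ι ℂ) : (bl x x X).trace = X.trace := by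
  unfold Matrix.trace
  rw [Fintype.sum_prod_type]
  refine Finset.sum_congr rfl fun a _ => ?_
  rw [Finset.sum_eq_single x]
  · simp [bl_apply]
  · intro b _ hb
    simp [bl_apply, hb]
  · simp

theorem trace_bl_ne {x y : Fin 2} (h : x ≠ y) (X : Matrix ι ι ℂ) : (bl x y X).trace = 0 := by
  unfold Matrix.trace
  refine Finset.sum_eq_zero fun p _ => ?_
  rw [diag_apply, bl_apply, if_neg]
  rintro ⟨h1, h2⟩
  exact h (h1.symm.trans h2)

/-- the matrix of type (1,1) -/
def b11 (A : Matrix ι ι ℂ) : Matrix (ι × Fin 2) (ι × Fin 2) ℂ := bl 0 1 A - bl 1 0 Aᵀ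

theorem d20_S (S X : Matrix ι ι ℂ) (hS : Sᵀ = -S) :
    (bl 0 1 X)ᵀ * bl 0 0 S + bl 0 0 S * bl 0 1 X = b11 (S * X) := by
  rw [bl_t, bl_mul, bl_mul, b11, transpose_mul, hS]
  simp only [Matrix.mul_neg, bl_neg]
  abel

theorem d20_S' (S' X : Matrix ι ι ℂ) :
    (bl 0 1 X)ᵀ * bl 1 1 S' + bl 1 1 S' * bl 0 1 X = 0 := by
  rw [bl_t, bl_mul_of_ne (by decide), bl_mul_of_ne (by decide), add_zero]

theorem d20_A (A X : Matrix ι ι ℂ) :
    (bl 0 1 X)ᵀ * b11 A + b11 A * bl 0 1 X = bl 1 1 (Xᵀ * A - Aᵀ * X) := by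
  rw [bl_t, b11, mul_sub, sub_mul, bl_mul, bl_mul_of_ne (by decide), bl_mul_of_ne (by decide),
    bl_mul]
  have : Xᵀ * A - Aᵀ * X = Xᵀ * A + -(Aᵀ * X) := sub_eq_add_neg _ _
  rw [this, bl_add, bl_neg]
  abel

theorem d02_S (S Y : Matrix ι ι ℂ) :
    (bl 1 1 Y)ᵀ * bl 0 0 S + bl 0 0 S * bl 1 1 Y = 0 := by
  rw [bl_t, bl_mul_of_ne (by decide), bl_mul_of_ne (by decide), add_zero]

theorem d02_S' (S' Y : Matrix ι ι ℂ) :
    (bl 1 1 Y)ᵀ * bl 1 1 S' + bl 1 1 S' * bl 1 1 Y = bl 1 1 (Yᵀ * S' + S' * Y) := by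
  rw [bl_t, bl_mul, bl_mul, bl_add]

/-- the grading -/
def gr (ι : Type*) [Fintype ι] [DecidableEq ι] : Matrix (ι × Fin 2) (ι × Fin 2) ℂ :=
  bl 0 0 1 - bl 1 1 1

theorem trace_gr : (gr ι).trace = 0 := by
  rw [gr, trace_sub, trace_bl, trace_bl, sub_self]

theorem gr_t : (gr ι)ᵀ = gr ι := by
  rw [gr, transpose_sub, bl_t, bl_t, transpose_one]

theorem gr_S (S : Matrix ι ι ℂ) : (gr ι)ᵀ * bl 0 0 S + bl 0 0 S * gr ι = (2 : ℂ) • bl 0 0 S := by
  rw [gr_t, gr, sub_mul, mul_sub, bl_mul, bl_mul, bl_mul_of_ne (by decide),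
    bl_mul_of_ne (by decide), one_mul, mul_one, two_smul]
  abel

theorem gr_S' (S : Matrix ι ι ℂ) :
    (gr ι)ᵀ * bl 1 1 S + bl 1 1 S * gr ι = (-2 : ℂ) • bl 1 1 S := by
  rw [gr_t, gr, sub_mul, mul_sub, bl_mul, bl_mul, bl_mul_of_ne (by decide),
    bl_mul_of_ne (by decide), one_mul, mul_one, neg_smul, two_smul]
  abel

theorem gr_A (A : Matrix ι ι ℂ) : (gr ι)ᵀ * b11 A + b11 A * gr ι = (0 : ℂ) • b11 A := by
  rw [gr_t, gr, b11, sub_mul, mul_sub, mul_sub, sub_mul, mul_sub, mul_sub, bl_mul, bl_mul, bl_mul,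
    bl_mul, bl_mul_of_ne (by decide), bl_mul_of_ne (by decide), bl_mul_of_ne (by decide),
    bl_mul_of_ne (by decide), one_mul, mul_one, one_mul, mul_one, zero_smul]
  abel

end blocks

/-! ### families -/

section fam

/-- `a` times `x`, `b` times `y`, then `z` -/
def fl {N : ℕ} {E : Type*} (a b : ℕ) (x y z : E) : Fin N → E := fun k =>
  if k.val < a then x else if k.val < a + b then y else z

variable {N : ℕ}

theorem sum_fl {a b : ℕ} (h : a + b ≤ N) (x y z : ℂ) :
    ∑ k : Fin N, (fl a b x y z : Fin N → ℂ) k = a * x + b * y + ((N - (a + b) : ℕ) : ℂ) * z := by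
  have h1 : ∀ c ≤ N, (Finset.univ.filter fun k : Fin N => k.val < c).card = c := by
    intro c hc
    rw [Fin.card_filter_val_lt]
    exact min_eq_right hc
  have h2 : ∀ k : Fin N, (fl a b x y z : Fin N → ℂ) k =
      (if k.val < a then x - y else 0) + (if k.val < a + b then y - z else 0) + z := by
    intro k
    unfold fl
    by_cases h3 : k.val < a
    · simp [h3, lt_of_lt_of_le h3 (Nat.le_add_right a b)]
    · by_cases h4 : k.val < a + b
      · simp [h3, h4]
      · simp [h3, h4]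
  simp only [h2]
  rw [Finset.sum_add_distrib, Finset.sum_add_distrib, ← Finset.sum_filter, ← Finset.sum_filter,
    Finset.sum_const, Finset.sum_const, Finset.sum_const, h1 a (by omega), h1 (a + b) h,
    nsmul_eq_mul, nsmul_eq_mul, nsmul_eq_mul, Finset.card_univ, Fintype.card_fin,
    Nat.cast_sub h]
  push_cast
  ring

/-- **type vanishing** -/
theorem type_zero {a b : ℕ} (h : a + b ≤ N) (hab : a ≠ b) (S S' A : Matrix (Fin N) (Fin N) ℂ) :
    mixS (fl a b (bl 0 0 S) (bl 1 1 S') (b11 A)) = 0 := by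
  have h1 := mixS_der (gr (Fin N)) (fl a b (bl 0 0 S) (bl 1 1 S') (b11 A))
  rw [trace_gr, zero_mul] at h1
  have h2 : ∀ k : Fin N, mixS (Function.update (fl a b (bl 0 0 S) (bl 1 1 S') (b11 A)) k
      ((gr (Fin N))ᵀ * (fl a b (bl 0 0 S) (bl 1 1 S') (b11 A) : Fin N → _) k +
        (fl a b (bl 0 0 S) (bl 1 1 S') (b11 A) : Fin N → _) k * gr (Fin N))) =
      (fl a b 2 (-2) 0 : Fin N → ℂ) k * mixS (fl a b (bl 0 0 S) (bl 1 1 S') (b11 A)) := by
    intro k
    have h3 : (gr (Fin N))ᵀ * (fl a b (bl 0 0 S) (bl 1 1 S') (b11 A) : Fin N → _) k +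
        (fl a b (bl 0 0 S) (bl 1 1 S') (b11 A) : Fin N → _) k * gr (Fin N) =
        (fl a b 2 (-2) 0 : Fin N → ℂ) k •
          (fl a b (bl 0 0 S) (bl 1 1 S') (b11 A) : Fin N → _) k := by
      unfold fl
      split_ifs
      · exact gr_S S
      · exact gr_S' S'
      · exact gr_A A
    rw [h3, mixS_update_smul, Function.update_eq_self]
  simp only [h2] at h1
  rw [← Finset.sum_mul, sum_fl h, mul_zero, add_zero] at h1
  rcases mul_eq_zero.1 h1 with h4 | h4
  · exfalso
    apply hab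
    have h5 : (a : ℂ) = b := by linear_combination h4 / 2
    exact_mod_cast h5
  · exact h4

/-! ### two factors of type (1,1) -/

section two

variable {n : ℕ}

/-- the last index -/
def kL (hn : 1 ≤ n) : Fin (2 * n) := ⟨2 * n - 1, by omega⟩

/-- the last index of the first half -/
def k0 (hn : 1 ≤ n) : Fin (2 * n) := ⟨n - 1, by omega⟩

theorem fl_upd (hn : 1 ≤ n) (x y z : Matrix (Fin (2 * n) × Fin 2) (Fin (2 * n) × Fin 2) ℂ) :
    mixS (Function.update (fl n (n - 1) x y z) (k0 hn) z) =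
      mixS (fl (n - 1) (n - 1) x y z : Fin (2 * n) → _) := by
  set km : Fin (2 * n) := ⟨2 * n - 2, by omega⟩ with hkm
  rw [← mixS_perm (fl (n - 1) (n - 1) x y z : Fin (2 * n) → _) (Equiv.swap (k0 hn) km)]
  congr 1
  funext j
  have v0 : (k0 hn).val = n - 1 := rfl
  have vm : km.val = 2 * n - 2 := rfl
  by_cases h1 : j = k0 hn
  · subst h1
    rw [Function.update_self, Equiv.swap_apply_left]
    unfold fl
    rw [vm, if_neg (by omega), if_neg (by omega)]
  · rw [Function.update_of_ne h1]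
    have h1' : j.val ≠ n - 1 := fun h => h1 (Fin.ext h)
    by_cases h2 : j = km
    · subst h2
      rw [Equiv.swap_apply_right]
      unfold fl
      rw [v0, vm, if_neg (by omega), if_pos (by omega), if_neg (by omega), if_pos (by omega)]
    · rw [Equiv.swap_apply_of_ne_of_ne h1 h2]
      have h2' : j.val ≠ 2 * n - 2 := fun h => h2 (Fin.ext h)
      have h3 := j.2
      unfold fl
      by_cases h4 : j.val < n - 1
      · rw [if_pos (by omega), if_pos h4]
      · rw [if_neg (by omega), if_neg h4]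
        by_cases h5 : j.val < 2 * n - 1
        · rw [if_pos (by omega), if_pos (by omega)]
        · rw [if_neg (by omega), if_neg (by omega)]

theorem inv_t {m : Type*} [Fintype m] [DecidableEq m] {S : Matrix m m ℂ} (hS : Sᵀ = -S) :
    (S⁻¹)ᵀ = -S⁻¹ := by
  have h1 : (-S)⁻¹ = -S⁻¹ := by
    by_cases h : IsUnit S.det
    · refine Matrix.inv_eq_left_inv ?_
      rw [neg_mul_neg, Matrix.nonsing_inv_mul S h]
    · have h2 : ¬ IsUnit (-S).det := by
        rw [Matrix.det_neg]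
        intro h3
        exact h (isUnit_of_mul_isUnit_right h3)
      rw [Matrix.nonsing_inv_apply_not_isUnit _ h, Matrix.nonsing_inv_apply_not_isUnit _ h2,
        neg_zero]
  rw [Matrix.transpose_nonsing_inv, hS, h1]

theorem mixS_update_zero {m : ℕ} (M : Fin m → Matrix (Fin m × Fin 2) (Fin m × Fin 2) ℂ)
    (k : Fin m) : mixS (Function.update M k 0) = 0 := by
  have := mixS_update_smul M k (0 : ℂ) 0
  rwa [zero_smul, zero_mul] at this

/-- **two factors of type (1,1)** -/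
theorem two_one (hn : 1 ≤ n) {S S' : Matrix (Fin (2 * n)) (Fin (2 * n)) ℂ} (hS : Sᵀ = -S)
    (hS' : S'ᵀ = -S') (hd : IsUnit S.det) (hd' : IsUnit S'.det)
    (A : Matrix (Fin (2 * n)) (Fin (2 * n)) ℂ) :
    (n : ℂ) ^ 2 * mixS (fl (n - 1) (n - 1) (bl 0 0 S) (bl 1 1 S') (b11 A) : Fin (2 * n) → _) =
      (S'⁻¹ * (Aᵀ * (S⁻¹ * A))).trace *
        mixS (fl n n (bl 0 0 S) (bl 1 1 S') (b11 A) : Fin (2 * n) → _) := by
  set Z : Matrix (Fin (2 * n)) (Fin (2 * n)) ℂ := (-2 : ℂ) • (Aᵀ * (S⁻¹ * A)) with hZ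
  have hZ1 : (S⁻¹ * A)ᵀ * A - Aᵀ * (S⁻¹ * A) = Z := by
    rw [transpose_mul, inv_t hS, mul_neg, neg_mul, Matrix.mul_assoc, hZ, neg_smul, two_smul]
    abel
  have hZt : Zᵀ = -Z := by
    rw [hZ, transpose_smul, transpose_mul, transpose_mul, inv_t hS, transpose_transpose,
      mul_neg, neg_mul, Matrix.mul_assoc, smul_neg]
  have hSX : S * (S⁻¹ * A) = A := by
    rw [← Matrix.mul_assoc, Matrix.mul_nonsing_inv S hd, one_mul]
  -- the value with one factor of type (0,2)
  set W := mixS (Function.update (fl n (n - 1) (bl 0 0 S) (bl 1 1 S') (b11 A)) (kL hn)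
    (bl 1 1 Z)) with hW
  have vL : (kL hn).val = 2 * n - 1 := rfl
  have v0 : (k0 hn).val = n - 1 := rfl
  have e1 : (n : ℂ) * mixS (fl (n - 1) (n - 1) (bl 0 0 S) (bl 1 1 S') (b11 A) : Fin (2 * n) → _)
      + W = 0 := by
    have h1 := mixS_der (bl 0 1 (S⁻¹ * A))
      (fl n (n - 1) (bl 0 0 S) (bl 1 1 S') (b11 A) : Fin (2 * n) → _)
    rw [trace_bl_ne (by decide), zero_mul] at h1
    have h2 : ∀ k : Fin (2 * n), mixS (Function.update
        (fl n (n - 1) (bl 0 0 S) (bl 1 1 S') (b11 A) : Fin (2 * n) → _) k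
        ((bl 0 1 (S⁻¹ * A))ᵀ *
          (fl n (n - 1) (bl 0 0 S) (bl 1 1 S') (b11 A) : Fin (2 * n) → _) k +
          (fl n (n - 1) (bl 0 0 S) (bl 1 1 S') (b11 A) : Fin (2 * n) → _) k *
            bl 0 1 (S⁻¹ * A))) =
        (fl n (n - 1) (mixS (fl (n - 1) (n - 1) (bl 0 0 S) (bl 1 1 S') (b11 A) :
          Fin (2 * n) → _)) 0 W : Fin (2 * n) → ℂ) k := by
      intro k
      by_cases h3 : k.val < n
      · have h4 : ∀ {E : Type} (x y z : E), (fl n (n - 1) x y z : Fin (2 * n) → E) k = x :=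
          fun x y z => if_pos h3
        rw [h4, h4, d20_S S _ hS, hSX, ← fl_upd hn]
        refine mixS_swap _ ?_ _
        rw [h4]
        unfold fl
        rw [v0, if_pos (by omega)]
      · by_cases h5 : k.val < n + (n - 1)
        · have h4 : ∀ {E : Type} (x y z : E), (fl n (n - 1) x y z : Fin (2 * n) → E) k = y :=
            fun x y z => (if_neg h3).trans (if_pos h5)
          rw [h4, h4, d20_S', mixS_update_zero]
        · have h4 : ∀ {E : Type} (x y z : E), (fl n (n - 1) x y z : Fin (2 * n) → E) k = z :=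
            fun x y z => (if_neg h3).trans (if_neg h5)
          have h6 : k = kL hn := Fin.ext (by rw [vL]; have := k.2; omega)
          rw [h4, h4, d20_A, hZ1, hW, h6]
    simp only [h2] at h1
    rw [sum_fl (by omega), mul_zero, add_zero] at h1
    have h7 : 2 * n - (n + (n - 1)) = 1 := by omega
    rw [h7, Nat.cast_one, one_mul] at h1
    exact h1
  have e2 : (n : ℂ) * W = (1 / 2) * (S'⁻¹ * Z).trace *
      mixS (fl n n (bl 0 0 S) (bl 1 1 S') (b11 A) : Fin (2 * n) → _) := by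
    set Y : Matrix (Fin (2 * n)) (Fin (2 * n)) ℂ := (1 / 2 : ℂ) • (S'⁻¹ * Z) with hY
    have h0 : S' * Y = (1 / 2 : ℂ) • Z := by
      rw [hY, mul_smul_comm, ← Matrix.mul_assoc, Matrix.mul_nonsing_inv S' hd', one_mul]
    have h0' : Yᵀ * S' = (1 / 2 : ℂ) • Z := by
      have h : Yᵀ * S'ᵀ = ((1 / 2 : ℂ) • Z)ᵀ := by rw [← transpose_mul, h0]
      rw [hS', transpose_smul (1 / 2 : ℂ) Z, hZt, mul_neg, smul_neg, neg_inj] at h
      exact h
    have h00 : Yᵀ * S' + S' * Y = Z := by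
      rw [h0, h0', ← add_smul]
      norm_num
    have h1 := mixS_der (bl 1 1 Y) (fl n n (bl 0 0 S) (bl 1 1 S') (b11 A) : Fin (2 * n) → _)
    rw [trace_bl, hY, trace_smul, smul_eq_mul, ← hY] at h1
    rw [← h1]
    have h2 : ∀ k : Fin (2 * n), mixS (Function.update
        (fl n n (bl 0 0 S) (bl 1 1 S') (b11 A) : Fin (2 * n) → _) k
        ((bl 1 1 Y)ᵀ * (fl n n (bl 0 0 S) (bl 1 1 S') (b11 A) : Fin (2 * n) → _) k +
          (fl n n (bl 0 0 S) (bl 1 1 S') (b11 A) : Fin (2 * n) → _) k * bl 1 1 Y)) =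
        (fl n n 0 W 0 : Fin (2 * n) → ℂ) k := by
      intro k
      by_cases h3 : k.val < n
      · have h4 : ∀ {E : Type} (x y z : E), (fl n n x y z : Fin (2 * n) → E) k = x :=
          fun x y z => if_pos h3
        rw [h4, h4, d02_S, mixS_update_zero]
      · have h5 : k.val < n + n := by have := k.2; omega
        have h4 : ∀ {E : Type} (x y z : E), (fl n n x y z : Fin (2 * n) → E) k = y :=
            fun x y z => (if_neg h3).trans (if_pos h5)
        rw [h4, h4, d02_S', h00, hW]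
        have h6 : (fl n n (bl 0 0 S) (bl 1 1 S') (b11 A) : Fin (2 * n) → _) k =
            (fl n n (bl 0 0 S) (bl 1 1 S') (b11 A) : Fin (2 * n) → _) (kL hn) := by
          rw [h4]
          unfold fl
          rw [vL, if_neg (by omega), if_pos (by omega)]
        rw [mixS_swap _ h6]
        congr 1
        funext j
        by_cases h7 : j = kL hn
        · subst h7
          rw [Function.update_self, Function.update_self]
        · rw [Function.update_of_ne h7, Function.update_of_ne h7]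
          have h8 : j.val ≠ 2 * n - 1 := fun h => h7 (Fin.ext h)
          have h9 := j.2
          unfold fl
          by_cases h10 : j.val < n
          · rw [if_pos h10, if_pos h10]
          · rw [if_neg h10, if_neg h10, if_pos (by omega), if_pos (by omega)]
    simp only [h2]
    rw [sum_fl (by omega), mul_zero, mul_zero, zero_add, add_zero]
  have e3 : (S'⁻¹ * Z).trace = -2 * (S'⁻¹ * (Aᵀ * (S⁻¹ * A))).trace := by
    rw [hZ, mul_smul_comm, trace_smul, smul_eq_mul]
  rw [e3] at e2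
  linear_combination (n : ℂ) * e1 - e2

end two

/-! ### the top form -/

section top

variable {n : ℕ}

/-- two copies -/
def eS (m : ℕ) : Fin m ⊕ Fin m ≃ Fin m × Fin 2 where
  toFun := Sum.elim (fun a => (a, 0)) (fun a => (a, 1))
  invFun p := if p.2 = 0 then Sum.inl p.1 else Sum.inr p.1
  left_inv x := by
    rcases x with x | x <;> simp
  right_inv p := by
    obtain ⟨a, b⟩ := p
    fin_cases b <;> simp

/-- the halves of the index set -/
def eK (n : ℕ) : Fin n ⊕ Fin n ≃ Fin (2 * n) :=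
  finSumFinEquiv.trans (finCongr (two_mul n).symm)

theorem eK_inl (j : Fin n) : (eK n (Sum.inl j)).val = j.val := rfl

theorem eK_inr (j : Fin n) : (eK n (Sum.inr j)).val = n + j.val := rfl

/-- pairs -/
def eP (n : ℕ) : Fin n × Fin 2 ≃ Fin (2 * n) :=
  finProdFinEquiv.trans (finCongr (mul_comm n 2))

/-- rearrangement of the indices -/
def eF (n : ℕ) : (Fin n ⊕ Fin n) × Fin 2 ≃ Fin (2 * n) × Fin 2 :=
  (Equiv.sumProdDistrib (Fin n) (Fin n) (Fin 2)).trans
    ((Equiv.sumCongr (eP n) (eP n)).trans (eS (2 * n)))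

theorem eF_inl (j : Fin n) (x : Fin 2) : eF n (Sum.inl j, x) = (eP n (j, x), 0) := rfl

theorem eF_inr (j : Fin n) (x : Fin 2) : eF n (Sum.inr j, x) = (eP n (j, x), 1) := rfl

/-- the permutation -/
def pF (n : ℕ) : Equiv.Perm ((Fin n ⊕ Fin n) × Fin 2) :=
  (eF n).trans ((eK n).prodCongr (Equiv.refl (Fin 2))).symm

theorem pF_comp (p : (Fin n ⊕ Fin n) × Fin 2) :
    ((eK n).prodCongr (Equiv.refl (Fin 2))) (pF n p) = eF n p :=
  Equiv.apply_symm_apply _ _

theorem sub_00 (S : Matrix (Fin (2 * n)) (Fin (2 * n)) ℂ) :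
    (bl 0 0 S).submatrix (eF n) (eF n) = blockD (S.submatrix (eP n) (eP n)) 0 := by
  ext ⟨p, x⟩ ⟨q, y⟩
  rcases p with p | p <;> rcases q with q | q <;>
    simp [bl_apply, eF_inl, eF_inr]

theorem sub_11 (S : Matrix (Fin (2 * n)) (Fin (2 * n)) ℂ) :
    (bl 1 1 S).submatrix (eF n) (eF n) = blockD 0 (S.submatrix (eP n) (eP n)) := by
  ext ⟨p, x⟩ ⟨q, y⟩
  rcases p with p | p <;> rcases q with q | q <;>
    simp [bl_apply, eF_inl, eF_inr]

theorem top_eq (S S' A : Matrix (Fin (2 * n)) (Fin (2 * n)) ℂ) :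
    mixS (fl n n (bl 0 0 S) (bl 1 1 S') (b11 A) : Fin (2 * n) → _) =
      ((Equiv.Perm.sign (pF n) : ℤ) : ℂ) *
        (pfS (S.submatrix (eP n) (eP n)) * pfS (S'.submatrix (eP n) (eP n))) := by
  classical
  set M : Fin (2 * n) → Matrix (Fin (2 * n) × Fin 2) (Fin (2 * n) × Fin 2) ℂ :=
    fl n n (bl 0 0 S) (bl 1 1 S') (b11 A) with hM
  have h1 := mixS_reindex (eK n) M
  have h2 := mixS_sub (fun j => (M (eK n j)).submatrix ((eK n).prodCongr (Equiv.refl (Fin 2)))
      ((eK n).prodCongr (Equiv.refl (Fin 2)))) (pF n)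
  rw [h1] at h2
  have h3 : (fun j => ((M (eK n j)).submatrix ((eK n).prodCongr (Equiv.refl (Fin 2)))
      ((eK n).prodCongr (Equiv.refl (Fin 2)))).submatrix (pF n) (pF n)) =
      fun j => if j ∈ (Finset.univ.filter fun j : Fin n ⊕ Fin n => j.isLeft) then
        blockD (S.submatrix (eP n) (eP n)) 0 else blockD 0 (S'.submatrix (eP n) (eP n)) := by
    funext j
    have h4 : ((M (eK n j)).submatrix ((eK n).prodCongr (Equiv.refl (Fin 2)))
      ((eK n).prodCongr (Equiv.refl (Fin 2)))).submatrix (pF n) (pF n) =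
        (M (eK n j)).submatrix (eF n) (eF n) := by
      rw [Matrix.submatrix_submatrix]
      congr 1 <;> (funext p; exact pF_comp p)
    rw [h4]
    rcases j with j | j
    · rw [if_pos (by simp), ← sub_00, hM]
      unfold fl
      rw [eK_inl, if_pos j.2]
    · rw [if_neg (by simp), ← sub_11, hM]
      unfold fl
      rw [eK_inr, if_neg (by omega), if_pos (by omega)]
  rw [h3] at h2
  have h5 := selS_inl (S.submatrix (eP n) (eP n)) (S'.submatrix (eP n) (eP n))
  unfold selS at h5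
  rw [h5] at h2
  rw [h2, ← mul_assoc, ← Int.cast_mul, Int.units_coe_mul_self, Int.cast_one, one_mul]

/-- the constant -/
noncomputable def cTop (n : ℕ) : ℂ :=
  ((Equiv.Perm.sign (pF n) : ℤ) : ℂ) * ((2 : ℂ) ^ n * (n.factorial : ℂ)) ^ 2

theorem cTop_ne (n : ℕ) : cTop n ≠ 0 := by
  unfold cTop
  have h1 : ((Equiv.Perm.sign (pF n) : ℤ) : ℂ) ≠ 0 := by
    exact_mod_cast (Equiv.Perm.sign (pF n)).ne_zero
  have h2 : (n.factorial : ℂ) ≠ 0 := by exact_mod_cast n.factorial_ne_zero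
  exact mul_ne_zero h1 (pow_ne_zero _ (mul_ne_zero (pow_ne_zero _ two_ne_zero) h2))

/-- **the top form** -/
theorem top_det {S : Matrix (Fin (2 * n)) (Fin (2 * n)) ℂ} (hS : Sᵀ = -S)
    (A : Matrix (Fin (2 * n)) (Fin (2 * n)) ℂ) :
    mixS (fl n n (bl 0 0 S) (bl 1 1 (S.map conj)) (b11 A) : Fin (2 * n) → _) =
      cTop n * ((‖S.det‖ : ℝ) : ℂ) := by
  rw [top_eq]
  set T := S.submatrix (eP n) (eP n) with hT
  have h1 : (S.map conj).submatrix (eP n) (eP n) = T.map (starRingEnd ℂ) := rfl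
  have hTt : Tᵀ = -T := by
    rw [hT, transpose_submatrix, hS]
    rfl
  have h2 : pfS T ^ 2 = ((2 : ℂ) ^ n * (n.factorial : ℂ)) ^ 2 * S.det := by
    have h3 := pfS_sq' (IsUnit.mk0 (2 : ℂ) two_ne_zero) T hTt
    rw [Fintype.card_fin, hT, det_submatrix_equiv_self] at h3
    exact h3
  rw [h1, pfS_map]
  have h3 : pfS T * (starRingEnd ℂ) (pfS T) = ((‖pfS T‖ ^ 2 : ℝ) : ℂ) := by
    rw [Complex.mul_conj, Complex.normSq_eq_norm_sq]
  rw [h3, ← norm_pow, h2, norm_mul, norm_pow, norm_mul, norm_pow, Complex.norm_natCast,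
    Complex.norm_ofNat, cTop]
  push_cast
  ring

end top

end fam

end Crest.Agent.R281.DicW_691
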