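import Crest.Agent.R281.Ti5_846
import Crest.Agent.R281.HkR5_835
import Mathlib.LinearAlgebra.Matrix.Kronecker

/-!
# Row 281, TOPINT, part 6 (helper846): products of (1,1)-forms on `Cn n`

* `bc n`      : the real basis `e_a, i e_a` of `Cn n`
* `MD G`      : `∑_(s,t) sgn s sgn t ∏ k, G k (s k) (t k)`
* `TP_herm`   : `TP (bc n) w = 2^n MD G` if `w k u v = Re (i G_k(u, v))`, `G k` Hermitian
* `MD_same`   : `MD (G, …, G) = n! det G`
* `MD_mul`    : `MD (P * G k) = det P * MD G`
* `MD_two`    : `MD (X, Y, g, …, g) = (n-2)! det g (tr g⁻¹X tr g⁻¹Y - tr g⁻¹X g⁻¹Y)`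
-/

set_option autoImplicit false
set_option linter.unusedSectionVars false

open Set Filter Topology MeasureTheory Complex
open scoped ContDiff Matrix ComplexConjugate Kronecker

namespace Crest.Agent.R281.Ti_846

open Crest.Agent.R281.HkR_835 Equiv
open Crest.Agent.R275.Geo Crest.Agent.R275.C1d194

noncomputable section

section gen

variable {V : Type*} [NormedAddCommGroup V] [NormedSpace ℝ V]
  {K : Type*} [Fintype K] [DecidableEq K]

/-- the product with complex valued factors -/
def TPc (b : K × Fin 2 → V) (h : K → V → V → ℂ) : ℂ :=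
  ∑ σ : Perm (K × Fin 2), ((Perm.sign σ : ℤ) : ℂ) * ∏ k, h k (b (σ (k, 0))) (b (σ (k, 1)))

theorem sum_perm2 (F : Perm (Fin 2) → ℂ) : ∑ e, F e = F 1 + F (swap 0 1) := by
  have : (Finset.univ : Finset (Perm (Fin 2))) = {1, swap 0 1} := by decide
  rw [this, Finset.sum_pair (by decide)]

theorem TP_eq_TPc (b : K × Fin 2 → V) (w : K → Bil V) (h : K → V → V → ℂ)
    (hw : ∀ k u v, ((w k u v : ℝ) : ℂ) = (1 / 2) * (h k u v - h k v u)) :
    ((TP b w : ℝ) : ℂ) = TPc b h := by
  have e1 : ∀ σ : Perm (K × Fin 2), ∏ k, ((w k (b (σ (k, 0))) (b (σ (k, 1))) : ℝ) : ℂ) =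
      (1 / 2) ^ Fintype.card K * ∑ f : K → Perm (Fin 2), ∏ k, (((Perm.sign (f k) : ℤ) : ℂ) *
        h k (b (σ (k, f k 0))) (b (σ (k, f k 1)))) := by
    intro σ
    have h1 : ∀ k, ((w k (b (σ (k, 0))) (b (σ (k, 1))) : ℝ) : ℂ) =
        (1 / 2) * ∑ e : Perm (Fin 2), (((Perm.sign e : ℤ) : ℂ) *
          h k (b (σ (k, e 0))) (b (σ (k, e 1)))) := by
      intro k
      rw [hw, sum_perm2]
      simp
      ring
    simp only [h1]
    rw [Finset.prod_mul_distrib, Finset.prod_univ_sum, Fintype.piFinset_univ]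
    simp
  have e2 : ((TP b w : ℝ) : ℂ) = (1 / 2) ^ Fintype.card K * ∑ f : K → Perm (Fin 2), TPc b h := by
    unfold TP
    push_cast
    simp only [e1]
    have h2 : ∀ σ : Perm (K × Fin 2), ((Perm.sign σ : ℤ) : ℂ) * ((1 / 2) ^ Fintype.card K *
        ∑ f : K → Perm (Fin 2), ∏ k, (((Perm.sign (f k) : ℤ) : ℂ) *
          h k (b (σ (k, f k 0))) (b (σ (k, f k 1))))) = (1 / 2) ^ Fintype.card K *
        ∑ f : K → Perm (Fin 2), ((Perm.sign σ : ℤ) : ℂ) * ∏ k, (((Perm.sign (f k) : ℤ) : ℂ) *
          h k (b (σ (k, f k 0))) (b (σ (k, f k 1)))) := by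
      intro σ
      rw [Finset.mul_sum, Finset.mul_sum, Finset.mul_sum]
      refine Finset.sum_congr rfl fun f _ => by ring
    simp only [h2]
    rw [← Finset.mul_sum, Finset.sum_comm]
    congr 1
    refine Finset.sum_congr rfl fun f _ => ?_
    unfold TPc
    refine Fintype.sum_equiv (Equiv.mulRight (Equiv.prodCongrRight f)) _ _ fun σ => ?_
    have h3 : (Equiv.mulRight (Equiv.prodCongrRight f)) σ = σ * Equiv.prodCongrRight f := rfl
    rw [h3, Perm.sign_mul, Perm.sign_prodCongrRight, Finset.prod_mul_distrib, ← mul_assoc]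
    congr 1
    push_cast
    rfl
  rw [e2]
  simp only [Finset.sum_const, Finset.card_univ, Fintype.card_fun, Fintype.card_perm,
    Fintype.card_fin, nsmul_eq_mul]
  push_cast
  rw [← mul_assoc, ← mul_pow]
  norm_num

end gen

/-! ### the standard basis -/

/-- the basis `e_a, i e_a` -/
def bc (n : ℕ) : Module.Basis (Fin n × Fin 2) ℝ (Cn n) := Module.Basis.ofEquivFun (rcE n)

/-- coordinates of the basis -/
def Zc {n : ℕ} (a : Fin n) (p : Fin n × Fin 2) : ℂ :=
  if a = p.1 then (if p.2 = 0 then 1 else I) else 0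

theorem bc_apply {n : ℕ} (p : Fin n × Fin 2) (a : Fin n) : (bc n p) a = Zc a p := by
  have h1 : bc n p = cc (Pi.single p 1) := by
    unfold bc
    rw [Module.Basis.coe_ofEquivFun]
    rfl
  rw [h1, cc_apply]
  obtain ⟨c, e⟩ := p
  unfold Zc
  by_cases h : a = c
  · subst h
    fin_cases e <;> simp
  · simp [h]

theorem bc_zero {n : ℕ} (a : Fin n) : bc n (a, 0) = EuclideanSpace.single a 1 := by
  ext c
  rw [bc_apply]
  simp [Zc]

theorem bc_one {n : ℕ} (a : Fin n) : bc n (a, 1) = EuclideanSpace.single a I := by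
  ext c
  rw [bc_apply]
  simp [Zc]

/-! ### mixed determinants -/

variable {n : ℕ}

/-- the mixed determinant (not normalised) -/
def MD (G : Fin n → Matrix (Fin n) (Fin n) ℂ) : ℂ :=
  ∑ s : Perm (Fin n), ∑ t : Perm (Fin n),
    ((Perm.sign s : ℤ) : ℂ) * ((Perm.sign t : ℤ) : ℂ) * ∏ k, G k (s k) (t k)

/-- the rows `z_{a k}`, `conj z_{c k}` -/
def Nm (a c : Fin n → Fin n) : Matrix (Fin n × Fin 2) (Fin n × Fin 2) ℂ :=
  Matrix.of fun p q => if p.2 = 0 then Zc (a p.1) q else conj (Zc (c p.1) q)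

theorem sum_Nm (a c : Fin n → Fin n) : ∑ σ : Perm (Fin n × Fin 2), ((Perm.sign σ : ℤ) : ℂ) *
    ∏ k, (Zc (a k) (σ (k, 0)) * conj (Zc (c k) (σ (k, 1)))) = (Nm a c).det := by
  rw [← Matrix.det_transpose, Matrix.det_apply']
  refine Finset.sum_congr rfl fun σ _ => ?_
  congr 1
  rw [Fintype.prod_prod_type]
  refine Finset.prod_congr rfl fun k _ => ?_
  rw [Fin.prod_univ_two]
  simp [Nm]

theorem det_Nm_left {a c : Fin n → Fin n} (h : ¬ Function.Injective a) : (Nm a c).det = 0 := by
  simp only [Function.Injective, not_forall] at h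
  obtain ⟨k, l, h1, h2⟩ := h
  refine Matrix.det_zero_of_row_eq (i := (k, 0)) (j := (l, 0))
    (fun h3 => h2 (congrArg Prod.fst h3)) ?_
  funext q
  simp [Nm, h1]

theorem det_Nm_right {a c : Fin n → Fin n} (h : ¬ Function.Injective c) : (Nm a c).det = 0 := by
  simp only [Function.Injective, not_forall] at h
  obtain ⟨k, l, h1, h2⟩ := h
  refine Matrix.det_zero_of_row_eq (i := (k, 1)) (j := (l, 1))
    (fun h3 => h2 (congrArg Prod.fst h3)) ?_
  funext q
  simp [Nm, h1]

theorem det_Nm_one : (Nm (id : Fin n → Fin n) id).det = (-2 * I) ^ n := by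
  have h1 : Nm (id : Fin n → Fin n) id =
      (1 : Matrix (Fin n) (Fin n) ℂ) ⊗ₖ !![1, I; 1, -I] := by
    ext p q
    obtain ⟨k, e⟩ := p
    obtain ⟨l, f⟩ := q
    rw [Matrix.kroneckerMap_apply]
    by_cases h : k = l
    · subst h
      fin_cases e <;> fin_cases f <;> simp [Nm, Zc]
    · fin_cases e <;> fin_cases f <;> simp [Nm, Zc, h]
  rw [h1, Matrix.det_kronecker, Matrix.det_one, one_pow, one_mul, Matrix.det_fin_two_of,
    Fintype.card_fin]
  congr 1
  ring

theorem det_Nm_perm (s t : Perm (Fin n)) : (Nm s t).det =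
    ((Perm.sign s : ℤ) : ℂ) * ((Perm.sign t : ℤ) : ℂ) * (-2 * I) ^ n := by
  have h1 : Nm s t = (Nm (id : Fin n → Fin n) id).submatrix
      (Equiv.prodCongrLeft (![s, t] : Fin 2 → Perm (Fin n))) id := by
    ext p q
    obtain ⟨k, e⟩ := p
    fin_cases e <;> simp [Nm]
  rw [h1, Matrix.det_permute, det_Nm_one, Perm.sign_prodCongrLeft, Fin.prod_univ_two]
  simp

theorem TPc_herm (G : Fin n → Matrix (Fin n) (Fin n) ℂ) :
    TPc (bc n) (fun k u v => I * hb (G k) u v) = 2 ^ n * MD G := by
  have e1 : ∀ σ : Perm (Fin n × Fin 2), ∏ k, (I * hb (G k) (bc n (σ (k, 0))) (bc n (σ (k, 1)))) =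
      I ^ n * ∑ f : Fin n → Fin n × Fin n, (∏ k, G k (f k).1 (f k).2) *
        ∏ k, (Zc (f k).1 (σ (k, 0)) * conj (Zc (f k).2 (σ (k, 1)))) := by
    intro σ
    rw [Finset.prod_mul_distrib, Finset.prod_const, Finset.card_univ, Fintype.card_fin]
    congr 1
    have h1 : ∀ k, hb (G k) (bc n (σ (k, 0))) (bc n (σ (k, 1))) = ∑ p : Fin n × Fin n,
        G k p.1 p.2 * (Zc p.1 (σ (k, 0)) * conj (Zc p.2 (σ (k, 1)))) := by
      intro k
      unfold hb
      rw [Fintype.sum_prod_type]
      refine Finset.sum_congr rfl fun a _ => Finset.sum_congr rfl fun c _ => ?_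
      rw [bc_apply, bc_apply]
      ring
    simp only [h1]
    rw [Finset.prod_univ_sum, Fintype.piFinset_univ]
    refine Finset.sum_congr rfl fun f _ => ?_
    rw [Finset.prod_mul_distrib]
  have e2 : TPc (bc n) (fun k u v => I * hb (G k) u v) =
      I ^ n * ∑ f : Fin n → Fin n × Fin n, (∏ k, G k (f k).1 (f k).2) *
        (Nm (fun k => (f k).1) fun k => (f k).2).det := by
    unfold TPc
    simp only [e1]
    simp only [← sum_Nm, Finset.mul_sum]
    rw [Finset.sum_comm]
    refine Finset.sum_congr rfl fun f _ => Finset.sum_congr rfl fun σ _ => by ring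
  have e3 : ∑ f : Fin n → Fin n × Fin n, (∏ k, G k (f k).1 (f k).2) *
        (Nm (fun k => (f k).1) fun k => (f k).2).det =
      ∑ st : Perm (Fin n) × Perm (Fin n), (∏ k, G k (st.1 k) (st.2 k)) *
        (((Perm.sign st.1 : ℤ) : ℂ) * ((Perm.sign st.2 : ℤ) : ℂ) * (-2 * I) ^ n) := by
    symm
    refine Fintype.sum_of_injective (fun st : Perm (Fin n) × Perm (Fin n) =>
      fun k => (st.1 k, st.2 k)) ?_ _ _ ?_ ?_
    · rintro ⟨s, t⟩ ⟨s', t'⟩ h
      have h1 : ∀ k, (s k, t k) = (s' k, t' k) := fun k => congrFun h k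
      exact Prod.ext (Equiv.ext fun k => congrArg Prod.fst (h1 k))
        (Equiv.ext fun k => congrArg Prod.snd (h1 k))
    · intro f hf
      by_cases h1 : Function.Injective fun k => (f k).1
      · by_cases h2 : Function.Injective fun k => (f k).2
        · exfalso
          refine hf ⟨(Equiv.ofBijective _ (Finite.injective_iff_bijective.1 h1),
            Equiv.ofBijective _ (Finite.injective_iff_bijective.1 h2)), ?_⟩
          funext k
          rfl
        · rw [det_Nm_right h2, mul_zero]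
      · rw [det_Nm_left h1, mul_zero]
    · rintro ⟨s, t⟩
      show _ = _ * (Nm s t).det
      rw [det_Nm_perm]
  rw [e2, e3, Fintype.sum_prod_type, MD, Finset.mul_sum, Finset.mul_sum]
  refine Finset.sum_congr rfl fun s _ => ?_
  rw [Finset.mul_sum, Finset.mul_sum]
  refine Finset.sum_congr rfl fun t _ => ?_
  have h3 : I ^ n * (-2 * I) ^ n = 2 ^ n := by
    rw [← mul_pow]
    congr 1
    linear_combination (-2) * Complex.I_mul_I
  calc _ = (I ^ n * (-2 * I) ^ n) * (((Perm.sign s : ℤ) : ℂ) * ((Perm.sign t : ℤ) : ℂ) *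
        ∏ k, G k (s k) (t k)) := by ring
    _ = _ := by rw [h3]

/-- **(1,1)-forms** -/
theorem TP_herm {w : Fin n → Bil (Cn n)} {G : Fin n → Matrix (Fin n) (Fin n) ℂ}
    (hG : ∀ k, (G k).IsHermitian) (hw : ∀ k u v, w k u v = (I * hb (G k) u v).re) :
    ((TP (bc n) w : ℝ) : ℂ) = 2 ^ n * MD G := by
  rw [← TPc_herm]
  refine TP_eq_TPc _ _ _ fun k u v => ?_
  rw [hw, Complex.re_eq_add_conj, map_mul, hb_conj (hG k) u v, Complex.conj_I]
  ring

theorem MD_same (G : Matrix (Fin n) (Fin n) ℂ) : MD (fun _ => G) = n.factorial * G.det := by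
  have h1 : ∀ s : Perm (Fin n), ∑ t : Perm (Fin n),
      ((Perm.sign s : ℤ) : ℂ) * ((Perm.sign t : ℤ) : ℂ) * ∏ k, G (s k) (t k) = G.det := by
    intro s
    rw [← Matrix.det_transpose, Matrix.det_apply']
    refine Fintype.sum_equiv (Equiv.mulRight s⁻¹) _ _ fun t => ?_
    have h2 : (Equiv.mulRight s⁻¹) t = t * s⁻¹ := rfl
    rw [h2, Perm.sign_mul, Perm.sign_inv]
    congr 1
    · push_cast; ring
    · refine Fintype.prod_equiv s _ _ fun k => ?_
      simp [Perm.mul_apply]
  unfold MD
  simp only [h1]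
  simp [Fintype.card_perm]

theorem MD_transpose (G : Fin n → Matrix (Fin n) (Fin n) ℂ) : MD (fun k => (G k)ᵀ) = MD G := by
  unfold MD
  rw [Finset.sum_comm]
  refine Finset.sum_congr rfl fun s _ => Finset.sum_congr rfl fun t _ => ?_
  simp only [Matrix.transpose_apply]
  ring

theorem sum_sign_fun (P : Matrix (Fin n) (Fin n) ℂ) (a : Fin n → Fin n) :
    ∑ s : Perm (Fin n), ((Perm.sign s : ℤ) : ℂ) * ∏ k, P (s k) (a k) =
      (P.submatrix id a).det := by
  rw [Matrix.det_apply']
  rfl

/-- **multiplicativity** -/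
theorem MD_mul (P : Matrix (Fin n) (Fin n) ℂ) (G : Fin n → Matrix (Fin n) (Fin n) ℂ) :
    MD (fun k => P * G k) = P.det * MD G := by
  have e1 : ∀ t : Perm (Fin n), ∑ s : Perm (Fin n), ((Perm.sign s : ℤ) : ℂ) *
      ∏ k, (P * G k) (s k) (t k) =
      ∑ a : Fin n → Fin n, (P.submatrix id a).det * ∏ k, G k (a k) (t k) := by
    intro t
    have h1 : ∀ s : Perm (Fin n), ∏ k, (P * G k) (s k) (t k) =
        ∑ a : Fin n → Fin n, (∏ k, P (s k) (a k)) * ∏ k, G k (a k) (t k) := by
      intro s
      simp only [Matrix.mul_apply]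
      rw [Finset.prod_univ_sum, Fintype.piFinset_univ]
      refine Finset.sum_congr rfl fun a _ => Finset.prod_mul_distrib
    simp only [h1, Finset.mul_sum]
    rw [Finset.sum_comm]
    refine Finset.sum_congr rfl fun a _ => ?_
    rw [← sum_sign_fun, Finset.sum_mul]
    refine Finset.sum_congr rfl fun s _ => by ring
  have e2 : ∀ t : Perm (Fin n), ∑ a : Fin n → Fin n, (P.submatrix id a).det *
      ∏ k, G k (a k) (t k) = P.det * ∑ s : Perm (Fin n), ((Perm.sign s : ℤ) : ℂ) *
        ∏ k, G k (s k) (t k) := by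
    intro t
    rw [Finset.mul_sum]
    symm
    refine Fintype.sum_of_injective (fun s : Perm (Fin n) => (s : Fin n → Fin n))
      DFunLike.coe_injective _ _ ?_ ?_
    · intro a ha
      have h1 : ¬ Function.Injective a := fun h => ha
        ⟨Equiv.ofBijective a (Finite.injective_iff_bijective.1 h), rfl⟩
      simp only [Function.Injective, not_forall] at h1
      obtain ⟨k, l, h2, h3⟩ := h1
      rw [Matrix.det_zero_of_column_eq (i := k) (j := l) h3, zero_mul]
      intro p
      simp [h2]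
    · intro s
      rw [Matrix.det_permute']
      ring
  have e3 : ∀ H : Fin n → Matrix (Fin n) (Fin n) ℂ, MD H = ∑ t : Perm (Fin n),
      ((Perm.sign t : ℤ) : ℂ) * ∑ s : Perm (Fin n), ((Perm.sign s : ℤ) : ℂ) *
        ∏ k, H k (s k) (t k) := by
    intro H
    unfold MD
    rw [Finset.sum_comm]
    refine Finset.sum_congr rfl fun t _ => ?_
    rw [Finset.mul_sum]
    refine Finset.sum_congr rfl fun s _ => by ring
  rw [e3, e3, Finset.mul_sum]
  refine Finset.sum_congr rfl fun t _ => ?_
  rw [e1, e2]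
  ring

/-- the number of permutations with two prescribed values -/
theorem card_two {k l : Fin n} (h : k ≠ l) {p q : Fin n} (hpq : p ≠ q) :
    (Finset.univ.filter fun s : Perm (Fin n) => s k = p ∧ s l = q).card = (n - 2).factorial := by
  classical
  -- all the fibres over distinct pairs have the same number of elements
  set N : Fin n → Fin n → ℕ := fun p q =>
    (Finset.univ.filter fun s : Perm (Fin n) => s k = p ∧ s l = q).card with hN
  have h1 : ∀ p' q', p' ≠ q' → N p' q' = N p q := by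
    intro p' q' hpq'
    obtain ⟨ρ, h2, h3⟩ : ∃ ρ : Perm (Fin n), ρ p' = p ∧ ρ q' = q := by
      refine ⟨swap (swap p' p q') q * swap p' p, ?_, ?_⟩
      · rw [Perm.mul_apply, swap_apply_left, swap_apply_of_ne_of_ne ?_ hpq]
        intro h4
        have h5 : swap p' p p' = swap p' p q' := by rw [swap_apply_left]; exact h4
        exact hpq' ((swap p' p).injective h5)
      · rw [Perm.mul_apply, swap_apply_left]
    refine Finset.card_bij (fun s _ => ρ * s) ?_ ?_ ?_
    · intro s hs
      rw [Finset.mem_filter] at hs ⊢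
      refine ⟨Finset.mem_univ _, ?_, ?_⟩
      · rw [Perm.mul_apply, hs.2.1, h2]
      · rw [Perm.mul_apply, hs.2.2, h3]
    · intro s _ t _ h4
      exact mul_left_cancel h4
    · intro t ht
      rw [Finset.mem_filter] at ht
      refine ⟨ρ⁻¹ * t, ?_, by simp⟩
      rw [Finset.mem_filter]
      refine ⟨Finset.mem_univ _, ?_, ?_⟩
      · rw [Perm.mul_apply, ht.2.1, ← h2]; simp
      · rw [Perm.mul_apply, ht.2.2, ← h3]; simp
  have h4 : ∀ p', N p' p' = 0 := by
    intro p'
    rw [hN]
    refine Finset.card_eq_zero.2 (Finset.filter_eq_empty_iff.2 fun s _ h5 => ?_)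
    exact h (s.injective (h5.1.trans h5.2.symm))
  have h5 : ∑ p', ∑ q', N p' q' = n.factorial := by
    have h6 : ∀ s : Perm (Fin n), ∑ p' : Fin n, ∑ q' : Fin n,
        (if s k = p' ∧ s l = q' then (1 : ℕ) else 0) = 1 := by
      intro s
      rw [Finset.sum_eq_single (s k), Finset.sum_eq_single (s l)]
      · simp
      · intro q' _ h7; simp [Ne.symm h7]
      · simp
      · intro p' _ h7; simp [Ne.symm h7]
      · simp
    have h7 : ∑ s : Perm (Fin n), ∑ p' : Fin n, ∑ q' : Fin n,
        (if s k = p' ∧ s l = q' then (1 : ℕ) else 0) = n.factorial := by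
      simp only [h6]
      simp [Fintype.card_perm]
    rw [← h7]
    calc ∑ p', ∑ q', N p' q' = ∑ p' : Fin n, ∑ q' : Fin n, ∑ s : Perm (Fin n),
          (if s k = p' ∧ s l = q' then (1 : ℕ) else 0) := by
          simp only [hN, Finset.card_filter]
      _ = ∑ p' : Fin n, ∑ s : Perm (Fin n), ∑ q' : Fin n,
          (if s k = p' ∧ s l = q' then (1 : ℕ) else 0) :=
          Finset.sum_congr rfl fun p' _ => Finset.sum_comm
      _ = _ := Finset.sum_comm
  have h6 : ∑ p', ∑ q', N p' q' = n * (n - 1) * N p q := by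
    have h7 : ∀ p', ∑ q', N p' q' = (n - 1) * N p q := by
      intro p'
      rw [← Finset.add_sum_erase _ _ (Finset.mem_univ p'), h4, zero_add]
      have h8 : ∀ q' ∈ (Finset.univ : Finset (Fin n)).erase p', N p' q' = N p q := fun q' hq' =>
        h1 p' q' (Finset.ne_of_mem_erase hq').symm
      rw [Finset.sum_congr rfl h8]
      rw [Finset.sum_const, Finset.card_erase_of_mem (Finset.mem_univ _), Finset.card_univ,
        Fintype.card_fin, smul_eq_mul]
    simp only [h7]
    rw [Finset.sum_const, Finset.card_univ, Fintype.card_fin, smul_eq_mul, mul_assoc]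
  rw [h5] at h6
  have h8 : 2 ≤ n := by
    have := Fintype.card_fin n
    by_contra h9
    push Not at h9
    apply h
    apply Fin.ext
    have := k.2
    have := l.2
    omega
  obtain ⟨m, rfl⟩ : ∃ m, n = m + 2 := ⟨n - 2, by omega⟩
  have h9 : (m + 2).factorial = (m + 2) * (m + 1) * m.factorial := by
    rw [Nat.factorial_succ, Nat.factorial_succ]; ring
  rw [h9] at h6
  have h10 : (m + 2) * (m + 1) * m.factorial = (m + 2) * (m + 1) * N p q := h6
  have h11 := Nat.eq_of_mul_eq_mul_left (by positivity) h10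
  show N p q = (m + 2 - 2).factorial
  rw [← h11]
  rfl

theorem sum_two {k l : Fin n} (h : k ≠ l) (F : Fin n → Fin n → ℂ) (hF : ∀ p, F p p = 0) :
    ∑ s : Perm (Fin n), F (s k) (s l) = ((n - 2).factorial : ℂ) * ∑ p, ∑ q, F p q := by
  classical
  have h1 : ∀ s : Perm (Fin n), F (s k) (s l) =
      ∑ p, ∑ q, (if s k = p ∧ s l = q then F p q else 0) := by
    intro s
    rw [Finset.sum_eq_single (s k), Finset.sum_eq_single (s l)]
    · simp
    · intro q' _ h7; simp [Ne.symm h7]
    · simp
    · intro p' _ h7; simp [Ne.symm h7]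
    · simp
  simp only [h1]
  rw [Finset.sum_comm, Finset.mul_sum]
  refine Finset.sum_congr rfl fun p _ => ?_
  rw [Finset.sum_comm, Finset.mul_sum]
  refine Finset.sum_congr rfl fun q _ => ?_
  by_cases hpq : p = q
  · subst hpq
    simp [hF]
  · rw [← Finset.sum_filter, Finset.sum_const, card_two h hpq, nsmul_eq_mul]

/-- two factors different from one -/
theorem MD_two_one {k l : Fin n} (h : k ≠ l) {G : Fin n → Matrix (Fin n) (Fin n) ℂ}
    (hG : ∀ j, j ≠ k → j ≠ l → G j = 1) :
    MD G = ((n - 2).factorial : ℂ) * ((G k).trace * (G l).trace - (G k * G l).trace) := by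
  have e1 : ∀ s : Perm (Fin n), ∑ t : Perm (Fin n),
      ((Perm.sign s : ℤ) : ℂ) * ((Perm.sign t : ℤ) : ℂ) * ∏ j, G j (s j) (t j) =
      G k (s k) (s k) * G l (s l) (s l) - G k (s k) (s l) * G l (s l) (s k) := by
    intro s
    have h1 : ∀ t : Perm (Fin n), ((Perm.sign s : ℤ) : ℂ) * ((Perm.sign t : ℤ) : ℂ) *
        ∏ j, G j (s j) (t j) = ((Perm.sign (s⁻¹ * t) : ℤ) : ℂ) * ∏ j, G j (s j) (s ((s⁻¹ * t) j)) := by
      intro t
      rw [Perm.sign_mul, Perm.sign_inv]
      push_cast
      simp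
    simp only [h1]
    rw [Fintype.sum_equiv (Equiv.mulLeft s⁻¹) (fun t => ((Perm.sign (s⁻¹ * t) : ℤ) : ℂ) *
      ∏ j, G j (s j) (s ((s⁻¹ * t) j))) (fun τ => ((Perm.sign τ : ℤ) : ℂ) *
      ∏ j, G j (s j) (s (τ j))) fun t => rfl]
    have h2 : ∀ τ : Perm (Fin n), τ ∉ ({1, swap k l} : Finset (Perm (Fin n))) →
        ((Perm.sign τ : ℤ) : ℂ) * ∏ j, G j (s j) (s (τ j)) = 0 := by
      intro τ hτ
      have h3 : ∃ j, j ≠ k ∧ j ≠ l ∧ τ j ≠ j := by
        by_contra h4
        push Not at h4
        apply hτ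
        rw [Finset.mem_insert, Finset.mem_singleton]
        have hk : τ k = k ∨ τ k = l := by
          by_contra h5
          push Not at h5
          exact h5.1 (τ.injective (h4 (τ k) h5.1 h5.2))
        have hl : τ l = k ∨ τ l = l := by
          by_contra h5
          push Not at h5
          exact h5.2 (τ.injective (h4 (τ l) h5.1 h5.2))
        rcases hk with hk | hk
        · left
          have hl' : τ l = l := by
            rcases hl with hl | hl
            · exact absurd (τ.injective (hk.trans hl.symm)) h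
            · exact hl
          ext j
          by_cases hj : j = k
          · rw [hj, hk]; rfl
          · by_cases hj' : j = l
            · rw [hj', hl']; rfl
            · rw [h4 j hj hj']; rfl
        · right
          have hl' : τ l = k := by
            rcases hl with hl | hl
            · exact hl
            · exact absurd (τ.injective (hk.trans hl.symm)) h
          ext j
          by_cases hj : j = k
          · rw [hj, hk, swap_apply_left]
          · by_cases hj' : j = l
            · rw [hj', hl', swap_apply_right]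
            · rw [h4 j hj hj', swap_apply_of_ne_of_ne hj hj']
      obtain ⟨j, h5, h6, h7⟩ := h3
      rw [Finset.prod_eq_zero (Finset.mem_univ j), mul_zero]
      rw [hG j h5 h6, Matrix.one_apply_ne]
      exact fun h8 => h7 (s.injective h8).symm
    rw [← Finset.sum_subset (Finset.subset_univ ({1, swap k l} : Finset (Perm (Fin n))))
      fun τ _ hτ => h2 τ hτ]
    have h3 : (1 : Perm (Fin n)) ≠ swap k l := by
      intro h4
      have := congrFun (congrArg DFunLike.coe h4) k
      rw [swap_apply_left] at this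
      exact h this
    rw [Finset.sum_pair h3]
    have h4 : ∀ τ : Perm (Fin n), (∀ j, j ≠ k → j ≠ l → τ j = j) →
        ∏ j, G j (s j) (s (τ j)) = G k (s k) (s (τ k)) * G l (s l) (s (τ l)) := by
      intro τ hτ
      rw [← Finset.mul_prod_erase _ _ (Finset.mem_univ k),
        ← Finset.mul_prod_erase _ _ (Finset.mem_erase.2 ⟨h.symm, Finset.mem_univ l⟩),
        Finset.prod_eq_one, mul_one]
      intro j hj
      have hjl := Finset.ne_of_mem_erase hj
      have hjk := Finset.ne_of_mem_erase (Finset.mem_of_mem_erase hj)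
      rw [hG j hjk hjl, hτ j hjk hjl, Matrix.one_apply_eq]
    rw [h4 1 (fun _ _ _ => rfl), h4 (swap k l) fun j h5 h6 => swap_apply_of_ne_of_ne h5 h6,
      Perm.sign_swap h, swap_apply_left, swap_apply_right]
    simp
    ring
  unfold MD
  simp only [e1]
  rw [sum_two h (fun p q => G k p p * G l q q - G k p q * G l q p) (fun p => by ring)]
  congr 1
  simp only [Matrix.trace, Matrix.diag_apply, Matrix.mul_apply, Finset.sum_sub_distrib,
    Finset.sum_mul_sum]

/-- **two factors different from `g`** -/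
theorem MD_two {k l : Fin n} (h : k ≠ l) {G : Fin n → Matrix (Fin n) (Fin n) ℂ}
    {g : Matrix (Fin n) (Fin n) ℂ} (hg : IsUnit g.det) (hG : ∀ j, j ≠ k → j ≠ l → G j = g) :
    MD G = ((n - 2).factorial : ℂ) * g.det *
      ((g⁻¹ * G k).trace * (g⁻¹ * G l).trace - (g⁻¹ * G k * (g⁻¹ * G l)).trace) := by
  have h1 : G = fun j => g * (g⁻¹ * G j) := by
    funext j
    rw [← Matrix.mul_assoc, Matrix.mul_nonsing_inv g hg, Matrix.one_mul]
  have h2 : MD G = g.det * MD (fun j => g⁻¹ * G j) := by
    conv_lhs => rw [h1]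
    rw [MD_mul]
  rw [h2, MD_two_one h fun j h3 h4 => by rw [hG j h3 h4, Matrix.nonsing_inv_mul g hg]]
  ring

end

end Crest.Agent.R281.Ti_846
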