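import Crest.Agent.R281.DicW1_691
import Crest.Agent.R281.Ti6_846
import Crest.Agent.R281.Defs_273
import Crest.Prelude.Def_CXIntegral

/-!
# Row 281, HK-DIC-INT, part 2 (helper691): the frozen `wedgeTopEval`

* `wte_comp` : `wedgeTopEval (T^* β) = det_ℝ T * wedgeTopEval β`
* for `σ ![u,v] = sb S u v`, `τ = conj σ`, `α ![u,v] = κ (hb G u v - hb G v u)`, `N = 2n`:
  `wte_top` : `σⁿ τⁿ = cW n |det S|`; `wte_two` : `σⁿ⁻¹ τⁿ⁻¹ α² = -(κ²/n²) cW n qm S G G`;
  `wte_zero` : `σᵃ τᵇ α^(2n-a-b) = 0` if `a ≠ b`.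
-/

set_option autoImplicit false
set_option linter.unusedSectionVars false

namespace Crest.Agent.R281.DicW_691

open Matrix Finset Crest.Agent.R208.PF Complex
open scoped ComplexConjugate
open Crest.Agent.R281.HkR_835 Crest.Agent.R281.Ti_846 Crest.Agent.R281.Defs_273
open Crest.CxGeometry (stdRealBasis wedgeTopEval)

noncomputable section

variable {N : ℕ}

/-- 2-forms on `ℂ^N` -/
abbrev F2c (N : ℕ) := (EuclideanSpace ℂ (Fin N)) [⋀^Fin 2]→L[ℝ] ℂ

theorem std_eq (p : Fin N × Fin 2) : stdRealBasis N p = bc N p := by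
  obtain ⟨a, x⟩ := p
  unfold stdRealBasis
  fin_cases x
  · simp [bc_zero]
  · simp [bc_one]

/-- the Gram matrix -/
def gm (β : F2c N) : Matrix (Fin N × Fin 2) (Fin N × Fin 2) ℂ :=
  Matrix.of fun p q => β ![bc N p, bc N q]

theorem wte_eq (β : Fin N → F2c N) :
    wedgeTopEval β = (1 / (2 : ℂ) ^ N) * mixS fun k => gm (β k) := by
  unfold wedgeTopEval mixS gm
  simp only [std_eq, Matrix.of_apply]

/-! ### naturality -/

theorem add_left (β : F2c N) (x y w : EuclideanSpace ℂ (Fin N)) :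
    β ![x + y, w] = β ![x, w] + β ![y, w] := by
  have h := β.map_update_add ![x, w] 0 x y
  have e : ∀ z, Function.update ![x, w] 0 z = ![z, w] := by
    intro z
    ext i
    fin_cases i <;> rfl
  rwa [e, e, e] at h

theorem smul_left (β : F2c N) (c : ℝ) (x w : EuclideanSpace ℂ (Fin N)) :
    β ![c • x, w] = c • β ![x, w] := by
  have h := β.map_update_smul ![x, w] 0 c x
  have e : ∀ z, Function.update ![x, w] 0 z = ![z, w] := by
    intro z
    ext i
    fin_cases i <;> rfl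
  rwa [e, e] at h

theorem add_right (β : F2c N) (x y w : EuclideanSpace ℂ (Fin N)) :
    β ![w, x + y] = β ![w, x] + β ![w, y] := by
  have h := β.map_update_add ![w, x] 1 x y
  have e : ∀ z, Function.update ![w, x] 1 z = ![w, z] := by
    intro z
    ext i
    fin_cases i <;> rfl
  rwa [e, e, e] at h

theorem smul_right (β : F2c N) (c : ℝ) (x w : EuclideanSpace ℂ (Fin N)) :
    β ![w, c • x] = c • β ![w, x] := by
  have h := β.map_update_smul ![w, x] 1 c x
  have e : ∀ z, Function.update ![w, x] 1 z = ![w, z] := by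
    intro z
    ext i
    fin_cases i <;> rfl
  rwa [e, e] at h

/-- a 2-form as a bilinear map -/
def bil (β : F2c N) :
    EuclideanSpace ℂ (Fin N) →ₗ[ℝ] EuclideanSpace ℂ (Fin N) →ₗ[ℝ] ℂ :=
  LinearMap.mk₂ ℝ (fun u v => β ![u, v]) (fun x y w => add_left β x y w)
    (fun c x w => smul_left β c x w) (fun w x y => add_right β x y w)
    (fun c w x => smul_right β c x w)

theorem bil_apply (β : F2c N) (u v : EuclideanSpace ℂ (Fin N)) : bil β u v = β ![u, v] := rfl

/-- the matrix of `T` in the basis `bc` -/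
def tm (T : EuclideanSpace ℂ (Fin N) →L[ℝ] EuclideanSpace ℂ (Fin N)) :
    Matrix (Fin N × Fin 2) (Fin N × Fin 2) ℂ :=
  (LinearMap.toMatrix (bc N) (bc N) (T : _ →ₗ[ℝ] _)).map ((↑) : ℝ → ℂ)

theorem det_tm (T : EuclideanSpace ℂ (Fin N) →L[ℝ] EuclideanSpace ℂ (Fin N)) :
    (tm T).det = ((T.det : ℝ) : ℂ) := by
  have h1 : tm T = (Complex.ofRealHom : ℝ →+* ℂ).mapMatrix
      (LinearMap.toMatrix (bc N) (bc N) (T : _ →ₗ[ℝ] _)) := rfl
  rw [h1, ← RingHom.map_det, LinearMap.det_toMatrix]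
  rfl

theorem T_bc (T : EuclideanSpace ℂ (Fin N) →L[ℝ] EuclideanSpace ℂ (Fin N)) (p : Fin N × Fin 2) :
    T (bc N p) = ∑ r, (LinearMap.toMatrix (bc N) (bc N) (T : _ →ₗ[ℝ] _)) r p • bc N r := by
  have h := (bc N).sum_repr (T (bc N p))
  conv_lhs => rw [← h]
  refine Finset.sum_congr rfl fun r _ => ?_
  rw [LinearMap.toMatrix_apply]
  rfl

theorem gm_comp (β : F2c N) (T : EuclideanSpace ℂ (Fin N) →L[ℝ] EuclideanSpace ℂ (Fin N)) :
    gm (β.compContinuousLinearMap T) = (tm T)ᵀ * gm β * tm T := by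
  ext p q
  have h1 : gm (β.compContinuousLinearMap T) p q = bil β (T (bc N p)) (T (bc N q)) := by
    rw [bil_apply]
    show β.compContinuousLinearMap T ![bc N p, bc N q] = _
    rw [ContinuousAlternatingMap.compContinuousLinearMap_apply]
    congr 1
    ext i
    fin_cases i <;> rfl
  rw [h1, T_bc T p, T_bc T q]
  simp only [map_sum, map_smul, LinearMap.sum_apply, LinearMap.smul_apply]
  rw [Matrix.mul_apply]
  refine Finset.sum_congr rfl fun s _ => ?_
  rw [Matrix.mul_apply, Finset.sum_mul, Finset.smul_sum]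
  refine Finset.sum_congr rfl fun r _ => ?_
  rw [bil_apply]
  show _ • (_ • β ![bc N r, bc N s]) = ((_ : ℝ) : ℂ) * β ![bc N r, bc N s] * ((_ : ℝ) : ℂ)
  rw [Complex.real_smul, Complex.real_smul]
  ring

/-- **naturality** -/
theorem wte_comp (β : Fin N → F2c N)
    (T : EuclideanSpace ℂ (Fin N) →L[ℝ] EuclideanSpace ℂ (Fin N)) :
    wedgeTopEval (fun k => (β k).compContinuousLinearMap T) =
      ((T.det : ℝ) : ℂ) * wedgeTopEval β := by
  rw [wte_eq, wte_eq]
  simp only [gm_comp]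
  rw [mixS_congr, det_tm]
  ring

/-! ### forms with a type -/

/-- coordinates `dz`, `dz̄` of the basis -/
def B0 (N : ℕ) : Matrix (Fin N × Fin 2) (Fin N × Fin 2) ℂ :=
  Nm (id : Fin N → Fin N) id

theorem det_B0 : (B0 N).det = (-2 * I) ^ N := det_Nm_one

theorem B0_zero (a : Fin N) (p : Fin N × Fin 2) : B0 N (a, 0) p = (bc N p) a := by
  rw [bc_apply]
  rfl

theorem B0_one (a : Fin N) (p : Fin N × Fin 2) : B0 N (a, 1) p = conj ((bc N p) a) := by
  rw [bc_apply]
  rfl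

theorem B0_bl (x y : Fin 2) (X : Matrix (Fin N) (Fin N) ℂ) (p q : Fin N × Fin 2) :
    ((B0 N)ᵀ * bl x y X * B0 N) p q = ∑ a, ∑ b, B0 N (a, x) p * X a b * B0 N (b, y) q := by
  rw [Matrix.mul_apply, Fintype.sum_prod_type, Finset.sum_comm]
  have h1 : ∀ b c, ((B0 N)ᵀ * bl x y X) p (b, c) =
      if c = y then ∑ a, B0 N (a, x) p * X a b else 0 := by
    intro b c
    rw [Matrix.mul_apply, Fintype.sum_prod_type]
    by_cases hc : c = y
    · rw [if_pos hc]
      refine Finset.sum_congr rfl fun a _ => ?_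
      rw [Finset.sum_eq_single x]
      · simp [bl_apply, hc]
      · intro d _ hd
        simp [bl_apply, hd]
      · simp
    · rw [if_neg hc]
      refine Finset.sum_eq_zero fun a _ => Finset.sum_eq_zero fun d _ => ?_
      simp [bl_apply, hc]
  simp only [h1]
  rw [Finset.sum_eq_single y]
  · simp only [if_true, Finset.sum_mul]
    rw [Finset.sum_comm]
  · intro c _ hc
    simp [hc]
  · simp

theorem gm_20 {β : F2c N} {S : Matrix (Fin N) (Fin N) ℂ} (h : ∀ u v, β ![u, v] = sb S u v) :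
    gm β = (B0 N)ᵀ * bl 0 0 S * B0 N := by
  ext p q
  rw [B0_bl]
  show β ![bc N p, bc N q] = _
  rw [h]
  unfold sb
  refine Finset.sum_congr rfl fun a _ => Finset.sum_congr rfl fun b _ => ?_
  rw [B0_zero, B0_zero]
  ring

theorem gm_02 {β : F2c N} {S : Matrix (Fin N) (Fin N) ℂ}
    (h : ∀ u v, β ![u, v] = conj (sb S u v)) :
    gm β = (B0 N)ᵀ * bl 1 1 (S.map conj) * B0 N := by
  ext p q
  rw [B0_bl]
  show β ![bc N p, bc N q] = _
  rw [h]
  unfold sb
  rw [map_sum]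
  refine Finset.sum_congr rfl fun a _ => ?_
  rw [map_sum]
  refine Finset.sum_congr rfl fun b _ => ?_
  rw [B0_one, B0_one, map_mul, map_mul, Matrix.map_apply]
  ring

theorem gm_11 {β : F2c N} {G : Matrix (Fin N) (Fin N) ℂ} {κ : ℂ}
    (h : ∀ u v, β ![u, v] = κ * (hb G u v - hb G v u)) :
    gm β = (B0 N)ᵀ * b11 (κ • G) * B0 N := by
  ext p q
  rw [b11, Matrix.mul_sub, Matrix.sub_mul, Matrix.sub_apply, B0_bl, B0_bl]
  show β ![bc N p, bc N q] = _
  rw [h, mul_sub]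
  unfold hb
  congr 1
  · rw [Finset.mul_sum]
    refine Finset.sum_congr rfl fun a _ => ?_
    rw [Finset.mul_sum]
    refine Finset.sum_congr rfl fun b _ => ?_
    rw [B0_zero, B0_one, Matrix.smul_apply, smul_eq_mul]
    ring
  · rw [Finset.mul_sum, Finset.sum_comm]
    simp only [Finset.mul_sum]
    rw [Finset.sum_comm]
    rw [Finset.sum_comm]
    refine Finset.sum_congr rfl fun a _ => Finset.sum_congr rfl fun b _ => ?_
    rw [B0_zero, B0_one, Matrix.transpose_apply, Matrix.smul_apply, smul_eq_mul]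
    ring

/-- products of forms with a type -/
theorem wte_fl (a b : ℕ) {σ τ α : F2c N} {S G : Matrix (Fin N) (Fin N) ℂ} {κ : ℂ}
    (hσ : ∀ u v, σ ![u, v] = sb S u v) (hτ : ∀ u v, τ ![u, v] = conj (sb S u v))
    (hα : ∀ u v, α ![u, v] = κ * (hb G u v - hb G v u)) :
    wedgeTopEval (fl a b σ τ α : Fin N → F2c N) =
      (-I) ^ N * mixS (fl a b (bl 0 0 S) (bl 1 1 (S.map conj)) (b11 (κ • G)) : Fin N → _) := by
  have h1 : (fun k => gm ((fl a b σ τ α : Fin N → F2c N) k)) = fun k => (B0 N)ᵀ *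
      (fl a b (bl 0 0 S) (bl 1 1 (S.map conj)) (b11 (κ • G)) : Fin N → _) k * B0 N := by
    funext k
    unfold fl
    split_ifs
    · exact gm_20 hσ
    · exact gm_02 hτ
    · exact gm_11 hα
  rw [wte_eq, h1, mixS_congr, det_B0, ← mul_assoc]
  congr 1
  rw [one_div, ← inv_pow, ← mul_pow]
  congr 1
  ring

/-- **type vanishing** -/
theorem wte_zero {a b : ℕ} (h : a + b ≤ N) (hab : a ≠ b) {σ τ α : F2c N}
    {S G : Matrix (Fin N) (Fin N) ℂ} {κ : ℂ}
    (hσ : ∀ u v, σ ![u, v] = sb S u v) (hτ : ∀ u v, τ ![u, v] = conj (sb S u v))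
    (hα : ∀ u v, α ![u, v] = κ * (hb G u v - hb G v u)) :
    wedgeTopEval (fl a b σ τ α : Fin N → F2c N) = 0 := by
  rw [wte_fl a b hσ hτ hα, type_zero h hab, mul_zero]

variable {n : ℕ}

/-- the constant -/
def cW (n : ℕ) : ℂ := (-I) ^ (2 * n) * cTop n

theorem cW_ne (n : ℕ) : cW n ≠ 0 :=
  mul_ne_zero (pow_ne_zero _ (neg_ne_zero.2 I_ne_zero)) (cTop_ne n)

/-- **the top form** -/
theorem wte_top {σ τ α : F2c (2 * n)} {S G : Matrix (Fin (2 * n)) (Fin (2 * n)) ℂ} {κ : ℂ}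
    (hS : Sᵀ = -S) (hσ : ∀ u v, σ ![u, v] = sb S u v) (hτ : ∀ u v, τ ![u, v] = conj (sb S u v))
    (hα : ∀ u v, α ![u, v] = κ * (hb G u v - hb G v u)) :
    wedgeTopEval (fl n n σ τ α : Fin (2 * n) → F2c (2 * n)) = cW n * ((‖S.det‖ : ℝ) : ℂ) := by
  rw [wte_fl n n hσ hτ hα, top_det hS, cW]
  ring

/-- **two factors of type (1,1)** -/
theorem wte_two (hn : 1 ≤ n) {σ τ α : F2c (2 * n)}
    {S G : Matrix (Fin (2 * n)) (Fin (2 * n)) ℂ} {κ : ℂ} (hS : Sᵀ = -S) (hd : S.det ≠ 0)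
    (hσ : ∀ u v, σ ![u, v] = sb S u v) (hτ : ∀ u v, τ ![u, v] = conj (sb S u v))
    (hα : ∀ u v, α ![u, v] = κ * (hb G u v - hb G v u)) :
    wedgeTopEval (fl (n - 1) (n - 1) σ τ α : Fin (2 * n) → F2c (2 * n)) =
      -(κ ^ 2 / (n : ℂ) ^ 2) * cW n * qm S G G := by
  have hS' : (S.map conj)ᵀ = -(S.map conj) := by
    ext a b
    have := congrFun (congrFun hS a) b
    rw [Matrix.transpose_apply, Matrix.neg_apply] at this
    rw [Matrix.transpose_apply, Matrix.neg_apply, Matrix.map_apply, Matrix.map_apply, this,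
      map_neg]
  have hd' : (S.map conj).det = conj S.det := by
    have h1 : S.map conj = (starRingEnd ℂ).mapMatrix S := rfl
    rw [h1, ← RingHom.map_det]
  have hu' : IsUnit (S.map conj).det := by
    rw [hd']
    exact isUnit_iff_ne_zero.2 (by simpa using hd)
  have h1 := two_one hn hS hS' (isUnit_iff_ne_zero.2 hd) hu' (κ • G)
  have h2 := top_det hS (κ • G)
  rw [h2] at h1
  rw [wte_fl _ _ hσ hτ hα]
  have hn0 : (n : ℂ) ≠ 0 := by exact_mod_cast (by omega : n ≠ 0)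
  have h3 : ((S.map conj)⁻¹ * ((κ • G)ᵀ * (S⁻¹ * (κ • G)))).trace =
      κ ^ 2 * (S⁻¹ * G * (S.map conj)⁻¹ * Gᵀ).trace := by
    rw [Matrix.transpose_smul, Matrix.mul_smul, Matrix.smul_mul, Matrix.mul_smul,
      Matrix.mul_smul, Matrix.mul_smul, smul_smul, Matrix.trace_smul, smul_eq_mul, ← pow_two]
    congr 1
    rw [Matrix.mul_assoc (S⁻¹ * G), Matrix.trace_mul_comm (S⁻¹ * G), Matrix.mul_assoc]
  rw [h3] at h1
  have h4 : mixS (fl (n - 1) (n - 1) (bl 0 0 S) (bl 1 1 (S.map conj)) (b11 (κ • G)) :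
      Fin (2 * n) → _) = (κ ^ 2 / (n : ℂ) ^ 2) * cTop n *
        (((‖S.det‖ : ℝ) : ℂ) * (S⁻¹ * G * (S.map conj)⁻¹ * Gᵀ).trace) := by
    field_simp
    linear_combination h1
  rw [h4, cW, qm]
  ring

end

end Crest.Agent.R281.DicW_691
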