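import Crest.Agent.R281.DicW2_691
import Crest.Agent.R281.DicA_273
import Crest.Agent.R281.Ti7_846
import Crest.Agent.R273.StokesV_332

/-!
# Row 281, HK-DIC-INT, part 3 (helper691): the frozen integral `integralTop`

`K : Lk A X` (273's link of `A : Atl N M` with the preferred charts of `X`, `M` compact).

* `dn K β i x`    : the density of `β₀ ∧ … ∧ β_{N-1}` in the chart `i`
* `integralTop_eq`: `integralTop P' β = κH N * intD P (dn K β)`, `κH N > 0`
* `exists_cp`     : chart partitions exist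
-/

set_option autoImplicit false
set_option linter.unusedSectionVars false

open Set Filter Topology Complex MeasureTheory
open scoped ContDiff Manifold ComplexConjugate Matrix

namespace Crest.Agent.R281.DicW_691

open Crest.Agent.R275.Geo Crest.Agent.R275.Core144 Crest.Agent.R275.C1d194
open Crest.Agent.R275.SerG398 (lint dens)
open Crest.Agent.R273.StokesV_332
open Crest.Agent.R281.Ti_846 Crest.Agent.R281.DicA_273
open Crest.CxGeometry (Form chartRep transDeriv wedgeTopEval ChartPartition integralTop)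

noncomputable section

/-! ### change of variables -/

section chg

variable {V X : Type} [NormedAddCommGroup V] [NormedSpace ℝ V] [FiniteDimensional ℝ V]
  [MeasurableSpace V] [BorelSpace V] (μ : Measure V) [μ.IsAddHaarMeasure] [TopologicalSpace X]

theorem chgC (e e' : OpenPartialHomeomorph X V) {g g' : V → ℂ}
    (hsm : DifferentiableOn ℝ (fun z => e' (e.symm z)) (ovc e e'))
    (hdet : ∀ z ∈ ovc e e', 0 ≤ (fderiv ℝ (fun z => e' (e.symm z)) z).det)
    (hz : ∀ z ∈ e.target, e.symm z ∉ e'.source → g z = 0)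
    (hz' : ∀ z ∈ e'.target, e'.symm z ∉ e.source → g' z = 0)
    (htr : ∀ z ∈ ovc e e', g z =
      (((fderiv ℝ (fun z => e' (e.symm z)) z).det : ℝ) : ℂ) * g' (e' (e.symm z)))
    (hint : IntegrableOn g e.target μ) :
    IntegrableOn g' e'.target μ ∧ ∫ z in e.target, g z ∂μ = ∫ z in e'.target, g' z ∂μ := by
  have hS := isOpen_ovc e e'
  have hS' := isOpen_ovc e' e
  have h1 : ∫ z in e.target, g z ∂μ = ∫ z in ovc e e', g z ∂μ :=
    setIntegral_eq_of_subset_of_forall_sdiff_eq_zero e.open_target.measurableSet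
      (fun z hz => hz.1) fun z hz1 => hz z hz1.1 fun h => hz1.2 ⟨hz1.1, h⟩
  have h2 : ∫ z in e'.target, g' z ∂μ = ∫ z in ovc e' e, g' z ∂μ :=
    setIntegral_eq_of_subset_of_forall_sdiff_eq_zero e'.open_target.measurableSet
      (fun z hz => hz.1) fun z hz1 => hz' z hz1.1 fun h => hz1.2 ⟨hz1.1, h⟩
  have him : (fun z => e' (e.symm z)) '' ovc e e' = ovc e' e := by
    ext y
    constructor
    · rintro ⟨z, hz, rfl⟩
      refine ⟨e'.map_source hz.2, ?_⟩
      show e'.symm (e' (e.symm z)) ∈ e.source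
      rw [e'.left_inv hz.2]
      exact e.map_target hz.1
    · intro hy
      refine ⟨e (e'.symm y), ⟨e.map_source hy.2, ?_⟩, ?_⟩
      · rw [e.left_inv hy.2]
        exact e'.map_target hy.1
      · show e' (e.symm (e (e'.symm y))) = y
        rw [e.left_inv hy.2, e'.right_inv hy.1]
  have hinj : InjOn (fun z => e' (e.symm z)) (ovc e e') := by
    intro z hz y hy h
    have h1 : e.symm z = e.symm y := e'.injOn hz.2 hy.2 h
    exact e.symm.injOn hz.1 hy.1 h1
  have hd : ∀ z ∈ ovc e e', HasFDerivWithinAt (fun z => e' (e.symm z))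
      (fderiv ℝ (fun z => e' (e.symm z)) z) (ovc e e') z := fun z hz =>
    ((hsm z hz).differentiableAt (hS.mem_nhds hz)).hasFDerivAt.hasFDerivWithinAt
  have hg : ∀ z ∈ ovc e e', |(fderiv ℝ (fun z => e' (e.symm z)) z).det| • g' (e' (e.symm z)) =
      g z := by
    intro z hz
    rw [htr z hz, abs_of_nonneg (hdet z hz), Complex.real_smul]
  constructor
  · have h3 := (integrableOn_image_iff_integrableOn_abs_det_fderiv_smul μ hS.measurableSet
      hd hinj g').2 (by
        refine (integrableOn_congr_fun hg hS.measurableSet).2 ?_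
        exact hint.mono_set fun z hz => hz.1)
    rw [him] at h3
    exact h3.of_forall_sdiff_eq_zero e'.open_target.measurableSet fun z hz =>
      hz' z hz.1 fun h => hz.2 ⟨hz.1, h⟩
  · have h3 := integral_image_eq_integral_abs_det_fderiv_smul μ hS.measurableSet
      hd hinj g'
    rw [h1, h2, ← him, h3]
    exact (setIntegral_congr_fun hS.measurableSet hg).symm

/-- integrability of a function supported in a compact subset of a chart -/
theorem integrableOn_cptC (e : OpenPartialHomeomorph X V) {g : V → ℂ} {Kc : Set X}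
    (hK : IsCompact Kc) (hKs : Kc ⊆ e.source) (hg : ContinuousOn g e.target)
    (h0 : ∀ z ∈ e.target, e.symm z ∉ Kc → g z = 0) : IntegrableOn g e.target μ := by
  have hc : IsCompact (e '' Kc) := hK.image_of_continuousOn (e.continuousOn.mono hKs)
  have hsub : e '' Kc ⊆ e.target := by
    rintro _ ⟨x, hx, rfl⟩
    exact e.map_source (hKs hx)
  have h1 : IntegrableOn g (e '' Kc) μ := (hg.mono hsub).integrableOn_compact hc
  refine h1.of_forall_sdiff_eq_zero e.open_target.measurableSet fun z hz => ?_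
  refine h0 z hz.1 fun h => hz.2 ⟨e.symm z, h, e.right_inv hz.1⟩

end chg

/-! ### Lebesgue measures -/

/-- the ratio of the two Lebesgue measures -/
def κH (N : ℕ) : ℝ := (Measure.addHaarScalarFactor (volume : Measure (Cn N)) (lc N) : ℝ)

theorem κH_pos (N : ℕ) : 0 < κH N := by
  unfold κH
  exact_mod_cast Measure.addHaarScalarFactor_pos_of_isAddHaarMeasure
    (volume : Measure (Cn N)) (lc N)

theorem setIntegral_vol {N : ℕ} (s : Set (Cn N)) (g : Cn N → ℂ) :
    ∫ z in s, g z = (κH N : ℂ) * ∫ z in s, g z ∂(lc N) := by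
  have h1 : (volume : Measure (Cn N)) =
      Measure.addHaarScalarFactor (volume : Measure (Cn N)) (lc N) • lc N :=
    Measure.isAddLeftInvariant_eq_smul _ _
  have h2 : ∫ z in s, g z = ∫ z in s, g z
      ∂(Measure.addHaarScalarFactor (volume : Measure (Cn N)) (lc N) • lc N) := by
    rw [← h1]
  rw [h2, Measure.restrict_smul, integral_smul_nnreal_measure]
  unfold κH
  rw [NNReal.smul_def, Complex.real_smul]

variable {N : ℕ} {M : Type} [TopologicalSpace M] (A : Atl N M)

theorem lint_eq_lc (i : A.ι) (F : M → ℂ) :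
    lint A i F = ∫ z in (A.e i).target, F ((A.e i).symm z) ∂(lc N) := by
  have h1 : MeasurableEmbedding ((rcE N).symm : (RI N → ℝ) → Cn N) :=
    (rcE N).symm.toContinuousLinearEquiv.toHomeomorph.measurableEmbedding
  unfold lc
  rw [h1.setIntegral_map]
  have h2 : MeasurableSet ((rcE N).symm ⁻¹' (A.e i).target : Set (RI N → ℝ)) :=
    h1.measurable (A.e i).open_target.measurableSet
  rw [← integral_indicator h2]
  unfold Crest.Agent.R275.SerG398.lint
  congr 1

variable {A}

/-! ### the density -/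

universe u

variable {X : Type u} [TopologicalSpace X] [ChartedSpace (Cn N) X]

/-- the form `β` in the chart `i` -/
def fi (K : Lk A X) (β : Form N X 2) (i : A.ι) (x : M) : F2c N :=
  (β (K.g x)).compContinuousLinearMap ((K.tD i x).restrictScalars ℝ)

theorem fi_apply (K : Lk A X) (β : Form N X 2) (i : A.ι) (x : M) (u v : Cn N) :
    fi K β i x ![u, v] = β (K.g x) ![K.tD i x u, K.tD i x v] := by
  unfold fi
  rw [ContinuousAlternatingMap.compContinuousLinearMap_apply]
  congr 1
  ext j
  fin_cases j <;> rfl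

/-- the density of `β₀ ∧ … ∧ β_{N-1}` -/
def dn (K : Lk A X) (β : Fin N → Form N X 2) (i : A.ι) (x : M) : ℂ :=
  wedgeTopEval fun k => fi K (β k) i x

variable [IsManifold 𝓘(ℂ, Cn N) ω X]

theorem diff_chg (K : Lk A X) {i : A.ι} {x : M} (hx : x ∈ (A.e i).source) {c : X}
    (hc : K.g x ∈ (chartAt (Cn N) c).source) :
    DifferentiableAt ℂ (fun z => chartAt (Cn N) c (K.g ((A.e i).symm z))) (A.e i x) :=
  (K.hasFDerivAt_chg hx hc).differentiableAt

/-- chain rule -/
theorem tD_chain (K : Lk A X) {i : A.ι} {x : M} (hx : x ∈ (A.e i).source) {c : X}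
    (hc : K.g x ∈ (chartAt (Cn N) c).source) :
    (K.tD i x).restrictScalars ℝ = (transDeriv c (chartAt (Cn N) c (K.g x))).comp
      (fderiv ℝ (fun z => chartAt (Cn N) c (K.g ((A.e i).symm z))) (A.e i x)) := by
  have hw : chartAt (Cn N) c (K.g x) ∈ (chartAt (Cn N) c).target :=
    (chartAt (Cn N) c).map_source hc
  have hs : (chartAt (Cn N) c).symm (chartAt (Cn N) c (K.g x)) = K.g x :=
    (chartAt (Cn N) c).left_inv hc
  rw [transDeriv_eq c hw, hs]
  have h1 := diff_chg K hx hc
  have h2 : DifferentiableAt ℂ (fun v => chartAt (Cn N) (K.g x) ((chartAt (Cn N) c).symm v))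
      (chartAt (Cn N) c (K.g x)) := diffAt_trans hc (mem_chart_source (Cn N) (K.g x))
  have h3 : (fun z => chartAt (Cn N) (K.g x) (K.g ((A.e i).symm z))) =ᶠ[𝓝 (A.e i x)]
      fun z => (fun v => chartAt (Cn N) (K.g x) ((chartAt (Cn N) c).symm v))
        (chartAt (Cn N) c (K.g ((A.e i).symm z))) := by
    have h4 : ContinuousAt (fun z => K.g ((A.e i).symm z)) (A.e i x) :=
      K.g.continuous.continuousAt.comp ((A.e i).continuousAt_symm ((A.e i).map_source hx))
    have h5 : (chartAt (Cn N) c).source ∈ 𝓝 (K.g ((A.e i).symm (A.e i x))) := by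
      rw [(A.e i).left_inv hx]
      exact (chartAt (Cn N) c).open_source.mem_nhds hc
    filter_upwards [h4 h5] with z hz
    show _ = chartAt (Cn N) (K.g x) ((chartAt (Cn N) c).symm (chartAt (Cn N) c _))
    rw [(chartAt (Cn N) c).left_inv hz]
  have h6 : HasFDerivAt (fun v => chartAt (Cn N) (K.g x) ((chartAt (Cn N) c).symm v))
      (fderiv ℂ (fun v => chartAt (Cn N) (K.g x) ((chartAt (Cn N) c).symm v))
        (chartAt (Cn N) c (K.g x))) (chartAt (Cn N) c (K.g ((A.e i).symm (A.e i x)))) := by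
    rw [(A.e i).left_inv hx]
    exact h2.hasFDerivAt
  have h7 := (h6.comp (A.e i x) h1.hasFDerivAt).congr_of_eventuallyEq h3
  have h8 : K.tD i x = _ := h7.fderiv
  rw [h8, h1.fderiv_restrictScalars ℝ]
  rfl

theorem det_chg_nonneg (K : Lk A X) {i : A.ι} {x : M} (hx : x ∈ (A.e i).source) {c : X}
    (hc : K.g x ∈ (chartAt (Cn N) c).source) :
    0 ≤ (fderiv ℝ (fun z => chartAt (Cn N) c (K.g ((A.e i).symm z))) (A.e i x)).det := by
  rw [(diff_chg K hx hc).fderiv_restrictScalars ℝ, det_re]
  positivity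

/-- the density in a preferred chart -/
theorem dn_tr (K : Lk A X) (β : Fin N → Form N X 2) {i : A.ι} {x : M}
    (hx : x ∈ (A.e i).source) {c : X} (hc : K.g x ∈ (chartAt (Cn N) c).source) :
    dn K β i x =
      (((fderiv ℝ (fun z => chartAt (Cn N) c (K.g ((A.e i).symm z))) (A.e i x)).det : ℝ) : ℂ) *
        wedgeTopEval fun k => chartRep (β k) c (chartAt (Cn N) c (K.g x)) := by
  rw [← wte_comp]
  unfold dn
  congr 1
  funext k
  unfold fi Crest.CxGeometry.chartRep
  rw [tD_chain K hx hc, (chartAt (Cn N) c).left_inv hc]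
  rfl

/-! ### the comparison -/

variable [CompactSpace M]

theorem integralTop_eq (K : Lk A X) (P : Part A) [Finite A.ι] (P' : ChartPartition N X)
    (β : Fin N → Form N X 2)
    (hβ : ∀ i, ContinuousOn (fun z => dn K β i ((A.e i).symm z)) (A.e i).target) :
    integralTop P' β = (κH N : ℂ) * intD P (dn K β) := by
  classical
  have : CompactSpace X := K.g.compactSpace
  let _ := Fintype.ofFinite A.ι
  -- the continuous functions
  have cψ : ∀ i, Continuous (P.ψ i) := fun i => cont_psi (RPart.ofPart P) i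
  have ψsum : ∀ x, ∑ i, P.ψ i x = 1 := fun x =>
    (finsum_eq_sum_of_fintype fun i => P.ψ i x).symm.trans (P.sum_one x)
  have ψ0 : ∀ i, ∀ x, x ∉ tsupport (P.χ i) → P.ψ i x = 0 := fun i x hx =>
    image_eq_zero_of_notMem_tsupport fun h => hx (Crest.Agent.R275.Pai323.tsupport_psi P i h)
  have ρ0 : ∀ c x, x ∉ (chartAt (Cn N) c).source → P'.ρ c x = 0 := fun c x hx =>
    image_eq_zero_of_notMem_tsupport fun h => hx (P'.subordinate c h)
  -- the finite set of indices
  have hfin : {c : X | (Function.support (P'.ρ c)).Nonempty}.Finite :=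
    P'.ρ.locallyFinite.finite_nonempty_of_compact
  set F := hfin.toFinset with hF
  have hFn : ∀ c, c ∉ F → ∀ x, P'.ρ c x = 0 := by
    intro c hc x
    by_contra h
    exact hc (hfin.mem_toFinset.2 ⟨x, h⟩)
  have ρsum : ∀ x, ∑ c ∈ F, P'.ρ c x = 1 := by
    intro x
    rw [← P'.ρ.sum_eq_one (mem_univ x)]
    refine (finsum_eq_sum_of_support_subset _ fun c hc => ?_).symm
    by_contra h
    exact hc (hFn c h x)
  -- the densities
  set D : X → Cn N → ℂ := fun c y => wedgeTopEval fun k => chartRep (β k) c y with hD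
  have e0 : integralTop P' β = ∑ c ∈ F, ∫ y in (chartAt (Cn N) c).target,
      ((P'.ρ c ((chartAt (Cn N) c).symm y) : ℝ) : ℂ) * D c y := by
    unfold Crest.CxGeometry.integralTop
    refine finsum_eq_sum_of_support_subset _ fun c hc => ?_
    by_contra h
    apply hc
    have h1 : ∀ y, ((P'.ρ c ((chartAt (Cn N) c).symm y) : ℝ) : ℂ) *
        (wedgeTopEval fun k => chartRep (β k) c y) = 0 := by
      intro y
      rw [hFn c h, Complex.ofReal_zero, zero_mul]
    simp only [h1, integral_zero]
  -- the pieces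
  have hgi : ∀ i c, ContinuousOn (fun z => ((P.ψ i ((A.e i).symm z) : ℝ) : ℂ) *
      (((P'.ρ c (K.g ((A.e i).symm z)) : ℝ) : ℂ) * dn K β i ((A.e i).symm z)))
      (A.e i).target := by
    intro i c
    have h1 : ContinuousOn (fun z => ((P.ψ i ((A.e i).symm z) : ℝ) : ℂ)) (A.e i).target :=
      (Complex.continuous_ofReal.comp (cψ i)).comp_continuousOn (A.e i).continuousOn_symm
    have h2 : ContinuousOn (fun z => ((P'.ρ c (K.g ((A.e i).symm z)) : ℝ) : ℂ))
        (A.e i).target :=
      (Complex.continuous_ofReal.comp ((P'.ρ c).continuous.comp K.g.continuous)).comp_continuousOn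
        (A.e i).continuousOn_symm
    exact h1.mul (h2.mul (hβ i))
  have hint : ∀ i c, IntegrableOn (fun z => ((P.ψ i ((A.e i).symm z) : ℝ) : ℂ) *
      (((P'.ρ c (K.g ((A.e i).symm z)) : ℝ) : ℂ) * dn K β i ((A.e i).symm z)))
      (A.e i).target volume := by
    intro i c
    refine integrableOn_cptC volume (A.e i) (P.χ_cpt i) (P.χ_sub i) (hgi i c) ?_
    intro z _ hz
    rw [ψ0 i _ hz, Complex.ofReal_zero, zero_mul]
  have key : ∀ i c, IntegrableOn (fun y => ((P.ψ i (K.g.symm ((chartAt (Cn N) c).symm y)) : ℝ) : ℂ)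
        * (((P'.ρ c ((chartAt (Cn N) c).symm y) : ℝ) : ℂ) * D c y))
        (chartAt (Cn N) c).target volume ∧
      ∫ z in (A.e i).target, ((P.ψ i ((A.e i).symm z) : ℝ) : ℂ) *
        (((P'.ρ c (K.g ((A.e i).symm z)) : ℝ) : ℂ) * dn K β i ((A.e i).symm z)) =
      ∫ y in (chartAt (Cn N) c).target,
        ((P.ψ i (K.g.symm ((chartAt (Cn N) c).symm y)) : ℝ) : ℂ) *
        (((P'.ρ c ((chartAt (Cn N) c).symm y) : ℝ) : ℂ) * D c y) := by
    intro i c
    have ht : (tc K.g (chartAt (Cn N) c)).target = (chartAt (Cn N) c).target := tc_target _ _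
    have h1 := chgC volume (A.e i) (tc K.g (chartAt (Cn N) c))
      (g := fun z => ((P.ψ i ((A.e i).symm z) : ℝ) : ℂ) *
        (((P'.ρ c (K.g ((A.e i).symm z)) : ℝ) : ℂ) * dn K β i ((A.e i).symm z)))
      (g' := fun y => ((P.ψ i (K.g.symm ((chartAt (Cn N) c).symm y)) : ℝ) : ℂ)
        * (((P'.ρ c ((chartAt (Cn N) c).symm y) : ℝ) : ℂ) * D c y)) ?_ ?_ ?_ ?_ ?_ (hint i c)
    · rw [ht] at h1
      exact h1
    · rintro z ⟨hz1, hz2⟩
      have h3 : (A.e i).symm z ∈ (A.e i).source := (A.e i).map_target hz1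
      rw [tc_source] at hz2
      have h4 := diff_chg K h3 (c := c) hz2
      rw [(A.e i).right_inv hz1] at h4
      exact (h4.restrictScalars ℝ).differentiableWithinAt
    · rintro z ⟨hz1, hz2⟩
      have h3 : (A.e i).symm z ∈ (A.e i).source := (A.e i).map_target hz1
      rw [tc_source] at hz2
      have h4 := det_chg_nonneg K h3 (c := c) hz2
      rw [(A.e i).right_inv hz1] at h4
      exact h4
    · intro z _ hz
      rw [tc_source] at hz
      rw [ρ0 c _ hz, Complex.ofReal_zero, zero_mul, mul_zero]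
    · intro y _ hy
      have h5 : P.ψ i (K.g.symm ((chartAt (Cn N) c).symm y)) = 0 :=
        ψ0 i _ fun h => hy (P.χ_sub i h)
      rw [h5, Complex.ofReal_zero, zero_mul]
    · rintro z ⟨hz1, hz2⟩
      have h3 : (A.e i).symm z ∈ (A.e i).source := (A.e i).map_target hz1
      rw [tc_source] at hz2
      have hz3 : K.g ((A.e i).symm z) ∈ (chartAt (Cn N) c).source := hz2
      have h4 := dn_tr K β h3 (c := c) hz2
      rw [(A.e i).right_inv hz1] at h4
      have h5 : (chartAt (Cn N) c).symm (tc K.g (chartAt (Cn N) c) ((A.e i).symm z)) =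
          K.g ((A.e i).symm z) := (chartAt (Cn N) c).left_inv hz3
      rw [h5, K.g.symm_apply_apply, h4]
      have h6 : D c (tc K.g (chartAt (Cn N) c) ((A.e i).symm z)) =
          wedgeTopEval fun k => chartRep (β k) c (chartAt (Cn N) c (K.g ((A.e i).symm z))) := rfl
      rw [h6]
      have h7 : (fun z => tc K.g (chartAt (Cn N) c) ((A.e i).symm z)) =
          fun z => chartAt (Cn N) c (K.g ((A.e i).symm z)) := rfl
      rw [h7]
      ring
  have e1 : ∀ c ∈ F, ∫ y in (chartAt (Cn N) c).target,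
      ((P'.ρ c ((chartAt (Cn N) c).symm y) : ℝ) : ℂ) * D c y =
      ∑ i, ∫ z in (A.e i).target, ((P.ψ i ((A.e i).symm z) : ℝ) : ℂ) *
        (((P'.ρ c (K.g ((A.e i).symm z)) : ℝ) : ℂ) * dn K β i ((A.e i).symm z)) := by
    intro c _
    rw [Finset.sum_congr rfl fun i _ => (key i c).2, ← integral_finsetSum _ fun i _ => (key i c).1]
    refine setIntegral_congr_fun (chartAt (Cn N) c).open_target.measurableSet fun y _ => ?_
    show _ = ∑ i, ((P.ψ i (K.g.symm ((chartAt (Cn N) c).symm y)) : ℝ) : ℂ) *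
        (((P'.ρ c ((chartAt (Cn N) c).symm y) : ℝ) : ℂ) * D c y)
    rw [← Finset.sum_mul, ← Complex.ofReal_sum, ψsum, Complex.ofReal_one, one_mul]
  have e2 : ∀ i, ∑ c ∈ F, ∫ z in (A.e i).target, ((P.ψ i ((A.e i).symm z) : ℝ) : ℂ) *
        (((P'.ρ c (K.g ((A.e i).symm z)) : ℝ) : ℂ) * dn K β i ((A.e i).symm z)) =
      ∫ z in (A.e i).target, ((P.ψ i ((A.e i).symm z) : ℝ) : ℂ) * dn K β i ((A.e i).symm z) := by
    intro i
    rw [← integral_finsetSum _ fun c _ => hint i c]
    refine setIntegral_congr_fun (A.e i).open_target.measurableSet fun z _ => ?_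
    show ∑ c ∈ F, ((P.ψ i ((A.e i).symm z) : ℝ) : ℂ) *
        (((P'.ρ c (K.g ((A.e i).symm z)) : ℝ) : ℂ) * dn K β i ((A.e i).symm z)) = _
    rw [← Finset.mul_sum, ← Finset.sum_mul, ← Complex.ofReal_sum, ρsum, Complex.ofReal_one,
      one_mul]
  rw [e0, Finset.sum_congr rfl e1, Finset.sum_comm, Finset.sum_congr rfl fun i _ => e2 i]
  unfold intD
  rw [finsum_eq_sum_of_fintype, Finset.mul_sum]
  refine Finset.sum_congr rfl fun i _ => ?_
  rw [setIntegral_vol, lint_eq_lc]

/-- chart partitions exist -/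
theorem exists_cp [CompactSpace X] [T2Space X] : Nonempty (ChartPartition N X) := by
  obtain ⟨f, hf⟩ := PartitionOfUnity.exists_isSubordinate (X := X) isClosed_univ
    (fun c : X => (chartAt (Cn N) c).source) (fun c => (chartAt (Cn N) c).open_source)
    (fun x _ => mem_iUnion.2 ⟨x, mem_chart_source (Cn N) x⟩)
  exact ⟨⟨f, hf⟩⟩

end

end Crest.Agent.R281.DicW_691
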