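import Crest.Agent.R281.DicW3_691
import Crest.Agent.R273.Ric1_798

/-!
# Row 281, HK-DIC-INT, part 4 (helper691): the frozen `bbfQuadratic`

`K : Lk A X`, `σ : HSymp A` the chart matrices of `σ₀`, `G` those of the `(1,1)`-form `α`:
* `bbf_eq`        : `bbfQuadratic P' σ₀ α = C * intD P |det σ| * intD P (qd σ G G)`, `C ≠ 0`
* `intD_det_ne`   : `intD P |det σ| ≠ 0`
* `isotropic_of_bbf` : `bbfQuadratic P' σ₀ α = 0 → intD P (qd σ G G) = 0`
-/

set_option autoImplicit false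
set_option linter.unusedSectionVars false

open Set Filter Topology Complex MeasureTheory
open scoped ContDiff Manifold ComplexConjugate Matrix

namespace Crest.Agent.R281.DicW_691

open Crest.Agent.R275.Geo Crest.Agent.R275.Core144 Crest.Agent.R275.GC293
open Crest.Agent.R275.SerG398 (lint dens)
open Crest.Agent.R273.Defs_333 Crest.Agent.R273.Kah_333 Crest.Agent.R273.StokesV_332
open Crest.Agent.R281.Ti_846 Crest.Agent.R281.DicA_273 Crest.Agent.R281.Defs_273
open Crest.Agent.R281.HkR_835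
open Crest.CxGeometry (Form chartRep transDeriv wedgeTopEval ChartPartition integralTop
  bbfQuadratic factorList conjForm)

noncomputable section

universe u

/-! ### densities -/

section den

variable {n : ℕ} {M : Type} [TopologicalSpace M] {A : Atl n M} (σ : HSymp A)

theorem s_sm (i : A.ι) (a b : Fin n) : A.SmAt i (fun x => σ.s i x a b) := by
  have := (σ.hol i a b).contDiffOn isOpen_univ
  rwa [preimage_univ, inter_univ] at this

theorem det_sm (i : A.ι) :
    ContDiffOn ℝ ∞ (fun z => (σ.s i ((A.e i).symm z)).det) (A.e i).target :=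
  Crest.Agent.R273.Ric_798.contDiffOn_det (K := fun z => σ.s i ((A.e i).symm z))
    fun a b => s_sm σ i a b

theorem s_inv_sm (i : A.ι) (a b : Fin n) :
    ContDiffOn ℝ ∞ (fun z => (σ.s i ((A.e i).symm z))⁻¹ a b) (A.e i).target :=
  Crest.Agent.R273.Ric_798.contDiffOn_inv (K := fun z => σ.s i ((A.e i).symm z))
    (fun a b => s_sm σ i a b) (fun _ hz => σ.nd i _ ((A.e i).map_target hz)) a b

/-- the density `|det σ|` -/
def dd (i : A.ι) (x : M) : ℂ := ((‖(σ.s i x).det‖ : ℝ) : ℂ)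

theorem dd_sm (i : A.ι) : A.SmAt i (dd σ i) := by
  have h1 : ContDiffOn ℝ ∞ (fun z => ‖(σ.s i ((A.e i).symm z)).det‖) (A.e i).target :=
    (det_sm σ i).norm ℝ fun z hz => σ.nd i _ ((A.e i).map_target hz)
  exact Complex.ofRealCLM.contDiff.comp_contDiffOn h1

theorem dd_den : Den A (dd σ) where
  sm := dd_sm σ
  tr i j x hx := by
    unfold dd Crest.Agent.R275.SerG398.dens
    rw [σ.tr i j x hx, Matrix.det_mul, Matrix.det_mul, Matrix.det_transpose, norm_mul, norm_mul]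
    have h1 : Jm A i j x = Matrix.of (A.J i j x) := rfl
    rw [h1]
    push_cast
    ring

theorem dd_nonneg : NonnegD A (dd σ) := fun i x _ =>
  ⟨by unfold dd; rw [Complex.ofReal_re]; exact norm_nonneg _, by
    unfold dd; rw [Complex.ofReal_im]⟩

theorem intD_det_ne [T2Space M] [CompactSpace M] [Nonempty M] (P : Part A) :
    intD P (dd σ) ≠ 0 := by
  intro h
  obtain ⟨x⟩ := ‹Nonempty M›
  obtain ⟨i, hi⟩ := A.cover x
  have h1 := eq_zero_of_intD P (dd_den σ) (dd_nonneg σ) isCompact_univ (offK_univ _)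
    (by rw [h]; rfl) i x hi
  unfold dd at h1
  have h2 : ‖(σ.s i x).det‖ = 0 := by exact_mod_cast h1
  exact σ.nd i x hi (norm_eq_zero.1 h2)

theorem qd_sm {G : A.ι → M → Matrix (Fin n) (Fin n) ℂ}
    (hG : ∀ i a b, A.SmAt i (fun x => G i x a b)) (i : A.ι) : A.SmAt i (qd σ G G i) := by
  have h1 := dd_sm σ i
  have h2 : ContDiffOn ℝ ∞ (fun z => ∑ a, ∑ b, ∑ c, ∑ d,
      (σ.s i ((A.e i).symm z))⁻¹ a b * G i ((A.e i).symm z) b c *
        conj ((σ.s i ((A.e i).symm z))⁻¹ c d) * G i ((A.e i).symm z) a d) (A.e i).target := by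
    refine ContDiffOn.sum fun a _ => ContDiffOn.sum fun b _ => ContDiffOn.sum fun c _ =>
      ContDiffOn.sum fun d _ => ?_
    have h3 : ContDiffOn ℝ ∞ (fun z => conj ((σ.s i ((A.e i).symm z))⁻¹ c d)) (A.e i).target :=
      Complex.conjCLE.contDiff.comp_contDiffOn (s_inv_sm σ i c d)
    exact (((s_inv_sm σ i a b).mul (hG i b c)).mul h3).mul (hG i a d)
  have h4 : ContDiffOn ℝ ∞ (fun z => -(dd σ i ((A.e i).symm z) * ∑ a, ∑ b, ∑ c, ∑ d,
      (σ.s i ((A.e i).symm z))⁻¹ a b * G i ((A.e i).symm z) b c *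
        conj ((σ.s i ((A.e i).symm z))⁻¹ c d) * G i ((A.e i).symm z) a d)) (A.e i).target :=
    (ContDiffOn.mul h1 h2).neg
  refine h4.congr fun z _ => ?_
  show qm (σ.s i ((A.e i).symm z)) (G i ((A.e i).symm z)) (G i ((A.e i).symm z)) = _
  unfold qm dd
  rw [neg_mul]
  congr 2
  set S := σ.s i ((A.e i).symm z)
  set H := G i ((A.e i).symm z)
  have h5 : (S.map conj)⁻¹ = (S⁻¹).map conj := by
    have h6 : ∀ T : Matrix (Fin n) (Fin n) ℂ, T.map conj = Tᴴᵀ := by
      intro T; ext a b; simp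
    rw [h6, h6, Matrix.conjTranspose_nonsing_inv, Matrix.transpose_nonsing_inv]
  rw [h5]
  simp only [Matrix.trace, Matrix.diag_apply, Matrix.mul_apply, Matrix.transpose_apply,
    Matrix.map_apply, Finset.sum_mul]
  refine Finset.sum_congr rfl fun a _ => ?_
  have e1 : ∀ d, ∑ c, ∑ b, S⁻¹ a b * H b c * conj (S⁻¹ c d) * H a d =
      ∑ b, ∑ c, S⁻¹ a b * H b c * conj (S⁻¹ c d) * H a d := fun d => Finset.sum_comm
  simp only [e1]
  rw [Finset.sum_comm]
  refine Finset.sum_congr rfl fun b _ => ?_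
  rw [Finset.sum_comm]

end den

/-! ### the quadratic form -/

variable {n : ℕ} {X : Type u} [TopologicalSpace X] [ChartedSpace (Cn (2 * n)) X]
  {M : Type} [TopologicalSpace M] {A : Atl (2 * n) M}

/-- the products in a chart -/
theorem dn_fl (K : Lk A X) (a b : ℕ) (β γ α : Form (2 * n) X 2) (i : A.ι) (x : M) :
    dn K (factorList a b β γ α) i x = wedgeTopEval
      (fl a b (fi K β i x) (fi K γ i x) (fi K α i x) : Fin (2 * n) → F2c (2 * n)) := by
  unfold dn
  congr 1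
  funext k
  unfold fl Crest.CxGeometry.factorList
  split_ifs <;> rfl

/-- the chart matrices of a 2-form of type (2,0) -/
def Mat20 (K : Lk A X) (σ₀ : Form (2 * n) X 2)
    (s : A.ι → M → Matrix (Fin (2 * n)) (Fin (2 * n)) ℂ) : Prop :=
  ∀ i, ∀ x ∈ (A.e i).source, ∀ u v,
    σ₀ (K.g x) ![K.tD i x u, K.tD i x v] = sb (s i x) u v

/-- the chart matrices of a 2-form of type (1,1), `α = κ ∑ G_ab dz_a ∧ dz̄_b` -/
def Mat11 (K : Lk A X) (κ : ℂ) (α : Form (2 * n) X 2)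
    (G : A.ι → M → Matrix (Fin (2 * n)) (Fin (2 * n)) ℂ) : Prop :=
  ∀ i, ∀ x ∈ (A.e i).source, ∀ u v,
    α (K.g x) ![K.tD i x u, K.tD i x v] = κ * (hb (G i x) u v - hb (G i x) v u)

variable {K : Lk A X} {σ : HSymp A} {σ₀ α : Form (2 * n) X 2} {κ : ℂ}
  {G : A.ι → M → Matrix (Fin (2 * n)) (Fin (2 * n)) ℂ}

theorem fi_20 (hσ : Mat20 K σ₀ σ.s) {i : A.ι} {x : M} (hx : x ∈ (A.e i).source)
    (u v : Cn (2 * n)) : fi K σ₀ i x ![u, v] = sb (σ.s i x) u v := by
  rw [fi_apply]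
  exact hσ i x hx u v

theorem fi_02 (hσ : Mat20 K σ₀ σ.s) {i : A.ι} {x : M} (hx : x ∈ (A.e i).source)
    (u v : Cn (2 * n)) : fi K (conjForm σ₀) i x ![u, v] = conj (sb (σ.s i x) u v) := by
  rw [fi_apply, ← hσ i x hx u v]
  rfl

theorem fi_11 (hα : Mat11 K κ α G) {i : A.ι} {x : M} (hx : x ∈ (A.e i).source)
    (u v : Cn (2 * n)) : fi K α i x ![u, v] = κ * (hb (G i x) u v - hb (G i x) v u) := by
  rw [fi_apply]
  exact hα i x hx u v

theorem dn_top (hσ : Mat20 K σ₀ σ.s) (hα : Mat11 K κ α G) {i : A.ι} {x : M}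
    (hx : x ∈ (A.e i).source) :
    dn K (factorList n n σ₀ (conjForm σ₀) α) i x = cW n * dd σ i x := by
  rw [dn_fl, wte_top (σ.alt i x hx) (fi_20 hσ hx) (fi_02 hσ hx) (fi_11 hα hx)]
  rfl

theorem dn_two (hn : 1 ≤ n) (hσ : Mat20 K σ₀ σ.s) (hα : Mat11 K κ α G) {i : A.ι} {x : M}
    (hx : x ∈ (A.e i).source) :
    dn K (factorList (n - 1) (n - 1) σ₀ (conjForm σ₀) α) i x =
      -(κ ^ 2 / (n : ℂ) ^ 2) * cW n * qd σ G G i x := by
  rw [dn_fl, wte_two hn (σ.alt i x hx) (σ.nd i x hx) (fi_20 hσ hx) (fi_02 hσ hx) (fi_11 hα hx)]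
  rfl

theorem dn_zero {a b : ℕ} (h : a + b ≤ 2 * n) (hab : a ≠ b) (hσ : Mat20 K σ₀ σ.s)
    (hα : Mat11 K κ α G) {i : A.ι} {x : M} (hx : x ∈ (A.e i).source) :
    dn K (factorList a b σ₀ (conjForm σ₀) α) i x = 0 := by
  rw [dn_fl, wte_zero h hab (fi_20 hσ hx) (fi_02 hσ hx) (fi_11 hα hx)]

variable [IsManifold 𝓘(ℂ, Cn (2 * n)) ω X] [CompactSpace M] [T2Space M] [Finite A.ι]

theorem int_top (P : Part A) (P' : ChartPartition (2 * n) X) (hσ : Mat20 K σ₀ σ.s)
    (hα : Mat11 K κ α G) :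
    integralTop P' (factorList n n σ₀ (conjForm σ₀) α) =
      (κH (2 * n) : ℂ) * (cW n * intD P (dd σ)) := by
  rw [integralTop_eq K P P']
  · rw [intD_congr P (g := fun i x => cW n * dd σ i x) fun i x hx => dn_top hσ hα hx,
      intD_smul P _ isCompact_univ (offK_univ _)]
  · intro i
    have h1 : ContinuousOn (fun z => cW n * dd σ i ((A.e i).symm z)) (A.e i).target :=
      continuousOn_const.mul (dd_sm σ i).continuousOn
    exact h1.congr fun z hz => dn_top hσ hα ((A.e i).map_target hz)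

theorem int_two (hn : 1 ≤ n) (P : Part A) (P' : ChartPartition (2 * n) X)
    (hG : ∀ i a b, A.SmAt i (fun x => G i x a b)) (hσ : Mat20 K σ₀ σ.s)
    (hα : Mat11 K κ α G) :
    integralTop P' (factorList (n - 1) (n - 1) σ₀ (conjForm σ₀) α) =
      (κH (2 * n) : ℂ) * (-(κ ^ 2 / (n : ℂ) ^ 2) * cW n * intD P (qd σ G G)) := by
  rw [integralTop_eq K P P']
  · rw [intD_congr P (g := fun i x => -(κ ^ 2 / (n : ℂ) ^ 2) * cW n * qd σ G G i x)
        fun i x hx => dn_two hn hσ hα hx, intD_smul P _ isCompact_univ (offK_univ _)]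
  · intro i
    have h1 : ContinuousOn (fun z => -(κ ^ 2 / (n : ℂ) ^ 2) * cW n *
        qd σ G G i ((A.e i).symm z)) (A.e i).target :=
      continuousOn_const.mul (qd_sm σ hG i).continuousOn
    exact h1.congr fun z hz => dn_two hn hσ hα ((A.e i).map_target hz)

theorem int_zero {a b : ℕ} (h : a + b ≤ 2 * n) (hab : a ≠ b) (P : Part A)
    (P' : ChartPartition (2 * n) X) (hσ : Mat20 K σ₀ σ.s) (hα : Mat11 K κ α G) :
    integralTop P' (factorList a b σ₀ (conjForm σ₀) α) = 0 := by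
  rw [integralTop_eq K P P']
  · rw [intD_congr P (g := fun _ _ => 0) fun i x hx => dn_zero h hab hσ hα hx, intD_zero,
      mul_zero]
  · intro i
    exact (continuousOn_const (c := (0 : ℂ))).congr fun z hz =>
      dn_zero h hab hσ hα ((A.e i).map_target hz)

/-- **the Beauville-Bogomolov-Fujiki expression in the atlas language** -/
theorem bbf_eq (hn : 1 ≤ n) (P : Part A) (P' : ChartPartition (2 * n) X)
    (hG : ∀ i a b, A.SmAt i (fun x => G i x a b)) (hσ : Mat20 K σ₀ σ.s)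
    (hα : Mat11 K κ α G) :
    bbfQuadratic P' σ₀ α = -(κ ^ 2 * (κH (2 * n) : ℂ) ^ 2 * cW n ^ 2 / (2 * n)) *
      intD P (dd σ) * intD P (qd σ G G) := by
  have h2 : 2 * n / 2 = n := by omega
  unfold Crest.CxGeometry.bbfQuadratic
  rw [h2, int_top P P' hσ hα, int_two hn P P' hG hσ hα,
    int_zero (a := n - 1) (b := n) (by omega) (by omega) P P' hσ hα]
  have hn0 : (n : ℂ) ≠ 0 := by exact_mod_cast (by omega : n ≠ 0)
  field_simp
  ring

/-- **isotropy in the atlas language** -/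
theorem isotropic_of_bbf [Nonempty M] (hn : 1 ≤ n) (P : Part A)
    (P' : ChartPartition (2 * n) X) (hG : ∀ i a b, A.SmAt i (fun x => G i x a b))
    (hσ : Mat20 K σ₀ σ.s) (hκ : κ ≠ 0) (hα : Mat11 K κ α G)
    (h0 : bbfQuadratic P' σ₀ α = 0) : intD P (qd σ G G) = 0 := by
  rw [bbf_eq hn P P' hG hσ hα] at h0
  have hn0 : (n : ℂ) ≠ 0 := by exact_mod_cast (by omega : n ≠ 0)
  have h1 : (κH (2 * n) : ℂ) ≠ 0 := by exact_mod_cast (κH_pos (2 * n)).ne'
  have h2 : -(κ ^ 2 * (κH (2 * n) : ℂ) ^ 2 * cW n ^ 2 / (2 * n)) ≠ 0 :=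
    neg_ne_zero.2 (div_ne_zero (mul_ne_zero (mul_ne_zero (pow_ne_zero _ hκ) (pow_ne_zero _ h1))
      (pow_ne_zero _ (cW_ne n))) (mul_ne_zero two_ne_zero hn0))
  rcases mul_eq_zero.1 h0 with h3 | h3
  · rcases mul_eq_zero.1 h3 with h4 | h4
    · exact absurd h4 h2
    · exact absurd h4 (intD_det_ne σ P)
  · exact h3

end

end Crest.Agent.R281.DicW_691
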