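import Mathlib

/-!
# R281 (S0424), CDR part (3) (helper340), part 1: locally constant Cech 1-cocycles

`coboundary` : a Cech 1-cocycle of locally constant functions with values in an abelian group `Γ`
(no topology on `Γ`) on an open cover of a simply connected, locally path connected space is a
coboundary of locally constant functions.  `coboundary_convex` : the same on a convex open subset of
a real normed space.
-/

set_option autoImplicit false

open Set Filter Topology

namespace Crest.Agent.R281.Dsc_340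

/-- locally constant cocycles on a simply connected, locally path connected space -/
theorem coboundary {X : Type*} [TopologicalSpace X] [SimplyConnectedSpace X]
    [LocallyPathConnectedSpace X] {ι Γ : Type*} [AddCommGroup Γ] (B : ι → Set X)
    (hB : ∀ i, IsOpen (B i)) (hcov : ∀ x, ∃ i, x ∈ B i) (c : ι → ι → X → Γ)
    (hloc : ∀ i j, ∀ x ∈ B i ∩ B j, ∀ᶠ y in 𝓝 x, c i j y = c i j x)
    (hc : ∀ i j k, ∀ x ∈ B i ∩ B j ∩ B k, c i j x + c j k x = c i k x) :
    ∃ a : ι → X → Γ, (∀ i, ∀ x ∈ B i, ∀ᶠ y in 𝓝 x, a i y = a i x) ∧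
      ∀ i j, ∀ x ∈ B i ∩ B j, c i j x = a j x - a i x := by
  classical
  let _ : TopologicalSpace Γ := ⊥
  have _ : DiscreteTopology Γ := ⟨rfl⟩
  choose idx hidx using hcov
  let Z : FiberBundleCore ι X Γ :=
    { baseSet := B
      isOpen_baseSet := hB
      indexAt := idx
      mem_baseSet_at := hidx
      coordChange := fun i j x v => v + c i j x
      coordChange_self := by
        intro i x hx v
        have h := hc i i i x ⟨⟨hx, hx⟩, hx⟩
        have h2 : c i i x = 0 := by simpa using h
        rw [h2, add_zero]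
      continuousOn_coordChange := by
        intro i j
        rintro ⟨x, v⟩ hp
        have hx : x ∈ B i ∩ B j := hp.1
        apply ContinuousAt.continuousWithinAt
        have h1 : (fun p : X × Γ => p.2 + c i j p.1) =ᶠ[𝓝 (x, v)] fun _ => v + c i j x := by
          have h2 : ∀ᶠ p : X × Γ in 𝓝 (x, v), c i j p.1 = c i j x :=
            (continuous_fst.tendsto (x, v)).eventually (hloc i j x hx)
          have h0 : ∀ᶠ w in 𝓝 v, w = v := by
            rw [nhds_discrete]
            exact Filter.eventually_pure.2 rfl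
          have h3 : ∀ᶠ p : X × Γ in 𝓝 (x, v), p.2 = v :=
            (continuous_snd.tendsto (x, v)).eventually h0
          filter_upwards [h2, h3] with p h4 h5
          rw [h4, h5]
        exact (continuousAt_const (y := v + c i j x)).congr h1.symm
      coordChange_comp := by
        intro i j k x hx v
        show v + c i j x + c j k x = v + c i k x
        rw [add_assoc, hc i j k x hx] }
  have hcm : IsCoveringMap (Bundle.TotalSpace.proj : Z.TotalSpace → X) :=
    FiberBundle.isCoveringMap
  obtain ⟨x0⟩ : Nonempty X := inferInstance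
  obtain ⟨F, ⟨-, hF⟩, -⟩ := hcm.existsUnique_continuousMap_lifts (ContinuousMap.id X) x0
    (⟨x0, (0 : Γ)⟩ : Z.TotalSpace) rfl
  have hFp : ∀ x, (F x).proj = x := fun x => congrFun hF x
  refine ⟨fun i x => (Z.localTriv i (F x)).2, ?_, ?_⟩
  · intro i x hx
    have h1 : F x ∈ (Z.localTriv i).source := by
      rw [FiberBundleCore.mem_localTriv_source]
      rw [hFp x]
      exact hx
    have h2 : ContinuousAt (Z.localTriv i) (F x) :=
      (Z.localTriv i).continuousOn.continuousAt ((Z.localTriv i).open_source.mem_nhds h1)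
    have h3 : ContinuousAt (fun y => (Z.localTriv i (F y)).2) x :=
      continuous_snd.continuousAt.comp (h2.comp F.continuous.continuousAt)
    have h0 : ∀ᶠ w in 𝓝 (Z.localTriv i (F x)).2, w = (Z.localTriv i (F x)).2 := by
      rw [nhds_discrete (α := Γ)]
      exact Filter.eventually_pure.2 rfl
    exact h3.tendsto.eventually h0
  · intro i j x hx
    have hv : ∃ v : Γ, v = (F x).2 := ⟨(F x).2, rfl⟩
    obtain ⟨v, hv⟩ := hv
    have h1 : ∀ i, (Z.localTriv i (F x)).2 = v + c (idx x) i x := by
      intro i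
      have h5 : (Z.localTriv i (F x)).2 = v + c (idx (F x).proj) i (F x).proj := by
        rw [hv]
        rfl
      rw [h5, hFp x]
    have h2 := hc (idx x) i j x ⟨⟨hidx x, hx.1⟩, hx.2⟩
    show c i j x = (Z.localTriv j (F x)).2 - (Z.localTriv i (F x)).2
    rw [h1, h1, ← h2]
    abel

/-- locally constant cocycles on a convex open subset of a normed space -/
theorem coboundary_convex {E : Type*} [NormedAddCommGroup E] [NormedSpace ℝ E] {O : Set E}
    (hO : IsOpen O) (hcO : Convex ℝ O) {ι Γ : Type*} [AddCommGroup Γ] (B : ι → Set E)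
    (hB : ∀ i, IsOpen (B i)) (hcov : ∀ x ∈ O, ∃ i, x ∈ B i) (c : ι → ι → E → Γ)
    (hloc : ∀ i j, ∀ x ∈ O ∩ (B i ∩ B j), ∀ᶠ y in 𝓝 x, c i j y = c i j x)
    (hc : ∀ i j k, ∀ x ∈ O ∩ (B i ∩ B j ∩ B k), c i j x + c j k x = c i k x) :
    ∃ a : ι → E → Γ, (∀ i, ∀ x ∈ O ∩ B i, ∀ᶠ y in 𝓝 x, a i y = a i x) ∧
      ∀ i j, ∀ x ∈ O ∩ (B i ∩ B j), c i j x = a j x - a i x := by
  classical
  rcases O.eq_empty_or_nonempty with h0 | hne
  · refine ⟨fun _ _ => 0, fun i x hx => ?_, fun i j x hx => ?_⟩
    · rw [h0] at hx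
      exact absurd hx.1 (notMem_empty x)
    · rw [h0] at hx
      exact absurd hx.1 (notMem_empty x)
  have _ : ContractibleSpace O := hcO.contractibleSpace hne
  have _ : LocallyPathConnectedSpace O := hO.locallyPathConnectedSpace
  obtain ⟨a, ha, ha2⟩ := coboundary (X := O) (fun i => (Subtype.val : O → E) ⁻¹' (B i))
    (fun i => (hB i).preimage continuous_subtype_val) (fun x => hcov x x.2)
    (fun i j x => c i j x.1)
    (fun i j x hx => (continuous_subtype_val.tendsto x).eventually (hloc i j x.1 ⟨x.2, hx⟩))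
    (fun i j k x hx => hc i j k x.1 ⟨x.2, hx⟩)
  refine ⟨fun i x => if h : x ∈ O then a i ⟨x, h⟩ else 0, fun i x hx => ?_, fun i j x hx => ?_⟩
  · have h1 := ha i ⟨x, hx.1⟩ hx.2
    have h2 : ∀ᶠ y in 𝓝 x, ∀ h : y ∈ O, a i ⟨y, h⟩ = a i ⟨x, hx.1⟩ := by
      rw [nhds_subtype_eq_comap, Filter.eventually_comap] at h1
      filter_upwards [h1] with y hy h
      exact hy ⟨y, h⟩ rfl
    filter_upwards [h2, hO.mem_nhds hx.1] with y hy hyO
    simp only [hyO, hx.1, dif_pos]
    exact hy hyO
  · simp only [hx.1, dif_pos]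
    exact ha2 i j ⟨x, hx.1⟩ hx.2

end Crest.Agent.R281.Dsc_340
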