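import Crest.Agent.R281.Cdr2_234
import Crest.Agent.R281.Dsc1_340

/-!
# R281 (S0424), CDR part (3) (helper340), part 2: descent of classes to a fixed cover

`descend` : if `Cls G w` (Cech-de Rham data over an arbitrary cover with cocycle in the subgroup `G`
of `ℝ`), and `E : CD w β` is data over a cover `E.U b` such that each `E.U b` lies in the domain of
one chart in which it is convex, and the intersections `E.U b ∩ E.U b'` are preconnected, then the
cocycle of `E` lies in `G` after a change of the functions `E.f b b'` by constants.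
-/

set_option autoImplicit false
set_option linter.unusedSectionVars false
set_option maxSynthPendingDepth 3

open Set Filter Topology
open scoped ContDiff

namespace Crest.Agent.R281.Dsc_340

open Crest.Agent.R281.HkR_835 Crest.Agent.R281.Cdr_234

noncomputable section

/-- a function which is locally constant on a preconnected set is constant on it -/
theorem const_of_locconst {X Γ : Type*} [TopologicalSpace X] {S : Set X} (hS : IsPreconnected S)
    {f : X → Γ} (hf : ∀ x ∈ S, ∀ᶠ y in 𝓝 x, f y = f x) {x y : X} (hx : x ∈ S) (hy : y ∈ S) :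
    f x = f y := by
  let _ : TopologicalSpace Γ := ⊥
  have _ : DiscreteTopology Γ := ⟨rfl⟩
  refine hS.constant (f := f) (fun z hz => ?_) hx hy
  apply ContinuousAt.continuousWithinAt
  exact (continuousAt_const (y := f z)).congr ((hf z hz).mono fun y h => h.symm)

/-- a function with derivative zero near a point is constant near this point -/
theorem locconst_of_hasFDerivAt {V : Type*} [NormedAddCommGroup V] [NormedSpace ℝ V] {f : V → ℝ}
    {z : V} (h : ∀ᶠ y in 𝓝 z, HasFDerivAt f (0 : V →L[ℝ] ℝ) y) : ∀ᶠ y in 𝓝 z, f y = f z := by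
  obtain ⟨r, hr, hb⟩ := Metric.eventually_nhds_iff_ball.1 h
  filter_upwards [Metric.ball_mem_nhds z hr] with y hy
  exact (convex_ball z r).is_const_of_fderivWithin_eq_zero (𝕜 := ℝ)
    (fun x hx => (hb x hx).differentiableAt.differentiableWithinAt)
    (fun x hx => by
      rw [fderivWithin_of_isOpen Metric.isOpen_ball hx, (hb x hx).fderiv])
    hy (Metric.mem_ball_self hr)

variable {V X : Type} [NormedAddCommGroup V] [NormedSpace ℝ V] [TopologicalSpace X]
  {C : RCh V X} {G : AddSubgroup ℝ} {w : F2 C} {α β : Type}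

/-- **Step A**: over a convex chart domain the torsor of `D` is trivial -/
theorem stepA (D : CD w α)
    (hD : ∀ a b c, ∀ x ∈ D.U a ∩ D.U b ∩ D.U c, D.f a b x + D.f b c x - D.f a c x ∈ G)
    (ρ : X → α) (hρ : ∀ x, x ∈ D.U (ρ x)) (E : CD w β) (b : β) (i : C.ι)
    (hi : E.U b ⊆ (C.e i).source) (hcv : Convex ℝ (sh C i (E.U b))) :
    ∃ h : X → ℝ ⧸ G, ∀ x0 ∈ E.U b, ∃ g : V → ℝ,
      (∀ᶠ z in 𝓝 (C.e i x0), HasFDerivAt g (D.th (ρ x0) i z - E.th b i z) z) ∧
      ∀ᶠ x in 𝓝 x0, h x = QuotientAddGroup.mk (g (C.e i x) + D.f (ρ x0) (ρ x) x) := by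
  classical
  set O : Set V := sh C i (E.U b) with hO
  have hOo : IsOpen O := isOpen_sh i (E.op b)
  have hmem : ∀ x ∈ E.U b, C.e i x ∈ O := fun x hx =>
    ⟨(C.e i).map_source (hi hx), by rw [(C.e i).left_inv (hi hx)]; exact hx⟩
  -- balls
  have h1 : ∀ s : {x : X // x ∈ E.U b}, ∃ r > 0, Metric.ball (C.e i s.1) r ⊆
      O ∩ sh C i (D.U (ρ s.1)) := by
    intro s
    refine Metric.isOpen_iff.1 (hOo.inter (isOpen_sh i (D.op _))) _ ⟨hmem s.1 s.2, ?_⟩
    exact ⟨(C.e i).map_source (hi s.2), by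
      show (C.e i).symm (C.e i s.1) ∈ D.U (ρ s.1)
      rw [(C.e i).left_inv (hi s.2)]; exact hρ s.1⟩
  choose r hr hB using h1
  set B : {x : X // x ∈ E.U b} → Set V := fun s => Metric.ball (C.e i s.1) (r s) with hBdef
  have hBo : ∀ s, IsOpen (B s) := fun s => Metric.isOpen_ball
  -- primitives
  have h2 : ∀ s, ∃ g : V → ℝ, ∀ z ∈ B s, HasFDerivAt g (D.th (ρ s.1) i z - E.th b i z) z := by
    intro s
    have hθ : ContDiffOn ℝ ∞ (fun z => D.th (ρ s.1) i z - E.th b i z) (B s) :=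
      ((D.th_sm _ i).mono fun z hz => (hB s hz).2).sub
        ((E.th_sm b i).mono fun z hz => (hB s hz).1)
    have hdo : DifferentiableOn ℝ (fun z => D.th (ρ s.1) i z - E.th b i z) (B s) :=
      fun z hz => ((hθ.contDiffAt ((hBo s).mem_nhds hz)).differentiableAt
        (by simp)).differentiableWithinAt
    refine (convex_ball (C.e i s.1) (r s)).exists_forall_hasFDerivAt_of_fderiv_symmetric
      (𝕜 := ℝ) (hBo s) hdo ?_
    · intro z hz u v
      have e1 := D.th_d (ρ s.1) i z (hB s hz).2 u v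
      have e2 := E.th_d b i z (hB s hz).1 u v
      have e3 : fderiv ℝ (fun z => D.th (ρ s.1) i z - E.th b i z) z = _ :=
        ((D.th_diffAt (hB s hz).2).hasFDerivAt.sub (E.th_diffAt (hB s hz).1).hasFDerivAt).fderiv
      rw [e3]
      simp only [sub_apply]
      linarith
  choose g hg using h2
  -- the cocycle
  set cr : {x : X // x ∈ E.U b} → {x : X // x ∈ E.U b} → V → ℝ := fun s t z =>
    D.f (ρ s.1) (ρ t.1) ((C.e i).symm z) - (g t z - g s z) with hcr
  have hcr0 : ∀ s t, ∀ z ∈ B s ∩ B t, HasFDerivAt (cr s t) (0 : V →L[ℝ] ℝ) z := by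
    intro s t z hz
    have e1 := D.f_d (ρ s.1) (ρ t.1) i z ⟨(hB s hz.1).2.1, (hB s hz.1).2.2, (hB t hz.2).2.2⟩
    refine (e1.sub ((hg t z hz.2).sub (hg s z hz.1))).congr_fderiv ?_
    abel
  have hloc : ∀ s t, ∀ z ∈ O ∩ (B s ∩ B t), ∀ᶠ y in 𝓝 z,
      (QuotientAddGroup.mk (cr s t y) : ℝ ⧸ G) = QuotientAddGroup.mk (cr s t z) := by
    intro s t z hz
    have e1 := locconst_of_hasFDerivAt (f := cr s t) (z := z) (by
      filter_upwards [((hBo s).inter (hBo t)).mem_nhds hz.2] with y hy using hcr0 s t y hy)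
    filter_upwards [e1] with y hy
    rw [hy]
  have hcoc : ∀ s t u, ∀ z ∈ O ∩ (B s ∩ B t ∩ B u),
      (QuotientAddGroup.mk (cr s t z) : ℝ ⧸ G) + QuotientAddGroup.mk (cr t u z) =
        QuotientAddGroup.mk (cr s u z) := by
    intro s t u z hz
    rw [← QuotientAddGroup.mk_add, QuotientAddGroup.eq]
    have e1 := hD (ρ s.1) (ρ t.1) (ρ u.1) ((C.e i).symm z)
      ⟨⟨(hB s hz.2.1.1).2.2, (hB t hz.2.1.2).2.2⟩, (hB u hz.2.2).2.2⟩
    have e2 := G.neg_mem e1
    convert e2 using 1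
    simp only [hcr]
    ring
  obtain ⟨a, ha, ha2⟩ := coboundary_convex hOo hcv B hBo
    (fun z hz => ⟨⟨(C.e i).symm z, hz.2⟩, by
      show z ∈ Metric.ball (C.e i ((C.e i).symm z)) _
      rw [(C.e i).right_inv hz.1]
      exact Metric.mem_ball_self (hr _)⟩)
    (fun s t z => (QuotientAddGroup.mk (cr s t z) : ℝ ⧸ G)) hloc hcoc
  -- the section
  refine ⟨fun x => if hx : x ∈ E.U b then
    (QuotientAddGroup.mk (g ⟨x, hx⟩ (C.e i x)) : ℝ ⧸ G) + a ⟨x, hx⟩ (C.e i x) else 0, ?_⟩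
  intro x0 hx0
  have hself : ∀ (x : X) (hx : x ∈ E.U b), C.e i x ∈ B ⟨x, hx⟩ := fun x hx =>
    Metric.mem_ball_self (hr _)
  obtain ⟨c0, hc0⟩ := QuotientAddGroup.mk_surjective (s := G) (a ⟨x0, hx0⟩ (C.e i x0))
  refine ⟨fun z => g ⟨x0, hx0⟩ z + c0, ?_, ?_⟩
  · filter_upwards [(hBo ⟨x0, hx0⟩).mem_nhds (hself x0 hx0)] with z hz
    exact (hg ⟨x0, hx0⟩ z hz).add_const c0
  · have hcont : ContinuousAt (C.e i) x0 := (C.e i).continuousAt (hi hx0)
    have e1 := hcont.eventually (ha ⟨x0, hx0⟩ (C.e i x0) ⟨hmem x0 hx0, hself x0 hx0⟩)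
    have e2 := hcont.eventually ((hBo ⟨x0, hx0⟩).mem_nhds (hself x0 hx0))
    filter_upwards [e1, e2, (E.op b).mem_nhds hx0] with x h3 h4 h5
    simp only [h5, dif_pos]
    have h6 := ha2 ⟨x0, hx0⟩ ⟨x, h5⟩ (C.e i x) ⟨hmem x h5, h4, hself x h5⟩
    have h7 : a ⟨x, h5⟩ (C.e i x) = QuotientAddGroup.mk (cr ⟨x0, hx0⟩ ⟨x, h5⟩ (C.e i x)) +
        QuotientAddGroup.mk c0 := by
      rw [hc0, ← h3, h6]
      abel
    rw [h7, ← QuotientAddGroup.mk_add, ← QuotientAddGroup.mk_add]
    congr 1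
    simp only [hcr]
    rw [(C.e i).left_inv (hi h5)]
    ring

/-- **Descent**: the class on an arbitrary cover is computed on a fixed good cover -/
theorem descend (hw : Cls G w) (E : CD w β) (ic : β → C.ι)
    (hi : ∀ b, E.U b ⊆ (C.e (ic b)).source) (hcv : ∀ b, Convex ℝ (sh C (ic b) (E.U b)))
    (hpc : ∀ b b', IsPreconnected (E.U b ∩ E.U b')) :
    ∃ k : β → β → ℝ, ∀ a b c, ∀ x ∈ E.U a ∩ E.U b ∩ E.U c,
      (E.f a b x - k a b) + (E.f b c x - k b c) - (E.f a c x - k a c) ∈ G := by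
  classical
  obtain ⟨α, D, hD⟩ := hw
  choose ρ hρ using D.cov
  have h1 := fun b => stepA D hD ρ hρ E b (ic b) (hi b) (hcv b)
  choose h hh using h1
  set H : β → β → X → ℝ ⧸ G := fun b b' x => QuotientAddGroup.mk (E.f b b' x) - (h b x - h b' x)
    with hH
  have hloc : ∀ b b', ∀ x0 ∈ E.U b ∩ E.U b', ∀ᶠ x in 𝓝 x0, H b b' x = H b b' x0 := by
    intro b b' x0 hx0
    obtain ⟨g, hg, hg2⟩ := hh b x0 hx0.1
    obtain ⟨g', hg', hg2'⟩ := hh b' x0 hx0.2
    set i := ic b with hib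
    set j := ic b' with hjb
    set φ : X → ℝ := fun x => E.f b b' x - g (C.e i x) + g' (C.e j x) with hφ
    have e1 : ∀ᶠ x in 𝓝 x0, H b b' x = QuotientAddGroup.mk (φ x) := by
      filter_upwards [hg2, hg2'] with x h2 h3
      simp only [hH]
      rw [h2, h3, ← QuotientAddGroup.mk_sub, ← QuotientAddGroup.mk_sub]
      congr 1
      simp only [hφ]
      ring
    have hzov : C.e i x0 ∈ C.ov i j := by
      refine ⟨(C.e i).map_source (hi b hx0.1), ?_⟩
      rw [(C.e i).left_inv (hi b hx0.1)]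
      exact hi b' hx0.2
    have htc : C.t i j (C.e i x0) = C.e j x0 := by
      show C.e j ((C.e i).symm (C.e i x0)) = _
      rw [(C.e i).left_inv (hi b hx0.1)]
    have e2 : ∀ᶠ z in 𝓝 (C.e i x0), HasFDerivAt (fun y => φ ((C.e i).symm y))
        (0 : V →L[ℝ] ℝ) z := by
      have hcont : ContinuousAt (C.t i j) (C.e i x0) := (RCh.t_diff hzov).continuousAt
      have e3 : ∀ᶠ z in 𝓝 (C.e i x0), HasFDerivAt g'
          (D.th (ρ x0) j (C.t i j z) - E.th b' j (C.t i j z)) (C.t i j z) := by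
        have := hcont.tendsto
        rw [htc] at this
        exact this.eventually hg'
      have e4 : sh C i (E.U b ∩ E.U b' ∩ D.U (ρ x0)) ∈ 𝓝 (C.e i x0) := by
        refine sh_nhds (((E.op b).inter (E.op b')).inter (D.op _)) ⟨hzov.1, ?_⟩
        rw [(C.e i).left_inv (hi b hx0.1)]
        exact ⟨hx0, hρ x0⟩
      filter_upwards [hg, e3, e4, (RCh.isOpen_ov i j).mem_nhds hzov] with z h2 h3 h4 h5
      have f1 := E.f_d b b' i z ⟨h4.1, h4.2.1⟩
      have f2 : HasFDerivAt (fun y => g (C.e i ((C.e i).symm y)))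
          (D.th (ρ x0) i z - E.th b i z) z := by
        refine h2.congr_of_eventuallyEq ?_
        filter_upwards [(C.e i).open_target.mem_nhds h5.1] with y hy
        rw [(C.e i).right_inv hy]
      have f3 : HasFDerivAt (fun y => g' (C.e j ((C.e i).symm y)))
          ((D.th (ρ x0) j (C.t i j z) - E.th b' j (C.t i j z)).comp (fderiv ℝ (C.t i j) z)) z :=
        HasFDerivAt.comp (g := g') (f := C.t i j) z h3 (RCh.t_diff h5).hasFDerivAt
      refine ((f1.sub f2).add f3).congr_fderiv ?_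
      ext u
      have t1 := D.th_tr (ρ x0) i j z h5 h4.2.2 u
      have t2 := E.th_tr b' i j z h5 h4.2.1.2 u
      simp only [add_apply, sub_apply, ContinuousLinearMap.comp_apply, ← t1, ← t2,
        zero_apply]
      ring
    have e3 := locconst_of_hasFDerivAt e2
    have e4 : ∀ᶠ x in 𝓝 x0, φ x = φ x0 := by
      have hcont : ContinuousAt (C.e i) x0 := (C.e i).continuousAt (hi b hx0.1)
      have e5 := hcont.eventually e3
      filter_upwards [e5, (E.op b).mem_nhds hx0.1] with x h2 h3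
      rwa [(C.e i).left_inv (hi b h3), (C.e i).left_inv (hi b hx0.1)] at h2
    have e5 := e1.self_of_nhds
    filter_upwards [e1, e4] with x h2 h3
    rw [h2, h3, e5]
  have hk : ∀ b b', ∃ k : ℝ, ∀ x ∈ E.U b ∩ E.U b', H b b' x = QuotientAddGroup.mk k := by
    intro b b'
    rcases (E.U b ∩ E.U b').eq_empty_or_nonempty with h0 | ⟨y, hy⟩
    · exact ⟨0, fun x hx => by rw [h0] at hx; exact absurd hx (notMem_empty x)⟩
    · obtain ⟨k, hk⟩ := QuotientAddGroup.mk_surjective (s := G) (H b b' y)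
      exact ⟨k, fun x hx => by
        rw [hk]; exact const_of_locconst (hpc b b') (hloc b b') hx hy⟩
  choose k hk using hk
  refine ⟨k, fun a b c x hx => ?_⟩
  have k1 := hk a b x hx.1
  have k2 := hk b c x ⟨hx.1.2, hx.2⟩
  have k3 := hk a c x ⟨hx.1.1, hx.2⟩
  simp only [hH] at k1 k2 k3
  rw [← QuotientAddGroup.eq_zero_iff]
  rw [QuotientAddGroup.mk_sub, QuotientAddGroup.mk_add, QuotientAddGroup.mk_sub,
    QuotientAddGroup.mk_sub, QuotientAddGroup.mk_sub, ← k1, ← k2, ← k3]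
  abel

end

end Crest.Agent.R281.Dsc_340
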