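import Crest.Agent.R281.Dsc2_340
import Crest.Agent.R281.Poi_234

/-!
# R281 (S0424), CDR part (3) (helper340), part 3: good covers

`GoodR C` : all overlaps of the charts of `C` are convex (for `C = ofAtl A` this is `GoodA A`).
* `exists_cd` : every closed 2-form has Cech-de Rham data over the cover by the chart domains
* `cls_iff_good` : `Cls G w` iff the cocycle of such data lies in `G` after subtracting constants
* `exists_nerve` : the cocycle is constant on triple intersections
-/

set_option autoImplicit false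
set_option linter.unusedSectionVars false
set_option maxSynthPendingDepth 3

open Set Filter Topology
open scoped ContDiff

namespace Crest.Agent.R281.Dsc_340

open Crest.Agent.R281.HkR_835 Crest.Agent.R281.Cdr_234

noncomputable section

variable {V X : Type} [NormedAddCommGroup V] [NormedSpace ℝ V] [TopologicalSpace X]
  {C : RCh V X} {G : AddSubgroup ℝ} {w : F2 C}

/-- all overlaps are convex -/
def GoodR (C : RCh V X) : Prop := ∀ i j, Convex ℝ (C.ov i j)

theorem ov_self (i : C.ι) : C.ov i i = (C.e i).target := by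
  ext z
  exact ⟨fun h => h.1, fun h => ⟨h, (C.e i).map_target h⟩⟩

theorem sh_source (i j : C.ι) : sh C i (C.e j).source = C.ov i j := rfl

theorem GoodR.target (h : GoodR C) (i : C.ι) : Convex ℝ (C.e i).target := by
  rw [← ov_self]
  exact h i i

/-- finite intersections of chart domains are preconnected -/
theorem GoodR.isPreconnected (h : GoodR C) {s : Set C.ι} {i : C.ι} (hi : i ∈ s) :
    IsPreconnected {x | ∀ j ∈ s, x ∈ (C.e j).source} := by
  have h1 : {x | ∀ j ∈ s, x ∈ (C.e j).source} = (C.e i).symm '' (⋂ j ∈ s, C.ov i j) := by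
    ext x
    constructor
    · intro hx
      refine ⟨C.e i x, mem_iInter₂.2 fun j hj => ⟨(C.e i).map_source (hx i hi), ?_⟩,
        (C.e i).left_inv (hx i hi)⟩
      rw [(C.e i).left_inv (hx i hi)]
      exact hx j hj
    · rintro ⟨z, hz, rfl⟩ j hj
      exact (mem_iInter₂.1 hz j hj).2
  rw [h1]
  refine (convex_iInter₂ fun j _ => h i j).isPreconnected.image _ ?_
  exact (C.e i).continuousOn_symm.mono fun z hz => (mem_iInter₂.1 hz i hi).1

theorem GoodR.isPreconnected2 (h : GoodR C) (i j : C.ι) :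
    IsPreconnected ((C.e i).source ∩ (C.e j).source) := by
  have h1 := h.isPreconnected (s := {i, j}) (i := i) (by simp)
  convert h1 using 1
  ext x
  simp

theorem GoodR.isPreconnected3 (h : GoodR C) (i j k : C.ι) :
    IsPreconnected ((C.e i).source ∩ (C.e j).source ∩ (C.e k).source) := by
  have h1 := h.isPreconnected (s := {i, j, k}) (i := i) (by simp)
  convert h1 using 1
  ext x
  simp only [mem_inter_iff, mem_ofPred_eq, mem_insert_iff, mem_singleton_iff, forall_eq_or_imp,
    forall_eq]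
  tauto

theorem t_comp {i j k : C.ι} {z : V} (h1 : z ∈ C.ov i j) : C.t j k (C.t i j z) = C.t i k z := by
  show C.e k ((C.e j).symm (C.e j ((C.e i).symm z))) = C.e k ((C.e i).symm z)
  rw [(C.e j).left_inv h1.2]

theorem ov_comp {i j k : C.ι} {z : V} (h1 : z ∈ C.ov i j) (h2 : z ∈ C.ov i k) :
    C.t i j z ∈ C.ov j k := by
  refine ⟨(RCh.t_mem h1).1, ?_⟩
  show (C.e j).symm (C.e j ((C.e i).symm z)) ∈ _
  rw [(C.e j).left_inv h1.2]
  exact h2.2

theorem dt_comp {i j k : C.ι} {z : V} (h1 : z ∈ C.ov i j) (h2 : z ∈ C.ov i k) :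
    fderiv ℝ (C.t i k) z = (fderiv ℝ (C.t j k) (C.t i j z)).comp (fderiv ℝ (C.t i j) z) := by
  have h3 : C.t i k =ᶠ[𝓝 z] (C.t j k) ∘ (C.t i j) := by
    filter_upwards [(RCh.isOpen_ov i j).mem_nhds h1] with y hy
    exact (t_comp hy).symm
  rw [h3.fderiv_eq]
  exact ((RCh.t_diff (ov_comp h1 h2)).hasFDerivAt.comp z (RCh.t_diff h1).hasFDerivAt).fderiv

/-- **existence of Cech-de Rham data over a good cover** -/
theorem exists_cd [FiniteDimensional ℝ V] (hC : GoodR C) (w : F2 C) :
    ∃ E : CD w C.ι, ∀ i, E.U i = (C.e i).source := by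
  classical
  have h1 : ∀ i, ∃ θ : V → V →L[ℝ] ℝ, ContDiffOn ℝ ∞ θ (C.e i).target ∧
      ∀ z ∈ (C.e i).target, ∀ u v, fderiv ℝ θ z u v - fderiv ℝ θ z v u = w.w i z u v := by
    intro i
    refine Poi_234.poincare2 (C.e i).open_target (hC.target i) (w.sm i) ?_ ?_
    · intro z hz v
      have := w.alt i z hz v v
      linarith
    · exact fun z hz a b c => w.closed i z hz a b c
  choose θ hθ hθd using h1
  set th : C.ι → C.ι → V → V →L[ℝ] ℝ := fun a i => pb1 (θ a) (C.t i a) with hth
  have th_sm : ∀ a i, ContDiffOn ℝ ∞ (th a i) (C.ov i a) := fun a i =>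
    contDiffOn_pb1 (RCh.isOpen_ov i a) (hθ a) (RCh.t_smooth i a)
      fun z hz => (RCh.t_mem hz).1
  have th_tr : ∀ a i j, ∀ z ∈ C.ov i j, z ∈ C.ov i a → ∀ u,
      th a i z u = th a j (C.t i j z) (fderiv ℝ (C.t i j) z u) := by
    intro a i j z hz hza u
    simp only [hth, pb1_apply]
    rw [t_comp hz, dt_comp hz hza]
    rfl
  have th_d : ∀ a i, ∀ z ∈ C.ov i a, ∀ u v,
      fderiv ℝ (th a i) z u v - fderiv ℝ (th a i) z v u = w.w i z u v := by
    intro a i z hz u v
    have hm : C.t i a z ∈ (C.e a).target := (RCh.t_mem hz).1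
    have h2 : DifferentiableAt ℝ (θ a) (C.t i a z) :=
      ((hθ a).contDiffAt ((C.e a).open_target.mem_nhds hm)).differentiableAt (by simp)
    have h3 : ContDiffAt ℝ ∞ (C.t i a) z :=
      (RCh.t_smooth i a).contDiffAt ((RCh.isOpen_ov i a).mem_nhds hz)
    rw [hth, d_pb1 h2 h3, hθd a _ hm, ← w.tr i a z hz]
  have th_diff : ∀ a i, ∀ z ∈ C.ov i a, DifferentiableAt ℝ (th a i) z := fun a i z hz =>
    ((th_sm a i).contDiffAt ((RCh.isOpen_ov i a).mem_nhds hz)).differentiableAt (by simp)
  have h2 : ∀ a b, ∃ φ : V → ℝ, ∀ z ∈ C.ov a b, HasFDerivAt φ (th b a z - th a a z) z := by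
    intro a b
    have hself : ∀ z ∈ C.ov a b, z ∈ C.ov a a := fun z hz => ⟨hz.1, (C.e a).map_target hz.1⟩
    refine Poi_234.poincare1 (RCh.isOpen_ov a b) (hC a b)
      ((th_sm b a).sub ((th_sm a a).mono hself)) fun z hz u v => ?_
    have e3 : fderiv ℝ (fun z => th b a z - th a a z) z = _ :=
      ((th_diff b a z hz).hasFDerivAt.sub (th_diff a a z (hself z hz)).hasFDerivAt).fderiv
    rw [e3]
    have e1 := th_d b a z hz u v
    have e2 := th_d a a z (hself z hz) u v
    simp only [sub_apply]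
    linarith
  choose φ hφ using h2
  refine ⟨{ U := fun i => (C.e i).source
            op := fun i => (C.e i).open_source
            cov := C.cover
            th := th
            th_sm := fun a i => th_sm a i
            th_tr := fun a i j z hz hU u => th_tr a i j z hz ⟨hz.1, hU⟩ u
            th_d := fun a i z hz u v => th_d a i z hz u v
            f := fun a b x => φ a b (C.e a x)
            f_d := ?_ }, fun i => rfl⟩
  intro a b i z hz
  have hza : z ∈ C.ov i a := ⟨hz.1, hz.2.1⟩
  have hzb : z ∈ C.ov i b := ⟨hz.1, hz.2.2⟩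
  have e1 := hφ a b (C.t i a z) (ov_comp hza hzb)
  have e2 : HasFDerivAt (fun y => φ a b (C.e a ((C.e i).symm y)))
      ((th b a (C.t i a z) - th a a (C.t i a z)).comp (fderiv ℝ (C.t i a) z)) z :=
    HasFDerivAt.comp (g := φ a b) (f := C.t i a) z e1 (RCh.t_diff hza).hasFDerivAt
  refine e2.congr_fderiv ?_
  ext u
  simp only [ContinuousLinearMap.comp_apply, sub_apply]
  rw [← th_tr b i a z hza hzb u, ← th_tr a i a z hza hza u]

/-- change of the functions by constants -/
def shift {β : Type} (E : CD w β) (k : β → β → ℝ) : CD w β where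
  U := E.U
  op := E.op
  cov := E.cov
  th := E.th
  th_sm := E.th_sm
  th_tr := E.th_tr
  th_d := E.th_d
  f a b x := E.f a b x - k a b
  f_d a b i z hz := (E.f_d a b i z hz).sub_const (k a b)

/-- **classes are computed on a good cover** -/
theorem cls_iff_good (hC : GoodR C) (E : CD w C.ι) (hU : ∀ i, E.U i = (C.e i).source) :
    Cls G w ↔ ∃ k : C.ι → C.ι → ℝ, ∀ a b c, ∀ x ∈ (C.e a).source ∩ (C.e b).source ∩ (C.e c).source,
      (E.f a b x - k a b) + (E.f b c x - k b c) - (E.f a c x - k a c) ∈ G := by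
  constructor
  · intro hw
    obtain ⟨k, hk⟩ := descend hw E (fun b => b) (fun b => (hU b).le)
      (fun b => by rw [hU, sh_source]; exact hC b b)
      (fun b b' => by rw [hU, hU]; exact hC.isPreconnected2 b b')
    refine ⟨k, fun a b c x hx => hk a b c x ?_⟩
    rw [hU, hU, hU]
    exact hx
  · rintro ⟨k, hk⟩
    refine ⟨C.ι, shift E k, fun a b c x hx => ?_⟩
    have hx' : x ∈ E.U a ∩ E.U b ∩ E.U c := hx
    rw [hU, hU, hU] at hx'
    exact hk a b c x hx'

/-- the cocycle of Cech-de Rham data is locally constant -/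
theorem cocycle_locconst {β : Type} (E : CD w β) (a b c : β) {x0 : X}
    (hx0 : x0 ∈ E.U a ∩ E.U b ∩ E.U c) :
    ∀ᶠ x in 𝓝 x0, E.f a b x + E.f b c x - E.f a c x = E.f a b x0 + E.f b c x0 - E.f a c x0 := by
  obtain ⟨i, hi⟩ := C.cover x0
  have hz : C.e i x0 ∈ sh C i (E.U a ∩ E.U b ∩ E.U c) := by
    refine ⟨(C.e i).map_source hi, ?_⟩
    rw [(C.e i).left_inv hi]
    exact hx0
  have e1 := locconst_of_hasFDerivAt
    (f := fun y => E.f a b ((C.e i).symm y) + E.f b c ((C.e i).symm y) - E.f a c ((C.e i).symm y))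
    (z := C.e i x0) (by
      filter_upwards [sh_nhds (((E.op a).inter (E.op b)).inter (E.op c)) hz] with z hz
      refine (((E.f_d a b i z ⟨hz.1, hz.2.1⟩).add (E.f_d b c i z ⟨hz.1, hz.2.1.2, hz.2.2⟩)).sub
        (E.f_d a c i z ⟨hz.1, hz.2.1.1, hz.2.2⟩)).congr_fderiv ?_
      abel)
  have e2 := ((C.e i).continuousAt hi).eventually e1
  filter_upwards [e2, (C.e i).open_source.mem_nhds hi] with x h1 h2
  rwa [(C.e i).left_inv h2, (C.e i).left_inv hi] at h1

/-- the nerve cocycle of data over a good cover -/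
theorem exists_nerve (hC : GoodR C) (E : CD w C.ι) (hU : ∀ i, E.U i = (C.e i).source) :
    ∃ c : C.ι → C.ι → C.ι → ℝ, ∀ i j k, ∀ x ∈ (C.e i).source ∩ (C.e j).source ∩ (C.e k).source,
      E.f i j x + E.f j k x - E.f i k x = c i j k := by
  classical
  have h1 : ∀ i j k, ∃ c : ℝ, ∀ x ∈ (C.e i).source ∩ (C.e j).source ∩ (C.e k).source,
      E.f i j x + E.f j k x - E.f i k x = c := by
    intro i j k
    rcases ((C.e i).source ∩ (C.e j).source ∩ (C.e k).source).eq_empty_or_nonempty with h0 | ⟨y, hy⟩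
    · exact ⟨0, fun x hx => by rw [h0] at hx; exact absurd hx (notMem_empty x)⟩
    · refine ⟨_, fun x hx => const_of_locconst (hC.isPreconnected3 i j k)
        (f := fun x => E.f i j x + E.f j k x - E.f i k x) (fun x hx => ?_) hx hy⟩
      refine cocycle_locconst E i j k ?_
      rw [hU, hU, hU]
      exact hx
  choose c hc using h1
  exact ⟨c, hc⟩

end

end Crest.Agent.R281.Dsc_340
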