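import Crest.Agent.R281.Dsc2_340
import Crest.Agent.R281.Cdr8_234

/-!
# R281 (S0424), CDR part (3) (helper340), part 4: `Cls G` in terms of the nerve cocycle (`Rel`)

* `cls_iff_rel` : for `Rel w c` on a good system of charts, `Cls G w` iff the cocycle `c` differs
  from a `G`-valued one by a real coboundary
* `ex_iff_rel`  : `Ex w` iff the cocycle `c` is a real coboundary
-/

set_option autoImplicit false
set_option linter.unusedSectionVars false
set_option maxSynthPendingDepth 3

open Set Filter Topology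
open scoped ContDiff

namespace Crest.Agent.R281.Dsc_340

open Crest.Agent.R281.HkR_835 Crest.Agent.R281.Cdr_234
open Crest.Agent.R281.Ti_846 (F1 IsD Ex d1)

noncomputable section

variable {V X : Type} [NormedAddCommGroup V] [NormedSpace ℝ V] [TopologicalSpace X]
  {C : RCh V X} {G : AddSubgroup ℝ} {w : F2 C} {c : C.ι → C.ι → C.ι → ℝ}

/-- **the class of a form in terms of its nerve cocycle** -/
theorem cls_iff_rel (hC : GoodR C) (h : Rel w c) :
    Cls G w ↔ ∃ m : C.ι → C.ι → ℝ, ∀ i j k,
      ((C.e i).source ∩ (C.e j).source ∩ (C.e k).source).Nonempty →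
      c i j k - (m j k - m i k + m i j) ∈ G := by
  obtain ⟨D, hU, hc⟩ := h
  constructor
  · intro hw
    obtain ⟨k, hk⟩ := descend hw D (fun b => b) (fun b => (hU b).le)
      (fun b => by rw [hU, sh_source]; exact hC b b)
      (fun b b' => by rw [hU, hU]; exact hC.preconnected2 b b')
    refine ⟨k, fun a b d hne => ?_⟩
    obtain ⟨x, hx⟩ := hne
    have h1 := hk a b d x (by rw [hU, hU, hU]; exact hx)
    rw [← hc a b d x hx]
    convert h1 using 1
    ring
  · rintro ⟨m, hm⟩
    refine ⟨C.ι, ⟨D.U, D.op, D.cov, D.th, D.th_sm, D.th_tr, D.th_d,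
      fun a b x => D.f a b x - m a b, fun a b i z hz => (D.f_d a b i z hz).sub_const (m a b)⟩,
      fun a b d x hx => ?_⟩
    have hx' : x ∈ (C.e a).source ∩ (C.e b).source ∩ (C.e d).source := by
      have hx2 : x ∈ D.U a ∩ D.U b ∩ D.U d := hx
      rwa [hU, hU, hU] at hx2
    have h1 := hm a b d ⟨x, hx'⟩
    rw [← hc a b d x hx'] at h1
    convert h1 using 1
    ring

/-- **exactness in terms of the nerve cocycle** -/
theorem ex_iff_rel (hC : GoodR C) [Fintype C.ι] (P : PU C) (h : Rel w c) :
    Ex w ↔ ∃ m : C.ι → C.ι → ℝ, ∀ i j k,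
      ((C.e i).source ∩ (C.e j).source ∩ (C.e k).source).Nonempty →
      c i j k = m j k - m i k + m i j := by
  constructor
  · intro hw
    obtain ⟨m, hm⟩ := (cls_iff_rel (G := ⊥) hC h).1 (Cls.of_ex hw)
    refine ⟨m, fun i j k hne => ?_⟩
    have := AddSubgroup.mem_bot.1 (hm i j k hne)
    linarith
  · rintro ⟨m, hm⟩
    exact h.ex_of_cob P m hm

end

end Crest.Agent.R281.Dsc_340
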