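import Crest.Agent.R281.Hk5_389
import Crest.Agent.R281.Har4_331

/-!
# R281 (S0424), S6-HARN (Hc), part 6 (helper389): the constant `c1`

* `exists_c1` : for `M` compact Kaehler, `h : HM L`, `0 < d` there is `c1 > 0` such that for every
  holomorphic immersion `f : T → M` of a `d`-dimensional manifold (compact, or a leaf closed in the
  open set where the section does not vanish), every section `s` without zero on `f(T)` and every
  `q`: `c1 ≤ vol(Z) + ∫_Z |∂ρ|²` for a compact `Z ⊆ {|ρ - ρ q| < 1}`, `ρ = log |s|²_h ∘ f`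
* `low_of` : `Low K h d c1` of helper331
-/

set_option autoImplicit false
set_option linter.unusedSectionVars false

open Set Filter Topology Complex MeasureTheory Function
open scoped ContDiff Matrix ComplexConjugate ComplexOrder ENNReal

namespace Crest.Agent.R281.Hk_389

open Crest.Agent.R275 Crest.Agent.R275.Geo Crest.Agent.R275.Core144 Crest.Agent.R275.EDR890
open Crest.Agent.R273.Defs_333 Crest.Agent.R273.Hess_333 Crest.Agent.R273.HessB_333
open Crest.Agent.R273.HM_333 Crest.Agent.R273.Kah_333 Crest.Agent.R273.Vol_333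
open Crest.Agent.R273.Vm_333 Crest.Agent.R273.Map_835 Crest.Agent.R273.KahI_645
open Crest.Agent.R273.Green_5 Crest.Agent.R273.FIa0_597 Crest.Agent.R273.FIb0_597
open Crest.Agent.R273
open Crest.Agent.R273.SchI_152 (Dg sm_sq Dg_nonneg continuous_Dg)
open Crest.Agent.R281.Glob1_484 Crest.Agent.R281.S6D_664 Crest.Agent.R281.Har_331

noncomputable section

variable {N d m : ℕ}

/-! ### linear algebra -/

theorem lin_exp (ℓ : Cn N →L[ℂ] ℂ) (v : Cn N) :
    ℓ v = ∑ b, ℓ (EuclideanSpace.single b 1) * v b := by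
  have e2 : v = ∑ a, v a • (EuclideanSpace.single a (1 : ℂ) : Cn N) := by
    ext c
    simp [Pi.single_apply]
  conv_lhs => rw [e2]
  rw [map_sum]
  simp only [map_smul, smul_eq_mul]
  exact Finset.sum_congr rfl fun a _ => mul_comm _ _

theorem jac_comp {F : Cn N → Fin m → ℂ} {R : Cn d → Cn N} {z : Cn d}
    (hF : ∀ k, DifferentiableAt ℂ (fun w => F w k) (R z)) (hR : DifferentiableAt ℂ R z) :
    jac (fun w => F (R w)) z = jac F (R z) * mt (fderiv ℂ R z) := by
  ext k a
  rw [Matrix.mul_apply]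
  show fderiv ℂ (fun w => F (R w) k) z (EuclideanSpace.single a 1) = _
  have h1 : HasFDerivAt (fun w => F (R w) k)
      ((fderiv ℂ (fun w => F w k) (R z)).comp (fderiv ℂ R z)) z :=
    (hF k).hasFDerivAt.comp z hR.hasFDerivAt
  rw [h1.fderiv]
  show fderiv ℂ (fun w => F w k) (R z) (fderiv ℂ R z (EuclideanSpace.single a 1)) = _
  rw [lin_exp]
  rfl

theorem conjT_map (J : Matrix (Fin m) (Fin d) ℂ) : (J.map conj)ᴴ = Jᵀ := by
  ext a b
  simp [Matrix.conjTranspose_apply]

theorem gram_mul (X : Matrix (Fin m) (Fin N) ℂ) (Y : Matrix (Fin N) (Fin d) ℂ) :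
    (X * Y)ᵀ * (X * Y).map conj = Yᵀ * (Xᵀ * X.map conj) * Y.map conj := by
  rw [Matrix.transpose_mul, Matrix.map_mul]
  simp only [Matrix.mul_assoc]

theorem det_r1 {G : Matrix (Fin d) (Fin d) ℂ} (hG : G.PosDef) (p : Fin d → ℂ) :
    (G + Matrix.vecMulVec p (star p)).det.re =
      G.det.re * (1 + ((G⁻¹ * Matrix.vecMulVec p (star p)).trace).re) := by
  have hu : IsUnit G.det := isUnit_iff_ne_zero.2 hG.det_pos.ne'
  have e1 : G + Matrix.vecMulVec p (star p) = G * (1 + Matrix.vecMulVec (G⁻¹ *ᵥ p) (star p)) := by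
    rw [← Matrix.mul_vecMulVec, Matrix.mul_add, Matrix.mul_one, ← Matrix.mul_assoc,
      Matrix.mul_nonsing_inv _ hu, Matrix.one_mul]
  rw [e1, Matrix.det_mul, Matrix.mul_vecMulVec, Matrix.trace_vecMulVec,
    Matrix.vecMulVec_eq Unit (G⁻¹ *ᵥ p), Matrix.det_one_add_replicateCol_mul_replicateRow]
  have him : G.det.im = 0 := (Complex.lt_def.1 hG.det_pos).2.symm
  rw [Complex.mul_re, him, zero_mul, sub_zero, Complex.add_re, Complex.one_re, dotProduct_comm]

/-- injectivity of the conjugate Jacobian -/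
theorem inj_mt {D : Cn d →L[ℂ] Cn N} (h : Injective D) :
    Injective ((mt D).map conj).mulVec := by
  intro v w hvw
  have h4 : ∀ v : Fin d → ℂ, star ((mt D).map conj *ᵥ v) =
      (D (WithLp.toLp 2 (star v)) : Fin N → ℂ) := by
    intro v
    funext b
    rw [mt_apply]
    simp only [Pi.star_apply, Matrix.mulVec, dotProduct, Matrix.map_apply, star_sum, star_mul',
      RCLike.star_def, Complex.conj_conj]
  have h5 : D (WithLp.toLp 2 (star v)) = D (WithLp.toLp 2 (star w)) := by
    ext b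
    exact congrFun ((h4 v).symm.trans ((congrArg star hvw).trans (h4 w))) b
  have h6 := h h5
  have h7 : star v = star w := congrArg (WithLp.ofLp) h6
  exact star_injective h7

/-- the estimate of the determinant -/
theorem det_est {G H : Matrix (Fin d) (Fin d) ℂ} (hG : G.PosDef) (hH : H.PosSemidef)
    {p : Fin d → ℂ} {C : ℝ}
    (h : ((C : ℂ) • (G + Matrix.vecMulVec p (star p)) - H).PosSemidef) :
    H.det.re ≤ C ^ d * (G.det.re * (1 + ((G⁻¹ * Matrix.vecMulVec p (star p)).trace).re)) := by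
  have h1 := det_mono hH h
  rw [add_sub_cancel, Matrix.det_smul, Fintype.card_fin, ← Complex.ofReal_pow,
    Complex.re_ofReal_mul, det_r1 hG] at h1
  exact h1

/-! ### the domain on the leaf -/

variable {M T : Type} [TopologicalSpace M] [TopologicalSpace T] {A : Atl N M} {B : Atl d T}
  {L : LB A}

/-- the domain -/
def mkDom {f : T → M} (hf : HolMap B A f) (i : A.ι) (g : Cn N → ℂ)
    (hg : DifferentiableOn ℂ g (A.e i).target) (z0 : Cn N) (r : ℝ)
    (hc : IsCompact {t | t ∈ f ⁻¹' (A.e i).source ∧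
      ∑ k, ‖fam g z0 r (A.e i (f t)) k‖ ^ 2 ≤ 1}) : Dom B (N + 1) where
  V := f ⁻¹' (A.e i).source
  F t := fam g z0 r (A.e i (f t))
  op := (A.e i).open_source.preimage hf.cont
  hol j k := by
    show DifferentiableOn ℂ (fun z => fam g z0 r (A.e i (f ((B.e j).symm z))) k) _
    have h1 := hf.hol j i
    exact (fam_diff hg k).comp h1 fun z hz => (A.e i).map_source hz.2
  cpt := hc

section dom

variable {f : T → M} {hf : HolMap B A f} {i : A.ι} {g : Cn N → ℂ}
  {hg : DifferentiableOn ℂ g (A.e i).target} {z0 : Cn N} {r : ℝ}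
  {hc : IsCompact {t | t ∈ f ⁻¹' (A.e i).source ∧
      ∑ k, ‖fam g z0 r (A.e i (f t)) k‖ ^ 2 ≤ 1}}

theorem mkDom_b (t : T) : (mkDom hf i g hg z0 r hc).b t =
    FS_333.sq (fam g z0 r) (A.e i (f t)) := rfl

theorem mkDom_jac {j : B.ι} {t : T} (hj : t ∈ (B.e j).source) (ht : f t ∈ (A.e i).source) :
    jac ((mkDom hf i g hg z0 r hc).G j) (B.e j t) =
      jac (fam g z0 r) (A.e i (f t)) * Jp B A f j i t := by
  have h1 : (mkDom hf i g hg z0 r hc).G j = fun w => fam g z0 r (rd B A f j i w) := rfl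
  have hv : rd B A f j i (B.e j t) = A.e i (f t) := rd_val hj
  have hz := (A.e i).map_source ht
  rw [h1, jac_comp (F := fam g z0 r) ?_ (rd_diff hf hj ht), hv, Jp_eq]
  intro k
  rw [hv]
  exact (fam_diff hg k).differentiableAt ((A.e i).open_target.mem_nhds hz)

end dom

/-! ### the bound on the leaf -/

/-- properties of the points of the domain -/
theorem fam_pts {g : Cn N → ℂ} {z0 : Cn N} {r : ℝ} (hr : 0 < r) {z : Cn N}
    (hz : FS_333.sq (fam g z0 r) z ≤ 1) :
    z ∈ Metric.closedBall z0 r ∧ ‖g z / g z0 - 1‖ ≤ 1 / 8 ∧ ‖g z / g z0‖ ≤ 9 / 8 ∧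
      7 / 8 ≤ ‖g z / g z0‖ ∧ g z ≠ 0 := by
  rw [sq_fam] at hz
  have h1 := norm_nonneg (g z / g z0 - 1)
  have h2 := norm_nonneg (z - z0)
  have h3 : 0 ≤ (r ^ 2)⁻¹ * ‖z - z0‖ ^ 2 := by positivity
  have h4 : ‖g z / g z0 - 1‖ ≤ 1 / 8 := by
    by_contra h
    push Not at h
    nlinarith
  have h5 : ‖z - z0‖ ≤ r := by
    have h6 : (r ^ 2)⁻¹ * ‖z - z0‖ ^ 2 ≤ 1 := by nlinarith [sq_nonneg ‖g z / g z0 - 1‖]
    rw [inv_mul_le_iff₀ (by positivity), mul_one] at h6
    exact (pow_le_pow_iff_left₀ h2 hr.le two_ne_zero).1 h6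
  have h6 : ‖g z / g z0‖ ≤ 9 / 8 := by
    have := norm_add_le (g z / g z0 - 1) 1
    rw [sub_add_cancel, norm_one] at this
    linarith
  have h7 : 7 / 8 ≤ ‖g z / g z0‖ := by
    have h8 : ‖(1 : ℂ)‖ ≤ ‖g z / g z0‖ + ‖g z / g z0 - 1‖ := by
      have e : (1 : ℂ) = g z / g z0 - (g z / g z0 - 1) := by ring
      calc ‖(1 : ℂ)‖ = ‖g z / g z0 - (g z / g z0 - 1)‖ := by rw [← e]
        _ ≤ _ := norm_sub_le _ _
    rw [norm_one] at h8
    linarith
  refine ⟨by rw [mem_closedBall_iff_norm]; exact h5, h4, h6, h7, ?_⟩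
  intro h8
  rw [h8, zero_div, norm_zero] at h7
  norm_num at h7

theorem log_bd {x : ℝ} (h1 : 7 / 8 ≤ x) (h2 : x ≤ 9 / 8) : |Real.log (x ^ 2)| ≤ 1 / 2 := by
  have hx : 0 < x := by linarith
  have h3 := Real.log_le_sub_one_of_pos (show 0 < x ^ 2 by positivity)
  have h4 := Real.one_sub_inv_le_log_of_pos (show 0 < x ^ 2 by positivity)
  rw [abs_le]
  constructor
  · have h5 : (x ^ 2)⁻¹ ≤ 3 / 2 := by
      rw [inv_le_comm₀ (by positivity) (by norm_num)]
      nlinarith
    linarith
  · nlinarith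

section main

variable [T2Space M] (K : Kah A) (h : HM L)

theorem rho_eq {s : A.ι → M → ℂ} (hs : IsHS L univ s) {i : A.ι} {x : M}
    (hx : x ∈ (A.e i).source) (h0 : s i x ≠ 0) :
    Real.log (nsM h s x) = Real.log (‖s i x‖ ^ 2) - h.wt i (A.e i x) := by
  have hw : h.wt i (A.e i x) = - Real.log (h.w i x) := by
    show - Real.log (h.w i ((A.e i).symm (A.e i x))) = _
    rw [(A.e i).left_inv hx]
  rw [nsM_eq h hs hx, nsq, hw, Real.log_mul _ (h.pos i _ hx).ne', sub_neg_eq_add]
  exact pow_ne_zero 2 (norm_ne_zero_iff.2 h0)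

/-- **the lower bound on a leaf**: `c1 ≤ vol(Z) + ∫_Z |∂ρ|²` -/
theorem leaf_low {C : ℝ} (hC : 162 ≤ C) (hU : ∀ p, ∃ i r, Uni K h C p i r) (hd : 0 < d)
    [T2Space T] [MeasurableSpace T] [BorelSpace T] [Countable B.ι] (P : Part B)
    {f : T → M} (hf : HolMap B A f) (hi : Imm B A f) {s : A.ι → M → ℂ} (hs : IsHS L univ s)
    (hp : ∀ t, 0 < nsM h s (f t))
    (hcl : ∀ Q : Set M, IsCompact Q → (∀ x ∈ Q, 0 < nsM h s x) → IsCompact (f ⁻¹' Q)) (q : T) :
    ∃ Z : Set T, IsCompact Z ∧
      (∀ x ∈ Z, rho h s f q - 1 < rho h s f x ∧ rho h s f x < rho h s f q + 1) ∧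
      om d / (2 * 128 ^ d) / C ^ d ≤ (vm (volK (pullI K hf hi))).real Z +
        ∫ x in Z, Dg (pullI K hf hi) (rho h s f) x ∂(vm (volK (pullI K hf hi))) := by
  obtain ⟨i, r, H⟩ := hU (f q)
  set z0 := A.e i (f q) with hz0
  set g : Cn N → ℂ := fun z => s i ((A.e i).symm z) with hgd
  have hg : DifferentiableOn ℂ g (A.e i).target := by
    have h1 : DifferentiableOn ℂ (fun z => s i ((A.e i).symm z))
      ((A.e i).target ∩ (A.e i).symm ⁻¹' univ) := hs.hol i
    rwa [preimage_univ, inter_univ] at h1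
  have hne : ∀ {x : M}, x ∈ (A.e i).source → (0 < nsM h s x ↔ s i x ≠ 0) := by
    intro x hx
    rw [nsM_eq h hs hx, nsq]
    have hw := h.pos i x hx
    constructor
    · intro h1 h2
      rw [h2] at h1
      simp at h1
    · intro h1
      have := norm_pos_iff.2 h1
      positivity
  have hgx : ∀ {x : M}, x ∈ (A.e i).source → g (A.e i x) = s i x := by
    intro x hx
    show s i ((A.e i).symm (A.e i x)) = _
    rw [(A.e i).left_inv hx]
  have h0 : g z0 ≠ 0 := by
    rw [hz0, hgx H.src]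
    exact (hne H.src).1 (hp q)
  -- compactness of the domain
  have hcM : IsCompact {x | x ∈ (A.e i).source ∧ FS_333.sq (fam g z0 r) (A.e i x) ≤ 1} := by
    set W : Set (Cn N) := Metric.closedBall z0 r ∩ (FS_333.sq (fam g z0 r)) ⁻¹' Iic 1 with hW
    have hWc : IsCompact W := by
      refine (isCompact_closedBall z0 r).of_isClosed_subset ?_ inter_subset_left
      refine ContinuousOn.preimage_isClosed_of_isClosed ?_ Metric.isClosed_closedBall isClosed_Iic
      intro z hz
      exact (sq_contDiffAt (A.e i).open_target (fun k => fam_diff hg k)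
        (H.ball hz)).continuousAt.continuousWithinAt
    have hWt : W ⊆ (A.e i).target := inter_subset_left.trans H.ball
    have h1 := hWc.image_of_continuousOn ((A.e i).continuousOn_symm.mono hWt)
    convert h1 using 1
    ext x
    constructor
    · rintro ⟨hx, hx2⟩
      refine ⟨A.e i x, ⟨(fam_pts H.r0 hx2).1, hx2⟩, (A.e i).left_inv hx⟩
    · rintro ⟨z, ⟨hz1, hz2⟩, rfl⟩
      have hzt := H.ball hz1
      refine ⟨(A.e i).map_target hzt, ?_⟩
      rw [(A.e i).right_inv hzt]
      exact hz2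
  have hcT : IsCompact {t | t ∈ f ⁻¹' (A.e i).source ∧
      ∑ k, ‖fam g z0 r (A.e i (f t)) k‖ ^ 2 ≤ 1} := by
    refine hcl _ hcM fun x hx => ?_
    rw [hne hx.1, ← hgx hx.1]
    exact (fam_pts H.r0 hx.2).2.2.2.2
  set D := mkDom hf i g hg z0 r hcT with hD
  set KT := pullI K hf hi with hKT
  set ρ := rho h s f with hρd
  have sρ : B.Sm ρ := sm_rho h hs hf hp
  obtain ⟨j0, hj0⟩ := B.cover q
  -- the lower bound
  have hlow := D.lelong hd P (volK KT) (i := j0) (q := q) hj0 H.src
    (by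
      show fam g z0 r (A.e i (f q)) = 0
      exact fam_self h0)
    (by
      rw [mkDom_jac hj0 H.src, gram_mul]
      have h1 : ((jac (fam g z0 r) (A.e i (f q)))ᵀ *
          (jac (fam g z0 r) (A.e i (f q))).map conj).PosDef := by
        rw [jac_fam (A.e i).open_target hg ((A.e i).map_source H.src)]
        refine Matrix.PosDef.posSemidef_add (Matrix.posSemidef_vecMulVec_self_star _) ?_
        refine Matrix.PosDef.one.smul ?_
        have hr := H.r0
        exact_mod_cast (by positivity : (0 : ℝ) < (r ^ 2)⁻¹)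
      have h2 := h1.conjTranspose_mul_mul_same (B := (Jp B A f j0 i q).map conj)
        (inj_mt (hi j0 i q hj0 H.src))
      rw [conjT_map] at h2
      exact h2.det_pos.ne')
  have hZ : ∀ x ∈ D.Z (1 / 2), f x ∈ (A.e i).source ∧
      FS_333.sq (fam g z0 r) (A.e i (f x)) ≤ 1 := fun x hx =>
    ⟨hx.1, (show D.b x ≤ 1 / 2 from hx.2).trans (by norm_num)⟩
  refine ⟨D.Z (1 / 2), D.isCompact_Z (by norm_num), fun x hx => ?_, ?_⟩
  · obtain ⟨hxs, hx1⟩ := hZ x hx
    obtain ⟨hb, -, hu, hl, hgz⟩ := fam_pts H.r0 hx1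
    have hsx : s i (f x) ≠ 0 := by rw [← hgx hxs]; exact hgz
    have hsq : s i (f q) ≠ 0 := by rw [← hgx H.src]; exact h0
    have e1 : ρ x = Real.log (‖s i (f x)‖ ^ 2) - h.wt i (A.e i (f x)) := rho_eq h hs hxs hsx
    have e2 : ρ q = Real.log (‖s i (f q)‖ ^ 2) - h.wt i (A.e i (f q)) := rho_eq h hs H.src hsq
    have e3 := H.osc _ hb
    have e4 := log_bd hl hu
    rw [norm_div, div_pow, Real.log_div (pow_ne_zero 2 (norm_ne_zero_iff.2 hgz))
      (pow_ne_zero 2 (norm_ne_zero_iff.2 h0)), hgx hxs, hz0, hgx H.src] at e4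
    rw [← hz0] at e2
    rw [e1, e2]
    rw [abs_le] at e3 e4
    constructor <;> linarith [e3.1, e3.2, e4.1, e4.2]
  · -- the upper bound
    have hup : ∀ t ∈ D.Z (1 / 2), dtM (volK KT) (hsf B (D.cut F0)) t ≤
        C ^ d * (1 + Dg KT ρ t) := by
      intro t ht
      obtain ⟨hxs, hx1⟩ := hZ t ht
      obtain ⟨hb, -, hu, hl, hgz⟩ := fam_pts H.r0 hx1
      have hj := mem_ch B t
      set j := ch B t with hjd
      set x := f t with hxd
      set z := A.e i x with hzd
      have hzt : z ∈ (A.e i).target := (A.e i).map_source hxs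
      have hpx : 0 < nsM h s x := hp t
      have hhol := hol_at hs i hzt
      have hρM : (fun z => Real.log (nsM h s ((A.e i).symm z))) =ᶠ[𝓝 z]
          fun w => Real.log (‖g w‖ ^ 2) - h.wt i w := by
        have hc : ContinuousAt g z := hhol.self_of_nhds.continuousAt
        filter_upwards [hc.eventually_ne hgz, (A.e i).open_target.mem_nhds hzt] with w hw1 hw2
        have hw3 := (A.e i).map_target hw2
        have h1 := rho_eq h hs hw3 (show s i ((A.e i).symm w) ≠ 0 from hw1)
        rw [(A.e i).right_inv hw2] at h1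
        exact h1
      have hφd : DifferentiableAt ℝ (h.wt i) z :=
        ((wt_smooth h i).contDiffAt ((A.e i).open_target.mem_nhds hzt)).differentiableAt (by simp)
      have hKx : K.g i ((A.e i).symm z) = K.g i x := by rw [hzd, (A.e i).left_inv hxs]
      have hup1 := up_M (r := r) (Km := K.g i x) (A.e i).open_target hg hzt h0 hgz hφd hρM hu hC (by
        have := H.up z hb
        rw [hKx] at this
        exact this)
      set p := gr (fun z => Real.log (nsM h s ((A.e i).symm z))) z with hpd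
      set J := Jp B A f j i t with hJ
      have hup2 := hup1.conjTranspose_mul_mul_same (J.map conj)
      rw [conjT_map] at hup2
      have hu' : ContDiffAt ℝ ∞ (fun z => Real.log (nsM h s ((A.e i).symm z))) (A.e i (f t)) := by
        refine ContDiffAt.log (sm_at (sm_nsM h hs) hxs) ?_
        rw [(A.e i).left_inv hxs]; exact hpx.ne'
      have hgr : gr (fun w => ρ ((B.e j).symm w)) (B.e j t) = Jᵀ *ᵥ p :=
        gr_pull hf (u := fun x => Real.log (nsM h s x)) hj hxs hu'
      have hKg : KT.g j t = Jᵀ * K.g i x * J.map conj := pullI_g K hf hi hj hxs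
      have hvm : Jᵀ * Matrix.vecMulVec p (star p) * J.map conj =
          Matrix.vecMulVec (Jᵀ *ᵥ p) (star (Jᵀ *ᵥ p)) := by
        rw [Matrix.mul_vecMulVec, Matrix.vecMulVec_mul]
        congr 1
        rw [Matrix.star_mulVec, ← conjT_map, Matrix.conjTranspose_conjTranspose]
      have e1 : Jᵀ * ((C : ℂ) • (K.g i x + Matrix.vecMulVec p (star p)) -
          (jac (fam g z0 r) z)ᵀ * (jac (fam g z0 r) z).map conj) * J.map conj =
          (C : ℂ) • (KT.g j t + Matrix.vecMulVec (Jᵀ *ᵥ p) (star (Jᵀ *ᵥ p))) -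
            (jac (D.G j) (B.e j t))ᵀ * (jac (D.G j) (B.e j t)).map conj := by
        rw [mkDom_jac hj hxs, gram_mul, hKg, ← hvm, Matrix.mul_sub, Matrix.sub_mul,
          Matrix.mul_smul, Matrix.smul_mul, Matrix.mul_add, Matrix.add_mul]
      rw [e1] at hup2
      have h3 := det_est (KT.pos j t hj) (psd_jac _) hup2
      rw [dtM_eq' (volK KT) (tf_hsf D.sm0) hj, D.hsf_cut0 hj ht.1 (by linarith [ht.2])]
      have hw : (volK KT).w j t = (KT.g j t).det.re := rfl
      have hwp := (volK KT).pos j t hj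
      rw [div_le_iff₀ hwp, hw]
      rw [Dg_eq KT sρ hj, gq, hgr]
      calc _ ≤ _ := h3
        _ = _ := by ring
    set μ := vm (volK KT) with hμ
    have hloc := isLocallyFinite_vm (volK KT)
    have hZc : IsCompact (D.Z (1 / 2)) := D.isCompact_Z (by norm_num)
    have i1 : IntegrableOn (dtM (volK KT) (hsf B (D.cut F0))) (D.Z (1 / 2)) μ :=
      (cont_dtM' (volK KT) (tf_hsf D.sm0)).continuousOn.integrableOn_compact hZc
    have i2 : IntegrableOn (Dg KT ρ) (D.Z (1 / 2)) μ :=
      (continuous_Dg KT sρ).continuousOn.integrableOn_compact hZc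
    have i3 : IntegrableOn (fun _ => (1 : ℝ)) (D.Z (1 / 2)) μ :=
      continuousOn_const.integrableOn_compact hZc
    have h4 : ∫ x in D.Z (1 / 2), dtM (volK KT) (hsf B (D.cut F0)) x ∂μ ≤
        ∫ x in D.Z (1 / 2), C ^ d * (1 + Dg KT ρ x) ∂μ :=
      setIntegral_mono_on i1 ((i3.add i2).const_mul _) hZc.measurableSet hup
    have h5 : ∫ x in D.Z (1 / 2), C ^ d * (1 + Dg KT ρ x) ∂μ =
        C ^ d * (μ.real (D.Z (1 / 2)) + ∫ x in D.Z (1 / 2), Dg KT ρ x ∂μ) := by
      rw [integral_const_mul]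
      congr 1
      have h6 : ∫ x in D.Z (1 / 2), (1 + Dg KT ρ x) ∂μ =
          ∫ x in D.Z (1 / 2), (1 : ℝ) ∂μ + ∫ x in D.Z (1 / 2), Dg KT ρ x ∂μ :=
        integral_add i3 i2
      rw [h6]
      simp
    have hCd : 0 < C ^ d := by positivity
    rw [div_le_iff₀ hCd]
    calc om d / (2 * 128 ^ d) ≤ _ := hlow
      _ ≤ _ := h4
      _ = _ := by rw [h5]; ring

/-- the same bound on the whole level strip, if the volume and the energy of the strip are finite -/
theorem leaf_low_strip {C : ℝ} (hC : 162 ≤ C) (hU : ∀ p, ∃ i r, Uni K h C p i r) (hd : 0 < d)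
    [T2Space T] [MeasurableSpace T] [BorelSpace T] [Countable B.ι] (P : Part B)
    {f : T → M} (hf : HolMap B A f) (hi : Imm B A f) {s : A.ι → M → ℂ} (hs : IsHS L univ s)
    (hp : ∀ t, 0 < nsM h s (f t))
    (hcl : ∀ Q : Set M, IsCompact Q → (∀ x ∈ Q, 0 < nsM h s x) → IsCompact (f ⁻¹' Q)) (q : T)
    (hfin : vm (volK (pullI K hf hi))
      {x | rho h s f q - 1 < rho h s f x ∧ rho h s f x < rho h s f q + 1} ≠ ⊤)
    (hint : IntegrableOn (Dg (pullI K hf hi) (rho h s f))
      {x | rho h s f q - 1 < rho h s f x ∧ rho h s f x < rho h s f q + 1}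
      (vm (volK (pullI K hf hi)))) :
    om d / (2 * 128 ^ d) / C ^ d ≤ (vm (volK (pullI K hf hi))).real
        {x | rho h s f q - 1 < rho h s f x ∧ rho h s f x < rho h s f q + 1} +
      ∫ x in {x | rho h s f q - 1 < rho h s f x ∧ rho h s f x < rho h s f q + 1},
        Dg (pullI K hf hi) (rho h s f) x ∂(vm (volK (pullI K hf hi))) := by
  obtain ⟨Z, hZc, hZ, hle⟩ := leaf_low K h hC hU hd P hf hi hs hp hcl q
  have sρ : B.Sm (rho h s f) := sm_rho h hs hf hp
  refine hle.trans (add_le_add (measureReal_mono hZ hfin) ?_)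
  refine setIntegral_mono_set hint ?_ (Eventually.of_forall hZ)
  exact Eventually.of_forall fun x => Dg_nonneg _ sρ x

end main

/-- **the constant `c1`** for all leaves, compact or not -/
theorem exists_c1 [T2Space M] [CompactSpace M] (K : Kah A) (h : HM L) (hd : 0 < d) :
    ∃ c1 : ℝ, 0 < c1 ∧ ∀ (T : Type) [TopologicalSpace T] [T2Space T] [MeasurableSpace T]
      [BorelSpace T] (B : Atl d T) [Countable B.ι] (_ : Part B) (f : T → M) (hf : HolMap B A f)
      (hi : Imm B A f) (s : A.ι → M → ℂ), IsHS L univ s → (∀ t, 0 < nsM h s (f t)) →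
      (∀ Q : Set M, IsCompact Q → (∀ x ∈ Q, 0 < nsM h s x) → IsCompact (f ⁻¹' Q)) → ∀ q : T,
      ∃ Z : Set T, IsCompact Z ∧
        (∀ x ∈ Z, rho h s f q - 1 < rho h s f x ∧ rho h s f x < rho h s f q + 1) ∧
        c1 ≤ (vm (volK (pullI K hf hi))).real Z +
          ∫ x in Z, Dg (pullI K hf hi) (rho h s f) x ∂(vm (volK (pullI K hf hi))) := by
  obtain ⟨C, hC, hU⟩ := exists_uni K h
  have hCp : 0 < C := by linarith
  refine ⟨om d / (2 * 128 ^ d) / C ^ d, ?_, ?_⟩
  · have := om_pos d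
    positivity
  · intro T _ _ _ _ B _ P f hf hi s hs hp hcl q
    exact leaf_low K h hC hU hd P hf hi hs hp hcl q

/-- **`Low`** : the hypothesis of the uniform Harnack inequality (helper331) -/
theorem low_of [T2Space M] [CompactSpace M] (K : Kah A) (h : HM L) (hd : 0 < d) :
    ∃ c1 : ℝ, 0 < c1 ∧ Low K h d c1 := by
  obtain ⟨C, hC, hU⟩ := exists_uni K h
  have hCp : 0 < C := by linarith
  refine ⟨om d / (2 * 128 ^ d) / C ^ d, ?_, ?_⟩
  · have := om_pos d
    positivity
  · intro T _ _ _ _ _ _ B _ P f hf hi s hs hp q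
    have := isFinite_vm (volK (pullI K hf hi))
    refine leaf_low_strip K h hC hU hd P hf hi hs hp (fun Q hQ _ => ?_) q (measure_ne_top _ _) ?_
    · exact (hQ.isClosed.preimage hf.cont).isCompact
    · have sρ : B.Sm (rho h s f) := sm_rho h hs hf hp
      obtain ⟨b, hb⟩ := isCompact_univ.exists_bound_of_continuousOn
        (continuous_Dg (pullI K hf hi) sρ).continuousOn
      exact (Integrable.of_bound (continuous_Dg (pullI K hf hi) sρ).measurable.aestronglyMeasurable
        b (Eventually.of_forall fun x => hb x (mem_univ x))).integrableOn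

end

end Crest.Agent.R281.Hk_389
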