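import Crest.Agent.R281.N2_373
import Crest.Agent.R281.RF2_373
import Crest.Agent.R281.Hk6_389
import Crest.Agent.R281.LEnd7_10
import Crest.Agent.R273.AsmB_73

/-!
# R281 (S0424), END6 (helper373, deputy of helper986): `END6` from the nodes

* `X6`        : the data of `END6K` (a hyperkaehler pair and the second hyperkaehler metric);
* `OmegaP`    : S6-OMEGA (524 / 854 / 980 / 331 / 677);
* `LeafVolP`  : S6-MASS (519);
* `SKP`       : S6-SK (507 / 163);
* `UPreP`     : the function `u` (425);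
* `UOutP`     : `pos`, `strict` (986);
* `ContP`     : S6-CONT (166);
* `ContVolP`  : Hausdorff measure of the limit fibres (254);
* `FrameP`    : S6-FRAME (316 / 941);
* `RichStmt`  : S6-RICH (710 / 791);
* `end6K_of`, `end6_of_nodes`.
-/

set_option autoImplicit false
set_option linter.unusedSectionVars false

open Set Filter Topology Complex
open scoped ContDiff Matrix ComplexConjugate ComplexOrder

namespace Crest.Agent.R281.E6_373

open Crest.Agent.R275.Geo Crest.Agent.R275.Core144 Crest.Agent.R275.GC293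
open Crest.Agent.R273.Defs_333 Crest.Agent.R273.Kah_333 Crest.Agent.R273.HM_333
open Crest.Agent.R281.Defs_273 Crest.Agent.R281.HkP3_508 Crest.Agent.R281.Sk_474
open Crest.Agent.R281.D6_986 Crest.Agent.R281.RF_373
open Crest.Agent.R281.S6D_664 (LFib)

noncomputable section

/-- the data of `END6K` -/
structure X6 where
  n : ℕ
  M : Type
  [top : TopologicalSpace M]
  [t2 : T2Space M]
  [cpt : CompactSpace M]
  [sc : SimplyConnectedSpace M]
  [snd : SecondCountableTopology M]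
  A : Atl (2 * n) M
  [fin : Finite A.ι]
  hn : 1 ≤ n
  good : GoodA A
  P : Part A
  K : Kah A
  σ : HSymp A
  uniq : σ.Uniq
  hk : HK K σ
  L : LB A
  nef : NefW K L
  iso : Isotropic P σ L
  rich : Rich A L
  h : HM L
  K' : Kah A
  r : ℝ
  hr : (r : ℂ) ≠ 0
  one_lt : 1 < r
  eqK : ∀ i, ∀ x ∈ (A.e i).source, K'.g i x = K.g i x + cur h i x
  hk' : HK K' (smulHS (r : ℂ) hr σ)

attribute [instance] X6.top X6.t2 X6.cpt X6.sc X6.snd X6.fin

/-- S6-OMEGA -/
def OmegaP : Prop := ∀ X : X6, Nonempty (OmOut X.σ X.L)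

/-- S6-MASS: the leaves have bounded volume -/
def LeafVolP : Prop := ∀ (X : X6) (F : LFib X.A X.σ), ∃ v, LeafVol F X.K v

/-- S6-SK -/
def SKP : Prop := ∀ (X : X6) (o : OmOut X.σ X.L), Nonempty (SKOut X.K o X.h)

/-- the function `u` -/
def UPreP : Prop := ∀ (X : X6) (o : OmOut X.σ X.L), Nonempty (SKOut X.K o X.h) → Harn o X.h →
  Nonempty (UPre X.K o X.h)

/-- `pos`, `strict` -/
def UOutP : Prop := ∀ (X : X6) (o : OmOut X.σ X.L), Nonempty (UPre X.K o X.h) →
  Nonempty (UOut X.K o X.h)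

/-- S6-CONT -/
def ContP : Prop := ∀ (X : X6) (o : OmOut X.σ X.L), Nonempty (UPre X.K o X.h) →
  (∃ v, LeafVol o.F X.K v) → Nonempty (ContOut o.F)

/-- Hausdorff measure of the limit fibres -/
def ContVolP : Prop := ∀ (X : X6) (F : LFib X.A X.σ) (c : ContOut F) (v : ℝ),
  LeafVol F X.K v → ContVol c

/-- S6-FRAME -/
def FrameP : Prop := ∀ (X : X6) (o : OmOut X.σ X.L) (c : ContOut o.F), Harn o X.h → ContVol c →
  ∀ x0, Nonempty (FrameAt o.F c X.L x0)

/-- the composition for one `X` -/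
theorem semiAmple_X6 (h1 : OmegaP) (h2 : LeafVolP) (h3 : SKP) (h4 : UPreP) (h5 : UOutP)
    (h6 : ContP) (h7 : ContVolP) (h8 : FrameP) (h9 : RichStmt) (X : X6) : SemiAmple X.L := by
  obtain ⟨o⟩ := h1 X
  obtain ⟨v, hv⟩ := h2 X o.F
  obtain ⟨c1, hc1, hlow⟩ := Hk_389.low_of X.K (pow X.h o.k) (d := X.n) X.hn
  have hH : Harn o X.h := N2_373.harn_of X.K X.h o X.nef hc1 hlow hv
  have hsk := h3 X o
  have hpre := h4 X o hsk hH
  obtain ⟨uo⟩ := h5 X o hpre
  obtain ⟨c⟩ := h6 X o hpre ⟨v, hv⟩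
  have hcv := h7 X o.F c v hv
  exact semiAmple_of_nodes h9 X.P X.K
    (fun x0 hE => hE.elim fun E => LEnd_10.locGen E X.P (LEnd_10.flatKB X.σ)
      (fun i x hx => LEnd_10.cur_flatKB X.σ i hx)) o uo c
    (fun x0 => h8 X o c hH hcv x0)

theorem end6K_of (h1 : OmegaP) (h2 : LeafVolP) (h3 : SKP) (h4 : UPreP) (h5 : UOutP)
    (h6 : ContP) (h7 : ContVolP) (h8 : FrameP) (h9 : RichStmt) : END6K := by
  intro n M _ _ _ _ A _ hn hA P K σ hu hK L hnef hiso hrich h K' r hr hr1 hg hK'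
  have : SecondCountableTopology M := Crest.Agent.R273.AsmA_73.secM (A := A)
  exact semiAmple_X6 h1 h2 h3 h4 h5 h6 h7 h8 h9
    { n := n, M := M, A := A, hn := hn, good := hA, P := P, K := K, σ := σ, uniq := hu, hk := hK,
      L := L, nef := hnef, iso := hiso, rich := hrich, h := h, K' := K', r := r, hr := hr,
      one_lt := hr1, eqK := hg, hk' := hK' }

/-- **division 6 from its nodes** -/
theorem end6_of_nodes (h1 : OmegaP) (h2 : LeafVolP) (h3 : SKP) (h4 : UPreP) (h5 : UOutP)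
    (h6 : ContP) (h7 : ContVolP) (h8 : FrameP) (h9 : RichStmt) : END6 :=
  end6_of (end6K_of h1 h2 h3 h4 h5 h6 h7 h8 h9)

end

end Crest.Agent.R281.E6_373
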