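import Crest.Agent.R281.ThnM_280
import Crest.Agent.R273.Cpl_522

/-!
Row 281 (S0424), division 6, S6-THIN, atlas glue, part 2 (helper280):
* `sthM_crit`     : the critical set of a generically submersive holomorphic map is `σ`-thin;
* `sthM_zero_sec` : zero sets of sections of line bundles are `σ`-thin;
* `SThM.extend`   : locally bounded holomorphic functions extend across closed `σ`-thin sets.
-/

set_option autoImplicit false
set_option linter.unusedSectionVars false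
set_option linter.unusedVariables false

open Set Filter Topology Metric Module MeasureTheory
open scoped ContDiff ENNReal

noncomputable section

namespace Crest.Agent.R281.ThnM_280

open Crest.Agent.R275.Geo Crest.Agent.R275.Core144 Crest.Agent.R281.Thn_280

variable {n m : ℕ} {M : Type} [TopologicalSpace M] {A : Atl n M} {S T U : Set M}

/-- near a regular point of a chart ball, a minor -/
theorem exists_minor {V W : Type} [NormedAddCommGroup V] [NormedSpace ℂ V]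
    [FiniteDimensional ℂ V] [NormedAddCommGroup W] [NormedSpace ℂ W] [FiniteDimensional ℂ W]
    {N : Set V} {Φ : V → W} (hΦ : AnalyticOnNhd ℂ Φ N) {z₁ : V} (hz₁ : z₁ ∈ N)
    (hs : Function.Surjective (fderiv ℂ Φ z₁)) :
    ∃ g : V → ℂ, AnalyticOnNhd ℂ g N ∧ g z₁ ≠ 0 ∧
      ∀ z ∈ N, g z ≠ 0 → Function.Surjective (fderiv ℂ Φ z) := by
  have : CompleteSpace W := FiniteDimensional.complete ℂ W
  obtain ⟨r, hrW⟩ : ∃ r, r = finrank ℂ W := ⟨_, rfl⟩
  have hr : finrank ℂ (LinearMap.range (fderiv ℂ Φ z₁ : V →ₗ[ℂ] W)) = r := by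
    rw [LinearMap.range_eq_top.2 hs, finrank_top, hrW]
  obtain ⟨B, A, hBA⟩ := exists_AB (fderiv ℂ Φ z₁) hr
  set Mx : V → Matrix (Fin r) (Fin r) ℂ := fun z => Matrix.of fun i j : Fin r =>
      B (fderiv ℂ Φ z (A (Pi.single j 1))) i with hMx
  have hMv : ∀ z c, (Mx z).mulVec c = B (fderiv ℂ Φ z (A c)) := by
    intro z c
    have hc : c = ∑ j, c j • (Pi.single j 1 : Fin r → ℂ) := by
      ext i; simp [Finset.sum_apply, Pi.single_apply]
    conv_rhs => rw [hc]
    rw [map_sum, map_sum, map_sum]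
    ext i
    simp only [Matrix.mulVec, dotProduct, hMx, Matrix.of_apply, map_smul, Finset.sum_apply,
      Pi.smul_apply, smul_eq_mul]
    exact Finset.sum_congr rfl (fun j _ => mul_comm _ _)
  have hBs : Function.Surjective B := fun c => ⟨_, hBA c⟩
  have hBi : Function.Injective B := by
    have h3 : finrank ℂ W = finrank ℂ (Fin r → ℂ) := by simp [hrW]
    exact (LinearMap.injective_iff_surjective_of_finrank_eq_finrank
      (f := (B : W →ₗ[ℂ] (Fin r → ℂ))) h3).2 hBs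
  refine ⟨fun z => (Mx z).det, analyticOnNhd_det hΦ B A, ?_, ?_⟩
  · have h1 : Mx z₁ = 1 := by
      apply Matrix.toLin'.injective
      ext1 j
      ext i
      simp only [Matrix.toLin'_one, LinearMap.comp_apply, Matrix.toLin'_apply, hMv, hBA]
      rfl
    simp only [h1, Matrix.det_one]
    exact one_ne_zero
  · intro z hz hg w
    have hu : IsUnit (Mx z).det := isUnit_iff_ne_zero.2 hg
    refine ⟨A ((Mx z)⁻¹.mulVec (B w)), hBi ?_⟩
    rw [← hMv, Matrix.mulVec_mulVec, Matrix.mul_nonsing_inv _ hu, Matrix.one_mulVec]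

/-- **the critical set of a holomorphic map on a connected open set is `σ`-thin as soon as there
is one regular point** -/
theorem sthM_crit {X0 : Set M} (hX0 : IsOpen X0) (hX0c : IsPreconnected X0) {y : M → Cn m}
    (hy : ∀ i, DifferentiableOn ℂ (fun z => y ((A.e i).symm z))
      ((A.e i).target ∩ (A.e i).symm ⁻¹' X0))
    (hreg : ∃ x ∈ X0, x ∉ Crit A X0 y) : SThM A (Crit A X0 y) := by
  set R : Set M := X0 \ Crit A X0 y with hR
  have hRo : IsOpen R := isOpen_regular hX0 hy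
  -- local data at any point of `X0`
  have hloc : ∀ x ∈ X0, ∀ i, x ∈ (A.e i).source → ∃ ρ > 0, ball (A.e i x) ρ ⊆
      (A.e i).target ∩ (A.e i).symm ⁻¹' X0 := by
    intro x hx i hi
    have ho : IsOpen ((A.e i).target ∩ (A.e i).symm ⁻¹' X0) :=
      (A.e i).isOpen_inter_preimage_symm hX0
    exact Metric.isOpen_iff.1 ho _ ⟨(A.e i).map_source hi, by
      change (A.e i).symm (A.e i x) ∈ X0; rwa [(A.e i).left_inv hi]⟩
  have hkey : ∀ x ∈ X0, ∀ i, x ∈ (A.e i).source → ∀ ρ > 0, ball (A.e i x) ρ ⊆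
      (A.e i).target ∩ (A.e i).symm ⁻¹' X0 → x ∈ closure R →
      ∃ g : Cn n → ℂ, AnalyticOnNhd ℂ g (ball (A.e i x) ρ) ∧
        (∀ z ∈ ball (A.e i x) ρ, ∃ᶠ w in 𝓝 z, g w ≠ 0) ∧
        ∀ z ∈ ball (A.e i x) ρ, g z ≠ 0 → (A.e i).symm z ∈ R := by
    intro x hx i hi ρ hρ hsub hcl
    have ho : IsOpen ((A.e i).target ∩ (A.e i).symm ⁻¹' X0) :=
      (A.e i).isOpen_inter_preimage_symm hX0
    have ha : AnalyticOnNhd ℂ (fun z => y ((A.e i).symm z)) (ball (A.e i x) ρ) := fun z hz =>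
      Crest.Agent.R266.SCV.analyticOnNhd_of_differentiableOn ho (hy i) z (hsub hz)
    -- a regular point in the ball
    have hN : (A.e i).source ∩ (A.e i) ⁻¹' (ball (A.e i x) ρ) ∈ 𝓝 x :=
      inter_mem ((A.e i).open_source.mem_nhds hi)
        (((A.e i).continuousAt hi).preimage_mem_nhds (ball_mem_nhds _ hρ))
    obtain ⟨x₁, ⟨hx₁s, hx₁b⟩, hx₁R⟩ := mem_closure_iff_nhds.1 hcl _ hN
    have hs := surj_of_not_crit hx₁R.1 hx₁R.2 hx₁s
    obtain ⟨g, hg1, hg2, hg3⟩ := exists_minor ha hx₁b hs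
    refine ⟨g, hg1, ?_, ?_⟩
    · intro z hz hcon
      have h2 : ∀ᶠ w in 𝓝 z, g w = 0 := hcon.mono (fun w hw => not_not.1 hw)
      exact hg2 (hg1.eqOn_zero_of_preconnected_of_eventuallyEq_zero
        (convex_ball _ ρ).isPreconnected hz h2 hx₁b)
    · intro z hz hgz
      have hzt := hsub hz
      refine ⟨hzt.2, ?_⟩
      rintro ⟨_, j, hj, hns⟩
      apply hns
      refine surj_iff hX0 hy hzt.2 ((A.e i).map_target hzt.1) hj ?_
      rw [(A.e i).right_inv hzt.1]
      exact hg3 z hz hgz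
  -- `closure R` is relatively clopen in `X0`
  have hcl : X0 ⊆ closure R := by
    have hopen : IsOpen (X0 ∩ closure R) := by
      rw [isOpen_iff_mem_nhds]
      rintro x ⟨hx, hxc⟩
      obtain ⟨i, hi⟩ := A.cover x
      obtain ⟨ρ, hρ, hsub⟩ := hloc x hx i hi
      obtain ⟨g, hg1, hg2, hg3⟩ := hkey x hx i hi ρ hρ hsub hxc
      have hN : (A.e i).source ∩ (A.e i) ⁻¹' (ball (A.e i x) ρ) ∈ 𝓝 x :=
        inter_mem ((A.e i).open_source.mem_nhds hi)
          (((A.e i).continuousAt hi).preimage_mem_nhds (ball_mem_nhds _ hρ))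
      filter_upwards [hN] with w hw
      obtain ⟨hw1, hw2⟩ := hw
      have hw2' : A.e i w ∈ ball (A.e i x) ρ := hw2
      refine ⟨?_, ?_⟩
      · have := (hsub hw2').2
        change (A.e i).symm (A.e i w) ∈ X0 at this
        rwa [(A.e i).left_inv hw1] at this
      · rw [mem_closure_iff_nhds]
        intro Q hQ
        have hQ' : ball (A.e i x) ρ ∩ (A.e i).symm ⁻¹' Q ∈ 𝓝 (A.e i w) := by
          refine inter_mem (isOpen_ball.mem_nhds hw2') ?_
          refine ((A.e i).continuousAt_symm ((A.e i).map_source hw1)).preimage_mem_nhds ?_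
          rwa [(A.e i).left_inv hw1]
        obtain ⟨z, hz1, hz2⟩ := ((hg2 _ hw2').and_eventually hQ').exists
        exact ⟨(A.e i).symm z, hz2.2, hg3 z hz2.1 hz1⟩
    have hopen2 : IsOpen (X0 ∩ (closure R)ᶜ) := hX0.inter isClosed_closure.isOpen_compl
    intro x hx
    by_contra hxc
    obtain ⟨x₁, hx₁, hx₁c⟩ := hreg
    obtain ⟨w, hw0, hw1, hw2⟩ := hX0c (X0 ∩ closure R) (X0 ∩ (closure R)ᶜ) hopen hopen2
      (fun w hw => by
        by_cases h : w ∈ closure R
        · exact Or.inl ⟨hw, h⟩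
        · exact Or.inr ⟨hw, h⟩)
      ⟨x₁, hx₁, hx₁, subset_closure ⟨hx₁, hx₁c⟩⟩ ⟨x, hx, hx, hxc⟩
    exact hw2.2 hw1.2
  refine sthM_of_local (fun x hx => ?_)
  have hx0 : x ∈ X0 := hx.1
  obtain ⟨i, hi⟩ := A.cover x
  obtain ⟨ρ, hρ, hsub⟩ := hloc x hx0 i hi
  obtain ⟨g, hg1, hg2, hg3⟩ := hkey x hx0 i hi ρ hρ hsub (hcl hx0)
  refine ⟨i, hi, (A.e i).source ∩ (A.e i) ⁻¹' (ball (A.e i x) ρ),
    inter_mem ((A.e i).open_source.mem_nhds hi)
      (((A.e i).continuousAt hi).preimage_mem_nhds (ball_mem_nhds _ hρ)), ?_⟩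
  refine (sth_zero isOpen_ball hg1 hg2).mono ?_
  rintro z ⟨hz, hzS, hz1, hz2⟩
  have hzb : z ∈ ball (A.e i x) ρ := by
    have : A.e i ((A.e i).symm z) ∈ ball (A.e i x) ρ := hz2
    rwa [(A.e i).right_inv hz] at this
  refine ⟨hzb, ?_⟩
  by_contra hgz
  exact (hg3 z hzb hgz).2 hzS

/-- all in one: the points of `X0` whose value is a critical value -/
theorem sthM_critval' [LindelofSpace M] {X0 : Set M} (hX0 : IsOpen X0) (hX0c : IsPreconnected X0)
    {y : M → Cn m} (hy : ∀ i, DifferentiableOn ℂ (fun z => y ((A.e i).symm z))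
      ((A.e i).target ∩ (A.e i).symm ⁻¹' X0)) (hreg : ∃ x ∈ X0, x ∉ Crit A X0 y) :
    SThM A {x | x ∈ X0 ∧ y x ∈ y '' Crit A X0 y} :=
  sthM_critval hX0 hy (sthM_crit hX0 hX0c hy hreg)

/-- zero sets of families of local holomorphic functions with a common zero set -/
theorem sthM_zero_fam [PreconnectedSpace M] {s : A.ι → M → ℂ} (hs : ∀ i, HolAt A i univ (s i))
    (tr : ∀ i j, ∀ x ∈ (A.e i).source ∩ (A.e j).source, s i x = 0 → s j x = 0)
    (hne : ∃ i, ∃ x ∈ (A.e i).source, s i x ≠ 0) :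
    SThM A {x | ∃ i, x ∈ (A.e i).source ∧ s i x = 0} := by
  obtain ⟨i0, x0, hx0, hs0⟩ := hne
  refine sthM_of_local (fun x hx => ?_)
  obtain ⟨i, hi⟩ := A.cover x
  refine ⟨i, hi, univ, univ_mem, ?_⟩
  have hA : AnalyticOnNhd ℂ (fun z => s i ((A.e i).symm z)) (A.e i).target := by
    have := hs i
    rw [HolAt, preimage_univ, inter_univ] at this
    exact Crest.Agent.R266.SCV.analyticOnNhd_of_differentiableOn (A.e i).open_target this
  refine (sth_zero (A.e i).open_target hA ?_).mono ?_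
  · intro z hz
    have h1 := Crest.Agent.R273.Cpl_522.not_ev hs tr hx0 hs0 ((A.e i).map_target hz)
    rw [(A.e i).right_inv hz] at h1
    exact not_eventually.1 h1
  · rintro z ⟨hz, ⟨j, hj, hj0⟩, _⟩
    exact ⟨hz, tr j i _ ⟨hj, (A.e i).map_target hz⟩ hj0⟩

/-- zero sets of sections of a line bundle (`M` connected, section not identically zero) -/
theorem sthM_zero_sec [PreconnectedSpace M] {L : LB A} {s : A.ι → M → ℂ} (hs : IsHS L univ s)
    (hne : ∃ i, ∃ x ∈ (A.e i).source, s i x ≠ 0) :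
    SThM A {x | ∃ i, x ∈ (A.e i).source ∧ s i x = 0} := by
  refine sthM_zero_fam hs.hol (fun i j x hx h => ?_) hne
  have h1 := hs.tr j i x ⟨hx.2, hx.1⟩ (mem_univ x)
  rw [h1, h, mul_zero]

/-- **(T5) on `(M, A)`** -/
theorem SThM.extend {S U : Set M} (hU : IsOpen U) (hS : SThM A S) (hUS : IsOpen (U \ S))
    {f : M → ℂ} (hf : ∀ i, HolAt A i (U \ S) f)
    (hb : ∀ x ∈ U, ∃ N ∈ 𝓝 x, ∃ C : ℝ, ∀ w ∈ N ∩ (U \ S), ‖f w‖ ≤ C) :
    ∃ g : M → ℂ, (∀ i, HolAt A i U g) ∧ ∀ x ∈ U \ S, g x = f x := by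
  classical
  have hdense := hS.dense_compl
  have hNB : ∀ a ∈ U, (𝓝[U \ S] a).NeBot := by
    intro a ha
    rw [← mem_closure_iff_nhdsWithin_neBot, mem_closure_iff_nhds]
    intro t ht
    obtain ⟨z, hz, hzt⟩ := hdense.inter_nhds_nonempty (inter_mem ht (hU.mem_nhds ha))
    exact ⟨z, hzt.1, hzt.2, hz⟩
  -- extension in the chart `i`
  have hch : ∀ i, ∃ g : Cn n → ℂ,
      DifferentiableOn ℂ g ((A.e i).target ∩ (A.e i).symm ⁻¹' U) ∧
      ∀ z ∈ (A.e i).target ∩ (A.e i).symm ⁻¹' (U \ S), g z = f ((A.e i).symm z) := by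
    intro i
    have ho : IsOpen ((A.e i).target ∩ (A.e i).symm ⁻¹' U) :=
      (A.e i).isOpen_inter_preimage_symm hU
    have heq : (A.e i).target ∩ (A.e i).symm ⁻¹' (U \ S) =
        ((A.e i).target ∩ (A.e i).symm ⁻¹' U) \ {z | z ∈ (A.e i).target ∧ (A.e i).symm z ∈ S} := by
      ext z
      constructor
      · rintro ⟨h1, h2⟩
        exact ⟨⟨h1, h2.1⟩, fun h3 => h2.2 h3.2⟩
      · rintro ⟨⟨h1, h2⟩, h3⟩
        exact ⟨h1, h2, fun h4 => h3 ⟨h1, h4⟩⟩
    have ho2 : IsOpen (((A.e i).target ∩ (A.e i).symm ⁻¹' U) \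
        {z | z ∈ (A.e i).target ∧ (A.e i).symm z ∈ S}) := by
      rw [← heq]; exact (A.e i).isOpen_inter_preimage_symm hUS
    obtain ⟨g, hg1, hg2⟩ := (hS i).extend ho ho2 (f := fun z => f ((A.e i).symm z))
      (by rw [← heq]; exact hf i) (by
        intro z hz
        obtain ⟨N, hN, C, hC⟩ := hb _ hz.2
        refine ⟨(A.e i).symm ⁻¹' N,
          ((A.e i).continuousAt_symm hz.1).preimage_mem_nhds hN, C, ?_⟩
        rintro w ⟨hwN, hw⟩
        rw [← heq] at hw
        exact hC _ ⟨hwN, hw.2⟩)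
    exact ⟨g, hg1, fun z hz => hg2 z (by rwa [← heq])⟩
  set F : M → ℂ := fun x => limUnder (𝓝[U \ S] x) f with hF
  have hFg : ∀ i (g : Cn n → ℂ), DifferentiableOn ℂ g ((A.e i).target ∩ (A.e i).symm ⁻¹' U) →
      (∀ z ∈ (A.e i).target ∩ (A.e i).symm ⁻¹' (U \ S), g z = f ((A.e i).symm z)) →
      ∀ x ∈ (A.e i).source ∩ U, F x = g (A.e i x) := by
    intro i g hg1 hg2 x hx
    have := hNB x hx.2
    have ho : IsOpen ((A.e i).target ∩ (A.e i).symm ⁻¹' U) :=
      (A.e i).isOpen_inter_preimage_symm hU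
    have hmem : A.e i x ∈ (A.e i).target ∩ (A.e i).symm ⁻¹' U :=
      ⟨(A.e i).map_source hx.1, by
        change (A.e i).symm (A.e i x) ∈ U; rw [(A.e i).left_inv hx.1]; exact hx.2⟩
    have hc : ContinuousAt (fun w => g (A.e i w)) x :=
      ContinuousAt.comp (f := A.e i) (hg1.differentiableAt (ho.mem_nhds hmem)).continuousAt
        ((A.e i).continuousAt hx.1)
    have h2 : Tendsto (fun w => g (A.e i w)) (𝓝[U \ S] x) (𝓝 (g (A.e i x))) :=
      hc.tendsto.mono_left nhdsWithin_le_nhds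
    have h3 : (fun w => g (A.e i w)) =ᶠ[𝓝[U \ S] x] f := by
      filter_upwards [nhdsWithin_le_nhds ((A.e i).open_source.mem_nhds hx.1),
        self_mem_nhdsWithin] with w hw hw'
      rw [hg2 _ ⟨(A.e i).map_source hw, by
        change (A.e i).symm (A.e i w) ∈ U \ S; rwa [(A.e i).left_inv hw]⟩, (A.e i).left_inv hw]
    exact (h2.congr' h3).limUnder_eq
  refine ⟨F, ?_, ?_⟩
  · intro i
    obtain ⟨g, hg1, hg2⟩ := hch i
    refine hg1.congr ?_
    intro z hz
    have := hFg i g hg1 hg2 ((A.e i).symm z) ⟨(A.e i).map_target hz.1, hz.2⟩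
    rw [this, (A.e i).right_inv hz.1]
  · intro x hx
    obtain ⟨i, hi⟩ := A.cover x
    obtain ⟨g, hg1, hg2⟩ := hch i
    rw [hFg i g hg1 hg2 x ⟨hi, hx.1⟩, hg2 _ ⟨(A.e i).map_source hi, by
      change (A.e i).symm (A.e i x) ∈ U \ S; rwa [(A.e i).left_inv hi]⟩, (A.e i).left_inv hi]

end Crest.Agent.R281.ThnM_280
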