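import Crest.Agent.R281.OmA_524
import Crest.Agent.R281.ThnN_280
import Crest.Agent.R281.Rk3_599

/-!
# R281 (S0424), DIV 6, OM-ASM (helper524): `LFib` from sections of a line bundle

`s_0, .., s_r` sections of a line bundle; `X0s A s = {s_0 ≠ 0}`, `ys A s = (s_1/s_0, .., s_r/s_0)`.

* `isOpen_X0s`, `holOn_ys`, `sj_iff_rk`  (`dy` surjective at `x` ⟺ helper599's `Rk`);
* `sthA_bad`      : `{s_0 = 0} ∪ {points over critical values}` is `σ`-thin;
* `lag_of_bracket`: vanishing Poisson brackets ⟹ `ker dy` isotropic;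
* `exists_lfib_sec`.
-/

set_option autoImplicit false
set_option linter.unusedSectionVars false

open Set Filter Topology Metric Function
open scoped Matrix

namespace Crest.Agent.R281.OmB_524

open Crest.Agent.R275.Geo Crest.Agent.R275.Core144 Crest.Agent.R281.Defs_273
open Crest.Agent.R281.S6D_664 Crest.Agent.R281.OmA_524
open Crest.Agent.R281.Tube1_989 Crest.Agent.R281.Tube2_989 Crest.Agent.R281.Thn_280
open Crest.Agent.R281.ThnM_280 Crest.Agent.R281.Rk_599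
open Crest.Agent.R281.Thin3_524 (preconnected_of_thin)
open Crest.Agent.R273.FIb0_597 (ch mem_ch)

noncomputable section

variable {N n r : ℕ} {M : Type} [TopologicalSpace M]

/-- `{s_0 ≠ 0}` -/
def X0s (A : Atl N M) (s : Fin (r + 1) → A.ι → M → ℂ) : Set M :=
  {x | ∀ i, x ∈ (A.e i).source → s 0 i x ≠ 0}

/-- the ratios `s_(a+1) / s_0` -/
def ys (A : Atl N M) (s : Fin (r + 1) → A.ι → M → ℂ) (x : M) : Cn r :=
  WithLp.toLp 2 fun a => s a.succ (ch A x) x / s 0 (ch A x) x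

variable {A : Atl N M} {L : LB A} {s : Fin (r + 1) → A.ι → M → ℂ}

theorem ys_eq (hs : ∀ a, IsHS L univ (s a)) {i : A.ι} {x : M} (hx : x ∈ (A.e i).source)
    (a : Fin r) : ys A s x a = s a.succ i x / s 0 i x := by
  show s a.succ (ch A x) x / s 0 (ch A x) x = _
  have h1 := (hs a.succ).tr (ch A x) i x ⟨mem_ch A x, hx⟩ (mem_univ x)
  have h2 := (hs 0).tr (ch A x) i x ⟨mem_ch A x, hx⟩ (mem_univ x)
  rw [h1, h2, mul_div_mul_left _ _ (L.ne_zero _ _ _)]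

theorem mem_X0s_iff (hs : ∀ a, IsHS L univ (s a)) {i : A.ι} {x : M}
    (hx : x ∈ (A.e i).source) : x ∈ X0s A s ↔ s 0 i x ≠ 0 := by
  constructor
  · intro h
    exact h i hx
  · intro h j hj h0
    exact h (((hs 0).zero_iff ⟨hx, hj⟩ (mem_univ x)).2 h0)

theorem yv_eq (hs : ∀ a, IsHS L univ (s a)) {i : A.ι} {z : Cn N} (hz : z ∈ (A.e i).target) :
    ys A s ((A.e i).symm z) = yv A s i z := by
  ext a
  rw [ys_eq hs ((A.e i).map_target hz)]
  rfl

theorem isOpen_X0s (hs : ∀ a, IsHS L univ (s a)) : IsOpen (X0s A s) := by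
  rw [isOpen_iff_mem_nhds]
  intro x hx
  obtain ⟨i, hi⟩ := A.cover x
  have h1 : ContinuousAt (rd A i (s 0)) (A.e i x) :=
    (analyticOnNhd_rd (hs 0) i _ ((A.e i).map_source hi)).continuousAt
  have h2 : rd A i (s 0) (A.e i x) ≠ 0 := by
    show s 0 i ((A.e i).symm (A.e i x)) ≠ 0
    rw [(A.e i).left_inv hi]
    exact hx i hi
  have h3 : ∀ᶠ q in 𝓝 x, rd A i (s 0) (A.e i q) ≠ 0 :=
    ((A.e i).continuousAt hi).eventually (h1.eventually_ne h2)
  filter_upwards [h3, (A.e i).open_source.mem_nhds hi] with q hq hqi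
  rw [mem_X0s_iff hs hqi]
  intro h4
  apply hq
  show s 0 i ((A.e i).symm (A.e i q)) = 0
  rw [(A.e i).left_inv hqi, h4]

theorem holOn_ys (hs : ∀ a, IsHS L univ (s a)) : HolOn A (X0s A s) (ys A s) := by
  intro i z hz
  have hzt := hz.1
  have h0 : s 0 i ((A.e i).symm z) ≠ 0 := hz.2 i ((A.e i).map_target hzt)
  have h1 : DifferentiableAt ℂ (yv A s i) z :=
    (contDiffAt_yv hs hzt h0).differentiableAt one_ne_zero
  refine (h1.congr_of_eventuallyEq ?_).differentiableWithinAt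
  filter_upwards [(A.e i).open_target.mem_nhds hzt] with w hw
  exact yv_eq hs hw

theorem fderiv_ys (hs : ∀ a, IsHS L univ (s a)) {i : A.ι} {x : M} (hx : x ∈ (A.e i).source) :
    fderiv ℂ (fun z => ys A s ((A.e i).symm z)) (A.e i x) = fderiv ℂ (yv A s i) (A.e i x) := by
  refine Filter.EventuallyEq.fderiv_eq ?_
  filter_upwards [(A.e i).open_target.mem_nhds ((A.e i).map_source hx)] with w hw
  exact yv_eq hs hw

theorem sj_iff_rk (hs : ∀ a, IsHS L univ (s a)) {i : A.ι} {x : M} (hx : x ∈ (A.e i).source)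
    (h0 : s 0 i x ≠ 0) : Sj A (ys A s) i x ↔ Rk A s i x := by
  have hz : A.e i x ∈ (A.e i).target := (A.e i).map_source hx
  have h0' : s 0 i ((A.e i).symm (A.e i x)) ≠ 0 := by rwa [(A.e i).left_inv hx]
  unfold Sj
  rw [fderiv_ys hs hx]
  constructor
  · intro h
    refine ⟨hx, h0, ?_⟩
    rw [Fintype.linearIndependent_iff]
    intro g hg a
    obtain ⟨v, hv⟩ := h (EuclideanSpace.single a 1)
    have h1 : ∑ b, g b * fderiv ℂ (rat A s i b) (A.e i x) v = 0 := by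
      have := congrArg (fun φ => φ v) hg
      simpa using this
    have h2 : ∀ b, fderiv ℂ (rat A s i b) (A.e i x) v = if b = a then 1 else 0 := by
      intro b
      rw [← fderiv_yv hs hz h0', hv]
      simp
    simpa [h2] using h1
  · intro h
    obtain ⟨v, hv⟩ := exists_dual h.2.2
    intro t
    refine ⟨rinv v t, ?_⟩
    ext a
    rw [fderiv_yv hs hz h0', rinv_apply, map_sum]
    simp only [map_smul, hv, smul_eq_mul, mul_ite, mul_one, mul_zero]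
    rw [Finset.sum_ite_eq Finset.univ a, if_pos (Finset.mem_univ a)]

theorem regAt_iff (hs : ∀ a, IsHS L univ (s a)) {x : M} (hx : x ∈ X0s A s) :
    RegAt A (ys A s) x ↔ ∃ i, Rk A s i x := by
  constructor
  · intro h
    exact ⟨ch A x, (sj_iff_rk hs (mem_ch A x) (hx _ (mem_ch A x))).1 (h _ (mem_ch A x))⟩
  · rintro ⟨i, h⟩ j hj
    exact (sj_iff_rk hs hj (hx j hj)).2 (h.chart hs hj)

/-- the exceptional set is `σ`-thin -/
theorem sthA_bad [PreconnectedSpace M] [LindelofSpace M] (hs : ∀ a, IsHS L univ (s a))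
    {i₀ : A.ι} {x₀ : M} (h₀ : Rk A s i₀ x₀) :
    SThM A ((X0s A s)ᶜ ∪ Bad A (X0s A s) (ys A s)) := by
  have hz : SThM A {x | ∃ i, x ∈ (A.e i).source ∧ s 0 i x = 0} :=
    sthM_zero_sec (hs 0) ⟨i₀, x₀, h₀.1, h₀.2.1⟩
  have hc : (X0s A s)ᶜ ⊆ {x | ∃ i, x ∈ (A.e i).source ∧ s 0 i x = 0} := by
    intro x hx
    simp only [X0s, mem_compl_iff, mem_ofPred_eq, not_forall, not_not] at hx
    obtain ⟨i, hi, h⟩ := hx
    exact ⟨i, hi, h⟩
  have hz' : SThM A (X0s A s)ᶜ := hz.mono hc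
  have hop := isOpen_X0s hs
  have hpc : IsPreconnected (X0s A s) := by
    refine preconnected_of_thin A.cover hop ?_
    exact ltm_of_sthM (hz'.mono fun x hx => hx.2)
  have hx₀ : x₀ ∈ X0s A s := (mem_X0s_iff hs h₀.1).2 h₀.2.1
  have hreg : ∃ x ∈ X0s A s, x ∉ Crit A (X0s A s) (ys A s) := by
    refine ⟨x₀, hx₀, ?_⟩
    rintro ⟨-, j, hj, h⟩
    exact h ((sj_iff_rk hs hj (hx₀ j hj)).2 (h₀.chart hs hj))
  have h1 : SThM A {x | x ∈ X0s A s ∧ ys A s x ∈ ys A s '' Crit A (X0s A s) (ys A s)} :=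
    sthM_critval' hop hpc (holOn_ys hs) hreg
  refine SThM.union hz' (SThM.mono h1 ?_)
  rintro x ⟨hx, p, hp, hpx, hpr⟩
  refine ⟨hx, p, ⟨hp, ?_⟩, hpx⟩
  unfold RegAt at hpr
  push Not at hpr
  exact hpr

/-! ### Lagrange -/

theorem isotropic_of_bracket {ι κ : Type*} [Fintype ι] [DecidableEq ι] [Fintype κ]
    {S : Matrix ι ι ℂ} (hS : S.det ≠ 0) (hSt : Sᵀ = -S) {D : Matrix κ ι ℂ}
    (hD : D * S⁻¹ * Dᵀ = 0) (hsurj : ∀ t : κ → ℂ, ∃ v, D *ᵥ v = t)
    (hcard : Fintype.card ι = 2 * Fintype.card κ) {v w : ι → ℂ} (hv : D *ᵥ v = 0)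
    (hw : D *ᵥ w = 0) : v ⬝ᵥ (S *ᵥ w) = 0 := by
  classical
  have hSu : IsUnit S.det := isUnit_iff_ne_zero.2 hS
  have hdot : ∀ (u : ι → ℂ) (α : κ → ℂ), (Dᵀ *ᵥ α) ⬝ᵥ u = α ⬝ᵥ (D *ᵥ u) := by
    intro u α
    rw [Matrix.mulVec_transpose, Matrix.dotProduct_mulVec]
  have hSE : ∀ α : κ → ℂ, S *ᵥ ((S⁻¹ * Dᵀ) *ᵥ α) = Dᵀ *ᵥ α := by
    intro α
    rw [Matrix.mulVec_mulVec, ← Matrix.mul_assoc, Matrix.mul_nonsing_inv _ hSu, Matrix.one_mul]
  -- `v = S⁻¹ Dᵀ α`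
  set Dl : (ι → ℂ) →ₗ[ℂ] (κ → ℂ) := Matrix.mulVecLin D with hDl
  set El : (κ → ℂ) →ₗ[ℂ] (ι → ℂ) := Matrix.mulVecLin (S⁻¹ * Dᵀ) with hEl
  have hDr : LinearMap.range Dl = ⊤ := LinearMap.range_eq_top.2 fun t => by
    obtain ⟨v, hv⟩ := hsurj t
    exact ⟨v, hv⟩
  have hEi : Function.Injective El := by
    rw [injective_iff_map_eq_zero]
    intro α hα
    have h1 : (S⁻¹ * Dᵀ) *ᵥ α = 0 := hα
    have h2 : Dᵀ *ᵥ α = 0 := by rw [← hSE, h1, Matrix.mulVec_zero]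
    funext k
    obtain ⟨u, hu⟩ := hsurj (Pi.single k 1)
    have h4 := hdot u α
    rw [h2, hu, zero_dotProduct] at h4
    simpa using h4.symm
  have hle : LinearMap.range El ≤ LinearMap.ker Dl := by
    rintro _ ⟨α, rfl⟩
    rw [LinearMap.mem_ker]
    show D *ᵥ ((S⁻¹ * Dᵀ) *ᵥ α) = 0
    rw [Matrix.mulVec_mulVec, ← Matrix.mul_assoc, hD, Matrix.zero_mulVec]
  have hfe : Module.finrank ℂ (LinearMap.range El) = Fintype.card κ := by
    rw [LinearMap.finrank_range_of_inj hEi, Module.finrank_fintype_fun_eq_card]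
  have hfk : Module.finrank ℂ (LinearMap.ker Dl) = Fintype.card κ := by
    have h1 := LinearMap.finrank_range_add_finrank_ker Dl
    rw [hDr, finrank_top, Module.finrank_fintype_fun_eq_card,
      Module.finrank_fintype_fun_eq_card] at h1
    omega
  have heq : LinearMap.range El = LinearMap.ker Dl :=
    Submodule.eq_of_le_of_finrank_eq hle (by rw [hfe, hfk])
  have hvk : v ∈ LinearMap.range El := by
    rw [heq, LinearMap.mem_ker]
    exact hv
  obtain ⟨α, hα⟩ := hvk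
  have h5 : S *ᵥ v = Dᵀ *ᵥ α := by
    rw [← hα]
    exact hSE α
  have h6 : v ⬝ᵥ (S *ᵥ w) = -((S *ᵥ v) ⬝ᵥ w) := by
    rw [Matrix.dotProduct_mulVec, ← Matrix.mulVec_transpose, hSt, Matrix.neg_mulVec,
      neg_dotProduct]
  rw [h6, h5, hdot, hw, dotProduct_zero, neg_zero]

/-- the matrix of `dy` in the chart `i` -/
def Dm (A : Atl N M) (s : Fin (r + 1) → A.ι → M → ℂ) (i : A.ι) (x : M) :
    Matrix (Fin r) (Fin N) ℂ :=
  Matrix.of fun a c => fderiv ℂ (rat A s i a) (A.e i x) (EuclideanSpace.single c 1)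

theorem fderiv_ys_apply (hs : ∀ a, IsHS L univ (s a)) {i : A.ι} {x : M}
    (hx : x ∈ (A.e i).source) (h0 : s 0 i x ≠ 0) (v : Cn N) (a : Fin r) :
    fderiv ℂ (fun z => ys A s ((A.e i).symm z)) (A.e i x) v a = (Dm A s i x *ᵥ v.ofLp) a := by
  have hz : A.e i x ∈ (A.e i).target := (A.e i).map_source hx
  have h0' : s 0 i ((A.e i).symm (A.e i x)) ≠ 0 := by rwa [(A.e i).left_inv hx]
  rw [fderiv_ys hs hx, fderiv_yv hs hz h0']
  have h1 : v = ∑ c, v c • EuclideanSpace.single c (1 : ℂ) := by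
    ext c
    simp [Finset.sum_apply, Pi.single_apply]
  conv_lhs => rw [h1]
  rw [map_sum]
  simp only [map_smul, smul_eq_mul, Matrix.mulVec, dotProduct, Dm, Matrix.of_apply]
  exact Finset.sum_congr rfl fun c _ => mul_comm _ _

/-- vanishing Poisson brackets of the ratios: `ker dy` is isotropic -/
theorem lag_of_bracket {A : Atl (2 * n) M} {L : LB A} {s : Fin (n + 1) → A.ι → M → ℂ}
    (hs : ∀ a, IsHS L univ (s a)) (σ : HSymp A) {i : A.ι} {x : M} (hx : x ∈ (A.e i).source)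
    (h0 : s 0 i x ≠ 0) (hbr : Dm A s i x * (σ.s i x)⁻¹ * (Dm A s i x)ᵀ = 0)
    (hsj : Sj A (ys A s) i x) {v w : Cn (2 * n)}
    (hv : fderiv ℂ (fun z => ys A s ((A.e i).symm z)) (A.e i x) v = 0)
    (hw : fderiv ℂ (fun z => ys A s ((A.e i).symm z)) (A.e i x) w = 0) :
    ∑ a, ∑ b, v a * σ.s i x a b * w b = 0 := by
  have h1 : ∀ u : Cn (2 * n), ∀ t : Cn n,
      fderiv ℂ (fun z => ys A s ((A.e i).symm z)) (A.e i x) u = t →
      Dm A s i x *ᵥ u.ofLp = t.ofLp := by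
    intro u t hu
    funext a
    rw [← fderiv_ys_apply hs hx h0, hu]
  have h2 := isotropic_of_bracket (σ.nd i x hx) (σ.alt i x hx) hbr
    (fun t => by
      obtain ⟨u, hu⟩ := hsj (WithLp.toLp 2 t)
      exact ⟨u.ofLp, h1 u _ hu⟩) (by simp) (h1 v 0 hv) (h1 w 0 hw)
  rw [← h2]
  simp only [dotProduct, Matrix.mulVec, Finset.mul_sum, mul_assoc]

/-- **OM-ASM, sections form** -/
theorem exists_lfib_sec [T2Space M] [PreconnectedSpace M] [LindelofSpace M]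
    (A : Atl (2 * n) M) (σ : HSymp A) {L : LB A} {s : Fin (n + 1) → A.ι → M → ℂ}
    (hs : ∀ a, IsHS L univ (s a)) {i₀ : A.ι} {x₀ : M} (h₀ : Rk A s i₀ x₀)
    (hcpt : ∀ x ∈ X0s A s, (∀ p ∈ X0s A s, ys A s p = ys A s x → ∃ i, Rk A s i p) →
      IsCompact (leaf (X0s A s) (ys A s) x))
    (hbr : ∀ i, ∀ x ∈ (A.e i).source, s 0 i x ≠ 0 →
      Dm A s i x * (σ.s i x)⁻¹ * (Dm A s i x)ᵀ = 0) :
    ∃ F : LFib A σ, F.Om = {x | x ∈ X0s A s ∧ IsCompact (leaf (X0s A s) (ys A s) x) ∧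
      ∀ p ∈ leaf (X0s A s) (ys A s) x, ∃ i, Rk A s i p} ∧
      F.Tf = leaf (X0s A s) (ys A s) := by
  obtain ⟨F, h1, h2⟩ := exists_lfib A σ (isOpen_X0s hs) (holOn_ys hs) (sthA_bad hs h₀)
    (fun x hx hb => hcpt x hx fun p hp hpx => by
      by_contra h3
      refine hb ⟨hx, p, hp, hpx, fun h4 => h3 ((regAt_iff hs hp).1 h4)⟩)
    (fun i x hx hx0 hsj v w hv hw => lag_of_bracket hs σ hx (hx0 i hx) (hbr i x hx (hx0 i hx))
      hsj hv hw)
  refine ⟨F, ?_, h2⟩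
  rw [h1]
  ext x
  constructor
  · rintro ⟨h3, h4, h5⟩
    exact ⟨h3, h4, fun p hp => (regAt_iff hs (leaf_X0 hp)).1 (h5 p hp)⟩
  · rintro ⟨h3, h4, h5⟩
    exact ⟨h3, h4, fun p hp => (regAt_iff hs (leaf_X0 hp)).2 (h5 p hp)⟩

end

end Crest.Agent.R281.OmB_524
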