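import Crest.Agent.R281.OmL5_677
import Crest.Agent.R281.OmB_524

/-!
# R281 (S0424), OM-LAG (helper677), part 6: the hypothesis `hbr` of helper524's `exists_lfib_sec`

* `Dm_eq` : `D (s_a / s_0) = s_0⁻² (s_0 ∂s_a - s_a ∂s_0)`
* `hbr`   : `D(s_a/s_0) S⁻¹ D(s_b/s_0)ᵀ = 0` for sections of `L ^ k`, `L` nef and isotropic
* `exists_lfib_iso` : the Lagrangian fibration of the ratios (`hcpt` as hypothesis)
-/

set_option autoImplicit false
set_option linter.unusedSectionVars false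

open Set Filter Topology Complex
open scoped Matrix

namespace Crest.Agent.R281.OmL_677

open Crest.Agent.R275.Geo Crest.Agent.R275.Core144 Crest.Agent.R281.Defs_273
open Crest.Agent.R273.Kah_333
open Crest.Agent.R281.OmA_524 Crest.Agent.R281.OmB_524 Crest.Agent.R281.Rk_599
open Crest.Agent.R281.S6D_664 Crest.Agent.R281.Tube1_989

noncomputable section

variable {n r k : ℕ} {M : Type} [TopologicalSpace M] {A : Atl n M} {L : LB A}
  {s : Fin (r + 1) → A.ι → M → ℂ}

theorem Dm_eq (hs : ∀ a, IsHS (L ^ k) univ (s a)) (i : A.ι) {x : M} (hx : x ∈ (A.e i).source)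
    (h0 : s 0 i x ≠ 0) (a : Fin r) (c : Fin n) :
    OmB_524.Dm A s i x a c = (s 0 i x ^ 2)⁻¹ * Wv (sl A s i) 0 a.succ (A.e i x) c := by
  have hz := (A.e i).map_source hx
  have e0 : sl A s i 0 (A.e i x) = s 0 i x := by unfold sl; rw [(A.e i).left_inv hx]
  have ea : sl A s i a.succ (A.e i x) = s a.succ i x := by unfold sl; rw [(A.e i).left_inv hx]
  have h0' : sl A s i 0 (A.e i x) ≠ 0 := by rwa [e0]
  have d0 := sl_anal hs i hz 0
  have da := sl_anal hs i hz a.succ
  have dg : AnalyticAt ℂ (rat A s i a) (A.e i x) := da.div d0 h0'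
  have hev : sl A s i a.succ =ᶠ[𝓝 (A.e i x)] fun z => rat A s i a z * sl A s i 0 z := by
    filter_upwards [d0.continuousAt.eventually_ne h0'] with z hz0
    show sl A s i a.succ z = sl A s i a.succ z / sl A s i 0 z * sl A s i 0 z
    rw [div_mul_cancel₀ _ hz0]
  have h1 : fderiv ℂ (sl A s i a.succ) (A.e i x) (EuclideanSpace.single c 1) =
      rat A s i a (A.e i x) * fderiv ℂ (sl A s i 0) (A.e i x) (EuclideanSpace.single c 1) +
        sl A s i 0 (A.e i x) * fderiv ℂ (rat A s i a) (A.e i x) (EuclideanSpace.single c 1) := by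
    rw [hev.fderiv_eq, fderiv_fun_mul dg.differentiableAt d0.differentiableAt]
    simp [smul_eq_mul]
  have h2 : rat A s i a (A.e i x) = s a.succ i x / s 0 i x := by
    show sl A s i a.succ (A.e i x) / sl A s i 0 (A.e i x) = _
    rw [e0, ea]
  show fderiv ℂ (rat A s i a) (A.e i x) (EuclideanSpace.single c 1) = _
  unfold Wv df
  rw [h1, h2, e0, ea]
  field_simp
  ring

/-- **the Poisson brackets of the ratios vanish** -/
theorem hbr [T2Space M] [CompactSpace M] [Finite A.ι] (P : Part A) (K : Kah A) (σ : HSymp A)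
    (hN : NefW K L) (hI : Isotropic P σ L) (hs : ∀ a, IsHS (L ^ k) univ (s a)) (hk0 : 0 < k) :
    ∀ i, ∀ x ∈ (A.e i).source, s 0 i x ≠ 0 →
      OmB_524.Dm A s i x * (σ.s i x)⁻¹ * (OmB_524.Dm A s i x)ᵀ = 0 := by
  intro i x hx h0
  ext a b
  have h1 := bracket P K σ hN hI hs hk0 i hx 0 b.succ 0 a.succ
  have hDa : (OmB_524.Dm A s i x).row a =
      (s 0 i x ^ 2)⁻¹ • Wv (sl A s i) 0 a.succ (A.e i x) := by
    funext c
    exact Dm_eq hs i hx h0 a c
  have hDb : (OmB_524.Dm A s i x).row b =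
      (s 0 i x ^ 2)⁻¹ • Wv (sl A s i) 0 b.succ (A.e i x) := by
    funext c
    exact Dm_eq hs i hx h0 b c
  have h2 : (OmB_524.Dm A s i x * (σ.s i x)⁻¹ * (OmB_524.Dm A s i x)ᵀ) a b =
      (OmB_524.Dm A s i x).row a ⬝ᵥ ((σ.s i x)⁻¹ *ᵥ (OmB_524.Dm A s i x).row b) := by
    rw [Matrix.mul_assoc, Matrix.mul_apply]
    rfl
  rw [h2, hDa, hDb, Matrix.mulVec_smul, smul_dotProduct, dotProduct_smul, h1]
  simp

end

section fib

variable {n r k : ℕ} {M : Type} [TopologicalSpace M] {A : Atl (2 * n) M} {L : LB A}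
  {s : Fin (n + 1) → A.ι → M → ℂ}

/-- **the Lagrangian fibration of the ratios**, modulo the compactness of the regular leaves -/
theorem exists_lfib_iso [T2Space M] [CompactSpace M] [PreconnectedSpace M] [Finite A.ι]
    (P : Part A) (K : Kah A) (σ : HSymp A) (hN : NefW K L) (hI : Isotropic P σ L)
    (hs : ∀ a, IsHS (L ^ k) univ (s a)) (hk0 : 0 < k) {i0 : A.ι} {x0 : M} (h0 : Rk A s i0 x0)
    (hcpt : ∀ x ∈ X0s A s, (∀ p ∈ X0s A s, ys A s p = ys A s x → ∃ i, Rk A s i p) →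
      IsCompact (leaf (X0s A s) (ys A s) x)) :
    ∃ F : LFib A σ, F.Om = {x | x ∈ X0s A s ∧ IsCompact (leaf (X0s A s) (ys A s) x) ∧
      ∀ p ∈ leaf (X0s A s) (ys A s) x, ∃ i, Rk A s i p} ∧ F.Tf = leaf (X0s A s) (ys A s) :=
  exists_lfib_sec A σ hs h0 hcpt (hbr P K σ hN hI hs hk0)

end fib

end Crest.Agent.R281.OmL_677
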