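import Crest.Agent.R281.OmM6_980
import Crest.Agent.R281.OmL6_677

/-!
# R281 (S0424), S6-OMEGA (helper980): the assembly without hypotheses

`omega` : rank `n` of `n + 1` sections of `L^k` at one point ⟹ `OmOut σ L` (helper854's `omOut_of`
with OM-MASS = `massP`, OM-HAR = 331 / 389, OM-LAG = 677).
-/

set_option autoImplicit false
set_option linter.unusedSectionVars false

open Set Filter Topology Complex MeasureTheory Function
open scoped ContDiff Matrix ComplexConjugate ComplexOrder ENNReal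

namespace Crest.Agent.R281.OmM_980

open Crest.Agent.R275 Crest.Agent.R275.Geo Crest.Agent.R275.Core144
open Crest.Agent.R273.Defs_333 Crest.Agent.R273.HM_333 Crest.Agent.R273.Kah_333
open Crest.Agent.R281.Defs_273 (HSymp NefW Isotropic)
open Crest.Agent.R281.OmA_524 Crest.Agent.R281.OmB_524 Crest.Agent.R281.Rk_599
open Crest.Agent.R281.D6_986 Crest.Agent.R281.Tube1_989 Crest.Agent.R281.Tube2_989
open Crest.Agent.R281.Om_854 (omOut_of)

noncomputable section

variable {n : ℕ} {M : Type} [TopologicalSpace M] [T2Space M] [CompactSpace M] [ConnectedSpace M]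
  {A : Atl (2 * n) M} {L : LB A} [Finite A.ι] (P : Part A) (K : Kah A) (σ : HSymp A)

/-- **S6-OMEGA** -/
theorem omega (hu : σ.Uniq) (hn : 1 ≤ n) (hL : NefW K L) (hiso : Isotropic P σ L) {k : ℕ}
    (hk : 0 < k) {s : Fin (n + 1) → A.ι → M → ℂ} (hs : ∀ a, IsHS (L ^ k) univ (s a))
    {i₀ : A.ι} {x₀ : M} (h₀ : Rk A s i₀ x₀) :
    ∃ o : OmOut σ L, o.k = k ∧ o.s = s 0 ∧ o.F.Tf = leaf (X0s A s) (ys A s) ∧
      o.F.Om = {x | x ∈ X0s A s ∧ IsCompact (leaf (X0s A s) (ys A s) x) ∧
        ∀ p ∈ leaf (X0s A s) (ys A s) x, ∃ i, Rk A s i p} :=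
  omOut_of K σ hL hk (massP P K σ hu hn hL hiso hk)
    (fun h => Har_331.lowP_of K (pow h k) hn) hs
    (OmL_677.hbr P K σ hL hiso hs hk) h₀

end

end Crest.Agent.R281.OmM_980
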