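import Crest.Agent.R281.E6_373
import Crest.Agent.R281.OmM7_980
import Crest.Agent.R281.Mass5_519
import Crest.Agent.R281.D6i_986

/-!
# R281 (S0424), END6 (helper52): the nodes `OmegaP`, `LeafVolP`, `UOutP` of `E6_373`
-/

set_option autoImplicit false
set_option linter.unusedSectionVars false

open Set Filter Topology Complex
open scoped ContDiff Matrix ComplexConjugate ComplexOrder

namespace Crest.Agent.R281.E6a_52

open Crest.Agent.R275.Geo Crest.Agent.R275.Core144 Crest.Agent.R275.GC293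
open Crest.Agent.R273.Defs_333 Crest.Agent.R273.Kah_333 Crest.Agent.R273.HM_333
open Crest.Agent.R281.Defs_273 Crest.Agent.R281.Sk_474
open Crest.Agent.R281.D6_986 Crest.Agent.R281.E6_373
open Crest.Agent.R281.S6D_664 (LFib Fam)

/-- node (1): S6-OMEGA -/
theorem omegaP : OmegaP := by
  intro X
  have : ConnectedSpace X.M := inferInstance
  obtain ⟨k, hk, s, hs, i, x, hx⟩ := X.rich
  obtain ⟨o, -⟩ := OmM_980.omega X.P X.K X.σ X.uniq X.hn X.nef X.iso hk hs hx
  exact ⟨o⟩

/-- node (2): the leaves have bounded volume -/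
theorem leafVolP : LeafVolP := by
  intro X F
  obtain ⟨v, hv⟩ := Mass5_519.exists_volC_LFib F X.K
  refine ⟨v, fun F0 h0 => ?_⟩
  have hne : Nonempty F0.V := (F0.conn 0 (mem_univ _)).nonempty.to_subtype.map Subtype.val
  obtain ⟨a⟩ := hne
  obtain ⟨h1, h2⟩ := h0 a
  refine (hv.leaf (F0.i a) h1 F0 ?_).le
  have h3 : F0.y ⁻¹' {F0.y a} = univ := eq_univ_of_forall fun z => Subsingleton.elim _ _
  rw [h2, h3, image_univ]

/-- node (5): `pos` and `strict` -/
theorem uOutP : UOutP := by
  rintro X o ⟨up⟩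
  exact ⟨up.out X.hn⟩

end Crest.Agent.R281.E6a_52
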