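import Mathlib

/-!
# R281 (S0424), EHR-LOC, part 1 (helper461): the local theorem

`h : P × V → W` analytic near `(p0, u0)`, derivative in the `V`-direction onto at `(p0, u0)`.
`G (p, u) = u + A_u† w` solves `h (p, G (p, u)) = h (p0, u)`, `A_u = D_V h (p0, u)`.
-/

set_option autoImplicit false
set_option linter.unusedSectionVars false

open Set Filter Topology Metric
open scoped ContDiff InnerProductSpace

namespace Crest.Agent.R281.Eh1_461

noncomputable section

variable {P V W : Type*} [NormedAddCommGroup P] [NormedSpace ℂ P] [CompleteSpace P]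
  [NormedAddCommGroup V] [InnerProductSpace ℂ V] [CompleteSpace V] [FiniteDimensional ℂ V]
  [NormedAddCommGroup W] [InnerProductSpace ℂ W] [CompleteSpace W] [FiniteDimensional ℂ W]

/-- the derivative in the `V`-direction at `(p0, u)` -/
def dV (h : P × V → W) (p0 : P) (u : V) : V →L[ℂ] W := fderiv ℂ (fun v => h (p0, v)) u

/-- its adjoint -/
def ad (h : P × V → W) (p0 : P) (u : V) : W →L[ℂ] V := ContinuousLinearMap.adjoint (dV h p0 u)

/-- the adjoint as a real linear map -/
def adR : (V →L[ℂ] W) →L[ℝ] (W →L[ℂ] V) :=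
  AddMonoidHom.toRealLinearMap
    { toFun := fun T => ContinuousLinearMap.adjoint T
      map_zero' := by simp
      map_add' := fun S T => by simp } (ContinuousLinearMap.adjoint (𝕜 := ℂ)).continuous

theorem adR_apply (T : V →L[ℂ] W) : adR T = ContinuousLinearMap.adjoint T := rfl

theorem contDiffAt_dV {h : P × V → W} {p0 : P} {u0 : V} (hh : ContDiffAt ℂ ω h (p0, u0)) :
    ContDiffAt ℂ ω (dV h p0) u0 := by
  have h1 : ContDiffAt ℂ ω (fun v => h (p0, v)) u0 :=
    ContDiffAt.comp (f := fun v => (p0, v)) u0 hh (contDiffAt_const.prodMk contDiffAt_id)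
  exact h1.fderiv_right (m := ω) le_top

theorem contDiffAt_ad {h : P × V → W} {p0 : P} {u0 : V} (hh : ContDiffAt ℂ ω h (p0, u0)) :
    ContDiffAt ℝ ω (ad h p0) u0 := by
  have h1 : ContDiffAt ℝ ω (dV h p0) u0 := (contDiffAt_dV hh).restrict_scalars ℝ
  exact (adR (V := V) (W := W)).contDiff.contDiffAt.comp u0 h1

theorem adjoint_injective {T : V →L[ℂ] W} (hT : Function.Surjective T) {y : W}
    (hy : ContinuousLinearMap.adjoint T y = 0) : y = 0 := by
  obtain ⟨x, rfl⟩ := hT y
  have : ⟪T x, T x⟫_ℂ = 0 := by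
    rw [← ContinuousLinearMap.adjoint_inner_right, hy, inner_zero_right]
  exact inner_self_eq_zero.1 this

theorem comp_adjoint_injective {T : V →L[ℂ] W} (hT : Function.Surjective T) {y : W}
    (hy : T (ContinuousLinearMap.adjoint T y) = 0) : y = 0 := by
  refine adjoint_injective hT ?_
  have : ⟪ContinuousLinearMap.adjoint T y, ContinuousLinearMap.adjoint T y⟫_ℂ = 0 := by
    rw [ContinuousLinearMap.adjoint_inner_right, hy, inner_zero_left]
  exact inner_self_eq_zero.1 this

theorem isInvertible {T : V →L[ℂ] W} (hT : Function.Surjective T) :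
    (T ∘L ContinuousLinearMap.adjoint T).IsInvertible := by
  have hinj : Function.Injective (T ∘L ContinuousLinearMap.adjoint T).toLinearMap := by
    rw [← LinearMap.ker_eq_bot, LinearMap.ker_eq_bot']
    intro y hy
    exact comp_adjoint_injective hT hy
  refine ⟨(LinearEquiv.ofInjectiveEndo _ hinj).toContinuousLinearEquiv, ?_⟩
  ext y
  rfl

/-- a continuous linear map is onto as soon as it is close to one which is onto -/
theorem eventually_surj {X : Type*} [TopologicalSpace X] {x0 : X} {T : X → V →L[ℂ] W}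
    (hT : ContinuousAt T x0) (hs : Function.Surjective (T x0)) :
    ∀ᶠ x in 𝓝 x0, Function.Surjective (T x) := by
  have h1 : ContinuousAt (fun x => T x ∘L ContinuousLinearMap.adjoint (T x0)) x0 :=
    hT.clm_comp continuousAt_const
  have h2 : ∀ᶠ x in 𝓝 x0, (T x ∘L ContinuousLinearMap.adjoint (T x0)) ∈
      {f : W →L[ℂ] W | f.IsInvertible} := by
    obtain ⟨e, he⟩ := isInvertible hs
    have h3 : range ((↑) : (W ≃L[ℂ] W) → W →L[ℂ] W) ∈ 𝓝 (T x0 ∘L ContinuousLinearMap.adjoint (T x0)) := by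
      rw [← he]
      exact ContinuousLinearEquiv.nhds e
    filter_upwards [h1 h3] with x hx
    obtain ⟨e', he'⟩ := hx
    exact ⟨e', he'⟩
  filter_upwards [h2] with x hx
  obtain ⟨e, he⟩ := hx
  intro y
  refine ⟨ContinuousLinearMap.adjoint (T x0) (e.symm y), ?_⟩
  have := congrArg (fun f : W →L[ℂ] W => f (e.symm y)) he
  simpa using this.symm

/-! ### the local theorem -/

/-- `(p, u, w) ↦ h (p, u + a w) - h (p0, u)` with `a` an independent variable -/
def eqn (h : P × V → W) (p0 : P) (z : (P × V × (W →L[ℂ] V)) × W) : W :=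
  h (z.1.1, z.1.2.1 + z.1.2.2 z.2) - h (p0, z.1.2.1)

section Local

variable {h : P × V → W} {p0 : P} {u0 : V}

theorem contDiffAt_eqn (hh : ContDiffAt ℂ ω h (p0, u0)) (a0 : W →L[ℂ] V) :
    ContDiffAt ℂ ω (eqn h p0) ((p0, u0, a0), 0) := by
  unfold eqn
  refine ContDiffAt.sub ?_ ?_
  · refine ContDiffAt.comp (g := h)
      (f := fun z : (P × V × (W →L[ℂ] V)) × W => (z.1.1, z.1.2.1 + z.1.2.2 z.2)) _ ?_ ?_
    · simpa using hh
    · fun_prop
  · refine ContDiffAt.comp (g := h)
      (f := fun z : (P × V × (W →L[ℂ] V)) × W => (p0, z.1.2.1)) _ ?_ ?_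
    · simpa using hh
    · fun_prop

theorem fderiv_eqn (hh : ContDiffAt ℂ ω h (p0, u0)) (a0 : W →L[ℂ] V) :
    fderiv ℂ (eqn h p0) ((p0, u0, a0), 0) ∘L .inr ℂ _ _ = dV h p0 u0 ∘L a0 := by
  have h1 : HasFDerivAt (eqn h p0) (fderiv ℂ (eqn h p0) ((p0, u0, a0), (0 : W)))
      ((p0, u0, a0), (0 : W)) :=
    ((contDiffAt_eqn hh a0).differentiableAt (by simp)).hasFDerivAt
  have h2 : HasFDerivAt (fun y : W => eqn h p0 ((p0, u0, a0), y))
      (fderiv ℂ (eqn h p0) ((p0, u0, a0), (0 : W)) ∘L .inr ℂ _ _) 0 :=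
    HasFDerivAt.comp (f := fun y : W => ((p0, u0, a0), y)) (0 : W) h1 (hasFDerivAt_prodMk_right _ _)
  have h3 : HasFDerivAt (fun v => h (p0, v)) (dV h p0 u0) u0 := by
    have : ContDiffAt ℂ ω (fun v => h (p0, v)) u0 :=
      ContDiffAt.comp (f := fun v => (p0, v)) u0 hh (contDiffAt_const.prodMk contDiffAt_id)
    exact (this.differentiableAt (by simp)).hasFDerivAt
  have h4 : HasFDerivAt (fun y : W => eqn h p0 ((p0, u0, a0), y)) (dV h p0 u0 ∘L a0) 0 := by
    have h5 : HasFDerivAt (fun y : W => u0 + a0 y) a0 0 := (a0.hasFDerivAt).const_add u0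
    have h6 : HasFDerivAt (fun v => h (p0, v)) (dV h p0 u0) (u0 + a0 0) := by simpa using h3
    exact (HasFDerivAt.comp (0 : W) h6 h5).sub_const (h (p0, u0))
  exact h2.unique h4

theorem local_triv (hh : ContDiffAt ℂ ω h (p0, u0)) (hs : Function.Surjective (dV h p0 u0)) :
    ∃ G G' : P × V → V, ContDiffAt ℝ ω G (p0, u0) ∧ ContDiffAt ℝ ω G' (p0, u0) ∧
      (∀ᶠ u in 𝓝 u0, G (p0, u) = u) ∧
      (∀ᶠ q in 𝓝 (p0, u0), h (q.1, G q) = h (p0, q.2) ∧ (∃ y, G q = q.2 + ad h p0 q.2 y) ∧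
        DifferentiableAt ℂ (fun p => G (p, q.2)) q.1 ∧ G' (q.1, G q) = q.2 ∧
        G (q.1, G' q) = q.2) ∧
      (∀ᶠ z in 𝓝 ((p0, u0), (0 : V)), ∀ y, z.2 = ad h p0 z.1.2 y →
        h (z.1.1, z.1.2 + z.2) = h (p0, z.1.2) → z.1.2 + z.2 = G z.1) := by
  set a0 : W →L[ℂ] V := ad h p0 u0 with ha0
  set x0 : (P × V × (W →L[ℂ] V)) × W := ((p0, u0, a0), 0) with hx0
  have hf : ContDiffAt ℂ ω (eqn h p0) x0 := contDiffAt_eqn hh a0
  have hf0 : eqn h p0 x0 = 0 := by simp [eqn, hx0]
  have hinv : (fderiv ℂ (eqn h p0) x0 ∘L .inr ℂ _ _).IsInvertible := by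
    rw [fderiv_eqn hh a0]
    exact isInvertible hs
  set w := hf.implicitFunction (by simp) hinv with hw
  have hw0 : w (p0, u0, a0) = 0 := hf.implicitFunction_apply_self (by simp) hinv
  have hwc : ContDiffAt ℂ ω w (p0, u0, a0) := hf.contDiffAt_implicitFunction (by simp) hinv
  have hw1 : ∀ᶠ x in 𝓝 (p0, u0, a0), eqn h p0 (x, w x) = 0 := by
    have := hf.eventually_apply_implicitFunction (by simp) hinv
    rw [hf0] at this
    exact this
  have hw2 : ∀ᶠ z in 𝓝 x0, eqn h p0 z = 0 ↔ w z.1 = z.2 := by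
    have := hf.eventually_apply_eq_iff_implicitFunction (by simp) hinv
    rw [hf0] at this
    exact this
  have hadR : ContDiffAt ℝ ω (ad h p0) u0 := contDiffAt_ad hh
  set ι : P × V → P × V × (W →L[ℂ] V) := fun q => (q.1, q.2, ad h p0 q.2) with hι
  have hιc : ContDiffAt ℝ ω ι (p0, u0) := by
    refine contDiffAt_fst.prodMk (contDiffAt_snd.prodMk ?_)
    exact ContDiffAt.comp (f := fun q : P × V => q.2) (p0, u0) hadR contDiffAt_snd
  have hι0 : ι (p0, u0) = (p0, u0, a0) := rfl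
  have hιt : Tendsto ι (𝓝 (p0, u0)) (𝓝 (p0, u0, a0)) := hιc.continuousAt
  set G : P × V → V := fun q => q.2 + ad h p0 q.2 (w (ι q)) with hG
  have hGc : ContDiffAt ℝ ω G (p0, u0) := by
    refine contDiffAt_snd.add ?_
    have h1 : ContDiffAt ℝ ω (fun q : P × V => ad h p0 q.2) (p0, u0) :=
      ContDiffAt.comp (f := fun q : P × V => q.2) (p0, u0) hadR contDiffAt_snd
    have h2 : ContDiffAt ℝ ω (fun q => w (ι q)) (p0, u0) :=
      ContDiffAt.comp (p0, u0) (hwc.restrict_scalars ℝ) hιc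
    have h3 : ContDiff ℝ ω (fun p : (W →L[ℂ] V) × W => p.1 p.2) :=
      (isBoundedBilinearMap_apply (𝕜 := ℂ) (E := W) (F := V)).contDiff.restrict_scalars ℝ
    exact ContDiffAt.comp (g := fun p : (W →L[ℂ] V) × W => p.1 p.2)
      (f := fun q : P × V => (ad h p0 q.2, w (ι q))) (p0, u0) h3.contDiffAt (h1.prodMk h2)
  have hG0 : G (p0, u0) = u0 := by simp [hG, hι0, hw0]
  -- `G (p0, u) = u`
  have hGu : ∀ᶠ u in 𝓝 u0, G (p0, u) = u := by
    have h1 : Tendsto (fun u : V => ((ι (p0, u), (0 : W)) : (P × V × (W →L[ℂ] V)) × W)) (𝓝 u0)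
        (𝓝 x0) := by
      have h2 : Tendsto (fun u : V => ι (p0, u)) (𝓝 u0) (𝓝 (p0, u0, a0)) :=
        hιt.comp (by rw [nhds_prod_eq]; exact tendsto_const_nhds.prodMk tendsto_id)
      exact h2.prodMk_nhds tendsto_const_nhds
    filter_upwards [h1 hw2] with u hu
    have h3 : eqn h p0 (ι (p0, u), (0 : W)) = 0 := by simp [eqn, hι]
    have h4 : w (ι (p0, u)) = 0 := hu.1 h3
    simp [hG, h4]
  -- the equation
  have hGe : ∀ᶠ q in 𝓝 (p0, u0), h (q.1, G q) = h (p0, q.2) := by
    filter_upwards [hιt hw1] with q hq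
    exact sub_eq_zero.1 hq
  -- holomorphy in `p`
  have hGh : ∀ᶠ q in 𝓝 (p0, u0), DifferentiableAt ℂ (fun p => G (p, q.2)) q.1 := by
    have h1 : ∀ᶠ x in 𝓝 (p0, u0, a0), ContDiffAt ℂ ω w x := hwc.eventually (by simp)
    filter_upwards [hιt h1] with q hq
    have hq' : ContDiffAt ℂ ω w (q.1, q.2, ad h p0 q.2) := hq
    have h2 : DifferentiableAt ℂ w (q.1, q.2, ad h p0 q.2) := hq'.differentiableAt (by simp)
    have h3 : DifferentiableAt ℂ (fun p : P => w (p, q.2, ad h p0 q.2)) q.1 :=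
      DifferentiableAt.comp (f := fun p : P => (p, q.2, ad h p0 q.2)) q.1 h2
        (differentiableAt_id.prodMk (differentiableAt_const _))
    exact ((ad h p0 q.2).differentiableAt.comp q.1 h3).const_add q.2
  -- the local inverse
  set H : P × V → P × V := fun q => (q.1, G q) with hH
  have hHc : ContDiffAt ℝ ω H (p0, u0) := contDiffAt_fst.prodMk hGc
  have hH0 : H (p0, u0) = (p0, u0) := by simp [hH, hG0]
  set D : P × V →L[ℝ] V := fderiv ℝ G (p0, u0) with hD
  have hGd : HasFDerivAt G D (p0, u0) := (hGc.differentiableAt (by simp)).hasFDerivAt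
  have hDr : D ∘L .inr ℝ P V = .id ℝ V := by
    have h1 : HasFDerivAt (fun u : V => G (p0, u)) (D ∘L .inr ℝ P V) u0 :=
      HasFDerivAt.comp (f := fun u : V => (p0, u)) u0 hGd (hasFDerivAt_prodMk_right _ _)
    have h2 : HasFDerivAt (fun u : V => G (p0, u)) (.id ℝ V) u0 :=
      (hasFDerivAt_id (𝕜 := ℝ) u0).congr_of_eventuallyEq hGu
    exact h1.unique h2
  have hDv : ∀ (a : P) (b : V), D (a, b) = D (a, 0) + b := by
    intro a b
    have h1 : ((a, b) : P × V) = (a, 0) + (0, b) := by simp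
    have h2 : D (0, b) = b := by
      have := congrArg (fun f : V →L[ℝ] V => f b) hDr
      simpa using this
    rw [h1, map_add, h2]
  let L : (P × V) ≃L[ℝ] (P × V) := ContinuousLinearEquiv.equivOfInverse
    ((ContinuousLinearMap.fst ℝ P V).prod D)
    ((ContinuousLinearMap.fst ℝ P V).prod (ContinuousLinearMap.snd ℝ P V -
      D ∘L (ContinuousLinearMap.inl ℝ P V) ∘L (ContinuousLinearMap.fst ℝ P V)))
    (fun q => by
      obtain ⟨a, b⟩ := q
      simp [hDv a b])
    (fun q => by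
      obtain ⟨a, b⟩ := q
      simp [hDv a (b - D (a, 0))])
  have hHd : HasFDerivAt H (L : (P × V) →L[ℝ] (P × V)) (p0, u0) := by
    have : HasFDerivAt H ((ContinuousLinearMap.fst ℝ P V).prod D) (p0, u0) :=
      hasFDerivAt_fst.prodMk hGd
    exact this
  have hHs : HasStrictFDerivAt H (L : (P × V) →L[ℝ] (P × V)) (p0, u0) :=
    hHc.hasStrictFDerivAt' hHd (by simp)
  set K : P × V → P × V := hHs.localInverse H L (p0, u0) with hK
  have hK1 : ∀ᶠ q in 𝓝 (p0, u0), K (H q) = q := hHs.eventually_left_inverse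
  have hK2 : ∀ᶠ q in 𝓝 (p0, u0), H (K q) = q := by
    have := hHs.eventually_right_inverse
    rwa [hH0] at this
  have hKc : ContDiffAt ℝ ω K (p0, u0) := by
    have := ContDiffAt.to_localInverse hHc hHd (by simp)
    rw [hH0] at this
    exact this
  refine ⟨G, fun q => (K q).2, hGc, ?_, hGu, ?_, ?_⟩
  · exact ContDiffAt.comp (g := fun q : P × V => q.2) (p0, u0) contDiffAt_snd hKc
  · filter_upwards [hGe, hGh, hK1, hK2] with q h1 h2 h3 h4
    refine ⟨h1, ⟨_, rfl⟩, h2, ?_, ?_⟩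
    · have := congrArg Prod.snd h3
      exact this
    · have h5 : (H (K q)).1 = q.1 := by rw [h4]
      have h6 : (H (K q)).2 = q.2 := by rw [h4]
      have h7 : (q.1, (K q).2) = K q := by rw [← h5]
      show G (q.1, (K q).2) = q.2
      rw [h7]
      exact h6
  · -- uniqueness
    set T : V → W →L[ℂ] W := fun u => dV h p0 u ∘L ad h p0 u with hT
    have hdc : ContinuousAt (dV h p0) u0 := (contDiffAt_dV hh).continuousAt
    have hac : ContinuousAt (ad h p0) u0 := hadR.continuousAt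
    have hTc : ContinuousAt T u0 := hdc.clm_comp hac
    obtain ⟨e, he⟩ := isInvertible hs
    have hTe : T u0 = (e : W →L[ℂ] W) := he.symm
    have hTi : ∀ᶠ u in 𝓝 u0, ∃ e' : W ≃L[ℂ] W, (e' : W →L[ℂ] W) = T u := by
      have h3 : range ((↑) : (W ≃L[ℂ] W) → W →L[ℂ] W) ∈ 𝓝 (T u0) := by
        rw [hTe]
        exact ContinuousLinearEquiv.nhds e
      exact hTc h3
    have hci : ContinuousAt (fun u => (T u).inverse) u0 := by
      have h1 : ContinuousAt ContinuousLinearMap.inverse (T u0) := by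
        rw [hTe]
        exact (contDiffAt_map_inverse (𝕜 := ℂ) (n := 1) e).continuousAt
      exact ContinuousAt.comp (g := ContinuousLinearMap.inverse) h1 hTc
    set Y : (P × V) × V → W := fun z => (T z.1.2).inverse (dV h p0 z.1.2 z.2) with hY
    have hYc : ContinuousAt Y ((p0, u0), 0) := by
      have h1 : ContinuousAt (fun z : (P × V) × V => z.1.2) ((p0, u0), 0) := by fun_prop
      have h2 : ContinuousAt (fun z : (P × V) × V => (T z.1.2).inverse) ((p0, u0), 0) :=
        ContinuousAt.comp (g := fun u => (T u).inverse) (f := fun z : (P × V) × V => z.1.2) hci h1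
      have h3 : ContinuousAt (fun z : (P × V) × V => dV h p0 z.1.2) ((p0, u0), 0) :=
        ContinuousAt.comp (g := dV h p0) (f := fun z : (P × V) × V => z.1.2) hdc h1
      have h4 : ContinuousAt (fun z : (P × V) × V => z.2) ((p0, u0), 0) := by fun_prop
      exact h2.clm_apply (h3.clm_apply h4)
    have hY0 : Y ((p0, u0), 0) = 0 := by simp [hY]
    have hZ : Tendsto (fun z : (P × V) × V => ((ι z.1, Y z) : (P × V × (W →L[ℂ] V)) × W))
        (𝓝 ((p0, u0), 0)) (𝓝 x0) := by
      have h1 : Tendsto (fun z : (P × V) × V => ι z.1) (𝓝 ((p0, u0), 0)) (𝓝 (p0, u0, a0)) :=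
        hιt.comp (by
          have : ContinuousAt (fun z : (P × V) × V => z.1) ((p0, u0), 0) := by fun_prop
          exact this)
      have h2 : Tendsto Y (𝓝 ((p0, u0), 0)) (𝓝 0) := by
        have := hYc
        rwa [ContinuousAt, hY0] at this
      exact h1.prodMk_nhds h2
    have h5 : ∀ᶠ z in 𝓝 ((p0, u0), (0 : V)), ∃ e' : W ≃L[ℂ] W, (e' : W →L[ℂ] W) = T z.1.2 := by
      have h1 : Tendsto (fun z : (P × V) × V => z.1.2) (𝓝 ((p0, u0), 0)) (𝓝 u0) := by
        have : ContinuousAt (fun z : (P × V) × V => z.1.2) ((p0, u0), 0) := by fun_prop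
        exact this
      exact h1 hTi
    filter_upwards [hZ hw2, h5] with z h6 h7 y hy1 hy2
    obtain ⟨e', he'⟩ := h7
    have h8 : Y z = y := by
      have : dV h p0 z.1.2 z.2 = T z.1.2 y := by rw [hy1]; rfl
      simp only [hY]
      rw [this, ← he', ContinuousLinearMap.inverse_equiv]
      simp
    have h9 : eqn h p0 (ι z.1, Y z) = 0 := by
      simp only [eqn, hι, h8]
      rw [← hy1]
      exact sub_eq_zero.2 hy2
    have h10 : w (ι z.1) = Y z := h6.1 h9
    show z.1.2 + z.2 = z.1.2 + ad h p0 z.1.2 (w (ι z.1))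
    rw [h10, h8, hy1]

end Local

end

end Crest.Agent.R281.Eh1_461
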