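import Crest.Agent.R281.Eh1_461

/-!
# R281 (S0424), EHR-LOC, part 2 (helper461): tangent space of the fibre, local package
-/

set_option autoImplicit false
set_option linter.unusedSectionVars false

open Set Filter Topology Metric
open scoped ContDiff InnerProductSpace

namespace Crest.Agent.R281.Eh2_461

open Crest.Agent.R281.Eh1_461

noncomputable section

variable {P V W : Type*} [NormedAddCommGroup P] [NormedSpace ℂ P] [CompleteSpace P]
  [NormedAddCommGroup V] [InnerProductSpace ℂ V] [CompleteSpace V] [FiniteDimensional ℂ V]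
  [NormedAddCommGroup W] [InnerProductSpace ℂ W] [CompleteSpace W] [FiniteDimensional ℂ W]

/-- velocities at `u` of the curves in the fibre over `p0` -/
def Tan (C : Set (P × V)) (p0 : P) (u : V) : Set V :=
  {k | ∃ γ : ℝ → V, γ 0 = u ∧ HasDerivAt γ k 0 ∧ ∀ᶠ t in 𝓝 (0 : ℝ), (p0, γ t) ∈ C}

/-- the vectors orthogonal to the tangent space of the fibre -/
def Nor (C : Set (P × V)) (p0 : P) (u : V) : Set V := {n | ∀ k ∈ Tan C p0 u, ⟪k, n⟫_ℂ = 0}

/-- `C` is given near `(p0, u)` by equations whose derivative in the `V`-direction is onto -/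
def LocEq (C : Set (P × V)) (p0 : P) (u : V) : Prop :=
  ∃ (c : ℕ) (h : P × V → EuclideanSpace ℂ (Fin c)), AnalyticAt ℂ h (p0, u) ∧
    Function.Surjective (fderiv ℂ (fun v => h (p0, v)) u) ∧ ∀ᶠ q in 𝓝 (p0, u), q ∈ C ↔ h q = 0

theorem Nor.zero_mem (C : Set (P × V)) (p0 : P) (u : V) : (0 : V) ∈ Nor C p0 u := fun k _ => by
  simp

section Tan

variable {C : Set (P × V)} {h : P × V → W} {p0 : P} {u0 : V}

theorem hasFDerivAt_slice (hh : ContDiffAt ℂ ω h (p0, u0)) :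
    HasFDerivAt (fun v => h (p0, v)) (dV h p0 u0) u0 := by
  have : ContDiffAt ℂ ω (fun v => h (p0, v)) u0 :=
    ContDiffAt.comp (f := fun v => (p0, v)) u0 hh (contDiffAt_const.prodMk contDiffAt_id)
  exact (this.differentiableAt (by simp)).hasFDerivAt

theorem dV_eq_zero_of_mem_tan (hh : ContDiffAt ℂ ω h (p0, u0))
    (hC : ∀ᶠ q in 𝓝 (p0, u0), q ∈ C ↔ h q = 0) {k : V} (hk : k ∈ Tan C p0 u0) :
    dV h p0 u0 k = 0 := by
  obtain ⟨γ, h0, h1, h2⟩ := hk
  have h3 : HasFDerivAt (fun v => h (p0, v)) ((dV h p0 u0).restrictScalars ℝ) (γ 0) := by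
    rw [h0]
    exact (hasFDerivAt_slice hh).restrictScalars ℝ
  have h4 : HasDerivAt (fun t => h (p0, γ t)) (dV h p0 u0 k) 0 := h3.comp_hasDerivAt (0 : ℝ) h1
  have h5 : Tendsto (fun t => (p0, γ t)) (𝓝 0) (𝓝 (p0, u0)) := by
    have : Tendsto γ (𝓝 0) (𝓝 u0) := by
      have := h1.continuousAt.tendsto
      rwa [h0] at this
    exact tendsto_const_nhds.prodMk_nhds this
  have h6 : (fun t => h (p0, γ t)) =ᶠ[𝓝 0] fun _ => (0 : W) := by
    filter_upwards [h5 hC, h2] with t ht1 ht2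
    exact ht1.1 ht2
  have h7 : HasDerivAt (fun t => h (p0, γ t)) 0 0 :=
    (hasDerivAt_const (0 : ℝ) (0 : W)).congr_of_eventuallyEq h6
  exact h4.unique h7

theorem mem_tan_of_dV_eq_zero (hh : ContDiffAt ℂ ω h (p0, u0))
    (hs : Function.Surjective (dV h p0 u0)) (h0 : h (p0, u0) = 0)
    (hC : ∀ᶠ q in 𝓝 (p0, u0), q ∈ C ↔ h q = 0) {k : V} (hk : dV h p0 u0 k = 0) :
    k ∈ Tan C p0 u0 := by
  set B : W →L[ℂ] V := ad h p0 u0 with hB
  set g : ℂ × W → V := fun z => u0 + (z.1 • k + B z.2) with hg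
  set f : ℂ × W → W := fun z => h (p0, g z) with hf
  have hg0 : g (0, 0) = u0 := by simp [hg]
  have hgd : HasFDerivAt g (((ContinuousLinearMap.fst ℂ ℂ W).smulRight k) +
      B ∘L (ContinuousLinearMap.snd ℂ ℂ W)) (0, 0) := by
    have h1 : HasFDerivAt (fun z : ℂ × W => z.1 • k)
        ((ContinuousLinearMap.fst ℂ ℂ W).smulRight k) (0, 0) :=
      ((ContinuousLinearMap.fst ℂ ℂ W).smulRight k).hasFDerivAt
    have h2 : HasFDerivAt (fun z : ℂ × W => B z.2) (B ∘L (ContinuousLinearMap.snd ℂ ℂ W)) (0, 0) :=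
      (B ∘L (ContinuousLinearMap.snd ℂ ℂ W)).hasFDerivAt
    exact (h1.add h2).const_add u0
  have hgc : ContDiffAt ℂ ω g (0, 0) := by
    have h1 : ContDiffAt ℂ ω (fun z : ℂ × W => z.1 • k) (0, 0) :=
      ((ContinuousLinearMap.fst ℂ ℂ W).smulRight k).contDiff.contDiffAt
    have h2 : ContDiffAt ℂ ω (fun z : ℂ × W => B z.2) (0, 0) :=
      (B ∘L (ContinuousLinearMap.snd ℂ ℂ W)).contDiff.contDiffAt
    exact contDiffAt_const.add (h1.add h2)
  have hfc : ContDiffAt ℂ ω f (0, 0) := by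
    refine ContDiffAt.comp (g := h) (f := fun z => (p0, g z)) (0, 0) ?_
      (contDiffAt_const.prodMk hgc)
    rw [hg0]
    exact hh
  have hfd : HasFDerivAt f (dV h p0 u0 ∘L (((ContinuousLinearMap.fst ℂ ℂ W).smulRight k) +
      B ∘L (ContinuousLinearMap.snd ℂ ℂ W))) (0, 0) := by
    have h1 : HasFDerivAt (fun v => h (p0, v)) (dV h p0 u0) (g (0, 0)) := by
      rw [hg0]
      exact hasFDerivAt_slice hh
    exact HasFDerivAt.comp (0, 0) h1 hgd
  have hff : fderiv ℂ f (0, 0) = dV h p0 u0 ∘L (((ContinuousLinearMap.fst ℂ ℂ W).smulRight k) +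
      B ∘L (ContinuousLinearMap.snd ℂ ℂ W)) := hfd.fderiv
  have hinr : fderiv ℂ f (0, 0) ∘L .inr ℂ ℂ W = dV h p0 u0 ∘L B := by
    rw [hff]
    ext y
    simp
  have hinl : fderiv ℂ f (0, 0) ∘L .inl ℂ ℂ W = 0 := by
    rw [hff]
    ext
    simp [hk]
  have hinv : (fderiv ℂ f (0, 0) ∘L .inr ℂ ℂ W).IsInvertible := by
    rw [hinr]
    exact isInvertible hs
  set y := hfc.implicitFunction (by simp) hinv with hy
  have hy0 : y 0 = 0 := hfc.implicitFunction_apply_self (by simp) hinv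
  have hf0 : f (0, 0) = 0 := by simp [hf, hg0, h0]
  have hy1 : ∀ᶠ t in 𝓝 (0 : ℂ), f (t, y t) = 0 := by
    have := hfc.eventually_apply_implicitFunction (by simp) hinv
    rw [hf0] at this
    exact this
  have hyd : HasFDerivAt y (0 : ℂ →L[ℂ] W) 0 := by
    have := (hfc.hasStrictFDerivAt_implicitFunction (by simp) hinv).hasFDerivAt
    rw [hinl] at this
    simpa using this
  have hyr : HasDerivAt (fun t : ℝ => y (t : ℂ)) 0 0 := by
    have h1 : HasFDerivAt y ((0 : ℂ →L[ℂ] W).restrictScalars ℝ) ((0 : ℝ) : ℂ) := by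
      rw [Complex.ofReal_zero]
      exact hyd.restrictScalars ℝ
    have h2 : HasDerivAt (fun t : ℝ => (t : ℂ)) 1 0 := Complex.ofRealCLM.hasDerivAt
    have h3 := HasFDerivAt.comp_hasDerivAt (0 : ℝ) h1 h2
    have h4 : HasDerivAt (fun t : ℝ => y (t : ℂ))
        (((0 : ℂ →L[ℂ] W).restrictScalars ℝ) 1) 0 := h3
    simpa using h4
  have hct : Tendsto (fun t : ℝ => (t : ℂ)) (𝓝 0) (𝓝 0) := by
    have := Complex.continuous_ofReal.continuousAt.tendsto (x := (0 : ℝ))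
    simpa using this
  refine ⟨fun t => g ((t : ℂ), y (t : ℂ)), by simp [hy0, hg0], ?_, ?_⟩
  · have h1 : HasDerivAt (fun t : ℝ => B (y (t : ℂ))) 0 0 := by
      have h3 : HasDerivAt (fun t : ℝ => B (y (t : ℂ))) ((B.restrictScalars ℝ) 0) 0 :=
        (B.restrictScalars ℝ).hasFDerivAt.comp_hasDerivAt (0 : ℝ) hyr
      rwa [map_zero] at h3
    have h2 : HasDerivAt (fun t : ℝ => (t : ℂ) • k) k 0 := by
      have h3 : HasDerivAt (fun t : ℝ => t • k) ((1 : ℝ) • k) 0 := (hasDerivAt_id (0 : ℝ)).smul_const k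
      rw [one_smul] at h3
      refine h3.congr_of_eventuallyEq (Filter.Eventually.of_forall fun t => ?_)
      simp
    have h5 := (h2.add h1).const_add u0
    rw [add_zero] at h5
    exact h5
  · have h1 : Tendsto (fun t : ℝ => (p0, g ((t : ℂ), y (t : ℂ)))) (𝓝 0) (𝓝 (p0, u0)) := by
      have h2 : Tendsto (fun t : ℝ => y (t : ℂ)) (𝓝 0) (𝓝 0) := by
        have := hyr.continuousAt.tendsto
        simpa [hy0] using this
      have h3 : Tendsto g (𝓝 (0, 0)) (𝓝 u0) := by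
        have := hgc.continuousAt.tendsto
        rwa [hg0] at this
      exact tendsto_const_nhds.prodMk_nhds (h3.comp (hct.prodMk_nhds h2))
    filter_upwards [h1 hC, hct hy1] with t ht1 ht2
    exact ht1.2 ht2

theorem mem_tan_iff (hh : ContDiffAt ℂ ω h (p0, u0))
    (hs : Function.Surjective (dV h p0 u0)) (h0 : h (p0, u0) = 0)
    (hC : ∀ᶠ q in 𝓝 (p0, u0), q ∈ C ↔ h q = 0) {k : V} :
    k ∈ Tan C p0 u0 ↔ dV h p0 u0 k = 0 :=
  ⟨dV_eq_zero_of_mem_tan hh hC, mem_tan_of_dV_eq_zero hh hs h0 hC⟩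

theorem mem_nor_iff (hh : ContDiffAt ℂ ω h (p0, u0))
    (hs : Function.Surjective (dV h p0 u0)) (h0 : h (p0, u0) = 0)
    (hC : ∀ᶠ q in 𝓝 (p0, u0), q ∈ C ↔ h q = 0) {n : V} :
    n ∈ Nor C p0 u0 ↔ ∃ y, n = ad h p0 u0 y := by
  constructor
  · intro hn
    have h1 : n ∈ (dV h p0 u0).kerᗮ := by
      rw [Submodule.mem_orthogonal]
      intro k hk
      exact hn k ((mem_tan_iff hh hs h0 hC).2 hk)
    rw [ContinuousLinearMap.orthogonal_ker] at h1
    have h2 : n ∈ (ContinuousLinearMap.adjoint (dV h p0 u0)).range := by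
      rwa [Submodule.closed_of_finiteDimensional _ |>.submodule_topologicalClosure_eq] at h1
    obtain ⟨y, hy⟩ := h2
    exact ⟨y, hy.symm⟩
  · rintro ⟨y, rfl⟩ k hk
    have h1 := (mem_tan_iff hh hs h0 hC).1 hk
    rw [ad, ContinuousLinearMap.adjoint_inner_right, h1, inner_zero_left]

end Tan

/-! ### the local package -/

section Pack

variable {C : Set (P × V)} {p0 : P} {u0 : V}

theorem local_package (hloc : LocEq C p0 u0) :
    ∃ G G' : P × V → V, ContDiffAt ℝ ω G (p0, u0) ∧ ContDiffAt ℝ ω G' (p0, u0) ∧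
      (∀ᶠ u in 𝓝 u0, G (p0, u) = u) ∧ G' (p0, u0) = u0 ∧
      (∀ᶠ q in 𝓝 (p0, u0), DifferentiableAt ℂ (fun p => G (p, q.2)) q.1 ∧
        G' (q.1, G q) = q.2 ∧ G (q.1, G' q) = q.2 ∧
        ((p0, q.2) ∈ C → (q.1, G q) ∈ C ∧ G q - q.2 ∈ Nor C p0 q.2) ∧
        (q ∈ C → (p0, G' q) ∈ C)) ∧
      (∀ᶠ z in 𝓝 ((p0, u0), (0 : V)), (p0, z.1.2) ∈ C → z.2 ∈ Nor C p0 z.1.2 →
        (z.1.1, z.1.2 + z.2) ∈ C → z.1.2 + z.2 = G z.1) := by
  obtain ⟨c, h, hA, hs, hC⟩ := hloc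
  have hh : ContDiffAt ℂ ω h (p0, u0) := hA.contDiffAt
  have hs' : Function.Surjective (dV h p0 u0) := hs
  obtain ⟨G, G', hG, hG', hGu, hE, hU⟩ := local_triv hh hs'
  have hG0 : G (p0, u0) = u0 := hGu.self_of_nhds
  have hG'0 : G' (p0, u0) = u0 := by
    have := (hE.self_of_nhds).2.2.2.1
    simpa [hG0] using this
  -- what holds at all points of the slice near `u0`
  have hsl : Tendsto (fun u : V => (p0, u)) (𝓝 u0) (𝓝 (p0, u0)) :=
    tendsto_const_nhds.prodMk_nhds tendsto_id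
  have hN : ∀ᶠ u in 𝓝 u0, (p0, u) ∈ C → ∀ n, n ∈ Nor C p0 u ↔ ∃ y, n = ad h p0 u y := by
    have h1 : ∀ᶠ u in 𝓝 u0, ContDiffAt ℂ ω h (p0, u) := hsl (hh.eventually (by simp))
    have h2 : ∀ᶠ u in 𝓝 u0, Function.Surjective (dV h p0 u) :=
      eventually_surj (contDiffAt_dV hh).continuousAt hs'
    have h3 : ∀ᶠ u in 𝓝 u0, ∀ᶠ q in 𝓝 (p0, u), q ∈ C ↔ h q = 0 := hsl hC.eventually_nhds
    filter_upwards [h1, h2, h3] with u g1 g2 g3 hu n
    exact mem_nor_iff g1 g2 (g3.self_of_nhds.1 hu) g3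
  have hCs : ∀ᶠ u in 𝓝 u0, (p0, u) ∈ C ↔ h (p0, u) = 0 := hsl hC
  have ht2 : Tendsto (fun q : P × V => q.2) (𝓝 (p0, u0)) (𝓝 u0) := continuousAt_snd
  have ht1 : Tendsto (fun q : P × V => q.1) (𝓝 (p0, u0)) (𝓝 p0) := continuousAt_fst
  have hGt : Tendsto (fun q : P × V => (q.1, G q)) (𝓝 (p0, u0)) (𝓝 (p0, u0)) := by
    have : Tendsto G (𝓝 (p0, u0)) (𝓝 u0) := by
      have := hG.continuousAt.tendsto
      rwa [hG0] at this
    exact ht1.prodMk_nhds this
  have hG't : Tendsto (fun q : P × V => (q.1, G' q)) (𝓝 (p0, u0)) (𝓝 (p0, u0)) := by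
    have : Tendsto G' (𝓝 (p0, u0)) (𝓝 u0) := by
      have := hG'.continuousAt.tendsto
      rwa [hG'0] at this
    exact ht1.prodMk_nhds this
  refine ⟨G, G', hG, hG', hGu, hG'0, ?_, ?_⟩
  · filter_upwards [hE, hG't hE, ht2 hN, ht2 hCs, hGt hC, hC,
      (ht2.comp hG't) hCs] with q h1 h2 h3 h4 h5 h6 h7
    obtain ⟨e1, e2, e3, e4, e5⟩ := h1
    refine ⟨e3, e4, e5, fun hq => ⟨?_, ?_⟩, fun hq => ?_⟩
    · refine h5.2 ?_
      show h (q.1, G q) = 0
      rw [e1]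
      exact h4.1 hq
    · refine (h3 hq _).2 ?_
      obtain ⟨y, hy⟩ := e2
      exact ⟨y, by rw [hy]; abel⟩
    · refine h7.2 ?_
      have h8 : h (q.1, G (q.1, G' q)) = h (p0, G' q) := h2.1
      rw [e5] at h8
      show h (p0, G' q) = 0
      rw [← h8]
      exact h6.1 hq
  · have hz1 : Tendsto (fun z : (P × V) × V => z.1.2) (𝓝 ((p0, u0), 0)) (𝓝 u0) := by
      have : ContinuousAt (fun z : (P × V) × V => z.1.2) ((p0, u0), 0) := by fun_prop
      exact this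
    have hz2 : Tendsto (fun z : (P × V) × V => (z.1.1, z.1.2 + z.2)) (𝓝 ((p0, u0), 0))
        (𝓝 (p0, u0)) := by
      have : ContinuousAt (fun z : (P × V) × V => (z.1.1, z.1.2 + z.2)) ((p0, u0), 0) := by
        fun_prop
      simpa [ContinuousAt] using this
    filter_upwards [hU, hz1 hN, hz1 hCs, hz2 hC] with z h1 h2 h3 h4 g1 g2 g3
    obtain ⟨y, hy⟩ := (h2 g1 _).1 g2
    refine h1 y hy ?_
    rw [h3.1 g1]
    exact h4.1 g3

end Pack

end

end Crest.Agent.R281.Eh2_461
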