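import Crest.Agent.R281.Eh2_461

/-!
# R281 (S0424), EHR-LOC, part 3 (helper461): local triviality of an embedded holomorphic family

`C ⊆ P × V` conic, closed, with local equations at `p0`.  For `p` near `p0` there are mutually
inverse bijections `Φ p : C_p0 → C_p`, `Ψ p : C_p → C_p0`, homogeneous, smooth (real-analytic)
jointly in all variables, `Φ` holomorphic in `p`, and `Φ p u - u` orthogonal to the tangent space.
-/

set_option autoImplicit false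
set_option linter.unusedSectionVars false

open Set Filter Topology Metric
open scoped ContDiff InnerProductSpace

namespace Crest.Agent.R281.Eh3_461

open Crest.Agent.R281.Eh1_461 Crest.Agent.R281.Eh2_461

noncomputable section

variable {P V : Type*} [NormedAddCommGroup P] [NormedSpace ℂ P] [CompleteSpace P]
  [NormedAddCommGroup V] [InnerProductSpace ℂ V] [CompleteSpace V] [FiniteDimensional ℂ V]

/-- the hypotheses: `C` is conic, without the vertex, closed at `p0`, with local equations at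
`p0` -/
structure Fam (C : Set (P × V)) (p0 : P) : Prop where
  conic : ∀ (p : P) (u : V) (l : ℂ), l ≠ 0 → (p, u) ∈ C → (p, l • u) ∈ C
  ne : ∀ (p : P) (u : V), (p, u) ∈ C → u ≠ 0
  closed : ∀ u : V, u ≠ 0 → (p0, u) ∉ C → ∀ᶠ q in 𝓝 (p0, u), q ∉ C
  loc : ∀ u : V, (p0, u) ∈ C → LocEq C p0 u

/-- `n` is an `ε`-small normal displacement from `u` into `C_p` -/
def Rel (C : Set (P × V)) (p0 : P) (ε : ℝ) (p : P) (u n : V) : Prop :=
  n ∈ Nor C p0 u ∧ ‖n‖ ≤ ε * ‖u‖ ∧ (p, u + n) ∈ C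

/-- the unit sphere of the cone over `p0` -/
def Sph (C : Set (P × V)) (p0 : P) : Set V := {u | ‖u‖ = 1 ∧ (p0, u) ∈ C}

variable {C : Set (P × V)} {p0 : P}

theorem smul_mem_tan (hF : Fam C p0) {u k : V} {l : ℂ} (hl : l ≠ 0) (hk : k ∈ Tan C p0 u) :
    l • k ∈ Tan C p0 (l • u) := by
  obtain ⟨γ, h0, h1, h2⟩ := hk
  refine ⟨fun t => l • γ t, by simp [h0], ?_, ?_⟩
  · have h3 : HasDerivAt (fun t => ((l • ContinuousLinearMap.id ℂ V).restrictScalars ℝ) (γ t))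
        (((l • ContinuousLinearMap.id ℂ V).restrictScalars ℝ) k) 0 :=
      ((l • ContinuousLinearMap.id ℂ V).restrictScalars ℝ).hasFDerivAt.comp_hasDerivAt (0 : ℝ) h1
    exact h3
  · filter_upwards [h2] with t ht
    exact hF.conic _ _ _ hl ht

theorem smul_mem_nor (hF : Fam C p0) {u n : V} {l : ℂ} (hl : l ≠ 0) (hn : n ∈ Nor C p0 u) :
    l • n ∈ Nor C p0 (l • u) := by
  intro k hk
  have h1 : l⁻¹ • k ∈ Tan C p0 u := by
    have := smul_mem_tan hF (inv_ne_zero hl) hk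
    rwa [smul_smul, inv_mul_cancel₀ hl, one_smul] at this
  have h2 := hn _ h1
  rw [inner_smul_left] at h2
  have h3 : (starRingEnd ℂ) l⁻¹ ≠ 0 := by simpa using hl
  have h4 : ⟪k, n⟫_ℂ = 0 := (mul_eq_zero.1 h2).resolve_left h3
  rw [inner_smul_right, h4, mul_zero]

theorem Rel.smul (hF : Fam C p0) {ε : ℝ} {p : P} {u n : V} {l : ℂ} (hl : l ≠ 0)
    (h : Rel C p0 ε p u n) : Rel C p0 ε p (l • u) (l • n) := by
  refine ⟨smul_mem_nor hF hl h.1, ?_, ?_⟩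
  · rw [norm_smul, norm_smul]
    have := mul_le_mul_of_nonneg_left h.2.1 (norm_nonneg l)
    linarith
  · rw [← smul_add]
    exact hF.conic _ _ _ hl h.2.2

theorem isCompact_sph (hF : Fam C p0) : IsCompact (Sph C p0) := by
  have : ProperSpace V := FiniteDimensional.proper_rclike ℂ V
  refine (isCompact_sphere (0 : V) 1).of_isClosed_subset ?_ ?_
  · rw [← isOpen_compl_iff, isOpen_iff_mem_nhds]
    intro u hu
    by_cases h1 : ‖u‖ = 1
    · have h2 : (p0, u) ∉ C := fun h => hu ⟨h1, h⟩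
      have h3 : u ≠ 0 := by
        rintro rfl
        simp at h1
      have h4 : Tendsto (fun v : V => (p0, v)) (𝓝 u) (𝓝 (p0, u)) :=
        tendsto_const_nhds.prodMk_nhds tendsto_id
      filter_upwards [h4 (hF.closed u h3 h2)] with v hv hv'
      exact hv hv'.2
    · have h2 : ∀ᶠ v in 𝓝 u, ‖v‖ ≠ 1 := continuous_norm.continuousAt.eventually_ne h1
      filter_upwards [h2] with v hv hv'
      exact hv hv'.1
  · intro u hu
    simpa using hu.1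

/-- uniqueness and injectivity -/
theorem eventually_inj (hF : Fam C p0) : ∀ᶠ x in 𝓝 ((0 : ℝ), p0), ∀ u ∈ Sph C p0,
    ∀ u' n n', (p0, u') ∈ C → Rel C p0 x.1 x.2 u n → Rel C p0 x.1 x.2 u' n' →
      u + n = u' + n' → u = u' := by
  refine IsCompact.eventually_forall_of_forall_eventually (isCompact_sph hF)
    (P := fun (x : ℝ × P) (u : V) => u ∈ Sph C p0 → ∀ u' n n', (p0, u') ∈ C →
      Rel C p0 x.1 x.2 u n → Rel C p0 x.1 x.2 u' n' → u + n = u' + n' → u = u') ?_ |>.mono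
    fun x hx u hu => hx u hu hu
  intro u0 hu0
  obtain ⟨G, G', hG, hG', hGu, hG'0, hE, hU⟩ := local_package (hF.loc u0 hu0.2)
  obtain ⟨δ1, hδ1, h1⟩ := Metric.eventually_nhds_iff.1 hE
  obtain ⟨δ2, hδ2, h2⟩ := Metric.eventually_nhds_iff.1 hU
  set δ := min (min δ1 δ2) 1 with hδ
  have hδ0 : 0 < δ := by positivity
  have e1 : δ ≤ δ1 := (min_le_left _ _).trans (min_le_left _ _)
  have e2 : δ ≤ δ2 := (min_le_left _ _).trans (min_le_right _ _)
  have e3 : δ ≤ 1 := min_le_right _ _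
  rw [Metric.eventually_nhds_iff]
  refine ⟨δ / 8, by positivity, ?_⟩
  rintro ⟨⟨ε, p⟩, u⟩ hz hu u' n n' hu' hn hn' he
  simp only [Prod.dist_eq, max_lt_iff] at hz
  obtain ⟨⟨hε, hp⟩, hd⟩ := hz
  rw [Real.dist_eq, sub_zero] at hε
  have hε' : ε < δ / 8 := (le_abs_self ε).trans_lt hε
  have a1 : ‖n‖ ≤ ε := by simpa [hu.1] using hn.2.1
  have a2 : ‖n'‖ ≤ ε * ‖u'‖ := hn'.2.1
  have a0 : 0 ≤ ε := (norm_nonneg n).trans a1
  have a3 : u' = u + n - n' := by rw [he]; abel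
  have a4 : ‖u'‖ ≤ 1 + ε + ε * ‖u'‖ := by
    calc ‖u'‖ = ‖u + n - n'‖ := by rw [← a3]
      _ ≤ ‖u‖ + ‖n‖ + ‖n'‖ := (norm_sub_le _ _).trans (by gcongr; exact norm_add_le _ _)
      _ ≤ 1 + ε + ε * ‖u'‖ := by rw [hu.1]; gcongr
  have a5 : ‖u'‖ ≤ 2 := by nlinarith [norm_nonneg u']
  have a6 : ‖n'‖ ≤ 2 * ε := by nlinarith
  have a7 : dist u' u ≤ 3 * ε := by
    rw [dist_eq_norm, a3]
    calc ‖u + n - n' - u‖ = ‖n - n'‖ := by congr 1; abel
      _ ≤ ‖n‖ + ‖n'‖ := norm_sub_le _ _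
      _ ≤ 3 * ε := by linarith
  have a8 : dist u' u0 < δ := by
    have := dist_triangle u' u u0
    linarith
  have b1 : u + n = G (p, u) := by
    refine h2 (y := ((p, u), n)) ?_ hu.2 hn.1 hn.2.2
    simp only [Prod.dist_eq, max_lt_iff, dist_zero_right]
    exact ⟨⟨by linarith, by linarith⟩, by linarith⟩
  have b2 : u' + n' = G (p, u') := by
    refine h2 (y := ((p, u'), n')) ?_ hu' hn'.1 hn'.2.2
    simp only [Prod.dist_eq, max_lt_iff, dist_zero_right]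
    exact ⟨⟨by linarith, by linarith⟩, by linarith⟩
  have b3 : G' (p, G (p, u)) = u := by
    refine (h1 (y := (p, u)) ?_).2.1
    simp only [Prod.dist_eq, max_lt_iff]
    exact ⟨by linarith, by linarith⟩
  have b4 : G' (p, G (p, u')) = u' := by
    refine (h1 (y := (p, u')) ?_).2.1
    simp only [Prod.dist_eq, max_lt_iff]
    exact ⟨by linarith, by linarith⟩
  rw [← b3, ← b4, ← b1, ← b2, he]

theorem eventually_uniq (hF : Fam C p0) : ∀ᶠ x in 𝓝 ((0 : ℝ), p0), ∀ u ∈ Sph C p0,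
    ∀ n n', Rel C p0 x.1 x.2 u n → Rel C p0 x.1 x.2 u n' → n = n' := by
  refine IsCompact.eventually_forall_of_forall_eventually (isCompact_sph hF)
    (P := fun (x : ℝ × P) (u : V) => u ∈ Sph C p0 → ∀ n n',
      Rel C p0 x.1 x.2 u n → Rel C p0 x.1 x.2 u n' → n = n') ?_ |>.mono
    fun x hx u hu => hx u hu hu
  intro u0 hu0
  obtain ⟨G, G', hG, hG', hGu, hG'0, hE, hU⟩ := local_package (hF.loc u0 hu0.2)
  obtain ⟨δ, hδ, h2⟩ := Metric.eventually_nhds_iff.1 hU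
  rw [Metric.eventually_nhds_iff]
  refine ⟨δ / 2, by positivity, ?_⟩
  rintro ⟨⟨ε, p⟩, u⟩ hz hu n n' hn hn'
  simp only [Prod.dist_eq, max_lt_iff] at hz
  obtain ⟨⟨hε, hp⟩, hd⟩ := hz
  rw [Real.dist_eq, sub_zero] at hε
  have hε' : ε < δ / 2 := (le_abs_self ε).trans_lt hε
  have key : ∀ n, Rel C p0 ε p u n → u + n = G (p, u) := by
    intro n hn
    have a1 : ‖n‖ ≤ ε := by simpa [hu.1] using hn.2.1
    refine h2 (y := ((p, u), n)) ?_ hu.2 hn.1 hn.2.2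
    simp only [Prod.dist_eq, max_lt_iff, dist_zero_right]
    exact ⟨⟨by linarith, by linarith⟩, by linarith⟩
  exact add_left_cancel ((key n hn).trans (key n' hn').symm)

/-- local smooth extensions at the points of the fibre over `p0` -/
def Ext (C : Set (P × V)) (p0 : P) (p : P) (u v : V) : Prop :=
  ∃ F F' : P × V → V, F (p, u) = v ∧ F' (p, v) = u ∧ ContDiffAt ℝ ω F (p, u) ∧
    ContDiffAt ℝ ω F' (p, v) ∧
    (∀ᶠ q in 𝓝 (p, u), DifferentiableAt ℂ (fun p' => F (p', q.2)) q.1 ∧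
      ((p0, q.2) ∈ C → (q.1, F q) ∈ C ∧ F q - q.2 ∈ Nor C p0 q.2)) ∧
    (∀ᶠ q in 𝓝 (p, v), q ∈ C → (p0, F' q) ∈ C ∧ F (q.1, F' q) = q.2)

theorem eventually_ext (hF : Fam C p0) {ε : ℝ} (hε : 0 < ε) : ∀ᶠ p in 𝓝 p0, ∀ u ∈ Sph C p0,
    ∃ v, Ext C p0 p u v ∧ ‖v - u‖ < ε := by
  refine IsCompact.eventually_forall_of_forall_eventually (isCompact_sph hF) ?_
  intro u0 hu0
  obtain ⟨G, G', hG, hG', hGu, hG'0, hE, hU⟩ := local_package (hF.loc u0 hu0.2)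
  have hG0 : G (p0, u0) = u0 := hGu.self_of_nhds
  have hGt : Tendsto (fun q : P × V => (q.1, G q)) (𝓝 (p0, u0)) (𝓝 (p0, u0)) := by
    have h1 : Tendsto G (𝓝 (p0, u0)) (𝓝 u0) := by
      have := hG.continuousAt.tendsto
      rwa [hG0] at this
    have ht1 : Tendsto (fun q : P × V => q.1) (𝓝 (p0, u0)) (𝓝 p0) := continuousAt_fst
    exact ht1.prodMk_nhds h1
  have h3 : ∀ᶠ q in 𝓝 (p0, u0), ‖G q - q.2‖ < ε := by
    have h4 : ContinuousAt (fun q : P × V => ‖G q - q.2‖) (p0, u0) :=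
      (hG.continuousAt.sub continuousAt_snd).norm
    have h5 : (fun q : P × V => ‖G q - q.2‖) (p0, u0) < ε := by simpa [hG0] using hε
    exact h4.eventually_lt continuousAt_const h5
  filter_upwards [h3, hG.eventually (by simp), hGt (hG'.eventually (by simp)),
    hE, hE.eventually_nhds, hGt hE.eventually_nhds] with q g1 g2 g3 g4 g5 g6
  refine ⟨G q, ⟨G, G', rfl, g4.2.1, g2, g3, ?_, ?_⟩, g1⟩
  · filter_upwards [g5] with q' hq'
    exact ⟨hq'.1, hq'.2.2.2.1⟩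
  · filter_upwards [g6] with q' hq' hC
    exact ⟨hq'.2.2.2.2 hC, hq'.2.2.1⟩

/-- surjectivity -/
theorem eventually_surj (hF : Fam C p0) {ε : ℝ} (hε : 0 < ε) : ∀ᶠ p in 𝓝 p0, ∀ v ∈ sphere (0 : V) 1,
    (p, v) ∈ C → ∃ u n, (p0, u) ∈ C ∧ Rel C p0 ε p u n ∧ u + n = v := by
  have : ProperSpace V := FiniteDimensional.proper_rclike ℂ V
  refine IsCompact.eventually_forall_of_forall_eventually (isCompact_sphere (0 : V) 1) ?_
  intro v0 hv0
  have hv0' : v0 ≠ 0 := by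
    rintro rfl
    simp at hv0
  by_cases hC : (p0, v0) ∈ C
  · obtain ⟨G, G', hG, hG', hGu, hG'0, hE, hU⟩ := local_package (hF.loc v0 hC)
    have hG't : Tendsto (fun q : P × V => (q.1, G' q)) (𝓝 (p0, v0)) (𝓝 (p0, v0)) := by
      have h1 : Tendsto G' (𝓝 (p0, v0)) (𝓝 v0) := by
        have := hG'.continuousAt.tendsto
        rwa [hG'0] at this
      have ht1 : Tendsto (fun q : P × V => q.1) (𝓝 (p0, v0)) (𝓝 p0) := continuousAt_fst
      exact ht1.prodMk_nhds h1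
    have h3 : ∀ᶠ q in 𝓝 (p0, v0), ‖q.2 - G' q‖ < ε * ‖G' q‖ := by
      have h4 : ContinuousAt (fun q : P × V => ‖q.2 - G' q‖) (p0, v0) :=
        (continuousAt_snd.sub hG'.continuousAt).norm
      have h5 : ContinuousAt (fun q : P × V => ε * ‖G' q‖) (p0, v0) :=
        continuousAt_const.mul hG'.continuousAt.norm
      have h6 : (fun q : P × V => ‖q.2 - G' q‖) (p0, v0) <
          (fun q : P × V => ε * ‖G' q‖) (p0, v0) := by
        simp only [hG'0, sub_self, norm_zero]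
        exact mul_pos hε (norm_pos_iff.2 hv0')
      exact h4.eventually_lt h5 h6
    filter_upwards [hE, hG't hE, h3] with q h1 h2 h4 hq
    have h5 : G (q.1, G' q) = q.2 := h1.2.2.1
    have h6 : (p0, G' q) ∈ C := h1.2.2.2.2 hq
    obtain ⟨h7, h8⟩ := h2.2.2.2.1 h6
    refine ⟨G' q, q.2 - G' q, h6, ⟨?_, h4.le, ?_⟩, by abel⟩
    · have : G (q.1, G' q) - G' q ∈ Nor C p0 (G' q) := h8
      rwa [h5] at this
    · have : G' q + (q.2 - G' q) = q.2 := by abel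
      rw [this]
      exact hq
  · filter_upwards [hF.closed v0 hv0' hC] with q hq hq'
    exact absurd hq' hq

/-- **local triviality data** of the family `C` over the ball of radius `r` about `p0` -/
structure Triv (C : Set (P × V)) (p0 : P) (r ε : ℝ) (Φ Ψ : P → V → V) : Prop where
  rpos : 0 < r
  εpos : 0 < ε
  εlt : ε < 1
  base : ∀ u, (p0, u) ∈ C → Φ p0 u = u
  hom : ∀ p ∈ ball p0 r, ∀ u, (p0, u) ∈ C → ∀ l : ℂ, l ≠ 0 → Φ p (l • u) = l • Φ p u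
  maps : ∀ p ∈ ball p0 r, ∀ u, (p0, u) ∈ C → (p, Φ p u) ∈ C
  hom' : ∀ p ∈ ball p0 r, ∀ v, (p, v) ∈ C → ∀ l : ℂ, l ≠ 0 → Ψ p (l • v) = l • Ψ p v
  maps' : ∀ p ∈ ball p0 r, ∀ v, (p, v) ∈ C → (p0, Ψ p v) ∈ C
  left : ∀ p ∈ ball p0 r, ∀ u, (p0, u) ∈ C → Ψ p (Φ p u) = u
  right : ∀ p ∈ ball p0 r, ∀ v, (p, v) ∈ C → Φ p (Ψ p v) = v
  nor : ∀ p ∈ ball p0 r, ∀ u, (p0, u) ∈ C → Φ p u - u ∈ Nor C p0 u
  small : ∀ p ∈ ball p0 r, ∀ u, (p0, u) ∈ C → ‖Φ p u - u‖ ≤ ε * ‖u‖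
  uniq : ∀ p ∈ ball p0 r, ∀ u, (p0, u) ∈ C → ∀ n ∈ Nor C p0 u, ‖n‖ ≤ ε * ‖u‖ →
    (p, u + n) ∈ C → u + n = Φ p u
  ext : ∀ p ∈ ball p0 r, ∀ u, (p0, u) ∈ C → ∃ F : P × V → V, ContDiffAt ℝ ω F (p, u) ∧
    (∀ᶠ q in 𝓝 (p, u), DifferentiableAt ℂ (fun p' => F (p', q.2)) q.1) ∧
    ∀ᶠ q in 𝓝 (p, u), (p0, q.2) ∈ C → Φ q.1 q.2 = F q
  ext' : ∀ p ∈ ball p0 r, ∀ v, (p, v) ∈ C → ∃ F' : P × V → V, ContDiffAt ℝ ω F' (p, v) ∧
    ∀ᶠ q in 𝓝 (p, v), q ∈ C → Ψ q.1 q.2 = F' q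

/-- scaling of local extensions -/
theorem Ext.smul (hF : Fam C p0) {p : P} {u v : V} (h : Ext C p0 p u v) {l : ℂ} (hl : l ≠ 0) :
    Ext C p0 p (l • u) (l • v) := by
  obtain ⟨F, F', h1, h2, h3, h4, h5, h6⟩ := h
  have hc : ∀ z : V, ContDiffAt ℝ ω (fun w : V => l⁻¹ • w) z := fun z =>
    ((l⁻¹ • ContinuousLinearMap.id ℂ V).contDiff.restrict_scalars ℝ).contDiffAt
  have hc' : ∀ z : V, ContDiffAt ℝ ω (fun w : V => l • w) z := fun z =>
    ((l • ContinuousLinearMap.id ℂ V).contDiff.restrict_scalars ℝ).contDiffAt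
  have hS : ∀ z : V, l⁻¹ • l • z = z := fun z => by
    rw [smul_smul, inv_mul_cancel₀ hl, one_smul]
  have hS' : ∀ z : V, l • l⁻¹ • z = z := fun z => by
    rw [smul_smul, mul_inv_cancel₀ hl, one_smul]
  have hq : ∀ z : V, ContDiffAt ℝ ω (fun q : P × V => (q.1, l⁻¹ • q.2)) (p, z) := fun z =>
    contDiffAt_fst.prodMk
      (ContDiffAt.comp (g := fun w : V => l⁻¹ • w) (f := fun q : P × V => q.2) (p, z) (hc z)
        contDiffAt_snd)
  have ht : ∀ z : V, Tendsto (fun q : P × V => (q.1, l⁻¹ • q.2)) (𝓝 (p, l • z)) (𝓝 (p, z)) := by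
    intro z
    have := (hq (l • z)).continuousAt.tendsto
    simpa only [hS] using this
  refine ⟨fun q => l • F (q.1, l⁻¹ • q.2), fun q => l • F' (q.1, l⁻¹ • q.2), ?_, ?_, ?_, ?_, ?_, ?_⟩
  · show l • F (p, l⁻¹ • l • u) = l • v
    rw [hS, h1]
  · show l • F' (p, l⁻¹ • l • v) = l • u
    rw [hS, h2]
  · refine ContDiffAt.comp (g := fun w : V => l • w) (p, l • u) (hc' _) ?_
    refine ContDiffAt.comp (g := F) (f := fun q : P × V => (q.1, l⁻¹ • q.2)) (p, l • u) ?_ (hq _)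
    simpa only [hS] using h3
  · refine ContDiffAt.comp (g := fun w : V => l • w) (p, l • v) (hc' _) ?_
    refine ContDiffAt.comp (g := F') (f := fun q : P × V => (q.1, l⁻¹ • q.2)) (p, l • v) ?_ (hq _)
    simpa only [hS] using h4
  · filter_upwards [ht u h5] with q hq
    obtain ⟨g1, g2⟩ := hq
    refine ⟨?_, fun hC => ?_⟩
    · exact DifferentiableAt.const_smul g1 l
    · have h7 := g2 (hF.conic _ _ _ (inv_ne_zero hl) hC)
      refine ⟨hF.conic _ _ _ hl h7.1, ?_⟩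
      have h8 := smul_mem_nor hF hl h7.2
      simp only [smul_sub, hS'] at h8
      exact h8
  · filter_upwards [ht v h6] with q hq hC
    obtain ⟨g1, g2⟩ := hq (hF.conic _ _ _ (inv_ne_zero hl) hC)
    refine ⟨hF.conic _ _ _ hl g1, ?_⟩
    show l • F (q.1, l⁻¹ • l • F' (q.1, l⁻¹ • q.2)) = q.2
    rw [hS]
    have g3 : F (q.1, F' (q.1, l⁻¹ • q.2)) = l⁻¹ • q.2 := g2
    rw [g3, hS']

theorem exists_triv (hF : Fam C p0) : ∃ (r ε : ℝ) (Φ Ψ : P → V → V), Triv C p0 r ε Φ Ψ := by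
  classical
  obtain ⟨η1, hη1, hinj⟩ := Metric.eventually_nhds_iff.1 (eventually_inj hF)
  obtain ⟨η2, hη2, huniq⟩ := Metric.eventually_nhds_iff.1 (eventually_uniq hF)
  set ε : ℝ := min (min η1 η2) 1 / 2 with hε
  have hε0 : 0 < ε := by positivity
  have m1 : min (min η1 η2) 1 ≤ η1 := (min_le_left _ _).trans (min_le_left _ _)
  have m2 : min (min η1 η2) 1 ≤ η2 := (min_le_left _ _).trans (min_le_right _ _)
  have m3 : min (min η1 η2) 1 ≤ 1 := min_le_right _ _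
  have m0 : 0 < min (min η1 η2) 1 := by positivity
  have hε1 : ε < η1 := by rw [hε]; linarith
  have hε2 : ε < η2 := by rw [hε]; linarith
  have hε3 : ε < 1 := by rw [hε]; linarith
  obtain ⟨r3, hr3, hext⟩ := Metric.eventually_nhds_iff.1 (eventually_ext hF (half_pos hε0))
  obtain ⟨r4, hr4, hsurj⟩ := Metric.eventually_nhds_iff.1 (eventually_surj hF hε0)
  set r : ℝ := min (min η1 η2) (min r3 r4) with hr
  have hr0 : 0 < r := by positivity
  have n1 : r ≤ η1 := (min_le_left _ _).trans (min_le_left _ _)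
  have n2 : r ≤ η2 := (min_le_left _ _).trans (min_le_right _ _)
  have n3 : r ≤ r3 := (min_le_right _ _).trans (min_le_left _ _)
  have n4 : r ≤ r4 := (min_le_right _ _).trans (min_le_right _ _)
  -- normalisation
  have hnrm : ∀ (p : P) (u : V), (p, u) ∈ C → ((‖u‖ : ℂ)⁻¹ ≠ 0) ∧ ‖(‖u‖ : ℂ)⁻¹ • u‖ = 1 ∧
      (p, (‖u‖ : ℂ)⁻¹ • u) ∈ C ∧ (‖u‖ : ℂ) • (‖u‖ : ℂ)⁻¹ • u = u ∧ (‖u‖ : ℂ) ≠ 0 := by
    intro p u hu
    have h0 : ‖u‖ ≠ 0 := norm_ne_zero_iff.2 (hF.ne p u hu)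
    have h1 : (‖u‖ : ℂ) ≠ 0 := by exact_mod_cast h0
    refine ⟨inv_ne_zero h1, ?_, hF.conic _ _ _ (inv_ne_zero h1) hu, ?_, h1⟩
    · rw [norm_smul, norm_inv, Complex.norm_real, norm_norm, inv_mul_cancel₀ h0]
    · rw [smul_smul, mul_inv_cancel₀ h1, one_smul]
  have hU : ∀ p ∈ ball p0 r, ∀ u, (p0, u) ∈ C → ∀ n n', Rel C p0 ε p u n → Rel C p0 ε p u n' →
      n = n' := by
    intro p hp u hu n n' hn hn'
    obtain ⟨k1, k2, k3, k4, k5⟩ := hnrm p0 u hu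
    have h1 := huniq (y := (ε, p)) (by
      simp only [Prod.dist_eq, max_lt_iff, Real.dist_eq, sub_zero, abs_of_pos hε0]
      exact ⟨hε2, lt_of_lt_of_le hp n2⟩) _ ⟨k2, k3⟩ _ _ (hn.smul hF k1) (hn'.smul hF k1)
    exact smul_right_injective V k1 h1
  have hI : ∀ p ∈ ball p0 r, ∀ u u', (p0, u) ∈ C → (p0, u') ∈ C → ∀ n n', Rel C p0 ε p u n →
      Rel C p0 ε p u' n' → u + n = u' + n' → u = u' := by
    intro p hp u u' hu hu' n n' hn hn' he
    obtain ⟨k1, k2, k3, k4, k5⟩ := hnrm p0 u hu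
    have h1 := hinj (y := (ε, p)) (by
      simp only [Prod.dist_eq, max_lt_iff, Real.dist_eq, sub_zero, abs_of_pos hε0]
      exact ⟨hε1, lt_of_lt_of_le hp n1⟩) _ ⟨k2, k3⟩ ((‖u‖ : ℂ)⁻¹ • u') _ _
      (hF.conic _ _ _ k1 hu') (hn.smul hF k1) (hn'.smul hF k1)
      (by rw [← smul_add, ← smul_add, he])
    exact smul_right_injective V k1 h1
  have hX : ∀ p ∈ ball p0 r, ∀ u, (p0, u) ∈ C → ∃ n, Ext C p0 p u (u + n) ∧
      n ∈ Nor C p0 u ∧ ‖n‖ < ε * ‖u‖ ∧ (p, u + n) ∈ C := by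
    intro p hp u hu
    obtain ⟨k1, k2, k3, k4, k5⟩ := hnrm p0 u hu
    obtain ⟨v, hv1, hv2⟩ := hext (y := p) (lt_of_lt_of_le hp n3) _ ⟨k2, k3⟩
    have h1 := hv1.smul hF k5
    rw [k4] at h1
    obtain ⟨F, F', f1, f2, f3, f4, f5, f6⟩ := h1
    have h2 := (f5.self_of_nhds).2 hu
    have h3 : u + ((‖u‖ : ℂ) • v - u) = (‖u‖ : ℂ) • v := by abel
    refine ⟨(‖u‖ : ℂ) • v - u, ⟨F, F', by rw [h3]; exact f1, by rw [h3]; exact f2, f3,
      by rw [h3]; exact f4, f5, by rw [h3]; exact f6⟩, ?_, ?_, ?_⟩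
    · have := h2.2
      simp only [f1] at this
      exact this
    · have h4 : (‖u‖ : ℂ) • v - u = (‖u‖ : ℂ) • (v - (‖u‖ : ℂ)⁻¹ • u) := by
        rw [smul_sub, k4]
      have h5 : 0 < ‖u‖ := norm_pos_iff.2 (hF.ne _ _ hu)
      rw [h4, norm_smul, Complex.norm_real, norm_norm, mul_comm ε]
      exact mul_lt_mul_of_pos_left (by linarith) h5
    · rw [h3]
      have := h2.1
      simp only [f1] at this
      exact this
  -- the maps
  let Φ : P → V → V := fun p u => if h : ∃ n, Rel C p0 ε p u n then u + h.choose else u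
  have hΦ : ∀ p ∈ ball p0 r, ∀ u, (p0, u) ∈ C → ∀ n, Rel C p0 ε p u n → Φ p u = u + n := by
    intro p hp u hu n hn
    have h1 : ∃ n, Rel C p0 ε p u n := ⟨n, hn⟩
    simp only [Φ, dif_pos h1]
    rw [hU p hp u hu _ _ h1.choose_spec hn]
  have hΦR : ∀ p ∈ ball p0 r, ∀ u, (p0, u) ∈ C → Rel C p0 ε p u (Φ p u - u) := by
    intro p hp u hu
    obtain ⟨n, h1, h2, h3, h4⟩ := hX p hp u hu
    have h5 : Rel C p0 ε p u n := ⟨h2, h3.le, h4⟩
    rw [hΦ p hp u hu n h5]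
    simpa using h5
  have hΦi : ∀ p ∈ ball p0 r, ∀ u u', (p0, u) ∈ C → (p0, u') ∈ C → Φ p u = Φ p u' → u = u' := by
    intro p hp u u' hu hu' he
    exact hI p hp u u' hu hu' _ _ (hΦR p hp u hu) (hΦR p hp u' hu') (by
      rw [add_sub_cancel, add_sub_cancel, he])
  have hS : ∀ p ∈ ball p0 r, ∀ v, (p, v) ∈ C → ∃ u, (p0, u) ∈ C ∧ Φ p u = v := by
    intro p hp v hv
    obtain ⟨k1, k2, k3, k4, k5⟩ := hnrm p v hv
    obtain ⟨u, n, h1, h2, h3⟩ := hsurj (y := p) (lt_of_lt_of_le hp n4) ((‖v‖ : ℂ)⁻¹ • v)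
      (by simpa using k2) k3
    refine ⟨(‖v‖ : ℂ) • u, hF.conic _ _ _ k5 h1, ?_⟩
    rw [hΦ p hp _ (hF.conic _ _ _ k5 h1) _ (h2.smul hF k5), ← smul_add, h3, k4]
  let Ψ : P → V → V := fun p v => if h : ∃ u, (p0, u) ∈ C ∧ Φ p u = v then h.choose else v
  have hΨ : ∀ p ∈ ball p0 r, ∀ v, (p, v) ∈ C → (p0, Ψ p v) ∈ C ∧ Φ p (Ψ p v) = v := by
    intro p hp v hv
    have h1 := hS p hp v hv
    simp only [Ψ, dif_pos h1]
    exact h1.choose_spec
  have hmaps : ∀ p ∈ ball p0 r, ∀ u, (p0, u) ∈ C → (p, Φ p u) ∈ C := by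
    intro p hp u hu
    have := (hΦR p hp u hu).2.2
    rwa [add_sub_cancel] at this
  have hhom : ∀ p ∈ ball p0 r, ∀ u, (p0, u) ∈ C → ∀ l : ℂ, l ≠ 0 → Φ p (l • u) = l • Φ p u := by
    intro p hp u hu l hl
    rw [hΦ p hp _ (hF.conic _ _ _ hl hu) _ ((hΦR p hp u hu).smul hF hl), ← smul_add,
      add_sub_cancel]
  have hleft : ∀ p ∈ ball p0 r, ∀ u, (p0, u) ∈ C → Ψ p (Φ p u) = u := by
    intro p hp u hu
    obtain ⟨h1, h2⟩ := hΨ p hp _ (hmaps p hp u hu)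
    exact hΦi p hp _ _ h1 hu h2
  have hbn : ∀ p ∈ ball p0 r, ball p0 r ∈ 𝓝 p := fun p hp => isOpen_ball.mem_nhds hp
  have key : ∀ p ∈ ball p0 r, ∀ u, (p0, u) ∈ C → ∃ F F' : P × V → V, F (p, u) = Φ p u ∧
      ContDiffAt ℝ ω F (p, u) ∧ ContDiffAt ℝ ω F' (p, Φ p u) ∧
      (∀ᶠ q in 𝓝 (p, u), DifferentiableAt ℂ (fun p' => F (p', q.2)) q.1) ∧
      (∀ᶠ q in 𝓝 (p, u), (p0, q.2) ∈ C → Φ q.1 q.2 = F q) ∧
      (∀ᶠ q in 𝓝 (p, Φ p u), q ∈ C → Ψ q.1 q.2 = F' q) := by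
    intro p hp u hu
    obtain ⟨n, ⟨F, F', f1, f2, f3, f4, f5, f6⟩, g2, g3, g4⟩ := hX p hp u hu
    have g5 : Φ p u = u + n := hΦ p hp u hu n ⟨g2, g3.le, g4⟩
    have a1 : ∀ᶠ q in 𝓝 (p, u), q.1 ∈ ball p0 r :=
      (continuousAt_fst (p := (p, u))).eventually (hbn p hp)
    have a2 : ∀ᶠ q in 𝓝 (p, u), ‖F q - q.2‖ < ε * ‖q.2‖ := by
      have h4 : ContinuousAt (fun q : P × V => ‖F q - q.2‖) (p, u) :=
        (f3.continuousAt.sub continuousAt_snd).norm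
      have h5 : ContinuousAt (fun q : P × V => ε * ‖q.2‖) (p, u) :=
        continuousAt_const.mul continuousAt_snd.norm
      refine h4.eventually_lt h5 ?_
      simp only [f1, add_sub_cancel_left]
      exact g3
    have a3 : ∀ᶠ q in 𝓝 (p, u), (p0, q.2) ∈ C → Φ q.1 q.2 = F q := by
      filter_upwards [a1, a2, f5] with q b1 b2 b3 b4
      obtain ⟨c1, c2⟩ := b3.2 b4
      have c3 : Rel C p0 ε q.1 q.2 (F q - q.2) := ⟨c2, b2.le, by rwa [add_sub_cancel]⟩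
      rw [hΦ q.1 b1 q.2 b4 _ c3, add_sub_cancel]
    refine ⟨F, F', by rw [g5, f1], f3, by rw [g5]; exact f4, f5.mono fun q hq => hq.1, a3, ?_⟩
    rw [g5]
    have a4 : ∀ᶠ q in 𝓝 (p, u + n), q.1 ∈ ball p0 r :=
      (continuousAt_fst (p := (p, u + n))).eventually (hbn p hp)
    have a5 : Tendsto (fun q : P × V => (q.1, F' q)) (𝓝 (p, u + n)) (𝓝 (p, u)) := by
      have h1 : Tendsto F' (𝓝 (p, u + n)) (𝓝 u) := by
        have := f4.continuousAt.tendsto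
        rwa [f2] at this
      have h2 : Tendsto (fun q : P × V => q.1) (𝓝 (p, u + n)) (𝓝 p) := continuousAt_fst
      exact h2.prodMk_nhds h1
    filter_upwards [a4, f6, a5 a3] with q b1 b2 b3 b4
    obtain ⟨c1, c2⟩ := b2 b4
    have c3 : Φ q.1 (F' q) = F (q.1, F' q) := b3 c1
    rw [c2] at c3
    obtain ⟨d1, d2⟩ := hΨ q.1 b1 q.2 b4
    exact hΦi q.1 b1 _ _ d1 c1 (d2.trans c3.symm)
  refine ⟨r, ε, Φ, Ψ, ?_⟩
  refine
    { rpos := hr0
      εpos := hε0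
      εlt := hε3
      base := fun u hu => ?_
      hom := hhom
      maps := hmaps
      hom' := fun p hp v hv l hl => ?_
      maps' := fun p hp v hv => (hΨ p hp v hv).1
      left := hleft
      right := fun p hp v hv => (hΨ p hp v hv).2
      nor := fun p hp u hu => (hΦR p hp u hu).1
      small := fun p hp u hu => (hΦR p hp u hu).2.1
      uniq := fun p hp u hu n hn hn2 hn3 => (hΦ p hp u hu n ⟨hn, hn2, hn3⟩).symm
      ext := fun p hp u hu => ?_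
      ext' := fun p hp v hv => ?_ }
  · have h1 : Rel C p0 ε p0 u 0 := ⟨Nor.zero_mem C p0 u, by
      rw [norm_zero]; positivity, by rwa [add_zero]⟩
    rw [hΦ p0 (mem_ball_self hr0) u hu 0 h1, add_zero]
  · obtain ⟨d1, d2⟩ := hΨ p hp v hv
    obtain ⟨e1, e2⟩ := hΨ p hp (l • v) (hF.conic _ _ _ hl hv)
    refine hΦi p hp _ _ e1 (hF.conic _ _ _ hl d1) ?_
    rw [e2, hhom p hp _ d1 l hl, d2]
  · obtain ⟨F, F', f1, f2, f3, f4, f5, f6⟩ := key p hp u hu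
    exact ⟨F, f2, f4, f5⟩
  · obtain ⟨d1, d2⟩ := hΨ p hp v hv
    obtain ⟨F, F', f1, f2, f3, f4, f5, f6⟩ := key p hp _ d1
    rw [d2] at f3 f6
    exact ⟨F', f3, f6⟩

end

end Crest.Agent.R281.Eh3_461
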