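import Crest.Agent.R281.Eh3_461
import Crest.Agent.R281.Ehr2_268

/-!
# R281 (S0424), EHR-LOC, part 4 (helper461): the interface `ConeMap` of helper268
-/

set_option autoImplicit false

open Set Filter Topology
open scoped ContDiff

namespace Crest.Agent.R281.Eh4_461

open Crest.Agent.R281.Eh1_461 Crest.Agent.R281.Eh2_461 Crest.Agent.R281.Eh3_461

variable {E : Type} [NormedAddCommGroup E] [NormedSpace ℂ E] [CompleteSpace E]
variable {H : Type} [NormedAddCommGroup H] [InnerProductSpace ℂ H] [CompleteSpace H]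
  [FiniteDimensional ℂ H]

theorem coneMap_of_triv {S : Set (E × H)} {c0 : E} (hF : Fam S c0) {r ε : ℝ} {Φ Ψ : E → H → H}
    (h : Triv S c0 r ε Φ Ψ) : Ehr2_268.ConeMap S c0 r Φ Ψ where
  hr := h.rpos
  ne := fun q hq => hF.ne q.1 q.2 hq
  cone := fun q hq a ha => hF.conic q.1 q.2 a ha hq
  id0 := h.base
  hom := h.hom
  maps := h.maps
  maps' := h.maps'
  left := h.left
  right := h.right
  ext := fun c hc w hw => by
    obtain ⟨F, h1, h2, h3⟩ := h.ext c hc w hw
    exact ⟨F, h1, h3.mono fun q hq hq' => (hq hq').symm, h2⟩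
  ext' := fun c hc w hw => by
    obtain ⟨F, h1, h2⟩ := h.ext' c hc w hw
    exact ⟨F, h1, h2.mono fun q hq hq' => (hq hq').symm⟩

theorem exists_coneMap {S : Set (E × H)} {c0 : E} (hF : Fam S c0) :
    ∃ (r : ℝ) (Φ Ψ : E → H → H), Ehr2_268.ConeMap S c0 r Φ Ψ := by
  obtain ⟨r, ε, Φ, Ψ, h⟩ := exists_triv hF
  exact ⟨r, Φ, Ψ, coneMap_of_triv hF h⟩

/-- local equations in the form of helper268, at the base parameter and nearby ones -/
theorem locEq_of_analytic {S : Set (E × H)} {k : ℕ} {q : E × H}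
    {h : E × H → EuclideanSpace ℂ (Fin k)} (hA : AnalyticAt ℂ h q)
    (hs : Function.Surjective (fderiv ℂ (fun v => h (q.1, v)) q.2))
    (hS : ∀ᶠ p in 𝓝 q, p ∈ S ↔ h p = 0) : LocEq S q.1 q.2 ∧ Ehr2_268.LocEq S k q := by
  refine ⟨⟨k, h, hA, hs, hS⟩, h, hA.differentiableAt, ?_, hS⟩
  have h1 : HasFDerivAt (fun v => h (q.1, v))
      ((fderiv ℂ h q).comp (ContinuousLinearMap.inr ℂ E H)) q.2 :=
    HasFDerivAt.comp (f := fun v : H => (q.1, v)) (g := h) q.2 hA.differentiableAt.hasFDerivAt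
      (hasFDerivAt_prodMk_right _ _)
  rw [← h1.fderiv]
  exact hs

end Crest.Agent.R281.Eh4_461
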