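import Mathlib

/-!
# R281 (S0424), CFAM-INST (helper461), part 1: the complex structure of an immersion into `P(H)`

Pointwise data: `D : V →L[ℝ] H` (differential of homogeneous coordinates), `u : H` (their value).

* `IR D u v v'`  : `i · D v = D v' + c · u` for some scalar `c`
* `Imm D u`      : `u ≠ 0` and `D v` is not a multiple of `u` for `v ≠ 0`
* `Jof D u`      : the complex structure, `Jof_spec`, `Jof_eq`
* `Jof_contDiffAt` : depends smoothly on `(D, u)`
* `prop_deriv`   : differentials of proportional maps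
-/

set_option autoImplicit false
set_option linter.unusedSectionVars false

open Filter Topology Complex Set
open scoped ContDiff

namespace Crest.Agent.R281.Ehj_461

noncomputable section

variable {V H : Type*} [NormedAddCommGroup V] [NormedSpace ℝ V]
  [NormedAddCommGroup H] [NormedSpace ℂ H]

/-- `v' = J v` -/
def IR (D : V →L[ℝ] H) (u : H) (v v' : V) : Prop := ∃ c : ℂ, I • D v = D v' + c • u

/-- immersion into the projective space -/
structure Imm (D : V →L[ℝ] H) (u : H) : Prop where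
  ne : u ≠ 0
  inj : ∀ v, (∃ a : ℂ, D v = a • u) → v = 0

/-- the tangent space of the image is complex -/
def CxD (D : V →L[ℝ] H) (u : H) : Prop := ∀ v, ∃ v', IR D u v v'

theorem IR.uniq {D : V →L[ℝ] H} {u : H} (hi : Imm D u) {v v' v'' : V} (h : IR D u v v')
    (h' : IR D u v v'') : v' = v'' := by
  obtain ⟨c, hc⟩ := h
  obtain ⟨c', hc'⟩ := h'
  refine sub_eq_zero.1 (hi.inj (v' - v'') ⟨c' - c, ?_⟩)
  rw [map_sub, sub_smul, sub_eq_sub_iff_add_eq_add, ← hc, add_comm, ← hc']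

/-- the relation does not depend on the homogeneous coordinates -/
theorem IR.scale {D D' : V →L[ℝ] H} {u u' : H} {l : ℂ} {dl : V → ℂ} (hu : u' = l • u)
    (hl : l ≠ 0) (hD : ∀ v, D' v = l • D v + dl v • u) {v v' : V} (h : IR D u v v') :
    IR D' u' v v' := by
  obtain ⟨c, hc⟩ := h
  refine ⟨(I * dl v + l * c - dl v') * l⁻¹, ?_⟩
  have e1 : ((I * dl v + l * c - dl v') * l⁻¹) • u' = (I * dl v + l * c - dl v') • u := by
    rw [hu, smul_smul, inv_mul_cancel_right₀ hl]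
  rw [e1, hD, hD, smul_add, smul_comm I l, hc]
  module

theorem Imm.scale {D D' : V →L[ℝ] H} {u u' : H} {l : ℂ} {dl : V → ℂ} (hu : u' = l • u)
    (hl : l ≠ 0) (hD : ∀ v, D' v = l • D v + dl v • u) (h : Imm D u) : Imm D' u' := by
  refine ⟨by rw [hu]; exact smul_ne_zero hl h.ne, ?_⟩
  rintro v ⟨a, ha⟩
  refine h.inj v ⟨l⁻¹ * (a * l - dl v), ?_⟩
  rw [hD, hu] at ha
  have e1 : l • D v = (a * l - dl v) • u := by
    rw [sub_smul, mul_smul]
    exact eq_sub_of_add_eq ha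
  rw [mul_smul, ← e1, smul_smul, inv_mul_cancel₀ hl, one_smul]

/-- `(v, a) ↦ D v + a u` -/
def TD (D : V →L[ℝ] H) (u : H) : (V × ℂ) →L[ℝ] H :=
  D.comp (ContinuousLinearMap.fst ℝ V ℂ) +
    ((ContinuousLinearMap.lsmul ℝ ℂ).flip u).comp (ContinuousLinearMap.snd ℝ V ℂ)

@[simp] theorem TD_apply (D : V →L[ℝ] H) (u : H) (p : V × ℂ) : TD D u p = D p.1 + p.2 • u := rfl

theorem TD_inj {D : V →L[ℝ] H} {u : H} (h : Imm D u) : Function.Injective (TD D u) := by
  rw [injective_iff_map_eq_zero]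
  rintro ⟨v, a⟩ hv
  rw [TD_apply] at hv
  have h2 : v = 0 := h.inj v ⟨-a, by rw [neg_smul]; exact eq_neg_of_add_eq_zero_left hv⟩
  subst h2
  simp only [map_zero, zero_add] at hv
  have h3 : a = 0 := (smul_eq_zero.mp hv).resolve_right h.ne
  rw [h3]; rfl

/-- multiplication by `i` -/
def mulI (H : Type*) [NormedAddCommGroup H] [NormedSpace ℂ H] : H →L[ℝ] H :=
  ContinuousLinearMap.lsmul ℝ ℂ I

@[simp] theorem mulI_apply (w : H) : mulI H w = I • w := rfl

open Classical in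
/-- the complex structure -/
def Jof (D : V →L[ℝ] H) (u : H) : V →L[ℝ] V :=
  if h : ∃ J : V →L[ℝ] V, ∀ v, IR D u v (J v) then h.choose else 0

theorem Jof_eq {D : V →L[ℝ] H} {u : H} (hi : Imm D u) {J : V →L[ℝ] V}
    (hJ : ∀ v, IR D u v (J v)) : Jof D u = J := by
  have h : ∃ J : V →L[ℝ] V, ∀ v, IR D u v (J v) := ⟨J, hJ⟩
  rw [Jof, dif_pos h]
  ext v
  exact (h.choose_spec v).uniq hi (hJ v)

/-- the complex structure from a left inverse of `TD` -/
def JL (L : H →L[ℝ] V × ℂ) (D : V →L[ℝ] H) : V →L[ℝ] V :=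
  (ContinuousLinearMap.fst ℝ V ℂ).comp (L.comp ((mulI H).comp D))

theorem JL_spec {L : H →L[ℝ] V × ℂ} {D : V →L[ℝ] H} {u : H} (hL : ∀ p, L (TD D u p) = p)
    (hc : CxD D u) (v : V) : IR D u v (JL L D v) := by
  obtain ⟨v', c, h⟩ := hc v
  have e1 : JL L D v = (L (I • D v)).1 := rfl
  have e2 : I • D v = TD D u (v', c) := by rw [TD_apply]; exact h
  rw [e1, e2, hL]
  exact ⟨c, h⟩

theorem imm_of_left {L : H →L[ℝ] V × ℂ} {D : V →L[ℝ] H} {u : H} (hL : ∀ p, L (TD D u p) = p) :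
    Imm D u := by
  refine ⟨?_, ?_⟩
  · rintro rfl
    have h := hL (0, 1)
    rw [TD_apply] at h
    simp only [map_zero, smul_zero, add_zero] at h
    exact one_ne_zero (congrArg Prod.snd h).symm
  · rintro v ⟨a, ha⟩
    have h := hL (v, -a)
    rw [TD_apply] at h
    simp only [ha, neg_smul, add_neg_cancel, map_zero] at h
    exact (congrArg Prod.fst h).symm

variable [FiniteDimensional ℝ V] [FiniteDimensional ℂ H]

theorem exists_left {D : V →L[ℝ] H} {u : H} (h : Imm D u) :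
    ∃ L : H →L[ℝ] V × ℂ, ∀ p, L (TD D u p) = p := by
  have : FiniteDimensional ℝ H := FiniteDimensional.complexToReal H
  obtain ⟨L, hL⟩ := ((TD D u : (V × ℂ) →ₗ[ℝ] H)).exists_leftInverse_of_injective
    (LinearMap.ker_eq_bot.mpr (TD_inj h))
  refine ⟨LinearMap.toContinuousLinearMap L, fun p => ?_⟩
  exact congrArg (fun T : (V × ℂ) →ₗ[ℝ] (V × ℂ) => T p) hL

theorem Jof_spec {D : V →L[ℝ] H} {u : H} (hi : Imm D u) (hc : CxD D u) (v : V) :
    IR D u v (Jof D u v) := by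
  obtain ⟨L, hL⟩ := exists_left hi
  rw [Jof_eq hi (JL_spec hL hc)]
  exact JL_spec hL hc v

theorem Jof_contDiffAt {W : Type*} [NormedAddCommGroup W] [NormedSpace ℝ W] {n : WithTop ℕ∞}
    {D : W → V →L[ℝ] H} {u : W → H} {p0 : W} (hD : ContDiffAt ℝ n D p0) (hu : ContDiffAt ℝ n u p0)
    (hi : Imm (D p0) (u p0)) (hc : ∀ᶠ p in 𝓝 p0, CxD (D p) (u p)) :
    ContDiffAt ℝ n (fun p => Jof (D p) (u p)) p0 := by
  obtain ⟨L0, hL0⟩ := exists_left hi
  let M : W → (V × ℂ) →L[ℝ] (V × ℂ) := fun p => L0.comp (TD (D p) (u p))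
  have hM0 : M p0 = 1 := ContinuousLinearMap.ext fun p => hL0 p
  have hTD : ContDiffAt ℝ n (fun p => TD (D p) (u p)) p0 := by
    have h1 : ContDiffAt ℝ n (fun p => (D p).comp (ContinuousLinearMap.fst ℝ V ℂ)) p0 :=
      hD.clm_comp contDiffAt_const
    have h2 : ContDiffAt ℝ n (fun p => ((ContinuousLinearMap.lsmul ℝ ℂ).flip (u p) :
        ℂ →L[ℝ] H)) p0 :=
      ContDiffAt.comp (f := u) (g := fun w => ((ContinuousLinearMap.lsmul ℝ ℂ).flip w :
        ℂ →L[ℝ] H)) p0 (by exact (ContinuousLinearMap.contDiff _).contDiffAt) hu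
    exact h1.add (h2.clm_comp contDiffAt_const)
  have hM : ContDiffAt ℝ n M p0 := contDiffAt_const.clm_comp hTD
  have hMc : ContinuousAt M p0 := hM.continuousAt
  have hunit : ∀ᶠ p in 𝓝 p0, IsUnit (M p) := by
    have h1 : {x : (V × ℂ) →L[ℝ] (V × ℂ) | IsUnit x} ∈ 𝓝 (M p0) :=
      Units.isOpen.mem_nhds (by rw [hM0]; exact isUnit_one)
    exact hMc h1
  have hinv : ContDiffAt ℝ n (fun p => Ring.inverse (M p)) p0 := by
    have h1 : ContDiffAt ℝ n (Ring.inverse : ((V × ℂ) →L[ℝ] (V × ℂ)) → _) (M p0) := by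
      have h2 := contDiffAt_ringInverse ℝ (R := (V × ℂ) →L[ℝ] (V × ℂ)) (n := n) 1
      rw [hM0]
      exact h2
    exact h1.comp p0 hM
  have hJ : ContDiffAt ℝ n (fun p => JL ((Ring.inverse (M p)).comp L0) (D p)) p0 := by
    unfold JL
    exact contDiffAt_const.clm_comp ((hinv.clm_comp contDiffAt_const).clm_comp
      (contDiffAt_const.clm_comp hD))
  refine hJ.congr_of_eventuallyEq ?_
  filter_upwards [hunit, hc] with p h1 h2
  have hL : ∀ q, ((Ring.inverse (M p)).comp L0) (TD (D p) (u p) q) = q := by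
    intro q
    have h3 : Ring.inverse (M p) * M p = 1 := Ring.inverse_mul_cancel _ h1
    exact congrArg (fun T : (V × ℂ) →L[ℝ] (V × ℂ) => T q) h3
  exact Jof_eq (imm_of_left hL) (JL_spec hL h2)

omit [FiniteDimensional ℝ V] [FiniteDimensional ℂ H] in
/-- differentials of proportional maps -/
theorem prop_deriv {W R : V → H} {z : V} (hW : DifferentiableAt ℝ W z)
    (hR : DifferentiableAt ℝ R z) (hW0 : W z ≠ 0) (h : ∀ᶠ y in 𝓝 z, ∃ k : ℂ, R y = k • W y) :
    ∃ (l : ℂ) (dl : V → ℂ), R z = l • W z ∧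
      ∀ v, fderiv ℝ R z v = l • fderiv ℝ W z v + dl v • W z := by
  obtain ⟨f, -, hf⟩ := exists_dual_vector ℂ (W z) (norm_ne_zero_iff.mpr hW0)
  have hf0 : f (W z) ≠ 0 := by rw [hf]; simpa using hW0
  let fr : H →L[ℝ] ℂ := f.restrictScalars ℝ
  have hfW : HasFDerivAt (fun y => f (W y)) (fr.comp (fderiv ℝ W z)) z :=
    fr.hasFDerivAt.comp z hW.hasFDerivAt
  have hfR : HasFDerivAt (fun y => f (R y)) (fr.comp (fderiv ℝ R z)) z :=
    fr.hasFDerivAt.comp z hR.hasFDerivAt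
  have hl : DifferentiableAt ℝ (fun y => f (R y) * (f (W y))⁻¹) z :=
    hfR.differentiableAt.mul (hfW.differentiableAt.inv hf0)
  set l : V → ℂ := fun y => f (R y) * (f (W y))⁻¹ with hld
  have hRl : ∀ᶠ y in 𝓝 z, R y = l y • W y := by
    filter_upwards [h, hfW.continuousAt.eventually_ne hf0] with y hy hy0
    obtain ⟨k, e⟩ := hy
    have h5 : l y = k := by
      show f (R y) * (f (W y))⁻¹ = k
      rw [e, map_smul, smul_eq_mul, mul_assoc, mul_inv_cancel₀ hy0, mul_one]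
    rw [h5, e]
  refine ⟨l z, fun v => fderiv ℝ l z v, hRl.self_of_nhds, fun v => ?_⟩
  have h6 := hl.hasFDerivAt.smul hW.hasFDerivAt
  have h7 : R =ᶠ[𝓝 z] fun y => l y • W y := hRl
  have h8 := (h6.congr_of_eventuallyEq h7).unique hR.hasFDerivAt
  rw [← h8]
  simp

end

end Crest.Agent.R281.Ehj_461
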