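import Crest.Agent.R281.HkR2_835

/-!
# Row 281, HK-ROT, part 3 (helper835): change of the system of real charts

* `pb w φ z`        : pull back of a field of bilinear forms, `contDiffOn_pb`, `pb_closed`
* `Cmp C C'`        : the two systems of real charts of `X` are smoothly compatible
* `Cmp.F`           : `F2 C → F2 C'`, `Cmp.F_w` (value read in any chart `i` of `C`)
* `Cmp.hk`          : `HkT C → HkT C'`
-/

set_option autoImplicit false

open Set Filter Topology Complex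
open scoped ContDiff

namespace Crest.Agent.R281.HkR_835

open Crest.Agent.R260.ACM_580

noncomputable section

section pb

variable {V V' : Type*} [NormedAddCommGroup V] [NormedSpace ℝ V] [NormedAddCommGroup V']
  [NormedSpace ℝ V']

/-- pull back of a field of bilinear forms -/
def pb (w : V → Bil V) (φ : V' → V) (z : V') : Bil V' :=
  (w (φ z)).bilinearComp (fderiv ℝ φ z) (fderiv ℝ φ z)

@[simp] theorem pb_apply (w : V → Bil V) (φ : V' → V) (z u v : V') :
    pb w φ z u v = w (φ z) (fderiv ℝ φ z u) (fderiv ℝ φ z v) := rfl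

theorem contDiffOn_pb {w : V → Bil V} {φ : V' → V} {U : Set V} {U' : Set V'} (hU' : IsOpen U')
    (hw : ContDiffOn ℝ ∞ w U) (hφ : ContDiffOn ℝ ∞ φ U') (hm : MapsTo φ U' U) :
    ContDiffOn ℝ ∞ (pb w φ) U' := by
  have h1 : ContDiffOn ℝ ∞ (fun z => w (φ z)) U' := hw.comp hφ hm
  have h2 : ContDiffOn ℝ ∞ (fderiv ℝ φ) U' := hφ.fderiv_of_isOpen hU' (by simp)
  have h3 : ContDiffOn ℝ ∞ (fun z => (w (φ z)).comp (fderiv ℝ φ z)) U' := h1.clm_comp h2
  have hb : ContDiff ℝ ∞ (fun T : V' →L[ℝ] V => (ContinuousLinearMap.compL ℝ V' V ℝ).flip T) := by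
    fun_prop
  have h4 : ContDiffOn ℝ ∞ (fun z => (ContinuousLinearMap.compL ℝ V' V ℝ).flip (fderiv ℝ φ z)) U' :=
    hb.comp_contDiffOn h2
  exact h4.clm_comp h3

theorem fderiv_pb {w : V → Bil V} {φ : V' → V} {z : V'} (hw : DifferentiableAt ℝ w (φ z))
    (hφ : DifferentiableAt ℝ φ z) (hφ2 : DifferentiableAt ℝ (fderiv ℝ φ) z)
    (hp : DifferentiableAt ℝ (pb w φ) z) (a u v : V') :
    fderiv ℝ (pb w φ) z a u v =
      fderiv ℝ w (φ z) (fderiv ℝ φ z a) (fderiv ℝ φ z u) (fderiv ℝ φ z v) +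
        w (φ z) (fderiv ℝ (fderiv ℝ φ) z a u) (fderiv ℝ φ z v) +
        w (φ z) (fderiv ℝ φ z u) (fderiv ℝ (fderiv ℝ φ) z a v) := by
  rw [← fderiv_app hp]
  have h0 : HasFDerivAt w (fderiv ℝ w (φ z)) (φ z) := hw.hasFDerivAt
  have h1 : HasFDerivAt (fun y => w (φ y)) ((fderiv ℝ w (φ z)).comp (fderiv ℝ φ z)) z :=
    HasFDerivAt.comp (g := w) (f := φ) z h0 hφ.hasFDerivAt
  have h2 : HasFDerivAt (fderiv ℝ φ) (fderiv ℝ (fderiv ℝ φ) z) z := hφ2.hasFDerivAt
  have h3 : HasFDerivAt (fun y => fderiv ℝ φ y u) _ z := h2.clm_apply (hasFDerivAt_const u z)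
  have h4 : HasFDerivAt (fun y => fderiv ℝ φ y v) _ z := h2.clm_apply (hasFDerivAt_const v z)
  have h5 := ((h1.clm_apply h3).clm_apply h4).fderiv
  have h6 : (fun y => pb w φ y u v) = fun y => w (φ y) (fderiv ℝ φ y u) (fderiv ℝ φ y v) := rfl
  rw [h6, h5]
  simp
  ring

theorem pb_closed {w : V → Bil V} {φ : V' → V} {U : Set V} {U' : Set V'} (hU' : IsOpen U')
    (hU : IsOpen U) (hw : ContDiffOn ℝ ∞ w U) (hφ : ContDiffOn ℝ ∞ φ U') (hm : MapsTo φ U' U)
    (ha : ∀ z ∈ U, ∀ u v, w z u v = -w z v u)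
    (hc : ∀ z ∈ U, ∀ a b c, fderiv ℝ w z a b c + fderiv ℝ w z b c a + fderiv ℝ w z c a b = 0)
    {z : V'} (hz : z ∈ U') (a b c : V') :
    fderiv ℝ (pb w φ) z a b c + fderiv ℝ (pb w φ) z b c a + fderiv ℝ (pb w φ) z c a b = 0 := by
  have d1 : DifferentiableAt ℝ w (φ z) :=
    (hw.contDiffAt (hU.mem_nhds (hm hz))).differentiableAt (by simp)
  have d2 : ContDiffAt ℝ ∞ φ z := hφ.contDiffAt (hU'.mem_nhds hz)
  have d3 : DifferentiableAt ℝ φ z := d2.differentiableAt (by simp)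
  have d4 : DifferentiableAt ℝ (fderiv ℝ φ) z :=
    ((hφ.fderiv_of_isOpen hU' (m := ∞) (by simp)).contDiffAt (hU'.mem_nhds hz)).differentiableAt
      (by simp)
  have d5 : DifferentiableAt ℝ (pb w φ) z :=
    ((contDiffOn_pb hU' hw hφ hm).contDiffAt (hU'.mem_nhds hz)).differentiableAt (by simp)
  have hs : ∀ p q, fderiv ℝ (fderiv ℝ φ) z p q = fderiv ℝ (fderiv ℝ φ) z q p := fun p q =>
    (d2.isSymmSndFDerivAt (by
      rw [minSmoothness_of_isRCLikeNormedField]; exact WithTop.coe_le_coe.2 le_top)) p q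
  rw [fderiv_pb d1 d3 d4 d5, fderiv_pb d1 d3 d4 d5, fderiv_pb d1 d3 d4 d5]
  have e1 := hc (φ z) (hm hz) (fderiv ℝ φ z a) (fderiv ℝ φ z b) (fderiv ℝ φ z c)
  have e2 := ha (φ z) (hm hz) (fderiv ℝ (fderiv ℝ φ) z a b) (fderiv ℝ φ z c)
  have e3 := ha (φ z) (hm hz) (fderiv ℝ (fderiv ℝ φ) z b c) (fderiv ℝ φ z a)
  have e4 := ha (φ z) (hm hz) (fderiv ℝ (fderiv ℝ φ) z c a) (fderiv ℝ φ z b)
  rw [hs c b, hs a c, hs b a]
  linarith

end pb

variable {V V' X : Type} [NormedAddCommGroup V] [NormedSpace ℝ V] [NormedAddCommGroup V']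
  [NormedSpace ℝ V'] [TopologicalSpace X]

/-- the chart `j` of `C'` and the chart `i` of `C`, overlap seen in `C'.e j` -/
def mov (C : RCh V X) (C' : RCh V' X) (i : C.ι) (j : C'.ι) : Set V' :=
  {z | z ∈ (C'.e j).target ∧ (C'.e j).symm z ∈ (C.e i).source}

/-- the transition from `C'.e j` to `C.e i` -/
def mt (C : RCh V X) (C' : RCh V' X) (i : C.ι) (j : C'.ι) (z : V') : V :=
  C.e i ((C'.e j).symm z)

/-- compatible systems of charts -/
structure Cmp (C : RCh V X) (C' : RCh V' X) : Prop where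
  s : ∀ i j, ContDiffOn ℝ ∞ (mt C C' i j) (mov C C' i j)
  s' : ∀ i j, ContDiffOn ℝ ∞ (mt C' C j i) (mov C' C j i)

namespace Cmp

variable {C : RCh V X} {C' : RCh V' X}

theorem symm (h : Cmp C C') : Cmp C' C := ⟨fun i j => h.s' j i, fun i j => h.s j i⟩

theorem isOpen_mov (C : RCh V X) (C' : RCh V' X) (i : C.ι) (j : C'.ι) : IsOpen (mov C C' i j) :=
  (C'.e j).isOpen_inter_preimage_symm (C.e i).open_source

theorem mt_mem {i : C.ι} {j : C'.ι} {z : V'} (hz : z ∈ mov C C' i j) :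
    mt C C' i j z ∈ mov C' C j i := by
  refine ⟨(C.e i).map_source hz.2, ?_⟩
  show (C.e i).symm (C.e i ((C'.e j).symm z)) ∈ (C'.e j).source
  rw [(C.e i).left_inv hz.2]
  exact (C'.e j).map_target hz.1

theorem mt_mt {i : C.ι} {j : C'.ι} {z : V'} (hz : z ∈ mov C C' i j) :
    mt C' C j i (mt C C' i j z) = z := by
  show C'.e j ((C.e i).symm (C.e i ((C'.e j).symm z))) = z
  rw [(C.e i).left_inv hz.2, (C'.e j).right_inv hz.1]

theorem diff (h : Cmp C C') {i : C.ι} {j : C'.ι} {z : V'} (hz : z ∈ mov C C' i j) :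
    DifferentiableAt ℝ (mt C C' i j) z :=
  ((h.s i j).contDiffAt ((isOpen_mov C C' i j).mem_nhds hz)).differentiableAt (by simp)

theorem d_d (h : Cmp C C') {i : C.ι} {j : C'.ι} {z : V'} (hz : z ∈ mov C C' i j) (v : V') :
    fderiv ℝ (mt C' C j i) (mt C C' i j z) (fderiv ℝ (mt C C' i j) z v) = v := by
  have h1 : (fun y => mt C' C j i (mt C C' i j y)) =ᶠ[𝓝 z] id := by
    filter_upwards [(isOpen_mov C C' i j).mem_nhds hz] with y hy using mt_mt hy
  have h2 := ((h.symm.diff (mt_mem hz)).hasFDerivAt.comp z (h.diff hz).hasFDerivAt).fderiv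
  have h3 : (mt C' C j i ∘ mt C C' i j) = fun y => mt C' C j i (mt C C' i j y) := rfl
  rw [h3, h1.fderiv_eq] at h2
  have := congrArg (fun T : V' →L[ℝ] V' => T v) h2
  simpa using this.symm

theorem d_d' (h : Cmp C C') {i : C.ι} {j : C'.ι} {z : V'} (hz : z ∈ mov C C' i j) (v : V) :
    fderiv ℝ (mt C C' i j) z (fderiv ℝ (mt C' C j i) (mt C C' i j z) v) = v := by
  have h1 := h.symm.d_d (mt_mem hz) v
  rwa [mt_mt hz] at h1

/-- change of `i` -/
theorem mt_t {i i' : C.ι} {j : C'.ι} {z : V'} (hz : z ∈ mov C C' i j) :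
    C.t i i' (mt C C' i j z) = mt C C' i' j z := by
  show C.e i' ((C.e i).symm (C.e i ((C'.e j).symm z))) = C.e i' ((C'.e j).symm z)
  rw [(C.e i).left_inv hz.2]

theorem mt_ov {i i' : C.ι} {j : C'.ι} {z : V'} (hz : z ∈ mov C C' i j) (hz' : z ∈ mov C C' i' j) :
    mt C C' i j z ∈ C.ov i i' := by
  refine ⟨(C.e i).map_source hz.2, ?_⟩
  show (C.e i).symm (C.e i ((C'.e j).symm z)) ∈ (C.e i').source
  rw [(C.e i).left_inv hz.2]
  exact hz'.2

theorem dmt_t (h : Cmp C C') {i i' : C.ι} {j : C'.ι} {z : V'} (hz : z ∈ mov C C' i j)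
    (hz' : z ∈ mov C C' i' j) (v : V') :
    fderiv ℝ (C.t i i') (mt C C' i j z) (fderiv ℝ (mt C C' i j) z v) =
      fderiv ℝ (mt C C' i' j) z v := by
  have h1 : (fun y => C.t i i' (mt C C' i j y)) =ᶠ[𝓝 z] mt C C' i' j := by
    filter_upwards [(isOpen_mov C C' i j).mem_nhds hz] with y hy using mt_t hy
  have h2 := ((RCh.t_diff (mt_ov hz hz')).hasFDerivAt.comp z (h.diff hz).hasFDerivAt).fderiv
  have h3 : (C.t i i' ∘ mt C C' i j) = fun y => C.t i i' (mt C C' i j y) := rfl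
  rw [h3, h1.fderiv_eq] at h2
  exact (congrArg (fun T : V' →L[ℝ] V => T v) h2).symm

/-- change of `j` -/
theorem t_mt {i : C.ι} {j j' : C'.ι} {z : V'} (hz : z ∈ C'.ov j j') :
    mt C C' i j' (C'.t j j' z) = mt C C' i j z := by
  show C.e i ((C'.e j').symm (C'.e j' ((C'.e j).symm z))) = C.e i ((C'.e j).symm z)
  rw [(C'.e j').left_inv hz.2]

theorem t_mov {i : C.ι} {j j' : C'.ι} {z : V'} (hz : z ∈ C'.ov j j') (hz' : z ∈ mov C C' i j) :
    C'.t j j' z ∈ mov C C' i j' := by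
  refine ⟨(C'.e j').map_source hz.2, ?_⟩
  show (C'.e j').symm (C'.e j' ((C'.e j).symm z)) ∈ (C.e i).source
  rw [(C'.e j').left_inv hz.2]
  exact hz'.2

theorem dt_mt (h : Cmp C C') {i : C.ι} {j j' : C'.ι} {z : V'} (hz : z ∈ C'.ov j j')
    (hz' : z ∈ mov C C' i j) (v : V') :
    fderiv ℝ (mt C C' i j') (C'.t j j' z) (fderiv ℝ (C'.t j j') z v) =
      fderiv ℝ (mt C C' i j) z v := by
  have h1 : (fun y => mt C C' i j' (C'.t j j' y)) =ᶠ[𝓝 z] mt C C' i j := by
    filter_upwards [(RCh.isOpen_ov j j').mem_nhds hz] with y hy using t_mt hy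
  have h2 := ((h.diff (t_mov hz hz')).hasFDerivAt.comp z (RCh.t_diff hz).hasFDerivAt).fderiv
  have h3 : (mt C C' i j' ∘ C'.t j j') = fun y => mt C C' i j' (C'.t j j' y) := rfl
  rw [h3, h1.fderiv_eq] at h2
  exact (congrArg (fun T : V' →L[ℝ] V => T v) h2).symm

/-- a chart of `C` around the point with coordinate `z` in `C'.e j` -/
def idx (C : RCh V X) (C' : RCh V' X) (j : C'.ι) (z : V') : C.ι :=
  Classical.choose (C.cover ((C'.e j).symm z))

theorem idx_mem {j : C'.ι} {z : V'} (hz : z ∈ (C'.e j).target) :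
    z ∈ mov C C' (idx C C' j z) j :=
  ⟨hz, Classical.choose_spec (C.cover ((C'.e j).symm z))⟩

theorem exists_mov (C : RCh V X) {j : C'.ι} {z : V'} (hz : z ∈ (C'.e j).target) :
    ∃ i, z ∈ mov C C' i j := ⟨_, idx_mem hz⟩

/-- a 2-form read in the charts of `C'` -/
def w' (C' : RCh V' X) (w : F2 C) (j : C'.ι) (z : V') : Bil V' :=
  pb (w.w (idx C C' j z)) (mt C C' (idx C C' j z) j) z

theorem w'_eq (h : Cmp C C') (w : F2 C) {i : C.ι} {j : C'.ι} {z : V'} (hz : z ∈ mov C C' i j) :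
    w' C' w j z = pb (w.w i) (mt C C' i j) z := by
  have h1 := idx_mem (C := C) (C' := C') hz.1
  ext u v
  rw [w', pb_apply, pb_apply, w.tr _ i _ (mt_ov h1 hz), mt_t h1, h.dmt_t h1 hz, h.dmt_t h1 hz]

/-- **change of charts for 2-forms** -/
def F (h : Cmp C C') (w : F2 C) : F2 C' where
  w := w' C' w
  sm j := by
    intro z hz
    obtain ⟨i, hi⟩ := exists_mov C hz
    have h1 : ContDiffOn ℝ ∞ (pb (w.w i) (mt C C' i j)) (mov C C' i j) :=
      contDiffOn_pb (isOpen_mov C C' i j) (w.sm i) (h.s i j) fun y hy => (mt_mem hy).1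
    have h2 : ContDiffAt ℝ ∞ (w' C' w j) z :=
      (h1.contDiffAt ((isOpen_mov C C' i j).mem_nhds hi)).congr_of_eventuallyEq (by
        filter_upwards [(isOpen_mov C C' i j).mem_nhds hi] with y hy using w'_eq h w hy)
    exact h2.contDiffWithinAt
  alt j z hz u v := by
    obtain ⟨i, hi⟩ := exists_mov C hz
    rw [w'_eq h w hi, pb_apply, pb_apply, w.alt i _ (mt_mem hi).1]
  tr j j' z hz u v := by
    obtain ⟨i, hi⟩ := exists_mov C hz.1
    rw [w'_eq h w hi, w'_eq h w (t_mov hz hi), pb_apply, pb_apply, h.dt_mt hz hi, h.dt_mt hz hi,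
      t_mt hz]
  closed j z hz a b c := by
    obtain ⟨i, hi⟩ := exists_mov C hz
    have h1 : w' C' w j =ᶠ[𝓝 z] pb (w.w i) (mt C C' i j) := by
      filter_upwards [(isOpen_mov C C' i j).mem_nhds hi] with y hy using w'_eq h w hy
    rw [h1.fderiv_eq]
    exact pb_closed (isOpen_mov C C' i j) (C.e i).open_target (w.sm i) (h.s i j)
      (fun y hy => (mt_mem hy).1) (w.alt i) (w.closed i) hi a b c

theorem F_w (h : Cmp C C') (w : F2 C) {i : C.ι} {j : C'.ι} {z : V'} (hz : z ∈ mov C C' i j)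
    (u v : V') : (h.F w).w j z u v = w.w i (mt C C' i j z) (fderiv ℝ (mt C C' i j) z u)
      (fderiv ℝ (mt C C' i j) z v) := by
  show w' C' w j z u v = _
  rw [w'_eq h w hz, pb_apply]

variable (H : HkT C)

/-- an endomorphism read in the charts of `C'` -/
def J' (C' : RCh V' X) (k : Fin 3) (i : C.ι) (j : C'.ι) (z : V') : V' →L[ℝ] V' :=
  (fderiv ℝ (mt C' C j i) (mt C C' i j z)).comp
    ((H.J k i (mt C C' i j z)).comp (fderiv ℝ (mt C C' i j) z))

theorem dJ' (h : Cmp C C') (k : Fin 3) {i : C.ι} {j : C'.ι} {z : V'} (hz : z ∈ mov C C' i j)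
    (v : V') : fderiv ℝ (mt C C' i j) z (J' H C' k i j z v) =
      H.J k i (mt C C' i j z) (fderiv ℝ (mt C C' i j) z v) := by
  simp only [J', ContinuousLinearMap.coe_comp, Function.comp_apply]
  rw [h.d_d' hz]

theorem inj (h : Cmp C C') {i : C.ι} {j : C'.ι} {z : V'} (hz : z ∈ mov C C' i j) {u v : V'}
    (he : fderiv ℝ (mt C C' i j) z u = fderiv ℝ (mt C C' i j) z v) : u = v := by
  rw [← h.d_d hz u, he, h.d_d hz v]

theorem J'_eq (h : Cmp C C') (k : Fin 3) {i i' : C.ι} {j : C'.ι} {z : V'}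
    (hz : z ∈ mov C C' i j) (hz' : z ∈ mov C C' i' j) : J' H C' k i j z = J' H C' k i' j z := by
  ext v
  refine h.inj hz' ?_
  rw [dJ' H h k hz', ← h.dmt_t hz hz', dJ' H h k hz, H.J_tr k (mt_ov hz hz'), mt_t hz,
    h.dmt_t hz hz']

theorem J'_sm (h : Cmp C C') (k : Fin 3) (i : C.ι) (j : C'.ι) :
    ContDiffOn ℝ ∞ (J' H C' k i j) (mov C C' i j) := by
  have h0 := isOpen_mov C C' i j
  have h1 : ContDiffOn ℝ ∞ (fderiv ℝ (mt C C' i j)) (mov C C' i j) :=
    (h.s i j).fderiv_of_isOpen h0 (by simp)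
  have h2 : ContDiffOn ℝ ∞ (fderiv ℝ (mt C' C j i)) (mov C' C j i) :=
    (h.s' i j).fderiv_of_isOpen (isOpen_mov C' C j i) (by simp)
  have h3 : ContDiffOn ℝ ∞ (fun z => fderiv ℝ (mt C' C j i) (mt C C' i j z)) (mov C C' i j) :=
    h2.comp (h.s i j) fun z hz => mt_mem hz
  have h4 : ContDiffOn ℝ ∞ (fun z => H.J k i (mt C C' i j z)) (mov C C' i j) :=
    (H.J_sm k i).comp (h.s i j) fun z hz => (mt_mem hz).1
  exact h3.clm_comp (h4.clm_comp h1)

/-- **change of charts for hyperkaehler triples** -/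
def hk (h : Cmp C C') : HkT C' where
  om k := h.F (H.om k)
  J k j z := J' H C' k (idx C C' j z) j z
  g j z := pb (H.g (idx C C' j z)) (mt C C' (idx C C' j z) j) z
  J_sm k j := by
    intro z hz
    obtain ⟨i, hi⟩ := exists_mov C hz
    have h2 : ContDiffAt ℝ ∞ (fun z => J' H C' k (idx C C' j z) j z) z :=
      ((J'_sm H h k i j).contDiffAt ((isOpen_mov C C' i j).mem_nhds hi)).congr_of_eventuallyEq (by
        filter_upwards [(isOpen_mov C C' i j).mem_nhds hi] with y hy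
          using J'_eq H h k (idx_mem hy.1) hy)
    exact h2.contDiffWithinAt
  J_sq k j z hz v := by
    have hi := idx_mem (C := C) (C' := C') hz
    refine h.inj hi ?_
    rw [dJ' H h k hi, dJ' H h k hi, H.J_sq k _ _ (mt_mem hi).1, map_neg]
  J_01 j z hz v := by
    have hi := idx_mem (C := C) (C' := C') hz
    refine h.inj hi ?_
    rw [dJ' H h 0 hi, dJ' H h 1 hi, dJ' H h 2 hi, H.J_01 _ _ (mt_mem hi).1]
  g_symm j z hz u v := by
    have hi := idx_mem (C := C) (C' := C') hz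
    rw [pb_apply, pb_apply, H.g_symm _ _ (mt_mem hi).1]
  g_pos j z hz v hv := by
    have hi := idx_mem (C := C) (C' := C') hz
    rw [pb_apply]
    refine H.g_pos _ _ (mt_mem hi).1 _ fun h0 => hv ?_
    refine h.inj hi ?_
    rw [h0, map_zero]
  om_eq k j z hz u v := by
    have hi := idx_mem (C := C) (C' := C') hz
    rw [h.F_w (H.om k) hi, pb_apply, dJ' H h k hi, H.om_eq k _ _ (mt_mem hi).1]

@[simp] theorem hk_om (h : Cmp C C') (k : Fin 3) : (h.hk H).om k = h.F (H.om k) := rfl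

theorem hk_J (h : Cmp C C') (k : Fin 3) {i : C.ι} {j : C'.ι} {z : V'} (hz : z ∈ mov C C' i j)
    (v : V') : fderiv ℝ (mt C C' i j) z ((h.hk H).J k j z v) =
      H.J k i (mt C C' i j z) (fderiv ℝ (mt C C' i j) z v) := by
  show fderiv ℝ (mt C C' i j) z (J' H C' k (idx C C' j z) j z v) = _
  rw [J'_eq H h k (idx_mem hz.1) hz, dJ' H h k hz]

end Cmp

end

end Crest.Agent.R281.HkR_835
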