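import Crest.Agent.R281.Ehj1_461
import Crest.Agent.R281.Ehr2_268
import Crest.Agent.R281.HkR3_835

/-!
# R281 (S0424), CFAM-INST (helper461), part 2: the complex structure of a member, read in charts of `C`

`P : HEmb C' H`, `h : Cmp C C'`.

* `rd P C j i z = P.u j (mt C' C j i z)` : homogeneous coordinates read in the chart `i` of `C`
* `Jm P C i z`   : the complex structure; `Jm_ir`, `Jm_iRel` (relation of 313), `Jm_sq`
* `SmT A T`      : jointly smooth family `A : E' → HEmb C' H` over `T`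
* `Jm_smooth`    : the complex structures of a jointly smooth family are jointly smooth
-/

set_option autoImplicit false
set_option linter.unusedSectionVars false

open Filter Topology Complex Set
open scoped ContDiff

namespace Crest.Agent.R281.Ehj_461

open Crest.Agent.R281.HkR_835 Crest.Agent.R281.Ehr2_268

noncomputable section

variable {V X : Type} [NormedAddCommGroup V] [NormedSpace ℝ V] [TopologicalSpace X]
variable {H : Type} [NormedAddCommGroup H] [NormedSpace ℂ H]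
variable {C C' : RCh V X}

/-- homogeneous coordinates read in the chart `i` of `C` -/
def rd (P : HEmb C' H) (C : RCh V X) (j : C'.ι) (i : C.ι) (z : V) : H := P.u j (mt C' C j i z)

section rd

variable (h : Cmp C C') (P : HEmb C' H) {j : C'.ι} {i : C.ι} {z : V}
include h

theorem rd_smooth (hz : z ∈ mov C' C j i) : ContDiffAt ℝ ∞ (rd P C j i) z := by
  have h1 : ContDiffAt ℝ ∞ (mt C' C j i) z :=
    (h.s' i j).contDiffAt ((Cmp.isOpen_mov C' C j i).mem_nhds hz)
  have h2 : ContDiffAt ℝ ∞ (P.u j) (mt C' C j i z) :=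
    (P.sm j).contDiffAt ((C'.e j).open_target.mem_nhds (Cmp.mt_mem hz).1)
  exact h2.comp z h1

theorem rd_diff (hz : z ∈ mov C' C j i) : DifferentiableAt ℝ (rd P C j i) z :=
  (rd_smooth h P hz).differentiableAt (by simp)

theorem fderiv_rd (hz : z ∈ mov C' C j i) (v : V) : fderiv ℝ (rd P C j i) z v =
    fderiv ℝ (P.u j) (mt C' C j i z) (fderiv ℝ (mt C' C j i) z v) := by
  have h2 : DifferentiableAt ℝ (P.u j) (mt C' C j i z) :=
    ((P.sm j).contDiffAt ((C'.e j).open_target.mem_nhds (Cmp.mt_mem hz).1)).differentiableAt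
      (by simp)
  have h3 : HasFDerivAt (rd P C j i) _ z :=
    HasFDerivAt.comp (f := mt C' C j i) (g := P.u j) z h2.hasFDerivAt
      (h.symm.diff hz).hasFDerivAt
  rw [h3.fderiv]
  rfl

omit h in
theorem rd_ne (hz : z ∈ mov C' C j i) : rd P C j i z ≠ 0 := P.ne j _ (Cmp.mt_mem hz).1

theorem rd_imm (hz : z ∈ mov C' C j i) : Imm (fderiv ℝ (rd P C j i) z) (rd P C j i z) := by
  refine ⟨rd_ne P hz, fun v ⟨a, ha⟩ => ?_⟩
  rw [fderiv_rd h P hz] at ha
  have h1 := P.imm j _ (Cmp.mt_mem hz).1 _ ⟨a, ha⟩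
  refine Cmp.inj h.symm hz ?_
  rw [h1, map_zero]

theorem rd_cx (hcx : P.Cx) (hz : z ∈ mov C' C j i) :
    CxD (fderiv ℝ (rd P C j i) z) (rd P C j i z) := by
  intro v
  obtain ⟨w, a, hw⟩ := hcx j _ (Cmp.mt_mem hz).1 (fderiv ℝ (mt C' C j i) z v)
  refine ⟨fderiv ℝ (mt C C' i j) (mt C' C j i z) w, a, ?_⟩
  rw [fderiv_rd h P hz, fderiv_rd h P hz, hw]
  rw [h.symm.d_d' hz]
  rfl

omit h in
theorem rd_change {j' : C'.ι} (hz : z ∈ mov C' C j i) (hz' : z ∈ mov C' C j' i) :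
    ∀ᶠ y in 𝓝 z, ∃ k : ℂ, rd P C j' i y = k • rd P C j i y := by
  filter_upwards [(Cmp.isOpen_mov C' C j i).mem_nhds hz,
    (Cmp.isOpen_mov C' C j' i).mem_nhds hz'] with y hy hy'
  obtain ⟨a, ha⟩ := P.tr j' j _ (Cmp.mt_ov hy' hy)
  rw [Cmp.mt_t hy'] at ha
  exact ⟨a, ha⟩

/-- change of the chart of `C'` -/
theorem ir_change {j' : C'.ι} (hz : z ∈ mov C' C j i) (hz' : z ∈ mov C' C j' i) {v v' : V}
    (hv : IR (fderiv ℝ (rd P C j i) z) (rd P C j i z) v v') :
    IR (fderiv ℝ (rd P C j' i) z) (rd P C j' i z) v v' := by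
  obtain ⟨l, dl, h1, h2⟩ := prop_deriv (rd_diff h P hz) (rd_diff h P hz') (rd_ne P hz)
    (rd_change P hz hz')
  refine hv.scale h1 ?_ h2
  rintro rfl
  rw [zero_smul] at h1
  exact rd_ne P hz' h1

end rd

/-- the complex structure of the member, in the chart `i` of `C` -/
def Jm (P : HEmb C' H) (C : RCh V X) (i : C.ι) (z : V) : V →L[ℝ] V :=
  Jof (fderiv ℝ (rd P C (Cmp.idx C' C i z) i) z) (rd P C (Cmp.idx C' C i z) i z)

section J

variable [FiniteDimensional ℝ V] [FiniteDimensional ℂ H]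
variable (h : Cmp C C') {P : HEmb C' H} (hcx : P.Cx) {j : C'.ι} {i : C.ι} {z : V}
include h hcx

theorem Jm_ir (hz : z ∈ mov C' C j i) (v : V) :
    IR (fderiv ℝ (rd P C j i) z) (rd P C j i z) v (Jm P C i z v) := by
  have hz' : z ∈ mov C' C (Cmp.idx C' C i z) i := Cmp.idx_mem hz.1
  exact ir_change h P hz' hz (Jof_spec (rd_imm h P hz') (rd_cx h P hcx hz') v)

theorem Jm_uniq (hz : z ∈ mov C' C j i) {v v' : V}
    (hv : IR (fderiv ℝ (rd P C j i) z) (rd P C j i z) v v') : v' = Jm P C i z v :=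
  hv.uniq (rd_imm h P hz) (Jm_ir h hcx hz v)

theorem Jm_eq (hz : z ∈ mov C' C j i) :
    Jof (fderiv ℝ (rd P C j i) z) (rd P C j i z) = Jm P C i z :=
  Jof_eq (rd_imm h P hz) (Jm_ir h hcx hz)

theorem Jm_sq (hz : z ∈ (C.e i).target) (v : V) : Jm P C i z (Jm P C i z v) = -v := by
  obtain ⟨j, hj⟩ := Cmp.exists_mov C' hz
  refine (Jm_uniq h hcx hj ?_).symm
  obtain ⟨c, hc⟩ := Jm_ir h hcx hj v
  refine ⟨-(I * c), ?_⟩
  have h1 : fderiv ℝ (rd P C j i) z (Jm P C i z v) =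
      I • fderiv ℝ (rd P C j i) z v - c • rd P C j i z := by
    rw [hc, add_sub_cancel_right]
  rw [h1, smul_sub, smul_smul, I_mul_I, smul_smul, map_neg, neg_one_smul, neg_smul, sub_eq_add_neg]

/-- the relation of the tangent spaces, in the charts of `C'` -/
theorem Jm_iRel (hz : z ∈ mov C' C j i) (v : V) : ∃ c : ℂ,
    I • fderiv ℝ (P.u j) (mt C' C j i z) (fderiv ℝ (mt C' C j i) z v) =
      fderiv ℝ (P.u j) (mt C' C j i z) (fderiv ℝ (mt C' C j i) z (Jm P C i z v)) +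
        c • P.u j (mt C' C j i z) := by
  obtain ⟨c, hc⟩ := Jm_ir h hcx hz v
  rw [fderiv_rd h P hz, fderiv_rd h P hz] at hc
  exact ⟨c, hc⟩

end J

/-! ### families -/

variable {E' : Type} [NormedAddCommGroup E'] [NormedSpace ℝ E']

/-- jointly smooth family of members over `T` -/
def SmT (A : E' → HEmb C' H) (T : Set E') : Prop :=
  ∀ i, ContDiffOn ℝ ∞ (fun p : E' × V => (A p.1).u i p.2) (T ×ˢ (C'.e i).target)

section fam

variable (h : Cmp C C') {A : E' → HEmb C' H} {T : Set E'} (hT : IsOpen T) (hA : SmT A T)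
  {j : C'.ι} {i : C.ι} {t : E'} {z : V}
include h hT hA

theorem rd_joint (ht : t ∈ T) (hz : z ∈ mov C' C j i) :
    ContDiffAt ℝ ∞ (fun p : E' × V => rd (A p.1) C j i p.2) (t, z) := by
  have h1 : ContDiffAt ℝ ∞ (mt C' C j i) z :=
    (h.s' i j).contDiffAt ((Cmp.isOpen_mov C' C j i).mem_nhds hz)
  have h2 : ContDiffAt ℝ ∞ (fun p : E' × V => (p.1, mt C' C j i p.2)) (t, z) :=
    contDiffAt_fst.prodMk (ContDiffAt.comp (f := fun p : E' × V => p.2) (g := mt C' C j i) (t, z)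
      h1 contDiffAt_snd)
  have h3 : ContDiffAt ℝ ∞ (fun p : E' × V => (A p.1).u j p.2) (t, mt C' C j i z) :=
    (hA j).contDiffAt ((hT.prod (C'.e j).open_target).mem_nhds ⟨ht, (Cmp.mt_mem hz).1⟩)
  exact h3.comp (f := fun p : E' × V => (p.1, mt C' C j i p.2)) (t, z) h2

theorem fderiv_rd_eq (ht : t ∈ T) (hz : z ∈ mov C' C j i) :
    fderiv ℝ (rd (A t) C j i) z =
      (fderiv ℝ (fun p : E' × V => rd (A p.1) C j i p.2) (t, z)).comp
        (ContinuousLinearMap.inr ℝ E' V) := by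
  have h1 : HasFDerivAt (fun p : E' × V => rd (A p.1) C j i p.2)
      (fderiv ℝ (fun p : E' × V => rd (A p.1) C j i p.2) (t, z)) (t, z) :=
    ((rd_joint h hT hA ht hz).differentiableAt (by simp)).hasFDerivAt
  have h2 : HasFDerivAt (fun y => rd (A t) C j i y) _ z :=
    HasFDerivAt.comp (f := fun y : V => (t, y)) (g := fun p : E' × V => rd (A p.1) C j i p.2) z
      h1 (hasFDerivAt_prodMk_right _ _)
  exact h2.fderiv

theorem nhds_mov (ht : t ∈ T) (hz : z ∈ mov C' C j i) :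
    ∀ᶠ p : E' × V in 𝓝 (t, z), p.1 ∈ T ∧ p.2 ∈ mov C' C j i :=
  (hT.prod (Cmp.isOpen_mov C' C j i)).mem_nhds (show (t, z) ∈ _ from ⟨ht, hz⟩)

theorem fderiv_rd_joint (ht : t ∈ T) (hz : z ∈ mov C' C j i) :
    ContDiffAt ℝ ∞ (fun p : E' × V => fderiv ℝ (rd (A p.1) C j i) p.2) (t, z) := by
  have h1 : ContDiffAt ℝ ∞ (fun p : E' × V =>
      (fderiv ℝ (fun p : E' × V => rd (A p.1) C j i p.2) p).comp
        (ContinuousLinearMap.inr ℝ E' V)) (t, z) :=
    ((rd_joint h hT hA ht hz).fderiv_right (m := ∞) (by simp)).clm_comp contDiffAt_const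
  refine h1.congr_of_eventuallyEq ?_
  filter_upwards [nhds_mov h hT hA ht hz] with p hp
  exact fderiv_rd_eq h hT hA hp.1 hp.2

variable [FiniteDimensional ℝ V] [FiniteDimensional ℂ H]

/-- **the complex structures are jointly smooth** -/
theorem Jm_smooth (hcx : ∀ t ∈ T, (A t).Cx) (i : C.ι) :
    ContDiffOn ℝ ∞ (fun p : E' × V => Jm (A p.1) C i p.2) (T ×ˢ (C.e i).target) := by
  rintro ⟨t, z⟩ ⟨ht, hz⟩
  obtain ⟨j, hj⟩ := Cmp.exists_mov C' hz
  have h1 : ContDiffAt ℝ ∞ (fun p : E' × V => Jof (fderiv ℝ (rd (A p.1) C j i) p.2)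
      (rd (A p.1) C j i p.2)) (t, z) := by
    refine Jof_contDiffAt (fderiv_rd_joint h hT hA ht hj) (rd_joint h hT hA ht hj)
      (rd_imm h (A t) hj) ?_
    filter_upwards [nhds_mov h hT hA ht hj] with p hp
    exact rd_cx h (A p.1) (hcx _ hp.1) hp.2
  refine (h1.congr_of_eventuallyEq ?_).contDiffWithinAt
  filter_upwards [nhds_mov h hT hA ht hj] with p hp
  exact (Jm_eq h (hcx _ hp.1) hp.2).symm

end fam

end

end Crest.Agent.R281.Ehj_461
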