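import Crest.Agent.R281.KrB3_871

/-!
# R281, KRON (helper871): `kron_loc` — the family of cones cut out by specialised Kronecker data

`KC ev E = {(p, v) | v ≠ 0, F^(ev p) (v) = 0 for all F in E}`.  Output: `Eh2_461.LocEq`, `Ehr2_268.LocEq`
(of codimension `dim ker lam_p0`) at every point where `dG ≠ 0`, and `Eh3_461.Fam`.
-/

set_option autoImplicit false

open MvPolynomial Polynomial Set Filter Topology

namespace Crest.Agent.R281.KrB4_871

open Crest.Agent.R281.Kr_488 Crest.Agent.R281.KrB1_871 Crest.Agent.R281.KrB2_871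
  Crest.Agent.R281.KrB3_871

noncomputable section

variable {P : Type*} {n N : ℕ} {R : Type*} [CommRing R]

/-- the value of the specialised polynomial -/
def val (ev : P → (R →+* ℂ)) (F : MvPolynomial (Fin (N + 1)) R)
    (q : P × EuclideanSpace ℂ (Fin (N + 1))) : ℂ :=
  MvPolynomial.eval (fun i => q.2 i) (MvPolynomial.map (ev q.1) F)

/-- the family of punctured cones -/
def KC (ev : P → (R →+* ℂ)) (E : Set (MvPolynomial (Fin (N + 1)) R)) :
    Set (P × EuclideanSpace ℂ (Fin (N + 1))) :=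
  {q | q.2 ≠ 0 ∧ ∀ F ∈ E, val ev F q = 0}

variable [NormedAddCommGroup P] [NormedSpace ℂ P] {ev : P → (R →+* ℂ)} {p0 : P}

theorem analyticAt_val (han : ∀ r, AnalyticAt ℂ (fun p => ev p r) p0)
    (F : MvPolynomial (Fin (N + 1)) R) (u : EuclideanSpace ℂ (Fin (N + 1))) :
    AnalyticAt ℂ (val ev F) (p0, u) := by
  induction F using MvPolynomial.induction_on with
  | C a =>
    have h1 : val (N := N) ev (MvPolynomial.C a) = fun q => ev q.1 a := by
      funext q
      simp [val]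
    rw [h1]
    exact AnalyticAt.comp (g := fun p => ev p a) (f := fun q : P × EuclideanSpace ℂ (Fin (N + 1)) => q.1)
      (han a) analyticAt_fst
  | add p q hp hq =>
    have h1 : val ev (p + q) = fun x => val ev p x + val ev q x := by
      funext x
      simp [val]
    rw [h1]
    exact hp.add hq
  | mul_X p i hp =>
    have h2 : AnalyticAt ℂ (fun q : P × EuclideanSpace ℂ (Fin (N + 1)) => q.2 i) (p0, u) :=
      AnalyticAt.comp (g := fun v : EuclideanSpace ℂ (Fin (N + 1)) => v i)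
        (f := fun q : P × EuclideanSpace ℂ (Fin (N + 1)) => q.2)
        ((EuclideanSpace.proj i : EuclideanSpace ℂ (Fin (N + 1)) →L[ℂ] ℂ).analyticAt u) analyticAt_snd
    have h1 : val ev (p * MvPolynomial.X i) = fun x => val ev p x * x.2 i := by
      funext x
      simp [val]
    rw [h1]
    exact hp.mul h2

theorem continuousAt_val (han : ∀ r, AnalyticAt ℂ (fun p => ev p r) p0)
    (F : MvPolynomial (Fin (N + 1)) R) (u : EuclideanSpace ℂ (Fin (N + 1))) :
    ContinuousAt (val ev F) (p0, u) := (analyticAt_val han F u).continuousAt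

/-- the vector of the values of the `Hp κ k` -/
def HV (ev : P → (R →+* ℂ)) (κ : KDat n N R) (q : P × EuclideanSpace ℂ (Fin (N + 1))) :
    EuclideanSpace ℂ (Fin (N + 1)) :=
  WithLp.toLp 2 fun k => val ev (Hp κ k) q

omit [NormedAddCommGroup P] [NormedSpace ℂ P] in
theorem HV_eq (κ : KDat n N R) (q : P × EuclideanSpace ℂ (Fin (N + 1))) :
    HV ev κ q = Hv (mapK κ (ev q.1)) q.2 := by
  ext k
  rw [Hv_apply, Hp_map]
  rfl

theorem analyticAt_HV (han : ∀ r, AnalyticAt ℂ (fun p => ev p r) p0) (κ : KDat n N R)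
    (u : EuclideanSpace ℂ (Fin (N + 1))) : AnalyticAt ℂ (HV ev κ) (p0, u) :=
  analyticAt_toLp fun k => analyticAt_val han (Hp κ k) u

/-- `ker lam` at the base point -/
def K0 (κ : KDat n N R) (φ : R →+* ℂ) : Submodule ℂ (EuclideanSpace ℂ (Fin (N + 1))) :=
  LinearMap.ker (TT (mapK κ φ).lam).toLinearMap

theorem mem_K0 {κ : KDat n N R} {φ : R →+* ℂ} {x : EuclideanSpace ℂ (Fin (N + 1))} :
    x ∈ K0 κ φ ↔ TT (mapK κ φ).lam x = 0 := LinearMap.mem_ker

/-- codimension -/
def cod (κ : KDat n N R) (φ : R →+* ℂ) : ℕ := Module.finrank ℂ (K0 κ φ)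

/-- orthogonal projection onto `ker lam_p0`, in coordinates -/
def PiL (κ : KDat n N R) (φ : R →+* ℂ) :
    EuclideanSpace ℂ (Fin (N + 1)) →L[ℂ] EuclideanSpace ℂ (Fin (cod κ φ)) :=
  ((stdOrthonormalBasis ℂ (K0 κ φ)).repr.toContinuousLinearEquiv.toContinuousLinearMap).comp
    (K0 κ φ).orthogonalProjectionOnto

theorem PiL_inj (κ : KDat n N R) (φ : R →+* ℂ) {x : EuclideanSpace ℂ (Fin (N + 1))}
    (hx : x ∈ K0 κ φ) (h : PiL κ φ x = 0) : x = 0 := by
  have h1 : (stdOrthonormalBasis ℂ (K0 κ φ)).repr ((K0 κ φ).orthogonalProjectionOnto x) = 0 := h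
  rw [map_eq_zero_iff _ (stdOrthonormalBasis ℂ (K0 κ φ)).repr.injective] at h1
  have h2 := Submodule.orthogonalProjectionOnto_mem_subspace_eq_self (⟨x, hx⟩ : K0 κ φ)
  rw [h1] at h2
  exact (congrArg Subtype.val h2).symm

theorem PiL_surj (κ : KDat n N R) (φ : R →+* ℂ) (y : EuclideanSpace ℂ (Fin (cod κ φ))) :
    ∃ x ∈ K0 κ φ, PiL κ φ x = y := by
  obtain ⟨x, hx⟩ := (stdOrthonormalBasis ℂ (K0 κ φ)).repr.surjective y
  refine ⟨x, x.2, ?_⟩
  have h2 := Submodule.orthogonalProjectionOnto_mem_subspace_eq_self x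
  show (stdOrthonormalBasis ℂ (K0 κ φ)).repr ((K0 κ φ).orthogonalProjectionOnto (x : EuclideanSpace ℂ (Fin (N + 1)))) = y
  rw [h2, hx]

/-- transversality persists -/
theorem eventually_inj (han : ∀ r, AnalyticAt ℂ (fun p => ev p r) p0) (κ : KDat n N R) :
    ∀ᶠ p in 𝓝 p0, ∀ x, TT (mapK κ (ev p)).lam x = 0 → PiL κ (ev p0) x = 0 → x = 0 := by
  set M : P → (EuclideanSpace ℂ (Fin (N + 1)) →L[ℂ] (Fin (n + 1) → ℂ) ×
    EuclideanSpace ℂ (Fin (cod κ (ev p0)))) := fun p => (TT (mapK κ (ev p)).lam).prod (PiL κ (ev p0))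
    with hM
  have hc : ContinuousAt M p0 := by
    rw [continuousAt_clm_apply]
    intro x
    refine ContinuousAt.prodMk ?_ continuousAt_const
    refine continuousAt_pi.mpr fun j => ?_
    have h1 : (fun p => TT (mapK κ (ev p)).lam x j) = fun p => ∑ k, ev p (κ.lam j k) * x k := by
      funext p
      rw [TT_apply]
      rfl
    show ContinuousAt (fun p => TT (mapK κ (ev p)).lam x j) p0
    rw [h1]
    refine tendsto_finsetSum _ fun k _ => ?_
    exact (han (κ.lam j k)).continuousAt.tendsto.mul_const _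
  have h0 : Function.Injective (M p0) := by
    rw [injective_iff_map_eq_zero]
    intro x hx
    have h1 := congrArg Prod.fst hx
    have h2 := congrArg Prod.snd hx
    exact PiL_inj κ (ev p0) (mem_K0.mpr h1) h2
  have h3 := hc.preimage_mem_nhds (ContinuousLinearMap.isOpen_injective.mem_nhds h0)
  filter_upwards [h3] with p hp x hx1 hx2
  have h4 : M p x = 0 := Prod.ext hx1 hx2
  exact (injective_iff_map_eq_zero (M p)).mp hp x h4

/-- **local equations** -/
theorem exists_loc {κ : KDat n N R} {E : Set (MvPolynomial (Fin (N + 1)) R)} (h : κ.Good E)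
    (hE : ∀ F ∈ E, ∃ m, F.IsHomogeneous m) (han : ∀ r, AnalyticAt ℂ (fun p => ev p r) p0)
    {u : EuclideanSpace ℂ (Fin (N + 1))} (hu : u ≠ 0) (hd : val ev κ.dG (p0, u) ≠ 0) :
    ∃ g : P × EuclideanSpace ℂ (Fin (N + 1)) → EuclideanSpace ℂ (Fin (cod κ (ev p0))),
      AnalyticAt ℂ g (p0, u) ∧ Function.Surjective (fderiv ℂ (fun v => g (p0, v)) u) ∧
      ∀ᶠ q in 𝓝 (p0, u), q ∈ KC ev E ↔ g q = 0 := by
  refine ⟨fun q => PiL κ (ev p0) (HV ev κ q), ?_, ?_, ?_⟩
  · exact ((PiL κ (ev p0)).analyticAt _).comp (analyticAt_HV han κ u)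
  · have hG0 := KrB1_871.Good.map h (ev p0)
    have hd0 : MvPolynomial.eval (fun i => u i) (mapK κ (ev p0)).dG ≠ 0 := by
      rw [dG_map]
      exact hd
    have h1 : (fun v => PiL κ (ev p0) (HV ev κ (p0, v))) =
        fun v => PiL κ (ev p0) (Hv (mapK κ (ev p0)) v) := by
      funext v
      rw [HV_eq]
    have h2 : HasFDerivAt (fun v => PiL κ (ev p0) (Hv (mapK κ (ev p0)) v))
        ((PiL κ (ev p0)).comp (fderiv ℂ (Hv (mapK κ (ev p0))) u)) u :=
      (PiL κ (ev p0)).hasFDerivAt.comp u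
        (analyticAt_Hv (mapK κ (ev p0)) u).differentiableAt.hasFDerivAt
    rw [h1, h2.fderiv]
    intro y
    obtain ⟨x, hx, hxy⟩ := PiL_surj κ (ev p0) y
    obtain ⟨z, _, hz⟩ := D_surj hG0 hd0 (mem_K0.mp hx)
    exact ⟨z, by rw [ContinuousLinearMap.comp_apply, hz, hxy]⟩
  · have e1 : ∀ᶠ q in 𝓝 (p0, u), val ev κ.dG q ≠ 0 :=
      (continuousAt_val han κ.dG u).eventually_ne hd
    have e2 : ∀ᶠ q : P × EuclideanSpace ℂ (Fin (N + 1)) in 𝓝 (p0, u), q.2 ≠ 0 :=
      (show ContinuousAt (fun q : P × EuclideanSpace ℂ (Fin (N + 1)) => q.2) (p0, u) from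
        continuousAt_snd).eventually_ne hu
    have e3 : ∀ᶠ q : P × EuclideanSpace ℂ (Fin (N + 1)) in 𝓝 (p0, u),
        ∀ x, TT (mapK κ (ev q.1)).lam x = 0 → PiL κ (ev p0) x = 0 → x = 0 :=
      (show ContinuousAt (fun q : P × EuclideanSpace ℂ (Fin (N + 1)) => q.1) (p0, u) from
        continuousAt_fst).eventually (eventually_inj han κ)
    filter_upwards [e1, e2, e3] with q h1 h2 h3
    have hGq := KrB1_871.Good.map h (ev q.1)
    have hdq : MvPolynomial.eval (fun i => q.2 i) (mapK κ (ev q.1)).dG ≠ 0 := by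
      rw [dG_map]
      exact h1
    have hEq : ∀ F ∈ MvPolynomial.map (ev q.1) '' E, ∃ m, F.IsHomogeneous m := by
      rintro _ ⟨F, hF, rfl⟩
      obtain ⟨m, hm⟩ := hE F hF
      exact ⟨m, hm.map _⟩
    have key := mem_iff hGq hEq hdq
    constructor
    · intro hq
      have h4 : ∀ k, MvPolynomial.eval (fun i => q.2 i) (Hp (mapK κ (ev q.1)) k) = 0 := by
        refine key.mp ?_
        rintro _ ⟨F, hF, rfl⟩
        exact hq.2 F hF
      have h5 : HV ev κ q = 0 := by
        rw [HV_eq]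
        ext k
        rw [Hv_apply]
        exact h4 k
      show PiL κ (ev p0) (HV ev κ q) = 0
      rw [h5, map_zero]
    · intro hq
      have h5 : HV ev κ q = 0 := by
        refine h3 _ ?_ hq
        rw [HV_eq]
        exact TT_Hv hGq q.2
      refine ⟨h2, fun F hF => ?_⟩
      have h4 : ∀ k, MvPolynomial.eval (fun i => q.2 i) (Hp (mapK κ (ev q.1)) k) = 0 := by
        intro k
        have h6 : HV ev κ q k = 0 := by
          rw [h5]
          rfl
        rw [HV_eq, Hv_apply] at h6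
        exact h6
      exact key.mpr h4 _ ⟨F, hF, rfl⟩

/-- 461's `LocEq` -/
theorem locEq {κ : KDat n N R} {E : Set (MvPolynomial (Fin (N + 1)) R)} (h : κ.Good E)
    (hE : ∀ F ∈ E, ∃ m, F.IsHomogeneous m) (han : ∀ r, AnalyticAt ℂ (fun p => ev p r) p0)
    {u : EuclideanSpace ℂ (Fin (N + 1))} (hu : u ≠ 0) (hd : val ev κ.dG (p0, u) ≠ 0) :
    Eh2_461.LocEq (KC ev E) p0 u := by
  obtain ⟨g, h1, h2, h3⟩ := exists_loc h hE han hu hd
  exact ⟨_, g, h1, h2, h3⟩

/-- the codimension when the `lam_j` are independent at `p0` -/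
theorem cod_eq (κ : KDat n N R) (φ : R →+* ℂ)
    (hs : Function.Surjective (TT (mapK κ φ).lam)) : cod κ φ + (n + 1) = N + 1 := by
  have h1 := LinearMap.finrank_range_add_finrank_ker (TT (mapK κ φ).lam).toLinearMap
  have h2 : LinearMap.range (TT (mapK κ φ).lam).toLinearMap = ⊤ :=
    LinearMap.range_eq_top.mpr hs
  rw [h2, finrank_top, Module.finrank_fin_fun, finrank_euclideanSpace, Fintype.card_fin] at h1
  rw [← h1, cod, K0, add_comm]

/-- **461's `Fam`** -/
theorem fam {E : Set (MvPolynomial (Fin (N + 1)) R)} (hE : ∀ F ∈ E, ∃ m, F.IsHomogeneous m)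
    (han : ∀ r, AnalyticAt ℂ (fun p => ev p r) p0)
    (hcov : ∀ u : EuclideanSpace ℂ (Fin (N + 1)), (p0, u) ∈ KC ev E →
      ∃ κ : KDat n N R, κ.Good E ∧ val ev κ.dG (p0, u) ≠ 0) : Eh3_461.Fam (KC ev E) p0 where
  conic := by
    rintro p u l hl ⟨h1, h2⟩
    refine ⟨smul_ne_zero hl h1, fun F hF => ?_⟩
    obtain ⟨m, hm⟩ := hE F hF
    have h3 := eval_smul_homog (hm.map (ev p)) l (fun i => u i)
    have h4 : (fun i => (l • u) i) = l • fun i => u i := rfl
    show MvPolynomial.eval (fun i => (l • u) i) (MvPolynomial.map (ev p) F) = 0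
    rw [h4, h3]
    have h5 : MvPolynomial.eval (fun i => u i) (MvPolynomial.map (ev p) F) = 0 := h2 F hF
    rw [h5, mul_zero]
  ne := fun p u h => h.1
  closed := by
    intro u hu hnot
    have h1 : ∃ F ∈ E, val ev F (p0, u) ≠ 0 := by
      by_contra hcon
      push Not at hcon
      exact hnot ⟨hu, hcon⟩
    obtain ⟨F, hF, h2⟩ := h1
    filter_upwards [(continuousAt_val han F u).eventually_ne h2] with q hq hqC
    exact hq (hqC.2 F hF)
  loc := fun u hu => by
    obtain ⟨κ, hκ, hd⟩ := hcov u hu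
    exact locEq hκ hE han hu.1 hd

end

end Crest.Agent.R281.KrB4_871
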