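import Crest.Agent.R281.Phl2_655
import Crest.Agent.R281.AF5_867
import Crest.Agent.R281.KrB4_871

/-!
# R281 (S0424), PER-HOL (helper268, second hand), part 9: the polynomial 2-form on the cones

* `tanE_of_vel` : velocities of the cone `KC ev E` are Zariski tangent vectors
* `sj ev D j`   : the bilinear form `∑ (D.s j k l)^(ev c)(x) dx_k ⊗ dx_l`, analytic in `(c,x)`;
                  `sj_apply`, `fderiv_sj`
* `jf`          : `JForm` (655) on `S ⊆ KC ev E` from `FDat` (867)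
-/

set_option autoImplicit false
set_option linter.unusedSectionVars false
set_option synthInstance.maxHeartbeats 200000
set_option maxSynthPendingDepth 3

open Set Filter Topology Complex
open scoped ContDiff

namespace Crest.Agent.R281.Ehr9_268

open Crest.Agent.R281.Phl_655 Crest.Agent.R281.AF_867 Crest.Agent.R281.KrB4_871

noncomputable section

variable {P : Type} [NormedAddCommGroup P] [NormedSpace ℂ P] {N : ℕ} {R : Type*} [CommRing R]
  {ev : P → (R →+* ℂ)}

/-- derivative of a polynomial function -/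
theorem hasFDerivAt_poly (q : MvPolynomial (Fin (N + 1)) ℂ) (x : EuclideanSpace ℂ (Fin (N + 1))) :
    HasFDerivAt (fun y : EuclideanSpace ℂ (Fin (N + 1)) => MvPolynomial.eval (fun k => y k) q)
      (∑ k, MvPolynomial.eval (fun k => x k) (MvPolynomial.pderiv k q) •
        (EuclideanSpace.proj k : EuclideanSpace ℂ (Fin (N + 1)) →L[ℂ] ℂ)) x :=
  hasFDerivAt_ev (f := fun k (y : EuclideanSpace ℂ (Fin (N + 1))) => y k)
    (fun k => (EuclideanSpace.proj k : EuclideanSpace ℂ (Fin (N + 1)) →L[ℂ] ℂ).hasFDerivAt) q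

theorem sum_proj_apply (q : MvPolynomial (Fin (N + 1)) ℂ) (x u : EuclideanSpace ℂ (Fin (N + 1))) :
    (∑ k, MvPolynomial.eval (fun k => x k) (MvPolynomial.pderiv k q) •
      (EuclideanSpace.proj k : EuclideanSpace ℂ (Fin (N + 1)) →L[ℂ] ℂ)) u =
      dE q (fun i => x i) (fun i => u i) := by
  rw [sum_apply]
  rfl

/-- velocities are Zariski tangent vectors -/
theorem tanE_of_vel {E : Set (MvPolynomial (Fin (N + 1)) R)}
    {S : Set (P × EuclideanSpace ℂ (Fin (N + 1)))} (hS : S ⊆ KC ev E) {c : P}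
    {x u : EuclideanSpace ℂ (Fin (N + 1))} (h : Vel S c x u) :
    TanE (MvPolynomial.map (ev c) '' E) (fun i => x i) (fun i => u i) := by
  obtain ⟨γ, h0, h1, h2⟩ := h
  rintro _ ⟨p, hp, rfl⟩
  have h3 := (hasFDerivAt_poly (MvPolynomial.map (ev c) p) x).restrictScalars ℝ
  rw [← h0] at h3
  have h4 := h3.comp_hasDerivAt (0 : ℝ) h1
  have h5 : (fun t => MvPolynomial.eval (fun k => γ t k) (MvPolynomial.map (ev c) p)) =ᶠ[𝓝 0]
      fun _ => (0 : ℂ) := by
    filter_upwards [h2] with t ht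
    exact (hS ht).2 p hp
  have h6 := (h4.congr_of_eventuallyEq h5.symm).unique (hasDerivAt_const (0 : ℝ) (0 : ℂ))
  rw [h0] at h6
  rw [← sum_proj_apply]
  exact h6

/-- the elementary bilinear forms -/
def bk (k l : Fin (N + 1)) : EuclideanSpace ℂ (Fin (N + 1)) →L[ℂ]
    EuclideanSpace ℂ (Fin (N + 1)) →L[ℂ] ℂ :=
  (EuclideanSpace.proj k : EuclideanSpace ℂ (Fin (N + 1)) →L[ℂ] ℂ).smulRight
    (EuclideanSpace.proj l : EuclideanSpace ℂ (Fin (N + 1)) →L[ℂ] ℂ)

theorem bk_apply (k l : Fin (N + 1)) (u v : EuclideanSpace ℂ (Fin (N + 1))) :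
    bk k l u v = u k * v l := rfl

/-- the polynomial bilinear form -/
def sj (ev : P → (R →+* ℂ)) (D : FDat (Fin (N + 1)) R) (j : Fin (N + 1))
    (p : P × EuclideanSpace ℂ (Fin (N + 1))) : EuclideanSpace ℂ (Fin (N + 1)) →L[ℂ]
    EuclideanSpace ℂ (Fin (N + 1)) →L[ℂ] ℂ :=
  ∑ k, ∑ l, val ev (D.s j k l) p • bk k l

theorem sj_apply (D : FDat (Fin (N + 1)) R) (j : Fin (N + 1))
    (p : P × EuclideanSpace ℂ (Fin (N + 1))) (u v : EuclideanSpace ℂ (Fin (N + 1))) :
    sj ev D j p u v = (D.map (ev p.1)).b j (fun i => p.2 i) (fun i => u i) (fun i => v i) := by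
  unfold sj FDat.b
  rw [sum_apply, sum_apply]
  refine Finset.sum_congr rfl fun k _ => ?_
  rw [sum_apply, sum_apply]
  rfl

theorem analyticAt_sj {c : P} (han : ∀ r, AnalyticAt ℂ (fun p => ev p r) c)
    (D : FDat (Fin (N + 1)) R) (j : Fin (N + 1)) (x : EuclideanSpace ℂ (Fin (N + 1))) :
    AnalyticAt ℂ (sj ev D j) (c, x) := by
  have h1 : ∀ k l, AnalyticAt ℂ (fun p => val ev (D.s j k l) p •
      (bk k l : EuclideanSpace ℂ (Fin (N + 1)) →L[ℂ] EuclideanSpace ℂ (Fin (N + 1)) →L[ℂ] ℂ))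
      (c, x) := fun k l => (analyticAt_val han (D.s j k l) x).smul analyticAt_const
  have h2 : sj ev D j = fun p => ∑ k, ∑ l, val ev (D.s j k l) p •
      (bk k l : EuclideanSpace ℂ (Fin (N + 1)) →L[ℂ] EuclideanSpace ℂ (Fin (N + 1)) →L[ℂ] ℂ) := rfl
  rw [h2]
  exact Finset.analyticAt_fun_sum _ fun k _ => Finset.analyticAt_fun_sum _ fun l _ => h1 k l

theorem fderiv_sj {c : P} (han : ∀ r, AnalyticAt ℂ (fun p => ev p r) c)
    (D : FDat (Fin (N + 1)) R) (j : Fin (N + 1)) (x u v w : EuclideanSpace ℂ (Fin (N + 1))) :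
    fderiv ℂ (sj ev D j) (c, x) (0, u) v w =
      (D.map (ev c)).db j (fun i => x i) (fun i => u i) (fun i => v i) (fun i => w i) := by
  have h1 : HasFDerivAt (fun y => sj ev D j (c, y))
      ((fderiv ℂ (sj ev D j) (c, x)).comp (ContinuousLinearMap.inr ℂ P _)) x :=
    HasFDerivAt.comp (f := fun y : EuclideanSpace ℂ (Fin (N + 1)) => (c, y))
      (g := sj ev D j) x (analyticAt_sj han D j x).differentiableAt.hasFDerivAt
      (hasFDerivAt_prodMk_right _ _)
  have h2 : HasFDerivAt (fun y => sj ev D j (c, y))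
      (∑ k, ∑ l, (∑ m, MvPolynomial.eval (fun k => x k) (MvPolynomial.pderiv m
        (MvPolynomial.map (ev c) (D.s j k l))) •
        (EuclideanSpace.proj m : EuclideanSpace ℂ (Fin (N + 1)) →L[ℂ] ℂ)).smulRight (bk k l)) x := by
    have h3 : (fun y => sj ev D j (c, y)) = fun y => ∑ k, ∑ l,
        MvPolynomial.eval (fun i => y i) (MvPolynomial.map (ev c) (D.s j k l)) •
        (bk k l : EuclideanSpace ℂ (Fin (N + 1)) →L[ℂ] EuclideanSpace ℂ (Fin (N + 1)) →L[ℂ] ℂ) :=
      rfl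
    rw [h3]
    exact HasFDerivAt.fun_sum fun k _ => HasFDerivAt.fun_sum fun l _ =>
      (hasFDerivAt_poly (MvPolynomial.map (ev c) (D.s j k l)) x).smul_const (bk k l)
  have h4 := congrArg (fun T : EuclideanSpace ℂ (Fin (N + 1)) →L[ℂ]
    EuclideanSpace ℂ (Fin (N + 1)) →L[ℂ] EuclideanSpace ℂ (Fin (N + 1)) →L[ℂ] ℂ => T u v w)
    (h1.unique h2)
  refine Eq.trans h4 ?_
  show (∑ k, ∑ l, (∑ m, MvPolynomial.eval (fun k => x k) (MvPolynomial.pderiv m
        (MvPolynomial.map (ev c) (D.s j k l))) •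
        (EuclideanSpace.proj m : EuclideanSpace ℂ (Fin (N + 1)) →L[ℂ] ℂ)).smulRight (bk k l)) u v w
      = _
  unfold FDat.db
  simp only [sum_apply]
  refine Finset.sum_congr rfl fun k _ => Finset.sum_congr rfl fun l _ => ?_
  rw [ContinuousLinearMap.smulRight_apply, sum_proj_apply]
  rfl

/-- **the `JForm` of polynomial data** -/
def jf {E : Set (MvPolynomial (Fin (N + 1)) R)} {S : Set (P × EuclideanSpace ℂ (Fin (N + 1)))}
    (hS : S ⊆ KC ev E) (D : FDat (Fin (N + 1)) R) (hX : D.Exact)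
    (han : ∀ c x, (c, x) ∈ S → ∀ r, AnalyticAt ℂ (fun p => ev p r) c)
    (hI : ∀ c x, (c, x) ∈ S → (D.map (ev c)).Imp (MvPolynomial.map (ev c) '' E)) :
    JForm S (Fin (N + 1)) where
  m := D.m
  hm := le_trans (by norm_num) hX.two
  X j := EuclideanSpace.proj j
  s := sj ev D
  cover c x hx := by
    by_contra hcon
    push Not at hcon
    refine (hS hx).1 ?_
    ext j
    exact hcon j
  hol j c x hx := by
    filter_upwards [(analyticAt_sj (han c x hx) D j x).eventually_analyticAt] with p hp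
    exact hp.contDiffAt
  alt j p _ u v := by
    rw [sj_apply, sj_apply]
    exact FDat.b_alt j _ (hX.map (ev p.1)) _ _
  hom j c x _ a _ u v := by
    rw [sj_apply, sj_apply]
    exact b_scale (hX.map (ev c)) j a _ _ _
  eul j c x _ v := by
    rw [sj_apply]
    exact FDat.b_self_left j _ (hX.map (ev c)) _
  agr i j c x hx u v hu hv := by
    rw [sj_apply, sj_apply]
    refine (hI c x hx).agr (fun i => x i) _ _ ?_ (tanE_of_vel hS hu) (tanE_of_vel hS hv) i j
    rintro _ ⟨p, hp, rfl⟩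
    exact (hS hx).2 p hp
  clo j c x hx _ u v w hu hv hw := by
    rw [fderiv_sj (han c x hx), fderiv_sj (han c x hx), fderiv_sj (han c x hx), sj_apply, sj_apply,
      sj_apply]
    refine (hI c x hx).clo (fun i => x i) _ _ _ ?_ (tanE_of_vel hS hu) (tanE_of_vel hS hv)
      (tanE_of_vel hS hw) j
    rintro _ ⟨p, hp, rfl⟩
    exact (hS hx).2 p hp

end

end Crest.Agent.R281.Ehr9_268
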