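import Crest.Agent.R281.Glob1_484

/-!
# R281 (S0424), leaf S6-END, part 1 (helper946): the one-variable functions

* `Cut a b`      : smooth cut-offs, `1` on `t ≤ a`, `0` on `t ≥ b`; `exists_cut`
* `lam c d t`    : `χ(t) log (t + d²)`, derivatives `lam1`, `lam2`
* `exists_bound` : `0 ≤ y ≤ t x`, `0 ≤ t ≤ b`, `0 < d ≤ 1` ==> `0 ≤ (C + lam1) x + lam2 y`
* `psd_comb`     : the matrix form
* `psd_sq`       : `|F|² H - ∂|F|² ⊗ ∂̄|F|²` is positive semidefinite
-/

set_option autoImplicit false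
set_option linter.unusedSectionVars false

open Set Filter Topology Complex
open scoped ContDiff Matrix ComplexConjugate ComplexOrder

namespace Crest.Agent.R281.End_946

open Crest.Agent.R275.Geo Crest.Agent.R275.EDR890
open Crest.Agent.R273.Hess_333 Crest.Agent.R273.HessB_333
open Crest.Agent.R273.FIa0_597
open Crest.Agent.R273.FS_333 (sq wd_sq wd_sq' hess_sq)

noncomputable section

/-! ### cut-offs -/

/-- smooth cut-off: `1` on `t ≤ a`, `0` on `t ≥ b` -/
structure Cut (a b : ℝ) where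
  f : ℝ → ℝ
  sm : ContDiff ℝ ∞ f
  one : ∀ t ≤ a, f t = 1
  zero : ∀ t, b ≤ t → f t = 0
  nn : ∀ t, 0 ≤ f t
  le : ∀ t, f t ≤ 1

theorem exists_cut {a b : ℝ} (hab : a < b) : Nonempty (Cut a b) := by
  have hp : 0 < b - a := sub_pos.2 hab
  refine ⟨⟨fun t => Real.smoothTransition ((b - t) / (b - a)), ?_, ?_, ?_, ?_, ?_⟩⟩
  · exact Real.smoothTransition.contDiff.comp ((contDiff_const.sub contDiff_id).div_const _)
  · intro t ht
    refine Real.smoothTransition.one_of_one_le ?_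
    rw [le_div_iff₀ hp]
    linarith
  · intro t ht
    refine Real.smoothTransition.zero_of_nonpos ?_
    exact div_nonpos_of_nonpos_of_nonneg (by linarith) hp.le
  · intro t
    exact Real.smoothTransition.nonneg _
  · intro t
    exact Real.smoothTransition.le_one _

namespace Cut

variable {a b : ℝ} (c : Cut a b)

/-- first derivative -/
def f1 : ℝ → ℝ := deriv c.f

/-- second derivative -/
def f2 : ℝ → ℝ := deriv c.f1

theorem sm1 : ContDiff ℝ ∞ c.f1 := by
  have h := c.sm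
  rw [show (∞ : WithTop ℕ∞) = ∞ + 1 from rfl, contDiff_succ_iff_deriv] at h
  exact h.2.2

theorem d1 (t : ℝ) : HasDerivAt c.f (c.f1 t) t :=
  (c.sm.differentiable (by simp) t).hasDerivAt

theorem d2 (t : ℝ) : HasDerivAt c.f1 (c.f2 t) t :=
  (c.sm1.differentiable (by simp) t).hasDerivAt

theorem sm2 : ContDiff ℝ ∞ c.f2 := by
  have h := c.sm1
  rw [show (∞ : WithTop ℕ∞) = ∞ + 1 from rfl, contDiff_succ_iff_deriv] at h
  exact h.2.2

theorem f1_low {t : ℝ} (ht : t < a) : c.f1 t = 0 := by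
  have h : c.f =ᶠ[𝓝 t] fun _ => 1 := by
    filter_upwards [Iio_mem_nhds ht] with s hs
    exact c.one s (le_of_lt hs)
  unfold f1
  rw [h.deriv_eq, deriv_const]

theorem f1_high {t : ℝ} (ht : b < t) : c.f1 t = 0 := by
  have h : c.f =ᶠ[𝓝 t] fun _ => 0 := by
    filter_upwards [Ioi_mem_nhds ht] with s hs
    exact c.zero s (le_of_lt hs)
  unfold f1
  rw [h.deriv_eq, deriv_const]

theorem f2_low {t : ℝ} (ht : t < a) : c.f2 t = 0 := by
  have h : c.f1 =ᶠ[𝓝 t] fun _ => 0 := by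
    filter_upwards [Iio_mem_nhds ht] with s hs
    exact c.f1_low hs
  unfold f2
  rw [h.deriv_eq, deriv_const]

theorem f2_high {t : ℝ} (ht : b < t) : c.f2 t = 0 := by
  have h : c.f1 =ᶠ[𝓝 t] fun _ => 0 := by
    filter_upwards [Ioi_mem_nhds ht] with s hs
    exact c.f1_high hs
  unfold f2
  rw [h.deriv_eq, deriv_const]

theorem exists_bd : ∃ B : ℝ, 0 ≤ B ∧ ∀ t, |c.f1 t| ≤ B ∧ |c.f2 t| ≤ B := by
  obtain ⟨B1, h1⟩ := isCompact_Icc.exists_bound_of_continuousOn (s := Icc a b)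
    c.sm1.continuous.continuousOn
  obtain ⟨B2, h2⟩ := isCompact_Icc.exists_bound_of_continuousOn (s := Icc a b)
    c.sm2.continuous.continuousOn
  refine ⟨max (max B1 B2) 0, le_max_right _ _, fun t => ?_⟩
  rcases lt_or_ge t a with ht | ht
  · rw [c.f1_low ht, c.f2_low ht]
    simp
  rcases lt_or_ge b t with hb | hb
  · rw [c.f1_high hb, c.f2_high hb]
    simp
  exact ⟨((h1 t ⟨ht, hb⟩).trans (le_max_left _ _)).trans (le_max_left _ _),
    ((h2 t ⟨ht, hb⟩).trans (le_max_right _ _)).trans (le_max_left _ _)⟩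

/-! ### the weight function -/

/-- `χ(t) log (t + d²)` -/
def lam (d t : ℝ) : ℝ := c.f t * Real.log (t + d ^ 2)

/-- its derivative -/
def lam1 (d t : ℝ) : ℝ := c.f1 t * Real.log (t + d ^ 2) + c.f t * (t + d ^ 2)⁻¹

/-- its second derivative -/
def lam2 (d t : ℝ) : ℝ :=
  c.f2 t * Real.log (t + d ^ 2) + 2 * c.f1 t * (t + d ^ 2)⁻¹ - c.f t * ((t + d ^ 2) ^ 2)⁻¹

theorem lam_d1 {d t : ℝ} (h : 0 < t + d ^ 2) : HasDerivAt (c.lam d) (c.lam1 d t) t := by
  have h1 : HasDerivAt (fun s : ℝ => Real.log (s + d ^ 2)) ((t + d ^ 2)⁻¹) t := by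
    have := ((hasDerivAt_id t).add_const (d ^ 2)).log h.ne'
    simpa using this
  exact (c.d1 t).mul h1

theorem lam_d2 {d t : ℝ} (h : 0 < t + d ^ 2) : HasDerivAt (c.lam1 d) (c.lam2 d t) t := by
  have h1 : HasDerivAt (fun s : ℝ => Real.log (s + d ^ 2)) ((t + d ^ 2)⁻¹) t := by
    have := ((hasDerivAt_id t).add_const (d ^ 2)).log h.ne'
    simpa using this
  have h2 : HasDerivAt (fun s : ℝ => (s + d ^ 2)⁻¹) (-((t + d ^ 2) ^ 2)⁻¹) t := by
    have h := ((hasDerivAt_id t).add_const (d ^ 2)).inv h.ne'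
    have e : -((t + d ^ 2) ^ 2)⁻¹ = -1 / (id t + d ^ 2) ^ 2 := by
      simp only [id, neg_div, one_div]
    rw [e]
    exact h
  have h3 := ((c.d2 t).mul h1).add ((c.d1 t).mul h2)
  have e : c.lam2 d t = c.f2 t * Real.log (t + d ^ 2) + c.f1 t * (t + d ^ 2)⁻¹ +
      (c.f1 t * (t + d ^ 2)⁻¹ + c.f t * -((t + d ^ 2) ^ 2)⁻¹) := by
    unfold lam2
    ring
  rw [e]
  exact h3

theorem lam_sm (d : ℝ) : ContDiffOn ℝ ∞ (c.lam d) {t | 0 < t + d ^ 2} := by
  refine c.sm.contDiffOn.mul ?_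
  exact (contDiff_id.add contDiff_const).contDiffOn.log fun t ht => (ne_of_gt ht)

theorem lam_zero {d t : ℝ} (ht : b ≤ t) : c.lam d t = 0 := by
  rw [lam, c.zero t ht, zero_mul]

theorem lam_low {d t : ℝ} (ht : t ≤ a) : c.lam d t = Real.log (t + d ^ 2) := by
  rw [lam, c.one t ht, one_mul]

/-- the log is bounded on the collar -/
theorem log_bd (ha : 0 < a) {t d : ℝ} (h1 : a ≤ t) (h2 : t ≤ b) (hd : 0 ≤ d) (hd1 : d ≤ 1) :
    |Real.log (t + d ^ 2)| ≤ max |Real.log a| |Real.log (b + 1)| := by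
  have h0 : 0 ≤ d ^ 2 := sq_nonneg d
  have h3 : d ^ 2 ≤ 1 := by nlinarith
  have h4 : Real.log a ≤ Real.log (t + d ^ 2) := Real.log_le_log ha (by linarith)
  have h5 : Real.log (t + d ^ 2) ≤ Real.log (b + 1) :=
    Real.log_le_log (by linarith) (by linarith)
  rw [abs_le]
  constructor
  · have := neg_abs_le (Real.log a)
    have := le_max_left |Real.log a| |Real.log (b + 1)|
    linarith
  · have := le_abs_self (Real.log (b + 1))
    have := le_max_right |Real.log a| |Real.log (b + 1)|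
    linarith

theorem lam_bd (ha : 0 < a) {t d : ℝ} (h1 : a ≤ t) (hd : 0 ≤ d) (hd1 : d ≤ 1) :
    |c.lam d t| ≤ max |Real.log a| |Real.log (b + 1)| := by
  rcases le_or_gt b t with hb | hb
  · rw [c.lam_zero hb, abs_zero]
    exact (abs_nonneg _).trans (le_max_left _ _)
  · rw [lam, abs_mul, abs_of_nonneg (c.nn t)]
    calc c.f t * |Real.log (t + d ^ 2)| ≤ 1 * |Real.log (t + d ^ 2)| :=
          mul_le_mul_of_nonneg_right (c.le t) (abs_nonneg _)
      _ ≤ _ := by rw [one_mul]; exact log_bd ha h1 hb.le hd hd1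

/-- `lam` is bounded above -/
theorem lam_le {t d : ℝ} (ht : 0 ≤ t) (hd : 0 < d) (hd1 : d ≤ 1) :
    c.lam d t ≤ max |Real.log a| |Real.log (b + 1)| := by
  rcases le_or_gt b t with h | h
  · rw [c.lam_zero h]
    exact (abs_nonneg _).trans (le_max_left _ _)
  · have h0 : 0 < d ^ 2 := by positivity
    have h3 : d ^ 2 ≤ 1 := by nlinarith
    rw [lam]
    have h5 : Real.log (t + d ^ 2) ≤ |Real.log (b + 1)| :=
      (Real.log_le_log (by linarith) (by linarith)).trans (le_abs_self _)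
    have h6 : c.f t * Real.log (t + d ^ 2) ≤ c.f t * |Real.log (b + 1)| :=
      mul_le_mul_of_nonneg_left h5 (c.nn t)
    have h7 : c.f t * |Real.log (b + 1)| ≤ 1 * |Real.log (b + 1)| :=
      mul_le_mul_of_nonneg_right (c.le t) (abs_nonneg _)
    linarith [le_max_right |Real.log a| |Real.log (b + 1)|]

/-- **the bound**, uniform in `d` -/
theorem exists_bound (ha : 0 < a) (hab : a < b) :
    ∃ C : ℝ, 0 ≤ C ∧ ∀ d : ℝ, 0 < d → d ≤ 1 → ∀ t : ℝ, 0 ≤ t → ∀ x y : ℝ, 0 ≤ x → 0 ≤ y →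
      y ≤ t * x → 0 ≤ (C + c.lam1 d t) * x + c.lam2 d t * y := by
  obtain ⟨B, hB0, hB⟩ := c.exists_bd
  set m : ℝ := max |Real.log a| |Real.log (b + 1)| with hm
  have hm0 : 0 ≤ m := (abs_nonneg _).trans (le_max_left _ _)
  have hb : 0 < b := ha.trans hab
  refine ⟨B * m + (B * m * b + 2 * B), by positivity, ?_⟩
  intro d hd hd1 t ht x y hx hy hyx
  have hp : 0 < t + d ^ 2 := by positivity
  have key : 0 ≤ c.f t * ((t + d ^ 2)⁻¹ * x - ((t + d ^ 2) ^ 2)⁻¹ * y) := by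
    refine mul_nonneg (c.nn t) ?_
    have h1 : ((t + d ^ 2) ^ 2)⁻¹ * y ≤ ((t + d ^ 2) ^ 2)⁻¹ * (t * x) :=
      mul_le_mul_of_nonneg_left hyx (by positivity)
    have h2 : ((t + d ^ 2) ^ 2)⁻¹ * (t * x) ≤ ((t + d ^ 2) ^ 2)⁻¹ * ((t + d ^ 2) * x) := by
      refine mul_le_mul_of_nonneg_left ?_ (by positivity)
      refine mul_le_mul_of_nonneg_right ?_ hx
      nlinarith [sq_nonneg d]
    have h3 : ((t + d ^ 2) ^ 2)⁻¹ * ((t + d ^ 2) * x) = (t + d ^ 2)⁻¹ * x := by
      field_simp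
    linarith
  have e : (B * m + (B * m * b + 2 * B) + c.lam1 d t) * x + c.lam2 d t * y =
      (B * m * x + c.f1 t * Real.log (t + d ^ 2) * x) +
      ((B * m * b + 2 * B) * x + (c.f2 t * Real.log (t + d ^ 2) +
        2 * c.f1 t * (t + d ^ 2)⁻¹) * y) +
      c.f t * ((t + d ^ 2)⁻¹ * x - ((t + d ^ 2) ^ 2)⁻¹ * y) := by
    unfold lam1 lam2
    ring
  rw [e]
  rcases lt_or_ge t a with hta | hta
  · rw [c.f1_low hta, c.f2_low hta]
    have : 0 ≤ B * m * x := by positivity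
    have : 0 ≤ (B * m * b + 2 * B) * x := by positivity
    simp only [zero_mul, mul_zero, add_zero]
    linarith
  rcases lt_or_ge b t with htb | htb
  · rw [c.f1_high htb, c.f2_high htb]
    have : 0 ≤ B * m * x := by positivity
    have : 0 ≤ (B * m * b + 2 * B) * x := by positivity
    simp only [zero_mul, mul_zero, add_zero]
    linarith
  have hl : |Real.log (t + d ^ 2)| ≤ m := log_bd ha hta htb hd.le hd1
  have h1 : 0 ≤ B * m * x + c.f1 t * Real.log (t + d ^ 2) * x := by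
    have h2 : |c.f1 t * Real.log (t + d ^ 2)| ≤ B * m := by
      rw [abs_mul]
      exact mul_le_mul (hB t).1 hl (abs_nonneg _) hB0
    have h3 := neg_abs_le (c.f1 t * Real.log (t + d ^ 2))
    have h4 : 0 ≤ (B * m + c.f1 t * Real.log (t + d ^ 2)) * x :=
      mul_nonneg (by linarith) hx
    linarith
  have h2 : 0 ≤ (B * m * b + 2 * B) * x + (c.f2 t * Real.log (t + d ^ 2) +
      2 * c.f1 t * (t + d ^ 2)⁻¹) * y := by
    have h3 : |c.f2 t * Real.log (t + d ^ 2)| ≤ B * m := by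
      rw [abs_mul]
      exact mul_le_mul (hB t).2 hl (abs_nonneg _) hB0
    have h4 : |2 * c.f1 t * (t + d ^ 2)⁻¹| ≤ 2 * B * (t + d ^ 2)⁻¹ := by
      rw [abs_mul, abs_mul, abs_of_pos (by norm_num : (0 : ℝ) < 2),
        abs_of_pos (inv_pos.2 hp)]
      have := (hB t).1
      gcongr
    have h5 := neg_abs_le (c.f2 t * Real.log (t + d ^ 2))
    have h6 := neg_abs_le (2 * c.f1 t * (t + d ^ 2)⁻¹)
    have h7 : -(B * m + 2 * B * (t + d ^ 2)⁻¹) * y ≤ (c.f2 t * Real.log (t + d ^ 2) +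
      2 * c.f1 t * (t + d ^ 2)⁻¹) * y := mul_le_mul_of_nonneg_right (by linarith) hy
    have h8 : (B * m) * y ≤ B * m * (b * x) := by
      refine mul_le_mul_of_nonneg_left (hyx.trans ?_) (by positivity)
      exact mul_le_mul_of_nonneg_right htb hx
    have h9 : (t + d ^ 2)⁻¹ * y ≤ x := by
      rw [inv_mul_le_iff₀ hp]
      refine hyx.trans ?_
      nlinarith [sq_nonneg d]
    have h10 : 2 * B * ((t + d ^ 2)⁻¹ * y) ≤ 2 * B * x :=
      mul_le_mul_of_nonneg_left h9 (by positivity)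
    nlinarith
  linarith

end Cut

/-! ### matrices -/

variable {n : ℕ}

theorem psd_comb {H T : Matrix (Fin n) (Fin n) ℂ} {t c1 c2 : ℝ} (hH : H.PosSemidef)
    (hT : T.PosSemidef) (hHT : (t • H - T).PosSemidef)
    (hc : ∀ x y : ℝ, 0 ≤ x → 0 ≤ y → y ≤ t * x → 0 ≤ c1 * x + c2 * y) :
    (c1 • H + c2 • T).PosSemidef := by
  refine Matrix.PosSemidef.of_dotProduct_mulVec_nonneg ?_ fun v => ?_
  · have h1 := hH.isHermitian
    have h2 := hT.isHermitian
    unfold Matrix.IsHermitian at *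
    rw [Matrix.conjTranspose_add, Matrix.conjTranspose_smul, Matrix.conjTranspose_smul, h1, h2]
    simp
  · have h1 := Complex.nonneg_iff.1 (hH.dotProduct_mulVec_nonneg v)
    have h2 := Complex.nonneg_iff.1 (hT.dotProduct_mulVec_nonneg v)
    have h3 := Complex.nonneg_iff.1 (hHT.dotProduct_mulVec_nonneg v)
    rw [Matrix.sub_mulVec, Matrix.smul_mulVec, dotProduct_sub, dotProduct_smul] at h3
    rw [Matrix.add_mulVec, Matrix.smul_mulVec, Matrix.smul_mulVec, dotProduct_add,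
      dotProduct_smul, dotProduct_smul]
    set X := star v ⬝ᵥ H *ᵥ v
    set Y := star v ⬝ᵥ T *ᵥ v
    simp only [Complex.sub_re, Complex.real_smul, Complex.re_ofReal_mul] at h3
    rw [Complex.nonneg_iff]
    simp only [Complex.add_re, Complex.add_im, Complex.real_smul, Complex.re_ofReal_mul,
      Complex.im_ofReal_mul]
    refine ⟨hc _ _ h1.1 h2.1 (by linarith [h3.1]), ?_⟩
    rw [← h1.2, ← h2.2]
    simp

end

end Crest.Agent.R281.End_946
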