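import Crest.Agent.R281.Defs_273

/-!
# R281 (S0424), S6-L2END (helper10), part 0: interface and compactness

`sqw w x = ∑ k, ‖w x k‖ ^ 2`
`EndIn K L x0`  : the local input of the last `L²` step at the point `x0`
`LocGen L x0`   : some positive power of `L` has a section which does not vanish at `x0`
`semiAmple_of_locGen` : on a compact `M`, `LocGen` everywhere implies `SemiAmple`.
-/

set_option autoImplicit false
set_option linter.unusedSectionVars false

open Set Filter Topology Complex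
open scoped ContDiff Matrix ComplexConjugate Manifold ComplexOrder

namespace Crest.Agent.R281.LEnd_10

open Crest.Agent.R275.Geo Crest.Agent.R275.Core144 Crest.Agent.R275.GC293
open Crest.Agent.R273.Defs_333 Crest.Agent.R273.Kah_333 Crest.Agent.R273.HM_333
open Crest.Agent.R281.Defs_273

noncomputable section

variable {n : ℕ} {M : Type} [TopologicalSpace M] {A : Atl n M}

/-- `|w|²` -/
def sqw {r : ℕ} (w : M → Fin r → ℂ) (x : M) : ℝ := ∑ k, ‖w x k‖ ^ 2

/-- the local input of the last step at `x0`: a neighbourhood `U` of the fibre through `x0` with a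
holomorphic `w : U → ℂ^r`, `w x0 = 0`, proper near `0`; a frame `τ` of `L^k0` over `U`; smooth
metrics `h e^{-u}` on `L` with curvature `≥ -δ K` on `M` and `≥ ε ∂∂̄|w|² - δ K` near the fibre -/
structure EndIn (K : Kah A) (L : LB A) (x0 : M) where
  k0 : ℕ
  k0_pos : 0 < k0
  U : Set M
  isOpen_U : IsOpen U
  mem_U : x0 ∈ U
  r : ℕ
  w : M → Fin r → ℂ
  hol : ∀ i k, HolAt A i U (fun x => w x k)
  w_zero : ∀ k, w x0 k = 0
  ρ : ℝ
  ρ_pos : 0 < ρ
  cpt : IsCompact {x | x ∈ U ∧ sqw w x ≤ ρ}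
  τ : A.ι → M → ℂ
  isHS : IsHS (L ^ k0) U τ
  ne : ∀ i, ∀ x ∈ (A.e i).source, x ∈ U → τ i x ≠ 0
  h : HM L
  ε : ℝ
  ε_pos : 0 < ε
  C : ℝ
  met : ∀ δ : ℝ, 0 < δ → ∃ u : M → ℝ, A.Sm u ∧ (∀ x, |u x| ≤ C) ∧
    (∀ i, ∀ x ∈ (A.e i).source, (cur h i x + hsf A u i x + (δ : ℂ) • K.g i x).PosSemidef) ∧
    (∀ i, ∀ x ∈ (A.e i).source, x ∈ U → sqw w x ≤ ρ →
      (cur h i x + hsf A u i x + (δ : ℂ) • K.g i x - (ε : ℂ) • hsf A (sqw w) i x).PosSemidef)

/-- some positive power of `L` has a section which does not vanish at `x0` -/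
def LocGen (L : LB A) (x0 : M) : Prop :=
  ∃ m : ℕ, 0 < m ∧ ∃ s, IsHS (L ^ m) univ s ∧ ∃ i, x0 ∈ (A.e i).source ∧ s i x0 ≠ 0

/-- powers of a section -/
theorem isHS_pow {L : LB A} {U : Set M} {s : A.ι → M → ℂ} (hs : IsHS L U s) :
    ∀ m : ℕ, 0 < m → IsHS (L ^ m) U (s ^ m) := by
  intro m hm
  induction m with
  | zero => exact absurd hm (lt_irrefl _)
  | succ m ih =>
    rcases Nat.eq_zero_or_pos m with h0 | h0
    · subst h0
      simpa using hs
    · rw [pow_succ, pow_succ]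
      exact (ih h0).mul hs

/-- the set where a section does not vanish is open -/
theorem isOpen_nz {L : LB A} {s : A.ι → M → ℂ} (hs : IsHS L univ s) (i : A.ι) :
    IsOpen {x | x ∈ (A.e i).source ∧ s i x ≠ 0} := by
  have h1 : ContinuousOn (fun z => s i ((A.e i).symm z)) (A.e i).target := by
    have h2 := (hs.hol i).continuousOn
    simpa using h2
  have h3 : ContinuousOn (s i) (A.e i).source := by
    have h4 : ContinuousOn (fun x => s i ((A.e i).symm (A.e i x))) (A.e i).source :=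
      h1.comp (A.e i).continuousOn_toFun (fun x hx => (A.e i).map_source hx)
    exact h4.congr fun x hx => by simp only [(A.e i).left_inv hx]
  exact h3.isOpen_inter_preimage (A.e i).open_source (_root_.isOpen_ne (x := (0 : ℂ)))

theorem semiAmple_of_locGen [CompactSpace M] {L : LB A} (H : ∀ x, LocGen L x) : SemiAmple L := by
  classical
  choose m hm s hs i hi hsi using H
  obtain ⟨t, ht⟩ := isCompact_univ.elim_finite_subcover
    (fun x => {y | y ∈ (A.e (i x)).source ∧ s x (i x) y ≠ 0}) (fun x => isOpen_nz (hs x) (i x))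
    (fun x _ => mem_iUnion.2 ⟨x, hi x, hsi x⟩)
  refine ⟨∏ x ∈ t, m x, Finset.prod_pos fun x _ => hm x, fun y => ?_⟩
  obtain ⟨x, hxt, hy1, hy2⟩ : ∃ x ∈ t, y ∈ (A.e (i x)).source ∧ s x (i x) y ≠ 0 := by
    have := ht (mem_univ y)
    simp only [mem_iUnion] at this
    obtain ⟨x, hx, h1, h2⟩ := this
    exact ⟨x, hx, h1, h2⟩
  refine ⟨(s x) ^ (∏ z ∈ t.erase x, m z), ?_, i x, hy1, ?_⟩
  · have h1 := isHS_pow (hs x) (∏ z ∈ t.erase x, m z) (Finset.prod_pos fun z _ => hm z)
    rw [← pow_mul, Finset.mul_prod_erase t m hxt] at h1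
    exact h1
  · rw [Pi.pow_apply, Pi.pow_apply]
    exact pow_ne_zero _ hy2

end

end Crest.Agent.R281.LEnd_10
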