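import Crest.Agent.R281.End1_946
import Crest.Agent.R281.LEnd0_10

/-!
# R281 (S0424), leaf S6-END, part 2 (helper946): global functions of `|w|²`

* `psd_sq`        : `|F|² ∂∂̄|F|² - ∂|F|² ⊗ ∂̄|F|²` is positive semidefinite
* `gl D φ`        : `φ(|w|²)` on `U`, `0` off `U`; smooth if `φ = 0` on `t ≥ b`, `b < ρ`
* `hsf_gl`, `hsf_gl_off`
* `wf D c d`      : the weight `gl (lam d)`; `wf_psd` : `C ∂∂̄|w|² + ∂∂̄ wf ≥ 0` near the fibre
* `curv_ge`, `curv_ge'` : curvature of `h^P e^{-P u - N wf}`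
-/

set_option autoImplicit false
set_option linter.unusedSectionVars false

open Set Filter Topology Complex
open scoped ContDiff Matrix ComplexConjugate ComplexOrder

namespace Crest.Agent.R281.End_946

open Crest.Agent.R275.Geo Crest.Agent.R275.Core144 Crest.Agent.R275.EDR890 Crest.Agent.R273
open Crest.Agent.R273.Defs_333 Crest.Agent.R273.HM_333 Crest.Agent.R273.Kah_333
open Crest.Agent.R273.Hess_333 Crest.Agent.R273.HessB_333
open Crest.Agent.R273.FIa0_597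
open Crest.Agent.R273.FS_333 (sq wd_sq wd_sq' hess_sq contDiffAt_of_hol)
open Crest.Agent.R281.Glob1_484 (hess_comp_mat)
open Crest.Agent.R281.LEnd_10

noncomputable section

variable {n : ℕ}

/-! ### Cauchy-Schwarz in matrix form -/

theorem dot_vmv (a v : Fin n → ℂ) :
    star v ⬝ᵥ (Matrix.vecMulVec a (star a) *ᵥ v) = ((‖star v ⬝ᵥ a‖ ^ 2 : ℝ) : ℂ) := by
  have h1 : star a ⬝ᵥ v = conj (star v ⬝ᵥ a) := by
    simp only [dotProduct, map_sum, map_mul, Pi.star_apply, RCLike.star_def, Complex.conj_conj]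
    exact Finset.sum_congr rfl fun _ _ => mul_comm _ _
  rw [Matrix.vecMulVec_mulVec, dotProduct_smul, h1]
  have h2 : MulOpposite.op (conj (star v ⬝ᵥ a)) • (star v ⬝ᵥ a) =
      (star v ⬝ᵥ a) * conj (star v ⬝ᵥ a) := rfl
  rw [h2, Complex.mul_conj, Complex.normSq_eq_norm_sq]

theorem psd_cs {N : ℕ} (D : Fin N → Fin n → ℂ) (f : Fin N → ℂ) :
    ((∑ k, ‖f k‖ ^ 2 : ℝ) • (∑ k, Matrix.vecMulVec (D k) (star (D k))) -
      Matrix.vecMulVec (∑ k, conj (f k) • D k) (star (∑ k, conj (f k) • D k))).PosSemidef := by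
  refine Matrix.PosSemidef.of_dotProduct_mulVec_nonneg ?_ fun v => ?_
  · have h1 : (∑ k, Matrix.vecMulVec (D k) (star (D k))).IsHermitian := by
      have : (∑ k, Matrix.vecMulVec (D k) (star (D k))).PosSemidef :=
        Matrix.posSemidef_sum _ fun k _ => Matrix.posSemidef_vecMulVec_self_star _
      exact this.isHermitian
    have h2 := (Matrix.posSemidef_vecMulVec_self_star (∑ k, conj (f k) • D k)).isHermitian
    unfold Matrix.IsHermitian at *
    rw [Matrix.conjTranspose_sub, Matrix.conjTranspose_smul, h1, h2]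
    simp
  · rw [Matrix.sub_mulVec, Matrix.smul_mulVec, dotProduct_sub, dotProduct_smul, dot_vmv,
      Matrix.sum_mulVec, dotProduct_sum]
    simp only [dot_vmv]
    rw [← Complex.ofReal_sum, Complex.real_smul, ← Complex.ofReal_mul, ← Complex.ofReal_sub]
    rw [Complex.zero_le_real, sub_nonneg]
    have h3 : star v ⬝ᵥ (∑ k, conj (f k) • D k) = ∑ k, conj (f k) * (star v ⬝ᵥ D k) := by
      rw [dotProduct_sum]
      refine Finset.sum_congr rfl fun k _ => ?_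
      rw [dotProduct_smul, smul_eq_mul]
    rw [h3]
    have h4 : ‖∑ k, conj (f k) * (star v ⬝ᵥ D k)‖ ≤ ∑ k, ‖f k‖ * ‖star v ⬝ᵥ D k‖ := by
      refine (norm_sum_le _ _).trans (le_of_eq ?_)
      refine Finset.sum_congr rfl fun k _ => ?_
      rw [norm_mul, RCLike.norm_conj]
    calc ‖∑ k, conj (f k) * (star v ⬝ᵥ D k)‖ ^ 2
        ≤ (∑ k, ‖f k‖ * ‖star v ⬝ᵥ D k‖) ^ 2 := by gcongr
      _ ≤ _ := Finset.sum_mul_sq_le_sq_mul_sq _ _ _

variable {N : ℕ} {F : Cn n → Fin N → ℂ} {U : Set (Cn n)} {z : Cn n}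

theorem hess_sq_mat (hU : IsOpen U) (hF : ∀ k, DifferentiableOn ℂ (fun z => F z k) U)
    (hz : z ∈ U) : hess (sq F) z = ∑ k, Matrix.vecMulVec
      (fun a => fderiv ℂ (fun z => F z k) z (EuclideanSpace.single a 1))
      (star fun a => fderiv ℂ (fun z => F z k) z (EuclideanSpace.single a 1)) := by
  ext a b
  rw [hess_sq hU hF hz, Matrix.sum_apply]
  rfl

theorem gr_sq (hU : IsOpen U) (hF : ∀ k, DifferentiableOn ℂ (fun z => F z k) U)
    (hz : z ∈ U) : gr (sq F) z = ∑ k, conj (F z k) •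
      (fun a => fderiv ℂ (fun z => F z k) z (EuclideanSpace.single a 1)) := by
  funext a
  rw [gr, wd_sq' hU hF hz, Finset.sum_apply]
  refine Finset.sum_congr rfl fun k _ => ?_
  rw [Pi.smul_apply, smul_eq_mul, mul_comm]

theorem psd_hess_sq (hU : IsOpen U) (hF : ∀ k, DifferentiableOn ℂ (fun z => F z k) U)
    (hz : z ∈ U) : (hess (sq F) z).PosSemidef := by
  rw [hess_sq_mat hU hF hz]
  exact Matrix.posSemidef_sum _ fun k _ => Matrix.posSemidef_vecMulVec_self_star _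

theorem psd_sq (hU : IsOpen U) (hF : ∀ k, DifferentiableOn ℂ (fun z => F z k) U)
    (hz : z ∈ U) : ((sq F z : ℝ) • hess (sq F) z -
      Matrix.vecMulVec (gr (sq F) z) (star (gr (sq F) z))).PosSemidef := by
  rw [hess_sq_mat hU hF hz, gr_sq hU hF hz]
  exact psd_cs _ _

/-! ### functions of `|w|²` on `M` -/

variable {M : Type} [TopologicalSpace M] {A : Atl n M} {K : Kah A} {L : LB A} {x0 : M}

section Glob

variable (D : EndIn K L x0)

open Classical in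
/-- `φ(|w|²)` on `U`, zero off `U` -/
def gl (φ : ℝ → ℝ) (x : M) : ℝ := if x ∈ D.U then φ (sqw D.w x) else 0

theorem gl_mem {φ : ℝ → ℝ} {x : M} (hx : x ∈ D.U) : gl D φ x = φ (sqw D.w x) := if_pos hx

theorem gl_off {φ : ℝ → ℝ} {x : M} (hx : x ∉ D.U) : gl D φ x = 0 := if_neg hx

theorem sqw_nonneg {r : ℕ} (w : M → Fin r → ℂ) (x : M) : 0 ≤ sqw w x :=
  Finset.sum_nonneg fun _ _ => by positivity

/-- `w` read in a chart -/
def wr (i : A.ι) : Cn n → Fin D.r → ℂ := fun z => D.w ((A.e i).symm z)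

/-- the domain of `w` read in a chart -/
def Ur (i : A.ι) : Set (Cn n) := (A.e i).target ∩ (A.e i).symm ⁻¹' D.U

theorem isOpen_Ur (i : A.ι) : IsOpen (Ur D i) := isOpen_ti D.isOpen_U

theorem wr_hol (i : A.ι) (k : Fin D.r) : DifferentiableOn ℂ (fun z => wr D i z k) (Ur D i) :=
  D.hol i k

theorem sqw_read (i : A.ι) : (fun z => sqw D.w ((A.e i).symm z)) = FS_333.sq (wr D i) := rfl

theorem mem_Ur {i : A.ι} {x : M} (hx : x ∈ (A.e i).source) (hU : x ∈ D.U) : A.e i x ∈ Ur D i :=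
  ⟨(A.e i).map_source hx, by rw [mem_preimage, (A.e i).left_inv hx]; exact hU⟩

theorem sq_contDiffAt {i : A.ι} {z : Cn n} (hz : z ∈ Ur D i) :
    ContDiffAt ℝ ∞ (FS_333.sq (wr D i)) z := by
  refine ContDiffAt.sum fun k _ => ?_
  exact (contDiffAt_of_hol (isOpen_Ur D i) (wr_hol D i k) hz).norm_sq ℝ

theorem psd_sqw {i : A.ι} {x : M} (hx : x ∈ (A.e i).source) (hU : x ∈ D.U) :
    (hsf A (sqw D.w) i x).PosSemidef :=
  psd_hess_sq (isOpen_Ur D i) (wr_hol D i) (mem_Ur D hx hU)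

theorem sq_at {i : A.ι} {x : M} (hx : x ∈ (A.e i).source) :
    sq (wr D i) (A.e i x) = sqw D.w x := by
  show sqw D.w ((A.e i).symm (A.e i x)) = _
  rw [(A.e i).left_inv hx]

/-- `|w|² ∂∂̄|w|² ≥ ∂|w|² ⊗ ∂̄|w|²` -/
theorem psd_sqw' {i : A.ι} {x : M} (hx : x ∈ (A.e i).source) (hU : x ∈ D.U) :
    ((sqw D.w x : ℝ) • hsf A (sqw D.w) i x -
      Matrix.vecMulVec (gr (sq (wr D i)) (A.e i x)) (star (gr (sq (wr D i)) (A.e i x)))).PosSemidef := by
  have h := psd_sq (isOpen_Ur D i) (wr_hol D i) (mem_Ur D hx hU)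
  rw [sq_at D hx] at h
  exact h

/-- `∂∂̄ (φ(|w|²))` on `U` -/
theorem hsf_gl {φ φ' : ℝ → ℝ} {d2 : ℝ} {i : A.ι} {x : M} (hx : x ∈ (A.e i).source)
    (hU : x ∈ D.U) (h1 : ∀ᶠ s in 𝓝 (sqw D.w x), HasDerivAt φ (φ' s) s)
    (h2 : HasDerivAt φ' d2 (sqw D.w x)) :
    hsf A (gl D φ) i x = (φ' (sqw D.w x) : ℝ) • hsf A (sqw D.w) i x +
      (d2 : ℝ) • Matrix.vecMulVec (gr (sq (wr D i)) (A.e i x))
        (star (gr (sq (wr D i)) (A.e i x))) := by
  have hz := mem_Ur D hx hU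
  have e1 : (fun z => gl D φ ((A.e i).symm z)) =ᶠ[𝓝 (A.e i x)] fun z => φ (sq (wr D i) z) := by
    filter_upwards [(isOpen_Ur D i).mem_nhds hz] with z hz
    exact gl_mem D hz.2
  have h := hess_comp_mat (φ := φ) (φ' := φ') (d2 := d2) (sq_contDiffAt D hz)
    (by rw [sq_at D hx]; exact h1) (by rw [sq_at D hx]; exact h2)
  rw [sq_at D hx] at h
  unfold hsf
  rw [hess_congr e1, h]
  rfl

variable [T2Space M]

theorem eventually_off {x : M} (hx : ¬ (x ∈ D.U ∧ sqw D.w x ≤ D.ρ)) :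
    ∀ᶠ y in 𝓝 x, ¬ (y ∈ D.U ∧ sqw D.w y ≤ D.ρ) :=
  D.cpt.isClosed.isOpen_compl.mem_nhds hx

theorem gl_zero {φ : ℝ → ℝ} {x : M} (h0 : ∀ t, D.ρ < t → φ t = 0)
    (hx : ¬ (x ∈ D.U ∧ sqw D.w x ≤ D.ρ)) : gl D φ x = 0 := by
  by_cases hU : x ∈ D.U
  · rw [gl_mem D hU]
    refine h0 _ ?_
    by_contra h
    exact hx ⟨hU, not_lt.1 h⟩
  · exact gl_off D hU

/-- smoothness -/
theorem sm_gl {φ : ℝ → ℝ} {S : Set ℝ} (hS : IsOpen S) (hS0 : Ici 0 ⊆ S) (hφ : ContDiffOn ℝ ∞ φ S)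
    (h0 : ∀ t, D.ρ < t → φ t = 0) : A.Sm (gl D φ) := by
  intro i z hz
  have hxs := (A.e i).map_target hz
  by_cases hU : (A.e i).symm z ∈ D.U
  · have hz' : z ∈ Ur D i := ⟨hz, hU⟩
    have e1 : (fun z => gl D φ ((A.e i).symm z)) =ᶠ[𝓝 z] fun z => φ (sq (wr D i) z) := by
      filter_upwards [(isOpen_Ur D i).mem_nhds hz'] with z hz
      exact gl_mem D hz.2
    have h1 : ContDiffAt ℝ ∞ φ (sq (wr D i) z) := by
      exact hφ.contDiffAt (hS.mem_nhds (hS0 (mem_Ici.2 (FS_333.sq_nonneg' (wr D i) z))))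
    exact ((h1.comp z (sq_contDiffAt D hz')).congr_of_eventuallyEq e1).contDiffWithinAt
  · have h1 := eventually_off D (x := (A.e i).symm z) (fun h => hU h.1)
    have h2 : ∀ᶠ w in 𝓝 z, gl D φ ((A.e i).symm w) = 0 := by
      have h3 : ContinuousAt (A.e i).symm z := (A.e i).continuousAt_symm hz
      filter_upwards [h3.eventually h1] with w hw
      exact gl_zero D h0 hw
    have h4 : ContDiffAt ℝ ∞ (fun _ : Cn n => (0 : ℝ)) z := contDiffAt_const
    exact (h4.congr_of_eventuallyEq h2).contDiffWithinAt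

theorem hsf_gl_off {φ : ℝ → ℝ} {i : A.ι} {x : M} (hx : x ∈ (A.e i).source)
    (h0 : ∀ t, D.ρ < t → φ t = 0) (hn : ¬ (x ∈ D.U ∧ sqw D.w x ≤ D.ρ)) :
    hsf A (gl D φ) i x = 0 := by
  have h1 := eventually_off D hn
  have hz := (A.e i).map_source hx
  have h3 : ContinuousAt (A.e i).symm (A.e i x) := (A.e i).continuousAt_symm hz
  rw [← (A.e i).left_inv hx] at h1
  have h2 : (fun z => gl D φ ((A.e i).symm z)) =ᶠ[𝓝 (A.e i x)] fun _ => 0 := by
    filter_upwards [h3.eventually h1] with w hw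
    exact gl_zero D h0 hw
  unfold hsf
  rw [hess_congr h2]
  have h5 := hess_const_mul (u := fun _ : Cn n => (0 : ℝ)) (z := A.e i x) 0 contDiffAt_const
  simpa using h5

end Glob

end

end Crest.Agent.R281.End_946
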