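import Crest.Agent.R281.End2_946

/-!
# R281 (S0424), leaf S6-END, part 3 (helper946): the weight and the curvature

* `wf D c d`   : the weight function `χ(|w|²) log(|w|² + d²)`
* `wf_psd`     : `C ∂∂̄|w|² + ∂∂̄ wf ≥ 0` on `U`, `C` independent of `d`
* `wt D c P N d u`, `mt` : the metric `h^P e^{-P u - N wf}` of `L ^ P`
* `curv_tube`  : curvature `≥ ∂∂̄|w|² - P δ K` near the fibre
* `curv_ge`    : curvature `≥ - P δ K` everywhere
-/

set_option autoImplicit false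
set_option linter.unusedSectionVars false

open Set Filter Topology Complex
open scoped ContDiff Matrix ComplexConjugate ComplexOrder

namespace Crest.Agent.R281.End_946

open Crest.Agent.R275.Geo Crest.Agent.R275.Core144 Crest.Agent.R275.EDR890 Crest.Agent.R273
open Crest.Agent.R273.Defs_333 Crest.Agent.R273.HM_333 Crest.Agent.R273.Kah_333
open Crest.Agent.R273.Hess_333 Crest.Agent.R273.HessB_333
open Crest.Agent.R273.FIa0_597
open Crest.Agent.R281.LEnd_10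

noncomputable section

variable {n : ℕ} {M : Type} [TopologicalSpace M] {A : Atl n M} {K : Kah A} {L : LB A} {x0 : M}

theorem coe_smul' (r : ℝ) (X : Matrix (Fin n) (Fin n) ℂ) : (r : ℂ) • X = r • X := by
  ext a b
  simp [Matrix.smul_apply]

theorem psd_smul {r : ℝ} (hr : 0 ≤ r) {X : Matrix (Fin n) (Fin n) ℂ} (hX : X.PosSemidef) :
    (r • X).PosSemidef := by
  have h := psd_comb (t := 0) (c1 := r) (c2 := 0) hX (Matrix.PosSemidef.zero)
    (by simpa using Matrix.PosSemidef.zero) (fun x y hx _ _ => by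
      have := mul_nonneg hr hx
      simpa using this)
  simpa using h

section

variable (D : EndIn K L x0) {a b : ℝ} (c : Cut a b)

/-- the weight function -/
def wf (d : ℝ) : M → ℝ := gl D (c.lam d)

theorem wf_mem {d : ℝ} {x : M} (hx : x ∈ D.U) : wf D c d x = c.lam d (sqw D.w x) := gl_mem D hx

theorem wf_low {d : ℝ} {x : M} (hx : x ∈ D.U) (h : sqw D.w x ≤ a) :
    wf D c d x = Real.log (sqw D.w x + d ^ 2) := by
  rw [wf_mem D c hx, c.lam_low h]

theorem wf_psd (ha : 0 < a) (hab : a < b) :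
    ∃ C : ℝ, 0 ≤ C ∧ ∀ d : ℝ, 0 < d → d ≤ 1 → ∀ i, ∀ x ∈ (A.e i).source, x ∈ D.U →
      (C • hsf A (sqw D.w) i x + hsf A (wf D c d) i x).PosSemidef := by
  obtain ⟨C, hC, h⟩ := c.exists_bound ha hab
  refine ⟨C, hC, fun d hd hd1 i x hx hU => ?_⟩
  have ht := sqw_nonneg D.w x
  have hp : 0 < sqw D.w x + d ^ 2 := by positivity
  have e := hsf_gl D (φ := c.lam d) (φ' := c.lam1 d) (d2 := c.lam2 d (sqw D.w x)) hx hU ?_
    (c.lam_d2 hp)
  · unfold wf
    rw [e, ← add_assoc, ← add_smul]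
    refine psd_comb (psd_sqw D hx hU) (Matrix.posSemidef_vecMulVec_self_star _)
      (psd_sqw' D hx hU) fun x' y' hx' hy' hxy => ?_
    exact h d hd hd1 _ ht x' y' hx' hy' hxy
  · have ho : IsOpen {s : ℝ | 0 < s + d ^ 2} := isOpen_lt continuous_const (by fun_prop)
    filter_upwards [ho.mem_nhds hp] with s hs
    exact c.lam_d1 hs

variable [T2Space M]

theorem wf_sm (hb : b ≤ D.ρ) {d : ℝ} (hd : 0 < d) : A.Sm (wf D c d) := by
  have ho : IsOpen {s : ℝ | 0 < s + d ^ 2} := isOpen_lt continuous_const (by fun_prop)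
  refine sm_gl D ho (fun t ht => ?_) (c.lam_sm d) fun t ht => c.lam_zero (hb.trans ht.le)
  have h0 : 0 ≤ t := ht
  show 0 < t + d ^ 2
  positivity

theorem wf_off (hb : b ≤ D.ρ) {d : ℝ} {x : M} (hx : ¬ (x ∈ D.U ∧ sqw D.w x ≤ D.ρ)) :
    wf D c d x = 0 := gl_zero D (fun _ ht => c.lam_zero (hb.trans ht.le)) hx

theorem hsf_wf_off (hb : b ≤ D.ρ) {d : ℝ} {i : A.ι} {x : M} (hx : x ∈ (A.e i).source)
    (hn : ¬ (x ∈ D.U ∧ sqw D.w x ≤ D.ρ)) : hsf A (wf D c d) i x = 0 :=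
  hsf_gl_off D hx (fun _ ht => c.lam_zero (hb.trans ht.le)) hn

/-- upper bound of the weight, uniform in `d` -/
theorem wf_le (hb : b ≤ D.ρ) {d : ℝ} (hd : 0 < d) (hd1 : d ≤ 1) (x : M) :
    wf D c d x ≤ max |Real.log a| |Real.log (b + 1)| := by
  by_cases hU : x ∈ D.U
  · rw [wf_mem D c hU]
    exact c.lam_le (sqw_nonneg _ _) hd hd1
  · rw [wf_off D c hb fun h => hU h.1]
    exact (abs_nonneg _).trans (le_max_left _ _)

/-- the total weight of `L ^ P` relative to `h ^ P` -/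
def wt (P : ℕ) (N d : ℝ) (u : M → ℝ) (x : M) : ℝ := P * u x + N * wf D c d x

theorem wt_sm (hb : b ≤ D.ρ) (P : ℕ) (N : ℝ) {d : ℝ} (hd : 0 < d) {u : M → ℝ} (hu : A.Sm u) :
    A.Sm (wt D c P N d u) := fun i =>
  (contDiffOn_const.mul (hu i)).add (contDiffOn_const.mul (wf_sm D c hb hd i))

theorem hsf_wt (hb : b ≤ D.ρ) (P : ℕ) (N : ℝ) {d : ℝ} (hd : 0 < d) {u : M → ℝ} (hu : A.Sm u)
    {i : A.ι} {x : M} (hx : x ∈ (A.e i).source) :
    hsf A (wt D c P N d u) i x = (P : ℝ) • hsf A u i x + N • hsf A (wf D c d) i x := by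
  have hz := (A.e i).map_source hx
  have h1 := sm_contDiffAt hu i hz
  have h2 := sm_contDiffAt (wf_sm D c hb hd) i hz
  unfold hsf
  have e : (fun z => wt D c P N d u ((A.e i).symm z)) = fun z =>
      (fun z => (P : ℝ) * u ((A.e i).symm z)) z + (fun z => N * wf D c d ((A.e i).symm z)) z := rfl
  rw [e, hess_add (contDiffAt_const.mul h1) (contDiffAt_const.mul h2), hess_const_mul _ h1,
    hess_const_mul _ h2, coe_smul', coe_smul']

/-- the metric `h^P e^{-P u - N wf}` -/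
def mt (hb : b ≤ D.ρ) (P : ℕ) (N : ℝ) {d : ℝ} (hd : 0 < d) {u : M → ℝ} (hu : A.Sm u) :
    HM (L ^ P) := tw (pow D.h P) (wt D c P N d u) (wt_sm D c hb P N hd hu)

theorem cur_mt (hb : b ≤ D.ρ) (P : ℕ) (N : ℝ) {d : ℝ} (hd : 0 < d) {u : M → ℝ} (hu : A.Sm u)
    {i : A.ι} {x : M} (hx : x ∈ (A.e i).source) :
    cur (mt D c hb P N hd hu) i x =
      (P : ℝ) • (cur D.h i x + hsf A u i x) + N • hsf A (wf D c d) i x := by
  unfold mt
  rw [cur_tw _ _ i hx, cur_pow _ _ i hx, hsf_wt D c hb P N hd hu hx, smul_add, ← add_assoc]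
  congr 2

/-- **curvature near the fibre** -/
theorem curv_tube (hb : b ≤ D.ρ) {P : ℕ} {N C d δ : ℝ} (hN : 0 ≤ N) (hP : N * C + 1 ≤ P * D.ε)
    (hC : ∀ i, ∀ x ∈ (A.e i).source, x ∈ D.U →
      (C • hsf A (sqw D.w) i x + hsf A (wf D c d) i x).PosSemidef)
    (hd : 0 < d) {u : M → ℝ} (hu : A.Sm u)
    (hu2 : ∀ i, ∀ x ∈ (A.e i).source, x ∈ D.U → sqw D.w x ≤ D.ρ →
      (cur D.h i x + hsf A u i x + (δ : ℂ) • K.g i x - (D.ε : ℂ) • hsf A (sqw D.w) i x).PosSemidef)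
    {i : A.ι} {x : M} (hx : x ∈ (A.e i).source) (hU : x ∈ D.U) (hρ : sqw D.w x ≤ D.ρ) :
    (cur (mt D c hb P N hd hu) i x + (P * δ : ℝ) • K.g i x - hsf A (sqw D.w) i x).PosSemidef := by
  have h1 := psd_smul (Nat.cast_nonneg P) (hu2 i x hx hU hρ)
  have h2 := psd_smul hN (hC i x hx hU)
  have h3 := psd_smul (r := P * D.ε - (N * C + 1)) (by linarith) (psd_sqw D hx hU)
  have h4 := (h1.add h2).add h3
  have e : cur (mt D c hb P N hd hu) i x + (P * δ : ℝ) • K.g i x - hsf A (sqw D.w) i x =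
      (P : ℝ) • (cur D.h i x + hsf A u i x + (δ : ℂ) • K.g i x -
        (D.ε : ℂ) • hsf A (sqw D.w) i x) +
      N • (C • hsf A (sqw D.w) i x + hsf A (wf D c d) i x) +
      (P * D.ε - (N * C + 1)) • hsf A (sqw D.w) i x := by
    rw [cur_mt D c hb P N hd hu hx, coe_smul', coe_smul']
    module
  rw [e]
  exact h4

/-- **curvature everywhere** -/
theorem curv_ge (hb : b ≤ D.ρ) {P : ℕ} {N C d δ : ℝ} (hN : 0 ≤ N) (hP : N * C + 1 ≤ P * D.ε)
    (hC : ∀ i, ∀ x ∈ (A.e i).source, x ∈ D.U →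
      (C • hsf A (sqw D.w) i x + hsf A (wf D c d) i x).PosSemidef)
    (hd : 0 < d) {u : M → ℝ} (hu : A.Sm u)
    (hu1 : ∀ i, ∀ x ∈ (A.e i).source,
      (cur D.h i x + hsf A u i x + (δ : ℂ) • K.g i x).PosSemidef)
    (hu2 : ∀ i, ∀ x ∈ (A.e i).source, x ∈ D.U → sqw D.w x ≤ D.ρ →
      (cur D.h i x + hsf A u i x + (δ : ℂ) • K.g i x - (D.ε : ℂ) • hsf A (sqw D.w) i x).PosSemidef)
    {i : A.ι} {x : M} (hx : x ∈ (A.e i).source) :
    (cur (mt D c hb P N hd hu) i x + (P * δ : ℝ) • K.g i x).PosSemidef := by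
  by_cases hU : x ∈ D.U ∧ sqw D.w x ≤ D.ρ
  · have h1 := (curv_tube D c hb hN hP hC hd hu hu2 hx hU.1 hU.2).add (psd_sqw D hx hU.1)
    rwa [sub_add_cancel] at h1
  · have h1 := psd_smul (Nat.cast_nonneg P) (hu1 i x hx)
    have e : cur (mt D c hb P N hd hu) i x + (P * δ : ℝ) • K.g i x =
        (P : ℝ) • (cur D.h i x + hsf A u i x + (δ : ℂ) • K.g i x) := by
      rw [cur_mt D c hb P N hd hu hx, coe_smul', hsf_wf_off D c hb hx hU]
      module
    rw [e]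
    exact h1

/-- the squared norms of `mt` -/
theorem mt_w (hb : b ≤ D.ρ) (P : ℕ) (N : ℝ) {d : ℝ} (hd : 0 < d) {u : M → ℝ} (hu : A.Sm u)
    (i : A.ι) (x : M) : (mt D c hb P N hd hu).w i x =
      D.h.w i x ^ P * Real.exp (-(P * u x + N * wf D c d x)) := by
  have h : (mt D c hb P N hd hu).w i x = (pow D.h P).w i x * Real.exp (-(wt D c P N d u x)) := rfl
  rw [h, pow_w]
  rfl

end

end

end Crest.Agent.R281.End_946
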