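import Crest.Agent.R281.LEnd0_10
import Crest.Agent.R272.Kod6_410

/-!
# R281 (S0424), S6-L2END (helper10), part 1: interfaces, the flat metric of the canonical bundle

`flatKB σ : HM (KB A)` : the flat metric `|det σ|⁻¹` of a holomorphic symplectic form
`L2Stmt P K`           : the `L²` theorem (helper578) in the form consumed here
`HasWt E m`            : the weights with a pole of order `m` along the fibre (helper946)
-/

set_option autoImplicit false
set_option linter.unusedSectionVars false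

open Set Filter Topology Complex MeasureTheory Metric
open scoped ContDiff Matrix ComplexConjugate Manifold ComplexOrder ENNReal

namespace Crest.Agent.R281.LEnd_10

open Crest.Agent.R275 Crest.Agent.R275.Geo Crest.Agent.R275.Core144 Crest.Agent.R275.GC293
open Crest.Agent.R273.Defs_333 Crest.Agent.R273.Kah_333 Crest.Agent.R273.HM_333
open Crest.Agent.R273.Hess_333 Crest.Agent.R273.HessB_333
open Crest.Agent.R281.Defs_273
open Crest.Agent.R273.LamN127 Crest.Agent.R273.NormC_505 Crest.Agent.R273.DnInt_505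
open Crest.Agent.R273.DVec_733 Crest.Agent.R273.DMet_733
open Crest.Agent.R273.HDN_505 (HB HB_pos)
open Crest.Agent.R273.SerA_945 Crest.Agent.R273.SerB_945
open Crest.Agent.R273.TD3_733

noncomputable section

variable {n : ℕ} {M : Type} [TopologicalSpace M] {A : Atl n M}

/-! ### the flat metric -/

theorem det_sm (σ : HSymp A) (i : A.ι) : HolAt A i univ (fun x => (σ.s i x).det) := by
  have h1 : ∀ x, (σ.s i x).det = ∑ p : Equiv.Perm (Fin n),
      ((Equiv.Perm.sign p : ℤ) : ℂ) * ∏ a, σ.s i x (p a) a := fun x => Matrix.det_apply' _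
  refine (HolAt.sum (A := A) (i := i) (U := univ) Finset.univ (F := fun p x =>
    ((Equiv.Perm.sign p : ℤ) : ℂ) * ∏ a, σ.s i x (p a) a) fun p _ => ?_).congr
      fun x _ _ => (h1 x).symm
  exact HolAt.const_mul _ (HolAt.prod Finset.univ fun a _ => σ.hol i (p a) a)

/-- the flat metric of the canonical bundle of a holomorphic symplectic manifold -/
def flatKB (σ : HSymp A) : HM (KB A) where
  w i x := ‖(σ.s i x).det‖⁻¹
  pos i x hx := inv_pos.2 (norm_pos_iff.2 (σ.nd i x hx))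
  sm i := by
    have h1 := (det_sm σ i).contDiffOn isOpen_univ
    rw [preimage_univ, inter_univ] at h1
    have h2 : ContDiffOn ℝ ∞ (fun z => ‖(σ.s i ((A.e i).symm z)).det‖) (A.e i).target :=
      h1.norm ℝ fun z hz => σ.nd i _ ((A.e i).map_target hz)
    exact h2.inv fun z hz => (norm_pos_iff.2 (σ.nd i _ ((A.e i).map_target hz))).ne'
  tr i j x hx := by
    have h1 : (σ.s i x).det = (Jm A i j x).det ^ 2 * (σ.s j x).det := by
      rw [σ.tr i j x hx, Matrix.det_mul, Matrix.det_mul, Matrix.det_transpose]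
      ring
    have h2 : (KB A).g i j x = (Jm A i j x).det := KB_g hx
    have h3 : (Jm A i j x).det ≠ 0 := by
      rw [← h2]; exact (KB A).ne_zero i j x
    have h4 : ‖(Jm A i j x).det‖ ≠ 0 := norm_ne_zero_iff.2 h3
    have h5 : ‖(σ.s j x).det‖ ≠ 0 := norm_ne_zero_iff.2 (σ.nd j x hx.2)
    rw [h1, h2, norm_mul, norm_pow]
    field_simp

theorem cur_flatKB (σ : HSymp A) (i : A.ι) {x : M} (hx : x ∈ (A.e i).source) :
    cur (flatKB σ) i x = 0 := by
  have hz := (A.e i).map_source hx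
  have hd : ∀ᶠ w in 𝓝 (A.e i x), DifferentiableAt ℂ (fun w => (σ.s i ((A.e i).symm w)).det) w := by
    filter_upwards [(A.e i).open_target.mem_nhds hz] with w hw
    have h1 := (det_sm σ i).diffAt isOpen_univ ((A.e i).map_target hw) (mem_univ _)
    rwa [(A.e i).right_inv hw] at h1
  have h0 : (fun w => (σ.s i ((A.e i).symm w)).det) (A.e i x) ≠ 0 := by
    simp only [(A.e i).left_inv hx]
    exact σ.nd i x hx
  have hc : ContDiffAt ℝ ∞ (fun w => Real.log (‖(σ.s i ((A.e i).symm w)).det‖ ^ 2)) (A.e i x) := by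
    have h1 := (det_sm σ i).contDiffOn isOpen_univ
    rw [preimage_univ, inter_univ] at h1
    have h2 := (h1.contDiffAt ((A.e i).open_target.mem_nhds hz)).norm_sq ℝ
    exact h2.log (by simp only [(A.e i).left_inv hx]; exact pow_ne_zero _ (norm_ne_zero_iff.2 (σ.nd i x hx)))
  have h2 := hess_log_norm hd h0
  have h3 : (flatKB σ).wt i =ᶠ[𝓝 (A.e i x)] fun w =>
      (1 / 2 : ℝ) * Real.log (‖(σ.s i ((A.e i).symm w)).det‖ ^ 2) := by
    filter_upwards [(A.e i).open_target.mem_nhds hz] with w hw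
    show - Real.log (‖(σ.s i ((A.e i).symm w)).det‖⁻¹) = _
    rw [Real.log_inv, Real.log_pow]
    push_cast
    ring
  unfold cur
  rw [hess_congr h3, hess_const_mul _ hc, h2, smul_zero]

/-! ### interfaces -/

/-- the `L²` theorem (Hörmander-Demailly) on `(M, A)` in the form consumed here -/
def L2Stmt [T2Space M] [CompactSpace M] [Finite A.ι] (P : Part A) (K : Kah A) : Prop :=
  ∀ (N : LB A) (g : Sec (BN N)), nabL (BN N) g = 0 → pqL (BN N) 1 g = g →
  ∀ (h : ℕ → HM ((KB A)⁻¹ * N)) (href : HM ((KB A)⁻¹ * N)),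
    (∀ ν i, ∀ x ∈ (A.e i).source, href.w i x ≤ (h ν).w i x) →
  ∀ ε : ℕ → ℝ, (∀ ν, 0 < ε ν) → Tendsto ε atTop (𝓝 0) →
    (∀ ν i, ∀ x ∈ (A.e i).source, (cur (h ν) i x + (ε ν : ℂ) • K.g i x).PosSemidef) →
  ∀ (F : ℕ → A.ι → M → ℂ) (C : ℝ), (∀ ν, IsDn A (F ν)) → (∀ ν, (IntP P (F ν)).re ≤ C) →
    (∀ ν i, ∀ x ∈ (A.e i).source, ∀ ξ : Fin n → ℂ,
      (h ν).w i x * ‖∑ b, oB (g.1 i x) {b} * conj (ξ b)‖ ^ 2 ≤ (F ν i x).re *
        (∑ a, ∑ b, (cur (h ν) i x + (ε ν : ℂ) • K.g i x) a b * ξ a * conj (ξ b)).re) →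
  ∃ y : Sec (BN N), nabL (BN N) y = g ∧ pqL (BN N) 0 y = y ∧ (HB K href).sn P y ^ 2 ≤ C

/-- weights with a pole of order `m` along the fibre through `x0`, regularised by `e` -/
def HasWt {K : Kah A} {L : LB A} {x0 : M} (E : EndIn K L x0) (m : ℕ) : Prop :=
  ∃ C3 C4 : ℝ, ∀ e : ℝ, 0 < e → e ≤ 1 → ∃ Φ : M → ℝ, A.Sm Φ ∧
    (∀ i, ∀ x ∈ (A.e i).source, x ∈ E.U → sqw E.w x ≤ E.ρ →
      (hsf A Φ i x + (C3 : ℂ) • hsf A (sqw E.w) i x).PosSemidef) ∧
    (∀ x, ¬ (x ∈ E.U ∧ sqw E.w x < E.ρ) → Φ x = 0) ∧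
    (∀ x, (x ∈ E.U → E.ρ / 8 ≤ sqw E.w x) → |Φ x| ≤ C4) ∧
    (∀ x ∈ E.U, sqw E.w x ≤ E.ρ / 8 → Φ x = m * Real.log (sqw E.w x + e))

end

end Crest.Agent.R281.LEnd_10
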