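import Crest.Agent.R281.End3_946
import Crest.Agent.R281.LEnd1_10

/-!
# R281 (S0424), leaf S6-END, part 4 (helper946): the pole weight in the form used by helper10

* `HasWt E m` : for every `e ∈ (0,1]` a smooth function `Φ` on `M`, `Φ = m log(|w|² + e)` for
  `|w|² ≤ ρ/8`, `Φ = 0` off the tube, bounded off `|w|² < ρ/8`, and `∂∂̄ Φ ≥ - C ∂∂̄|w|²` on the tube,
  with constants independent of `e`
* `hasWt` : it holds for every `m`
-/

set_option autoImplicit false
set_option linter.unusedSectionVars false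

open Set Filter Topology Complex
open scoped ContDiff Matrix ComplexConjugate ComplexOrder

namespace Crest.Agent.R281.End_946

open Crest.Agent.R275.Geo Crest.Agent.R275.Core144 Crest.Agent.R275.EDR890 Crest.Agent.R273
open Crest.Agent.R273.Defs_333 Crest.Agent.R273.HM_333 Crest.Agent.R273.Kah_333
open Crest.Agent.R273.Hess_333 Crest.Agent.R273.HessB_333
open Crest.Agent.R273.FIa0_597
open Crest.Agent.R281.LEnd_10

noncomputable section

variable {n : ℕ} {M : Type} [TopologicalSpace M] {A : Atl n M} {K : Kah A} {L : LB A} {x0 : M}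

theorem hasWt [T2Space M] (E : EndIn K L x0) (m : ℕ) : HasWt E m := by
  have hρ := E.ρ_pos
  obtain ⟨c⟩ := exists_cut (a := E.ρ / 8) (b := E.ρ / 2) (by linarith)
  obtain ⟨C, hC0, hC⟩ := wf_psd E c (by positivity) (by linarith)
  set B : ℝ := max |Real.log (E.ρ / 8)| |Real.log (E.ρ / 2 + 1)| with hB
  have hB0 : 0 ≤ B := (abs_nonneg _).trans (le_max_left _ _)
  refine ⟨m * C, m * B, fun e he he1 => ?_⟩
  have hd : 0 < Real.sqrt e := Real.sqrt_pos.2 he
  have hd1 : Real.sqrt e ≤ 1 := by
    exact Real.sqrt_le_one.2 he1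
  have hd2 : Real.sqrt e ^ 2 = e := Real.sq_sqrt he.le
  have hb : E.ρ / 2 ≤ E.ρ := by linarith
  have hsm := wf_sm E c hb hd
  refine ⟨fun x => m * wf E c (Real.sqrt e) x, fun i => contDiffOn_const.mul (hsm i),
    fun i x hx hU _ => ?_, fun x hx => ?_, fun x hx => ?_, fun x hU hx => ?_⟩
  · have h1 := psd_smul (Nat.cast_nonneg m) (hC _ hd hd1 i x hx hU)
    have h2 : hsf A (fun x => (m : ℝ) * wf E c (Real.sqrt e) x) i x =
        (m : ℝ) • hsf A (wf E c (Real.sqrt e)) i x := by
      unfold hsf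
      rw [hess_const_mul _ (sm_contDiffAt hsm i ((A.e i).map_source hx)), coe_smul']
    rw [h2, coe_smul', mul_smul, ← smul_add, add_comm]
    exact h1
  · show (m : ℝ) * wf E c (Real.sqrt e) x = 0
    by_cases hU : x ∈ E.U
    · have h1 : E.ρ ≤ sqw E.w x := by
        by_contra h
        exact hx ⟨hU, not_le.1 h⟩
      rw [wf_mem E c hU, c.lam_zero (hb.trans h1), mul_zero]
    · unfold wf
      rw [gl_off E hU, mul_zero]
  · show |(m : ℝ) * wf E c (Real.sqrt e) x| ≤ m * B
    rw [abs_mul, Nat.abs_cast]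
    refine mul_le_mul_of_nonneg_left ?_ (Nat.cast_nonneg m)
    by_cases hU : x ∈ E.U
    · rw [wf_mem E c hU]
      exact c.lam_bd (by positivity) (hx hU) hd.le hd1
    · unfold wf
      rw [gl_off E hU, abs_zero]
      exact hB0
  · show (m : ℝ) * wf E c (Real.sqrt e) x = _
    rw [wf_low E c hU hx, hd2]

end

end Crest.Agent.R281.End_946
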