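import Mathlib

/-!
# Row 281, B4-ENDS (part 1): the explicit curve `f(u,w) = 0`, covering of the complement of a
finite set, root bound, local holomorphic sections.
-/

open Polynomial Set Filter Topology
open scoped Polynomial.Bivariate

namespace Crest.Agent.R281.Ends1_989

noncomputable section

/-- The plane curve `f(u,w) = 0` (all points). -/
def Zf (f : ℂ[X][Y]) : Set (ℂ × ℂ) := {q | f.evalEval q.1 q.2 = 0}

/-- The smooth part `f(u,w) = 0`, `δ(u) ≠ 0`. -/
def Qs (f : ℂ[X][Y]) (δ : ℂ[X]) : Set (ℂ × ℂ) := {q | f.evalEval q.1 q.2 = 0 ∧ δ.eval q.1 ≠ 0}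

/-- Hypothesis: `f(u,·)` is squarefree as soon as `δ(u) ≠ 0`. -/
def Sep (f : ℂ[X][Y]) (δ : ℂ[X]) : Prop :=
  ∀ u : ℂ, δ.eval u ≠ 0 → (f.map (evalRingHom u)).Separable

theorem evalEval_monomial (u w : ℂ) (n : ℕ) (a : ℂ[X]) :
    (monomial n a : ℂ[X][Y]).evalEval u w = a.eval u * w ^ n := by
  simp [evalEval, eval_monomial]

theorem contDiff_evalEval (f : ℂ[X][Y]) (n : WithTop ℕ∞) :
    ContDiff ℂ n (fun q : ℂ × ℂ => f.evalEval q.1 q.2) := by
  induction f using Polynomial.induction_on' with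
  | add p q hp hq => simpa only [evalEval_add] using hp.add hq
  | monomial k a =>
    simp only [evalEval_monomial]
    have h1 : ContDiff ℂ n (fun u : ℂ => a.eval u) := by simpa [Polynomial.coe_aeval_eq_eval] using a.contDiff_aeval (𝕜 := ℂ) n
    exact (h1.comp contDiff_fst).mul (contDiff_snd.pow k)

theorem continuous_evalEval (f : ℂ[X][Y]) :
    Continuous (fun q : ℂ × ℂ => f.evalEval q.1 q.2) := (contDiff_evalEval f 0).continuous

theorem isClosed_Zf (f : ℂ[X][Y]) : IsClosed (Zf f) :=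
  isClosed_eq (continuous_evalEval f) continuous_const

/-- The continuous root bound. -/
def bd (f : ℂ[X][Y]) (u : ℂ) : ℝ := 1 + ∑ i ∈ Finset.range f.natDegree, ‖(f.coeff i).eval u‖

theorem continuous_bd (f : ℂ[X][Y]) : Continuous (bd f) := by
  unfold bd
  refine continuous_const.add (continuous_finsetSum _ fun i _ => ?_)
  exact (f.coeff i).continuous.norm

theorem evalEval_eq_sum (f : ℂ[X][Y]) (u w : ℂ) :
    f.evalEval u w = ∑ i ∈ Finset.range (f.natDegree + 1), (f.coeff i).eval u * w ^ i := by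
  conv_lhs => rw [f.as_sum_range]
  rw [evalEval_finsetSum]
  exact Finset.sum_congr rfl fun i _ => evalEval_monomial u w i _

theorem norm_le_bd {f : ℂ[X][Y]} (hf : f.Monic) {u w : ℂ} (h : f.evalEval u w = 0) :
    ‖w‖ ≤ bd f u := by
  have hs0 : 0 ≤ ∑ i ∈ Finset.range f.natDegree, ‖(f.coeff i).eval u‖ :=
    Finset.sum_nonneg fun i _ => norm_nonneg _
  by_cases h1 : ‖w‖ ≤ 1
  · unfold bd; linarith
  push Not at h1
  rw [evalEval_eq_sum, Finset.sum_range_succ] at h
  have hc : (f.coeff f.natDegree).eval u = 1 := by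
    rw [show f.coeff f.natDegree = 1 from hf]; simp
  rw [hc, one_mul] at h
  rcases Nat.eq_zero_or_pos f.natDegree with h0 | hpos
  · rw [h0] at h; simp at h
  have h2 : w ^ f.natDegree = -∑ i ∈ Finset.range f.natDegree, (f.coeff i).eval u * w ^ i := by
    linear_combination h
  have h3 : ‖w‖ ^ f.natDegree ≤
      (∑ i ∈ Finset.range f.natDegree, ‖(f.coeff i).eval u‖) * ‖w‖ ^ (f.natDegree - 1) := by
    calc ‖w‖ ^ f.natDegree = ‖w ^ f.natDegree‖ := (norm_pow _ _).symm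
      _ = ‖∑ i ∈ Finset.range f.natDegree, (f.coeff i).eval u * w ^ i‖ := by rw [h2, norm_neg]
      _ ≤ ∑ i ∈ Finset.range f.natDegree, ‖(f.coeff i).eval u * w ^ i‖ := norm_sum_le _ _
      _ ≤ ∑ i ∈ Finset.range f.natDegree, ‖(f.coeff i).eval u‖ * ‖w‖ ^ (f.natDegree - 1) := by
          refine Finset.sum_le_sum fun i hi => ?_
          rw [norm_mul, norm_pow]
          refine mul_le_mul_of_nonneg_left ?_ (norm_nonneg _)
          exact pow_le_pow_right₀ h1.le (by have := Finset.mem_range.1 hi; omega)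
      _ = _ := by rw [Finset.sum_mul]
  have h4 : 0 < ‖w‖ ^ (f.natDegree - 1) := pow_pos (by linarith) _
  have h5 : ‖w‖ ^ f.natDegree = ‖w‖ * ‖w‖ ^ (f.natDegree - 1) := by
    rw [← pow_succ']; congr 1; omega
  rw [h5] at h3
  have h6 := le_of_mul_le_mul_right h3 h4
  unfold bd; linarith

theorem evalEval_eq_eval_map (f : ℂ[X][Y]) (u w : ℂ) :
    f.evalEval u w = (f.map (evalRingHom u)).eval w := (map_evalRingHom_eval u w f).symm

theorem derivative_ne_zero {f : ℂ[X][Y]} {δ : ℂ[X]} (hs : Sep f δ) {u w : ℂ}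
    (h : f.evalEval u w = 0) (hu : δ.eval u ≠ 0) : (derivative f).evalEval u w ≠ 0 := by
  have h1 := hs u hu
  rw [evalEval_eq_eval_map, ← Polynomial.derivative_map]
  intro h2
  rw [evalEval_eq_eval_map] at h
  have := h1.eval₂_derivative_ne_zero (RingHom.id ℂ) (x := w) (by simpa using h)
  exact this (by simpa using h2)

/-- derivative in `w` -/
theorem hasDerivAt_w (f : ℂ[X][Y]) (u w : ℂ) :
    HasDerivAt (fun w => f.evalEval u w) ((derivative f).evalEval u w) w := by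
  have h := (f.map (evalRingHom u)).hasDerivAt w
  rw [evalEval_eq_eval_map, ← Polynomial.derivative_map]
  refine h.congr_of_eventuallyEq (Eventually.of_forall fun w' => ?_)
  exact evalEval_eq_eval_map f u w'

/-- The chart `(u,w) ↦ (u, f(u,w))`. -/
def Psi (f : ℂ[X][Y]) (q : ℂ × ℂ) : ℂ × ℂ := (q.1, f.evalEval q.1 q.2)

/-- invertible shear -/
def shear (a b : ℂ) (hb : b ≠ 0) : (ℂ × ℂ) ≃L[ℂ] (ℂ × ℂ) :=
  ContinuousLinearEquiv.equivOfInverse
    ((ContinuousLinearMap.fst ℂ ℂ ℂ).prod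
      (a • ContinuousLinearMap.fst ℂ ℂ ℂ + b • ContinuousLinearMap.snd ℂ ℂ ℂ))
    ((ContinuousLinearMap.fst ℂ ℂ ℂ).prod
      (b⁻¹ • (ContinuousLinearMap.snd ℂ ℂ ℂ - a • ContinuousLinearMap.fst ℂ ℂ ℂ)))
    (fun x => by
      ext <;> simp
      field_simp)
    (fun x => by
      ext <;> simp
      field_simp
      ring)

theorem exists_hasStrictFDerivAt {f : ℂ[X][Y]} {q : ℂ × ℂ}
    (hd : (derivative f).evalEval q.1 q.2 ≠ 0) :
    ∃ L : (ℂ × ℂ) ≃L[ℂ] (ℂ × ℂ), HasStrictFDerivAt (Psi f) (L : (ℂ × ℂ) →L[ℂ] (ℂ × ℂ)) q := by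
  have h1 : HasStrictFDerivAt (fun q : ℂ × ℂ => f.evalEval q.1 q.2)
      (fderiv ℂ (fun q : ℂ × ℂ => f.evalEval q.1 q.2) q) q :=
    (contDiff_evalEval f 1).contDiffAt.hasStrictFDerivAt one_ne_zero
  set D := fderiv ℂ (fun q : ℂ × ℂ => f.evalEval q.1 q.2) q with hD
  have hb : D (0, 1) = (derivative f).evalEval q.1 q.2 := by
    have h2 : HasDerivAt (fun w => f.evalEval q.1 w) (D (0, 1)) q.2 := by
      have h3 : HasFDerivAt (fun q : ℂ × ℂ => f.evalEval q.1 q.2) D (q.1, q.2) := h1.hasFDerivAt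
      have h4 : HasDerivAt (fun w : ℂ => (q.1, w)) ((0 : ℂ), (1 : ℂ)) q.2 :=
        (hasDerivAt_const _ _).prodMk (hasDerivAt_id _)
      exact h3.comp_hasDerivAt q.2 h4
    exact h2.unique (hasDerivAt_w f q.1 q.2)
  refine ⟨shear (D (1, 0)) (D (0, 1)) (by rw [hb]; exact hd), ?_⟩
  have h5 : HasStrictFDerivAt (Psi f) ((ContinuousLinearMap.fst ℂ ℂ ℂ).prod D) q :=
    (hasStrictFDerivAt_fst).prodMk h1
  convert h5 using 1
  ext
  · simp [shear]
  · simp [shear]
  · simp [shear]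
  · simp [shear]

end

end Crest.Agent.R281.Ends1_989
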