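import Crest.Agent.R281.Ends1_989

/-!
# Row 281, B4-ENDS (part 2): `π : {f = 0} → ℂ` is a finite covering over `{δ ≠ 0}`; lifting of
maps from the upper half plane, holomorphy of lifts.
-/

open Polynomial Set Filter Topology
open scoped Polynomial.Bivariate

namespace Crest.Agent.R281.Ends2_989

open Ends1_989

noncomputable section

variable {f : ℂ[X][Y]} {δ : ℂ[X]}

/-- projection to `u` -/
def pr (f : ℂ[X][Y]) (x : Zf f) : ℂ := x.1.1

theorem continuous_pr (f : ℂ[X][Y]) : Continuous (pr f) := by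
  unfold pr; fun_prop

/-- local homeomorphism with holomorphic inverse -/
theorem exists_chart (hd : ∀ q : ℂ × ℂ, f.evalEval q.1 q.2 = 0 → δ.eval q.1 ≠ 0 →
      (derivative f).evalEval q.1 q.2 ≠ 0) {q : ℂ × ℂ} (h0 : f.evalEval q.1 q.2 = 0)
    (hδ : δ.eval q.1 ≠ 0) :
    ∃ e : OpenPartialHomeomorph (ℂ × ℂ) (ℂ × ℂ), q ∈ e.source ∧ (e : ℂ × ℂ → ℂ × ℂ) = Psi f ∧
      DifferentiableAt ℂ e.symm (q.1, 0) := by
  obtain ⟨L, hL⟩ := exists_hasStrictFDerivAt (hd q h0 hδ)
  refine ⟨hL.toOpenPartialHomeomorph (Psi f), hL.mem_toOpenPartialHomeomorph_source, rfl, ?_⟩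
  have h := hL.to_localInverse
  have h2 : Psi f q = (q.1, 0) := by simp [Psi, h0]
  rw [h2] at h
  exact h.hasFDerivAt.differentiableAt

theorem isLocalHomeomorphOn_pr (hs : Sep f δ) :
    IsLocalHomeomorphOn (pr f) (pr f ⁻¹' {u | δ.eval u ≠ 0}) := by
  intro x hx
  obtain ⟨e, hxe, he, -⟩ := exists_chart (f := f) (δ := δ)
    (fun q h1 h2 => derivative_ne_zero hs h1 h2) (q := x.1) x.2 hx
  have hsrc : ∀ y : Zf f, y.1 ∈ e.source → e y.1 = (y.1.1, 0) := fun y _ => by
    rw [he]; simp only [Psi]; rw [show f.evalEval y.1.1 y.1.2 = 0 from y.2]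
  have hmem : ∀ u : ℂ, (u, (0 : ℂ)) ∈ e.target → (e.symm (u, 0)) ∈ Zf f := fun u hu => by
    have h1 := e.right_inv hu
    rw [he] at h1
    simp only [Psi, Prod.mk.injEq] at h1
    exact h1.2
  have hfst : ∀ u : ℂ, (u, (0 : ℂ)) ∈ e.target → (e.symm (u, 0)).1 = u := fun u hu => by
    have h1 := e.right_inv hu
    rw [he] at h1
    simp only [Psi, Prod.mk.injEq] at h1
    exact h1.1
  classical
  let φ : OpenPartialHomeomorph (Zf f) ℂ :=
    { toFun := pr f
      invFun := fun u => if hu : (u, (0 : ℂ)) ∈ e.target then ⟨e.symm (u, 0), hmem u hu⟩ else x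
      source := {y | y.1 ∈ e.source}
      target := {u | (u, (0 : ℂ)) ∈ e.target}
      map_source' := fun y hy => by
        have := e.map_source hy
        rw [hsrc y hy] at this
        exact this
      map_target' := fun u hu => by
        have hu' : (u, (0 : ℂ)) ∈ e.target := hu
        simp only [mem_ofPred_eq, dif_pos hu']
        exact e.map_target hu'
      left_inv' := fun y hy => by
        have h1 := e.map_source hy
        rw [hsrc y hy] at h1
        have h2 : (pr f y, (0 : ℂ)) ∈ e.target := h1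
        simp only [dif_pos h2]
        ext1
        have h3 := e.left_inv hy
        rw [hsrc y hy] at h3
        exact h3
      right_inv' := fun u hu => by
        have hu' : (u, (0 : ℂ)) ∈ e.target := hu
        simp only [dif_pos hu', pr]
        exact hfst u hu'
      open_source := e.open_source.preimage continuous_subtype_val
      open_target := e.open_target.preimage (by fun_prop)
      continuousOn_toFun := (continuous_pr f).continuousOn
      continuousOn_invFun := by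
        rw [continuousOn_iff_continuous_domRestrict, continuous_induced_rng]
        have h1 : Continuous fun u : {u : ℂ | (u, (0 : ℂ)) ∈ e.target} => e.symm (u.1, 0) := by
          have h2 := e.continuousOn_symm
          rw [continuousOn_iff_continuous_domRestrict] at h2
          exact h2.comp (f := fun u : {u : ℂ | (u, (0 : ℂ)) ∈ e.target} =>
            (⟨(u.1, 0), u.2⟩ : e.target)) (by fun_prop)
        refine h1.congr fun u => ?_
        have hu' : (u.1, (0 : ℂ)) ∈ e.target := u.2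
        simp [hu'] }
  exact ⟨φ, hxe, rfl⟩

theorem isProperMap_pr (hf : f.Monic) : IsProperMap (pr f) := by
  rw [isProperMap_iff_isCompact_preimage]
  refine ⟨continuous_pr f, fun K hK => ?_⟩
  obtain ⟨M, hM⟩ := hK.exists_bound_of_continuousOn (continuous_bd f).continuousOn
  have h1 : IsCompact (Zf f ∩ K ×ˢ Metric.closedBall (0 : ℂ) M) :=
    (hK.prod (isCompact_closedBall _ _)).inter_left (isClosed_Zf f)
  have h2 : (Subtype.val : Zf f → ℂ × ℂ) '' (pr f ⁻¹' K) = Zf f ∩ K ×ˢ Metric.closedBall (0 : ℂ) M := by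
    ext q
    constructor
    · rintro ⟨y, hy, rfl⟩
      refine ⟨y.2, hy, ?_⟩
      rw [mem_closedBall_zero_iff]
      exact (norm_le_bd hf y.2).trans ((le_abs_self _).trans (hM _ hy))
    · rintro ⟨h3, h4, -⟩
      exact ⟨⟨q, h3⟩, h4, rfl⟩
  rw [← h2] at h1
  exact Topology.IsInducing.subtypeVal.isCompact_iff.2 h1

theorem map_ne_zero (hf : f.Monic) (u : ℂ) : f.map (evalRingHom u) ≠ 0 :=
  (hf.map _).ne_zero

theorem finite_fiber (hf : f.Monic) (u : ℂ) : {w : ℂ | f.evalEval u w = 0}.Finite := by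
  refine ((f.map (evalRingHom u)).roots.toFinset.finite_toSet).subset fun w hw => ?_
  have hw' : f.evalEval u w = 0 := hw
  rw [evalEval_eq_eval_map] at hw'
  simp only [Multiset.mem_toFinset, Finset.mem_coe]
  exact (mem_roots (map_ne_zero hf u)).2 hw'

theorem isCoveringMapOn_pr (hf : f.Monic) (hs : Sep f δ) :
    IsCoveringMapOn (pr f) {u | δ.eval u ≠ 0} := by
  refine (isProperMap_pr hf).isClosedMap.isCoveringMapOn_of_isLocalHomeomorphOn (fun u _ => ?_)
    (isLocalHomeomorphOn_pr hs)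
  have h := finite_fiber hf u
  refine Set.Finite.of_finite_image (f := fun x : Zf f => x.1.2) (h.subset ?_) ?_
  · rintro w ⟨x, hx, rfl⟩
    have hx' : x.1.1 = u := hx
    have h2 : f.evalEval x.1.1 x.1.2 = 0 := x.2
    rw [hx'] at h2
    exact h2
  · intro x hx y hy hxy
    have hx' : x.1.1 = u := hx
    have hy' : y.1.1 = u := hy
    exact Subtype.ext (Prod.ext (hx'.trans hy'.symm) hxy)

/-- the open upper half plane as a subset of `ℂ` -/
def Hp : Set ℂ := {z | 0 < z.im}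

theorem isOpen_Hp : IsOpen Hp := isOpen_lt continuous_const Complex.continuous_im

theorem convex_Hp : Convex ℝ Hp := convex_halfSpace_im_gt 0

theorem I_mem : Complex.I ∈ Hp := by simp [Hp]

instance : Nonempty Hp := ⟨⟨Complex.I, I_mem⟩⟩

instance : SimplyConnectedSpace Hp := by
  have : ContractibleSpace Hp := convex_Hp.contractibleSpace ⟨Complex.I, I_mem⟩
  infer_instance

instance : LocallyPathConnectedSpace Hp := convex_Hp.locallyPathConnectedSpace

/-- continuous lifts to the half plane -/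
def Lf (f : ℂ[X][Y]) (φ : ℂ → ℂ) : Type := {W : C(Hp, ℂ) // ∀ z : Hp, f.evalEval (φ z) (W z) = 0}

theorem exists_lift (hf : f.Monic) (hs : Sep f δ) {φ : ℂ → ℂ} (hφ : ContinuousOn φ Hp)
    (hδ : ∀ z ∈ Hp, δ.eval (φ z) ≠ 0) {z₀ : ℂ} (hz₀ : z₀ ∈ Hp) {w₀ : ℂ}
    (h0 : f.evalEval (φ z₀) w₀ = 0) : ∃ W : Lf f φ, W.1 ⟨z₀, hz₀⟩ = w₀ := by
  have hφ' : Continuous (fun z : Hp => φ z.1) := by
    rw [continuousOn_iff_continuous_domRestrict] at hφ
    exact hφ
  obtain ⟨F, ⟨hF0, hF⟩, -⟩ := (isCoveringMapOn_pr hf hs).existsUnique_continuousMap_lifts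
    (A := Hp) ⟨fun z : Hp => φ z.1, hφ'⟩ (a₀ := ⟨z₀, hz₀⟩) (e₀ := ⟨(φ z₀, w₀), h0⟩) rfl
    (fun z => hδ z.1 z.2)
  refine ⟨⟨⟨fun z => (F z).1.2, by fun_prop⟩, fun z => ?_⟩, ?_⟩
  · have h1 : (F z).1.1 = φ z.1 := congrFun hF z
    have h2 : f.evalEval (F z).1.1 (F z).1.2 = 0 := (F z).2
    rw [h1] at h2
    exact h2
  · simp [hF0]

theorem lift_unique (hf : f.Monic) (hs : Sep f δ) {φ : ℂ → ℂ} (hφ : ContinuousOn φ Hp)
    (hδ : ∀ z ∈ Hp, δ.eval (φ z) ≠ 0) (W W' : Lf f φ) (z₀ : Hp) (h : W.1 z₀ = W'.1 z₀) :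
    W = W' := by
  have hφ' : Continuous (fun z : Hp => φ z.1) := by
    rw [continuousOn_iff_continuous_domRestrict] at hφ
    exact hφ
  have h0 : f.evalEval (φ z₀) (W.1 z₀) = 0 := W.2 z₀
  obtain ⟨F, -, hu⟩ := (isCoveringMapOn_pr hf hs).existsUnique_continuousMap_lifts
    (A := Hp) ⟨fun z : Hp => φ z.1, hφ'⟩ (a₀ := z₀) (e₀ := ⟨(φ z₀, W.1 z₀), h0⟩) rfl
    (fun z => hδ z.1 z.2)
  let G : ∀ V : Lf f φ, C(Hp, Zf f) := fun V =>
    ⟨fun z => ⟨(φ z.1, V.1 z), V.2 z⟩, by
      refine Continuous.subtype_mk ?_ _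
      exact hφ'.prodMk V.1.continuous⟩
  have h1 := hu (G W) ⟨rfl, rfl⟩
  have h2 := hu (G W') ⟨Subtype.ext (Prod.ext rfl h.symm), rfl⟩
  have h3 : G W = G W' := h1.trans h2.symm
  apply Subtype.ext
  ext z
  have h4 := congrArg (fun K : C(Hp, Zf f) => (K z).1.2) h3
  exact h4

/-- extension of a lift by zero to all of `ℂ` -/
def ext (W : C(Hp, ℂ)) (z : ℂ) : ℂ := by
  classical exact if h : z ∈ Hp then W ⟨z, h⟩ else 0

theorem ext_of_mem (W : C(Hp, ℂ)) {z : ℂ} (h : z ∈ Hp) : ext W z = W ⟨z, h⟩ := by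
  simp [ext, h]

theorem continuousOn_ext (W : C(Hp, ℂ)) : ContinuousOn (ext W) Hp := by
  rw [continuousOn_iff_continuous_domRestrict]
  refine W.continuous.congr fun z => ?_
  simp [Set.domRestrict, ext_of_mem W z.2]

/-- lifts of holomorphic maps are holomorphic -/
theorem differentiableOn_of_lift (hs : Sep f δ) {φ W : ℂ → ℂ} {U : Set ℂ} (hU : IsOpen U)
    (hφ : DifferentiableOn ℂ φ U) (hδ : ∀ z ∈ U, δ.eval (φ z) ≠ 0) (hW : ContinuousOn W U)
    (h : ∀ z ∈ U, f.evalEval (φ z) (W z) = 0) : DifferentiableOn ℂ W U := by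
  intro z₀ hz₀
  obtain ⟨e, hxe, he, hdiff⟩ := exists_chart (f := f) (δ := δ)
    (fun q h1 h2 => derivative_ne_zero hs h1 h2) (q := (φ z₀, W z₀)) (h z₀ hz₀) (hδ z₀ hz₀)
  have hφ₀ : DifferentiableAt ℂ φ z₀ := (hφ z₀ hz₀).differentiableAt (hU.mem_nhds hz₀)
  have hW₀ : ContinuousAt W z₀ := (hW z₀ hz₀).continuousAt (hU.mem_nhds hz₀)
  have hev : ∀ᶠ z in 𝓝 z₀, W z = (e.symm (φ z, 0)).2 := by
    have h1 : ContinuousAt (fun z => (φ z, W z)) z₀ := hφ₀.continuousAt.prodMk hW₀
    have h2 : ∀ᶠ z in 𝓝 z₀, (φ z, W z) ∈ e.source := h1 (e.open_source.mem_nhds hxe)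
    filter_upwards [h2, hU.mem_nhds hz₀] with z hz hzU
    have h3 := e.left_inv hz
    have h4 : e (φ z, W z) = (φ z, 0) := by
      rw [he]; simp only [Psi]; rw [h z hzU]
    rw [h4] at h3
    rw [h3]
  have h5 : DifferentiableAt ℂ (fun z => (e.symm (φ z, 0)).2) z₀ := by
    have h6 : DifferentiableAt ℂ (fun z => (φ z, (0 : ℂ))) z₀ := hφ₀.prodMk (by fun_prop)
    have h7 : DifferentiableAt ℂ (fun z => e.symm (φ z, 0)) z₀ :=
      DifferentiableAt.comp (f := fun z => (φ z, (0 : ℂ))) z₀ hdiff h6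
    exact h7.snd
  exact (h5.congr_of_eventuallyEq hev).differentiableWithinAt

end

end Crest.Agent.R281.Ends2_989
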