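import Crest.Agent.R281.Ends2_989

/-!
# Row 281, B4-ENDS (part 3): one puncture.  For a 1-periodic holomorphic `φ` on the upper half
plane with `δ(φ z) ≠ 0` the roots of `f(φ(N z), ·)` are 1-periodic holomorphic functions of `z`,
meromorphic in `q = exp(2πiz)` at `q = 0`.
-/

open Polynomial Set Filter Topology
open scoped Polynomial.Bivariate

namespace Crest.Agent.R281.Ends3_989

open Ends1_989 Ends2_989

noncomputable section

/-- the parameter `q = exp (2πiz)` -/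
abbrev qq (z : ℂ) : ℂ := Function.Periodic.qParam 1 z

theorem qq_ne (z : ℂ) : qq z ≠ 0 := Function.Periodic.qParam_ne_zero z

theorem norm_qq_lt {z : ℂ} (hz : z ∈ Hp) : ‖qq z‖ < 1 :=
  Function.Periodic.norm_qParam_lt_one one_pos hz

theorem qq_add_one (z : ℂ) : qq (z + 1) = qq z := by
  unfold qq Function.Periodic.qParam
  rw [show 2 * (Real.pi : ℂ) * Complex.I * (z + 1) / ((1 : ℝ) : ℂ) =
    2 * (Real.pi : ℂ) * Complex.I * z / ((1 : ℝ) : ℂ) + 2 * Real.pi * Complex.I by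
      push_cast; ring]
  exact Complex.exp_periodic _

theorem exists_qq {t : ℂ} (h0 : t ≠ 0) (h1 : ‖t‖ < 1) : ∃ z ∈ Hp, qq z = t := by
  refine ⟨Function.Periodic.invQParam 1 t, ?_, Function.Periodic.qParam_right_inv one_ne_zero h0⟩
  show 0 < (Function.Periodic.invQParam 1 t).im
  rw [Function.Periodic.im_invQParam]
  have := Real.log_neg (norm_pos_iff.2 h0) h1
  have h2 : (-1 / (2 * Real.pi)) < 0 := by
    have := Real.pi_pos
    exact div_neg_of_neg_of_pos (by norm_num) (by positivity)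
  exact mul_pos_of_neg_of_neg h2 this

variable {f : ℂ[X][Y]} {δ : ℂ[X]} {φ : ℂ → ℂ}

theorem add_mem {z : ℂ} (hz : z ∈ Hp) (x : ℝ) : z + x ∈ Hp := by
  simpa [Hp] using hz

/-- translation by a real number -/
def tr (x : ℝ) : C(Hp, Hp) :=
  ⟨fun z => ⟨z.1 + x, add_mem z.2 x⟩, by fun_prop⟩

/-- The shift as a permutation of the lifts. -/
def sh (hp : ∀ z, φ (z + 1) = φ z) : Equiv.Perm (Lf f φ) where
  toFun W := ⟨W.1.comp (tr 1), fun z => by
    have h := W.2 (tr 1 z)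
    have h2 : φ (tr 1 z).1 = φ z.1 := by
      have := hp z.1
      simpa [tr] using this
    rw [h2] at h
    exact h⟩
  invFun W := ⟨W.1.comp (tr (-1)), fun z => by
    have h := W.2 (tr (-1) z)
    have h2 : φ (tr (-1) z).1 = φ z.1 := by
      have := hp (z.1 + (-1 : ℝ))
      simpa [tr] using this.symm
    rw [h2] at h
    exact h⟩
  left_inv W := by
    apply Subtype.ext
    ext z
    simp [tr]
  right_inv W := by
    apply Subtype.ext
    ext z
    simp [tr]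

theorem sh_pow_apply (hp : ∀ z, φ (z + 1) = φ z) (n : ℕ) (W : Lf f φ) (z : Hp) :
    (((sh hp) ^ n) W).1 z = W.1 (tr n z) := by
  induction n generalizing z with
  | zero => simp [tr]
  | succ n ih =>
    rw [pow_succ', Equiv.Perm.mul_apply]
    show (((sh hp) ^ n) W).1 (tr 1 z) = _
    rw [ih]
    congr 1
    apply Subtype.ext
    simp [tr]
    ring

theorem finite_Lf (hf : f.Monic) (hs : Sep f δ) (hφ : ContinuousOn φ Hp)
    (hδ : ∀ z ∈ Hp, δ.eval (φ z) ≠ 0) : Finite (Lf f φ) := by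
  have h := (finite_fiber hf (φ Complex.I)).to_subtype
  refine Finite.of_injective
    (fun W : Lf f φ => (⟨W.1 ⟨Complex.I, I_mem⟩, W.2 ⟨Complex.I, I_mem⟩⟩ :
      {w : ℂ | f.evalEval (φ Complex.I) w = 0})) fun W W' h => ?_
  exact lift_unique hf hs hφ hδ W W' ⟨Complex.I, I_mem⟩ (congrArg Subtype.val h)

theorem exists_period (hf : f.Monic) (hs : Sep f δ) (hφ : ContinuousOn φ Hp)
    (hδ : ∀ z ∈ Hp, δ.eval (φ z) ≠ 0) (hp : ∀ z, φ (z + 1) = φ z) :
    ∃ N : ℕ, 0 < N ∧ ∀ (W : Lf f φ) (z : Hp), W.1 (tr N z) = W.1 z := by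
  have := finite_Lf hf hs hφ hδ
  refine ⟨Nat.card (Equiv.Perm (Lf f φ)), Nat.card_pos, fun W z => ?_⟩
  rw [← sh_pow_apply hp, pow_card_eq_one']
  rfl

theorem mul_mem {N : ℕ} (hN : 0 < N) {z : ℂ} : (N : ℂ) * z ∈ Hp ↔ z ∈ Hp := by
  have h : ((N : ℂ) * z).im = N * z.im := by simp
  have hN' : (0 : ℝ) < N := by exact_mod_cast hN
  simp only [Hp, mem_ofPred_eq, h]
  exact mul_pos_iff_of_pos_left hN'

/-- The end function attached to a lift: `z ↦ W (N z)`. -/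
def Vf (N : ℕ) (W : Lf f φ) (z : ℂ) : ℂ := ext W.1 (N * z)

theorem Vf_periodic {N : ℕ} (hN : 0 < N)
    (h : ∀ (W : Lf f φ) (z : Hp), W.1 (tr N z) = W.1 z) (W : Lf f φ) :
    Function.Periodic (Vf N W) ((1 : ℝ) : ℂ) := by
  intro z
  unfold Vf
  by_cases hz : z ∈ Hp
  · have h1 : (N : ℂ) * z ∈ Hp := (mul_mem hN).2 hz
    have h2 : (N : ℂ) * (z + ((1 : ℝ) : ℂ)) ∈ Hp := (mul_mem hN).2 (add_mem hz 1)
    rw [ext_of_mem _ h1, ext_of_mem _ h2, ← h W ⟨_, h1⟩]
    congr 1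
    apply Subtype.ext
    simp [tr]
    ring
  · have h1 : (N : ℂ) * z ∉ Hp := fun hh => hz ((mul_mem hN).1 hh)
    have h2 : (N : ℂ) * (z + ((1 : ℝ) : ℂ)) ∉ Hp := fun hh => by
      have h3 := (mul_mem hN).1 hh
      apply hz
      simpa [Hp] using h3
    show Ends2_989.ext W.1 _ = Ends2_989.ext W.1 _
    simp only [Ends2_989.ext, dif_neg h1, dif_neg h2]

theorem Vf_zero {N : ℕ} (hN : 0 < N) (W : Lf f φ) {z : ℂ}
    (hz : z ∈ Hp) : f.evalEval (φ (N * z)) (Vf N W z) = 0 := by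
  have h1 : (N : ℂ) * z ∈ Hp := (mul_mem hN).2 hz
  unfold Vf
  rw [ext_of_mem _ h1]
  exact W.2 ⟨_, h1⟩

theorem differentiableOn_Vf {N : ℕ} (hN : 0 < N) (hs : Sep f δ) (hφ : DifferentiableOn ℂ φ Hp)
    (hδ : ∀ z ∈ Hp, δ.eval (φ z) ≠ 0) (W : Lf f φ) : DifferentiableOn ℂ (Vf N W) Hp := by
  have h1 : DifferentiableOn ℂ (ext W.1) Hp :=
    differentiableOn_of_lift hs isOpen_Hp hφ hδ (continuousOn_ext W.1) fun z hz => by
      rw [ext_of_mem _ hz]; exact W.2 ⟨z, hz⟩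
  exact h1.comp (f := fun z : ℂ => (N : ℂ) * z) (by fun_prop) fun z hz => (mul_mem hN).2 hz

/-- polynomial growth of the root bound -/
theorem bd_le (f : ℂ[X][Y]) : ∃ (C : ℝ) (k : ℕ), 0 ≤ C ∧ ∀ u : ℂ, bd f u ≤ C * (1 + ‖u‖) ^ k := by
  have hpoly : ∀ a : ℂ[X], ∃ (C : ℝ) (k : ℕ), 0 ≤ C ∧ ∀ u : ℂ, ‖a.eval u‖ ≤ C * (1 + ‖u‖) ^ k := by
    intro a
    refine ⟨∑ i ∈ Finset.range (a.natDegree + 1), ‖a.coeff i‖, a.natDegree,
      Finset.sum_nonneg fun i _ => norm_nonneg _, fun u => ?_⟩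
    rw [eval_eq_sum_range, Finset.sum_mul]
    refine (norm_sum_le _ _).trans (Finset.sum_le_sum fun i hi => ?_)
    rw [norm_mul, norm_pow]
    refine mul_le_mul_of_nonneg_left ?_ (norm_nonneg _)
    calc ‖u‖ ^ i ≤ (1 + ‖u‖) ^ i := by gcongr; linarith [norm_nonneg u]
      _ ≤ (1 + ‖u‖) ^ a.natDegree :=
        pow_le_pow_right₀ (by linarith [norm_nonneg u]) (by have := Finset.mem_range.1 hi; omega)
  choose C k hC hk using hpoly
  refine ⟨1 + ∑ i ∈ Finset.range f.natDegree, C (f.coeff i),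
    ∑ i ∈ Finset.range f.natDegree, k (f.coeff i), ?_, fun u => ?_⟩
  · have : 0 ≤ ∑ i ∈ Finset.range f.natDegree, C (f.coeff i) :=
      Finset.sum_nonneg fun i _ => hC _
    linarith
  · have h1 : (1 : ℝ) ≤ 1 + ‖u‖ := by linarith [norm_nonneg u]
    unfold bd
    rw [add_mul, one_mul, Finset.sum_mul]
    refine add_le_add (one_le_pow₀ h1) (Finset.sum_le_sum fun i hi => (hk _ u).trans ?_)
    refine mul_le_mul_of_nonneg_left ?_ (hC _)
    exact pow_le_pow_right₀ h1 (Finset.single_le_sum (f := fun i => k (f.coeff i))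
      (fun _ _ => Nat.zero_le _) hi)

theorem norm_qq_natMul (N : ℕ) (z : ℂ) : ‖qq (N * z)‖ = ‖qq z‖ ^ N := by
  unfold qq
  rw [Function.Periodic.norm_qParam, Function.Periodic.norm_qParam, ← Real.exp_nat_mul]
  congr 1
  simp
  ring

/-- **Meromorphy at the puncture.** -/
theorem exists_mero {N : ℕ} (hN : 0 < N) (hf : f.Monic) (hs : Sep f δ)
    (hφ : DifferentiableOn ℂ φ Hp) (hδ : ∀ z ∈ Hp, δ.eval (φ z) ≠ 0)
    (h : ∀ (W : Lf f φ) (z : Hp), W.1 (tr N z) = W.1 z)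
    {B : ℝ} (hB : ∀ z ∈ Hp, ‖φ z‖ ≤ B * ‖qq z‖⁻¹) (W : Lf f φ) :
    ∃ (k : ℕ) (H : ℂ → ℂ), DifferentiableOn ℂ H (Metric.ball 0 1) ∧
      ∀ z ∈ Hp, qq z ^ k * Vf N W z = H (qq z) := by
  obtain ⟨C, k, hC, hk⟩ := bd_le f
  set G : ℂ → ℂ := fun z => qq z ^ (N * k) * Vf N W z with hG
  have hper : Function.Periodic G ((1 : ℝ) : ℂ) := by
    intro z
    have h1 := Vf_periodic hN h W z
    have h2 : qq (z + ((1 : ℝ) : ℂ)) = qq z := by simpa using qq_add_one z
    simp only [hG, h2, h1]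
  have hqd : Differentiable ℂ qq := Function.Periodic.differentiable_qParam
  have hdiff : DifferentiableOn ℂ G Hp :=
    (hqd.differentiableOn.pow _).mul (differentiableOn_Vf hN hs hφ hδ W)
  have hB0 : 0 ≤ B := by
    have h1 := hB Complex.I I_mem
    by_contra hneg
    push Not at hneg
    have h2 : B * ‖qq Complex.I‖⁻¹ < 0 :=
      mul_neg_of_neg_of_pos hneg (inv_pos.2 (norm_pos_iff.2 (qq_ne _)))
    linarith [norm_nonneg (φ Complex.I)]
  have hbd : ∀ z ∈ Hp, ‖G z‖ ≤ C * (1 + B) ^ k := by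
    intro z hz
    have h1 : (N : ℂ) * z ∈ Hp := (mul_mem hN).2 hz
    have h2 : ‖Vf N W z‖ ≤ C * (1 + ‖φ (N * z)‖) ^ k :=
      (norm_le_bd hf (Vf_zero hN W hz)).trans (hk _)
    have h3 := hB _ h1
    rw [norm_qq_natMul] at h3
    have hq0 : 0 < ‖qq z‖ := norm_pos_iff.2 (qq_ne z)
    have hq1 : ‖qq z‖ ^ N ≤ 1 := pow_le_one₀ hq0.le (norm_qq_lt hz).le
    have hqN : 0 < ‖qq z‖ ^ N := pow_pos hq0 _
    have h4 : (1 + ‖φ (N * z)‖) * ‖qq z‖ ^ N ≤ 1 + B := by
      have h5 : ‖φ (N * z)‖ * ‖qq z‖ ^ N ≤ B := by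
        calc ‖φ (N * z)‖ * ‖qq z‖ ^ N ≤ (B * (‖qq z‖ ^ N)⁻¹) * ‖qq z‖ ^ N := by gcongr
          _ = B := by field_simp
      nlinarith
    calc ‖G z‖ = ‖qq z‖ ^ (N * k) * ‖Vf N W z‖ := by simp [hG, norm_pow]
      _ ≤ ‖qq z‖ ^ (N * k) * (C * (1 + ‖φ (N * z)‖) ^ k) := by gcongr
      _ = C * ((1 + ‖φ (N * z)‖) * ‖qq z‖ ^ N) ^ k := by rw [mul_pow, pow_mul]; ring
      _ ≤ C * (1 + B) ^ k := by
          refine mul_le_mul_of_nonneg_left (pow_le_pow_left₀ (by positivity) h4 k) hC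
  have hev : ∀ᶠ z in comap Complex.im atTop, z ∈ Hp := by
    have : Tendsto Complex.im (comap Complex.im atTop) atTop := tendsto_comap
    exact this.eventually_gt_atTop 0
  refine ⟨N * k, Function.Periodic.cuspFunction 1 G, ?_, fun z hz => ?_⟩
  · intro t ht
    apply DifferentiableAt.differentiableWithinAt
    by_cases ht0 : t = 0
    · subst ht0
      refine Function.Periodic.differentiableAt_cuspFunction_zero one_pos hper ?_ ?_
      · filter_upwards [hev] with z hz using (hdiff z hz).differentiableAt (isOpen_Hp.mem_nhds hz)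
      · refine Asymptotics.IsBigO.of_bound (C * (1 + B) ^ k) ?_
        filter_upwards [hev] with z hz
        simpa using hbd z hz
    · obtain ⟨z, hz, rfl⟩ := exists_qq ht0 (by simpa using ht)
      exact Function.Periodic.differentiableAt_cuspFunction one_ne_zero hper
        ((hdiff z hz).differentiableAt (isOpen_Hp.mem_nhds hz))
  · exact (Function.Periodic.eq_cuspFunction one_ne_zero hper z).symm

end

end Crest.Agent.R281.Ends3_989
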