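import Crest.Agent.R281.Ends3_989

/-!
# Row 281, B4-ENDS (part 4): the curve `Q = {f(u,w) = 0, δ(u) ≠ 0}` is a compact core together with
finitely many punctured-disc ends; regular functions are meromorphic at the ends.
-/

open Polynomial Set Filter Topology
open scoped Polynomial.Bivariate

namespace Crest.Agent.R281.Ends4_989

open Ends1_989 Ends2_989 Ends3_989

noncomputable section

/-- 1-periodic holomorphic functions on the half plane of moderate growth at `i∞`. -/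
def Mg (g : ℂ → ℂ) : Prop :=
  DifferentiableOn ℂ g Hp ∧ (∀ z, g (z + 1) = g z) ∧
    ∃ (C : ℝ) (m : ℕ), ∀ z ∈ Hp, ‖g z‖ * ‖qq z‖ ^ m ≤ C

theorem pow_qq_le_one {z : ℂ} (hz : z ∈ Hp) (m : ℕ) : ‖qq z‖ ^ m ≤ 1 :=
  pow_le_one₀ (norm_nonneg _) (norm_qq_lt hz).le

theorem Mg.const (c : ℂ) : Mg (fun _ => c) :=
  ⟨differentiableOn_const _, fun _ => rfl, ‖c‖, 0, fun z _ => by simp⟩

theorem Mg.add {g h : ℂ → ℂ} (hg : Mg g) (hh : Mg h) : Mg (fun z => g z + h z) := by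
  obtain ⟨dg, pg, Cg, mg, bg⟩ := hg
  obtain ⟨dh, ph, Ch, mh, bh⟩ := hh
  refine ⟨dg.add dh, fun z => by simp only [pg, ph], Cg + Ch, mg + mh, fun z hz => ?_⟩
  have h1 := bg z hz
  have h2 := bh z hz
  have h3 := pow_qq_le_one hz mg
  have h4 := pow_qq_le_one hz mh
  have h5 : 0 ≤ ‖qq z‖ ^ mg := by positivity
  have h6 : 0 ≤ ‖qq z‖ ^ mh := by positivity
  calc ‖g z + h z‖ * ‖qq z‖ ^ (mg + mh)
      ≤ (‖g z‖ + ‖h z‖) * ‖qq z‖ ^ (mg + mh) := by gcongr; exact norm_add_le _ _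
    _ = (‖g z‖ * ‖qq z‖ ^ mg) * ‖qq z‖ ^ mh + (‖h z‖ * ‖qq z‖ ^ mh) * ‖qq z‖ ^ mg := by ring
    _ ≤ (‖g z‖ * ‖qq z‖ ^ mg) * 1 + (‖h z‖ * ‖qq z‖ ^ mh) * 1 := by gcongr
    _ ≤ Cg + Ch := by linarith

theorem Mg.mul {g h : ℂ → ℂ} (hg : Mg g) (hh : Mg h) : Mg (fun z => g z * h z) := by
  obtain ⟨dg, pg, Cg, mg, bg⟩ := hg
  obtain ⟨dh, ph, Ch, mh, bh⟩ := hh
  refine ⟨dg.mul dh, fun z => by simp only [pg, ph], Cg * Ch, mg + mh, fun z hz => ?_⟩
  have h1 := bg z hz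
  have h2 := bh z hz
  calc ‖g z * h z‖ * ‖qq z‖ ^ (mg + mh) = (‖g z‖ * ‖qq z‖ ^ mg) * (‖h z‖ * ‖qq z‖ ^ mh) := by
        rw [norm_mul]; ring
    _ ≤ Cg * Ch := mul_le_mul h1 h2 (by positivity) (le_trans (by positivity) h1)

theorem Mg.pow {g : ℂ → ℂ} (hg : Mg g) (n : ℕ) : Mg (fun z => g z ^ n) := by
  induction n with
  | zero => simpa using Mg.const 1
  | succ n ih => simpa only [pow_succ] using ih.mul hg

theorem Mg.eval {g : ℂ → ℂ} (hg : Mg g) (a : ℂ[X]) : Mg (fun z => a.eval (g z)) := by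
  induction a using Polynomial.induction_on' with
  | add p q hp hq => simpa only [eval_add] using hp.add hq
  | monomial n c => simpa only [eval_monomial] using (Mg.const c).mul (hg.pow n)

theorem Mg.evalEval {u v : ℂ → ℂ} (hu : Mg u) (hv : Mg v) (g : ℂ[X][Y]) :
    Mg (fun z => g.evalEval (u z) (v z)) := by
  induction g using Polynomial.induction_on' with
  | add p q hp hq => simpa only [evalEval_add] using hp.add hq
  | monomial n a => simpa only [evalEval_monomial] using (hu.eval a).mul (hv.pow n)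

theorem Mg.exists_mero {g : ℂ → ℂ} (hg : Mg g) : ∃ (m : ℕ) (H : ℂ → ℂ),
    DifferentiableOn ℂ H (Metric.ball 0 1) ∧ ∀ z ∈ Hp, g z = (qq z ^ m)⁻¹ * H (qq z) := by
  obtain ⟨dg, pg, C, m, bg⟩ := hg
  set G : ℂ → ℂ := fun z => qq z ^ m * g z with hG
  have hper : Function.Periodic G ((1 : ℝ) : ℂ) := by
    intro z
    have h2 : qq (z + ((1 : ℝ) : ℂ)) = qq z := by simpa using qq_add_one z
    have h1 : g (z + ((1 : ℝ) : ℂ)) = g z := by simpa using pg z
    simp only [hG, h2, h1]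
  have hqd : Differentiable ℂ qq := Function.Periodic.differentiable_qParam
  have hdiff : DifferentiableOn ℂ G Hp := (hqd.differentiableOn.pow _).mul dg
  have hev : ∀ᶠ z in comap Complex.im atTop, z ∈ Hp := by
    have : Tendsto Complex.im (comap Complex.im atTop) atTop := tendsto_comap
    exact this.eventually_gt_atTop 0
  refine ⟨m, Function.Periodic.cuspFunction 1 G, ?_, fun z hz => ?_⟩
  · intro t ht
    apply DifferentiableAt.differentiableWithinAt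
    by_cases ht0 : t = 0
    · subst ht0
      refine Function.Periodic.differentiableAt_cuspFunction_zero one_pos hper ?_ ?_
      · filter_upwards [hev] with z hz using (hdiff z hz).differentiableAt (isOpen_Hp.mem_nhds hz)
      · refine Asymptotics.IsBigO.of_bound C ?_
        filter_upwards [hev] with z hz
        have := bg z hz
        simp only [hG, norm_mul, norm_pow, Pi.one_apply, norm_one, mul_one]
        rwa [mul_comm] at this
    · obtain ⟨z, hz, rfl⟩ := exists_qq ht0 (by simpa using ht)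
      exact Function.Periodic.differentiableAt_cuspFunction one_ne_zero hper
        ((hdiff z hz).differentiableAt (isOpen_Hp.mem_nhds hz))
  · have h1 := Function.Periodic.eq_cuspFunction one_ne_zero hper z
    rw [h1]
    have h2 : qq z ^ m ≠ 0 := pow_ne_zero _ (qq_ne z)
    simp only [hG]
    field_simp

variable {f : ℂ[X][Y]} {δ : ℂ[X]} {φ : ℂ → ℂ}

theorem Mg_Vf {N : ℕ} (hN : 0 < N) (hf : f.Monic) (hs : Sep f δ)
    (hφ : DifferentiableOn ℂ φ Hp) (hδ : ∀ z ∈ Hp, δ.eval (φ z) ≠ 0)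
    (h : ∀ (W : Lf f φ) (z : Hp), W.1 (tr N z) = W.1 z)
    {B : ℝ} (hB : ∀ z ∈ Hp, ‖φ z‖ ≤ B * ‖qq z‖⁻¹) (W : Lf f φ) : Mg (Vf N W) := by
  obtain ⟨C, k, hC, hk⟩ := bd_le f
  have hB0 : 0 ≤ B := by
    have h1 := hB Complex.I I_mem
    by_contra hneg
    push Not at hneg
    have h2 : B * ‖qq Complex.I‖⁻¹ < 0 :=
      mul_neg_of_neg_of_pos hneg (inv_pos.2 (norm_pos_iff.2 (qq_ne _)))
    linarith [norm_nonneg (φ Complex.I)]
  refine ⟨differentiableOn_Vf hN hs hφ hδ W, fun z => by simpa using Vf_periodic hN h W z,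
    C * (1 + B) ^ k, N * k, fun z hz => ?_⟩
  have h1 : (N : ℂ) * z ∈ Hp := (mul_mem hN).2 hz
  have h2 : ‖Vf N W z‖ ≤ C * (1 + ‖φ (N * z)‖) ^ k :=
    (norm_le_bd hf (Vf_zero hN W hz)).trans (hk _)
  have h3 := hB _ h1
  rw [norm_qq_natMul] at h3
  have hq0 : 0 < ‖qq z‖ := norm_pos_iff.2 (qq_ne z)
  have hq1 : ‖qq z‖ ^ N ≤ 1 := pow_le_one₀ hq0.le (norm_qq_lt hz).le
  have hqN : 0 < ‖qq z‖ ^ N := pow_pos hq0 _
  have h4 : (1 + ‖φ (N * z)‖) * ‖qq z‖ ^ N ≤ 1 + B := by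
    have h5 : ‖φ (N * z)‖ * ‖qq z‖ ^ N ≤ B := by
      calc ‖φ (N * z)‖ * ‖qq z‖ ^ N ≤ (B * (‖qq z‖ ^ N)⁻¹) * ‖qq z‖ ^ N := by gcongr
        _ = B := by field_simp
    nlinarith
  calc ‖Vf N W z‖ * ‖qq z‖ ^ (N * k)
      ≤ (C * (1 + ‖φ (N * z)‖) ^ k) * ‖qq z‖ ^ (N * k) := by gcongr
    _ = C * ((1 + ‖φ (N * z)‖) * ‖qq z‖ ^ N) ^ k := by rw [mul_pow, pow_mul]; ring
    _ ≤ C * (1 + B) ^ k := by
        refine mul_le_mul_of_nonneg_left (pow_le_pow_left₀ (by positivity) h4 k) hC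

/-- lower bound of a polynomial away from its zeros -/
theorem le_norm_eval (hδ0 : δ ≠ 0) {u : ℂ} {η : ℝ} (hη : 0 ≤ η)
    (h : ∀ a, δ.eval a = 0 → η ≤ ‖u - a‖) :
    ‖δ.leadingCoeff‖ * η ^ δ.natDegree ≤ ‖δ.eval u‖ := by
  have hsp : δ.Splits := IsAlgClosed.splits δ
  have h1 := hsp.eval_eq_prod_roots u
  rw [h1, norm_mul]
  refine mul_le_mul_of_nonneg_left ?_ (norm_nonneg _)
  have h2 : δ.natDegree = Multiset.card δ.roots := hsp.natDegree_eq_card_roots
  rw [h2]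
  have h3 : ∀ s : Multiset ℂ, (∀ a ∈ s, η ≤ ‖u - a‖) →
      η ^ Multiset.card s ≤ ‖(s.map (fun a => u - a)).prod‖ := by
    intro s
    induction s using Multiset.induction_on with
    | empty => intro _; simp
    | cons a s ih =>
      intro hs
      rw [Multiset.card_cons, Multiset.map_cons, Multiset.prod_cons, norm_mul, pow_succ']
      exact mul_le_mul (hs a (Multiset.mem_cons_self a s))
        (ih fun b hb => hs b (Multiset.mem_cons_of_mem hb)) (by positivity) (norm_nonneg _)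
  exact h3 _ fun a ha => h a ((mem_roots hδ0).1 ha)

/-- One punctured-disc end of the curve `Q = {f = 0, δ ≠ 0}`: the half plane coordinate `z` with
`q = exp(2πiz)`. -/
structure EndC (f : ℂ[X][Y]) (δ : ℂ[X]) where
  /-- `u`-coordinate -/
  U : ℂ → ℂ
  /-- `w`-coordinate -/
  V : ℂ → ℂ
  /-- ramification index -/
  N : ℕ
  N_pos : 0 < N
  mgU : Mg U
  mgV : Mg V
  mg_inv : Mg (fun z => (δ.eval (U z))⁻¹)
  mem : ∀ z ∈ Hp, (U z, V z) ∈ Qs f δ
  shape : (∃ (p : ℂ) (r : ℝ), 0 < r ∧ δ.eval p = 0 ∧ ∀ z, U z = p + r * qq z ^ N) ∨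
    (∃ R : ℝ, 0 < R ∧ ∀ z, U z = R * (qq z ^ N)⁻¹)

namespace EndC

variable (E : EndC f δ)

theorem diffU : DifferentiableOn ℂ E.U Hp := E.mgU.1
theorem diffV : DifferentiableOn ℂ E.V Hp := E.mgV.1
theorem perU (z : ℂ) : E.U (z + 1) = E.U z := E.mgU.2.1 z
theorem perV (z : ℂ) : E.V (z + 1) = E.V z := E.mgV.2.1 z

/-- regular functions `g/δ^k` have moderate growth -/
theorem mg (g : ℂ[X][Y]) (k : ℕ) :
    Mg (fun z => g.evalEval (E.U z) (E.V z) / δ.eval (E.U z) ^ k) := by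
  have h := (E.mgU.evalEval E.mgV g).mul (E.mg_inv.pow k)
  simpa only [div_eq_mul_inv, inv_pow] using h

/-- **(Q4)** regular functions are meromorphic at the end -/
theorem mero (g : ℂ[X][Y]) (k : ℕ) : ∃ (m : ℕ) (H : ℂ → ℂ),
    DifferentiableOn ℂ H (Metric.ball 0 1) ∧
    ∀ z ∈ Hp, g.evalEval (E.U z) (E.V z) / δ.eval (E.U z) ^ k = (qq z ^ m)⁻¹ * H (qq z) :=
  (E.mg g k).exists_mero

end EndC

theorem norm_qq (z : ℂ) : ‖qq z‖ = Real.exp (-(2 * Real.pi * z.im)) := by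
  unfold qq
  rw [Function.Periodic.norm_qParam]
  congr 1; ring

theorem qq_natMul (N : ℕ) (z : ℂ) : qq (N * z) = qq z ^ N := by
  unfold qq Function.Periodic.qParam
  rw [← Complex.exp_nat_mul]
  congr 1
  push_cast
  ring

/-- **One puncture, assembled.**  `φ` is the parametrisation of a punctured neighbourhood. -/
theorem exists_ends_at (hf : f.Monic) (hδ0 : δ ≠ 0) (hs : Sep f δ)
    (hφ : Differentiable ℂ φ) (hp : ∀ z, φ (z + 1) = φ z)
    {B : ℝ} (hB : ∀ z ∈ Hp, ‖φ z‖ ≤ B * ‖qq z‖⁻¹) {η : ℝ} (hη : 0 < η)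
    (hlow : ∀ z ∈ Hp, ∀ a, δ.eval a = 0 → η * ‖qq z‖ ≤ ‖φ z - a‖)
    (hshape : (∃ (p : ℂ) (r : ℝ), 0 < r ∧ δ.eval p = 0 ∧ ∀ z, φ z = p + r * qq z) ∨
      (∃ R : ℝ, 0 < R ∧ ∀ z, φ z = R * (qq z)⁻¹)) :
    ∃ (n : ℕ) (E : Fin n → EndC f δ) (N : ℕ), 0 < N ∧
      ∀ z : ℂ, (N : ℝ) ≤ z.im → ∀ w, f.evalEval (φ z) w = 0 →
        ∃ (i : Fin n) (z' : ℂ), 1 ≤ z'.im ∧ (E i).U z' = φ z ∧ (E i).V z' = w := by
  have hδ : ∀ z ∈ Hp, δ.eval (φ z) ≠ 0 := by
    intro z hz h0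
    have h1 := hlow z hz (φ z) h0
    rw [sub_self, norm_zero] at h1
    have : 0 < η * ‖qq z‖ := mul_pos hη (norm_pos_iff.2 (qq_ne z))
    linarith
  obtain ⟨N, hN, hNW⟩ := exists_period (f := f) hf hs hφ.continuous.continuousOn hδ hp
  have hfin := finite_Lf (f := f) hf hs hφ.continuous.continuousOn hδ
  obtain ⟨n, ⟨eq⟩⟩ := Finite.exists_equiv_fin (Lf f φ)
  have hqd : Differentiable ℂ qq := Function.Periodic.differentiable_qParam
  have hU : Mg (fun z => φ (N * z)) := by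
    refine ⟨?_, fun z => ?_, B, N, fun z hz => ?_⟩
    · exact (hφ.comp (f := fun z : ℂ => (N : ℂ) * z) (by fun_prop)).differentiableOn
    · have h1 : ∀ m : ℕ, ∀ z, φ (z + m) = φ z := by
        intro m
        induction m with
        | zero => intro z; simp
        | succ m ih =>
          intro z
          have := hp (z + m)
          rw [ih] at this
          rw [← this]; congr 1; push_cast; ring
      have h2 := h1 N (N * z)
      show φ (N * (z + 1)) = φ (N * z)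
      rw [← h2]; congr 1; ring
    · have h1 := hB _ ((mul_mem hN).2 hz)
      rw [norm_qq_natMul] at h1
      have hqN : 0 < ‖qq z‖ ^ N := pow_pos (norm_pos_iff.2 (qq_ne z)) _
      calc ‖φ (N * z)‖ * ‖qq z‖ ^ N ≤ (B * (‖qq z‖ ^ N)⁻¹) * ‖qq z‖ ^ N := by gcongr
        _ = B := by field_simp
  have hinv : Mg (fun z => (δ.eval (φ (N * z)))⁻¹) := by
    refine ⟨?_, fun z => ?_, (‖δ.leadingCoeff‖ * η ^ δ.natDegree)⁻¹, N * δ.natDegree,
      fun z hz => ?_⟩
    · refine ((Mg.eval hU δ).1).inv fun z hz => ?_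
      exact hδ _ ((mul_mem hN).2 hz)
    · have := hU.2.1 z
      simp only at this ⊢
      rw [this]
    · have h1 : (N : ℂ) * z ∈ Hp := (mul_mem hN).2 hz
      have h2 := le_norm_eval (δ := δ) hδ0 (u := φ (N * z)) (η := η * ‖qq (N * z)‖)
        (by positivity) (fun a ha => hlow _ h1 a ha)
      rw [norm_qq_natMul, mul_pow, ← pow_mul] at h2
      have hlc : 0 < ‖δ.leadingCoeff‖ := norm_pos_iff.2 (leadingCoeff_ne_zero.2 hδ0)
      have hq0 : 0 < ‖qq z‖ ^ (N * δ.natDegree) := pow_pos (norm_pos_iff.2 (qq_ne z)) _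
      have he : 0 < ‖δ.eval (φ (N * z))‖ := norm_pos_iff.2 (hδ _ h1)
      rw [norm_inv, inv_mul_le_iff₀ he, ← div_eq_mul_inv, le_div_iff₀ (by positivity)]
      linarith
  have hVm := Mg_Vf hN hf hs hφ.differentiableOn hδ hNW hB
  refine ⟨n, fun i =>
    { U := fun z => φ (N * z)
      V := Vf N (eq.symm i)
      N := N
      N_pos := hN
      mgU := hU
      mgV := hVm _
      mg_inv := hinv
      mem := fun z hz => ⟨Vf_zero hN _ hz, hδ _ ((mul_mem hN).2 hz)⟩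
      shape := ?_ }, N, hN, fun z hz w hw => ?_⟩
  · rcases hshape with ⟨p, r, hr, hpz, h⟩ | ⟨R, hR, h⟩
    · exact Or.inl ⟨p, r, hr, hpz, fun z => by rw [h, qq_natMul]⟩
    · exact Or.inr ⟨R, hR, fun z => by rw [h, qq_natMul]⟩
  · have hN' : (0 : ℝ) < N := by exact_mod_cast hN
    have hNC : (N : ℂ) ≠ 0 := by exact_mod_cast hN.ne'
    have hzH : z ∈ Hp := lt_of_lt_of_le hN' hz
    obtain ⟨W, hW⟩ := exists_lift hf hs hφ.continuous.continuousOn hδ hzH hw
    have hmul : (N : ℂ) * (z / N) = z := by field_simp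
    refine ⟨eq W, z / N, ?_, ?_, ?_⟩
    · have : (z / (N : ℂ)).im = z.im / N := by
        rw [Complex.div_natCast_im]
      rw [this, le_div_iff₀ hN']
      linarith
    · simp only [hmul]
    · simp only [Equiv.symm_apply_apply]
      unfold Vf
      rw [hmul, ext_of_mem _ hzH]
      exact hW

end

end Crest.Agent.R281.Ends4_989
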