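import Crest.Agent.R281.Ends4_989

/-!
# Row 281, B4-ENDS (part 5): the main statement.
-/

open Polynomial Set Filter Topology
open scoped Polynomial.Bivariate

namespace Crest.Agent.R281.Ends5_989

open Ends1_989 Ends2_989 Ends3_989 Ends4_989

noncomputable section

variable {f : ℂ[X][Y]} {δ : ℂ[X]}

theorem differentiable_qq : Differentiable ℂ qq := Function.Periodic.differentiable_qParam

/-- data around a finite puncture -/
theorem ends_finite (hf : f.Monic) (hδ0 : δ ≠ 0) (hs : Sep f δ) {p : ℂ} (hp : δ.eval p = 0)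
    {r : ℝ} (hr : 0 < r) (hgap : ∀ a, δ.eval a = 0 → a ≠ p → 2 * r ≤ ‖p - a‖) :
    ∃ (n : ℕ) (E : Fin n → EndC f δ) (ρ : ℝ), 0 < ρ ∧
      ∀ u w : ℂ, u ≠ p → ‖u - p‖ ≤ ρ → f.evalEval u w = 0 →
        ∃ (i : Fin n) (z : ℂ), 1 ≤ z.im ∧ (E i).U z = u ∧ (E i).V z = w := by
  have hBB : ∀ z ∈ Hp, ‖p + r * qq z‖ ≤ (‖p‖ + r) * ‖qq z‖⁻¹ := by
    intro z hz
    have h1 : 1 ≤ ‖qq z‖⁻¹ := (one_le_inv₀ (norm_pos_iff.2 (qq_ne z))).2 (norm_qq_lt hz).le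
    calc ‖p + r * qq z‖ ≤ ‖p‖ + r * ‖qq z‖ := by
          refine (norm_add_le _ _).trans ?_
          rw [norm_mul, Complex.norm_real, Real.norm_eq_abs, abs_of_pos hr]
      _ ≤ (‖p‖ + r) * 1 := by nlinarith [norm_qq_lt hz]
      _ ≤ (‖p‖ + r) * ‖qq z‖⁻¹ := by gcongr
  have hll : ∀ z ∈ Hp, ∀ a, δ.eval a = 0 → r * ‖qq z‖ ≤ ‖p + r * qq z - a‖ := by
    intro z hz a ha
    have hq1 := norm_qq_lt hz
    have hq0 : 0 < ‖qq z‖ := norm_pos_iff.2 (qq_ne z)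
    have hn : ‖(r : ℂ) * qq z‖ = r * ‖qq z‖ := by
      rw [norm_mul, Complex.norm_real, Real.norm_eq_abs, abs_of_pos hr]
    by_cases hap : a = p
    · subst hap
      rw [add_sub_cancel_left, hn]
    · have h1 := hgap a ha hap
      have h2 : ‖p - a‖ ≤ ‖p + r * qq z - a‖ + ‖(r : ℂ) * qq z‖ := by
        have h3 : p - a = (p + r * qq z - a) - r * qq z := by ring
        calc ‖p - a‖ = ‖(p + r * qq z - a) - r * qq z‖ := by rw [← h3]
          _ ≤ _ := norm_sub_le _ _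
      rw [hn] at h2
      nlinarith
  obtain ⟨n, E, N, hN, h⟩ := exists_ends_at (f := f) (δ := δ) (φ := fun z => p + r * qq z) hf hδ0 hs
    (by have := differentiable_qq; fun_prop) (fun z => by simp only [qq_add_one])
    (B := ‖p‖ + r) hBB (η := r) hr hll (Or.inl ⟨p, r, hr, hp, fun z => rfl⟩)
  refine ⟨n, E, r * Real.exp (-(2 * Real.pi * N)), by positivity, fun u w hu hur hw => ?_⟩
  have ht0 : (u - p) / r ≠ 0 := div_ne_zero (sub_ne_zero.2 hu) (by exact_mod_cast hr.ne')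
  have hnorm : ‖(u - p) / r‖ = ‖u - p‖ / r := by
    rw [norm_div, Complex.norm_real, Real.norm_eq_abs, abs_of_pos hr]
  have hNpos : (0 : ℝ) < N := by exact_mod_cast hN
  have ht : ‖(u - p) / r‖ ≤ Real.exp (-(2 * Real.pi * N)) := by
    rw [hnorm, div_le_iff₀ hr]; linarith
  have hlt : Real.exp (-(2 * Real.pi * N)) < 1 := by
    rw [Real.exp_lt_one_iff]
    nlinarith [mul_pos Real.pi_pos hNpos]
  obtain ⟨z, hz, hqz⟩ := exists_qq ht0 (ht.trans_lt hlt)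
  have hφ : p + r * qq z = u := by
    have hr' : (r : ℂ) ≠ 0 := by exact_mod_cast hr.ne'
    rw [hqz]
    field_simp
    ring
  have him : (N : ℝ) ≤ z.im := by
    rw [← hqz, norm_qq, Real.exp_le_exp] at ht
    have := Real.pi_pos
    nlinarith
  obtain ⟨i, z', h1, h2, h3⟩ := h z him w (by simp only [hφ]; exact hw)
  exact ⟨i, z', h1, h2.trans hφ, h3⟩

/-- data around infinity -/
theorem ends_infty (hf : f.Monic) (hδ0 : δ ≠ 0) (hs : Sep f δ)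
    {R : ℝ} (hR : 0 < R) (hgap : ∀ a, δ.eval a = 0 → 2 * ‖a‖ ≤ R) :
    ∃ (n : ℕ) (E : Fin n → EndC f δ) (ρ : ℝ), 0 < ρ ∧
      ∀ u w : ℂ, ρ ≤ ‖u‖ → f.evalEval u w = 0 →
        ∃ (i : Fin n) (z : ℂ), 1 ≤ z.im ∧ (E i).U z = u ∧ (E i).V z = w := by
  have hinv : Differentiable ℂ (fun z => (R : ℂ) * (qq z)⁻¹) :=
    ((differentiable_qq).inv (fun z => qq_ne z)).const_mul _
  have hBB : ∀ z ∈ Hp, ‖(R : ℂ) * (qq z)⁻¹‖ ≤ R * ‖qq z‖⁻¹ := by
    intro z _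
    rw [norm_mul, norm_inv, Complex.norm_real, Real.norm_eq_abs, abs_of_pos hR]
  have hll : ∀ z ∈ Hp, ∀ a, δ.eval a = 0 → R / 2 * ‖qq z‖ ≤ ‖(R : ℂ) * (qq z)⁻¹ - a‖ := by
    intro z hz a ha
    have hq1 := norm_qq_lt hz
    have hq0 : 0 < ‖qq z‖ := norm_pos_iff.2 (qq_ne z)
    have hn : ‖(R : ℂ) * (qq z)⁻¹‖ = R * ‖qq z‖⁻¹ := by
      rw [norm_mul, norm_inv, Complex.norm_real, Real.norm_eq_abs, abs_of_pos hR]
    have h1 : 1 ≤ ‖qq z‖⁻¹ := (one_le_inv₀ hq0).2 hq1.le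
    have h2 := hgap a ha
    have h3 : ‖(R : ℂ) * (qq z)⁻¹‖ ≤ ‖(R : ℂ) * (qq z)⁻¹ - a‖ + ‖a‖ := by
      calc ‖(R : ℂ) * (qq z)⁻¹‖ = ‖((R : ℂ) * (qq z)⁻¹ - a) + a‖ := by rw [sub_add_cancel]
        _ ≤ _ := norm_add_le _ _
    rw [hn] at h3
    nlinarith
  obtain ⟨n, E, N, hN, h⟩ := exists_ends_at (f := f) (δ := δ) (φ := fun z => R * (qq z)⁻¹) hf hδ0 hs
    hinv (fun z => by simp only [qq_add_one])
    (B := R) hBB (η := R / 2) (by positivity) hll (Or.inr ⟨R, hR, fun z => rfl⟩)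
  refine ⟨n, E, R * Real.exp (2 * Real.pi * N), by positivity, fun u w hur hw => ?_⟩
  have hNpos : (0 : ℝ) < N := by exact_mod_cast hN
  have hu0 : 0 < ‖u‖ := lt_of_lt_of_le (by positivity) hur
  have hu : u ≠ 0 := norm_pos_iff.1 hu0
  have hR' : (R : ℂ) ≠ 0 := by exact_mod_cast hR.ne'
  have ht0 : (R : ℂ) / u ≠ 0 := div_ne_zero hR' hu
  have hnorm : ‖(R : ℂ) / u‖ = R / ‖u‖ := by
    rw [norm_div, Complex.norm_real, Real.norm_eq_abs, abs_of_pos hR]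
  have ht : ‖(R : ℂ) / u‖ ≤ Real.exp (-(2 * Real.pi * N)) := by
    rw [hnorm, div_le_iff₀ hu0, Real.exp_neg]
    have he := Real.exp_pos (2 * Real.pi * N)
    calc R = (Real.exp (2 * Real.pi * N))⁻¹ * (R * Real.exp (2 * Real.pi * N)) := by
          field_simp
      _ ≤ (Real.exp (2 * Real.pi * N))⁻¹ * ‖u‖ := by gcongr
  have hlt : Real.exp (-(2 * Real.pi * N)) < 1 := by
    rw [Real.exp_lt_one_iff]
    nlinarith [mul_pos Real.pi_pos hNpos]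
  obtain ⟨z, hz, hqz⟩ := exists_qq ht0 (ht.trans_lt hlt)
  have hφ : (R : ℂ) * (qq z)⁻¹ = u := by
    rw [hqz]
    field_simp
  have him : (N : ℝ) ≤ z.im := by
    rw [← hqz, norm_qq, Real.exp_le_exp] at ht
    have := Real.pi_pos
    nlinarith
  obtain ⟨i, z', h1, h2, h3⟩ := h z him w (by simp only [hφ]; exact hw)
  exact ⟨i, z', h1, h2.trans hφ, h3⟩

/-- a positive gap between the zeros of `δ` -/
theorem exists_gap (hδ0 : δ ≠ 0) : ∃ r : ℝ, 0 < r ∧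
    ∀ p a, δ.eval p = 0 → δ.eval a = 0 → a ≠ p → 2 * r ≤ ‖p - a‖ := by
  set S : Finset ℂ := δ.roots.toFinset with hS
  have hmem : ∀ a, δ.eval a = 0 → a ∈ S := fun a ha => by
    rw [hS, Multiset.mem_toFinset]; exact (mem_roots hδ0).2 ha
  set T : Finset (ℂ × ℂ) := (S ×ˢ S).filter (fun x => x.2 ≠ x.1) with hT
  rcases T.eq_empty_or_nonempty with he | hne
  · refine ⟨1, one_pos, fun p a hp ha hap => ?_⟩
    have : (p, a) ∈ T := by
      rw [hT, Finset.mem_filter, Finset.mem_product]; exact ⟨⟨hmem p hp, hmem a ha⟩, hap⟩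
    rw [he] at this
    exact absurd this (Finset.notMem_empty _)
  · obtain ⟨x, hx, hmin⟩ := T.exists_min_image (fun x => ‖x.1 - x.2‖) hne
    have hx' : x.2 ≠ x.1 := by
      rw [hT, Finset.mem_filter] at hx; exact hx.2
    have hpos : 0 < ‖x.1 - x.2‖ := norm_pos_iff.2 (sub_ne_zero.2 hx'.symm)
    refine ⟨‖x.1 - x.2‖ / 2, by positivity, fun p a hp ha hap => ?_⟩
    have : (p, a) ∈ T := by
      rw [hT, Finset.mem_filter, Finset.mem_product]; exact ⟨⟨hmem p hp, hmem a ha⟩, hap⟩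
    have := hmin _ this
    simp only at this
    linarith

theorem exists_radius (hδ0 : δ ≠ 0) : ∃ R : ℝ, 0 < R ∧ ∀ a, δ.eval a = 0 → 2 * ‖a‖ ≤ R := by
  set S : Finset ℂ := δ.roots.toFinset with hS
  refine ⟨1 + ∑ a ∈ S, 2 * ‖a‖, ?_, fun a ha => ?_⟩
  · have : 0 ≤ ∑ a ∈ S, 2 * ‖a‖ := Finset.sum_nonneg fun i _ => by positivity
    linarith
  · have ha' : a ∈ S := by
      rw [hS, Multiset.mem_toFinset]; exact (mem_roots hδ0).2 ha
    have h1 : 2 * ‖a‖ ≤ ∑ a ∈ S, 2 * ‖a‖ :=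
      Finset.single_le_sum (f := fun a => 2 * ‖a‖) (fun i _ => by positivity) ha'
    linarith

/-- **(Q2)+(Q3)**: `Q` = compact core ∪ finitely many punctured-disc ends. -/
theorem exists_ends (hf : f.Monic) (hδ0 : δ ≠ 0) (hs : Sep f δ) :
    ∃ (n : ℕ) (E : Fin n → EndC f δ) (K : Set (ℂ × ℂ)), IsCompact K ∧ K ⊆ Qs f δ ∧
      ∀ q ∈ Qs f δ, q ∈ K ∨ ∃ (i : Fin n) (z : ℂ), 1 ≤ z.im ∧ ((E i).U z, (E i).V z) = q := by
  obtain ⟨r, hr, hgap⟩ := exists_gap hδ0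
  obtain ⟨R, hR, hR2⟩ := exists_radius hδ0
  have h1 : ∀ p : {p : ℂ // p ∈ δ.roots.toFinset}, ∃ (n : ℕ) (E : Fin n → EndC f δ) (ρ : ℝ), 0 < ρ ∧
      ∀ u w : ℂ, u ≠ p → ‖u - p‖ ≤ ρ → f.evalEval u w = 0 →
        ∃ (i : Fin n) (z : ℂ), 1 ≤ z.im ∧ (E i).U z = u ∧ (E i).V z = w := fun p => by
    have hp : δ.eval p.1 = 0 := (mem_roots hδ0).1 (Multiset.mem_toFinset.1 p.2)
    exact ends_finite hf hδ0 hs hp hr fun a ha hap => hgap p.1 a hp ha hap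
  choose n E ρ hρ hE using h1
  obtain ⟨n', E', ρ', hρ', hE'⟩ := ends_infty hf hδ0 hs hR hR2
  obtain ⟨m, ⟨eq⟩⟩ := Finite.exists_equiv_fin ((Σ p : {p : ℂ // p ∈ δ.roots.toFinset}, Fin (n p)) ⊕ Fin n')
  let EE : ((Σ p : {p : ℂ // p ∈ δ.roots.toFinset}, Fin (n p)) ⊕ Fin n') → EndC f δ :=
    Sum.elim (fun x => E x.1 x.2) E'
  set K : Set (ℂ × ℂ) := {q | f.evalEval q.1 q.2 = 0 ∧ ‖q.1‖ ≤ ρ' ∧
    ∀ p : {p : ℂ // p ∈ δ.roots.toFinset}, ρ p ≤ ‖q.1 - p‖} with hK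
  refine ⟨m, fun i => EE (eq.symm i), K, ?_, ?_, ?_⟩
  · have hc : IsClosed K := by
      have e : K = Zf f ∩ ({q : ℂ × ℂ | ‖q.1‖ ≤ ρ'} ∩
          ⋂ p : {p : ℂ // p ∈ δ.roots.toFinset}, {q : ℂ × ℂ | ρ p ≤ ‖q.1 - p‖}) := by
        ext q
        simp [hK, Zf]
      rw [e]
      refine (isClosed_Zf f).inter ((isClosed_le (by fun_prop) (by fun_prop)).inter
        (isClosed_iInter fun p => isClosed_le (by fun_prop) (by fun_prop)))
    obtain ⟨M, hM⟩ := (isCompact_closedBall (0 : ℂ) ρ').exists_bound_of_continuousOn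
      (continuous_bd f).continuousOn
    refine ((isCompact_closedBall (0 : ℂ) ρ').prod (isCompact_closedBall (0 : ℂ) M)).of_isClosed_subset
      hc fun q hq => ?_
    have h2 : q.1 ∈ Metric.closedBall (0 : ℂ) ρ' := by simpa using hq.2.1
    refine ⟨h2, ?_⟩
    rw [mem_closedBall_zero_iff]
    exact (norm_le_bd hf hq.1).trans ((le_abs_self _).trans (hM _ h2))
  · intro q hq
    refine ⟨hq.1, fun h0 => ?_⟩
    have hp : q.1 ∈ δ.roots.toFinset := by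
      rw [Multiset.mem_toFinset]; exact (mem_roots hδ0).2 h0
    have h3 := hq.2.2 ⟨q.1, hp⟩
    have h4 := hρ ⟨q.1, hp⟩
    simp only [sub_self, norm_zero] at h3
    linarith
  · intro q hq
    by_cases hqK : q ∈ K
    · exact Or.inl hqK
    right
    by_cases hbig : ρ' ≤ ‖q.1‖
    · obtain ⟨i, z, hz, hu, hv⟩ := hE' q.1 q.2 hbig hq.1
      exact ⟨eq (Sum.inr i), z, hz, by simp [EE, hu, hv]⟩
    · push Not at hbig
      have h5 : ∃ p : {p : ℂ // p ∈ δ.roots.toFinset}, ‖q.1 - p‖ < ρ p := by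
        by_contra hno
        push Not at hno
        exact hqK ⟨hq.1, hbig.le, hno⟩
      obtain ⟨p, hp⟩ := h5
      have hpz : δ.eval p.1 = 0 := (mem_roots hδ0).1 (Multiset.mem_toFinset.1 p.2)
      have hne : q.1 ≠ p := fun h => hq.2 (by rw [h]; exact hpz)
      obtain ⟨i, z, hz, hu, hv⟩ := hE p q.1 q.2 hne hp.le hq.1
      exact ⟨eq (Sum.inl ⟨p, i⟩), z, hz, by simp [EE, hu, hv]⟩

theorem norm_qq_tendsto_small (N : ℕ) (hN : 0 < N) {c : ℝ} (hc : 0 < c) :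
    ∃ b : ℝ, ∀ z : ℂ, b ≤ z.im → ‖qq z‖ ^ N < c := by
  refine ⟨max 0 (1 - Real.log c / (2 * Real.pi)), fun z hz => ?_⟩
  have hz0 : 0 ≤ z.im := le_trans (le_max_left _ _) hz
  have hz1 : 1 - Real.log c / (2 * Real.pi) ≤ z.im := le_trans (le_max_right _ _) hz
  have hpi := Real.pi_pos
  have h1 : ‖qq z‖ ^ N ≤ ‖qq z‖ := by
    refine pow_le_of_le_one (norm_nonneg _) ?_ hN.ne'
    rw [norm_qq, Real.exp_le_one_iff]
    nlinarith
  refine lt_of_le_of_lt h1 ?_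
  rw [norm_qq, ← Real.lt_log_iff_exp_lt hc]
  have h2 : 2 * Real.pi * (1 - Real.log c / (2 * Real.pi)) ≤ 2 * Real.pi * z.im :=
    mul_le_mul_of_nonneg_left hz1 (by positivity)
  have h3 : 2 * Real.pi * (1 - Real.log c / (2 * Real.pi)) = 2 * Real.pi - Real.log c := by
    field_simp
  linarith

/-- the ends leave every compact subset of `Q`. -/
theorem leaves_compact (E : EndC f δ) {K : Set (ℂ × ℂ)} (hK : IsCompact K) (hKQ : K ⊆ Qs f δ) :
    ∃ b : ℝ, ∀ z : ℂ, b ≤ z.im → (E.U z, E.V z) ∉ K := by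
  obtain ⟨M₁, hM₁⟩ := hK.exists_bound_of_continuousOn (f := fun q : ℂ × ℂ => (δ.eval q.1)⁻¹)
    (ContinuousOn.inv₀ ((δ.continuous.comp continuous_fst).continuousOn) fun q hq => (hKQ hq).2)
  obtain ⟨M₂, hM₂⟩ := hK.exists_bound_of_continuousOn (f := fun q : ℂ × ℂ => q.1)
    (continuous_fst).continuousOn
  rcases E.shape with ⟨p, r, hr, hp, hU⟩ | ⟨R, hR, hU⟩
  · have hc : Continuous (fun t : ℂ => δ.eval (p + r * t)) :=
      δ.continuous.comp (by fun_prop)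
    have h0 : δ.eval (p + r * 0) = 0 := by simp [hp]
    have hpos : 0 < (|M₁| + 1)⁻¹ := by positivity
    obtain ⟨c, hc0, hc1⟩ := Metric.continuousAt_iff.1 hc.continuousAt _ hpos
    obtain ⟨b, hb⟩ := norm_qq_tendsto_small E.N E.N_pos hc0
    refine ⟨b, fun z hz hmem => ?_⟩
    have h1 := hc1 (x := qq z ^ E.N) (by rw [dist_zero_right, norm_pow]; exact hb z hz)
    rw [h0, dist_zero_right, ← hU z] at h1
    have h2 := hM₁ _ hmem
    have h3 : δ.eval (E.U z) ≠ 0 := (hKQ hmem).2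
    simp only [norm_inv] at h2
    have h4 : |M₁| + 1 < ‖δ.eval (E.U z)‖⁻¹ := by
      rw [lt_inv_comm₀ (by positivity) (norm_pos_iff.2 h3)]
      exact h1
    linarith [le_abs_self M₁]
  · obtain ⟨b, hb⟩ := norm_qq_tendsto_small E.N E.N_pos (c := R / (|M₂| + 1)) (by positivity)
    refine ⟨b, fun z hz hmem => ?_⟩
    have h1 := hb z hz
    have h2 := hM₂ _ hmem
    have h3 : 0 < ‖qq z‖ ^ E.N := pow_pos (norm_pos_iff.2 (qq_ne z)) _
    simp only [hU z, norm_mul, norm_inv, norm_pow, Complex.norm_real, Real.norm_eq_abs,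
      abs_of_pos hR] at h2
    rw [lt_div_iff₀ (by positivity)] at h1
    have h4 : |M₂| + 1 < R * (‖qq z‖ ^ E.N)⁻¹ := by
      rw [← div_eq_mul_inv, lt_div_iff₀ h3]; linarith
    linarith [le_abs_self M₂]

end

end Crest.Agent.R281.Ends5_989
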