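import Crest.Agent.R281.Ends5_989

/-!
# Row 281, END-SCALE: the ring of 1-periodic holomorphic functions of moderate growth on the upper
half plane (functions at an end of the curve): domain of characteristic zero, evaluations, orders.
-/

open Polynomial Set Filter Topology
open scoped Polynomial.Bivariate

namespace Crest.Agent.R281.Esc1_989

open Ends1_989 Ends2_989 Ends3_989 Ends4_989 Ends5_989

noncomputable section

theorem Mg.neg {g : ℂ → ℂ} (hg : Mg g) : Mg (fun z => - g z) := by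
  simpa using (Mg.const (-1)).mul hg

/-- The ring of germs-free functions at an end: restrictions to the half plane of moderate growth
1-periodic holomorphic functions. -/
def MgR : Subring (Hp → ℂ) where
  carrier := {g | ∃ G : ℂ → ℂ, Mg G ∧ ∀ z : Hp, g z = G z}
  mul_mem' := by
    rintro a b ⟨A, hA, ha⟩ ⟨B, hB, hb⟩
    exact ⟨_, hA.mul hB, fun z => by simp [ha, hb]⟩
  one_mem' := ⟨_, Mg.const 1, fun z => rfl⟩
  add_mem' := by
    rintro a b ⟨A, hA, ha⟩ ⟨B, hB, hb⟩
    exact ⟨_, hA.add hB, fun z => by simp [ha, hb]⟩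
  zero_mem' := ⟨_, Mg.const 0, fun z => rfl⟩
  neg_mem' := by
    rintro a ⟨A, hA, ha⟩
    exact ⟨_, Mg.neg hA, fun z => by simp [ha]⟩

/-- evaluation at a point of the half plane -/
def ev (z : Hp) : MgR →+* ℂ := (Pi.evalRingHom (fun _ : Hp => ℂ) z).comp MgR.subtype

theorem ev_apply (z : Hp) (g : MgR) : ev z g = g.1 z := rfl

/-- make an element of the ring -/
def mk (G : ℂ → ℂ) (hG : Mg G) : MgR := ⟨fun z => G z, G, hG, fun _ => rfl⟩

theorem ev_mk (G : ℂ → ℂ) (hG : Mg G) (z : Hp) : ev z (mk G hG) = G z := rfl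

instance : Nontrivial MgR := ⟨0, 1, fun h => by
  have := congrArg (ev ⟨Complex.I, I_mem⟩) h
  simp at this⟩

theorem ext_ev {a b : MgR} (h : ∀ z : Hp, ev z a = ev z b) : a = b :=
  Subtype.ext (funext h)

instance : NoZeroDivisors MgR where
  eq_zero_or_eq_zero_of_mul_eq_zero := by
    rintro a b hab
    obtain ⟨A, hA, ha⟩ := a.2
    obtain ⟨B, hB, hb⟩ := b.2
    have h1 : AnalyticOnNhd ℂ A Hp := hA.1.analyticOnNhd isOpen_Hp
    have h2 : AnalyticOnNhd ℂ B Hp := hB.1.analyticOnNhd isOpen_Hp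
    have h3 : ∀ z ∈ Hp, A z * B z = 0 := by
      intro z hz
      have := congrArg (ev ⟨z, hz⟩) hab
      rw [map_mul, map_zero, ev_apply, ev_apply, ha, hb] at this
      exact this
    rcases h1.eq_zero_or_eq_zero_of_mul_eq_zero h2 h3 convex_Hp.isPreconnected with h | h
    · left
      refine ext_ev fun z => ?_
      rw [map_zero, ev_apply, ha]; exact h z.1 z.2
    · right
      refine ext_ev fun z => ?_
      rw [map_zero, ev_apply, hb]; exact h z.1 z.2

instance : IsDomain MgR := NoZeroDivisors.to_isDomain _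

/-- constants -/
def cst : ℂ →+* MgR where
  toFun c := mk (fun _ => c) (Mg.const c)
  map_one' := rfl
  map_mul' _ _ := rfl
  map_zero' := rfl
  map_add' _ _ := rfl

theorem ev_cst (z : Hp) (c : ℂ) : ev z (cst c) = c := rfl

instance : CharZero MgR := charZero_of_injective_ringHom (f := cst) cst.injective

/-- the scale `L z = 2π Im z = log 1/|q|` -/
def Ls (z : Hp) : ℝ := 2 * Real.pi * z.1.im

theorem log_norm_qq (z : Hp) : Real.log ‖qq z.1‖ = - Ls z := by
  rw [norm_qq, Real.log_exp, Ls]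

/-- the filter of the end -/
def lEnd : Filter Hp := comap (fun z : Hp => z.1.im) atTop

theorem tendsto_Ls : Tendsto Ls lEnd atTop := by
  have h : Tendsto (fun z : Hp => z.1.im) lEnd atTop := tendsto_comap
  exact h.const_mul_atTop (by positivity)

theorem tendsto_qq : Tendsto (fun z : Hp => qq z.1) lEnd (𝓝[≠] 0) := by
  have h := Function.Periodic.qParam_tendsto (h := 1) one_pos
  refine h.comp ?_
  rw [tendsto_comap_iff]
  exact tendsto_comap

/-- **Order at the end**: a nonzero function of the ring is comparable with a power of `|q|`. -/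
theorem order (g : MgR) (hg : g ≠ 0) : ∃ k : ℤ, ∃ C : ℝ,
    ∀ᶠ z in lEnd, ev z g ≠ 0 ∧ |Real.log ‖ev z g‖ - k * Ls z| ≤ C := by
  obtain ⟨G, hG, hgG⟩ := g.2
  obtain ⟨m, H, hH, hGH⟩ := hG.exists_mero
  have hHa : AnalyticAt ℂ H 0 :=
    (hH.analyticOnNhd Metric.isOpen_ball) 0 (Metric.mem_ball_self one_pos)
  have hne : ¬ ∀ᶠ t in 𝓝 (0 : ℂ), H t = 0 := by
    intro h0
    have h1 : EqOn H 0 (Metric.ball 0 1) :=
      (hH.analyticOnNhd Metric.isOpen_ball).eqOn_zero_of_preconnected_of_eventuallyEq_zero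
        (convex_ball _ _).isPreconnected (Metric.mem_ball_self one_pos) h0
    apply hg
    refine ext_ev fun z => ?_
    rw [map_zero, ev_apply, hgG, hGH z.1 z.2, h1 (by simpa using norm_qq_lt z.2)]
    simp
  obtain ⟨n, H₁, hH₁, hH₁0, hev⟩ := hHa.exists_eventuallyEq_pow_smul_nonzero_iff.2 hne
  have hcont : Tendsto (fun t => Real.log ‖H₁ t‖) (𝓝 0) (𝓝 (Real.log ‖H₁ 0‖)) := by
    refine (Real.continuousAt_log (norm_ne_zero_iff.2 hH₁0)).tendsto.comp ?_
    exact hH₁.continuousAt.norm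
  have h2 : ∀ᶠ t in 𝓝 (0 : ℂ), |Real.log ‖H₁ t‖ - Real.log ‖H₁ 0‖| ≤ 1 := by
    have := hcont.eventually (Metric.closedBall_mem_nhds _ one_pos)
    filter_upwards [this] with t ht
    rwa [Real.dist_eq] at ht
  have h3 : ∀ᶠ t in 𝓝 (0 : ℂ), H₁ t ≠ 0 := hH₁.continuousAt.eventually_ne hH₁0
  refine ⟨(m : ℤ) - n, |Real.log ‖H₁ 0‖| + 1, ?_⟩
  have h4 := tendsto_qq.mono_right nhdsWithin_le_nhds
  filter_upwards [h4.eventually hev, h4.eventually h2, h4.eventually h3] with z hz1 hz2 hz3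
  have hq : qq z.1 ≠ 0 := qq_ne _
  have e1 : ev z g = (qq z.1 ^ m)⁻¹ * (qq z.1 ^ n * H₁ (qq z.1)) := by
    rw [ev_apply, hgG, hGH z.1 z.2, hz1, sub_zero, smul_eq_mul]
  have e2 : Real.log ‖ev z g‖ = ((m : ℝ) - n) * Ls z + Real.log ‖H₁ (qq z.1)‖ := by
    rw [e1, norm_mul, norm_mul, norm_inv, norm_pow, norm_pow,
      Real.log_mul (by positivity) (mul_ne_zero (by positivity) (norm_ne_zero_iff.2 hz3)),
      Real.log_mul (by positivity) (norm_ne_zero_iff.2 hz3), Real.log_inv, Real.log_pow,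
      Real.log_pow, log_norm_qq]
    ring
  refine ⟨?_, ?_⟩
  · rw [e1]
    exact mul_ne_zero (inv_ne_zero (pow_ne_zero _ hq)) (mul_ne_zero (pow_ne_zero _ hq) hz3)
  · rw [e2]
    push_cast
    rw [add_sub_cancel_left]
    calc |Real.log ‖H₁ (qq z.1)‖| = |(Real.log ‖H₁ (qq z.1)‖ - Real.log ‖H₁ 0‖) + Real.log ‖H₁ 0‖| := by
          rw [sub_add_cancel]
      _ ≤ |Real.log ‖H₁ (qq z.1)‖ - Real.log ‖H₁ 0‖| + |Real.log ‖H₁ 0‖| := abs_add_le _ _
      _ ≤ |Real.log ‖H₁ 0‖| + 1 := by linarith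

section Regular

variable {f : ℂ[X][Y]} {δ : ℂ[X]} {R : Type*} [CommRing R]

/-- the point of the curve with end coordinate `z` -/
def ptE (E : EndC f δ) (z : Hp) : Qs f δ := ⟨(E.U z, E.V z), E.mem z.1 z.2⟩

/-- A family of ring homomorphisms `ev q : R →+* ℂ` (`q` on the curve), each `r` being a regular
function on the curve. -/
structure Reg (f : ℂ[X][Y]) (δ : ℂ[X]) (R : Type*) [CommRing R] where
  evq : Qs f δ → R →+* ℂ
  reg : ∀ r, ∃ (g : ℂ[X][Y]) (k : ℕ), ∀ q : Qs f δ,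
    evq q r = g.evalEval q.1.1 q.1.2 / δ.eval q.1.1 ^ k

/-- the ring homomorphism to the functions at the end -/
def toMg (E : EndC f δ) (ρ : Reg f δ R) : R →+* MgR where
  toFun r := ⟨fun z => ρ.evq (ptE E z) r, by
    obtain ⟨g, k, h⟩ := ρ.reg r
    exact ⟨_, E.mg g k, fun z => h (ptE E z)⟩⟩
  map_one' := by ext z; simp
  map_mul' a b := by ext z; simp
  map_zero' := by ext z; simp
  map_add' a b := by ext z; simp

theorem ev_toMg (E : EndC f δ) (ρ : Reg f δ R) (z : Hp) (r : R) :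
    ev z (toMg E ρ r) = ρ.evq (ptE E z) r := rfl

end Regular

end

end Crest.Agent.R281.Esc1_989
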