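import Crest.Agent.R281.Esc1_989
import Crest.Agent.R281.Nc3_957

/-!
# Row 281, END-SCALE (part 2): the curve `Qs f δ` as a space spread over the plane; regular functions
are holomorphic; injectivity of the restriction to an end (identity theorem).
-/

open Polynomial Set Filter Topology
open scoped Polynomial.Bivariate

namespace Crest.Agent.R281.Esc2_989

open Ends1_989 Ends2_989 Ends3_989 Ends4_989 Ends5_989 Esc1_989 Nc_957

noncomputable section

variable {f : ℂ[X][Y]} {δ : ℂ[X]}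

/-- the coordinate `u` on the curve -/
def uQ (f : ℂ[X][Y]) (δ : ℂ[X]) (q : Qs f δ) : ℂ := q.1.1

/-- the inclusion of the smooth part into the whole curve -/
def inc (f : ℂ[X][Y]) (δ : ℂ[X]) (q : Qs f δ) : Zf f := ⟨q.1, q.2.1⟩

theorem isOpen_ne (δ : ℂ[X]) : IsOpen {u : ℂ | δ.eval u ≠ 0} :=
  isOpen_ne_fun δ.continuous continuous_const

theorem isOpenEmbedding_inc (f : ℂ[X][Y]) (δ : ℂ[X]) : IsOpenEmbedding (inc f δ) := by
  refine ⟨⟨?_, ?_⟩, ?_⟩
  · have h1 : IsInducing (Subtype.val ∘ inc f δ) := by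
      have : (Subtype.val ∘ inc f δ) = (Subtype.val : Qs f δ → ℂ × ℂ) := rfl
      rw [this]; exact IsInducing.subtypeVal
    exact IsInducing.of_comp (by unfold inc; fun_prop) continuous_subtype_val h1
  · intro a b hab
    exact Subtype.ext (congrArg (fun x : Zf f => x.1) hab)
  · have : range (inc f δ) = pr f ⁻¹' {u | δ.eval u ≠ 0} := by
      ext x
      constructor
      · rintro ⟨q, rfl⟩; exact q.2.2
      · intro hx; exact ⟨⟨x.1, x.2, hx⟩, rfl⟩
    rw [this]
    exact (isOpen_ne δ).preimage (continuous_pr f)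

/-- the curve is spread over the plane -/
theorem isLocalHomeomorph_uQ (hs : Sep f δ) : IsLocalHomeomorph (uQ f δ) := by
  have h1 := (isLocalHomeomorphOn_pr hs).comp
    ((isOpenEmbedding_inc f δ).isLocalHomeomorph.isLocalHomeomorphOn (s := univ))
    (fun q _ => q.2.2)
  exact isLocalHomeomorph_iff_isLocalHomeomorphOn_univ.2 h1

/-- holomorphic functions of `(u,w)` are holomorphic on the curve -/
theorem an_of_analytic (hs : Sep f δ) {F : ℂ × ℂ → ℂ}
    (hF : ∀ q : Qs f δ, AnalyticAt ℂ F q.1) : An (uQ f δ) (fun q => F q.1) := by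
  intro q
  obtain ⟨e, hxe, he, hdiff⟩ := exists_chart (f := f) (δ := δ)
    (fun q h1 h2 => derivative_ne_zero hs h1 h2) (q := q.1) q.2.1 q.2.2
  -- the local section `s u = e.symm (u, 0)`
  have hmem : (uQ f δ q, (0 : ℂ)) ∈ e.target := by
    have h1 := e.map_source hxe
    rw [he] at h1
    simp only [Psi] at h1
    rw [show f.evalEval q.1.1 q.1.2 = 0 from q.2.1] at h1
    exact h1
  have hzero : ∀ q' : Qs f δ, q'.1 ∈ e.source → e.symm (uQ f δ q', 0) = q'.1 := fun q' h' => by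
    have h3 := e.left_inv h'
    have h4 : e q'.1 = (uQ f δ q', 0) := by
      rw [he]; simp only [Psi, uQ]
      rw [show f.evalEval q'.1.1 q'.1.2 = 0 from q'.2.1]
    rw [h4] at h3
    exact h3
  have hU : {u : ℂ | (u, (0 : ℂ)) ∈ e.target ∧ δ.eval u ≠ 0} ∈ 𝓝 (uQ f δ q) := by
    refine ((e.open_target.preimage (by fun_prop : Continuous fun u : ℂ => (u, (0 : ℂ)))).inter
      (isOpen_ne δ)).mem_nhds ⟨hmem, q.2.2⟩
  have hdiffs : ∀ u ∈ {u : ℂ | (u, (0 : ℂ)) ∈ e.target ∧ δ.eval u ≠ 0},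
      DifferentiableAt ℂ (fun u : ℂ => e.symm (u, 0)) u := by
    intro u hu
    have h5 : e.symm (u, 0) ∈ e.source := e.map_target hu.1
    have h6 := e.right_inv hu.1
    rw [he] at h6
    simp only [Psi, Prod.mk.injEq] at h6
    obtain ⟨L, hL⟩ := exists_hasStrictFDerivAt (f := f) (q := e.symm (u, 0))
      (derivative_ne_zero hs h6.2 (by rw [h6.1]; exact hu.2))
    have h7 : DifferentiableAt ℂ e.symm (u, 0) := by
      have h8 : HasFDerivAt (e : ℂ × ℂ → ℂ × ℂ) (L : (ℂ × ℂ) →L[ℂ] (ℂ × ℂ)) (e.symm (u, 0)) := by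
        rw [he]; exact hL.hasFDerivAt
      exact (e.hasFDerivAt_symm hu.1 h8).differentiableAt
    exact DifferentiableAt.comp (f := fun u : ℂ => (u, (0 : ℂ))) u h7 (by fun_prop)
  have hsec : AnalyticAt ℂ (fun u : ℂ => e.symm (u, 0)) (uQ f δ q) := by
    have hd : DifferentiableOn ℂ (fun u : ℂ => e.symm (u, 0))
        {u : ℂ | (u, (0 : ℂ)) ∈ e.target ∧ δ.eval u ≠ 0} :=
      fun u hu => (hdiffs u hu).differentiableWithinAt
    exact hd.analyticAt hU
  refine ⟨fun u => F (e.symm (u, 0)), ?_, ?_⟩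
  · have h9 : AnalyticAt ℂ F (e.symm (uQ f δ q, 0)) := by
      rw [hzero q hxe]; exact hF q
    exact h9.comp_of_eq hsec rfl
  · have h10 : ∀ᶠ q' in 𝓝 q, q'.1 ∈ e.source :=
      continuous_subtype_val.continuousAt (e.open_source.mem_nhds hxe)
    filter_upwards [h10] with q' hq'
    simp only [Function.comp_apply, hzero q' hq']

theorem an_regular (hs : Sep f δ) (g : ℂ[X][Y]) (k : ℕ) :
    An (uQ f δ) (fun q => g.evalEval q.1.1 q.1.2 / δ.eval q.1.1 ^ k) := by
  refine an_of_analytic hs (F := fun p => g.evalEval p.1 p.2 / δ.eval p.1 ^ k) fun q => ?_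
  have h1 : AnalyticAt ℂ (fun p : ℂ × ℂ => g.evalEval p.1 p.2) q.1 :=
    ((contDiff_evalEval g ⊤).contDiffAt (x := q.1)).analyticAt
  have h2 : AnalyticAt ℂ (fun p : ℂ × ℂ => δ.eval p.1 ^ k) q.1 := by
    have h3 : ContDiff ℂ ⊤ (fun u : ℂ => δ.eval u) := by
      simpa [Polynomial.coe_aeval_eq_eval] using δ.contDiff_aeval (𝕜 := ℂ) ⊤
    exact (((h3.comp contDiff_fst).pow k).contDiffAt (x := q.1)).analyticAt
  exact h1.div h2 (pow_ne_zero _ q.2.2)

variable {R : Type*} [CommRing R]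

theorem an_reg (hs : Sep f δ) (ρ : Reg f δ R) (r : R) : An (uQ f δ) (fun q => ρ.evq q r) := by
  obtain ⟨g, k, h⟩ := ρ.reg r
  exact (an_regular hs g k).congr h

theorem continuousOn_end (E : EndC f δ) : Continuous (ptE E) := by
  have h1 : Continuous fun z : Hp => E.U z.1 := continuousOn_iff_continuous_domRestrict.1
    E.diffU.continuousOn
  have h2 : Continuous fun z : Hp => E.V z.1 := continuousOn_iff_continuous_domRestrict.1
    E.diffV.continuousOn
  exact Continuous.subtype_mk (h1.prodMk h2) _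

/-- the coordinate of an end is not constant near any point -/
theorem deriv_U_ne (E : EndC f δ) (z : ℂ) : deriv E.U z ≠ 0 := by
  have hq : HasDerivAt qq (qq z * (2 * Real.pi * Complex.I)) z := by
    have h : HasDerivAt (fun z : ℂ => 2 * Real.pi * Complex.I * z / ((1 : ℝ) : ℂ))
        (2 * Real.pi * Complex.I * 1 / ((1 : ℝ) : ℂ)) z :=
      ((hasDerivAt_id z).const_mul _).div_const _
    have h2 := h.cexp
    have h3 : (2 * Real.pi * Complex.I * 1 / ((1 : ℝ) : ℂ)) = 2 * Real.pi * Complex.I := by simp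
    rw [h3] at h2
    exact h2
  have hN : (E.N : ℂ) ≠ 0 := by exact_mod_cast E.N_pos.ne'
  have hpi : (2 * Real.pi * Complex.I : ℂ) ≠ 0 := Complex.two_pi_I_ne_zero
  have hqN : HasDerivAt (fun z => qq z ^ E.N) (E.N * qq z ^ (E.N - 1) * (qq z * (2 * Real.pi * Complex.I))) z :=
    hq.pow E.N
  have hne : (E.N * qq z ^ (E.N - 1) * (qq z * (2 * Real.pi * Complex.I)) : ℂ) ≠ 0 :=
    mul_ne_zero (mul_ne_zero hN (pow_ne_zero _ (qq_ne z))) (mul_ne_zero (qq_ne z) hpi)
  rcases E.shape with ⟨p, r, hr, -, hU⟩ | ⟨R, hR, hU⟩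
  · have h1 : E.U = fun z => p + r * qq z ^ E.N := funext hU
    rw [h1, ((hqN.const_mul (r : ℂ)).const_add p).deriv]
    exact mul_ne_zero (by exact_mod_cast hr.ne') hne
  · have h1 : E.U = fun z => R * (qq z ^ E.N)⁻¹ := funext hU
    have h2 : HasDerivAt (fun z => (R : ℂ) * (qq z ^ E.N)⁻¹) _ z :=
      (hqN.fun_inv (pow_ne_zero _ (qq_ne z))).const_mul (R : ℂ)
    rw [h1, h2.deriv]
    refine mul_ne_zero (by exact_mod_cast hR.ne') (div_ne_zero (neg_ne_zero.2 hne) ?_)
    exact pow_ne_zero _ (pow_ne_zero _ (qq_ne z))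

/-- **Injectivity at an end**: a regular function which is nonzero somewhere on the component of
the end is nonzero at the end. -/
theorem toMg_ne_zero (hs : Sep f δ) (E : EndC f δ) (ρ : Reg f δ R) {q₀ : Qs f δ} {r : R}
    (h0 : ρ.evq q₀ r ≠ 0) {z₀ : Hp} (hj : Joined q₀ (ptE E z₀)) : toMg E ρ r ≠ 0 := by
  intro hz
  have hu := isLocalHomeomorph_uQ (f := f) (δ := δ) hs
  have han := an_reg hs ρ r
  -- the function vanishes near `ptE E z₀`
  obtain ⟨φ, hφ, he⟩ := han (ptE E z₀)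
  have hev : ∀ᶠ z : ℂ in 𝓝 z₀.1, φ (E.U z) = 0 := by
    have h1 : ∀ᶠ z : Hp in 𝓝 z₀, ρ.evq (ptE E z) r = φ (uQ f δ (ptE E z)) :=
      (continuousOn_end E).continuousAt.eventually he
    have h2 : ∀ᶠ z : Hp in 𝓝 z₀, φ (E.U z.1) = 0 := by
      filter_upwards [h1] with z hz1
      have h3 : ρ.evq (ptE E z) r = 0 := by
        have := congrArg (ev z) hz
        rwa [ev_toMg, map_zero] at this
      rw [h3] at hz1
      exact hz1.symm
    rw [nhds_subtype_eq_comap, eventually_comap] at h2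
    filter_upwards [h2, isOpen_Hp.mem_nhds z₀.2] with z hz2 hzH
    exact hz2 ⟨z, hzH⟩ rfl
  have hUd : ∀ z : ℂ, z ∈ Hp → HasStrictDerivAt E.U (deriv E.U z) z := fun z hz => by
    have := (E.diffU.analyticOnNhd isOpen_Hp) z hz
    exact this.hasStrictDerivAt
  have hmap : map E.U (𝓝 z₀.1) = 𝓝 (E.U z₀.1) :=
    (hUd z₀.1 z₀.2).map_nhds_eq (deriv_U_ne E z₀.1)
  have hφ0 : ∀ᶠ u in 𝓝 (uQ f δ (ptE E z₀)), φ u = 0 := by
    show ∀ᶠ u in 𝓝 (E.U z₀.1), φ u = 0
    rw [← hmap, eventually_map]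
    exact hev
  have hloc : ∀ᶠ q in 𝓝 (ptE E z₀), ρ.evq q r = 0 := by
    have h4 : ∀ᶠ q in 𝓝 (ptE E z₀), φ (uQ f δ q) = 0 :=
      hu.continuous.continuousAt.eventually hφ0
    filter_upwards [he, h4] with q hq1 hq2
    exact hq1.trans hq2
  obtain ⟨γ⟩ := hj
  have hconn : IsPreconnected (range γ) := (isPreconnected_range γ.continuous)
  have hres := const_of_const hu han hconn (c := 0) (x := ptE E z₀) ⟨1, γ.target⟩
    (y := q₀) ⟨0, γ.source⟩ hloc
  exact h0 hres.self_of_nhds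

theorem toMg_injective (hs : Sep f δ) (E : EndC f δ) (ρ : Reg f δ R) {q₀ : Qs f δ}
    (h0 : Function.Injective (ρ.evq q₀)) {z₀ : Hp} (hj : Joined q₀ (ptE E z₀)) :
    Function.Injective (toMg E ρ) := by
  rw [injective_iff_map_eq_zero]
  intro r hr
  by_contra hne
  exact toMg_ne_zero hs E ρ (r := r) (fun h => hne (h0 (by rw [h, map_zero]))) hj hr

end

end Crest.Agent.R281.Esc2_989
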