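import Crest.Agent.R281.HKMovK_478
import Crest.Agent.R281.KpK_487

/-!
# R281 (S0424), SEMI block "EXT + AN" (helper365), file 1: existence beyond the ends of a move

* `linK_pos`  : `K + t B > 0` for small `t`
* `At K0 B x0 s K u` : `K = K0 + s B + i∂∂̄u > 0`, `det K` proportional to `det K0`, `u x0 = 0`
* `At.near`   : solvable at `s1` ⟹ solvable near `s1`
* `At.uniq`   : uniqueness
* **`exists_ext`** : a solution on `[a, b]` extends to an open interval
-/

set_option autoImplicit false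
set_option linter.unusedSectionVars false

open Set Filter Topology Complex Metric
open scoped ContDiff Matrix ComplexConjugate ComplexOrder

namespace Crest.Agent.R281.Ext_365

open Crest.Agent.R275.Geo Crest.Agent.R275.Core144 Crest.Agent.R275.GC293
open Crest.Agent.R275.EDR890
open Crest.Agent.R273.Defs_333 Crest.Agent.R273.YauDefs_635 Crest.Agent.R273.HM_333
open Crest.Agent.R273.YauCh_635 Crest.Agent.R273.Hess_333 Crest.Agent.R273.HessB_333
open Crest.Agent.R273.Kah_333 Crest.Agent.R273.YauMax_635 Crest.Agent.R273.YauLoc_635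
open Crest.Agent.R273.SchA_152 Crest.Agent.R273.SchD_152 Crest.Agent.R273.YauQ_635
open Crest.Agent.R273.YauSchF_635 Crest.Agent.R273.YauPf_635 Crest.Agent.R273.YauOpA_635
open Crest.Agent.R273.SchF_152 Crest.Agent.R273.SchE_152 Crest.Agent.R273.SchG_152
open Crest.Agent.R273.Vol_333 (addK Yau volK volK_w det_real det_re_pos ratio sm_ratio w_ratio)
open Crest.Agent.R281.HkR_835 (K11 ofKah)
open Crest.Agent.R281.KpU_487 (C2f unique_gen)
open Crest.Agent.R281.HKMov_478

noncomputable section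

variable {n : ℕ} {M : Type} [TopologicalSpace M] {A : Atl n M}

/-- `K + t B` is positive for small `t` -/
theorem linK_pos (K : Kah A) (B : K11 A) (Bc : Cb A) : ∃ δ : ℝ, 0 < δ ∧ ∀ t : ℝ, |t| < δ →
    ∀ i, ∀ x ∈ (A.e i).source, ((linK K B t).g i x).PosDef := by
  obtain ⟨lo, hi, hlo, hell⟩ := exists_lo K Bc
  obtain ⟨V, hV0, hV⟩ := k11_ho B Bc
  refine ⟨lo / ((n + 1) * (V + 1)), by positivity, fun t ht i x hx => ?_⟩
  obtain ⟨k, hk, hxk⟩ := Bc.cover x
  have hz := ball_subset_closedBall hxk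
  refine pos_tr ⟨hx, hk⟩ ((linK K B t).tr i (Bc.i k) x ⟨hx, hk⟩) ?_
  have hl := (A.e (Bc.i k)).left_inv hk
  have h1 := hell k _ hz
  rw [hl] at h1
  have hb : ∀ b c, ‖((t : ℂ) • B.g (Bc.i k) x) b c‖ ≤ |t| * V := by
    intro b c
    have h2 := (hV k b c).bdd _ hz
    rw [hl] at h2
    rw [Matrix.smul_apply, smul_eq_mul, norm_mul, Complex.norm_real, Real.norm_eq_abs]
    exact mul_le_mul_of_nonneg_left h2 (abs_nonneg _)
  refine posDef_add h1 ?_ (mul_nonneg (abs_nonneg t) hV0) hb ?_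
  · unfold Matrix.IsHermitian
    rw [Matrix.conjTranspose_smul, (B.herm _ x hk).eq, Complex.star_def, Complex.conj_ofReal]
  · have h3 : |t| * ((n + 1) * (V + 1)) < lo := by
      rwa [lt_div_iff₀ (by positivity)] at ht
    have h4 : (n : ℝ) * (|t| * V) ≤ |t| * ((n + 1) * (V + 1)) := by
      have h5 : (n : ℝ) * V ≤ (n + 1) * (V + 1) := by nlinarith [Nat.cast_nonneg (α := ℝ) n]
      calc (n : ℝ) * (|t| * V) = |t| * (n * V) := by ring
        _ ≤ _ := mul_le_mul_of_nonneg_left h5 (abs_nonneg _)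
    linarith

/-- the Monge-Ampere metric of the move at the parameter `s` -/
structure At (K0 : Kah A) (B : K11 A) (x0 : M) (s : ℝ) (K : Kah A) (u : M → ℝ) : Prop where
  add : IsAdd K (linK K0 B s) u
  nrm : u x0 = 0
  det : ∃ c : ℝ, ∀ i, ∀ x ∈ (A.e i).source, (K.g i x).det = (c : ℂ) * (K0.g i x).det

namespace At

variable {K0 : Kah A} {B : K11 A} {x0 : M} {s : ℝ} {K K' : Kah A} {u u' : M → ℝ}

theorem det_pos (h : At K0 B x0 s K u) : ∃ c : ℝ, 0 < c ∧ ∀ i, ∀ x ∈ (A.e i).source,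
    (K.g i x).det = (c : ℂ) * (K0.g i x).det := by
  obtain ⟨c, hc⟩ := h.det
  refine ⟨c, ?_, hc⟩
  obtain ⟨i, hi⟩ := A.cover x0
  have h1 := (K.pos i x0 hi).det_pos
  have h2 := (K0.pos i x0 hi).det_pos
  rw [hc i x0 hi] at h1
  obtain ⟨d, hd⟩ : ∃ d : ℝ, (K0.g i x0).det = d := ⟨_, (det_real (K0.pos i x0 hi).1).symm⟩
  rw [hd] at h1 h2
  have h3 : (0 : ℝ) < d := by exact_mod_cast h2
  have h4 : (0 : ℝ) < c * d := by exact_mod_cast h1
  exact (pos_iff_pos_of_mul_pos h4).2 h3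

/-- uniqueness -/
theorem uniq [T2Space M] [CompactSpace M] [ConnectedSpace M] (h : At K0 B x0 s K u)
    (h' : At K0 B x0 s K' u') : u = u' ∧ ∀ i, ∀ x ∈ (A.e i).source, K.g i x = K'.g i x := by
  obtain ⟨c, hc, hd⟩ := h.det_pos
  obtain ⟨c', hc', hd'⟩ := h'.det_pos
  obtain ⟨-, k, hk⟩ := unique_gen (linK K0 B s).g
    (fun i a b => ((linK K0 B s).sm i a b).continuousOn)
    (u := u) (v := u') (C2f.of_sm h.add.sm) (C2f.of_sm h'.add.sm)
    (fun i x hx => by rw [← h.add.eq i x hx]; exact K.pos i x hx)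
    (fun i x hx => by rw [← h'.add.eq i x hx]; exact K'.pos i x hx)
    (c := c / c') (fun i x hx => by
      rw [← h.add.eq i x hx, ← h'.add.eq i x hx, hd i x hx, hd' i x hx, Complex.ofReal_div,
        ← mul_assoc, div_mul_cancel₀]
      exact_mod_cast hc'.ne')
  have hk0 : k = 0 := by
    have h1 := hk x0
    rw [h.nrm, h'.nrm] at h1
    linarith
  have hu : u = u' := by
    funext x
    have := hk x
    linarith
  refine ⟨hu, fun i x hx => ?_⟩
  rw [h.add.eq i x hx, h'.add.eq i x hx, hu]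

/-- **openness** -/
theorem near [T2Space M] [CompactSpace M] [ConnectedSpace M] (Bc : Cb A)
    (h : At K0 B x0 s K u) : ∃ δ : ℝ, 0 < δ ∧ ∀ s', |s' - s| < δ → ∃ K' u', At K0 B x0 s' K' u' := by
  obtain ⟨δ, hδ, H⟩ := linK_pos K B Bc
  refine ⟨δ, hδ, fun s' hs => ?_⟩
  set L : K11 A := linK K B (s' - s) with hL
  set K1 : Kah A := L.kah (H _ hs) with hK1
  obtain ⟨K', v, c, hv, hg, hd⟩ := KpK_487.yau_kah' K1 (F := ratio (volK K1) (volK K0))
    (sm_ratio _ _)
  have hvs : A.Sm (fun x => v x + -v x0) := fun i => (hv i).add contDiffOn_const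
  have hus : A.Sm (fun x => u x + (v x + -v x0)) := fun i => (h.add.sm i).add (hvs i)
  refine ⟨K', fun x => u x + (v x + -v x0), ⟨⟨hus, fun i x hx => ?_⟩, ?_, Real.exp c,
    fun i x hx => ?_⟩⟩
  · rw [hg i x, hsf_addf h.add.sm hvs hx, hsf_subc hv _ hx]
    show (K.g i x + ((s' - s : ℝ) : ℂ) • B.g i x) + _ = K0.g i x + (s' : ℂ) • B.g i x + _
    have e := h.add.eq i x hx
    rw [e]
    show (K0.g i x + (s : ℂ) • B.g i x + hsf A u i x + _) + _ = _
    push_cast
    rw [sub_smul]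
    abel
  · simp [h.nrm]
  · have e1 := w_ratio (volK K1) (volK K0) hx
    have e2 := volK_w K1 i hx
    have e3 := volK_w K0 i hx
    rw [hd i x hx, ← e2, ← e3, Real.exp_add, e1]
    push_cast
    ring

end At

/-- **extension beyond the ends** -/
theorem exists_ext [T2Space M] [CompactSpace M] [ConnectedSpace M] (Bc : Cb A)
    {K0 : Kah A} {B : K11 A} {x0 : M} {a b : ℝ} {K : ℝ → Kah A} {u : ℝ → M → ℝ}
    (h : ∀ s ∈ Icc a b, At K0 B x0 s (K s) (u s)) :
    ∃ δ : ℝ, 0 < δ ∧ ∃ (K' : ℝ → Kah A) (u' : ℝ → M → ℝ),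
      (∀ s ∈ Icc a b, K' s = K s ∧ u' s = u s) ∧
      ∀ s ∈ Ioo (a - δ) (b + δ), a ≤ b → At K0 B x0 s (K' s) (u' s) := by
  classical
  set G : Set ℝ := {s | ∃ K u, At K0 B x0 s K u} with hG
  have hGo : IsOpen G := by
    rw [Metric.isOpen_iff]
    rintro s ⟨K1, u1, h1⟩
    obtain ⟨δ, hδ, H⟩ := h1.near Bc
    refine ⟨δ, hδ, fun s' hs' => H s' ?_⟩
    rwa [Metric.mem_ball, Real.dist_eq] at hs'
  have hsub : Icc a b ⊆ G := fun s hs => ⟨_, _, h s hs⟩
  obtain ⟨δ, hδ, hδG⟩ := isCompact_Icc.exists_thickening_subset_open hGo hsub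
  have hex : ∀ s, ∃ p : Kah A × (M → ℝ), s ∈ G → At K0 B x0 s p.1 p.2 := by
    intro s
    by_cases hs : s ∈ G
    · obtain ⟨K1, u1, h1⟩ := hs
      exact ⟨(K1, u1), fun _ => h1⟩
    · exact ⟨(K0, fun _ => 0), fun h => absurd h hs⟩
  choose p hp using hex
  refine ⟨δ, hδ, fun s => if s ∈ Icc a b then K s else (p s).1,
    fun s => if s ∈ Icc a b then u s else (p s).2, fun s hs => ⟨if_pos hs, if_pos hs⟩,
    fun s hs hab => ?_⟩
  by_cases hm : s ∈ Icc a b
  · simp only [if_pos hm]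
    exact h s hm
  · simp only [if_neg hm]
    refine hp s (hδG ?_)
    rw [Metric.mem_thickening_iff]
    rcases lt_or_ge s a with h1 | h1
    · exact ⟨a, left_mem_Icc.2 hab, by rw [Real.dist_eq, abs_of_neg (by linarith)]; linarith [hs.1]⟩
    · have h2 : b < s := by
        by_contra h3
        exact hm ⟨h1, not_lt.1 h3⟩
      exact ⟨b, right_mem_Icc.2 hab, by
        rw [Real.dist_eq, abs_of_pos (by linarith)]; linarith [hs.2]⟩

end

end Crest.Agent.R281.Ext_365
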