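import Crest.Agent.R281.HKMovJ_478

/-!
# R281 (S0424), HK-MOVE (helper478), file K: Monge-Ampere metrics along a move

* `hsf_addf`
* **`yau_move`** : `K s = G s + i∂∂̄ u s`, `G` with a local power series at `s0`, `det K s` proportional to
  `det K s0`, `u s x0 = 0`: `K` and `u` have local power series at `s0`
-/

set_option autoImplicit false
set_option linter.unusedSectionVars false

open Set Filter Topology Complex Metric
open scoped ContDiff Matrix ComplexConjugate ComplexOrder

namespace Crest.Agent.R281.HKMov_478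

open Crest.Agent.R275.Geo Crest.Agent.R275.Core144 Crest.Agent.R275.GC293
open Crest.Agent.R275.EDR890
open Crest.Agent.R273.Defs_333 Crest.Agent.R273.YauDefs_635 Crest.Agent.R273.HM_333
open Crest.Agent.R273.YauCh_635 Crest.Agent.R273.Hess_333 Crest.Agent.R273.HessB_333
open Crest.Agent.R273.Kah_333 Crest.Agent.R273.YauMax_635 Crest.Agent.R273.YauLoc_635
open Crest.Agent.R273.SchA_152 Crest.Agent.R273.SchD_152 Crest.Agent.R273.YauQ_635
open Crest.Agent.R273.YauSchF_635 Crest.Agent.R273.YauPf_635 Crest.Agent.R273.YauOpA_635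
open Crest.Agent.R273.SchF_152 Crest.Agent.R273.SchE_152 Crest.Agent.R273.SchG_152
open Crest.Agent.R273.Vol_333 (addK Yau volK det_real det_re_pos)
open Crest.Agent.R281.HkR_835 (K11 ofKah)
open Crest.Agent.R281.KpU_487 (C2f unique_gen)

noncomputable section

variable {n : ℕ} {M : Type} [TopologicalSpace M] {A : Atl n M}

theorem hsf_addf {u v : M → ℝ} (hu : A.Sm u) (hv : A.Sm v) {i : A.ι} {x : M}
    (hx : x ∈ (A.e i).source) : hsf A (fun y => u y + v y) i x = hsf A u i x + hsf A v i x := by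
  have hs : A.Sm (fun y => u y + v y) := fun i => (hu i).add (hv i)
  have hz := (A.e i).map_source hx
  rw [hsf_eq_cH hs hx, hsf_eq_cH hu hx, hsf_eq_cH hv hx]
  exact cH_add_c2 ((inC_contDiffAt hu i hz).of_le two_le_inf)
    ((inC_contDiffAt hv i hz).of_le two_le_inf)

theorem hsf_subc {u : M → ℝ} (hu : A.Sm u) (c : ℝ) {i : A.ι} {x : M} (hx : x ∈ (A.e i).source) :
    hsf A (fun y => u y + c) i x = hsf A u i x := by
  have hc : A.Sm (fun _ : M => c) := fun i => contDiffOn_const
  rw [hsf_addf hu hc hx, hsf_eq_cH hc hx]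
  have e : inC A i (fun _ : M => c) = fun _ => c := rfl
  rw [e, Crest.Agent.R281.KpU_487.cH_const, add_zero]

theorem Ps11.zero_eq {Bc : Cb A} {G : ℝ → K11 A} {s0 r : ℝ} {Y : ℕ → K11 A} {a : ℕ → ℝ}
    (h : Ps11 Bc G s0 r Y a) {i : A.ι} {x : M} (hx : x ∈ (A.e i).source) (b c : Fin n) :
    (Y 0).g i x b c = (G s0).g i x b c := by
  have h1 := h.hs s0 (by simpa using h.r0) i x hx b c
  have h2 : HasSum (fun j => ((s0 - s0 : ℝ) : ℂ) ^ j * (Y j).g i x b c) ((Y 0).g i x b c) := by
    have h3 := hasSum_single (f := fun j => ((s0 - s0 : ℝ) : ℂ) ^ j * (Y j).g i x b c) 0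
      (fun j hj => by simp [hj])
    simpa using h3
  exact h2.unique h1

/-- **YAU-AN along a move** -/
theorem yau_move [T2Space M] [CompactSpace M] [ConnectedSpace M] [Finite A.ι] (P : Part A)
    (Bc : Cb A) (x0 : M) {G : ℝ → K11 A} {K : ℝ → Kah A} {u : ℝ → M → ℝ} {s0 r δ : ℝ}
    {Y : ℕ → K11 A} {a : ℕ → ℝ} (hG : Ps11 Bc G s0 r Y a) (hδ : 0 < δ)
    (hK : ∀ s, |s - s0| < δ → IsAdd (K s) (G s) (u s))
    (hu : ∀ s, |s - s0| < δ → u s x0 = 0)
    (hdet : ∀ s, |s - s0| < δ → ∃ c : ℝ, ∀ i, ∀ x ∈ (A.e i).source,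
      ((K s).g i x).det = (c : ℂ) * ((K s0).g i x).det) :
    ∃ (r' : ℝ) (φ : ℕ → M → ℝ) (Y' : ℕ → K11 A) (m : ℕ → ℝ) (b : ℕ → ℝ), r' ≤ δ ∧ r' ≤ r ∧
      PsF Bc u s0 r' φ b ∧ Ps11 Bc (fun s => ofKah (K s)) s0 r' Y' b ∧ (∀ j, |m j| ≤ b j) ∧
      ∀ s, |s - s0| < r' → ∀ i, ∀ x ∈ (A.e i).source,
        ((K s).g i x).det = ((∑' j, (s - s0) ^ j * m j : ℝ) : ℂ) * ((K s0).g i x).det := by
  classical
  have h00 : |s0 - s0| < δ := by simpa using hδ
  have hK0 := hK s0 h00
  set ρ : ℝ := min r δ with hρd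
  have hρ : 0 < ρ := lt_min hG.r0 hδ
  have hW : ∀ J, ∑ j ∈ Finset.range J, a (j + 1) * ρ ^ (j + 1) ≤ ∑' j, a j * r ^ j := by
    intro J
    calc ∑ j ∈ Finset.range J, a (j + 1) * ρ ^ (j + 1)
        ≤ ∑ j ∈ Finset.range J, a (j + 1) * r ^ (j + 1) :=
          Finset.sum_le_sum fun j _ => mul_le_mul_of_nonneg_left
            (pow_le_pow_left₀ hρ.le (min_le_left _ _) _) (hG.a0 _)
      _ ≤ ∑ j ∈ Finset.range (J + 1), a j * r ^ j := by
          rw [Finset.sum_range_succ' (fun j => a j * r ^ j)]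
          have : 0 ≤ a 0 * r ^ 0 := mul_nonneg (hG.a0 0) (by positivity)
          linarith
      _ ≤ _ := hG.sum.sum_le_tsum _ fun j _ => mul_nonneg (hG.a0 j) (pow_nonneg hG.r0.le _)
  obtain ⟨r1, η, hr1, hr1ρ, hη, -, H⟩ := yau_an P (K s0) Bc x0 hG.a0 hρ hW one_pos
  obtain ⟨S, HS⟩ := H Y fun j _ => hG.ho j
  -- identification
  have key : ∀ s, |s - s0| < r1 → A.Sm (S.ps (s - s0)) ∧
      (∀ x, u s x = u s0 x + S.ps (s - s0) x) ∧
      ∀ i, ∀ x ∈ (A.e i).source,
        ((K s).g i x).det = ((1 + S.ms (s - s0) : ℝ) : ℂ) * ((K s0).g i x).det := by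
    intro s hs
    have hsδ : |s - s0| < δ := hs.trans_le (hr1ρ.trans (min_le_right _ _))
    have hsr : |s - s0| < r := hs.trans_le (hr1ρ.trans (min_le_left _ _))
    have hKs := hK s hsδ
    obtain ⟨K', hK', hdK'⟩ := HS (s - s0) hs (addH (G s) (u s0) hK0.sm) (by
      intro i x hx b c
      have h1 := (hasSum_nat_add_iff' 1).2 (hG.hs s hsr i x hx b c)
      rw [Finset.sum_range_one, pow_zero, one_mul, hG.zero_eq hx] at h1
      have e : (addH (G s) (u s0) hK0.sm).g i x b c - (K s0).g i x b c =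
          (G s).g i x b c - (G s0).g i x b c := by
        rw [hK0.eq i x hx]
        show ((G s).g i x + hsf A (u s0) i x) b c - _ = _
        rw [Matrix.add_apply, Matrix.add_apply]
        ring
      rw [e]
      exact h1)
    obtain ⟨c, hc⟩ := hdet s hsδ
    set v : M → ℝ := fun x => u s0 x + S.ps (s - s0) x with hv
    have hvs : A.Sm v := fun i => (hK0.sm i).add (hK'.sm i)
    have hgv : ∀ i, ∀ x ∈ (A.e i).source, (G s).g i x + hsf A v i x = K'.g i x := by
      intro i x hx
      rw [hK'.eq i x hx, hv, hsf_addf hK0.sm hK'.sm hx]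
      show _ = (G s).g i x + hsf A (u s0) i x + _
      rw [add_assoc]
    have hne : (1 + S.ms (s - s0) : ℝ) ≠ 0 := by
      intro h0
      obtain ⟨i, hi⟩ := A.cover x0
      have h1 := hdK' i x0 hi
      rw [h0, Complex.ofReal_zero, zero_mul] at h1
      exact (K'.pos i x0 hi).det_pos.ne' h1
    obtain ⟨hc1, k, hk⟩ := unique_gen (G s).g (fun i a b => ((G s).sm i a b).continuousOn)
      (u := u s) (v := v) (C2f.of_sm hKs.sm) (C2f.of_sm hvs)
      (fun i x hx => by rw [← hKs.eq i x hx]; exact (K s).pos i x hx)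
      (fun i x hx => by rw [hgv i x hx]; exact K'.pos i x hx)
      (c := c / (1 + S.ms (s - s0))) (fun i x hx => by
        rw [← hKs.eq i x hx, hgv i x hx, hc i x hx, hdK' i x hx, Complex.ofReal_div, ← mul_assoc,
          div_mul_cancel₀]
        exact_mod_cast hne)
    have hk0 : k = 0 := by
      have h1 := hk x0
      have h2 : S.ps (s - s0) x0 = 0 := by
        unfold AnS.ps
        simp [S.nrm]
      simp only [hv, hu s hsδ, hu s0 h00, h2] at h1
      linarith
    have hcc : c = 1 + S.ms (s - s0) := by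
      rw [div_eq_one_iff_eq hne] at hc1
      exact hc1
    refine ⟨hK'.sm, fun x => ?_, fun i x hx => ?_⟩
    · have h1 := hk x
      rw [hk0] at h1
      simp only [hv] at h1
      linarith
    · rw [hc i x hx, hcc]
  obtain ⟨V1, hV10, hV1⟩ := sm_n2 hK0.sm Bc
  obtain ⟨V2, hV20, hV2⟩ := k11_ho (ofKah (K s0)) Bc
  set b : ℕ → ℝ := fun j => if j = 0 then V1 + V2 + 1 else S.a j with hb
  have hb0 : ∀ j, 0 ≤ b j := fun j => by
    rcases j with _ | j
    · simp only [hb, if_true]
      linarith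
    · simpa [hb] using S.a_nn (j + 1)
  have hbs : Summable fun j => b j * r1 ^ j := by
    refine (summable_nat_add_iff 1).1 ?_
    simpa [hb] using (summable_nat_add_iff (f := fun j => S.a j * r1 ^ j) 1).2 (S.summ hr1)
  have hps : ∀ s, |s - s0| < r1 → ∀ x, HasSum (fun j => (s - s0) ^ j * S.φ j x)
      (S.ps (s - s0) x) := by
    intro s hs x
    refine (Summable.of_norm_bounded (S.summ_s hr1 hs.le) fun j => ?_).hasSum
    rw [norm_mul, norm_pow, Real.norm_eq_abs]
    refine mul_le_mul_of_nonneg_left ?_ (by positivity)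
    obtain ⟨k, hk, hxk⟩ := Bc.cover x
    have h1 := (S.n2 j k).h0.bdd _ (ball_subset_closedBall hxk)
    simpa [inC, (A.e (Bc.i k)).left_inv hk] using h1
  set φ : ℕ → M → ℝ := fun j => if j = 0 then u s0 else S.φ j with hφ
  have hF : PsF Bc u s0 r1 φ b := by
    refine ⟨hr1, hb0, hbs, fun j => ?_, fun j => ?_, fun s hs x => ?_⟩
    · rcases j with _ | j
      · simpa [hφ] using hK0.sm
      · simpa [hφ] using S.sm (j + 1)
    · rcases j with _ | j
      · simp only [hφ, hb, if_true]
        exact hV1.mono (by linarith)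
      · simpa [hφ, hb] using S.n2 (j + 1)
    · rw [(key s hs).2.1 x]
      have h1 := (hasSum_nat_add_iff' 1).2 (hps s hs x)
      rw [Finset.sum_range_one, S.φ0, mul_zero, sub_zero] at h1
      refine (hasSum_nat_add_iff' 1).1 ?_
      rw [Finset.sum_range_one]
      simpa [hφ] using h1
  set Y' : ℕ → K11 A := fun j => if j = 0 then ofKah (K s0) else addH (Y j) (S.φ j) (S.sm j)
    with hY'
  have hKp : Ps11 Bc (fun s => ofKah (K s)) s0 r1 Y' b := by
    refine ⟨hr1, hb0, hbs, fun j k p q => ?_, fun s hs i x hx p q => ?_⟩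
    · rcases j with _ | j
      · simp only [hY', hb, if_true]
        exact (hV2 k p q).mono (by linarith)
      · have h1 := S.hoY (j + 1) (by omega) k p q
        simp only [hY', hb, Nat.add_one_ne_zero, if_false]
        exact h1
    · have hsδ : |s - s0| < δ := hs.trans_le (hr1ρ.trans (min_le_right _ _))
      have hsr : |s - s0| < r := hs.trans_le (hr1ρ.trans (min_le_left _ _))
      have h1 := (hG.hs s hsr i x hx p q).add (hF.hsf_sum hs (hK s hsδ).sm hx p q)
      have e : (ofKah (K s)).g i x p q = (G s).g i x p q + hsf A (u s) i x p q := by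
        show (K s).g i x p q = _
        rw [(hK s hsδ).eq i x hx, Matrix.add_apply]
      rw [e]
      refine h1.congr_fun fun j => ?_
      rcases j with _ | j
      · simp only [hY', hφ, if_true, pow_zero, one_mul]
        show (K s0).g i x p q = _
        rw [hK0.eq i x hx, Matrix.add_apply, hG.zero_eq hx]
      · simp only [hY', hφ, Nat.add_one_ne_zero, if_false]
        show _ * ((Y (j + 1)).g i x + hsf A (S.φ (j + 1)) i x) p q = _
        rw [Matrix.add_apply]
        ring
  refine ⟨r1, φ, Y', fun j => if j = 0 then 1 else S.m j, b, hr1ρ.trans (min_le_right _ _),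
    hr1ρ.trans (min_le_left _ _), hF, hKp, fun j => ?_, fun s hs i x hx => ?_⟩
  · rcases j with _ | j
    · simp only [hb, if_true, abs_one]
      linarith
    · simpa [hb] using S.hm (j + 1)
  · rw [(key s hs).2.2 i x hx]
    congr 2
    have hsum : Summable fun j => (s - s0) ^ j * S.m j := by
      refine Summable.of_norm_bounded (S.summ_s hr1 hs.le) fun j => ?_
      rw [norm_mul, norm_pow, Real.norm_eq_abs]
      exact mul_le_mul_of_nonneg_left (S.hm j) (by positivity)
    have hsum' : Summable fun j => (s - s0) ^ j * (if j = 0 then 1 else S.m j) := by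
      refine (summable_nat_add_iff 1).1 ?_
      simpa using (summable_nat_add_iff 1).2 hsum
    rw [← hsum'.sum_add_tsum_nat_add 1, Finset.sum_range_one, AnS.ms,
      ← hsum.sum_add_tsum_nat_add 1, Finset.sum_range_one, S.m0]
    simp

end

end Crest.Agent.R281.HKMov_478
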