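import Crest.Agent.R281.LAn2_508

/-!
# R281 (S0424), LAP-AN (helper508), file 5: power series of matrices

* `Ms P s = ∑ s^j P_j` (entrywise); `Ms_mul` : Cauchy product
* `Ms_inv` : `(∑ s^j Zt_j) * (∑ s^j Hn Z j) = 1`, `Zt_0 = 1`
-/

set_option autoImplicit false
set_option linter.unusedSectionVars false

open Set Metric Finset
open scoped ContDiff Matrix

namespace Crest.Agent.R281.LAn_508

noncomputable section

variable {n : ℕ}

/-- the sum of a power series of matrices -/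
def Ms (P : ℕ → Matrix (Fin n) (Fin n) ℂ) (s : ℂ) : Matrix (Fin n) (Fin n) ℂ :=
  Matrix.of fun b c => ∑' j, s ^ j * P j b c

theorem Ms_apply (P : ℕ → Matrix (Fin n) (Fin n) ℂ) (s : ℂ) (b c : Fin n) :
    Ms P s b c = ∑' j, s ^ j * P j b c := rfl

/-- entrywise summability -/
def Sb (P : ℕ → Matrix (Fin n) (Fin n) ℂ) (s : ℂ) : Prop :=
  ∀ b c, Summable fun j => ‖s ^ j * P j b c‖

theorem Sb.of_bd {P : ℕ → Matrix (Fin n) (Fin n) ℂ} {p : ℕ → ℝ} {r : ℝ}
    (hp : Summable fun j => p j * r ^ j) (h : ∀ j b c, ‖P j b c‖ ≤ p j) {s : ℂ}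
    (hs : ‖s‖ ≤ r) : Sb P s := fun b c => by
  refine Summable.of_nonneg_of_le (fun j => norm_nonneg _) (fun j => ?_) hp
  rw [norm_mul, norm_pow, mul_comm]
  exact mul_le_mul (h j b c) (pow_le_pow_left₀ (norm_nonneg _) hs _) (by positivity)
    ((norm_nonneg _).trans (h j b c))

theorem Sb.hasSum {P : ℕ → Matrix (Fin n) (Fin n) ℂ} {s : ℂ} (h : Sb P s) (b c : Fin n) :
    HasSum (fun j => s ^ j * P j b c) (Ms P s b c) := (h b c).of_norm.hasSum

/-- the coefficients of the product -/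
def cv (P Q : ℕ → Matrix (Fin n) (Fin n) ℂ) (N : ℕ) : Matrix (Fin n) (Fin n) ℂ :=
  ∑ k ∈ range (N + 1), P k * Q (N - k)

theorem cv_apply (P Q : ℕ → Matrix (Fin n) (Fin n) ℂ) (N : ℕ) (s : ℂ) (b c : Fin n) :
    s ^ N * cv P Q N b c =
      ∑ d, ∑ k ∈ range (N + 1), (s ^ k * P k b d) * (s ^ (N - k) * Q (N - k) d c) := by
  rw [cv, Matrix.sum_apply, Finset.mul_sum, Finset.sum_comm]
  refine Finset.sum_congr rfl fun k hk => ?_
  rw [Matrix.mul_apply, Finset.mul_sum]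
  refine Finset.sum_congr rfl fun d _ => ?_
  have e : s ^ N = s ^ k * s ^ (N - k) := by
    rw [← pow_add]
    congr 1
    have := Finset.mem_range.1 hk
    omega
  rw [e]
  ring

theorem Sb.cv {P Q : ℕ → Matrix (Fin n) (Fin n) ℂ} {s : ℂ} (hP : Sb P s) (hQ : Sb Q s) :
    Sb (LAn_508.cv P Q) s := fun b c => by
  have h : ∀ d, Summable fun N => ‖∑ k ∈ range (N + 1),
      (s ^ k * P k b d) * (s ^ (N - k) * Q (N - k) d c)‖ := fun d =>
    summable_norm_sum_mul_range_of_summable_norm (f := fun j => s ^ j * P j b d)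
      (g := fun j => s ^ j * Q j d c) (hP b d) (hQ d c)
  have hS : Summable fun N => ∑ d, ‖∑ k ∈ range (N + 1),
      (s ^ k * P k b d) * (s ^ (N - k) * Q (N - k) d c)‖ := summable_sum fun d _ => h d
  refine Summable.of_nonneg_of_le (fun j => norm_nonneg _) (fun N => ?_) hS
  rw [cv_apply]
  exact norm_sum_le _ _

theorem Ms_mul {P Q : ℕ → Matrix (Fin n) (Fin n) ℂ} {s : ℂ} (hP : Sb P s) (hQ : Sb Q s) :
    Ms P s * Ms Q s = Ms (cv P Q) s := by
  ext b c
  rw [Matrix.mul_apply, Ms_apply]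
  simp only [cv_apply]
  have h : ∀ d, Summable fun N => ∑ k ∈ range (N + 1),
      (s ^ k * P k b d) * (s ^ (N - k) * Q (N - k) d c) := fun d =>
    (summable_norm_sum_mul_range_of_summable_norm (f := fun j => s ^ j * P j b d)
      (g := fun j => s ^ j * Q j d c) (hP b d) (hQ d c)).of_norm
  rw [Summable.tsum_finsetSum fun d _ => h d]
  refine Finset.sum_congr rfl fun d _ => ?_
  exact tsum_mul_tsum_eq_tsum_sum_range_of_summable_norm (f := fun j => s ^ j * P j b d)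
    (g := fun j => s ^ j * Q j d c) (hP b d) (hQ d c)

/-- the series `1 + ∑_{j≥1} s^j Z_j` -/
def Zt (Z : ℕ → Matrix (Fin n) (Fin n) ℂ) (j : ℕ) : Matrix (Fin n) (Fin n) ℂ :=
  if j = 0 then 1 else Z j

theorem cv_Zt (Z : ℕ → Matrix (Fin n) (Fin n) ℂ) (N : ℕ) :
    cv (Zt Z) (Hn Z) N = if N = 0 then 1 else 0 := by
  rcases N with _ | N
  · simp [cv, Zt, Hn_zero]
  · rw [if_neg (by omega), cv, Finset.sum_range_succ']
    simp only [Zt, if_pos, Nat.sub_zero, Matrix.one_mul]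
    rw [← Hn_conv Z N, add_comm]
    congr 1
    refine Finset.sum_congr rfl fun k _ => ?_
    rw [if_neg (by omega), Nat.add_sub_add_right]

theorem Ms_single (s : ℂ) :
    Ms (fun N => if N = 0 then (1 : Matrix (Fin n) (Fin n) ℂ) else 0) s = 1 := by
  ext b c
  rw [Ms_apply, tsum_eq_single 0]
  · simp
  · intro j hj
    simp [hj]

/-- **the inverse series** -/
theorem Ms_inv {Z : ℕ → Matrix (Fin n) (Fin n) ℂ} {s : ℂ} (hZ : Sb (Zt Z) s)
    (hH : Sb (Hn Z) s) : Ms (Zt Z) s * Ms (Hn Z) s = 1 := by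
  rw [Ms_mul hZ hH, show cv (Zt Z) (Hn Z) = _ from funext (cv_Zt Z), Ms_single]

theorem Ms_trace {P : ℕ → Matrix (Fin n) (Fin n) ℂ} {s : ℂ} (hP : Sb P s) :
    HasSum (fun j => s ^ j * (P j).trace) (Ms P s).trace := by
  have h := hasSum_sum fun b (_ : b ∈ (Finset.univ : Finset (Fin n))) => hP.hasSum b b
  refine h.congr_fun ?_
  intro j
  simp only [Matrix.trace, Matrix.diag_apply, Finset.mul_sum]

/-- the trace of `H_s W_s` -/
theorem trace_cv_succ (Z W : ℕ → Matrix (Fin n) (Fin n) ℂ) (J : ℕ) :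
    (cv (Hn Z) W (J + 1)).trace = (W (J + 1)).trace +
      ∑ l ∈ range (J + 1), (Hn Z (l + 1) * W (J - l)).trace := by
  rw [cv, Finset.sum_range_succ', Hn_zero, Matrix.one_mul, Nat.sub_zero, Matrix.trace_add,
    Matrix.trace_sum, add_comm]
  congr 1
  refine Finset.sum_congr rfl fun l _ => ?_
  rw [Nat.add_sub_add_right]

theorem trace_cv_zero (Z W : ℕ → Matrix (Fin n) (Fin n) ℂ) :
    (cv (Hn Z) W 0).trace = (W 0).trace := by
  simp [cv, Hn_zero]

/-- **the equation of the sums** -/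
theorem trace_limit {Z W : ℕ → Matrix (Fin n) (Fin n) ℂ} {c : ℕ → ℝ} {s : ℝ}
    (hZ : Sb (Zt Z) s) (hH : Sb (Hn Z) s) (hW : Sb W s)
    (h0 : (W 0).trace.re = c 0)
    (hs : ∀ J, (W (J + 1)).trace.re + (∑ l ∈ range (J + 1),
      (Hn Z (l + 1) * W (J - l)).trace).re = c (J + 1)) :
    (((Ms (Zt Z) s)⁻¹ * Ms W s).trace).re = ∑' j, s ^ j * c j := by
  have h1 : (Ms (Zt Z) s)⁻¹ = Ms (Hn Z) s := Matrix.inv_eq_right_inv (Ms_inv hZ hH)
  rw [h1, Ms_mul hH hW]
  have h2 := Complex.hasSum_re (Ms_trace (hH.cv hW))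
  refine (h2.congr_fun fun j => ?_).tsum_eq.symm
  have e : ((s : ℂ) ^ j * (cv (Hn Z) W j).trace).re = s ^ j * ((cv (Hn Z) W j).trace).re := by
    rw [← Complex.ofReal_pow, Complex.re_ofReal_mul]
  rw [e]
  rcases j with _ | J
  · rw [trace_cv_zero, h0]
  · rw [trace_cv_succ, Complex.add_re, hs]

/-- pointwise summability of the inverse series -/
theorem sb_Hn {Z : ℕ → Matrix (Fin n) (Fin n) ℂ} {a : ℕ → ℝ} {r : ℝ} (hr : 0 ≤ r)
    (ha : ∀ j, 0 ≤ a j)
    (hsum : ∀ J, ∑ i ∈ range J, (2 * n * a (i + 1)) * r ^ (i + 1) ≤ 1 / 2)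
    (hZ : ∀ j, 1 ≤ j → ∀ b c, ‖Z j b c‖ ≤ a j) {s : ℂ} (hs : ‖s‖ ≤ r) : Sb (Hn Z) s := by
  obtain ⟨h, hh0, hhs⟩ := exists_volt (fun j => if j = 0 then (1 : ℝ) else 0)
    (fun j => 2 * n * a j)
  have hun : ∀ j, 0 ≤ 2 * n * a j := fun j => by have := ha j; positivity
  have hhn : ∀ j, 0 ≤ h j := volt_nonneg (b := fun j => if j = 0 then (1 : ℝ) else 0)
    (fun j => by split_ifs <;> norm_num) hun hh0 hhs
  have hh0' : h 0 = 1 := by rw [hh0]; simp
  have hhs' : ∀ j, h (j + 1) = ∑ i ∈ Finset.range (j + 1), (2 * n * a (i + 1)) * h (j - i) := by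
    intro j
    rw [hhs j, if_neg (by omega), zero_add]
  have hhsum : ∀ J, ∑ j ∈ Finset.range J, h j * r ^ j ≤ 2 * 1 := by
    refine volt hr hun hhn hsum le_rfl (b := fun j => if j = 0 then (1 : ℝ) else 0) hh0.le
      (fun j => (hhs j).le) ?_
    intro J
    rcases J with _ | J
    · simp
    · rw [Finset.sum_range_succ']
      simp
  have hbd : ∀ j b c, ‖Hn Z j b c‖ ≤ h j := fun j b c =>
    (Hn_ho (E := ℂ) (s := {0}) (al := 1) (Z := fun j _ => Z j) ha hhn hh0' hhs'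
      (fun j hj b c => HKMov_478.ho_const (hZ j hj b c)) j b c).bdd 0 rfl
  refine Sb.of_bd ?_ hbd hs
  exact summable_of_sum_range_le (fun j => mul_nonneg (hhn j) (pow_nonneg hr j)) hhsum

end

end Crest.Agent.R281.LAn_508
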