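import Crest.Agent.R281.HKMovB_478

/-!
# R281 (S0424), YAU-AN (helper478), file E: series

* `sum_c2`   : sums of `C²` functions with summable bounds
* `ho_tsum`  : Hölder bounds of sums
* `dt_limit` : `det (1 + ∑ s^j Z_j) = 1 + ∑ m_j s^j` from the coefficient identities (complex `s`)
-/

set_option autoImplicit false
set_option linter.unusedSectionVars false

open Polynomial Set Filter Topology
open scoped ContDiff Matrix

namespace Crest.Agent.R281.HKMov_478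

open Crest.Agent.R273.SchA_152 Crest.Agent.R273.YauQ_635

noncomputable section

section series

variable {E : Type*} [NormedAddCommGroup E] [NormedSpace ℝ E] {O : Set E}

theorem sum_c1 {F : Type*} [NormedAddCommGroup F] [NormedSpace ℝ F] [CompleteSpace F]
    (hO : IsOpen O) {u : ℕ → E → F} (hu : ∀ j, ContDiffOn ℝ 1 (u j) O)
    {a : ℕ → ℝ} (ha : Summable a) (h0 : ∀ j, ∀ z ∈ O, ‖u j z‖ ≤ a j)
    (h1 : ∀ j, ∀ z ∈ O, ‖fderiv ℝ (u j) z‖ ≤ a j) :
    ContDiffOn ℝ 1 (fun z => ∑' j, u j z) O ∧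
      ∀ z ∈ O, HasFDerivAt (fun z => ∑' j, u j z) (∑' j, fderiv ℝ (u j) z) z := by
  have hd : ∀ z ∈ O, HasFDerivAt (fun z => ∑' j, u j z) (∑' j, fderiv ℝ (u j) z) z := by
    intro z hz
    obtain ⟨ρ, hρ, hρO⟩ := Metric.isOpen_iff.1 hO z hz
    refine hasFDerivAt_tsum_of_isPreconnected (s := Metric.ball z ρ) (x₀ := z) ha
      Metric.isOpen_ball (convex_ball z ρ).isPreconnected
      (fun j w hw => ?_) (fun j w hw => h1 j w (hρO hw)) (Metric.mem_ball_self hρ)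
      (Summable.of_norm_bounded ha fun j => h0 j z hz) (Metric.mem_ball_self hρ)
    exact (((hu j).contDiffAt (hO.mem_nhds (hρO hw))).differentiableAt (by norm_num)).hasFDerivAt
  refine ⟨?_, hd⟩
  have h2 : ContinuousOn (fun z => ∑' j, fderiv ℝ (u j) z) O :=
    continuousOn_tsum (fun j => (hu j).continuousOn_fderiv_of_isOpen hO le_rfl) ha h1
  rw [show (1 : WithTop ℕ∞) = 0 + 1 from rfl, contDiffOn_succ_iff_fderiv_of_isOpen hO]
  refine ⟨fun z hz => (hd z hz).differentiableAt.differentiableWithinAt, by simp, ?_⟩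
  rw [contDiffOn_zero]
  exact h2.congr fun z hz => (hd z hz).fderiv

theorem sum_c2 (hO : IsOpen O) {u : ℕ → E → ℝ} (hu : ∀ j, ContDiffOn ℝ 2 (u j) O)
    {a : ℕ → ℝ} (ha : Summable a) (h0 : ∀ j, ∀ z ∈ O, ‖u j z‖ ≤ a j)
    (h1 : ∀ j, ∀ z ∈ O, ‖fderiv ℝ (u j) z‖ ≤ a j)
    (h2 : ∀ j, ∀ z ∈ O, ‖fderiv ℝ (fderiv ℝ (u j)) z‖ ≤ a j) :
    ContDiffOn ℝ 2 (fun z => ∑' j, u j z) O ∧
      (∀ z ∈ O, fderiv ℝ (fun z => ∑' j, u j z) z = ∑' j, fderiv ℝ (u j) z) ∧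
      ∀ z ∈ O, fderiv ℝ (fderiv ℝ (fun z => ∑' j, u j z)) z =
        ∑' j, fderiv ℝ (fderiv ℝ (u j)) z := by
  obtain ⟨-, hd⟩ := sum_c1 hO (fun j => (hu j).of_le (by norm_num)) ha h0 h1
  have hu1 : ∀ j, ContDiffOn ℝ 1 (fderiv ℝ (u j)) O := fun j =>
    (hu j).fderiv_of_isOpen hO (by norm_num)
  obtain ⟨hc', hd'⟩ := sum_c1 hO hu1 ha h1 h2
  have e1 : ∀ z ∈ O, fderiv ℝ (fun z => ∑' j, u j z) z = ∑' j, fderiv ℝ (u j) z :=
    fun z hz => (hd z hz).fderiv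
  refine ⟨?_, e1, fun z hz => ?_⟩
  · rw [show (2 : WithTop ℕ∞) = 1 + 1 from rfl, contDiffOn_succ_iff_fderiv_of_isOpen hO]
    refine ⟨fun z hz => (hd z hz).differentiableAt.differentiableWithinAt, ?_, ?_⟩
    · intro h
      exact absurd h (by decide)
    · exact hc'.congr e1
  · have e2 : fderiv ℝ (fun z => ∑' j, u j z) =ᶠ[𝓝 z] fun z => ∑' j, fderiv ℝ (u j) z := by
      filter_upwards [hO.mem_nhds hz] with w hw using e1 w hw
    rw [e2.fderiv_eq, (hd' z hz).fderiv]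

end series

theorem ho_tsum {E F : Type*} [NormedAddCommGroup E] [NormedAddCommGroup F] [CompleteSpace F]
    {al : ℝ} {s : Set E} {f : ℕ → E → F} {a : ℕ → ℝ} {S : ℝ} (ha : Summable a)
    (hS : ∑' j, a j ≤ S)
    (hf : ∀ j, HO al (a j) s (f j)) : HO al S s (fun z => ∑' j, f j z) := by
  refine ⟨fun z hz => ?_, fun z hz w hw => ?_⟩
  · exact (tsum_of_norm_bounded ha.hasSum fun j => (hf j).bdd z hz).trans hS
  · have h1 : ∀ z ∈ s, Summable fun j => f j z := fun z hz =>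
      Summable.of_norm_bounded ha fun j => (hf j).bdd z hz
    rw [← (h1 z hz).tsum_sub (h1 w hw)]
    have h2 := tsum_of_norm_bounded (f := fun j => f j z - f j w)
      (ha.mul_right (‖z - w‖ ^ al)).hasSum fun j => (hf j).hol z hz w hw
    rw [tsum_mul_right] at h2
    exact h2.trans (mul_le_mul_of_nonneg_right hS (Real.rpow_nonneg (norm_nonneg _) _))

/-! ### the determinant of the sum -/

section det

variable {n : ℕ}

theorem summable_of_bd {a : ℕ → ℝ} {r η : ℝ} (hr : 0 ≤ r) (ha : ∀ j, 0 ≤ a j)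
    (hs : ∀ J, ∑ j ∈ Finset.range (J + 1), a j * r ^ j ≤ η) : Summable fun j => a j * r ^ j := by
  refine summable_of_sum_range_le (c := η) (fun j => mul_nonneg (ha j) (pow_nonneg hr j))
    fun N => ?_
  rcases N with _ | N
  · have h0 := hs 0
    simp only [Finset.range_zero, Finset.sum_empty]
    have h1 : 0 ≤ ∑ j ∈ Finset.range (0 + 1), a j * r ^ j :=
      Finset.sum_nonneg fun j _ => mul_nonneg (ha j) (pow_nonneg hr j)
    linarith
  · exact hs N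

theorem coeff_dt_le {Z : ℕ → Matrix (Fin n) (Fin n) ℂ} {a : ℕ → ℝ} {J : ℕ}
    (ha : ∀ j, 0 ≤ a j) (hZ : ∀ j, 1 ≤ j → ∀ b c, ‖Z j b c‖ ≤ a j) (k : ℕ) :
    ‖(dt Z J).coeff k‖ ≤ (n.factorial : ℝ) * 2 ^ n * ((1 + Ap a J) ^ n).coeff k := by
  have h := Mj.dt (E := ℂ) (Z := fun j _ => Z j) (J := J) (x := a) (a := 1) (s := {0})
    (fun j _ => ha j) (fun j _ hj b c => ho_const (hZ j hj b c)) k
  rw [coeff_C_mul] at h
  exact h.bdd 0 (mem_singleton 0)

theorem dt_tail {Z : ℕ → Matrix (Fin n) (Fin n) ℂ} {a : ℕ → ℝ} {r η : ℝ} (hr : 0 < r)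
    (ha : ∀ j, 0 ≤ a j) (hsum : ∀ J, ∑ j ∈ Finset.range (J + 1), a j * r ^ j ≤ η)
    (hZ : ∀ j, 1 ≤ j → ∀ b c, ‖Z j b c‖ ≤ a j) {s : ℂ} (hs : ‖s‖ ≤ r) (J : ℕ) :
    ‖(dt Z J).eval s - ∑ k ∈ Finset.range (J + 1), (dt Z J).coeff k * s ^ k‖ ≤
      (n.factorial : ℝ) * 2 ^ n * (1 + η) ^ n * (‖s‖ / r) ^ (J + 1) := by
  set D : ℝ := (n.factorial : ℝ) * 2 ^ n with hD
  set N : ℕ := max ((dt Z J).natDegree + 1) (J + 1) with hN
  have hNd : (dt Z J).natDegree < N := lt_of_lt_of_le (Nat.lt_succ_self _) (le_max_left _ _)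
  have hNJ : J + 1 ≤ N := le_max_right _ _
  have hP : Nn ((1 + Ap a J) ^ n) := (nn_one.add (Ap_nn fun k _ => ha k)).pow n
  rw [eval_eq_sum_range' hNd, ← Finset.sum_range_add_sum_Ico _ hNJ, add_sub_cancel_left]
  have hq0 : 0 ≤ ‖s‖ / r := by positivity
  have hq1 : ‖s‖ / r ≤ 1 := by rwa [div_le_one hr]
  have h1 : ∀ k ∈ Finset.Ico (J + 1) N, ‖(dt Z J).coeff k * s ^ k‖ ≤
      D * (((1 + Ap a J) ^ n).coeff k * r ^ k) * (‖s‖ / r) ^ (J + 1) := by
    intro k hk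
    have hk' := (Finset.mem_Ico.1 hk).1
    rw [norm_mul, norm_pow]
    have h2 : ‖s‖ ^ k = (‖s‖ / r) ^ k * r ^ k := by
      rw [← mul_pow, div_mul_cancel₀ _ hr.ne']
    have h3 : (‖s‖ / r) ^ k ≤ (‖s‖ / r) ^ (J + 1) := pow_le_pow_of_le_one hq0 hq1 hk'
    rw [h2]
    calc _ ≤ (D * ((1 + Ap a J) ^ n).coeff k) * ((‖s‖ / r) ^ (J + 1) * r ^ k) := by
          refine mul_le_mul (coeff_dt_le ha hZ k)
            (mul_le_mul_of_nonneg_right h3 (by positivity)) (by positivity)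
            (mul_nonneg (by positivity) (hP k))
      _ = _ := by ring
  refine (norm_sum_le_of_le _ h1).trans ?_
  rw [← Finset.sum_mul, ← Finset.mul_sum]
  refine mul_le_mul_of_nonneg_right (mul_le_mul_of_nonneg_left ?_ (by positivity)) (by positivity)
  refine (hP.sum_le_eval hr.le _).trans ?_
  rw [eval_pow, eval_add, eval_one, Ap_eval]
  have h4 : 0 ≤ ∑ j ∈ Finset.range (J + 1), a j * r ^ j :=
    Finset.sum_nonneg fun j _ => mul_nonneg (ha j) (by positivity)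
  exact pow_le_pow_left₀ (by linarith) (by linarith [hsum J]) n

/-- **the determinant of the sum** -/
theorem dt_limit {Z : ℕ → Matrix (Fin n) (Fin n) ℂ} {a : ℕ → ℝ} {m : ℕ → ℂ} {r η : ℝ}
    (hr : 0 < r) (ha : ∀ j, 0 ≤ a j) (hsum : ∀ J, ∑ j ∈ Finset.range (J + 1), a j * r ^ j ≤ η)
    (hZ : ∀ j, 1 ≤ j → ∀ b c, ‖Z j b c‖ ≤ a j) (hm : ∀ j, 1 ≤ j → ‖m j‖ ≤ a j)
    (heq : ∀ J j, 1 ≤ j → j ≤ J → (dt Z J).coeff j = m j) {s : ℂ} (hs : ‖s‖ < r) :
    (1 + Matrix.of fun b c => ∑' j, s ^ (j + 1) * Z (j + 1) b c).det =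
      1 + ∑' j, s ^ (j + 1) * m (j + 1) := by
  have hsm : Summable fun j => a (j + 1) * r ^ (j + 1) :=
    (summable_nat_add_iff 1).2 (summable_of_bd hr.le ha hsum)
  have hbd : ∀ (c : ℕ → ℂ), (∀ j, 1 ≤ j → ‖c j‖ ≤ a j) →
      Summable fun j => s ^ (j + 1) * c (j + 1) := by
    intro c hc
    refine Summable.of_norm_bounded hsm fun j => ?_
    rw [norm_mul, norm_pow, mul_comm]
    exact mul_le_mul (hc _ (by omega)) (pow_le_pow_left₀ (norm_nonneg _) hs.le _) (by positivity)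
      (ha _)
  -- left side
  have hL : Tendsto (fun J => (dt Z J).eval s) atTop
      (𝓝 (1 + Matrix.of fun b c => ∑' j, s ^ (j + 1) * Z (j + 1) b c).det) := by
    have h1 : Tendsto (fun J => (1 : Matrix (Fin n) (Fin n) ℂ) +
        ∑ j ∈ Finset.range J, s ^ (j + 1) • Z (j + 1)) atTop
        (𝓝 (1 + Matrix.of fun b c => ∑' j, s ^ (j + 1) * Z (j + 1) b c)) := by
      refine tendsto_const_nhds.add (tendsto_pi_nhds.2 fun b => tendsto_pi_nhds.2 fun c => ?_)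
      have h2 := (hbd (fun j => Z j b c) fun j hj => hZ j hj b c).hasSum.tendsto_sum_nat
      refine h2.congr fun J => ?_
      rw [Matrix.sum_apply]
      rfl
    have h3 : Continuous fun X : Matrix (Fin n) (Fin n) ℂ => X.det := continuous_id.matrix_det
    refine ((h3.tendsto _).comp h1).congr fun J => ?_
    rw [dt_eval]
    rfl
  -- right side
  have hR : Tendsto (fun J => ∑ k ∈ Finset.range (J + 1), (dt Z J).coeff k * s ^ k) atTop
      (𝓝 (1 + ∑' j, s ^ (j + 1) * m (j + 1))) := by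
    have h2 := (hbd m hm).hasSum.tendsto_sum_nat.const_add 1
    refine h2.congr fun J => ?_
    rw [Finset.sum_range_succ', dt_coeff_zero, pow_zero, mul_one, add_comm]
    congr 1
    refine Finset.sum_congr rfl fun j hj => ?_
    rw [heq J (j + 1) (by omega) (Finset.mem_range.1 hj), mul_comm]
  have hT : Tendsto (fun J => (dt Z J).eval s -
      ∑ k ∈ Finset.range (J + 1), (dt Z J).coeff k * s ^ k) atTop (𝓝 0) := by
    refine squeeze_zero_norm (fun J => dt_tail hr ha hsum hZ hs.le J) ?_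
    have hq : ‖s‖ / r < 1 := by rwa [div_lt_one hr]
    have h1 := (tendsto_pow_atTop_nhds_zero_of_lt_one (by positivity : 0 ≤ ‖s‖ / r) hq)
    have h2 := (h1.comp (tendsto_add_atTop_nat 1)).const_mul
      ((n.factorial : ℝ) * 2 ^ n * (1 + η) ^ n)
    rw [mul_zero] at h2
    exact h2
  have h5 := tendsto_nhds_unique hT (hL.sub hR)
  exact (sub_eq_zero.1 h5.symm)

end det

end

end Crest.Agent.R281.HKMov_478
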