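import Crest.Agent.R281.HKMovD_478
import Crest.Agent.R281.HKMovE_478

/-!
# R281 (S0424), LAP-REG (helper365): smoothness of the sum of the LAP-AN series

* `lin_limit` : approximate solutions of `Δ v = f + c` converge to the smooth solution
* `lap_reg`   : `ψ_s = ∑ s^j ψ_j` is smooth and `tr (G_s⁻¹ (Q_s + ∂∂̄ ψ_s)) = c`
-/

set_option autoImplicit false
set_option linter.unusedSectionVars false

open Set Metric Filter Topology
open scoped ContDiff Matrix ComplexConjugate ComplexOrder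

namespace Crest.Agent.R281.LapAn_365

open Crest.Agent.R275.Geo Crest.Agent.R275.Core144 Crest.Agent.R275.GC293
open Crest.Agent.R273.Defs_333 Crest.Agent.R273.YauDefs_635 Crest.Agent.R273.HM_333
open Crest.Agent.R273.YauCh_635 Crest.Agent.R273.Hess_333 Crest.Agent.R273.HessB_333
open Crest.Agent.R273.Kah_333 Crest.Agent.R273.YauMax_635 Crest.Agent.R273.YauLoc_635
open Crest.Agent.R273.SchA_152 Crest.Agent.R273.SchD_152 Crest.Agent.R273.YauQ_635
open Crest.Agent.R273.Green_5 Crest.Agent.R273.GreenM_5 Crest.Agent.R273.FIb0_597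
open Crest.Agent.R273.SchG_152 Crest.Agent.R273.SchF_152 Crest.Agent.R273.SchH_152
open Crest.Agent.R273.YauSchF_635 Crest.Agent.R273.YauPf_635 Crest.Agent.R273.YauOpA_635
open Crest.Agent.R273.SchJ_152 Crest.Agent.R281.HKMov_478

noncomputable section

variable {n : ℕ} {M : Type} [TopologicalSpace M] {A : Atl n M}

theorem lapK_sub (K : Kah A) {u v : M → ℝ} (hu : A.Sm u) (hv : A.Sm v) (x : M) :
    lapK K (fun x => u x - v x) x = lapK K u x - lapK K v x := by
  have h1 : (fun x => u x - v x) = fun x => u x + (-1) * v x := by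
    funext y
    ring
  rw [h1, Crest.Agent.R273.CLin_933.lapK_add K hu (Crest.Agent.R273.CLin_933.sm_smul (-1) hv) x,
    Crest.Agent.R273.CLin_933.lapK_smul K (-1) hv x]
  ring

theorem nh_neg {Bc : Cb A} {a N : ℝ} {f : M → ℝ} (h : Bc.NH a N f) : Bc.NH a N (fun x => -f x) :=
  fun k => (h k).neg.congr fun _ _ => rfl

/-- **approximate solutions converge to the smooth solution** -/
theorem lin_limit [T2Space M] [CompactSpace M] [ConnectedSpace M] [Finite A.ι] (P : Part A)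
    (K : Kah A) (Bc : Cb A) (x0 : M) {f : M → ℝ} (hf : A.Sm f) :
    ∃ (w : M → ℝ) (m C : ℝ), A.Sm w ∧ w x0 = 0 ∧ (∀ x, lapK K w x = f x - m) ∧ 0 < C ∧
      ∀ (v : M → ℝ) (c ε : ℝ), A.Sm v → v x0 = 0 →
        Bc.NH (1 / 2) ε (fun x => lapK K v x - f x - c) →
        Bc.N2 (1 / 2) (C * ε) (fun x => v x - w x) ∧ |c + m| ≤ ε := by
  obtain ⟨C, hC, H⟩ := lin_boundK P K Bc
  obtain ⟨w, m, hw, hlap⟩ := Crest.Agent.R273.CLin_933.lin_kah K P hf
  have hw' : A.Sm (fun y => w y - w x0) := fun i => (hw i).sub contDiffOn_const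
  refine ⟨fun y => w y - w x0, m, C, hw', sub_self _, fun x => ?_, hC, fun v c ε hv hv0 he => ?_⟩
  · rw [lapK_sub_const K hw, hlap x]
  · refine H x0 (fun x => v x - (w x - w x0)) (fun x => -(lapK K v x - f x - c)) (c + m) ε
      (fun i => (hv i).sub (hw' i)) (fun x => ?_) (nh_neg he) (by simp [hv0])
    rw [lapK_sub K hv hw', lapK_sub_const K hw, hlap x]
    ring

/-- tails of series in Hölder classes -/
theorem ho_tail {E : Type*} [NormedAddCommGroup E] {al : ℝ} {t : Set E} {f : ℕ → E → ℂ}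
    {a : ℕ → ℝ} (ha : Summable a) (hf : ∀ j, HO al (a j) t (f j)) (J : ℕ) :
    HO al (∑' j, a (j + J)) t (fun z => ∑' j, f (j + J) z) :=
  ho_tsum ((summable_nat_add_iff J).2 ha) le_rfl fun j => hf (j + J)

/-- the partial sums -/
def vs (ψ : ℕ → M → ℝ) (s : ℝ) (J : ℕ) (x : M) : ℝ := ∑ j ∈ Finset.range J, s ^ j * ψ j x

theorem vs_succ (ψ : ℕ → M → ℝ) (s : ℝ) (J : ℕ) :
    vs ψ s (J + 1) = fun x => vs ψ s J x + s ^ J * ψ J x := by
  funext x
  rw [vs, Finset.sum_range_succ]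
  rfl

theorem vs_sm {ψ : ℕ → M → ℝ} (hψ : ∀ j, A.Sm (ψ j)) (s : ℝ) (J : ℕ) : A.Sm (vs ψ s J) := by
  induction J with
  | zero =>
    have : vs ψ s 0 = fun _ => (0 : ℝ) := by
      funext x
      simp [vs]
    rw [this]
    exact Crest.Agent.R273.CLin_933.sm_const' 0
  | succ J ih =>
    rw [vs_succ]
    exact Crest.Agent.R273.CLin_933.sm_add ih (Crest.Agent.R273.CLin_933.sm_smul _ (hψ J))

theorem vs_hsf {ψ : ℕ → M → ℝ} (hψ : ∀ j, A.Sm (ψ j)) (s : ℝ) (J : ℕ) {i : A.ι} {x : M}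
    (hx : x ∈ (A.e i).source) :
    hsf A (vs ψ s J) i x = ∑ j ∈ Finset.range J, ((s ^ j : ℝ) : ℂ) • hsf A (ψ j) i x := by
  induction J with
  | zero =>
    have : vs ψ s 0 = fun _ => (0 : ℝ) := by
      funext x
      simp [vs]
    rw [this, Finset.range_zero, Finset.sum_empty, hsf_zero]
  | succ J ih =>
    rw [vs_succ, Finset.sum_range_succ, ← ih]
    have h1 : hsf A (fun x => vs ψ s J x + s ^ J * ψ J x) i x =
        hsf A (vs ψ s J) i x + hsf A (fun x => s ^ J * ψ J x) i x :=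
      hess_add (sm_contDiffAt (vs_sm hψ s J) _ ((A.e i).map_source hx))
        (sm_contDiffAt (Crest.Agent.R273.CLin_933.sm_smul _ (hψ J)) _ ((A.e i).map_source hx))
    have h2 : hsf A (fun x => s ^ J * ψ J x) i x = ((s ^ J : ℝ) : ℂ) • hsf A (ψ J) i x :=
      hess_const_mul _ (sm_contDiffAt (hψ J) _ ((A.e i).map_source hx))
    rw [h1, h2]

/-- **regularity of the sum of the LAP-AN series** -/
theorem lap_reg [T2Space M] [CompactSpace M] [ConnectedSpace M] [Finite A.ι] (P : Part A)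
    (K : Kah A) (Bc : Cb A) (x0 : M) {ψ : ℕ → M → ℝ} {p : ℕ → ℝ} {s : ℝ} (hψ : ∀ j, A.Sm (ψ j))
    (hψ0 : ∀ j, ψ j x0 = 0) (hn : ∀ j, Bc.N2 (1 / 2) (p j) (ψ j))
    (hs : Summable fun j => |s| ^ j * p j)
    {Q : A.ι → M → Matrix (Fin n) (Fin n) ℂ} (hQ : HF A Q) {c : ℝ}
    (heq : ∀ k, ∀ z ∈ closedBall (Bc.z k) (Bc.r k / 2),
      (((K.g (Bc.i k) ((A.e (Bc.i k)).symm z))⁻¹ * (Q (Bc.i k) ((A.e (Bc.i k)).symm z) +
        Matrix.of fun b d => ∑' j, ((s ^ j : ℝ) : ℂ) *
          hsf A (ψ j) (Bc.i k) ((A.e (Bc.i k)).symm z) b d)).trace).re = c) :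
    A.Sm (fun x => ∑' j, s ^ j * ψ j x) ∧ (∑' j, s ^ j * ψ j x0) = 0 ∧
    (∀ x, (trK K (fun i y => Q i y + hsf A (fun x => ∑' j, s ^ j * ψ j x) i y) x).re = c) ∧
    ∃ C, 0 ≤ C ∧ ∀ J, Bc.N2 (1 / 2) (C * ∑' j, |s| ^ (j + J) * p (j + J))
      (fun x => vs ψ s J x - ∑' j, s ^ j * ψ j x) := by
  set T : ℕ → ℝ := fun J => ∑' j, |s| ^ (j + J) * p (j + J) with hT
  have hT0 : Tendsto T atTop (𝓝 0) := tendsto_sum_nat_add fun j => |s| ^ j * p j
  have hp0 : ∀ j, 0 ≤ p j := fun j => by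
    obtain ⟨k, -, hk⟩ := Bc.cover x0
    exact (hn j k).h0.nonneg (ball_subset_closedBall hk)
  have hTn : ∀ J, 0 ≤ T J := fun J =>
    tsum_nonneg fun j => mul_nonneg (by positivity) (hp0 _)
  obtain ⟨V, hV0, hV⟩ := hf_inv_bound K Bc
  set f : M → ℝ := fun x => -(trK K Q x).re with hf
  have hfs : A.Sm f := fun i => (trK_sm K hQ i).neg
  obtain ⟨w, m, C, hw, hw0, hlap, hC, H⟩ := lin_limit P K Bc x0 hfs
  set C1 : ℝ := n * (n * (2 * V) + 1) with hC1
  have hC10 : 0 ≤ C1 := by positivity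
  -- the residual
  have hres : ∀ J, Bc.NH (1 / 2) (C1 * T J) (fun x => lapK K (vs ψ s J) x - f x - c) := by
    intro J k
    -- the tail field
    set Y : A.ι → M → Matrix (Fin n) (Fin n) ℂ := fun i x => Matrix.of fun b d =>
      ∑' j, ((s ^ (j + J) : ℝ) : ℂ) * hsf A (ψ (j + J)) i x b d with hY
    have hYb : ∀ b d, HO (1 / 2) (T J) (closedBall (Bc.z k) (Bc.r k / 2))
        (fun z => Y (Bc.i k) ((A.e (Bc.i k)).symm z) b d) := by
      intro b d
      refine ho_tail (f := fun j z => ((s ^ j : ℝ) : ℂ) *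
        hsf A (ψ j) (Bc.i k) ((A.e (Bc.i k)).symm z) b d) hs (fun j => ?_) J
      have h1 := n2_hsf (hψ j) (hn j) k b d
      refine ⟨fun z hz => ?_, fun z hz z' hz' => ?_⟩
      · rw [norm_mul, Complex.norm_real, norm_pow, Real.norm_eq_abs]
        exact mul_le_mul_of_nonneg_left (h1.bdd z hz) (by positivity)
      · rw [← mul_sub, norm_mul, Complex.norm_real, norm_pow, Real.norm_eq_abs, mul_assoc]
        exact mul_le_mul_of_nonneg_left (h1.hol z hz z' hz') (by positivity)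
    have h2 : ∀ l, HO (1 / 2) ((n * (2 * V) + 1) * T J) (closedBall (Bc.z k) (Bc.r k / 2))
        (fun z => ((K.g (Bc.i k) ((A.e (Bc.i k)).symm z))⁻¹ *
          Y (Bc.i k) ((A.e (Bc.i k)).symm z)) l l) := fun l =>
      ho_inv_mul hV0 (hTn J) (hV k) hYb l l
    have h3 := ho_sum (Finset.univ : Finset (Fin n)) (fun l _ => h2 l)
    rw [Finset.card_univ, Fintype.card_fin, ← mul_assoc] at h3
    refine (ho_re h3).neg.congr fun z hz => ?_
    have hzt := Bc.sub' k hz
    have hx' := (A.e (Bc.i k)).map_target hzt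
    have h4 := heq k z hz
    have hsum : ∀ b d, Summable fun j => ((s ^ j : ℝ) : ℂ) *
        hsf A (ψ j) (Bc.i k) ((A.e (Bc.i k)).symm z) b d := by
      intro b d
      refine Summable.of_norm_bounded hs fun j => ?_
      rw [norm_mul, Complex.norm_real, norm_pow, Real.norm_eq_abs]
      exact mul_le_mul_of_nonneg_left ((n2_hsf (hψ j) (hn j) k b d).bdd z hz) (by positivity)
    have h5 : (Matrix.of fun b d => ∑' j, ((s ^ j : ℝ) : ℂ) *
        hsf A (ψ j) (Bc.i k) ((A.e (Bc.i k)).symm z) b d) =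
        hsf A (vs ψ s J) (Bc.i k) ((A.e (Bc.i k)).symm z) +
          Y (Bc.i k) ((A.e (Bc.i k)).symm z) := by
      ext b d
      rw [Matrix.add_apply, vs_hsf hψ s J hx', Matrix.sum_apply, Matrix.of_apply,
        ← (hsum b d).sum_add_tsum_nat_add J]
      rfl
    have h6 : lapK K (vs ψ s J) ((A.e (Bc.i k)).symm z) =
        (((K.g (Bc.i k) ((A.e (Bc.i k)).symm z))⁻¹ *
          hsf A (vs ψ s J) (Bc.i k) ((A.e (Bc.i k)).symm z)).trace).re :=
      lapK_eq K (vs_sm hψ s J) hx'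
    have h7 : f ((A.e (Bc.i k)).symm z) = -(((K.g (Bc.i k) ((A.e (Bc.i k)).symm z))⁻¹ *
          Q (Bc.i k) ((A.e (Bc.i k)).symm z)).trace).re := by
      rw [hf]
      simp only
      rw [trK_eq K hQ.tr hx']
    rw [h5, Matrix.mul_add, Matrix.mul_add, Matrix.trace_add, Matrix.trace_add, Complex.add_re,
      Complex.add_re] at h4
    show lapK K (vs ψ s J) ((A.e (Bc.i k)).symm z) - f ((A.e (Bc.i k)).symm z) - c = _
    rw [h6, h7]
    have h8 : ((∑ l, ((K.g (Bc.i k) ((A.e (Bc.i k)).symm z))⁻¹ *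
          Y (Bc.i k) ((A.e (Bc.i k)).symm z)) l l)).re =
        (((K.g (Bc.i k) ((A.e (Bc.i k)).symm z))⁻¹ *
          Y (Bc.i k) ((A.e (Bc.i k)).symm z)).trace).re := rfl
    rw [h8]
    linarith
  have hvs0 : ∀ J, vs ψ s J x0 = 0 := fun J => by simp [vs, hψ0]
  have key := fun J => H (vs ψ s J) c (C1 * T J) (vs_sm hψ s J) (hvs0 J) (hres J)
  have hεt : Tendsto (fun J => C1 * T J) atTop (𝓝 0) := by
    have := hT0.const_mul C1
    rwa [mul_zero] at this
  have hm : c + m = 0 := by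
    have h1 : Tendsto (fun _ : ℕ => |c + m|) atTop (𝓝 0) :=
      squeeze_zero (fun _ => abs_nonneg _) (fun J => (key J).2) hεt
    exact abs_eq_zero.1 (tendsto_nhds_unique tendsto_const_nhds h1)
  have hsumx : ∀ x, Summable fun j => s ^ j * ψ j x := by
    intro x
    refine Summable.of_norm_bounded hs fun j => ?_
    rw [norm_mul, norm_pow, Real.norm_eq_abs, Real.norm_eq_abs]
    exact mul_le_mul_of_nonneg_left ((hn j).nh.bdd x) (by positivity)
  have hw' : (fun x => ∑' j, s ^ j * ψ j x) = w := by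
    funext x
    have h1 : Tendsto (fun J => vs ψ s J x) atTop (𝓝 (∑' j, s ^ j * ψ j x)) :=
      (hsumx x).hasSum.tendsto_sum_nat
    have h2 : Tendsto (fun J => vs ψ s J x) atTop (𝓝 (w x)) := by
      rw [tendsto_iff_norm_sub_tendsto_zero]
      refine squeeze_zero (fun _ => norm_nonneg _) (fun J => (key J).1.nh.bdd x) ?_
      have := hεt.const_mul C
      rwa [mul_zero] at this
    exact tendsto_nhds_unique h1 h2
  refine ⟨by rw [hw']; exact hw, ?_, ?_, C * C1, by positivity, fun J => ?_⟩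
  · have := congrFun hw' x0
    simpa only [hw0] using this
  · intro x
    rw [hw']
    have h1 : (trK K (fun i y => Q i y + hsf A w i y) x) = trK K Q x + trK K (hsf A w) x := by
      unfold trK
      rw [Matrix.mul_add, Matrix.trace_add]
    rw [h1, Complex.add_re]
    have h2 : (trK K (hsf A w) x).re = lapK K w x := rfl
    rw [h2, hlap x, hf]
    simp only
    linarith
  · have h1 := (key J).1
    rw [mul_assoc]
    rw [show (fun x => vs ψ s J x - ∑' j, s ^ j * ψ j x) = fun x => vs ψ s J x - w x by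
      funext x
      rw [congrFun hw' x]]
    exact h1

end

end Crest.Agent.R281.LapAn_365
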