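import Crest.Agent.R281.LAn3_508
import Crest.Agent.R281.LAn5_508
import Crest.Agent.R281.LapReg_365
import Crest.Agent.R281.HKMovK_478

/-!
# R281 (S0424), LAP-AN (helper508), file 6: the theorem in the language of HKMovJ

* `exists_lap` : for `K : Kah A`, `Q : K11 A` there is a smooth normalised `f` with
  `tr_K (Q + ∂∂̄ f) = const`
* `lap_unique` : uniqueness
* **`lap_move`** : along a `Ps11` family of Kähler metrics and a `Ps11` family of forms the
  normalised solutions form a `PsF` family, the trace free representatives a `Ps11` family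
-/

set_option autoImplicit false
set_option linter.unusedSectionVars false

open Set Filter Metric
open scoped ContDiff Matrix ComplexConjugate ComplexOrder Topology

namespace Crest.Agent.R281.LAn_508

open Crest.Agent.R275.Geo Crest.Agent.R275.Core144 Crest.Agent.R275.GC293
open Crest.Agent.R273.Defs_333 Crest.Agent.R273.YauDefs_635 Crest.Agent.R273.HM_333
open Crest.Agent.R273.YauCh_635 Crest.Agent.R273.Hess_333 Crest.Agent.R273.HessB_333
open Crest.Agent.R273.Kah_333 Crest.Agent.R273.YauMax_635 Crest.Agent.R273.YauLoc_635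
open Crest.Agent.R273.SchA_152 Crest.Agent.R273.SchD_152 Crest.Agent.R273.YauQ_635
open Crest.Agent.R273.Green_5 Crest.Agent.R273.GreenM_5 Crest.Agent.R273.FIb0_597
open Crest.Agent.R273.SchG_152 Crest.Agent.R273.SchF_152 Crest.Agent.R273.SchH_152
open Crest.Agent.R273.YauSchF_635 Crest.Agent.R273.YauOpA_635
open Crest.Agent.R273.YauPf_635 hiding ch
open Crest.Agent.R273.SchJ_152
open Crest.Agent.R281.HkR_835 (K11 ofKah)
open HKMov_478 LapAn_365

noncomputable section

variable {n : ℕ} {M : Type} [TopologicalSpace M] {A : Atl n M}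

/-- `tr_K (Q + ∂∂̄ f)` -/
def trQ (K : Kah A) (Q : K11 A) (f : M → ℝ) (x : M) : ℝ :=
  (trK K (fun i y => Q.g i y + hsf A f i y) x).re

theorem trQ_eq (K : Kah A) (Q : K11 A) {f : M → ℝ} (hf : A.Sm f) (x : M) :
    trQ K Q f x = (trK K Q.g x).re + lapK K f x := by
  have hx := mem_ch A x
  have h1 := congrArg Complex.re (trK_hf K ((k11_hf Q).add (hf_hsf hf)) hx)
  have h2 := congrArg Complex.re (trK_hf K (k11_hf Q) hx)
  have h3 := congrArg Complex.re (trK_hf K (hf_hsf hf) hx)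
  rw [Complex.ofReal_re] at h1 h2 h3
  have h4 : lapK K f x = (trK K (hsf A f) x).re := rfl
  rw [trQ, h4, h1, h2, h3, Matrix.mul_add, Matrix.trace_add, Complex.add_re]

/-- **existence** of the normalised solution -/
theorem exists_lap [T2Space M] [CompactSpace M] [ConnectedSpace M] [Finite A.ι] (P : Part A)
    (K : Kah A) (Q : K11 A) (x0 : M) : ∃ (f : M → ℝ) (c : ℝ), A.Sm f ∧ f x0 = 0 ∧
      ∀ x, trQ K Q f x = c := by
  have hR' : A.Sm (fun x => -(trK K Q.g x).re) := fun i => (trK_sm K (k11_hf Q) i).neg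
  obtain ⟨v, μ, hv, hlap⟩ := Crest.Agent.R273.CLin_933.lin_kah K P hR'
  have hv' : A.Sm (fun y => v y - v x0) := fun i => (hv i).sub contDiffOn_const
  refine ⟨fun y => v y - v x0, -μ, hv', sub_self _, fun x => ?_⟩
  rw [trQ_eq K Q hv', lapK_sub_const K hv, hlap x]
  ring

/-- **uniqueness** -/
theorem lap_unique [T2Space M] [CompactSpace M] [ConnectedSpace M] [Finite A.ι] (P : Part A)
    (K : Kah A) (Q : K11 A) {x0 : M} {f g : M → ℝ} {c d : ℝ} (hf : A.Sm f) (hg : A.Sm g)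
    (hf0 : f x0 = 0) (hg0 : g x0 = 0) (hfe : ∀ x, trQ K Q f x = c) (hge : ∀ x, trQ K Q g x = d)
    (Bc : Cb A) : f = g ∧ c = d := by
  obtain ⟨C, hC, H⟩ := lin_boundK P K Bc
  have hv : A.Sm (fun x => f x - g x) := fun i => (hf i).sub (hg i)
  have hlap : ∀ x, lapK K (fun x => f x - g x) x = (c - d) - (fun _ : M => (0 : ℝ)) x := by
    intro x
    have e : lapK K (fun x => f x - g x) x = lapK K f x - lapK K g x := LapAn_365.lapK_sub K hf hg x
    have h1 := hfe x
    have h2 := hge x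
    rw [trQ_eq K Q hf] at h1
    rw [trQ_eq K Q hg] at h2
    rw [e]
    linarith
  have h0 : Bc.NH (1 / 2) 0 (fun _ : M => (0 : ℝ)) := fun k =>
    HKMov_478.ho_const (le_of_eq norm_zero)
  obtain ⟨h1, h2⟩ := H x0 _ _ (c - d) 0 hv hlap h0 (by rw [hf0, hg0, sub_zero])
  refine ⟨?_, ?_⟩
  · funext x
    obtain ⟨k, hk, hxk⟩ := Bc.cover x
    have h3 := (h1 k).h0.bdd _ (ball_subset_closedBall hxk)
    simp only [inC, (A.e (Bc.i k)).left_inv hk, mul_zero, Real.norm_eq_abs] at h3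
    have h4 := abs_nonpos_iff.1 h3
    linarith
  · have h4 := abs_nonpos_iff.1 h2
    linarith

/-- shrinking the radius makes the tail small -/
theorem exists_radius {a : ℕ → ℝ} {r ε : ℝ} (hr : 0 < r) (ha : ∀ j, 0 ≤ a j)
    (hs : Summable fun j => a j * r ^ j) (hε : 0 < ε) : ∃ ρ, 0 < ρ ∧ ρ ≤ r ∧ ∀ ρ', 0 ≤ ρ' → ρ' ≤ ρ →
      ∀ J, ∑ j ∈ Finset.range J, a (j + 1) * ρ' ^ (j + 1) ≤ ε := by
  set S : ℝ := ∑' j, a j * r ^ j with hS
  have hS0 : 0 ≤ S := tsum_nonneg fun j => mul_nonneg (ha j) (pow_nonneg hr.le j)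
  set θ : ℝ := min 1 (ε / (S + 1)) with hθ
  have hθ0 : 0 < θ := lt_min one_pos (by positivity)
  have hθ1 : θ ≤ 1 := min_le_left _ _
  refine ⟨r * θ, by positivity, by nlinarith, fun ρ' hρ0 hρ' J => ?_⟩
  have h1 : ∀ j, a (j + 1) * ρ' ^ (j + 1) ≤ θ * (a (j + 1) * r ^ (j + 1)) := by
    intro j
    have h2 : ρ' ^ (j + 1) ≤ (r * θ) ^ (j + 1) := pow_le_pow_left₀ hρ0 hρ' _
    have h3 : θ ^ (j + 1) ≤ θ := by
      calc θ ^ (j + 1) ≤ θ ^ 1 := pow_le_pow_of_le_one hθ0.le hθ1 (by omega)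
        _ = θ := pow_one _
    have h4 : (r * θ) ^ (j + 1) ≤ r ^ (j + 1) * θ := by
      rw [mul_pow]
      exact mul_le_mul_of_nonneg_left h3 (by positivity)
    calc _ ≤ a (j + 1) * (r ^ (j + 1) * θ) := mul_le_mul_of_nonneg_left (h2.trans h4) (ha _)
      _ = _ := by ring
  calc _ ≤ ∑ j ∈ Finset.range J, θ * (a (j + 1) * r ^ (j + 1)) :=
        Finset.sum_le_sum fun j _ => h1 j
    _ = θ * ∑ j ∈ Finset.range J, a (j + 1) * r ^ (j + 1) := by rw [Finset.mul_sum]
    _ ≤ θ * S := by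
        refine mul_le_mul_of_nonneg_left ?_ hθ0.le
        have h5 : ∑ j ∈ Finset.range J, a (j + 1) * r ^ (j + 1) ≤
            ∑ j ∈ Finset.range (J + 1), a j * r ^ j := by
          rw [Finset.sum_range_succ' (fun j => a j * r ^ j)]
          have : 0 ≤ a 0 * r ^ 0 := mul_nonneg (ha 0) (by positivity)
          linarith
        exact h5.trans (hs.sum_le_tsum _ fun j _ => mul_nonneg (ha j) (pow_nonneg hr.le _))
    _ ≤ (ε / (S + 1)) * S := mul_le_mul_of_nonneg_right (min_le_right _ _) hS0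
    _ ≤ ε := by
        rw [div_mul_eq_mul_div, div_le_iff₀ (by positivity)]
        nlinarith

theorem inv_cancel {K : Matrix (Fin n) (Fin n) ℂ} (h : IsUnit K.det)
    (G T : Matrix (Fin n) (Fin n) ℂ) : (K⁻¹ * G)⁻¹ * (K⁻¹ * T) = G⁻¹ * T := by
  rw [Matrix.mul_inv_rev, Matrix.nonsing_inv_nonsing_inv _ h, Matrix.mul_assoc,
    ← Matrix.mul_assoc K, Matrix.mul_nonsing_inv _ h, Matrix.one_mul]

/-- **LAP-AN along a move** -/
theorem lap_move [T2Space M] [CompactSpace M] [ConnectedSpace M] [Finite A.ι] (P : Part A)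
    (Bc : Cb A) (x0 : M) {K : ℝ → Kah A} {Q : ℝ → K11 A} {f : ℝ → M → ℝ} {c : ℝ → ℝ}
    {s0 r r' δ : ℝ} {Y q : ℕ → K11 A} {a w : ℕ → ℝ}
    (hK : Ps11 Bc (fun s => ofKah (K s)) s0 r Y a) (hQ : Ps11 Bc Q s0 r' q w) (hδ : 0 < δ)
    (hf : ∀ s, |s - s0| < δ → A.Sm (f s)) (hf0 : ∀ s, |s - s0| < δ → f s x0 = 0)
    (heq : ∀ s, |s - s0| < δ → ∀ x, trQ (K s) (Q s) (f s) x = c s) :
    ∃ (ρ : ℝ) (ψ : ℕ → M → ℝ) (b m : ℕ → ℝ) (Q' : ℕ → K11 A), ρ ≤ δ ∧ ρ ≤ r ∧ ρ ≤ r' ∧
      PsF Bc f s0 ρ ψ b ∧ (∀ j i x, (Q' j).g i x = (q j).g i x + hsf A (ψ j) i x) ∧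
      (∀ E : ℝ → K11 A, (∀ s, |s - s0| < δ → ∀ i, ∀ x ∈ (A.e i).source,
        (E s).g i x = (Q s).g i x + hsf A (f s) i x) → Ps11 Bc E s0 ρ Q' b) ∧
      (∀ j, |m j| ≤ b j) ∧ ∀ s, |s - s0| < ρ → c s = ∑' j, (s - s0) ^ j * m j := by
  obtain ⟨η0, C, hη0, hC, H⟩ := ln_bound P (K s0) Bc x0
  obtain ⟨V, hV0, hV⟩ := hf_inv_bound (K s0) Bc
  set c1 : ℝ := n * (2 * V) + 1 with hc1
  have hn0 : (0 : ℝ) ≤ n := Nat.cast_nonneg n
  have hc11 : 1 ≤ c1 := by
    rw [hc1]
    have : (0 : ℝ) ≤ n * (2 * V) := by positivity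
    linarith
  have hc10 : 0 ≤ c1 := by linarith
  set az : ℕ → ℝ := fun j => c1 * a j with haz
  have haz0 : ∀ j, 0 ≤ az j := fun j => mul_nonneg hc10 (hK.a0 j)
  have hazs : Summable fun j => az j * r ^ j := by
    refine (hK.sum.mul_left c1).congr fun j => ?_
    rw [haz]
    ring
  set ε : ℝ := min η0 (1 / (4 * (n + 1))) with hε
  have hε0 : 0 < ε := lt_min hη0 (by positivity)
  obtain ⟨ρ0, hρ00, hρ0r, hρ0⟩ := exists_radius hK.r0 haz0 hazs hε0
  set ρ : ℝ := min (min ρ0 r') δ with hρ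
  have hρp : 0 < ρ := lt_min (lt_min hρ00 hQ.r0) hδ
  have hρρ0 : ρ ≤ ρ0 := (min_le_left _ _).trans (min_le_left _ _)
  have hρr : ρ ≤ r := hρρ0.trans hρ0r
  have hρr' : ρ ≤ r' := (min_le_left _ _).trans (min_le_right _ _)
  have hρδ : ρ ≤ δ := min_le_right _ _
  have hsm := hρ0 ρ hρp.le hρρ0
  set Yg : ℕ → A.ι → M → Matrix (Fin n) (Fin n) ℂ := fun j => (Y j).g with hYg
  set qg : ℕ → A.ι → M → Matrix (Fin n) (Fin n) ℂ := fun j => (q j).g with hqg
  have hZho : ∀ j, 1 ≤ j → ∀ k b c, HO (1 / 2) (az j) (closedBall (Bc.z k) (Bc.r k / 2))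
      (fun z => Zf (K s0) Yg (Bc.i k) ((A.e (Bc.i k)).symm z) j b c) := fun j _ k b c =>
    ho_inv_mul hV0 (hK.a0 j) (hV k) (Y := Yg j) (fun b c => hK.ho j k b c) b c
  have hwsum : Summable fun j => w j * ρ ^ j :=
    Summable.of_nonneg_of_le (fun j => mul_nonneg (hQ.a0 j) (by positivity))
      (fun j => mul_le_mul_of_nonneg_left (pow_le_pow_left₀ hρp.le hρr' _) (hQ.a0 j)) hQ.sum
  obtain ⟨S⟩ := H ρ az w (∑' j, w j * ρ ^ j) Yg qg hρp haz0
    (fun J => (hsm J).trans (min_le_left _ _)) (fun j _ => k11_hf (Y j)) hZho hQ.a0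
    (fun J => hwsum.sum_le_tsum _ fun j _ => mul_nonneg (hQ.a0 j) (by positivity))
    (fun j => k11_hf (q j)) hQ.ho
  have hSb : Summable fun j => S.b j * ρ ^ j :=
    summable_of_sum_range_le (fun j => mul_nonneg (S.b_nn j) (by positivity)) S.b_sum
  have hazρ : Summable fun j => az j * ρ ^ j :=
    Summable.of_nonneg_of_le (fun j => mul_nonneg (haz0 j) (by positivity))
      (fun j => mul_le_mul_of_nonneg_left (pow_le_pow_left₀ hρp.le hρr _) (haz0 j)) hazs
  have hK0 : ∀ i, ∀ x ∈ (A.e i).source, (Y 0).g i x = (K s0).g i x := by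
    intro i x hx
    ext b c
    exact hK.zero_eq hx b c
  -- the sum
  have key : ∀ s, |s - s0| < ρ → A.Sm (fun x => ∑' j, (s - s0) ^ j * S.ψ j x) ∧
      f s = (fun x => ∑' j, (s - s0) ^ j * S.ψ j x) ∧ c s = ∑' j, (s - s0) ^ j * S.c j := by
    intro s hs
    have hsδ := hs.trans_le hρδ
    set t : ℝ := s - s0 with ht
    have htn : ‖(t : ℂ)‖ ≤ ρ := by rw [Complex.norm_real, Real.norm_eq_abs]; exact hs.le
    have hSs : Summable fun j => |t| ^ j * S.b j := smb S.b_nn hSb hs.le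
    obtain ⟨g1, g2, g3, -⟩ := lap_reg P (K s) Bc x0 (ψ := S.ψ) (p := S.b) (s := t) S.sm S.nrm S.n2
      hSs (k11_hf (Q s)) (c := ∑' j, t ^ j * S.c j) (fun k z hz => by
        have hx := (A.e (Bc.i k)).map_target (Bc.sub' k hz)
        set x := (A.e (Bc.i k)).symm z with hxd
        have hZb : ∀ j, 1 ≤ j → ∀ b c, ‖Zf (K s0) Yg (Bc.i k) x j b c‖ ≤ az j :=
          fun j hj b c => (hZho j hj k b c).bdd z hz
        have hZ : Sb (Zt (Zf (K s0) Yg (Bc.i k) x)) (t : ℂ) := by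
          refine Sb.of_bd (p := fun j => if j = 0 then 1 else az j) (r := ρ) ?_ ?_ htn
          · refine (summable_nat_add_iff 1).1 ?_
            simpa using (summable_nat_add_iff (f := fun j => az j * ρ ^ j) 1).2 hazρ
          · intro j b c
            rcases j with _ | j
            · simp only [Zt, if_true, Matrix.one_apply]
              split_ifs <;> simp
            · simp only [Zt, Nat.add_one_ne_zero, if_false]
              exact hZb (j + 1) (by omega) b c
        have hH : Sb (Hn (Zf (K s0) Yg (Bc.i k) x)) (t : ℂ) := by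
          refine sb_Hn hρp.le haz0 (fun J => ?_) hZb htn
          have e : ∑ i ∈ Finset.range J, (2 * n * az (i + 1)) * ρ ^ (i + 1) =
              2 * n * ∑ i ∈ Finset.range J, az (i + 1) * ρ ^ (i + 1) := by
            rw [Finset.mul_sum]
            exact Finset.sum_congr rfl fun i _ => by ring
          rw [e]
          have h1 := (hsm J).trans (min_le_right _ _)
          have h2 : (2 : ℝ) * n * (1 / (4 * (n + 1))) ≤ 1 / 2 := by
            rw [mul_one_div, div_le_div_iff₀ (by positivity) (by norm_num)]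
            linarith
          exact (mul_le_mul_of_nonneg_left h1 (by positivity)).trans h2
        have hW : Sb (Zf (K s0) (Yf A qg S.ψ) (Bc.i k) x) (t : ℂ) :=
          Sb.of_bd (p := S.b) hSb (fun j b c => (S.hoW j k b c).bdd z hz) htn
        have hlim := trace_limit hZ hH hW (S.eqn0 _ x hx) (fun J => S.eqn J _ x hx)
        -- identification of the sums
        have hK0d : IsUnit ((K s0).g (Bc.i k) x).det :=
          isUnit_iff_ne_zero.2 ((K s0).pos _ x hx).det_pos.ne'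
        have e1 : Ms (Zt (Zf (K s0) Yg (Bc.i k) x)) (t : ℂ) =
            ((K s0).g (Bc.i k) x)⁻¹ * (K s).g (Bc.i k) x := by
          ext b d
          rw [Ms_apply, Matrix.mul_apply]
          have h1 : HasSum (fun j => ∑ l, ((K s0).g (Bc.i k) x)⁻¹ b l *
              ((t : ℂ) ^ j * (Y j).g (Bc.i k) x l d))
              (∑ l, ((K s0).g (Bc.i k) x)⁻¹ b l * (K s).g (Bc.i k) x l d) :=
            hasSum_sum fun l _ => (hK.hs s (hs.trans_le hρr) _ x hx l d).mul_left _
          refine (h1.congr_fun fun j => ?_).tsum_eq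
          rcases j with _ | j
          · simp only [Zt, if_true, pow_zero, one_mul]
            rw [← Matrix.nonsing_inv_mul _ hK0d, Matrix.mul_apply]
            exact Finset.sum_congr rfl fun l _ => by rw [hK0 _ x hx]
          · simp only [Zt, Nat.add_one_ne_zero, if_false, Zf, Matrix.mul_apply, Finset.mul_sum]
            exact Finset.sum_congr rfl fun l _ => by ring
        have e2 : Ms (Zf (K s0) (Yf A qg S.ψ) (Bc.i k) x) (t : ℂ) =
            ((K s0).g (Bc.i k) x)⁻¹ * ((Q s).g (Bc.i k) x + Matrix.of fun b d => ∑' j,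
              ((t ^ j : ℝ) : ℂ) * hsf A (S.ψ j) (Bc.i k) x b d) := by
          ext b d
          rw [Ms_apply, Matrix.mul_apply]
          have hhs : ∀ l, Summable fun j => ((t ^ j : ℝ) : ℂ) * hsf A (S.ψ j) (Bc.i k) x l d := by
            intro l
            refine Summable.of_norm_bounded hSs fun j => ?_
            rw [norm_mul, Complex.norm_real, norm_pow, Real.norm_eq_abs]
            exact mul_le_mul_of_nonneg_left ((n2_hsf (S.sm j) (S.n2 j) k l d).bdd z hz)
              (by positivity)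
          have h1 : HasSum (fun j => ∑ l, ((K s0).g (Bc.i k) x)⁻¹ b l *
              ((t : ℂ) ^ j * (q j).g (Bc.i k) x l d +
                ((t ^ j : ℝ) : ℂ) * hsf A (S.ψ j) (Bc.i k) x l d))
              (∑ l, ((K s0).g (Bc.i k) x)⁻¹ b l * ((Q s).g (Bc.i k) x + Matrix.of fun b d => ∑' j,
              ((t ^ j : ℝ) : ℂ) * hsf A (S.ψ j) (Bc.i k) x b d) l d) :=
            hasSum_sum fun l _ => ((hQ.hs s (hs.trans_le hρr') _ x hx l d).add
              (hhs l).hasSum).mul_left _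
          refine (h1.congr_fun fun j => ?_).tsum_eq
          simp only [Zf, Yf, Matrix.mul_apply, Matrix.add_apply, Finset.mul_sum, hqg]
          push_cast
          exact Finset.sum_congr rfl fun l _ => by ring
        rw [e1, e2] at hlim
        have e3 : (((K s0).g (Bc.i k) x)⁻¹ * (K s).g (Bc.i k) x)⁻¹ *
            (((K s0).g (Bc.i k) x)⁻¹ * ((Q s).g (Bc.i k) x + Matrix.of fun b d => ∑' j,
              ((t ^ j : ℝ) : ℂ) * hsf A (S.ψ j) (Bc.i k) x b d)) =
            ((K s).g (Bc.i k) x)⁻¹ * ((Q s).g (Bc.i k) x + Matrix.of fun b d => ∑' j,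
              ((t ^ j : ℝ) : ℂ) * hsf A (S.ψ j) (Bc.i k) x b d) := by
          exact inv_cancel hK0d _ _
        rw [e3] at hlim
        exact hlim)
    obtain ⟨h1, h2⟩ := lap_unique P (K s) (Q s) (hf s hsδ) g1 (hf0 s hsδ) g2 (heq s hsδ) g3 Bc
    exact ⟨g1, h1, h2⟩
  have hF : PsF Bc f s0 ρ S.ψ S.b := by
    refine ⟨hρp, S.b_nn, hSb, S.sm, S.n2, fun s hs x => ?_⟩
    rw [(key s hs).2.1]
    refine (Summable.of_norm_bounded (smb S.b_nn hSb hs.le) fun j => ?_).hasSum
    rw [norm_mul, norm_pow, Real.norm_eq_abs]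
    refine mul_le_mul_of_nonneg_left ?_ (by positivity)
    obtain ⟨k, hk, hxk⟩ := Bc.cover x
    have h1 := (S.n2 j k).h0.bdd _ (ball_subset_closedBall hxk)
    simpa [inC, (A.e (Bc.i k)).left_inv hk] using h1
  refine ⟨ρ, S.ψ, S.b, S.c, fun j => addH (q j) (S.ψ j) (S.sm j), hρδ, hρr, hρr', hF,
    fun j i x => rfl, fun E hE => ?_, S.hc, fun s hs => (key s hs).2.2⟩
  refine ⟨hρp, S.b_nn, hSb, fun j k b d => S.hoT j k b d, fun s hs i x hx p d => ?_⟩
  have hsδ := hs.trans_le hρδ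
  have h1 := (hQ.hs s (hs.trans_le hρr') i x hx p d).add (hF.hsf_sum hs (hf s hsδ) hx p d)
  have e : (E s).g i x p d = (Q s).g i x p d + hsf A (f s) i x p d := by
    rw [hE s hsδ i x hx, Matrix.add_apply]
  rw [e]
  refine h1.congr_fun fun j => ?_
  show _ * ((q j).g i x + hsf A (S.ψ j) i x) p d = _
  rw [Matrix.add_apply]
  ring

end

end Crest.Agent.R281.LAn_508
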