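import Crest.Agent.R281.Ext1_365
import Crest.Agent.R281.LAn6_508

/-!
# R281 (S0424), SEMI block "EXT + AN" (helper365), file 2: analyticity at every point

* `zK`, `ps_const`, `ps_lin` : constant and affine families have power series
* **`ext_an`** : a Monge-Ampere move `(K s, u s)` with the normalised solution `f s` of
  `tr_{K s}(Q s + i∂∂̄ f s) = c_s` on `[a, b]` extends to `(a - δ, b + δ)`, and at every `s0` there
  `u`, `K`, `f` have local power series (478's `PsF`, `Ps11`)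
-/

set_option autoImplicit false
set_option linter.unusedSectionVars false

open Set Filter Topology Complex Metric
open scoped ContDiff Matrix ComplexConjugate ComplexOrder

namespace Crest.Agent.R281.Ext_365

open Crest.Agent.R275.Geo Crest.Agent.R275.Core144 Crest.Agent.R275.GC293
open Crest.Agent.R275.EDR890
open Crest.Agent.R273.Defs_333 Crest.Agent.R273.YauDefs_635 Crest.Agent.R273.HM_333
open Crest.Agent.R273.YauCh_635 Crest.Agent.R273.Hess_333 Crest.Agent.R273.HessB_333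
open Crest.Agent.R273.Kah_333 Crest.Agent.R273.YauMax_635 Crest.Agent.R273.YauLoc_635
open Crest.Agent.R273.SchA_152 Crest.Agent.R273.SchD_152 Crest.Agent.R273.YauQ_635
open Crest.Agent.R273.YauSchF_635 Crest.Agent.R273.YauPf_635 Crest.Agent.R273.YauOpA_635
open Crest.Agent.R273.SchF_152 Crest.Agent.R273.SchE_152 Crest.Agent.R273.SchG_152
open Crest.Agent.R273.Vol_333 (addK Yau volK volK_w det_real det_re_pos ratio sm_ratio w_ratio)
open Crest.Agent.R281.HkR_835 (K11 ofKah)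
open Crest.Agent.R281.KpU_487 (C2f unique_gen)
open Crest.Agent.R281.HKMov_478
open Crest.Agent.R281.LAn_508 (trQ exists_lap lap_unique lap_move)

noncomputable section

variable {n : ℕ} {M : Type} [TopologicalSpace M] {A : Atl n M}

/-- the zero form -/
def zK (A : Atl n M) : K11 A where
  g _ _ := 0
  sm _ _ _ := contDiffOn_const
  herm _ _ _ := Matrix.isHermitian_zero
  tr _ _ _ _ := by simp
  closed i z hz a b c := by
    have h : ∀ p q : Fin n, (fun _ : Cn n => (0 : Matrix (Fin n) (Fin n) ℂ) p q) =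
        fun _ => (0 : ℂ) := fun _ _ => rfl
    rw [h, h, wd_const, wd_const]

/-- the coefficients of an affine family -/
def Yl (G0 G1 : K11 A) (j : ℕ) : K11 A := if j = 0 then G0 else if j = 1 then G1 else zK A

theorem ps_aff (Bc : Cb A) {G : ℝ → K11 A} {G0 G1 : K11 A} {s0 : ℝ}
    (h : ∀ s i, ∀ x ∈ (A.e i).source, ∀ b c,
      (G s).g i x b c = G0.g i x b c + ((s - s0 : ℝ) : ℂ) * G1.g i x b c) :
    ∃ β, Ps11 Bc G s0 1 (Yl G0 G1) β := by
  obtain ⟨V0, hV00, hV0⟩ := k11_ho G0 Bc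
  obtain ⟨V1, hV10, hV1⟩ := k11_ho G1 Bc
  refine ⟨fun j => if j = 0 then V0 else if j = 1 then V1 else 0, one_pos, fun j => ?_, ?_,
    fun j k b c => ?_, fun s _ i x hx b c => ?_⟩
  · split_ifs <;> first | assumption | exact le_rfl
  · refine summable_of_ne_finset_zero (s := {0, 1}) fun j hj => ?_
    simp only [Finset.mem_insert, Finset.mem_singleton, not_or] at hj
    simp [hj.1, hj.2]
  · rcases j with _ | j
    · simpa [Yl] using hV0 k b c
    · rcases j with _ | j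
      · simpa [Yl] using hV1 k b c
      · have e : (Yl G0 G1 (j + 1 + 1)) = zK A := by simp [Yl]
        have h2 : HO (1 / 2) 0 (closedBall (Bc.z k) (Bc.r k / 2)) (fun _ : Cn n => (0 : ℂ)) :=
          HKMov_478.ho_const (le_of_eq norm_zero)
        rw [e]
        have e2 : (if j + 1 + 1 = 0 then V0 else if j + 1 + 1 = 1 then V1 else 0) = 0 := by simp
        rw [e2]
        exact h2
  · rw [h s i x hx b c]
    have h1 : HasSum (fun j => ((s - s0 : ℝ) : ℂ) ^ j * (Yl G0 G1 j).g i x b c)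
        (∑ j ∈ ({0, 1} : Finset ℕ), ((s - s0 : ℝ) : ℂ) ^ j * (Yl G0 G1 j).g i x b c) :=
      hasSum_sum_of_ne_finset_zero (fun j hj => by
        simp only [Finset.mem_insert, Finset.mem_singleton, not_or] at hj
        have e : Yl G0 G1 j = zK A := by simp [Yl, hj.1, hj.2]
        rw [e]
        show _ * (0 : Matrix (Fin n) (Fin n) ℂ) b c = 0
        simp)
    rw [Finset.sum_pair zero_ne_one] at h1
    simpa [Yl] using h1

/-- constant families -/
theorem ps_const (Bc : Cb A) (W : K11 A) (s0 : ℝ) :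
    ∃ r Z β, Ps11 Bc (fun _ : ℝ => W) s0 r Z β := by
  obtain ⟨β, h⟩ := ps_aff (G := fun _ : ℝ => W) (G0 := W) (G1 := zK A) (s0 := s0) Bc
    (fun s i x hx b c => by
      show W.g i x b c = W.g i x b c + _ * (0 : Matrix (Fin n) (Fin n) ℂ) b c
      simp)
  exact ⟨_, _, _, h⟩

/-- the affine family `K0 + s B` -/
theorem ps_lin (Bc : Cb A) (K0 : Kah A) (B : K11 A) (s0 : ℝ) :
    ∃ r Z β, Ps11 Bc (fun s => linK K0 B s) s0 r Z β := by
  obtain ⟨β, h⟩ := ps_aff (G := fun s => linK K0 B s) (G0 := linK K0 B s0) (G1 := B) (s0 := s0) Bc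
    (fun s i x hx b c => by
      show (K0.g i x + (s : ℂ) • B.g i x) b c = (K0.g i x + (s0 : ℂ) • B.g i x) b c + _
      simp only [Matrix.add_apply, Matrix.smul_apply, smul_eq_mul]
      push_cast
      ring)
  exact ⟨_, _, _, h⟩

/-- the normalised solution of the linear equation -/
structure AtF (Q : K11 A) (x0 : M) (K : Kah A) (f : M → ℝ) (c : ℝ) : Prop where
  sm : A.Sm f
  nrm : f x0 = 0
  eq : ∀ x, trQ K Q f x = c

theorem AtF.congr {Q : K11 A} {x0 : M} {K : Kah A} {f : M → ℝ} {c c' : ℝ} (h : AtF Q x0 K f c)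
    (h' : AtF Q x0 K f c') : c = c' := (h.eq x0).symm.trans (h'.eq x0)

/-- **EXT + AN** -/
theorem ext_an [T2Space M] [CompactSpace M] [ConnectedSpace M] [Finite A.ι] (P : Part A)
    (Bc : Cb A) (x0 : M) (K0 : Kah A) (B : K11 A) {Q : ℝ → K11 A}
    (hQ : ∀ s0, ∃ r Z β, Ps11 Bc Q s0 r Z β) {a b : ℝ} (hab : a ≤ b)
    {K : ℝ → Kah A} {u f : ℝ → M → ℝ} {c : ℝ → ℝ}
    (h : ∀ s ∈ Icc a b, At K0 B x0 s (K s) (u s))
    (hf : ∀ s ∈ Icc a b, AtF (Q s) x0 (K s) (f s) (c s)) :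
    ∃ δ : ℝ, 0 < δ ∧ ∃ (K' : ℝ → Kah A) (u' f' : ℝ → M → ℝ) (c' : ℝ → ℝ),
      (∀ s ∈ Icc a b, K' s = K s ∧ u' s = u s ∧ f' s = f s ∧ c' s = c s) ∧
      (∀ s ∈ Ioo (a - δ) (b + δ), At K0 B x0 s (K' s) (u' s) ∧
        AtF (Q s) x0 (K' s) (f' s) (c' s)) ∧
      ∀ s0 ∈ Ioo (a - δ) (b + δ), ∃ ρ : ℝ, 0 < ρ ∧ (∀ s, |s - s0| < ρ → s ∈ Ioo (a - δ) (b + δ)) ∧
        (∃ φ β, PsF Bc u' s0 ρ φ β) ∧
        (∃ Y β, Ps11 Bc (fun s => ofKah (K' s)) s0 ρ Y β) ∧
        (∃ ψ β, PsF Bc f' s0 ρ ψ β) ∧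
        (∃ (m β : ℕ → ℝ), (∀ j, |m j| ≤ β j) ∧ (Summable fun j => β j * ρ ^ j) ∧
          ∀ s, |s - s0| < ρ → c' s = ∑' j, (s - s0) ^ j * m j) ∧
        ∃ (m β : ℕ → ℝ), (∀ j, |m j| ≤ β j) ∧ (Summable fun j => β j * ρ ^ j) ∧
          ∀ s, |s - s0| < ρ → ∀ i, ∀ x ∈ (A.e i).source,
            ((K' s).g i x).det = ((∑' j, (s - s0) ^ j * m j : ℝ) : ℂ) * ((K' s0).g i x).det := by
  classical
  obtain ⟨δ, hδ, K', u', hKu, hAt⟩ := exists_ext Bc h
  have hex : ∀ s, ∃ p : (M → ℝ) × ℝ, AtF (Q s) x0 (K' s) p.1 p.2 := by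
    intro s
    obtain ⟨g, d, h1, h2, h3⟩ := exists_lap P (K' s) (Q s) x0
    exact ⟨(g, d), h1, h2, h3⟩
  choose p hp using hex
  set f' : ℝ → M → ℝ := fun s => if s ∈ Icc a b then f s else (p s).1 with hf'
  set c' : ℝ → ℝ := fun s => if s ∈ Icc a b then c s else (p s).2 with hc'
  have hF : ∀ s, AtF (Q s) x0 (K' s) (f' s) (c' s) := by
    intro s
    by_cases hs : s ∈ Icc a b
    · simp only [hf', hc', if_pos hs]
      rw [(hKu s hs).1]
      exact hf s hs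
    · simp only [hf', hc', if_neg hs]
      exact hp s
  refine ⟨δ, hδ, K', u', f', c', fun s hs => ⟨(hKu s hs).1, (hKu s hs).2, if_pos hs, if_pos hs⟩,
    fun s hs => ⟨hAt s hs hab, hF s⟩, fun s0 hs0 => ?_⟩
  obtain ⟨d, hd, hdb⟩ := Metric.isOpen_iff.1 (isOpen_Ioo (a := a - δ) (b := b + δ)) s0 hs0
  have hin : ∀ s, |s - s0| < d → s ∈ Ioo (a - δ) (b + δ) := fun s hs =>
    hdb (by rwa [Metric.mem_ball, Real.dist_eq])
  obtain ⟨r0, Z0, β0, hG⟩ := ps_lin Bc K0 B s0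
  have hA : ∀ s, |s - s0| < d → At K0 B x0 s (K' s) (u' s) := fun s hs => hAt s (hin s hs) hab
  have hA0 : At K0 B x0 s0 (K' s0) (u' s0) := hA s0 (by simpa using hd)
  obtain ⟨r1, φ, Y1, m1, b1, hr1d, -, hFu, hKp, hm1, hdet⟩ := yau_move P Bc x0 hG hd
    (fun s hs => (hA s hs).add) (fun s hs => (hA s hs).nrm) (fun s hs => by
      obtain ⟨e, -, he⟩ := (hA s hs).det_pos
      obtain ⟨e0, he0p, he0⟩ := hA0.det_pos
      refine ⟨e / e0, fun i x hx => ?_⟩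
      rw [he i x hx, he0 i x hx, Complex.ofReal_div, ← mul_assoc, div_mul_cancel₀]
      exact_mod_cast he0p.ne')
  obtain ⟨r2, Z2, β2, hQ2⟩ := hQ s0
  obtain ⟨ρ, ψ, b2, m2, Q', hρd, hρ1, hρ2, hFf, -, -, hm2, hcs⟩ := lap_move P Bc x0
    (f := f') (c := c') hKp hQ2 hd (fun s _ => (hF s).sm) (fun s _ => (hF s).nrm)
    (fun s _ => (hF s).eq)
  have hρ : 0 < ρ := hFf.r0
  have hmono : ∀ {β : ℕ → ℝ}, (∀ j, 0 ≤ β j) → (Summable fun j => β j * r1 ^ j) →
      Summable fun j => β j * ρ ^ j := fun h0 h1 =>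
    Summable.of_nonneg_of_le (fun j => mul_nonneg (h0 j) (pow_nonneg hρ.le _))
      (fun j => mul_le_mul_of_nonneg_left (pow_le_pow_left₀ hρ.le hρ1 _) (h0 j)) h1
  refine ⟨ρ, hρ, fun s hs => hin s (hs.trans_le hρd), ⟨φ, b1, ?_⟩, ⟨Y1, b1, ?_⟩, ⟨ψ, b2, hFf⟩,
    ⟨m2, b2, hm2, hFf.sum, hcs⟩, m1, b1, hm1, hmono hKp.a0 hKp.sum, fun s hs i x hx =>
      hdet s (hs.trans_le hρ1) i x hx⟩
  · exact ⟨hρ, hFu.a0, hmono hFu.a0 hFu.sum, hFu.sm, hFu.n2,
      fun s hs => hFu.hs s (hs.trans_le hρ1)⟩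
  · exact ⟨hρ, hKp.a0, hmono hKp.a0 hKp.sum, hKp.ho, fun s hs => hKp.hs s (hs.trans_le hρ1)⟩

end

end Crest.Agent.R281.Ext_365
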