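import Crest.Agent.R273.AppA_834
import Crest.Agent.R273.Mass_5

/-!
# R281, FIB-CNT part 1 (helper242): blow-up limit of the Monge-Ampere density at a simple zero

`N = |W|² w`, `W` holomorphic, `W z₀ = 0`, `w > 0`, `B_κ = om + ∂∂̄ log (N + κ)`:
`κⁿ det B_κ (z₀ + √κ ξ) → |det J|² w₀ⁿ / (1 + w₀ |J ξ|²)^(n+1)`.
-/

set_option autoImplicit false
set_option linter.unusedSectionVars false

open Set Filter Topology Complex
open scoped ContDiff Matrix ComplexConjugate ComplexOrder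

namespace Crest.Agent.R281.Fc_242

open Crest.Agent.R275.Geo Crest.Agent.R275.Core144 Crest.Agent.R275.EDR890
open Crest.Agent.R273.Defs_333 Crest.Agent.R273.Hess_333 Crest.Agent.R273.HessB_333
open Crest.Agent.R273.FS_333 Crest.Agent.R273.FIa0_597

noncomputable section

variable {n : ℕ}

/-! ### product rules -/

theorem wd_cu_mul {u v : Cn n → ℝ} {z : Cn n} (hu : DifferentiableAt ℝ (cu u) z)
    (hv : DifferentiableAt ℝ (cu v) z) (s : WI n) :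
    wd s (cu fun w => u w * v w) z = wd s (cu u) z * v z + u z * wd s (cu v) z := by
  have h1 : (cu fun w => u w * v w) = fun w => cu u w * cu v w := by
    funext w; simp [cu]
  rw [h1]
  exact wd_mul hu hv s

theorem hess_mul {u v : Cn n → ℝ} {z : Cn n} (hu : ContDiffAt ℝ ∞ u z) (hv : ContDiffAt ℝ ∞ v z)
    (a b : Fin n) : hess (fun w => u w * v w) z a b =
      hess u z a b * v z + wd (true, b) (cu u) z * wd (false, a) (cu v) z +
      (wd (false, a) (cu u) z * wd (true, b) (cu v) z + u z * hess v z a b) := by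
  have h1 : wd (true, b) (cu fun w => u w * v w) =ᶠ[𝓝 z]
      fun w => wd (true, b) (cu u) w * cu v w + cu u w * wd (true, b) (cu v) w := by
    filter_upwards [eventually_diff hu, eventually_diff hv] with w h1 h2
    exact wd_cu_mul h1 h2 _
  have du := (contDiffAt_cu hu).differentiableAt (by simp)
  have dv := (contDiffAt_cu hv).differentiableAt (by simp)
  have du' : DifferentiableAt ℝ (wd (true, b) (cu u)) z :=
    (contDiffAt_wd (contDiffAt_cu hu) _).differentiableAt (by simp)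
  have dv' : DifferentiableAt ℝ (wd (true, b) (cu v)) z :=
    (contDiffAt_wd (contDiffAt_cu hv) _).differentiableAt (by simp)
  rw [hess_apply, wd_congr h1, wd_add (du'.fun_mul dv) (du.fun_mul dv'), wd_mul du' dv,
    wd_mul du dv']
  rfl

/-! ### the determinant of the limit -/

theorem det_sub_vecMulVec (c d : ℂ) (p : Fin n → ℂ) :
    (c • (1 : Matrix (Fin n) (Fin n) ℂ) - d • Matrix.vecMulVec p (star p)).det * c =
      c ^ n * (c - d * ∑ k, p k * star (p k)) := by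
  by_cases hc : c = 0
  · subst hc
    rcases n with _ | m
    · simp
    · simp
  have h1 : (c • (1 : Matrix (Fin n) (Fin n) ℂ) - d • Matrix.vecMulVec p (star p)) =
      c • (1 + Matrix.replicateCol Unit ((-(d / c)) • p) * Matrix.replicateRow Unit (star p)) := by
    ext i j
    simp only [Matrix.sub_apply, Matrix.smul_apply, smul_eq_mul, Matrix.add_apply,
      Matrix.vecMulVec_apply, Matrix.mul_apply, Matrix.replicateCol_apply,
      Matrix.replicateRow_apply, Finset.univ_unique, Finset.sum_singleton, Pi.smul_apply]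
    field_simp
    ring
  rw [h1, Matrix.det_smul, Fintype.card_fin, Matrix.det_one_add_replicateCol_mul_replicateRow]
  have h2 : star p ⬝ᵥ ((-(d / c)) • p) = -(d / c) * ∑ k, p k * star (p k) := by
    rw [dotProduct_smul, smul_eq_mul]
    congr 1
    unfold dotProduct
    exact Finset.sum_congr rfl fun k _ => by rw [mul_comm]; rfl
  rw [h2]
  field_simp
  ring

/-! ### the blow-up -/

/-- `B_κ` with `N` a general function -/
def BB (om : Cn n → Matrix (Fin n) (Fin n) ℂ) (Nf : Cn n → ℝ) (κ : ℝ) (z : Cn n) :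
    Matrix (Fin n) (Fin n) ℂ :=
  om z + (((Nf z + κ)⁻¹ : ℝ) • hess Nf z -
    (((Nf z + κ) ^ 2)⁻¹ : ℝ) • Matrix.vecMulVec (gr Nf z) (star (gr Nf z)))

/-- the Jacobian matrix `J k a = ∂_a W_k` -/
def Jc (W : Cn n → Fin n → ℂ) (z : Cn n) : Matrix (Fin n) (Fin n) ℂ :=
  Matrix.of fun k a => fderiv ℂ (fun z => W z k) z (EuclideanSpace.single a 1)

/-- the derivative in the direction `ξ` -/
def om0 (W : Cn n → Fin n → ℂ) (z ξ : Cn n) : Fin n → ℂ := fun k => fderiv ℂ (fun z => W z k) z ξ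

/-- `‖J ξ‖²` -/
def qf (W : Cn n → Fin n → ℂ) (z ξ : Cn n) : ℝ := ∑ k, ‖om0 W z ξ k‖ ^ 2

/-- the limit matrix -/
def LM (W : Cn n → Fin n → ℂ) (w₀ : ℝ) (z ξ : Cn n) : Matrix (Fin n) (Fin n) ℂ :=
  (Jc W z)ᵀ * ((((1 + w₀ * qf W z ξ)⁻¹ * w₀ : ℝ) : ℂ) • (1 : Matrix (Fin n) (Fin n) ℂ) -
    ((((1 + w₀ * qf W z ξ) ^ 2)⁻¹ * w₀ ^ 2 : ℝ) : ℂ) •
      Matrix.vecMulVec (star (om0 W z ξ)) (star (star (om0 W z ξ)))) * (Jc W z).map conj

theorem det_LM (W : Cn n → Fin n → ℂ) {w₀ : ℝ} (hw : 0 < w₀) (z ξ : Cn n) :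
    (LM W w₀ z ξ).det =
      ((‖(Jc W z).det‖ ^ 2 * (w₀ ^ n / (1 + w₀ * qf W z ξ) ^ (n + 1)) : ℝ) : ℂ) := by
  have hq : 0 ≤ qf W z ξ := Finset.sum_nonneg fun _ _ => by positivity
  set q := qf W z ξ with hqd
  have h1 : 0 < 1 + w₀ * q := by positivity
  set c : ℝ := (1 + w₀ * q)⁻¹ * w₀ with hc
  have hc0 : 0 < c := by positivity
  unfold LM
  rw [Matrix.det_mul, Matrix.det_mul, Matrix.det_transpose]
  have h2 := det_sub_vecMulVec (c : ℂ) ((((1 + w₀ * q) ^ 2)⁻¹ * w₀ ^ 2 : ℝ) : ℂ)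
    (star (om0 W z ξ))
  have h3 : ∑ k, star (om0 W z ξ) k * star (star (om0 W z ξ) k) = (q : ℂ) := by
    rw [hqd]
    unfold qf
    push_cast
    refine Finset.sum_congr rfl fun k _ => ?_
    rw [Pi.star_apply, star_star, ← Complex.ofReal_pow, ← Complex.normSq_eq_norm_sq,
      ← Complex.mul_conj, mul_comm]
    rfl
  rw [h3] at h2
  have h4 : ((c : ℂ) • (1 : Matrix (Fin n) (Fin n) ℂ) -
      ((((1 + w₀ * q) ^ 2)⁻¹ * w₀ ^ 2 : ℝ) : ℂ) •
        Matrix.vecMulVec (star (om0 W z ξ)) (star (star (om0 W z ξ)))).det =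
      ((c ^ n * (1 - c * q) : ℝ) : ℂ) := by
    have hcc : (c : ℂ) ≠ 0 := by exact_mod_cast hc0.ne'
    refine mul_right_cancel₀ hcc (h2.trans ?_)
    have h5 : (((1 + w₀ * q) ^ 2)⁻¹ * w₀ ^ 2 : ℝ) = c ^ 2 := by
      rw [hc, mul_pow, inv_pow]
    rw [h5]
    push_cast
    ring
  rw [h4]
  have h5 : ((Jc W z).map conj).det = conj (Jc W z).det := by
    rw [← RingHom.mapMatrix_apply, ← RingHom.map_det]
  rw [h5]
  have h6 : 1 - c * q = (1 + w₀ * q)⁻¹ := by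
    rw [hc]; field_simp; ring
  rw [h6]
  have h7 : (Jc W z).det * ((c ^ n * (1 + w₀ * q)⁻¹ : ℝ) : ℂ) * conj (Jc W z).det =
      ((‖(Jc W z).det‖ ^ 2 * (c ^ n * (1 + w₀ * q)⁻¹) : ℝ) : ℂ) := by
    rw [mul_right_comm, Complex.mul_conj, Complex.normSq_eq_norm_sq]
    push_cast; ring
  rw [h7]
  congr 2
  rw [hc, mul_pow, inv_pow, pow_succ]
  field_simp

theorem LM_apply (W : Cn n → Fin n → ℂ) (w₀ : ℝ) (z ξ : Cn n) (a b : Fin n) :
    LM W w₀ z ξ a b = (((1 + w₀ * qf W z ξ)⁻¹ : ℝ) : ℂ) * (w₀ * ∑ k, Jc W z k a * conj (Jc W z k b)) -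
      ((((1 + w₀ * qf W z ξ) ^ 2)⁻¹ : ℝ) : ℂ) * ((w₀ * ∑ k, Jc W z k a * conj (om0 W z ξ k)) *
        (w₀ * ∑ k, conj (Jc W z k b) * om0 W z ξ k)) := by
  unfold LM
  set c : ℂ := (((1 + w₀ * qf W z ξ)⁻¹ * w₀ : ℝ) : ℂ) with hc
  set d : ℂ := ((((1 + w₀ * qf W z ξ) ^ 2)⁻¹ * w₀ ^ 2 : ℝ) : ℂ) with hd
  rw [Matrix.mul_sub, Matrix.sub_mul, Matrix.sub_apply, Matrix.mul_smul, Matrix.mul_smul,
    Matrix.smul_mul, Matrix.smul_mul, Matrix.mul_one, Matrix.smul_apply, Matrix.smul_apply,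
    smul_eq_mul, smul_eq_mul]
  have h1 : ((Jc W z)ᵀ * (Jc W z).map conj) a b = ∑ k, Jc W z k a * conj (Jc W z k b) := by
    rw [Matrix.mul_apply]
    rfl
  have h2 : ((Jc W z)ᵀ * Matrix.vecMulVec (star (om0 W z ξ)) (star (star (om0 W z ξ))) *
      (Jc W z).map conj) a b = (∑ k, Jc W z k a * conj (om0 W z ξ k)) *
        (∑ k, conj (Jc W z k b) * om0 W z ξ k) := by
    rw [Matrix.mul_apply, Finset.mul_sum]
    refine Finset.sum_congr rfl fun l _ => ?_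
    rw [Matrix.mul_apply, Finset.sum_mul, Finset.sum_mul]
    refine Finset.sum_congr rfl fun k _ => ?_
    rw [Matrix.transpose_apply, Matrix.vecMulVec_apply, Matrix.map_apply, star_star,
      Pi.star_apply]
    change Jc W z k a * (conj (om0 W z ξ k) * om0 W z ξ l) * conj (Jc W z l b) = _
    ring
  rw [h1, h2, hc, hd]
  push_cast
  ring

section Lim

variable {W : Cn n → Fin n → ℂ} {w : Cn n → ℝ} {U : Set (Cn n)} {z₀ : Cn n}

/-- `N = |W|² w` -/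
def NN (W : Cn n → Fin n → ℂ) (w : Cn n → ℝ) (z : Cn n) : ℝ := sq W z * w z

theorem sq_smooth (hU : IsOpen U) (hW : ∀ k, DifferentiableOn ℂ (fun z => W z k) U) {z : Cn n}
    (hz : z ∈ U) : ContDiffAt ℝ ∞ (sq W) z :=
  ContDiffAt.sum fun k _ => (contDiffAt_of_hol hU (hW k) hz).norm_sq ℝ

theorem gr_NN (hU : IsOpen U) (hW : ∀ k, DifferentiableOn ℂ (fun z => W z k) U)
    (hw : ContDiffOn ℝ ∞ w U) {z : Cn n} (hz : z ∈ U) (a : Fin n) :
    gr (NN W w) z a = (∑ k, Jc W z k a * conj (W z k)) * w z + sq W z * wd (false, a) (cu w) z := by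
  have h1 := contDiffAt_cu (sq_smooth hU hW hz)
  have h2 := contDiffAt_cu (hw.contDiffAt (hU.mem_nhds hz))
  unfold gr NN
  rw [wd_cu_mul (h1.differentiableAt (by simp)) (h2.differentiableAt (by simp)), wd_sq' hU hW hz]
  rfl

theorem hess_NN (hU : IsOpen U) (hW : ∀ k, DifferentiableOn ℂ (fun z => W z k) U)
    (hw : ContDiffOn ℝ ∞ w U) (hz : z₀ ∈ U) (h0 : ∀ k, W z₀ k = 0) (a b : Fin n) :
    hess (NN W w) z₀ a b = w z₀ * ∑ k, Jc W z₀ k a * conj (Jc W z₀ k b) := by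
  have h1 := sq_smooth hU hW hz
  have h2 := hw.contDiffAt (hU.mem_nhds hz)
  have e1 : wd (true, b) (cu (sq W)) z₀ = 0 := by
    rw [wd_sq hU hW hz]
    exact Finset.sum_eq_zero fun k _ => by rw [h0, zero_mul]
  have e2 : wd (false, a) (cu (sq W)) z₀ = 0 := by
    rw [wd_sq' hU hW hz]
    exact Finset.sum_eq_zero fun k _ => by rw [h0, map_zero, mul_zero]
  have e3 : sq W z₀ = 0 := Finset.sum_eq_zero fun k _ => by rw [h0]; simp
  unfold NN
  rw [hess_mul h1 h2, e1, e2, e3, hess_sq hU hW hz]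
  simp only [zero_mul, add_zero, ofReal_zero]
  rw [mul_comm]
  rfl

theorem tendsto_W (hU : IsOpen U) (hW : ∀ k, DifferentiableOn ℂ (fun z => W z k) U) (hz : z₀ ∈ U)
    (h0 : ∀ k, W z₀ k = 0) {r : ℕ → ℝ} (hr : ∀ m, 0 < r m) (hr0 : Tendsto r atTop (𝓝 0))
    (ξ : Cn n) (k : Fin n) :
    Tendsto (fun m => ((r m)⁻¹ : ℝ) • W (z₀ + r m • ξ) k) atTop (𝓝 (om0 W z₀ ξ k)) := by
  have h1 : HasFDerivAt (fun z => W z k) ((fderiv ℂ (fun z => W z k) z₀).restrictScalars ℝ) z₀ :=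
    ((hW k).differentiableAt (hU.mem_nhds hz)).hasFDerivAt.restrictScalars ℝ
  have h2 : Tendsto (fun m => ‖(r m)⁻¹‖) atTop atTop := by
    have h3 : Tendsto (fun m => (r m)⁻¹) atTop atTop :=
      tendsto_inv_nhdsGT_zero.comp
        (tendsto_nhdsWithin_iff.2 ⟨hr0, Eventually.of_forall fun m => hr m⟩)
    exact tendsto_norm_atTop_atTop.comp h3
  have h3 := h1.lim ξ h2
  refine h3.congr fun m => ?_
  rw [inv_inv, h0 k, sub_zero]

theorem tendsto_pt {r : ℕ → ℝ} (hr0 : Tendsto r atTop (𝓝 0)) (z₀ ξ : Cn n) :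
    Tendsto (fun m => z₀ + r m • ξ) atTop (𝓝 z₀) := by
  have h1 : Tendsto (fun m => z₀ + r m • ξ) atTop (𝓝 (z₀ + (0 : ℝ) • ξ)) :=
    tendsto_const_nhds.add (hr0.smul_const ξ)
  simpa using h1

theorem tendsto_sq (hU : IsOpen U) (hW : ∀ k, DifferentiableOn ℂ (fun z => W z k) U) (hz : z₀ ∈ U)
    (h0 : ∀ k, W z₀ k = 0) {r : ℕ → ℝ} (hr : ∀ m, 0 < r m) (hr0 : Tendsto r atTop (𝓝 0))
    (ξ : Cn n) :
    Tendsto (fun m => sq W (z₀ + r m • ξ) / (r m) ^ 2) atTop (𝓝 (qf W z₀ ξ)) := by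
  have h1 : ∀ m, sq W (z₀ + r m • ξ) / (r m) ^ 2 =
      ∑ k, ‖((r m)⁻¹ : ℝ) • W (z₀ + r m • ξ) k‖ ^ 2 := by
    intro m
    unfold Crest.Agent.R273.FS_333.sq
    rw [Finset.sum_div]
    refine Finset.sum_congr rfl fun k _ => ?_
    rw [norm_smul, mul_pow, norm_inv, Real.norm_of_nonneg (hr m).le, inv_pow]
    field_simp
  simp_rw [h1]
  exact tendsto_finsetSum _ fun k _ => ((tendsto_W hU hW hz h0 hr hr0 ξ k).norm.pow 2)

theorem tendsto_gr (hU : IsOpen U) (hW : ∀ k, DifferentiableOn ℂ (fun z => W z k) U)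
    (hw : ContDiffOn ℝ ∞ w U) (hz : z₀ ∈ U)
    (h0 : ∀ k, W z₀ k = 0) {r : ℕ → ℝ} (hr : ∀ m, 0 < r m) (hr0 : Tendsto r atTop (𝓝 0))
    (ξ : Cn n) (a : Fin n) :
    Tendsto (fun m => ((r m)⁻¹ : ℝ) • gr (NN W w) (z₀ + r m • ξ) a) atTop
      (𝓝 (w z₀ * ∑ k, Jc W z₀ k a * conj (om0 W z₀ ξ k))) := by
  have hpt := tendsto_pt hr0 z₀ ξ
  have hev : ∀ᶠ m in atTop, z₀ + r m • ξ ∈ U := hpt.eventually (hU.mem_nhds hz)
  have hJ : ∀ k, Tendsto (fun m => Jc W (z₀ + r m • ξ) k a) atTop (𝓝 (Jc W z₀ k a)) := by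
    intro k
    have h3 : AnalyticOnNhd ℂ (fderiv ℂ (fun z => W z k)) U :=
      (Crest.Agent.R266.SCV.analyticOnNhd_of_differentiableOn hU (hW k)).fderiv
    have h4 : ContinuousAt (fderiv ℂ (fun z => W z k)) z₀ := (h3 z₀ hz).continuousAt
    have h5 : ContinuousAt (fun z => fderiv ℂ (fun z => W z k) z (EuclideanSpace.single a 1)) z₀ :=
      h4.clm_apply continuousAt_const
    exact h5.tendsto.comp hpt
  have hwt : Tendsto (fun m => w (z₀ + r m • ξ)) atTop (𝓝 (w z₀)) :=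
    ((hw.contDiffAt (hU.mem_nhds hz)).continuousAt).tendsto.comp hpt
  have hwd : Tendsto (fun m => wd (false, a) (cu w) (z₀ + r m • ξ)) atTop
      (𝓝 (wd (false, a) (cu w) z₀)) :=
    ((contDiffAt_wd (contDiffAt_cu (hw.contDiffAt (hU.mem_nhds hz))) _).continuousAt).tendsto.comp
      hpt
  have hsq0 : Tendsto (fun m => sq W (z₀ + r m • ξ) / (r m) ^ 2 * r m) atTop
      (𝓝 (qf W z₀ ξ * 0)) := (tendsto_sq hU hW hz h0 hr hr0 ξ).mul hr0
  rw [mul_zero] at hsq0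
  have hA : Tendsto (fun m => (∑ k, Jc W (z₀ + r m • ξ) k a *
      conj (((r m)⁻¹ : ℝ) • W (z₀ + r m • ξ) k)) * (w (z₀ + r m • ξ) : ℂ) +
      ((sq W (z₀ + r m • ξ) / (r m) ^ 2 * r m : ℝ) : ℂ) * wd (false, a) (cu w) (z₀ + r m • ξ))
      atTop (𝓝 ((∑ k, Jc W z₀ k a * conj (om0 W z₀ ξ k)) * (w z₀ : ℂ) +
        ((0 : ℝ) : ℂ) * wd (false, a) (cu w) z₀)) := by
    refine Tendsto.add (Tendsto.mul (tendsto_finsetSum _ fun k _ => ?_) ?_) (Tendsto.mul ?_ hwd)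
    · exact (hJ k).mul ((Complex.continuous_conj.tendsto _).comp (tendsto_W hU hW hz h0 hr hr0 ξ k))
    · exact (Complex.continuous_ofReal.tendsto _).comp hwt
    · exact (Complex.continuous_ofReal.tendsto _).comp hsq0
  have hlim : (∑ k, Jc W z₀ k a * conj (om0 W z₀ ξ k)) * (w z₀ : ℂ) +
        ((0 : ℝ) : ℂ) * wd (false, a) (cu w) z₀ =
      w z₀ * ∑ k, Jc W z₀ k a * conj (om0 W z₀ ξ k) := by
    rw [ofReal_zero, zero_mul, add_zero, mul_comm]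
  rw [hlim] at hA
  refine hA.congr' ?_
  filter_upwards [hev] with m hm
  rw [gr_NN hU hW hw hm]
  have hrm : (r m : ℂ) ≠ 0 := by exact_mod_cast (hr m).ne'
  simp only [Complex.real_smul, ofReal_inv, map_mul, map_inv₀, Complex.conj_ofReal, ofReal_mul,
    ofReal_div, ofReal_pow]
  rw [mul_add]
  congr 1
  · rw [Finset.sum_mul, Finset.sum_mul, Finset.mul_sum]
    refine Finset.sum_congr rfl fun k _ => ?_
    ring
  · field_simp

/-- **blow-up limit** -/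
theorem tendsto_BB {om : Cn n → Matrix (Fin n) (Fin n) ℂ} (hom : ContinuousAt om z₀)
    (hU : IsOpen U) (hW : ∀ k, DifferentiableOn ℂ (fun z => W z k) U)
    (hw : ContDiffOn ℝ ∞ w U) (hz : z₀ ∈ U)
    (h0 : ∀ k, W z₀ k = 0) (hw0 : 0 < w z₀) {r : ℕ → ℝ} (hr : ∀ m, 0 < r m)
    (hr0 : Tendsto r atTop (𝓝 0)) (ξ : Cn n) :
    Tendsto (fun m => (((r m) ^ 2 : ℝ) : ℂ) • BB om (NN W w) ((r m) ^ 2) (z₀ + r m • ξ)) atTop
      (𝓝 (LM W (w z₀) z₀ ξ)) := by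
  have hpt := tendsto_pt hr0 z₀ ξ
  have hq : 0 ≤ qf W z₀ ξ := Finset.sum_nonneg fun _ _ => by positivity
  refine tendsto_pi_nhds.2 fun a => tendsto_pi_nhds.2 fun b => ?_
  have hwt : Tendsto (fun m => w (z₀ + r m • ξ)) atTop (𝓝 (w z₀)) :=
    ((hw.contDiffAt (hU.mem_nhds hz)).continuousAt).tendsto.comp hpt
  -- `N / κ`
  have hN : Tendsto (fun m => NN W w (z₀ + r m • ξ) / (r m) ^ 2) atTop
      (𝓝 (w z₀ * qf W z₀ ξ)) := by
    have h1 := (tendsto_sq hU hW hz h0 hr hr0 ξ).mul hwt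
    rw [mul_comm] at h1
    refine h1.congr fun m => ?_
    unfold NN; ring
  have hpos : 0 < 1 + w z₀ * qf W z₀ ξ := by positivity
  have hc1 : Tendsto (fun m => (1 + NN W w (z₀ + r m • ξ) / (r m) ^ 2)⁻¹) atTop
      (𝓝 (1 + w z₀ * qf W z₀ ξ)⁻¹) := (tendsto_const_nhds.add hN).inv₀ hpos.ne'
  have hc2 : Tendsto (fun m => ((1 + NN W w (z₀ + r m • ξ) / (r m) ^ 2) ^ 2)⁻¹) atTop
      (𝓝 ((1 + w z₀ * qf W z₀ ξ) ^ 2)⁻¹) :=
    ((tendsto_const_nhds.add hN).pow 2).inv₀ (by positivity)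
  have hr2 : Tendsto (fun m => (r m) ^ 2) atTop (𝓝 0) := by
    have := hr0.pow 2
    simpa using this
  have homt : Tendsto (fun m => (((r m) ^ 2 : ℝ) : ℂ) * om (z₀ + r m • ξ) a b) atTop
      (𝓝 (((0 : ℝ) : ℂ) * om z₀ a b)) := by
    refine ((Complex.continuous_ofReal.tendsto _).comp hr2).mul ?_
    have h1 : ContinuousAt (fun z => om z a b) z₀ := continuousAt_pi.1 (continuousAt_pi.1 hom a) b
    exact h1.tendsto.comp hpt
  have hNs : ContDiffAt ℝ ∞ (NN W w) z₀ :=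
    (sq_smooth hU hW hz).mul (hw.contDiffAt (hU.mem_nhds hz))
  have hh : Tendsto (fun m => hess (NN W w) (z₀ + r m • ξ) a b) atTop
      (𝓝 (w z₀ * ∑ k, Jc W z₀ k a * conj (Jc W z₀ k b))) := by
    rw [← hess_NN hU hW hw hz h0]
    exact ((contDiffAt_hess hNs a b).continuousAt).tendsto.comp hpt
  have hga := tendsto_gr hU hW hw hz h0 hr hr0 ξ a
  have hgb := (Complex.continuous_conj.tendsto _).comp (tendsto_gr hU hW hw hz h0 hr hr0 ξ b)
  have hT : Tendsto (fun m => (((r m) ^ 2 : ℝ) : ℂ) * om (z₀ + r m • ξ) a b +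
      (((1 + NN W w (z₀ + r m • ξ) / (r m) ^ 2)⁻¹ : ℝ) * hess (NN W w) (z₀ + r m • ξ) a b -
      (((1 + NN W w (z₀ + r m • ξ) / (r m) ^ 2) ^ 2)⁻¹ : ℝ) *
        ((((r m)⁻¹ : ℝ) • gr (NN W w) (z₀ + r m • ξ) a) *
          conj (((r m)⁻¹ : ℝ) • gr (NN W w) (z₀ + r m • ξ) b)))) atTop
      (𝓝 (((0 : ℝ) : ℂ) * om z₀ a b + (((1 + w z₀ * qf W z₀ ξ)⁻¹ : ℝ) *
        (w z₀ * ∑ k, Jc W z₀ k a * conj (Jc W z₀ k b)) -
        (((1 + w z₀ * qf W z₀ ξ) ^ 2)⁻¹ : ℝ) *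
        ((w z₀ * ∑ k, Jc W z₀ k a * conj (om0 W z₀ ξ k)) *
          conj (w z₀ * ∑ k, Jc W z₀ k b * conj (om0 W z₀ ξ k)))))) := by
    refine homt.add (Tendsto.sub (Tendsto.mul ?_ hh) (Tendsto.mul ?_ (hga.mul hgb)))
    · exact (Complex.continuous_ofReal.tendsto _).comp hc1
    · exact (Complex.continuous_ofReal.tendsto _).comp hc2
  have hlim : LM W (w z₀) z₀ ξ a b = ((0 : ℝ) : ℂ) * om z₀ a b +
        (((1 + w z₀ * qf W z₀ ξ)⁻¹ : ℝ) *
        (w z₀ * ∑ k, Jc W z₀ k a * conj (Jc W z₀ k b)) -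
        (((1 + w z₀ * qf W z₀ ξ) ^ 2)⁻¹ : ℝ) *
        ((w z₀ * ∑ k, Jc W z₀ k a * conj (om0 W z₀ ξ k)) *
          conj (w z₀ * ∑ k, Jc W z₀ k b * conj (om0 W z₀ ξ k)))) := by
    rw [LM_apply, ofReal_zero, zero_mul, zero_add, map_mul, map_sum, Complex.conj_ofReal]
    simp only [map_mul, Complex.conj_conj]
  rw [hlim]
  refine hT.congr' ?_
  filter_upwards with m
  have hrm := (hr m).ne'
  have hrm2 : (0 : ℝ) < (r m) ^ 2 := by have := hr m; positivity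
  have e1 : (1 + NN W w (z₀ + r m • ξ) / (r m) ^ 2)⁻¹ =
      (r m) ^ 2 * (NN W w (z₀ + r m • ξ) + (r m) ^ 2)⁻¹ := by
    have : 1 + NN W w (z₀ + r m • ξ) / (r m) ^ 2 =
        (NN W w (z₀ + r m • ξ) + (r m) ^ 2) / (r m) ^ 2 := by field_simp; ring
    rw [this, inv_div]; ring
  have e2 : ((1 + NN W w (z₀ + r m • ξ) / (r m) ^ 2) ^ 2)⁻¹ =
      (r m) ^ 4 * ((NN W w (z₀ + r m • ξ) + (r m) ^ 2) ^ 2)⁻¹ := by
    rw [← inv_pow, e1, mul_pow, inv_pow]; ring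
  rw [e1, e2]
  unfold BB
  rw [Matrix.smul_apply, Matrix.add_apply, Matrix.sub_apply, Matrix.smul_apply, Matrix.smul_apply,
    Matrix.vecMulVec_apply, Pi.star_apply, smul_eq_mul]
  have hrmC : (r m : ℂ) ≠ 0 := by exact_mod_cast hrm
  simp only [Complex.real_smul, ofReal_inv, ofReal_mul, ofReal_pow, map_mul, map_inv₀,
    Complex.conj_ofReal, RCLike.star_def]
  set X1 := hess (NN W w) (z₀ + r m • ξ) a b
  set X2 := gr (NN W w) (z₀ + r m • ξ) a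
  set X3 := conj (gr (NN W w) (z₀ + r m • ξ) b)
  set X4 := ((NN W w (z₀ + r m • ξ) + (r m) ^ 2 : ℝ) : ℂ)⁻¹
  set X5 := (((NN W w (z₀ + r m • ξ) + (r m) ^ 2 : ℝ) : ℂ) ^ 2)⁻¹
  have h9 : (r m : ℂ) ^ 4 * X5 * ((r m : ℂ)⁻¹ * X2 * ((r m : ℂ)⁻¹ * X3)) =
      (r m : ℂ) ^ 2 * (X5 * (X2 * X3)) := by
    field_simp
  rw [h9]
  ring

end Lim

end

end Crest.Agent.R281.Fc_242
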