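import Crest.Agent.R281.Fc1_242

/-!
# R281, FIB-CNT part 2 (helper242): mass at a simple zero, real coordinates
-/

set_option autoImplicit false
set_option linter.unusedSectionVars false

open Set Filter Topology Complex MeasureTheory
open scoped ContDiff Matrix ComplexConjugate ComplexOrder ENNReal

namespace Crest.Agent.R281.Fc_242

open Crest.Agent.R275 Crest.Agent.R275.Geo Crest.Agent.R275.Core144 Crest.Agent.R275.EDR890
open Crest.Agent.R275.Pai323 Crest.Agent.R275.C1d194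
open Crest.Agent.R273.Defs_333 Crest.Agent.R273.Hess_333 Crest.Agent.R273.HessB_333
open Crest.Agent.R273.FS_333 Crest.Agent.R273.FIa0_597

noncomputable section

variable {n : ℕ}

/-- the unit ball in real coordinates -/
def Bn (n : ℕ) : Set (RI n → ℝ) := {η | ‖cc η‖ ≤ 1}

/-- its volume -/
def vn (n : ℕ) : ℝ≥0∞ := volume (Bn n)

/-- the derivative as an endomorphism -/
def Dm (W : Cn n → Fin n → ℂ) (z : Cn n) : Cn n →L[ℂ] Cn n :=
  (EuclideanSpace.equiv (Fin n) ℂ).symm.toContinuousLinearMap ∘L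
    ContinuousLinearMap.pi fun k => fderiv ℂ (fun z => W z k) z

theorem Dm_apply (W : Cn n → Fin n → ℂ) (z ξ : Cn n) (k : Fin n) : Dm W z ξ k = om0 W z ξ k := rfl

theorem det_Dm (W : Cn n → Fin n → ℂ) (z : Cn n) :
    LinearMap.det (Dm W z : Cn n →ₗ[ℂ] Cn n) = (Jc W z).det := by
  rw [← LinearMap.det_toMatrix (EuclideanSpace.basisFun (Fin n) ℂ).toBasis]
  congr 1

theorem qf_eq (W : Cn n → Fin n → ℂ) (z ξ : Cn n) : qf W z ξ = ‖Dm W z ξ‖ ^ 2 := by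
  rw [EuclideanSpace.norm_sq_eq]
  rfl

/-- the ellipsoid `w₀ |J ξ|² ≤ 1` -/
def Ell (W : Cn n → Fin n → ℂ) (w₀ : ℝ) (z : Cn n) : Set (RI n → ℝ) :=
  {η | w₀ * qf W z (cc η) ≤ 1}

/-- the real linear map `η ↦ √w₀ J η` -/
def TT (W : Cn n → Fin n → ℂ) (w₀ : ℝ) (z : Cn n) : (RI n → ℝ) →ₗ[ℝ] (RI n → ℝ) :=
  ((rcE n : Cn n →ₗ[ℝ] (RI n → ℝ)) ∘ₗ
    ((((√w₀ : ℝ) : ℂ) • Dm W z : Cn n →L[ℂ] Cn n) : Cn n →ₗ[ℂ] Cn n).restrictScalars ℝ) ∘ₗ
      ((rcE n).symm : (RI n → ℝ) →ₗ[ℝ] Cn n)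

theorem det_TT (W : Cn n → Fin n → ℂ) {w₀ : ℝ} (hw : 0 < w₀) (z : Cn n) :
    LinearMap.det (TT W w₀ z) = w₀ ^ n * ‖(Jc W z).det‖ ^ 2 := by
  unfold TT
  rw [det_real]
  have h1 : ((((√w₀ : ℝ) : ℂ) • Dm W z : Cn n →L[ℂ] Cn n) : Cn n →ₗ[ℂ] Cn n) =
      ((√w₀ : ℝ) : ℂ) • (Dm W z : Cn n →ₗ[ℂ] Cn n) := rfl
  rw [h1, LinearMap.det_smul, det_Dm, finrank_euclideanSpace, Fintype.card_fin, norm_mul, mul_pow,
    norm_pow, Complex.norm_real, Real.norm_of_nonneg (Real.sqrt_nonneg _), ← pow_mul, mul_comm n 2,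
    pow_mul, Real.sq_sqrt hw.le]

theorem cc_TT (W : Cn n → Fin n → ℂ) (w₀ : ℝ) (z : Cn n) (η : RI n → ℝ) :
    cc (TT W w₀ z η) = ((√w₀ : ℝ) : ℂ) • Dm W z (cc η) := by
  have h1 : TT W w₀ z η = rcL n (((√w₀ : ℝ) : ℂ) • Dm W z (cc η)) := rfl
  rw [h1, rcL_apply, cc_rc]

theorem Ell_eq (W : Cn n → Fin n → ℂ) {w₀ : ℝ} (hw : 0 < w₀) (z : Cn n) :
    Ell W w₀ z = TT W w₀ z ⁻¹' Bn n := by
  ext η
  show w₀ * qf W z (cc η) ≤ 1 ↔ ‖cc (TT W w₀ z η)‖ ≤ 1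
  rw [cc_TT, qf_eq, norm_smul, Complex.norm_real, Real.norm_of_nonneg (Real.sqrt_nonneg _)]
  have h1 : w₀ * ‖Dm W z (cc η)‖ ^ 2 = (√w₀ * ‖Dm W z (cc η)‖) ^ 2 := by
    rw [mul_pow, Real.sq_sqrt hw.le]
  rw [h1, sq_le_one_iff₀ (by positivity)]

theorem volume_Ell (W : Cn n → Fin n → ℂ) {w₀ : ℝ} (hw : 0 < w₀) {z : Cn n}
    (hJ : (Jc W z).det ≠ 0) :
    volume (Ell W w₀ z) = ENNReal.ofReal ((w₀ ^ n * ‖(Jc W z).det‖ ^ 2)⁻¹) * vn n := by
  have h1 : 0 < w₀ ^ n * ‖(Jc W z).det‖ ^ 2 := by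
    have := norm_pos_iff.2 hJ
    positivity
  rw [Ell_eq W hw, Measure.addHaar_preimage_linearMap volume (f := TT W w₀ z)
    (by rw [det_TT W hw]; exact h1.ne'), det_TT W hw, abs_of_pos (inv_pos.2 h1)]
  rfl

theorem isClosed_Ell (W : Cn n → Fin n → ℂ) (w₀ : ℝ) (z : Cn n) : IsClosed (Ell W w₀ z) := by
  refine isClosed_le ?_ continuous_const
  simp_rw [qf_eq]
  exact continuous_const.mul (((Dm W z).continuous.comp continuous_cc).norm.pow 2)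

theorem bounded_Ell (W : Cn n → Fin n → ℂ) {w₀ : ℝ} (hw : 0 < w₀) {z : Cn n}
    (hJ : (Jc W z).det ≠ 0) : ∃ ρ : ℝ, 0 < ρ ∧ ∀ η ∈ Ell W w₀ z, ‖cc η‖ ≤ ρ := by
  have hdet : LinearMap.det (Dm W z : Cn n →ₗ[ℂ] Cn n) ≠ 0 := by rw [det_Dm]; exact hJ
  let e := LinearEquiv.ofIsUnitDet (f := (Dm W z : Cn n →ₗ[ℂ] Cn n))
    (v := (EuclideanSpace.basisFun (Fin n) ℂ).toBasis) (v' := (EuclideanSpace.basisFun (Fin n) ℂ).toBasis)
    (by rw [LinearMap.det_toMatrix]; exact hdet.isUnit)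
  let e' : Cn n ≃L[ℂ] Cn n := e.toContinuousLinearEquiv
  refine ⟨‖(e'.symm : Cn n →L[ℂ] Cn n)‖ * (√w₀)⁻¹ + 1, by positivity, ?_⟩
  intro η hη
  have h1 : ‖cc (TT W w₀ z η)‖ ≤ 1 := by
    rw [Ell_eq W hw] at hη
    exact hη
  rw [cc_TT, norm_smul, Complex.norm_real, Real.norm_of_nonneg (Real.sqrt_nonneg _)] at h1
  have hsw : 0 < √w₀ := Real.sqrt_pos.2 hw
  have h2 : ‖Dm W z (cc η)‖ ≤ (√w₀)⁻¹ := by
    rw [← one_div, le_div_iff₀ hsw, mul_comm]; exact h1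
  have h3 : cc η = e'.symm (Dm W z (cc η)) := by
    have : e' (cc η) = Dm W z (cc η) := rfl
    rw [← this, e'.symm_apply_apply]
  calc ‖cc η‖ = ‖e'.symm (Dm W z (cc η))‖ := by rw [← h3]
    _ ≤ ‖(e'.symm : Cn n →L[ℂ] Cn n)‖ * ‖Dm W z (cc η)‖ :=
        (e'.symm : Cn n →L[ℂ] Cn n).le_opNorm _
    _ ≤ ‖(e'.symm : Cn n →L[ℂ] Cn n)‖ * (√w₀)⁻¹ := by gcongr
    _ ≤ _ := by linarith

/-- mass of the limit -/
theorem mass_limit (W : Cn n → Fin n → ℂ) {w₀ : ℝ} (hw : 0 < w₀) {z : Cn n}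
    (hJ : (Jc W z).det ≠ 0) :
    ENNReal.ofReal ((2 ^ (n + 1))⁻¹) * vn n ≤
      ∫⁻ η in Ell W w₀ z, ENNReal.ofReal ((LM W w₀ z (cc η)).det.re) := by
  have hpos : 0 < w₀ ^ n * ‖(Jc W z).det‖ ^ 2 := by
    have := norm_pos_iff.2 hJ
    positivity
  have h1 : ∀ η ∈ Ell W w₀ z, ENNReal.ofReal ((w₀ ^ n * ‖(Jc W z).det‖ ^ 2) * (2 ^ (n + 1))⁻¹) ≤
      ENNReal.ofReal ((LM W w₀ z (cc η)).det.re) := by
    intro η hη
    refine ENNReal.ofReal_le_ofReal ?_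
    rw [det_LM W hw, Complex.ofReal_re]
    have hq : 0 ≤ qf W z (cc η) := Finset.sum_nonneg fun _ _ => by positivity
    have h2 : 1 + w₀ * qf W z (cc η) ≤ 2 := by
      have : w₀ * qf W z (cc η) ≤ 1 := hη
      linarith
    have h3 : (1 + w₀ * qf W z (cc η)) ^ (n + 1) ≤ 2 ^ (n + 1) :=
      pow_le_pow_left₀ (by positivity) h2 _
    calc (w₀ ^ n * ‖(Jc W z).det‖ ^ 2) * (2 ^ (n + 1))⁻¹
        = ‖(Jc W z).det‖ ^ 2 * (w₀ ^ n / 2 ^ (n + 1)) := by rw [div_eq_mul_inv]; ring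
      _ ≤ _ := by gcongr
  calc ENNReal.ofReal ((2 ^ (n + 1))⁻¹) * vn n
      = ENNReal.ofReal ((w₀ ^ n * ‖(Jc W z).det‖ ^ 2) * (2 ^ (n + 1))⁻¹) *
          volume (Ell W w₀ z) := by
        rw [volume_Ell W hw hJ, ← mul_assoc, ← ENNReal.ofReal_mul (by positivity)]
        congr 2
        field_simp
    _ = ∫⁻ _ in Ell W w₀ z,
          ENNReal.ofReal ((w₀ ^ n * ‖(Jc W z).det‖ ^ 2) * (2 ^ (n + 1))⁻¹) := by
        rw [setLIntegral_const]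
    _ ≤ _ := setLIntegral_mono' (isClosed_Ell W w₀ z).measurableSet h1

theorem vn_pos (n : ℕ) : 0 < vn n := by
  have h1 : IsOpen {η : RI n → ℝ | ‖cc η‖ < 1} := isOpen_lt (continuous_cc.norm) continuous_const
  have h2 : (0 : RI n → ℝ) ∈ {η : RI n → ℝ | ‖cc η‖ < 1} := by
    have : cc (0 : RI n → ℝ) = 0 := by ext a; simp
    show ‖cc (0 : RI n → ℝ)‖ < 1
    rw [this]; simp
  exact lt_of_lt_of_le (h1.measure_pos volume ⟨_, h2⟩) (measure_mono fun η (hη : ‖cc η‖ < 1) => (le_of_lt hη : ‖cc η‖ ≤ 1))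

theorem vn_lt_top (n : ℕ) : vn n < ⊤ := by
  have h1 : IsCompact (Bn n) := by
    refine Metric.isCompact_of_isClosed_isBounded (isClosed_le continuous_cc.norm continuous_const) ?_
    rw [Metric.isBounded_iff_subset_closedBall 0]
    refine ⟨1, fun η hη => ?_⟩
    rw [mem_closedBall_zero_iff, pi_norm_le_iff_of_nonneg zero_le_one]
    rintro ⟨a, b⟩
    have h2 : ‖(cc η) a‖ ≤ 1 := (PiLp.norm_apply_le (cc η) a).trans hη
    have h3 : rc (cc η) (a, b) = η (a, b) := by rw [rc_cc]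
    rw [← h3]
    fin_cases b
    · exact (Complex.abs_re_le_norm _).trans h2
    · exact (Complex.abs_im_le_norm _).trans h2
  exact h1.measure_lt_top

/-- change of variables `y = y₀ + r η` -/
theorem lintegral_scale {S : Set (RI n → ℝ)} (hS : MeasurableSet S) (y₀ : RI n → ℝ) {r : ℝ}
    (hr : 0 < r) (g : (RI n → ℝ) → ℝ≥0∞) :
    ∫⁻ y in (fun η => y₀ + r • η) '' S, g y =
      ∫⁻ η in S, ENNReal.ofReal ((r ^ 2) ^ n) * g (y₀ + r • η) := by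
  have h1 : ∀ η ∈ S, HasFDerivWithinAt (fun η : RI n → ℝ => y₀ + r • η)
      (r • ContinuousLinearMap.id ℝ (RI n → ℝ)) S η := by
    intro η _
    exact (((ContinuousLinearMap.id ℝ (RI n → ℝ)).hasFDerivAt.const_smul r).const_add y₀).hasFDerivWithinAt
  have h2 : InjOn (fun η : RI n → ℝ => y₀ + r • η) S := by
    intro a _ b _ hab
    have h3 : r • a = r • b := add_left_cancel hab
    exact smul_right_injective _ hr.ne' h3
  rw [lintegral_image_eq_lintegral_abs_det_fderiv_mul volume hS h1 h2]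
  have h4 : |(r • ContinuousLinearMap.id ℝ (RI n → ℝ)).det| = (r ^ 2) ^ n := by
    have h5 : (r • ContinuousLinearMap.id ℝ (RI n → ℝ)).det =
        LinearMap.det (r • (LinearMap.id : (RI n → ℝ) →ₗ[ℝ] (RI n → ℝ))) := rfl
    rw [h5, LinearMap.det_smul, LinearMap.det_id, mul_one, Module.finrank_fintype_fun_eq_card]
    have h6 : Fintype.card (RI n) = 2 * n := by
      simp [RI, mul_comm]
    rw [h6, pow_mul, abs_of_nonneg (by positivity)]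
  simp only [h4]

/-- **mass at a simple zero**: Fatou -/
theorem mass_liminf {W : Cn n → Fin n → ℂ} {w : Cn n → ℝ} {U : Set (Cn n)} {z₀ : Cn n}
    {om : Cn n → Matrix (Fin n) (Fin n) ℂ} (hom : ContinuousAt om z₀)
    (hU : IsOpen U) (hW : ∀ k, DifferentiableOn ℂ (fun z => W z k) U)
    (hw : ContDiffOn ℝ ∞ w U) (hz : z₀ ∈ U)
    (h0 : ∀ k, W z₀ k = 0) (hw0 : 0 < w z₀) (hJ : (Jc W z₀).det ≠ 0) {r : ℕ → ℝ}
    (hr : ∀ m, 0 < r m) (hr0 : Tendsto r atTop (𝓝 0)) {G : ℕ → (RI n → ℝ) → ℝ≥0∞}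
    (hG : ∀ m, Measurable (G m))
    (hGe : ∀ η ∈ Ell W (w z₀) z₀, ∀ᶠ m in atTop, G m (rc z₀ + r m • η) =
      ENNReal.ofReal ((BB om (NN W w) ((r m) ^ 2) (cc (rc z₀ + r m • η))).det.re)) :
    ENNReal.ofReal ((2 ^ (n + 1))⁻¹) * vn n ≤
      liminf (fun m => ∫⁻ y in (fun η => rc z₀ + r m • η) '' Ell W (w z₀) z₀, G m y) atTop := by
  have hE := (isClosed_Ell W (w z₀) z₀).measurableSet
  have h1 : ∀ m, ∫⁻ y in (fun η => rc z₀ + r m • η) '' Ell W (w z₀) z₀, G m y =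
      ∫⁻ η in Ell W (w z₀) z₀, ENNReal.ofReal (((r m) ^ 2) ^ n) * G m (rc z₀ + r m • η) :=
    fun m => lintegral_scale hE (rc z₀) (hr m) (G m)
  simp_rw [h1]
  have h2 : ∀ m, Measurable fun η : RI n → ℝ =>
      ENNReal.ofReal (((r m) ^ 2) ^ n) * G m (rc z₀ + r m • η) := by
    intro m
    exact measurable_const.mul ((hG m).comp (by fun_prop))
  refine (mass_limit W hw0 hJ).trans (le_trans ?_ (lintegral_liminf_le h2))
  refine setLIntegral_mono' hE fun η hη => ?_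
  -- pointwise limit
  have h3 := tendsto_BB (w := w) hom hU hW hw hz h0 hw0 hr hr0 (cc η)
  have h4 : Tendsto (fun m => ((((r m) ^ 2 : ℝ) : ℂ) •
      BB om (NN W w) ((r m) ^ 2) (z₀ + r m • cc η)).det.re) atTop
      (𝓝 (LM W (w z₀) z₀ (cc η)).det.re) := by
    have h5 : Continuous fun X : Matrix (Fin n) (Fin n) ℂ => X.det.re :=
      Complex.continuous_re.comp (continuous_id.matrix_det)
    exact (h5.tendsto _).comp h3
  have h6 : Tendsto (fun m => ENNReal.ofReal (((((r m) ^ 2 : ℝ) : ℂ) •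
      BB om (NN W w) ((r m) ^ 2) (z₀ + r m • cc η)).det.re)) atTop
      (𝓝 (ENNReal.ofReal (LM W (w z₀) z₀ (cc η)).det.re)) :=
    (ENNReal.continuous_ofReal.tendsto _).comp h4
  have h7 : Tendsto (fun m => ENNReal.ofReal (((r m) ^ 2) ^ n) * G m (rc z₀ + r m • η)) atTop
      (𝓝 (ENNReal.ofReal (LM W (w z₀) z₀ (cc η)).det.re)) := by
    refine h6.congr' ?_
    filter_upwards [hGe η hη] with m hm
    have hcc : cc (rc z₀ + r m • η) = z₀ + r m • cc η := by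
      ext a
      rw [cc_apply, PiLp.add_apply, PiLp.smul_apply, cc_apply]
      simp only [Pi.add_apply, Pi.smul_apply, smul_eq_mul, Complex.real_smul, ofReal_add,
        ofReal_mul]
      have h8 : z₀ a = ((rc z₀ (a, 0) : ℝ) : ℂ) + ((rc z₀ (a, 1) : ℝ) : ℂ) * I := by
        conv_lhs => rw [← cc_rc z₀]
        rfl
      rw [h8]; ring
    rw [hm, hcc, ← ENNReal.ofReal_mul (by positivity)]
    congr 1
    rw [Matrix.det_smul, Fintype.card_fin, ← Complex.ofReal_pow, Complex.re_ofReal_mul]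
  rw [h7.liminf_eq]

end

end Crest.Agent.R281.Fc_242
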