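import Crest.Agent.R281.Fc2_242

/-!
# R281, FIB-CNT part 3 (helper242): number of simple common zeros of `n` sections

`fib_card` : on a compact Kaehler manifold of dimension `n`, the number of common zeros of `n`
sections of `L` with nonzero Jacobian is at most `∫ det (cur h) / c_n` (any semipositive metric `h`).
-/

set_option autoImplicit false
set_option linter.unusedSectionVars false

open Set Filter Topology Complex MeasureTheory
open scoped ContDiff Matrix ComplexConjugate ComplexOrder ENNReal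

namespace Crest.Agent.R281.Fc_242

open Crest.Agent.R275 Crest.Agent.R275.Geo Crest.Agent.R275.Core144 Crest.Agent.R275.EDR890
open Crest.Agent.R275.Pai323 Crest.Agent.R275.C1d194
open Crest.Agent.R275.SerG398 (lint dens OffZ)
open Crest.Agent.R273.Defs_333 Crest.Agent.R273.Hess_333 Crest.Agent.R273.HessB_333
open Crest.Agent.R273.HM_333 Crest.Agent.R273.Kah_333 Crest.Agent.R273.Vol_333
open Crest.Agent.R273.Vm_333 Crest.Agent.R273.StV_37
open Crest.Agent.R273.Green_5 Crest.Agent.R273.VolInv_5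
open Crest.Agent.R273.GreenM_5
open Crest.Agent.R273.FIa0_597
open Crest.Agent.R273.TLd_201 Crest.Agent.R273.AppA_834

noncomputable section

variable {n : ℕ} {M : Type} [TopologicalSpace M] {A : Atl n M} {L : LB A}

/-! ### the matrix `B_κ` in a chart -/

section Local

variable {h : HM L} {hp : h.Semipos} {C : Fin n → A.ι → M → ℂ} {hC : ∀ j, IsHS L univ (C j)}

/-- the weight in the chart -/
def wr (h : HM L) (i : A.ι) (z : Cn n) : ℝ := h.w i ((A.e i).symm z)

theorem bk_BB {κ : ℝ} (hκ : 0 < κ) (i : A.ι) {z : Cn n} (hz : z ∈ (A.e i).target) :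
    (td h hp C hC).bk' κ i ((A.e i).symm z) =
      BB (fun z => cur h i ((A.e i).symm z)) (NN (rd C i) (wr h i)) κ z := by
  have hx := (A.e i).map_target hz
  have hN := nrm_nonneg (h' := h) hC ((A.e i).symm z)
  have hev : (fun z => nrm h C ((A.e i).symm z)) =ᶠ[𝓝 z] NN (rd C i) (wr h i) := by
    filter_upwards [(A.e i).open_target.mem_nhds hz] with u hu
    exact nrm_read hC i hu
  have e1 : nrm h C ((A.e i).symm z) = NN (rd C i) (wr h i) z := nrm_read hC i hz
  have hs : ContDiffAt ℝ ∞ (NN (rd C i) (wr h i)) z :=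
    (sq_contDiffAt hC i hz).mul ((h.sm i).contDiffAt ((A.e i).open_target.mem_nhds hz))
  have h1 := hess_log_add_mat κ hs (by rw [← e1]; linarith)
  have e2 : hsf A (fun y => Real.log (nrm h C y + κ)) i ((A.e i).symm z) =
      hess (fun w => Real.log (NN (rd C i) (wr h i) w + κ)) z := by
    unfold hsf
    rw [(A.e i).right_inv hz]
    refine hess_congr ?_
    filter_upwards [hev] with u hu
    rw [hu]
  change cur h i ((A.e i).symm z) + hsf A (fun y => Real.log (nrm h C y + κ)) i
    ((A.e i).symm z) = _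
  rw [e2, h1]
  rfl

end Local

/-! ### integrals over pieces of a chart -/

section Meas

variable [T2Space M] [CompactSpace M] [MeasurableSpace M] [BorelSpace M] [Finite A.ι]

/-- the piece of the chart `i` with real coordinates in `E` -/
def pc (A : Atl n M) (i : A.ι) (E : Set (RI n → ℝ)) : Set M :=
  {x | x ∈ (A.e i).source ∧ rc (A.e i x) ∈ E}

theorem meas_pc (i : A.ι) {E : Set (RI n → ℝ)} (hE : MeasurableSet E) :
    MeasurableSet (pc A i E) := by
  have h1 : Measurable ((A.e i).source.domRestrict (fun x => rc (A.e i x))) := by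
    refine (continuousOn_iff_continuous_domRestrict.1 ?_).measurable
    exact continuous_rc.comp_continuousOn (A.e i).continuousOn
  have h2 := (A.e i).open_source.measurableSet.subtype_image (h1 hE)
  convert h2 using 1
  ext y
  constructor
  · rintro ⟨hy, hyE⟩
    exact ⟨⟨y, hy⟩, hyE, rfl⟩
  · rintro ⟨⟨a, ha⟩, haE, rfl⟩
    exact ⟨ha, haE⟩

theorem lint_pc (K : Kah A) {f : A.ι → M → ℂ} (hf : Dn A f) (hs : ∀ i, A.SmAt i (f i)) (i : A.ι)
    {E : Set (RI n → ℝ)} (hE : MeasurableSet E) (hEU : E ⊆ Ui A i) :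
    ∫⁻ x in pc A i E, ENNReal.ofReal (fnD K f x).re ∂(vm (volK K)) =
      ∫⁻ y in E, ENNReal.ofReal (f i (sg A i y)).re := by
  have hm := meas_pc (A := A) i hE
  have hsub : pc A i E ⊆ (A.e i).source := fun x hx => hx.1
  have hmeas : Measurable fun x => ENNReal.ofReal (fnD K f x).re :=
    (sm_continuous (sm_re (sm_fnD K hf hs))).measurable.ennreal_ofReal
  have h1 : ∫⁻ x in pc A i E, ENNReal.ofReal (fnD K f x).re ∂(vm (volK K)) =
      ∫⁻ x in (A.e i).source, (pc A i E).indicator (fun x => ENNReal.ofReal (fnD K f x).re) x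
        ∂(vm (volK K)) := by
    rw [lintegral_indicator hm, Measure.restrict_restrict hm, inter_eq_left.2 hsub]
  rw [h1, setLIntegral_vm (volK K) i (hmeas.indicator hm)]
  have h2 : ∫⁻ y in Ui A i, Crest.Agent.R273.Vm_333.dn (volK K) i y *
      (pc A i E).indicator (fun x => ENNReal.ofReal (fnD K f x).re) (sg A i y) =
      ∫⁻ y in Ui A i, E.indicator (fun y => ENNReal.ofReal (f i (sg A i y)).re) y := by
    refine setLIntegral_congr_fun (C1d194.isOpen_Ui i).measurableSet fun y hy => ?_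
    have hx : sg A i y ∈ (A.e i).source := sg_mem hy
    have hrc : rc (A.e i (sg A i y)) = y := by
      have : A.e i (sg A i y) = cc y := (A.e i).right_inv hy
      rw [this, rc_cc]
    by_cases hyE : y ∈ E
    · have hmem : sg A i y ∈ pc A i E := ⟨hx, by rw [hrc]; exact hyE⟩
      simp only [indicator_of_mem hmem, indicator_of_mem hyE]
      unfold Crest.Agent.R273.Vm_333.dn
      rw [← ENNReal.ofReal_mul ((volK K).pos i _ hx).le]
      congr 1
      rw [fnD_eq K hf hx, ← volK_w K i hx, Complex.re_mul_ofReal, mul_comm]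
    · have hmem : sg A i y ∉ pc A i E := fun h => hyE (by
        have := h.2
        rwa [hrc] at this)
      simp only [indicator_of_notMem hmem, indicator_of_notMem hyE, mul_zero]
  rw [h2, lintegral_indicator hE, Measure.restrict_restrict hE, inter_eq_left.2 hEU]

/-- the constant `c_n = vol(B_1) / 2^(n+2)` -/
def cn (n : ℕ) : ℝ := (vn n).toReal / 2 ^ (n + 2)

theorem cn_pos (n : ℕ) : 0 < cn n := by
  have h1 : 0 < (vn n).toReal := ENNReal.toReal_pos (vn_pos n).ne' (vn_lt_top n).ne
  unfold cn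
  positivity

theorem cn_lt (n : ℕ) : ENNReal.ofReal (cn n) < ENNReal.ofReal ((2 ^ (n + 1))⁻¹) * vn n := by
  have h1 : 0 < (vn n).toReal := ENNReal.toReal_pos (vn_pos n).ne' (vn_lt_top n).ne
  have h2 : ENNReal.ofReal ((2 ^ (n + 1))⁻¹) * vn n =
      ENNReal.ofReal ((2 ^ (n + 1))⁻¹ * (vn n).toReal) := by
    rw [ENNReal.ofReal_mul (by positivity), ENNReal.ofReal_toReal (vn_lt_top n).ne]
  rw [h2, ENNReal.ofReal_lt_ofReal_iff (by positivity)]
  unfold cn
  have h3 : (2 : ℝ) ^ (n + 2) = 2 * 2 ^ (n + 1) := by ring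
  rw [h3, div_eq_mul_inv, mul_inv]
  have h4 : (0 : ℝ) < (2 ^ (n + 1))⁻¹ := by positivity
  nlinarith [mul_pos h1 h4]

variable {h : HM L} {C : Fin n → A.ι → M → ℂ}

/-- local statement: for small `κ` there is mass `≥ c_n` near a simple zero -/
theorem local_mass (hp : h.Semipos) (hC : ∀ j, IsHS L univ (C j)) (K : Kah A) {i : A.ι} {x₀ : M}
    (hx : x₀ ∈ (A.e i).source) (h0 : ∀ j, C j i x₀ = 0)
    (hJ : (Jc (rd C i) (A.e i x₀)).det ≠ 0) {O : Set M} (hO : IsOpen O) (hxO : x₀ ∈ O)
    {r : ℕ → ℝ} (hr : ∀ m, 0 < r m) (hr0 : Tendsto r atTop (𝓝 0)) :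
    ∀ᶠ m in atTop, ∃ E : Set M, MeasurableSet E ∧ E ⊆ O ∧
      ENNReal.ofReal (cn n) ≤ ∫⁻ x in E, ENNReal.ofReal
        (fnD K (fun i x => ((td h hp C hC).bk' ((r m) ^ 2) i x).det) x).re ∂(vm (volK K)) := by
  set z₀ := A.e i x₀ with hz₀
  have hz : z₀ ∈ (A.e i).target := (A.e i).map_source hx
  set W := rd C i with hWd
  set w := wr h i with hwd
  have hW : ∀ k, DifferentiableOn ℂ (fun z => W z k) (A.e i).target := fun k => rd_hol hC i k
  have hw : ContDiffOn ℝ ∞ w (A.e i).target := h.sm i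
  have hw0 : 0 < w z₀ := h.pos i _ ((A.e i).map_target hz)
  have hWz : ∀ k, W z₀ k = 0 := by
    intro k
    show C k i ((A.e i).symm (A.e i x₀)) = 0
    rw [(A.e i).left_inv hx]
    exact h0 k
  have hκ : ∀ m, 0 < (r m) ^ 2 := fun m => by have := hr m; positivity
  have hom : ContinuousAt (fun z => cur h i ((A.e i).symm z)) z₀ := by
    refine continuousAt_pi.2 fun a => continuousAt_pi.2 fun b => ?_
    exact (ContDiffOn.continuousOn (cur_smooth h i a b)).continuousAt
      ((A.e i).open_target.mem_nhds hz)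
  let f : ℕ → A.ι → M → ℂ := fun m i x => ((td h hp C hC).bk' ((r m) ^ 2) i x).det
  have hfD : ∀ m, Dn A (f m) := fun m => (CF.tn ((td h hp C hC).cf_bk (hκ m))).det
  have hfs : ∀ m i, A.SmAt i (f m i) := fun m i => smAt_det (((td h hp C hC).cf_bk (hκ m)).sm i)
  -- the densities
  let g : ℕ → (RI n → ℝ) → ℝ≥0∞ := fun m y => ENNReal.ofReal (f m i (sg A i y)).re
  classical
  let G : ℕ → (RI n → ℝ) → ℝ≥0∞ := fun m => (Ui A i).piecewise (g m) 0
  have hgc : ∀ m, ContinuousOn (g m) (Ui A i) := by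
    intro m
    have h1 : ContinuousOn (fun z => f m i ((A.e i).symm z)) (A.e i).target :=
      ContDiffOn.continuousOn (hfs m i)
    have h2 : ContinuousOn (fun y => f m i (sg A i y)) (Ui A i) :=
      h1.comp continuous_cc.continuousOn fun _ hy => hy
    exact ENNReal.continuous_ofReal.comp_continuousOn (Complex.continuous_re.comp_continuousOn h2)
  have hG : ∀ m, Measurable (G m) := fun m =>
    (hgc m).measurable_piecewise continuousOn_const (C1d194.isOpen_Ui i).measurableSet
  have hrz : rc z₀ ∈ Ui A i := by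
    show cc (rc z₀) ∈ (A.e i).target
    rw [cc_rc]; exact hz
  -- small ellipsoids are in the chart and in `O`
  obtain ⟨ρ, hρ, hEll⟩ := bounded_Ell W hw0 hJ
  set T : Set (Cn n) := (A.e i).target ∩ (A.e i).symm ⁻¹' O with hT
  have hTo : IsOpen T := (A.e i).isOpen_inter_preimage_symm hO
  have hzT : z₀ ∈ T := ⟨hz, by
    show (A.e i).symm z₀ ∈ O
    rw [hz₀, (A.e i).left_inv hx]; exact hxO⟩
  obtain ⟨δ, hδ, hball⟩ := Metric.isOpen_iff.1 hTo z₀ hzT
  have hsm : ∀ᶠ m in atTop, ∀ η ∈ Ell W (w z₀) z₀, cc (rc z₀ + r m • η) ∈ T := by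
    have h1 : ∀ᶠ m in atTop, r m < δ / ρ := hr0.eventually (gt_mem_nhds (by positivity))
    filter_upwards [h1] with m hm η hη
    apply hball
    have hcc : cc (rc z₀ + r m • η) = z₀ + r m • cc η := by
      have h2 := (rcE n).symm.map_add (rc z₀) (r m • η)
      have h3 := (rcE n).symm.map_smul (r m) η
      rw [h3] at h2
      have h4 : (rcE n).symm (rc z₀) = z₀ := cc_rc z₀
      rw [h4] at h2
      exact h2
    rw [hcc, Metric.mem_ball, dist_eq_norm, add_sub_cancel_left, norm_smul,
      Real.norm_of_nonneg (hr m).le]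
    calc r m * ‖cc η‖ ≤ r m * ρ := by
          have := hEll η hη
          have := (hr m).le
          gcongr
      _ < δ / ρ * ρ := by gcongr
      _ = δ := by field_simp
  have hlim := mass_liminf (W := W) (w := w) hom (A.e i).open_target hW hw hz hWz hw0 hJ hr hr0
    hG (by
      intro η hη
      filter_upwards [hsm] with m hm
      have h1 := hm η hη
      have h2 : rc z₀ + r m • η ∈ Ui A i := h1.1
      show (Ui A i).piecewise (g m) 0 _ = _
      rw [piecewise_eq_of_mem _ _ _ h2]
      show ENNReal.ofReal (((td h hp C hC).bk' ((r m) ^ 2) i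
        ((A.e i).symm (cc (rc z₀ + r m • η)))).det).re = _
      rw [bk_BB (hκ m) i h1.1])
  have hev := eventually_lt_of_lt_liminf (lt_of_lt_of_le (cn_lt n) hlim)
  filter_upwards [hev, hsm] with m hm hm'
  set Y : Set (RI n → ℝ) := (fun η => rc z₀ + r m • η) '' Ell W (w z₀) z₀ with hY
  have hYm : MeasurableSet Y := by
    have h1 : Y = (fun y => (r m)⁻¹ • (y - rc z₀)) ⁻¹' Ell W (w z₀) z₀ := by
      ext y
      constructor
      · rintro ⟨η, hη, rfl⟩
        show (r m)⁻¹ • (rc z₀ + r m • η - rc z₀) ∈ Ell W (w z₀) z₀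
        rw [add_sub_cancel_left, inv_smul_smul₀ (hr m).ne']
        exact hη
      · intro hy
        refine ⟨_, hy, ?_⟩
        show rc z₀ + r m • (r m)⁻¹ • (y - rc z₀) = y
        rw [smul_inv_smul₀ (hr m).ne', add_sub_cancel]
    rw [h1]
    exact (isClosed_Ell W (w z₀) z₀).measurableSet.preimage (by fun_prop)
  have hYT : ∀ y ∈ Y, cc y ∈ T := by
    rintro _ ⟨η, hη, rfl⟩
    exact hm' η hη
  have hYU : Y ⊆ Ui A i := fun y hy => (hYT y hy).1
  refine ⟨pc A i Y, meas_pc i hYm, ?_, ?_⟩
  · rintro x ⟨hxs, hxY⟩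
    have h1 := (hYT _ hxY).2
    rw [mem_preimage, cc_rc, (A.e i).left_inv hxs] at h1
    exact h1
  · rw [lint_pc K (hfD m) (hfs m) i hYm hYU]
    refine hm.le.trans (le_of_eq ?_)
    refine setLIntegral_congr_fun hYm fun y hy => ?_
    show (Ui A i).piecewise (g m) 0 y = _
    rw [piecewise_eq_of_mem _ _ _ (hYU hy)]

/-- **number of simple common zeros** -/
theorem fib_card (hp : h.Semipos) (hC : ∀ j, IsHS L univ (C j)) (K : Kah A) (P : Part A)
    (S : Finset M) (hS : ∀ x ∈ S, ∃ i, x ∈ (A.e i).source ∧ (∀ j, C j i x = 0) ∧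
      (Jc (rd C i) (A.e i x)).det ≠ 0) :
    S.card * cn n ≤ (totc P (fun i x => (cur h i x).det)).re := by
  classical
  -- disjoint neighbourhoods
  obtain ⟨O, hO, hOd⟩ := (S.finite_toSet).t2_separation
  let r : ℕ → ℝ := fun m => 1 / ((m : ℝ) + 1)
  have hr : ∀ m, 0 < r m := fun m => by positivity
  have hr0 : Tendsto r atTop (𝓝 0) := tendsto_one_div_add_atTop_nhds_zero_nat
  have h1 : ∀ x ∈ S, ∀ᶠ m in atTop, ∃ E : Set M, MeasurableSet E ∧ E ⊆ O x ∧
      ENNReal.ofReal (cn n) ≤ ∫⁻ x in E, ENNReal.ofReal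
        (fnD K (fun i x => ((td h hp C hC).bk' ((r m) ^ 2) i x).det) x).re ∂(vm (volK K)) := by
    intro x hx
    obtain ⟨i, hxi, h0, hJ⟩ := hS x hx
    exact local_mass hp hC K hxi h0 hJ (hO x).2 (hO x).1 hr hr0
  obtain ⟨m, hm⟩ := ((Filter.eventually_all_finset S).2 h1).exists
  choose! E hEm hEO hEc using hm
  set κ := (r m) ^ 2 with hκd
  have hκ : 0 < κ := by have := hr m; positivity
  set D := td h hp C hC with hD
  have hfD : Dn A (fun i x => (D.bk' κ i x).det) := (CF.tn (D.cf_bk hκ)).det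
  have hfs : ∀ i, A.SmAt i (fun x => (D.bk' κ i x).det) := fun i => smAt_det ((D.cf_bk hκ).sm i)
  have hnn : ∀ x, 0 ≤ (fnD K (fun i x => (D.bk' κ i x).det) x).re := by
    intro x
    have hx := mem_ci (A := A) x
    have h2 : 0 ≤ (D.bk' κ (ci A x) x).det := (D.psd_bk hκ _ hx).det_nonneg
    have h3 : 0 < (K.g (ci A x) x).det := (K.pos _ _ hx).det_pos
    exact (Complex.le_def.1 (div_nonneg h2 h3.le)).1
  have hint := integrable_sm (volK K) (sm_re (sm_fnD K hfD hfs))
  have htot : ∫⁻ x, ENNReal.ofReal (fnD K (fun i x => (D.bk' κ i x).det) x).re ∂(vm (volK K)) =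
      ENNReal.ofReal (totc P (fun i x => (cur h i x).det)).re := by
    rw [← ofReal_integral_eq_lintegral_ofReal hint (Eventually.of_forall hnn),
      integral_fnD_re K P hfD hfs]
    congr 2
    exact volinv P (cur_cf h) (D.sm_log hκ)
  have h2 : ∑ x ∈ S, ENNReal.ofReal (cn n) ≤
      ∫⁻ x, ENNReal.ofReal (fnD K (fun i x => (D.bk' κ i x).det) x).re ∂(vm (volK K)) := by
    calc ∑ x ∈ S, ENNReal.ofReal (cn n)
        ≤ ∑ x ∈ S, ∫⁻ y in E x, ENNReal.ofReal
            (fnD K (fun i x => (D.bk' κ i x).det) y).re ∂(vm (volK K)) :=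
          Finset.sum_le_sum hEc
      _ = ∫⁻ y in ⋃ x ∈ S, E x, ENNReal.ofReal
            (fnD K (fun i x => (D.bk' κ i x).det) y).re ∂(vm (volK K)) := by
          rw [lintegral_biUnion_finset]
          · intro x hx y hy hxy
            exact (hOd hx hy hxy).mono (hEO x hx) (hEO y hy)
          · exact hEm
      _ ≤ _ := setLIntegral_le_lintegral _ _
  rw [htot, Finset.sum_const, nsmul_eq_mul, ← ENNReal.ofReal_natCast,
    ← ENNReal.ofReal_mul (by positivity)] at h2
  by_cases hS0 : S.card = 0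
  · rw [hS0, Nat.cast_zero, zero_mul]
    have h3 : 0 ≤ ∫ x, (fnD K (fun i x => (D.bk' κ i x).det) x).re ∂(vm (volK K)) :=
      integral_nonneg hnn
    rw [integral_fnD_re K P hfD hfs] at h3
    have h4 : (totc P fun i x => (D.bk' κ i x).det) = totc P (fun i x => (cur h i x).det) :=
      volinv P (cur_cf h) (D.sm_log hκ)
    rw [h4] at h3
    exact h3
  · have h3 : 0 < (S.card : ℝ) * cn n := by
      have := cn_pos n
      have : 0 < (S.card : ℝ) := by exact_mod_cast Nat.pos_of_ne_zero hS0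
      positivity
    have h4 : 0 < (totc P (fun i x => (cur h i x).det)).re := by
      by_contra h5
      push Not at h5
      rw [ENNReal.ofReal_of_nonpos h5, nonpos_iff_eq_zero, ENNReal.ofReal_eq_zero] at h2
      linarith
    exact (ENNReal.ofReal_le_ofReal_iff h4.le).1 h2

end Meas

end

end Crest.Agent.R281.Fc_242
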