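import Crest.Agent.R281.Fc3_242

/-!
# R281, FIB-CNT part 4 (helper242): etale fibres of `f = (s_1/s_0, …, s_n/s_0)`

`fib_ratio` : the number of points with `s_0 ≠ 0`, `f = q`, `d f_1 ∧ … ∧ d f_n ≠ 0` is at most
`∫ det (cur h) / c_n`; `exists_deg` : uniform natural number `d`.
-/

set_option autoImplicit false
set_option linter.unusedSectionVars false

open Set Filter Topology Complex MeasureTheory
open scoped ContDiff Matrix ComplexConjugate ComplexOrder ENNReal

namespace Crest.Agent.R281.Fc_242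

open Crest.Agent.R275 Crest.Agent.R275.Geo Crest.Agent.R275.Core144 Crest.Agent.R275.EDR890
open Crest.Agent.R273.Defs_333 Crest.Agent.R273.Hess_333 Crest.Agent.R273.HessB_333
open Crest.Agent.R273.HM_333 Crest.Agent.R273.Kah_333 Crest.Agent.R273.Vol_333
open Crest.Agent.R273.Vm_333 Crest.Agent.R273.StV_37
open Crest.Agent.R273.Green_5 Crest.Agent.R273.VolInv_5
open Crest.Agent.R273.AppA_834

noncomputable section

variable {n : ℕ} {M : Type} [TopologicalSpace M] {A : Atl n M} {L : LB A}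

/-- the functions `s_j / s_0` read in the chart `i` -/
def rt (s0 : A.ι → M → ℂ) (s : Fin n → A.ι → M → ℂ) (i : A.ι) (z : Cn n) (j : Fin n) : ℂ :=
  s j i ((A.e i).symm z) / s0 i ((A.e i).symm z)

/-- `x` is a point of the fibre over `q` where `f` is etale -/
def EtPt (s0 : A.ι → M → ℂ) (s : Fin n → A.ι → M → ℂ) (q : Fin n → ℂ) (x : M) : Prop :=
  ∃ i, x ∈ (A.e i).source ∧ s0 i x ≠ 0 ∧ (∀ j, s j i x / s0 i x = q j) ∧
    (Jc (rt s0 s i) (A.e i x)).det ≠ 0

section Meas

variable [T2Space M] [CompactSpace M] [MeasurableSpace M] [BorelSpace M] [Finite A.ι]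

theorem fib_ratio {h : HM L} (hp : h.Semipos) {s0 : A.ι → M → ℂ} (hs0 : IsHS L univ s0)
    {s : Fin n → A.ι → M → ℂ} (hs : ∀ j, IsHS L univ (s j)) (K : Kah A) (P : Part A)
    (q : Fin n → ℂ) (S : Finset M) (hS : ∀ x ∈ S, EtPt s0 s q x) :
    S.card * cn n ≤ (totc P (fun i x => (cur h i x).det)).re := by
  set C : Fin n → A.ι → M → ℂ := fun j => s j - q j • s0 with hCd
  have hC : ∀ j, IsHS L univ (C j) := fun j =>
    (HS L univ).sub_mem (hs j) ((HS L univ).smul_mem (q j) hs0)
  refine fib_card hp hC K P S fun x hx => ?_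
  obtain ⟨i, hxi, h0, hq, hJ⟩ := hS x hx
  refine ⟨i, hxi, fun j => ?_, ?_⟩
  · show s j i x - q j * s0 i x = 0
    rw [← hq j, div_mul_cancel₀ _ h0, sub_self]
  · set z₀ := A.e i x with hz₀
    have hz : z₀ ∈ (A.e i).target := (A.e i).map_source hxi
    have hx0 : (A.e i).symm z₀ = x := (A.e i).left_inv hxi
    set σ : Cn n → ℂ := fun z => s0 i ((A.e i).symm z) with hσ
    have hσd : DifferentiableOn ℂ σ (A.e i).target := by
      have := hs0.hol i
      unfold HolAt at this
      rw [preimage_univ, inter_univ] at this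
      exact this
    have hsd : ∀ j, DifferentiableOn ℂ (fun z => s j i ((A.e i).symm z)) (A.e i).target := by
      intro j
      have := (hs j).hol i
      unfold HolAt at this
      rw [preimage_univ, inter_univ] at this
      exact this
    have hσ0 : σ z₀ ≠ 0 := by
      show s0 i ((A.e i).symm z₀) ≠ 0
      rw [hx0]; exact h0
    have hσa : DifferentiableAt ℂ σ z₀ := hσd.differentiableAt ((A.e i).open_target.mem_nhds hz)
    have hsa : ∀ j, DifferentiableAt ℂ (fun z => s j i ((A.e i).symm z)) z₀ := fun j =>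
      (hsd j).differentiableAt ((A.e i).open_target.mem_nhds hz)
    have hev : ∀ᶠ z in 𝓝 z₀, σ z ≠ 0 := hσa.continuousAt.eventually_ne hσ0
    have hJe : Jc (rd C i) z₀ = σ z₀ • Jc (rt s0 s i) z₀ := by
      ext j a
      show fderiv ℂ (fun z => rd C i z j) z₀ (EuclideanSpace.single a 1) =
        σ z₀ * fderiv ℂ (fun z => rt s0 s i z j) z₀ (EuclideanSpace.single a 1)
      have hr : DifferentiableAt ℂ (fun z => rt s0 s i z j) z₀ := by
        have hr1 : DifferentiableAt ℂ (fun z => s j i ((A.e i).symm z) * (σ z)⁻¹) z₀ :=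
          (hsa j).fun_mul (hσa.fun_inv hσ0)
        exact hr1
      have e1 : (fun z => rd C i z j) =ᶠ[𝓝 z₀] fun z => σ z * (rt s0 s i z j - q j) := by
        filter_upwards [hev] with z hz'
        show s j i ((A.e i).symm z) - q j * s0 i ((A.e i).symm z) =
          σ z * (s j i ((A.e i).symm z) / s0 i ((A.e i).symm z) - q j)
        have hz'' : s0 i ((A.e i).symm z) ≠ 0 := hz'
        show _ = s0 i ((A.e i).symm z) * _
        field_simp
      have hd2 : HasFDerivAt (fun z => rt s0 s i z j - q j) (fderiv ℂ (fun z => rt s0 s i z j) z₀)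
          z₀ := hr.hasFDerivAt.sub_const _
      have e2 : fderiv ℂ (fun z => σ z * (rt s0 s i z j - q j)) z₀ =
          σ z₀ • fderiv ℂ (fun z => rt s0 s i z j) z₀ +
            (rt s0 s i z₀ j - q j) • fderiv ℂ σ z₀ := (hσa.hasFDerivAt.mul hd2).fderiv
      have e3 : rt s0 s i z₀ j - q j = 0 := by
        unfold rt
        rw [hx0, hq j, sub_self]
      rw [e1.fderiv_eq]
      change fderiv ℂ (fun z => σ z * (rt s0 s i z j - q j)) z₀ _ = _
      rw [e2]
      change σ z₀ * fderiv ℂ (fun z => rt s0 s i z j) z₀ (EuclideanSpace.single a 1) +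
        (rt s0 s i z₀ j - q j) * fderiv ℂ σ z₀ (EuclideanSpace.single a 1) = _
      rw [e3, zero_mul, add_zero]
    rw [hJe, Matrix.det_smul]
    exact mul_ne_zero (pow_ne_zero _ hσ0) hJ

/-- the uniform bound: depends only on `n` and on `∫ det (cur h)` -/
def degb (n : ℕ) (V : ℝ) : ℕ := ⌊V / cn n⌋₊

theorem fib_le {h : HM L} (hp : h.Semipos) {s0 : A.ι → M → ℂ} (hs0 : IsHS L univ s0)
    {s : Fin n → A.ι → M → ℂ} (hs : ∀ j, IsHS L univ (s j)) (K : Kah A) (P : Part A)
    (q : Fin n → ℂ) (S : Finset M) (hS : ∀ x ∈ S, EtPt s0 s q x) :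
    S.card ≤ degb n (totc P (fun i x => (cur h i x).det)).re := by
  have h1 := fib_ratio hp hs0 hs K P q S hS
  unfold degb
  refine Nat.le_floor ?_
  rw [le_div_iff₀ (cn_pos n)]
  exact h1

/-- change of chart: being an etale point does not depend on the chart -/
theorem etPt_of {s0 : A.ι → M → ℂ} {s : Fin n → A.ι → M → ℂ} {q : Fin n → ℂ} {i : A.ι} {x : M}
    (hx : x ∈ (A.e i).source) (h0 : s0 i x ≠ 0) (hq : ∀ j, s j i x / s0 i x = q j)
    (hJ : (Jc (rt s0 s i) (A.e i x)).det ≠ 0) : EtPt s0 s q x := ⟨i, hx, h0, hq, hJ⟩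

end Meas

end

end Crest.Agent.R281.Fc_242
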