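import Crest.Agent.R281.SIn_14
import Crest.Agent.R273.Vm_333
import Mathlib.MeasureTheory.Measure.Haar.Unique
import Mathlib.MeasureTheory.Constructions.Polish.Basic

/-!
# R281, S-FCL (helper14), part 1: change of variables for `Φ : ℂ^N → M`

* `kap N`          : the ratio of the two Lebesgue measures (`RI N → ℝ` and `Fin N → ℂ`)
* `lint_local`     : `∫_{Φ(E)} f dvm = kap ∫_E |det jac|² det g · f ∘ Φ`, `Φ(E)` in one chart,
                     `Φ` injective on `E`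
* `lint_inj`       : the same without the chart: density `(pbg K Φ ζ).det.re`
-/

set_option autoImplicit false
set_option linter.unusedSectionVars false

open Set Filter Topology Complex MeasureTheory
open scoped ContDiff Matrix ComplexConjugate ComplexOrder ENNReal

namespace Crest.Agent.R281.Fcl_14

open Crest.Agent.R275.Geo Crest.Agent.R275.Core144 Crest.Agent.R275.EDR890
open Crest.Agent.R273.Defs_333 Crest.Agent.R273.Hess_333 Crest.Agent.R273.HessB_333
open Crest.Agent.R273.HM_333 Crest.Agent.R273.Kah_333 Crest.Agent.R273.Vol_333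
open Crest.Agent.R273.Vm_333 Crest.Agent.R273.FIb0_597
open Crest.Agent.R275.C1d194
open Crest.Agent.R281.Tor_922
open Crest.Agent.R281.SIn_14 (pbg Strip CloseC2 quo)

noncomputable section

variable {N : ℕ} {M : Type} [TopologicalSpace M] {A : Atl N M}

/-- `ℂ^N` as a Euclidean space -/
def toC (N : ℕ) : (Fin N → ℂ) ≃L[ℂ] Cn N := (EuclideanSpace.equiv (Fin N) ℂ).symm

/-- real coordinates of `Fin N → ℂ` -/
def tE (N : ℕ) : (Fin N → ℂ) ≃L[ℝ] (RI N → ℝ) :=
  (((toC N).toLinearEquiv.restrictScalars ℝ).trans (rcE N)).toContinuousLinearEquiv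

theorem tE_apply (ζ : Fin N → ℂ) : tE N ζ = rc (toC N ζ) := by
  show rcL N (toC N ζ) = _
  rw [rcL_apply]

theorem tE_symm_apply (y : RI N → ℝ) : (tE N).symm y = (toC N).symm (cc y) := rfl

theorem exists_kap (N : ℕ) : ∃ c : ℝ≥0∞, c ≠ 0 ∧ c ≠ ⊤ ∧
    (volume : Measure (RI N → ℝ)) = c • Measure.map (tE N) (volume : Measure (Fin N → ℂ)) := by
  have : (Measure.map (tE N) (volume : Measure (Fin N → ℂ))).IsAddHaarMeasure :=
    (tE N).isAddHaarMeasure_map _
  refine ⟨(Measure.addHaarScalarFactor (volume : Measure (RI N → ℝ))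
    (Measure.map (tE N) (volume : Measure (Fin N → ℂ))) : NNReal), ?_, ENNReal.coe_ne_top, ?_⟩
  · exact ENNReal.coe_ne_zero.2
      (Measure.addHaarScalarFactor_pos_of_isAddHaarMeasure _ _).ne'
  · exact Measure.isAddLeftInvariant_eq_smul _ _

/-- the ratio of the Lebesgue measures -/
def kap (N : ℕ) : ℝ≥0∞ := (exists_kap N).choose

theorem kap_ne_zero (N : ℕ) : kap N ≠ 0 := (exists_kap N).choose_spec.1
theorem kap_ne_top (N : ℕ) : kap N ≠ ⊤ := (exists_kap N).choose_spec.2.1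
theorem vol_eq (N : ℕ) : (volume : Measure (RI N → ℝ)) =
    kap N • Measure.map (tE N) (volume : Measure (Fin N → ℂ)) := (exists_kap N).choose_spec.2.2

theorem emb_tE : MeasurableEmbedding (tE N : (Fin N → ℂ) → RI N → ℝ) :=
  (tE N).toHomeomorph.measurableEmbedding

/-- linear change of variables -/
theorem lint_tE (H : (Fin N → ℂ) → ℝ≥0∞) (E : Set (Fin N → ℂ)) :
    ∫⁻ y in (tE N).symm ⁻¹' E, H ((tE N).symm y) = kap N * ∫⁻ ζ in E, H ζ := by
  have h1 : (volume : Measure (RI N → ℝ)).restrict ((tE N).symm ⁻¹' E) =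
      kap N • (Measure.map (tE N) (volume : Measure (Fin N → ℂ))).restrict
        ((tE N).symm ⁻¹' E) := by
    conv_lhs => rw [vol_eq N]
    rw [Measure.restrict_smul]
  rw [h1, lintegral_smul_measure, emb_tE.restrict_map, emb_tE.lintegral_map]
  have h2 : (tE N : (Fin N → ℂ) → RI N → ℝ) ⁻¹' ((tE N).symm ⁻¹' E) = E := by
    ext ζ
    simp
  rw [h2]
  simp

/-- derivative in real coordinates -/
theorem hasFDerivAt_real {i : A.ι} {Φ : (Fin N → ℂ) → M} {ζ : Fin N → ℂ}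
    (hd : DifferentiableAt ℂ (fun w => A.e i (Φ w)) ζ) :
    ∃ L : (RI N → ℝ) →L[ℝ] (RI N → ℝ),
      HasFDerivAt (fun y => rc (A.e i (Φ ((tE N).symm y)))) L (tE N ζ) ∧
      |L.det| = ‖(SIn_14.jac A Φ i ζ).det‖ ^ 2 := by
  set D0 := fderiv ℂ (fun w => A.e i (Φ w)) ζ with hD0
  set D : Cn N →L[ℂ] Cn N := D0.comp ((toC N).symm : Cn N →L[ℂ] (Fin N → ℂ)) with hD
  let ccL : (RI N → ℝ) →L[ℝ] Cn N := ((rcE N).symm.toContinuousLinearEquiv : (RI N → ℝ) →L[ℝ] Cn N)
  have h1 : HasFDerivAt (fun w => A.e i (Φ w)) (D0.restrictScalars ℝ) ((tE N).symm (tE N ζ)) := by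
    rw [ContinuousLinearEquiv.symm_apply_apply]
    exact hd.hasFDerivAt.restrictScalars ℝ
  have h2 : HasFDerivAt ((tE N).symm : (RI N → ℝ) → Fin N → ℂ)
      ((tE N).symm : (RI N → ℝ) →L[ℝ] (Fin N → ℂ)) (tE N ζ) := (tE N).symm.hasFDerivAt
  have h3 : HasFDerivAt (rc : Cn N → RI N → ℝ) (rcL N) (A.e i (Φ ((tE N).symm (tE N ζ)))) := by
    rw [rc_eq]; exact (rcL N).hasFDerivAt
  have h4 : HasFDerivAt (fun y => rc (A.e i (Φ ((tE N).symm y)))) ((rcL N).comp
      ((D0.restrictScalars ℝ).comp ((tE N).symm : (RI N → ℝ) →L[ℝ] (Fin N → ℂ)))) (tE N ζ) :=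
    HasFDerivAt.comp (g := rc) (f := fun y => A.e i (Φ ((tE N).symm y))) (tE N ζ) h3
      (HasFDerivAt.comp (g := fun w => A.e i (Φ w)) (f := (tE N).symm) (tE N ζ) h1 h2)
  refine ⟨_, h4, ?_⟩
  have h5 : ((((rcL N).comp ((D0.restrictScalars ℝ).comp
      ((tE N).symm : (RI N → ℝ) →L[ℝ] (Fin N → ℂ)))) : (RI N → ℝ) →L[ℝ] (RI N → ℝ)) :
      (RI N → ℝ) →ₗ[ℝ] (RI N → ℝ)) = ((rcE N : Cn N →ₗ[ℝ] (RI N → ℝ)) ∘ₗ
        ((D : Cn N →ₗ[ℂ] Cn N).restrictScalars ℝ)) ∘ₗ ((rcE N).symm : (RI N → ℝ) →ₗ[ℝ] Cn N) := by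
    ext v p
    rfl
  have h6 : ((rcL N).comp ((D0.restrictScalars ℝ).comp
      ((tE N).symm : (RI N → ℝ) →L[ℝ] (Fin N → ℂ)))).det =
      ‖LinearMap.det (D : Cn N →ₗ[ℂ] Cn N)‖ ^ 2 := by
    rw [← Crest.Agent.R275.Pai323.det_real D, ← h5]
  have h7 : LinearMap.det (D : Cn N →ₗ[ℂ] Cn N) = (SIn_14.jac A Φ i ζ).det := by
    rw [← LinearMap.det_toMatrix (EuclideanSpace.basisFun (Fin N) ℂ).toBasis]
    congr 1
  rw [h6, h7, abs_of_nonneg (by positivity)]

variable [MeasurableSpace M] [BorelSpace M]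

/-- **change of variables in one chart** -/
theorem lint_local [Countable A.ι] (K : Kah A) {i : A.ι} {Φ : (Fin N → ℂ) → M}
    {E : Set (Fin N → ℂ)} (hE : MeasurableSet E) (hEi : ∀ ζ ∈ E, Φ ζ ∈ (A.e i).source)
    (hd : ∀ ζ ∈ E, DifferentiableAt ℂ (fun w => A.e i (Φ w)) ζ) (hinj : InjOn Φ E)
    (hΦE : MeasurableSet (Φ '' E)) {f : M → ℝ≥0∞} (hf : Measurable f) :
    ∫⁻ x in Φ '' E, f x ∂(vm (volK K)) = kap N * ∫⁻ ζ in E,
      ENNReal.ofReal (‖(SIn_14.jac A Φ i ζ).det‖ ^ 2 * (K.g i (Φ ζ)).det.re) * f (Φ ζ) := by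
  classical
  set S : Set (RI N → ℝ) := (tE N).symm ⁻¹' E with hS
  have hSm : MeasurableSet S := (tE N).symm.continuous.measurable hE
  set g : (RI N → ℝ) → (RI N → ℝ) := fun y => rc (A.e i (Φ ((tE N).symm y))) with hg
  have hcc : ∀ y ∈ S, cc (g y) = A.e i (Φ ((tE N).symm y)) := fun y _ => by
    rw [hg]; exact cc_rc _
  have hsg : ∀ y ∈ S, sg A i (g y) = Φ ((tE N).symm y) := fun y hy => by
    unfold sg
    rw [hcc y hy, (A.e i).left_inv (hEi _ hy)]
  have hUi : ∀ y ∈ S, g y ∈ Ui A i := fun y hy => by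
    show cc (g y) ∈ (A.e i).target
    rw [hcc y hy]
    exact (A.e i).map_source (hEi _ hy)
  have hL : ∀ y : RI N → ℝ, ∃ L : (RI N → ℝ) →L[ℝ] (RI N → ℝ), y ∈ S →
      (HasFDerivAt g L y ∧ |L.det| = ‖(SIn_14.jac A Φ i ((tE N).symm y)).det‖ ^ 2) := by
    intro y
    by_cases hy : y ∈ S
    · obtain ⟨L, h1, h2⟩ := hasFDerivAt_real (hd _ hy)
      rw [ContinuousLinearEquiv.apply_symm_apply] at h1
      exact ⟨L, fun _ => ⟨h1, h2⟩⟩
    · exact ⟨0, fun h => absurd h hy⟩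
  choose L hL using hL
  have hginj : InjOn g S := by
    intro y hy y' hy' h
    have h1 : Φ ((tE N).symm y) = Φ ((tE N).symm y') := by rw [← hsg y hy, ← hsg y' hy', h]
    exact (tE N).symm.injective (hinj hy hy' h1)
  -- the left side in the chart
  have h1 : ∫⁻ x in Φ '' E, f x ∂(vm (volK K)) = ∫⁻ x in Φ '' E, f x ∂(chm (volK K) i) := by
    rw [← vm_restrict, Measure.restrict_restrict hΦE, inter_eq_left.2]
    rintro _ ⟨ζ, hζ, rfl⟩
    exact hEi ζ hζ
  have himg : {y | y ∈ Ui A i ∧ sg A i y ∈ Φ '' E} = g '' S := by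
    ext y
    constructor
    · rintro ⟨hy, ζ, hζ, hζy⟩
      refine ⟨tE N ζ, ?_, ?_⟩
      · show (tE N).symm (tE N ζ) ∈ E
        rwa [ContinuousLinearEquiv.symm_apply_apply]
      · show rc (A.e i (Φ ((tE N).symm (tE N ζ)))) = y
        rw [ContinuousLinearEquiv.symm_apply_apply, hζy]
        unfold sg
        rw [(A.e i).right_inv hy, rc_cc]
    · rintro ⟨y', hy', rfl⟩
      exact ⟨hUi y' hy', _, hy', (hsg y' hy').symm⟩
  have h2 : ∫⁻ x in Φ '' E, f x ∂(chm (volK K) i) =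
      ∫⁻ y in g '' S, dn (volK K) i y * f (sg A i y) := by
    rw [← lintegral_indicator hΦE, lintegral_chm (volK K) i (hf.indicator hΦE), ← himg]
    have h3 : {y | y ∈ Ui A i ∧ sg A i y ∈ Φ '' E} = {y | sg A i y ∈ Φ '' E} ∩ Ui A i := by
      ext y; exact and_comm
    have h4 : ∀ y, dn (volK K) i y * (Φ '' E).indicator f (sg A i y) =
        {y | sg A i y ∈ Φ '' E}.indicator (fun y => dn (volK K) i y * f (sg A i y)) y := by
      intro y
      by_cases hy : sg A i y ∈ Φ '' E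
      · rw [indicator_of_mem hy, indicator_of_mem (show y ∈ {y | sg A i y ∈ Φ '' E} from hy)]
      · rw [indicator_of_notMem hy,
          indicator_of_notMem (show y ∉ {y | sg A i y ∈ Φ '' E} from hy), mul_zero]
    simp_rw [h4]
    rw [lintegral_indicator₀, Measure.restrict_restrict₀, h3]
    · exact (aemeas_sg i).nullMeasurable hΦE
    · exact (aemeas_sg i).nullMeasurable hΦE
  rw [h1, h2, lintegral_image_eq_lintegral_abs_det_fderiv_mul volume hSm
    (fun y hy => (hL y hy).1.hasFDerivWithinAt) hginj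
    (fun y => dn (volK K) i y * f (sg A i y)), ← lint_tE]
  refine setLIntegral_congr_fun hSm fun y hy => ?_
  show ENNReal.ofReal |(L y).det| * (dn (volK K) i (g y) * f (sg A i (g y))) = _
  rw [(hL y hy).2, ← mul_assoc]
  unfold dn
  rw [hsg y hy, ENNReal.ofReal_mul (by positivity)]
  rfl

end

end Crest.Agent.R281.Fcl_14
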