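import Crest.Agent.R281.Fcl1_14
import Crest.Agent.R275.FmP_96

/-!
# R281, S-FCL (helper14), part 2: change of variables without charts; boxes

* `jac_tr`, `pbg_det`  : the density `(pbg K Φ ζ).det.re` read in any chart
* `lint_inj`           : `∫_{Φ(E)} f dvm = kap ∫_E det(pbg) · f ∘ Φ`, `Φ` injective on `E`
-/

set_option autoImplicit false
set_option linter.unusedSectionVars false

open Set Filter Topology Complex MeasureTheory
open scoped ContDiff Matrix ComplexConjugate ComplexOrder ENNReal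

namespace Crest.Agent.R281.Fcl_14

open Crest.Agent.R275.Geo Crest.Agent.R275.Core144 Crest.Agent.R275.EDR890
open Crest.Agent.R273.Defs_333 Crest.Agent.R273.Hess_333 Crest.Agent.R273.HessB_333
open Crest.Agent.R273.HM_333 Crest.Agent.R273.Kah_333 Crest.Agent.R273.Vol_333
open Crest.Agent.R273.Vm_333 Crest.Agent.R273.FIb0_597
open Crest.Agent.R275.C1d194
open Crest.Agent.R281.Tor_922
open Crest.Agent.R281.SIn_14 (pbg Strip CloseC2 quo)
open Crest.Agent.R275.Fm96 (tr tr_diff tr_apply sum_bs)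

noncomputable section

variable {N : ℕ} {M : Type} [TopologicalSpace M] {A : Atl N M}

/-- change of the chart for the Jacobian matrix of `Φ` -/
theorem jac_tr {i j : A.ι} {Φ : (Fin N → ℂ) → M} {ζ : Fin N → ℂ}
    (hx : Φ ζ ∈ (A.e i).source ∩ (A.e j).source) (hc : ContinuousAt Φ ζ)
    (hd : DifferentiableAt ℂ (fun w => A.e i (Φ w)) ζ) :
    SIn_14.jac A Φ j ζ = Jm A i j (Φ ζ) * SIn_14.jac A Φ i ζ := by
  have h1 : (fun w => A.e j (Φ w)) =ᶠ[𝓝 ζ] fun w => tr A i j (A.e i (Φ w)) := by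
    filter_upwards [hc.preimage_mem_nhds ((A.e i).open_source.mem_nhds hx.1)] with w hw
    exact (tr_apply hw).symm
  have hd1 : DifferentiableAt ℂ (tr A i j) (A.e i (Φ ζ)) := (tr_diff hx).self_of_nhds
  have h2 : fderiv ℂ (fun w => A.e j (Φ w)) ζ =
      (fderiv ℂ (tr A i j) (A.e i (Φ ζ))).comp (fderiv ℂ (fun w => A.e i (Φ w)) ζ) := by
    rw [h1.fderiv_eq]
    exact fderiv_comp ζ hd1 hd
  ext b a
  show (fderiv ℂ (fun w => A.e j (Φ w)) ζ (Pi.single a 1)) b = _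
  rw [h2, ContinuousLinearMap.comp_apply,
    sum_bs (fderiv ℂ (fun w => A.e i (Φ w)) ζ (Pi.single a 1)), map_sum]
  simp only [WithLp.ofLp_sum, Finset.sum_apply, map_smul, PiLp.smul_apply, smul_eq_mul,
    Matrix.mul_apply]
  refine Finset.sum_congr rfl fun c _ => ?_
  rw [mul_comm]
  rfl

theorem det_conj_mul (J : Matrix (Fin N) (Fin N) ℂ) {g : Matrix (Fin N) (Fin N) ℂ} :
    (Jᵀ * g * J.map conj).det = ((‖J.det‖ ^ 2 : ℝ) : ℂ) * g.det := by
  rw [Matrix.det_mul, Matrix.det_mul, Matrix.det_transpose]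
  have h2 : (J.map conj).det = conj J.det := by
    rw [← RingHom.mapMatrix_apply, ← RingHom.map_det]
  have h3 : ((‖J.det‖ ^ 2 : ℝ) : ℂ) = J.det * conj J.det := by
    rw [Complex.mul_conj, Complex.normSq_eq_norm_sq]
  rw [h2, h3]
  ring

theorem det_conj_mul_re (J : Matrix (Fin N) (Fin N) ℂ) {g : Matrix (Fin N) (Fin N) ℂ} :
    (Jᵀ * g * J.map conj).det.re = ‖J.det‖ ^ 2 * g.det.re := by
  rw [det_conj_mul, Complex.re_ofReal_mul]

/-- the metric `Φ^* K` can be read in any chart -/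
theorem pbg_eq (K : Kah A) {i : A.ι} {Φ : (Fin N → ℂ) → M} {ζ : Fin N → ℂ}
    (hx : Φ ζ ∈ (A.e i).source) (hc : ContinuousAt Φ ζ)
    (hd : DifferentiableAt ℂ (fun w => A.e i (Φ w)) ζ) :
    pbg K Φ ζ = (SIn_14.jac A Φ i ζ)ᵀ * K.g i (Φ ζ) * (SIn_14.jac A Φ i ζ).map conj := by
  have h1 := jac_tr (j := ch A (Φ ζ)) ⟨hx, mem_ch A (Φ ζ)⟩ hc hd
  unfold pbg
  rw [h1, K.tr i (ch A (Φ ζ)) (Φ ζ) ⟨hx, mem_ch A (Φ ζ)⟩, Matrix.transpose_mul,
    ← RingHom.mapMatrix_apply, ← RingHom.mapMatrix_apply, ← RingHom.mapMatrix_apply, map_mul]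
  simp only [Matrix.mul_assoc]

theorem pbg_det (K : Kah A) {i : A.ι} {Φ : (Fin N → ℂ) → M} {ζ : Fin N → ℂ}
    (hx : Φ ζ ∈ (A.e i).source) (hc : ContinuousAt Φ ζ)
    (hd : DifferentiableAt ℂ (fun w => A.e i (Φ w)) ζ) :
    (pbg K Φ ζ).det.re = ‖(SIn_14.jac A Φ i ζ).det‖ ^ 2 * (K.g i (Φ ζ)).det.re := by
  rw [pbg_eq K hx hc hd, det_conj_mul_re]

variable [MeasurableSpace M] [BorelSpace M]

/-- the good points of `Φ` -/
structure Hol (A : Atl N M) (Φ : (Fin N → ℂ) → M) (U : Set (Fin N → ℂ)) : Prop where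
  open_ : IsOpen U
  cont : ContinuousOn Φ U
  hol : ∀ ζ ∈ U, ∀ i, Φ ζ ∈ (A.e i).source → DifferentiableAt ℂ (fun w => A.e i (Φ w)) ζ

theorem Hol.meas {Φ : (Fin N → ℂ) → M} {U : Set (Fin N → ℂ)} (h : Hol A Φ U)
    {E : Set (Fin N → ℂ)} (hE : MeasurableSet E) (hEU : E ⊆ U) {B : Set M}
    (hB : MeasurableSet B) : MeasurableSet {ζ | ζ ∈ E ∧ Φ ζ ∈ B} := by
  have h1 : Measurable (U.domRestrict Φ) :=
    (continuousOn_iff_continuous_domRestrict.1 h.cont).measurable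
  have h2 := h.open_.measurableSet.subtype_image (h1 hB)
  have h3 : {ζ | ζ ∈ E ∧ Φ ζ ∈ B} = E ∩ (Subtype.val '' (U.domRestrict Φ ⁻¹' B)) := by
    ext ζ
    constructor
    · rintro ⟨h1, h2⟩
      exact ⟨h1, ⟨ζ, hEU h1⟩, h2, rfl⟩
    · rintro ⟨h1, ⟨a, ha⟩, h2, rfl⟩
      exact ⟨h1, h2⟩
  rw [h3]
  exact hE.inter h2

/-- **change of variables** -/
theorem lint_inj [T2Space M] [Countable A.ι] (K : Kah A) {Φ : (Fin N → ℂ) → M}
    {U : Set (Fin N → ℂ)} (hU : Hol A Φ U)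
    {E : Set (Fin N → ℂ)} (hE : MeasurableSet E) (hEU : E ⊆ U) (hinj : InjOn Φ E)
    {f : M → ℝ≥0∞} (hf : Measurable f) :
    ∫⁻ x in Φ '' E, f x ∂(vm (volK K)) = kap N * ∫⁻ ζ in E,
      ENNReal.ofReal (pbg K Φ ζ).det.re * f (Φ ζ) := by
  set Ei : A.ι → Set (Fin N → ℂ) := fun i => {ζ | ζ ∈ E ∧ Φ ζ ∈ Dj A i} with hEi
  have hEim : ∀ i, MeasurableSet (Ei i) := fun i => hU.meas hE hEU (meas_Dj i)
  have hdis : Pairwise (Function.onFun Disjoint Ei) := by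
    intro i j hij
    rw [Function.onFun, Set.disjoint_left]
    intro ζ h1 h2
    exact Set.disjoint_left.1 (Dj_disjoint hij) h1.2 h2.2
  have hcov : ⋃ i, Ei i = E := by
    ext ζ
    rw [mem_iUnion]
    constructor
    · rintro ⟨i, hi⟩; exact hi.1
    · intro hζ
      obtain ⟨i, hi⟩ := exists_Dj (A := A) (Φ ζ)
      exact ⟨i, hζ, hi⟩
  have himg : ∀ i, MeasurableSet (Φ '' Ei i) := fun i =>
    (hEim i).image_of_continuousOn_injOn (hU.cont.mono fun ζ hζ => hEU hζ.1)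
      (hinj.mono fun ζ hζ => hζ.1)
  have hdis2 : Pairwise (Function.onFun Disjoint fun i => Φ '' Ei i) := by
    intro i j hij
    rw [Function.onFun, Set.disjoint_left]
    rintro _ ⟨ζ, hζ, rfl⟩ ⟨ζ', hζ', h⟩
    have h2 : Φ ζ ∈ Dj A j := by rw [← h]; exact hζ'.2
    exact Set.disjoint_left.1 (Dj_disjoint hij) hζ.2 h2
  have hloc : ∀ i, ∫⁻ x in Φ '' Ei i, f x ∂(vm (volK K)) = kap N * ∫⁻ ζ in Ei i,
      ENNReal.ofReal (pbg K Φ ζ).det.re * f (Φ ζ) := by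
    intro i
    have hs : ∀ ζ ∈ Ei i, Φ ζ ∈ (A.e i).source := fun ζ hζ => hζ.2.1
    rw [lint_local K (hEim i) hs (fun ζ hζ => hU.hol ζ (hEU hζ.1) i (hs ζ hζ))
      (hinj.mono fun ζ hζ => hζ.1) (himg i) hf]
    congr 1
    refine setLIntegral_congr_fun (hEim i) fun ζ hζ => ?_
    show ENNReal.ofReal _ * _ = ENNReal.ofReal _ * _
    rw [pbg_det K (hs ζ hζ) (hU.cont.continuousAt (hU.open_.mem_nhds (hEU hζ.1)))
      (hU.hol ζ (hEU hζ.1) i (hs ζ hζ))]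
  conv_lhs => rw [← hcov, image_iUnion]
  conv_rhs => rw [← hcov]
  rw [lintegral_iUnion himg hdis2, lintegral_iUnion hEim hdis, ← ENNReal.tsum_mul_left]
  exact tsum_congr hloc

end

end Crest.Agent.R281.Fcl_14
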