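import Crest.Agent.R281.Fcl2_14

/-!
# R281, S-FCL (helper14), part 3: the `f`-clause of `SOut`

* `box`, `injOn_box`      : `Φ` is injective on boxes of height `2π`
* `lint_ball_le`          : `kap ∫_{ball} det(pbg) f∘Φ ≤ # · ∫_{Φ(ball)} f dvm`
* `vm_image_le`           : `vm (Φ(ball)) ≤ # kap hi vol(ball)`
* `strip_sub`             : `Φ(strip ζ0 r2) ⊆ Φ(ball ζ0 (r2 + 2π d! + 1))`
* `fclause`               : **the clause**
-/

set_option autoImplicit false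
set_option linter.unusedSectionVars false

open Set Filter Topology Complex MeasureTheory
open scoped ContDiff Matrix ComplexConjugate ComplexOrder ENNReal

namespace Crest.Agent.R281.Fcl_14

open Crest.Agent.R275.Geo Crest.Agent.R275.Core144 Crest.Agent.R275.EDR890
open Crest.Agent.R273.Defs_333 Crest.Agent.R273.Hess_333 Crest.Agent.R273.HessB_333
open Crest.Agent.R273.HM_333 Crest.Agent.R273.Kah_333 Crest.Agent.R273.Vol_333
open Crest.Agent.R273.Vm_333 Crest.Agent.R273.FIb0_597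
open Crest.Agent.R281.Tor_922
open Crest.Agent.R281.SIn_14 (pbg Strip CloseC2 quo)

noncomputable section

variable {N : ℕ} {M : Type} [TopologicalSpace M] {A : Atl N M}

/-- boxes -/
def box (ζ0 : Fin N → ℂ) (k : Fin N → ℤ) : Set (Fin N → ℂ) :=
  {ζ | ∀ j, (k j : ℝ) * (2 * Real.pi) ≤ (ζ j).im - (ζ0 j).im ∧
    (ζ j).im - (ζ0 j).im < ((k j : ℝ) + 1) * (2 * Real.pi)}

theorem meas_box (ζ0 : Fin N → ℂ) (k : Fin N → ℤ) : MeasurableSet (box ζ0 k) := by
  unfold box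
  rw [Set.ofPred_forall]
  refine MeasurableSet.iInter fun j => ?_
  have h1 : Measurable fun ζ : Fin N → ℂ => (ζ j).im - (ζ0 j).im := by fun_prop
  exact (measurableSet_le measurable_const h1).inter (measurableSet_lt h1 measurable_const)

/-- the finite set of boxes needed for a ball -/
def ks (N : ℕ) (R : ℝ) : Finset (Fin N → ℤ) :=
  Fintype.piFinset fun _ => Finset.Icc (-(⌈R⌉₊ : ℤ)) ⌈R⌉₊

theorem mem_box (ζ0 ζ : Fin N → ℂ) :
    ζ ∈ box ζ0 fun j => ⌊((ζ j).im - (ζ0 j).im) / (2 * Real.pi)⌋ := by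
  intro j
  have hp : 0 < 2 * Real.pi := by positivity
  constructor
  · rw [← le_div_iff₀ hp]; exact Int.floor_le _
  · rw [← div_lt_iff₀ hp]; exact Int.lt_floor_add_one _

theorem floor_mem {ζ0 ζ : Fin N → ℂ} {R : ℝ} (h : ζ ∈ Metric.ball ζ0 R) :
    (fun j => ⌊((ζ j).im - (ζ0 j).im) / (2 * Real.pi)⌋) ∈ ks N R := by
  unfold ks
  rw [Fintype.mem_piFinset]
  intro j
  rw [Finset.mem_Icc]
  have hp : 1 < 2 * Real.pi := by have := Real.pi_gt_three; linarith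
  have h1 : |(ζ j).im - (ζ0 j).im| < R := by
    have h2 : dist ζ ζ0 < R := h
    have h3 : dist (ζ j) (ζ0 j) ≤ dist ζ ζ0 := dist_le_pi_dist ζ ζ0 j
    have h4 : |(ζ j - ζ0 j).im| ≤ ‖ζ j - ζ0 j‖ := Complex.abs_im_le_norm _
    rw [Complex.sub_im] at h4
    rw [dist_eq_norm] at h3
    linarith
  have hR : R ≤ ⌈R⌉₊ := Nat.le_ceil R
  have hR0 : 0 < R := lt_of_le_of_lt (abs_nonneg _) h1
  rw [abs_lt] at h1
  constructor
  · rw [Int.le_floor]
    push_cast
    rw [le_div_iff₀ (by linarith)]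
    nlinarith
  · have h5 : ⌊((ζ j).im - (ζ0 j).im) / (2 * Real.pi)⌋ < (⌈R⌉₊ : ℤ) + 1 := by
      rw [Int.floor_lt]
      push_cast
      rw [div_lt_iff₀ (by linarith)]
      nlinarith
    omega

theorem ball_sub_boxes (ζ0 : Fin N → ℂ) (R : ℝ) :
    Metric.ball ζ0 R ⊆ ⋃ k ∈ ks N R, (Metric.ball ζ0 R ∩ box ζ0 k) := by
  intro ζ h
  refine mem_iUnion₂.2 ⟨_, floor_mem h, h, mem_box ζ0 ζ⟩

theorem eq_of_box {ζ0 ζ ζ' : Fin N → ℂ} {k : Fin N → ℤ} (h : ζ ∈ box ζ0 k) (h' : ζ' ∈ box ζ0 k)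
    (hl : ζ - ζ' ∈ lat (Fin N)) : ζ = ζ' := by
  funext j
  obtain ⟨m, hm⟩ := hl j
  have hp : 0 < 2 * Real.pi := by positivity
  rw [Pi.sub_apply] at hm
  have h1 : (ζ j).im - (ζ' j).im = m * (2 * Real.pi) := by
    have := congrArg Complex.im hm
    rw [Complex.sub_im] at this
    rw [this]
    simp
  have h2 := h j
  have h3 := h' j
  have h4 : |(m : ℝ) * (2 * Real.pi)| < 2 * Real.pi := by
    rw [← h1, abs_lt]
    constructor <;> linarith [h2.1, h2.2, h3.1, h3.2]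
  rw [abs_mul, abs_of_pos hp] at h4
  have h5 : |(m : ℝ)| < 1 := by
    by_contra hc
    push Not at hc
    nlinarith
  have h6 : m = 0 := by
    rw [← Int.cast_abs] at h5
    have : |m| < 1 := by exact_mod_cast h5
    exact Int.abs_lt_one_iff.1 this
  rw [h6] at hm
  have : ζ j - ζ' j = 0 := by rw [hm]; simp
  exact sub_eq_zero.1 this

theorem lintegral_biUnion_le {α κ : Type*} [MeasurableSpace α] {μ : Measure α} (s : Finset κ)
    (E : κ → Set α) (f : α → ℝ≥0∞) :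
    ∫⁻ x in ⋃ k ∈ s, E k, f x ∂μ ≤ ∑ k ∈ s, ∫⁻ x in E k, f x ∂μ := by
  classical
  induction s using Finset.induction_on with
  | empty => simp
  | insert a s ha ih =>
    rw [Finset.set_biUnion_insert, Finset.sum_insert ha]
    exact (lintegral_union_le _ _ _).trans (add_le_add le_rfl ih)

variable [MeasurableSpace M] [BorelSpace M] [T2Space M] [Countable A.ι]

/-- what the clause uses of `Strip` -/
structure Inj (Φ : (Fin N → ℂ) → M) (U : Set (Fin N → ℂ)) : Prop where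
  inj : ∀ ζ ∈ U, ∀ ζ' ∈ U, Φ ζ = Φ ζ' → ζ - ζ' ∈ lat (Fin N)

theorem injOn_box {Φ : (Fin N → ℂ) → M} {U : Set (Fin N → ℂ)} (h : Inj Φ U) (ζ0 : Fin N → ℂ)
    (k : Fin N → ℤ) {E : Set (Fin N → ℂ)} (hE : E ⊆ U) : InjOn Φ (E ∩ box ζ0 k) :=
  fun ζ h1 ζ' h2 h3 => eq_of_box h1.2 h2.2 (h.inj ζ (hE h1.1) ζ' (hE h2.1) h3)

theorem lint_ball_le (K : Kah A) {Φ : (Fin N → ℂ) → M} {U : Set (Fin N → ℂ)} (hU : Hol A Φ U)
    (hI : Inj Φ U) {ζ0 : Fin N → ℂ} {R : ℝ} (hR : Metric.ball ζ0 R ⊆ U) {f : M → ℝ≥0∞}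
    (hf : Measurable f) :
    kap N * ∫⁻ ζ in Metric.ball ζ0 R, ENNReal.ofReal (pbg K Φ ζ).det.re * f (Φ ζ) ≤
      (ks N R).card * ∫⁻ x in Φ '' Metric.ball ζ0 R, f x ∂(vm (volK K)) := by
  have hb : MeasurableSet (Metric.ball ζ0 R) := Metric.isOpen_ball.measurableSet
  calc kap N * ∫⁻ ζ in Metric.ball ζ0 R, ENNReal.ofReal (pbg K Φ ζ).det.re * f (Φ ζ)
      ≤ kap N * ∑ k ∈ ks N R, ∫⁻ ζ in Metric.ball ζ0 R ∩ box ζ0 k,
          ENNReal.ofReal (pbg K Φ ζ).det.re * f (Φ ζ) := by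
        gcongr
        refine (lintegral_mono_set (ball_sub_boxes ζ0 R)).trans ?_
        exact lintegral_biUnion_le _ _ _
    _ = ∑ k ∈ ks N R, ∫⁻ x in Φ '' (Metric.ball ζ0 R ∩ box ζ0 k), f x ∂(vm (volK K)) := by
        rw [Finset.mul_sum]
        refine Finset.sum_congr rfl fun k _ => ?_
        rw [lint_inj K hU (hb.inter (meas_box ζ0 k)) (inter_subset_left.trans hR)
          (injOn_box hI ζ0 k hR) hf]
    _ ≤ ∑ k ∈ ks N R, ∫⁻ x in Φ '' Metric.ball ζ0 R, f x ∂(vm (volK K)) := by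
        refine Finset.sum_le_sum fun k _ => ?_
        exact lintegral_mono_set (image_mono inter_subset_left)
    _ = _ := by rw [Finset.sum_const, nsmul_eq_mul]

theorem vm_image_le (K : Kah A) {Φ : (Fin N → ℂ) → M} {U : Set (Fin N → ℂ)} (hU : Hol A Φ U)
    (hI : Inj Φ U) {ζ0 : Fin N → ℂ} {R hi : ℝ} (hR : Metric.ball ζ0 R ⊆ U)
    (hhi : ∀ ζ ∈ Metric.ball ζ0 R, (pbg K Φ ζ).det.re ≤ hi) :
    vm (volK K) (Φ '' Metric.ball ζ0 R) ≤
      (ks N R).card * (kap N * (ENNReal.ofReal hi * volume (Metric.ball (0 : Fin N → ℂ) R))) := by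
  have hb : MeasurableSet (Metric.ball ζ0 R) := Metric.isOpen_ball.measurableSet
  calc vm (volK K) (Φ '' Metric.ball ζ0 R)
      ≤ vm (volK K) (⋃ k ∈ ks N R, Φ '' (Metric.ball ζ0 R ∩ box ζ0 k)) := by
        refine measure_mono ?_
        rintro _ ⟨ζ, hζ, rfl⟩
        obtain ⟨k, hk, h1⟩ := mem_iUnion₂.1 (ball_sub_boxes ζ0 R hζ)
        exact mem_iUnion₂.2 ⟨k, hk, ζ, h1, rfl⟩
    _ ≤ ∑ k ∈ ks N R, vm (volK K) (Φ '' (Metric.ball ζ0 R ∩ box ζ0 k)) :=
        measure_biUnion_finset_le _ _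
    _ ≤ ∑ k ∈ ks N R, kap N * (ENNReal.ofReal hi * volume (Metric.ball (0 : Fin N → ℂ) R)) := by
        refine Finset.sum_le_sum fun k _ => ?_
        have h1 := lint_inj K hU (hb.inter (meas_box ζ0 k)) (inter_subset_left.trans hR)
          (injOn_box hI ζ0 k hR) (f := fun _ => 1) measurable_const
        rw [setLIntegral_one] at h1
        rw [h1]
        gcongr
        calc ∫⁻ ζ in Metric.ball ζ0 R ∩ box ζ0 k, ENNReal.ofReal (pbg K Φ ζ).det.re * 1
            ≤ ∫⁻ ζ in Metric.ball ζ0 R, ENNReal.ofReal (pbg K Φ ζ).det.re * 1 :=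
              lintegral_mono_set inter_subset_left
          _ ≤ ∫⁻ ζ in Metric.ball ζ0 R, ENNReal.ofReal hi := by
              refine setLIntegral_mono' hb fun ζ hζ => ?_
              rw [mul_one]
              exact ENNReal.ofReal_le_ofReal (hhi ζ hζ)
          _ = ENNReal.ofReal hi * volume (Metric.ball (0 : Fin N → ℂ) R) := by
              rw [setLIntegral_const, Measure.addHaar_ball_center]
    _ = _ := by rw [Finset.sum_const, nsmul_eq_mul]

/-- the constant -/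
def KF (N : ℕ) (R1 R2 lo hi lam : ℝ) : ℝ :=
  (ks N R1).card * (ks N R2).card * (lam * (hi / lo)) *
    (volume (Metric.ball (0 : Fin N → ℂ) R2)).toReal

/-- **the `f`-clause** -/
theorem fclause (K : Kah A) {Φ : (Fin N → ℂ) → M} {U : Set (Fin N → ℂ)} (hU : Hol A Φ U)
    (hI : Inj Φ U) {ζ0 : Fin N → ℂ} {R1 R2 lo hi lam : ℝ} (hR1 : Metric.ball ζ0 R1 ⊆ U)
    (hR2 : Metric.ball ζ0 R2 ⊆ U) (hlo : 0 < lo) (hhi : 0 ≤ hi) (hlam : 0 ≤ lam)
    (h1 : ∀ ζ ∈ Metric.ball ζ0 R1, lo ≤ (pbg K Φ ζ).det.re)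
    (h2 : ∀ ζ ∈ Metric.ball ζ0 R2, (pbg K Φ ζ).det.re ≤ hi) {B : Set M}
    (hB1 : Φ '' Metric.ball ζ0 R1 ⊆ B) (hB2 : B ⊆ Φ '' Metric.ball ζ0 R2) {f : M → ℝ≥0∞}
    (hf : Measurable f)
    (hM : ∫⁻ x in B, f x ∂(vm (volK K)) ≤ ENNReal.ofReal lam * vm (volK K) B) :
    ∫⁻ ζ in Metric.ball ζ0 R1, f (Φ ζ) ≤ ENNReal.ofReal (KF N R1 R2 lo hi lam) := by
  have hb : MeasurableSet (Metric.ball ζ0 R1) := Metric.isOpen_ball.measurableSet
  have hV : volume (Metric.ball (0 : Fin N → ℂ) R2) ≠ ⊤ := measure_ball_lt_top.ne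
  have e1 : kap N * (ENNReal.ofReal lo * ∫⁻ ζ in Metric.ball ζ0 R1, f (Φ ζ)) ≤
      kap N * ((ks N R1).card * (ENNReal.ofReal lam * ((ks N R2).card *
        (ENNReal.ofReal hi * volume (Metric.ball (0 : Fin N → ℂ) R2))))) := by
    calc kap N * (ENNReal.ofReal lo * ∫⁻ ζ in Metric.ball ζ0 R1, f (Φ ζ))
        = kap N * ∫⁻ ζ in Metric.ball ζ0 R1, ENNReal.ofReal lo * f (Φ ζ) := by
          rw [lintegral_const_mul' _ _ ENNReal.ofReal_ne_top]
      _ ≤ kap N * ∫⁻ ζ in Metric.ball ζ0 R1, ENNReal.ofReal (pbg K Φ ζ).det.re * f (Φ ζ) := by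
          exact mul_le_mul' le_rfl (setLIntegral_mono' hb fun ζ hζ =>
            mul_le_mul' (ENNReal.ofReal_le_ofReal (h1 ζ hζ)) le_rfl)
      _ ≤ (ks N R1).card * ∫⁻ x in Φ '' Metric.ball ζ0 R1, f x ∂(vm (volK K)) :=
          lint_ball_le K hU hI hR1 hf
      _ ≤ (ks N R1).card * (ENNReal.ofReal lam * vm (volK K) (Φ '' Metric.ball ζ0 R2)) := by
          gcongr
          refine (lintegral_mono_set hB1).trans (hM.trans ?_)
          gcongr
      _ ≤ (ks N R1).card * (ENNReal.ofReal lam * ((ks N R2).card * (kap N *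
            (ENNReal.ofReal hi * volume (Metric.ball (0 : Fin N → ℂ) R2))))) := by
          gcongr
          exact vm_image_le K hU hI hR2 h2
      _ = _ := by ring
  have e2 := (ENNReal.mul_le_mul_iff_right (kap_ne_zero N) (kap_ne_top N)).1 e1
  have e3 : ∫⁻ ζ in Metric.ball ζ0 R1, f (Φ ζ) ≤ (ENNReal.ofReal lo)⁻¹ *
      ((ks N R1).card * (ENNReal.ofReal lam * ((ks N R2).card *
        (ENNReal.ofReal hi * volume (Metric.ball (0 : Fin N → ℂ) R2))))) := by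
    have h0 : ENNReal.ofReal lo ≠ 0 := by simpa using hlo
    calc ∫⁻ ζ in Metric.ball ζ0 R1, f (Φ ζ) = (ENNReal.ofReal lo)⁻¹ *
          (ENNReal.ofReal lo * ∫⁻ ζ in Metric.ball ζ0 R1, f (Φ ζ)) := by
          rw [← mul_assoc, ENNReal.inv_mul_cancel h0 ENNReal.ofReal_ne_top, one_mul]
      _ ≤ _ := by gcongr
  refine e3.trans (le_of_eq ?_)
  unfold KF
  rw [ENNReal.ofReal_mul (by positivity), ENNReal.ofReal_mul (by positivity),
    ENNReal.ofReal_mul (by positivity), ENNReal.ofReal_mul hlam, ENNReal.ofReal_toReal hV,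
    ENNReal.ofReal_div_of_pos hlo, ENNReal.ofReal_natCast, ENNReal.ofReal_natCast, div_eq_mul_inv]
  ring

/-- every point of `Φ(strip)` is the image of a point of a ball -/
theorem strip_sub {F : M → Fin N → ℂ} {d : ℕ} {ζ0 : Fin N → ℂ} {r r2 : ℝ}
    {Lam : AddSubgroup (Fin N → ℂ)} {Φ : (Fin N → ℂ) → M} (h : Strip A F d ζ0 r Lam Φ)
    (hr0 : 0 ≤ r2) (hr : r2 ≤ r) :
    Φ '' strip ζ0 r2 ⊆ Φ '' (Metric.ball ζ0 (r2 + 2 * Real.pi * d.factorial + 1) ∩
      strip ζ0 r2) := by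
  rintro _ ⟨ζ, hζ, rfl⟩
  have hd : (0 : ℝ) < d.factorial := by exact_mod_cast Nat.factorial_pos d
  set P : ℝ := 2 * Real.pi * d.factorial with hP
  have hP0 : 0 < P := by positivity
  set k : Fin N → ℤ := fun j => ⌊((ζ j).im - (ζ0 j).im) / P⌋ with hk
  set l : Fin N → ℂ := fun j => (k j : ℂ) * (2 * Real.pi * Complex.I) with hl
  have hll : l ∈ lat (Fin N) := fun j => ⟨k j, rfl⟩
  have hLam := h.factorial_mem l hll
  have hre : ∀ j, ((d.factorial • l) j).re = 0 := by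
    intro j
    simp [hl]
  have him : ∀ j, ((d.factorial • l) j).im = P * k j := by
    intro j
    simp [hl, hP]
    ring
  set ζ' : Fin N → ℂ := ζ - d.factorial • l with hζ'
  have hs' : ζ' ∈ strip ζ0 r2 := by
    intro j
    have := hζ j
    rw [hζ', Pi.sub_apply, Complex.sub_re, hre j, sub_zero]
    exact this
  have hmono : strip ζ0 r2 ⊆ strip ζ0 r := fun z hz j => (hz j).trans_le hr
  refine ⟨ζ', ⟨?_, hs'⟩, ?_⟩
  · rw [Metric.mem_ball, dist_pi_lt_iff]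
    · intro j
      rw [dist_eq_norm]
      refine lt_of_le_of_lt (Complex.norm_le_abs_re_add_abs_im _) ?_
      have e1 : |(ζ' j - ζ0 j).re| < r2 := by
        rw [Complex.sub_re]; exact hs' j
      have e2 : |(ζ' j - ζ0 j).im| ≤ P := by
        rw [Complex.sub_im, hζ', Pi.sub_apply, Complex.sub_im, him j]
        have f1 : (k j : ℝ) ≤ ((ζ j).im - (ζ0 j).im) / P := Int.floor_le _
        have f2 : ((ζ j).im - (ζ0 j).im) / P < k j + 1 := Int.lt_floor_add_one _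
        rw [le_div_iff₀ hP0] at f1
        rw [div_lt_iff₀ hP0] at f2
        rw [abs_le]
        constructor <;> nlinarith
      linarith
    · positivity
  · refine (h.eq_iff ζ' (hmono hs') ζ (hmono hζ)).2 ?_
    rw [hζ']
    have : ζ - d.factorial • l - ζ = -(d.factorial • l) := by abel
    rw [this]
    exact Lam.neg_mem hLam

end

end Crest.Agent.R281.Fcl_14
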