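import Crest.Agent.R273.StokesV_332

/-!
# R281 (S0424), leaf S6-FIB, part 1 (helper425): integrals over the first coordinates

* `jr t w`   : joins fibre coordinates `t : RI d → ℝ` and base coordinates `w : RI m → ℝ`;
* `mp_jr`    : it preserves the volume; `integral_jr`: Fubini;
* `par g w := ∫ t, g (jr t w)`: smooth for `g` smooth with compact support (`contDiff_par`),
  derivative under the integral (`fderiv_par`), `par_fderiv_fi` : derivatives in the fibre
  directions integrate to zero.
-/

set_option autoImplicit false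
set_option linter.unusedSectionVars false

open Set Filter Topology Complex MeasureTheory
open scoped ContDiff ComplexConjugate

namespace Crest.Agent.R281.Fib1_425

open Crest.Agent.R275.Geo

noncomputable section

variable {d m : ℕ}

/-- fibre coordinate `p` as a coordinate of the total space -/
def fi (m : ℕ) (p : RI d) : RI (d + m) := (Fin.castAdd m p.1, p.2)

/-- base coordinate `p` as a coordinate of the total space -/
def bi (d : ℕ) (p : RI m) : RI (d + m) := (Fin.natAdd d p.1, p.2)

/-- fibre coordinates + base coordinates = coordinates of the total space -/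
def eR (d m : ℕ) : RI d ⊕ RI m ≃ RI (d + m) :=
  (Equiv.sumProdDistrib (Fin d) (Fin m) (Fin 2)).symm.trans
    (finSumFinEquiv.prodCongr (Equiv.refl (Fin 2)))

@[simp] theorem eR_inl (p : RI d) : eR d m (Sum.inl p) = fi m p := rfl

@[simp] theorem eR_inr (p : RI m) : eR d m (Sum.inr p) = bi d p := rfl

/-- join fibre and base real coordinates -/
def jr (t : RI d → ℝ) (w : RI m → ℝ) : RI (d + m) → ℝ := fun p => Sum.elim t w ((eR d m).symm p)

@[simp] theorem jr_fi (t : RI d → ℝ) (w : RI m → ℝ) (p : RI d) : jr t w (fi m p) = t p := by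
  unfold jr
  rw [← eR_inl, Equiv.symm_apply_apply, Sum.elim_inl]

@[simp] theorem jr_bi (t : RI d → ℝ) (w : RI m → ℝ) (p : RI m) : jr t w (bi d p) = w p := by
  unfold jr
  rw [← eR_inr, Equiv.symm_apply_apply, Sum.elim_inr]

theorem exists_fi_or_bi (p : RI (d + m)) : (∃ q : RI d, p = fi m q) ∨ ∃ q : RI m, p = bi d q := by
  obtain ⟨s, rfl⟩ := (eR d m).surjective p
  rcases s with q | q
  · exact Or.inl ⟨q, rfl⟩
  · exact Or.inr ⟨q, rfl⟩

theorem jr_eq (x : RI (d + m) → ℝ) :
    jr (fun p => x (fi m p)) (fun p => x (bi d p)) = x := by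
  funext p
  rcases exists_fi_or_bi p with ⟨q, rfl⟩ | ⟨q, rfl⟩
  · rw [jr_fi]
  · rw [jr_bi]

/-- `jr` as a continuous linear equivalence -/
def jrE (d m : ℕ) : ((RI d → ℝ) × (RI m → ℝ)) ≃L[ℝ] (RI (d + m) → ℝ) :=
  LinearEquiv.toContinuousLinearEquiv
    { toFun := fun q => jr q.1 q.2
      invFun := fun x => (fun p => x (fi m p), fun p => x (bi d p))
      left_inv := fun q => by simp
      right_inv := fun x => jr_eq x
      map_add' := fun q q' => by
        funext p
        rcases exists_fi_or_bi p with ⟨s, rfl⟩ | ⟨s, rfl⟩ <;> simp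
      map_smul' := fun c q => by
        funext p
        rcases exists_fi_or_bi p with ⟨s, rfl⟩ | ⟨s, rfl⟩ <;> simp }

@[simp] theorem jrE_apply (q : (RI d → ℝ) × (RI m → ℝ)) : jrE d m q = jr q.1 q.2 := rfl

theorem contDiff_jr : ContDiff ℝ ∞ fun q : (RI d → ℝ) × (RI m → ℝ) => jr q.1 q.2 :=
  (jrE d m).contDiff

theorem continuous_jr : Continuous fun q : (RI d → ℝ) × (RI m → ℝ) => jr q.1 q.2 :=
  (jrE d m).continuous

/-- `jr` preserves the volume -/
theorem mp_jr : MeasurePreserving (fun q : (RI d → ℝ) × (RI m → ℝ) => jr q.1 q.2) volume volume := by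
  have h1 := (volume_measurePreserving_sumPiEquivProdPi (fun _ : RI d ⊕ RI m => ℝ)).symm
    (MeasurableEquiv.sumPiEquivProdPi (fun _ : RI d ⊕ RI m => ℝ))
  have h2 := volume_measurePreserving_piCongrLeft (fun _ : RI (d + m) => ℝ) (eR d m)
  have h3 := h2.comp h1
  have h4 : (fun q : (RI d → ℝ) × (RI m → ℝ) => jr q.1 q.2) =
      (MeasurableEquiv.piCongrLeft (fun _ : RI (d + m) => ℝ) (eR d m)) ∘
        (MeasurableEquiv.sumPiEquivProdPi (fun _ : RI d ⊕ RI m => ℝ)).symm := by
    funext q
    funext p
    obtain ⟨s, rfl⟩ := (eR d m).surjective p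
    simp only [Function.comp_apply]
    rw [MeasurableEquiv.coe_piCongrLeft, Equiv.piCongrLeft_apply_apply]
    rcases s with s | s
    · rw [eR_inl, jr_fi]; rfl
    · rw [eR_inr, jr_bi]; rfl
  rw [h4]
  exact h3

/-- Fubini -/
theorem integral_jr {g : (RI (d + m) → ℝ) → ℂ} (hg : Integrable g) :
    ∫ x, g x = ∫ w : RI m → ℝ, ∫ t : RI d → ℝ, g (jr t w) := by
  have hemb : MeasurableEmbedding (fun q : (RI d → ℝ) × (RI m → ℝ) => jr q.1 q.2) :=
    (jrE d m).toHomeomorph.measurableEmbedding
  have h1 : Integrable (fun q : (RI d → ℝ) × (RI m → ℝ) => g (jr q.1 q.2)) :=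
    (mp_jr.integrable_comp_emb hemb).2 hg
  rw [← mp_jr.integral_comp hemb g]
  exact integral_prod_symm _ h1

theorem integrable_par_aux {g : (RI (d + m) → ℝ) → ℂ} (hg : Integrable g) :
    Integrable (fun w : RI m → ℝ => ∫ t : RI d → ℝ, g (jr t w)) := by
  have hemb : MeasurableEmbedding (fun q : (RI d → ℝ) × (RI m → ℝ) => jr q.1 q.2) :=
    (jrE d m).toHomeomorph.measurableEmbedding
  have h1 : Integrable (fun q : (RI d → ℝ) × (RI m → ℝ) => g (jr q.1 q.2)) :=
    (mp_jr.integrable_comp_emb hemb).2 hg
  exact h1.integral_prod_right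

/-! ### the integral over the fibre coordinates -/

/-- integral over the fibre coordinates -/
def par (g : (RI (d + m) → ℝ) → ℂ) (w : RI m → ℝ) : ℂ := ∫ t : RI d → ℝ, g (jr t w)

/-- the fibre part of the support -/
def ksupp (g : (RI (d + m) → ℝ) → ℂ) : Set (RI d → ℝ) :=
  (fun x p => x (fi m p)) '' tsupport g

theorem ksupp_compact {g : (RI (d + m) → ℝ) → ℂ} (hg : HasCompactSupport g) :
    IsCompact (ksupp g) := by
  refine IsCompact.image hg ?_
  exact continuous_pi fun p => continuous_apply _

theorem eq_zero_of_notMem_ksupp {g : (RI (d + m) → ℝ) → ℂ} {t : RI d → ℝ} (ht : t ∉ ksupp g)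
    (w : RI m → ℝ) : g (jr t w) = 0 := by
  refine image_eq_zero_of_notMem_tsupport fun h => ht ⟨jr t w, h, ?_⟩
  funext p
  exact jr_fi t w p

theorem par_eq_conv (g : (RI (d + m) → ℝ) → ℂ) (w : RI m → ℝ) :
    par g w = (MeasureTheory.convolution (fun _ : RI d → ℝ => (1 : ℝ))
      (fun t => g (jr (-t) w)) (ContinuousLinearMap.lsmul ℝ ℝ) volume) 0 := by
  unfold par convolution
  simp

variable {g : (RI (d + m) → ℝ) → ℂ}

/-- the integral over the fibre coordinates is smooth -/
theorem contDiff_par (hg : ContDiff ℝ ∞ g) (hc : HasCompactSupport g) : ContDiff ℝ ∞ (par g) := by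
  have h1 := contDiffOn_convolution_right_with_param_comp (𝕜 := ℝ) (n := ⊤) (μ := volume)
    (ContinuousLinearMap.lsmul ℝ ℝ : ℝ →L[ℝ] ℂ →L[ℝ] ℂ) (s := (univ : Set (RI m → ℝ)))
    (v := fun _ => (0 : RI d → ℝ)) contDiffOn_const (f := fun _ : RI d → ℝ => (1 : ℝ))
    (g := fun w t => g (jr (-t) w)) (k := (fun t => -t) '' ksupp g) isOpen_univ
    ((ksupp_compact hc).image continuous_neg)
    (fun w t _ ht => eq_zero_of_notMem_ksupp (fun h => ht ⟨-t, h, neg_neg t⟩) w)
    (locallyIntegrable_const 1) ?_
  · rw [contDiffOn_univ] at h1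
    have h2 : par g = _ := funext fun w => par_eq_conv g w
    rw [h2]
    exact h1
  · refine (hg.comp ?_).contDiffOn
    exact contDiff_jr.comp (contDiff_snd.neg.prodMk contDiff_fst)

theorem hasCompactSupport_par (hc : HasCompactSupport g) : HasCompactSupport (par g) := by
  refine HasCompactSupport.intro (K := (fun (x : RI (d + m) → ℝ) (p : RI m) => x (bi d p)) '' tsupport g)
    (IsCompact.image hc (continuous_pi fun p => continuous_apply _)) fun w hw => ?_
  unfold par
  have : (fun t : RI d → ℝ => g (jr t w)) = fun _ => 0 := by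
    funext t
    refine image_eq_zero_of_notMem_tsupport fun h => hw ⟨jr t w, h, ?_⟩
    funext p
    exact jr_bi t w p
  rw [this, integral_zero]

/-- the directional derivative of `g` in the direction `v` -/
theorem smooth_dir (hg : ContDiff ℝ ∞ g) (v : RI (d + m) → ℝ) :
    ContDiff ℝ ∞ (fun x => fderiv ℝ g x v) :=
  (hg.fderiv_right (m := ∞) (by simp)).clm_apply contDiff_const

theorem hasCompactSupport_dir (hc : HasCompactSupport g) (v : RI (d + m) → ℝ) :
    HasCompactSupport (fun x => fderiv ℝ g x v) := by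
  have h := hc.fderiv (𝕜 := ℝ)
  exact h.comp_left (g := fun L : (RI (d + m) → ℝ) →L[ℝ] ℂ => L v) (by simp)

/-- derivative under the integral sign -/
theorem fderiv_par (hg : ContDiff ℝ ∞ g) (hc : HasCompactSupport g) (w v : RI m → ℝ) :
    fderiv ℝ (par g) w v = par (fun x => fderiv ℝ g x (jr 0 v)) w := by
  have hcont : Continuous (fderiv ℝ g) := (hg.continuous_fderiv (by simp))
  obtain ⟨C, hC⟩ : ∃ C, ∀ x, ‖fderiv ℝ g x‖ ≤ C :=
    hcont.bounded_above_of_compact_support (hc.fderiv (𝕜 := ℝ))
  -- the bound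
  have hK := ksupp_compact hc
  let L : (RI m → ℝ) →L[ℝ] (RI (d + m) → ℝ) := (jrE d m).toContinuousLinearMap.comp
    (ContinuousLinearMap.inr ℝ (RI d → ℝ) (RI m → ℝ))
  have hL : ∀ v, L v = jr 0 v := fun v => rfl
  have key := hasFDerivAt_integral_of_dominated_of_fderiv_le (𝕜 := ℝ) (μ := volume)
    (F := fun (w : RI m → ℝ) (t : RI d → ℝ) => g (jr t w))
    (F' := fun w t => (fderiv ℝ g (jr t w)).comp L) (x₀ := w) (s := univ)
    (bound := (ksupp g).indicator fun _ => C * ‖L‖) univ_mem
    (Eventually.of_forall fun w' => ?_) ?_ ?_ ?_ ?_ ?_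
  · have h2 : fderiv ℝ (par g) w = ∫ t, (fderiv ℝ g (jr t w)).comp L := key.fderiv
    rw [h2]
    have h3 : Integrable (fun t : RI d → ℝ => (fderiv ℝ g (jr t w)).comp L) := by
      refine Continuous.integrable_of_hasCompactSupport ?_ ?_
      · exact (hcont.comp (continuous_jr.comp (continuous_id.prodMk continuous_const))).clm_comp
          continuous_const
      · refine HasCompactSupport.intro hK fun t ht => ?_
        have : fderiv ℝ g (jr t w) = 0 := by
          refine image_eq_zero_of_notMem_tsupport (f := fderiv ℝ g) fun h => ht ?_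
          refine ⟨jr t w, tsupport_fderiv_subset ℝ h, ?_⟩
          funext p
          exact jr_fi t w p
        rw [this, ContinuousLinearMap.zero_comp]
    rw [ContinuousLinearMap.integral_apply h3]
    rfl
  · exact (hg.continuous.comp (continuous_jr.comp
      (continuous_id.prodMk continuous_const))).aestronglyMeasurable
  · refine Continuous.integrable_of_hasCompactSupport ?_ ?_
    · exact hg.continuous.comp (continuous_jr.comp (continuous_id.prodMk continuous_const))
    · exact HasCompactSupport.intro hK fun t ht => eq_zero_of_notMem_ksupp ht w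
  · exact ((hcont.comp (continuous_jr.comp (continuous_id.prodMk continuous_const))).clm_comp
      continuous_const).aestronglyMeasurable
  · refine Eventually.of_forall fun t w' _ => ?_
    by_cases ht : t ∈ ksupp g
    · rw [indicator_of_mem ht]
      exact (ContinuousLinearMap.opNorm_comp_le _ _).trans
        (mul_le_mul_of_nonneg_right (hC _) (norm_nonneg _))
    · rw [indicator_of_notMem ht]
      have : fderiv ℝ g (jr t w') = 0 := by
        refine image_eq_zero_of_notMem_tsupport (f := fderiv ℝ g) fun h => ht ?_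
        refine ⟨jr t w', tsupport_fderiv_subset ℝ h, ?_⟩
        funext p
        exact jr_fi t w' p
      rw [this, ContinuousLinearMap.zero_comp, norm_zero]
  · exact (integrable_indicator_iff hK.measurableSet).2
      (integrableOn_const hK.measure_lt_top.ne)
  · refine Eventually.of_forall fun t w' _ => ?_
    have h1 : HasFDerivAt g (fderiv ℝ g (jr t w')) (jr t w') :=
      (hg.differentiable (by simp) _).hasFDerivAt
    have h2 : HasFDerivAt (fun w' : RI m → ℝ => jr t w') L w' := by
      have h3 : (fun w' : RI m → ℝ => jr t w') = fun w' => L w' + jr t 0 := by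
        funext w'
        rw [hL]
        funext p
        rcases exists_fi_or_bi p with ⟨s, rfl⟩ | ⟨s, rfl⟩ <;> simp
      rw [h3]
      exact L.hasFDerivAt.add_const _
    exact h1.comp w' h2

/-- derivatives in the fibre directions integrate to zero -/
theorem par_fderiv_fi (hg : ContDiff ℝ ∞ g) (hc : HasCompactSupport g) (u : RI d → ℝ)
    (w : RI m → ℝ) : par (fun x => fderiv ℝ g x (jr u 0)) w = 0 := by
  unfold par
  let h : (RI d → ℝ) → ℂ := fun t => g (jr t w)
  let L : (RI d → ℝ) →L[ℝ] (RI (d + m) → ℝ) := (jrE d m).toContinuousLinearMap.comp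
    (ContinuousLinearMap.inl ℝ (RI d → ℝ) (RI m → ℝ))
  have hh : ContDiff ℝ ∞ h := hg.comp (contDiff_jr.comp (contDiff_id.prodMk contDiff_const))
  have hhc : HasCompactSupport h :=
    HasCompactSupport.intro (ksupp_compact hc) fun t ht => eq_zero_of_notMem_ksupp ht w
  have h1 : ∀ t, fderiv ℝ g (jr t w) (jr u 0) = fderiv ℝ h t u := by
    intro t
    have h2 : HasFDerivAt g (fderiv ℝ g (jr t w)) (jr t w) :=
      (hg.differentiable (by simp) _).hasFDerivAt
    have h3 : HasFDerivAt (fun t : RI d → ℝ => jr t w) L t := by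
      have h4 : (fun t : RI d → ℝ => jr t w) = fun t => L t + jr 0 w := by
        funext t
        show _ = jr t 0 + _
        funext p
        rcases exists_fi_or_bi p with ⟨s, rfl⟩ | ⟨s, rfl⟩ <;> simp
      rw [h4]
      exact L.hasFDerivAt.add_const _
    have h5 : HasFDerivAt h ((fderiv ℝ g (jr t w)).comp L) t := h2.comp t h3
    rw [h5.fderiv]
    rfl
  simp_rw [h1]
  have h7 : Integrable (fun t => fderiv ℝ h t u) := by
    refine Continuous.integrable_of_hasCompactSupport ?_ ?_
    · exact (hh.continuous_fderiv (by simp)).clm_apply continuous_const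
    · have h := hhc.fderiv (𝕜 := ℝ)
      exact h.comp_left (g := fun L : (RI d → ℝ) →L[ℝ] ℂ => L u) (by simp)
  have h8 : Integrable h := hh.continuous.integrable_of_hasCompactSupport hhc
  have h6 := integral_mul_fderiv_eq_neg_fderiv_mul_of_integrable
    (μ := (volume : Measure (RI d → ℝ))) (𝕜 := ℂ) (v := u) (f := fun _ => (1 : ℂ)) (g := h)
    (by simp) (by simpa using h7) (by simpa using h8)
    (fun _ _ => differentiableAt_const _) (fun t _ => hh.differentiable (by simp) t)
  simpa using h6

end

end Crest.Agent.R281.Fib1_425
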