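import Crest.Agent.R281.Fib1_425

/-!
# R281 (S0424), leaf S6-FIB, part 2 (helper425): the push-forward `f_*`

`B : Atl (d + m) V`, `P : Part B`, `y : V → Cn m` the projection, adapted charts (the last `m`
coordinates are `y`), `y` proper over the open set `U` (structure `Prj`).

* `push P η w := ∑ᶠ i, ∫ t : RI d → ℝ, rd B i (ψ_i η_i) (jr t (rc w))` : integral of the density
  `η` over the fibre `y⁻¹(w)`;
* `push_eq_sum`, `push_congr`, `push_add`, `push_smul`, `push_mul_base`, `push_conj`;
* `contDiffOn_push` : `push P η` is smooth on `U`;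
* `intD_push` : `intD P (χ(y) η) = ∫ w, χ(w) push P η w` (Fubini);
* `push_eq_of_dual` : the duality principle, `push_indep` : independence of the partition.
-/

set_option autoImplicit false
set_option linter.unusedSectionVars false

open Set Filter Topology Complex MeasureTheory
open scoped ContDiff ComplexConjugate

namespace Crest.Agent.R281.Fib2_425

open Crest.Agent.R275.Geo Crest.Agent.R275.Tor812 Crest.Agent.R275.TorS666
open Crest.Agent.R275.C1d194 Crest.Agent.R275.Pai323 Crest.Agent.R275.OmT75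
open Crest.Agent.R275.SerG398 (lint dens DPair)
open Crest.Agent.R273.StokesV_332 Crest.Agent.R281.Fib1_425

noncomputable section

variable {d m : ℕ} {V : Type} [TopologicalSpace V] {B : Atl (d + m) V} {y : V → Cn m}
  {U : Set (Cn m)}

/-- the last `m` coordinates -/
def bs (d : ℕ) : Cn (d + m) →L[ℂ] Cn m :=
  LinearMap.toContinuousLinearMap
    { toFun := fun z => WithLp.toLp 2 (fun a => z (Fin.natAdd d a))
      map_add' := fun z z' => by ext a; rfl
      map_smul' := fun c z => by ext a; rfl }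

@[simp] theorem bs_apply (z : Cn (d + m)) (a : Fin m) : bs d z a = z (Fin.natAdd d a) := rfl

theorem bs_cc (t : RI d → ℝ) (w : RI m → ℝ) : bs d (cc (jr t w)) = cc w := by
  ext a
  have h0 := jr_bi t w (a, 0)
  have h1 := jr_bi t w (a, 1)
  rw [bs_apply, cc_apply, cc_apply, ← h0, ← h1]
  rfl

/-- `y` is the projection onto the last `m` coordinates, proper over the open set `U` -/
structure Prj (B : Atl (d + m) V) (y : V → Cn m) (U : Set (Cn m)) : Prop where
  last : ∀ k, ∀ v ∈ (B.e k).source, ∀ a, B.e k v (Fin.natAdd d a) = y v a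
  mem : ∀ v, y v ∈ U
  proper : ∀ C ⊆ U, IsCompact C → IsCompact (y ⁻¹' C)
  opn : IsOpen U

namespace Prj

variable (h : Prj B y U)

include h

theorem bs_e {k : B.ι} {v : V} (hv : v ∈ (B.e k).source) : bs d (B.e k v) = y v := by
  ext a
  exact h.last k v hv a

theorem y_symm {k : B.ι} {z : Cn (d + m)} (hz : z ∈ (B.e k).target) :
    y ((B.e k).symm z) = bs d z := by
  rw [← h.bs_e ((B.e k).map_target hz), (B.e k).right_inv hz]

theorem y_jr {k : B.ι} {t : RI d → ℝ} {w : RI m → ℝ} (hx : jr t w ∈ Ui B k) :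
    y ((B.e k).symm (cc (jr t w))) = cc w := by
  rw [h.y_symm hx, bs_cc]

theorem cont : Continuous y := by
  rw [continuous_iff_continuousAt]
  intro v
  obtain ⟨k, hk⟩ := B.cover v
  have h1 : ContinuousAt (fun v => bs d (B.e k v)) v :=
    (bs d (m := m)).continuous.continuousAt.comp ((B.e k).continuousAt hk)
  refine h1.congr ?_
  filter_upwards [(B.e k).open_source.mem_nhds hk] with v' hv'
  exact h.bs_e hv'

theorem sm {W : Type*} [NormedAddCommGroup W] [NormedSpace ℝ W] {φ : Cn m → W}
    (hφ : ContDiffOn ℝ ∞ φ U) : B.Sm (fun v => φ (y v)) := by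
  intro k
  have h1 : ContDiffOn ℝ ∞ (fun z => φ (bs d z)) (B.e k).target := by
    refine hφ.comp ((bs d (m := m)).restrictScalars ℝ).contDiff.contDiffOn fun z hz => ?_
    show bs d z ∈ U
    rw [← h.y_symm hz]
    exact h.mem _
  exact h1.congr fun z hz => congrArg φ (h.y_symm hz)

end Prj

/-! ### the push-forward -/

/-- one term of the push-forward -/
def tm (P : Part B) (η : B.ι → V → ℂ) (i : B.ι) (w : Cn m) : ℂ :=
  par (rd B i (fun x => (P.ψ i x : ℂ) * η i x)) (rc w)

/-- **the push-forward** `f_* η` : the integral of `η` over the fibre of `w` -/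
def push (P : Part B) (η : B.ι → V → ℂ) (w : Cn m) : ℂ := ∑ᶠ i, tm P η i w

variable {P P' : Part B} {η θ : B.ι → V → ℂ} {C : Set (Cn m)} {w : Cn m}

theorem tm_congr {i : B.ι} (h : Prj B y U)
    (hη : ∀ x ∈ (B.e i).source, y x = w → η i x = θ i x) : tm P η i w = tm P θ i w := by
  unfold tm par
  congr 1
  funext t
  by_cases hx : jr t (rc w) ∈ Ui B i
  · rw [rd_of_mem hx, rd_of_mem hx, hη _ ((B.e i).map_target hx)]
    rw [h.y_jr hx, cc_rc]
  · rw [rd_off hx, rd_off hx]

theorem tm_zero_of {i : B.ι} (h : Prj B y U)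
    (hη : ∀ x ∈ (B.e i).source, y x = w → (P.ψ i x : ℂ) * η i x = 0) : tm P η i w = 0 := by
  unfold tm par
  have : (fun t : RI d → ℝ => rd B i (fun x => (P.ψ i x : ℂ) * η i x) (jr t (rc w))) =
      fun _ => 0 := by
    funext t
    by_cases hx : jr t (rc w) ∈ Ui B i
    · rw [rd_of_mem hx]
      refine hη _ ((B.e i).map_target hx) ?_
      rw [h.y_jr hx, cc_rc]
    · rw [rd_off hx]
  rw [this, integral_zero]

theorem tm_off {i : B.ι} (h : Prj B y U) {K : Set V} (hK : IsCompact K) {F : Finset B.ι}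
    (hF : Fn P hK ⊆ F) (hw : ∀ x, y x = w → x ∈ K) (hi : i ∉ F) : tm P η i w = 0 :=
  tm_zero_of h fun x _ hx => by rw [psi_zero_of_notMem P hK hF hi (hw x hx)]; simp

/-- finite sum over compact subsets of the base -/
theorem push_eq_sum (h : Prj B y U) {K : Set V} (hK : IsCompact K) {F : Finset B.ι}
    (hF : Fn P hK ⊆ F) (hw : ∀ x, y x = w → x ∈ K) : push P η w = ∑ i ∈ F, tm P η i w := by
  refine finsum_eq_sum_of_support_subset _ ?_
  intro i hi
  by_contra hi'
  exact hi (tm_off h hK hF hw hi')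

/-- the charts meeting the fibres over `C` -/
def Fc (h : Prj B y U) (P : Part B) (hC : IsCompact C) (hCU : C ⊆ U) : Finset B.ι :=
  Fn P (h.proper C hCU hC)

theorem push_sum (h : Prj B y U) (P : Part B) (hC : IsCompact C) (hCU : C ⊆ U)
    (hw : w ∈ C) : push P η w = ∑ i ∈ Fc h P hC hCU, tm P η i w :=
  push_eq_sum h (h.proper C hCU hC) (Finset.Subset.refl _) fun x hx => by
    show y x ∈ C
    rw [hx]; exact hw

theorem push_pt (h : Prj B y U) (P : Part B) (hw : w ∈ U) :
    push P η w = ∑ i ∈ Fc h P (isCompact_singleton (x := w)) (singleton_subset_iff.2 hw),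
      tm P η i w := push_sum h P _ _ (mem_singleton w)

theorem push_congr (h : Prj B y U)
    (hη : ∀ i, ∀ x ∈ (B.e i).source, y x = w → η i x = θ i x) : push P η w = push P θ w :=
  finsum_congr fun i => tm_congr h (hη i)

theorem push_zero (h : Prj B y U) (hη : ∀ i, ∀ x ∈ (B.e i).source, y x = w → η i x = 0) :
    push P η w = 0 := by
  unfold push
  rw [finsum_congr fun i => tm_zero_of (w := w) h fun x hx hy => by rw [hη i x hx hy, mul_zero],
    finsum_zero]

theorem tm_smul (c : ℂ) (i : B.ι) : tm P (fun i x => c * η i x) i w = c * tm P η i w := by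
  unfold tm par
  rw [← integral_const_mul]
  congr 1
  funext t
  by_cases hx : jr t (rc w) ∈ Ui B i
  · rw [rd_of_mem hx, rd_of_mem hx]; ring
  · rw [rd_off hx, rd_off hx, mul_zero]

theorem push_smul (h : Prj B y U) (c : ℂ) (hw : w ∈ U) :
    push P (fun i x => c * η i x) w = c * push P η w := by
  rw [push_pt h P hw, push_pt h P hw, Finset.mul_sum]
  exact Finset.sum_congr rfl fun i _ => tm_smul c i

/-- functions of the base come out -/
theorem push_mul_base (h : Prj B y U) (φ : Cn m → ℂ) (hw : w ∈ U) :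
    push P (fun i x => φ (y x) * η i x) w = φ w * push P η w := by
  rw [← push_smul h (φ w) hw]
  exact push_congr h fun i x _ hx => by rw [hx]

theorem push_conj (h : Prj B y U) (hw : w ∈ U) :
    push P (fun i x => conj (η i x)) w = conj (push P η w) := by
  rw [push_pt h P hw, push_pt h P hw, map_sum]
  refine Finset.sum_congr rfl fun i _ => ?_
  unfold tm par
  rw [← integral_conj]
  congr 1
  funext t
  by_cases hx : jr t (rc w) ∈ Ui B i
  · rw [rd_of_mem hx, rd_of_mem hx, map_mul, Complex.conj_ofReal]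
  · rw [rd_off hx, rd_off hx, map_zero]

section t2

variable [T2Space V]

theorem cc_psi (P : Part B) {i : B.ι} {f : V → ℂ} (hf : B.SmAt i f) :
    CC B i (cut B i (fun x => (P.ψ i x : ℂ) * f x)) :=
  cc_cut (ContDiffOn.mul (smAt_ofReal (P.ψ_sm i i)) hf) (P.χ_cpt i) (P.χ_sub i)
    fun x _ hx => by rw [psi_zero_off P i hx]; simp

theorem rd_smooth (P : Part B) {i : B.ι} {f : V → ℂ} (hf : B.SmAt i f) :
    ContDiff ℝ ∞ (rd B i (fun x => (P.ψ i x : ℂ) * f x)) := by
  rw [← rd_cut]
  exact (cc_psi P hf).isCC.smooth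

theorem rd_cs (P : Part B) {i : B.ι} {f : V → ℂ} (hf : B.SmAt i f) :
    HasCompactSupport (rd B i (fun x => (P.ψ i x : ℂ) * f x)) := by
  rw [← rd_cut]
  exact (cc_psi P hf).isCC.hasCompactSupport

theorem rd_integrable (P : Part B) {i : B.ι} {f : V → ℂ} (hf : B.SmAt i f) :
    Integrable (rd B i (fun x => (P.ψ i x : ℂ) * f x)) :=
  (rd_smooth P hf).continuous.integrable_of_hasCompactSupport (rd_cs P hf)

theorem fib_integrable {g : (RI (d + m) → ℝ) → ℂ} (hg : ContDiff ℝ ∞ g)
    (hc : HasCompactSupport g) (w : RI m → ℝ) : Integrable (fun t : RI d → ℝ => g (jr t w)) := by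
  refine Continuous.integrable_of_hasCompactSupport ?_ ?_
  · exact hg.continuous.comp (continuous_jr.comp (continuous_id.prodMk continuous_const))
  · exact HasCompactSupport.intro (ksupp_compact hc) fun t ht => eq_zero_of_notMem_ksupp ht w

theorem tm_add {i : B.ι} (hη : B.SmAt i (η i)) (hθ : B.SmAt i (θ i)) :
    tm P (fun i x => η i x + θ i x) i w = tm P η i w + tm P θ i w := by
  unfold tm par
  rw [← integral_add (fib_integrable (rd_smooth P hη) (rd_cs P hη) _)
    (fib_integrable (rd_smooth P hθ) (rd_cs P hθ) _)]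
  congr 1
  funext t
  by_cases hx : jr t (rc w) ∈ Ui B i
  · rw [rd_of_mem hx, rd_of_mem hx, rd_of_mem hx]; ring
  · rw [rd_off hx, rd_off hx, rd_off hx, add_zero]

theorem push_add (h : Prj B y U) (hη : ∀ i, B.SmAt i (η i)) (hθ : ∀ i, B.SmAt i (θ i))
    (hw : w ∈ U) : push P (fun i x => η i x + θ i x) w = push P η w + push P θ w := by
  rw [push_pt h P hw, push_pt h P hw, push_pt h P hw, ← Finset.sum_add_distrib]
  exact Finset.sum_congr rfl fun i _ => tm_add (hη i) (hθ i)

theorem push_neg (h : Prj B y U) (hw : w ∈ U) :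
    push P (fun i x => - η i x) w = - push P η w := by
  rw [← neg_one_mul, ← push_smul h (-1) hw]
  exact push_congr h fun i x _ _ => by ring

theorem push_sub (h : Prj B y U) (hη : ∀ i, B.SmAt i (η i)) (hθ : ∀ i, B.SmAt i (θ i))
    (hw : w ∈ U) : push P (fun i x => η i x - θ i x) w = push P η w - push P θ w := by
  have h1 := push_add (P := P) h hη (θ := fun i x => - θ i x) (fun i => ContDiffOn.neg (hθ i)) hw
  rw [push_neg h hw] at h1
  rw [sub_eq_add_neg, ← h1]
  exact push_congr h fun i x _ _ => by ring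

theorem push_finsum {σ : Type*} (h : Prj B y U) (s : Finset σ) {F : σ → B.ι → V → ℂ}
    (hF : ∀ t ∈ s, ∀ i, B.SmAt i (F t i)) (hw : w ∈ U) :
    push P (fun i x => ∑ t ∈ s, F t i x) w = ∑ t ∈ s, push P (F t) w := by
  classical
  induction s using Finset.induction_on with
  | empty => simpa using push_zero (P := P) (η := fun _ _ => 0) h fun _ _ _ _ => rfl
  | insert t s ht ih =>
    have h1 : ∀ t' ∈ s, ∀ i, B.SmAt i (F t' i) := fun t' h => hF t' (Finset.mem_insert_of_mem h)
    have h3 := push_add (P := P) h (η := F t) (θ := fun i x => ∑ t ∈ s, F t i x)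
      (hF t (Finset.mem_insert_self t s)) (fun i => ContDiffOn.sum fun t' h => h1 t' h i) hw
    rw [Finset.sum_insert ht, ← ih h1, ← h3]
    exact push_congr h fun i x _ _ => Finset.sum_insert ht

theorem contDiff_tm {i : B.ι} (hη : B.SmAt i (η i)) : ContDiff ℝ ∞ (tm P η i) := by
  have h1 : ContDiff ℝ ∞ (rc : Cn m → RI m → ℝ) := by
    rw [rc_eq]
    exact (rcL m).contDiff
  exact (contDiff_par (rd_smooth P hη) (rd_cs P hη)).comp h1

/-- **`f_* η` is smooth on `U`** -/
theorem contDiffOn_push (h : Prj B y U) (hη : ∀ i, B.SmAt i (η i)) :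
    ContDiffOn ℝ ∞ (push P η) U := by
  intro w hw
  obtain ⟨C, hC, hwC, hCU⟩ := exists_compact_subset h.opn hw
  have h1 : ContDiffAt ℝ ∞ (fun w => ∑ i ∈ Fc h P hC hCU, tm P η i w) w :=
    (ContDiff.sum fun i _ => contDiff_tm (hη i)).contDiffAt
  refine (h1.congr_of_eventuallyEq ?_).contDiffWithinAt
  filter_upwards [isOpen_interior.mem_nhds hwC] with w' hw'
  exact push_sum h P hC hCU (interior_subset hw')

theorem continuousOn_push (h : Prj B y U) (hη : ∀ i, B.SmAt i (η i)) :
    ContinuousOn (push P η) U := (contDiffOn_push h hη).continuousOn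

/-- **Fubini** -/
theorem intD_push (h : Prj B y U) (hη : ∀ i, B.SmAt i (η i)) {χ : Cn m → ℂ}
    (hχ : ContDiff ℝ ∞ χ) (hC : IsCompact C) (hCU : C ⊆ U) (h0 : ∀ w, w ∉ C → χ w = 0) :
    intD P (fun i x => χ (y x) * η i x) = ∫ w : RI m → ℝ, χ (cc w) * push P η (cc w) := by
  have hK := h.proper C hCU hC
  have hoff : OffK B (fun i x => χ (y x) * η i x) (y ⁻¹' C) := fun i x _ hx => by
    show χ (y x) * η i x = 0
    rw [h0 _ hx, zero_mul]
  rw [intD_eq_sum P hK (Finset.Subset.refl _) hoff]
  have hsm : ∀ i, B.SmAt i (fun x => χ (y x) * η i x) := fun i =>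
    ContDiffOn.mul (h.sm hχ.contDiffOn i) (hη i)
  have h1 : ∀ i, lint B i (fun x => (P.ψ i x : ℂ) * (χ (y x) * η i x)) =
      ∫ w : RI m → ℝ, χ (cc w) * par (rd B i (fun x => (P.ψ i x : ℂ) * η i x)) w := by
    intro i
    show ∫ x, rd B i (fun x => (P.ψ i x : ℂ) * (χ (y x) * η i x)) x = _
    rw [integral_jr (rd_integrable P (hsm i))]
    refine integral_congr_ae (Eventually.of_forall fun w => ?_)
    show ∫ t, _ = _ * ∫ t, _
    rw [← integral_const_mul]
    refine integral_congr_ae (Eventually.of_forall fun t => ?_)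
    show rd B i (fun x => (P.ψ i x : ℂ) * (χ (y x) * η i x)) (jr t w) =
      χ (cc w) * rd B i (fun x => (P.ψ i x : ℂ) * η i x) (jr t w)
    by_cases hx : jr t w ∈ Ui B i
    · rw [rd_of_mem hx, rd_of_mem hx, h.y_jr hx]; ring
    · rw [rd_off hx, rd_off hx, mul_zero]
  have h2 : ∀ i, Integrable (fun w : RI m → ℝ =>
      χ (cc w) * par (rd B i (fun x => (P.ψ i x : ℂ) * η i x)) w) := by
    intro i
    have h3 := integrable_par_aux (rd_integrable P (hsm i))
    refine h3.congr (Eventually.of_forall fun w => ?_)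
    show ∫ t, _ = _ * ∫ t, _
    rw [← integral_const_mul]
    refine integral_congr_ae (Eventually.of_forall fun t => ?_)
    show rd B i (fun x => (P.ψ i x : ℂ) * (χ (y x) * η i x)) (jr t w) =
      χ (cc w) * rd B i (fun x => (P.ψ i x : ℂ) * η i x) (jr t w)
    by_cases hx : jr t w ∈ Ui B i
    · rw [rd_of_mem hx, rd_of_mem hx, h.y_jr hx]; ring
    · rw [rd_off hx, rd_off hx, mul_zero]
  rw [Finset.sum_congr rfl fun i _ => h1 i, ← integral_finsetSum _ fun i _ => h2 i]
  refine integral_congr_ae (Eventually.of_forall fun w => ?_)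
  show ∑ i ∈ Fn P hK, _ = χ (cc w) * push P η (cc w)
  rw [← Finset.mul_sum]
  by_cases hw : cc w ∈ C
  · rw [push_sum h P hC hCU hw]
    unfold tm
    rw [rc_cc]
    rfl
  · rw [h0 _ hw, zero_mul, zero_mul]

end t2

end

end Crest.Agent.R281.Fib2_425
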