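import Crest.Agent.R281.Fib2_425

/-!
# R281 (S0424), leaf S6-FIB, part 3 (helper425): duality and transport

* `eq_of_int`        : two continuous functions on `U` with the same integrals against all
  test functions agree;
* `push_eq_of_dual`, `push_indep` : duality principle, independence of the partition;
* `transport10`, `transport01` : `f_*(div Y) = ∑_k ∂_k f_*(Y(y_k))` for vector densities on `V`.
-/

set_option autoImplicit false
set_option linter.unusedSectionVars false

open Set Filter Topology Complex MeasureTheory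
open scoped ContDiff ComplexConjugate

namespace Crest.Agent.R281.Fib3_425

open Crest.Agent.R275.Geo Crest.Agent.R275.Tor812 Crest.Agent.R275.TorS666
open Crest.Agent.R275.C1d194 Crest.Agent.R275.Pai323 Crest.Agent.R275.OmT75
open Crest.Agent.R275.SerG398 (lint dens DPair)
open Crest.Agent.R273.StokesV_332 Crest.Agent.R281.Fib1_425 Crest.Agent.R281.Fib2_425

noncomputable section

/-! ### calculus on the base -/

section base

variable {m : ℕ} {U : Set (Cn m)}

theorem contDiff_rcB : ContDiff ℝ ∞ (rc : Cn m → RI m → ℝ) := by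
  rw [rc_eq]
  exact (rcL m).contDiff

theorem contDiff_ccB : ContDiff ℝ ∞ (cc : (RI m → ℝ) → Cn m) := by
  rw [cc_eq]
  exact ((rcE m).symm.toContinuousLinearEquiv).contDiff

/-- homeomorphism -/
def ccH (m : ℕ) : (RI m → ℝ) ≃ₜ Cn m where
  toFun := cc
  invFun := rc
  left_inv := rc_cc
  right_inv := cc_rc
  continuous_toFun := continuous_cc
  continuous_invFun := continuous_rc

theorem hasCompactSupport_cc {E : Type*} [Zero E] {f : Cn m → E} (hf : HasCompactSupport f) :
    HasCompactSupport (fun w => f (cc w)) :=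
  HasCompactSupport.intro (K := rc '' tsupport f) (hf.image continuous_rc) fun w hw =>
    image_eq_zero_of_notMem_tsupport fun h => hw ⟨cc w, h, rc_cc w⟩

/-- two continuous functions with the same integrals against test functions -/
theorem eq_of_int (hU : IsOpen U) {F G : Cn m → ℂ} (hF : ContinuousOn F U) (hG : ContinuousOn G U)
    (h : ∀ χ : Cn m → ℝ, ContDiff ℝ ∞ χ → HasCompactSupport χ → tsupport χ ⊆ U →
      ∫ w : RI m → ℝ, (χ (cc w) : ℂ) * F (cc w) = ∫ w : RI m → ℝ, (χ (cc w) : ℂ) * G (cc w)) :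
    EqOn F G U := by
  have hU' : IsOpen ((cc : (RI m → ℝ) → Cn m) ⁻¹' U) := hU.preimage continuous_cc
  have hF' : ContinuousOn (fun w : RI m → ℝ => F (cc w)) (cc ⁻¹' U) :=
    hF.comp continuous_cc.continuousOn fun w hw => hw
  have hG' : ContinuousOn (fun w : RI m → ℝ => G (cc w)) (cc ⁻¹' U) :=
    hG.comp continuous_cc.continuousOn fun w hw => hw
  have hint : ∀ (χ : (RI m → ℝ) → ℝ), ContDiff ℝ ∞ χ → HasCompactSupport χ →
      tsupport χ ⊆ cc ⁻¹' U → ∀ {H : (RI m → ℝ) → ℂ}, ContinuousOn H (cc ⁻¹' U) →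
      Integrable (fun w => (χ w : ℂ) * H w) := by
    intro χ hχ hc hs H hH
    refine Continuous.integrable_of_hasCompactSupport ?_ ?_
    · rw [continuous_iff_continuousAt]
      intro w
      by_cases hw : w ∈ tsupport χ
      · exact ((Complex.continuous_ofReal.comp hχ.continuous).continuousAt).mul
          (hH.continuousAt (hU'.mem_nhds (hs hw)))
      · have : (fun w => (χ w : ℂ) * H w) =ᶠ[𝓝 w] fun _ => 0 := by
          filter_upwards [(isClosed_tsupport χ).isOpen_compl.mem_nhds hw] with w' hw'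
          rw [image_eq_zero_of_notMem_tsupport hw']; simp
        exact continuousAt_const.congr this.symm
    · exact HasCompactSupport.intro hc fun w hw => by
        rw [image_eq_zero_of_notMem_tsupport hw]; simp
  have h1 := IsOpen.ae_eq_zero_of_integral_contDiff_smul_eq_zero (μ := volume) hU'
    (f := fun w : RI m → ℝ => F (cc w) - G (cc w))
    ((hF'.sub hG').locallyIntegrableOn hU'.measurableSet) ?_
  · have h2 : (fun w : RI m → ℝ => F (cc w)) =ᵐ[volume.restrict (cc ⁻¹' U)]
        fun w => G (cc w) := by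
      refine (ae_restrict_iff' hU'.measurableSet).2 ?_
      filter_upwards [h1] with w hw hwU
      exact sub_eq_zero.1 (hw hwU)
    have h3 := Measure.eqOn_open_of_ae_eq h2 hU' hF' hG'
    intro z hz
    have h4 := h3 (x := rc z) (by show cc (rc z) ∈ U; rw [cc_rc]; exact hz)
    simpa only [cc_rc] using h4
  · intro χ hχ hc hs
    have h5 := h (fun z => χ (rc z)) (hχ.comp contDiff_rcB) ?_ ?_
    · simp only [rc_cc] at h5
      have h6 : ∫ w, χ w • (F (cc w) - G (cc w)) =
          (∫ w, (χ w : ℂ) * F (cc w)) - (∫ w, (χ w : ℂ) * G (cc w)) := by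
        rw [← integral_sub (hint χ hχ hc hs hF') (hint χ hχ hc hs hG')]
        refine integral_congr_ae (Eventually.of_forall fun w => ?_)
        show χ w • (F (cc w) - G (cc w)) = (χ w : ℂ) * F (cc w) - (χ w : ℂ) * G (cc w)
        rw [Complex.real_smul, mul_sub]
      rw [h6, h5, sub_self]
    · exact HasCompactSupport.intro (K := cc '' tsupport χ) (hc.image continuous_cc) fun z hz =>
        image_eq_zero_of_notMem_tsupport fun h => hz ⟨rc z, h, cc_rc z⟩
    · have h7 : tsupport (fun z : Cn m => χ (rc z)) ⊆ cc '' tsupport χ := by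
        refine closure_minimal ?_ (hc.image continuous_cc).isClosed
        intro z hz
        exact ⟨rc z, subset_tsupport _ hz, cc_rc z⟩
      refine h7.trans ?_
      rintro _ ⟨w, hw, rfl⟩
      exact hs hw

theorem fderiv_ccB {f : Cn m → ℂ} (hf : Differentiable ℝ f) (w v : RI m → ℝ) :
    fderiv ℝ (fun w => f (cc w)) w v = fderiv ℝ f (cc w) (cc v) := by
  have h3 : HasFDerivAt (cc : (RI m → ℝ) → Cn m)
      ((rcE m).symm.toContinuousLinearEquiv : (RI m → ℝ) →L[ℝ] Cn m) w := by
    rw [cc_eq]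
    exact ((rcE m).symm.toContinuousLinearEquiv).hasFDerivAt
  have h4 : HasFDerivAt (fun w => f (cc w)) _ w := ((hf (cc w)).hasFDerivAt).comp w h3
  rw [h4.fderiv]
  rfl

theorem integral_fderiv_zero {f : (RI m → ℝ) → ℂ} (hf : ContDiff ℝ ∞ f)
    (hc : HasCompactSupport f) (v : RI m → ℝ) : ∫ w, fderiv ℝ f w v = 0 := by
  have h7 : Integrable (fun t => fderiv ℝ f t v) := by
    refine Continuous.integrable_of_hasCompactSupport ?_ ?_
    · exact (hf.continuous_fderiv (by simp)).clm_apply continuous_const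
    · have h := hc.fderiv (𝕜 := ℝ)
      exact h.comp_left (g := fun L : (RI m → ℝ) →L[ℝ] ℂ => L v) (by simp)
  have h8 : Integrable f := hf.continuous.integrable_of_hasCompactSupport hc
  have h6 := integral_mul_fderiv_eq_neg_fderiv_mul_of_integrable
    (μ := (volume : Measure (RI m → ℝ))) (𝕜 := ℂ) (v := v) (f := fun _ => (1 : ℂ)) (g := f)
    (by simp) (by simpa using h7) (by simpa using h8)
    (fun _ _ => differentiableAt_const _) (fun t _ => hf.differentiable (by simp) t)
  simpa using h6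

theorem integrable_fderiv {f : (RI m → ℝ) → ℂ} (hf : ContDiff ℝ ∞ f)
    (hc : HasCompactSupport f) (v : RI m → ℝ) : Integrable fun w => fderiv ℝ f w v := by
  refine Continuous.integrable_of_hasCompactSupport ?_ ?_
  · exact (hf.continuous_fderiv (by simp)).clm_apply continuous_const
  · have h := hc.fderiv (𝕜 := ℝ)
    exact h.comp_left (g := fun L : (RI m → ℝ) →L[ℝ] ℂ => L v) (by simp)

/-- `∫ ∂_k f = 0` -/
theorem integral_dj_zero {f : Cn m → ℂ} (hf : ContDiff ℝ ∞ f) (hc : HasCompactSupport f)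
    (k : Fin m) : ∫ w : RI m → ℝ, dj k f (cc w) = 0 := by
  have hd : Differentiable ℝ f := hf.differentiable (by simp)
  have h1 : ∀ w : RI m → ℝ, dj k f (cc w) =
      (1 / 2 : ℂ) * (fderiv ℝ (fun w => f (cc w)) w (ev (k, 0)) -
        I * fderiv ℝ (fun w => f (cc w)) w (ev (k, 1))) := by
    intro w
    rw [fderiv_ccB hd, fderiv_ccB hd, cc_ev_zero, cc_ev_one]
    rfl
  simp_rw [h1]
  have h2 : ContDiff ℝ ∞ (fun w : RI m → ℝ => f (cc w)) := hf.comp contDiff_ccB
  have h3 := hasCompactSupport_cc hc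
  rw [integral_const_mul, integral_sub (integrable_fderiv h2 h3 _)
    ((integrable_fderiv h2 h3 _).const_mul I), integral_const_mul,
    integral_fderiv_zero h2 h3, integral_fderiv_zero h2 h3]
  simp

/-- `χ F` is smooth on the whole space -/
theorem contDiff_mul_of_support (hU : IsOpen U) {χ : Cn m → ℝ} (hχ : ContDiff ℝ ∞ χ)
    (hs : tsupport χ ⊆ U) {F : Cn m → ℂ} (hF : ContDiffOn ℝ ∞ F U) :
    ContDiff ℝ ∞ (fun z => (χ z : ℂ) * F z) := by
  rw [contDiff_iff_contDiffAt]
  intro z
  by_cases hz : z ∈ tsupport χ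
  · exact ((Complex.ofRealCLM.contDiff.comp hχ).contDiffAt).mul
      (hF.contDiffAt (hU.mem_nhds (hs hz)))
  · have : (fun z => (χ z : ℂ) * F z) =ᶠ[𝓝 z] fun _ => 0 := by
      filter_upwards [(isClosed_tsupport χ).isOpen_compl.mem_nhds hz] with w' hw'
      rw [image_eq_zero_of_notMem_tsupport hw']; simp
    exact contDiffAt_const.congr_of_eventuallyEq this

theorem dj_zero_of {χ : Cn m → ℂ} {z : Cn m} (hz : z ∉ tsupport χ) (k : Fin m) :
    dj k χ z = 0 := by
  have h1 : fderiv ℝ χ z = 0 := by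
    refine image_eq_zero_of_notMem_tsupport (f := fderiv ℝ χ) fun h => hz ?_
    exact tsupport_fderiv_subset ℝ h
  unfold dj
  rw [h1]
  simp

theorem tsupport_ofReal (χ : Cn m → ℝ) : tsupport (fun z => (χ z : ℂ)) = tsupport χ := by
  unfold tsupport
  congr 1
  ext z
  simp

/-- `∂_k F` is smooth -/
theorem contDiffOn_dj (hU : IsOpen U) {F : Cn m → ℂ} (hF : ContDiffOn ℝ ∞ F U) (k : Fin m) :
    ContDiffOn ℝ ∞ (dj k F) U := dj_contDiffOn (a := k) hU hF

/-- integration by parts on the base -/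
theorem parts_base (hU : IsOpen U) {χ : Cn m → ℝ} (hχ : ContDiff ℝ ∞ χ)
    (hc : HasCompactSupport χ) (hs : tsupport χ ⊆ U) {F : Cn m → ℂ} (hF : ContDiffOn ℝ ∞ F U)
    (k : Fin m) : ∫ w : RI m → ℝ, dj k (fun z => (χ z : ℂ)) (cc w) * F (cc w) =
      - ∫ w : RI m → ℝ, (χ (cc w) : ℂ) * dj k F (cc w) := by
  have hχ' : ContDiff ℝ ∞ (fun z => (χ z : ℂ)) := Complex.ofRealCLM.contDiff.comp hχ
  have hf := contDiff_mul_of_support hU hχ hs hF
  have hfc : HasCompactSupport (fun z => (χ z : ℂ) * F z) :=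
    HasCompactSupport.intro hc fun z hz => by
      rw [image_eq_zero_of_notMem_tsupport hz]; simp
  have h0 := integral_dj_zero hf hfc k
  have h1 : ∀ z, dj k (fun z => (χ z : ℂ) * F z) z =
      dj k (fun z => (χ z : ℂ)) z * F z + (χ z : ℂ) * dj k F z := by
    intro z
    by_cases hz : z ∈ tsupport χ
    · exact dj_mul (hχ'.differentiable (by simp) z)
        ((hF.contDiffAt (hU.mem_nhds (hs hz))).differentiableAt (by simp))
    · rw [dj_zero_of (χ := fun z => (χ z : ℂ)) (by rwa [tsupport_ofReal]),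
        image_eq_zero_of_notMem_tsupport hz, dj_zero_of]
      · simp
      · intro h
        refine hz ?_
        refine closure_minimal ?_ (isClosed_tsupport χ) h
        intro z' hz'
        by_contra h'
        refine hz' ?_
        show (χ z' : ℂ) * F z' = 0
        rw [image_eq_zero_of_notMem_tsupport h']; simp
  simp_rw [h1] at h0
  have hi1 : Integrable (fun w : RI m → ℝ => dj k (fun z => (χ z : ℂ)) (cc w) * F (cc w)) := by
    have h2 : Integrable (fun w : RI m → ℝ => dj k (fun z => (χ z : ℂ) * F z) (cc w) -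
        (χ (cc w) : ℂ) * dj k F (cc w)) := by
      refine Integrable.sub ?_ ?_
      · refine Continuous.integrable_of_hasCompactSupport ?_ ?_
        · exact (contDiffOn_univ.1 (contDiffOn_dj isOpen_univ hf.contDiffOn k)).continuous.comp
            continuous_cc
        · exact HasCompactSupport.intro (K := rc '' tsupport (fun z => (χ z : ℂ) * F z))
            (hfc.image continuous_rc) fun w hw => dj_zero_of
              (χ := fun z => (χ z : ℂ) * F z) (fun h => hw ⟨cc w, h, rc_cc w⟩) k
      · refine Continuous.integrable_of_hasCompactSupport ?_ ?_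
        · exact (contDiff_mul_of_support hU hχ hs (contDiffOn_dj hU hF k)).continuous.comp
            continuous_cc
        · refine HasCompactSupport.intro (K := rc '' tsupport χ) (hc.image continuous_rc)
            fun w hw => ?_
          rw [image_eq_zero_of_notMem_tsupport fun h => hw ⟨cc w, h, rc_cc w⟩]; simp
    refine h2.congr (Eventually.of_forall fun w => ?_)
    show dj k (fun z => (χ z : ℂ) * F z) (cc w) - (χ (cc w) : ℂ) * dj k F (cc w) = _
    rw [h1]; ring
  have hi2 : Integrable (fun w : RI m → ℝ => (χ (cc w) : ℂ) * dj k F (cc w)) := by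
    refine Continuous.integrable_of_hasCompactSupport ?_ ?_
    · exact (contDiff_mul_of_support hU hχ hs (contDiffOn_dj hU hF k)).continuous.comp
        continuous_cc
    · refine HasCompactSupport.intro (K := rc '' tsupport χ) (hc.image continuous_rc)
        fun w hw => ?_
      rw [image_eq_zero_of_notMem_tsupport fun h => hw ⟨cc w, h, rc_cc w⟩]; simp
  rw [integral_add hi1 hi2] at h0
  exact eq_neg_of_add_eq_zero_left h0

end base

/-! ### duality -/

variable {d m : ℕ} {V : Type} [TopologicalSpace V] {B : Atl (d + m) V} {y : V → Cn m}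
  {U : Set (Cn m)} {P P' : Part B} {η θ : B.ι → V → ℂ} [T2Space V]

/-- **duality principle** -/
theorem push_eq_of_dual (h : Prj B y U) (hη : ∀ i, B.SmAt i (η i)) {F : Cn m → ℂ}
    (hF : ContinuousOn F U)
    (hd : ∀ χ : Cn m → ℝ, ContDiff ℝ ∞ χ → HasCompactSupport χ → tsupport χ ⊆ U →
      intD P (fun i x => (χ (y x) : ℂ) * η i x) = ∫ w : RI m → ℝ, (χ (cc w) : ℂ) * F (cc w)) :
    ∀ w ∈ U, push P η w = F w := by
  refine eq_of_int h.opn (continuousOn_push h hη) hF fun χ hχ hc hs => ?_
  rw [← hd χ hχ hc hs]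
  exact (intD_push (χ := fun z => (χ z : ℂ)) h hη (Complex.ofRealCLM.contDiff.comp hχ) hc hs
    fun w hw => by rw [image_eq_zero_of_notMem_tsupport hw]; simp).symm

/-- the push-forward does not depend on the partition of unity -/
theorem push_indep (h : Prj B y U) (P P' : Part B) (hη : Den B η) :
    ∀ w ∈ U, push P η w = push P' η w := by
  refine push_eq_of_dual h hη.sm (continuousOn_push h hη.sm) fun χ hχ hc hs => ?_
  have h1 := intD_push (P := P') (χ := fun z => (χ z : ℂ)) h hη.sm
    (Complex.ofRealCLM.contDiff.comp hχ) hc hs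
    fun w hw => by rw [image_eq_zero_of_notMem_tsupport hw]; simp
  rw [← h1]
  refine intD_indep P P' (hη.mulF (h.sm (Complex.ofRealCLM.contDiff.comp hχ).contDiffOn))
    (h.proper _ hs hc) fun i x _ hx => ?_
  show (χ (y x) : ℂ) * η i x = 0
  rw [image_eq_zero_of_notMem_tsupport hx]; simp

/-! ### transport -/

theorem dl_base (h : Prj B y U) {χ : Cn m → ℂ} (hχ : ContDiff ℝ ∞ χ) {i : B.ι} {x : V}
    (hx : x ∈ (B.e i).source) (a : Fin (d + m)) :
    dl B i a (fun v => χ (y v)) x =
      (1 / 2 : ℂ) * (fderiv ℝ χ (y x) (bs d (EuclideanSpace.single a 1)) -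
        I * fderiv ℝ χ (y x) (bs d (EuclideanSpace.single a I))) := by
  have h1 : (fun z => χ (y ((B.e i).symm z))) =ᶠ[𝓝 (B.e i x)] fun z => χ (bs d z) := by
    filter_upwards [(B.e i).open_target.mem_nhds ((B.e i).map_source hx)] with z hz
    rw [h.y_symm hz]
  have h2 : HasFDerivAt (fun z => χ (bs d z))
      ((fderiv ℝ χ (bs d (B.e i x))).comp ((bs d (m := m)).restrictScalars ℝ)) (B.e i x) :=
    (hχ.differentiable (by simp) _).hasFDerivAt.comp (B.e i x)
      ((bs d (m := m)).restrictScalars ℝ).hasFDerivAt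
  unfold dl dj
  rw [h1.fderiv_eq, h2.fderiv, h.bs_e hx]
  rfl

theorem bs_single_fi (a : Fin d) (c : ℂ) :
    bs d (EuclideanSpace.single (Fin.castAdd m a) c : Cn (d + m)) = 0 := by
  ext k
  have : Fin.natAdd d k ≠ Fin.castAdd m a := fun h => by
    have := congrArg Fin.val h
    simp only [Fin.val_natAdd, Fin.val_castAdd] at this
    have := a.2
    omega
  simp [this]

theorem bs_single_bi (a : Fin m) (c : ℂ) :
    bs d (EuclideanSpace.single (Fin.natAdd d a) c : Cn (d + m)) = EuclideanSpace.single a c := by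
  ext k
  by_cases hk : k = a
  · subst hk; simp
  · have : Fin.natAdd d k ≠ Fin.natAdd d a := fun h => hk (by
      have := congrArg Fin.val h
      simp only [Fin.val_natAdd] at this
      exact Fin.ext (by omega))
    simp [this, hk]

theorem dl_base_fi (h : Prj B y U) {χ : Cn m → ℂ} (hχ : ContDiff ℝ ∞ χ) {i : B.ι} {x : V}
    (hx : x ∈ (B.e i).source) (a : Fin d) :
    dl B i (Fin.castAdd m a) (fun v => χ (y v)) x = 0 := by
  rw [dl_base h hχ hx, bs_single_fi, bs_single_fi]
  simp

theorem dl_base_bi (h : Prj B y U) {χ : Cn m → ℂ} (hχ : ContDiff ℝ ∞ χ) {i : B.ι} {x : V}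
    (hx : x ∈ (B.e i).source) (a : Fin m) :
    dl B i (Fin.natAdd d a) (fun v => χ (y v)) x = dj a χ (y x) := by
  rw [dl_base h hχ hx, bs_single_bi, bs_single_bi]
  rfl

/-- **transport**, type `(1,0)` -/
theorem transport10 (h : Prj B y U) {Y : B.ι → Fin (d + m) → V → ℂ} (hY : VD10 B Y) :
    ∀ w ∈ U, push P (fun i x => ∑ a, dl B i a (Y i a) x) w =
      ∑ k, dj k (push P (fun i x => Y i (Fin.natAdd d k) x)) w := by
  have hsm : ∀ k : Fin m, ∀ i, B.SmAt i (Y i (Fin.natAdd d k)) := fun k i => hY.sm i _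
  have hp : ∀ k : Fin m, ContDiffOn ℝ ∞ (push P (fun i x => Y i (Fin.natAdd d k) x)) U :=
    fun k => contDiffOn_push h (hsm k)
  refine push_eq_of_dual (η := fun i x => ∑ a, dl B i a (Y i a) x) h
    (fun i => ContDiffOn.sum fun a _ => smAt_dl (hY.sm i a) a) ?_ ?_
  · exact continuousOn_finsetSum _ fun k _ => (contDiffOn_dj h.opn (hp k) k).continuousOn
  intro χ hχ hc hs
  have hχ' : ContDiff ℝ ∞ (fun z => (χ z : ℂ)) := Complex.ofRealCLM.contDiff.comp hχ
  have hK := h.proper _ hs hc
  have hφ : B.Sm (fun x => (χ (y x) : ℂ)) := h.sm hχ'.contDiffOn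
  have hoff : ∀ a, OffK B (fun i x => (χ (y x) : ℂ) * Y i a x) (y ⁻¹' tsupport χ) :=
    fun a i x _ hx => by
      show (χ (y x) : ℂ) * Y i a x = 0
      rw [image_eq_zero_of_notMem_tsupport hx]; simp
  have h1 := stokes10 P (hY.mulF hφ) hK hoff
  have h2 : intD P (fun i x => ∑ a, dl B i a (fun y' => (χ (y y') : ℂ) * Y i a y') x) =
      intD P (fun i x => ((χ (y x) : ℂ) * ∑ a, dl B i a (Y i a) x) +
        ∑ k, dj k (fun z => (χ z : ℂ)) (y x) * Y i (Fin.natAdd d k) x) := by
    refine intD_congr P fun i x hx => ?_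
    have h3 : ∀ a, dl B i a (fun y' => (χ (y y') : ℂ) * Y i a y') x =
        dl B i a (fun y' => (χ (y y') : ℂ)) x * Y i a x + (χ (y x) : ℂ) * dl B i a (Y i a) x :=
      fun a => dl_mul (Atl.SmAt.diffAt (f := fun y' => (χ (y y') : ℂ)) (hφ i) hx)
        (Atl.SmAt.diffAt (hY.sm i a) hx) hx
    rw [Finset.sum_congr rfl fun a _ => h3 a, Finset.sum_add_distrib, ← Finset.mul_sum, add_comm,
      Fin.sum_univ_add (fun a => dl B i a (fun y' => (χ (y y') : ℂ)) x * Y i a x)]
    congr 1
    rw [Finset.sum_eq_zero fun a _ => by rw [dl_base_fi h hχ' hx, zero_mul], zero_add]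
    exact Finset.sum_congr rfl fun k _ => by rw [dl_base_bi h hχ' hx]
  have hsd : ∀ k : Fin m, ContDiff ℝ ∞ (dj k (fun z => (χ z : ℂ))) := fun k =>
    contDiffOn_univ.1 (contDiffOn_dj isOpen_univ hχ'.contDiffOn k)
  have h0k : ∀ k : Fin m, ∀ z, z ∉ tsupport χ → dj k (fun z => (χ z : ℂ)) z = 0 := fun k z hz =>
    dj_zero_of (by rwa [tsupport_ofReal]) k
  have hoff2 : ∀ k : Fin m, OffK B
      (fun i x => dj k (fun z => (χ z : ℂ)) (y x) * Y i (Fin.natAdd d k) x)
      (y ⁻¹' tsupport χ) := fun k i x _ hx => by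
    show dj k (fun z => (χ z : ℂ)) (y x) * Y i (Fin.natAdd d k) x = 0
    rw [h0k k _ hx, zero_mul]
  have hsm2 : ∀ k : Fin m, ∀ i, B.SmAt i
      (fun x => dj k (fun z => (χ z : ℂ)) (y x) * Y i (Fin.natAdd d k) x) := fun k i =>
    ContDiffOn.mul (h.sm (hsd k).contDiffOn i) (hY.sm i _)
  have hoff3 : OffK B (fun i x => (χ (y x) : ℂ) * ∑ a, dl B i a (Y i a) x)
      (y ⁻¹' tsupport χ) := fun i x _ hx => by
    show (χ (y x) : ℂ) * _ = 0
    rw [image_eq_zero_of_notMem_tsupport hx]; simp
  rw [h2, intD_add P (f := fun i x => (χ (y x) : ℂ) * ∑ a, dl B i a (Y i a) x)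
    (g := fun i x => ∑ k, dj k (fun z => (χ z : ℂ)) (y x) * Y i (Fin.natAdd d k) x)
    (fun i => (hφ i).mul (ContDiffOn.sum fun a _ => smAt_dl (hY.sm i a) a))
    (fun i => ContDiffOn.sum fun k _ => hsm2 k i) hK hoff3
    (OffK.sum fun k _ => hoff2 k)] at h1
  rw [eq_neg_of_add_eq_zero_left h1]
  rw [intD_sum P Finset.univ
    (F := fun k i x => dj k (fun z => (χ z : ℂ)) (y x) * Y i (Fin.natAdd d k) x)
    (fun k _ i => hsm2 k i) hK fun k _ => hoff2 k]
  have h4 : ∀ k, intD P (fun i x => dj k (fun z => (χ z : ℂ)) (y x) * Y i (Fin.natAdd d k) x) =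
      - ∫ w : RI m → ℝ, (χ (cc w) : ℂ) *
        dj k (push P (fun i x => Y i (Fin.natAdd d k) x)) (cc w) := by
    intro k
    rw [← parts_base h.opn hχ hc hs (hp k) k]
    exact intD_push (η := fun i x => Y i (Fin.natAdd d k) x) h (hsm k) (hsd k) hc hs (h0k k)
  rw [Finset.sum_congr rfl fun k _ => h4 k, Finset.sum_neg_distrib, neg_neg]
  rw [← integral_finsetSum]
  · refine integral_congr_ae (Eventually.of_forall fun w => ?_)
    show _ = (χ (cc w) : ℂ) * ∑ k, _
    rw [Finset.mul_sum]
  · intro k _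
    refine Continuous.integrable_of_hasCompactSupport ?_ ?_
    · exact (contDiff_mul_of_support h.opn hχ hs (contDiffOn_dj h.opn (hp k) k)).continuous.comp
        continuous_cc
    · refine HasCompactSupport.intro (K := rc '' tsupport χ) (hc.image continuous_rc)
        fun w hw => ?_
      rw [image_eq_zero_of_notMem_tsupport fun h => hw ⟨cc w, h, rc_cc w⟩]; simp

theorem dj_conj {k : Fin m} {F : Cn m → ℂ} (z : Cn m) :
    dj k (fun z => conj (F z)) z = conj (dbj k F z) := by
  have h : fderiv ℝ (fun z => conj (F z)) z =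
      (Complex.conjCLE : ℂ →L[ℝ] ℂ).comp (fderiv ℝ F z) :=
    (Complex.conjCLE).comp_fderiv (f := F) (x := z)
  unfold dj dbj
  rw [h]
  have h2 : (conj (1 / 2 : ℂ)) = 1 / 2 := by
    rw [map_div₀, map_one, map_ofNat]
  simp only [ContinuousLinearMap.comp_apply, smul_eq_mul, map_mul, map_add, h2, Complex.conj_I]
  show (1 / 2 : ℂ) * (conj _ - I * conj _) = _
  ring

/-- **transport**, type `(0,1)` -/
theorem transport01 (h : Prj B y U) {Y : B.ι → Fin (d + m) → V → ℂ} (hY : VD01 B Y) :
    ∀ w ∈ U, push P (fun i x => ∑ a, B.db i a (Y i a) x) w =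
      ∑ k, dbj k (push P (fun i x => Y i (Fin.natAdd d k) x)) w := by
  intro w hw
  have h1 := transport10 (P := P) h hY.conjV w hw
  have h2 : push P (fun i x => ∑ a, dl B i a (fun x => conj (Y i a x)) x) w =
      conj (push P (fun i x => ∑ a, B.db i a (Y i a) x) w) := by
    rw [← push_conj h hw]
    refine push_congr h fun i x _ _ => ?_
    rw [map_sum]
    exact Finset.sum_congr rfl fun a _ => dl_conj i a (Y i a) x
  rw [h2] at h1
  have h3 : ∀ k, dj k (push P (fun i x => conj (Y i (Fin.natAdd d k) x))) w =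
      conj (dbj k (push P (fun i x => Y i (Fin.natAdd d k) x)) w) := by
    intro k
    rw [← dj_conj]
    have h4 : push P (fun i x => conj (Y i (Fin.natAdd d k) x)) =ᶠ[𝓝 w]
        fun z => conj (push P (fun i x => Y i (Fin.natAdd d k) x) z) := by
      filter_upwards [h.opn.mem_nhds hw] with z hz
      exact push_conj h hz
    unfold dj
    rw [h4.fderiv_eq]
  rw [Finset.sum_congr rfl fun k _ => h3 k, ← map_sum] at h1
  have h5 := congrArg conj h1
  rwa [Complex.conj_conj, Complex.conj_conj] at h5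

end

end Crest.Agent.R281.Fib3_425
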