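import Mathlib
import Crest.Agent.R266.Osgood

/-!
# R281 (S0424), S6-FIN (helper426), part 1: proper holomorphic maps between open sets, topology

`PM W D G` : `G : W → D` holomorphic and proper, `W`, `D` open in finite dimensional complex spaces.
* `Reg W D G` : the regular values; `isOpen_reg`, `finite_fib`;
* `exists_sec` : evenly covered neighbourhoods with holomorphic sections;
* `tr W G h w = ∑ᶠ z ∈ fib W G w, h z`; `tr_holo` : holomorphic at the regular values.
-/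

set_option autoImplicit false
set_option linter.unusedSectionVars false

open Set Filter Topology Metric
open scoped ContDiff

noncomputable section

namespace Crest.Agent.R281.Fin_426

variable {E F : Type*} [NormedAddCommGroup E] [NormedSpace ℂ E] [FiniteDimensional ℂ E]
  [NormedAddCommGroup F] [NormedSpace ℂ F] [FiniteDimensional ℂ F]

/-- proper holomorphic maps between open sets -/
structure PM (W : Set E) (D : Set F) (G : E → F) : Prop where
  hW : IsOpen W
  hD : IsOpen D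
  hol : DifferentiableOn ℂ G W
  maps : MapsTo G W D
  proper : ∀ K ⊆ D, IsCompact K → IsCompact (W ∩ G ⁻¹' K)

/-- the fibre in `W` -/
def fib (W : Set E) (G : E → F) (w : F) : Set E := {z | z ∈ W ∧ G z = w}

/-- the regular values in `D` -/
def Reg (W : Set E) (D : Set F) (G : E → F) : Set F :=
  {w | w ∈ D ∧ ∀ z ∈ W, G z = w → Function.Bijective (fderiv ℂ G z)}

/-- the trace of a function -/
def tr (W : Set E) (G : E → F) (h : E → ℂ) (w : F) : ℂ := ∑ᶠ z ∈ fib W G w, h z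

/-- a bijective continuous linear map is an equivalence -/
theorem exists_equiv {L : E →L[ℂ] F} (h : Function.Bijective L) : ∃ L' : E ≃L[ℂ] F, (L' : E →L[ℂ] F) = L :=
  have := FiniteDimensional.complete ℂ E
  have := FiniteDimensional.complete ℂ F
  ⟨ContinuousLinearEquiv.ofBijective L (LinearMap.ker_eq_bot.2 h.1) (LinearMap.range_eq_top.2 h.2),
    ContinuousLinearEquiv.coe_ofBijective ..⟩

theorem strict_of {W : Set E} (hW : IsOpen W) {G : E → F} (hG : DifferentiableOn ℂ G W) {z : E}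
    (hz : z ∈ W) : HasStrictFDerivAt G (fderiv ℂ G z) z :=
  have := FiniteDimensional.complete ℂ F
  (Crest.Agent.R266.SCV.analyticOnNhd_of_differentiableOn hW hG z hz).hasStrictFDerivAt

theorem isOpen_bij {W : Set E} (hW : IsOpen W) {G : E → F} (hG : DifferentiableOn ℂ G W) :
    IsOpen {z | z ∈ W ∧ Function.Bijective (fderiv ℂ G z)} := by
  have := FiniteDimensional.complete ℂ E
  have := FiniteDimensional.complete ℂ F
  have hc : ContinuousOn (fderiv ℂ G) W :=
    (Crest.Agent.R266.SCV.analyticOnNhd_of_differentiableOn hW hG).fderiv.continuousOn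
  have ho : IsOpen (range ((↑) : (E ≃L[ℂ] F) → E →L[ℂ] F)) := ContinuousLinearEquiv.isOpen
  have := hc.isOpen_inter_preimage hW ho
  convert this using 1
  ext z
  constructor
  · rintro ⟨h1, h2⟩
    exact ⟨h1, exists_equiv h2⟩
  · rintro ⟨h1, L, hL⟩
    refine ⟨h1, ?_⟩
    rw [← hL]
    exact L.bijective

/-- local inverses -/
theorem exists_inv {W : Set E} (hW : IsOpen W) {G : E → F} (hG : DifferentiableOn ℂ G W) {z : E}
    (hz : z ∈ W) (hb : Function.Bijective (fderiv ℂ G z)) :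
    ∃ (N : Set E) (V : Set F) (σ : F → E), IsOpen N ∧ IsOpen V ∧ z ∈ N ∧ N ⊆ W ∧ G z ∈ V ∧
      (∀ x ∈ N, Function.Bijective (fderiv ℂ G x)) ∧ DifferentiableOn ℂ σ V ∧
      (∀ w ∈ V, σ w ∈ N ∧ G (σ w) = w) ∧ (∀ x ∈ N, G x ∈ V ∧ σ (G x) = x) := by
  have := FiniteDimensional.complete ℂ E
  have := FiniteDimensional.complete ℂ F
  obtain ⟨L, hL⟩ := exists_equiv hb
  have hs : HasStrictFDerivAt G (L : E →L[ℂ] F) z := by rw [hL]; exact strict_of hW hG hz
  set e := hs.toOpenPartialHomeomorph G with he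
  have hze : z ∈ e.source := hs.mem_toOpenPartialHomeomorph_source
  have hcoe : ∀ x, e x = G x := fun x => congrFun hs.toOpenPartialHomeomorph_coe x
  set B := {z | z ∈ W ∧ Function.Bijective (fderiv ℂ G z)} with hB
  have hBo : IsOpen B := isOpen_bij hW hG
  set e' := e.restrOpen B hBo with he'
  have hsrc : e'.source = e.source ∩ B := e.restrOpen_source B hBo
  refine ⟨e'.source, e'.target, e'.symm, e'.open_source, e'.open_target, ?_, ?_, ?_, ?_, ?_, ?_, ?_⟩
  · rw [hsrc]; exact ⟨hze, hz, hb⟩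
  · rw [hsrc]; exact fun x hx => hx.2.1
  · have : e' z ∈ e'.target := e'.map_source (by rw [hsrc]; exact ⟨hze, hz, hb⟩)
    have h2 : e' z = G z := hcoe z
    rwa [h2] at this
  · intro x hx
    rw [hsrc] at hx
    exact hx.2.2
  · intro w hw
    apply DifferentiableAt.differentiableWithinAt
    have hx : e'.symm w ∈ e'.source := e'.map_target hw
    have hx' := hx
    rw [hsrc] at hx'
    obtain ⟨L1, hL1⟩ := exists_equiv hx'.2.2
    have h1 : HasFDerivAt e' (L1 : E →L[ℂ] F) (e'.symm w) := by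
      have h2 : HasFDerivAt G (L1 : E →L[ℂ] F) (e'.symm w) := by
        rw [hL1]; exact (strict_of hW hG hx'.2.1).hasFDerivAt
      exact h2.congr_of_eventuallyEq (Eventually.of_forall fun x => hcoe x)
    exact (e'.hasFDerivAt_symm hw h1).differentiableAt
  · intro w hw
    exact ⟨e'.map_target hw, (hcoe _).symm.trans (e'.right_inv hw)⟩
  · intro x hx
    have h2 : e' x = G x := hcoe x
    rw [← h2]
    exact ⟨e'.map_source hx, e'.left_inv hx⟩

variable {W : Set E} {D : Set F} {G : E → F}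

theorem Reg_sub : Reg W D G ⊆ D := fun _ h => h.1

/-- a compact set of `W` over a compact subset of `D` whose image misses `w` : nearby values -/
theorem PM.near (h : PM W D G) {w : F} (hw : w ∈ D) {S : Set E} (hS : IsOpen S)
    (hf : fib W G w ⊆ S) : ∃ V, IsOpen V ∧ w ∈ V ∧ V ⊆ D ∧ ∀ v ∈ V, fib W G v ⊆ S := by
  have := FiniteDimensional.proper ℂ F
  obtain ⟨r, hr, hrD⟩ := nhds_basis_closedBall.mem_iff.1 (h.hD.mem_nhds hw)
  have hK := h.proper _ hrD (isCompact_closedBall w r)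
  set C := (W ∩ G ⁻¹' closedBall w r) \ S with hC
  have hCc : IsCompact C := hK.diff hS
  have hGC : IsCompact (G '' C) := hCc.image_of_continuousOn
    (h.hol.continuousOn.mono fun x hx => hx.1.1)
  have hwC : w ∉ G '' C := by
    rintro ⟨x, hx, hxw⟩
    exact hx.2 (hf ⟨hx.1.1, hxw⟩)
  refine ⟨ball w r ∩ (G '' C)ᶜ, isOpen_ball.inter hGC.isClosed.isOpen_compl,
    ⟨mem_ball_self hr, hwC⟩, fun v hv => hrD (ball_subset_closedBall hv.1), ?_⟩
  rintro v ⟨hv1, hv2⟩ x ⟨hx1, hx2⟩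
  by_contra hxS
  apply hv2
  refine ⟨x, ⟨⟨hx1, ?_⟩, hxS⟩, hx2⟩
  rw [mem_preimage, hx2]
  exact ball_subset_closedBall hv1

theorem PM.isOpen_reg (h : PM W D G) : IsOpen (Reg W D G) := by
  rw [isOpen_iff_mem_nhds]
  intro w hw
  obtain ⟨V, hV, hwV, hVD, hf⟩ := h.near hw.1 (isOpen_bij h.hW h.hol)
    (fun z hz => ⟨hz.1, hw.2 z hz.1 hz.2⟩)
  refine mem_of_superset (hV.mem_nhds hwV) fun v hv => ⟨hVD hv, fun z hz hzv => ?_⟩
  exact (hf v hv ⟨hz, hzv⟩).2

theorem PM.finite_fib (h : PM W D G) {w : F} (hw : w ∈ Reg W D G) : (fib W G w).Finite := by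
  have hK : IsCompact (fib W G w) := by
    have := h.proper {w} (singleton_subset_iff.2 hw.1) isCompact_singleton
    exact this
  refine hK.finite (isDiscrete_iff_forall_mem_exists_isOpen.2 fun z hz => ?_)
  obtain ⟨N, V, σ, hN, hV, hzN, hNW, hGz, -, -, -, hσ⟩ :=
    exists_inv h.hW h.hol hz.1 (hw.2 z hz.1 hz.2)
  refine ⟨N, hN, ?_⟩
  ext x
  constructor
  · rintro ⟨hx1, hx2⟩
    have h1 := (hσ x hx1).2
    have h2 := (hσ z hzN).2
    rw [hx2.2] at h1
    rw [hz.2] at h2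
    exact h1.symm.trans h2
  · rintro rfl
    exact ⟨hzN, hz⟩

/-- evenly covered neighbourhoods of the regular values -/
theorem PM.exists_sec (h : PM W D G) {w : F} (hw : w ∈ Reg W D G) :
    ∃ (V : Set F) (σ : E → F → E), IsOpen V ∧ w ∈ V ∧ V ⊆ Reg W D G ∧
      (∀ z ∈ fib W G w, DifferentiableOn ℂ (σ z) V ∧ σ z w = z ∧
        ∀ v ∈ V, σ z v ∈ W ∧ G (σ z v) = v) ∧
      ∀ v ∈ V, fib W G v = (fun z => σ z v) '' fib W G w ∧
        InjOn (fun z => σ z v) (fib W G w) := by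
  classical
  have hfin := h.finite_fib hw
  obtain ⟨U, hU, hUd⟩ := hfin.t2_separation
  have hloc : ∀ z ∈ fib W G w, ∃ (N : Set E) (V : Set F) (σ : F → E), IsOpen N ∧ IsOpen V ∧ z ∈ N ∧
      N ⊆ W ∧ G z ∈ V ∧ (∀ x ∈ N, Function.Bijective (fderiv ℂ G x)) ∧ DifferentiableOn ℂ σ V ∧
      (∀ w ∈ V, σ w ∈ N ∧ G (σ w) = w) ∧ (∀ x ∈ N, G x ∈ V ∧ σ (G x) = x) := fun z hz =>
    exists_inv h.hW h.hol hz.1 (hw.2 z hz.1 hz.2)
  choose! N V σ hN hV hzN hNW hGz hbij hσd hσ hσ' using hloc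
  obtain ⟨V0, hV0, hwV0, hV0D, hV0f⟩ := h.near hw.1
    (S := ⋃ z ∈ fib W G w, N z ∩ U z)
    (isOpen_biUnion fun z hz => (hN z hz).inter (hU z).2)
    (fun z hz => mem_biUnion hz ⟨hzN z hz, (hU z).1⟩)
  have hw' : ∀ z ∈ fib W G w, w ∈ V z := fun z hz => by
    have := hGz z hz
    rwa [hz.2] at this
  have hσw : ∀ z ∈ fib W G w, σ z w = z := fun z hz => by
    have := (hσ' z hz z (hzN z hz)).2
    rwa [hz.2] at this
  set V1 : Set F := V0 ∩ ⋂ z ∈ fib W G w, (V z ∩ σ z ⁻¹' U z) with hV1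
  have hV1o : IsOpen V1 := hV0.inter (hfin.isOpen_biInter fun z hz =>
    (hσd z hz).continuousOn.isOpen_inter_preimage (hV z hz) (hU z).2)
  have hmem : ∀ v ∈ V1, ∀ z ∈ fib W G w, v ∈ V z ∧ σ z v ∈ U z := fun v hv z hz => by
    have := mem_iInter₂.1 hv.2 z hz
    exact this
  refine ⟨V1, σ, hV1o, ⟨hwV0, mem_iInter₂.2 fun z hz => ⟨hw' z hz, ?_⟩⟩, ?_, ?_, ?_⟩
  · rw [mem_preimage, hσw z hz]; exact (hU z).1
  · intro v hv
    refine ⟨hV0D hv.1, fun x hx hxv => ?_⟩
    obtain ⟨z, hz, hxN⟩ := mem_iUnion₂.1 (hV0f v hv.1 ⟨hx, hxv⟩)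
    exact hbij z hz x hxN.1
  · intro z hz
    refine ⟨(hσd z hz).mono fun v hv => (hmem v hv z hz).1, hσw z hz, fun v hv => ?_⟩
    have := hσ z hz v (hmem v hv z hz).1
    exact ⟨hNW z hz this.1, this.2⟩
  · intro v hv
    refine ⟨?_, ?_⟩
    · ext x
      constructor
      · intro hx
        obtain ⟨z, hz, hxN⟩ := mem_iUnion₂.1 (hV0f v hv.1 hx)
        refine ⟨z, hz, ?_⟩
        have := (hσ' z hz x hxN.1).2
        rwa [hx.2] at this
      · rintro ⟨z, hz, rfl⟩
        have := hσ z hz v (hmem v hv z hz).1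
        exact ⟨hNW z hz this.1, this.2⟩
    · intro z hz z' hz' he
      by_contra hne
      have h1 := (hmem v hv z hz).2
      have h2 := (hmem v hv z' hz').2
      simp only at he
      rw [he] at h1
      exact (disjoint_left.1 (hUd hz hz' hne)) h1 h2

/-- the trace near a regular value -/
theorem PM.tr_eq (h : PM W D G) {w : F} (hw : w ∈ Reg W D G) : ∃ (V : Set F) (σ : E → F → E),
    IsOpen V ∧ w ∈ V ∧ V ⊆ Reg W D G ∧
      (∀ z ∈ fib W G w, DifferentiableOn ℂ (σ z) V ∧ MapsTo (σ z) V W) ∧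
      (∀ (f : E → ℂ), ∀ v ∈ V, tr W G f v = ∑ z ∈ (h.finite_fib hw).toFinset, f (σ z v)) ∧
      ∀ v ∈ V, (fib W G v).ncard = (fib W G w).ncard := by
  obtain ⟨V, σ, hV, hwV, hVR, h1, h2⟩ := h.exists_sec hw
  refine ⟨V, σ, hV, hwV, hVR, fun z hz => ⟨(h1 z hz).1, fun v hv => ((h1 z hz).2.2 v hv).1⟩, ?_, ?_⟩
  · intro f v hv
    rw [tr, (h2 v hv).1, finsum_mem_image (h2 v hv).2,
      finsum_mem_eq_finite_toFinset_sum _ (h.finite_fib hw)]
  · intro v hv
    rw [(h2 v hv).1, InjOn.ncard_image (h2 v hv).2]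

theorem PM.tr_holo (h : PM W D G) {f : E → ℂ} (hf : DifferentiableOn ℂ f W) :
    DifferentiableOn ℂ (tr W G f) (Reg W D G) := by
  intro w hw
  obtain ⟨V, σ, hV, hwV, hVR, h1, h2, -⟩ := h.tr_eq hw
  apply DifferentiableAt.differentiableWithinAt
  have h3 : DifferentiableOn ℂ (fun v => ∑ z ∈ (h.finite_fib hw).toFinset, f (σ z v)) V := by
    refine DifferentiableOn.fun_sum fun z hz => ?_
    have hz' : z ∈ fib W G w := (h.finite_fib hw).mem_toFinset.1 hz
    exact hf.comp (h1 z hz').1 (h1 z hz').2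
  refine ((h3 w hwV).differentiableAt (hV.mem_nhds hwV)).congr_of_eventuallyEq ?_
  filter_upwards [hV.mem_nhds hwV] with v hv using h2 f v hv

theorem PM.tr_one (h : PM W D G) {w : F} (hw : w ∈ Reg W D G) :
    tr W G (fun _ => 1) w = ((fib W G w).ncard : ℂ) := by
  rw [tr, finsum_mem_eq_finite_toFinset_sum _ (h.finite_fib hw), Finset.sum_const,
    ncard_eq_toFinset_card _ (h.finite_fib hw)]
  simp

end Crest.Agent.R281.Fin_426
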