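import Crest.Agent.R281.Fin1_426
import Crest.Agent.R271.Weyl_399
import Crest.Agent.R273.Piola_5

/-!
# R281 (S0424), S6-FIN (helper426), part 2: integration by parts under a proper holomorphic map

* `ibp`, `ibp_dbar` : integration by parts;
* `Jm G z` : the jacobian matrix, `piola_hol` : `∑ k, ∂_k adj(Jm)_{k j} = 0`;
* `PM.pull` : the pull back of a test function is a test function;
* `PM.int_zero` : `∫_W f(z) (∂̄_j φ)(G z) |det G'(z)|² dz = 0`.
-/

set_option autoImplicit false
set_option linter.unusedSectionVars false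

open Set Filter Topology Metric MeasureTheory Complex
open scoped ContDiff ComplexConjugate

noncomputable section

namespace Crest.Agent.R281.Fin_426

open Crest.Agent.R271.Weyl399

variable {n : ℕ}

/-! ### integration by parts -/

theorem ibp {W : Set (Fin n → ℂ)} (hW : IsOpen W) {a b : (Fin n → ℂ) → ℂ}
    (ha : ContDiffOn ℝ 1 a W) (hb : ContDiff ℝ 1 b) (hc : HasCompactSupport b)
    (hs : tsupport b ⊆ W) (v : Fin n → ℂ) :
    Integrable (fun x => a x * fderiv ℝ b x v) ∧ Integrable (fun x => fderiv ℝ a x v * b x) ∧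
    ∫ x, a x * fderiv ℝ b x v = - ∫ x, fderiv ℝ a x v * b x := by
  have hbc : Continuous (fun x => fderiv ℝ b x v) :=
    (hb.continuous_fderiv one_ne_zero).clm_apply continuous_const
  have hac : ContinuousOn (fun x => fderiv ℝ a x v) W :=
    (ha.continuousOn_fderiv_of_isOpen hW le_rfl).clm_apply continuousOn_const
  have ts1 : tsupport (fun x => a x * fderiv ℝ b x v) ⊆ tsupport b := by
    refine closure_minimal (fun x hx => ?_) (isClosed_tsupport b)
    by_contra h
    apply hx
    have : fderiv ℝ b x = 0 := by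
      by_contra h6
      exact h (support_fderiv_subset ℝ h6)
    simp [this]
  have ts2 : tsupport (fun x => fderiv ℝ a x v * b x) ⊆ tsupport b := by
    refine closure_mono fun x hx => ?_
    intro h
    apply hx
    simp [h]
  have ts3 : tsupport (fun x => a x * b x) ⊆ tsupport b := by
    refine closure_mono fun x hx => ?_
    intro h
    apply hx
    simp [h]
  have i1 : Integrable (fun x => a x * fderiv ℝ b x v) :=
    ((ha.continuousOn.mul hbc.continuousOn).continuous_of_tsupport_subset hW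
      (ts1.trans hs)).integrable_of_hasCompactSupport (hc.of_isClosed_subset (isClosed_tsupport _) ts1)
  have i2 : Integrable (fun x => fderiv ℝ a x v * b x) :=
    ((hac.mul hb.continuous.continuousOn).continuous_of_tsupport_subset hW
      (ts2.trans hs)).integrable_of_hasCompactSupport (hc.of_isClosed_subset (isClosed_tsupport _) ts2)
  have i3 : Integrable (fun x => a x * b x) :=
    ((ha.continuousOn.mul hb.continuous.continuousOn).continuous_of_tsupport_subset hW
      (ts3.trans hs)).integrable_of_hasCompactSupport (hc.of_isClosed_subset (isClosed_tsupport _) ts3)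
  refine ⟨i1, i2, ?_⟩
  exact integral_bilinear_hasFDerivAt_right_eq_neg_left_of_integrable
    (B := ContinuousLinearMap.mul ℝ ℂ) (f := a) (f' := fderiv ℝ a) (g := b) (g' := fderiv ℝ b)
    (v := v) i2 i1 i3
    (fun x hx => ((ha.differentiableOn one_ne_zero).differentiableAt (hW.mem_nhds (hs hx))).hasFDerivAt)
    (fun x _ => (hb.differentiable one_ne_zero x).hasFDerivAt)

theorem ibp_dbar {W : Set (Fin n → ℂ)} (hW : IsOpen W) {a b : (Fin n → ℂ) → ℂ}
    (ha : ContDiffOn ℝ 1 a W) (hb : ContDiff ℝ 1 b) (hc : HasCompactSupport b)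
    (hs : tsupport b ⊆ W) (k : Fin n) :
    Integrable (fun x => a x * dbar k b x) ∧ Integrable (fun x => dbar k a x * b x) ∧
    ∫ x, a x * dbar k b x = - ∫ x, dbar k a x * b x := by
  obtain ⟨a1, a2, a3⟩ := ibp hW ha hb hc hs (Pi.single k 1)
  obtain ⟨b1, b2, b3⟩ := ibp hW ha hb hc hs (Pi.single k I)
  have e1 : (fun x => a x * dbar k b x) = fun x => (1 / 2 : ℂ) * (a x * fderiv ℝ b x (Pi.single k 1)) +
      (I / 2) * (a x * fderiv ℝ b x (Pi.single k I)) := by
    funext x; unfold dbar; ring
  have e2 : (fun x => dbar k a x * b x) = fun x => (1 / 2 : ℂ) * (fderiv ℝ a x (Pi.single k 1) * b x) +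
      (I / 2) * (fderiv ℝ a x (Pi.single k I) * b x) := by
    funext x; unfold dbar; ring
  rw [e1, e2]
  refine ⟨(a1.const_mul _).add (b1.const_mul _), (a2.const_mul _).add (b2.const_mul _), ?_⟩
  rw [integral_add (a1.const_mul _) (b1.const_mul _), integral_add (a2.const_mul _) (b2.const_mul _),
    integral_const_mul, integral_const_mul, integral_const_mul, integral_const_mul, a3, b3]
  ring

/-! ### the antilinear part -/

theorem anti (L : (Fin n → ℂ) →L[ℝ] ℂ) (w : Fin n → ℂ) :
    (1 / 2 : ℂ) * (L w + I * L (I • w)) =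
      ∑ i, conj (w i) * ((1 / 2 : ℂ) * (L (Pi.single i 1) + I * L (Pi.single i I))) := by
  have h1 : L w = ∑ j, (((w j).re : ℂ) * L (Pi.single j 1) + ((w j).im : ℂ) * L (Pi.single j I)) := by
    conv_lhs => rw [single_decomp w]
    simp [map_sum]
  have h2 : L (I • w) = ∑ j, (-((w j).im : ℂ) * L (Pi.single j 1) + ((w j).re : ℂ) * L (Pi.single j I)) := by
    conv_lhs => rw [single_decomp (I • w)]
    simp [map_sum]
  rw [h1, h2, Finset.mul_sum, ← Finset.sum_add_distrib, Finset.mul_sum]
  refine Finset.sum_congr rfl fun i _ => ?_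
  have hc : conj (w i) = ((w i).re : ℂ) - ((w i).im : ℂ) * I := by
    apply Complex.ext <;> simp
  rw [hc]
  linear_combination (1 / 2 * ((w i).im : ℂ) * L (Pi.single i I)) * I_mul_I

theorem smul_single (k : Fin n) : (Pi.single k I : Fin n → ℂ) = I • (Pi.single k (1 : ℂ) : Fin n → ℂ) := by
  rw [← Pi.single_smul]; simp

theorem dbar_holo {a : (Fin n → ℂ) → ℂ} {x : Fin n → ℂ} (ha : DifferentiableAt ℂ a x) (k : Fin n) :
    dbar k a x = 0 := by
  unfold dbar
  rw [ha.fderiv_restrictScalars ℝ]
  simp only [ContinuousLinearMap.coe_restrictScalars']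
  rw [smul_single, map_smul, smul_eq_mul, ← mul_assoc, I_mul_I]
  ring

theorem dbar_mul {a b : (Fin n → ℂ) → ℂ} {x : Fin n → ℂ} (ha : DifferentiableAt ℝ a x)
    (hb : DifferentiableAt ℝ b x) (k : Fin n) :
    dbar k (fun y => a y * b y) x = dbar k a x * b x + a x * dbar k b x := by
  unfold dbar
  have : fderiv ℝ (fun y => a y * b y) x = a x • fderiv ℝ b x + b x • fderiv ℝ a x :=
    fderiv_fun_mul ha hb
  rw [this]
  simp only [_root_.add_apply, _root_.smul_apply, smul_eq_mul]
  ring

theorem dbar_conj {a : (Fin n → ℂ) → ℂ} {x : Fin n → ℂ} (ha : DifferentiableAt ℂ a x) (k : Fin n) :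
    dbar k (fun y => conj (a y)) x = conj (fderiv ℂ a x (Pi.single k 1)) := by
  have h1 : HasFDerivAt (fun y => conj (a y))
      ((conjCLE : ℂ →L[ℝ] ℂ).comp ((fderiv ℂ a x).restrictScalars ℝ)) x :=
    (conjCLE : ℂ →L[ℝ] ℂ).hasFDerivAt.comp x (ha.hasFDerivAt.restrictScalars ℝ)
  unfold dbar
  rw [h1.fderiv]
  simp only [ContinuousLinearMap.comp_apply, ContinuousLinearMap.coe_restrictScalars']
  rw [smul_single, map_smul]
  simp only [smul_eq_mul, ContinuousLinearEquiv.coe_coe, conjCLE_apply, map_mul, conj_I]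
  linear_combination (-1 / 2 * conj (fderiv ℂ a x (Pi.single k 1))) * I_mul_I

/-! ### the jacobian matrix -/

/-- jacobian matrix -/
def Jm (G : (Fin n → ℂ) → Fin n → ℂ) (z : Fin n → ℂ) : Matrix (Fin n) (Fin n) ℂ :=
  Matrix.of fun i k => fderiv ℂ G z (Pi.single k 1) i

theorem Jm_eq (G : (Fin n → ℂ) → Fin n → ℂ) (z : Fin n → ℂ) :
    Jm G z = LinearMap.toMatrix' (fderiv ℂ G z : (Fin n → ℂ) →ₗ[ℂ] Fin n → ℂ) := by
  ext i k
  simp [Jm, LinearMap.toMatrix'_apply]

theorem det_Jm (G : (Fin n → ℂ) → Fin n → ℂ) (z : Fin n → ℂ) :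
    (Jm G z).det = (fderiv ℂ G z).det := by
  rw [Jm_eq, LinearMap.det_toMatrix']

theorem det_real {G : (Fin n → ℂ) → Fin n → ℂ} {z : Fin n → ℂ} (h : DifferentiableAt ℂ G z) :
    |(fderiv ℝ G z).det| = ‖(Jm G z).det‖ ^ 2 := by
  rw [h.fderiv_restrictScalars ℝ, det_Jm]
  have h1 : ((fderiv ℂ G z).restrictScalars ℝ).det = ‖(fderiv ℂ G z).det‖ ^ 2 := by
    have h2 := LinearMap.det_restrictScalars (R := ℝ) (S := ℂ)
      (f := (fderiv ℂ G z : (Fin n → ℂ) →ₗ[ℂ] Fin n → ℂ))
    rw [Algebra.norm_complex_apply, Complex.normSq_eq_norm_sq] at h2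
    exact h2
  rw [h1, abs_of_nonneg (by positivity)]

theorem bij_iff {G : (Fin n → ℂ) → Fin n → ℂ} {z : Fin n → ℂ} :
    Function.Bijective (fderiv ℂ G z) ↔ (Jm G z).det ≠ 0 := by
  rw [det_Jm]
  have h := LinearMap.isUnit_iff_isUnit_det (fderiv ℂ G z : (Fin n → ℂ) →ₗ[ℂ] Fin n → ℂ)
  rw [isUnit_iff_ne_zero] at h
  rw [show (fderiv ℂ G z).det = LinearMap.det (fderiv ℂ G z : (Fin n → ℂ) →ₗ[ℂ] Fin n → ℂ) from rfl,
    ← h, Module.End.isUnit_iff]
  rfl

theorem Jm_holo {W : Set (Fin n → ℂ)} (hW : IsOpen W) {G : (Fin n → ℂ) → Fin n → ℂ}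
    (hG : DifferentiableOn ℂ G W) (i k : Fin n) : DifferentiableOn ℂ (fun z => Jm G z i k) W := by
  have h1 := (Crest.Agent.R266.SCV.analyticOnNhd_of_differentiableOn hW hG).fderiv.differentiableOn
  have h2 : DifferentiableOn ℂ (fun z => fderiv ℂ G z (Pi.single k 1)) W :=
    h1.clm_apply (differentiableOn_const _)
  exact fun z hz => (differentiableWithinAt_pi.1 (h2 z hz)) i

theorem differentiableOn_det {W : Set (Fin n → ℂ)} {m : (Fin n → ℂ) → Matrix (Fin n) (Fin n) ℂ}
    (h : ∀ i k, DifferentiableOn ℂ (fun z => m z i k) W) :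
    DifferentiableOn ℂ (fun z => (m z).det) W := by
  have : (fun z => (m z).det) = fun z =>
    ∑ σ : Equiv.Perm (Fin n), ((Equiv.Perm.sign σ : ℤ) : ℂ) * ∏ i, m z (σ i) i := by
    funext z; rw [Matrix.det_apply']
  rw [this]
  refine DifferentiableOn.fun_sum fun σ _ => ?_
  refine (differentiableOn_const _).mul ?_
  have hp : ∀ s : Finset (Fin n), DifferentiableOn ℂ (fun z => ∏ i ∈ s, m z (σ i) i) W := by
    intro s
    induction s using Finset.induction_on with
    | empty => simp
    | insert a s ha ih =>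
      simp only [Finset.prod_insert ha]
      exact (h _ _).mul ih
  exact hp Finset.univ

theorem differentiableOn_adj {W : Set (Fin n → ℂ)} {m : (Fin n → ℂ) → Matrix (Fin n) (Fin n) ℂ}
    (h : ∀ i k, DifferentiableOn ℂ (fun z => m z i k) W) (k j : Fin n) :
    DifferentiableOn ℂ (fun z => (m z).adjugate k j) W := by
  have : (fun z => (m z).adjugate k j) = fun z => ((m z).updateRow j (Pi.single k 1)).det := by
    funext z; rw [Matrix.adjugate_apply]
  rw [this]
  refine differentiableOn_det fun i l => ?_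
  by_cases hi : i = j
  · subst hi
    simp only [Matrix.updateRow_self]
    exact differentiableOn_const _
  · simp only [Matrix.updateRow_ne hi]
    exact h i l

/-- **Piola** for holomorphic maps -/
theorem piola_hol {W : Set (Fin n → ℂ)} (hW : IsOpen W) {G : (Fin n → ℂ) → Fin n → ℂ}
    (hG : DifferentiableOn ℂ G W) {x : Fin n → ℂ} (hx : x ∈ W) (j : Fin n) :
    ∑ k, fderiv ℂ (fun z => (Jm G z).adjugate k j) x (Pi.single k 1) = 0 := by
  classical
  set e : Crest.Agent.R275.Geo.Cn n ≃L[ℂ] (Fin n → ℂ) := EuclideanSpace.equiv (Fin n) ℂ with he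
  have hes : ∀ (c : Fin n) (t : ℂ), e (EuclideanSpace.single c t) = Pi.single c t := by
    intro c t
    ext i
    simp [he, Pi.single_apply]
  -- the Wirtinger derivative of a holomorphic function
  have hwd : ∀ (g : (Fin n → ℂ) → ℂ), DifferentiableAt ℂ g x → ∀ c : Fin n,
      Crest.Agent.R275.EDR890.wd (false, c) (fun w => g (e w)) (e.symm x) =
        fderiv ℂ g x (Pi.single c 1) := by
    intro g hg c
    have h0 : HasFDerivAt g (fderiv ℂ g x) (e (e.symm x)) := by
      rw [e.apply_symm_apply]; exact hg.hasFDerivAt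
    have h1 : HasFDerivAt (fun w => g (e w))
        (((fderiv ℂ g x).comp (e : _ →L[ℂ] _)).restrictScalars ℝ) (e.symm x) :=
      (h0.comp (e.symm x) e.hasFDerivAt).restrictScalars ℝ
    rw [Crest.Agent.R275.EDR890.wd, h1.fderiv]
    simp only [Crest.Agent.R275.EDR890.wdL, ContinuousLinearMap.coe_restrictScalars',
      ContinuousLinearMap.comp_apply, ContinuousLinearEquiv.coe_coe, hes]
    rw [smul_single, map_smul]
    simp only [smul_eq_mul, Crest.Agent.R275.EDR890.cI_false]
    linear_combination (-1 / 2 * fderiv ℂ g x (Pi.single c 1)) * I_mul_I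
  have hJ := Jm_holo hW hG
  have hJx : ∀ i k, DifferentiableAt ℂ (fun z => Jm G z i k) x := fun i k =>
    (hJ i k).differentiableAt (hW.mem_nhds hx)
  have hA : ∀ k, DifferentiableAt ℂ (fun z => (Jm G z).adjugate k j) x := fun k =>
    (differentiableOn_adj hJ k j).differentiableAt (hW.mem_nhds hx)
  have han := Crest.Agent.R266.SCV.analyticOnNhd_of_differentiableOn hW hG x hx
  -- symmetry of the second derivative
  have hsym : ∀ a b c, fderiv ℂ (fun z => Jm G z b a) x (Pi.single c 1) =
      fderiv ℂ (fun z => Jm G z b c) x (Pi.single a 1) := by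
    intro a b c
    have h2 : DifferentiableAt ℂ (fderiv ℂ G) x := han.fderiv.differentiableAt
    have key : ∀ a c : Fin n, fderiv ℂ (fun z => Jm G z b a) x (Pi.single c 1) =
        (fderiv ℂ (fderiv ℂ G) x (Pi.single c 1) (Pi.single a 1)) b := by
      intro a c
      have h3 : HasFDerivAt (fun z => Jm G z b a)
          ((ContinuousLinearMap.proj b : (Fin n → ℂ) →L[ℂ] ℂ).comp
            ((ContinuousLinearMap.apply ℂ (Fin n → ℂ) (Pi.single a (1 : ℂ) : Fin n → ℂ)).comp
              (fderiv ℂ (fderiv ℂ G) x))) x := by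
        have h4 := (ContinuousLinearMap.apply ℂ (Fin n → ℂ) (Pi.single a (1 : ℂ) : Fin n → ℂ)).hasFDerivAt.comp
          x h2.hasFDerivAt
        exact (ContinuousLinearMap.proj b : (Fin n → ℂ) →L[ℂ] ℂ).hasFDerivAt.comp x h4
      rw [h3.fderiv]
      rfl
    rw [key, key]
    have h5 : IsSymmSndFDerivAt ℂ G x :=
      (han.contDiffAt (n := 2)).isSymmSndFDerivAt (by simp [minSmoothness_of_isRCLikeNormedField])
    rw [h5.eq]
  have hp := Crest.Agent.R273.Piola_5.piola (m := fun w => (Jm G (e w)).transpose) (z := e.symm x)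
    (fun i k => by
      have h0 : DifferentiableAt ℂ (fun z => Jm G z k i) (e (e.symm x)) := by
        rw [e.apply_symm_apply]; exact hJx k i
      exact (h0.comp (e.symm x) e.differentiableAt).restrictScalars ℝ)
    (fun a b c => by
      simp only [Matrix.transpose_apply]
      rw [hwd (fun z => Jm G z b a) (hJx b a), hwd (fun z => Jm G z b c) (hJx b c)]
      exact hsym a b c) j
  rw [← hp]
  refine Finset.sum_congr rfl fun k _ => ?_
  have h6 := hwd (fun z => (Jm G z).adjugate k j) (hA k) k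
  rw [← h6]
  congr 1
  funext w
  rw [← Matrix.adjugate_transpose]
  rfl

end Crest.Agent.R281.Fin_426
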