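import Crest.Agent.R281.Fin2_426

/-!
# R281 (S0424), S6-FIN (helper426), part 3: the weak equation

* `PM.contDiff_pull`, .. : `ψ = φ ∘ G` on `W`, `0` off `W`, is a test function with support in `W`;
* `PM.int_zero` : `∫_W f(z) |det G'(z)|² (∂̄_j φ)(G z) dz = 0` for `f` holomorphic on `W`.
-/

set_option autoImplicit false
set_option linter.unusedSectionVars false

open Set Filter Topology Metric MeasureTheory Complex
open scoped ContDiff ComplexConjugate

noncomputable section

namespace Crest.Agent.R281.Fin_426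

open Crest.Agent.R271.Weyl399

variable {n : ℕ} {W D : Set (Fin n → ℂ)} {G : (Fin n → ℂ) → Fin n → ℂ}

/-- pull back of a function, `0` off `W` -/
def pull (W : Set (Fin n → ℂ)) (G : (Fin n → ℂ) → Fin n → ℂ) (φ : (Fin n → ℂ) → ℂ) :
    (Fin n → ℂ) → ℂ := W.indicator fun z => φ (G z)

theorem pull_of_mem {φ : (Fin n → ℂ) → ℂ} {z : Fin n → ℂ} (hz : z ∈ W) :
    pull W G φ z = φ (G z) := indicator_of_mem hz _

theorem PM.tsupport_pull (h : PM W D G) {φ : (Fin n → ℂ) → ℂ} (hc : HasCompactSupport φ)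
    (hs : tsupport φ ⊆ D) : tsupport (pull W G φ) ⊆ W ∩ G ⁻¹' tsupport φ := by
  refine closure_minimal (fun z hz => ?_) (h.proper _ hs hc).isClosed
  have hzW : z ∈ W := by
    by_contra h1
    exact hz (indicator_of_notMem h1 _)
  refine ⟨hzW, subset_closure ?_⟩
  rw [Function.mem_support, pull_of_mem hzW] at hz
  exact hz

theorem PM.hasCompactSupport_pull (h : PM W D G) {φ : (Fin n → ℂ) → ℂ} (hc : HasCompactSupport φ)
    (hs : tsupport φ ⊆ D) : HasCompactSupport (pull W G φ) :=
  (h.proper _ hs hc).of_isClosed_subset (isClosed_tsupport _) (h.tsupport_pull hc hs)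

theorem PM.contDiffOn_real (h : PM W D G) {m : WithTop ℕ∞} : ContDiffOn ℝ m G W := by
  have h1 := (Crest.Agent.R266.SCV.analyticOnNhd_of_differentiableOn h.hW h.hol)
  intro z hz
  have h2 : AnalyticAt ℝ G z := (h1 z hz).restrictScalars
  exact h2.contDiffAt.contDiffWithinAt

theorem PM.contDiff_pull (h : PM W D G) {φ : (Fin n → ℂ) → ℂ} (hφ : ContDiff ℝ ∞ φ)
    (hc : HasCompactSupport φ) (hs : tsupport φ ⊆ D) : ContDiff ℝ ∞ (pull W G φ) := by
  rw [contDiff_iff_contDiffAt]
  intro z
  by_cases hz : z ∈ W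
  · have h1 : ContDiffAt ℝ ∞ (fun z => φ (G z)) z :=
      hφ.contDiffAt.comp z ((h.contDiffOn_real (m := ∞)).contDiffAt (h.hW.mem_nhds hz))
    refine h1.congr_of_eventuallyEq ?_
    filter_upwards [h.hW.mem_nhds hz] with x hx using pull_of_mem hx
  · have h2 : z ∉ tsupport (pull W G φ) := fun h3 => hz (h.tsupport_pull hc hs h3).1
    have h3 : pull W G φ =ᶠ[𝓝 z] 0 := notMem_tsupport_iff_eventuallyEq.1 h2
    exact contDiffAt_const.congr_of_eventuallyEq h3

/-- chain rule -/
theorem PM.dbar_pull (h : PM W D G) {φ : (Fin n → ℂ) → ℂ} (hφ : ContDiff ℝ ∞ φ)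
    {z : Fin n → ℂ} (hz : z ∈ W) (k : Fin n) :
    dbar k (pull W G φ) z = ∑ i, conj (Jm G z i k) * dbar i φ (G z) := by
  have hG : HasFDerivAt G ((fderiv ℂ G z).restrictScalars ℝ) z :=
    (h.hol.differentiableAt (h.hW.mem_nhds hz)).hasFDerivAt.restrictScalars ℝ
  have h1 : HasFDerivAt (fun z => φ (G z))
      ((fderiv ℝ φ (G z)).comp ((fderiv ℂ G z).restrictScalars ℝ)) z :=
    (hφ.differentiable (by simp) (G z)).hasFDerivAt.comp z hG
  have h2 : HasFDerivAt (pull W G φ)
      ((fderiv ℝ φ (G z)).comp ((fderiv ℂ G z).restrictScalars ℝ)) z := by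
    refine h1.congr_of_eventuallyEq ?_
    filter_upwards [h.hW.mem_nhds hz] with x hx using pull_of_mem hx
  unfold dbar
  rw [h2.fderiv]
  simp only [ContinuousLinearMap.comp_apply, ContinuousLinearMap.coe_restrictScalars']
  rw [smul_single, map_smul]
  exact anti (fderiv ℝ φ (G z)) (fderiv ℂ G z (Pi.single k 1))

theorem PM.sum_adj (h : PM W D G) {φ : (Fin n → ℂ) → ℂ} (hφ : ContDiff ℝ ∞ φ)
    {z : Fin n → ℂ} (hz : z ∈ W) (j : Fin n) :
    ∑ k, conj ((Jm G z).adjugate k j) * dbar k (pull W G φ) z =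
      conj (Jm G z).det * dbar j φ (G z) := by
  simp_rw [h.dbar_pull hφ hz, Finset.mul_sum]
  rw [Finset.sum_comm]
  have h1 : ∀ i, ∑ k, (Jm G z) i k * (Jm G z).adjugate k j = if i = j then (Jm G z).det else 0 := by
    intro i
    have h2 := congrFun (congrFun (Matrix.mul_adjugate (Jm G z)) i) j
    rw [Matrix.mul_apply] at h2
    rw [h2]
    simp [Matrix.one_apply]
  have h3 : ∀ i, ∑ k, conj ((Jm G z).adjugate k j) * (conj (Jm G z i k) * dbar i φ (G z)) =
      conj (if i = j then (Jm G z).det else 0) * dbar i φ (G z) := by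
    intro i
    rw [← h1 i, map_sum, Finset.sum_mul]
    refine Finset.sum_congr rfl fun k _ => ?_
    rw [map_mul]; ring
  simp_rw [h3]
  rw [Finset.sum_eq_single j]
  · simp
  · intro i _ hi; simp [hi]
  · simp

/-- **the weak equation** -/
theorem PM.int_zero (h : PM W D G) {f : (Fin n → ℂ) → ℂ} (hf : DifferentiableOn ℂ f W)
    {φ : (Fin n → ℂ) → ℂ} (hφ : ContDiff ℝ ∞ φ) (hc : HasCompactSupport φ) (hs : tsupport φ ⊆ D)
    (j : Fin n) :
    ∫ z in W, ((‖(Jm G z).det‖ ^ 2 : ℝ) : ℂ) * (f z * dbar j φ (G z)) = 0 := by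
  have hJ := Jm_holo h.hW h.hol
  have hdet := differentiableOn_det hJ
  have hadj := fun k => differentiableOn_adj hJ k j
  set ψ := pull W G φ with hψ
  have hψd : ContDiff ℝ 1 ψ := (h.contDiff_pull hφ hc hs).of_le (by exact_mod_cast le_top)
  have hψc := h.hasCompactSupport_pull hc hs
  have hψs : tsupport ψ ⊆ W := (h.tsupport_pull hc hs).trans inter_subset_left
  have sm : ∀ {a : (Fin n → ℂ) → ℂ}, DifferentiableOn ℂ a W → ContDiffOn ℝ 1 a W := by
    intro a ha z hz
    have h2 : AnalyticAt ℝ a z :=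
      ((Crest.Agent.R266.SCV.analyticOnNhd_of_differentiableOn h.hW ha) z hz).restrictScalars
    exact h2.contDiffAt.contDiffWithinAt
  set a : Fin n → (Fin n → ℂ) → ℂ := fun k z =>
    (f z * (Jm G z).det) * conj ((Jm G z).adjugate k j) with ha
  have haC : ∀ k, ContDiffOn ℝ 1 (a k) W := fun k =>
    (sm (hf.mul hdet)).mul (conjCLE.contDiff.comp_contDiffOn (sm (hadj k)))
  have hib := fun k => ibp_dbar h.hW (haC k) hψd hψc hψs k
  -- the left side
  have e1 : ∫ z in W, ((‖(Jm G z).det‖ ^ 2 : ℝ) : ℂ) * (f z * dbar j φ (G z)) =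
      ∫ z, ∑ k, a k z * dbar k ψ z := by
    rw [← integral_indicator h.hW.measurableSet]
    congr 1
    funext z
    by_cases hz : z ∈ W
    · rw [indicator_of_mem hz]
      have h1 := h.sum_adj hφ hz j
      have h2 : ((‖(Jm G z).det‖ ^ 2 : ℝ) : ℂ) = (Jm G z).det * conj (Jm G z).det := by
        rw [Complex.mul_conj, Complex.normSq_eq_norm_sq]
      rw [h2]
      calc (Jm G z).det * conj (Jm G z).det * (f z * dbar j φ (G z))
          = (f z * (Jm G z).det) * (conj (Jm G z).det * dbar j φ (G z)) := by ring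
        _ = (f z * (Jm G z).det) * ∑ k, conj ((Jm G z).adjugate k j) * dbar k ψ z := by rw [h1]
        _ = _ := by
            rw [Finset.mul_sum]
            refine Finset.sum_congr rfl fun k _ => ?_
            simp only [ha]; ring
    · rw [indicator_of_notMem hz]
      symm
      refine Finset.sum_eq_zero fun k _ => ?_
      have h5 : fderiv ℝ ψ z = 0 := by
        by_contra h6
        exact hz (hψs (support_fderiv_subset ℝ h6))
      simp [dbar, h5]
  rw [e1, integral_finsetSum _ fun k _ => (hib k).1]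
  have e2 : ∀ k, ∫ z, a k z * dbar k ψ z = - ∫ z, dbar k (a k) z * ψ z := fun k => (hib k).2.2
  simp_rw [e2]
  rw [Finset.sum_neg_distrib, ← integral_finsetSum _ fun k _ => (hib k).2.1, neg_eq_zero]
  have e3 : (fun z => ∑ k, dbar k (a k) z * ψ z) = fun _ => 0 := by
    funext z
    by_cases hz : z ∈ W
    · rw [← Finset.sum_mul]
      have h1 : ∀ k, dbar k (a k) z = (f z * (Jm G z).det) *
          conj (fderiv ℂ (fun z => (Jm G z).adjugate k j) z (Pi.single k 1)) := by
        intro k
        have d1 : DifferentiableAt ℂ (fun z => f z * (Jm G z).det) z :=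
          (hf.mul hdet).differentiableAt (h.hW.mem_nhds hz)
        have d2 : DifferentiableAt ℂ (fun z => (Jm G z).adjugate k j) z :=
          (hadj k).differentiableAt (h.hW.mem_nhds hz)
        have d3 : DifferentiableAt ℝ (fun z => conj ((Jm G z).adjugate k j)) z :=
          (conjCLE : ℂ →L[ℝ] ℂ).differentiableAt.comp z (d2.restrictScalars ℝ)
        have h2 : dbar k (a k) z = _ := dbar_mul (d1.restrictScalars ℝ) d3 k
        rw [h2, dbar_holo d1, dbar_conj d2, zero_mul, zero_add]
      have h3 : ∑ k, dbar k (a k) z = 0 := by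
        simp_rw [h1]
        rw [← Finset.mul_sum, ← map_sum, piola_hol h.hW h.hol hz j]
        simp
      rw [h3, zero_mul]
    · have h5 : ψ z = 0 := by
        by_contra h6
        exact hz (hψs (subset_closure h6))
      simp [h5]
  rw [e3, integral_zero]

end Crest.Agent.R281.Fin_426
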