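import Crest.Agent.R281.HkR2_835
import Crest.Agent.Lib.ODEFlow

/-!
# Row 281, HK-ISO (I1), part 1 (helper222): integral curves of time-dependent vector fields

* `TVF C`        : smooth time-dependent vector field, read in the real charts `C : RCh V X`
* `TVF.IC`       : integral curves, `ic_of_chart`
* `exists_local` : local existence with a uniform time
* `ic_unique`    : uniqueness
-/

set_option autoImplicit false
set_option linter.unusedSectionVars false

open Set Filter Topology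
open scoped ContDiff

noncomputable section

namespace Crest.Agent.R281.Flo_222

open Crest.Agent.R281.HkR_835 Crest.Agent.Lib.ODEFlow

variable {V X : Type} [NormedAddCommGroup V] [NormedSpace ℝ V] [TopologicalSpace X]

/-- A smooth time-dependent vector field, read in the charts: `b i (t, z)`. -/
structure TVF (C : RCh V X) where
  b : C.ι → ℝ × V → V
  sm : ∀ i, ContDiffOn ℝ ∞ (b i) (univ ×ˢ (C.e i).target)
  tr : ∀ i j, ∀ t, ∀ z ∈ C.ov i j, b j (t, C.t i j z) = fderiv ℝ (C.t i j) z (b i (t, z))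

namespace TVF

variable {C : RCh V X} (B : TVF C)

/-- the domain of the suspended field -/
def U (_B : TVF C) (i : C.ι) : Set (ℝ × V) := univ ×ˢ (C.e i).target

theorem mem_U {i : C.ι} {p : ℝ × V} : p ∈ B.U i ↔ p.2 ∈ (C.e i).target := by
  simp [U]

theorem isOpen_U (i : C.ι) : IsOpen (B.U i) := isOpen_univ.prod (C.e i).open_target

/-- the suspended field -/
def vt (i : C.ι) (p : ℝ × V) : ℝ × V := (1, B.b i p)

theorem contDiffOn_vt (i : C.ι) : ContDiffOn ℝ ∞ (B.vt i) (B.U i) :=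
  contDiffOn_const.prodMk (B.sm i)

theorem contDiffOn_vt1 (i : C.ι) : ContDiffOn ℝ 1 (B.vt i) (B.U i) :=
  (B.contDiffOn_vt i).of_le (by simp)

/-- `γ` is an integral curve on `J` -/
def IC (γ : ℝ → X) (J : Set ℝ) : Prop :=
  ∀ t ∈ J, ContinuousAt γ t ∧ ∀ i, γ t ∈ (C.e i).source →
    HasDerivAt (fun r => C.e i (γ r)) (B.b i (t, C.e i (γ t))) t

variable {B}

theorem IC.mono {γ : ℝ → X} {J J' : Set ℝ} (h : B.IC γ J) (hJ : J' ⊆ J) : B.IC γ J' :=
  fun t ht => h t (hJ ht)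

theorem IC.congr {γ γ' : ℝ → X} {J : Set ℝ} (h : B.IC γ J) (hJ : IsOpen J)
    (he : ∀ t ∈ J, γ' t = γ t) : B.IC γ' J := by
  intro t ht
  have h1 : γ' =ᶠ[𝓝 t] γ := by
    filter_upwards [hJ.mem_nhds ht] with r hr using he r hr
  refine ⟨(h t ht).1.congr h1.symm, fun i hi => ?_⟩
  rw [he t ht] at hi ⊢
  refine ((h t ht).2 i hi).congr_of_eventuallyEq ?_
  filter_upwards [h1] with r hr
  rw [hr]

/-- it is enough to check the equation in one chart at each point -/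
theorem ic_of_chart {γ : ℝ → X} {t : ℝ} (hc : ContinuousAt γ t) {i : C.ι}
    (hi : γ t ∈ (C.e i).source)
    (hd : HasDerivAt (fun r => C.e i (γ r)) (B.b i (t, C.e i (γ t))) t) (j : C.ι)
    (hj : γ t ∈ (C.e j).source) :
    HasDerivAt (fun r => C.e j (γ r)) (B.b j (t, C.e j (γ t))) t := by
  have hz : C.e i (γ t) ∈ C.ov i j := ⟨(C.e i).map_source hi, by rwa [(C.e i).left_inv hi]⟩
  have h1 : HasFDerivAt (C.t i j) (fderiv ℝ (C.t i j) (C.e i (γ t))) (C.e i (γ t)) :=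
    (RCh.t_diff hz).hasFDerivAt
  have h2 := h1.comp_hasDerivAt t hd
  have h3 : C.t i j (C.e i (γ t)) = C.e j (γ t) := by
    show C.e j ((C.e i).symm (C.e i (γ t))) = _
    rw [(C.e i).left_inv hi]
  rw [← B.tr i j t _ hz, h3] at h2
  refine h2.congr_of_eventuallyEq ?_
  filter_upwards [hc.eventually ((C.e i).open_source.mem_nhds hi)] with r hr
  show C.e j (γ r) = C.e j ((C.e i).symm (C.e i (γ r)))
  rw [(C.e i).left_inv hr]

theorem eq_of_hasDerivAt_zero {F : Type*} [NormedAddCommGroup F] [NormedSpace ℝ F] {f : ℝ → F}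
    {a b : ℝ} (hf : ∀ s ∈ uIcc a b, HasDerivAt f 0 s) : f b = f a := by
  have h := (convex_uIcc a b).norm_image_sub_le_of_norm_hasDerivWithin_le (C := 0)
    (f := f) (f' := fun _ => (0 : F)) (fun s hs => (hf s hs).hasDerivWithinAt) (by simp)
    (left_mem_uIcc (a := a) (b := b)) (right_mem_uIcc (a := a) (b := b))
  simp only [zero_mul] at h
  exact sub_eq_zero.1 (norm_le_zero_iff.1 h)

variable [CompleteSpace V]

variable (B) in
/-- the local flow in the chart `i` -/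
def lf (i : C.ι) (p : (ℝ × V) × ℝ) : ℝ × V := flow (B.vt i) (B.U i) p

variable (B) in
/-- the domain of the local flow in the chart `i` -/
def ld (i : C.ι) : Set ((ℝ × V) × ℝ) := dom (B.vt i) (B.U i)

theorem isOpen_ld (i : C.ι) : IsOpen (B.ld i) := isOpen_dom (B.isOpen_U i) (B.contDiffOn_vt1 i)

theorem lf_mem {i : C.ι} {p : (ℝ × V) × ℝ} (hp : p ∈ B.ld i) : (B.lf i p).2 ∈ (C.e i).target :=
  B.mem_U.1 (flow_mem (B.isOpen_U i) (B.contDiffOn_vt1 i) hp)

theorem hasDerivAt_lf {i : C.ι} {p : ℝ × V} {l : ℝ} (hp : (p, l) ∈ B.ld i) :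
    HasDerivAt (fun s => B.lf i (p, s)) (B.vt i (B.lf i (p, l))) l :=
  hasDerivAt_flow (B.isOpen_U i) (B.contDiffOn_vt1 i) hp

theorem mem_ld_uIcc {i : C.ι} {p : ℝ × V} {l s : ℝ} (hp : (p, l) ∈ B.ld i) (hs : s ∈ uIcc 0 l) :
    (p, s) ∈ B.ld i := mem_dom_of_uIcc hp hs

theorem lf_zero {i : C.ι} {p : ℝ × V} (hp : p.2 ∈ (C.e i).target) : B.lf i (p, 0) = p :=
  flow_zero (B.isOpen_U i) (B.contDiffOn_vt1 i) (B.mem_U.2 hp)

theorem lf_fst {i : C.ι} {p : ℝ × V} {l : ℝ} (hp : (p, l) ∈ B.ld i) :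
    (B.lf i (p, l)).1 = p.1 + l := by
  have h := eq_of_hasDerivAt_zero (f := fun s => (B.lf i (p, s)).1 - s) (a := 0) (b := l) ?_
  · have h0 : B.lf i (p, 0) = p := by
      refine flow_zero (B.isOpen_U i) (B.contDiffOn_vt1 i) ?_
      exact mem_of_mem_dom (p := (p, l)) hp
    simp only [h0, sub_zero] at h
    linarith
  · intro s hs
    have h1 := hasDerivAt_lf (mem_ld_uIcc hp hs)
    have h2 : HasDerivAt (fun s => (B.lf i (p, s)).1) (B.vt i (B.lf i (p, s))).1 s :=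
      (ContinuousLinearMap.fst ℝ ℝ V).hasFDerivAt.comp_hasDerivAt s h1
    have h3 : HasDerivAt (fun s => (B.lf i (p, s)).1 - s) ((B.vt i (B.lf i (p, s))).1 - 1) s :=
      h2.sub (hasDerivAt_id s)
    simpa [vt] using h3

/-- local existence with a uniform time -/
theorem exists_local (B : TVF C) (s₀ : ℝ) {x₀ : X} {i : C.ι} (hi : x₀ ∈ (C.e i).source) :
    ∃ ε > (0 : ℝ), ∃ W : Set (ℝ × V), IsOpen W ∧ (s₀, C.e i x₀) ∈ W ∧ W ⊆ B.U i ∧
      ∀ p ∈ W, ∀ l, |l| < ε → (p, l) ∈ B.ld i := by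
  have hK : ({(s₀, C.e i x₀)} : Set (ℝ × V)) ⊆ B.U i := by
    rintro _ rfl
    exact B.mem_U.2 ((C.e i).map_source hi)
  obtain ⟨ε, hε, W, hW, hKW, h⟩ := exists_uniform_time (B.isOpen_U i) (B.contDiffOn_vt1 i)
    (isCompact_singleton (x := (s₀, C.e i x₀))) hK
  refine ⟨ε, hε, W ∩ B.U i, hW.inter (B.isOpen_U i), ⟨hKW (mem_singleton _), hK (mem_singleton _)⟩,
    inter_subset_right, fun p hp l hl => h p hp.1 l hl⟩

/-- the integral curve given by the local flow -/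
theorem ic_lf {i : C.ι} {s : ℝ} {z : V} {a c : ℝ}
    (h : ∀ r ∈ Ioo a c, ((s, z), r - s) ∈ B.ld i) :
    B.IC (fun r => (C.e i).symm (B.lf i ((s, z), r - s)).2) (Ioo a c) := by
  intro r hr
  have h0 := h r hr
  have h1 : HasDerivAt (fun r => B.lf i ((s, z), r - s)) (B.vt i (B.lf i ((s, z), r - s))) r := by
    have := (hasDerivAt_lf h0).scomp r ((hasDerivAt_id r).sub_const s)
    simpa [Function.comp_def] using this
  have h2 : HasDerivAt (fun r => (B.lf i ((s, z), r - s)).2)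
      (B.vt i (B.lf i ((s, z), r - s))).2 r :=
    (ContinuousLinearMap.snd ℝ ℝ V).hasFDerivAt.comp_hasDerivAt r h1
  have ht : (B.lf i ((s, z), r - s)).2 ∈ (C.e i).target := lf_mem h0
  have hc : ContinuousAt (fun r => (C.e i).symm (B.lf i ((s, z), r - s)).2) r :=
    ContinuousAt.comp (f := fun r => (B.lf i ((s, z), r - s)).2) (g := (C.e i).symm)
      ((C.e i).continuousAt_symm ht) h2.continuousAt
  refine ⟨hc, fun j hj => ic_of_chart hc (i := i) ((C.e i).map_target ht) ?_ j hj⟩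
  have h3 : (B.vt i (B.lf i ((s, z), r - s))).2 =
      B.b i (r, C.e i ((C.e i).symm (B.lf i ((s, z), r - s)).2)) := by
    rw [(C.e i).right_inv ht]
    have h4 : B.lf i ((s, z), r - s) = (r, (B.lf i ((s, z), r - s)).2) := by
      refine Prod.ext ?_ rfl
      rw [lf_fst h0]
      simp
    show B.b i (B.lf i ((s, z), r - s)) = _
    rw [← h4]
  rw [← h3]
  refine h2.congr_of_eventuallyEq ?_
  have hJ : ∀ᶠ r' in 𝓝 r, r' ∈ Ioo a c := isOpen_Ioo.mem_nhds hr
  filter_upwards [hJ] with r' hr'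
  exact (C.e i).right_inv (lf_mem (h r' hr'))

/-- two integral curves with the same value at `t` agree near `t` -/
theorem ic_eventuallyEq {γ₁ γ₂ : ℝ → X} {J : Set ℝ} (hJ : IsOpen J) (h₁ : B.IC γ₁ J)
    (h₂ : B.IC γ₂ J) {t : ℝ} (ht : t ∈ J) (he : γ₁ t = γ₂ t) : γ₁ =ᶠ[𝓝 t] γ₂ := by
  obtain ⟨i, hi⟩ := C.cover (γ₁ t)
  have hi2 : γ₂ t ∈ (C.e i).source := he ▸ hi
  have hev : ∀ᶠ r in 𝓝 t, r ∈ J ∧ γ₁ r ∈ (C.e i).source ∧ γ₂ r ∈ (C.e i).source := by
    filter_upwards [hJ.mem_nhds ht, (h₁ t ht).1.eventually ((C.e i).open_source.mem_nhds hi),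
      (h₂ t ht).1.eventually ((C.e i).open_source.mem_nhds hi2)] with r a b c using ⟨a, b, c⟩
  obtain ⟨δ, hδ, hb⟩ := Metric.eventually_nhds_iff.1 hev
  refine Metric.eventually_nhds_iff.2 ⟨δ, hδ, fun r hr => ?_⟩
  have key : ∀ γ : ℝ → X, (∀ r, dist r t < δ → r ∈ J ∧ γ r ∈ (C.e i).source) → B.IC γ J →
      flow (B.vt i) (B.U i) ((t, C.e i (γ t)), r - t) = (r, C.e i (γ r)) := by
    intro γ hγ hic
    have h3 := flow_of_integralCurve' (B.isOpen_U i) (B.contDiffOn_vt1 i)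
      (c := fun u => (t + u, C.e i (γ (t + u)))) (x := (t, C.e i (γ t))) (l := r - t) (by simp)
      ?_ ?_
    · rw [h3.2]
      simp
    · intro u hu
      have hu' : dist (t + u) t < δ := by
        rw [Real.dist_eq] at hr ⊢
        have : |u| ≤ |r - t| := by
          have := abs_sub_left_of_mem_uIcc hu
          simpa using this
        simpa using this.trans_lt hr
      exact B.mem_U.2 ((C.e i).map_source (hγ _ hu').2)
    · intro u hu
      have hu' : dist (t + u) t < δ := by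
        rw [Real.dist_eq] at hr ⊢
        have : |u| ≤ |r - t| := by
          have := abs_sub_left_of_mem_uIcc hu
          simpa using this
        simpa using this.trans_lt hr
      have h4 := (hic (t + u) (hγ _ hu').1).2 i (hγ _ hu').2
      have h5 : HasDerivAt (fun u => t + u) 1 u := (hasDerivAt_id u).const_add t
      have h6 := h4.scomp u h5
      rw [one_smul] at h6
      exact h5.prodMk h6
  have k1 := key γ₁ (fun r hr => ⟨(hb hr).1, (hb hr).2.1⟩) h₁
  have k2 := key γ₂ (fun r hr => ⟨(hb hr).1, (hb hr).2.2⟩) h₂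
  rw [he, k2] at k1
  have k3 : C.e i (γ₂ r) = C.e i (γ₁ r) := congrArg Prod.snd k1
  exact ((C.e i).injOn (hb hr).2.1 (hb hr).2.2 k3.symm)

/-- uniqueness of integral curves -/
theorem ic_unique [T2Space X] {γ₁ γ₂ : ℝ → X} {J : Set ℝ} (hJ : IsOpen J) (hJc : IsPreconnected J)
    (h₁ : B.IC γ₁ J) (h₂ : B.IC γ₂ J) {t : ℝ} (ht : t ∈ J) (he : γ₁ t = γ₂ t) :
    ∀ r ∈ J, γ₁ r = γ₂ r := by
  have hu : IsOpen {r | γ₁ =ᶠ[𝓝 r] γ₂} := isOpen_setOfPred_eventually_nhds
  have hsub : J ⊆ {r | γ₁ =ᶠ[𝓝 r] γ₂} := by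
    refine hJc.subset_of_closure_inter_subset hu ⟨t, ht, ic_eventuallyEq hJ h₁ h₂ ht he⟩ ?_
    rintro r ⟨hr, hrJ⟩
    refine ic_eventuallyEq hJ h₁ h₂ hrJ ?_
    by_contra hne
    obtain ⟨A, A', hA, hA', hxA, hxA', hd⟩ := t2_separation hne
    have h3 : ∀ᶠ r' in 𝓝 r, γ₁ r' ∈ A ∧ γ₂ r' ∈ A' :=
      ((h₁ r hrJ).1.eventually (hA.mem_nhds hxA)).and ((h₂ r hrJ).1.eventually (hA'.mem_nhds hxA'))
    obtain ⟨r', hr'1, hr'2⟩ := (mem_closure_iff_nhds.1 hr _ h3)
    have h4 : γ₁ r' = γ₂ r' := Filter.EventuallyEq.eq_of_nhds hr'2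
    exact (Set.disjoint_left.1 hd) hr'1.1 (h4 ▸ hr'1.2)
  intro r hr
  exact Filter.EventuallyEq.eq_of_nhds (hsub hr)

end TVF

end Crest.Agent.R281.Flo_222

end
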