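import Crest.Agent.R281.Flo1_222

/-!
# Row 281, HK-ISO (I1), part 2 (helper222): the global flow of a time-dependent vector field on a
compact space with real charts

* `TVF.Fl B s t x`  : position at time `t` of the integral curve through `x` at time `s`
* `Fl_self`, `Fl_ic`, `Fl_unique`, `Fl_comp`
-/

set_option autoImplicit false
set_option linter.unusedSectionVars false

open Set Filter Topology
open scoped ContDiff

noncomputable section

namespace Crest.Agent.R281.Flo_222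

open Crest.Agent.R281.HkR_835 Crest.Agent.Lib.ODEFlow

variable {V X : Type} [NormedAddCommGroup V] [NormedSpace ℝ V] [TopologicalSpace X]
  [CompleteSpace V]

namespace TVF

variable {C : RCh V X} {B : TVF C}

variable (B) in
/-- the local flow exists for the time `ε` near `p = (s, x)` -/
def Good (ε : ℝ) (p : ℝ × X) : Prop :=
  ∃ i, p.2 ∈ (C.e i).source ∧ ∃ W : Set (ℝ × V), IsOpen W ∧ (p.1, C.e i p.2) ∈ W ∧ W ⊆ B.U i ∧
    ∀ q ∈ W, ∀ l, |l| < ε → (q, l) ∈ B.ld i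

theorem Good.mono {ε ε' : ℝ} {p : ℝ × X} (h : B.Good ε p) (he : ε' ≤ ε) : B.Good ε' p := by
  obtain ⟨i, hi, W, hW, hp, hU, h⟩ := h
  exact ⟨i, hi, W, hW, hp, hU, fun q hq l hl => h q hq l (hl.trans_le he)⟩

/-- uniform time -/
theorem exists_good (B : TVF C) [CompactSpace X] (T : ℝ) :
    ∃ ε > (0 : ℝ), ∀ s ∈ Icc (-T) T, ∀ x : X, B.Good ε (s, x) := by
  have hK : IsCompact (Icc (-T) T ×ˢ (univ : Set X)) := isCompact_Icc.prod isCompact_univ
  have := hK.induction_on (p := fun S => ∃ ε > (0 : ℝ), ∀ p ∈ S, B.Good ε p)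
    ⟨1, one_pos, fun p hp => absurd hp (notMem_empty p)⟩
    (fun S S' h ⟨ε, he, hh⟩ => ⟨ε, he, fun p hp => hh p (h hp)⟩)
    (fun S S' ⟨ε, he, hh⟩ ⟨ε', he', hh'⟩ => ⟨min ε ε', lt_min he he', by
      rintro p (hp | hp)
      · exact (hh p hp).mono (min_le_left _ _)
      · exact (hh' p hp).mono (min_le_right _ _)⟩)
    ?_
  · obtain ⟨ε, he, h⟩ := this
    exact ⟨ε, he, fun s hs x => h (s, x) ⟨hs, mem_univ _⟩⟩
  · rintro ⟨s₀, x₀⟩ -
    obtain ⟨i, hi⟩ := C.cover x₀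
    obtain ⟨ε, he, W, hW, hp, hU, h⟩ := exists_local B s₀ hi
    have hN : {p : ℝ × X | p.2 ∈ (C.e i).source ∧ (p.1, C.e i p.2) ∈ W} ∈ 𝓝 (s₀, x₀) := by
      have h1 : ContinuousAt (fun p : ℝ × X => (p.1, C.e i p.2)) (s₀, x₀) :=
        continuousAt_fst.prodMk (ContinuousAt.comp (f := fun p : ℝ × X => p.2) (g := C.e i)
          ((C.e i).continuousAt hi) continuousAt_snd)
      filter_upwards [continuousAt_snd.eventually ((C.e i).open_source.mem_nhds hi),
        h1.eventually (hW.mem_nhds hp)] with p h2 h3 using ⟨h2, h3⟩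
    exact ⟨_, mem_nhdsWithin_of_mem_nhds hN, ε, he, fun p hp => ⟨i, hp.1, W, hW, hp.2, hU, h⟩⟩

/-- the integral curve of a good point -/
theorem Good.curve {ε : ℝ} (_hε : 0 < ε) {s : ℝ} {x : X} (h : B.Good ε (s, x)) :
    ∃ γ : ℝ → X, γ s = x ∧ B.IC γ (Ioo (s - ε) (s + ε)) := by
  obtain ⟨i, hi, W, hW, hp, hU, h⟩ := h
  refine ⟨fun r => (C.e i).symm (B.lf i ((s, C.e i x), r - s)).2, ?_, ?_⟩
  · show (C.e i).symm (B.lf i ((s, C.e i x), s - s)).2 = x
    rw [sub_self, lf_zero ((C.e i).map_source hi)]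
    exact (C.e i).left_inv hi
  · refine ic_lf fun r hr => h _ hp _ ?_
    rw [abs_lt]
    constructor <;> linarith [hr.1, hr.2]

/-- gluing of integral curves -/
theorem glue {γ γ' : ℝ → X} {J J' : Set ℝ} (hJ : IsOpen J) (hJ' : IsOpen J') (h : B.IC γ J)
    (h' : B.IC γ' J') {r : ℝ} (hr : r ∈ J) (hr' : r ∈ J') (he : γ r = γ' r) :
    ∃ γ'' : ℝ → X, (∀ t ≤ r, γ'' t = γ t) ∧ (∀ t, r ≤ t → γ'' t = γ' t) ∧
      B.IC γ'' ((J ∩ Iic r) ∪ (J' ∩ Ici r)) := by
  classical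
  let g : ℝ → X := fun t => if t ≤ r then γ t else γ' t
  have h1 : ∀ t ≤ r, g t = γ t := fun t ht => if_pos ht
  have h2 : ∀ t, r ≤ t → g t = γ' t := by
    intro t ht
    rcases ht.eq_or_lt with rfl | ht
    · rw [h1 _ le_rfl, he]
    · exact if_neg (not_le.2 ht)
  have key : ∀ {γ₀ : ℝ → X} {t : ℝ} {J₀ : Set ℝ}, B.IC γ₀ J₀ → t ∈ J₀ → g =ᶠ[𝓝 t] γ₀ →
      ContinuousAt g t ∧ ∀ i, g t ∈ (C.e i).source →
        HasDerivAt (fun r => C.e i (g r)) (B.b i (t, C.e i (g t))) t := by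
    intro γ₀ t J₀ hic ht hev
    have h3 : g t = γ₀ t := hev.eq_of_nhds
    refine ⟨(hic t ht).1.congr hev.symm, fun i hi => ?_⟩
    rw [h3] at hi ⊢
    refine ((hic t ht).2 i hi).congr_of_eventuallyEq ?_
    filter_upwards [hev] with u hu
    rw [hu]
  have hlt : ∀ t < r, g =ᶠ[𝓝 t] γ := by
    intro t ht
    filter_upwards [isOpen_Iio.mem_nhds ht] with u hu using h1 u (le_of_lt hu)
  have hgt : ∀ t, r < t → g =ᶠ[𝓝 t] γ' := by
    intro t ht
    filter_upwards [isOpen_Ioi.mem_nhds ht] with u hu using h2 u (le_of_lt hu)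
  have heq : g =ᶠ[𝓝 r] γ := by
    filter_upwards [ic_eventuallyEq (hJ.inter hJ') (h.mono inter_subset_left)
      (h'.mono inter_subset_right) ⟨hr, hr'⟩ he] with u hu
    rcases le_total u r with h3 | h3
    · exact h1 u h3
    · rw [h2 u h3, hu]
  refine ⟨g, h1, h2, ?_⟩
  rintro t (⟨ht, htr⟩ | ⟨ht, htr⟩)
  · rcases (mem_Iic.1 htr).eq_or_lt with rfl | h3
    · exact key h ht heq
    · exact key h ht (hlt t h3)
  · rcases (mem_Ici.1 htr).eq_or_lt with rfl | h3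
    · exact key h hr heq
    · exact key h' ht (hgt t h3)

/-- integral curves on `(-T, T)` -/
theorem exists_curve_Ioo (B : TVF C) [CompactSpace X] {T : ℝ} :
    ∀ s ∈ Ioo (-T) T, ∀ x : X, ∃ γ : ℝ → X, γ s = x ∧ B.IC γ (Ioo (-T) T) := by
  obtain ⟨ε, hε, hg⟩ := exists_good B T
  set δ := ε / 2 with hδ
  have hδ0 : 0 < δ := by positivity
  have step : ∀ n : ℕ, ∀ s ∈ Ioo (-T) T, ∀ x : X, ∃ γ : ℝ → X, γ s = x ∧
      B.IC γ (Ioo (-T) T ∩ Ioo (s - (n + 1) * δ) (s + (n + 1) * δ)) := by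
    intro n
    induction n with
    | zero =>
      intro s hs x
      obtain ⟨γ, h1, h2⟩ := (hg s (Ioo_subset_Icc_self hs) x).curve hε
      refine ⟨γ, h1, h2.mono ?_⟩
      rintro t ⟨-, ht⟩
      simp only [Nat.cast_zero, zero_add, one_mul, mem_Ioo] at ht ⊢
      constructor <;> linarith [ht.1, ht.2]
    | succ n ih =>
      intro s hs x
      obtain ⟨γ₀, h01, h02⟩ := (hg s (Ioo_subset_Icc_self hs) x).curve hε
      have hn : (0 : ℝ) ≤ (n : ℝ) * δ := by positivity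
      -- to the right
      obtain ⟨γR, hR1, hR2⟩ : ∃ γR : ℝ → X, γR s = x ∧
          B.IC γR (Ioo (-T) T ∩ Ioo (s - ε) (s + (n + 2) * δ)) := by
        by_cases hr : s + δ < T
        · obtain ⟨γ₁, h11, h12⟩ := ih (s + δ) ⟨by linarith [hs.1], hr⟩ (γ₀ (s + δ))
          have hr1 : s + δ ∈ Ioo (s - ε) (s + ε) := ⟨by linarith, by linarith⟩
          have hr2 : s + δ ∈ Ioo (-T) T ∩ Ioo (s + δ - (n + 1) * δ) (s + δ + (n + 1) * δ) :=
            ⟨⟨by linarith [hs.1], hr⟩, by nlinarith, by nlinarith⟩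
          obtain ⟨g, g1, g2, g3⟩ := glue isOpen_Ioo (isOpen_Ioo.inter isOpen_Ioo) h02 h12 hr1 hr2
            h11.symm
          refine ⟨g, by rw [g1 s (by linarith), h01], g3.mono ?_⟩
          rintro t ⟨ht1, ht2⟩
          rcases le_total t (s + δ) with h | h
          · exact Or.inl ⟨⟨ht2.1, by linarith⟩, h⟩
          · refine Or.inr ⟨⟨ht1, ?_, ?_⟩, h⟩
            · nlinarith
            · nlinarith [ht2.2]
        · refine ⟨γ₀, h01, h02.mono ?_⟩
          rintro t ⟨ht1, ht2⟩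
          push Not at hr
          exact ⟨ht2.1, by linarith [ht1.2]⟩
      -- to the left
      by_cases hl : -T < s - δ
      · obtain ⟨γ₁, h11, h12⟩ := ih (s - δ) ⟨hl, by linarith [hs.2]⟩ (γR (s - δ))
        have hr1 : s - δ ∈ Ioo (-T) T ∩ Ioo (s - ε) (s + (n + 2) * δ) :=
          ⟨⟨hl, by linarith [hs.2]⟩, by linarith, by nlinarith⟩
        have hr2 : s - δ ∈ Ioo (-T) T ∩ Ioo (s - δ - (n + 1) * δ) (s - δ + (n + 1) * δ) :=
          ⟨⟨hl, by linarith [hs.2]⟩, by nlinarith, by nlinarith⟩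
        obtain ⟨g, g1, g2, g3⟩ := glue (isOpen_Ioo.inter isOpen_Ioo)
          (isOpen_Ioo.inter isOpen_Ioo) h12 hR2 hr2 hr1 h11
        refine ⟨g, by rw [g2 s (by linarith), hR1], g3.mono ?_⟩
        rintro t ⟨ht1, ht2⟩
        push_cast at ht2
        rcases le_total t (s - δ) with h | h
        · refine Or.inl ⟨⟨ht1, ?_, ?_⟩, h⟩
          · nlinarith [ht2.1]
          · nlinarith
        · refine Or.inr ⟨⟨ht1, ?_, ?_⟩, h⟩
          · linarith
          · nlinarith [ht2.2]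
      · refine ⟨γR, hR1, hR2.mono ?_⟩
        rintro t ⟨ht1, ht2⟩
        push Not at hl
        push_cast at ht2
        exact ⟨ht1, by linarith [ht1.1], by nlinarith [ht2.2]⟩
  intro s hs x
  obtain ⟨n, hn⟩ := exists_nat_ge (2 * T / δ)
  obtain ⟨γ, h1, h2⟩ := step n s hs x
  refine ⟨γ, h1, h2.mono fun t ht => ⟨ht, ?_⟩⟩
  rw [div_le_iff₀ hδ0] at hn
  constructor <;> nlinarith [ht.1, ht.2, hs.1, hs.2]

/-- integral curves exist for all times -/
theorem exists_curve (B : TVF C) [CompactSpace X] [T2Space X] (s : ℝ) (x : X) :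
    ∃ γ : ℝ → X, γ s = x ∧ B.IC γ univ := by
  have h : ∀ n : ℕ, ∃ γ : ℝ → X, γ s = x ∧ B.IC γ (Ioo (-(|s| + n + 1)) (|s| + n + 1)) := by
    intro n
    refine exists_curve_Ioo B s ?_ x
    have h1 := neg_abs_le s
    have h2 := le_abs_self s
    have h3 : (0 : ℝ) ≤ n := n.cast_nonneg
    constructor <;> linarith
  choose γ h1 h2 using h
  have hs : ∀ n : ℕ, s ∈ Ioo (-(|s| + n + 1)) (|s| + n + 1) := by
    intro n
    have h1 := neg_abs_le s
    have h2 := le_abs_self s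
    have h3 : (0 : ℝ) ≤ n := n.cast_nonneg
    constructor <;> linarith
  have hag : ∀ m n : ℕ, m ≤ n → ∀ t ∈ Ioo (-(|s| + m + 1)) (|s| + m + 1), γ m t = γ n t := by
    intro m n hmn
    have hc : (m : ℝ) ≤ n := by exact_mod_cast hmn
    refine ic_unique isOpen_Ioo isPreconnected_Ioo (h2 m) ((h2 n).mono ?_) (hs m) ?_
    · intro t ht
      exact ⟨by linarith [ht.1], by linarith [ht.2]⟩
    · rw [h1, h1]
  refine ⟨fun t => γ ⌈|t|⌉₊ t, h1 _, ?_⟩
  intro t _
  have hev : (fun t => γ ⌈|t|⌉₊ t) =ᶠ[𝓝 t] γ ⌈|t| + 1⌉₊ := by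
    filter_upwards [Metric.ball_mem_nhds t one_pos] with u hu
    rw [Metric.mem_ball, Real.dist_eq] at hu
    have h3 : |u| ≤ |t| + 1 := by
      have := abs_sub_abs_le_abs_sub u t
      linarith
    refine hag _ _ (Nat.ceil_mono h3) u ?_
    have h4 := Nat.le_ceil |u|
    have h5 := neg_abs_le u
    have h6 := le_abs_self u
    have h7 := abs_nonneg s
    constructor <;> linarith
  have ht : t ∈ Ioo (-(|s| + (⌈|t| + 1⌉₊ : ℝ) + 1)) (|s| + (⌈|t| + 1⌉₊ : ℝ) + 1) := by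
    have h4 := Nat.le_ceil (|t| + 1)
    have h5 := neg_abs_le t
    have h6 := le_abs_self t
    have h7 := abs_nonneg s
    constructor <;> linarith
  have h8 := h2 _ t ht
  have h9 : (fun t => γ ⌈|t|⌉₊ t) t = γ ⌈|t| + 1⌉₊ t := hev.eq_of_nhds
  refine ⟨h8.1.congr hev.symm, fun i hi => ?_⟩
  rw [h9] at hi ⊢
  refine (h8.2 i hi).congr_of_eventuallyEq ?_
  filter_upwards [hev] with u hu
  exact congrArg (C.e i) hu

variable [CompactSpace X] [T2Space X]

variable (B) in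
/-- the flow: position at the time `t` of the integral curve through `x` at the time `s` -/
def Fl (s t : ℝ) (x : X) : X := (exists_curve B s x).choose t

theorem Fl_self (s : ℝ) (x : X) : B.Fl s s x = x := (exists_curve B s x).choose_spec.1

theorem Fl_ic (s : ℝ) (x : X) : B.IC (fun t => B.Fl s t x) univ :=
  (exists_curve B s x).choose_spec.2

/-- uniqueness -/
theorem Fl_unique {γ : ℝ → X} {J : Set ℝ} (hJ : IsOpen J) (hJc : IsPreconnected J)
    (h : B.IC γ J) {s : ℝ} (hs : s ∈ J) : ∀ t ∈ J, B.Fl s t (γ s) = γ t :=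
  ic_unique hJ hJc ((Fl_ic s (γ s)).mono (subset_univ _)) h hs (Fl_self s (γ s))

theorem Fl_comp (s r t : ℝ) (x : X) : B.Fl r t (B.Fl s r x) = B.Fl s t x :=
  Fl_unique (γ := fun t => B.Fl s t x) isOpen_univ isPreconnected_univ (Fl_ic s x)
    (mem_univ r) t (mem_univ t)

theorem Fl_inv (s t : ℝ) (x : X) : B.Fl t s (B.Fl s t x) = x := by
  rw [Fl_comp, Fl_self]

theorem Fl_continuousAt (s t : ℝ) (x : X) : ContinuousAt (fun t => B.Fl s t x) t :=
  (Fl_ic s x t (mem_univ t)).1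

theorem Fl_hasDerivAt {s t : ℝ} {x : X} {i : C.ι} (hi : B.Fl s t x ∈ (C.e i).source) :
    HasDerivAt (fun t => C.e i (B.Fl s t x)) (B.b i (t, C.e i (B.Fl s t x))) t :=
  (Fl_ic s x t (mem_univ t)).2 i hi

end TVF

end Crest.Agent.R281.Flo_222

end
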