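import Crest.Agent.R281.Flo2_222

/-!
# Row 281, HK-ISO (I1), part 3 (helper222): smoothness of the flow

* `TVF.Sm B s t x`      : the flow is continuous and, in charts, `C^∞` at `(s, t, x)`
* `sm_all`              : `Sm B s t x` for all `s t x`
* `Fl_contDiffAt`, `Fl_continuous`
-/

set_option autoImplicit false
set_option linter.unusedSectionVars false

open Set Filter Topology
open scoped ContDiff

noncomputable section

namespace Crest.Agent.R281.Flo_222

open Crest.Agent.R281.HkR_835 Crest.Agent.Lib.ODEFlow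

variable {V X : Type} [NormedAddCommGroup V] [NormedSpace ℝ V] [TopologicalSpace X]
  [CompleteSpace V] [CompactSpace X] [T2Space X]

namespace TVF

variable {C : RCh V X} {B : TVF C}

variable (B) in
/-- the flow read in the charts `i` (source) and `j` (target) -/
def rd (i j : C.ι) (p : ℝ × ℝ × V) : V := C.e j (B.Fl p.1 p.2.1 ((C.e i).symm p.2.2))

variable (B) in
/-- the flow is continuous and smooth at `(s, t, x)` -/
def Sm (s t : ℝ) (x : X) : Prop :=
  ContinuousAt (fun p : ℝ × ℝ × X => B.Fl p.1 p.2.1 p.2.2) (s, t, x) ∧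
    ∀ i j, x ∈ (C.e i).source → B.Fl s t x ∈ (C.e j).source →
      ContDiffAt ℝ ∞ (B.rd i j) (s, t, C.e i x)

/-- independence of the charts -/
theorem sm_of_chart {s t : ℝ} {x : X}
    (hc : ContinuousAt (fun p : ℝ × ℝ × X => B.Fl p.1 p.2.1 p.2.2) (s, t, x)) {i j : C.ι}
    (hi : x ∈ (C.e i).source) (hj : B.Fl s t x ∈ (C.e j).source)
    (h : ContDiffAt ℝ ∞ (B.rd i j) (s, t, C.e i x)) : B.Sm s t x := by
  refine ⟨hc, fun i' j' hi' hj' => ?_⟩
  -- change of the source chart
  have hz : C.e i' x ∈ C.ov i' i := ⟨(C.e i').map_source hi', by rwa [(C.e i').left_inv hi']⟩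
  have h1 : ContDiffAt ℝ ∞ (fun p : ℝ × ℝ × V => (p.1, p.2.1, C.t i' i p.2.2))
      (s, t, C.e i' x) := by
    have h2 : ContDiffAt ℝ ∞ (C.t i' i) (C.e i' x) :=
      (RCh.t_smooth i' i).contDiffAt ((RCh.isOpen_ov i' i).mem_nhds hz)
    have h3 : ContDiffAt ℝ ∞ (fun p : ℝ × ℝ × V => C.t i' i p.2.2) (s, t, C.e i' x) :=
      ContDiffAt.comp (g := C.t i' i) (f := fun p : ℝ × ℝ × V => p.2.2) (s, t, C.e i' x) h2
        (contDiffAt_snd.snd)
    exact contDiffAt_fst.prodMk (contDiffAt_snd.fst.prodMk h3)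
  have hti : C.t i' i (C.e i' x) = C.e i x := by
    show C.e i ((C.e i').symm (C.e i' x)) = _
    rw [(C.e i').left_inv hi']
  have h4 : ContDiffAt ℝ ∞ (B.rd i j ∘ fun p : ℝ × ℝ × V => (p.1, p.2.1, C.t i' i p.2.2))
      (s, t, C.e i' x) := by
    refine ContDiffAt.comp (s, t, C.e i' x) ?_ h1
    show ContDiffAt ℝ ∞ (B.rd i j) (s, t, C.t i' i (C.e i' x))
    rw [hti]
    exact h
  -- change of the target chart
  have hw : C.e j (B.Fl s t x) ∈ C.ov j j' :=
    ⟨(C.e j).map_source hj, by rwa [(C.e j).left_inv hj]⟩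
  have h5 : ContDiffAt ℝ ∞ (C.t j j') (C.e j (B.Fl s t x)) :=
    (RCh.t_smooth j j').contDiffAt ((RCh.isOpen_ov j j').mem_nhds hw)
  have hval : (B.rd i j ∘ fun p : ℝ × ℝ × V => (p.1, p.2.1, C.t i' i p.2.2)) (s, t, C.e i' x) =
      C.e j (B.Fl s t x) := by
    show C.e j (B.Fl s t ((C.e i).symm (C.t i' i (C.e i' x)))) = _
    rw [hti, (C.e i).left_inv hi]
  have h6 : ContDiffAt ℝ ∞ (C.t j j' ∘ (B.rd i j ∘
      fun p : ℝ × ℝ × V => (p.1, p.2.1, C.t i' i p.2.2))) (s, t, C.e i' x) := by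
    refine ContDiffAt.comp (s, t, C.e i' x) ?_ h4
    rw [hval]
    exact h5
  refine h6.congr_of_eventuallyEq ?_
  -- the two functions agree near the point
  have hcz : ContinuousAt (fun p : ℝ × ℝ × V => B.Fl p.1 p.2.1 ((C.e i').symm p.2.2))
      (s, t, C.e i' x) := by
    have h7 : ContinuousAt (fun p : ℝ × ℝ × V => (p.1, p.2.1, (C.e i').symm p.2.2))
        (s, t, C.e i' x) := by
      refine continuousAt_fst.prodMk ((continuousAt_fst.comp continuousAt_snd).prodMk ?_)
      exact ContinuousAt.comp (g := (C.e i').symm) (f := fun p : ℝ × ℝ × V => p.2.2)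
        ((C.e i').continuousAt_symm hz.1) (continuousAt_snd.comp continuousAt_snd)
    refine ContinuousAt.comp (g := fun p : ℝ × ℝ × X => B.Fl p.1 p.2.1 p.2.2) ?_ h7
    show ContinuousAt _ (s, t, (C.e i').symm (C.e i' x))
    rw [(C.e i').left_inv hi']
    exact hc
  have hv : (fun p : ℝ × ℝ × V => B.Fl p.1 p.2.1 ((C.e i').symm p.2.2)) (s, t, C.e i' x) =
      B.Fl s t x := by
    show B.Fl s t ((C.e i').symm (C.e i' x)) = _
    rw [(C.e i').left_inv hi']
  have e1 : ∀ᶠ p : ℝ × ℝ × V in 𝓝 (s, t, C.e i' x),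
      B.Fl p.1 p.2.1 ((C.e i').symm p.2.2) ∈ (C.e j).source := by
    refine hcz.eventually ?_
    rw [hv]
    exact (C.e j).open_source.mem_nhds hj
  have e2 : ∀ᶠ p : ℝ × ℝ × V in 𝓝 (s, t, C.e i' x), p.2.2 ∈ C.ov i' i :=
    (continuousAt_snd.comp continuousAt_snd).eventually ((RCh.isOpen_ov i' i).mem_nhds hz)
  filter_upwards [e1, e2] with p hp1 hp2
  show C.e j' (B.Fl p.1 p.2.1 ((C.e i').symm p.2.2)) =
    C.e j' ((C.e j).symm (C.e j (B.Fl p.1 p.2.1 ((C.e i).symm (C.e i ((C.e i').symm p.2.2))))))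
  rw [(C.e i).left_inv hp2.2, (C.e j).left_inv hp1]

/-- smoothness for short times -/
theorem Good.sm {ε : ℝ} {s t : ℝ} {x : X} (h : B.Good ε (s, x)) (ht : |t - s| < ε) :
    B.Sm s t x := by
  obtain ⟨i, hi, W, hW, hp, hU, hd⟩ := h
  -- the flow is given by the local flow
  have key : ∀ q ∈ W, ∀ r, |r - q.1| < ε →
      B.Fl q.1 r ((C.e i).symm q.2) = (C.e i).symm (B.lf i (q, r - q.1)).2 := by
    intro q hq r hr
    have hic : B.IC (fun r => (C.e i).symm (B.lf i ((q.1, q.2), r - q.1)).2)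
        (Ioo (q.1 - ε) (q.1 + ε)) := ic_lf fun r hr => hd _ hq _ (by
          rw [abs_lt]
          constructor <;> linarith [hr.1, hr.2])
    have hε : 0 < ε := (abs_nonneg _).trans_lt hr
    have h1 := Fl_unique isOpen_Ioo isPreconnected_Ioo hic (s := q.1)
      ⟨by linarith, by linarith⟩ r (by
        rw [abs_lt] at hr
        exact ⟨by linarith [hr.1], by linarith [hr.2]⟩)
    have h2 : (C.e i).symm (B.lf i ((q.1, q.2), q.1 - q.1)).2 = (C.e i).symm q.2 := by
      rw [sub_self, lf_zero (B.mem_U.1 (hU hq))]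
    rw [h2] at h1
    exact h1
  -- the set where the formula holds
  have hev : ∀ᶠ p : ℝ × ℝ × V in 𝓝 (s, t, C.e i x), (p.1, p.2.2) ∈ W ∧ |p.2.1 - p.1| < ε := by
    have c1 : Continuous (fun p : ℝ × ℝ × V => (p.1, p.2.2)) := by fun_prop
    have c2 : Continuous (fun p : ℝ × ℝ × V => |p.2.1 - p.1|) := by fun_prop
    have h9 : ∀ᶠ p : ℝ × ℝ × V in 𝓝 (s, t, C.e i x), |p.2.1 - p.1| < ε :=
      c2.continuousAt.eventually (Iio_mem_nhds ht)
    exact (c1.continuousAt.eventually (hW.mem_nhds hp)).and h9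
  -- smoothness of the local flow
  have h3 : ContDiffAt ℝ ∞ (fun p : ℝ × ℝ × V => (B.lf i ((p.1, p.2.2), p.2.1 - p.1)).2)
      (s, t, C.e i x) := by
    have h4 : ContDiffOn ℝ ∞ (B.lf i) (B.ld i) :=
      contDiffOn_flow (n := ⊤) (by simp) (B.isOpen_U i) (B.contDiffOn_vt i)
    have h5 : ContDiffAt ℝ ∞ (B.lf i) ((s, C.e i x), t - s) :=
      h4.contDiffAt (isOpen_ld i |>.mem_nhds (hd _ hp _ ht))
    have h6 : ContDiffAt ℝ ∞ (fun p : ℝ × ℝ × V => ((p.1, p.2.2), p.2.1 - p.1)) (s, t, C.e i x) := by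
      fun_prop
    exact (ContDiffAt.comp (g := B.lf i) (s, t, C.e i x) h5 h6).snd
  have ht2 : (B.lf i ((s, C.e i x), t - s)).2 ∈ (C.e i).target := lf_mem (hd _ hp _ ht)
  have hFl : B.Fl s t x = (C.e i).symm (B.lf i ((s, C.e i x), t - s)).2 := by
    have := key _ hp t ht
    rwa [(C.e i).left_inv hi] at this
  -- continuity
  have hc : ContinuousAt (fun p : ℝ × ℝ × X => B.Fl p.1 p.2.1 p.2.2) (s, t, x) := by
    have h7 : ContinuousAt (fun p : ℝ × ℝ × X => (p.1, p.2.1, C.e i p.2.2)) (s, t, x) := by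
      refine continuousAt_fst.prodMk ((continuousAt_fst.comp continuousAt_snd).prodMk ?_)
      exact ContinuousAt.comp (g := C.e i) (f := fun p : ℝ × ℝ × X => p.2.2)
        ((C.e i).continuousAt hi) (continuousAt_snd.comp continuousAt_snd)
    have h8 : ContinuousAt (fun p : ℝ × ℝ × X =>
        (C.e i).symm (B.lf i ((p.1, C.e i p.2.2), p.2.1 - p.1)).2) (s, t, x) := by
      refine ContinuousAt.comp (g := (C.e i).symm) (f := fun p : ℝ × ℝ × X =>
        (B.lf i ((p.1, C.e i p.2.2), p.2.1 - p.1)).2) ((C.e i).continuousAt_symm ht2) ?_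
      exact ContinuousAt.comp (g := fun p : ℝ × ℝ × V => (B.lf i ((p.1, p.2.2), p.2.1 - p.1)).2)
        (f := fun p : ℝ × ℝ × X => (p.1, p.2.1, C.e i p.2.2)) h3.continuousAt h7
    refine h8.congr ?_
    have hs : ∀ᶠ p : ℝ × ℝ × X in 𝓝 (s, t, x), p.2.2 ∈ (C.e i).source :=
      (continuousAt_snd.comp continuousAt_snd).eventually ((C.e i).open_source.mem_nhds hi)
    filter_upwards [h7.eventually hev, hs] with p hp1 hp2
    have := key _ hp1.1 p.2.1 hp1.2
    rw [(C.e i).left_inv hp2] at this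
    exact this.symm
  have hj : B.Fl s t x ∈ (C.e i).source := by
    rw [hFl]
    exact (C.e i).map_target ht2
  refine sm_of_chart hc hi hj (h3.congr_of_eventuallyEq ?_)
  filter_upwards [hev] with p hp1
  show C.e i (B.Fl p.1 p.2.1 ((C.e i).symm p.2.2)) = _
  rw [key _ hp1.1 p.2.1 hp1.2]
  exact (C.e i).right_inv (lf_mem (hd _ hp1.1 _ hp1.2))

/-- composition -/
theorem Sm.comp {s r t : ℝ} {x : X} (h1 : B.Sm s r x) (h2 : B.Sm r t (B.Fl s r x)) :
    B.Sm s t x := by
  have hval : B.Fl r t (B.Fl s r x) = B.Fl s t x := Fl_comp s r t x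
  have hc1 : ContinuousAt (fun p : ℝ × ℝ × X => B.Fl p.1 r p.2.2) (s, t, x) := by
    have h3 : ContinuousAt (fun p : ℝ × ℝ × X => (p.1, r, p.2.2)) (s, t, x) := by
      refine continuousAt_fst.prodMk (continuousAt_const.prodMk ?_)
      exact continuousAt_snd.comp continuousAt_snd
    exact ContinuousAt.comp (g := fun p : ℝ × ℝ × X => B.Fl p.1 p.2.1 p.2.2)
      (f := fun p : ℝ × ℝ × X => (p.1, r, p.2.2)) h1.1 h3
  have hc : ContinuousAt (fun p : ℝ × ℝ × X => B.Fl p.1 p.2.1 p.2.2) (s, t, x) := by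
    have h3 : ContinuousAt (fun p : ℝ × ℝ × X => (r, p.2.1, B.Fl p.1 r p.2.2)) (s, t, x) :=
      continuousAt_const.prodMk ((continuousAt_fst.comp continuousAt_snd).prodMk hc1)
    have h4 := ContinuousAt.comp (g := fun p : ℝ × ℝ × X => B.Fl p.1 p.2.1 p.2.2)
      (f := fun p : ℝ × ℝ × X => (r, p.2.1, B.Fl p.1 r p.2.2)) (x := (s, t, x)) h2.1 h3
    refine h4.congr (Eventually.of_forall fun p => ?_)
    exact Fl_comp p.1 r p.2.1 p.2.2
  obtain ⟨i, hi⟩ := C.cover x
  obtain ⟨k, hk⟩ := C.cover (B.Fl s r x)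
  obtain ⟨j, hj⟩ := C.cover (B.Fl s t x)
  refine sm_of_chart hc hi hj ?_
  have a1 : ContDiffAt ℝ ∞ (fun p : ℝ × ℝ × V => B.rd i k (p.1, r, p.2.2)) (s, t, C.e i x) := by
    have h3 : ContDiffAt ℝ ∞ (fun p : ℝ × ℝ × V => (p.1, r, p.2.2)) (s, t, C.e i x) := by fun_prop
    exact ContDiffAt.comp (g := B.rd i k) (f := fun p : ℝ × ℝ × V => (p.1, r, p.2.2))
      (s, t, C.e i x) (h1.2 i k hi hk) h3
  have a2 : B.rd i k (s, r, C.e i x) = C.e k (B.Fl s r x) := by
    show C.e k (B.Fl s r ((C.e i).symm (C.e i x))) = _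
    rw [(C.e i).left_inv hi]
  have a3 : ContDiffAt ℝ ∞ (B.rd k j) (r, t, C.e k (B.Fl s r x)) :=
    h2.2 k j hk (by rw [hval]; exact hj)
  have a4 : ContDiffAt ℝ ∞ (fun p : ℝ × ℝ × V => B.rd k j (r, p.2.1, B.rd i k (p.1, r, p.2.2)))
      (s, t, C.e i x) := by
    have h3 : ContDiffAt ℝ ∞ (fun p : ℝ × ℝ × V => (r, p.2.1, B.rd i k (p.1, r, p.2.2)))
        (s, t, C.e i x) := contDiffAt_const.prodMk (contDiffAt_snd.fst.prodMk a1)
    refine ContDiffAt.comp (g := B.rd k j)
      (f := fun p : ℝ × ℝ × V => (r, p.2.1, B.rd i k (p.1, r, p.2.2))) (s, t, C.e i x) ?_ h3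
    show ContDiffAt ℝ ∞ (B.rd k j) (r, t, B.rd i k (s, r, C.e i x))
    rw [a2]
    exact a3
  refine a4.congr_of_eventuallyEq ?_
  have hcz : ContinuousAt (fun p : ℝ × ℝ × V => B.Fl p.1 r ((C.e i).symm p.2.2))
      (s, t, C.e i x) := by
    have h7 : ContinuousAt (fun p : ℝ × ℝ × V => (p.1, p.2.1, (C.e i).symm p.2.2))
        (s, t, C.e i x) := by
      refine continuousAt_fst.prodMk ((continuousAt_fst.comp continuousAt_snd).prodMk ?_)
      exact ContinuousAt.comp (g := (C.e i).symm) (f := fun p : ℝ × ℝ × V => p.2.2)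
        ((C.e i).continuousAt_symm ((C.e i).map_source hi)) (continuousAt_snd.comp continuousAt_snd)
    refine ContinuousAt.comp (g := fun p : ℝ × ℝ × X => B.Fl p.1 r p.2.2)
      (f := fun p : ℝ × ℝ × V => (p.1, p.2.1, (C.e i).symm p.2.2)) ?_ h7
    show ContinuousAt _ (s, t, (C.e i).symm (C.e i x))
    rw [(C.e i).left_inv hi]
    exact hc1
  have e1 : ∀ᶠ p : ℝ × ℝ × V in 𝓝 (s, t, C.e i x),
      B.Fl p.1 r ((C.e i).symm p.2.2) ∈ (C.e k).source := by
    refine hcz.eventually ?_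
    show _ ∈ 𝓝 (B.Fl s r ((C.e i).symm (C.e i x)))
    rw [(C.e i).left_inv hi]
    exact (C.e k).open_source.mem_nhds hk
  filter_upwards [e1] with p hp1
  show C.e j (B.Fl p.1 p.2.1 ((C.e i).symm p.2.2)) =
    C.e j (B.Fl r p.2.1 ((C.e k).symm (C.e k (B.Fl p.1 r ((C.e i).symm p.2.2)))))
  rw [(C.e k).left_inv hp1, Fl_comp]

/-- **the flow is smooth** -/
theorem sm_all (B : TVF C) (s t : ℝ) (x : X) : B.Sm s t x := by
  set T := |s| + |t| with hT
  obtain ⟨ε, hε, hg⟩ := exists_good B T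
  have hsT : s ∈ Icc (-T) T := by
    constructor <;> [have := neg_abs_le s; have := le_abs_self s] <;>
      have := abs_nonneg t <;> linarith
  have htT : t ∈ Icc (-T) T := by
    constructor <;> [have := neg_abs_le t; have := le_abs_self t] <;>
      have := abs_nonneg s <;> linarith
  have step : ∀ n : ℕ, ∀ s ∈ Icc (-T) T, ∀ t ∈ Icc (-T) T, ∀ x : X,
      |t - s| < (n + 1) * (ε / 2) → B.Sm s t x := by
    intro n
    induction n with
    | zero =>
      intro s hs t ht x h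
      refine (hg s hs x).sm (h.trans_le ?_)
      simp only [Nat.cast_zero, zero_add, one_mul]
      linarith
    | succ n ih =>
      intro s hs t ht x h
      push_cast at h
      by_cases h0 : |t - s| < (n + 1) * (ε / 2)
      · exact ih s hs t ht x h0
      · push Not at h0
        -- the intermediate point
        rcases le_total s t with hst | hst
        · rw [abs_of_nonneg (by linarith)] at h h0
          have hr : s + ε / 2 ≤ t := by
            have : (0 : ℝ) ≤ n * (ε / 2) := by positivity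
            nlinarith
          have hrT : s + ε / 2 ∈ Icc (-T) T := ⟨by linarith [hs.1], hr.trans ht.2⟩
          have h1 : B.Sm s (s + ε / 2) x := (hg s hs x).sm (by
            rw [add_sub_cancel_left, abs_of_pos (by linarith)]
            linarith)
          exact h1.comp (ih _ hrT t ht _ (by
            rw [abs_of_nonneg (by linarith)]
            nlinarith))
        · rw [abs_of_nonpos (by linarith)] at h h0
          have hr : t ≤ s - ε / 2 := by
            have : (0 : ℝ) ≤ n * (ε / 2) := by positivity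
            nlinarith
          have hrT : s - ε / 2 ∈ Icc (-T) T := ⟨ht.1.trans hr, by linarith [hs.2]⟩
          have h1 : B.Sm s (s - ε / 2) x := (hg s hs x).sm (by
            rw [sub_sub_cancel_left, abs_neg, abs_of_pos (by linarith)]
            linarith)
          exact h1.comp (ih _ hrT t ht _ (by
            rw [abs_of_nonpos (by linarith)]
            nlinarith))
  obtain ⟨n, hn⟩ := exists_nat_ge (|t - s| / (ε / 2))
  refine step n s hsT t htT x ?_
  rw [div_le_iff₀ (by positivity)] at hn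
  linarith

theorem Fl_continuous (B : TVF C) : Continuous (fun p : ℝ × ℝ × X => B.Fl p.1 p.2.1 p.2.2) :=
  continuous_iff_continuousAt.2 fun p => (sm_all B p.1 p.2.1 p.2.2).1

/-- the flow read in charts is smooth in `(s, t, z)` -/
theorem rd_contDiffAt (B : TVF C) {s t : ℝ} {x : X} {i j : C.ι} (hi : x ∈ (C.e i).source)
    (hj : B.Fl s t x ∈ (C.e j).source) : ContDiffAt ℝ ∞ (B.rd i j) (s, t, C.e i x) :=
  (sm_all B s t x).2 i j hi hj

/-- the homeomorphism `Fl s t` -/
def homeo (B : TVF C) (s t : ℝ) : X ≃ₜ X where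
  toFun := B.Fl s t
  invFun := B.Fl t s
  left_inv x := Fl_inv s t x
  right_inv x := Fl_inv t s x
  continuous_toFun := (Fl_continuous B).comp (by fun_prop : Continuous fun x : X => (s, t, x))
  continuous_invFun := (Fl_continuous B).comp (by fun_prop : Continuous fun x : X => (t, s, x))

end TVF

end Crest.Agent.R281.Flo_222

end
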