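import Crest.Agent.R281.Flo3_222
import Crest.Agent.R281.Dif1_268

/-!
# Row 281, HK-ISO (I2) (helper222): the flow and closed 2-forms, Moser's trick

* `hasDerivAt_dflow` : `∂ₜ (D_z Φ u) = D b (D_z Φ u)`
* `hasDerivAt_pull`  : `d/dt (Φₜ^* wₜ) = Φₜ^* (wₜ' + d ι_b wₜ)` in charts
* `TVF.flS s t`      : the flow as a `SMap C C`
* `TVF.moser`        : `wₜ' + d ι_b wₜ = 0` ⟹ `(flS s t)^* wₜ = w_s`
-/

set_option autoImplicit false
set_option linter.unusedSectionVars false

open Set Filter Topology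
open scoped ContDiff

noncomputable section

namespace Crest.Agent.R281.Flo_222

open Crest.Agent.R281.HkR_835 Crest.Agent.R281.Dif_268

section loc

variable {V : Type} [NormedAddCommGroup V] [NormedSpace ℝ V]

theorem fd_snd {W : Type*} [NormedAddCommGroup W] [NormedSpace ℝ W] {g : ℝ × V → W} {t : ℝ} {z : V}
    (hg : DifferentiableAt ℝ g (t, z)) :
    HasFDerivAt (fun y : V => g (t, y)) ((fderiv ℝ g (t, z)).comp (ContinuousLinearMap.inr ℝ ℝ V))
      z :=
  HasFDerivAt.comp (g := g) (f := fun y : V => (t, y)) z hg.hasFDerivAt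
    (hasFDerivAt_prodMk_right t z)

theorem fd_snd_apply {W : Type*} [NormedAddCommGroup W] [NormedSpace ℝ W] {g : ℝ × V → W} {t : ℝ}
    {z : V} (hg : DifferentiableAt ℝ g (t, z)) (u : V) :
    fderiv ℝ (fun y : V => g (t, y)) z u = fderiv ℝ g (t, z) (0, u) := by
  rw [(fd_snd hg).fderiv]
  simp

theorem hd_curve {W : Type*} [NormedAddCommGroup W] [NormedSpace ℝ W] {g : ℝ × V → W} {t : ℝ}
    {c : ℝ → V} {c' : V} (hg : DifferentiableAt ℝ g (t, c t)) (hc : HasDerivAt c c' t) :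
    HasDerivAt (fun s : ℝ => g (s, c s)) (fderiv ℝ g (t, c t) (1, c')) t := by
  have h1 : HasDerivAt (fun s : ℝ => (s, c s)) ((1 : ℝ), c') t := (hasDerivAt_id t).prodMk hc
  have h2 : HasFDerivAt g (fderiv ℝ g (t, c t)) ((fun s : ℝ => (s, c s)) t) := hg.hasFDerivAt
  exact h2.comp_hasDerivAt t h1

/-- the differential of the flow solves the linearised equation -/
theorem hasDerivAt_dflow {Φ : ℝ × V → V} {b : ℝ × V → V} {t : ℝ} {z : V}
    (hΦ : ContDiffAt ℝ ∞ Φ (t, z)) (hb : DifferentiableAt ℝ b (t, Φ (t, z)))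
    (he : ∀ᶠ p : ℝ × V in 𝓝 (t, z), HasDerivAt (fun s => Φ (s, p.2)) (b (p.1, Φ p)) p.1) (u : V) :
    HasDerivAt (fun s => fderiv ℝ (fun y => Φ (s, y)) z u)
      (fderiv ℝ (fun y => b (t, y)) (Φ (t, z)) (fderiv ℝ (fun y => Φ (t, y)) z u)) t := by
  have hd : ∀ᶠ p : ℝ × V in 𝓝 (t, z), DifferentiableAt ℝ Φ p := by
    have h1 : ContDiffAt ℝ 1 Φ (t, z) := hΦ.of_le (by simp)
    filter_upwards [h1.eventually (by decide)] with p hp using hp.differentiableAt (by simp)
  have hd2 : DifferentiableAt ℝ (fderiv ℝ Φ) (t, z) :=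
    (hΦ.fderiv_right (m := ∞) (by simp)).differentiableAt (by simp)
  -- partial derivatives
  have hy : ∀ p : ℝ × V, DifferentiableAt ℝ Φ p → ∀ u,
      fderiv ℝ (fun y => Φ (p.1, y)) p.2 u = fderiv ℝ Φ p (0, u) := by
    intro p hp u
    exact fd_snd_apply (t := p.1) (z := p.2) hp u
  have hs : ∀ᶠ p : ℝ × V in 𝓝 (t, z), fderiv ℝ Φ p (1, 0) = b (p.1, Φ p) := by
    filter_upwards [hd, he] with p hp hpe
    exact (hd_curve (c := fun _ => p.2) hp (hasDerivAt_const p.1 p.2)).unique hpe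
  -- the second derivative
  have hsym : fderiv ℝ (fderiv ℝ Φ) (t, z) (1, 0) (0, u) =
      fderiv ℝ (fderiv ℝ Φ) (t, z) (0, u) (1, 0) :=
    (hΦ.isSymmSndFDerivAt (by
      rw [minSmoothness_of_isRCLikeNormedField]; exact WithTop.coe_le_coe.2 le_top)) _ _
  have h3 : HasDerivAt (fun s : ℝ => fderiv ℝ Φ (s, z) (0, u))
      (fderiv ℝ (fderiv ℝ Φ) (t, z) (1, 0) (0, u)) t := by
    have h5 := (hd_curve (c := fun _ => z) hd2 (hasDerivAt_const t z)).clm_apply
      (hasDerivAt_const t ((0 : ℝ), u))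
    simpa using h5
  have h6 : fderiv ℝ (fderiv ℝ Φ) (t, z) (0, u) (1, 0) =
      fderiv ℝ b (t, Φ (t, z)) (0, fderiv ℝ Φ (t, z) (0, u)) := by
    have h4 : HasFDerivAt (fun p => fderiv ℝ Φ p (1, 0)) _ (t, z) :=
      hd2.hasFDerivAt.clm_apply (hasFDerivAt_const ((1 : ℝ), (0 : V)) (t, z))
    have h7 : HasFDerivAt (fun p : ℝ × V => (p.1, Φ p))
        ((ContinuousLinearMap.fst ℝ ℝ V).prod (fderiv ℝ Φ (t, z))) (t, z) :=
      hasFDerivAt_fst.prodMk hd.self_of_nhds.hasFDerivAt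
    have h8 : HasFDerivAt (fun p : ℝ × V => b (p.1, Φ p)) _ (t, z) :=
      HasFDerivAt.comp (g := b) (f := fun p : ℝ × V => (p.1, Φ p)) (t, z) hb.hasFDerivAt h7
    have h9 := h4.unique (h8.congr_of_eventuallyEq hs)
    have h10 := congrArg (fun T : ℝ × V →L[ℝ] V => T (0, u)) h9
    simpa using h10
  have h11 : fderiv ℝ (fun y => b (t, y)) (Φ (t, z)) (fderiv ℝ (fun y => Φ (t, y)) z u) =
      fderiv ℝ b (t, Φ (t, z)) (0, fderiv ℝ Φ (t, z) (0, u)) := by
    rw [fd_snd_apply hb, hy (t, z) hd.self_of_nhds u]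
  rw [h11, ← h6, ← hsym]
  refine h3.congr_of_eventuallyEq ?_
  have hc : ContinuousAt (fun s : ℝ => (s, z)) t := by fun_prop
  filter_upwards [hc.eventually hd] with s hs'
  exact hy (s, z) hs' u

/-- `d ι_b w`, in a chart -/
def dι (w : V → Bil V) (b : V → V) (z u v : V) : ℝ :=
  fderiv ℝ (fun y => w y (b y)) z u v - fderiv ℝ (fun y => w y (b y)) z v u

theorem dι_eq {w : V → Bil V} {b : V → V} {z : V} (hw : DifferentiableAt ℝ w z)
    (hb : DifferentiableAt ℝ b z) (ha : ∀ᶠ y in 𝓝 z, ∀ u v, w y u v = -w y v u)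
    (hc : ∀ a b c, fderiv ℝ w z a b c + fderiv ℝ w z b c a + fderiv ℝ w z c a b = 0) (u v : V) :
    dι w b z u v = fderiv ℝ w z (b z) u v + w z (fderiv ℝ b z u) v + w z u (fderiv ℝ b z v) := by
  have h1 : HasFDerivAt (fun y => w y (b y)) _ z := hw.hasFDerivAt.clm_apply hb.hasFDerivAt
  have h2 : ∀ a c, fderiv ℝ (fun y => w y (b y)) z a c =
      fderiv ℝ w z a (b z) c + w z (fderiv ℝ b z a) c := by
    intro a c
    rw [h1.fderiv]
    simp only [add_apply, ContinuousLinearMap.comp_apply, ContinuousLinearMap.flip_apply]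
    ring
  have h3 : fderiv ℝ w z v u (b z) = -fderiv ℝ w z v (b z) u := by
    rw [← fderiv_app hw, ← fderiv_app hw]
    have : (fun y => w y u (b z)) =ᶠ[𝓝 z] fun y => -w y (b z) u := by
      filter_upwards [ha] with y hy using hy u (b z)
    rw [this.fderiv_eq, fderiv_fun_neg]
    rfl
  have h3' : fderiv ℝ w z u v (b z) = -fderiv ℝ w z u (b z) v := by
    rw [← fderiv_app hw, ← fderiv_app hw]
    have : (fun y => w y v (b z)) =ᶠ[𝓝 z] fun y => -w y (b z) v := by
      filter_upwards [ha] with y hy using hy v (b z)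
    rw [this.fderiv_eq, fderiv_fun_neg]
    rfl
  have h4 := hc (b z) u v
  have h5 := ha.self_of_nhds (fderiv ℝ b z v) u
  rw [dι, h2, h2, h5]
  linarith

/-- **derivative of the pull back of a family of forms by a flow**, in a chart -/
theorem hasDerivAt_pull {Φ : ℝ × V → V} {b : ℝ × V → V} {w : ℝ × V → Bil V} {t : ℝ} {z : V}
    (hΦ : ContDiffAt ℝ ∞ Φ (t, z)) (hb : DifferentiableAt ℝ b (t, Φ (t, z)))
    (hw : DifferentiableAt ℝ w (t, Φ (t, z)))
    (he : ∀ᶠ p : ℝ × V in 𝓝 (t, z), HasDerivAt (fun s => Φ (s, p.2)) (b (p.1, Φ p)) p.1)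
    (ha : ∀ᶠ y in 𝓝 (Φ (t, z)), ∀ u v, w (t, y) u v = -w (t, y) v u)
    (hc : ∀ a b c, fderiv ℝ (fun y => w (t, y)) (Φ (t, z)) a b c +
      fderiv ℝ (fun y => w (t, y)) (Φ (t, z)) b c a +
      fderiv ℝ (fun y => w (t, y)) (Φ (t, z)) c a b = 0) (u v : V) :
    HasDerivAt (fun s => w (s, Φ (s, z)) (fderiv ℝ (fun y => Φ (s, y)) z u)
        (fderiv ℝ (fun y => Φ (s, y)) z v))
      (deriv (fun s => w (s, Φ (t, z)) (fderiv ℝ (fun y => Φ (t, y)) z u)
          (fderiv ℝ (fun y => Φ (t, y)) z v)) t +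
        dι (fun y => w (t, y)) (fun y => b (t, y)) (Φ (t, z))
          (fderiv ℝ (fun y => Φ (t, y)) z u) (fderiv ℝ (fun y => Φ (t, y)) z v)) t := by
  set P := fderiv ℝ (fun y => Φ (t, y)) z u with hP
  set Q := fderiv ℝ (fun y => Φ (t, y)) z v with hQ
  have h1 := hasDerivAt_dflow hΦ hb he u
  have h2 := hasDerivAt_dflow hΦ hb he v
  have h0 : HasDerivAt (fun s => Φ (s, z)) (b (t, Φ (t, z))) t := he.self_of_nhds
  have h4 : HasDerivAt (fun s => w (s, Φ (s, z)))
      (fderiv ℝ w (t, Φ (t, z)) (1, b (t, Φ (t, z)))) t :=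
    hd_curve (g := w) (c := fun s => Φ (s, z)) hw h0
  have h5 := (h4.clm_apply h1).clm_apply h2
  have hwt : DifferentiableAt ℝ (fun y => w (t, y)) (Φ (t, z)) :=
    (fd_snd (g := w) (t := t) (z := Φ (t, z)) hw).differentiableAt
  have hbt : DifferentiableAt ℝ (fun y => b (t, y)) (Φ (t, z)) :=
    (fd_snd (g := b) (t := t) (z := Φ (t, z)) hb).differentiableAt
  have h6 : HasDerivAt (fun s => w (s, Φ (t, z)) P Q)
      (fderiv ℝ w (t, Φ (t, z)) (1, 0) P Q) t := by
    have h7 : HasDerivAt (fun s => w (s, Φ (t, z))) (fderiv ℝ w (t, Φ (t, z)) (1, 0)) t :=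
      hd_curve (g := w) (c := fun _ => Φ (t, z)) hw (hasDerivAt_const t _)
    have h8 := (h7.clm_apply (hasDerivAt_const t P)).clm_apply (hasDerivAt_const t Q)
    simpa using h8
  have h9 : fderiv ℝ (fun y => w (t, y)) (Φ (t, z)) (b (t, Φ (t, z))) =
      fderiv ℝ w (t, Φ (t, z)) (0, b (t, Φ (t, z))) :=
    fd_snd_apply (g := w) (t := t) (z := Φ (t, z)) hw _
  have h10 : fderiv ℝ w (t, Φ (t, z)) (1, b (t, Φ (t, z))) =
      fderiv ℝ w (t, Φ (t, z)) (1, 0) + fderiv ℝ w (t, Φ (t, z)) (0, b (t, Φ (t, z))) := by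
    rw [← map_add]
    simp
  rw [h6.deriv, dι_eq hwt hbt ha hc, h9]
  rw [h10] at h5
  refine h5.congr_deriv ?_
  simp only [add_apply]
  ring

end loc

namespace TVF

variable {V X : Type} [NormedAddCommGroup V] [NormedSpace ℝ V] [TopologicalSpace X]
  [CompleteSpace V] [CompactSpace X] [T2Space X] {C : RCh V X}

/-- the flow as a smooth map -/
def flS (B : TVF C) (s t : ℝ) : SMap C C where
  f := B.Fl s t
  cont := (B.homeo s t).continuous
  sm j i := by
    intro z hz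
    have h1 : (C.e i).symm z ∈ (C.e i).source := (C.e i).map_target hz.1
    have h2 := B.rd_contDiffAt h1 hz.2
    rw [(C.e i).right_inv hz.1] at h2
    have h3 : ContDiffAt ℝ ∞ (fun y : V => (s, t, y)) z := by fun_prop
    exact (ContDiffAt.comp (g := B.rd i j) (f := fun y : V => (s, t, y)) z h2 h3).contDiffWithinAt

@[simp] theorem flS_f (B : TVF C) (s t : ℝ) : (B.flS s t).f = B.Fl s t := rfl

/-- **Moser's trick**: if `∂ₜ wₜ + d (ι_b wₜ) = 0` then the flow of `b` transports `w_s` to `wₜ` -/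
theorem moser (B : TVF C) (w : ℝ → F2 C)
    (hs : ∀ i, DifferentiableOn ℝ (fun p : ℝ × V => (w p.1).w i p.2) (univ ×ˢ (C.e i).target))
    (hd : ∀ i t, ∀ z ∈ (C.e i).target, ∀ u v,
      deriv (fun s => (w s).w i z u v) t + dι ((w t).w i) (fun y => B.b i (t, y)) z u v = 0)
    (s t : ℝ) : Eqv ((B.flS s t).pull (w t)) (w s) := by
  intro i z hz u v
  set x := (C.e i).symm z with hx
  have hxi : x ∈ (C.e i).source := (C.e i).map_target hz
  have hez : C.e i x = z := (C.e i).right_inv hz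
  -- the function is constant
  have key : ∀ t, HasDerivAt (fun t => ((B.flS s t).pull (w t)).w i z u v) 0 t := by
    intro t
    obtain ⟨j, hj⟩ := C.cover (B.Fl s t x)
    set Φ : ℝ × V → V := fun p => B.rd i j (s, p.1, p.2) with hΦdef
    have hΦ : ContDiffAt ℝ ∞ Φ (t, z) := by
      have h2 := B.rd_contDiffAt hxi hj
      rw [hez] at h2
      have h3 : ContDiffAt ℝ ∞ (fun p : ℝ × V => (s, p.1, p.2)) (t, z) := by fun_prop
      exact ContDiffAt.comp (g := B.rd i j) (f := fun p : ℝ × V => (s, p.1, p.2)) (t, z) h2 h3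
    have hmem : ∀ᶠ p : ℝ × V in 𝓝 (t, z), p.2 ∈ (C.e i).target ∧
        B.Fl s p.1 ((C.e i).symm p.2) ∈ (C.e j).source := by
      have h4 : ContinuousAt (fun p : ℝ × V => (s, p.1, (C.e i).symm p.2)) (t, z) := by
        refine continuousAt_const.prodMk (continuousAt_fst.prodMk ?_)
        exact ContinuousAt.comp (g := (C.e i).symm) (f := fun p : ℝ × V => p.2)
          ((C.e i).continuousAt_symm hz) continuousAt_snd
      have h5 : ContinuousAt (fun p : ℝ × V => B.Fl s p.1 ((C.e i).symm p.2)) (t, z) :=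
        ContinuousAt.comp (g := fun p : ℝ × ℝ × X => B.Fl p.1 p.2.1 p.2.2)
          (f := fun p : ℝ × V => (s, p.1, (C.e i).symm p.2)) (Fl_continuous B).continuousAt h4
      exact (continuousAt_snd.eventually ((C.e i).open_target.mem_nhds hz)).and
        (h5.eventually ((C.e j).open_source.mem_nhds hj))
    have hΦz : Φ (t, z) = C.e j (B.Fl s t x) := rfl
    have hΦt : Φ (t, z) ∈ (C.e j).target := (C.e j).map_source hj
    have he : ∀ᶠ p : ℝ × V in 𝓝 (t, z),
        HasDerivAt (fun r => Φ (r, p.2)) (B.b j (p.1, Φ p)) p.1 := by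
      filter_upwards [hmem] with p hp
      exact Fl_hasDerivAt hp.2
    have hopen : IsOpen ((univ : Set ℝ) ×ˢ (C.e j).target) := isOpen_univ.prod (C.e j).open_target
    have hb : DifferentiableAt ℝ (B.b j) (t, Φ (t, z)) :=
      ((B.sm j).contDiffAt (hopen.mem_nhds ⟨mem_univ _, hΦt⟩)).differentiableAt (by simp)
    have hw : DifferentiableAt ℝ (fun p : ℝ × V => (w p.1).w j p.2) (t, Φ (t, z)) :=
      (hs j _ ⟨mem_univ _, hΦt⟩).differentiableAt (hopen.mem_nhds ⟨mem_univ _, hΦt⟩)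
    have h6 := hasDerivAt_pull (w := fun p : ℝ × V => (w p.1).w j p.2) hΦ hb hw he
      (by
        filter_upwards [(C.e j).open_target.mem_nhds hΦt] with y hy using (w t).alt j y hy)
      ((w t).closed j _ hΦt) u v
    rw [hd j t _ hΦt] at h6
    refine h6.congr_of_eventuallyEq ?_
    have hc : ContinuousAt (fun r : ℝ => (r, z)) t := by fun_prop
    filter_upwards [hc.eventually hmem] with r hr
    have h7 : z ∈ Dif_268.dom C C (B.flS s r).f j i := ⟨hz, hr.2⟩
    rw [(B.flS s r).pull_w (w r) h7]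
    rfl
  have hconst : ((B.flS s t).pull (w t)).w i z u v = ((B.flS s s).pull (w s)).w i z u v := by
    have hdiff : Differentiable ℝ (fun t => ((B.flS s t).pull (w t)).w i z u v) :=
      fun t => (key t).differentiableAt
    exact is_const_of_deriv_eq_zero hdiff (fun t => (key t).deriv) t s
  rw [hconst]
  -- the flow at time `s` is the identity
  have h8 : (B.flS s s).f = _root_.id := by
    funext y
    exact Fl_self s y
  have h9 : z ∈ Dif_268.dom C C (B.flS s s).f i i := ⟨hz, by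
    rw [h8]
    exact (C.e i).map_target hz⟩
  rw [(B.flS s s).pull_w (w s) h9]
  have h10 : Dif_268.loc C C (B.flS s s).f i i =ᶠ[𝓝 z] _root_.id := by
    filter_upwards [(C.e i).open_target.mem_nhds hz] with y hy
    show C.e i ((B.flS s s).f ((C.e i).symm y)) = y
    rw [h8]
    exact (C.e i).right_inv hy
  rw [h10.fderiv_eq, h10.eq_of_nhds]
  simp

end TVF

end Crest.Agent.R281.Flo_222

end
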