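import Crest.Agent.R275.TorA_812

/-!
# Row 281, OPEN-O3, step (c1) (helper569): almost complex structures on a torus, coercivity of `∂̄`

`J` a constant linear map, `Jn` a continuous field of linear maps close to `J`, `g` a `C¹` periodic
function with `dg v + i dg (Jn v) = ε B v`, `|B v| ≤ C |v|` : then `|∫ B v| ≤ 2 m C δ |v|`
(`m` the dimension, `δ ≥ sup |Jn - J|`, `4 m² δ² ≤ 1`), independently of `ε`.
-/

set_option autoImplicit false
set_option linter.unusedSectionVars false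
set_option linter.unusedSimpArgs false

open MeasureTheory Filter Topology Set Complex
open scoped ContDiff Real ComplexConjugate

namespace Crest.Agent.R281.Op3_569

open Crest.Agent.R275.Tor812

noncomputable section

attribute [local instance] instMeasureSpaceUnitAddCircle

local instance : Measure.IsAddHaarMeasure (volume : Measure UnitAddCircle) :=
  inferInstanceAs (Measure.IsAddHaarMeasure AddCircle.haarAddCircle)

local instance : IsProbabilityMeasure (volume : Measure UnitAddCircle) :=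
  inferInstanceAs (IsProbabilityMeasure AddCircle.haarAddCircle)

variable {d : Type} [Fintype d]

/-- `ℤ^d`-periodic -/
def Per {E : Type*} (f : (d → ℝ) → E) : Prop :=
  ∀ (k : d → ℤ) (x : d → ℝ), f (x + fun i => (k i : ℝ)) = f x

/-- descend a continuous periodic function to the torus -/
def dsc (f : (d → ℝ) → ℂ) (hf : Continuous f) (hp : Per f) : C(UnitAddTorus d, ℂ) where
  toFun t := f (fun i => ((AddCircle.equivIoc (1 : ℝ) 0 (t i)) : ℝ))
  continuous_toFun := by
    rw [isOpenQuotientMap_pr.isQuotientMap.continuous_iff]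
    have : ((fun t : UnitAddTorus d => f (fun i => ((AddCircle.equivIoc (1 : ℝ) 0 (t i)) : ℝ))) ∘ pr)
        = f := by
      funext x
      show f (fun i => ((AddCircle.equivIoc (1 : ℝ) 0 (pr x i)) : ℝ)) = f x
      have h1 : pr x = pr (fun i => ((AddCircle.equivIoc (1 : ℝ) 0 (pr x i)) : ℝ)) := by
        funext i
        exact (AddCircle.coe_equivIoc (p := (1 : ℝ)) (a := 0) (y := pr x i)).symm
      obtain ⟨k, hk⟩ := pr_eq_iff.1 h1
      rw [hk, hp]
    rw [this]
    exact hf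

theorem dsc_pr (f : (d → ℝ) → ℂ) (hf : Continuous f) (hp : Per f) (x : d → ℝ) :
    dsc f hf hp (pr x) = f x := by
  show f (fun i => ((AddCircle.equivIoc (1 : ℝ) 0 (pr x i)) : ℝ)) = f x
  have h1 : pr x = pr (fun i => ((AddCircle.equivIoc (1 : ℝ) 0 (pr x i)) : ℝ)) := by
    funext i
    exact (AddCircle.coe_equivIoc (p := (1 : ℝ)) (a := 0) (y := pr x i)).symm
  obtain ⟨k, hk⟩ := pr_eq_iff.1 h1
  rw [hk, hp]

theorem bddP {f : (d → ℝ) → ℂ} (hf : Continuous f) (hp : Per f) (x : d → ℝ) :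
    ‖f x‖ ≤ ‖dsc f hf hp‖ := by
  rw [← dsc_pr f hf hp x]
  exact (dsc f hf hp).norm_coe_le_norm _

/-- Fourier coefficient -/
def fcc (f : (d → ℝ) → ℂ) (k : d → ℤ) : ℂ := ∫ x in box (0 : d → ℝ), ch (-k) x * f x

theorem mfc_eq {f : (d → ℝ) → ℂ} (hf : Continuous f) (hp : Per f) (k : d → ℤ) (a : d → ℝ) :
    UnitAddTorus.mFourierCoeff (dsc f hf hp) k = ∫ x in box a, ch (-k) x * f x := by
  rw [UnitAddTorus.mFourierCoeff_eq_integral _ _ a]
  refine integral_congr_ae (Eventually.of_forall fun x => ?_)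
  simp only [smul_eq_mul]
  have h1 := mFourier_pr (-k) x
  have h2 := dsc_pr f hf hp x
  unfold pr at h1 h2
  rw [h1, h2]

theorem fcc_eq {f : (d → ℝ) → ℂ} (hf : Continuous f) (hp : Per f) (k : d → ℤ) (a : d → ℝ) :
    fcc f k = ∫ x in box a, ch (-k) x * f x := by
  unfold fcc
  rw [← mfc_eq hf hp k 0, mfc_eq hf hp k a]

theorem parsevalC {f : (d → ℝ) → ℂ} (hf : Continuous f) (hp : Per f) :
    HasSum (fun k : d → ℤ => ‖fcc f k‖ ^ 2) (∫ x in box (0 : d → ℝ), ‖f x‖ ^ 2) := by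
  have h := UnitAddTorus.hasSum_sq_mFourierCoeff
    (ContinuousMap.toLp 2 (volume : Measure (UnitAddTorus d)) ℂ (dsc f hf hp))
  have h1 : ∀ k, UnitAddTorus.mFourierCoeff
      (ContinuousMap.toLp 2 (volume : Measure (UnitAddTorus d)) ℂ (dsc f hf hp)) k = fcc f k :=
    fun k => (UnitAddTorus.mFourierCoeff_toLp (dsc f hf hp) k).trans (mfc_eq hf hp k 0)
  simp only [h1] at h
  convert h using 1
  have h2 : (∫ t, ‖(ContinuousMap.toLp 2 (volume : Measure (UnitAddTorus d)) ℂ (dsc f hf hp)) t‖ ^ 2)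
      = ∫ t : UnitAddTorus d, ‖dsc f hf hp t‖ ^ 2 := by
    refine integral_congr_ae ?_
    filter_upwards [(dsc f hf hp).coeFn_toLp (p := 2) (𝕜 := ℂ)
      (μ := (volume : Measure (UnitAddTorus d)))] with t ht
    rw [ht]
  rw [h2, UnitAddTorus.integral_preimage (fun t => ‖dsc f hf hp t‖ ^ 2) 0]
  refine integral_congr_ae (Eventually.of_forall fun x => ?_)
  show ‖f x‖ ^ 2 = ‖dsc f hf hp (pr x)‖ ^ 2
  rw [dsc_pr]

/-- the directional derivative -/
def Dv (f : (d → ℝ) → ℂ) (v x : d → ℝ) : ℂ := fderiv ℝ f x v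

theorem Dv_cont {f : (d → ℝ) → ℂ} (hf : ContDiff ℝ 1 f) (v : d → ℝ) : Continuous (Dv f v) :=
  (hf.continuous_fderiv (by norm_num)).clm_apply continuous_const

theorem fderiv_per {f : (d → ℝ) → ℂ} (hp : Per f) : Per (fderiv ℝ f) := by
  intro k x
  have h : (fun y => f (y + fun i => (k i : ℝ))) = f := funext fun y => hp k y
  have h1 : fderiv ℝ (fun y => f (y + fun i => (k i : ℝ))) x =
      fderiv ℝ f (x + fun i => (k i : ℝ)) := fderiv_comp_add_right _
  rw [← h1, h]

theorem Dv_per {f : (d → ℝ) → ℂ} (hp : Per f) (v : d → ℝ) : Per (Dv f v) := by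
  intro k x
  show fderiv ℝ f _ v = fderiv ℝ f x v
  rw [fderiv_per hp k x]

theorem fcc_Dv {f : (d → ℝ) → ℂ} (hf : ContDiff ℝ 1 f) (hp : Per f) (v : d → ℝ) (k : d → ℤ) :
    fcc (Dv f v) k = 2 * π * I * (∑ i, (k i : ℂ) * (v i : ℂ)) * fcc f k := by
  have hc := hf.continuous
  have e1 : ∀ h : ℝ, (∫ x in box (0 : d → ℝ), ch (-k) x * f (x + h • v)) =
      ch k (h • v) * fcc f k := by
    intro h
    have : ∀ x, ch (-k) x * f (x + h • v) =
        ch k (h • v) * (ch (-k) (x + h • v) * f (x + h • v)) := by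
      intro x
      rw [ch_add (-k), ch_neg k (h • v)]
      have h0 : ch k (h • v) ≠ 0 := by
        intro h0
        have := norm_ch k (h • v : d → ℝ)
        rw [h0, norm_zero] at this
        exact zero_ne_one this
      field_simp
    simp_rw [this]
    rw [integral_const_mul, setIntegral_box_add (fun x => ch (-k) x * f x) (h • v),
      ← fcc_eq hc hp]
  have hD : ∀ (x : d → ℝ) (h : ℝ),
      HasDerivAt (fun h : ℝ => f (x + h • v)) (Dv f v (x + h • v)) h := by
    intro x h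
    have h1 : HasDerivAt (fun h : ℝ => x + h • (v : d → ℝ)) v h := by
      simpa using ((hasDerivAt_id h).smul_const (v : d → ℝ)).const_add x
    exact ((hf.differentiable (by norm_num)) _).hasFDerivAt.comp_hasDerivAt h h1
  have hDc := Dv_cont hf v
  have hDp := Dv_per hp v
  have e2 : HasDerivAt (fun h : ℝ => ∫ x in box (0 : d → ℝ), ch (-k) x * f (x + h • v))
      (∫ x in box (0 : d → ℝ), ch (-k) x * Dv f v (x + (0 : ℝ) • v)) 0 := by
    refine (hasDerivAt_integral_of_dominated_loc_of_deriv_le (bound := fun _ => ‖dsc _ hDc hDp‖)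
      (F' := fun h x => ch (-k) x * Dv f v (x + h • v)) (Metric.ball_mem_nhds 0 one_pos)
      (Eventually.of_forall fun h => ?_) ?_ ?_ (Eventually.of_forall fun x h _ => ?_)
      (integrable_const _) (Eventually.of_forall fun x h _ => ?_)).2
    · exact ((ch_smooth (-k)).continuous.mul
        (hc.comp (continuous_id.add continuous_const))).aestronglyMeasurable
    · refine Integrable.of_bound ((ch_smooth (-k)).continuous.mul
        (hc.comp (continuous_id.add continuous_const))).aestronglyMeasurable ‖dsc _ hc hp‖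
        (Eventually.of_forall fun x => ?_)
      rw [norm_mul, norm_ch, one_mul]; exact bddP hc hp _
    · exact ((ch_smooth (-k)).continuous.mul
        (hDc.comp (continuous_id.add continuous_const))).aestronglyMeasurable
    · rw [norm_mul, norm_ch, one_mul]; exact bddP hDc hDp _
    · exact (hD x h).const_mul _
  have e3 : HasDerivAt (fun h : ℝ => ch k (h • v) * fcc f k)
      (2 * π * I * (∑ i, (k i : ℂ) * (v i : ℂ)) * fcc f k) 0 := by
    have h1 : ∀ h : ℝ, ch k (h • v) = exp ((h : ℂ) * (2 * π * I * (∑ i, (k i : ℂ) * (v i : ℂ)))) := by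
      intro h
      unfold ch
      congr 1
      have : ∑ i, (k i : ℂ) * (((h • v : d → ℝ) i : ℝ) : ℂ) = h * ∑ i, (k i : ℂ) * (v i : ℂ) := by
        rw [Finset.mul_sum]
        refine Finset.sum_congr rfl fun i _ => ?_
        simp only [Pi.smul_apply, smul_eq_mul, ofReal_mul]; ring
      rw [this]; ring
    simp_rw [h1]
    have h2 : HasDerivAt (fun h : ℝ => ((h : ℂ) * (2 * π * I * (∑ i, (k i : ℂ) * (v i : ℂ)))))
        (2 * π * I * (∑ i, (k i : ℂ) * (v i : ℂ))) 0 := by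
      simpa using (ofRealCLM.hasDerivAt (x := (0 : ℝ))).mul_const
        (2 * π * I * (∑ i, (k i : ℂ) * (v i : ℂ)))
    have h3 := (h2.cexp).mul_const (fcc f k)
    simpa using h3
  have e4 : (fun h : ℝ => ∫ x in box (0 : d → ℝ), ch (-k) x * f (x + h • v)) =
      fun h : ℝ => ch k (h • v) * fcc f k := funext e1
  rw [e4] at e2
  have := e2.unique e3
  simpa [fcc] using this

/-- the mean of a derivative vanishes -/
theorem int_Dv {f : (d → ℝ) → ℂ} (hf : ContDiff ℝ 1 f) (hp : Per f) (v : d → ℝ) :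
    ∫ x in box (0 : d → ℝ), Dv f v x = 0 := by
  have h := fcc_Dv hf hp v 0
  have h1 : fcc (Dv f v) 0 = ∫ x in box (0 : d → ℝ), Dv f v x := by
    unfold fcc
    refine integral_congr_ae (Eventually.of_forall fun x => ?_)
    have : ch (-(0 : d → ℤ)) x = 1 := by simp [ch]
    simp only [this, one_mul]
  rw [h1] at h
  rw [h]
  simp

/-- **the key identity** : `∫ |∂_v f + i ∂_w f|² = ∫ |∂_v f|² + ∫ |∂_w f|²` -/
theorem key {f : (d → ℝ) → ℂ} (hf : ContDiff ℝ 1 f) (hp : Per f) (v w : d → ℝ) :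
    ∫ x in box (0 : d → ℝ), ‖Dv f v x + I * Dv f w x‖ ^ 2 =
      (∫ x in box (0 : d → ℝ), ‖Dv f v x‖ ^ 2) + ∫ x in box (0 : d → ℝ), ‖Dv f w x‖ ^ 2 := by
  have hcv := Dv_cont hf v
  have hcw := Dv_cont hf w
  have hpv := Dv_per hp v
  have hpw := Dv_per hp w
  have hc : Continuous fun x => Dv f v x + I * Dv f w x := hcv.add (continuous_const.mul hcw)
  have hpp : Per fun x => Dv f v x + I * Dv f w x := fun k x => by
    show Dv f v _ + I * Dv f w _ = _
    rw [hpv k x, hpw k x]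
  have h1 := parsevalC hc hpp
  have h2 := parsevalC hcv hpv
  have h3 := parsevalC hcw hpw
  refine h1.unique ?_
  have h4 := h2.add h3
  convert h4 using 1
  funext k
  have hI : fcc (fun x => Dv f v x + I * Dv f w x) k = fcc (Dv f v) k + I * fcc (Dv f w) k := by
    unfold fcc
    rw [← integral_const_mul, ← integral_add]
    · refine integral_congr_ae (Eventually.of_forall fun x => ?_)
      simp only []
      ring
    · refine Integrable.of_bound ((ch_smooth (-k)).continuous.mul hcv).aestronglyMeasurable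
        ‖dsc _ hcv hpv‖ (Eventually.of_forall fun x => ?_)
      rw [norm_mul, norm_ch, one_mul]; exact bddP hcv hpv _
    · refine (Integrable.of_bound ((ch_smooth (-k)).continuous.mul hcw).aestronglyMeasurable
        ‖dsc _ hcw hpw‖ (Eventually.of_forall fun x => ?_)).const_mul I
      show ‖ch (-k) x * Dv f w x‖ ≤ _
      rw [norm_mul, norm_ch, one_mul]; exact bddP hcw hpw _
  rw [hI, fcc_Dv hf hp, fcc_Dv hf hp]
  set a : ℝ := ∑ i, (k i : ℝ) * v i with ha
  set b : ℝ := ∑ i, (k i : ℝ) * w i with hb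
  have ea : (∑ i, (k i : ℂ) * (v i : ℂ)) = (a : ℂ) := by rw [ha]; push_cast; rfl
  have eb : (∑ i, (k i : ℂ) * (w i : ℂ)) = (b : ℂ) := by rw [hb]; push_cast; rfl
  rw [ea, eb]
  have e : 2 * π * I * (a : ℂ) * fcc f k + I * (2 * π * I * (b : ℂ) * fcc f k) =
      2 * π * I * fcc f k * ((a : ℂ) + (b : ℂ) * I) := by ring
  rw [e]
  have n1 : ‖((a : ℂ) + (b : ℂ) * I)‖ ^ 2 = a ^ 2 + b ^ 2 := by
    rw [← Complex.normSq_eq_norm_sq, Complex.normSq_add_mul_I]
  simp only [norm_mul, mul_pow, n1, norm_real, Real.norm_eq_abs, sq_abs]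
  ring

/-! ### the estimate -/

theorem box_sub : box (0 : d → ℝ) ⊆ Icc (0 : d → ℝ) 1 := by
  intro x hx
  constructor
  · intro i; exact (hx i).1.le
  · intro i
    have := (hx i).2
    simpa using this

theorem integrable_box {E : Type*} [NormedAddCommGroup E] {F : (d → ℝ) → E} (hF : Continuous F) :
    Integrable F (volume.restrict (box (0 : d → ℝ))) :=
  (hF.continuousOn.integrableOn_compact (isCompact_Icc (a := (0 : d → ℝ)) (b := 1))).mono_set box_sub

theorem vol_box_real : (volume.restrict (box (0 : d → ℝ))).real univ = 1 := by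
  simp [measureReal_def, volume_box]

theorem norm_ev (j : d) : ‖(ev j : d → ℝ)‖ = 1 := by
  classical
  unfold ev
  rw [Pi.norm_single]
  simp

theorem fderiv_sum (g : (d → ℝ) → ℂ) (x u : d → ℝ) :
    fderiv ℝ g x u = ∑ j, (u j : ℂ) * Dv g (ev j) x := by
  classical
  have h : u = ∑ j, u j • (ev j : d → ℝ) := by
    funext i
    rw [Finset.sum_apply]
    rw [Finset.sum_eq_single i]
    · simp [ev_same]
    · intro b _ hb
      simp [ev_ne (Ne.symm hb)]
    · simp
  conv_lhs => rw [h]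
  rw [map_sum]
  refine Finset.sum_congr rfl fun j _ => ?_
  rw [map_smul]
  simp [Dv]

/-- pointwise bound of the derivative in a direction -/
theorem sq_fderiv_le (g : (d → ℝ) → ℂ) (x u : d → ℝ) {r : ℝ} (hu : ‖u‖ ≤ r) :
    ‖fderiv ℝ g x u‖ ^ 2 ≤ r ^ 2 * (Fintype.card d * ∑ j, ‖Dv g (ev j) x‖ ^ 2) := by
  have hr : 0 ≤ r := (norm_nonneg u).trans hu
  have h1 : ‖fderiv ℝ g x u‖ ≤ r * ∑ j, ‖Dv g (ev j) x‖ := by
    rw [fderiv_sum, Finset.mul_sum]
    refine (norm_sum_le _ _).trans (Finset.sum_le_sum fun j _ => ?_)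
    rw [norm_mul, norm_real]
    exact mul_le_mul_of_nonneg_right ((norm_le_pi_norm u j).trans hu) (norm_nonneg _)
  have h2 : (∑ j, ‖Dv g (ev j) x‖) ^ 2 ≤ Fintype.card d * ∑ j, ‖Dv g (ev j) x‖ ^ 2 := by
    have := sq_sum_le_card_mul_sum_sq (s := (Finset.univ : Finset d))
      (f := fun j => ‖Dv g (ev j) x‖)
    simpa using this
  calc ‖fderiv ℝ g x u‖ ^ 2 ≤ (r * ∑ j, ‖Dv g (ev j) x‖) ^ 2 :=
        pow_le_pow_left₀ (norm_nonneg _) h1 2
    _ = r ^ 2 * (∑ j, ‖Dv g (ev j) x‖) ^ 2 := by ring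
    _ ≤ _ := mul_le_mul_of_nonneg_left h2 (sq_nonneg r)

/-- **the torus estimate** -/
theorem tor_bound {g : (d → ℝ) → ℂ} (hg : ContDiff ℝ 1 g) (hp : Per g)
    (J : (d → ℝ) →L[ℝ] (d → ℝ)) {Jn : (d → ℝ) → (d → ℝ) →L[ℝ] (d → ℝ)} (hJc : Continuous Jn)
    {ε C δ : ℝ} (hε : 0 < ε) (hC : 0 ≤ C) (hδ : 0 ≤ δ)
    (hδ1 : 4 * (Fintype.card d : ℝ) ^ 2 * δ ^ 2 ≤ 1)
    (hJ : ∀ x, ‖Jn x - J‖ ≤ δ) {B : (d → ℝ) → (d → ℝ) → ℂ}
    (hB : ∀ x v, fderiv ℝ g x v + I * fderiv ℝ g x (Jn x v) = ε * B x v)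
    (hbd : ∀ x v, ‖B x v‖ ≤ C * ‖v‖) (v : d → ℝ) :
    ‖∫ x in box (0 : d → ℝ), B x v‖ ≤ 2 * Fintype.card d * C * δ * ‖v‖ := by
  set m : ℝ := (Fintype.card d : ℝ) with hm
  have hm0 : 0 ≤ m := Nat.cast_nonneg _
  have hgd : Continuous (fderiv ℝ g) := hg.continuous_fderiv (by norm_num)
  set S : (d → ℝ) → ℝ := fun x => ∑ j, ‖Dv g (ev j) x‖ ^ 2 with hS
  have hSc : Continuous S := continuous_finsetSum _ fun j _ => ((Dv_cont hg (ev j)).norm.pow 2)
  have hSi := integrable_box hSc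
  set N2 : ℝ := ∫ x in box (0 : d → ℝ), S x with hN2
  have hN20 : 0 ≤ N2 := integral_nonneg fun x => Finset.sum_nonneg fun j _ => sq_nonneg _
  -- decomposition
  have hdec : ∀ x v, fderiv ℝ g x v + I * fderiv ℝ g x (J v) =
      ε * B x v + I * fderiv ℝ g x ((J - Jn x) v) := by
    intro x v
    rw [← hB x v]
    simp only [_root_.sub_apply, map_sub]
    ring
  have hop : ∀ x v, ‖(J - Jn x) v‖ ≤ δ * ‖v‖ := by
    intro x v
    refine ((J - Jn x).le_opNorm v).trans (mul_le_mul_of_nonneg_right ?_ (norm_nonneg v))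
    rw [norm_sub_rev]; exact hJ x
  -- step (ii)
  have h2 : ∀ j : d, ∫ x in box (0 : d → ℝ), ‖Dv g (ev j) x‖ ^ 2 ≤
      2 * ε ^ 2 * C ^ 2 + 2 * δ ^ 2 * m * N2 := by
    intro j
    have hk := key hg hp (ev j) (J (ev j))
    have h0 : 0 ≤ ∫ x in box (0 : d → ℝ), ‖Dv g (J (ev j)) x‖ ^ 2 :=
      integral_nonneg fun x => sq_nonneg _
    have h3 : ∫ x in box (0 : d → ℝ), ‖Dv g (ev j) x + I * Dv g (J (ev j)) x‖ ^ 2 ≤
        ∫ x in box (0 : d → ℝ), (2 * ε ^ 2 * C ^ 2 + 2 * δ ^ 2 * m * S x) := by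
      refine integral_mono (integrable_box ?_) (integrable_box ?_) fun x => ?_
      · exact ((Dv_cont hg _).add (continuous_const.mul (Dv_cont hg _))).norm.pow 2
      · exact continuous_const.add (continuous_const.mul hSc)
      · show ‖fderiv ℝ g x (ev j) + I * fderiv ℝ g x (J (ev j))‖ ^ 2 ≤ _
        rw [hdec]
        have e1 : ‖(ε : ℂ) * B x (ev j)‖ ^ 2 ≤ ε ^ 2 * C ^ 2 := by
          rw [norm_mul, norm_real, Real.norm_of_nonneg hε.le, mul_pow]
          have := hbd x (ev j)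
          rw [norm_ev, mul_one] at this
          exact mul_le_mul_of_nonneg_left (pow_le_pow_left₀ (norm_nonneg _) this 2) (sq_nonneg _)
        have e2 : ‖I * fderiv ℝ g x ((J - Jn x) (ev j))‖ ^ 2 ≤ δ ^ 2 * (m * S x) := by
          rw [norm_mul, Complex.norm_I, one_mul]
          refine sq_fderiv_le g x _ ?_
          have := hop x (ev j)
          rwa [norm_ev, mul_one] at this
        have e3 : ‖(ε : ℂ) * B x (ev j) + I * fderiv ℝ g x ((J - Jn x) (ev j))‖ ^ 2 ≤
            2 * ‖(ε : ℂ) * B x (ev j)‖ ^ 2 + 2 * ‖I * fderiv ℝ g x ((J - Jn x) (ev j))‖ ^ 2 := by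
          have t := norm_add_le ((ε : ℂ) * B x (ev j)) (I * fderiv ℝ g x ((J - Jn x) (ev j)))
          have t2 := pow_le_pow_left₀ (norm_nonneg _) t 2
          nlinarith [sq_nonneg (‖(ε : ℂ) * B x (ev j)‖ - ‖I * fderiv ℝ g x ((J - Jn x) (ev j))‖)]
        nlinarith
    have h4 : ∫ x in box (0 : d → ℝ), (2 * ε ^ 2 * C ^ 2 + 2 * δ ^ 2 * m * S x) =
        2 * ε ^ 2 * C ^ 2 + 2 * δ ^ 2 * m * N2 := by
      have e5 : ∫ x in box (0 : d → ℝ), 2 * δ ^ 2 * m * S x = 2 * δ ^ 2 * m * N2 :=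
        integral_const_mul _ _
      rw [integral_add (integrable_const _) (hSi.const_mul _), e5, integral_const,
        vol_box_real, one_smul]
    rw [hk, h4] at h3
    linarith
  have h5 : N2 ≤ 4 * m * ε ^ 2 * C ^ 2 := by
    have e1 : N2 = ∑ j : d, ∫ x in box (0 : d → ℝ), ‖Dv g (ev j) x‖ ^ 2 := by
      rw [hN2]
      exact integral_finsetSum _ fun j _ => integrable_box ((Dv_cont hg (ev j)).norm.pow 2)
    have e2 : N2 ≤ ∑ _j : d, (2 * ε ^ 2 * C ^ 2 + 2 * δ ^ 2 * m * N2) := by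
      rw [e1]
      exact Finset.sum_le_sum fun j _ => by
        have := h2 j
        rwa [e1] at this
    rw [Finset.sum_const, Finset.card_univ, nsmul_eq_mul, ← hm] at e2
    nlinarith
  -- step (iii)
  have hBc : Continuous fun x => B x v := by
    have : (fun x => B x v) = fun x => (ε : ℂ)⁻¹ * (fderiv ℝ g x v + I * fderiv ℝ g x (Jn x v)) := by
      funext x
      rw [hB x v]
      have : (ε : ℂ) ≠ 0 := by exact_mod_cast hε.ne'
      field_simp
    rw [this]
    exact continuous_const.mul ((hgd.clm_apply continuous_const).add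
      (continuous_const.mul (hgd.clm_apply (hJc.clm_apply continuous_const))))
  have hRc : Continuous fun x => fderiv ℝ g x ((J - Jn x) v) :=
    hgd.clm_apply ((continuous_const.sub hJc).clm_apply continuous_const)
  have h6 : (ε : ℂ) * ∫ x in box (0 : d → ℝ), B x v =
      - (I * ∫ x in box (0 : d → ℝ), fderiv ℝ g x ((J - Jn x) v)) := by
    have e1 : ∫ x in box (0 : d → ℝ), (fderiv ℝ g x v + I * fderiv ℝ g x (J v)) = 0 := by
      have a1 := int_Dv hg hp v
      have a2 := int_Dv hg hp (J v)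
      have c1 : Integrable (fun x => fderiv ℝ g x v) (volume.restrict (box (0 : d → ℝ))) :=
        integrable_box (Dv_cont hg v)
      have c2 : Integrable (fun x => fderiv ℝ g x (J v)) (volume.restrict (box (0 : d → ℝ))) :=
        integrable_box (Dv_cont hg (J v))
      rw [integral_add c1 (c2.const_mul I), integral_const_mul]
      have b1 : ∫ x in box (0 : d → ℝ), fderiv ℝ g x v = 0 := a1
      have b2 : ∫ x in box (0 : d → ℝ), fderiv ℝ g x (J v) = 0 := a2
      rw [b1, b2]; simp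
    have e2 : ∫ x in box (0 : d → ℝ), (fderiv ℝ g x v + I * fderiv ℝ g x (J v)) =
        (ε : ℂ) * (∫ x in box (0 : d → ℝ), B x v) +
          I * ∫ x in box (0 : d → ℝ), fderiv ℝ g x ((J - Jn x) v) := by
      simp_rw [hdec]
      rw [integral_add ((integrable_box hBc).const_mul _) ((integrable_box hRc).const_mul _),
        integral_const_mul, integral_const_mul]
    rw [e1] at e2
    linear_combination -e2
  set f : (d → ℝ) → ℝ := fun x => ‖fderiv ℝ g x ((J - Jn x) v)‖ with hf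
  have hfc : Continuous f := hRc.norm
  set T : ℝ := 2 * m * δ * ‖v‖ * ε * C with hT
  have hT0 : 0 ≤ T := by positivity
  have h7 : ∫ x in box (0 : d → ℝ), f x ^ 2 ≤ T ^ 2 := by
    have e1 : ∫ x in box (0 : d → ℝ), f x ^ 2 ≤
        ∫ x in box (0 : d → ℝ), (δ * ‖v‖) ^ 2 * m * S x := by
      refine integral_mono (integrable_box (hfc.pow 2)) (integrable_box (continuous_const.mul hSc))
        fun x => ?_
      have := sq_fderiv_le g x ((J - Jn x) v) (hop x v)
      calc f x ^ 2 ≤ _ := this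
        _ = _ := by rw [hm]; ring
    rw [integral_const_mul] at e1
    refine e1.trans ?_
    have e2 : (δ * ‖v‖) ^ 2 * m * N2 ≤ (δ * ‖v‖) ^ 2 * m * (4 * m * ε ^ 2 * C ^ 2) :=
      mul_le_mul_of_nonneg_left h5 (by positivity)
    refine e2.trans (le_of_eq ?_)
    rw [hT]; ring
  have h8 : ∫ x in box (0 : d → ℝ), f x ≤ T := by
    refine le_of_forall_pos_le_add fun η hη => ?_
    have hTη : 0 < T + η := by linarith
    have e1 : ∫ x in box (0 : d → ℝ), f x ≤
        ∫ x in box (0 : d → ℝ), ((2 * (T + η))⁻¹ * f x ^ 2 + (T + η) / 2) := by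
      refine integral_mono (integrable_box hfc) (integrable_box
        ((continuous_const.mul (hfc.pow 2)).add continuous_const)) fun x => ?_
      show f x ≤ (2 * (T + η))⁻¹ * f x ^ 2 + (T + η) / 2
      have : (2 * (T + η))⁻¹ * f x ^ 2 + (T + η) / 2 - f x =
          (2 * (T + η))⁻¹ * (f x - (T + η)) ^ 2 := by
        field_simp
        ring
      have h9 : 0 ≤ (2 * (T + η))⁻¹ * (f x - (T + η)) ^ 2 := by positivity
      linarith
    have c3 : Integrable (fun x => f x ^ 2) (volume.restrict (box (0 : d → ℝ))) :=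
      integrable_box (hfc.pow 2)
    rw [integral_add (c3.const_mul _) (integrable_const _),
      integral_const_mul, integral_const, vol_box_real, one_smul] at e1
    refine e1.trans ?_
    have e2 : (2 * (T + η))⁻¹ * ∫ x in box (0 : d → ℝ), f x ^ 2 ≤ (2 * (T + η))⁻¹ * (T + η) ^ 2 := by
      refine mul_le_mul_of_nonneg_left (h7.trans ?_) (by positivity)
      nlinarith
    have e3 : (2 * (T + η))⁻¹ * (T + η) ^ 2 = (T + η) / 2 := by
      field_simp
    linarith
  have h9 : ε * ‖∫ x in box (0 : d → ℝ), B x v‖ ≤ T := by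
    have e1 : ‖(ε : ℂ) * ∫ x in box (0 : d → ℝ), B x v‖ = ε * ‖∫ x in box (0 : d → ℝ), B x v‖ := by
      rw [norm_mul, norm_real, Real.norm_of_nonneg hε.le]
    rw [← e1, h6, norm_neg, norm_mul, Complex.norm_I, one_mul]
    exact (norm_integral_le_integral_norm _).trans h8
  have h10 : T = ε * (2 * m * C * δ * ‖v‖) := by rw [hT]; ring
  rw [h10] at h9
  exact le_of_mul_le_mul_left h9 hε

/-- **the torus lemma in the limit** : `Jn → J` uniformly, `Bn → B` uniformly on unit vectors -/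
theorem tor_limit {α : Type*} {l : Filter α} [l.NeBot] {g : α → (d → ℝ) → ℂ}
    (hg : ∀ᶠ n in l, ContDiff ℝ 1 (g n)) (hp : ∀ᶠ n in l, Per (g n))
    (J : (d → ℝ) →L[ℝ] (d → ℝ)) {Jn : α → (d → ℝ) → (d → ℝ) →L[ℝ] (d → ℝ)}
    (hJc : ∀ᶠ n in l, Continuous (Jn n))
    (hJ : ∀ δ : ℝ, 0 < δ → ∀ᶠ n in l, ∀ x, ‖Jn n x - J‖ ≤ δ)
    {ε : α → ℝ} (hε : ∀ᶠ n in l, 0 < ε n) {C : ℝ}
    {B : α → (d → ℝ) → (d → ℝ) → ℂ}
    (hB : ∀ᶠ n in l, ∀ x v, fderiv ℝ (g n) x v + I * fderiv ℝ (g n) x (Jn n x v) = ε n * B n x v)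
    (hbd : ∀ᶠ n in l, ∀ x v, ‖B n x v‖ ≤ C * ‖v‖)
    {B0 : (d → ℝ) → ℂ} {v : d → ℝ} (hB0 : Continuous B0)
    (hlim : ∀ η : ℝ, 0 < η → ∀ᶠ n in l, ∀ x ∈ box (0 : d → ℝ), ‖B n x v - B0 x‖ ≤ η)
    (hBc : ∀ᶠ n in l, Continuous fun x => B n x v) :
    ∫ x in box (0 : d → ℝ), B0 x = 0 := by
  rw [← norm_le_zero_iff]
  refine le_of_forall_pos_le_add fun η hη => ?_
  rw [zero_add]
  set C' : ℝ := max C 0 with hC'
  have hC'0 : 0 ≤ C' := le_max_right _ _
  set m : ℝ := (Fintype.card d : ℝ) with hm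
  have hm0 : 0 ≤ m := Nat.cast_nonneg _
  -- choice of `δ`
  obtain ⟨δ, hδ, hδ1, hδ2⟩ : ∃ δ : ℝ, 0 < δ ∧ 4 * m ^ 2 * δ ^ 2 ≤ 1 ∧
      2 * m * C' * δ * ‖v‖ ≤ η / 2 := by
    have hq : Tendsto (fun δ : ℝ => 4 * m ^ 2 * δ ^ 2) (𝓝[>] 0) (𝓝 (4 * m ^ 2 * 0 ^ 2)) :=
      ((continuous_const.mul (continuous_id.pow 2)).tendsto _).mono_left nhdsWithin_le_nhds
    have hr : Tendsto (fun δ : ℝ => 2 * m * C' * δ * ‖v‖) (𝓝[>] 0) (𝓝 (2 * m * C' * 0 * ‖v‖)) :=
      (((continuous_const.mul continuous_id).mul continuous_const).tendsto _).mono_left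
        nhdsWithin_le_nhds
    have a1 : ∀ᶠ δ : ℝ in 𝓝[>] 0, 4 * m ^ 2 * δ ^ 2 < 1 :=
      hq.eventually_lt_const (by norm_num)
    have a2 : ∀ᶠ δ : ℝ in 𝓝[>] 0, 2 * m * C' * δ * ‖v‖ < η / 2 :=
      hr.eventually_lt_const (by simpa using half_pos hη)
    have a3 : ∀ᶠ δ : ℝ in 𝓝[>] 0, 0 < δ := eventually_mem_nhdsWithin
    obtain ⟨δ, h1, h2, h3⟩ := (a3.and (a1.and a2)).exists
    exact ⟨δ, h1, h2.le, h3.le⟩
  obtain ⟨n, g1, g2, g3, g4, g5, g6, g7, g8, g9⟩ := (hg.and (hp.and (hJc.and ((hJ δ hδ).and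
    (hε.and (hB.and (hbd.and ((hlim (η / 2) (half_pos hη)).and hBc)))))))).exists
  have h1 := tor_bound g1 g2 J g3 g5 hC'0 hδ.le hδ1 g4 g6
    (fun x w => (g7 x w).trans (mul_le_mul_of_nonneg_right (le_max_left _ _) (norm_nonneg _))) v
  have h2 : ‖(∫ x in box (0 : d → ℝ), B0 x) - ∫ x in box (0 : d → ℝ), B n x v‖ ≤ η / 2 := by
    rw [← integral_sub (integrable_box hB0) (integrable_box g9)]
    have h3 : ∀ᵐ x ∂(volume.restrict (box (0 : d → ℝ))), ‖B0 x - B n x v‖ ≤ η / 2 := by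
      rw [ae_restrict_iff' (box_measurable _)]
      exact Eventually.of_forall fun x hx => by rw [norm_sub_rev]; exact g8 x hx
    refine (norm_integral_le_of_norm_le_const h3).trans ?_
    rw [vol_box_real, mul_one]
  calc ‖∫ x in box (0 : d → ℝ), B0 x‖
      = ‖((∫ x in box (0 : d → ℝ), B0 x) - ∫ x in box (0 : d → ℝ), B n x v) +
          ∫ x in box (0 : d → ℝ), B n x v‖ := by rw [sub_add_cancel]
    _ ≤ _ := norm_add_le _ _
    _ ≤ η / 2 + η / 2 := add_le_add h2 (h1.trans hδ2)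
    _ = η := by ring

/-- **(c2)** : a constant vector `η` with `∫ G_x(η, η) dx = 0`, `G_x` positive, vanishes -/
theorem eq_zero_of_int {G : (d → ℝ) → (d → ℝ) → ℝ} {η : d → ℝ} (hG : Continuous fun x => G x η)
    (hpos : ∀ x, η ≠ 0 → 0 < G x η) (h : ∫ x in box (0 : d → ℝ), G x η = 0) : η = 0 := by
  by_contra hη
  have h0 : ∀ x, 0 < G x η := fun x => hpos x hη
  have h1 : 0 < ∫ x in box (0 : d → ℝ), G x η := by
    rw [integral_pos_iff_support_of_nonneg (fun x => (h0 x).le) (integrable_box hG)]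
    have : Function.support (fun x => G x η) = univ := by
      ext x; simp [(h0 x).ne']
    rw [this, Measure.restrict_apply_univ, volume_box]
    exact one_pos
  exact h1.ne' h

end

end Crest.Agent.R281.Op3_569
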