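import Crest.Agent.R273.Hess_333
import Crest.Agent.R281.Op3a_569

/-!
# Row 281 (S0424), FLAT-T, part 1 (helper877): the `∂∂̄`-lemma on a flat torus

`T : ℝ^δ ≃ ℂᵐ` linear; functions on `ℂᵐ` periodic with respect to `T ℤ^δ`.

* `fc_wd`      : Fourier coefficients of a Wirtinger derivative
* `exists_pot` : a smooth periodic family `G` of Hermitian matrices with
                 `∂_c G_ab = ∂_a G_cb`, `∂_c̄ G_ab = ∂_b̄ G_ac` and mean `0` is `∂∂̄ ρ`, `ρ` real,
                 smooth, periodic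
-/

set_option autoImplicit false
set_option linter.unusedSectionVars false

open MeasureTheory Filter Topology Set Complex
open scoped ContDiff Real ComplexConjugate

namespace Crest.Agent.R281.Flt_877

open Crest.Agent.R275.Tor812 Crest.Agent.R275.Geo Crest.Agent.R275.Core144
open Crest.Agent.R275.EDR890 Crest.Agent.R273.Hess_333

noncomputable section

variable {m : ℕ} {δ : Type} [Fintype δ]

/-- periodic with respect to `T ℤ^δ` -/
def PerT (T : (δ → ℝ) ≃L[ℝ] Cn m) {E : Type*} (f : Cn m → E) : Prop :=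
  ∀ (k : δ → ℤ) (z : Cn m), f (z + T (fun i => (k i : ℝ))) = f z

variable {T : (δ → ℝ) ≃L[ℝ] Cn m}

/-- a smooth periodic function on `ℂᵐ` as a smooth periodic function on `ℝ^δ` -/
def toS (f : Cn m → ℂ) (hf : ContDiff ℝ ∞ f) (hp : PerT T f) : SPer δ :=
  ⟨fun θ => f (T θ), hf.comp T.contDiff, fun k θ => by
    show f (T (θ + _)) = f (T θ)
    rw [map_add]
    exact hp k (T θ)⟩

@[simp] theorem toS_apply (f : Cn m → ℂ) (hf : ContDiff ℝ ∞ f) (hp : PerT T f) (θ : δ → ℝ) :
    toS f hf hp θ = f (T θ) := rfl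

theorem PerT.fderiv {E : Type*} [NormedAddCommGroup E] [NormedSpace ℝ E] {f : Cn m → E}
    (hp : PerT T f) : PerT T (fderiv ℝ f) := by
  intro k z
  have h : (fun y => f (y + T (fun i => (k i : ℝ)))) = f := funext fun y => hp k y
  have h1 : _root_.fderiv ℝ (fun y => f (y + T (fun i => (k i : ℝ)))) z =
      _root_.fderiv ℝ f (z + T (fun i => (k i : ℝ))) := fderiv_comp_add_right _
  rw [← h1, h]

theorem PerT.wd {f : Cn m → ℂ} (hp : PerT T f) (s : WI m) : PerT T (wd s f) := by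
  intro k z
  unfold Crest.Agent.R275.EDR890.wd
  rw [hp.fderiv k z]

theorem contDiff_wd {f : Cn m → ℂ} (hf : ContDiff ℝ ∞ f) (s : WI m) : ContDiff ℝ ∞ (wd s f) :=
  contDiff_iff_contDiffAt.2 fun _ => contDiffAt_wd hf.contDiffAt s

/-- the symbol of a Wirtinger derivative -/
def kapR (T : (δ → ℝ) ≃L[ℝ] Cn m) (s : WI m) (x : δ → ℝ) : ℂ :=
  (1 / 2 : ℂ) * ((∑ j, (x j : ℂ) * ((T.symm (EuclideanSpace.single s.2 (1 : ℂ)) j : ℝ) : ℂ)) +
    cI s.1 * ∑ j, (x j : ℂ) * ((T.symm (EuclideanSpace.single s.2 I) j : ℝ) : ℂ))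

/-- the functional `θ ↦ ∑ x_j (T⁻¹ θ)_j` -/
def ell (T : (δ → ℝ) ≃L[ℝ] Cn m) (x : δ → ℝ) : Cn m →L[ℝ] ℂ :=
  ∑ j, (x j : ℂ) • (Complex.ofRealCLM.comp ((ContinuousLinearMap.proj j : (δ → ℝ) →L[ℝ] ℝ).comp
    (T.symm : Cn m →L[ℝ] (δ → ℝ))))

theorem ell_apply (x : δ → ℝ) (v : Cn m) : ell T x v = ∑ j, (x j : ℂ) * ((T.symm v j : ℝ) : ℂ) := by
  simp [ell]

theorem kapR_eq (s : WI m) (x : δ → ℝ) : kapR T s x = wdL s (ell T x) := by
  unfold kapR wdL
  rw [ell_apply, ell_apply, smul_eq_mul, smul_eq_mul]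

theorem kapR_conj (a : Fin m) (x : δ → ℝ) : conj (kapR T (false, a) x) = kapR T (true, a) x := by
  unfold kapR
  simp only [map_mul, map_add, map_sum, conj_ofReal, cI_false, cI_true, map_neg, conj_I, neg_neg,
    map_div₀, map_one, map_ofNat]

theorem kapR_inj {x : δ → ℝ} (h : ∀ a, kapR T (false, a) x = 0) : x = 0 := by
  classical
  have h1 : ∀ s : WI m, wdL s (ell T x) = 0 := by
    rintro ⟨b, a⟩
    rw [← kapR_eq]
    cases b
    · exact h a
    · rw [← kapR_conj, h a, map_zero]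
  funext j
  have h2 := apply_eq_sum (ell T x) (T (ev j))
  rw [ell_apply, T.symm_apply_apply, sum_mul_ev] at h2
  simp only [h1, smul_zero, Finset.sum_const_zero] at h2
  exact_mod_cast h2

/-- lower bound of the symbol of the Laplacian -/
theorem exists_lower (T : (δ → ℝ) ≃L[ℝ] Cn m) : ∃ c : ℝ, 0 < c ∧ ∀ k : δ → ℤ, k ≠ 0 →
    c ≤ ∑ a, ‖kapR T (false, a) (fun j => (k j : ℝ))‖ ^ 2 := by
  classical
  let L : (δ → ℝ) →ₗ[ℝ] (Fin m → ℂ) :=
    { toFun := fun x a => kapR T (false, a) x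
      map_add' := fun x y => by
        funext a
        simp only [kapR, Pi.add_apply, ofReal_add, add_mul, Finset.sum_add_distrib]
        ring
      map_smul' := fun t x => by
        funext a
        have e : ∀ v : δ → ℝ, ∑ j, ((t • x) j : ℂ) * (v j : ℂ) = t * ∑ j, (x j : ℂ) * (v j : ℂ) := by
          intro v
          rw [Finset.mul_sum]
          refine Finset.sum_congr rfl fun j _ => ?_
          simp only [Pi.smul_apply, smul_eq_mul, ofReal_mul]
          ring
        simp only [kapR, RingHom.id_apply, Pi.smul_apply, real_smul]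
        have e1 := e (T.symm (EuclideanSpace.single a (1 : ℂ)))
        have e2 := e (T.symm (EuclideanSpace.single a I))
        simp only [Pi.smul_apply, smul_eq_mul] at e1 e2 ⊢
        rw [e1, e2]
        ring }
  have hinj : LinearMap.ker L = ⊥ := by
    rw [LinearMap.ker_eq_bot']
    intro x hx
    exact kapR_inj fun a => congrFun hx a
  obtain ⟨C, hC0, hC⟩ := L.exists_antilipschitzWith hinj
  have hC0' : (0 : ℝ) < C := by exact_mod_cast hC0
  refine ⟨(1 / C) ^ 2, by positivity, fun k hk => ?_⟩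
  obtain ⟨j, hj⟩ : ∃ j, k j ≠ 0 := by
    by_contra h
    push Not at h
    exact hk (funext h)
  have h1 : (1 : ℝ) ≤ ‖(fun j => (k j : ℝ))‖ := by
    refine le_trans ?_ (norm_le_pi_norm (fun j => (k j : ℝ)) j)
    rw [Real.norm_eq_abs]
    exact_mod_cast Int.one_le_abs hj
  have h2 : ‖(fun j => (k j : ℝ))‖ ≤ C * ‖L (fun j => (k j : ℝ))‖ := by
    have := hC.le_mul_dist (fun j => (k j : ℝ)) 0
    rwa [map_zero, dist_zero_right, dist_zero_right] at this
  have h3 : 1 / C ≤ ‖L (fun j => (k j : ℝ))‖ := by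
    rw [div_le_iff₀ hC0']
    linarith [mul_comm (C : ℝ) ‖L (fun j => (k j : ℝ))‖]
  have h4 : ‖L (fun j => (k j : ℝ))‖ ^ 2 ≤ ∑ a, ‖kapR T (false, a) (fun j => (k j : ℝ))‖ ^ 2 := by
    have h5 : ‖L (fun j => (k j : ℝ))‖ ≤ Real.sqrt (∑ a, ‖kapR T (false, a) (fun j => (k j : ℝ))‖ ^ 2) := by
      rw [pi_norm_le_iff_of_nonneg (Real.sqrt_nonneg _)]
      intro a
      refine Real.le_sqrt_of_sq_le ?_
      exact Finset.single_le_sum (f := fun a => ‖kapR T (false, a) (fun j => (k j : ℝ))‖ ^ 2)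
        (fun a _ => sq_nonneg _) (Finset.mem_univ a)
    calc ‖L (fun j => (k j : ℝ))‖ ^ 2 ≤ (Real.sqrt _) ^ 2 := by gcongr
      _ = _ := Real.sq_sqrt (Finset.sum_nonneg fun a _ => sq_nonneg _)
  calc (1 / (C : ℝ)) ^ 2 ≤ ‖L (fun j => (k j : ℝ))‖ ^ 2 := by gcongr
    _ ≤ _ := h4

/-- the derivative in a constant direction of `ℂᵐ` -/
theorem fc_dir {f : Cn m → ℂ} (hf : ContDiff ℝ ∞ f) (hp : PerT T f) (v : Cn m)
    (k : δ → ℤ) (g : SPer δ) (hg : ∀ θ, g θ = fderiv ℝ f (T θ) v) :
    fc g k = 2 * π * I * (∑ j, ((k j : ℝ) : ℂ) * ((T.symm v j : ℝ) : ℂ)) * fc (toS f hf hp) k := by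
  have e : g = ∑ j, ((T.symm v j : ℝ) : ℂ) • pd j (toS f hf hp) := by
    refine SPer.ext fun θ => ?_
    have h1 : fderiv ℝ (fun θ => f (T θ)) θ (T.symm v) = fderiv ℝ f (T θ) v := by
      have h2 : HasFDerivAt (fun θ => f (T θ)) ((fderiv ℝ f (T θ)).comp (T : (δ → ℝ) →L[ℝ] Cn m)) θ :=
        ((hf.differentiable (by simp)) (T θ)).hasFDerivAt.comp θ T.hasFDerivAt
      rw [h2.fderiv]
      simp
    rw [hg, ← h1, Crest.Agent.R281.Op3_569.fderiv_sum]
    have h3 : ((∑ j, ((T.symm v j : ℝ) : ℂ) • pd j (toS f hf hp) : SPer δ) : (δ → ℝ) → ℂ) θ =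
        ∑ j, ((T.symm v j : ℝ) : ℂ) * pd j (toS f hf hp) θ := by
      have h4 : ∀ s : Finset δ, ((∑ j ∈ s, ((T.symm v j : ℝ) : ℂ) • pd j (toS f hf hp) : SPer δ) :
          (δ → ℝ) → ℂ) θ = ∑ j ∈ s, ((T.symm v j : ℝ) : ℂ) * pd j (toS f hf hp) θ := by
        classical
        intro s
        induction s using Finset.induction_on with
        | empty => rfl
        | insert a s ha ih => rw [Finset.sum_insert ha, Finset.sum_insert ha, SPer.add_apply,
            SPer.smul_apply, ih]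
      exact h4 Finset.univ
    rw [h3]
    rfl
  rw [e, fc_sum]
  simp only [fc_smul, fc_pd]
  rw [Finset.mul_sum, Finset.sum_mul]
  refine Finset.sum_congr rfl fun j _ => ?_
  push_cast
  ring

/-- **Fourier coefficients of a Wirtinger derivative** -/
theorem fc_wd {f : Cn m → ℂ} (hf : ContDiff ℝ ∞ f) (hp : PerT T f) (s : WI m) (k : δ → ℤ) :
    fc (toS (wd s f) (contDiff_wd hf s) (hp.wd s)) k =
      2 * π * I * kapR T s (fun j => (k j : ℝ)) * fc (toS f hf hp) k := by
  have hd : ∀ v : Cn m, ContDiff ℝ ∞ (fun z => fderiv ℝ f z v) := fun v =>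
    (hf.fderiv_right (m := ∞) (by simp)).clm_apply contDiff_const
  have hpv : ∀ v : Cn m, PerT T (fun z => fderiv ℝ f z v) := fun v k z => by
    show fderiv ℝ f _ v = fderiv ℝ f z v
    rw [hp.fderiv k z]
  have e : toS (wd s f) (contDiff_wd hf s) (hp.wd s) =
      (1 / 2 : ℂ) • (toS _ (hd (EuclideanSpace.single s.2 (1 : ℂ))) (hpv _) +
        cI s.1 • toS _ (hd (EuclideanSpace.single s.2 I)) (hpv _)) := by
    refine SPer.ext fun θ => ?_
    simp only [SPer.smul_apply, SPer.add_apply, toS_apply]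
    rfl
  have h1 := fc_dir hf hp (EuclideanSpace.single s.2 (1 : ℂ)) k
    (toS _ (hd (EuclideanSpace.single s.2 (1 : ℂ))) (hpv _)) (fun _ => rfl)
  have h2 := fc_dir hf hp (EuclideanSpace.single s.2 I) k
    (toS _ (hd (EuclideanSpace.single s.2 I)) (hpv _)) (fun _ => rfl)
  rw [e, fc_smul, fc_add, fc_smul, h1, h2]
  unfold kapR
  ring

/-! ### the potential -/

theorem Rapid.of_le {a b : (δ → ℤ) → ℂ} (ha : Rapid a) {C : ℝ} (hC : 0 ≤ C)
    (h : ∀ k, ‖b k‖ ≤ C * ‖a k‖) : Rapid b := by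
  intro N
  obtain ⟨D, hD⟩ := ha N
  refine ⟨C * D, fun k => ?_⟩
  have hw : 0 ≤ wt k ^ N := pow_nonneg (wt_pos k).le N
  calc wt k ^ N * ‖b k‖ ≤ wt k ^ N * (C * ‖a k‖) := mul_le_mul_of_nonneg_left (h k) hw
    _ = C * (wt k ^ N * ‖a k‖) := by ring
    _ ≤ C * D := mul_le_mul_of_nonneg_left (hD k) hC

theorem sum_kap (x : δ → ℝ) : ∑ a, kapR T (true, a) x * kapR T (false, a) x =
    ((∑ a, ‖kapR T (false, a) x‖ ^ 2 : ℝ) : ℂ) := by
  push_cast
  refine Finset.sum_congr rfl fun a _ => ?_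
  rw [← kapR_conj, ← Complex.normSq_eq_conj_mul_self, Complex.normSq_eq_norm_sq]
  push_cast
  rfl

theorem wd_lin2 {f g : Cn m → ℂ} {z : Cn m} (hf : DifferentiableAt ℝ f z)
    (hg : DifferentiableAt ℝ g z) (c : ℂ) (s : WI m) :
    wd s (fun z => c • f z + c • g z) z = c • wd s f z + c • wd s g z := by
  rw [wd_add (f := fun z => c • f z) (g := fun z => c • g z) (hf.const_smul c) (hg.const_smul c),
    wd_const_smul _ hf, wd_const_smul _ hg]

/-- **the `∂∂̄`-lemma on a flat torus** -/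
theorem exists_pot (T : (δ → ℝ) ≃L[ℝ] Cn m) (G : Cn m → Matrix (Fin m) (Fin m) ℂ)
    (hG : ∀ a b, ContDiff ℝ ∞ (fun z => G z a b)) (hGp : ∀ a b, PerT T (fun z => G z a b))
    (hGh : ∀ z a b, conj (G z a b) = G z b a)
    (h1 : ∀ z a b c, wd (false, c) (fun w => G w a b) z = wd (false, a) (fun w => G w c b) z)
    (h2 : ∀ z a b c, wd (true, c) (fun w => G w a b) z = wd (true, b) (fun w => G w a c) z)
    (h0 : ∀ a b, ∫ θ in box (0 : δ → ℝ), G (T θ) a b = 0) :
    ∃ ρ : Cn m → ℝ, ContDiff ℝ ∞ ρ ∧ PerT T ρ ∧ ∀ z, hess ρ z = G z := by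
  classical
  set g : Fin m → Fin m → SPer δ := fun a b => toS _ (hG a b) (hGp a b) with hg
  -- closedness
  have c1 : ∀ a b c (k : δ → ℤ), kapR T (false, c) (fun j => (k j : ℝ)) * fc (g a b) k =
      kapR T (false, a) (fun j => (k j : ℝ)) * fc (g c b) k := by
    intro a b c k
    have e1 := fc_wd (hG a b) (hGp a b) (false, c) k
    have e2 := fc_wd (hG c b) (hGp c b) (false, a) k
    have e3 : toS (wd (false, c) fun z => G z a b) (contDiff_wd (hG a b) _) ((hGp a b).wd _) =
        toS (wd (false, a) fun z => G z c b) (contDiff_wd (hG c b) _) ((hGp c b).wd _) :=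
      SPer.ext fun θ => h1 _ _ _ _
    rw [e3, e2] at e1
    have h2pi : (2 * π * I : ℂ) ≠ 0 := by simp [Real.pi_ne_zero, I_ne_zero]
    have e4 : (2 * π * I : ℂ) * (kapR T (false, a) (fun j => (k j : ℝ)) * fc (g c b) k) =
        (2 * π * I : ℂ) * (kapR T (false, c) (fun j => (k j : ℝ)) * fc (g a b) k) := by
      rw [← mul_assoc, ← mul_assoc]
      exact e1
    exact (mul_left_cancel₀ h2pi e4).symm
  have c2 : ∀ a b c (k : δ → ℤ), kapR T (true, c) (fun j => (k j : ℝ)) * fc (g a b) k =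
      kapR T (true, b) (fun j => (k j : ℝ)) * fc (g a c) k := by
    intro a b c k
    have e1 := fc_wd (hG a b) (hGp a b) (true, c) k
    have e2 := fc_wd (hG a c) (hGp a c) (true, b) k
    have e3 : toS (wd (true, c) fun z => G z a b) (contDiff_wd (hG a b) _) ((hGp a b).wd _) =
        toS (wd (true, b) fun z => G z a c) (contDiff_wd (hG a c) _) ((hGp a c).wd _) :=
      SPer.ext fun θ => h2 _ _ _ _
    rw [e3, e2] at e1
    have h2pi : (2 * π * I : ℂ) ≠ 0 := by simp [Real.pi_ne_zero, I_ne_zero]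
    have e4 : (2 * π * I : ℂ) * (kapR T (true, b) (fun j => (k j : ℝ)) * fc (g a c) k) =
        (2 * π * I : ℂ) * (kapR T (true, c) (fun j => (k j : ℝ)) * fc (g a b) k) := by
      rw [← mul_assoc, ← mul_assoc]
      exact e1
    exact (mul_left_cancel₀ h2pi e4).symm
  set N : (δ → ℤ) → ℝ := fun k => ∑ a, ‖kapR T (false, a) (fun j => (k j : ℝ))‖ ^ 2 with hN
  set t : (δ → ℤ) → ℂ := fun k => fc (∑ a, g a a) k with ht
  have c3 : ∀ a b (k : δ → ℤ), (N k : ℂ) * fc (g a b) k =
      kapR T (false, a) (fun j => (k j : ℝ)) * kapR T (true, b) (fun j => (k j : ℝ)) * t k := by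
    intro a b k
    rw [hN, ← sum_kap, Finset.sum_mul, ht]
    simp only [fc_sum]
    rw [Finset.mul_sum]
    refine Finset.sum_congr rfl fun c _ => ?_
    rw [mul_assoc, c1 a b c k, mul_left_comm, c2 c b c k]
    ring
  -- the coefficients of the potential
  set r : (δ → ℤ) → ℂ := fun k => t k * ((2 * π * I : ℂ) ^ 2 * (N k : ℂ))⁻¹ with hr
  obtain ⟨c, hc0, hc⟩ := exists_lower T
  have hrr : Rapid r := by
    refine Rapid.of_le (rapid_fc (∑ a, g a a)) (C := ((2 * π) ^ 2 * c)⁻¹) (by positivity) fun k => ?_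
    rw [hr]
    simp only [norm_mul, norm_inv, norm_pow, Complex.norm_I, mul_one]
    rw [mul_comm]
    refine mul_le_mul_of_nonneg_right ?_ (norm_nonneg _)
    have e0 : ‖(2 : ℂ)‖ * ‖(π : ℂ)‖ = 2 * π := by
      rw [Complex.norm_real, Real.norm_of_nonneg Real.pi_pos.le]
      simp
    rw [e0, Complex.norm_real]
    by_cases hk : k = 0
    · have hN0 : N k = 0 := by
        rw [hN, hk]
        refine Finset.sum_eq_zero fun a _ => ?_
        have : kapR T (false, a) (fun j => (((0 : δ → ℤ) j : ℤ) : ℝ)) = 0 := by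
          simp [kapR]
        rw [this, norm_zero]
        norm_num
      rw [hN0, norm_zero, mul_zero, inv_zero]
      positivity
    · have h3 := hc k hk
      have h4 : c ≤ ‖N k‖ := h3.trans (le_abs_self _)
      gcongr
  set f : Cn m → ℂ := fun z => syn r hrr (T.symm z) with hf
  have hfs : ContDiff ℝ ∞ f := (sm _).comp T.symm.contDiff
  have hfp : PerT T f := fun k z => by
    show syn r hrr (T.symm (z + T _)) = syn r hrr (T.symm z)
    rw [map_add, T.symm_apply_apply]
    exact per _ k _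
  have hfS : toS f hfs hfp = syn r hrr := SPer.ext fun θ => by
    show syn r hrr (T.symm (T θ)) = _
    rw [T.symm_apply_apply]
  have key : ∀ a b z, wd (false, a) (wd (true, b) f) z = G z a b := by
    intro a b z
    have e : toS (wd (false, a) (wd (true, b) f)) (contDiff_wd (contDiff_wd hfs _) _)
        ((hfp.wd _).wd _) = g a b := by
      refine fc_inj fun k => ?_
      rw [fc_wd (contDiff_wd hfs _) (hfp.wd _), fc_wd hfs hfp, hfS, fc_syn]
      by_cases hk : k = 0
      · have e1 : fc (g a b) 0 = 0 := by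
          rw [fc_eq_integral (g a b) 0 0]
          have : ∀ x, ch (-(0 : δ → ℤ)) x = 1 := fun x => by simp [ch]
          simp only [this, one_mul]
          exact h0 a b
        subst hk
        rw [e1]
        have : kapR T (false, a) (fun j => (((0 : δ → ℤ) j : ℤ) : ℝ)) = 0 := by
          simp [kapR]
        rw [this]
        ring
      · have h3 := hc k hk
        have hNk : (N k : ℂ) ≠ 0 := by
          have : 0 < N k := lt_of_lt_of_le hc0 h3
          exact_mod_cast this.ne'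
        have h2pi : (2 * π * I : ℂ) ≠ 0 := by simp [Real.pi_ne_zero, I_ne_zero]
        have h4 := c3 a b k
        rw [hr]
        field_simp
        exact h4.symm
    have := congrArg (fun F : SPer δ => F (T.symm z)) e
    simp only [toS_apply, T.apply_symm_apply, hg] at this
    exact this
  -- real part
  refine ⟨fun z => (f z).re, Complex.reCLM.contDiff.comp hfs, fun k z => by
    show (f _).re = (f z).re
    rw [hfp k z], fun z => ?_⟩
  ext a b
  have hcf : ContDiff ℝ ∞ (fun z => conj (f z)) := (conjCLE : ℂ →L[ℝ] ℂ).contDiff.comp hfs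
  have e1 : cu (fun z => (f z).re) = fun z => (1 / 2 : ℂ) • f z + (1 / 2 : ℂ) • conj (f z) := by
    funext z
    show (((f z).re : ℝ) : ℂ) = _
    rw [Complex.re_eq_add_conj]
    simp only [smul_eq_mul]
    ring
  have hd : ∀ z, DifferentiableAt ℝ f z := hfs.differentiable (by simp)
  have hdc : ∀ z, DifferentiableAt ℝ (fun z => conj (f z)) z := hcf.differentiable (by simp)
  have e2 : wd (true, b) (cu (fun z => (f z).re)) = fun z => (1 / 2 : ℂ) • wd (true, b) f z +
      (1 / 2 : ℂ) • wd (true, b) (fun z => conj (f z)) z := by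
    funext z
    rw [e1, wd_lin2 (hd z) (hdc z)]
  have hw : ∀ z, DifferentiableAt ℝ (wd (true, b) f) z :=
    (contDiff_wd hfs (true, b)).differentiable (by simp)
  have hwc : ∀ z, DifferentiableAt ℝ (wd (true, b) fun z => conj (f z)) z :=
    (contDiff_wd hcf (true, b)).differentiable (by simp)
  have e3 : wd (true, b) (fun z => conj (f z)) = fun z => conj (wd (false, b) f z) := by
    funext z
    exact (conj_wd (false, b) (hd z)).symm
  have e4 : wd (false, a) (fun z => conj (wd (false, b) f z)) z =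
      conj (wd (true, a) (wd (false, b) f) z) :=
    (conj_wd (true, a) ((contDiff_wd hfs (false, b)).differentiable (by simp) z)).symm
  rw [hess_apply, e2, wd_lin2 (hw z) (hwc z), key, e3, e4, wd_comm hfs.contDiffAt, key, hGh]
  simp only [smul_eq_mul]
  ring

end

end Crest.Agent.R281.Flt_877
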