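import Crest.Agent.R281.Per1_368

/-!
S-PER (task 1725), part 3: integrality of the periods of an integral class.

`IntCl Λ S ξ U α f`: `ξ` has local primitives `α i` on an open cover `U i` of `S`, everything
`Λ`-periodic, `α j - α i = d (f i j)` and the cocycle `f i j + f j k - f i k` is an integer.
`per_int`: then `per ξ z v w` is an integer for `v, w ∈ Λ`.
-/

open MeasureTheory Set Filter
open scoped Topology ENNReal

set_option maxSynthPendingDepth 3

namespace Crest.Agent.R281.Per_368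

variable {E : Type*} [NormedAddCommGroup E] [NormedSpace ℝ E]

/-- Čech--de Rham data of an integral class on the `Λ`-periodic set `S`. -/
structure IntCl {I : Type*} (Λ S : Set E) (ξ : E → E →L[ℝ] E →L[ℝ] ℝ) (U : I → Set E)
    (α : I → E → E →L[ℝ] ℝ) (f : I → I → E → ℝ) : Prop where
  op : ∀ i, IsOpen (U i)
  cov : ∀ x ∈ S, ∃ i, x ∈ U i
  perU : ∀ i, ∀ l ∈ Λ, ∀ x ∈ U i, x + l ∈ U i
  sm : ∀ i, ContDiffOn ℝ 1 (α i) (U i)
  pera : ∀ i, ∀ l ∈ Λ, ∀ x ∈ U i, α i (x + l) = α i x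
  d : ∀ i, ∀ x ∈ U i, ∀ a b, ξ x a b = fderiv ℝ (α i) x a b - fderiv ℝ (α i) x b a
  df : ∀ i j, ∀ x ∈ U i, x ∈ U j → HasFDerivAt (f i j) (α j x - α i x) x
  perf : ∀ i j, ∀ l ∈ Λ, ∀ x ∈ U i, x ∈ U j → f i j (x + l) = f i j x
  coc : ∀ i j k, ∀ x ∈ U i, x ∈ U j → x ∈ U k → ∃ m : ℤ, f i j x + f j k x - f i k x = m

/-- shift of a periodic sum -/
lemma sum_shift {g : ℕ → ℝ} {N : ℕ} (h : g N = g 0) :
    ∑ a ∈ Finset.range N, g a = ∑ a ∈ Finset.range N, g (a + 1) := by
  have h1 := Finset.sum_range_succ g N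
  have h2 := Finset.sum_range_succ' g N
  rw [h] at h1
  linarith

/-- splitting an iterated integral over the unit square into an `N × N` grid -/
lemma grid {F : ℝ → ℝ → ℝ} (hF : Continuous (Function.uncurry F)) {N : ℕ} (hN : 0 < N) :
    (∫ s in (0:ℝ)..1, ∫ t in (0:ℝ)..1, F s t) =
      ∑ a ∈ Finset.range N, ∑ b ∈ Finset.range N,
        ∫ s in ((a:ℝ) / N)..((a + 1 : ℕ) / N : ℝ), ∫ t in ((b:ℝ) / N)..((b + 1 : ℕ) / N : ℝ),
          F s t := by
  have hN' : (N:ℝ) ≠ 0 := by positivity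
  have hinner : ∀ s : ℝ, (∫ t in (0:ℝ)..1, F s t) =
      ∑ b ∈ Finset.range N, ∫ t in ((b:ℝ) / N)..((b + 1 : ℕ) / N : ℝ), F s t := by
    intro s
    have hc : Continuous fun t => F s t := hF.comp (by fun_prop : Continuous fun t : ℝ => (s, t))
    have := intervalIntegral.sum_integral_adjacent_intervals (f := fun t => F s t)
      (μ := volume) (a := fun b : ℕ => (b:ℝ) / N) (n := N)
      (fun k _ => hc.intervalIntegrable _ _)
    rw [this]
    simp [hN']
  have hcont : ∀ c d : ℝ, Continuous fun s => ∫ t in c..d, F s t := fun c d =>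
    intervalIntegral.continuous_parametric_intervalIntegral_of_continuous' hF c d
  have h1 : (∫ s in (0:ℝ)..1, ∫ t in (0:ℝ)..1, F s t) =
      ∑ b ∈ Finset.range N, ∫ s in (0:ℝ)..1,
        ∫ t in ((b:ℝ) / N)..((b + 1 : ℕ) / N : ℝ), F s t := by
    rw [← intervalIntegral.integral_finsetSum
      (fun b _ => (hcont _ _).intervalIntegrable _ _)]
    refine intervalIntegral.integral_congr fun s _ => hinner s
  rw [h1, Finset.sum_comm]
  refine Finset.sum_congr rfl fun b _ => ?_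
  have := intervalIntegral.sum_integral_adjacent_intervals
    (f := fun s => ∫ t in ((b:ℝ) / N)..((b + 1 : ℕ) / N : ℝ), F s t)
    (μ := volume) (a := fun b : ℕ => (b:ℝ) / N) (n := N)
    (fun k _ => (hcont _ _).intervalIntegrable _ _)
  rw [this]
  simp [hN']

/-- **(P4)** the periods of an integral class are integers. -/
theorem per_int {I : Type*} {Λ S : Set E} {ξ : E → E →L[ℝ] E →L[ℝ] ℝ} {U : I → Set E}
    {α : I → E → E →L[ℝ] ℝ} {f : I → I → E → ℝ} (h : IntCl Λ S ξ U α f)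
    (hξ : ContinuousOn ξ S) {z v w : E} (hv : v ∈ Λ) (hw : w ∈ Λ)
    (hin : ∀ s t : ℝ, pt z v w s t ∈ S) :
    ∃ m : ℤ, per ξ z v w = m := by
  classical
  -- Lebesgue number
  obtain ⟨δ, hδ, hL⟩ := lebesgue_number_lemma_of_metric (s := Q)
    (c := fun i => (fun p : ℝ × ℝ => pt z v w p.1 p.2) ⁻¹' (U i)) isCompact_Q
    (fun i => (h.op i).preimage (continuous_pt z v w))
    (fun p _ => by
      obtain ⟨i, hi⟩ := h.cov _ (hin p.1 p.2)
      exact mem_iUnion.2 ⟨i, hi⟩)
  obtain ⟨N, hN⟩ := exists_nat_gt (1 / δ)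
  have hN0 : 0 < N := by
    have : (0:ℝ) < N := lt_trans (by positivity) hN
    exact_mod_cast this
  have hNr : (0:ℝ) < N := by exact_mod_cast hN0
  have hNδ : 1 / (N:ℝ) < δ := by
    rw [div_lt_comm₀ hNr hδ]; exact hN
  -- index of a cell with lower left corner `(a/N, b/N)`, `a b < N`
  have hcell : ∀ a b : ℕ, a < N → b < N → ∃ i, ∀ s ∈ Icc ((a:ℝ) / N) ((a + 1 : ℕ) / N : ℝ),
      ∀ t ∈ Icc ((b:ℝ) / N) ((b + 1 : ℕ) / N : ℝ), pt z v w s t ∈ U i := by
    intro a b ha hb
    have hmem : (((a:ℝ) / N, (b:ℝ) / N) : ℝ × ℝ) ∈ Q := by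
      refine ⟨⟨by positivity, ?_⟩, ⟨by positivity, ?_⟩⟩
      · rw [div_le_one hNr]; exact_mod_cast ha.le
      · rw [div_le_one hNr]; exact_mod_cast hb.le
    obtain ⟨i, hi⟩ := hL _ hmem
    refine ⟨i, fun s hs t ht => ?_⟩
    have : ((s, t) : ℝ × ℝ) ∈ Metric.ball (((a:ℝ) / N, (b:ℝ) / N) : ℝ × ℝ) δ := by
      rw [Metric.mem_ball, Prod.dist_eq, max_lt_iff, Real.dist_eq, Real.dist_eq]
      have e1 : ((a + 1 : ℕ) : ℝ) / N = (a:ℝ) / N + 1 / N := by push_cast; ring
      have e2 : ((b + 1 : ℕ) : ℝ) / N = (b:ℝ) / N + 1 / N := by push_cast; ring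
      rw [e1] at hs; rw [e2] at ht
      constructor
      · rw [abs_lt]; constructor <;> simp only <;> linarith [hs.1, hs.2]
      · rw [abs_lt]; constructor <;> simp only <;> linarith [ht.1, ht.2]
    exact hi this
  have : Nonempty I := by
    obtain ⟨i, _⟩ := h.cov _ (hin 0 0); exact ⟨i⟩
  choose! i0 hi0 using hcell
  -- periodic continuation of the index to `a, b ≤ N`
  let ρ : ℕ → ℕ := fun a => if a = N then 0 else a
  have hρ : ∀ a, a < N → ρ a = a := fun a ha => by simp [ρ, ha.ne]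
  have hρN : ρ N = 0 := by simp [ρ]
  let ix : ℕ → ℕ → I := fun a b => i0 (ρ a) (ρ b)
  have hper1 : ∀ i : I, ∀ s t : ℝ, pt z v w (s - 1) t ∈ U i → pt z v w s t ∈ U i := by
    intro i s t hm
    have e : pt z v w s t = pt z v w (s - 1) t + v := by
      simp only [pt, sub_smul, one_smul]; abel
    rw [e]; exact h.perU i v hv _ hm
  have hper2 : ∀ i : I, ∀ s t : ℝ, pt z v w s (t - 1) ∈ U i → pt z v w s t ∈ U i := by
    intro i s t hm
    have e : pt z v w s t = pt z v w s (t - 1) + w := by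
      simp only [pt, sub_smul, one_smul]; abel
    rw [e]; exact h.perU i w hw _ hm
  have hix : ∀ a b : ℕ, a ≤ N → b ≤ N → ∀ s ∈ Icc ((a:ℝ) / N) ((a + 1 : ℕ) / N : ℝ),
      ∀ t ∈ Icc ((b:ℝ) / N) ((b + 1 : ℕ) / N : ℝ), pt z v w s t ∈ U (ix a b) := by
    intro a b ha hb s hs t ht
    have key : ∀ c : ℕ, c ≤ N → ∀ r ∈ Icc ((c:ℝ) / N) ((c + 1 : ℕ) / N : ℝ),
        (ρ c < N ∧ r ∈ Icc ((ρ c:ℝ) / N) ((ρ c + 1 : ℕ) / N : ℝ)) ∨
        (ρ c < N ∧ r - 1 ∈ Icc ((ρ c:ℝ) / N) ((ρ c + 1 : ℕ) / N : ℝ)) := by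
      intro c hc r hr
      rcases hc.lt_or_eq with hlt | heq
      · left; rw [hρ c hlt]; exact ⟨hlt, hr⟩
      · right
        subst heq
        rw [hρN]
        refine ⟨hN0, ?_, ?_⟩
        · have : (c:ℝ) / c = 1 := div_self hNr.ne'
          rw [this] at hr
          simp only [Nat.cast_zero, zero_div]; linarith [hr.1]
        · have e1 : ((c + 1 : ℕ) : ℝ) / c = 1 + 1 / c := by
            push_cast; rw [add_div, div_self hNr.ne']
          have e2 : ((0 + 1 : ℕ) : ℝ) / c = 1 / c := by simp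
          rw [e1] at hr; rw [e2]; linarith [hr.2]
    rcases key a ha s hs with ⟨ha', hs'⟩ | ⟨ha', hs'⟩ <;>
    rcases key b hb t ht with ⟨hb', ht'⟩ | ⟨hb', ht'⟩
    · exact hi0 _ _ ha' hb' _ hs' _ ht'
    · exact hper2 _ _ _ (hi0 _ _ ha' hb' _ hs' _ ht')
    · exact hper1 _ _ _ (hi0 _ _ ha' hb' _ hs' _ ht')
    · exact hper1 _ _ _ (hper2 _ _ _ (hi0 _ _ ha' hb' _ hs' _ ht'))
  have hxle : ∀ a : ℕ, (a:ℝ) / N ≤ ((a + 1 : ℕ) : ℝ) / N := fun a => by
    gcongr; exact_mod_cast Nat.le_succ a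
  -- the four families of edges and vertices
  let P : ℕ → ℕ → E := fun a b => pt z v w ((a:ℝ) / N) ((b:ℝ) / N)
  let V : I → ℕ → ℕ → ℝ := fun i a b =>
    ∫ t in ((b:ℝ) / N)..((b + 1 : ℕ) / N : ℝ), α i (pt z v w ((a:ℝ) / N) t) w
  let H : I → ℕ → ℕ → ℝ := fun i a b =>
    ∫ s in ((a:ℝ) / N)..((a + 1 : ℕ) / N : ℝ), α i (pt z v w s ((b:ℝ) / N)) v
  have hF : Continuous (Function.uncurry fun s t => ξ (pt z v w s t) v w) := by
    have h1 : ContinuousOn (fun p : ℝ × ℝ => ξ (pt z v w p.1 p.2) v w) univ :=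
      ((hξ.comp (continuous_pt z v w).continuousOn
        (fun p _ => hin _ _)).clm_apply continuousOn_const).clm_apply continuousOn_const
    exact continuousOn_univ.1 h1
  have hcellint : ∀ a b : ℕ, a < N → b < N →
      (∫ s in ((a:ℝ) / N)..((a + 1 : ℕ) / N : ℝ), ∫ t in ((b:ℝ) / N)..((b + 1 : ℕ) / N : ℝ),
        ξ (pt z v w s t) v w) =
      V (ix a b) (a + 1) b - V (ix a b) a b - H (ix a b) a (b + 1) + H (ix a b) a b := by
    intro a b ha hb
    have hU : ∀ s ∈ uIcc ((a:ℝ) / N) ((a + 1 : ℕ) / N : ℝ),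
        ∀ t ∈ uIcc ((b:ℝ) / N) ((b + 1 : ℕ) / N : ℝ), pt z v w s t ∈ U (ix a b) := by
      rw [uIcc_of_le (hxle a), uIcc_of_le (hxle b)]
      exact hix a b ha.le hb.le
    rw [← green (h.op (ix a b)) (h.sm (ix a b)) z v w hU]
    refine intervalIntegral.integral_congr fun s hs => ?_
    refine intervalIntegral.integral_congr fun t ht => ?_
    exact h.d _ _ (hU s hs t ht) v w
  have hVper : ∀ (i : I) (b : ℕ), (∀ t ∈ Icc ((b:ℝ) / N) ((b + 1 : ℕ) / N : ℝ),
      pt z v w ((0:ℕ) / N : ℝ) t ∈ U i) → V i N b = V i 0 b := by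
    intro i b hU
    refine intervalIntegral.integral_congr fun t ht => ?_
    rw [uIcc_of_le (hxle b)] at ht
    have e : pt z v w ((N:ℝ) / N) t = pt z v w ((0:ℕ) / N : ℝ) t + v := by
      rw [div_self hNr.ne']; simp [pt]; abel
    show α i (pt z v w ((N:ℝ) / N) t) w = α i (pt z v w ((0:ℕ) / N : ℝ) t) w
    rw [e, h.pera i v hv _ (hU t ht)]
  have hHper : ∀ (i : I) (a : ℕ), (∀ s ∈ Icc ((a:ℝ) / N) ((a + 1 : ℕ) / N : ℝ),
      pt z v w s ((0:ℕ) / N : ℝ) ∈ U i) → H i a N = H i a 0 := by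
    intro i a hU
    refine intervalIntegral.integral_congr fun s hs => ?_
    rw [uIcc_of_le (hxle a)] at hs
    have e : pt z v w s ((N:ℝ) / N) = pt z v w s ((0:ℕ) / N : ℝ) + w := by
      rw [div_self hNr.ne']; simp [pt]
    show α i (pt z v w s ((N:ℝ) / N)) v = α i (pt z v w s ((0:ℕ) / N : ℝ)) v
    rw [e, h.pera i w hw _ (hU s hs)]
  -- differences along edges
  have hVd : ∀ (i j : I) (a b : ℕ), (∀ t ∈ Icc ((b:ℝ) / N) ((b + 1 : ℕ) / N : ℝ),
      pt z v w ((a:ℝ) / N) t ∈ U i ∧ pt z v w ((a:ℝ) / N) t ∈ U j) →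
      V j a b - V i a b = f i j (P a (b + 1)) - f i j (P a b) := by
    intro i j a b hU
    have hcurve : ∀ t : ℝ, HasDerivAt (fun t : ℝ => pt z v w ((a:ℝ) / N) t) w t := by
      intro t
      have : HasDerivAt (fun t : ℝ => t • w) w t := by
        simpa using (hasDerivAt_id t).smul_const w
      unfold pt
      exact this.const_add _
    have hcc : Continuous fun t : ℝ => pt z v w ((a:ℝ) / N) t := by unfold pt; fun_prop
    have hi : ∀ k, (∀ t ∈ Icc ((b:ℝ) / N) ((b + 1 : ℕ) / N : ℝ),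
        pt z v w ((a:ℝ) / N) t ∈ U k) →
        IntervalIntegrable (fun t => α k (pt z v w ((a:ℝ) / N) t) w) volume
        ((b:ℝ) / N) ((b + 1 : ℕ) / N : ℝ) := by
      intro k hk
      apply ContinuousOn.intervalIntegrable
      rw [uIcc_of_le (hxle b)]
      exact ((h.sm k).continuousOn.comp hcc.continuousOn hk).clm_apply continuousOn_const
    have hii := hi i (fun t ht => (hU t ht).1)
    have hjj := hi j (fun t ht => (hU t ht).2)
    have := intervalIntegral.integral_eq_sub_of_hasDerivAt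
      (f := fun t => f i j (pt z v w ((a:ℝ) / N) t))
      (f' := fun t => α j (pt z v w ((a:ℝ) / N) t) w - α i (pt z v w ((a:ℝ) / N) t) w)
      (a := (b:ℝ) / N) (b := ((b + 1 : ℕ) / N : ℝ))
      (fun t ht => by
        rw [uIcc_of_le (hxle b)] at ht
        have := (h.df i j _ (hU t ht).1 (hU t ht).2).comp_hasDerivAt t (hcurve t)
        rw [sub_apply] at this
        exact this)
      (hjj.sub hii)
    rw [intervalIntegral.integral_sub hjj hii] at this
    exact this
  have hHd : ∀ (i j : I) (a b : ℕ), (∀ s ∈ Icc ((a:ℝ) / N) ((a + 1 : ℕ) / N : ℝ),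
      pt z v w s ((b:ℝ) / N) ∈ U i ∧ pt z v w s ((b:ℝ) / N) ∈ U j) →
      H j a b - H i a b = f i j (P (a + 1) b) - f i j (P a b) := by
    intro i j a b hU
    have hcurve : ∀ s : ℝ, HasDerivAt (fun s : ℝ => pt z v w s ((b:ℝ) / N)) v s := by
      intro s
      have : HasDerivAt (fun s : ℝ => z + s • v) v s := by
        simpa using ((hasDerivAt_id s).smul_const v).const_add z
      unfold pt
      exact this.add_const _
    have hcc : Continuous fun s : ℝ => pt z v w s ((b:ℝ) / N) := by unfold pt; fun_prop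
    have hi : ∀ k, (∀ s ∈ Icc ((a:ℝ) / N) ((a + 1 : ℕ) / N : ℝ),
        pt z v w s ((b:ℝ) / N) ∈ U k) →
        IntervalIntegrable (fun s => α k (pt z v w s ((b:ℝ) / N)) v) volume
        ((a:ℝ) / N) ((a + 1 : ℕ) / N : ℝ) := by
      intro k hk
      apply ContinuousOn.intervalIntegrable
      rw [uIcc_of_le (hxle a)]
      exact ((h.sm k).continuousOn.comp hcc.continuousOn hk).clm_apply continuousOn_const
    have hii := hi i (fun t ht => (hU t ht).1)
    have hjj := hi j (fun t ht => (hU t ht).2)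
    have := intervalIntegral.integral_eq_sub_of_hasDerivAt
      (f := fun s => f i j (pt z v w s ((b:ℝ) / N)))
      (f' := fun s => α j (pt z v w s ((b:ℝ) / N)) v - α i (pt z v w s ((b:ℝ) / N)) v)
      (a := (a:ℝ) / N) (b := ((a + 1 : ℕ) / N : ℝ))
      (fun t ht => by
        rw [uIcc_of_le (hxle a)] at ht
        have := (h.df i j _ (hU t ht).1 (hU t ht).2).comp_hasDerivAt t (hcurve t)
        rw [sub_apply] at this
        exact this)
      (hjj.sub hii)
    rw [intervalIntegral.integral_sub hjj hii] at this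
    exact this
  -- corner memberships
  have hlo : ∀ a : ℕ, (a:ℝ) / N ∈ Icc ((a:ℝ) / N) ((a + 1 : ℕ) / N : ℝ) := fun a =>
    ⟨le_rfl, hxle a⟩
  have hhi : ∀ a : ℕ, ((a + 1 : ℕ):ℝ) / N ∈ Icc ((a:ℝ) / N) ((a + 1 : ℕ) / N : ℝ) := fun a =>
    ⟨hxle a, le_rfl⟩
  -- row sums
  have hrowV : ∀ b, b < N → ∑ a ∈ Finset.range N, (V (ix a b) (a + 1) b - V (ix a b) a b) =
      - ∑ a ∈ Finset.range N, (f (ix a b) (ix (a + 1) b) (P (a + 1) (b + 1))
        - f (ix a b) (ix (a + 1) b) (P (a + 1) b)) := by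
    intro b hb
    have hs : ∑ a ∈ Finset.range N, V (ix a b) a b =
        ∑ a ∈ Finset.range N, V (ix (a + 1) b) (a + 1) b := by
      refine sum_shift (g := fun a => V (ix a b) a b) ?_
      have e : ix N b = ix 0 b := by simp only [ix]; rw [hρN, hρ 0 hN0]
      show V (ix N b) N b = V (ix 0 b) 0 b
      rw [e]
      exact hVper _ _ fun t ht => hix 0 b (Nat.zero_le _) hb.le _ (hlo 0) t ht
    rw [Finset.sum_sub_distrib, hs, ← Finset.sum_sub_distrib, ← Finset.sum_neg_distrib]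
    refine Finset.sum_congr rfl fun a ha => ?_
    rw [Finset.mem_range] at ha
    rw [← hVd (ix a b) (ix (a + 1) b) (a + 1) b
      (fun t ht => ⟨hix a b ha.le hb.le _ (hhi a) t ht, hix (a + 1) b ha hb.le _ (hlo _) t ht⟩)]
    ring
  have hcolH : ∀ a, a < N → ∑ b ∈ Finset.range N, (H (ix a b) a b - H (ix a b) a (b + 1)) =
      ∑ b ∈ Finset.range N, (f (ix a b) (ix a (b + 1)) (P (a + 1) (b + 1))
        - f (ix a b) (ix a (b + 1)) (P a (b + 1))) := by
    intro a ha
    have hs : ∑ b ∈ Finset.range N, H (ix a b) a b =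
        ∑ b ∈ Finset.range N, H (ix a (b + 1)) a (b + 1) := by
      refine sum_shift (g := fun b => H (ix a b) a b) ?_
      have e : ix a N = ix a 0 := by simp only [ix]; rw [hρN, hρ 0 hN0]
      show H (ix a N) a N = H (ix a 0) a 0
      rw [e]
      exact hHper _ _ fun s hs => hix a 0 ha.le (Nat.zero_le _) s hs _ (hlo 0)
    rw [Finset.sum_sub_distrib, hs, ← Finset.sum_sub_distrib]
    refine Finset.sum_congr rfl fun b hb => ?_
    rw [Finset.mem_range] at hb
    exact hHd (ix a b) (ix a (b + 1)) a (b + 1)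
      (fun s hs => ⟨hix a b ha.le hb.le s hs _ (hhi b), hix a (b + 1) ha.le hb s hs _ (hlo _)⟩)
  -- periodicity of the `f`-terms
  have hP1 : ∀ b, P N b = P 0 b + v := by
    intro b; simp only [P, pt]; rw [div_self hNr.ne']; simp; abel
  have hP2 : ∀ a, P a N = P a 0 + w := by
    intro a; simp only [P, pt]; rw [div_self hNr.ne']; simp
  have hshiftb : ∀ a, a < N → ∑ b ∈ Finset.range N, f (ix a b) (ix (a + 1) b) (P (a + 1) b) =
      ∑ b ∈ Finset.range N,
        f (ix a (b + 1)) (ix (a + 1) (b + 1)) (P (a + 1) (b + 1)) := by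
    intro a ha
    refine sum_shift (g := fun b => f (ix a b) (ix (a + 1) b) (P (a + 1) b)) ?_
    have e : ∀ c, ix c N = ix c 0 := fun c => by simp only [ix]; rw [hρN, hρ 0 hN0]
    show f (ix a N) (ix (a + 1) N) (P (a + 1) N) = f (ix a 0) (ix (a + 1) 0) (P (a + 1) 0)
    rw [e, e, hP2]
    exact h.perf _ _ w hw _ (hix a 0 ha.le (Nat.zero_le _) _ (hhi a) _ (hlo 0))
      (hix (a + 1) 0 ha (Nat.zero_le _) _ (hlo _) _ (hlo 0))
  have hshifta : ∀ b, b < N → ∑ a ∈ Finset.range N, f (ix a b) (ix a (b + 1)) (P a (b + 1)) =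
      ∑ a ∈ Finset.range N,
        f (ix (a + 1) b) (ix (a + 1) (b + 1)) (P (a + 1) (b + 1)) := by
    intro b hb
    refine sum_shift (g := fun a => f (ix a b) (ix a (b + 1)) (P a (b + 1))) ?_
    have e : ∀ c, ix N c = ix 0 c := fun c => by simp only [ix]; rw [hρN, hρ 0 hN0]
    show f (ix N b) (ix N (b + 1)) (P N (b + 1)) = f (ix 0 b) (ix 0 (b + 1)) (P 0 (b + 1))
    rw [e, e, hP1]
    exact h.perf _ _ v hv _ (hix 0 b (Nat.zero_le _) hb.le _ (hlo 0) _ (hhi b))
      (hix 0 (b + 1) (Nat.zero_le _) hb _ (hlo 0) _ (hlo _))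
  -- total
  have htot : per ξ z v w = ∑ a ∈ Finset.range N, ∑ b ∈ Finset.range N,
      (- f (ix a b) (ix (a + 1) b) (P (a + 1) (b + 1))
        + f (ix a (b + 1)) (ix (a + 1) (b + 1)) (P (a + 1) (b + 1))
        + f (ix a b) (ix a (b + 1)) (P (a + 1) (b + 1))
        - f (ix (a + 1) b) (ix (a + 1) (b + 1)) (P (a + 1) (b + 1))) := by
    have e1 : per ξ z v w = ∑ a ∈ Finset.range N, ∑ b ∈ Finset.range N,
        ((V (ix a b) (a + 1) b - V (ix a b) a b)
          + (H (ix a b) a b - H (ix a b) a (b + 1))) := by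
      unfold per
      rw [grid (F := fun s t => ξ (pt z v w s t) v w) hF hN0]
      refine Finset.sum_congr rfl fun a ha => Finset.sum_congr rfl fun b hb => ?_
      rw [Finset.mem_range] at ha hb
      rw [hcellint a b ha hb]; ring
    have e2 : ∑ a ∈ Finset.range N, ∑ b ∈ Finset.range N,
        (V (ix a b) (a + 1) b - V (ix a b) a b) =
        ∑ a ∈ Finset.range N, ∑ b ∈ Finset.range N,
        (- f (ix a b) (ix (a + 1) b) (P (a + 1) (b + 1))
          + f (ix a (b + 1)) (ix (a + 1) (b + 1)) (P (a + 1) (b + 1))) := by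
      rw [Finset.sum_comm]
      calc _ = ∑ b ∈ Finset.range N, - ∑ a ∈ Finset.range N,
            (f (ix a b) (ix (a + 1) b) (P (a + 1) (b + 1))
              - f (ix a b) (ix (a + 1) b) (P (a + 1) b)) :=
            Finset.sum_congr rfl fun b hb => hrowV b (Finset.mem_range.1 hb)
        _ = ∑ a ∈ Finset.range N, ∑ b ∈ Finset.range N,
            (- f (ix a b) (ix (a + 1) b) (P (a + 1) (b + 1))
              + f (ix a b) (ix (a + 1) b) (P (a + 1) b)) := by
            rw [Finset.sum_comm]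
            refine Finset.sum_congr rfl fun b _ => ?_
            rw [← Finset.sum_neg_distrib]
            refine Finset.sum_congr rfl fun a _ => ?_
            ring
        _ = _ := by
            refine Finset.sum_congr rfl fun a ha => ?_
            rw [Finset.sum_add_distrib, Finset.sum_add_distrib,
              hshiftb a (Finset.mem_range.1 ha)]
    have e3 : ∑ a ∈ Finset.range N, ∑ b ∈ Finset.range N,
        (H (ix a b) a b - H (ix a b) a (b + 1)) =
        ∑ a ∈ Finset.range N, ∑ b ∈ Finset.range N,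
        (f (ix a b) (ix a (b + 1)) (P (a + 1) (b + 1))
          - f (ix (a + 1) b) (ix (a + 1) (b + 1)) (P (a + 1) (b + 1))) := by
      calc _ = ∑ a ∈ Finset.range N, ∑ b ∈ Finset.range N,
            (f (ix a b) (ix a (b + 1)) (P (a + 1) (b + 1))
              - f (ix a b) (ix a (b + 1)) (P a (b + 1))) :=
            Finset.sum_congr rfl fun a ha => hcolH a (Finset.mem_range.1 ha)
        _ = _ := by
            rw [Finset.sum_comm]
            conv_rhs => rw [Finset.sum_comm]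
            refine Finset.sum_congr rfl fun b hb => ?_
            rw [Finset.sum_sub_distrib, Finset.sum_sub_distrib,
              hshifta b (Finset.mem_range.1 hb)]
    rw [e1]
    have e4 : ∑ a ∈ Finset.range N, ∑ b ∈ Finset.range N,
        ((V (ix a b) (a + 1) b - V (ix a b) a b)
          + (H (ix a b) a b - H (ix a b) a (b + 1))) =
        (∑ a ∈ Finset.range N, ∑ b ∈ Finset.range N,
          (V (ix a b) (a + 1) b - V (ix a b) a b)) +
        ∑ a ∈ Finset.range N, ∑ b ∈ Finset.range N,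
          (H (ix a b) a b - H (ix a b) a (b + 1)) := by
      simp only [Finset.sum_add_distrib]
    rw [e4, e2, e3]
    rw [← Finset.sum_add_distrib]
    refine Finset.sum_congr rfl fun a _ => ?_
    rw [← Finset.sum_add_distrib]
    refine Finset.sum_congr rfl fun b _ => ?_
    ring
  rw [htot]
  have hterm : ∀ a b, a < N → b < N → ∃ m : ℤ,
      (- f (ix a b) (ix (a + 1) b) (P (a + 1) (b + 1))
        + f (ix a (b + 1)) (ix (a + 1) (b + 1)) (P (a + 1) (b + 1))
        + f (ix a b) (ix a (b + 1)) (P (a + 1) (b + 1))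
        - f (ix (a + 1) b) (ix (a + 1) (b + 1)) (P (a + 1) (b + 1))) = m := by
    intro a b ha hb
    have mA : P (a + 1) (b + 1) ∈ U (ix a b) := hix a b ha.le hb.le _ (hhi a) _ (hhi b)
    have mB : P (a + 1) (b + 1) ∈ U (ix a (b + 1)) :=
      hix a (b + 1) ha.le hb _ (hhi a) _ (hlo _)
    have mC : P (a + 1) (b + 1) ∈ U (ix (a + 1) b) :=
      hix (a + 1) b ha hb.le _ (hlo _) _ (hhi b)
    have mD : P (a + 1) (b + 1) ∈ U (ix (a + 1) (b + 1)) :=
      hix (a + 1) (b + 1) ha hb _ (hlo _) _ (hlo _)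
    obtain ⟨m1, h1⟩ := h.coc _ _ _ _ mA mB mD
    obtain ⟨m2, h2⟩ := h.coc _ _ _ _ mA mC mD
    refine ⟨m1 - m2, ?_⟩
    push_cast
    rw [← h1, ← h2]; ring
  choose! m hm using hterm
  refine ⟨∑ a ∈ Finset.range N, ∑ b ∈ Finset.range N, m a b, ?_⟩
  push_cast
  exact Finset.sum_congr rfl fun a ha => Finset.sum_congr rfl fun b hb =>
    hm a b (Finset.mem_range.1 ha) (Finset.mem_range.1 hb)

end Crest.Agent.R281.Per_368
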