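import Crest.Agent.R281.Per2_368
import Crest.Agent.R281.Per3_368
import Crest.Agent.R281.Cdr1_234
import Crest.Agent.R281.Poi_234

/-!
S-PER (task 1725), part 4: pull back of the closed real 2-forms `F2 C` (835) and of the
Cech--de Rham data `CD w α` (234) along a map `Φ : S → X` which is smooth in the charts.

* `SmI C S Φ`    : `S` open, `Φ` continuous on `S`, smooth in the charts
* `pull w Φ`     : the pull back, `pull_eq` (any chart), `pull_smooth`, `pull_cl : Cl S (pull w Φ)`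
* `Per.pull_add` : periodicity
* `intCl_pull`   : `IntF w` ==> `IntCl` data for `pull w Φ`
* `per_pull_int` : the periods of `pull w Φ` are integers
* `per_pull_ex`  : the periods of an exact form are zero
* `per_pull_zero`: integral class + small mean ==> the period is zero
-/

set_option maxSynthPendingDepth 3

open MeasureTheory Set Filter
open scoped Topology ENNReal ContDiff

namespace Crest.Agent.R281.Per_368

open Crest.Agent.R281.HkR_835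
open Crest.Agent.R281.Cdr_234 (sh CD IntF)
open Crest.Agent.R281.Ti_846 (F1 IsD Ex)

section loc

variable {V V' : Type*} [NormedAddCommGroup V] [NormedSpace ℝ V] [NormedAddCommGroup V']
  [NormedSpace ℝ V']

/-- the exterior derivative of a 1-form -/
noncomputable def dd (θ : V → V →L[ℝ] ℝ) (z : V) : V →L[ℝ] V →L[ℝ] ℝ :=
  fderiv ℝ θ z - (fderiv ℝ θ z).flip

@[simp] theorem dd_apply (θ : V → V →L[ℝ] ℝ) (z u v : V) :
    dd θ z u v = fderiv ℝ θ z u v - fderiv ℝ θ z v u := rfl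

/-- pull back of a 1-form -/
noncomputable def pb1 (θ : V → V →L[ℝ] ℝ) (φ : V' → V) (z : V') : V' →L[ℝ] ℝ :=
  (θ (φ z)).comp (fderiv ℝ φ z)

@[simp] theorem pb1_apply (θ : V → V →L[ℝ] ℝ) (φ : V' → V) (z u : V') :
    pb1 θ φ z u = θ (φ z) (fderiv ℝ φ z u) := rfl

theorem contDiffOn_pb1 {θ : V → V →L[ℝ] ℝ} {φ : V' → V} {U : Set V} {U' : Set V'}
    (hU' : IsOpen U') (hθ : ContDiffOn ℝ ∞ θ U) (hφ : ContDiffOn ℝ ∞ φ U') (hm : MapsTo φ U' U) :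
    ContDiffOn ℝ ∞ (pb1 θ φ) U' := by
  have h1 : ContDiffOn ℝ ∞ (fun z => θ (φ z)) U' := hθ.comp hφ hm
  have h2 : ContDiffOn ℝ ∞ (fderiv ℝ φ) U' := hφ.fderiv_of_isOpen hU' (by simp)
  exact h1.clm_comp h2

/-- the exterior derivative commutes with pull back -/
theorem dd_pb1 {θ : V → V →L[ℝ] ℝ} {φ : V' → V} {z : V'}
    (hθ : DifferentiableAt ℝ θ (φ z)) (hφ : ContDiffAt ℝ ∞ φ z) (u v : V') :
    dd (pb1 θ φ) z u v = dd θ (φ z) (fderiv ℝ φ z u) (fderiv ℝ φ z v) :=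
  Crest.Agent.R281.Cdr_234.d_pb1 hθ hφ u v

theorem fdP_app {w : V → V →L[ℝ] V →L[ℝ] ℝ} {z : V} (hw : DifferentiableAt ℝ w z) (v u a : V) :
    fderiv ℝ (fun y => w y v u) z a = fderiv ℝ w z a v u := by
  have h1 : HasFDerivAt w (fderiv ℝ w z) z := hw.hasFDerivAt
  have h4 : HasFDerivAt (fun y => w y v) _ z := h1.clm_apply (hasFDerivAt_const v z)
  have h5 := (h4.clm_apply (hasFDerivAt_const u z)).fderiv
  rw [h5]
  simp

/-- `d d = 0` -/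
theorem dd_closed [FiniteDimensional ℝ V] {θ : V → V →L[ℝ] ℝ} {z : V}
    (hθ : ContDiffAt ℝ ∞ θ z) (a b c : V) :
    fderiv ℝ (dd θ) z a b c + fderiv ℝ (dd θ) z b c a + fderiv ℝ (dd θ) z c a b = 0 := by
  have hd2 : DifferentiableAt ℝ (fderiv ℝ θ) z :=
    (hθ.fderiv_right (m := ∞) (by simp)).differentiableAt (by simp)
  have hs : ∀ p q, fderiv ℝ (fderiv ℝ θ) z p q = fderiv ℝ (fderiv ℝ θ) z q p := fun p q =>
    (hθ.isSymmSndFDerivAt (by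
      rw [minSmoothness_of_isRCLikeNormedField]; exact WithTop.coe_le_coe.2 le_top)) p q
  have happ : ∀ q r : V, HasFDerivAt (fun y => fderiv ℝ θ y q r)
      (fderiv ℝ (fun y => fderiv ℝ θ y q r) z) z := fun q r =>
    ((hd2.clm_apply (differentiableAt_const q)).clm_apply
      (differentiableAt_const r)).hasFDerivAt
  have hdd : DifferentiableAt ℝ (dd θ) z := by
    have h1 : ContDiffAt ℝ 1 (dd θ) z := by
      have h2 : ContDiffAt ℝ 1 (fderiv ℝ θ) z :=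
        (hθ.fderiv_right (m := ∞) (by simp)).of_le (by exact_mod_cast le_top)
      have h3 : dd θ = fun y => fderiv ℝ θ y -
          (ContinuousLinearMap.flipₗᵢ ℝ V V ℝ) (fderiv ℝ θ y) := rfl
      rw [h3]
      have h4 : ContDiffAt ℝ 1 (fun y => (ContinuousLinearMap.flipₗᵢ ℝ V V ℝ)
          (fderiv ℝ θ y)) z :=
        ((ContinuousLinearMap.flipₗᵢ ℝ V V ℝ).contDiff.contDiffAt).comp z h2
      exact h2.sub h4
    exact h1.differentiableAt (by norm_num)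
  have key : ∀ p q r, fderiv ℝ (dd θ) z p q r =
      fderiv ℝ (fderiv ℝ θ) z p q r - fderiv ℝ (fderiv ℝ θ) z p r q := by
    intro p q r
    rw [← fdP_app hdd q r p, ← fdP_app hd2 q r p, ← fdP_app hd2 r q p]
    have h1 : (fun y => dd θ y q r) = fun y => fderiv ℝ θ y q r - fderiv ℝ θ y r q := rfl
    rw [h1, ((happ q r).fun_sub (happ r q)).fderiv]
    rfl
  rw [key, key, key, hs a b, hs b c, hs c a]
  ring

end loc

variable {V X : Type} [NormedAddCommGroup V] [NormedSpace ℝ V] [TopologicalSpace X]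
variable {E : Type*} [NormedAddCommGroup E] [NormedSpace ℝ E]

/-- `Φ` is a map from the open set `S` to `X`, smooth in the charts -/
structure SmI (C : RCh V X) (S : Set E) (Φ : E → X) : Prop where
  op : IsOpen S
  cont : ContinuousOn Φ S
  sm : ∀ i, ContDiffOn ℝ ∞ (fun ζ => C.e i (Φ ζ)) (S ∩ Φ ⁻¹' (C.e i).source)

/-- a chart at `x` -/
noncomputable def ci (C : RCh V X) (x : X) : C.ι := (C.cover x).choose

lemma ci_mem (C : RCh V X) (x : X) : x ∈ (C.e (ci C x)).source := (C.cover x).choose_spec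

/-- pull back of a 2-tensor -/
noncomputable def pl (b : V → Bil V) (φ : E → V) (ζ : E) : E →L[ℝ] E →L[ℝ] ℝ :=
  (b (φ ζ)).bilinearComp (fderiv ℝ φ ζ) (fderiv ℝ φ ζ)

@[simp] lemma pl_apply (b : V → Bil V) (φ : E → V) (ζ u v : E) :
    pl b φ ζ u v = b (φ ζ) (fderiv ℝ φ ζ u) (fderiv ℝ φ ζ v) := rfl

/-- pull back of a closed 2-form -/
noncomputable def pull {C : RCh V X} (w : F2 C) (Φ : E → X) (ζ : E) : E →L[ℝ] E →L[ℝ] ℝ :=
  pl (w.w (ci C (Φ ζ))) (fun y => C.e (ci C (Φ ζ)) (Φ y)) ζ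

/-- pull back of a family of local 1-forms -/
noncomputable def pull1 (C : RCh V X) (θ : C.ι → V → V →L[ℝ] ℝ) (Φ : E → X) (ζ : E) :
    E →L[ℝ] ℝ :=
  pb1 (θ (ci C (Φ ζ))) (fun y => C.e (ci C (Φ ζ)) (Φ y)) ζ

namespace SmI

variable {C : RCh V X} {S : Set E} {Φ : E → X}

lemma isOpen_pre (h : SmI C S Φ) {U : Set X} (hU : IsOpen U) : IsOpen (S ∩ Φ ⁻¹' U) :=
  h.cont.isOpen_inter_preimage h.op hU

lemma smAt (h : SmI C S Φ) {i : C.ι} {ζ : E} (hζ : ζ ∈ S) (hi : Φ ζ ∈ (C.e i).source) :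
    ContDiffAt ℝ ∞ (fun ζ => C.e i (Φ ζ)) ζ :=
  (h.sm i).contDiffAt ((h.isOpen_pre (C.e i).open_source).mem_nhds ⟨hζ, hi⟩)

lemma diffAt (h : SmI C S Φ) {i : C.ι} {ζ : E} (hζ : ζ ∈ S) (hi : Φ ζ ∈ (C.e i).source) :
    DifferentiableAt ℝ (fun ζ => C.e i (Φ ζ)) ζ :=
  (h.smAt hζ hi).differentiableAt (by simp)

lemma mem_ov {i j : C.ι} {x : X} (hi : x ∈ (C.e i).source)
    (hj : x ∈ (C.e j).source) : C.e i x ∈ C.ov i j := by
  refine ⟨(C.e i).map_source hi, ?_⟩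
  rw [(C.e i).left_inv hi]; exact hj

lemma t_e {i j : C.ι} {x : X} (hi : x ∈ (C.e i).source) : C.t i j (C.e i x) = C.e j x := by
  show C.e j ((C.e i).symm (C.e i x)) = _
  rw [(C.e i).left_inv hi]

/-- change of charts for the differential -/
lemma fderiv_change (h : SmI C S Φ) {i j : C.ι} {ζ : E} (hζ : ζ ∈ S)
    (hi : Φ ζ ∈ (C.e i).source) (hj : Φ ζ ∈ (C.e j).source) :
    fderiv ℝ (fun y => C.e j (Φ y)) ζ =
      (fderiv ℝ (C.t i j) (C.e i (Φ ζ))).comp (fderiv ℝ (fun y => C.e i (Φ y)) ζ) := by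
  have h1 : (fun y => C.e j (Φ y)) =ᶠ[𝓝 ζ] fun y => C.t i j (C.e i (Φ y)) := by
    filter_upwards [(h.isOpen_pre (C.e i).open_source).mem_nhds ⟨hζ, hi⟩] with y hy
    exact (t_e hy.2).symm
  rw [h1.fderiv_eq]
  have h2 : HasFDerivAt (C.t i j) _ (C.e i (Φ ζ)) :=
    (RCh.t_diff (mem_ov hi hj)).hasFDerivAt
  have h3 := HasFDerivAt.comp (g := C.t i j) (f := fun y => C.e i (Φ y)) ζ h2
    (h.diffAt hζ hi).hasFDerivAt
  exact h3.fderiv

/-- the pull back may be computed in any chart -/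
theorem pull_eq (h : SmI C S Φ) (w : F2 C) {i : C.ι} {ζ : E} (hζ : ζ ∈ S)
    (hi : Φ ζ ∈ (C.e i).source) :
    pull w Φ ζ = pl (w.w i) (fun y => C.e i (Φ y)) ζ := by
  refine ContinuousLinearMap.ext fun a => ContinuousLinearMap.ext fun b => ?_
  have hj := ci_mem C (Φ ζ)
  show w.w (ci C (Φ ζ)) (C.e (ci C (Φ ζ)) (Φ ζ))
      (fderiv ℝ (fun y => C.e (ci C (Φ ζ)) (Φ y)) ζ a)
      (fderiv ℝ (fun y => C.e (ci C (Φ ζ)) (Φ y)) ζ b) =
    w.w i (C.e i (Φ ζ)) (fderiv ℝ (fun y => C.e i (Φ y)) ζ a)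
      (fderiv ℝ (fun y => C.e i (Φ y)) ζ b)
  rw [h.fderiv_change hζ hi hj, w.tr i (ci C (Φ ζ)) _ (mem_ov hi hj), t_e hi]
  rfl

theorem pull1_eq (h : SmI C S Φ) {θ : C.ι → V → V →L[ℝ] ℝ} {U : Set X}
    (hθ : ∀ i j, ∀ z ∈ C.ov i j, (C.e i).symm z ∈ U → ∀ u,
      θ i z u = θ j (C.t i j z) (fderiv ℝ (C.t i j) z u)) {i : C.ι} {ζ : E} (hζ : ζ ∈ S)
    (hU : Φ ζ ∈ U) (hi : Φ ζ ∈ (C.e i).source) :
    pull1 C θ Φ ζ = pb1 (θ i) (fun y => C.e i (Φ y)) ζ := by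
  refine ContinuousLinearMap.ext fun a => ?_
  have hj := ci_mem C (Φ ζ)
  show θ (ci C (Φ ζ)) (C.e (ci C (Φ ζ)) (Φ ζ))
      (fderiv ℝ (fun y => C.e (ci C (Φ ζ)) (Φ y)) ζ a) =
    θ i (C.e i (Φ ζ)) (fderiv ℝ (fun y => C.e i (Φ y)) ζ a)
  rw [h.fderiv_change hζ hi hj, hθ i (ci C (Φ ζ)) _ (mem_ov hi hj)
    (by rw [(C.e i).left_inv hi]; exact hU), t_e hi]
  rfl

theorem pull_eventually (h : SmI C S Φ) (w : F2 C) {i : C.ι} {ζ : E} (hζ : ζ ∈ S)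
    (hi : Φ ζ ∈ (C.e i).source) :
    pull w Φ =ᶠ[𝓝 ζ] pl (w.w i) (fun y => C.e i (Φ y)) := by
  filter_upwards [(h.isOpen_pre (C.e i).open_source).mem_nhds ⟨hζ, hi⟩] with y hy
  exact h.pull_eq w hy.1 hy.2

/-- smoothness of the pull back -/
theorem pull_smooth [FiniteDimensional ℝ E] (h : SmI C S Φ) (w : F2 C) :
    ContDiffOn ℝ ∞ (pull w Φ) S := by
  intro ζ hζ
  have hi := ci_mem C (Φ ζ)
  set i := ci C (Φ ζ) with hidef
  have hO := h.isOpen_pre (C.e i).open_source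
  have h0 : ContDiffOn ℝ ∞ (pl (w.w i) (fun y => C.e i (Φ y)))
      (S ∩ Φ ⁻¹' (C.e i).source) := by
    rw [contDiffOn_clm_apply]
    intro u
    rw [contDiffOn_clm_apply]
    intro v
    have h1 : ContDiffOn ℝ ∞ (fun y => w.w i (C.e i (Φ y))) (S ∩ Φ ⁻¹' (C.e i).source) :=
      (w.sm i).comp (h.sm i) (fun y hy => (C.e i).map_source hy.2)
    have h2 : ContDiffOn ℝ ∞ (fun y => fderiv ℝ (fun y => C.e i (Φ y)) y)
        (S ∩ Φ ⁻¹' (C.e i).source) := (h.sm i).fderiv_of_isOpen hO (by simp)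
    exact (h1.clm_apply (h2.clm_apply contDiffOn_const)).clm_apply
      (h2.clm_apply contDiffOn_const)
  have h1 : ContDiffAt ℝ ∞ (pl (w.w i) (fun y => C.e i (Φ y))) ζ :=
    h0.contDiffAt (hO.mem_nhds ⟨hζ, hi⟩)
  exact (h1.congr_of_eventuallyEq (h.pull_eventually w hζ hi)).contDiffWithinAt

/-- `Φ^* w` is a closed 2-form on `S` -/
theorem pull_cl [FiniteDimensional ℝ E] [FiniteDimensional ℝ V] (h : SmI C S Φ) (w : F2 C) :
    Cl S (pull w Φ) where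
  sm := (h.pull_smooth w).of_le (by exact_mod_cast le_top)
  alt := by
    intro ζ hζ a b
    have hi := ci_mem C (Φ ζ)
    rw [h.pull_eq w hζ hi, pl_apply, pl_apply]
    exact w.alt _ _ ((C.e _).map_source hi) _ _
  closed := by
    intro ζ hζ a b c
    have hi := ci_mem C (Φ ζ)
    set i := ci C (Φ ζ) with hidef
    have hz : C.e i (Φ ζ) ∈ (C.e i).target := (C.e i).map_source hi
    obtain ⟨ε, hε, hb⟩ := Metric.isOpen_iff.1 (C.e i).open_target _ hz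
    obtain ⟨θ, hθ, hθd⟩ := Poi_234.poincare2 (E := V) Metric.isOpen_ball (convex_ball _ _)
      ((w.sm i).mono hb)
      (fun z hz v => by have := w.alt i z (hb hz) v v; linarith)
      (fun z hz u v x => w.closed i z (hb hz) u v x)
    have hφ := h.smAt hζ hi
    have hOm : (S ∩ Φ ⁻¹' (C.e i).source) ∩ (fun y => C.e i (Φ y)) ⁻¹'
        (Metric.ball (C.e i (Φ ζ)) ε) ∈ 𝓝 ζ := by
      refine inter_mem ((h.isOpen_pre (C.e i).open_source).mem_nhds ⟨hζ, hi⟩) ?_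
      exact hφ.continuousAt (Metric.ball_mem_nhds _ hε)
    have hev : pull w Φ =ᶠ[𝓝 ζ] dd (pb1 θ (fun y => C.e i (Φ y))) := by
      filter_upwards [hOm] with y hy
      rw [h.pull_eq w hy.1.1 hy.1.2]
      refine ContinuousLinearMap.ext fun u => ContinuousLinearMap.ext fun v => ?_
      have hyd : DifferentiableAt ℝ θ (C.e i (Φ y)) :=
        (hθ.contDiffAt (Metric.isOpen_ball.mem_nhds hy.2)).differentiableAt (by simp)
      rw [dd_pb1 (φ := fun y => C.e i (Φ y)) hyd (h.smAt hy.1.1 hy.1.2), dd_apply, hθd _ hy.2,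
        pl_apply]
    rw [hev.fderiv_eq]
    have hsm : ContDiffAt ℝ ∞ (pb1 θ (fun y => C.e i (Φ y))) ζ := by
      have h1 : ContDiffAt ℝ ∞ (fun y => θ (C.e i (Φ y))) ζ :=
        ContDiffAt.comp (g := θ) ζ (hθ.contDiffAt (Metric.ball_mem_nhds _ hε)) hφ
      have h2 : ContDiffAt ℝ ∞ (fderiv ℝ (fun y => C.e i (Φ y))) ζ :=
        hφ.fderiv_right (by simp)
      exact h1.clm_comp h2
    exact dd_closed hsm a b c

/-- periodicity of the pull back -/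
theorem pull_add (h : SmI C S Φ) (w : F2 C) {l : E}
    (hl : ∀ ζ ∈ S, ζ + l ∈ S ∧ Φ (ζ + l) = Φ ζ) {ζ : E} (hζ : ζ ∈ S) :
    pull w Φ (ζ + l) = pull w Φ ζ := by
  have hi := ci_mem C (Φ ζ)
  have hi' : Φ (ζ + l) ∈ (C.e (ci C (Φ ζ))).source := by rw [(hl ζ hζ).2]; exact hi
  rw [h.pull_eq w hζ hi, h.pull_eq w (hl ζ hζ).1 hi']
  have e1 : fderiv ℝ (fun y => C.e (ci C (Φ ζ)) (Φ y)) (ζ + l) =
      fderiv ℝ (fun y => C.e (ci C (Φ ζ)) (Φ y)) ζ := by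
    have e2 := fderiv_comp_add_right (f := fun y => C.e (ci C (Φ ζ)) (Φ y)) (x := ζ) (𝕜 := ℝ) l
    rw [← e2]
    refine Filter.EventuallyEq.fderiv_eq ?_
    filter_upwards [h.op.mem_nhds hζ] with y hy
    rw [(hl y hy).2]
  refine ContinuousLinearMap.ext fun a => ContinuousLinearMap.ext fun b => ?_
  rw [pl_apply, pl_apply, e1, (hl ζ hζ).2]

theorem pull1_add (h : SmI C S Φ) {θ : C.ι → V → V →L[ℝ] ℝ} {U : Set X}
    (hθ : ∀ i j, ∀ z ∈ C.ov i j, (C.e i).symm z ∈ U → ∀ u,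
      θ i z u = θ j (C.t i j z) (fderiv ℝ (C.t i j) z u)) {l : E}
    (hl : ∀ ζ ∈ S, ζ + l ∈ S ∧ Φ (ζ + l) = Φ ζ) {ζ : E} (hζ : ζ ∈ S) (hU : Φ ζ ∈ U) :
    pull1 C θ Φ (ζ + l) = pull1 C θ Φ ζ := by
  have hi := ci_mem C (Φ ζ)
  have hi' : Φ (ζ + l) ∈ (C.e (ci C (Φ ζ))).source := by rw [(hl ζ hζ).2]; exact hi
  rw [h.pull1_eq hθ hζ hU hi, h.pull1_eq hθ (hl ζ hζ).1 (by rw [(hl ζ hζ).2]; exact hU) hi']
  have e1 : fderiv ℝ (fun y => C.e (ci C (Φ ζ)) (Φ y)) (ζ + l) =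
      fderiv ℝ (fun y => C.e (ci C (Φ ζ)) (Φ y)) ζ := by
    have e2 := fderiv_comp_add_right (f := fun y => C.e (ci C (Φ ζ)) (Φ y)) (x := ζ) (𝕜 := ℝ) l
    rw [← e2]
    refine Filter.EventuallyEq.fderiv_eq ?_
    filter_upwards [h.op.mem_nhds hζ] with y hy
    rw [(hl y hy).2]
  refine ContinuousLinearMap.ext fun a => ?_
  rw [pb1_apply, pb1_apply, e1, (hl ζ hζ).2]

/-- local smoothness of the pull back of a 1-form -/
theorem pull1_smooth (h : SmI C S Φ) {θ : C.ι → V → V →L[ℝ] ℝ} {U : Set X} (hU : IsOpen U)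
    (hθs : ∀ i, ContDiffOn ℝ ∞ (θ i) (sh C i U))
    (hθ : ∀ i j, ∀ z ∈ C.ov i j, (C.e i).symm z ∈ U → ∀ u,
      θ i z u = θ j (C.t i j z) (fderiv ℝ (C.t i j) z u)) :
    ContDiffOn ℝ ∞ (pull1 C θ Φ) (S ∩ Φ ⁻¹' U) := by
  rintro ζ ⟨hζ, hζU⟩
  have hi := ci_mem C (Φ ζ)
  set i := ci C (Φ ζ) with hidef
  have hO := h.isOpen_pre ((C.e i).open_source.inter hU)
  have h1 : ContDiffOn ℝ ∞ (pb1 (θ i) (fun y => C.e i (Φ y)))
      (S ∩ Φ ⁻¹' ((C.e i).source ∩ U)) := by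
    refine contDiffOn_pb1 hO (hθs i) ((h.sm i).mono fun y hy => ⟨hy.1, hy.2.1⟩) ?_
    intro y hy
    refine ⟨(C.e i).map_source hy.2.1, ?_⟩
    show (C.e i).symm (C.e i (Φ y)) ∈ U
    rw [(C.e i).left_inv hy.2.1]; exact hy.2.2
  have h2 : ContDiffAt ℝ ∞ (pb1 (θ i) (fun y => C.e i (Φ y))) ζ :=
    h1.contDiffAt (hO.mem_nhds ⟨hζ, hi, hζU⟩)
  refine (h2.congr_of_eventuallyEq ?_).contDiffWithinAt
  filter_upwards [hO.mem_nhds ⟨hζ, hi, hζU⟩] with y hy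
  exact h.pull1_eq hθ hy.1 hy.2.2 hy.2.1

/-- the exterior derivative of the pull back of a local primitive -/
theorem pull1_d (h : SmI C S Φ) (w : F2 C) {θ : C.ι → V → V →L[ℝ] ℝ} {U : Set X}
    (hU : IsOpen U) (hθs : ∀ i, ContDiffOn ℝ ∞ (θ i) (sh C i U))
    (hθ : ∀ i j, ∀ z ∈ C.ov i j, (C.e i).symm z ∈ U → ∀ u,
      θ i z u = θ j (C.t i j z) (fderiv ℝ (C.t i j) z u))
    (hd : ∀ i, ∀ z ∈ sh C i U, ∀ u v,
      fderiv ℝ (θ i) z u v - fderiv ℝ (θ i) z v u = w.w i z u v) {ζ : E} (hζ : ζ ∈ S)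
    (hζU : Φ ζ ∈ U) (a b : E) :
    pull w Φ ζ a b = fderiv ℝ (pull1 C θ Φ) ζ a b - fderiv ℝ (pull1 C θ Φ) ζ b a := by
  have hi := ci_mem C (Φ ζ)
  set i := ci C (Φ ζ) with hidef
  have hO := h.isOpen_pre ((C.e i).open_source.inter hU)
  have hev : pull1 C θ Φ =ᶠ[𝓝 ζ] pb1 (θ i) (fun y => C.e i (Φ y)) := by
    filter_upwards [hO.mem_nhds ⟨hζ, hi, hζU⟩] with y hy
    exact h.pull1_eq hθ hy.1 hy.2.2 hy.2.1
  have hmem : C.e i (Φ ζ) ∈ sh C i U := by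
    refine ⟨(C.e i).map_source hi, ?_⟩
    rw [(C.e i).left_inv hi]; exact hζU
  have hshO : IsOpen (sh C i U) := (C.e i).isOpen_inter_preimage_symm hU
  have hθd : DifferentiableAt ℝ (θ i) (C.e i (Φ ζ)) :=
    ((hθs i).contDiffAt (hshO.mem_nhds hmem)).differentiableAt (by simp)
  rw [hev.fderiv_eq, h.pull_eq w hζ hi, pl_apply, ← hd i _ hmem]
  exact (dd_pb1 (φ := fun y => C.e i (Φ y)) hθd (h.smAt hζ hi) a b).symm

/-- the differential of the pull back of a function -/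
theorem pull0_d (h : SmI C S Φ) {θ θ' : C.ι → V → V →L[ℝ] ℝ} {U U' : Set X} {f : X → ℝ}
    (hθ : ∀ i j, ∀ z ∈ C.ov i j, (C.e i).symm z ∈ U → ∀ u,
      θ i z u = θ j (C.t i j z) (fderiv ℝ (C.t i j) z u))
    (hθ' : ∀ i j, ∀ z ∈ C.ov i j, (C.e i).symm z ∈ U' → ∀ u,
      θ' i z u = θ' j (C.t i j z) (fderiv ℝ (C.t i j) z u))
    (hf : ∀ i, ∀ z ∈ sh C i (U ∩ U'),
      HasFDerivAt (fun y => f ((C.e i).symm y)) (θ' i z - θ i z) z) {ζ : E}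
    (hζ : ζ ∈ S) (hζU : Φ ζ ∈ U) (hζU' : Φ ζ ∈ U') :
    HasFDerivAt (fun y => f (Φ y)) (pull1 C θ' Φ ζ - pull1 C θ Φ ζ) ζ := by
  have hi := ci_mem C (Φ ζ)
  set i := ci C (Φ ζ) with hidef
  have hmem : C.e i (Φ ζ) ∈ sh C i (U ∩ U') := by
    refine ⟨(C.e i).map_source hi, ?_⟩
    rw [(C.e i).left_inv hi]; exact ⟨hζU, hζU'⟩
  have h1 := HasFDerivAt.comp (g := fun y => f ((C.e i).symm y))
    (f := fun y => C.e i (Φ y)) ζ (hf i _ hmem) (h.diffAt hζ hi).hasFDerivAt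
  have h2 : (fun y => f (Φ y)) =ᶠ[𝓝 ζ] (fun y => f ((C.e i).symm y)) ∘ fun y => C.e i (Φ y) := by
    filter_upwards [(h.isOpen_pre (C.e i).open_source).mem_nhds ⟨hζ, hi⟩] with y hy
    show f (Φ y) = f ((C.e i).symm (C.e i (Φ y)))
    rw [(C.e i).left_inv hy.2]
  have h3 := h1.congr_of_eventuallyEq h2
  rw [h.pull1_eq hθ hζ hζU hi, h.pull1_eq hθ' hζ hζU' hi]
  refine h3.congr_fderiv ?_
  refine ContinuousLinearMap.ext fun a => ?_
  simp [pb1]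

end SmI

/-- integral classes pull back to `IntCl` data -/
theorem intCl_pull {C : RCh V X} {S Λ : Set E} {Φ : E → X} (h : SmI C S Φ)
    (hΛ : ∀ l ∈ Λ, ∀ ζ ∈ S, ζ + l ∈ S ∧ Φ (ζ + l) = Φ ζ) {w : F2 C} {I : Type}
    (D : CD w I)
    (hD : ∀ a b c, ∀ x ∈ D.U a ∩ D.U b ∩ D.U c,
      D.f a b x + D.f b c x - D.f a c x ∈ (Int.castAddHom ℝ).range) :
    IntCl Λ S (pull w Φ) (fun a => S ∩ Φ ⁻¹' (D.U a)) (fun a => pull1 C (D.th a) Φ)
      (fun a b ζ => D.f a b (Φ ζ)) where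
  op a := h.isOpen_pre (D.op a)
  cov x hx := by
    obtain ⟨a, ha⟩ := D.cov (Φ x)
    exact ⟨a, hx, ha⟩
  perU a l hl x hx := by
    refine ⟨(hΛ l hl x hx.1).1, ?_⟩
    show Φ (x + l) ∈ D.U a
    rw [(hΛ l hl x hx.1).2]; exact hx.2
  sm a := (h.pull1_smooth (D.op a) (D.th_sm a) (D.th_tr a)).of_le (by exact_mod_cast le_top)
  pera a l hl x hx := h.pull1_add (D.th_tr a) (hΛ l hl) hx.1 hx.2
  d a x hx u v := h.pull1_d w (D.op a) (D.th_sm a) (D.th_tr a) (D.th_d a) hx.1 hx.2 u v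
  df a b x hx hy := h.pull0_d (D.th_tr a) (D.th_tr b) (D.f_d a b) hx.1 hx.2 hy.2
  perf a b l hl x hx _ := by
    show D.f a b (Φ (x + l)) = D.f a b (Φ x)
    rw [(hΛ l hl x hx.1).2]
  coc a b c x hx hy hz := by
    obtain ⟨m, hm⟩ := hD a b c (Φ x) ⟨⟨hx.2, hy.2⟩, hz.2⟩
    exact ⟨m, hm.symm⟩

section final

variable {C : RCh V X} {S Λ : Set E} {Φ : E → X}

/-- the periods of an integral class are integers -/
theorem per_pull_int [FiniteDimensional ℝ E] (h : SmI C S Φ)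
    (hΛ : ∀ l ∈ Λ, ∀ ζ ∈ S, ζ + l ∈ S ∧ Φ (ζ + l) = Φ ζ) {w : F2 C} (hI : IntF w) {z v v' : E}
    (hv : v ∈ Λ) (hv' : v' ∈ Λ) (hin : ∀ s t : ℝ, pt z v v' s t ∈ S) :
    ∃ m : ℤ, per (pull w Φ) z v v' = m := by
  obtain ⟨I, D, hD⟩ := hI
  exact per_int (intCl_pull h hΛ D hD) (h.pull_smooth w).continuousOn hv hv' hin

/-- the periods of an exact form are zero -/
theorem per_pull_ex (h : SmI C S Φ)
    (hΛ : ∀ l ∈ Λ, ∀ ζ ∈ S, ζ + l ∈ S ∧ Φ (ζ + l) = Φ ζ) {w : F2 C} (hE : Ex w) {z v v' : E}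
    (hv : v ∈ Λ) (hv' : v' ∈ Λ) (hin : ∀ s t : ℝ, pt z v v' s t ∈ S) :
    per (pull w Φ) z v v' = 0 := by
  obtain ⟨β, hβ⟩ := hE
  have htr : ∀ i j, ∀ z ∈ C.ov i j, (C.e i).symm z ∈ (univ : Set X) → ∀ u,
      β.η i z u = β.η j (C.t i j z) (fderiv ℝ (C.t i j) z u) := fun i j z hz _ u =>
    β.tr i j z hz u
  have hsm : ∀ i, ContDiffOn ℝ ∞ (β.η i) (sh C i univ) := fun i =>
    (β.sm i).mono fun z hz => hz.1
  have hS : S ∩ Φ ⁻¹' univ = S := by simp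
  refine per_exact (U := S) h.op (η := pull1 C β.η Φ) ?_ (fun s _ t _ => hin s t)
    (fun x hx => ?_) (fun x hx _ => ?_) (fun x hx _ => ?_)
  · have := h.pull1_smooth isOpen_univ hsm htr
    rw [hS] at this
    exact this.of_le (by exact_mod_cast le_top)
  · exact h.pull1_d w isOpen_univ hsm htr
      (fun i z hz u v => (hβ i z hz.1 u v).symm) hx (mem_univ _) v v'
  · exact h.pull1_add htr (hΛ v hv) hx (mem_univ _)
  · exact h.pull1_add htr (hΛ v' hv') hx (mem_univ _)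

/-- **integral class + small mean ==> the period vanishes** -/
theorem per_pull_zero [FiniteDimensional ℝ E] [FiniteDimensional ℝ V]
    [MeasurableSpace E] [BorelSpace E] (μ : Measure E) [μ.IsAddHaarMeasure] (h : SmI C S Φ)
    (hconv : Convex ℝ S)
    (hΛ : ∀ l ∈ Λ, ∀ ζ ∈ S, (∀ s : ℝ, ζ + s • l ∈ S) ∧ Φ (ζ + l) = Φ ζ) {w : F2 C}
    (hI : IntF w) {z : E} (hz : z ∈ S) {v v' : E} (hv : v ∈ Λ) (hv' : v' ∈ Λ) {R : ℝ}
    (hvv : ‖v‖ + ‖v'‖ ≤ R / 2) (hball : Metric.ball z (R / 2) ⊆ S)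
    {g : E → ℝ≥0∞} (hm : Measurable g)
    (hg : ∀ x ∈ Metric.ball z R, x ∈ S → ENNReal.ofReal |pull w Φ x v v'| ≤ g x)
    (hsm : ∫⁻ x in Metric.ball z R, g x ∂μ < μ (Metric.ball z (R / 2))) {z' : E} (hz' : z' ∈ S) :
    per (pull w Φ) z' v v' = 0 := by
  have hΛ' : ∀ l ∈ Λ, ∀ ζ ∈ S, ζ + l ∈ S ∧ Φ (ζ + l) = Φ ζ := fun l hl ζ hζ =>
    ⟨by have := (hΛ l hl ζ hζ).1 1; rwa [one_smul] at this, (hΛ l hl ζ hζ).2⟩
  have hin : ∀ x ∈ S, ∀ s t : ℝ, pt x v v' s t ∈ S := fun x hx s t =>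
    (hΛ v' hv' _ ((hΛ v hv x hx).1 s)).1 t
  have hcl := h.pull_cl w
  have hvS : ∀ x ∈ S, ∀ s : ℝ, x + s • v ∈ S := fun x hx s => (hΛ v hv x hx).1 s
  have hvS' : ∀ x ∈ S, ∀ s : ℝ, x + s • v' ∈ S := fun x hx s => (hΛ v' hv' x hx).1 s
  have hp : ∀ x ∈ S, pull w Φ (x + v) = pull w Φ x := fun x hx => h.pull_add w (hΛ' v hv) hx
  have hp' : ∀ x ∈ S, pull w Φ (x + v') = pull w Φ x := fun x hx =>
    h.pull_add w (hΛ' v' hv') hx
  rw [per_const h.op hconv hcl hvS hvS' hp hp' hz' hz]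
  obtain ⟨m, hmz⟩ := per_pull_int h hΛ' hI hv hv' (hin z hz)
  have hlt := abs_per_lt μ h.op hconv hcl hvS hvS' hp hp' hz hvv hball hm hg hsm
  rw [hmz] at hlt ⊢
  have : |m| < 1 := by exact_mod_cast hlt
  rw [Int.abs_lt_one_iff] at this
  simp [this]

end final

end Crest.Agent.R281.Per_368
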