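import Crest.Agent.R281.Flt1_877
import Crest.Agent.R281.Per4_368
import Crest.Agent.R281.Nef2_252
import Crest.Agent.R273.LeviR_155

/-!
# Row 281 (S0424), FLAT-T, part 2 (helper877): the curvature along a holomorphic torus

`Φ : ℂᵐ → M` holomorphic (`HolC`), periodic with respect to `T ℤ^δ`, `h` a metric on `L`.

* `pw h Φ i z = - log (h.w i (Φ z))`, `pull_cur`: `Φ^* (curvature form) = i hb (hess (pw h Φ i))`
* `exists_rho` : mean zero ==> a periodic smooth `ρ` with `hess ρ = hess (pw h Φ i)` on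
                 `Φ⁻¹ (source i)`
* `mean_of_per`: the periods (368's `per`) over the basis cells vanish ==> mean zero
-/

set_option autoImplicit false
set_option linter.unusedSectionVars false
set_option maxSynthPendingDepth 3

open MeasureTheory Filter Topology Set Complex
open scoped ContDiff Real ComplexConjugate Matrix

namespace Crest.Agent.R281.Flt_877

open Crest.Agent.R275.Tor812 Crest.Agent.R275.Geo Crest.Agent.R275.Core144
open Crest.Agent.R275.EDR890 Crest.Agent.R273.Hess_333 Crest.Agent.R273.HessB_333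
open Crest.Agent.R273.Defs_333 Crest.Agent.R273.HM_333 Crest.Agent.R273.Kah_333
open Crest.Agent.R281.HkR_835 Crest.Agent.R281.Per_368 Crest.Agent.R281.Nef_252

noncomputable section

variable {m N : ℕ} {M : Type} [TopologicalSpace M] {A : Atl N M} {L : LB A} {δ : Type} [Fintype δ]

/-- a holomorphic map `ℂᵐ → M` -/
structure HolC (A : Atl N M) (Φ : Cn m → M) : Prop where
  cont : Continuous Φ
  hol : ∀ i z, Φ z ∈ (A.e i).source → DifferentiableAt ℂ (fun w => A.e i (Φ w)) z

variable {Φ : Cn m → M}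

namespace HolC

theorem nhds (hΦ : HolC A Φ) {i : A.ι} {z : Cn m} (hz : Φ z ∈ (A.e i).source) :
    ∀ᶠ w in 𝓝 z, Φ w ∈ (A.e i).source :=
  hΦ.cont.continuousAt.preimage_mem_nhds ((A.e i).open_source.mem_nhds hz)

theorem analytic (hΦ : HolC A Φ) {i : A.ι} {z : Cn m} (hz : Φ z ∈ (A.e i).source) :
    AnalyticAt ℂ (fun w => A.e i (Φ w)) z :=
  Crest.Agent.R266.SCV.analyticOnNhd_of_differentiableOn
    ((A.e i).open_source.preimage hΦ.cont)
    (fun w hw => (hΦ.hol i w hw).differentiableWithinAt) z hz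

theorem smAt (hΦ : HolC A Φ) {i : A.ι} {z : Cn m} (hz : Φ z ∈ (A.e i).source) :
    ContDiffAt ℝ ∞ (fun w => A.e i (Φ w)) z :=
  (hΦ.analytic hz).contDiffAt.restrict_scalars ℝ

theorem smI (hΦ : HolC A Φ) : SmI (ofAtl A) univ Φ where
  op := isOpen_univ
  cont := hΦ.cont.continuousOn
  sm _ := fun _ hz => (hΦ.smAt hz.2).contDiffWithinAt

/-- a holomorphic function along `Φ` -/
theorem comp (hΦ : HolC A Φ) {i : A.ι} {U : Set M} (hU : IsOpen U) {f : M → ℂ} (hf : HolAt A i U f)
    {z : Cn m} (hz : Φ z ∈ (A.e i).source) (hzU : Φ z ∈ U) :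
    DifferentiableAt ℂ (fun w => f (Φ w)) z := by
  have h1 : DifferentiableAt ℂ (fun z => f ((A.e i).symm z)) (A.e i (Φ z)) :=
    HolAt.diffAt hf hU hz hzU
  have h2 : DifferentiableAt ℂ (fun w => f ((A.e i).symm (A.e i (Φ w)))) z :=
    DifferentiableAt.comp (f := fun w => A.e i (Φ w)) (g := fun z => f ((A.e i).symm z)) z h1
      (hΦ.hol i z hz)
  refine h2.congr_of_eventuallyEq ?_
  filter_upwards [hΦ.nhds hz] with w hw
  rw [(A.e i).left_inv hw]

end HolC

/-- the weight of the metric along `Φ` -/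
def pw (h : HM L) (Φ : Cn m → M) (i : A.ι) (z : Cn m) : ℝ := - Real.log (h.w i (Φ z))

theorem pw_eq (h : HM L) (hΦ : HolC A Φ) {i : A.ι} {z : Cn m} (hz : Φ z ∈ (A.e i).source) :
    pw h Φ i =ᶠ[𝓝 z] fun w => h.wt i (A.e i (Φ w)) := by
  filter_upwards [hΦ.nhds hz] with w hw
  unfold pw HM.wt
  rw [(A.e i).left_inv hw]

theorem pw_sm (h : HM L) (hΦ : HolC A Φ) {i : A.ι} {z : Cn m} (hz : Φ z ∈ (A.e i).source) :
    ContDiffAt ℝ ∞ (pw h Φ i) z := by
  have h1 : ContDiffAt ℝ ∞ (fun w => h.wt i (A.e i (Φ w))) z :=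
    ContDiffAt.comp (g := h.wt i) (f := fun w => A.e i (Φ w)) z
      (wt_contDiffAt h i ((A.e i).map_source hz)) (hΦ.smAt hz)
  exact h1.congr_of_eventuallyEq (pw_eq h hΦ hz)

/-- the Hessian along `Φ` is the pull back of the curvature -/
theorem hess_pw (h : HM L) (hΦ : HolC A Φ) {i : A.ι} {z : Cn m} (hz : Φ z ∈ (A.e i).source) :
    hess (pw h Φ i) z = (Crest.Agent.R273.Map_835.mt (fderiv ℂ (fun w => A.e i (Φ w)) z))ᵀ *
      cur h i (Φ z) * (Crest.Agent.R273.Map_835.mt (fderiv ℂ (fun w => A.e i (Φ w)) z)).map conj := by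
  rw [hess_congr (pw_eq h hΦ hz)]
  exact Crest.Agent.R273.LeviR_155.hess_compR (hΦ.analytic hz)
    ((wt_contDiffAt h i ((A.e i).map_source hz)).of_le (by norm_cast))

theorem hess_pw_tr (h : HM L) (hΦ : HolC A Φ) {i j : A.ι} {z : Cn m} (hi : Φ z ∈ (A.e i).source)
    (hj : Φ z ∈ (A.e j).source) : hess (pw h Φ j) z = hess (pw h Φ i) z := by
  have ho : IsOpen (A.e j).source := (A.e j).open_source
  have hd : ∀ᶠ w in 𝓝 z, DifferentiableAt ℂ (fun w => L.g i j (Φ w)) w := by
    filter_upwards [hΦ.nhds hi, hΦ.nhds hj] with w hw hw'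
    exact hΦ.comp ho (L.hol i j) hw hw'
  have hne : ∀ w, L.g i j (Φ w) ≠ 0 := fun w => L.ne_zero i j _
  have e : pw h Φ j =ᶠ[𝓝 z] fun w => pw h Φ i w - Real.log (‖L.g i j (Φ w)‖ ^ 2) := by
    filter_upwards [hΦ.nhds hi, hΦ.nhds hj] with w hw hw'
    have h1 := norm_pos_iff.2 (hne w)
    have h2 := h.pos i _ hw
    unfold pw
    rw [h.tr i j _ ⟨hw, hw'⟩, Real.log_mul (by positivity) h2.ne']
    ring
  have hlog : ContDiffAt ℝ ∞ (fun w => Real.log (‖L.g i j (Φ w)‖ ^ 2)) z := by
    obtain ⟨U, hU, hUo, hUz⟩ := eventually_nhds_iff.1 hd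
    have h1 : DifferentiableOn ℂ (fun w => L.g i j (Φ w)) U :=
      fun w hw => (hU w hw).differentiableWithinAt
    have h2 : ContDiffAt ℝ ∞ (fun w => L.g i j (Φ w)) z :=
      (((Crest.Agent.R266.SCV.contDiffOn_omega_of_differentiableOn hUo h1).restrict_scalars
        ℝ).of_le le_top).contDiffAt (hUo.mem_nhds hUz)
    have h3 := norm_pos_iff.2 (hne z)
    exact (h2.norm_sq ℝ).log (by positivity)
  rw [hess_congr e, hess_sub (pw_sm h hΦ hi) hlog, hess_log_norm hd (hne z), sub_zero]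

/-- the Hermitian form of a pulled back matrix -/
theorem hb_pull {G : Matrix (Fin N) (Fin N) ℂ} (D : Cn m →L[ℂ] Cn N) (u v : Cn m) :
    hb ((Crest.Agent.R273.Map_835.mt D)ᵀ * G * (Crest.Agent.R273.Map_835.mt D).map conj) u v =
      hb G (D u) (D v) := by
  have e : ∀ {k : ℕ} (G : Matrix (Fin k) (Fin k) ℂ) (u v : Cn k),
      hb G u v = dotProduct (fun a => u a) (G *ᵥ fun b => conj (v b)) := by
    intro k G u v
    unfold hb dotProduct Matrix.mulVec dotProduct
    refine Finset.sum_congr rfl fun a _ => ?_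
    rw [Finset.mul_sum]
    refine Finset.sum_congr rfl fun b _ => ?_
    ring
  have e1 : (fun c => (D u) c) = Crest.Agent.R273.Map_835.mt D *ᵥ fun a => u a := by
    funext c
    rw [Crest.Agent.R273.Map_835.mt_apply]
    rfl
  have e2 : (fun c => conj ((D v) c)) =
      (Crest.Agent.R273.Map_835.mt D).map conj *ᵥ fun b => conj (v b) := by
    funext c
    rw [Crest.Agent.R273.Map_835.mt_apply, map_sum]
    refine Finset.sum_congr rfl fun a _ => ?_
    rw [map_mul]
    rfl
  rw [e, e, e1, e2, ← Matrix.mulVec_mulVec, ← Matrix.mulVec_mulVec, Matrix.dotProduct_mulVec,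
    Matrix.vecMul_transpose]

theorem pull_cur (h : HM L) (hΦ : HolC A Φ) {i : A.ι} {z : Cn m} (hz : Φ z ∈ (A.e i).source)
    (u v : Cn m) : pull (curK h).f2 Φ z u v = (I * hb (hess (pw h Φ i) z) u v).re := by
  have h1 := hΦ.smI.pull_eq (curK h).f2 (mem_univ z) hz
  rw [h1]
  have hD : fderiv ℝ (fun w => A.e i (Φ w)) z = (fderiv ℂ (fun w => A.e i (Φ w)) z).restrictScalars ℝ :=
    (hΦ.hol i z hz).fderiv_restrictScalars ℝ
  show (curK h).f2.w i (A.e i (Φ z)) (fderiv ℝ (fun w => A.e i (Φ w)) z u)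
    (fderiv ℝ (fun w => A.e i (Φ w)) z v) = _
  rw [K11.f2_w _ ((A.e i).map_source hz), (A.e i).left_inv hz, hess_pw h hΦ hz, hb_pull, hD]
  rfl

/-! ### the matrix along `Φ` -/

/-- the matrix of the curvature along `Φ` -/
def PG (h : HM L) (Φ : Cn m → M) (z : Cn m) : Matrix (Fin m) (Fin m) ℂ :=
  hess (pw h Φ (ci (ofAtl A) (Φ z))) z

theorem PG_eq (h : HM L) (hΦ : HolC A Φ) {i : A.ι} {z : Cn m} (hz : Φ z ∈ (A.e i).source) :
    PG h Φ z = hess (pw h Φ i) z :=
  hess_pw_tr h hΦ hz (ci_mem (ofAtl A) (Φ z))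

theorem PG_ev (h : HM L) (hΦ : HolC A Φ) {i : A.ι} {z : Cn m} (hz : Φ z ∈ (A.e i).source) :
    PG h Φ =ᶠ[𝓝 z] fun w => hess (pw h Φ i) w := by
  filter_upwards [hΦ.nhds hz] with w hw
  exact PG_eq h hΦ hw

theorem PG_sm (h : HM L) (hΦ : HolC A Φ) (a b : Fin m) : ContDiff ℝ ∞ (fun z => PG h Φ z a b) := by
  rw [contDiff_iff_contDiffAt]
  intro z
  obtain ⟨i, hi⟩ := A.cover (Φ z)
  refine (contDiffAt_hess (pw_sm h hΦ hi) a b).congr_of_eventuallyEq ?_
  filter_upwards [PG_ev h hΦ hi] with w hw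
  rw [hw]

theorem PG_per {T : (δ → ℝ) ≃L[ℝ] Cn m} (h : HM L) (hp : PerT T Φ) (a b : Fin m) :
    PerT T (fun z => PG h Φ z a b) := by
  intro k z
  show hess (pw h Φ (ci (ofAtl A) (Φ (z + _)))) (z + _) a b = hess (pw h Φ (ci (ofAtl A) (Φ z))) z a b
  rw [hp k z]
  have h1 : PerT T (cu (pw h Φ (ci (ofAtl A) (Φ z)))) := fun k' z' => by
    show ((- Real.log (h.w _ (Φ (z' + _))) : ℝ) : ℂ) = ((- Real.log (h.w _ (Φ z')) : ℝ) : ℂ)
    rw [hp k' z']
  exact (h1.wd (true, b)).wd (false, a) k z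

/-- **the potential along a torus**: mean zero ==> `∂∂̄ ρ` -/
theorem exists_rho (T : (δ → ℝ) ≃L[ℝ] Cn m) (hp : PerT T Φ) (h : HM L) (hΦ : HolC A Φ)
    (hz : ∀ u v : Cn m, ∫ θ in box (0 : δ → ℝ), pull (curK h).f2 Φ (T θ) u v = 0) :
    ∃ ρ : Cn m → ℝ, ContDiff ℝ ∞ ρ ∧ PerT T ρ ∧
      ∀ i z, Φ z ∈ (A.e i).source → hess ρ z = hess (pw h Φ i) z := by
  have hpull : ∀ z u v, pull (curK h).f2 Φ z u v = (I * hb (PG h Φ z) u v).re := fun z u v =>
    pull_cur h hΦ (ci_mem (ofAtl A) (Φ z)) u v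
  have hint : ∀ a b, Integrable (fun θ : δ → ℝ => PG h Φ (T θ) a b)
      (volume.restrict (box (0 : δ → ℝ))) := fun a b =>
    Crest.Agent.R281.Op3_569.integrable_box ((PG_sm h hΦ a b).continuous.comp T.continuous)
  have h0 : ∀ a b, ∫ θ in box (0 : δ → ℝ), PG h Φ (T θ) a b = 0 := by
    intro a b
    have hs : ∀ (G : Matrix (Fin m) (Fin m) ℂ) (c : ℂ),
        hb G (EuclideanSpace.single a c) (EuclideanSpace.single b 1) = c * G a b := by
      intro G c
      unfold hb
      rw [Finset.sum_eq_single a, Finset.sum_eq_single b]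
      · simp
        ring
      · intro b' _ hb'
        simp [hb']
      · simp
      · intro a' _ ha'
        refine Finset.sum_eq_zero fun b' _ => ?_
        simp [ha']
      · simp
    have e1 := hz (EuclideanSpace.single a 1) (EuclideanSpace.single b 1)
    have e2 := hz (EuclideanSpace.single a I) (EuclideanSpace.single b 1)
    simp only [hpull, hs] at e1 e2
    have e1' : ∫ θ in box (0 : δ → ℝ), (PG h Φ (T θ) a b).im = 0 := by
      have : ∀ θ, (I * (1 * PG h Φ (T θ) a b)).re = - (PG h Φ (T θ) a b).im := fun θ => by simp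
      simp only [this, integral_neg, neg_eq_zero] at e1
      exact e1
    have e2' : ∫ θ in box (0 : δ → ℝ), (PG h Φ (T θ) a b).re = 0 := by
      have : ∀ θ, (I * (I * PG h Φ (T θ) a b)).re = - (PG h Φ (T θ) a b).re := fun θ => by
        rw [← mul_assoc, I_mul_I]
        simp
      simp only [this, integral_neg, neg_eq_zero] at e2
      exact e2
    have i1 := integral_re (hint a b)
    have i2 := integral_im (hint a b)
    apply Complex.ext
    · exact i1.symm.trans e2'
    · exact i2.symm.trans e1'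
  obtain ⟨ρ, h1, h2, h3⟩ := exists_pot T (PG h Φ) (PG_sm h hΦ) (PG_per h hp)
    (fun z a b => by
      obtain ⟨i, hi⟩ := A.cover (Φ z)
      rw [PG_eq h hΦ hi]
      exact hess_symm (pw_sm h hΦ hi) a b)
    (fun z a b c => by
      obtain ⟨i, hi⟩ := A.cover (Φ z)
      have e : ∀ a, (fun w => PG h Φ w a b) =ᶠ[𝓝 z] fun w => hess (pw h Φ i) w a b := fun a => by
        filter_upwards [PG_ev h hΦ hi] with w hw
        rw [hw]
      rw [wd_congr (e a), wd_congr (e c)]
      exact wd_hess (pw_sm h hΦ hi) a b c)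
    (fun z a b c => by
      obtain ⟨i, hi⟩ := A.cover (Φ z)
      have e : ∀ b, (fun w => PG h Φ w a b) =ᶠ[𝓝 z] fun w => hess (pw h Φ i) w a b := fun b => by
        filter_upwards [PG_ev h hΦ hi] with w hw
        rw [hw]
      rw [wd_congr (e b), wd_congr (e c)]
      exact wdb_hess ((A.e i).open_source.preimage hΦ.cont)
        (fun w hw => (pw_sm h hΦ hw).contDiffWithinAt) hi a b c) h0
  exact ⟨ρ, h1, h2, fun i z hi => (h3 z).trans (PG_eq h hΦ hi)⟩

/-! ### periods and means -/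

open Crest.Agent.R281.Op3_569 in
/-- averaging in one direction does not change the mean -/
theorem avg {f : (δ → ℝ) → ℂ} (hf : Continuous f) (hp : Per f) (v : δ → ℝ) :
    Continuous (fun θ => ∫ s in (0 : ℝ)..1, f (θ + s • v)) ∧
      Per (fun θ => ∫ s in (0 : ℝ)..1, f (θ + s • v)) ∧
      ∫ θ in box (0 : δ → ℝ), (∫ s in (0 : ℝ)..1, f (θ + s • v)) = ∫ θ in box (0 : δ → ℝ), f θ := by
  have hc : Continuous (fun p : (δ → ℝ) × ℝ => f (p.1 + p.2 • v)) := hf.comp (by fun_prop)
  refine ⟨intervalIntegral.continuous_parametric_intervalIntegral_of_continuous' hc 0 1, ?_, ?_⟩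
  · intro k θ
    show (∫ s in (0 : ℝ)..1, f (θ + (fun i => (k i : ℝ)) + s • v)) = ∫ s in (0 : ℝ)..1, f (θ + s • v)
    congr 1
    funext s
    rw [add_right_comm]
    exact hp k _
  · have h1 : ∀ c : δ → ℝ, ∫ θ in box (0 : δ → ℝ), f (θ + c) = ∫ θ in box (0 : δ → ℝ), f θ := by
      intro c
      have e : ∀ x, ch (-(0 : δ → ℤ)) x = 1 := fun x => by simp [ch]
      have h2 := fcc_eq hf hp 0 c
      have h3 := fcc_eq hf hp 0 0
      simp only [e, one_mul] at h2 h3
      rw [setIntegral_box_add f c, ← h2, h3]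
    have hint : Integrable (Function.uncurry fun (θ : δ → ℝ) (s : ℝ) => f (θ + s • v))
        ((volume.restrict (box (0 : δ → ℝ))).prod (volume.restrict (Ioc (0 : ℝ) 1))) := by
      rw [Measure.prod_restrict]
      exact (hc.continuousOn.integrableOn_compact
        ((isCompact_Icc (a := (0 : δ → ℝ)) (b := 1)).prod (isCompact_Icc (a := (0 : ℝ)) (b := 1)))).mono_set
        (prod_mono box_sub Ioc_subset_Icc_self)
    simp only [intervalIntegral.integral_of_le zero_le_one]
    rw [integral_integral_swap hint]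
    simp only [h1]
    simp

open Crest.Agent.R281.Op3_569 in
/-- **the periods over the basis cells vanish ==> the mean vanishes** -/
theorem mean_of_per {C : RCh (Cn N) M} (w : F2 C) {T : (δ → ℝ) ≃L[ℝ] Cn m}
    (hΦ : SmI C univ Φ) (hp : PerT T Φ)
    (hper : ∀ j k x, per (pull w Φ) x (T (ev j)) (T (ev k)) = 0) (u v : Cn m) :
    ∫ θ in box (0 : δ → ℝ), pull w Φ (T θ) u v = 0 := by
  have hcont : Continuous (pull w Φ) :=
    continuousOn_univ.1 (hΦ.pull_smooth w).continuousOn
  have hpp : PerT T (pull w Φ) := fun n z =>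
    hΦ.pull_add w (fun ζ _ => ⟨mem_univ _, hp n ζ⟩) (mem_univ z)
  have key : ∀ j k, ∫ θ in box (0 : δ → ℝ), pull w Φ (T θ) (T (ev j)) (T (ev k)) = 0 := by
    intro j k
    set f : (δ → ℝ) → ℂ := fun θ => ((pull w Φ (T θ) (T (ev j)) (T (ev k)) : ℝ) : ℂ) with hf
    have hfc : Continuous f := Complex.continuous_ofReal.comp
      (((hcont.comp T.continuous).clm_apply continuous_const).clm_apply continuous_const)
    have hfp : Per f := fun n θ => by
      show ((pull w Φ (T (θ + _)) _ _ : ℝ) : ℂ) = _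
      rw [map_add, hpp n (T θ)]
    obtain ⟨c1, p1, m1⟩ := avg hfc hfp (ev k)
    obtain ⟨c2, p2, m2⟩ := avg c1 p1 (ev j)
    have e : ∀ θ, (∫ s in (0 : ℝ)..1, ∫ t in (0 : ℝ)..1, f (θ + s • ev j + t • ev k)) = 0 := by
      intro θ
      have h1 := hper j k (T θ)
      unfold Crest.Agent.R281.Per_368.per pt at h1
      have h2 : ∀ s t : ℝ, f (θ + s • ev j + t • ev k) =
          ((pull w Φ (T θ + s • T (ev j) + t • T (ev k)) (T (ev j)) (T (ev k)) : ℝ) : ℂ) := by
        intro s t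
        simp only [hf, map_add, map_smul]
      simp only [h2]
      simp only [intervalIntegral.integral_ofReal]
      rw [h1]
      simp
    simp only [e] at m2
    rw [m1] at m2
    have h3 : ∫ θ in box (0 : δ → ℝ), f θ = 0 := by
      rw [← m2]
      simp
    simp only [hf] at h3
    rw [integral_complex_ofReal] at h3
    exact_mod_cast h3
  -- bilinearity
  have hexp : ∀ u : Cn m, u = ∑ j, (T.symm u j) • T (ev j) := by
    intro u
    have h1 : T.symm u = ∑ j, (T.symm u j) • (ev j : δ → ℝ) := by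
      funext i
      rw [Finset.sum_apply, Finset.sum_eq_single i]
      · simp [ev_same]
      · intro b _ hb
        simp [ev_ne (Ne.symm hb)]
      · simp
    have h2 := congrArg T h1
    rw [T.apply_symm_apply, map_sum] at h2
    simp only [map_smul] at h2
    exact h2
  have hb : ∀ θ : δ → ℝ, pull w Φ (T θ) u v =
      ∑ j, ∑ k, (T.symm u j) * ((T.symm v k) * pull w Φ (T θ) (T (ev j)) (T (ev k))) := by
    intro θ
    conv_lhs => rw [hexp u, hexp v]
    simp only [map_sum, map_smul, sum_apply, smul_apply, smul_eq_mul, Finset.mul_sum]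
    rw [Finset.sum_comm]
    refine Finset.sum_congr rfl fun j _ => Finset.sum_congr rfl fun k _ => ?_
    ring
  simp only [hb]
  have hi : ∀ j k, Integrable (fun θ : δ → ℝ => pull w Φ (T θ) (T (ev j)) (T (ev k)))
      (volume.restrict (box (0 : δ → ℝ))) := fun j k =>
    integrable_box (((hcont.comp T.continuous).clm_apply continuous_const).clm_apply
      continuous_const)
  rw [integral_finsetSum _ fun j _ => integrable_finsetSum _ fun k _ =>
    ((hi j k).const_mul _).const_mul _]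
  refine Finset.sum_eq_zero fun j _ => ?_
  rw [integral_finsetSum _ fun k _ => ((hi j k).const_mul _).const_mul _]
  refine Finset.sum_eq_zero fun k _ => ?_
  rw [integral_const_mul, integral_const_mul, key j k, mul_zero, mul_zero]

end

end Crest.Agent.R281.Flt_877
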