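import Crest.Agent.R281.Fr9_316
import Crest.Agent.R281.D6y_986

/-!
# Row 281, leaf S6-FRAME (helper316), part 10: the literal node `D6_986.SliceStmt`
-/

set_option autoImplicit false

namespace Crest.Agent.R281.Fr7_316

theorem sliceStmt : Crest.Agent.R281.D6_986.SliceStmt := by
  intro n M _ _ _ _ A _ hn _ _ σ F c hv x0
  exact sliceAt (by omega) c hv x0

end Crest.Agent.R281.Fr7_316
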