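import Mathlib

/-!
S6-FRAME part 1 (row 281): existence of slices.

`slice_null`: `Z` a subset of a finite dimensional complex normed space with a basis `b` indexed by
`Fin (N+1)`, of finite Hausdorff measure of dimension `finrank ℝ W` away from `0`.  For almost every pair
`(r, p)`, `p : Fin (N+1) → W` (the images of the basis vectors), the linear map `p` has no zero on
`Z ∩ {‖z‖ = r}`.
-/

set_option autoImplicit false

open MeasureTheory Measure Set Metric Filter Topology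
open scoped ENNReal NNReal BigOperators

namespace Crest.Agent.R281.Fr1_316

variable {W : Type*} [NormedAddCommGroup W] [NormedSpace ℂ W] [FiniteDimensional ℂ W]
  [MeasurableSpace W] [BorelSpace W]

/-- measure of the set of tuples `p` in a box whose combination with fixed coefficients is small. -/
theorem box_le (μ : Measure W) [μ.IsAddHaarMeasure] {N : ℕ} (c : Fin (N + 1) → ℂ) (i₀ : Fin (N + 1))
    (hc : c i₀ ≠ 0) (R ε : ℝ) (hε : 0 ≤ ε) :
    (Measure.pi fun _ : Fin (N + 1) => μ)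
        {p | (∀ j, ‖p j‖ ≤ R) ∧ ‖∑ j, c j • p j‖ ≤ ε} ≤
      ENNReal.ofReal ((ε / ‖c i₀‖) ^ (Module.finrank ℝ W)) * μ (ball 0 1) *
        (μ (closedBall 0 R)) ^ N := by
  haveI : FiniteDimensional ℝ W := FiniteDimensional.complexToReal W
  have hcpos : 0 < ‖c i₀‖ := norm_pos_iff.2 hc
  set S' : Set (W × (Fin N → W)) :=
    {q | ‖q.1‖ ≤ R ∧ (∀ j, ‖q.2 j‖ ≤ R) ∧ ‖c i₀ • q.1 + ∑ j, c (i₀.succAbove j) • q.2 j‖ ≤ ε}
    with hS'
  have hS'c : IsClosed S' := by
    have h1 : IsClosed {q : W × (Fin N → W) | ‖q.1‖ ≤ R} :=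
      isClosed_le (continuous_fst.norm) continuous_const
    have h2 : IsClosed {q : W × (Fin N → W) | ∀ j, ‖q.2 j‖ ≤ R} := by
      have : {q : W × (Fin N → W) | ∀ j, ‖q.2 j‖ ≤ R} = ⋂ j, {q | ‖q.2 j‖ ≤ R} := by
        ext q; simp
      rw [this]
      exact isClosed_iInter fun j =>
        isClosed_le (((continuous_apply j).comp continuous_snd).norm) continuous_const
    have h3 : IsClosed {q : W × (Fin N → W) |
        ‖c i₀ • q.1 + ∑ j, c (i₀.succAbove j) • q.2 j‖ ≤ ε} := by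
      refine isClosed_le (Continuous.norm ?_) continuous_const
      refine (continuous_fst.const_smul _).add ?_
      exact continuous_finset_sum _ fun j _ =>
        ((continuous_apply j).comp continuous_snd).const_smul _
    exact h1.inter (h2.inter h3)
  have hpre : {p : Fin (N + 1) → W | (∀ j, ‖p j‖ ≤ R) ∧ ‖∑ j, c j • p j‖ ≤ ε} =
      (MeasurableEquiv.piFinSuccAbove (fun _ : Fin (N + 1) => W) i₀) ⁻¹' S' := by
    ext p
    simp only [mem_setOf_eq, hS', mem_preimage, MeasurableEquiv.piFinSuccAbove_apply]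
    rw [Fin.sum_univ_succAbove _ i₀]
    constructor
    · rintro ⟨h1, h2⟩
      exact ⟨h1 _, fun j => h1 _, h2⟩
    · rintro ⟨h1, h2, h3⟩
      refine ⟨fun j => ?_, h3⟩
      rcases Fin.eq_self_or_eq_succAbove i₀ j with h | ⟨k, h⟩
      · rw [h]; exact h1
      · rw [h]; exact h2 k
  rw [hpre, (measurePreserving_piFinSuccAbove (fun _ : Fin (N + 1) => μ) i₀).measure_preimage
    hS'c.measurableSet.nullMeasurableSet, Measure.prod_apply_symm hS'c.measurableSet]
  set Bx : Set (Fin N → W) := Set.pi univ fun _ => closedBall (0 : W) R with hBx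
  have hball : ∀ (x : W) , μ (closedBall x (ε / ‖c i₀‖)) =
      ENNReal.ofReal ((ε / ‖c i₀‖) ^ (Module.finrank ℝ W)) * μ (ball 0 1) := fun x =>
    Measure.addHaar_closedBall μ x (div_nonneg hε hcpos.le)
  calc ∫⁻ y, μ ((fun x => (x, y)) ⁻¹' S') ∂(Measure.pi fun _ : Fin N => μ)
      ≤ ∫⁻ y, Bx.indicator (fun _ => ENNReal.ofReal ((ε / ‖c i₀‖) ^ (Module.finrank ℝ W)) *
          μ (ball 0 1)) y ∂(Measure.pi fun _ : Fin N => μ) := by
        refine lintegral_mono fun y => ?_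
        by_cases hy : y ∈ Bx
        · rw [indicator_of_mem hy]
          rw [← hball (-(c i₀)⁻¹ • ∑ j, c (i₀.succAbove j) • y j)]
          refine measure_mono ?_
          intro x hx
          simp only [hS', mem_preimage, mem_setOf_eq] at hx
          rw [mem_closedBall, dist_eq_norm, le_div_iff₀ hcpos]
          have : c i₀ • (x - -(c i₀)⁻¹ • ∑ j, c (i₀.succAbove j) • y j) =
              c i₀ • x + ∑ j, c (i₀.succAbove j) • y j := by
            rw [smul_sub, neg_smul, smul_neg, sub_neg_eq_add, smul_smul, mul_inv_cancel₀ hc,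
              one_smul]
          rw [mul_comm, ← norm_smul, this]
          exact hx.2.2
        · rw [indicator_of_notMem hy]
          have : (fun x => (x, y)) ⁻¹' S' = (∅ : Set W) := by
            ext x
            simp only [mem_preimage, mem_empty_iff_false, iff_false]
            intro hx
            apply hy
            intro j _
            rw [mem_closedBall_zero_iff]
            exact hx.2.1 j
          rw [this]; simp
    _ = ENNReal.ofReal ((ε / ‖c i₀‖) ^ (Module.finrank ℝ W)) * μ (ball 0 1) *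
        (Measure.pi fun _ : Fin N => μ) Bx := by
        rw [lintegral_indicator_const]
        exact MeasurableSet.univ_pi fun _ => isClosed_closedBall.measurableSet
    _ = _ := by
        rw [hBx, Measure.pi_pi]
        simp

/-- the bad set of pairs `(r, p)`. -/
def Bad {V : Type*} [NormedAddCommGroup V] [NormedSpace ℂ V] {N : ℕ}
    (b : Module.Basis (Fin (N + 1)) ℂ V) (A : Set V) : Set (ℝ × (Fin (N + 1) → W)) :=
  {q | ∃ z ∈ A, ‖z‖ = q.1 ∧ ∑ i, b.repr z i • q.2 i = 0}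

theorem slice_null {V : Type*} [NormedAddCommGroup V] [NormedSpace ℂ V] [FiniteDimensional ℂ V]
    [MeasurableSpace V] [BorelSpace V]
    {N : ℕ} (b : Module.Basis (Fin (N + 1)) ℂ V) (μ : Measure W) [μ.IsAddHaarMeasure]
    (Z : Set V) (r₁ : ℝ) (hr₁ : 0 < r₁)
    (hZ : μH[(Module.finrank ℝ W : ℝ)] (Z ∩ {z | r₁ ≤ ‖z‖}) < ⊤) :
    ((volume : Measure ℝ).prod (Measure.pi fun _ : Fin (N + 1) => μ))
      (Bad (W := W) b (Z ∩ {z | r₁ ≤ ‖z‖})) = 0 := by
  haveI : FiniteDimensional ℝ W := FiniteDimensional.complexToReal W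
  set A : Set V := Z ∩ {z | r₁ ≤ ‖z‖} with hA
  set d : ℕ := Module.finrank ℝ W with hd
  set ν : Measure (Fin (N + 1) → W) := Measure.pi fun _ : Fin (N + 1) => μ with hν
  -- norm comparison
  obtain ⟨K, hK0, hK⟩ : ∃ K : ℝ, 0 < K ∧ ∀ z : V, ∑ i, ‖b.repr z i‖ ≤ K * ‖z‖ := by
    have hcont : Continuous fun z : V => ∑ i, ‖b.repr z i‖ := by
      refine continuous_finset_sum _ fun i _ => Continuous.norm ?_
      exact (LinearMap.continuous_of_finiteDimensional (b.coord i))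
    let L : V →L[ℂ] (Fin (N + 1) → ℂ) :=
      LinearMap.toContinuousLinearMap (b.equivFun : V →ₗ[ℂ] (Fin (N + 1) → ℂ))
    refine ⟨(N + 1) * ‖L‖ + 1, by positivity, fun z => ?_⟩
    have h1 : ∀ i, ‖b.repr z i‖ ≤ ‖L‖ * ‖z‖ := fun i => by
      have h2 : ‖L z i‖ ≤ ‖L z‖ := norm_le_pi_norm (L z) i
      have h3 : L z i = b.repr z i := rfl
      rw [← h3]
      exact h2.trans (L.le_opNorm z)
    calc ∑ i, ‖b.repr z i‖ ≤ ∑ _i : Fin (N + 1), ‖L‖ * ‖z‖ := Finset.sum_le_sum fun i _ => h1 i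
      _ = (N + 1) * (‖L‖ * ‖z‖) := by simp
      _ ≤ ((N + 1) * ‖L‖ + 1) * ‖z‖ := by nlinarith [norm_nonneg z]
  -- lower bound of the largest coefficient
  obtain ⟨k, hk0, hk⟩ : ∃ k : ℝ, 0 < k ∧ ∀ z : V, ∃ i, k * ‖z‖ ≤ ‖b.repr z i‖ := by
    let L : (Fin (N + 1) → ℂ) →L[ℂ] V :=
      LinearMap.toContinuousLinearMap (b.equivFun.symm : (Fin (N + 1) → ℂ) →ₗ[ℂ] V)
    refine ⟨(‖L‖ + 1)⁻¹, by positivity, fun z => ?_⟩
    obtain ⟨i, -, hi⟩ := Finset.exists_max_image (Finset.univ : Finset (Fin (N + 1)))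
      (fun i => ‖b.repr z i‖) Finset.univ_nonempty
    refine ⟨i, ?_⟩
    rw [inv_mul_le_iff₀ (by positivity)]
    have h1 : z = L (fun j => b.repr z j) := by
      have : L (fun j => b.repr z j) = b.equivFun.symm (b.equivFun z) := rfl
      rw [this, LinearEquiv.symm_apply_apply]
    have h2 : ‖(fun j => b.repr z j : Fin (N + 1) → ℂ)‖ ≤ ‖b.repr z i‖ :=
      (pi_norm_le_iff_of_nonneg (norm_nonneg _)).2 fun j => hi j (Finset.mem_univ j)
    calc ‖z‖ = ‖L (fun j => b.repr z j)‖ := by rw [← h1]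
      _ ≤ ‖L‖ * ‖(fun j => b.repr z j : Fin (N + 1) → ℂ)‖ := L.le_opNorm _
      _ ≤ ‖L‖ * ‖b.repr z i‖ := by gcongr
      _ ≤ (‖L‖ + 1) * ‖b.repr z i‖ := by nlinarith [norm_nonneg (b.repr z i)]
  -- it is enough to bound each bounded part
  suffices hR : ∀ R : ℕ, ((volume : Measure ℝ).prod ν)
      (Bad (W := W) b A ∩ {q | ∀ j, ‖q.2 j‖ ≤ R}) = 0 by
    have hun : Bad (W := W) b A ⊆ ⋃ R : ℕ, (Bad (W := W) b A ∩ {q | ∀ j, ‖q.2 j‖ ≤ R}) := by
      intro q hq
      obtain ⟨R, hR'⟩ := exists_nat_ge ‖q.2‖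
      exact mem_iUnion.2 ⟨R, hq, fun j => (norm_le_pi_norm q.2 j).trans hR'⟩
    exact measure_mono_null hun (measure_iUnion_null hR)
  intro R
  -- constants
  set H : ℝ≥0∞ := μH[(d : ℝ)] A with hH
  set C : ℝ≥0∞ := ENNReal.ofReal 2 * (ENNReal.ofReal ((K * R / (k * r₁)) ^ d) * μ (ball 0 1) *
    (μ (closedBall 0 R)) ^ N) with hC
  have hCtop : C ≠ ⊤ := by
    rw [hC]
    refine ENNReal.mul_ne_top ENNReal.ofReal_ne_top ?_
    refine ENNReal.mul_ne_top (ENNReal.mul_ne_top ENNReal.ofReal_ne_top ?_) ?_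
    · exact measure_ball_lt_top.ne
    · exact ENNReal.pow_ne_top (measure_closedBall_lt_top).ne
  -- one piece
  have piece : ∀ t : Set V, (hdt : ediam t ≠ ⊤) →
      ((volume : Measure ℝ).prod ν)
        ({q : ℝ × (Fin (N + 1) → W) | ∃ z ∈ A ∩ t, ‖z‖ = q.1 ∧ ∑ i, b.repr z i • q.2 i = 0} ∩
          {q | ∀ j, ‖q.2 j‖ ≤ R}) ≤ C * (⨆ _ : t.Nonempty, ediam t ^ (d : ℝ)) * ediam t := by
    intro t hdt
    by_cases hne : (A ∩ t).Nonempty
    · obtain ⟨z₀, hz₀A, hz₀t⟩ := hne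
      have htne : t.Nonempty := ⟨z₀, hz₀t⟩
      set δ : ℝ := diam t with hδ
      have hδ0 : 0 ≤ δ := diam_nonneg
      have hdiam : ediam t = ENNReal.ofReal δ := by
        rw [hδ, diam, ENNReal.ofReal_toReal hdt]
      have hz₀r : r₁ ≤ ‖z₀‖ := hz₀A.2
      obtain ⟨i₀, hi₀⟩ := hk z₀
      have hci : 0 < ‖b.repr z₀ i₀‖ :=
        lt_of_lt_of_le (mul_pos hk0 (lt_of_lt_of_le hr₁ hz₀r)) hi₀
      have hbd : Bornology.IsBounded t := by
        rw [isBounded_iff_ediam_ne_top]; exact hdt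
      have hsub : ({q : ℝ × (Fin (N + 1) → W) | ∃ z ∈ A ∩ t, ‖z‖ = q.1 ∧
            ∑ i, b.repr z i • q.2 i = 0} ∩ {q | ∀ j, ‖q.2 j‖ ≤ R}) ⊆
          (Icc (‖z₀‖ - δ) (‖z₀‖ + δ)) ×ˢ
            {p | (∀ j, ‖p j‖ ≤ R) ∧ ‖∑ j, b.repr z₀ j • p j‖ ≤ K * δ * R} := by
        rintro ⟨r, p⟩ ⟨⟨z, ⟨-, hzt⟩, hzr, hz0⟩, hp⟩
        simp only at hzr hz0
        have hdist : ‖z₀ - z‖ ≤ δ := by
          rw [← dist_eq_norm]; exact dist_le_diam_of_mem hbd hz₀t hzt
        refine ⟨?_, hp, ?_⟩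
        · have h1 : |‖z₀‖ - ‖z‖| ≤ δ := (abs_norm_sub_norm_le z₀ z).trans hdist
          rw [abs_le] at h1
          simp only [mem_Icc]
          constructor <;> linarith [h1.1, h1.2]
        · have h2 : ∑ j, b.repr z₀ j • p j = ∑ j, b.repr (z₀ - z) j • p j := by
            rw [← sub_zero (∑ j, b.repr z₀ j • p j), ← hz0, ← Finset.sum_sub_distrib]
            refine Finset.sum_congr rfl fun j _ => ?_
            rw [map_sub, Finsupp.sub_apply, sub_smul]
          simp only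
          rw [h2]
          calc ‖∑ j, b.repr (z₀ - z) j • p j‖ ≤ ∑ j, ‖b.repr (z₀ - z) j • p j‖ := norm_sum_le _ _
            _ ≤ ∑ j, ‖b.repr (z₀ - z) j‖ * R := by
                refine Finset.sum_le_sum fun j _ => ?_
                rw [norm_smul]
                exact mul_le_mul_of_nonneg_left (hp j) (norm_nonneg _)
            _ = (∑ j, ‖b.repr (z₀ - z) j‖) * R := by rw [Finset.sum_mul]
            _ ≤ (K * δ) * R := by
                have hR0 : (0 : ℝ) ≤ R := Nat.cast_nonneg R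
                refine mul_le_mul_of_nonneg_right ((hK _).trans ?_) hR0
                exact mul_le_mul_of_nonneg_left hdist hK0.le
      refine (measure_mono hsub).trans ?_
      rw [Measure.prod_prod, Real.volume_Icc]
      have hR0 : (0 : ℝ) ≤ R := Nat.cast_nonneg R
      have h5 := box_le μ (fun j => b.repr z₀ j) i₀ (norm_pos_iff.1 hci) R (K * δ * R)
        (by positivity)
      have h6 : K * δ * R / ‖b.repr z₀ i₀‖ ≤ (K * R / (k * r₁)) * δ := by
        have h7 : k * r₁ ≤ ‖b.repr z₀ i₀‖ :=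
          (mul_le_mul_of_nonneg_left hz₀r hk0.le).trans hi₀
        have h8 : 0 < k * r₁ := mul_pos hk0 hr₁
        calc K * δ * R / ‖b.repr z₀ i₀‖ ≤ K * δ * R / (k * r₁) := by gcongr
          _ = (K * R / (k * r₁)) * δ := by ring
      have h9 : ENNReal.ofReal ((K * δ * R / ‖b.repr z₀ i₀‖) ^ d) ≤
          ENNReal.ofReal ((K * R / (k * r₁)) ^ d) * ediam t ^ (d : ℝ) := by
        rw [hdiam, ENNReal.rpow_natCast, ← ENNReal.ofReal_pow hδ0, ← ENNReal.ofReal_mul
          (by positivity), ← mul_pow]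
        refine ENNReal.ofReal_le_ofReal ?_
        exact pow_le_pow_left₀ (by positivity) h6 _
      have h10 : (⨆ _ : t.Nonempty, ediam t ^ (d : ℝ)) = ediam t ^ (d : ℝ) := by
        simp [htne]
      rw [h10]
      have h11 : ENNReal.ofReal (‖z₀‖ + δ - (‖z₀‖ - δ)) = ENNReal.ofReal 2 * ediam t := by
        rw [hdiam, ← ENNReal.ofReal_mul (by norm_num)]
        congr 1; ring
      rw [h11]
      calc ENNReal.ofReal 2 * ediam t * ν {p | (∀ j, ‖p j‖ ≤ R) ∧
              ‖∑ j, b.repr z₀ j • p j‖ ≤ K * δ * R}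
          ≤ ENNReal.ofReal 2 * ediam t * (ENNReal.ofReal ((K * R / (k * r₁)) ^ d) *
              ediam t ^ (d : ℝ) * μ (ball 0 1) * (μ (closedBall 0 R)) ^ N) := by
            gcongr
            refine h5.trans ?_
            gcongr
        _ = C * ediam t ^ (d : ℝ) * ediam t := by
            rw [hC]; ring
    · have : ({q : ℝ × (Fin (N + 1) → W) | ∃ z ∈ A ∩ t, ‖z‖ = q.1 ∧
            ∑ i, b.repr z i • q.2 i = 0} ∩ {q | ∀ j, ‖q.2 j‖ ≤ R}) = ∅ := by
        ext q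
        simp only [mem_inter_iff, mem_setOf_eq, mem_empty_iff_false, iff_false, not_and]
        rintro ⟨z, hz, -⟩
        exact (hne ⟨z, hz⟩).elim
      rw [this]; simp
  -- summation
  have main : ∀ ρ : ℝ≥0∞, 0 < ρ → ρ ≠ ⊤ → ((volume : Measure ℝ).prod ν)
      (Bad (W := W) b A ∩ {q | ∀ j, ‖q.2 j‖ ≤ R}) ≤ C * (H + 1) * ρ := by
    intro ρ hρ hρtop
    have hHlt : (⨅ (t : ℕ → Set V) (_ : A ⊆ ⋃ n, t n) (_ : ∀ n, ediam (t n) ≤ ρ),
        ∑' n, ⨆ _ : (t n).Nonempty, ediam (t n) ^ (d : ℝ)) < H + 1 := by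
      refine lt_of_le_of_lt ?_ (ENNReal.lt_add_right hZ.ne one_ne_zero)
      rw [hH, hausdorffMeasure_apply]
      exact le_iSup₂_of_le ρ hρ le_rfl
    simp only [iInf_lt_iff] at hHlt
    obtain ⟨t, hcov, hdi, hsum⟩ := hHlt
    have hsub : (Bad (W := W) b A ∩ {q | ∀ j, ‖q.2 j‖ ≤ R}) ⊆
        ⋃ n, ({q : ℝ × (Fin (N + 1) → W) | ∃ z ∈ A ∩ t n, ‖z‖ = q.1 ∧
            ∑ i, b.repr z i • q.2 i = 0} ∩ {q | ∀ j, ‖q.2 j‖ ≤ R}) := by
      rintro q ⟨⟨z, hzA, hz⟩, hq⟩
      obtain ⟨n, hn⟩ := mem_iUnion.1 (hcov hzA)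
      exact mem_iUnion.2 ⟨n, ⟨z, ⟨hzA, hn⟩, hz⟩, hq⟩
    calc _ ≤ ∑' n, ((volume : Measure ℝ).prod ν) ({q : ℝ × (Fin (N + 1) → W) |
            ∃ z ∈ A ∩ t n, ‖z‖ = q.1 ∧ ∑ i, b.repr z i • q.2 i = 0} ∩
            {q | ∀ j, ‖q.2 j‖ ≤ R}) := (measure_mono hsub).trans (measure_iUnion_le _)
      _ ≤ ∑' n, C * (⨆ _ : (t n).Nonempty, ediam (t n) ^ (d : ℝ)) * ρ := by
          refine ENNReal.tsum_le_tsum fun n => ?_
          refine (piece (t n) (ne_top_of_le_ne_top hρtop (hdi n))).trans ?_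
          gcongr
          exact hdi n
      _ = C * (∑' n, ⨆ _ : (t n).Nonempty, ediam (t n) ^ (d : ℝ)) * ρ := by
          rw [ENNReal.tsum_mul_right, ENNReal.tsum_mul_left]
      _ ≤ C * (H + 1) * ρ := by gcongr
  -- conclusion
  refine le_antisymm (ENNReal.le_of_forall_pos_le_add fun ε hε _ => ?_) bot_le
  rw [zero_add]
  have hCH : C * (H + 1) ≠ ⊤ :=
    ENNReal.mul_ne_top hCtop (ENNReal.add_ne_top.2 ⟨hZ.ne, ENNReal.one_ne_top⟩)
  by_cases h0 : C * (H + 1) = 0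
  · refine (main 1 one_pos ENNReal.one_ne_top).trans ?_
    rw [h0]; simp
  · refine (main ((ε : ℝ≥0∞) / (C * (H + 1))) ?_ ?_).trans ?_
    · exact ENNReal.div_pos (by exact_mod_cast hε.ne') hCH
    · exact ENNReal.div_ne_top ENNReal.coe_ne_top h0
    · rw [ENNReal.mul_div_cancel h0 hCH]

end Crest.Agent.R281.Fr1_316
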