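import Mathlib
import Crest.Agent.R266.SCV

/-!
# Row 281, leaf S6-FRAME (helper316), part 2: Piola identity and the key `∂̄`-identity for a proper
holomorphic map between open subsets of `ℂ^N`

`key : ∫_W h · (∂̄_v φ)(G z) · |det DG|² = 0`.
-/

set_option autoImplicit false
set_option linter.unusedSectionVars false

open Set Filter Topology MeasureTheory Complex Metric
open scoped ContDiff ComplexConjugate Matrix

noncomputable section

namespace Crest.Agent.R281.Fr2_316

open Crest.Agent.R266.SCV

variable {N : ℕ}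

abbrev Cn (N : ℕ) : Type := Fin N → ℂ

section det

variable {V : Type*} [NormedAddCommGroup V] [NormedSpace ℂ V]

theorem sum_adj_row {R : Type*} [CommRing R] (A : Matrix (Fin N) (Fin N) R) (i : Fin N)
    (b : Fin N → R) : (A.updateRow i b).det = ∑ j, A.adjugate j i * b j := by
  have h1 := Matrix.cramer_eq_adjugate_mulVec Aᵀ b
  have h2 := Matrix.cramer_apply Aᵀ b i
  rw [h1, Matrix.updateCol_transpose, Matrix.det_transpose] at h2
  rw [← h2]
  simp only [Matrix.mulVec, dotProduct]
  refine Finset.sum_congr rfl fun j _ => ?_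
  rw [← Matrix.adjugate_transpose]
  rfl

theorem sum_adj_col {R : Type*} [CommRing R] (A : Matrix (Fin N) (Fin N) R) (i : Fin N)
    (b : Fin N → R) : (A.updateCol i b).det = ∑ j, A.adjugate i j * b j := by
  rw [← Matrix.cramer_apply, Matrix.cramer_eq_adjugate_mulVec]
  rfl

/-- Jacobi's formula -/
theorem hasFDerivAt_det {A : V → Matrix (Fin N) (Fin N) ℂ} {A' : Fin N → Fin N → V →L[ℂ] ℂ} {x : V}
    (hA : ∀ i j, HasFDerivAt (fun y => A y i j) (A' i j) x) :
    HasFDerivAt (fun y => (A y).det) (∑ i, ∑ j, (A x).adjugate i j • A' j i) x := by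
  have h1 : ∀ y, (A y).det =
      ∑ σ : Equiv.Perm (Fin N), ((Equiv.Perm.sign σ : ℤ) : ℂ) * ∏ i, A y (σ i) i := by
    intro y; rw [Matrix.det_apply']
  simp_rw [h1]
  have h2 : HasFDerivAt (fun y => ∑ σ : Equiv.Perm (Fin N),
      ((Equiv.Perm.sign σ : ℤ) : ℂ) * ∏ i, A y (σ i) i)
      (∑ σ : Equiv.Perm (Fin N), ((Equiv.Perm.sign σ : ℤ) : ℂ) •
        ∑ i, (∏ j ∈ Finset.univ.erase i, A x (σ j) j) • A' (σ i) i) x := by
    refine HasFDerivAt.fun_sum fun σ _ => ?_
    exact (HasFDerivAt.finsetProd (fun i _ => hA (σ i) i)).const_mul _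
  refine h2.congr_fderiv ?_
  ext v
  simp only [_root_.sum_apply, _root_.smul_apply, smul_eq_mul]
  simp_rw [← sum_adj_col (A x) _ (fun j => A' j _ v), Matrix.det_apply']
  rw [Finset.sum_comm]
  refine Finset.sum_congr rfl fun σ _ => ?_
  rw [Finset.mul_sum]
  refine Finset.sum_congr rfl fun i _ => ?_
  congr 1
  rw [← Finset.mul_prod_erase Finset.univ _ (Finset.mem_univ i)]
  simp only [Matrix.updateCol_self]
  rw [mul_comm]
  congr 1
  refine Finset.prod_congr rfl fun j hj => ?_
  rw [Matrix.updateCol_ne (Finset.ne_of_mem_erase hj)]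

theorem differentiableAt_det {A : V → Matrix (Fin N) (Fin N) ℂ} {x : V}
    (hA : ∀ i j, DifferentiableAt ℂ (fun y => A y i j) x) :
    DifferentiableAt ℂ (fun y => (A y).det) x :=
  (hasFDerivAt_det fun i j => (hA i j).hasFDerivAt).differentiableAt

end det

/-- complex partial derivative -/
def pd (a : Fin N) (f : Cn N → ℂ) (z : Cn N) : ℂ := fderiv ℂ f z (Pi.single a 1)

theorem pd_det {m : Cn N → Matrix (Fin N) (Fin N) ℂ} {z : Cn N}
    (hm : ∀ i j, DifferentiableAt ℂ (fun y => m y i j) z) (a : Fin N) :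
    pd a (fun y => (m y).det) z =
      ∑ i, ∑ j, (m z).adjugate i j * pd a (fun y => m y j i) z := by
  rw [pd, (hasFDerivAt_det fun i j => (hm i j).hasFDerivAt).fderiv]
  simp only [_root_.sum_apply, _root_.smul_apply, smul_eq_mul]
  rfl

/-- derivative of a determinant, by rows -/
theorem pd_det_row {m : Cn N → Matrix (Fin N) (Fin N) ℂ} {z : Cn N}
    (hm : ∀ i j, DifferentiableAt ℂ (fun y => m y i j) z) (s : Fin N) :
    pd s (fun y => (m y).det) z =
      ∑ i, ((m z).updateRow i fun j => pd s (fun y => m y i j) z).det := by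
  rw [pd_det hm s, Finset.sum_comm]
  refine Finset.sum_congr rfl fun i _ => ?_
  rw [sum_adj_row]

/-- Piola identity -/
theorem piola {m : Cn N → Matrix (Fin N) (Fin N) ℂ} {z : Cn N}
    (hm : ∀ i j, DifferentiableAt ℂ (fun y => m y i j) z)
    (hc : ∀ a b c, pd c (fun w => m w a b) z = pd a (fun w => m w c b) z)
    (b : Fin N) :
    ∑ a, pd a (fun w => (m w).adjugate b a) z = 0 := by
  classical
  set D : Fin N → Fin N → ℂ := fun a i =>
    (((m z).updateRow a (Pi.single b 1)).updateRow i
      fun j => pd a (fun y => m y i j) z).det with hD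
  -- derivative of one cofactor
  have h1 : ∀ a, pd a (fun w => (m w).adjugate b a) z =
      ∑ i ∈ Finset.univ.erase a, D a i := by
    intro a
    have e1 : (fun w => (m w).adjugate b a) =
        fun w => ((m w).updateRow a (Pi.single b 1)).det := by
      funext w
      rw [Matrix.adjugate_apply]
    have hd : ∀ i j, DifferentiableAt ℂ (fun y => (m y).updateRow a (Pi.single b 1) i j) z := by
      intro i j
      by_cases hi : i = a
      · subst hi
        simp only [Matrix.updateRow_self]
        exact differentiableAt_const _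
      · simp only [Matrix.updateRow_ne hi]
        exact hm i j
    rw [e1, pd_det_row hd, ← Finset.add_sum_erase Finset.univ _ (Finset.mem_univ a)]
    have e2 : (((m z).updateRow a (Pi.single b 1)).updateRow a fun j =>
        pd a (fun y => (m y).updateRow a (Pi.single b 1) a j) z).det = 0 := by
      apply Matrix.det_eq_zero_of_row_eq_zero a
      intro j
      simp only [Matrix.updateRow_self]
      simp [pd]
    rw [e2, zero_add]
    refine Finset.sum_congr rfl fun i hi => ?_
    have hia : i ≠ a := Finset.ne_of_mem_erase hi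
    simp only [hD, Matrix.updateRow_ne hia]
  -- antisymmetry
  have h2 : ∀ a i, i ≠ a → D i a = - D a i := by
    intro a i hia
    have e1 : (((m z).updateRow i (Pi.single b 1)).updateRow a
        fun j => pd i (fun y => m y a j) z) =
        (((m z).updateRow a (Pi.single b 1)).updateRow i
          fun j => pd a (fun y => m y i j) z).submatrix (Equiv.swap a i) id := by
      ext k j
      simp only [Matrix.submatrix_apply, id]
      by_cases hka : k = a
      · subst hka
        rw [Matrix.updateRow_self, Equiv.swap_apply_left, Matrix.updateRow_self]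
        exact hc k j i
      · rw [Matrix.updateRow_ne hka]
        by_cases hki : k = i
        · subst hki
          rw [Matrix.updateRow_self, Equiv.swap_apply_right, Matrix.updateRow_ne hia.symm,
            Matrix.updateRow_self]
        · rw [Matrix.updateRow_ne hki, Equiv.swap_apply_of_ne_of_ne hka hki,
            Matrix.updateRow_ne hki, Matrix.updateRow_ne hka]
    simp only [hD]
    rw [e1, Matrix.det_permute, Equiv.Perm.sign_swap hia.symm]
    simp
  have h3 : ∑ a, ∑ i ∈ Finset.univ.erase a, D a i = ∑ a, ∑ i ∈ Finset.univ.erase a, D i a := by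
    have e : ∀ f : Fin N → Fin N → ℂ, ∑ a, ∑ i ∈ Finset.univ.erase a, f a i =
        ∑ a, ∑ i, if i ≠ a then f a i else 0 := by
      intro f
      refine Finset.sum_congr rfl fun a _ => ?_
      rw [← Finset.sum_filter]
      congr 1
      ext i
      simp
    rw [e D, e fun a i => D i a, Finset.sum_comm]
    refine Finset.sum_congr rfl fun a _ => Finset.sum_congr rfl fun i _ => ?_
    simp only [ne_comm]
  have h4 : ∑ a, ∑ i ∈ Finset.univ.erase a, D i a = - ∑ a, ∑ i ∈ Finset.univ.erase a, D a i := by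
    rw [← Finset.sum_neg_distrib]
    refine Finset.sum_congr rfl fun a _ => ?_
    rw [← Finset.sum_neg_distrib]
    exact Finset.sum_congr rfl fun i hi => h2 a i (Finset.ne_of_mem_erase hi)
  rw [Finset.sum_congr rfl fun a _ => h1 a]
  rw [h4] at h3
  exact self_eq_neg.1 h3

/-! ### the Jacobian of a holomorphic map -/

/-- Jacobian matrix `m a c = ∂_a G_c` -/
def jm (G : Cn N → Cn N) (z : Cn N) : Matrix (Fin N) (Fin N) ℂ :=
  fun a c => fderiv ℂ G z (Pi.single a 1) c

/-- complex Jacobian determinant -/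
def J (G : Cn N → Cn N) (z : Cn N) : ℂ := (fderiv ℂ G z).det

theorem det_jm (G : Cn N → Cn N) (z : Cn N) : (jm G z).det = J G z := by
  have : jm G z = (LinearMap.toMatrix' (fderiv ℂ G z : Cn N →ₗ[ℂ] Cn N))ᵀ := by
    ext a c
    rw [Matrix.transpose_apply, LinearMap.toMatrix'_apply]
    rfl
  rw [this, Matrix.det_transpose, LinearMap.det_toMatrix']
  rfl

variable {W : Set (Cn N)} {G : Cn N → Cn N}

theorem analyticOnNhd_jm (hW : IsOpen W) (hG : DifferentiableOn ℂ G W) (a c : Fin N) :
    AnalyticOnNhd ℂ (fun z => jm G z a c) W := by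
  have h1 : AnalyticOnNhd ℂ G W := analyticOnNhd_of_differentiableOn hW hG
  have h2 : AnalyticOnNhd ℂ (fderiv ℂ G) W := h1.fderiv
  intro z hz
  have h3 : AnalyticAt ℂ (fun z => fderiv ℂ G z (Pi.single a 1)) z :=
    ((ContinuousLinearMap.apply ℂ (Cn N) (Pi.single a 1 : Cn N)).analyticAt _).comp (h2 z hz)
  exact ((ContinuousLinearMap.proj (R := ℂ) (φ := fun _ : Fin N => ℂ) c).analyticAt _).comp h3

theorem pd_symm (hW : IsOpen W) (hG : DifferentiableOn ℂ G W) {z : Cn N} (hz : z ∈ W)
    (a b c : Fin N) : pd c (fun w => jm G w a b) z = pd a (fun w => jm G w c b) z := by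
  have h1 : AnalyticOnNhd ℂ G W := analyticOnNhd_of_differentiableOn hW hG
  have h2 : ContDiffAt ℂ 2 G z := (h1 z hz).contDiffAt
  have hd : DifferentiableAt ℂ (fderiv ℂ G) z :=
    (h2.fderiv_right (m := 1) (by norm_num)).differentiableAt (by norm_num)
  have hs : IsSymmSndFDerivAt ℂ G z := h2.isSymmSndFDerivAt (by simp)
  have e : ∀ v w : Cn N, ∀ b, fderiv ℂ (fun z => fderiv ℂ G z v b) z w
      = fderiv ℂ (fderiv ℂ G) z w v b := by
    intro v w b
    have h3 := (hd.hasFDerivAt.clm_apply (hasFDerivAt_const v z))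
    have h4 := (hasFDerivAt_pi'.1 h3 b).fderiv
    rw [h4]
    simp
  unfold pd jm
  rw [e, e, hs]

theorem J_differentiableOn (hW : IsOpen W) (hG : DifferentiableOn ℂ G W) :
    DifferentiableOn ℂ (J G) W := by
  intro z hz
  have h := differentiableAt_det (A := jm G) (x := z)
    (fun i j => (analyticOnNhd_jm hW hG i j z hz).differentiableAt)
  have h2 : (fun y => (jm G y).det) = J G := funext (det_jm G)
  rw [h2] at h
  exact h.differentiableWithinAt

/-- cofactors -/
def X (G : Cn N → Cn N) (b a : Fin N) (z : Cn N) : ℂ := (jm G z).adjugate b a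

theorem X_differentiableOn (hW : IsOpen W) (hG : DifferentiableOn ℂ G W) (b a : Fin N) :
    DifferentiableOn ℂ (X G b a) W := by
  intro z hz
  have e1 : X G b a = fun w => ((jm G w).updateRow a (Pi.single b 1)).det := by
    funext w
    rw [X, Matrix.adjugate_apply]
  rw [e1]
  refine (differentiableAt_det fun i j => ?_).differentiableWithinAt
  by_cases hi : i = a
  · subst hi
    simp only [Matrix.updateRow_self]
    exact differentiableAt_const _
  · simp only [Matrix.updateRow_ne hi]
    exact (analyticOnNhd_jm hW hG i j z hz).differentiableAt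

theorem div_X (hW : IsOpen W) (hG : DifferentiableOn ℂ G W) {z : Cn N} (hz : z ∈ W) (b : Fin N) :
    ∑ a, pd a (X G b a) z = 0 :=
  piola (fun i j => (analyticOnNhd_jm hW hG i j z hz).differentiableAt)
    (fun a b c => pd_symm hW hG hz a b c) b

/-- Cramer -/
theorem fderiv_X (z : Cn N) (b : Fin N) :
    fderiv ℂ G z (fun a => X G b a z) = J G z • (Pi.single b 1 : Cn N) := by
  have h1 : (fun a => X G b a z) = ∑ a, X G b a z • (Pi.single a 1 : Cn N) := by
    ext c
    simp [Finset.sum_apply, Pi.single_apply]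
  rw [h1, map_sum]
  ext c
  have h2 := congrFun (congrFun (Matrix.adjugate_mul (jm G z)) b) c
  rw [Matrix.mul_apply, det_jm] at h2
  simp only [Finset.sum_apply, map_smul, Pi.smul_apply, smul_eq_mul]
  have h3 : (Pi.single b (1 : ℂ) : Cn N) c = (1 : Matrix (Fin N) (Fin N) ℂ) b c := by
    rw [Matrix.one_apply, Pi.single_apply]
    simp only [eq_comm]
  rw [h3]
  exact h2

/-! ### the antilinear part of a real linear form -/

/-- twice the `∂̄`-part of a real linear form -/
def ab (L : Cn N →L[ℝ] ℂ) (v : Cn N) : ℂ := L v + I * L (I • v)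

theorem ab_add (L : Cn N →L[ℝ] ℂ) (v w : Cn N) : ab L (v + w) = ab L v + ab L w := by
  simp only [ab, smul_add, map_add]; ring

theorem ab_add_left (L L' : Cn N →L[ℝ] ℂ) (v : Cn N) : ab (L + L') v = ab L v + ab L' v := by
  simp only [ab, _root_.add_apply]; ring

theorem ab_smul_left (c : ℂ) (L : Cn N →L[ℝ] ℂ) (v : Cn N) : ab (c • L) v = c * ab L v := by
  simp only [ab, _root_.smul_apply, smul_eq_mul]; ring

theorem ab_smul (L : Cn N →L[ℝ] ℂ) (c : ℂ) (v : Cn N) : ab L (c • v) = conj c * ab L v := by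
  have h1 : ∀ w : Cn N, c • w = c.re • w + c.im • (I • w) := by
    intro w
    ext i
    simp only [Pi.smul_apply, Pi.add_apply, smul_eq_mul, real_smul]
    conv_lhs => rw [← re_add_im c]
    ring
  have h2 : I • (c • v) = c.re • (I • v) - c.im • v := by
    ext i
    simp only [Pi.smul_apply, Pi.sub_apply, smul_eq_mul, real_smul]
    conv_lhs => rw [← re_add_im c]
    ring_nf
    rw [I_sq]
    ring
  have e1 : L (c • v) = c.re * L v + c.im * L (I • v) := by
    rw [h1 v, L.map_add, L.map_smul, L.map_smul, real_smul, real_smul]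
  have e2 : L (I • (c • v)) = c.re * L (I • v) - c.im * L v := by
    rw [h2, L.map_sub, L.map_smul, L.map_smul, real_smul, real_smul]
  have h3 : conj c = (c.re : ℂ) - c.im * I := by
    apply Complex.ext <;> simp
  unfold ab
  rw [e1, e2, h3]
  linear_combination ((c.im : ℂ) * L (I • v)) * I_sq

theorem ab_sum {ι : Type*} (s : Finset ι) (L : Cn N →L[ℝ] ℂ) (f : ι → Cn N) :
    ab L (∑ i ∈ s, f i) = ∑ i ∈ s, ab L (f i) := by
  classical
  induction s using Finset.induction_on with
  | empty => simp [ab]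
  | insert i s hi ih => rw [Finset.sum_insert hi, Finset.sum_insert hi, ab_add, ih]

theorem ab_vec (L : Cn N →L[ℝ] ℂ) (v : Cn N) :
    ab L v = ∑ a, conj (v a) * ab L (Pi.single a 1) := by
  have h1 : v = ∑ a, v a • (Pi.single a 1 : Cn N) := by
    ext c
    simp [Finset.sum_apply, Pi.single_apply]
  conv_lhs => rw [h1]
  rw [ab_sum]
  exact Finset.sum_congr rfl fun a _ => ab_smul _ _ _

theorem ab_comp (L : Cn N →L[ℝ] ℂ) (A : Cn N →L[ℂ] Cn N) (v : Cn N) :
    ab (L.comp (A.restrictScalars ℝ)) v = ab L (A v) := by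
  simp [ab]

theorem ab_holo {f : Cn N → ℂ} {z : Cn N} (hf : DifferentiableAt ℂ f z) (v : Cn N) :
    ab (fderiv ℝ f z) v = 0 := by
  unfold ab
  rw [fderiv_real_smul_I hf, smul_eq_mul, ← mul_assoc, I_mul_I]
  ring

theorem ab_conj {f : Cn N → ℂ} {z : Cn N} (hf : DifferentiableAt ℂ f z) (v : Cn N) :
    ab (fderiv ℝ (fun w => conj (f w)) z) v = 2 * conj (fderiv ℂ f z v) := by
  have h1 : HasFDerivAt (fun w => conj (f w))
      ((conjCLE : ℂ →L[ℝ] ℂ).comp (fderiv ℝ f z)) z :=
    (conjCLE : ℂ →L[ℝ] ℂ).hasFDerivAt.comp z (hf.restrictScalars ℝ).hasFDerivAt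
  rw [h1.fderiv]
  simp only [ab, ContinuousLinearMap.comp_apply, fderiv_real_smul_I hf, fderiv_real_eq hf]
  simp only [ContinuousLinearEquiv.coe_coe, conjCLE_apply, smul_eq_mul, map_mul, conj_I]
  ring_nf
  rw [I_sq]
  ring

theorem ab_mul {f g : Cn N → ℂ} {z : Cn N} (hf : DifferentiableAt ℝ f z)
    (hg : DifferentiableAt ℝ g z) (v : Cn N) :
    ab (fderiv ℝ (fun w => f w * g w) z) v =
      f z * ab (fderiv ℝ g z) v + g z * ab (fderiv ℝ f z) v := by
  rw [show (fun w => f w * g w) = f * g from rfl, fderiv_mul hf hg, ab_add_left, ab_smul_left,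
    ab_smul_left]

/-- no boundary terms -/
theorem int_fderiv_zero {Φ : Cn N → ℂ} (hΦ : ContDiff ℝ 1 Φ) (hc : HasCompactSupport Φ)
    (v : Cn N) : ∫ z, fderiv ℝ Φ z v = 0 := by
  have hi : Integrable (fun z => fderiv ℝ Φ z v) := by
    refine Continuous.integrable_of_hasCompactSupport ?_ ?_
    · exact (hΦ.continuous_fderiv (by norm_num)).clm_apply continuous_const
    · exact (hc.fderiv ℝ).comp_left (g := fun L : Cn N →L[ℝ] ℂ => L v) (by simp)
  have h := integral_mul_fderiv_eq_neg_fderiv_mul_of_integrable (μ := (volume : Measure (Cn N)))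
    (f := fun _ : Cn N => (1 : ℂ)) (g := Φ) (v := v) (by simp) (by simpa using hi)
    (by simpa using hΦ.continuous.integrable_of_hasCompactSupport hc)
    (fun x _ => differentiableAt_const _) (fun x _ => (hΦ.differentiable (by norm_num)) x)
  simpa using h

theorem int_ab_zero {Φ : Cn N → ℂ} (hΦ : ContDiff ℝ 1 Φ) (hc : HasCompactSupport Φ)
    (v : Cn N) : Integrable (fun z => ab (fderiv ℝ Φ z) v) ∧ ∫ z, ab (fderiv ℝ Φ z) v = 0 := by
  have hi : ∀ v, Integrable (fun z => fderiv ℝ Φ z v) := by
    intro v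
    refine Continuous.integrable_of_hasCompactSupport ?_ ?_
    · exact (hΦ.continuous_fderiv (by norm_num)).clm_apply continuous_const
    · exact (hc.fderiv ℝ).comp_left (g := fun L : Cn N →L[ℝ] ℂ => L v) (by simp)
  refine ⟨(hi v).add ((hi (I • v)).const_mul I), ?_⟩
  unfold ab
  rw [integral_add (hi v) ((hi (I • v)).const_mul I), integral_const_mul, int_fderiv_zero hΦ hc,
    int_fderiv_zero hΦ hc]
  simp

theorem integrableOn_of_compact {F : Type*} [NormedAddCommGroup F] {W K : Set (Cn N)}
    (hW : IsOpen W) (hK : IsCompact K) (hKW : K ⊆ W) {f : Cn N → F} (hf : ContinuousOn f W)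
    (h0 : ∀ z ∈ W, z ∉ K → f z = 0) : IntegrableOn f W :=
  ((hf.mono hKW).integrableOn_compact hK).of_forall_sdiff_eq_zero hW.measurableSet
    fun z hz => h0 z hz.1 hz.2

/-- **the key identity**, coordinate directions -/
theorem key_coord (hW : IsOpen W) (hG : DifferentiableOn ℂ G W) {h : Cn N → ℂ}
    (hh : DifferentiableOn ℂ h W) {φ : Cn N → ℂ} (hφ : ContDiff ℝ ∞ φ)
    (hK : IsCompact (W ∩ G ⁻¹' (tsupport φ))) (b : Fin N) :
    ∫ z in W, h z * (J G z * conj (J G z)) * ab (fderiv ℝ φ (G z)) (Pi.single b 1) = 0 := by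
  classical
  have hGa : AnalyticOnNhd ℂ G W := analyticOnNhd_of_differentiableOn hW hG
  have hha : AnalyticOnNhd ℂ h W := analyticOnNhd_of_differentiableOn hW hh
  have hJa : AnalyticOnNhd ℂ (J G) W :=
    analyticOnNhd_of_differentiableOn hW (J_differentiableOn hW hG)
  have hXa : ∀ a, AnalyticOnNhd ℂ (X G b a) W := fun a =>
    analyticOnNhd_of_differentiableOn hW (X_differentiableOn hW hG b a)
  -- the local functions
  set P : Fin N → Cn N → ℂ := fun a z => h z * J G z * conj (X G b a z) with hP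
  set Φ : Fin N → Cn N → ℂ := fun a => W.indicator fun z => φ (G z) * P a z with hΦ
  set K := W ∩ G ⁻¹' (tsupport φ) with hKdef
  have hsm : ∀ {f : Cn N → ℂ}, AnalyticOnNhd ℂ f W → ∀ z ∈ W, ContDiffAt ℝ ∞ f z := by
    intro f hf z hz
    exact ((hf z hz).contDiffAt (n := ∞)).restrict_scalars ℝ
  have hGs : ∀ z ∈ W, ContDiffAt ℝ ∞ G z := fun z hz =>
    ((hGa z hz).contDiffAt (n := ∞)).restrict_scalars ℝ
  have hPs : ∀ a, ∀ z ∈ W, ContDiffAt ℝ ∞ (P a) z := by
    intro a z hz
    refine ((hsm hha z hz).mul (hsm hJa z hz)).mul ?_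
    exact (conjCLE : ℂ →L[ℝ] ℂ).contDiff.contDiffAt.comp z (hsm (hXa a) z hz)
  have hφG : ∀ z ∈ W, ContDiffAt ℝ ∞ (fun z => φ (G z)) z := fun z hz =>
    (hφ.contDiffAt).comp z (hGs z hz)
  have hloc : ∀ a, ∀ z ∈ W, Φ a =ᶠ[𝓝 z] fun z => φ (G z) * P a z := by
    intro a z hz
    filter_upwards [hW.mem_nhds hz] with w hw
    rw [hΦ]
    exact indicator_of_mem hw _
  have hzero : ∀ a, ∀ z, z ∉ K → Φ a z = 0 := by
    intro a z hz
    by_cases hzW : z ∈ W
    · rw [hΦ]
      simp only [indicator_of_mem hzW]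
      have : G z ∉ tsupport φ := fun hcon => hz ⟨hzW, hcon⟩
      rw [image_eq_zero_of_notMem_tsupport this, zero_mul]
    · exact indicator_of_notMem hzW _
  have hoff : ∀ a, ∀ z, z ∉ K → Φ a =ᶠ[𝓝 z] 0 := by
    intro a z hz
    filter_upwards [hK.isClosed.isOpen_compl.mem_nhds hz] with w hw using hzero a w hw
  have hΦs : ∀ a, ContDiff ℝ ∞ (Φ a) := by
    intro a
    rw [contDiff_iff_contDiffAt]
    intro z
    by_cases hz : z ∈ W
    · exact ((hφG z hz).mul (hPs a z hz)).congr_of_eventuallyEq (hloc a z hz)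
    · exact contDiffAt_const.congr_of_eventuallyEq (hoff a z fun hcon => hz hcon.1)
  have hΦc : ∀ a, HasCompactSupport (Φ a) := fun a => HasCompactSupport.intro hK (hzero a)
  have hpt : ∀ z, W.indicator
      (fun z => h z * (J G z * conj (J G z)) * ab (fderiv ℝ φ (G z)) (Pi.single b 1)) z =
      ∑ a, ab (fderiv ℝ (Φ a) z) (Pi.single a 1) := by
    intro z
    by_cases hz : z ∈ W
    · rw [indicator_of_mem hz]
      have h1 : ∀ a, ab (fderiv ℝ (Φ a) z) (Pi.single a 1) =
          h z * J G z * (conj (X G b a z) * ab (fderiv ℝ (fun z => φ (G z)) z) (Pi.single a 1)) +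
            φ (G z) * (h z * J G z) * (2 * conj (pd a (X G b a) z)) := by
        intro a
        have hd1 : DifferentiableAt ℝ (fun z => h z * J G z) z :=
          ((hsm hha z hz).mul (hsm hJa z hz)).differentiableAt (by simp)
        have hd2 : DifferentiableAt ℝ (fun z => conj (X G b a z)) z :=
          ((conjCLE : ℂ →L[ℝ] ℂ).contDiff.contDiffAt.comp z (hsm (hXa a) z hz)).differentiableAt
            (by simp)
        rw [(hloc a z hz).fderiv_eq, ab_mul ((hφG z hz).differentiableAt (by simp))
          ((hPs a z hz).differentiableAt (by simp)), hP]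
        simp only
        rw [ab_mul hd1 hd2, ab_conj (hXa a z hz).differentiableAt,
          ab_holo (f := fun z => h z * J G z)
            ((hha z hz).differentiableAt.mul (hJa z hz).differentiableAt)]
        unfold pd
        ring
      rw [Finset.sum_congr rfl fun a _ => h1 a, Finset.sum_add_distrib, ← Finset.mul_sum,
        ← Finset.mul_sum, ← Finset.mul_sum, ← map_sum, div_X hW hG hz]
      have h2 : fderiv ℝ (fun z => φ (G z)) z =
          (fderiv ℝ φ (G z)).comp ((fderiv ℂ G z).restrictScalars ℝ) := by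
        have h3 := (hφ.differentiable (by simp) (G z)).hasFDerivAt.comp z
          ((hGa z hz).differentiableAt.hasFDerivAt.restrictScalars ℝ)
        exact h3.fderiv
      have h4 := ab_vec (fderiv ℝ (fun z => φ (G z)) z) (fun a => X G b a z)
      rw [← h4, h2, ab_comp, fderiv_X, ab_smul]
      simp
      ring
    · rw [indicator_of_notMem hz]
      symm
      refine Finset.sum_eq_zero fun a _ => ?_
      rw [(hoff a z fun hcon => hz hcon.1).fderiv_eq]
      simp [ab]
  rw [← integral_indicator hW.measurableSet]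
  simp only [hpt]
  rw [integral_finsetSum _ fun a _ => (int_ab_zero ((hΦs a).of_le (by simp)) (hΦc a) _).1]
  exact Finset.sum_eq_zero fun a _ => (int_ab_zero ((hΦs a).of_le (by simp)) (hΦc a) _).2

/-- **the key identity** -/
theorem key (hW : IsOpen W) (hG : DifferentiableOn ℂ G W) {h : Cn N → ℂ}
    (hh : DifferentiableOn ℂ h W) {φ : Cn N → ℂ} (hφ : ContDiff ℝ ∞ φ)
    (hK : IsCompact (W ∩ G ⁻¹' (tsupport φ))) (v : Cn N) :
    ∫ z in W, h z * (J G z * conj (J G z)) * ab (fderiv ℝ φ (G z)) v = 0 := by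
  classical
  have hint : ∀ b, Integrable (fun z => h z * (J G z * conj (J G z)) *
      ab (fderiv ℝ φ (G z)) (Pi.single b 1)) (volume.restrict W) := by
    intro b
    refine integrableOn_of_compact hW hK inter_subset_left ?_ ?_
    · have h1 : ContinuousOn (J G) W := (J_differentiableOn hW hG).continuousOn
      have h2 : ContinuousOn (fun z => fderiv ℝ φ (G z)) W :=
        (hφ.continuous_fderiv (by simp)).comp_continuousOn hG.continuousOn
      have h3 : ∀ v, ContinuousOn (fun z => fderiv ℝ φ (G z) v) W := fun v =>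
        h2.clm_apply continuousOn_const
      have h4 : ContinuousOn (fun z => conj (J G z)) W :=
        continuous_conj.comp_continuousOn h1
      exact (hh.continuousOn.mul (h1.mul h4)).mul
        ((h3 _).add (continuousOn_const.mul (h3 _)))
    · intro z hz hzK
      have h1 : G z ∉ tsupport φ := fun hcon => hzK ⟨hz, hcon⟩
      have h2 : fderiv ℝ φ (G z) = 0 := by
        rw [(notMem_tsupport_iff_eventuallyEq.1 h1).fderiv_eq]
        simp
      rw [h2]
      simp [ab]
  have h1 : ∀ z, h z * (J G z * conj (J G z)) * ab (fderiv ℝ φ (G z)) v =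
      ∑ b, conj (v b) * (h z * (J G z * conj (J G z)) *
        ab (fderiv ℝ φ (G z)) (Pi.single b 1)) := by
    intro z
    rw [ab_vec _ v, Finset.mul_sum]
    exact Finset.sum_congr rfl fun b _ => by ring
  simp only [h1]
  rw [integral_finsetSum _ fun b _ => (hint b).const_mul _]
  refine Finset.sum_eq_zero fun b _ => ?_
  rw [integral_const_mul, key_coord hW hG hh hφ hK, mul_zero]

end Crest.Agent.R281.Fr2_316
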