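import Crest.Agent.R281.Fr2_316
import Crest.Agent.R264.Berg1

/-!
# Row 281, leaf S6-FRAME (helper316), part 3: smooth kernels, smoothed traces
-/

set_option autoImplicit false
set_option linter.unusedSectionVars false

open Set Filter Topology MeasureTheory Complex Metric
open scoped ContDiff ComplexConjugate Real

noncomputable section

namespace Crest.Agent.R281.Fr2_316

open Crest.Agent.R266.SCV

variable {N : ℕ}

/-- rotation invariant smooth kernels of total mass one, supported in the ball of radius `ε` -/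
structure Ker (φ : Cn N → ℂ) (ε : ℝ) : Prop where
  smooth : ContDiff ℝ ∞ φ
  supp : ∀ w, ε ≤ ‖w‖ → φ w = 0
  rot : ∀ (c : Circle) (w : Cn N), φ ((c : ℂ) • w) = φ w
  real : ∀ w, conj (φ w) = φ w
  int : ∫ w, φ w = 1

/-- unnormalised kernel -/
def ker0 (ε : ℝ) (w : Cn N) : ℝ := ∏ k, Real.smoothTransition (1 - ‖w k‖ ^ 2 / ε ^ 2)

theorem ker0_smooth (ε : ℝ) : ContDiff ℝ ∞ (ker0 (N := N) ε) := by
  unfold ker0
  refine contDiff_prod fun k _ => ?_
  refine Real.smoothTransition.contDiff.comp ?_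
  have h1 : ContDiff ℝ ∞ (fun w : Cn N => ‖w k‖ ^ 2) := by
    have : ContDiff ℝ ∞ (fun w : Cn N => w k) := by fun_prop
    exact this.norm_sq ℝ
  exact contDiff_const.sub (h1.div_const _)

theorem ker0_nonneg (ε : ℝ) (w : Cn N) : 0 ≤ ker0 ε w :=
  Finset.prod_nonneg fun _ _ => Real.smoothTransition.nonneg _

theorem ker0_supp {ε : ℝ} (hε : 0 < ε) (hN : 0 < N) (w : Cn N) (hw : ε ≤ ‖w‖) : ker0 ε w = 0 := by
  have hne : Nonempty (Fin N) := ⟨⟨0, hN⟩⟩
  obtain ⟨k, hk⟩ : ∃ k, ε ≤ ‖w k‖ := by
    by_contra hcon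
    push Not at hcon
    exact absurd hw (not_le.2 ((pi_norm_lt_iff hε).2 hcon))
  refine Finset.prod_eq_zero (Finset.mem_univ k) ?_
  apply Real.smoothTransition.zero_of_nonpos
  rw [sub_nonpos, le_div_iff₀ (by positivity), one_mul]
  exact pow_le_pow_left₀ hε.le hk 2

theorem ker0_rot (ε : ℝ) (c : Circle) (w : Cn N) : ker0 ε ((c : ℂ) • w) = ker0 ε w := by
  unfold ker0
  simp [Circle.norm_coe]

theorem ker0_pos (ε : ℝ) : 0 < ker0 ε (0 : Cn N) := by
  unfold ker0
  refine Finset.prod_pos fun k _ => ?_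
  apply Real.smoothTransition.pos_of_pos
  simp

theorem ker0_compact {ε : ℝ} (hε : 0 < ε) (hN : 0 < N) : HasCompactSupport (ker0 (N := N) ε) :=
  HasCompactSupport.intro (isCompact_closedBall (0 : Cn N) ε) fun w hw =>
    ker0_supp hε hN w (by
      rw [mem_closedBall_zero_iff, not_le] at hw
      exact hw.le)

theorem exists_ker (hN : 0 < N) {ε : ℝ} (hε : 0 < ε) : ∃ φ : Cn N → ℂ, Ker φ ε := by
  have hc : Continuous (ker0 (N := N) ε) := (ker0_smooth ε).continuous
  have hi : Integrable (ker0 (N := N) ε) := hc.integrable_of_hasCompactSupport (ker0_compact hε hN)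
  have hpos : 0 < ∫ w, ker0 (N := N) ε w := by
    refine hc.integral_pos_of_hasCompactSupport_nonneg_nonzero (ker0_compact hε hN)
      (ker0_nonneg ε) (x := 0) (ker0_pos ε).ne'
  set c := ∫ w, ker0 (N := N) ε w with hcdef
  refine ⟨fun w => ((c⁻¹ * ker0 ε w : ℝ) : ℂ), ?_, ?_, ?_, ?_, ?_⟩
  · exact ofRealCLM.contDiff.comp (contDiff_const.mul (ker0_smooth ε))
  · intro w hw
    rw [ker0_supp hε hN w hw]
    simp
  · intro c w
    simp only [ker0_rot]
  · intro w
    simp
  · rw [integral_complex_ofReal, integral_const_mul, ← hcdef, inv_mul_cancel₀ hpos.ne']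
    simp

theorem Ker.compact {φ : Cn N → ℂ} {ε : ℝ} (h : Ker φ ε) : HasCompactSupport φ :=
  HasCompactSupport.intro (isCompact_closedBall (0 : Cn N) ε) fun w hw =>
    h.supp w (by
      rw [mem_closedBall_zero_iff, not_le] at hw
      exact hw.le)

/-- mean value property for kernels -/
theorem Ker.mv {φ : Cn N → ℂ} {ε : ℝ} (hφ : Ker φ ε) {f : Cn N → ℂ} {x : Cn N} {D : Set (Cn N)}
    (hD : IsOpen D) (hf : DifferentiableOn ℂ f D) (hB : closedBall x ε ⊆ D) :
    ∫ y, φ y * f (x + y) = f x := by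
  set B : Set (Cn N) := closedBall 0 ε with hBdef
  have hBc : IsCompact B := isCompact_closedBall _ _
  have hmem : ∀ (ζ : ℂ), ‖ζ‖ ≤ 1 → ∀ y ∈ B, x + ζ • y ∈ D := by
    intro ζ hζ y hy
    apply hB
    rw [mem_closedBall, dist_eq_norm, add_sub_cancel_left, norm_smul]
    have : ‖y‖ ≤ ε := by simpa [hBdef] using hy
    nlinarith [norm_nonneg y, norm_nonneg ζ]
  -- inner average
  have havg : ∀ y ∈ B, ∫ θ in (0 : ℝ)..2 * π, φ y * f (x + (circleMap 0 1 θ) • y)
      = (2 * π) • (φ y * f x) := by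
    intro y hy
    have hd : ∀ ζ ∈ closedBall (0 : ℂ) 1, DifferentiableAt ℂ (fun ζ : ℂ => f (x + ζ • y)) ζ := by
      intro ζ hζ
      have h1 : DifferentiableAt ℂ f (x + ζ • y) :=
        hf.differentiableAt (hD.mem_nhds (hmem ζ (by simpa using hζ) y hy))
      exact h1.comp ζ (f := fun ζ : ℂ => x + ζ • y) (by fun_prop)
    have hdc : DiffContOnCl ℂ (fun ζ : ℂ => f (x + ζ • y)) (ball 0 |(1 : ℝ)|) := by
      apply DifferentiableOn.diffContOnCl
      intro ζ hζ
      exact (hd ζ (by simpa using closure_ball_subset_closedBall hζ)).differentiableWithinAt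
    have h2 := hdc.circleAverage
    rw [Real.circleAverage_def] at h2
    simp only [zero_smul, add_zero] at h2
    rw [intervalIntegral.integral_const_mul, ← h2]
    simp only [real_smul]
    push_cast
    field_simp
  have hcont : ContinuousOn (fun p : ℝ × (Cn N) => φ p.2 * f (x + (circleMap 0 1 p.1) • p.2))
      (Icc 0 (2 * π) ×ˢ B) := by
    refine (hφ.smooth.continuous.comp_continuousOn continuousOn_snd).mul
      (hf.continuousOn.comp (by fun_prop) ?_)
    rintro ⟨θ, y⟩ ⟨-, hy⟩
    exact hmem _ (by simp [circleMap]) y hy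
  have hint : IntegrableOn (fun p : ℝ × (Cn N) => φ p.2 * f (x + (circleMap 0 1 p.1) • p.2))
      (Icc 0 (2 * π) ×ˢ B) (volume.prod volume) :=
    hcont.integrableOn_compact (isCompact_Icc.prod hBc)
  have hint' : Integrable (Function.uncurry
      (fun (θ : ℝ) (y : Cn N) => φ y * f (x + (circleMap 0 1 θ) • y)))
      ((volume.restrict (Icc 0 (2 * π))).prod (volume.restrict B)) := by
    rw [Measure.prod_restrict]
    exact hint
  have hswap := integral_integral_swap hint'
  -- left side: constant in θ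
  have hL : ∀ θ : ℝ, ∫ y in B, φ y * f (x + (circleMap 0 1 θ) • y) = ∫ y in B, φ y * f (x + y) := by
    intro θ
    have h1 : circleMap 0 1 θ = ((Circle.exp θ : Circle) : ℂ) := by
      simp [circleMap]
    rw [h1]
    have h2 := Crest.Agent.R264.Berg.setIntegral_rot (g := fun y => φ y * f (x + y))
      (Circle.exp θ) ε
    simpa only [hφ.rot] using h2
  simp only [hL] at hswap
  have h3 : ∫ _θ in Icc 0 (2 * π), ∫ y in B, φ y * f (x + y)
      = (2 * π) • ∫ y in B, φ y * f (x + y) := by
    rw [integral_const]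
    congr 1
    rw [Measure.real, Measure.restrict_apply_univ, Real.volume_Icc,
      ENNReal.toReal_ofReal (by linarith [Real.pi_pos])]
    ring
  rw [h3] at hswap
  have h4 : ∫ y in B, (∫ θ in Icc 0 (2 * π), φ y * f (x + (circleMap 0 1 θ) • y))
      = ∫ y in B, (2 * π) • (φ y * f x) := by
    refine setIntegral_congr_fun hBc.measurableSet (fun y hy => ?_)
    have := havg y hy
    rw [intervalIntegral.integral_of_le (by positivity)] at this
    rw [integral_Icc_eq_integral_Ioc, this]
  rw [h4, integral_smul] at hswap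
  have h6 : (2 * π : ℝ) ≠ 0 := by positivity
  have h7 := smul_right_injective ℂ h6 hswap
  have h8 : ∀ g : Cn N → ℂ, ∫ y in B, φ y * g y = ∫ y, φ y * g y := by
    intro g
    refine setIntegral_eq_integral_of_forall_compl_eq_zero fun y hy => ?_
    rw [hφ.supp y, zero_mul]
    rw [hBdef, mem_closedBall_zero_iff, not_le] at hy
    exact hy.le
  rw [h8 (fun y => f (x + y)), h8 (fun _ => f x), integral_mul_const, hφ.int, one_mul] at h7
  exact h7

/-! ### smoothed traces -/

/-- `∫_W h |det DG|² φ(G z - ζ) dz` -/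
def S (W : Set (Cn N)) (G : Cn N → Cn N) (h φ : Cn N → ℂ) (ζ : Cn N) : ℂ :=
  ∫ z in W, h z * (J G z * conj (J G z)) * φ (G z - ζ)

variable {W : Set (Cn N)} {G : Cn N → Cn N} {h : Cn N → ℂ}

theorem cont_hJ (hW : IsOpen W) (hG : DifferentiableOn ℂ G W) (hh : DifferentiableOn ℂ h W) :
    ContinuousOn (fun z => h z * (J G z * conj (J G z))) W := by
  have h1 : ContinuousOn (J G) W := (J_differentiableOn hW hG).continuousOn
  exact hh.continuousOn.mul (h1.mul (continuous_conj.comp_continuousOn h1))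

theorem S_integrable (hW : IsOpen W) (hG : DifferentiableOn ℂ G W) (hh : DifferentiableOn ℂ h W)
    {φ : Cn N → ℂ} (hφ : Continuous φ) {ζ : Cn N} {ε : ℝ}
    (h0 : ∀ w, ε ≤ ‖w‖ → φ w = 0) (hK : IsCompact (W ∩ G ⁻¹' closedBall ζ ε)) :
    IntegrableOn (fun z => h z * (J G z * conj (J G z)) * φ (G z - ζ)) W := by
  refine integrableOn_of_compact hW hK inter_subset_left ?_ ?_
  · exact (cont_hJ hW hG hh).mul (hφ.comp_continuousOn (hG.continuousOn.sub continuousOn_const))
  · intro z hz hzK
    have h1 : ε ≤ ‖G z - ζ‖ := by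
      by_contra hcon
      exact hzK ⟨hz, by rw [mem_preimage, mem_closedBall, dist_eq_norm]; linarith⟩
    rw [h0 _ h1, mul_zero]

theorem compact_mono (hG : ContinuousOn G W) {ζ : Cn N} {R : ℝ}
    (hK : IsCompact (W ∩ G ⁻¹' closedBall ζ R)) {C : Set (Cn N)} (hC : IsClosed C)
    (hCR : C ⊆ closedBall ζ R) : IsCompact (W ∩ G ⁻¹' C) := by
  have h1 : W ∩ G ⁻¹' C = (W ∩ G ⁻¹' closedBall ζ R) ∩ G ⁻¹' C := by
    ext z
    simp only [mem_inter_iff, mem_preimage]
    exact ⟨fun ⟨a, b⟩ => ⟨⟨a, hCR b⟩, b⟩, fun ⟨⟨a, _⟩, b⟩ => ⟨a, b⟩⟩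
  rw [h1]
  exact hK.of_isClosed_subset
    ((hG.mono inter_subset_left).preimage_isClosed_of_isClosed hK.isClosed hC) inter_subset_left

theorem S_hol (hW : IsOpen W) (hG : DifferentiableOn ℂ G W) (hh : DifferentiableOn ℂ h W)
    {φ : Cn N → ℂ} (hφ : ContDiff ℝ ∞ φ) {ε R : ℝ} (h0 : ∀ w, ε ≤ ‖w‖ → φ w = 0) {ζ : Cn N}
    (hεR : ε < R) (hK : IsCompact (W ∩ G ⁻¹' closedBall ζ R)) :
    DifferentiableAt ℂ (S W G h φ) ζ := by
  set c : Cn N → ℂ := fun z => h z * (J G z * conj (J G z)) with hc
  have hcc : ContinuousOn c W := cont_hJ hW hG hh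
  have hφc : HasCompactSupport φ :=
    HasCompactSupport.intro (isCompact_closedBall (0 : Cn N) ε) fun w hw =>
      h0 w (by
        rw [mem_closedBall_zero_iff, not_le] at hw
        exact hw.le)
  have hφd : Differentiable ℝ φ := hφ.differentiable (by simp)
  have hDφ : Continuous (fderiv ℝ φ) := hφ.continuous_fderiv (by simp)
  obtain ⟨C, hC⟩ := hDφ.bounded_above_of_compact_support (hφc.fderiv ℝ)
  have hD0 : ∀ w, ε < ‖w‖ → fderiv ℝ φ w = 0 := by
    intro w hw
    have h1 : φ =ᶠ[𝓝 w] fun _ => 0 := by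
      have : ∀ᶠ y in 𝓝 w, ε < ‖y‖ := continuous_norm.continuousAt.eventually (lt_mem_nhds hw)
      filter_upwards [this] with y hy using h0 y hy.le
    rw [h1.fderiv_eq]
    simp
  set K := W ∩ G ⁻¹' closedBall ζ R with hKdef
  set s := ball ζ (R - ε) with hs
  have hfar : ∀ η ∈ s, ∀ z ∈ W, z ∉ K → ε < ‖G z - η‖ := by
    intro η hη z hz hzK
    by_contra hcon
    push Not at hcon
    apply hzK
    refine ⟨hz, ?_⟩
    rw [mem_preimage, mem_closedBall]
    rw [hs, mem_ball] at hη
    calc dist (G z) ζ ≤ dist (G z) η + dist η ζ := dist_triangle _ _ _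
      _ ≤ R := by rw [dist_eq_norm (G z) η]; linarith
  set F : Cn N → Cn N → ℂ := fun η z => c z * φ (G z - η) with hF
  set F' : Cn N → Cn N → (Cn N →L[ℝ] ℂ) := fun η z => c z • (-(fderiv ℝ φ (G z - η))) with hF'
  have hcF : ∀ η, ContinuousOn (F η) W := fun η =>
    hcc.mul (hφ.continuous.comp_continuousOn (hG.continuousOn.sub continuousOn_const))
  have hcF' : ∀ η, ContinuousOn (F' η) W := fun η =>
    hcc.smul ((hDφ.comp_continuousOn (hG.continuousOn.sub continuousOn_const)).neg)
  have hiF : ∀ η ∈ s, IntegrableOn (F η) W := fun η hη =>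
    integrableOn_of_compact hW hK inter_subset_left (hcF η) fun z hz hzK => by
      simp only [hF]
      rw [h0 _ (hfar η hη z hz hzK).le, mul_zero]
  have hiF' : ∀ η ∈ s, IntegrableOn (F' η) W := fun η hη =>
    integrableOn_of_compact hW hK inter_subset_left (hcF' η) fun z hz hzK => by
      simp only [hF']
      rw [hD0 _ (hfar η hη z hz hzK)]
      ext v
      simp
  have hζs : ζ ∈ s := mem_ball_self (by linarith)
  have hmain : HasFDerivAt (fun η => ∫ z in W, F η z) (∫ z in W, F' ζ z) ζ := by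
    refine hasFDerivAt_integral_of_dominated_of_fderiv_le (𝕜 := ℝ) (s := s)
      (bound := K.indicator fun z => ‖c z‖ * C) (isOpen_ball.mem_nhds hζs) ?_ (hiF ζ hζs)
      (hiF' ζ hζs).aestronglyMeasurable ?_ ?_ ?_
    · filter_upwards [isOpen_ball.mem_nhds hζs] with η hη
      exact (hiF η hη).aestronglyMeasurable
    · filter_upwards [self_mem_ae_restrict hW.measurableSet] with z hz η hη
      by_cases hzK : z ∈ K
      · rw [indicator_of_mem hzK]
        simp only [hF']
        rw [norm_smul, norm_neg]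
        exact mul_le_mul_of_nonneg_left (hC _) (norm_nonneg _)
      · rw [indicator_of_notMem hzK]
        simp only [hF']
        rw [hD0 _ (hfar η hη z hz hzK)]
        have h0' : c z • (-(0 : Cn N →L[ℝ] ℂ)) = 0 := by
          ext v
          simp
        rw [h0', norm_zero]
    · refine Integrable.mono_measure ?_ Measure.restrict_le_self
      rw [integrable_indicator_iff hK.measurableSet]
      exact ((hcc.mono inter_subset_left).norm.mul continuousOn_const).integrableOn_compact hK
    · filter_upwards with z η hη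
      simp only [hF, hF']
      have h1 : HasFDerivAt (fun η => φ (G z - η)) (-(fderiv ℝ φ (G z - η))) η := by
        have h2 := (hφd (G z - η)).hasFDerivAt.comp η ((hasFDerivAt_id η).const_sub (G z))
        refine h2.congr_fderiv ?_
        ext v
        simp
      exact h1.const_mul (c z)
  have hS : S W G h φ = fun η => ∫ z in W, F η z := rfl
  rw [hS]
  refine differentiableAt_complex_of_real hmain.differentiableAt fun v => ?_
  rw [hmain.fderiv]
  have happ : ∀ v, (∫ z in W, F' ζ z) v = ∫ z in W, F' ζ z v := fun v =>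
    ContinuousLinearMap.integral_apply (hiF' ζ hζs) v
  rw [happ, happ, smul_eq_mul]
  -- the key identity
  set ψ : Cn N → ℂ := fun w => φ (w - ζ) with hψ
  have hψs : ContDiff ℝ ∞ ψ := hφ.comp (contDiff_id.sub contDiff_const)
  have hψd : ∀ w, fderiv ℝ ψ w = fderiv ℝ φ (w - ζ) := by
    intro w
    rw [hψ, fderiv_comp_sub]
  have hts : tsupport ψ ⊆ closedBall ζ R := by
    refine closure_minimal ?_ isClosed_closedBall
    intro w hw
    by_contra hcon
    apply hw
    rw [mem_closedBall, dist_eq_norm, not_le] at hcon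
    exact h0 _ (by linarith)
  have hkey := key hW hG hh hψs
    (compact_mono hG.continuousOn hK (isClosed_tsupport ψ) hts) v
  have h1 : ∀ z, h z * (J G z * conj (J G z)) * ab (fderiv ℝ ψ (G z)) v =
      -(F' ζ z v) + -(I * F' ζ z (I • v)) := by
    intro z
    simp only [hψd, ab, hF', hc, _root_.smul_apply, _root_.neg_apply, smul_eq_mul]
    ring
  simp only [h1] at hkey
  have hi : ∀ v, Integrable (fun z => F' ζ z v) (volume.restrict W) := fun v =>
    (hiF' ζ hζs).apply_continuousLinearMap v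
  have h2 := integral_add (f := fun z => -(F' ζ z v)) (g := fun z => -(I * F' ζ z (I • v)))
    (hi v).neg ((hi (I • v)).const_mul I).neg
  rw [h2, integral_neg, integral_neg, integral_const_mul] at hkey
  linear_combination I * hkey + (∫ z in W, F' ζ z (I • v)) * I_sq

end Crest.Agent.R281.Fr2_316
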