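import Crest.Agent.R281.Fr3_316

/-!
# Row 281, leaf S6-FRAME (helper316), part 4: traces of holomorphic functions under a proper
holomorphic map between open subsets of `ℂ^N`
-/

set_option autoImplicit false
set_option linter.unusedSectionVars false

open Set Filter Topology MeasureTheory Complex Metric
open scoped ContDiff ComplexConjugate Real

noncomputable section

namespace Crest.Agent.R281.Fr2_316

open Crest.Agent.R266.SCV

variable {N : ℕ} {W D : Set (Cn N)} {G : Cn N → Cn N} {h : Cn N → ℂ}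

theorem conv_swap (hW : IsOpen W) (hG : DifferentiableOn ℂ G W) (hh : DifferentiableOn ℂ h W)
    {φ₁ φ₂ : Cn N → ℂ} {ε₁ ε₂ R : ℝ} (h1 : Ker φ₁ ε₁) (h2 : Ker φ₂ ε₂) (hε : ε₁ + ε₂ ≤ R)
    {ζ : Cn N} (hK : IsCompact (W ∩ G ⁻¹' closedBall ζ R)) :
    ∫ w, φ₂ w * S W G h φ₁ (ζ + w) =
      ∫ z in W, h z * (J G z * conj (J G z)) * ∫ w, φ₂ w * φ₁ (G z - ζ - w) := by
  set c : Cn N → ℂ := fun z => h z * (J G z * conj (J G z)) with hc
  have hcc : ContinuousOn c W := cont_hJ hW hG hh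
  set K := W ∩ G ⁻¹' closedBall ζ R with hKdef
  set B : Set (Cn N) := closedBall 0 ε₂ with hB
  have hBc : IsCompact B := isCompact_closedBall _ _
  have hi : Integrable (Function.uncurry fun (w z : Cn N) => φ₂ w * (c z * φ₁ (G z - (ζ + w))))
      (volume.prod (volume.restrict W)) := by
    have e : (volume : Measure (Cn N)).prod ((volume : Measure (Cn N)).restrict W) =
        ((volume : Measure (Cn N)).prod (volume : Measure (Cn N))).restrict (univ ×ˢ W) := by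
      rw [← Measure.prod_restrict, Measure.restrict_univ]
    rw [e]
    have hcont : ContinuousOn (Function.uncurry fun (w z : Cn N) =>
        φ₂ w * (c z * φ₁ (G z - (ζ + w)))) (univ ×ˢ W) := by
      refine (h2.smooth.continuous.comp_continuousOn continuousOn_fst).mul ?_
      refine (hcc.comp continuousOn_snd fun p hp => hp.2).mul ?_
      refine h1.smooth.continuous.comp_continuousOn ?_
      exact (hG.continuousOn.comp continuousOn_snd fun p hp => hp.2).sub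
        (continuousOn_const.add continuousOn_fst)
    refine IntegrableOn.of_forall_sdiff_eq_zero (s := B ×ˢ K) ?_
      (MeasurableSet.univ.prod hW.measurableSet) ?_
    · exact (hcont.mono (prod_mono (subset_univ _) inter_subset_left)).integrableOn_compact
        (hBc.prod hK)
    · rintro ⟨w, z⟩ ⟨hwz, hn⟩
      simp only [Function.uncurry]
      by_cases hw : w ∈ B
      · have hzK : z ∉ K := fun hcon => hn ⟨hw, hcon⟩
        have hz : z ∈ W := hwz.2
        have h3 : ε₁ ≤ ‖G z - (ζ + w)‖ := by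
          by_contra hcon
          push Not at hcon
          apply hzK
          refine ⟨hz, ?_⟩
          rw [mem_preimage, mem_closedBall, dist_eq_norm]
          have h4 : ‖w‖ ≤ ε₂ := by simpa [hB] using hw
          calc ‖G z - ζ‖ = ‖(G z - (ζ + w)) + w‖ := by congr 1; abel
            _ ≤ ‖G z - (ζ + w)‖ + ‖w‖ := norm_add_le _ _
            _ ≤ R := by linarith
        rw [h1.supp _ h3]
        simp
      · rw [h2.supp w, zero_mul]
        rw [hB, mem_closedBall_zero_iff, not_le] at hw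
        exact hw.le
  have hsw := integral_integral_swap hi
  have e1 : ∀ w, ∫ z in W, φ₂ w * (c z * φ₁ (G z - (ζ + w))) = φ₂ w * S W G h φ₁ (ζ + w) := by
    intro w
    rw [integral_const_mul]
    rfl
  have e2 : ∀ z, ∫ w, φ₂ w * (c z * φ₁ (G z - (ζ + w))) = c z * ∫ w, φ₂ w * φ₁ (G z - ζ - w) := by
    intro z
    rw [← integral_const_mul]
    refine integral_congr_ae (Eventually.of_forall fun w => ?_)
    simp only [sub_sub]
    ring
  simp only [e1, e2] at hsw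
  exact hsw

theorem S_holOn (hW : IsOpen W) (hG : DifferentiableOn ℂ G W) (hh : DifferentiableOn ℂ h W)
    {φ : Cn N → ℂ} {ε R : ℝ} (hφ : Ker φ ε) {ζ : Cn N}
    (hK : IsCompact (W ∩ G ⁻¹' closedBall ζ R)) :
    DifferentiableOn ℂ (S W G h φ) (ball ζ (R - ε)) := by
  intro η hη
  rw [mem_ball] at hη
  refine (S_hol hW hG hh hφ.smooth hφ.supp (R := R - dist η ζ) (by linarith)
    (compact_mono hG.continuousOn hK isClosed_closedBall
      (closedBall_subset_closedBall' (by linarith)))).differentiableWithinAt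

theorem S_eq_conv (hW : IsOpen W) (hG : DifferentiableOn ℂ G W) (hh : DifferentiableOn ℂ h W)
    {φ₁ φ₂ : Cn N → ℂ} {ε₁ ε₂ R : ℝ} (h1 : Ker φ₁ ε₁) (h2 : Ker φ₂ ε₂) (hε : ε₁ + ε₂ < R)
    {ζ : Cn N} (hK : IsCompact (W ∩ G ⁻¹' closedBall ζ R)) :
    S W G h φ₁ ζ = ∫ z in W, h z * (J G z * conj (J G z)) * ∫ w, φ₂ w * φ₁ (G z - ζ - w) := by
  rw [← conv_swap hW hG hh h1 h2 hε.le hK]
  exact (h2.mv isOpen_ball (S_holOn hW hG hh h1 hK) (closedBall_subset_ball (by linarith))).symm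

/-- independence of the kernel -/
theorem S_indep (hW : IsOpen W) (hG : DifferentiableOn ℂ G W) (hh : DifferentiableOn ℂ h W)
    {φ₁ φ₂ : Cn N → ℂ} {ε₁ ε₂ R : ℝ} (h1 : Ker φ₁ ε₁) (h2 : Ker φ₂ ε₂) (hε : ε₁ + ε₂ < R)
    {ζ : Cn N} (hK : IsCompact (W ∩ G ⁻¹' closedBall ζ R)) :
    S W G h φ₁ ζ = S W G h φ₂ ζ := by
  rw [S_eq_conv hW hG hh h1 h2 hε hK, S_eq_conv hW hG hh h2 h1 (by linarith) hK]
  refine integral_congr_ae (Eventually.of_forall fun z => ?_)
  show _ * _ = _ * _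
  congr 1
  have := integral_sub_left_eq_self (fun w => φ₂ w * φ₁ (G z - ζ - w)) volume (G z - ζ)
  rw [← this]
  refine integral_congr_ae (Eventually.of_forall fun w => ?_)
  simp only [sub_sub_cancel]
  ring

/-! ### regular values -/

/-- `ζ` is a regular value -/
def Reg (W : Set (Cn N)) (G : Cn N → Cn N) (ζ : Cn N) : Prop := ∀ z ∈ W, G z = ζ → J G z ≠ 0

/-- the fibre -/
def Fib (W : Set (Cn N)) (G : Cn N → Cn N) (ζ : Cn N) : Set (Cn N) := W ∩ G ⁻¹' {ζ}

theorem exists_inv (hW : IsOpen W) (hG : DifferentiableOn ℂ G W) {z : Cn N} (hz : z ∈ W)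
    (hJ : J G z ≠ 0) {U : Set (Cn N)} (hU : U ∈ 𝓝 z) :
    ∃ e : OpenPartialHomeomorph (Cn N) (Cn N), z ∈ e.source ∧ e.source ⊆ U ∧ (∀ y, e y = G y) ∧
      AnalyticOnNhd ℂ e e.source ∧ AnalyticOnNhd ℂ e.symm e.target := by
  have hA : AnalyticAt ℂ G z := analyticOnNhd_of_differentiableOn hW hG z hz
  refine exists_analytic_openPartialHomeomorph hA
    ((fderiv ℂ G z).toContinuousLinearEquivOfDetNeZero hJ) ?_ hU
  have := hA.differentiableAt.hasFDerivAt
  exact this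

theorem Fib_finite (hW : IsOpen W) (hG : DifferentiableOn ℂ G W) {ζ : Cn N} {R : ℝ} (hR : 0 ≤ R)
    (hK : IsCompact (W ∩ G ⁻¹' closedBall ζ R)) (hr : Reg W G ζ) : (Fib W G ζ).Finite := by
  classical
  have hc : IsCompact (Fib W G ζ) := compact_mono hG.continuousOn hK isClosed_singleton
    (singleton_subset_iff.2 (mem_closedBall_self hR))
  have h1 : ∀ z : Cn N, ∃ U : Set (Cn N), z ∈ Fib W G ζ → (U ∈ 𝓝 z ∧ U ∩ Fib W G ζ ⊆ {z}) := by
    intro z
    by_cases hz : z ∈ Fib W G ζ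
    · obtain ⟨e, hze, -, heG, -, -⟩ := exists_inv hW hG hz.1 (hr z hz.1 hz.2) (hW.mem_nhds hz.1)
      refine ⟨e.source, fun _ => ⟨e.open_source.mem_nhds hze, ?_⟩⟩
      rintro y ⟨hy, hyF⟩
      refine e.injOn hy hze ?_
      rw [heG, heG, hyF.2, hz.2]
    · exact ⟨univ, fun h => absurd h hz⟩
  choose U hU using h1
  obtain ⟨t, ht, hcov⟩ := hc.elim_nhds_subcover U fun x hx => (hU x hx).1
  refine t.finite_toSet.subset fun z hz => ?_
  obtain ⟨x, hx, hzx⟩ := mem_iUnion₂.1 (hcov hz)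
  have := (hU x (ht x hx)).2 ⟨hzx, hz⟩
  rw [mem_singleton_iff] at this
  rw [this]
  exact hx

/-- local sheets over a neighbourhood of a regular value -/
theorem sheets (hW : IsOpen W) (hG : DifferentiableOn ℂ G W) {ζ : Cn N} {R : ℝ} (hR : 0 < R)
    (hK : IsCompact (W ∩ G ⁻¹' closedBall ζ R)) (hr : Reg W G ζ) :
    ∃ (e : Cn N → OpenPartialHomeomorph (Cn N) (Cn N)) (δ : ℝ), 0 < δ ∧ δ ≤ R ∧
      (∀ z ∈ Fib W G ζ, z ∈ (e z).source ∧ (e z).source ⊆ W ∩ {y | J G y ≠ 0} ∧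
        (∀ y, e z y = G y) ∧
        AnalyticOnNhd ℂ (e z) (e z).source ∧ AnalyticOnNhd ℂ (e z).symm (e z).target ∧
        closedBall ζ δ ⊆ (e z).target) ∧
      ((Fib W G ζ).PairwiseDisjoint fun z => (e z).source) ∧
      ∀ y ∈ W, G y ∈ closedBall ζ δ → ∃ z ∈ Fib W G ζ, y ∈ (e z).source := by
  classical
  have hfin := Fib_finite hW hG hR.le hK hr
  obtain ⟨U, hU, hUd⟩ := hfin.t2_separation
  have h1 : ∀ z : Cn N, ∃ e : OpenPartialHomeomorph (Cn N) (Cn N), z ∈ Fib W G ζ →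
      (z ∈ e.source ∧ e.source ⊆ (W ∩ {y | J G y ≠ 0}) ∩ U z ∧ (∀ y, e y = G y) ∧
      AnalyticOnNhd ℂ e e.source ∧ AnalyticOnNhd ℂ e.symm e.target) := by
    intro z
    by_cases hz : z ∈ Fib W G ζ
    · have hJo : IsOpen (W ∩ {y | J G y ≠ 0}) :=
        (J_differentiableOn hW hG).continuousOn.isOpen_inter_preimage hW
          (isOpen_ne : IsOpen {w : ℂ | w ≠ 0})
      obtain ⟨e, he⟩ := exists_inv hW hG hz.1 (hr z hz.1 hz.2)
        ((hJo.inter (hU z).2).mem_nhds ⟨⟨hz.1, hr z hz.1 hz.2⟩, (hU z).1⟩)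
      exact ⟨e, fun _ => he⟩
    · exact ⟨OpenPartialHomeomorph.refl _, fun h => absurd h hz⟩
  choose e he using h1
  -- the part of the fibre over the ball outside the sheets
  set O : Set (Cn N) := ⋃ z ∈ Fib W G ζ, (e z).source with hO
  have hOo : IsOpen O := isOpen_biUnion fun z _ => (e z).open_source
  have hC : IsCompact ((W ∩ G ⁻¹' closedBall ζ R) \ O) := hK.diff hOo
  have hGC : IsCompact (G '' ((W ∩ G ⁻¹' closedBall ζ R) \ O)) :=
    hC.image_of_continuousOn (hG.continuousOn.mono fun z hz => hz.1.1)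
  have hζ : ζ ∉ G '' ((W ∩ G ⁻¹' closedBall ζ R) \ O) := by
    rintro ⟨z, ⟨⟨hzW, -⟩, hzO⟩, hz⟩
    exact hzO (mem_iUnion₂.2 ⟨z, ⟨hzW, hz⟩, (he z ⟨hzW, hz⟩).1⟩)
  have hev1 : ∀ᶠ δ : ℝ in 𝓝[>] 0, closedBall ζ δ ⊆ (G '' ((W ∩ G ⁻¹' closedBall ζ R) \ O))ᶜ := by
    obtain ⟨δ, hδ, hδ'⟩ := nhds_basis_closedBall.mem_iff.1 (hGC.isClosed.isOpen_compl.mem_nhds hζ)
    filter_upwards [Ioc_mem_nhdsGT hδ] with δ' hδ''
    exact (closedBall_subset_closedBall hδ''.2).trans hδ'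
  have hev2 : ∀ᶠ δ : ℝ in 𝓝[>] 0, ∀ z ∈ Fib W G ζ, closedBall ζ δ ⊆ (e z).target := by
    rw [hfin.eventually_all]
    intro z hz
    have h2 : ζ ∈ (e z).target := by
      have := (e z).map_source (he z hz).1
      rwa [(he z hz).2.2.1, hz.2] at this
    obtain ⟨δ, hδ, hδ'⟩ := nhds_basis_closedBall.mem_iff.1 ((e z).open_target.mem_nhds h2)
    filter_upwards [Ioc_mem_nhdsGT hδ] with δ' hδ''
    exact (closedBall_subset_closedBall hδ''.2).trans hδ'
  obtain ⟨δ, ⟨hδ1, hδ2⟩, hδ3⟩ := ((hev1.and hev2).and (Ioc_mem_nhdsGT hR)).exists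
  refine ⟨e, δ, hδ3.1, hδ3.2, ?_, ?_, ?_⟩
  · intro z hz
    obtain ⟨a, b, c, d, f⟩ := he z hz
    exact ⟨a, b.trans inter_subset_left, c, d, f, hδ2 z hz⟩
  · intro z hz z' hz' hne
    exact (hUd hz hz' hne).mono ((he z hz).2.1.trans inter_subset_right)
      ((he z' hz').2.1.trans inter_subset_right)
  · intro y hy hGy
    by_contra hcon
    push Not at hcon
    have hyO : y ∉ O := by
      intro h
      obtain ⟨z, hz, hyz⟩ := mem_iUnion₂.1 h
      exact hcon z hz hyz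
    exact hδ1 hGy ⟨y, ⟨⟨hy, closedBall_subset_closedBall hδ3.2 hGy⟩, hyO⟩, rfl⟩

theorem det_real (L : Cn N →L[ℂ] Cn N) :
    (L.restrictScalars ℝ).det = Complex.normSq L.det := by
  have h1 : (L.restrictScalars ℝ).det = LinearMap.det ((L : Cn N →ₗ[ℂ] Cn N).restrictScalars ℝ) := rfl
  rw [h1, LinearMap.det_restrictScalars, Algebra.norm_complex_apply]

/-- evaluation of the smoothed trace at a regular value -/
theorem S_reg (hW : IsOpen W) (hG : DifferentiableOn ℂ G W) {ζ : Cn N} {R : ℝ} (hR : 0 < R)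
    (hK : IsCompact (W ∩ G ⁻¹' closedBall ζ R)) (hr : Reg W G ζ) :
    ∃ δ : ℝ, 0 < δ ∧ ∀ {h φ : Cn N → ℂ} {ε : ℝ}, DifferentiableOn ℂ h W → ε < δ → Ker φ ε →
      S W G h φ ζ = ∑ᶠ z ∈ Fib W G ζ, h z := by
  classical
  obtain ⟨e, δ, hδ, hδR, he, hdis, hcov⟩ := sheets hW hG hR hK hr
  have hfin := Fib_finite hW hG hR.le hK hr
  refine ⟨δ, hδ, fun {h φ ε} hh hε hφ => ?_⟩
  -- one sheet
  have hone : ∀ z ∈ Fib W G ζ, ∫ y in (e z).source, h y * (J G y * conj (J G y)) * φ (G y - ζ)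
      = h z := by
    intro z hz
    obtain ⟨hze, hsW', heG, -, hsym, htar⟩ := he z hz
    have hsW := hsW'.trans inter_subset_left
    have hcv := integral_image_eq_integral_abs_det_fderiv_smul (volume : Measure (Cn N))
      (s := (e z).source) (f := G) (f' := fun y => (fderiv ℂ G y).restrictScalars ℝ)
      (e z).open_source.measurableSet
      (fun y hy => ((hG.differentiableAt (hW.mem_nhds (hsW hy))).hasFDerivAt.restrictScalars
        ℝ).hasFDerivWithinAt)
      (fun y hy y' hy' hyy' => (e z).injOn hy hy' (by rw [heG, heG, hyy']))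
      (fun w => φ (w - ζ) * h ((e z).symm w))
    have himg : G '' (e z).source = (e z).target := by
      rw [← (e z).image_source_eq_target]
      exact image_congr fun y _ => (heG y).symm
    rw [himg] at hcv
    have hR1 : ∫ y in (e z).source, |((fderiv ℂ G y).restrictScalars ℝ).det| •
        (φ (G y - ζ) * h ((e z).symm (G y))) =
        ∫ y in (e z).source, h y * (J G y * conj (J G y)) * φ (G y - ζ) := by
      refine setIntegral_congr_fun (e z).open_source.measurableSet fun y hy => ?_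
      rw [det_real, abs_of_nonneg (normSq_nonneg _), ← heG y, (e z).left_inv hy, heG y,
        real_smul, ← mul_conj]
      unfold J
      ring
    rw [hR1] at hcv
    rw [← hcv]
    have hR2 : ∫ w in (e z).target, φ (w - ζ) * h ((e z).symm w) =
        ∫ w, φ (w - ζ) * h ((e z).symm w) := by
      refine setIntegral_eq_integral_of_forall_compl_eq_zero fun w hw => ?_
      rw [hφ.supp, zero_mul]
      by_contra hcon
      push Not at hcon
      apply hw
      apply htar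
      rw [mem_closedBall, dist_eq_norm]
      linarith
    rw [hR2]
    have hR3 := integral_add_left_eq_self (μ := (volume : Measure (Cn N)))
      (fun w => φ (w - ζ) * h ((e z).symm w)) ζ
    rw [← hR3]
    simp only [add_sub_cancel_left]
    have hd : DifferentiableOn ℂ (fun w => h ((e z).symm w)) (e z).target := by
      refine hh.comp hsym.differentiableOn fun w hw => hsW ((e z).map_target hw)
    have := hφ.mv (e z).open_target hd
      ((closedBall_subset_closedBall hε.le).trans htar)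
    rw [this]
    have h4 : ζ = e z z := by rw [heG]; exact hz.2.symm
    rw [h4, (e z).left_inv hze]
  have hint : IntegrableOn (fun z => h z * (J G z * conj (J G z)) * φ (G z - ζ)) W :=
    S_integrable hW hG hh hφ.smooth.continuous hφ.supp
      (compact_mono hG.continuousOn hK isClosed_closedBall
        (closedBall_subset_closedBall (hε.le.trans hδR)))
  set O : Set (Cn N) := ⋃ z ∈ hfin.toFinset, (e z).source with hO
  have hOW : O ⊆ W := iUnion₂_subset fun z hz =>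
    (he z (hfin.mem_toFinset.1 hz)).2.1.trans inter_subset_left
  have h1 : S W G h φ ζ = ∫ z in O, h z * (J G z * conj (J G z)) * φ (G z - ζ) := by
    refine setIntegral_eq_of_subset_of_forall_sdiff_eq_zero hW.measurableSet hOW fun y hy => ?_
    rw [hφ.supp, mul_zero]
    by_contra hcon
    push Not at hcon
    obtain ⟨z, hz, hyz⟩ := hcov y hy.1 (by rw [mem_closedBall, dist_eq_norm]; linarith)
    exact hy.2 (mem_iUnion₂.2 ⟨z, hfin.mem_toFinset.2 hz, hyz⟩)
  rw [h1, hO, integral_biUnion_finset]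
  · rw [finsum_mem_eq_finite_toFinset_sum _ hfin]
    exact Finset.sum_congr rfl fun z hz => hone z (hfin.mem_toFinset.1 hz)
  · exact fun z _ => (e z).open_source.measurableSet
  · intro z hz z' hz' hne
    exact hdis (hfin.mem_toFinset.1 hz) (hfin.mem_toFinset.1 hz') hne
  · exact fun z hz => hint.mono_set
      ((he z (hfin.mem_toFinset.1 hz)).2.1.trans inter_subset_left)

/-! ### Sard and openness -/

theorem null_nonreg (hW : IsOpen W) (hG : DifferentiableOn ℂ G W) :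
    (volume : Measure (Cn N)) {ζ | ¬ Reg W G ζ} = 0 := by
  have h1 : {ζ | ¬ Reg W G ζ} = G '' {z | z ∈ W ∧ J G z = 0} := by
    ext ζ
    simp only [Reg, mem_ofPred_eq, mem_image]
    push Not
    exact ⟨fun ⟨z, a, b, c⟩ => ⟨z, ⟨a, c⟩, b⟩, fun ⟨z, ⟨a, c⟩, b⟩ => ⟨z, a, b, c⟩⟩
  rw [h1]
  refine addHaar_image_eq_zero_of_det_fderivWithin_eq_zero (volume : Measure (Cn N))
    (f' := fun y => (fderiv ℂ G y).restrictScalars ℝ)
    (fun y hy => ((hG.differentiableAt (hW.mem_nhds hy.1)).hasFDerivAt.restrictScalars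
        ℝ).hasFDerivWithinAt) fun y hy => ?_
  have h2 : (fderiv ℂ G y).det = 0 := hy.2
  rw [det_real, h2, map_zero]

theorem dense_reg (hW : IsOpen W) (hG : DifferentiableOn ℂ G W) : Dense {ζ | Reg W G ζ} := by
  have h1 := (null_nonreg hW hG)
  have h2 : {ζ | ¬ Reg W G ζ} = {ζ | Reg W G ζ}ᶜ := rfl
  rw [h2] at h1
  exact Measure.dense_of_ae (mem_ae_iff.2 h1)

theorem isOpen_reg (hW : IsOpen W) (hG : DifferentiableOn ℂ G W) {ζ : Cn N} {R : ℝ} (hR : 0 < R)
    (hK : IsCompact (W ∩ G ⁻¹' closedBall ζ R)) (hr : Reg W G ζ) :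
    ∀ᶠ η in 𝓝 ζ, Reg W G η := by
  obtain ⟨e, δ, hδ, hδR, he, hdis, hcov⟩ := sheets hW hG hR hK hr
  filter_upwards [closedBall_mem_nhds ζ hδ] with η hη z hz hzη
  obtain ⟨y, hy, hzy⟩ := hcov z hz (by rw [hzη]; exact hη)
  exact ((he y hy).2.1 hzy).2

/-- proper holomorphic map between open sets -/
structure PM (W D : Set (Cn N)) (G : Cn N → Cn N) : Prop where
  hW : IsOpen W
  hD : IsOpen D
  hol : DifferentiableOn ℂ G W
  proper : ∀ K ⊆ D, IsCompact K → IsCompact (W ∩ G ⁻¹' K)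

theorem PM.ball (H : PM W D G) {ζ : Cn N} (hζ : ζ ∈ D) :
    ∃ R > 0, closedBall ζ R ⊆ D ∧ IsCompact (W ∩ G ⁻¹' closedBall ζ R) := by
  obtain ⟨R, hR, hRD⟩ := nhds_basis_closedBall.mem_iff.1 (H.hD.mem_nhds hζ)
  exact ⟨R, hR, hRD, H.proper _ hRD (isCompact_closedBall _ _)⟩

theorem PM.finite (H : PM W D G) {ζ : Cn N} (hζ : ζ ∈ D) (hr : Reg W G ζ) :
    (Fib W G ζ).Finite := by
  obtain ⟨R, hR, -, hK⟩ := H.ball hζ
  exact Fib_finite H.hW H.hol hR.le hK hr

theorem PM.isOpen (H : PM W D G) : IsOpen (D ∩ {ζ | Reg W G ζ}) := by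
  rw [isOpen_iff_mem_nhds]
  rintro ζ ⟨hζ, hr⟩
  obtain ⟨R, hR, -, hK⟩ := H.ball hζ
  exact inter_mem (H.hD.mem_nhds hζ) (isOpen_reg H.hW H.hol hR hK hr)

theorem PM.closure (H : PM W D G) : D ⊆ _root_.closure (D ∩ {ζ | Reg W G ζ}) := by
  have := (dense_reg H.hW H.hol).open_subset_closure_inter H.hD
  exact this

/-- **traces** -/
theorem PM.trace (H : PM W D G) (hN : 0 < N) (hh : DifferentiableOn ℂ h W) :
    ∃ T : Cn N → ℂ, DifferentiableOn ℂ T D ∧
      ∀ ζ ∈ D, Reg W G ζ → T ζ = ∑ᶠ z ∈ Fib W G ζ, h z := by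
  classical
  have hk : ∀ ε : ℝ, ∃ φ : Cn N → ℂ, 0 < ε → Ker φ ε := by
    intro ε
    by_cases hε : 0 < ε
    · obtain ⟨φ, hφ⟩ := exists_ker hN hε
      exact ⟨φ, fun _ => hφ⟩
    · exact ⟨0, fun h => absurd h hε⟩
  choose κ hκ using hk
  have hr : ∀ ζ : Cn N, ∃ ε : ℝ, ζ ∈ D → (0 < ε ∧ closedBall ζ (3 * ε) ⊆ D) := by
    intro ζ
    by_cases hζ : ζ ∈ D
    · obtain ⟨R, hR, hRD⟩ := nhds_basis_closedBall.mem_iff.1 (H.hD.mem_nhds hζ)
      exact ⟨R / 3, fun _ => ⟨by linarith, by rwa [mul_div_cancel₀ R (by norm_num : (3:ℝ) ≠ 0)]⟩⟩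
    · exact ⟨0, fun h => absurd h hζ⟩
  choose ε hε using hr
  -- independence
  have hind : ∀ ζ ∈ D, ∀ δ : ℝ, 0 < δ → closedBall ζ (3 * δ) ⊆ D →
      S W G h (κ (ε ζ)) ζ = S W G h (κ δ) ζ := by
    intro ζ hζ δ hδ hδD
    obtain ⟨hε0, hεD⟩ := hε ζ hζ
    rcases le_total (ε ζ) δ with hle | hle
    · exact S_indep H.hW H.hol hh (hκ _ hε0) (hκ _ hδ) (R := 3 * δ) (by linarith)
        (H.proper _ hδD (isCompact_closedBall _ _))
    · exact S_indep H.hW H.hol hh (hκ _ hε0) (hκ _ hδ) (R := 3 * ε ζ) (by linarith)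
        (H.proper _ hεD (isCompact_closedBall _ _))
  refine ⟨fun ζ => S W G h (κ (ε ζ)) ζ, ?_, ?_⟩
  · intro ζ hζ
    obtain ⟨R, hR, hRD, hK⟩ := H.ball hζ
    have h1 : (fun ζ => S W G h (κ (ε ζ)) ζ) =ᶠ[𝓝 ζ] S W G h (κ (R / 4)) := by
      filter_upwards [ball_mem_nhds ζ (by linarith : 0 < R / 4)] with η hη
      rw [mem_ball] at hη
      have h2 : closedBall η (3 * (R / 4)) ⊆ D :=
        (closedBall_subset_closedBall' (by linarith)).trans hRD
      exact hind η (h2 (mem_closedBall_self (by linarith))) _ (by linarith) h2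
    have h2 : DifferentiableAt ℂ (S W G h (κ (R / 4))) ζ :=
      S_hol H.hW H.hol hh (hκ _ (by linarith)).smooth (hκ _ (by linarith)).supp
        (R := R) (by linarith) hK
    exact (h2.congr_of_eventuallyEq h1).differentiableWithinAt
  · intro ζ hζ hreg
    obtain ⟨R, hR, hRD, hK⟩ := H.ball hζ
    obtain ⟨δ, hδ, hS⟩ := S_reg H.hW H.hol hR hK hreg
    set η := min (δ / 2) (R / 3) with hη
    have hη0 : 0 < η := lt_min (by linarith) (by linarith)
    have h1 := hind ζ hζ η hη0 ((closedBall_subset_closedBall (by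
      have := min_le_right (δ / 2) (R / 3)
      rw [← hη] at this
      linarith)).trans hRD)
    simp only
    rw [h1]
    exact hS hh ((min_le_left _ _).trans_lt (by linarith)) (hκ _ hη0)

/-- **FIN**: the number of points of a regular fibre is constant -/
theorem PM.fin (H : PM W D G) (hN : 0 < N) (hc : IsPreconnected D) :
    ∃ d : ℕ, (∀ ζ ∈ D, Reg W G ζ → (Fib W G ζ).ncard = d) ∧
      ∀ h : Cn N → ℂ, DifferentiableOn ℂ h W →
        ∃ T : Cn N → ℂ, DifferentiableOn ℂ T D ∧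
          (∀ ζ ∈ D, Reg W G ζ → T ζ = ∑ᶠ z ∈ Fib W G ζ, h z) ∧
          ∀ C : ℝ, (∀ z ∈ W, ‖h z‖ ≤ C) → ∀ ζ ∈ D, ‖T ζ‖ ≤ d * C := by
  classical
  -- closed conditions pass to the closure
  have hcl : ∀ {T : Cn N → ℂ} {P : Set ℂ}, DifferentiableOn ℂ T D → IsClosed P →
      (∀ ζ ∈ D, Reg W G ζ → T ζ ∈ P) → ∀ ζ ∈ D, T ζ ∈ P := by
    intro T P hT hP hTP ζ hζ
    have h1 : (𝓝[D ∩ {ζ | Reg W G ζ}] ζ).NeBot :=
      mem_closure_iff_nhdsWithin_neBot.1 (H.closure hζ)
    have h2 : Tendsto T (𝓝[D ∩ {ζ | Reg W G ζ}] ζ) (𝓝 (T ζ)) :=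
      (hT.continuousOn ζ hζ).mono_left (nhdsWithin_mono _ inter_subset_left)
    exact hP.mem_of_tendsto h2 (by
      filter_upwards [self_mem_nhdsWithin] with y hy using hTP y hy.1 hy.2)
  obtain ⟨T₁, hT₁, hT₁r⟩ := H.trace hN (h := fun _ => 1) (differentiableOn_const _)
  have hcard : ∀ ζ ∈ D, Reg W G ζ → T₁ ζ = ((Fib W G ζ).ncard : ℂ) := by
    intro ζ hζ hr
    rw [hT₁r ζ hζ hr, finsum_mem_eq_finite_toFinset_sum _ (H.finite hζ hr),
      ncard_eq_toFinset_card _ (H.finite hζ hr)]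
    simp
  have hreal : ∀ ζ ∈ D, (T₁ ζ).im = 0 := by
    refine hcl hT₁ (P := {w : ℂ | w.im = 0}) (isClosed_eq continuous_im continuous_const) ?_
    intro ζ hζ hr
    rw [hcard ζ hζ hr]
    simp
  have hd0 : D.EqOn (fderiv ℂ T₁) 0 := by
    intro ζ hζ
    have h1 : DifferentiableAt ℂ T₁ ζ := hT₁.differentiableAt (H.hD.mem_nhds hζ)
    have h2 : ∀ v, (fderiv ℂ T₁ ζ v).im = 0 := by
      intro v
      have h3 : HasFDerivAt (fun y => (T₁ y).im)
          (imCLM.comp ((fderiv ℂ T₁ ζ).restrictScalars ℝ)) ζ :=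
        imCLM.hasFDerivAt.comp ζ (h1.hasFDerivAt.restrictScalars ℝ)
      have h4 : (fun y => (T₁ y).im) =ᶠ[𝓝 ζ] fun _ => 0 := by
        filter_upwards [H.hD.mem_nhds hζ] with y hy using hreal y hy
      have h5 := h4.fderiv_eq (𝕜 := ℝ)
      rw [h3.fderiv] at h5
      have h6 := congrArg (fun L : Cn N →L[ℝ] ℝ => L v) h5
      simpa using h6
    ext v
    have h7 := h2 v
    have h8 := h2 (I • v)
    rw [map_smul, smul_eq_mul] at h8
    apply Complex.ext
    · simpa using h8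
    · simpa using h7
  have hconst : ∀ ζ ∈ D, ∀ η ∈ D, T₁ ζ = T₁ η := fun ζ hζ η hη =>
    H.hD.is_const_of_fderiv_eq_zero hc hT₁ hd0 hζ hη
  obtain ⟨d, hd⟩ : ∃ d : ℕ, ∀ ζ ∈ D, Reg W G ζ → (Fib W G ζ).ncard = d := by
    by_cases hne : ∃ ζ ∈ D, Reg W G ζ
    · obtain ⟨ζ₀, hζ₀, hr₀⟩ := hne
      refine ⟨(Fib W G ζ₀).ncard, fun ζ hζ hr => ?_⟩
      have := hconst ζ hζ ζ₀ hζ₀
      rw [hcard ζ hζ hr, hcard ζ₀ hζ₀ hr₀] at this
      exact_mod_cast this
    · exact ⟨0, fun ζ hζ hr => absurd ⟨ζ, hζ, hr⟩ hne⟩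
  refine ⟨d, hd, fun h hh => ?_⟩
  obtain ⟨T, hT, hTr⟩ := H.trace hN hh
  refine ⟨T, hT, hTr, fun C hC ζ hζ => ?_⟩
  have := hcl hT (P := closedBall 0 (d * C)) isClosed_closedBall (fun η hη hr => ?_) ζ hζ
  · simpa using this
  · rw [mem_closedBall_zero_iff, hTr η hη hr,
      finsum_mem_eq_finite_toFinset_sum _ (H.finite hη hr)]
    refine (norm_sum_le _ _).trans ?_
    have h1 : ∑ z ∈ (H.finite hη hr).toFinset, ‖h z‖ ≤
        ∑ _z ∈ (H.finite hη hr).toFinset, C :=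
      Finset.sum_le_sum fun z hz => hC z ((H.finite hη hr).mem_toFinset.1 hz).1
    refine h1.trans (le_of_eq ?_)
    rw [Finset.sum_const, nsmul_eq_mul, ← ncard_eq_toFinset_card _ (H.finite hη hr), hd η hη hr]

/-- a regular point gives a non-empty regular fibre -/
theorem PM.exists_fib (H : PM W D G) {z : Cn N} (hz : z ∈ W) (hGz : G z ∈ D) (hJ : J G z ≠ 0) :
    ∃ ζ ∈ D, Reg W G ζ ∧ (Fib W G ζ).Nonempty := by
  obtain ⟨e, hze, heW, heG, -, -⟩ := exists_inv H.hW H.hol hz hJ (H.hW.mem_nhds hz)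
  have h1 : G z ∈ e.target := by
    rw [← heG]
    exact e.map_source hze
  have h2 : IsOpen (e.target ∩ D) := e.open_target.inter H.hD
  obtain ⟨ζ, hζ, hr⟩ := (dense_reg H.hW H.hol).inter_open_nonempty _ h2 ⟨G z, h1, hGz⟩
  refine ⟨ζ, hζ.2, hr, e.symm ζ, heW (e.map_target hζ.1), ?_⟩
  rw [mem_preimage, mem_singleton_iff, ← heG]
  exact e.right_inv hζ.1

end Crest.Agent.R281.Fr2_316
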