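import Crest.Agent.R281.Fr4_316

/-!
# Row 281, leaf S6-FRAME (helper316), part 5: FIN between open subsets of finite dimensional
complex spaces
-/

set_option autoImplicit false
set_option linter.unusedSectionVars false

open Set Filter Topology MeasureTheory Complex Metric
open scoped ContDiff ComplexConjugate Real

noncomputable section

namespace Crest.Agent.R281.Fr5_316

open Crest.Agent.R266.SCV Crest.Agent.R281.Fr2_316

variable {E F : Type*} [NormedAddCommGroup E] [NormedSpace ℂ E] [NormedAddCommGroup F]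
  [NormedSpace ℂ F] {N : ℕ}

/-- proper holomorphic map between open sets -/
structure PMg (W : Set E) (D : Set F) (G : E → F) : Prop where
  hW : IsOpen W
  hD : IsOpen D
  hol : DifferentiableOn ℂ G W
  proper : ∀ K ⊆ D, IsCompact K → IsCompact (W ∩ G ⁻¹' K)

/-- `ζ` is a regular value -/
def Rg (W : Set E) (G : E → F) (ζ : F) : Prop :=
  ∀ z ∈ W, G z = ζ → Function.Injective (fderiv ℂ G z)

variable {W : Set E} {D : Set F} {G : E → F}

/-- transport to `ℂ^N` -/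
def tr (a : E ≃L[ℂ] (Fin N → ℂ)) (b : F ≃L[ℂ] (Fin N → ℂ)) (G : E → F) :
    (Fin N → ℂ) → (Fin N → ℂ) := fun z => b (G (a.symm z))

theorem fderiv_tr (a : E ≃L[ℂ] (Fin N → ℂ)) (b : F ≃L[ℂ] (Fin N → ℂ)) {z : E}
    (hG : DifferentiableAt ℂ G z) :
    fderiv ℂ (tr a b G) (a z) =
      (b : F →L[ℂ] (Fin N → ℂ)).comp ((fderiv ℂ G z).comp (a.symm : (Fin N → ℂ) →L[ℂ] E)) := by
  have h1 : HasFDerivAt G (fderiv ℂ G z) (a.symm (a z)) := by
    rw [a.symm_apply_apply]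
    exact hG.hasFDerivAt
  have h2 := b.hasFDerivAt.comp (a z) (h1.comp (a z) a.symm.hasFDerivAt)
  exact h2.fderiv

theorem J_tr (a : E ≃L[ℂ] (Fin N → ℂ)) (b : F ≃L[ℂ] (Fin N → ℂ)) {z : E}
    (hG : DifferentiableAt ℂ G z) :
    J (tr a b G) (a z) ≠ 0 ↔ Function.Injective (fderiv ℂ G z) := by
  have h0 : J (tr a b G) (a z) = LinearMap.det
      ((fderiv ℂ (tr a b G) (a z) : (Fin N → ℂ) →L[ℂ] (Fin N → ℂ)) :
        (Fin N → ℂ) →ₗ[ℂ] (Fin N → ℂ)) := rfl
  have h1 : J (tr a b G) (a z) ≠ 0 ↔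
      Function.Injective (fderiv ℂ (tr a b G) (a z)) := by
    rw [h0]
    constructor
    · intro h
      have := ((LinearMap.isUnit_iff_isUnit_det _).2 (isUnit_iff_ne_zero.2 h))
      rw [LinearMap.isUnit_iff_ker_eq_bot, LinearMap.ker_eq_bot] at this
      exact this
    · intro h
      have h2 : IsUnit ((fderiv ℂ (tr a b G) (a z) : (Fin N → ℂ) →L[ℂ] (Fin N → ℂ)) :
        (Fin N → ℂ) →ₗ[ℂ] (Fin N → ℂ)) := by
        rw [LinearMap.isUnit_iff_ker_eq_bot, LinearMap.ker_eq_bot]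
        exact h
      exact ((LinearMap.isUnit_iff_isUnit_det _).1 h2).ne_zero
  rw [h1, fderiv_tr a b hG]
  constructor
  · intro h x y hxy
    have := @h (a x) (a y) (by simp [hxy])
    exact a.injective this
  · intro h x y hxy
    have h3 : b (fderiv ℂ G z (a.symm x)) = b (fderiv ℂ G z (a.symm y)) := hxy
    exact a.symm.injective (h (b.injective h3))

theorem PMg.pm (H : PMg W D G) (a : E ≃L[ℂ] (Fin N → ℂ)) (b : F ≃L[ℂ] (Fin N → ℂ)) :
    PM (a.symm ⁻¹' W) (b.symm ⁻¹' D) (tr a b G) where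
  hW := H.hW.preimage a.symm.continuous
  hD := H.hD.preimage b.symm.continuous
  hol := by
    intro z hz
    have h1 : DifferentiableAt ℂ G (a.symm z) := H.hol.differentiableAt (H.hW.mem_nhds hz)
    exact (b.differentiableAt.comp z (h1.comp z a.symm.differentiableAt)).differentiableWithinAt
  proper := by
    intro K hK hKc
    have h1 := H.proper (b.symm '' K) (by
      rintro _ ⟨k, hk, rfl⟩
      exact hK hk) (hKc.image b.symm.continuous)
    have h2 : a.symm ⁻¹' W ∩ tr a b G ⁻¹' K = a '' (W ∩ G ⁻¹' (b.symm '' K)) := by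
      ext z
      constructor
      · rintro ⟨hz, hzK⟩
        refine ⟨a.symm z, ⟨hz, b (G (a.symm z)), hzK, by simp⟩, by simp⟩
      · rintro ⟨y, ⟨hy, k, hk, hky⟩, rfl⟩
        refine ⟨by simpa using hy, ?_⟩
        simp only [mem_preimage, tr, ContinuousLinearEquiv.symm_apply_apply]
        rw [← hky]
        simpa using hk
    rw [h2]
    exact h1.image a.continuous

theorem Rg_iff (H : PMg W D G) (a : E ≃L[ℂ] (Fin N → ℂ)) (b : F ≃L[ℂ] (Fin N → ℂ)) (ζ : F) :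
    Reg (a.symm ⁻¹' W) (tr a b G) (b ζ) ↔ Rg W G ζ := by
  constructor
  · intro h z hz hzζ
    rw [← J_tr a b (H.hol.differentiableAt (H.hW.mem_nhds hz))]
    exact h (a z) (by simpa using hz) (by simp [tr, hzζ])
  · intro h z hz hzζ
    have h1 := h (a.symm z) hz (b.injective hzζ)
    rw [← J_tr a b (H.hol.differentiableAt (H.hW.mem_nhds hz))] at h1
    simpa using h1

theorem Fib_eq (a : E ≃L[ℂ] (Fin N → ℂ)) (b : F ≃L[ℂ] (Fin N → ℂ)) (ζ : F) :
    Fib (a.symm ⁻¹' W) (tr a b G) (b ζ) = a '' (W ∩ G ⁻¹' {ζ}) := by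
  ext z
  constructor
  · rintro ⟨hz, hzK⟩
    exact ⟨a.symm z, ⟨hz, b.injective hzK⟩, by simp⟩
  · rintro ⟨y, ⟨hy, hyζ⟩, rfl⟩
    refine ⟨by simpa using hy, ?_⟩
    simp only [mem_preimage, tr, ContinuousLinearEquiv.symm_apply_apply, mem_singleton_iff]
    rw [mem_preimage, mem_singleton_iff] at hyζ
    rw [hyζ]

theorem PMg.finite (H : PMg W D G) (a : E ≃L[ℂ] (Fin N → ℂ)) (b : F ≃L[ℂ] (Fin N → ℂ)) {ζ : F}
    (hζ : ζ ∈ D) (hr : Rg W G ζ) : (W ∩ G ⁻¹' {ζ}).Finite := by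
  have h1 := (H.pm a b).finite (ζ := b ζ) (by simpa using hζ) ((Rg_iff H a b ζ).2 hr)
  rw [Fib_eq] at h1
  exact Finite.of_finite_image h1 a.injective.injOn

theorem PMg.isOpen_reg (H : PMg W D G) (a : E ≃L[ℂ] (Fin N → ℂ)) (b : F ≃L[ℂ] (Fin N → ℂ)) :
    IsOpen (D ∩ {ζ | Rg W G ζ}) := by
  have h1 := (H.pm a b).isOpen.preimage b.continuous
  have h2 : b ⁻¹' (b.symm ⁻¹' D ∩ {ζ | Reg (a.symm ⁻¹' W) (tr a b G) ζ}) = D ∩ {ζ | Rg W G ζ} := by
    ext ζ
    simp only [mem_preimage, mem_inter_iff, mem_ofPred_eq, Rg_iff H a b ζ,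
      ContinuousLinearEquiv.symm_apply_apply]
  rwa [h2] at h1

/-- Sard -/
theorem PMg.null (H : PMg W D G) (a : E ≃L[ℂ] (Fin N → ℂ)) (b : F ≃L[ℂ] (Fin N → ℂ))
    [MeasurableSpace F] [BorelSpace F] (μ : Measure F) [μ.IsAddHaarMeasure] :
    μ {ζ | ¬ Rg W G ζ} = 0 := by
  have h0 := null_nonreg (H.pm a b).hW (H.pm a b).hol
  have : (μ.map b).IsAddHaarMeasure := b.isAddHaarMeasure_map μ
  have h1 : (μ.map b) ≪ volume := Measure.absolutelyContinuous_isAddHaarMeasure _ _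
  have h2 := h1 h0
  have h3 : MeasurableEmbedding b := b.toHomeomorph.measurableEmbedding
  rw [h3.map_apply] at h2
  refine measure_mono_null ?_ h2
  intro ζ hζ
  simp only [mem_preimage, mem_ofPred_eq]
  rwa [Rg_iff H a b ζ]

/-- **FIN** -/
theorem PMg.fin (H : PMg W D G) (a : E ≃L[ℂ] (Fin N → ℂ)) (b : F ≃L[ℂ] (Fin N → ℂ)) (hN : 0 < N)
    (hc : IsPreconnected D) :
    ∃ d : ℕ, (∀ ζ ∈ D, Rg W G ζ → (W ∩ G ⁻¹' {ζ}).ncard = d) ∧
      ∀ h : E → ℂ, DifferentiableOn ℂ h W →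
        ∃ T : F → ℂ, DifferentiableOn ℂ T D ∧
          (∀ ζ ∈ D, Rg W G ζ → T ζ = ∑ᶠ z ∈ W ∩ G ⁻¹' {ζ}, h z) ∧
          ∀ C : ℝ, (∀ z ∈ W, ‖h z‖ ≤ C) → ∀ ζ ∈ D, ‖T ζ‖ ≤ d * C := by
  classical
  have hc' : IsPreconnected (b.symm ⁻¹' D) := by
    have h1 := hc.image b b.continuous.continuousOn
    rwa [b.image_eq_preimage_symm] at h1
  obtain ⟨d, hd, hT⟩ := (H.pm a b).fin hN hc'
  refine ⟨d, fun ζ hζ hr => ?_, fun h hh => ?_⟩
  · rw [← hd (b ζ) (by simpa using hζ) ((Rg_iff H a b ζ).2 hr), Fib_eq,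
      ncard_image_of_injective _ a.injective]
  · obtain ⟨T, hTd, hTr, hTb⟩ := hT (fun z => h (a.symm z)) (by
      intro z hz
      have h1 : DifferentiableAt ℂ h (a.symm z) := hh.differentiableAt (H.hW.mem_nhds hz)
      exact (h1.comp z a.symm.differentiableAt).differentiableWithinAt)
    refine ⟨fun ζ => T (b ζ), ?_, ?_, ?_⟩
    · exact hTd.comp b.differentiable.differentiableOn fun ζ hζ => by simpa using hζ
    · intro ζ hζ hr
      show T (b ζ) = _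
      rw [hTr (b ζ) (by simpa using hζ) ((Rg_iff H a b ζ).2 hr), Fib_eq,
        finsum_mem_image a.injective.injOn]
      simp
    · intro C hC ζ hζ
      exact hTb C (fun z hz => hC _ hz) (b ζ) (by simpa using hζ)

theorem PMg.exists_fib (H : PMg W D G) (a : E ≃L[ℂ] (Fin N → ℂ)) (b : F ≃L[ℂ] (Fin N → ℂ))
    {z : E} (hz : z ∈ W) (hGz : G z ∈ D) (hJ : Function.Injective (fderiv ℂ G z)) :
    ∃ ζ ∈ D, Rg W G ζ ∧ (W ∩ G ⁻¹' {ζ}).Nonempty := by
  have h1 := (J_tr a b (H.hol.differentiableAt (H.hW.mem_nhds hz))).2 hJ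
  obtain ⟨ζ, hζ, hr, hne⟩ := (H.pm a b).exists_fib (z := a z) (by simpa using hz)
    (by simpa [tr] using hGz) h1
  have h2 : ζ = b (b.symm ζ) := by simp
  rw [h2] at hr hne
  rw [Fib_eq] at hne
  exact ⟨b.symm ζ, hζ, (Rg_iff H a b _).1 hr, (image_nonempty).1 hne⟩

end Crest.Agent.R281.Fr5_316
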