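import Crest.Agent.R281.Fr1_316
import Crest.Agent.R281.Fr5_316
import Crest.Agent.R281.Thn5_280
import Crest.Agent.R275.Geo_509

/-!
# Row 281, leaf S6-FRAME (helper316), part 6: choice of the slice (pure part)

* `conn_of_sth`   : the complement of a `σ`-thin set in a connected open set is connected;
* `exists_slice`  : a radius `r` and a linear map `p` without common zeros on `Z ∩ {|z - z₀| = r}`;
* `exists_perturb`: a small perturbation of `p` is transversal to a given linear submersion.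
-/

set_option autoImplicit false
set_option linter.unusedSectionVars false

open Set Filter Topology MeasureTheory Complex Metric
open scoped ContDiff ComplexConjugate Real ENNReal

noncomputable section

namespace Crest.Agent.R281.Fr6_316

open Crest.Agent.R281.Thn_280 Crest.Agent.R275.Geo

section conn

variable {E : Type*} [NormedAddCommGroup E] [NormedSpace ℂ E] [FiniteDimensional ℂ E]

theorem conn_of_sth {V S : Set E} (hV : IsOpen V) (hc : IsPreconnected V) (hS : STh S)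
    (ho : IsOpen (V \ S)) : IsPreconnected (V \ S) := by
  classical
  borelize E
  rw [isPreconnected_iff_subset_of_disjoint]
  intro u v hu hv hsub hdis
  by_contra hcon
  push Not at hcon
  obtain ⟨hnu, hnv⟩ := hcon
  obtain ⟨z₁, hz₁, hz₁u⟩ := not_subset.1 hnu
  obtain ⟨z₂, hz₂, hz₂v⟩ := not_subset.1 hnv
  set f : E → ℂ := fun z => if z ∈ u then 1 else 0 with hf
  have hfd : DifferentiableOn ℂ f (V \ S) := by
    intro z hz
    rcases hsub hz with hzu | hzv
    · have : f =ᶠ[𝓝 z] fun _ => 1 := by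
        filter_upwards [hu.mem_nhds hzu] with y hy
        simp [hf, hy]
      exact ((differentiableAt_const _).congr_of_eventuallyEq this).differentiableWithinAt
    · have : f =ᶠ[𝓝 z] fun _ => 0 := by
        filter_upwards [hv.mem_nhds hzv, ho.mem_nhds hz] with y hy hy'
        have : y ∉ u := fun hyu => by
          have : y ∈ (V \ S) ∩ (u ∩ v) := ⟨hy', hyu, hy⟩
          rw [hdis] at this
          exact this
        simp [hf, this]
      exact ((differentiableAt_const _).congr_of_eventuallyEq this).differentiableWithinAt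
  obtain ⟨g, hg, hgf⟩ := STh.extend hV hS ho hfd fun z _ => ⟨univ, univ_mem, 1, fun w _ => by
    simp only [hf]
    split_ifs <;> simp⟩
  have hgc : ContinuousOn g V := hg.continuousOn
  have h01 : ∀ z ∈ V, g z ∈ ({0, 1} : Set ℂ) := by
    intro z hz
    have hNB : (𝓝[V \ S] z).NeBot := by
      rw [← mem_closure_iff_nhdsWithin_neBot, mem_closure_iff_nhds]
      intro t ht
      obtain ⟨w, hw, hwt⟩ := hS.dense_compl.inter_nhds_nonempty (inter_mem ht (hV.mem_nhds hz))
      exact ⟨w, hwt.1, hwt.2, hw⟩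
    have h2 : Tendsto g (𝓝[V \ S] z) (𝓝 (g z)) := (hgc z hz).mono_left
      (nhdsWithin_mono _ sdiff_subset)
    refine (Set.Finite.isClosed (by simp) : IsClosed ({0, 1} : Set ℂ)).mem_of_tendsto h2 ?_
    filter_upwards [self_mem_nhdsWithin] with y hy
    rw [hgf y hy]
    simp only [hf]
    split_ifs <;> simp
  have hre : ContinuousOn (fun z => (g z).re) V := continuous_re.comp_continuousOn hgc
  have h1 : (g z₁).re = 0 := by
    rw [hgf z₁ hz₁]
    simp [hf, hz₁u]
  have h2 : (g z₂).re = 1 := by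
    have : z₂ ∈ u := (hsub hz₂).resolve_right hz₂v
    rw [hgf z₂ hz₂]
    simp [hf, this]
  have h3 := hc.intermediate_value hz₁.1 hz₂.1 hre
  rw [h1, h2] at h3
  obtain ⟨z, hz, hz'⟩ := h3 (show (1 / 2 : ℝ) ∈ Icc (0 : ℝ) 1 by norm_num)
  have hz2 : (g z).re = 1 / 2 := hz'
  rcases h01 z hz with h4 | h4
  · rw [h4] at hz2; norm_num at hz2
  · rw [mem_singleton_iff.1 h4] at hz2; norm_num at hz2

end conn

section slice

variable {E W : Type*} [NormedAddCommGroup E] [NormedSpace ℂ E] [FiniteDimensional ℂ E]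
  [NormedAddCommGroup W] [NormedSpace ℂ W] [FiniteDimensional ℂ W]
  [MeasurableSpace E] [BorelSpace E]

theorem exists_slice (hE : 0 < Module.finrank ℂ E) {Z : Set E} {z₀ : E} {r₂ : ℝ} (hr₂ : 0 < r₂)
    (hZ : μH[(Module.finrank ℝ W : ℝ)] (Z ∩ closedBall z₀ r₂) < ⊤) :
    ∃ r : ℝ, 0 < r ∧ r < r₂ ∧ ∃ p : E →L[ℂ] W, ∀ z ∈ Z, ‖z - z₀‖ = r → p (z - z₀) ≠ 0 := by
  obtain ⟨N, hN⟩ : ∃ N, Module.finrank ℂ E = N + 1 := ⟨_, (Nat.succ_pred_eq_of_pos hE).symm⟩
  have b : Module.Basis (Fin (N + 1)) ℂ E := Module.finBasisOfFinrankEq ℂ E hN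
  borelize W
  have : ProperSpace W := FiniteDimensional.proper ℂ W
  obtain ⟨K⟩ : Nonempty (TopologicalSpace.PositiveCompacts W) := inferInstance
  let μ : Measure W := Measure.addHaarMeasure K
  set Z' : Set E := (fun z => z - z₀) '' (Z ∩ closedBall z₀ r₂) with hZ'
  have hiso : Isometry (fun z : E => z - z₀) := (IsometryEquiv.subRight z₀).isometry
  have h1 : μH[(Module.finrank ℝ W : ℝ)] Z' < ⊤ := by
    rw [hZ', hiso.hausdorffMeasure_image (Or.inl (by positivity))]
    exact hZ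
  have h2 := Crest.Agent.R281.Fr1_316.slice_null b μ Z' (r₂ / 2) (by linarith)
    (lt_of_le_of_lt (measure_mono inter_subset_left) h1)
  -- the set of pairs with r in the interval is not null
  have h3 : ((volume : Measure ℝ).prod (Measure.pi fun _ : Fin (N + 1) => μ))
      (Ioo (r₂ / 2) r₂ ×ˢ univ) ≠ 0 := by
    rw [Measure.prod_prod]
    refine mul_ne_zero ?_ ?_
    · rw [Real.volume_Ioo]
      simp
      linarith
    · exact (isOpen_univ.measure_pos _ univ_nonempty).ne'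
  obtain ⟨⟨r, q⟩, hrq, hbad⟩ : ∃ x ∈ (Ioo (r₂ / 2) r₂ ×ˢ (univ : Set (Fin (N + 1) → W))),
      x ∉ Crest.Agent.R281.Fr1_316.Bad (W := W) b (Z' ∩ {z | r₂ / 2 ≤ ‖z‖}) := by
    by_contra hcon
    push Not at hcon
    exact h3 (measure_mono_null hcon h2)
  have hr : r ∈ Ioo (r₂ / 2) r₂ := hrq.1
  refine ⟨r, by linarith [hr.1], hr.2, LinearMap.toContinuousLinearMap
    (∑ i, (b.coord i).smulRight (q i)), fun z hz hzr hpz => hbad ?_⟩
  refine ⟨z - z₀, ⟨⟨z, ⟨hz, ?_⟩, rfl⟩, ?_⟩, hzr, ?_⟩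
  · rw [mem_closedBall, dist_eq_norm, hzr]
    exact hr.2.le
  · show r₂ / 2 ≤ ‖z - z₀‖
    rw [hzr]
    exact hr.1.le
  · simpa using hpz

end slice

section perturb

variable {E W : Type*} [NormedAddCommGroup E] [NormedSpace ℂ E] [FiniteDimensional ℂ E]
  [NormedAddCommGroup W] [NormedSpace ℂ W] [FiniteDimensional ℂ W]

theorem exists_perturb (hdim : Module.finrank ℂ E = 2 * Module.finrank ℂ W) (q p₀ : E →L[ℂ] W)
    (hq : Function.Surjective q) {ε : ℝ} (hε : 0 < ε) :
    ∃ p : E →L[ℂ] W, ‖p - p₀‖ < ε ∧ ∀ v, p v = 0 → q v = 0 → v = 0 := by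
  have hker : Module.finrank ℂ (LinearMap.ker (q : E →ₗ[ℂ] W)) = Module.finrank ℂ W := by
    have h1 := LinearMap.finrank_range_add_finrank_ker (q : E →ₗ[ℂ] W)
    rw [LinearMap.range_eq_top.2 hq, finrank_top] at h1
    omega
  obtain ⟨θ⟩ : Nonempty (LinearMap.ker (q : E →ₗ[ℂ] W) ≃ₗ[ℂ] W) :=
    FiniteDimensional.nonempty_linearEquiv_of_finrank_eq hker
  obtain ⟨a, ha⟩ := LinearMap.exists_extend (p := LinearMap.ker (q : E →ₗ[ℂ] W)) (θ : _ →ₗ[ℂ] W)
  set a' : E →L[ℂ] W := LinearMap.toContinuousLinearMap a with ha'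
  set m : Module.End ℂ (LinearMap.ker (q : E →ₗ[ℂ] W)) :=
    (θ.symm : W →ₗ[ℂ] _) ∘ₗ ((p₀ : E →ₗ[ℂ] W) ∘ₗ (LinearMap.ker (q : E →ₗ[ℂ] W)).subtype) with hm
  have hfin : Set.Finite {μ : ℂ | m.HasEigenvalue μ} := Module.End.finite_hasEigenvalue m
  -- choose t
  obtain ⟨t, ht0, hte, htm⟩ : ∃ t : ℝ, 0 < t ∧ t * (‖a'‖ + 1) < ε ∧ ¬ m.HasEigenvalue (-(t : ℂ)) := by
    set δ := ε / (‖a'‖ + 1) with hδ
    have hδ0 : 0 < δ := by positivity
    have hinf : (Ioo (0 : ℝ) δ).Infinite := Ioo_infinite hδ0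
    have hfin' : Set.Finite ((fun t : ℝ => -(t : ℂ)) ⁻¹' {μ : ℂ | m.HasEigenvalue μ}) :=
      hfin.preimage (fun x _ y _ hxy => by simpa using hxy)
    obtain ⟨t, ht, htn⟩ := (hinf.sdiff hfin').nonempty
    refine ⟨t, ht.1, ?_, htn⟩
    have := ht.2
    rw [hδ, lt_div_iff₀ (by positivity)] at this
    exact this
  refine ⟨p₀ + (t : ℂ) • a', ?_, ?_⟩
  · rw [add_sub_cancel_left, norm_smul, Complex.norm_real, Real.norm_of_nonneg ht0.le]
    nlinarith [norm_nonneg a']
  · intro v hpv hqv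
    by_contra hv
    apply htm
    set v' : LinearMap.ker (q : E →ₗ[ℂ] W) := ⟨v, hqv⟩ with hv'
    refine Module.End.hasEigenvalue_of_hasEigenvector (x := v') ?_
    rw [Module.End.hasEigenvector_iff]
    refine ⟨Module.End.mem_eigenspace_iff.2 ?_, fun h => hv (by simpa [hv'] using congrArg Subtype.val h)⟩
    apply θ.injective
    have h1 : a v = θ v' := LinearMap.congr_fun ha v'
    have h2 : θ (m v') = p₀ v := by
      simp [hm, hv']
    have h3 : p₀ v + (t : ℂ) • a v = 0 := hpv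
    rw [h2, map_smul, ← h1, neg_smul]
    exact eq_neg_of_add_eq_zero_left h3

end perturb

end Crest.Agent.R281.Fr6_316
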