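import Crest.Agent.R281.Thin2_524

/-!
# R281 (S0424), DIV 6, S6-O4 (helper524): density of an open set with thin frontier (DENSE)

`LT E T S` : at every point `z` of the open set `T ⊆ E`, for a dense set of directions `v`, the
complex line `z + ℂ v` meets `S` in a countable set (inside `T`).
-/

set_option autoImplicit false
set_option linter.unusedSectionVars false

open Set Filter Topology Metric

namespace Crest.Agent.R281.Thin3_524

/-- `S` is thin on lines inside `T` -/
def LT {E : Type*} [NormedAddCommGroup E] [NormedSpace ℂ E] (T S : Set E) : Prop :=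
  ∀ z ∈ T, Dense {v : E | {c : ℂ | z + c • v ∈ T ∩ S}.Countable}

theorem LT.mono {E : Type*} [NormedAddCommGroup E] [NormedSpace ℂ E] {T S S' : Set E}
    (h : LT T S) (hS : T ∩ S' ⊆ S) : LT T S' := by
  intro z hz
  refine (h z hz).mono fun v hv => ?_
  have hv' : {c : ℂ | z + c • v ∈ T ∩ S}.Countable := hv
  show {c : ℂ | z + c • v ∈ T ∩ S'}.Countable
  refine hv'.mono ?_
  intro c hc
  exact ⟨hc.1, hS hc⟩

theorem isConnected_ball_diff {S : Set ℂ} (hS : S.Countable) (c : ℂ) {r : ℝ} (hr : 0 < r) :
    IsConnected (ball c r \ S) := by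
  have h1 : ball c r \ S = (OpenPartialHomeomorph.univBall c r) ''
      ((OpenPartialHomeomorph.univBall c r) ⁻¹' S)ᶜ := by
    have h2 : (OpenPartialHomeomorph.univBall c r) '' univ = ball c r := by
      have h3 := (OpenPartialHomeomorph.univBall c r).image_source_eq_target
      rwa [OpenPartialHomeomorph.univBall_source, OpenPartialHomeomorph.univBall_target c hr]
        at h3
    ext z
    constructor
    · rintro ⟨hz, hzS⟩
      rw [← h2] at hz
      obtain ⟨w, -, rfl⟩ := hz
      exact ⟨w, hzS, rfl⟩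
    · rintro ⟨w, hw, rfl⟩
      exact ⟨h2 ▸ mem_image_of_mem _ (mem_univ w), hw⟩
  rw [h1]
  have hinj : Function.Injective (OpenPartialHomeomorph.univBall c r) := by
    intro a b hab
    have h3 := (OpenPartialHomeomorph.univBall c r).injOn
    rw [OpenPartialHomeomorph.univBall_source] at h3
    exact h3 (mem_univ a) (mem_univ b) hab
  have hcont : Continuous (OpenPartialHomeomorph.univBall c r) := by
    have h3 := (OpenPartialHomeomorph.univBall c r).continuousOn
    rwa [OpenPartialHomeomorph.univBall_source, continuousOn_univ] at h3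
  refine IsConnected.image ?_ _ hcont.continuousOn
  refine (hS.preimage_of_injOn hinj.injOn).isConnected_compl_of_one_lt_rank ?_
  rw [Complex.rank_real_complex]
  norm_num

variable {M : Type*} [TopologicalSpace M] {E : Type*} [NormedAddCommGroup E] [NormedSpace ℂ E]
variable {ι : Type*} (e : ι → OpenPartialHomeomorph M E)

/-- thin on lines in every chart -/
def LTM (S : Set M) : Prop := ∀ i, LT (e i).target ((e i).symm ⁻¹' S)

variable {e}

/-- spreading along lines -/
theorem ball_subset_closure {Om : Set M} (ho : IsOpen Om) (hS : LTM e (closure Om \ Om))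
    {i : ι} {z : E} {ρ : ℝ} (hb : ball z ρ ⊆ (e i).target) (hz : (e i).symm z ∈ Om)
    {w : E} (hw : w ∈ ball z ρ) : (e i).symm w ∈ closure Om := by
  have hρ : 0 < ρ := dist_nonneg.trans_lt hw
  have hzt : z ∈ (e i).target := hb (mem_ball_self hρ)
  -- the set of good end points
  have hd := hS i z hzt
  -- points `z + v`, `v` good and small, are in `closure Om`
  have h1 : ∀ v : E, {c : ℂ | z + c • v ∈ (e i).target ∩ (e i).symm ⁻¹' (closure Om \ Om)}.Countable →
      ‖v‖ < ρ → (e i).symm (z + v) ∈ closure Om := by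
    intro v hv hvρ
    by_cases hv0 : v = 0
    · subst hv0
      rw [add_zero]
      exact subset_closure hz
    have hvn : 0 < ‖v‖ := norm_pos_iff.2 hv0
    set R := ρ / ‖v‖ with hR
    have hR1 : 1 < R := by rw [hR, lt_div_iff₀ hvn]; simpa using hvρ
    have hin : ∀ c ∈ ball (0 : ℂ) R, z + c • v ∈ ball z ρ := by
      intro c hc
      rw [mem_ball_zero_iff] at hc
      rw [mem_ball, dist_eq_norm, add_sub_cancel_left, norm_smul]
      rw [hR, lt_div_iff₀ hvn] at hc
      exact hc
    set S' := {c : ℂ | z + c • v ∈ (e i).target ∩ (e i).symm ⁻¹' (closure Om \ Om)} with hS'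
    have hc := isConnected_ball_diff hv (0 : ℂ) (zero_lt_one.trans hR1)
    by_contra hcl
    -- the map
    have hcont : ContinuousOn (fun c : ℂ => (e i).symm (z + c • v)) (ball (0 : ℂ) R \ S') := by
      refine (e i).continuousOn_symm.comp (by fun_prop) ?_
      intro c hc
      exact hb (hin c hc.1)
    have hpc := hc.isPreconnected.image _ hcont
    obtain ⟨q, hq, hq1, hq2⟩ := hpc Om (closure Om)ᶜ ho isClosed_closure.isOpen_compl
      (by
        rintro _ ⟨c, hc, rfl⟩
        by_cases h2 : (e i).symm (z + c • v) ∈ closure Om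
        · left
          by_contra h3
          exact hc.2 ⟨hb (hin c hc.1), h2, h3⟩
        · exact Or.inr h2)
      ⟨(e i).symm z, ⟨0, ⟨mem_ball_self (zero_lt_one.trans hR1), fun h2 => by
        have h3 := h2.2
        simp only [zero_smul, add_zero, mem_preimage] at h3
        exact h3.2 hz⟩, by simp⟩, hz⟩
      ⟨(e i).symm (z + v), ⟨1, ⟨by rw [mem_ball_zero_iff]; simpa using hR1, fun h2 => by
        have h3 := h2.2
        simp only [one_smul, mem_preimage] at h3
        exact hcl h3.1⟩, by simp⟩, hcl⟩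
    exact hq2 (subset_closure hq1)
  -- density
  rw [mem_closure_iff_nhds]
  intro N hN
  have hwt : w ∈ (e i).target := hb hw
  have h3 : ∀ᶠ v in 𝓝 (w - z), (e i).symm (z + v) ∈ interior N ∧ z + v ∈ ball z ρ := by
    have h4 : ∀ᶠ w' in 𝓝 w, (e i).symm w' ∈ interior N ∧ w' ∈ ball z ρ :=
      Filter.Eventually.and ((e i).continuousAt_symm hwt (interior_mem_nhds.2 hN))
        (isOpen_ball.mem_nhds hw)
    have h5 : Tendsto (fun v => z + v) (𝓝 (w - z)) (𝓝 w) := by
      have : Tendsto (fun v => z + v) (𝓝 (w - z)) (𝓝 (z + (w - z))) :=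
        (continuous_const.add continuous_id).continuousAt
      simpa using this
    exact h5.eventually h4
  obtain ⟨v, hv1, hv2⟩ := hd.inter_nhds_nonempty h3
  have h6 : ‖v‖ < ρ := by
    have := hv2.2
    rwa [mem_ball, dist_eq_norm, add_sub_cancel_left] at this
  have h7 := h1 v hv1 h6
  obtain ⟨q, hq1, hq2⟩ := mem_closure_iff_nhds.1 h7 (interior N) (isOpen_interior.mem_nhds hv2.1)
  exact ⟨q, interior_subset hq1, hq2⟩

/-- **(DENSE)** -/
theorem dense_of_thin [PreconnectedSpace M] (hcov : ∀ x, ∃ i, x ∈ (e i).source) {Om : Set M}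
    (ho : IsOpen Om) (hne : Om.Nonempty) (hS : LTM e (closure Om \ Om)) : Dense Om := by
  have hop : IsOpen (closure Om) := by
    rw [isOpen_iff_mem_nhds]
    intro x hx
    obtain ⟨i, hi⟩ := hcov x
    obtain ⟨ρ, hρ, hb⟩ := Metric.isOpen_iff.1 (e i).open_target (e i x) ((e i).map_source hi)
    have h1 : ∀ᶠ q in 𝓝 x, q ∈ (e i).source ∧ e i q ∈ ball (e i x) (ρ / 4) :=
      Filter.Eventually.and ((e i).open_source.mem_nhds hi)
        ((e i).continuousAt hi (isOpen_ball.mem_nhds (mem_ball_self (by positivity))))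
    obtain ⟨q, ⟨hq1, hq2⟩, hq3⟩ := mem_closure_iff_nhds.1 hx _ h1
    have hb' : ball (e i q) (ρ / 2) ⊆ (e i).target := by
      refine Subset.trans ?_ hb
      refine ball_subset_ball' ?_
      rw [mem_ball] at hq2
      linarith
    have hx' : ball (e i x) (ρ / 4) ⊆ ball (e i q) (ρ / 2) := by
      refine ball_subset_ball' ?_
      rw [mem_ball, dist_comm] at hq2
      linarith
    filter_upwards [h1] with p hp
    have h2 := ball_subset_closure ho hS hb' (by rw [(e i).left_inv hq1]; exact hq3)
      (hx' hp.2)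
    rwa [(e i).left_inv hp.1] at h2
  have h2 : closure Om = univ := IsClopen.eq_univ ⟨isClosed_closure, hop⟩ hne.closure
  exact dense_iff_closure_eq.2 h2

/-- the open set is preconnected -/
theorem preconnected_of_thin [PreconnectedSpace M] (hcov : ∀ x, ∃ i, x ∈ (e i).source)
    {Om : Set M} (ho : IsOpen Om) (hS : LTM e (closure Om \ Om)) : IsPreconnected Om := by
  intro u v hu hv huv hnu hnv
  by_contra hne
  have hdis : ∀ x ∈ Om, x ∈ u → x ∈ v → False := fun x h1 h2 h3 => hne ⟨x, h1, h2, h3⟩
  have key : ∀ u v : Set M, IsOpen u → IsOpen v → Om ⊆ u ∪ v →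
      (∀ x ∈ Om, x ∈ u → x ∈ v → False) → (Om ∩ u).Nonempty → Dense (Om ∩ u) := by
    intro u v hu hv huv hdis hnu
    refine dense_of_thin hcov (ho.inter hu) hnu fun i => (hS i).mono ?_
    rintro z ⟨-, hz1, hz2⟩
    refine ⟨closure_mono inter_subset_left hz1, fun h3 => hz2 ⟨h3, ?_⟩⟩
    by_contra h4
    have h5 : (e i).symm z ∈ v := (huv h3).resolve_left h4
    obtain ⟨q, hq1, hq2⟩ := mem_closure_iff_nhds.1 hz1 v (hv.mem_nhds h5)
    exact hdis q hq2.1 hq2.2 hq1
  have h1 := key u v hu hv huv hdis hnu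
  have h2 := key v u hv hu (by rwa [union_comm]) (fun x a b c => hdis x a c b) hnv
  obtain ⟨q, hq1, hq2⟩ := h1.inter_open_nonempty (Om ∩ v) (ho.inter hv) hnv
  exact hdis q hq1.1 hq2.2 hq1.2

end Crest.Agent.R281.Thin3_524
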