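import Crest.Agent.R281.D6b_986
import Crest.Agent.R281.Thin3_524

/-!
# R281 (S0424), S6-FRAME, (g3) (helper467, second of 316/941): saturated connected neighbourhoods

* `preconn_inter` : a set with thin complement does not separate a connected open set;
* `exists_U`      : every open neighbourhood `W0` of `Z x0` contains a saturated connected open
  neighbourhood `U` of `Z x0`, and `U ∩ Om` is connected.
-/

set_option autoImplicit false
set_option linter.unusedSectionVars false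

open Set Filter Topology Metric

namespace Crest.Agent.R281.Fr6_467

open Crest.Agent.R275.Geo Crest.Agent.R275.Core144
open Crest.Agent.R281.Defs_273 Crest.Agent.R281.D6_986
open Crest.Agent.R281.S6D_664 (LFib)
open Crest.Agent.R281.Thin3_524 (isConnected_ball_diff)

section local_

variable {M : Type*} [TopologicalSpace M] {E : Type*} [NormedAddCommGroup E] [NormedSpace ℂ E]
variable {ι : Type*} {e : ι → OpenPartialHomeomorph M E}

/-- thin complement, in the form of the field `LFib.thin` -/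
def ThinC (e : ι → OpenPartialHomeomorph M E) (Om : Set M) : Prop :=
  ∀ i, ∀ z ∈ (e i).target, (e i).symm z ∈ Om →
    Dense {v : E | {c : ℂ | z + c • v ∈ (e i).target ∧ (e i).symm (z + c • v) ∉ Om}.Countable}

/-- two relatively open pieces of `U ∩ Om` do not meet a small chart ball simultaneously -/
theorem key {U Om u v : Set M} (_hU : IsOpen U) (ho : IsOpen Om) (hth : ThinC e Om)
    (hu : IsOpen u) (hv : IsOpen v) (hcovr : U ∩ Om ⊆ u ∪ v)
    (hdis : ∀ x ∈ U ∩ Om, x ∈ u → x ∈ v → False) {i : ι} {zq : E} {ρ : ℝ}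
    (hb : ball zq ρ ⊆ (e i).target) (hbU : ∀ z ∈ ball zq ρ, (e i).symm z ∈ U)
    (hqO : (e i).symm zq ∈ Om) (hqu : (e i).symm zq ∈ u) {zp : E} (hzp : zp ∈ ball zq ρ)
    (hpO : (e i).symm zp ∈ Om) (hpv : (e i).symm zp ∈ v) : False := by
  have hρ : 0 < ρ := dist_nonneg.trans_lt hzp
  have hqt : zq ∈ (e i).target := hb (mem_ball_self hρ)
  have hpt : zp ∈ (e i).target := hb hzp
  have h4 : ∀ᶠ w in 𝓝 zp, ((e i).symm w ∈ Om ∩ v) ∧ w ∈ ball zq ρ :=
    Filter.Eventually.and (((e i).continuousAt_symm hpt) ((ho.inter hv).mem_nhds ⟨hpO, hpv⟩))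
      (isOpen_ball.mem_nhds hzp)
  have h3 : ∀ᶠ w in 𝓝 (zp - zq), ((e i).symm (zq + w) ∈ Om ∩ v) ∧ zq + w ∈ ball zq ρ := by
    have h5 : Tendsto (fun w => zq + w) (𝓝 (zp - zq)) (𝓝 zp) := by
      have : Tendsto (fun w => zq + w) (𝓝 (zp - zq)) (𝓝 (zq + (zp - zq))) :=
        (continuous_const.add continuous_id).continuousAt
      simpa using this
    exact h5.eventually h4
  obtain ⟨w, hw1, ⟨hwO, hwv⟩, hwb⟩ := (hth i zq hqt hqO).inter_nhds_nonempty h3
  have hwρ : ‖w‖ < ρ := by rwa [mem_ball, dist_eq_norm, add_sub_cancel_left] at hwb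
  by_cases hw0 : w = 0
  · rw [hw0, add_zero] at hwv
    exact hdis _ ⟨hbU _ (mem_ball_self hρ), hqO⟩ hqu hwv
  have hwn : 0 < ‖w‖ := norm_pos_iff.2 hw0
  set R := ρ / ‖w‖ with hR
  have hR1 : 1 < R := by rw [hR, lt_div_iff₀ hwn]; simpa using hwρ
  have hin : ∀ c ∈ ball (0 : ℂ) R, zq + c • w ∈ ball zq ρ := by
    intro c hc
    rw [mem_ball_zero_iff] at hc
    rw [mem_ball, dist_eq_norm, add_sub_cancel_left, norm_smul]
    rw [hR, lt_div_iff₀ hwn] at hc
    exact hc
  set S' := {c : ℂ | zq + c • w ∈ (e i).target ∧ (e i).symm (zq + c • w) ∉ Om} with hS'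
  have hc := isConnected_ball_diff (S := S') hw1 (0 : ℂ) (zero_lt_one.trans hR1)
  have hcont : ContinuousOn (fun c : ℂ => (e i).symm (zq + c • w)) (ball (0 : ℂ) R \ S') := by
    refine (e i).continuousOn_symm.comp (by fun_prop) ?_
    intro c hc
    exact hb (hin c hc.1)
  have hmem : ∀ c ∈ ball (0 : ℂ) R \ S', (e i).symm (zq + c • w) ∈ U ∩ Om := by
    intro c hc
    refine ⟨hbU _ (hin c hc.1), ?_⟩
    by_contra h
    exact hc.2 ⟨hb (hin c hc.1), h⟩
  have hpc := hc.isPreconnected.image _ hcont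
  obtain ⟨q, ⟨c, hcm, hcq⟩, hq1, hq2⟩ := hpc u v hu hv
    (by
      rintro _ ⟨c, hc, rfl⟩
      exact hcovr (hmem c hc))
    ⟨(e i).symm zq, ⟨0, ⟨mem_ball_self (zero_lt_one.trans hR1), fun h2 => by
      have h3 := h2.2
      simp only [zero_smul, add_zero] at h3
      exact h3 hqO⟩, by simp⟩, hqu⟩
    ⟨(e i).symm (zq + w), ⟨1, ⟨by rw [mem_ball_zero_iff]; simpa using hR1, fun h2 => by
      have h3 := h2.2
      simp only [one_smul] at h3
      exact h3 hwO⟩, by simp⟩, hwv⟩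
  rw [← hcq] at hq1 hq2
  exact hdis _ (hmem c hcm) hq1 hq2

/-- small chart balls around a point of an open set -/
theorem exists_ball (hcov : ∀ x, ∃ i, x ∈ (e i).source) {U : Set M} (hU : IsOpen U) {x : M}
    (hx : x ∈ U) : ∃ i, x ∈ (e i).source ∧ ∃ ρ > 0, ball (e i x) ρ ⊆ (e i).target ∧
      ∀ z ∈ ball (e i x) ρ, (e i).symm z ∈ U := by
  obtain ⟨i, hi⟩ := hcov x
  have h0 : ∀ᶠ z in 𝓝 (e i x), z ∈ (e i).target ∧ (e i).symm z ∈ U := by
    refine Filter.Eventually.and ((e i).open_target.mem_nhds ((e i).map_source hi)) ?_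
    refine (e i).continuousAt_symm ((e i).map_source hi) ?_
    rw [(e i).left_inv hi]
    exact hU.mem_nhds hx
  obtain ⟨ρ, hρ, hb⟩ := Metric.eventually_nhds_iff_ball.1 h0
  exact ⟨i, hi, ρ, hρ, fun z hz => (hb z hz).1, fun z hz => (hb z hz).2⟩

/-- **a thin complement does not separate** -/
theorem preconn_inter (hcov : ∀ x, ∃ i, x ∈ (e i).source) {U Om : Set M} (hU : IsOpen U)
    (hUc : IsPreconnected U) (ho : IsOpen Om) (hd : Dense Om) (hth : ThinC e Om) :
    IsPreconnected (U ∩ Om) := by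
  intro u v hu hv hcovr hnu hnv
  by_contra hne
  have hdis : ∀ x ∈ U ∩ Om, x ∈ u → x ∈ v → False := fun x h1 h2 h3 => hne ⟨x, h1, h2, h3⟩
  obtain ⟨q0, hq0, hq0u⟩ := hnu
  obtain ⟨p0, hp0, hp0v⟩ := hnv
  have hUcl : U ⊆ closure ((U ∩ Om) ∩ u) ∪ closure ((U ∩ Om) ∩ v) := by
    rw [← closure_union, ← inter_union_distrib_left, inter_eq_left.2 hcovr]
    exact hd.open_subset_closure_inter hU
  obtain ⟨x, hxU, hxa, hxb⟩ := (isPreconnected_closed_iff.1 hUc) _ _ isClosed_closure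
    isClosed_closure hUcl ⟨q0, hq0.1, subset_closure ⟨hq0, hq0u⟩⟩
    ⟨p0, hp0.1, subset_closure ⟨hp0, hp0v⟩⟩
  obtain ⟨i, hi, ρ, hρ, hb, hbU⟩ := exists_ball hcov hU hxU
  have h1 : ∀ᶠ q in 𝓝 x, q ∈ (e i).source ∧ e i q ∈ ball (e i x) (ρ / 4) :=
    Filter.Eventually.and ((e i).open_source.mem_nhds hi)
      ((e i).continuousAt hi (isOpen_ball.mem_nhds (mem_ball_self (by positivity))))
  obtain ⟨q, ⟨hq1, hq2⟩, hq3, hq4⟩ := mem_closure_iff_nhds.1 hxa _ h1
  obtain ⟨p, ⟨hp1, hp2⟩, hp3, hp4⟩ := mem_closure_iff_nhds.1 hxb _ h1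
  have hsub : ball (e i q) (ρ / 2) ⊆ ball (e i x) ρ := by
    refine ball_subset_ball' ?_
    rw [mem_ball] at hq2
    linarith
  have hpq : e i p ∈ ball (e i q) (ρ / 2) := by
    rw [mem_ball] at hp2 hq2 ⊢
    calc dist (e i p) (e i q) ≤ dist (e i p) (e i x) + dist (e i x) (e i q) := dist_triangle _ _ _
      _ < ρ / 4 + ρ / 4 := by rw [dist_comm (e i x)]; linarith
      _ = ρ / 2 := by ring
  refine key (e := e) hU ho hth hu hv hcovr hdis (i := i) (zq := e i q) (ρ := ρ / 2)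
    (hsub.trans hb) (fun z hz => hbU z (hsub hz)) ?_ ?_ (zp := e i p) hpq ?_ ?_
  · rw [(e i).left_inv hq1]; exact hq3.2
  · rw [(e i).left_inv hq1]; exact hq4
  · rw [(e i).left_inv hp1]; exact hp3.2
  · rw [(e i).left_inv hp1]; exact hp4

/-- components of open sets are open -/
theorem isOpen_comp (hcov : ∀ x, ∃ i, x ∈ (e i).source) {U : Set M} (hU : IsOpen U) (x0 : M) :
    IsOpen (connectedComponentIn U x0) := by
  rw [isOpen_iff_mem_nhds]
  intro x hx
  have hxU : x ∈ U := connectedComponentIn_subset _ _ hx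
  obtain ⟨i, hi, ρ, hρ, hb, hbU⟩ := exists_ball hcov hU hxU
  have hc : IsPreconnected ((e i).symm '' ball (e i x) ρ) :=
    (convex_ball (E := E) _ _ : Convex ℝ (ball (e i x) ρ)).isPreconnected.image _
      ((e i).continuousOn_symm.mono hb)
  have hsub : (e i).symm '' ball (e i x) ρ ⊆ connectedComponentIn U x0 := by
    rw [connectedComponentIn_eq hx]
    refine hc.subset_connectedComponentIn ⟨e i x, mem_ball_self hρ, (e i).left_inv hi⟩ ?_
    rintro _ ⟨z, hz, rfl⟩
    exact hbU z hz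
  refine mem_of_superset ?_ hsub
  have ho : IsOpen ((e i).symm '' ball (e i x) ρ) :=
    (e i).symm.isOpen_image_of_subset_source isOpen_ball hb
  exact ho.mem_nhds ⟨e i x, mem_ball_self hρ, (e i).left_inv hi⟩

end local_

variable {n : ℕ} {M : Type} [TopologicalSpace M] {A : Atl (2 * n) M} {σ : HSymp A}

theorem thinC {F : LFib A σ} : ThinC A.e F.Om := fun i z hz h => F.thin i z hz h

/-- **(g3)** -/
theorem exists_U {F : LFib A σ} (c : ContOut F) (x0 : M) {W0 : Set M} (hW0 : IsOpen W0)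
    (h0 : c.Z x0 ⊆ W0) : ∃ U : Set M, IsOpen U ∧ c.Z x0 ⊆ U ∧ U ⊆ W0 ∧ (∀ x ∈ U, c.Z x ⊆ U) ∧
      IsConnected U ∧ IsConnected (U ∩ F.Om) := by
  set U1 : Set M := {x | c.Z x ⊆ W0} with hU1
  have hU1o : IsOpen U1 := isOpen_iff_mem_nhds.2 fun x hx => c.usc x W0 hW0 hx
  have hsat1 : ∀ x ∈ U1, c.Z x ⊆ U1 := by
    intro x hx y hy
    show c.Z y ⊆ W0
    rw [c.part x y hy]
    exact hx
  have hx01 : x0 ∈ U1 := h0
  set U := connectedComponentIn U1 x0 with hU
  have hUo : IsOpen U := isOpen_comp (e := A.e) A.cover hU1o x0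
  have hsat : ∀ x ∈ U, c.Z x ⊆ U := by
    intro x hx
    have hx1 : x ∈ U1 := connectedComponentIn_subset _ _ hx
    rw [hU, connectedComponentIn_eq hx]
    exact (c.conn x).isPreconnected.subset_connectedComponentIn (c.mem x) (hsat1 x hx1)
  have hx0 : x0 ∈ U := mem_connectedComponentIn hx01
  have hUc : IsConnected U := ⟨⟨x0, hx0⟩, isPreconnected_connectedComponentIn⟩
  refine ⟨U, hUo, hsat x0 hx0, ?_, hsat, hUc, ?_,
    preconn_inter (e := A.e) A.cover hUo hUc.isPreconnected F.op F.dns thinC⟩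
  · intro x hx
    have hx1 : x ∈ U1 := connectedComponentIn_subset _ _ hx
    exact hx1 (c.mem x)
  · exact F.dns.inter_open_nonempty U hUo ⟨x0, hx0⟩

end Crest.Agent.R281.Fr6_467
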