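import Mathlib

/-!
# R281 (S0424), S6-FRAME, pure part (helper941), part 1

Newton's identities, norms of holomorphic functions from traces, the compact neighbourhood cut out
by finitely many functions.
-/

set_option autoImplicit false

open Finset Set Filter Topology

namespace Crest.Agent.R281.Tc_941

universe u v

section newton

theorem eval_esymm {σ : Type u} [Fintype σ] (a : σ → ℂ) (k : ℕ) :
    MvPolynomial.eval a (MvPolynomial.esymm σ ℂ k) = (Finset.univ.val.map a).esymm k := by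
  have h := MvPolynomial.aeval_esymm_eq_multiset_esymm σ ℂ a (n := k)
  rw [← h]
  rfl

theorem eval_psum {σ : Type u} [Fintype σ] (a : σ → ℂ) (k : ℕ) :
    MvPolynomial.eval a (MvPolynomial.psum σ ℂ k) = ∑ i, a i ^ k := by
  unfold MvPolynomial.psum
  simp

theorem newton_univ (k : ℕ) : ∃ P : MvPolynomial ℕ ℂ, ∀ (σ : Type u) [Fintype σ] (a : σ → ℂ),
    MvPolynomial.eval (fun j => ∑ i, a i ^ j) P = (Finset.univ.val.map a).esymm k := by
  induction k using Nat.strong_induction_on with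
  | _ k ih =>
    rcases Nat.eq_zero_or_pos k with rfl | hk
    · refine ⟨1, fun σ _ a => ?_⟩
      rw [map_one]
      simp [Multiset.esymm]
    · choose! Q hQ using ih
      refine ⟨MvPolynomial.C ((k : ℂ)⁻¹) * ((-1) ^ (k + 1) *
        ∑ x ∈ antidiagonal k with x.1 < k, (-1) ^ x.1 * Q x.1 * MvPolynomial.X x.2),
        fun σ _ a => ?_⟩
      have h := congrArg (MvPolynomial.eval a) (MvPolynomial.mul_esymm_eq_sum σ ℂ k)
      rw [map_mul, eval_esymm, map_natCast, map_mul, map_sum, map_pow, map_neg, map_one] at h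
      have h2 : ∀ x ∈ ({x ∈ antidiagonal k | x.1 < k} : Finset (ℕ × ℕ)),
          MvPolynomial.eval a ((-1) ^ x.1 * MvPolynomial.esymm σ ℂ x.1 *
            MvPolynomial.psum σ ℂ x.2) = (-1) ^ x.1 * (Finset.univ.val.map a).esymm x.1 *
              ∑ i, a i ^ x.2 := by
        intro x _
        rw [map_mul, map_mul, eval_esymm, eval_psum, map_pow, map_neg, map_one]
      rw [Finset.sum_congr rfl h2] at h
      rw [map_mul, MvPolynomial.eval_C, map_mul, map_sum, map_pow, map_neg, map_one]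
      have h3 : ∀ x ∈ ({x ∈ antidiagonal k | x.1 < k} : Finset (ℕ × ℕ)),
          MvPolynomial.eval (fun j => ∑ i, a i ^ j) ((-1) ^ x.1 * Q x.1 * MvPolynomial.X x.2) =
            (-1) ^ x.1 * (Finset.univ.val.map a).esymm x.1 * ∑ i, a i ^ x.2 := by
        intro x hx
        rw [map_mul, map_mul, hQ x.1 (Finset.mem_filter.mp hx).2 σ a, map_pow, map_neg, map_one,
          MvPolynomial.eval_X]
      rw [Finset.sum_congr rfl h3, ← h, inv_mul_cancel_left₀]
      exact_mod_cast hk.ne'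

/-- **Newton**: the elementary symmetric functions are universal polynomials in the power sums. -/
theorem newton (k : ℕ) : ∃ P : MvPolynomial ℕ ℂ, ∀ (α : Type u) (s : Finset α) (h : α → ℂ),
    MvPolynomial.eval (fun j => ∑ z ∈ s, h z ^ j) P = ∑ t ∈ powersetCard k s, ∏ z ∈ t, h z := by
  obtain ⟨P, hP⟩ := newton_univ.{u} k
  refine ⟨P, fun α s h => ?_⟩
  have h1 := hP s (fun z => h z)
  have h2 : (fun j => ∑ i : s, h i ^ j) = fun j => ∑ z ∈ s, h z ^ j := by
    funext j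
    exact Finset.sum_coe_sort s (fun z => h z ^ j)
  have h3 : Multiset.map (fun z : s => h (z : α)) (Finset.univ : Finset s).val =
      Multiset.map h s.val := by
    have h4 : Multiset.map (fun z : s => (z : α)) (Finset.univ : Finset s).val = s.val :=
      Multiset.attach_map_val s.val
    have h5 := congrArg (Multiset.map h) h4
    rw [Multiset.map_map] at h5
    exact h5
  rw [h2, h3, Finset.esymm_map_val] at h1
  exact h1

end newton

section hol

variable {E : Type u} [NormedAddCommGroup E] [NormedSpace ℂ E]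

theorem diff_eval {D : Set E} {T : ℕ → E → ℂ} (hT : ∀ j, DifferentiableOn ℂ (T j) D)
    (P : MvPolynomial ℕ ℂ) :
    DifferentiableOn ℂ (fun ζ => MvPolynomial.eval (fun j => T j ζ) P) D := by
  induction P using MvPolynomial.induction_on with
  | C a =>
    simp only [MvPolynomial.eval_C]
    exact differentiableOn_const a
  | add p q hp hq =>
    simp only [map_add]
    exact hp.add hq
  | mul_X p n hp =>
    simp only [map_mul, MvPolynomial.eval_X]
    exact hp.mul (hT n)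

theorem cont_eval {X : Type u} [TopologicalSpace X] {D : Set X} {T : ℕ → X → ℂ}
    (hT : ∀ j, ContinuousOn (T j) D) (P : MvPolynomial ℕ ℂ) :
    ContinuousOn (fun ζ => MvPolynomial.eval (fun j => T j ζ) P) D := by
  induction P using MvPolynomial.induction_on with
  | C a =>
    simp only [MvPolynomial.eval_C]
    exact continuousOn_const
  | add p q hp hq =>
    simp only [map_add]
    exact hp.add hq
  | mul_X p n hp =>
    simp only [map_mul, MvPolynomial.eval_X]
    exact hp.mul (hT n)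

variable {α : Type v} {D R : Set E} {F : E → Finset α} {h : α → ℂ} {T : ℕ → E → ℂ}

/-- the elementary symmetric functions of `h` over the finite sets `F ζ`. -/
theorem exists_esymm (hT : ∀ j, DifferentiableOn ℂ (T j) D)
    (hTF : ∀ j, ∀ ζ ∈ R, T j ζ = ∑ z ∈ F ζ, h z ^ j) (k : ℕ) :
    ∃ N : E → ℂ, DifferentiableOn ℂ N D ∧
      ∀ ζ ∈ R, N ζ = ∑ t ∈ powersetCard k (F ζ), ∏ z ∈ t, h z := by
  obtain ⟨P, hP⟩ := newton.{v} k
  refine ⟨_, diff_eval hT P, fun ζ hζ => ?_⟩
  rw [← hP α (F ζ) h]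
  congr 2
  funext j
  exact hTF j ζ hζ

/-- **the norm** is a polynomial in the traces. -/
theorem exists_norm {d : ℕ} (hF : ∀ ζ ∈ R, (F ζ).card = d)
    (hT : ∀ j, DifferentiableOn ℂ (T j) D)
    (hTF : ∀ j, ∀ ζ ∈ R, T j ζ = ∑ z ∈ F ζ, h z ^ j) :
    ∃ N : E → ℂ, DifferentiableOn ℂ N D ∧ ∀ ζ ∈ R, N ζ = ∏ z ∈ F ζ, h z := by
  obtain ⟨N, hN, hN2⟩ := exists_esymm hT hTF d
  refine ⟨N, hN, fun ζ hζ => ?_⟩
  rw [hN2 ζ hζ, ← hF ζ hζ, powersetCard_self, Finset.sum_singleton]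

/-- the monic polynomial with roots `h z`, `z ∈ F ζ`, has holomorphic coefficients. -/
theorem exists_poly {d : ℕ} (hF : ∀ ζ ∈ R, (F ζ).card = d)
    (hT : ∀ j, DifferentiableOn ℂ (T j) D)
    (hTF : ∀ j, ∀ ζ ∈ R, T j ζ = ∑ z ∈ F ζ, h z ^ j) :
    ∃ c : ℕ → E → ℂ, (∀ k, DifferentiableOn ℂ (c k) D) ∧ ∀ ζ ∈ R, ∀ w : ℂ,
      ∏ z ∈ F ζ, (w - h z) = ∑ k ∈ Finset.range (d + 1), (-1) ^ k * c k ζ * w ^ (d - k) := by
  choose c hc hc2 using fun k => exists_esymm hT hTF k
  refine ⟨c, hc, fun ζ hζ w => ?_⟩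
  have h1 := Multiset.prod_X_sub_X_eq_sum_esymm ((F ζ).val.map h)
  have h2 := congrArg (Polynomial.eval w) h1
  rw [Polynomial.eval_multiset_prod, Multiset.map_map, Multiset.map_map,
    Polynomial.eval_finsetSum, Multiset.card_map, Finset.card_val, hF ζ hζ] at h2
  have h3 : ∏ z ∈ F ζ, (w - h z) = (Multiset.map (Polynomial.eval w ∘
      (fun t => Polynomial.X - Polynomial.C t) ∘ h) (F ζ).val).prod := by
    unfold Finset.prod
    congr 2
    funext z
    simp
  refine (h3.trans h2).trans (Finset.sum_congr rfl fun k _ => ?_)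
  rw [Finset.esymm_map_val, hc2 k ζ hζ, Polynomial.eval_mul, Polynomial.eval_mul,
    Polynomial.eval_C, Polynomial.eval_pow, Polynomial.eval_pow, Polynomial.eval_X,
    Polynomial.eval_neg, Polynomial.eval_one]
  ring

theorem norm_le {d : ℕ} {s : Finset α} (hs : s.card = d) {M : ℝ} (hM : ∀ z ∈ s, ‖h z‖ ≤ M) :
    ‖∏ z ∈ s, h z‖ ≤ M ^ d := by
  rw [norm_prod, ← hs, ← Finset.prod_const]
  exact Finset.prod_le_prod (fun _ _ => norm_nonneg _) hM

theorem le_norm {d : ℕ} {s : Finset α} (hs : s.card = d) {m : ℝ} (hm0 : 0 ≤ m)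
    (hm : ∀ z ∈ s, m ≤ ‖h z‖) : m ^ d ≤ ‖∏ z ∈ s, h z‖ := by
  rw [norm_prod, ← hs, ← Finset.prod_const]
  exact Finset.prod_le_prod (fun _ _ => hm0) hm

end hol

section dense

variable {X : Type u} [TopologicalSpace X]

/-- inequalities between continuous functions pass to the closure. -/
theorem le_of_dense {D R : Set X} (hRD : R ⊆ D) (hR : D ⊆ closure R) {f g : X → ℝ}
    (hf : ContinuousOn f D) (hg : ContinuousOn g D) (h : ∀ x ∈ R, f x ≤ g x) :
    ∀ x ∈ D, f x ≤ g x := by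
  intro x hx
  have h1 : x ∈ closure R := hR hx
  exact ContinuousWithinAt.closure_le h1 ((hf x hx).mono hRD) ((hg x hx).mono hRD) h

theorem eq_of_dense {D R : Set X} (hRD : R ⊆ D) (hR : D ⊆ closure R) {f g : X → ℂ}
    (hf : ContinuousOn f D) (hg : ContinuousOn g D) (h : ∀ x ∈ R, f x = g x) :
    ∀ x ∈ D, f x = g x := by
  have h1 : ∀ x ∈ D, ‖f x - g x‖ ≤ 0 := le_of_dense hRD hR (hf.sub hg).norm continuousOn_const
    (fun x hx => by rw [h x hx, sub_self, norm_zero])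
  intro x hx
  exact sub_eq_zero.mp (norm_le_zero_iff.mp (h1 x hx))

/-- **the compact neighbourhood cut out by finitely many functions.** -/
theorem exists_w {Λ : Type v} {W : Λ → X → ℂ} {U K : Set X} {x0 : X} (hU : IsOpen U)
    (hUK : U ⊆ K) (hK : IsCompact K) (hW : ∀ f, ContinuousOn (W f) K)
    (hsep : ∀ x ∈ K \ U, ∃ f, W f x ≠ W f x0) :
    ∃ (r : ℕ) (l : Fin r → Λ) (ρ : ℝ), 0 < ρ ∧
      IsCompact {x | x ∈ U ∧ ∑ k, ‖W (l k) x - W (l k) x0‖ ^ 2 ≤ ρ} := by
  classical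
  rcases (K \ U).eq_empty_or_nonempty with h0 | ⟨x1, hx1⟩
  · have h1 : K ⊆ U := Set.sdiff_eq_empty.mp h0
    refine ⟨0, Fin.elim0, 1, one_pos, ?_⟩
    have h2 : {x | x ∈ U ∧ ∑ k : Fin 0, ‖W (Fin.elim0 k) x - W (Fin.elim0 k) x0‖ ^ 2 ≤ 1} = K := by
      ext x
      simp only [Finset.univ_eq_empty, Finset.sum_empty, zero_le_one, and_true,
        Set.mem_ofPred_eq]
      exact ⟨fun h => hUK h, fun h => h1 h⟩
    rw [h2]
    exact hK
  have hne : Nonempty Λ := ⟨(hsep x1 hx1).choose⟩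
  choose! f hf using hsep
  have hC : IsCompact (K \ U) := hK.diff hU
  have hg : ∀ f, ContinuousOn (fun x => ‖W f x - W f x0‖ ^ 2) K := fun f =>
    (((hW f).sub continuousOn_const).norm).pow 2
  -- finite subfamily
  have hnb : ∀ x ∈ K \ U, {y | 0 < ‖W (f x) y - W (f x) x0‖ ^ 2} ∈ 𝓝[K \ U] x := by
    intro x hx
    have h1 : 0 < ‖W (f x) x - W (f x) x0‖ ^ 2 := by
      have := norm_pos_iff.mpr (sub_ne_zero.mpr (hf x hx))
      positivity
    have h2 : ContinuousWithinAt (fun y => ‖W (f x) y - W (f x) x0‖ ^ 2) (K \ U) x :=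
      ((hg (f x)) x hx.1).mono Set.sdiff_subset
    exact h2 (lt_mem_nhds h1)
  obtain ⟨t, htK, ht⟩ := hC.elim_nhdsWithin_subcover (fun x =>
    {y | 0 < ‖W (f x) y - W (f x) x0‖ ^ 2}) hnb
  let e : Fin t.card ≃ t := t.equivFin.symm
  let l : Fin t.card → Λ := fun k => f (e k)
  let g : X → ℝ := fun x => ∑ k, ‖W (l k) x - W (l k) x0‖ ^ 2
  have hgK : ContinuousOn g K := continuousOn_finsetSum _ fun k _ => hg (l k)
  have hpos : ∀ x ∈ K \ U, 0 < g x := by
    intro x hx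
    obtain ⟨y, hy, hxy⟩ := Set.mem_iUnion₂.mp (ht hx)
    refine Finset.sum_pos' (fun k _ => by positivity) ⟨e.symm ⟨y, hy⟩, Finset.mem_univ _, ?_⟩
    have h1 : l (e.symm ⟨y, hy⟩) = f y := by
      show f (e (e.symm ⟨y, hy⟩)) = f y
      rw [Equiv.apply_symm_apply]
    show 0 < ‖W (l (e.symm ⟨y, hy⟩)) x - W (l (e.symm ⟨y, hy⟩)) x0‖ ^ 2
    rw [h1]
    exact hxy
  obtain ⟨m, hm, hgm⟩ : ∃ m : ℝ, 0 < m ∧ ∀ x ∈ K \ U, m ≤ g x := by
    rcases (K \ U).eq_empty_or_nonempty with h0 | h0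
    · exact ⟨1, one_pos, fun x hx => by rw [h0] at hx; exact hx.elim⟩
    · obtain ⟨x, hx, hmin⟩ := hC.exists_isMinOn h0 (hgK.mono Set.sdiff_subset)
      exact ⟨g x, hpos x hx, fun y hy => hmin hy⟩
  refine ⟨t.card, l, m / 2, half_pos hm, ?_⟩
  have h1 : {x | x ∈ U ∧ g x ≤ m / 2} = K ∩ {x | g x ≤ m / 2} := by
    ext x
    constructor
    · rintro ⟨h1, h2⟩
      exact ⟨hUK h1, h2⟩
    · rintro ⟨h1, h2⟩
      refine ⟨?_, h2⟩
      by_contra h3
      have h4 := hgm x ⟨h1, h3⟩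
      have h5 : g x ≤ m / 2 := h2
      linarith
  show IsCompact {x | x ∈ U ∧ g x ≤ m / 2}
  rw [h1]
  obtain ⟨V, hV, hVK⟩ := (continuousOn_iff_isClosed.mp hgK) (Set.Iic (m / 2)) isClosed_Iic
  have h2 : K ∩ {x | g x ≤ m / 2} = K ∩ V := by
    have h3 : {x | g x ≤ m / 2} = g ⁻¹' Set.Iic (m / 2) := rfl
    rw [h3, Set.inter_comm, hVK, Set.inter_comm]
  rw [h2]
  exact hK.inter_right hV

end dense

end Crest.Agent.R281.Tc_941
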