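import Crest.Agent.R281.Defs_273
import Crest.Agent.R273.HM_333
import Crest.Agent.R271.RExt2_747

/-!
# R281 (S0424), S6-FRAME, part 2 (helper941): extension across a removable set and the frame

`Rem A Om`  : bounded holomorphic functions extend across the complement of the open set `Om`;
`ext_fun`   : extension of locally bounded holomorphic functions from `U ∩ Om` to `U`;
`frame`     : `s` a section of `L` over `U`, not locally zero, `N` holomorphic on `U ∩ Om` with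
              `C⁻¹ |s|^(2d) ≤ |N|² ≤ C |s|^(2d)`: then `s^d / N` extends to a frame of `L^d` on `U`.
-/

set_option autoImplicit false
set_option linter.unusedSectionVars false

open Set Filter Topology Complex
open scoped ContDiff Matrix ComplexConjugate Manifold ComplexOrder ENNReal

namespace Crest.Agent.R281.Tc_941

open Crest.Agent.R275.Geo Crest.Agent.R275.Core144 Crest.Agent.R275.GC293
open Crest.Agent.R273.Defs_333 Crest.Agent.R273.Kah_333 Crest.Agent.R273.HM_333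
open Crest.Agent.R281.Defs_273

noncomputable section

section riemann

variable {n : ℕ}

/-- **Riemann extension theorem** (bounded functions, Euclidean model space). -/
theorem riemann_bdd {U : Set (Cn n)} (hU : IsOpen U) {f D : Cn n → ℂ}
    (hD : DifferentiableOn ℂ D U) (hne : ∀ a ∈ U, ¬ ∀ᶠ z in 𝓝 a, D z = 0)
    (hf : DifferentiableOn ℂ f (U ∩ {z | D z ≠ 0}))
    (hb : ∀ a ∈ U, ∃ C : ℝ, ∀ᶠ z in 𝓝[U ∩ {z | D z ≠ 0}] a, ‖f z‖ ≤ C) :
    ∃ g : Cn n → ℂ, DifferentiableOn ℂ g U ∧ ∀ z ∈ U, D z ≠ 0 → g z = f z := by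
  let E : (Fin n → ℂ) ≃L[ℂ] Cn n := (EuclideanSpace.equiv (Fin n) ℂ).symm
  have hU' : IsOpen (E ⁻¹' U) := hU.preimage E.continuous
  have hEd : ∀ (T : Set (Fin n → ℂ)), DifferentiableOn ℂ E T := fun T =>
    E.differentiable.differentiableOn
  have hD' : DifferentiableOn ℂ (D ∘ E) (E ⁻¹' U) := hD.comp (hEd _) fun z hz => hz
  have hDa : AnalyticOnNhd ℂ (D ∘ E) (E ⁻¹' U) :=
    Crest.Agent.R266.SCV.analyticOnNhd_of_differentiableOn hU' hD'
  obtain ⟨g, hg, hgf⟩ := Crest.Agent.R271.RExt747.riemann_ext (f := f ∘ E) (D := D ∘ E) hU' hDa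
    (fun a ha h => hne (E a) ha (by
      have h1 : Tendsto E.symm (𝓝 (E a)) (𝓝 a) := by
        have := E.symm.continuous.tendsto (E a)
        rwa [E.symm_apply_apply] at this
      filter_upwards [h1.eventually h] with z hz
      have : (D ∘ E) (E.symm z) = D z := by simp
      rw [← this]
      exact hz))
    (hf.comp (hEd _) fun z hz => ⟨hz.1, hz.2⟩) (fun a ha => by
      obtain ⟨C, hC⟩ := hb (E a) ha
      have h1 : Tendsto E (𝓝[E ⁻¹' (U ∩ {z | D z ≠ 0})] a) (𝓝[U ∩ {z | D z ≠ 0}] (E a)) :=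
        tendsto_nhdsWithin_iff.mpr ⟨(E.continuous.tendsto a).mono_left nhdsWithin_le_nhds,
          by filter_upwards [self_mem_nhdsWithin] with z hz using hz⟩
      have h2 := h1.eventually hC
      rw [eventually_nhdsWithin_iff] at h2
      obtain ⟨r, hr, hball⟩ := Metric.eventually_nhds_iff_ball.mp (h2.and (hU'.mem_nhds ha))
      refine ⟨Metric.ball a r, Metric.ball_mem_nhds _ hr, ?_⟩
      have h3 : ∀ z ∈ Metric.ball a r ∩ {z | (D ∘ E) z ≠ 0}, ‖(f ∘ E) z‖ₑ ^ 2 ≤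
          ENNReal.ofReal C ^ 2 := by
        intro z hz
        have h4 := (hball z hz.1).1 ⟨(hball z hz.1).2, hz.2⟩
        gcongr
        rw [← ofReal_norm]
        exact ENNReal.ofReal_le_ofReal h4
      have hm : MeasurableSet (Metric.ball a r ∩ {z | (D ∘ E) z ≠ 0}) := by
        have h5 : Metric.ball a r ∩ {z | (D ∘ E) z ≠ 0} =
            (Metric.ball a r ∩ (D ∘ E) ⁻¹' {0}ᶜ) := rfl
        have h6 : Metric.ball a r ⊆ E ⁻¹' U := fun z hz => (hball z hz).2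
        rw [h5]
        exact ((hD'.continuousOn.mono h6).isOpen_inter_preimage Metric.isOpen_ball
          isOpen_compl_singleton).measurableSet
      calc _ ≤ ∫⁻ _ in Metric.ball a r ∩ {z | (D ∘ E) z ≠ 0}, ENNReal.ofReal C ^ 2 :=
            MeasureTheory.setLIntegral_mono' hm h3
        _ = ENNReal.ofReal C ^ 2 * MeasureTheory.volume
              (Metric.ball a r ∩ {z | (D ∘ E) z ≠ 0}) := by
            rw [MeasureTheory.setLIntegral_const]
        _ < ⊤ := ENNReal.mul_lt_top (ENNReal.pow_lt_top ENNReal.ofReal_lt_top)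
            (lt_of_le_of_lt (MeasureTheory.measure_mono inter_subset_left)
              Metric.isBounded_ball.measure_lt_top))
  refine ⟨g ∘ E.symm, ?_, fun z hz hDz => ?_⟩
  · refine hg.comp E.symm.differentiable.differentiableOn fun z hz => ?_
    show E (E.symm z) ∈ U
    rwa [E.apply_symm_apply]
  · have h1 : E (E.symm z) = z := E.apply_symm_apply z
    have h2 := hgf (E.symm z) (by show E (E.symm z) ∈ U; rwa [h1])
      (by show D (E (E.symm z)) ≠ 0; rwa [h1])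
    show g (E.symm z) = f z
    rw [h2]
    show f (E (E.symm z)) = f z
    rw [h1]

end riemann

section atlas

variable {n : ℕ} {M : Type} [TopologicalSpace M] {A : Atl n M}

/-- bounded holomorphic functions extend (locally) across the complement of `Om`. -/
def Rem (A : Atl n M) (Om : Set M) : Prop :=
  ∀ i, ∀ V : Set (Cn n), IsOpen V → V ⊆ (A.e i).target → ∀ z0 ∈ V, ∀ f : Cn n → ℂ,
    DifferentiableOn ℂ f (V ∩ (A.e i).symm ⁻¹' Om) →
    (∃ C : ℝ, ∀ z ∈ V ∩ (A.e i).symm ⁻¹' Om, ‖f z‖ ≤ C) →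
    ∃ V' : Set (Cn n), IsOpen V' ∧ z0 ∈ V' ∧ V' ⊆ V ∧ ∃ g : Cn n → ℂ, DifferentiableOn ℂ g V' ∧
      ∀ z ∈ V' ∩ (A.e i).symm ⁻¹' Om, g z = f z

/-- extension across `{D = 0}` and the complement of `Om`. -/
theorem ext_local {Om : Set M} (hR : Rem A Om) (hO : IsOpen Om) {i : A.ι} {V : Set (Cn n)}
    (hV : IsOpen V) (hVt : V ⊆ (A.e i).target) {D f : Cn n → ℂ} (hD : DifferentiableOn ℂ D V)
    (hne : ∀ a ∈ V, ¬ ∀ᶠ z in 𝓝 a, D z = 0)
    (hf : DifferentiableOn ℂ f (V ∩ (A.e i).symm ⁻¹' Om ∩ {z | D z ≠ 0})) {C : ℝ}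
    (hb : ∀ z ∈ V ∩ (A.e i).symm ⁻¹' Om ∩ {z | D z ≠ 0}, ‖f z‖ ≤ C) {z0 : Cn n} (hz0 : z0 ∈ V) :
    ∃ V' : Set (Cn n), IsOpen V' ∧ z0 ∈ V' ∧ V' ⊆ V ∧ ∃ g : Cn n → ℂ, DifferentiableOn ℂ g V' ∧
      ∀ z ∈ V' ∩ (A.e i).symm ⁻¹' Om, D z ≠ 0 → g z = f z := by
  have hVO : IsOpen (V ∩ (A.e i).symm ⁻¹' Om) := by
    have h1 : V ∩ (A.e i).symm ⁻¹' Om = V ∩ ((A.e i).target ∩ (A.e i).symm ⁻¹' Om) := by
      ext z
      exact ⟨fun h => ⟨h.1, hVt h.1, h.2⟩, fun h => ⟨h.1, h.2.2⟩⟩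
    rw [h1]
    exact hV.inter (isOpen_ti hO)
  obtain ⟨g1, hg1, hg1f⟩ := riemann_bdd hVO (hD.mono inter_subset_left)
    (fun a ha => hne a ha.1) hf (fun a _ => ⟨C, by
      filter_upwards [self_mem_nhdsWithin] with z hz using hb z hz⟩)
  have hb1 : ∀ z ∈ V ∩ (A.e i).symm ⁻¹' Om, ‖g1 z‖ ≤ C := by
    intro z hz
    have h1 : z ∈ closure (V ∩ (A.e i).symm ⁻¹' Om ∩ {z | D z ≠ 0}) := by
      rw [mem_closure_iff_frequently]
      have h2 : ∃ᶠ w in 𝓝 z, D w ≠ 0 := Filter.not_eventually.1 (hne z hz.1)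
      refine (h2.and_eventually (hVO.mem_nhds hz)).mono fun w hw => ⟨hw.2, hw.1⟩
    have h3 : ContinuousWithinAt (fun w => ‖g1 w‖) (V ∩ (A.e i).symm ⁻¹' Om ∩ {z | D z ≠ 0}) z :=
      ((hg1.differentiableAt (hVO.mem_nhds hz)).continuousAt.norm).continuousWithinAt
    refine h3.closure_le h1 continuousWithinAt_const fun w hw => ?_
    rw [hg1f w hw.1 hw.2]
    exact hb w hw
  obtain ⟨V', hV', hz0', hV'V, g, hg, hgg⟩ := hR i V hV hVt z0 hz0 g1 hg1 ⟨C, hb1⟩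
  exact ⟨V', hV', hz0', hV'V, g, hg, fun z hz hDz => by
    rw [hgg z hz, hg1f z ⟨hV'V hz.1, hz.2⟩ hDz]⟩

/-- the points of the chart `i` near `x`, in `S`, read in the chart. -/
theorem tendsto_chart {i : A.ι} {x : M} (hx : x ∈ (A.e i).source) {g : Cn n → ℂ}
    (hg : ContinuousAt g (A.e i x)) (S : Set M) :
    Tendsto (fun y => g (A.e i y)) (𝓝[S] x) (𝓝 (g (A.e i x))) :=
  (hg.tendsto.comp ((A.e i).continuousAt hx)).mono_left nhdsWithin_le_nhds

/-- **extension of locally bounded holomorphic functions.** -/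
theorem ext_fun {Om U : Set M} (hR : Rem A Om) (hd : Dense Om) (hU : IsOpen U)
    {f : M → ℂ} (hf : ∀ i, HolAt A i (U ∩ Om) f)
    (hb : ∀ x ∈ U, ∃ C : ℝ, ∀ᶠ y in 𝓝[U ∩ Om] x, ‖f y‖ ≤ C) :
    ∃ F : M → ℂ, (∀ i, HolAt A i U F) ∧ (∀ x ∈ U ∩ Om, F x = f x) ∧
      ∀ x ∈ U, Tendsto f (𝓝[U ∩ Om] x) (𝓝 (F x)) := by
  have hNB : ∀ x ∈ U, (𝓝[U ∩ Om] x).NeBot := by
    intro x hx
    rw [← mem_closure_iff_nhdsWithin_neBot]
    exact hd.open_subset_closure_inter hU hx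
  have key : ∀ i, ∀ x ∈ (A.e i).source, x ∈ U → ∃ V : Set (Cn n), IsOpen V ∧ A.e i x ∈ V ∧
      V ⊆ (A.e i).target ∩ (A.e i).symm ⁻¹' U ∧ ∃ g : Cn n → ℂ, DifferentiableOn ℂ g V ∧
      ∀ z ∈ V ∩ (A.e i).symm ⁻¹' Om, g z = f ((A.e i).symm z) := by
    intro i x hx hxU
    obtain ⟨C, hC⟩ := hb x hxU
    rw [eventually_nhdsWithin_iff] at hC
    obtain ⟨O, hOC, hOo, hxO⟩ := _root_.mem_nhds_iff.mp hC
    have hW : IsOpen ((A.e i).target ∩ (A.e i).symm ⁻¹' (U ∩ O)) := isOpen_ti (hU.inter hOo)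
    obtain ⟨V', hV', hz0', hV'V, g, hg, hgf⟩ := hR i _ hW inter_subset_left (A.e i x)
      ⟨(A.e i).map_source hx, by
        rw [mem_preimage, (A.e i).left_inv hx]
        exact ⟨hxU, hxO⟩⟩ (fun z => f ((A.e i).symm z))
      (DifferentiableOn.mono (hf i) fun z hz => ⟨hz.1.1, hz.1.2.1, hz.2⟩)
      ⟨C, fun z hz => hOC hz.1.2.2 ⟨hz.1.2.1, hz.2⟩⟩
    exact ⟨V', hV', hz0', fun z hz => ⟨(hV'V hz).1, (hV'V hz).2.1⟩, g, hg, hgf⟩
  have lim : ∀ i, ∀ x ∈ (A.e i).source, x ∈ U → ∀ V : Set (Cn n), IsOpen V → A.e i x ∈ V →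
      ∀ g : Cn n → ℂ, DifferentiableOn ℂ g V →
      (∀ z ∈ V ∩ (A.e i).symm ⁻¹' Om, g z = f ((A.e i).symm z)) →
      Tendsto f (𝓝[U ∩ Om] x) (𝓝 (g (A.e i x))) := by
    intro i x hx hxU V hV hxV g hg hgf
    refine (tendsto_chart hx (hg.differentiableAt (hV.mem_nhds hxV)).continuousAt
      (U ∩ Om)).congr' ?_
    have h1 : ∀ᶠ y in 𝓝 x, y ∈ (A.e i).source ∧ A.e i y ∈ V :=
      Filter.Eventually.and ((A.e i).open_source.mem_nhds hx)
        (((A.e i).continuousAt hx).eventually_mem (hV.mem_nhds hxV))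
    filter_upwards [nhdsWithin_le_nhds h1, self_mem_nhdsWithin] with y hy hy2
    have h2 := hgf (A.e i y) ⟨hy.2, by
      rw [mem_preimage, (A.e i).left_inv hy.1]
      exact hy2.2⟩
    rw [h2, (A.e i).left_inv hy.1]
  refine ⟨fun x => limUnder (𝓝[U ∩ Om] x) f, fun i z hz => ?_, fun x hx => ?_, fun x hx => ?_⟩
  · have hx : (A.e i).symm z ∈ (A.e i).source := (A.e i).map_target hz.1
    have hex : A.e i ((A.e i).symm z) = z := (A.e i).right_inv hz.1
    obtain ⟨V, hV, hxV, hVU, g, hg, hgf⟩ := key i _ hx hz.2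
    rw [hex] at hxV
    refine ((hg.differentiableAt (hV.mem_nhds hxV)).congr_of_eventuallyEq
      ?_).differentiableWithinAt
    filter_upwards [hV.mem_nhds hxV] with w hw
    have hw' : (A.e i).symm w ∈ (A.e i).source := (A.e i).map_target (hVU hw).1
    have hew : A.e i ((A.e i).symm w) = w := (A.e i).right_inv (hVU hw).1
    have := hNB _ (hVU hw).2
    have h3 := lim i _ hw' (hVU hw).2 V hV (by rw [hew]; exact hw) g hg hgf
    rw [hew] at h3
    exact h3.limUnder_eq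
  · obtain ⟨i, hi⟩ := A.cover x
    have := hNB x hx.1
    obtain ⟨V, hV, hxV, hVU, g, hg, hgf⟩ := key i x hi hx.1
    have h3 := lim i x hi hx.1 V hV hxV g hg hgf
    show limUnder (𝓝[U ∩ Om] x) f = f x
    rw [h3.limUnder_eq, hgf _ ⟨hxV, by
      rw [mem_preimage, (A.e i).left_inv hi]
      exact hx.2⟩, (A.e i).left_inv hi]
  · obtain ⟨i, hi⟩ := A.cover x
    have := hNB x hx
    obtain ⟨V, hV, hxV, hVU, g, hg, hgf⟩ := key i x hi hx
    have h3 := lim i x hi hx V hV hxV g hg hgf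
    show Tendsto f (𝓝[U ∩ Om] x) (𝓝 (limUnder (𝓝[U ∩ Om] x) f))
    rw [h3.limUnder_eq]
    exact h3

/-- the set where the section `s` does not vanish. -/
def nz (s : A.ι → M → ℂ) : Set M := {y | ∀ i, y ∈ (A.e i).source → s i y ≠ 0}

theorem mem_nz {L : LB A} {U : Set M} {s : A.ι → M → ℂ} (hs : IsHS L U s) {i : A.ι} {y : M}
    (hy : y ∈ (A.e i).source) (hyU : y ∈ U) (h0 : s i y ≠ 0) : y ∈ nz s := by
  intro j hj h
  exact h0 ((hs.zero_iff ⟨hj, hy⟩ hyU).mp h)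

/-- **the frame.** -/
theorem frame {Om U : Set M} (hR : Rem A Om) (hO : IsOpen Om) (hd : Dense Om) (hU : IsOpen U)
    {L : LB A} (h : HM L) {s : A.ι → M → ℂ} (hs : IsHS L U s)
    (hsne : ∀ i, ∀ x ∈ (A.e i).source, x ∈ U → ¬ ∀ᶠ y in 𝓝 x, s i y = 0)
    {N : M → ℂ} (hN : ∀ i, HolAt A i (U ∩ Om) N) {d : ℕ} {c C : ℝ} (hc : 0 < c)
    (hlo : ∀ i, ∀ y ∈ (A.e i).source, y ∈ U → y ∈ Om →
      c * (‖s i y‖ ^ 2 * h.w i y) ^ d ≤ ‖N y‖ ^ 2)
    (hup : ∀ i, ∀ y ∈ (A.e i).source, y ∈ U → y ∈ Om →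
      ‖N y‖ ^ 2 ≤ C * (‖s i y‖ ^ 2 * h.w i y) ^ d) :
    ∃ τ : A.ι → M → ℂ, IsHS (L ^ d) U τ ∧
      (∀ i, ∀ x ∈ (A.e i).source, x ∈ U → τ i x ≠ 0) ∧
      (∀ i, ∀ x ∈ (A.e i).source, x ∈ U → x ∈ Om → s i x ≠ 0 → τ i x = s i x ^ d / N x) ∧
      ∀ i, ∀ x ∈ (A.e i).source, x ∈ U →
        1 ≤ C * (‖τ i x‖ ^ 2 * h.w i x ^ d) ∧ c * (‖τ i x‖ ^ 2 * h.w i x ^ d) ≤ 1 := by
  classical
  set S : Set M := {y | y ∈ U ∧ y ∈ Om ∧ y ∈ nz s} with hS
  have hNB : ∀ x ∈ U, (𝓝[S] x).NeBot := by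
    intro x hx
    rw [← mem_closure_iff_nhdsWithin_neBot, mem_closure_iff]
    intro O hOo hxO
    obtain ⟨y, hyO, hyOm⟩ := hd.inter_open_nonempty (O ∩ U) (hOo.inter hU) ⟨x, hxO, hx⟩
    obtain ⟨i, hi⟩ := A.cover y
    have h1 : ∃ᶠ z in 𝓝 y, s i z ≠ 0 := Filter.not_eventually.1 (hsne i y hi hyO.2)
    have h2 : ∀ᶠ z in 𝓝 y, z ∈ O ∧ z ∈ U ∧ z ∈ Om ∧ z ∈ (A.e i).source :=
      Filter.Eventually.and (hOo.mem_nhds hyO.1) (Filter.Eventually.and (hU.mem_nhds hyO.2)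
        (Filter.Eventually.and (hO.mem_nhds hyOm) ((A.e i).open_source.mem_nhds hi)))
    obtain ⟨z, hz1, hz2⟩ := (h1.and_eventually h2).exists
    exact ⟨z, hz2.1, hz2.2.1, hz2.2.2.1, mem_nz hs hz2.2.2.2 hz2.2.1 hz1⟩
  -- bounds on `S`
  have hSN : ∀ y ∈ S, N y ≠ 0 := by
    intro y hy h0
    obtain ⟨i, hi⟩ := A.cover y
    have h1 := hlo i y hi hy.1 hy.2.1
    rw [h0, norm_zero, zero_pow two_ne_zero] at h1
    have h2 : 0 < ‖s i y‖ ^ 2 * h.w i y := by
      have := h.pos i y hi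
      have h3 : 0 < ‖s i y‖ := norm_pos_iff.mpr (hy.2.2 i hi)
      positivity
    have h3 : 0 < c * (‖s i y‖ ^ 2 * h.w i y) ^ d := by positivity
    linarith
  have hq : ∀ i, ∀ y ∈ (A.e i).source, y ∈ S →
      1 ≤ C * (‖s i y ^ d / N y‖ ^ 2 * h.w i y ^ d) ∧
        c * (‖s i y ^ d / N y‖ ^ 2 * h.w i y ^ d) ≤ 1 := by
    intro i y hi hy
    have h0 : 0 < ‖N y‖ ^ 2 := by
      have := norm_pos_iff.mpr (hSN y hy)
      positivity
    have h1 : ‖s i y ^ d / N y‖ ^ 2 * h.w i y ^ d = (‖s i y‖ ^ 2 * h.w i y) ^ d / ‖N y‖ ^ 2 := by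
      rw [norm_div, norm_pow, div_pow, mul_pow, ← pow_mul, ← pow_mul, mul_comm d 2]
      ring
    rw [h1]
    constructor
    · rw [← mul_div_assoc, one_le_div h0]
      exact hup i y hi hy.1 hy.2.1
    · rw [← mul_div_assoc, div_le_one h0]
      exact hlo i y hi hy.1 hy.2.1
  -- local extension
  have key : ∀ i, ∀ x ∈ (A.e i).source, x ∈ U → ∃ V : Set (Cn n), IsOpen V ∧ A.e i x ∈ V ∧
      V ⊆ (A.e i).target ∩ (A.e i).symm ⁻¹' U ∧ ∃ g : Cn n → ℂ, DifferentiableOn ℂ g V ∧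
      ∀ z ∈ V, (A.e i).symm z ∈ S → g z = s i ((A.e i).symm z) ^ d / N ((A.e i).symm z) := by
    intro i x hx hxU
    have hw0 : 0 < h.w i x := h.pos i x hx
    have hwc : ContinuousAt (fun z => h.w i ((A.e i).symm z)) (A.e i x) :=
      ((h.sm i).continuousOn).continuousAt ((A.e i).open_target.mem_nhds ((A.e i).map_source hx))
    have hw1 : ∀ᶠ z in 𝓝 (A.e i x), h.w i x / 2 < h.w i ((A.e i).symm z) := by
      refine hwc.eventually (lt_mem_nhds ?_)
      show h.w i x / 2 < h.w i ((A.e i).symm (A.e i x))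
      rw [(A.e i).left_inv hx]
      linarith
    obtain ⟨O, hOw, hOo, hxO⟩ := _root_.mem_nhds_iff.mp hw1
    set V : Set (Cn n) := ((A.e i).target ∩ (A.e i).symm ⁻¹' U) ∩ O with hVdef
    have hV : IsOpen V := (isOpen_ti hU).inter hOo
    have hxV : A.e i x ∈ V := ⟨⟨(A.e i).map_source hx, by
      rw [mem_preimage, (A.e i).left_inv hx]
      exact hxU⟩, hxO⟩
    have hDd : DifferentiableOn ℂ (fun z => s i ((A.e i).symm z)) V :=
      DifferentiableOn.mono (hs.hol i) inter_subset_left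
    have hnz : ∀ z ∈ V, s i ((A.e i).symm z) ≠ 0 → (A.e i).symm z ∈ nz s := fun z hz h0 =>
      mem_nz hs ((A.e i).map_target hz.1.1) hz.1.2 h0
    have hSV : ∀ z ∈ V ∩ (A.e i).symm ⁻¹' Om ∩ {z | s i ((A.e i).symm z) ≠ 0},
        (A.e i).symm z ∈ S := fun z hz => ⟨hz.1.1.1.2, hz.1.2, hnz z hz.1.1 hz.2⟩
    have hC0 : 0 < C := by
      obtain ⟨y, hy⟩ := (hNB x hxU).nonempty_of_mem self_mem_nhdsWithin
      obtain ⟨j, hj⟩ := A.cover y
      have h1 := (hq j y hj hy).1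
      have h2 : 0 ≤ ‖s j y ^ d / N y‖ ^ 2 * h.w j y ^ d := by
        have := (h.pos j y hj).le
        positivity
      by_contra hcon
      push Not at hcon
      nlinarith
    have hfd : DifferentiableOn ℂ (fun z => s i ((A.e i).symm z) ^ d / N ((A.e i).symm z))
        (V ∩ (A.e i).symm ⁻¹' Om ∩ {z | s i ((A.e i).symm z) ≠ 0}) := by
      have e1 : DifferentiableOn ℂ (fun z => s i ((A.e i).symm z))
          (V ∩ (A.e i).symm ⁻¹' Om ∩ {z | s i ((A.e i).symm z) ≠ 0}) :=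
        hDd.mono fun z hz => hz.1.1
      have e2 : DifferentiableOn ℂ (fun z => N ((A.e i).symm z))
          (V ∩ (A.e i).symm ⁻¹' Om ∩ {z | s i ((A.e i).symm z) ≠ 0}) :=
        DifferentiableOn.mono (hN i) fun z hz => ⟨hz.1.1.1.1, hz.1.1.1.2, hz.1.2⟩
      refine ((e1.pow d).mul (e2.inv fun z hz => hSN _ (hSV z hz))).congr fun z _ => ?_
      exact div_eq_mul_inv (s i ((A.e i).symm z) ^ d) (N ((A.e i).symm z))
    obtain ⟨V', hV', hxV', hV'V, g, hg, hgf⟩ := ext_local hR hO hV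
      (fun z hz => hz.1.1) hDd (fun a ha hcon => by
        refine hsne i _ ((A.e i).map_target ha.1.1) ha.1.2 ?_
        have h1 := ((A.e i).continuousAt ((A.e i).map_target ha.1.1)).eventually
          (by rw [(A.e i).right_inv ha.1.1]; exact hcon)
        filter_upwards [h1, (A.e i).open_source.mem_nhds ((A.e i).map_target ha.1.1)] with y hy hy2
        rwa [(A.e i).left_inv hy2] at hy)
      (f := fun z => s i ((A.e i).symm z) ^ d / N ((A.e i).symm z))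
      (C := Real.sqrt ((c * (h.w i x / 2) ^ d)⁻¹))
      hfd
      (fun z hz => by
        have h1 := (hq i _ ((A.e i).map_target hz.1.1.1.1) (hSV z hz)).2
        have h2 : h.w i x / 2 < h.w i ((A.e i).symm z) := hOw hz.1.1.2
        refine Real.le_sqrt_of_sq_le ?_
        rw [le_inv_comm₀ (by
            have h3 := norm_pos_iff.mpr (div_ne_zero (pow_ne_zero d hz.2) (hSN _ (hSV z hz)))
            positivity) (by positivity)]
        have h4 : (h.w i x / 2) ^ d ≤ h.w i ((A.e i).symm z) ^ d := by gcongr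
        have h5 : 0 < ‖s i ((A.e i).symm z) ^ d / N ((A.e i).symm z)‖ ^ 2 := by
          have h3 := norm_pos_iff.mpr (div_ne_zero (pow_ne_zero d hz.2) (hSN _ (hSV z hz)))
          positivity
        rw [← one_div, le_div_iff₀ h5]
        calc c * (h.w i x / 2) ^ d * ‖s i ((A.e i).symm z) ^ d / N ((A.e i).symm z)‖ ^ 2
            = c * (‖s i ((A.e i).symm z) ^ d / N ((A.e i).symm z)‖ ^ 2 * (h.w i x / 2) ^ d) := by
              ring
          _ ≤ c * (‖s i ((A.e i).symm z) ^ d / N ((A.e i).symm z)‖ ^ 2 *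
                h.w i ((A.e i).symm z) ^ d) := by gcongr
          _ ≤ 1 := h1)
      hxV
    refine ⟨V', hV', hxV', fun z hz => (hV'V hz).1, g, hg, fun z hz hzS => ?_⟩
    exact hgf z ⟨hz, hzS.2.1⟩ (hzS.2.2 i ((A.e i).map_target (hV'V hz).1.1))
  -- limits
  have lim : ∀ i, ∀ x ∈ (A.e i).source, x ∈ U → ∀ V : Set (Cn n), IsOpen V → A.e i x ∈ V →
      ∀ g : Cn n → ℂ, DifferentiableOn ℂ g V →
      (∀ z ∈ V, (A.e i).symm z ∈ S → g z = s i ((A.e i).symm z) ^ d / N ((A.e i).symm z)) →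
      Tendsto (fun y => s i y ^ d / N y) (𝓝[S] x) (𝓝 (g (A.e i x))) := by
    intro i x hx hxU V hV hxV g hg hgf
    refine (tendsto_chart hx (hg.differentiableAt (hV.mem_nhds hxV)).continuousAt S).congr' ?_
    have h1 : ∀ᶠ y in 𝓝 x, y ∈ (A.e i).source ∧ A.e i y ∈ V :=
      Filter.Eventually.and ((A.e i).open_source.mem_nhds hx)
        (((A.e i).continuousAt hx).eventually_mem (hV.mem_nhds hxV))
    filter_upwards [nhdsWithin_le_nhds h1, self_mem_nhdsWithin] with y hy hy2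
    have h2 := hgf (A.e i y) hy.2 (by rw [(A.e i).left_inv hy.1]; exact hy2)
    rw [h2, (A.e i).left_inv hy.1]
  let τ : A.ι → M → ℂ := fun i x =>
    if x ∈ (A.e i).source then limUnder (𝓝[S] x) (fun y => s i y ^ d / N y) else 0
  have hτ : ∀ i, ∀ x ∈ (A.e i).source, x ∈ U →
      Tendsto (fun y => s i y ^ d / N y) (𝓝[S] x) (𝓝 (τ i x)) := by
    intro i x hx hxU
    have := hNB x hxU
    obtain ⟨V, hV, hxV, hVU, g, hg, hgf⟩ := key i x hx hxU
    have h3 := lim i x hx hxU V hV hxV g hg hgf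
    show Tendsto _ _ (𝓝 (if x ∈ (A.e i).source then _ else 0))
    rw [if_pos hx, h3.limUnder_eq]
    exact h3
  have hwt : ∀ i, ∀ x ∈ (A.e i).source, Tendsto (h.w i) (𝓝[S] x) (𝓝 (h.w i x)) := by
    intro i x hx
    have hwc : ContinuousAt (fun z => h.w i ((A.e i).symm z)) (A.e i x) :=
      ((h.sm i).continuousOn).continuousAt ((A.e i).open_target.mem_nhds ((A.e i).map_source hx))
    have h1 : Tendsto (fun y => h.w i ((A.e i).symm (A.e i y))) (𝓝 x)
        (𝓝 (h.w i ((A.e i).symm (A.e i x)))) := hwc.tendsto.comp ((A.e i).continuousAt hx)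
    rw [(A.e i).left_inv hx] at h1
    refine (h1.congr' ?_).mono_left nhdsWithin_le_nhds
    filter_upwards [(A.e i).open_source.mem_nhds hx] with y hy
    rw [(A.e i).left_inv hy]
  have hbd : ∀ i, ∀ x ∈ (A.e i).source, x ∈ U →
      1 ≤ C * (‖τ i x‖ ^ 2 * h.w i x ^ d) ∧ c * (‖τ i x‖ ^ 2 * h.w i x ^ d) ≤ 1 := by
    intro i x hx hxU
    have := hNB x hxU
    have h1 : Tendsto (fun y => ‖s i y ^ d / N y‖ ^ 2 * h.w i y ^ d) (𝓝[S] x)
        (𝓝 (‖τ i x‖ ^ 2 * h.w i x ^ d)) :=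
      ((hτ i x hx hxU).norm.pow 2).mul ((hwt i x hx).pow d)
    have h2 : ∀ᶠ y in 𝓝[S] x, y ∈ (A.e i).source ∧ y ∈ S :=
      Filter.Eventually.and (nhdsWithin_le_nhds ((A.e i).open_source.mem_nhds hx))
        self_mem_nhdsWithin
    constructor
    · exact ge_of_tendsto (h1.const_mul C) (h2.mono fun y hy => (hq i y hy.1 hy.2).1)
    · exact le_of_tendsto (h1.const_mul c) (h2.mono fun y hy => (hq i y hy.1 hy.2).2)
  refine ⟨τ, ⟨fun i => ?_, fun i x hx => if_neg hx, fun i j x hx hxU => ?_⟩, fun i x hx hxU h0 => ?_,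
    fun i x hx hxU hxO hsx => ?_, hbd⟩
  · intro z hz
    have hx : (A.e i).symm z ∈ (A.e i).source := (A.e i).map_target hz.1
    have hex : A.e i ((A.e i).symm z) = z := (A.e i).right_inv hz.1
    obtain ⟨V, hV, hxV, hVU, g, hg, hgf⟩ := key i _ hx hz.2
    rw [hex] at hxV
    refine ((hg.differentiableAt (hV.mem_nhds hxV)).congr_of_eventuallyEq
      ?_).differentiableWithinAt
    filter_upwards [hV.mem_nhds hxV] with w hw
    have hw' : (A.e i).symm w ∈ (A.e i).source := (A.e i).map_target (hVU hw).1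
    have hew : A.e i ((A.e i).symm w) = w := (A.e i).right_inv (hVU hw).1
    have := hNB _ (hVU hw).2
    have h3 := lim i _ hw' (hVU hw).2 V hV (by rw [hew]; exact hw) g hg hgf
    rw [hew] at h3
    exact tendsto_nhds_unique (hτ i _ hw' (hVU hw).2) h3
  · have := hNB x hxU
    have h1 := hτ i x hx.1 hxU
    have h2 := hτ j x hx.2 hxU
    have hgc : Tendsto (L.g i j) (𝓝[S] x) (𝓝 (L.g i j x)) := by
      have h3 : ContinuousAt (fun z => L.g i j ((A.e i).symm z)) (A.e i x) :=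
        (HolAt.diffAt (L.hol i j) (A.e j).open_source hx.1 hx.2).continuousAt
      have h4 : Tendsto (fun y => L.g i j ((A.e i).symm (A.e i y))) (𝓝 x)
          (𝓝 (L.g i j ((A.e i).symm (A.e i x)))) := h3.tendsto.comp ((A.e i).continuousAt hx.1)
      rw [(A.e i).left_inv hx.1] at h4
      refine (h4.congr' ?_).mono_left nhdsWithin_le_nhds
      filter_upwards [(A.e i).open_source.mem_nhds hx.1] with y hy
      rw [(A.e i).left_inv hy]
    have h5 : Tendsto (fun y => L.g i j y ^ d * (s j y ^ d / N y)) (𝓝[S] x)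
        (𝓝 (L.g i j x ^ d * τ j x)) := (hgc.pow d).mul h2
    rw [LB_pow_g]
    refine tendsto_nhds_unique h1 (h5.congr' ?_)
    have h6 : ∀ᶠ y in 𝓝[S] x, (y ∈ (A.e i).source ∧ y ∈ (A.e j).source) ∧ y ∈ S :=
      Filter.Eventually.and (nhdsWithin_le_nhds (Filter.Eventually.and
        ((A.e i).open_source.mem_nhds hx.1) ((A.e j).open_source.mem_nhds hx.2)))
        self_mem_nhdsWithin
    filter_upwards [h6] with y hy
    rw [hs.tr i j y hy.1 hy.2.1, mul_pow, mul_div_assoc]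
  · have h1 := (hbd i x hx hxU).1
    rw [h0, norm_zero, zero_pow two_ne_zero, zero_mul, mul_zero] at h1
    linarith
  · have := hNB x hxU
    have hxS : x ∈ S := ⟨hxU, hxO, mem_nz hs hx hxU hsx⟩
    obtain ⟨V, hV, hxV, hVU, g, hg, hgf⟩ := key i x hx hxU
    have h3 := lim i x hx hxU V hV hxV g hg hgf
    have h4 := tendsto_nhds_unique (hτ i x hx hxU) h3
    rw [h4, hgf _ hxV (by rw [(A.e i).left_inv hx]; exact hxS), (A.e i).left_inv hx]

end atlas

end

end Crest.Agent.R281.Tc_941
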