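import Crest.Agent.R281.D6d_986
import Crest.Agent.R281.ThnM_280
import Crest.Agent.R281.Tc1_941
import Crest.Agent.R281.Tc2_941

/-!
# R281 (S0424), S6-FRAME, part 3 (helper941): from the slice (helper316) to `FrameAt`

`rem_of_sth`   : the complement of a σ-thin closed set is `Rem`;
`SliceAt`      : the output of 316 (slice at `x0`, finite traces);
`frameAt`      : `SliceAt` + Harnack + partition ⟹ `FrameAt` (literal node N5 of D6b_986).
-/

set_option autoImplicit false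
set_option linter.unusedSectionVars false

open Set Filter Topology Complex
open scoped ContDiff Matrix ComplexConjugate Manifold ComplexOrder ENNReal

namespace Crest.Agent.R281.Tc_941

open Crest.Agent.R275.Geo Crest.Agent.R275.Core144 Crest.Agent.R275.GC293
open Crest.Agent.R273.Defs_333 Crest.Agent.R273.Kah_333 Crest.Agent.R273.HM_333
open Crest.Agent.R281.Defs_273 Crest.Agent.R281.D6_986
open Crest.Agent.R281.S6D_664 (LFib)
open Crest.Agent.R281.Thn_280 Crest.Agent.R281.ThnM_280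
open Crest.Agent.R273.FIb0_597 (ch mem_ch)

noncomputable section

section rem

variable {n : ℕ} {M : Type} [TopologicalSpace M] {A : Atl n M}

/-- (g1) the complement of a `σ`-thin closed set is removable. -/
theorem rem_of_sth {Om : Set M} (hO : IsOpen Om) (hS : SThM A Omᶜ) : Rem A Om := by
  intro i V hV hVt z0 hz0 f hf hb
  obtain ⟨C, hC⟩ := hb
  have h1 : V \ {z | z ∈ (A.e i).target ∧ (A.e i).symm z ∈ Omᶜ} = V ∩ (A.e i).symm ⁻¹' Om := by
    ext z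
    constructor
    · rintro ⟨hz, hz2⟩
      refine ⟨hz, ?_⟩
      by_contra h
      exact hz2 ⟨hVt hz, h⟩
    · rintro ⟨hz, hz2⟩
      exact ⟨hz, fun h => h.2 hz2⟩
  have hVO : IsOpen (V ∩ (A.e i).symm ⁻¹' Om) := by
    have h1 : V ∩ (A.e i).symm ⁻¹' Om = V ∩ ((A.e i).target ∩ (A.e i).symm ⁻¹' Om) := by
      ext z
      exact ⟨fun h => ⟨h.1, hVt h.1, h.2⟩, fun h => ⟨h.1, h.2.2⟩⟩
    rw [h1]
    exact hV.inter (isOpen_ti hO)
  obtain ⟨g, hg, hgf⟩ := STh.extend hV (hS i) (by rw [h1]; exact hVO) (f := f)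
    (by rw [h1]; exact hf) (fun z _ => ⟨univ, univ_mem, C, fun w hw => by
      rw [h1] at hw
      exact hC w hw.2⟩)
  exact ⟨V, hV, hz0, subset_rfl, g, hg, fun z hz => hgf z (by rw [h1]; exact hz)⟩

end rem

variable {n : ℕ} {M : Type} [TopologicalSpace M] {A : Atl (2 * n) M}
variable {σ : HSymp A} {L : LB A}

/-- **the output of 316**: a slice at `x0`. -/
structure SliceAt (F : LFib A σ) (c : ContOut F) (x0 : M) where
  i : A.ι
  mem : x0 ∈ (A.e i).source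
  r : ℝ
  r_pos : 0 < r
  ball : Metric.closedBall (A.e i x0) r ⊆ (A.e i).target
  U : Set M
  op : IsOpen U
  sub : c.Z x0 ⊆ U
  sat : ∀ x ∈ U, c.Z x ⊆ U
  d : ℕ
  d_pos : 1 ≤ d
  R : Set M
  R_op : IsOpen R
  R_sub : R ⊆ U ∩ F.Om
  R_sat : ∀ x ∈ R, F.Tf x ⊆ R
  R_dns : U ⊆ closure R
  P : M → Finset (Cn (2 * n))
  card : ∀ x ∈ R, (P x).card = d
  P_mem : ∀ x ∈ R, ∀ z ∈ P x, z ∈ Metric.ball (A.e i x0) r ∧ (A.e i).symm z ∈ F.Tf x
  P_tf : ∀ x ∈ R, ∀ y ∈ F.Tf x, P y = P x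
  trace : ∀ h : Cn (2 * n) → ℂ, DifferentiableOn ℂ h (Metric.ball (A.e i x0) r) →
    ∃ T : M → ℂ, (∀ j, HolAt A j (U ∩ F.Om) T) ∧
      (∀ x ∈ U ∩ F.Om, ∀ y ∈ F.Tf x, T y = T x) ∧
      (∀ C : ℝ, (∀ z ∈ Metric.ball (A.e i x0) r, ‖h z‖ ≤ C) → ∀ x ∈ U ∩ F.Om, ‖T x‖ ≤ d * C) ∧
      ∀ x ∈ R, T x = ∑ z ∈ P x, h z

/-- the separation statement of 341 (g2) -/
def SepMono (m d : ℕ) : Prop :=
  ∀ a b : Fin d → Cn m, (∀ μ : Fin m → Fin (2 * d + 1),
    ∑ i, ∏ k, (a i k) ^ (μ k : ℕ) = ∑ i, ∏ k, (b i k) ^ (μ k : ℕ)) → ∀ i, ∃ j, a i = b j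

section lemmas

variable {F : LFib A σ} (c : ContOut F)

theorem Tf_sub_Om {F : LFib A σ} {x : M} (hx : x ∈ F.Om) : F.Tf x ⊆ F.Om := by
  obtain ⟨τ, hxW, hW, -⟩ := F.tube x hx
  rw [τ.fib x hxW]
  exact inter_subset_left.trans hW

/-- limits of points of the fibres are in the limit fibre -/
theorem mem_Z_of_tendsto [T2Space M] {l : Filter M} [l.NeBot] {x q : M} (hl : l ≤ 𝓝 x) {p : M → M}
    (hp : ∀ᶠ x' in l, p x' ∈ c.Z x') (hq : Tendsto p l (𝓝 q)) : q ∈ c.Z x := by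
  by_contra hcon
  obtain ⟨W, O, hW, hO, hZW, hqO, hd⟩ := SeparatedNhds.of_isCompact_isCompact (c.cpt x)
    (isCompact_singleton (x := q)) (disjoint_singleton_right.mpr hcon)
  have h1 := hl (c.usc x W hW hZW)
  have h2 : ∀ᶠ x' in l, p x' ∈ O := hq (hO.mem_nhds (hqO rfl))
  have h3 : ∀ᶠ x' in l, c.Z x' ⊆ W := h1
  obtain ⟨x', ha, hb, hc⟩ := (hp.and (h2.and h3)).exists
  exact (Set.disjoint_left.mp hd) (hc ha) hb

/-- basic functions stay constant on the limit fibres -/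
theorem ext_const {U : Set M} (hU : IsOpen U) (sat : ∀ x ∈ U, c.Z x ⊆ U) {f : M → ℂ}
    (hf : ∀ i, HolAt A i U f) (hc : ∀ x ∈ U ∩ F.Om, ∀ y ∈ F.Tf x, f y = f x) :
    ∀ x ∈ U, ∀ y ∈ c.Z x, f y = f x := by
  intro x hx y hy
  have hyU : y ∈ U := sat x hx hy
  have hcx : ContinuousAt f x := (continuousOn_of_hol hU hf).continuousAt (hU.mem_nhds hx)
  have hcy : ContinuousAt f y := (continuousOn_of_hol hU hf).continuousAt (hU.mem_nhds hyU)
  refine eq_of_forall_dist_le fun ε hε => ?_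
  have h1 : ∀ᶠ x' in 𝓝 x, dist (f x') (f x) < ε / 2 := Metric.tendsto_nhds.mp hcx _ (half_pos hε)
  have h2 : ∀ᶠ y' in 𝓝 y, dist (f y') (f y) < ε / 2 := Metric.tendsto_nhds.mp hcy _ (half_pos hε)
  obtain ⟨W, hWs, hWo, hyW⟩ := _root_.mem_nhds_iff.mp h2
  have h3 := c.lsc x y hy W hWo hyW
  obtain ⟨x', ⟨hx1, hx2, hx3⟩, hx4⟩ := mem_closure_iff_nhds.mp (F.dns x) _
    (h1.and (h3.and (hU.mem_nhds hx)))
  obtain ⟨y', hy', hyW'⟩ := hx2
  rw [c.eq x' hx4] at hy'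
  have h4 : f y' = f x' := hc x' ⟨hx3, hx4⟩ y' hy'
  have h5 : dist (f y') (f y) < ε / 2 := hWs hyW'
  calc dist (f y) (f x) ≤ dist (f y) (f y') + dist (f y') (f x) := dist_triangle _ _ _
    _ ≤ ε / 2 + ε / 2 := by
      rw [dist_comm (f y), h4]
      rw [h4] at h5
      exact add_le_add h5.le hx1.le
    _ = ε := add_halves ε

end lemmas

end

end Crest.Agent.R281.Tc_941
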