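import Crest.Agent.R281.Fr6_316
import Crest.Agent.R281.Tc3_941

/-!
# Row 281, leaf S6-FRAME (helper316), part 7: slices of the fibres of a tube

`G = (p, f) : W' → D × V` is a proper holomorphic map between open subsets of `ℂ^(2n)`.
-/

set_option autoImplicit false
set_option linter.unusedSectionVars false

open Set Filter Topology MeasureTheory Complex Metric
open scoped ContDiff ComplexConjugate Real ENNReal

noncomputable section

namespace Crest.Agent.R281.Fr7_316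

open Crest.Agent.R275.Geo Crest.Agent.R275.Core144
open Crest.Agent.R281.Defs_273 Crest.Agent.R281.D6_986
open Crest.Agent.R281.S6D_664 (LFib Tube)
open Crest.Agent.R281.Fr5_316

variable {N n : ℕ} {M : Type} [TopologicalSpace M] {A : Atl N M} {Tf : M → Set M}

theorem tube_contAt (τ : Tube A n Tf) {x : M} (hx : x ∈ τ.W) : ContinuousAt τ.f x := by
  obtain ⟨i, hi⟩ := A.cover x
  have ho : IsOpen ((A.e i).target ∩ (A.e i).symm ⁻¹' τ.W) := isOpen_ti τ.oW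
  have hz : A.e i x ∈ (A.e i).target ∩ (A.e i).symm ⁻¹' τ.W :=
    ⟨(A.e i).map_source hi, by rw [mem_preimage, (A.e i).left_inv hi]; exact hx⟩
  have h1 : ContinuousAt (fun z => τ.f ((A.e i).symm z)) (A.e i x) :=
    ((τ.hol i).differentiableAt (ho.mem_nhds hz)).continuousAt
  have h2 : ContinuousAt (fun y => τ.f ((A.e i).symm (A.e i y))) x :=
    ContinuousAt.comp (f := A.e i) (g := fun z => τ.f ((A.e i).symm z)) h1
      ((A.e i).continuousAt hi)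
  refine h2.congr ?_
  filter_upwards [(A.e i).open_source.mem_nhds hi] with y hy
  rw [(A.e i).left_inv hy]

theorem tube_cont (τ : Tube A n Tf) : ContinuousOn τ.f τ.W := fun _ hx =>
  (tube_contAt τ hx).continuousWithinAt

/-- the part of the tube over a ball -/
def dom (τ : Tube A n Tf) (y : Cn n) (δ : ℝ) : Set M := τ.W ∩ τ.f ⁻¹' ball y δ

theorem isOpen_dom (τ : Tube A n Tf) (y : Cn n) (δ : ℝ) : IsOpen (dom τ y δ) :=
  (tube_cont τ).isOpen_inter_preimage τ.oW isOpen_ball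

theorem exists_dom [T2Space M] (τ : Tube A n Tf) {U : Set M} (hU : IsOpen U) {x : M}
    (hx : x ∈ τ.W) (hTU : Tf x ⊆ U) :
    ∃ δ : ℝ, 0 < δ ∧ ball (τ.f x) δ ⊆ τ.U ∧ dom τ (τ.f x) δ ⊆ U := by
  obtain ⟨R, hR, hRU⟩ := nhds_basis_closedBall.mem_iff.1 (τ.oU.mem_nhds (τ.maps hx))
  have hC : IsCompact ((τ.W ∩ τ.f ⁻¹' closedBall (τ.f x) R) \ U) :=
    (τ.proper _ hRU (isCompact_closedBall _ _)).diff hU
  have hC2 : IsCompact (τ.f '' ((τ.W ∩ τ.f ⁻¹' closedBall (τ.f x) R) \ U)) :=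
    hC.image_of_continuousOn ((tube_cont τ).mono fun y hy => hy.1.1)
  have hn : τ.f x ∉ τ.f '' ((τ.W ∩ τ.f ⁻¹' closedBall (τ.f x) R) \ U) := by
    rintro ⟨y, ⟨⟨hyW, -⟩, hyU⟩, hy⟩
    exact hyU (hTU (by rw [τ.fib x hx]; exact ⟨hyW, hy⟩))
  obtain ⟨δ, hδ, hδ'⟩ := nhds_basis_ball.mem_iff.1 (hC2.isClosed.isOpen_compl.mem_nhds hn)
  refine ⟨min δ R, lt_min hδ hR, ?_, ?_⟩
  · exact ((ball_subset_ball (min_le_right _ _)).trans ball_subset_closedBall).trans hRU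
  · rintro y ⟨hyW, hyb⟩
    by_contra hyU
    refine hδ' (ball_subset_ball (min_le_left _ _) hyb) ⟨y, ⟨⟨hyW, ?_⟩, hyU⟩, rfl⟩
    exact ball_subset_closedBall (ball_subset_ball (min_le_right _ _) hyb)

/-- slice data: chart ball, open set `U`, linear map `p` without small values on the sphere along
the fibres in `U` -/
structure SD (A : Atl N M) (Tf : M → Set M) (O : Set M) (n : ℕ) where
  i : A.ι
  z0 : Cn N
  r : ℝ
  r_pos : 0 < r
  hball : closedBall z0 r ⊆ (A.e i).target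
  p : Cn N →L[ℂ] Cn n
  ε : ℝ
  ε_pos : 0 < ε
  hsl : ∀ x ∈ O, ∀ z, ‖z - z0‖ = r → (A.e i).symm z ∈ Tf x → ε ≤ ‖p (z - z0)‖

variable {O : Set M}

/-- the source -/
def SD.W (S : SD A Tf O n) (τ : Tube A n Tf) (y : Cn n) (δ : ℝ) : Set (Cn N) :=
  {z | z ∈ ball S.z0 S.r ∧ (A.e S.i).symm z ∈ dom τ y δ ∧ ‖S.p (z - S.z0)‖ < S.ε}

/-- the map -/
def SD.G (S : SD A Tf O n) (τ : Tube A n Tf) (z : Cn N) : Cn n × Cn n :=
  (S.p (z - S.z0), τ.f ((A.e S.i).symm z))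

/-- the slice of the fibre -/
def SD.PS (S : SD A Tf O n) (c0 : Cn n) (x : M) : Set (Cn N) :=
  {z | z ∈ ball S.z0 S.r ∧ (A.e S.i).symm z ∈ Tf x ∧ S.p (z - S.z0) = c0}

theorem SD.isOpen_W (S : SD A Tf O n) (τ : Tube A n Tf) (y : Cn n) (δ : ℝ) :
    IsOpen (S.W τ y δ) := by
  have h1 : S.W τ y δ = ((A.e S.i).target ∩ (A.e S.i).symm ⁻¹' dom τ y δ) ∩
      (ball S.z0 S.r ∩ {z | ‖S.p (z - S.z0)‖ < S.ε}) := by
    ext z
    constructor
    · rintro ⟨h1, h2, h3⟩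
      exact ⟨⟨S.hball (ball_subset_closedBall h1), h2⟩, h1, h3⟩
    · rintro ⟨⟨_, h2⟩, h1, h3⟩
      exact ⟨h1, h2, h3⟩
  rw [h1]
  refine (isOpen_ti (isOpen_dom τ y δ)).inter (isOpen_ball.inter ?_)
  exact isOpen_lt (by fun_prop) continuous_const

theorem SD.fsymm_diff (S : SD A Tf O n) (τ : Tube A n Tf) {y : Cn n} {δ : ℝ} {z : Cn N}
    (hz : z ∈ S.W τ y δ) : DifferentiableAt ℂ (fun z => τ.f ((A.e S.i).symm z)) z := by
  have ho : IsOpen ((A.e S.i).target ∩ (A.e S.i).symm ⁻¹' τ.W) := isOpen_ti τ.oW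
  exact (τ.hol S.i).differentiableAt (ho.mem_nhds
    ⟨S.hball (ball_subset_closedBall hz.1), hz.2.1.1⟩)

theorem SD.pm [T2Space M] (S : SD A Tf O n) (τ : Tube A n Tf) {y : Cn n} {δ : ℝ}
    (hδU : ball y δ ⊆ τ.U) (hO : dom τ y δ ⊆ O) :
    PMg (S.W τ y δ) (ball (0 : Cn n) S.ε ×ˢ ball y δ) (S.G τ) where
  hW := S.isOpen_W τ y δ
  hD := isOpen_ball.prod isOpen_ball
  hol := by
    intro z hz
    have h1 : DifferentiableAt ℂ (fun z : Cn N => S.p (z - S.z0)) z := by fun_prop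
    exact (h1.prodMk (S.fsymm_diff τ hz)).differentiableWithinAt
  proper := by
    intro K hK hKc
    set K₂ : Set (Cn n) := Prod.snd '' K with hK₂
    have hK₂c : IsCompact K₂ := hKc.image continuous_snd
    have hK₂U : K₂ ⊆ ball y δ := by
      rintro _ ⟨k, hk, rfl⟩
      exact (hK hk).2
    set C : Set M := τ.W ∩ τ.f ⁻¹' K₂ with hC
    have hCc : IsCompact C := τ.proper _ (hK₂U.trans hδU) hK₂c
    have hsymm : ContinuousOn (A.e S.i).symm (closedBall S.z0 S.r) :=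
      (A.e S.i).continuousOn_symm.mono S.hball
    have hA : IsClosed (closedBall S.z0 S.r ∩ (A.e S.i).symm ⁻¹' C) :=
      hsymm.preimage_isClosed_of_isClosed isClosed_closedBall hCc.isClosed
    have hGc : ContinuousOn (S.G τ) (closedBall S.z0 S.r ∩ (A.e S.i).symm ⁻¹' C) := by
      refine ContinuousOn.prodMk (by fun_prop) ?_
      exact (tube_cont τ).comp (hsymm.mono inter_subset_left) fun z hz => hz.2.1
    have hcl : IsClosed ((closedBall S.z0 S.r ∩ (A.e S.i).symm ⁻¹' C) ∩ S.G τ ⁻¹' K) :=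
      hGc.preimage_isClosed_of_isClosed hA hKc.isClosed
    have heq : S.W τ y δ ∩ S.G τ ⁻¹' K =
        (closedBall S.z0 S.r ∩ (A.e S.i).symm ⁻¹' C) ∩ S.G τ ⁻¹' K := by
      ext z
      constructor
      · rintro ⟨⟨h1, h2, h3⟩, h4⟩
        exact ⟨⟨ball_subset_closedBall h1, h2.1, ⟨_, h4, rfl⟩⟩, h4⟩
      · rintro ⟨⟨h1, h2⟩, h4⟩
        have h5 := hK h4
        have hp : ‖S.p (z - S.z0)‖ < S.ε := by simpa [SD.G] using h5.1
        have hf : τ.f ((A.e S.i).symm z) ∈ ball y δ := h5.2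
        have hdom : (A.e S.i).symm z ∈ dom τ y δ := ⟨h2.1, hf⟩
        refine ⟨⟨?_, hdom, hp⟩, h4⟩
        rw [mem_ball, dist_eq_norm]
        rw [mem_closedBall, dist_eq_norm] at h1
        refine lt_of_le_of_ne h1 fun hr => ?_
        have h6 := S.hsl _ (hO hdom) z hr (by rw [τ.fib _ h2.1]; exact ⟨h2.1, rfl⟩)
        linarith
    rw [heq]
    exact (isCompact_closedBall S.z0 S.r).of_isClosed_subset hcl
      (inter_subset_left.trans inter_subset_left)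

theorem SD.preconn (S : SD A Tf O n) (y : Cn n) (δ : ℝ) :
    IsPreconnected (ball (0 : Cn n) S.ε ×ˢ ball y δ) :=
  ((convex_ball (0 : Cn n) S.ε).prod (convex_ball y δ)).isPreconnected

theorem SD.fib_eq (S : SD A Tf O n) (τ : Tube A n Tf) {y : Cn n} {δ : ℝ} {x : M}
    (hx : x ∈ dom τ y δ) {c0 : Cn n} (hc0 : c0 ∈ ball (0 : Cn n) S.ε) :
    S.W τ y δ ∩ S.G τ ⁻¹' {(c0, τ.f x)} = S.PS c0 x := by
  ext z
  simp only [SD.W, SD.G, SD.PS, mem_inter_iff, mem_ofPred_eq, mem_preimage, mem_singleton_iff,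
    Prod.mk.injEq, τ.fib x hx.1, dom]
  constructor
  · rintro ⟨⟨h1, ⟨h2, h3⟩, h4⟩, h5, h6⟩
    exact ⟨h1, ⟨h2, h6⟩, h5⟩
  · rintro ⟨h1, ⟨h2, h6⟩, h5⟩
    refine ⟨⟨h1, ⟨h2, ?_⟩, ?_⟩, h5, h6⟩
    · rw [h6]
      exact hx.2
    · rw [h5]
      simpa using hc0

theorem SD.fderiv_inj (S : SD A Tf O n) (τ : Tube A n Tf) {y : Cn n} {δ : ℝ} {z : Cn N}
    (hz : z ∈ S.W τ y δ)
    (h : ∀ v, S.p v = 0 → fderiv ℂ (fun z => τ.f ((A.e S.i).symm z)) z v = 0 → v = 0) :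
    Function.Injective (fderiv ℂ (S.G τ) z) := by
  have h1 : HasFDerivAt (fun z : Cn N => S.p (z - S.z0)) S.p z := by
    have := S.p.hasFDerivAt.comp z ((hasFDerivAt_id z).sub_const S.z0)
    exact this
  have h2 := h1.prodMk (S.fsymm_diff τ hz).hasFDerivAt
  have h3 : fderiv ℂ (S.G τ) z =
      S.p.prod (fderiv ℂ (fun z => τ.f ((A.e S.i).symm z)) z) := h2.fderiv
  rw [h3, injective_iff_map_eq_zero]
  intro v hv
  have h4 : (S.p v, fderiv ℂ (fun z => τ.f ((A.e S.i).symm z)) z v) = (0, 0) := hv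
  rw [Prod.mk.injEq] at h4
  exact h v h4.1 h4.2

end Crest.Agent.R281.Fr7_316
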