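import Crest.Agent.R281.Fr7_316

/-!
# Row 281, leaf S6-FRAME (helper316), part 8: traces over an open saturated part of `Ω`
-/

set_option autoImplicit false
set_option linter.unusedSectionVars false

open Set Filter Topology MeasureTheory Complex Metric
open scoped ContDiff ComplexConjugate Real ENNReal

noncomputable section

namespace Crest.Agent.R281.Fr7_316

open Crest.Agent.R275.Geo Crest.Agent.R275.Core144
open Crest.Agent.R281.Defs_273 Crest.Agent.R281.D6_986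
open Crest.Agent.R281.S6D_664 (LFib Tube)
open Crest.Agent.R281.Fr5_316 Crest.Agent.R266.SCV

variable {N n : ℕ} {M : Type} [TopologicalSpace M]

/-- submersions are open -/
theorem tube_open {A : Atl N M} {Tf : M → Set M} (τ : Tube A n Tf) {x : M} (hx : x ∈ τ.W)
    {O : Set M} (hO : O ∈ 𝓝 x) : τ.f '' O ∈ 𝓝 (τ.f x) := by
  obtain ⟨i, hi⟩ := A.cover x
  have ho : IsOpen ((A.e i).target ∩ (A.e i).symm ⁻¹' τ.W) := isOpen_ti τ.oW
  have hz : A.e i x ∈ (A.e i).target ∩ (A.e i).symm ⁻¹' τ.W :=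
    ⟨(A.e i).map_source hi, by rw [mem_preimage, (A.e i).left_inv hi]; exact hx⟩
  have h1 : AnalyticAt ℂ (fun z => τ.f ((A.e i).symm z)) (A.e i x) :=
    analyticOnNhd_of_differentiableOn ho (τ.hol i) _ hz
  have h2 := h1.hasStrictFDerivAt.map_nhds_eq_of_surj
    (LinearMap.range_eq_top.2 (τ.sub i x ⟨hi, hx⟩))
  rw [(A.e i).left_inv hi] at h2
  rw [← h2]
  have h4 : (A.e i).symm ⁻¹' O ∈ 𝓝 (A.e i x) := by
    have h5 : ContinuousAt (A.e i).symm (A.e i x) :=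
      (A.e i).continuousAt_symm ((A.e i).map_source hi)
    apply h5
    rw [(A.e i).left_inv hi]
    exact hO
  refine mem_map.2 (mem_of_superset h4 fun z hz => ?_)
  exact ⟨(A.e i).symm z, hz, rfl⟩

variable {A : Atl (2 * n) M} {Tf : M → Set M} {O : Set M}

/-- countable family of tubes over balls covering `O` -/
structure Cov (A : Atl (2 * n) M) (Tf : M → Set M) (O : Set M) where
  κ : Type
  cnt : Countable κ
  τ : κ → Tube A n Tf
  y : κ → Cn n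
  δ : κ → ℝ
  hU : ∀ k, ball (y k) (δ k) ⊆ (τ k).U
  sub : ∀ k, dom (τ k) (y k) (δ k) ⊆ O
  cov : ∀ x ∈ O, ∃ k, x ∈ dom (τ k) (y k) (δ k)

/-- pieces of the cover -/
def Cov.D (C : Cov A Tf O) (k : C.κ) : Set M := dom (C.τ k) (C.y k) (C.δ k)

theorem Cov.isOpen_D (C : Cov A Tf O) (k : C.κ) : IsOpen (C.D k) := isOpen_dom _ _ _

theorem Cov.Tf_D (C : Cov A Tf O) {k : C.κ} {x : M} (hx : x ∈ C.D k) {x' : M} (hx' : x' ∈ Tf x) :
    x' ∈ C.D k ∧ (C.τ k).f x' = (C.τ k).f x := by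
  rw [(C.τ k).fib x hx.1] at hx'
  refine ⟨⟨hx'.1, ?_⟩, hx'.2⟩
  have : (C.τ k).f x' = (C.τ k).f x := hx'.2
  rw [mem_preimage, this]
  exact hx.2

theorem exists_cov [T2Space M] [SecondCountableTopology M] {σ : HSymp A} (F : LFib A σ)
    {U : Set M} (hU : IsOpen U) (hsat : ∀ x ∈ U ∩ F.Om, F.Tf x ⊆ U) :
    Nonempty (Cov A F.Tf (U ∩ F.Om)) := by
  classical
  have h1 : ∀ x : ↥(U ∩ F.Om), ∃ (τ : Tube A n F.Tf) (δ : ℝ), 0 < δ ∧ (x : M) ∈ τ.W ∧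
      ball (τ.f x) δ ⊆ τ.U ∧ dom τ (τ.f x) δ ⊆ U ∩ F.Om := by
    rintro ⟨x, hx⟩
    obtain ⟨τ, hxW, hW, -⟩ := F.tube x hx.2
    obtain ⟨δ, hδ, h2, h3⟩ := exists_dom τ (hU.inter F.op) hxW (by
      intro y hy
      refine ⟨hsat x hx hy, ?_⟩
      rw [τ.fib x hxW] at hy
      exact hW hy.1)
    exact ⟨τ, δ, hδ, hxW, h2, h3⟩
  choose τ δ hδ hxW hb hd using h1
  obtain ⟨t, htc, hcov⟩ := TopologicalSpace.isOpen_iUnion_countable
    (fun x : ↥(U ∩ F.Om) => dom (τ x) ((τ x).f x) (δ x)) (fun x => isOpen_dom _ _ _)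
  refine ⟨⟨t, htc.to_subtype, fun x => τ x.1, fun x => (τ x.1).f (x.1 : M), fun x => δ x.1,
    fun x => hb x.1, fun x => hd x.1, fun x hx => ?_⟩⟩
  have h2 : x ∈ ⋃ x : ↥(U ∩ F.Om), dom (τ x) ((τ x).f x) (δ x) :=
    mem_iUnion.2 ⟨⟨x, hx⟩, hxW ⟨x, hx⟩, mem_ball_self (hδ ⟨x, hx⟩)⟩
  rw [← hcov] at h2
  obtain ⟨y, hy, hxy⟩ := mem_iUnion₂.1 h2
  exact ⟨⟨y, hy⟩, hxy⟩

/-- good centres of the slice -/
def Gd (S : SD A Tf O n) (C : Cov A Tf O) (c0 : Cn n) : Prop :=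
  c0 ∈ ball (0 : Cn n) S.ε ∧ ∀ k, Dense {y' | Rg (S.W (C.τ k) (C.y k) (C.δ k)) (S.G (C.τ k)) (c0, y')}

theorem exists_equivs (n : ℕ) : Nonempty (Cn (2 * n) ≃L[ℂ] (Fin (2 * n) → ℂ)) ∧
    Nonempty ((Cn n × Cn n) ≃L[ℂ] (Fin (2 * n) → ℂ)) := by
  constructor
  · exact ⟨ContinuousLinearEquiv.ofFinrankEq (by simp)⟩
  · refine ⟨ContinuousLinearEquiv.ofFinrankEq ?_⟩
    simp
    ring

theorem exists_gd [T2Space M] (S : SD A Tf O n) (C : Cov A Tf O) : ∃ c0, Gd S C c0 := by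
  obtain ⟨⟨a⟩, ⟨b⟩⟩ := exists_equivs n
  have := C.cnt
  borelize (Cn n)
  obtain ⟨K⟩ : Nonempty (TopologicalSpace.PositiveCompacts (Cn n)) := inferInstance
  let μ : Measure (Cn n) := Measure.addHaarMeasure K
  have h1 : ∀ k, ∀ᵐ c0 ∂μ, ∀ᵐ y' ∂μ,
      Rg (S.W (C.τ k) (C.y k) (C.δ k)) (S.G (C.τ k)) (c0, y') := by
    intro k
    refine Measure.ae_ae_of_ae_prod ?_
    exact (S.pm (C.τ k) (C.hU k) (C.sub k)).null a b (μ.prod μ)
  have h2 : ∀ᵐ c0 ∂μ, ∀ k, ∀ᵐ y' ∂μ,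
      Rg (S.W (C.τ k) (C.y k) (C.δ k)) (S.G (C.τ k)) (c0, y') := ae_all_iff.2 h1
  have h3 := Measure.dense_of_ae h2
  obtain ⟨c0, hc0, hc0'⟩ := h3.inter_open_nonempty (ball (0 : Cn n) S.ε) isOpen_ball
    ⟨0, mem_ball_self S.ε_pos⟩
  exact ⟨c0, hc0, fun k => Measure.dense_of_ae (hc0' k)⟩

/-- regular part of the piece -/
def RR (S : SD A Tf O n) (C : Cov A Tf O) (c0 : Cn n) (k : C.κ) : Set M :=
  {x | x ∈ C.D k ∧ Rg (S.W (C.τ k) (C.y k) (C.δ k)) (S.G (C.τ k)) (c0, (C.τ k).f x)}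

theorem isOpen_RR [T2Space M] (S : SD A Tf O n) (C : Cov A Tf O) {c0 : Cn n}
    (h : Gd S C c0) (k : C.κ) : IsOpen (RR S C c0 k) := by
  obtain ⟨⟨a⟩, ⟨b⟩⟩ := exists_equivs n
  have h1 := (S.pm (C.τ k) (C.hU k) (C.sub k)).isOpen_reg a b
  have h2 : ContinuousOn (fun x => (c0, (C.τ k).f x)) (C.D k) :=
    continuousOn_const.prodMk ((tube_cont (C.τ k)).mono fun x hx => hx.1)
  have h3 := h2.isOpen_inter_preimage (C.isOpen_D k) h1
  convert h3 using 1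
  ext x
  constructor
  · rintro ⟨hx, hr⟩
    exact ⟨hx, ⟨h.1, hx.2⟩, hr⟩
  · rintro ⟨hx, -, hr⟩
    exact ⟨hx, hr⟩

theorem dense_RR (S : SD A Tf O n) (C : Cov A Tf O) {c0 : Cn n}
    (h : Gd S C c0) (k : C.κ) : C.D k ⊆ closure (RR S C c0 k) := by
  intro x hx
  rw [mem_closure_iff_nhds]
  intro t ht
  have h1 : t ∩ C.D k ∈ 𝓝 x := inter_mem ht ((C.isOpen_D k).mem_nhds hx)
  have h2 := tube_open (C.τ k) hx.1 h1
  obtain ⟨y', hy', hyt⟩ := (h.2 k).inter_nhds_nonempty h2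
  obtain ⟨x', hx', rfl⟩ := hyt
  exact ⟨x', hx'.1, hx'.2, hy'⟩

theorem exists_RR2 [T2Space M] (S : SD A Tf O n) (C : Cov A Tf O) {c0 : Cn n}
    (h : Gd S C c0) (k l : C.κ) {x : M} (hk : x ∈ C.D k) (hl : x ∈ C.D l) {t : Set M}
    (ht : t ∈ 𝓝 x) : ∃ x' ∈ t, x' ∈ RR S C c0 k ∧ x' ∈ RR S C c0 l := by
  obtain ⟨t', ht't, ht'o, hxt'⟩ := mem_nhds_iff.1 ht
  obtain ⟨x₁, ⟨hx₁t, hx₁l⟩, hx₁k⟩ := mem_closure_iff_nhds.1 (dense_RR S C h k hk)
    (t' ∩ C.D l) (inter_mem (ht'o.mem_nhds hxt') ((C.isOpen_D l).mem_nhds hl))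
  obtain ⟨x₂, ⟨hx₂t, hx₂k⟩, hx₂l⟩ := mem_closure_iff_nhds.1 (dense_RR S C h l hx₁l)
    (t' ∩ RR S C c0 k) (inter_mem (ht'o.mem_nhds hx₁t) ((isOpen_RR S C h k).mem_nhds hx₁k))
  exact ⟨x₂, ht't hx₂t, hx₂k, hx₂l⟩

/-- **traces over `O`** -/
theorem out [T2Space M] (hn : 0 < n) (S : SD A Tf O n) (C : Cov A Tf O) :
    ∃ (c0 : Cn n) (dd : M → ℕ) (R : Set M), IsOpen R ∧ R ⊆ O ∧ O ⊆ closure R ∧
      (∀ x ∈ R, Tf x ⊆ R) ∧
      (∀ x ∈ R, (S.PS c0 x).Finite ∧ (S.PS c0 x).ncard = dd x) ∧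
      (∀ x ∈ O, ∀ᶠ y in 𝓝 x, dd y = dd x) ∧
      (∀ k, ∀ z ∈ S.W (C.τ k) (C.y k) (C.δ k), Function.Injective (fderiv ℂ (S.G (C.τ k)) z) →
        1 ≤ dd ((A.e S.i).symm z)) ∧
      ∀ h : Cn (2 * n) → ℂ, DifferentiableOn ℂ h (ball S.z0 S.r) →
        ∃ T : M → ℂ, (∀ j, HolAt A j O T) ∧ (∀ x ∈ O, ∀ y ∈ Tf x, T y = T x) ∧
          (∀ B : ℝ, (∀ z ∈ ball S.z0 S.r, ‖h z‖ ≤ B) → ∀ x ∈ O, ‖T x‖ ≤ dd x * B) ∧
          ∀ x ∈ R, T x = ∑ᶠ z ∈ S.PS c0 x, h z := by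
  classical
  obtain ⟨⟨a⟩, ⟨b⟩⟩ := exists_equivs n
  obtain ⟨c0, hg⟩ := exists_gd S C
  have hN : 0 < 2 * n := by omega
  have hpm : ∀ k, PMg (S.W (C.τ k) (C.y k) (C.δ k))
      (ball (0 : Cn n) S.ε ×ˢ ball (C.y k) (C.δ k)) (S.G (C.τ k)) := fun k =>
    S.pm (C.τ k) (C.hU k) (C.sub k)
  have hfin := fun k => (hpm k).fin a b hN (S.preconn (C.y k) (C.δ k))
  choose d hd hT using hfin
  -- the index
  have hk0 : ∀ x : M, x ∈ O → ∃ k, x ∈ C.D k := fun x hx => C.cov x hx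
  by_cases hne : Nonempty C.κ
  swap
  · -- `O` is empty
    have hO : ∀ x, x ∉ O := fun x hx => hne ((hk0 x hx).nonempty)
    refine ⟨c0, fun _ => 0, ∅, isOpen_empty, empty_subset _, fun x hx => absurd hx (hO x),
      fun x hx => absurd hx (notMem_empty x), fun x hx => absurd hx (notMem_empty x),
      fun x hx => absurd hx (hO x), fun k => absurd ⟨k⟩ hne, fun h _ => ⟨fun _ => 0, ?_, ?_, ?_, ?_⟩⟩
    · exact fun j => holAt_const 0
    · exact fun x hx => absurd hx (hO x)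
    · exact fun B _ x hx => absurd hx (hO x)
    · exact fun x hx => absurd hx (notMem_empty x)
  have hk1 : ∀ x : M, ∃ k, x ∈ O → x ∈ C.D k := by
    intro x
    by_cases hx : x ∈ O
    · obtain ⟨k, hk⟩ := hk0 x hx
      exact ⟨k, fun _ => hk⟩
    · exact ⟨hne.some, fun h => absurd h hx⟩
  choose ind hind using hk1
  -- cardinality on the regular part
  have hcard : ∀ k, ∀ x ∈ RR S C c0 k, (S.PS c0 x).Finite ∧ (S.PS c0 x).ncard = d k := by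
    intro k x hx
    have hmem : (c0, (C.τ k).f x) ∈ ball (0 : Cn n) S.ε ×ˢ ball (C.y k) (C.δ k) :=
      ⟨hg.1, hx.1.2⟩
    have h1 := (hpm k).finite a b hmem hx.2
    have h2 := hd k _ hmem hx.2
    rw [S.fib_eq (C.τ k) hx.1 hg.1] at h1 h2
    exact ⟨h1, h2⟩
  have hdd : ∀ k l, ∀ x, x ∈ C.D k → x ∈ C.D l → d k = d l := by
    intro k l x hk hl
    obtain ⟨x', -, h1, h2⟩ := exists_RR2 S C hg k l hk hl univ_mem
    rw [← (hcard k x' h1).2, (hcard l x' h2).2]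
  refine ⟨c0, fun x => d (ind x), ⋃ k, RR S C c0 k, isOpen_iUnion fun k => isOpen_RR S C hg k,
    ?_, ?_, ?_, ?_, ?_, ?_, ?_⟩
  · exact iUnion_subset fun k x hx => C.sub k hx.1
  · intro x hx
    exact closure_mono (subset_iUnion _ (ind x)) (dense_RR S C hg (ind x) (hind x hx))
  · intro x hx x' hx'
    obtain ⟨k, hk⟩ := mem_iUnion.1 hx
    obtain ⟨h1, h2⟩ := C.Tf_D hk.1 hx'
    refine mem_iUnion.2 ⟨k, h1, ?_⟩
    rw [h2]
    exact hk.2
  · intro x hx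
    obtain ⟨k, hk⟩ := mem_iUnion.1 hx
    obtain ⟨h1, h2⟩ := hcard k x hk
    refine ⟨h1, h2.trans (hdd k (ind x) x hk.1 (hind x (C.sub k hk.1)))⟩
  · intro x hx
    filter_upwards [(C.isOpen_D (ind x)).mem_nhds (hind x hx)] with y hy
    exact hdd _ _ y (hind y (C.sub _ hy)) hy
  · intro k z hz hinj
    have hmem : S.G (C.τ k) z ∈ ball (0 : Cn n) S.ε ×ˢ ball (C.y k) (C.δ k) :=
      ⟨by simpa [SD.G] using hz.2.2, hz.2.1.2⟩
    obtain ⟨ζ, hζ, hr, hnef⟩ := (hpm k).exists_fib a b hz hmem hinj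
    have h1 := hd k ζ hζ hr
    have h2 := (hpm k).finite a b hζ hr
    have h3 : 0 < d k := by
      rw [← h1]
      exact (ncard_pos h2).2 hnef
    have hx : (A.e S.i).symm z ∈ C.D k := hz.2.1
    show 1 ≤ d (ind ((A.e S.i).symm z))
    rw [← hdd k _ _ hx (hind _ (C.sub k hx))]
    exact h3
  · intro h hh
    have hsub : ∀ k, S.W (C.τ k) (C.y k) (C.δ k) ⊆ ball S.z0 S.r := fun k z hz => hz.1
    have hTk := fun k => hT k h (hh.mono (hsub k))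
    choose T hTd hTr hTb using hTk
    have hTdef : ∀ k, ∀ x ∈ RR S C c0 k, T k (c0, (C.τ k).f x) = ∑ᶠ z ∈ S.PS c0 x, h z := by
      intro k x hx
      have hmem : (c0, (C.τ k).f x) ∈ ball (0 : Cn n) S.ε ×ˢ ball (C.y k) (C.δ k) :=
        ⟨hg.1, hx.1.2⟩
      rw [hTr k _ hmem hx.2, S.fib_eq (C.τ k) hx.1 hg.1]
    -- continuity of the pull backs
    have hcont : ∀ k, ContinuousOn (fun x => T k (c0, (C.τ k).f x)) (C.D k) := by
      intro k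
      refine (hTd k).continuousOn.comp (continuousOn_const.prodMk
        ((tube_cont (C.τ k)).mono fun x hx => hx.1)) fun x hx => ⟨hg.1, hx.2⟩
    have hTT : ∀ k l, ∀ x, x ∈ C.D k → x ∈ C.D l →
        T k (c0, (C.τ k).f x) = T l (c0, (C.τ l).f x) := by
      intro k l x hk hl
      by_contra hcon
      have h1 : ContinuousAt (fun x => T k (c0, (C.τ k).f x)) x :=
        (hcont k).continuousAt ((C.isOpen_D k).mem_nhds hk)
      have h2 : ContinuousAt (fun x => T l (c0, (C.τ l).f x)) x :=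
        (hcont l).continuousAt ((C.isOpen_D l).mem_nhds hl)
      have h3 : ∀ᶠ y in 𝓝 x, T k (c0, (C.τ k).f y) ≠ T l (c0, (C.τ l).f y) := by
        have h4 := (h1.sub h2).eventually_ne (sub_ne_zero.2 hcon)
        filter_upwards [h4] with y hy using sub_ne_zero.1 hy
      obtain ⟨x', hx', hk', hl'⟩ := exists_RR2 S C hg k l hk hl h3
      exact hx' ((hTdef k x' hk').trans (hTdef l x' hl').symm)
    refine ⟨fun x => T (ind x) (c0, (C.τ (ind x)).f x), ?_, ?_, ?_, ?_⟩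
    · intro j z hz
      set x := (A.e j).symm z with hxdef
      have hx : x ∈ O := hz.2
      have hxD := hind x hx
      have ho : IsOpen ((A.e j).target ∩ (A.e j).symm ⁻¹' (C.D (ind x))) :=
        isOpen_ti (C.isOpen_D _)
      have hev : (fun z => T (ind ((A.e j).symm z)) (c0, (C.τ (ind ((A.e j).symm z))).f
          ((A.e j).symm z))) =ᶠ[𝓝 z]
          fun z => T (ind x) (c0, (C.τ (ind x)).f ((A.e j).symm z)) := by
        filter_upwards [ho.mem_nhds ⟨hz.1, hxD⟩] with w hw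
        exact hTT _ _ _ (hind _ (C.sub _ hw.2)) hw.2
      refine (DifferentiableAt.congr_of_eventuallyEq ?_ hev).differentiableWithinAt
      have hoW : IsOpen ((A.e j).target ∩ (A.e j).symm ⁻¹' (C.τ (ind x)).W) :=
        isOpen_ti (C.τ (ind x)).oW
      have h1 : DifferentiableAt ℂ (fun z => (C.τ (ind x)).f ((A.e j).symm z)) z :=
        ((C.τ (ind x)).hol j).differentiableAt (hoW.mem_nhds ⟨hz.1, hxD.1⟩)
      have h2 : DifferentiableAt ℂ (T (ind x)) (c0, (C.τ (ind x)).f ((A.e j).symm z)) :=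
        (hTd (ind x)).differentiableAt ((hpm (ind x)).hD.mem_nhds ⟨hg.1, hxD.2⟩)
      exact h2.comp z (DifferentiableAt.prodMk (differentiableAt_const c0) h1)
    · intro x hx y hy
      obtain ⟨h1, h2⟩ := C.Tf_D (hind x hx) hy
      have h3 := hTT (ind y) (ind x) y (hind y (C.sub _ h1)) h1
      simp only
      rw [h3, h2]
    · intro B hB x hx
      exact hTb (ind x) B (fun z hz => hB z (hsub _ hz)) _ ⟨hg.1, (hind x hx).2⟩
    · intro x hx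
      obtain ⟨k, hk⟩ := mem_iUnion.1 hx
      have h3 := hTT (ind x) k x (hind x (C.sub _ hk.1)) hk.1
      simp only
      rw [h3]
      exact hTdef k x hk

end Crest.Agent.R281.Fr7_316
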