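import Crest.Agent.R281.Fr8_316
import Crest.Agent.R281.D6f_986

/-!
# Row 281, leaf S6-FRAME (helper316), part 9: the slice at a point: `SliceAt`
-/

set_option autoImplicit false
set_option linter.unusedSectionVars false

open Set Filter Topology MeasureTheory Complex Metric
open scoped ContDiff ComplexConjugate Real ENNReal

noncomputable section

namespace Crest.Agent.R281.Fr7_316

open Crest.Agent.R275.Geo Crest.Agent.R275.Core144
open Crest.Agent.R281.Defs_273 Crest.Agent.R281.D6_986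
open Crest.Agent.R281.S6D_664 (LFib Tube)
open Crest.Agent.R281.Tc_941 (SliceAt Tf_sub_Om)
open Crest.Agent.R281.Fr5_316 Crest.Agent.R281.Fr6_316 Crest.Agent.R266.SCV

variable {n : ℕ} {M : Type} [TopologicalSpace M] {A : Atl (2 * n) M} {σ : HSymp A}

/-- arbitrarily small neighbourhoods with connected trace on `Om` -/
theorem conn_nhds (F : LFib A σ) {U : Set M} (hU : IsOpen U) {x : M} (hx : x ∈ U) :
    ∃ B, IsOpen B ∧ x ∈ B ∧ B ⊆ U ∧ IsPreconnected (B ∩ F.Om) := by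
  obtain ⟨i, hi⟩ := A.cover x
  have ho : IsOpen ((A.e i).target ∩ (A.e i).symm ⁻¹' U) := isOpen_ti hU
  obtain ⟨ρ, hρ, hρU⟩ := nhds_basis_ball.mem_iff.1 (ho.mem_nhds
    (show A.e i x ∈ _ from ⟨(A.e i).map_source hi, by
      rw [mem_preimage, (A.e i).left_inv hi]; exact hx⟩))
  set V := ball (A.e i x) ρ with hV
  set S : Set (Cn (2 * n)) := {z | z ∈ (A.e i).target ∧ (A.e i).symm z ∈ F.Omᶜ} with hS
  have hVt : V ⊆ (A.e i).target := fun z hz => (hρU hz).1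
  have hVS : V \ S = V ∩ ((A.e i).target ∩ (A.e i).symm ⁻¹' F.Om) := by
    ext z
    constructor
    · rintro ⟨h1, h2⟩
      refine ⟨h1, hVt h1, ?_⟩
      by_contra h
      exact h2 ⟨hVt h1, h⟩
    · rintro ⟨h1, h2, h3⟩
      exact ⟨h1, fun h => h.2 h3⟩
  have hopen : IsOpen (V \ S) := by
    rw [hVS]
    exact isOpen_ball.inter (isOpen_ti F.op)
  have hconn := conn_of_sth isOpen_ball (convex_ball (A.e i x) ρ).isPreconnected (F.sth i) hopen
  refine ⟨(A.e i).symm '' V, ?_, ⟨A.e i x, mem_ball_self hρ, (A.e i).left_inv hi⟩, ?_, ?_⟩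
  · exact (A.e i).symm.isOpen_image_of_subset_source isOpen_ball hVt
  · rintro _ ⟨z, hz, rfl⟩
    exact (hρU hz).2
  · have h1 : (A.e i).symm '' V ∩ F.Om = (A.e i).symm '' (V \ S) := by
      ext y
      constructor
      · rintro ⟨⟨z, hz, rfl⟩, hy⟩
        exact ⟨z, ⟨hz, fun h => h.2 hy⟩, rfl⟩
      · rintro ⟨z, hz, rfl⟩
        rw [hVS] at hz
        exact ⟨⟨z, hz.1, rfl⟩, hz.2.2⟩
    rw [h1]
    exact hconn.image _ ((A.e i).continuousOn_symm.mono fun z hz => hVt hz.1)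

/-- **the slice at `x0`** -/
theorem sliceAt [T2Space M] [CompactSpace M] [Finite A.ι] (hn : 0 < n) {F : LFib A σ}
    (c : ContOut F) (hv : ContVol c) (x0 : M) : Nonempty (SliceAt F c x0) := by
  classical
  have hsec : SecondCountableTopology M := by
    have h1 : ∀ i, SecondCountableTopology (A.e i).source := fun i =>
      (A.e i).toHomeomorphSourceTarget.secondCountableTopology
    exact TopologicalSpace.secondCountableTopology_of_countable_cover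
      (U := fun i => (A.e i).source) (fun i => (A.e i).open_source)
      (eq_univ_of_forall fun x => mem_iUnion.2 (A.cover x))
  obtain ⟨i, hi, r₂, hr₂, hball₂, hvol⟩ := hv x0
  set z0 := A.e i x0 with hz0
  -- 1. the slice
  have hfr : Module.finrank ℝ (Cn n) = 2 * n := by
    rw [finrank_real_of_complex]
    simp
  obtain ⟨r, hr, hrr₂, p₀, hp₀⟩ := exists_slice (E := Cn (2 * n)) (W := Cn n)
    (by simp; omega) (Z := (A.e i) '' (c.Z x0 ∩ (A.e i).source)) (z₀ := z0) hr₂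
    (by rw [hfr]; exact hvol)
  have hball : closedBall z0 r ⊆ (A.e i).target :=
    (closedBall_subset_closedBall hrr₂.le).trans hball₂
  have hsymm : ContinuousOn (A.e i).symm (closedBall z0 r) := (A.e i).continuousOn_symm.mono hball
  have hsph : IsCompact (sphere z0 r) := isCompact_sphere _ _
  -- 2. a lower bound on the sphere
  obtain ⟨ε₁, hε₁, hlow⟩ : ∃ ε₁ : ℝ, 0 < ε₁ ∧
      ∀ z ∈ sphere z0 r, (A.e i).symm z ∈ c.Z x0 → ε₁ ≤ ‖p₀ (z - z0)‖ := by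
    have hT : IsCompact (sphere z0 r ∩ (A.e i).symm ⁻¹' c.Z x0) :=
      hsph.of_isClosed_subset ((hsymm.mono sphere_subset_closedBall).preimage_isClosed_of_isClosed
        isClosed_sphere (c.cpt x0).isClosed) inter_subset_left
    rcases (sphere z0 r ∩ (A.e i).symm ⁻¹' c.Z x0).eq_empty_or_nonempty with h0 | h0
    · refine ⟨1, one_pos, fun z hz hz' => ?_⟩
      have : z ∈ sphere z0 r ∩ (A.e i).symm ⁻¹' c.Z x0 := ⟨hz, hz'⟩
      rw [h0] at this
      exact absurd this (notMem_empty z)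
    · obtain ⟨y, hy, hmin⟩ := hT.exists_isMinOn h0
        (f := fun z => ‖p₀ (z - z0)‖) (by fun_prop)
      refine ⟨‖p₀ (y - z0)‖, ?_, fun z hz hz' => isMinOn_iff.1 hmin z ⟨hz, hz'⟩⟩
      rw [norm_pos_iff]
      refine hp₀ y ⟨(A.e i).symm y, ⟨hy.2, (A.e i).map_target
        (hball (sphere_subset_closedBall hy.1))⟩, (A.e i).right_inv
        (hball (sphere_subset_closedBall hy.1))⟩ ?_
      rw [← dist_eq_norm]
      exact hy.1
  set Bad : Set M := (A.e i).symm '' (sphere z0 r ∩ {z | ‖p₀ (z - z0)‖ ≤ ε₁ / 2}) with hBad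
  have hBadc : IsCompact Bad := by
    refine IsCompact.image_of_continuousOn ?_ (hsymm.mono
      (inter_subset_left.trans sphere_subset_closedBall))
    exact hsph.inter_right (isClosed_le (by fun_prop) continuous_const)
  set V0 : Set M := Badᶜ with hV0
  have hV0o : IsOpen V0 := hBadc.isClosed.isOpen_compl
  set U0 : Set M := {x | c.Z x ⊆ V0} with hU0
  have hU0o : IsOpen U0 := c.isOpen_sat hV0o
  have hx0U : c.Z x0 ⊆ V0 := by
    rintro y hy ⟨z, ⟨hz, hz2⟩, rfl⟩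
    have := hlow z hz hy
    have h2 : ‖p₀ (z - z0)‖ ≤ ε₁ / 2 := hz2
    linarith
  have hsat0 : ∀ x ∈ U0, c.Z x ⊆ U0 := by
    intro x hx y hy
    show c.Z y ⊆ V0
    rw [c.part x y hy]
    exact hx
  set ε := ε₁ / 4 with hε
  have hε0 : 0 < ε := by positivity
  have hsphere : ∀ p : Cn (2 * n) →L[ℂ] Cn n, ‖p - p₀‖ * r ≤ ε / 2 → ∀ x ∈ U0, ∀ z,
      ‖z - z0‖ = r → (A.e i).symm z ∈ c.Z x → ε ≤ ‖p (z - z0)‖ := by
    intro p hp x hx z hz hzx
    have h1 : ε₁ / 2 < ‖p₀ (z - z0)‖ := by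
      by_contra hcon
      push Not at hcon
      refine hx hzx ⟨z, ⟨?_, hcon⟩, rfl⟩
      rw [mem_sphere, dist_eq_norm, hz]
    have h2 : ‖p₀ (z - z0)‖ ≤ ‖p (z - z0)‖ + ‖(p - p₀) (z - z0)‖ := by
      have : p₀ (z - z0) = p (z - z0) - (p - p₀) (z - z0) := by simp
      rw [this]
      exact norm_sub_le _ _
    have h3 : ‖(p - p₀) (z - z0)‖ ≤ ‖p - p₀‖ * r := by
      rw [← hz]
      exact (p - p₀).le_opNorm _
    linarith
  -- 3. the cover
  set O : Set M := U0 ∩ F.Om with hO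
  have hOo : IsOpen O := hU0o.inter F.op
  obtain ⟨C⟩ := exists_cov F hU0o (by
    rintro x ⟨hx, hxO⟩
    rw [← c.eq x hxO]
    exact hsat0 x hx)
  -- 4. connected neighbourhoods
  obtain ⟨B0, hB0o, hx0B, hB0U, hB0c⟩ := conn_nhds F hU0o (show x0 ∈ U0 from hx0U)
  -- 5. a point near x0 and the perturbation
  have hpos : 0 < ε / 2 / (‖p₀‖ + 1) := by positivity
  set ρ := min r (ε / 2 / (‖p₀‖ + 1)) with hρ
  have hρ0 : 0 < ρ := lt_min hr hpos
  obtain ⟨x', hx'Om, hx'B, hx's, hx'ρ⟩ : ∃ x' ∈ F.Om, x' ∈ B0 ∧ x' ∈ (A.e i).source ∧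
      A.e i x' ∈ ball z0 ρ := by
    have h1 : B0 ∩ ((A.e i).source ∩ (A.e i) ⁻¹' ball z0 ρ) ∈ 𝓝 x0 :=
      inter_mem (hB0o.mem_nhds hx0B) (((A.e i).isOpen_inter_preimage isOpen_ball).mem_nhds
        ⟨hi, mem_ball_self hρ0⟩)
    obtain ⟨y, hy, hy'⟩ := F.dns.inter_nhds_nonempty h1
    exact ⟨y, hy, hy'.1, hy'.2.1, hy'.2.2⟩
  obtain ⟨k, hk⟩ := C.cov x' ⟨hB0U hx'B, hx'Om⟩
  obtain ⟨p, hpp, hpinj⟩ := exists_perturb (E := Cn (2 * n)) (W := Cn n) (by simp)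
    (fderiv ℂ (fun z => (C.τ k).f ((A.e i).symm z)) (A.e i x')) p₀
    ((C.τ k).sub i x' ⟨hx's, hk.1⟩) (ε := ε / (2 * (r + 1))) (by positivity)
  have hpr : ‖p - p₀‖ * (r + 1) ≤ ε / 2 := by
    rw [lt_div_iff₀ (by positivity)] at hpp
    nlinarith
  have hpr' : ‖p - p₀‖ * r ≤ ε / 2 := by
    have := norm_nonneg (p - p₀)
    nlinarith
  -- 6. the slice data
  let S : SD A F.Tf O n :=
    { i := i, z0 := z0, r := r, r_pos := hr, hball := hball, p := p, ε := ε, ε_pos := hε0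
      hsl := fun x hx z hz hzx => hsphere p hpr' x hx.1 z hz (by rw [c.eq x hx.2]; exact hzx) }
  obtain ⟨c0, dd, R, hRo, hRO, hRd, hRsat, hPS, hddl, hdpos, htr⟩ := out hn S C
  have hdx' : 1 ≤ dd x' := by
    have hsx : (A.e i).symm (A.e i x') = x' := (A.e i).left_inv hx's
    have hzW : A.e i x' ∈ S.W (C.τ k) (C.y k) (C.δ k) := by
      refine ⟨ball_subset_ball (min_le_left _ _) hx'ρ, ?_, ?_⟩
      · show (A.e i).symm (A.e i x') ∈ _
        rw [hsx]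
        exact hk
      · show ‖p (A.e i x' - z0)‖ < ε
        have h1 : ‖A.e i x' - z0‖ < ρ := by
          rw [← dist_eq_norm]
          exact hx'ρ
        have h2 : p (A.e i x' - z0) = p₀ (A.e i x' - z0) + (p - p₀) (A.e i x' - z0) := by simp
        have h3 : ‖p₀ (A.e i x' - z0)‖ ≤ ‖p₀‖ * ‖A.e i x' - z0‖ := p₀.le_opNorm _
        have h4 : ‖(p - p₀) (A.e i x' - z0)‖ ≤ ‖p - p₀‖ * ‖A.e i x' - z0‖ := (p - p₀).le_opNorm _
        have h5 : ‖A.e i x' - z0‖ < r := h1.trans_le (min_le_left _ _)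
        have h6 : ‖A.e i x' - z0‖ < ε / 2 / (‖p₀‖ + 1) := h1.trans_le (min_le_right _ _)
        rw [lt_div_iff₀ (by positivity)] at h6
        have h7 : ‖p₀‖ * ‖A.e i x' - z0‖ < ε / 2 := by
          nlinarith [norm_nonneg (A.e i x' - z0)]
        have h8 : ‖p - p₀‖ * ‖A.e i x' - z0‖ ≤ ε / 2 := by
          have := norm_nonneg (p - p₀)
          nlinarith
        rw [h2]
        refine (norm_add_le _ _).trans_lt ?_
        linarith
    have hinj := S.fderiv_inj (C.τ k) hzW hpinj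
    have := hdpos k _ hzW hinj
    have h3 : (A.e S.i).symm (A.e i x') = x' := hsx
    rwa [h3] at this
  -- 7. constant degree
  have hddc : ∀ B : Set M, B ⊆ U0 → IsPreconnected (B ∩ F.Om) → ∀ x ∈ B ∩ F.Om,
      ∀ y ∈ B ∩ F.Om, dd x = dd y := by
    intro B hBU hBc x hx y hy
    refine hBc.constant (f := dd) ?_ hx hy
    intro w hw
    have h1 : ∀ᶠ y in 𝓝 w, dd y = dd w := hddl w ⟨hBU hw.1, hw.2⟩
    have h2 : ContinuousAt dd w := by
      have : dd =ᶠ[𝓝 w] fun _ => dd w := h1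
      exact continuousAt_const.congr this.symm
    exact h2.continuousWithinAt
  set d0 := dd x' with hd0
  set U' : Set M := {x | ∃ B, IsOpen B ∧ x ∈ B ∧ B ⊆ U0 ∧ ∀ y ∈ B ∩ F.Om, dd y = d0} with hU'
  have hU'o : IsOpen U' := by
    rw [isOpen_iff_mem_nhds]
    rintro x ⟨B, hBo, hxB, hBU, hB⟩
    filter_upwards [hBo.mem_nhds hxB] with y hy
    exact ⟨B, hBo, hy, hBU, hB⟩
  have hU'U : U' ⊆ U0 := by
    rintro x ⟨B, -, hxB, hBU, -⟩
    exact hBU hxB
  have hU'd : ∀ x ∈ U' ∩ F.Om, dd x = d0 := by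
    rintro x ⟨⟨B, -, hxB, -, hB⟩, hxO⟩
    exact hB x ⟨hxB, hxO⟩
  have hx0U' : x0 ∈ U' := ⟨B0, hB0o, hx0B, hB0U, fun y hy =>
    hddc B0 hB0U hB0c y hy x' ⟨hx'B, hx'Om⟩⟩
  have hsat' : ∀ x ∈ U', c.Z x ⊆ U' := by
    intro x hx
    have hZU : c.Z x ⊆ U0 := hsat0 x (hU'U hx)
    set V' : Set M := {y | ∃ B, IsOpen B ∧ y ∈ B ∧ Disjoint B U'} with hV'
    have hV'o : IsOpen V' := by
      rw [isOpen_iff_mem_nhds]
      rintro y ⟨B, hBo, hyB, hB⟩
      filter_upwards [hBo.mem_nhds hyB] with w hw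
      exact ⟨B, hBo, hw, hB⟩
    have hdisj : Disjoint U' V' := by
      rw [Set.disjoint_left]
      rintro y hy ⟨B, -, hyB, hB⟩
      exact (Set.disjoint_left.1 hB) hyB hy
    have hcov : c.Z x ⊆ U' ∪ V' := by
      intro y hy
      by_cases hyU : y ∈ U'
      · exact Or.inl hyU
      · right
        obtain ⟨B, hBo, hyB, hBU, hBc⟩ := conn_nhds F hU0o (hZU hy)
        refine ⟨B, hBo, hyB, ?_⟩
        rw [Set.disjoint_left]
        rintro w hwB ⟨B', hB'o, hwB', hB'U, hB'⟩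
        apply hyU
        obtain ⟨v, hv, hvO⟩ := F.dns.inter_open_nonempty (B ∩ B') (hBo.inter hB'o) ⟨w, hwB, hwB'⟩
        refine ⟨B, hBo, hyB, hBU, fun u hu => ?_⟩
        rw [hddc B hBU hBc u hu v ⟨hv.1, hvO⟩]
        exact hB' v ⟨hv.2, hvO⟩
    exact (c.conn x).isPreconnected.subset_left_of_subset_union hU'o hV'o hdisj hcov
      ⟨x, c.mem x, hx⟩
  have hTfZ : ∀ x ∈ F.Om, ∀ y ∈ F.Tf x, F.Tf y = F.Tf x := by
    intro x hx y hy
    have hyO : y ∈ F.Om := Tf_sub_Om hx hy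
    rw [← c.eq y hyO, ← c.eq x hx]
    exact c.part x y (by rw [c.eq x hx]; exact hy)
  -- 8. assembly
  refine ⟨⟨i, hi, r, hr, hball, U', hU'o, hsat' x0 hx0U', hsat', d0, hdx', R ∩ U',
    hRo.inter hU'o, ?_, ?_, ?_,
    fun x => if h : (S.PS c0 x).Finite then h.toFinset else ∅, ?_, ?_, ?_, ?_⟩⟩
  · rintro x ⟨hxR, hxU⟩
    exact ⟨hxU, (hRO hxR).2⟩
  · rintro x ⟨hxR, hxU⟩ y hy
    refine ⟨hRsat x hxR hy, hsat' x hxU ?_⟩
    rw [c.eq x (hRO hxR).2]
    exact hy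
  · intro x hx
    rw [mem_closure_iff_nhds]
    intro t ht
    obtain ⟨t', ht't, ht'o, hxt'⟩ := mem_nhds_iff.1 (inter_mem ht (hU'o.mem_nhds hx))
    obtain ⟨y, hy, hyO⟩ := F.dns.inter_open_nonempty t' ht'o ⟨x, hxt'⟩
    have hyO' : y ∈ O := ⟨hU'U (ht't hy).2, hyO⟩
    obtain ⟨w, hw, hwR⟩ := mem_closure_iff_nhds.1 (hRd hyO') t' (ht'o.mem_nhds hy)
    exact ⟨w, (ht't hw).1, hwR, (ht't hw).2⟩
  · rintro x ⟨hxR, hxU⟩
    obtain ⟨h1, h2⟩ := hPS x hxR
    rw [dif_pos h1, ← ncard_eq_toFinset_card _ h1, h2]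
    exact hU'd x ⟨hxU, (hRO hxR).2⟩
  · rintro x ⟨hxR, hxU⟩ z hz
    obtain ⟨h1, h2⟩ := hPS x hxR
    rw [dif_pos h1, Finite.mem_toFinset] at hz
    exact ⟨hz.1, hz.2.1⟩
  · rintro x ⟨hxR, hxU⟩ y hy
    have h1 : S.PS c0 y = S.PS c0 x := by
      ext z
      simp only [SD.PS, hTfZ x (hRO hxR).2 y hy]
    simp only [h1]
  · intro h hh
    obtain ⟨T, hT1, hT2, hT3, hT4⟩ := htr h hh
    refine ⟨T, ?_, ?_, ?_, ?_⟩
    · exact fun j => (hT1 j).mono fun x hx => ⟨hU'U hx.1, hx.2⟩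
    · exact fun x hx y hy => hT2 x ⟨hU'U hx.1, hx.2⟩ y hy
    · intro B hB x hx
      rw [← hU'd x hx]
      exact hT3 B hB x ⟨hU'U hx.1, hx.2⟩
    · rintro x ⟨hxR, hxU⟩
      obtain ⟨h1, h2⟩ := hPS x hxR
      rw [hT4 x hxR, dif_pos h1, finsum_mem_eq_finite_toFinset_sum _ h1]

end Crest.Agent.R281.Fr7_316
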