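import Crest.Agent.R281.Tube3_242

/-!
# R281, S-TUBE part 4 (helper242): final statement

`tube` : from local logarithms of `f = (f_1, …, f_N)` on a large metric ball, with finite fibres, to
an embedded `B_r × T^N`.
-/

set_option autoImplicit false
set_option linter.unusedSectionVars false

open Set Filter Topology Metric Complex

namespace Crest.Agent.R281.Tube_242

noncomputable section

variable {N : ℕ} {X : Type*} [MetricSpace X]

/-- the uniform bound of the coordinates -/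
def Mb (N d : ℕ) : ℝ := (exists_basis_bdd N d).choose

theorem Mb_pos (N d : ℕ) : 0 < Mb N d := (exists_basis_bdd N d).choose_spec.1

/-- real vector as complex vector -/
def rV (v : Fin N → ℝ) : Cn N := WithLp.toLp 2 (fun j => (v j : ℂ))

@[simp] theorem rV_apply (v : Fin N → ℝ) (j : Fin N) : rV v j = (v j : ℂ) := rfl

/-- images of small balls under a lift are neighbourhoods: a lift is an open map -/
theorem lift_isOpen_image {E Y : Type*} [NormedAddCommGroup E] [NormedSpace ℝ E] {f : X → Y}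
    {e : E → Y} {C : ℝ} {U : Set X} {D : Set E} {Ψ : E → X} (hD : IsOpen D) (hi : LocInj e)
    (hf : HasLog f e C U) (h : IsLift f e U D Ψ) {S : Set E} (hS : IsOpen S) (hSD : S ⊆ D) :
    IsOpen (Ψ '' S) := by
  rw [isOpen_iff_mem_nhds]
  rintro _ ⟨z, hz, rfl⟩
  obtain ⟨φ, hp, hφp, hφ⟩ := hf (Ψ z) (h.mem z (hSD hz)) z (h.eq z (hSD hz)).symm
  have h1 := lift_eventuallyEq hD hi h.cont h.eq (hSD hz) hφ hp hφp
  have h2 : ∀ᶠ w in 𝓝 z, w ∈ S := hS.mem_nhds hz
  have h3 : ∀ᶠ x in 𝓝 (Ψ z), x ∈ φ.source ∧ φ x ∈ S ∧ Ψ (φ x) = φ.symm (φ x) := by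
    have h4 : Tendsto φ (𝓝 (Ψ z)) (𝓝 z) := by
      have := φ.continuousAt hp
      rw [ContinuousAt, hφp] at this
      exact this
    filter_upwards [φ.open_source.mem_nhds hp, h4.eventually h2, h4.eventually h1] with x a b c
    exact ⟨a, b, c.2.1⟩
  filter_upwards [h3] with x hx
  refine ⟨φ x, hx.2.1, ?_⟩
  rw [hx.2.2, φ.left_inv hx.1]

/-- it is enough to have one logarithm at every point -/
theorem hasLog_ee_of_one {f : X → (Fin N → ℂ)} {c : Fin N → ℂ} {C : ℝ} {U : Set X}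
    (hc : ∀ j, c j ≠ 0)
    (h : ∀ p ∈ U, ∃ φ : OpenPartialHomeomorph X (Cn N), p ∈ φ.source ∧ IsLog f (ee c) C φ) :
    HasLog f (ee c) C U := by
  intro p hp ζ hζ
  obtain ⟨φ, hps, hφ⟩ := h p hp
  have h1 : ee c ζ = ee c (φ p) := by rw [hζ, hφ.log p hps]
  have h2 := (ee_eq_iff hc _ _).1 h1
  have h3 : ∀ z, ee c (z + (ζ - φ p)) = ee c z := by
    intro z
    refine ee_add_KL (k := fun _ => 1) c ?_ z
    intro j
    obtain ⟨n, hn⟩ := h2 j
    exact ⟨n, by rw [PiLp.sub_apply, hn]; simp⟩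
  refine ⟨φ.transHomeomorph (Homeomorph.addRight (ζ - φ p)), ?_, ?_, ?_⟩
  · simpa using hps
  · simp
  · refine ⟨?_, ?_⟩
    · intro x hx
      have hx' : x ∈ φ.source := by simpa using hx
      show ee c (φ x + (ζ - φ p)) = f x
      rw [h3, hφ.log x hx']
    · intro x hx x' hx'
      have hx1 : x ∈ φ.source := by simpa using hx
      have hx2 : x' ∈ φ.source := by simpa using hx'
      show dist x x' ≤ C * dist (φ x + (ζ - φ p)) (φ x' + (ζ - φ p))
      rw [dist_add_right]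
      exact hφ.lip x hx1 x' hx2

theorem rV_iV_re (v y : Fin N → ℝ) : reV (rV v + iV y) = WithLp.toLp 2 v := by
  ext j
  rw [reV_apply, PiLp.add_apply, rV_apply, iV_apply]
  simp

/-- every vector of the strip is `v + i A θ` -/
theorem exists_coord (A : (Fin N → ℝ) ≃L[ℝ] (Fin N → ℝ)) (z : Cn N) :
    ∃ θ : Fin N → ℝ, z = rV (fun j => (z j).re) + iV (A θ) := by
  refine ⟨A.symm (fun j => (z j).im), ?_⟩
  ext j
  rw [PiLp.add_apply, rV_apply, iV_apply, A.apply_symm_apply, Complex.re_add_im]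

/-- **THE TUBE.** `f : X → ℂ^N`, without zeros at `y`, has on `ball y R` local logarithms with
`C`-Lipschitz inverse and fibres of at most `d` points. If `R ≥ 2 C (r + π d √N)` then there are
`A ∈ GL(N, ℝ)` with `‖A‖, ‖A⁻¹‖ ≤ Mb N d` and a continuous open locally injective map `Ψ` from the
strip `‖Re z‖ < r` to `ball y R`, with `f (Ψ z) = (f_j(y) exp z_j)_j`, `Ψ 0 = y`, `C`-Lipschitz and
injective modulo the lattice `i A ℤ^N ⊆ 2πi ℤ^N`. -/
theorem tube [CompleteSpace X] {d : ℕ} {f : X → (Fin N → ℂ)} {y : X} {C R r : ℝ} (hC : 0 < C)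
    (hr : 0 < r) (hR : 2 * C * (r + Real.pi * d * √N) ≤ R) (hfc : ContinuousOn f (ball y R))
    (hfy : ∀ j, f y j ≠ 0) (hf : HasLog f (ee (f y)) C (ball y R))
    (hd : ∀ (q : Fin N → ℂ) (s : Finset X), (∀ x ∈ s, x ∈ ball y R ∧ f x = q) → s.card ≤ d) :
    ∃ (A : (Fin N → ℝ) ≃L[ℝ] (Fin N → ℝ)) (Ψ : Cn N → X),
      ‖(A : (Fin N → ℝ) →L[ℝ] (Fin N → ℝ))‖ ≤ Mb N d ∧
      ‖(A.symm : (Fin N → ℝ) →L[ℝ] (Fin N → ℝ))‖ ≤ Mb N d ∧
      IsLift f (ee (f y)) (ball y R) (St 0 r) Ψ ∧ Ψ 0 = y ∧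
      (∀ z ∈ St 0 r, ∀ w ∈ St 0 r, Ψ z = Ψ w ↔
        ∃ n : Fin N → ℤ, z = w + iV (A fun j => (n j : ℝ))) ∧
      (∀ z ∈ St 0 r, ∀ w ∈ St 0 r, dist (Ψ z) (Ψ w) ≤ C * dist z w) ∧
      (∀ S, IsOpen S → S ⊆ St 0 r → IsOpen (Ψ '' S)) ∧
      (∀ n : Fin N → ℤ, ∀ j, ∃ m : ℤ, A (fun j => (n j : ℝ)) j = 2 * Real.pi * m) := by
  have hR0 : 0 < R := lt_of_lt_of_le (by positivity) hR
  have hi : LocInj (ee (f y)) := locInj_ee hfy
  have he0 : ee (f y) (0 : Cn N) = f y := by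
    funext j; simp [ee]
  obtain ⟨Ψ₀, h0, hcont, hΨ₀⟩ := hadamard hi (continuous_ee _) hfc hf he0 hC.le hR0
  have hset : {z : Cn N | C * dist z 0 < R} = ball 0 (R / C) := by
    ext z
    rw [mem_ofPred_eq, mem_ball, lt_div_iff₀ hC, mul_comm]
  rw [hset] at hcont
  have hlift : IsLift f (ee (f y)) (ball y R) (ball (0 : Cn N) (R / C)) Ψ₀ := by
    have hmem : ∀ z ∈ ball (0 : Cn N) (R / C), C * dist z 0 < R := by
      intro z hz
      rw [← hset] at hz; exact hz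
    refine ⟨hcont, fun z hz => ?_, fun z hz => (hΨ₀ z (hmem z hz)).1⟩
    exact lt_of_le_of_lt (hΨ₀ z (hmem z hz)).2 (hmem z hz)
  obtain ⟨Λ, Ψ, k, hk, hKΛ, hΛ, hL, hEq, hper, hinj⟩ := strip (r := r) hfy isOpen_ball hf hlift hd
    hr (by
      rw [le_div_iff₀ hC]
      calc 2 * (r + Real.pi * d * √N) * C = 2 * C * (r + Real.pi * d * √N) := by ring
        _ ≤ R := hR)
  obtain ⟨A, hA1, hA2, hA3⟩ := (exists_basis_bdd N d).choose_spec.2 Λ ⟨⟨k, hk, hKΛ⟩, hΛ⟩
  refine ⟨A, Ψ, hA1, hA2, hL, ?_, ?_, ?_, ?_, ?_⟩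
  · have h1 : (0 : Cn N) ∈ ball (0 : Cn N) (R / C / 2) ∩ St 0 r := by
      refine ⟨mem_ball_self (by positivity), ?_⟩
      show ‖reV ((0 : Cn N) - 0)‖ < r
      simpa using hr
    rw [hEq h1, h0]
  · intro z hz w hw
    rw [hinj z hz w hw]
    constructor
    · intro hzw
      have h1 : ∃ θ : Fin N → ℝ, z - w = iV (A θ) := by
        obtain ⟨θ, hθ⟩ := exists_coord A (z - w)
        refine ⟨θ, ?_⟩
        have h2 : (fun j => ((z - w) j).re) = 0 := by
          funext j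
          obtain ⟨n, hn⟩ := hΛ hzw j
          rw [hn]; simp
        have h3 : rV (0 : Fin N → ℝ) = 0 := by ext j; simp
        rw [h2, h3, zero_add] at hθ
        exact hθ
      obtain ⟨θ, hθ⟩ := h1
      rw [hθ, hA3] at hzw
      choose n hn using hzw
      refine ⟨n, ?_⟩
      have h4 : (fun j => (n j : ℝ)) = θ := funext fun j => (hn j).symm
      rw [h4, ← hθ]; abel
    · rintro ⟨n, rfl⟩
      rw [add_sub_cancel_left, hA3]
      exact fun j => ⟨n j, rfl⟩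
  · intro z hz w hw
    exact lift_dist (convex_St 0 r) hi hf hL.cont (fun u hu => ⟨hL.mem u hu, hL.eq u hu⟩) hz hw
  · intro S hS hSD
    exact lift_isOpen_image (isOpen_St 0 r) hi hf hL hS hSD
  · intro n j
    have h1 : iV (A fun j => (n j : ℝ)) ∈ Λ := (hA3 _).2 fun j => ⟨n j, rfl⟩
    obtain ⟨m, hm⟩ := hΛ h1 j
    refine ⟨m, ?_⟩
    rw [iV_apply] at hm
    have h3 : ((A (fun j => (n j : ℝ)) j : ℂ) * I).im = ((m : ℂ) * ((1 : ℕ) * (2 * Real.pi * I))).im := by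
      rw [hm]
    have h4 : A (fun j => (n j : ℝ)) j = m * (2 * Real.pi) := by simpa using h3
    rw [h4]; ring

end

end Crest.Agent.R281.Tube_242
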