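import Crest.Agent.R281.TorE_922
import Crest.Agent.R281.Tube4_242
import Crest.Agent.R275.Geo_509

/-!
# R281 (S0424), S-FRAME (helper922), file 2: length control (S-TOR form) gives local logarithms
(S-TUBE form of 242)
-/

set_option autoImplicit false
set_option linter.unusedSectionVars false

open Set Filter Topology Complex Metric

namespace Crest.Agent.R281.Fra_922

open Crest.Agent.R275.Geo
open Crest.Agent.R281.Tor_922
open Crest.Agent.R281.Tube_242 (HasLog IsLog LocInj ee hasLog_ee_of_one)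

noncomputable section

variable {n : ℕ} {X : Type*} [MetricSpace X]

/-- `Fin n → ℂ ≃ₜ Cn n`, `a ↦ a - γ` -/
def shiftH (γ : Fin n → ℂ) : (Fin n → ℂ) ≃ₜ Cn n :=
  (Homeomorph.addRight (-γ)).trans
    (PiLp.continuousLinearEquiv 2 ℂ (fun _ : Fin n => ℂ)).symm.toHomeomorph

theorem shiftH_apply (γ a : Fin n → ℂ) (j : Fin n) : shiftH γ a j = a j + -γ j := rfl

theorem dist_le_shiftH (γ a b : Fin n → ℂ) : dist a b ≤ dist (shiftH γ a) (shiftH γ b) := by
  rw [dist_pi_le_iff dist_nonneg]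
  intro j
  rw [dist_eq_norm, dist_eq_norm]
  have h := PiLp.norm_apply_le (shiftH γ a - shiftH γ b) j
  rw [PiLp.sub_apply, shiftH_apply, shiftH_apply, add_sub_add_right_eq_sub] at h
  exact h

/-- **length control gives local logarithms** -/
theorem hasLog_of_lcx {F : X → Fin n → ℂ} {W : Set X} (hW : IsOpen W)
    (hF : IsLocalHomeomorphOn F W) {C : ℝ} (hC : 0 ≤ C) (hLC : LCX F W C) {c : Fin n → ℂ}
    (hc : ∀ j, c j ≠ 0) (hne : ∀ p ∈ W, ∀ j, F p j ≠ 0) : HasLog F (ee c) C W := by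
  refine hasLog_ee_of_one hc fun p hp => ?_
  obtain ⟨e, hpe, hFe⟩ := hF p hp
  -- a logarithm of `F p`
  set ζ : Fin n → ℂ := fun j => Complex.log (F p j) with hζ
  have hζp : expPi ζ = F p := funext fun j => Complex.exp_log (hne p hp j)
  obtain ⟨δ, hδ, s, hs0, hs1, hs2⟩ := hLC p hp ζ hζp
  obtain ⟨g, hgζ, hge⟩ := isLocalHomeomorph_expPi ζ
  have hes : e p = g ζ := by rw [← hge, hζp, hFe]
  -- the logarithm
  set φ0 : OpenPartialHomeomorph X (Fin n → ℂ) := e.trans g.symm with hφ0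
  have hp0 : p ∈ φ0.source := by
    rw [hφ0, OpenPartialHomeomorph.trans_source]
    refine ⟨hpe, ?_⟩
    rw [mem_preimage, hes]
    exact g.map_source hgζ
  have hφp : φ0 p = ζ := by
    change g.symm (e p) = ζ
    rw [hes, g.left_inv hgζ]
  have hlog0 : ∀ x ∈ φ0.source, expPi (φ0 x) = F x := by
    intro x hx
    rw [hφ0, OpenPartialHomeomorph.trans_source] at hx
    change expPi (g.symm (e x)) = F x
    rw [hge, g.right_inv hx.2, hFe]
  have hsc : ContinuousAt s ζ := by
    rw [Metric.continuousAt_iff]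
    intro ε hε
    refine ⟨min δ (ε / (C + 1)), lt_min hδ (by positivity), fun z hz => ?_⟩
    have hzδ : z ∈ ball ζ δ := lt_of_lt_of_le hz (min_le_left _ _)
    calc dist (s z) (s ζ) ≤ C * ‖z - ζ‖ := hs2 z hzδ ζ (mem_ball_self hδ)
      _ ≤ (C + 1) * ‖z - ζ‖ := by gcongr; linarith
      _ < (C + 1) * (ε / (C + 1)) := by
        have : ‖z - ζ‖ < ε / (C + 1) := by
          rw [← dist_eq_norm]
          exact lt_of_lt_of_le hz (min_le_right _ _)
        gcongr
      _ = ε := by field_simp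
  -- near `ζ` the section is the inverse of the logarithm
  have hev : ∀ᶠ z in 𝓝 ζ, z ∈ ball ζ δ ∧ z ∈ φ0.target ∧ φ0.symm z = s z := by
    have h1 : ∀ᶠ z in 𝓝 ζ, s z ∈ e.source :=
      hsc.eventually_mem (e.open_source.mem_nhds (by rw [hs0]; exact hpe))
    have h2 : ∀ᶠ z in 𝓝 ζ, z ∈ φ0.target := φ0.open_target.mem_nhds (by
      rw [← hφp]; exact φ0.map_source hp0)
    filter_upwards [h1, h2, ball_mem_nhds ζ hδ] with z k1 k2 k3
    refine ⟨k3, k2, ?_⟩
    have k4 : φ0.symm z ∈ e.source := by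
      have := φ0.map_target k2
      rw [hφ0, OpenPartialHomeomorph.trans_source] at this
      exact this.1
    refine e.injOn k4 k1 ?_
    rw [← hFe]
    have := hlog0 _ (φ0.map_target k2)
    rw [φ0.right_inv k2] at this
    rw [← this, (hs1 z k3).2]
  obtain ⟨δ', hδ', hball⟩ := Metric.mem_nhds_iff.1 hev
  set γ : Fin n → ℂ := fun j => Complex.log (c j) with hγ
  have hshift : ∀ a : Fin n → ℂ, ee c (shiftH γ a) = expPi a := by
    intro a
    funext j
    change c j * Complex.exp (shiftH γ a j) = Complex.exp (a j)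
    rw [shiftH_apply, Complex.exp_add, Complex.exp_neg, hγ]
    simp only
    rw [Complex.exp_log (hc j)]
    have := hc j
    field_simp
  set O : Set X := φ0.source ∩ φ0 ⁻¹' ball ζ δ' with hO
  have hOo : IsOpen O := φ0.isOpen_inter_preimage isOpen_ball
  set φ1 : OpenPartialHomeomorph X (Fin n → ℂ) := φ0.restrOpen O hOo with hφ1
  have hsrc : φ1.source ⊆ O := fun x hx => hx.2
  have hval : ∀ x, φ1 x = φ0 x := fun x => rfl
  refine ⟨φ1.transHomeomorph (shiftH γ), ?_, ?_, ?_⟩
  · change p ∈ φ1.source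
    exact ⟨hp0, hp0, by rw [mem_preimage, hφp]; exact mem_ball_self hδ'⟩
  · intro x hx
    have hx' : x ∈ φ1.source := hx
    change ee c (shiftH γ (φ1 x)) = F x
    rw [hshift, hval, hlog0 x (hsrc hx').1]
  · intro x hx x' hx'
    have h1 : x ∈ O := hsrc hx
    have h1' : x' ∈ O := hsrc hx'
    change dist x x' ≤ C * dist (shiftH γ (φ1 x)) (shiftH γ (φ1 x'))
    have h2 := hball h1.2
    have h2' := hball h1'.2
    have h3 : s (φ0 x) = x := by rw [← h2.2.2, φ0.left_inv h1.1]
    have h3' : s (φ0 x') = x' := by rw [← h2'.2.2, φ0.left_inv h1'.1]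
    have h4 := hs2 _ h2.1 _ h2'.1
    rw [h3, h3', ← dist_eq_norm] at h4
    rw [hval, hval]
    exact h4.trans (mul_le_mul_of_nonneg_left (dist_le_shiftH γ _ _) hC)

end

end Crest.Agent.R281.Fra_922
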