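import Crest.Agent.R281.TorD_922

/-!
# R281 (S0424), leaf S-TOR (helper922), file E: length control on a Riemannian manifold

`F : M → (ι → ℂ)` of class `C¹` on `W`, without zeros, `‖v‖ ≤ C max_j |dlog F_j (v)|` on `W`:
`F` is a local homeomorphism on `W` and `LCX F W C`.
-/

set_option autoImplicit false
set_option linter.unusedSectionVars false

open Set Filter Topology Metric Manifold Bundle
open scoped ContDiff Manifold Bundle ENNReal

namespace Crest.Agent.R281.Tor_922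

variable {E : Type*} [NormedAddCommGroup E] [NormedSpace ℝ E]
  {M : Type*} [MetricSpace M] [ChartedSpace E M]
  [RiemannianBundle (fun x : M => TangentSpace 𝓘(ℝ, E) x)] [IsManifold 𝓘(ℝ, E) 1 M]
  [IsRiemannianManifold 𝓘(ℝ, E) M]

/-- a `C¹` map of a convex open set with `‖ds‖ ≤ C` is `C`-Lipschitz -/
theorem dist_le_of_mfderiv_le {E' : Type*} [NormedAddCommGroup E'] [NormedSpace ℝ E'] {s : E' → M}
    {U : Set E'} (hU : Convex ℝ U) (hUo : IsOpen U) {C : ℝ} (hC : 0 ≤ C)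
    (hs : ContMDiffOn 𝓘(ℝ, E') 𝓘(ℝ, E) 1 s U)
    (hb : ∀ x ∈ U, ∀ v : E', ‖(mfderiv 𝓘(ℝ, E') 𝓘(ℝ, E) s x v : TangentSpace 𝓘(ℝ, E) (s x))‖
      ≤ C * ‖v‖) {a b : E'} (ha : a ∈ U) (hb' : b ∈ U) : dist (s a) (s b) ≤ C * ‖a - b‖ := by
  set γ : ℝ → E' := fun t => a + t • (b - a) with hγ
  have hγU : ∀ t ∈ Icc (0 : ℝ) 1, γ t ∈ U := fun t ht => hU.add_smul_sub_mem ha hb' ht
  have hγc : ContDiff ℝ 1 γ := by fun_prop
  have hγd : ∀ t, HasDerivAt γ (b - a) t := by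
    intro t
    have := ((hasDerivAt_id t).smul_const (b - a)).const_add a
    rwa [one_smul] at this
  have h1 : ContMDiffOn 𝓘(ℝ, ℝ) 𝓘(ℝ, E) 1 (s ∘ γ) (Icc 0 1) :=
    hs.comp hγc.contMDiff.contMDiffOn fun t ht => hγU t ht
  have h2 : riemannianEDist 𝓘(ℝ, E) (s a) (s b) ≤ ENNReal.ofReal (C * ‖a - b‖) := by
    refine (riemannianEDist_le_pathELength h1 (by simp [hγ]) (by simp [hγ]) zero_le_one).trans ?_
    rw [pathELength_eq_lintegral_mfderiv_Icc]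
    have h3 : ∀ t ∈ Icc (0 : ℝ) 1, ‖(mfderiv 𝓘(ℝ, ℝ) 𝓘(ℝ, E) (s ∘ γ) t 1 :
        TangentSpace 𝓘(ℝ, E) (s (γ t)))‖ₑ ≤ ENNReal.ofReal (C * ‖a - b‖) := by
      intro t ht
      have hsd : MDifferentiableAt 𝓘(ℝ, E') 𝓘(ℝ, E) s (γ t) :=
        (hs.contMDiffAt (hUo.mem_nhds (hγU t ht))).mdifferentiableAt (by simp)
      have hγm : HasMFDerivAt 𝓘(ℝ, ℝ) 𝓘(ℝ, E') γ t
          (ContinuousLinearMap.toSpanSingleton ℝ (b - a)) :=
        (hγd t).hasFDerivAt.hasMFDerivAt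
      have h4 : mfderiv 𝓘(ℝ, ℝ) 𝓘(ℝ, E) (s ∘ γ) t = (mfderiv 𝓘(ℝ, E') 𝓘(ℝ, E) s (γ t)).comp
          (ContinuousLinearMap.toSpanSingleton ℝ (b - a)) :=
        (hsd.hasMFDerivAt.comp t hγm).mfderiv
      rw [h4]
      have h5 := hb (γ t) (hγU t ht) (b - a)
      have e6 : (ContinuousLinearMap.toSpanSingleton ℝ (b - a)) (1 : ℝ) = b - a := by simp
      change ‖(mfderiv 𝓘(ℝ, E') 𝓘(ℝ, E) s (γ t) ((ContinuousLinearMap.toSpanSingleton ℝ (b - a))
        (1 : ℝ)) : TangentSpace 𝓘(ℝ, E) (s (γ t)))‖ₑ ≤ _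
      rw [e6, ← ofReal_norm, norm_sub_rev a b]
      exact ENNReal.ofReal_le_ofReal h5
    calc _ ≤ ∫⁻ _ in Icc (0 : ℝ) 1, ENNReal.ofReal (C * ‖a - b‖) :=
          MeasureTheory.setLIntegral_mono' measurableSet_Icc h3
      _ = ENNReal.ofReal (C * ‖a - b‖) := by simp
  rw [← IsRiemannianManifold.out (I := 𝓘(ℝ, E)), edist_dist] at h2
  exact (ENNReal.ofReal_le_ofReal_iff (by positivity)).1 h2

variable {ι : Type*} [Fintype ι]

/-- the frame condition: `‖v‖ ≤ C max_j |dlog F_j (v)|` on `W` -/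
structure FrameBd (F : M → ι → ℂ) (W : Set M) (C : ℝ) : Prop where
  smooth : ContMDiffOn 𝓘(ℝ, E) 𝓘(ℝ, ι → ℂ) 1 F W
  ne_zero : ∀ p ∈ W, ∀ j, F p j ≠ 0
  bound : ∀ p ∈ W, ∀ v : TangentSpace 𝓘(ℝ, E) p,
    ‖v‖ ≤ C * ‖fun j => (mfderiv 𝓘(ℝ, E) 𝓘(ℝ, ι → ℂ) F p v : ι → ℂ) j / F p j‖

/-- inverse function theorem for `F` at `p`: an open partial homeomorphism `e` with `e = F`, source
containing `p` and inverse `C¹` at `F p` -/
theorem FrameBd.exists_ift [FiniteDimensional ℝ E] {F : M → ι → ℂ} {W : Set M} {C : ℝ}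
    (hFr : FrameBd (E := E) F W C) (hW : IsOpen W)
    (hdim : Module.finrank ℝ E = 2 * Fintype.card ι) {p : M} (hp : p ∈ W) :
    ∃ e : OpenPartialHomeomorph M (ι → ℂ), p ∈ e.source ∧ EqOn F e e.source ∧
      ContMDiffAt 𝓘(ℝ, ι → ℂ) 𝓘(ℝ, E) 1 e.symm (F p) := by
  have : CompleteSpace E := FiniteDimensional.complete ℝ E
  set φ := chartAt E p with hφ
  set G : E → ι → ℂ := F ∘ φ.symm with hG
  have hpφ : p ∈ φ.source := mem_chart_source E p
  have hφp : φ p ∈ φ.target := φ.map_source hpφ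
  have hFat : ContMDiffAt 𝓘(ℝ, E) 𝓘(ℝ, ι → ℂ) 1 F p := hFr.smooth.contMDiffAt (hW.mem_nhds hp)
  have hsymm : ContMDiffAt 𝓘(ℝ, E) 𝓘(ℝ, E) 1 φ.symm (φ p) :=
    (contMDiffOn_chart_symm (I := 𝓘(ℝ, E)) (n := 1) (x := p)).contMDiffAt
      (φ.open_target.mem_nhds hφp)
  have hGd : ContDiffAt ℝ 1 G (φ p) := by
    rw [← contMDiffAt_iff_contDiffAt]
    refine ContMDiffAt.comp (φ p) ?_ hsymm
    rw [φ.left_inv hpφ]
    exact hFat
  have hmf : mfderiv 𝓘(ℝ, E) 𝓘(ℝ, ι → ℂ) F p = fderiv ℝ G (φ p) := by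
    rw [(hFat.mdifferentiableAt (by simp)).mfderiv]
    simp only [writtenInExtChartAt, extChartAt_model_space_eq_id, modelWithCornersSelf_coe,
      range_id, fderivWithin_univ]
    rfl
  have hinj : Function.Injective (fderiv ℝ G (φ p)) := by
    rw [injective_iff_map_eq_zero]
    intro v hv
    have h1 := hFr.bound p hp v
    have h2 : (mfderiv 𝓘(ℝ, E) 𝓘(ℝ, ι → ℂ) F p v : ι → ℂ) = 0 := by
      rw [hmf]
      exact hv
    have h3 : (fun j => (mfderiv 𝓘(ℝ, E) 𝓘(ℝ, ι → ℂ) F p v : ι → ℂ) j / F p j) = 0 := by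
      funext j
      rw [h2]
      exact (zero_div _ : (0 : ℂ) / F p j = 0)
    rw [h3, norm_zero, mul_zero] at h1
    have h4 : ∀ w : TangentSpace 𝓘(ℝ, E) p, ‖w‖ ≤ 0 → w = 0 := fun w hw => norm_le_zero_iff.1 hw
    exact h4 v h1
  have hfin : Module.finrank ℝ E = Module.finrank ℝ (ι → ℂ) := by
    rw [hdim, Module.finrank_pi_fintype]
    simp [Complex.finrank_real_complex, mul_comm]
  let L : E ≃L[ℝ] (ι → ℂ) := (LinearEquiv.ofInjectiveOfFinrankEq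
    (fderiv ℝ G (φ p)).toLinearMap hinj hfin).toContinuousLinearEquiv
  have hL : HasFDerivAt G (L : E →L[ℝ] (ι → ℂ)) (φ p) := by
    have h1 : (L : E →L[ℝ] (ι → ℂ)) = fderiv ℝ G (φ p) := by
      ext v
      rfl
    rw [h1]
    exact (hGd.differentiableAt (by simp)).hasFDerivAt
  set e1 := hGd.toOpenPartialHomeomorph G hL (by simp) with he1
  have hp1 : φ p ∈ e1.source := hGd.mem_toOpenPartialHomeomorph_source hL (by simp)
  have hGp : G (φ p) = F p := by rw [hG, Function.comp_apply, φ.left_inv hpφ]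
  refine ⟨φ.trans e1, ?_, ?_, ?_⟩
  · rw [OpenPartialHomeomorph.trans_source]
    exact ⟨hpφ, hp1⟩
  · intro z hz
    rw [OpenPartialHomeomorph.trans_source] at hz
    change F z = G (φ z)
    rw [hG, Function.comp_apply, φ.left_inv hz.1]
  · have h1 : ContDiffAt ℝ 1 e1.symm (G (φ p)) := by
      have := hGd.to_localInverse hL (by simp)
      exact this
    have h2 : e1.symm (G (φ p)) = φ p := by
      have : e1 (φ p) = G (φ p) := rfl
      rw [← this, e1.left_inv hp1]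
    rw [← hGp]
    have h3 : ContMDiffAt 𝓘(ℝ, ι → ℂ) 𝓘(ℝ, E) 1 (φ.symm ∘ e1.symm) (G (φ p)) := by
      refine ContMDiffAt.comp (G (φ p)) ?_ h1.contMDiffAt
      rw [h2]
      exact hsymm
    exact h3

theorem FrameBd.isLocalHomeomorphOn [FiniteDimensional ℝ E] {F : M → ι → ℂ} {W : Set M} {C : ℝ}
    (hFr : FrameBd (E := E) F W C) (hW : IsOpen W)
    (hdim : Module.finrank ℝ E = 2 * Fintype.card ι) : IsLocalHomeomorphOn F W := by
  refine IsLocalHomeomorphOn.mk _ _ fun p hp => ?_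
  obtain ⟨e, h1, h2, -⟩ := hFr.exists_ift hW hdim hp
  exact ⟨e, h1, h2⟩

/-- **length control from the frame bound** -/
theorem FrameBd.lcx [FiniteDimensional ℝ E] {F : M → ι → ℂ} {W : Set M} {C : ℝ} (hC : 0 ≤ C)
    (hFr : FrameBd (E := E) F W C) (hW : IsOpen W)
    (hdim : Module.finrank ℝ E = 2 * Fintype.card ι) : LCX F W C := by
  intro p hp ζ hζ
  obtain ⟨e, hpe, hFe, hes⟩ := hFr.exists_ift hW hdim hp
  have hep : e p = F p := (hFe hpe).symm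
  have htgt : F p ∈ e.target := by rw [← hep]; exact e.map_source hpe
  set s : (ι → ℂ) → M := fun z => e.symm (expPi z) with hs
  have hsζ : s ζ = p := by
    rw [hs]
    simp only
    rw [hζ, ← hep, e.left_inv hpe]
  have hexp : ContDiff ℝ 1 (expPi : (ι → ℂ) → ι → ℂ) := by
    unfold expPi
    rw [contDiff_pi]
    intro j
    exact Complex.contDiff_exp.comp (contDiff_apply ℝ ℂ j)
  have hsm : ContMDiffAt 𝓘(ℝ, ι → ℂ) 𝓘(ℝ, E) 1 s ζ := by
    refine ContMDiffAt.comp (f := (expPi : (ι → ℂ) → ι → ℂ)) (g := e.symm) ζ ?_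
      hexp.contDiffAt.contMDiffAt
    rw [hζ]
    exact hes
  obtain ⟨u, hu, hsu⟩ := (contMDiffAt_iff_contMDiffOn_nhds (by simp)).1 hsm
  have h1 : ∀ᶠ z in 𝓝 ζ, expPi z ∈ e.target :=
    continuous_expPi.continuousAt.eventually_mem (e.open_target.mem_nhds (by rw [hζ]; exact htgt))
  have h2 : ∀ᶠ z in 𝓝 ζ, s z ∈ W :=
    hsm.continuousAt.eventually_mem (hW.mem_nhds (by rw [hsζ]; exact hp))
  obtain ⟨δ, hδ, hball⟩ := Metric.mem_nhds_iff.1 (inter_mem hu (inter_mem h1 h2))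
  have hFs : ∀ z ∈ ball ζ δ, F (s z) = expPi z := by
    intro z hz
    have h3 : s z ∈ e.source := e.map_target (hball hz).2.1
    rw [hFe h3]
    exact e.right_inv (hball hz).2.1
  refine ⟨δ, hδ, s, hsζ, fun z hz => ⟨(hball hz).2.2, hFs z hz⟩, fun a ha b hb => ?_⟩
  refine dist_le_of_mfderiv_le (E := E) (convex_ball ζ δ) isOpen_ball hC
    (hsu.mono fun z hz => (hball hz).1) (fun x hx v => ?_) ha hb
  have hxW : s x ∈ W := (hball hx).2.2
  have hFat : MDifferentiableAt 𝓘(ℝ, E) 𝓘(ℝ, ι → ℂ) F (s x) :=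
    (hFr.smooth.contMDiffAt (hW.mem_nhds hxW)).mdifferentiableAt (by simp)
  have hsat : MDifferentiableAt 𝓘(ℝ, ι → ℂ) 𝓘(ℝ, E) s x :=
    ((hsu.mono fun z hz => (hball hz).1).contMDiffAt
      (isOpen_ball.mem_nhds hx)).mdifferentiableAt (by simp)
  have hcomp := hFat.hasMFDerivAt.comp x hsat.hasMFDerivAt
  have hexpd : ∀ j, HasFDerivAt (fun z : ι → ℂ => Complex.exp (z j))
      (Complex.exp (x j) • (ContinuousLinearMap.proj j : (ι → ℂ) →L[ℝ] ℂ)) x := by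
    intro j
    have h3 : HasDerivAt Complex.exp (Complex.exp (x j)) (x j) := Complex.hasDerivAt_exp _
    have h4 : HasFDerivAt (fun z : ι → ℂ => z j)
      (ContinuousLinearMap.proj j : (ι → ℂ) →L[ℝ] ℂ) x :=
      (ContinuousLinearMap.proj j : (ι → ℂ) →L[ℝ] ℂ).hasFDerivAt
    have h5 := (h3.hasFDerivAt.restrictScalars ℝ).comp x h4
    refine h5.congr_fderiv ?_
    ext w
    simp [mul_comm]
  have hexpP : HasFDerivAt (expPi : (ι → ℂ) → ι → ℂ) (ContinuousLinearMap.pi fun j =>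
      Complex.exp (x j) • (ContinuousLinearMap.proj j : (ι → ℂ) →L[ℝ] ℂ)) x :=
    hasFDerivAt_pi.2 hexpd
  have hFsd : HasFDerivAt (F ∘ s) (ContinuousLinearMap.pi fun j =>
      Complex.exp (x j) • (ContinuousLinearMap.proj j : (ι → ℂ) →L[ℝ] ℂ)) x :=
    hexpP.congr_of_eventuallyEq (by
      filter_upwards [isOpen_ball.mem_nhds hx] with z hz
      exact hFs z hz)
  have huniq := hasMFDerivAt_unique hcomp hFsd.hasMFDerivAt
  have h6 : (mfderiv 𝓘(ℝ, E) 𝓘(ℝ, ι → ℂ) F (s x) (mfderiv 𝓘(ℝ, ι → ℂ) 𝓘(ℝ, E) s x v) : ι → ℂ) =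
      fun j => Complex.exp (x j) * v j := by
    have := congrArg (fun A : (ι → ℂ) →L[ℝ] (ι → ℂ) => A v) huniq
    refine this.trans ?_
    funext j
    simp
  have h7 := hFr.bound (s x) hxW (mfderiv 𝓘(ℝ, ι → ℂ) 𝓘(ℝ, E) s x v)
  have h8 : (fun j => (mfderiv 𝓘(ℝ, E) 𝓘(ℝ, ι → ℂ) F (s x)
      (mfderiv 𝓘(ℝ, ι → ℂ) 𝓘(ℝ, E) s x v) : ι → ℂ) j / F (s x) j) = v := by
    funext j
    rw [h6, hFs x hx]
    change Complex.exp (x j) * v j / Complex.exp (x j) = v j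
    rw [mul_comm, mul_div_assoc, div_self (Complex.exp_ne_zero _), mul_one]
  rw [h8] at h7
  exact h7

end Crest.Agent.R281.Tor_922
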