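import Crest.Agent.R281.Ins3_615
import Crest.Agent.R281.TorE_922
import Crest.Agent.R281.Tube4_242

/-!
# Row 281 (S0424), S-ASM (helper790), part 1: lengths in the charts of the atlas

* `qf K i x v`  : `g_{a b̄} v_a v̄_b` at `x` in the chart `i`
* `norm_mfderiv_sq` : length of the derivative of a map into `(ofKah K).M` read in any chart
* `dist_le_of_qf` : a map of a convex open set with `qf ≤ C²|v|²` is `C`-Lipschitz
-/

set_option autoImplicit false
set_option linter.unusedSectionVars false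

open Set Filter Topology Complex Metric Manifold Bundle
open scoped ContDiff ComplexConjugate ComplexOrder Manifold Matrix

namespace Crest.Agent.R281.SAsm_790

open Crest.Agent.R275.Geo Crest.Agent.R275.Core144
open Crest.Agent.R273.Defs_333 Crest.Agent.R273.Kah_333 Crest.Agent.R273.Vol_333
open Crest.Agent.R273.Ric_798 Crest.Agent.R273.RMan_798 Crest.Agent.R273.RMan4_798

noncomputable section

variable {n : ℕ} {M : Type} [TopologicalSpace M] {A : Atl n M}

/-- the Hermitian form of the metric at `x` in the chart `i` -/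
def qf (K : Kah A) (i : A.ι) (x : M) (v : Cn n) : ℝ :=
  (star v.ofLp ⬝ᵥ ((K.g i x)ᵀ *ᵥ v.ofLp)).re

theorem qf_eq_G (K : Kah A) {i : A.ι} {x : M} (hx : x ∈ (A.e i).source) (v : Cn n) :
    qf K i x v = G (KK K i) (A.e i x) v v := by
  unfold qf G KK
  rw [(A.e i).left_inv hx]

/-- independence of the chart -/
theorem qf_tr (K : Kah A) {i j : A.ι} {x : M} (hx : x ∈ (A.e i).source ∩ (A.e j).source)
    (v : Cn n) :
    qf K i x v = qf K j x (fderiv ℝ (fun w => A.e j ((A.e i).symm w)) (A.e i x) v) := by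
  rw [qf_eq_G K hx.1, qf_eq_G K hx.2, G_tr K hx]

theorem bil_ofKah (K : Kah A) {i : A.ι} {x : M} (hx : x ∈ (A.e i).source) (v : EE (2 * n)) :
    (ofKah K).bil i ((ofKah K).c i x) v v = qf K i x ((eR n).symm v) := by
  have h0 : (eR n).symm (cR A i x) = A.e i x := by simp
  have hi : (KK K i ((eR n).symm (cR A i x))).IsHermitian := by
    rw [h0]; exact ((kd K i).pd _ ((A.e i).map_source hx)).1
  have h1 := sum_hm (eR n) hi v v
  rw [h0] at h1
  rw [qf_eq_G K hx]
  exact (RAtl.bil_apply (ofKah K) i ((ofKah K).c i x) v v).trans h1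

section gen

variable {d : ℕ} {N : Type} [TopologicalSpace N] (R : RAtl d N)
variable {E' : Type*} [NormedAddCommGroup E'] [NormedSpace ℝ E']

theorem norm_mfderiv_sq_R {s : E' → R.M} {x : E'} {i : R.ι}
    (hs : ContinuousAt s x) (hx : s x ∈ (R.ch i).source)
    (hd : DifferentiableAt ℝ (fun z => R.ch i (s z)) x) (v : E') :
    ‖(mfderiv 𝓘(ℝ, E') (𝓡 d) s x v : TangentSpace (𝓡 d) (s x))‖ ^ 2 =
      R.bil i (R.c i (s x)) (fderiv ℝ (fun z => R.ch i (s z)) x v)
        (fderiv ℝ (fun z => R.ch i (s z)) x v) := by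
  have hpj : s x ∈ (R.ch (R.idx (s x))).source := R.idx_mem (s x)
  -- transition
  have hev : (fun z => R.ch (R.idx (s x)) (s z)) =ᶠ[𝓝 x]
      (fun y => R.c (R.idx (s x)) ((R.c i).symm y)) ∘ (fun z => R.ch i (s z)) := by
    filter_upwards [hs.preimage_mem_nhds ((R.ch i).open_source.mem_nhds hx)] with z hz
    exact congrArg (R.ch (R.idx (s x))) ((R.ch i).left_inv hz).symm
  have hT : DifferentiableAt ℝ (fun y => R.c (R.idx (s x)) ((R.c i).symm y)) (R.ch i (s x)) := by
    have h1 := R.smt i (R.idx (s x))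
    have h2 : R.ch i (s x) ∈ Ins_615.ov R i (R.idx (s x)) := Ins_615.mem_ov R hx hpj
    exact (h1.contDiffAt ((Ins_615.isOpen_ov R i _).mem_nhds h2)).differentiableAt (by simp)
  have hfj : fderiv ℝ (fun z => R.ch (R.idx (s x)) (s z)) x v =
      R.T i (R.idx (s x)) (s x) (fderiv ℝ (fun z => R.ch i (s z)) x v) := by
    rw [hev.fderiv_eq, fderiv_comp x hT hd]
    rfl
  have h3 : DifferentiableAt ℝ (fun z => R.ch (R.idx (s x)) (s z)) x := by
    rw [hev.differentiableAt_iff]
    exact hT.comp x hd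
  have hsd : MDifferentiableAt 𝓘(ℝ, E') (𝓡 d) s x := by
    rw [mdifferentiableAt_iff]
    refine ⟨hs, ?_⟩
    have h4 := h3.differentiableWithinAt (s := range (𝓘(ℝ, E')))
    exact h4
  have hm : (mfderiv 𝓘(ℝ, E') (𝓡 d) s x v : TangentSpace (𝓡 d) (s x)) =
      fderiv ℝ (fun z => R.ch (R.idx (s x)) (s z)) x v := by
    rw [hsd.mfderiv]
    simp [writtenInExtChartAt]
    rfl
  have hn : ∀ w : TangentSpace (𝓡 d) (s x), ‖w‖ ^ 2 = R.bil (R.idx (s x)) (R.c (R.idx (s x)) (s x)) w w := by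
    intro w
    rw [← real_inner_self_eq_norm_sq]
    exact R.inner_M (s x) w w
  refine (hn _).trans ?_
  have h5 : ∀ w w' : EE d, w = w' → R.bil (R.idx (s x)) (R.c (R.idx (s x)) (s x)) w w =
      R.bil (R.idx (s x)) (R.c (R.idx (s x)) (s x)) w' w' := fun w w' h => by rw [h]
  refine (h5 _ _ (hm.trans hfj)).trans ?_
  exact (R.bil_tr i _ hx hpj _ _).symm

end gen

variable [T2Space M] [ConnectedSpace M]

section

variable {E' : Type*} [NormedAddCommGroup E'] [NormedSpace ℝ E']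

theorem mem_ch (K : Kah A) {i : A.ι} {x : M} (hx : x ∈ (A.e i).source) :
    x ∈ ((ofKah K).ch i).source := (Set.ext_iff.1 (cR_source (A := A) i) x).2 hx

theorem mem_of_ch (K : Kah A) {i : A.ι} {x : M} (hx : x ∈ ((ofKah K).ch i).source) :
    x ∈ (A.e i).source := (Set.ext_iff.1 (cR_source (A := A) i) x).1 hx

/-- length of the derivative of a map into `(ofKah K).M`, read in the chart `i` -/
theorem norm_mfderiv_sq (K : Kah A) {s : E' → (ofKah K).M} {x : E'} {i : A.ι}
    (hs : ContinuousAt s x) (hx : s x ∈ (A.e i).source)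
    (hd : DifferentiableAt ℝ (fun z => A.e i (s z)) x) (v : E') :
    ‖(mfderiv 𝓘(ℝ, E') (𝓡 (2 * n)) s x v : TangentSpace (𝓡 (2 * n)) (s x))‖ ^ 2 =
      qf K i (s x) (fderiv ℝ (fun z => A.e i (s z)) x v) := by
  have hei : (fun z => (ofKah K).ch i (s z)) = fun z => eR n (A.e i (s z)) := rfl
  have hdi : DifferentiableAt ℝ (fun z => (ofKah K).ch i (s z)) x := by
    rw [hei]
    exact (eR n).differentiableAt.comp x hd
  have hfi : fderiv ℝ (fun z => (ofKah K).ch i (s z)) x v =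
      eR n (fderiv ℝ (fun z => A.e i (s z)) x v) := by
    rw [hei]
    exact congrArg (fun L : E' →L[ℝ] EE (2 * n) => L v) ((eR n).comp_fderiv)
  refine (norm_mfderiv_sq_R (ofKah K) (i := i) hs (mem_ch K hx) hdi v).trans ?_
  refine (bil_ofKah K hx _).trans ?_
  rw [hfi, ContinuousLinearEquiv.symm_apply_apply]

/-- a map is `C¹` as soon as it is continuous and `C¹` in the charts -/
theorem contMDiffAt_of_chart (K : Kah A) {s : E' → (ofKah K).M} {x : E'} {i : A.ι}
    (hs : ContinuousAt s x) (hx : s x ∈ (A.e i).source)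
    (hd : ContDiffAt ℝ 1 (fun z => A.e i (s z)) x) :
    ContMDiffAt 𝓘(ℝ, E') (𝓡 (2 * n)) 1 s x := by
  have h1 : ContDiffAt ℝ 1 (fun z => (ofKah K).ch i (s z)) x := (eR n).contDiff.contDiffAt.comp x hd
  have h2 : ContMDiffAt (𝓡 (2 * n)) (𝓡 (2 * n)) 1 ((ofKah K).ch i).symm ((ofKah K).ch i (s x)) :=
    (contMDiffAt_symm_of_mem_maximalAtlas (Ins_615.ch_mem (ofKah K) i)
      (((ofKah K).ch i).map_source (mem_ch K hx))).of_le (by simp)
  refine (h2.comp x h1.contMDiffAt).congr_of_eventuallyEq ?_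
  filter_upwards [hs.preimage_mem_nhds (((ofKah K).ch i).open_source.mem_nhds (mem_ch K hx))] with z hz
  exact (((ofKah K).ch i).left_inv hz).symm

/-- a map of a convex open set with `qf (ds v) ≤ C² |v|²` is `C`-Lipschitz -/
theorem dist_le_of_qf (K : Kah A) {s : E' → (ofKah K).M} {U : Set E'} (hU : Convex ℝ U)
    (hUo : IsOpen U) {C : ℝ} (hC : 0 ≤ C) (hs : ContinuousOn s U)
    (hb : ∀ x ∈ U, ∃ i, s x ∈ (A.e i).source ∧ ContDiffAt ℝ 1 (fun z => A.e i (s z)) x ∧
      ∀ v : E', qf K i (s x) (fderiv ℝ (fun z => A.e i (s z)) x v) ≤ C ^ 2 * ‖v‖ ^ 2)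
    {a b : E'} (ha : a ∈ U) (hb' : b ∈ U) : dist (s a) (s b) ≤ C * ‖a - b‖ := by
  refine Tor_922.dist_le_of_mfderiv_le (E := EE (2 * n)) hU hUo hC (fun x hx => ?_)
    (fun x hx v => ?_) ha hb'
  · obtain ⟨i, h1, h2, -⟩ := hb x hx
    exact (contMDiffAt_of_chart K (hs.continuousAt (hUo.mem_nhds hx)) h1 h2).contMDiffWithinAt
  · obtain ⟨i, h1, h2, h3⟩ := hb x hx
    have h4 := norm_mfderiv_sq K (hs.continuousAt (hUo.mem_nhds hx)) h1
      (h2.differentiableAt (by simp)) v
    have h5 := h3 v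
    rw [← h4, ← mul_pow] at h5
    exact le_of_sq_le_sq h5 (by positivity)

end

end

end Crest.Agent.R281.SAsm_790
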