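import Crest.Agent.R281.Fra1_922
import Crest.Agent.R281.Fra2_922
import Crest.Agent.R281.SAsm1_790

/-!
# R281 (S0424), S-FRAME (helper922), file 3: lifts are holomorphic in the charts, pull-back metric

* `lift_holo`  : a continuous lift `Ψ` of a holomorphic map through a chartwise holomorphic `F` with
  injective derivative is holomorphic in the charts;
* `dlg_lift`   : `F ∘ Ψ = c exp` ⟹ `dlog F (DΨ v) = v`;
* `frame_tube` : frame bounds on `ball y R` ⟹ the tube of 242 with `Ψ` holomorphic in the charts and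
  the pull-back metric pinched.
-/

set_option autoImplicit false
set_option linter.unusedSectionVars false

open Set Filter Topology Complex Metric Manifold Bundle
open scoped ContDiff Matrix ComplexConjugate Manifold Bundle ComplexOrder

namespace Crest.Agent.R281.Fra_922

open Crest.Agent.R275.Geo
open Crest.Agent.R273.Defs_333
open Crest.Agent.R273.Kah_333
open Crest.Agent.R273.Ric_798 Crest.Agent.R273.RMan_798 Crest.Agent.R273.RMan4_798
open Crest.Agent.R281.Tor_922 Crest.Agent.R281.SAsm_790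
open Crest.Agent.R281.Tube_242 (HasLog IsLog LocInj ee hasLog_ee_of_one IsLift St Mb iV tube)

noncomputable section

variable {n : ℕ} {M : Type} [TopologicalSpace M] {A : Atl n M}

/-- **lifts are holomorphic in the charts** -/
theorem lift_holo {W : Set M} (hW : IsOpen W) {F : M → Fin n → ℂ} (hF : HolW A W F)
    {V : Type*} [NormedAddCommGroup V] [NormedSpace ℂ V] {Ψ : V → M} {E : V → Fin n → ℂ}
    {D : Set V} (hD : IsOpen D) (hc : ContinuousOn Ψ D) (hm : ∀ z ∈ D, Ψ z ∈ W)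
    (hl : ∀ z ∈ D, F (Ψ z) = E z) {z : V} (hz : z ∈ D) (hE : DifferentiableAt ℂ E z)
    {i : A.ι} (hi : Ψ z ∈ (A.e i).source)
    (hinj : Function.Injective (fderiv ℂ (fun w => F ((A.e i).symm w)) (A.e i (Ψ z)))) :
    DifferentiableAt ℂ (fun w => A.e i (Ψ w)) z ∧
    ∀ v, fderiv ℂ (fun w => F ((A.e i).symm w)) (A.e i (Ψ z))
      (fderiv ℂ (fun w => A.e i (Ψ w)) z v) = fderiv ℂ E z v := by
  set G : Cn n → Fin n → ℂ := fun w => F ((A.e i).symm w) with hG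
  set z0 : Cn n := A.e i (Ψ z) with hz0
  have hO := isOpen_chart A hW i
  have hmem : z0 ∈ {z | z ∈ (A.e i).target ∧ (A.e i).symm z ∈ W} :=
    ⟨(A.e i).map_source hi, by rw [(A.e i).left_inv hi]; exact hm z hz⟩
  have hcd : ContDiffAt ℂ 1 G z0 :=
    ((Crest.Agent.R266.SCV.contDiffOn_omega_of_differentiableOn hO (hF i)).contDiffAt
      (hO.mem_nhds hmem)).of_le le_top
  have hstr : HasStrictFDerivAt G (fderiv ℂ G z0) z0 := hcd.hasStrictFDerivAt (by simp)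
  have hfin : Module.finrank ℂ (Cn n) = Module.finrank ℂ (Fin n → ℂ) := by
    rw [finrank_euclideanSpace_fin, Module.finrank_fin_fun]
  let L : Cn n ≃L[ℂ] (Fin n → ℂ) := (LinearEquiv.ofInjectiveOfFinrankEq
    (fderiv ℂ G z0).toLinearMap hinj hfin).toContinuousLinearEquiv
  have hLv : ∀ v, L v = fderiv ℂ G z0 v := fun v => rfl
  have hs : HasStrictFDerivAt G (L : Cn n →L[ℂ] (Fin n → ℂ)) z0 := by
    have h1 : (L : Cn n →L[ℂ] (Fin n → ℂ)) = fderiv ℂ G z0 := by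
      ext v
      rfl
    rw [h1]
    exact hstr
  set g := hs.localInverse G L z0 with hg
  have hgd : HasStrictFDerivAt g (L.symm : (Fin n → ℂ) →L[ℂ] Cn n) (G z0) := hs.to_localInverse
  have hgl : ∀ᶠ x in 𝓝 z0, g (G x) = x := hs.eventually_left_inverse
  have hΨc : ContinuousAt Ψ z := hc.continuousAt (hD.mem_nhds hz)
  have hec : ContinuousAt (fun w => A.e i (Ψ w)) z := ((A.e i).continuousAt hi).comp hΨc
  have hGE : ∀ᶠ w in 𝓝 z, A.e i (Ψ w) = g (E w) := by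
    have h1 : ∀ᶠ w in 𝓝 z, g (G (A.e i (Ψ w))) = A.e i (Ψ w) := hec.eventually hgl
    have h2 : ∀ᶠ w in 𝓝 z, Ψ w ∈ (A.e i).source :=
      hΨc.eventually_mem ((A.e i).open_source.mem_nhds hi)
    filter_upwards [h1, h2, hD.mem_nhds hz] with w k1 k2 k3
    rw [← k1]
    congr 1
    change F ((A.e i).symm (A.e i (Ψ w))) = E w
    rw [(A.e i).left_inv k2, hl w k3]
  have hGz : G z0 = E z := by
    change F ((A.e i).symm (A.e i (Ψ z))) = E z
    rw [(A.e i).left_inv hi, hl z hz]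
  have hd : HasFDerivAt (fun w => A.e i (Ψ w))
      ((L.symm : (Fin n → ℂ) →L[ℂ] Cn n).comp (fderiv ℂ E z)) z := by
    have h1 : HasFDerivAt (fun w => g (E w))
        ((L.symm : (Fin n → ℂ) →L[ℂ] Cn n).comp (fderiv ℂ E z)) z := by
      have h2 : HasFDerivAt g (L.symm : (Fin n → ℂ) →L[ℂ] Cn n) (E z) := by
        rw [← hGz]
        exact hgd.hasFDerivAt
      exact h2.comp z hE.hasFDerivAt
    exact h1.congr_of_eventuallyEq hGE
  refine ⟨hd.differentiableAt, fun v => ?_⟩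
  rw [hd.fderiv]
  change fderiv ℂ G z0 (L.symm (fderiv ℂ E z v)) = fderiv ℂ E z v
  rw [← hLv, L.apply_symm_apply]

theorem hasFDerivAt_ee (c : Fin n → ℂ) (z : Cn n) :
    HasFDerivAt (ee c) (ContinuousLinearMap.pi fun j =>
      (c j * Complex.exp (z j)) • (EuclideanSpace.proj j : Cn n →L[ℂ] ℂ)) z := by
  rw [hasFDerivAt_pi]
  intro j
  have h3 : HasDerivAt Complex.exp (Complex.exp (z j)) (z j) := Complex.hasDerivAt_exp _
  have h4 : HasFDerivAt (fun w : Cn n => w j) (EuclideanSpace.proj j : Cn n →L[ℂ] ℂ) z :=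
    (EuclideanSpace.proj j : Cn n →L[ℂ] ℂ).hasFDerivAt
  have h5 := (h3.comp_hasFDerivAt z h4).const_mul (c j)
  refine h5.congr_fderiv ?_
  ext w
  simp [mul_assoc]

theorem fderiv_ee (c : Fin n → ℂ) (z v : Cn n) (j : Fin n) :
    fderiv ℂ (ee c) z v j = c j * Complex.exp (z j) * v j := by
  rw [(hasFDerivAt_ee c z).fderiv]
  simp

/-- the derivative of `F` in the chart is injective if the frame bound holds -/
theorem inj_of_bound (K : Kah A) {F : M → Fin n → ℂ} {C : ℝ} {i : A.ι} {x : M}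
    (hx : x ∈ (A.e i).source)
    (hb : ∀ v : Cn n, qf K i x v ≤ (C * ‖dlg A F i (A.e i x) v‖) ^ 2) :
    Function.Injective (fderiv ℂ (fun w => F ((A.e i).symm w)) (A.e i x)) := by
  rw [injective_iff_map_eq_zero]
  intro v hv
  have h1 : dlg A F i (A.e i x) v = 0 := by
    funext j
    unfold dlg
    rw [hv]
    simp
  have h2 := hb v
  rw [h1, norm_zero, mul_zero, zero_pow two_ne_zero] at h2
  by_contra hne
  have hne' : v.ofLp ≠ 0 := by
    intro h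
    apply hne
    ext j
    exact congrFun h j
  have h3 := ((K.pos i x hx).transpose).dotProduct_mulVec_pos hne'
  have h4 : (0 : ℝ) < qf K i x v := by
    have h5 := (Complex.lt_def.1 h3).1
    simpa [qf] using h5
  linarith

/-- `dlog F (DΨ v) = v` -/
theorem dlg_lift {W : Set M} (hW : IsOpen W) {F : M → Fin n → ℂ} (hF : HolW A W F)
    (hne : ∀ p ∈ W, ∀ j, F p j ≠ 0) {c : Fin n → ℂ} {Ψ : Cn n → M} {D : Set (Cn n)}
    (hD : IsOpen D) (hc : ContinuousOn Ψ D) (hm : ∀ z ∈ D, Ψ z ∈ W)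
    (hl : ∀ z ∈ D, F (Ψ z) = ee c z) {z : Cn n} (hz : z ∈ D) {i : A.ι}
    (hi : Ψ z ∈ (A.e i).source)
    (hinj : Function.Injective (fderiv ℂ (fun w => F ((A.e i).symm w)) (A.e i (Ψ z)))) :
    DifferentiableAt ℂ (fun w => A.e i (Ψ w)) z ∧
    ∀ v : Cn n, dlg A F i (A.e i (Ψ z)) (fderiv ℂ (fun w => A.e i (Ψ w)) z v) = v.ofLp := by
  obtain ⟨h1, h2⟩ := lift_holo hW hF hD hc hm hl hz (hasFDerivAt_ee c z).differentiableAt hi hinj
  refine ⟨h1, fun v => ?_⟩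
  funext j
  unfold dlg
  rw [h2, fderiv_ee, (A.e i).left_inv hi, hl z hz]
  have h3 : ee c z j = c j * Complex.exp (z j) := rfl
  have h4 : c j * Complex.exp (z j) ≠ 0 := by
    rw [← h3, ← hl z hz]
    exact hne _ (hm z hz) j
  rw [h3, mul_div_right_comm, div_self h4, one_mul]

/-- pinching of the pull-back metric -/
theorem pinch {K : Kah A} {F : M → Fin n → ℂ} {C C' : ℝ} {i : A.ι} {x : M} (v w : Cn n)
    (hb : ∀ v : Cn n, qf K i x v ≤ (C * ‖dlg A F i (A.e i x) v‖) ^ 2)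
    (hb' : ∀ (v : Cn n) j, ‖dlg A F i (A.e i x) v j‖ ^ 2 ≤ C' ^ 2 * qf K i x v)
    (hw : dlg A F i (A.e i x) w = v.ofLp) :
    qf K i x w ≤ C ^ 2 * ‖v‖ ^ 2 ∧ ‖v‖ ^ 2 ≤ n * C' ^ 2 * qf K i x w := by
  have hsup : ‖v.ofLp‖ ≤ ‖v‖ := by
    rw [pi_norm_le_iff_of_nonneg (norm_nonneg _)]
    intro j
    exact PiLp.norm_apply_le v j
  constructor
  · have h1 := hb w
    rw [hw, mul_pow] at h1
    refine h1.trans ?_
    gcongr
  · rw [EuclideanSpace.norm_sq_eq]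
    calc ∑ j, ‖v j‖ ^ 2 ≤ ∑ _j : Fin n, C' ^ 2 * qf K i x w := by
          refine Finset.sum_le_sum fun j _ => ?_
          have := hb' w j
          rw [hw] at this
          exact this
      _ = n * C' ^ 2 * qf K i x w := by
          rw [Finset.sum_const, Finset.card_univ, Fintype.card_fin, nsmul_eq_mul, mul_assoc]

/-- the Riemannian ball as a subset of `M` -/
def bX [T2Space M] [ConnectedSpace M] (K : Kah A) (y : (ofKah K).M) (R : ℝ) : Set M :=
  show Set (ofKah K).M from ball y R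

theorem mem_bX [T2Space M] [ConnectedSpace M] (K : Kah A) (y : (ofKah K).M) (R : ℝ)
    (x : (ofKah K).M) : (show M from x) ∈ bX K y R ↔ x ∈ ball y R := Iff.rfl

theorem isOpen_bX [T2Space M] [ConnectedSpace M] (K : Kah A) (y : (ofKah K).M) (R : ℝ) :
    IsOpen (bX K y R) := (isOpen_ball : IsOpen (ball y R))

/-- the output of S-FRAME: 242's tube with `Ψ` holomorphic in the charts and the pull-back metric
pinched -/
structure TubeOut [T2Space M] [ConnectedSpace M] (K : Kah A) (F : M → Fin n → ℂ)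
    (y : (ofKah K).M) (C C' R r : ℝ) (d : ℕ) (T : (Fin n → ℝ) ≃L[ℝ] (Fin n → ℝ))
    (Ψ : Cn n → (ofKah K).M) : Prop where
  nT : ‖(T : (Fin n → ℝ) →L[ℝ] (Fin n → ℝ))‖ ≤ Mb n d
  nTs : ‖(T.symm : (Fin n → ℝ) →L[ℝ] (Fin n → ℝ))‖ ≤ Mb n d
  lift : IsLift (onX K F) (ee (onX K F y)) (ball y R) (St 0 r) Ψ
  base : Ψ 0 = y
  eq_iff : ∀ z ∈ St 0 r, ∀ w ∈ St 0 r, Ψ z = Ψ w ↔
    ∃ k : Fin n → ℤ, z = w + iV (T fun j => (k j : ℝ))
  lip : ∀ z ∈ St 0 r, ∀ w ∈ St 0 r, dist (Ψ z) (Ψ w) ≤ C * dist z w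
  isOpen_image : ∀ S, IsOpen S → S ⊆ St 0 r → IsOpen (Ψ '' S)
  int : ∀ k : Fin n → ℤ, ∀ j, ∃ m : ℤ, T (fun j => (k j : ℝ)) j = 2 * Real.pi * m
  holo : ∀ z ∈ St 0 r, ∀ i, Ψ z ∈ (A.e i).source → DifferentiableAt ℂ (fun w => A.e i (Ψ w)) z
  dl : ∀ z ∈ St 0 r, ∀ i, Ψ z ∈ (A.e i).source → ∀ v : Cn n,
    dlg A F i (A.e i (Ψ z)) (fderiv ℂ (fun w => A.e i (Ψ w)) z v) = v.ofLp
  up : ∀ z ∈ St 0 r, ∀ i, Ψ z ∈ (A.e i).source → ∀ v : Cn n,
    qf K i (Ψ z) (fderiv ℂ (fun w => A.e i (Ψ w)) z v) ≤ C ^ 2 * ‖v‖ ^ 2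
  lo : ∀ z ∈ St 0 r, ∀ i, Ψ z ∈ (A.e i).source → ∀ v : Cn n,
    ‖v‖ ^ 2 ≤ n * C' ^ 2 * qf K i (Ψ z) (fderiv ℂ (fun w => A.e i (Ψ w)) z v)

/-- **S-FRAME** -/
theorem frame_tube [T2Space M] [ConnectedSpace M] [CompactSpace M] (K : Kah A)
    {F : M → Fin n → ℂ} {y : (ofKah K).M} {C C' R r : ℝ} {d : ℕ} (hC : 0 < C) (hr : 0 < r)
    (hR : 2 * C * (r + Real.pi * d * √n) ≤ R)
    (hF : HolW A (bX K y R) F) (hne : ∀ p ∈ bX K y R, ∀ j, F p j ≠ 0)
    (hb : ∀ i, ∀ x ∈ (A.e i).source, x ∈ bX K y R → ∀ v : Cn n,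
      qf K i x v ≤ (C * ‖dlg A F i (A.e i x) v‖) ^ 2)
    (hb' : ∀ i, ∀ x ∈ (A.e i).source, x ∈ bX K y R → ∀ (v : Cn n) j,
      ‖dlg A F i (A.e i x) v j‖ ^ 2 ≤ C' ^ 2 * qf K i x v)
    (hd : ∀ (q : Fin n → ℂ) (s : Finset (ofKah K).M),
      (∀ x ∈ s, x ∈ ball y R ∧ onX K F x = q) → s.card ≤ d) :
    ∃ T Ψ, TubeOut K F y C C' R r d T Ψ := by
  have hR0 : 0 < R := lt_of_lt_of_le (by positivity) hR
  have hW : IsOpen (ball y R : Set (ofKah K).M) := isOpen_ball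
  have hWM : IsOpen (bX K y R) := isOpen_bX K y R
  have hFr : FrameBd (E := EE (2 * n)) (onX K F) (ball y R) C := by
    refine frameBd K hWM hF hne hC.le fun i z hz hzW v => ?_
    have h1 := hb i ((A.e i).symm z) ((A.e i).map_target hz) hzW v
    rw [qf_eq_G K ((A.e i).map_target hz), (A.e i).right_inv hz] at h1
    exact h1
  have hloc := hFr.isLocalHomeomorphOn hW (finrank_EE n)
  have hlcx := hFr.lcx hC.le hW (finrank_EE n)
  have hy : y ∈ ball y R := mem_ball_self hR0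
  have hlog : HasLog (onX K F) (ee (onX K F y)) C (ball y R) :=
    hasLog_of_lcx hW hloc hC.le hlcx (hne y hy) hne
  have : CompactSpace (ofKah K).M := inferInstanceAs (CompactSpace M)
  obtain ⟨T, Ψ, h1, h2, h3, h4, h5, h6, h7, h8⟩ := tube (d := d) hC hr hR hloc.continuousOn
    (hne y hy) hlog hd
  have hSt : IsOpen (St (0 : Cn n) r) := Crest.Agent.R281.Tube_242.isOpen_St 0 r
  have hx : ∀ z ∈ St (0 : Cn n) r, Ψ z ∈ ball y R := h3.mem
  have hinj : ∀ z ∈ St (0 : Cn n) r, ∀ i, Ψ z ∈ (A.e i).source →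
      Function.Injective (fderiv ℂ (fun w => F ((A.e i).symm w)) (A.e i (Ψ z))) :=
    fun z hz i hi => inj_of_bound K hi (hb i (Ψ z) hi (hx z hz))
  have hkey : ∀ z ∈ St (0 : Cn n) r, ∀ i, Ψ z ∈ (A.e i).source →
      DifferentiableAt ℂ (fun w => A.e i (Ψ w)) z ∧
      ∀ v : Cn n, dlg A F i (A.e i (Ψ z)) (fderiv ℂ (fun w => A.e i (Ψ w)) z v) = v.ofLp :=
    fun z hz i hi => dlg_lift (Ψ := Ψ) hWM hF hne hSt h3.cont hx h3.eq hz hi (hinj z hz i hi)
  refine ⟨T, Ψ, h1, h2, h3, h4, h5, h6, h7, h8, fun z hz i hi => (hkey z hz i hi).1,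
    fun z hz i hi => (hkey z hz i hi).2, fun z hz i hi v => ?_, fun z hz i hi v => ?_⟩
  · exact (pinch v _ (hb i (Ψ z) hi (hx z hz)) (hb' i (Ψ z) hi (hx z hz))
      ((hkey z hz i hi).2 v)).1
  · exact (pinch v _ (hb i (Ψ z) hi (hx z hz)) (hb' i (Ψ z) hi (hx z hz))
      ((hkey z hz i hi).2 v)).2

end

end Crest.Agent.R281.Fra_922
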