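import Crest.Agent.R281.Ins1_615

/-!
# R281 (S0424), S-FRAME (helper922), file 4: Gram matrices and frames (linear algebra)

`g` positive definite, `V` square, `Gm = Vᴴ g⁻¹ V`, `c0 ≤ Gm ≤ B`:
`B⁻¹ ≤ Gm⁻¹ ≤ c0⁻¹`, and `B⁻¹ |Vᴴy|² ≤ yᴴ g y ≤ c0⁻¹ |Vᴴy|²`.
-/

set_option autoImplicit false
set_option linter.unusedSectionVars false

open Complex
open scoped Matrix ComplexOrder ComplexConjugate

namespace Crest.Agent.R281.Fra_922

noncomputable section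

variable {n : ℕ}

section order

open scoped MatrixOrder Matrix.Norms.L2Operator

/-- the unit given by a positive definite matrix -/
def unitOf (G : Matrix (Fin n) (Fin n) ℂ) (h : IsUnit G.det) : (Matrix (Fin n) (Fin n) ℂ)ˣ where
  val := G
  inv := G⁻¹
  val_inv := Matrix.mul_nonsing_inv _ h
  inv_val := Matrix.nonsing_inv_mul _ h

theorem smul_one_posSemidef {c : ℝ} (hc : 0 ≤ c) :
    ((c : ℂ) • (1 : Matrix (Fin n) (Fin n) ℂ)).PosSemidef :=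
  Matrix.PosSemidef.one.smul (by exact_mod_cast hc)

theorem smul_one_det {c : ℝ} (hc : c ≠ 0) :
    IsUnit ((c : ℂ) • (1 : Matrix (Fin n) (Fin n) ℂ)).det := by
  rw [Matrix.det_smul, Matrix.det_one, mul_one, isUnit_iff_ne_zero]
  exact pow_ne_zero _ (by exact_mod_cast hc)

theorem smul_one_inv {c : ℝ} (hc : c ≠ 0) :
    ((c : ℂ) • (1 : Matrix (Fin n) (Fin n) ℂ))⁻¹ = ((c⁻¹ : ℝ) : ℂ) • 1 := by
  refine Matrix.inv_eq_right_inv ?_
  rw [smul_mul_smul_comm, mul_one, ← Complex.ofReal_mul, mul_inv_cancel₀ hc, Complex.ofReal_one,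
    one_smul]

theorem inv_anti {G H : Matrix (Fin n) (Fin n) ℂ} (hG : G.PosSemidef) (hGu : IsUnit G.det)
    (hHu : IsUnit H.det) (h : (H - G).PosSemidef) : (G⁻¹ - H⁻¹).PosSemidef := by
  have h1 : (0 : Matrix (Fin n) (Fin n) ℂ) ≤ (unitOf G hGu : Matrix (Fin n) (Fin n) ℂ) := hG.nonneg
  have h2 : (unitOf G hGu : Matrix (Fin n) (Fin n) ℂ) ≤ unitOf H hHu := Matrix.le_iff.2 h
  have h3 := CStarAlgebra.inv_le_inv h1 h2
  exact Matrix.le_iff.1 h3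

end order

/-- a Gram matrix bounded below is invertible -/
theorem det_unit_of_lower {G : Matrix (Fin n) (Fin n) ℂ} {c : ℝ} (hc : 0 < c)
    (h : (G - (c : ℂ) • (1 : Matrix (Fin n) (Fin n) ℂ)).PosSemidef) : G.PosDef := by
  have h1 : ((c : ℂ) • (1 : Matrix (Fin n) (Fin n) ℂ)).PosDef :=
    Matrix.PosDef.one.smul (by exact_mod_cast hc)
  have h2 := h1.add_posSemidef h
  rwa [add_sub_cancel] at h2

/-- **inverse of a pinched matrix** -/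
theorem inv_pinch {G : Matrix (Fin n) (Fin n) ℂ} {c B : ℝ} (hc : 0 < c) (hB : 0 < B)
    (h1 : (G - (c : ℂ) • (1 : Matrix (Fin n) (Fin n) ℂ)).PosSemidef)
    (h2 : ((B : ℂ) • (1 : Matrix (Fin n) (Fin n) ℂ) - G).PosSemidef) :
    (G⁻¹ - ((B⁻¹ : ℝ) : ℂ) • (1 : Matrix (Fin n) (Fin n) ℂ)).PosSemidef ∧
    (((c⁻¹ : ℝ) : ℂ) • (1 : Matrix (Fin n) (Fin n) ℂ) - G⁻¹).PosSemidef := by
  have hG := det_unit_of_lower hc h1
  have hGu : IsUnit G.det := isUnit_iff_ne_zero.2 hG.det_pos.ne'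
  constructor
  · have := inv_anti hG.posSemidef hGu (smul_one_det hB.ne') h2
    rwa [smul_one_inv hB.ne'] at this
  · have := inv_anti (smul_one_posSemidef hc.le) (smul_one_det hc.ne') hGu h1
    rwa [smul_one_inv hc.ne'] at this

theorem form_smul_one (c : ℝ) (w : Fin n → ℂ) :
    (star w ⬝ᵥ (((c : ℂ) • (1 : Matrix (Fin n) (Fin n) ℂ)) *ᵥ w)).re = c * ∑ j, ‖w j‖ ^ 2 := by
  rw [Matrix.smul_mulVec, Matrix.one_mulVec, dotProduct_smul]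
  have h1 : star w ⬝ᵥ w = ((∑ j, ‖w j‖ ^ 2 : ℝ) : ℂ) := by
    simp only [dotProduct, Pi.star_apply, Complex.ofReal_sum]
    refine Finset.sum_congr rfl fun j _ => ?_
    rw [← Complex.normSq_eq_norm_sq, mul_comm, ← Complex.mul_conj]
    rfl
  rw [h1, smul_eq_mul, ← Complex.ofReal_mul, Complex.ofReal_re]

/-- **the frame bounds** -/
theorem frame_of_gram {g V : Matrix (Fin n) (Fin n) ℂ} (hg : g.PosDef) {c B : ℝ} (hc : 0 < c)
    (hB : 0 < B)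
    (h1 : (Vᴴ * g⁻¹ * V - (c : ℂ) • (1 : Matrix (Fin n) (Fin n) ℂ)).PosSemidef)
    (h2 : ((B : ℂ) • (1 : Matrix (Fin n) (Fin n) ℂ) - Vᴴ * g⁻¹ * V).PosSemidef) :
    IsUnit V.det ∧ ∀ y : Fin n → ℂ,
      (star y ⬝ᵥ (g *ᵥ y)).re ≤ c⁻¹ * ∑ j, ‖(Vᴴ *ᵥ y) j‖ ^ 2 ∧
      ∑ j, ‖(Vᴴ *ᵥ y) j‖ ^ 2 ≤ B * (star y ⬝ᵥ (g *ᵥ y)).re := by
  set G := Vᴴ * g⁻¹ * V with hG
  have hGp := det_unit_of_lower hc h1
  have hVu : IsUnit V.det := by
    have h3 : G.det ≠ 0 := hGp.det_pos.ne'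
    rw [hG, Matrix.det_mul] at h3
    exact isUnit_iff_ne_zero.2 (right_ne_zero_of_mul h3)
  have hgu : IsUnit g.det := isUnit_iff_ne_zero.2 hg.det_pos.ne'
  have hVHu : IsUnit (Vᴴ).det := by
    rw [Matrix.det_conjTranspose]
    exact hVu.star
  have hinv : V * G⁻¹ * Vᴴ = g := by
    rw [hG, Matrix.mul_inv_rev, Matrix.mul_inv_rev, Matrix.nonsing_inv_nonsing_inv _ hgu]
    calc V * (V⁻¹ * (g * (Vᴴ)⁻¹)) * Vᴴ = (V * V⁻¹) * g * ((Vᴴ)⁻¹ * Vᴴ) := by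
          simp only [Matrix.mul_assoc]
      _ = g := by
          rw [Matrix.mul_nonsing_inv _ hVu, Matrix.nonsing_inv_mul _ hVHu, Matrix.one_mul,
            Matrix.mul_one]
  obtain ⟨h3, h4⟩ := inv_pinch hc hB h1 h2
  refine ⟨hVu, fun y => ?_⟩
  set w := Vᴴ *ᵥ y with hw
  have hform : star y ⬝ᵥ (g *ᵥ y) = star w ⬝ᵥ (G⁻¹ *ᵥ w) := by
    rw [← hinv, ← Matrix.mulVec_mulVec, ← Matrix.mulVec_mulVec, ← hw, Matrix.dotProduct_mulVec,
      hw, Matrix.star_mulVec, Matrix.conjTranspose_conjTranspose]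
  have h5 := (Complex.le_def.1 (h3.dotProduct_mulVec_nonneg w)).1
  have h6 := (Complex.le_def.1 (h4.dotProduct_mulVec_nonneg w)).1
  rw [Matrix.sub_mulVec, dotProduct_sub, Complex.sub_re, Complex.zero_re, form_smul_one] at h5 h6
  rw [hform]
  constructor
  · linarith
  · have h7 : B⁻¹ * ∑ j, ‖w j‖ ^ 2 ≤ (star w ⬝ᵥ (G⁻¹ *ᵥ w)).re := by linarith
    rw [inv_mul_le_iff₀ hB] at h7
    exact h7

end

end Crest.Agent.R281.Fra_922
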