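import Crest.Agent.R281.TorC_922

/-!
# R281 (S0424), leaf S-TOR (helper922), file D: the torus fibration over a polydisc (final statement)

`X` metric space, `W` open, `F : X → (ι → ℂ)` local homeomorphism on `W` with fibres of at most `d` points
in `W`; `LCX`: local lifts of `exp` through `F` at the points of `W` are `C`-Lipschitz (sup norm on
`ι → ℂ`).  If `closedBall y R ⊆ W` is complete, `C * (2 * (r + π d!)) ≤ R`, `exp ζ0 = F y`, then there are a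
lattice `Lam` between `d! • 2πi ℤ^ι` and `2πi ℤ^ι` and `Φ` on the strip `|Re (ζ_j - ζ0_j)| < r` with
`F (Φ ζ) = exp ζ`, `Φ ζ0 = y`, `Φ ζ = Φ ζ' ↔ ζ - ζ' ∈ Lam`.
-/

set_option autoImplicit false
set_option linter.unusedSectionVars false

open Set Filter Topology Metric

namespace Crest.Agent.R281.Tor_922

variable {ι : Type*} [Fintype ι] {X : Type*} [MetricSpace X]

/-- length control for `F` on `W`: local lifts of `exp` through `F` are `C`-Lipschitz -/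
def LCX (F : X → ι → ℂ) (W : Set X) (C : ℝ) : Prop :=
  ∀ p ∈ W, ∀ ζ : ι → ℂ, expPi ζ = F p → ∃ δ : ℝ, 0 < δ ∧ ∃ s : (ι → ℂ) → X, s ζ = p ∧
    (∀ ζ' ∈ ball ζ δ, s ζ' ∈ W ∧ F (s ζ') = expPi ζ') ∧
    ∀ ζ' ∈ ball ζ δ, ∀ ζ'' ∈ ball ζ δ, dist (s ζ') (s ζ'') ≤ C * ‖ζ' - ζ''‖

/-- **the torus strip** -/
structure TorusStrip (F : X → ι → ℂ) (W : Set X) (C : ℝ) (d : ℕ) (y : X) (ζ0 : ι → ℂ) (r : ℝ)
    (Lam : AddSubgroup (ι → ℂ)) (Φ : (ι → ℂ) → X) : Prop where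
  le_lat : Lam ≤ lat ι
  factorial_mem : ∀ lam ∈ lat ι, d.factorial • lam ∈ Lam
  base : Φ ζ0 = y
  mem_W : ∀ ζ ∈ strip ζ0 r, Φ ζ ∈ W
  cont : ContinuousOn Φ (strip ζ0 r)
  lift : ∀ ζ ∈ strip ζ0 r, F (Φ ζ) = expPi ζ
  eq_iff : ∀ ζ ∈ strip ζ0 r, ∀ ζ' ∈ strip ζ0 r, Φ ζ = Φ ζ' ↔ ζ - ζ' ∈ Lam
  dist_le : ∀ ζ ∈ strip ζ0 r, dist (Φ ζ) y ≤ C * ‖ζ - ζ0‖
  dist_le' : ∀ ζ ∈ strip ζ0 r, dist (Φ ζ) y ≤ C * (r + Real.pi * d.factorial)
  localHomeo : IsLocalHomeomorphOn Φ (strip ζ0 r)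
  /-- the image contains every preconnected subset of `W` through `y` on which the moduli stay in the
  polyannulus: it is the connected component of `y` in `{p ∈ W | |log |F_j p| - Re ζ0_j| < r}` -/
  image : ∀ V ⊆ W, IsPreconnected V → y ∈ V →
    (∀ p ∈ V, ∀ j, F p j ≠ 0 ∧ |Real.log ‖F p j‖ - (ζ0 j).re| < r) → V ⊆ Φ '' strip ζ0 r

theorem mem_strip_of_log {ζ0 : ι → ℂ} {r : ℝ} {w : ι → ℂ}
    (hw : ∀ j, w j ≠ 0 ∧ |Real.log ‖w j‖ - (ζ0 j).re| < r) :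
    ∃ ζ ∈ strip ζ0 r, expPi ζ = w := by
  refine ⟨fun j => Complex.log (w j), fun j => ?_, funext fun j => Complex.exp_log (hw j).1⟩
  rw [Complex.log_re]
  exact (hw j).2

theorem exists_torusStrip {W : Set X} (hW : IsOpen W) {F : X → ι → ℂ} (hF : IsLocalHomeomorphOn F W)
    {d : ℕ} (hd : ∀ s : Finset X, (s : Set X) ⊆ W → (∀ a ∈ s, ∀ b ∈ s, F a = F b) → s.card ≤ d)
    {C : ℝ} (hC : 0 ≤ C) (hLC : LCX F W C) {y : X} {ζ0 : ι → ℂ} (hy : expPi ζ0 = F y) {r R : ℝ}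
    (hr : 0 < r) (hR : C * (2 * (r + Real.pi * d.factorial)) ≤ R)
    (hcompl : IsComplete (closedBall y R)) (hsub : closedBall y R ⊆ W) :
    ∃ (Lam : AddSubgroup (ι → ℂ)) (Φ : (ι → ℂ) → X), TorusStrip F W C d y ζ0 r Lam Φ := by
  classical
  have hpi := Real.pi_pos
  have hD : 0 < d.factorial := Nat.factorial_pos d
  have hD' : (0 : ℝ) < d.factorial := by exact_mod_cast hD
  have hR0 : 0 ≤ R := le_trans (by positivity) hR
  have hyW : y ∈ W := hsub (mem_closedBall_self hR0)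
  set f : W → ι → ℂ := fun p => F p.1 with hf
  have hfl : IsLocalHomeomorph f := by
    rw [isLocalHomeomorph_iff_isLocalHomeomorphOn_univ]
    exact hF.comp (hW.isOpenEmbedding_subtypeVal.isLocalHomeomorph.isLocalHomeomorphOn)
      fun p _ => p.2
  have hfd : FibLe f d := by
    intro s hs
    have := hd (s.map ⟨Subtype.val, Subtype.val_injective⟩) (by
      intro p hp
      simp only [Finset.coe_map, Function.Embedding.coeFn_mk, mem_image, Finset.mem_coe] at hp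
      obtain ⟨a, _, rfl⟩ := hp
      exact a.2) (by
      intro a ha b hb
      obtain ⟨a', ha', rfl⟩ := Finset.mem_map.1 ha
      obtain ⟨b', hb', rfl⟩ := Finset.mem_map.1 hb
      exact hs a' ha' b' hb')
    rwa [Finset.card_map] at this
  have hfLC : LC (expPi : (ι → ℂ) → ι → ℂ) f C := by
    intro p ζ hζ
    obtain ⟨δ, hδ, s, hs0, hs1, hs2⟩ := hLC p.1 p.2 ζ hζ
    refine ⟨δ, hδ, fun ζ' => if h : s ζ' ∈ W then ⟨s ζ', h⟩ else p, ?_, ?_, ?_⟩
    · have : s ζ ∈ W := by rw [hs0]; exact p.2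
      simp only [this, dif_pos]
      exact Subtype.ext hs0
    · intro ζ' hζ'
      simp only [(hs1 ζ' hζ').1, dif_pos]
      exact (hs1 ζ' hζ').2
    · intro ζ' hζ' ζ'' hζ''
      simp only [(hs1 ζ' hζ').1, (hs1 ζ'' hζ'').1, dif_pos]
      exact hs2 ζ' hζ' ζ'' hζ''
  have hcb : IsComplete (closedBall (⟨y, hyW⟩ : W) R) := by
    rw [Subtype.isComplete_iff]
    have : (Subtype.val : W → X) '' closedBall (⟨y, hyW⟩ : W) R = closedBall y R := by
      ext p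
      constructor
      · rintro ⟨a, ha, rfl⟩
        exact ha
      · intro hp
        exact ⟨⟨p, hsub hp⟩, hp, rfl⟩
    rw [this]
    exact hcompl
  have hstrip0 : ζ0 ∈ strip ζ0 r := fun j => by rw [sub_self, abs_zero]; exact hr
  obtain ⟨Lam, Φ, h1, h2, h3, h4, h5, h6, h7, h8⟩ := exists_strip (q := expPi) (f := f)
    (y := ⟨y, hyW⟩) (ζ0 := ζ0) (Γ := lat ι) (T := strip ζ0 r) (ρ' := r + Real.pi * d.factorial)
    hfl continuous_expPi expPi_eq_iff hfd hfLC hC hcb (by positivity) hR hy (convex_strip ζ0 r)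
    hstrip0 (fun ζ hζ lam hlam => strip_add_lat hζ hlam)
    (fun ζ hζ => exists_lat_near hr hD hζ)
  refine ⟨Lam, fun ζ => (Φ ζ).1, h1, h2, by rw [h3], fun ζ _ => (Φ ζ).2,
    continuous_subtype_val.comp_continuousOn h4, h5, fun ζ hζ ζ' hζ' => ?_, h7, h8, ?_, ?_⟩
  · rw [← h6 ζ hζ ζ' hζ']
    exact ⟨fun h => Subtype.ext h, fun h => by rw [h]⟩
  · exact (hW.isOpenEmbedding_subtypeVal.isLocalHomeomorph.isLocalHomeomorphOn).comp
      (isLocalHomeomorphOn_lift hfl isLocalHomeomorph_expPi (isOpen_strip ζ0 r) h4 h5)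
      (mapsTo_univ _ _)
  · intro V hVW hV hyV hVT
    have hV' : IsPreconnected ((Subtype.val : W → X) ⁻¹' V) := by
      refine (Topology.IsInducing.subtypeVal.isPreconnected_image).1 ?_
      rwa [Subtype.image_preimage_coe, inter_eq_right.2 hVW]
    have := subset_image_lift (q := expPi) (f := f) (Γ := lat ι) hfl isLocalHomeomorph_expPi
      expPi_eq_iff (isOpen_strip ζ0 r) h4 h5 (fun ζ hζ lam hlam => strip_add_lat hζ hlam) hV'
      ⟨⟨y, hyW⟩, hyV, ζ0, hstrip0, h3⟩ (fun p hp => mem_strip_of_log (hVT p.1 hp))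
    intro p hp
    obtain ⟨ζ, hζ, he⟩ := this (show (⟨p, hVW hp⟩ : W) ∈ Subtype.val ⁻¹' V from hp)
    exact ⟨ζ, hζ, congrArg Subtype.val he⟩

/-- near every point of the strip `Φ` is a given local inverse `g` of `F` composed with `exp`:
every regularity (holomorphic, smooth, ..) of local inverses of `F` passes to `Φ` -/
theorem TorusStrip.eventually_eq {F : X → ι → ℂ} {W : Set X} {C : ℝ} {d : ℕ} {y : X} {ζ0 : ι → ℂ}
    {r : ℝ} {Lam : AddSubgroup (ι → ℂ)} {Φ : (ι → ℂ) → X} (h : TorusStrip F W C d y ζ0 r Lam Φ)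
    {U : Set X} (hU : IsOpen U) {g : (ι → ℂ) → X} (hg : ∀ p ∈ U, g (F p) = p) {ζ : ι → ℂ}
    (hζ : ζ ∈ strip ζ0 r) (hζU : Φ ζ ∈ U) : ∀ᶠ ζ' in 𝓝 ζ, Φ ζ' = g (expPi ζ') :=
  eventually_eq_section (isOpen_strip ζ0 r) h.cont h.lift hU hg hζ hζU

theorem TorusStrip.isOpen_image {F : X → ι → ℂ} {W : Set X} {C : ℝ} {d : ℕ} {y : X} {ζ0 : ι → ℂ}
    {r : ℝ} {Lam : AddSubgroup (ι → ℂ)} {Φ : (ι → ℂ) → X} (h : TorusStrip F W C d y ζ0 r Lam Φ)
    {U : Set (ι → ℂ)} (hU : IsOpen U) (hUT : U ⊆ strip ζ0 r) : IsOpen (Φ '' U) := by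
  rw [isOpen_iff_mem_nhds]
  rintro _ ⟨x, hx, rfl⟩
  rw [← h.localHomeo.map_nhds_eq (hUT hx)]
  exact image_mem_map (hU.mem_nhds hx)

/-- paths: a path in `W` starting at `y` whose image under `F` lifts to the strip is `Φ ∘` lift -/
theorem TorusStrip.path {F : X → ι → ℂ} {W : Set X} {C : ℝ} {d : ℕ} {y : X} {ζ0 : ι → ℂ}
    {r : ℝ} {Lam : AddSubgroup (ι → ℂ)} {Φ : (ι → ℂ) → X} (h : TorusStrip F W C d y ζ0 r Lam Φ)
    (hF : IsLocalHomeomorphOn F W) (hW : IsOpen W) {A : Type*} [TopologicalSpace A] {s : Set A}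
    (hs : IsPreconnected s) {γ : A → X} (hγ : ContinuousOn γ s) (hγW : ∀ a ∈ s, γ a ∈ W)
    {z : A → ι → ℂ} (hz : ContinuousOn z s) (hzT : ∀ a ∈ s, z a ∈ strip ζ0 r)
    (hl : ∀ a ∈ s, F (γ a) = expPi (z a)) {a0 : A} (ha0 : a0 ∈ s) (he : γ a0 = Φ (z a0)) :
    ∀ a ∈ s, γ a = Φ (z a) := by
  classical
  set f : W → ι → ℂ := fun p => F p.1 with hf
  have hfl : IsLocalHomeomorph f := by
    rw [isLocalHomeomorph_iff_isLocalHomeomorphOn_univ]
    exact hF.comp (hW.isOpenEmbedding_subtypeVal.isLocalHomeomorph.isLocalHomeomorphOn)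
      fun p _ => p.2
  have hy : Φ (z a0) ∈ W := h.mem_W _ (hzT _ ha0)
  set w0 : W := ⟨Φ (z a0), hy⟩
  set g1 : A → W := fun a => if h : γ a ∈ W then ⟨γ a, h⟩ else w0 with hg1
  set g2 : A → W := fun a => if h : Φ (z a) ∈ W then ⟨Φ (z a), h⟩ else w0 with hg2
  have e1 : ∀ a ∈ s, (g1 a).1 = γ a := fun a ha => by
    rw [hg1]
    simp only [hγW a ha, dif_pos]
  have e2 : ∀ a ∈ s, (g2 a).1 = Φ (z a) := fun a ha => by
    rw [hg2]
    simp only [h.mem_W _ (hzT a ha), dif_pos]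
  have c1 : ContinuousOn g1 s := by
    rw [Topology.IsInducing.subtypeVal.continuousOn_iff]
    exact hγ.congr fun a ha => e1 a ha
  have c2 : ContinuousOn g2 s := by
    rw [Topology.IsInducing.subtypeVal.continuousOn_iff]
    exact (h.cont.comp hz hzT).congr fun a ha => e2 a ha
  have := lift_unique hfl hs c1 c2 (fun a ha => by
    change F (g1 a).1 = F (g2 a).1
    rw [e1 a ha, e2 a ha, hl a ha, h.lift _ (hzT a ha)]) ha0 (Subtype.ext (by
    rw [e1 _ ha0, e2 _ ha0, he]))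
  intro a ha
  rw [← e1 a ha, ← e2 a ha, this ha]

end Crest.Agent.R281.Tor_922
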