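import Crest.Agent.R281.Defs_273
import Crest.Agent.R281.TorD_922
import Crest.Agent.R273.FIb0_597

/-!
# R281 (S0424), DIV 4 (helper14): literal input and output of Theorem S

`SDat A K Lb h s om m v C0 c d L` : one polarised Ricci-flat manifold at the scale `L`:
`K` is the RESCALED metric `g' = L g`, `cur h = (m/L) K`; `s_0 .. s_N` sections of `Lb`; `om` a
holomorphic `N`-form of norm one (`|om|² = det g'`); `F_j = s_{j+1}/s_0`,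
`Jsq = |dlog F_1 ∧ .. ∧ dlog F_N|²_{g'}`;
* `vol`  : `v⁻¹ L^N ≤ vol ≤ v L^N`;
* `mass` : on a set of relative volume `≥ c` all `|log |F_j|| ≤ C0 L` and `Jsq ≥ c`;
* `deg`  : at most `d` points with `J ≠ 0` in every fibre of `F`;
* `cov`  : over the complement of a hypersurface `{P = 0}` of `(ℂ*)^N` the map `F` is proper and
  `J ≠ 0`.

`SOut A K F d K1 R1 r ε f` : a strip `Φ : {|Re ζ - Re ζ0| < r} → M` (holomorphic, local
biholomorphism, `F ∘ Φ = exp`, injective modulo a lattice `Lam`, `d! · 2πi ℤ^N ⊆ Lam ⊆ 2πi ℤ^N`) on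
which the metric `g'` is `ε`-close (with two derivatives) to a constant matrix `G0`,
`1/K1 ≤ G0 ≤ K1`, and `∫_{ball ζ0 R1} f ∘ Φ ≤ K1` for the given function `f ≥ 0` with mean `≤ 1`.

`TheoremS` : `K1` depends on `N m v C0 c d R1` only; `L ≥ L0(r, ε)`.
-/

set_option autoImplicit false
set_option linter.unusedSectionVars false

open Set Filter Topology Complex MeasureTheory
open scoped ContDiff Matrix ComplexConjugate ComplexOrder ENNReal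

namespace Crest.Agent.R281.SIn_14

open Crest.Agent.R275.Geo Crest.Agent.R275.Core144 Crest.Agent.R275.EDR890
open Crest.Agent.R273.Defs_333 Crest.Agent.R273.Hess_333 Crest.Agent.R273.HessB_333
open Crest.Agent.R273.HM_333 Crest.Agent.R273.Kah_333 Crest.Agent.R273.Vol_333
open Crest.Agent.R273.Vm_333 Crest.Agent.R273.FIb0_597
open Crest.Agent.R281.Tor_922

noncomputable section

variable {N : ℕ} {M : Type} [TopologicalSpace M] {A : Atl N M}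

/-- the holomorphic derivative `∂_a f` in the chart `i` -/
def pd (A : Atl N M) (i : A.ι) (f : M → ℂ) (x : M) (a : Fin N) : ℂ :=
  fderiv ℂ (fun z => f ((A.e i).symm z)) (A.e i x) (EuclideanSpace.single a 1)

/-- `F_j = s_{j+1} / s_0` (the value does not depend on the chart; `0` where `s_0 = 0`) -/
def quo (s : Fin (N + 1) → A.ι → M → ℂ) (x : M) (j : Fin N) : ℂ :=
  s j.succ (ch A x) x / s 0 (ch A x) x

/-- `dlog F_j` in the chart `i` : row `j`, column `a` -/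
def eta (s : Fin (N + 1) → A.ι → M → ℂ) (i : A.ι) (x : M) : Matrix (Fin N) (Fin N) ℂ :=
  Matrix.of fun j a => pd A i (s j.succ i) x a / s j.succ i x - pd A i (s 0 i) x a / s 0 i x

/-- `|dlog F_1 ∧ .. ∧ dlog F_N|²_K` (the value does not depend on the chart) -/
def Jsq (K : Kah A) (s : Fin (N + 1) → A.ι → M → ℂ) (x : M) : ℝ :=
  ‖(eta s (ch A x) x).det‖ ^ 2 / (K.g (ch A x) x).det.re

/-- no `s_j` vanishes at `x` -/
def NZ (s : Fin (N + 1) → A.ι → M → ℂ) (x : M) : Prop := ∀ j, s j (ch A x) x ≠ 0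

/-- **input of Theorem S** -/
structure SDat (A : Atl N M) [Countable A.ι] [MeasurableSpace M] [BorelSpace M]
    (K : Kah A) (Lb : LB A) (h : HM Lb)
    (s : Fin (N + 1) → A.ι → M → ℂ) (om : A.ι → M → ℂ) (m v C0 c : ℝ) (d : ℕ) (L : ℝ) : Prop where
  hol : ∀ j, IsHS Lb univ (s j)
  curv : ∀ i, ∀ x ∈ (A.e i).source, cur h i x = ((m / L : ℝ) : ℂ) • K.g i x
  omh : IsHS (KB A) univ om
  omn : ∀ i, ∀ x ∈ (A.e i).source, ‖om i x‖ ^ 2 = (K.g i x).det.re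
  vol_ge : v⁻¹ * L ^ N ≤ (vm (volK K)).real univ
  vol_le : (vm (volK K)).real univ ≤ v * L ^ N
  deg : ∀ S : Finset M, (∀ x ∈ S, NZ s x ∧ Jsq K s x ≠ 0) →
    (∀ x ∈ S, ∀ y ∈ S, quo s x = quo s y) → S.card ≤ d
  cov : ∃ P : MvPolynomial (Fin N) ℂ, P ≠ 0 ∧
    (∀ x, NZ s x → MvPolynomial.eval (quo s x) P ≠ 0 → Jsq K s x ≠ 0) ∧
    ∀ C : Set (Fin N → ℂ), IsCompact C → (∀ w ∈ C, (∀ j, w j ≠ 0) ∧ MvPolynomial.eval w P ≠ 0) →
      IsCompact {x | NZ s x ∧ quo s x ∈ C}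
  mass : c * (vm (volK K)).real univ ≤
    (vm (volK K)).real {x | NZ s x ∧ (∀ j, |Real.log ‖quo s x j‖| ≤ C0 * L) ∧ c ≤ Jsq K s x}

/-- Jacobian matrix of `Φ : ℂ^N → M` read in the chart `i` -/
def jac (A : Atl N M) (Φ : (Fin N → ℂ) → M) (i : A.ι) (ζ : Fin N → ℂ) :
    Matrix (Fin N) (Fin N) ℂ :=
  Matrix.of fun b a => (fderiv ℂ (fun w => A.e i (Φ w)) ζ (Pi.single a 1)) b

/-- the metric `Φ^* K` : `g_{a b̄}` in the coordinates `ζ` -/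
def pbg (K : Kah A) (Φ : (Fin N → ℂ) → M) (ζ : Fin N → ℂ) : Matrix (Fin N) (Fin N) ℂ :=
  (jac A Φ (ch A (Φ ζ)) ζ)ᵀ * K.g (ch A (Φ ζ)) (Φ ζ) * (jac A Φ (ch A (Φ ζ)) ζ).map conj

/-- the map with its properties -/
structure Strip (A : Atl N M) (F : M → Fin N → ℂ) (d : ℕ) (ζ0 : Fin N → ℂ) (r : ℝ)
    (Lam : AddSubgroup (Fin N → ℂ)) (Φ : (Fin N → ℂ) → M) : Prop where
  le_lat : Lam ≤ lat (Fin N)
  factorial_mem : ∀ lam ∈ lat (Fin N), d.factorial • lam ∈ Lam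
  cont : ContinuousOn Φ (strip ζ0 r)
  lift : ∀ ζ ∈ strip ζ0 r, F (Φ ζ) = expPi ζ
  eq_iff : ∀ ζ ∈ strip ζ0 r, ∀ ζ' ∈ strip ζ0 r, Φ ζ = Φ ζ' ↔ ζ - ζ' ∈ Lam
  hol : ∀ ζ ∈ strip ζ0 r, ∀ i, Φ ζ ∈ (A.e i).source →
    DifferentiableAt ℂ (fun w => A.e i (Φ w)) ζ ∧ (jac A Φ i ζ).det ≠ 0

/-- `G` is `ε`-close to the constant matrix `G0` on `U`, with two derivatives -/
def CloseC2 (G : (Fin N → ℂ) → Matrix (Fin N) (Fin N) ℂ) (G0 : Matrix (Fin N) (Fin N) ℂ)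
    (U : Set (Fin N → ℂ)) (ε : ℝ) : Prop :=
  (∀ a b, ContDiffOn ℝ ∞ (fun ζ => G ζ a b) U) ∧
  ∀ ζ ∈ U, ∀ a b, ‖G ζ a b - G0 a b‖ ≤ ε ∧
    ∀ k : ℕ, 1 ≤ k → k ≤ 2 → ‖iteratedFDeriv ℝ k (fun ζ => G ζ a b) ζ‖ ≤ ε

/-- **output of Theorem S** -/
def SOut (A : Atl N M) (K : Kah A) (F : M → Fin N → ℂ) (d : ℕ) (K1 R1 r ε : ℝ)
    (f : M → ℝ≥0∞) : Prop :=
  ∃ (ζ0 : Fin N → ℂ) (Lam : AddSubgroup (Fin N → ℂ)) (Φ : (Fin N → ℂ) → M)
    (G0 : Matrix (Fin N) (Fin N) ℂ), Strip A F d ζ0 r Lam Φ ∧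
    (G0 - ((K1⁻¹ : ℝ) : ℂ) • (1 : Matrix (Fin N) (Fin N) ℂ)).PosSemidef ∧
    (((K1 : ℝ) : ℂ) • (1 : Matrix (Fin N) (Fin N) ℂ) - G0).PosSemidef ∧
    CloseC2 (pbg K Φ) G0 (strip ζ0 r) ε ∧
    ∫⁻ ζ in Metric.ball ζ0 R1, f (Φ ζ) ≤ ENNReal.ofReal K1

/-- **Theorem S** (weak metric SYZ, chart-free) -/
def TheoremS : Prop :=
  ∀ (N : ℕ) (m v C0 c R1 : ℝ) (d : ℕ), 1 ≤ N → 0 < m → 0 < v → 0 < c → ∃ K1 : ℝ, 0 < K1 ∧
    ∀ r ε : ℝ, R1 ≤ r → 0 < r → 0 < ε → ∃ L0 : ℝ, 1 ≤ L0 ∧ ∀ L : ℝ, L0 ≤ L →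
    ∀ (M : Type) [TopologicalSpace M] [T2Space M] [CompactSpace M] [ConnectedSpace M]
      [MeasurableSpace M] [BorelSpace M] (A : Atl N M) [Finite A.ι], Part A →
    ∀ (K : Kah A) (Lb : LB A) (h : HM Lb) (s : Fin (N + 1) → A.ι → M → ℂ) (om : A.ι → M → ℂ),
      SDat A K Lb h s om m v C0 c d L →
    ∀ f : M → ℝ≥0∞, Measurable f → ∫⁻ x, f x ∂(vm (volK K)) ≤ vm (volK K) univ →
      SOut A K (quo s) d K1 R1 r ε f

end

end Crest.Agent.R281.SIn_14
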