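import Crest.Agent.R281.TI3_671
import Crest.Agent.R281.SIn_14

/-!
# R281 (S0424), leaf S-T6-INST (helper671), part 4: sections, energy comparison

`s : Fin (N+1) → sections of Lb`, `O = {NZ s}`, `F_r = quo s · r`, `V = Vl A F = (eta s)ᵀ`.
* `quo_eq`, `NZ_iff`, `isOpen_NZ`, `quo_hol`, `Vl_eq_eta`, `Jsq_eq` : `Jsq K s = |J|² = det Gram`;
* `T0_le` : `∑ |η_j|² ≤ 2 ∑_j (Dg u_j / u_j² + Dg u_0 / u_0²)`, `u_j = |s_j|²_h`;
* `exists_fields` : the fields of (T6') for the sections on a compact `B ⊆ {NZ s}`.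
-/

set_option autoImplicit false
set_option linter.unusedSectionVars false

open Set Filter Topology Complex MeasureTheory
open scoped ContDiff Matrix ComplexConjugate ComplexOrder

namespace Crest.Agent.R281.TI_671

open Crest.Agent.R275 Crest.Agent.R275.Geo Crest.Agent.R275.Core144 Crest.Agent.R275.EDR890
open Crest.Agent.R273.Defs_333 Crest.Agent.R273.Hess_333 Crest.Agent.R273.HessB_333
open Crest.Agent.R273.HM_333 hiding nsq
open Crest.Agent.R273.Kah_333 Crest.Agent.R273.Vol_333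
open Crest.Agent.R273.Calc_243 Crest.Agent.R273.Bkn_243 Crest.Agent.R273.BKNa_37
open Crest.Agent.R273.BochA_101 Crest.Agent.R273.BochB_101 Crest.Agent.R273.BochC_101
open Crest.Agent.R273.BochD_101 Crest.Agent.R273.BochF_101
open Crest.Agent.R273.FIa0_597 Crest.Agent.R273.FIb0_597 Crest.Agent.R273.FIc0_597
open Crest.Agent.R273.SchI_152 (Dg)
open Crest.Agent.R275.QN2b734 (SmP smP_of sm_iff tendsto_symm)
open Crest.Agent.R281.Bo1_815 Crest.Agent.R281.Bo2_815 Crest.Agent.R281.Glob1_484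
open Crest.Agent.R281.SIn_14

noncomputable section

variable {n : ℕ} {M : Type} [TopologicalSpace M] {A : Atl n M} {Lb : LB A}
  {s : Fin (n + 1) → A.ι → M → ℂ}

/-! ### sections and quotients -/

theorem sec_tr (hs : ∀ j, IsHS Lb univ (s j)) {i : A.ι} {x : M} (hx : x ∈ (A.e i).source)
    (j : Fin (n + 1)) : s j (ch A x) x = Lb.g (ch A x) i x * s j i x :=
  (hs j).tr _ i x ⟨mem_ch A x, hx⟩ (mem_univ x)

theorem NZ_iff (hs : ∀ j, IsHS Lb univ (s j)) {i : A.ι} {x : M} (hx : x ∈ (A.e i).source) :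
    NZ s x ↔ ∀ j, s j i x ≠ 0 := by
  unfold NZ
  refine forall_congr' fun j => ?_
  rw [sec_tr hs hx j, mul_ne_zero_iff]
  exact ⟨fun h => h.2, fun h => ⟨Lb.ne_zero _ _ _, h⟩⟩

theorem quo_eq (hs : ∀ j, IsHS Lb univ (s j)) {i : A.ι} {x : M} (hx : x ∈ (A.e i).source)
    (j : Fin n) : quo s x j = s j.succ i x / s 0 i x := by
  unfold quo
  rw [sec_tr hs hx, sec_tr hs hx, mul_div_mul_left _ _ (Lb.ne_zero _ _ _)]

theorem nsM_pos_iff (h : HM Lb) {x : M} (j : Fin (n + 1)) :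
    0 < nsM h (s j) x ↔ s j (ch A x) x ≠ 0 := by
  have hp := h.pos _ x (mem_ch A x)
  unfold nsM Crest.Agent.R273.HM_333.nsq
  constructor
  · intro h0 h1
    rw [h1] at h0
    simp at h0
  · intro h0
    have := norm_pos_iff.2 h0
    positivity

theorem NZ_iff_pos (h : HM Lb) {x : M} :
    NZ s x ↔ ∀ j, 0 < nsM h (s j) x :=
  forall_congr' fun j => (nsM_pos_iff h j).symm

theorem isOpen_NZ (h : HM Lb) (hs : ∀ j, IsHS Lb univ (s j)) : IsOpen {x : M | NZ s x} := by
  have h1 : {x : M | NZ s x} = ⋂ j, {x | 0 < nsM h (s j) x} := by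
    ext x
    rw [Set.mem_ofPred_eq, NZ_iff_pos h, mem_iInter]
    rfl
  rw [h1]
  exact isOpen_iInter_of_finite fun j => isOpen_lt continuous_const (cont_sm (sm_nsM h (hs j)))

theorem quo_hol (hs : ∀ j, IsHS Lb univ (s j)) (r : Fin n) (i : A.ι) :
    HolAt A i {x : M | NZ s x} (fun x => quo s x r) := by
  have h1 : HolAt A i {x : M | NZ s x} (s r.succ i) := ((hs r.succ).hol i).mono (subset_univ _)
  have h2 : HolAt A i {x : M | NZ s x} (s 0 i) := ((hs 0).hol i).mono (subset_univ _)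
  refine (h1.mul (h2.inv fun x hx hxO => (NZ_iff hs hx).1 hxO 0)).congr fun x hx _ => ?_
  rw [quo_eq hs hx, div_eq_mul_inv]

theorem quo_ne {x : M} (hx : NZ s x) (r : Fin n) : quo s x r ≠ 0 :=
  div_ne_zero (hx _) (hx _)

/-- the log-differentials of the quotients -/
def VS (s : Fin (n + 1) → A.ι → M → ℂ) : A.ι → M → Matrix (Fin n) (Fin n) ℂ :=
  Vl A fun r x => quo s x r

theorem hf_VS (h : HM Lb) (hs : ∀ j, IsHS Lb univ (s j)) : HF A {x : M | NZ s x} (VS s) :=
  hf_Vl (isOpen_NZ h hs) (fun r i => quo_hol hs r i) fun r _ hx => quo_ne hx r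

theorem VS_eq_eta (h : HM Lb) (hs : ∀ j, IsHS Lb univ (s j)) {i : A.ι} {x : M}
    (hx : x ∈ (A.e i).source) (hO : NZ s x) : VS s i x = (eta s i x)ᵀ := by
  have h0 := (NZ_iff hs hx).1 hO
  ext a r
  show dF A (fun x => quo s x r) i x a / quo s x r =
    pd A i (s r.succ i) x a / s r.succ i x - pd A i (s 0 i) x a / s 0 i x
  have hz := (A.e i).map_source hx
  have hF : DifferentiableAt ℂ (fun z => quo s ((A.e i).symm z) r) (A.e i x) :=
    (quo_hol hs r i).diffAt (isOpen_NZ h hs) hx hO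
  have hs0 : DifferentiableAt ℂ (fun z => s 0 i ((A.e i).symm z)) (A.e i x) :=
    (hol_at (hs 0) i hz).self_of_nhds
  have e1 : (fun z => s r.succ i ((A.e i).symm z)) =ᶠ[𝓝 (A.e i x)]
      fun z => quo s ((A.e i).symm z) r * s 0 i ((A.e i).symm z) := by
    filter_upwards [ev_O (isOpen_NZ h hs) i hx hO] with z hz
    have hz' := (A.e i).map_target hz.1
    rw [quo_eq hs hz', div_mul_cancel₀ _ ((NZ_iff hs hz').1 hz.2 0)]
  have e2 : pd A i (s r.succ i) x a = dF A (fun x => quo s x r) i x a * s 0 i x +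
      quo s x r * pd A i (s 0 i) x a := by
    unfold pd dF
    rw [e1.fderiv_eq, fderiv_fun_mul hF hs0]
    simp only [_root_.add_apply, _root_.smul_apply, smul_eq_mul,
      (A.e i).left_inv hx]
    ring
  rw [e2, quo_eq hs hx]
  have a1 := h0 0
  have a2 := h0 r.succ
  field_simp
  ring

theorem Jsq_eq (h : HM Lb) (hs : ∀ j, IsHS Lb univ (s j)) {K : Kah A} {om : A.ι → M → ℂ}
    (homn : ∀ i, ∀ x ∈ (A.e i).source, ‖om i x‖ ^ 2 = (K.g i x).det.re) {x : M} (hO : NZ s x) :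
    ‖Jf (VS s) om x‖ ^ 2 = Jsq K s x := by
  unfold Jf Jsq
  rw [VS_eq_eta h hs (mem_ch A x) hO, Matrix.det_transpose, norm_div, div_pow,
    homn _ x (mem_ch A x)]

theorem det_of_omn {K : Kah A} {om : A.ι → M → ℂ}
    (homn : ∀ i, ∀ x ∈ (A.e i).source, ‖om i x‖ ^ 2 = (K.g i x).det.re) :
    ∀ i, ∀ x ∈ (A.e i).source, (K.g i x).det = ((‖om i x‖ ^ 2 : ℝ) : ℂ) := by
  intro i x hx
  have h1 := (Complex.lt_def.1 (K.pos i x hx).det_pos).2
  rw [homn i x hx]
  exact Complex.ext rfl (by simpa using h1.symm)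

/-! ### the gradient form -/

/-- `w^* g⁻¹ w` -/
def qv (G : Matrix (Fin n) (Fin n) ℂ) (w : Fin n → ℂ) : ℝ :=
  (G⁻¹ * Matrix.vecMulVec w (star w)).trace.re

theorem qv_nonneg {G : Matrix (Fin n) (Fin n) ℂ} (hG : G.PosDef) (w : Fin n → ℂ) : 0 ≤ qv G w :=
  tr_re_nonneg hG (Matrix.posSemidef_vecMulVec_self_star _)

theorem qv_sub_le {G : Matrix (Fin n) (Fin n) ℂ} (hG : G.PosDef) (u w : Fin n → ℂ) :
    qv G (fun a => u a - w a) ≤ 2 * qv G u + 2 * qv G w := by
  have h1 := qv_nonneg hG (fun a => u a + w a)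
  have h2 : qv G (fun a => u a - w a) + qv G (fun a => u a + w a) = 2 * qv G u + 2 * qv G w := by
    have e : G⁻¹ * Matrix.vecMulVec (fun a => u a - w a) (star fun a => u a - w a) +
        G⁻¹ * Matrix.vecMulVec (fun a => u a + w a) (star fun a => u a + w a) =
        ((2 : ℝ) : ℂ) • (G⁻¹ * Matrix.vecMulVec u (star u)) +
          ((2 : ℝ) : ℂ) • (G⁻¹ * Matrix.vecMulVec w (star w)) := by
      rw [← Matrix.mul_add, ← Matrix.mul_smul, ← Matrix.mul_smul, ← Matrix.mul_add]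
      congr 1
      ext a b
      simp only [Matrix.add_apply, Matrix.vecMulVec_apply, Matrix.smul_apply, Pi.star_apply,
        star_sub, star_add, smul_eq_mul]
      push_cast
      ring
    unfold qv
    rw [← Complex.add_re, ← Matrix.trace_add, e, Matrix.trace_add, Matrix.trace_smul,
      Matrix.trace_smul, smul_eq_mul, smul_eq_mul, Complex.add_re, Complex.re_ofReal_mul,
      Complex.re_ofReal_mul]
  linarith

theorem qv_smul (G : Matrix (Fin n) (Fin n) ℂ) (c : ℝ) (w : Fin n → ℂ) :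
    qv G (fun a => (c : ℂ) * w a) = c ^ 2 * qv G w := by
  have e : Matrix.vecMulVec (fun a => (c : ℂ) * w a) (star fun a => (c : ℂ) * w a) =
      ((c ^ 2 : ℝ) : ℂ) • Matrix.vecMulVec w (star w) := by
    ext a b
    simp only [Matrix.vecMulVec_apply, Matrix.smul_apply, Pi.star_apply, star_mul',
      RCLike.star_def, Complex.conj_ofReal, smul_eq_mul]
    push_cast
    ring
  unfold qv
  rw [e, Matrix.mul_smul, Matrix.trace_smul, smul_eq_mul, Complex.re_ofReal_mul]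

theorem T0_eq_sum (K : Kah A) {ρ : Type} [Fintype ρ] [DecidableEq ρ]
    (V : A.ι → M → Matrix (Fin n) ρ ℂ) (x : M) :
    T0 K V x = ∑ r, qv (K.g (ch A x) x) (fun a => V (ch A x) x a r) := by
  unfold T0 gM gm qv
  rw [Matrix.mul_assoc, Matrix.trace_mul_comm, Matrix.mul_assoc]
  have e : V (ch A x) x * (V (ch A x) x)ᴴ =
      ∑ r, Matrix.vecMulVec (fun a => V (ch A x) x a r) (star fun a => V (ch A x) x a r) := by
    ext a b
    rw [Matrix.mul_apply, Matrix.sum_apply]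
    refine Finset.sum_congr rfl fun r _ => ?_
    rw [Matrix.vecMulVec_apply, Matrix.conjTranspose_apply]
    rfl
  rw [e, Matrix.mul_sum, Matrix.trace_sum, Complex.re_sum]

theorem gq_eq_qv (K : Kah A) (u : M → ℝ) (i : A.ι) (x : M) :
    gq K u i x = qv (K.g i x) (gr (fun z => u ((A.e i).symm z)) (A.e i x)) := rfl

/-- `∂ log |f|² = f' / f` -/
theorem gr_log_normSq {f : Cn n → ℂ} {z : Cn n} (hf : DifferentiableAt ℂ f z) (h0 : f z ≠ 0)
    (a : Fin n) : gr (fun w => Real.log (‖f w‖ ^ 2)) z a =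
      fderiv ℂ f z (EuclideanSpace.single a 1) / f z := by
  have h1 : HasFDerivAt f ((fderiv ℂ f z).restrictScalars ℝ) z :=
    hf.hasFDerivAt.restrictScalars ℝ
  have hn : ‖f z‖ ^ 2 ≠ 0 := pow_ne_zero 2 (norm_ne_zero_iff.2 h0)
  have h2 := (h1.norm_sq).log hn
  have h3 : HasFDerivAt (cu fun w => Real.log (‖f w‖ ^ 2)) _ z :=
    Complex.ofRealCLM.hasFDerivAt.comp z h2
  have hv : ∀ v, fderiv ℝ (cu fun w => Real.log (‖f w‖ ^ 2)) z v =
      ((2 * (fderiv ℂ f z v / f z).re : ℝ) : ℂ) := by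
    intro v
    rw [h3.fderiv]
    simp only [ContinuousLinearMap.comp_apply, Complex.ofRealCLM_apply,
      _root_.smul_apply, smul_eq_mul, innerSL_apply_apply,
      ContinuousLinearMap.coe_restrictScalars', Complex.inner]
    congr 1
    have h4 : (fderiv ℂ f z v / f z).re = (conj (f z) * fderiv ℂ f z v).re / ‖f z‖ ^ 2 := by
      have h5 : fderiv ℂ f z v / f z = (conj (f z) * fderiv ℂ f z v) / ((‖f z‖ ^ 2 : ℝ) : ℂ) := by
        have h6 : ((‖f z‖ ^ 2 : ℝ) : ℂ) = conj (f z) * f z := by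
          rw [Complex.conj_mul']
          push_cast
          rfl
        rw [h6, mul_div_mul_left]
        exact (map_ne_zero _).2 h0
      rw [h5, Complex.div_ofReal_re]
    rw [h4]
    have h7 : (conj (f z) * fderiv ℂ f z v).re = (fderiv ℂ f z v * conj (f z)).re := by
      rw [mul_comm]
    field_simp
    simp [mul_comm]
    ring
  unfold gr
  rw [wd_eq_dS]
  unfold dS
  rw [hv, hv, single_I, map_smul, smul_eq_mul, mul_div_assoc]
  set w := fderiv ℂ f z (EuclideanSpace.single a 1) / f z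
  apply Complex.ext <;> simp

theorem gr_log {u : Cn n → ℝ} {z : Cn n} (hu : DifferentiableAt ℝ u z) (h0 : 0 < u z)
    (a : Fin n) : gr (fun w => Real.log (u w)) z a = (((u z)⁻¹ : ℝ) : ℂ) * gr u z a :=
  wd_comp_real (false, a) hu (Real.hasDerivAt_log h0.ne')

theorem gr_add {u v : Cn n → ℝ} {z : Cn n} (hu : DifferentiableAt ℝ u z)
    (hv : DifferentiableAt ℝ v z) (a : Fin n) :
    gr (fun w => u w + v w) z a = gr u z a + gr v z a := by
  have h1 : DifferentiableAt ℝ (cu u) z := Complex.ofRealCLM.differentiableAt.comp z hu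
  have h2 : DifferentiableAt ℝ (cu v) z := Complex.ofRealCLM.differentiableAt.comp z hv
  have h3 : cu (fun w => u w + v w) = fun w => cu u w + cu v w := by
    funext w
    simp [cu]
  unfold gr
  rw [h3, wd_add h1 h2]

/-- `η_r = ∂ log u_{r+1} - ∂ log u_0` -/
theorem VS_gr (h : HM Lb) (hs : ∀ j, IsHS Lb univ (s j)) {x : M} (hO : NZ s x) (r a : Fin n) :
    VS s (ch A x) x a r =
      (((nsM h (s r.succ) x)⁻¹ : ℝ) : ℂ) *
        gr (fun z => nsM h (s r.succ) ((A.e (ch A x)).symm z)) (A.e (ch A x) x) a -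
      (((nsM h (s 0) x)⁻¹ : ℝ) : ℂ) *
        gr (fun z => nsM h (s 0) ((A.e (ch A x)).symm z)) (A.e (ch A x) x) a := by
  set i := ch A x with hi
  have hx : x ∈ (A.e i).source := mem_ch A x
  have hxx := (A.e i).left_inv hx
  have hpos := (NZ_iff_pos h).1 hO
  have hu : ∀ j, DifferentiableAt ℝ (fun z => nsM h (s j) ((A.e i).symm z)) (A.e i x) := fun j =>
    (sm_at (sm_nsM h (hs j)) hx).differentiableAt (by simp)
  have hF : DifferentiableAt ℂ (fun z => quo s ((A.e i).symm z) r) (A.e i x) :=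
    (quo_hol hs r i).diffAt (isOpen_NZ h hs) hx hO
  have hF0 : quo s ((A.e i).symm (A.e i x)) r ≠ 0 := by rw [hxx]; exact quo_ne hO r
  have hlF : DifferentiableAt ℝ (fun z => Real.log (‖quo s ((A.e i).symm z) r‖ ^ 2)) (A.e i x) :=
    (((hF.restrictScalars ℝ).norm_sq ℝ)).log (pow_ne_zero 2 (norm_ne_zero_iff.2 hF0))
  have hl0 : DifferentiableAt ℝ (fun z => Real.log (nsM h (s 0) ((A.e i).symm z))) (A.e i x) :=
    (hu 0).log (by rw [hxx]; exact (hpos 0).ne')
  have e1 : (fun z => Real.log (nsM h (s r.succ) ((A.e i).symm z))) =ᶠ[𝓝 (A.e i x)]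
      fun z => Real.log (‖quo s ((A.e i).symm z) r‖ ^ 2) +
        Real.log (nsM h (s 0) ((A.e i).symm z)) := by
    filter_upwards [ev_O (isOpen_NZ h hs) i hx hO] with z hz
    have hz' := (A.e i).map_target hz.1
    have hnz := (NZ_iff hs hz').1 hz.2
    have hp := h.pos i _ hz'
    have hne : quo s ((A.e i).symm z) r ≠ 0 := quo_ne hz.2 r
    rw [nsM_eq h (hs _) hz', nsM_eq h (hs _) hz', Crest.Agent.R273.HM_333.nsq,
      Crest.Agent.R273.HM_333.nsq, ← Real.log_mul (pow_ne_zero 2 (norm_ne_zero_iff.2 hne))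
      (mul_ne_zero (pow_ne_zero 2 (norm_ne_zero_iff.2 (hnz 0))) hp.ne'), quo_eq hs hz', norm_div,
      div_pow]
    congr 1
    have := norm_ne_zero_iff.2 (hnz 0)
    field_simp
  have e2 : gr (fun z => Real.log (nsM h (s r.succ) ((A.e i).symm z))) (A.e i x) a =
      gr (fun z => Real.log (‖quo s ((A.e i).symm z) r‖ ^ 2) +
        Real.log (nsM h (s 0) ((A.e i).symm z))) (A.e i x) a := by
    have h2 : cu (fun z => Real.log (nsM h (s r.succ) ((A.e i).symm z))) =ᶠ[𝓝 (A.e i x)]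
        cu (fun z => Real.log (‖quo s ((A.e i).symm z) r‖ ^ 2) +
        Real.log (nsM h (s 0) ((A.e i).symm z))) := by
      filter_upwards [e1] with z hz
      exact congrArg (fun t : ℝ => (t : ℂ)) hz
    exact wd_congr h2 (false, a)
  rw [gr_add hlF hl0, gr_log (hu _) (by rw [hxx]; exact hpos _),
    gr_log (hu _) (by rw [hxx]; exact hpos _), gr_log_normSq hF hF0, hxx] at e2
  rw [e2]
  have e3 : VS s i x a r = fderiv ℂ (fun z => quo s ((A.e i).symm z) r) (A.e i x)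
      (EuclideanSpace.single a 1) / quo s x r := rfl
  rw [e3]
  ring

/-- **energy comparison** -/
theorem T0_le (K : Kah A) (h : HM Lb) (hs : ∀ j, IsHS Lb univ (s j)) {x : M} (hO : NZ s x) :
    T0 K (VS s) x ≤ ∑ r : Fin n, (2 * (Dg K (nsM h (s r.succ)) x / nsM h (s r.succ) x ^ 2) +
      2 * (Dg K (nsM h (s 0)) x / nsM h (s 0) x ^ 2)) := by
  rw [T0_eq_sum]
  refine Finset.sum_le_sum fun r _ => ?_
  have hx := mem_ch A x
  have h1 : (fun a => VS s (ch A x) x a r) = fun a =>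
      (fun a => (((nsM h (s r.succ) x)⁻¹ : ℝ) : ℂ) *
        gr (fun z => nsM h (s r.succ) ((A.e (ch A x)).symm z)) (A.e (ch A x) x) a) a -
      (fun a => (((nsM h (s 0) x)⁻¹ : ℝ) : ℂ) *
        gr (fun z => nsM h (s 0) ((A.e (ch A x)).symm z)) (A.e (ch A x) x) a) a := by
    funext a
    exact VS_gr h hs hO r a
  rw [h1]
  refine (qv_sub_le (K.pos _ x hx) _ _).trans (le_of_eq ?_)
  rw [qv_smul, qv_smul, ← gq_eq_qv, ← gq_eq_qv, ← Dg_eq K (sm_nsM h (hs _)) hx,
    ← Dg_eq K (sm_nsM h (hs _)) hx]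
  simp only [div_eq_mul_inv, inv_pow]
  ring

/-- **the fields of (T6')** -/
theorem exists_fields [T2Space M] {K : Kah A} (h : HM Lb) (hs : ∀ j, IsHS Lb univ (s j))
    {om : A.ι → M → ℂ} (homh : IsHS (KB A) univ om)
    (homn : ∀ i, ∀ x ∈ (A.e i).source, ‖om i x‖ ^ 2 = (K.g i x).det.re)
    {B : Set M} (hB : IsCompact B) (hBO : ∀ x ∈ B, NZ s x) :
    ∃ T P q a b : M → ℝ, T6F K B (VS s) om T P q a b ∧ (∀ x ∈ B, q x = Jsq K s x) ∧
      ∀ x ∈ B, T x ≤ ∑ r : Fin n, (2 * (Dg K (nsM h (s r.succ)) x / nsM h (s r.succ) x ^ 2) +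
        2 * (Dg K (nsM h (s 0)) x / nsM h (s 0) x ^ 2)) := by
  obtain ⟨T, P, q, a, b, hT⟩ := exists_T6F (isOpen_NZ h hs) (hf_VS h hs) homh (det_of_omn homn)
    hB hBO
  refine ⟨T, P, q, a, b, hT, fun x hx => ?_, fun x hx => ?_⟩
  · rw [hT.q_J x hx, Jsq_eq h hs homn (hBO x hx)]
  · rw [← hT.T_tr x hx]
    exact T0_le K h hs (hBO x hx)

end

end Crest.Agent.R281.TI_671
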