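import Crest.Agent.R281.Fra3_922
import Crest.Agent.R281.Fra4_922
import Crest.Agent.R281.TI4_671

/-!
# R281 (S0424), S-FRAME (helper922), file 5: from the pinched Gram matrix of `dlog F` to the strip

* `frame_bounds` : `c ≤ Gram ≤ B` at `x` ⟹ `g(v,v) ≤ c⁻¹ ∑ |dlog F_r v|²`, `∑ |dlog F_r v|² ≤ B g(v,v)`;
* `pbg_eq`       : `Φ^* K` in the logarithmic coordinates is the inverse of the Gram matrix;
* `frame_strip`  : `c ≤ Gram ≤ B` on the ball of radius `R1 > C (2 (r + π d!))` ⟹ the strip of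
  `SIn_14` (from `TorusStrip`), with `B⁻¹ ≤ Φ^* K ≤ c⁻¹` on the whole strip.
-/

set_option autoImplicit false
set_option linter.unusedSectionVars false

open Set Filter Topology Complex Metric Manifold Bundle
open scoped ContDiff Matrix ComplexConjugate Manifold Bundle ComplexOrder

namespace Crest.Agent.R281.Fra_922

open Crest.Agent.R275.Geo Crest.Agent.R275.Core144
open Crest.Agent.R273.Defs_333
open Crest.Agent.R273.Kah_333
open Crest.Agent.R273.Ric_798 Crest.Agent.R273.RMan_798 Crest.Agent.R273.RMan4_798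
open Crest.Agent.R281.Tor_922 Crest.Agent.R281.SAsm_790 Crest.Agent.R281.TI_671
open Crest.Agent.R281.SIn_14 (jac pbg Strip)
open Crest.Agent.R273.FIb0_597 (ch)

noncomputable section

variable {n : ℕ} {M : Type} [TopologicalSpace M] {A : Atl n M}

/-- the log-differentials of the components of `F`, as a matrix field (671) -/
def VF (A : Atl n M) (F : M → Fin n → ℂ) : A.ι → M → Matrix (Fin n) (Fin n) ℂ :=
  Vl A fun r x => F x r

theorem holW_of {W : Set M} {F : M → Fin n → ℂ} (h : ∀ r i, HolAt A i W (fun x => F x r)) :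
    HolW A W F := fun i => differentiableOn_pi.2 fun r => (h r i).mono fun _ hz => hz

theorem sum_single (v : Cn n) : v = ∑ a, v a • (EuclideanSpace.single a (1 : ℂ) : Cn n) := by
  ext b
  simp [Pi.single_apply]

/-- `dlog F (v) = Vᵀ v` -/
theorem dlg_eq_mulVec {F : M → Fin n → ℂ} {i : A.ι} {x : M} (hx : x ∈ (A.e i).source)
    (hd : DifferentiableAt ℂ (fun z => F ((A.e i).symm z)) (A.e i x)) (v : Cn n) :
    dlg A F i (A.e i x) v = (VF A F i x)ᵀ *ᵥ v.ofLp := by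
  funext r
  unfold dlg
  rw [(A.e i).left_inv hx]
  have h1 : (fderiv ℂ (fun w => F ((A.e i).symm w)) (A.e i x) v) r =
      fderiv ℂ (fun w => F ((A.e i).symm w) r) (A.e i x) v := by
    have h2 := hasFDerivAt_pi'.1 hd.hasFDerivAt r
    rw [h2.fderiv]
    rfl
  rw [h1]
  conv_lhs => rw [sum_single v]
  rw [map_sum, Finset.sum_div]
  simp only [Matrix.mulVec, dotProduct, Matrix.transpose_apply, VF, Vl, Matrix.of_apply, dF]
  refine Finset.sum_congr rfl fun a _ => ?_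
  rw [map_smul, smul_eq_mul]
  ring

theorem qf_eq_star (K : Kah A) (i : A.ι) (x : M) (v : Cn n) :
    qf K i x v = (star (star v.ofLp) ⬝ᵥ (K.g i x *ᵥ star v.ofLp)).re := by
  unfold qf
  rw [star_star, Matrix.mulVec_transpose, Matrix.dotProduct_mulVec, dotProduct_comm]

theorem star_mulVec' (V : Matrix (Fin n) (Fin n) ℂ) (v : Fin n → ℂ) :
    Vᴴ *ᵥ star v = star (Vᵀ *ᵥ v) := by
  rw [Matrix.mulVec_transpose, Matrix.star_vecMul]

/-- **frame bounds** -/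
theorem frame_bounds (K : Kah A) {F : M → Fin n → ℂ} {i : A.ι} {x : M} (hx : x ∈ (A.e i).source)
    (hd : DifferentiableAt ℂ (fun z => F ((A.e i).symm z)) (A.e i x)) {c B : ℝ} (hc : 0 < c)
    (hB : 0 < B)
    (h1 : (gm K (VF A F) i x - (c : ℂ) • (1 : Matrix (Fin n) (Fin n) ℂ)).PosSemidef)
    (h2 : ((B : ℂ) • (1 : Matrix (Fin n) (Fin n) ℂ) - gm K (VF A F) i x).PosSemidef) (v : Cn n) :
    qf K i x v ≤ c⁻¹ * ∑ r, ‖dlg A F i (A.e i x) v r‖ ^ 2 ∧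
      ∑ r, ‖dlg A F i (A.e i x) v r‖ ^ 2 ≤ B * qf K i x v := by
  have h3 := (frame_of_gram (K.pos i x hx) hc hB h1 h2).2 (star v.ofLp)
  rw [← qf_eq_star, star_mulVec', ← dlg_eq_mulVec hx hd v] at h3
  simpa only [Pi.star_apply, norm_star] using h3

theorem sum_sq_le (w : Fin n → ℂ) : ∑ r, ‖w r‖ ^ 2 ≤ n * ‖w‖ ^ 2 := by
  calc ∑ r, ‖w r‖ ^ 2 ≤ ∑ _r : Fin n, ‖w‖ ^ 2 :=
        Finset.sum_le_sum fun r _ => pow_le_pow_left₀ (norm_nonneg _) (norm_le_pi_norm w r) 2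
    _ = n * ‖w‖ ^ 2 := by rw [Finset.sum_const, Finset.card_univ, Fintype.card_fin, nsmul_eq_mul]

theorem frame_lower (K : Kah A) {F : M → Fin n → ℂ} {i : A.ι} {x : M} (hx : x ∈ (A.e i).source)
    (hd : DifferentiableAt ℂ (fun z => F ((A.e i).symm z)) (A.e i x)) {c B C : ℝ} (hc : 0 < c)
    (hB : 0 < B) (hCc : n * c⁻¹ ≤ C ^ 2)
    (h1 : (gm K (VF A F) i x - (c : ℂ) • (1 : Matrix (Fin n) (Fin n) ℂ)).PosSemidef)
    (h2 : ((B : ℂ) • (1 : Matrix (Fin n) (Fin n) ℂ) - gm K (VF A F) i x).PosSemidef) (v : Cn n) :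
    qf K i x v ≤ (C * ‖dlg A F i (A.e i x) v‖) ^ 2 := by
  refine (frame_bounds K hx hd hc hB h1 h2 v).1.trans ?_
  calc c⁻¹ * ∑ r, ‖dlg A F i (A.e i x) v r‖ ^ 2 ≤ c⁻¹ * (n * ‖dlg A F i (A.e i x) v‖ ^ 2) := by
        gcongr
        exact sum_sq_le _
    _ = (n * c⁻¹) * ‖dlg A F i (A.e i x) v‖ ^ 2 := by ring
    _ ≤ C ^ 2 * ‖dlg A F i (A.e i x) v‖ ^ 2 := by gcongr
    _ = (C * ‖dlg A F i (A.e i x) v‖) ^ 2 := by ring

/-! ### the strip in the coordinates `Fin n → ℂ` -/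

theorem hasFDerivAt_expPi (z : Fin n → ℂ) :
    HasFDerivAt (expPi : (Fin n → ℂ) → Fin n → ℂ) (ContinuousLinearMap.pi fun j =>
      (Complex.exp (z j)) • (ContinuousLinearMap.proj j : (Fin n → ℂ) →L[ℂ] ℂ)) z := by
  rw [hasFDerivAt_pi]
  intro j
  have h3 : HasDerivAt Complex.exp (Complex.exp (z j)) (z j) := Complex.hasDerivAt_exp _
  have h4 : HasFDerivAt (fun w : Fin n → ℂ => w j)
      (ContinuousLinearMap.proj j : (Fin n → ℂ) →L[ℂ] ℂ) z :=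
    (ContinuousLinearMap.proj j : (Fin n → ℂ) →L[ℂ] ℂ).hasFDerivAt
  exact h3.comp_hasFDerivAt z h4

/-- `dlog F (DΦ v) = v` -/
theorem dlg_lift_pi {W : Set M} (hW : IsOpen W) {F : M → Fin n → ℂ} (hF : HolW A W F)
    {Φ : (Fin n → ℂ) → M} {D : Set (Fin n → ℂ)}
    (hD : IsOpen D) (hc : ContinuousOn Φ D) (hm : ∀ z ∈ D, Φ z ∈ W)
    (hl : ∀ z ∈ D, F (Φ z) = expPi z) {z : Fin n → ℂ} (hz : z ∈ D) {i : A.ι}
    (hi : Φ z ∈ (A.e i).source)
    (hinj : Function.Injective (fderiv ℂ (fun w => F ((A.e i).symm w)) (A.e i (Φ z)))) :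
    DifferentiableAt ℂ (fun w => A.e i (Φ w)) z ∧
    ∀ v : Fin n → ℂ, dlg A F i (A.e i (Φ z)) (fderiv ℂ (fun w => A.e i (Φ w)) z v) = v := by
  obtain ⟨h1, h2⟩ := lift_holo hW hF hD hc hm hl hz (hasFDerivAt_expPi z).differentiableAt hi hinj
  refine ⟨h1, fun v => ?_⟩
  funext j
  unfold dlg
  rw [h2, (hasFDerivAt_expPi z).fderiv, (A.e i).left_inv hi, hl z hz]
  change Complex.exp (z j) * v j / Complex.exp (z j) = v j
  rw [mul_div_right_comm, div_self (Complex.exp_ne_zero _), one_mul]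

/-- `Vᵀ · jac Φ = 1` -/
theorem VT_jac {F : M → Fin n → ℂ} {Φ : (Fin n → ℂ) → M} {z : Fin n → ℂ} {i : A.ι}
    (hi : Φ z ∈ (A.e i).source)
    (hd : DifferentiableAt ℂ (fun z => F ((A.e i).symm z)) (A.e i (Φ z)))
    (hv : ∀ v : Fin n → ℂ, dlg A F i (A.e i (Φ z)) (fderiv ℂ (fun w => A.e i (Φ w)) z v) = v) :
    (VF A F i (Φ z))ᵀ * jac A Φ i z = 1 := by
  ext r a
  have h1 := congrFun (hv (Pi.single a 1)) r
  rw [dlg_eq_mulVec hi hd] at h1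
  rw [Matrix.mul_apply, Matrix.one_apply]
  simp only [Matrix.mulVec, dotProduct] at h1
  refine Eq.trans ?_ (h1.trans ?_)
  · rfl
  · rw [Pi.single_apply]

/-- **the pull-back metric is the inverse of the Gram matrix of `dlog F`** -/
theorem pbg_eq_gm (K : Kah A) {F : M → Fin n → ℂ} {Φ : (Fin n → ℂ) → M} {z : Fin n → ℂ}
    (h : (VF A F (ch A (Φ z)) (Φ z))ᵀ * jac A Φ (ch A (Φ z)) z = 1) :
    pbg K Φ z = (gM K (VF A F) (Φ z))⁻¹ := by
  set i := ch A (Φ z) with hi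
  set V := VF A F i (Φ z) with hV
  set J := jac A Φ i z with hJ
  set g := K.g i (Φ z) with hg
  have hgu : IsUnit g.det := isUnit_iff_ne_zero.2 (K.pos i (Φ z) (Crest.Agent.R273.FIb0_597.mem_ch A _)).det_pos.ne'
  have hJV : J * Vᵀ = 1 := mul_eq_one_comm.1 h
  have h1 : V * Jᵀ = 1 := by
    have := congrArg Matrix.transpose hJV
    rwa [Matrix.transpose_mul, Matrix.transpose_transpose, Matrix.transpose_one] at this
  have h2 : Vᴴ * J.map conj = 1 := by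
    have h3 : (Vᵀ * J).map conj = (1 : Matrix (Fin n) (Fin n) ℂ).map conj := by rw [h]
    rw [Matrix.map_mul] at h3
    have h4 : (1 : Matrix (Fin n) (Fin n) ℂ).map conj = 1 := by
      ext a b
      by_cases hab : a = b
      · subst hab; simp
      · simp [Matrix.one_apply_ne hab]
    rw [h4] at h3
    exact h3
  have h3 : gM K (VF A F) (Φ z) = Vᴴ * g⁻¹ * V := rfl
  have h4 : pbg K Φ z = Jᵀ * g * J.map conj := rfl
  rw [h3, h4]
  symm
  refine Matrix.inv_eq_right_inv ?_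
  calc Vᴴ * g⁻¹ * V * (Jᵀ * g * J.map conj) = Vᴴ * (g⁻¹ * ((V * Jᵀ) * g)) * J.map conj := by
        simp only [Matrix.mul_assoc]
    _ = 1 := by
        rw [h1, Matrix.one_mul, Matrix.nonsing_inv_mul _ hgu, Matrix.mul_one, h2]

/-- **S-FRAME, final form**: the strip of `SIn_14` from the pinched Gram matrix -/
theorem frame_strip [T2Space M] [ConnectedSpace M] [CompactSpace M] (K : Kah A)
    {F : M → Fin n → ℂ} {y : (ofKah K).M} {c B C R R1 r : ℝ} {d : ℕ} (hc : 0 < c) (hB : 0 < B)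
    (hC : 0 < C) (hCc : n * c⁻¹ ≤ C ^ 2) (hr : 0 < r)
    (hR : C * (2 * (r + Real.pi * d.factorial)) ≤ R) (hR1 : R < R1)
    (hF : ∀ r i, HolAt A i (bX K y R1) (fun x => F x r))
    (hne : ∀ p ∈ bX K y R1, ∀ j, F p j ≠ 0)
    (hlo : ∀ x ∈ bX K y R1,
      (gM K (VF A F) x - (c : ℂ) • (1 : Matrix (Fin n) (Fin n) ℂ)).PosSemidef)
    (hhi : ∀ x ∈ bX K y R1,
      ((B : ℂ) • (1 : Matrix (Fin n) (Fin n) ℂ) - gM K (VF A F) x).PosSemidef)
    (hd : ∀ s : Finset M, (∀ a ∈ s, a ∈ bX K y R1) → (∀ a ∈ s, ∀ b ∈ s, F a = F b) → s.card ≤ d)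
    {ζ0 : Fin n → ℂ} (hy : expPi ζ0 = onX K F y) :
    ∃ (Lam : AddSubgroup (Fin n → ℂ)) (Φ : (Fin n → ℂ) → M), Strip A F d ζ0 r Lam Φ ∧
      Φ ζ0 = (show M from y) ∧ (∀ ζ ∈ strip ζ0 r, Φ ζ ∈ bX K y R1) ∧
      (∀ ζ ∈ strip ζ0 r, dist (show (ofKah K).M from Φ ζ) y ≤ C * ‖ζ - ζ0‖ ∧
        dist (show (ofKah K).M from Φ ζ) y ≤ C * (r + Real.pi * d.factorial)) ∧
      (∀ ζ ∈ strip ζ0 r, (VF A F (ch A (Φ ζ)) (Φ ζ))ᵀ * jac A Φ (ch A (Φ ζ)) ζ = 1) ∧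
      (∀ ζ ∈ strip ζ0 r, pbg K Φ ζ = (gM K (VF A F) (Φ ζ))⁻¹) ∧
      ∀ ζ ∈ strip ζ0 r,
        (pbg K Φ ζ - ((B⁻¹ : ℝ) : ℂ) • (1 : Matrix (Fin n) (Fin n) ℂ)).PosSemidef ∧
        (((c⁻¹ : ℝ) : ℂ) • (1 : Matrix (Fin n) (Fin n) ℂ) - pbg K Φ ζ).PosSemidef := by
  have hW : IsOpen (ball y R1 : Set (ofKah K).M) := isOpen_ball
  have hWM : IsOpen (bX K y R1) := isOpen_bX K y R1
  have hFW : HolW A (bX K y R1) F := holW_of hF
  have hHF : HF A (bX K y R1) (VF A F) := hf_Vl hWM hF fun r x hx => hne x hx r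
  have hdiff : ∀ i, ∀ x ∈ (A.e i).source, x ∈ bX K y R1 →
      DifferentiableAt ℂ (fun z => F ((A.e i).symm z)) (A.e i x) := by
    intro i x hx hxW
    refine (hFW i).differentiableAt ((isOpen_chart A hWM i).mem_nhds ⟨(A.e i).map_source hx, ?_⟩)
    rw [(A.e i).left_inv hx]
    exact hxW
  have hg1 : ∀ i, ∀ x ∈ (A.e i).source, x ∈ bX K y R1 →
      (gm K (VF A F) i x - (c : ℂ) • (1 : Matrix (Fin n) (Fin n) ℂ)).PosSemidef := by
    intro i x hx hxW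
    rw [← gM_eq K hHF hx hxW]
    exact hlo x hxW
  have hg2 : ∀ i, ∀ x ∈ (A.e i).source, x ∈ bX K y R1 →
      ((B : ℂ) • (1 : Matrix (Fin n) (Fin n) ℂ) - gm K (VF A F) i x).PosSemidef := by
    intro i x hx hxW
    rw [← gM_eq K hHF hx hxW]
    exact hhi x hxW
  have hb : ∀ i, ∀ x ∈ (A.e i).source, x ∈ bX K y R1 → ∀ v : Cn n,
      qf K i x v ≤ (C * ‖dlg A F i (A.e i x) v‖) ^ 2 := fun i x hx hxW v =>
    frame_lower K hx (hdiff i x hx hxW) hc hB hCc (hg1 i x hx hxW) (hg2 i x hx hxW) v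
  have hFr : FrameBd (E := EE (2 * n)) (onX K F) (ball y R1) C := by
    refine frameBd K hWM hFW hne hC.le fun i z hz hzW v => ?_
    have h1 := hb i ((A.e i).symm z) ((A.e i).map_target hz) hzW v
    rw [qf_eq_G K ((A.e i).map_target hz), (A.e i).right_inv hz] at h1
    exact h1
  have : CompactSpace (ofKah K).M := inferInstanceAs (CompactSpace M)
  obtain ⟨Lam, Φ, hΦ⟩ := exists_torusStrip (X := (ofKah K).M) hW
    (hFr.isLocalHomeomorphOn hW (finrank_EE n)) (d := d)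
    (fun s hs hs' => hd s (fun a ha => hs ha) hs') hC.le (hFr.lcx hC.le hW (finrank_EE n)) hy hr hR
    (isCompact_closedBall y R).isComplete (closedBall_subset_ball hR1)
  have hD := isOpen_strip ζ0 r
  have hinj : ∀ z ∈ strip ζ0 r, ∀ i, Φ z ∈ (A.e i).source →
      Function.Injective (fderiv ℂ (fun w => F ((A.e i).symm w)) (A.e i (Φ z))) :=
    fun z hz i hi => inj_of_bound K hi (hb i (Φ z) hi (hΦ.mem_W z hz))
  have hkey : ∀ z ∈ strip ζ0 r, ∀ i, Φ z ∈ (A.e i).source →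
      DifferentiableAt ℂ (fun w => A.e i (Φ w)) z ∧
      ∀ v : Fin n → ℂ, dlg A F i (A.e i (Φ z)) (fderiv ℂ (fun w => A.e i (Φ w)) z v) = v :=
    fun z hz i hi => dlg_lift_pi (Φ := Φ) hWM hFW hD hΦ.cont hΦ.mem_W hΦ.lift hz hi
      (hinj z hz i hi)
  have hVJ : ∀ z ∈ strip ζ0 r, ∀ i, Φ z ∈ (A.e i).source →
      (VF A F i (Φ z))ᵀ * jac A Φ i z = 1 := fun z hz i hi =>
    VT_jac hi (hdiff i _ hi (hΦ.mem_W z hz)) (hkey z hz i hi).2
  have hpb : ∀ ζ ∈ strip ζ0 r, pbg K Φ ζ = (gM K (VF A F) (Φ ζ))⁻¹ := fun ζ hζ =>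
    pbg_eq_gm K (hVJ ζ hζ _ (Crest.Agent.R273.FIb0_597.mem_ch A _))
  refine ⟨Lam, Φ, ⟨hΦ.le_lat, hΦ.factorial_mem, hΦ.cont, hΦ.lift, hΦ.eq_iff,
    fun ζ hζ i hi => ⟨(hkey ζ hζ i hi).1, ?_⟩⟩, hΦ.base, hΦ.mem_W,
    fun ζ hζ => ⟨hΦ.dist_le ζ hζ, hΦ.dist_le' ζ hζ⟩, fun ζ hζ => hVJ ζ hζ _ (Crest.Agent.R273.FIb0_597.mem_ch A _), hpb,
    fun ζ hζ => ?_⟩
  · intro h0
    have h1 := congrArg Matrix.det (hVJ ζ hζ i hi)
    rw [Matrix.det_mul, h0, mul_zero, Matrix.det_one] at h1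
    exact zero_ne_one h1
  · rw [hpb ζ hζ]
    exact inv_pinch hc hB (hlo _ (hΦ.mem_W ζ hζ)) (hhi _ (hΦ.mem_W ζ hζ))

end

end Crest.Agent.R281.Fra_922
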