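import Crest.Agent.R281.FujP_513

/-!
# Row 281, FUJ-INT, part 1 (helper207): the Fujiki form of a symmetric form, abstract algebra

`T` a symmetric `N`-linear form on a real vector space `H` (closed real 2-forms, `T` = integral of
the product), `N = 2ν`, `r ∈ H` (`Re σ`) with `S = T(r,..,r) > 0`. The Beauville-Bogomolov-Fujiki
form is **defined** by

`Qf x y = S^(1/ν-1) (2ν-1) T(x,y,r,..,r) - 2(ν-1) S^(1/ν-2) T(x,r,..,r) T(y,r,..,r)`.

* `Qf_eq_of_plane` : if `T((s r + t x)^N) = (α s² + β s t + γ t²)^ν`, `0 < α`, then `Qf x x = γ`.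
* `Data` : the geometric input (Ricci flat Kaehler forms `k`, `r = Re σ`, `s = Im σ`)
* `Data.fujiki` : `T(x,..,x) = (Qf x x)^ν` for **all** `x`.
-/

set_option autoImplicit false

open Polynomial

namespace Crest.Agent.R281.Fuj1_207

open Crest.Agent.R281.FujR_513 Crest.Agent.R281.FujP_513

noncomputable section

variable {H : Type*} [AddCommGroup H] [Module ℝ H] {N : ℕ}

/-! ### vectors with one or two distinguished entries -/

/-- `(x, r, .., r)` -/
def v1 (N : ℕ) (x r : H) : Fin N → H := fun i => if (i : ℕ) = 0 then x else r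

/-- `(x, y, r, .., r)` -/
def v2 (N : ℕ) (x y r : H) : Fin N → H := fun i => if (i : ℕ) = 0 then x else
  if (i : ℕ) = 1 then y else r

omit [AddCommGroup H] [Module ℝ H] in
lemma v1_eq_mixv (x r : H) : v1 N x r = mixv N 1 r x := by
  funext i
  simp [v1, mixv]

omit [AddCommGroup H] [Module ℝ H] in
lemma v2_eq_mixv (x r : H) : v2 N x x r = mixv N 2 r x := by
  funext i
  simp only [v2, mixv]
  split_ifs <;> first | rfl | omega

omit [AddCommGroup H] [Module ℝ H] in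
lemma v2_self (x r : H) : v2 N x r r = v1 N x r := by
  funext i
  simp [v2, v1]

omit [AddCommGroup H] [Module ℝ H] in
lemma v1_self (r : H) : v1 N r r = fun _ => r := by
  funext i
  simp [v1]

omit [AddCommGroup H] [Module ℝ H] in
lemma v1_eq_update (hN : 2 ≤ N) (x r : H) :
    v1 N x r = Function.update (fun _ => r) (⟨0, by omega⟩ : Fin N) x := by
  funext i
  simp [v1, Function.update_apply, Fin.ext_iff]

omit [AddCommGroup H] [Module ℝ H] in
lemma v2_eq_update (hN : 2 ≤ N) (x y r : H) : v2 N x y r =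
    Function.update (Function.update (fun _ => r) (⟨0, by omega⟩ : Fin N) x)
      (⟨1, by omega⟩ : Fin N) y := by
  funext i
  simp only [v2, Function.update_apply, Fin.ext_iff]
  split_ifs <;> first | rfl | omega

omit [AddCommGroup H] [Module ℝ H] in
lemma v2_eq_update' (hN : 2 ≤ N) (x y r : H) : v2 N x y r =
    Function.update (Function.update (fun _ => r) (⟨1, by omega⟩ : Fin N) y)
      (⟨0, by omega⟩ : Fin N) x := by
  funext i
  simp only [v2, Function.update_apply, Fin.ext_iff]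

variable (T : MultilinearMap ℝ (fun _ : Fin N => H) ℝ)

/-- `x ↦ T(x, r, .., r)` -/
def L1 (hN : 2 ≤ N) (r : H) : H →ₗ[ℝ] ℝ where
  toFun x := T (v1 N x r)
  map_add' x y := by
    simp only [v1_eq_update hN]
    exact T.map_update_add _ _ _ _
  map_smul' c x := by
    simp only [v1_eq_update hN]
    exact T.map_update_smul _ _ _ _

/-- `(x, y) ↦ T(x, y, r, .., r)` -/
def B2 (hN : 2 ≤ N) (r : H) : H →ₗ[ℝ] H →ₗ[ℝ] ℝ :=
  LinearMap.mk₂ ℝ (fun x y => T (v2 N x y r))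
    (fun x x' y => by
      simp only [v2_eq_update' hN]
      exact T.map_update_add _ _ _ _)
    (fun c x y => by
      simp only [v2_eq_update' hN]
      exact T.map_update_smul _ _ _ _)
    (fun x y y' => by
      simp only [v2_eq_update hN]
      exact T.map_update_add _ _ _ _)
    (fun c x y => by
      simp only [v2_eq_update hN]
      exact T.map_update_smul _ _ _ _)

@[simp] lemma L1_apply (hN : 2 ≤ N) (r x : H) : L1 T hN r x = T (v1 N x r) := rfl

@[simp] lemma B2_apply (hN : 2 ≤ N) (r x y : H) : B2 T hN r x y = T (v2 N x y r) := rfl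

variable {T}

lemma B2_symm (hT : Symm T) (hN : 2 ≤ N) (r x y : H) : B2 T hN r x y = B2 T hN r y x := by
  rw [B2_apply, B2_apply, ← hT (Equiv.swap (⟨0, by omega⟩ : Fin N) ⟨1, by omega⟩)]
  congr 1
  funext i
  have h : (((Equiv.swap (⟨0, by omega⟩ : Fin N) ⟨1, by omega⟩) i : Fin N) : ℕ) =
      (if (i : ℕ) = 0 then 1 else if (i : ℕ) = 1 then 0 else (i : ℕ) : ℕ) := by
    rw [Equiv.swap_apply_def]
    simp only [Fin.ext_iff]
    split_ifs <;> rfl
  simp only [v2, h]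
  by_cases h0 : (i : ℕ) = 0
  · simp [h0]
  · by_cases h1 : (i : ℕ) = 1
    · simp [h1]
    · simp [h0, h1]

/-! ### roots -/

/-- the `ν`-th root -/
def rt (S : ℝ) (ν : ℕ) : ℝ := S ^ ((ν : ℝ)⁻¹)

lemma rt_pos {S : ℝ} (hS : 0 < S) (ν : ℕ) : 0 < rt S ν := Real.rpow_pos_of_pos hS _

lemma rt_pow {S : ℝ} (hS : 0 < S) {ν : ℕ} (hν : 1 ≤ ν) : rt S ν ^ ν = S := by
  rw [rt, Real.rpow_inv_natCast_pow hS.le (by omega)]

lemma rt_eq {S a : ℝ} (ha : 0 < a) {ν : ℕ} (hν : 1 ≤ ν) (h : a ^ ν = S) : rt S ν = a := by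
  rw [← h, rt, Real.pow_rpow_inv_natCast ha.le (by omega)]

/-! ### the form -/

variable (T)

/-- **The Beauville-Bogomolov-Fujiki form** -/
def Qf (hN : 2 ≤ N) (ν : ℕ) (r : H) : H →ₗ[ℝ] H →ₗ[ℝ] ℝ :=
  LinearMap.mk₂ ℝ (fun x y => rt (T fun _ => r) ν / (T fun _ => r) * ((2 * ν - 1) * B2 T hN r x y) -
      2 * (ν - 1) * rt (T fun _ => r) ν / (T fun _ => r) ^ 2 * (L1 T hN r x * L1 T hN r y))
    (fun x x' y => by simp only [map_add, LinearMap.add_apply]; ring)
    (fun c x y => by simp only [map_smul, LinearMap.smul_apply, smul_eq_mul]; ring)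
    (fun x y y' => by simp only [map_add]; ring)
    (fun c x y => by simp only [map_smul, smul_eq_mul]; ring)

lemma Qf_apply (hN : 2 ≤ N) (ν : ℕ) (r x y : H) : Qf T hN ν r x y =
    rt (T fun _ => r) ν / (T fun _ => r) * ((2 * ν - 1) * T (v2 N x y r)) -
      2 * (ν - 1) * rt (T fun _ => r) ν / (T fun _ => r) ^ 2 * (T (v1 N x r) * T (v1 N y r)) := rfl

variable {T}

lemma Qf_symm (hT : Symm T) (hN : 2 ≤ N) (ν : ℕ) (r x y : H) :
    Qf T hN ν r x y = Qf T hN ν r y x := by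
  have h := B2_symm hT hN r x y
  rw [B2_apply, B2_apply] at h
  rw [Qf_apply, Qf_apply, h, mul_comm (T (v1 N x r))]

/-- the coefficients of order `0, 1, 2` of a power of a quadratic polynomial -/
lemma coeff_pow_quad {a : ℝ} (ha : a ≠ 0) (b c : ℝ) (n : ℕ) :
    ((C a + C b * X + C c * X ^ 2 : ℝ[X]) ^ n).coeff 0 = a ^ n ∧
    ((C a + C b * X + C c * X ^ 2 : ℝ[X]) ^ n).coeff 1 = n * a ^ n * (b / a) ∧
    ((C a + C b * X + C c * X ^ 2 : ℝ[X]) ^ n).coeff 2 =
      n * a ^ n * (c / a) + n * (n - 1) / 2 * a ^ n * (b / a) ^ 2 := by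
  have p0 : (C a + C b * X + C c * X ^ 2 : ℝ[X]).coeff 0 = a := by simp
  have p1 : (C a + C b * X + C c * X ^ 2 : ℝ[X]).coeff 1 = b := by
    simp [coeff_C]
  have p2 : (C a + C b * X + C c * X ^ 2 : ℝ[X]).coeff 2 = c := by
    simp
  induction n with
  | zero => simp [coeff_one]
  | succ n ih =>
    obtain ⟨h0, h1, h2⟩ := ih
    have e1 : Finset.HasAntidiagonal.antidiagonal 1 = {((0 : ℕ), (1 : ℕ)), (1, 0)} := rfl
    have e2 : Finset.HasAntidiagonal.antidiagonal 2 = {((0 : ℕ), (2 : ℕ)), (1, 1), (2, 0)} := rfl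
    refine ⟨?_, ?_, ?_⟩
    · rw [pow_succ, mul_coeff_zero, h0, p0, pow_succ]
    · rw [pow_succ, coeff_mul, e1, Finset.sum_pair (by simp), h0, h1, p0, p1]
      push_cast
      field_simp
      ring
    · rw [pow_succ, coeff_mul, e2, Finset.sum_insert (by simp), Finset.sum_pair (by simp), h0, h1,
        h2, p0, p1, p2]
      push_cast
      field_simp
      ring

/-- values of `T` on a plane on which it is the power of a quadratic form -/
theorem plane_values (hT : Symm T) {ν : ℕ} (hν : 1 ≤ ν) (hN : N = 2 * ν) {r x : H} {α β γ : ℝ}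
    (hα : 0 < α) (h : ∀ t : ℝ, T (fun _ => r + t • x) = (α + β * t + γ * t ^ 2) ^ ν) :
    (T fun _ => r) = α ^ ν ∧ 2 * T (v1 N x r) = α ^ ν * (β / α) ∧
    (2 * ν - 1) * T (v2 N x x r) = α ^ ν * (γ / α) + (ν - 1) / 2 * α ^ ν * (β / α) ^ 2 := by
  obtain ⟨c0, c1, c2⟩ := coeff_pow_quad hα.ne' β γ ν
  have h0 := coeff_of_expand (k := N) (fun a => (N.choose a : ℝ) * T (mixv N a r x))
    ((C α + C β * X + C γ * X ^ 2) ^ ν) (by
      intro s
      have h3 := hT.expand r x s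
      rw [h] at h3
      simp only [eval_pow, eval_add, eval_mul, eval_C, eval_X]
      rw [h3]
      exact Finset.sum_congr rfl fun a _ => by ring)
  have hν' : (0 : ℝ) < ν := by exact_mod_cast hν
  have hνr : (ν : ℝ) ≠ 0 := hν'.ne'
  have hNr : (N : ℝ) = 2 * ν := by rw [hN]; push_cast; ring
  refine ⟨?_, ?_, ?_⟩
  · have h1 := h 0
    simpa using h1
  · have h1 := h0 1 (by omega)
    rw [c1, Nat.choose_one_right, hNr, ← v1_eq_mixv] at h1
    have h2 : (ν : ℝ) * (2 * T (v1 N x r)) = ν * (α ^ ν * (β / α)) := by linarith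
    exact mul_left_cancel₀ hνr h2
  · have h1 := h0 2 (by omega)
    rw [c2, ← v2_eq_mixv, Nat.cast_choose_two, hNr] at h1
    have h2 : (ν : ℝ) * ((2 * ν - 1) * T (v2 N x x r)) =
        ν * (α ^ ν * (γ / α) + (ν - 1) / 2 * α ^ ν * (β / α) ^ 2) := by
      linarith
    exact mul_left_cancel₀ hνr h2

/-- **The value of the form** on a plane on which `T` is the power of a quadratic form. -/
theorem Qf_eq_of_plane (hT : Symm T) {ν : ℕ} (hν : 1 ≤ ν) (hN : N = 2 * ν) (hN2 : 2 ≤ N)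
    {r x : H} {α β γ : ℝ}
    (hα : 0 < α) (h : ∀ t : ℝ, T (fun _ => r + t • x) = (α + β * t + γ * t ^ 2) ^ ν) :
    Qf T hN2 ν r x x = γ := by
  obtain ⟨h0, h1, h2⟩ := plane_values hT hν hN hα h
  have hr : rt (T fun _ => r) ν = α := rt_eq hα hν h0.symm
  have hp : (0 : ℝ) < α ^ ν := pow_pos hα _
  have h1' : T (v1 N x r) = α ^ ν * (β / α) / 2 := by linarith
  rw [Qf_apply, hr, h0, h2, h1']
  have h3 : (α ^ ν : ℝ) ≠ 0 := hp.ne'
  have h4 : α ≠ 0 := hα.ne'
  field_simp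
  ring

variable (T)

/-- the quadratic form `x ↦ Qf x x` -/
def qf (hN : 2 ≤ N) (ν : ℕ) (r : H) : QuadraticForm ℝ H :=
  LinearMap.BilinMap.toQuadraticMap (Qf T hN ν r)

variable {T}

@[simp] lemma qf_apply (hN : 2 ≤ N) (ν : ℕ) (r x : H) : qf T hN ν r x = Qf T hN ν r x x := rfl

lemma polar_qf (hT : Symm T) (hN : 2 ≤ N) (ν : ℕ) (r x y : H) :
    QuadraticMap.polar (qf T hN ν r) x y = 2 * Qf T hN ν r x y := by
  simp only [QuadraticMap.polar, qf_apply, map_add, LinearMap.add_apply, Qf_symm hT hN ν r y x]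
  ring

/-! ### insensitivity to exact entries -/

/-- `T` vanishes as soon as one entry is in `E` -/
def Kills (T : MultilinearMap ℝ (fun _ : Fin N => H) ℝ) (E : Set H) : Prop :=
  ∀ (v : Fin N → H) (i : Fin N), v i ∈ E → T v = 0

lemma Kills.add_eq {E : Set H} (h : Kills T E) {e : H} (he : e ∈ E) (x : H) :
    T (fun _ => x + e) = T (fun _ => x) := by
  classical
  have h1 : (fun _ : Fin N => x + e) = (fun _ => x) + (fun _ => e) := rfl
  rw [h1, MultilinearMap.map_add_univ, Finset.sum_eq_single (Finset.univ : Finset (Fin N))]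
  · congr 1
    funext i
    simp
  · intro S _ hS
    obtain ⟨i, hi⟩ : ∃ i, i ∉ S := by
      by_contra hc
      push Not at hc
      exact hS (Finset.eq_univ_iff_forall.2 hc)
    exact h _ i (by simpa [hi] using he)
  · intro hcon
    exact absurd (Finset.mem_univ _) hcon

lemma Kills.Qf_right {E : Set H} (h : Kills T E) {e : H} (he : e ∈ E) (hN : 2 ≤ N) (ν : ℕ)
    (r x : H) : Qf T hN ν r x e = 0 := by
  rw [Qf_apply, h (v2 N x e r) ⟨1, by omega⟩ (by simpa [v2] using he),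
    h (v1 N e r) ⟨0, by omega⟩ (by simpa [v1] using he)]
  ring

lemma Kills.Qf_left {E : Set H} (h : Kills T E) {e : H} (he : e ∈ E) (hN : 2 ≤ N) (ν : ℕ)
    (r x : H) : Qf T hN ν r e x = 0 := by
  rw [Qf_apply, h (v2 N e x r) ⟨0, by omega⟩ (by simpa [v2] using he),
    h (v1 N e r) ⟨0, by omega⟩ (by simpa [v1] using he)]
  ring

/-! ### triples -/

/-- `k` (a Ricci flat Kaehler form) together with `r = Re σ`, `s = Im σ` generates a hyperkaehler
triple: `T` is the `ν`-th power of a quadratic form on the span -/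
def Tri (T : MultilinearMap ℝ (fun _ : Fin N => H) ℝ) (ν : ℕ) (r s k : H) (l : ℝ) : Prop :=
  0 < l ∧ 0 < T (fun _ => k) ∧ ∀ a b c : ℝ, T (fun _ => a • k + b • r + c • s) =
    (a ^ 2 + l * (b ^ 2 + c ^ 2)) ^ ν * T (fun _ => k)

section Tri

variable {ν : ℕ} {r s k : H} {l : ℝ}

lemma Tri.S_eq (h : Tri T ν r s k l) : T (fun _ => r) = l ^ ν * T (fun _ => k) := by
  have h1 := h.2.2 0 1 0
  simpa using h1

lemma Tri.S_pos (h : Tri T ν r s k l) : 0 < T (fun _ => r) := by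
  rw [h.S_eq]
  exact mul_pos (pow_pos h.1 _) h.2.1

/-- the value of `T` on the span of the triple, in terms of `S = T(r,..,r)` -/
lemma Tri.value (h : Tri T ν r s k l) (hν : 1 ≤ ν) (a b c : ℝ) :
    T (fun _ => a • k + b • r + c • s) =
      (rt (T fun _ => r) ν * (a ^ 2 / l + b ^ 2 + c ^ 2)) ^ ν := by
  rw [h.2.2, mul_pow, rt_pow h.S_pos hν, h.S_eq]
  have h1 : a ^ 2 / l + b ^ 2 + c ^ 2 = (a ^ 2 + l * (b ^ 2 + c ^ 2)) / l := by
    field_simp [h.1.ne']
    ring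
  rw [h1, div_pow]
  have h2 : (l ^ ν : ℝ) ≠ 0 := (pow_pos h.1 _).ne'
  field_simp

/-- **the form on the span of a triple** -/
theorem Tri.Qf_span (h : Tri T ν r s k l) (hT : Symm T) (hν : 1 ≤ ν) (hN : N = 2 * ν)
    (hN2 : 2 ≤ N) (a b c : ℝ) :
    Qf T hN2 ν r (a • k + b • r + c • s) (a • k + b • r + c • s) =
      rt (T fun _ => r) ν * (a ^ 2 / l + b ^ 2 + c ^ 2) := by
  refine Qf_eq_of_plane hT hν hN hN2 (rt_pos h.S_pos ν) (β := 2 * b * rt (T fun _ => r) ν)
    fun t => ?_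
  have h1 : r + t • (a • k + b • r + c • s) = (t * a) • k + (1 + t * b) • r + (t * c) • s := by
    module
  rw [h1, h.value hν]
  congr 1
  have := h.1.ne'
  field_simp
  ring

theorem Tri.Qf_rr (h : Tri T ν r s k l) (hT : Symm T) (hν : 1 ≤ ν) (hN : N = 2 * ν)
    (hN2 : 2 ≤ N) : Qf T hN2 ν r r r = rt (T fun _ => r) ν := by
  have := h.Qf_span hT hν hN hN2 0 1 0
  simpa using this

theorem Tri.Qf_ss (h : Tri T ν r s k l) (hT : Symm T) (hν : 1 ≤ ν) (hN : N = 2 * ν)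
    (hN2 : 2 ≤ N) : Qf T hN2 ν r s s = rt (T fun _ => r) ν := by
  have := h.Qf_span hT hν hN hN2 0 0 1
  simpa using this

theorem Tri.Qf_kk (h : Tri T ν r s k l) (hT : Symm T) (hν : 1 ≤ ν) (hN : N = 2 * ν)
    (hN2 : 2 ≤ N) : Qf T hN2 ν r k k = rt (T fun _ => r) ν / l := by
  have := h.Qf_span hT hν hN hN2 1 0 0
  simpa [div_eq_mul_inv] using this

theorem Tri.Qf_kk_pos (h : Tri T ν r s k l) (hT : Symm T) (hν : 1 ≤ ν) (hN : N = 2 * ν)
    (hN2 : 2 ≤ N) : 0 < Qf T hN2 ν r k k := by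
  rw [h.Qf_kk hT hν hN hN2]
  exact div_pos (rt_pos h.S_pos ν) h.1

private lemma polar_zero (hT : Symm T) (hN2 : 2 ≤ N) {x y : H}
    (h : Qf T hN2 ν r (x + y) (x + y) = Qf T hN2 ν r x x + Qf T hN2 ν r y y) :
    Qf T hN2 ν r x y = 0 := by
  simp only [map_add, LinearMap.add_apply, Qf_symm hT hN2 ν r y x] at h
  linarith

theorem Tri.Qf_rs (h : Tri T ν r s k l) (hT : Symm T) (hν : 1 ≤ ν) (hN : N = 2 * ν)
    (hN2 : 2 ≤ N) : Qf T hN2 ν r r s = 0 := by
  refine polar_zero hT hN2 ?_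
  have := h.Qf_span hT hν hN hN2 0 1 1
  rw [h.Qf_rr hT hν hN hN2, h.Qf_ss hT hν hN hN2]
  simp only [zero_smul, zero_add, one_smul] at this
  rw [this]
  ring

theorem Tri.Qf_kr (h : Tri T ν r s k l) (hT : Symm T) (hν : 1 ≤ ν) (hN : N = 2 * ν)
    (hN2 : 2 ≤ N) : Qf T hN2 ν r k r = 0 := by
  refine polar_zero hT hN2 ?_
  have := h.Qf_span hT hν hN hN2 1 1 0
  rw [h.Qf_rr hT hν hN hN2, h.Qf_kk hT hν hN hN2]
  simp only [zero_smul, add_zero, one_smul] at this
  rw [this]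
  ring

theorem Tri.Qf_ks (h : Tri T ν r s k l) (hT : Symm T) (hν : 1 ≤ ν) (hN : N = 2 * ν)
    (hN2 : 2 ≤ N) : Qf T hN2 ν r k s = 0 := by
  refine polar_zero hT hN2 ?_
  have := h.Qf_span hT hν hN hN2 1 0 1
  rw [h.Qf_ss hT hν hN hN2, h.Qf_kk hT hν hN hN2]
  simp only [zero_smul, add_zero, one_smul] at this
  rw [this]
  ring

end Tri

/-! ### the Fujiki relation -/

/-- **FUJIKI**: `T(x,..,x) = (Qf x x)^ν` for every `x`. Input: near one point `k0` (a Kaehler form)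
every point is, up to `E` (exact forms), of the form `k + b r + c s` with `k` completing `r`, `s`
to a triple. -/
theorem fujiki {ν : ℕ} (hν : 1 ≤ ν) (hN : N = 2 * ν) (hN2 : 2 ≤ N) (hT : Symm T) {E : Set H}
    (hE : Kills T E) {r s : H} (k0 : H)
    (h : ∀ y : H, ∃ ε > 0, ∀ t : ℝ, 0 < t → t < ε → ∃ k : H, ∃ l b c : ℝ, ∃ e ∈ E,
      Tri T ν r s k l ∧ k0 + t • y = k + b • r + c • s + e) (x : H) :
    T (fun _ => x) = Qf T hN2 ν r x x ^ ν := by
  have h1 := PolyL.ext_of_near (PolyL.multilinear T)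
    (PolyL.pow (PolyL.quad (qf T hN2 ν r)) ν) k0 (fun y => by
      obtain ⟨ε, hε, h2⟩ := h y
      refine ⟨ε, hε, fun t h3 h4 => ?_⟩
      obtain ⟨k, l, b, c, e, he, h5, h6⟩ := h2 t h3 h4
      rw [h6, hE.add_eq he]
      have h7 := h5.value hν 1 b c
      have h8 := h5.Qf_span hT hν hN hN2 1 b c
      rw [one_smul] at h7 h8
      rw [h7, ← h8, qf_apply]
      congr 1
      simp only [map_add, LinearMap.add_apply, hE.Qf_right he, hE.Qf_left he]
      ring)
  have h2 := congrFun h1 x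
  simpa using h2

/-- the second polarised relation: `(2ν-1) T(x,x,k,..,k) = q(k)^(ν-1) q(x) + 2(ν-1) q(k)^(ν-2) b(k,x)²` -/
theorem second_polar {ν : ℕ} (hν : 1 ≤ ν) (hN : N = 2 * ν) (hN2 : 2 ≤ N) (hT : Symm T) {r : H}
    (hF : ∀ x, T (fun _ => x) = Qf T hN2 ν r x x ^ ν) {k : H} (hk : 0 < Qf T hN2 ν r k k) (x : H) :
    (2 * ν - 1) * T (v2 N x x k) = Qf T hN2 ν r k k ^ ν * (Qf T hN2 ν r x x / Qf T hN2 ν r k k) +
      2 * (ν - 1) * Qf T hN2 ν r k k ^ ν * (Qf T hN2 ν r k x / Qf T hN2 ν r k k) ^ 2 := by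
  have h1 := (plane_values hT hν hN (r := k) (x := x) hk (β := 2 * Qf T hN2 ν r k x)
    (γ := Qf T hN2 ν r x x) fun t => by
      rw [hF]
      congr 1
      simp only [map_add, map_smul, LinearMap.add_apply, LinearMap.smul_apply, smul_eq_mul,
        Qf_symm hT hN2 ν r x k]
      ring).2.2
  rw [h1]
  ring

/-- the first polarised relation: `T(x,k,..,k) = q(k)^(ν-1) b(k,x)` -/
theorem first_polar {ν : ℕ} (hν : 1 ≤ ν) (hN : N = 2 * ν) (hN2 : 2 ≤ N) (hT : Symm T) {r : H}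
    (hF : ∀ x, T (fun _ => x) = Qf T hN2 ν r x x ^ ν) {k : H} (hk : 0 < Qf T hN2 ν r k k) (x : H) :
    T (v1 N x k) = Qf T hN2 ν r k k ^ ν * (Qf T hN2 ν r k x / Qf T hN2 ν r k k) := by
  have h1 := (plane_values hT hν hN (r := k) (x := x) hk (β := 2 * Qf T hN2 ν r k x)
    (γ := Qf T hN2 ν r x x) fun t => by
      rw [hF]
      congr 1
      simp only [map_add, map_smul, LinearMap.add_apply, LinearMap.smul_apply, smul_eq_mul,
        Qf_symm hT hN2 ν r x k]
      ring).2.1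
  rw [mul_div_assoc] at h1
  linarith [h1]

end

end Crest.Agent.R281.Fuj1_207
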