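import Mathlib

/-!
# Row 281, FUJ-INT, part 1 (helper358): pointwise quaternionic linear algebra

`V` a finite dimensional real vector space of dimension `4ν` with a quaternionic triple `J 0, J 1,
J 2` of skew maps for a symmetric form `g`.  For every `v : ℝ³` there is an endomorphism `T` with
`det T = |v|^{2ν}` and `ω_v = T^* ω_0`, where `ω_v (X, Y) = g (J_v X) Y`.
-/

set_option autoImplicit false

namespace Crest.Agent.R281.Fuj1_358

open Module

variable {V : Type*} [AddCommGroup V] [Module ℝ V]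

/-- `det (a + P) = (a² + s)^{2ν}` if `P² = -s` and some `K` anticommutes with `P` -/
theorem det_add {ν : ℕ} (hn : finrank ℝ V = 4 * ν) (P K : V →ₗ[ℝ] V) (s a : ℝ)
    (hP : ∀ x, P (P x) = -(s • x)) (hK : ∀ x, K (K x) = -x) (hKP : ∀ x, K (P x) = -P (K x))
    (ha : 0 < a + Real.sqrt (a ^ 2 + s)) (hs : 0 ≤ s) :
    LinearMap.det (a • LinearMap.id + P) = (a ^ 2 + s) ^ (2 * ν) := by
  set f : V →ₗ[ℝ] V := a • LinearMap.id + P with hf
  set f' : V →ₗ[ℝ] V := a • LinearMap.id - P with hf'
  have hq : 0 ≤ a ^ 2 + s := by positivity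
  -- `f f' = a² + s`
  have h1 : f.comp f' = (a ^ 2 + s) • LinearMap.id := by
    ext x
    simp only [hf, hf', LinearMap.comp_apply, LinearMap.add_apply, LinearMap.sub_apply,
      LinearMap.smul_apply, LinearMap.id_apply, map_sub, map_smul, hP]
    module
  -- `K f = f' K`
  have h2 : K.comp f = f'.comp K := by
    ext x
    simp only [hf, hf', LinearMap.comp_apply, LinearMap.add_apply, LinearMap.sub_apply,
      LinearMap.smul_apply, LinearMap.id_apply, map_add, map_smul, hKP]
    module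
  have hKK : K.comp K = (-1 : ℝ) • LinearMap.id := by
    ext x
    simp [hK]
  have hdK : LinearMap.det K ≠ 0 := by
    intro h0
    have h3 := congrArg LinearMap.det hKK
    rw [LinearMap.det_comp, h0, LinearMap.det_smul, LinearMap.det_id] at h3
    have h3' : (0 : ℝ) = (-1) ^ finrank ℝ V := by simpa using h3
    exact absurd h3'.symm (pow_ne_zero _ (by norm_num))
  have h4 : LinearMap.det f = LinearMap.det f' := by
    have h3 := congrArg LinearMap.det h2
    rw [LinearMap.det_comp, LinearMap.det_comp, mul_comm] at h3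
    exact mul_right_cancel₀ hdK h3
  have h5 : LinearMap.det f ^ 2 = ((a ^ 2 + s) ^ (2 * ν)) ^ 2 := by
    have h3 := congrArg LinearMap.det h1
    rw [LinearMap.det_comp, ← h4, LinearMap.det_smul, LinearMap.det_id, hn] at h3
    rw [sq, h3, mul_one, ← pow_mul]
    congr 1
    ring
  -- positivity: `f = S²`
  set c : ℝ := Real.sqrt ((a + Real.sqrt (a ^ 2 + s)) / 2) with hc
  have hc2 : c ^ 2 = (a + Real.sqrt (a ^ 2 + s)) / 2 := Real.sq_sqrt (by linarith)
  have hc0 : 0 < c := Real.sqrt_pos.2 (by linarith)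
  have hr2 : Real.sqrt (a ^ 2 + s) ^ 2 = a ^ 2 + s := Real.sq_sqrt hq
  set S : V →ₗ[ℝ] V := c • LinearMap.id + (1 / (2 * c)) • P with hS
  have h6 : S.comp S = f := by
    ext x
    simp only [hS, hf, LinearMap.comp_apply, LinearMap.add_apply,
      LinearMap.smul_apply, LinearMap.id_apply, map_add, map_smul, hP]
    have e1 : c * c - 1 / (2 * c) * (1 / (2 * c)) * s = a := by
      field_simp
      have : c ^ 4 = ((a + Real.sqrt (a ^ 2 + s)) / 2) ^ 2 := by rw [← hc2]; ring
      nlinarith [this, hc2, hr2]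
    have e2 : c * (1 / (2 * c)) + 1 / (2 * c) * c = 1 := by field_simp; norm_num
    have e3 : c • (c • x) + (1 / (2 * c)) • (c • P x) + (c • (1 / (2 * c)) • P x +
        (1 / (2 * c)) • (1 / (2 * c)) • -(s • x)) =
        (c * c - 1 / (2 * c) * (1 / (2 * c)) * s) • x +
          (c * (1 / (2 * c)) + 1 / (2 * c) * c) • P x := by
      module
    rw [e1, e2, one_smul] at e3
    rw [← e3]
    module
  have h7 : 0 ≤ LinearMap.det f := by
    rw [← h6, LinearMap.det_comp]
    exact mul_self_nonneg _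
  have h8 : 0 ≤ (a ^ 2 + s) ^ (2 * ν) := by positivity
  exact (pow_left_inj₀ h7 h8 two_ne_zero).1 h5

/-- a quaternionic triple of skew maps -/
structure Trip (g : V →ₗ[ℝ] V →ₗ[ℝ] ℝ) (J : Fin 3 → V →ₗ[ℝ] V) : Prop where
  sq : ∀ k x, J k (J k x) = -x
  m01 : ∀ x, J 0 (J 1 x) = J 2 x
  sk : ∀ k x y, g (J k x) y = -g x (J k y)

namespace Trip

variable {g : V →ₗ[ℝ] V →ₗ[ℝ] ℝ} {J : Fin 3 → V →ₗ[ℝ] V}

theorem m02 (h : Trip g J) (x : V) : J 0 (J 2 x) = -J 1 x := by rw [← h.m01, h.sq]

theorem m21 (h : Trip g J) (x : V) : J 2 (J 1 x) = -J 0 x := by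
  rw [← h.m01, h.sq]; simp

theorem m10 (h : Trip g J) (x : V) : J 1 (J 0 x) = -J 2 x := by
  have h1 : J 0 (J 1 (J 0 (J 1 (J 1 x)))) = -J 1 x := by
    rw [h.m01, h.m01, h.sq]
  rw [h.sq] at h1
  simp only [map_neg] at h1
  have h2 := congrArg (J 0) h1
  simp only [map_neg, neg_inj] at h2
  rw [h.sq, h.m01] at h2
  rw [← h2, neg_neg]

theorem m12 (h : Trip g J) (x : V) : J 1 (J 2 x) = J 0 x := by
  rw [← h.m01, h.m10, ← h.m01, h.sq]; simp

theorem m20 (h : Trip g J) (x : V) : J 2 (J 0 x) = J 1 x := by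
  have := h.m10 (J 0 x)
  rw [h.sq] at this
  simp only [map_neg, neg_inj] at this
  exact this.symm

/-- **the pointwise rotation lemma** -/
theorem exists_T (h : Trip g J) {ν : ℕ} (hn : finrank ℝ V = 4 * ν) (v : Fin 3 → ℝ) :
    ∃ T : V →ₗ[ℝ] V, LinearMap.det T = (v 0 ^ 2 + v 1 ^ 2 + v 2 ^ 2) ^ ν ∧
      ∀ x y, v 0 * g (J 0 x) y + v 1 * g (J 1 x) y + v 2 * g (J 2 x) y =
        g (J 0 (T x)) (T y) := by
  set q : ℝ := v 0 ^ 2 + v 1 ^ 2 + v 2 ^ 2 with hq
  have hq0 : 0 ≤ q := by positivity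
  set ρ : ℝ := Real.sqrt q with hρ
  have hρ2 : ρ ^ 2 = q := Real.sq_sqrt hq0
  have hρ0 : 0 ≤ ρ := Real.sqrt_nonneg _
  have hle : |v 0| ≤ ρ := Real.abs_le_sqrt (by nlinarith [sq_nonneg (v 1), sq_nonneg (v 2)])
  have hle' : 0 ≤ ρ + v 0 := by have := neg_le_of_abs_le hle; linarith
  rcases hle'.eq_or_lt with h0 | h0
  · -- `v = -ρ e_0`
    have hv0 : v 0 = -ρ := by linarith
    have h12 : v 1 ^ 2 + v 2 ^ 2 = 0 := by
      have : v 0 ^ 2 = ρ ^ 2 := by rw [hv0]; ring
      linarith
    have hv1 : v 1 = 0 := by nlinarith [sq_nonneg (v 1), sq_nonneg (v 2)]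
    have hv2 : v 2 = 0 := by nlinarith [sq_nonneg (v 1), sq_nonneg (v 2)]
    refine ⟨Real.sqrt ρ • J 1, ?_, ?_⟩
    · have h1 := det_add hn (J 1) (J 0) 1 0 (fun x => by rw [h.sq]; simp) (h.sq 0)
        (fun x => by rw [h.m01, h.m10]; simp) (by simp) zero_le_one
      have h2 : (0 : ℝ) • LinearMap.id + J 1 = J 1 := by simp
      rw [h2] at h1
      rw [LinearMap.det_smul, h1, hn, ← hρ2]
      have h3 : Real.sqrt ρ ^ (4 * ν) = (Real.sqrt ρ ^ 2) ^ (2 * ν) := by
        rw [← pow_mul]; congr 1; ring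
      rw [h3, Real.sq_sqrt hρ0, ← pow_mul]
      simp
    · intro x y
      have e : Real.sqrt ρ * Real.sqrt ρ = ρ := Real.mul_self_sqrt hρ0
      simp only [LinearMap.smul_apply, map_smul, smul_eq_mul, h.m01]
      have e2 : g (J 2 x) (J 1 y) = -g (J 0 x) y := by
        have := h.sk 1 (J 2 x) y
        rw [h.m12] at this
        linarith
      rw [e2, hv1, hv2, hv0]
      linear_combination (g (J 0 x) y) * e
  · set a : ℝ := ρ + v 0 with ha
    set P : V →ₗ[ℝ] V := v 2 • J 1 - v 1 • J 2 with hP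
    set w : ℝ := v 1 ^ 2 + v 2 ^ 2 with hw
    have haw : a ^ 2 + w = 2 * ρ * a := by
      have : q = v 0 ^ 2 + w := by rw [hq, hw]; ring
      rw [ha]
      nlinarith [hρ2]
    have hPP : ∀ x, P (P x) = -(w • x) := by
      intro x
      simp only [hP, LinearMap.sub_apply, LinearMap.smul_apply, map_sub, map_smul, h.sq, h.m12,
        h.m21, hw]
      module
    have hKP : ∀ x, J 0 (P x) = -P (J 0 x) := by
      intro x
      simp only [hP, LinearMap.sub_apply, LinearMap.smul_apply, map_sub, map_smul, h.m01, h.m02,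
        h.m10, h.m20]
      module
    have hd := det_add hn P (J 0) w a hPP (h.sq 0) hKP
      (by positivity) (by positivity)
    have h2a : 0 < 2 * a := by positivity
    refine ⟨(Real.sqrt (2 * a))⁻¹ • (a • LinearMap.id + P), ?_, ?_⟩
    · rw [LinearMap.det_smul, hd, hn, haw]
      have h3 : (Real.sqrt (2 * a))⁻¹ ^ (4 * ν) = ((2 * a)⁻¹) ^ (2 * ν) := by
        have : (Real.sqrt (2 * a))⁻¹ ^ 2 = (2 * a)⁻¹ := by
          rw [inv_pow, Real.sq_sqrt h2a.le]
        rw [← this, ← pow_mul]; congr 1; ring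
      rw [h3, ← mul_pow, ← hρ2, ← pow_mul]
      congr 1
      field_simp
    · intro x y
      have e : (Real.sqrt (2 * a))⁻¹ * (Real.sqrt (2 * a))⁻¹ = (2 * a)⁻¹ := by
        rw [← mul_inv, Real.mul_self_sqrt h2a.le]
      have hgP : ∀ x y, g (P x) y = -g x (P y) := by
        intro x y
        simp only [hP, LinearMap.sub_apply, LinearMap.smul_apply, map_sub, map_smul, smul_eq_mul,
          h.sk]
        ring
      have e1 : g (J 0 ((a • LinearMap.id + P : V →ₗ[ℝ] V) x))
          ((a • LinearMap.id + P : V →ₗ[ℝ] V) y) =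
          2 * a * (v 0 * g (J 0 x) y + v 1 * g (J 1 x) y + v 2 * g (J 2 x) y) := by
        have f1 : g (J 0 (P x)) (P y) = -(w * g (J 0 x) y) := by
          have := hgP (J 0 (P x)) y
          have f2 : P (J 0 (P x)) = w • J 0 x := by
            have := hKP (P x)
            rw [hPP] at this
            simp only [map_neg, map_smul, neg_inj] at this
            exact this.symm
          rw [f2] at this
          simp only [map_smul, LinearMap.smul_apply, smul_eq_mul] at this
          linarith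
        have f3 : g (J 0 x) (P y) = g (J 0 (P x)) y := by
          have := hgP (J 0 x) y
          rw [hKP, map_neg, LinearMap.neg_apply, this, neg_neg]
        have f4 : g (J 0 (P x)) y = v 1 * g (J 1 x) y + v 2 * g (J 2 x) y := by
          simp only [hP, LinearMap.sub_apply, LinearMap.smul_apply, map_sub, map_smul, h.m01,
            h.m02, smul_eq_mul, LinearMap.neg_apply, map_neg]
          ring
        simp only [LinearMap.add_apply, LinearMap.smul_apply, LinearMap.id_apply, map_add,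
          map_smul, smul_eq_mul]
        rw [f1, f3, f4]
        have haw2 : a ^ 2 - w = 2 * a * v 0 := by
          have : q = v 0 ^ 2 + w := by rw [hq, hw]; ring
          rw [ha]
          nlinarith [hρ2]
        linear_combination (g (J 0 x) y) * haw2
      simp only [LinearMap.smul_apply, map_smul, smul_eq_mul]
      have e5 : ∀ z : ℝ, (Real.sqrt (2 * a))⁻¹ * ((Real.sqrt (2 * a))⁻¹ * z) = (2 * a)⁻¹ * z := by
        intro z; rw [← mul_assoc, e]
      rw [e5, e1, ← mul_assoc, inv_mul_cancel₀ h2a.ne', one_mul]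

end Trip

end Crest.Agent.R281.Fuj1_358
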