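import Mathlib

/-!
# Row 281, HK-ALG (helper799): pointwise hyperkaehler algebra, part 1

`V` a finite dimensional real normed space, `Bil V` the bilinear forms.

* `Nat I`   : a functional `I` of `N` bilinear forms is natural: `I (T^* w) = det T * I w`
              (the top degree product of `N` two-forms on a space of real dimension `2 N`);
* `Trip V`  : a quaternionic triple `J 0, J 1, J 2` with an invariant symmetric form `g`;
* `Trip.om` : the three forms `om k u v = g (J k u) v`, `Trip.omv a = ∑ a k • om k`;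
* `Trip.rot`: `I (omv a, …, omv a) = |a| ^ N * I (om 0, …, om 0)`.
-/

set_option autoImplicit false
set_option linter.unusedSectionVars false

namespace Crest.Agent.R281.HKA_799

noncomputable section

/-- bilinear forms -/
abbrev Bil (V : Type*) [NormedAddCommGroup V] [NormedSpace ℝ V] := V →L[ℝ] V →L[ℝ] ℝ

variable {V : Type*} [NormedAddCommGroup V] [NormedSpace ℝ V]

/-- naturality of a functional of `N` bilinear forms: `I (T^* w) = det T * I w` -/
def Nat {N : ℕ} (I : (Fin N → Bil V) → ℝ) : Prop :=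
  ∀ (T : V →L[ℝ] V) (w w' : Fin N → Bil V), (∀ k u v, w' k u v = w k (T u) (T v)) →
    I w' = LinearMap.det (T : V →ₗ[ℝ] V) * I w

/-- a quaternionic triple with an invariant symmetric form -/
structure Trip (V : Type*) [NormedAddCommGroup V] [NormedSpace ℝ V] where
  g : Bil V
  J : Fin 3 → V →L[ℝ] V
  symm : ∀ u v, g u v = g v u
  sq0 : ∀ u, J 0 (J 0 u) = -u
  sq1 : ∀ u, J 1 (J 1 u) = -u
  m01 : ∀ u, J 0 (J 1 u) = J 2 u
  m10 : ∀ u, J 1 (J 0 u) = -J 2 u
  inv : ∀ k u v, g (J k u) (J k v) = g u v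

/-! ### complex structures have determinant one -/

theorem det_of_sq [FiniteDimensional ℝ V] {J : V →L[ℝ] V} (hJ : ∀ u, J (J u) = -u) {N : ℕ}
    (hN : Module.finrank ℝ V = 2 * N) : LinearMap.det (J : V →ₗ[ℝ] V) = 1 := by
  set j : V →ₗ[ℝ] V := (J : V →ₗ[ℝ] V) with hj
  have hjj : ∀ u, j (j u) = -u := hJ
  have h1 : j * j = (-1 : ℝ) • (1 : V →ₗ[ℝ] V) := by
    ext u
    simp [hjj]
  have h2 : LinearMap.det j * LinearMap.det j = 1 := by
    rw [← map_mul, h1, LinearMap.det_smul, hN, map_one, mul_one, pow_mul]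
    norm_num
  set r : V →ₗ[ℝ] V := 1 + j with hr
  have h3 : r * r = (2 : ℝ) • j := by
    ext u
    simp only [hr, Module.End.mul_apply, LinearMap.add_apply, Module.End.one_apply, map_add, hjj,
      LinearMap.smul_apply]
    module
  have h4 : 0 ≤ LinearMap.det j := by
    have h5 : LinearMap.det r * LinearMap.det r = 2 ^ (2 * N) * LinearMap.det j := by
      rw [← map_mul, h3, LinearMap.det_smul, hN]
    have h6 : 0 ≤ 2 ^ (2 * N) * LinearMap.det j := h5 ▸ mul_self_nonneg _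
    exact nonneg_of_mul_nonneg_right h6 (by positivity)
  nlinarith [h2, h4]

namespace Trip

variable (H : Trip V)

/-- the three forms -/
def om (k : Fin 3) : Bil V := H.g.comp (H.J k)

@[simp] theorem om_apply (k : Fin 3) (u v : V) : H.om k u v = H.g (H.J k u) v := rfl

/-- the form attached to a vector of `ℝ³` -/
def omv (a : Fin 3 → ℝ) : Bil V := ∑ k, a k • H.om k

theorem omv_apply (a : Fin 3 → ℝ) (u v : V) :
    H.omv a u v = a 0 * H.g (H.J 0 u) v + a 1 * H.g (H.J 1 u) v + a 2 * H.g (H.J 2 u) v := by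
  simp [omv, Fin.sum_univ_three]

theorem omv_single : H.omv ![1, 0, 0] = H.om 0 := by
  ext u v
  simp [omv_apply]

/-- the endomorphism attached to a vector of `ℝ³` -/
def Jv (a : Fin 3 → ℝ) : V →L[ℝ] V := ∑ k, a k • H.J k

theorem Jv_apply (a : Fin 3 → ℝ) (u : V) :
    H.Jv a u = a 0 • H.J 0 u + a 1 • H.J 1 u + a 2 • H.J 2 u := by
  simp [Jv, Fin.sum_univ_three]

theorem m02 (u : V) : H.J 0 (H.J 2 u) = -H.J 1 u := by
  rw [← H.m01, H.sq0]

theorem m20 (u : V) : H.J 2 (H.J 0 u) = H.J 1 u := by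
  have h := H.m10 (H.J 0 u)
  rw [H.sq0, map_neg] at h
  rw [← neg_eq_iff_eq_neg.2 h]
  simp

theorem m12 (u : V) : H.J 1 (H.J 2 u) = H.J 0 u := by
  have h : H.J 2 u = -H.J 1 (H.J 0 u) := by rw [H.m10, neg_neg]
  rw [h, map_neg, H.sq1, neg_neg]

theorem m21 (u : V) : H.J 2 (H.J 1 u) = -H.J 0 u := by
  rw [← H.m01, H.sq1, map_neg]

theorem sq2 (u : V) : H.J 2 (H.J 2 u) = -u := by
  rw [← H.m01 (H.J 2 u), H.m12, H.sq0]

theorem omv_eq (a : Fin 3 → ℝ) (u v : V) : H.omv a u v = H.g (H.Jv a u) v := by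
  simp [omv_apply, Jv_apply]

theorem skew (k : Fin 3) (u v : V) : H.g (H.J k u) v = -H.g u (H.J k v) := by
  have h1 := H.inv k u (H.J k v)
  have h2 : H.J k (H.J k v) = -v := by
    fin_cases k
    · exact H.sq0 v
    · exact H.sq1 v
    · exact H.sq2 v
  rw [h2, map_neg] at h1
  linarith

theorem Jv_skew (a : Fin 3 → ℝ) (u v : V) : H.g (H.Jv a u) v = -H.g u (H.Jv a v) := by
  have h0 := H.skew 0 u v
  have h1 := H.skew 1 u v
  have h2 := H.skew 2 u v
  simp only [Jv_apply, map_add, map_smul, _root_.add_apply,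
    _root_.smul_apply, smul_eq_mul, h0, h1, h2]
  ring

theorem Jv_Jv (a : Fin 3 → ℝ) (u : V) :
    H.Jv a (H.Jv a u) = -(a 0 ^ 2 + a 1 ^ 2 + a 2 ^ 2) • u := by
  simp only [Jv_apply, map_add, map_smul, H.sq0, H.sq1, H.sq2, H.m01, H.m10, H.m02, H.m20, H.m12,
    H.m21]
  module

/-- conjugation of `J 0` by a pure quaternion -/
theorem Jv_conj (u : Fin 3 → ℝ) (x : V) :
    H.Jv u (H.J 0 (H.Jv u x)) = H.Jv ![u 0 ^ 2 * (-1) + u 1 ^ 2 + u 2 ^ 2, -2 * u 0 * u 1,
      -2 * u 0 * u 2] x := by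
  simp only [Jv_apply, map_add, map_smul, H.sq0, H.sq1, H.sq2, H.m01, H.m10, H.m02, H.m20, H.m12,
    H.m21, map_neg, Matrix.cons_val_zero, Matrix.cons_val_one, Matrix.cons_val]
  module

/-- pull back of `om 0` by `Jv u` -/
theorem om0_Jv (u : Fin 3 → ℝ) (x y : V) :
    H.om 0 (H.Jv u x) (H.Jv u y) =
      H.omv ![u 0 ^ 2 - u 1 ^ 2 - u 2 ^ 2, 2 * u 0 * u 1, 2 * u 0 * u 2] x y := by
  rw [om_apply, ← neg_eq_iff_eq_neg.2 (H.Jv_skew u (H.J 0 (H.Jv u x)) y), Jv_conj, omv_eq,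
    Jv_apply, Jv_apply]
  simp only [Matrix.cons_val_zero, Matrix.cons_val_one, Matrix.cons_val, map_add, map_smul,
    ContinuousLinearMap.add_apply, ContinuousLinearMap.smul_apply, smul_eq_mul]
  ring

/-- determinant of `Jv u` -/
theorem det_Jv [FiniteDimensional ℝ V] {N : ℕ} (hN : Module.finrank ℝ V = 2 * N)
    (u : Fin 3 → ℝ) :
    LinearMap.det (H.Jv u : V →ₗ[ℝ] V) = (u 0 ^ 2 + u 1 ^ 2 + u 2 ^ 2) ^ N := by
  set s := u 0 ^ 2 + u 1 ^ 2 + u 2 ^ 2 with hs
  have hs0 : 0 ≤ s := by positivity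
  rcases hs0.eq_or_lt with h | h
  · -- `u = 0`
    have h0 : u 0 = 0 := by nlinarith [sq_nonneg (u 0), sq_nonneg (u 1), sq_nonneg (u 2)]
    have h1 : u 1 = 0 := by nlinarith [sq_nonneg (u 0), sq_nonneg (u 1), sq_nonneg (u 2)]
    have h2 : u 2 = 0 := by nlinarith [sq_nonneg (u 0), sq_nonneg (u 1), sq_nonneg (u 2)]
    have h3 : (H.Jv u : V →ₗ[ℝ] V) = (0 : ℝ) • (1 : V →ₗ[ℝ] V) := by
      ext x
      simp [Jv_apply, h0, h1, h2]
    rw [h3, LinearMap.det_smul, hN, map_one, mul_one, ← h, pow_mul]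
    norm_num
  · set t := Real.sqrt s with ht
    have ht0 : 0 < t := Real.sqrt_pos.2 h
    have hts : t * t = s := Real.mul_self_sqrt hs0
    set J' : V →L[ℝ] V := t⁻¹ • H.Jv u with hJ'
    have hJJ : ∀ x, J' (J' x) = -x := by
      intro x
      simp only [hJ', ContinuousLinearMap.smul_apply, map_smul, H.Jv_Jv, smul_smul]
      rw [← hs]
      have : t⁻¹ * (t⁻¹ * -s) = -1 := by
        rw [← hts]
        field_simp
      rw [this, neg_one_smul]
    have h1 := det_of_sq hJJ hN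
    have h2 : (H.Jv u : V →ₗ[ℝ] V) = t • (J' : V →ₗ[ℝ] V) := by
      ext x
      simp [hJ', smul_smul, mul_inv_cancel₀ ht0.ne']
    rw [h2, LinearMap.det_smul, h1, mul_one, hN, pow_mul, sq, hts]

/-- **rotation**: the top power of `omv a` -/
theorem rot [FiniteDimensional ℝ V] {N : ℕ} (hN : Module.finrank ℝ V = 2 * N)
    {I : (Fin N → Bil V) → ℝ} (hI : Nat I) (a : Fin 3 → ℝ) :
    I (fun _ => H.omv a) =
      Real.sqrt (a 0 ^ 2 + a 1 ^ 2 + a 2 ^ 2) ^ N * I (fun _ => H.om 0) := by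
  set s := Real.sqrt (a 0 ^ 2 + a 1 ^ 2 + a 2 ^ 2) with hs
  have hs0 : 0 ≤ s := Real.sqrt_nonneg _
  have hss : s * s = a 0 ^ 2 + a 1 ^ 2 + a 2 ^ 2 := Real.mul_self_sqrt (by positivity)
  -- `a 0 ≥ -s`
  have ha0 : -s ≤ a 0 := by
    have : |a 0| ≤ s := by
      rw [← Real.sqrt_sq_eq_abs]
      exact Real.sqrt_le_sqrt (by nlinarith [sq_nonneg (a 1), sq_nonneg (a 2)])
    linarith [neg_abs_le (a 0)]
  rcases ha0.eq_or_lt with h | h
  · -- `a = -s e_0`
    have h1 : a 1 = 0 := by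
      have : a 0 ^ 2 = s * s := by rw [← h]; ring
      nlinarith [sq_nonneg (a 1), sq_nonneg (a 2)]
    have h2 : a 2 = 0 := by
      have : a 0 ^ 2 = s * s := by rw [← h]; ring
      nlinarith [sq_nonneg (a 1), sq_nonneg (a 2)]
    set t := Real.sqrt s with ht
    have htt : t * t = s := Real.mul_self_sqrt hs0
    have key := hI (H.Jv ![0, t, 0]) (fun _ => H.om 0) (fun _ => H.omv a) (by
      intro _ u v
      rw [om0_Jv, omv_apply, omv_apply]
      simp only [Matrix.cons_val_zero, Matrix.cons_val_one, Matrix.cons_val, h1, h2]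
      rw [← h, ← htt]
      ring)
    rw [key, H.det_Jv hN]
    congr 2
    simp only [Matrix.cons_val_zero, Matrix.cons_val_one, Matrix.cons_val]
    rw [← htt]
    ring
  · -- general case: `u = c (a + s e_0)`, `c = 1 / sqrt (2 (s + a 0))`
    have hp : 0 < 2 * (s + a 0) := by linarith
    set c := (Real.sqrt (2 * (s + a 0)))⁻¹ with hc
    have hcc : c * c * (2 * (s + a 0)) = 1 := by
      have := Real.mul_self_sqrt hp.le
      rw [hc]
      have h0 : Real.sqrt (2 * (s + a 0)) ≠ 0 := (Real.sqrt_pos.2 hp).ne'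
      field_simp
      rw [sq, this]
    have key := hI (H.Jv ![c * (a 0 + s), c * a 1, c * a 2]) (fun _ => H.om 0)
      (fun _ => H.omv a) (by
      intro _ u v
      rw [om0_Jv, omv_apply, omv_apply]
      simp only [Matrix.cons_val_zero, Matrix.cons_val_one, Matrix.cons_val]
      have e0 : (c * (a 0 + s)) ^ 2 - (c * a 1) ^ 2 - (c * a 2) ^ 2 = a 0 := by
        have : (c * (a 0 + s)) ^ 2 - (c * a 1) ^ 2 - (c * a 2) ^ 2 =
            c * c * (2 * (s + a 0)) * a 0 := by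
          linear_combination (c * c) * hss
        rw [this, hcc, one_mul]
      have e1 : 2 * (c * (a 0 + s)) * (c * a 1) = a 1 := by
        linear_combination (a 1) * hcc
      have e2 : 2 * (c * (a 0 + s)) * (c * a 2) = a 2 := by
        linear_combination (a 2) * hcc
      rw [e0, e1, e2])
    rw [key, H.det_Jv hN]
    congr 2
    simp only [Matrix.cons_val_zero, Matrix.cons_val_one, Matrix.cons_val]
    linear_combination s * hcc - (c * c) * hss

/-- rotation, `N = 2 ν` -/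
theorem rot2 [FiniteDimensional ℝ V] {ν : ℕ} (hN : Module.finrank ℝ V = 2 * (2 * ν))
    {I : (Fin (2 * ν) → Bil V) → ℝ} (hI : Nat I) (a : Fin 3 → ℝ) :
    I (fun _ => H.omv a) = (a 0 ^ 2 + a 1 ^ 2 + a 2 ^ 2) ^ ν * I (fun _ => H.om 0) := by
  rw [H.rot hN hI, pow_mul, Real.sq_sqrt (by positivity)]

end Trip

end

end Crest.Agent.R281.HKA_799
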