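import Crest.Agent.R281.Ti2_846
import Crest.Agent.R281.HkR3_835

/-!
# Row 281, TOPINT, part 3 (helper846): the intersection form on closed real 2-forms

* `TopF.of b w`  : the top form `w₁ ∧ … ∧ w_N` (index type `K`, `b : Basis (K × Fin 2) ℝ V`)
* `II μ b P w`   : its integral; `II_perm`, `II_add`, `II_smul`, `II_part`, `II_cmp`
* `F1 C`, `Ex w` : real 1-forms, exactness
* `II_ex`        : **Stokes**: `II = 0` if one factor is exact
* `IM`           : `II` as a symmetric multilinear map
-/

set_option autoImplicit false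
set_option linter.unusedSectionVars false

open Set Filter Topology MeasureTheory
open scoped ContDiff

namespace Crest.Agent.R281.Ti_846

open Crest.Agent.R281.HkR_835 Equiv

noncomputable section

variable {V X : Type} [NormedAddCommGroup V] [NormedSpace ℝ V] [FiniteDimensional ℝ V]
  [MeasurableSpace V] [BorelSpace V] (μ : Measure V) [μ.IsAddHaarMeasure] [TopologicalSpace X]
  {K : Type} [Fintype K] [DecidableEq K] {C C' : RCh V X}

/-- the top form `w₁ ∧ … ∧ w_N` -/
def TopF.of (b : Module.Basis (K × Fin 2) ℝ V) (w : K → F2 C) : TopF C where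
  D i z := TP b fun k => (w k).w i z
  cont i := by
    unfold TP
    refine continuousOn_finsetSum _ fun σ _ => continuousOn_const.mul
      (continuousOn_finsetProd _ fun k _ => ?_)
    exact ((((w k).sm i).continuousOn).clm_apply continuousOn_const).clm_apply continuousOn_const
  tr i j z hz := TP_comp' b (fderiv ℝ (C.t i j) z) fun k u v => (w k).tr i j z hz u v

@[simp] theorem TopF.of_D (b : Module.Basis (K × Fin 2) ℝ V) (w : K → F2 C) (i : C.ι) (z : V) :
    (TopF.of b w).D i z = TP b fun k => (w k).w i z := rfl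

/-- `∫_X w₁ ∧ … ∧ w_N` -/
def II (b : Module.Basis (K × Fin 2) ℝ V) (P : RPart C) (w : K → F2 C) : ℝ :=
  intT μ P (TopF.of b w)

/-- real 1-forms -/
@[ext] structure F1 (C : RCh V X) where
  η : C.ι → V → (V →L[ℝ] ℝ)
  sm : ∀ i, ContDiffOn ℝ ∞ (η i) (C.e i).target
  tr : ∀ i j, ∀ z ∈ C.ov i j, ∀ v, η i z v = η j (C.t i j z) (fderiv ℝ (C.t i j) z v)

/-- the differential of a field of 1-forms, as a bilinear form -/
def d1 (f : V → (V →L[ℝ] ℝ)) (z : V) : Bil V := fderiv ℝ f z - (fderiv ℝ f z).flip

@[simp] theorem d1_apply (f : V → (V →L[ℝ] ℝ)) (z u v : V) :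
    d1 f z u v = fderiv ℝ f z u v - fderiv ℝ f z v u := rfl

/-- `w = dη` -/
def IsD (w : F2 C) (η : F1 C) : Prop := ∀ i, ∀ z ∈ (C.e i).target, ∀ u v,
  w.w i z u v = fderiv ℝ (η.η i) z u v - fderiv ℝ (η.η i) z v u

/-- exact 2-forms -/
def Ex (w : F2 C) : Prop := ∃ η : F1 C, IsD w η

theorem F1.diffAt (η : F1 C) {i : C.ι} {z : V} (hz : z ∈ (C.e i).target) :
    DifferentiableAt ℝ (η.η i) z :=
  ((η.sm i).contDiffAt ((C.e i).open_target.mem_nhds hz)).differentiableAt (by simp)

/-- derivative of `z ↦ f z v` -/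
theorem fderiv_ap1 {f : V → (V →L[ℝ] ℝ)} {z : V} (hf : DifferentiableAt ℝ f z) (v a : V) :
    fderiv ℝ (fun y => f y v) z a = fderiv ℝ f z a v := by
  rw [(hf.hasFDerivAt.clm_apply (hasFDerivAt_const v z)).fderiv]
  simp

theorem symm2 {W : Type*} [NormedAddCommGroup W] [NormedSpace ℝ W] {f : V → W} {z : V}
    (hf : ContDiffAt ℝ ∞ f z) (a b : V) :
    fderiv ℝ (fderiv ℝ f) z a b = fderiv ℝ (fderiv ℝ f) z b a :=
  (hf.isSymmSndFDerivAt (by
      rw [minSmoothness_of_isRCLikeNormedField]; exact WithTop.coe_le_coe.2 le_top)) a b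

theorem sm' (η : F1 C) (i : C.ι) : ContDiffOn ℝ ∞ (d1 (η.η i)) (C.e i).target := by
    have h1 : ContDiffOn ℝ ∞ (fderiv ℝ (η.η i)) (C.e i).target :=
      (η.sm i).fderiv_of_isOpen (C.e i).open_target (by simp)
    have h2 : ContDiff ℝ ∞ (fun T : V →L[ℝ] V →L[ℝ] ℝ => T - T.flip) := by
      have : (fun T : V →L[ℝ] V →L[ℝ] ℝ => T - T.flip) =
        fun T => T - ContinuousLinearMap.flipₗᵢ ℝ V V ℝ T := rfl
      rw [this]
      fun_prop
    exact h2.comp_contDiffOn h1

/-- the differential of a real 1-form -/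
def F1.d (η : F1 C) : F2 C where
  w i := d1 (η.η i)
  sm i := sm' η i
  alt i z _ u v := by simp
  tr i j z hz u v := by
    have hz' := (RCh.t_mem hz).1
    have h1 : (η.η i) =ᶠ[𝓝 z] fun y => (η.η j (C.t i j y)).comp (fderiv ℝ (C.t i j) y) := by
      filter_upwards [(RCh.isOpen_ov i j).mem_nhds hz] with y hy
      ext v
      exact η.tr i j y hy v
    have ht : ContDiffAt ℝ ∞ (C.t i j) z :=
      (RCh.t_smooth i j).contDiffAt ((RCh.isOpen_ov i j).mem_nhds hz)
    have ht' : DifferentiableAt ℝ (fderiv ℝ (C.t i j)) z :=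
      (((RCh.t_smooth i j).fderiv_of_isOpen (RCh.isOpen_ov i j) (m := ∞) (by simp)).contDiffAt
        ((RCh.isOpen_ov i j).mem_nhds hz)).differentiableAt (by simp)
    have h2 : HasFDerivAt (fun y => η.η j (C.t i j y))
        ((fderiv ℝ (η.η j) (C.t i j z)).comp (fderiv ℝ (C.t i j) z)) z :=
      HasFDerivAt.comp (g := η.η j) (f := C.t i j) z (η.diffAt hz').hasFDerivAt
        (RCh.t_diff hz).hasFDerivAt
    have h3 := h2.clm_comp ht'.hasFDerivAt
    have h4 : ∀ a c, fderiv ℝ (η.η i) z a c =
        fderiv ℝ (η.η j) (C.t i j z) (fderiv ℝ (C.t i j) z a) (fderiv ℝ (C.t i j) z c) +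
          η.η j (C.t i j z) (fderiv ℝ (fderiv ℝ (C.t i j)) z a c) := by
      intro a c
      rw [h1.fderiv_eq, h3.fderiv]
      simp [add_comm]
    rw [d1_apply, d1_apply, h4, h4, symm2 ht u v]
    ring
  closed i z hz a b c := by
    have h0 : ContDiffAt ℝ ∞ (η.η i) z := (η.sm i).contDiffAt ((C.e i).open_target.mem_nhds hz)
    have h1 : DifferentiableAt ℝ (fderiv ℝ (η.η i)) z :=
      (((η.sm i).fderiv_of_isOpen (C.e i).open_target (m := ∞) (by simp)).contDiffAt
        ((C.e i).open_target.mem_nhds hz)).differentiableAt (by simp)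
    have h2 : ∀ p q r, fderiv ℝ (d1 (η.η i)) z p q r =
        fderiv ℝ (fderiv ℝ (η.η i)) z p q r - fderiv ℝ (fderiv ℝ (η.η i)) z p r q := by
      intro p q r
      have g1 : HasFDerivAt (fun y => fderiv ℝ (η.η i) y q) _ z :=
        h1.hasFDerivAt.clm_apply (hasFDerivAt_const q z)
      have g2 : HasFDerivAt (fun y => fderiv ℝ (η.η i) y r) _ z :=
        h1.hasFDerivAt.clm_apply (hasFDerivAt_const r z)
      have g3 := (g1.clm_apply (hasFDerivAt_const r z)).sub (g2.clm_apply (hasFDerivAt_const q z))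
      have g4 : DifferentiableAt ℝ (d1 (η.η i)) z :=
        ((sm' η i).contDiffAt ((C.e i).open_target.mem_nhds hz)).differentiableAt (by simp)
      rw [← fderiv_app g4]
      have g5 : (fun y => d1 (η.η i) y q r) =
        (fun y => fderiv ℝ (η.η i) y q r) - fun y => fderiv ℝ (η.η i) y r q := rfl
      rw [g5, g3.fderiv]
      simp
    rw [h2, h2, h2, symm2 h0 a b, symm2 h0 b c, symm2 h0 a c]
    ring

@[simp] theorem F1.d_w (η : F1 C) (i : C.ι) (z u v : V) :
    η.d.w i z u v = fderiv ℝ (η.η i) z u v - fderiv ℝ (η.η i) z v u := rfl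

theorem F1.isD (η : F1 C) : IsD η.d η := fun _ _ _ _ _ => rfl

/-- multiplication by a smooth function -/
def F1.smul (f : X → ℝ) (hf : ∀ i, ContDiffOn ℝ ∞ (fun z => f ((C.e i).symm z)) (C.e i).target)
    (η : F1 C) : F1 C where
  η i z := f ((C.e i).symm z) • η.η i z
  sm i := (hf i).smul (η.sm i)
  tr i j z hz v := by
    have h1 : (C.e j).symm (C.t i j z) = (C.e i).symm z := (C.e j).left_inv hz.2
    rw [smul_apply, smul_apply, η.tr i j z hz, h1]

section algebra

variable [CompactSpace X] (b : Module.Basis (K × Fin 2) ℝ V) (P : RPart C)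

theorem II_congr {w w' : K → F2 C} (h : ∀ k i, ∀ z ∈ (C.e i).target, ∀ u v,
    (w k).w i z u v = (w' k).w i z u v) : II μ b P w = II μ b P w' :=
  intT_congr μ P fun i z hz => TP_congr fun k u v => h k i z hz u v

theorem II_part (h : Ori C) (P' : RPart C) (w : K → F2 C) : II μ b P w = II μ b P' w :=
  intT_part μ h P P' _

/-- symmetry -/
theorem II_perm (w : K → F2 C) (π : Perm K) : II μ b P (fun k => w (π k)) = II μ b P w :=
  intT_congr μ P fun i z _ => TP_perm b (fun k => (w k).w i z) π

/-- multilinearity -/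
theorem II_lin (w : K → F2 C) (k : K) {n : ℕ} (a : Fin n → ℝ) (v : Fin n → F2 C) :
    II μ b P (Function.update w k (F2.lin a v)) =
      ∑ l, a l * II μ b P (Function.update w k (v l)) := by
  refine intT_sum μ P Finset.univ a (fun l => TopF.of b (Function.update w k (v l))) _
    fun i z hz => ?_
  have h1 : ∀ u : F2 C, (TopF.of b (Function.update w k u)).D i z =
      TP b (Function.update (fun l => (w l).w i z) k (u.w i z)) := by
    intro u
    rw [TopF.of_D]
    congr 1
    funext l
    by_cases hl : l = k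
    · subst hl
      rw [Function.update_self, Function.update_self]
    · rw [Function.update_of_ne hl, Function.update_of_ne hl]
  simp only [h1]
  have h2 : (F2.lin a v).w i z = ∑ l, a l • (v l).w i z := rfl
  rw [h2]
  have h3 : ∀ s : Finset (Fin n), TP b (Function.update (fun l => (w l).w i z) k
      (∑ l ∈ s, a l • (v l).w i z)) =
      ∑ l ∈ s, a l * TP b (Function.update (fun l => (w l).w i z) k ((v l).w i z)) := by
    intro s
    induction s using Finset.induction_on with
    | empty =>
      rw [Finset.sum_empty, Finset.sum_empty]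
      have := TP_update_smul b (fun l => (w l).w i z) k (0 : ℝ) (0 : Bil V)
      have e0 : (0 : ℝ) • (0 : Bil V) = 0 := by ext u v; simp
      rwa [e0, zero_mul] at this
    | insert l s hl ih =>
      rw [Finset.sum_insert hl, Finset.sum_insert hl, TP_update_add, TP_update_smul, ih]
  exact h3 _

end algebra

/-! ### change of charts -/

/-- orientation preserving compatible systems of charts -/
def OriM (C C' : RCh V X) : Prop :=
  ∀ i j, ∀ z ∈ mov C C' i j, 0 < (fderiv ℝ (mt C C' i j) z).det

variable [CompactSpace X]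

/-- **independence of the system of charts** -/
theorem II_cmp (b : Module.Basis (K × Fin 2) ℝ V) (h : Cmp C C') (ho : OriM C C') (P : RPart C)
    (P' : RPart C') (w : K → F2 C) : II μ b P' (fun k => h.F (w k)) = II μ b P w := by
  refine intT_indep μ (fun j i => ⟨h.s i j, ho i j⟩) P' P _ _ fun j i z hz => ?_
  rw [TopF.of_D, TopF.of_D]
  exact TP_comp' b (fderiv ℝ (mt C C' i j) z) fun k u v => h.F_w (w k) hz u v

/-- top forms which agree in compatible charts have the same integral -/
theorem II_eq (b : Module.Basis (K × Fin 2) ℝ V) (h : OriC C C') (P : RPart C)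
    (P' : RPart C') {w : K → F2 C} {w' : K → F2 C'}
    (hw : ∀ k i j, ∀ z ∈ ovc (C.e i) (C'.e j), ∀ u v, (w k).w i z u v =
      (w' k).w j (C'.e j ((C.e i).symm z))
        (fderiv ℝ (fun z => C'.e j ((C.e i).symm z)) z u)
        (fderiv ℝ (fun z => C'.e j ((C.e i).symm z)) z v)) : II μ b P w = II μ b P' w' := by
  refine intT_indep μ h P P' _ _ fun i j z hz => ?_
  rw [TopF.of_D, TopF.of_D]
  exact TP_comp' b (fderiv ℝ (fun z => C'.e j ((C.e i).symm z)) z) fun k u v => hw k i j z hz u v

/-! ### Stokes -/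

section stokes

/-- divergence theorem in a chart -/
theorem int_fderiv_zero {f : V → ℝ} (hf : ContDiff ℝ 1 f) (hc : HasCompactSupport f) (v : V) :
    ∫ z, fderiv ℝ f z v ∂μ = 0 := by
  have h1 : Integrable (fun z => fderiv ℝ f z v) μ := by
    have h2 : Continuous fun z => fderiv ℝ f z v :=
      (hf.continuous_fderiv (by norm_num)).clm_apply continuous_const
    refine h2.integrable_of_hasCompactSupport ?_
    exact (hc.fderiv ℝ).comp_left (g := fun T : V →L[ℝ] ℝ => T v) (by simp)
  have h3 := integral_mul_fderiv_eq_neg_fderiv_mul_of_integrable (μ := μ) (𝕜 := ℝ)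
    (f := fun _ : V => (1 : ℝ)) (g := f) (v := v) (by simp) (by simpa using h1)
    (by simpa using hf.continuous.integrable_of_hasCompactSupport hc)
    (fun x _ => differentiableAt_const _) (fun x _ => hf.differentiable (by norm_num) x)
  simpa using h3

end stokes

end

end Crest.Agent.R281.Ti_846
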