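import Crest.Agent.R281.Fuj1_207
import Crest.Agent.R281.HKA1_799
import Crest.Agent.R281.Ti3_846
import Crest.Agent.R281.F2Mod_358

/-!
# Row 281, FUJ-INT, part 2 (helper207): the intersection form and hyperkaehler triples

* `IML μ b P` : the intersection form `II` of 846 as a symmetric multilinear map on `F2 C`
* `IML_hk`    : `∫ (a ω₀ + b ω₁ + c ω₂)^{2ν} = (a² + b² + c²)^ν ∫ ω₀^{2ν}` for a triple `H : HkT C`
-/

set_option autoImplicit false
set_option linter.unusedSectionVars false
set_option maxSynthPendingDepth 3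

open Set Filter Topology MeasureTheory
open scoped ContDiff

namespace Crest.Agent.R281.Fuj2_207

open Crest.Agent.R281.HkR_835 Crest.Agent.R281.Ti_846 Crest.Agent.R281.Fuj1_207
open Crest.Agent.R281.FujP_513 (Symm)
open Crest.Agent.R281.HKA_799 (Nat Trip)

noncomputable section

variable {V X : Type} [NormedAddCommGroup V] [NormedSpace ℝ V] [FiniteDimensional ℝ V]
  [MeasurableSpace V] [BorelSpace V] (μ : Measure V) [μ.IsAddHaarMeasure] [TopologicalSpace X]
  [CompactSpace X] {C : RCh V X}

section ml

variable {N : ℕ} (b : Module.Basis (Fin N × Fin 2) ℝ V) (P : RPart C)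

/-- the intersection form as a multilinear map -/
def IML : MultilinearMap ℝ (fun _ : Fin N => F2 C) ℝ where
  toFun w := II μ b P w
  map_update_add' {D} w k x y := by
    obtain rfl : D = fun a b => instDecidableEqFin N a b := Subsingleton.elim _ _
    have h1 : x + y = F2.lin ![1, 1] ![x, y] := by
      rw [F2.lin_eq, Fin.sum_univ_two]
      simp
    have h2 := II_lin μ b P w k ![1, 1] ![x, y]
    rw [Fin.sum_univ_two] at h2
    simpa [← h1] using h2
  map_update_smul' {D} w k c x := by
    obtain rfl : D = fun a b => instDecidableEqFin N a b := Subsingleton.elim _ _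
    have h1 : c • x = F2.lin ![c] ![x] := by
      rw [F2.lin_eq, Fin.sum_univ_one]
      simp
    have h2 := II_lin μ b P w k ![c] ![x]
    rw [Fin.sum_univ_one] at h2
    simpa [← h1] using h2

@[simp] theorem IML_apply (w : Fin N → F2 C) : IML μ b P w = II μ b P w := rfl

theorem IML_symm : Symm (IML μ b P) := fun σ v => II_perm μ b P v σ

end ml

section hk

variable {ν : ℕ} (b : Module.Basis (Fin (2 * ν) × Fin 2) ℝ V) (P : RPart C)

/-- the triple at a point -/
def trip (H : HkT C) (i : C.ι) (z : V) (hz : z ∈ (C.e i).target) : Trip V where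
  g := H.g i z
  J k := H.J k i z
  symm := H.g_symm i z hz
  sq0 := H.J_sq 0 i z hz
  sq1 := H.J_sq 1 i z hz
  m01 := H.J_01 i z hz
  m10 := H.J_10 hz
  inv k := H.g_J k hz

omit [FiniteDimensional ℝ V] [MeasurableSpace V] [BorelSpace V] in
theorem nat_TP : Nat (fun w : Fin (2 * ν) → HKA_799.Bil V => TP b w) := fun T _ _ h =>
  TP_comp' b T h

/-- **the top power on the span of a hyperkaehler triple** -/
theorem IML_hk (H : HkT C) (a c d : ℝ) :
    IML μ b P (fun _ => a • H.om 0 + c • H.om 1 + d • H.om 2) =
      (a ^ 2 + c ^ 2 + d ^ 2) ^ ν * IML μ b P (fun _ => H.om 0) := by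
  have hfin : Module.finrank ℝ V = 2 * (2 * ν) := by
    rw [Module.finrank_eq_card_basis b]
    simp [mul_comm]
  have h1 := intT_sum μ P (Finset.univ : Finset (Fin 1)) (fun _ => (a ^ 2 + c ^ 2 + d ^ 2) ^ ν)
    (fun _ => TopF.of b (fun _ => H.om 0))
    (TopF.of b (fun _ => a • H.om 0 + c • H.om 1 + d • H.om 2)) (fun i z hz => by
      rw [Fin.sum_univ_one, TopF.of_D, TopF.of_D]
      have h2 := (trip H i z hz).rot2 hfin (nat_TP b) ![a, c, d]
      have h3 : ∀ k, (trip H i z hz).om k = (H.om k).w i z := by
        intro k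
        ext u v
        rw [(H.om_eq k i z hz)]
        rfl
      have h4 : (trip H i z hz).omv ![a, c, d] =
          (a • H.om 0 + c • H.om 1 + d • H.om 2).w i z := by
        rw [Trip.omv, Fin.sum_univ_three, h3, h3, h3]
        rfl
      simp only [h4, h3] at h2
      exact h2)
  rw [Fin.sum_univ_one] at h1
  exact h1

end hk

end

end Crest.Agent.R281.Fuj2_207
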