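import Crest.Agent.R281.HkR6_835
import Crest.Agent.R281.Ti3_846
import Crest.Agent.R281.F2Mod_358
import Crest.Agent.R273.Vol_333

/-!
# Row 281, FUJ-INT, part 3 (helper207): `i ∂∂̄ u` is exact

* `dcF1 u` : the real 1-form `-¼ du(i ·)`
* `hess_dd`: `Re (i ∑ u_{a b̄} v_a conj w_b) = -¼ (D²u(v, i w) - D²u(w, i v))`
* `ex_hsf` : the 2-form of `hsf A u` is exact
* `ex_addK`: `K` and `K + i ∂∂̄ u` are cohomologous
-/

set_option autoImplicit false
set_option linter.unusedSectionVars false
set_option maxSynthPendingDepth 3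

open Set Filter Topology Complex
open scoped ContDiff Matrix ComplexConjugate ComplexOrder

namespace Crest.Agent.R281.Fuj3_207

open Crest.Agent.R275.Geo Crest.Agent.R275.Core144 Crest.Agent.R275.EDR890
open Crest.Agent.R273.Defs_333 Crest.Agent.R273.Kah_333 Crest.Agent.R273.Hess_333
open Crest.Agent.R273.Vol_333
open Crest.Agent.R281.HkR_835 Crest.Agent.R281.Ti_846

noncomputable section

variable {d : ℕ}

/-- `i ∂∂̄ u` in real terms -/
theorem hess_dd {u : Cn d → ℝ} {z : Cn d} (hu : ContDiffAt ℝ ∞ u z) (v w : Cn d) :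
    (I * hb (hess u z) v w).re =
      -(1 / 4) * (fderiv ℝ (fderiv ℝ u) z v (I • w) - fderiv ℝ (fderiv ℝ u) z w (I • v)) := by
  have hc := contDiffAt_cu hu
  have hsymm : fderiv ℝ (fderiv ℝ u) z w (I • v) = fderiv ℝ (fderiv ℝ u) z (I • v) w :=
    symm2 hu _ _
  have key : ((fderiv ℝ (fderiv ℝ u) z v (I • w) - fderiv ℝ (fderiv ℝ u) z (I • v) w : ℝ) : ℂ) =
      2 * I * (conj (hb (hess u z) v w) - hb (hess u z) v w) := by
    have h1 := fderiv2_cu hu v (I • w)
    have h2 := fderiv2_cu hu (I • v) w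
    rw [fderiv2_eq hc] at h1 h2
    rw [Complex.ofReal_sub, ← h1, ← h2, ← Finset.sum_sub_distrib]
    have h3 : ∀ r : WI d, (∑ s : WI d, ze r v * ze s (I • w) * wd r (wd s (cu u)) z) -
        (∑ s : WI d, ze r (I • v) * ze s w * wd r (wd s (cu u)) z) =
        (2 * cI r.1) * ∑ b, ze r v * ze (!r.1, b) w * wd r (wd (!r.1, b) (cu u)) z := by
      intro r
      obtain ⟨e, c⟩ := r
      rw [← Finset.sum_sub_distrib, sum_WI, Finset.mul_sum]
      cases e
      · simp only [Bool.not_false]
        have e1 : ∑ a, (ze (false, c) v * ze (false, a) (I • w) *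
            wd (false, c) (wd (false, a) (cu u)) z -
            ze (false, c) (I • v) * ze (false, a) w *
              wd (false, c) (wd (false, a) (cu u)) z) = 0 := by
          refine Finset.sum_eq_zero fun a _ => ?_
          simp only [ze_apply, cj_false, PiLp.smul_apply, smul_eq_mul]
          ring
        rw [e1, add_zero]
        refine Finset.sum_congr rfl fun a _ => ?_
        simp only [ze_apply, cj_false, cj_true, PiLp.smul_apply, smul_eq_mul, map_mul, conj_I,
          cI_false]
        ring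
      · simp only [Bool.not_true]
        have e1 : ∑ a, (ze (true, c) v * ze (true, a) (I • w) *
            wd (true, c) (wd (true, a) (cu u)) z -
            ze (true, c) (I • v) * ze (true, a) w *
              wd (true, c) (wd (true, a) (cu u)) z) = 0 := by
          refine Finset.sum_eq_zero fun a _ => ?_
          simp only [ze_apply, cj_true, PiLp.smul_apply, smul_eq_mul, map_mul, conj_I]
          ring
        rw [e1, zero_add]
        refine Finset.sum_congr rfl fun a _ => ?_
        simp only [ze_apply, cj_false, cj_true, PiLp.smul_apply, smul_eq_mul, map_mul, conj_I,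
          cI_true]
        ring
    rw [Finset.sum_congr rfl fun r _ => h3 r, sum_WI]
    simp only [Bool.not_true, Bool.not_false, ze_apply, cj_true, cj_false, cI_true, cI_false]
    have h4 : ∀ c : Fin d, ∑ b, conj (v c) * w b * wd (true, c) (wd (false, b) (cu u)) z =
        ∑ b, hess u z b c * w b * conj (v c) := by
      intro c
      refine Finset.sum_congr rfl fun b _ => ?_
      rw [wd_comm hc, hess_apply]
      ring
    have h5 : ∀ c : Fin d, ∑ b, v c * conj (w b) * wd (false, c) (wd (true, b) (cu u)) z =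
        ∑ b, hess u z c b * v c * conj (w b) := by
      intro c
      refine Finset.sum_congr rfl fun b _ => ?_
      rw [hess_apply]
      ring
    have h6 : hb (hess u z) w v = conj (hb (hess u z) v w) := (hb_conj (hess_herm hu) v w).symm
    have h7 : ∑ c, ∑ b, hess u z b c * w b * conj (v c) = hb (hess u z) w v := by
      rw [Finset.sum_comm]
      rfl
    have h8 : ∑ c, ∑ b, hess u z c b * v c * conj (w b) = hb (hess u z) v w := rfl
    simp only [h4, h5, ← Finset.mul_sum, h7, h8, h6]
    ring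
  rw [hsymm]
  set h := hb (hess u z) v w with hh
  have h9 := congrArg Complex.re key
  simp only [Complex.ofReal_re] at h9
  rw [h9]
  simp only [Complex.mul_re, Complex.mul_im, Complex.sub_re, Complex.sub_im, Complex.conj_re,
    Complex.conj_im, Complex.I_re, Complex.I_im, Complex.re_ofNat, Complex.im_ofNat]
  ring

variable {X : Type} [TopologicalSpace X] {A : Atl d X}

/-- the real 1-form `-¼ du(i ·)` -/
def dcF1 (u : X → ℝ) (hu : A.Sm u) : F1 (ofAtl A) where
  η i z := (-(1 / 4 : ℝ)) • (fderiv ℝ (fun y => u ((A.e i).symm y)) z).comp iL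
  sm i := by
    have h1 : ContDiffOn ℝ ∞ (fderiv ℝ fun y => u ((A.e i).symm y)) (A.e i).target :=
      ContDiffOn.fderiv_of_isOpen (hu i) (A.e i).open_target (by simp)
    exact (h1.clm_comp contDiffOn_const).const_smul _
  tr i j z hz v := by
    have h1 : (fun y => u ((A.e i).symm y)) =ᶠ[𝓝 z]
        fun y => u ((A.e j).symm ((ofAtl A).t i j y)) := by
      filter_upwards [(RCh.isOpen_ov (C := ofAtl A) i j).mem_nhds hz] with y hy
      congr 1
      exact ((A.e j).left_inv hy.2).symm
    have hz' : (ofAtl A).t i j z ∈ (A.e j).target := (RCh.t_mem hz).1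
    have h2 : DifferentiableAt ℝ (fun y => u ((A.e j).symm y)) ((ofAtl A).t i j z) :=
      (sm_contDiffAt hu j hz').differentiableAt (by simp)
    have h3 := (HasFDerivAt.comp (g := fun y => u ((A.e j).symm y)) (f := (ofAtl A).t i j) z
      h2.hasFDerivAt (RCh.t_diff hz).hasFDerivAt).fderiv
    have h4 : ((fun y => u ((A.e j).symm y)) ∘ (ofAtl A).t i j) =
        fun y => u ((A.e j).symm ((ofAtl A).t i j y)) := rfl
    rw [h4, ← h1.fderiv_eq] at h3
    simp only [smul_apply, ContinuousLinearMap.comp_apply, h3, iL_apply, ofAtl_dt_I hz]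

theorem dcF1_d (u : X → ℝ) (hu : A.Sm u) {i : A.ι} {z : Cn d} (hz : z ∈ (A.e i).target)
    (v w : Cn d) : fderiv ℝ ((dcF1 u hu).η i) z v w - fderiv ℝ ((dcF1 u hu).η i) z w v =
      (I * hb (hsf A u i ((A.e i).symm z)) v w).re := by
  have hs := sm_contDiffAt hu i hz
  have h1 : DifferentiableAt ℝ (fderiv ℝ (fun y => u ((A.e i).symm y))) z :=
    (hs.fderiv_right (m := ∞) (by simp)).differentiableAt (by simp)
  have h2 : ∀ a b, fderiv ℝ ((dcF1 u hu).η i) z a b =
      -(1 / 4) * fderiv ℝ (fderiv ℝ (fun y => u ((A.e i).symm y))) z a (I • b) := by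
    intro a b
    have h3 := ((h1.hasFDerivAt.clm_comp (hasFDerivAt_const iL z)).const_smul
      (-(1 / 4 : ℝ))).fderiv
    have h4 : (dcF1 u hu).η i = fun z => (-(1 / 4 : ℝ)) •
      (fderiv ℝ (fun y => u ((A.e i).symm y)) z).comp iL := rfl
    rw [h4]
    have h5 := congrArg (fun L => L a b) h3
    refine h5.trans ?_
    simp
  rw [h2, h2, hsf_read u i hz, hess_dd hs]
  ring

/-- a closed real 2-form given by `i ∂∂̄ u` is exact -/
theorem ex_hsf (u : X → ℝ) (hu : A.Sm u) (w : F2 (ofAtl A))
    (hw : ∀ i, ∀ z ∈ (A.e i).target, ∀ v v', w.w i z v v' =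
      (I * hb (hsf A u i ((A.e i).symm z)) v v').re) : Ex w :=
  ⟨dcF1 u hu, fun i z hz v v' => by
    have h1 : z ∈ (A.e i).target := hz
    rw [hw i z h1, ← dcF1_d u hu h1]⟩

/-- matrices differing by `i ∂∂̄ u` give cohomologous forms -/
theorem ex_sub (u : X → ℝ) (hu : A.Sm u) (G H : K11 A)
    (h : ∀ i, ∀ x ∈ (A.e i).source, G.g i x = H.g i x + hsf A u i x) : Ex (G.f2 - H.f2) := by
  refine ex_hsf u hu _ fun i z hz v v' => ?_
  have h1 := h i _ ((A.e i).map_target hz)
  have h2 : (G.f2 - H.f2).w i z v v' = G.f2.w i z v v' - H.f2.w i z v v' := rfl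
  rw [h2, K11.f2_w G hz, K11.f2_w H hz, h1, ← hbL_apply v v' (_ + _), map_add, hbL_apply,
    hbL_apply, mul_add, Complex.add_re]
  ring

theorem ex_addK (K : Kah A) (u : X → ℝ) (hu : A.Sm u)
    (hp : ∀ i, ∀ x ∈ (A.e i).source, (K.g i x + hsf A u i x).PosDef) :
    Ex ((ofKah (addK K u hu hp)).f2 - (ofKah K).f2) :=
  ex_sub u hu _ _ fun _ _ _ => rfl

end

end Crest.Agent.R281.Fuj3_207
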