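import Crest.Agent.R281.Hdg1_850
import Crest.Agent.R281.Defs_273
import Crest.Agent.R273.D2U_505
import Crest.Agent.R273.HodZ_376

/-!
# Row 281, HODGE-2, part 3 (helper850): `∂̄`-closed `(0,2)`-forms

`dbar_solve` : on a compact Kaehler manifold every `∂̄`-closed `(0,2)`-form `B` is
`conj σ + ∂̄ y`, `σ` a holomorphic 2-form (`Defs_273.H2`), `y` a `(0,1)`-form.
-/

set_option autoImplicit false
set_option linter.unusedSectionVars false

open Set Filter Topology Complex
open scoped ContDiff Matrix ComplexConjugate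

namespace Crest.Agent.R281.Hdg_850

open Crest.Agent.R275 Crest.Agent.R275.Geo Crest.Agent.R275.Core144 Crest.Agent.R275.EDR890
open Crest.Agent.R275.Kos798 (sgn)
open Crest.Agent.R273.Fock_243 (FI Gam eW iW ep)
open Crest.Agent.R273.Calc_243 (dV)
open Crest.Agent.R273 Crest.Agent.R273.Kah_333 Crest.Agent.R273.LamN127 Crest.Agent.R273.DMet_733
open Crest.Agent.R273.DVec_733 Crest.Agent.R273.HolF_578 Crest.Agent.R273.HPair_578
open Crest.Agent.R281.Defs_273 (H2)

noncomputable section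

variable {n : ℕ} {M : Type} [TopologicalSpace M] {A : Atl n M}

/-- transition law of `(0,1)`-forms -/
def Tr01 (A : Atl n M) (y : A.ι → M → Fin n → ℂ) : Prop :=
  ∀ i j, ∀ x ∈ (A.e i).source ∩ (A.e j).source, y i x = Jb A i j x *ᵥ y j x

/-- smooth `∂̄`-closed `(0,2)`-forms -/
structure F02 (A : Atl n M) where
  B : A.ι → M → Matrix (Fin n) (Fin n) ℂ
  sm : ∀ i a b, A.SmAt i (fun x => B i x a b)
  alt : ∀ i, ∀ x ∈ (A.e i).source, (B i x)ᵀ = - B i x
  tr : ∀ i j, ∀ x ∈ (A.e i).source ∩ (A.e j).source,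
    B i x = Jb A i j x * B j x * (Jb A i j x)ᵀ
  closed : ∀ i, ∀ z ∈ (A.e i).target, ∀ a b c,
    wd (true, a) (fun w => B i ((A.e i).symm w) b c) z +
      wd (true, b) (fun w => B i ((A.e i).symm w) c a) z +
      wd (true, c) (fun w => B i ((A.e i).symm w) a b) z = 0

theorem Jb_eq (i j : A.ι) (x : M) : Jb A i j x = ((Crest.Agent.R275.Core144.Jm A i j x).map conj)ᵀ :=
  rfl

theorem v2_apply (B : Matrix (Fin n) (Fin n) ℂ) (S : FI n) :
    v2 B S = (1 / 2 : ℂ) * ∑ a, ∑ b, B a b * (eW (ep a) *ᵥ (eW (ep b) *ᵥ vac n)) S := by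
  unfold v2
  simp [Finset.sum_apply]

open Classical in
/-- the section of a `(0,2)`-form -/
def F02.fn (F : F02 A) (i : A.ι) (x : M) : FI n → ℂ :=
  if x ∈ (A.e i).source then v2 (F.B i x) else 0

theorem F02.fn_in (F : F02 A) {i : A.ι} {x : M} (hx : x ∈ (A.e i).source) :
    F.fn i x = v2 (F.B i x) := if_pos hx

theorem F02.fn_out (F : F02 A) {i : A.ι} {x : M} (hx : x ∉ (A.e i).source) :
    F.fn i x = 0 := if_neg hx

theorem F02.fn_sm (F : F02 A) (i : A.ι) (S : FI n) : A.SmAt i (fun x => F.fn i x S) := by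
  have h1 : ContDiffOn ℝ ∞ (fun z => v2 (F.B i ((A.e i).symm z)) S) (A.e i).target := by
    simp only [v2_apply]
    refine contDiffOn_const.mul (ContDiffOn.sum fun a _ => ContDiffOn.sum fun b _ => ?_)
    exact (F.sm i a b).mul contDiffOn_const
  refine h1.congr fun z hz => ?_
  show F.fn i ((A.e i).symm z) S = _
  rw [F.fn_in ((A.e i).map_target hz)]

/-- the section of a `(0,2)`-form -/
def F02.sec (F : F02 A) : Sec (BN (1 : LB A)) :=
  ⟨fun i x => iB 1 (F.fn i x), by
    refine ⟨fun i k => ?_, fun i x hx => ?_, fun i j x hx => ?_⟩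
    · exact F.fn_sm i k.1
    · show iB 1 (F.fn i x) = 0
      rw [F.fn_out hx, iB_zero]
    · show iB 1 (F.fn i x) = (BN (1 : LB A)).τ i j x *ᵥ iB 1 (F.fn j x)
      rw [F.fn_in hx.1, F.fn_in hx.2, BN_τ, kB_iB, LB.one_g, one_smul]
      congr 1
      rw [F.tr i j x hx]
      exact (Gam_v2 _ (F.alt j x hx.2)).symm⟩

theorem F02.sec_apply (F : F02 A) {i : A.ι} {x : M} (hx : x ∈ (A.e i).source) :
    oB (F.sec.1 i x) = v2 (F.B i x) := F.fn_in hx

theorem F02.sec_eq (F : F02 A) (i : A.ι) (x : M) : oB (F.sec.1 i x) = F.fn i x := rfl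

theorem dV_sub_v2 {f : Cn n → Matrix (Fin n) (Fin n) ℂ} {z : Cn n}
    (hf : ∀ a b, DifferentiableAt ℝ (fun w => f w a b) z) (c : Fin n) :
    dV I c (fun w => v2 (f w)) z =
      v2 (fun a b => wd (true, c) (fun w => f w a b) z) := by
  funext S
  show dbj c (fun w => v2 (f w) S) z = _
  refine Eq.trans ?_ (v2_apply _ S).symm
  simp only [v2_apply]
  have h1 : ∀ a b, DifferentiableAt ℝ (fun w => f w a b *
      (eW (ep a) *ᵥ (eW (ep b) *ᵥ vac n)) S) z := fun a b => (hf a b).mul_const _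
  have h2 : ∀ a, DifferentiableAt ℝ (fun w => ∑ b, f w a b *
      (eW (ep a) *ᵥ (eW (ep b) *ᵥ vac n)) S) z := fun a =>
    DifferentiableAt.fun_sum fun b _ => h1 a b
  have h3 : DifferentiableAt ℝ (fun w => ∑ a, ∑ b, f w a b *
      (eW (ep a) *ᵥ (eW (ep b) *ᵥ vac n)) S) z := DifferentiableAt.fun_sum fun a _ => h2 a
  rw [← wd_true]
  have h4 := wd_const_smul (1 / 2 : ℂ) h3 (true, c)
  simp only [smul_eq_mul] at h4
  rw [h4]
  congr 1
  refine (wd_sum Finset.univ (fun a _ => h2 a) (true, c)).trans ?_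
  refine Finset.sum_congr rfl fun a _ => ?_
  refine (wd_sum Finset.univ (fun b _ => h1 a b) (true, c)).trans ?_
  refine Finset.sum_congr rfl fun b _ => ?_
  rw [wd_mul (hf a b) (differentiableAt_const _), wd_const, mul_zero, add_zero]

theorem F02.nab_sec (F : F02 A) : nabL (BN (1 : LB A)) F.sec = 0 := by
  apply Subtype.ext
  funext i x
  by_cases hx : x ∈ (A.e i).source
  · have hz := (A.e i).map_source hx
    have hzm := (A.e i).open_target.mem_nhds hz
    have hd : ∀ a b, DifferentiableAt ℝ (fun w => F.B i ((A.e i).symm w) a b) (A.e i x) :=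
      fun a b => ((F.sm i a b).contDiffAt hzm).differentiableAt (by simp)
    have h1 := DMetB_733.oB_nab (N := (1 : LB A)) F.sec.2.1 hx
    have h2 : ∀ k, dV I k (fun z => oB (F.sec.1 i ((A.e i).symm z))) (A.e i x) =
        v2 (fun a b => wd (true, k) (fun w => F.B i ((A.e i).symm w) a b) (A.e i x)) := by
      intro k
      rw [← dV_sub_v2 hd]
      funext S
      show dbj k _ _ = dbj k _ _
      rw [← wd_true, ← wd_true]
      refine wd_congr ?_ _
      filter_upwards [hzm] with w hw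
      exact congrFun (F.sec_apply ((A.e i).map_target hw)) S
    simp only [h2] at h1
    rw [sum_eW_v2 _ (fun a b c => F.closed i _ hz a b c)] at h1
    have h3 : iB (1 : LB A) (oB (nab (BN (1 : LB A)) F.sec.1 i x)) = 0 := by
      rw [h1]
      rfl
    rw [iB_oB] at h3
    exact h3
  · exact nab_off _ hx

theorem F02.pq_sec (F : F02 A) : pqL (BN (1 : LB A)) 2 F.sec = F.sec := by
  apply Subtype.ext
  funext i x k
  rw [pqL_coe, pq_apply]
  obtain ⟨T, u⟩ := k
  have h5 : (BN (1 : LB A)).deg (T, u) = Finset.card (α := Fin n) T := rfl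
  rw [h5]
  split_ifs with h
  · rfl
  · show 0 = F.fn i x T
    by_cases hx : x ∈ (A.e i).source
    · rw [F.fn_in hx, v2_deg _ T h]
    · rw [F.fn_out hx]
      rfl

/-! ### holomorphic 2-forms -/

/-- holomorphic 2-forms as antisymmetric matrices -/
def ofOm (β : Om A 2) : H2 A where
  s i x := c2 (β.1 i x)
  hol i a b := by
    have h1 := β.2.1
    by_cases h : a = b
    · refine (holAt_const 0).congr fun x _ _ => ?_
      rw [c2_eq, if_pos h]
    · refine ((h1 i {a, b}).const_mul (sgn ℂ a {b})).congr fun x _ _ => ?_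
      rw [c2_eq, if_neg h]
  alt i x _ := c2_anti _
  tr i j x hx := by
    rw [β.2.2.2.2 i j x hx, c2_Gam, Matrix.transpose_transpose]

theorem c2_cjS (β : Om A 2) (i : A.ι) (x : M) :
    c2 (oB ((cjS β).1 i x)) = ((ofOm β).s i x).map conj := by
  ext a b
  exact c2_conj (β.1 i x) a b

/-! ### the coefficients of a section in degree one -/

/-- the `(0,1)`-part of a section -/
def y1 (y : Sec (BN (1 : LB A))) (i : A.ι) (x : M) (a : Fin n) : ℂ := oB (y.1 i x) {a}

theorem y1_sm (y : Sec (BN (1 : LB A))) (i : A.ι) (a : Fin n) : A.SmAt i (fun x => y1 y i x a) :=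
  y.2.1 i ((({a} : FI n)), ())

theorem y1_tr (y : Sec (BN (1 : LB A))) : Tr01 A (y1 y) := by
  intro i j x hx
  have h1 := sec_tr y.2 hx
  rw [LB.one_g, one_smul] at h1
  have h2 := congrArg DegOne_376.c1 h1
  exact h2.trans (DegOne_376.c1_Gam _ _)

theorem c2_nab (y : Sec (BN (1 : LB A))) {i : A.ι} {x : M} (hx : x ∈ (A.e i).source)
    (p q : Fin n) : c2 (oB ((nabL (BN (1 : LB A)) y).1 i x)) p q =
      A.db i p (fun x => y1 y i x q) x - A.db i q (fun x => y1 y i x p) x := by
  have h1 : oB ((nabL (BN (1 : LB A)) y).1 i x) = _ :=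
    DMetB_733.oB_nab (N := (1 : LB A)) y.2.1 hx
  rw [h1, c2_sum_eW]
  rfl

theorem dbar_solve' [CompactSpace M] [T2Space M] [Finite A.ι] (P : Part A) (K : Kah A)
    (hn : 2 ≤ n) (F : F02 A) :
    ∃ (σ : H2 A) (y : A.ι → M → Fin n → ℂ), (∀ i a, A.SmAt i (fun x => y i x a)) ∧ Tr01 A y ∧
      ∀ i, ∀ x ∈ (A.e i).source, ∀ a b, F.B i x a b = conj (σ.s i x a b) +
        (A.db i a (fun x => y i x b) x - A.db i b (fun x => y i x a) x) := by
  obtain ⟨β, y, hy⟩ := HodgeP_578.form_ex P (D13_505.d2Ex P K) hn F.nab_sec F.pq_sec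
  refine ⟨ofOm β, y1 y, y1_sm y, y1_tr y, fun i x hx a b => ?_⟩
  have h1 := c2_nab y hx a b
  rw [hy] at h1
  have h2 : oB ((F.sec - cjS β : Sec (BN (1 : LB A))).1 i x) =
      v2 (F.B i x) - oB ((cjS β).1 i x) := by
    rw [← F.sec_apply hx]
    rfl
  rw [h2, c2_sub, c2_v2 (F.alt i x hx), c2_cjS] at h1
  rw [← h1]
  simp

theorem dbar_solve [CompactSpace M] [T2Space M] [Finite A.ι] (P : Part A) (K : Kah A)
    (F : F02 A) :
    ∃ (σ : H2 A) (y : A.ι → M → Fin n → ℂ), (∀ i a, A.SmAt i (fun x => y i x a)) ∧ Tr01 A y ∧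
      ∀ i, ∀ x ∈ (A.e i).source, ∀ a b, F.B i x a b = conj (σ.s i x a b) +
        (A.db i a (fun x => y i x b) x - A.db i b (fun x => y i x a) x) := by
  by_cases hn : 2 ≤ n
  · exact dbar_solve' P K hn F
  · refine ⟨⟨fun _ _ => 0, fun i a b => holAt_const 0, fun i x _ => by simp,
      fun i j x _ => by simp⟩, fun _ _ _ => 0, fun i a => contDiffOn_const,
      fun i j x _ => (Matrix.mulVec_zero _).symm, fun i x hx a b => ?_⟩
    have hab : a = b := by
      have := a.2
      have := b.2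
      apply Fin.ext
      omega
    subst hab
    have h1 : F.B i x a a = - F.B i x a a := congrFun (congrFun (F.alt i x hx) a) a
    have h2 : F.B i x a a = 0 := by linear_combination h1 / 2
    rw [h2]
    simp

end

end Crest.Agent.R281.Hdg_850
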