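import Crest.Agent.R281.Hdg2_850
import Crest.Agent.R281.Hdg3_850
import Crest.Agent.R281.HkR6_835
import Crest.Agent.R281.Ti3_846
import Crest.Agent.R281.F2Mod_358

/-!
# Row 281, HODGE-2, part 4 (helper850): Hodge decomposition of closed real 2-forms

* `f02 w`   : the `(0,2)`-part of a closed real 2-form
* `eta y`   : the real 1-form with `(0,1)`-part `y`
* `split`   : on a compact Kaehler manifold `w = dη + Re τ + (1,1)`
-/

set_option autoImplicit false
set_option linter.unusedSectionVars false

open Set Filter Topology Complex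
open scoped ContDiff Matrix ComplexConjugate

namespace Crest.Agent.R281.Hdg_850

open Crest.Agent.R275 Crest.Agent.R275.Geo Crest.Agent.R275.Core144 Crest.Agent.R275.EDR890
open Crest.Agent.R273 Crest.Agent.R273.Kah_333 Crest.Agent.R273.LamN127
open Crest.Agent.R281.Defs_273 (H2)
open Crest.Agent.R281.HkR_835 Crest.Agent.R281.Ti_846

noncomputable section

variable {n : ℕ} {M : Type} [TopologicalSpace M] {A : Atl n M}

/-- the transition map of the atlas -/
theorem t_e {i j : A.ι} {x : M} (hx : x ∈ (A.e i).source) :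
    (ofAtl A).t i j (A.e i x) = A.e j x := by
  show A.e j ((A.e i).symm (A.e i x)) = _
  rw [(A.e i).left_inv hx]

theorem e_mem_ov {i j : A.ι} {x : M} (hx : x ∈ (A.e i).source ∩ (A.e j).source) :
    A.e i x ∈ (ofAtl A).ov i j := by
  refine ⟨(A.e i).map_source hx.1, ?_⟩
  show (A.e i).symm (A.e i x) ∈ _
  rw [(A.e i).left_inv hx.1]
  exact hx.2

theorem contDiff_cp2 (r s : WI n) : ContDiff ℝ ∞ (fun W : Bil (Cn n) => cp2 r s W) := by
  fun_prop

/-- the `(0,2)`-part of a closed real 2-form -/
def f02 (w : F2 (ofAtl A)) : F02 A where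
  B i x := Matrix.of fun a b => cp2 (true, a) (true, b) (w.w i (A.e i x))
  sm i a b := by
    have h1 : ContDiffOn ℝ ∞ (fun z => cp2 (true, a) (true, b) (w.w i z)) (A.e i).target :=
      (contDiff_cp2 _ _).comp_contDiffOn (w.sm i)
    refine h1.congr fun z hz => ?_
    show cp2 (true, a) (true, b) (w.w i (A.e i ((A.e i).symm z))) = _
    rw [(A.e i).right_inv hz]
  alt i x hx := by
    ext a b
    exact cp2_alt (w.alt i _ ((A.e i).map_source hx)) _ _
  tr i j x hx := by
    have hz := e_mem_ov hx
    have h1 := w.tr i j _ hz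
    rw [t_e hx.1] at h1
    have hd := ofAtl_t_diff A hz
    have h2 : ∀ u, fderiv ℝ ((ofAtl A).t i j) (A.e i x) u =
        fderiv ℂ ((ofAtl A).t i j) (A.e i x) u := by
      intro u
      rw [hd.fderiv_restrictScalars ℝ]
      rfl
    ext a b
    have h3 := cp2_comp (true, a) (true, b) (W := w.w j (A.e j x)) (W' := w.w i (A.e i x))
      (fderiv ℂ ((ofAtl A).t i j) (A.e i x)) (fun u v => by rw [h1, h2, h2])
    refine h3.trans ?_
    simp only [Matrix.mul_apply, Matrix.transpose_apply, Finset.sum_mul]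
    rw [Finset.sum_comm]
    refine Finset.sum_congr rfl fun d _ => Finset.sum_congr rfl fun c _ => ?_
    show conj ((fderiv ℂ ((ofAtl A).t i j) (A.e i x)) (EuclideanSpace.single a 1) c) *
      conj ((fderiv ℂ ((ofAtl A).t i j) (A.e i x)) (EuclideanSpace.single b 1) d) *
      cp2 (true, c) (true, d) (w.w j (A.e j x)) = Jb A i j x a c *
        cp2 (true, c) (true, d) (w.w j (A.e j x)) * Jb A i j x b d
    rw [Jb_apply, Jb_apply]
    show conj (A.J i j x c a) * conj (A.J i j x d b) * _ = _
    ring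
  closed i z hz a b c := by
    have hd : DifferentiableAt ℝ (w.w i) z := w.diffAt hz
    have key : ∀ a b c : Fin n, wd (true, a) (fun y => (Matrix.of fun p q =>
        cp2 (true, p) (true, q) (w.w i (A.e i ((A.e i).symm y))) : Matrix (Fin n) (Fin n) ℂ) b c) z =
        cp3 (true, a) (true, b) (true, c) (fderiv ℝ (w.w i) z) := by
      intro a b c
      rw [← wd_cp2 hd]
      refine wd_congr ?_ _
      filter_upwards [(A.e i).open_target.mem_nhds hz] with y hy
      show cp2 (true, b) (true, c) (w.w i (A.e i ((A.e i).symm y))) = _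
      rw [(A.e i).right_inv hy]
    rw [key, key, key]
    exact cp3_cyc (w.closed i z hz) _ _ _

/-- the real linear form with `(0,1)`-components `y` -/
def etaL (y : Fin n → ℂ) : Cn n →L[ℝ] ℝ :=
  (2 : ℝ) • Complex.reCLM.comp (∑ b, (y b) • ze (true, b))

theorem etaL_apply (y : Fin n → ℂ) (v : Cn n) : etaL y v = 2 * (∑ b, y b * conj (v b)).re := by
  unfold etaL
  simp [sum_apply, smul_apply]

theorem cp1_etaL (y : Fin n → ℂ) (b : Fin n) : cp1 (true, b) (etaL y) = y b := by
  rw [cp1_eq, etaL_apply, etaL_apply]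
  have h1 : (∑ c, y c * conj ((EuclideanSpace.single b 1 : Cn n) c)) = y b := by
    rw [Finset.sum_eq_single b]
    · simp
    · intro c _ hc
      simp [hc]
    · intro h
      exact absurd (Finset.mem_univ b) h
  have h2 : (∑ c, y c * conj ((EuclideanSpace.single b I : Cn n) c)) = -I * y b := by
    rw [Finset.sum_eq_single b]
    · simp
      ring
    · intro c _ hc
      simp [hc]
    · intro h
      exact absurd (Finset.mem_univ b) h
  rw [h1, h2]
  apply Complex.ext <;> simp

theorem contDiffOn_etaL {U : Set (Cn n)} {y : Cn n → Fin n → ℂ}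
    (hy : ∀ b, ContDiffOn ℝ ∞ (fun z => y z b) U) : ContDiffOn ℝ ∞ (fun z => etaL (y z)) U := by
  rw [contDiffOn_clm_apply]
  intro v
  simp only [etaL_apply]
  refine contDiffOn_const.mul (Complex.reCLM.contDiff.comp_contDiffOn ?_)
  exact ContDiffOn.sum fun b _ => (hy b).mul contDiffOn_const

/-- the real 1-form with `(0,1)`-part `y` -/
def eta (y : A.ι → M → Fin n → ℂ) (hs : ∀ i a, A.SmAt i (fun x => y i x a)) (ht : Tr01 A y) :
    F1 (ofAtl A) where
  η i z := etaL (y i ((A.e i).symm z))
  sm i := contDiffOn_etaL fun b => hs i b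
  tr i j z hz v := by
    have hx : (A.e i).symm z ∈ (A.e i).source ∩ (A.e j).source :=
      ⟨(A.e i).map_target hz.1, hz.2⟩
    have hj : (A.e j).symm ((ofAtl A).t i j z) = (A.e i).symm z := (A.e j).left_inv hz.2
    rw [hj, etaL_apply, etaL_apply, ht i j _ hx]
    congr 2
    simp only [Matrix.mulVec, dotProduct, Finset.sum_mul]
    rw [Finset.sum_comm]
    refine Finset.sum_congr rfl fun c _ => ?_
    have h1 : conj ((fderiv ℝ ((ofAtl A).t i j) z) v c) =
        ∑ b, conj (A.J i j ((A.e i).symm z) c b) * conj (v b) := by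
      rw [ofAtl_dt A hz v c]
      simp only [Matrix.mulVec, dotProduct, map_sum, map_mul]
      rfl
    rw [h1, Finset.mul_sum]
    refine Finset.sum_congr rfl fun b _ => ?_
    have h2 : Jb A i j ((A.e i).symm z) b c = conj (A.J i j ((A.e i).symm z) c b) := rfl
    rw [h2]
    ring

theorem cp2_sb (S : Matrix (Fin n) (Fin n) ℂ) (a b : Fin n) :
    cp2 (true, a) (true, b) (bM (cL.comp (mL Sᵀ))) = (1 / 2 : ℂ) * conj (S a b) := by
  have hI : ∀ c : Fin n, (EuclideanSpace.single c I : Cn n) = I • EuclideanSpace.single c (1 : ℂ) :=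
    sing_I
  rw [cp2_eq, bM_cL, bM_cL, bM_cL, bM_cL]
  simp only [hI, sb_I_left, sb_I_right, sb_single]
  apply Complex.ext <;> simp <;> ring

/-- a real alternating form without `(0,2)`-part is invariant -/
theorem inv_of_cp2 {W : Bil (Cn n)} (h : ∀ a b, cp2 (true, a) (true, b) W = 0) (u v : Cn n) :
    W (I • u) (I • v) = W u v := by
  have h' : ∀ a b, cp2 (false, a) (false, b) W = 0 := by
    intro a b
    have := congrArg (starRingEnd ℂ) (h a b)
    rw [cp2_conj, map_zero] at this
    exact this
  have h1 : ((W (I • u) (I • v) : ℝ) : ℂ) = (W u v : ℝ) := by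
    rw [W_eq, W_eq]
    refine Finset.sum_congr rfl fun r _ => Finset.sum_congr rfl fun s _ => ?_
    obtain ⟨p, a⟩ := r
    obtain ⟨q, b⟩ := s
    cases p <;> cases q
    · rw [h', mul_zero, mul_zero]
    · simp only [ze_apply, cj_true, cj_false, PiLp.smul_apply, smul_eq_mul, map_mul, conj_I]
      linear_combination (-(u a) * conj (v b) * cp2 (false, a) (true, b) W) * I_mul_I
    · simp only [ze_apply, cj_true, cj_false, PiLp.smul_apply, smul_eq_mul, map_mul, conj_I]
      linear_combination (-(conj (u a)) * (v b) * cp2 (true, a) (false, b) W) * I_mul_I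
    · rw [h, mul_zero, mul_zero]
  exact_mod_cast h1

/-- **Hodge decomposition of closed real 2-forms**: `w = dη + Re τ + (1,1)-form` -/
theorem split [CompactSpace M] [T2Space M] [Finite A.ι] (P : Part A) (K : Kah A)
    (w : F2 (ofAtl A)) : ∃ (τ : H2 A) (η : F1 (ofAtl A)), ∀ i, ∀ z ∈ (A.e i).target, ∀ u v,
      (w.w i z - d1 (η.η i) z - bM (cL.comp (mL (τ.s i ((A.e i).symm z))ᵀ))) (I • u) (I • v) =
        (w.w i z - d1 (η.η i) z - bM (cL.comp (mL (τ.s i ((A.e i).symm z))ᵀ))) u v := by
  obtain ⟨σ, y, hs, ht, hB⟩ := dbar_solve P K (f02 w)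
  refine ⟨⟨fun i x => (2 : ℂ) • σ.s i x, fun i a b => (σ.hol i a b).const_mul 2, fun i x hx => ?_,
    fun i j x hx => ?_⟩, eta y hs ht, fun i z hz u v => inv_of_cp2 (fun a b => ?_) u v⟩
  · rw [Matrix.transpose_smul, σ.alt i x hx, smul_neg]
  · rw [σ.tr i j x hx, Matrix.mul_smul, Matrix.smul_mul]
  · have hx := (A.e i).map_target hz
    have hzm := (A.e i).open_target.mem_nhds hz
    have e1 : cp2 (true, a) (true, b) (w.w i z) = conj (σ.s i ((A.e i).symm z) a b) +
        (A.db i a (fun x => y i x b) ((A.e i).symm z) -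
          A.db i b (fun x => y i x a) ((A.e i).symm z)) := by
      rw [← hB i _ hx a b]
      show _ = cp2 (true, a) (true, b) (w.w i (A.e i ((A.e i).symm z)))
      rw [(A.e i).right_inv hz]
    have hη : DifferentiableAt ℝ ((eta y hs ht).η i) z := F1.diffAt (eta y hs ht) hz
    have e2 : cp2 (true, a) (true, b) (d1 ((eta y hs ht).η i) z) =
        A.db i a (fun x => y i x b) ((A.e i).symm z) -
          A.db i b (fun x => y i x a) ((A.e i).symm z) := by
      have h1 := cp2_d hη (true, a) (true, b)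
      refine h1.trans ?_
      have h2 : ∀ b, (fun y' => cp1 (true, b) ((eta y hs ht).η i y')) =
          fun y' => y i ((A.e i).symm y') b := by
        intro b
        funext y'
        exact cp1_etaL _ _
      rw [h2, h2]
      simp only [Atl.db, (A.e i).right_inv hz, wd_true]
    have e3 : cp2 (true, a) (true, b) (bM (cL.comp (mL ((2 : ℂ) • σ.s i ((A.e i).symm z))ᵀ))) =
        conj (σ.s i ((A.e i).symm z) a b) := by
      rw [cp2_sb, Matrix.smul_apply, smul_eq_mul, map_mul, map_ofNat]
      ring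
    show cp2 (true, a) (true, b) (w.w i z - d1 ((eta y hs ht).η i) z -
      bM (cL.comp (mL ((2 : ℂ) • σ.s i ((A.e i).symm z))ᵀ))) = 0
    rw [map_sub (cp2 (true, a) (true, b)) (w.w i z - d1 ((eta y hs ht).η i) z),
      map_sub (cp2 (true, a) (true, b)) (w.w i z), e1, e2, e3]
    ring

end

end Crest.Agent.R281.Hdg_850
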