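import Crest.Agent.R281.HkR7_835

/-!
# Row 281, HK-ROT, part 8 (helper835): closedness of `h20`, the hyperkaehler triple of `(K, σ)`

* `h20_cl`, `f2H_h20`, `f2H_h20_I` : `h20 w₁ w₂ h` is closed, its real and imaginary part
* `HkT.ofKS` : Kaehler metric + closed holomorphic symplectic form with
  `s (gᵀ)⁻¹ s* = g`  ==>  hyperkaehler triple with `J 0 = i`
-/

set_option autoImplicit false
set_option linter.unusedSectionVars false

open Set Filter Topology Complex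
open scoped ContDiff Matrix ComplexConjugate ComplexOrder InnerProductSpace

namespace Crest.Agent.R281.HkR_835

open Crest.Agent.R275.Geo Crest.Agent.R275.Core144 Crest.Agent.R275.EDR890
open Crest.Agent.R273.Kah_333 Crest.Agent.R273.Hess_333 Crest.Agent.R281.Defs_273
open Crest.Agent.R273.NoHVF_376
open Crest.Agent.R281.HkP1_508 Crest.Agent.R281.HkP2_508

noncomputable section

variable {d : ℕ} {X : Type} [TopologicalSpace X] {A : Atl d X}

section conv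

variable (w₁ w₂ : F2 (ofAtl A))
  (h : ∀ i, ∀ z ∈ (A.e i).target, ∀ u v, w₁.w i z (I • u) v = -w₂.w i z u v)

theorem wd_h20 {i : A.ι} {z : Cn d} (hz : z ∈ (A.e i).target) (a b c : Fin d) :
    wd (false, c) (fun w => sl (h20 w₁ w₂ h) i w a b) z =
      ((fderiv ℝ (w₁.w i) z (EuclideanSpace.single c 1) (EuclideanSpace.single a 1)
        (EuclideanSpace.single b 1) : ℝ) : ℂ) + I *
      ((fderiv ℝ (w₂.w i) z (EuclideanSpace.single c 1) (EuclideanSpace.single a 1)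
        (EuclideanSpace.single b 1) : ℝ) : ℂ) := by
  have ho := (A.e i).open_target.mem_nhds hz
  have e1 : (fun y => sl (h20 w₁ w₂ h) i y a b)
      =ᶠ[𝓝 z] fun y => ((w₁.w i y (EuclideanSpace.single a 1) (EuclideanSpace.single b 1) : ℝ) :
        ℂ) + I * ((w₂.w i y (EuclideanSpace.single a 1) (EuclideanSpace.single b 1) : ℝ) : ℂ) := by
    filter_upwards [ho] with y hy
    show SB (w₁.w i (A.e i ((A.e i).symm y))) (w₂.w i (A.e i ((A.e i).symm y))) a b = _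
    rw [(A.e i).right_inv hy]
    rfl
  have f1 : ∀ w : F2 (ofAtl A), ∀ u v, HasFDerivAt (fun y => w.w i y u v)
      (fderiv ℝ (fun y => w.w i y u v) z) z := fun w u v => by
    have hd : DifferentiableAt ℝ (w.w i) z := w.diffAt hz
    exact ((hd.hasFDerivAt.clm_apply (hasFDerivAt_const u z)).clm_apply
      (hasFDerivAt_const v z)).differentiableAt.hasFDerivAt
  have e2 := (Complex.ofRealCLM.hasFDerivAt.comp z
    (f1 w₁ (EuclideanSpace.single a 1) (EuclideanSpace.single b (1 : ℂ)))).add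
    ((Complex.ofRealCLM.hasFDerivAt.comp z
      (f1 w₂ (EuclideanSpace.single a 1) (EuclideanSpace.single b 1))).const_mul I)
  have d1 : DifferentiableAt ℝ (w₁.w i) z := w₁.diffAt hz
  have d2 : DifferentiableAt ℝ (w₂.w i) z := w₂.diffAt hz
  have e3 := e2.fderiv
  have e4 : ((Complex.ofRealCLM ∘ fun y => w₁.w i y (EuclideanSpace.single a 1)
      (EuclideanSpace.single b (1 : ℂ))) +
      fun y => I * (Complex.ofRealCLM ∘ fun y => w₂.w i y (EuclideanSpace.single a 1)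
        (EuclideanSpace.single b 1)) y) =
      (fun y => ((w₁.w i y (EuclideanSpace.single a 1) (EuclideanSpace.single b 1) : ℝ) :
        ℂ) + I * ((w₂.w i y (EuclideanSpace.single a 1) (EuclideanSpace.single b 1) : ℝ) : ℂ)) :=
    rfl
  rw [e4] at e3
  rw [wd_congr e1, wd, wdL, e3, sing_I]
  simp only [add_apply, smul_apply, ContinuousLinearMap.comp_apply, Complex.ofRealCLM_apply,
    smul_eq_mul, cI_false]
  rw [fderiv_app d1, fderiv_app d2, fderiv_app d1, fderiv_app d2, (dsw w₁ w₂ h hz _ _ _).1,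
    (dsw w₁ w₂ h hz _ _ _).2]
  push_cast
  linear_combination (-(1 / 2 : ℂ) * ((fderiv ℝ (w₁.w i) z (EuclideanSpace.single c 1)
    (EuclideanSpace.single a 1) (EuclideanSpace.single b 1) : ℝ) : ℂ)) * I_mul_I

theorem h20_cl : ClH (h20 w₁ w₂ h) := by
  intro i z hz a b c
  rw [wd_h20 w₁ w₂ h hz, wd_h20 w₁ w₂ h hz, wd_h20 w₁ w₂ h hz]
  have c1 := w₁.closed i z hz (EuclideanSpace.single c 1) (EuclideanSpace.single a 1)
    (EuclideanSpace.single b 1)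
  have c2 := w₂.closed i z hz (EuclideanSpace.single c 1) (EuclideanSpace.single a 1)
    (EuclideanSpace.single b 1)
  have c1' := congrArg (fun r : ℝ => (r : ℂ)) c1
  have c2' := congrArg (fun r : ℝ => (r : ℂ)) c2
  push_cast at c1' c2'
  linear_combination c1' + I * c2'

theorem sb_h20 {i : A.ι} {z : Cn d} (hz : z ∈ (A.e i).target) (u v : Cn d) :
    sb (sl (h20 w₁ w₂ h) i z) u v = (w₁.w i z u v : ℂ) + I * (w₂.w i z u v : ℂ) := by
  have e : sl (h20 w₁ w₂ h) i z = SB (w₁.w i z) (w₂.w i z) := by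
    show SB (w₁.w i (A.e i ((A.e i).symm z))) (w₂.w i (A.e i ((A.e i).symm z))) = _
    rw [(A.e i).right_inv hz]
  rw [e, ← sw_eq (h i z hz) (w₁.alt i z hz) (w₂.alt i z hz)]
  rfl

theorem f2H_h20 {i : A.ι} {z : Cn d} (hz : z ∈ (A.e i).target) :
    (f2H (h20 w₁ w₂ h) (h20_cl w₁ w₂ h)).w i z = w₁.w i z := by
  ext u v
  rw [f2H_w, sb_h20 w₁ w₂ h hz]
  simp

theorem f2H_h20_I {i : A.ι} {z : Cn d} (hz : z ∈ (A.e i).target) :
    (f2H (csm (-I) (h20 w₁ w₂ h)) (csm_cl (h20_cl w₁ w₂ h) _)).w i z = w₂.w i z := by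
  ext u v
  rw [f2H_I_w, sb_h20 w₁ w₂ h hz]
  simp

end conv

/-- the type relation for `Re σ`, `Im σ` -/
theorem f2H_type (σ : H2 A) (hc : ClH σ) (i : A.ι) (z : Cn d) (u v : Cn d) :
    (f2H σ hc).w i z (I • u) v = -(f2H (csm (-I) σ) (csm_cl hc _)).w i z u v := by
  rw [f2H_w, f2H_I_w, sb_I_left]
  simp

theorem h20_f2H (σ : H2 A) (hc : ClH σ) {i : A.ι} {x : X} (hx : x ∈ (A.e i).source) :
    (h20 (f2H σ hc) (f2H (csm (-I) σ) (csm_cl hc _))
      fun i z _ u v => f2H_type σ hc i z u v).s i x = σ.s i x := by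
  ext a b
  show ((((f2H σ hc).w i (A.e i x) (EuclideanSpace.single a 1) (EuclideanSpace.single b 1) : ℝ) :
    ℂ)) + I * ((((f2H (csm (-I) σ) (csm_cl hc _)).w i (A.e i x) (EuclideanSpace.single a 1)
      (EuclideanSpace.single b 1) : ℝ) : ℂ)) = _
  rw [f2H_w, f2H_I_w, sb_single, sl, (A.e i).left_inv hx]
  conv_rhs => rw [← Complex.re_add_im (σ.s i x a b)]
  ring

/-! ### the triple of a Kaehler metric and a holomorphic symplectic form -/

/-- the second complex structure -/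
def J1 (G S : Matrix (Fin d) (Fin d) ℂ) : Cn d →L[ℝ] Cn d :=
  (mL (Gᵀ)⁻¹).comp (cL.comp (mL Sᵀ))

theorem mL_mL (P Q : Matrix (Fin d) (Fin d) ℂ) (v : Cn d) : mL P (mL Q v) = mL (P * Q) v := by
  ext a
  rw [mL_apply, mL_eq, Matrix.mulVec_mulVec, mL_apply]

theorem mL_one (v : Cn d) : mL (1 : Matrix (Fin d) (Fin d) ℂ) v = v := by
  ext a
  rw [mL_apply, Matrix.one_mulVec]

theorem cL_mL (P : Matrix (Fin d) (Fin d) ℂ) (v : Cn d) : cL (mL P v) = mL (P.map conj) (cL v) := by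
  ext a
  rw [cL_apply, mL_apply, mL_apply]
  simp [Matrix.mulVec, dotProduct]

theorem cL_cL (v : Cn d) : cL (cL v) = v := by
  ext a
  simp

theorem mL_neg (P : Matrix (Fin d) (Fin d) ℂ) (v : Cn d) : mL (-P) v = -mL P v := by
  ext a
  simp [Matrix.neg_mulVec]

theorem mL_I (P : Matrix (Fin d) (Fin d) ℂ) (v : Cn d) : mL P (I • v) = I • mL P v := by
  ext a
  rw [mL_apply, PiLp.smul_apply, mL_apply]
  show (P *ᵥ (I • v.ofLp)) a = _
  rw [Matrix.mulVec_smul]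
  rfl

theorem cL_I (v : Cn d) : cL (I • v) = -(I • cL v) := by
  ext a
  simp

theorem J1_I (G S : Matrix (Fin d) (Fin d) ℂ) (v : Cn d) : J1 G S (I • v) = -(I • J1 G S v) := by
  simp only [J1, ContinuousLinearMap.comp_apply]
  rw [mL_I, cL_I, map_neg, mL_I]

/-- `J₁² = -1` -/
theorem J1_sq {G S : Matrix (Fin d) (Fin d) ℂ} (hG : G.PosDef) (hS : Sᵀ = -S)
    (h : S * (Gᵀ)⁻¹ * Sᴴ = G) (v : Cn d) : J1 G S (J1 G S v) = -v := by
  have hu : IsUnit G.det := isUnit_iff_ne_zero.2 hG.det_pos.ne'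
  have huT : IsUnit (Gᵀ).det := by rwa [Matrix.det_transpose]
  have hGc : (Gᵀ).map conj = G := hG.isHermitian.eq
  simp only [J1, ContinuousLinearMap.comp_apply]
  rw [mL_mL (Sᵀ), cL_mL, cL_cL, mL_mL, mL_mL]
  have e1 : ((Gᵀ)⁻¹).map conj = G⁻¹ := by
    have h1 : (((Gᵀ)⁻¹)ᴴ) = ((Gᵀ)ᴴ)⁻¹ := Matrix.conjTranspose_nonsing_inv _
    have h2 : (Gᵀ)ᴴ = Gᵀ := hG.isHermitian.transpose.eq
    have h3 : ((Gᵀ)⁻¹).map conj = (((Gᵀ)⁻¹)ᴴ)ᵀ := by
      ext a b; rfl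
    rw [h3, h1, h2, Matrix.transpose_nonsing_inv, Matrix.transpose_transpose]
  have e2 : (Sᵀ * (Gᵀ)⁻¹).map conj = Sᴴ * G⁻¹ := by
    rw [map_conj_mul, e1]
    rfl
  have e3 : Sᴴ * G⁻¹ * Sᵀ = -Gᵀ := by
    have h4 := congrArg Matrix.transpose h
    rw [Matrix.transpose_mul, Matrix.transpose_mul, Matrix.transpose_nonsing_inv,
      Matrix.transpose_transpose] at h4
    have h5 : (Sᴴ)ᵀ = -Sᴴ := by
      have : (Sᴴ)ᵀ = (Sᵀ)ᴴ := by ext a b; rfl
      rw [this, hS, Matrix.conjTranspose_neg]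
    rw [h5] at h4
    rw [Matrix.mul_assoc, ← h4, Matrix.neg_mul, neg_neg]
  rw [e2, Matrix.mul_assoc, e3, Matrix.mul_neg, Matrix.nonsing_inv_mul _ huT, mL_neg, mL_one]

/-- `g(J₁ u, v) = Re σ(u, v)` -/
theorem bM_J1 {G S : Matrix (Fin d) (Fin d) ℂ} (hG : G.PosDef) (u v : Cn d) :
    bM (mL Gᵀ) (J1 G S u) v = (sb S u v).re := by
  have huT : IsUnit (Gᵀ).det := by
    rw [Matrix.det_transpose]
    exact isUnit_iff_ne_zero.2 hG.det_pos.ne'
  rw [← bM_cL]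
  show ⟪mL Gᵀ (J1 G S u), v⟫_ℝ = ⟪cL (mL Sᵀ u), v⟫_ℝ
  have : mL Gᵀ (J1 G S u) = cL (mL Sᵀ u) := by
    simp only [J1, ContinuousLinearMap.comp_apply]
    rw [mL_mL, Matrix.mul_nonsing_inv _ huT, mL_one]
  rw [this]

theorem bM_IJ1 {G S : Matrix (Fin d) (Fin d) ℂ} (hG : G.PosDef) (u v : Cn d) :
    bM (mL Gᵀ) (I • J1 G S u) v = (sb S u v).im := by
  have h1 : (I • J1 G S u) = J1 G S (-(I • u)) := by
    rw [map_neg, J1_I, neg_neg]
  rw [h1, bM_J1 hG]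
  have : -(I • u) = I • I • I • u := by
    rw [smul_smul, I_mul_I, neg_one_smul]
  rw [this, sb_I_left, sb_I_left, sb_I_left]
  have : I * (I * (I * sb S u v)) = -I * sb S u v := by
    linear_combination (I * sb S u v) * I_mul_I
  rw [this]
  simp

theorem hbK_apply (K : Kah A) {i : A.ι} {z : Cn d} (hz : z ∈ (A.e i).target) (u v : Cn d) :
    bM (mL (gl K i z)ᵀ) u v = (hb (gl K i z) u v).re :=
  bM_mL _ (K.pos i _ ((A.e i).map_target hz)).isHermitian u v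

theorem hb_self (G : Matrix (Fin d) (Fin d) ℂ) (v : Cn d) :
    hb G v v = star (fun b => conj (v b)) ⬝ᵥ (G *ᵥ (fun b => conj (v b))) := by
  rw [hb_eq_dot]
  congr 1
  funext b
  simp

theorem conj_ne {v : Cn d} (hv : v ≠ 0) : (fun b => conj (v b)) ≠ 0 := by
  intro h0
  apply hv
  ext b
  have := congrFun h0 b
  simpa using this

theorem ks_symm (K : Kah A) {i : A.ι} {z : Cn d} (hz : z ∈ (A.e i).target) (u v : Cn d) :
    bM (mL (gl K i z)ᵀ) u v = bM (mL (gl K i z)ᵀ) v u := by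
  have hh : (gl K i z).IsHermitian := (K.pos i _ ((A.e i).map_target hz)).isHermitian
  rw [hbK_apply K hz, hbK_apply K hz, ← hb_conj hh, Complex.conj_re]

theorem ks_pos (K : Kah A) {i : A.ι} {z : Cn d} (hz : z ∈ (A.e i).target) (v : Cn d)
    (hv : v ≠ 0) : 0 < bM (mL (gl K i z)ᵀ) v v := by
  have hp : (gl K i z).PosDef := K.pos i _ ((A.e i).map_target hz)
  rw [hbK_apply K hz, hb_self]
  exact (Complex.lt_def.1 (hp.dotProduct_mulVec_pos (conj_ne hv))).1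

theorem ks_om0 (K : Kah A) {i : A.ι} {z : Cn d} (hz : z ∈ (A.e i).target) (u v : Cn d) :
    (ofKah K).f2.w i z u v = bM (mL (gl K i z)ᵀ) (I • u) v := by
  rw [(ofKah K).f2_w hz, hbK_apply K hz, hb_I_left]
  rfl

theorem ks_om1 (K : Kah A) (σ : H2 A) (hc : ClH σ) {i : A.ι} {z : Cn d}
    (hz : z ∈ (A.e i).target) (u v : Cn d) :
    (f2H σ hc).w i z u v = bM (mL (gl K i z)ᵀ) (J1 (gl K i z) (sl σ i z) u) v := by
  have hp : (gl K i z).PosDef := K.pos i _ ((A.e i).map_target hz)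
  rw [f2H_w, bM_J1 hp]

theorem ks_om2 (K : Kah A) (σ : H2 A) (hc : ClH (csm (-I) σ)) {i : A.ι} {z : Cn d}
    (hz : z ∈ (A.e i).target) (u v : Cn d) :
    (f2H (csm (-I) σ) hc).w i z u v =
      bM (mL (gl K i z)ᵀ) (I • J1 (gl K i z) (sl σ i z) u) v := by
  have hp : (gl K i z).PosDef := K.pos i _ ((A.e i).map_target hz)
  rw [f2H_I_w, bM_IJ1 hp]

theorem ks_sm (K : Kah A) (σ : H2 A) (i : A.ι) :
    ContDiffOn ℝ ∞ (fun z => J1 (gl K i z) (sl σ i z)) (A.e i).target := by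
  refine ContDiffOn.clm_comp (mL_smooth fun a b => ?_)
    (contDiffOn_const.clm_comp (mL_smooth fun a b => sl_smooth σ i b a))
  intro z hz
  have h2 := ((gm K i).inv_smAt hz b a).contDiffWithinAt (s := (A.e i).target)
  refine h2.congr (fun y _ => ?_) ?_
  · rw [← Matrix.transpose_nonsing_inv]; rfl
  · rw [← Matrix.transpose_nonsing_inv]; rfl

/-- Kaehler metric and closed holomorphic symplectic form with all singular values 1:
hyperkaehler triple -/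
def HkT.ofKS (K : Kah A) (σ : H2 A) (hc : ClH σ)
    (hr : ∀ i, ∀ x ∈ (A.e i).source, σ.s i x * ((K.g i x)ᵀ)⁻¹ * (σ.s i x)ᴴ = K.g i x) :
    HkT (ofAtl A) where
  om := ![(ofKah K).f2, f2H σ hc, f2H (csm (-I) σ) (csm_cl hc _)]
  J := ![fun _ _ => iL, fun i z => J1 (gl K i z) (sl σ i z),
    fun i z => iL.comp (J1 (gl K i z) (sl σ i z))]
  g i z := bM (mL (gl K i z)ᵀ)
  J_sm k i := by
    fin_cases k
    · exact contDiffOn_const
    · exact ks_sm K σ i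
    · exact contDiffOn_const.clm_comp (ks_sm K σ i)
  J_sq k i z hz v := by
    have hx := (A.e i).map_target hz
    have h1 : J1 (gl K i z) (sl σ i z) (J1 (gl K i z) (sl σ i z) v) = -v :=
      J1_sq (K.pos i _ hx) (σ.alt i _ hx) (hr i _ hx) v
    have hI : ∀ v : Cn d, I • I • v = -v := fun v => by rw [smul_smul, I_mul_I, neg_one_smul]
    fin_cases k
    · show I • I • v = -v
      exact hI v
    · exact h1
    · show I • J1 (gl K i z) (sl σ i z) (I • J1 (gl K i z) (sl σ i z) v) = -v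
      rw [J1_I, h1, smul_neg, smul_neg, smul_neg, neg_neg, hI]
  J_01 i z hz v := rfl
  g_symm i z hz u v := ks_symm K hz u v
  g_pos i z hz v hv := ks_pos K hz v hv
  om_eq k i z hz u v := by
    fin_cases k
    · exact ks_om0 K hz u v
    · exact ks_om1 K σ hc hz u v
    · exact ks_om2 K σ (csm_cl hc _) hz u v

theorem HkT.ofKS_J (K : Kah A) (σ : H2 A) (hc : ClH σ)
    (hr : ∀ i, ∀ x ∈ (A.e i).source, σ.s i x * ((K.g i x)ᵀ)⁻¹ * (σ.s i x)ᴴ = K.g i x) (i : A.ι)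
    (z v : Cn d) : (HkT.ofKS K σ hc hr).J 0 i z v = I • v := rfl

theorem HkT.ofKS_om0 (K : Kah A) (σ : H2 A) (hc : ClH σ)
    (hr : ∀ i, ∀ x ∈ (A.e i).source, σ.s i x * ((K.g i x)ᵀ)⁻¹ * (σ.s i x)ᴴ = K.g i x) :
    (HkT.ofKS K σ hc hr).om 0 = (ofKah K).f2 := rfl

theorem HkT.ofKS_om1 (K : Kah A) (σ : H2 A) (hc : ClH σ)
    (hr : ∀ i, ∀ x ∈ (A.e i).source, σ.s i x * ((K.g i x)ᵀ)⁻¹ * (σ.s i x)ᴴ = K.g i x) :
    (HkT.ofKS K σ hc hr).om 1 = f2H σ hc := rfl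

theorem HkT.ofKS_om2 (K : Kah A) (σ : H2 A) (hc : ClH σ)
    (hr : ∀ i, ∀ x ∈ (A.e i).source, σ.s i x * ((K.g i x)ᵀ)⁻¹ * (σ.s i x)ᴴ = K.g i x) :
    (HkT.ofKS K σ hc hr).om 2 = f2H (csm (-I) σ) (csm_cl hc _) := rfl

/-- scaling to singular values 1 -/
theorem hr_of_lam {S G : Matrix (Fin d) (Fin d) ℂ} {lam : ℝ} (hl : 0 < lam)
    (h : S * (Gᵀ)⁻¹ * Sᴴ = (lam : ℂ) • G) :
    (((lam ^ (-(1 / 2 : ℝ)) : ℝ) : ℂ) • S) * (Gᵀ)⁻¹ * (((lam ^ (-(1 / 2 : ℝ)) : ℝ) : ℂ) • S)ᴴ =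
      G := by
  have h1 : (((lam ^ (-(1 / 2 : ℝ)) : ℝ) : ℂ) • S)ᴴ = ((lam ^ (-(1 / 2 : ℝ)) : ℝ) : ℂ) • Sᴴ := by
    rw [Matrix.conjTranspose_smul]
    congr 1
    exact Complex.conj_ofReal _
  rw [h1, Matrix.smul_mul, Matrix.smul_mul, Matrix.mul_smul, h, smul_smul, smul_smul]
  have h2 : (lam ^ (-(1 / 2 : ℝ))) * ((lam ^ (-(1 / 2 : ℝ))) * lam) = (1 : ℝ) := by
    rw [← mul_assoc, ← Real.rpow_add hl]
    norm_num
    rw [Real.rpow_neg_one, inv_mul_cancel₀ hl.ne']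
  have h3 : (((lam ^ (-(1 / 2 : ℝ)) : ℝ) : ℂ)) * ((((lam ^ (-(1 / 2 : ℝ)) : ℝ) : ℂ)) * (lam : ℂ)) =
      1 := by
    exact_mod_cast h2
  rw [mul_assoc, h3, one_smul]

end

end Crest.Agent.R281.HkR_835
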