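import Crest.Agent.R281.Fuj3_207
import Crest.Agent.R281.Fuj4_207
import Crest.Agent.R281.HkR8_835
import Crest.Agent.R281.HkP3_508
import Crest.Agent.R281.KpK_487
import Crest.Agent.R281.Hdg4_850

/-!
# Row 281, FUJ-INT, part 5 (helper207): the Fujiki relation on a compact hyperkaehler manifold

* `E11 A`     : closed real (1,1)-forms in `F2 (ofAtl A)`
* `clH`       : holomorphic 2-forms are closed
* `reS`, `imS`: `Re σ`, `Im σ`
* `exists_tri`: every Kaehler class contains `ω` with `(ω, ρ Re σ, ρ Im σ)` a hyperkaehler triple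
* `dec`       : `w = a Re σ + b Im σ + (1,1) + exact`
* `fujiki`    : the Fujiki relation on all closed real 2-forms, from openness of Kaehler forms
                (`Open11`) and positivity (`hpos`)
-/

set_option autoImplicit false
set_option linter.unusedSectionVars false
set_option maxSynthPendingDepth 3

open Set Filter Topology Complex MeasureTheory
open scoped ContDiff Matrix ComplexConjugate ComplexOrder

namespace Crest.Agent.R281.Fuj5_207

open Crest.Agent.R275.Geo Crest.Agent.R275.Core144 Crest.Agent.R275.EDR890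
open Crest.Agent.R275.GC293
open Crest.Agent.R273.Defs_333 Crest.Agent.R273.Kah_333 Crest.Agent.R273.Hess_333
open Crest.Agent.R273.Vol_333
open Crest.Agent.R281.HkR_835 Crest.Agent.R281.Ti_846
open Crest.Agent.R281.HkP1_508 Crest.Agent.R281.HkP2_508 Crest.Agent.R281.HkP3_508
open Crest.Agent.R281.Defs_273 (H2 HSymp)
open Crest.Agent.R281.Fuj1_207 (Qf Tri Kills)
open Crest.Agent.R281.Fuj3_207 Crest.Agent.R281.Fuj4_207

noncomputable section

variable {d : ℕ} {M : Type} [TopologicalSpace M] {A : Atl d M}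

/-- closed real (1,1)-forms -/
def E11 (A : Atl d M) : Submodule ℝ (F2 (ofAtl A)) where
  carrier := {w | ∀ i, ∀ z ∈ (A.e i).target, ∀ u v, w.w i z (I • u) (I • v) = w.w i z u v}
  zero_mem' := fun i z _ u v => by simp
  add_mem' {x y} hx hy := fun i z hz u v => by
    have h1 := hx i z hz u v
    have h2 := hy i z hz u v
    show x.w i z (I • u) (I • v) + y.w i z (I • u) (I • v) = x.w i z u v + y.w i z u v
    rw [h1, h2]
  smul_mem' c x hx := fun i z hz u v => by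
    have h1 := hx i z hz u v
    show c * x.w i z (I • u) (I • v) = c * x.w i z u v
    rw [h1]

theorem mem_E11 {w : F2 (ofAtl A)} : w ∈ E11 A ↔
    ∀ i, ∀ z ∈ (A.e i).target, ∀ u v, w.w i z (I • u) (I • v) = w.w i z u v := Iff.rfl

theorem f2_mem (K : K11 A) : K.f2 ∈ E11 A := fun _ _ hz u v => K.f2_inv hz u v

/-- forms which agree on the targets are cohomologous -/
theorem mem_exS_of_eq {w w' : F2 (ofAtl A)}
    (h : ∀ i, ∀ z ∈ (A.e i).target, ∀ u v, w.w i z u v = w'.w i z u v) :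
    w - w' ∈ exS (ofAtl A) := by
  refine mem_exS.2 ⟨0, fun i z hz u v => ?_⟩
  have h1 : z ∈ (A.e i).target := hz
  rw [F1.fderiv_zero]
  show w.w i z u v - w'.w i z u v = _
  rw [h i z h1]
  simp

section closed

variable [T2Space M] [CompactSpace M] [ConnectedSpace M] [Finite A.ι] (P : Part A) (K : Kah A)
  (σ : HSymp A) (hu : σ.Uniq)

include P K hu in
/-- holomorphic 2-forms on a compact Kaehler manifold with a symplectic form are closed -/
theorem clH (τ : H2 A) : ClH τ := by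
  obtain ⟨u, hs, hp, r, hr, h0, h1⟩ := exists_HK_class P (KpK_487.yau_kah A) K σ hu
  intro i z hz a b c
  exact closed_of_par (par_h2 P h1.ric τ) i hz a b c

end closed

/-- `Re σ` -/
def reS (σ : H2 A) (h : ClH σ) : F2 (ofAtl A) := f2H σ h

/-- `Im σ` -/
def imS (σ : H2 A) (h : ClH σ) : F2 (ofAtl A) := f2H (csm (-I) σ) (csm_cl h _)

theorem reS_w (σ : H2 A) (h : ClH σ) (i : A.ι) (z u v : Cn d) :
    (reS σ h).w i z u v = (sb (sl σ i z) u v).re := f2H_w σ h i z u v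

theorem imS_w (σ : H2 A) (h : ClH σ) (i : A.ι) (z u v : Cn d) :
    (imS σ h).w i z u v = (sb (sl σ i z) u v).im := f2H_I_w σ _ i z u v

/-- hyperkaehler metric: triple -/
theorem exists_triple {K : Kah A} {σ : HSymp A} (hc : ClH σ.toH2) {r : ℝ} (hr : (r : ℂ) ≠ 0)
    (h : HK K (smulHS (r : ℂ) hr σ)) : ∃ H : HkT (ofAtl A), H.om 0 = (ofKah K).f2 ∧
      H.om 1 = r • reS σ.toH2 hc ∧ H.om 2 = r • imS σ.toH2 hc := by
  have hc' : ClH (smulHS (r : ℂ) hr σ).toH2 := fun i z hz a b c => h.closed i hz a b c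
  refine ⟨HkT.ofKS K (smulHS (r : ℂ) hr σ).toH2 hc' h.rel, rfl, ?_, ?_⟩
  · rw [HkT.ofKS_om1]
    refine F2.ext (funext fun i => funext fun z => ?_)
    ext u v
    rw [f2H_w]
    show _ = r * (reS σ.toH2 hc).w i z u v
    rw [reS_w]
    have : sl (smulHS (r : ℂ) hr σ).toH2 i z = (r : ℂ) • sl σ.toH2 i z := rfl
    rw [this, sb_smul, Complex.re_ofReal_mul]
  · rw [HkT.ofKS_om2]
    refine F2.ext (funext fun i => funext fun z => ?_)
    ext u v
    rw [f2H_I_w]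
    show _ = r * (imS σ.toH2 hc).w i z u v
    rw [imS_w]
    have : sl (smulHS (r : ℂ) hr σ).toH2 i z = (r : ℂ) • sl σ.toH2 i z := rfl
    rw [this, sb_smul, Complex.im_ofReal_mul]

section main

variable [T2Space M] [CompactSpace M] [ConnectedSpace M] [Finite A.ι] (P : Part A)
  (σ : HSymp A) (hu : σ.Uniq) (hc : ClH σ.toH2)

include P hu in
/-- **every Kaehler class contains the first form of a hyperkaehler triple** -/
theorem exists_tri (K : Kah A) : ∃ (K' : Kah A) (H : HkT (ofAtl A)) (ρ : ℝ), 0 < ρ ∧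
    H.om 0 = (ofKah K').f2 ∧ H.om 1 = ρ • reS σ.toH2 hc ∧ H.om 2 = ρ • imS σ.toH2 hc ∧
    (ofKah K').f2 - (ofKah K).f2 ∈ exS (ofAtl A) := by
  obtain ⟨u, hs, hp, r, hr, h0, h1⟩ := exists_HK_class P (KpK_487.yau_kah A) K σ hu
  obtain ⟨H, h2, h3, h4⟩ := exists_triple hc hr h1
  exact ⟨addK K u hs hp, H, r, h0, h2, h3, h4, mem_exS.2 (ex_addK K u hs hp)⟩

include P hu in
/-- **Hodge decomposition** of closed real 2-forms -/
theorem dec (K : Kah A) (w : F2 (ofAtl A)) : ∃ (a b : ℝ), ∃ y ∈ E11 A, ∃ e ∈ exS (ofAtl A),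
    w = a • reS σ.toH2 hc + b • imS σ.toH2 hc + y + e := by
  obtain ⟨τ, η, h⟩ := Hdg_850.split P K w
  obtain ⟨c, hτ⟩ := hu τ
  have hcl : ClH τ := clH P K σ hu τ
  set δ : F2 (ofAtl A) := f2H τ hcl - (c.re • reS σ.toH2 hc + (-c.im) • imS σ.toH2 hc) with hδ
  have hδ' : δ ∈ exS (ofAtl A) := by
    refine mem_exS_of_eq fun i z hz u v => ?_
    show _ = c.re * (reS σ.toH2 hc).w i z u v + (-c.im) * (imS σ.toH2 hc).w i z u v
    rw [f2H_w, reS_w, imS_w]
    have : sl τ i z = c • sl σ.toH2 i z := hτ i _ ((A.e i).map_target hz)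
    rw [this, sb_smul, Complex.mul_re]
    ring
  refine ⟨c.re, -c.im, w - η.d - f2H τ hcl, fun i z hz u v => ?_, η.d + δ,
    (exS _).add_mem (mem_exS.2 ⟨η, η.isD⟩) hδ', ?_⟩
  · exact h i z hz u v
  · rw [hδ]
    abel

/-- **openness of Kaehler forms** (850 (h4)) -/
def Open11 (A : Atl d M) : Prop := ∀ (K : Kah A), ∀ y ∈ E11 A, ∃ ε > 0, ∀ t : ℝ, 0 < t → t < ε →
  ∃ K' : Kah A, ∀ i, ∀ z ∈ (A.e i).target, ∀ u v,
    (ofKah K').f2.w i z u v = ((ofKah K).f2 + t • y).w i z u v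

variable {N ν : ℕ} (μ : Measure (Cn d)) [μ.IsAddHaarMeasure]
  (b : Module.Basis (Fin N × Fin 2) ℝ (Cn d)) (RP : RPart (ofAtl A))

include P hu in
/-- near a Kaehler form every closed real 2-form is, up to exact forms, in the span of a triple -/
theorem near (ho : Open11 A) (K : Kah A) (y : F2 (ofAtl A)) : ∃ ε > 0, ∀ t : ℝ, 0 < t → t < ε →
    ∃ (K' : Kah A) (H : HkT (ofAtl A)) (ρ a c : ℝ), 0 < ρ ∧ H.om 0 = (ofKah K').f2 ∧
      H.om 1 = ρ • reS σ.toH2 hc ∧ H.om 2 = ρ • imS σ.toH2 hc ∧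
      (y ∈ E11 A → a = 0 ∧ c = 0) ∧
      ∃ e ∈ exS (ofAtl A), (ofKah K).f2 + t • y =
        H.om 0 + a • reS σ.toH2 hc + c • imS σ.toH2 hc + e := by
  obtain ⟨a, c, y', hy', e, he, hw, hac⟩ : ∃ (a c : ℝ), ∃ y' ∈ E11 A, ∃ e ∈ exS (ofAtl A),
      y = a • reS σ.toH2 hc + c • imS σ.toH2 hc + y' + e ∧ (y ∈ E11 A → a = 0 ∧ c = 0) := by
    by_cases hy : y ∈ E11 A
    · exact ⟨0, 0, y, hy, 0, (exS _).zero_mem, by simp, fun _ => ⟨rfl, rfl⟩⟩
    · obtain ⟨a, c, y', hy', e, he, hw⟩ := dec P σ hu hc K y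
      exact ⟨a, c, y', hy', e, he, hw, fun h => absurd h hy⟩
  obtain ⟨ε, hε, h1⟩ := ho K y' hy'
  refine ⟨ε, hε, fun t ht0 ht1 => ?_⟩
  obtain ⟨K1, hK1⟩ := h1 t ht0 ht1
  obtain ⟨K', H, ρ, hρ, h2, h3, h4, h5⟩ := exists_tri P σ hu hc K1
  refine ⟨K', H, ρ, t * a, t * c, hρ, h2, h3, h4, fun hy => ?_, t • e -
    (((ofKah K').f2 - (ofKah K1).f2) + ((ofKah K1).f2 - ((ofKah K).f2 + t • y'))),
    (exS _).sub_mem ((exS _).smul_mem t he) ((exS _).add_mem h5 (mem_exS_of_eq hK1)), ?_⟩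
  · obtain ⟨h6, h7⟩ := hac hy
    rw [h6, h7, mul_zero]
    exact ⟨rfl, rfl⟩
  · rw [h2, hw]
    module

include P hu in
/-- **THE FUJIKI RELATION** on all closed real 2-forms -/
theorem fujiki (hν : 1 ≤ ν) (hN : N = 2 * ν) (hN2 : 2 ≤ N) (hor : Ori (ofAtl A)) (ho : Open11 A)
    (hpos : ∀ K : Kah A, 0 < IM μ b RP (fun _ => (ofKah K).f2)) (K : Kah A)
    (x : F2 (ofAtl A)) : IM μ b RP (fun _ => x) =
      Qf (IM μ b RP) hN2 ν (reS σ.toH2 hc) x x ^ ν := by
  refine fujiki_IM μ b RP hν hN hN2 hor (s := imS σ.toH2 hc) (ofKah K).f2 (fun y => ?_) x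
  obtain ⟨ε, hε, h1⟩ := near P σ hu hc ho K y
  refine ⟨ε, hε, fun t ht0 ht1 => ?_⟩
  obtain ⟨K', H, ρ, a, c, hρ, h2, h3, h4, -, e, he, h5⟩ := h1 t ht0 ht1
  exact ⟨H, ρ, a, c, hρ, h3, h4, by rw [h2]; exact hpos K', e, he, h5⟩

end main

end

end Crest.Agent.R281.Fuj5_207
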