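import Crest.Agent.R281.Fuj5_207
import Crest.Agent.R281.FujSig_358

/-!
# Row 281, FUJ-INT, part 6 (helper207): the structure `FujSig_358.Sig` on `F2 (ofAtl A)`

`sig` : the Beauville-Bogomolov-Fujiki form on closed real 2-forms of a compact hyperkaehler
manifold, with the Hodge index theorem `hodge` (850 (h3)) as the only remaining input besides
`Open11` (850 (h4)) and positivity of the volume of Kaehler forms.
-/

set_option autoImplicit false
set_option linter.unusedSectionVars false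
set_option maxSynthPendingDepth 3

open Set Filter Topology Complex MeasureTheory
open scoped ContDiff Matrix ComplexConjugate ComplexOrder

namespace Crest.Agent.R281.Fuj6_207

open Crest.Agent.R275.Geo Crest.Agent.R275.Core144 Crest.Agent.R275.EDR890
open Crest.Agent.R275.GC293
open Crest.Agent.R273.Defs_333 Crest.Agent.R273.Kah_333
open Crest.Agent.R281.HkR_835 Crest.Agent.R281.Ti_846
open Crest.Agent.R281.HkP1_508 Crest.Agent.R281.HkP2_508 Crest.Agent.R281.HkP3_508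
open Crest.Agent.R281.Defs_273 (H2 HSymp)
open Crest.Agent.R281.Fuj1_207 Crest.Agent.R281.Fuj4_207 Crest.Agent.R281.Fuj5_207
open Crest.Agent.R281.FujP_513 (Symm mixv)
open Crest.Agent.R281.FujSig_358 (Sig)

noncomputable section

variable {d : ℕ} {M : Type} [TopologicalSpace M] {A : Atl d M}

section

variable [T2Space M] [CompactSpace M] [ConnectedSpace M] [Finite A.ι] (P : Part A)
  (σ : HSymp A) (hu : σ.Uniq) (hc : ClH σ.toH2) {N ν : ℕ} (μ : Measure (Cn d))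
  [μ.IsAddHaarMeasure] (b : Module.Basis (Fin N × Fin 2) ℝ (Cn d)) (RP : RPart (ofAtl A))

/-- the form depends on classes only -/
theorem Qf_congr (hor : Ori (ofAtl A)) (hN2 : 2 ≤ N) (r : F2 (ofAtl A)) {x x' : F2 (ofAtl A)}
    (h : x - x' ∈ exS (ofAtl A)) (y : F2 (ofAtl A)) :
    Qf (IM μ b RP) hN2 ν r y x = Qf (IM μ b RP) hN2 ν r y x' := by
  have h1 := (kills μ b RP hor).Qf_right (e := x - x') h hN2 ν r y
  rw [map_sub, sub_eq_zero] at h1
  exact h1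

variable (hν : 1 ≤ ν) (hN : N = 2 * ν) (hN2 : 2 ≤ N) (hor : Ori (ofAtl A))
  (hpos : ∀ K : Kah A, 0 < IM μ b RP (fun _ => (ofKah K).f2)) (K : Kah A)

include P hu hν hN hor hpos

/-- values of the form on `Re σ`, `Im σ` and a Kaehler form -/
theorem values : 0 < Qf (IM μ b RP) hN2 ν (reS σ.toH2 hc) (reS σ.toH2 hc) (reS σ.toH2 hc) ∧
    Qf (IM μ b RP) hN2 ν (reS σ.toH2 hc) (imS σ.toH2 hc) (imS σ.toH2 hc) =
      Qf (IM μ b RP) hN2 ν (reS σ.toH2 hc) (reS σ.toH2 hc) (reS σ.toH2 hc) ∧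
    Qf (IM μ b RP) hN2 ν (reS σ.toH2 hc) (reS σ.toH2 hc) (imS σ.toH2 hc) = 0 ∧
    Qf (IM μ b RP) hN2 ν (reS σ.toH2 hc) (reS σ.toH2 hc) (ofKah K).f2 = 0 ∧
    Qf (IM μ b RP) hN2 ν (reS σ.toH2 hc) (imS σ.toH2 hc) (ofKah K).f2 = 0 ∧
    0 < Qf (IM μ b RP) hN2 ν (reS σ.toH2 hc) (ofKah K).f2 (ofKah K).f2 := by
  obtain ⟨K', H, ρ, hρ, h0, h1, h2, h3⟩ := exists_tri P σ hu hc K
  have ht := tri_of_hk μ b RP hN H hρ h1 h2 (by rw [h0]; exact hpos K')
  have hT := IM_symm μ b RP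
  rw [h0] at ht
  have e1 := Qf_congr (ν := ν) μ b RP hor hN2 (reS σ.toH2 hc) h3 (reS σ.toH2 hc)
  have e2 := Qf_congr (ν := ν) μ b RP hor hN2 (reS σ.toH2 hc) h3 (imS σ.toH2 hc)
  have e3 := Qf_congr (ν := ν) μ b RP hor hN2 (reS σ.toH2 hc) h3 (ofKah K).f2
  have e4 := Qf_congr (ν := ν) μ b RP hor hN2 (reS σ.toH2 hc) h3 (ofKah K').f2
  refine ⟨?_, ?_, ht.Qf_rs hT hν hN hN2, ?_, ?_, ?_⟩
  · rw [ht.Qf_rr hT hν hN hN2]
    exact rt_pos ht.S_pos ν
  · rw [ht.Qf_rr hT hν hN hN2, ht.Qf_ss hT hν hN hN2]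
  · rw [← e1, Qf_symm hT, ht.Qf_kr hT hν hN hN2]
  · rw [← e2, Qf_symm hT, ht.Qf_ks hT hν hN hN2]
  · rw [← e3, Qf_symm hT, ← e4]
    exact ht.Qf_kk_pos hT hν hN hN2

include K in
/-- `Re σ`, `Im σ` are orthogonal to the closed (1,1)-forms -/
theorem orth11 (ho : Open11 A) {y : F2 (ofAtl A)} (hy : y ∈ E11 A) :
    Qf (IM μ b RP) hN2 ν (reS σ.toH2 hc) (reS σ.toH2 hc) y = 0 ∧
    Qf (IM μ b RP) hN2 ν (reS σ.toH2 hc) (imS σ.toH2 hc) y = 0 := by
  obtain ⟨ε, hε, h⟩ := near P σ hu hc ho K y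
  obtain ⟨K', H, ρ, a, c, hρ, h0, h1, h2, hac, e, he, h3⟩ := h (ε / 2) (by linarith) (by linarith)
  obtain ⟨rfl, rfl⟩ := hac hy
  have ht := tri_of_hk μ b RP hN H hρ h1 h2 (by rw [h0]; exact hpos K')
  have hT := IM_symm μ b RP
  obtain ⟨-, -, -, v1, v2, -⟩ := values P σ hu hc μ b RP hν hN hN2 hor hpos K
  have hk := kills μ b RP hor
  have g1 := congrArg (Qf (IM μ b RP) hN2 ν (reS σ.toH2 hc) (reS σ.toH2 hc)) h3
  have g2 := congrArg (Qf (IM μ b RP) hN2 ν (reS σ.toH2 hc) (imS σ.toH2 hc)) h3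
  rw [zero_smul, zero_smul, add_zero, add_zero, map_add, map_add, map_smul, v1,
    hk.Qf_right he, Qf_symm hT _ _ _ _ (H.om 0), ht.Qf_kr hT hν hN hN2, smul_eq_mul] at g1
  rw [zero_smul, zero_smul, add_zero, add_zero, map_add, map_add, map_smul, v2,
    hk.Qf_right he, Qf_symm hT _ _ _ _ (H.om 0), ht.Qf_ks hT hν hN hN2, smul_eq_mul] at g2
  have h5 : ε / 2 ≠ 0 := by positivity
  constructor
  · have : ε / 2 * Qf (IM μ b RP) hN2 ν (reS σ.toH2 hc) (reS σ.toH2 hc) y = 0 := by linarith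
    exact (mul_eq_zero.1 this).resolve_left h5
  · have : ε / 2 * Qf (IM μ b RP) hN2 ν (reS σ.toH2 hc) (imS σ.toH2 hc) y = 0 := by linarith
    exact (mul_eq_zero.1 this).resolve_left h5

end

/-- **THE SIGNATURE PACKAGE** on `F2 (ofAtl A)` -/
theorem sig [T2Space M] [CompactSpace M] [ConnectedSpace M] [Finite A.ι] (P : Part A)
    (σ : HSymp A) (hu : σ.Uniq) (hc : ClH σ.toH2) {n : ℕ} (hn : 1 ≤ n) (hn2 : 2 ≤ n + n)
    (μ : Measure (Cn d)) [μ.IsAddHaarMeasure] (b : Module.Basis (Fin (n + n) × Fin 2) ℝ (Cn d))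
    (RP : RPart (ofAtl A)) (hor : Ori (ofAtl A)) (ho : Open11 A)
    (hpos : ∀ K : Kah A, 0 < IM μ b RP (fun _ => (ofKah K).f2)) (K : Kah A)
    (hodge : ∀ y ∈ E11 A, IM μ b RP (mixv (n + n) 1 (ofKah K).f2 y) = 0 →
      IM μ b RP (mixv (n + n) 2 (ofKah K).f2 y) ≤ 0 ∧
        (IM μ b RP (mixv (n + n) 2 (ofKah K).f2 y) = 0 → y ∈ exS (ofAtl A))) :
    Sig (IM μ b RP) (qf (IM μ b RP) hn2 n (reS σ.toH2 hc)) (exS (ofAtl A)) (E11 A)
      (reS σ.toH2 hc) (imS σ.toH2 hc) (ofKah K).f2 := by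
  have hN : n + n = 2 * n := by omega
  have hT := IM_symm μ b RP
  have hk := kills μ b RP hor
  obtain ⟨v0, v1, v2, v3, v4, v5⟩ := values P σ hu hc μ b RP hn hN hn2 hor hpos K
  have hp : ∀ x y, QuadraticMap.polar (qf (IM μ b RP) hn2 n (reS σ.toH2 hc)) x y =
      2 * Qf (IM μ b RP) hn2 n (reS σ.toH2 hc) x y := polar_qf hT hn2 n _
  exact {
    pos := hn
    symm := hT
    fuj := fujiki P σ hu hc μ b RP hn hN hn2 hor ho hpos K
    ex := fun x e he => by rw [hp, hk.Qf_right he, mul_zero]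
    qex := fun e he => by rw [qf_apply, hk.Qf_right he]
    dec := dec P σ hu hc K
    qr := v0
    qs := v1
    rs := by rw [hp, v2, mul_zero]
    r11 := fun y hy => by
      rw [hp, (orth11 P σ hu hc μ b RP hn hN hn2 hor hpos K ho hy).1, mul_zero]
    s11 := fun y hy => by
      rw [hp, (orth11 P σ hu hc μ b RP hn hN hn2 hor hpos K ho hy).2, mul_zero]
    K11 := f2_mem (ofKah K)
    qK := v5
    hodge := hodge }

end

end Crest.Agent.R281.Fuj6_207
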