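import Crest.Agent.R281.Hdg6_850
import Crest.Agent.R281.Ti7_846
import Crest.Agent.R281.FujP_513
import Crest.Agent.R273.CLinE_933

/-!
# Row 281, HODGE-2, part 7 (helper850): (h2) and (h3)

* `tr2`      : `tr (G⁻¹ X G⁻¹ X) ≥ 0` for Hermitian `X`, `= 0` only for `X = 0`
* `prim`     : a closed (1,1)-form minus `i ∂∂̄ v` has constant trace
* `hodge_dd` : the Hodge index theorem, with `i ∂∂̄ v` in the case of equality
* `hodge`    : (h3), the shape of `FujSig_358.Sig.hodge`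
* `ddbar`    : (h2), the `∂∂̄`-lemma for (1,1)-forms
-/

set_option autoImplicit false
set_option linter.unusedSectionVars false
set_option maxSynthPendingDepth 3

open Set Filter Topology Complex MeasureTheory
open scoped ContDiff Matrix ComplexConjugate ComplexOrder

namespace Crest.Agent.R281.Hdg_850

open Crest.Agent.R275 Crest.Agent.R275.Geo Crest.Agent.R275.Core144 Crest.Agent.R275.EDR890
open Crest.Agent.R273 Crest.Agent.R273.Kah_333 Crest.Agent.R273.LamN127
open Crest.Agent.R273.Hess_333 Crest.Agent.R273.Vm_333 Crest.Agent.R273.Vol_333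
open Crest.Agent.R273.Defs_333
open Crest.Agent.R281.Defs_273 (H2)
open Crest.Agent.R281.HkP2_508 (sl Span1)
open Crest.Agent.R281.HkR_835 Crest.Agent.R281.Ti_846
open Crest.Agent.R281.FujP_513 (mixv)
open Crest.Agent.R281.Fuj3_207 (dcF1 dcF1_d)

noncomputable section

variable {n : ℕ} {M : Type} [TopologicalSpace M] {A : Atl n M}

/-- the norm of a Hermitian form -/
theorem tr2 {G X : Matrix (Fin n) (Fin n) ℂ} (hG : G.PosDef) (hX : X.IsHermitian) :
    ∃ s : ℝ, 0 ≤ s ∧ (G⁻¹ * X * (G⁻¹ * X)).trace = s ∧ (s = 0 → X = 0) := by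
  obtain ⟨B, hB⟩ := GreenM_5.exists_msqrt hG.inv.posSemidef
  set Y := B * X * Bᴴ with hY
  have hYh : Yᴴ = Y := by
    rw [hY, Matrix.conjTranspose_mul, Matrix.conjTranspose_mul, Matrix.conjTranspose_conjTranspose,
      hX.eq, Matrix.mul_assoc]
  have h1 : (G⁻¹ * X * (G⁻¹ * X)).trace = (Yᴴ * Y).trace := by
    rw [hYh, hB, hY]
    have e1 : Bᴴ * B * X * (Bᴴ * B * X) = Bᴴ * (B * X * Bᴴ * B * X) := by
      simp only [Matrix.mul_assoc]
    rw [e1, Matrix.trace_mul_comm]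
    congr 1
    simp only [Matrix.mul_assoc]
  have h2 : (Yᴴ * Y).trace = ((∑ b, ∑ a, ‖Y a b‖ ^ 2 : ℝ) : ℂ) := by
    rw [Matrix.trace]
    push_cast
    refine Finset.sum_congr rfl fun b _ => ?_
    rw [Matrix.diag_apply, Matrix.mul_apply]
    refine Finset.sum_congr rfl fun a _ => ?_
    rw [Matrix.conjTranspose_apply, ← Complex.conj_mul']
    rfl
  refine ⟨∑ b, ∑ a, ‖Y a b‖ ^ 2, by positivity, by rw [h1, h2], fun h0 => ?_⟩
  have h3 : Y = 0 := by
    ext a b
    have e1 := (Finset.sum_eq_zero_iff_of_nonneg fun b _ =>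
      Finset.sum_nonneg fun a _ => sq_nonneg ‖Y a b‖).1 h0 b (Finset.mem_univ b)
    have e2 := (Finset.sum_eq_zero_iff_of_nonneg fun a _ => sq_nonneg ‖Y a b‖).1 e1 a
      (Finset.mem_univ a)
    simpa using e2
  have hBd : B.det ≠ 0 := by
    intro h
    have e1 : (G⁻¹).det = 0 := by rw [hB, Matrix.det_mul, h, mul_zero]
    exact hG.inv.det_pos.ne' e1
  have hBu : IsUnit B.det := isUnit_iff_ne_zero.2 hBd
  have hBu' : IsUnit (Bᴴ).det := by
    rw [Matrix.det_conjTranspose]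
    exact hBu.star
  calc X = B⁻¹ * (B * X * Bᴴ) * (Bᴴ)⁻¹ := by
        rw [Matrix.mul_assoc B X, ← Matrix.mul_assoc B⁻¹, Matrix.nonsing_inv_mul _ hBu,
          Matrix.one_mul, Matrix.mul_assoc, Matrix.mul_nonsing_inv _ hBu', Matrix.mul_one]
    _ = 0 := by rw [← hY, h3, Matrix.mul_zero, Matrix.zero_mul]

/-- the matrix of a closed (1,1)-form -/
theorem hb_k11 (w : F2 (ofAtl A)) (hw : w ∈ E11 A) {i : A.ι} {x : M} (hx : x ∈ (A.e i).source)
    (u v : Cn n) : hb ((w.k11 hw).g i x) u v =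
      ((w.w i (A.e i x) u (I • v) : ℝ) : ℂ) - I * ((w.w i (A.e i x) u v : ℝ) : ℂ) := by
  have hz := (A.e i).map_source hx
  have e2 := K11.f2_w (w.k11 hw) hz u v
  have e3 := K11.f2_w (w.k11 hw) hz u (I • v)
  rw [F2.k11_f2 w hw hz, (A.e i).left_inv hx] at e2 e3
  rw [hb_I_right] at e3
  rw [e2, e3]
  apply Complex.ext <;> simp

theorem dc_w (v : M → ℝ) (hv : A.Sm v) {i : A.ι} {z : Cn n} (hz : z ∈ (A.e i).target)
    (a b : Cn n) : (dcF1 v hv).d.w i z a b = (I * hb (hsf A v i ((A.e i).symm z)) a b).re :=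
  dcF1_d v hv hz a b

theorem dc_mem (v : M → ℝ) (hv : A.Sm v) : (dcF1 v hv).d ∈ E11 A := by
  intro i z hz a b
  rw [dc_w v hv hz, dc_w v hv hz, hb_I_left, hb_I_right]
  congr 2
  linear_combination (-(hb (hsf A v i ((A.e i).symm z)) a b)) * I_mul_I

theorem dc_k11 (v : M → ℝ) (hv : A.Sm v) {i : A.ι} {x : M} (hx : x ∈ (A.e i).source) :
    ((dcF1 v hv).d.k11 (dc_mem v hv)).g i x = hsf A v i x := by
  have hz := (A.e i).map_source hx
  refine hb_ext fun a b => ?_
  rw [hb_k11 _ (dc_mem v hv) hx, dc_w v hv hz, dc_w v hv hz, hb_I_right, (A.e i).left_inv hx]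
  apply Complex.ext <;> simp

theorem k11_sub (w w' : F2 (ofAtl A)) (hw : w ∈ E11 A) (hw' : w' ∈ E11 A)
    (h : w - w' ∈ E11 A) {i : A.ι} {x : M} (hx : x ∈ (A.e i).source) :
    ((w - w').k11 h).g i x = (w.k11 hw).g i x - (w'.k11 hw').g i x := by
  refine hb_ext fun a b => ?_
  rw [← hbL_apply a b (_ - _), map_sub, hbL_apply, hbL_apply, hb_k11 _ h hx, hb_k11 _ hw hx,
    hb_k11 _ hw' hx]
  have e1 : ∀ a b, (w - w').w i (A.e i x) a b = w.w i (A.e i x) a b - w'.w i (A.e i x) a b :=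
    fun a b => rfl
  rw [e1, e1]
  push_cast
  ring

/-- **normalised representative**: `y - i ∂∂̄ v` has constant trace `m` -/
theorem prim [T2Space M] [CompactSpace M] [ConnectedSpace M] [Finite A.ι] (P : Part A)
    (K : Kah A) (y : F2 (ofAtl A)) (hy : y ∈ E11 A) :
    ∃ (v : M → ℝ) (hv : A.Sm v) (m : ℝ), ∀ i, ∀ x ∈ (A.e i).source,
      ((K.g i x)⁻¹ * ((y - (dcF1 v hv).d).k11 ((E11 A).sub_mem hy (dc_mem v hv))).g i x).trace =
        m := by
  let _ : MeasurableSpace M := borel M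
  have : BorelSpace M := ⟨rfl⟩
  set G := y.k11 hy with hG
  have hT : GreenM_5.Tn A G.g := fun i j x hx => G.tr i j x hx
  have hf : A.Sm (fun x => (GreenM_5.trK K G.g x).re) :=
    GreenM_5.sm_re (GreenM_5.sm_trK K hT G.sm)
  obtain ⟨v, m, hv, he⟩ := CLin_933.lin_kah K P hf
  refine ⟨v, hv, m, fun i x hx => ?_⟩
  rw [k11_sub y _ hy (dc_mem v hv) _ hx, dc_k11 v hv hx, Matrix.mul_sub, Matrix.trace_sub]
  have h1 := he x
  rw [GreenM_5.lapK_eq K hv hx, GreenM_5.trK_eq K hT hx] at h1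
  have h2 := GreenM_5.trace_real (K.pos i x hx).isHermitian (G.herm i x hx)
  have h3 := GreenM_5.trace_real (K.pos i x hx).isHermitian (GreenM_5.hsf_herm hv hx)
  rw [← h2, ← h3, h1]
  push_cast
  ring

/-! ### integrals -/

section int

variable [CompactSpace M] [T2Space M] [ConnectedSpace M] [Finite A.ι]

theorem entries (K : F2 (ofAtl A)) (y : F2 (ofAtl A)) (X K' : K11 A) (a : ℕ)
    (hX : ∀ i, ∀ z ∈ (A.e i).target, X.f2.w i z = y.w i z)
    (hK : ∀ i, ∀ z ∈ (A.e i).target, K'.f2.w i z = K.w i z) (k : Fin n) :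
    ∀ i, ∀ z ∈ (A.e i).target, ∀ u v,
      (mixv n a K y k).w i z u v = ((if (k : ℕ) < a then X else K').f2).w i z u v := by
  intro i z hz u v
  by_cases h : (k : ℕ) < a
  · rw [mixv, if_pos h, if_pos h, hX i z hz]
  · rw [mixv, if_neg h, if_neg h, hK i z hz]

/-- linear term -/
theorem IM_one (hn : 2 ≤ n) (Pr : RPart (ofAtl A)) (K : Kah A) (X : K11 A) {m : ℝ}
    [MeasurableSpace M] [BorelSpace M]
    (hm : ∀ i, ∀ x ∈ (A.e i).source, ((K.g i x)⁻¹ * X.g i x).trace = m) :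
    II (lc n) (bc n) Pr (fun k => ((if (k : ℕ) < 1 then X else ofKah K).f2)) =
      2 ^ n * (n - 2).factorial * (((n : ℝ) - 1) * m * (vm (volK K)).real univ) := by
  have h0 : (0 : ℕ) < n := by omega
  have h1 : (1 : ℕ) < n := by omega
  rw [II_two K Pr (k := ⟨0, h0⟩) (l := ⟨1, h1⟩) (by simp [Fin.ext_iff])
    (fun k => if (k : ℕ) < 1 then X else ofKah K) ?_ (f := fun _ => ((n : ℝ) - 1) * m) ?_]
  · rw [integral_const, smul_eq_mul]
    ring
  · intro j hj _
    rw [if_neg]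
    intro h
    exact hj (Fin.ext (by simpa using h))
  · intro i x hx
    have hu : IsUnit (K.g i x).det := isUnit_iff_ne_zero.2 (K.pos i x hx).det_pos.ne'
    have e1 : (ofKah K).g i x = K.g i x := rfl
    simp only [zero_lt_one, if_true, lt_irrefl, if_false, e1]
    rw [Matrix.nonsing_inv_mul _ hu, Matrix.mul_one, Matrix.trace_one, hm i x hx, Fintype.card_fin]
    push_cast
    ring

/-- quadratic term -/
theorem IM_two (hn : 2 ≤ n) (Pr : RPart (ofAtl A)) (K : Kah A) (X : K11 A)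
    [MeasurableSpace M] [BorelSpace M]
    (hm : ∀ i, ∀ x ∈ (A.e i).source, ((K.g i x)⁻¹ * X.g i x).trace = 0) :
    II (lc n) (bc n) Pr (fun k => ((if (k : ℕ) < 2 then X else ofKah K).f2)) ≤ 0 ∧
      (II (lc n) (bc n) Pr (fun k => ((if (k : ℕ) < 2 then X else ofKah K).f2)) = 0 →
        ∀ i, ∀ x ∈ (A.e i).source, X.g i x = 0) := by
  have h0 : (0 : ℕ) < n := by omega
  have h1 : (1 : ℕ) < n := by omega
  set W : Fin n → F2 (ofAtl A) := fun k => ((if (k : ℕ) < 2 then X else ofKah K).f2) with hW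
  set F : M → ℝ := (TopF.of (bc n) W).fn (volK K) with hF
  have hFc : Continuous F := (TopF.of (bc n) W).fn_cont (volK K)
  have hint : II (lc n) (bc n) Pr W = ∫ x, F x ∂(vm (volK K)) := intT_eq (volK K) Pr _
  have key : ∀ i, ∀ x ∈ (A.e i).source, ∃ s : ℝ, 0 ≤ s ∧ F x = -(2 ^ n * (n - 2).factorial * s) ∧
      (s = 0 → X.g i x = 0) := by
    intro i x hx
    obtain ⟨s, hs0, hs1, hs2⟩ := tr2 (K.pos i x hx) (X.herm i x hx)
    refine ⟨s, hs0, ?_, hs2⟩
    have e1 := TP_k11 (fun k : Fin n => if (k : ℕ) < 2 then X else ofKah K) hx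
    have hu : IsUnit (K.g i x).det := isUnit_iff_ne_zero.2 (K.pos i x hx).det_pos.ne'
    rw [MD_two (k := ⟨0, h0⟩) (l := ⟨1, h1⟩) (by simp [Fin.ext_iff]) hu ?_] at e1
    · simp only [Nat.ofNat_pos, if_true, Nat.one_lt_ofNat] at e1
      rw [hm i x hx, hs1] at e1
      have e2 : TP (bc n) (fun k => (W k).w i (A.e i x)) = (volK K).w i x * F x :=
        (TopF.of (bc n) W).fn_eq (volK K) hx
      have e3 : (((volK K).w i x * F x : ℝ) : ℂ) =
          (((volK K).w i x * -(2 ^ n * (n - 2).factorial * s) : ℝ) : ℂ) := by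
        rw [← e2]
        refine e1.trans ?_
        rw [← volK_w K i hx]
        push_cast
        ring
      have e4 : (volK K).w i x * F x =
          (volK K).w i x * -(2 ^ n * (n - 2).factorial * s) := by exact_mod_cast e3
      exact mul_left_cancel₀ ((volK K).pos i x hx).ne' e4
    · intro j hj0 hj1
      have h2 : ¬ (j : ℕ) < 2 := by
        intro h
        have h3 : (j : ℕ) = 0 ∨ (j : ℕ) = 1 := by omega
        rcases h3 with h3 | h3
        · exact hj0 (Fin.ext h3)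
        · exact hj1 (Fin.ext h3)
      simp only [if_neg h2]
      rfl
  have hFn : ∀ x, F x ≤ 0 := by
    intro x
    obtain ⟨i, hi⟩ := A.cover x
    obtain ⟨s, hs0, hs1, -⟩ := key i x hi
    rw [hs1]
    have : 0 ≤ 2 ^ n * ((n - 2).factorial : ℝ) * s := by positivity
    linarith
  rw [hint]
  refine ⟨integral_nonpos hFn, fun hz => ?_⟩
  have := isFinite_vm (volK K)
  have := isOpenPos_vm (volK K)
  have h2 : F = fun _ => 0 := by
    have h3 : ∫ x, -F x ∂(vm (volK K)) = 0 := by rw [integral_neg, hz, neg_zero]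
    have h4 := (integral_eq_zero_iff_of_nonneg (μ := vm (volK K)) (f := fun x => -F x)
      (fun x => by
        show (0 : ℝ) ≤ -F x
        linarith [hFn x])
      (hFc.neg.integrable_of_hasCompactSupport (HasCompactSupport.of_compactSpace _))).1 h3
    have h5 : (fun x => -F x) = fun _ => (0 : ℝ) :=
      Measure.eq_of_ae_eq h4 hFc.neg continuous_const
    funext x
    have h6 : -F x = 0 := congrFun h5 x
    linarith
  intro i x hx
  obtain ⟨s, hs0, hs1, hs2⟩ := key i x hx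
  refine hs2 ?_
  rw [h2] at hs1
  have h7 : 0 < 2 ^ n * ((n - 2).factorial : ℝ) := by positivity
  have h8 : 2 ^ n * ((n - 2).factorial : ℝ) * s = 0 := by linarith
  exact (mul_eq_zero.1 h8).resolve_left h7.ne'

end int

/-- **Hodge index theorem**, precise form -/
theorem hodge_dd [CompactSpace M] [T2Space M] [ConnectedSpace M] [Finite A.ι] (hn : 2 ≤ n)
    (P : Part A) (Pr : RPart (ofAtl A)) (K : Kah A) (y : F2 (ofAtl A)) (hy : y ∈ E11 A)
    (h1 : IM (lc n) (bc n) Pr (mixv n 1 (ofKah K).f2 y) = 0) :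
    IM (lc n) (bc n) Pr (mixv n 2 (ofKah K).f2 y) ≤ 0 ∧
      (IM (lc n) (bc n) Pr (mixv n 2 (ofKah K).f2 y) = 0 → ∃ (v : M → ℝ), A.Sm v ∧
        ∀ i, ∀ x ∈ (A.e i).source, (y.k11 hy).g i x = hsf A v i x) := by
  let _ : MeasurableSpace M := borel M
  have : BorelSpace M := ⟨rfl⟩
  obtain ⟨v, hv, m, hm⟩ := prim P K y hy
  have hy' : y - (dcF1 v hv).d ∈ E11 A := (E11 A).sub_mem hy (dc_mem v hv)
  set y' := y - (dcF1 v hv).d with hy'd
  set X := y'.k11 hy' with hX
  have hco : ∀ a, IM (lc n) (bc n) Pr (mixv n a (ofKah K).f2 y) =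
      II (lc n) (bc n) Pr (fun k => ((if (k : ℕ) < a then X else ofKah K).f2)) := by
    intro a
    have e1 : IM (lc n) (bc n) Pr (mixv n a (ofKah K).f2 y) =
        IM (lc n) (bc n) Pr (mixv n a (ofKah K).f2 y') := by
      refine IM_coh (lc n) (bc n) Pr (ori_ofAtl A) fun k => ?_
      by_cases h : (k : ℕ) < a
      · rw [mixv, mixv, if_pos h, if_pos h, hy'd, sub_sub_cancel]
        exact ⟨dcF1 v hv, (dcF1 v hv).isD⟩
      · rw [mixv, mixv, if_neg h, if_neg h, sub_self]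
        exact (exS _).zero_mem
    rw [e1, IM_apply]
    exact II_congr (lc n) (bc n) Pr fun k i z hz u v' =>
      entries _ _ X (ofKah K) a (fun i z hz => F2.k11_f2 y' hy' hz) (fun _ _ _ => rfl) k i z hz
        u v'
  rw [hco] at h1
  rw [IM_one hn Pr K X hm] at h1
  have hV : 0 < (vm (volK K)).real univ := CLin_933.vm_pos K
  have hm0 : m = 0 := by
    have hn' : (0 : ℝ) < (n : ℝ) - 1 := by
      have : (2 : ℝ) ≤ n := by exact_mod_cast hn
      linarith
    have h2 : (0 : ℝ) < 2 ^ n * (n - 2).factorial := by positivity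
    rcases mul_eq_zero.1 h1 with h3 | h3
    · exact absurd h3 h2.ne'
    · rcases mul_eq_zero.1 h3 with h4 | h4
      · rcases mul_eq_zero.1 h4 with h5 | h5
        · exact absurd h5 hn'.ne'
        · exact h5
      · exact absurd h4 hV.ne'
  subst hm0
  rw [hco]
  have h2 := IM_two hn Pr K X (by simpa using hm)
  refine ⟨h2.1, fun h => ⟨v, hv, fun i x hx => ?_⟩⟩
  have h3 := h2.2 h i x hx
  rw [hX, k11_sub y _ hy (dc_mem v hv) hy' hx, dc_k11 v hv hx] at h3
  exact sub_eq_zero.1 h3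

/-- a (1,1)-form with matrix `i ∂∂̄ v` is exact -/
theorem ex_of_dd {y : F2 (ofAtl A)} (hy : y ∈ E11 A) {v : M → ℝ} (hv : A.Sm v)
    (h : ∀ i, ∀ x ∈ (A.e i).source, (y.k11 hy).g i x = hsf A v i x) : y ∈ exS (ofAtl A) := by
  refine Fuj3_207.ex_hsf v hv y fun i z hz a b => ?_
  rw [← h i _ ((A.e i).map_target hz), ← F2.k11_f2 y hy hz, K11.f2_w _ hz]

/-- **(h3)**: the Hodge index theorem, in the shape of `FujSig_358.Sig.hodge` -/
theorem hodge [CompactSpace M] [T2Space M] [ConnectedSpace M] [Finite A.ι] (hn : 2 ≤ n)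
    (P : Part A) (Pr : RPart (ofAtl A)) (K : Kah A) : ∀ y ∈ E11 A,
      IM (lc n) (bc n) Pr (mixv n 1 (ofKah K).f2 y) = 0 →
      IM (lc n) (bc n) Pr (mixv n 2 (ofKah K).f2 y) ≤ 0 ∧
      (IM (lc n) (bc n) Pr (mixv n 2 (ofKah K).f2 y) = 0 → y ∈ exS (ofAtl A)) := by
  intro y hy h1
  obtain ⟨h2, h3⟩ := hodge_dd hn P Pr K y hy h1
  refine ⟨h2, fun h => ?_⟩
  obtain ⟨v, hv, h4⟩ := h3 h
  exact ex_of_dd hy hv h4

/-- **(h2)**: the `∂∂̄`-lemma for closed real (1,1)-forms -/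
theorem ddbar [CompactSpace M] [T2Space M] [ConnectedSpace M] [Finite A.ι] (hn : 2 ≤ n)
    (P : Part A) (Pr : RPart (ofAtl A)) (K : Kah A) (y : F2 (ofAtl A)) (hy : y ∈ E11 A) :
    y ∈ exS (ofAtl A) ↔ ∃ (v : M → ℝ), A.Sm v ∧
        ∀ i, ∀ x ∈ (A.e i).source, (y.k11 hy).g i x = hsf A v i x := by
  constructor
  · intro he
    have h0 : (0 : ℕ) < n := by omega
    have e1 : ∀ a, 0 < a → IM (lc n) (bc n) Pr (mixv n a (ofKah K).f2 y) = 0 := by
      intro a ha
      refine IM_ex (lc n) (bc n) Pr (ori_ofAtl A) _ (k := ⟨0, h0⟩) ?_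
      rw [mixv, if_pos ha]
      exact he
    exact (hodge_dd hn P Pr K y hy (e1 1 one_pos)).2 (e1 2 two_pos)
  · rintro ⟨v, hv, h⟩
    exact ex_of_dd hy hv h

end

end Crest.Agent.R281.Hdg_850
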