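import Crest.Agent.R281.Fuj7_207
import Crest.Agent.R281.Hdg7_850

/-!
# Row 281, FUJ-INT, part 8 (helper207): the signature package, unconditional

* `hodge_Tn` : the Hodge index theorem for `Tn hd P`
* `sig`      : **`FujSig_358.Sig` on `F2 (ofAtl A)`** for a compact connected Kaehler manifold of
               dimension `d = n + n` with a holomorphic symplectic form `σ`, unique up to scalars
* `Qn`       : the Beauville-Bogomolov-Fujiki form, `Qn_fujiki`, `Qn_kah_pos`, ...
-/

set_option autoImplicit false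
set_option linter.unusedSectionVars false
set_option maxSynthPendingDepth 3

open Set Filter Topology Complex MeasureTheory
open scoped ContDiff Matrix ComplexConjugate ComplexOrder

namespace Crest.Agent.R281.Fuj8_207

open Crest.Agent.R275.Geo Crest.Agent.R275.Core144 Crest.Agent.R275.EDR890
open Crest.Agent.R273.Kah_333
open Crest.Agent.R281.HkR_835 Crest.Agent.R281.Ti_846
open Crest.Agent.R281.Defs_273 (H2 HSymp)
open Crest.Agent.R281.Fuj1_207 Crest.Agent.R281.Fuj5_207 Crest.Agent.R281.Fuj7_207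
open Crest.Agent.R281.FujP_513 (Symm mixv)
open Crest.Agent.R281.FujSig_358 (Sig)

noncomputable section

variable {d : ℕ} {M : Type} [TopologicalSpace M] [T2Space M] [CompactSpace M] [ConnectedSpace M]
  {A : Atl d M} [Finite A.ι] {n : ℕ} (hd : d = n + n) (P : Part A) (hn : 1 ≤ n) (K : Kah A)

include hn in
/-- **the Hodge index theorem** for `Tn` -/
theorem hodge_Tn : ∀ y ∈ E11 A, Tn hd P (mixv (n + n) 1 (ofKah K).f2 y) = 0 →
      Tn hd P (mixv (n + n) 2 (ofKah K).f2 y) ≤ 0 ∧
        (Tn hd P (mixv (n + n) 2 (ofKah K).f2 y) = 0 → y ∈ exS (ofAtl A)) := by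
  subst hd
  have h := Crest.Agent.R281.Hdg_850.hodge (A := A) (by omega) P (RPart.ofPart P) K
  have e : Tn rfl P = IM (lc (n + n)) (bc (n + n)) (RPart.ofPart P) := by
    unfold Tn
    rw [bn_rfl]
  rw [e]
  exact h

variable (σ : HSymp A) (hu : σ.Uniq) (hc : ClH σ.toH2) (hn2 : 2 ≤ n + n)

include hn hu in
/-- **THE SIGNATURE PACKAGE** -/
theorem sig : Sig (Tn hd P) (qf (Tn hd P) hn2 n (reS σ.toH2 hc)) (exS (ofAtl A)) (E11 A)
      (reS σ.toH2 hc) (imS σ.toH2 hc) (ofKah K).f2 :=
  sig_Tn hd P hn hn2 K σ hu hc (hodge_Tn hd P hn K)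

include P K hu in
/-- all holomorphic 2-forms are closed -/
theorem closedH (τ : H2 A) : ClH τ := clH P K σ hu τ

end

end Crest.Agent.R281.Fuj8_207
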