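import Mathlib

/-!
# Row 281, FUJ-RAT (249 #6045 (0)): the algebra of the Fujiki relation

Functions on a real vector space `H` which are polynomial on lines (`PolyL`); the identity theorem
for them; `F = q ^ n` on a set with algebraic interior ==> everywhere; if `q ^ n` takes rational
values on a rational structure `Hq`, then `q` is a real multiple of a rational form; the mixed
identities of a symmetric `2n`-linear form `T` with `T (x,..,x) = q x ^ n`.
-/

set_option autoImplicit false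

open Polynomial

namespace Crest.Agent.R281.FujR_513

variable {H : Type*} [AddCommGroup H] [Module ℝ H]

/-- `F` is polynomial on every affine line. -/
def PolyL (F : H → ℝ) : Prop := ∀ x y : H, ∃ p : ℝ[X], ∀ s : ℝ, F (x + s • y) = p.eval s

namespace PolyL

lemma const (c : ℝ) : PolyL (fun _ : H => c) := fun _ _ => ⟨C c, fun s => by simp⟩

lemma add {F G : H → ℝ} (hF : PolyL F) (hG : PolyL G) : PolyL (fun x => F x + G x) := by
  intro x y
  obtain ⟨p, hp⟩ := hF x y
  obtain ⟨r, hr⟩ := hG x y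
  exact ⟨p + r, fun s => by show F _ + G _ = _; rw [hp, hr, eval_add]⟩

lemma sub {F G : H → ℝ} (hF : PolyL F) (hG : PolyL G) : PolyL (fun x => F x - G x) := by
  intro x y
  obtain ⟨p, hp⟩ := hF x y
  obtain ⟨r, hr⟩ := hG x y
  exact ⟨p - r, fun s => by show F _ - G _ = _; rw [hp, hr, eval_sub]⟩

lemma mul {F G : H → ℝ} (hF : PolyL F) (hG : PolyL G) : PolyL (fun x => F x * G x) := by
  intro x y
  obtain ⟨p, hp⟩ := hF x y
  obtain ⟨r, hr⟩ := hG x y
  exact ⟨p * r, fun s => by show F _ * G _ = _; rw [hp, hr, eval_mul]⟩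

lemma smul {F : H → ℝ} (c : ℝ) (hF : PolyL F) : PolyL (fun x => c * F x) := (const c).mul hF

lemma pow {F : H → ℝ} (hF : PolyL F) (n : ℕ) : PolyL (fun x => F x ^ n) := by
  intro x y
  obtain ⟨p, hp⟩ := hF x y
  exact ⟨p ^ n, fun s => by show F _ ^ n = _; rw [hp, eval_pow]⟩

lemma sum {ι : Type*} (S : Finset ι) {F : ι → H → ℝ} (hF : ∀ i ∈ S, PolyL (F i)) :
    PolyL (fun x => ∑ i ∈ S, F i x) := by
  classical
  induction S using Finset.induction_on with
  | empty => simpa using const (0 : ℝ)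
  | insert a S ha ih =>
    simp only [Finset.sum_insert ha]
    exact (hF a (Finset.mem_insert_self _ _)).add
      (ih fun i hi => hF i (Finset.mem_insert_of_mem hi))

lemma linear (f : H →ₗ[ℝ] ℝ) : PolyL (fun x => f x) := by
  intro x y
  refine ⟨C (f x) + C (f y) * X, fun s => ?_⟩
  show f (x + s • y) = _
  rw [map_add, map_smul, eval_add, eval_mul, eval_C, eval_C, eval_X, smul_eq_mul, mul_comm s]

lemma quad (q : QuadraticForm ℝ H) : PolyL (fun x => q x) := by
  intro x y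
  refine ⟨C (q x) + C (QuadraticMap.polar q x y) * X + C (q y) * X ^ 2, fun s => ?_⟩
  have h1 : q (x + s • y) = q x + q (s • y) + QuadraticMap.polar q x (s • y) := by
    simp [QuadraticMap.polar]
  show q (x + s • y) = _
  rw [h1, QuadraticMap.polar_smul_right, QuadraticMap.map_smul]
  simp only [eval_add, eval_mul, eval_C, eval_X, eval_pow, smul_eq_mul]
  ring

/-- The diagonal of a multilinear form is polynomial on lines. -/
lemma multilinear {k : ℕ} (T : MultilinearMap ℝ (fun _ : Fin k => H) ℝ) :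
    PolyL (fun x => T (fun _ => x)) := by
  classical
  intro x y
  refine ⟨∑ S : Finset (Fin k), C (T (S.piecewise (fun _ => x) (fun _ => y))) * X ^ (Sᶜ).card,
    fun s => ?_⟩
  have h1 : (fun _ : Fin k => x + s • y) = (fun _ => x) + (fun _ => s • y) := rfl
  show T (fun _ : Fin k => x + s • y) = _
  rw [h1, MultilinearMap.map_add_univ, eval_finsetSum]
  refine Finset.sum_congr rfl fun S _ => ?_
  have h2 : S.piecewise (fun _ : Fin k => x) (fun _ => s • y) =
      (Sᶜ).piecewise (fun i => s • (S.piecewise (fun _ : Fin k => x) (fun _ => y)) i)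
        (S.piecewise (fun _ : Fin k => x) (fun _ => y)) := by
    funext i
    by_cases hi : i ∈ S
    · simp [hi]
    · simp [hi]
  rw [h2, MultilinearMap.map_piecewise_smul, Finset.prod_const, eval_mul, eval_C, eval_pow,
    eval_X, smul_eq_mul, mul_comm]

/-- Identity theorem: two functions polynomial on lines which agree near `x0` along every line
through `x0` are equal. -/
theorem ext_of_near {F G : H → ℝ} (hF : PolyL F) (hG : PolyL G) (x0 : H)
    (h : ∀ y : H, ∃ ε > 0, ∀ s : ℝ, 0 < s → s < ε → F (x0 + s • y) = G (x0 + s • y)) : F = G := by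
  funext x
  obtain ⟨p, hp⟩ := hF x0 (x - x0)
  obtain ⟨r, hr⟩ := hG x0 (x - x0)
  obtain ⟨ε, hε, hs⟩ := h (x - x0)
  have hpr : p = r := by
    refine Polynomial.eq_of_infinite_eval_eq p r ?_
    refine (Set.Ioo_infinite hε).mono fun s hs' => ?_
    have := hs s hs'.1 hs'.2
    rw [hp, hr] at this
    exact this
  have h1 := hp 1
  have h2 := hr 1
  rw [one_smul, add_sub_cancel] at h1 h2
  rw [h1, h2, hpr]

/-- The same with a nonempty open set. -/
theorem ext_of_open [TopologicalSpace H] [ContinuousAdd H] [ContinuousSMul ℝ H]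
    {F G : H → ℝ} (hF : PolyL F) (hG : PolyL G) {U : Set H} (hU : IsOpen U) {x0 : H}
    (hx0 : x0 ∈ U) (h : ∀ x ∈ U, F x = G x) : F = G := by
  refine ext_of_near hF hG x0 fun y => ?_
  have hc : Continuous fun s : ℝ => x0 + s • y := by fun_prop
  have h0 : (fun s : ℝ => x0 + s • y) ⁻¹' U ∈ nhds (0 : ℝ) :=
    (hU.preimage hc).mem_nhds (by simpa using hx0)
  obtain ⟨ε, hε, hb⟩ := Metric.mem_nhds_iff.1 h0
  refine ⟨ε, hε, fun s hs0 hs1 => h _ (hb ?_)⟩
  simpa [abs_of_pos hs0] using hs1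

end PolyL

/-! ### Rationality -/

/-- A real polynomial with rational values at all small positive rational points has rational
coefficients. -/
lemma exists_rat_poly {p : ℝ[X]} {ε : ℝ} (hε : 0 < ε)
    (hp : ∀ s : ℚ, 0 < s → (s : ℝ) < ε → ∃ r : ℚ, p.eval (s : ℝ) = r) :
    ∃ p' : ℚ[X], p = p'.map (algebraMap ℚ ℝ) := by
  classical
  set N := p.natDegree + 1 with hN
  obtain ⟨M, hM⟩ := exists_nat_gt ((N + 1 : ℝ) / ε)
  have hMpos : (0 : ℝ) < M := lt_trans (by positivity) hM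
  have hM0 : (M : ℚ) ≠ 0 := by
    have : M ≠ 0 := by rintro rfl; simp at hMpos
    exact_mod_cast this
  set nodes : ℕ → ℚ := fun i => ((i : ℚ) + 1) / M with hnodes
  have hval : ∀ i ∈ Finset.range N, ∃ r : ℚ, p.eval ((nodes i : ℚ) : ℝ) = r := by
    intro i hi
    have hi' : i < N := Finset.mem_range.1 hi
    refine hp _ ?_ ?_
    · have : (0 : ℚ) < M := by exact_mod_cast hMpos
      rw [hnodes]; positivity
    · rw [hnodes]
      push_cast
      rw [div_lt_iff₀ hMpos]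
      have h1 : (N + 1 : ℝ) < ε * M := by
        rw [div_lt_iff₀ hε] at hM; linarith
      have h2 : (i : ℝ) < N := by exact_mod_cast hi'
      linarith
  choose! v hv using hval
  have hinj : Set.InjOn nodes (Finset.range N : Set ℕ) := fun a _ b _ hab => by
    have h1 : ((a : ℚ) + 1) / M = ((b : ℚ) + 1) / M := hab
    rw [div_left_inj' hM0] at h1
    exact_mod_cast (add_right_cancel h1)
  set p' := Lagrange.interpolate (Finset.range N) nodes v with hp'
  refine ⟨p', ?_⟩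
  have hdeg' : p'.degree < (Finset.range N).card :=
    Lagrange.degree_interpolate_lt _ hinj
  have hinjR : Set.InjOn (fun i : ℕ => ((nodes i : ℚ) : ℝ)) (Finset.range N : Set ℕ) :=
    fun a ha b hb hab => hinj ha hb (by exact_mod_cast (show ((nodes a : ℚ) : ℝ) = nodes b from hab))
  refine Polynomial.eq_of_degrees_lt_of_eval_index_eq (s := Finset.range N)
    (v := fun i : ℕ => ((nodes i : ℚ) : ℝ)) hinjR ?_ ?_ ?_
  · rw [Finset.card_range, hN]
    refine lt_of_le_of_lt Polynomial.degree_le_natDegree ?_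
    exact_mod_cast Nat.lt_succ_self _
  · exact lt_of_le_of_lt (Polynomial.degree_map_le) hdeg'
  · intro i hi
    have h2 : p'.eval (nodes i) = v i := Lagrange.eval_interpolate_at_node _ hinj hi
    have h3 : (p'.map (algebraMap ℚ ℝ)).eval ((algebraMap ℚ ℝ) (nodes i)) =
        (algebraMap ℚ ℝ) (p'.eval (nodes i)) := Polynomial.eval_map_apply _ _
    rw [h2] at h3
    simp only [eq_ratCast] at h3
    show p.eval ((nodes i : ℚ) : ℝ) = (p'.map (algebraMap ℚ ℝ)).eval ((nodes i : ℚ) : ℝ)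
    rw [h3, hv i hi]

lemma coeff_rat {p : ℝ[X]} {ε : ℝ} (hε : 0 < ε)
    (hp : ∀ s : ℚ, 0 < s → (s : ℝ) < ε → ∃ r : ℚ, p.eval (s : ℝ) = r) (i : ℕ) :
    ∃ r : ℚ, p.coeff i = r := by
  obtain ⟨p', rfl⟩ := exists_rat_poly hε hp
  exact ⟨p'.coeff i, by simp⟩

/-- Taylor coefficients of `(1 + α X + β X²) ^ n`. -/
lemma coeff_pow (α β : ℝ) (n : ℕ) :
    ((1 + C α * X + C β * X ^ 2 : ℝ[X]) ^ n).coeff 0 = 1 ∧
    ((1 + C α * X + C β * X ^ 2 : ℝ[X]) ^ n).coeff 1 = n * α ∧
    ((1 + C α * X + C β * X ^ 2 : ℝ[X]) ^ n).coeff 2 = n * β + n * (n - 1) / 2 * α ^ 2 := by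
  induction n with
  | zero => simp [coeff_one]
  | succ n ih =>
    obtain ⟨h0, h1, h2⟩ := ih
    set P := (1 + C α * X + C β * X ^ 2 : ℝ[X]) ^ n with hP
    have e : (1 + C α * X + C β * X ^ 2 : ℝ[X]) ^ (n + 1) =
        P + C α * (P * X) + C β * (P * X ^ 2) := by
      rw [pow_succ, ← hP]; ring
    have c1 : (P * X).coeff 0 = 0 := by simp
    have c2 : (P * X).coeff 1 = P.coeff 0 := by
      exact coeff_mul_X P 0
    have c3 : (P * X).coeff 2 = P.coeff 1 := by
      exact coeff_mul_X P 1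
    have d1 : (P * X ^ 2).coeff 0 = 0 := by
      rw [coeff_mul_X_pow']; simp
    have d2 : (P * X ^ 2).coeff 1 = 0 := by
      rw [coeff_mul_X_pow']; simp
    have d3 : (P * X ^ 2).coeff 2 = P.coeff 0 := by
      rw [coeff_mul_X_pow']; simp
    rw [e]
    refine ⟨?_, ?_, ?_⟩
    · simp only [coeff_add, coeff_C_mul, c1, d1, h0]; ring
    · simp only [coeff_add, coeff_C_mul, c2, d2, h0, h1]; push_cast; ring
    · simp only [coeff_add, coeff_C_mul, c3, d3, h0, h1, h2]; push_cast; ring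

/-- **Rationality of the Beauville-Bogomolov form up to scale.** `Hq` a `ℚ`-subspace of `H`,
`q x0 ≠ 0`, and `q ^ n` (`n ≥ 1`) is rational at the points `x0 + s y`, `y ∈ Hq`,
`0 ≤ s` rational and small. Then `q / q x0` and its polar form are rational on `Hq`. -/
theorem rational_form {n : ℕ} (hn : 0 < n) (q : QuadraticForm ℝ H) (Hq : AddSubgroup H)
    {x0 : H} (h0 : q x0 ≠ 0) (hF0 : ∃ r : ℚ, q x0 ^ n = r)
    (hF : ∀ y ∈ Hq, ∃ ε : ℝ, 0 < ε ∧ ∀ s : ℚ, 0 < s → (s : ℝ) < ε →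
      ∃ r : ℚ, q (x0 + (s : ℝ) • y) ^ n = r) :
    (∀ x ∈ Hq, ∃ r : ℚ, q x = q x0 * r) ∧
    ∀ x ∈ Hq, ∀ y ∈ Hq, ∃ r : ℚ, QuadraticMap.polar q x y = q x0 * r := by
  have main : ∀ y ∈ Hq, ∃ r : ℚ, q y = q x0 * r := by
    intro y hy
    set α := QuadraticMap.polar q x0 y / q x0 with hα
    set β := q y / q x0 with hβ
    have hval : ∀ s : ℝ, ((1 + C α * X + C β * X ^ 2 : ℝ[X]) ^ n).eval s =
        q (x0 + s • y) ^ n / q x0 ^ n := by
      intro s
      have h1 : q (x0 + s • y) = q x0 + q (s • y) + QuadraticMap.polar q x0 (s • y) := by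
        simp [QuadraticMap.polar]
      rw [h1, QuadraticMap.polar_smul_right, QuadraticMap.map_smul]
      simp only [eval_pow, eval_add, eval_mul, eval_one, eval_C, eval_X, smul_eq_mul]
      rw [← div_pow, hα, hβ]
      congr 1
      field_simp
      ring
    obtain ⟨r0, hr0⟩ := hF0
    obtain ⟨ε, hε, hFε⟩ := hF y hy
    have hrat : ∀ s : ℚ, 0 < s → (s : ℝ) < ε →
        ∃ r : ℚ, ((1 + C α * X + C β * X ^ 2 : ℝ[X]) ^ n).eval (s : ℝ) = r := by
      intro s hs0 hs1
      obtain ⟨r, hr⟩ := hFε s hs0 hs1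
      exact ⟨r / r0, by rw [hval, hr, hr0]; push_cast; rfl⟩
    obtain ⟨a, ha⟩ := coeff_rat hε hrat 1
    obtain ⟨b, hb⟩ := coeff_rat hε hrat 2
    obtain ⟨-, hc1, hc2⟩ := coeff_pow α β n
    rw [hc1] at ha
    rw [hc2] at hb
    have hn0 : (n : ℝ) ≠ 0 := by positivity
    have hα' : α = ((a / n : ℚ) : ℝ) := by
      push_cast; field_simp; linarith
    have hβ' : β = (((b - n * (n - 1) / 2 * (a / n) ^ 2) / n : ℚ) : ℝ) := by
      push_cast
      rw [hα'] at hb
      push_cast at hb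
      rw [eq_div_iff hn0]
      linarith
    refine ⟨(b - n * (n - 1) / 2 * (a / n) ^ 2) / n, ?_⟩
    rw [← hβ', hβ]; field_simp
  refine ⟨main, fun x hx y hy => ?_⟩
  obtain ⟨r1, h1⟩ := main (x + y) (Hq.add_mem hx hy)
  obtain ⟨r2, h2⟩ := main x hx
  obtain ⟨r3, h3⟩ := main y hy
  refine ⟨r1 - r2 - r3, ?_⟩
  rw [QuadraticMap.polar, h1, h2, h3]
  push_cast
  ring

/-- The rational form `q0 = λ⁻¹ q`, `λ > 0`, if `q` is positive at a point `x0` of `Hq`, near which
`q ^ n` is rational at rational points. -/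
theorem exists_rational_form {n : ℕ} (hn : 0 < n) (q : QuadraticForm ℝ H) (Hq : AddSubgroup H)
    {x0 : H} (hp : 0 < q x0) (hF0 : ∃ r : ℚ, q x0 ^ n = r)
    (hF : ∀ y ∈ Hq, ∃ ε : ℝ, 0 < ε ∧ ∀ s : ℚ, 0 < s → (s : ℝ) < ε →
      ∃ r : ℚ, q (x0 + (s : ℝ) • y) ^ n = r) :
    ∃ (lam : ℝ) (q0 : QuadraticForm ℝ H), 0 < lam ∧ q = lam • q0 ∧
      (∀ x ∈ Hq, ∃ r : ℚ, q0 x = r) ∧
      ∀ x ∈ Hq, ∀ y ∈ Hq, ∃ r : ℚ, QuadraticMap.polar q0 x y = r := by
  obtain ⟨h1, h2⟩ := rational_form hn q Hq hp.ne' hF0 hF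
  refine ⟨q x0, (q x0)⁻¹ • q, hp, ?_, ?_, ?_⟩
  · rw [smul_smul, mul_inv_cancel₀ hp.ne', one_smul]
  · intro x hx
    obtain ⟨r, hr⟩ := h1 x hx
    refine ⟨r, ?_⟩
    rw [smul_apply, hr, smul_eq_mul, ← mul_assoc, inv_mul_cancel₀ hp.ne', one_mul]
  · intro x hx y hy
    obtain ⟨r, hr⟩ := h2 x hx y hy
    refine ⟨r, ?_⟩
    rw [FunLike.coe_smul, QuadraticMap.polar_smul, hr, smul_eq_mul, ← mul_assoc,
      inv_mul_cancel₀ hp.ne', one_mul]

/-- Topological version: `q ^ n` rational at the rational points of an open set `U` which contains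
a rational point `x0` with `q x0 > 0`. -/
theorem exists_rational_form_open [TopologicalSpace H] [ContinuousAdd H] [ContinuousSMul ℝ H]
    {n : ℕ} (hn : 0 < n) (q : QuadraticForm ℝ H) (Hq : AddSubgroup H)
    (hq : ∀ (r : ℚ) (x : H), x ∈ Hq → (r : ℝ) • x ∈ Hq) {U : Set H} (hU : IsOpen U)
    (hF : ∀ x ∈ U, x ∈ Hq → ∃ r : ℚ, q x ^ n = r) {x0 : H} (hx0 : x0 ∈ Hq) (hx0U : x0 ∈ U)
    (hp : 0 < q x0) :
    ∃ (lam : ℝ) (q0 : QuadraticForm ℝ H), 0 < lam ∧ q = lam • q0 ∧
      (∀ x ∈ Hq, ∃ r : ℚ, q0 x = r) ∧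
      ∀ x ∈ Hq, ∀ y ∈ Hq, ∃ r : ℚ, QuadraticMap.polar q0 x y = r := by
  refine exists_rational_form hn q Hq hp (hF _ hx0U hx0) fun y hy => ?_
  have hc : Continuous fun s : ℝ => x0 + s • y := by fun_prop
  have h0 : (fun s : ℝ => x0 + s • y) ⁻¹' U ∈ nhds (0 : ℝ) :=
    (hU.preimage hc).mem_nhds (by simpa using hx0U)
  obtain ⟨ε, hε, hb⟩ := Metric.mem_nhds_iff.1 h0
  refine ⟨ε, hε, fun s hs0 hs1 => hF _ (hb ?_) (Hq.add_mem hx0 (hq s y hy))⟩
  have hs0' : (0 : ℝ) < s := by exact_mod_cast hs0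
  rw [Metric.mem_ball, dist_zero_right, Real.norm_eq_abs, abs_of_pos hs0']
  exact hs1

end Crest.Agent.R281.FujR_513
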