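import Crest.Agent.R281.Glob1_484

/-!
# R281 (S0424), GLUE-NEF (helper81), part 1

Smooth metrics on the compact `M` from a function `a` which is smooth and bounded on an open set
`Ω` only.

* `ss`, `SM`, `R2` : smooth step, regularised `max t 0`, regularised maximum (after 101 / 137);
* `hess_R2`, `hsf_R2` : the Hessian of `R2 s b` is at least the convex combination of the Hessians;
* `glue`           : `Z ≤ 0` smooth on `Ω`, `{Z ≥ -N}` compact for all `N`; `a` smooth on `Ω`,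
  `|a| ≤ Ca` and `cur h + ∂∂̄(a + Z/N) ≥ -ε' K` on `Ω`; `φ` smooth on `M`, `|φ| ≤ Cφ`,
  `cur h + ∂∂̄φ ≥ -ε K` on `M`.  Then there is a smooth `ψ` on `M` with `ψ ≤ a` on `Ω`,
  `ψ ≤ -Ca-3` off `Ω`, `ψ ≥ -(2Cφ+Ca+3)`, `ψ = a + Z/N ≥ a - 1` near every point of `{Z ≥ -N}` and
  `cur h + ∂∂̄ψ ≥ -(ε + ε') K`.
-/

set_option autoImplicit false
set_option linter.unusedSectionVars false

open Set Filter Topology Complex MeasureTheory
open scoped ContDiff Matrix ComplexConjugate ComplexOrder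

namespace Crest.Agent.R281.GN_81

open Crest.Agent.R275.Geo Crest.Agent.R275.Core144 Crest.Agent.R275.GC293
open Crest.Agent.R275.EDR890
open Crest.Agent.R273.Defs_333 Crest.Agent.R273.Hess_333 Crest.Agent.R273.HessB_333
open Crest.Agent.R273.HM_333 Crest.Agent.R273.Kah_333 Crest.Agent.R273.FIa0_597
open Crest.Agent.R281.Glob1_484

noncomputable section

/-! ### the regularised maximum -/

/-- smooth step from `0` (at `-1`) to `1` (at `1`) -/
def ss (t : ℝ) : ℝ := Real.smoothTransition ((t + 1) / 2)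

lemma ss_contDiff : ContDiff ℝ (⊤ : ℕ∞) ss :=
  Real.smoothTransition.contDiff.comp (by fun_prop)

lemma ss_nonneg (t : ℝ) : 0 ≤ ss t := Real.smoothTransition.nonneg _
lemma ss_le_one (t : ℝ) : ss t ≤ 1 := Real.smoothTransition.le_one _
lemma ss_zero {t : ℝ} (ht : t ≤ -1) : ss t = 0 :=
  Real.smoothTransition.zero_of_nonpos (by linarith)
lemma ss_one {t : ℝ} (ht : 1 ≤ t) : ss t = 1 :=
  Real.smoothTransition.one_of_one_le (by linarith)
lemma ss_mono : Monotone ss := fun a b h => Real.smoothTransition.monotone (by linarith)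
lemma ss_add (t : ℝ) : ss t + ss (-t) = 1 := by
  unfold ss Real.smoothTransition
  have e1 : 1 - (t + 1) / 2 = (-t + 1) / 2 := by ring
  have e2 : 1 - (-t + 1) / 2 = (t + 1) / 2 := by ring
  rw [e1, e2]
  have h := Real.smoothTransition.pos_denom ((t + 1) / 2)
  rw [e1] at h
  rw [add_comm (expNegInvGlue ((-t + 1) / 2))]
  rw [← add_div, div_self h.ne']

/-- smooth convex regularisation of `max t 0` -/
def SM (t : ℝ) : ℝ := ∫ u in (-1 : ℝ)..t, ss u

lemma ss_cont : Continuous ss := ss_contDiff.continuous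

lemma SM_hasDerivAt (t : ℝ) : HasDerivAt SM (ss t) t :=
  intervalIntegral.integral_hasDerivAt_right (ss_cont.intervalIntegrable _ _)
    (ss_cont.stronglyMeasurableAtFilter _ _) ss_cont.continuousAt

lemma deriv_SM : deriv SM = ss := funext fun t => (SM_hasDerivAt t).deriv

lemma SM_contDiff : ContDiff ℝ (⊤ : ℕ∞) SM := by
  rw [contDiff_infty_iff_deriv]
  refine ⟨fun t => (SM_hasDerivAt t).differentiableAt, ?_⟩
  rw [deriv_SM]; exact ss_contDiff

lemma SM_zero {t : ℝ} (ht : t ≤ -1) : SM t = 0 := by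
  unfold SM
  rw [intervalIntegral.integral_symm, neg_eq_zero]
  refine (intervalIntegral.integral_congr (g := fun _ => (0 : ℝ)) fun u hu => ?_).trans (by simp)
  rw [uIcc_of_le ht] at hu
  exact ss_zero hu.2

lemma SM_one : SM 1 = 1 := by
  have h1 : ∫ u in (-1 : ℝ)..1, ss (-u) = SM 1 := by
    rw [intervalIntegral.integral_comp_neg]; simp [SM]
  have h2 : (∫ u in (-1 : ℝ)..1, ss (-u)) + ∫ u in (-1 : ℝ)..1, ss u = 2 := by
    rw [← intervalIntegral.integral_add]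
    · have : ∀ u : ℝ, ss (-u) + ss u = 1 := fun u => by rw [add_comm]; exact ss_add u
      simp only [this]
      simp; norm_num
    · exact (ss_cont.comp continuous_neg).intervalIntegrable _ _
    · exact ss_cont.intervalIntegrable _ _
  rw [h1] at h2
  have h3 : SM 1 + SM 1 = 2 := h2
  linarith

lemma SM_id {t : ℝ} (ht : 1 ≤ t) : SM t = t := by
  have h1 : SM t = SM 1 + ∫ u in (1 : ℝ)..t, ss u := by
    unfold SM
    rw [intervalIntegral.integral_add_adjacent_intervals (ss_cont.intervalIntegrable _ _)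
      (ss_cont.intervalIntegrable _ _)]
  have h2 : ∫ u in (1 : ℝ)..t, ss u = t - 1 := by
    refine (intervalIntegral.integral_congr (g := fun _ => (1 : ℝ)) fun u hu => ?_).trans (by simp)
    rw [uIcc_of_le ht] at hu
    exact ss_one hu.1
  rw [h1, h2, SM_one]; ring

lemma SM_mono : Monotone SM :=
  monotone_of_deriv_nonneg (fun t => (SM_hasDerivAt t).differentiableAt) fun t => by
    rw [deriv_SM]; exact ss_nonneg t

lemma SM_nonneg (t : ℝ) : 0 ≤ SM t := by
  rcases le_total t (-1) with h | h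
  · rw [SM_zero h]
  · rw [← SM_zero (le_refl (-1))]; exact SM_mono h

lemma SM_le (t : ℝ) : SM t ≤ max t 0 + 1 := by
  rcases le_total t 1 with h | h
  · have := SM_mono h
    rw [SM_one] at this
    linarith [le_max_right t 0]
  · rw [SM_id h]
    linarith [le_max_left t 0]

lemma le_SM (t : ℝ) : t ≤ SM t := by
  have hd : ∀ s, HasDerivAt (fun s => SM s - s) (ss s - 1) s := fun s =>
    (SM_hasDerivAt s).sub (hasDerivAt_id s)
  have hanti : Antitone fun s => SM s - s :=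
    antitone_of_deriv_nonpos (fun s => (hd s).differentiableAt) fun s => by
      rw [(hd s).deriv]; linarith [ss_le_one s]
  rcases le_total t 1 with h | h
  · have := hanti h
    simp only [SM_one] at this
    linarith
  · rw [SM_id h]

lemma deriv_ss_nonneg (t : ℝ) : 0 ≤ deriv ss t := ss_mono.deriv_nonneg

/-- regularised maximum of two numbers -/
def R2 (a b : ℝ) : ℝ := b + SM (a - b)

lemma R2_left {a b : ℝ} (h : b + 1 ≤ a) : R2 a b = a := by
  unfold R2; rw [SM_id (by linarith)]; ring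

lemma R2_right {a b : ℝ} (h : a + 1 ≤ b) : R2 a b = b := by
  unfold R2; rw [SM_zero (by linarith)]; ring

lemma le_R2_left (a b : ℝ) : a ≤ R2 a b := by
  unfold R2; linarith [le_SM (a - b)]

lemma le_R2_right (a b : ℝ) : b ≤ R2 a b := by
  unfold R2; linarith [SM_nonneg (a - b)]

lemma R2_le {a b B : ℝ} (ha : a ≤ B) (hb : b ≤ B) : R2 a b ≤ B + 1 := by
  unfold R2
  have h1 := SM_le (a - b)
  rcases le_total (a - b) 0 with h | h
  · rw [max_eq_right h] at h1; linarith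
  · rw [max_eq_left h] at h1; linarith

/-! ### its complex Hessian -/

variable {n : ℕ}

theorem psd_real_smul {X : Matrix (Fin n) (Fin n) ℂ} (hX : X.PosSemidef) {c : ℝ} (hc : 0 ≤ c) :
    ((c : ℝ) • X).PosSemidef := by
  have h : (c : ℝ) • X = ((c : ℝ) : ℂ) • X := by
    ext a b; simp
  rw [h]
  exact hX.smul (by exact_mod_cast hc)

theorem hess_R2 {s b : Cn n → ℝ} {z : Cn n} (hs : ContDiffAt ℝ ∞ s z) (hb : ContDiffAt ℝ ∞ b z) :
    (hess (fun w => R2 (s w) (b w)) z -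
      ((ss (s z - b z) : ℝ) • hess s z + (1 - ss (s z - b z) : ℝ) • hess b z)).PosSemidef := by
  have hd : ContDiffAt ℝ ∞ (fun w => s w - b w) z := hs.sub hb
  have h1 : hess (fun w => SM (s w - b w)) z = (ss (s z - b z) : ℝ) • hess (fun w => s w - b w) z +
      (deriv ss (s z - b z) : ℝ) • Matrix.vecMulVec (gr (fun w => s w - b w) z)
        (star (gr (fun w => s w - b w) z)) :=
    hess_comp_mat (φ := SM) (φ' := ss) (u := fun w => s w - b w) hd
      (Eventually.of_forall fun t => SM_hasDerivAt t)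
      ((ss_contDiff.differentiable (by simp) _).hasDerivAt)
  have h2 : hess (fun w => R2 (s w) (b w)) z = hess b z + hess (fun w => SM (s w - b w)) z := by
    have h3 : ContDiffAt ℝ ∞ (fun w => SM (s w - b w)) z :=
      SM_contDiff.contDiffAt.comp z hd
    exact hess_add hb h3
  have h4 : hess (fun w => R2 (s w) (b w)) z -
      ((ss (s z - b z) : ℝ) • hess s z + (1 - ss (s z - b z) : ℝ) • hess b z) =
      (deriv ss (s z - b z) : ℝ) • Matrix.vecMulVec (gr (fun w => s w - b w) z)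
        (star (gr (fun w => s w - b w) z)) := by
    rw [h2, h1, hess_sub hs hb]
    module
  rw [h4]
  exact psd_real_smul (Matrix.posSemidef_vecMulVec_self_star _) (deriv_ss_nonneg _)

variable {M : Type} [TopologicalSpace M] {A : Atl n M} {L : LB A}

theorem hsf_congr {f g : M → ℝ} {i : A.ι} {x : M} (hx : x ∈ (A.e i).source) (h : f =ᶠ[𝓝 x] g) :
    hsf A f i x = hsf A g i x :=
  hess_congr (symm_eventually hx h)

theorem hsf_add_at {f g : M → ℝ} {i : A.ι} {x : M}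
    (hf : ContDiffAt ℝ ∞ (fun z => f ((A.e i).symm z)) (A.e i x))
    (hg : ContDiffAt ℝ ∞ (fun z => g ((A.e i).symm z)) (A.e i x)) :
    hsf A (fun y => f y + g y) i x = hsf A f i x + hsf A g i x := hess_add hf hg

theorem hsf_const_mul_at {f : M → ℝ} {i : A.ι} {x : M} (c : ℝ)
    (hf : ContDiffAt ℝ ∞ (fun z => f ((A.e i).symm z)) (A.e i x)) :
    hsf A (fun y => c * f y) i x = (c : ℂ) • hsf A f i x := hess_const_mul c hf

theorem hsf_const' (c : ℝ) (i : A.ι) (x : M) : hsf A (fun _ => c) i x = 0 := by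
  unfold hsf
  ext a b
  rw [hess_apply, Matrix.zero_apply]
  have h : wd (true, b) (cu fun _ : Cn n => c) = fun _ => 0 := by
    funext w
    have : (cu fun _ : Cn n => c) = fun _ => (c : ℂ) := rfl
    rw [this]
    exact wd_const _ _ _
  rw [h]
  exact wd_const _ _ _

theorem hsf_R2 {s b : M → ℝ} {i : A.ι} {x : M} (hi : x ∈ (A.e i).source)
    (hs : ContDiffAt ℝ ∞ (fun z => s ((A.e i).symm z)) (A.e i x))
    (hb : ContDiffAt ℝ ∞ (fun z => b ((A.e i).symm z)) (A.e i x)) :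
    (hsf A (fun y => R2 (s y) (b y)) i x -
      ((ss (s x - b x) : ℝ) • hsf A s i x + (1 - ss (s x - b x) : ℝ) • hsf A b i x)).PosSemidef := by
  have h0 := hess_R2 (s := fun z => s ((A.e i).symm z)) (b := fun z => b ((A.e i).symm z))
    (z := A.e i x) hs hb
  simp only [(A.e i).left_inv hi] at h0
  exact h0

theorem comb {H S B Θ G : Matrix (Fin n) (Fin n) ℂ} {t e e' : ℝ}
    (h0 : (H - (t • S + (1 - t) • B)).PosSemidef) (p1 : (Θ + S + e' • G).PosSemidef)
    (p2 : (Θ + B + e • G).PosSemidef) (hG : G.PosSemidef) (ht0 : 0 ≤ t) (ht1 : t ≤ 1)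
    (he : 0 ≤ e) (he' : 0 ≤ e') : (Θ + H + (e + e') • G).PosSemidef := by
  have h1 := psd_real_smul p1 ht0
  have h2 := psd_real_smul p2 (sub_nonneg.2 ht1)
  have h3 := psd_real_smul hG (add_nonneg (mul_nonneg ht0 he) (mul_nonneg (sub_nonneg.2 ht1) he'))
  have h4 := ((h0.add h1).add h2).add h3
  convert h4 using 1
  module

theorem csmul_eq (c : ℝ) (X : Matrix (Fin n) (Fin n) ℂ) : (c : ℂ) • X = c • X := by
  ext a b; simp

theorem smOn_continuousAt {f : M → ℝ} {Ω : Set M} (hf : SmOn A Ω f) {x : M} (hx : x ∈ Ω) :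
    ContinuousAt f x := by
  obtain ⟨i, hi⟩ := A.cover x
  have h1 := (hf x hx i hi).continuousAt
  have h2 : ContinuousAt (fun y => f ((A.e i).symm (A.e i y))) x :=
    ContinuousAt.comp (f := A.e i) (g := fun z => f ((A.e i).symm z)) h1
      ((A.e i).continuousAt hi)
  refine h2.congr ?_
  filter_upwards [(A.e i).open_source.mem_nhds hi] with y hy
  rw [(A.e i).left_inv hy]

/-- gluing, in terms of `s = a + Z/N` and `b = φ - const` -/
theorem glue_core (K : Kah A) (h : HM L) {Ω : Set M} (hΩ : IsOpen Ω) {s b : M → ℝ}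
    (hs : SmOn A Ω s) (hb : A.Sm b) {ε ε' : ℝ} (hε : 0 ≤ ε) (hε' : 0 ≤ ε')
    (hsk : ∀ i, ∀ x ∈ (A.e i).source, x ∈ Ω →
      (cur h i x + hsf A s i x + (ε' : ℂ) • K.g i x).PosSemidef)
    (hbk : ∀ i, ∀ x ∈ (A.e i).source,
      (cur h i x + hsf A b i x + (ε : ℂ) • K.g i x).PosSemidef)
    (hout : ∀ x, x ∉ Ω → ∀ᶠ y in 𝓝 x, y ∈ Ω → s y + 1 ≤ b y) :
    ∃ ψ : M → ℝ, A.Sm ψ ∧ (∀ x ∈ Ω, ψ x = R2 (s x) (b x)) ∧ (∀ x, x ∉ Ω → ψ x = b x) ∧
      (∀ i, ∀ x ∈ (A.e i).source,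
        (cur h i x + hsf A ψ i x + ((ε + ε' : ℝ) : ℂ) • K.g i x).PosSemidef) := by
  classical
  obtain ⟨ψ, hψ⟩ : ∃ ψ : M → ℝ, ∀ x, ψ x = if x ∈ Ω then R2 (s x) (b x) else b x := ⟨_, fun _ => rfl⟩
  have hψ1 : ∀ x ∈ Ω, ψ x = R2 (s x) (b x) := fun x hx => by rw [hψ, if_pos hx]
  have hψ2 : ∀ x, x ∉ Ω → ψ x = b x := fun x hx => by rw [hψ, if_neg hx]
  have e1 : ∀ x ∈ Ω, ψ =ᶠ[𝓝 x] fun y => R2 (s y) (b y) := fun x hx => by
    filter_upwards [hΩ.mem_nhds hx] with y hy using hψ1 y hy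
  have e2 : ∀ x, x ∉ Ω → ψ =ᶠ[𝓝 x] b := fun x hx => by
    filter_upwards [hout x hx] with y hy
    by_cases hyΩ : y ∈ Ω
    · rw [hψ1 y hyΩ]
      exact R2_right (hy hyΩ)
    · exact hψ2 y hyΩ
  refine ⟨ψ, ?_, hψ1, hψ2, ?_⟩
  · intro i z hz
    refine ContDiffAt.contDiffWithinAt ?_
    obtain ⟨x, hx⟩ : ∃ x, x = (A.e i).symm z := ⟨_, rfl⟩
    have hi : x ∈ (A.e i).source := hx ▸ (A.e i).map_target hz
    have hzx : A.e i x = z := by rw [hx, (A.e i).right_inv hz]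
    have hbx := sm_contDiffAt hb i ((A.e i).map_source hi)
    rw [← hzx]
    by_cases hxΩ : x ∈ Ω
    · have hsx := hs x hxΩ i hi
      have h1 : ContDiffAt ℝ ∞ (fun w => R2 (s ((A.e i).symm w)) (b ((A.e i).symm w)))
          (A.e i x) := hbx.add (SM_contDiff.contDiffAt.comp _ (hsx.sub hbx))
      exact h1.congr_of_eventuallyEq (symm_eventually hi (e1 x hxΩ))
    · exact hbx.congr_of_eventuallyEq (symm_eventually hi (e2 x hxΩ))
  · intro i x hi
    have hbx := sm_contDiffAt hb i ((A.e i).map_source hi)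
    rw [csmul_eq]
    have p2 := hbk i x hi
    rw [csmul_eq] at p2
    by_cases hxΩ : x ∈ Ω
    · rw [hsf_congr hi (e1 x hxΩ)]
      have p1 := hsk i x hi hxΩ
      rw [csmul_eq] at p1
      exact comb (hsf_R2 hi (hs x hxΩ i hi) hbx) p1 p2 (K.pos i x hi).posSemidef (ss_nonneg _)
        (ss_le_one _) hε hε'
    · rw [hsf_congr hi (e2 x hxΩ)]
      have p3 := psd_real_smul (K.pos i x hi).posSemidef hε'
      have h4 := p2.add p3
      convert h4 using 1
      module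

/-- gluing -/
theorem glue [T2Space M] (K : Kah A) (h : HM L) {Ω : Set M} (hΩ : IsOpen Ω)
    {Z a : M → ℝ} (hZ : SmOn A Ω Z) (ha : SmOn A Ω a) (hZ0 : ∀ x ∈ Ω, Z x ≤ 0)
    (hZc : ∀ N : ℝ, IsCompact {x | x ∈ Ω ∧ -N ≤ Z x})
    {Ca : ℝ} (haC : ∀ x ∈ Ω, |a x| ≤ Ca) {N : ℝ} (hN : 1 ≤ N) {ε' : ℝ} (hε' : 0 ≤ ε')
    (hak : ∀ i, ∀ x ∈ (A.e i).source, x ∈ Ω →
      (cur h i x + hsf A (fun y => a y + (1 / N) * Z y) i x + (ε' : ℂ) • K.g i x).PosSemidef)
    {φ : M → ℝ} (hφ : A.Sm φ) {Cφ : ℝ} (hφC : ∀ x, |φ x| ≤ Cφ) {ε : ℝ} (hε : 0 ≤ ε)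
    (hφk : ∀ i, ∀ x ∈ (A.e i).source,
      (cur h i x + hsf A φ i x + (ε : ℂ) • K.g i x).PosSemidef) :
    ∃ ψ : M → ℝ, A.Sm ψ ∧ (∀ x ∈ Ω, ψ x ≤ a x) ∧ (∀ x, x ∉ Ω → ψ x ≤ -Ca - 3) ∧
      (∀ x, -(2 * Cφ + Ca + 3) ≤ ψ x) ∧ (∀ x ∈ Ω, -N ≤ Z x → a x - 1 ≤ ψ x) ∧
      (∀ x ∈ Ω, -N ≤ Z x → ψ =ᶠ[𝓝 x] fun y => a y + (1 / N) * Z y) ∧
      (∀ i, ∀ x ∈ (A.e i).source,
        (cur h i x + hsf A ψ i x + ((ε + ε' : ℝ) : ℂ) • K.g i x).PosSemidef) := by
  have hN0 : 0 < N := lt_of_lt_of_le one_pos hN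
  have hN1 : 0 ≤ 1 / N := by positivity
  obtain ⟨b, hb⟩ : ∃ b : M → ℝ, b = fun x => φ x + -(Cφ + Ca + 3) := ⟨_, rfl⟩
  obtain ⟨s, hs⟩ : ∃ s : M → ℝ, s = fun x => a x + (1 / N) * Z x := ⟨_, rfl⟩
  have hbx : ∀ x, b x = φ x + -(Cφ + Ca + 3) := fun x => by rw [hb]
  have hsx : ∀ x, s x = a x + (1 / N) * Z x := fun x => by rw [hs]
  have hbSm : A.Sm b := by
    rw [hb]
    exact fun i => (hφ i).add contDiffOn_const
  have hsSm : SmOn A Ω s := by
    rw [hs]
    exact fun x hx i hi => (ha x hx i hi).add (contDiffAt_const.mul (hZ x hx i hi))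
  have hb1 : ∀ x, b x ≤ -Ca - 3 := fun x => by
    have := (abs_le.1 (hφC x)).2
    rw [hbx]; linarith
  have hb2 : ∀ x, -(2 * Cφ + Ca + 3) ≤ b x := fun x => by
    have := (abs_le.1 (hφC x)).1
    rw [hbx]; linarith
  have hZn : ∀ x ∈ Ω, (1 / N) * Z x ≤ 0 := fun x hx =>
    mul_nonpos_of_nonneg_of_nonpos hN1 (hZ0 x hx)
  have hZ1 : ∀ x, -N ≤ Z x → -1 ≤ (1 / N) * Z x := fun x hxN => by
    have h3 : (1 / N) * (-N) ≤ (1 / N) * Z x := mul_le_mul_of_nonneg_left hxN hN1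
    have h4 : (1 / N) * (-N) = -1 := by field_simp
    linarith
  have hbk : ∀ i, ∀ x ∈ (A.e i).source,
      (cur h i x + hsf A b i x + (ε : ℂ) • K.g i x).PosSemidef := by
    intro i x hi
    have h1 : hsf A b i x = hsf A φ i x := by
      have h1 : hsf A b i x = hsf A φ i x + hsf A (fun _ => -(Cφ + Ca + 3)) i x := by
        rw [hb]
        exact hsf_add_at (sm_contDiffAt hφ i ((A.e i).map_source hi)) contDiffAt_const
      rw [h1, hsf_const', add_zero]
    rw [h1]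
    exact hφk i x hi
  have hsk : ∀ i, ∀ x ∈ (A.e i).source, x ∈ Ω →
      (cur h i x + hsf A s i x + (ε' : ℂ) • K.g i x).PosSemidef := by
    rw [hs]
    exact hak
  have hout : ∀ x, x ∉ Ω → ∀ᶠ y in 𝓝 x, y ∈ Ω → s y + 1 ≤ b y := by
    intro x hx
    obtain ⟨N', hN'⟩ : ∃ N' : ℝ, N' = N * (2 * Cφ + 2 * Ca + 4) := ⟨_, rfl⟩
    have hcl : IsClosed {y | y ∈ Ω ∧ -N' ≤ Z y} := (hZc N').isClosed
    have hmem : {y | y ∈ Ω ∧ -N' ≤ Z y}ᶜ ∈ 𝓝 x := hcl.isOpen_compl.mem_nhds fun h => hx h.1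
    filter_upwards [hmem] with y hy hyΩ
    have h1 : Z y < -N' := by
      by_contra h2
      exact hy ⟨hyΩ, not_lt.1 h2⟩
    have h2 : (1 / N) * Z y ≤ -(2 * Cφ + 2 * Ca + 4) := by
      have h3 : (1 / N) * Z y ≤ (1 / N) * (-N') := mul_le_mul_of_nonneg_left h1.le hN1
      have h4 : (1 / N) * (-N') = -(2 * Cφ + 2 * Ca + 4) := by
        rw [hN']; field_simp
      linarith
    have h4 := (abs_le.1 (haC y hyΩ)).2
    have h5 := hb2 y
    rw [hsx]; linarith
  have e3 : ∀ x ∈ Ω, -N ≤ Z x → b x + 2 ≤ s x := fun x hx hxN => by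
    have h1 := hZ1 x hxN
    have h4 := (abs_le.1 (haC x hx)).1
    have h5 := hb1 x
    rw [hsx]; linarith
  obtain ⟨ψ, hψS, hψ1, hψ2, hψk⟩ := glue_core K h hΩ hsSm hbSm hε hε' hsk hbk hout
  refine ⟨ψ, hψS, ?_, ?_, ?_, ?_, ?_, hψk⟩
  · intro x hx
    rw [hψ1 x hx]
    have h4 := (abs_le.1 (haC x hx)).1
    have h5 := hb1 x
    have h6 := hZn x hx
    by_cases h : b x + 1 ≤ s x
    · rw [R2_left h, hsx]; linarith
    · have h7 : R2 (s x) (b x) ≤ (b x + 1) + 1 := R2_le (not_le.1 h).le (by linarith)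
      linarith
  · intro x hx
    rw [hψ2 x hx]
    exact hb1 x
  · intro x
    by_cases hx : x ∈ Ω
    · rw [hψ1 x hx]
      exact (hb2 x).trans (le_R2_right _ _)
    · rw [hψ2 x hx]
      exact hb2 x
  · intro x hx hxN
    rw [hψ1 x hx, R2_left (by linarith [e3 x hx hxN]), hsx]
    linarith [hZ1 x hxN]
  · intro x hx hxN
    have hcs : ContinuousAt s x := smOn_continuousAt hsSm hx
    have hcb : ContinuousAt b x := by
      have h1 : SmOn A univ b := fun y _ i hi => sm_contDiffAt hbSm i ((A.e i).map_source hi)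
      exact smOn_continuousAt h1 (mem_univ x)
    have h1 : ∀ᶠ y in 𝓝 x, b y + 1 < s y := by
      have h2 : b x + 1 < s x := by linarith [e3 x hx hxN]
      exact (hcb.add continuousAt_const).eventually_lt hcs h2
    filter_upwards [h1, hΩ.mem_nhds hx] with y hy hyΩ
    rw [hψ1 y hyΩ, R2_left hy.le, hsx]

end

end Crest.Agent.R281.GN_81
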