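import Crest.Agent.R281.GT9_639
import Crest.Agent.R281.SIn_14

/-!
Row 281, glue DIV 2 -> DIV 3 -> DIV 4 (helper639).  Part 10: the sections of the triangular tuple.

* `sp`, `sS`  : `s_0 = lam_0^m`, `s_(j+1) = lam_0^m f_j(y)` as polynomials over `R` and as sections
* `quo_eq`    : `s_(j+1)/s_0 = f_j(y)`
* `eta_eq`    : `dlog` matrix `= (∂_b f_j / f_j) * Jy`
* `det_tri`   : for triangular `f` its determinant is `∏ ∂_j f_j / f_j`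
* `jsq_eq`    : `Jsq = ∏ |∂_j f_j / f_j|² / (ρ |det σ_y|)`
-/

set_option autoImplicit false
set_option linter.unusedSectionVars false

open Polynomial Set Filter Topology Complex MeasureTheory
open scoped ContDiff Matrix ComplexConjugate Manifold ENNReal

noncomputable section

namespace Crest.Agent.R281.GT_639

open Crest.Agent.R275 Crest.Agent.R275.Geo Crest.Agent.R275.Core144 Crest.Agent.R275.EDR890
open Crest.Agent.R273.Defs_333 Crest.Agent.R273.Kah_333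
open Crest.Agent.R273.SerA_945 (Fn)
open Crest.Agent.R273.SteinC_794 Crest.Agent.R273.Chow_313
open Crest.Agent.R273.Vm_333 Crest.Agent.R273.Vol_333
open Crest.Agent.R273.FIb0_597 (ch mem_ch)
open Crest.Agent.R281.Defs_273 Crest.Agent.R281.AF_867 Crest.Agent.R281.Qr_770
open Crest.Agent.R281.HkP2_508 (volS)
open Crest.Agent.R281.SIn_14

/-! ### scaling of the measure -/

section scal

variable {n : ℕ} {M : Type} [TopologicalSpace M] {A : Atl n M} [MeasurableSpace M] [BorelSpace M]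
  [Countable A.ι]

theorem chm_scal {h h' : HM (KB A)⁻¹} {ρ : ℝ} (hρ : 0 ≤ ρ)
    (hh : ∀ i, ∀ x ∈ (A.e i).source, h'.w i x = ρ * h.w i x) (i : A.ι) :
    chm h' i = ENNReal.ofReal ρ • chm h i := by
  ext E hE
  rw [Measure.smul_apply, smul_eq_mul, chm_apply h' i hE, chm_apply h i hE,
    ← lintegral_const_mul' _ _ ENNReal.ofReal_ne_top]
  refine setLIntegral_congr_fun (meas_inter i hE) fun y hy => ?_
  simp only [dn]
  rw [hh i _ (sg_mem hy.1), ENNReal.ofReal_mul hρ]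

theorem vm_scal {h h' : HM (KB A)⁻¹} {ρ : ℝ} (hρ : 0 ≤ ρ)
    (hh : ∀ i, ∀ x ∈ (A.e i).source, h'.w i x = ρ * h.w i x) :
    vm h' = ENNReal.ofReal ρ • vm h := by
  symm
  apply ext_vm
  intro i
  rw [Measure.restrict_smul, vm_restrict, chm_scal hρ hh]

end scal

variable {n r : ℕ} {R : Type*} [CommRing R]

/-- homogeneous polynomials for the triangular tuple -/
structure STup (𝔭 : PrD n r R) (f : Fin n → MvPolynomial (Fin n) R) where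
  m : ℕ
  pos : 0 < m
  p : Fin n → MvPolynomial (Fin r) R
  hom : ∀ j, (p j).IsHomogeneous m
  eq : ∀ j (e : R →+* ℂ) (u : Fin r → ℂ), lv e (𝔭.lam 0) u ≠ 0 →
    MvPolynomial.eval₂ e u (p j) = lv e (𝔭.lam 0) u ^ m * ph e (yv 𝔭 e u) (f j)

theorem exists_STup (𝔭 : PrD n r R) (f : Fin n → MvPolynomial (Fin n) R) :
    Nonempty (STup 𝔭 f) := by
  choose m0 hm0 using fun j => homog 𝔭 (f j)
  have h1 : ∀ j, m0 j ≤ ∑ j, m0 j + 1 := fun j =>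
    (Finset.single_le_sum (fun _ _ => Nat.zero_le _) (Finset.mem_univ j)).trans (Nat.le_succ _)
  choose p hp he using fun j => hm0 j (∑ j, m0 j + 1) (h1 j)
  exact ⟨⟨∑ j, m0 j + 1, Nat.succ_pos _, p, hp, he⟩⟩

namespace STup

variable {𝔭 : PrD n r R} {f : Fin n → MvPolynomial (Fin n) R}

/-- the polynomials -/
def sp (𝔱 : STup 𝔭 f) : Fin (n + 1) → MvPolynomial (Fin r) R :=
  Fin.cons (lfp (𝔭.lam 0) ^ 𝔱.m) 𝔱.p

theorem sp_hom (𝔱 : STup 𝔭 f) (j : Fin (n + 1)) : (𝔱.sp j).IsHomogeneous 𝔱.m := by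
  refine Fin.cases ?_ (fun j => ?_) j
  · have := (lfp_hom (𝔭.lam 0)).pow 𝔱.m
    rwa [one_mul] at this
  · exact 𝔱.hom j

variable {M : Type} [TopologicalSpace M] {A : Atl n M} {O : LB A}

/-- the sections -/
def sS (𝔱 : STup 𝔭 f) (e : R →+* ℂ) (U : Fin r → Fn A) (j : Fin (n + 1)) : A.ι → M → ℂ :=
  evF U ((𝔱.sp j).map e)

end STup

variable {M : Type} [TopologicalSpace M] {A : Atl n M} {O : LB A}

/-- the matrix of the logarithmic derivatives -/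
def Dm (f : Fin n → MvPolynomial (Fin n) R) (φ : MvPolynomial (Fin n) R →+* ℂ) :
    Matrix (Fin n) (Fin n) ℂ :=
  Matrix.of fun j b => φ (MvPolynomial.pderiv b (f j)) / φ (f j)

theorem det_tri {f : Fin n → MvPolynomial (Fin n) R} (hf : ∀ i, ∀ j ∈ (f i).vars, i ≤ j)
    (φ : MvPolynomial (Fin n) R →+* ℂ) :
    (Dm f φ).det = ∏ i, φ (MvPolynomial.pderiv i (f i)) / φ (f i) := by
  rw [Matrix.det_of_isUpperTriangular]
  · rfl
  · intro j b hb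
    rw [Dm, Matrix.of_apply, MvPolynomial.pderiv_eq_zero_of_notMem_vars, map_zero, zero_div]
    intro h1
    exact absurd (hf j b h1) (not_le.2 hb)

namespace Mbr

variable {𝔭 : PrD n r R} {e : R →+* ℂ} {U : Fin r → Fn A} {𝔰 : FmD r R} {σ : HSymp A}
  {f : Fin n → MvPolynomial (Fin n) R}

theorem hs_sS (h : Mbr 𝔭 e O U) (𝔱 : STup 𝔭 f) (j : Fin (n + 1)) :
    IsHS (O ^ 𝔱.m) univ (𝔱.sS e U j) := isHS_evF h.hs ((𝔱.sp_hom j).map e)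

theorem sS_zero (h : Mbr 𝔭 e O U) (𝔱 : STup 𝔭 f) {i : A.ι} {x : M} (hx : x ∈ (A.e i).source) :
    𝔱.sS e U 0 i x = ls e U (𝔭.lam 0) i x ^ 𝔱.m := by
  unfold STup.sS
  rw [evF_apply _ _ hx, MvPolynomial.eval_map, STup.sp, Fin.cons_zero, MvPolynomial.eval₂_pow,
    eval₂_lfp]
  rfl

theorem sS_succ (h : Mbr 𝔭 e O U) (𝔱 : STup 𝔭 f) {i : A.ι} {x : M} (hx : x ∈ (A.e i).source)
    (h0 : x ∈ nz (ls e U (𝔭.lam 0))) (j : Fin n) :
    𝔱.sS e U j.succ i x = ls e U (𝔭.lam 0) i x ^ 𝔱.m * ph e (yM 𝔭 e U x) (f j) := by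
  unfold STup.sS
  rw [evF_apply _ _ hx, MvPolynomial.eval_map, STup.sp, Fin.cons_succ,
    𝔱.eq j e _ ((h.nz_iff hx).1 h0)]
  have h1 : yM 𝔭 e U x = yv 𝔭 e fun k => U k i x := funext fun j => h.yM_eq hx j
  rw [h1]
  rfl

theorem nz_sS (h : Mbr 𝔭 e O U) (𝔱 : STup 𝔭 f) {x : M} :
    NZ (𝔱.sS e U) x ↔ x ∈ nz (ls e U (𝔭.lam 0)) ∧ ∀ j, ph e (yM 𝔭 e U x) (f j) ≠ 0 := by
  have hx := mem_ch A x
  constructor
  · intro h1
    have h0 : x ∈ nz (ls e U (𝔭.lam 0)) := by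
      rw [h.nz_iff hx]
      intro h2
      apply h1 0
      rw [h.sS_zero 𝔱 hx]
      simp only [ls]
      rw [h2, zero_pow 𝔱.pos.ne']
    refine ⟨h0, fun j h2 => ?_⟩
    apply h1 j.succ
    rw [h.sS_succ 𝔱 hx h0, h2, mul_zero]
  · rintro ⟨h0, h1⟩ j
    have h2 : ls e U (𝔭.lam 0) (ch A x) x ^ 𝔱.m ≠ 0 := pow_ne_zero _ ((h.nz_iff hx).1 h0)
    refine Fin.cases ?_ (fun j => ?_) j
    · rw [h.sS_zero 𝔱 hx]
      exact h2
    · rw [h.sS_succ 𝔱 hx h0]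
      exact mul_ne_zero h2 (h1 j)

theorem quo_eq (h : Mbr 𝔭 e O U) (𝔱 : STup 𝔭 f) {x : M} (h0 : x ∈ nz (ls e U (𝔭.lam 0)))
    (j : Fin n) : quo (𝔱.sS e U) x j = ph e (yM 𝔭 e U x) (f j) := by
  have hx := mem_ch A x
  have h2 : ls e U (𝔭.lam 0) (ch A x) x ^ 𝔱.m ≠ 0 := pow_ne_zero _ ((h.nz_iff hx).1 h0)
  unfold quo
  rw [h.sS_zero 𝔱 hx, h.sS_succ 𝔱 hx h0, mul_div_cancel_left₀ _ h2]

theorem eta_eq (h : Mbr 𝔭 e O U) (𝔱 : STup 𝔭 f) {i : A.ι} {x : M} (hx : x ∈ (A.e i).source)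
    (h0 : x ∈ nz (ls e U (𝔭.lam 0))) (hf : ∀ j, ph e (yM 𝔭 e U x) (f j) ≠ 0) :
    eta (𝔱.sS e U) i x = Dm f (ph e (yM 𝔭 e U x)) * Jy 𝔭 e U i x := by
  have hl := (A.e i).left_inv hx
  set P0 : M → ℂ := fun x => ls e U (𝔭.lam 0) i x ^ 𝔱.m with hP0
  have hP : P0 x ≠ 0 := pow_ne_zero _ ((h.nz_iff hx).1 h0)
  have hdl : DifferentiableAt ℂ (fun ζ => P0 ((A.e i).symm ζ)) (A.e i x) :=
    (((h.hls (𝔭.lam 0)).hol i).diffAt isOpen_univ hx (mem_univ x)).pow _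
  have hdy := (h.diff_y hx h0).hasFDerivAt
  ext j a
  have h1 : HasFDerivAt (fun ζ => ph e (yM 𝔭 e U ((A.e i).symm ζ)) (f j))
      (lc (fun b => ph e (yM 𝔭 e U x) (MvPolynomial.pderiv b (f j)))
        (fderiv ℂ (fun ζ => yM 𝔭 e U ((A.e i).symm ζ)) (A.e i x))) (A.e i x) := by
    have h2 := (ph_hasFDerivAt e (f j) (yM 𝔭 e U ((A.e i).symm (A.e i x)))).comp (A.e i x) hdy
    rw [hl] at h2
    exact h2
  have h3 := hdl.hasFDerivAt.fun_mul h1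
  have h4 : HasFDerivAt (fun ζ => 𝔱.sS e U j.succ i ((A.e i).symm ζ)) _ (A.e i x) :=
    h3.congr_of_eventuallyEq (by
      filter_upwards [ev_symm hx ((A.e i).open_source.mem_nhds hx),
        ev_symm hx (h.open_nz.mem_nhds h0)] with ζ hζ hζ'
      exact h.sS_succ 𝔱 hζ hζ' j)
  have h5 : HasFDerivAt (fun ζ => 𝔱.sS e U 0 i ((A.e i).symm ζ)) _ (A.e i x) :=
    hdl.hasFDerivAt.congr_of_eventuallyEq (by
      filter_upwards [ev_symm hx ((A.e i).open_source.mem_nhds hx)] with ζ hζ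
      exact h.sS_zero 𝔱 hζ)
  rw [SIn_14.eta, Matrix.of_apply, pd, pd, h4.fderiv, h5.fderiv, h.sS_zero 𝔱 hx, h.sS_succ 𝔱 hx h0]
  simp only [_root_.add_apply, _root_.smul_apply, smul_eq_mul, lc_apply, hl]
  rw [Matrix.mul_apply]
  have h6 : ∀ b, Dm f (ph e (yM 𝔭 e U x)) j b * Jy 𝔭 e U i x b a =
      (ph e (yM 𝔭 e U x) (f j))⁻¹ * (ph e (yM 𝔭 e U x) (MvPolynomial.pderiv b (f j)) *
        (fderiv ℂ (fun ζ => yM 𝔭 e U ((A.e i).symm ζ)) (A.e i x))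
          (EuclideanSpace.single a 1) b) := by
    intro b
    rw [Dm, Matrix.of_apply, Jy, Matrix.of_apply]
    ring
  rw [Finset.sum_congr rfl fun b _ => h6 b, ← Finset.mul_sum]
  have h7 := hf j
  have h8 : ls e U (𝔭.lam 0) i x ^ 𝔱.m ≠ 0 := hP
  simp only [hP0]
  field_simp
  ring

/-- the density -/
theorem jsq_eq (h : Mbr 𝔭 e O U) (hs : 𝔰.Good) (hσ : FMbr 𝔰 e U σ.toH2) (𝔱 : STup 𝔭 f)
    (hf : ∀ i, ∀ j ∈ (f i).vars, i ≤ j) {K : Kah A} {ρ : ℝ}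
    (hK : ∀ i, ∀ x ∈ (A.e i).source, (K.g i x).det.re = ρ * ‖(σ.s i x).det‖) {x : M}
    (hW : x ∈ W 𝔭 e U (𝔭.gp 𝔰)) (hfx : ∀ j, ph e (yM 𝔭 e U x) (f j) ≠ 0) :
    Jsq K (𝔱.sS e U) x = (∏ i, ‖ph e (yM 𝔭 e U x) (MvPolynomial.pderiv i (f i)) /
      ph e (yM 𝔭 e U x) (f i)‖ ^ 2) / (ρ * dS 𝔭 𝔰 e (yM 𝔭 e U x) (zM 𝔭 e U x)) := by
  have hx := mem_ch A x
  have hW' := (W_gp x).1 hW
  have h1 := h.form hs hσ hx hW'.1 hW'.2
  have h2 := det_form_eq h1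
  have h3 := h.Jy_det_ne hx hW'.1
  have h4 : 0 < ‖(Jy 𝔭 e U (ch A x) x).det‖ := norm_pos_iff.2 h3
  unfold Jsq
  rw [h.eta_eq 𝔱 hx hW.1 hfx, Matrix.det_mul, det_tri hf, hK _ x hx, h2, norm_mul, mul_pow,
    norm_prod, Finset.prod_pow, dS]
  field_simp

/-- where `Jsq ≠ 0` -/
theorem jsq_ne (h : Mbr 𝔭 e O U) (𝔱 : STup 𝔭 f) (hf : ∀ i, ∀ j ∈ (f i).vars, i ≤ j) {K : Kah A}
    {x : M} (hN : NZ (𝔱.sS e U) x) : Jsq K (𝔱.sS e U) x ≠ 0 ↔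
      (∀ i, ph e (yM 𝔭 e U x) (MvPolynomial.pderiv i (f i)) ≠ 0) ∧
        (Jy 𝔭 e U (ch A x) x).det ≠ 0 := by
  have hx := mem_ch A x
  obtain ⟨h0, h1⟩ := (h.nz_sS 𝔱).1 hN
  have h2 : (K.g (ch A x) x).det.re ≠ 0 := (det_re_pos (K.pos _ x hx)).ne'
  unfold Jsq
  rw [h.eta_eq 𝔱 hx h0 h1, Matrix.det_mul, det_tri hf, Ne, div_eq_zero_iff, not_or,
    pow_eq_zero_iff two_ne_zero, norm_eq_zero, mul_eq_zero, not_or, Finset.prod_eq_zero_iff]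
  constructor
  · rintro ⟨⟨h3, h4⟩, -⟩
    refine ⟨fun i h5 => h3 ⟨i, Finset.mem_univ i, ?_⟩, h4⟩
    rw [h5, zero_div]
  · rintro ⟨h3, h4⟩
    refine ⟨⟨?_, h4⟩, h2⟩
    rintro ⟨i, -, h5⟩
    rw [div_eq_zero_iff] at h5
    exact h5.elim (h3 i) (h1 i)

end Mbr

end Crest.Agent.R281.GT_639
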