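import Mathlib

/-!
# Row 281, TROP-PL (helper726)
Rational max-plus ("PL") functions on `V → ℝ`: generated by rational linear forms under `max`, `min`.
-/

namespace Crest.Agent.R281.TrPL_726

open Finset

/-- rational linear form -/
def lf {V : Type*} [Fintype V] (a : V → ℚ) (ξ : V → ℝ) : ℝ := ∑ v, (a v : ℝ) * ξ v

/-- functions built from rational linear forms by `max` and `min` -/
inductive PL {V : Type*} [Fintype V] : ((V → ℝ) → ℝ) → Prop
  | lin (a : V → ℚ) : PL (fun ξ => lf a ξ)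
  | max {F G : (V → ℝ) → ℝ} : PL F → PL G → PL (fun ξ => Max.max (F ξ) (G ξ))
  | min {F G : (V → ℝ) → ℝ} : PL F → PL G → PL (fun ξ => Min.min (F ξ) (G ξ))

section basic

variable {V W : Type*} [Fintype V] [Fintype W]

theorem lf_add (a b : V → ℚ) (ξ : V → ℝ) : lf (a + b) ξ = lf a ξ + lf b ξ := by
  simp only [lf, Pi.add_apply, Rat.cast_add, add_mul, Finset.sum_add_distrib]

theorem lf_smul (q : ℚ) (a : V → ℚ) (ξ : V → ℝ) : lf (q • a) ξ = (q : ℝ) * lf a ξ := by
  simp only [lf, Pi.smul_apply, smul_eq_mul, Rat.cast_mul, mul_assoc, Finset.mul_sum]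

theorem lf_zero (ξ : V → ℝ) : lf (0 : V → ℚ) ξ = 0 := by
  simp [lf]

theorem lf_single [DecidableEq V] (v : V) (ξ : V → ℝ) : lf (Pi.single v (1 : ℚ)) ξ = ξ v := by
  unfold lf
  rw [Finset.sum_eq_single v]
  · simp
  · intro w _ hw
    simp [Pi.single_eq_of_ne hw]
  · intro h; exact absurd (Finset.mem_univ v) h

theorem lf_arg_add (a : V → ℚ) (ξ η : V → ℝ) : lf a (ξ + η) = lf a ξ + lf a η := by
  simp only [lf, Pi.add_apply, mul_add, Finset.sum_add_distrib]

theorem lf_arg_sub (a : V → ℚ) (ξ η : V → ℝ) : lf a ξ - lf a η = ∑ v, (a v : ℝ) * (ξ v - η v) := by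
  simp only [lf, mul_sub, Finset.sum_sub_distrib]

theorem PL.zero : PL (fun _ : V → ℝ => (0 : ℝ)) := by
  have := PL.lin (V := V) 0
  simpa [lf_zero] using this

theorem PL.coord (v : V) : PL (fun ξ : V → ℝ => ξ v) := by
  classical
  have := PL.lin (V := V) (Pi.single v 1)
  simpa [lf_single] using this

theorem PL.add_lin {F : (V → ℝ) → ℝ} (hF : PL F) (a : V → ℚ) :
    PL (fun ξ => F ξ + lf a ξ) := by
  induction hF with
  | lin b =>
    have := PL.lin (V := V) (b + a)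
    simpa [lf_add] using this
  | max _ _ h1 h2 =>
    have := PL.max h1 h2
    simpa [max_add_add_right] using this
  | min _ _ h1 h2 =>
    have := PL.min h1 h2
    simpa [min_add_add_right] using this

theorem PL.add {F G : (V → ℝ) → ℝ} (hF : PL F) (hG : PL G) : PL (fun ξ => F ξ + G ξ) := by
  induction hG with
  | lin b => exact hF.add_lin b
  | max _ _ h1 h2 =>
    have := PL.max h1 h2
    simpa [max_add_add_left] using this
  | min _ _ h1 h2 =>
    have := PL.min h1 h2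
    simpa [min_add_add_left] using this

theorem PL.smul_nonneg {F : (V → ℝ) → ℝ} (hF : PL F) {q : ℚ} (hq : 0 ≤ q) :
    PL (fun ξ => (q : ℝ) * F ξ) := by
  have hq' : (0 : ℝ) ≤ q := by exact_mod_cast hq
  induction hF with
  | lin b =>
    have := PL.lin (V := V) (q • b)
    simpa [lf_smul] using this
  | max _ _ h1 h2 =>
    have := PL.max h1 h2
    simpa [mul_max_of_nonneg _ _ hq'] using this
  | min _ _ h1 h2 =>
    have := PL.min h1 h2
    simpa [mul_min_of_nonneg _ _ hq'] using this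

theorem PL.neg {F : (V → ℝ) → ℝ} (hF : PL F) : PL (fun ξ => - F ξ) := by
  induction hF with
  | lin b =>
    have := PL.lin (V := V) ((-1 : ℚ) • b)
    have e : (fun ξ => lf ((-1 : ℚ) • b) ξ) = fun ξ => - lf b ξ := by
      funext ξ; rw [lf_smul]; push_cast; ring
    rwa [e] at this
  | max _ _ h1 h2 =>
    have := PL.min h1 h2
    simpa [min_neg_neg] using this
  | min _ _ h1 h2 =>
    have := PL.max h1 h2
    simpa [max_neg_neg] using this

theorem PL.smul {F : (V → ℝ) → ℝ} (hF : PL F) (q : ℚ) :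
    PL (fun ξ => (q : ℝ) * F ξ) := by
  rcases le_total 0 q with h | h
  · exact hF.smul_nonneg h
  · have := (hF.smul_nonneg (q := -q) (by linarith)).neg
    simpa using this

theorem PL.sub {F G : (V → ℝ) → ℝ} (hF : PL F) (hG : PL G) : PL (fun ξ => F ξ - G ξ) := by
  simpa [sub_eq_add_neg] using hF.add hG.neg

theorem PL.abs {F : (V → ℝ) → ℝ} (hF : PL F) : PL (fun ξ => |F ξ|) := by
  exact PL.max hF hF.neg

theorem PL.sum {ι : Type*} (s : Finset ι) {F : ι → (V → ℝ) → ℝ} (hF : ∀ i ∈ s, PL (F i)) :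
    PL (fun ξ => ∑ i ∈ s, F i ξ) := by
  classical
  induction s using Finset.induction_on with
  | empty => simpa using PL.zero (V := V)
  | insert i s hi ih =>
    have h1 := hF i (Finset.mem_insert_self i s)
    have h2 := ih (fun j hj => hF j (Finset.mem_insert_of_mem hj))
    have := h1.add h2
    simpa [Finset.sum_insert hi] using this

theorem PL.comp {F : (V → ℝ) → ℝ} (hF : PL F) {H : V → (W → ℝ) → ℝ} (hH : ∀ v, PL (H v)) :
    PL (fun ξ => F (fun v => H v ξ)) := by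
  induction hF with
  | lin a =>
    show PL (fun ξ => ∑ v, (a v : ℝ) * H v ξ)
    exact PL.sum _ (fun v _ => (hH v).smul (a v))
  | max _ _ h1 h2 => exact PL.max h1 h2
  | min _ _ h1 h2 => exact PL.min h1 h2

/-- finite suprema, characterised by the order -/
theorem PL.exists_sup {ι : Type*} (s : Finset ι) (hs : s.Nonempty) {F : ι → (V → ℝ) → ℝ}
    (hF : ∀ i ∈ s, PL (F i)) :
    ∃ G : (V → ℝ) → ℝ, PL G ∧ (∀ ξ, ∀ i ∈ s, F i ξ ≤ G ξ) ∧ (∀ ξ, ∃ i ∈ s, G ξ = F i ξ) := by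
  classical
  induction hs using Finset.Nonempty.cons_induction with
  | singleton i =>
    exact ⟨F i, hF i (by simp), by simp, by simp⟩
  | cons i s hi hs ih =>
    obtain ⟨G, hG, h1, h2⟩ := ih (fun j hj => hF j (by simp [hj]))
    refine ⟨fun ξ => Max.max (F i ξ) (G ξ), PL.max (hF i (by simp)) hG, ?_, ?_⟩
    · intro ξ j hj
      rcases Finset.mem_cons.1 hj with rfl | hj
      · exact le_max_left _ _
      · exact (h1 ξ j hj).trans (le_max_right _ _)
    · intro ξ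
      rcases le_total (F i ξ) (G ξ) with h | h
      · obtain ⟨j, hj, he⟩ := h2 ξ
        exact ⟨j, by simp [hj], (max_eq_right h).trans he⟩
      · exact ⟨i, by simp, max_eq_left h⟩

theorem PL.continuous {F : (V → ℝ) → ℝ} (hF : PL F) : Continuous F := by
  induction hF with
  | lin a => unfold lf; fun_prop
  | max _ _ h1 h2 => exact h1.max h2
  | min _ _ h1 h2 => exact h1.min h2

theorem PL.lip {F : (V → ℝ) → ℝ} (hF : PL F) :
    ∃ S : ℝ, 0 ≤ S ∧ ∀ ξ η : V → ℝ, ∀ δ : ℝ, (∀ v, |ξ v - η v| ≤ δ) → |F ξ - F η| ≤ S * δ := by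
  induction hF with
  | lin a =>
    refine ⟨∑ v, |(a v : ℝ)|, Finset.sum_nonneg (fun _ _ => abs_nonneg _), ?_⟩
    intro ξ η δ h
    rw [lf_arg_sub, Finset.sum_mul]
    refine (Finset.abs_sum_le_sum_abs _ _).trans (Finset.sum_le_sum fun v _ => ?_)
    rw [abs_mul]
    exact mul_le_mul_of_nonneg_left (h v) (abs_nonneg _)
  | @max F G _ _ h1 h2 =>
    obtain ⟨S1, hS1, h1⟩ := h1
    obtain ⟨S2, hS2, h2⟩ := h2
    refine ⟨S1 + S2, by positivity, ?_⟩
    intro ξ η δ h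
    have a1 := h1 ξ η δ h
    have a2 := h2 ξ η δ h
    have hm := abs_max_sub_max_le_max (F ξ) (G ξ) (F η) (G η)
    have : Max.max |F ξ - F η| |G ξ - G η| ≤ |F ξ - F η| + |G ξ - G η| :=
      max_le (by linarith [abs_nonneg (G ξ - G η)]) (by linarith [abs_nonneg (F ξ - F η)])
    linarith
  | @min F G _ _ h1 h2 =>
    obtain ⟨S1, hS1, h1⟩ := h1
    obtain ⟨S2, hS2, h2⟩ := h2
    refine ⟨S1 + S2, by positivity, ?_⟩
    intro ξ η δ h
    have a1 := h1 ξ η δ h
    have a2 := h2 ξ η δ h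
    have hm := abs_min_sub_min_le_max (F ξ) (G ξ) (F η) (G η)
    have : Max.max |F ξ - F η| |G ξ - G η| ≤ |F ξ - F η| + |G ξ - G η| :=
      max_le (by linarith [abs_nonneg (G ξ - G η)]) (by linarith [abs_nonneg (F ξ - F η)])
    linarith

/-- selection from finitely many rational linear forms -/
theorem PL.sel {F : (V → ℝ) → ℝ} (hF : PL F) :
    ∃ L : Finset (V → ℚ), ∀ ξ, ∃ a ∈ L, F ξ = lf a ξ := by
  classical
  induction hF with
  | lin a => exact ⟨{a}, fun ξ => ⟨a, by simp, rfl⟩⟩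
  | @max F G _ _ h1 h2 =>
    obtain ⟨L1, h1⟩ := h1
    obtain ⟨L2, h2⟩ := h2
    refine ⟨L1 ∪ L2, fun ξ => ?_⟩
    rcases le_total (F ξ) (G ξ) with h | h
    · obtain ⟨a, ha, he⟩ := h2 ξ
      exact ⟨a, by simp [ha], (max_eq_right h).trans he⟩
    · obtain ⟨a, ha, he⟩ := h1 ξ
      exact ⟨a, by simp [ha], (max_eq_left h).trans he⟩
  | @min F G _ _ h1 h2 =>
    obtain ⟨L1, h1⟩ := h1
    obtain ⟨L2, h2⟩ := h2
    refine ⟨L1 ∪ L2, fun ξ => ?_⟩
    rcases le_total (F ξ) (G ξ) with h | h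
    · obtain ⟨a, ha, he⟩ := h1 ξ
      exact ⟨a, by simp [ha], (min_eq_left h).trans he⟩
    · obtain ⟨a, ha, he⟩ := h2 ξ
      exact ⟨a, by simp [ha], (min_eq_right h).trans he⟩

/-- max-min normal form -/
theorem PL.nf {F : (V → ℝ) → ℝ} (hF : PL F) :
    ∃ s : Finset (Finset (V → ℚ)), s.Nonempty ∧ (∀ S ∈ s, S.Nonempty) ∧
      ∀ ξ c, c ≤ F ξ ↔ ∃ S ∈ s, ∀ a ∈ S, c ≤ lf a ξ := by
  classical
  induction hF with
  | lin a => exact ⟨{{a}}, by simp, by simp, fun ξ c => by simp⟩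
  | @max F G _ _ h1 h2 =>
    obtain ⟨s1, n1, e1, h1⟩ := h1
    obtain ⟨s2, n2, e2, h2⟩ := h2
    refine ⟨s1 ∪ s2, n1.mono Finset.subset_union_left, ?_, fun ξ c => ?_⟩
    · intro S hS
      rcases Finset.mem_union.1 hS with h | h
      · exact e1 S h
      · exact e2 S h
    · rw [le_max_iff, h1, h2]
      constructor
      · rintro (⟨S, hS, h⟩ | ⟨S, hS, h⟩)
        · exact ⟨S, by simp [hS], h⟩
        · exact ⟨S, by simp [hS], h⟩
      · rintro ⟨S, hS, h⟩
        rcases Finset.mem_union.1 hS with hS | hS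
        · exact Or.inl ⟨S, hS, h⟩
        · exact Or.inr ⟨S, hS, h⟩
  | @min F G _ _ h1 h2 =>
    obtain ⟨s1, n1, e1, h1⟩ := h1
    obtain ⟨s2, n2, e2, h2⟩ := h2
    refine ⟨(s1 ×ˢ s2).image (fun p => p.1 ∪ p.2), (n1.product n2).image _, ?_, fun ξ c => ?_⟩
    · intro S hS
      obtain ⟨p, hp, rfl⟩ := Finset.mem_image.1 hS
      exact (e1 p.1 (Finset.mem_product.1 hp).1).mono Finset.subset_union_left
    · rw [le_min_iff, h1, h2]
      constructor
      · rintro ⟨⟨S, hS, h⟩, ⟨T, hT, h'⟩⟩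
        refine ⟨S ∪ T, Finset.mem_image.2 ⟨(S, T), by simp [hS, hT], rfl⟩, ?_⟩
        intro a ha
        rcases Finset.mem_union.1 ha with ha | ha
        · exact h a ha
        · exact h' a ha
      · rintro ⟨U, hU, h⟩
        obtain ⟨p, hp, rfl⟩ := Finset.mem_image.1 hU
        obtain ⟨hp1, hp2⟩ := Finset.mem_product.1 hp
        exact ⟨⟨p.1, hp1, fun a ha => h a (by simp [ha])⟩, ⟨p.2, hp2, fun a ha => h a (by simp [ha])⟩⟩

theorem PL.bdd {F : (V → ℝ) → ℝ} (hF : PL F) :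
    ∃ S : ℝ, 0 ≤ S ∧ ∀ ξ : V → ℝ, |F ξ| ≤ S * ∑ v, |ξ v| := by
  obtain ⟨S, hS, h⟩ := hF.lip
  refine ⟨S, hS, fun ξ => ?_⟩
  have h0 : F 0 = 0 := by
    obtain ⟨L, hL⟩ := hF.sel
    obtain ⟨a, _, he⟩ := hL 0
    rw [he]; simp [lf]
  have := h ξ 0 (∑ v, |ξ v|) (fun v => by
    simpa using Finset.single_le_sum (f := fun v => |ξ v|) (fun _ _ => abs_nonneg _) (Finset.mem_univ v))
  simpa [h0] using this

end basic

/-! ### the class `Tr` on a ring -/

/-- `Tr A G` : `G φ = exp (F (log ‖φ q_v‖))` for finitely many nonzero `q_v` and `F` in `PL`. -/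
def Tr (A : Type*) [CommRing A] (G : (A →+* ℂ) → ℝ) : Prop :=
  ∃ (n : ℕ) (q : Fin n → A) (F : (Fin n → ℝ) → ℝ), (∀ v, q v ≠ 0) ∧ PL F ∧
    ∀ φ : A →+* ℂ, G φ = Real.exp (F (fun v => Real.log ‖φ (q v)‖))

theorem Tr.pos {A : Type*} [CommRing A] {G : (A →+* ℂ) → ℝ} (h : Tr A G) (φ : A →+* ℂ) :
    0 < G φ := by
  obtain ⟨n, q, F, _, _, h⟩ := h
  rw [h]; exact Real.exp_pos _

/-- `Tr` over any finite index type -/
theorem Tr.mk' {A : Type*} [CommRing A] {V : Type*} [Fintype V] (q : V → A) (hq : ∀ v, q v ≠ 0)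
    {F : (V → ℝ) → ℝ} (hF : PL F) :
    Tr A (fun φ => Real.exp (F (fun v => Real.log ‖φ (q v)‖))) := by
  classical
  let e := Fintype.equivFin V
  refine ⟨Fintype.card V, fun i => q (e.symm i), fun ξ => F (fun v => ξ (e v)), fun i => hq _,
    hF.comp (fun v => PL.coord (e v)), fun φ => ?_⟩
  simp

/-- common presentation of two elements of the class -/
theorem Tr.pair {A : Type*} [CommRing A] {G G' : (A →+* ℂ) → ℝ} (h : Tr A G) (h' : Tr A G') :
    ∃ (n : ℕ) (q : Fin n → A) (F F' : (Fin n → ℝ) → ℝ), (∀ v, q v ≠ 0) ∧ PL F ∧ PL F' ∧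
      (∀ φ : A →+* ℂ, G φ = Real.exp (F (fun v => Real.log ‖φ (q v)‖))) ∧
      (∀ φ : A →+* ℂ, G' φ = Real.exp (F' (fun v => Real.log ‖φ (q v)‖))) := by
  obtain ⟨n, q, F, hq, hF, h⟩ := h
  obtain ⟨n', q', F', hq', hF', h'⟩ := h'
  refine ⟨n + n', Fin.append q q', fun ξ => F (fun v => ξ (Fin.castAdd n' v)),
    fun ξ => F' (fun v => ξ (Fin.natAdd n v)), ?_, hF.comp (fun v => PL.coord _),
    hF'.comp (fun v => PL.coord _), ?_, ?_⟩
  · intro v
    refine Fin.addCases (fun i => ?_) (fun i => ?_) v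
    · simpa using hq i
    · simpa using hq' i
  · intro φ; rw [h]; simp
  · intro φ; rw [h']; simp

section TrClosure

variable {A : Type*} [CommRing A] {G G' : (A →+* ℂ) → ℝ}

theorem Tr.abs {q : A} (hq : q ≠ 0) : Tr A (fun φ => Real.exp (Real.log ‖φ q‖)) :=
  Tr.mk' (V := Unit) (fun _ => q) (fun _ => hq) (PL.coord ())

theorem Tr.mul (h : Tr A G) (h' : Tr A G') : Tr A (fun φ => G φ * G' φ) := by
  obtain ⟨n, q, F, F', hq, hF, hF', e, e'⟩ := h.pair h'
  refine ⟨n, q, _, hq, hF.add hF', fun φ => ?_⟩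
  simp only [e, e', Real.exp_add]

theorem Tr.max (h : Tr A G) (h' : Tr A G') : Tr A (fun φ => Max.max (G φ) (G' φ)) := by
  obtain ⟨n, q, F, F', hq, hF, hF', e, e'⟩ := h.pair h'
  refine ⟨n, q, _, hq, hF.max hF', fun φ => ?_⟩
  simp only [e, e']; exact (Real.exp_monotone.map_max).symm

theorem Tr.min (h : Tr A G) (h' : Tr A G') : Tr A (fun φ => Min.min (G φ) (G' φ)) := by
  obtain ⟨n, q, F, F', hq, hF, hF', e, e'⟩ := h.pair h'
  refine ⟨n, q, _, hq, hF.min hF', fun φ => ?_⟩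
  simp only [e, e']; exact (Real.exp_monotone.map_min).symm

theorem Tr.rpow (h : Tr A G) (r : ℚ) : Tr A (fun φ => G φ ^ (r : ℝ)) := by
  obtain ⟨n, q, F, hq, hF, e⟩ := h
  refine ⟨n, q, _, hq, hF.smul r, fun φ => ?_⟩
  simp only [e]
  rw [← Real.exp_mul, mul_comm]

theorem Tr.one : Tr A (fun _ => (1 : ℝ)) := by
  have := Tr.mk' (A := A) (V := Empty) (fun v => v.elim) (fun v => v.elim) (PL.zero)
  simpa using this

end TrClosure

end Crest.Agent.R281.TrPL_726
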