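import Crest.Agent.R281.GT3_639
import Crest.Agent.R281.TrPL_726

/-!
Row 281, glue DIV 2 -> DIV 3 (helper639).  Part 4: the maximum over the sheets of the modulus of a
rational function on the sheets lies in the class `Tr A` of 726, up to constants.
-/

set_option autoImplicit false

open Polynomial
open Crest.Agent.R281.TrPL_726 (Tr PL)

noncomputable section

namespace Crest.Agent.R281.GT_639

section lead

variable {A : Type*} [CommRing A]

theorem prod_coeff_card (s : Multiset ℂ) (p q : ℂ → ℂ) :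
    (s.map fun z => C (q z) * X - C (p z)).prod.coeff (Multiset.card s) = (s.map q).prod := by
  classical
  induction s using Multiset.induction_on with
  | empty => simp
  | cons a s ih =>
    rw [Multiset.map_cons, Multiset.prod_cons, Multiset.map_cons, Multiset.prod_cons,
      Multiset.card_cons, sub_mul, coeff_sub, mul_assoc, coeff_C_mul, coeff_X_mul, coeff_C_mul,
      ih]
    have hdeg : (s.map fun z => C (q z) * X - C (p z)).prod.natDegree
        < Multiset.card s + 1 := by
      refine lt_of_le_of_lt (natDegree_multiset_prod_le _) ?_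
      rw [Multiset.map_map, Nat.lt_succ_iff]
      refine (Multiset.sum_map_le_sum_map (g := fun _ => 1) _ fun z _ => ?_).trans (by simp)
      simp only [Function.comp_apply]
      compute_degree
    rw [coeff_eq_zero_of_natDegree_lt hdeg, mul_zero, sub_zero]

theorem prod_coeff_card' {K : Type*} [Field K] (s : Multiset K) (p q : K → K) :
    (s.map fun z => C (q z) * X - C (p z)).prod.coeff (Multiset.card s) = (s.map q).prod := by
  classical
  induction s using Multiset.induction_on with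
  | empty => simp
  | cons a s ih =>
    rw [Multiset.map_cons, Multiset.prod_cons, Multiset.map_cons, Multiset.prod_cons,
      Multiset.card_cons, sub_mul, coeff_sub, mul_assoc, coeff_C_mul, coeff_X_mul, coeff_C_mul,
      ih]
    have hdeg : (s.map fun z => C (q z) * X - C (p z)).prod.natDegree
        < Multiset.card s + 1 := by
      refine lt_of_le_of_lt (natDegree_multiset_prod_le _) ?_
      rw [Multiset.map_map, Nat.lt_succ_iff]
      refine (Multiset.sum_map_le_sum_map (g := fun _ => 1) _ fun z _ => ?_).trans (by simp)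
      simp only [Function.comp_apply]
      compute_degree
    rw [coeff_eq_zero_of_natDegree_lt hdeg, mul_zero, sub_zero]

end lead

variable {A : Type*} [CommRing A] [IsDomain A] {F : A[X]}

/-- the coefficients of `H` as seen in an algebraically closed field over `A` -/
theorem H_alg (hm : F.Monic) (hp : Prime F) {P Q : A[X]} {n : ℕ} (hP : P.natDegree ≤ n)
    (hQ : Q.natDegree ≤ n) (hFQ : ¬ F ∣ Q) :
    (H F P Q n).coeff F.natDegree ≠ 0 ∧
      (¬ F ∣ P → ∃ j, 1 ≤ j ∧ j ≤ F.natDegree ∧ (H F P Q n).coeff (F.natDegree - j) ≠ 0) := by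
  classical
  set K := AlgebraicClosure (FractionRing A) with hK
  set ι : A →+* K := (algebraMap (FractionRing A) K).comp (algebraMap A (FractionRing A)) with hι
  have hinj : Function.Injective ι :=
    (algebraMap (FractionRing A) K).injective.comp (IsFractionRing.injective A (FractionRing A))
  have hs : (F.map ι).Splits := IsAlgClosed.splits _
  have hH := H_map F P Q hm hP hQ ι hs
  set R := (F.map ι).roots with hR
  have hcard : Multiset.card R = F.natDegree := by
    rw [hR, ← hs.natDegree_eq_card_roots, hm.natDegree_map]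
  -- a common root gives divisibility
  have hdiv : ∀ S : A[X], ∀ z ∈ R, (S.map ι).eval z = 0 → F ∣ S := by
    intro S z hz h0
    have hz' : (F.map ι).eval z = 0 := (mem_roots (hm.map ι).ne_zero).1 hz
    have hirr := irr_of_prime hm hp
    have h1 : F.map (algebraMap A (FractionRing A)) ∣ S.map (algebraMap A (FractionRing A)) := by
      by_contra hcon
      obtain ⟨a, b, hab⟩ := hirr.coprime_iff_not_dvd.2 hcon
      have h2 := congrArg (fun p => (p.map (algebraMap (FractionRing A) K)).eval z) hab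
      simp only [Polynomial.map_add, Polynomial.map_mul, eval_add, eval_mul, Polynomial.map_one,
        eval_one] at h2
      rw [Polynomial.map_map, Polynomial.map_map] at h2
      rw [← hι, hz', h0] at h2
      simp at h2
    exact (map_dvd_map _ (IsFractionRing.injective A (FractionRing A)) hm).1 h1
  have hlead : (H F P Q n).coeff F.natDegree ≠ 0 := by
    intro h0
    have h1 := congrArg (fun p => coeff p F.natDegree) hH
    simp only [coeff_map] at h1
    rw [h0, map_zero, ← hcard, prod_coeff_card' R (fun z => (P.map ι).eval z)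
      (fun z => (Q.map ι).eval z)] at h1
    have h2 := h1.symm
    rw [Multiset.prod_eq_zero_iff, Multiset.mem_map] at h2
    obtain ⟨z, hz, hz0⟩ := h2
    exact hFQ (hdiv Q z hz hz0)
  refine ⟨hlead, fun hFP => ?_⟩
  by_contra hcon
  push Not at hcon
  have hd0 : 0 < F.natDegree := by
    rcases Nat.eq_zero_or_pos F.natDegree with h | h
    · exact absurd (by rw [hm.natDegree_eq_zero.1 h]; exact isUnit_one) hp.not_isUnit
    · exact h
  have h1 := hcon F.natDegree hd0 le_rfl
  rw [Nat.sub_self] at h1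
  have h2 := congrArg (fun p => eval (0 : K) p) hH
  rw [← coeff_zero_eq_eval_zero, coeff_map, h1, map_zero, eval_multiset_prod, Multiset.map_map]
    at h2
  have h3 := h2.symm
  rw [Multiset.prod_eq_zero_iff, Multiset.mem_map] at h3
  obtain ⟨z, hz, hz0⟩ := h3
  simp only [Function.comp_apply, eval_sub, eval_mul, eval_C, eval_X, mul_zero, zero_sub,
    neg_eq_zero] at hz0
  exact hFP (hdiv P z hz hz0)

/-- **TROP-IN, algebraic core.**  The maximum over the sheets of `|g|` is in the class `Tr A`, up to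
constants, off one hypersurface. -/
theorem RS.tr (hm : F.Monic) (hp : Prime F) {g : (A →+* ℂ) → ℂ → ℂ} (hg : RS F g)
    (hne : ∀ q : A, q ≠ 0 → ∃ φ : A →+* ℂ, φ q ≠ 0 ∧ ∃ z, (F.map φ).eval z = 0 ∧ g φ z ≠ 0) :
    ∃ (G : (A →+* ℂ) → ℝ) (q1 : A) (B : ℝ), Tr A G ∧ q1 ≠ 0 ∧ 0 < B ∧
      ∀ φ : A →+* ℂ, φ q1 ≠ 0 →
        (∀ z, (F.map φ).eval z = 0 → ‖g φ z‖ ≤ B * G φ) ∧
        ∃ z, (F.map φ).eval z = 0 ∧ G φ ≤ B * ‖g φ z‖ := by
  classical
  obtain ⟨P, Q, q, hQ, hq, HH⟩ := hg
  have hP : ¬ F ∣ P := by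
    intro hd
    obtain ⟨φ, hφ, z, hz, hgz⟩ := hne q hq
    obtain ⟨h1, h2⟩ := HH φ hφ z hz
    apply hgz
    obtain ⟨S, rfl⟩ := hd
    rw [h2, Polynomial.map_mul, eval_mul, hz, zero_mul, zero_div]
  set n := max P.natDegree Q.natDegree with hn
  have hPn : P.natDegree ≤ n := le_max_left _ _
  have hQn : Q.natDegree ≤ n := le_max_right _ _
  obtain ⟨hlead, hJ⟩ := H_alg hm hp hPn hQn hQ
  obtain ⟨j0, hj01, hj0d, hj0⟩ := hJ hP
  set d := F.natDegree with hd
  set h := H F P Q n with hh
  set J : Finset ℕ := (Finset.Icc 1 d).filter fun j => h.coeff (d - j) ≠ 0 with hJdef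
  have hJne : J.Nonempty := ⟨j0, by
    rw [hJdef, Finset.mem_filter, Finset.mem_Icc]
    exact ⟨⟨hj01, hj0d⟩, hj0⟩⟩
  have hJmem : ∀ j ∈ J, 1 ≤ j ∧ j ≤ d ∧ h.coeff (d - j) ≠ 0 := by
    intro j hj
    rw [hJdef, Finset.mem_filter, Finset.mem_Icc] at hj
    exact ⟨hj.1.1, hj.1.2, hj.2⟩
  -- the PL function
  let V := Option {j // j ∈ J}
  let qv : V → A := fun v => v.elim (h.coeff d) fun j => h.coeff (d - j.1)
  have hqv : ∀ v, qv v ≠ 0 := by
    intro v
    rcases v with _ | j
    · exact hlead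
    · exact (hJmem j.1 j.2).2.2
  let Fj : {j // j ∈ J} → (V → ℝ) → ℝ := fun j ξ =>
    (((1 : ℚ) / (j.1 : ℚ) : ℚ) : ℝ) * (ξ (some j) - ξ none)
  have hFj : ∀ j ∈ (Finset.univ : Finset {j // j ∈ J}), PL (Fj j) := by
    intro j _
    exact ((PL.coord (some j)).sub (PL.coord none)).smul _
  have huniv : (Finset.univ : Finset {j // j ∈ J}).Nonempty := by
    obtain ⟨j, hj⟩ := hJne
    exact ⟨⟨j, hj⟩, Finset.mem_univ _⟩
  obtain ⟨Gl, hGl, hG1, hG2⟩ := PL.exists_sup (Finset.univ : Finset {j // j ∈ J}) huniv hFj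
  refine ⟨fun φ => Real.exp (Gl fun v => Real.log ‖φ (qv v)‖),
    q * (h.coeff d * ∏ j ∈ J, h.coeff (d - j)), 2 ^ (d + 1), Tr.mk' qv hqv hGl, ?_, by positivity,
    ?_⟩
  · exact mul_ne_zero hq (mul_ne_zero hlead (Finset.prod_ne_zero_iff.2 fun j hj =>
      (hJmem j hj).2.2))
  intro φ hφ
  rw [map_mul, map_mul, map_prod] at hφ
  have hφq : φ q ≠ 0 := left_ne_zero_of_mul hφ
  have hφd : φ (h.coeff d) ≠ 0 := left_ne_zero_of_mul (right_ne_zero_of_mul hφ)
  have hφj : ∀ j ∈ J, φ (h.coeff (d - j)) ≠ 0 := by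
    intro j hj
    exact Finset.prod_ne_zero_iff.1 (right_ne_zero_of_mul (right_ne_zero_of_mul hφ)) j hj
  obtain ⟨hb1, hb2, hb3⟩ := H_bound F P Q hm hPn hQn φ hφd
  have hval : ∀ z, (F.map φ).eval z = 0 → g φ z = (P.map φ).eval z / (Q.map φ).eval z :=
    fun z hz => (HH φ hφq z hz).2
  have hroot : ∀ z, z ∈ (F.map φ).roots ↔ (F.map φ).eval z = 0 := fun z =>
    mem_roots (hm.map φ).ne_zero
  set ξ : V → ℝ := fun v => Real.log ‖φ (qv v)‖ with hξ
  have hd0 : 0 < d := lt_of_lt_of_le hj01 hj0d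
  have hlpos : 0 < ‖φ (h.coeff d)‖ := norm_pos_iff.2 hφd
  refine ⟨fun z hz => ?_, ?_⟩
  · obtain ⟨j, hj1, hjd, hjz⟩ := hb3 z ((hroot z).2 hz)
    rw [← hval z hz] at hjz
    by_cases hjJ : j ∈ J
    · have h1 := hG1 ξ ⟨j, hjJ⟩ (Finset.mem_univ _)
      rcases eq_or_lt_of_le (norm_nonneg (g φ z)) with h0 | h0
      · rw [← h0]
        positivity
      · have hjpos : (0 : ℝ) < j := by exact_mod_cast hj1
        have h2 : (j : ℝ) * Real.log (‖g φ z‖ / 2) ≤ Real.log ‖φ (h.coeff (d - j))‖ -
            Real.log ‖φ (h.coeff d)‖ := by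
          have h3 : 0 < (‖g φ z‖ / 2) ^ j := by positivity
          have h4 := Real.log_le_log (mul_pos h3 hlpos) hjz
          rw [Real.log_mul h3.ne' hlpos.ne', Real.log_pow] at h4
          linarith
        have h5 : Real.log (‖g φ z‖ / 2) ≤ Gl ξ := by
          refine le_trans ?_ h1
          show Real.log (‖g φ z‖ / 2) ≤ (((1 : ℚ) / (j : ℚ) : ℚ) : ℝ) *
            (Real.log ‖φ (h.coeff (d - j))‖ - Real.log ‖φ (h.coeff d)‖)
          push_cast
          rw [one_div, ← div_eq_inv_mul, le_div_iff₀ hjpos]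
          linarith
        have h6 : ‖g φ z‖ / 2 ≤ Real.exp (Gl ξ) := by
          rw [← Real.exp_log (show 0 < ‖g φ z‖ / 2 by positivity)]
          exact Real.exp_le_exp.2 h5
        have h7 : (2 : ℝ) ≤ 2 ^ (d + 1) := by
          calc (2 : ℝ) = 2 ^ 1 := by norm_num
            _ ≤ 2 ^ (d + 1) := pow_le_pow_right₀ (by norm_num) (by omega)
        calc ‖g φ z‖ ≤ 2 * Real.exp (Gl ξ) := by linarith
          _ ≤ 2 ^ (d + 1) * Real.exp (Gl ξ) :=
            mul_le_mul_of_nonneg_right h7 (Real.exp_pos _).le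
    · have h1 : h.coeff (d - j) = 0 := by
        by_contra hcon
        apply hjJ
        rw [hJdef, Finset.mem_filter, Finset.mem_Icc]
        exact ⟨⟨hj1, hjd⟩, hcon⟩
      rw [h1, map_zero, norm_zero] at hjz
      have h2 : (‖g φ z‖ / 2) ^ j = 0 := by
        have h3 : 0 ≤ (‖g φ z‖ / 2) ^ j := by positivity
        have := mul_nonneg h3 hlpos.le
        have h4 : (‖g φ z‖ / 2) ^ j * ‖φ (h.coeff d)‖ = 0 := le_antisymm hjz this
        rcases mul_eq_zero.1 h4 with h5 | h5
        · exact h5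
        · exact absurd h5 hlpos.ne'
      have h3 : ‖g φ z‖ = 0 := by
        have := pow_eq_zero_iff (by omega : j ≠ 0) |>.1 h2
        linarith
      rw [h3]
      positivity
  · obtain ⟨j, _, hj⟩ := hG2 ξ
    obtain ⟨hj1, hjd, hjne⟩ := hJmem j.1 j.2
    -- the maximal sheet
    have hrne : ((F.map φ).roots.toFinset).Nonempty := by
      obtain ⟨z, hz⟩ := IsAlgClosed.exists_root (F.map φ) (by
        rw [degree_eq_natDegree (hm.map φ).ne_zero, hm.natDegree_map]
        exact_mod_cast hd0.ne')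
      exact ⟨z, by rw [Multiset.mem_toFinset]; exact (hroot z).2 hz⟩
    obtain ⟨z, hz, hzmax⟩ := Finset.exists_max_image (F.map φ).roots.toFinset (fun z => ‖g φ z‖)
      hrne
    rw [Multiset.mem_toFinset] at hz
    refine ⟨z, (hroot z).1 hz, ?_⟩
    have h1 := hb2 ‖g φ z‖ (by
      intro w hw
      rw [← hval w ((hroot w).1 hw)]
      exact hzmax w (by rw [Multiset.mem_toFinset]; exact hw)) j.1 hjd
    have hjpos : (0 : ℝ) < j.1 := by exact_mod_cast hj1
    have hnum : 0 < ‖φ (h.coeff (d - j.1))‖ := norm_pos_iff.2 (hφj j.1 j.2)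
    have hgpos : 0 < ‖g φ z‖ := by
      rcases eq_or_lt_of_le (norm_nonneg (g φ z)) with h0 | h0
      · exfalso
        rw [← h0, zero_pow (by omega), mul_zero, zero_mul] at h1
        exact absurd h1 (not_le.2 hnum)
      · exact h0
    have h2 : Real.log ‖φ (h.coeff (d - j.1))‖ - Real.log ‖φ (h.coeff d)‖ ≤
        d * Real.log 2 + j.1 * Real.log ‖g φ z‖ := by
      have h3 := Real.log_le_log hnum h1
      rw [Real.log_mul (by positivity) hlpos.ne', Real.log_mul (by positivity) (by positivity),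
        Real.log_pow, Real.log_pow] at h3
      linarith
    have hlog2 : 0 < Real.log 2 := Real.log_pos (by norm_num)
    have h4 : Gl ξ ≤ d * Real.log 2 + Real.log ‖g φ z‖ := by
      rw [hj]
      show (((1 : ℚ) / (j.1 : ℚ) : ℚ) : ℝ) *
            (Real.log ‖φ (h.coeff (d - j.1))‖ - Real.log ‖φ (h.coeff d)‖) ≤ _
      push_cast
      rw [one_div, ← div_eq_inv_mul, div_le_iff₀ hjpos]
      refine h2.trans ?_
      have h5 : (d : ℝ) * Real.log 2 ≤ d * Real.log 2 * j.1 := by
        have h6 : (1 : ℝ) ≤ j.1 := by exact_mod_cast hj1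
        nlinarith [mul_nonneg (Nat.cast_nonneg (α := ℝ) d) hlog2.le]
      nlinarith
    calc Real.exp (Gl ξ) ≤ Real.exp (d * Real.log 2 + Real.log ‖g φ z‖) := Real.exp_le_exp.2 h4
      _ = 2 ^ d * ‖g φ z‖ := by
          rw [Real.exp_add, Real.exp_log hgpos, ← Real.log_pow, Real.exp_log (by positivity)]
      _ ≤ 2 ^ (d + 1) * ‖g φ z‖ := by
          refine mul_le_mul_of_nonneg_right ?_ (norm_nonneg _)
          exact pow_le_pow_right₀ (by norm_num) (by omega)

end Crest.Agent.R281.GT_639
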