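import Crest.Agent.R281.TrOV3_726

/-!
# Row 281, TROP-OV part 4 (helper726)
Upper bounds and the final theorem `ov`.
-/

namespace Crest.Agent.R281.TrOV_726

open Crest.Agent.R281.TrPL_726 Crest.Agent.R281.TrOV1_726 Crest.Agent.R281.TrOV2_726
open MeasureTheory Set Metric Filter Topology
open scoped ENNReal

variable {V : Type*} [Fintype V] {B : ℕ}

/-- the set where `b k` is nearest and the distance is about `exp ρ` -/
def U (b : Fin B → ℂ) (k : Fin B) (ρ : ℝ) : Set ℂ :=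
  {x | Real.exp ρ ≤ ‖x - b k‖ ∧ ‖x - b k‖ < Real.exp (ρ + 1) ∧ ∀ l, ‖x - b k‖ ≤ ‖x - b l‖}

theorem measurableSet_U (b : Fin B → ℂ) (k : Fin B) (ρ : ℝ) : MeasurableSet (U b k ρ) := by
  have : U b k ρ = {x | Real.exp ρ ≤ ‖x - b k‖} ∩ ({x | ‖x - b k‖ < Real.exp (ρ + 1)} ∩
      ⋂ l, {x | ‖x - b k‖ ≤ ‖x - b l‖}) := by
    ext x; simp [U]
  rw [this]
  refine (measurableSet_le measurable_const (by fun_prop)).inter
    ((measurableSet_lt (by fun_prop) measurable_const).inter (MeasurableSet.iInter fun l => ?_))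
  exact measurableSet_le (by fun_prop) (by fun_prop)

theorem exists_nearest (hB : 0 < B) (b : Fin B → ℂ) (x : ℂ) : ∃ k, ∀ l, ‖x - b k‖ ≤ ‖x - b l‖ := by
  have : Nonempty (Fin B) := ⟨⟨0, hB⟩⟩
  exact Finite.exists_min (fun l => ‖x - b l‖)

theorem cover_U (hB : 0 < B) (b : Fin B → ℂ) :
    (univ : Set ℂ) ⊆ range b ∪ ⋃ k, ((⋃ n : ℕ, U b k (n : ℝ)) ∪ (⋃ n : ℕ, U b k (-(n : ℝ)))) := by
  intro x _
  by_cases hx : x ∈ range b
  · exact Or.inl hx
  right
  obtain ⟨k, hk⟩ := exists_nearest hB b x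
  have hpos : 0 < ‖x - b k‖ := norm_pos_iff.2 (sub_ne_zero.2 fun h => hx ⟨k, h.symm⟩)
  refine mem_iUnion.2 ⟨k, ?_⟩
  have h1 : Real.exp ((⌊Real.log ‖x - b k‖⌋ : ℤ) : ℝ) ≤ ‖x - b k‖ := by
    rw [← Real.le_log_iff_exp_le hpos]; exact Int.floor_le _
  have h2 : ‖x - b k‖ < Real.exp (((⌊Real.log ‖x - b k‖⌋ : ℤ) : ℝ) + 1) := by
    rw [← Real.log_lt_iff_lt_exp hpos]; exact Int.lt_floor_add_one _
  generalize ⌊Real.log ‖x - b k‖⌋ = j at h1 h2
  rcases Int.eq_nat_or_neg j with ⟨n, rfl | rfl⟩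
  · left
    refine mem_iUnion.2 ⟨n, ?_⟩
    push_cast at h1 h2
    exact ⟨h1, h2, hk⟩
  · right
    refine mem_iUnion.2 ⟨n, ?_⟩
    push_cast at h1 h2
    exact ⟨h1, h2, hk⟩

/-- splitting the integral -/
theorem lintegral_le_sum (hB : 0 < B) (b : Fin B → ℂ) (W : ℂ → ℝ≥0∞) :
    ∫⁻ x, W x ≤ ∑ k : Fin B, ((∑' n : ℕ, ∫⁻ x in U b k (n : ℝ), W x) +
      (∑' n : ℕ, ∫⁻ x in U b k (-(n : ℝ)), W x)) := by
  have h0 : volume (range b) = 0 := (finite_range b).measure_zero _
  calc ∫⁻ x, W x = ∫⁻ x in univ, W x := by rw [setLIntegral_univ]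
    _ ≤ ∫⁻ x in (range b ∪ ⋃ k, ((⋃ n : ℕ, U b k (n : ℝ)) ∪ (⋃ n : ℕ, U b k (-(n : ℝ))))), W x :=
        lintegral_mono_set (cover_U hB b)
    _ ≤ (∫⁻ x in range b, W x) +
        (∫⁻ x in ⋃ k, ((⋃ n : ℕ, U b k (n : ℝ)) ∪ (⋃ n : ℕ, U b k (-(n : ℝ)))), W x) :=
        lintegral_union_le _ _ _
    _ = ∫⁻ x in ⋃ k, ((⋃ n : ℕ, U b k (n : ℝ)) ∪ (⋃ n : ℕ, U b k (-(n : ℝ)))), W x := by
        rw [setLIntegral_measure_zero _ _ h0, zero_add]
    _ ≤ ∑' k, ∫⁻ x in ((⋃ n : ℕ, U b k (n : ℝ)) ∪ (⋃ n : ℕ, U b k (-(n : ℝ)))), W x :=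
        lintegral_iUnion_le _ _
    _ = ∑ k, ∫⁻ x in ((⋃ n : ℕ, U b k (n : ℝ)) ∪ (⋃ n : ℕ, U b k (-(n : ℝ)))), W x :=
        tsum_fintype _
    _ ≤ _ := by
        refine Finset.sum_le_sum fun k _ => ?_
        refine (lintegral_union_le _ _ _).trans ?_
        exact add_le_add (lintegral_iUnion_le _ _) (lintegral_iUnion_le _ _)

theorem abs_xi_le (b : Fin B → ℂ) (k : Fin B) (ρ : ℝ) (l : Fin B) :
    |xi b k ρ l| ≤ |ρ| + |Real.log ‖b k - b l‖| := by
  unfold xi
  split_ifs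
  · linarith [abs_nonneg (Real.log ‖b k - b l‖)]
  · refine (abs_max_le_max_abs_abs).trans ?_
    exact max_le (by linarith [abs_nonneg (Real.log ‖b k - b l‖)]) (by linarith [abs_nonneg ρ])

/-- one term -/
theorem term_bound {F : (V ⊕ Fin B → ℝ) → ℝ} {S : ℝ}
    (hS : ∀ ξ η : V ⊕ Fin B → ℝ, ∀ δ : ℝ, (∀ v, |ξ v - η v| ≤ δ) → |F ξ - F η| ≤ S * δ)
    (c : V → ℝ) {b : Fin B → ℂ} (hb : Function.Injective b) (k : Fin B) (ρ : ℝ) {κ : ℝ}
    (hκ : 0 ≤ κ) :
    ∫⁻ x in U b k ρ, ENNReal.ofReal (GG F c b x *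
        Real.exp (κ * (∑ v, |c v| + ∑ l, |Real.log ‖x - b l‖|))) ≤
      ENNReal.ofReal (Real.exp (fk F c b k ρ + (2 * S + 2 + Real.log Real.pi) +
        κ * (∑ w, |dat c b w| + B * |ρ| + 2 * B))) := by
  have h1 : ∀ x ∈ U b k ρ, ENNReal.ofReal (GG F c b x *
        Real.exp (κ * (∑ v, |c v| + ∑ l, |Real.log ‖x - b l‖|))) ≤
      ENNReal.ofReal (Real.exp (F (Sum.elim c (xi b k ρ)) + 2 * S +
        κ * (∑ w, |dat c b w| + B * |ρ| + 2 * B))) := by
    intro x hx
    refine ENNReal.ofReal_le_ofReal ?_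
    unfold GG
    rw [← Real.exp_add, Real.exp_le_exp]
    have hn := near_up hb hx.1 hx.2.1 hx.2.2
    have h2 := (abs_le.1 (GG_cmp hS c b k ρ x (by norm_num : (0 : ℝ) ≤ 2) hn)).2
    have h3 : ∑ l, |Real.log ‖x - b l‖| ≤ B * |ρ| + 2 * B + ∑ l, |Real.log ‖b k - b l‖| := by
      calc ∑ l, |Real.log ‖x - b l‖| ≤ ∑ l : Fin B, (|ρ| + 2 + |Real.log ‖b k - b l‖|) := by
            refine Finset.sum_le_sum fun l _ => ?_
            have e1 := hn l
            have e2 := abs_xi_le b k ρ l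
            have e3 : |Real.log ‖x - b l‖| ≤ |Real.log ‖x - b l‖ - xi b k ρ l| + |xi b k ρ l| := by
              have := abs_add_le (Real.log ‖x - b l‖ - xi b k ρ l) (xi b k ρ l)
              simpa using this
            linarith
        _ = _ := by
            rw [Finset.sum_add_distrib]
            simp; ring
    have h4 : ∑ v, |c v| + ∑ l, |Real.log ‖b k - b l‖| ≤ ∑ w, |dat c b w| := by
      rw [Fintype.sum_sum_type]
      simp only [dat, Sum.elim_inl, Sum.elim_inr]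
      rw [Fintype.sum_prod_type]
      have := Finset.single_le_sum (f := fun k => ∑ l, |Real.log ‖b k - b l‖|)
        (fun _ _ => Finset.sum_nonneg fun _ _ => abs_nonneg _) (Finset.mem_univ k)
      linarith
    have h5 : κ * (∑ v, |c v| + ∑ l, |Real.log ‖x - b l‖|) ≤
        κ * (∑ w, |dat c b w| + B * |ρ| + 2 * B) :=
      mul_le_mul_of_nonneg_left (by linarith) hκ
    linarith
  calc ∫⁻ x in U b k ρ, ENNReal.ofReal (GG F c b x *
        Real.exp (κ * (∑ v, |c v| + ∑ l, |Real.log ‖x - b l‖|)))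
      ≤ ∫⁻ x in U b k ρ, ENNReal.ofReal (Real.exp (F (Sum.elim c (xi b k ρ)) + 2 * S +
        κ * (∑ w, |dat c b w| + B * |ρ| + 2 * B))) :=
        setLIntegral_mono' (measurableSet_U b k ρ) h1
    _ = ENNReal.ofReal (Real.exp (F (Sum.elim c (xi b k ρ)) + 2 * S +
        κ * (∑ w, |dat c b w| + B * |ρ| + 2 * B))) * volume (U b k ρ) := setLIntegral_const _ _
    _ ≤ ENNReal.ofReal (Real.exp (F (Sum.elim c (xi b k ρ)) + 2 * S +
        κ * (∑ w, |dat c b w| + B * |ρ| + 2 * B))) * volume (ball (b k) (Real.exp (ρ + 1))) := by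
        gcongr
        intro x hx
        rw [mem_ball, dist_eq_norm]; exact hx.2.1
    _ = _ := by
        rw [volume_ball_exp, ← ENNReal.ofReal_mul (Real.exp_pos _).le]
        congr 1
        have : Real.pi = Real.exp (Real.log Real.pi) := (Real.exp_log Real.pi_pos).symm
        rw [this, ← Real.exp_add, ← Real.exp_add, Real.log_exp]
        congr 1
        unfold fk
        ring

/-- the sum over one direction -/
theorem dir_bound {F : (V ⊕ Fin B → ℝ) → ℝ} {S : ℝ}
    (hS : ∀ ξ η : V ⊕ Fin B → ℝ, ∀ δ : ℝ, (∀ v, |ξ v - η v| ≤ δ) → |F ξ - F η| ≤ S * δ)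
    (c : V → ℝ) {b : Fin B → ℂ} (hb : Function.Injective b) (k : Fin B) {D : ℕ} (hD : 0 < D)
    {CR N : ℝ} (hCR : 0 ≤ CR)
    (hN : ∀ ρ, fk F c b k ρ ≤ N - max (|ρ| - CR * ∑ w, |dat c b w|) 0 / D)
    {κ : ℝ} (hκ : 0 ≤ κ) (hκ' : κ * B ≤ 1 / (2 * D)) (r : ℕ → ℝ) (hr : ∀ n, |r n| = n) :
    ∑' n : ℕ, ∫⁻ x in U b k (r n), ENNReal.ofReal (GG F c b x *
        Real.exp (κ * (∑ v, |c v| + ∑ l, |Real.log ‖x - b l‖|))) ≤
      ENNReal.ofReal (Real.exp (N + (2 * S + 2 + Real.log Real.pi) +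
        κ * ((1 + B * CR) * ∑ w, |dat c b w| + 2 * B)) *
        (CR * ∑ w, |dat c b w| + 1 + 1 / (1 - Real.exp (-(1 / (2 * D)))))) := by
  set H := ∑ w, |dat c b w| with hH
  have hH0 : 0 ≤ H := Finset.sum_nonneg fun _ _ => abs_nonneg _
  have hD' : (0 : ℝ) < D := by exact_mod_cast hD
  have h1 : ∀ n : ℕ, ∫⁻ x in U b k (r n), ENNReal.ofReal (GG F c b x *
        Real.exp (κ * (∑ v, |c v| + ∑ l, |Real.log ‖x - b l‖|))) ≤
      ENNReal.ofReal (Real.exp (N + (2 * S + 2 + Real.log Real.pi) +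
        κ * ((1 + B * CR) * H + 2 * B))) *
      ENNReal.ofReal (Real.exp (-((1 / (2 * D)) * max ((n : ℝ) - CR * H) 0))) := by
    intro n
    refine (term_bound hS c hb k (r n) hκ).trans ?_
    rw [← ENNReal.ofReal_mul (Real.exp_pos _).le, ← Real.exp_add]
    refine ENNReal.ofReal_le_ofReal (Real.exp_le_exp.2 ?_)
    have h2 := hN (r n)
    rw [hr n] at h2 ⊢
    set m := max ((n : ℝ) - CR * H) 0 with hm
    have hm0 : 0 ≤ m := le_max_right _ _
    have hm1 : (n : ℝ) ≤ CR * H + m := by linarith [le_max_left ((n : ℝ) - CR * H) 0]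
    have h3 : κ * (B * (n : ℝ)) ≤ κ * (B * (CR * H)) + 1 / (2 * D) * m := by
      have e1 : κ * (B * (n : ℝ)) ≤ κ * (B * (CR * H + m)) := by
        refine mul_le_mul_of_nonneg_left (mul_le_mul_of_nonneg_left hm1 (by positivity)) hκ
      have e2 : κ * B * m ≤ 1 / (2 * D) * m := mul_le_mul_of_nonneg_right hκ' hm0
      nlinarith
    have h4 : m / D = 1 / (2 * D) * m + 1 / (2 * D) * m := by
      field_simp; ring
    rw [h4] at h2
    have e3 : κ * (H + B * (n : ℝ) + 2 * B) = κ * H + κ * (B * (n : ℝ)) + κ * (2 * B) := by ring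
    have e4 : κ * ((1 + B * CR) * H + 2 * B) = κ * H + κ * (B * (CR * H)) + κ * (2 * B) := by ring
    rw [e3, e4]
    linarith
  refine (ENNReal.tsum_le_tsum h1).trans ?_
  rw [ENNReal.tsum_mul_left, ENNReal.ofReal_mul (Real.exp_pos _).le]
  gcongr
  exact geom_sum (by positivity) (mul_nonneg hCR hH0)

/-- TROP-OV -/
theorem ov (hB : 0 < B) {F : (V ⊕ Fin B → ℝ) → ℝ} (hF : PL F) {ε : ℝ} (hε : 0 < ε) :
    ∃ (M : (V ⊕ (Fin B × Fin B) → ℝ) → ℝ) (C κ₀ : ℝ), PL M ∧ 0 < C ∧ 0 < κ₀ ∧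
      ∀ (c : V → ℝ) (b : Fin B → ℂ), Function.Injective b →
        ∫⁻ x, ENNReal.ofReal (GG F c b x) ≠ ∞ →
        (ENNReal.ofReal (Real.exp (M (dat c b))) ≤
          ENNReal.ofReal C * ∫⁻ x, ENNReal.ofReal (GG F c b x)) ∧
        (∀ κ, 0 ≤ κ → κ ≤ κ₀ →
          ∫⁻ x, ENNReal.ofReal (GG F c b x *
            Real.exp (κ * (∑ v, |c v| + ∑ l, |Real.log ‖x - b l‖|))) ≤
          ENNReal.ofReal (C * Real.exp (M (dat c b)) * (1 + ∑ w, |dat c b w|) *
            Real.exp (C * κ * (1 + ∑ w, |dat c b w|)))) ∧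
        ∃ Z : Set ℂ, MeasurableSet Z ∧
          ∫⁻ x in Z, ENNReal.ofReal (GG F c b x) ≤ ENNReal.ofReal (C * Real.exp (M (dat c b))) ∧
          ∀ x, x ∉ Z → ∃ k, x ≠ b k ∧ GG F c b x * ‖x - b k‖ ^ 2 ≤ C * Real.exp (M (dat c b)) ∧
            ∀ l, ‖b k - b l‖ ≤ ε * ‖x - b k‖ ∨ ‖x - b k‖ ≤ ε * ‖b k - b l‖ := by
  obtain ⟨M, D, CR, hM, hD, hCR, hM'⟩ := exists_M hB hF
  obtain ⟨S, hS0, hS⟩ := hF.lip
  have hD' : (0 : ℝ) < D := by exact_mod_cast hD
  have hlt : Real.exp (-(1 / (2 * (D : ℝ)))) < 1 := by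
    rw [Real.exp_lt_one_iff]
    have : (0 : ℝ) < 1 / (2 * D) := by positivity
    linarith
  set g := 1 / (1 - Real.exp (-(1 / (2 * (D : ℝ))))) with hg
  have hg0 : 0 < g := by
    rw [hg]; exact one_div_pos.2 (by linarith)
  set A0 := 2 * S + 2 + Real.log Real.pi with hA0
  set C1 := Real.exp (S * (3 + Real.log (B + 1))) with hC1
  have hBpos : (0 : ℝ) < B := by exact_mod_cast hB
  set κ₀ : ℝ := 1 / (2 * D * B) with hκ₀
  set C2 := 2 * B * Real.exp A0 * Real.exp (κ₀ * (2 * B)) * (CR + 1 + g) with hC2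
  set K := max 0 (-Real.log ε) with hK
  set C3 := B * B * (Real.exp (2 * S) * Real.exp (4 * K + 2) * Real.pi) with hC3
  have hCR1 : 0 ≤ B * CR := by positivity
  have hC2pos : 0 < C2 := by positivity
  have hC3pos : 0 < C3 := by positivity
  have hC1pos : 0 < C1 := Real.exp_pos _
  refine ⟨M, C1 + C2 + (1 + B * CR) + C3 + Real.exp (2 * S), κ₀, hM, ?_, by positivity, ?_⟩
  · have := Real.exp_pos (2 * S)
    linarith
  intro c b hb hfin
  obtain ⟨⟨k₀, ρ₀, hk₀⟩, hbd⟩ := hM' c b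
  set N := M (dat c b) with hN
  set H := ∑ w, |dat c b w| with hH
  have hH0 : 0 ≤ H := Finset.sum_nonneg fun _ _ => abs_nonneg _
  have hES : 0 < Real.exp (2 * S) := Real.exp_pos _
  have hbd' : ∀ k ρ, fk F c b k ρ ≤ N - max (|ρ| - CR * H) 0 / D := fun k =>
    hbd k (tendsto_both hF c hb k hfin).1 (tendsto_both hF c hb k hfin).2
  have hbd0 : ∀ k ρ, fk F c b k ρ ≤ N := by
    intro k ρ
    have h1 := hbd' k ρ
    have h2 : 0 ≤ max (|ρ| - CR * H) 0 / D := div_nonneg (le_max_right _ _) hD'.le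
    linarith
  refine ⟨?_, ?_, ?_⟩
  · rw [hk₀]
    refine (low_bound hS c hb k₀ ρ₀).trans ?_
    refine mul_le_mul' (ENNReal.ofReal_le_ofReal ?_) ?_
    · rw [← hC1]; linarith
    · exact lintegral_mono_set (subset_univ _) |>.trans (by rw [setLIntegral_univ])
  · intro κ hκ hκ'
    have hκB : κ * B ≤ 1 / (2 * D) := by
      calc κ * B ≤ κ₀ * B := mul_le_mul_of_nonneg_right hκ' hBpos.le
        _ = 1 / (2 * D) := by rw [hκ₀]; field_simp
    refine (lintegral_le_sum hB b _).trans ?_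
    have hd1 : ∀ k, ∑' n : ℕ, ∫⁻ x in U b k (n : ℝ), ENNReal.ofReal (GG F c b x *
        Real.exp (κ * (∑ v, |c v| + ∑ l, |Real.log ‖x - b l‖|))) ≤ _ := fun k =>
      dir_bound hS c hb k hD hCR (hbd' k) hκ hκB (fun n => (n : ℝ)) (fun n => by simp)
    have hd2 : ∀ k, ∑' n : ℕ, ∫⁻ x in U b k (-(n : ℝ)), ENNReal.ofReal (GG F c b x *
        Real.exp (κ * (∑ v, |c v| + ∑ l, |Real.log ‖x - b l‖|))) ≤ _ := fun k =>
      dir_bound hS c hb k hD hCR (hbd' k) hκ hκB (fun n => -(n : ℝ)) (fun n => by simp)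
    refine (Finset.sum_le_sum fun k _ => add_le_add (hd1 k) (hd2 k)).trans ?_
    rw [Finset.sum_const, Finset.card_univ, Fintype.card_fin, nsmul_eq_mul, ← hH, ← hg, ← hA0]
    have hpos : 0 ≤ Real.exp (N + A0 + κ * ((1 + B * CR) * H + 2 * B)) * (CR * H + 1 + g) := by
      positivity
    rw [← ENNReal.ofReal_add hpos hpos, ← ENNReal.ofReal_natCast, ← ENNReal.ofReal_mul hBpos.le]
    refine ENNReal.ofReal_le_ofReal ?_
    have e1 : Real.exp (N + A0 + κ * ((1 + B * CR) * H + 2 * B)) =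
        Real.exp N * Real.exp A0 * (Real.exp (κ * ((1 + B * CR) * H)) * Real.exp (κ * (2 * B))) := by
      rw [← Real.exp_add, ← Real.exp_add, ← Real.exp_add]; ring_nf
    rw [e1]
    have e2 : Real.exp (κ * (2 * B)) ≤ Real.exp (κ₀ * (2 * B)) :=
      Real.exp_le_exp.2 (mul_le_mul_of_nonneg_right hκ' (by positivity))
    set CC := C1 + C2 + (1 + B * CR) + C3 + Real.exp (2 * S) with hCC
    have hCC1 : (1 + B * CR) ≤ CC := by rw [hCC]; linarith
    have hCC2 : C2 ≤ CC := by rw [hCC]; linarith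
    have e3 : Real.exp (κ * ((1 + B * CR) * H)) ≤ Real.exp (CC * κ * (1 + H)) := by
      refine Real.exp_le_exp.2 ?_
      have : (1 + B * CR) * H ≤ CC * (1 + H) := by
        calc (1 + B * CR) * H ≤ CC * H := mul_le_mul_of_nonneg_right hCC1 hH0
          _ ≤ CC * (1 + H) := mul_le_mul_of_nonneg_left (by linarith) (by linarith)
      calc κ * ((1 + B * CR) * H) ≤ κ * (CC * (1 + H)) := mul_le_mul_of_nonneg_left this hκ
        _ = CC * κ * (1 + H) := by ring
    have e4 : CR * H + 1 + g ≤ (CR + 1 + g) * (1 + H) := by nlinarith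
    calc (B : ℝ) * (Real.exp N * Real.exp A0 * (Real.exp (κ * ((1 + B * CR) * H)) *
            Real.exp (κ * (2 * B))) * (CR * H + 1 + g) + Real.exp N * Real.exp A0 *
            (Real.exp (κ * ((1 + B * CR) * H)) * Real.exp (κ * (2 * B))) * (CR * H + 1 + g))
        = 2 * B * Real.exp A0 * Real.exp N * (Real.exp (κ * (2 * B)) * (CR * H + 1 + g)) *
            Real.exp (κ * ((1 + B * CR) * H)) := by ring
      _ ≤ 2 * B * Real.exp A0 * Real.exp N * (Real.exp (κ₀ * (2 * B)) * ((CR + 1 + g) * (1 + H))) *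
            Real.exp (CC * κ * (1 + H)) := by
          gcongr
      _ = C2 * Real.exp N * (1 + H) * Real.exp (CC * κ * (1 + H)) := by rw [hC2]; ring
      _ ≤ CC * Real.exp N * (1 + H) * Real.exp (CC * κ * (1 + H)) := by gcongr
  · -- the set `Z`
    let Zkl : Fin B → Fin B → Set ℂ := fun k l =>
      {x | (∀ j, ‖x - b k‖ ≤ ‖x - b j‖) ∧ 0 < ‖x - b k‖ ∧ l ≠ k ∧
        |Real.log ‖x - b k‖ - Real.log ‖b k - b l‖| ≤ K}
    have hZm : ∀ k l, MeasurableSet (Zkl k l) := by
      intro k l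
      have : Zkl k l = (⋂ j, {x | ‖x - b k‖ ≤ ‖x - b j‖}) ∩ ({x | 0 < ‖x - b k‖} ∩
          ({x | l ≠ k} ∩ {x | |Real.log ‖x - b k‖ - Real.log ‖b k - b l‖| ≤ K})) := by
        ext x; simp [Zkl]
      rw [this]
      refine (MeasurableSet.iInter fun j => measurableSet_le (by fun_prop) (by fun_prop)).inter
        ((measurableSet_lt measurable_const (by fun_prop)).inter
          ((MeasurableSet.const _).inter (measurableSet_le ?_ measurable_const)))
      have : Measurable fun x : ℂ => Real.log ‖x - b k‖ := Real.measurable_log.comp (by fun_prop)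
      exact (this.sub_const _).abs
    -- pointwise bound
    have hpt : ∀ k x, (∀ j, ‖x - b k‖ ≤ ‖x - b j‖) → 0 < ‖x - b k‖ →
        GG F c b x * ‖x - b k‖ ^ 2 ≤ Real.exp (2 * S) * Real.exp N := by
      intro k x h1 h2
      have h3 : Real.exp (Real.log ‖x - b k‖) ≤ ‖x - b k‖ := (Real.exp_log h2).le
      have h4 : ‖x - b k‖ < Real.exp (Real.log ‖x - b k‖ + 1) := by
        rw [Real.exp_add, Real.exp_log h2]
        have := Real.add_one_le_exp (1 : ℝ)
        nlinarith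
      have h5 := (abs_le.1 (GG_cmp hS c b k _ x (by norm_num : (0 : ℝ) ≤ 2) (near_up hb h3 h4 h1))).2
      have h6 := hbd0 k (Real.log ‖x - b k‖)
      have h7 : ‖x - b k‖ ^ 2 = Real.exp (2 * Real.log ‖x - b k‖) := by
        have := Real.exp_nat_mul (Real.log ‖x - b k‖) 2
        rw [Real.exp_log h2] at this
        rw [← this]; norm_num
      unfold GG
      rw [h7, ← Real.exp_add, ← Real.exp_add, Real.exp_le_exp]
      unfold fk at h6
      linarith
    refine ⟨range b ∪ ⋃ k, ⋃ l, Zkl k l, ?_, ?_, ?_⟩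
    · exact (finite_range b).measurableSet.union
        (MeasurableSet.iUnion fun k => MeasurableSet.iUnion fun l => hZm k l)
    · have h0 : volume (range b) = 0 := (finite_range b).measure_zero _
      refine (lintegral_union_le _ _ _).trans ?_
      rw [setLIntegral_measure_zero _ _ h0, zero_add]
      refine (lintegral_iUnion_le _ _).trans ?_
      rw [tsum_fintype]
      have hkl : ∀ k l, ∫⁻ x in Zkl k l, ENNReal.ofReal (GG F c b x) ≤
          ENNReal.ofReal (Real.exp (2 * S) * Real.exp (4 * K + 2) * Real.pi * Real.exp N) := by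
        intro k l
        set lam := Real.log ‖b k - b l‖ with hlam
        have h1 : ∀ x ∈ Zkl k l, ENNReal.ofReal (GG F c b x) ≤
            ENNReal.ofReal (Real.exp (2 * S) * Real.exp N * Real.exp (-(2 * (lam - K)))) := by
          intro x hx
          obtain ⟨x1, x2, x3, x4⟩ := hx
          refine ENNReal.ofReal_le_ofReal ?_
          have h2 := hpt k x x1 x2
          have h3 : lam - K ≤ Real.log ‖x - b k‖ := by linarith [(abs_le.1 x4).1]
          have h4 : Real.exp (2 * (lam - K)) ≤ ‖x - b k‖ ^ 2 := by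
            have : Real.exp (lam - K) ≤ ‖x - b k‖ := (Real.le_log_iff_exp_le x2).1 h3
            calc Real.exp (2 * (lam - K)) = Real.exp (lam - K) ^ 2 := by
                  rw [← Real.exp_nat_mul]; norm_num
              _ ≤ ‖x - b k‖ ^ 2 := by gcongr
          have h5 : 0 < GG F c b x := Real.exp_pos _
          rw [Real.exp_neg, ← div_eq_mul_inv, le_div_iff₀ (Real.exp_pos _)]
          exact (mul_le_mul_of_nonneg_left h4 h5.le).trans h2
        calc ∫⁻ x in Zkl k l, ENNReal.ofReal (GG F c b x)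
            ≤ ∫⁻ x in Zkl k l, ENNReal.ofReal (Real.exp (2 * S) * Real.exp N *
                Real.exp (-(2 * (lam - K)))) := setLIntegral_mono' (hZm k l) h1
          _ = ENNReal.ofReal (Real.exp (2 * S) * Real.exp N * Real.exp (-(2 * (lam - K)))) *
                volume (Zkl k l) := setLIntegral_const _ _
          _ ≤ ENNReal.ofReal (Real.exp (2 * S) * Real.exp N * Real.exp (-(2 * (lam - K)))) *
                volume (ball (b k) (Real.exp (lam + K + 1))) := by
              gcongr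
              intro x hx
              obtain ⟨x1, x2, x3, x4⟩ := hx
              rw [mem_ball, dist_eq_norm]
              have h3 : Real.log ‖x - b k‖ < lam + K + 1 := by linarith [(abs_le.1 x4).2]
              exact (Real.log_lt_iff_lt_exp x2).1 h3
          _ = ENNReal.ofReal (Real.exp (2 * S) * Real.exp (4 * K + 2) * Real.pi * Real.exp N) := by
              rw [volume_ball_exp, ← ENNReal.ofReal_mul (by positivity)]
              congr 1
              have : Real.exp (4 * K + 2) =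
                  Real.exp (-(2 * (lam - K))) * Real.exp (2 * (lam + K + 1)) := by
                rw [← Real.exp_add]; ring_nf
              rw [this]; ring
      have hsum : ∀ k, ∫⁻ x in ⋃ l, Zkl k l, ENNReal.ofReal (GG F c b x) ≤
          ENNReal.ofReal (B * (Real.exp (2 * S) * Real.exp (4 * K + 2) * Real.pi * Real.exp N)) := by
        intro k
        refine (lintegral_iUnion_le _ _).trans ?_
        rw [tsum_fintype]
        refine (Finset.sum_le_sum fun l _ => hkl k l).trans ?_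
        rw [Finset.sum_const, Finset.card_univ, Fintype.card_fin, nsmul_eq_mul,
          ← ENNReal.ofReal_natCast, ← ENNReal.ofReal_mul hBpos.le]
      refine (Finset.sum_le_sum fun k _ => hsum k).trans ?_
      rw [Finset.sum_const, Finset.card_univ, Fintype.card_fin, nsmul_eq_mul,
        ← ENNReal.ofReal_natCast, ← ENNReal.ofReal_mul hBpos.le]
      refine ENNReal.ofReal_le_ofReal ?_
      have : (B : ℝ) * (B * (Real.exp (2 * S) * Real.exp (4 * K + 2) * Real.pi * Real.exp N)) =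
          C3 * Real.exp N := by rw [hC3]; ring
      rw [this]
      exact mul_le_mul_of_nonneg_right (by linarith) (Real.exp_pos _).le
    · intro x hx
      simp only [mem_union, mem_iUnion, not_or, not_exists] at hx
      obtain ⟨hx1, hx2⟩ := hx
      obtain ⟨k, hk⟩ := exists_nearest hB b x
      have hne : x ≠ b k := fun h => hx1 ⟨k, h.symm⟩
      have hpos : 0 < ‖x - b k‖ := norm_pos_iff.2 (sub_ne_zero.2 hne)
      refine ⟨k, hne, (hpt k x hk hpos).trans ?_, ?_⟩
      · exact mul_le_mul_of_nonneg_right (by linarith) (Real.exp_pos _).le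
      · intro l
        by_cases hl : l = k
        · left; subst hl; simp only [sub_self, norm_zero]; positivity
        · have h1 : ¬ |Real.log ‖x - b k‖ - Real.log ‖b k - b l‖| ≤ K :=
            fun h => hx2 k l ⟨hk, hpos, hl, h⟩
          push Not at h1
          have hkl : 0 < ‖b k - b l‖ := norm_pos_iff.2 (sub_ne_zero.2 fun h => hl (hb h).symm)
          have hKε : -Real.log ε ≤ K := le_max_right _ _
          rcases lt_abs.1 h1 with h2 | h2
          · left
            have h3 : Real.log ‖b k - b l‖ ≤ Real.log (ε * ‖x - b k‖) := by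
              rw [Real.log_mul hε.ne' hpos.ne']; linarith
            exact (Real.log_le_log_iff hkl (by positivity)).1 h3
          · right
            have h3 : Real.log ‖x - b k‖ ≤ Real.log (ε * ‖b k - b l‖) := by
              rw [Real.log_mul hε.ne' hkl.ne']; linarith
            exact (Real.log_le_log_iff hpos (by positivity)).1 h3

end Crest.Agent.R281.TrOV_726
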