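import Mathlib

/-!
# Row 281, TROP-PROJ part 1 (helper726)
Logarithmic derivative of a split polynomial under the separation condition.
-/

namespace Crest.Agent.R281.TrPr_726

open Polynomial

/-- logarithmic derivative of `c ∏ (x - b k)^(e k)` -/
theorem logder {B : ℕ} (P : ℂ[X]) (c : ℂ) (hc : c ≠ 0) (b : Fin B → ℂ) (e : Fin B → ℕ)
    (hP : ∀ x, P.eval x = c * ∏ k, (x - b k) ^ e k) {x : ℂ} (hx : ∀ k, x ≠ b k) :
    (derivative P).eval x / P.eval x = ∑ k, (e k : ℂ) / (x - b k) := by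
  have h1 : (derivative P).eval x = deriv (fun x => P.eval x) x := (Polynomial.deriv P).symm
  have h2 : (fun x => P.eval x) = fun x => c * ∏ k, (x - b k) ^ e k := funext hP
  have h3 : (derivative P).eval x / P.eval x = logDeriv (fun x => c * ∏ k, (x - b k) ^ e k) x := by
    rw [logDeriv_apply, h1, h2, hP]
  rw [h3, logDeriv_const_mul _ _ hc]
  have h4 : (fun x : ℂ => ∏ k, (x - b k) ^ e k) = fun x => ∏ k, (fun k (x : ℂ) => (x - b k) ^ e k) k x := rfl
  rw [h4, logDeriv_prod]
  · refine Finset.sum_congr rfl fun k _ => ?_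
    have : (fun x : ℂ => (x - b k) ^ e k) = fun x => (fun x : ℂ => x - b k) x ^ e k := rfl
    rw [this, logDeriv_fun_pow (by fun_prop)]
    rw [logDeriv_apply]
    simp only [deriv_sub_const, deriv_id'']
    ring
  · intro k _
    exact pow_ne_zero _ (sub_ne_zero.2 (hx k))
  · intro k _
    fun_prop

/-- lower bound of the logarithmic derivative under separation -/
theorem logder_lower {B : ℕ} (b : Fin B → ℂ) (e : Fin B → ℕ) {k₀ : Fin B} (he : 0 < e k₀)
    {ε : ℝ} (hε : 0 < ε) (hε1 : 4 * ε * (1 + ∑ k, (e k : ℝ)) ≤ 1) {x : ℂ} (hx : ∀ k, x ≠ b k)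
    (hsep : ∀ l, ‖b k₀ - b l‖ ≤ ε * ‖x - b k₀‖ ∨ ‖x - b k₀‖ ≤ ε * ‖b k₀ - b l‖) :
    1 ≤ 2 * ‖x - b k₀‖ * ‖∑ k, (e k : ℂ) / (x - b k)‖ := by
  set r := ‖x - b k₀‖ with hr
  have hr0 : 0 < r := norm_pos_iff.2 (sub_ne_zero.2 (hx k₀))
  have hE : 0 ≤ ∑ k, (e k : ℝ) := Finset.sum_nonneg fun _ _ => Nat.cast_nonneg _
  have hε4 : ε ≤ 1 / 4 := by nlinarith
  have hterm : ∀ l, l ≠ k₀ → -(2 * ε) ≤ ((x - b k₀) / (x - b l)).re := by
    intro l _
    have hl0 : 0 < ‖x - b l‖ := norm_pos_iff.2 (sub_ne_zero.2 (hx l))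
    have hl1 : x - b l ≠ 0 := sub_ne_zero.2 (hx l)
    rcases hsep l with h | h
    · have h1 : r / 2 ≤ ‖x - b l‖ := by
        have : x - b k₀ = (x - b l) - (b k₀ - b l) := by ring
        have h2 : r ≤ ‖x - b l‖ + ‖b k₀ - b l‖ := by
          rw [hr, this]; exact norm_sub_le _ _
        nlinarith
      have h3 : (x - b k₀) / (x - b l) = 1 + -((b k₀ - b l) / (x - b l)) := by
        field_simp; ring
      have h4 : ‖(b k₀ - b l) / (x - b l)‖ ≤ 2 * ε := by
        rw [norm_div, div_le_iff₀ hl0]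
        nlinarith
      rw [h3]
      simp only [Complex.add_re, Complex.one_re, Complex.neg_re]
      have h5 := Complex.abs_re_le_norm ((b k₀ - b l) / (x - b l))
      have h6 := (abs_le.1 h5).2
      linarith
    · have h1 : r / (2 * ε) ≤ ‖x - b l‖ := by
        have h2 : ‖b k₀ - b l‖ ≤ r + ‖x - b l‖ := by
          have : b k₀ - b l = -(x - b k₀) + (x - b l) := by ring
          rw [this]
          refine (norm_add_le _ _).trans ?_
          rw [norm_neg]
        rw [div_le_iff₀ (by positivity)]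
        nlinarith
      have h4 : ‖(x - b k₀) / (x - b l)‖ ≤ 2 * ε := by
        rw [norm_div, div_le_iff₀ hl0, ← hr]
        rw [div_le_iff₀ (by positivity)] at h1
        linarith
      have h5 := Complex.abs_re_le_norm ((x - b k₀) / (x - b l))
      have h6 := (abs_le.1 h5).1
      linarith
  have hsum : (1 : ℝ) / 2 ≤ ((x - b k₀) * ∑ k, (e k : ℂ) / (x - b k)).re := by
    rw [Finset.mul_sum, Complex.re_sum]
    have h1 : ∀ k, ((x - b k₀) * ((e k : ℂ) / (x - b k))).re = (e k : ℝ) * ((x - b k₀) / (x - b k)).re := by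
      intro k
      have : (x - b k₀) * ((e k : ℂ) / (x - b k)) = ((e k : ℝ) : ℂ) * ((x - b k₀) / (x - b k)) := by
        push_cast; ring
      rw [this, Complex.re_ofReal_mul]
    simp_rw [h1]
    have h2 : ∀ k, (if k = k₀ then (1 : ℝ) else 0) - 2 * ε * (e k : ℝ) ≤
        (e k : ℝ) * ((x - b k₀) / (x - b k)).re := by
      intro k
      split_ifs with hk
      · subst hk
        have h0 : x - b k ≠ 0 := sub_ne_zero.2 (hx k)
        rw [div_self h0]
        simp only [Complex.one_re, mul_one]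
        have : (1 : ℝ) ≤ e k := by exact_mod_cast he
        nlinarith
      · have h3 := hterm k hk
        have h4 : (0 : ℝ) ≤ e k := Nat.cast_nonneg _
        nlinarith
    have h3 := Finset.sum_le_sum (fun k (_ : k ∈ Finset.univ) => h2 k)
    rw [Finset.sum_sub_distrib, Finset.sum_ite_eq' Finset.univ k₀, if_pos (Finset.mem_univ _),
      ← Finset.mul_sum] at h3
    nlinarith
  have h7 : ((x - b k₀) * ∑ k, (e k : ℂ) / (x - b k)).re ≤ ‖x - b k₀‖ * ‖∑ k, (e k : ℂ) / (x - b k)‖ := by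
    rw [← norm_mul]; exact (Complex.abs_re_le_norm _ |> (abs_le.1 · |>.2))
  linarith

end Crest.Agent.R281.TrPr_726
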