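import Crest.Agent.R281.TrC7_282
import Crest.Agent.R281.TrOV4_726
import Crest.Agent.R281.TrPr1_726

/-!
# Row 281, TROP-PROJ (helper726): one-variable projection, from TROP-OV (726) and TROP-C (282)
-/

namespace Crest.Agent.R281.TrPr_726

open Crest.Agent.R281.TrPL_726 Crest.Agent.R281.TrC_282 Crest.Agent.R281.TrOV_726
open MeasureTheory Set Filter Topology Polynomial
open scoped ENNReal

/-- the point `(φ, x)` -/
noncomputable def ptX {A : Type*} [CommRing A] (φ : A →+* ℂ) (x : ℂ) : A[X] →+* ℂ :=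
  Polynomial.eval₂RingHom φ x

/-- the set of statements about one `φ` -/
def Good {A : Type*} [CommRing A] (G : (A[X] →+* ℂ) → ℝ) {k : ℕ} (w : Fin k → A[X])
    (M : (A →+* ℂ) → ℝ) (P : A[X]) {j : ℕ} (Q : Fin j → A) (κ₀ C : ℝ) (φ : A →+* ℂ) : Prop :=
  ENNReal.ofReal (M φ) ≤ ENNReal.ofReal C * ∫⁻ x, ENNReal.ofReal (G (ptX φ x)) ∧
  (∀ κ, 0 ≤ κ → κ ≤ κ₀ →
    ∫⁻ x, ENNReal.ofReal (G (ptX φ x) * Real.exp (κ * (∑ i, |Real.log ‖ptX φ x (w i)‖| +
      |Real.log ‖ptX φ x P‖|))) ≤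
      ENNReal.ofReal (C * M φ * (1 + ∑ i, |Real.log ‖φ (Q i)‖|) *
        Real.exp (C * κ * (1 + ∑ i, |Real.log ‖φ (Q i)‖|)))) ∧
  ∫⁻ x in {x | C * M φ * ‖ptX φ x (derivative P) / ptX φ x P‖ ^ 2 < G (ptX φ x)},
    ENNReal.ofReal (G (ptX φ x)) ≤ ENNReal.ofReal (C * M φ)

section
variable {A : Type*} [CommRing A]

theorem log_fac {B : ℕ} {c : ℂ} (hc : c ≠ 0) {b : Fin B → ℂ} {e : Fin B → ℕ} {x : ℂ}
    (hx : ∀ k, x ≠ b k) :
    Real.log ‖c * ∏ k, (x - b k) ^ e k‖ = Real.log ‖c‖ + ∑ k, (e k : ℝ) * Real.log ‖x - b k‖ := by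
  have h1 : ∀ k, ‖x - b k‖ ≠ 0 := fun k => norm_ne_zero_iff.2 (sub_ne_zero.2 (hx k))
  rw [norm_mul, Real.log_mul (norm_ne_zero_iff.2 hc)]
  · congr 1
    rw [norm_prod, Real.log_prod]
    · refine Finset.sum_congr rfl fun k _ => ?_
      rw [norm_pow, Real.log_pow]
    · intro k _
      rw [norm_pow]; exact pow_ne_zero _ (h1 k)
  · rw [norm_prod]
    refine Finset.prod_ne_zero_iff.2 fun k _ => ?_
    rw [norm_pow]; exact pow_ne_zero _ (h1 k)

/-- the PL function of the presentation -/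
noncomputable def FF {n N B : ℕ} (F₀ : (Fin n → ℝ) → ℝ) (ι : Fin n → Fin N) (e : Fin N → Fin B → ℕ)
    (ξ : Fin N ⊕ Fin B → ℝ) : ℝ :=
  F₀ (fun i => ξ (Sum.inl (ι i)) + ∑ k, (e (ι i) k : ℝ) * ξ (Sum.inr k))

theorem FF_PL {n N B : ℕ} {F₀ : (Fin n → ℝ) → ℝ} (hF : PL F₀) (ι : Fin n → Fin N)
    (e : Fin N → Fin B → ℕ) : PL (FF F₀ ι e) := by
  unfold FF
  refine hF.comp fun i => ?_
  refine (PL.coord (V := Fin N ⊕ Fin B) (Sum.inl (ι i))).add (PL.sum _ fun k _ => ?_)
  have := (PL.coord (V := Fin N ⊕ Fin B) (Sum.inr k)).smul (e (ι i) k : ℚ)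
  simpa using this

theorem main [IsDomain A] [CharZero A] {G : (A[X] →+* ℂ) → ℝ} (hG : Tr A[X] G) {k : ℕ}
    (w : Fin k → A[X]) (hw : ∀ i, w i ≠ 0) :
    ∃ (M : (A →+* ℂ) → ℝ) (q1 : A) (P : A[X]) (j : ℕ) (Q : Fin j → A) (κ₀ C : ℝ),
      Tr A M ∧ q1 ≠ 0 ∧ P ≠ 0 ∧ (∀ i, Q i ≠ 0) ∧ 0 < κ₀ ∧ 0 < C ∧
      ∀ φ : A →+* ℂ, φ q1 ≠ 0 → ∫⁻ x, ENNReal.ofReal (G (ptX φ x)) ≠ ∞ → Good G w M P Q κ₀ C φ := by
  classical
  obtain ⟨n, q, F₀, hq, hF₀, hGe⟩ := hG
  let fam : Fin (n + (k + 1)) → A[X] := Fin.append q (Fin.snoc (α := fun _ => A[X]) w X)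
  have hfam : ∀ v, fam v ≠ 0 := by
    intro v
    refine Fin.addCases (fun i => ?_) (fun i => ?_) v
    · simpa [fam] using hq i
    · refine Fin.lastCases ?_ (fun i => ?_) i
      · show Fin.append q (Fin.snoc (α := fun _ => A[X]) w X) (Fin.natAdd n (Fin.last k)) ≠ 0
        rw [Fin.append_right, Fin.snoc_last]
        exact X_ne_zero
      · simpa [fam] using hw i
  obtain ⟨D⟩ := exists_rootData fam hfam
  by_cases hBz : D.B = 0
  · -- no good point at all
    refine ⟨fun _ => 1, D.q0, 1, 0, fun i => i.elim0, 1, 1, Tr.one, D.hq0, one_ne_zero,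
      fun i => i.elim0, one_pos, one_pos, fun φ hφ _ => ?_⟩
    exfalso
    obtain ⟨b, hb⟩ := D.ne φ hφ
    have hX := D.fac φ hφ b hb (Fin.natAdd n (Fin.last k))
    have hfX : fam (Fin.natAdd n (Fin.last k)) = X := by
      show Fin.append q (Fin.snoc (α := fun _ => A[X]) w X) (Fin.natAdd n (Fin.last k)) = X
      rw [Fin.append_right, Fin.snoc_last]
    have hprod : ∀ x : ℂ, ∏ k', (x - b k') ^ D.e (Fin.natAdd n (Fin.last k)) k' = 1 := by
      intro x
      have : IsEmpty (Fin D.B) := by rw [hBz]; infer_instance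
      exact Finset.prod_of_isEmpty _
    have h0 := hX 0
    have h1 := hX 1
    rw [hfX, hprod] at h0 h1
    simp at h0
  have hB : 0 < D.B := Nat.pos_of_ne_zero hBz
  set B := D.B with hBdef
  set a : Fin (n + (k + 1)) → A := fun v => (fam v).leadingCoeff with ha
  have ha0 : ∀ v, a v ≠ 0 := fun v => leadingCoeff_ne_zero.2 (hfam v)
  set E : Fin B → ℕ := fun l => ∑ v, D.e v l with hE
  have hEpos : ∀ l, 0 < E l := by
    intro l
    obtain ⟨v, hv⟩ := D.hpos l
    exact lt_of_lt_of_le hv (Finset.single_le_sum (f := fun v => D.e v l)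
      (fun _ _ => Nat.zero_le _) (Finset.mem_univ v))
  set Et : ℝ := ∑ l, (E l : ℝ) with hEt
  have hEt0 : 0 ≤ Et := Finset.sum_nonneg fun _ _ => Nat.cast_nonneg _
  set ε : ℝ := 1 / (4 * (1 + Et)) with hε
  have hε0 : 0 < ε := by positivity
  have hε1 : 4 * ε * (1 + ∑ l, (E l : ℝ)) ≤ 1 := by
    rw [← hEt, hε]
    have : (1 + Et) ≠ 0 := by positivity
    field_simp
    exact le_rfl
  set F : (Fin (n + (k + 1)) ⊕ Fin B → ℝ) → ℝ := FF F₀ (Fin.castAdd (k + 1)) D.e with hFdef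
  have hF : PL F := FF_PL hF₀ _ _
  obtain ⟨M0, C0, κ0, hM0, hC0, hκ0, hov⟩ := ov hB hF hε0
  obtain ⟨m, hm, q1, hq1, K, hK⟩ := D.rep a ha0 M0 hM0
  obtain ⟨j, Q, hQ, q2, hq2, K2, hK2, hh⟩ := D.height
  set P : A[X] := ∏ v, fam v with hP
  have hP0 : P ≠ 0 := Finset.prod_ne_zero_iff.2 fun v _ => hfam v
  set KW : ℝ := 2 * (1 + Et) with hKW
  have hKW0 : 0 < KW := by positivity
  set CC : ℝ := C0 * Real.exp K * (1 + K2) + C0 * KW * (1 + K2) + 4 * C0 * Real.exp K + C0 * Real.exp K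
    with hCC
  have hCCpos : 0 < CC := by positivity
  have hpos1 : 0 < C0 * Real.exp K * (1 + K2) := by positivity
  have hpos2 : 0 < C0 * KW * (1 + K2) := by positivity
  have hpos3 : 0 < C0 * Real.exp K := by positivity
  refine ⟨fun φ => Real.exp (m φ), D.q0 * q1 * q2, P, (n + (k + 1)) + j, Fin.append a Q, κ0 / KW, CC,
    hm.tr, mul_ne_zero (mul_ne_zero D.hq0 hq1) hq2, hP0, ?_, by positivity, hCCpos, ?_⟩
  · intro i
    refine Fin.addCases (fun i => ?_) (fun i => ?_) i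
    · simpa using ha0 i
    · simpa using hQ i
  intro φ hφ hfin
  rw [map_mul, map_mul] at hφ
  have hφ0 : φ D.q0 ≠ 0 := fun h => hφ (by rw [h]; ring)
  have hφ1 : φ q1 ≠ 0 := fun h => hφ (by rw [h]; ring)
  have hφ2 : φ q2 ≠ 0 := fun h => hφ (by rw [h]; ring)
  set c : Fin (n + (k + 1)) → ℝ := fun v => Real.log ‖φ (a v)‖ with hc
  -- facts for every marking
  have hlc : ∀ v, φ (a v) ≠ 0 := D.lc φ hφ0
  have hfx : ∀ b ∈ D.Mk φ, ∀ v x, ptX φ x (fam v) = φ (a v) * ∏ l, (x - b l) ^ D.e v l :=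
    fun b hb v x => D.fac φ hφ0 b hb v x
  have hlog : ∀ b ∈ D.Mk φ, ∀ v x, (∀ l, x ≠ b l) →
      Real.log ‖ptX φ x (fam v)‖ = c v + ∑ l, (D.e v l : ℝ) * Real.log ‖x - b l‖ := by
    intro b hb v x hx
    rw [hfx b hb v x, log_fac (hlc v) hx]
  have hGG : ∀ b ∈ D.Mk φ, ∀ x, (∀ l, x ≠ b l) → GG F c b x = G (ptX φ x) := by
    intro b hb x hx
    rw [hGe, GG, hFdef, FF]
    congr 2
    funext i
    simp only [Sum.elim_inl, Sum.elim_inr]
    rw [← hlog b hb _ x hx]
    simp [fam]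
  have hae : ∀ b : Fin B → ℂ, ∀ᵐ x : ℂ, ∀ l, x ≠ b l := by
    intro b
    rw [ae_all_iff]
    intro l
    exact (Set.countable_singleton (b l)).ae_notMem volume
  have hint : ∀ b ∈ D.Mk φ, ∫⁻ x, ENNReal.ofReal (GG F c b x) = ∫⁻ x, ENNReal.ofReal (G (ptX φ x)) := by
    intro b hb
    refine lintegral_congr_ae ?_
    filter_upwards [hae b] with x hx
    rw [hGG b hb x hx]
  have hinj := D.inj φ hφ0
  have hPx : ∀ b ∈ D.Mk φ, ∀ x, ptX φ x P = (∏ v, φ (a v)) * ∏ l, (x - b l) ^ E l := by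
    intro b hb x
    rw [hP, map_prod]
    simp_rw [hfx b hb]
    rw [Finset.prod_mul_distrib]
    congr 1
    rw [Finset.prod_comm]
    refine Finset.prod_congr rfl fun l _ => ?_
    rw [Finset.prod_pow_eq_pow_sum]
  refine ⟨?_, ?_, ?_⟩
  · -- (i)
    obtain ⟨b, hb, hle⟩ := (hK φ hφ1).2
    have h1 := (hov c b (hinj b hb) (by rw [hint b hb]; exact hfin)).1
    rw [hint b hb] at h1
    have h2 : Real.exp (m φ) ≤ Real.exp K * Real.exp (M0 (TrOV_726.dat c b)) := by
      rw [← Real.exp_add, Real.exp_le_exp]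
      have : m φ ≤ M0 (TrOV_726.dat c b) + K := hle
      linarith
    calc ENNReal.ofReal (Real.exp (m φ))
        ≤ ENNReal.ofReal (Real.exp K * Real.exp (M0 (TrOV_726.dat c b))) := ENNReal.ofReal_le_ofReal h2
      _ = ENNReal.ofReal (Real.exp K) * ENNReal.ofReal (Real.exp (M0 (TrOV_726.dat c b))) :=
          ENNReal.ofReal_mul (Real.exp_pos _).le
      _ ≤ ENNReal.ofReal (Real.exp K) * (ENNReal.ofReal C0 * ∫⁻ x, ENNReal.ofReal (G (ptX φ x))) := by
          gcongr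
      _ = ENNReal.ofReal (C0 * Real.exp K) * ∫⁻ x, ENNReal.ofReal (G (ptX φ x)) := by
          rw [← mul_assoc, ← ENNReal.ofReal_mul (Real.exp_pos _).le, mul_comm C0]
      _ ≤ ENNReal.ofReal CC * ∫⁻ x, ENNReal.ofReal (G (ptX φ x)) := by
          gcongr
          rw [hCC]; linarith
  · -- (ii)
    intro κ hκ hκ'
    obtain ⟨b, hb⟩ := D.ne φ hφ0
    have hMle : Real.exp (M0 (TrOV_726.dat c b)) ≤ Real.exp K * Real.exp (m φ) := by
      rw [← Real.exp_add, Real.exp_le_exp]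
      have : M0 (TrOV_726.dat c b) ≤ m φ + K := (hK φ hφ1).1 b hb
      linarith
    have h1 := (hov c b (hinj b hb) (by rw [hint b hb]; exact hfin)).2.1 (KW * κ) (by positivity)
      (by rw [le_div_iff₀ hKW0] at hκ'; linarith)
    set H := ∑ u, |TrOV_726.dat c b u| with hH
    set H' := ∑ i, |Real.log ‖φ (Fin.append a Q i)‖| with hH'
    have hHH : 1 + H ≤ (1 + K2) * (1 + H') := by
      have e1 : H = ∑ v, |c v| + ∑ p : Fin B × Fin B, |Real.log ‖b p.1 - b p.2‖| := by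
        rw [hH, Fintype.sum_sum_type]; rfl
      have e2 : H' = ∑ v, |c v| + ∑ i, |Real.log ‖φ (Q i)‖| := by
        rw [hH', Fin.sum_univ_add]; simp [hc]
      have e3 := hh φ hφ2 b hb
      have e4 : 0 ≤ ∑ v, |c v| := Finset.sum_nonneg fun _ _ => abs_nonneg _
      have e5 : 0 ≤ ∑ i, |Real.log ‖φ (Q i)‖| := Finset.sum_nonneg fun _ _ => abs_nonneg _
      rw [e1, e2]
      nlinarith
    have hH0 : 0 ≤ H := Finset.sum_nonneg fun _ _ => abs_nonneg _
    have hH'0 : 0 ≤ H' := Finset.sum_nonneg fun _ _ => abs_nonneg _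
    have hwt : ∀ x, (∀ l, x ≠ b l) →
        ∑ i, |Real.log ‖ptX φ x (w i)‖| + |Real.log ‖ptX φ x P‖| ≤
          KW * (∑ v, |c v| + ∑ l, |Real.log ‖x - b l‖|) := by
      intro x hx
      set s := ∑ l, |Real.log ‖x - b l‖| with hs
      have hs0 : 0 ≤ s := Finset.sum_nonneg fun _ _ => abs_nonneg _
      have f1 : ∀ v, |Real.log ‖ptX φ x (fam v)‖| ≤ |c v| + ∑ l, (D.e v l : ℝ) * |Real.log ‖x - b l‖| := by
        intro v
        rw [hlog b hb v x hx]
        refine (abs_add_le _ _).trans ?_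
        gcongr
        refine (Finset.abs_sum_le_sum_abs _ _).trans (Finset.sum_le_sum fun l _ => ?_)
        rw [abs_mul, Nat.abs_cast]
      have f2 : ∑ v, |Real.log ‖ptX φ x (fam v)‖| ≤ ∑ v, |c v| + Et * s := by
        refine (Finset.sum_le_sum fun v _ => f1 v).trans ?_
        rw [Finset.sum_add_distrib]
        gcongr
        rw [Finset.sum_comm]
        calc ∑ l, ∑ v, (D.e v l : ℝ) * |Real.log ‖x - b l‖|
            = ∑ l, (E l : ℝ) * |Real.log ‖x - b l‖| := by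
              refine Finset.sum_congr rfl fun l _ => ?_
              rw [← Finset.sum_mul, hE]; push_cast; rfl
          _ ≤ ∑ l, (E l : ℝ) * s := by
              refine Finset.sum_le_sum fun l _ => ?_
              refine mul_le_mul_of_nonneg_left ?_ (Nat.cast_nonneg _)
              exact Finset.single_le_sum (f := fun l => |Real.log ‖x - b l‖|)
                (fun _ _ => abs_nonneg _) (Finset.mem_univ l)
          _ = Et * s := by rw [← Finset.sum_mul]
      have f3 : ∑ i, |Real.log ‖ptX φ x (w i)‖| ≤ ∑ v, |Real.log ‖ptX φ x (fam v)‖| := by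
        rw [Fin.sum_univ_add, Fin.sum_univ_castSucc (n := k)]
        have g1 : 0 ≤ ∑ i : Fin n, |Real.log ‖ptX φ x (fam (Fin.castAdd (k + 1) i))‖| :=
          Finset.sum_nonneg fun _ _ => abs_nonneg _
        have g2 : ∀ i : Fin k, fam (Fin.natAdd n i.castSucc) = w i := by intro i; simp [fam]
        simp_rw [g2]
        have g3 := abs_nonneg (Real.log ‖ptX φ x (fam (Fin.natAdd n (Fin.last k)))‖)
        linarith
      have f4 : |Real.log ‖ptX φ x P‖| ≤ ∑ v, |Real.log ‖ptX φ x (fam v)‖| := by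
        rw [hP, map_prod, norm_prod, Real.log_prod]
        · exact Finset.abs_sum_le_sum_abs _ _
        · intro v _
          rw [norm_ne_zero_iff, hfx b hb]
          exact mul_ne_zero (hlc v) (Finset.prod_ne_zero_iff.2 fun l _ =>
            pow_ne_zero _ (sub_ne_zero.2 (hx l)))
      have f5 : 0 ≤ ∑ v, |c v| := Finset.sum_nonneg fun _ _ => abs_nonneg _
      rw [hKW]
      nlinarith
    have h2 : ∫⁻ x, ENNReal.ofReal (G (ptX φ x) * Real.exp (κ * (∑ i, |Real.log ‖ptX φ x (w i)‖| +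
        |Real.log ‖ptX φ x P‖|))) ≤ ∫⁻ x, ENNReal.ofReal (GG F c b x * Real.exp (KW * κ *
          (∑ v, |c v| + ∑ l, |Real.log ‖x - b l‖|))) := by
      refine lintegral_mono_ae ?_
      filter_upwards [hae b] with x hx
      refine ENNReal.ofReal_le_ofReal ?_
      rw [hGG b hb x hx]
      have g0 : 0 ≤ G (ptX φ x) := by rw [hGe]; exact (Real.exp_pos _).le
      refine mul_le_mul_of_nonneg_left (Real.exp_le_exp.2 ?_) g0
      calc κ * (∑ i, |Real.log ‖ptX φ x (w i)‖| + |Real.log ‖ptX φ x P‖|)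
          ≤ κ * (KW * (∑ v, |c v| + ∑ l, |Real.log ‖x - b l‖|)) :=
            mul_le_mul_of_nonneg_left (hwt x hx) hκ
        _ = _ := by ring
    refine (h2.trans h1).trans (ENNReal.ofReal_le_ofReal ?_)
    have e1 : C0 * (KW * κ) * (1 + H) ≤ CC * κ * (1 + H') := by
      calc C0 * (KW * κ) * (1 + H) ≤ C0 * (KW * κ) * ((1 + K2) * (1 + H')) := by gcongr
        _ = (C0 * KW * (1 + K2)) * κ * (1 + H') := by ring
        _ ≤ CC * κ * (1 + H') := by
            gcongr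
            rw [hCC]; linarith
    calc C0 * Real.exp (M0 (TrOV_726.dat c b)) * (1 + H) * Real.exp (C0 * (KW * κ) * (1 + H))
        ≤ C0 * (Real.exp K * Real.exp (m φ)) * ((1 + K2) * (1 + H')) *
            Real.exp (CC * κ * (1 + H')) := by gcongr
      _ = (C0 * Real.exp K * (1 + K2)) * Real.exp (m φ) * (1 + H') * Real.exp (CC * κ * (1 + H')) := by
          ring
      _ ≤ CC * Real.exp (m φ) * (1 + H') * Real.exp (CC * κ * (1 + H')) := by
          gcongr
          rw [hCC]; linarith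
  · -- (iii)
    obtain ⟨b, hb⟩ := D.ne φ hφ0
    have hMle : Real.exp (M0 (TrOV_726.dat c b)) ≤ Real.exp K * Real.exp (m φ) := by
      rw [← Real.exp_add, Real.exp_le_exp]
      have : M0 (TrOV_726.dat c b) ≤ m φ + K := (hK φ hφ1).1 b hb
      linarith
    obtain ⟨Z, hZm, hZ, hZ'⟩ := (hov c b (hinj b hb) (by rw [hint b hb]; exact hfin)).2.2
    have hsub : {x | CC * Real.exp (m φ) * ‖ptX φ x (derivative P) / ptX φ x P‖ ^ 2 < G (ptX φ x)} ⊆
        Z ∪ range b := by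
      intro x hx
      by_contra hcon
      simp only [mem_union, mem_range, not_or, not_exists] at hcon
      obtain ⟨hxZ, hxb⟩ := hcon
      have hxb' : ∀ l, x ≠ b l := fun l h => hxb l h.symm
      obtain ⟨l₀, _, hG1, hsep⟩ := hZ' x hxZ
      have hr : 0 < ‖x - b l₀‖ := norm_pos_iff.2 (sub_ne_zero.2 (hxb' l₀))
      have hld : ptX φ x (derivative P) / ptX φ x P = ∑ l, (E l : ℂ) / (x - b l) := by
        have h1 : ∀ y, (P.map φ).eval y = (∏ v, φ (a v)) * ∏ l, (y - b l) ^ E l := by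
          intro y
          rw [← hPx b hb y, eval_map]; rfl
        have h2 := logder (P.map φ) (∏ v, φ (a v)) (Finset.prod_ne_zero_iff.2 fun v _ => hlc v) b E h1 hxb'
        rw [← h2, derivative_map, eval_map, eval_map]; rfl
      have hlow := logder_lower b E (hEpos l₀) hε0 hε1 hxb' hsep
      rw [← hld] at hlow
      set t := ‖ptX φ x (derivative P) / ptX φ x P‖ with ht
      have ht0 : 0 ≤ t := norm_nonneg _
      rw [hGG b hb x hxb'] at hG1
      have h3 : 1 ≤ 4 * (‖x - b l₀‖ ^ 2 * t ^ 2) := by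
        have : (1 : ℝ) ≤ (2 * ‖x - b l₀‖ * t) ^ 2 := one_le_pow₀ hlow
        nlinarith
      have hGpos : 0 < G (ptX φ x) := by rw [hGe]; exact Real.exp_pos _
      have h4 : G (ptX φ x) ≤ 4 * C0 * Real.exp K * Real.exp (m φ) * t ^ 2 := by
        calc G (ptX φ x) = G (ptX φ x) * 1 := (mul_one _).symm
          _ ≤ G (ptX φ x) * (4 * (‖x - b l₀‖ ^ 2 * t ^ 2)) := by gcongr
          _ = 4 * (G (ptX φ x) * ‖x - b l₀‖ ^ 2) * t ^ 2 := by ring
          _ ≤ 4 * (C0 * (Real.exp K * Real.exp (m φ))) * t ^ 2 := by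
              have h7 := hG1.trans (mul_le_mul_of_nonneg_left hMle hC0.le)
              exact mul_le_mul_of_nonneg_right (mul_le_mul_of_nonneg_left h7 (by norm_num))
                (by positivity)
          _ = _ := by ring
      have h5 : 4 * C0 * Real.exp K * Real.exp (m φ) * t ^ 2 ≤ CC * Real.exp (m φ) * t ^ 2 := by
        gcongr
        rw [hCC]; linarith
      have h6 : CC * Real.exp (m φ) * t ^ 2 < G (ptX φ x) := hx
      linarith
    have h0 : volume (range b) = 0 := (finite_range b).measure_zero _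
    calc ∫⁻ x in {x | CC * Real.exp (m φ) * ‖ptX φ x (derivative P) / ptX φ x P‖ ^ 2 < G (ptX φ x)},
          ENNReal.ofReal (G (ptX φ x))
        ≤ ∫⁻ x in Z ∪ range b, ENNReal.ofReal (G (ptX φ x)) := lintegral_mono_set hsub
      _ ≤ (∫⁻ x in Z, ENNReal.ofReal (G (ptX φ x))) + ∫⁻ x in range b, ENNReal.ofReal (G (ptX φ x)) :=
          lintegral_union_le _ _ _
      _ = ∫⁻ x in Z, ENNReal.ofReal (G (ptX φ x)) := by
          rw [setLIntegral_measure_zero _ _ h0, add_zero]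
      _ = ∫⁻ x in Z, ENNReal.ofReal (GG F c b x) := by
          refine lintegral_congr_ae (ae_restrict_of_ae ?_)
          filter_upwards [hae b] with x hx
          rw [hGG b hb x hx]
      _ ≤ ENNReal.ofReal (C0 * Real.exp (M0 (TrOV_726.dat c b))) := hZ
      _ ≤ ENNReal.ofReal (CC * Real.exp (m φ)) := by
          refine ENNReal.ofReal_le_ofReal ?_
          calc C0 * Real.exp (M0 (TrOV_726.dat c b)) ≤ C0 * (Real.exp K * Real.exp (m φ)) := by gcongr
            _ = (C0 * Real.exp K) * Real.exp (m φ) := by ring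
            _ ≤ CC * Real.exp (m φ) := by
                gcongr
                rw [hCC]; linarith

end

end Crest.Agent.R281.TrPr_726
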