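import Crest.Agent.R281.TrU4_249
import Crest.Agent.R281.TrPr2_726

/-!
# Row 281, TROP (helper249, helper726, helper282), part 5: the unconditional theorem
-/

namespace Crest.Agent.R281.TrU_249

open MeasureTheory Filter Topology
open scoped ENNReal

open Crest.Agent.R281.TrPL_726

/-- the projection step holds over every domain of characteristic zero -/
theorem proj (A : Type*) [CommRing A] [IsDomain A] [CharZero A] : Proj A :=
  fun _ hG _ w hw => TrPr_726.main hG w hw

variable {T R : Type*} [CommRing R] [IsDomain R] [CharZero R] {l : Filter T}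
  {ev : T → R →+* ℂ} {L : T → ℝ}

/-- **TROP (T_n), unconditional.** -/
theorem trop_final (h : Scale l ev L) {n : ℕ}
    {G : (MvPolynomial (Fin n) R →+* ℂ) → ℝ} (hG : Tr (MvPolynomial (Fin n) R) G)
    (hfin : ∀ᶠ t in l, ∫⁻ y : Fin n → ℂ, ENNReal.ofReal (G (pt (ev t) y)) ≠ ∞) :
    TStmt l ev L G := trop h (fun _ => proj _) hG hfin

/-- **TROP (W_n), unconditional.** -/
theorem trop_W (h : Scale l ev L) {n : ℕ}
    {G : (MvPolynomial (Fin n) R →+* ℂ) → ℝ} (hG : Tr (MvPolynomial (Fin n) R) G)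
    (hfin : ∀ᶠ t in l, ∫⁻ y : Fin n → ℂ, ENNReal.ofReal (G (pt (ev t) y)) ≠ ∞) :
    WStmt l ev L G := (trop_WT h (fun _ => proj _) n G hG hfin).1

/-- with maximal growth the bad fraction is `≤ C'/L` -/
theorem trop_frac (h : Scale l ev L) {n : ℕ}
    {G : (MvPolynomial (Fin n) R →+* ℂ) → ℝ} (hG : Tr (MvPolynomial (Fin n) R) G)
    (hfin : ∀ᶠ t in l, ∫⁻ y : Fin n → ℂ, ENNReal.ofReal (G (pt (ev t) y)) ≠ ∞)
    {c k : ℝ} (hc : 0 < c) (hlow : ∀ᶠ t in l, ENNReal.ofReal (c * Real.exp (k * L t) * L t ^ n) ≤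
      ∫⁻ y : Fin n → ℂ, ENNReal.ofReal (G (pt (ev t) y)))
    {C₁ : ℝ} (hup : ∀ᶠ t in l, ∫⁻ y : Fin n → ℂ, ENNReal.ofReal (G (pt (ev t) y)) ≤
      ENNReal.ofReal (C₁ * Real.exp (k * L t) * L t ^ n)) :
    ∃ (C : ℝ) (f : Fin n → MvPolynomial (Fin n) R), 0 < C ∧
      (∀ i, f i ≠ 0 ∧ ∀ j ∈ (f i).vars, i ≤ j) ∧
      ∀ᶠ t in l, ∫⁻ y in Bad (ev t) (L t) G f k C, ENNReal.ofReal (G (pt (ev t) y)) ≤
        ENNReal.ofReal (C / L t) * ∫⁻ y : Fin n → ℂ, ENNReal.ofReal (G (pt (ev t) y)) := by
  rcases (l.eq_or_neBot) with hl | hl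
  · exact ⟨1, fun _ => 1, one_pos, fun i => ⟨one_ne_zero, by simp⟩, by simp [hl]⟩
  obtain ⟨a, C, f, hC, hf, hT⟩ := trop_final h hG hfin
  -- exponents agree
  have hak : a = k := by
    have hL1 := h.tendsto.eventually_ge_atTop 1
    -- compare growth: both exp (a L) / C ≤ C₁ exp (k L) L^n and c exp (k L) L^n ≤ C exp (a L) L^n
    by_contra hne
    rcases lt_or_gt_of_ne hne with hlt | hgt
    · -- a < k : contradiction with c exp(kL) ≤ C exp(aL)
      have hlim : Tendsto (fun t => Real.exp ((k - a) * L t)) l atTop :=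
        Real.tendsto_exp_atTop.comp (h.tendsto.const_mul_atTop (by linarith))
      have hev := hlim.eventually_gt_atTop (C / c)
      obtain ⟨t, ht⟩ := (hT.and (hlow.and (hev.and hL1))).exists
      obtain ⟨⟨_, h2, _⟩, h3, h4, h5⟩ := ht
      have h6 := h3.trans h2
      rw [ENNReal.ofReal_le_ofReal_iff (by positivity)] at h6
      have hp : 0 < L t ^ n := by positivity
      have h7 : c * Real.exp (k * L t) ≤ C * Real.exp (a * L t) := le_of_mul_le_mul_right h6 hp
      have h8 : Real.exp (k * L t) = Real.exp ((k - a) * L t) * Real.exp (a * L t) := by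
        rw [← Real.exp_add]; congr 1; ring
      rw [h8, ← mul_assoc] at h7
      have h9 := le_of_mul_le_mul_right h7 (Real.exp_pos _)
      rw [div_lt_iff₀ hc] at h4
      linarith
    · have hlim : Tendsto (fun t => Real.exp ((a - k) * L t) / L t ^ n) l atTop := by
        have := (tendsto_exp_mul_div_rpow_atTop (n : ℝ) (a - k) (by linarith)).comp h.tendsto
        simpa [Function.comp_def, Real.rpow_natCast] using this
      have hev := hlim.eventually_gt_atTop (C * |C₁|)
      obtain ⟨t, ht⟩ := (hT.and (hup.and (hev.and hL1))).exists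
      obtain ⟨⟨h2, _, _⟩, h3, h4, h5⟩ := ht
      have h6 := h2.trans h3
      have hp : 0 < L t ^ n := by positivity
      have h6' : Real.exp (a * L t) / C ≤ |C₁| * Real.exp (k * L t) * L t ^ n := by
        have h7 : ENNReal.ofReal (C₁ * Real.exp (k * L t) * L t ^ n) ≤
            ENNReal.ofReal (|C₁| * Real.exp (k * L t) * L t ^ n) := by
          refine ENNReal.ofReal_le_ofReal ?_
          have := le_abs_self C₁
          gcongr
        have h8 := h6.trans h7
        rwa [ENNReal.ofReal_le_ofReal_iff (by positivity)] at h8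
      have h8 : Real.exp (a * L t) = Real.exp ((a - k) * L t) * Real.exp (k * L t) := by
        rw [← Real.exp_add]; congr 1; ring
      rw [lt_div_iff₀ hp] at h4
      rw [div_le_iff₀ hC, h8] at h6'
      have h9 : Real.exp ((a - k) * L t) * Real.exp (k * L t) ≤
          (C * |C₁| * L t ^ n) * Real.exp (k * L t) := by
        calc _ ≤ _ := h6'
          _ = _ := by ring
      have h10 := le_of_mul_le_mul_right h9 (Real.exp_pos _)
      linarith
  subst hak
  refine ⟨C + C / c, f, by positivity, hf, ?_⟩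
  filter_upwards [hT, hlow, h.tendsto.eventually_ge_atTop 1] with t ht h3 hL
  have hL0 : 0 < L t := by linarith
  have hsub : Bad (ev t) (L t) G f a (C + C / c) ⊆ Bad (ev t) (L t) G f a C := by
    have hCC : C ≤ C + C / c := by have : 0 ≤ C / c := by positivity
                                   linarith
    rintro y (hy | ⟨i, hi⟩)
    · refine Or.inl (lt_of_le_of_lt ?_ hy)
      have hp : 0 ≤ ∏ i, ‖pt (ev t) y (MvPolynomial.pderiv i (f i)) / pt (ev t) y (f i)‖ ^ 2 :=
        Finset.prod_nonneg fun _ _ => by positivity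
      have he : 0 ≤ Real.exp (a * L t) := (Real.exp_pos _).le
      exact mul_le_mul_of_nonneg_right (mul_le_mul_of_nonneg_right hCC he) hp
    · exact Or.inr ⟨i, lt_of_le_of_lt (mul_le_mul_of_nonneg_right hCC hL0.le) hi⟩
  calc _ ≤ ∫⁻ y in Bad (ev t) (L t) G f a C, ENNReal.ofReal (G (pt (ev t) y)) :=
        lintegral_mono_set hsub
    _ ≤ _ := ht.2.2
    _ = ENNReal.ofReal (C / c / L t) * ENNReal.ofReal (c * Real.exp (a * L t) * L t ^ n) := by
        rw [← ENNReal.ofReal_mul (by positivity)]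
        congr 1; field_simp
    _ ≤ _ := by
        refine mul_le_mul' (ENNReal.ofReal_le_ofReal ?_) h3
        exact div_le_div_of_nonneg_right (by linarith) hL0.le

end Crest.Agent.R281.TrU_249
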