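import Crest.Agent.R281.GT10_639
import Crest.Agent.R281.GT4_639
import Crest.Agent.R281.TrU5_249

/-!
Row 281, glue DIV 2 -> DIV 3 -> DIV 4 (helper639).  Part 11: TROP-IN and TROP-OUT (mass).

* `IsMb 𝔭 𝔰 e A O U σ` : `(M, A)` with the form `σ` is the member `e` of the family
* `Bds k c C L V`      : `c e^{kL} L^n ≤ V ≤ C e^{kL} L^n`
* `exists_G`           : the trace density `G ∈ Tr` with `∑ |det σ_y| ~ G`
* `glue_mass`          : the field `mass` of `SDat` (uniform in the family)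
-/

set_option autoImplicit false
set_option linter.unusedSectionVars false

open Polynomial Set Filter Topology Complex MeasureTheory
open scoped ContDiff Matrix ComplexConjugate Manifold ENNReal

noncomputable section

namespace Crest.Agent.R281.GT_639

open Crest.Agent.R275 Crest.Agent.R275.Geo Crest.Agent.R275.Core144 Crest.Agent.R275.EDR890
open Crest.Agent.R273.Defs_333 Crest.Agent.R273.Kah_333
open Crest.Agent.R273.SerA_945 (Fn)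
open Crest.Agent.R273.SteinC_794 Crest.Agent.R273.Chow_313
open Crest.Agent.R273.Vm_333 Crest.Agent.R273.Vol_333
open Crest.Agent.R273.FIb0_597 (ch mem_ch)
open Crest.Agent.R281.Defs_273 Crest.Agent.R281.AF_867 Crest.Agent.R281.Qr_770
open Crest.Agent.R281.HkP2_508 (volS)
open Crest.Agent.R281.SIn_14
open Crest.Agent.R281.TrPL_726 (Tr PL)
open Crest.Agent.R281.TrU_249 (Scale pt Bad TStmt)

variable {n r : ℕ} {R : Type*} [CommRing R]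

/-- the assumptions on the algebraic data -/
structure AlgD (𝔭 : PrD n r R) (𝔰 : FmD r R) : Prop where
  pg : 𝔭.Good
  pp : Prime 𝔭.F
  sg : 𝔰.Good
  sj : ¬ 𝔭.F ∣ 𝔭.Nm 𝔰.j

/-- `(M, A)` with the coordinates `U` and the form `σ` is the member `e` of the family -/
structure IsMb {M : Type} [TopologicalSpace M] (𝔭 : PrD n r R) (𝔰 : FmD r R) (e : R →+* ℂ)
    (A : Atl n M) (O : LB A) (U : Fin r → Fn A) (σ : HSymp A) : Prop where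
  mb : Mbr 𝔭 e O U
  fm : FMbr 𝔰 e U σ.toH2
  base : ∀ i, ∀ x ∈ (A.e i).source, ∃ j, lv e (𝔭.lam j) (fun k => U k i x) ≠ 0

/-- the polynomial `det σ_y` -/
def gS (𝔭 : PrD n r R) (𝔰 : FmD r R) (φ : MvPolynomial (Fin n) R →+* ℂ) (z : ℂ) : ℂ :=
  (SY 𝔭.F 𝔭.Nm 𝔰.j 𝔰.m 𝔰.s φ z).det

variable {M : Type} [TopologicalSpace M]

section static

variable {A : Atl n M} {O : LB A} {𝔭 : PrD n r R} {e : R →+* ℂ} {U : Fin r → Fn A} {𝔰 : FmD r R}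
  {σ : HSymp A}

theorem gS_ne (hD : AlgD 𝔭 𝔰) (h : IsMb 𝔭 𝔰 e A O U σ) {x : M} (hx : x ∈ Mbr.W 𝔭 e U (𝔭.gp 𝔰)) :
    gS 𝔭 𝔰 (ph e (yM 𝔭 e U x)) (zM 𝔭 e U x) ≠ 0 := by
  obtain ⟨i, hi⟩ := A.cover x
  have h1 := (Mbr.W_gp x).1 hx
  have h2 := h.mb.form hD.sg h.fm hi h1.1 h1.2
  have h3 := σ.nd i x hi
  intro h0
  apply h3
  rw [h2, Matrix.det_mul, Matrix.det_mul]
  unfold gS at h0
  rw [h0, mul_zero, zero_mul]

theorem exists_W (hD : AlgD 𝔭 𝔰) (h : IsMb 𝔭 𝔰 e A O U σ) {y : Fin n → ℂ} {z : ℂ}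
    (hz : (𝔭.F.map (ph e y)).eval z = 0) (hgp : ((𝔭.gp 𝔰).map (ph e y)).eval z ≠ 0) :
    ∃ x ∈ Mbr.W 𝔭 e U (𝔭.gp 𝔰), yM 𝔭 e U x = y ∧ zM 𝔭 e U x = z := by
  have hz' : ((derivative 𝔭.F).map (ph e y)).eval z ≠ 0 := by
    intro h0
    apply hgp
    rw [PrD.gp, Polynomial.map_mul, eval_mul, h0, zero_mul]
  obtain ⟨x, hx0, hxy, hxz⟩ := h.mb.exists_pt hD.pg hz hz'
  refine ⟨x, ⟨hx0, ?_⟩, hxy, hxz⟩
  unfold pM
  rw [hxy, hxz]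
  exact hgp

theorem exists_root (hD : AlgD 𝔭 𝔰) (y : Fin n → ℂ) : ∃ z, (𝔭.F.map (ph e y)).eval z = 0 := by
  have h1 : (𝔭.F.map (ph e y)).degree ≠ 0 := by
    have h2 : (𝔭.F.map (ph e y)).natDegree = 𝔭.F.natDegree := hD.pg.monic.natDegree_map _
    rw [Polynomial.degree_eq_natDegree (hD.pg.monic.map _).ne_zero, h2]
    exact_mod_cast hD.pg.pos.ne'
  exact IsAlgClosed.exists_root _ h1

variable [IsDomain R] [CharZero R]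

theorem not_dvd_deriv (hD : AlgD 𝔭 𝔰) : ¬ 𝔭.F ∣ derivative 𝔭.F := by
  intro hd
  have h1 : derivative 𝔭.F ≠ 0 := by
    intro h0
    have h2 := Polynomial.derivative_eq_zero.1 h0
    exact hD.pg.pos.ne' h2
  exact not_lt.2 (Polynomial.natDegree_le_of_dvd hd h1) (Polynomial.natDegree_derivative_lt hD.pg.pos.ne')

/-- the polynomial in `y` defining the exceptional set -/
def rq (𝔭 : PrD n r R) (𝔰 : FmD r R) : MvPolynomial (Fin n) R := resultant 𝔭.F (𝔭.gp 𝔰)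

theorem rq_ne (hD : AlgD 𝔭 𝔰) : rq 𝔭 𝔰 ≠ 0 := by
  intro h0
  have h1 := dvd_of_resultant_eq_zero hD.pg.monic hD.pp h0
  rcases hD.pp.dvd_or_dvd h1 with h2 | h2
  · exact not_dvd_deriv hD h2
  · exact hD.sj h2

end static

section family

variable {𝔭 : PrD n r R} {𝔰 : FmD r R} [IsDomain R] [CharZero R]
  {T : Type*} {l : Filter T} {ev : T → R →+* ℂ} {L : T → ℝ}

/-- the trace density -/
theorem exists_G [l.NeBot] (hS : Scale l ev L) (hD : AlgD 𝔭 𝔰)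
    (H : ∀ᶠ t in l, ∃ (A : Atl n M) (O : LB A) (U : Fin r → Fn A) (σ : HSymp A),
      IsMb 𝔭 𝔰 (ev t) A O U σ) :
    ∃ (G : (MvPolynomial (Fin n) R →+* ℂ) → ℝ) (q1 : MvPolynomial (Fin n) R) (B : ℝ),
      Tr (MvPolynomial (Fin n) R) G ∧ q1 ≠ 0 ∧ 0 < B ∧
      ∀ φ : MvPolynomial (Fin n) R →+* ℂ, φ q1 ≠ 0 →
        (∀ z, (𝔭.F.map φ).eval z = 0 → ((𝔭.gp 𝔰).map φ).eval z ≠ 0 ∧ ‖gS 𝔭 𝔰 φ z‖ ≤ B * G φ) ∧
        ∃ z, (𝔭.F.map φ).eval z = 0 ∧ G φ ≤ B * ‖gS 𝔭 𝔰 φ z‖ := by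
  obtain ⟨G, q1, B, h1, h2, h3, h4⟩ := RS.tr hD.pg.monic hD.pp
    (det_SY_RS hD.pg.monic hD.pp (not_dvd_deriv hD) 𝔭.Nm hD.sj 𝔰.m 𝔰.s) (by
      intro q hq
      have hq' : q * rq 𝔭 𝔰 ≠ 0 := mul_ne_zero hq (rq_ne hD)
      obtain ⟨t, ht, A, O, U, σ, hM⟩ := ((hS.ae_ne_zero hq').and H).exists
      obtain ⟨y, hy⟩ := ht.exists
      change ph (ev t) y (q * rq 𝔭 𝔰) ≠ 0 at hy
      rw [map_mul, mul_ne_zero_iff] at hy
      obtain ⟨z, hz⟩ := exists_root (e := ev t) hD y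
      have hgp := eval_ne_zero hD.pg.monic (ph (ev t) y) hy.2 hz
      obtain ⟨x, hx, hxy, hxz⟩ := exists_W hD hM hz hgp
      refine ⟨ph (ev t) y, hy.1, z, hz, ?_⟩
      have h5 := gS_ne hD hM hx
      rw [hxy, hxz] at h5
      exact h5)
  refine ⟨G, q1 * rq 𝔭 𝔰, B, h1, mul_ne_zero h2 (rq_ne hD), h3, fun φ hφ => ?_⟩
  rw [map_mul, mul_ne_zero_iff] at hφ
  obtain ⟨h5, h6⟩ := h4 φ hφ.1
  exact ⟨fun z hz => ⟨eval_ne_zero hD.pg.monic φ hφ.2 hz, h5 z hz⟩, h6⟩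

end family

section mass

variable [IsDomain R] [CharZero R] [MeasurableSpace M] [BorelSpace M] [ConnectedSpace M]
  {A : Atl n M} [Countable A.ι] {O : LB A} {𝔭 : PrD n r R} {e : R →+* ℂ} {U : Fin r → Fn A}
  {𝔰 : FmD r R} {σ : HSymp A} {G : (MvPolynomial (Fin n) R →+* ℂ) → ℝ}
  {q1 : MvPolynomial (Fin n) R} {B : ℝ}

/-- the property of the trace density -/
def GProp (𝔭 : PrD n r R) (𝔰 : FmD r R) (G : (MvPolynomial (Fin n) R →+* ℂ) → ℝ)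
    (q1 : MvPolynomial (Fin n) R) (B : ℝ) : Prop :=
  ∀ φ : MvPolynomial (Fin n) R →+* ℂ, φ q1 ≠ 0 →
    (∀ z, (𝔭.F.map φ).eval z = 0 → ((𝔭.gp 𝔰).map φ).eval z ≠ 0 ∧ ‖gS 𝔭 𝔰 φ z‖ ≤ B * G φ) ∧
    ∃ z, (𝔭.F.map φ).eval z = 0 ∧ G φ ≤ B * ‖gS 𝔭 𝔰 φ z‖

/-- `∫ G ≤ B V` -/
theorem G_le (hD : AlgD 𝔭 𝔰) (h : IsMb 𝔭 𝔰 e A O U σ) (hB : 0 < B) (hG : GProp 𝔭 𝔰 G q1 B)
    (hq : ∀ᵐ y : Fin n → ℂ, ph e y q1 ≠ 0) :
    ∫⁻ y : Fin n → ℂ, ENNReal.ofReal (G (ph e y)) ≤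
      ENNReal.ofReal B * vm (volS σ) univ := by
  have h1 := h.mb.le_mass hD.pg hD.sg h.fm (H := fun y => ENNReal.ofReal (G (ph e y) / B)) (by
    filter_upwards [hq] with y hy
    obtain ⟨h2, z, hz, h3⟩ := hG _ hy
    refine ⟨z, hz, (h2 z hz).1, ENNReal.ofReal_le_ofReal ?_⟩
    rw [div_le_iff₀ hB, mul_comm]
    exact h3)
  have h2 : ∫⁻ y : Fin n → ℂ, ENNReal.ofReal (G (ph e y)) =
      ENNReal.ofReal B * ∫⁻ y : Fin n → ℂ, ENNReal.ofReal (G (ph e y) / B) := by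
    rw [← lintegral_const_mul' _ _ ENNReal.ofReal_ne_top]
    refine lintegral_congr fun y => ?_
    rw [← ENNReal.ofReal_mul hB.le, mul_div_cancel₀ _ hB.ne']
  rw [h2]
  gcongr
  exact h1.trans (measure_mono (subset_univ _))

/-- the mass over a set -/
theorem mass_le_G (hD : AlgD 𝔭 𝔰) (h : IsMb 𝔭 𝔰 e A O U σ) (hB : 0 < B)
    (hG : GProp 𝔭 𝔰 G q1 B) (hq : ∀ᵐ y : Fin n → ℂ, ph e y q1 ≠ 0) {S : Set (Fin n → ℂ)}
    (hS : MeasurableSet S) :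
    vm (volS σ) (Mbr.W 𝔭 e U (𝔭.gp 𝔰) ∩ yM 𝔭 e U ⁻¹' S) ≤
      ENNReal.ofReal (𝔭.F.natDegree * B) * ∫⁻ y in S, ENNReal.ofReal (G (ph e y)) := by
  have h1 := h.mb.mass_le hD.pg hD.sg h.fm hS (H := fun y => ENNReal.ofReal (B * G (ph e y))) (by
    filter_upwards [hq] with y hy z hz
    exact ENNReal.ofReal_le_ofReal (((hG _ hy).1 z hz).2))
  refine h1.trans (le_of_eq ?_)
  rw [← lintegral_const_mul' _ _ ENNReal.ofReal_ne_top]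
  refine lintegral_congr fun y => ?_
  rw [ENNReal.ofReal_mul hB.le, ENNReal.ofReal_mul (by positivity), ENNReal.ofReal_natCast,
    mul_assoc]

theorem nonempty_W (hD : AlgD 𝔭 𝔰) (h : IsMb 𝔭 𝔰 e A O U σ) (hG : GProp 𝔭 𝔰 G q1 B)
    (hq : ∀ᵐ y : Fin n → ℂ, ph e y q1 ≠ 0) : (Mbr.W 𝔭 e U (𝔭.gp 𝔰)).Nonempty := by
  obtain ⟨y, hy⟩ := hq.exists
  obtain ⟨h2, z, hz, -⟩ := hG _ hy
  obtain ⟨x, hx, -⟩ := exists_W hD h hz (h2 z hz).1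
  exact ⟨x, hx⟩

theorem null_compl (hD : AlgD 𝔭 𝔰) (h : IsMb 𝔭 𝔰 e A O U σ) (hG : GProp 𝔭 𝔰 G q1 B)
    (hq : ∀ᵐ y : Fin n → ℂ, ph e y q1 ≠ 0) : vm (volS σ) (Mbr.W 𝔭 e U (𝔭.gp 𝔰))ᶜ = 0 :=
  h.mb.null_W (nonempty_W hD h hG hq)

/-- `V ≤ D B ∫ G` -/
theorem le_G (hD : AlgD 𝔭 𝔰) (h : IsMb 𝔭 𝔰 e A O U σ) (hB : 0 < B) (hG : GProp 𝔭 𝔰 G q1 B)
    (hq : ∀ᵐ y : Fin n → ℂ, ph e y q1 ≠ 0) :
    vm (volS σ) univ ≤
      ENNReal.ofReal (𝔭.F.natDegree * B) * ∫⁻ y : Fin n → ℂ, ENNReal.ofReal (G (ph e y)) := by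
  have h1 := mass_le_G hD h hB hG hq (S := univ) MeasurableSet.univ
  rw [preimage_univ, inter_univ, Measure.restrict_univ] at h1
  refine le_trans ?_ h1
  have h2 := measure_add_measure_compl (μ := vm (volS σ)) (h.mb.open_W (𝔭.gp 𝔰)).measurableSet
  rw [null_compl hD h hG hq, add_zero] at h2
  exact h2.ge

end mass

end Crest.Agent.R281.GT_639
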