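import Crest.Agent.R281.GT11_639

/-!
Row 281, glue DIV 2 -> DIV 3 -> DIV 4 (helper639).  Part 12: the field `mass` of `SDat`.
-/

set_option autoImplicit false
set_option linter.unusedSectionVars false

open Polynomial Set Filter Topology Complex MeasureTheory
open scoped ContDiff Matrix ComplexConjugate Manifold ENNReal

noncomputable section

namespace Crest.Agent.R281.GT_639

open Crest.Agent.R275 Crest.Agent.R275.Geo Crest.Agent.R275.Core144 Crest.Agent.R275.EDR890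
open Crest.Agent.R273.Defs_333 Crest.Agent.R273.Kah_333
open Crest.Agent.R273.SerA_945 (Fn)
open Crest.Agent.R273.SteinC_794 Crest.Agent.R273.Chow_313
open Crest.Agent.R273.Vm_333 Crest.Agent.R273.Vol_333
open Crest.Agent.R273.FIb0_597 (ch mem_ch)
open Crest.Agent.R281.Defs_273 Crest.Agent.R281.AF_867 Crest.Agent.R281.Qr_770
open Crest.Agent.R281.HkP2_508 (volS)
open Crest.Agent.R281.SIn_14
open Crest.Agent.R281.TrPL_726 (Tr PL Tr.pos)
open Crest.Agent.R281.TrU_249 (Scale pt Bad TStmt trop_frac measurableSet_Bad)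

variable {n r : ℕ} {R : Type*} [CommRing R] [IsDomain R] [CharZero R]
variable {M : Type} [TopologicalSpace M] [MeasurableSpace M] [BorelSpace M] [ConnectedSpace M]

/-- a member with mass of size `e^{kL} L^n` -/
structure MbV (𝔭 : PrD n r R) (𝔰 : FmD r R) (e : R →+* ℂ) (A : Atl n M) [Countable A.ι]
    (O : LB A) (U : Fin r → Fn A) (σ : HSymp A) (k c1 C1 L : ℝ) : Prop where
  mb : IsMb 𝔭 𝔰 e A O U σ
  lo : ENNReal.ofReal (c1 * Real.exp (k * L) * L ^ n) ≤ vm (volS σ) univ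
  hi : vm (volS σ) univ ≤ ENNReal.ofReal (C1 * Real.exp (k * L) * L ^ n)

section static

variable {A : Atl n M} [Countable A.ι] {O : LB A} {𝔭 : PrD n r R} {e : R →+* ℂ}
  {U : Fin r → Fn A} {𝔰 : FmD r R} {σ : HSymp A} {G : (MvPolynomial (Fin n) R →+* ℂ) → ℝ}
  {q1 : MvPolynomial (Fin n) R} {B : ℝ} {f : Fin n → MvPolynomial (Fin n) R}

/-- a good point -/
theorem good_pt (hD : AlgD 𝔭 𝔰) (h : IsMb 𝔭 𝔰 e A O U σ) (hTr : Tr (MvPolynomial (Fin n) R) G)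
    (hB : 0 < B) (hG : GProp 𝔭 𝔰 G q1 B) (𝔱 : STup 𝔭 f) (hf : ∀ i, ∀ j ∈ (f i).vars, i ≤ j)
    {K : Kah A} {ρ : ℝ} (hρ : 0 < ρ)
    (hK : ∀ i, ∀ x ∈ (A.e i).source, (K.g i x).det.re = ρ * ‖(σ.s i x).det‖)
    {k C2 lam : ℝ} (hC2 : 0 < C2) {x : M} (hW : x ∈ Mbr.W 𝔭 e U (𝔭.gp 𝔰))
    (h1 : yM 𝔭 e U x ∉ Bad e lam G f k C2) (h2 : ph e (yM 𝔭 e U x) (q1 * ∏ i, f i) ≠ 0) :
    NZ (𝔱.sS e U) x ∧ (∀ j, |Real.log ‖quo (𝔱.sS e U) x j‖| ≤ C2 * lam) ∧
      (ρ * B * C2 * Real.exp (k * lam))⁻¹ ≤ Jsq K (𝔱.sS e U) x := by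
  set y := yM 𝔭 e U x with hy
  set z := zM 𝔭 e U x with hz
  rw [map_mul, map_prod, mul_ne_zero_iff, Finset.prod_ne_zero_iff] at h2
  have hfy : ∀ j, ph e y (f j) ≠ 0 := fun j => h2.2 j (Finset.mem_univ j)
  have hN : NZ (𝔱.sS e U) x := (h.mb.nz_sS 𝔱).2 ⟨hW.1, hfy⟩
  simp only [Bad, mem_ofPred_eq, not_or, not_lt, not_exists] at h1
  obtain ⟨h3, h4⟩ := h1
  refine ⟨hN, fun j => ?_, ?_⟩
  · rw [h.mb.quo_eq 𝔱 hW.1 j]
    exact h4 j
  · have hroot : (𝔭.F.map (ph e y)).eval z = 0 := h.mb.eqF x hW.1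
    have hb := ((hG _ h2.1).1 z hroot).2
    have hGp : 0 < G (ph e y) := hTr.pos _
    have hdS : 0 < dS 𝔭 𝔰 e y z := norm_pos_iff.2 (gS_ne hD h hW)
    have hb' : dS 𝔭 𝔰 e y z ≤ B * G (ph e y) := hb
    rw [h.mb.jsq_eq hD.sg h.fm 𝔱 hf hK hW hfy]
    set Pr := ∏ i, ‖ph e y (MvPolynomial.pderiv i (f i)) / ph e y (f i)‖ ^ 2 with hPr
    have h3' : G (ph e y) ≤ C2 * Real.exp (k * lam) * Pr := h3
    have hE : 0 < Real.exp (k * lam) := Real.exp_pos _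
    rw [inv_eq_one_div, div_le_div_iff₀ (by positivity) (by positivity), one_mul]
    calc ρ * dS 𝔭 𝔰 e y z ≤ ρ * (B * G (ph e y)) := by gcongr
      _ ≤ ρ * (B * (C2 * Real.exp (k * lam) * Pr)) := by gcongr
      _ = Pr * (ρ * B * C2 * Real.exp (k * lam)) := by ring

/-- the measure of the bad points -/
theorem bad_le (hD : AlgD 𝔭 𝔰) (h : IsMb 𝔭 𝔰 e A O U σ) (hTr : Tr (MvPolynomial (Fin n) R) G)
    (hB : 0 < B) (hG : GProp 𝔭 𝔰 G q1 B) {k C2 lam : ℝ} (hC2 : 0 < C2) (hlam : 0 < lam)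
    (hq : ∀ᵐ y : Fin n → ℂ, ph e y q1 ≠ 0)
    (hZ : ∀ᵐ y : Fin n → ℂ, ph e y (q1 * ∏ i, f i) ≠ 0)
    (hbad : ∫⁻ y in Bad e lam G f k C2, ENNReal.ofReal (G (ph e y)) ≤
        ENNReal.ofReal (C2 / lam) * ∫⁻ y : Fin n → ℂ, ENNReal.ofReal (G (ph e y))) :
    vm (volS σ) {x | ¬ (x ∈ Mbr.W 𝔭 e U (𝔭.gp 𝔰) ∧ yM 𝔭 e U x ∉ Bad e lam G f k C2 ∧
      ph e (yM 𝔭 e U x) (q1 * ∏ i, f i) ≠ 0)} ≤
      ENNReal.ofReal (𝔭.F.natDegree * B * (C2 / lam) * B) * vm (volS σ) univ := by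
  set Z : Set (Fin n → ℂ) := {y | ph e y (q1 * ∏ i, f i) = 0} with hZd
  have hZm : MeasurableSet Z :=
    (isClosed_singleton.preimage (continuous_ph e (q1 * ∏ i, f i))).measurableSet
  have hZ0 : volume Z = 0 := by
    rw [ae_iff] at hZ
    simp only [ne_eq, not_not] at hZ
    exact hZ
  have hBm : MeasurableSet (Bad e lam G f k C2) := measurableSet_Bad e lam hTr f k C2
  have hsub : {x | ¬ (x ∈ Mbr.W 𝔭 e U (𝔭.gp 𝔰) ∧ yM 𝔭 e U x ∉ Bad e lam G f k C2 ∧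
      ph e (yM 𝔭 e U x) (q1 * ∏ i, f i) ≠ 0)} ⊆ (Mbr.W 𝔭 e U (𝔭.gp 𝔰))ᶜ ∪
      (Mbr.W 𝔭 e U (𝔭.gp 𝔰) ∩ yM 𝔭 e U ⁻¹' (Bad e lam G f k C2 ∪ Z)) := by
    intro x hx
    by_cases hxW : x ∈ Mbr.W 𝔭 e U (𝔭.gp 𝔰)
    · refine Or.inr ⟨hxW, ?_⟩
      by_cases hxB : yM 𝔭 e U x ∈ Bad e lam G f k C2
      · exact Or.inl hxB
      · by_cases hxZ : ph e (yM 𝔭 e U x) (q1 * ∏ i, f i) = 0
        · exact Or.inr hxZ
        · exact absurd ⟨hxW, hxB, hxZ⟩ hx
    · exact Or.inl hxW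
  refine (measure_mono hsub).trans ((measure_union_le _ _).trans ?_)
  rw [null_compl hD h hG hq, zero_add]
  refine (mass_le_G hD h hB hG hq (hBm.union hZm)).trans ?_
  have h1 : ∫⁻ y in Bad e lam G f k C2 ∪ Z, ENNReal.ofReal (G (ph e y)) ≤
      ENNReal.ofReal (C2 / lam) * (ENNReal.ofReal B * vm (volS σ) univ) := by
    refine (lintegral_union_le _ _ _).trans ?_
    rw [setLIntegral_measure_zero _ _ hZ0, add_zero]
    refine hbad.trans ?_
    gcongr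
    exact G_le hD h hB hG hq
  refine (mul_le_mul' le_rfl h1).trans (le_of_eq ?_)
  rw [← mul_assoc, ← mul_assoc, ← ENNReal.ofReal_mul (by positivity),
    ← ENNReal.ofReal_mul (by positivity)]

end static

section family

variable {𝔭 : PrD n r R} {𝔰 : FmD r R} {T : Type*} {l : Filter T} {ev : T → R →+* ℂ} {L : T → ℝ}

/-- **TROP-IN + TROP-OUT: the mass** -/
theorem glue_mass [l.NeBot] (hS : Scale l ev L) (hD : AlgD 𝔭 𝔰) {k c1 C1 : ℝ} (hc1 : 0 < c1)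
    (H : ∀ᶠ t in l, ∃ (A : Atl n M) (_ : Countable A.ι) (O : LB A) (U : Fin r → Fn A)
      (σ : HSymp A), MbV 𝔭 𝔰 (ev t) A O U σ k c1 C1 (L t)) :
    ∃ (f : Fin n → MvPolynomial (Fin n) R) (C0 : ℝ), 0 < C0 ∧
      (∀ i, f i ≠ 0 ∧ (∀ j ∈ (f i).vars, i ≤ j) ∧ MvPolynomial.pderiv i (f i) ≠ 0) ∧
      ∀ v : ℝ, 0 < v → ∃ c : ℝ, 0 < c ∧ ∀ᶠ t in l, ∀ (A : Atl n M) [Countable A.ι] (O : LB A)
        (U : Fin r → Fn A) (σ : HSymp A), MbV 𝔭 𝔰 (ev t) A O U σ k c1 C1 (L t) →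
        ∀ (K : Kah A) (ρ : ℝ),
          (∀ i, ∀ x ∈ (A.e i).source, (K.g i x).det.re = ρ * ‖(σ.s i x).det‖) →
          (vm (volK K)).real univ ≤ v * L t ^ n → ∀ 𝔱 : STup 𝔭 f,
          c * (vm (volK K)).real univ ≤ (vm (volK K)).real {x | NZ (𝔱.sS (ev t) U) x ∧
            (∀ j, |Real.log ‖quo (𝔱.sS (ev t) U) x j‖| ≤ C0 * L t) ∧
            c ≤ Jsq K (𝔱.sS (ev t) U) x} := by
  obtain ⟨G, q1, B, hTr, hq1, hB, hG⟩ := exists_G (M := M) hS hD (by
    filter_upwards [H] with t ht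
    obtain ⟨A, _, O, U, σ, h⟩ := ht
    exact ⟨A, O, U, σ, h.mb⟩)
  change GProp 𝔭 𝔰 G q1 B at hG
  have hDp : (0 : ℝ) < 𝔭.F.natDegree := by exact_mod_cast hD.pg.pos
  have hq : ∀ᶠ t in l, ∀ᵐ y : Fin n → ℂ, ph (ev t) y q1 ≠ 0 := hS.ae_ne_zero hq1
  have hLp : ∀ᶠ t in l, 1 ≤ L t := hS.tendsto.eventually_ge_atTop 1
  have hfin : ∀ᶠ t in l, ∫⁻ y : Fin n → ℂ, ENNReal.ofReal (G (pt (ev t) y)) ≠ (⊤ : ℝ≥0∞) := by
    filter_upwards [H, hq] with t ht hqt
    obtain ⟨A, _, O, U, σ, h⟩ := ht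
    refine ne_top_of_le_ne_top ?_ (G_le hD h.mb hB hG hqt)
    exact ENNReal.mul_ne_top ENNReal.ofReal_ne_top (ne_top_of_le_ne_top ENNReal.ofReal_ne_top h.hi)
  have hlow : ∀ᶠ t in l, ENNReal.ofReal (c1 / (𝔭.F.natDegree * B) * Real.exp (k * L t) * L t ^ n) ≤
      ∫⁻ y : Fin n → ℂ, ENNReal.ofReal (G (pt (ev t) y)) := by
    filter_upwards [H, hq, hLp] with t ht hqt hLt
    obtain ⟨A, _, O, U, σ, h⟩ := ht
    have h1 := h.lo.trans (le_G hD h.mb hB hG hqt)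
    have h2 : ENNReal.ofReal (c1 * Real.exp (k * L t) * L t ^ n) =
        ENNReal.ofReal (𝔭.F.natDegree * B) *
          ENNReal.ofReal (c1 / (𝔭.F.natDegree * B) * Real.exp (k * L t) * L t ^ n) := by
      rw [← ENNReal.ofReal_mul (by positivity)]
      congr 1
      field_simp
    rw [h2] at h1
    exact (ENNReal.mul_le_mul_iff_right (ENNReal.ofReal_pos.2 (mul_pos hDp hB)).ne'
      ENNReal.ofReal_ne_top).1 h1
  have hup : ∀ᶠ t in l, ∫⁻ y : Fin n → ℂ, ENNReal.ofReal (G (pt (ev t) y)) ≤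
      ENNReal.ofReal ((B * C1) * Real.exp (k * L t) * L t ^ n) := by
    filter_upwards [H, hq] with t ht hqt
    obtain ⟨A, _, O, U, σ, h⟩ := ht
    refine (G_le hD h.mb hB hG hqt).trans ?_
    rw [show B * C1 * Real.exp (k * L t) * L t ^ n = B * (C1 * Real.exp (k * L t) * L t ^ n) by ring,
      ENNReal.ofReal_mul hB.le]
    gcongr
    exact h.hi
  obtain ⟨C2, f, hC2, hf, hbad⟩ := trop_frac hS hTr hfin (c := c1 / (𝔭.F.natDegree * B))
    (by positivity) hlow hup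
  have hZn : q1 * ∏ i, f i ≠ 0 := mul_ne_zero hq1 (Finset.prod_ne_zero_iff.2 fun i _ => (hf i).1)
  have hZ : ∀ᶠ t in l, ∀ᵐ y : Fin n → ℂ, ph (ev t) y (q1 * ∏ i, f i) ≠ 0 := hS.ae_ne_zero hZn
  refine ⟨f, C2, hC2, fun i => ⟨(hf i).1, (hf i).2, fun h0 => ?_⟩, fun v hv => ?_⟩
  · -- the derivative is not zero
    obtain ⟨t, ⟨⟨h1, h2⟩, h3⟩, h4⟩ := (((hbad.and hlow).and hfin).and
      (hS.tendsto.eventually_gt_atTop (max 1 C2))).exists
    have hL : 1 < L t := (le_max_left _ _).trans_lt h4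
    have hL2 : C2 < L t := (le_max_right _ _).trans_lt h4
    have hL0 : 0 < L t := by linarith
    have hbu : Bad (ev t) (L t) G f k C2 = univ := by
      refine eq_univ_of_forall fun y => Or.inl ?_
      rw [Finset.prod_eq_zero (Finset.mem_univ i)]
      · rw [mul_zero]
        exact hTr.pos _
      · rw [h0, map_zero, zero_div, norm_zero]
        norm_num
    rw [hbu, Measure.restrict_univ] at h1
    have hpos : 0 < ∫⁻ y : Fin n → ℂ, ENNReal.ofReal (G (pt (ev t) y)) := by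
      refine lt_of_lt_of_le ?_ h2
      rw [ENNReal.ofReal_pos]
      positivity
    have h5 : ENNReal.ofReal (C2 / L t) * ∫⁻ y : Fin n → ℂ, ENNReal.ofReal (G (pt (ev t) y)) <
        1 * ∫⁻ y : Fin n → ℂ, ENNReal.ofReal (G (pt (ev t) y)) := by
      refine ENNReal.mul_lt_mul_left hpos.ne' h3 ?_
      rw [ENNReal.ofReal_lt_one, div_lt_one hL0]
      exact hL2
    rw [one_mul] at h5
    exact absurd h1 (not_le.2 h5)
  · refine ⟨min (1 / 2) (c1 / (B * C2 * v)), lt_min (by norm_num) (by positivity), ?_⟩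
    filter_upwards [hq, hZ, hLp, hbad, hS.tendsto.eventually_ge_atTop
      (2 * (𝔭.F.natDegree * B * C2 * B))] with t hqt hZt hLt hbt hLt2
    intro A _ O U σ h K ρ hK hvol 𝔱
    have hL0 : 0 < L t := by linarith
    obtain ⟨x0⟩ : Nonempty M := inferInstance
    obtain ⟨i0, hi0⟩ := A.cover x0
    have hρ : 0 < ρ := by
      have h1 := det_re_pos (K.pos i0 x0 hi0)
      rw [hK i0 x0 hi0] at h1
      exact pos_of_mul_pos_left h1 (norm_nonneg _)
    have hvm : vm (volK K) = ENNReal.ofReal ρ • vm (volS σ) :=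
      vm_scal hρ.le fun i x hx => hK i x hx
    set c := min (1 / 2) (c1 / (B * C2 * v)) with hc
    have hc2 : c ≤ 1 / 2 := min_le_left _ _
    set Gd : Set M := {x | NZ (𝔱.sS (ev t) U) x ∧
            (∀ j, |Real.log ‖quo (𝔱.sS (ev t) U) x j‖| ≤ C2 * L t) ∧
            c ≤ Jsq K (𝔱.sS (ev t) U) x} with hGd
    have hVfin : vm (volS σ) univ ≠ (⊤ : ℝ≥0∞) := ne_top_of_le_ne_top ENNReal.ofReal_ne_top h.hi
    -- bound of `c`
    have hVr : c1 * Real.exp (k * L t) * L t ^ n ≤ (vm (volS σ)).real univ := by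
      have h1 := h.lo
      rw [ENNReal.ofReal_le_iff_le_toReal hVfin] at h1
      exact h1
    have hvol' : ρ * (vm (volS σ)).real univ ≤ v * L t ^ n := by
      have h1 := hvol
      rw [hvm, measureReal_ennreal_smul_apply, ENNReal.toReal_ofReal hρ.le] at h1
      exact h1
    have hE : 0 < Real.exp (k * L t) := Real.exp_pos _
    have hLn : 0 < L t ^ n := by positivity
    have hcJ : c ≤ (ρ * B * C2 * Real.exp (k * L t))⁻¹ := by
      refine (min_le_right _ _).trans ?_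
      rw [inv_eq_one_div, div_le_div_iff₀ (by positivity) (by positivity), one_mul]
      have h1 : ρ * (c1 * Real.exp (k * L t) * L t ^ n) ≤ v * L t ^ n :=
        (mul_le_mul_of_nonneg_left hVr hρ.le).trans hvol'
      have h2 : ρ * (c1 * Real.exp (k * L t)) ≤ v := by
        have h3 : (ρ * (c1 * Real.exp (k * L t))) * L t ^ n ≤ v * L t ^ n := by
          calc _ = ρ * (c1 * Real.exp (k * L t) * L t ^ n) := by ring
            _ ≤ _ := h1
        exact le_of_mul_le_mul_right h3 hLn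
      calc c1 * (ρ * B * C2 * Real.exp (k * L t)) = (ρ * (c1 * Real.exp (k * L t))) * (B * C2) := by
            ring
        _ ≤ v * (B * C2) := by gcongr
        _ = B * C2 * v := by ring
    -- the complement of the good set
    have hsub : Gdᶜ ⊆ {x | ¬ (x ∈ Mbr.W 𝔭 (ev t) U (𝔭.gp 𝔰) ∧
        yM 𝔭 (ev t) U x ∉ Bad (ev t) (L t) G f k C2 ∧
        ph (ev t) (yM 𝔭 (ev t) U x) (q1 * ∏ i, f i) ≠ 0)} := by
      intro x hx hcon
      apply hx
      obtain ⟨h1, h2, h3⟩ := good_pt hD h.mb hTr hB hG 𝔱 (fun i => (hf i).2) hρ hK hC2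
        hcon.1 hcon.2.1 hcon.2.2
      exact ⟨h1, h2, hcJ.trans h3⟩
    have hcompl : vm (volS σ) Gdᶜ ≤ ENNReal.ofReal (1 / 2) * vm (volS σ) univ := by
      refine (measure_mono hsub).trans ((bad_le hD h.mb hTr hB hG hC2 hL0 hqt hZt hbt).trans ?_)
      gcongr
      rw [show (𝔭.F.natDegree : ℝ) * B * (C2 / L t) * B = 𝔭.F.natDegree * B * C2 * B / L t by ring,
        div_le_iff₀ hL0]
      linarith
    have hsum : (vm (volS σ)).real univ ≤ (vm (volS σ)).real Gd +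
        1 / 2 * (vm (volS σ)).real univ := by
      have h1 : vm (volS σ) univ ≤ vm (volS σ) Gd + ENNReal.ofReal (1 / 2) * vm (volS σ) univ := by
        rw [← union_compl_self Gd]
        exact (measure_union_le _ _).trans (by
          rw [union_compl_self]
          gcongr)
      have hG' : vm (volS σ) Gd ≠ (⊤ : ℝ≥0∞) := ne_top_of_le_ne_top hVfin (measure_mono (subset_univ _))
      have h2 := ENNReal.toReal_mono (ENNReal.add_ne_top.2 ⟨hG', ENNReal.mul_ne_top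
        ENNReal.ofReal_ne_top hVfin⟩) h1
      rw [ENNReal.toReal_add hG' (ENNReal.mul_ne_top ENNReal.ofReal_ne_top hVfin),
        ENNReal.toReal_mul, ENNReal.toReal_ofReal (by norm_num)] at h2
      exact h2
    rw [hvm, measureReal_ennreal_smul_apply, measureReal_ennreal_smul_apply,
      ENNReal.toReal_ofReal hρ.le]
    have hV0 : 0 ≤ (vm (volS σ)).real univ := measureReal_nonneg
    calc c * (ρ * (vm (volS σ)).real univ) = ρ * (c * (vm (volS σ)).real univ) := by ring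
      _ ≤ ρ * (1 / 2 * (vm (volS σ)).real univ) := by gcongr
      _ ≤ ρ * (vm (volS σ)).real Gd := by
        gcongr
        linarith

end family

end Crest.Agent.R281.GT_639
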