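import Crest.Agent.R281.GT12_639

/-!
Row 281, glue DIV 2 -> DIV 3 -> DIV 4 (helper639).  Part 13: the field `deg` of `SDat`.

* `tri_card` : a finite part of a fibre of a triangular tuple, with `∂_i f_i ≠ 0`, has at most
               `∏ totalDegree (f i)` points
* `fib_card` : at most `natDegree F` points of `M` where `y` is a local coordinate system lie over
               a point
* `deg_le`   : the field `deg`
-/

set_option autoImplicit false
set_option linter.unusedSectionVars false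

open Polynomial Set Filter Topology Complex MeasureTheory
open scoped ContDiff Matrix ComplexConjugate Manifold ENNReal

noncomputable section

namespace Crest.Agent.R281.GT_639

open Crest.Agent.R275 Crest.Agent.R275.Geo Crest.Agent.R275.Core144 Crest.Agent.R275.EDR890
open Crest.Agent.R273.Defs_333 Crest.Agent.R273.Kah_333
open Crest.Agent.R273.SerA_945 (Fn)
open Crest.Agent.R273.SteinC_794 Crest.Agent.R273.Chow_313
open Crest.Agent.R273.FIb0_597 (ch mem_ch)
open Crest.Agent.R281.Defs_273 Crest.Agent.R281.AF_867 Crest.Agent.R281.Qr_770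
open Crest.Agent.R281.SIn_14

variable {n r : ℕ} {R : Type*} [CommRing R]

/-! ### triangular tuples -/

/-- forget the coordinates before `k` -/
def tail (k : ℕ) (y : Fin n → ℂ) : Fin n → ℂ := fun j => if k ≤ j.val then y j else 0

theorem ph_congr {p : MvPolynomial (Fin n) R} (e : R →+* ℂ) {y y' : Fin n → ℂ}
    (h : ∀ j ∈ p.vars, y j = y' j) : ph e y p = ph e y' p := by
  refine MvPolynomial.hom_congr_vars ?_ (fun i hi _ => ?_) rfl
  · ext r
    simp
  · rw [ph_X, ph_X]
    exact h i hi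

/-- the polynomial in one variable -/
def up (e : R →+* ℂ) (a : Fin n → ℂ) (k : Fin n) (p : MvPolynomial (Fin n) R) : ℂ[X] :=
  MvPolynomial.eval₂ (Polynomial.C.comp e) (fun j => if j = k then X else C (a j)) p

theorem eval_up (e : R →+* ℂ) (a : Fin n → ℂ) (k : Fin n) (p : MvPolynomial (Fin n) R) (x : ℂ) :
    (up e a k p).eval x = ph e (Function.update a k x) p := by
  have h : (Polynomial.evalRingHom x).comp
      (MvPolynomial.eval₂Hom (Polynomial.C.comp e) (fun j => if j = k then X else C (a j))) =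
      ph e (Function.update a k x) := by
    refine MvPolynomial.ringHom_ext ?_ ?_
    · intro r
      simp
    · intro j
      rcases eq_or_ne j k with rfl | hj
      · simp
      · simp [hj]
  exact congrArg (fun f => f p) h

theorem natDegree_up_le (e : R →+* ℂ) (a : Fin n → ℂ) (k : Fin n) (p : MvPolynomial (Fin n) R) :
    (up e a k p).natDegree ≤ p.totalDegree := by
  classical
  unfold up
  rw [MvPolynomial.eval₂_eq']
  refine Polynomial.natDegree_sum_le_of_forall_le _ _ fun d hd => ?_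
  refine Polynomial.natDegree_C_mul_le _ _ |>.trans ?_
  refine (Polynomial.natDegree_prod_le _ _).trans ?_
  have h1 : ∀ j : Fin n, ((if j = k then X else C (a j) : ℂ[X]) ^ d j).natDegree ≤ d j := by
    intro j
    refine Polynomial.natDegree_pow_le.trans ?_
    split_ifs with hj
    · rw [natDegree_X, mul_one]
    · rw [natDegree_C, mul_zero]
      exact Nat.zero_le _
  refine (Finset.sum_le_sum fun j _ => h1 j).trans ?_
  have h2 := MvPolynomial.le_totalDegree hd
  rwa [Finsupp.sum_fintype _ _ fun _ => rfl] at h2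

theorem up_ne (e : R →+* ℂ) (y : Fin n → ℂ) (k : Fin n) (p : MvPolynomial (Fin n) R) (w : ℂ)
    (h : ph e y (MvPolynomial.pderiv k p) ≠ 0) : up e y k p - C w ≠ 0 := by
  intro h0
  apply h
  have h1 : ∀ x : ℂ, ph e (Function.update y k x) p = w := by
    intro x
    have h2 := congrArg (Polynomial.eval x) h0
    rw [eval_sub, eval_C, eval_zero, eval_up, sub_eq_zero] at h2
    exact h2
  have h3 : HasDerivAt (fun x : ℂ => ph e (Function.update y k x) p)
      (ph e y (MvPolynomial.pderiv k p)) (y k) := by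
    have h4 : HasDerivAt (fun x : ℂ => Function.update y k x) (Pi.single k 1) (y k) := by
      have := hasDerivAt_update y k (y k)
      exact this
    have h5 := ph_hasFDerivAt e p (Function.update y k (y k))
    have h6 := h5.comp_hasDerivAt (y k) h4
    rw [Function.update_eq_self] at h6
    refine h6.congr_deriv ?_
    rw [lf_apply, Finset.sum_eq_single k]
    · simp
    · intro b _ hb
      rw [Pi.single_eq_of_ne hb, mul_zero]
    · simp
  have h7 : (fun x : ℂ => ph e (Function.update y k x) p) = fun _ => w := funext h1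
  rw [h7] at h3
  exact h3.unique (hasDerivAt_const _ _)

theorem tri_card {f : Fin n → MvPolynomial (Fin n) R} (hf : ∀ i, ∀ j ∈ (f i).vars, i ≤ j)
    (e : R →+* ℂ) (Y : Finset (Fin n → ℂ)) (w : Fin n → ℂ)
    (h1 : ∀ y ∈ Y, ∀ i, ph e y (f i) = w i)
    (h2 : ∀ y ∈ Y, ∀ i, ph e y (MvPolynomial.pderiv i (f i)) ≠ 0) :
    Y.card ≤ ∏ i, (f i).totalDegree := by
  classical
  have key : ∀ k : ℕ, k ≤ n → (Y.image (tail (n - k))).card ≤
      ∏ i ∈ Finset.univ.filter (fun i : Fin n => n - k ≤ i.val), (f i).totalDegree := by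
    intro k
    induction k with
    | zero =>
      intro _
      rw [Finset.filter_false_of_mem, Finset.prod_empty]
      · rw [Finset.card_le_one]
        intro a ha b hb
        obtain ⟨y, -, rfl⟩ := Finset.mem_image.1 ha
        obtain ⟨y', -, rfl⟩ := Finset.mem_image.1 hb
        funext j
        have := j.2
        simp only [tail]
        rw [if_neg (by omega), if_neg (by omega)]
      · intro i _
        have := i.2
        omega
    | succ k ih =>
      intro hk
      have ih' := ih (by omega)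
      set m : ℕ := n - (k + 1) with hm
      have hm1 : n - k = m + 1 := by omega
      have hmn : m < n := by omega
      rw [hm1] at ih'
      have e1 : Finset.univ.filter (fun i : Fin n => m ≤ i.val) =
          insert ⟨m, hmn⟩ (Finset.univ.filter (fun i : Fin n => m + 1 ≤ i.val)) := by
        ext i
        simp only [Finset.mem_filter, Finset.mem_univ, true_and, Finset.mem_insert, Fin.ext_iff]
        omega
      rw [e1, Finset.prod_insert (by simp)]
      have e2 : (Y.image (tail m)).image (tail (m + 1)) = Y.image (tail (m + 1)) := by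
        rw [Finset.image_image]
        congr 1
        funext y j
        simp only [Function.comp, tail]
        split_ifs <;> first | rfl | omega
      rw [← e2] at ih'
      refine (Finset.card_le_mul_card_image (Y.image (tail m)) (f ⟨m, hmn⟩).totalDegree ?_).trans
        (Nat.mul_le_mul_left _ ih')
      intro b hb
      obtain ⟨b', hb', rfl⟩ := Finset.mem_image.1 hb
      obtain ⟨y0, hy0, rfl⟩ := Finset.mem_image.1 hb'
      -- the polynomial
      set q := up e (tail m y0) ⟨m, hmn⟩ (f ⟨m, hmn⟩) - C (w ⟨m, hmn⟩) with hq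
      have hvars : ∀ y : Fin n → ℂ, ph e (tail m y) (f ⟨m, hmn⟩) = ph e y (f ⟨m, hmn⟩) := by
        intro y
        refine ph_congr e fun j hj => ?_
        have := hf _ j hj
        simp only [tail]
        rw [if_pos]
        exact this
      have hq0 : q ≠ 0 := by
        have h3 : up e (tail m y0) ⟨m, hmn⟩ (f ⟨m, hmn⟩) = up e y0 ⟨m, hmn⟩ (f ⟨m, hmn⟩) := by
          refine Polynomial.funext fun x => ?_
          rw [eval_up, eval_up]
          refine ph_congr e fun j hj => ?_
          rcases eq_or_ne j ⟨m, hmn⟩ with rfl | hj'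
          · simp
          · rw [Function.update_of_ne hj', Function.update_of_ne hj']
            have := hf _ j hj
            simp only [tail]
            rw [if_pos]
            exact this
        rw [hq, h3]
        exact up_ne e _ _ _ _ (h2 y0 hy0 _)
      have hdeg : q.natDegree ≤ (f ⟨m, hmn⟩).totalDegree := by
        rw [hq, Polynomial.natDegree_sub_C]
        exact natDegree_up_le _ _ _ _
      refine le_trans ?_ ((card_roots' q).trans hdeg)
      refine le_trans ?_ (Multiset.toFinset_card_le _)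
      refine Finset.card_le_card_of_injOn (fun y => y ⟨m, hmn⟩) ?_ ?_
      · intro a ha
        obtain ⟨ha1, ha2⟩ := Finset.mem_filter.1 (Finset.mem_coe.1 ha)
        obtain ⟨y, hy, rfl⟩ := Finset.mem_image.1 ha1
        refine Finset.mem_coe.2 (Multiset.mem_toFinset.2 ?_)
        rw [mem_roots hq0, IsRoot.def, hq, eval_sub, eval_C, eval_up, sub_eq_zero]
        have h4 : Function.update (tail m y0) ⟨m, hmn⟩ (tail m y ⟨m, hmn⟩) = tail m y := by
          funext j
          rcases eq_or_ne j ⟨m, hmn⟩ with rfl | hj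
          · simp
          · rw [Function.update_of_ne hj]
            have h5 := congrFun ha2 j
            have h6 : j.val ≠ m := fun h => hj (Fin.ext h)
            simp only [tail] at h5 ⊢
            split_ifs at h5 ⊢ <;> first | exact h5.symm | omega
        rw [h4, hvars]
        exact h1 y hy _
      · intro a ha a' ha' haa
        obtain ⟨ha1, ha2⟩ := Finset.mem_filter.1 (Finset.mem_coe.1 ha)
        obtain ⟨ha1', ha2'⟩ := Finset.mem_filter.1 (Finset.mem_coe.1 ha')
        obtain ⟨y, hy, rfl⟩ := Finset.mem_image.1 ha1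
        obtain ⟨y', hy', rfl⟩ := Finset.mem_image.1 ha1'
        funext j
        rcases eq_or_ne j ⟨m, hmn⟩ with rfl | hj
        · exact haa
        · have h5 := congrFun (ha2.trans ha2'.symm) j
          have h6 : j.val ≠ m := fun h => hj (Fin.ext h)
          simp only [tail] at h5 ⊢
          split_ifs at h5 ⊢ <;> first | exact h5 | omega
  have h3 := key n le_rfl
  rw [Nat.sub_self] at h3
  have e1 : Finset.univ.filter (fun i : Fin n => 0 ≤ i.val) = Finset.univ := by
    ext i
    simp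
  have e2 : Y.image (tail 0) = Y := by
    have : (tail 0 : (Fin n → ℂ) → Fin n → ℂ) = id := by
      funext y j
      simp [tail]
    rw [this, Finset.image_id]
  rwa [e1, e2] at h3

/-! ### the fibres of the projection -/

variable {M : Type} [TopologicalSpace M] {A : Atl n M} {O : LB A}

namespace Mbr

variable {𝔭 : PrD n r R} {e : R →+* ℂ} {U : Fin r → Fn A} {𝔰 : FmD r R} {σ : HSymp A}
  {f : Fin n → MvPolynomial (Fin n) R}

theorem map_nhds (h : Mbr 𝔭 e O U) {i : A.ι} {x : M} (hx : x ∈ (A.e i).source)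
    (h0 : x ∈ nz (ls e U (𝔭.lam 0))) (hJ : (Jy 𝔭 e U i x).det ≠ 0) :
    Filter.map (yM 𝔭 e U) (𝓝 x) = 𝓝 (yM 𝔭 e U x) := by
  set g : Cn n → Fin n → ℂ := fun ζ => yM 𝔭 e U ((A.e i).symm ζ) with hg
  have ho : IsOpen ((A.e i).target ∩ (A.e i).symm ⁻¹' (nz (ls e U (𝔭.lam 0)))) :=
    isOpen_ti h.open_nz
  have hd : DifferentiableOn ℂ g ((A.e i).target ∩ (A.e i).symm ⁻¹' (nz (ls e U (𝔭.lam 0)))) :=
    differentiableOn_pi.2 fun j => h.hol_yM i j
  have hl := (A.e i).left_inv hx
  have hmem : A.e i x ∈ (A.e i).target ∩ (A.e i).symm ⁻¹' (nz (ls e U (𝔭.lam 0))) :=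
    ⟨(A.e i).map_source hx, by rw [mem_preimage, hl]; exact h0⟩
  have hcd : ContDiffAt ℂ 1 g (A.e i x) :=
    ((Crest.Agent.R266.SCV.contDiffOn_omega_of_differentiableOn ho hd).contDiffAt
      (ho.mem_nhds hmem)).of_le le_top
  have hs := hcd.hasStrictFDerivAt one_ne_zero
  have hr : (fderiv ℂ g (A.e i x)).range = ⊤ := by
    rw [LinearMap.range_eq_top]
    intro v
    refine ⟨(WithLp.toLp 2 ((Jy 𝔭 e U i x)⁻¹.mulVec v) : Cn n), ?_⟩
    have h1 := Jy_mulVec (𝔭 := 𝔭) (e := e) (U := U) i x ((Jy 𝔭 e U i x)⁻¹.mulVec v)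
    rw [Matrix.mulVec_mulVec, Matrix.mul_nonsing_inv _ (isUnit_iff_ne_zero.2 hJ),
      Matrix.one_mulVec] at h1
    exact h1.symm
  have h2 := hs.map_nhds_eq_of_surj hr
  have h3 : Filter.map (A.e i).symm (𝓝 (A.e i x)) = 𝓝 x := (A.e i).symm_map_nhds_eq hx
  have h4 : g (A.e i x) = yM 𝔭 e U x := by
    simp only [hg]
    rw [hl]
  rw [h4] at h2
  rw [← h3, Filter.map_map]
  exact h2

/-- the points over `y` -/
theorem fib_card [T2Space M] (h : Mbr 𝔭 e O U) (hg : 𝔭.Good)
    (hq : ∀ᵐ y : Fin n → ℂ, ph e y (resultant 𝔭.F (derivative 𝔭.F)) ≠ 0) (S : Finset M)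
    (y0 : Fin n → ℂ) (hS : ∀ x ∈ S, x ∈ nz (ls e U (𝔭.lam 0)) ∧ yM 𝔭 e U x = y0 ∧
      ∃ i, x ∈ (A.e i).source ∧ (Jy 𝔭 e U i x).det ≠ 0) : S.card ≤ 𝔭.F.natDegree := by
  classical
  obtain ⟨V, hV, hdis⟩ := (S.finite_toSet).t2_separation
  set V' : M → Set M := fun x => V x ∩ nz (ls e U (𝔭.lam 0)) with hV'
  have h1 : ∀ x ∈ S, yM 𝔭 e U '' V' x ∈ 𝓝 y0 := by
    intro x hx
    obtain ⟨hx0, hxy, i, hi, hJ⟩ := hS x hx
    have h2 := h.map_nhds hi hx0 hJ
    rw [hxy] at h2
    rw [← h2]
    exact image_mem_map (inter_mem ((hV x).2.mem_nhds (hV x).1) (h.open_nz.mem_nhds hx0))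
  have h2 : (⋂ x ∈ S, yM 𝔭 e U '' V' x) ∈ 𝓝 y0 := (Filter.biInter_finset_mem S).2 h1
  have hden : Dense {y : Fin n → ℂ | ph e y (resultant 𝔭.F (derivative 𝔭.F)) ≠ 0} :=
    Measure.dense_of_ae hq
  obtain ⟨y', hy'1, hy'2⟩ := mem_closure_iff_nhds.1 (hden y0) _ h2
  have h3 : ∀ x ∈ S, ∃ x', x' ∈ V' x ∧ yM 𝔭 e U x' = y' := by
    intro x hx
    have := mem_iInter₂.1 hy'1 x hx
    obtain ⟨x', hx', hxy⟩ := this
    exact ⟨x', hx', hxy⟩
  choose! g hg1 hg2 using h3
  have hgW : ∀ x ∈ S, g x ∈ W 𝔭 e U (derivative 𝔭.F) := by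
    intro x hx
    refine ⟨(hg1 x hx).2, ?_⟩
    have h4 := h.eqF _ (hg1 x hx).2
    unfold pM at h4 ⊢
    rw [hg2 x hx] at h4 ⊢
    exact eval_ne_zero hg.monic _ hy'2 h4
  have h4 : S.card ≤ (𝔭.F.map (ph e y')).roots.toFinset.card := by
    refine Finset.card_le_card_of_injOn (fun x => zM 𝔭 e U (g x)) ?_ ?_
    · intro x hx
      have h5 := h.root_mem hg (hgW x hx).1
      rw [hg2 x hx] at h5
      exact Finset.mem_coe.2 (Multiset.mem_toFinset.2 h5)
    · intro x hx x' hx' hxx
      have h5 := h.inj_yz (hgW x hx) (hgW x' hx') ((hg2 x hx).trans (hg2 x' hx').symm) hxx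
      by_contra hne
      have h6 := hdis hx hx' hne
      exact Set.disjoint_left.1 h6 (hg1 x hx).1 (by rw [h5]; exact (hg1 x' hx').1)
  exact h4.trans ((Multiset.toFinset_card_le _).trans ((card_roots' _).trans natDegree_map_le))

/-- **the field `deg`** -/
theorem deg_le [T2Space M] (h : Mbr 𝔭 e O U) (hg : 𝔭.Good)
    (hq : ∀ᵐ y : Fin n → ℂ, ph e y (resultant 𝔭.F (derivative 𝔭.F)) ≠ 0) (𝔱 : STup 𝔭 f)
    (hf : ∀ i, ∀ j ∈ (f i).vars, i ≤ j) (K : Kah A) (S : Finset M)
    (hS : ∀ x ∈ S, NZ (𝔱.sS e U) x ∧ Jsq K (𝔱.sS e U) x ≠ 0)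
    (hq' : ∀ x ∈ S, ∀ y ∈ S, quo (𝔱.sS e U) x = quo (𝔱.sS e U) y) :
    S.card ≤ 𝔭.F.natDegree * ∏ i, (f i).totalDegree := by
  classical
  rcases S.eq_empty_or_nonempty with rfl | ⟨x0, hx0⟩
  · simp
  have h1 : ∀ x ∈ S, x ∈ nz (ls e U (𝔭.lam 0)) ∧ (∀ j, ph e (yM 𝔭 e U x) (f j) ≠ 0) ∧
      (∀ i, ph e (yM 𝔭 e U x) (MvPolynomial.pderiv i (f i)) ≠ 0) ∧
      (Jy 𝔭 e U (ch A x) x).det ≠ 0 := by
    intro x hx
    obtain ⟨h2, h3⟩ := hS x hx
    obtain ⟨h4, h5⟩ := (h.nz_sS 𝔱).1 h2
    obtain ⟨h6, h7⟩ := (h.jsq_ne 𝔱 hf h2).1 h3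
    exact ⟨h4, h5, h6, h7⟩
  refine (Finset.card_le_mul_card_image (f := yM 𝔭 e U) S 𝔭.F.natDegree ?_).trans
    (Nat.mul_le_mul_left _ ?_)
  · intro b _
    refine h.fib_card hg hq _ b fun x hx => ?_
    obtain ⟨hx1, hx2⟩ := Finset.mem_filter.1 hx
    obtain ⟨h2, -, -, h3⟩ := h1 x hx1
    exact ⟨h2, hx2, ch A x, mem_ch A x, h3⟩
  · refine tri_card hf e _ (quo (𝔱.sS e U) x0) ?_ ?_
    · intro y hy i
      obtain ⟨x, hx, rfl⟩ := Finset.mem_image.1 hy
      rw [← h.quo_eq 𝔱 (h1 x hx).1 i, hq' x hx x0 hx0]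
    · intro y hy i
      obtain ⟨x, hx, rfl⟩ := Finset.mem_image.1 hy
      exact (h1 x hx).2.2.1 i

end Mbr

end Crest.Agent.R281.GT_639
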