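import Crest.Agent.R281.GT13_639
import Crest.Agent.R281.Cov1_593

/-!
Row 281, glue DIV 2 -> DIV 3 -> DIV 4 (helper639).  Part 14: the field `cov` of `SDat` and the final
theorem.

* `prop_y`  : `y` is proper on `{lam_0 ≠ 0}`
* `cov`     : the field `cov` (with `Cov_593.cov_field`)
* `glue23`  : members of a family along a scale, mass of size `e^{kL} L^n` ==> sections
              `s_0 .. s_n` of `O^m` with polynomial coefficients over `R` and all fields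
              `hol`, `deg`, `cov`, `mass` of `SDat`
-/

set_option autoImplicit false
set_option linter.unusedSectionVars false

open Polynomial Set Filter Topology Complex MeasureTheory
open scoped ContDiff Matrix ComplexConjugate Manifold ENNReal

noncomputable section

namespace Crest.Agent.R281.GT_639

open Crest.Agent.R275 Crest.Agent.R275.Geo Crest.Agent.R275.Core144 Crest.Agent.R275.EDR890
open Crest.Agent.R273.Defs_333 Crest.Agent.R273.Kah_333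
open Crest.Agent.R273.SerA_945 (Fn)
open Crest.Agent.R273.SteinC_794 Crest.Agent.R273.Chow_313
open Crest.Agent.R273.Vm_333 Crest.Agent.R273.Vol_333
open Crest.Agent.R273.FIb0_597 (ch mem_ch)
open Crest.Agent.R281.Defs_273 Crest.Agent.R281.AF_867 Crest.Agent.R281.Qr_770
open Crest.Agent.R281.HkP2_508 (volS)
open Crest.Agent.R281.SIn_14
open Crest.Agent.R281.TrU_249 (Scale)

variable {n r : ℕ} {R : Type*} [CommRing R]
variable {M : Type} [TopologicalSpace M] {A : Atl n M} {O : LB A}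

namespace Mbr

variable {𝔭 : PrD n r R} {e : R →+* ℂ} {U : Fin r → Fn A} {𝔰 : FmD r R} {σ : HSymp A}
  {f : Fin n → MvPolynomial (Fin n) R}

theorem cont_lv (h : Mbr 𝔭 e O U) (a : Fin r → R) {i : A.ι} {x : M} (hx : x ∈ (A.e i).source) :
    ContinuousAt (ls e U a i) x :=
  continuousAt_of_holAt isOpen_univ ((h.hls a).hol i) hx (mem_univ x)

/-- `y` is proper on `{lam_0 ≠ 0}` -/
theorem prop_y [CompactSpace M] (h : Mbr 𝔭 e O U)
    (hb : ∀ i, ∀ x ∈ (A.e i).source, ∃ j, lv e (𝔭.lam j) (fun k => U k i x) ≠ 0) (B : ℝ) :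
    IsCompact {x | x ∈ nz (ls e U (𝔭.lam 0)) ∧ ∀ i, ‖yM 𝔭 e U x i‖ ≤ B} := by
  apply IsClosed.isCompact
  rw [← isOpen_compl_iff, isOpen_iff_mem_nhds]
  intro x hx
  obtain ⟨i, hi⟩ := A.cover x
  by_cases h0 : x ∈ nz (ls e U (𝔭.lam 0))
  · have h1 : ∃ j, B < ‖yM 𝔭 e U x j‖ := by
      by_contra hcon
      push Not at hcon
      exact hx ⟨h0, hcon⟩
    obtain ⟨j, hj⟩ := h1
    have h2 : ContinuousAt (fun x => ‖yM 𝔭 e U x j‖) x :=
      (continuousAt_pi.1 (h.cont_yM h0) j).norm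
    filter_upwards [h2.eventually (lt_mem_nhds hj)] with x' hx' hcon
    exact not_le.2 hx' (hcon.2 j)
  · have h1 : lv e (𝔭.lam 0) (fun k => U k i x) = 0 := by
      by_contra hne
      exact h0 ((h.nz_iff hi).2 hne)
    obtain ⟨j, hj⟩ := hb i x hi
    have hj0 : j ≠ 0 := by
      rintro rfl
      exact hj h1
    obtain ⟨j', rfl⟩ := Fin.exists_succ_eq.2 hj0
    have c1 := h.cont_lv (𝔭.lam 0) hi
    have c2 := h.cont_lv (𝔭.lam j'.succ) hi
    have c3 : ContinuousAt (fun x => ‖ls e U (𝔭.lam j'.succ) i x‖ -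
        (|B| + 1) * ‖ls e U (𝔭.lam 0) i x‖) x := c2.norm.sub (c1.norm.const_mul _)
    have c4 : 0 < ‖ls e U (𝔭.lam j'.succ) i x‖ - (|B| + 1) * ‖ls e U (𝔭.lam 0) i x‖ := by
      have e1 : ls e U (𝔭.lam 0) i x = 0 := h1
      rw [e1, norm_zero, mul_zero, sub_zero]
      exact norm_pos_iff.2 hj
    filter_upwards [c3.eventually (lt_mem_nhds c4), (A.e i).open_source.mem_nhds hi]
      with x' hx' hxi hcon
    have h2 := (h.nz_iff hxi).1 hcon.1
    have h3 := hcon.2 j'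
    rw [h.yM_eq hxi j', norm_div, div_le_iff₀ (norm_pos_iff.2 h2)] at h3
    have h4 : 0 < ‖lv e (𝔭.lam 0) (fun k => U k i x')‖ := norm_pos_iff.2 h2
    have h5 : (|B| + 1) * ‖lv e (𝔭.lam 0) (fun k => U k i x')‖ <
        ‖lv e (𝔭.lam j'.succ) (fun k => U k i x')‖ := by
      have := hx'
      simp only [ls] at this
      linarith
    have h6 : B * ‖lv e (𝔭.lam 0) (fun k => U k i x')‖ ≤
        (|B| + 1) * ‖lv e (𝔭.lam 0) (fun k => U k i x')‖ := by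
      gcongr
      linarith [le_abs_self B]
    linarith

theorem cov [CompactSpace M] [T2Space M] (h : Mbr 𝔭 e O U) (hg : 𝔭.Good)
    (hb : ∀ i, ∀ x ∈ (A.e i).source, ∃ j, lv e (𝔭.lam j) (fun k => U k i x) ≠ 0)
    (𝔱 : STup 𝔭 f) (hf : ∀ i, ∀ j ∈ (f i).vars, i ≤ j)
    (hq : MvPolynomial.map e (resultant 𝔭.F (derivative 𝔭.F)) ≠ 0)
    (hd : ∀ i, MvPolynomial.map e (MvPolynomial.pderiv i (f i)) ≠ 0) (K : Kah A) :
    ∃ P : MvPolynomial (Fin n) ℂ, P ≠ 0 ∧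
    (∀ x, NZ (𝔱.sS e U) x → MvPolynomial.eval (quo (𝔱.sS e U) x) P ≠ 0 →
      Jsq K (𝔱.sS e U) x ≠ 0) ∧
    ∀ C : Set (Fin n → ℂ), IsCompact C → (∀ w ∈ C, (∀ j, w j ≠ 0) ∧ MvPolynomial.eval w P ≠ 0) →
      IsCompact {x | NZ (𝔱.sS e U) x ∧ quo (𝔱.sS e U) x ∈ C} := by
  classical
  have hpe : ∀ (y : Fin n → ℂ) (p : MvPolynomial (Fin n) R),
      MvPolynomial.eval y (MvPolynomial.map e p) = ph e y p := by
    intro y p
    simp [ph, MvPolynomial.eval_map]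
  refine Crest.Agent.R281.Cov_593.cov_field (X := M)
    (fun i => MvPolynomial.map e (f i)) (fun i j hj => hf i j (MvPolynomial.vars_map (f i) e hj))
    (fun i => by rw [MvPolynomial.pderiv_map]; exact hd i)
    (E := MvPolynomial.map e (resultant 𝔭.F (derivative 𝔭.F)) *
      ∏ i, MvPolynomial.map e (MvPolynomial.pderiv i (f i)))
    (mul_ne_zero hq (Finset.prod_ne_zero_iff.2 fun i _ => hd i))
    (U := nz (ls e U (𝔭.lam 0))) (y := yM 𝔭 e U)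
    (fun x hx => (h.cont_yM hx).continuousWithinAt) (h.prop_y hb) ?_ ?_ ?_
  · intro x
    simp only [hpe]
    exact h.nz_sS 𝔱
  · intro x hx
    funext i
    rw [hpe]
    exact h.quo_eq 𝔱 ((h.nz_sS 𝔱).1 hx).1 i
  · intro x hx hE
    rw [map_mul, map_prod, hpe, mul_ne_zero_iff, Finset.prod_ne_zero_iff] at hE
    obtain ⟨h0, -⟩ := (h.nz_sS 𝔱).1 hx
    refine (h.jsq_ne 𝔱 hf hx).2 ⟨fun i => ?_, ?_⟩
    · have := hE.2 i (Finset.mem_univ i)
      rwa [hpe] at this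
    · refine h.Jy_det_ne (mem_ch A x) ⟨h0, ?_⟩
      have h1 := h.eqF x h0
      unfold pM at h1 ⊢
      exact eval_ne_zero hg.monic _ hE.1 h1

end Mbr

/-! ### the final theorem -/

section final

variable [IsDomain R] [CharZero R] [MeasurableSpace M] [BorelSpace M] [ConnectedSpace M]
  [CompactSpace M] [T2Space M] {𝔭 : PrD n r R} {𝔰 : FmD r R} {T : Type*} {l : Filter T}
  {ev : T → R →+* ℂ} {L : T → ℝ}

/-- the fields `hol`, `deg`, `cov`, `mass` of `SDat` -/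
structure SFld (A : Atl n M) [Countable A.ι] (K : Kah A) (Lb : LB A)
    (s : Fin (n + 1) → A.ι → M → ℂ) (C0 c : ℝ) (d : ℕ) (L : ℝ) : Prop where
  hol : ∀ j, IsHS Lb univ (s j)
  deg : ∀ S : Finset M, (∀ x ∈ S, NZ s x ∧ Jsq K s x ≠ 0) →
    (∀ x ∈ S, ∀ y ∈ S, quo s x = quo s y) → S.card ≤ d
  cov : ∃ P : MvPolynomial (Fin n) ℂ, P ≠ 0 ∧
    (∀ x, NZ s x → MvPolynomial.eval (quo s x) P ≠ 0 → Jsq K s x ≠ 0) ∧
    ∀ C : Set (Fin n → ℂ), IsCompact C → (∀ w ∈ C, (∀ j, w j ≠ 0) ∧ MvPolynomial.eval w P ≠ 0) →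
      IsCompact {x | NZ s x ∧ quo s x ∈ C}
  mass : c * (vm (volK K)).real univ ≤
    (vm (volK K)).real {x | NZ s x ∧ (∀ j, |Real.log ‖quo s x j‖| ≤ C0 * L) ∧ c ≤ Jsq K s x}

/-- **GLUE-23** -/
theorem glue23 [l.NeBot] (hS : Scale l ev L) (hD : AlgD 𝔭 𝔰) {k c1 C1 : ℝ} (hc1 : 0 < c1)
    (H : ∀ᶠ t in l, ∃ (A : Atl n M) (_ : Countable A.ι) (O : LB A) (U : Fin r → Fn A)
      (σ : HSymp A), MbV 𝔭 𝔰 (ev t) A O U σ k c1 C1 (L t)) :
    ∃ (m : ℕ) (sp : Fin (n + 1) → MvPolynomial (Fin r) R) (C0 : ℝ) (d : ℕ), 0 < m ∧ 0 < C0 ∧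
      (∀ j, (sp j).IsHomogeneous m) ∧
      ∀ v : ℝ, 0 < v → ∃ c : ℝ, 0 < c ∧ ∀ᶠ t in l, ∀ (A : Atl n M) [Countable A.ι] (O : LB A)
        (U : Fin r → Fn A) (σ : HSymp A), MbV 𝔭 𝔰 (ev t) A O U σ k c1 C1 (L t) →
        ∀ (K : Kah A) (ρ : ℝ),
          (∀ i, ∀ x ∈ (A.e i).source, (K.g i x).det.re = ρ * ‖(σ.s i x).det‖) →
          (vm (volK K)).real univ ≤ v * L t ^ n →
          SFld A K (O ^ m) (fun j => evF U ((sp j).map (ev t))) C0 c d (L t) := by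
  obtain ⟨f, C0, hC0, hf, hm⟩ := glue_mass hS hD hc1 H
  obtain ⟨𝔱⟩ := exists_STup 𝔭 f
  refine ⟨𝔱.m, 𝔱.sp, C0, 𝔭.F.natDegree * ∏ i, (f i).totalDegree, 𝔱.pos, hC0, 𝔱.sp_hom,
    fun v hv => ?_⟩
  obtain ⟨c, hc, hct⟩ := hm v hv
  refine ⟨c, hc, ?_⟩
  have hrF : resultant 𝔭.F (derivative 𝔭.F) ≠ 0 := fun h0 =>
    not_dvd_deriv hD (dvd_of_resultant_eq_zero hD.pg.monic hD.pp h0)
  have e1 : ∀ᶠ t in l, ∀ i, MvPolynomial.map (ev t) (MvPolynomial.pderiv i (f i)) ≠ 0 :=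
    Filter.eventually_all.2 fun i => hS.map_ne_zero (hf i).2.2
  filter_upwards [hct, hS.ae_ne_zero hrF, hS.map_ne_zero hrF, e1] with t h1 h2 h3 h4
  intro A _ O U σ h K ρ hK hvol
  exact ⟨fun j => h.mb.mb.hs_sS 𝔱 j,
    fun S hS hq => h.mb.mb.deg_le hD.pg h2 𝔱 (fun i => (hf i).2.1) K S hS hq,
    h.mb.mb.cov hD.pg h.mb.base 𝔱 (fun i => (hf i).2.1) h3 h4 K,
    h1 A O U σ h K ρ hK hvol 𝔱⟩

end final

end Crest.Agent.R281.GT_639
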