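import Mathlib

/-!
Row 281, glue DIV 2 -> DIV 3 (helper639).  Part 1: the characteristic polynomial of an algebraic
function `g = P(z)/Q(z)`, `F(z) = 0`, over a ring `A`, by resultants, and the two-sided bound
`max_s |g^(s)| ~ max_j |A_j|^(1/j)` at every point `φ : A →+* ℂ`.
-/

set_option autoImplicit false

open Polynomial

noncomputable section

namespace Crest.Agent.R281.GT_639

section char

variable {A : Type*} [CommRing A]

/-- `H(T) = Res_X (F, T Q - P) ∈ A[T]`. -/
def H (F P Q : A[X]) (n : ℕ) : A[X] :=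
  resultant (F.map (C : A →+* A[X])) (C (X : A[X]) * Q.map (C : A →+* A[X]) -
    P.map (C : A →+* A[X])) F.natDegree n

theorem H_map (F P Q : A[X]) (hF : F.Monic) {n : ℕ} (hP : P.natDegree ≤ n) (hQ : Q.natDegree ≤ n)
    {K : Type*} [Field K] (φ : A →+* K) (hs : (F.map φ).Splits) :
    (H F P Q n).map φ =
      ((F.map φ).roots.map fun z => C ((Q.map φ).eval z) * X - C ((P.map φ).eval z)).prod := by
  classical
  have hm : (F.map φ).Monic := hF.map φ
  have h1 : (H F P Q n).map φ = resultant ((F.map φ).map (C : K →+* K[X]))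
      (C (X : K[X]) * (Q.map φ).map (C : K →+* K[X]) - (P.map φ).map (C : K →+* K[X]))
      F.natDegree n := by
    have h2 : (H F P Q n).map φ = (mapRingHom φ) (H F P Q n) := rfl
    rw [h2, H, ← resultant_map_map]
    congr 1
    · rw [Polynomial.map_map, Polynomial.map_map]
      congr 1
      ext x
      simp
    · rw [Polynomial.map_sub, Polynomial.map_mul, Polynomial.map_map, Polynomial.map_map,
        Polynomial.map_map, Polynomial.map_map, Polynomial.map_C]
      congr 2
      · congr 1
        simp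
      · congr 1
        ext x
        simp
      · ext x
        simp
  have hfd : ((F.map φ).map (C : K →+* K[X])).natDegree = F.natDegree := by
    rw [hm.natDegree_map, hF.natDegree_map]
  have hgd : (C (X : K[X]) * (Q.map φ).map (C : K →+* K[X]) -
      (P.map φ).map (C : K →+* K[X])).natDegree ≤ n := by
    refine (natDegree_sub_le _ _).trans (max_le ?_ ?_)
    · exact (natDegree_C_mul_le _ _).trans ((natDegree_map_le.trans natDegree_map_le).trans hQ)
    · exact (natDegree_map_le.trans natDegree_map_le).trans hP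
  have hs' : ((F.map φ).map (C : K →+* K[X])).Splits := hs.map _
  rw [h1, ← hfd, resultant_eq_prod_eval _ _ n hgd hs', (hm.map _).leadingCoeff, one_pow, one_mul]
  have hr : ((F.map φ).map (C : K →+* K[X])).roots = (F.map φ).roots.map (C : K →+* K[X]) := by
    symm
    apply roots_map_of_injective_of_card_eq_natDegree (C_injective)
    exact hs.natDegree_eq_card_roots.symm
  rw [hr, Multiset.map_map]
  congr 1
  apply Multiset.map_congr rfl
  intro z _
  simp only [Function.comp_apply, eval_sub, eval_mul, eval_C, eval_map_apply]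
  rw [mul_comm]

end char

section roots

/-- the coefficients of a monic polynomial are bounded by its roots -/
theorem coeff_le (s : Multiset ℂ) {G : ℝ} (hG : ∀ g ∈ s, ‖g‖ ≤ G) {j : ℕ}
    (hj : j ≤ Multiset.card s) :
    ‖(s.map fun g => X - C g).prod.coeff (Multiset.card s - j)‖ ≤
      2 ^ Multiset.card s * G ^ j := by
  classical
  have hm : (s.map fun g => X - C g).prod.Monic := monic_multiset_prod_of_monic _ _
    fun g _ => monic_X_sub_C g
  have hd : (s.map fun g => X - C g).prod.natDegree = Multiset.card s :=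
    natDegree_multiset_prod_X_sub_C_eq_card s
  have hs : ((s.map fun g => X - C g).prod.map (RingHom.id ℂ)).Splits :=
    IsAlgClosed.splits _
  have h := coeff_le_of_roots_le (f := RingHom.id ℂ) (B := G) (Multiset.card s - j) hm hs (by
    intro z hz
    rw [Polynomial.map_id, roots_multiset_prod_X_sub_C] at hz
    exact hG z hz)
  rw [Polynomial.map_id, hd, Nat.sub_sub_self hj] at h
  refine h.trans ?_
  have h0 : 0 ≤ G ^ j := by
    rcases Multiset.empty_or_exists_mem s with h1 | ⟨g, hg⟩
    · subst h1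
      simp only [Multiset.card_zero, nonpos_iff_eq_zero] at hj
      subst hj
      simp
    · exact pow_nonneg ((norm_nonneg g).trans (hG g hg)) _
  rw [mul_comm]
  refine mul_le_mul_of_nonneg_right ?_ h0
  exact_mod_cast Nat.choose_le_two_pow _ _

/-- every root is bounded by the coefficients -/
theorem exists_coeff_ge (s : Multiset ℂ) {g : ℂ} (hg : g ∈ s) :
    ∃ j, 1 ≤ j ∧ j ≤ Multiset.card s ∧
      (‖g‖ / 2) ^ j ≤ ‖(s.map fun g => X - C g).prod.coeff (Multiset.card s - j)‖ := by
  classical
  set p := (s.map fun g => X - C g).prod with hp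
  have hm : p.Monic := monic_multiset_prod_of_monic _ _ fun g _ => monic_X_sub_C g
  have hd : p.natDegree = Multiset.card s := natDegree_multiset_prod_X_sub_C_eq_card s
  have hc : 1 ≤ Multiset.card s := Multiset.card_pos_iff_exists_mem.2 ⟨g, hg⟩
  by_contra hcon
  push Not at hcon
  have hg0 : g ≠ 0 := by
    rintro rfl
    have := hcon 1 le_rfl hc
    simp only [norm_zero, zero_div, pow_one] at this
    exact absurd this (not_lt.2 (norm_nonneg _))
  have hgp : 0 < ‖g‖ := norm_pos_iff.2 hg0
  have h0 : p.eval g = 0 := by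
    rw [hp, eval_multiset_prod, Multiset.map_map]
    apply Multiset.prod_eq_zero
    rw [Multiset.mem_map]
    exact ⟨g, hg, by simp⟩
  set d := Multiset.card s with hdd
  rw [eval_eq_sum_range, hd, Finset.sum_range_succ] at h0
  have hlead : p.coeff d = 1 := by
    rw [← hd]
    exact hm.coeff_natDegree
  rw [hlead, one_mul] at h0
  have h1 : ‖g‖ ^ d ≤ ∑ i ∈ Finset.range d, ‖p.coeff i‖ * ‖g‖ ^ i := by
    have h2 : g ^ d = -∑ i ∈ Finset.range d, p.coeff i * g ^ i := by
      linear_combination h0
    rw [← norm_pow, h2, norm_neg]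
    refine (norm_sum_le _ _).trans (Finset.sum_le_sum fun i _ => ?_)
    rw [norm_mul, norm_pow]
  have h3 : ∑ i ∈ Finset.range d, ‖p.coeff i‖ * ‖g‖ ^ i <
      ∑ i ∈ Finset.range d, (1 / 2) ^ (d - i) * ‖g‖ ^ d := by
    apply Finset.sum_lt_sum_of_nonempty (Finset.nonempty_range_iff.2 (by omega))
    intro i hi
    rw [Finset.mem_range] at hi
    have h4 := hcon (d - i) (by omega) (by omega)
    rw [Nat.sub_sub_self hi.le] at h4
    calc ‖p.coeff i‖ * ‖g‖ ^ i < (‖g‖ / 2) ^ (d - i) * ‖g‖ ^ i :=
          mul_lt_mul_of_pos_right h4 (pow_pos hgp _)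
      _ = (1 / 2) ^ (d - i) * ‖g‖ ^ d := by
          rw [div_eq_mul_one_div, mul_pow]
          have : ‖g‖ ^ d = ‖g‖ ^ (d - i) * ‖g‖ ^ i := by
            rw [← pow_add, Nat.sub_add_cancel hi.le]
          rw [this]
          ring
  have h5 : ∑ i ∈ Finset.range d, ((1 : ℝ) / 2) ^ (d - i) * ‖g‖ ^ d ≤ ‖g‖ ^ d := by
    rw [← Finset.sum_mul]
    refine mul_le_of_le_one_left (pow_nonneg (norm_nonneg _) _) ?_
    have h6 : ∀ n : ℕ, ∑ i ∈ Finset.range n, ((1 : ℝ) / 2) ^ (n - i) = 1 - (1 / 2) ^ n := by
      intro n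
      induction n with
      | zero => simp
      | succ n ih =>
        rw [Finset.sum_range_succ]
        have h7 : ∑ i ∈ Finset.range n, ((1 : ℝ) / 2) ^ (n + 1 - i) =
            (1 / 2) * ∑ i ∈ Finset.range n, ((1 : ℝ) / 2) ^ (n - i) := by
          rw [Finset.mul_sum]
          apply Finset.sum_congr rfl
          intro i hi
          rw [Finset.mem_range] at hi
          rw [show n + 1 - i = (n - i) + 1 by omega, pow_succ]
          ring
        rw [h7, ih, show n + 1 - n = 1 by omega]
        ring
    rw [h6]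
    have : (0 : ℝ) ≤ (1 / 2) ^ d := by positivity
    linarith
  linarith

end roots

section bound

variable {A : Type*} [CommRing A]

/-- `∏ (q_s X - p_s) = (∏ q_s) ∏ (X - p_s / q_s)` -/
theorem prod_factor (s : Multiset ℂ) (p q : ℂ → ℂ) (hq : ∀ z ∈ s, q z ≠ 0) :
    (s.map fun z => C (q z) * X - C (p z)).prod =
      C (s.map q).prod * (s.map fun z => X - C (p z / q z)).prod := by
  classical
  induction s using Multiset.induction_on with
  | empty => simp
  | cons a s ih =>
    rw [Multiset.map_cons, Multiset.prod_cons, ih fun z hz => hq z (Multiset.mem_cons_of_mem hz),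
      Multiset.map_cons, Multiset.prod_cons, Multiset.map_cons, Multiset.prod_cons, C_mul]
    have ha := hq a (Multiset.mem_cons_self a s)
    have : (C (q a) * X - C (p a) : ℂ[X]) = C (q a) * (X - C (p a / q a)) := by
      rw [mul_sub, ← C_mul, mul_div_cancel₀ _ ha]
    rw [this]
    ring

/-- **two-sided bound.**  `F` monic, `g = P(z)/Q(z)` on the roots of `F`: with
`H = Res_X (F, T Q - P) = ∑ h_i T^i` (so `h_d = Res (F, Q)`), for every point `φ` with
`φ h_d ≠ 0`: `|h_(d-j)/h_d| ≤ 2^d G^j` if all `|g| ≤ G`, and every `|g|` satisfies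
`(|g|/2)^j ≤ |h_(d-j)/h_d|` for some `1 ≤ j ≤ d`. -/
theorem H_bound (F P Q : A[X]) (hF : F.Monic) {n : ℕ} (hP : P.natDegree ≤ n)
    (hQ : Q.natDegree ≤ n) (φ : A →+* ℂ) (hne : φ ((H F P Q n).coeff F.natDegree) ≠ 0) :
    (∀ z ∈ (F.map φ).roots, (Q.map φ).eval z ≠ 0) ∧
    (∀ G : ℝ, (∀ z ∈ (F.map φ).roots, ‖(P.map φ).eval z / (Q.map φ).eval z‖ ≤ G) →
      ∀ j ≤ F.natDegree, ‖φ ((H F P Q n).coeff (F.natDegree - j))‖ ≤
        2 ^ F.natDegree * G ^ j * ‖φ ((H F P Q n).coeff F.natDegree)‖) ∧
    ∀ z ∈ (F.map φ).roots, ∃ j, 1 ≤ j ∧ j ≤ F.natDegree ∧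
      (‖(P.map φ).eval z / (Q.map φ).eval z‖ / 2) ^ j *
        ‖φ ((H F P Q n).coeff F.natDegree)‖ ≤ ‖φ ((H F P Q n).coeff (F.natDegree - j))‖ := by
  classical
  have hs : (F.map φ).Splits := IsAlgClosed.splits _
  have hH := H_map F P Q hF hP hQ φ hs
  set R := (F.map φ).roots with hR
  have hcard : Multiset.card R = F.natDegree := by
    rw [hR, ← hs.natDegree_eq_card_roots, hF.natDegree_map]
  have hcoeff : ∀ i, φ ((H F P Q n).coeff i) =
      (R.map fun z => C ((Q.map φ).eval z) * X - C ((P.map φ).eval z)).prod.coeff i := by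
    intro i
    rw [← hH, coeff_map]
  -- leading coefficient
  have hlc : φ ((H F P Q n).coeff F.natDegree) = (R.map fun z => (Q.map φ).eval z).prod := by
    rw [hcoeff, ← hcard]
    clear hcoeff hH hcard hne
    clear_value R
    clear hR
    induction R using Multiset.induction_on with
    | empty => simp
    | cons a s ih =>
      rw [Multiset.map_cons, Multiset.prod_cons, Multiset.map_cons, Multiset.prod_cons,
        Multiset.card_cons, sub_mul, coeff_sub, mul_assoc, coeff_C_mul, coeff_X_mul, coeff_C_mul,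
        ih]
      have hdeg : (s.map fun z => C ((Q.map φ).eval z) * X - C ((P.map φ).eval z)).prod.natDegree
          < Multiset.card s + 1 := by
        refine lt_of_le_of_lt (natDegree_multiset_prod_le _) ?_
        rw [Multiset.map_map, Nat.lt_succ_iff]
        refine (Multiset.sum_map_le_sum_map (g := fun _ => 1) _ fun z _ => ?_).trans (by simp)
        simp only [Function.comp_apply]
        compute_degree
      rw [coeff_eq_zero_of_natDegree_lt hdeg, mul_zero, sub_zero]
  have hq : ∀ z ∈ R, (Q.map φ).eval z ≠ 0 := by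
    intro z hz h0
    apply hne
    rw [hlc]
    apply Multiset.prod_eq_zero
    rw [Multiset.mem_map]
    exact ⟨z, hz, h0⟩
  have hfac := prod_factor R (fun z => (P.map φ).eval z) (fun z => (Q.map φ).eval z) hq
  have hfac' : ∀ i, φ ((H F P Q n).coeff i) = φ ((H F P Q n).coeff F.natDegree) *
      ((R.map fun z => (P.map φ).eval z / (Q.map φ).eval z).map fun g => X - C g).prod.coeff i := by
    intro i
    rw [hcoeff i, hfac, coeff_C_mul, hlc, Multiset.map_map]
    rfl
  have hcard' : Multiset.card (R.map fun z => (P.map φ).eval z / (Q.map φ).eval z) =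
      F.natDegree := by rw [Multiset.card_map, hcard]
  refine ⟨hq, fun G hG j hj => ?_, fun z hz => ?_⟩
  · rw [hfac' (F.natDegree - j), norm_mul, mul_comm]
    refine mul_le_mul_of_nonneg_right ?_ (norm_nonneg _)
    have := coeff_le (R.map fun z => (P.map φ).eval z / (Q.map φ).eval z) (G := G) (by
      intro g hg
      rw [Multiset.mem_map] at hg
      obtain ⟨z, hz, rfl⟩ := hg
      exact hG z hz) (j := j) (by rw [hcard']; exact hj)
    rwa [hcard'] at this
  · obtain ⟨j, h1, h2, h3⟩ := exists_coeff_ge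
      (R.map fun z => (P.map φ).eval z / (Q.map φ).eval z)
      (g := (P.map φ).eval z / (Q.map φ).eval z) (Multiset.mem_map_of_mem _ hz)
    rw [hcard'] at h2 h3
    refine ⟨j, h1, h2, ?_⟩
    rw [hfac' (F.natDegree - j), norm_mul, mul_comm]
    exact mul_le_mul_of_nonneg_left h3 (norm_nonneg _)

end bound

end Crest.Agent.R281.GT_639
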