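import Crest.Agent.R281.GT1_639

/-!
Row 281, glue DIV 2 -> DIV 3 (helper639).  Part 2: rational functions on the sheets of a prime monic
polynomial `F` over a domain `A`, as functions of a point `φ : A →+* ℂ` and a root `z` of `F_φ`.
-/

set_option autoImplicit false

open Polynomial

noncomputable section

namespace Crest.Agent.R281.GT_639

variable {A : Type*} [CommRing A] [IsDomain A] {F : A[X]}

/-- a monic prime polynomial over a domain stays irreducible over the fraction field -/
theorem irr_of_prime (hm : F.Monic) (hp : Prime F) :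
    Irreducible (F.map (algebraMap A (FractionRing A))) := by
  classical
  set K := FractionRing A
  have hinj : Function.Injective (algebraMap A K) := IsFractionRing.injective A K
  have hF0 : 0 < F.natDegree := by
    rcases Nat.eq_zero_or_pos F.natDegree with h | h
    · exact absurd (by rw [hm.natDegree_eq_zero.1 h]; exact isUnit_one) hp.not_isUnit
    · exact h
  have hmK : (F.map (algebraMap A K)).Monic := hm.map _
  rw [hmK.irreducible_iff_natDegree']
  refine ⟨?_, ?_⟩
  · intro h
    have := congrArg natDegree h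
    rw [hm.natDegree_map, natDegree_one] at this
    omega
  · intro G H hG hH hGH hmem
    rw [Finset.mem_Ioc, hm.natDegree_map] at hmem
    obtain ⟨b, hb0, hb⟩ := IsLocalization.integerNormalization_spec
      (nonZeroDivisors A) G
    obtain ⟨c, hc0, hc⟩ := IsLocalization.integerNormalization_spec
      (nonZeroDivisors A) H
    set G' := IsLocalization.integerNormalization (nonZeroDivisors A) G
    set H' := IsLocalization.integerNormalization (nonZeroDivisors A) H
    have hb0' : b ≠ 0 := nonZeroDivisors.ne_zero hb0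
    have hc0' : c ≠ 0 := nonZeroDivisors.ne_zero hc0
    have hb' : G'.map (algebraMap A K) = C (algebraMap A K b) * G := by
      rw [hb, ← smul_eq_C_mul, algebraMap_smul]
    have hc' : H'.map (algebraMap A K) = C (algebraMap A K c) * H := by
      rw [hc, ← smul_eq_C_mul, algebraMap_smul]
    have h1 : G' * H' = C (b * c) * F := by
      apply map_injective (algebraMap A K) hinj
      rw [Polynomial.map_mul, hb', hc', Polynomial.map_mul, map_C, map_mul, C_mul]
      linear_combination (C (algebraMap A K b) * C (algebraMap A K c)) * hGH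
    have hdG : G'.natDegree = G.natDegree := by
      rw [← natDegree_map_eq_of_injective hinj, hb', natDegree_C_mul]
      simpa using hb0'
    have hdH : H'.natDegree = H.natDegree := by
      rw [← natDegree_map_eq_of_injective hinj, hc', natDegree_C_mul]
      simpa using hc0'
    have hsum : G.natDegree + H.natDegree = F.natDegree := by
      rw [← hm.natDegree_map (algebraMap A K), ← hGH, hG.natDegree_mul hH]
    have hd : F ∣ G' * H' := ⟨C (b * c), by rw [h1]; ring⟩
    have hG'0 : G' ≠ 0 := by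
      intro h0
      have := congrArg (map (algebraMap A K)) h0
      rw [hb', Polynomial.map_zero, mul_eq_zero, C_eq_zero] at this
      rcases this with h | h
      · exact hb0' (by simpa using h)
      · exact hG.ne_zero h
    have hH'0 : H' ≠ 0 := by
      intro h0
      have := congrArg (map (algebraMap A K)) h0
      rw [hc', Polynomial.map_zero, mul_eq_zero, C_eq_zero] at this
      rcases this with h | h
      · exact hc0' (by simpa using h)
      · exact hH.ne_zero h
    rcases hp.dvd_or_dvd hd with h | h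
    · have := natDegree_le_of_dvd h hG'0
      omega
    · have := natDegree_le_of_dvd h hH'0
      omega

theorem dvd_of_resultant_eq_zero (hm : F.Monic) (hp : Prime F) {Q : A[X]}
    (h : resultant F Q = 0) : F ∣ Q := by
  classical
  set K := FractionRing A
  have hinj : Function.Injective (algebraMap A K) := IsFractionRing.injective A K
  have h1 : resultant (F.map (algebraMap A K)) (Q.map (algebraMap A K)) = 0 := by
    rw [natDegree_map_eq_of_injective hinj, natDegree_map_eq_of_injective hinj,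
      resultant_map_map, h, map_zero]
  rw [resultant_eq_zero_iff] at h1
  have h2 : F.map (algebraMap A K) ∣ Q.map (algebraMap A K) := by
    by_contra hcon
    exact h1.2 ((irr_of_prime hm hp).coprime_iff_not_dvd.2 hcon)
  exact (map_dvd_map _ hinj hm).1 h2

omit [IsDomain A] in
theorem eval_ne_zero (hm : F.Monic) {Q : A[X]} (φ : A →+* ℂ) (h : φ (resultant F Q) ≠ 0) {z : ℂ}
    (hz : (F.map φ).eval z = 0) : (Q.map φ).eval z ≠ 0 := by
  intro h0
  apply h
  rw [← resultant_map_map, ← hm.natDegree_map φ,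
    resultant_eq_prod_eval _ _ _ natDegree_map_le (IsAlgClosed.splits _)]
  rw [mul_eq_zero]
  right
  apply Multiset.prod_eq_zero
  rw [Multiset.mem_map]
  exact ⟨z, (mem_roots (hm.map φ).ne_zero).2 hz, h0⟩

/-- `g` is a rational function on the sheets of `F` (off one hypersurface of the base) -/
def RS (F : A[X]) (g : (A →+* ℂ) → ℂ → ℂ) : Prop :=
  ∃ (P Q : A[X]) (q : A), ¬ F ∣ Q ∧ q ≠ 0 ∧ ∀ φ : A →+* ℂ, φ q ≠ 0 → ∀ z : ℂ,
    (F.map φ).eval z = 0 → (Q.map φ).eval z ≠ 0 ∧ g φ z = (P.map φ).eval z / (Q.map φ).eval z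

namespace RS

variable {g h : (A →+* ℂ) → ℂ → ℂ}

theorem congr (hg : RS F g) {q : A} (hq : q ≠ 0) (hh : ∀ φ : A →+* ℂ, φ q ≠ 0 → ∀ z : ℂ,
    (F.map φ).eval z = 0 → h φ z = g φ z) : RS F h := by
  obtain ⟨P, Q, q', hQ, hq', H⟩ := hg
  refine ⟨P, Q, q' * q, hQ, mul_ne_zero hq' hq, fun φ hφ z hz => ?_⟩
  rw [map_mul] at hφ
  obtain ⟨h1, h2⟩ := H φ (left_ne_zero_of_mul hφ) z hz
  exact ⟨h1, by rw [hh φ (right_ne_zero_of_mul hφ) z hz, h2]⟩

theorem poly (hp : Prime F) (P : A[X]) : RS F fun φ z => (P.map φ).eval z := by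
  refine ⟨P, 1, 1, fun h => hp.not_isUnit (isUnit_of_dvd_one h), one_ne_zero, fun φ _ z _ => ?_⟩
  simp

theorem const (hp : Prime F) (a : A) : RS F fun φ _ => φ a := by
  refine (poly hp (C a)).congr (one_ne_zero) fun φ _ z _ => ?_
  simp

theorem var (hp : Prime F) : RS F fun _ z => z := by
  refine (poly hp X).congr (one_ne_zero) fun φ _ z _ => ?_
  simp

theorem mul (hp : Prime F) (hg : RS F g) (hh : RS F h) : RS F fun φ z => g φ z * h φ z := by
  obtain ⟨P, Q, q, hQ, hq, H⟩ := hg
  obtain ⟨P', Q', q', hQ', hq', H'⟩ := hh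
  refine ⟨P * P', Q * Q', q * q', fun hd => ?_, mul_ne_zero hq hq', fun φ hφ z hz => ?_⟩
  · rcases hp.dvd_or_dvd hd with h | h
    · exact hQ h
    · exact hQ' h
  · rw [map_mul] at hφ
    obtain ⟨h1, h2⟩ := H φ (left_ne_zero_of_mul hφ) z hz
    obtain ⟨h1', h2'⟩ := H' φ (right_ne_zero_of_mul hφ) z hz
    simp only [Polynomial.map_mul, eval_mul]
    exact ⟨mul_ne_zero h1 h1', by rw [h2, h2', div_mul_div_comm]⟩

theorem add (hp : Prime F) (hg : RS F g) (hh : RS F h) : RS F fun φ z => g φ z + h φ z := by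
  obtain ⟨P, Q, q, hQ, hq, H⟩ := hg
  obtain ⟨P', Q', q', hQ', hq', H'⟩ := hh
  refine ⟨P * Q' + P' * Q, Q * Q', q * q', fun hd => ?_, mul_ne_zero hq hq', fun φ hφ z hz => ?_⟩
  · rcases hp.dvd_or_dvd hd with h | h
    · exact hQ h
    · exact hQ' h
  · rw [map_mul] at hφ
    obtain ⟨h1, h2⟩ := H φ (left_ne_zero_of_mul hφ) z hz
    obtain ⟨h1', h2'⟩ := H' φ (right_ne_zero_of_mul hφ) z hz
    simp only [Polynomial.map_mul, Polynomial.map_add, eval_mul, eval_add]
    refine ⟨mul_ne_zero h1 h1', ?_⟩
    rw [h2, h2', div_add_div _ _ h1 h1']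
    congr 1
    ring

omit [IsDomain A] in
theorem neg (hg : RS F g) : RS F fun φ z => -g φ z := by
  obtain ⟨P, Q, q, hQ, hq, H⟩ := hg
  refine ⟨-P, Q, q, hQ, hq, fun φ hφ z hz => ?_⟩
  obtain ⟨h1, h2⟩ := H φ hφ z hz
  refine ⟨h1, ?_⟩
  show -g φ z = _
  rw [h2, Polynomial.map_neg, eval_neg, neg_div]

theorem sub (hp : Prime F) (hg : RS F g) (hh : RS F h) : RS F fun φ z => g φ z - h φ z := by
  simpa [sub_eq_add_neg] using hg.add hp hh.neg

theorem sum (hp : Prime F) {ι : Type*} (s : Finset ι) {g : ι → (A →+* ℂ) → ℂ → ℂ}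
    (hg : ∀ i ∈ s, RS F (g i)) : RS F fun φ z => ∑ i ∈ s, g i φ z := by
  classical
  induction s using Finset.induction_on with
  | empty => simpa using const hp (0 : A)
  | insert a s ha ih =>
    have := (hg a (Finset.mem_insert_self a s)).add hp
      (ih fun i hi => hg i (Finset.mem_insert_of_mem hi))
    refine this.congr one_ne_zero fun φ _ z _ => ?_
    rw [Finset.sum_insert ha]

theorem prod (hp : Prime F) {ι : Type*} (s : Finset ι) {g : ι → (A →+* ℂ) → ℂ → ℂ}
    (hg : ∀ i ∈ s, RS F (g i)) : RS F fun φ z => ∏ i ∈ s, g i φ z := by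
  classical
  induction s using Finset.induction_on with
  | empty => simpa using const hp (1 : A)
  | insert a s ha ih =>
    have := (hg a (Finset.mem_insert_self a s)).mul hp
      (ih fun i hi => hg i (Finset.mem_insert_of_mem hi))
    refine this.congr one_ne_zero fun φ _ z _ => ?_
    rw [Finset.prod_insert ha]

theorem pow (hp : Prime F) (hg : RS F g) (k : ℕ) : RS F fun φ z => g φ z ^ k := by
  simpa using prod hp (Finset.range k) (g := fun _ => g) fun _ _ => hg

theorem det (hp : Prime F) {ι : Type*} [Fintype ι] [DecidableEq ι]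
    {g : ι → ι → (A →+* ℂ) → ℂ → ℂ} (hg : ∀ i j, RS F (g i j)) :
    RS F fun φ z => (Matrix.of fun i j => g i j φ z).det := by
  have h1 := sum hp (Finset.univ : Finset (Equiv.Perm ι))
    (g := fun σ φ z => ((Equiv.Perm.sign σ : ℤ) : ℂ) * ∏ i, g (σ i) i φ z) fun σ _ => by
      have h2 := prod hp (Finset.univ : Finset ι) (g := fun i => g (σ i) i) fun i _ => hg _ _
      have h3 := (const hp (((Equiv.Perm.sign σ : ℤ) : A))).mul hp h2
      refine h3.congr one_ne_zero fun φ _ z _ => ?_
      simp
  refine h1.congr one_ne_zero fun φ _ z _ => ?_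
  rw [Matrix.det_apply']
  rfl

/-- evaluation of a polynomial with coefficients in `A` at rational functions -/
theorem mvpoly (hp : Prime F) {σ : Type*} (p : MvPolynomial σ A)
    {v : σ → (A →+* ℂ) → ℂ → ℂ} (hv : ∀ i, RS F (v i)) :
    RS F fun φ z => p.eval₂ φ fun i => v i φ z := by
  classical
  induction p using MvPolynomial.induction_on with
  | C a =>
    refine (const hp a).congr one_ne_zero fun φ _ z _ => ?_
    simp
  | add p q hp' hq' =>
    refine (hp'.add hp hq').congr one_ne_zero fun φ _ z _ => ?_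
    simp
  | mul_X p i hp' =>
    refine (hp'.mul hp (hv i)).congr one_ne_zero fun φ _ z _ => ?_
    simp

/-- inverses -/
theorem inv (hm : F.Monic) (hp : Prime F) (hg : RS F g)
    (hne : ∀ q : A, q ≠ 0 → ∃ φ : A →+* ℂ, φ q ≠ 0 ∧ ∃ z, (F.map φ).eval z = 0 ∧ g φ z ≠ 0) :
    RS F fun φ z => (g φ z)⁻¹ := by
  obtain ⟨P, Q, q, hQ, hq, H⟩ := hg
  have hP : ¬ F ∣ P := by
    intro hd
    obtain ⟨φ, hφ, z, hz, hgz⟩ := hne q hq
    obtain ⟨h1, h2⟩ := H φ hφ z hz
    apply hgz
    obtain ⟨S, rfl⟩ := hd
    rw [h2, Polynomial.map_mul, eval_mul, hz, zero_mul, zero_div]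
  have hP' : resultant F P ≠ 0 := fun h => hP (dvd_of_resultant_eq_zero hm hp h)
  refine ⟨Q, P, q * resultant F P, hP, mul_ne_zero hq hP', fun φ hφ z hz => ?_⟩
  rw [map_mul] at hφ
  obtain ⟨h1, h2⟩ := H φ (left_ne_zero_of_mul hφ) z hz
  refine ⟨eval_ne_zero hm φ (right_ne_zero_of_mul hφ) hz, ?_⟩
  show (g φ z)⁻¹ = _
  rw [h2, inv_div]

/-- inverse of a polynomial not divisible by `F` -/
theorem inv_poly (hm : F.Monic) (hp : Prime F) {Q : A[X]} (hQ : ¬ F ∣ Q) :
    RS F fun φ z => ((Q.map φ).eval z)⁻¹ := by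
  have hQ' : resultant F Q ≠ 0 := fun h => hQ (dvd_of_resultant_eq_zero hm hp h)
  refine ⟨1, Q, resultant F Q, hQ, hQ', fun φ hφ z hz => ?_⟩
  refine ⟨eval_ne_zero hm φ hφ hz, ?_⟩
  simp

end RS

end Crest.Agent.R281.GT_639
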