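import Crest.Agent.R281.GT2_639

/-!
Row 281, glue DIV 2 -> DIV 3 (helper639).  Part 3: points of `MvPolynomial (Fin n) R`, derivatives of
functions on the sheets.
-/

set_option autoImplicit false

open Polynomial

noncomputable section

namespace Crest.Agent.R281.GT_639

variable {n : ℕ} {R : Type*} [CommRing R]

/-- the linear form with coefficients `c` -/
def lf (c : Fin n → ℂ) : (Fin n → ℂ) →L[ℂ] ℂ :=
  ∑ i, c i • (ContinuousLinearMap.proj i : (Fin n → ℂ) →L[ℂ] ℂ)

@[simp] theorem lf_apply (c v : Fin n → ℂ) : lf c v = ∑ i, c i * v i := by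
  simp [lf]

theorem lf_inj {c d : Fin n → ℂ} (h : lf c = lf d) : c = d := by
  classical
  funext i
  have := congrArg (fun L : (Fin n → ℂ) →L[ℂ] ℂ => L (Pi.single i 1)) h
  simpa [Pi.single_apply] using this

theorem eq_lf (L : (Fin n → ℂ) →L[ℂ] ℂ) : L = lf fun i => L (Pi.single i 1) := by
  classical
  apply ContinuousLinearMap.ext
  intro v
  rw [lf_apply]
  conv_lhs => rw [show v = ∑ i, v i • Pi.single i (1 : ℂ) by
    funext j
    simp [Finset.sum_apply, Pi.single_apply]]
  rw [map_sum]
  apply Finset.sum_congr rfl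
  intro i _
  rw [map_smul, smul_eq_mul, mul_comm]

/-- the point of `R[y]` given by a point `e` of `R` and `y ∈ ℂⁿ` -/
def ph (e : R →+* ℂ) (y : Fin n → ℂ) : MvPolynomial (Fin n) R →+* ℂ :=
  MvPolynomial.eval₂Hom e y

@[simp] theorem ph_C (e : R →+* ℂ) (y : Fin n → ℂ) (r : R) : ph e y (MvPolynomial.C r) = e r := by
  simp [ph]

@[simp] theorem ph_X (e : R →+* ℂ) (y : Fin n → ℂ) (i : Fin n) :
    ph e y (MvPolynomial.X i) = y i := by
  simp [ph]

theorem ph_hasFDerivAt (e : R →+* ℂ) (p : MvPolynomial (Fin n) R) (y : Fin n → ℂ) :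
    HasFDerivAt (fun y => ph e y p)
      (lf fun i => ph e y (MvPolynomial.pderiv i p)) y := by
  classical
  induction p using MvPolynomial.induction_on with
  | C a =>
    have h1 : (fun y : Fin n → ℂ => ph e y (MvPolynomial.C a)) = fun _ => e a := by
      funext y
      simp
    rw [h1]
    refine (hasFDerivAt_const (e a) y).congr_fderiv ?_
    ext v
    simp
  | add p q hp hq =>
    have h1 : (fun y : Fin n → ℂ => ph e y (p + q)) = fun y => ph e y p + ph e y q := by
      funext y
      simp
    rw [h1]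
    refine (hp.fun_add hq).congr_fderiv ?_
    apply ContinuousLinearMap.ext
    intro v
    simp [add_mul, Finset.sum_add_distrib]
  | mul_X p j hp =>
    have h2 : HasFDerivAt (fun y : Fin n → ℂ => y j)
        (ContinuousLinearMap.proj j : (Fin n → ℂ) →L[ℂ] ℂ) y :=
      (ContinuousLinearMap.proj j : (Fin n → ℂ) →L[ℂ] ℂ).hasFDerivAt
    have h1 : (fun y : Fin n → ℂ => ph e y (p * MvPolynomial.X j)) = fun y => ph e y p * y j := by
      funext y
      simp
    rw [h1]
    refine (hp.fun_mul h2).congr_fderiv ?_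
    apply ContinuousLinearMap.ext
    intro v
    simp only [_root_.add_apply, _root_.smul_apply, lf_apply,
      ContinuousLinearMap.proj_apply, smul_eq_mul, MvPolynomial.pderiv_mul,
      MvPolynomial.pderiv_X, map_add, map_mul, ph_X]
    simp only [add_mul, Finset.sum_add_distrib]
    rw [add_comm]
    congr 1
    · rw [Finset.mul_sum]
      apply Finset.sum_congr rfl
      intro i _
      ring
    · rw [Finset.sum_eq_single j]
      · simp
      · intro b _ hb
        rw [Pi.single_eq_of_ne (Ne.symm hb), map_zero, mul_zero, zero_mul]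
      · simp

/-- the coefficientwise partial derivative -/
def Dc (i : Fin n) (P : (MvPolynomial (Fin n) R)[X]) : (MvPolynomial (Fin n) R)[X] :=
  ∑ k ∈ Finset.range (P.natDegree + 1), monomial k (MvPolynomial.pderiv i (P.coeff k))

theorem Dc_coeff (i : Fin n) (P : (MvPolynomial (Fin n) R)[X]) (k : ℕ) :
    (Dc i P).coeff k = MvPolynomial.pderiv i (P.coeff k) := by
  classical
  rw [Dc, finsetSum_coeff]
  simp only [coeff_monomial]
  rw [Finset.sum_ite_eq']
  split_ifs with h
  · rfl
  · rw [Finset.mem_range, not_lt] at h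
    rw [coeff_eq_zero_of_natDegree_lt (by omega), map_zero]

theorem eval_map_eq (e : R →+* ℂ) (P : (MvPolynomial (Fin n) R)[X]) {N : ℕ}
    (hN : P.natDegree < N) (y : Fin n → ℂ) (z : ℂ) :
    (P.map (ph e y)).eval z = ∑ k ∈ Finset.range N, ph e y (P.coeff k) * z ^ k := by
  rw [eval_eq_sum_range' (lt_of_le_of_lt natDegree_map_le hN)]
  simp [coeff_map]

/-- derivative of `y ↦ P(y, z(y))` -/
theorem hasFDerivAt_eval (e : R →+* ℂ) (P : (MvPolynomial (Fin n) R)[X]) {z : (Fin n → ℂ) → ℂ}
    {y : Fin n → ℂ} {z' : (Fin n → ℂ) →L[ℂ] ℂ} (hz : HasFDerivAt z z' y) :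
    HasFDerivAt (fun y => (P.map (ph e y)).eval (z y))
      (lf (fun i => ((Dc i P).map (ph e y)).eval (z y)) +
        (P.derivative.map (ph e y)).eval (z y) • z') y := by
  classical
  set N := P.natDegree + 1 with hN
  have h0 : (fun y => (P.map (ph e y)).eval (z y)) =
      fun y => ∑ k ∈ Finset.range N, ph e y (P.coeff k) * z y ^ k := by
    funext y
    exact eval_map_eq e P (Nat.lt_succ_self _) y (z y)
  have h1 : ∀ k ∈ Finset.range N, HasFDerivAt (fun y => ph e y (P.coeff k) * z y ^ k)
      (ph e y (P.coeff k) • ((k • z y ^ (k - 1)) • z') + z y ^ k •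
        (lf fun i => ph e y (MvPolynomial.pderiv i (P.coeff k)))) y := by
    intro k _
    exact (ph_hasFDerivAt e (P.coeff k) y).fun_mul (hz.pow k)
  have h2 := HasFDerivAt.fun_sum h1
  rw [h0]
  refine h2.congr_fderiv ?_
  apply ContinuousLinearMap.ext
  intro v
  have h3 : (P.derivative.map (ph e y)).eval (z y) =
      ∑ k ∈ Finset.range N, ph e y (P.coeff k) * (k * z y ^ (k - 1)) := by
    rw [← derivative_map]
    have h4 := derivative_eval (P.map (ph e y)) (z y)
    rw [h4, Polynomial.sum_over_range' _ _ N (lt_of_le_of_lt natDegree_map_le (by omega))]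
    · apply Finset.sum_congr rfl
      intro k _
      rw [coeff_map]
      ring
    · intro k
      simp
  have h5 : ∀ i, ((Dc i P).map (ph e y)).eval (z y) =
      ∑ k ∈ Finset.range N, ph e y (MvPolynomial.pderiv i (P.coeff k)) * z y ^ k := by
    intro i
    have hd : (Dc i P).natDegree < N := by
      rw [Nat.lt_succ_iff, natDegree_le_iff_coeff_eq_zero]
      intro k hk
      rw [Dc_coeff, coeff_eq_zero_of_natDegree_lt hk, map_zero]
    rw [eval_map_eq e (Dc i P) hd]
    simp only [Dc_coeff]
  simp only [_root_.sum_apply, _root_.add_apply,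
    _root_.smul_apply, lf_apply, smul_eq_mul, nsmul_eq_mul, h3, h5]
  rw [Finset.sum_add_distrib, add_comm]
  congr 1
  · simp only [Finset.sum_mul, Finset.mul_sum]
    rw [Finset.sum_comm]
    apply Finset.sum_congr rfl
    intro i _
    apply Finset.sum_congr rfl
    intro k _
    ring
  · rw [Finset.sum_mul]
    apply Finset.sum_congr rfl
    intro k _
    ring

/-- the total derivative of `P(y,z)` along the sheet: value -/
def TD (F P : (MvPolynomial (Fin n) R)[X]) (i : Fin n) (φ : MvPolynomial (Fin n) R →+* ℂ)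
    (z : ℂ) : ℂ :=
  ((Dc i P).map φ).eval z - (P.derivative.map φ).eval z * ((Dc i F).map φ).eval z *
    ((F.derivative.map φ).eval z)⁻¹

theorem TD_RS [IsDomain R] {F : (MvPolynomial (Fin n) R)[X]} (hm : F.Monic) (hp : Prime F)
    (hs : ¬ F ∣ F.derivative) (P : (MvPolynomial (Fin n) R)[X]) (i : Fin n) :
    RS F (TD F P i) :=
  (RS.poly hp (Dc i P)).sub hp (((RS.poly hp P.derivative).mul hp (RS.poly hp (Dc i F))).mul hp
    (RS.inv_poly hm hp hs))

/-- along a holomorphic sheet `z(y)` of `F` with `F_Z ≠ 0` -/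
theorem hasFDerivAt_sheet (e : R →+* ℂ) (F P : (MvPolynomial (Fin n) R)[X])
    {z : (Fin n → ℂ) → ℂ} {y : Fin n → ℂ} (hz : DifferentiableAt ℂ z y)
    (h0 : ∀ᶠ y' in nhds y, (F.map (ph e y')).eval (z y') = 0)
    (hF : (F.derivative.map (ph e y)).eval (z y) ≠ 0) :
    HasFDerivAt (fun y => (P.map (ph e y)).eval (z y))
      (lf fun i => TD F P i (ph e y) (z y)) y := by
  classical
  have h1 := hasFDerivAt_eval e F hz.hasFDerivAt
  have h2 : HasFDerivAt (fun y => (F.map (ph e y)).eval (z y)) (0 : (Fin n → ℂ) →L[ℂ] ℂ) y := by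
    refine (hasFDerivAt_const (0 : ℂ) y).congr_of_eventuallyEq ?_
    filter_upwards [h0] with y' hy'
    exact hy'
  have h3 := h1.unique h2
  have h4 : ∀ v, fderiv ℂ z y v = -((∑ i, ((Dc i F).map (ph e y)).eval (z y) * v i) *
      ((F.derivative.map (ph e y)).eval (z y))⁻¹) := by
    intro v
    have h5 := congrArg (fun L : (Fin n → ℂ) →L[ℂ] ℂ => L v) h3
    simp only [_root_.add_apply, _root_.smul_apply, lf_apply,
      smul_eq_mul, _root_.zero_apply] at h5
    field_simp
    linear_combination h5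
  refine (hasFDerivAt_eval e P hz.hasFDerivAt).congr_fderiv ?_
  apply ContinuousLinearMap.ext
  intro v
  simp only [_root_.add_apply, _root_.smul_apply, lf_apply,
    smul_eq_mul, h4, TD, sub_mul, Finset.sum_sub_distrib]
  rw [sub_eq_add_neg]
  congr 1
  rw [mul_neg, neg_inj, Finset.sum_mul, Finset.mul_sum]
  apply Finset.sum_congr rfl
  intro i _
  ring

end Crest.Agent.R281.GT_639
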