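import Crest.Agent.R281.GT3_639

/-!
Row 281, glue DIV 2 -> DIV 3 (helper639).  Part 5: the 2-form in the coordinates of a projection.

* `hasFDerivAt_two` : derivative of `P(y(ζ), z(ζ))`
* `hasFDerivAt_td`  : on a solution `F(y(ζ), z(ζ)) = 0` it is `∑ i, TD F P i • dy_i`
* `VK`, `VD`        : the coordinates `v_k = N_k / F'` and their derivatives with respect to `y`
* `SY`              : the matrix of the form; `SY_RS`
* `form_eq`         : `σ_ab = ∑ (SY) ∂_a y_j ∂_b y_j'`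
-/

set_option autoImplicit false

open Polynomial

noncomputable section

namespace Crest.Agent.R281.GT_639

variable {n : ℕ} {R : Type*} [CommRing R]
variable {E : Type*} [NormedAddCommGroup E] [NormedSpace ℂ E]

/-- the covector `∑ c_i dy_i` -/
def lc (c : Fin n → ℂ) (y' : E →L[ℂ] (Fin n → ℂ)) : E →L[ℂ] ℂ := (lf c).comp y'

@[simp] theorem lc_apply (c : Fin n → ℂ) (y' : E →L[ℂ] (Fin n → ℂ)) (v : E) :
    lc c y' v = ∑ i, c i * y' v i := by
  simp [lc]

/-- derivative of `P(y(ζ), z(ζ))` -/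
theorem hasFDerivAt_two (e : R →+* ℂ) (P : (MvPolynomial (Fin n) R)[X]) {y : E → Fin n → ℂ}
    {z : E → ℂ} {ζ : E} {y' : E →L[ℂ] (Fin n → ℂ)} {z' : E →L[ℂ] ℂ} (hy : HasFDerivAt y y' ζ)
    (hz : HasFDerivAt z z' ζ) :
    HasFDerivAt (fun ζ => (P.map (ph e (y ζ))).eval (z ζ))
      (lc (fun i => ((Dc i P).map (ph e (y ζ))).eval (z ζ)) y' +
        (P.derivative.map (ph e (y ζ))).eval (z ζ) • z') ζ := by
  classical
  set N := P.natDegree + 1 with hN
  have h0 : (fun ζ => (P.map (ph e (y ζ))).eval (z ζ)) =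
      fun ζ => ∑ k ∈ Finset.range N, ph e (y ζ) (P.coeff k) * z ζ ^ k := by
    funext ζ
    exact eval_map_eq e P (Nat.lt_succ_self _) (y ζ) (z ζ)
  have h1 : ∀ k ∈ Finset.range N, HasFDerivAt (fun ζ => ph e (y ζ) (P.coeff k) * z ζ ^ k)
      (ph e (y ζ) (P.coeff k) • ((k • z ζ ^ (k - 1)) • z') + z ζ ^ k •
        lc (fun i => ph e (y ζ) (MvPolynomial.pderiv i (P.coeff k))) y') ζ := by
    intro k _
    have hc : HasFDerivAt (fun ζ => ph e (y ζ) (P.coeff k))
        (lc (fun i => ph e (y ζ) (MvPolynomial.pderiv i (P.coeff k))) y') ζ :=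
      (ph_hasFDerivAt e (P.coeff k) (y ζ)).comp ζ hy
    exact hc.fun_mul (hz.pow k)
  have h2 := HasFDerivAt.fun_sum h1
  rw [h0]
  refine h2.congr_fderiv ?_
  apply ContinuousLinearMap.ext
  intro v
  have h3 : (P.derivative.map (ph e (y ζ))).eval (z ζ) =
      ∑ k ∈ Finset.range N, ph e (y ζ) (P.coeff k) * (k * z ζ ^ (k - 1)) := by
    rw [← derivative_map]
    have h4 := derivative_eval (P.map (ph e (y ζ))) (z ζ)
    rw [h4, Polynomial.sum_over_range' _ _ N (lt_of_le_of_lt natDegree_map_le (by omega))]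
    · apply Finset.sum_congr rfl
      intro k _
      rw [coeff_map]
      ring
    · intro k
      simp
  have h5 : ∀ i, ((Dc i P).map (ph e (y ζ))).eval (z ζ) =
      ∑ k ∈ Finset.range N, ph e (y ζ) (MvPolynomial.pderiv i (P.coeff k)) * z ζ ^ k := by
    intro i
    have hd : (Dc i P).natDegree < N := by
      rw [Nat.lt_succ_iff, natDegree_le_iff_coeff_eq_zero]
      intro k hk
      rw [Dc_coeff, coeff_eq_zero_of_natDegree_lt hk, map_zero]
    rw [eval_map_eq e (Dc i P) hd]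
    simp only [Dc_coeff]
  simp only [_root_.sum_apply, _root_.add_apply,
    _root_.smul_apply, lc_apply, smul_eq_mul, nsmul_eq_mul, h3, h5]
  rw [Finset.sum_add_distrib, add_comm]
  congr 1
  · simp only [Finset.sum_mul, Finset.mul_sum]
    rw [Finset.sum_comm]
    apply Finset.sum_congr rfl
    intro i _
    apply Finset.sum_congr rfl
    intro k _
    ring
  · rw [Finset.sum_mul]
    apply Finset.sum_congr rfl
    intro k _
    ring

/-- along a solution `F(y(ζ), z(ζ)) = 0` with `F' ≠ 0` -/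
theorem hasFDerivAt_td (e : R →+* ℂ) (F P : (MvPolynomial (Fin n) R)[X]) {y : E → Fin n → ℂ}
    {z : E → ℂ} {ζ : E} {y' : E →L[ℂ] (Fin n → ℂ)} (hy : HasFDerivAt y y' ζ)
    (hz : DifferentiableAt ℂ z ζ)
    (h0 : ∀ᶠ ζ' in nhds ζ, (F.map (ph e (y ζ'))).eval (z ζ') = 0)
    (hF : (F.derivative.map (ph e (y ζ))).eval (z ζ) ≠ 0) :
    HasFDerivAt (fun ζ => (P.map (ph e (y ζ))).eval (z ζ))
      (lc (fun i => TD F P i (ph e (y ζ)) (z ζ)) y') ζ := by
  classical
  have h1 := hasFDerivAt_two e F hy hz.hasFDerivAt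
  have h2 : HasFDerivAt (fun ζ => (F.map (ph e (y ζ))).eval (z ζ)) (0 : E →L[ℂ] ℂ) ζ := by
    refine (hasFDerivAt_const (0 : ℂ) ζ).congr_of_eventuallyEq ?_
    filter_upwards [h0] with y' hy'
    exact hy'
  have h3 := h1.unique h2
  have h4 : ∀ v, fderiv ℂ z ζ v = -((∑ i, ((Dc i F).map (ph e (y ζ))).eval (z ζ) * y' v i) *
      ((F.derivative.map (ph e (y ζ))).eval (z ζ))⁻¹) := by
    intro v
    have h5 := congrArg (fun L : E →L[ℂ] ℂ => L v) h3
    simp only [_root_.add_apply, _root_.smul_apply, lc_apply,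
      smul_eq_mul, _root_.zero_apply] at h5
    field_simp
    linear_combination h5
  refine (hasFDerivAt_two e P hy hz.hasFDerivAt).congr_fderiv ?_
  apply ContinuousLinearMap.ext
  intro v
  simp only [_root_.add_apply, _root_.smul_apply, lc_apply,
    smul_eq_mul, h4, TD, sub_mul, Finset.sum_sub_distrib]
  rw [sub_eq_add_neg]
  congr 1
  rw [mul_neg, neg_inj, Finset.sum_mul, Finset.mul_sum]
  apply Finset.sum_congr rfl
  intro i _
  ring

/-- the derivative of `z` -/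
theorem fderiv_z (e : R →+* ℂ) (F : (MvPolynomial (Fin n) R)[X]) {y : E → Fin n → ℂ}
    {z : E → ℂ} {ζ : E} {y' : E →L[ℂ] (Fin n → ℂ)} (hy : HasFDerivAt y y' ζ)
    (hz : DifferentiableAt ℂ z ζ)
    (h0 : ∀ᶠ ζ' in nhds ζ, (F.map (ph e (y ζ'))).eval (z ζ') = 0)
    (hF : (F.derivative.map (ph e (y ζ))).eval (z ζ) ≠ 0) {v : E} (hv : y' v = 0) :
    fderiv ℂ z ζ v = 0 := by
  have h1 := hasFDerivAt_td e F X hy hz h0 hF
  have h2 : (fun ζ => ((X : (MvPolynomial (Fin n) R)[X]).map (ph e (y ζ))).eval (z ζ)) = z := by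
    funext ζ
    simp
  rw [h2] at h1
  rw [h1.fderiv]
  simp [hv]

/-! ### the coordinates `v_k = N_k / F'` -/

variable {κ : Type*}

/-- value of the quotient `P / Q` -/
def QV (P Q : (MvPolynomial (Fin n) R)[X]) (φ : MvPolynomial (Fin n) R →+* ℂ) (z : ℂ) : ℂ :=
  (P.map φ).eval z * ((Q.map φ).eval z)⁻¹

/-- total derivative of the quotient `P / Q` -/
def QD (F P Q : (MvPolynomial (Fin n) R)[X]) (i : Fin n) (φ : MvPolynomial (Fin n) R →+* ℂ)
    (z : ℂ) : ℂ :=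
  TD F P i φ z * ((Q.map φ).eval z)⁻¹ -
    (P.map φ).eval z * TD F Q i φ z * (((Q.map φ).eval z)⁻¹ * ((Q.map φ).eval z)⁻¹)

theorem QV_RS [IsDomain R] {F : (MvPolynomial (Fin n) R)[X]} (hm : F.Monic) (hp : Prime F)
    (P : (MvPolynomial (Fin n) R)[X]) {Q : (MvPolynomial (Fin n) R)[X]} (hQ : ¬ F ∣ Q) :
    RS F (QV P Q) := (RS.poly hp P).mul hp (RS.inv_poly hm hp hQ)

theorem QD_RS [IsDomain R] {F : (MvPolynomial (Fin n) R)[X]} (hm : F.Monic) (hp : Prime F)
    (hs : ¬ F ∣ F.derivative) (P : (MvPolynomial (Fin n) R)[X])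
    {Q : (MvPolynomial (Fin n) R)[X]} (hQ : ¬ F ∣ Q) (i : Fin n) : RS F (QD F P Q i) :=
  ((TD_RS hm hp hs P i).mul hp (RS.inv_poly hm hp hQ)).sub hp
    (((RS.poly hp P).mul hp (TD_RS hm hp hs Q i)).mul hp
      ((RS.inv_poly hm hp hQ).mul hp (RS.inv_poly hm hp hQ)))

theorem hasFDerivAt_QV (e : R →+* ℂ) (F P Q : (MvPolynomial (Fin n) R)[X]) {y : E → Fin n → ℂ}
    {z : E → ℂ} {ζ : E} {y' : E →L[ℂ] (Fin n → ℂ)} (hy : HasFDerivAt y y' ζ)
    (hz : DifferentiableAt ℂ z ζ)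
    (h0 : ∀ᶠ ζ' in nhds ζ, (F.map (ph e (y ζ'))).eval (z ζ') = 0)
    (hF : (F.derivative.map (ph e (y ζ))).eval (z ζ) ≠ 0)
    (hQ : (Q.map (ph e (y ζ))).eval (z ζ) ≠ 0) :
    HasFDerivAt (fun ζ => QV P Q (ph e (y ζ)) (z ζ))
      (lc (fun i => QD F P Q i (ph e (y ζ)) (z ζ)) y') ζ := by
  have h1 := hasFDerivAt_td e F P hy hz h0 hF
  have h2 := hasFDerivAt_td e F Q hy hz h0 hF
  have h4 : HasFDerivAt (fun ζ => ((Q.map (ph e (y ζ))).eval (z ζ))⁻¹)
      ((-(((Q.map (ph e (y ζ))).eval (z ζ)) ^ 2)⁻¹) •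
        lc (fun i => TD F Q i (ph e (y ζ)) (z ζ)) y') ζ :=
    (hasDerivAt_inv hQ).comp_hasFDerivAt ζ h2
  have h3 := h1.fun_mul h4
  refine h3.congr_fderiv ?_
  apply ContinuousLinearMap.ext
  intro v
  simp only [_root_.add_apply, _root_.smul_apply, lc_apply, smul_eq_mul, QD, sub_mul,
    Finset.sum_sub_distrib]
  rw [sub_eq_add_neg, add_comm]
  congr 1
  · rw [Finset.mul_sum]
    apply Finset.sum_congr rfl
    intro i _
    ring
  · rw [neg_mul, mul_neg, Finset.mul_sum, Finset.mul_sum, ← Finset.sum_neg_distrib,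
      ← Finset.sum_neg_distrib]
    apply Finset.sum_congr rfl
    intro i _
    field_simp

/-! ### the form -/

variable [Fintype κ]

/-- the coefficients of the form `∑ s_kl dv_k dv_l / v_j^m` in the coordinates `y` -/
def SY (F : (MvPolynomial (Fin n) R)[X]) (Nm : κ → (MvPolynomial (Fin n) R)[X]) (j : κ) (m : ℕ)
    (s : κ → κ → MvPolynomial κ R) (φ : MvPolynomial (Fin n) R →+* ℂ) (z : ℂ) :
    Matrix (Fin n) (Fin n) ℂ :=
  Matrix.of fun a b => ∑ k, ∑ l, (((Nm j).map φ).eval z)⁻¹ ^ m *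
    ((F.derivative.map φ).eval z) ^ m *
    (MvPolynomial.eval₂ (φ.comp MvPolynomial.C) (fun k => QV (Nm k) F.derivative φ z)
      (s k l) * (QD F (Nm k) F.derivative a φ z * QD F (Nm l) F.derivative b φ z))

theorem det_SY_RS [IsDomain R] {F : (MvPolynomial (Fin n) R)[X]} (hm : F.Monic) (hp : Prime F)
    (hs : ¬ F ∣ F.derivative) (Nm : κ → (MvPolynomial (Fin n) R)[X]) {j : κ} (hj : ¬ F ∣ Nm j)
    (m : ℕ) (s : κ → κ → MvPolynomial κ R) :
    RS F fun φ z => (SY F Nm j m s φ z).det := by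
  classical
  refine RS.det hp (g := fun a b φ z => ∑ k, ∑ l, (((Nm j).map φ).eval z)⁻¹ ^ m *
    ((F.derivative.map φ).eval z) ^ m *
    (MvPolynomial.eval₂ (φ.comp MvPolynomial.C) (fun k => QV (Nm k) F.derivative φ z)
      (s k l) * (QD F (Nm k) F.derivative a φ z * QD F (Nm l) F.derivative b φ z)))
    fun a b => ?_
  refine RS.sum hp Finset.univ fun k _ => RS.sum hp Finset.univ fun l _ => ?_
  refine RS.mul hp (RS.mul hp (RS.pow hp (RS.inv_poly hm hp hj) m)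
    (RS.pow hp (RS.poly hp F.derivative) m)) (RS.mul hp ?_ (RS.mul hp ?_ ?_))
  · have h1 := RS.mvpoly hp ((s k l).map (MvPolynomial.C : R →+* MvPolynomial (Fin n) R))
      (v := fun k => QV (Nm k) F.derivative) fun k => QV_RS hm hp (Nm k) hs
    refine h1.congr one_ne_zero fun φ _ z _ => ?_
    rw [MvPolynomial.eval₂_map]
  · exact QD_RS hm hp hs (Nm k) hs a
  · exact QD_RS hm hp hs (Nm l) hs b

theorem sum4 {κ ι : Type*} [Fintype κ] [Fintype ι] (f : κ → κ → ι → ι → ℂ) :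
    ∑ k, ∑ l, ∑ i, ∑ i', f k l i i' = ∑ i', ∑ i, ∑ k, ∑ l, f k l i i' := by
  have h1 : ∀ k, ∑ l, ∑ i, ∑ i', f k l i i' = ∑ i', ∑ i, ∑ l, f k l i i' := by
    intro k
    rw [Finset.sum_comm]
    rw [Finset.sum_congr rfl (fun i _ => Finset.sum_comm)]
    rw [Finset.sum_comm]
  simp only [h1]
  rw [Finset.sum_comm]
  refine Finset.sum_congr rfl fun i' _ => ?_
  rw [Finset.sum_comm]

theorem quad_expand {κ ι : Type*} [Fintype κ] [Fintype ι] (c : ℂ) (E : κ → κ → ℂ)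
    (D : κ → ι → ℂ) (p q : ι → ℂ) :
    c * ∑ k, ∑ l, E k l * ((∑ i, D k i * p i) * ∑ i', D l i' * q i') =
      ∑ i', (∑ i, p i * ∑ k, ∑ l, c * (E k l * (D k i * D l i'))) * q i' := by
  have h1 : ∀ k l, E k l * ((∑ i, D k i * p i) * ∑ i', D l i' * q i') =
      ∑ i, ∑ i', E k l * (D k i * p i * (D l i' * q i')) := by
    intro k l
    rw [Finset.sum_mul_sum, Finset.mul_sum]
    refine Finset.sum_congr rfl fun i _ => ?_
    rw [Finset.mul_sum]
  simp only [h1]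
  rw [sum4]
  rw [Finset.mul_sum]
  refine Finset.sum_congr rfl fun i' _ => ?_
  rw [Finset.mul_sum, Finset.sum_mul]
  refine Finset.sum_congr rfl fun i _ => ?_
  rw [Finset.mul_sum, Finset.mul_sum, Finset.sum_mul]
  refine Finset.sum_congr rfl fun k _ => ?_
  rw [Finset.mul_sum, Finset.mul_sum, Finset.sum_mul]
  refine Finset.sum_congr rfl fun l _ => ?_
  ring

theorem form_eq (F : (MvPolynomial (Fin n) R)[X]) (Nm : κ → (MvPolynomial (Fin n) R)[X]) (j : κ)
    (m : ℕ) (s : κ → κ → MvPolynomial κ R) (e : R →+* ℂ) (y : Fin n → ℂ) (z : ℂ)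
    (y' : Matrix (Fin n) (Fin n) ℂ) (v : κ → ℂ) (v' : κ → Fin n → ℂ)
    (hv : ∀ k, v k = QV (Nm k) F.derivative (ph e y) z)
    (hv' : ∀ k a, v' k a = ∑ i, QD F (Nm k) F.derivative i (ph e y) z * y' i a)
    (hj : v j ≠ 0) (σ : Matrix (Fin n) (Fin n) ℂ)
    (hσ : ∀ a b, v j ^ m * σ a b = ∑ k, ∑ l, MvPolynomial.eval₂ e v (s k l) * (v' k a * v' l b)) :
    σ = y'.transpose * SY F Nm j m s (ph e y) z * y' := by
  classical
  have e1 : (ph e y).comp (MvPolynomial.C : R →+* MvPolynomial (Fin n) R) = e := by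
    ext r
    simp
  have e2 : (fun k => QV (Nm k) F.derivative (ph e y) z) = v := by
    funext k
    rw [hv]
  have e3 : (((Nm j).map (ph e y)).eval z)⁻¹ ^ m * ((F.derivative.map (ph e y)).eval z) ^ m =
      (v j ^ m)⁻¹ := by
    rw [hv j, QV, mul_pow, inv_pow, mul_inv, inv_pow, inv_inv]
  ext a b
  have h1 : σ a b = (v j ^ m)⁻¹ * ∑ k, ∑ l, MvPolynomial.eval₂ e v (s k l) * (v' k a * v' l b) := by
    rw [← hσ, inv_mul_cancel_left₀ (pow_ne_zero m hj)]
  rw [h1]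
  simp only [hv']
  rw [quad_expand]
  simp only [Matrix.mul_apply, Matrix.transpose_apply]
  refine Finset.sum_congr rfl fun i' _ => ?_
  congr 1
  refine Finset.sum_congr rfl fun i _ => ?_
  congr 1
  simp only [SY, Matrix.of_apply, e1, e2, e3]

theorem det_form_eq {y' σ S : Matrix (Fin n) (Fin n) ℂ} (h : σ = y'.transpose * S * y') :
    ‖σ.det‖ = ‖y'.det‖ ^ 2 * ‖S.det‖ := by
  rw [h, Matrix.det_mul, Matrix.det_mul, Matrix.det_transpose, norm_mul, norm_mul]
  ring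

end Crest.Agent.R281.GT_639
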