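import Crest.Agent.R281.Qr1_770
import Crest.Agent.R273.Vm_333

/-!
# Row 281, Q-RAT (helper770), part 2: area formula for holomorphic maps on a complex manifold

`A : Atl n M` with countably many charts, `f : M → Cn n` holomorphic on the open set `W`.
* `jd A f i x` : the (complex) Jacobian determinant of `f` in the chart `i`; `jd_tr`
* `lintegral_vm` : integrals over `M` as sums over the pieces `Dj A i` of the charts
* `area` : `∑_i ∫_{D_i ∩ W} |jd f|² F = ∫ ∑_{x ∈ W, f x = w, jd f x ≠ 0} F x dw`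
* `area_vm` : the same with the measure of a volume form `h`
-/

set_option autoImplicit false
set_option linter.unusedSectionVars false

open Set Filter Topology Complex MeasureTheory
open scoped ContDiff Matrix ComplexConjugate Manifold ENNReal

noncomputable section

namespace Crest.Agent.R281.Qr_770

open Crest.Agent.R275 Crest.Agent.R275.Geo Crest.Agent.R275.Core144 Crest.Agent.R275.EDR890
open Crest.Agent.R273.Defs_333 Crest.Agent.R273.Kah_333
open Crest.Agent.R273.Vm_333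
open Crest.Agent.R275.Pai323 Crest.Agent.R275.C1d194

variable {n : ℕ} {M : Type} [TopologicalSpace M] {A : Atl n M}

/-- complex Jacobian determinant of `f : M → Cn n` in the chart `i` -/
def jd (A : Atl n M) (f : M → Cn n) (i : A.ι) (x : M) : ℂ :=
  LinearMap.det ((fderiv ℂ (fun z => f ((A.e i).symm z)) (A.e i x) : Cn n →L[ℂ] Cn n) :
    Cn n →ₗ[ℂ] Cn n)

/-- `f` is holomorphic on `W` -/
def HolW (A : Atl n M) (W : Set M) (f : M → Cn n) : Prop :=
  ∀ i, DifferentiableOn ℂ (fun z => f ((A.e i).symm z)) ((A.e i).target ∩ (A.e i).symm ⁻¹' W)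

/-- the Jacobian matrix -/
theorem jd_eq_det {f : M → Cn n} {i : A.ι} {x : M}
    (hf : DifferentiableAt ℂ (fun z => f ((A.e i).symm z)) (A.e i x)) :
    jd A f i x = (Matrix.of fun (b a : Fin n) =>
      fderiv ℂ (fun z => f ((A.e i).symm z) b) (A.e i x) (EuclideanSpace.single a 1)).det := by
  unfold jd
  rw [← LinearMap.det_toMatrix (EuclideanSpace.basisFun (Fin n) ℂ).toBasis]
  congr 1
  ext b a
  rw [LinearMap.toMatrix_apply]
  have h1 : fderiv ℂ (fun z => f ((A.e i).symm z) b) (A.e i x) =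
      (EuclideanSpace.proj b : Cn n →L[ℂ] ℂ).comp
        (fderiv ℂ (fun z => f ((A.e i).symm z)) (A.e i x)) :=
    ((EuclideanSpace.proj b : Cn n →L[ℂ] ℂ).hasFDerivAt.comp _ hf.hasFDerivAt).fderiv
  rw [Matrix.of_apply, h1]
  simp

theorem HolW.diffAt {W : Set M} (hW : IsOpen W) {f : M → Cn n} (hf : HolW A W f) {i : A.ι}
    {x : M} (hx : x ∈ (A.e i).source) (hxW : x ∈ W) :
    DifferentiableAt ℂ (fun z => f ((A.e i).symm z)) (A.e i x) :=
  (hf i).differentiableAt ((isOpen_ti hW).mem_nhds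
    ⟨(A.e i).map_source hx, by rw [mem_preimage, (A.e i).left_inv hx]; exact hxW⟩)

/-- change of chart for the Jacobian determinant -/
theorem jd_tr {W : Set M} (hW : IsOpen W) {f : M → Cn n} (hf : HolW A W f) {i j : A.ι}
    {x : M} (hx : x ∈ (A.e i).source ∩ (A.e j).source) (hxW : x ∈ W) :
    jd A f i x = jd A f j x * (Jm A i j x).det := by
  have h0 : (Jm A i j x).det = LinearMap.det
      ((fderiv ℂ (fun z => A.e j ((A.e i).symm z)) (A.e i x) : Cn n →L[ℂ] Cn n) :
        Cn n →ₗ[ℂ] Cn n) := det_J i j x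
  have h1 := hf.diffAt hW hx.2 hxW
  have h2 : DifferentiableAt ℂ (fun z => A.e j ((A.e i).symm z)) (A.e i x) := Atl.diff_trans hx
  have h3 : HasFDerivAt (fun z => f ((A.e j).symm (A.e j ((A.e i).symm z))))
      ((fderiv ℂ (fun z => f ((A.e j).symm z)) (A.e j x)).comp
        (fderiv ℂ (fun z => A.e j ((A.e i).symm z)) (A.e i x))) (A.e i x) := by
    have h4 : HasFDerivAt (fun z => f ((A.e j).symm z))
        (fderiv ℂ (fun z => f ((A.e j).symm z)) (A.e j x))
        (A.e j ((A.e i).symm (A.e i x))) := by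
      rw [(A.e i).left_inv hx.1]; exact h1.hasFDerivAt
    exact h4.comp (A.e i x) h2.hasFDerivAt
  have h5 : (fun z => f ((A.e j).symm (A.e j ((A.e i).symm z)))) =ᶠ[𝓝 (A.e i x)]
      fun z => f ((A.e i).symm z) := by
    have ho : IsOpen {z | z ∈ (A.e i).target ∧ (A.e i).symm z ∈ (A.e j).source} :=
      (A.e i).isOpen_inter_preimage_symm (A.e j).open_source
    filter_upwards [ho.mem_nhds ⟨(A.e i).map_source hx.1, by
      rw [(A.e i).left_inv hx.1]; exact hx.2⟩] with z hz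
    rw [(A.e j).left_inv hz.2]
  have h6 := (h3.congr_of_eventuallyEq h5.symm).fderiv
  rw [h0]
  unfold jd
  rw [h6]
  exact LinearMap.det_comp _ _

/-- `f` in real coordinates -/
def gr (A : Atl n M) (f : M → Cn n) (i : A.ι) (y : RI n → ℝ) : RI n → ℝ := rc (f (sg A i y))

theorem hasStrictFDerivAt_gr {W : Set M} (hW : IsOpen W) {f : M → Cn n} (hf : HolW A W f)
    {i : A.ι} {y : RI n → ℝ} (hy : y ∈ Ui A i) (hyW : sg A i y ∈ W) :
    ∃ L : (RI n → ℝ) →L[ℝ] (RI n → ℝ), HasStrictFDerivAt (gr A f i) L y ∧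
      |L.det| = ‖jd A f i (sg A i y)‖ ^ 2 := by
  have hset : (A.e i).target ∩ (A.e i).symm ⁻¹' W ∈ 𝓝 (cc y) :=
    (isOpen_ti hW).mem_nhds ⟨hy, hyW⟩
  have hcd : ContDiffAt ℂ 1 (fun z => f ((A.e i).symm z)) (cc y) :=
    ((Crest.Agent.R266.SCV.contDiffOn_omega_of_differentiableOn (isOpen_ti hW)
      (hf i)).contDiffAt hset).of_le le_top
  have hs := hcd.hasStrictFDerivAt one_ne_zero
  set D := fderiv ℂ (fun z => f ((A.e i).symm z)) (cc y) with hD
  have h1 : HasStrictFDerivAt (fun z => f ((A.e i).symm z)) (D.restrictScalars ℝ) (cc y) :=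
    hs.restrictScalars ℝ
  let ccL : (RI n → ℝ) →L[ℝ] Cn n := ((rcE n).symm.toContinuousLinearEquiv : (RI n → ℝ) →L[ℝ] Cn n)
  have h2 : HasStrictFDerivAt (cc : (RI n → ℝ) → Cn n) ccL y :=
    ((rcE n).symm.toContinuousLinearEquiv).hasStrictFDerivAt
  have h3 : HasStrictFDerivAt (rc : Cn n → RI n → ℝ) (rcL n) (f ((A.e i).symm (cc y))) := by
    rw [rc_eq]; exact (rcL n).hasStrictFDerivAt
  have h4 := h3.comp y (h1.comp y h2)
  refine ⟨_, h4, ?_⟩
  have h5 : ((((rcL n).comp ((D.restrictScalars ℝ).comp ccL)) : (RI n → ℝ) →L[ℝ] (RI n → ℝ)) :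
      (RI n → ℝ) →ₗ[ℝ] (RI n → ℝ)) = ((rcE n : Cn n →ₗ[ℝ] (RI n → ℝ)) ∘ₗ
        ((D : Cn n →ₗ[ℂ] Cn n).restrictScalars ℝ)) ∘ₗ ((rcE n).symm : (RI n → ℝ) →ₗ[ℝ] Cn n) := by
    ext v p
    rfl
  have h6 : ((rcL n).comp ((D.restrictScalars ℝ).comp ccL)).det =
      ‖LinearMap.det (D : Cn n →ₗ[ℂ] Cn n)‖ ^ 2 := by
    rw [← det_real D, ← h5]
  have h7 : A.e i (sg A i y) = cc y := (A.e i).right_inv hy
  rw [h6, jd, h7, ← hD, abs_of_nonneg (by positivity)]

theorem fsum_iUnion' {X Y ι : Type*} {g : X → Y} {S : ι → Set X}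
    (hd : Pairwise (Function.onFun Disjoint S))
    (F : X → ℝ≥0∞) (w : Y) : fsum g (⋃ k, S k) F w = ∑' k, fsum g (S k) F w := by
  unfold fsum
  rw [ENNReal.tsum_comm]
  refine tsum_congr ?_
  rintro ⟨x, hx⟩
  by_cases hxS : x ∈ ⋃ i, S i
  · rw [Set.indicator_of_mem hxS]
    obtain ⟨i, hi⟩ := mem_iUnion.1 hxS
    rw [tsum_eq_single i]
    · rw [Set.indicator_of_mem hi]
    · intro j hj
      rw [Set.indicator_of_notMem]
      intro hxj
      exact Set.disjoint_left.mp (hd hj) hxj hi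
  · rw [Set.indicator_of_notMem hxS, eq_comm, ENNReal.tsum_eq_zero]
    intro i
    rw [Set.indicator_of_notMem]
    exact fun h => hxS (mem_iUnion.2 ⟨i, h⟩)

/-- fibre sums as sums over the points of `T` in the fibre -/
theorem fsum_eq_sub {X Y : Type*} (p : X → Y) (T : Set X) (Φ : X → ℝ≥0∞) (w : Y) :
    fsum p T Φ w = ∑' x : {x : X // x ∈ T ∧ p x = w}, Φ x.1 := by
  unfold fsum
  let j : {x : X // x ∈ T ∧ p x = w} → {x : X // p x = w} := fun x => ⟨x.1, x.2.2⟩
  have hj : Function.Injective j := fun a b h => Subtype.ext (congrArg (fun x => x.1) h)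
  have hs : Function.support (fun x : {x : X // p x = w} => T.indicator Φ x.1) ⊆ range j := by
    intro x hx
    have hxT : x.1 ∈ T := by
      by_contra h
      exact hx (indicator_of_notMem h _)
    exact ⟨⟨x.1, hxT, x.2⟩, rfl⟩
  rw [← hj.tsum_eq hs]
  refine tsum_congr fun x => ?_
  exact indicator_of_mem x.2.1 _

/-- transport of fibre sums along an injection `σ` -/
theorem fsum_image {X Y Z : Type*} {g : X → Y} {σ : Z → X} {S : Set Z} (hσ : InjOn σ S)
    {F : X → ℝ≥0∞} (w : Y) :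
    fsum (fun z => g (σ z)) S (fun z => F (σ z)) w = fsum g (σ '' S) F w := by
  classical
  rw [fsum_eq_sub, fsum_eq_sub]
  let φ : {z : Z // z ∈ S ∧ g (σ z) = w} → {x : X // x ∈ σ '' S ∧ g x = w} := fun z =>
    ⟨σ z.1, ⟨z.1, z.2.1, rfl⟩, z.2.2⟩
  have hφ : Function.Bijective φ := by
    constructor
    · intro a b h
      exact Subtype.ext (hσ a.2.1 b.2.1 (congrArg (fun x => x.1) h))
    · rintro ⟨x, ⟨z, hz, rfl⟩, hw⟩
      exact ⟨⟨z, hz, hw⟩, rfl⟩
  exact (Equiv.ofBijective φ hφ).tsum_eq (fun x : {x : X // x ∈ σ '' S ∧ g x = w} => F x.1)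

theorem sg_injOn (i : A.ι) : InjOn (sg A i) (Ui A i) := by
  intro a ha b hb h
  have h1 : A.e i (sg A i a) = A.e i (sg A i b) := by rw [h]
  rw [show A.e i (sg A i a) = cc a from (A.e i).right_inv ha,
    show A.e i (sg A i b) = cc b from (A.e i).right_inv hb] at h1
  rw [← rc_cc a, ← rc_cc b, h1]

variable [MeasurableSpace M] [BorelSpace M] [Countable A.ι]

/-- integrals over `M` as sums over pieces of charts -/
theorem lintegral_vm (h : HM (KB A)⁻¹) {W : Set M} (hW : MeasurableSet W) {Φ : M → ℝ≥0∞}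
    (hΦ : Measurable Φ) :
    ∫⁻ x in W, Φ x ∂(vm h) =
      ∑' i, ∫⁻ y in {y | y ∈ Ui A i ∧ sg A i y ∈ Dj A i ∩ W}, dn h i y * Φ (sg A i y) := by
  have h1 : ∀ i, ∫⁻ x in W ∩ Dj A i, Φ x ∂(vm h) =
      ∫⁻ y in {y | y ∈ Ui A i ∧ sg A i y ∈ Dj A i ∩ W}, dn h i y * Φ (sg A i y) := by
    intro i
    have hm : MeasurableSet (W ∩ Dj A i) := hW.inter (meas_Dj i)
    have e1 : ∫⁻ x in W ∩ Dj A i, Φ x ∂(vm h) =
        ∫⁻ x in (A.e i).source, (W ∩ Dj A i).indicator Φ x ∂(vm h) := by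
      rw [setLIntegral_indicator hm]
      congr 2
      exact (inter_eq_left.2 fun x hx => hx.2.1).symm
    rw [e1, setLIntegral_vm h i (hΦ.indicator hm)]
    have hT : MeasurableSet {y | y ∈ Ui A i ∧ sg A i y ∈ Dj A i ∩ W} :=
      meas_inter i ((meas_Dj i).inter hW)
    have e2 : ∀ y, dn h i y * (W ∩ Dj A i).indicator Φ (sg A i y) =
        ({y | sg A i y ∈ Dj A i ∩ W} : Set (RI n → ℝ)).indicator
          (fun y => dn h i y * Φ (sg A i y)) y := by
      intro y
      by_cases hy : sg A i y ∈ Dj A i ∩ W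
      · rw [indicator_of_mem (show sg A i y ∈ W ∩ Dj A i from ⟨hy.2, hy.1⟩),
          indicator_of_mem (show y ∈ {y | sg A i y ∈ Dj A i ∩ W} from hy)]
      · rw [indicator_of_notMem (show sg A i y ∉ W ∩ Dj A i from fun h => hy ⟨h.2, h.1⟩),
          indicator_of_notMem (show y ∉ {y | sg A i y ∈ Dj A i ∩ W} from hy), mul_zero]
    simp only [e2]
    have h2 : NullMeasurableSet {y | sg A i y ∈ Dj A i ∩ W} (volume.restrict (Ui A i)) :=
      (aemeas_sg i).nullMeasurable ((meas_Dj i).inter hW)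
    have h3 : {y | y ∈ Ui A i ∧ sg A i y ∈ Dj A i ∩ W} =
        {y | sg A i y ∈ Dj A i ∩ W} ∩ Ui A i := by
      ext y; exact and_comm
    rw [lintegral_indicator₀ h2, Measure.restrict_restrict₀ h2, ← h3]
  have h2 : W = ⋃ i, W ∩ Dj A i := by rw [← inter_iUnion, iUnion_Dj, inter_univ]
  conv_lhs => rw [h2]
  rw [lintegral_iUnion (fun i => hW.inter (meas_Dj i))]
  · exact tsum_congr h1
  · intro a b hab
    exact (Dj_disjoint hab).mono inter_subset_right inter_subset_right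

/-- the noncritical points -/
def Reg (A : Atl n M) (f : M → Cn n) (W : Set M) : Set M :=
  {x | x ∈ W ∧ ∀ i, x ∈ (A.e i).source → jd A f i x ≠ 0}

theorem mem_Reg {W : Set M} (hW : IsOpen W) {f : M → Cn n} (hf : HolW A W f) {i : A.ι} {x : M}
    (hx : x ∈ (A.e i).source) : x ∈ Reg A f W ↔ x ∈ W ∧ jd A f i x ≠ 0 := by
  constructor
  · intro h
    exact ⟨h.1, h.2 i hx⟩
  · rintro ⟨h1, h2⟩
    refine ⟨h1, fun j hj h0 => h2 ?_⟩
    rw [jd_tr hW hf ⟨hx, hj⟩ h1, h0, zero_mul]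

/-- **area formula on `M`** -/
theorem area {W : Set M} (hW : IsOpen W) {f : M → Cn n} (hf : HolW A W f) {F : M → ℝ≥0∞}
    (hF : Measurable F) :
    Measurable (fsum (fun x => rc (f x)) (Reg A f W) F) ∧
    ∑' i, ∫⁻ y in {y | y ∈ Ui A i ∧ sg A i y ∈ Dj A i ∩ W},
      ENNReal.ofReal (‖jd A f i (sg A i y)‖ ^ 2) * F (sg A i y) =
        ∫⁻ w, fsum (fun x => rc (f x)) (Reg A f W) F w := by
  classical
  -- the pieces
  set S : A.ι → Set (RI n → ℝ) := fun i => {y | y ∈ Ui A i ∧ sg A i y ∈ Dj A i ∩ W} with hS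
  have hSm : ∀ i, MeasurableSet (S i) := fun i => meas_inter i ((meas_Dj i).inter hW.measurableSet)
  set U : A.ι → Set (RI n → ℝ) := fun i => {y | y ∈ Ui A i ∧ sg A i y ∈ W} with hU
  have hUo : ∀ i, IsOpen (U i) := by
    intro i
    have : U i = Ui A i ∩ sg A i ⁻¹' W := rfl
    rw [this]
    exact (continuousOn_sg i).isOpen_inter_preimage (Crest.Agent.R273.Vm_333.isOpen_Ui i) hW
  have hL : ∀ i (y : RI n → ℝ), ∃ L : (RI n → ℝ) →L[ℝ] (RI n → ℝ), y ∈ U i →
      (HasStrictFDerivAt (gr A f i) L y ∧ |L.det| = ‖jd A f i (sg A i y)‖ ^ 2) := by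
    intro i y
    by_cases hy : y ∈ U i
    · obtain ⟨L, hL⟩ := hasStrictFDerivAt_gr hW hf hy.1 hy.2
      exact ⟨L, fun _ => hL⟩
    · exact ⟨0, fun h => absurd h hy⟩
  choose L hL using hL
  -- the critical points
  set R : A.ι → Set (RI n → ℝ) := fun i => {y | y ∈ U i ∧ jd A f i (sg A i y) ≠ 0} with hR
  have hjc : ∀ i, ContinuousOn (fun y => jd A f i (sg A i y)) (U i) := by
    intro i y hy
    have hset : (A.e i).target ∩ (A.e i).symm ⁻¹' W ∈ 𝓝 (cc y) :=
      (isOpen_ti hW).mem_nhds ⟨hy.1, hy.2⟩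
    have hcd : ContDiffAt ℂ 1 (fun z => f ((A.e i).symm z)) (cc y) :=
      ((Crest.Agent.R266.SCV.contDiffOn_omega_of_differentiableOn (isOpen_ti hW)
        (hf i)).contDiffAt hset).of_le le_top
    have h1 : ContinuousAt (fun z => fderiv ℂ (fun z => f ((A.e i).symm z)) z) (cc y) :=
      (hcd.fderiv_right (m := 0) (by norm_num)).continuousAt
    have h2 : ContinuousAt (fun y' : RI n → ℝ =>
        fderiv ℂ (fun z => f ((A.e i).symm z)) (cc y')) y :=
      ContinuousAt.comp (f := cc) (g := fun z => fderiv ℂ (fun z => f ((A.e i).symm z)) z)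
        h1 continuous_cc.continuousAt
    have h3 : ContinuousAt (fun y' : RI n → ℝ => LinearMap.det
        ((fderiv ℂ (fun z => f ((A.e i).symm z)) (cc y') : Cn n →L[ℂ] Cn n) :
          Cn n →ₗ[ℂ] Cn n)) y := by
      have hc : Continuous fun T : Cn n →L[ℂ] Cn n => LinearMap.det (T : Cn n →ₗ[ℂ] Cn n) :=
        ContinuousLinearMap.continuous_det
      exact ContinuousAt.comp (g := fun T : Cn n →L[ℂ] Cn n => LinearMap.det (T : Cn n →ₗ[ℂ] Cn n))
        hc.continuousAt h2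
    refine (h3.congr ?_).continuousWithinAt
    filter_upwards [(hUo i).mem_nhds hy] with y' hy'
    unfold jd
    rw [show A.e i (sg A i y') = cc y' from (A.e i).right_inv hy'.1]
  have hRo : ∀ i, IsOpen (R i) := by
    intro i
    have : R i = U i ∩ (fun y => jd A f i (sg A i y)) ⁻¹' {0}ᶜ := rfl
    rw [this]
    exact (hjc i).isOpen_inter_preimage (hUo i) isOpen_compl_singleton
  have hSU : ∀ i, S i ⊆ U i := fun i y hy => ⟨hy.1, hy.2.2⟩
  have hSR : ∀ i, MeasurableSet (S i ∩ R i) := fun i => (hSm i).inter (hRo i).measurableSet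
  have hFm : ∀ i, Measurable fun z : (S i ∩ R i : Set (RI n → ℝ)) => F (sg A i z.1) := by
    intro i
    refine hF.comp ?_
    have h1 : Continuous ((Ui A i).domRestrict (sg A i)) :=
      continuousOn_iff_continuous_domRestrict.1 (continuousOn_sg i)
    have h2 : Continuous (fun z : (S i ∩ R i : Set (RI n → ℝ)) => (⟨z.1, z.2.1.1⟩ : Ui A i)) :=
      continuous_subtype_val.subtype_mk _
    exact (h1.comp h2).measurable
  have hloc : ∀ i, Measurable (fsum (gr A f i) (S i ∩ R i) (fun y => F (sg A i y))) ∧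
      ∫⁻ y in S i ∩ R i, ENNReal.ofReal |(L i y).det| * F (sg A i y) =
        ∫⁻ w, fsum (gr A f i) (S i ∩ R i) (fun y => F (sg A i y)) w := by
    intro i
    refine area_loc volume (U := R i) (g' := L i) (hRo i) (fun y hy => (hL i y hy.1).1) ?_ (hSR i)
      inter_subset_right (hFm i)
    intro y hy h0
    have h1 := (hL i y hy.1).2
    rw [h0, abs_zero] at h1
    exact hy.2 (norm_eq_zero.1 (pow_eq_zero_iff two_ne_zero |>.1 h1.symm))
  have hint : ∀ i, ∫⁻ y in S i, ENNReal.ofReal (‖jd A f i (sg A i y)‖ ^ 2) * F (sg A i y) =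
      ∫⁻ w, fsum (gr A f i) (S i ∩ R i) (fun y => F (sg A i y)) w := by
    intro i
    rw [← (hloc i).2, ← lintegral_inter_add_sdiff _ (S i) (hRo i).measurableSet]
    have e1 : ∫⁻ y in S i \ R i, ENNReal.ofReal (‖jd A f i (sg A i y)‖ ^ 2) * F (sg A i y) = 0 := by
      rw [setLIntegral_congr_fun (g := fun _ => 0) ((hSm i).diff (hRo i).measurableSet)]
      · simp
      · intro y hy
        have : jd A f i (sg A i y) = 0 := by
          by_contra h
          exact hy.2 ⟨hSU i hy.1, h⟩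
        simp [this]
    rw [e1, add_zero]
    refine setLIntegral_congr_fun (hSR i) fun y hy => ?_
    simp only [(hL i y (hSU i hy.1)).2]
  -- fibre sums
  have hfs : ∀ i w, fsum (gr A f i) (S i ∩ R i) (fun y => F (sg A i y)) w =
      fsum (fun x => rc (f x)) (Dj A i ∩ Reg A f W) F w := by
    intro i w
    have e1 : sg A i '' (S i ∩ R i) = Dj A i ∩ Reg A f W := by
      ext x
      constructor
      · rintro ⟨y, ⟨⟨hy1, hy2⟩, hy3, hy4⟩, rfl⟩
        exact ⟨hy2.1, (mem_Reg hW hf (sg_mem hy1)).2 ⟨hy2.2, hy4⟩⟩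
      · rintro ⟨hx1, hx2⟩
        have hxi : x ∈ (A.e i).source := hx1.1
        have h1 := (mem_Reg hW hf hxi).1 hx2
        have h2 := sg_rc hxi
        have h3 := mem_Ui hxi
        refine ⟨rc (A.e i x), ⟨⟨h3, ?_⟩, ⟨h3, ?_⟩, ?_⟩, h2⟩
        · rw [h2]; exact ⟨hx1, h1.1⟩
        · rw [h2]; exact h1.1
        · rw [h2]; exact h1.2
    rw [← e1]
    exact fsum_image (g := fun x => rc (f x)) ((sg_injOn i).mono fun y hy => hy.1.1) w
  have hdisj : Pairwise (Function.onFun Disjoint fun i => Dj A i ∩ Reg A f W) := by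
    intro a b hab
    exact (Dj_disjoint hab).mono inter_subset_left inter_subset_left
  have hun : (⋃ i, Dj A i ∩ Reg A f W) = Reg A f W := by
    rw [← iUnion_inter, iUnion_Dj, univ_inter]
  have he : fsum (fun x => rc (f x)) (Reg A f W) F =
      fun w => ∑' i, fsum (gr A f i) (S i ∩ R i) (fun y => F (sg A i y)) w := by
    funext w
    rw [← hun, fsum_iUnion' hdisj]
    exact tsum_congr fun i => (hfs i w).symm
  refine ⟨?_, ?_⟩
  · rw [he]
    exact Measurable.tsum fun i => (hloc i).1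
  · rw [he, lintegral_tsum fun i => (hloc i).1.aemeasurable]
    exact tsum_congr hint

/-- **area formula** for the measure of a volume form -/
theorem area_vm (h : HM (KB A)⁻¹) {W : Set M} (hW : IsOpen W) {f : M → Cn n} (hf : HolW A W f)
    {F Φ : M → ℝ≥0∞} (hF : Measurable F) (hΦ : Measurable Φ)
    (hΦF : ∀ i, ∀ x ∈ (A.e i).source, x ∈ W →
      ENNReal.ofReal (h.w i x) * Φ x = ENNReal.ofReal (‖jd A f i x‖ ^ 2) * F x) :
    ∫⁻ x in W, Φ x ∂(vm h) = ∫⁻ w, fsum (fun x => rc (f x)) (Reg A f W) F w := by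
  rw [← (area hW hf hF).2, lintegral_vm h hW.measurableSet hΦ]
  refine tsum_congr fun i => ?_
  refine setLIntegral_congr_fun (meas_inter i ((meas_Dj i).inter hW.measurableSet)) fun y hy => ?_
  exact hΦF i _ (sg_mem hy.1) hy.2.2

end Crest.Agent.R281.Qr_770
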