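import Crest.Agent.R281.GT5_639
import Crest.Agent.R281.Qr2_770
import Crest.Agent.R281.AF3_867
import Crest.Agent.R281.HkP2_508
import Crest.Agent.R273.SteinL_794

/-!
Row 281, glue DIV 2 -> DIV 3 (helper639).  Part 6: a member of the family.

* `PrD n r R`  : the linear forms `lam_0 .. lam_n`, `w`, the polynomial `F (Z)` and `Nm_k (Z)` over
                 `R[y_1 .. y_n]` (dehomogenised `KDat`)
* `Mbr 𝔭 e O U`: the specialisation `e : R →+* ℂ` of `𝔭` represents the projective manifold `(M, A)`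
                 with coordinates `U k`
* `yM`, `zM`, `vM`
-/

set_option autoImplicit false
set_option linter.unusedSectionVars false

open Polynomial Set Filter Topology Complex MeasureTheory
open scoped ContDiff Matrix ComplexConjugate Manifold ENNReal

noncomputable section

namespace Crest.Agent.R281.GT_639

open Crest.Agent.R275 Crest.Agent.R275.Geo Crest.Agent.R275.Core144 Crest.Agent.R275.EDR890
open Crest.Agent.R273.Defs_333 Crest.Agent.R273.Kah_333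
open Crest.Agent.R273.SerA_945 (Fn)
open Crest.Agent.R273.SteinC_794 Crest.Agent.R273.Chow_313
open Crest.Agent.R281.Defs_273 Crest.Agent.R281.AF_867 Crest.Agent.R281.Qr_770

variable {n r : ℕ} {R : Type*} [CommRing R]

/-- projection data over `R` -/
structure PrD (n r : ℕ) (R : Type*) [CommRing R] where
  lam : Fin (n + 1) → Fin r → R
  w : Fin r → R
  F : (MvPolynomial (Fin n) R)[X]
  Nm : Fin r → (MvPolynomial (Fin n) R)[X]

/-- the value of a linear form -/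
def lv (e : R →+* ℂ) (a : Fin r → R) (u : Fin r → ℂ) : ℂ := ∑ k, e (a k) * u k

/-- the algebraic identities -/
structure PrD.Good (𝔭 : PrD n r R) : Prop where
  monic : 𝔭.F.Monic
  pos : 0 < 𝔭.F.natDegree
  lam0 : ∑ k, C (MvPolynomial.C (𝔭.lam 0 k)) * 𝔭.Nm k = derivative 𝔭.F
  lamS : ∀ j : Fin n, ∑ k, C (MvPolynomial.C (𝔭.lam j.succ k)) * 𝔭.Nm k =
    C (MvPolynomial.X j) * derivative 𝔭.F
  wN : ∑ k, C (MvPolynomial.C (𝔭.w k)) * 𝔭.Nm k =
    X * derivative 𝔭.F - (𝔭.F.natDegree : (MvPolynomial (Fin n) R)[X]) * 𝔭.F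

variable {M : Type} [TopologicalSpace M] {A : Atl n M} {O : LB A}

/-- a linear form on the coordinates, as a section -/
def ls (e : R →+* ℂ) (U : Fin r → Fn A) (a : Fin r → R) : Fn A := fun i x =>
  lv e a fun k => U k i x

theorem isHS_ls {U : Fin r → Fn A} (hU : ∀ k, IsHS O univ (U k)) (e : R →+* ℂ) (a : Fin r → R) :
    IsHS O univ (ls e U a) where
  hol i := by
    have h1 : HolAt A i univ fun x => ∑ k, e (a k) * U k i x :=
      HolAt.sum _ fun k _ => ((hU k).hol i).const_mul _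
    exact h1
  off i x hx := by
    simp only [ls, lv]
    exact Finset.sum_eq_zero fun k _ => by rw [(hU k).off i x hx, mul_zero]
  tr i j x hx hu := by
    simp only [ls, lv]
    rw [Finset.mul_sum]
    refine Finset.sum_congr rfl fun k _ => ?_
    rw [(hU k).tr i j x hx hu]
    ring

/-- the affine coordinates of the projection -/
def yM (𝔭 : PrD n r R) (e : R →+* ℂ) (U : Fin r → Fn A) (x : M) : Fin n → ℂ :=
  fun j => qt (ls e U (𝔭.lam j.succ)) (ls e U (𝔭.lam 0)) x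

/-- the primitive element -/
def zM (𝔭 : PrD n r R) (e : R →+* ℂ) (U : Fin r → Fn A) (x : M) : ℂ :=
  qt (ls e U 𝔭.w) (ls e U (𝔭.lam 0)) x

/-- the coordinates normalised by `lam_0 = 1` -/
def vM (𝔭 : PrD n r R) (e : R →+* ℂ) (U : Fin r → Fn A) (k : Fin r) (x : M) : ℂ :=
  qt (U k) (ls e U (𝔭.lam 0)) x

/-- value of a polynomial in `(y, z)` at a point of `M` -/
def pM (𝔭 : PrD n r R) (e : R →+* ℂ) (U : Fin r → Fn A) (P : (MvPolynomial (Fin n) R)[X])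
    (x : M) : ℂ := (P.map (ph e (yM 𝔭 e U x))).eval (zM 𝔭 e U x)

/-- the specialisation `e` of `𝔭` represents the projective manifold `(M, A)` -/
structure Mbr (𝔭 : PrD n r R) (e : R →+* ℂ) (O : LB A) (U : Fin r → Fn A) : Prop where
  hs : ∀ k, IsHS O univ (U k)
  inj : ∀ i j, ∀ x ∈ (A.e i).source, ∀ y ∈ (A.e j).source,
    (∃ c : ℂ, ∀ k, U k i x = c * U k j y) → x = y
  imm : Immersive U
  eqF : ∀ x ∈ nz (ls e U (𝔭.lam 0)), pM 𝔭 e U 𝔭.F x = 0
  eqN : ∀ x ∈ nz (ls e U (𝔭.lam 0)), ∀ k,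
    pM 𝔭 e U (𝔭.Nm k) x = vM 𝔭 e U k x * pM 𝔭 e U (derivative 𝔭.F) x
  surj : ∀ (y : Fin n → ℂ) (z : ℂ), (𝔭.F.map (ph e y)).eval z = 0 →
    ((derivative 𝔭.F).map (ph e y)).eval z ≠ 0 →
    ∃ i, ∃ x ∈ (A.e i).source, ∃ c : ℂ, ∀ k, ((𝔭.Nm k).map (ph e y)).eval z = c * U k i x

namespace Mbr

variable {𝔭 : PrD n r R} {e : R →+* ℂ} {U : Fin r → Fn A}

theorem hls (h : Mbr 𝔭 e O U) (a : Fin r → R) : IsHS O univ (ls e U a) := isHS_ls h.hs e a

theorem open_nz (h : Mbr 𝔭 e O U) : IsOpen (nz (ls e U (𝔭.lam 0))) := isOpen_nz (h.hls _)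

theorem yM_eq (h : Mbr 𝔭 e O U) {i : A.ι} {x : M} (hx : x ∈ (A.e i).source) (j : Fin n) :
    yM 𝔭 e U x j = lv e (𝔭.lam j.succ) (fun k => U k i x) / lv e (𝔭.lam 0) (fun k => U k i x) :=
  qt_eq (h.hls _) (h.hls _) hx

theorem zM_eq (h : Mbr 𝔭 e O U) {i : A.ι} {x : M} (hx : x ∈ (A.e i).source) :
    zM 𝔭 e U x = lv e 𝔭.w (fun k => U k i x) / lv e (𝔭.lam 0) (fun k => U k i x) :=
  qt_eq (h.hls _) (h.hls _) hx

theorem vM_eq (h : Mbr 𝔭 e O U) {i : A.ι} {x : M} (hx : x ∈ (A.e i).source) (k : Fin r) :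
    vM 𝔭 e U k x = U k i x / lv e (𝔭.lam 0) (fun k => U k i x) :=
  qt_eq (h.hs k) (h.hls _) hx

theorem nz_iff (h : Mbr 𝔭 e O U) {i : A.ι} {x : M} (hx : x ∈ (A.e i).source) :
    x ∈ nz (ls e U (𝔭.lam 0)) ↔ lv e (𝔭.lam 0) (fun k => U k i x) ≠ 0 :=
  mem_nz (h.hls _) hx

theorem hol_yM (h : Mbr 𝔭 e O U) (i : A.ι) (j : Fin n) :
    HolAt A i (nz (ls e U (𝔭.lam 0))) fun x => yM 𝔭 e U x j := qt_hol (h.hls _) (h.hls _) i

theorem hol_zM (h : Mbr 𝔭 e O U) (i : A.ι) :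
    HolAt A i (nz (ls e U (𝔭.lam 0))) (zM 𝔭 e U) := qt_hol (h.hls _) (h.hls _) i

theorem hol_vM (h : Mbr 𝔭 e O U) (i : A.ι) (k : Fin r) :
    HolAt A i (nz (ls e U (𝔭.lam 0))) (vM 𝔭 e U k) := qt_hol (h.hs k) (h.hls _) i

theorem cont_yM (h : Mbr 𝔭 e O U) {x : M} (hx : x ∈ nz (ls e U (𝔭.lam 0))) :
    ContinuousAt (yM 𝔭 e U) x := by
  obtain ⟨i, hi⟩ := A.cover x
  exact continuousAt_pi.2 fun j => continuousAt_of_holAt h.open_nz (h.hol_yM i j) hi hx

theorem cont_zM (h : Mbr 𝔭 e O U) {x : M} (hx : x ∈ nz (ls e U (𝔭.lam 0))) :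
    ContinuousAt (zM 𝔭 e U) x := by
  obtain ⟨i, hi⟩ := A.cover x
  exact continuousAt_of_holAt h.open_nz (h.hol_zM i) hi hx

end Mbr

/-! ### evaluation of polynomials is continuous -/

theorem continuous_ph (e : R →+* ℂ) (p : MvPolynomial (Fin n) R) :
    Continuous fun y : Fin n → ℂ => ph e y p := by
  rw [continuous_iff_continuousAt]
  exact fun y => (ph_hasFDerivAt e p y).continuousAt

theorem continuous_pe (e : R →+* ℂ) (P : (MvPolynomial (Fin n) R)[X]) :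
    Continuous fun p : (Fin n → ℂ) × ℂ => (P.map (ph e p.1)).eval p.2 := by
  have h : (fun p : (Fin n → ℂ) × ℂ => (P.map (ph e p.1)).eval p.2) = fun p =>
      ∑ k ∈ Finset.range (P.natDegree + 1), ph e p.1 (P.coeff k) * p.2 ^ k := by
    funext p
    exact eval_map_eq e P (Nat.lt_succ_self _) _ _
  rw [h]
  exact continuous_finsetSum _ fun k _ =>
    ((continuous_ph e _).comp continuous_fst).mul (continuous_snd.pow k)

namespace Mbr

variable {𝔭 : PrD n r R} {e : R →+* ℂ} {U : Fin r → Fn A}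

theorem cont_pM (h : Mbr 𝔭 e O U) (P : (MvPolynomial (Fin n) R)[X]) {x : M}
    (hx : x ∈ nz (ls e U (𝔭.lam 0))) : ContinuousAt (pM 𝔭 e U P) x := by
  have h1 : ContinuousAt (fun x => (yM 𝔭 e U x, zM 𝔭 e U x)) x :=
    (h.cont_yM hx).prodMk (h.cont_zM hx)
  exact ContinuousAt.comp (g := fun p : (Fin n → ℂ) × ℂ => (P.map (ph e p.1)).eval p.2)
    (continuous_pe e P).continuousAt h1

/-- the good part of `M` -/
def W (𝔭 : PrD n r R) (e : R →+* ℂ) (U : Fin r → Fn A) (P : (MvPolynomial (Fin n) R)[X]) : Set M :=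
  {x | x ∈ nz (ls e U (𝔭.lam 0)) ∧ pM 𝔭 e U P x ≠ 0}

theorem open_W (h : Mbr 𝔭 e O U) (P : (MvPolynomial (Fin n) R)[X]) : IsOpen (W 𝔭 e U P) := by
  rw [isOpen_iff_mem_nhds]
  rintro x ⟨hx, hP⟩
  filter_upwards [h.open_nz.mem_nhds hx, (h.cont_pM P hx).eventually_ne hP] with x' h1 h2
  exact ⟨h1, h2⟩

/-- the chart expression of `y` is differentiable -/
theorem diff_y (h : Mbr 𝔭 e O U) {i : A.ι} {x : M} (hx : x ∈ (A.e i).source)
    (h0 : x ∈ nz (ls e U (𝔭.lam 0))) :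
    DifferentiableAt ℂ (fun ζ => yM 𝔭 e U ((A.e i).symm ζ)) (A.e i x) :=
  differentiableAt_pi.2 fun j => (h.hol_yM i j).diffAt h.open_nz hx h0

theorem diff_z (h : Mbr 𝔭 e O U) {i : A.ι} {x : M} (hx : x ∈ (A.e i).source)
    (h0 : x ∈ nz (ls e U (𝔭.lam 0))) :
    DifferentiableAt ℂ (fun ζ => zM 𝔭 e U ((A.e i).symm ζ)) (A.e i x) :=
  (h.hol_zM i).diffAt h.open_nz hx h0

theorem ev_symm {i : A.ι} {x : M} (hx : x ∈ (A.e i).source) {S : Set M} (hS : S ∈ 𝓝 x) :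
    ∀ᶠ ζ in 𝓝 (A.e i x), (A.e i).symm ζ ∈ S := by
  have h3 := (A.e i).continuousAt_symm ((A.e i).map_source hx)
  rw [ContinuousAt, (A.e i).left_inv hx] at h3
  exact h3 hS

/-- the derivative of the normalised coordinates -/
theorem deriv_v (h : Mbr 𝔭 e O U) {i : A.ι} {x : M} (hx : x ∈ (A.e i).source)
    (hW : x ∈ W 𝔭 e U (derivative 𝔭.F)) (k : Fin r) :
    HasFDerivAt (fun ζ => vM 𝔭 e U k ((A.e i).symm ζ))
      (lc (fun j => QD 𝔭.F (𝔭.Nm k) (derivative 𝔭.F) j (ph e (yM 𝔭 e U x)) (zM 𝔭 e U x))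
        (fderiv ℂ (fun ζ => yM 𝔭 e U ((A.e i).symm ζ)) (A.e i x))) (A.e i x) := by
  have hl := (A.e i).left_inv hx
  have h1 := hasFDerivAt_QV e 𝔭.F (𝔭.Nm k) (derivative 𝔭.F)
    (y := fun ζ => yM 𝔭 e U ((A.e i).symm ζ)) (z := fun ζ => zM 𝔭 e U ((A.e i).symm ζ))
    (ζ := A.e i x) (h.diff_y hx hW.1).hasFDerivAt (h.diff_z hx hW.1)
    (by
      filter_upwards [ev_symm hx (h.open_nz.mem_nhds hW.1)] with ζ hζ
      exact h.eqF _ hζ)
    (by rw [hl]; exact hW.2) (by rw [hl]; exact hW.2)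
  rw [hl] at h1
  refine h1.congr_of_eventuallyEq ?_
  filter_upwards [ev_symm hx ((h.open_W (derivative 𝔭.F)).mem_nhds hW)] with ζ hζ
  have h2 := h.eqN _ hζ.1 k
  have h3 := hζ.2
  unfold pM at h2 h3
  rw [QV, h2]
  field_simp

/-- the projection is immersive -/
theorem y_inj (h : Mbr 𝔭 e O U) {i : A.ι} {x : M} (hx : x ∈ (A.e i).source)
    (hW : x ∈ W 𝔭 e U (derivative 𝔭.F)) {v : Cn n}
    (hv : fderiv ℂ (fun ζ => yM 𝔭 e U ((A.e i).symm ζ)) (A.e i x) v = 0) : v = 0 := by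
  have hl := (A.e i).left_inv hx
  set l0 : M → ℂ := ls e U (𝔭.lam 0) i with hl0
  have h0 : l0 x ≠ 0 := (h.nz_iff hx).1 hW.1
  refine h.imm i x hx v ⟨df A i l0 x v / l0 x, fun k => ?_⟩
  have hdl : DifferentiableAt ℂ (fun ζ => l0 ((A.e i).symm ζ)) (A.e i x) :=
    ((h.hls (𝔭.lam 0)).hol i).diffAt isOpen_univ hx (mem_univ x)
  have h1 := (h.deriv_v hx hW k).fun_mul hdl.hasFDerivAt
  have h2 : HasFDerivAt (fun ζ => U k i ((A.e i).symm ζ)) _ (A.e i x) :=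
    h1.congr_of_eventuallyEq (by
      filter_upwards [ev_symm hx ((A.e i).open_source.mem_nhds hx),
        ev_symm hx (h.open_nz.mem_nhds hW.1)] with ζ hζ hζ'
      rw [h.vM_eq hζ k]
      have h4 : l0 ((A.e i).symm ζ) ≠ 0 := (h.nz_iff hζ).1 hζ'
      exact (div_mul_cancel₀ _ h4).symm)
  have h3 : df A i (U k i) x v = vM 𝔭 e U k x * df A i l0 x v := by
    unfold df
    rw [h2.fderiv]
    simp only [_root_.add_apply, _root_.smul_apply, smul_eq_mul, lc_apply, hl, hv]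
    simp
  rw [h3, h.vM_eq hx k]
  simp only [hl0, ls]
  ring

end Mbr

end Crest.Agent.R281.GT_639
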