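import Crest.Agent.R281.GT6_639

/-!
Row 281, glue DIV 2 -> DIV 3 (helper639).  Part 7: the 2-form and the area formula of a member.
-/

set_option autoImplicit false
set_option linter.unusedSectionVars false

open Polynomial Set Filter Topology Complex MeasureTheory
open scoped ContDiff Matrix ComplexConjugate Manifold ENNReal

noncomputable section

namespace Crest.Agent.R281.GT_639

open Crest.Agent.R275 Crest.Agent.R275.Geo Crest.Agent.R275.Core144 Crest.Agent.R275.EDR890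
open Crest.Agent.R273.Defs_333 Crest.Agent.R273.Kah_333
open Crest.Agent.R273.SerA_945 (Fn)
open Crest.Agent.R273.SteinC_794 Crest.Agent.R273.Chow_313
open Crest.Agent.R281.Defs_273 Crest.Agent.R281.AF_867 Crest.Agent.R281.Qr_770

variable {n r : ℕ} {R : Type*} [CommRing R]

/-- a polynomial 2-form `∑ s_kl dX_k dX_l / X_j^m` over `R` -/
structure FmD (r : ℕ) (R : Type*) [CommRing R] where
  j : Fin r
  m : ℕ
  s : Fin r → Fin r → MvPolynomial (Fin r) R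

structure FmD.Good (𝔰 : FmD r R) : Prop where
  two : 2 ≤ 𝔰.m
  alt : ∀ k l, 𝔰.s k l = - 𝔰.s l k
  hom : ∀ k l, (𝔰.s k l).IsHomogeneous (𝔰.m - 2)
  eul : ∀ k, ∑ l, 𝔰.s k l * MvPolynomial.X l = 0

variable {M : Type} [TopologicalSpace M] {A : Atl n M} {O : LB A}

/-- the form `σ` is the specialisation of `𝔰` -/
def FMbr (𝔰 : FmD r R) (e : R →+* ℂ) (U : Fin r → Fn A) (σ : H2 A) : Prop :=
  ∀ i, ∀ x ∈ (A.e i).source, ∀ a b, U 𝔰.j i x ^ 𝔰.m * σ.s i x a b =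
    ∑ k, ∑ l, MvPolynomial.eval₂ e (fun k => U k i x) (𝔰.s k l) *
      (DF U i x k a * DF U i x l b)

theorem eval₂_smul {e : R →+* ℂ} {p : MvPolynomial (Fin r) R} {d : ℕ} (hp : p.IsHomogeneous d)
    (c : ℂ) (v : Fin r → ℂ) :
    MvPolynomial.eval₂ e (fun k => c * v k) p = c ^ d * MvPolynomial.eval₂ e v p := by
  rw [← MvPolynomial.eval_map, ← MvPolynomial.eval_map]
  exact (eval_smul (hp.map e) c v).symm ▸ rfl

/-- change of the frame -/
theorem frame (𝔰 : FmD r R) (hs : 𝔰.Good) (e : R →+* ℂ) (l0 : ℂ) (u v : Fin r → ℂ)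
    (hu : ∀ k, u k = l0 * v k) (p q p' q' : Fin r → ℂ) (a b : ℂ)
    (hp : ∀ k, p k = l0 * p' k + v k * a) (hq : ∀ k, q k = l0 * q' k + v k * b) :
    ∑ k, ∑ l, MvPolynomial.eval₂ e u (𝔰.s k l) * (p k * q l) =
      l0 ^ 𝔰.m * ∑ k, ∑ l, MvPolynomial.eval₂ e v (𝔰.s k l) * (p' k * q' l) := by
  obtain ⟨m', hm'⟩ := Nat.exists_eq_add_of_le hs.two
  have hu' : u = fun k => l0 * v k := funext hu
  have h1 : ∀ k l, MvPolynomial.eval₂ e u (𝔰.s k l) =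
      l0 ^ m' * MvPolynomial.eval₂ e v (𝔰.s k l) := by
    intro k l
    rw [hu', eval₂_smul (hs.hom k l), show 𝔰.m - 2 = m' by omega]
  set S : Fin r → Fin r → ℂ := fun k l => MvPolynomial.eval₂ e v (𝔰.s k l) with hS
  have h2 : ∀ k, ∑ l, S k l * v l = 0 := by
    intro k
    have h := congrArg (MvPolynomial.eval₂ e v) (hs.eul k)
    rw [MvPolynomial.eval₂_sum] at h
    simpa [MvPolynomial.eval₂_mul] using h
  have h3 : ∀ l, ∑ k, S k l * v k = 0 := by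
    intro l
    have h := h2 l
    rw [← neg_eq_zero, ← Finset.sum_neg_distrib] at h
    rw [← h]
    refine Finset.sum_congr rfl fun k _ => ?_
    have h4 : S k l = - S l k := by
      simp only [hS]
      rw [hs.alt k l]
      simp [MvPolynomial.eval₂_neg]
    rw [h4, neg_mul]
  have h5 : ∀ k l, MvPolynomial.eval₂ e u (𝔰.s k l) * (p k * q l) =
      l0 ^ 𝔰.m * (S k l * (p' k * q' l)) + l0 ^ (m' + 1) * b * p' k * (S k l * v l) +
        l0 ^ (m' + 1) * a * q' l * (S k l * v k) + l0 ^ m' * a * b * v k * (S k l * v l) := by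
    intro k l
    rw [h1, hp, hq, hm']
    simp only [hS]
    ring
  have e1 : ∑ k, ∑ l, l0 ^ (m' + 1) * b * p' k * (S k l * v l) = 0 :=
    Finset.sum_eq_zero fun k _ => by rw [← Finset.mul_sum, h2, mul_zero]
  have e2 : ∑ k, ∑ l, l0 ^ (m' + 1) * a * q' l * (S k l * v k) = 0 := by
    rw [Finset.sum_comm]
    exact Finset.sum_eq_zero fun l _ => by rw [← Finset.mul_sum, h3, mul_zero]
  have e3 : ∑ k, ∑ l, l0 ^ m' * a * b * v k * (S k l * v l) = 0 :=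
    Finset.sum_eq_zero fun k _ => by rw [← Finset.mul_sum, h2, mul_zero]
  have e4 : l0 ^ 𝔰.m * ∑ k, ∑ l, S k l * (p' k * q' l) =
      ∑ k, ∑ l, l0 ^ 𝔰.m * (S k l * (p' k * q' l)) := by
    rw [Finset.mul_sum]
    exact Finset.sum_congr rfl fun k _ => by rw [Finset.mul_sum]
  rw [e4]
  simp only [h5, Finset.sum_add_distrib]
  rw [e1, e2, e3, add_zero, add_zero, add_zero]

namespace Mbr

variable {𝔭 : PrD n r R} {e : R →+* ℂ} {U : Fin r → Fn A} {𝔰 : FmD r R} {σ : H2 A}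

/-- the Jacobian matrix of `y` in the chart `i` -/
def Jy (𝔭 : PrD n r R) (e : R →+* ℂ) (U : Fin r → Fn A) (i : A.ι) (x : M) :
    Matrix (Fin n) (Fin n) ℂ :=
  Matrix.of fun b a => fderiv ℂ (fun ζ => yM 𝔭 e U ((A.e i).symm ζ)) (A.e i x)
    (EuclideanSpace.single a 1) b

/-- `y` as a map to `Cn n` -/
def fy (𝔭 : PrD n r R) (e : R →+* ℂ) (U : Fin r → Fn A) (x : M) : Cn n :=
  WithLp.toLp 2 (yM 𝔭 e U x)

theorem holW_fy (h : Mbr 𝔭 e O U) (P : (MvPolynomial (Fin n) R)[X]) :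
    HolW A (W 𝔭 e U P) (fy 𝔭 e U) := by
  intro i
  rw [show (fun z => fy 𝔭 e U ((A.e i).symm z)) = fun z =>
    (PiLp.continuousLinearEquiv 2 ℂ (fun _ : Fin n => ℂ)).symm (yM 𝔭 e U ((A.e i).symm z)) from rfl]
  refine (PiLp.continuousLinearEquiv 2 ℂ (fun _ : Fin n => ℂ)).symm.differentiable.comp_differentiableOn ?_
  refine differentiableOn_pi.2 fun j => ?_
  exact ((h.hol_yM i j).mono fun x hx => hx.1 :
    HolAt A i (W 𝔭 e U P) fun x => yM 𝔭 e U x j)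

theorem jd_eq (h : Mbr 𝔭 e O U) {i : A.ι} {x : M} (hx : x ∈ (A.e i).source)
    (h0 : x ∈ nz (ls e U (𝔭.lam 0))) : jd A (fy 𝔭 e U) i x = (Jy 𝔭 e U i x).det := by
  have hd := h.diff_y hx h0
  have hd2 : DifferentiableAt ℂ (fun z => fy 𝔭 e U ((A.e i).symm z)) (A.e i x) :=
    ((PiLp.continuousLinearEquiv 2 ℂ (fun _ : Fin n => ℂ)).symm.differentiable _).comp _ hd
  rw [jd_eq_det hd2]
  congr 1
  ext b a
  rw [Matrix.of_apply, Jy, Matrix.of_apply]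
  have h1 : fderiv ℂ (fun z => fy 𝔭 e U ((A.e i).symm z) b) (A.e i x) =
      (ContinuousLinearMap.proj b : (Fin n → ℂ) →L[ℂ] ℂ).comp
        (fderiv ℂ (fun ζ => yM 𝔭 e U ((A.e i).symm ζ)) (A.e i x)) :=
    ((ContinuousLinearMap.proj b : (Fin n → ℂ) →L[ℂ] ℂ).hasFDerivAt.comp _ hd.hasFDerivAt).fderiv
  rw [h1]
  rfl

theorem Jy_mulVec (i : A.ι) (x : M) (v : Fin n → ℂ) :
    (Jy 𝔭 e U i x).mulVec v = fderiv ℂ (fun ζ => yM 𝔭 e U ((A.e i).symm ζ)) (A.e i x)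
      (WithLp.toLp 2 v : Cn n) := by
  funext b
  rw [eq_sum_single (WithLp.toLp 2 v : Cn n), map_sum, Finset.sum_apply]
  simp only [Matrix.mulVec, dotProduct, Jy, Matrix.of_apply]
  refine Finset.sum_congr rfl fun a _ => ?_
  rw [map_smul, Pi.smul_apply, smul_eq_mul, mul_comm]

theorem Jy_det_ne (h : Mbr 𝔭 e O U) {i : A.ι} {x : M} (hx : x ∈ (A.e i).source)
    (hW : x ∈ W 𝔭 e U (derivative 𝔭.F)) : (Jy 𝔭 e U i x).det ≠ 0 := by
  intro h0
  obtain ⟨v, hv, hv0⟩ := Matrix.exists_mulVec_eq_zero_iff.2 h0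
  rw [Jy_mulVec] at hv0
  have h1 := h.y_inj hx hW hv0
  exact hv (congrArg WithLp.ofLp h1)

/-- **the 2-form in the coordinates `y`** -/
theorem form (h : Mbr 𝔭 e O U) (hs : 𝔰.Good) (hσ : FMbr 𝔰 e U σ) {i : A.ι} {x : M}
    (hx : x ∈ (A.e i).source) (hW : x ∈ W 𝔭 e U (derivative 𝔭.F))
    (hj : pM 𝔭 e U (𝔭.Nm 𝔰.j) x ≠ 0) :
    σ.s i x = (Jy 𝔭 e U i x)ᵀ * SY 𝔭.F 𝔭.Nm 𝔰.j 𝔰.m 𝔰.s (ph e (yM 𝔭 e U x)) (zM 𝔭 e U x) *
      Jy 𝔭 e U i x := by
  have hl := (A.e i).left_inv hx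
  set l0 : M → ℂ := ls e U (𝔭.lam 0) i with hl0
  have h0 : l0 x ≠ 0 := (h.nz_iff hx).1 hW.1
  have hdl : DifferentiableAt ℂ (fun ζ => l0 ((A.e i).symm ζ)) (A.e i x) :=
    ((h.hls (𝔭.lam 0)).hol i).diffAt isOpen_univ hx (mem_univ x)
  have hvk : ∀ k, vM 𝔭 e U k x = QV (𝔭.Nm k) (derivative 𝔭.F) (ph e (yM 𝔭 e U x))
      (zM 𝔭 e U x) := by
    intro k
    have h2 := h.eqN _ hW.1 k
    have h3 := hW.2
    unfold pM at h2 h3
    rw [QV, h2]
    field_simp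
  have hvj : vM 𝔭 e U 𝔰.j x ≠ 0 := by
    intro h1
    have h2 := h.eqN _ hW.1 𝔰.j
    rw [h1, zero_mul] at h2
    exact hj h2
  have hDF : ∀ k a, DF U i x k a = l0 x * (∑ j, QD 𝔭.F (𝔭.Nm k) (derivative 𝔭.F) j
      (ph e (yM 𝔭 e U x)) (zM 𝔭 e U x) * Jy 𝔭 e U i x j a) +
        vM 𝔭 e U k x * df A i l0 x (EuclideanSpace.single a 1) := by
    intro k a
    have h1 := (h.deriv_v hx hW k).fun_mul hdl.hasFDerivAt
    have h2 : HasFDerivAt (fun ζ => U k i ((A.e i).symm ζ)) _ (A.e i x) :=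
      h1.congr_of_eventuallyEq (by
        filter_upwards [ev_symm hx ((A.e i).open_source.mem_nhds hx),
          ev_symm hx (h.open_nz.mem_nhds hW.1)] with ζ hζ hζ'
        rw [h.vM_eq hζ k]
        have h4 : l0 ((A.e i).symm ζ) ≠ 0 := (h.nz_iff hζ).1 hζ'
        exact (div_mul_cancel₀ _ h4).symm)
    rw [DF_apply]
    unfold df
    rw [h2.fderiv]
    simp only [_root_.add_apply, _root_.smul_apply, smul_eq_mul, lc_apply, hl]
    rw [add_comm]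
    rfl
  refine form_eq 𝔭.F 𝔭.Nm 𝔰.j 𝔰.m 𝔰.s e (yM 𝔭 e U x) (zM 𝔭 e U x) (Jy 𝔭 e U i x)
    (fun k => vM 𝔭 e U k x) _ hvk (fun k a => rfl) hvj (σ.s i x) fun a b => ?_
  have h1 := hσ i x hx a b
  have hu : ∀ k, U k i x = l0 x * vM 𝔭 e U k x := by
    intro k
    rw [h.vM_eq hx k]
    exact (mul_div_cancel₀ _ h0).symm
  rw [frame 𝔰 hs e (l0 x) (fun k => U k i x) (fun k => vM 𝔭 e U k x) hu _ _ _ _ _ _
    (fun k => hDF k a) (fun k => hDF k b)] at h1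
  rw [hu 𝔰.j, mul_pow, mul_assoc] at h1
  exact mul_left_cancel₀ (pow_ne_zero _ h0) h1

end Mbr

end Crest.Agent.R281.GT_639
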