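import Crest.Agent.R281.GT7_639

/-!
Row 281, glue DIV 2 -> DIV 3 (helper639).  Part 8: the area formula of a member.
-/

set_option autoImplicit false
set_option linter.unusedSectionVars false

open Polynomial Set Filter Topology Complex MeasureTheory
open scoped ContDiff Matrix ComplexConjugate Manifold ENNReal

noncomputable section

namespace Crest.Agent.R281.GT_639

open Crest.Agent.R275 Crest.Agent.R275.Geo Crest.Agent.R275.Core144 Crest.Agent.R275.EDR890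
open Crest.Agent.R273.Defs_333 Crest.Agent.R273.Kah_333
open Crest.Agent.R273.SerA_945 (Fn)
open Crest.Agent.R273.SteinC_794 Crest.Agent.R273.Chow_313
open Crest.Agent.R273.Vm_333
open Crest.Agent.R281.Defs_273 Crest.Agent.R281.AF_867 Crest.Agent.R281.Qr_770
open Crest.Agent.R281.HkP2_508 (volS)

variable {n r : ℕ} {R : Type*} [CommRing R]

/-! ### measurability -/

theorem meas_pe (e : R →+* ℂ) (P : (MvPolynomial (Fin n) R)[X]) :
    Measurable fun p : (Fin n → ℂ) × ℂ => (P.map (ph e p.1)).eval p.2 :=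
  (continuous_pe e P).measurable

theorem meas_TD (e : R →+* ℂ) (F P : (MvPolynomial (Fin n) R)[X]) (i : Fin n) :
    Measurable fun p : (Fin n → ℂ) × ℂ => TD F P i (ph e p.1) p.2 :=
  (meas_pe e (Dc i P)).sub (((meas_pe e (derivative P)).mul (meas_pe e (Dc i F))).mul
    (meas_pe e (derivative F)).inv)

theorem meas_QV (e : R →+* ℂ) (P Q : (MvPolynomial (Fin n) R)[X]) :
    Measurable fun p : (Fin n → ℂ) × ℂ => QV P Q (ph e p.1) p.2 :=
  (meas_pe e P).mul (meas_pe e Q).inv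

theorem meas_QD (e : R →+* ℂ) (F P Q : (MvPolynomial (Fin n) R)[X]) (i : Fin n) :
    Measurable fun p : (Fin n → ℂ) × ℂ => QD F P Q i (ph e p.1) p.2 :=
  ((meas_TD e F P i).mul (meas_pe e Q).inv).sub
    (((meas_pe e P).mul (meas_TD e F Q i)).mul ((meas_pe e Q).inv.mul (meas_pe e Q).inv))

theorem meas_eval₂ {T : Type*} [MeasurableSpace T] (e : R →+* ℂ) (p : MvPolynomial (Fin r) R)
    {v : T → Fin r → ℂ} (hv : ∀ k, Measurable fun t => v t k) :
    Measurable fun t => MvPolynomial.eval₂ e (v t) p := by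
  have h : (fun t => MvPolynomial.eval₂ e (v t) p) = fun t =>
      ∑ d ∈ p.support, e (p.coeff d) * ∏ i, v t i ^ d i := by
    funext t
    exact MvPolynomial.eval₂_eq' _ _ _
  rw [h]
  exact Finset.measurable_sum _ fun d _ => (Finset.measurable_prod _ fun k _ =>
    (hv k).pow_const _).const_mul _

theorem meas_det {T : Type*} [MeasurableSpace T] {S : T → Matrix (Fin n) (Fin n) ℂ}
    (h : ∀ a b, Measurable fun t => S t a b) : Measurable fun t => (S t).det := by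
  simp only [Matrix.det_apply']
  exact Finset.measurable_sum _ fun d _ => (Finset.measurable_prod _ fun k _ => h _ _).const_mul _

theorem meas_SY (e : R →+* ℂ) (F : (MvPolynomial (Fin n) R)[X])
    (Nm : Fin r → (MvPolynomial (Fin n) R)[X]) (j : Fin r) (m : ℕ)
    (s : Fin r → Fin r → MvPolynomial (Fin r) R) :
    Measurable fun p : (Fin n → ℂ) × ℂ => (SY F Nm j m s (ph e p.1) p.2).det := by
  refine meas_det fun a b => ?_
  simp only [SY, Matrix.of_apply]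
  refine Finset.measurable_sum _ fun k _ => Finset.measurable_sum _ fun l _ => ?_
  refine (((meas_pe e (Nm j)).inv.pow_const m).mul ((meas_pe e (derivative F)).pow_const m)).mul
    (Measurable.mul ?_ ((meas_QD e F _ _ a).mul (meas_QD e F _ _ b)))
  have h1 : ∀ p : (Fin n → ℂ) × ℂ, (ph e p.1).comp
      (MvPolynomial.C : R →+* MvPolynomial (Fin n) R) = e := by
    intro p
    ext r
    simp
  simp only [h1]
  exact meas_eval₂ e (s k l) (v := fun (p : (Fin n → ℂ) × ℂ) k =>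
    QV (Nm k) (derivative F) (ph e p.1) p.2) fun k => meas_QV e (Nm k) (derivative F)

/-! ### the area formula -/

variable {M : Type} [TopologicalSpace M] {A : Atl n M} {O : LB A}

/-- the density `|det σ_y|` -/
def dS (𝔭 : PrD n r R) (𝔰 : FmD r R) (e : R →+* ℂ) (y : Fin n → ℂ) (z : ℂ) : ℝ :=
  ‖(SY 𝔭.F 𝔭.Nm 𝔰.j 𝔰.m 𝔰.s (ph e y) z).det‖

/-- the polynomial whose nonvanishing defines the good part -/
def PrD.gp (𝔭 : PrD n r R) (𝔰 : FmD r R) : (MvPolynomial (Fin n) R)[X] :=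
  derivative 𝔭.F * 𝔭.Nm 𝔰.j

namespace Mbr

variable {𝔭 : PrD n r R} {e : R →+* ℂ} {U : Fin r → Fn A} {𝔰 : FmD r R} {σ : HSymp A}

theorem W_gp (x : M) : x ∈ W 𝔭 e U (𝔭.gp 𝔰) ↔ x ∈ W 𝔭 e U (derivative 𝔭.F) ∧
    pM 𝔭 e U (𝔭.Nm 𝔰.j) x ≠ 0 := by
  unfold W PrD.gp pM
  simp only [Polynomial.map_mul, eval_mul, mul_ne_zero_iff, mem_ofPred_eq, and_assoc]

theorem reg_eq (h : Mbr 𝔭 e O U) :
    Reg A (fy 𝔭 e U) (W 𝔭 e U (𝔭.gp 𝔰)) = W 𝔭 e U (𝔭.gp 𝔰) := by
  ext x
  constructor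
  · exact fun hx => hx.1
  · intro hx
    refine ⟨hx, fun i hi => ?_⟩
    rw [h.jd_eq hi hx.1]
    exact h.Jy_det_ne hi ((W_gp x).1 hx).1

section meas

variable [MeasurableSpace M] [BorelSpace M]

open Classical in
/-- a measurable version of `(y, z)` -/
def yz (𝔭 : PrD n r R) (e : R →+* ℂ) (U : Fin r → Fn A) (P : (MvPolynomial (Fin n) R)[X]) :
    M → (Fin n → ℂ) × ℂ :=
  (W 𝔭 e U P).piecewise (fun x => (yM 𝔭 e U x, zM 𝔭 e U x)) fun _ => 0

theorem meas_yz (h : Mbr 𝔭 e O U) (P : (MvPolynomial (Fin n) R)[X]) :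
    Measurable (yz 𝔭 e U P) := by
  classical
  refine ContinuousOn.measurable_piecewise (fun x hx => ?_) continuousOn_const
    (h.open_W P).measurableSet
  exact ((h.cont_yM hx.1).prodMk (h.cont_zM hx.1)).continuousWithinAt

theorem yz_eq {P : (MvPolynomial (Fin n) R)[X]} {x : M} (hx : x ∈ W 𝔭 e U P) :
    yz 𝔭 e U P x = (yM 𝔭 e U x, zM 𝔭 e U x) := by
  classical
  exact Set.piecewise_eq_of_mem _ _ _ hx

theorem meas_pre (h : Mbr 𝔭 e O U) (P : (MvPolynomial (Fin n) R)[X]) {B : Set (Fin n → ℂ)}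
    (hB : MeasurableSet B) : MeasurableSet (W 𝔭 e U P ∩ yM 𝔭 e U ⁻¹' B) := by
  have h1 : W 𝔭 e U P ∩ yM 𝔭 e U ⁻¹' B = W 𝔭 e U P ∩ yz 𝔭 e U P ⁻¹' (Prod.fst ⁻¹' B) := by
    ext x
    constructor
    · rintro ⟨h1, h2⟩
      refine ⟨h1, ?_⟩
      show (yz 𝔭 e U P x).1 ∈ B
      rw [yz_eq h1]
      exact h2
    · rintro ⟨h1, h2⟩
      refine ⟨h1, ?_⟩
      change (yz 𝔭 e U P x).1 ∈ B at h2
      rw [yz_eq h1] at h2
      exact h2
  rw [h1]
  exact (h.open_W P).measurableSet.inter (h.meas_yz P (measurable_fst hB))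

variable [Countable A.ι]

/-- **the area formula** -/
theorem area_y (h : Mbr 𝔭 e O U) (hs : 𝔰.Good) (hσ : FMbr 𝔰 e U σ.toH2) {B : Set (Fin n → ℂ)}
    (hB : MeasurableSet B) :
    vm (volS σ) (W 𝔭 e U (𝔭.gp 𝔰) ∩ yM 𝔭 e U ⁻¹' B) =
      ∫⁻ y in B, fsum (yM 𝔭 e U) (W 𝔭 e U (𝔭.gp 𝔰))
        (fun x => ENNReal.ofReal (dS 𝔭 𝔰 e (yM 𝔭 e U x) (zM 𝔭 e U x))) y := by
  classical
  set Wg := W 𝔭 e U (𝔭.gp 𝔰) with hWg
  set Bm : Set M := Wg ∩ yM 𝔭 e U ⁻¹' B with hBm
  have hBmm : MeasurableSet Bm := h.meas_pre _ hB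
  set g : M → ℝ≥0∞ := fun x => ENNReal.ofReal (dS 𝔭 𝔰 e (yz 𝔭 e U (𝔭.gp 𝔰) x).1
    (yz 𝔭 e U (𝔭.gp 𝔰) x).2) with hg
  have hgm : Measurable g :=
    ((meas_SY e 𝔭.F 𝔭.Nm 𝔰.j 𝔰.m 𝔰.s).comp (h.meas_yz (𝔭.gp 𝔰))).norm.ennreal_ofReal
  have hgW : ∀ x ∈ Wg, g x = ENNReal.ofReal (dS 𝔭 𝔰 e (yM 𝔭 e U x) (zM 𝔭 e U x)) := by
    intro x hx
    simp only [hg]
    rw [yz_eq hx]
  have h1 := area_vm (volS σ) (h.open_W (𝔭.gp 𝔰)) (h.holW_fy (𝔭.gp 𝔰)) (F := Bm.indicator g)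
    (Φ := Bm.indicator 1) (hgm.indicator hBmm) (measurable_one.indicator hBmm) (by
      intro i x hx hxW
      by_cases hxB : x ∈ Bm
      · rw [indicator_of_mem hxB, indicator_of_mem hxB, Pi.one_apply, mul_one, hgW x hxW,
          ← ENNReal.ofReal_mul (by positivity)]
        congr 1
        have h2 := (W_gp x).1 hxW
        have h3 := h.form hs hσ hx h2.1 h2.2
        have h4 := det_form_eq h3
        rw [h.jd_eq hx hxW.1]
        exact h4
      · rw [indicator_of_notMem hxB, indicator_of_notMem hxB, mul_zero, mul_zero])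
  rw [h.reg_eq] at h1
  have h2 : ∫⁻ x in Wg, Bm.indicator 1 x ∂(vm (volS σ)) = vm (volS σ) Bm := by
    rw [lintegral_indicator_one hBmm, Measure.restrict_apply hBmm, inter_eq_left.2
      inter_subset_left]
  rw [← h2, h1]
  have h3 : ∀ w : RI n → ℝ, fsum (fun x => rc (fy 𝔭 e U x)) Wg (Bm.indicator g) w =
      fsum (yM 𝔭 e U) Wg (Bm.indicator g) (Crest.Agent.R273.SteinM_794.kap w) := by
    intro w
    have h4 : ∀ x : M, rc (fy 𝔭 e U x) = w ↔ yM 𝔭 e U x = Crest.Agent.R273.SteinM_794.kap w := by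
      intro x
      constructor
      · intro h5
        rw [← h5]
        exact (Crest.Agent.R273.SteinM_794.kap_rc _).symm
      · intro h5
        unfold fy
        rw [h5]
        exact Crest.Agent.R273.SteinM_794.rc_kap w
    unfold fsum
    exact Equiv.tsum_eq (Equiv.subtypeEquivRight h4) fun x => Wg.indicator (Bm.indicator g) x.1
  refine (lintegral_congr h3).trans ?_
  have h5 := (Crest.Agent.R273.SteinM_794.mp_kap n).lintegral_comp_emb
    (Crest.Agent.R273.SteinM_794.me_kap n) fun y => fsum (yM 𝔭 e U) Wg (Bm.indicator g) y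
  rw [h5]
  have h6 : (fun y => fsum (yM 𝔭 e U) Wg (Bm.indicator g) y) = B.indicator
      (fsum (yM 𝔭 e U) Wg
        (fun x => ENNReal.ofReal (dS 𝔭 𝔰 e (yM 𝔭 e U x) (zM 𝔭 e U x)))) := by
    funext y
    by_cases hy : y ∈ B
    · rw [indicator_of_mem hy]
      unfold fsum
      refine tsum_congr fun x => ?_
      by_cases hx : x.1 ∈ Wg
      · rw [indicator_of_mem hx, indicator_of_mem hx, indicator_of_mem, hgW _ hx]
        exact ⟨hx, by rw [mem_preimage, x.2]; exact hy⟩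
      · rw [indicator_of_notMem hx, indicator_of_notMem hx]
    · rw [indicator_of_notMem hy]
      unfold fsum
      rw [ENNReal.tsum_eq_zero]
      intro x
      by_cases hx : x.1 ∈ Wg
      · rw [indicator_of_mem hx, indicator_of_notMem]
        rintro ⟨-, h7⟩
        rw [mem_preimage, x.2] at h7
        exact hy h7
      · rw [indicator_of_notMem hx]
  rw [h6, lintegral_indicator hB]

end meas

/-! ### the fibres -/

theorem lv_Nm (a : Fin r → R) (e : R →+* ℂ) (y : Fin n → ℂ) (z : ℂ) :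
    ((∑ k, C (MvPolynomial.C (a k)) * 𝔭.Nm k).map (ph e y)).eval z =
      lv e a fun k => ((𝔭.Nm k).map (ph e y)).eval z := by
  simp [lv, Polynomial.map_sum, eval_finsetSum]

/-- a point over a root -/
theorem exists_pt (h : Mbr 𝔭 e O U) (hg : 𝔭.Good) {y : Fin n → ℂ} {z : ℂ}
    (hz : (𝔭.F.map (ph e y)).eval z = 0) (hz' : ((derivative 𝔭.F).map (ph e y)).eval z ≠ 0) :
    ∃ x ∈ nz (ls e U (𝔭.lam 0)), yM 𝔭 e U x = y ∧ zM 𝔭 e U x = z := by
  obtain ⟨i, x, hx, c, hc⟩ := h.surj y z hz hz'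
  have e0 : lv e (𝔭.lam 0) (fun k => ((𝔭.Nm k).map (ph e y)).eval z) =
      ((derivative 𝔭.F).map (ph e y)).eval z := by
    rw [← lv_Nm, hg.lam0]
  have eS : ∀ j, lv e (𝔭.lam j.succ) (fun k => ((𝔭.Nm k).map (ph e y)).eval z) =
      y j * ((derivative 𝔭.F).map (ph e y)).eval z := by
    intro j
    rw [← lv_Nm, hg.lamS j]
    simp
  have ew : lv e 𝔭.w (fun k => ((𝔭.Nm k).map (ph e y)).eval z) =
      z * ((derivative 𝔭.F).map (ph e y)).eval z := by
    rw [← lv_Nm, hg.wN]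
    simp [hz]
  have hcc : ∀ a : Fin r → R, lv e a (fun k => ((𝔭.Nm k).map (ph e y)).eval z) =
      c * lv e a (fun k => U k i x) := by
    intro a
    simp only [hc, lv, Finset.mul_sum]
    exact Finset.sum_congr rfl fun k _ => by ring
  rw [hcc] at e0 ew
  simp only [hcc] at eS
  have hc0 : c ≠ 0 := by
    rintro rfl
    rw [zero_mul] at e0
    exact hz' e0.symm
  have hl0 : lv e (𝔭.lam 0) (fun k => U k i x) ≠ 0 := by
    intro h0
    rw [h0, mul_zero] at e0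
    exact hz' e0.symm
  refine ⟨x, (h.nz_iff hx).2 hl0, ?_, ?_⟩
  · funext j
    rw [h.yM_eq hx j, div_eq_iff hl0]
    have h1 := eS j
    rw [← e0] at h1
    have h2 : c * (lv e (𝔭.lam j.succ) (fun k => U k i x) -
        y j * lv e (𝔭.lam 0) (fun k => U k i x)) = 0 := by linear_combination h1
    exact sub_eq_zero.1 ((mul_eq_zero.1 h2).resolve_left hc0)
  · rw [h.zM_eq hx, div_eq_iff hl0]
    rw [← e0] at ew
    have h2 : c * (lv e 𝔭.w (fun k => U k i x) -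
        z * lv e (𝔭.lam 0) (fun k => U k i x)) = 0 := by linear_combination ew
    exact sub_eq_zero.1 ((mul_eq_zero.1 h2).resolve_left hc0)

/-- points are determined by `(y, z)` -/
theorem inj_yz (h : Mbr 𝔭 e O U) {x x' : M} (hx : x ∈ W 𝔭 e U (derivative 𝔭.F))
    (hx' : x' ∈ W 𝔭 e U (derivative 𝔭.F)) (hy : yM 𝔭 e U x = yM 𝔭 e U x')
    (hz : zM 𝔭 e U x = zM 𝔭 e U x') : x = x' := by
  obtain ⟨i, hi⟩ := A.cover x
  obtain ⟨i', hi'⟩ := A.cover x'
  have hv : ∀ k, vM 𝔭 e U k x = vM 𝔭 e U k x' := by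
    intro k
    have h1 := h.eqN _ hx.1 k
    have h2 := h.eqN _ hx'.1 k
    have h3 : pM 𝔭 e U (𝔭.Nm k) x = pM 𝔭 e U (𝔭.Nm k) x' := by unfold pM; rw [hy, hz]
    have h4 : pM 𝔭 e U (derivative 𝔭.F) x = pM 𝔭 e U (derivative 𝔭.F) x' := by
      unfold pM; rw [hy, hz]
    rw [h3, h2, h4] at h1
    exact (mul_right_cancel₀ hx'.2 h1).symm
  have hl := (h.nz_iff hi).1 hx.1
  have hl' := (h.nz_iff hi').1 hx'.1
  refine h.inj i i' x hi x' hi' ⟨lv e (𝔭.lam 0) (fun k => U k i x) /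
    lv e (𝔭.lam 0) (fun k => U k i' x'), fun k => ?_⟩
  have h1 := hv k
  rw [h.vM_eq hi k, h.vM_eq hi' k] at h1
  field_simp at h1 ⊢
  linear_combination h1

theorem root_mem (h : Mbr 𝔭 e O U) (hg : 𝔭.Good) {x : M} (hx : x ∈ nz (ls e U (𝔭.lam 0))) :
    zM 𝔭 e U x ∈ (𝔭.F.map (ph e (yM 𝔭 e U x))).roots := by
  rw [mem_roots (hg.monic.map _).ne_zero]
  exact h.eqF x hx

theorem fsum_le (h : Mbr 𝔭 e O U) (hg : 𝔭.Good) {S : Set M} (hS : S ⊆ W 𝔭 e U (derivative 𝔭.F))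
    {G : M → ℝ≥0∞} {c : ℝ≥0∞} {y : Fin n → ℂ} (hc : ∀ x ∈ S, yM 𝔭 e U x = y → G x ≤ c) :
    fsum (yM 𝔭 e U) S G y ≤ 𝔭.F.natDegree * c := by
  classical
  unfold fsum
  rw [ENNReal.tsum_eq_iSup_sum]
  refine iSup_le fun s => ?_
  have h1 : ∑ x ∈ s, S.indicator G x.1 ≤ ∑ x ∈ s.filter (fun x => x.1 ∈ S), c := by
    rw [Finset.sum_filter]
    refine Finset.sum_le_sum fun x _ => ?_
    split_ifs with hx
    · rw [indicator_of_mem hx]
      exact hc _ hx x.2
    · rw [indicator_of_notMem hx]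
  refine h1.trans ?_
  rw [Finset.sum_const, nsmul_eq_mul]
  gcongr
  have h2 : (s.filter fun x => x.1 ∈ S).card ≤ (𝔭.F.map (ph e y)).roots.toFinset.card := by
    refine Finset.card_le_card_of_injOn (fun x => zM 𝔭 e U x.1) ?_ ?_
    · intro x hx
      have hx' := (Finset.mem_filter.1 (Finset.mem_coe.1 hx)).2
      have h3 := h.root_mem hg (hS hx').1
      rw [x.2] at h3
      exact Finset.mem_coe.2 (Multiset.mem_toFinset.2 h3)
    · intro x hx x' hx' hxx
      have h3 := (Finset.mem_filter.1 (Finset.mem_coe.1 hx)).2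
      have h4 := (Finset.mem_filter.1 (Finset.mem_coe.1 hx')).2
      exact Subtype.ext (h.inj_yz (hS h3) (hS h4) (x.2.trans x'.2.symm) hxx)
  have h3 : (𝔭.F.map (ph e y)).roots.toFinset.card ≤ 𝔭.F.natDegree :=
    (Multiset.toFinset_card_le _).trans ((card_roots' _).trans (natDegree_map_le))
  exact_mod_cast h2.trans h3

theorem le_fsum {S : Set M} {G : M → ℝ≥0∞} {y : Fin n → ℂ} {x : M} (hx : x ∈ S)
    (hy : yM 𝔭 e U x = y) : G x ≤ fsum (yM 𝔭 e U) S G y := by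
  unfold fsum
  have h := ENNReal.le_tsum (f := fun x : {x : M // yM 𝔭 e U x = y} => S.indicator G x.1) ⟨x, hy⟩
  rwa [indicator_of_mem hx] at h

end Mbr

end Crest.Agent.R281.GT_639
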