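import Crest.Agent.R281.TrPL_726

/-!
# Row 281, TROP-UWT (helper249), part 1: points, scales, measurability, Fubini, null sets
-/

namespace Crest.Agent.R281.TrU_249

open MeasureTheory Filter Topology
open scoped ENNReal

open Crest.Agent.R281.TrPL_726

/-- the point `x` over the point `φ` -/
noncomputable def ptX {A : Type*} [CommRing A] (φ : A →+* ℂ) (x : ℂ) : Polynomial A →+* ℂ :=
  Polynomial.eval₂RingHom φ x

/-- the point `(φ, y)` of affine space -/
noncomputable def pt {R : Type*} [CommRing R] (φ : R →+* ℂ) {n : ℕ} (y : Fin n → ℂ) :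
    MvPolynomial (Fin n) R →+* ℂ :=
  MvPolynomial.eval₂Hom φ y

/-- `L → ∞` along `l`, and every nonzero `r` has size `exp (k L + O(1))` -/
structure Scale {T R : Type*} [CommRing R] (l : Filter T) (ev : T → R →+* ℂ) (L : T → ℝ) : Prop where
  tendsto : Tendsto L l atTop
  ord : ∀ r : R, r ≠ 0 → ∃ k C : ℝ, ∀ᶠ t in l, ev t r ≠ 0 ∧ |Real.log ‖ev t r‖ - k * L t| ≤ C

/-- the one-variable projection step (owner: helper726 / helper282) -/
def Proj (A : Type*) [CommRing A] : Prop :=
  ∀ G : (Polynomial A →+* ℂ) → ℝ, Tr (Polynomial A) G →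
    ∀ (k : ℕ) (w : Fin k → Polynomial A), (∀ i, w i ≠ 0) →
    ∃ (M : (A →+* ℂ) → ℝ) (q1 : A) (P : Polynomial A) (j : ℕ) (Q : Fin j → A) (κ₀ C : ℝ),
      Tr A M ∧ q1 ≠ 0 ∧ P ≠ 0 ∧ (∀ i, Q i ≠ 0) ∧ 0 < κ₀ ∧ 0 < C ∧
      ∀ φ : A →+* ℂ, φ q1 ≠ 0 → ∫⁻ x, ENNReal.ofReal (G (ptX φ x)) ≠ ∞ →
        (ENNReal.ofReal (M φ) ≤ ENNReal.ofReal C * ∫⁻ x, ENNReal.ofReal (G (ptX φ x))) ∧
        (∀ κ : ℝ, 0 ≤ κ → κ ≤ κ₀ →
          ∫⁻ x, ENNReal.ofReal (G (ptX φ x) *
            Real.exp (κ * (∑ i, |Real.log ‖ptX φ x (w i)‖| + |Real.log ‖ptX φ x P‖|))) ≤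
          ENNReal.ofReal (C * M φ * (1 + ∑ i, |Real.log ‖φ (Q i)‖|) *
            Real.exp (C * κ * (1 + ∑ i, |Real.log ‖φ (Q i)‖|)))) ∧
        ∫⁻ x in {x | C * M φ * ‖ptX φ x P.derivative / ptX φ x P‖ ^ 2 < G (ptX φ x)},
          ENNReal.ofReal (G (ptX φ x)) ≤ ENNReal.ofReal (C * M φ)

section algebra

variable {R : Type*} [CommRing R]

theorem pt_C (φ : R →+* ℂ) {n : ℕ} (y : Fin n → ℂ) (r : R) : pt φ y (MvPolynomial.C r) = φ r := by
  simp [pt]

theorem pt_X (φ : R →+* ℂ) {n : ℕ} (y : Fin n → ℂ) (i : Fin n) :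
    pt φ y (MvPolynomial.X i) = y i := by
  simp [pt]

theorem pt_cons_comp (φ : R →+* ℂ) {n : ℕ} (x : ℂ) (y : Fin n → ℂ) :
    pt φ (Fin.cons x y : Fin (n + 1) → ℂ) =
      (ptX (pt φ y) x).comp (MvPolynomial.finSuccEquiv R n : MvPolynomial (Fin (n + 1)) R →+* _) := by
  apply MvPolynomial.ringHom_ext
  · intro r
    rw [pt_C]
    simp [ptX, MvPolynomial.finSuccEquiv_apply, pt]
  · intro i
    rw [pt_X]
    refine Fin.cases ?_ (fun i => ?_) i
    · simp [ptX, MvPolynomial.finSuccEquiv_X_zero]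
    · simp [ptX, MvPolynomial.finSuccEquiv_X_succ, pt]

theorem pt_cons (φ : R →+* ℂ) {n : ℕ} (x : ℂ) (y : Fin n → ℂ) (p : MvPolynomial (Fin (n + 1)) R) :
    pt φ (Fin.cons x y : Fin (n + 1) → ℂ) p = ptX (pt φ y) x (MvPolynomial.finSuccEquiv R n p) := by
  rw [pt_cons_comp]; rfl

theorem fse_rename {n : ℕ} (g : MvPolynomial (Fin n) R) :
    MvPolynomial.finSuccEquiv R n (MvPolynomial.rename Fin.succ g) = Polynomial.C g := by
  induction g using MvPolynomial.induction_on with
  | C a => simp [MvPolynomial.finSuccEquiv_apply]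
  | add p q hp hq => simp [hp, hq]
  | mul_X p i hp => simp [hp, MvPolynomial.finSuccEquiv_X_succ]

theorem pt_cons_rename (φ : R →+* ℂ) {n : ℕ} (x : ℂ) (y : Fin n → ℂ) (g : MvPolynomial (Fin n) R) :
    pt φ (Fin.cons x y : Fin (n + 1) → ℂ) (MvPolynomial.rename Fin.succ g) = pt φ y g := by
  rw [pt_cons, fse_rename]; simp [ptX]

theorem fse_pderiv {n : ℕ} (p : MvPolynomial (Fin (n + 1)) R) :
    MvPolynomial.finSuccEquiv R n (MvPolynomial.pderiv 0 p) =
      Polynomial.derivative (MvPolynomial.finSuccEquiv R n p) := by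
  induction p using MvPolynomial.induction_on with
  | C a => simp [MvPolynomial.finSuccEquiv_apply]
  | add p q hp hq => simp [hp, hq]
  | mul_X p i hp =>
    rw [Derivation.leibniz, MvPolynomial.pderiv_X, map_add, smul_eq_mul, smul_eq_mul, map_mul,
      map_mul, map_mul, hp, Polynomial.derivative_mul]
    refine Fin.cases ?_ (fun i => ?_) i
    · simp [MvPolynomial.finSuccEquiv_X_zero]; ring
    · simp [MvPolynomial.finSuccEquiv_X_succ]; ring

theorem pt_cons_pderiv_zero (φ : R →+* ℂ) {n : ℕ} (x : ℂ) (y : Fin n → ℂ)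
    (P : Polynomial (MvPolynomial (Fin n) R)) :
    pt φ (Fin.cons x y : Fin (n + 1) → ℂ)
      (MvPolynomial.pderiv 0 ((MvPolynomial.finSuccEquiv R n).symm P)) =
      ptX (pt φ y) x (Polynomial.derivative P) := by
  rw [pt_cons, fse_pderiv, AlgEquiv.apply_symm_apply]

theorem pt_cons_pderiv_succ (φ : R →+* ℂ) {n : ℕ} (x : ℂ) (y : Fin n → ℂ)
    (g : MvPolynomial (Fin n) R) (i : Fin n) :
    pt φ (Fin.cons x y : Fin (n + 1) → ℂ)
      (MvPolynomial.pderiv i.succ (MvPolynomial.rename Fin.succ g)) =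
      pt φ y (MvPolynomial.pderiv i g) := by
  rw [MvPolynomial.pderiv_rename (Fin.succ_injective n), pt_cons_rename]

/-- transfer of the class along a ring isomorphism -/
theorem Tr.transfer {A B : Type*} [CommRing A] [CommRing B] (e : A ≃+* B)
    {G : (A →+* ℂ) → ℝ} (h : Tr A G) : Tr B (fun ψ => G (ψ.comp (e : A →+* B))) := by
  obtain ⟨n, q, F, hq, hF, hG⟩ := h
  refine ⟨n, fun v => e (q v), F, fun v => ?_, hF, fun φ => ?_⟩
  · simpa using hq v
  · show G (φ.comp (e : A →+* B)) = _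
    rw [hG]; rfl

end algebra

section meas

variable {R : Type*} [CommRing R]

theorem pt_eq_eval (φ : R →+* ℂ) {n : ℕ} (y : Fin n → ℂ) (p : MvPolynomial (Fin n) R) :
    pt φ y p = MvPolynomial.eval y (MvPolynomial.map φ p) := by
  simp [pt, MvPolynomial.eval_map]

theorem continuous_pt (φ : R →+* ℂ) {n : ℕ} (p : MvPolynomial (Fin n) R) :
    Continuous (fun y : Fin n → ℂ => pt φ y p) := by
  simp only [pt_eq_eval]
  exact MvPolynomial.continuous_eval _

theorem measurable_log_pt (φ : R →+* ℂ) {n : ℕ} (p : MvPolynomial (Fin n) R) :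
    Measurable (fun y : Fin n → ℂ => Real.log ‖pt φ y p‖) :=
  Real.measurable_log.comp (continuous_pt φ p).norm.measurable

theorem measurable_Tr {n : ℕ} {G : (MvPolynomial (Fin n) R →+* ℂ) → ℝ}
    (h : Tr (MvPolynomial (Fin n) R) G) (φ : R →+* ℂ) :
    Measurable (fun y : Fin n → ℂ => G (pt φ y)) := by
  obtain ⟨m, q, F, _, hF, hG⟩ := h
  simp only [hG]
  exact Real.measurable_exp.comp (hF.continuous.measurable.comp
    (measurable_pi_lambda _ fun v => measurable_log_pt φ (q v)))

/-- Fubini for `Fin (n+1) → ℂ` -/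
theorem lintegral_cons {n : ℕ} (g : (Fin (n + 1) → ℂ) → ℝ≥0∞) (hg : Measurable g) :
    ∫⁻ z, g z = ∫⁻ y : Fin n → ℂ, ∫⁻ x : ℂ, g (Fin.cons x y) := by
  have e := (volume_preserving_piFinSuccAbove (fun _ : Fin (n + 1) => ℂ) 0).symm
  rw [← e.lintegral_comp_emb (MeasurableEquiv.measurableEmbedding _) g]
  rw [Measure.volume_eq_prod, lintegral_prod_symm']
  · refine lintegral_congr fun y => lintegral_congr fun x => ?_
    congr 1
    exact Fin.insertNth_zero' x y
  · exact hg.comp (MeasurableEquiv.measurable _)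

theorem measurable_cons {n : ℕ} : Measurable (fun p : ℂ × (Fin n → ℂ) =>
    (Fin.cons p.1 p.2 : Fin (n + 1) → ℂ)) := by
  refine measurable_pi_lambda _ fun i => ?_
  refine Fin.cases ?_ (fun i => ?_) i
  · simpa using measurable_fst
  · exact (measurable_pi_apply i).comp measurable_snd

/-- the zero set of a nonzero polynomial is null -/
theorem ae_eval_ne_zero {n : ℕ} (p : MvPolynomial (Fin n) ℂ) (hp : p ≠ 0) :
    ∀ᵐ y : Fin n → ℂ, MvPolynomial.eval y p ≠ 0 := by
  induction n with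
  | zero =>
    refine Eventually.of_forall fun y => ?_
    obtain ⟨a, rfl⟩ := MvPolynomial.C_surjective (Fin 0) p
    have : a ≠ 0 := by rintro rfl; exact hp (by simp)
    simpa using this
  | succ n ih =>
    classical
    set P := MvPolynomial.finSuccEquiv ℂ n p with hP
    have hP0 : P ≠ 0 := by
      rw [hP]; simpa using hp
    obtain ⟨i, hi⟩ : ∃ i, P.coeff i ≠ 0 := by
      by_contra h
      push Not at h
      exact hP0 (Polynomial.ext (by simpa using h))
    have h1 := ih (P.coeff i) hi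
    have hmeas : MeasurableSet {z : Fin (n + 1) → ℂ | MvPolynomial.eval z p = 0} :=
      (isClosed_singleton.preimage (MvPolynomial.continuous_eval p)).measurableSet
    rw [ae_iff]
    simp only [ne_eq, not_not]
    rw [← lintegral_indicator_one hmeas, lintegral_cons _ (measurable_one.indicator hmeas)]
    rw [lintegral_eq_zero_iff']
    · filter_upwards [h1] with y hy
      have hQ : Polynomial.map (MvPolynomial.eval y) P ≠ 0 := by
        intro h0
        apply hy
        have := congrArg (fun q => Polynomial.coeff q i) h0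
        simpa [Polynomial.coeff_map] using this
      show ∫⁻ x : ℂ, _ = 0
      rw [lintegral_eq_zero_iff']
      · have hfin : ({x : ℂ | Polynomial.IsRoot (Polynomial.map (MvPolynomial.eval y) P) x}).Finite :=
          Polynomial.finite_setOfPred_isRoot hQ
        have hnull : volume {x : ℂ | Polynomial.IsRoot (Polynomial.map (MvPolynomial.eval y) P) x} = 0 :=
          hfin.measure_zero volume
        have hae : ∀ᵐ x : ℂ, ¬ Polynomial.IsRoot (Polynomial.map (MvPolynomial.eval y) P) x := by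
          rw [ae_iff]; simpa using hnull
        filter_upwards [hae] with x hx
        have : MvPolynomial.eval (Fin.cons x y : Fin (n + 1) → ℂ) p ≠ 0 := by
          rw [MvPolynomial.eval_eq_eval_mv_eval']
          exact hx
        simp [Set.indicator, this]
      · refine Measurable.aemeasurable ?_
        exact (measurable_one.indicator hmeas).comp (measurable_cons.comp
          (measurable_id.prodMk measurable_const))
    · refine Measurable.aemeasurable ?_
      have : Measurable (fun q : (Fin n → ℂ) × ℂ =>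
          ({z : Fin (n + 1) → ℂ | MvPolynomial.eval z p = 0}).indicator (1 : (Fin (n+1) → ℂ) → ℝ≥0∞)
            (Fin.cons q.2 q.1)) :=
        (measurable_one.indicator hmeas).comp (measurable_cons.comp measurable_swap)
      exact this.lintegral_prod_right'

end meas

section scale

variable {T R : Type*} [CommRing R] {l : Filter T} {ev : T → R →+* ℂ} {L : T → ℝ}

/-- for `t` close to the limit a nonzero polynomial stays nonzero -/
theorem Scale.map_ne_zero (h : Scale l ev L) {n : ℕ} {p : MvPolynomial (Fin n) R} (hp : p ≠ 0) :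
    ∀ᶠ t in l, MvPolynomial.map (ev t) p ≠ 0 := by
  obtain ⟨m, hm⟩ := MvPolynomial.ne_zero_iff.1 hp
  obtain ⟨k, C, hk⟩ := h.ord _ hm
  filter_upwards [hk] with t ht h0
  apply ht.1
  have := congrArg (MvPolynomial.coeff m) h0
  simpa [MvPolynomial.coeff_map] using this

theorem Scale.ae_ne_zero (h : Scale l ev L) {n : ℕ} {p : MvPolynomial (Fin n) R} (hp : p ≠ 0) :
    ∀ᶠ t in l, ∀ᵐ y : Fin n → ℂ, pt (ev t) y p ≠ 0 := by
  filter_upwards [h.map_ne_zero hp] with t ht
  filter_upwards [ae_eval_ne_zero _ ht] with y hy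
  rwa [pt_eq_eval]

end scale

end Crest.Agent.R281.TrU_249
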