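import Crest.Agent.R281.GT8_639
import Crest.Agent.R281.TrU1_249

/-!
Row 281, glue DIV 2 -> DIV 3 (helper639).  Part 9: homogenisation, null sets, mass.
-/

set_option autoImplicit false
set_option linter.unusedSectionVars false

open Polynomial Set Filter Topology Complex MeasureTheory
open scoped ContDiff Matrix ComplexConjugate Manifold ENNReal

noncomputable section

namespace Crest.Agent.R281.GT_639

open Crest.Agent.R275 Crest.Agent.R275.Geo Crest.Agent.R275.Core144 Crest.Agent.R275.EDR890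
open Crest.Agent.R273.Defs_333 Crest.Agent.R273.Kah_333
open Crest.Agent.R273.SerA_945 (Fn)
open Crest.Agent.R273.SteinC_794 Crest.Agent.R273.Chow_313
open Crest.Agent.R273.Vm_333
open Crest.Agent.R281.Defs_273 Crest.Agent.R281.AF_867 Crest.Agent.R281.Qr_770
open Crest.Agent.R281.HkP2_508 (volS)

variable {n r : ℕ} {R : Type*} [CommRing R]

/-! ### homogenisation -/

/-- the linear form as a polynomial -/
def lfp (a : Fin r → R) : MvPolynomial (Fin r) R := ∑ k, MvPolynomial.C (a k) * MvPolynomial.X k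

theorem lfp_hom (a : Fin r → R) : (lfp a).IsHomogeneous 1 := by
  refine MvPolynomial.IsHomogeneous.sum _ _ _ fun k _ => ?_
  have h1 := (MvPolynomial.isHomogeneous_C (Fin r) (a k)).mul (MvPolynomial.isHomogeneous_X R k)
  rwa [zero_add] at h1

theorem eval₂_lfp (e : R →+* ℂ) (u : Fin r → ℂ) (a : Fin r → R) :
    MvPolynomial.eval₂ e u (lfp a) = lv e a u := by
  simp [lfp, lv, MvPolynomial.eval₂_sum, MvPolynomial.eval₂_mul]

/-- the affine coordinates of a point of the cone -/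
def yv (𝔭 : PrD n r R) (e : R →+* ℂ) (u : Fin r → ℂ) : Fin n → ℂ :=
  fun j => lv e (𝔭.lam j.succ) u / lv e (𝔭.lam 0) u

/-- homogenisation of a polynomial in `y` -/
theorem homog (𝔭 : PrD n r R) (f : MvPolynomial (Fin n) R) :
    ∃ m0 : ℕ, ∀ m, m0 ≤ m → ∃ p : MvPolynomial (Fin r) R, p.IsHomogeneous m ∧
      ∀ (e : R →+* ℂ) (u : Fin r → ℂ), lv e (𝔭.lam 0) u ≠ 0 →
        MvPolynomial.eval₂ e u p = lv e (𝔭.lam 0) u ^ m * ph e (yv 𝔭 e u) f := by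
  induction f using MvPolynomial.induction_on with
  | C a =>
    refine ⟨0, fun m _ => ⟨MvPolynomial.C a * lfp (𝔭.lam 0) ^ m, ?_, fun e u _ => ?_⟩⟩
    · have h1 := (MvPolynomial.isHomogeneous_C (Fin r) a).mul ((lfp_hom (𝔭.lam 0)).pow m)
      simpa using h1
    · rw [MvPolynomial.eval₂_mul, MvPolynomial.eval₂_pow, eval₂_lfp, MvPolynomial.eval₂_C, ph_C,
        mul_comm]
  | add p q hp hq =>
    obtain ⟨m1, h1⟩ := hp
    obtain ⟨m2, h2⟩ := hq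
    refine ⟨max m1 m2, fun m hm => ?_⟩
    obtain ⟨p', hp', hp''⟩ := h1 m ((le_max_left _ _).trans hm)
    obtain ⟨q', hq', hq''⟩ := h2 m ((le_max_right _ _).trans hm)
    refine ⟨p' + q', hp'.add hq', fun e u hu => ?_⟩
    rw [MvPolynomial.eval₂_add, hp'' e u hu, hq'' e u hu, map_add]
    ring
  | mul_X p j hp =>
    obtain ⟨m1, h1⟩ := hp
    refine ⟨m1 + 1, fun m hm => ?_⟩
    obtain ⟨m', rfl⟩ := Nat.exists_eq_add_of_le' hm
    obtain ⟨p', hp', hp''⟩ := h1 (m' + m1) (Nat.le_add_left _ _)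
    refine ⟨p' * lfp (𝔭.lam j.succ), ?_, fun e u hu => ?_⟩
    · have := hp'.mul (lfp_hom (𝔭.lam j.succ))
      rwa [add_assoc] at this
    · rw [MvPolynomial.eval₂_mul, hp'' e u hu, eval₂_lfp, map_mul, ph_X, yv, ← add_assoc, pow_succ]
      field_simp

/-- homogenisation of a polynomial in `(y, z)` -/
theorem homog2 (𝔭 : PrD n r R) (P : (MvPolynomial (Fin n) R)[X]) :
    ∃ m0 : ℕ, ∀ m, m0 ≤ m → ∃ p : MvPolynomial (Fin r) R, p.IsHomogeneous m ∧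
      ∀ (e : R →+* ℂ) (u : Fin r → ℂ), lv e (𝔭.lam 0) u ≠ 0 →
        MvPolynomial.eval₂ e u p = lv e (𝔭.lam 0) u ^ m *
          (P.map (ph e (yv 𝔭 e u))).eval (lv e 𝔭.w u / lv e (𝔭.lam 0) u) := by
  induction P using Polynomial.induction_on' with
  | add p q hp hq =>
    obtain ⟨m1, h1⟩ := hp
    obtain ⟨m2, h2⟩ := hq
    refine ⟨max m1 m2, fun m hm => ?_⟩
    obtain ⟨p', hp', hp''⟩ := h1 m ((le_max_left _ _).trans hm)
    obtain ⟨q', hq', hq''⟩ := h2 m ((le_max_right _ _).trans hm)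
    refine ⟨p' + q', hp'.add hq', fun e u hu => ?_⟩
    rw [MvPolynomial.eval₂_add, hp'' e u hu, hq'' e u hu, Polynomial.map_add, eval_add]
    ring
  | monomial k a =>
    obtain ⟨m1, h1⟩ := homog 𝔭 a
    refine ⟨m1 + k, fun m hm => ?_⟩
    obtain ⟨m', rfl⟩ := Nat.exists_eq_add_of_le' hm
    obtain ⟨p', hp', hp''⟩ := h1 (m' + m1) (Nat.le_add_left _ _)
    refine ⟨p' * lfp 𝔭.w ^ k, ?_, fun e u hu => ?_⟩
    · have := hp'.mul ((lfp_hom 𝔭.w).pow k)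
      rw [one_mul] at this
      rwa [add_assoc] at this
    · rw [MvPolynomial.eval₂_mul, MvPolynomial.eval₂_pow, hp'' e u hu, eval₂_lfp, map_monomial,
        eval_monomial, ← add_assoc, pow_add _ (m' + m1) k, div_pow]
      field_simp

/-! ### null sets -/

variable {M : Type} [TopologicalSpace M] {A : Atl n M} {O : LB A}

namespace Mbr

variable {𝔭 : PrD n r R} {e : R →+* ℂ} {U : Fin r → Fn A} {𝔰 : FmD r R} {σ : HSymp A}

theorem pM_eq (h : Mbr 𝔭 e O U) (P : (MvPolynomial (Fin n) R)[X]) {i : A.ι} {x : M}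
    (hx : x ∈ (A.e i).source) : pM 𝔭 e U P x = (P.map (ph e (yv 𝔭 e fun k => U k i x))).eval
      (lv e 𝔭.w (fun k => U k i x) / lv e (𝔭.lam 0) (fun k => U k i x)) := by
  unfold pM
  have h1 : yM 𝔭 e U x = yv 𝔭 e fun k => U k i x := funext fun j => h.yM_eq hx j
  rw [h1, h.zM_eq hx]

theorem null_W [MeasurableSpace M] [BorelSpace M] [Countable A.ι] [ConnectedSpace M]
    (h : Mbr 𝔭 e O U) {P : (MvPolynomial (Fin n) R)[X]} (hP : (W 𝔭 e U P).Nonempty) :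
    vm (volS σ) (W 𝔭 e U P)ᶜ = 0 := by
  obtain ⟨m0, hm0⟩ := homog2 𝔭 P
  obtain ⟨p, hp, hpe⟩ := hm0 m0 le_rfl
  obtain ⟨x0, hx0⟩ := hP
  obtain ⟨i0, hi0⟩ := A.cover x0
  have hs : IsHS (O ^ m0) univ (evF U (p.map e)) := isHS_evF h.hs (hp.map e)
  have hval : ∀ i, ∀ x ∈ (A.e i).source, x ∈ nz (ls e U (𝔭.lam 0)) →
      evF U (p.map e) i x = lv e (𝔭.lam 0) (fun k => U k i x) ^ m0 * pM 𝔭 e U P x := by
    intro i x hx hx0
    rw [evF_apply _ _ hx, MvPolynomial.eval_map, hpe e _ ((h.nz_iff hx).1 hx0), h.pM_eq P hx]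
  have hn1 : vm (volS σ) (nz (evF U (p.map e)))ᶜ = 0 := by
    refine Crest.Agent.R273.SteinL_794.null_nz (volS σ) hs ⟨i0, x0, hi0, ?_⟩
    rw [hval i0 x0 hi0 hx0.1]
    exact mul_ne_zero (pow_ne_zero _ ((h.nz_iff hi0).1 hx0.1)) hx0.2
  have hn2 : vm (volS σ) (nz (ls e U (𝔭.lam 0)))ᶜ = 0 :=
    Crest.Agent.R273.SteinL_794.null_nz (volS σ) (h.hls _)
      ⟨i0, x0, hi0, (h.nz_iff hi0).1 hx0.1⟩
  refine measure_mono_null ?_ (measure_union_null hn1 hn2)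
  intro x hx
  by_contra hcon
  rw [mem_union, not_or, notMem_compl_iff, notMem_compl_iff] at hcon
  apply hx
  refine ⟨hcon.2, fun h0 => ?_⟩
  obtain ⟨i, hi⟩ := A.cover x
  have h1 := (mem_nz hs hi).1 hcon.1
  rw [hval i x hi hcon.2, h0, mul_zero] at h1
  exact h1 rfl

section mass

variable [MeasurableSpace M] [BorelSpace M] [Countable A.ι]

/-- upper bound for the mass over `B` -/
theorem mass_le (h : Mbr 𝔭 e O U) (hg : 𝔭.Good) (hs : 𝔰.Good) (hσ : FMbr 𝔰 e U σ.toH2)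
    {B : Set (Fin n → ℂ)} (hB : MeasurableSet B) {H : (Fin n → ℂ) → ℝ≥0∞}
    (hH : ∀ᵐ y : Fin n → ℂ, ∀ z, (𝔭.F.map (ph e y)).eval z = 0 →
      ENNReal.ofReal (dS 𝔭 𝔰 e y z) ≤ H y) :
    vm (volS σ) (W 𝔭 e U (𝔭.gp 𝔰) ∩ yM 𝔭 e U ⁻¹' B) ≤
      ∫⁻ y in B, (𝔭.F.natDegree : ℝ≥0∞) * H y := by
  rw [h.area_y hs hσ hB]
  refine lintegral_mono_ae (ae_restrict_of_ae ?_)
  filter_upwards [hH] with y hy
  refine h.fsum_le hg (fun x hx => ((W_gp x).1 hx).1) fun x hx hxy => ?_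
  have h1 := h.eqF x hx.1
  unfold pM at h1
  rw [hxy] at h1
  rw [hxy]
  exact hy _ h1

/-- lower bound for the mass -/
theorem le_mass (h : Mbr 𝔭 e O U) (hg : 𝔭.Good) (hs : 𝔰.Good) (hσ : FMbr 𝔰 e U σ.toH2)
    {H : (Fin n → ℂ) → ℝ≥0∞}
    (hH : ∀ᵐ y : Fin n → ℂ, ∃ z, (𝔭.F.map (ph e y)).eval z = 0 ∧
      ((𝔭.gp 𝔰).map (ph e y)).eval z ≠ 0 ∧ H y ≤ ENNReal.ofReal (dS 𝔭 𝔰 e y z)) :
    ∫⁻ y, H y ≤ vm (volS σ) (W 𝔭 e U (𝔭.gp 𝔰)) := by
  have h1 := h.area_y hs hσ (B := univ) MeasurableSet.univ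
  rw [preimage_univ, inter_univ] at h1
  rw [h1, Measure.restrict_univ]
  refine lintegral_mono_ae ?_
  filter_upwards [hH] with y hy
  obtain ⟨z, hz, hgp, hHz⟩ := hy
  have hz' : ((derivative 𝔭.F).map (ph e y)).eval z ≠ 0 := by
    intro h0
    apply hgp
    rw [PrD.gp, Polynomial.map_mul, eval_mul, h0, zero_mul]
  obtain ⟨x, hx0, hxy, hxz⟩ := h.exists_pt hg hz hz'
  have hxW : x ∈ W 𝔭 e U (𝔭.gp 𝔰) := by
    refine ⟨hx0, ?_⟩
    unfold pM
    rw [hxy, hxz]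
    exact hgp
  refine hHz.trans ?_
  have h2 := le_fsum (𝔭 := 𝔭) (e := e) (U := U)
    (G := fun x => ENNReal.ofReal (dS 𝔭 𝔰 e (yM 𝔭 e U x) (zM 𝔭 e U x))) hxW hxy
  rw [hxy, hxz] at h2
  exact h2

end mass

end Mbr

end Crest.Agent.R281.GT_639
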