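import Mathlib

/-!
# R281, KRON (helper488): the smoothness certificate by Kronecker's representation, definitions

`KDat n N R` : linear forms `lam_0 .. lam_n`, `w` on `R^(N+1)`, a polynomial `G (y, W)` and polynomials
`Nm_k (y, W)`; `KDat.Good κ E` : the polynomial identities of the Kronecker representation
`x_k = Nm_k (lam, w) / G' (lam, w)` on the set `E = 0`.
-/

set_option autoImplicit false

open MvPolynomial Polynomial

namespace Crest.Agent.R281.Kr_488

noncomputable section

variable {n N : ℕ}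

/-- Kronecker data -/
structure KDat (n N : ℕ) (R : Type*) [CommRing R] where
  lam : Fin (n + 1) → Fin (N + 1) → R
  w : Fin (N + 1) → R
  D : ℕ
  G : Polynomial (MvPolynomial (Fin (n + 1)) R)
  Nm : Fin (N + 1) → Polynomial (MvPolynomial (Fin (n + 1)) R)

/-- the linear form with coefficients `a` -/
def lin {N : ℕ} {R : Type*} [CommRing R] (a : Fin (N + 1) → R) : MvPolynomial (Fin (N + 1)) R :=
  ∑ k, MvPolynomial.C (a k) * MvPolynomial.X k

/-- the value of the linear form -/
def lv {N : ℕ} {R : Type*} [CommRing R] (a v : Fin (N + 1) → R) : R := ∑ k, a k * v k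

section

variable {R : Type*} [CommRing R]

theorem eval_lin (a v : Fin (N + 1) → R) : MvPolynomial.eval v (lin a) = lv a v := by
  simp [lin, lv]

theorem lin_homog (a : Fin (N + 1) → R) : (lin a).IsHomogeneous 1 := by
  refine MvPolynomial.IsHomogeneous.sum _ _ _ fun k _ => ?_
  have h1 := (MvPolynomial.isHomogeneous_C (Fin (N + 1)) (a k)).mul
    (MvPolynomial.isHomogeneous_X R k)
  rwa [zero_add] at h1

theorem map_lin {S : Type*} [CommRing S] (φ : R →+* S) (a : Fin (N + 1) → R) :
    MvPolynomial.map φ (lin a) = lin fun k => φ (a k) := by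
  simp [lin]

namespace KDat

variable (κ : KDat n N R)

/-- substitution `y_j = lam_j (x)` -/
def subY : MvPolynomial (Fin (n + 1)) R →ₐ[R] MvPolynomial (Fin (N + 1)) R :=
  MvPolynomial.aeval fun j => lin (κ.lam j)

/-- substitution `y_j = lam_j (x)`, `W = w (x)` -/
def sub : Polynomial (MvPolynomial (Fin (n + 1)) R) →+* MvPolynomial (Fin (N + 1)) R :=
  Polynomial.eval₂RingHom κ.subY.toRingHom (lin κ.w)

/-- `G' (lam (x), w (x))` -/
def dG : MvPolynomial (Fin (N + 1)) R := κ.sub (Polynomial.derivative κ.G)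

/-- the value at `(y, W)` -/
def ev (y : Fin (n + 1) → R) (W : R) : Polynomial (MvPolynomial (Fin (n + 1)) R) →+* R :=
  Polynomial.eval₂RingHom (MvPolynomial.eval y) W

/-- `lam (v)` -/
def lamv (v : Fin (N + 1) → R) : Fin (n + 1) → R := fun j => lv (κ.lam j) v

theorem eval_sub (p : Polynomial (MvPolynomial (Fin (n + 1)) R)) (v : Fin (N + 1) → R) :
    MvPolynomial.eval v (κ.sub p) = ev (κ.lamv v) (lv κ.w v) p := by
  have h : (MvPolynomial.eval v).comp κ.sub = ev (κ.lamv v) (lv κ.w v) := by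
    refine Polynomial.ringHom_ext' ?_ ?_
    · refine MvPolynomial.ringHom_ext ?_ ?_
      · intro r
        simp [sub, ev, subY]
      · intro j
        simp [sub, ev, subY, eval_lin, lamv]
    · simp [sub, ev, eval_lin]
  exact congrArg (fun f => f p) h

/-- the identities of the Kronecker representation -/
structure Good (E : Set (MvPolynomial (Fin (N + 1)) R)) : Prop where
  D_pos : 0 < κ.D
  monic : κ.G.Monic
  deg : κ.G.natDegree = κ.D
  homG : ∀ i ≤ κ.D, (κ.G.coeff i).IsHomogeneous (κ.D - i)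
  degN : ∀ k i, κ.D ≤ i → (κ.Nm k).coeff i = 0
  homN : ∀ k, ∀ i < κ.D, ((κ.Nm k).coeff i).IsHomogeneous (κ.D - i)
  lamN : ∀ j, ∑ k, Polynomial.C (MvPolynomial.C (κ.lam j k)) * κ.Nm k =
    Polynomial.C (MvPolynomial.X j) * Polynomial.derivative κ.G
  wN : ∑ k, Polynomial.C (MvPolynomial.C (κ.w k)) * κ.Nm k =
    Polynomial.X * Polynomial.derivative κ.G - (κ.D : Polynomial (MvPolynomial (Fin (n + 1)) R)) * κ.G
  dvd : ∀ F ∈ E, κ.G ∣ MvPolynomial.aeval κ.Nm F
  memG : κ.sub κ.G ∈ E
  memN : ∀ k, MvPolynomial.X k * κ.dG - κ.sub (κ.Nm k) ∈ E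

end KDat

end

end

end Crest.Agent.R281.Kr_488
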