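import Crest.Agent.R281.Pri1_989
import Crest.Agent.R281.GT8_639
import Crest.Agent.R281.ThnN_280
import Crest.Agent.R281.Thin3_524

/-!
# R281 (S0424), GLUE-23 (second owner helper989): connected members have irreducible sheet polynomial

* `freq_of_conn`    : identity theorem on a connected open set of `(M, A)`;
* `sthM_zero_fun`   : the zero set of a nonzero holomorphic function on a connected open set is
                      `σ`-thin;
* `preconn_compl`   : the complement of a closed `σ`-thin set is connected;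
* `Mbr.irr`         : **(P2)** a connected member with one separable fibre polynomial has
                      irreducible `F^e`;
* `prime_F`         : **(P3)** enough such members ==> `F` is prime over `R[y]`.
-/

set_option autoImplicit false
set_option linter.unusedSectionVars false

open Polynomial Set Filter Topology

noncomputable section

namespace Crest.Agent.R281.Pri2_989

open Crest.Agent.R275.Geo Crest.Agent.R275.Core144
open Crest.Agent.R281.ThnM_280 Crest.Agent.R281.Thn_280 Crest.Agent.R281.Thin3_524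

variable {n : ℕ} {M : Type} [TopologicalSpace M] {A : Atl n M}

/-- identity theorem on a connected open set -/
theorem freq_of_conn {X0 : Set M} (hX0 : IsOpen X0) (hc : IsPreconnected X0) {g : M → ℂ}
    (hg : ∀ i, HolAt A i X0 g) {x0 : M} (hx0 : x0 ∈ X0) (hne : g x0 ≠ 0) :
    ∀ y ∈ X0, ∃ᶠ w in 𝓝 y, g w ≠ 0 := by
  intro y hy hcon
  have hcon' : ∀ᶠ w in 𝓝 y, g w = 0 := by
    filter_upwards [hcon] with w hw
    exact not_not.1 hw
  set Z : Set M := {y | ∀ᶠ w in 𝓝 y, g w = 0} with hZ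
  have hZo : IsOpen Z := isOpen_setOfPred_eventually_nhds
  set V : Set M := {y | y ∈ X0 ∧ y ∉ Z} with hV
  have hVo : IsOpen V := by
    rw [isOpen_iff_mem_nhds]
    rintro p ⟨hp, hpZ⟩
    obtain ⟨i, hi⟩ := A.cover p
    have ho : IsOpen ((A.e i).target ∩ (A.e i).symm ⁻¹' X0) :=
      (A.e i).isOpen_inter_preimage_symm hX0
    have hmem : A.e i p ∈ (A.e i).target ∩ (A.e i).symm ⁻¹' X0 :=
      ⟨(A.e i).map_source hi, by simpa only [mem_preimage, (A.e i).left_inv hi] using hp⟩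
    obtain ⟨ρ, hρ, hb⟩ := Metric.isOpen_iff.1 ho _ hmem
    have han : AnalyticOnNhd ℂ (fun z => g ((A.e i).symm z)) (Metric.ball (A.e i p) ρ) :=
      (Crest.Agent.R266.SCV.analyticOnNhd_of_differentiableOn ho (hg i)).mono hb
    have hN : (A.e i).source ∩ A.e i ⁻¹' Metric.ball (A.e i p) ρ ∈ 𝓝 p :=
      inter_mem ((A.e i).open_source.mem_nhds hi)
        (((A.e i).continuousAt hi).preimage_mem_nhds
          (Metric.isOpen_ball.mem_nhds (Metric.mem_ball_self hρ)))
    filter_upwards [hN] with q hq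
    refine ⟨?_, fun hqZ => hpZ ?_⟩
    · have := (hb hq.2).2
      simpa only [mem_preimage, (A.e i).left_inv hq.1] using this
    · -- zero near `q` ==> zero on the ball
      have h1 : (fun z => g ((A.e i).symm z)) =ᶠ[𝓝 (A.e i q)] 0 := by
        have h2 : Tendsto (A.e i).symm (𝓝 (A.e i q)) (𝓝 q) := by
          have := ((A.e i).continuousAt_symm ((A.e i).map_source hq.1)).tendsto
          rwa [(A.e i).left_inv hq.1] at this
        exact h2.eventually hqZ
      have h3 := han.eqOn_zero_of_preconnected_of_eventuallyEq_zero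
        (convex_ball _ _).isPreconnected hq.2 h1
      show ∀ᶠ w in 𝓝 p, g w = 0
      filter_upwards [hN] with w hw
      have := h3 hw.2
      simpa only [(A.e i).left_inv hw.1, Pi.zero_apply] using this
  obtain ⟨q, hq, hqV, hqZ⟩ := hc V Z hVo hZo
    (fun q hq => by
      by_cases h : q ∈ Z
      · exact Or.inr h
      · exact Or.inl ⟨hq, h⟩)
    ⟨x0, hx0, hx0, fun h => hne h.self_of_nhds⟩ ⟨y, hy, hcon'⟩
  exact hqV.2 hqZ

/-- zero sets of holomorphic functions on connected open sets are `σ`-thin -/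
theorem sthM_zero_fun {X0 : Set M} (hX0 : IsOpen X0) (hc : IsPreconnected X0) {g : M → ℂ}
    (hg : ∀ i, HolAt A i X0 g) {x0 : M} (hx0 : x0 ∈ X0) (hne : g x0 ≠ 0) :
    SThM A {x | x ∈ X0 ∧ g x = 0} := by
  refine sthM_of_zero fun x hx => ?_
  obtain ⟨i, hi⟩ := A.cover x
  exact ⟨i, hi, X0, hX0, hx.1, g, hg i, fun y hy => freq_of_conn hX0 hc hg hx0 hne y hy.1,
    fun y hy => hy.1.2⟩

/-- the complement of a closed `σ`-thin set is connected -/
theorem preconn_compl [PreconnectedSpace M] {S Om : Set M} (hS : SThM A S) (ho : IsOpen Om)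
    (hOm : Omᶜ ⊆ S) : IsPreconnected Om := by
  refine preconnected_of_thin A.cover ho fun i => ?_
  intro z hz
  refine (hS.thin i z).mono fun v hv => ?_
  have hv' : {c : ℂ | z + c • v ∈ (A.e i).target ∧ (A.e i).symm (z + c • v) ∈ S}.Countable := hv
  show {c : ℂ | z + c • v ∈ (A.e i).target ∩ (A.e i).symm ⁻¹' (closure Om \ Om)}.Countable
  refine hv'.mono ?_
  rintro c ⟨hc1, hc2⟩
  exact ⟨hc1, hOm hc2.2⟩

open Crest.Agent.R281.GT_639 Crest.Agent.R281.Pri1_989
open Crest.Agent.R273.SteinC_794 (nz mem_nz isOpen_nz)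
open Crest.Agent.R273.SerA_945 (Fn)

variable {r : ℕ} {R : Type*} [CommRing R] {𝔭 : PrD n r R} {e : R →+* ℂ} {O : LB A}
  {U : Fin r → Fn A}

/-- `ph` factors through the specialisation -/
theorem ph_eq (e : R →+* ℂ) (y : Fin n → ℂ) :
    ph e y = (MvPolynomial.eval y).comp (MvPolynomial.map e) := by
  apply MvPolynomial.ringHom_ext
  · intro r; simp
  · intro i; simp

theorem ph_id (y : Fin n → ℂ) : ph (RingHom.id ℂ) y = MvPolynomial.eval y := by
  apply MvPolynomial.ringHom_ext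
  · intro r; simp
  · intro i; simp

theorem val_spc (P : (MvPolynomial (Fin n) R)[X]) (e : R →+* ℂ) (y : Fin n → ℂ) :
    (spc e P).map (ph (RingHom.id ℂ) y) = P.map (ph e y) := by
  rw [ph_id, ph_eq, spc, Polynomial.map_map]

/-- polynomials in `(y, z)` are holomorphic -/
theorem hol_pM (h : Mbr 𝔭 e O U) (P : (MvPolynomial (Fin n) R)[X]) (i : A.ι) :
    HolAt A i (nz (ls e U (𝔭.lam 0))) (pM 𝔭 e U P) := by
  intro ζ hζ
  have hx : (A.e i).symm ζ ∈ (A.e i).source := (A.e i).map_target hζ.1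
  have h1 := h.diff_y hx hζ.2
  have h2 := h.diff_z hx hζ.2
  rw [(A.e i).right_inv hζ.1] at h1 h2
  exact (hasFDerivAt_two e P h1.hasFDerivAt h2.hasFDerivAt).differentiableAt.differentiableWithinAt

/-- the good part of a connected member is connected -/
theorem preconn_W [PreconnectedSpace M] (hg : 𝔭.Good) (h : Mbr 𝔭 e O U)
    (hsep : ∃ (y : Fin n → ℂ) (z : ℂ), (𝔭.F.map (ph e y)).eval z = 0 ∧
      ((derivative 𝔭.F).map (ph e y)).eval z ≠ 0) :
    IsPreconnected (Mbr.W 𝔭 e U (derivative 𝔭.F)) := by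
  obtain ⟨y, z, hz, hz'⟩ := hsep
  obtain ⟨x0, hx0, hy0, hz0⟩ := Mbr.exists_pt h hg hz hz'
  set X0 := nz (ls e U (𝔭.lam 0)) with hX0
  have hX0o : IsOpen X0 := h.open_nz
  have hS1 : SThM A {x | ∃ i, x ∈ (A.e i).source ∧ ls e U (𝔭.lam 0) i x = 0} := by
    refine sthM_zero_sec (h.hls _) ?_
    obtain ⟨i, hi⟩ := A.cover x0
    exact ⟨i, x0, hi, (mem_nz (h.hls _) hi).1 hx0⟩
  have hsub1 : X0ᶜ ⊆ {x | ∃ i, x ∈ (A.e i).source ∧ ls e U (𝔭.lam 0) i x = 0} := by
    intro x hx
    obtain ⟨i, hi⟩ := A.cover x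
    refine ⟨i, hi, ?_⟩
    by_contra hne
    exact hx ((mem_nz (h.hls _) hi).2 hne)
  have hc : IsPreconnected X0 := preconn_compl hS1 hX0o hsub1
  have hS2 : SThM A {x | x ∈ X0 ∧ pM 𝔭 e U (derivative 𝔭.F) x = 0} := by
    refine sthM_zero_fun hX0o hc (fun i => hol_pM h _ i) hx0 ?_
    unfold pM
    rw [hy0, hz0]
    exact hz'
  refine preconn_compl (hS1.union hS2) (Mbr.open_W h _) fun x hx => ?_
  by_cases hxX : x ∈ X0
  · right
    refine ⟨hxX, ?_⟩
    by_contra hne
    exact hx ⟨hxX, hne⟩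
  · exact Or.inl (hsub1 hxX)

/-- **(P2)** a connected member has an irreducible sheet polynomial -/
theorem irr [PreconnectedSpace M] (hg : 𝔭.Good) (h : Mbr 𝔭 e O U)
    (hsep : ∃ y : Fin n → ℂ, ∀ z : ℂ, (𝔭.F.map (ph e y)).eval z = 0 →
      ((derivative 𝔭.F).map (ph e y)).eval z ≠ 0) :
    Irreducible (spc e 𝔭.F) := by
  obtain ⟨y, hy⟩ := hsep
  have hm : (spc e 𝔭.F).Monic := hg.monic.map _
  have hdF : (spc e 𝔭.F).natDegree = 𝔭.F.natDegree := hg.monic.natDegree_map _
  rw [hm.irreducible_iff_natDegree']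
  refine ⟨fun h1 => ?_, fun G H hG hH hGH hmem => ?_⟩
  · have := hg.pos
    rw [← hdF, h1, natDegree_one] at this
    exact lt_irrefl _ this
  rw [Finset.mem_Ioc] at hmem
  have hdeg : G.natDegree + H.natDegree = (spc e 𝔭.F).natDegree := by
    rw [← hGH, hG.natDegree_mul hH]
  have hGd : 0 < G.natDegree := by omega
  set vl : (MvPolynomial (Fin n) ℂ)[X] → (Fin n → ℂ) → ℂ → ℂ := fun P y z =>
    (P.map (ph (RingHom.id ℂ) y)).eval z with hvl
  have hFv : ∀ y z, vl G y z * vl H y z = (𝔭.F.map (ph e y)).eval z := by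
    intro y z
    rw [← val_spc, ← hGH, Polynomial.map_mul, eval_mul]
  have hF'v : ∀ y z, ((derivative 𝔭.F).map (ph e y)).eval z =
      vl (derivative G) y z * vl H y z + vl G y z * vl (derivative H) y z := by
    intro y z
    rw [← val_spc]
    have h1 : spc e (derivative 𝔭.F) = derivative G * H + G * derivative H := by
      rw [← derivative_mul, hGH, spc, spc, derivative_map]
    rw [h1, Polynomial.map_add, Polynomial.map_mul, Polynomial.map_mul, eval_add, eval_mul,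
      eval_mul]
  -- roots
  have hroot : ∀ P : (MvPolynomial (Fin n) ℂ)[X], P.Monic → 0 < P.natDegree →
      ∃ z, vl P y z = 0 := by
    intro P hP hPd
    have h1 : (P.map (ph (RingHom.id ℂ) y)).degree ≠ 0 := by
      rw [hP.degree_map, degree_eq_natDegree hP.ne_zero]
      exact_mod_cast hPd.ne'
    obtain ⟨z, hz⟩ := Complex.exists_root (f := P.map (ph (RingHom.id ℂ) y)) (by
      rw [hP.degree_map, degree_eq_natDegree hP.ne_zero]
      exact_mod_cast hPd)
    exact ⟨z, hz⟩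
  obtain ⟨zG, hzG⟩ := hroot G hG hGd
  obtain ⟨zH, hzH⟩ := hroot H hH hmem.1
  have hG0 : (𝔭.F.map (ph e y)).eval zG = 0 := by rw [← hFv, hzG, zero_mul]
  have hH0 : (𝔭.F.map (ph e y)).eval zH = 0 := by rw [← hFv, hzH, mul_zero]
  have hconn := preconn_W hg h ⟨y, zG, hG0, hy zG hG0⟩
  set M1 := Mbr.W 𝔭 e U (derivative 𝔭.F) with hM1
  -- the two open sets
  have hopen : ∀ P : (MvPolynomial (Fin n) ℂ)[X],
      IsOpen {x | x ∈ M1 ∧ vl P (yM 𝔭 e U x) (zM 𝔭 e U x) ≠ 0} := by
    intro P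
    rw [isOpen_iff_mem_nhds]
    rintro x ⟨hx, hP⟩
    have h1 : ContinuousAt (fun x => (yM 𝔭 e U x, zM 𝔭 e U x)) x :=
      (h.cont_yM hx.1).prodMk (h.cont_zM hx.1)
    have h2 : ContinuousAt (fun x => vl P (yM 𝔭 e U x) (zM 𝔭 e U x)) x :=
      ContinuousAt.comp (g := fun p : (Fin n → ℂ) × ℂ =>
        (P.map (ph (RingHom.id ℂ) p.1)).eval p.2) (continuous_pe (RingHom.id ℂ) P).continuousAt h1
    filter_upwards [(Mbr.open_W h _).mem_nhds hx, h2.eventually_ne hP] with x' h3 h4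
    exact ⟨h3, h4⟩
  obtain ⟨xG, hxG, hyG, hzG'⟩ := Mbr.exists_pt h hg hG0 (hy zG hG0)
  obtain ⟨xH, hxH, hyH, hzH'⟩ := Mbr.exists_pt h hg hH0 (hy zH hH0)
  have hxG1 : xG ∈ M1 := ⟨hxG, by unfold pM; rw [hyG, hzG']; exact hy zG hG0⟩
  have hxH1 : xH ∈ M1 := ⟨hxH, by unfold pM; rw [hyH, hzH']; exact hy zH hH0⟩
  have hnot : ∀ x ∈ M1, vl G (yM 𝔭 e U x) (zM 𝔭 e U x) = 0 →
      vl H (yM 𝔭 e U x) (zM 𝔭 e U x) = 0 → False := by
    intro x hx h1 h2
    apply hx.2
    unfold pM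
    rw [hF'v, h1, h2]
    ring
  obtain ⟨x, hx, hx1, hx2⟩ := hconn _ _ (hopen G) (hopen H)
    (fun x hx => by
      by_cases h1 : vl G (yM 𝔭 e U x) (zM 𝔭 e U x) = 0
      · right
        exact ⟨hx, fun h2 => hnot x hx h1 h2⟩
      · left
        exact ⟨hx, h1⟩)
    ⟨xH, hxH1, hxH1, fun h1 => hnot xH hxH1 h1 (by rw [hyH, hzH']; exact hzH)⟩
    ⟨xG, hxG1, hxG1, fun h1 => hnot xG hxG1 (by rw [hyG, hzG']; exact hzG) h1⟩
  have h1 := h.eqF x hx.1
  have h2 : vl G (yM 𝔭 e U x) (zM 𝔭 e U x) * vl H (yM 𝔭 e U x) (zM 𝔭 e U x) = 0 := by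
    rw [hFv]; exact h1
  rcases mul_eq_zero.1 h2 with h3 | h3
  · exact hx1.2 h3
  · exact hx2.2 h3

end Crest.Agent.R281.Pri2_989
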