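import Crest.Agent.R281.GT11_639
import Crest.Agent.R281.KrD_488
import Crest.Agent.R281.Pri2_989

/-!
# R281 (S0424), GLUE-23, instance part 1 (helper989, second owner of 639's GT15)

* `deh`          : `Y_0 = 1`
* `prD κ`        : 488's `KDat` dehomogenised to 639's `PrD`; `good_prD`
* `ConeM E e O U`: `(M, A)` with the sections `U` of `O` is the projective manifold with cone
                   `{v ≠ 0 | E^e (v) = 0}`
* `mbr_of_cone`  : `ConeM` ==> `Mbr (prD κ) e O U`
-/

set_option autoImplicit false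
set_option linter.unusedSectionVars false

open Polynomial Set Filter Topology Complex

noncomputable section

namespace Crest.Agent.R281.GTi_989

open Crest.Agent.R275.Geo Crest.Agent.R275.Core144
open Crest.Agent.R281.GT_639 Crest.Agent.R281.Kr_488
open Crest.Agent.R281.AF_867 (Immersive)
open Crest.Agent.R273.SerA_945 (Fn)
open Crest.Agent.R273.SteinC_794 (nz mem_nz isOpen_nz)

variable {n N : ℕ} {R : Type*} [CommRing R]

/-- `Y_0 = 1` -/
def deh : MvPolynomial (Fin (n + 1)) R →+* MvPolynomial (Fin n) R :=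
  (MvPolynomial.aeval (R := R) (Fin.cons 1 MvPolynomial.X : Fin (n + 1) → MvPolynomial (Fin n) R)
    : MvPolynomial (Fin (n + 1)) R →ₐ[R] MvPolynomial (Fin n) R).toRingHom

@[simp] theorem deh_C (a : R) : deh (n := n) (MvPolynomial.C a) = MvPolynomial.C a := by
  simp [deh]

@[simp] theorem deh_X0 : deh (R := R) (n := n) (MvPolynomial.X 0) = 1 := by
  simp [deh]

@[simp] theorem deh_XS (j : Fin n) :
    deh (R := R) (n := n) (MvPolynomial.X j.succ) = MvPolynomial.X j := by
  simp [deh]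

theorem ph_deh (e : R →+* ℂ) (y : Fin n → ℂ) :
    (ph e y).comp deh = ph e (Fin.cons 1 y : Fin (n + 1) → ℂ) := by
  apply MvPolynomial.ringHom_ext
  · intro r; simp
  · intro i
    refine Fin.cases ?_ (fun j => ?_) i
    · simp
    · simp

/-- 488's data dehomogenised -/
def prD (κ : KDat n N R) : PrD n (N + 1) R where
  lam := κ.lam
  w := κ.w
  F := κ.G.map deh
  Nm := fun k => (κ.Nm k).map deh

theorem val_deh (P : (MvPolynomial (Fin (n + 1)) R)[X]) (e : R →+* ℂ) (y : Fin n → ℂ) (z : ℂ) :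
    ((P.map deh).map (ph e y)).eval z = (P.map (ph e (Fin.cons 1 y : Fin (n + 1) → ℂ))).eval z := by
  rw [Polynomial.map_map, ph_deh]

theorem good_prD [Nontrivial R] {κ : KDat n N R} {E : Set (MvPolynomial (Fin (N + 1)) R)}
    (h : κ.Good E) : (prD κ).Good where
  monic := h.monic.map _
  pos := by
    show 0 < (κ.G.map deh).natDegree
    rw [h.monic.natDegree_map, h.deg]
    exact h.D_pos
  lam0 := by
    have h1 := congrArg (Polynomial.map deh) (h.lamN 0)
    simpa [prD, Polynomial.map_sum, derivative_map] using h1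
  lamS j := by
    have h1 := congrArg (Polynomial.map deh) (h.lamN j.succ)
    simpa [prD, Polynomial.map_sum, derivative_map] using h1
  wN := by
    have h1 := congrArg (Polynomial.map deh) h.wN
    have h2 : (κ.G.map (deh (R := R) (n := n))).natDegree = κ.D := by
      rw [h.monic.natDegree_map, h.deg]
    show _ = X * derivative (κ.G.map deh) - ((κ.G.map (deh (R := R) (n := n))).natDegree :
      (MvPolynomial (Fin n) R)[X]) * κ.G.map deh
    rw [h2]
    simpa [prD, Polynomial.map_sum, derivative_map] using h1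

/-- weighted homogeneity -/
def WH (P : (MvPolynomial (Fin (n + 1)) R)[X]) (D : ℕ) : Prop :=
  (∀ i ≤ D, (P.coeff i).IsHomogeneous (D - i)) ∧ ∀ i, D < i → P.coeff i = 0

theorem WH.eval {P : (MvPolynomial (Fin (n + 1)) R)[X]} {D : ℕ} (h : WH P D) (e : R →+* ℂ)
    (c : ℂ) (Y : Fin (n + 1) → ℂ) (W : ℂ) :
    (P.map (ph e fun j => c * Y j)).eval (c * W) = c ^ D * (P.map (ph e Y)).eval W := by
  have hd : P.natDegree < D + 1 := by
    rw [Nat.lt_succ_iff, natDegree_le_iff_coeff_eq_zero]
    exact h.2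
  rw [eval_map_eq e P hd, eval_map_eq e P hd, Finset.mul_sum]
  refine Finset.sum_congr rfl fun k hk => ?_
  rw [Finset.mem_range, Nat.lt_succ_iff] at hk
  have h1 : ph e (fun j => c * Y j) (P.coeff k) = c ^ (D - k) * ph e Y (P.coeff k) :=
    eval₂_smul (h.1 k hk) c Y
  rw [h1, mul_pow]
  have h2 : c ^ D = c ^ (D - k) * c ^ k := by rw [← pow_add, Nat.sub_add_cancel hk]
  rw [h2]
  ring

theorem wh_G {κ : KDat n N R} {E : Set (MvPolynomial (Fin (N + 1)) R)} (h : κ.Good E) :
    WH κ.G κ.D :=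
  ⟨h.homG, fun i hi => coeff_eq_zero_of_natDegree_lt (by rw [h.deg]; exact hi)⟩

theorem wh_dG {κ : KDat n N R} {E : Set (MvPolynomial (Fin (N + 1)) R)} (h : κ.Good E) :
    WH (derivative κ.G) (κ.D - 1) := by
  have hD := h.D_pos
  constructor
  · intro i hi
    rw [coeff_derivative]
    have h1 := h.homG (i + 1) (by omega)
    have h2 : κ.D - (i + 1) = κ.D - 1 - i := by omega
    rw [h2] at h1
    have h3 : ((i : MvPolynomial (Fin (n + 1)) R) + 1) = MvPolynomial.C ((i : R) + 1) := by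
      simp
    rw [h3]
    have h4 := h1.mul (MvPolynomial.isHomogeneous_C (Fin (n + 1)) ((i : R) + 1))
    rwa [add_zero] at h4
  · intro i hi
    rw [coeff_derivative, coeff_eq_zero_of_natDegree_lt (by rw [h.deg]; omega), zero_mul]

theorem wh_Nm {κ : KDat n N R} {E : Set (MvPolynomial (Fin (N + 1)) R)} (h : κ.Good E)
    (k : Fin (N + 1)) : WH (κ.Nm k) κ.D := by
  constructor
  · intro i hi
    rcases lt_or_eq_of_le hi with h1 | h1
    · exact h.homN k i h1
    · rw [h.degN k i h1.ge]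
      exact MvPolynomial.isHomogeneous_zero _ _ _
  · intro i hi
    exact h.degN k i hi.le

variable {M : Type} [TopologicalSpace M] {A : Atl n M} {O : LB A}

/-- `(M, A)` with the sections `U` of `O` is the projective manifold of the cone
`{v ≠ 0 | E^e (v) = 0}` -/
structure ConeM (E : Set (MvPolynomial (Fin (N + 1)) R)) (e : R →+* ℂ) (O : LB A)
    (U : Fin (N + 1) → Fn A) : Prop where
  hs : ∀ k, IsHS O univ (U k)
  inj : ∀ i j, ∀ x ∈ (A.e i).source, ∀ y ∈ (A.e j).source,
    (∃ c : ℂ, ∀ k, U k i x = c * U k j y) → x = y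
  imm : Immersive U
  nz : ∀ i, ∀ x ∈ (A.e i).source, ∃ k, U k i x ≠ 0
  mem : ∀ i, ∀ x ∈ (A.e i).source, ∀ p ∈ E, MvPolynomial.eval₂ e (fun k => U k i x) p = 0
  surj : ∀ v : Fin (N + 1) → ℂ, v ≠ 0 → (∀ p ∈ E, MvPolynomial.eval₂ e v p = 0) →
    ∃ i, ∃ x ∈ (A.e i).source, ∃ c : ℂ, ∀ k, v k = c * U k i x

/-- evaluation of `κ.sub` -/
theorem eval_sub (κ : KDat n N R) (e : R →+* ℂ) (P : (MvPolynomial (Fin (n + 1)) R)[X])
    (v : Fin (N + 1) → ℂ) : MvPolynomial.eval₂ e v (κ.sub P) =
      (P.map (ph e fun j => GT_639.lv e (κ.lam j) v)).eval (GT_639.lv e κ.w v) := by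
  have hlin : ∀ a : Fin (N + 1) → R, MvPolynomial.eval₂ e v (lin a) = GT_639.lv e a v := by
    intro a
    simp [lin, GT_639.lv, MvPolynomial.eval₂_sum]
  have h : (MvPolynomial.eval₂Hom e v).comp κ.sub =
      eval₂RingHom (ph e fun j => GT_639.lv e (κ.lam j) v) (GT_639.lv e κ.w v) := by
    refine Polynomial.ringHom_ext' ?_ ?_
    · refine MvPolynomial.ringHom_ext ?_ ?_
      · intro r
        simp [KDat.sub, KDat.subY]
      · intro j
        simp [KDat.sub, KDat.subY, hlin]
    · simp [KDat.sub, hlin]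
  have h1 := congrArg (fun f => f P) h
  simp only [RingHom.comp_apply, coe_eval₂RingHom] at h1
  rw [eval_map]
  exact h1

/-- a manifold with the right cone is a member -/
theorem mbr_of_cone [Nontrivial R] {κ : KDat n N R} {E : Set (MvPolynomial (Fin (N + 1)) R)}
    (h : κ.Good E) {e : R →+* ℂ} {U : Fin (N + 1) → Fn A} (hM : ConeM E e O U) :
    Mbr (prD κ) e O U := by
  have hls : ∀ a : Fin (N + 1) → R, IsHS O univ (ls e U a) := isHS_ls hM.hs e
  -- the coordinates at a point
  have hy : ∀ {i : A.ι} {x : M}, x ∈ (A.e i).source → ∀ j, yM (prD κ) e U x j =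
      GT_639.lv e (κ.lam j.succ) (fun k => U k i x) / GT_639.lv e (κ.lam 0) (fun k => U k i x) :=
    fun hx j => Crest.Agent.R273.SteinC_794.qt_eq (hls _) (hls _) hx
  have hz : ∀ {i : A.ι} {x : M}, x ∈ (A.e i).source → zM (prD κ) e U x =
      GT_639.lv e κ.w (fun k => U k i x) / GT_639.lv e (κ.lam 0) (fun k => U k i x) :=
    fun hx => Crest.Agent.R273.SteinC_794.qt_eq (hls _) (hls _) hx
  have hv : ∀ {i : A.ι} {x : M}, x ∈ (A.e i).source → ∀ k, vM (prD κ) e U k x =
      U k i x / GT_639.lv e (κ.lam 0) (fun k => U k i x) :=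
    fun hx k => Crest.Agent.R273.SteinC_794.qt_eq (hM.hs k) (hls _) hx
  have h0 : ∀ {i : A.ι} {x : M}, x ∈ (A.e i).source → x ∈ nz (ls e U (κ.lam 0)) →
      GT_639.lv e (κ.lam 0) (fun k => U k i x) ≠ 0 := fun hx hn => (mem_nz (hls _) hx).1 hn
  -- scaling
  have hsc : ∀ {i : A.ι} {x : M} (_ : x ∈ (A.e i).source) (_ : x ∈ nz (ls e U (κ.lam 0)))
      {P : (MvPolynomial (Fin (n + 1)) R)[X]} {D : ℕ} (_ : WH P D),
      ((P.map deh).map (ph e (yM (prD κ) e U x))).eval (zM (prD κ) e U x) =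
        ((GT_639.lv e (κ.lam 0) (fun k => U k i x))⁻¹) ^ D *
          MvPolynomial.eval₂ e (fun k => U k i x) (κ.sub P) := by
    intro i x hx hn P D hP
    have hl := h0 hx hn
    have e1 : (Fin.cons 1 (yM (prD κ) e U x) : Fin (n + 1) → ℂ) = fun j =>
        (GT_639.lv e (κ.lam 0) (fun k => U k i x))⁻¹ *
          GT_639.lv e (κ.lam j) (fun k => U k i x) := by
      funext j
      refine Fin.cases ?_ (fun j => ?_) j
      · rw [Fin.cons_zero, inv_mul_cancel₀ hl]
      · rw [Fin.cons_succ, hy hx j, div_eq_mul_inv, mul_comm]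
    have e2 : zM (prD κ) e U x = (GT_639.lv e (κ.lam 0) (fun k => U k i x))⁻¹ *
        GT_639.lv e κ.w (fun k => U k i x) := by
      rw [hz hx, div_eq_mul_inv, mul_comm]
    rw [val_deh, eval_sub, ← hP.eval, e1, e2]
  refine ⟨hM.hs, hM.inj, hM.imm, fun x hx => ?_, fun x hx k => ?_, fun y z h1 h2 => ?_⟩
  · obtain ⟨i, hi⟩ := A.cover x
    show (((κ.G.map deh).map (ph e (yM (prD κ) e U x))).eval (zM (prD κ) e U x)) = 0
    rw [hsc hi hx (wh_G h), hM.mem i x hi _ h.memG, mul_zero]
  · obtain ⟨i, hi⟩ := A.cover x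
    have hl := h0 hi hx
    show ((((κ.Nm k).map deh).map (ph e (yM (prD κ) e U x))).eval (zM (prD κ) e U x)) =
      vM (prD κ) e U k x *
        (((derivative (κ.G.map deh)).map (ph e (yM (prD κ) e U x))).eval (zM (prD κ) e U x))
    rw [derivative_map, hsc hi hx (wh_Nm h k), hsc hi hx (wh_dG h), hv hi k]
    have h3 := hM.mem i x hi _ (h.memN k)
    rw [MvPolynomial.eval₂_sub, MvPolynomial.eval₂_mul, MvPolynomial.eval₂_X, sub_eq_zero] at h3
    rw [← h3]
    have h4 : (GT_639.lv e (κ.lam 0) (fun k => U k i x))⁻¹ ^ κ.D =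
        (GT_639.lv e (κ.lam 0) (fun k => U k i x))⁻¹ ^ (κ.D - 1) *
          (GT_639.lv e (κ.lam 0) (fun k => U k i x))⁻¹ := by
      rw [← pow_succ, Nat.sub_add_cancel h.D_pos]
    rw [h4]
    unfold KDat.dG
    ring
  · -- surjectivity
    have h1' : (κ.G.map (ph e (Fin.cons 1 y : Fin (n + 1) → ℂ))).eval z = 0 := by
      rw [← val_deh]; exact h1
    have h2' : ((derivative κ.G).map (ph e (Fin.cons 1 y : Fin (n + 1) → ℂ))).eval z ≠ 0 := by
      rw [← val_deh, ← derivative_map]; exact h2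
    set Y : Fin (n + 1) → ℂ := Fin.cons 1 y with hY
    set v : Fin (N + 1) → ℂ := fun k => ((κ.Nm k).map (ph e Y)).eval z with hvdef
    have hlv : GT_639.lv e (κ.lam 0) v = ((derivative κ.G).map (ph e Y)).eval z := by
      have h3 := congrArg (fun P => (P.map (ph e Y)).eval z) (h.lamN 0)
      simpa [GT_639.lv, hvdef, Polynomial.map_sum, eval_finsetSum, hY] using h3
    have hvE : ∀ p ∈ E, MvPolynomial.eval₂ e v p = 0 := by
      intro p hp
      obtain ⟨q, hq⟩ := h.dvd p hp
      have h3 : ((MvPolynomial.aeval κ.Nm p : (MvPolynomial (Fin (n + 1)) R)[X]).map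
          (ph e Y)).eval z = MvPolynomial.eval₂ e v p := by
        have h4 : ((evalRingHom z).comp (mapRingHom (ph e Y))).comp
            (MvPolynomial.aeval κ.Nm : MvPolynomial (Fin (N + 1)) R →ₐ[R]
              (MvPolynomial (Fin (n + 1)) R)[X]).toRingHom = MvPolynomial.eval₂Hom e v := by
          apply MvPolynomial.ringHom_ext
          · intro r
            simp [Polynomial.algebraMap_apply, MvPolynomial.algebraMap_eq]
          · intro k
            simp [hvdef]
        exact congrArg (fun f => f p) h4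
      rw [← h3, hq, Polynomial.map_mul, eval_mul, h1', zero_mul]
    have hv0 : v ≠ 0 := by
      intro h3
      rw [h3] at hlv
      apply h2'
      rw [← hlv]
      simp [GT_639.lv]
    obtain ⟨i, x, hx, c, hc⟩ := hM.surj v hv0 hvE
    refine ⟨i, x, hx, c, fun k => ?_⟩
    show (((κ.Nm k).map deh).map (ph e y)).eval z = _
    rw [val_deh]
    exact hc k

end Crest.Agent.R281.GTi_989
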