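import Crest.Agent.R281.Pri2_989
import Crest.Agent.R281.Esc1_989

/-!
# R281 (S0424), GLUE-23 (second owner helper989): **(P3)** primality over the ring of an end
-/

set_option autoImplicit false
set_option linter.unusedSectionVars false

open Polynomial Set Filter Topology

noncomputable section

namespace Crest.Agent.R281.Pri3_989

open Crest.Agent.R275.Geo Crest.Agent.R275.Core144
open Crest.Agent.R281.Pri1_989 Crest.Agent.R281.Pri2_989 Crest.Agent.R281.GT_639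
open Crest.Agent.R281.Esc1_989 Crest.Agent.R281.Ends2_989
open Crest.Agent.R273.SerA_945 (Fn)

/-- **primality from connected members** (any coefficient ring) -/
theorem prime_F {n r : ℕ} {R : Type*} [CommRing R] [IsDomain R] {𝔭 : PrD n r R} (hg : 𝔭.Good)
    {S : Set (R →+* ℂ)} (hS : ∀ a : R, a ≠ 0 → ∃ e ∈ S, e a ≠ 0)
    (hM : ∀ e ∈ S, ∃ (M : Type) (_ : TopologicalSpace M) (_ : PreconnectedSpace M) (A : Atl n M)
      (O : LB A) (U : Fin r → Fn A), Mbr 𝔭 e O U ∧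
      ∃ y : Fin n → ℂ, ∀ z : ℂ, (𝔭.F.map (ph e y)).eval z = 0 →
        ((derivative 𝔭.F).map (ph e y)).eval z ≠ 0) : Prime 𝔭.F := by
  refine prime_of_spc hg.monic hS fun e he => ?_
  obtain ⟨M, _, _, A, O, U, h, hsep⟩ := hM e he
  exact irr hg h hsep

/-- **primality over `MgR`** -/
theorem prime_MgR {n : ℕ} {F : (MvPolynomial (Fin n) MgR)[X]} (hm : F.Monic) {l : Filter Hp}
    [l.NeBot] (hl : l ≤ lEnd) (h : ∀ᶠ z in l, Irreducible (spc (ev z) F)) : Prime F := by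
  refine prime_of_spc hm (S := {e | ∃ z : Hp, Irreducible (spc (ev z) F) ∧ e = ev z})
    (fun a ha => ?_) ?_
  · obtain ⟨k, C, hk⟩ := order a ha
    obtain ⟨z, hz, hz'⟩ := (h.and (hl hk)).exists
    exact ⟨ev z, ⟨z, hz, rfl⟩, hz'.1⟩
  · rintro e ⟨z, hz, rfl⟩
    exact hz

/-- **primality over `MgR` from connected members** -/
theorem prime_mbr {n r : ℕ} {𝔭 : PrD n r MgR} (hg : 𝔭.Good) {l : Filter Hp} [l.NeBot]
    (hl : l ≤ lEnd)
    (hM : ∀ᶠ z in l, ∃ (M : Type) (_ : TopologicalSpace M) (_ : PreconnectedSpace M)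
      (A : Atl n M) (O : LB A) (U : Fin r → Fn A), Mbr 𝔭 (ev z) O U ∧
      ∃ y : Fin n → ℂ, ∀ w : ℂ, (𝔭.F.map (ph (ev z) y)).eval w = 0 →
        ((derivative 𝔭.F).map (ph (ev z) y)).eval w ≠ 0) : Prime 𝔭.F := by
  refine prime_MgR hg.monic hl ?_
  filter_upwards [hM] with z hz
  obtain ⟨M, _, _, A, O, U, h, hsep⟩ := hz
  exact irr hg h hsep

end Crest.Agent.R281.Pri3_989
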