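import Crest.Agent.R281.GTi1_989
import Crest.Agent.R281.Pri3_989
import Crest.Agent.R281.CA3_867

/-!
# R281 (S0424), GLUE-23, instance part 2 (helper989, second owner of 639's GT15)

* `fmD`            : one chart of 867's `FDat` as 639's `FmD`; `good_fmD`
* `ConeC Y O U`    : `(M, A)` with sections `U` is the manifold of the complex certificate `Y : CDat n N ℂ`
* `FormC Y.D U σ`  : `x_j^m σ` is the form of `Y.D` (867's `frm`)
* `isMb_of_cone`   : `ConeC (C.map e)`, `FormC` ==> 639's `IsMb (prD (C.κ a)) (fmD C.D j) e A O U σ`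
* `sep_of_bez`     : one separable fibre polynomial
* `algD_of`        : enough connected members ==> `∃ j, AlgD (prD (C.κ a)) (fmD C.D j)`
* `algD_mg`        : the same over `MgR`
-/

set_option autoImplicit false
set_option linter.unusedSectionVars false

open Polynomial Set Filter Topology Complex
open scoped Matrix

noncomputable section

namespace Crest.Agent.R281.GTi_989

open Crest.Agent.R275.Geo Crest.Agent.R275.Core144
open Crest.Agent.R281.Defs_273
open Crest.Agent.R281.GT_639 Crest.Agent.R281.Kr_488 Crest.Agent.R281.AF_867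
open Crest.Agent.R281.CA_867 Crest.Agent.R281.Pri1_989 Crest.Agent.R281.Pri2_989
open Crest.Agent.R273.SerA_945 (Fn)
open Crest.Agent.R273.SteinC_794 (nz mem_nz isOpen_nz)

variable {n N : ℕ} {R : Type} [CommRing R]

/-! ### the form -/

/-- one chart of the form data -/
def fmD (D : FDat (Fin (N + 1)) R) (j : Fin (N + 1)) : FmD (N + 1) R := ⟨j, D.m, fun k l => D.s j k l⟩

theorem good_fmD {D : FDat (Fin (N + 1)) R} (h : D.Exact) (j : Fin (N + 1)) : (fmD D j).Good where
  two := by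
    have := h.two
    show 2 ≤ D.m
    omega
  alt k l := by
    have h1 := congrFun (congrFun (h.alt j) l) k
    simpa [fmD] using h1
  hom k l := h.hom j k l
  eul k := h.eul j k

/-! ### members -/

variable {M : Type} [TopologicalSpace M] {A : Atl n M} {O : LB A}

/-- `(M, A)` with the sections `U` is the manifold of the complex certificate `Y` -/
structure ConeC (Y : CDat n N ℂ) (O : LB A) (U : Fin (N + 1) → Fn A) : Prop where
  hs : ∀ k, IsHS O univ (U k)
  inj : ∀ i j, ∀ x ∈ (A.e i).source, ∀ y ∈ (A.e j).source,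
    (∃ c : ℂ, ∀ k, U k i x = c * U k j y) → x = y
  imm : Immersive U
  nz : ∀ i, ∀ x ∈ (A.e i).source, ∃ k, U k i x ≠ 0
  mem : ∀ i, ∀ x ∈ (A.e i).source, OnE (range Y.G) fun k => U k i x
  surj : ∀ v : Fin (N + 1) → ℂ, v ≠ 0 → OnE (range Y.G) v →
    ∃ i, ∃ x ∈ (A.e i).source, ∃ c : ℂ, ∀ k, v k = c * U k i x

/-- `x_j ^ m σ` is the form `Y.D` -/
def FormC (D : FDat (Fin (N + 1)) ℂ) (U : Fin (N + 1) → Fn A) (σ : H2 A) : Prop :=
  ∀ j i, ∀ x ∈ (A.e i).source, U j i x ^ D.m • σ.s i x =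
    (DF U i x)ᵀ * evM U (D.s j) i x * DF U i x

theorem ConeC.coneM {C : CDat n N R} {e : R →+* ℂ} {U : Fin (N + 1) → Fn A}
    (h : ConeC (C.map e) O U) : ConeM (range C.G) e O U where
  hs := h.hs
  inj := h.inj
  imm := h.imm
  nz := h.nz
  mem i x hx p hp := by
    obtain ⟨l, rfl⟩ := hp
    have h1 := h.mem i x hx ((C.map e).G l) ⟨l, rfl⟩
    rw [← MvPolynomial.eval_map]
    exact h1
  surj v hv hE := by
    refine h.surj v hv ?_
    rintro _ ⟨l, rfl⟩
    have h1 := hE (C.G l) ⟨l, rfl⟩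
    rw [← MvPolynomial.eval_map] at h1
    exact h1

theorem FormC.fMbr {C : CDat n N R} {e : R →+* ℂ} {U : Fin (N + 1) → Fn A} {σ : H2 A}
    (h : FormC (C.map e).D U σ) (j : Fin (N + 1)) : FMbr (fmD C.D j) e U σ := by
  intro i x hx a b
  have h1 := congrFun (congrFun (h j i x hx) a) b
  have h2 : (U j i x ^ (C.map e).D.m • σ.s i x) a b = U j i x ^ C.D.m * σ.s i x a b := rfl
  rw [h2] at h1
  show U j i x ^ C.D.m * σ.s i x a b = _
  rw [h1, Matrix.mul_apply]
  simp only [Matrix.mul_apply, Finset.sum_mul]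
  rw [Finset.sum_comm]
  refine Finset.sum_congr rfl fun k _ => Finset.sum_congr rfl fun l _ => ?_
  have h3 : evM U ((C.map e).D.s j) i x k l =
      MvPolynomial.eval₂ e (fun k => U k i x) ((fmD C.D j).s k l) := by
    rw [evM_apply, ← MvPolynomial.eval_map]
    rfl
  rw [h3, Matrix.transpose_apply]
  ring

theorem ev_lin (e : R →+* ℂ) (a : Fin (N + 1) → R) (v : Fin (N + 1) → ℂ) :
    MvPolynomial.eval₂ e v (lin a) = GT_639.lv e a v := by
  simp [lin, GT_639.lv, MvPolynomial.eval₂_sum]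

/-- the linear forms of the projection have no common zero -/
theorem base_of_ok {C : CDat n N R} (hC : C.Ok) (a : Fin C.q) {e : R →+* ℂ}
    {U : Fin (N + 1) → Fn A} (hM : ConeM (range C.G) e O U) :
    ∀ i, ∀ x ∈ (A.e i).source, ∃ j, GT_639.lv e ((C.κ a).lam j) (fun k => U k i x) ≠ 0 := by
  intro i x hx
  by_contra hcon
  push Not at hcon
  obtain ⟨k, hk⟩ := hM.nz i x hx
  apply hk
  have h1 : Ideal.span (range C.G ∪ range fun j => lin ((C.κ a).lam j)) ≤
      RingHom.ker (MvPolynomial.eval₂Hom e fun k => U k i x) := by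
    rw [Ideal.span_le]
    rintro F (hF | ⟨j, rfl⟩)
    · exact hM.mem i x hx F hF
    · show MvPolynomial.eval₂ e (fun k => U k i x) (lin ((C.κ a).lam j)) = 0
      rw [ev_lin]
      exact hcon j
  have h2 := h1 (hC.covl a k)
  rw [RingHom.mem_ker, map_pow] at h2
  have h3 := eq_zero_of_pow_eq_zero h2
  simpa using h3

/-- **members** -/
theorem isMb_of_cone [Nontrivial R] {C : CDat n N R} (hC : C.Ok) (a : Fin C.q) {e : R →+* ℂ}
    {U : Fin (N + 1) → Fn A} {σ : HSymp A} (hM : ConeC (C.map e) O U)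
    (hσ : FormC (C.map e).D U σ.toH2) (j : Fin (N + 1)) :
    IsMb (prD (C.κ a)) (fmD C.D j) e A O U σ where
  mb := mbr_of_cone (hC.good a) hM.coneM
  fm := hσ.fMbr j
  base := base_of_ok hC a hM.coneM

/-! ### separability -/

theorem sep_of_bez {C : CDat n N R} (hC : C.Ok) (a : Fin C.q) {e : R →+* ℂ}
    (hd : MvPolynomial.map e (C.d a) ≠ 0) : ∃ y : Fin n → ℂ, ∀ z : ℂ,
      ((prD (C.κ a)).F.map (ph e y)).eval z = 0 →
        ((derivative (prD (C.κ a)).F).map (ph e y)).eval z ≠ 0 := by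
  have h1 : MvPolynomial.X 0 * MvPolynomial.map e (C.d a) ≠ 0 :=
    mul_ne_zero (MvPolynomial.X_ne_zero _) hd
  obtain ⟨Y, hY⟩ : ∃ Y : Fin (n + 1) → ℂ,
      MvPolynomial.eval Y (MvPolynomial.X 0 * MvPolynomial.map e (C.d a)) ≠ 0 := by
    by_contra hcon
    push Not at hcon
    exact h1 (MvPolynomial.funext fun Y => by rw [hcon Y, map_zero])
  rw [map_mul, MvPolynomial.eval_X, MvPolynomial.eval_map] at hY
  have hY0 : Y 0 ≠ 0 := left_ne_zero_of_mul hY
  have hYd : MvPolynomial.eval₂ e Y (C.d a) ≠ 0 := right_ne_zero_of_mul hY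
  refine ⟨fun j => (Y 0)⁻¹ * Y j.succ, fun z hz hz' => ?_⟩
  have hc : (Fin.cons 1 (fun j : Fin n => (Y 0)⁻¹ * Y j.succ) : Fin (n + 1) → ℂ) =
      fun j => (Y 0)⁻¹ * Y j := by
    funext j
    refine Fin.cases ?_ (fun j => ?_) j
    · simp [hY0]
    · simp
  have hzz : z = (Y 0)⁻¹ * (Y 0 * z) := by
    rw [← mul_assoc, inv_mul_cancel₀ hY0, one_mul]
  have hG : (((C.κ a).G).map (ph e Y)).eval (Y 0 * z) = 0 := by
    have h2 : (((C.κ a).G.map deh).map (ph e fun j => (Y 0)⁻¹ * Y j.succ)).eval z = 0 := hz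
    rw [val_deh, hc, hzz, (wh_G (hC.good a)).eval] at h2
    exact (mul_eq_zero.1 h2).resolve_left (pow_ne_zero _ (inv_ne_zero hY0))
  have hG' : ((derivative (C.κ a).G).map (ph e Y)).eval (Y 0 * z) = 0 := by
    have h2 : ((derivative ((C.κ a).G.map deh)).map (ph e fun j => (Y 0)⁻¹ * Y j.succ)).eval z =
      0 := hz'
    rw [derivative_map, val_deh, hc, hzz, (wh_dG (hC.good a)).eval] at h2
    exact (mul_eq_zero.1 h2).resolve_left (pow_ne_zero _ (inv_ne_zero hY0))
  have h3 := congrArg (fun P => (P.map (ph e Y)).eval (Y 0 * z)) (hC.bez a)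
  simp only [Polynomial.map_add, Polynomial.map_mul, eval_add, eval_mul, hG, hG', mul_zero,
    add_zero, map_C, eval_C] at h3
  exact hYd h3.symm

/-! ### the algebraic data -/

theorem exists_not_dvd [IsDomain R] [CharZero R] {𝔭 : PrD n (N + 1) R} (hg : 𝔭.Good) :
    ∃ j, ¬ 𝔭.F ∣ 𝔭.Nm j := by
  by_contra hcon
  push Not at hcon
  have h1 : 𝔭.F ∣ derivative 𝔭.F := by
    rw [← hg.lam0]
    exact Finset.dvd_sum fun k _ => (hcon k).mul_left _
  have h2 : derivative 𝔭.F ≠ 0 := fun h0 => hg.pos.ne' (Polynomial.derivative_eq_zero.1 h0)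
  exact not_lt.2 (Polynomial.natDegree_le_of_dvd h1 h2)
    (Polynomial.natDegree_derivative_lt hg.pos.ne')

/-- `(M, A)` connected, for some atlas: the certificate `Y` has a connected model -/
def ConnM (Y : CDat n N ℂ) : Prop :=
  ∃ (M : Type) (_ : TopologicalSpace M) (_ : PreconnectedSpace M) (A : Atl n M) (O : LB A)
    (U : Fin (N + 1) → Fn A), ConeC Y O U

theorem irr_of_conn [Nontrivial R] {C : CDat n N R} (hC : C.Ok) (a : Fin C.q) {e : R →+* ℂ}
    (hd : MvPolynomial.map e (C.d a) ≠ 0) (hM : ConnM (C.map e)) :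
    Irreducible (spc e (prD (C.κ a)).F) := by
  obtain ⟨M, _, _, A, O, U, h⟩ := hM
  exact irr (good_prD (hC.good a)) (mbr_of_cone (hC.good a) h.coneM) (sep_of_bez hC a hd)

/-- **algebraic data from enough connected members** -/
theorem algD_of [IsDomain R] [CharZero R] {C : CDat n N R} (hC : C.Ok) (a : Fin C.q)
    {S : Set (R →+* ℂ)} (hS : ∀ r : R, r ≠ 0 → ∃ e ∈ S, e r ≠ 0)
    (hd : ∀ e ∈ S, MvPolynomial.map e (C.d a) ≠ 0) (hM : ∀ e ∈ S, ConnM (C.map e)) :
    ∃ j, AlgD (prD (C.κ a)) (fmD C.D j) := by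
  have hg := good_prD (hC.good a)
  obtain ⟨j, hj⟩ := exists_not_dvd hg
  exact ⟨j, hg, prime_of_spc hg.monic hS fun e he => irr_of_conn hC a (hd e he) (hM e he),
    good_fmD hC.exact j, hj⟩

open Crest.Agent.R281.Esc1_989 Crest.Agent.R281.Ends2_989 Crest.Agent.R281.Pri3_989

/-- **algebraic data over the ring of an end** -/
theorem algD_mg {C : CDat n N MgR} (hC : C.Ok) (a : Fin C.q) (hd : C.d a ≠ 0) {l : Filter Hp}
    [l.NeBot] (hl : l ≤ lEnd) (hM : ∀ᶠ z in l, ConnM (C.map (ev z))) :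
    ∃ j, AlgD (prD (C.κ a)) (fmD C.D j) := by
  have hg := good_prD (hC.good a)
  obtain ⟨j, hj⟩ := exists_not_dvd hg
  have hd' : ∀ᶠ z in l, MvPolynomial.map (ev z) (C.d a) ≠ 0 := by
    obtain ⟨α, hα⟩ := MvPolynomial.ne_zero_iff.1 hd
    obtain ⟨k, B, hk⟩ := order _ hα
    filter_upwards [hl hk] with z hz h0
    apply hz.1
    rw [← MvPolynomial.coeff_map, h0, MvPolynomial.coeff_zero]
  refine ⟨j, hg, prime_MgR hg.monic hl ?_, good_fmD hC.exact j, hj⟩
  filter_upwards [hM, hd'] with z h1 h2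
  exact irr_of_conn hC a h2 h1

end Crest.Agent.R281.GTi_989
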