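import Crest.Agent.R281.GTi2_989

/-!
# R281 (S0424), GLUE-23, instance part 3 (helper989): codes over the ring of an end

* `glue_map`  : a certificate `C` over `R`, `ψ : R →+* MgR`: the algebraic data over `MgR` and the
                members at every point `z` of the end;
* `glue_code` : the same for a code `K` of 867 and a coefficient vector `c' : Fin K.k → MgR` all of
                whose values specialise `c`.
-/

set_option autoImplicit false
set_option linter.unusedSectionVars false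

open Polynomial Set Filter Topology Complex
open scoped Matrix

noncomputable section

namespace Crest.Agent.R281.GTi_989

open Crest.Agent.R275.Geo Crest.Agent.R275.Core144
open Crest.Agent.R281.Defs_273
open Crest.Agent.R281.GT_639 Crest.Agent.R281.Kr_488 Crest.Agent.R281.AF_867
open Crest.Agent.R281.CA_867 Crest.Agent.R281.Pri1_989 Crest.Agent.R281.Pri2_989
open Crest.Agent.R273.SerA_945 (Fn)
open Crest.Agent.R281.Esc1_989 Crest.Agent.R281.Ends2_989 Crest.Agent.R281.Pri3_989

variable {n N : ℕ}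

/-- the algebraic data of a certificate over `MgR`, with its members -/
structure EndAlg (C : CDat n N MgR) (a : Fin C.q) (j : Fin (N + 1)) : Prop where
  ok : C.Ok
  dne : C.d a ≠ 0
  algD : AlgD (prD (C.κ a)) (fmD C.D j)

theorem EndAlg.isMb {C : CDat n N MgR} {a : Fin C.q} {j : Fin (N + 1)} (h : EndAlg C a j)
    {M : Type} [TopologicalSpace M] {A : Atl n M} {O : LB A} {U : Fin (N + 1) → Fn A}
    {σ : HSymp A} {z : Hp} (hM : ConeC (C.map (ev z)) O U)
    (hσ : FormC (C.map (ev z)).D U σ.toH2) :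
    IsMb (prD (C.κ a)) (fmD C.D j) (ev z) A O U σ :=
  isMb_of_cone h.ok a hM hσ j

theorem endAlg_of {C : CDat n N MgR} (hC : C.Ok) (a : Fin C.q) (hd : C.d a ≠ 0) {l : Filter Hp}
    [l.NeBot] (hl : l ≤ lEnd) (hM : ∀ᶠ z in l, ConnM (C.map (ev z))) : ∃ j, EndAlg C a j := by
  obtain ⟨j, hj⟩ := algD_mg hC a hd hl hM
  exact ⟨j, hC, hd, hj⟩

/-- **from a certificate over `R` and `R →+* MgR`** -/
theorem glue_map {R : Type} [CommRing R] {C : CDat n N R} (hC : C.Ok) (ψ : R →+* MgR)
    (a : Fin C.q) (hd : ∃ z : Hp, MvPolynomial.map ((ev z).comp ψ) (C.d a) ≠ 0) {l : Filter Hp}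
    [l.NeBot] (hl : l ≤ lEnd) (hM : ∀ᶠ z in l, ConnM (C.map ((ev z).comp ψ))) :
    ∃ j, EndAlg (C.map ψ) a j := by
  refine endAlg_of (hC.map ψ) a ?_ hl ?_
  · intro h0
    obtain ⟨z, hz⟩ := hd
    apply hz
    have h1 : (C.map ψ).d a = MvPolynomial.map ψ (C.d a) := rfl
    rw [← MvPolynomial.map_map, ← h1, h0, map_zero]
  · filter_upwards [hM] with z hz
    rw [CDat.map_map]
    exact hz

section Code

variable {k₀ : Type} [CommRing k₀] [Algebra k₀ ℂ]

/-- evaluation of coefficient polynomials at a vector of functions on the end -/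
def psi {k : ℕ} (c' : Fin k → MgR) : MvPolynomial (Fin k) k₀ →+* MgR :=
  MvPolynomial.eval₂Hom (cst.comp (algebraMap k₀ ℂ)) c'

theorem ev_psi {k : ℕ} (c' : Fin k → MgR) (z : Hp) (r : MvPolynomial (Fin k) k₀) :
    ev z (psi c' r) = MvPolynomial.aeval (fun i => ev z (c' i)) r := by
  have h : (ev z).comp (psi (k₀ := k₀) c') =
      (MvPolynomial.aeval (fun i => ev z (c' i)) : MvPolynomial (Fin k) k₀ →ₐ[k₀] ℂ).toRingHom := by
    apply MvPolynomial.ringHom_ext
    · intro r
      simp [psi, ev_cst]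
    · intro i
      simp [psi]
  exact congrArg (fun f => f r) h

theorem ev_comp_psi {k : ℕ} (c' : Fin k → MgR) (z : Hp) : (ev z).comp (psi (k₀ := k₀) c') =
    (MvPolynomial.aeval (fun i => ev z (c' i)) : MvPolynomial (Fin k) k₀ →ₐ[k₀] ℂ).toRingHom :=
  RingHom.ext fun r => ev_psi c' z r

theorem map_psi (K : Code k₀ n N) (c' : Fin K.k → MgR) (z : Hp) :
    (K.Y.map (psi c')).map (ev z) = K.mem fun i => ev z (c' i) := by
  rw [CDat.map_map, ev_comp_psi]
  rfl

theorem psi_ok {K : Code k₀ n N} {c : Fin K.k → ℂ} (h : K.Good c) (c' : Fin K.k → MgR)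
    (hrel : ∀ z : Hp, RelOk k₀ c fun i => ev z (c' i)) : (K.Y.map (psi c')).Ok := by
  let _ : Algebra k₀ MgR := (cst.comp (algebraMap k₀ ℂ)).toAlgebra
  have h1 : (psi c' : MvPolynomial (Fin K.k) k₀ →+* MgR) =
      (MvPolynomial.aeval c' : MvPolynomial (Fin K.k) k₀ →ₐ[k₀] MgR).toRingHom := by
    apply MvPolynomial.ringHom_ext
    · intro r
      simp [psi]
      rfl
    · intro i
      simp [psi]
  rw [h1]
  refine h.ok_of_rel c' fun r hr => ?_
  have h2 : (MvPolynomial.aeval c' r : MgR) = psi c' r := by rw [h1]; rfl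
  rw [h2]
  refine ext_ev fun z => ?_
  rw [ev_psi, map_zero]
  exact hrel z r hr

/-- **the algebraic data of a code over the end** -/
theorem glue_code {K : Code k₀ n N} {c : Fin K.k → ℂ} (h : K.Good c) (c' : Fin K.k → MgR)
    (hrel : ∀ z : Hp, RelOk k₀ c fun i => ev z (c' i))
    (hne : ∃ z : Hp, MvPolynomial.aeval (fun i => ev z (c' i)) K.rr ≠ 0) (a : Fin K.Y.q)
    {l : Filter Hp} [l.NeBot] (hl : l ≤ lEnd)
    (hM : ∀ᶠ z in l, ConnM (K.mem fun i => ev z (c' i))) :
    ∃ j, EndAlg (K.Y.map (psi c')) a j := by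
  refine endAlg_of (psi_ok h c' hrel) a ?_ hl ?_
  · intro h0
    obtain ⟨z, hz⟩ := hne
    have h1 := (h.spec (hrel z) hz).d_ne a
    apply h1
    show MvPolynomial.map (MvPolynomial.aeval (fun i => ev z (c' i)) :
      MvPolynomial (Fin K.k) k₀ →ₐ[k₀] ℂ).toRingHom (K.Y.d a) = 0
    rw [← ev_comp_psi, ← MvPolynomial.map_map]
    have h2 : MvPolynomial.map (psi c') (K.Y.d a) = 0 := h0
    rw [h2, map_zero]
  · filter_upwards [hM] with z hz
    rw [map_psi]
    exact hz

/-- members of a code over the end -/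
theorem isMb_code {K : Code k₀ n N} (c' : Fin K.k → MgR) {a : Fin K.Y.q} {j : Fin (N + 1)}
    (h : EndAlg (K.Y.map (psi c')) a j) {M : Type} [TopologicalSpace M] {A : Atl n M} {O : LB A}
    {U : Fin (N + 1) → Fn A} {σ : HSymp A} {z : Hp}
    (hM : ConeC (K.mem fun i => ev z (c' i)) O U)
    (hσ : FormC (K.mem fun i => ev z (c' i)).D U σ.toH2) :
    IsMb (prD ((K.Y.map (psi c')).κ a)) (fmD (K.Y.map (psi c')).D j) (ev z) A O U σ := by
  rw [← map_psi] at hM hσ
  exact h.isMb hM hσ

end Code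

end Crest.Agent.R281.GTi_989
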