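import Mathlib

/-!
# Row 281, KAP-GAL part 1 (helper257): automorphisms of an algebraically closed field

`exists_ringEquiv`: two embeddings of a countable domain into an uncountable algebraically closed
field of characteristic zero differ by an automorphism.
`mem_of_fixed`: the fixed field of `Aut(Ω/K)`, `K` countable, is `K`.
-/

set_option autoImplicit false

namespace Crest.Agent.R281.Gal1_257

open Cardinal

universe u

section Ext

variable {R : Type u} [CommRing R] [IsDomain R] {Ω : Type u} [Field Ω] [IsAlgClosed Ω]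

/-- copy of `Ω` seen as an algebra along a given map -/
def Cp {R : Type u} [CommRing R] {Ω : Type u} [Field Ω] (_i : R →+* Ω) : Type u := Ω

noncomputable instance {R : Type u} [CommRing R] {Ω : Type u} [Field Ω] (i : R →+* Ω) :
    Field (Cp i) := inferInstanceAs (Field Ω)

instance {R : Type u} [CommRing R] {Ω : Type u} [Field Ω] [IsAlgClosed Ω] (i : R →+* Ω) :
    IsAlgClosed (Cp i) := inferInstanceAs (IsAlgClosed Ω)

noncomputable instance {R : Type u} [CommRing R] {Ω : Type u} [Field Ω] (i : R →+* Ω) :
    Algebra R (Cp i) := i.toAlgebra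

theorem exists_ringEquiv [Countable R] (hΩ : ℵ₀ < #Ω) (i j : R →+* Ω)
    (hi : Function.Injective i) (hj : Function.Injective j) :
    ∃ σ : Ω ≃+* Ω, ∀ r, σ (i r) = j r := by
  classical
  have : Nontrivial R := inferInstance
  have : FaithfulSMul R (Cp i) := (faithfulSMul_iff_algebraMap_injective R (Cp i)).2 hi
  have : FaithfulSMul R (Cp j) := (faithfulSMul_iff_algebraMap_injective R (Cp j)).2 hj
  obtain ⟨s, hs⟩ := exists_isTranscendenceBasis R (Cp i)
  obtain ⟨t, ht⟩ := exists_isTranscendenceBasis R (Cp j)
  have hR : #R ≤ ℵ₀ := Cardinal.mk_le_aleph0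
  have h1 : #(Cp i) = #s :=
    IsAlgClosed.cardinal_eq_cardinal_transcendence_basis_of_aleph0_lt' _ hs hR hΩ
  have h2 : #(Cp j) = #t :=
    IsAlgClosed.cardinal_eq_cardinal_transcendence_basis_of_aleph0_lt' _ ht hR hΩ
  have h3 : #s = #t := h1.symm.trans h2
  obtain ⟨e⟩ := Cardinal.eq.1 h3
  let := IsAlgClosed.isAlgClosure_of_transcendence_basis _ hs
  let := IsAlgClosed.isAlgClosure_of_transcendence_basis _ ht
  let ee : Algebra.adjoin R (Set.range (Subtype.val : s → Cp i)) ≃ₐ[R]
      Algebra.adjoin R (Set.range (Subtype.val : t → Cp j)) :=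
    (hs.1.aevalEquiv.symm.trans (MvPolynomial.renameEquiv R e)).trans ht.1.aevalEquiv
  let σ : Cp i ≃+* Cp j := IsAlgClosure.equivOfEquiv (Cp i) (Cp j) ee.toRingEquiv
  refine ⟨σ, fun r => ?_⟩
  have h4 : σ (algebraMap (Algebra.adjoin R (Set.range (Subtype.val : s → Cp i))) (Cp i)
      (algebraMap R _ r)) = algebraMap (Algebra.adjoin R (Set.range (Subtype.val : t → Cp j)))
        (Cp j) (ee.toRingEquiv (algebraMap R _ r)) :=
    IsAlgClosure.equivOfEquiv_algebraMap _ _ _ _
  have h5 : ee.toRingEquiv (algebraMap R _ r) = algebraMap R _ r := ee.commutes r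
  rw [h5] at h4
  exact h4

end Ext

section Fix

variable {Ω : Type u} [Field Ω] [IsAlgClosed Ω] [CharZero Ω]

open Polynomial in
/-- the fixed field of the automorphisms over a countable subfield -/
theorem exists_moves (hΩ : ℵ₀ < #Ω) {K : Type u} [Field K] [Countable K] [Algebra K Ω]
    (a : Ω) (ha : a ∉ Set.range (algebraMap K Ω)) :
    ∃ σ : Ω ≃ₐ[K] Ω, σ a ≠ a := by
  classical
  have : CharZero K := (algebraMap K Ω).charZero
  by_cases h : IsAlgebraic K a
  · have hint : IsIntegral K a := h.isIntegral
    -- another root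
    have hsep : (minpoly K a).Separable := (minpoly.irreducible hint).separable
    obtain ⟨b, hb, hba⟩ : ∃ b, aeval b (minpoly K a) = 0 ∧ b ≠ a := by
      by_contra hcon
      push Not at hcon
      have h1 : (minpoly K a).aroots Ω = Multiset.replicate (minpoly K a).natDegree a := by
        rw [Multiset.eq_replicate]
        constructor
        · rw [aroots, splits_iff_card_roots.1 (IsAlgClosed.splits _), natDegree_map]
        · intro b hb
          exact hcon b (by simpa using (mem_aroots.1 hb).2)
      have h2 : ((minpoly K a).aroots Ω).Nodup := nodup_aroots_iff_of_splits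
        (minpoly.ne_zero hint) (IsAlgClosed.splits _) |>.2 hsep
      rw [h1, Multiset.nodup_iff_count_le_one] at h2
      have h3 : (minpoly K a).natDegree ≤ 1 := by simpa using h2 a
      have h4 : (minpoly K a).natDegree = 1 :=
        le_antisymm h3 (minpoly.natDegree_pos hint)
      exact ha (minpoly.natDegree_eq_one_iff.1 h4)
    have : Fact (Irreducible (minpoly K a)) := ⟨minpoly.irreducible hint⟩
    have : Countable (AdjoinRoot (minpoly K a)) := by
      have : Countable K[X] := by
        rw [← Cardinal.mk_le_aleph0_iff]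
        exact (Polynomial.cardinalMk_le_max).trans (by simp)
      exact (AdjoinRoot.mk_surjective (g := minpoly K a)).countable
    let i : AdjoinRoot (minpoly K a) →+* Ω :=
      AdjoinRoot.lift (algebraMap K Ω) a (by simpa [aeval_def] using minpoly.aeval K a)
    let j : AdjoinRoot (minpoly K a) →+* Ω :=
      AdjoinRoot.lift (algebraMap K Ω) b (by simpa [aeval_def] using hb)
    have hi1 : ∀ r, i (AdjoinRoot.of _ r) = algebraMap K Ω r := fun r => AdjoinRoot.lift_of _
    have hj1 : ∀ r, j (AdjoinRoot.of _ r) = algebraMap K Ω r := fun r => AdjoinRoot.lift_of _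
    have hi2 : i (AdjoinRoot.root _) = a := AdjoinRoot.lift_root _
    have hj2 : j (AdjoinRoot.root _) = b := AdjoinRoot.lift_root _
    obtain ⟨σ, hσ⟩ := exists_ringEquiv hΩ i j i.injective j.injective
    refine ⟨{ σ with commutes' := fun r => ?_ }, ?_⟩
    · have := hσ (AdjoinRoot.of _ r)
      rw [hi1, hj1] at this
      exact this
    · have h5 := hσ (AdjoinRoot.root _)
      rw [hi2, hj2] at h5
      change σ a ≠ a
      rw [h5]; exact hba
  · have htr : Transcendental K a := h
    have : Countable K[X] := by
      rw [← Cardinal.mk_le_aleph0_iff]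
      exact (Polynomial.cardinalMk_le_max).trans (by simp)
    have htr2 : Transcendental K (a + 1) := by
      intro hcon
      apply htr
      have : IsAlgebraic K ((a + 1) - 1) := hcon.sub isAlgebraic_one
      simpa using this
    obtain ⟨σ, hσ⟩ := exists_ringEquiv hΩ (aeval (R := K) a).toRingHom
      (aeval (R := K) (a + 1)).toRingHom
      (transcendental_iff_injective.1 htr) (transcendental_iff_injective.1 htr2)
    refine ⟨{ σ with commutes' := fun r => ?_ }, ?_⟩
    · have := hσ (C r)
      simpa using this
    · have := hσ X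
      have h5 : σ a = a + 1 := by simpa using this
      change σ a ≠ a
      rw [h5]; simp

theorem mem_of_fixed (hΩ : ℵ₀ < #Ω) {K : Type u} [Field K] [Countable K] [Algebra K Ω]
    (a : Ω) (ha : ∀ σ : Ω ≃ₐ[K] Ω, σ a = a) : a ∈ Set.range (algebraMap K Ω) := by
  by_contra h
  obtain ⟨σ, hσ⟩ := exists_moves hΩ a h
  exact hσ (ha σ)

end Fix

end Crest.Agent.R281.Gal1_257
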