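import Mathlib
import Crest.Agent.R281.Gal1_257

/-!
# Row 281, KAP-GAL part 2 (helper257): descent of the equations of a family of algebraic sets

`Piv V P`: restriction of `V ⊆ Ω^ι` to the coordinates in `P` is bijective; `ent`: the dual basis
(the entries of the reduced echelon form).  `Idl S T`: the polynomials with exponents in `S`
vanishing on `T`.
-/

set_option autoImplicit false
set_option linter.unusedSectionVars false

namespace Crest.Agent.R281.Gal2_257

open Cardinal

universe u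

section Piv

variable {Ω : Type u} [Field Ω] {ι : Type*}

/-- restriction to the coordinates in `P` is bijective on `V` -/
def Piv (V : Submodule Ω (ι → Ω)) (P : Set ι) : Prop :=
  Function.Bijective (fun (v : V) (p : P) => (v : ι → Ω) p)

theorem exists_piv [Finite ι] (V : Submodule Ω (ι → Ω)) : ∃ P : Set ι, Piv V P := by
  classical
  have := Fintype.ofFinite ι
  let A : Set (Finset ι) := {P | ∀ v ∈ V, (∀ p ∈ P, v p = 0) → v = 0}
  obtain ⟨P, hP, hmin⟩ := (wellFounded_lt (α := Finset ι)).has_min A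
    ⟨Finset.univ, fun v _ h => funext fun i => h i (Finset.mem_univ i)⟩
  have hdual : ∀ p ∈ P, ∃ v ∈ V, v p = 1 ∧ ∀ q ∈ P, q ≠ p → v q = 0 := by
    intro p hp
    have h1 : P.erase p ∉ A := fun h => hmin _ h (Finset.erase_ssubset hp)
    have h2 : ∃ v ∈ V, (∀ q ∈ P.erase p, v q = 0) ∧ v ≠ 0 := by
      by_contra hcon
      push Not at hcon
      exact h1 fun v hv hq => hcon v hv hq
    obtain ⟨v, hv, hq, hne⟩ := h2
    have h3 : v p ≠ 0 := by
      intro h0
      apply hne
      apply hP v hv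
      intro q hqP
      by_cases hqp : q = p
      · rw [hqp]; exact h0
      · exact hq q (Finset.mem_erase.2 ⟨hqp, hqP⟩)
    refine ⟨(v p)⁻¹ • v, V.smul_mem _ hv, by simp [h3], ?_⟩
    intro q hqP hqp
    simp [hq q (Finset.mem_erase.2 ⟨hqp, hqP⟩)]
  refine ⟨(P : Set ι), ?_, ?_⟩
  · intro v w h
    have h1 : (v : ι → Ω) - w = 0 := by
      apply hP _ (V.sub_mem v.2 w.2)
      intro p hp
      have := congrFun h ⟨p, hp⟩
      simpa [sub_eq_zero] using this
    exact Subtype.ext (sub_eq_zero.1 h1)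
  · intro c
    choose! e he using hdual
    refine ⟨⟨∑ p : P, c ⟨p, p.2⟩ • e p, V.sum_mem fun p _ => V.smul_mem _ (he p p.2).1⟩, ?_⟩
    ext q
    have hq : (q : ι) ∈ P := q.2
    simp only [Finset.sum_apply, Pi.smul_apply, smul_eq_mul]
    rw [Finset.sum_eq_single (⟨q, hq⟩ : P)]
    · rw [(he q hq).2.1, mul_one]
    · intro p _ hpq
      rw [(he p p.2).2.2 q hq (fun h => hpq (Subtype.ext h.symm)), mul_zero]
    · intro h; exact absurd (Finset.mem_univ _) h

open Classical in
/-- the dual vectors: `ent p` is the vector of `V` with coordinates `δ_p` on `P` -/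
noncomputable def ent {V : Submodule Ω (ι → Ω)} {P : Set ι} (h : Piv V P) (p : P) : ι → Ω :=
  ((Equiv.ofBijective _ h).symm (Pi.single p 1) : V)

theorem ent_mem {V : Submodule Ω (ι → Ω)} {P : Set ι} (h : Piv V P) (p : P) : ent h p ∈ V :=
  Subtype.coe_prop _

open Classical in
theorem ent_apply {V : Submodule Ω (ι → Ω)} {P : Set ι} (h : Piv V P) (p q : P) :
    ent h p q = (Pi.single p 1 : P → Ω) q := by
  have := (Equiv.ofBijective _ h).apply_symm_apply (Pi.single p 1)
  exact congrFun this q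

theorem ent_self {V : Submodule Ω (ι → Ω)} {P : Set ι} (h : Piv V P) (p : P) :
    ent h p p = 1 := by
  rw [ent_apply]; simp

theorem ent_ne {V : Submodule Ω (ι → Ω)} {P : Set ι} (h : Piv V P) {p q : P} (hqp : q ≠ p) :
    ent h p q = 0 := by
  rw [ent_apply]; simp [hqp]

theorem Piv.ext {V : Submodule Ω (ι → Ω)} {P : Set ι} (h : Piv V P) {v w : ι → Ω} (hv : v ∈ V)
    (hw : w ∈ V) (hp : ∀ p : P, v p = w p) : v = w := by
  have : (⟨v, hv⟩ : V) = ⟨w, hw⟩ := h.1 (funext hp)
  exact congrArg Subtype.val this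

theorem ent_unique {V : Submodule Ω (ι → Ω)} {P : Set ι} (h : Piv V P) (p : P) {v : ι → Ω}
    (hv : v ∈ V) (h1 : v p = 1) (h0 : ∀ q : P, q ≠ p → v q = 0) : v = ent h p := by
  apply h.ext hv (ent_mem h p)
  intro q
  by_cases hq : q = p
  · rw [hq, ent_self, h1]
  · rw [ent_ne h hq, h0 q hq]

/-- the entries determine the space -/
theorem eq_of_ent [Finite ι] {V W : Submodule Ω (ι → Ω)} {P : Set ι} (hV : Piv V P)
    (hW : Piv W P) (h : ∀ p : P, ent hV p = ent hW p) : V = W := by
  classical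
  have := Fintype.ofFinite ι
  have key : ∀ {V W : Submodule Ω (ι → Ω)} (hV : Piv V P) (hW : Piv W P),
      (∀ p : P, ent hV p = ent hW p) → V ≤ W := by
    intro V W hV hW h v hv
    have h1 : v = ∑ p : P, v p • ent hV p := by
      apply hV.ext hv (V.sum_mem fun p _ => V.smul_mem _ (ent_mem hV p))
      intro q
      simp only [Finset.sum_apply, Pi.smul_apply, smul_eq_mul]
      rw [Finset.sum_eq_single q]
      · rw [ent_self, mul_one]
      · intro p _ hpq
        rw [ent_ne hV (Ne.symm hpq), mul_zero]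
      · intro h; exact absurd (Finset.mem_univ _) h
    rw [h1]
    refine W.sum_mem fun p _ => W.smul_mem _ ?_
    rw [h p]; exact ent_mem hW p
  exact le_antisymm (key hV hW h) (key hW hV fun p => (h p).symm)

/-- `V'` is the image of `V` under the automorphism `σ` applied coordinatewise -/
def Tr (σ : Ω ≃+* Ω) (V V' : Submodule Ω (ι → Ω)) : Prop :=
  ∀ v : ι → Ω, v ∈ V ↔ (fun i => σ (v i)) ∈ V'

theorem Tr.mem' {σ : Ω ≃+* Ω} {V V' : Submodule Ω (ι → Ω)} (h : Tr σ V V') {v : ι → Ω}
    (hv : v ∈ V') : (fun i => σ.symm (v i)) ∈ V := by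
  rw [h]; simpa using hv

theorem Tr.piv {σ : Ω ≃+* Ω} {V V' : Submodule Ω (ι → Ω)} (h : Tr σ V V') {P : Set ι}
    (hP : Piv V P) : Piv V' P := by
  constructor
  · intro v w hvw
    apply Subtype.ext
    have h1 : (fun i => σ.symm ((v : ι → Ω) i)) = fun i => σ.symm ((w : ι → Ω) i) := by
      apply hP.ext (h.mem' v.2) (h.mem' w.2)
      intro p
      exact congrArg σ.symm (congrFun hvw p)
    funext i
    exact σ.symm.injective (congrFun h1 i)
  · intro c
    obtain ⟨v, hv⟩ := hP.2 (fun p => σ.symm (c p))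
    refine ⟨⟨fun i => σ ((v : ι → Ω) i), (h _).1 v.2⟩, ?_⟩
    funext p
    have := congrFun hv p
    simp only at this ⊢
    rw [this, RingEquiv.apply_symm_apply]

theorem Tr.ent {σ : Ω ≃+* Ω} {V V' : Submodule Ω (ι → Ω)} (h : Tr σ V V') {P : Set ι}
    (hP : Piv V P) (hP' : Piv V' P) (p : P) (i : ι) :
    ent hP' p i = σ (ent hP p i) := by
  have h1 : (fun i => σ (Gal2_257.ent hP p i)) = Gal2_257.ent hP' p := by
    apply ent_unique hP' p ((h _).1 (ent_mem hP p))
    · simp [ent_self]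
    · intro q hq; simp [ent_ne hP hq]
  exact (congrFun h1 i).symm

end Piv

section Idl

variable {Ω : Type u} [Field Ω] {κ : Type} [Fintype κ]

/-- coefficient vectors of polynomials with exponents in `S` which vanish on `T` -/
def Idl (S : Finset (κ →₀ ℕ)) (T : Set (κ → Ω)) : Submodule Ω (S → Ω) where
  carrier := {c | ∀ z ∈ T, ∑ m : S, c m * ∏ i, z i ^ (m : κ →₀ ℕ) i = 0}
  add_mem' := by
    intro a b ha hb z hz
    simp only [Pi.add_apply, add_mul, Finset.sum_add_distrib]
    rw [ha z hz, hb z hz, add_zero]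
  zero_mem' := by intro z _; simp
  smul_mem' := by
    intro c a ha z hz
    simp only [Pi.smul_apply, smul_eq_mul, mul_assoc, ← Finset.mul_sum]
    rw [ha z hz, mul_zero]

theorem mem_Idl {S : Finset (κ →₀ ℕ)} {T : Set (κ → Ω)} {c : S → Ω} :
    c ∈ Idl S T ↔ ∀ z ∈ T, ∑ m : S, c m * ∏ i, z i ^ (m : κ →₀ ℕ) i = 0 := Iff.rfl

/-- `T'` is the image of `T` under `σ` applied to the coordinates -/
def TrS (σ : Ω ≃+* Ω) (T T' : Set (κ → Ω)) : Prop :=
  ∀ z : κ → Ω, z ∈ T ↔ (fun i => σ (z i)) ∈ T'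

theorem TrS.idl {σ : Ω ≃+* Ω} {T T' : Set (κ → Ω)} (h : TrS σ T T') (S : Finset (κ →₀ ℕ)) :
    Tr σ (Idl S T) (Idl S T') := by
  intro c
  have key : ∀ z : κ → Ω, ∑ m : S, σ (c m) * ∏ i, (σ (z i)) ^ (m : κ →₀ ℕ) i =
      σ (∑ m : S, c m * ∏ i, z i ^ (m : κ →₀ ℕ) i) := by
    intro z
    simp [map_sum, map_mul, map_prod, map_pow]
  constructor
  · intro hc z hz
    have hz' : (fun i => σ.symm (z i)) ∈ T := by rw [h]; simpa using hz
    have h1 := key (fun i => σ.symm (z i))
    simp only [RingEquiv.apply_symm_apply] at h1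
    rw [h1, hc _ hz', map_zero]
  · intro hc z hz
    have h1 := hc _ ((h z).1 hz)
    rw [key] at h1
    exact σ.injective (h1.trans (map_zero σ).symm)

end Idl

section Rel

variable {k Ω : Type u} [Field k] [Field Ω] [IsAlgClosed Ω] [CharZero Ω] [Algebra k Ω]
variable {κ : Type} [Fintype κ]

open MvPolynomial

/-- same polynomial relations over `k` -/
def Rel (k : Type u) {Ω : Type u} [Field k] [Field Ω] [Algebra k Ω] {κ : Type}
    (x y : κ → Ω) : Prop :=
  ∀ p : MvPolynomial κ k, aeval x p = 0 ↔ aeval y p = 0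

theorem countable_mvPoly [Countable k] : Countable (MvPolynomial κ k) := by
  rw [← Cardinal.mk_le_aleph0_iff]
  refine (MvPolynomial.cardinalMk_le_max_lift).trans ?_
  simp

/-- generic points are conjugate -/
theorem exists_conj [Countable k] (hΩ : ℵ₀ < #Ω) {x y : κ → Ω} (h : Rel k x y) :
    ∃ σ : Ω ≃ₐ[k] Ω, ∀ i, σ (x i) = y i := by
  classical
  have hc : Countable (MvPolynomial κ k) := countable_mvPoly
  let f : MvPolynomial κ k →+* Ω := (aeval (R := k) x).toRingHom
  let g : MvPolynomial κ k →+* Ω := (aeval (R := k) y).toRingHom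
  let I := RingHom.ker f
  have hI : I.IsPrime := RingHom.ker_isPrime f
  have hg : ∀ a ∈ I, g a = 0 := fun a ha => (h a).1 (RingHom.mem_ker.1 ha)
  have : Countable (MvPolynomial κ k ⧸ I) := (Ideal.Quotient.mk_surjective (I := I)).countable
  let i : MvPolynomial κ k ⧸ I →+* Ω := Ideal.Quotient.lift I f fun a ha => RingHom.mem_ker.1 ha
  let j : MvPolynomial κ k ⧸ I →+* Ω := Ideal.Quotient.lift I g hg
  have hi : Function.Injective i := by
    rw [injective_iff_map_eq_zero]
    intro a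
    obtain ⟨a, rfl⟩ := Ideal.Quotient.mk_surjective a
    intro ha
    rw [Ideal.Quotient.eq_zero_iff_mem]
    exact ha
  have hj : Function.Injective j := by
    rw [injective_iff_map_eq_zero]
    intro a
    obtain ⟨a, rfl⟩ := Ideal.Quotient.mk_surjective a
    intro ha
    rw [Ideal.Quotient.eq_zero_iff_mem]
    exact (h a).2 ha
  obtain ⟨σ, hσ⟩ := Gal1_257.exists_ringEquiv hΩ i j hi hj
  refine ⟨{ σ with commutes' := fun r => ?_ }, fun n => ?_⟩
  · have := hσ (Ideal.Quotient.mk I (C r))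
    have h1 : i (Ideal.Quotient.mk I (C r)) = algebraMap k Ω r := by
      change f (C r) = _
      simp [f]
    have h2 : j (Ideal.Quotient.mk I (C r)) = algebraMap k Ω r := by
      change g (C r) = _
      simp [g]
    rw [h1, h2] at this
    exact this
  · have := hσ (Ideal.Quotient.mk I (X n))
    have h1 : i (Ideal.Quotient.mk I (X n)) = x n := by
      change f (X n) = _
      simp [f]
    have h2 : j (Ideal.Quotient.mk I (X n)) = y n := by
      change g (X n) = _
      simp [g]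
    rw [h1, h2] at this
    exact this

/-- an element fixed by all automorphisms over `k` fixing `x` is a rational function of `x` -/
theorem exists_ratio [Countable k] (hΩ : ℵ₀ < #Ω) (x : κ → Ω) (a : Ω)
    (h : ∀ σ : Ω ≃ₐ[k] Ω, (∀ i, σ (x i) = x i) → σ a = a) :
    ∃ p q : MvPolynomial κ k, aeval x q ≠ 0 ∧ a = aeval x p / aeval x q := by
  classical
  let K : IntermediateField k Ω := IntermediateField.adjoin k (Set.range x)
  have hc : Countable (MvPolynomial κ k) := countable_mvPoly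
  have hmem : ∀ b : Ω, b ∈ K ↔ ∃ r s : MvPolynomial κ k, b = aeval x r / aeval x s :=
    fun b => IntermediateField.mem_adjoin_range_iff (F := k) x b
  have : Countable K := by
    let F : MvPolynomial κ k × MvPolynomial κ k → K := fun rs =>
      ⟨aeval x rs.1 / aeval x rs.2, (hmem _).2 ⟨rs.1, rs.2, rfl⟩⟩
    have hF : Function.Surjective F := by
      rintro ⟨b, hb⟩
      obtain ⟨r, s, hrs⟩ := (hmem b).1 hb
      exact ⟨(r, s), Subtype.ext hrs.symm⟩
    exact hF.countable
  have h1 : a ∈ Set.range (algebraMap K Ω) := by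
    apply Gal1_257.mem_of_fixed hΩ (K := K) a
    intro σ
    let σ' : Ω ≃ₐ[k] Ω := σ.restrictScalars k
    have := h σ' (fun i => by
      have hx : x i ∈ K := IntermediateField.subset_adjoin k _ ⟨i, rfl⟩
      exact σ.commutes ⟨x i, hx⟩)
    exact this
  obtain ⟨b, hb⟩ := h1
  obtain ⟨r, s, hrs⟩ := (hmem a).1 (hb ▸ b.2)
  by_cases hs : aeval x s = 0
  · exact ⟨0, 1, by simp, by rw [hrs, hs]; simp⟩
  · exact ⟨r, s, hs, hrs⟩

theorem Rel.ratio {x y : κ → Ω} (h : Rel k x y) {σ : Ω ≃ₐ[k] Ω} (hσ : ∀ i, σ (x i) = y i)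
    {a : Ω} {p q : MvPolynomial κ k} (hq : aeval x q ≠ 0) (ha : a = aeval x p / aeval x q) :
    aeval y q ≠ 0 ∧ σ a = aeval y p / aeval y q := by
  refine ⟨fun h0 => hq ((h q).2 h0), ?_⟩
  have key : ∀ p : MvPolynomial κ k, σ (aeval x p) = aeval y p := by
    intro p
    have h1 : (σ : Ω →ₐ[k] Ω).comp (aeval x) = aeval y := by
      ext i; simp [hσ]
    exact DFunLike.congr_fun h1 p
  rw [ha, map_div₀, key, key]

/-- **the entries of the equations are rational functions, the same at all conjugate points** -/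
theorem exists_entries [Countable k] (hΩ : ℵ₀ < #Ω) (S : Finset (κ →₀ ℕ)) (x : κ → Ω)
    (T : Set (κ → Ω)) (hT : ∀ σ : Ω ≃ₐ[k] Ω, (∀ i, σ (x i) = x i) → TrS (σ : Ω ≃+* Ω) T T) :
    ∃ (P : Set S) (p q : P → S → MvPolynomial κ k),
      ∀ (y : κ → Ω) (T' : Set (κ → Ω)), Rel k x y →
        (∀ σ : Ω ≃ₐ[k] Ω, (∀ i, σ (x i) = y i) → TrS (σ : Ω ≃+* Ω) T T') →
        ∃ hP : Piv (Idl S T') P, ∀ (a : P) (m : S), aeval y (q a m) ≠ 0 ∧
          ent hP a m = aeval y (p a m) / aeval y (q a m) := by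
  classical
  obtain ⟨P, hP⟩ := exists_piv (Idl S T)
  have h1 : ∀ (a : P) (m : S), ∃ p q : MvPolynomial κ k, aeval x q ≠ 0 ∧
      ent hP a m = aeval x p / aeval x q := by
    intro a m
    apply exists_ratio hΩ
    intro σ hσ
    have h2 := (hT σ hσ).idl S
    exact (h2.ent hP hP a m).symm
  choose p q hpq using h1
  refine ⟨P, p, q, ?_⟩
  intro y T' hxy hT'
  obtain ⟨σ, hσ⟩ := exists_conj hΩ hxy
  have h2 := (hT' σ hσ).idl S
  refine ⟨h2.piv hP, fun a m => ?_⟩
  have h3 := h2.ent hP (h2.piv hP) a m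
  have h4 := hxy.ratio hσ (hpq a m).1 (hpq a m).2
  refine ⟨h4.1, ?_⟩
  rw [h3]
  exact h4.2

end Rel

end Crest.Agent.R281.Gal2_257
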