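import Mathlib

/-!
# Row 281, KAP-GAL part 3 (helper257): a holomorphic map which is injective on a set of full measure
has injective derivative somewhere
-/

set_option autoImplicit false
set_option linter.unusedSectionVars false

open MeasureTheory Set Filter Metric Topology

namespace Crest.Agent.R281.Gal3_257

variable {E : Type*} [NormedAddCommGroup E] [NormedSpace ℂ E] [FiniteDimensional ℂ E]
  [MeasurableSpace E] [BorelSpace E]
variable {F : Type*} [NormedAddCommGroup F] [NormedSpace ℂ F] [FiniteDimensional ℂ F]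

/-- two shifted good points -/
theorem exists_shift (μ : Measure E) [μ.IsAddHaarMeasure] {N : Set E} (hN : μ N = 0)
    {O : Set E} (hO : IsOpen O) (hne : O.Nonempty) (v : E) :
    ∃ a ∈ O, a ∉ N ∧ a + v ∉ N := by
  have h1 : μ ((fun a => a + v) ⁻¹' N) = 0 := by
    rw [measure_preimage_add_right]; exact hN
  have h2 : μ (N ∪ (fun a => a + v) ⁻¹' N) = 0 := measure_union_null hN h1
  have h3 : 0 < μ O := hO.measure_pos μ hne
  have h4 : ¬ O ⊆ N ∪ (fun a => a + v) ⁻¹' N := fun h =>
    absurd (measure_mono_null h h2) h3.ne'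
  obtain ⟨a, ha, hna⟩ := Set.not_subset.1 h4
  exact ⟨a, ha, fun h => hna (Or.inl h), fun h => hna (Or.inr h)⟩

theorem exists_injective_fderiv (μ : Measure E) [μ.IsAddHaarMeasure]
    {g : E → F} {U : Set E} (hU : IsOpen U) (hne : U.Nonempty) (hg : AnalyticOnNhd ℂ g U)
    {N : Set E} (hN : μ N = 0)
    (hinj : ∀ z ∈ U, z ∉ N → ∀ z' ∈ U, z' ∉ N → g z = g z' → z = z') :
    ∃ z ∈ U, Function.Injective (fderiv ℂ g z) := by
  classical
  have hcompl : CompleteSpace E := FiniteDimensional.complete ℂ E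
  have hcomplF : CompleteSpace F := FiniteDimensional.complete ℂ F
  -- a point of maximal rank
  let rk : E → ℕ := fun z => Module.finrank ℂ (LinearMap.range (fderiv ℂ g z : E →ₗ[ℂ] F))
  have hbd : ∀ z, rk z ≤ Module.finrank ℂ F := fun z => Submodule.finrank_le _
  obtain ⟨z₀, hz₀, hmax⟩ : ∃ z₀ ∈ U, ∀ z ∈ U, rk z ≤ rk z₀ := by
    obtain ⟨z₁, hz₁⟩ := hne
    let Q : ℕ → Prop := fun m => ∃ z ∈ U, rk z = m
    have h1 : Q (Nat.findGreatest Q (Module.finrank ℂ F)) :=
      Nat.findGreatest_spec (P := Q) (hbd z₁) ⟨z₁, hz₁, rfl⟩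
    obtain ⟨z₀, hz₀, hr⟩ := h1
    exact ⟨z₀, hz₀, fun z hz => hr ▸ Nat.le_findGreatest (hbd z) ⟨z, hz, rfl⟩⟩
  refine ⟨z₀, hz₀, ?_⟩
  by_contra hni
  set L : E →L[ℂ] F := fderiv ℂ g z₀ with hL
  set K : Submodule ℂ E := LinearMap.ker (L : E →ₗ[ℂ] F) with hK
  have hKne : ∃ v ∈ K, v ≠ 0 := by
    by_contra hcon
    push Not at hcon
    apply hni
    have h1 : LinearMap.ker (L : E →ₗ[ℂ] F) = ⊥ := by
      rw [Submodule.eq_bot_iff]
      exact hcon
    exact LinearMap.ker_eq_bot.1 h1
  obtain ⟨K', hKK⟩ := Submodule.exists_isCompl K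
  -- a left inverse on the complement
  have hinjK : LinearMap.ker ((L : E →ₗ[ℂ] F).comp K'.subtype) = ⊥ := by
    rw [Submodule.eq_bot_iff]
    intro x hx
    have h1 : (x : E) ∈ K := hx
    have h2 : (x : E) ∈ K ⊓ K' := ⟨h1, x.2⟩
    rw [hKK.inf_eq_bot] at h2
    exact Subtype.ext (by simpa using h2)
  obtain ⟨s, hs⟩ := LinearMap.exists_leftInverse_of_injective _ hinjK
  -- the change of coordinates
  let πK : E →ₗ[ℂ] E := K.subtype.comp (Submodule.projectionOnto K K' hKK)
  let πK' : E →ₗ[ℂ] E := K'.subtype.comp (Submodule.projectionOnto K' K hKK.symm)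
  have hsum : ∀ v, πK' v + πK v = v := by
    intro v
    have := Submodule.projection_add_projection_eq_self hKK v
    simp only [πK, πK', LinearMap.comp_apply, Submodule.subtype_apply]
    rw [add_comm]; exact this
  let S : F →L[ℂ] E := LinearMap.toContinuousLinearMap (K'.subtype.comp s)
  let P : E →L[ℂ] E := LinearMap.toContinuousLinearMap πK
  have hSL : ∀ v, S (L v) = πK' v := by
    intro v
    have h1 : L v = L (πK' v) := by
      have h2 : L (πK v) = 0 := by
        have : (πK v : E) ∈ K := Subtype.coe_prop _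
        exact this
      conv_lhs => rw [← hsum v, map_add, h2, add_zero]
    rw [h1]
    have h3 := LinearMap.congr_fun hs (Submodule.projectionOnto K' K hKK.symm v)
    simp only [LinearMap.comp_apply, LinearMap.id_apply, Submodule.subtype_apply] at h3
    change ((s (L _) : K') : E) = _
    exact congrArg Subtype.val h3
  let Ψ : E → E := fun z => S (g z) + P z
  have hΨan : AnalyticOnNhd ℂ Ψ U := fun z hz =>
    ((S.analyticAt _).comp (hg z hz)).add (P.analyticAt z)
  have hΨ0 : HasStrictFDerivAt Ψ ((ContinuousLinearEquiv.refl ℂ E : E ≃L[ℂ] E) : E →L[ℂ] E) z₀ := by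
    have h1 : HasStrictFDerivAt Ψ (S.comp L + P) z₀ :=
      (S.hasStrictFDerivAt.comp z₀ (hg z₀ hz₀).hasStrictFDerivAt).add P.hasStrictFDerivAt
    have h2 : S.comp L + P = ((ContinuousLinearEquiv.refl ℂ E : E ≃L[ℂ] E) : E →L[ℂ] E) := by
      ext v
      change S (L v) + πK v = v
      rw [hSL, hsum]
    rw [← h2]; exact h1
  let h := hΨ0.toOpenPartialHomeomorph Ψ
  have hhc : (h : E → E) = Ψ := hΨ0.toOpenPartialHomeomorph_coe
  have hz₀s : z₀ ∈ h.source := hΨ0.mem_toOpenPartialHomeomorph_source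
  let a₀ := Ψ z₀
  have ha₀ : a₀ ∈ h.target := by
    have := h.map_source hz₀s
    rwa [hhc] at this
  have hsymm0 : h.symm a₀ = z₀ := by
    have := h.left_inv hz₀s
    rwa [hhc] at this
  have hcd : ContDiffAt ℂ 1 h.symm a₀ := by
    apply h.contDiffAt_symm (f₀' := ContinuousLinearEquiv.refl ℂ E) ha₀
    · rw [hsymm0, hhc]; exact hΨ0.hasFDerivAt
    · rw [hsymm0, hhc]; exact (hΨan z₀ hz₀).contDiffAt
  have hev : ∀ᶠ a in 𝓝 a₀, DifferentiableAt ℂ h.symm a := by
    have h1 := hcd.eventually (by simp)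
    exact h1.mono fun a ha => ha.differentiableAt (by simp)
  have hevU : ∀ᶠ a in 𝓝 a₀, h.symm a ∈ U := by
    have h1 : ContinuousAt h.symm a₀ := h.continuousAt_symm ha₀
    apply h1.eventually_mem
    rw [hsymm0]; exact hU.mem_nhds hz₀
  have hevT : ∀ᶠ a in 𝓝 a₀, a ∈ h.target := h.open_target.mem_nhds ha₀
  obtain ⟨ρ, hρ, hball⟩ := Metric.eventually_nhds_iff_ball.1 (hev.and (hevU.and hevT))
  let G : E → F := fun a => g (h.symm a)
  have hGd : ∀ a ∈ ball a₀ ρ, HasFDerivAt G ((fderiv ℂ g (h.symm a)).comp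
      (fderiv ℂ h.symm a)) a := by
    intro a ha
    obtain ⟨h1, h2, _⟩ := hball a ha
    exact (hg _ h2).differentiableAt.hasFDerivAt.comp a h1.hasFDerivAt
  have hSG : ∀ a ∈ ball a₀ ρ, S (G a) = πK' a := by
    intro a ha
    obtain ⟨_, _, h3⟩ := hball a ha
    have h4 := h.right_inv h3
    rw [hhc] at h4
    have h5 : S (g (h.symm a)) + πK (h.symm a) = a := h4
    have h6 : πK' (S (g (h.symm a)) + πK (h.symm a)) = πK' a := by rw [h5]
    have h7 : πK' (S (g (h.symm a))) = S (g (h.symm a)) := by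
      change ((Submodule.projectionOnto K' K hKK.symm (((s (g (h.symm a)) : K') : E)) : K')
        : E) = _
      rw [Submodule.projectionOnto_apply_left]
      rfl
    have h8 : πK' (πK (h.symm a)) = 0 := by
      change ((Submodule.projectionOnto K' K hKK.symm
        (((Submodule.projectionOnto K K' hKK (h.symm a) : K) : E)) : K') : E) = _
      rw [Submodule.projectionOnto_apply_right]
      rfl
    rw [map_add, h7, h8, add_zero] at h6
    exact h6
  -- the derivative of `G` vanishes on `K`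
  have hGK : ∀ a ∈ ball a₀ ρ, ∀ v ∈ K, fderiv ℂ G a v = 0 := by
    intro a ha v hv
    set D : E →L[ℂ] F := (fderiv ℂ g (h.symm a)).comp (fderiv ℂ h.symm a) with hD
    have hfd : fderiv ℂ G a = D := (hGd a ha).fderiv
    rw [hfd]
    -- `S ∘ D = πK'`
    have h1 : ∀ w, S (D w) = πK' w := by
      have h2 : HasFDerivAt (fun a => S (G a)) (S.comp D) a :=
        S.hasFDerivAt.comp a (hGd a ha)
      have h3 : HasFDerivAt (fun a => S (G a)) (LinearMap.toContinuousLinearMap πK') a := by
        have h4 : HasFDerivAt (fun a => πK' a) (LinearMap.toContinuousLinearMap πK') a :=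
          (LinearMap.toContinuousLinearMap πK').hasFDerivAt
        refine h4.congr_of_eventuallyEq ?_
        filter_upwards [isOpen_ball.mem_nhds ha] with b hb
        exact hSG b hb
      intro w
      exact DFunLike.congr_fun (h2.unique h3) w
    -- dimension count
    let R : Submodule ℂ F := LinearMap.range (D : E →ₗ[ℂ] F)
    have h5 : Module.finrank ℂ R ≤ rk z₀ := by
      refine le_trans ?_ (hmax _ (hball a ha).2.1)
      apply Submodule.finrank_mono
      rintro _ ⟨w, rfl⟩
      exact ⟨fderiv ℂ h.symm a w, rfl⟩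
    have h6 : rk z₀ = Module.finrank ℂ K' := by
      have e1 := LinearMap.finrank_range_add_finrank_ker (L : E →ₗ[ℂ] F)
      have e2 := Submodule.finrank_add_eq_of_isCompl hKK
      change Module.finrank ℂ (LinearMap.range (L : E →ₗ[ℂ] F)) = _
      have e3 : Module.finrank ℂ (LinearMap.ker (L : E →ₗ[ℂ] F)) = Module.finrank ℂ K := rfl
      omega
    let SR : R →ₗ[ℂ] K' := s.comp R.subtype
    have h7 : Function.Surjective SR := by
      intro w
      refine ⟨⟨D w, ⟨(w : E), rfl⟩⟩, ?_⟩
      apply Subtype.ext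
      have h8 := h1 (w : E)
      have h9 : πK' (w : E) = w := by
        change ((Submodule.projectionOnto K' K hKK.symm (w : E) : K') : E) = _
        rw [Submodule.projectionOnto_apply_left]
      rw [h9] at h8
      exact h8
    have h10 : Function.Injective SR := by
      rw [LinearMap.injective_iff_surjective_of_finrank_eq_finrank]
      · exact h7
      · apply le_antisymm
        · rw [← h6]; exact h5
        · exact LinearMap.finrank_le_finrank_of_surjective h7
    have h11 : SR ⟨D v, ⟨v, rfl⟩⟩ = 0 := by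
      apply Subtype.ext
      have h12 := h1 v
      have h13 : πK' v = 0 := by
        change ((Submodule.projectionOnto K' K hKK.symm (v : E) : K') : E) = _
        rw [(Submodule.projectionOnto_apply_eq_zero_iff hKK.symm).2 hv]
        rfl
      rw [h13] at h12
      exact h12
    have h14 : (⟨D v, ⟨v, rfl⟩⟩ : R) = 0 := h10 (h11.trans (map_zero SR).symm)
    exact congrArg Subtype.val h14
  -- `G` is constant in the direction of `v`
  obtain ⟨v₀, hv₀, hv₀ne⟩ := hKne
  obtain ⟨c, hc0, hc⟩ : ∃ c : ℂ, c ≠ 0 ∧ ‖c • v₀‖ < ρ / 2 := by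
    have hpos : 0 < ‖v₀‖ := norm_pos_iff.2 hv₀ne
    refine ⟨((ρ / (4 * ‖v₀‖) : ℝ) : ℂ), ?_, ?_⟩
    · have : (ρ / (4 * ‖v₀‖) : ℝ) ≠ 0 := by positivity
      exact_mod_cast this
    · rw [norm_smul, Complex.norm_real, Real.norm_eq_abs, abs_of_pos (by positivity)]
      have : ρ / (4 * ‖v₀‖) * ‖v₀‖ = ρ / 4 := by field_simp
      rw [this]; linarith
  set v := c • v₀ with hv
  have hvK : v ∈ K := K.smul_mem _ hv₀
  have hvne : v ≠ 0 := smul_ne_zero hc0 hv₀ne
  have hconst : ∀ a ∈ ball a₀ (ρ / 2), G (a + v) = G a := by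
    intro a ha
    let f : ℝ → F := fun t => G (a + (t : ℂ) • v)
    have hseg : ∀ t ∈ Set.Icc (0 : ℝ) 1, a + (t : ℂ) • v ∈ ball a₀ ρ := by
      intro t ht
      rw [mem_ball, dist_eq_norm] at ha ⊢
      calc ‖a + (t : ℂ) • v - a₀‖ = ‖(a - a₀) + (t : ℂ) • v‖ := by congr 1; abel
        _ ≤ ‖a - a₀‖ + ‖(t : ℂ) • v‖ := norm_add_le _ _
        _ ≤ ‖a - a₀‖ + ‖v‖ := by
            gcongr
            rw [norm_smul, Complex.norm_real, Real.norm_eq_abs, abs_of_nonneg ht.1]
            exact mul_le_of_le_one_left (norm_nonneg _) ht.2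
        _ < ρ := by linarith
    have hder : ∀ t ∈ Set.Icc (0 : ℝ) 1, HasDerivWithinAt f 0 (Set.Icc 0 1) t := by
      intro t ht
      have h1 := (hGd _ (hseg t ht))
      have h2 : HasDerivAt (fun t : ℝ => a + (t : ℂ) • v) v t := by
        have h3 : HasDerivAt (fun t : ℝ => (t : ℂ)) 1 t := Complex.ofRealCLM.hasDerivAt
        have h4 := (h3.smul_const v).const_add a
        simpa using h4
      have h5 := (h1.restrictScalars ℝ).comp_hasDerivAt t h2
      have h6 := hGK _ (hseg t ht) v hvK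
      rw [(hGd _ (hseg t ht)).fderiv] at h6
      have h7 : HasDerivAt f (((fderiv ℂ g (h.symm (a + (t : ℂ) • v))).comp
          (fderiv ℂ h.symm (a + (t : ℂ) • v))) v) t := h5
      rw [h6] at h7
      exact h7.hasDerivWithinAt
    have h8 := (convex_Icc (0 : ℝ) 1).is_const_of_fderivWithin_eq_zero (𝕜 := ℝ) (f := f)
      (fun t ht => (hder t ht).differentiableWithinAt) (fun t ht => by
        have h9 : UniqueDiffWithinAt ℝ (Set.Icc (0 : ℝ) 1) t :=
          uniqueDiffOn_Icc zero_lt_one t ht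
        have h10 := (hder t ht).hasFDerivWithinAt.fderivWithin h9
        rw [h10]; ext; simp) (Set.left_mem_Icc.2 zero_le_one) (Set.right_mem_Icc.2 zero_le_one)
    have h9 : f 0 = f 1 := h8
    simp only [f, Complex.ofReal_zero, zero_smul, add_zero, Complex.ofReal_one, one_smul] at h9
    exact h9.symm
  -- the null set in the new coordinates
  let N' : Set E := Ψ '' (N ∩ (h.source ∩ U))
  have hN' : μ N' = 0 := by
    let _ : NormedSpace ℝ E := NormedSpace.complexToReal
    have : FiniteDimensional ℝ E := FiniteDimensional.complexToReal E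
    apply addHaar_image_eq_zero_of_differentiableOn_of_addHaar_eq_zero μ
    · intro z hz
      exact ((hΨan z hz.2.2).differentiableAt.restrictScalars ℝ).differentiableWithinAt
    · exact measure_mono_null Set.inter_subset_left hN
  obtain ⟨a, ha, hna, hnav⟩ := exists_shift μ hN' isOpen_ball
    ⟨a₀, mem_ball_self (half_pos hρ)⟩ v
  have ha' : a ∈ ball a₀ ρ := ball_subset_ball (by linarith) ha
  have hav : a + v ∈ ball a₀ ρ := by
    rw [mem_ball, dist_eq_norm] at ha ⊢
    calc ‖a + v - a₀‖ = ‖(a - a₀) + v‖ := by congr 1; abel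
      _ ≤ ‖a - a₀‖ + ‖v‖ := norm_add_le _ _
      _ < ρ := by linarith
  have hgood : ∀ b ∈ ball a₀ ρ, b ∉ N' → h.symm b ∉ N := by
    intro b hb hb' hcon
    apply hb'
    refine ⟨h.symm b, ⟨hcon, h.map_target (hball b hb).2.2, (hball b hb).2.1⟩, ?_⟩
    have := h.right_inv (hball b hb).2.2
    rwa [hhc] at this
  have heq : h.symm a = h.symm (a + v) :=
    hinj _ (hball a ha').2.1 (hgood a ha' hna) _ (hball _ hav).2.1 (hgood _ hav hnav)
      (hconst a ha).symm
  have := h.symm.injOn (hball a ha').2.2 (hball _ hav).2.2 heq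
  exact hvne (by simpa using this)

end Crest.Agent.R281.Gal3_257
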