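import Mathlib
import Crest.Agent.R281.Gal2_257
import Crest.Agent.R281.Gal3_257
import Crest.Agent.R271.Null_821

/-!
# Row 281, KAP-GAL part 4 (helper257): KAPPA-1, steps (1) and (2), on a box

`exists_rational`: a holomorphic family of algebraic sets `T b`, which is equivariant under
`Aut(ℂ/k)` at almost every point of the box, is given by rational functions over `k`.
-/

set_option autoImplicit false
set_option linter.unusedSectionVars false

open MeasureTheory Set Filter Metric Topology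
open Crest.Agent.R281.Gal2_257

namespace Crest.Agent.R281.Gal4_257

section Zer

variable {Ω : Type} [Field Ω] {κ : Type} [Fintype κ]

/-- common zeros of a space of polynomials with exponents in `S` -/
def Zer (S : Finset (κ →₀ ℕ)) (V : Submodule Ω (S → Ω)) : Set (κ → Ω) :=
  {x | ∀ c ∈ V, ∑ m : S, c m * ∏ i, x i ^ (m : κ →₀ ℕ) i = 0}

theorem TrS.zer {σ : Ω ≃+* Ω} {T T' : Set (κ → Ω)} (h : TrS σ T T') {S : Finset (κ →₀ ℕ)}
    (hT : Zer S (Idl S T) ⊆ T) : Zer S (Idl S T') ⊆ T' := by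
  intro x hx
  have h1 : (fun i => σ.symm (x i)) ∈ T := by
    apply hT
    intro c hc
    have h2 := hx _ ((h.idl S c).1 hc)
    have h3 : σ (∑ m : S, c m * ∏ i, (σ.symm (x i)) ^ (m : κ →₀ ℕ) i) = 0 := by
      simpa [map_sum, map_mul, map_prod, map_pow] using h2
    exact σ.injective (h3.trans (map_zero σ).symm)
  have h4 := (h _).1 h1
  simpa using h4

theorem subset_zer (S : Finset (κ →₀ ℕ)) (T : Set (κ → Ω)) : T ⊆ Zer S (Idl S T) :=
  fun x hx _ hc => hc x hx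

end Zer

section An

variable {E : Type*} [NormedAddCommGroup E] [NormedSpace ℂ E]
variable {k : Type} [Field k] [Algebra k ℂ] {κ : Type} [Fintype κ]

theorem analyticOnNhd_aeval {φ : E → κ → ℂ} {U : Set E} (hφ : AnalyticOnNhd ℂ φ U)
    (p : MvPolynomial κ k) : AnalyticOnNhd ℂ (fun z => MvPolynomial.aeval (φ z) p) U := by
  have hφi : ∀ i, AnalyticOnNhd ℂ (fun z => φ z i) U := fun i z hz =>
    ((ContinuousLinearMap.proj (R := ℂ) (φ := fun _ : κ => ℂ) i).analyticAt _).comp (hφ z hz)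
  induction p using MvPolynomial.induction_on with
  | C a => simpa using analyticOnNhd_const
  | add p q hp hq =>
    simp only [map_add]
    exact hp.add hq
  | mul_X p i hp =>
    simp only [map_mul, MvPolynomial.aeval_X]
    exact hp.mul (hφi i)

end An

section Sel

variable {V : Type*} [AddCommGroup V] [Module ℂ V] [FiniteDimensional ℂ V]

/-- among functionals which separate the points, `dim V` are independent -/
theorem exists_sel {I : Type*} (m : I → Module.Dual ℂ V)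
    (h : ∀ v, (∀ i, m i v = 0) → v = 0) :
    ∃ f : Fin (Module.finrank ℂ V) → I, LinearIndependent ℂ (m ∘ f) := by
  classical
  obtain ⟨K, a, ha, hsp, hli⟩ := exists_linearIndependent' ℂ m
  have hK : Finite K := hli.finite
  have := Fintype.ofFinite K
  let W : Submodule ℂ (Module.Dual ℂ V) := Submodule.span ℂ (Set.range m)
  have h1 : Module.finrank ℂ W = Fintype.card K := by
    change Module.finrank ℂ (Submodule.span ℂ (Set.range m)) = _
    rw [← hsp]
    exact finrank_span_eq_card hli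
  let F : V →ₗ[ℂ] Module.Dual ℂ W :=
    (Module.Dual.transpose (W.subtype)).comp (Module.Dual.eval ℂ V)
  have hF : Function.Injective F := by
    rw [injective_iff_map_eq_zero]
    intro v hv
    apply h
    intro i
    exact LinearMap.congr_fun hv ⟨m i, Submodule.subset_span ⟨i, rfl⟩⟩
  have h2 : Module.finrank ℂ V ≤ Fintype.card K := by
    rw [← h1, ← Subspace.dual_finrank_eq (K := ℂ) (V := W)]
    exact LinearMap.finrank_le_finrank_of_injective hF
  let e : Fin (Module.finrank ℂ V) → K := fun j => (Fintype.equivFin K).symm (Fin.castLE h2 j)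
  have he : Function.Injective e :=
    (Fintype.equivFin K).symm.injective.comp (Fin.castLE_injective h2)
  exact ⟨a ∘ e, hli.comp e he⟩

end Sel

section Main

variable {E₁ E₂ : Type*} [NormedAddCommGroup E₁] [NormedSpace ℂ E₁] [FiniteDimensional ℂ E₁]
  [NormedAddCommGroup E₂] [NormedSpace ℂ E₂] [FiniteDimensional ℂ E₂]
  [MeasurableSpace (E₁ × E₂)] [BorelSpace (E₁ × E₂)]

variable {k : Type} [Field k] [Countable k] [Algebra k ℂ] {κ : Type} [Fintype κ]

open MvPolynomial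

/-- not generic over `k` -/
def NG (k : Type) [Field k] [Algebra k ℂ] (φ : E₁ × E₂ → κ → ℂ) (U : Set (E₁ × E₂)) :
    Set (E₁ × E₂) :=
  {z ∈ U | ∃ p : MvPolynomial κ k, aeval (φ z) p = 0 ∧ ∃ z' ∈ U, aeval (φ z') p ≠ 0}

theorem null_NG (μ : Measure (E₁ × E₂)) [μ.IsAddHaarMeasure] {z₁ : E₁ × E₂} {r : ℝ}
    {φ : E₁ × E₂ → κ → ℂ} (hφ : AnalyticOnNhd ℂ φ (ball z₁ r)) :
    μ (NG k φ (ball z₁ r)) = 0 := by
  classical
  have hc : Countable (MvPolynomial κ k) := countable_mvPoly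
  have h1 : NG k φ (ball z₁ r) ⊆ ⋃ p : MvPolynomial κ k,
      {z ∈ ball z₁ r | aeval (φ z) p = 0 ∧ ∃ z' ∈ ball z₁ r, aeval (φ z') p ≠ 0} := by
    rintro z ⟨hz, p, hp, hp'⟩
    exact mem_iUnion.2 ⟨p, hz, hp, hp'⟩
  refine measure_mono_null h1 (measure_iUnion_null fun p => ?_)
  by_cases hp : ∃ z' ∈ ball z₁ r, aeval (φ z') p ≠ 0
  · obtain ⟨z', hz', hne⟩ := hp
    have h2 := Crest.Agent.R271.Local821.null_zero_ball μ (analyticOnNhd_aeval hφ p) hz' hne
    refine measure_mono_null ?_ h2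
    rintro z ⟨hz, h0, _⟩
    exact ⟨hz, h0⟩
  · refine measure_mono_null (t := ∅) ?_ measure_empty
    rintro z ⟨_, _, h⟩
    exact hp h

theorem rel_of_gen {φ : E₁ × E₂ → κ → ℂ} {U : Set (E₁ × E₂)} {z z' : E₁ × E₂} (hz : z ∈ U)
    (hz' : z' ∈ U) (hg : z ∉ NG k φ U) (hg' : z' ∉ NG k φ U) : Rel k (φ z) (φ z') := by
  intro p
  constructor
  · intro h
    by_contra hcon
    exact hg ⟨hz, p, h, z', hz', hcon⟩
  · intro h
    by_contra hcon
    exact hg' ⟨hz', p, h, z, hz, hcon⟩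

theorem aleph0_lt_complex : Cardinal.aleph0 < Cardinal.mk ℂ := by
  rw [Cardinal.mk_complex]
  exact Cardinal.aleph0_lt_continuum

/-- **KAPPA-1, steps (1), (2)** -/
theorem exists_rational (μ : Measure (E₁ × E₂)) [μ.IsAddHaarMeasure] {z₁ : E₁ × E₂} {r : ℝ}
    (hr : 0 < r) {φ : E₁ × E₂ → κ → ℂ} (hφ : AnalyticOnNhd ℂ φ (ball z₁ r))
    (T : E₁ → Set (κ → ℂ)) {N : Set (E₁ × E₂)} (hN : μ N = 0)
    (h2 : ∀ z ∈ ball z₁ r, z ∉ N → ∀ z' ∈ ball z₁ r, z' ∉ N → ∀ σ : ℂ ≃ₐ[k] ℂ,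
      (∀ i, σ (φ z i) = φ z' i) → TrS (σ : ℂ ≃+* ℂ) (T z.1) (T z'.1))
    (h3 : ∀ z ∈ ball z₁ r, z ∉ N → ∃ S : Finset (κ →₀ ℕ), Zer S (Idl S (T z.1)) ⊆ T z.1)
    (h4 : ∀ z ∈ ball z₁ r, z ∉ N → ∀ z' ∈ ball z₁ r, z' ∉ N → T z.1 = T z'.1 → z.1 = z'.1) :
    ∃ P Q : Fin (Module.finrank ℂ E₁) → MvPolynomial κ k, ∃ z₀ ∈ ball z₁ r,
      (∀ j, aeval (φ z₀) (Q j) ≠ 0) ∧
      (∀ j, ∀ z ∈ ball z₁ r, ∀ z' ∈ ball z₁ r, z.1 = z'.1 →
        aeval (φ z) (P j) * aeval (φ z') (Q j) = aeval (φ z') (P j) * aeval (φ z) (Q j)) ∧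
      LinearIndependent ℂ (fun j => fderiv ℂ (fun z => aeval (φ z) (P j) / aeval (φ z) (Q j)) z₀)
      := by
  classical
  set U : Set (E₁ × E₂) := ball z₁ r with hU
  have hUo : IsOpen U := isOpen_ball
  have hUne : U.Nonempty := ⟨z₁, mem_ball_self hr⟩
  set N' : Set (E₁ × E₂) := N ∪ NG k φ U with hN'
  have hN'0 : μ N' = 0 := measure_union_null hN (null_NG μ hφ)
  have hg1 : ∀ {z}, z ∉ N' → z ∉ N := fun h h' => h (Or.inl h')
  have hg2 : ∀ {z}, z ∉ N' → z ∉ NG k φ U := fun h h' => h (Or.inr h')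
  -- a good generic point
  obtain ⟨z₀, hz₀, hz₀g, -⟩ := Gal3_257.exists_shift μ hN'0 hUo hUne 0
  obtain ⟨S, hS⟩ := h3 z₀ hz₀ (hg1 hz₀g)
  obtain ⟨P, p, q, hpq⟩ := exists_entries (k := k) aleph0_lt_complex S (φ z₀) (T z₀.1)
    (h2 z₀ hz₀ (hg1 hz₀g) z₀ hz₀ (hg1 hz₀g))
  have hent : ∀ z ∈ U, z ∉ N' → ∃ hP : Piv (Idl S (T z.1)) P, ∀ (a : P) (m : S),
      aeval (φ z) (q a m) ≠ 0 ∧ ent hP a m = aeval (φ z) (p a m) / aeval (φ z) (q a m) :=
    fun z hz hzg => hpq (φ z) (T z.1) (rel_of_gen hz₀ hz (hg2 hz₀g) (hg2 hzg))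
      (h2 z₀ hz₀ (hg1 hz₀g) z hz (hg1 hzg))
  have hcl : ∀ z ∈ U, z ∉ N' → Zer S (Idl S (T z.1)) ⊆ T z.1 := by
    intro z hz hzg
    obtain ⟨σ, hσ⟩ := exists_conj (k := k) aleph0_lt_complex
      (rel_of_gen hz₀ hz (hg2 hz₀g) (hg2 hzg))
    exact TrS.zer (h2 z₀ hz₀ (hg1 hz₀g) z hz (hg1 hzg) σ hσ) hS
  -- constancy along the fibres, cross multiplied
  have hcross0 : ∀ a m, ∀ z ∈ U, z ∉ N' → ∀ z' ∈ U, z' ∉ N' → z.1 = z'.1 →
      aeval (φ z) (p a m) * aeval (φ z') (q a m) =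
        aeval (φ z') (p a m) * aeval (φ z) (q a m) := by
    intro a m z hz hzg z' hz' hzg' h
    obtain ⟨hP, hP2⟩ := hent z hz hzg
    obtain ⟨hP', hP2'⟩ := hent z' hz' hzg'
    have e1 := (hP2 a m).2
    have e2 := (hP2' a m).2
    have e3 : ent hP a m = ent hP' a m := by
      have : ∀ {b b' : E₁} (_ : b = b') (hP : Piv (Idl S (T b)) P) (hP' : Piv (Idl S (T b')) P),
          ent hP a m = ent hP' a m := by
        intro b b' hb hP hP'
        subst hb
        rfl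
      exact this h hP hP'
    rw [e1, e2] at e3
    exact (div_eq_div_iff (hP2 a m).1 (hP2' a m).1).1 e3
  have hcont : ∀ t : MvPolynomial κ k, ContinuousOn (fun z => aeval (φ z) t) U := fun t =>
    (analyticOnNhd_aeval hφ t).continuousOn
  have hcross : ∀ a m, ∀ z ∈ U, ∀ z' ∈ U, z.1 = z'.1 →
      aeval (φ z) (p a m) * aeval (φ z') (q a m) =
        aeval (φ z') (p a m) * aeval (φ z) (q a m) := by
    intro a m z hz z' hz' h
    -- points near `z`, shifted by `z' - z`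
    set v := z' - z with hv
    have hv1 : v.1 = 0 := by rw [hv, Prod.fst_sub, h, sub_self]
    let O : Set (E₁ × E₂) := U ∩ (fun y => y + v) ⁻¹' U
    have hO : IsOpen O := hUo.inter (hUo.preimage (continuous_id.add continuous_const))
    have hzO : z ∈ O := ⟨hz, by simpa [hv] using hz'⟩
    let F : E₁ × E₂ → ℂ := fun y =>
      aeval (φ y) (p a m) * aeval (φ (y + v)) (q a m) -
        aeval (φ (y + v)) (p a m) * aeval (φ y) (q a m)
    have hFc : ContinuousOn F O := by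
      have hs : ∀ t : MvPolynomial κ k, ContinuousOn (fun y => aeval (φ (y + v)) t) O := fun t =>
        (hcont t).comp (continuous_id.add continuous_const).continuousOn fun y hy => hy.2
      have hn : ∀ t : MvPolynomial κ k, ContinuousOn (fun y => aeval (φ y) t) O := fun t =>
        (hcont t).mono inter_subset_left
      exact ((hn _).mul (hs _)).sub ((hs _).mul (hn _))
    have hF0 : F z = 0 := by
      by_contra hne
      have h5 : {y ∈ O | F y ≠ 0} ∈ 𝓝 z := by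
        have := (hFc z hzO).continuousAt (hO.mem_nhds hzO)
        exact Filter.inter_mem (hO.mem_nhds hzO) (this.eventually_ne hne)
      obtain ⟨V, hV, hVo, hzV⟩ := _root_.mem_nhds_iff.1 h5
      obtain ⟨y, hy, hyg, hyg'⟩ := Gal3_257.exists_shift μ hN'0 hVo ⟨z, hzV⟩ v
      obtain ⟨hyO, hyF⟩ := hV hy
      apply hyF
      have h6 := hcross0 a m y hyO.1 hyg (y + v) hyO.2 hyg' (by
        rw [Prod.fst_add, hv1, add_zero])
      exact sub_eq_zero.2 h6
    have h7 : z + v = z' := by rw [hv]; abel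
    have h8 : aeval (φ z) (p a m) * aeval (φ (z + v)) (q a m) -
        aeval (φ (z + v)) (p a m) * aeval (φ z) (q a m) = 0 := hF0
    rw [h7] at h8
    exact sub_eq_zero.1 h8
  -- the map
  have : Fintype P := Fintype.ofFinite P
  let qq : MvPolynomial κ k := ∏ am : P × S, q am.1 am.2
  have hqq : ∀ z, aeval (φ z) qq ≠ 0 ↔ ∀ a m, aeval (φ z) (q a m) ≠ 0 := by
    intro z
    simp only [qq, map_prod, ne_eq, Finset.prod_eq_zero_iff, Finset.mem_univ, true_and, not_exists]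
    exact ⟨fun h a m => h (a, m), fun h am => h am.1 am.2⟩
  let O : Set (E₁ × E₂) := U ∩ (fun z => aeval (φ z) qq) ⁻¹' {0}ᶜ
  have hO : IsOpen O := (hcont qq).isOpen_inter_preimage hUo isOpen_compl_singleton
  have hmemO : ∀ z, z ∈ O ↔ z ∈ U ∧ ∀ a m, aeval (φ z) (q a m) ≠ 0 := by
    intro z
    exact and_congr_right fun _ => hqq z
  have hgO : ∀ z ∈ U, z ∉ N' → z ∈ O := by
    intro z hz hzg
    rw [hmemO]
    obtain ⟨hP, hP2⟩ := hent z hz hzg
    exact ⟨hz, fun a m => (hP2 a m).1⟩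
  let R : (P × S) → E₁ × E₂ → ℂ := fun am z =>
    aeval (φ z) (p am.1 am.2) / aeval (φ z) (q am.1 am.2)
  have hRan : ∀ am, AnalyticOnNhd ℂ (R am) O := fun am z hz =>
    (analyticOnNhd_aeval hφ _ z hz.1).div (analyticOnNhd_aeval hφ _ z hz.1)
      (((hmemO z).1 hz).2 _ _)
  let G : E₁ × E₂ → ((P × S) → ℂ) × E₂ := fun z => (fun am => R am z, z.2)
  have hGan : AnalyticOnNhd ℂ G O := by
    intro z hz
    have h1 : AnalyticAt ℂ (fun z => fun am => R am z) z := by
      rw [analyticAt_pi_iff]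
      exact fun am => hRan am z hz
    exact h1.prod (ContinuousLinearMap.analyticAt (ContinuousLinearMap.snd ℂ E₁ E₂) z)
  have hinj : ∀ z ∈ O, z ∉ N' → ∀ z' ∈ O, z' ∉ N' → G z = G z' → z = z' := by
    intro z hz hzg z' hz' hzg' h
    have e20 : (G z).2 = (G z').2 := by rw [h]
    have e2 : z.2 = z'.2 := e20
    have e10 : (G z).1 = (G z').1 := by rw [h]
    have e1 : ∀ am, R am z = R am z' := fun am => congrFun e10 am
    obtain ⟨hP, hP2⟩ := hent z hz.1 hzg
    obtain ⟨hP', hP2'⟩ := hent z' hz'.1 hzg'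
    have e3 : Idl S (T z.1) = Idl S (T z'.1) := by
      apply eq_of_ent hP hP'
      intro a
      funext m
      rw [(hP2 a m).2, (hP2' a m).2]
      exact e1 (a, m)
    have e4 : T z.1 = T z'.1 := by
      apply Set.Subset.antisymm
      · exact ((subset_zer S _).trans (by rw [e3])).trans (hcl z' hz'.1 hzg')
      · exact ((subset_zer S _).trans (by rw [e3])).trans (hcl z hz.1 hzg)
    exact Prod.ext (h4 z hz.1 (hg1 hzg) z' hz'.1 (hg1 hzg') e4) e2
  obtain ⟨z₂, hz₂, hz₂i⟩ := Gal3_257.exists_injective_fderiv μ hO ⟨z₀, hgO z₀ hz₀ hz₀g⟩ hGan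
    hN'0 hinj
  have hz₂O := (hmemO z₂).1 hz₂
  have hG' : ∀ v : E₁, (∀ am, fderiv ℂ (R am) z₂ (v, 0) = 0) → v = 0 := by
    intro v hv
    have h5 : HasFDerivAt G ((ContinuousLinearMap.pi fun am => fderiv ℂ (R am) z₂).prod
        (ContinuousLinearMap.snd ℂ E₁ E₂)) z₂ := by
      apply HasFDerivAt.prodMk
      · rw [hasFDerivAt_pi]
        exact fun am => (hRan am z₂ hz₂).differentiableAt.hasFDerivAt
      · exact (ContinuousLinearMap.snd ℂ E₁ E₂).hasFDerivAt
    rw [h5.fderiv] at hz₂i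
    have h6 : ((v, 0) : E₁ × E₂) = 0 := by
      apply hz₂i
      rw [map_zero]
      apply Prod.ext
      · funext am
        exact hv am
      · rfl
    exact congrArg Prod.fst h6
  let cI : (E₁ × E₂ →L[ℂ] ℂ) →ₗ[ℂ] Module.Dual ℂ E₁ :=
    { toFun := fun ℓ => (ℓ : E₁ × E₂ →ₗ[ℂ] ℂ).comp (LinearMap.inl ℂ E₁ E₂)
      map_add' := fun _ _ => rfl
      map_smul' := fun _ _ => rfl }
  obtain ⟨f, hf⟩ := exists_sel (fun am => cI (fderiv ℂ (R am) z₂)) hG'
  refine ⟨fun j => p (f j).1 (f j).2, fun j => q (f j).1 (f j).2, z₂, hz₂O.1,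
    fun j => hz₂O.2 _ _, fun j => hcross _ _, ?_⟩
  exact LinearIndependent.of_comp cI hf

end Main

end Crest.Agent.R281.Gal4_257
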