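import Crest.Agent.R281.Geo_565

/-!
# GEO, part 2 (row 281, task 1839, helper565): smooth paths lifting a geodesic

`g` holomorphic and not locally constant at `z₀`, `γ` a real-analytic curve with `γ 0 = g z₀`,
`γ' 0 ≠ 0`.  Then `g (c t) = γ (t ^ k)` with `c` real-analytic; global smooth version.
-/

set_option autoImplicit false

open Complex Filter Topology Set
open scoped ContDiff

namespace Crest.Agent.R281.Geo_565

/-- the local lift -/
theorem path_local {g : ℂ → ℂ} {z₀ : ℂ} (hg : AnalyticAt ℂ g z₀)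
    (hnc : ¬ ∀ᶠ z in 𝓝 z₀, g z = g z₀) {γ : ℝ → ℂ} (hγ : AnalyticAt ℝ γ 0)
    (hγ0 : γ 0 = g z₀) (hγ1 : deriv γ 0 ≠ 0) :
    ∃ k : ℕ, 0 < k ∧ ∃ c : ℝ → ℂ, AnalyticAt ℝ c 0 ∧ c 0 = z₀ ∧ deriv c 0 ≠ 0 ∧
      ∀ᶠ t in 𝓝 (0 : ℝ), g (c t) = γ (t ^ k) := by
  -- the order of g at z₀
  have hg' : AnalyticAt ℂ (fun z => g z - g z₀) z₀ := hg.sub analyticAt_const
  obtain ⟨k, u, hu, hu0, hk⟩ := (hg'.exists_eventuallyEq_pow_smul_nonzero_iff).2
    (fun h => hnc (h.mono fun z hz => sub_eq_zero.1 hz))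
  have hkpos : 0 < k := by
    rcases Nat.eq_zero_or_pos k with h | h
    · exfalso
      have := hk.self_of_nhds
      rw [h] at this
      simp at this
      exact hu0 this.symm
    · exact h
  -- the factor of γ
  obtain ⟨p, hp⟩ := hγ
  have hw : AnalyticAt ℝ (dslope γ 0) 0 := ⟨_, hp.has_fpower_series_dslope_fslope⟩
  have hw0 : dslope γ 0 0 = deriv γ 0 := dslope_same γ 0
  have hwγ : ∀ s : ℝ, γ s = γ 0 + s • dslope γ 0 s := fun s => by
    have := sub_smul_dslope γ 0 s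
    rw [sub_zero] at this
    rw [this]; abel
  set w := dslope γ 0 with hwdef
  -- the k-th root
  obtain ⟨y₀, hy₀⟩ : ∃ y : ℂ, y ^ k = deriv γ 0 / u z₀ :=
    IsAlgClosed.exists_pow_nat_eq _ hkpos
  have hy0 : y₀ ≠ 0 := by
    intro h
    rw [h, zero_pow hkpos.ne'] at hy₀
    exact (div_ne_zero hγ1 hu0) hy₀.symm
  -- the implicit equation
  set F : ℝ × ℂ → ℂ := fun q => q.2 ^ k * u (z₀ + (q.1 : ℂ) * q.2) - w (q.1 ^ k) with hF
  have hu' : ContDiffAt ℝ ω u (z₀ + (((0 : ℝ), y₀) : ℝ × ℂ).1 * (((0 : ℝ), y₀) : ℝ × ℂ).2) := by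
    simpa using (hu.restrictScalars (𝕜 := ℝ)).contDiffAt
  have hw' : ContDiffAt ℝ ω w ((((0 : ℝ), y₀) : ℝ × ℂ).1 ^ k) := by
    simpa [zero_pow hkpos.ne'] using hw.contDiffAt
  have hin : ContDiffAt ℝ ω (fun q : ℝ × ℂ => z₀ + (q.1 : ℂ) * q.2) ((0 : ℝ), y₀) := by
    refine contDiffAt_const.add (ContDiffAt.mul ?_ contDiffAt_snd)
    exact Complex.ofRealCLM.contDiff.contDiffAt.comp _ contDiffAt_fst
  have hFc : ContDiffAt ℝ ω F ((0 : ℝ), y₀) := by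
    refine ContDiffAt.sub (ContDiffAt.mul (contDiffAt_snd.pow k) ?_) ?_
    · exact ContDiffAt.comp (g := u) ((0 : ℝ), y₀) hu' hin
    · exact ContDiffAt.comp (g := w) ((0 : ℝ), y₀) hw' (contDiffAt_fst.pow k)
  have hF0 : F ((0 : ℝ), y₀) = 0 := by
    simp only [hF, Complex.ofReal_zero, zero_mul, add_zero, zero_pow hkpos.ne', hw0, hy₀]
    rw [div_mul_cancel₀ _ hu0, sub_self]
  have hωne : (ω : WithTop ℕ∞) ≠ 0 := by simp
  -- the partial derivative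
  have hpart : (fderiv ℝ F ((0 : ℝ), y₀)).comp (ContinuousLinearMap.inr ℝ ℝ ℂ)
      = ((ContinuousLinearEquiv.smulLeft (Units.mk0 ((k : ℂ) * y₀ ^ (k - 1) * u z₀)
          (mul_ne_zero (mul_ne_zero (by exact_mod_cast hkpos.ne') (pow_ne_zero _ hy0)) hu0)) :
          ℂ ≃L[ℝ] ℂ) : ℂ →L[ℝ] ℂ) := by
    have h1 : HasFDerivAt F (fderiv ℝ F ((0 : ℝ), y₀)) ((0 : ℝ), y₀) :=
      (hFc.differentiableAt hωne).hasFDerivAt
    have h2 : HasFDerivAt (fun y : ℂ => ((0 : ℝ), y)) (ContinuousLinearMap.inr ℝ ℝ ℂ) y₀ := by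
      have := (hasFDerivAt_const (0 : ℝ) y₀ (𝕜 := ℝ)).prodMk (hasFDerivAt_id (𝕜 := ℝ) y₀)
      exact this
    have h3 : HasFDerivAt (F ∘ fun y : ℂ => ((0 : ℝ), y))
        ((fderiv ℝ F ((0 : ℝ), y₀)).comp (ContinuousLinearMap.inr ℝ ℝ ℂ)) y₀ :=
      HasFDerivAt.comp y₀ h1 h2
    have h4 : (F ∘ fun y : ℂ => ((0 : ℝ), y)) = fun y : ℂ => y ^ k * u z₀ - w 0 := by
      funext y
      simp [hF, zero_pow hkpos.ne']
    rw [h4] at h3
    have h5 : HasDerivAt (fun y : ℂ => y ^ k * u z₀ - w 0) ((k : ℂ) * y₀ ^ (k - 1) * u z₀) y₀ :=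
      ((hasDerivAt_pow k y₀).mul_const (u z₀)).sub_const _
    have h6 := h5.hasFDerivAt.restrictScalars ℝ
    rw [h3.unique h6]
    ext x
    simp
    ring
  have hinv : ((fderiv ℝ F ((0 : ℝ), y₀)).comp (ContinuousLinearMap.inr ℝ ℝ ℂ)).IsInvertible :=
    ⟨_, hpart.symm⟩
  set y : ℝ → ℂ := hFc.implicitFunction hωne hinv with hy
  have hya : ContDiffAt ℝ ω y 0 := hFc.contDiffAt_implicitFunction hωne hinv
  have hyy : y 0 = y₀ := hFc.implicitFunction_apply_self hωne hinv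
  have hyF : ∀ᶠ t in 𝓝 (0 : ℝ), F (t, y t) = 0 := by
    have := hFc.eventually_apply_implicitFunction hωne hinv
    rw [hF0] at this
    exact this
  have hyan : AnalyticAt ℝ y 0 := hya.analyticAt
  have hofR : AnalyticAt ℝ (fun t : ℝ => (t : ℂ)) 0 := Complex.ofRealCLM.analyticAt 0
  refine ⟨k, hkpos, fun t => z₀ + (t : ℂ) * y t, analyticAt_const.add (hofR.mul hyan), by simp,
    ?_, ?_⟩
  · have hd : HasDerivAt (fun t : ℝ => z₀ + (t : ℂ) * y t) (1 * y 0 + ((0 : ℝ) : ℂ) * deriv y 0) 0 := by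
      have h1 : HasDerivAt (fun t : ℝ => (t : ℂ)) 1 0 := Complex.ofRealCLM.hasDerivAt
      have h2 : HasDerivAt y (deriv y 0) 0 := hyan.differentiableAt.hasDerivAt
      exact (h1.mul h2).const_add z₀
    rw [hd.deriv, hyy]
    simpa using hy0
  · have hcont : Tendsto (fun t : ℝ => z₀ + (t : ℂ) * y t) (𝓝 0) (𝓝 z₀) := by
      have : ContinuousAt (fun t : ℝ => z₀ + (t : ℂ) * y t) 0 :=
        (analyticAt_const.add (hofR.mul hyan)).continuousAt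
      simpa [ContinuousAt] using this
    filter_upwards [hyF, hcont.eventually hk] with t ht1 ht2
    have h1 : g (z₀ + (t : ℂ) * y t) = g z₀ + ((t : ℂ) * y t) ^ k * u (z₀ + (t : ℂ) * y t) := by
      rw [add_sub_cancel_left] at ht2
      rw [smul_eq_mul] at ht2
      linear_combination ht2
    have h2 : (y t) ^ k * u (z₀ + (t : ℂ) * y t) = w (t ^ k) := by
      have := ht1
      simp only [hF] at this
      exact sub_eq_zero.1 this
    rw [h1, mul_pow, mul_assoc, h2, hwγ (t ^ k), hγ0, Complex.real_smul]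
    push_cast
    ring

/-! ## a smooth clamp -/

/-- the bump used in `chi` -/
noncomputable def bmp : ContDiffBump (1 / 2 : ℝ) := ⟨3 / 2, 2, by norm_num, by norm_num⟩

/-- a smooth function with `chi t = t` on `[-1, 2]` and `|chi| ≤ 5/2` -/
noncomputable def chi (t : ℝ) : ℝ := t * bmp t

theorem chi_smooth : ContDiff ℝ ∞ chi := contDiff_id.mul bmp.contDiff

theorem chi_eq {t : ℝ} (h1 : -1 ≤ t) (h2 : t ≤ 2) : chi t = t := by
  have : bmp t = 1 := by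
    apply bmp.one_of_mem_closedBall
    rw [mem_closedBall_iff_norm, Real.norm_eq_abs, abs_le]
    change -(3 / 2 : ℝ) ≤ _ ∧ _ ≤ (3 / 2 : ℝ)
    constructor <;> linarith
  rw [chi, this, mul_one]

theorem chi_zero : chi 0 = 0 := by simp [chi]

theorem abs_chi_le (t : ℝ) : |chi t| ≤ 5 / 2 := by
  by_cases h : |t - 1 / 2| < 2
  · rw [chi, abs_mul, abs_of_nonneg (bmp.nonneg' t)]
    have h1 : |t| ≤ 5 / 2 := by
      rw [abs_lt] at h
      rw [abs_le]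
      constructor <;> linarith [h.1, h.2]
    calc |t| * bmp t ≤ 5 / 2 * 1 :=
          mul_le_mul h1 bmp.le_one (bmp.nonneg' t) (by norm_num)
      _ = 5 / 2 := mul_one _
  · have : bmp t = 0 := by
      apply bmp.zero_of_le_dist
      rw [Real.dist_eq]
      change (2 : ℝ) ≤ _
      exact not_lt.1 h
    rw [chi, this, mul_zero, abs_zero]
    norm_num

/-- the global lift: smooth for all real `t`, arbitrarily small -/
theorem path_global {g : ℂ → ℂ} {z₀ : ℂ} (hg : AnalyticAt ℂ g z₀)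
    (hnc : ¬ ∀ᶠ z in 𝓝 z₀, g z = g z₀) {γ : ℝ → ℂ} (hγ : AnalyticAt ℝ γ 0)
    (hγ0 : γ 0 = g z₀) (hγ1 : deriv γ 0 ≠ 0) :
    ∃ k : ℕ, 0 < k ∧ ∀ D ∈ 𝓝 z₀, ∃ r > 0, ∀ ε : ℝ, 0 < ε → ε < r →
      ∃ c : ℝ → ℂ, ContDiff ℝ ∞ c ∧ c 0 = z₀ ∧ deriv c 0 ≠ 0 ∧
        (∀ t, c t ∈ D ∧ g (c t) = γ (ε ^ k * chi t ^ k)) ∧ (∀ t, -1 < t → t < 2 → AnalyticAt ℝ c t) := by
  obtain ⟨k, hk, c, hca, hc0, hc1, hc⟩ := path_local hg hnc hγ hγ0 hγ1
  refine ⟨k, hk, fun D hD => ?_⟩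
  have hcD : ∀ᶠ t in 𝓝 (0 : ℝ), c t ∈ D := by
    have := hca.continuousAt
    rw [ContinuousAt, hc0] at this
    exact this hD
  obtain ⟨r, hr, hball⟩ := Metric.eventually_nhds_iff_ball.1
    (hc.and (hcD.and hca.eventually_analyticAt))
  refine ⟨r / 3, by positivity, fun ε hε0 hε => ?_⟩
  have hin : ∀ t : ℝ, ε * chi t ∈ Metric.ball (0 : ℝ) r := fun t => by
    rw [mem_ball_zero_iff, Real.norm_eq_abs, abs_mul, abs_of_pos hε0]
    calc ε * |chi t| ≤ ε * (5 / 2) := mul_le_mul_of_nonneg_left (abs_chi_le t) hε0.le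
      _ < r := by linarith
  have hsm : ContDiff ℝ ∞ (fun t => ε * chi t) := contDiff_const.mul chi_smooth
  refine ⟨fun t => c (ε * chi t), ?_, by simp [chi_zero, hc0], ?_, fun t => ⟨(hball _ (hin t)).2.1, ?_⟩,
    fun t ht1 ht2 => ?_⟩
  · rw [contDiff_iff_contDiffAt]
    intro t
    exact ContDiffAt.comp (g := c) t ((hball _ (hin t)).2.2.contDiffAt) hsm.contDiffAt
  · have e : (fun t => c (ε * chi t)) =ᶠ[𝓝 0] fun t => c (ε * t) := by
      filter_upwards [Ioo_mem_nhds (show (-1 : ℝ) < 0 by norm_num) (show (0 : ℝ) < 2 by norm_num)]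
        with t ht
      rw [chi_eq ht.1.le ht.2.le]
    rw [e.deriv_eq]
    have h1 : HasDerivAt c (deriv c 0) (ε * 0) := by
      rw [mul_zero]; exact hca.differentiableAt.hasDerivAt
    have h2 : HasDerivAt (fun t : ℝ => ε * t) ε 0 := by
      simpa using (hasDerivAt_id (0 : ℝ)).const_mul ε
    have h3 := h1.scomp (0 : ℝ) h2
    have h4 : deriv (fun t : ℝ => c (ε * t)) 0 = ε • deriv c 0 := h3.deriv
    rw [h4]
    exact smul_ne_zero hε0.ne' hc1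
  · have := (hball _ (hin t)).1
    rw [this, mul_pow]
  · have e : (fun t => c (ε * chi t)) =ᶠ[𝓝 t] fun t => c (ε * t) := by
      filter_upwards [Ioo_mem_nhds ht1 ht2] with t ht
      rw [chi_eq ht.1.le ht.2.le]
    refine AnalyticAt.congr ?_ e.symm
    have h1 : AnalyticAt ℝ c (ε * t) := by
      have := (hball _ (hin t)).2.2
      rwa [chi_eq ht1.le ht2.le] at this
    exact AnalyticAt.comp (g := c) h1 (analyticAt_const.mul analyticAt_id)

/-! ## the geodesic is real-analytic -/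

theorem gam_analyticAt (τ : ℂ) {s : ℝ} (hs : |s| < 1) : AnalyticAt ℝ (gam τ) s := by
  have h1 : AnalyticAt ℝ (fun s : ℝ => Real.sqrt (1 - s ^ 2)) s := by
    have h0 : AnalyticAt ℝ (fun s : ℝ => 1 - s ^ 2) s :=
      analyticAt_const.sub (analyticAt_id.pow 2)
    have : ContDiffAt ℝ ω (fun s : ℝ => Real.sqrt (1 - s ^ 2)) s :=
      h0.contDiffAt.sqrt (one_sub_pos hs).ne'
    exact this.analyticAt
  have h2 : AnalyticAt ℝ (fun s : ℝ => τ.re + τ.im * s) s :=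
    analyticAt_const.add (analyticAt_const.mul analyticAt_id)
  have hof : ∀ x : ℝ, AnalyticAt ℝ (fun t : ℝ => (t : ℂ)) x := fun x =>
    Complex.ofRealCLM.analyticAt x
  have h3 : AnalyticAt ℝ (fun s : ℝ => ((τ.re + τ.im * s : ℝ) : ℂ)) s :=
    AnalyticAt.comp (g := fun t : ℝ => (t : ℂ)) (hof _) h2
  have h4 : AnalyticAt ℝ (fun s : ℝ => ((τ.im * Real.sqrt (1 - s ^ 2) : ℝ) : ℂ)) s :=
    AnalyticAt.comp (g := fun t : ℝ => (t : ℂ)) (hof _) (analyticAt_const.mul h1)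
  exact h3.add (h4.mul analyticAt_const)

theorem gam_deriv_ne {τ : ℂ} (hτ : τ.im ≠ 0) : deriv (gam τ) 0 ≠ 0 := by
  have h : HasDerivAt (gam τ) (deriv (gam τ) 0) 0 :=
    (gam_analyticAt τ (by simp)).differentiableAt.hasDerivAt
  intro h0
  rw [h0] at h
  have h1 : HasDerivAt (fun s => (gam τ s).re) ((0 : ℂ).re) 0 := by
    have := (Complex.reCLM.hasFDerivAt (x := gam τ 0)).comp_hasDerivAt (0 : ℝ) h
    exact this
  have h2 : HasDerivAt (fun s : ℝ => τ.re + τ.im * s) τ.im 0 := by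
    simpa using ((hasDerivAt_id (0 : ℝ)).const_mul τ.im).const_add τ.re
  have h3 : (fun s => (gam τ s).re) = fun s : ℝ => τ.re + τ.im * s := by
    funext s; exact gam_re τ s
  rw [h3] at h1
  have := h1.unique h2
  exact hτ (by simpa using this.symm)

/-! ## smoothness of the rotations -/

theorem zev_contDiff {n : WithTop ℕ∞} {z : ℝ → ℂ} (hz : ContDiff ℝ n z) (h0 : ∀ t, z t ≠ 0) :
    ContDiff ℝ n (fun t => zev (z t)) := by
  have h1 : ContDiff ℝ n (fun t => (starRingEnd ℂ) (z t)) :=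
    Complex.conjCLE.contDiff.comp hz
  have h2 : ContDiff ℝ n (fun t => ‖z t‖) := hz.norm ℝ h0
  have h3 : ContDiff ℝ n (fun t => ((‖z t‖ : ℝ) : ℂ)) := Complex.ofRealCLM.contDiff.comp h2
  have h4 : ContDiff ℝ n (fun t => (((‖z t‖ : ℝ) : ℂ))⁻¹) :=
    h3.inv fun t => by exact_mod_cast norm_ne_zero_iff.2 (h0 t)
  have e : (fun t => zev (z t)) = fun t => (starRingEnd ℂ) (z t) * (((‖z t‖ : ℝ) : ℂ))⁻¹ := by
    funext t; rw [zev, div_eq_mul_inv]
  rw [e]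
  exact h1.mul h4

theorem zet_contDiff {n : WithTop ℕ∞} {s : ℝ → ℝ} {z : ℝ → ℂ} (hs : ContDiff ℝ n s)
    (hz : ContDiff ℝ n z) (h1 : ∀ t, |s t| < 1) (h0 : ∀ t, z t ≠ 0) :
    ContDiff ℝ n (fun t => zet (s t) (z t)) := by
  have h2 : ContDiff ℝ n (fun t => Real.sqrt (1 - s t ^ 2)) :=
    (contDiff_const.sub (hs.pow 2)).sqrt fun t => (one_sub_pos (h1 t)).ne'
  have h3 : ContDiff ℝ n (fun t => ((Real.sqrt (1 - s t ^ 2) : ℝ) : ℂ)) :=
    Complex.ofRealCLM.contDiff.comp h2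
  have h4 : ContDiff ℝ n (fun t => ((s t : ℝ) : ℂ) * I) :=
    (Complex.ofRealCLM.contDiff.comp hs).mul contDiff_const
  exact (h3.add h4).mul (zev_contDiff hz h0)

/-- **LEG 1, the path.**  `g` holomorphic near `z₀`, not locally constant, `Im g(z₀) > 0`;
`D` a neighbourhood of `z₀`; `S` countable.  A smooth path `c : ℝ → D` with
`g (c t) = γ (d s(t))`, `s(t) = t^k` on `[-1, 2]`, `|d s(t)| < 1`, and `Re γ(d) ∉ S`. -/
theorem leg1_path {g : ℂ → ℂ} {z₀ : ℂ} (hg : AnalyticAt ℂ g z₀)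
    (hnc : ¬ ∀ᶠ z in 𝓝 z₀, g z = g z₀) (him : 0 < (g z₀).im) {D : Set ℂ} (hD : D ∈ 𝓝 z₀)
    {S : Set ℝ} (hS : S.Countable) {δ : ℝ} (hδ : 0 < δ) :
    ∃ k : ℕ, 0 < k ∧ ∃ d : ℝ, 0 < d ∧ d < δ ∧ d < 1 ∧ (gam (g z₀) d).re ∉ S ∧
      ∃ (c : ℝ → ℂ) (s : ℝ → ℝ), ContDiff ℝ ∞ c ∧ ContDiff ℝ ∞ s ∧ c 0 = z₀ ∧ deriv c 0 ≠ 0 ∧
        (∀ t, -1 ≤ t → t ≤ 2 → s t = t ^ k) ∧ (∀ t, |d * s t| < 1) ∧
        (∀ t, c t ∈ D) ∧ (∀ t, g (c t) = gam (g z₀) (d * s t)) ∧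
        (∀ t, -1 < t → t < 2 → AnalyticAt ℝ c t) := by
  obtain ⟨k, hk, H⟩ := path_global hg hnc (gam_analyticAt (g z₀) (by simp : |(0 : ℝ)| < 1))
    (gam_zero _) (gam_deriv_ne him.ne')
  obtain ⟨r, hr, H⟩ := H D hD
  -- the good interval
  set r' := min (min r (1 / 3)) δ with hr'
  have hr'0 : 0 < r' := lt_min (lt_min hr (by norm_num)) hδ
  -- bad ε
  have hbad : ({ε : ℝ | 0 < ε ∧ (g z₀).re + (g z₀).im * ε ^ k ∈ S}).Countable := by
    refine MapsTo.countable_of_injOn (f := fun ε : ℝ => (g z₀).re + (g z₀).im * ε ^ k) (t := S)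
      (fun ε h => h.2) ?_ hS
    intro a ha b hb hab
    have h1 : (g z₀).im * a ^ k = (g z₀).im * b ^ k := by
      have := hab
      simp only at this
      linarith
    have h2 : a ^ k = b ^ k := mul_left_cancel₀ him.ne' h1
    exact (pow_left_inj₀ ha.1.le hb.1.le hk.ne').1 h2
  obtain ⟨ε, hε1, hε2⟩ : ∃ ε ∈ Ioo (0 : ℝ) r', ε ∉ {ε : ℝ | 0 < ε ∧ (g z₀).re + (g z₀).im * ε ^ k ∈ S} := by
    have hd := hbad.dense_compl ℝ
    obtain ⟨x, hx1, hx2⟩ := hd.inter_open_nonempty (Ioo 0 r') isOpen_Ioo (nonempty_Ioo.2 hr'0)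
    exact ⟨x, hx1, hx2⟩
  have hε3 : ε < 1 / 3 := lt_of_lt_of_le hε1.2 ((min_le_left _ _).trans (min_le_right _ _))
  have hε4 : ε < r := lt_of_lt_of_le hε1.2 ((min_le_left _ _).trans (min_le_left _ _))
  have hε5 : ε < δ := lt_of_lt_of_le hε1.2 (min_le_right _ _)
  have hdle : ε ^ k ≤ ε := by
    calc ε ^ k ≤ ε ^ 1 := pow_le_pow_of_le_one hε1.1.le (by linarith) hk
      _ = ε := pow_one ε
  obtain ⟨c, hc1, hc2, hc3, hc4, hc5⟩ := H ε hε1.1 hε4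
  refine ⟨k, hk, ε ^ k, pow_pos hε1.1 k, lt_of_le_of_lt hdle hε5, by linarith, ?_, c,
    fun t => chi t ^ k, hc1, chi_smooth.pow k, hc2, hc3, ?_, ?_, fun t => (hc4 t).1,
    fun t => (hc4 t).2, hc5⟩
  · rw [gam_re]
    intro h
    exact hε2 ⟨hε1.1, h⟩
  · intro t h1 h2
    simp only [chi_eq h1 h2]
  · intro t
    rw [← mul_pow, abs_pow]
    apply pow_lt_one₀ (abs_nonneg _) _ hk.ne'
    rw [abs_mul, abs_of_pos hε1.1]
    calc ε * |chi t| ≤ ε * (5 / 2) := mul_le_mul_of_nonneg_left (abs_chi_le t) hε1.1.le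
      _ < 1 := by linarith

end Crest.Agent.R281.Geo_565
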