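import Crest.Agent.R281.W3c_698

/-!
# GEO: geodesic legs (row 281, task 1839, helper565)

Linear algebra of the planes `Π_τ = ⟨Re σ_τ, Im σ_τ⟩` along the geodesic of the upper half plane
through `τ₀` which is centred at `Re τ₀` (leg 1) and along the vertical ray (leg 2), the rotation
which makes the real part of the symplectic form constant, and smooth paths in a disc lifting
a geodesic through a non constant holomorphic function.
-/

set_option autoImplicit false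
set_option linter.unusedSimpArgs false

open Complex Filter Topology Set
open scoped ContDiff

namespace Crest.Agent.R281.Geo_565

open Crest.Agent.R281.W3c_698 (qb qbC sig qbC_sig qbC_sig_conj qbC_sig_e)

/-- real part of `σ_τ` -/
noncomputable def rep (N : ℝ) (τ : ℂ) : Fin 3 → ℝ :=
  ![1, τ.re, -(N / 2) * (τ.re ^ 2 - τ.im ^ 2)]

/-- imaginary part of `σ_τ` -/
noncomputable def imp (N : ℝ) (τ : ℂ) : Fin 3 → ℝ :=
  ![0, τ.im, -(N * τ.re * τ.im)]

/-- the third (negative) vector, orthogonal to `rep τ` and `imp τ` -/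
noncomputable def nn (N : ℝ) (τ : ℂ) : Fin 3 → ℝ :=
  ![1, τ.re, -(N / 2) * (τ.re ^ 2 + τ.im ^ 2)]

/-- the isotropic vector -/
def ee : Fin 3 → ℝ := ![0, 0, 1]

@[simp] theorem rep_zero (N : ℝ) (τ : ℂ) : rep N τ 0 = 1 := rfl
@[simp] theorem rep_one (N : ℝ) (τ : ℂ) : rep N τ 1 = τ.re := rfl
@[simp] theorem rep_two (N : ℝ) (τ : ℂ) : rep N τ 2 = -(N / 2) * (τ.re ^ 2 - τ.im ^ 2) := rfl
@[simp] theorem imp_zero (N : ℝ) (τ : ℂ) : imp N τ 0 = 0 := rfl
@[simp] theorem imp_one (N : ℝ) (τ : ℂ) : imp N τ 1 = τ.im := rfl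
@[simp] theorem imp_two (N : ℝ) (τ : ℂ) : imp N τ 2 = -(N * τ.re * τ.im) := rfl
@[simp] theorem nn_zero (N : ℝ) (τ : ℂ) : nn N τ 0 = 1 := rfl
@[simp] theorem nn_one (N : ℝ) (τ : ℂ) : nn N τ 1 = τ.re := rfl
@[simp] theorem nn_two (N : ℝ) (τ : ℂ) : nn N τ 2 = -(N / 2) * (τ.re ^ 2 + τ.im ^ 2) := rfl
@[simp] theorem ee_zero : ee 0 = 0 := rfl
@[simp] theorem ee_one : ee 1 = 0 := rfl
@[simp] theorem ee_two : ee 2 = 1 := rfl

theorem sig_re (N : ℝ) (τ : ℂ) (i : Fin 3) : (sig N τ i).re = rep N τ i := by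
  fin_cases i
  · simp [sig, rep]
  · simp [sig, rep]
  · simp [sig, rep, pow_two]

theorem sig_im (N : ℝ) (τ : ℂ) (i : Fin 3) : (sig N τ i).im = imp N τ i := by
  fin_cases i
  · simp [sig, imp]
  · simp [sig, imp]
  · simp [sig, imp, pow_two]; ring

theorem sig_eq (N : ℝ) (τ : ℂ) (i : Fin 3) : sig N τ i = (rep N τ i : ℂ) + (imp N τ i : ℂ) * I := by
  rw [← sig_re, ← sig_im]; exact (Complex.re_add_im _).symm

/-! ## the form -/

theorem qb_symm (N : ℝ) (x y : Fin 3 → ℝ) : qb N x y = qb N y x := by simp only [qb]; ring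
theorem qb_add_left (N : ℝ) (x x' y : Fin 3 → ℝ) : qb N (x + x') y = qb N x y + qb N x' y := by
  simp only [qb, Pi.add_apply]; ring
theorem qb_add_right (N : ℝ) (x y y' : Fin 3 → ℝ) : qb N x (y + y') = qb N x y + qb N x y' := by
  simp only [qb, Pi.add_apply]; ring
theorem qb_smul_left (N r : ℝ) (x y : Fin 3 → ℝ) : qb N (r • x) y = r * qb N x y := by
  simp only [qb, Pi.smul_apply, smul_eq_mul]; ring
theorem qb_smul_right (N r : ℝ) (x y : Fin 3 → ℝ) : qb N x (r • y) = r * qb N x y := by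
  simp only [qb, Pi.smul_apply, smul_eq_mul]; ring

theorem qb_rep_rep (N : ℝ) (τ : ℂ) : qb N (rep N τ) (rep N τ) = N * τ.im ^ 2 := by
  simp only [qb, rep_zero, rep_one, rep_two]; ring
theorem qb_imp_imp (N : ℝ) (τ : ℂ) : qb N (imp N τ) (imp N τ) = N * τ.im ^ 2 := by
  simp only [qb, imp_zero, imp_one, imp_two]; ring
theorem qb_rep_imp (N : ℝ) (τ : ℂ) : qb N (rep N τ) (imp N τ) = 0 := by
  simp only [qb, rep_zero, rep_one, rep_two, imp_zero, imp_one, imp_two]; ring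
theorem qb_nn_nn (N : ℝ) (τ : ℂ) : qb N (nn N τ) (nn N τ) = -(N * τ.im ^ 2) := by
  simp only [qb, nn_zero, nn_one, nn_two]; ring
theorem qb_rep_nn (N : ℝ) (τ : ℂ) : qb N (rep N τ) (nn N τ) = 0 := by
  simp only [qb, rep_zero, rep_one, rep_two, nn_zero, nn_one, nn_two]; ring
theorem qb_imp_nn (N : ℝ) (τ : ℂ) : qb N (imp N τ) (nn N τ) = 0 := by
  simp only [qb, imp_zero, imp_one, imp_two, nn_zero, nn_one, nn_two]; ring
theorem qb_ee (N : ℝ) (x : Fin 3 → ℝ) : qb N x ee = x 0 := by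
  simp only [qb, ee_zero, ee_one, ee_two]; ring
theorem qb_ee_ee (N : ℝ) : qb N ee ee = 0 := by simp [qb]

/-! ## leg 1 -/

/-- the Kähler class along leg 1: linear in `s` -/
noncomputable def kap (N : ℝ) (τ : ℂ) (s : ℝ) : Fin 3 → ℝ := imp N τ + s • nn N τ

/-- the negative vector along leg 1, orthogonal to `rep τ` and `kap τ s` -/
noncomputable def neg (N : ℝ) (τ : ℂ) (s : ℝ) : Fin 3 → ℝ := nn N τ + s • imp N τ

/-- the geodesic through `τ` centred at `Re τ` -/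
noncomputable def gam (τ : ℂ) (s : ℝ) : ℂ :=
  ((τ.re + τ.im * s : ℝ) : ℂ) + ((τ.im * Real.sqrt (1 - s ^ 2) : ℝ) : ℂ) * I

@[simp] theorem gam_re (τ : ℂ) (s : ℝ) : (gam τ s).re = τ.re + τ.im * s := by
  simp only [gam, add_re, mul_re, ofReal_re, ofReal_im, I_re, I_im]; ring
@[simp] theorem gam_im (τ : ℂ) (s : ℝ) : (gam τ s).im = τ.im * Real.sqrt (1 - s ^ 2) := by
  simp only [gam, add_im, mul_im, ofReal_re, ofReal_im, I_re, I_im]; ring
@[simp] theorem gam_zero (τ : ℂ) : gam τ 0 = τ := by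
  apply Complex.ext <;> simp

theorem one_sub_pos {s : ℝ} (hs : |s| < 1) : 0 < 1 - s ^ 2 := by
  have := (sq_lt_one_iff_abs_lt_one s).2 hs
  linarith

theorem sq_sqrt {s : ℝ} (hs : |s| < 1) : Real.sqrt (1 - s ^ 2) ^ 2 = 1 - s ^ 2 :=
  Real.sq_sqrt (one_sub_pos hs).le

theorem sqrt_pos {s : ℝ} (hs : |s| < 1) : 0 < Real.sqrt (1 - s ^ 2) :=
  Real.sqrt_pos.2 (one_sub_pos hs)

theorem gam_im_pos {τ : ℂ} (hτ : 0 < τ.im) {s : ℝ} (hs : |s| < 1) : 0 < (gam τ s).im := by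
  rw [gam_im]; exact mul_pos hτ (sqrt_pos hs)

@[simp] theorem kap_zero (N : ℝ) (τ : ℂ) : kap N τ 0 = imp N τ := by simp [kap]

theorem kap_apply (N : ℝ) (τ : ℂ) (s : ℝ) (i : Fin 3) :
    kap N τ s i = imp N τ i + s * nn N τ i := rfl

theorem neg_apply (N : ℝ) (τ : ℂ) (s : ℝ) (i : Fin 3) :
    neg N τ s i = nn N τ i + s * imp N τ i := rfl

theorem qb_rep_kap (N : ℝ) (τ : ℂ) (s : ℝ) : qb N (rep N τ) (kap N τ s) = 0 := by
  rw [kap, qb_add_right, qb_smul_right, qb_rep_imp, qb_rep_nn]; ring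

theorem qb_kap_kap (N : ℝ) (τ : ℂ) (s : ℝ) :
    qb N (kap N τ s) (kap N τ s) = N * τ.im ^ 2 * (1 - s ^ 2) := by
  rw [kap, qb_add_right, qb_add_left, qb_add_left, qb_smul_right, qb_smul_right, qb_smul_left,
    qb_smul_left, qb_symm N (nn N τ) (imp N τ), qb_imp_imp, qb_imp_nn, qb_nn_nn]
  ring

theorem qb_kap_kap_pos {N : ℝ} (hN : 0 < N) {τ : ℂ} (hτ : 0 < τ.im) {s : ℝ} (hs : |s| < 1) :
    0 < qb N (kap N τ s) (kap N τ s) := by
  rw [qb_kap_kap]; exact mul_pos (mul_pos hN (pow_pos hτ 2)) (one_sub_pos hs)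

theorem qb_rep_ee (N : ℝ) (τ : ℂ) : qb N (rep N τ) ee = 1 := by rw [qb_ee]; rfl
theorem qb_imp_ee (N : ℝ) (τ : ℂ) : qb N (imp N τ) ee = 0 := by rw [qb_ee]; rfl
theorem qb_kap_ee (N : ℝ) (τ : ℂ) (s : ℝ) : qb N (kap N τ s) ee = s := by
  rw [qb_ee, kap_apply]; simp
theorem qb_neg_ee (N : ℝ) (τ : ℂ) (s : ℝ) : qb N (neg N τ s) ee = 1 := by
  rw [qb_ee, neg_apply]; simp

theorem qb_rep_neg (N : ℝ) (τ : ℂ) (s : ℝ) : qb N (rep N τ) (neg N τ s) = 0 := by
  rw [neg, qb_add_right, qb_smul_right, qb_rep_imp, qb_rep_nn]; ring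

theorem qb_kap_neg (N : ℝ) (τ : ℂ) (s : ℝ) : qb N (kap N τ s) (neg N τ s) = 0 := by
  rw [kap, neg, qb_add_right, qb_add_left, qb_add_left, qb_smul_right, qb_smul_right, qb_smul_left,
    qb_smul_left, qb_symm N (nn N τ) (imp N τ), qb_imp_imp, qb_imp_nn, qb_nn_nn]
  ring

theorem qb_neg_neg (N : ℝ) (τ : ℂ) (s : ℝ) :
    qb N (neg N τ s) (neg N τ s) = -(N * τ.im ^ 2 * (1 - s ^ 2)) := by
  rw [neg, qb_add_right, qb_add_left, qb_add_left, qb_smul_right, qb_smul_right, qb_smul_left,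
    qb_smul_left, qb_symm N (nn N τ) (imp N τ), qb_imp_imp, qb_imp_nn, qb_nn_nn]
  ring

/-- decomposition of `e` in the orthogonal basis `rep τ, kap τ s, neg τ s` -/
theorem ee_decomp {N : ℝ} (hN : 0 < N) {τ : ℂ} (hτ : 0 < τ.im) {s : ℝ} (hs : |s| < 1) :
    ee = (1 / (N * τ.im ^ 2)) • rep N τ + (s / (N * τ.im ^ 2 * (1 - s ^ 2))) • kap N τ s
      - (1 / (N * τ.im ^ 2 * (1 - s ^ 2))) • neg N τ s := by
  have h1 := (one_sub_pos hs).ne'
  have h2 : N ≠ 0 := hN.ne'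
  have h3 : τ.im ≠ 0 := hτ.ne'
  funext i
  fin_cases i
  · simp [kap_apply, neg_apply]
    field_simp
    ring
  · simp [kap_apply, neg_apply]
    field_simp
    ring
  · simp [kap_apply, neg_apply]
    field_simp
    ring

/-- **the key identity of leg 1**: `√(1-s²) b + i κ_s = (√(1-s²) + i s) σ_{γ(s)}` -/
theorem leg_eq (N : ℝ) (τ : ℂ) {s : ℝ} (hs : |s| < 1) (i : Fin 3) :
    ((Real.sqrt (1 - s ^ 2) * rep N τ i : ℝ) : ℂ) + ((kap N τ s i : ℝ) : ℂ) * I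
      = ((Real.sqrt (1 - s ^ 2) : ℝ) + (s : ℂ) * I) * sig N (gam τ s) i := by
  have h := sq_sqrt hs
  rw [sig_eq]
  set r := Real.sqrt (1 - s ^ 2) with hr
  have hgr : (gam τ s).re = τ.re + τ.im * s := gam_re τ s
  have hgi : (gam τ s).im = τ.im * r := gam_im τ s
  apply Complex.ext
  · simp only [add_re, mul_re, ofReal_re, ofReal_im, I_re, I_im, add_im, mul_im]
    fin_cases i
    · simp [kap_apply]
    · simp [kap_apply, hgr, hgi]; ring
    · simp [kap_apply, hgr, hgi]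
      linear_combination (-(N / 2) * τ.im ^ 2 * r) * h
  · simp only [add_re, mul_re, ofReal_re, ofReal_im, I_re, I_im, add_im, mul_im]
    fin_cases i
    · simp [kap_apply]
    · simp [kap_apply, hgr, hgi]
      linear_combination (-τ.im) * h
    · simp [kap_apply, hgr, hgi]
      linear_combination (N * τ.re * τ.im + N / 2 * τ.im ^ 2 * s) * h


/-- the same identity in terms of real and imaginary parts: the plane `⟨b, κ_s⟩` is `Π_{γ(s)}` -/
theorem rep_gam (N : ℝ) (τ : ℂ) {s : ℝ} (hs : |s| < 1) :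
    rep N (gam τ s) = (1 - s ^ 2) • rep N τ + s • kap N τ s ∧
    imp N (gam τ s) = Real.sqrt (1 - s ^ 2) • kap N τ s
      - (s * Real.sqrt (1 - s ^ 2)) • rep N τ := by
  have h := sq_sqrt hs
  set r := Real.sqrt (1 - s ^ 2) with hr
  have hgr : (gam τ s).re = τ.re + τ.im * s := gam_re τ s
  have hgi : (gam τ s).im = τ.im * r := gam_im τ s
  constructor
  · funext i
    fin_cases i
    · simp [kap_apply]; ring
    · simp [kap_apply]; ring
    · simp [kap_apply, hgr, hgi]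
      linear_combination (N / 2 * τ.im ^ 2) * h
  · funext i
    fin_cases i
    · simp [kap_apply]; ring
    · simp [kap_apply, hgi]; ring
    · simp [kap_apply, hgr, hgi]; ring

/-- the inverse formulas -/
theorem rep_of_gam (N : ℝ) (τ : ℂ) {s : ℝ} (hs : |s| < 1) :
    rep N τ = rep N (gam τ s) - (s / Real.sqrt (1 - s ^ 2)) • imp N (gam τ s) ∧
    kap N τ s = s • rep N (gam τ s) + Real.sqrt (1 - s ^ 2) • imp N (gam τ s) := by
  have h := sq_sqrt hs
  have hr0 : Real.sqrt (1 - s ^ 2) ≠ 0 := (sqrt_pos hs).ne'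
  obtain ⟨h1, h2⟩ := rep_gam N τ hs
  set r := Real.sqrt (1 - s ^ 2) with hr
  constructor
  · rw [h1, h2]
    funext i
    simp only [Pi.add_apply, Pi.sub_apply, Pi.smul_apply, smul_eq_mul]
    field_simp
    ring
  · rw [h1, h2]
    funext i
    simp only [Pi.add_apply, Pi.sub_apply, Pi.smul_apply, smul_eq_mul]
    linear_combination (-(kap N τ s i) + s * rep N τ i) * h

theorem span_gam (N : ℝ) (τ : ℂ) {s : ℝ} (hs : |s| < 1) :
    Submodule.span ℝ {rep N τ, kap N τ s}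
      = Submodule.span ℝ {rep N (gam τ s), imp N (gam τ s)} := by
  obtain ⟨h1, h2⟩ := rep_gam N τ hs
  obtain ⟨h3, h4⟩ := rep_of_gam N τ hs
  apply le_antisymm
  · rw [Submodule.span_le]
    have m1 : rep N (gam τ s) ∈ Submodule.span ℝ {rep N (gam τ s), imp N (gam τ s)} :=
      Submodule.subset_span (by simp)
    have m2 : imp N (gam τ s) ∈ Submodule.span ℝ {rep N (gam τ s), imp N (gam τ s)} :=
      Submodule.subset_span (by simp)
    rintro x (rfl | rfl)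
    · rw [h3]; exact Submodule.sub_mem _ m1 (Submodule.smul_mem _ _ m2)
    · rw [h4]; exact Submodule.add_mem _ (Submodule.smul_mem _ _ m1) (Submodule.smul_mem _ _ m2)
  · rw [Submodule.span_le]
    have m1 : rep N τ ∈ Submodule.span ℝ {rep N τ, kap N τ s} :=
      Submodule.subset_span (by simp)
    have m2 : kap N τ s ∈ Submodule.span ℝ {rep N τ, kap N τ s} :=
      Submodule.subset_span (by simp)
    rintro x (rfl | rfl)
    · rw [h1]; exact Submodule.add_mem _ (Submodule.smul_mem _ _ m1) (Submodule.smul_mem _ _ m2)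
    · rw [h2]; exact Submodule.sub_mem _ (Submodule.smul_mem _ _ m2) (Submodule.smul_mem _ _ m1)

/-! ## the rotation (leg 1) -/

/-- the unit complex number which makes the real part of `z σ_{γ(s)}` a constant multiple of `b` -/
noncomputable def zet (s : ℝ) (z : ℂ) : ℂ :=
  ((Real.sqrt (1 - s ^ 2) : ℝ) + (s : ℂ) * I) * ((starRingEnd ℂ) z / (‖z‖ : ℝ))

theorem norm_unit {s : ℝ} (hs : |s| < 1) : ‖((Real.sqrt (1 - s ^ 2) : ℝ) + (s : ℂ) * I : ℂ)‖ = 1 := by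
  rw [Complex.norm_add_mul_I, sq_sqrt hs]
  simp

theorem norm_zet {s : ℝ} (hs : |s| < 1) {z : ℂ} (hz : z ≠ 0) : ‖zet s z‖ = 1 := by
  have h0 : ‖z‖ ≠ 0 := norm_ne_zero_iff.2 hz
  rw [zet, norm_mul, norm_unit hs, one_mul, norm_div, Complex.norm_conj, Complex.norm_real,
    norm_norm, div_self h0]

theorem zet_mul {s : ℝ} {z : ℂ} (hz : z ≠ 0) :
    zet s z * z = (‖z‖ : ℝ) * ((Real.sqrt (1 - s ^ 2) : ℝ) + (s : ℂ) * I) := by
  have h0 : ((‖z‖ : ℝ) : ℂ) ≠ 0 := by exact_mod_cast norm_ne_zero_iff.2 hz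
  have h1 : (starRingEnd ℂ) z * z = ((‖z‖ : ℝ) : ℂ) ^ 2 := by
    rw [mul_comm, Complex.mul_conj']
  rw [zet]
  field_simp
  linear_combination ((Real.sqrt (1 - s ^ 2) : ℝ) + (s : ℂ) * I : ℂ) * h1

/-- **ROT, leg 1.** `A` of square `qA`; `z σ_{γ(s)}` of the same square. After multiplication by the
unit `zet s z` the real part is the constant vector `√(qA/(N y₀²)) b`. -/
theorem rot {N : ℝ} (hN : 0 < N) {τ : ℂ} (hτ : 0 < τ.im) {s : ℝ} (hs : |s| < 1) {z : ℂ}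
    (hz : z ≠ 0) {qA : ℝ} (hq : ‖z‖ ^ 2 * (N * (gam τ s).im ^ 2) = qA) (i : Fin 3) :
    zet s z * (z * sig N (gam τ s) i)
      = ((Real.sqrt (qA / (N * τ.im ^ 2)) * rep N τ i : ℝ) : ℂ)
        + ((Real.sqrt (qA / (N * τ.im ^ 2)) * (kap N τ s i / Real.sqrt (1 - s ^ 2)) : ℝ) : ℂ)
          * I := by
  have hr := sqrt_pos hs
  have h2 := sq_sqrt hs
  have hl := leg_eq N τ hs i
  have e : Real.sqrt (qA / (N * τ.im ^ 2)) = ‖z‖ * Real.sqrt (1 - s ^ 2) := by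
    rw [← hq, gam_im]
    have : ‖z‖ ^ 2 * (N * (τ.im * Real.sqrt (1 - s ^ 2)) ^ 2) / (N * τ.im ^ 2)
        = (‖z‖ * Real.sqrt (1 - s ^ 2)) ^ 2 := by
      field_simp
    rw [this, Real.sqrt_sq (mul_nonneg (norm_nonneg _) hr.le)]
  rw [e, ← mul_assoc, zet_mul hz, mul_assoc, ← hl]
  have hr' : ((Real.sqrt (1 - s ^ 2) : ℝ) : ℂ) ≠ 0 := by exact_mod_cast hr.ne'
  push_cast
  field_simp

/-! ## leg 2 : the vertical ray -/

/-- the constant vector of the vertical ray `Re τ = a` -/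
noncomputable def bv (N a : ℝ) : Fin 3 → ℝ := ![0, 1, -(N * a)]

@[simp] theorem bv_zero (N a : ℝ) : bv N a 0 = 0 := rfl
@[simp] theorem bv_one (N a : ℝ) : bv N a 1 = 1 := rfl
@[simp] theorem bv_two (N a : ℝ) : bv N a 2 = -(N * a) := rfl

theorem qb_bv_bv (N a : ℝ) : qb N (bv N a) (bv N a) = N := by
  simp only [qb, bv_zero, bv_one, bv_two]; ring
theorem qb_bv_ee (N a : ℝ) : qb N (bv N a) ee = 0 := by rw [qb_ee]; rfl
theorem imp_eq_bv (N : ℝ) (τ : ℂ) : imp N τ = τ.im • bv N τ.re := by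
  funext i; fin_cases i
  · simp
  · simp
  · simp; ring
theorem qb_rep_bv (N : ℝ) (τ : ℂ) : qb N (rep N τ) (bv N τ.re) = 0 := by
  simp only [qb, bv_zero, bv_one, bv_two, rep_zero, rep_one, rep_two]; ring
theorem rep_vert (N : ℝ) {τ τ' : ℂ} (h : τ'.re = τ.re) :
    rep N τ' = rep N τ + (N / 2 * (τ'.im ^ 2 - τ.im ^ 2)) • ee := by
  funext i; fin_cases i
  · simp
  · simp [h]
  · simp [h]; ring

/-- the unit complex number for leg 2 -/
noncomputable def zev (z : ℂ) : ℂ := (starRingEnd ℂ) z / (‖z‖ : ℝ)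

theorem norm_zev {z : ℂ} (hz : z ≠ 0) : ‖zev z‖ = 1 := by
  have h0 : ‖z‖ ≠ 0 := norm_ne_zero_iff.2 hz
  rw [zev, norm_div, Complex.norm_conj, Complex.norm_real, norm_norm, div_self h0]

theorem zev_mul {z : ℂ} (hz : z ≠ 0) : zev z * z = (‖z‖ : ℝ) := by
  have h0 : ((‖z‖ : ℝ) : ℂ) ≠ 0 := by exact_mod_cast norm_ne_zero_iff.2 hz
  have h1 : (starRingEnd ℂ) z * z = ((‖z‖ : ℝ) : ℂ) ^ 2 := by
    rw [mul_comm, Complex.mul_conj']
  rw [zev]
  field_simp
  linear_combination h1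

/-- **ROT, leg 2**: after the rotation the imaginary part is the constant vector `√(qA/N) bv`,
the real part is a positive multiple of `Re σ_τ`. -/
theorem rot_vert {N : ℝ} (hN : 0 < N) {τ : ℂ} (hτ : 0 < τ.im) {z : ℂ}
    (hz : z ≠ 0) {qA : ℝ} (hq : ‖z‖ ^ 2 * (N * τ.im ^ 2) = qA) (i : Fin 3) :
    zev z * (z * sig N τ i)
      = ((Real.sqrt (qA / N) * (rep N τ i / τ.im) : ℝ) : ℂ)
        + ((Real.sqrt (qA / N) * bv N τ.re i : ℝ) : ℂ) * I := by
  have e : Real.sqrt (qA / N) = ‖z‖ * τ.im := by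
    rw [← hq]
    have : ‖z‖ ^ 2 * (N * τ.im ^ 2) / N = (‖z‖ * τ.im) ^ 2 := by
      field_simp
    rw [this, Real.sqrt_sq (mul_nonneg (norm_nonneg _) hτ.le)]
  have hi : imp N τ i = τ.im * bv N τ.re i := by rw [imp_eq_bv]; rfl
  have hy : (τ.im : ℂ) ≠ 0 := by exact_mod_cast hτ.ne'
  rw [e, ← mul_assoc, zev_mul hz, sig_eq, hi]
  push_cast
  field_simp

/-! ## the geodesic through two points -/

/-- centre of the circle through `τ₀, τ₁` orthogonal to the real axis -/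
noncomputable def cen (τ₀ τ₁ : ℂ) : ℝ :=
  (τ₁.re ^ 2 + τ₁.im ^ 2 - (τ₀.re ^ 2 + τ₀.im ^ 2)) / (2 * (τ₁.re - τ₀.re))

theorem cen_spec {τ₀ τ₁ : ℂ} (h : τ₀.re ≠ τ₁.re) :
    (τ₀.re - cen τ₀ τ₁) ^ 2 + τ₀.im ^ 2 = (τ₁.re - cen τ₀ τ₁) ^ 2 + τ₁.im ^ 2 := by
  have h' : τ₁.re - τ₀.re ≠ 0 := sub_ne_zero.2 h.symm
  rw [cen]; field_simp; ring

/-- the vector common to all planes `Π_τ`, `|τ - c|² = R` -/
noncomputable def bc (N c R : ℝ) : Fin 3 → ℝ := ![1, c, N / 2 * (R - c ^ 2)]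

theorem qb_bc (N c R : ℝ) : qb N (bc N c R) (bc N c R) = N * R := by
  simp [qb, bc]; ring

theorem bc_eq (N : ℝ) {c R : ℝ} {τ : ℂ} (hτ : τ.im ≠ 0) (h : (τ.re - c) ^ 2 + τ.im ^ 2 = R) :
    bc N c R = rep N τ + ((c - τ.re) / τ.im) • imp N τ := by
  funext i; fin_cases i
  · simp [bc]
  · simp [bc]; field_simp; ring
  · simp [bc]; field_simp; rw [← h]; ring

/-- the Kähler class: orthogonal to `bc`, same square, same orientation -/
noncomputable def kc (N c : ℝ) (τ : ℂ) : Fin 3 → ℝ := imp N τ - ((c - τ.re) / τ.im) • rep N τ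

theorem leg_eq_general (N : ℝ) {c R : ℝ} {τ : ℂ} (hτ : τ.im ≠ 0)
    (h : (τ.re - c) ^ 2 + τ.im ^ 2 = R) (i : Fin 3) :
    (bc N c R i : ℂ) + (kc N c τ i : ℂ) * I
      = (1 - ((c - τ.re) / τ.im : ℝ) * I) * sig N τ i := by
  rw [bc_eq N hτ h, sig_eq]
  simp only [kc, Pi.add_apply, Pi.sub_apply, Pi.smul_apply, smul_eq_mul]
  push_cast
  linear_combination (((c : ℂ) - τ.re) / τ.im * (imp N τ i : ℂ)) * I_sq

theorem qb_bc_kc (N : ℝ) {c R : ℝ} {τ : ℂ} (hτ : τ.im ≠ 0)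
    (h : (τ.re - c) ^ 2 + τ.im ^ 2 = R) :
    qb N (bc N c R) (kc N c τ) = 0 ∧ qb N (kc N c τ) (kc N c τ) = N * R := by
  have e1 := qb_rep_rep N τ
  have e2 := qb_imp_imp N τ
  have e3 := qb_rep_imp N τ
  set u := (c - τ.re) / τ.im with hu
  have hk : kc N c τ = imp N τ + (-u) • rep N τ := by
    rw [kc, ← hu, neg_smul, sub_eq_add_neg]
  have hR : R = τ.im ^ 2 * (1 + u ^ 2) := by
    rw [hu, ← h]; field_simp; ring
  rw [bc_eq N hτ h, ← hu, hk]
  constructor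
  · rw [qb_add_right, qb_add_left, qb_add_left, qb_smul_right, qb_smul_right, qb_smul_left,
      qb_smul_left, qb_symm N (imp N τ) (rep N τ), e1, e2, e3]
    ring
  · rw [qb_add_right, qb_add_left, qb_add_left, qb_smul_right, qb_smul_right, qb_smul_left,
      qb_smul_left, qb_symm N (rep N τ) (imp N τ), qb_symm N (imp N τ) (rep N τ), e1, e2, e3, hR]
    ring

end Crest.Agent.R281.Geo_565
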