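import Crest.Agent.R281.Jet3_484
import Crest.Agent.R281.Insp0_615
import Crest.Agent.R273.BochF_101

/-!
# R281 (S0424), leaf S-GLOB, part 3 (helper484): `u = |s|²`, `w = |∇s|²` on a compact Ricci-flat
Kaehler manifold; the structure `SecD` of 405

* `Lap_lap : Lap K v x = lap (Kr K i) (v ∘ e_i⁻¹) (e_i x)`, `Dg_gsq` (the same for gradients)
* `wM K h s c = |∇s|²` as a function on `M` (`= Lap u + c n u`), `wM_read`
* `Lap_uM`, `Dg_uM`, `Lap_wM_ge`, `jetM` : the global formulas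
* `cur_volK_zero` : `det g = |Ω|²`, `Ω` holomorphic ⟹ `Ric = 0`
* `secD` : `SecD (calcX P K) C (n c) u w`
-/

set_option autoImplicit false
set_option linter.unusedSectionVars false

open Set Filter Topology Complex MeasureTheory
open scoped ContDiff Matrix ComplexConjugate ComplexOrder NNReal

namespace Crest.Agent.R281.Glob3_484

open Crest.Agent.R275 Crest.Agent.R275.Geo Crest.Agent.R275.Core144 Crest.Agent.R275.EDR890
open Crest.Agent.R273.Defs_333 Crest.Agent.R273.Hess_333 Crest.Agent.R273.HessB_333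
open Crest.Agent.R273.HM_333 Crest.Agent.R273.Kah_333 Crest.Agent.R273.Vol_333
open Crest.Agent.R273.Vm_333
open Crest.Agent.R273.Green_5 Crest.Agent.R273.FIa0_597 Crest.Agent.R273.FIb0_597
open Crest.Agent.R273.FIc0_597 Crest.Agent.R273
open Crest.Agent.R273.Calc_243 Crest.Agent.R273.BochB_101 Crest.Agent.R273.BochD_101
open Crest.Agent.R273.BKNa_37 Crest.Agent.R273.BochF_101
open Crest.Agent.R273.SchI_152 (Dg sm_sq Dg_nonneg continuous_Dg)
open Crest.Agent.R281.Glob1_484 Crest.Agent.R281.Glob2_484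
open Crest.Agent.R281.Jet2_484 Crest.Agent.R281.Jet3_484
open Crest.Agent.R281.Bo1_815 (lap gsq tk lap_congr)
open Crest.Agent.R281.St_405 Crest.Agent.R281.Ins_615
open Crest.Agent.R273.RMan_798 Crest.Agent.R273.RMan4_798

noncomputable section

variable {n : ℕ} {M : Type} [TopologicalSpace M] {A : Atl n M} {L L' : LB A}

/-! ### reading in a chart -/

/-- the Laplacian in a chart -/
theorem Lap_lap (K : Kah A) {v : M → ℝ} (hv : A.Sm v) {i : A.ι} {x : M}
    (hx : x ∈ (A.e i).source) :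
    Lap K v x = lap (Kr K i) (fun z => v ((A.e i).symm z)) (A.e i x) := by
  rw [Lap_read K hv hx, trC_sum K _ hx]
  rfl

theorem gsq_congr {K : Cn n → Matrix (Fin n) (Fin n) ℂ} {f g : Cn n → ℝ} {z : Cn n}
    (h : f =ᶠ[𝓝 z] g) : gsq K f z = gsq K g z := by
  have h1 : cu f =ᶠ[𝓝 z] cu g := h.mono fun y hy => by simp only [cu, hy]
  unfold gsq
  simp only [dS_congr h1]

theorem Dg_gsq (K : Kah A) {v : M → ℝ} (hv : A.Sm v) {i : A.ι} {x : M}
    (hx : x ∈ (A.e i).source) :
    Dg K v x = gsq (Kr K i) (fun z => v ((A.e i).symm z)) (A.e i x) := by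
  have hd : DifferentiableAt ℝ (fun z => v ((A.e i).symm z)) (A.e i x) :=
    (sm_at hv hx).differentiableAt (by simp)
  rw [Dg_eq K hv hx]
  unfold gq gsq tk Kr
  rw [(A.e i).left_inv hx, ← Matrix.transpose_nonsing_inv]
  congr 1
  simp only [Matrix.trace, Matrix.diag_apply, Matrix.mul_apply, Matrix.transpose_apply,
    Matrix.vecMulVec_apply]
  rw [Finset.sum_comm]
  refine Finset.sum_congr rfl fun c _ => Finset.sum_congr rfl fun d _ => ?_
  rw [star_gr hd]
  rfl

/-- the hypotheses of the local computation -/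
theorem hyp (K : Kah A) (h : HM L) {c : ℝ}
    (hc : ∀ i, ∀ x ∈ (A.e i).source, cur h i x = (c : ℂ) • K.g i x)
    {s : A.ι → M → ℂ} (hs : IsHS L univ s) (i : A.ι) {z : Cn n} (hz : z ∈ (A.e i).target) :
    Hyp (Kr K i) (h.wt i) (fun z => s i ((A.e i).symm z)) c z where
  sm := smM_Kr K i hz
  pos := Kr_posDef K i hz
  kah := kahAt K i hz
  φs := wt_contDiffAt h i hz
  cur a b := by
    have h1 := hc i _ ((A.e i).map_target hz)
    rw [cur, (A.e i).right_inv hz] at h1
    rw [h1]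
    rfl
  fs := (cd_at hs i).contDiffAt ((A.e i).open_target.mem_nhds hz)
  hol a := wd_hol (hol_at hs i hz).self_of_nhds a

theorem hypE (K : Kah A) (h : HM L) {c : ℝ}
    (hc : ∀ i, ∀ x ∈ (A.e i).source, cur h i x = (c : ℂ) • K.g i x)
    {s : A.ι → M → ℂ} (hs : IsHS L univ s) (i : A.ι) {z : Cn n} (hz : z ∈ (A.e i).target) :
    ∀ᶠ y in 𝓝 z, Hyp (Kr K i) (h.wt i) (fun z => s i ((A.e i).symm z)) c y := by
  filter_upwards [(A.e i).open_target.mem_nhds hz] with y hy
  exact hyp K h hc hs i hy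

/-- `u` in a chart -/
theorem uM_read (h : HM L) {s : A.ι → M → ℂ} (hs : IsHS L univ s) (i : A.ι) {z : Cn n}
    (hz : z ∈ (A.e i).target) :
    nsM h s ((A.e i).symm z) = uu (h.wt i) (fun z => s i ((A.e i).symm z)) z := by
  have hx := (A.e i).map_target hz
  rw [nsM_eq h hs hx, nsq, uu, ex, HM.wt, neg_neg, Real.exp_log (h.pos i _ hx), mul_comm]

/-- `w = |∇s|²` as a function on `M` -/
def wM (K : Kah A) (h : HM L) (s : A.ι → M → ℂ) (c : ℝ) (x : M) : ℝ :=
  Lap K (nsM h s) x + c * n * nsM h s x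

theorem sm_wM (K : Kah A) (h : HM L) {s : A.ι → M → ℂ} (hs : IsHS L univ s) (c : ℝ) :
    A.Sm (wM K h s c) :=
  sm_add (sm_Lap K (sm_nsM h hs)) (Glob2_484.sm_mul (sm_const (c * n)) (sm_nsM h hs))

section glob

variable {K : Kah A} {h : HM L} {c : ℝ}
  {s : A.ι → M → ℂ}

theorem wM_read (hc : ∀ i, ∀ x ∈ (A.e i).source, cur h i x = (c : ℂ) • K.g i x)
    (hs : IsHS L univ s) (i : A.ι) {z : Cn n} (hz : z ∈ (A.e i).target) :
    wM K h s c ((A.e i).symm z) =
      ww (Kr K i) (h.wt i) (fun z => s i ((A.e i).symm z)) z := by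
  have hx := (A.e i).map_target hz
  have h1 : (fun z => nsM h s ((A.e i).symm z)) =ᶠ[𝓝 z]
      uu (h.wt i) (fun z => s i ((A.e i).symm z)) := by
    filter_upwards [(A.e i).open_target.mem_nhds hz] with y hy
    exact uM_read h hs i hy
  have h2 : Lap K (nsM h s) ((A.e i).symm z) =
      lap (Kr K i) (uu (h.wt i) (fun z => s i ((A.e i).symm z))) z := by
    rw [Lap_lap K (sm_nsM h hs) hx, (A.e i).right_inv hz, lap_congr h1]
  have h3 := lap_uu (hypE K h hc hs i hz)
  rw [wM, h2, h3, uM_read h hs i hz]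
  change ww _ _ _ _ - _ + _ = _
  ring

theorem wM_nonneg (hc : ∀ i, ∀ x ∈ (A.e i).source, cur h i x = (c : ℂ) • K.g i x)
    (hs : IsHS L univ s) (x : M) : 0 ≤ wM K h s c x := by
  have hx := mem_ch A x
  have hz := (A.e (ch A x)).map_source hx
  have h1 := wM_read (K := K) hc hs (ch A x) hz
  rw [(A.e (ch A x)).left_inv hx] at h1
  rw [h1]
  exact Crest.Agent.R281.Bo1_815.nsq_nonneg
    (posG (hyp K h hc hs (ch A x) hz)).posSemidef _

theorem germ_u (hs : IsHS L univ s) (i : A.ι) {z : Cn n} (hz : z ∈ (A.e i).target) :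
    (fun z => nsM h s ((A.e i).symm z)) =ᶠ[𝓝 z]
      uu (h.wt i) (fun z => s i ((A.e i).symm z)) := by
  filter_upwards [(A.e i).open_target.mem_nhds hz] with y hy
  exact uM_read h hs i hy

theorem germ_w (hc : ∀ i, ∀ x ∈ (A.e i).source, cur h i x = (c : ℂ) • K.g i x)
    (hs : IsHS L univ s) (i : A.ι) {z : Cn n} (hz : z ∈ (A.e i).target) :
    (fun z => wM K h s c ((A.e i).symm z)) =ᶠ[𝓝 z]
      ww (Kr K i) (h.wt i) (fun z => s i ((A.e i).symm z)) := by
  filter_upwards [(A.e i).open_target.mem_nhds hz] with y hy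
  exact wM_read hc hs i hy

/-- `Lap u = w - c n u` -/
theorem Lap_uM (x : M) : Lap K (nsM h s) x = wM K h s c x - c * n * nsM h s x := by
  unfold wM; ring

/-- `|∂u|² = u w` -/
theorem Dg_uM (hc : ∀ i, ∀ x ∈ (A.e i).source, cur h i x = (c : ℂ) • K.g i x)
    (hs : IsHS L univ s) (x : M) : Dg K (nsM h s) x = nsM h s x * wM K h s c x := by
  have hx := mem_ch A x
  have hz := (A.e (ch A x)).map_source hx
  rw [Dg_gsq K (sm_nsM h hs) hx, gsq_congr (germ_u hs _ hz), gsq_uu (hypE K h hc hs _ hz),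
    ← uM_read h hs _ hz, ← wM_read hc hs _ hz, (A.e (ch A x)).left_inv hx]

/-- `Lap w ≥ - c (n+2) w` -/
theorem Lap_wM_ge (hc : ∀ i, ∀ x ∈ (A.e i).source, cur h i x = (c : ℂ) • K.g i x)
    (hR : ∀ i, ∀ x ∈ (A.e i).source, cur (volK K) i x = 0)
    (hs : IsHS L univ s) (x : M) :
    -(c * (n + 2) * wM K h s c x) ≤ Lap K (wM K h s c) x := by
  have hx := mem_ch A x
  have hz := (A.e (ch A x)).map_source hx
  rw [Lap_lap K (sm_wM K h hs c) hx, lap_congr (germ_w hc hs _ hz)]
  have h1 := lap_ww_ge (hypE K h hc hs _ hz) (by rw [ric_eq K _ hx]; exact hR _ x hx)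
  rw [← wM_read hc hs _ hz, (A.e (ch A x)).left_inv hx] at h1
  exact h1

/-- `S = u + w + e` -/
def SM (K : Kah A) (h : HM L) (s : A.ι → M → ℂ) (c e : ℝ) (x : M) : ℝ :=
  nsM h s x + wM K h s c x + e

theorem SM_pos (hc : ∀ i, ∀ x ∈ (A.e i).source, cur h i x = (c : ℂ) • K.g i x)
    (hs : IsHS L univ s) {e : ℝ} (he : 0 < e) (x : M) : 0 < SM K h s c e x := by
  have h1 := nsM_nonneg h s x
  have h2 := wM_nonneg (K := K) hc hs x
  unfold SM; linarith

theorem sm_SM (hs : IsHS L univ s) (e : ℝ) : A.Sm (SM K h s c e) :=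
  sm_add (sm_add (sm_nsM h hs) (sm_wM K h hs c)) (sm_const e)

theorem sm_logS (hc : ∀ i, ∀ x ∈ (A.e i).source, cur h i x = (c : ℂ) • K.g i x)
    (hs : IsHS L univ s) {e : ℝ} (he : 0 < e) : A.Sm (fun x => Real.log (SM K h s c e x)) :=
  fun i => (sm_SM hs e i).log fun z _ => (SM_pos hc hs he _).ne'

theorem sm_b (hc : ∀ i, ∀ x ∈ (A.e i).source, cur h i x = (c : ℂ) • K.g i x)
    (hs : IsHS L univ s) {e : ℝ} (he : 0 < e) :
    A.Sm (fun x => nsM h s x / (nsM h s x + wM K h s c x + e)) :=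
  fun i => (sm_nsM h hs i).div (sm_SM (K := K) (h := h) (c := c) hs e i)
    fun z _ => (SM_pos hc hs he _).ne'

/-- **the 1-jet Bochner inequality on `M`** -/
theorem jetM (hc : ∀ i, ∀ x ∈ (A.e i).source, cur h i x = (c : ℂ) • K.g i x)
    (hR : ∀ i, ∀ x ∈ (A.e i).source, cur (volK K) i x = 0)
    (hs : IsHS L univ s) (hc0 : 0 ≤ c) {e : ℝ} (he : 0 < e) (x : M) :
    Dg K (fun x => nsM h s x / (nsM h s x + wM K h s c x + e)) x ≤
      3 / 2 * Lap K (fun x => Real.log (SM K h s c e x)) x +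
        (3 / 2 * (n + 2) * c + 4 * c ^ 2) := by
  have hx := mem_ch A x
  have hz := (A.e (ch A x)).map_source hx
  have g1 : (fun z => nsM h s ((A.e (ch A x)).symm z) / (nsM h s ((A.e (ch A x)).symm z) +
      wM K h s c ((A.e (ch A x)).symm z) + e)) =ᶠ[𝓝 (A.e (ch A x) x)]
      bb (Kr K (ch A x)) (h.wt (ch A x)) (fun z => s (ch A x) ((A.e (ch A x)).symm z)) e := by
    filter_upwards [germ_u (h := h) hs _ hz, germ_w hc hs _ hz] with y h1 h2
    rw [h1, h2]; rfl
  have g2 : (fun z => Real.log (SM K h s c e ((A.e (ch A x)).symm z))) =ᶠ[𝓝 (A.e (ch A x) x)]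
      fun y => Real.log (uu (h.wt (ch A x)) (fun z => s (ch A x) ((A.e (ch A x)).symm z)) y +
        ww (Kr K (ch A x)) (h.wt (ch A x)) (fun z => s (ch A x) ((A.e (ch A x)).symm z)) y + e) := by
    filter_upwards [germ_u (h := h) hs _ hz, germ_w hc hs _ hz] with y h1 h2
    rw [SM, h1, h2]
  rw [Dg_gsq K (sm_b hc hs he) hx, Lap_lap K (sm_logS hc hs he) hx, gsq_congr g1, lap_congr g2]
  exact gsq_bb_le (hypE K h hc hs _ hz) (by rw [ric_eq K _ hx]; exact hR _ x hx) hc0 he

/-- `det g = |Ω|²` implies `Ric = 0` -/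
theorem cur_volK_zero (K : Kah A) {om : A.ι → M → ℂ} (ho : IsHS (KB A) univ om)
    (hn : ∀ i, ∀ x ∈ (A.e i).source, ‖om i x‖ ^ 2 = (K.g i x).det.re) :
    ∀ i, ∀ x ∈ (A.e i).source, cur (volK K) i x = 0 := by
  intro i x hx
  have hz := (A.e i).map_source hx
  have hdet : ∀ y ∈ (A.e i).source, 0 < (K.g i y).det.re := fun y hy => (volK K).pos i y hy
  have h0 : om i ((A.e i).symm (A.e i x)) ≠ 0 := by
    rw [(A.e i).left_inv hx]
    intro h0
    have := hn i x hx
    rw [h0] at this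
    have h2 := hdet x hx
    rw [← this] at h2
    simp at h2
  have h1 : (volK K).wt i =ᶠ[𝓝 (A.e i x)] fun z =>
      -Real.log (‖om i ((A.e i).symm z)‖ ^ 2) := by
    filter_upwards [(A.e i).open_target.mem_nhds hz] with y hy
    rw [hn i _ ((A.e i).map_target hy)]
    rfl
  have hh := hol_at ho i hz
  have hs2 : ContDiffAt ℝ ∞ (fun z => Real.log (‖om i ((A.e i).symm z)‖ ^ 2)) (A.e i x) :=
    (((cd_at ho i).norm_sq ℝ).contDiffAt ((A.e i).open_target.mem_nhds hz)).log
      (pow_ne_zero 2 (norm_ne_zero_iff.2 h0))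
  unfold cur
  rw [hess_congr h1, hess_neg hs2, hess_log_norm hh h0, neg_zero]

/-! ### the structure `SecD` -/

variable [T2Space M] [ConnectedSpace M] [CompactSpace M] [Fintype A.ι]

theorem integrable_muX (K : Kah A) {f : (ofKah K).M → ℝ} (hf : Continuous f) :
    Integrable f (muX K) := by
  have := prob_muX K
  obtain ⟨C, hC⟩ := (isCompact_univ (X := M)).exists_bound_of_continuousOn (f := f)
    (Continuous.continuousOn hf)
  exact Integrable.of_bound hf.measurable.aestronglyMeasurable C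
    (Eventually.of_forall fun x => hC x (mem_univ x))

/-- **the section data of 405 from a holomorphic section** -/
theorem secD (P : Part A) (hc : ∀ i, ∀ x ∈ (A.e i).source, cur h i x = (c : ℂ) • K.g i x)
    (hR : ∀ i, ∀ x ∈ (A.e i).source, cur (volK K) i x = 0)
    (hs : IsHS L univ s) (hc0 : 0 ≤ c) (hc1 : c ≤ 1) (hn : 1 ≤ n) {C : ℝ≥0} (hC : 9 ≤ C) :
    SecD (calcX P K) C (c * n) (nsM h s : (ofKah K).M → ℝ) (wM K h s c) where
  u_mem := sm_nsM h hs
  w_mem := sm_wM K h hs c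
  u_nonneg := nsM_nonneg h s
  w_nonneg := wM_nonneg hc hs
  Lap_u x := Lap_uM x
  Gam_u x := Dg_uM hc hs x
  Lap_w x := by
    have h1 := Lap_wM_ge hc hR hs x
    have h2 := wM_nonneg (K := K) hc hs x
    have hC' : (9 : ℝ) ≤ (C : ℝ) := by exact_mod_cast hC
    have hn' : (1 : ℝ) ≤ n := by exact_mod_cast hn
    refine le_trans ?_ h1
    have h3 : c * (n + 2) ≤ C * (c * n) := by
      have : (n : ℝ) + 2 ≤ C * n := by nlinarith
      calc c * (n + 2) ≤ c * (C * n) := mul_le_mul_of_nonneg_left this hc0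
        _ = _ := by ring
    exact neg_le_neg (mul_le_mul_of_nonneg_right h3 h2)
  jet e₁ he₁ := by
    refine ⟨e₁, he₁, le_rfl, sm_b hc hs he₁, ?_⟩
    have := prob_muX K
    have hS := sm_logS (K := K) hc hs he₁
    have hb := sm_b (K := K) hc hs he₁
    have hI := (calcX P K).int_Lap (fun x => Real.log (SM K h s c e₁ x)) hS
    have i1 : Integrable (fun x : (ofKah K).M =>
        Dg K (fun x => nsM h s x / (nsM h s x + wM K h s c x + e₁)) x) (muX K) :=
      integrable_muX K (continuous_Dg K hb)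
    have i2 : Integrable (fun x : (ofKah K).M => Lap K (fun x => Real.log (SM K h s c e₁ x)) x)
        (muX K) := integrable_muX K (cont_sm (sm_Lap K hS))
    have h1 : ∫ x : (ofKah K).M, Dg K (fun x => nsM h s x / (nsM h s x + wM K h s c x + e₁)) x
        ∂(muX K) ≤ ∫ x : (ofKah K).M, (3 / 2 * Lap K (fun x => Real.log (SM K h s c e₁ x)) x +
          (3 / 2 * (n + 2) * c + 4 * c ^ 2)) ∂(muX K) :=
      integral_mono i1 ((i2.const_mul _).add (integrable_const _))
        fun x => jetM hc hR hs hc0 he₁ x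
    rw [integral_add (i2.const_mul _) (integrable_const _), integral_const_mul, integral_const]
      at h1
    have hI' : ∫ x : (ofKah K).M, Lap K (fun x => Real.log (SM K h s c e₁ x)) x ∂(muX K) = 0 := hI
    rw [hI'] at h1
    have hC' : (9 : ℝ) ≤ (C : ℝ) := by exact_mod_cast hC
    have hn' : (1 : ℝ) ≤ n := by exact_mod_cast hn
    refine le_trans h1 ?_
    rw [probReal_univ, one_smul]
    have h2 : c ^ 2 ≤ c := by nlinarith
    have h3 : 3 / 2 * (n + 2) * c + 4 * c ^ 2 ≤ 9 * (c * n) := by nlinarith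
    have h4 : 9 * (c * n) ≤ C * (c * n) := mul_le_mul_of_nonneg_right hC' (by positivity)
    linarith

end glob

end

end Crest.Agent.R281.Glob3_484
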