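import Crest.Agent.R281.HKA1_799
import Crest.Agent.R281.FujP_513

/-!
# Row 281, HK-ALG (helper799): pointwise hyperkaehler algebra, part 2

* `mix_even`, `mix_odd` : `T` symmetric `2 ν`-linear, `T (x + b y, …) = (1 + b²) ^ ν * P` for all `b`
  ⟹ `(2ν choose 2j) T (x^(2ν-2j), y^(2j)) = (ν choose j) P`, odd ones vanish
* `mix_two` : `(2ν - 1) T (x, x, y, …, y) = P`, `mix_top` : `T (y, …, y) = P`
* `Trip.mixed` : the mixed products of the three forms of a quaternionic triple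
* `Trip.scaled`: `I (K + b Re σ + c Im σ, …) = (1 + lam (b² + c²)) ^ ν I (K, …)`
-/

set_option autoImplicit false
set_option linter.unusedSectionVars false

open Polynomial

namespace Crest.Agent.R281.HKA_799

open Crest.Agent.R281.FujP_513

noncomputable section

section Mix

variable {H : Type*} [AddCommGroup H] [Module ℝ H]

theorem mix_poly {ν : ℕ} {T : MultilinearMap ℝ (fun _ : Fin (2 * ν) => H) ℝ} (hT : Symm T)
    {x y : H} {P : ℝ} (h : ∀ b : ℝ, T (fun _ => x + b • y) = (1 + b ^ 2) ^ ν * P) :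
    (∑ a ∈ Finset.range (2 * ν + 1), (C (((2 * ν).choose a : ℝ) * T (mixv (2 * ν) a x y)) * X ^ a :
      ℝ[X])) = ∑ j ∈ Finset.range (ν + 1), C ((ν.choose j : ℝ) * P) * X ^ (2 * j) := by
  apply Polynomial.funext
  intro b
  have h1 := hT.expand x y b
  rw [h b] at h1
  have h2 : ((1 : ℝ) + b ^ 2) ^ ν = ∑ j ∈ Finset.range (ν + 1), (ν.choose j : ℝ) * b ^ (2 * j) := by
    rw [add_comm, add_pow]
    refine Finset.sum_congr rfl fun j _ => ?_
    rw [one_pow, mul_one, ← pow_mul, mul_comm]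
  rw [Polynomial.eval_finsetSum, Polynomial.eval_finsetSum]
  simp only [eval_mul, eval_C, eval_pow, eval_X]
  rw [h2, Finset.sum_mul] at h1
  rw [Finset.sum_congr rfl fun a _ => show ((2 * ν).choose a : ℝ) * T (mixv (2 * ν) a x y) * b ^ a =
    ((2 * ν).choose a : ℝ) * b ^ a * T (mixv (2 * ν) a x y) by ring, ← h1]
  refine Finset.sum_congr rfl fun j _ => ?_
  ring

theorem mix_even {ν : ℕ} {T : MultilinearMap ℝ (fun _ : Fin (2 * ν) => H) ℝ} (hT : Symm T)
    {x y : H} {P : ℝ} (h : ∀ b : ℝ, T (fun _ => x + b • y) = (1 + b ^ 2) ^ ν * P) {j : ℕ}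
    (hj : j ≤ ν) :
    ((2 * ν).choose (2 * j) : ℝ) * T (mixv (2 * ν) (2 * j) x y) = (ν.choose j : ℝ) * P := by
  have h1 := congrArg (fun p : ℝ[X] => p.coeff (2 * j)) (mix_poly hT h)
  simp only [Polynomial.finsetSum_coeff, Polynomial.coeff_C_mul, Polynomial.coeff_X_pow] at h1
  rw [Finset.sum_eq_single (2 * j), Finset.sum_eq_single j] at h1
  · simpa using h1
  · intro b _ hb
    rw [if_neg (by omega), mul_zero]
  · intro hb
    exact absurd (Finset.mem_range.2 (by omega)) hb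
  · intro b _ hb
    rw [if_neg (by omega), mul_zero]
  · intro hb
    exact absurd (Finset.mem_range.2 (by omega)) hb

theorem mix_odd {ν : ℕ} {T : MultilinearMap ℝ (fun _ : Fin (2 * ν) => H) ℝ} (hT : Symm T)
    {x y : H} {P : ℝ} (h : ∀ b : ℝ, T (fun _ => x + b • y) = (1 + b ^ 2) ^ ν * P) {j : ℕ}
    (hj : 2 * j + 1 ≤ 2 * ν) : T (mixv (2 * ν) (2 * j + 1) x y) = 0 := by
  have h1 := congrArg (fun p : ℝ[X] => p.coeff (2 * j + 1)) (mix_poly hT h)
  simp only [Polynomial.finsetSum_coeff, Polynomial.coeff_C_mul, Polynomial.coeff_X_pow] at h1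
  rw [Finset.sum_eq_single (2 * j + 1), Finset.sum_eq_zero] at h1
  · have h2 : ((2 * ν).choose (2 * j + 1) : ℝ) ≠ 0 :=
      Nat.cast_ne_zero.2 (Nat.choose_pos hj).ne'
    rw [if_pos rfl, mul_one] at h1
    exact (mul_eq_zero.1 h1).resolve_left h2
  · intro b _
    rw [if_neg (by omega), mul_zero]
  · intro b _ hb
    rw [if_neg (by omega), mul_zero]
  · intro hb
    exact absurd (Finset.mem_range.2 (by omega)) hb

/-- `T (y, …, y) = P` -/
theorem mix_top {ν : ℕ} {T : MultilinearMap ℝ (fun _ : Fin (2 * ν) => H) ℝ} (hT : Symm T)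
    {x y : H} {P : ℝ} (h : ∀ b : ℝ, T (fun _ => x + b • y) = (1 + b ^ 2) ^ ν * P) :
    T (fun _ => y) = P := by
  have h1 := mix_even hT h (le_refl ν)
  simp only [Nat.choose_self, Nat.cast_one, one_mul] at h1
  rw [← h1]
  congr 1
  funext i
  simp [mixv, i.2]

/-- `T (x, …, x) = P` -/
theorem mix_bot {ν : ℕ} {T : MultilinearMap ℝ (fun _ : Fin (2 * ν) => H) ℝ}
    {x y : H} {P : ℝ} (h : ∀ b : ℝ, T (fun _ => x + b • y) = (1 + b ^ 2) ^ ν * P) :
    T (fun _ => x) = P := by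
  have h1 := h 0
  simpa using h1

/-- `(2ν - 1) T (y, …, y, x, x) = P` (`2ν - 2` entries `y`) -/
theorem mix_two {ν : ℕ} (hν : 1 ≤ ν) {T : MultilinearMap ℝ (fun _ : Fin (2 * ν) => H) ℝ}
    (hT : Symm T) {x y : H} {P : ℝ}
    (h : ∀ b : ℝ, T (fun _ => x + b • y) = (1 + b ^ 2) ^ ν * P) :
    (2 * ν - 1 : ℝ) * T (mixv (2 * ν) (2 * (ν - 1)) x y) = P := by
  have h1 := mix_even hT h (j := ν - 1) (by omega)
  have h2 : (2 * ν).choose (2 * (ν - 1)) = ν * (2 * ν - 1) := by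
    have e : 2 * (ν - 1) = 2 * ν - 2 := by omega
    rw [e, Nat.choose_symm (by omega), Nat.choose_two_right]
    have : 2 * ν * (2 * ν - 1) = 2 * (ν * (2 * ν - 1)) := by ring
    rw [this, Nat.mul_div_cancel_left _ (by norm_num)]
  have h3 : ν.choose (ν - 1) = ν := by
    rw [Nat.choose_symm (by omega), Nat.choose_one_right]
  rw [h2, h3] at h1
  have h4 : (ν : ℝ) ≠ 0 := Nat.cast_ne_zero.2 (by omega)
  have h5 : (((ν * (2 * ν - 1) : ℕ)) : ℝ) = ν * (2 * ν - 1) := by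
    push_cast [Nat.cast_sub (show 1 ≤ 2 * ν by omega)]
    ring
  rw [h5] at h1
  apply mul_left_cancel₀ h4
  rw [← h1]
  ring

end Mix

section Trip

variable {V : Type*} [NormedAddCommGroup V] [NormedSpace ℝ V]

/-- naturality for a multilinear functional -/
def NatM {N : ℕ} (I : MultilinearMap ℝ (fun _ : Fin N => Bil V) ℝ) : Prop :=
  Nat (fun w => I w)

theorem Trip.unit_line (H : Trip V) [FiniteDimensional ℝ V] {ν : ℕ}
    (hN : Module.finrank ℝ V = 2 * (2 * ν))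
    {I : MultilinearMap ℝ (fun _ : Fin (2 * ν) => Bil V) ℝ} (hI : NatM I) (φ b : ℝ) :
    I (fun _ => H.om 0 + b • (Real.cos φ • H.om 1 + Real.sin φ • H.om 2)) =
      (1 + b ^ 2) ^ ν * I (fun _ => H.om 0) := by
  have h1 : H.om 0 + b • (Real.cos φ • H.om 1 + Real.sin φ • H.om 2) =
      H.omv ![1, b * Real.cos φ, b * Real.sin φ] := by
    ext u v
    simp [Trip.omv_apply]
    ring
  rw [h1, H.rot2 hN hI]
  congr 2
  simp only [Matrix.cons_val_zero, Matrix.cons_val_one, Matrix.cons_val]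
  have := Real.cos_sq_add_sin_sq φ
  linear_combination (b ^ 2) * this

/-- the general rotation for the multilinear functional -/
theorem Trip.general (H : Trip V) [FiniteDimensional ℝ V] {ν : ℕ}
    (hN : Module.finrank ℝ V = 2 * (2 * ν))
    {I : MultilinearMap ℝ (fun _ : Fin (2 * ν) => Bil V) ℝ} (hI : NatM I) (a b c : ℝ) :
    I (fun _ => a • H.om 0 + b • H.om 1 + c • H.om 2) =
      (a ^ 2 + b ^ 2 + c ^ 2) ^ ν * I (fun _ => H.om 0) := by
  have h1 : a • H.om 0 + b • H.om 1 + c • H.om 2 = H.omv ![a, b, c] := by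
    ext u v
    simp [Trip.omv_apply]
  rw [h1, H.rot2 hN hI]
  rfl

/-- with `σ = √lam (om 1 + i om 2)`, `K = om 0`:
`I (K + b Re σ + c Im σ, …) = (1 + lam (b² + c²)) ^ ν I (K, …)` -/
theorem Trip.scaled (H : Trip V) [FiniteDimensional ℝ V] {ν : ℕ}
    (hN : Module.finrank ℝ V = 2 * (2 * ν))
    {I : MultilinearMap ℝ (fun _ : Fin (2 * ν) => Bil V) ℝ} (hI : NatM I) {lam : ℝ}
    (hl : 0 ≤ lam) {R S : Bil V} (hR : R = Real.sqrt lam • H.om 1)
    (hS : S = Real.sqrt lam • H.om 2) (a b c : ℝ) :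
    I (fun _ => a • H.om 0 + b • R + c • S) =
      (a ^ 2 + lam * (b ^ 2 + c ^ 2)) ^ ν * I (fun _ => H.om 0) := by
  rw [hR, hS, smul_smul, smul_smul, H.general hN hI]
  congr 2
  have := Real.mul_self_sqrt hl
  linear_combination (b ^ 2 + c ^ 2) * this

/-- `I (Re σ, …, Re σ) = lam ^ ν I (K, …, K)` -/
theorem Trip.scaled_top (H : Trip V) [FiniteDimensional ℝ V] {ν : ℕ}
    (hN : Module.finrank ℝ V = 2 * (2 * ν))
    {I : MultilinearMap ℝ (fun _ : Fin (2 * ν) => Bil V) ℝ} (hI : NatM I) {lam : ℝ}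
    (hl : 0 ≤ lam) {R S : Bil V} (hR : R = Real.sqrt lam • H.om 1)
    (hS : S = Real.sqrt lam • H.om 2) (b c : ℝ) :
    I (fun _ => b • R + c • S) = (lam * (b ^ 2 + c ^ 2)) ^ ν * I (fun _ => H.om 0) := by
  have h := H.scaled hN hI hl hR hS 0 b c
  have e : (0 : ℝ) • H.om 0 + b • R + c • S = b • R + c • S := by
    ext u v
    simp
  rw [e] at h
  rw [h]
  congr 2
  ring

/-- `(2ν - 1) I (Re σ, …, Re σ, K, K) = lam ^ (ν - 1) I (K, …, K)` -/
theorem Trip.scaled_two (H : Trip V) [FiniteDimensional ℝ V] {ν : ℕ} (hν : 1 ≤ ν)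
    (hN : Module.finrank ℝ V = 2 * (2 * ν))
    {I : MultilinearMap ℝ (fun _ : Fin (2 * ν) => Bil V) ℝ} (hI : NatM I) (hsy : Symm (H := Bil V) I)
    {lam : ℝ} (hl : 0 < lam) {R : Bil V} (hR : R = Real.sqrt lam • H.om 1) :
    (2 * ν - 1 : ℝ) * I (mixv (2 * ν) (2 * (ν - 1)) (H.om 0) R) =
      lam ^ (ν - 1) * I (fun _ => H.om 0) := by
  have h1 := mix_two hν hsy (x := H.om 0) (y := H.om 1) (P := I fun _ => H.om 0) (by
    intro b
    have h0 := H.unit_line hN hI 0 b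
    have e : H.om 0 + b • (Real.cos 0 • H.om 1 + Real.sin 0 • H.om 2) = H.om 0 + b • H.om 1 := by
      ext u v
      simp
    rw [e] at h0
    exact h0)
  have h2 : I (mixv (2 * ν) (2 * (ν - 1)) (H.om 0) R) =
      lam ^ (ν - 1) * I (mixv (2 * ν) (2 * (ν - 1)) (H.om 0) (H.om 1)) := by
    have e : mixv (2 * ν) (2 * (ν - 1)) (H.om 0) R =
        fun i : Fin (2 * ν) => (if (i : ℕ) < 2 * (ν - 1) then Real.sqrt lam else 1) •
          mixv (2 * ν) (2 * (ν - 1)) (H.om 0) (H.om 1) i := by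
      funext i
      by_cases hi : (i : ℕ) < 2 * (ν - 1)
      · simp [mixv, hi, hR]
      · simp [mixv, hi]
    rw [e, MultilinearMap.map_smul_univ, smul_eq_mul]
    congr 1
    rw [Finset.prod_ite, Finset.prod_const, Finset.prod_const_one, mul_one,
      Fin.card_filter_val_lt, min_eq_right (by omega), pow_mul, Real.sq_sqrt hl.le]
  rw [h2]
  linear_combination (lam ^ (ν - 1)) * h1

end Trip

end

end Crest.Agent.R281.HKA_799
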