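import Mathlib

/-!
# R281 (S0424), YAU-AN (helper478), file A: scalar majorants

* `Nn P`, `Le P Q` : coefficientwise order on real polynomials
* `Ap x J` = `∑_{j ≤ J} x_j X^j`
* `maj_seq` : the recursion `x_{J+1} = C [(1 + x_{≤J})^n]_{J+1} + w_{J+1}` has positive radius
-/

set_option autoImplicit false

open Polynomial

namespace Crest.Agent.R281.HKMov_478

noncomputable section

/-- nonnegative coefficients -/
def Nn (P : ℝ[X]) : Prop := ∀ j, 0 ≤ P.coeff j

/-- coefficientwise order -/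
def Le (P Q : ℝ[X]) : Prop := ∀ j, P.coeff j ≤ Q.coeff j

theorem Nn.add {P Q : ℝ[X]} (hP : Nn P) (hQ : Nn Q) : Nn (P + Q) := fun j => by
  rw [coeff_add]
  exact add_nonneg (hP j) (hQ j)

theorem Nn.mul {P Q : ℝ[X]} (hP : Nn P) (hQ : Nn Q) : Nn (P * Q) := fun j => by
  rw [coeff_mul]
  exact Finset.sum_nonneg fun x _ => mul_nonneg (hP _) (hQ _)

theorem nn_zero : Nn 0 := fun j => by simp

theorem nn_C {c : ℝ} (hc : 0 ≤ c) : Nn (C c) := fun j => by
  rw [coeff_C]
  split_ifs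
  · exact hc
  · exact le_rfl

theorem nn_one : Nn 1 := by
  have := nn_C (c := 1) zero_le_one
  rwa [C_1] at this

theorem nn_X_pow (k : ℕ) : Nn (X ^ k) := fun j => by
  rw [coeff_X_pow]
  split_ifs
  · exact zero_le_one
  · exact le_rfl

theorem Nn.pow {P : ℝ[X]} (hP : Nn P) : ∀ k : ℕ, Nn (P ^ k)
  | 0 => by rw [pow_zero]; exact nn_one
  | k + 1 => by rw [pow_succ]; exact (Nn.pow hP k).mul hP

theorem Nn.sum {ι : Type*} {s : Finset ι} {P : ι → ℝ[X]} (hP : ∀ i ∈ s, Nn (P i)) :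
    Nn (∑ i ∈ s, P i) := fun j => by
  rw [finsetSum_coeff]
  exact Finset.sum_nonneg fun i hi => hP i hi j

theorem Le.refl (P : ℝ[X]) : Le P P := fun _ => le_rfl

theorem Le.trans {P Q R : ℝ[X]} (h : Le P Q) (h' : Le Q R) : Le P R := fun j => (h j).trans (h' j)

theorem Le.add {P Q P' Q' : ℝ[X]} (h : Le P P') (h' : Le Q Q') : Le (P + Q) (P' + Q') := fun j => by
  rw [coeff_add, coeff_add]
  exact add_le_add (h j) (h' j)

theorem Le.mul {P Q P' Q' : ℝ[X]} (hP : Nn P) (hQ' : Nn Q') (h : Le P P') (h' : Le Q Q') :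
    Le (P * Q) (P' * Q') := fun j => by
  rw [coeff_mul, coeff_mul]
  exact Finset.sum_le_sum fun x _ => (mul_le_mul_of_nonneg_left (h' _) (hP _)).trans
    (mul_le_mul_of_nonneg_right (h _) (hQ' _))

theorem Le.nn {P Q : ℝ[X]} (hP : Nn P) (h : Le P Q) : Nn Q := fun j => (hP j).trans (h j)

theorem Nn.eval_nonneg {P : ℝ[X]} (hP : Nn P) {r : ℝ} (hr : 0 ≤ r) : 0 ≤ P.eval r := by
  rw [eval_eq_sum_range]
  exact Finset.sum_nonneg fun i _ => mul_nonneg (hP i) (pow_nonneg hr i)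

/-- partial sums of a polynomial with nonnegative coefficients -/
theorem Nn.sum_le_eval {P : ℝ[X]} (hP : Nn P) {r : ℝ} (hr : 0 ≤ r) (t : Finset ℕ) :
    ∑ j ∈ t, P.coeff j * r ^ j ≤ P.eval r := by
  obtain ⟨N, hN⟩ : ∃ N, t ⊆ Finset.range N ∧ P.natDegree < N := by
    refine ⟨max (t.sup id + 1) (P.natDegree + 1), fun i hi => ?_, ?_⟩
    · rw [Finset.mem_range]
      have := Finset.le_sup (f := id) hi
      simp only [id] at this
      omega
    · omega
  rw [eval_eq_sum_range' hN.2]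
  exact Finset.sum_le_sum_of_subset_of_nonneg hN.1 fun i _ _ => mul_nonneg (hP i) (pow_nonneg hr i)

/-- `∑_{j ≤ J} x_j X^j` -/
def Ap (x : ℕ → ℝ) (J : ℕ) : ℝ[X] := ∑ j ∈ Finset.range (J + 1), C (x j) * X ^ j

theorem Ap_coeff (x : ℕ → ℝ) (J k : ℕ) : (Ap x J).coeff k = if k ≤ J then x k else 0 := by
  rw [Ap, finsetSum_coeff]
  simp only [coeff_C_mul, coeff_X_pow, mul_ite, mul_one, mul_zero]
  rw [Finset.sum_ite_eq (Finset.range (J + 1)) k x]
  simp

theorem Ap_eval (x : ℕ → ℝ) (J : ℕ) (r : ℝ) :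
    (Ap x J).eval r = ∑ j ∈ Finset.range (J + 1), x j * r ^ j := by
  simp [Ap, eval_finsetSum]

theorem Ap_nn {x : ℕ → ℝ} {J : ℕ} (hx : ∀ j ≤ J, 0 ≤ x j) : Nn (Ap x J) := fun k => by
  rw [Ap_coeff]
  split_ifs with h
  · exact hx k h
  · exact le_rfl

theorem Ap_le {x : ℕ → ℝ} {J J' : ℕ} (hJ : J ≤ J') (hx : ∀ j ≤ J', 0 ≤ x j) :
    Le (Ap x J) (Ap x J') := fun k => by
  rw [Ap_coeff, Ap_coeff]
  split_ifs with h h'
  · exact le_rfl
  · exact absurd (h.trans hJ) h'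
  · exact hx k ‹_›
  · exact le_rfl

/-- `(1 + A)^n - 1 - n A` -/
def Qn (A : ℝ[X]) : ℕ → ℝ[X]
  | 0 => 0
  | n + 1 => (1 + A) * Qn A n + C (n : ℝ) * A ^ 2

theorem Qn_eq (A : ℝ[X]) : ∀ n : ℕ, (1 + A) ^ n = 1 + C (n : ℝ) * A + Qn A n
  | 0 => by simp [Qn]
  | n + 1 => by
    rw [pow_succ, Qn_eq A n, Qn]
    push_cast
    rw [C_add, C_1]
    ring

theorem Qn_nn {A : ℝ[X]} (hA : Nn A) : ∀ n, Nn (Qn A n)
  | 0 => nn_zero
  | n + 1 => ((nn_one.add hA).mul (Qn_nn hA n)).add ((nn_C (Nat.cast_nonneg n)).mul (hA.pow 2))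

theorem Qn_le {A B : ℝ[X]} (hA : Nn A) (h : Le A B) : ∀ n, Le (Qn A n) (Qn B n)
  | 0 => Le.refl 0
  | n + 1 => by
    have hB : Nn B := h.nn hA
    refine Le.add (Le.mul (nn_one.add hA) (Qn_nn hB n) ((Le.refl 1).add h) (Qn_le hA h n)) ?_
    refine Le.mul (nn_C (Nat.cast_nonneg n)) (hB.pow 2) (Le.refl _) ?_
    rw [pow_two, pow_two]
    exact Le.mul hA hB h h

theorem Qn_eval (n : ℕ) : ∃ c : ℝ, 0 ≤ c ∧ ∀ (A : ℝ[X]) (r : ℝ), 0 ≤ A.eval r → A.eval r ≤ 1 →
    (Qn A n).eval r ≤ c * (A.eval r) ^ 2 := by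
  induction n with
  | zero => exact ⟨0, le_rfl, fun A r _ _ => by simp [Qn]⟩
  | succ n ih =>
    obtain ⟨c, hc, h⟩ := ih
    refine ⟨2 * c + n, by positivity, fun A r h0 h1 => ?_⟩
    have h2 := h A r h0 h1
    have h3 : 0 ≤ c * (A.eval r) ^ 2 := by positivity
    simp only [Qn, eval_add, eval_mul, eval_one, eval_C, eval_pow]
    have h4 : (1 + A.eval r) * (Qn A n).eval r ≤ 2 * (c * (A.eval r) ^ 2) := by
      calc (1 + A.eval r) * (Qn A n).eval r ≤ (1 + A.eval r) * (c * (A.eval r) ^ 2) :=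
            mul_le_mul_of_nonneg_left h2 (by linarith)
        _ ≤ 2 * (c * (A.eval r) ^ 2) := mul_le_mul_of_nonneg_right (by linarith) h3
    linarith

/-- **scalar majorant** -/
theorem maj_seq (n : ℕ) {Cc : ℝ} (hCc : 0 ≤ Cc) {w : ℕ → ℝ} (hw : ∀ j, 0 ≤ w j) {ρ W : ℝ}
    (hρ : 0 < ρ) (hW : ∀ J, ∑ j ∈ Finset.range J, w (j + 1) * ρ ^ (j + 1) ≤ W) {η : ℝ}
    (hη : 0 < η) : ∃ r, 0 < r ∧ r ≤ ρ ∧ ∀ x : ℕ → ℝ, x 0 = 0 →
      (∀ J, x (J + 1) = Cc * ((1 + Ap x J) ^ n).coeff (J + 1) + w (J + 1)) →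
      (∀ j, 0 ≤ x j) ∧ ∀ J, ∑ j ∈ Finset.range (J + 1), x j * r ^ j ≤ η := by
  obtain ⟨c, hc, hQ⟩ := Qn_eval n
  have hW0 : 0 ≤ W := by simpa using hW 0
  set q : ℝ := 2 * (Cc * c + 1) with hq
  have hq0 : 0 < q := by positivity
  set δ : ℝ := min (min η 1) (1 / q) with hδ
  have hδ0 : 0 < δ := lt_min (lt_min hη one_pos) (by positivity)
  have hδη : δ ≤ η := (min_le_left _ _).trans (min_le_left _ _)
  have hδ1 : δ ≤ 1 := (min_le_left _ _).trans (min_le_right _ _)
  have hδq : δ * q ≤ 1 := by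
    have : δ ≤ 1 / q := min_le_right _ _
    rwa [le_div_iff₀ hq0] at this
  set lam : ℝ := min 1 (δ / (2 * (W + 1))) with hlam
  have hlam0 : 0 < lam := lt_min one_pos (by positivity)
  have hlam1 : lam ≤ 1 := min_le_left _ _
  have hlamW : lam * W ≤ δ / 2 := by
    have h1 : lam ≤ δ / (2 * (W + 1)) := min_le_right _ _
    have h2 : lam * (2 * (W + 1)) ≤ δ := by rwa [le_div_iff₀ (by positivity)] at h1
    nlinarith
  refine ⟨lam * ρ, by positivity, by nlinarith, fun x hx0 hx => ?_⟩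
  set r : ℝ := lam * ρ with hr
  have hr0 : 0 < r := by positivity
  have hnn : ∀ j, 0 ≤ x j := by
    intro j
    induction j using Nat.strong_induction_on with
    | _ j ih =>
      rcases j with _ | J
      · rw [hx0]
      · rw [hx J]
        refine add_nonneg (mul_nonneg hCc ?_) (hw _)
        exact (nn_one.add (Ap_nn fun k hk => ih k (by omega))).pow n (J + 1)
  have hwr : ∀ J, ∑ j ∈ Finset.range J, w (j + 1) * r ^ (j + 1) ≤ δ / 2 := by
    intro J
    calc ∑ j ∈ Finset.range J, w (j + 1) * r ^ (j + 1)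
        ≤ ∑ j ∈ Finset.range J, lam * (w (j + 1) * ρ ^ (j + 1)) := by
          refine Finset.sum_le_sum fun j _ => ?_
          rw [hr, mul_pow]
          have h1 : lam ^ (j + 1) ≤ lam := by
            rw [pow_succ]
            exact mul_le_of_le_one_left hlam0.le (pow_le_one₀ hlam0.le hlam1)
          have h2 : 0 ≤ w (j + 1) * ρ ^ (j + 1) := mul_nonneg (hw _) (by positivity)
          calc w (j + 1) * (lam ^ (j + 1) * ρ ^ (j + 1))
              = lam ^ (j + 1) * (w (j + 1) * ρ ^ (j + 1)) := by ring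
            _ ≤ lam * (w (j + 1) * ρ ^ (j + 1)) := mul_le_mul_of_nonneg_right h1 h2
      _ = lam * ∑ j ∈ Finset.range J, w (j + 1) * ρ ^ (j + 1) := by rw [Finset.mul_sum]
      _ ≤ lam * W := mul_le_mul_of_nonneg_left (hW J) hlam0.le
      _ ≤ δ / 2 := hlamW
  have key : ∀ J, ∑ j ∈ Finset.range (J + 1), x j * r ^ j ≤ δ := by
    intro J
    induction J with
    | zero => simp [hx0, hδ0.le]
    | succ J ih =>
      have hS : 0 ≤ (Ap x J).eval r := (Ap_nn fun k _ => hnn k).eval_nonneg hr0.le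
      have hSδ : (Ap x J).eval r ≤ δ := by rw [Ap_eval]; exact ih
      have h1 : ∑ j ∈ Finset.range (J + 2), x j * r ^ j =
          ∑ j ∈ Finset.range (J + 1), (Cc * ((1 + Ap x j) ^ n).coeff (j + 1) * r ^ (j + 1)
            + w (j + 1) * r ^ (j + 1)) := by
        rw [Finset.sum_range_succ']
        simp only [hx0, zero_mul, add_zero]
        exact Finset.sum_congr rfl fun j _ => by rw [hx j]; ring
      have h2 : ∀ j ∈ Finset.range (J + 1), ((1 + Ap x j) ^ n).coeff (j + 1) ≤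
          (Qn (Ap x J) n).coeff (j + 1) := by
        intro j hj
        have hjJ : j ≤ J := Nat.lt_succ_iff.1 (Finset.mem_range.1 hj)
        rw [Qn_eq]
        have e1 : (1 : ℝ[X]).coeff (j + 1) = 0 := by
          rw [coeff_one, if_neg (by omega)]
        have e2 : (C (n : ℝ) * Ap x j).coeff (j + 1) = 0 := by
          rw [coeff_C_mul, Ap_coeff, if_neg (by omega), mul_zero]
        rw [coeff_add, coeff_add, e1, e2, zero_add, zero_add]
        exact Qn_le (Ap_nn fun k _ => hnn k) (Ap_le hjJ fun k _ => hnn k) n (j + 1)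
      rw [h1, Finset.sum_add_distrib]
      have h3 : ∑ j ∈ Finset.range (J + 1), Cc * ((1 + Ap x j) ^ n).coeff (j + 1) * r ^ (j + 1) ≤
          Cc * (Qn (Ap x J) n).eval r := by
        calc _ ≤ ∑ j ∈ Finset.range (J + 1), Cc * ((Qn (Ap x J) n).coeff (j + 1) * r ^ (j + 1)) := by
              refine Finset.sum_le_sum fun j hj => ?_
              rw [mul_assoc]
              exact mul_le_mul_of_nonneg_left (mul_le_mul_of_nonneg_right (h2 j hj)
                (by positivity)) hCc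
          _ = Cc * ∑ j ∈ Finset.range (J + 1), (Qn (Ap x J) n).coeff (j + 1) * r ^ (j + 1) := by
              rw [Finset.mul_sum]
          _ ≤ Cc * (Qn (Ap x J) n).eval r := by
              refine mul_le_mul_of_nonneg_left ?_ hCc
              have h4 := (Qn_nn (Ap_nn fun k (_ : k ≤ J) => hnn k) n).sum_le_eval hr0.le
                ((Finset.range (J + 1)).image (· + 1))
              rwa [Finset.sum_image (fun a _ b _ h => Nat.succ_injective h)] at h4
      have h5 := hQ (Ap x J) r hS (hSδ.trans hδ1)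
      have h6 : Cc * (Qn (Ap x J) n).eval r ≤ δ / 2 := by
        have h7 : (Ap x J).eval r ^ 2 ≤ δ * δ := by
          rw [pow_two]
          exact mul_le_mul hSδ hSδ hS hδ0.le
        have h8 : Cc * (c * (Ap x J).eval r ^ 2) ≤ Cc * (c * (δ * δ)) :=
          mul_le_mul_of_nonneg_left (mul_le_mul_of_nonneg_left h7 hc) hCc
        have h9 : Cc * (c * (δ * δ)) ≤ δ / 2 := by
          have : (Cc * c) * δ ≤ 1 / 2 := by
            have h10 : δ * (2 * (Cc * c)) ≤ δ * q := by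
              refine mul_le_mul_of_nonneg_left ?_ hδ0.le
              rw [hq]
              linarith
            nlinarith
          nlinarith
        exact (mul_le_mul_of_nonneg_left h5 hCc).trans (h8.trans h9)
      have h7 := hwr (J + 1)
      linarith
  exact ⟨hnn, fun J => (key J).trans hδη⟩

end

end Crest.Agent.R281.HKMov_478
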