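import Crest.Agent.R281.HKMovA_478
import Crest.Agent.R273.YauPf_635

/-!
# R281 (S0424), YAU-AN (helper478), file B: determinants of matrix polynomials

* `Um Z J`  = `1 + ∑_{1 ≤ j ≤ J} X^j Z_j`, `dt Z J` its determinant
* `dt_stable`, `dt_succ` : coefficients of order `≤ J`, the linear term
* `Mj a s p P` : `p : Z → ℂ[X]` is majorised by `P : ℝ[X]` in `C^a(s)`
* `Mj.dt` : majorant of `dt`
-/

set_option autoImplicit false
set_option linter.unusedSectionVars false

open Polynomial Set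

namespace Crest.Agent.R281.HKMov_478

open Crest.Agent.R273.SchA_152 Crest.Agent.R273.YauQ_635

noncomputable section

section alg

variable {m : Type*} [Fintype m] [DecidableEq m]

theorem dvd_det_sub {R : Type*} [CommRing R] (r : R) (U W : Matrix m m R) :
    r ∣ (U + r • W).det - U.det := by
  rw [← Ideal.mem_span_singleton, ← Ideal.Quotient.eq, RingHom.map_det, RingHom.map_det]
  congr 1
  ext i j
  simp only [RingHom.mapMatrix_apply, Matrix.map_apply, Matrix.add_apply, Matrix.smul_apply,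
    smul_eq_mul, map_add, map_mul]
  have : Ideal.Quotient.mk (Ideal.span {r}) r = 0 :=
    Ideal.Quotient.eq_zero_iff_mem.2 (Ideal.mem_span_singleton_self r)
  rw [this, zero_mul, add_zero]

theorem coeff_det_low {k j : ℕ} (hj : j < k) (U W : Matrix m m ℂ[X]) :
    (U + ((X : ℂ[X]) ^ k) • W).det.coeff j = U.det.coeff j := by
  obtain ⟨q, hq⟩ := dvd_det_sub ((X : ℂ[X]) ^ k) U W
  have h1 : (U + ((X : ℂ[X]) ^ k) • W).det = U.det + X ^ k * q := by rw [← hq]; ring
  rw [h1, coeff_add, coeff_X_pow_mul', if_neg (by omega), add_zero]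

theorem coeff_zero_det (U' : Matrix m m ℂ[X]) : (1 + (X : ℂ[X]) • U').det.coeff 0 = 1 := by
  have h := coeff_det_low (m := m) (k := 1) (j := 0) one_pos 1 U'
  rw [pow_one] at h
  rw [h, Matrix.det_one, coeff_one_zero]

theorem coeff_det_lin {k : ℕ} (hk : 0 < k) (U' : Matrix m m ℂ[X]) (Z : Matrix m m ℂ) :
    (1 + (X : ℂ[X]) • U' + ((X : ℂ[X]) ^ k) • Z.map C).det.coeff k =
      (1 + (X : ℂ[X]) • U').det.coeff k + Z.trace := by
  set U : Matrix m m ℂ[X] := 1 + (X : ℂ[X]) • U' with hU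
  set V : Matrix m m ℂ[X] := Z.map C with hV
  have h1 : U + ((X : ℂ[X]) ^ k) • V =
      (1 + ((X : ℂ[X]) ^ k) • V) * U + ((X : ℂ[X]) ^ (k + 1)) • (-(V * U')) := by
    rw [hU, pow_succ']
    simp only [add_mul, mul_add, Matrix.one_mul, Matrix.mul_one, Matrix.smul_mul, Matrix.mul_smul,
      smul_smul, smul_neg]
    abel
  rw [h1, coeff_det_low (Nat.lt_succ_self k), Matrix.det_mul, Matrix.det_one_add_smul]
  set q : ℂ[X] := eval (X ^ k) (1 + (X : ℂ[X][X]) • V.map C).det.divX.divX with hq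
  have h2 : V.trace = C Z.trace := by
    rw [hV]
    simp [Matrix.trace]
  have h3 : U.det.coeff 0 = 1 := coeff_zero_det U'
  have h4 : (1 + V.trace * X ^ k + q * (X ^ k) ^ 2) * U.det =
      U.det + (C Z.trace * U.det) * X ^ k + (q * X ^ k * U.det) * X ^ k := by
    rw [h2]
    ring
  rw [h4, coeff_add, coeff_add, coeff_mul_X_pow', coeff_mul_X_pow', if_pos le_rfl, if_pos le_rfl,
    Nat.sub_self, coeff_C_mul, h3]
  have h5 : (q * X ^ k * U.det).coeff 0 = 0 := by
    rw [mul_coeff_zero, mul_coeff_zero, coeff_X_pow, if_neg (by omega), mul_zero, zero_mul]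
  rw [h5]
  ring

/-- `1 + ∑_{1 ≤ j ≤ J} X^j Z_j` -/
def Um (Z : ℕ → Matrix m m ℂ) (J : ℕ) : Matrix m m ℂ[X] :=
  1 + ∑ j ∈ Finset.range J, ((X : ℂ[X]) ^ (j + 1)) • (Z (j + 1)).map C

theorem Um_zero (Z : ℕ → Matrix m m ℂ) : Um Z 0 = 1 := by simp [Um]

theorem Um_succ (Z : ℕ → Matrix m m ℂ) (J : ℕ) :
    Um Z (J + 1) = Um Z J + ((X : ℂ[X]) ^ (J + 1)) • (Z (J + 1)).map C := by
  rw [Um, Um, Finset.sum_range_succ, add_assoc]

theorem Um_X (Z : ℕ → Matrix m m ℂ) (J : ℕ) :
    Um Z J = 1 + (X : ℂ[X]) • ∑ j ∈ Finset.range J, ((X : ℂ[X]) ^ j) • (Z (j + 1)).map C := by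
  rw [Um, Finset.smul_sum]
  congr 1
  exact Finset.sum_congr rfl fun j _ => by rw [smul_smul, pow_succ']

/-- the determinant of `Um Z J` -/
def dt (Z : ℕ → Matrix m m ℂ) (J : ℕ) : ℂ[X] := (Um Z J).det

theorem dt_zero (Z : ℕ → Matrix m m ℂ) : dt Z 0 = 1 := by
  rw [dt, Um_zero, Matrix.det_one]

theorem dt_coeff_zero (Z : ℕ → Matrix m m ℂ) (J : ℕ) : (dt Z J).coeff 0 = 1 := by
  rw [dt, Um_X]
  exact coeff_zero_det _

theorem dt_step (Z : ℕ → Matrix m m ℂ) {j J : ℕ} (hj : j ≤ J) :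
    (dt Z (J + 1)).coeff j = (dt Z J).coeff j := by
  rw [dt, Um_succ]
  exact coeff_det_low (by omega) _ _

theorem dt_stable (Z : ℕ → Matrix m m ℂ) {j J : ℕ} (hj : j ≤ J) :
    (dt Z J).coeff j = (dt Z j).coeff j := by
  induction J, hj using Nat.le_induction with
  | base => rfl
  | succ J hJ ih => rw [dt_step Z hJ, ih]

theorem dt_succ (Z : ℕ → Matrix m m ℂ) (J : ℕ) :
    (dt Z (J + 1)).coeff (J + 1) = (dt Z J).coeff (J + 1) + (Z (J + 1)).trace := by
  rw [dt, Um_succ, Um_X, dt, Um_X]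
  exact coeff_det_lin (Nat.succ_pos J) _ _

theorem dt_congr {Z Z' : ℕ → Matrix m m ℂ} {J : ℕ} (h : ∀ j ≤ J, 1 ≤ j → Z j = Z' j) :
    dt Z J = dt Z' J := by
  rw [dt, dt, Um, Um]
  congr 2
  refine Finset.sum_congr rfl fun j hj => ?_
  rw [h (j + 1) (Finset.mem_range.1 hj) (by omega)]

theorem dt_eval (Z : ℕ → Matrix m m ℂ) (J : ℕ) (s : ℂ) :
    (dt Z J).eval s = (1 + ∑ j ∈ Finset.range J, s ^ (j + 1) • Z (j + 1)).det := by
  rw [dt, Um]
  have h := RingHom.map_det (evalRingHom s)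
    (1 + ∑ j ∈ Finset.range J, ((X : ℂ[X]) ^ (j + 1)) • (Z (j + 1)).map C)
  rw [coe_evalRingHom] at h
  rw [h]
  congr 1
  ext a b
  have h1 : eval s ((1 : Matrix m m ℂ[X]) a b) = (1 : Matrix m m ℂ) a b := by
    rcases eq_or_ne a b with rfl | hab
    · simp
    · simp [Matrix.one_apply_ne hab]
  simp only [RingHom.mapMatrix_apply, Matrix.map_apply, Matrix.add_apply, Matrix.sum_apply,
    Matrix.smul_apply, smul_eq_mul, coe_evalRingHom, eval_add, eval_finsetSum, eval_mul, eval_pow,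
    eval_X, eval_C, h1]

theorem dt_similar {Z Z' : ℕ → Matrix m m ℂ} {P : Matrix m m ℂ} (hP : P.det ≠ 0)
    (h : ∀ j, Z' j = P⁻¹ * Z j * P) (J : ℕ) : dt Z' J = dt Z J := by
  have hu : IsUnit P.det := isUnit_iff_ne_zero.2 hP
  have h1 : Um Z' J = (P⁻¹).map C * Um Z J * P.map C := by
    have h2 : (P⁻¹).map C * P.map (C : ℂ →+* ℂ[X]) = 1 := by
      rw [← Matrix.map_mul, Matrix.nonsing_inv_mul _ hu]
      exact Matrix.map_one _ C.map_zero C.map_one
    rw [Um, Um, mul_add, add_mul, Matrix.mul_one, h2, Finset.mul_sum, Finset.sum_mul]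
    congr 1
    refine Finset.sum_congr rfl fun j _ => ?_
    rw [h, Matrix.map_mul, Matrix.map_mul, Matrix.mul_smul, Matrix.smul_mul]
  rw [dt, h1, Matrix.det_mul, Matrix.det_mul]
  have h3 : ((P⁻¹).map (C : ℂ →+* ℂ[X])).det * (P.map C).det = 1 := by
    rw [← Matrix.det_mul, ← Matrix.map_mul, Matrix.nonsing_inv_mul _ hu,
      Matrix.map_one _ C.map_zero C.map_one, Matrix.det_one]
  calc _ = (((P⁻¹).map (C : ℂ →+* ℂ[X])).det * (P.map C).det) * (Um Z J).det := by ring
    _ = dt Z J := by rw [h3, one_mul, dt]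

/-- the coefficients are real if `Z_j = G⁻¹ Y_j` with `G`, `Y_j` Hermitian -/
theorem dt_real {G : Matrix m m ℂ} (hG : G.IsHermitian) (hG0 : G.det ≠ 0)
    {Y : ℕ → Matrix m m ℂ} (hY : ∀ j, 1 ≤ j → (Y j).IsHermitian) (J j : ℕ) :
    ((dt (fun k => G⁻¹ * Y k) J).coeff j).im = 0 := by
  have hu : IsUnit G.det := isUnit_iff_ne_zero.2 hG0
  have hGi : (G⁻¹).conjTranspose = G⁻¹ := by
    rw [Matrix.conjTranspose_nonsing_inv, hG.eq]
  have h1 : (dt (fun k => G⁻¹ * Y k) J).map (starRingEnd ℂ) = dt (fun k => Y k * G⁻¹) J := by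
    have h2 := RingHom.map_det (mapRingHom (starRingEnd ℂ)) (Um (fun k => G⁻¹ * Y k) J)
    rw [coe_mapRingHom] at h2
    rw [dt, h2, dt, ← Matrix.det_transpose]
    congr 1
    ext a b
    have h1' : Polynomial.map (starRingEnd ℂ) ((1 : Matrix m m ℂ[X]) b a) =
        (1 : Matrix m m ℂ[X]) a b := by
      rcases eq_or_ne a b with rfl | hab
      · simp
      · simp [Matrix.one_apply_ne hab, Matrix.one_apply_ne hab.symm]
    have h3 : ∀ k, starRingEnd ℂ ((G⁻¹ * Y (k + 1)) b a) = (Y (k + 1) * G⁻¹) a b := by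
      intro k
      have h4 : (G⁻¹ * Y (k + 1)).conjTranspose = Y (k + 1) * G⁻¹ := by
        rw [Matrix.conjTranspose_mul, hGi, (hY (k + 1) (by omega)).eq]
      rw [← h4]
      rfl
    simp only [RingHom.mapMatrix_apply, Matrix.transpose_apply, Matrix.map_apply, Um,
      Matrix.add_apply, Matrix.sum_apply, Matrix.smul_apply, smul_eq_mul, coe_mapRingHom,
      Polynomial.map_add, Polynomial.map_sum, Polynomial.map_mul, Polynomial.map_pow, map_X, map_C,
      h1', h3]
  have h5 : dt (fun k => Y k * G⁻¹) J = dt (fun k => G⁻¹ * Y k) J := by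
    refine dt_similar (P := G⁻¹) ?_ (fun k => ?_) J
    · rw [Matrix.det_nonsing_inv, Ring.inverse_eq_inv']
      exact inv_ne_zero hG0
    · rw [Matrix.nonsing_inv_nonsing_inv _ hu, ← Matrix.mul_assoc, Matrix.mul_nonsing_inv _ hu,
        Matrix.one_mul]
  have h6 := congrArg (fun p : ℂ[X] => p.coeff j) (h1.trans h5)
  simp only [coeff_map] at h6
  exact Complex.conj_eq_iff_im.1 h6

end alg

/-! ### majorants in Hölder classes -/

section maj

variable {E : Type*} [NormedAddCommGroup E] {a : ℝ} {s : Set E}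

theorem ho_fsum {ι F : Type*} [NormedAddCommGroup F] {f : ι → E → F} {M : ι → ℝ} (t : Finset ι)
    (hf : ∀ i ∈ t, HO a (M i) s (f i)) : HO a (∑ i ∈ t, M i) s (fun z => ∑ i ∈ t, f i z) := by
  refine ⟨fun z hz => ?_, fun z hz w hw => ?_⟩
  · exact (norm_sum_le _ _).trans (Finset.sum_le_sum fun i hi => (hf i hi).bdd z hz)
  · rw [← Finset.sum_sub_distrib, Finset.sum_mul]
    exact (norm_sum_le _ _).trans (Finset.sum_le_sum fun i hi => (hf i hi).hol z hz w hw)

theorem ho_const {F : Type*} [NormedAddCommGroup F] {c : F} {M : ℝ} (h : ‖c‖ ≤ M) :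
    HO a M s (fun _ => c) := by
  refine ⟨fun _ _ => h, fun z _ w _ => ?_⟩
  rw [sub_self, norm_zero]
  exact mul_nonneg ((norm_nonneg c).trans h) (Real.rpow_nonneg (norm_nonneg _) _)

/-- `p` is majorised by `P` -/
def Mj (a : ℝ) (s : Set E) (p : E → ℂ[X]) (P : ℝ[X]) : Prop :=
  ∀ j, HO a (P.coeff j) s (fun z => (p z).coeff j)

theorem Mj.one : Mj a s (fun _ => 1) 1 := fun j => by
  refine ho_const ?_
  rw [coeff_one, coeff_one]
  split_ifs <;> simp

theorem Mj.mul {p q : E → ℂ[X]} {P Q : ℝ[X]} (hP : Nn P) (hQ : Nn Q) (hp : Mj a s p P)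
    (hq : Mj a s q Q) : Mj a s (fun z => p z * q z) (C 2 * (P * Q)) := fun j => by
  have h := ho_fsum (Finset.HasAntidiagonal.antidiagonal j) (a := a) (s := s)
    (f := fun x z => (p z).coeff x.1 * (q z).coeff x.2)
    (M := fun x => 2 * P.coeff x.1 * Q.coeff x.2)
    (fun x _ => ho_mul (hP _) (hQ _) (hp _) (hq _))
  have e1 : (C 2 * (P * Q)).coeff j =
      ∑ x ∈ Finset.HasAntidiagonal.antidiagonal j, 2 * P.coeff x.1 * Q.coeff x.2 := by
    rw [coeff_C_mul, coeff_mul, Finset.mul_sum]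
    exact Finset.sum_congr rfl fun x _ => by ring
  rw [e1]
  refine h.congr fun z _ => ?_
  simp only [coeff_mul]

theorem Mj.prod {ι : Type*} {p : ι → E → ℂ[X]} {P : ℝ[X]} (hP : Nn P) (t : Finset ι)
    (hp : ∀ i ∈ t, Mj a s (p i) P) :
    Mj a s (fun z => ∏ i ∈ t, p i z) (C (2 ^ t.card) * P ^ t.card) := by
  classical
  induction t using Finset.induction_on with
  | empty => simpa using Mj.one
  | insert i t hi ih =>
    have h1 := ih fun k hk => hp k (Finset.mem_insert_of_mem hk)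
    have h2 := Mj.mul hP ((nn_C (by positivity)).mul (hP.pow _))
      (hp i (Finset.mem_insert_self _ _)) h1
    have e : C (2 ^ (insert i t).card) * P ^ (insert i t).card =
        C 2 * (P * (C (2 ^ t.card) * P ^ t.card)) := by
      rw [Finset.card_insert_of_notMem hi, pow_succ, pow_succ, C_mul]
      ring
    rw [e]
    intro j
    refine (h2 j).congr fun z _ => ?_
    show (∏ i ∈ insert i t, p i z).coeff j = (p i z * ∏ i ∈ t, p i z).coeff j
    rw [Finset.prod_insert hi]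

theorem ho_units {F : Type*} [NormedAddCommGroup F] {f : E → F} {M : ℝ} (e : ℤˣ)
    (hf : HO a M s f) : HO a M s (fun z => e • f z) := by
  rcases Int.units_eq_one_or e with rfl | rfl
  · simpa using hf
  · have := hf.neg
    refine this.congr fun z _ => ?_
    simp [Units.smul_def]

theorem Mj.det {n : ℕ} {U : E → Matrix (Fin n) (Fin n) ℂ[X]} {P : ℝ[X]} (hP : Nn P)
    (hU : ∀ b c, Mj a s (fun z => U z b c) P) :
    Mj a s (fun z => (U z).det) (C ((n.factorial : ℝ) * 2 ^ n) * P ^ n) := fun j => by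
  have h1 : ∀ σ : Equiv.Perm (Fin n), HO a ((C (2 ^ n) * P ^ n).coeff j) s
      (fun z => Equiv.Perm.sign σ • (∏ i, U z (σ i) i).coeff j) := fun σ => by
    refine ho_units _ ?_
    have h2 := Mj.prod (p := fun i z => U z (σ i) i) hP Finset.univ (fun i _ => hU _ _) j
    rwa [Finset.card_univ, Fintype.card_fin] at h2
  have h3 := ho_sum (Finset.univ : Finset (Equiv.Perm (Fin n))) (fun σ _ => h1 σ)
  rw [Finset.card_univ, Fintype.card_perm, Fintype.card_fin] at h3
  have e : (C ((n.factorial : ℝ) * 2 ^ n) * P ^ n).coeff j =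
      (n.factorial : ℝ) * (C (2 ^ n) * P ^ n).coeff j := by
    rw [C_mul, mul_assoc, coeff_C_mul]
  rw [e]
  refine h3.congr fun z _ => ?_
  show ((U z).det).coeff j = _
  rw [Matrix.det_apply, finsetSum_coeff]
  refine Finset.sum_congr rfl fun σ _ => ?_
  rcases Int.units_eq_one_or (Equiv.Perm.sign σ) with h | h
  · rw [h, one_smul, one_smul]
  · rw [h]
    simp [Units.smul_def]

theorem Um_coeff {n : ℕ} (Z : ℕ → Matrix (Fin n) (Fin n) ℂ) (J : ℕ) (b c : Fin n) (k : ℕ) :
    (Um Z J b c).coeff k =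
      if k = 0 then (1 : Matrix (Fin n) (Fin n) ℂ) b c else if k ≤ J then Z k b c else 0 := by
  have h1 : (∑ j ∈ Finset.range J, (((X : ℂ[X]) ^ (j + 1)) • (Z (j + 1)).map C) b c).coeff k =
      if k = 0 then 0 else if k ≤ J then Z k b c else 0 := by
    rw [finsetSum_coeff]
    rcases k with _ | k
    · rw [if_pos rfl]
      refine Finset.sum_eq_zero fun j _ => ?_
      simp [Matrix.smul_apply, Matrix.map_apply]
    · rw [if_neg (Nat.succ_ne_zero k)]
      have h2 : ∀ j, ((((X : ℂ[X]) ^ (j + 1)) • (Z (j + 1)).map C) b c).coeff (k + 1) =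
          if k = j then Z (j + 1) b c else 0 := by
        intro j
        rw [Matrix.smul_apply, Matrix.map_apply, smul_eq_mul, mul_comm, coeff_C_mul, coeff_X_pow]
        by_cases h : k = j
        · subst h
          simp
        · rw [if_neg h, if_neg (by omega), mul_zero]
      simp only [h2]
      rw [Finset.sum_ite_eq (Finset.range J) k (fun j => Z (j + 1) b c)]
      by_cases h : k < J
      · rw [if_pos (Finset.mem_range.2 h), if_pos (by omega)]
      · rw [if_neg (by simpa using h), if_neg (by omega)]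
  rw [Um, Matrix.add_apply, Matrix.sum_apply, coeff_add, h1]
  have h3 : ((1 : Matrix (Fin n) (Fin n) ℂ[X]) b c).coeff k =
      if k = 0 then (1 : Matrix (Fin n) (Fin n) ℂ) b c else 0 := by
    rcases eq_or_ne b c with rfl | hbc
    · rw [Matrix.one_apply_eq, coeff_one, Matrix.one_apply_eq]
    · rw [Matrix.one_apply_ne hbc, coeff_zero, Matrix.one_apply_ne hbc, ite_self]
  rw [h3]
  split_ifs <;> simp

/-- majorant of the determinant -/
theorem Mj.dt {n : ℕ} {Z : ℕ → E → Matrix (Fin n) (Fin n) ℂ} {J : ℕ} {x : ℕ → ℝ}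
    (hx : ∀ j ≤ J, 0 ≤ x j)
    (hZ : ∀ j ≤ J, 1 ≤ j → ∀ b c, HO a (x j) s (fun z => Z j z b c)) :
    Mj a s (fun z => dt (fun j => Z j z) J) (C ((n.factorial : ℝ) * 2 ^ n) * (1 + Ap x J) ^ n) := by
  refine Mj.det (nn_one.add (Ap_nn hx)) fun b c k => ?_
  rw [coeff_add, Ap_coeff]
  have e : (fun z => (Um (fun j => Z j z) J b c).coeff k) = fun z =>
      if k = 0 then (1 : Matrix (Fin n) (Fin n) ℂ) b c else if k ≤ J then Z k z b c else 0 := by
    funext z
    exact Um_coeff _ _ _ _ _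
  rw [e]
  rcases Nat.eq_zero_or_pos k with rfl | hk
  · simp only [if_true, coeff_one_zero, Nat.zero_le]
    refine ho_const ?_
    have h0 := hx 0 (Nat.zero_le _)
    have : ‖(1 : Matrix (Fin n) (Fin n) ℂ) b c‖ ≤ 1 := by
      rcases eq_or_ne b c with rfl | hbc
      · simp
      · simp [Matrix.one_apply_ne hbc]
    linarith
  · have hk0 : k ≠ 0 := by omega
    simp only [if_neg hk0, coeff_one, zero_add]
    by_cases hkJ : k ≤ J
    · simp only [if_pos hkJ]
      exact hZ k hkJ hk b c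
    · simp only [if_neg hkJ]
      exact ho_const (by simp)

end maj

end

end Crest.Agent.R281.HKMov_478
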