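import Crest.Agent.R281.HKMovB_478
import Crest.Agent.R273.FIb0_597
import Crest.Agent.R273.CLinE_933
import Crest.Agent.R273.SchK_152

/-!
# R281 (S0424), YAU-AN (helper478), file C: the recursion

* `HF A Y`       : smooth Hermitian field of type `(1,1)`
* `cfn K Y J j`  : `[s^j] det (1 + ∑_{1 ≤ k ≤ J} s^k K⁻¹ Y_k)` as a real function on `M`
* `exists_rec`   : `Δ φ_{J+1} = m_{J+1} - R_J` for all `J`
-/

set_option autoImplicit false
set_option linter.unusedSectionVars false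

open Polynomial Set
open scoped ContDiff Matrix ComplexConjugate ComplexOrder

namespace Crest.Agent.R281.HKMov_478

open Crest.Agent.R275.Geo Crest.Agent.R275.Core144 Crest.Agent.R275.GC293
open Crest.Agent.R273.Defs_333 Crest.Agent.R273.YauDefs_635 Crest.Agent.R273.HM_333
open Crest.Agent.R273.YauCh_635 Crest.Agent.R273.Hess_333 Crest.Agent.R273.HessB_333
open Crest.Agent.R273.Kah_333 Crest.Agent.R273.YauMax_635 Crest.Agent.R273.YauLoc_635
open Crest.Agent.R273.SchA_152 Crest.Agent.R273.SchD_152 Crest.Agent.R273.YauQ_635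
open Crest.Agent.R273.Green_5 Crest.Agent.R273.GreenM_5 Crest.Agent.R273.FIb0_597
open Crest.Agent.R273.SchG_152 Crest.Agent.R273.SchF_152

noncomputable section

/-! ### smooth polynomial valued functions -/

section smooth

variable {E : Type*} [NormedAddCommGroup E] [NormedSpace ℝ E] {U : Set E}

/-- all coefficients are smooth -/
def Sc (U : Set E) (p : E → ℂ[X]) : Prop := ∀ j, ContDiffOn ℝ ∞ (fun z => (p z).coeff j) U

theorem Sc.mul {p q : E → ℂ[X]} (hp : Sc U p) (hq : Sc U q) : Sc U (fun z => p z * q z) :=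
  fun j => by
  simp only [coeff_mul]
  exact ContDiffOn.sum fun x _ => (hp _).mul (hq _)

theorem Sc.one : Sc U (fun _ => 1) := fun _ => contDiffOn_const

theorem Sc.prod {ι : Type*} {p : ι → E → ℂ[X]} (t : Finset ι) (hp : ∀ i ∈ t, Sc U (p i)) :
    Sc U (fun z => ∏ i ∈ t, p i z) := by
  classical
  induction t using Finset.induction_on with
  | empty => simpa using Sc.one
  | insert i t hi ih =>
    have h2 := (hp i (Finset.mem_insert_self _ _)).mul
      (ih fun k hk => hp k (Finset.mem_insert_of_mem hk))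
    intro j
    refine (h2 j).congr fun z _ => ?_
    show (∏ i ∈ insert i t, p i z).coeff j = (p i z * ∏ i ∈ t, p i z).coeff j
    rw [Finset.prod_insert hi]

theorem Sc.det {n : ℕ} {V : E → Matrix (Fin n) (Fin n) ℂ[X]}
    (hV : ∀ b c, Sc U (fun z => V z b c)) : Sc U (fun z => (V z).det) := fun j => by
  have h1 : ContDiffOn ℝ ∞ (fun z => ∑ σ : Equiv.Perm (Fin n),
      ((Equiv.Perm.sign σ : ℤ) : ℂ) * (∏ i, V z (σ i) i).coeff j) U :=
    ContDiffOn.sum fun σ _ => contDiffOn_const.mul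
      (Sc.prod (p := fun i z => V z (σ i) i) Finset.univ (fun i _ => hV _ _) j)
  refine h1.congr fun z _ => ?_
  show ((V z).det).coeff j = _
  rw [Matrix.det_apply', finsetSum_coeff]
  refine Finset.sum_congr rfl fun σ _ => ?_
  rcases Int.units_eq_one_or (Equiv.Perm.sign σ) with h | h
  · rw [h]
    simp
  · rw [h]
    simp

theorem Sc.dt {n : ℕ} {Z : ℕ → E → Matrix (Fin n) (Fin n) ℂ} {J : ℕ}
    (hZ : ∀ j ≤ J, 1 ≤ j → ∀ b c, ContDiffOn ℝ ∞ (fun z => Z j z b c) U) :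
    Sc U (fun z => dt (fun j => Z j z) J) := by
  refine Sc.det fun b c k => ?_
  have e : (fun z => (Um (fun j => Z j z) J b c).coeff k) = fun z =>
      if k = 0 then (1 : Matrix (Fin n) (Fin n) ℂ) b c else if k ≤ J then Z k z b c else 0 := by
    funext z
    exact Um_coeff _ _ _ _ _
  rw [e]
  by_cases hk : k = 0
  · simp only [if_pos hk]
    exact contDiffOn_const
  · simp only [if_neg hk]
    by_cases hkJ : k ≤ J
    · simp only [if_pos hkJ]
      exact hZ k hkJ (by omega) b c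
    · simp only [if_neg hkJ]
      exact contDiffOn_const

end smooth

variable {n : ℕ} {M : Type} [TopologicalSpace M] {A : Atl n M}

/-- smooth Hermitian field of type `(1,1)` -/
structure HF (A : Atl n M) (Y : A.ι → M → Matrix (Fin n) (Fin n) ℂ) : Prop extends TF A Y where
  herm : ∀ i, ∀ x ∈ (A.e i).source, (Y i x).IsHermitian

theorem hf_kah (K : Kah A) : HF A K.g := ⟨tf_kah K, fun i x hx => (K.pos i x hx).1⟩

theorem hf_hsf {f : M → ℝ} (hf : A.Sm f) : HF A (hsf A f) := ⟨tf_hsf hf, fun _ _ hx => hsf_herm hf hx⟩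

theorem HF.add {Y Y' : A.ι → M → Matrix (Fin n) (Fin n) ℂ} (h : HF A Y) (h' : HF A Y') :
    HF A (fun i x => Y i x + Y' i x) :=
  ⟨h.toTF.add h'.toTF, fun i x hx => (h.herm i x hx).add (h'.herm i x hx)⟩

/-- `K⁻¹ Y_j` -/
def Zf (K : Kah A) (Y : ℕ → A.ι → M → Matrix (Fin n) (Fin n) ℂ) (i : A.ι) (x : M) (j : ℕ) :
    Matrix (Fin n) (Fin n) ℂ := (K.g i x)⁻¹ * Y j i x

/-- the coefficient function -/
def cfn (K : Kah A) (Y : ℕ → A.ι → M → Matrix (Fin n) (Fin n) ℂ) (J j : ℕ) (x : M) : ℝ :=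
  ((dt (Zf K Y (ch A x) x) J).coeff j).re

theorem det_Jbar {i j : A.ι} {x : M} (hx : x ∈ (A.e i).source ∩ (A.e j).source) :
    ((Jm A i j x).map conj).det ≠ 0 := by
  rw [← RingHom.mapMatrix_apply, ← RingHom.map_det]
  exact (_root_.map_ne_zero _).2 (Crest.Agent.R273.SchH_152.det_Jm hx)

theorem Zf_tr (K : Kah A) {Y : A.ι → M → Matrix (Fin n) (Fin n) ℂ} (hY : TF A Y) {i j : A.ι}
    {x : M} (hx : x ∈ (A.e i).source ∩ (A.e j).source) :
    (K.g i x)⁻¹ * Y i x =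
      ((Jm A i j x).map conj)⁻¹ * ((K.g j x)⁻¹ * Y j x) * (Jm A i j x).map conj := by
  have h1 : IsUnit ((Jm A i j x)ᵀ).det := by
    rw [Matrix.det_transpose]
    exact isUnit_iff_ne_zero.2 (Crest.Agent.R273.SchH_152.det_Jm hx)
  rw [K.tr i j x hx, hY.tr i j x hx, Matrix.mul_inv_rev, Matrix.mul_inv_rev]
  calc _ = ((Jm A i j x).map conj)⁻¹ * ((K.g j x)⁻¹ * ((((Jm A i j x)ᵀ)⁻¹ * (Jm A i j x)ᵀ) *
        Y j x)) * (Jm A i j x).map conj := by simp only [Matrix.mul_assoc]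
    _ = _ := by rw [Matrix.nonsing_inv_mul _ h1, Matrix.one_mul]

theorem dt_tr (K : Kah A) {Y : ℕ → A.ι → M → Matrix (Fin n) (Fin n) ℂ}
    (hY : ∀ j, 1 ≤ j → HF A (Y j)) {i j : A.ι}
    {x : M} (hx : x ∈ (A.e i).source ∩ (A.e j).source) (J : ℕ) :
    dt (Zf K Y i x) J = dt (Zf K Y j x) J := by
  rw [← dt_similar (Z := Zf K Y j x) (Z' := fun k => ((Jm A i j x).map conj)⁻¹ * Zf K Y j x k *
    (Jm A i j x).map conj) (det_Jbar hx) (fun _ => rfl) J]
  exact dt_congr fun k _ hk => Zf_tr K (hY k hk).toTF hx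

theorem cfn_eq (K : Kah A) {Y : ℕ → A.ι → M → Matrix (Fin n) (Fin n) ℂ}
    (hY : ∀ j, 1 ≤ j → HF A (Y j)) {i : A.ι} {x : M} (hx : x ∈ (A.e i).source) (J j : ℕ) :
    ((cfn K Y J j x : ℝ) : ℂ) = (dt (Zf K Y i x) J).coeff j := by
  rw [cfn, dt_tr K hY ⟨mem_ch A x, hx⟩ J]
  have h1 := dt_real (G := K.g i x) (K.pos i x hx).1 (K.pos i x hx).det_pos.ne'
    (Y := fun k => Y k i x) (fun k hk => (hY k hk).herm i x hx) J j
  apply Complex.ext
  · rfl
  · rw [Complex.ofReal_im]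
    exact h1.symm

theorem Zf_sm (K : Kah A) {Y : A.ι → M → Matrix (Fin n) (Fin n) ℂ} (hY : TF A Y) (i : A.ι)
    (a b : Fin n) : ContDiffOn ℝ ∞ (fun z => ((K.g i ((A.e i).symm z))⁻¹ *
      Y i ((A.e i).symm z)) a b) (A.e i).target := by
  simp only [Matrix.mul_apply]
  exact ContDiffOn.sum fun c _ => (Crest.Agent.R273.SchH_152.contDiffOn_inv K i a c).mul (hY.sm i c b)

theorem cfn_sm (K : Kah A) {Y : ℕ → A.ι → M → Matrix (Fin n) (Fin n) ℂ}
    (hY : ∀ j, 1 ≤ j → HF A (Y j)) (J j : ℕ) : A.Sm (cfn K Y J j) := by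
  intro i
  have h1 : ContDiffOn ℝ ∞ (fun z => (dt (fun k => Zf K Y i ((A.e i).symm z) k) J).coeff j)
      (A.e i).target :=
    Sc.dt (Z := fun k z => Zf K Y i ((A.e i).symm z) k)
      (fun k _ hk b c => Zf_sm K (hY k hk).toTF i b c) j
  refine (Complex.reCLM.contDiff.comp_contDiffOn h1).congr fun z hz => ?_
  have h2 := cfn_eq K hY ((A.e i).map_target hz) J j
  have h3 := congrArg Complex.re h2
  rw [Complex.ofReal_re] at h3
  rw [h3]
  rfl

theorem cfn_congr (K : Kah A) {Y Y' : ℕ → A.ι → M → Matrix (Fin n) (Fin n) ℂ} {J : ℕ}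
    (h : ∀ j ≤ J, 1 ≤ j → Y j = Y' j) (j : ℕ) : cfn K Y J j = cfn K Y' J j := by
  funext x
  rw [cfn, cfn, dt_congr fun k hk hk1 => ?_]
  rw [Zf, Zf, h k hk hk1]

/-- `B_j + ∂∂̄ φ_j` -/
def Yf (A : Atl n M) (B : ℕ → A.ι → M → Matrix (Fin n) (Fin n) ℂ) (φ : ℕ → M → ℝ) (j : ℕ)
    (i : A.ι) (x : M) : Matrix (Fin n) (Fin n) ℂ := B j i x + hsf A (φ j) i x

theorem hf_Yf {B : ℕ → A.ι → M → Matrix (Fin n) (Fin n) ℂ} (hB : ∀ j, 1 ≤ j → HF A (B j))
    {φ : ℕ → M → ℝ} (hφ : ∀ j, A.Sm (φ j)) : ∀ j, 1 ≤ j → HF A (Yf A B φ j) :=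
  fun j hj => (hB j hj).add (hf_hsf (hφ j))

/-- the known part of the equation of order `J + 1` -/
def Rf (K : Kah A) (B : ℕ → A.ι → M → Matrix (Fin n) (Fin n) ℂ) (φ : ℕ → M → ℝ) (J : ℕ)
    (x : M) : ℝ := cfn K (Yf A B φ) J (J + 1) x + (trK K (B (J + 1)) x).re

theorem trK_hf (K : Kah A) {S : A.ι → M → Matrix (Fin n) (Fin n) ℂ} (hS : HF A S) {i : A.ι}
    {x : M} (hx : x ∈ (A.e i).source) :
    (((trK K S x).re : ℝ) : ℂ) = ((K.g i x)⁻¹ * S i x).trace := by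
  rw [trK_eq K hS.tr hx]
  exact trace_real (K.pos _ _ hx).1 (hS.herm i x hx)

theorem trK_sm (K : Kah A) {S : A.ι → M → Matrix (Fin n) (Fin n) ℂ} (hS : HF A S) :
    A.Sm (fun x => (trK K S x).re) := by
  intro i
  have h1 : ContDiffOn ℝ ∞ (fun z => ((K.g i ((A.e i).symm z))⁻¹ *
      S i ((A.e i).symm z)).trace) (A.e i).target := by
    simp only [Matrix.trace, Matrix.diag_apply]
    exact ContDiffOn.sum fun a _ => Zf_sm K hS.toTF i a a
  refine (Complex.reCLM.contDiff.comp_contDiffOn h1).congr fun z hz => ?_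
  have h2 := congrArg Complex.re (trK_hf K hS ((A.e i).map_target hz))
  rw [Complex.ofReal_re] at h2
  exact h2

theorem Rf_sm (K : Kah A) {B : ℕ → A.ι → M → Matrix (Fin n) (Fin n) ℂ}
    (hB : ∀ j, 1 ≤ j → HF A (B j)) {φ : ℕ → M → ℝ} (hφ : ∀ j, A.Sm (φ j)) (J : ℕ) :
    A.Sm (Rf K B φ J) := fun i =>
  (cfn_sm K (hf_Yf hB hφ) J (J + 1) i).add (trK_sm K (hB (J + 1) (by omega)) i)

theorem Rf_congr (K : Kah A) (B : ℕ → A.ι → M → Matrix (Fin n) (Fin n) ℂ) {φ φ' : ℕ → M → ℝ}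
    {J : ℕ} (h : ∀ j ≤ J, φ j = φ' j) : Rf K B φ J = Rf K B φ' J := by
  funext x
  rw [Rf, Rf, cfn_congr K (Y := Yf A B φ) (Y' := Yf A B φ') (fun j hj _ => ?_)]
  funext i y
  rw [Yf, Yf, h j hj]

/-- dependent choice along `ℕ` with memory -/
theorem exists_seq {α : Type*} (a0 : α) (P : (ℕ → α) → ℕ → α → Prop)
    (hP : ∀ (f f' : ℕ → α) (J : ℕ) (a : α), (∀ j ≤ J, f j = f' j) → P f J a → P f' J a)
    (h : ∀ (f : ℕ → α) (J : ℕ), ∃ a, P f J a) :
    ∃ f : ℕ → α, f 0 = a0 ∧ ∀ J, P f J (f (J + 1)) := by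
  classical
  choose c hc using h
  set g : ℕ → ℕ → α := fun J => Nat.rec (fun _ => a0)
    (fun J gJ => Function.update gJ (J + 1) (c gJ J)) J with hg
  have g0 : g 0 = fun _ => a0 := rfl
  have gs : ∀ J, g (J + 1) = Function.update (g J) (J + 1) (c (g J) J) := fun J => rfl
  have hst : ∀ j k, g (j + k) j = g j j := by
    intro j k
    induction k with
    | zero => rfl
    | succ k ih =>
      rw [← add_assoc, gs, Function.update_of_ne (by omega), ih]
  have hst' : ∀ J j, j ≤ J → g J j = g j j := by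
    intro J j hj
    obtain ⟨k, rfl⟩ := Nat.exists_eq_add_of_le hj
    exact hst j k
  refine ⟨fun j => g j j, rfl, fun J => ?_⟩
  have h1 : g (J + 1) (J + 1) = c (g J) J := by
    rw [gs, Function.update_self]
  show P _ J (g (J + 1) (J + 1))
  rw [h1]
  exact hP (g J) _ J _ (fun j hj => hst' J j hj) (hc (g J) J)

theorem hsf_zero : hsf A (fun _ => (0 : ℝ)) = fun _ _ => 0 := by
  funext i x
  unfold hsf
  rw [← cH_eq_hess contDiffAt_const]
  ext a b
  have h1 : fderiv ℝ (fun _ : Cn n => (0 : ℝ)) = fun _ => 0 := by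
    funext z
    simp
  simp [cH, D2, h1]

theorem hsf_eq_cH {v : M → ℝ} (hv : A.Sm v) {i : A.ι} {x : M} (hx : x ∈ (A.e i).source) :
    hsf A v i x = cH (inC A i v) (A.e i x) :=
  (cH_eq_hess (inC_contDiffAt hv i ((A.e i).map_source hx))).symm

theorem lapK_sub_const (K : Kah A) {v : M → ℝ} (hv : A.Sm v) (c : ℝ) (x : M) :
    lapK K (fun y => v y - c) x = lapK K v x := by
  have hv' : A.Sm (fun y => v y - c) := fun i => (hv i).sub contDiffOn_const
  have hx := mem_ch A x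
  rw [lapK_eq K hv' hx, lapK_eq K hv hx, hsf_eq_cH hv' hx, hsf_eq_cH hv hx]
  have e : inC A (ch A x) (fun y => v y - c) = fun z => inC A (ch A x) v z - c := rfl
  rw [e, Crest.Agent.R273.YauClose_635.cH_sub_const]

/-- **the recursion** -/
theorem exists_rec [T2Space M] [CompactSpace M] [ConnectedSpace M] [Finite A.ι] (P : Part A)
    (K : Kah A) (x0 : M) {B : ℕ → A.ι → M → Matrix (Fin n) (Fin n) ℂ}
    (hB : ∀ j, 1 ≤ j → HF A (B j)) :
    ∃ (φ : ℕ → M → ℝ) (m : ℕ → ℝ), φ 0 = (fun _ => 0) ∧ m 0 = 0 ∧ (∀ j, A.Sm (φ j)) ∧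
      (∀ j, φ j x0 = 0) ∧ ∀ J x, lapK K (φ (J + 1)) x = m (J + 1) - Rf K B φ J x := by
  obtain ⟨f, hf0, hf⟩ := exists_seq
    (α := {v : M → ℝ // A.Sm v ∧ v x0 = 0} × ℝ)
    (⟨⟨fun _ => 0, fun i => contDiffOn_const, rfl⟩, 0⟩)
    (fun f J a => ∀ x, lapK K a.1.1 x = a.2 - Rf K B (fun j => (f j).1.1) J x)
    (fun f f' J a h ha x => by
      rw [ha x, Rf_congr K B (J := J) (φ := fun j => (f j).1.1) (φ' := fun j => (f' j).1.1)
        (fun j hj => by simp only [h j hj])])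
    (fun f J => by
      have hR := Rf_sm K hB (φ := fun j => (f j).1.1) (fun j => (f j).1.2.1) J
      have hR' : A.Sm (fun x => -Rf K B (fun j => (f j).1.1) J x) := fun i => (hR i).neg
      obtain ⟨v, μ, hv, hlap⟩ := Crest.Agent.R273.CLin_933.lin_kah K P hR'
      refine ⟨⟨⟨fun y => v y - v x0, fun i => (hv i).sub contDiffOn_const, sub_self _⟩, -μ⟩,
        fun x => ?_⟩
      simp only
      rw [lapK_sub_const K hv, hlap x]
      ring)
  refine ⟨fun j => (f j).1.1, fun j => (f j).2, ?_, ?_, fun j => (f j).1.2.1,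
    fun j => (f j).1.2.2, fun J x => hf J x⟩
  · simp only [hf0]
  · simp only [hf0]

end

end Crest.Agent.R281.HKMov_478
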