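import Crest.Agent.R281.HKMovC_478
import Crest.Agent.R273.YauOpA_635

/-!
# R281 (S0424), YAU-AN (helper478), file D: Hölder bounds of the recursion

* `lin_boundK` : `Δ v = m - f`, `v x0 = 0` => `|v|_{2,1/2} ≤ C |f|_{1/2}`, `|m| ≤ |f|`
* `an_bound`   : the power series solution with bounds, uniform radius
-/

set_option autoImplicit false
set_option linter.unusedSectionVars false

open Polynomial Set Metric
open scoped ContDiff Matrix ComplexConjugate ComplexOrder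

namespace Crest.Agent.R281.HKMov_478

open Crest.Agent.R275.Geo Crest.Agent.R275.Core144 Crest.Agent.R275.GC293
open Crest.Agent.R273.Defs_333 Crest.Agent.R273.YauDefs_635 Crest.Agent.R273.HM_333
open Crest.Agent.R273.YauCh_635 Crest.Agent.R273.Hess_333 Crest.Agent.R273.HessB_333
open Crest.Agent.R273.Kah_333 Crest.Agent.R273.YauMax_635 Crest.Agent.R273.YauLoc_635
open Crest.Agent.R273.SchA_152 Crest.Agent.R273.SchD_152 Crest.Agent.R273.YauQ_635
open Crest.Agent.R273.Green_5 Crest.Agent.R273.GreenM_5 Crest.Agent.R273.FIb0_597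
open Crest.Agent.R273.SchG_152 Crest.Agent.R273.SchF_152 Crest.Agent.R273.SchH_152
open Crest.Agent.R273.YauSchF_635 Crest.Agent.R273.YauPf_635 Crest.Agent.R273.YauOpA_635
open Crest.Agent.R273.SchJ_152

noncomputable section

variable {n : ℕ} {M : Type} [TopologicalSpace M] {A : Atl n M}

theorem hf_inv_bound (K : Kah A) (Bc : Cb A) : ∃ V : ℝ, 0 ≤ V ∧ ∀ k b c,
    HO (1 / 2) V (closedBall (Bc.z k) (Bc.r k / 2)) (fun z => gi K (Bc.i k) z b c) := by
  have := Bc.fin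
  have h1 : ∀ p : Bc.κ × Fin n × Fin n, ∃ V, HO (1 / 2) V
      (closedBall (Bc.z p.1) (Bc.r p.1 / 2)) (fun z => gi K (Bc.i p.1) z p.2.1 p.2.2) := fun p =>
    ho_c1 (A.e (Bc.i p.1)).open_target
      ((Crest.Agent.R273.SchH_152.contDiffOn_inv K (Bc.i p.1) p.2.1 p.2.2).of_le (by simp))
      (by linarith [Bc.r1 p.1, Bc.r0 p.1]) (Bc.sub' p.1)
  choose V hV using h1
  obtain ⟨C, hC0, hC⟩ := exists_ub V
  exact ⟨C, hC0, fun k b c => (hV (k, b, c)).mono (hC _)⟩

/-- **linear estimate** -/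
theorem lin_boundK [T2Space M] [CompactSpace M] [ConnectedSpace M] [Finite A.ι] (P : Part A)
    (K : Kah A) (Bc : Cb A) : ∃ C : ℝ, 0 < C ∧ ∀ (x0 : M) (v f : M → ℝ) (m N : ℝ), A.Sm v →
      (∀ x, lapK K v x = m - f x) → Bc.NH (1 / 2) N f → v x0 = 0 →
      Bc.N2 (1 / 2) (C * N) v ∧ |m| ≤ N := by
  obtain ⟨C, hC, H⟩ := schauder0 P K Bc (a := 1 / 2) (by norm_num) (by norm_num)
  refine ⟨C * 2, by positivity, fun x0 v f m N hv hlap hN hx0 => ?_⟩
  have hread : ∀ i, ∀ z ∈ (A.e i).target,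
      ((gi K i z * cH (inC A i v) z).trace).re = m - f ((A.e i).symm z) := by
    intro i z hz
    have hx := (A.e i).map_target hz
    rw [← hlap, lapK_eq K hv hx, hsf_eq_cH hv hx, (A.e i).right_inv hz]
    rfl
  have h1 : IsLap (gi K) v (fun x => m - f x) := fun i z hz => hread i z hz
  have h2 : IsLap (gi K) v (fun x => (-f x) - (-m)) := fun i z hz => by
    rw [hread i z hz]
    simp only [inC]
    ring
  have hm : |m| ≤ N := by
    have := abs_const_le P K hv h2 (fun x => by rw [abs_neg]; exact hN.bdd x)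
    rwa [abs_neg] at this
  refine ⟨?_, hm⟩
  have h3 : Bc.NH (1 / 2) (2 * N) (fun x => m - f x) := by
    intro k
    refine ⟨fun z hz => ?_, fun z hz z' hz' => ?_⟩
    · have h4 := (hN k).bdd z hz
      rw [Real.norm_eq_abs] at h4 ⊢
      simp only [inC] at h4 ⊢
      have := abs_sub m (f ((A.e (Bc.i k)).symm z))
      linarith
    · have h4 := (hN k).hol z hz z' hz'
      simp only [inC] at h4 ⊢
      have e : m - f ((A.e (Bc.i k)).symm z) - (m - f ((A.e (Bc.i k)).symm z')) =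
          -(f ((A.e (Bc.i k)).symm z) - f ((A.e (Bc.i k)).symm z')) := by ring
      rw [e, norm_neg]
      refine h4.trans (mul_le_mul_of_nonneg_right ?_ (Real.rpow_nonneg (norm_nonneg _) _))
      have := hN.nonneg
      linarith
  refine (H x0 v _ (2 * N) hv h1 h3 hx0).mono (le_of_eq ?_)
  ring

/-- products with `K⁻¹` -/
theorem ho_inv_mul {K : Kah A} {i : A.ι} {s : Set (Cn n)} {V d : ℝ} (hV0 : 0 ≤ V) (hd : 0 ≤ d)
    (hV : ∀ b c, HO (1 / 2) V s (fun z => gi K i z b c))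
    {Y : A.ι → M → Matrix (Fin n) (Fin n) ℂ}
    (hY : ∀ b c, HO (1 / 2) d s (fun z => Y i ((A.e i).symm z) b c)) (b c : Fin n) :
    HO (1 / 2) ((n * (2 * V) + 1) * d) s (fun z =>
      ((K.g i ((A.e i).symm z))⁻¹ * Y i ((A.e i).symm z)) b c) := by
  simp only [Matrix.mul_apply]
  have h1 := ho_sum (Finset.univ : Finset (Fin n)) (a := 1 / 2) (M := 2 * V * d) (s := s)
    (f := fun l z => gi K i z b l * Y i ((A.e i).symm z) l c)
    (fun l _ => ho_mul hV0 hd (hV b l) (hY l c))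
  rw [Finset.card_univ, Fintype.card_fin] at h1
  refine (h1.mono ?_).congr fun z _ => rfl
  nlinarith

theorem n2_hsf {Bc : Cb A} {v : M → ℝ} (hv : A.Sm v) {d : ℝ} (h : Bc.N2 (1 / 2) d v) (k : Bc.κ)
    (b c : Fin n) : HO (1 / 2) d (closedBall (Bc.z k) (Bc.r k / 2))
      (fun z => hsf A v (Bc.i k) ((A.e (Bc.i k)).symm z) b c) := by
  refine (ho_cH (h k).h2 b c).congr fun z hz => ?_
  have hzt := Bc.sub' k hz
  rw [hsf_eq_cH hv ((A.e (Bc.i k)).map_target hzt), (A.e (Bc.i k)).right_inv hzt]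

/-- the bounded power series -/
structure AnS (K : Kah A) (Bc : Cb A) (B : ℕ → A.ι → M → Matrix (Fin n) (Fin n) ℂ) (x0 : M)
    (r η : ℝ) (w : ℕ → ℝ) where
  φ : ℕ → M → ℝ
  m : ℕ → ℝ
  a : ℕ → ℝ
  φ0 : φ 0 = fun _ => 0
  m0 : m 0 = 0
  a0 : a 0 = 0
  sm : ∀ j, A.Sm (φ j)
  nrm : ∀ j, φ j x0 = 0
  a_nn : ∀ j, 0 ≤ a j
  a_sum : ∀ J, ∑ j ∈ Finset.range (J + 1), a j * r ^ j ≤ η
  w_le : ∀ j, 1 ≤ j → w j ≤ a j
  n2 : ∀ j, Bc.N2 (1 / 2) (a j) (φ j)
  hm : ∀ j, |m j| ≤ a j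
  hoY : ∀ j, 1 ≤ j → ∀ k b c, HO (1 / 2) (a j) (closedBall (Bc.z k) (Bc.r k / 2))
    (fun z => Yf A B φ j (Bc.i k) ((A.e (Bc.i k)).symm z) b c)
  hoZ : ∀ j, 1 ≤ j → ∀ k b c, HO (1 / 2) (a j) (closedBall (Bc.z k) (Bc.r k / 2))
    (fun z => Zf K (Yf A B φ) (Bc.i k) ((A.e (Bc.i k)).symm z) j b c)
  eqn : ∀ J j, 1 ≤ j → j ≤ J → ∀ i, ∀ x ∈ (A.e i).source,
    (dt (Zf K (Yf A B φ) i x) J).coeff j = m j

/-- **existence with bounds, uniform radius** -/
theorem an_bound [T2Space M] [CompactSpace M] [ConnectedSpace M] [Finite A.ι] (P : Part A)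
    (K : Kah A) (Bc : Cb A) (x0 : M) {w : ℕ → ℝ} (hw : ∀ j, 0 ≤ w j) {ρ W : ℝ} (hρ : 0 < ρ)
    (hW : ∀ J, ∑ j ∈ Finset.range J, w (j + 1) * ρ ^ (j + 1) ≤ W) {η : ℝ} (hη : 0 < η) :
    ∃ r, 0 < r ∧ r ≤ ρ ∧ ∀ B : ℕ → A.ι → M → Matrix (Fin n) (Fin n) ℂ,
      (∀ j, 1 ≤ j → HF A (B j)) →
      (∀ j, 1 ≤ j → ∀ k b c, HO (1 / 2) (w j) (closedBall (Bc.z k) (Bc.r k / 2))
        (fun z => B j (Bc.i k) ((A.e (Bc.i k)).symm z) b c)) →
      Nonempty (AnS K Bc B x0 r η w) := by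
  obtain ⟨V, hV0, hV⟩ := hf_inv_bound K Bc
  obtain ⟨CS, hCS, hlin⟩ := lin_boundK P K Bc
  set CT : ℝ := max CS 1 with hCT
  have hCT1 : 1 ≤ CT := le_max_right _ _
  have hCT0 : 0 ≤ CT := by linarith
  set c1 : ℝ := n * (2 * V) + 1 with hc1
  have hc11 : 1 ≤ c1 := by
    rw [hc1]
    have : (0 : ℝ) ≤ n * (2 * V) := by positivity
    linarith
  have hc10 : 0 ≤ c1 := by linarith
  set D : ℝ := (n.factorial : ℝ) * 2 ^ n with hD
  have hD0 : 0 ≤ D := by positivity
  set e1 : ℝ := c1 + c1 * CT * (n * c1) with he1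
  have he10 : 0 ≤ e1 := by positivity
  set w' : ℕ → ℝ := fun j => e1 * w j with hw'
  have hw'0 : ∀ j, 0 ≤ w' j := fun j => mul_nonneg he10 (hw j)
  have hW' : ∀ J, ∑ j ∈ Finset.range J, w' (j + 1) * ρ ^ (j + 1) ≤ e1 * W := by
    intro J
    have : ∑ j ∈ Finset.range J, w' (j + 1) * ρ ^ (j + 1) =
        e1 * ∑ j ∈ Finset.range J, w (j + 1) * ρ ^ (j + 1) := by
      rw [Finset.mul_sum]
      exact Finset.sum_congr rfl fun j _ => by rw [hw']; ring
    rw [this]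
    exact mul_le_mul_of_nonneg_left (hW J) he10
  obtain ⟨r, hr0, hrρ, hmaj⟩ := maj_seq n (Cc := c1 * CT * D) (by positivity) hw'0 hρ hW' hη
  refine ⟨r, hr0, hrρ, fun B hB hwB => ?_⟩
  obtain ⟨φ, m, hφ0, hm0, hφ, hnrm, hrec⟩ := exists_rec P K x0 hB
  -- the majorant sequence
  obtain ⟨x, hx0, hx⟩ := exists_seq (α := ℝ) 0
    (fun x J a => a = c1 * CT * D * ((1 + Ap x J) ^ n).coeff (J + 1) + w' (J + 1))
    (fun f f' J a h ha => by
      have : Ap f J = Ap f' J := by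
        refine Finset.sum_congr rfl fun j hj => ?_
        rw [h j (Nat.lt_succ_iff.1 (Finset.mem_range.1 hj))]
      rw [ha, this])
    (fun f J => ⟨_, rfl⟩)
  obtain ⟨hxn, hxs⟩ := hmaj x hx0 hx
  -- sharper numbers
  set al : ℕ → ℝ := fun j => CT * (D * ((1 + Ap x (j - 1)) ^ n).coeff j + n * (c1 * w j)) with hal
  have hal0 : ∀ j, 0 ≤ al j := fun j => by
    refine mul_nonneg hCT0 (add_nonneg (mul_nonneg hD0 ?_) ?_)
    · exact (nn_one.add (Ap_nn fun k _ => hxn k)).pow n j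
    · exact mul_nonneg (Nat.cast_nonneg n) (mul_nonneg hc10 (hw j))
  have hxal : ∀ J, x (J + 1) = c1 * (w (J + 1) + al (J + 1)) := by
    intro J
    rw [hx J, hal, hw']
    simp only [Nat.add_sub_cancel, he1]
    ring
  have hwal : ∀ J, w (J + 1) + al (J + 1) ≤ x (J + 1) := by
    intro J
    rw [hxal J]
    have : 0 ≤ w (J + 1) + al (J + 1) := add_nonneg (hw _) (hal0 _)
    nlinarith
  have hBsm : ∀ j, 1 ≤ j → HF A (B j) := hB
  -- induction
  have key : ∀ J, (Bc.N2 (1 / 2) (al (J + 1)) (φ (J + 1)) ∧ |m (J + 1)| ≤ al (J + 1)) := by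
    intro J
    induction J using Nat.strong_induction_on with
    | _ J ih =>
      have hZ : ∀ j ≤ J, 1 ≤ j → ∀ k b c, HO (1 / 2) (x j) (closedBall (Bc.z k) (Bc.r k / 2))
          (fun z => Zf K (Yf A B φ) (Bc.i k) ((A.e (Bc.i k)).symm z) j b c) := by
        intro j hj hj1 k b c
        obtain ⟨j', rfl⟩ : ∃ j', j = j' + 1 := ⟨j - 1, by omega⟩
        have h1 := (ih j' (by omega)).1
        rw [hxal j']
        refine ho_inv_mul hV0 (add_nonneg (hw _) (hal0 _)) (hV k) (Y := Yf A B φ (j' + 1))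
          (fun b c => ?_) b c
        exact ((hwB (j' + 1) (by omega) k b c).add (n2_hsf (hφ _) h1 k b c)).congr
          fun z _ => rfl
      have hN : Bc.NH (1 / 2) (D * ((1 + Ap x J) ^ n).coeff (J + 1) + n * (c1 * w (J + 1)))
          (Rf K B φ J) := by
        intro k
        have h1 : HO (1 / 2) (D * ((1 + Ap x J) ^ n).coeff (J + 1))
            (closedBall (Bc.z k) (Bc.r k / 2)) (fun z =>
            ((dt (fun j => Zf K (Yf A B φ) (Bc.i k) ((A.e (Bc.i k)).symm z) j) J).coeff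
              (J + 1)).re) := by
          have h2 := Mj.dt (Z := fun j z => Zf K (Yf A B φ) (Bc.i k) ((A.e (Bc.i k)).symm z) j)
            (J := J) (x := x) (a := 1 / 2) (s := closedBall (Bc.z k) (Bc.r k / 2))
            (fun j _ => hxn j) (fun j hj hj1 b c => hZ j hj hj1 k b c) (J + 1)
          rw [coeff_C_mul] at h2
          exact ho_re h2
        have h3 : HO (1 / 2) (n * (c1 * w (J + 1))) (closedBall (Bc.z k) (Bc.r k / 2))
            (fun z => (((K.g (Bc.i k) ((A.e (Bc.i k)).symm z))⁻¹ *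
              B (J + 1) (Bc.i k) ((A.e (Bc.i k)).symm z)).trace).re) := by
          refine ho_re ?_
          simp only [Matrix.trace, Matrix.diag_apply]
          have h4 := ho_sum (Finset.univ : Finset (Fin n)) (a := 1 / 2) (M := c1 * w (J + 1))
            (s := closedBall (Bc.z k) (Bc.r k / 2))
            (f := fun l z => ((K.g (Bc.i k) ((A.e (Bc.i k)).symm z))⁻¹ *
              B (J + 1) (Bc.i k) ((A.e (Bc.i k)).symm z)) l l)
            (fun l _ => ho_inv_mul hV0 (hw _) (hV k) (Y := B (J + 1))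
              (fun b c => hwB (J + 1) (by omega) k b c) l l)
          rw [Finset.card_univ, Fintype.card_fin] at h4
          exact h4
        refine (h1.add h3).congr fun z hz => ?_
        have hx' := (A.e (Bc.i k)).map_target (Bc.sub' k hz)
        have h5 := congrArg Complex.re (cfn_eq K (hf_Yf hB hφ) hx' J (J + 1))
        have h6 := congrArg Complex.re (trK_hf K (hB (J + 1) (by omega)) hx')
        rw [Complex.ofReal_re] at h5 h6
        simp only [inC, Rf, h5, h6]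
      have h7 := hlin x0 (φ (J + 1)) (Rf K B φ J) (m (J + 1)) _ (hφ _) (hrec J) hN (hnrm _)
      have hN0 : 0 ≤ D * ((1 + Ap x J) ^ n).coeff (J + 1) + n * (c1 * w (J + 1)) := by
        refine add_nonneg (mul_nonneg hD0 ?_) ?_
        · exact (nn_one.add (Ap_nn fun k _ => hxn k)).pow n (J + 1)
        · exact mul_nonneg (Nat.cast_nonneg n) (mul_nonneg hc10 (hw _))
      have eal : al (J + 1) = CT * (D * ((1 + Ap x J) ^ n).coeff (J + 1) +
          n * (c1 * w (J + 1))) := by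
        simp only [hal, Nat.add_sub_cancel]
      rw [eal]
      refine ⟨h7.1.mono (mul_le_mul_of_nonneg_right (le_max_left _ _) hN0), h7.2.trans ?_⟩
      nlinarith
  have hN2 : ∀ j, Bc.N2 (1 / 2) (x j) (φ j) := by
    intro j
    rcases j with _ | J
    · rw [hφ0, hx0]
      exact fun k => c2a_zero
    · exact (key J).1.mono (by linarith [hwal J, hw (J + 1)])
  refine ⟨⟨φ, m, x, hφ0, hm0, hx0, hφ, hnrm, hxn, hxs, ?_, hN2, ?_, ?_, ?_, ?_⟩⟩
  · intro j hj
    obtain ⟨j', rfl⟩ : ∃ j', j = j' + 1 := ⟨j - 1, by omega⟩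
    linarith [hwal j', hal0 (j' + 1)]
  · intro j
    rcases j with _ | J
    · rw [hm0, hx0, abs_zero]
    · exact (key J).2.trans (by linarith [hwal J, hw (J + 1)])
  · intro j hj k b c
    obtain ⟨j', rfl⟩ : ∃ j', j = j' + 1 := ⟨j - 1, by omega⟩
    exact (((hwB (j' + 1) (by omega) k b c).add (n2_hsf (hφ _) (key j').1 k b c)).mono
      (hwal j')).congr fun z _ => rfl
  · intro j hj k b c
    obtain ⟨j', rfl⟩ : ∃ j', j = j' + 1 := ⟨j - 1, by omega⟩
    rw [hxal j']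
    refine ho_inv_mul hV0 (add_nonneg (hw _) (hal0 _)) (hV k) (Y := Yf A B φ (j' + 1))
      (fun b c => ?_) b c
    exact ((hwB (j' + 1) (by omega) k b c).add (n2_hsf (hφ _) (key j').1 k b c)).congr
      fun z _ => rfl
  · intro J j hj hjJ i y hy
    rw [dt_stable _ hjJ]
    obtain ⟨j', rfl⟩ : ∃ j', j = j' + 1 := ⟨j - 1, by omega⟩
    rw [dt_succ]
    have h1 := cfn_eq K (hf_Yf hB hφ) hy j' (j' + 1)
    have h2 : (Zf K (Yf A B φ) i y (j' + 1)).trace =
        ((K.g i y)⁻¹ * B (j' + 1) i y).trace + ((K.g i y)⁻¹ * hsf A (φ (j' + 1)) i y).trace := by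
      rw [Zf, Yf, Matrix.mul_add, Matrix.trace_add]
    have h3 := trK_hf K (hB (j' + 1) (by omega)) hy
    have h4 := trK_hf K (hf_hsf (hφ (j' + 1))) hy
    have h5 := hrec j' y
    rw [h2, ← h1, ← h3, ← h4]
    have h6 : (trK K (hsf A (φ (j' + 1))) y).re = lapK K (φ (j' + 1)) y := rfl
    rw [h6, h5, Rf]
    push_cast
    ring

end

end Crest.Agent.R281.HKMov_478
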