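import Crest.Agent.R281.HKMovD_478
import Crest.Agent.R281.HKMovE_478
import Crest.Agent.R281.KpE_487
import Crest.Agent.R281.HkR9_835

/-!
# R281 (S0424), YAU-AN (helper478), file F: local regularity

* `lev_pos_c2`  : `cH u z > 0` => `lev u z v > 0` (`C²` version)
* `reg_add`     : `G` smooth Hermitian closed, `v ∈ C^{2,a}`, `G + ∂∂̄v > 0`, `det (G + ∂∂̄v)` smooth
                  => `v` smooth
* `cHLc`        : `D²u ↦ cH u` as a continuous linear map; `cH_tsum`
-/

set_option autoImplicit false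
set_option linter.unusedSectionVars false

open Set Filter Topology Complex Metric
open scoped ContDiff Matrix ComplexConjugate ComplexOrder

namespace Crest.Agent.R281.HKMov_478

open Crest.Agent.R275.Geo Crest.Agent.R275.Core144 Crest.Agent.R275.GC293
open Crest.Agent.R275.EDR890
open Crest.Agent.R273.Defs_333 Crest.Agent.R273.YauDefs_635 Crest.Agent.R273.HM_333
open Crest.Agent.R273.YauCh_635 Crest.Agent.R273.Hess_333 Crest.Agent.R273.HessB_333
open Crest.Agent.R273.Kah_333 Crest.Agent.R273.YauMax_635 Crest.Agent.R273.YauLoc_635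
open Crest.Agent.R273.SchA_152 Crest.Agent.R273.SchD_152 Crest.Agent.R273.YauQ_635
open Crest.Agent.R273.YauSchF_635 Crest.Agent.R273.YauPf_635 Crest.Agent.R273.YauOpA_635
open Crest.Agent.R281.KpE_487 Crest.Agent.R281.KpD_487

noncomputable section

variable {n : ℕ}

/-- the quadratic form of `cH` -/
theorem lev_eq_cH {u : Cn n → ℝ} {z : Cn n} (hu : ContDiffAt ℝ 2 u z) (v : Cn n) :
    ((Crest.Agent.R273.Levi_145.lev u z v : ℝ) : ℂ) =
      star (fun a => conj (v a)) ⬝ᵥ (cH u z) *ᵥ (fun a => conj (v a)) := by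
  rw [Crest.Agent.R273.Levi_145.lev_eq hu v]
  simp only [dotProduct, Matrix.mulVec, Pi.star_apply, RCLike.star_def, Finset.mul_sum,
    Complex.conj_conj, cH_eq_hs hu]
  refine Finset.sum_congr rfl fun a _ => Finset.sum_congr rfl fun b _ => ?_
  ring

theorem lev_pos_c2 {u : Cn n → ℝ} {z : Cn n} (hu : ContDiffAt ℝ 2 u z) (h : (cH u z).PosDef)
    {v : Cn n} (hv : v ≠ 0) : 0 < lev u z v := by
  have h0 : (fun a => conj (v a)) ≠ 0 := by
    intro h1
    apply hv
    ext a
    have := congrFun h1 a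
    simpa using this
  have h1 := h.dotProduct_mulVec_pos h0
  have h2 := lev_eq_cH hu v
  rw [← h2] at h1
  rw [lev333_eq_lev145]
  have h3 : 0 < Crest.Agent.R273.Levi_145.lev u z v := by exact_mod_cast h1
  linarith

theorem cH_add_c2 {u v : Cn n → ℝ} {z : Cn n} (hu : ContDiffAt ℝ 2 u z)
    (hv : ContDiffAt ℝ 2 v z) : cH (fun w => u w + v w) z = cH u z + cH v z := by
  have h1 : fderiv ℝ (fderiv ℝ (fun w => u w + v w)) z =
      fderiv ℝ (fderiv ℝ u) z + fderiv ℝ (fderiv ℝ v) z := by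
    have e : fderiv ℝ (fun w => u w + v w) =ᶠ[𝓝 z] fun w => fderiv ℝ u w + fderiv ℝ v w := by
      filter_upwards [hu.eventually (by simp), hv.eventually (by simp)] with w hw hw'
      exact fderiv_fun_add (hw.differentiableAt (by norm_num)) (hw'.differentiableAt (by norm_num))
    have d1 : ∀ {f : Cn n → ℝ}, ContDiffAt ℝ 2 f z → DifferentiableAt ℝ (fderiv ℝ f) z := by
      intro f hf
      exact (hf.fderiv_right (m := 1) (by norm_num)).differentiableAt (by norm_num)
    rw [e.fderiv_eq, fderiv_fun_add (d1 hu) (d1 hv)]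
  ext a b
  simp only [cH, Matrix.of_apply, Matrix.add_apply, D2, h1, _root_.add_apply]
  push_cast
  ring

theorem fd2_add_c2 {u v : Cn n → ℝ} {z : Cn n} (hu : ContDiffAt ℝ 2 u z)
    (hv : ContDiffAt ℝ 2 v z) : fderiv ℝ (fderiv ℝ (fun w => u w + v w)) z =
      fderiv ℝ (fderiv ℝ u) z + fderiv ℝ (fderiv ℝ v) z := by
  have e : fderiv ℝ (fun w => u w + v w) =ᶠ[𝓝 z] fun w => fderiv ℝ u w + fderiv ℝ v w := by
    filter_upwards [hu.eventually (by simp), hv.eventually (by simp)] with w hw hw'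
    exact fderiv_fun_add (hw.differentiableAt (by norm_num)) (hw'.differentiableAt (by norm_num))
  have d1 : ∀ {f : Cn n → ℝ}, ContDiffAt ℝ 2 f z → DifferentiableAt ℝ (fderiv ℝ f) z := by
    intro f hf
    exact (hf.fderiv_right (m := 1) (by norm_num)).differentiableAt (by norm_num)
  rw [e.fderiv_eq, fderiv_fun_add (d1 hu) (d1 hv)]

theorem norm_add_sub_le {F : Type*} [NormedAddCommGroup F] (p q p' q' : F) {c d t : ℝ}
    (h : ‖p - p'‖ ≤ c * t) (h' : ‖q - q'‖ ≤ d * t) : ‖(p + q) - (p' + q')‖ ≤ (c + d) * t := by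
  have e : (p + q) - (p' + q') = (p - p') + (q - q') := by abel
  rw [e, add_mul]
  exact (norm_add_le _ _).trans (add_le_add h h')

/-- **local regularity** -/
theorem reg_add {U : Set (Cn n)} (hU : IsOpen U) {G : Cn n → Matrix (Fin n) (Fin n) ℂ}
    (hs : ∀ a b, ContDiffOn ℝ ∞ (fun w => G w a b) U)
    (hh : ∀ z ∈ U, (G z).IsHermitian)
    (hc : ∀ z ∈ U, ∀ a b c,
      wd (false, c) (fun w => G w a b) z = wd (false, a) (fun w => G w c b) z)
    (hc' : ∀ z ∈ U, ∀ a b c,
      wd (true, c) (fun w => G w a b) z = wd (true, b) (fun w => G w a c) z)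
    {v : Cn n → ℝ} (hv : ContDiffOn ℝ 2 v U) {S : ℝ}
    (hvH : HO (1 / 2) S U (fderiv ℝ (fderiv ℝ v))) {f : Cn n → ℝ} (hf : ContDiffOn ℝ ∞ f U)
    (hpos : ∀ z ∈ U, (G z + cH v z).PosDef) (hdet : ∀ z ∈ U, (G z + cH v z).det = (f z : ℂ)) :
    ContDiffOn ℝ ∞ v U := by
  intro z0 hz0
  refine ContDiffAt.contDiffWithinAt ?_
  obtain ⟨ρ, hρ, hρU⟩ := exists_PD_subset (hU.mem_nhds hz0)
  obtain ⟨s, hs0, hsρ, w, hw, hwG⟩ := ddbar_local hρ (fun a b => (hs a b).mono hρU)
    (fun z hz => hh z (hρU hz)) (fun z hz => hc z (hρU hz)) (fun z hz => hc' z (hρU hz))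
  have hsU : PD z0 s ⊆ U := fun z hz => hρU fun a => (hz a).trans_le hsρ
  set O : Set (Cn n) := PD z0 s with hO
  have hOo : IsOpen O := isOpen_PD _ _
  have hz0O : z0 ∈ O := mem_PD_self hs0
  have hcw : ∀ z ∈ O, cH w z = G z := fun z hz => by
    rw [cH_eq_hess hw.contDiffAt, hwG z hz]
  have hvat : ∀ z ∈ O, ContDiffAt ℝ 2 v z := fun z hz => hv.contDiffAt (hU.mem_nhds (hsU hz))
  have hwat : ∀ z, ContDiffAt ℝ 2 w z := fun z => hw.contDiffAt.of_le two_le_inf
  have hcu : ∀ z ∈ O, cH (fun y => w y + v y) z = G z + cH v z := fun z hz => by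
    rw [cH_add_c2 (hwat z) (hvat z hz), hcw z hz]
  have hfpos : ∀ z ∈ O, 0 < f z := fun z hz => by
    have h1 := (hpos z (hsU hz)).det_pos
    rw [hdet z (hsU hz)] at h1
    exact_mod_cast h1
  have hreg : ContDiffOn ℝ ∞ (fun y => w y + v y) O := by
    refine Crest.Agent.R273.CReg_933.reg_holds n O _ (fun z => Real.log (f z)) (1 / 2) hOo
      (by norm_num) (by norm_num) ((hw.of_le two_le_inf).contDiffOn.add (hv.mono hsU))
      ((hf.mono hsU).log fun z hz => (hfpos z hz).ne') (fun z hz => ?_) (fun z hz ξ hξ => ?_)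
      (fun z hz => ?_)
    · obtain ⟨δ, hδ, hδO⟩ := Metric.isOpen_iff.1 hOo z hz
      set R : ℝ := min (δ / 2) 1 with hR
      have hR0 : 0 < R := lt_min (by linarith) one_pos
      have hRδ : closedBall z R ⊆ O := fun y hy => hδO (by
        rw [mem_closedBall] at hy
        rw [mem_ball]
        have := min_le_left (δ / 2) 1
        linarith)
      obtain ⟨V, hV⟩ := ho_smooth (u := w) isOpen_univ hw.contDiffOn (min_le_right _ _ : R ≤ 1)
        (subset_univ (closedBall z R))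
      refine ⟨R, hR0, V + S, ball_subset_closedBall.trans hRδ, fun x hx y hy => ?_⟩
      have hxO := hRδ (ball_subset_closedBall hx)
      have hyO := hRδ (ball_subset_closedBall hy)
      rw [fd2_add_c2 (hwat x) (hvat x hxO), fd2_add_c2 (hwat y) (hvat y hyO)]
      have h1 := hV.hol x (ball_subset_closedBall hx) y (ball_subset_closedBall hy)
      have h2 := hvH.hol x (hsU hxO) y (hsU hyO)
      exact norm_add_sub_le (F := Cn n →L[ℝ] Cn n →L[ℝ] ℝ) _ _ _ _ h1 h2
    · refine lev_pos_c2 ((hwat z).add (hvat z hz)) ?_ hξ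
      rw [hcu z hz]
      exact hpos z (hsU hz)
    · rw [hcu z hz, hdet z (hsU hz), Real.exp_log (hfpos z hz)]
  have h1 : ContDiffAt ℝ ∞ (fun y => w y + v y) z0 := hreg.contDiffAt (hOo.mem_nhds hz0O)
  have h2 := h1.sub hw.contDiffAt
  refine h2.congr_of_eventuallyEq (Eventually.of_forall fun y => ?_)
  simp

/-- `D²u ↦ cH u` -/
def cHLc (a b : Fin n) : (Cn n →L[ℝ] Cn n →L[ℝ] ℝ) →L[ℝ] ℂ :=
  LinearMap.mkContinuous
    { toFun := cHL a b
      map_add' := fun Q Q' => by
        simp only [cHL, _root_.add_apply]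
        push_cast
        ring
      map_smul' := fun c Q => by
        simp only [cHL, _root_.smul_apply, smul_eq_mul, RingHom.id_apply, Complex.real_smul]
        push_cast
        ring } 1 (fun Q => cHL_le a b Q)

theorem cHLc_apply (a b : Fin n) (Q : Cn n →L[ℝ] Cn n →L[ℝ] ℝ) : cHLc a b Q = cHL a b Q := rfl

theorem cH_eq_cHLc (u : Cn n → ℝ) (z : Cn n) (a b : Fin n) :
    cH u z a b = cHLc a b (fderiv ℝ (fderiv ℝ u) z) := rfl

end

end Crest.Agent.R281.HKMov_478
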