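import Crest.Agent.R281.HKMovF_478

/-!
# R281 (S0424), YAU-AN (helper478), file G: the sum of the series

For `S : AnS K Bc B x0 r η w` and real `|s| < r`:
* `S.ps s = ∑ s^j φ_j`, `S.ms s = ∑ s^j m_j`
* `ps_c2`, `ps_ho`     : `C^{2,1/2}`, derivatives term by term
* `det_ps`             : `det (G_s + ∂∂̄ ps) = (1 + ms) det K`, `G_s = K + ∑ s^j B_j`
* `pos_ps`, `ps_sm`    : positivity and smoothness for small `η`
-/

set_option autoImplicit false
set_option linter.unusedSectionVars false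

open Set Filter Topology Complex Metric
open scoped ContDiff Matrix ComplexConjugate ComplexOrder

namespace Crest.Agent.R281.HKMov_478

open Crest.Agent.R275.Geo Crest.Agent.R275.Core144 Crest.Agent.R275.GC293
open Crest.Agent.R275.EDR890
open Crest.Agent.R273.Defs_333 Crest.Agent.R273.YauDefs_635 Crest.Agent.R273.HM_333
open Crest.Agent.R273.YauCh_635 Crest.Agent.R273.Hess_333 Crest.Agent.R273.HessB_333
open Crest.Agent.R273.Kah_333 Crest.Agent.R273.YauMax_635 Crest.Agent.R273.YauLoc_635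
open Crest.Agent.R273.SchA_152 Crest.Agent.R273.SchD_152 Crest.Agent.R273.YauQ_635
open Crest.Agent.R273.YauSchF_635 Crest.Agent.R273.YauPf_635 Crest.Agent.R273.YauOpA_635
open Crest.Agent.R273.SchF_152 Crest.Agent.R273.SchE_152 Crest.Agent.R273.SchG_152

noncomputable section

variable {n : ℕ} {M : Type} [TopologicalSpace M] {A : Atl n M}

theorem fd_cmul (c : ℝ) (f : Cn n → ℝ) : fderiv ℝ (fun z => c * f z) = fun z => c • fderiv ℝ f z := by
  funext z
  exact congrFun (congrArg _ (rfl : (fun z => c * f z) = c • f)) z |>.trans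
    (congrFun (fderiv_const_smul_field (f := f) c) z)

theorem fd2_cmul (c : ℝ) (f : Cn n → ℝ) :
    fderiv ℝ (fderiv ℝ (fun z => c * f z)) = fun z => c • fderiv ℝ (fderiv ℝ f) z := by
  rw [fd_cmul]
  funext z
  exact congrFun (congrArg _ (rfl : (fun z => c • fderiv ℝ f z) = c • fderiv ℝ f)) z |>.trans
    (congrFun (fderiv_const_smul_field (f := fderiv ℝ f) c) z)

theorem ho_smulr {X F : Type*} [NormedAddCommGroup X] [NormedAddCommGroup F] [NormedSpace ℝ F]
    {a N : ℝ} {s : Set X} {f : X → F} (c : ℝ) (h : HO a N s f) :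
    HO a (|c| * N) s (fun z => c • f z) := by
  refine ⟨fun z hz => ?_, fun z hz w hw => ?_⟩
  · rw [norm_smul, Real.norm_eq_abs]
    exact mul_le_mul_of_nonneg_left (h.bdd z hz) (abs_nonneg _)
  · rw [← smul_sub, norm_smul, Real.norm_eq_abs, mul_assoc]
    exact mul_le_mul_of_nonneg_left (h.hol z hz w hw) (abs_nonneg _)

theorem norm_pow_smul_le {F : Type*} [NormedAddCommGroup F] [NormedSpace ℝ F] (s : ℝ) (j : ℕ)
    (q : F) {a : ℝ} (h : ‖q‖ ≤ a) : ‖s ^ j • q‖ ≤ |s| ^ j * a := by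
  rw [norm_smul, norm_pow, Real.norm_eq_abs]
  exact mul_le_mul_of_nonneg_left h (by positivity)

theorem hasSum_clm {F : Type*} [NormedAddCommGroup F] [NormedSpace ℝ F] [CompleteSpace F]
    (L : F →L[ℝ] ℂ) {s : ℝ} {q : ℕ → F} {a : ℕ → ℝ} (ha : Summable fun j => |s| ^ j * a j)
    (h : ∀ j, ‖q j‖ ≤ a j) : HasSum (fun j => (s : ℂ) ^ j * L (q j)) (L (∑' j, s ^ j • q j)) := by
  have h1 : Summable fun j => s ^ j • q j :=
    Summable.of_norm_bounded ha fun j => norm_pow_smul_le s j _ (h j)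
  have h2 := L.hasSum h1.hasSum
  refine h2.congr_fun ?_
  intro j
  rw [map_smul, Complex.real_smul]
  push_cast
  rfl

namespace AnS

variable {K : Kah A} {Bc : Cb A} {B : ℕ → A.ι → M → Matrix (Fin n) (Fin n) ℂ} {x0 : M}
  {r η : ℝ} {w : ℕ → ℝ}

/-- the sum of the series -/
def ps (S : AnS K Bc B x0 r η w) (s : ℝ) (x : M) : ℝ := ∑' j, s ^ j * S.φ j x

/-- the sum of the constants -/
def ms (S : AnS K Bc B x0 r η w) (s : ℝ) : ℝ := ∑' j, s ^ j * S.m j

variable (S : AnS K Bc B x0 r η w) {s : ℝ}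

theorem summ (hr : 0 < r) : Summable fun j => S.a j * r ^ j :=
  summable_of_bd hr.le S.a_nn S.a_sum

theorem summ_s (hr : 0 < r) (hs : |s| ≤ r) : Summable fun j => |s| ^ j * S.a j := by
  refine Summable.of_nonneg_of_le (fun j => mul_nonneg (by positivity) (S.a_nn j)) (fun j => ?_)
    (S.summ hr)
  rw [mul_comm]
  exact mul_le_mul_of_nonneg_left (pow_le_pow_left₀ (abs_nonneg _) hs _) (S.a_nn j)

theorem tsum_le (hr : 0 < r) (hs : |s| ≤ r) : ∑' j, |s| ^ j * S.a j ≤ η := by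
  have h1 : ∑' j, S.a j * r ^ j ≤ η := by
    refine (S.summ hr).tsum_le_of_sum_range_le fun N => ?_
    rcases N with _ | N
    · have h0 := S.a_sum 0
      simp only [Finset.range_zero, Finset.sum_empty]
      have h1 : 0 ≤ ∑ j ∈ Finset.range (0 + 1), S.a j * r ^ j :=
        Finset.sum_nonneg fun j _ => mul_nonneg (S.a_nn j) (by positivity)
      linarith
    · exact S.a_sum N
  refine ((S.summ_s hr hs).tsum_le_tsum (fun j => ?_) (S.summ hr)).trans h1
  rw [mul_comm]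
  exact mul_le_mul_of_nonneg_left (pow_le_pow_left₀ (abs_nonneg _) hs _) (S.a_nn j)

theorem eta_nonneg (S : AnS K Bc B x0 r η w) (hr : 0 < r) : 0 ≤ η := by
  have h1 := S.a_sum 0
  have : 0 ≤ ∑ j ∈ Finset.range (0 + 1), S.a j * r ^ j :=
    Finset.sum_nonneg fun j _ => mul_nonneg (S.a_nn j) (by positivity)
  linarith

/-- the sum is `C²` in the chart balls, derivatives term by term -/
theorem ps_c2 (hr : 0 < r) (hs : |s| ≤ r) (k : Bc.κ) :
    ContDiffOn ℝ 2 (inC A (Bc.i k) (S.ps s)) (ball (Bc.z k) (Bc.r k / 2)) ∧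
      (∀ z ∈ ball (Bc.z k) (Bc.r k / 2), fderiv ℝ (inC A (Bc.i k) (S.ps s)) z =
        ∑' j, s ^ j • fderiv ℝ (inC A (Bc.i k) (S.φ j)) z) ∧
      ∀ z ∈ ball (Bc.z k) (Bc.r k / 2), fderiv ℝ (fderiv ℝ (inC A (Bc.i k) (S.ps s))) z =
        ∑' j, s ^ j • fderiv ℝ (fderiv ℝ (inC A (Bc.i k) (S.φ j))) z := by
  set O : Set (Cn n) := ball (Bc.z k) (Bc.r k / 2) with hO
  have hOB : O ⊆ closedBall (Bc.z k) (Bc.r k / 2) := ball_subset_closedBall
  set u : ℕ → Cn n → ℝ := fun j z => s ^ j * inC A (Bc.i k) (S.φ j) z with hu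
  have hb : ∀ (c : ℝ), |c| ≤ c → 0 ≤ c := fun c h => (abs_nonneg c).trans h
  have hc2 : ∀ j, ContDiffOn ℝ 2 (u j) O := fun j =>
    contDiffOn_const.mul (((inC_smooth (S.sm j) (Bc.i k)).of_le two_le_inf).mono
      (hOB.trans (Bc.sub' k)))
  obtain ⟨g1, g2, g3⟩ := sum_c2 isOpen_ball hc2 (S.summ_s hr hs)
    (fun j z hz => by
      simp only [hu]
      rw [norm_mul, norm_pow, Real.norm_eq_abs]
      exact mul_le_mul_of_nonneg_left ((S.n2 j k).h0.bdd z (hOB hz)) (by positivity))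
    (fun j z hz => by
      simp only [hu]
      rw [fd_cmul]
      exact norm_pow_smul_le (F := Cn n →L[ℝ] ℝ) s j _ ((S.n2 j k).h1.bdd z (hOB hz)))
    (fun j z hz => by
      simp only [hu]
      rw [fd2_cmul]
      exact norm_pow_smul_le (F := Cn n →L[ℝ] Cn n →L[ℝ] ℝ) s j _ ((S.n2 j k).h2.bdd z (hOB hz)))
  refine ⟨g1, fun z hz => ?_, fun z hz => ?_⟩
  · refine (g2 z hz).trans ?_
    refine tsum_congr fun j => ?_
    simp only [hu]
    rw [fd_cmul]
  · refine (g3 z hz).trans ?_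
    refine tsum_congr fun j => ?_
    simp only [hu]
    rw [fd2_cmul]

theorem ps_ho (hr : 0 < r) (hs : |s| ≤ r) (k : Bc.κ) :
    HO (1 / 2) η (ball (Bc.z k) (Bc.r k / 2))
      (fderiv ℝ (fderiv ℝ (inC A (Bc.i k) (S.ps s)))) := by
  obtain ⟨-, -, g3⟩ := S.ps_c2 hr hs k
  have h1 := ho_tsum (s := ball (Bc.z k) (Bc.r k / 2)) (al := 1 / 2) (S := η)
    (f := fun j z => s ^ j • fderiv ℝ (fderiv ℝ (inC A (Bc.i k) (S.φ j))) z)
    (S.summ_s hr hs) (S.tsum_le hr hs) (fun j => by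
      have h2 := ho_smulr (s ^ j) ((S.n2 j k).h2.subset (ball_subset_closedBall))
      rwa [abs_pow] at h2)
  exact h1.congr g3

/-- the Hessian of the sum -/
theorem cH_ps (hr : 0 < r) (hs : |s| ≤ r) (k : Bc.κ) {z : Cn n}
    (hz : z ∈ ball (Bc.z k) (Bc.r k / 2)) (b c : Fin n) :
    HasSum (fun j => (s : ℂ) ^ j * cH (inC A (Bc.i k) (S.φ j)) z b c)
      (cH (inC A (Bc.i k) (S.ps s)) z b c) := by
  obtain ⟨-, -, g3⟩ := S.ps_c2 hr hs k
  have h2 := hasSum_clm (F := Cn n →L[ℝ] Cn n →L[ℝ] ℝ) (cHLc b c) (s := s)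
    (q := fun j => fderiv ℝ (fderiv ℝ (inC A (Bc.i k) (S.φ j))) z) (S.summ_s hr hs)
    (fun j => (S.n2 j k).h2.bdd z (ball_subset_closedBall hz))
  rw [← g3 z hz] at h2
  exact h2

end AnS

end

end Crest.Agent.R281.HKMov_478
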