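import Crest.Agent.R281.HKMovG_478

/-!
# R281 (S0424), YAU-AN (helper478), file H: the metrics

* `K11.addH G u`  : `G + i ∂∂̄u`;  `K11.lin K H s` : `K + s H`
* `AnS.det_ps`    : `det (G_s + ∂∂̄ ps) = (1 + ms) det K`
* `AnS.pos_ps`, `AnS.sm_ps` : positivity and smoothness
* **`yau_an`**
-/

set_option autoImplicit false
set_option linter.unusedSectionVars false

open Set Filter Topology Complex Metric
open scoped ContDiff Matrix ComplexConjugate ComplexOrder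

namespace Crest.Agent.R281.HKMov_478

open Crest.Agent.R275.Geo Crest.Agent.R275.Core144 Crest.Agent.R275.GC293
open Crest.Agent.R275.EDR890
open Crest.Agent.R273.Defs_333 Crest.Agent.R273.YauDefs_635 Crest.Agent.R273.HM_333
open Crest.Agent.R273.YauCh_635 Crest.Agent.R273.Hess_333 Crest.Agent.R273.HessB_333
open Crest.Agent.R273.Kah_333 Crest.Agent.R273.YauMax_635 Crest.Agent.R273.YauLoc_635
open Crest.Agent.R273.SchA_152 Crest.Agent.R273.SchD_152 Crest.Agent.R273.YauQ_635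
open Crest.Agent.R273.YauSchF_635 Crest.Agent.R273.YauPf_635 Crest.Agent.R273.YauOpA_635
open Crest.Agent.R273.SchF_152 Crest.Agent.R273.SchE_152 Crest.Agent.R273.SchG_152
open Crest.Agent.R273.Vol_333 (addK Yau volK det_real det_re_pos)
open Crest.Agent.R281.HkR_835 (K11 ofKah)

noncomputable section

variable {n : ℕ} {M : Type} [TopologicalSpace M] {A : Atl n M}

/-! ### operations on `K11` -/

theorem k11_hf (G : K11 A) : HF A G.g := ⟨⟨G.sm, G.tr⟩, G.herm⟩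

/-- `G + i ∂∂̄u` -/
def addH (G : K11 A) (u : M → ℝ) (hu : A.Sm u) : K11 A where
  g i x := G.g i x + hsf A u i x
  sm i a b := by
    have h1 : ContDiffOn ℝ ∞ (fun z => hsf A u i ((A.e i).symm z) a b) (A.e i).target := by
      refine (contDiffOn_hess (A.e i).open_target (hu i) a b).congr fun z hz => ?_
      simp only [hsf_read u i hz]
    exact (G.sm i a b).add h1
  herm i x hx := (G.herm i x hx).add ((hf_hsf hu).herm i x hx)
  tr i j x hx := by
    rw [hsf_tr hu hx, G.tr i j x hx, Matrix.mul_add, Matrix.add_mul]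
  closed i z hz a b c := by
    have hr : ∀ a, (fun w => (G.g i ((A.e i).symm w) + hsf A u i ((A.e i).symm w)) a b) =ᶠ[𝓝 z]
        fun w => G.g i ((A.e i).symm w) a b + hess (fun z => u ((A.e i).symm z)) w a b := by
      intro a
      filter_upwards [(A.e i).open_target.mem_nhds hz] with w hw
      rw [Matrix.add_apply, hsf_read u i hw]
    have hK : ∀ a, DifferentiableAt ℝ (fun w => G.g i ((A.e i).symm w) a b) z := fun a =>
      ((G.sm i a b).contDiffAt ((A.e i).open_target.mem_nhds hz)).differentiableAt (by simp)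
    have hU : ∀ a, DifferentiableAt ℝ (fun w => hess (fun z => u ((A.e i).symm z)) w a b) z :=
      fun a => (contDiffAt_hess (sm_contDiffAt hu i hz) a b).differentiableAt (by simp)
    rw [wd_congr (hr a), wd_congr (hr c), wd_add (hK a) (hU a), wd_add (hK c) (hU c),
      G.closed i z hz, wd_hess (sm_contDiffAt hu i hz)]

/-- `K + s H` -/
def linK (K : Kah A) (H : K11 A) (s : ℝ) : K11 A where
  g i x := K.g i x + (s : ℂ) • H.g i x
  sm i a b := (K.sm i a b).add (contDiffOn_const.mul (H.sm i a b))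
  herm i x hx := by
    refine (K.pos i x hx).1.add ?_
    unfold Matrix.IsHermitian
    rw [Matrix.conjTranspose_smul, (H.herm i x hx).eq, Complex.star_def, Complex.conj_ofReal]
  tr i j x hx := by
    rw [K.tr i j x hx, H.tr i j x hx, Matrix.mul_add, Matrix.add_mul, Matrix.mul_smul,
      Matrix.smul_mul]
  closed i z hz a b c := by
    have hK : ∀ a, DifferentiableAt ℝ (fun w => K.g i ((A.e i).symm w) a b) z := fun a =>
      ((K.sm i a b).contDiffAt ((A.e i).open_target.mem_nhds hz)).differentiableAt (by simp)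
    have hH : ∀ a, DifferentiableAt ℝ (fun w => H.g i ((A.e i).symm w) a b) z := fun a =>
      ((H.sm i a b).contDiffAt ((A.e i).open_target.mem_nhds hz)).differentiableAt (by simp)
    have hr : ∀ a, (fun w => (K.g i ((A.e i).symm w) + (s : ℂ) • H.g i ((A.e i).symm w)) a b) =
        fun w => K.g i ((A.e i).symm w) a b + (s : ℂ) * H.g i ((A.e i).symm w) a b := fun a => rfl
    have hs : ∀ e (f : Cn n → ℂ), DifferentiableAt ℝ f z →
        wd e (fun w => (s : ℂ) * f w) z = (s : ℂ) * wd e f z := fun e f hf =>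
      wd_const_smul (s : ℂ) hf e
    rw [hr a, hr c, wd_add (hK a) ((hH a).const_mul _), wd_add (hK c) ((hH c).const_mul _),
      hs _ _ (hH a), hs _ _ (hH c), K.closed i z hz, H.closed i z hz]

/-! ### positivity -/

theorem posDef_add {G X : Matrix (Fin n) (Fin n) ℂ} {lo hi η : ℝ} (h : EllC lo hi G)
    (hX : X.IsHermitian) (hη : 0 ≤ η) (hb : ∀ b c, ‖X b c‖ ≤ η) (hlt : n * η < lo) :
    (G + X).PosDef := by
  refine Matrix.PosDef.of_dotProduct_mulVec_pos (h.1.add hX) fun ζ hζ => ?_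
  have hS : 0 < ∑ a, ‖ζ a‖ ^ 2 := by
    obtain ⟨a, ha⟩ := Function.ne_iff.1 hζ
    refine lt_of_lt_of_le (by positivity : 0 < ‖ζ a‖ ^ 2)
      (Finset.single_le_sum (f := fun a => ‖ζ a‖ ^ 2) (fun b _ => by positivity)
        (Finset.mem_univ a))
  have h1 : |(star ζ ⬝ᵥ (X *ᵥ ζ)).re| ≤ n * η * ∑ a, ‖ζ a‖ ^ 2 := by
    refine (Complex.abs_re_le_norm _).trans ?_
    simp only [dotProduct, Matrix.mulVec, Pi.star_apply, Finset.mul_sum]
    refine (norm_sum_le_of_le (f := fun a => ∑ b, star (ζ a) * (X a b * ζ b))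
      (n := fun a => ∑ b, η * (‖ζ a‖ ^ 2 / 2 + ‖ζ b‖ ^ 2 / 2)) _ fun a _ =>
      norm_sum_le_of_le _ fun b _ => ?_).trans (le_of_eq ?_)
    · rw [norm_mul, norm_mul, norm_star]
      have h2 := mul_le_mul_of_nonneg_right (hb a b)
        (mul_nonneg (norm_nonneg (ζ a)) (norm_nonneg (ζ b)))
      have h3 : ‖ζ a‖ * ‖ζ b‖ ≤ ‖ζ a‖ ^ 2 / 2 + ‖ζ b‖ ^ 2 / 2 := by
        nlinarith [sq_nonneg (‖ζ a‖ - ‖ζ b‖)]
      calc ‖ζ a‖ * (‖X a b‖ * ‖ζ b‖) = ‖X a b‖ * (‖ζ a‖ * ‖ζ b‖) := by ring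
        _ ≤ η * (‖ζ a‖ * ‖ζ b‖) := h2
        _ ≤ _ := mul_le_mul_of_nonneg_left h3 hη
    · simp only [← Finset.mul_sum, Finset.sum_add_distrib, Finset.sum_const, Finset.card_univ,
        Fintype.card_fin, nsmul_eq_mul, ← Finset.sum_div]
      ring
  have h2 := (h.2 ζ).1
  have h3 : (star ζ ⬝ᵥ ((G + X) *ᵥ ζ)).re =
      (star ζ ⬝ᵥ (G *ᵥ ζ)).re + (star ζ ⬝ᵥ (X *ᵥ ζ)).re := by
    rw [Matrix.add_mulVec, dotProduct_add, Complex.add_re]
  have h4 : (star ζ ⬝ᵥ ((G + X) *ᵥ ζ)).im = 0 := by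
    have := (h.1.add hX).im_star_dotProduct_mulVec_self ζ
    simpa using this
  refine Complex.pos_iff.2 ⟨?_, h4.symm⟩
  rw [h3]
  have h5 := neg_abs_le (star ζ ⬝ᵥ (X *ᵥ ζ)).re
  have h6 : n * η * ∑ a, ‖ζ a‖ ^ 2 < lo * ∑ a, ‖ζ a‖ ^ 2 := mul_lt_mul_of_pos_right hlt hS
  linarith

/-- uniform lower bound on the balls -/
theorem exists_lo (K : Kah A) (Bc : Cb A) : ∃ lo hi : ℝ, 0 < lo ∧
    ∀ k, ∀ z ∈ closedBall (Bc.z k) (Bc.r k / 2), EllC lo hi (K.g (Bc.i k) ((A.e (Bc.i k)).symm z)) := by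
  have := Bc.fin
  have h1 : ∀ k, ∃ lo hi : ℝ, 0 < lo ∧ lo ≤ hi ∧ ∀ z ∈ closedBall (Bc.z k) (Bc.r k / 2),
      EllC lo hi (K.g (Bc.i k) ((A.e (Bc.i k)).symm z)) := fun k =>
    exists_ell (isCompact_closedBall _ _)
      (fun a b => ((K.sm (Bc.i k) a b).continuousOn).mono (Bc.sub' k))
      (fun z hz => K.pos _ _ ((A.e (Bc.i k)).map_target (Bc.sub' k hz)))
  choose lo hi h0 _ h using h1
  obtain ⟨l, hl, hlk⟩ := exists_pos_lb h0
  obtain ⟨u, hu, huk⟩ := exists_ub hi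
  exact ⟨l, u, hl, fun k z hz => Crest.Agent.R273.SchG_152.EllC.mono (h k z hz) (hlk k) (huk k)⟩

/-! ### the sum -/

theorem cH_herm_c2 {v : Cn n → ℝ} {z : Cn n} (hv : ContDiffAt ℝ 2 v z) : (cH v z).IsHermitian := by
  ext a b
  rw [Matrix.conjTranspose_apply, cH_eq_hs hv, cH_eq_hs hv]
  exact Crest.Agent.R273.Levi_145.hs_herm hv b a

/-- `∑_{j ≥ 1} s^j B_j = G - K` on the sources -/
def IsSum (K : Kah A) (B : ℕ → K11 A) (s : ℝ) (G : K11 A) : Prop :=
  ∀ i, ∀ x ∈ (A.e i).source, ∀ b c,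
    HasSum (fun j => (s : ℂ) ^ (j + 1) * (B (j + 1)).g i x b c) (G.g i x b c - K.g i x b c)

namespace AnS

variable {K : Kah A} {Bc : Cb A} {B : ℕ → K11 A} {x0 : M} {r η : ℝ} {w : ℕ → ℝ} {s : ℝ}
  {G : K11 A}

theorem hsf_ps (S : AnS K Bc (fun j => (B j).g) x0 r η w) (hr : 0 < r) (hs : |s| ≤ r) (k : Bc.κ)
    {z : Cn n} (hz : z ∈ ball (Bc.z k) (Bc.r k / 2)) (b c : Fin n) :
    HasSum (fun j => (s : ℂ) ^ (j + 1) * hsf A (S.φ (j + 1)) (Bc.i k) ((A.e (Bc.i k)).symm z) b c)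
      (cH (inC A (Bc.i k) (S.ps s)) z b c) := by
  have hzt : z ∈ (A.e (Bc.i k)).target := Bc.sub' k (ball_subset_closedBall hz)
  have h1 := S.cH_ps hr hs k hz b c
  have e : ∀ j, cH (inC A (Bc.i k) (S.φ j)) z b c =
      hsf A (S.φ j) (Bc.i k) ((A.e (Bc.i k)).symm z) b c := fun j => by
    rw [hsf_eq_cH (S.sm j) ((A.e (Bc.i k)).map_target hzt), (A.e (Bc.i k)).right_inv hzt]
  simp only [e] at h1
  have h2 := (hasSum_nat_add_iff' 1).2 h1
  rw [Finset.sum_range_one, S.φ0, hsf_zero] at h2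
  simpa using h2

/-- the entries of `G_s + ∂∂̄ ps - K` -/
theorem sum_Y (S : AnS K Bc (fun j => (B j).g) x0 r η w) (hr : 0 < r) (hs : |s| ≤ r)
    (hG : IsSum K B s G) (k : Bc.κ)
    {z : Cn n} (hz : z ∈ ball (Bc.z k) (Bc.r k / 2)) (b c : Fin n) :
    HasSum (fun j => (s : ℂ) ^ (j + 1) * Yf A (fun j => (B j).g) S.φ (j + 1) (Bc.i k)
        ((A.e (Bc.i k)).symm z) b c)
      ((G.g (Bc.i k) ((A.e (Bc.i k)).symm z) + cH (inC A (Bc.i k) (S.ps s)) z -
        K.g (Bc.i k) ((A.e (Bc.i k)).symm z)) b c) := by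
  have hzt : z ∈ (A.e (Bc.i k)).target := Bc.sub' k (ball_subset_closedBall hz)
  have h1 := (hG (Bc.i k) _ ((A.e (Bc.i k)).map_target hzt) b c).add (S.hsf_ps hr hs k hz b c)
  have e : (G.g (Bc.i k) ((A.e (Bc.i k)).symm z) + cH (inC A (Bc.i k) (S.ps s)) z -
        K.g (Bc.i k) ((A.e (Bc.i k)).symm z)) b c =
      G.g (Bc.i k) ((A.e (Bc.i k)).symm z) b c - K.g (Bc.i k) ((A.e (Bc.i k)).symm z) b c +
        cH (inC A (Bc.i k) (S.ps s)) z b c := by
    rw [Matrix.sub_apply, Matrix.add_apply]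
    ring
  rw [e]
  refine h1.congr_fun fun j => ?_
  rw [Yf, Matrix.add_apply]
  ring

theorem ent_le (S : AnS K Bc (fun j => (B j).g) x0 r η w) (hr : 0 < r) (hs : |s| ≤ r)
    (hG : IsSum K B s G) (k : Bc.κ)
    {z : Cn n} (hz : z ∈ ball (Bc.z k) (Bc.r k / 2)) (b c : Fin n) :
    ‖(G.g (Bc.i k) ((A.e (Bc.i k)).symm z) + cH (inC A (Bc.i k) (S.ps s)) z -
        K.g (Bc.i k) ((A.e (Bc.i k)).symm z)) b c‖ ≤ η := by
  have h1 := S.sum_Y hr hs hG k hz b c
  have h2 : Summable fun j => |s| ^ (j + 1) * S.a (j + 1) :=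
    (summable_nat_add_iff (f := fun j => |s| ^ j * S.a j) 1).2 (S.summ_s hr hs)
  rw [← h1.tsum_eq]
  refine (tsum_of_norm_bounded h2.hasSum fun j => ?_).trans ?_
  · rw [norm_mul, norm_pow, Complex.norm_real, Real.norm_eq_abs]
    exact mul_le_mul_of_nonneg_left
      ((S.hoY (j + 1) (by omega) k b c).bdd z (ball_subset_closedBall hz)) (by positivity)
  · have h3 := (S.summ_s hr hs).sum_add_tsum_nat_add 1
    rw [Finset.sum_range_one] at h3
    have h4 := S.tsum_le hr hs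
    have h5 : 0 ≤ |s| ^ 0 * S.a 0 := mul_nonneg (by positivity) (S.a_nn 0)
    linarith

theorem det_ps (S : AnS K Bc (fun j => (B j).g) x0 r η w) (hr : 0 < r) (hs : |s| < r)
    (hG : IsSum K B s G) (k : Bc.κ)
    {z : Cn n} (hz : z ∈ ball (Bc.z k) (Bc.r k / 2)) :
    (G.g (Bc.i k) ((A.e (Bc.i k)).symm z) + cH (inC A (Bc.i k) (S.ps s)) z).det =
      ((1 + S.ms s : ℝ) : ℂ) * (K.g (Bc.i k) ((A.e (Bc.i k)).symm z)).det := by
  have hzt : z ∈ (A.e (Bc.i k)).target := Bc.sub' k (ball_subset_closedBall hz)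
  set x := (A.e (Bc.i k)).symm z with hx
  have hxs : x ∈ (A.e (Bc.i k)).source := (A.e (Bc.i k)).map_target hzt
  have hu : IsUnit (K.g (Bc.i k) x).det :=
    isUnit_iff_ne_zero.2 (K.pos _ x hxs).det_pos.ne'
  set X := G.g (Bc.i k) x + cH (inC A (Bc.i k) (S.ps s)) z - K.g (Bc.i k) x with hX
  have h1 : ∀ b c, HasSum (fun j => (s : ℂ) ^ (j + 1) *
      Zf K (Yf A (fun j => (B j).g) S.φ) (Bc.i k) x (j + 1) b c)
      (((K.g (Bc.i k) x)⁻¹ * X) b c) := by
    intro b c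
    rw [Matrix.mul_apply]
    have h2 := hasSum_sum (s := (Finset.univ : Finset (Fin n))) fun l _ =>
      (S.sum_Y hr hs.le hG k hz l c).mul_left ((K.g (Bc.i k) x)⁻¹ b l)
    refine h2.congr_fun fun j => ?_
    rw [Zf, Matrix.mul_apply, Finset.mul_sum]
    refine Finset.sum_congr rfl fun l _ => ?_
    ring
  have h2 := dt_limit (Z := Zf K (Yf A (fun j => (B j).g) S.φ) (Bc.i k) x)
    (m := fun j => (S.m j : ℂ)) (s := (s : ℂ)) hr S.a_nn S.a_sum
    (fun j hj b c => (S.hoZ j hj k b c).bdd z (ball_subset_closedBall hz))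
    (fun j _ => by
      rw [Complex.norm_real, Real.norm_eq_abs]
      exact S.hm j)
    (fun J j hj hJ => S.eqn J j hj hJ (Bc.i k) x hxs)
    (by rwa [Complex.norm_real, Real.norm_eq_abs])
  have h3 : (Matrix.of fun b c => ∑' j, (s : ℂ) ^ (j + 1) *
      Zf K (Yf A (fun j => (B j).g) S.φ) (Bc.i k) x (j + 1) b c) = (K.g (Bc.i k) x)⁻¹ * X := by
    ext b c
    exact (h1 b c).tsum_eq
  rw [h3] at h2
  have h4 : G.g (Bc.i k) x + cH (inC A (Bc.i k) (S.ps s)) z =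
      K.g (Bc.i k) x * (1 + (K.g (Bc.i k) x)⁻¹ * X) := by
    rw [Matrix.mul_add, Matrix.mul_one, ← Matrix.mul_assoc, Matrix.mul_nonsing_inv _ hu,
      Matrix.one_mul, hX]
    abel
  have h5 : (1 : ℂ) + ∑' j, (s : ℂ) ^ (j + 1) * (S.m (j + 1) : ℂ) = ((1 + S.ms s : ℝ) : ℂ) := by
    have hsum : Summable fun j => s ^ j * S.m j := by
      refine Summable.of_norm_bounded (S.summ_s hr hs.le) fun j => ?_
      rw [norm_mul, norm_pow, Real.norm_eq_abs]
      exact mul_le_mul_of_nonneg_left (S.hm j) (by positivity)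
    have h6 := hsum.sum_add_tsum_nat_add 1
    rw [Finset.sum_range_one, S.m0, mul_zero, zero_add] at h6
    rw [ms, ← h6]
    push_cast
    rfl
  rw [h4, Matrix.det_mul, h2, h5, mul_comm]

theorem pos_ps (S : AnS K Bc (fun j => (B j).g) x0 r η w) (hr : 0 < r) (hs : |s| ≤ r)
    (hG : IsSum K B s G) {lo hi : ℝ} (hη : n * η < lo)
    (hlo : ∀ k, ∀ z ∈ closedBall (Bc.z k) (Bc.r k / 2),
      EllC lo hi (K.g (Bc.i k) ((A.e (Bc.i k)).symm z))) (k : Bc.κ)
    {z : Cn n} (hz : z ∈ ball (Bc.z k) (Bc.r k / 2)) :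
    (G.g (Bc.i k) ((A.e (Bc.i k)).symm z) + cH (inC A (Bc.i k) (S.ps s)) z).PosDef := by
  have hzt : z ∈ (A.e (Bc.i k)).target := Bc.sub' k (ball_subset_closedBall hz)
  have hxs := (A.e (Bc.i k)).map_target hzt
  have hc2 : ContDiffAt ℝ 2 (inC A (Bc.i k) (S.ps s)) z :=
    (S.ps_c2 hr hs k).1.contDiffAt (isOpen_ball.mem_nhds hz)
  have h1 := posDef_add (hlo k z (ball_subset_closedBall hz))
    (X := G.g (Bc.i k) ((A.e (Bc.i k)).symm z) + cH (inC A (Bc.i k) (S.ps s)) z -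
      K.g (Bc.i k) ((A.e (Bc.i k)).symm z))
    (((G.herm _ _ hxs).add (cH_herm_c2 hc2)).sub (K.pos _ _ hxs).1)
    (S.eta_nonneg hr) (S.ent_le hr hs hG k hz) hη
  rwa [add_sub_cancel] at h1

theorem sm_ps (S : AnS K Bc (fun j => (B j).g) x0 r η w) (hr : 0 < r) (hs : |s| < r)
    (hG : IsSum K B s G) {lo hi : ℝ} (hη : n * η < lo)
    (hlo : ∀ k, ∀ z ∈ closedBall (Bc.z k) (Bc.r k / 2),
      EllC lo hi (K.g (Bc.i k) ((A.e (Bc.i k)).symm z))) : A.Sm (S.ps s) := by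
  refine sm_of_local fun x => ?_
  obtain ⟨k, hk, hx⟩ := Bc.cover x
  refine ⟨Bc.i k, hk, ?_⟩
  set O : Set (Cn n) := ball (Bc.z k) (Bc.r k / 2) with hO
  have hOt : O ⊆ (A.e (Bc.i k)).target := ball_subset_closedBall.trans (Bc.sub' k)
  have h1 : ContDiffOn ℝ ∞ (inC A (Bc.i k) (S.ps s)) O := by
    refine reg_add isOpen_ball (G := fun z => G.g (Bc.i k) ((A.e (Bc.i k)).symm z))
      (fun a b => (G.sm (Bc.i k) a b).mono hOt)
      (fun z hz => G.herm _ _ ((A.e (Bc.i k)).map_target (hOt hz)))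
      (fun z hz a b c => G.closed (Bc.i k) z (hOt hz) a b c)
      (fun z hz a b c => Crest.Agent.R281.HkR_835.K11.closed' G (Bc.i k) (hOt hz) a b c)
      (S.ps_c2 hr hs.le k).1 (S.ps_ho hr hs.le k)
      (f := fun z => (1 + S.ms s) * (K.g (Bc.i k) ((A.e (Bc.i k)).symm z)).det.re)
      (contDiffOn_const.mul ?_) (fun z hz => S.pos_ps hr hs.le hG hη hlo k hz) (fun z hz => ?_)
    · exact Complex.reCLM.contDiff.comp_contDiffOn
        ((Crest.Agent.R273.Vol_333.smAt_det (fun a b => K.sm (Bc.i k) a b)).mono hOt)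
    · rw [S.det_ps hr hs hG k hz]
      push_cast
      rw [det_real (K.pos _ _ ((A.e (Bc.i k)).map_target (hOt hz))).1]
  exact h1.contDiffAt (isOpen_ball.mem_nhds hx)

end AnS

end

end Crest.Agent.R281.HKMov_478
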