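import Crest.Agent.R281.HKMovH_478
import Crest.Agent.R281.KpU_487

/-!
# R281 (S0424), YAU-AN (helper478), file I: the theorem

* `pos_tr`, `det_tr` : positivity and determinant identities pass to other charts
* **`yau_an`**       : the power series solves the Monge-Ampere equation for real `|s| < r`
* **`yau_lin`**      : the case of the segment `K + s H`
-/

set_option autoImplicit false
set_option linter.unusedSectionVars false

open Set Filter Topology Complex Metric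
open scoped ContDiff Matrix ComplexConjugate ComplexOrder

namespace Crest.Agent.R281.HKMov_478

open Crest.Agent.R275.Geo Crest.Agent.R275.Core144 Crest.Agent.R275.GC293
open Crest.Agent.R275.EDR890
open Crest.Agent.R273.Defs_333 Crest.Agent.R273.YauDefs_635 Crest.Agent.R273.HM_333
open Crest.Agent.R273.YauCh_635 Crest.Agent.R273.Hess_333 Crest.Agent.R273.HessB_333
open Crest.Agent.R273.Kah_333 Crest.Agent.R273.YauMax_635 Crest.Agent.R273.YauLoc_635
open Crest.Agent.R273.SchA_152 Crest.Agent.R273.SchD_152 Crest.Agent.R273.YauQ_635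
open Crest.Agent.R273.YauSchF_635 Crest.Agent.R273.YauPf_635 Crest.Agent.R273.YauOpA_635
open Crest.Agent.R273.SchF_152 Crest.Agent.R273.SchE_152 Crest.Agent.R273.SchG_152
open Crest.Agent.R273.Vol_333 (addK Yau volK det_real det_re_pos)
open Crest.Agent.R281.HkR_835 (K11 ofKah)

noncomputable section

variable {n : ℕ} {M : Type} [TopologicalSpace M] {A : Atl n M}

theorem isUnit_Jbar {i j : A.ι} {x : M} (hx : x ∈ (A.e i).source ∩ (A.e j).source) :
    IsUnit ((Jm A i j x).map conj) := by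
  rw [Matrix.isUnit_iff_isUnit_det, isUnit_iff_ne_zero]
  exact det_Jbar hx

theorem pos_tr {i j : A.ι} {x : M} (hx : x ∈ (A.e i).source ∩ (A.e j).source)
    {g g' : Matrix (Fin n) (Fin n) ℂ} (h : g = (Jm A i j x)ᵀ * g' * (Jm A i j x).map conj)
    (hg : g'.PosDef) : g.PosDef := by
  have e1 : ((Jm A i j x).map conj)ᴴ = (Jm A i j x)ᵀ := by
    ext a b
    simp [Matrix.conjTranspose_apply, Matrix.transpose_apply]
  rw [h, ← e1]
  exact hg.conjTranspose_mul_mul_same (Matrix.mulVec_injective_iff_isUnit.2 (isUnit_Jbar hx))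

theorem det_tr {i j : A.ι} {x : M}
    {g g' k k' : Matrix (Fin n) (Fin n) ℂ} (h : g = (Jm A i j x)ᵀ * g' * (Jm A i j x).map conj)
    (hk : k = (Jm A i j x)ᵀ * k' * (Jm A i j x).map conj) {c : ℂ} (hd : g'.det = c * k'.det) :
    g.det = c * k.det := by
  rw [h, hk, Matrix.det_mul, Matrix.det_mul, Matrix.det_mul, Matrix.det_mul, hd]
  ring

/-- `K'` is `G + i∂∂̄u` -/
structure IsAdd (K' : Kah A) (G : K11 A) (u : M → ℝ) : Prop where
  sm : A.Sm u
  eq : ∀ i, ∀ x ∈ (A.e i).source, K'.g i x = G.g i x + hsf A u i x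

/-- **YAU-AN**: a power series of Monge-Ampere metrics, uniform radius -/
theorem yau_an [T2Space M] [CompactSpace M] [ConnectedSpace M] [Finite A.ι] (P : Part A)
    (K : Kah A) (Bc : Cb A) (x0 : M) {w : ℕ → ℝ} (hw : ∀ j, 0 ≤ w j) {ρ W : ℝ} (hρ : 0 < ρ)
    (hW : ∀ J, ∑ j ∈ Finset.range J, w (j + 1) * ρ ^ (j + 1) ≤ W) {η : ℝ} (hη : 0 < η) :
    ∃ r η' : ℝ, 0 < r ∧ r ≤ ρ ∧ 0 < η' ∧ η' ≤ η ∧ ∀ B : ℕ → K11 A,
      (∀ j, 1 ≤ j → ∀ k b c, HO (1 / 2) (w j) (closedBall (Bc.z k) (Bc.r k / 2))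
        (fun z => (B j).g (Bc.i k) ((A.e (Bc.i k)).symm z) b c)) →
      ∃ S : AnS K Bc (fun j => (B j).g) x0 r η' w, ∀ s : ℝ, |s| < r → ∀ G : K11 A,
        IsSum K B s G → ∃ K' : Kah A, IsAdd K' G (S.ps s) ∧
          ∀ i, ∀ x ∈ (A.e i).source, (K'.g i x).det = ((1 + S.ms s : ℝ) : ℂ) * (K.g i x).det := by
  obtain ⟨lo, hi, hlo, hell⟩ := exists_lo K Bc
  set η' : ℝ := min η (lo / (n + 1)) with hη'
  have hη'0 : 0 < η' := lt_min hη (by positivity)
  have hηlo : n * η' < lo := by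
    have h1 : η' ≤ lo / (n + 1) := min_le_right _ _
    have h2 : (n : ℝ) * η' ≤ n * (lo / (n + 1)) := mul_le_mul_of_nonneg_left h1 (by positivity)
    have h3 : (n : ℝ) * (lo / (n + 1)) < lo := by
      rw [mul_div_assoc', div_lt_iff₀ (by positivity)]
      nlinarith
    linarith
  obtain ⟨r, hr, hrρ, H⟩ := an_bound P K Bc x0 hw hρ hW hη'0
  refine ⟨r, η', hr, hrρ, hη'0, min_le_left _ _, fun B hB => ?_⟩
  obtain ⟨S⟩ := H (fun j => (B j).g) (fun j _ => k11_hf (B j)) hB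
  refine ⟨S, fun s hs G hG => ?_⟩
  have hsm : A.Sm (S.ps s) := S.sm_ps hr hs hG hηlo hell
  have hball : ∀ x : M, ∃ k, x ∈ (A.e (Bc.i k)).source ∧
      (G.g (Bc.i k) x + hsf A (S.ps s) (Bc.i k) x).PosDef ∧
      (G.g (Bc.i k) x + hsf A (S.ps s) (Bc.i k) x).det =
        ((1 + S.ms s : ℝ) : ℂ) * (K.g (Bc.i k) x).det := by
    intro x
    obtain ⟨k, hk, hx⟩ := Bc.cover x
    have h1 := S.pos_ps hr hs.le hG hηlo hell k hx
    have h2 := S.det_ps hr hs hG k hx
    rw [(A.e (Bc.i k)).left_inv hk] at h1 h2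
    rw [← hsf_eq_cH hsm hk] at h1 h2
    exact ⟨k, hk, h1, h2⟩
  have htr : ∀ {i j : A.ι} {x : M}, x ∈ (A.e i).source ∩ (A.e j).source →
      G.g i x + hsf A (S.ps s) i x =
        (Jm A i j x)ᵀ * (G.g j x + hsf A (S.ps s) j x) * (Jm A i j x).map conj := fun hx => by
    rw [hsf_tr hsm hx, G.tr _ _ _ hx, Matrix.mul_add, Matrix.add_mul]
  have hpos : ∀ i, ∀ x ∈ (A.e i).source, ((addH G (S.ps s) hsm).g i x).PosDef := by
    intro i x hx
    obtain ⟨k, hk, h1, -⟩ := hball x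
    exact pos_tr ⟨hx, hk⟩ (htr ⟨hx, hk⟩) h1
  refine ⟨(addH G (S.ps s) hsm).kah hpos, ⟨hsm, fun i x _ => rfl⟩, fun i x hx => ?_⟩
  obtain ⟨k, hk, -, h2⟩ := hball x
  exact det_tr (htr ⟨hx, hk⟩) (K.tr i (Bc.i k) x ⟨hx, hk⟩) h2

end

end Crest.Agent.R281.HKMov_478
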