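import Crest.Agent.R281.HKMovI_478

/-!
# R281 (S0424), HK-MOVE (helper478), file J: local power series along a move

* `Ps11 Bc G s0 r Y a` : `G s = ∑ (s - s0)^j Y_j` (closed (1,1)-forms), `C^{1/2}` bounds `a j` on the
  balls of `Bc`, `∑ a_j r^j < ∞`
* `PsF Bc f s0 r φ a`  : `f s = ∑ (s - s0)^j φ_j` (smooth functions), `C^{2,1/2}` bounds
* `PsF.fd1`, `PsF.fd2`, `PsF.hsf` : derivatives term by term on the closed balls; Hessians everywhere
* **`yau_move`** : Monge-Ampere metrics along a `Ps11` family have power series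
-/

set_option autoImplicit false
set_option linter.unusedSectionVars false

open Set Filter Topology Complex Metric
open scoped ContDiff Matrix ComplexConjugate ComplexOrder

namespace Crest.Agent.R281.HKMov_478

open Crest.Agent.R275.Geo Crest.Agent.R275.Core144 Crest.Agent.R275.GC293
open Crest.Agent.R275.EDR890
open Crest.Agent.R273.Defs_333 Crest.Agent.R273.YauDefs_635 Crest.Agent.R273.HM_333
open Crest.Agent.R273.YauCh_635 Crest.Agent.R273.Hess_333 Crest.Agent.R273.HessB_333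
open Crest.Agent.R273.Kah_333 Crest.Agent.R273.YauMax_635 Crest.Agent.R273.YauLoc_635
open Crest.Agent.R273.SchA_152 Crest.Agent.R273.SchD_152 Crest.Agent.R273.YauQ_635
open Crest.Agent.R273.YauSchF_635 Crest.Agent.R273.YauPf_635 Crest.Agent.R273.YauOpA_635
open Crest.Agent.R273.SchF_152 Crest.Agent.R273.SchE_152 Crest.Agent.R273.SchG_152
open Crest.Agent.R273.Vol_333 (addK Yau volK det_real det_re_pos)
open Crest.Agent.R281.HkR_835 (K11 ofKah)

noncomputable section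

/-! ### sums on closed balls -/

section closed

variable {n : ℕ}

theorem hasSum_closed {F : Type*} [NormedAddCommGroup F] [NormedSpace ℝ F] [CompleteSpace F]
    {z0 : Cn n} {R : ℝ} (hR : 0 < R) {D : ℕ → Cn n → F} {g : Cn n → F}
    (hD : ∀ j, ContinuousOn (D j) (closedBall z0 R)) (hg : ContinuousOn g (closedBall z0 R))
    {a : ℕ → ℝ} (ha : Summable a) (hb : ∀ j, ∀ z ∈ closedBall z0 R, ‖D j z‖ ≤ a j)
    (he : ∀ z ∈ ball z0 R, ∑' j, D j z = g z) :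
    ∀ z ∈ closedBall z0 R, HasSum (fun j => D j z) (g z) := by
  have hcl : closedBall z0 R ⊆ closure (ball z0 R) := by rw [closure_ball _ hR.ne']
  have c1 : ContinuousOn (fun z => ∑' j, D j z) (closedBall z0 R) := continuousOn_tsum hD ha hb
  have e1 : EqOn (fun z => ∑' j, D j z) g (closedBall z0 R) :=
    Set.EqOn.of_subset_closure (s := ball z0 R) (fun z hz => he z hz) c1 hg
      ball_subset_closedBall hcl
  intro z hz
  rw [← e1 hz]
  exact (Summable.of_norm_bounded ha fun j => hb j z hz).hasSum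

theorem sum_fd1 {T : Set (Cn n)} (hT : IsOpen T) {z0 : Cn n} {R : ℝ} (hR : 0 < R)
    (hRT : closedBall z0 R ⊆ T) {u : ℕ → Cn n → ℝ} {f : Cn n → ℝ}
    (hu : ∀ j, ContDiffOn ℝ ∞ (u j) T) (hf : ContDiffOn ℝ ∞ f T) {a : ℕ → ℝ} (ha : Summable a)
    (h0 : ∀ j, ∀ z ∈ closedBall z0 R, ‖u j z‖ ≤ a j)
    (h1 : ∀ j, ∀ z ∈ closedBall z0 R, ‖fderiv ℝ (u j) z‖ ≤ a j)
    (hs : ∀ z ∈ closedBall z0 R, HasSum (fun j => u j z) (f z)) :
    ∀ z ∈ closedBall z0 R, HasSum (fun j => fderiv ℝ (u j) z) (fderiv ℝ f z) := by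
  have hbc : ball z0 R ⊆ closedBall z0 R := ball_subset_closedBall
  obtain ⟨-, g2⟩ := sum_c1 (isOpen_ball (x := z0) (ε := R))
    (fun j => ((hu j).of_le (by simp)).mono (hbc.trans hRT)) ha
    (fun j z hz => h0 j z (hbc hz)) (fun j z hz => h1 j z (hbc hz))
  refine hasSum_closed hR (F := Cn n →L[ℝ] ℝ) (D := fun j => fderiv ℝ (u j)) (g := fderiv ℝ f)
    (fun j => ((hu j).continuousOn_fderiv_of_isOpen hT (by simp)).mono hRT)
    ((hf.continuousOn_fderiv_of_isOpen hT (by simp)).mono hRT) ha h1 (fun z hz => ?_)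
  rw [← (g2 z hz).fderiv]
  refine Filter.EventuallyEq.fderiv_eq ?_
  filter_upwards [isOpen_ball.mem_nhds hz] with y hy using (hs y (hbc hy)).tsum_eq

/-- second derivatives -/
theorem sum_fd2 {T : Set (Cn n)} (hT : IsOpen T) {z0 : Cn n} {R : ℝ} (hR : 0 < R)
    (hRT : closedBall z0 R ⊆ T) {u : ℕ → Cn n → Cn n →L[ℝ] ℝ} {f : Cn n → Cn n →L[ℝ] ℝ}
    (hu : ∀ j, ContDiffOn ℝ ∞ (u j) T) (hf : ContDiffOn ℝ ∞ f T) {a : ℕ → ℝ} (ha : Summable a)
    (h0 : ∀ j, ∀ z ∈ closedBall z0 R, ‖u j z‖ ≤ a j)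
    (h1 : ∀ j, ∀ z ∈ closedBall z0 R, ‖fderiv ℝ (u j) z‖ ≤ a j)
    (hs : ∀ z ∈ closedBall z0 R, HasSum (fun j => u j z) (f z)) :
    ∀ z ∈ closedBall z0 R, HasSum (fun j => fderiv ℝ (u j) z) (fderiv ℝ f z) := by
  have hbc : ball z0 R ⊆ closedBall z0 R := ball_subset_closedBall
  obtain ⟨-, g2⟩ := sum_c1 (F := Cn n →L[ℝ] ℝ) (isOpen_ball (x := z0) (ε := R))
    (fun j => ((hu j).of_le (by simp)).mono (hbc.trans hRT)) ha
    (fun j z hz => h0 j z (hbc hz)) (fun j z hz => h1 j z (hbc hz))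
  refine hasSum_closed hR (F := Cn n →L[ℝ] Cn n →L[ℝ] ℝ) (D := fun j => fderiv ℝ (u j))
    (g := fderiv ℝ f)
    (fun j => ((hu j).continuousOn_fderiv_of_isOpen hT (by simp)).mono hRT)
    ((hf.continuousOn_fderiv_of_isOpen hT (by simp)).mono hRT) ha h1 (fun z hz => ?_)
  rw [← (g2 z hz).fderiv]
  refine Filter.EventuallyEq.fderiv_eq ?_
  filter_upwards [isOpen_ball.mem_nhds hz] with y hy using (hs y (hbc hy)).tsum_eq

end closed

variable {n : ℕ} {M : Type} [TopologicalSpace M] {A : Atl n M}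

/-- local power series of closed (1,1)-forms -/
structure Ps11 (Bc : Cb A) (G : ℝ → K11 A) (s0 r : ℝ) (Y : ℕ → K11 A) (a : ℕ → ℝ) : Prop where
  r0 : 0 < r
  a0 : ∀ j, 0 ≤ a j
  sum : Summable fun j => a j * r ^ j
  ho : ∀ j k b c, HO (1 / 2) (a j) (closedBall (Bc.z k) (Bc.r k / 2))
    (fun z => (Y j).g (Bc.i k) ((A.e (Bc.i k)).symm z) b c)
  hs : ∀ s, |s - s0| < r → ∀ i, ∀ x ∈ (A.e i).source, ∀ b c,
    HasSum (fun j => ((s - s0 : ℝ) : ℂ) ^ j * (Y j).g i x b c) ((G s).g i x b c)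

/-- local power series of smooth functions -/
structure PsF (Bc : Cb A) (f : ℝ → M → ℝ) (s0 r : ℝ) (φ : ℕ → M → ℝ) (a : ℕ → ℝ) : Prop where
  r0 : 0 < r
  a0 : ∀ j, 0 ≤ a j
  sum : Summable fun j => a j * r ^ j
  sm : ∀ j, A.Sm (φ j)
  n2 : ∀ j, Bc.N2 (1 / 2) (a j) (φ j)
  hs : ∀ s, |s - s0| < r → ∀ x, HasSum (fun j => (s - s0) ^ j * φ j x) (f s x)

theorem smb {a : ℕ → ℝ} {r t : ℝ} (ha : ∀ j, 0 ≤ a j) (hs : Summable fun j => a j * r ^ j)
    (ht : |t| ≤ r) : Summable fun j => |t| ^ j * a j := by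
  refine Summable.of_nonneg_of_le (fun j => mul_nonneg (by positivity) (ha j)) (fun j => ?_) hs
  rw [mul_comm]
  exact mul_le_mul_of_nonneg_left (pow_le_pow_left₀ (abs_nonneg _) ht _) (ha j)

/-- a smooth form has bounds on the balls -/
theorem k11_ho (H : K11 A) (Bc : Cb A) : ∃ V : ℝ, 0 ≤ V ∧ ∀ k b c,
    HO (1 / 2) V (closedBall (Bc.z k) (Bc.r k / 2))
      (fun z => H.g (Bc.i k) ((A.e (Bc.i k)).symm z) b c) := by
  have := Bc.fin
  have h1 : ∀ p : Bc.κ × Fin n × Fin n, ∃ V, HO (1 / 2) V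
      (closedBall (Bc.z p.1) (Bc.r p.1 / 2))
      (fun z => H.g (Bc.i p.1) ((A.e (Bc.i p.1)).symm z) p.2.1 p.2.2) := fun p =>
    ho_c1 (A.e (Bc.i p.1)).open_target ((H.sm (Bc.i p.1) p.2.1 p.2.2).of_le (by simp))
      (by linarith [Bc.r1 p.1, Bc.r0 p.1]) (Bc.sub' p.1)
  choose V hV using h1
  obtain ⟨C, hC0, hC⟩ := exists_ub V
  exact ⟨C, hC0, fun k b c => (hV (k, b, c)).mono (hC _)⟩

/-- a smooth function has bounds on the balls -/
theorem sm_n2 {v : M → ℝ} (hv : A.Sm v) (Bc : Cb A) : ∃ V : ℝ, 0 ≤ V ∧ Bc.N2 (1 / 2) V v := by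
  have := Bc.fin
  have hR : ∀ k, Bc.r k / 2 ≤ 1 := fun k => by linarith [Bc.r1 k, Bc.r0 k]
  have h0 : ∀ k, ∃ V, HO (1 / 2) V (closedBall (Bc.z k) (Bc.r k / 2)) (inC A (Bc.i k) v) :=
    fun k => ho_c1 (A.e (Bc.i k)).open_target ((inC_smooth hv (Bc.i k)).of_le (by simp)) (hR k)
      (Bc.sub' k)
  have hd : ∀ k, ContDiffOn ℝ ∞ (fderiv ℝ (inC A (Bc.i k) v)) (A.e (Bc.i k)).target := fun k =>
    (inC_smooth hv (Bc.i k)).fderiv_of_isOpen (A.e (Bc.i k)).open_target (by simp)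
  have h1 : ∀ k, ∃ V, HO (1 / 2) V (closedBall (Bc.z k) (Bc.r k / 2))
      (fderiv ℝ (inC A (Bc.i k) v)) :=
    fun k => ho_c1 (A.e (Bc.i k)).open_target ((hd k).of_le (by simp)) (hR k) (Bc.sub' k)
  have hd2 : ∀ k, ContDiffOn ℝ ∞ (fderiv ℝ (fderiv ℝ (inC A (Bc.i k) v)))
      (A.e (Bc.i k)).target := fun k =>
    (hd k).fderiv_of_isOpen (A.e (Bc.i k)).open_target (by simp)
  have h2 : ∀ k, ∃ V, HO (1 / 2) V (closedBall (Bc.z k) (Bc.r k / 2))
      (fderiv ℝ (fderiv ℝ (inC A (Bc.i k) v))) :=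
    fun k => ho_c1 (A.e (Bc.i k)).open_target ((hd2 k).of_le (by simp)) (hR k) (Bc.sub' k)
  choose V0 hV0 using h0
  choose V1 hV1 using h1
  choose V2 hV2 using h2
  obtain ⟨C0, hC00, hC0⟩ := exists_ub V0
  obtain ⟨C1, hC10, hC1⟩ := exists_ub V1
  obtain ⟨C2, hC20, hC2⟩ := exists_ub V2
  refine ⟨C0 + C1 + C2, by linarith, fun k => ⟨(hV0 k).mono ?_, (hV1 k).mono ?_, (hV2 k).mono ?_⟩⟩
  · linarith [hC0 k]
  · linarith [hC1 k]
  · linarith [hC2 k]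

namespace PsF

variable {Bc : Cb A} {f : ℝ → M → ℝ} {s0 r : ℝ} {φ : ℕ → M → ℝ} {a : ℕ → ℝ} {s : ℝ}

theorem fd1 (S : PsF Bc f s0 r φ a) (hs : |s - s0| < r) (hf : A.Sm (f s)) (k : Bc.κ) :
    ∀ z ∈ closedBall (Bc.z k) (Bc.r k / 2),
      HasSum (fun j => (s - s0) ^ j • fderiv ℝ (inC A (Bc.i k) (φ j)) z)
        (fderiv ℝ (inC A (Bc.i k) (f s)) z) := by
  have h := sum_fd1 (A.e (Bc.i k)).open_target (z0 := Bc.z k) (R := Bc.r k / 2)
    (by linarith [Bc.r0 k]) (Bc.sub' k)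
    (u := fun j z => (s - s0) ^ j * inC A (Bc.i k) (φ j) z) (f := inC A (Bc.i k) (f s))
    (fun j => contDiffOn_const.mul (inC_smooth (S.sm j) (Bc.i k))) (inC_smooth hf (Bc.i k))
    (smb S.a0 S.sum hs.le)
    (fun j z hz => by
      rw [norm_mul, norm_pow, Real.norm_eq_abs]
      exact mul_le_mul_of_nonneg_left ((S.n2 j k).h0.bdd z hz) (by positivity))
    (fun j z hz => by
      rw [fd_cmul]
      exact norm_pow_smul_le (F := Cn n →L[ℝ] ℝ) _ j _ ((S.n2 j k).h1.bdd z hz))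
    (fun z _ => S.hs s hs _)
  intro z hz
  have h1 := h z hz
  simp only [fd_cmul] at h1
  exact h1

theorem fd2 (S : PsF Bc f s0 r φ a) (hs : |s - s0| < r) (hf : A.Sm (f s)) (k : Bc.κ) :
    ∀ z ∈ closedBall (Bc.z k) (Bc.r k / 2),
      HasSum (fun j => (s - s0) ^ j • fderiv ℝ (fderiv ℝ (inC A (Bc.i k) (φ j))) z)
        (fderiv ℝ (fderiv ℝ (inC A (Bc.i k) (f s))) z) := by
  have hd : ∀ j, ContDiffOn ℝ ∞ (fderiv ℝ (fun z => (s - s0) ^ j * inC A (Bc.i k) (φ j) z))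
      (A.e (Bc.i k)).target := fun j =>
    (contDiffOn_const.mul (inC_smooth (S.sm j) (Bc.i k))).fderiv_of_isOpen
      (A.e (Bc.i k)).open_target (by simp)
  have h := sum_fd2 (A.e (Bc.i k)).open_target (z0 := Bc.z k) (R := Bc.r k / 2)
    (by linarith [Bc.r0 k]) (Bc.sub' k)
    (u := fun j => fderiv ℝ (fun z => (s - s0) ^ j * inC A (Bc.i k) (φ j) z))
    (f := fderiv ℝ (inC A (Bc.i k) (f s))) hd
    ((inC_smooth hf (Bc.i k)).fderiv_of_isOpen (A.e (Bc.i k)).open_target (by simp))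
    (smb S.a0 S.sum hs.le)
    (fun j z hz => by
      rw [fd_cmul]
      exact norm_pow_smul_le (F := Cn n →L[ℝ] ℝ) _ j _ ((S.n2 j k).h1.bdd z hz))
    (fun j z hz => by
      rw [fd2_cmul]
      exact norm_pow_smul_le (F := Cn n →L[ℝ] Cn n →L[ℝ] ℝ) _ j _ ((S.n2 j k).h2.bdd z hz))
    (fun z hz => by
      simp only [fd_cmul]
      exact S.fd1 hs hf k z hz)
  intro z hz
  have h1 := h z hz
  simp only [fd2_cmul] at h1
  exact h1

theorem cH_sum (S : PsF Bc f s0 r φ a) (hs : |s - s0| < r) (hf : A.Sm (f s)) (k : Bc.κ) {z : Cn n}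
    (hz : z ∈ closedBall (Bc.z k) (Bc.r k / 2)) (b c : Fin n) :
    HasSum (fun j => ((s - s0 : ℝ) : ℂ) ^ j * cH (inC A (Bc.i k) (φ j)) z b c)
      (cH (inC A (Bc.i k) (f s)) z b c) := by
  have h2 := hasSum_clm (F := Cn n →L[ℝ] Cn n →L[ℝ] ℝ) (cHLc b c) (s := s - s0)
    (q := fun j => fderiv ℝ (fderiv ℝ (inC A (Bc.i k) (φ j))) z) (smb S.a0 S.sum hs.le)
    (fun j => (S.n2 j k).h2.bdd z hz)
  rw [(S.fd2 hs hf k z hz).tsum_eq] at h2
  exact h2

end PsF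

/-- convergence passes to other charts -/
theorem hasSum_tr {i j : A.ι} {x : M} {c : ℕ → ℂ}
    {g : ℕ → Matrix (Fin n) (Fin n) ℂ} {g' : ℕ → Matrix (Fin n) (Fin n) ℂ}
    {l l' : Matrix (Fin n) (Fin n) ℂ}
    (h : ∀ k, g k = (Jm A i j x)ᵀ * g' k * (Jm A i j x).map conj)
    (hl : l = (Jm A i j x)ᵀ * l' * (Jm A i j x).map conj)
    (hs : ∀ b c', HasSum (fun k => c k * g' k b c') (l' b c')) (b c' : Fin n) :
    HasSum (fun k => c k * g k b c') (l b c') := by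
  rw [hl, Matrix.mul_apply]
  have h1 : ∀ d, HasSum (fun k => c k * ((Jm A i j x)ᵀ * g' k) b d)
      (((Jm A i j x)ᵀ * l') b d) := by
    intro d
    rw [Matrix.mul_apply]
    refine (hasSum_sum (s := (Finset.univ : Finset (Fin n))) fun e _ =>
      (hs e d).mul_left ((Jm A i j x)ᵀ b e)).congr_fun fun k => ?_
    rw [Matrix.mul_apply, Finset.mul_sum]
    refine Finset.sum_congr rfl fun e _ => ?_
    ring
  refine (hasSum_sum (s := (Finset.univ : Finset (Fin n))) fun d _ =>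
    (h1 d).mul_right (((Jm A i j x).map conj) d c')).congr_fun fun k => ?_
  rw [h k, Matrix.mul_apply, Finset.mul_sum]
  refine Finset.sum_congr rfl fun d _ => ?_
  ring

namespace PsF

variable {Bc : Cb A} {f : ℝ → M → ℝ} {s0 r : ℝ} {φ : ℕ → M → ℝ} {a : ℕ → ℝ} {s : ℝ}

theorem hsf_sum (S : PsF Bc f s0 r φ a) (hs : |s - s0| < r) (hf : A.Sm (f s)) {i : A.ι} {x : M}
    (hx : x ∈ (A.e i).source) (b c : Fin n) :
    HasSum (fun j => ((s - s0 : ℝ) : ℂ) ^ j * hsf A (φ j) i x b c)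
      (hsf A (f s) i x b c) := by
  obtain ⟨k, hk, hxk⟩ := Bc.cover x
  refine hasSum_tr (i := i) (j := Bc.i k) (x := x) (g' := fun j => hsf A (φ j) (Bc.i k) x)
    (fun j => hsf_tr (S.sm j) ⟨hx, hk⟩) (hsf_tr hf ⟨hx, hk⟩) (fun b c => ?_) b c
  have h1 := S.cH_sum hs hf k (ball_subset_closedBall hxk) b c
  simp only [← hsf_eq_cH (S.sm _) hk, ← hsf_eq_cH hf hk] at h1
  exact h1

end PsF

end

end Crest.Agent.R281.HKMov_478
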