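import Crest.Agent.R281.HKMovK_478

/-!
# R281 (S0424), LAP-AN (helper478), file L: algebra and majorants of the linear recursion

* `invS Z`        : the inverse of `1 + ∑_{j ≥ 1} Z_j s^j` in a ring
* `lrec α β e ν`  : `p_j = α e_j + β ∑_{i < j} ν_{i+1} p_{j-1-i}`, `lrec_sum`
* `exists_small`  : small radius
* `CJ A U`        : smooth endomorphism fields; `CJ.mul`, `CJ.invS`, `trR`
-/

set_option autoImplicit false
set_option linter.unusedSectionVars false

open Set Filter Topology Complex Metric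
open scoped ContDiff Matrix ComplexConjugate ComplexOrder

namespace Crest.Agent.R281.HKMov_478

open Crest.Agent.R275.Geo Crest.Agent.R275.Core144 Crest.Agent.R275.GC293
open Crest.Agent.R275.EDR890
open Crest.Agent.R273.Defs_333 Crest.Agent.R273.YauDefs_635 Crest.Agent.R273.HM_333
open Crest.Agent.R273.YauCh_635 Crest.Agent.R273.Hess_333 Crest.Agent.R273.HessB_333
open Crest.Agent.R273.Kah_333 Crest.Agent.R273.YauMax_635 Crest.Agent.R273.YauLoc_635
open Crest.Agent.R273.SchA_152 Crest.Agent.R273.SchD_152 Crest.Agent.R273.YauQ_635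
open Crest.Agent.R273.YauSchF_635 Crest.Agent.R273.YauPf_635 Crest.Agent.R273.YauOpA_635
open Crest.Agent.R273.SchF_152 Crest.Agent.R273.SchE_152 Crest.Agent.R273.SchG_152
open Crest.Agent.R273.Green_5 Crest.Agent.R273.GreenM_5 Crest.Agent.R273.FIb0_597
open Crest.Agent.R281.HkR_835 (K11 ofKah)

noncomputable section

/-! ### the inverse power series -/

section alg

variable {R : Type*} [Ring R]

/-- the inverse power series of `1 + ∑_{j ≥ 1} Z_j s^j` -/
def invS (Z : ℕ → R) : ℕ → R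
  | 0 => 1
  | j + 1 => -∑ i : Fin (j + 1), Z (i + 1) * invS Z (j - i)
termination_by j => j
decreasing_by exact Nat.lt_succ_of_le (Nat.sub_le _ _)

theorem invS_zero (Z : ℕ → R) : invS Z 0 = 1 := by rw [invS]

theorem invS_succ (Z : ℕ → R) (j : ℕ) :
    invS Z (j + 1) = -∑ i ∈ Finset.range (j + 1), Z (i + 1) * invS Z (j - i) := by
  rw [invS, Finset.sum_range]

theorem invS_conv {Z : ℕ → R} (h0 : Z 0 = 1) (j : ℕ) :
    ∑ i ∈ Finset.range (j + 1), Z i * invS Z (j - i) = if j = 0 then 1 else 0 := by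
  rcases j with _ | j
  · simp [invS_zero, h0]
  · rw [Finset.sum_range_succ', h0, one_mul, Nat.sub_zero, invS_succ]
    simp

theorem invS_conj {Z Z' : ℕ → R} {u v : R} (h : u * v = 1) (h' : v * u = 1)
    (hZ : ∀ j, 1 ≤ j → Z' j = v * Z j * u) (j : ℕ) : invS Z' j = v * invS Z j * u := by
  induction j using Nat.strong_induction_on with
  | _ j ih =>
    rcases j with _ | j
    · rw [invS_zero, invS_zero, mul_one, h']
    · rw [invS_succ, invS_succ, mul_neg, neg_mul, Finset.mul_sum, Finset.sum_mul]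
      congr 1
      refine Finset.sum_congr rfl fun i _ => ?_
      rw [hZ (i + 1) (by omega), ih (j - i) (by omega)]
      calc v * Z (i + 1) * u * (v * invS Z (j - i) * u)
          = v * Z (i + 1) * (u * v) * invS Z (j - i) * u := by noncomm_ring
        _ = _ := by rw [h, mul_one]; noncomm_ring

end alg

/-! ### majorants -/

/-- the solution of the linear recursion -/
def lrec (α β : ℝ) (e ν : ℕ → ℝ) (j : ℕ) : ℝ :=
  α * e j + β * ∑ i : Fin j, ν (i + 1) * lrec α β e ν (j - 1 - i)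
termination_by j
decreasing_by
  have := i.2
  omega

theorem lrec_eq (α β : ℝ) (e ν : ℕ → ℝ) (j : ℕ) : lrec α β e ν j =
    α * e j + β * ∑ i ∈ Finset.range j, ν (i + 1) * lrec α β e ν (j - 1 - i) := by
  rw [lrec, Finset.sum_range (fun i => ν (i + 1) * lrec α β e ν (j - 1 - i))]

theorem lrec_nn {α β : ℝ} {e ν : ℕ → ℝ} (hα : 0 ≤ α) (hβ : 0 ≤ β) (he : ∀ j, 0 ≤ e j)
    (hν : ∀ j, 0 ≤ ν j) (j : ℕ) : 0 ≤ lrec α β e ν j := by
  induction j using Nat.strong_induction_on with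
  | _ j ih =>
    rw [lrec_eq]
    refine add_nonneg (mul_nonneg hα (he j)) (mul_nonneg hβ (Finset.sum_nonneg fun i hi => ?_))
    have := Finset.mem_range.1 hi
    exact mul_nonneg (hν _) (ih _ (by omega))

theorem conv_le {f g : ℕ → ℝ} (hf : ∀ j, 0 ≤ f j) (hg : ∀ j, 0 ≤ g j) (J : ℕ) :
    ∑ j ∈ Finset.range J, ∑ i ∈ Finset.range j, f i * g (j - 1 - i) ≤
      (∑ i ∈ Finset.range J, f i) * ∑ k ∈ Finset.range J, g k := by
  have h1 : ∑ j ∈ Finset.range J, ∑ i ∈ Finset.range j, f i * g (j - 1 - i) =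
      ∑ i ∈ Finset.Ico 0 J, ∑ j ∈ Finset.Ico (i + 1) J, f i * g (j - 1 - i) := by
    rw [Finset.sum_Ico_Ico_comm', Finset.range_eq_Ico]
    refine Finset.sum_congr rfl fun j _ => ?_
    rw [Finset.range_eq_Ico]
  rw [h1, Finset.sum_mul, Finset.range_eq_Ico]
  refine Finset.sum_le_sum fun i _ => ?_
  rw [← Finset.mul_sum, Finset.sum_Ico_eq_sum_range]
  refine mul_le_mul_of_nonneg_left ?_ (hf i)
  have h2 : ∑ k ∈ Finset.range (J - (i + 1)), g (i + 1 + k - 1 - i) =
      ∑ k ∈ Finset.range (J - (i + 1)), g k :=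
    Finset.sum_congr rfl fun k _ => by
      congr 1
      omega
  rw [h2, ← Finset.range_eq_Ico]
  exact Finset.sum_le_sum_of_subset_of_nonneg
    (Finset.range_subset_range.2 (by omega)) fun k _ _ => hg k

theorem lrec_sum {α β : ℝ} {e ν : ℕ → ℝ} (hα : 0 ≤ α) (hβ : 0 ≤ β) (he : ∀ j, 0 ≤ e j)
    (hν : ∀ j, 0 ≤ ν j) {r E N : ℝ} (hr : 0 ≤ r)
    (hN : ∀ J, ∑ i ∈ Finset.range J, ν (i + 1) * r ^ (i + 1) ≤ N) (hβN : β * N ≤ 1 / 2)
    (hE : ∀ J, ∑ j ∈ Finset.range J, e j * r ^ j ≤ E) (J : ℕ) :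
    ∑ j ∈ Finset.range J, lrec α β e ν j * r ^ j ≤ 2 * α * E := by
  set p := lrec α β e ν with hp
  have hpn : ∀ j, 0 ≤ p j := lrec_nn hα hβ he hν
  set S : ℝ := ∑ j ∈ Finset.range J, p j * r ^ j with hS
  have hS0 : 0 ≤ S := Finset.sum_nonneg fun j _ => mul_nonneg (hpn j) (pow_nonneg hr _)
  have h1 : S = α * ∑ j ∈ Finset.range J, e j * r ^ j + β * ∑ j ∈ Finset.range J,
      ∑ i ∈ Finset.range j, (ν (i + 1) * r ^ (i + 1)) * (p (j - 1 - i) * r ^ (j - 1 - i)) := by
    rw [hS, Finset.mul_sum, Finset.mul_sum, ← Finset.sum_add_distrib]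
    refine Finset.sum_congr rfl fun j _ => ?_
    rw [hp, lrec_eq, ← hp, add_mul, mul_assoc, mul_assoc, Finset.sum_mul]
    congr 2
    refine Finset.sum_congr rfl fun i hi => ?_
    have hij := Finset.mem_range.1 hi
    have e1 : r ^ j = r ^ (i + 1) * r ^ (j - 1 - i) := by
      rw [← pow_add]
      congr 1
      omega
    rw [e1]
    ring
  have h2 := conv_le (f := fun i => ν (i + 1) * r ^ (i + 1)) (g := fun k => p k * r ^ k)
    (fun i => mul_nonneg (hν _) (pow_nonneg hr _)) (fun k => mul_nonneg (hpn k) (pow_nonneg hr _)) J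
  have h3 : (∑ i ∈ Finset.range J, ν (i + 1) * r ^ (i + 1)) * S ≤ N * S :=
    mul_le_mul_of_nonneg_right (hN J) hS0
  have h4 : β * ∑ j ∈ Finset.range J,
      ∑ i ∈ Finset.range j, (ν (i + 1) * r ^ (i + 1)) * (p (j - 1 - i) * r ^ (j - 1 - i)) ≤
      β * (N * S) := mul_le_mul_of_nonneg_left (h2.trans h3) hβ
  have h5 : β * (N * S) ≤ 1 / 2 * S := by
    rw [← mul_assoc]
    exact mul_le_mul_of_nonneg_right hβN hS0
  have h6 : α * ∑ j ∈ Finset.range J, e j * r ^ j ≤ α * E := mul_le_mul_of_nonneg_left (hE J) hα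
  linarith

/-- small radius -/
theorem exists_small {a : ℕ → ℝ} {r ε : ℝ} (ha : ∀ j, 0 ≤ a j) (hr : 0 < r)
    (hs : Summable fun j => a j * r ^ j) (hε : 0 < ε) : ∃ r', 0 < r' ∧ r' ≤ r ∧
      ∀ J, ∑ j ∈ Finset.range J, a (j + 1) * r' ^ (j + 1) ≤ ε := by
  set S : ℝ := ∑' j, a j * r ^ j with hS
  have hS0 : 0 ≤ S := tsum_nonneg fun j => mul_nonneg (ha j) (by positivity)
  set t : ℝ := min 1 (ε / (S + 1)) with ht
  have ht0 : 0 < t := lt_min one_pos (by positivity)
  have ht1 : t ≤ 1 := min_le_left _ _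
  refine ⟨t * r, by positivity, by nlinarith, fun J => ?_⟩
  have h1 : ∑ j ∈ Finset.range J, a (j + 1) * (t * r) ^ (j + 1) ≤
      t * ∑ j ∈ Finset.range J, a (j + 1) * r ^ (j + 1) := by
    rw [Finset.mul_sum]
    refine Finset.sum_le_sum fun j _ => ?_
    rw [mul_pow]
    have h2 : t ^ (j + 1) ≤ t := by
      rw [pow_succ]
      have := pow_le_one₀ (n := j) ht0.le ht1
      nlinarith
    have h3 : 0 ≤ a (j + 1) * r ^ (j + 1) := mul_nonneg (ha _) (by positivity)
    calc a (j + 1) * (t ^ (j + 1) * r ^ (j + 1)) = t ^ (j + 1) * (a (j + 1) * r ^ (j + 1)) := by ring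
      _ ≤ t * (a (j + 1) * r ^ (j + 1)) := mul_le_mul_of_nonneg_right h2 h3
  have h2 : ∑ j ∈ Finset.range J, a (j + 1) * r ^ (j + 1) ≤ S := by
    have h3 : ∑ j ∈ Finset.range (J + 1), a j * r ^ j ≤ S :=
      hs.sum_le_tsum _ fun j _ => mul_nonneg (ha j) (by positivity)
    rw [Finset.sum_range_succ' (fun j => a j * r ^ j)] at h3
    have : 0 ≤ a 0 * r ^ 0 := mul_nonneg (ha 0) (by positivity)
    linarith
  have h3 : t * S ≤ ε := by
    have h4 : t ≤ ε / (S + 1) := min_le_right _ _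
    rw [le_div_iff₀ (by positivity)] at h4
    nlinarith
  exact h1.trans ((mul_le_mul_of_nonneg_left h2 ht0.le).trans h3)

/-! ### endomorphism fields -/

variable {n : ℕ} {M : Type} [TopologicalSpace M] {A : Atl n M}

/-- smooth fields of endomorphisms -/
structure CJ (A : Atl n M) (U : A.ι → M → Matrix (Fin n) (Fin n) ℂ) : Prop where
  sm : ∀ i a b, A.SmAt i (fun x => U i x a b)
  tr : ∀ i j, ∀ x ∈ (A.e i).source ∩ (A.e j).source,
    U i x = ((Jm A i j x).map conj)⁻¹ * U j x * (Jm A i j x).map conj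

theorem Jbar_inv {i j : A.ι} {x : M} (hx : x ∈ (A.e i).source ∩ (A.e j).source) :
    (Jm A i j x).map conj * ((Jm A i j x).map conj)⁻¹ = 1 ∧
      ((Jm A i j x).map conj)⁻¹ * (Jm A i j x).map conj = 1 := by
  have h := isUnit_iff_ne_zero.2 (det_Jbar hx)
  exact ⟨Matrix.mul_nonsing_inv _ h, Matrix.nonsing_inv_mul _ h⟩

theorem CJ.one : CJ A (fun _ _ => 1) := by
  refine ⟨fun i a b => contDiffOn_const, fun i j x hx => ?_⟩
  rw [Matrix.mul_one, (Jbar_inv hx).2]

theorem CJ.mul {U V : A.ι → M → Matrix (Fin n) (Fin n) ℂ} (hU : CJ A U) (hV : CJ A V) :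
    CJ A (fun i x => U i x * V i x) := by
  refine ⟨fun i a b => ?_, fun i j x hx => ?_⟩
  · show ContDiffOn ℝ ∞ (fun z => (U i ((A.e i).symm z) * V i ((A.e i).symm z)) a b) _
    simp only [Matrix.mul_apply]
    exact ContDiffOn.sum fun c _ => (hU.sm i a c).mul (hV.sm i c b)
  · rw [hU.tr i j x hx, hV.tr i j x hx]
    calc _ = ((Jm A i j x).map conj)⁻¹ * U j x * ((Jm A i j x).map conj *
          ((Jm A i j x).map conj)⁻¹) * V j x * (Jm A i j x).map conj := by
          simp only [Matrix.mul_assoc]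
      _ = _ := by
          rw [(Jbar_inv hx).1, Matrix.mul_one]
          simp only [Matrix.mul_assoc]

theorem CJ.neg {U : A.ι → M → Matrix (Fin n) (Fin n) ℂ} (hU : CJ A U) :
    CJ A (fun i x => -U i x) := by
  refine ⟨fun i a b => (hU.sm i a b).neg, fun i j x hx => ?_⟩
  rw [hU.tr i j x hx, Matrix.mul_neg, Matrix.neg_mul]

theorem CJ.sum {κ : Type} {U : κ → A.ι → M → Matrix (Fin n) (Fin n) ℂ} (t : Finset κ)
    (hU : ∀ k ∈ t, CJ A (U k)) : CJ A (fun i x => ∑ k ∈ t, U k i x) := by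
  refine ⟨fun i a b => ?_, fun i j x hx => ?_⟩
  · show ContDiffOn ℝ ∞ (fun z => (∑ k ∈ t, U k i ((A.e i).symm z)) a b) _
    simp only [Matrix.sum_apply]
    exact ContDiffOn.sum fun c hc => (hU c hc).sm i a b
  · rw [Matrix.mul_sum, Matrix.sum_mul]
    exact Finset.sum_congr rfl fun k hk => (hU k hk).tr i j x hx

theorem CJ.of_tf (K : Kah A) {Y : A.ι → M → Matrix (Fin n) (Fin n) ℂ} (hY : TF A Y) :
    CJ A (fun i x => (K.g i x)⁻¹ * Y i x) :=
  ⟨fun i a b => Zf_sm K hY i a b, fun _ _ _ hx => Zf_tr K hY hx⟩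

theorem CJ.invS {Z : ℕ → A.ι → M → Matrix (Fin n) (Fin n) ℂ} (hZ : ∀ j, CJ A (Z j)) (j : ℕ) :
    CJ A (fun i x => invS (fun k => Z k i x) j) := by
  induction j using Nat.strong_induction_on with
  | _ j ih =>
    rcases j with _ | j
    · simp only [invS_zero]
      exact CJ.one
    · simp only [invS_succ]
      exact (CJ.sum _ fun i _ => (hZ (i + 1)).mul (ih (j - i) (by omega))).neg

/-- the real part of the trace -/
def trR (A : Atl n M) (U : A.ι → M → Matrix (Fin n) (Fin n) ℂ) (x : M) : ℝ :=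
  ((U (Crest.Agent.R273.FIb0_597.ch A x) x).trace).re

theorem CJ.trace_eq {U : A.ι → M → Matrix (Fin n) (Fin n) ℂ} (hU : CJ A U) {i j : A.ι} {x : M}
    (hx : x ∈ (A.e i).source ∩ (A.e j).source) : (U i x).trace = (U j x).trace := by
  rw [hU.tr i j x hx, Matrix.trace_mul_comm, ← Matrix.mul_assoc, (Jbar_inv hx).1, Matrix.one_mul]

theorem CJ.trR_eq {U : A.ι → M → Matrix (Fin n) (Fin n) ℂ} (hU : CJ A U) {i : A.ι} {x : M}
    (hx : x ∈ (A.e i).source) : trR A U x = ((U i x).trace).re := by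
  rw [trR, hU.trace_eq ⟨Crest.Agent.R273.FIb0_597.mem_ch A x, hx⟩]

theorem CJ.trR_sm {U : A.ι → M → Matrix (Fin n) (Fin n) ℂ} (hU : CJ A U) : A.Sm (trR A U) := by
  intro i
  have h1 : ContDiffOn ℝ ∞ (fun z => (U i ((A.e i).symm z)).trace) (A.e i).target := by
    simp only [Matrix.trace, Matrix.diag_apply]
    exact ContDiffOn.sum fun a _ => hU.sm i a a
  refine (Complex.reCLM.contDiff.comp_contDiffOn h1).congr fun z hz => ?_
  exact hU.trR_eq ((A.e i).map_target hz)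

end

end Crest.Agent.R281.HKMov_478
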