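import Crest.Agent.R281.HKMovL_478

/-!
# R281 (S0424), LAP-AN (helper478), file M: the linear recursion with bounds

* `Bd Bc N U`     : Hölder bounds of a matrix field on the balls; products, sums, traces
* `RL`            : the known part of the equation of order `j`
* **`lap_rec`**   : the power series solution with bounds
-/

set_option autoImplicit false
set_option linter.unusedSectionVars false

open Set Filter Topology Complex Metric
open scoped ContDiff Matrix ComplexConjugate ComplexOrder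

namespace Crest.Agent.R281.HKMov_478

open Crest.Agent.R275.Geo Crest.Agent.R275.Core144 Crest.Agent.R275.GC293
open Crest.Agent.R275.EDR890
open Crest.Agent.R273.Defs_333 Crest.Agent.R273.YauDefs_635 Crest.Agent.R273.HM_333
open Crest.Agent.R273.YauCh_635 Crest.Agent.R273.Hess_333 Crest.Agent.R273.HessB_333
open Crest.Agent.R273.Kah_333 Crest.Agent.R273.YauMax_635 Crest.Agent.R273.YauLoc_635
open Crest.Agent.R273.SchA_152 Crest.Agent.R273.SchD_152 Crest.Agent.R273.YauQ_635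
open Crest.Agent.R273.YauSchF_635 Crest.Agent.R273.YauOpA_635
open Crest.Agent.R273.SchF_152 Crest.Agent.R273.SchE_152 Crest.Agent.R273.SchG_152
open Crest.Agent.R273.Green_5 Crest.Agent.R273.GreenM_5 Crest.Agent.R273.FIb0_597
open Crest.Agent.R281.HkR_835 (K11 ofKah)

noncomputable section

variable {n : ℕ} {M : Type} [TopologicalSpace M] {A : Atl n M}

/-- Hölder bounds on the balls -/
def Bd (Bc : Cb A) (N : ℝ) (U : A.ι → M → Matrix (Fin n) (Fin n) ℂ) : Prop :=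
  ∀ k b c, HO (1 / 2) N (closedBall (Bc.z k) (Bc.r k / 2))
    (fun z => U (Bc.i k) ((A.e (Bc.i k)).symm z) b c)

variable {Bc : Cb A} {N N' : ℝ} {U U' : A.ι → M → Matrix (Fin n) (Fin n) ℂ}

theorem Bd.mono (h : Bd Bc N U) (hN : N ≤ N') : Bd Bc N' U := fun k b c => (h k b c).mono hN

theorem Bd.add (h : Bd Bc N U) (h' : Bd Bc N' U') : Bd Bc (N + N') (fun i x => U i x + U' i x) :=
  fun k b c => (h k b c).add (h' k b c)

theorem Bd.neg (h : Bd Bc N U) : Bd Bc N (fun i x => -U i x) := fun k b c => (h k b c).neg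

theorem Bd.mul (hN : 0 ≤ N) (hN' : 0 ≤ N') (h : Bd Bc N U) (h' : Bd Bc N' U') :
    Bd Bc (2 * n * (N * N')) (fun i x => U i x * U' i x) := by
  intro k b c
  simp only [Matrix.mul_apply]
  have h1 := ho_sum (Finset.univ : Finset (Fin n)) (a := 1 / 2) (M := 2 * N * N')
    (s := closedBall (Bc.z k) (Bc.r k / 2))
    (f := fun l z => U (Bc.i k) ((A.e (Bc.i k)).symm z) b l *
      U' (Bc.i k) ((A.e (Bc.i k)).symm z) l c)
    (fun l _ => ho_mul hN hN' (h k b l) (h' k l c))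
  rw [Finset.card_univ, Fintype.card_fin] at h1
  refine (h1.mono (le_of_eq ?_)).congr fun z _ => rfl
  ring

theorem Bd.sum {κ : Type} {N : κ → ℝ} {U : κ → A.ι → M → Matrix (Fin n) (Fin n) ℂ} (t : Finset κ)
    (h : ∀ l ∈ t, Bd Bc (N l) (U l)) : Bd Bc (∑ l ∈ t, N l) (fun i x => ∑ l ∈ t, U l i x) := by
  intro k b c
  simp only [Matrix.sum_apply]
  exact ho_fsum t fun l hl => h l hl k b c

theorem Bd.one : Bd Bc 1 (fun _ _ => (1 : Matrix (Fin n) (Fin n) ℂ)) := by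
  intro k b c
  refine ho_const ?_
  rw [Matrix.one_apply]
  split_ifs <;> simp

theorem Bd.trR (hU : CJ A U) (h : Bd Bc N U) : Bc.NH (1 / 2) (n * N) (trR A U) := by
  intro k
  have h1 := ho_sum (Finset.univ : Finset (Fin n)) (a := 1 / 2) (M := N)
    (s := closedBall (Bc.z k) (Bc.r k / 2))
    (f := fun a z => U (Bc.i k) ((A.e (Bc.i k)).symm z) a a) (fun a _ => h k a a)
  rw [Finset.card_univ, Fintype.card_fin] at h1
  refine (Crest.Agent.R273.YauPf_635.ho_re h1).congr fun z hz => ?_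
  exact hU.trR_eq ((A.e (Bc.i k)).map_target (Bc.sub' k hz))

/-- bounds of the inverse series -/
theorem Bd.invS {Z : ℕ → A.ι → M → Matrix (Fin n) (Fin n) ℂ} {z : ℕ → ℝ} (hz : ∀ j, 0 ≤ z j)
    (hZ : ∀ j, 1 ≤ j → Bd Bc (z j) (Z j)) (j : ℕ) :
    Bd Bc (lrec 1 (2 * n) (fun j => if j = 0 then 1 else 0) z j)
      (fun i x => invS (fun k => Z k i x) j) := by
  have hnn := lrec_nn (α := 1) (β := 2 * n) (e := fun j => if j = 0 then (1 : ℝ) else 0) (ν := z)
    zero_le_one (by positivity) (fun j => by split_ifs <;> norm_num) hz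
  induction j using Nat.strong_induction_on with
  | _ j ih =>
    rcases j with _ | j
    · simp only [invS_zero]
      refine Bd.one.mono ?_
      rw [lrec_eq]
      simp
    · simp only [invS_succ]
      refine (Bd.sum (N := fun i => 2 * n * (z (i + 1) * lrec 1 (2 * n)
        (fun j => if j = 0 then 1 else 0) z (j - i))) _ fun i _ => ?_).neg.mono (le_of_eq ?_)
      · exact Bd.mul (hz _) (hnn _) (hZ (i + 1) (by omega)) (ih (j - i) (by omega))
      · rw [lrec_eq 1 (2 * n) _ z (j + 1), ← Finset.mul_sum]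
        simp only [Nat.add_one_ne_zero, if_false, mul_zero, zero_add, Nat.add_sub_cancel]

/-- the field whose trace is the known part of the equation of order `j` -/
def UL (K : Kah A) (N Q : ℕ → A.ι → M → Matrix (Fin n) (Fin n) ℂ) (ψ : ℕ → M → ℝ) (j : ℕ)
    (i : A.ι) (x : M) : Matrix (Fin n) (Fin n) ℂ :=
  (K.g i x)⁻¹ * Q j i x +
    ∑ l ∈ Finset.range j, N (l + 1) i x * ((K.g i x)⁻¹ * Yf A Q ψ (j - 1 - l) i x)

theorem UL_congr (K : Kah A) (N Q : ℕ → A.ι → M → Matrix (Fin n) (Fin n) ℂ) {ψ ψ' : ℕ → M → ℝ}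
    {j : ℕ} (h : ∀ l < j, ψ l = ψ' l) : UL K N Q ψ j = UL K N Q ψ' j := by
  funext i x
  rw [UL, UL]
  congr 1
  refine Finset.sum_congr rfl fun l hl => ?_
  have := Finset.mem_range.1 hl
  rw [Yf, Yf, h (j - 1 - l) (by omega)]

theorem tf_Yf {Q : ℕ → A.ι → M → Matrix (Fin n) (Fin n) ℂ} (hQ : ∀ j, HF A (Q j))
    {ψ : ℕ → M → ℝ} (hψ : ∀ j, A.Sm (ψ j)) (j : ℕ) : TF A (Yf A Q ψ j) :=
  ((hQ j).add (hf_hsf (hψ j))).toTF

theorem UL_cj (K : Kah A) {N Q : ℕ → A.ι → M → Matrix (Fin n) (Fin n) ℂ} (hN : ∀ j, CJ A (N j))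
    (hQ : ∀ j, HF A (Q j)) {ψ : ℕ → M → ℝ} (hψ : ∀ j, A.Sm (ψ j)) (j : ℕ) :
    CJ A (UL K N Q ψ j) := by
  have h1 := CJ.of_tf K (hQ j).toTF
  have h2 := CJ.sum (Finset.range j) fun l _ =>
    (hN (l + 1)).mul (CJ.of_tf K (tf_Yf hQ hψ (j - 1 - l)))
  refine ⟨fun i a b => (h1.sm i a b).add (h2.sm i a b), fun i j' x hx => ?_⟩
  rw [UL, h1.tr i j' x hx, h2.tr i j' x hx, UL, Matrix.mul_add, Matrix.add_mul]

/-- **the linear recursion** -/
theorem exists_lrec [T2Space M] [CompactSpace M] [ConnectedSpace M] [Finite A.ι] (P : Part A)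
    (K : Kah A) (x0 : M) {N Q : ℕ → A.ι → M → Matrix (Fin n) (Fin n) ℂ} (hN : ∀ j, CJ A (N j))
    (hQ : ∀ j, HF A (Q j)) :
    ∃ (ψ : ℕ → M → ℝ) (c : ℕ → ℝ), (∀ j, A.Sm (ψ j)) ∧ (∀ j, ψ j x0 = 0) ∧
      ∀ j x, lapK K (ψ j) x = c j - trR A (UL K N Q ψ j) x := by
  obtain ⟨f, -, hf⟩ := exists_seq
    (α := {v : M → ℝ // A.Sm v ∧ v x0 = 0} × ℝ)
    (⟨⟨fun _ => 0, fun i => contDiffOn_const, rfl⟩, 0⟩)
    (fun f J a => ∀ x, lapK K a.1.1 x = a.2 - trR A (UL K N Q (fun j => (f (j + 1)).1.1) J) x)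
    (fun f f' J a h ha x => by
      rw [ha x, UL_congr K N Q (j := J) (ψ := fun j => (f (j + 1)).1.1)
        (ψ' := fun j => (f' (j + 1)).1.1) (fun j hj => by simp only [h (j + 1) (by omega)])])
    (fun f J => by
      have hR := (UL_cj K hN hQ (ψ := fun j => (f (j + 1)).1.1)
        (fun j => (f (j + 1)).1.2.1) J).trR_sm
      have hR' : A.Sm (fun x => -trR A (UL K N Q (fun j => (f (j + 1)).1.1) J) x) :=
        fun i => (hR i).neg
      obtain ⟨v, μ, hv, hlap⟩ := Crest.Agent.R273.CLin_933.lin_kah K P hR'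
      refine ⟨⟨⟨fun y => v y - v x0, fun i => (hv i).sub contDiffOn_const, sub_self _⟩, -μ⟩,
        fun x => ?_⟩
      simp only
      rw [lapK_sub_const K hv, hlap x]
      ring)
  exact ⟨fun j => (f (j + 1)).1.1, fun j => (f (j + 1)).2, fun j => (f (j + 1)).1.2.1,
    fun j => (f (j + 1)).1.2.2, fun j x => hf j x⟩

/-- the solution of the linear recursion with bounds -/
structure LnS (K : Kah A) (Bc : Cb A) (Z : ℕ → A.ι → M → Matrix (Fin n) (Fin n) ℂ) (Q : ℕ → K11 A)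
    (x0 : M) (r : ℝ) (ψ : ℕ → M → ℝ) (c ν p : ℕ → ℝ) : Prop where
  sm : ∀ j, A.Sm (ψ j)
  nrm : ∀ j, ψ j x0 = 0
  ν0 : ∀ j, 0 ≤ ν j
  p0 : ∀ j, 0 ≤ p j
  νs : Summable fun j => ν j * r ^ j
  ps : Summable fun j => p j * r ^ j
  hN : ∀ j, Bd Bc (ν j) (fun i x => invS (fun k => Z k i x) j)
  n2 : ∀ j, Bc.N2 (1 / 2) (p j) (ψ j)
  hc : ∀ j, |c j| ≤ p j
  hW : ∀ j, Bd Bc (p j) (fun i x => (K.g i x)⁻¹ * Yf A (fun j => (Q j).g) ψ j i x)
  hY : ∀ j, Bd Bc (p j) (Yf A (fun j => (Q j).g) ψ j)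
  eqn : ∀ j i, ∀ x ∈ (A.e i).source,
    (∑ l ∈ Finset.range (j + 1), (invS (fun k => Z k i x) l *
      ((K.g i x)⁻¹ * Yf A (fun j => (Q j).g) ψ (j - l) i x)).trace).re = c j

theorem sum_range_bd {a : ℕ → ℝ} {r : ℝ} (hr : 0 ≤ r) (ha : ∀ j, 0 ≤ a j)
    {S : ℝ} (hs : ∀ J, ∑ j ∈ Finset.range J, a j * r ^ j ≤ S) : Summable fun j => a j * r ^ j :=
  summable_of_sum_range_le (c := S) (fun j => mul_nonneg (ha j) (pow_nonneg hr j)) hs

/-- **bounds for the linear recursion** -/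
theorem lap_rec [T2Space M] [CompactSpace M] [ConnectedSpace M] [Finite A.ι] (P : Part A)
    (K : Kah A) (Bc : Cb A) (x0 : M) {Y Q : ℕ → K11 A} {a e : ℕ → ℝ} {r : ℝ} (hr : 0 < r)
    (ha : ∀ j, 0 ≤ a j) (has : Summable fun j => a j * r ^ j) (he : ∀ j, 0 ≤ e j)
    (hes : Summable fun j => e j * r ^ j) (hY : ∀ j, Bd Bc (a j) (Y j).g)
    (hQ : ∀ j, Bd Bc (e j) (Q j).g) :
    ∃ (r' : ℝ) (ψ : ℕ → M → ℝ) (c ν p : ℕ → ℝ), 0 < r' ∧ r' ≤ r ∧
      LnS K Bc (fun j i x => (K.g i x)⁻¹ * (Y j).g i x) Q x0 r' ψ c ν p := by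
  obtain ⟨V, hV0, hV⟩ := hf_inv_bound K Bc
  obtain ⟨CS, hCS, hlin⟩ := lin_boundK P K Bc
  set CT : ℝ := max CS 1 with hCT
  have hCT1 : 1 ≤ CT := le_max_right _ _
  have hCT0 : 0 ≤ CT := by linarith
  set c1 : ℝ := n * (2 * V) + 1 with hc1
  have hc11 : 1 ≤ c1 := by
    rw [hc1]
    have : (0 : ℝ) ≤ n * (2 * V) := by positivity
    linarith
  have hc10 : 0 ≤ c1 := by linarith
  have hn0 : (0 : ℝ) ≤ n := Nat.cast_nonneg n
  have hinv : ∀ {d : ℝ} {X : A.ι → M → Matrix (Fin n) (Fin n) ℂ}, 0 ≤ d → Bd Bc d X →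
      Bd Bc (c1 * d) (fun i x => (K.g i x)⁻¹ * X i x) := fun {d X} hd hX k b c =>
    ho_inv_mul (K := K) (i := Bc.i k) hV0 hd (hV k) (hX k) b c
  -- the inverse series
  set Z : ℕ → A.ι → M → Matrix (Fin n) (Fin n) ℂ := fun j i x => (K.g i x)⁻¹ * (Y j).g i x with hZ
  set z : ℕ → ℝ := fun j => c1 * a j with hz
  have hz0 : ∀ j, 0 ≤ z j := fun j => mul_nonneg hc10 (ha j)
  have hZb : ∀ j, Bd Bc (z j) (Z j) := fun j => hinv (ha j) (hY j)
  have hZc : ∀ j, CJ A (Z j) := fun j => CJ.of_tf K (k11_hf (Y j)).toTF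
  have hzs : Summable fun j => z j * r ^ j := by
    simp only [hz, mul_assoc]
    exact has.mul_left c1
  set δ : ℕ → ℝ := fun j => if j = 0 then 1 else 0 with hδ
  have hδ0 : ∀ j, 0 ≤ δ j := fun j => by
    simp only [hδ]
    split_ifs <;> norm_num
  set ν : ℕ → ℝ := lrec 1 (2 * n) δ z with hν
  have hν0 : ∀ j, 0 ≤ ν j := lrec_nn zero_le_one (by positivity) hδ0 hz0
  have hNb : ∀ j, Bd Bc (ν j) (fun i x => invS (fun k => Z k i x) j) :=
    Bd.invS hz0 fun j _ => hZb j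
  have hNc : ∀ j, CJ A (fun i x => invS (fun k => Z k i x) j) := CJ.invS hZc
  obtain ⟨r1, hr1, hr1r, h1⟩ := exists_small hz0 hr hzs (ε := 1 / (4 * n + 4)) (by positivity)
  have hνs1 : Summable fun j => ν j * r1 ^ j := by
    refine sum_range_bd hr1.le hν0 (S := 2 * 1 * 1)
      (lrec_sum zero_le_one (by positivity) hδ0 hz0 hr1.le h1 ?_ fun J => ?_)
    · rw [mul_one_div, div_le_iff₀ (by positivity)]
      linarith
    · refine (Finset.sum_le_sum (g := fun j => if j = 0 then (1 : ℝ) else 0)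
        fun j _ => ?_).trans ?_
      · rcases j with _ | j
        · simp [hδ]
        · simp [hδ]
      · rw [Finset.sum_ite_eq' (Finset.range J) 0 (fun _ => (1 : ℝ))]
        split_ifs <;> norm_num
  -- the solution
  obtain ⟨ψ, c, hψ, hψ0, hlap⟩ := exists_lrec P K x0 hNc (Q := fun j => (Q j).g)
    (fun j => k11_hf (Q j))
  set α : ℝ := c1 * (1 + CT * n * c1) with hα
  set β : ℝ := c1 * CT * n * (2 * n) with hβ
  have hα0 : 0 ≤ α := by positivity
  have hβ0 : 0 ≤ β := by positivity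
  set p : ℕ → ℝ := lrec α β e ν with hp
  have hp0 : ∀ j, 0 ≤ p j := lrec_nn hα0 hβ0 he hν0
  obtain ⟨r2, hr2, hr2r, h2⟩ := exists_small hν0 hr1 hνs1 (ε := 1 / (2 * (β + 1))) (by positivity)
  have hsm : ∀ {b : ℕ → ℝ} {R : ℝ}, (∀ j, 0 ≤ b j) → r2 ≤ R → (Summable fun j => b j * R ^ j) →
      Summable fun j => b j * r2 ^ j := fun {b R} hb hR hs =>
    Summable.of_nonneg_of_le (fun j => mul_nonneg (hb j) (by positivity))
      (fun j => mul_le_mul_of_nonneg_left (pow_le_pow_left₀ hr2.le hR _) (hb j)) hs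
  have hes2 : Summable fun j => e j * r2 ^ j := hsm he (hr2r.trans hr1r) hes
  have hps : Summable fun j => p j * r2 ^ j := by
    refine sum_range_bd hr2.le hp0 (S := 2 * α * ∑' j, e j * r2 ^ j)
      (lrec_sum hα0 hβ0 he hν0 hr2.le h2 ?_ fun J => ?_)
    · rw [mul_one_div, div_le_iff₀ (by positivity)]
      linarith
    · exact hes2.sum_le_tsum _ fun j _ => mul_nonneg (he j) (by positivity)
  have hYfb : ∀ j, ∀ {t : ℝ}, Bc.N2 (1 / 2) t (ψ j) →
      Bd Bc (e j + t) (Yf A (fun j => (Q j).g) ψ j) := fun j t ht k b c =>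
    (hQ j k b c).add (n2_hsf (hψ j) ht k b c)
  have key : ∀ j, Bc.N2 (1 / 2) (p j) (ψ j) ∧ |c j| ≤ p j ∧
      Bd Bc (p j) (fun i x => (K.g i x)⁻¹ * Yf A (fun j => (Q j).g) ψ j i x) ∧
      Bd Bc (p j) (Yf A (fun j => (Q j).g) ψ j) := by
    intro j
    induction j using Nat.strong_induction_on with
    | _ j ih =>
      set S : ℝ := ∑ l ∈ Finset.range j, ν (l + 1) * p (j - 1 - l) with hS
      have hS0 : 0 ≤ S := Finset.sum_nonneg fun l _ => mul_nonneg (hν0 _) (hp0 _)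
      have hUb : Bd Bc (c1 * e j + 2 * n * S)
          (UL K (fun j i x => invS (fun k => Z k i x) j) (fun j => (Q j).g) ψ j) := by
        refine (hinv (he j) (hQ j)).add ((Bd.sum
          (N := fun l => 2 * n * (ν (l + 1) * p (j - 1 - l))) _ fun l hl => ?_).mono
          (le_of_eq ?_))
        · have := Finset.mem_range.1 hl
          exact Bd.mul (hν0 _) (hp0 _) (hNb (l + 1)) (ih (j - 1 - l) (by omega)).2.2.1
        · rw [hS, Finset.mul_sum]
      have hNH := Bd.trR (UL_cj K hNc (fun j => k11_hf (Q j)) hψ j) hUb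
      set N : ℝ := n * (c1 * e j + 2 * n * S) with hN
      have hN0 : 0 ≤ N := mul_nonneg hn0
        (add_nonneg (mul_nonneg hc10 (he j)) (mul_nonneg (by positivity) hS0))
      obtain ⟨g1, g2⟩ := hlin x0 (ψ j) _ (c j) N (hψ j) (hlap j) hNH (hψ0 j)
      have hej := he j
      have hpj : p j = c1 * (e j + CT * N) := by
        rw [hp, lrec_eq, ← hp, ← hS, hα, hβ, hN]
        ring
      have hle : e j + CT * N ≤ p j := by
        rw [hpj]
        have : 0 ≤ e j + CT * N := by positivity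
        nlinarith
      have hCN : CS * N ≤ CT * N := mul_le_mul_of_nonneg_right (le_max_left _ _) hN0
      have hN2 : Bc.N2 (1 / 2) (CT * N) (ψ j) := g1.mono hCN
      refine ⟨hN2.mono (by linarith), ?_, (hinv (by positivity) (hYfb j hN2)).mono hpj.ge,
        (hYfb j hN2).mono hle⟩
      have : N ≤ CT * N := by nlinarith
      linarith
  refine ⟨r2, ψ, c, ν, p, hr2, hr2r.trans hr1r, hψ, hψ0, hν0, hp0, hsm hν0 hr2r hνs1, hps, hNb,
    fun j => (key j).1, fun j => (key j).2.1, fun j => (key j).2.2.1, fun j => (key j).2.2.2,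
    fun j i x hx => ?_⟩
  have h3 := hlap j x
  rw [lapK_eq K (hψ j) hx, (UL_cj K hNc (fun j => k11_hf (Q j)) hψ j).trR_eq hx] at h3
  rw [Finset.sum_range_succ' , invS_zero, Matrix.one_mul, Nat.sub_zero]
  have e1 : (K.g i x)⁻¹ * Yf A (fun j => (Q j).g) ψ j i x =
      (K.g i x)⁻¹ * (Q j).g i x + (K.g i x)⁻¹ * hsf A (ψ j) i x := by
    rw [Yf, Matrix.mul_add]
  rw [UL, Matrix.trace_add, Matrix.trace_sum] at h3
  rw [e1, Matrix.trace_add]
  have e2 : ∀ l, j - 1 - l = j - (l + 1) := fun l => by omega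
  simp only [e2] at h3
  simp only [Complex.add_re] at h3 ⊢
  linarith

end

end Crest.Agent.R281.HKMov_478
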