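import Crest.Agent.R281.HKMovM_478

/-!
# R281 (S0424), LAP-AN (helper478), file N: the sum of the linear series

* `psum φ t`, `psum_c2`, `c2f_psum`
* `lap_unique`   : `C²` solutions of `tr_K ∂∂̄ w = κ` are constant
* `hasSum_matmul`: Cauchy products of matrices
* **`lap_move`** : trace-free (constant trace) representatives along a move
-/

set_option autoImplicit false
set_option linter.unusedSectionVars false

open Set Filter Topology Complex Metric
open scoped ContDiff Matrix ComplexConjugate ComplexOrder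

namespace Crest.Agent.R281.HKMov_478

open Crest.Agent.R275.Geo Crest.Agent.R275.Core144 Crest.Agent.R275.GC293
open Crest.Agent.R275.EDR890
open Crest.Agent.R273.Defs_333 Crest.Agent.R273.YauDefs_635 Crest.Agent.R273.HM_333
open Crest.Agent.R273.YauCh_635 Crest.Agent.R273.Hess_333 Crest.Agent.R273.HessB_333
open Crest.Agent.R273.Kah_333 Crest.Agent.R273.YauMax_635 Crest.Agent.R273.YauLoc_635
open Crest.Agent.R273.SchA_152 Crest.Agent.R273.SchD_152 Crest.Agent.R273.YauQ_635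
open Crest.Agent.R273.YauSchF_635 Crest.Agent.R273.YauOpA_635
open Crest.Agent.R273.SchF_152 Crest.Agent.R273.SchE_152 Crest.Agent.R273.SchG_152
open Crest.Agent.R273.Green_5 Crest.Agent.R273.GreenM_5 Crest.Agent.R273.FIb0_597
open Crest.Agent.R281.HkR_835 (K11 ofKah)
open Crest.Agent.R281.KpU_487 (C2f smp_local contOn_inv)

noncomputable section

variable {n : ℕ} {M : Type} [TopologicalSpace M] {A : Atl n M}

/-! ### `C²` -/

theorem c2f_of_local {Ψ : M → ℝ}
    (h : ∀ x, ∃ k : A.ι, x ∈ (A.e k).source ∧ ContDiffAt ℝ 2 (inC A k Ψ) (A.e k x)) :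
    C2f A Ψ := by
  intro i z hz
  refine ContDiffAt.contDiffWithinAt ?_
  have hx := (A.e i).map_target hz
  obtain ⟨k, hk, hc⟩ := h ((A.e i).symm z)
  have hxx : (A.e i).symm z ∈ (A.e i).source ∩ (A.e k).source := ⟨hx, hk⟩
  have hT := anal_Tm (A := A) hxx
  rw [(A.e i).right_inv hz] at hT
  have hTz : Tm A i k z = A.e k ((A.e i).symm z) := rfl
  have h1 : ContDiffAt ℝ 2 (fun w => inC A k Ψ (Tm A i k w)) z := by
    refine ContDiffAt.comp z (g := inC A k Ψ) (f := Tm A i k) ?_ (hT.contDiffAt.restrict_scalars ℝ)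
    rw [hTz]
    exact hc
  refine h1.congr_of_eventuallyEq ?_
  have ho : IsOpen (A.ov i k) := isOpen_ov i k
  have hm : z ∈ A.ov i k := by
    have := mem_ov hxx
    rwa [(A.e i).right_inv hz] at this
  filter_upwards [ho.mem_nhds hm] with w hw
  simp [inC, Tm, (A.e k).left_inv hw.2]

/-- the sum of a power series of functions -/
def psum (φ : ℕ → M → ℝ) (t : ℝ) (x : M) : ℝ := ∑' j, t ^ j * φ j x

section psum

variable {Bc : Cb A} {φ : ℕ → M → ℝ} {a : ℕ → ℝ} {t : ℝ}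

theorem psum_c2 (hφ : ∀ j, A.Sm (φ j)) (ha : Summable fun j => |t| ^ j * a j)
    (h2 : ∀ j, Bc.N2 (1 / 2) (a j) (φ j)) (k : Bc.κ) :
    ContDiffOn ℝ 2 (inC A (Bc.i k) (psum φ t)) (ball (Bc.z k) (Bc.r k / 2)) ∧
      ∀ z ∈ ball (Bc.z k) (Bc.r k / 2), ∀ b c,
        HasSum (fun j => (t : ℂ) ^ j * cH (inC A (Bc.i k) (φ j)) z b c)
          (cH (inC A (Bc.i k) (psum φ t)) z b c) := by
  set O : Set (Cn n) := ball (Bc.z k) (Bc.r k / 2) with hO
  have hOB : O ⊆ closedBall (Bc.z k) (Bc.r k / 2) := ball_subset_closedBall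
  set u : ℕ → Cn n → ℝ := fun j z => t ^ j * inC A (Bc.i k) (φ j) z with hu
  have hc2 : ∀ j, ContDiffOn ℝ 2 (u j) O := fun j =>
    contDiffOn_const.mul (((inC_smooth (hφ j) (Bc.i k)).of_le two_le_inf).mono
      (hOB.trans (Bc.sub' k)))
  obtain ⟨g1, -, g3⟩ := sum_c2 isOpen_ball hc2 ha
    (fun j z hz => by
      simp only [hu]
      rw [norm_mul, norm_pow, Real.norm_eq_abs]
      exact mul_le_mul_of_nonneg_left ((h2 j k).h0.bdd z (hOB hz)) (by positivity))
    (fun j z hz => by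
      simp only [hu]
      rw [fd_cmul]
      exact norm_pow_smul_le (F := Cn n →L[ℝ] ℝ) t j _ ((h2 j k).h1.bdd z (hOB hz)))
    (fun j z hz => by
      simp only [hu]
      rw [fd2_cmul]
      exact norm_pow_smul_le (F := Cn n →L[ℝ] Cn n →L[ℝ] ℝ) t j _ ((h2 j k).h2.bdd z (hOB hz)))
  refine ⟨g1, fun z hz b c => ?_⟩
  have h3 := hasSum_clm (F := Cn n →L[ℝ] Cn n →L[ℝ] ℝ) (cHLc b c) (s := t)
    (q := fun j => fderiv ℝ (fderiv ℝ (inC A (Bc.i k) (φ j))) z) ha
    (fun j => (h2 j k).h2.bdd z (hOB hz))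
  have h4 : fderiv ℝ (fderiv ℝ (inC A (Bc.i k) (psum φ t))) z =
      ∑' j, t ^ j • fderiv ℝ (fderiv ℝ (inC A (Bc.i k) (φ j))) z := by
    refine (g3 z hz).trans ?_
    refine tsum_congr fun j => ?_
    simp only [hu]
    rw [fd2_cmul]
  rw [← h4] at h3
  exact h3

theorem c2f_psum (hφ : ∀ j, A.Sm (φ j)) (ha : Summable fun j => |t| ^ j * a j)
    (h2 : ∀ j, Bc.N2 (1 / 2) (a j) (φ j)) : C2f A (psum φ t) := by
  refine c2f_of_local fun x => ?_
  obtain ⟨k, hk, hx⟩ := Bc.cover x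
  exact ⟨Bc.i k, hk, (psum_c2 hφ ha h2 k).1.contDiffAt (isOpen_ball.mem_nhds hx)⟩

theorem psum_hs (ha : Summable fun j => |t| ^ j * a j)
    (h2 : ∀ j, Bc.N2 (1 / 2) (a j) (φ j)) (x : M) :
    HasSum (fun j => t ^ j * φ j x) (psum φ t x) := by
  refine (Summable.of_norm_bounded ha fun j => ?_).hasSum
  rw [norm_mul, norm_pow, Real.norm_eq_abs]
  refine mul_le_mul_of_nonneg_left ?_ (by positivity)
  obtain ⟨k, hk, hxk⟩ := Bc.cover x
  have h1 := (h2 j k).h0.bdd _ (ball_subset_closedBall hxk)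
  simpa [inC, (A.e (Bc.i k)).left_inv hk] using h1

end psum

/-! ### uniqueness -/

theorem lap_unique [CompactSpace M] [ConnectedSpace M] (Bc : Cb A) (K : Kah A) {w : M → ℝ}
    (hw : C2f A w) {κ : ℝ} (h : ∀ k, ∀ z ∈ ball (Bc.z k) (Bc.r k / 2),
      (((K.g (Bc.i k) ((A.e (Bc.i k)).symm z))⁻¹ * cH (inC A (Bc.i k) w) z).trace).re = κ) :
    κ = 0 ∧ ∀ x y, w x = w y := by
  have hwc : Continuous w := hw.continuous
  obtain ⟨x0⟩ := (inferInstance : Nonempty M)
  obtain ⟨x1, -, hx1⟩ := isCompact_univ.exists_isMaxOn (⟨x0, mem_univ x0⟩ : (univ : Set M).Nonempty)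
    hwc.continuousOn
  obtain ⟨x2, -, hx2⟩ := isCompact_univ.exists_isMinOn (⟨x0, mem_univ x0⟩ : (univ : Set M).Nonempty)
    hwc.continuousOn
  have hmax : ∀ y, w y ≤ w x1 := fun y => hx1 (mem_univ y)
  have hmin : ∀ y, w x2 ≤ w y := fun y => hx2 (mem_univ y)
  have hread : ∀ x, ∃ i, x ∈ (A.e i).source ∧ (((K.g i x)⁻¹ * hsf A w i x).trace).re = κ := by
    intro x
    obtain ⟨k, hk, hx⟩ := Bc.cover x
    refine ⟨Bc.i k, hk, ?_⟩
    have h1 := h k _ hx
    rw [(A.e (Bc.i k)).left_inv hk] at h1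
    rw [hw.hsf_eq (Bc.i k) hk]
    exact h1
  have h1 : κ ≤ 0 := by
    obtain ⟨i, hi, h4⟩ := hread x1
    have h2 := Crest.Agent.R281.KpU_487.hsf_nsd hw hmax i hi
    have h3 := trace_inv_mul_nonneg (K.pos i x1 hi) h2
    rw [Matrix.mul_neg, Matrix.trace_neg] at h3
    have h5 := (Complex.le_def.1 h3).1
    rw [Complex.zero_re, Complex.neg_re, h4] at h5
    linarith
  have h2 : 0 ≤ κ := by
    have hn : C2f A (fun x => -w x) := fun i => (hw i).neg
    obtain ⟨i, hi, h4⟩ := hread x2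
    have h2 := Crest.Agent.R281.KpU_487.hsf_nsd hn (x := x2) (fun y => neg_le_neg (hmin y)) i hi
    have e : hsf A (fun x => -w x) i x2 = -hsf A w i x2 := by
      have hz := (A.e i).open_target.mem_nhds ((A.e i).map_source hi)
      rw [hn.hsf_eq i hi, hw.hsf_eq i hi]
      exact Crest.Agent.R281.KpU_487.cH_neg ((hw i).contDiffAt hz)
    rw [e, neg_neg] at h2
    have h3 := (Complex.le_def.1 (trace_inv_mul_nonneg (K.pos i x2 hi) h2)).1
    rw [h4] at h3
    exact h3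
  have h0 : κ = 0 := le_antisymm h1 h2
  subst h0
  refine ⟨rfl, ?_⟩
  set m : ℝ := w x1 with hm
  have hclosed : IsClosed {x | w x = m} := isClosed_eq hwc continuous_const
  have hopen : IsOpen {x | w x = m} := by
    rw [isOpen_iff_mem_nhds]
    intro x hx
    obtain ⟨k, hi, hxk⟩ := Bc.cover x
    have hsub : ball (Bc.z k) (Bc.r k / 2) ⊆ (A.e (Bc.i k)).target :=
      ball_subset_closedBall.trans (Bc.sub' k)
    have key := smp_local (isOpen_ball (x := Bc.z k) (ε := Bc.r k / 2)) ((hw (Bc.i k)).mono hsub)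
      (Q := fun z => (K.g (Bc.i k) ((A.e (Bc.i k)).symm z))⁻¹)
      (fun z hz => (K.pos (Bc.i k) _ ((A.e (Bc.i k)).map_target (hsub hz))).inv)
      (fun a b => contOn_inv (fun a b => (K.sm (Bc.i k) a b).continuousOn.mono hsub)
        (fun z hz => (K.pos (Bc.i k) _ ((A.e (Bc.i k)).map_target (hsub hz))).det_pos.ne') a b)
      (fun z hz => (h k z hz).ge)
      (m := m) (fun z _ => hmax _) hxk (by
        simp only [(A.e (Bc.i k)).left_inv hi]
        exact hx)
    have h3 := ((A.e (Bc.i k)).continuousAt hi).eventually key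
    filter_upwards [h3, (A.e (Bc.i k)).open_source.mem_nhds hi] with y hy hys
    rw [(A.e (Bc.i k)).left_inv hys] at hy
    exact hy
  have huniv : {x | w x = m} = univ := IsClopen.eq_univ ⟨hclosed, hopen⟩ ⟨x1, rfl⟩
  have hall : ∀ x, w x = m := fun x => by
    have : x ∈ {x | w x = m} := by
      rw [huniv]
      exact mem_univ x
    exact this
  intro x y
  rw [hall x, hall y]

/-! ### Cauchy products -/

theorem hasSum_mulc {t : ℂ} {f g : ℕ → ℂ} {u v : ℕ → ℝ}
    (hu : Summable fun j => ‖t‖ ^ j * u j) (hv : Summable fun j => ‖t‖ ^ j * v j)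
    (hf : ∀ j, ‖f j‖ ≤ u j) (hg : ∀ j, ‖g j‖ ≤ v j) {x y : ℂ}
    (hx : HasSum (fun j => t ^ j * f j) x) (hy : HasSum (fun j => t ^ j * g j) y) :
    HasSum (fun j => t ^ j * ∑ l ∈ Finset.range (j + 1), f l * g (j - l)) (x * y) := by
  have hf' : Summable fun j => ‖t ^ j * f j‖ :=
    Summable.of_nonneg_of_le (fun j => norm_nonneg _) (fun j => by
      rw [norm_mul, norm_pow]
      exact mul_le_mul_of_nonneg_left (hf j) (by positivity)) hu
  have hg' : Summable fun j => ‖t ^ j * g j‖ :=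
    Summable.of_nonneg_of_le (fun j => norm_nonneg _) (fun j => by
      rw [norm_mul, norm_pow]
      exact mul_le_mul_of_nonneg_left (hg j) (by positivity)) hv
  have h1 := tsum_mul_tsum_eq_tsum_sum_range_of_summable_norm hf' hg'
  have h2 := (summable_norm_sum_mul_range_of_summable_norm hf' hg').of_norm.hasSum
  rw [← h1, hx.tsum_eq, hy.tsum_eq] at h2
  refine h2.congr_fun fun j => ?_
  rw [Finset.mul_sum]
  refine Finset.sum_congr rfl fun l hl => ?_
  have hlj : l ≤ j := Nat.lt_succ_iff.1 (Finset.mem_range.1 hl)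
  have e : t ^ j = t ^ l * t ^ (j - l) := by rw [← pow_add, Nat.add_sub_cancel' hlj]
  rw [e]
  ring

theorem hasSum_matmul {t : ℂ} {U V : ℕ → Matrix (Fin n) (Fin n) ℂ} {u v : ℕ → ℝ}
    (hu : Summable fun j => ‖t‖ ^ j * u j) (hv : Summable fun j => ‖t‖ ^ j * v j)
    (hU : ∀ j b c, ‖U j b c‖ ≤ u j) (hV : ∀ j b c, ‖V j b c‖ ≤ v j)
    {X Y : Matrix (Fin n) (Fin n) ℂ}
    (hX : ∀ b c, HasSum (fun j => t ^ j * U j b c) (X b c))
    (hY : ∀ b c, HasSum (fun j => t ^ j * V j b c) (Y b c)) (b c : Fin n) :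
    HasSum (fun j => t ^ j * (∑ l ∈ Finset.range (j + 1), U l * V (j - l)) b c) ((X * Y) b c) := by
  rw [Matrix.mul_apply]
  refine (hasSum_sum (s := (Finset.univ : Finset (Fin n))) fun d _ =>
    hasSum_mulc hu hv (fun j => hU j b d) (fun j => hV j d c) (hX b d) (hY d c)).congr_fun
    fun j => ?_
  rw [← Finset.mul_sum, Matrix.sum_apply, Finset.sum_comm]
  congr 1

theorem hasSum_trace {t : ℂ} {U : ℕ → Matrix (Fin n) (Fin n) ℂ} {X : Matrix (Fin n) (Fin n) ℂ}
    (hX : ∀ b c, HasSum (fun j => t ^ j * U j b c) (X b c)) :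
    HasSum (fun j => t ^ j * (U j).trace) X.trace := by
  refine (hasSum_sum (s := (Finset.univ : Finset (Fin n))) fun d _ => hX d d).congr_fun fun j => ?_
  rw [Matrix.trace, Finset.mul_sum]
  rfl

/-! ### the linear equation along a move -/

theorem Ps11.mono {Bc : Cb A} {G : ℝ → K11 A} {s0 r r' : ℝ} {Y : ℕ → K11 A} {a : ℕ → ℝ}
    (h : Ps11 Bc G s0 r Y a) (hr' : 0 < r') (hle : r' ≤ r) : Ps11 Bc G s0 r' Y a :=
  ⟨hr', h.a0, Summable.of_nonneg_of_le (fun j => mul_nonneg (h.a0 j) (by positivity))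
    (fun j => mul_le_mul_of_nonneg_left (pow_le_pow_left₀ hr'.le hle _) (h.a0 j)) h.sum, h.ho,
    fun s hs => h.hs s (hs.trans_le hle)⟩

/-- the equation for the sum -/
theorem LnS.eq_sum {K : ℝ → Kah A} {q : ℝ → K11 A} {Bc : Cb A} {x0 : M} {s0 r r' : ℝ}
    {Y Q : ℕ → K11 A} {a e : ℕ → ℝ} (hK : Ps11 Bc (fun s => ofKah (K s)) s0 r Y a)
    (hq : Ps11 Bc q s0 r Q e) {ψ : ℕ → M → ℝ} {c ν p : ℕ → ℝ}
    (S : LnS (K s0) Bc (fun j i x => ((K s0).g i x)⁻¹ * (Y j).g i x) Q x0 r' ψ c ν p)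
    (hr' : r' ≤ r) {s : ℝ} (hs : |s - s0| < r') (k : Bc.κ) {z : Cn n}
    (hz : z ∈ ball (Bc.z k) (Bc.r k / 2)) :
    HasSum (fun j => (s - s0) ^ j * c j)
      ((((K s).g (Bc.i k) ((A.e (Bc.i k)).symm z))⁻¹ * ((q s).g (Bc.i k) ((A.e (Bc.i k)).symm z) +
        cH (inC A (Bc.i k) (psum ψ (s - s0))) z)).trace).re := by
  obtain ⟨V, hV0, hV⟩ := hf_inv_bound (K s0) Bc
  set i := Bc.i k with hi
  set t : ℝ := s - s0 with ht
  have hzc : z ∈ closedBall (Bc.z k) (Bc.r k / 2) := ball_subset_closedBall hz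
  have hzt : z ∈ (A.e i).target := Bc.sub' k hzc
  set x := (A.e i).symm z with hx
  have hxs : x ∈ (A.e i).source := (A.e i).map_target hzt
  have hsr : |s - s0| < r := hs.trans_le hr'
  have hu : ∀ s, IsUnit ((K s).g i x).det := fun s =>
    isUnit_iff_ne_zero.2 ((K s).pos i x hxs).det_pos.ne'
  set G0 := (K s0).g i x with hG0
  set Z : ℕ → Matrix (Fin n) (Fin n) ℂ := fun j => G0⁻¹ * (Y j).g i x with hZ
  set W : ℕ → Matrix (Fin n) (Fin n) ℂ := fun j =>
    G0⁻¹ * Yf A (fun j => (Q j).g) ψ j i x with hW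
  have hmulL : ∀ {F : ℕ → Matrix (Fin n) (Fin n) ℂ} {X : Matrix (Fin n) (Fin n) ℂ},
      (∀ b c, HasSum (fun j => (t : ℂ) ^ j * F j b c) (X b c)) →
      ∀ b c, HasSum (fun j => (t : ℂ) ^ j * (G0⁻¹ * F j) b c) ((G0⁻¹ * X) b c) := by
    intro F X hF b c
    rw [Matrix.mul_apply]
    refine (hasSum_sum (s := (Finset.univ : Finset (Fin n))) fun l _ =>
      (hF l c).mul_left (G0⁻¹ b l)).congr_fun fun j => ?_
    rw [Matrix.mul_apply, Finset.mul_sum]
    refine Finset.sum_congr rfl fun l _ => ?_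
    ring
  have hnt : ‖(t : ℂ)‖ = |t| := by rw [Complex.norm_real, Real.norm_eq_abs]
  -- `E = G0⁻¹ K_s`
  have hE : ∀ b c, HasSum (fun j => (t : ℂ) ^ j * Z j b c) ((G0⁻¹ * (K s).g i x) b c) :=
    hmulL fun b c => hK.hs s hsr i x hxs b c
  have hZ0 : Z 0 = 1 := by
    have h1 : (Y 0).g i x = G0 := by
      ext b c
      exact hK.zero_eq hxs b c
    simp only [hZ]
    rw [h1, Matrix.nonsing_inv_mul _ (hu s0)]
  -- `N`
  have hνs : Summable fun j => |t| ^ j * ν j := smb S.ν0 S.νs hs.le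
  have hps : Summable fun j => |t| ^ j * p j := smb S.p0 S.ps hs.le
  have has : Summable fun j => |t| ^ j * a j := smb hK.a0 hK.sum hsr.le
  set Nm : Matrix (Fin n) (Fin n) ℂ := Matrix.of fun b c => ∑' j, (t : ℂ) ^ j * invS Z j b c
    with hNm
  have hNb : ∀ j b c, ‖invS Z j b c‖ ≤ ν j := fun j b c => (S.hN j k b c).bdd z hzc
  have hN : ∀ b c, HasSum (fun j => (t : ℂ) ^ j * invS Z j b c) (Nm b c) := by
    intro b c
    refine (Summable.of_norm_bounded hνs fun j => ?_).hasSum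
    rw [norm_mul, norm_pow, hnt]
    exact mul_le_mul_of_nonneg_left (hNb j b c) (by positivity)
  have hZb : ∀ j b c, ‖Z j b c‖ ≤ (n * (2 * V) + 1) * a j := fun j b c =>
    (ho_inv_mul (K := K s0) (i := i) hV0 (hK.a0 j) (hV k) (Y := (Y j).g)
      (fun b c => hK.ho j k b c) b c).bdd z hzc
  have has' : Summable fun j => |t| ^ j * ((n * (2 * V) + 1) * a j) := by
    have := has.mul_left (n * (2 * V) + 1)
    refine this.congr fun j => ?_
    ring
  have hEN : G0⁻¹ * (K s).g i x * Nm = 1 := by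
    ext b c
    have h1 := hasSum_matmul (t := (t : ℂ)) (U := Z) (V := invS Z)
      (by simpa only [hnt] using has') (by simpa only [hnt] using hνs) hZb hNb hE hN b c
    simp only [invS_conv hZ0] at h1
    have h2 : HasSum (fun j => (t : ℂ) ^ j *
        ((if j = 0 then 1 else 0 : Matrix (Fin n) (Fin n) ℂ) b c))
        ((1 : Matrix (Fin n) (Fin n) ℂ) b c) := by
      have h3 := hasSum_single (f := fun j => (t : ℂ) ^ j *
        ((if j = 0 then 1 else 0 : Matrix (Fin n) (Fin n) ℂ) b c)) 0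
        (fun j hj => by simp [hj])
      simpa using h3
    exact h1.unique h2
  have hinv : ((K s).g i x)⁻¹ = Nm * G0⁻¹ := by
    refine Matrix.inv_eq_right_inv ?_
    have h1 : (K s).g i x * (Nm * G0⁻¹) = G0 * (G0⁻¹ * (K s).g i x * Nm) * G0⁻¹ := by
      have h2 : G0 * (G0⁻¹ * (K s).g i x * Nm) = (K s).g i x * Nm := by
        rw [← Matrix.mul_assoc, ← Matrix.mul_assoc, Matrix.mul_nonsing_inv _ (hu s0),
          Matrix.one_mul]
      rw [h2, Matrix.mul_assoc]
    rw [h1, hEN, Matrix.mul_one, Matrix.mul_nonsing_inv _ (hu s0)]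
  -- `W`
  have hcH : ∀ b c, HasSum (fun j => (t : ℂ) ^ j * hsf A (ψ j) i x b c)
      (cH (inC A i (psum ψ t)) z b c) := by
    intro b c
    have h1 := (psum_c2 S.sm hps S.n2 k).2 z hz b c
    have e1 : ∀ j, cH (inC A (Bc.i k) (ψ j)) z = hsf A (ψ j) i x := fun j => by
      rw [hsf_eq_cH (S.sm j) hxs, hx, (A.e i).right_inv hzt]
    simp only [e1] at h1
    exact h1
  have hWs : ∀ b c, HasSum (fun j => (t : ℂ) ^ j * W j b c)
      ((G0⁻¹ * ((q s).g i x + cH (inC A i (psum ψ t)) z)) b c) := by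
    refine hmulL fun b c => ?_
    rw [Matrix.add_apply]
    refine ((hq.hs s hsr i x hxs b c).add (hcH b c)).congr_fun fun j => ?_
    rw [Yf, Matrix.add_apply]
    ring
  have hWb : ∀ j b c, ‖W j b c‖ ≤ p j := fun j b c => (S.hW j k b c).bdd z hzc
  have h1 := hasSum_trace (hasSum_matmul (t := (t : ℂ)) (U := invS Z) (V := W)
      (by simpa only [hnt] using hνs) (by simpa only [hnt] using hps) hNb hWb hN hWs)
  rw [← Matrix.mul_assoc, ← hinv] at h1
  have h2 := (Complex.hasSum_re h1)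
  refine h2.congr_fun fun j => ?_
  rw [← Complex.ofReal_pow, Complex.re_ofReal_mul, Matrix.trace_sum]
  congr 1
  exact (S.eqn j i x hxs).symm

end

end Crest.Agent.R281.HKMov_478
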