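import Crest.Agent.R281.HKMovN_478

/-!
# R281 (S0424), LAP-AN (helper478), file O: constant trace representatives along a move

* `exists_ctr`   : `q + i∂∂̄f` with constant trace, `f x0 = 0`
* **`lap_move`** : along `Ps11` families of metrics and of forms, `f` and the representative are `PsF`, `Ps11`
-/

set_option autoImplicit false
set_option linter.unusedSectionVars false

open Set Filter Topology Complex Metric
open scoped ContDiff Matrix ComplexConjugate ComplexOrder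

namespace Crest.Agent.R281.HKMov_478

open Crest.Agent.R275.Geo Crest.Agent.R275.Core144 Crest.Agent.R275.GC293
open Crest.Agent.R275.EDR890
open Crest.Agent.R273.Defs_333 Crest.Agent.R273.YauDefs_635 Crest.Agent.R273.HM_333
open Crest.Agent.R273.YauCh_635 Crest.Agent.R273.Hess_333 Crest.Agent.R273.HessB_333
open Crest.Agent.R273.Kah_333 Crest.Agent.R273.YauMax_635 Crest.Agent.R273.YauLoc_635
open Crest.Agent.R273.SchA_152 Crest.Agent.R273.SchD_152 Crest.Agent.R273.YauQ_635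
open Crest.Agent.R273.YauSchF_635 Crest.Agent.R273.YauOpA_635
open Crest.Agent.R273.SchF_152 Crest.Agent.R273.SchE_152 Crest.Agent.R273.SchG_152
open Crest.Agent.R273.Green_5 Crest.Agent.R273.GreenM_5 Crest.Agent.R273.FIb0_597
open Crest.Agent.R281.HkR_835 (K11 ofKah)
open Crest.Agent.R281.KpU_487 (C2f cH_sub)

noncomputable section

variable {n : ℕ} {M : Type} [TopologicalSpace M] {A : Atl n M}

/-- a representative with constant trace -/
theorem exists_ctr [T2Space M] [CompactSpace M] [ConnectedSpace M] [Finite A.ι] (P : Part A)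
    (K : Kah A) (q : K11 A) (x0 : M) : ∃ (f : M → ℝ) (c : ℝ), A.Sm f ∧ f x0 = 0 ∧
      ∀ i, ∀ x ∈ (A.e i).source, ((K.g i x)⁻¹ * (q.g i x + hsf A f i x)).trace = (c : ℂ) := by
  have h1 : A.Sm (fun x => -(trK K q.g x).re) := fun i => (trK_sm K (k11_hf q) i).neg
  obtain ⟨v, μ, hv, hlap⟩ := Crest.Agent.R273.CLin_933.lin_kah K P h1
  refine ⟨fun y => v y - v x0, -μ, fun i => (hv i).sub contDiffOn_const, sub_self _,
    fun i x hx => ?_⟩
  have hv' : A.Sm (fun y => v y - v x0) := fun i => (hv i).sub contDiffOn_const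
  have h2 := lapK_sub_const K hv (v x0) x
  rw [hlap x] at h2
  have h3 := trK_hf K (hf_hsf hv') hx
  have h4 := trK_hf K (k11_hf q) hx
  rw [Matrix.mul_add, Matrix.trace_add, ← h3, ← h4, ← Complex.ofReal_add]
  congr 1
  have h5 : (trK K (hsf A fun y => v y - v x0) x).re = -(trK K q.g x).re - μ := h2
  rw [h5]
  ring

/-- **LAP-AN along a move** -/
theorem lap_move [T2Space M] [CompactSpace M] [ConnectedSpace M] [Finite A.ι] (P : Part A)
    (Bc : Cb A) (x0 : M) {K : ℝ → Kah A} {q : ℝ → K11 A} {f : ℝ → M → ℝ} {cc : ℝ → ℝ}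
    {s0 r1 r2 δ : ℝ} {Y Q : ℕ → K11 A} {a e : ℕ → ℝ}
    (hK : Ps11 Bc (fun s => ofKah (K s)) s0 r1 Y a) (hq : Ps11 Bc q s0 r2 Q e) (hδ : 0 < δ)
    (hf : ∀ s, |s - s0| < δ → A.Sm (f s)) (hf0 : ∀ s, |s - s0| < δ → f s x0 = 0)
    (heq : ∀ s, |s - s0| < δ → ∀ i, ∀ x ∈ (A.e i).source,
      ((((K s).g i x)⁻¹ * ((q s).g i x + hsf A (f s) i x)).trace).re = cc s) :
    ∃ (r : ℝ) (ψ : ℕ → M → ℝ) (Q' : ℕ → K11 A) (c p : ℕ → ℝ), r ≤ δ ∧ r ≤ r1 ∧ r ≤ r2 ∧
      PsF Bc f s0 r ψ p ∧ (∀ j, |c j| ≤ p j) ∧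
      (∀ s, |s - s0| < r → HasSum (fun j => (s - s0) ^ j * c j) (cc s)) ∧
      ∀ q' : ℝ → K11 A, (∀ s, |s - s0| < δ → ∀ i, ∀ x ∈ (A.e i).source,
        (q' s).g i x = (q s).g i x + hsf A (f s) i x) → Ps11 Bc q' s0 r Q' p := by
  set ρ : ℝ := min δ (min r1 r2) with hρd
  have hρ : 0 < ρ := lt_min hδ (lt_min hK.r0 hq.r0)
  have hρδ : ρ ≤ δ := min_le_left _ _
  have hρ1 : ρ ≤ r1 := (min_le_right _ _).trans (min_le_left _ _)
  have hρ2 : ρ ≤ r2 := (min_le_right _ _).trans (min_le_right _ _)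
  have hK' := hK.mono hρ hρ1
  have hq' := hq.mono hρ hρ2
  obtain ⟨r, ψ, c, ν, p, hr, hrρ, S⟩ := lap_rec P (K s0) Bc x0 hρ hK'.a0 hK'.sum hq'.a0 hq'.sum
    (Y := Y) (Q := Q) (fun j => hK'.ho j) (fun j => hq'.ho j)
  have key : ∀ s, |s - s0| < r → HasSum (fun j => (s - s0) ^ j * c j) (cc s) ∧
      ∀ x, f s x = psum ψ (s - s0) x := by
    intro s hs
    have hsδ : |s - s0| < δ := hs.trans_le (hrρ.trans hρδ)
    have hps : Summable fun j => |s - s0| ^ j * p j := smb S.p0 S.ps hs.le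
    set F : M → ℝ := psum ψ (s - s0) with hF
    have hFc : C2f A F := c2f_psum S.sm hps S.n2
    have hfc : C2f A (f s) := C2f.of_sm (hf s hsδ)
    have hcs : Summable fun j => (s - s0) ^ j * c j := by
      refine Summable.of_norm_bounded hps fun j => ?_
      rw [norm_mul, norm_pow, Real.norm_eq_abs]
      exact mul_le_mul_of_nonneg_left (S.hc j) (by positivity)
    set C : ℝ := ∑' j, (s - s0) ^ j * c j with hC
    have hu := lap_unique Bc (K s) (hfc.sub hFc) (κ := cc s - C) (fun k z hz => by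
      have hzt : z ∈ (A.e (Bc.i k)).target := Bc.sub' k (ball_subset_closedBall hz)
      have h1 := (S.eq_sum hK' hq' hrρ hs k hz).tsum_eq
      have h2 := heq s hsδ (Bc.i k) _ ((A.e (Bc.i k)).map_target hzt)
      rw [hsf_eq_cH (hf s hsδ) ((A.e (Bc.i k)).map_target hzt), (A.e (Bc.i k)).right_inv hzt] at h2
      have hz' := (A.e (Bc.i k)).open_target.mem_nhds hzt
      have h3 : cH (inC A (Bc.i k) fun x => f s x - F x) z =
          cH (inC A (Bc.i k) (f s)) z - cH (inC A (Bc.i k) F) z :=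
        cH_sub ((hfc (Bc.i k)).contDiffAt hz') ((hFc (Bc.i k)).contDiffAt hz')
      have h4 : ((K s).g (Bc.i k) ((A.e (Bc.i k)).symm z))⁻¹ *
          (cH (inC A (Bc.i k) (f s)) z - cH (inC A (Bc.i k) F) z) =
          ((K s).g (Bc.i k) ((A.e (Bc.i k)).symm z))⁻¹ *
            ((q s).g (Bc.i k) ((A.e (Bc.i k)).symm z) + cH (inC A (Bc.i k) (f s)) z) -
          ((K s).g (Bc.i k) ((A.e (Bc.i k)).symm z))⁻¹ *
            ((q s).g (Bc.i k) ((A.e (Bc.i k)).symm z) + cH (inC A (Bc.i k) F) z) := by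
        rw [← Matrix.mul_sub]
        congr 1
        abel
      rw [h3, h4, Matrix.trace_sub, Complex.sub_re, h2, ← h1])
    have hF0 : F x0 = 0 := by
      simp [hF, psum, S.nrm]
    refine ⟨?_, fun x => ?_⟩
    · have h5 : cc s = C := by linarith [hu.1]
      rw [h5]
      exact hcs.hasSum
    · have h6 := hu.2 x x0
      simp only [hf0 s hsδ, hF0] at h6
      linarith
  have hPF : PsF Bc f s0 r ψ p := by
    refine ⟨hr, S.p0, S.ps, S.sm, S.n2, fun s hs x => ?_⟩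
    rw [(key s hs).2 x]
    exact psum_hs (smb S.p0 S.ps hs.le) S.n2 x
  refine ⟨r, ψ, fun j => addH (Q j) (ψ j) (S.sm j), c, p, hrρ.trans hρδ, hrρ.trans hρ1,
    hrρ.trans hρ2, hPF, S.hc, fun s hs => (key s hs).1, fun q' hq'' => ?_⟩
  refine ⟨hr, S.p0, S.ps, fun j => S.hY j, fun s hs i x hx b d => ?_⟩
  have hsδ : |s - s0| < δ := hs.trans_le (hrρ.trans hρδ)
  rw [hq'' s hsδ i x hx, Matrix.add_apply]
  refine ((hq'.hs s (hs.trans_le hrρ) i x hx b d).add
    (hPF.hsf_sum hs (hf s hsδ) hx b d)).congr_fun fun j => ?_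
  show _ * ((Q j).g i x + hsf A (ψ j) i x) b d = _
  rw [Matrix.add_apply]
  ring

end

end Crest.Agent.R281.HKMov_478
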