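import Mathlib

/-!
# R281 (S0424), leaf S6-HARN (helper331), part 1: the abstract half of (H) of 664 #6845

`(T, μ)` finite measure space, `G = |∇ρ|²`, `Q = tr Θ`, `Qe = tr Θ_ε = Q + Lap φ`,
`W = <dρ, dφ>`, `Lap ρ = - k Q`.  `ρ` may be unbounded and `G` only level-integrable (finite
volume leaves).

* `energy_le`: `∫_{a<ρ<b} G ≤ 2 k e (b-a+2) μ(T) + k² D² μ(T)`
* `osc_le`: if every unit level slab has volume + energy at least `c1`, the oscillation of `ρ`
  is bounded.
-/

set_option autoImplicit false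

open MeasureTheory Set Filter Topology
open scoped ContDiff

namespace Crest.Agent.R281.Har_331

noncomputable section

section abs

variable {T : Type*} [MeasurableSpace T] {μ : Measure T} {ρ G Q Qe W : T → ℝ}

theorem integrable_comp_mul (mρ : Measurable ρ) {f : ℝ → ℝ} {C : ℝ}
    (hf : Continuous f) (hC : ∀ s, |f s| ≤ C) {g : T → ℝ} (hg : Integrable g μ) :
    Integrable (fun x => f (ρ x) * g x) μ :=
  hg.bdd_mul (c := C) (hf.measurable.comp mρ).aestronglyMeasurable
    (Eventually.of_forall fun x => hC _)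

/-- smooth step from `a` to `a+1` -/
def stp (a s : ℝ) : ℝ := Real.smoothTransition (s - a)

/-- its derivative -/
def dstp (a s : ℝ) : ℝ := deriv Real.smoothTransition (s - a)

theorem stp_nonneg (a s : ℝ) : 0 ≤ stp a s := Real.smoothTransition.nonneg _
theorem stp_le_one (a s : ℝ) : stp a s ≤ 1 := Real.smoothTransition.le_one _
theorem stp_zero {a s : ℝ} (h : s ≤ a) : stp a s = 0 :=
  Real.smoothTransition.zero_of_nonpos (by linarith)
theorem stp_one {a s : ℝ} (h : a + 1 ≤ s) : stp a s = 1 :=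
  Real.smoothTransition.one_of_one_le (by linarith)
theorem contDiff_stp (a : ℝ) : ContDiff ℝ ∞ (stp a) :=
  (Real.smoothTransition.contDiff).comp (contDiff_id.sub contDiff_const)
theorem hasDerivAt_stp (a s : ℝ) : HasDerivAt (stp a) (dstp a s) s := by
  have h : HasDerivAt Real.smoothTransition (deriv Real.smoothTransition (s - a)) (s - a) :=
    ((Real.smoothTransition.contDiff (n := 1)).differentiable (by simp)).differentiableAt.hasDerivAt
  have h2 := HasDerivAt.comp s h ((hasDerivAt_id s).sub_const a)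
  rw [mul_one] at h2
  exact h2
theorem dstp_nonneg (a s : ℝ) : 0 ≤ dstp a s :=
  Real.smoothTransition.monotone.deriv_nonneg
theorem continuous_dstp (a : ℝ) : Continuous (dstp a) := by
  have : deriv (stp a) = dstp a := funext fun s => (hasDerivAt_stp a s).deriv
  rw [← this]
  exact (contDiff_stp a).continuous_deriv (by simp)
theorem stp_anti {a b : ℝ} (h : a ≤ b) (s : ℝ) : stp b s ≤ stp a s :=
  Real.smoothTransition.monotone (by linarith)

/-- `ψ' `: `1` on `[a,b]`, `0` off `[a-1,b+1]` -/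
def ps1 (a b s : ℝ) : ℝ := stp (a - 1) s - stp b s

/-- the primitive of `ps1` vanishing on `[b+1, ∞)` -/
def ps0 (a b s : ℝ) : ℝ := ∫ t in (b + 1)..s, ps1 a b t

/-- the derivative of `ps1` -/
def ps2 (a b s : ℝ) : ℝ := dstp (a - 1) s - dstp b s

theorem ps1_nonneg {a b : ℝ} (h : a ≤ b) (s : ℝ) : 0 ≤ ps1 a b s :=
  sub_nonneg.2 (stp_anti (by linarith) s)
theorem ps1_le_one {a b : ℝ} (s : ℝ) : ps1 a b s ≤ 1 := by
  have := stp_le_one (a - 1) s; have := stp_nonneg b s; unfold ps1; linarith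
theorem ps1_one {a b s : ℝ} (h1 : a ≤ s) (h2 : s ≤ b) : ps1 a b s = 1 := by
  rw [ps1, stp_one (by linarith), stp_zero h2]; simp
theorem ps1_zero_right {a b s : ℝ} (hab : a ≤ b) (h : b + 1 ≤ s) : ps1 a b s = 0 := by
  rw [ps1, stp_one (by linarith), stp_one h]; simp
theorem ps1_zero_left {a b s : ℝ} (hab : a ≤ b) (h : s ≤ a - 1) : ps1 a b s = 0 := by
  rw [ps1, stp_zero h, stp_zero (by linarith)]; simp
theorem contDiff_ps1 (a b : ℝ) : ContDiff ℝ ∞ (ps1 a b) := (contDiff_stp _).sub (contDiff_stp _)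
theorem hasDerivAt_ps1 (a b s : ℝ) : HasDerivAt (ps1 a b) (ps2 a b s) s :=
  (hasDerivAt_stp _ _).sub (hasDerivAt_stp _ _)
theorem continuous_ps2 (a b : ℝ) : Continuous (ps2 a b) :=
  (continuous_dstp _).sub (continuous_dstp _)
theorem hasDerivAt_ps0 (a b s : ℝ) : HasDerivAt (ps0 a b) (ps1 a b s) s :=
  intervalIntegral.integral_hasDerivAt_right
    ((contDiff_ps1 a b).continuous.intervalIntegrable _ _)
    ((contDiff_ps1 a b).continuous.stronglyMeasurableAtFilter _ _)
    (contDiff_ps1 a b).continuous.continuousAt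
theorem contDiff_ps0 (a b : ℝ) : ContDiff ℝ ∞ (ps0 a b) := by
  rw [contDiff_infty_iff_deriv]
  refine ⟨fun t => (hasDerivAt_ps0 a b t).differentiableAt, ?_⟩
  have : deriv (ps0 a b) = ps1 a b := funext fun t => (hasDerivAt_ps0 a b t).deriv
  rw [this]; exact contDiff_ps1 a b

theorem ps0_mono {a b : ℝ} (hab : a ≤ b) : Monotone (ps0 a b) := by
  have : ∀ s, 0 ≤ deriv (ps0 a b) s := fun s => by
    rw [(hasDerivAt_ps0 a b s).deriv]; exact ps1_nonneg hab s
  exact monotone_of_deriv_nonneg (fun s => (hasDerivAt_ps0 a b s).differentiableAt) this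

theorem ps0_self (a b : ℝ) : ps0 a b (b + 1) = 0 := by simp [ps0]

theorem ps0_nonpos {a b : ℝ} (hab : a ≤ b) (s : ℝ) : ps0 a b s ≤ 0 := by
  rcases le_total s (b + 1) with h | h
  · have := ps0_mono hab h; rwa [ps0_self] at this
  · have : ps0 a b s = 0 := by
      unfold ps0
      rw [intervalIntegral.integral_congr (g := fun _ => (0 : ℝ))]
      · simp
      · intro t ht
        rw [uIcc_of_le h] at ht
        exact ps1_zero_right hab ht.1
    exact this.le

theorem ps0_ge {a b : ℝ} (hab : a ≤ b) (s : ℝ) : -(b - a + 2) ≤ ps0 a b s := by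
  have h1 : -(b - a + 2) ≤ ps0 a b (a - 1) := by
    have h2 : ps0 a b (a - 1) = - ∫ t in (a - 1)..(b + 1), ps1 a b t := by
      unfold ps0; exact intervalIntegral.integral_symm _ _
    have h3 : ∫ t in (a - 1)..(b + 1), ps1 a b t ≤ ∫ t in (a - 1)..(b + 1), (1 : ℝ) :=
      intervalIntegral.integral_mono_on (by linarith)
        ((contDiff_ps1 a b).continuous.intervalIntegrable _ _) (by simp) fun t _ => ps1_le_one t
    simp only [intervalIntegral.integral_const, smul_eq_mul, mul_one] at h3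
    rw [h2]; linarith
  rcases le_total (a - 1) s with h | h
  · exact h1.trans (ps0_mono hab h)
  · have h4 : ps0 a b s = ps0 a b (a - 1) := by
      have h5 : ps0 a b (a - 1) - ps0 a b s = ∫ t in s..(a - 1), ps1 a b t := by
        unfold ps0
        exact intervalIntegral.integral_interval_sub_left
          ((contDiff_ps1 a b).continuous.intervalIntegrable _ _)
          ((contDiff_ps1 a b).continuous.intervalIntegrable _ _)
      have h6 : ∫ t in s..(a - 1), ps1 a b t = 0 := by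
        rw [intervalIntegral.integral_congr (g := fun _ => (0 : ℝ))]
        · simp
        · intro t ht
          rw [uIcc_of_le h] at ht
          exact ps1_zero_left hab ht.2
      linarith
    rw [h4]; exact h1

/-- `ps1` has compact support -/
theorem hcs_ps1 {a b : ℝ} (hab : a ≤ b) : HasCompactSupport (ps1 a b) := by
  refine HasCompactSupport.intro (isCompact_Icc (a := a - 1) (b := b + 1)) fun s hs => ?_
  rw [mem_Icc, not_and_or, not_le, not_le] at hs
  rcases hs with h | h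
  · exact ps1_zero_left hab h.le
  · exact ps1_zero_right hab h.le

/-- the abstract calculus on the torus (or on a leaf of finite volume): `Lap ρ = - k Q`,
`Qe = Q + Lap φ`, `W = <dρ, dφ>`, `|dφ| ≤ D` -/
structure Har (μ : Measure T) (ρ G Q Qe W : T → ℝ) (k e D : ℝ) : Prop where
  k0 : 0 ≤ k
  e0 : 0 ≤ e
  mρ : Measurable ρ
  mW : Measurable W
  G0 : ∀ x, 0 ≤ G x
  iG : ∀ f : ℝ → ℝ, Continuous f → HasCompactSupport f → Integrable (fun x => f (ρ x) * G x) μ
  iQ : Integrable Q μ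
  iQe : Integrable Qe μ
  hW : ∀ x, W x ^ 2 ≤ D ^ 2 * G x
  lQe : ∀ x, -e ≤ Qe x
  A : ∀ ψ ψ' : ℝ → ℝ, ContDiff ℝ ∞ ψ → (∀ s, HasDerivAt ψ (ψ' s) s) → HasCompactSupport ψ' →
    ∫ x, ψ' (ρ x) * G x ∂μ = k * ∫ x, ψ (ρ x) * Q x ∂μ
  B : ∀ ψ ψ' : ℝ → ℝ, ContDiff ℝ ∞ ψ → (∀ s, HasDerivAt ψ (ψ' s) s) → HasCompactSupport ψ' →
    ∫ x, ψ (ρ x) * (Qe x - Q x) ∂μ = - ∫ x, ψ' (ρ x) * W x ∂μ

variable {k e D : ℝ}

theorem Har.iS (H : Har μ ρ G Q Qe W k e D) (mG : Measurable G) {a b : ℝ} (hab : a ≤ b) :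
    IntegrableOn G {x | a < ρ x ∧ ρ x < b} μ := by
  have mS : MeasurableSet {x | a < ρ x ∧ ρ x < b} := (measurableSet_lt measurable_const H.mρ).inter
    (measurableSet_lt H.mρ measurable_const)
  have h1 := H.iG (ps1 a b) (contDiff_ps1 a b).continuous (hcs_ps1 hab)
  rw [← integrable_indicator_iff mS]
  refine h1.mono (mG.indicator mS).aestronglyMeasurable (Eventually.of_forall fun x => ?_)
  by_cases hx : x ∈ {x | a < ρ x ∧ ρ x < b}
  · rw [indicator_of_mem hx, ps1_one hx.1.le hx.2.le, one_mul]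
  · rw [indicator_of_notMem hx, norm_zero]; exact norm_nonneg _

/-- **energy between two levels** -/
theorem Har.energy_le [IsFiniteMeasure μ] (H : Har μ ρ G Q Qe W k e D) (mG : Measurable G)
    {a b : ℝ} (hab : a ≤ b) :
    ∫ x in {x | a < ρ x ∧ ρ x < b}, G x ∂μ ≤
      2 * (k * e * (b - a + 2) * μ.real univ) + k ^ 2 * D ^ 2 * μ.real univ := by
  have hk := H.k0
  set S : Set T := {x | a < ρ x ∧ ρ x < b} with hS
  have mS : MeasurableSet S := (measurableSet_lt measurable_const H.mρ).inter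
    (measurableSet_lt H.mρ measurable_const)
  have c0 := (contDiff_ps0 a b).continuous
  have c1 := (contDiff_ps1 a b).continuous
  have iG1 := H.iG (ps1 a b) c1 (hcs_ps1 hab)
  have b0 : ∀ s, |ps0 a b s| ≤ b - a + 2 := fun s => by
    rw [abs_le]; exact ⟨ps0_ge hab s, (ps0_nonpos hab s).trans (by linarith)⟩
  have b1 : ∀ s, |ps1 a b s| ≤ 1 := fun s => by
    rw [abs_le]; exact ⟨by linarith [ps1_nonneg hab s], ps1_le_one s⟩
  -- step 1
  have s1 : ∫ x in S, G x ∂μ ≤ ∫ x, ps1 a b (ρ x) * G x ∂μ := by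
    rw [← integral_indicator mS]
    refine integral_mono ((integrable_indicator_iff mS).2 (H.iS mG hab)) iG1 fun x => ?_
    by_cases hx : x ∈ S
    · simp only [indicator_of_mem hx]
      rw [ps1_one hx.1.le hx.2.le, one_mul]
    · simp only [indicator_of_notMem hx]
      exact mul_nonneg (ps1_nonneg hab _) (H.G0 x)
  -- step 2
  have s2 := H.A (ps0 a b) (ps1 a b) (contDiff_ps0 a b) (hasDerivAt_ps0 a b) (hcs_ps1 hab)
  have s3 := H.B (ps0 a b) (ps1 a b) (contDiff_ps0 a b) (hasDerivAt_ps0 a b) (hcs_ps1 hab)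
  have iQ0 := integrable_comp_mul H.mρ c0 b0 H.iQ
  have iQe0 := integrable_comp_mul H.mρ c0 b0 H.iQe
  have s4 : ∫ x, ps0 a b (ρ x) * (Qe x - Q x) ∂μ =
      ∫ x, ps0 a b (ρ x) * Qe x ∂μ - ∫ x, ps0 a b (ρ x) * Q x ∂μ := by
    rw [← integral_sub iQe0 iQ0]
    exact integral_congr_ae (Eventually.of_forall fun x => by ring)
  -- first term
  have s5 : ∫ x, ps0 a b (ρ x) * Qe x ∂μ ≤ e * (b - a + 2) * μ.real univ := by
    have : ∫ x, ps0 a b (ρ x) * Qe x ∂μ ≤ ∫ _x : T, e * (b - a + 2) ∂μ := by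
      refine integral_mono iQe0 (integrable_const _) fun x => ?_
      have h1 := ps0_nonpos hab (ρ x)
      have h2 := ps0_ge hab (ρ x)
      have h3 := H.lQe x
      have h4 := H.e0
      show ps0 a b (ρ x) * Qe x ≤ e * (b - a + 2)
      nlinarith
    refine this.trans (le_of_eq ?_)
    rw [integral_const, smul_eq_mul]; ring
  -- second term
  have i1 : Integrable (fun x => ps1 a b (ρ x)) μ := by
    have := integrable_comp_mul (μ := μ) H.mρ c1 b1 (integrable_const (1 : ℝ))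
    simpa using this
  have hpt : ∀ x, k * (ps1 a b (ρ x) * W x) ≤
      1 / 2 * (ps1 a b (ρ x) * G x) + k ^ 2 * D ^ 2 / 2 * ps1 a b (ρ x) := by
    intro x
    have h1 := ps1_nonneg hab (ρ x)
    have h2 := H.G0 x
    have h3 := H.hW x
    have h4 : k * W x ≤ 1 / 2 * G x + k ^ 2 * D ^ 2 / 2 := by
      by_cases hk0 : k * W x ≤ 0
      · nlinarith [sq_nonneg (k * D)]
      · push Not at hk0
        have h5 : (k * W x) ^ 2 ≤ (k ^ 2 * D ^ 2) * G x := by
          rw [mul_pow]
          calc k ^ 2 * W x ^ 2 ≤ k ^ 2 * (D ^ 2 * G x) :=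
                mul_le_mul_of_nonneg_left h3 (sq_nonneg _)
            _ = _ := by ring
        have h6 : (k ^ 2 * D ^ 2) * G x ≤ (1 / 2 * G x + k ^ 2 * D ^ 2 / 2) ^ 2 := by
          nlinarith [sq_nonneg (G x - k ^ 2 * D ^ 2)]
        exact le_of_sq_le_sq (h5.trans h6) (by positivity)
    calc k * (ps1 a b (ρ x) * W x) = ps1 a b (ρ x) * (k * W x) := by ring
      _ ≤ ps1 a b (ρ x) * (1 / 2 * G x + k ^ 2 * D ^ 2 / 2) := mul_le_mul_of_nonneg_left h4 h1
      _ = _ := by ring
  have hWabs : ∀ x, |ps1 a b (ρ x) * W x| ≤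
      ps1 a b (ρ x) * G x + D ^ 2 * ps1 a b (ρ x) := by
    intro x
    have h1 := ps1_nonneg hab (ρ x)
    have h2 := H.G0 x
    have h3 := H.hW x
    rw [abs_mul, abs_of_nonneg h1]
    have h4 : |W x| ≤ G x + D ^ 2 := by
      refine abs_le_of_sq_le_sq' ?_ (by positivity) |> fun h => abs_le.2 ⟨h.1, h.2⟩
      nlinarith [sq_nonneg (G x - D ^ 2), sq_nonneg (G x), sq_nonneg (D ^ 2), mul_nonneg h2
        (sq_nonneg D)]
    calc ps1 a b (ρ x) * |W x| ≤ ps1 a b (ρ x) * (G x + D ^ 2) :=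
          mul_le_mul_of_nonneg_left h4 h1
      _ = _ := by ring
  have iW : Integrable (fun x => ps1 a b (ρ x) * W x) μ := by
    refine (iG1.add (i1.const_mul (D ^ 2))).mono
      ((c1.measurable.comp H.mρ).mul H.mW).aestronglyMeasurable (Eventually.of_forall fun x => ?_)
    rw [Real.norm_eq_abs, Real.norm_eq_abs]
    exact (hWabs x).trans (le_abs_self _)
  have s6 : k * ∫ x, ps1 a b (ρ x) * W x ∂μ ≤
      1 / 2 * (∫ x, ps1 a b (ρ x) * G x ∂μ) + k ^ 2 * D ^ 2 / 2 * μ.real univ := by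
    rw [← integral_const_mul]
    have h1 : ∫ x, k * (ps1 a b (ρ x) * W x) ∂μ ≤
        ∫ x, (1 / 2 * (ps1 a b (ρ x) * G x) + k ^ 2 * D ^ 2 / 2 * ps1 a b (ρ x)) ∂μ :=
      integral_mono (iW.const_mul k) ((iG1.const_mul _).add (i1.const_mul _)) hpt
    have e5 : ∫ x, (1 / 2 * (ps1 a b (ρ x) * G x) + k ^ 2 * D ^ 2 / 2 * ps1 a b (ρ x)) ∂μ =
        1 / 2 * (∫ x, ps1 a b (ρ x) * G x ∂μ) + k ^ 2 * D ^ 2 / 2 * ∫ x, ps1 a b (ρ x) ∂μ := by
      rw [integral_add (iG1.const_mul _) (i1.const_mul _), integral_const_mul,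
        integral_const_mul]
    rw [e5] at h1
    have h2 : ∫ x, ps1 a b (ρ x) ∂μ ≤ μ.real univ := by
      have : ∫ x, ps1 a b (ρ x) ∂μ ≤ ∫ _x : T, (1 : ℝ) ∂μ :=
        integral_mono i1 (integrable_const _) fun x => ps1_le_one _
      rwa [integral_const, smul_eq_mul, mul_one] at this
    have h3 : k ^ 2 * D ^ 2 / 2 * ∫ x, ps1 a b (ρ x) ∂μ ≤ k ^ 2 * D ^ 2 / 2 * μ.real univ :=
      mul_le_mul_of_nonneg_left h2 (by positivity)
    linarith
  have s7 : k * ∫ x, ps0 a b (ρ x) * Q x ∂μ ≤ k * (e * (b - a + 2) * μ.real univ) +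
      k * ∫ x, ps1 a b (ρ x) * W x ∂μ := by
    rw [← mul_add]
    refine mul_le_mul_of_nonneg_left ?_ hk
    linarith
  have s8 : ∫ x, ps1 a b (ρ x) * G x ∂μ ≤ 2 * (k * e * (b - a + 2) * μ.real univ) +
      k ^ 2 * D ^ 2 * μ.real univ := by
    have e1 : k * (e * (b - a + 2) * μ.real univ) = k * e * (b - a + 2) * μ.real univ := by ring
    rw [e1] at s7
    linarith
  exact s1.trans s8

/-- **level counting**: if every slab of half width one around an attained level has volume plus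
energy at least `c1` and `e` is small, the oscillation is bounded -/
theorem Har.osc_le [IsFiniteMeasure μ] (H : Har μ ρ G Q Qe W k e D) (mG : Measurable G)
    {c1 m0 m1 : ℝ} (hc1 : 0 < c1) (h01 : m0 ≤ m1)
    (low : ∀ c, m0 ≤ c → c ≤ m1 → c1 ≤ μ.real {x | c - 1 < ρ x ∧ ρ x < c + 1} +
      ∫ x in {x | c - 1 < ρ x ∧ ρ x < c + 1}, G x ∂μ)
    (he : 8 * (k * e * μ.real univ) ≤ c1) :
    m1 - m0 ≤ 6 + 4 / c1 * (μ.real univ + k ^ 2 * D ^ 2 * μ.real univ) := by
  set V := μ.real univ with hV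
  have hV0 : 0 ≤ V := measureReal_nonneg
  set N : ℕ := ⌊(m1 - m0) / 2⌋₊ with hN
  have hN1 : (N : ℝ) ≤ (m1 - m0) / 2 := Nat.floor_le (by linarith)
  have hN2 : (m1 - m0) / 2 < N + 1 := Nat.lt_floor_add_one _
  set c : ℕ → ℝ := fun j => m0 + 2 * j + 1 with hc
  set S : ℕ → Set T := fun j => {x | c j - 1 < ρ x ∧ ρ x < c j + 1} with hS
  have mS : ∀ j, MeasurableSet (S j) := fun j =>
    (measurableSet_lt measurable_const H.mρ).inter (measurableSet_lt H.mρ measurable_const)
  have dS : Pairwise (Function.onFun Disjoint S) := by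
    have key : ∀ i j : ℕ, i < j → Disjoint (S i) (S j) := by
      intro i j hij
      rw [Set.disjoint_left]
      rintro x hx hy
      have h1 : ρ x < c i + 1 := hx.2
      have h2 : c j - 1 < ρ x := hy.1
      have h3 : (i : ℝ) + 1 ≤ j := by exact_mod_cast hij
      simp only [hc] at h1 h2
      linarith
    intro i j hij
    rcases lt_or_gt_of_ne hij with h | h
    · exact key i j h
    · exact (key j i h).symm
  have hsub : ∀ j ∈ Finset.range N, S j ⊆ {x | m0 < ρ x ∧ ρ x < m1} := by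
    intro j hj x hx
    have h3 : (j : ℝ) + 1 ≤ N := by exact_mod_cast Finset.mem_range.1 hj
    have h1 : ρ x < c j + 1 := hx.2
    have h2 : c j - 1 < ρ x := hx.1
    simp only [hc] at h1 h2
    have h4 : (0 : ℝ) ≤ j := Nat.cast_nonneg j
    exact ⟨by linarith, by linarith⟩
  have sumV : ∑ j ∈ Finset.range N, μ.real (S j) ≤ V := by
    have h1 : μ.real (⋃ j ∈ Finset.range N, S j) = ∑ j ∈ Finset.range N, μ.real (S j) :=
      measureReal_biUnion_finset (fun i _ j _ hij => dS hij) (fun j _ => mS j)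
    rw [← h1]
    exact measureReal_mono (subset_univ _)
  have hiS : ∀ j, IntegrableOn G (S j) μ := fun j => H.iS mG (by linarith)
  have sumG : ∑ j ∈ Finset.range N, ∫ x in S j, G x ∂μ ≤
      ∫ x in {x | m0 < ρ x ∧ ρ x < m1}, G x ∂μ := by
    have h1 : ∫ x in ⋃ j ∈ Finset.range N, S j, G x ∂μ = ∑ j ∈ Finset.range N, ∫ x in S j, G x ∂μ :=
      integral_biUnion_finset _ (fun j _ => mS j) (fun i _ j _ hij => dS hij)
        (fun j _ => hiS j)
    rw [← h1]
    refine setIntegral_mono_set (H.iS mG h01) (Eventually.of_forall fun x => H.G0 x) ?_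
    exact LE.le.eventuallyLE (iUnion₂_subset hsub)
  have lowj : ∀ j ∈ Finset.range N, c1 ≤ μ.real (S j) + ∫ x in S j, G x ∂μ := by
    intro j hj
    have h3 : (j : ℝ) + 1 ≤ N := by exact_mod_cast Finset.mem_range.1 hj
    have h4 : (0 : ℝ) ≤ j := Nat.cast_nonneg j
    refine low (c j) ?_ ?_
    · simp only [hc]; linarith
    · simp only [hc]; linarith
  have h1 : (N : ℝ) * c1 ≤ V + (2 * (k * e * (m1 - m0 + 2) * V) + k ^ 2 * D ^ 2 * V) := by
    have h2 := Finset.sum_le_sum lowj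
    rw [Finset.sum_const, Finset.card_range, nsmul_eq_mul, Finset.sum_add_distrib] at h2
    have h3 := H.energy_le mG h01
    linarith
  have h5 : 2 * (k * e * V) * (m1 - m0 + 2) ≤ c1 / 4 * (m1 - m0 + 2) :=
    mul_le_mul_of_nonneg_right (by linarith) (by linarith)
  have h6 : ((m1 - m0) / 2 - 1) * c1 ≤ N * c1 :=
    mul_le_mul_of_nonneg_right (by linarith) hc1.le
  have h7 : (m1 - m0) * c1 ≤ 6 * c1 + 4 * (V + k ^ 2 * D ^ 2 * V) := by nlinarith
  have h8 : (6 + 4 / c1 * (V + k ^ 2 * D ^ 2 * V)) * c1 =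
      6 * c1 + 4 * (V + k ^ 2 * D ^ 2 * V) := by field_simp
  exact le_of_mul_le_mul_right (by rw [h8]; exact h7) hc1

end abs

end

end Crest.Agent.R281.Har_331
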