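import Crest.Agent.R281.Har1_331
import Crest.Agent.R281.Glob1_484
import Crest.Agent.R273.GreenG_5

/-!
# R281 (S0424), leaf S6-HARN (helper331), part 2: the calculus fields on a compact Kaehler manifold

* `Gb K u v` : `<du, dv>` as a function on `M`; `Gb_self : Gb K u u = Dg K u`,
  `Gb_sq_le : Gb² ≤ Dg u · Dg v`, `Gb_comp : Gb (ψ u) v = ψ'(u) Gb u v`
* `int_Gb` : `∫ <du, dv> = - ∫ u Lap v`
* `har_compact` : the structure `Har` of part 1 on a compact Kaehler manifold.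
-/

set_option autoImplicit false
set_option linter.unusedSectionVars false

open Set Filter Topology Complex MeasureTheory
open scoped ContDiff Matrix ComplexConjugate ComplexOrder

namespace Crest.Agent.R281.Har_331

open Crest.Agent.R275 Crest.Agent.R275.Geo Crest.Agent.R275.Core144 Crest.Agent.R275.EDR890
open Crest.Agent.R275.Pai323 Crest.Agent.R275.C1d194
open Crest.Agent.R275.SerG398 (lint dens OffZ)
open Crest.Agent.R275.OmT75 (dj dl dl_chain dl_mul db_chain dj_sum dj_congr)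
open Crest.Agent.R273.Defs_333 Crest.Agent.R273.Hess_333 Crest.Agent.R273.HessB_333
open Crest.Agent.R273.HM_333 Crest.Agent.R273.Kah_333 Crest.Agent.R273.Vol_333
open Crest.Agent.R273.Vm_333
open Crest.Agent.R273.Green_5 Crest.Agent.R273.FIa0_597 Crest.Agent.R273.FIb0_597
open Crest.Agent.R273.FIc0_597 Crest.Agent.R273
open Crest.Agent.R273.SchI_152 (Dg sm_sq Dg_nonneg continuous_Dg)
open Crest.Agent.R273.StV_37 (totc)
open Crest.Agent.R273.GreenM_5 (Dn Tn fnD fnD_div sm_fnD integral_fnD_re sm_re CF.tn adj_dn)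
open Crest.Agent.R273.GreenG_5 (grd grd_qa grd_dn qa qa_eq adjugate_eq db_ofReal totc_grd smAt_trA
  trA_dn)
open Crest.Agent.R281.Glob1_484

noncomputable section

variable {n : ℕ}

/-! ### Cauchy-Schwarz -/

theorem cs_aux {H : Matrix (Fin n) (Fin n) ℂ} (hH : H.PosSemidef) (p q : Fin n → ℂ) :
    ((star q ⬝ᵥ (H *ᵥ p)).re) ^ 2 ≤
      (star p ⬝ᵥ (H *ᵥ p)).re * (star q ⬝ᵥ (H *ᵥ q)).re := by
  have hsym : (star p ⬝ᵥ (H *ᵥ q)).re = (star q ⬝ᵥ (H *ᵥ p)).re := by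
    have h1 : star (star p ⬝ᵥ (H *ᵥ q)) = star q ⬝ᵥ (H *ᵥ p) := by
      rw [Matrix.star_dotProduct, star_star, Matrix.star_mulVec, hH.1.eq,
        ← Matrix.dotProduct_mulVec]
    rw [← h1]; simp
  have h : ∀ t : ℝ, 0 ≤ (star q ⬝ᵥ (H *ᵥ q)).re * (t * t) + (2 * (star q ⬝ᵥ (H *ᵥ p)).re) * t +
      (star p ⬝ᵥ (H *ᵥ p)).re := by
    intro t
    have h1 := hH.re_dotProduct_nonneg (p + (t : ℂ) • q)
    have h2 : star (p + (t : ℂ) • q) ⬝ᵥ (H *ᵥ (p + (t : ℂ) • q)) =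
        star p ⬝ᵥ (H *ᵥ p) + (t : ℂ) * (star p ⬝ᵥ (H *ᵥ q)) + (t : ℂ) * (star q ⬝ᵥ (H *ᵥ p)) +
          ((t * t : ℝ) : ℂ) * (star q ⬝ᵥ (H *ᵥ q)) := by
      rw [star_add, star_smul, Matrix.mulVec_add, Matrix.mulVec_smul]
      simp only [dotProduct_add, add_dotProduct, dotProduct_smul, smul_dotProduct, smul_eq_mul]
      have : star (t : ℂ) = t := Complex.conj_ofReal t
      rw [this]; push_cast; ring
    rw [h2] at h1
    simp only [RCLike.re_to_complex, Complex.add_re, Complex.re_ofReal_mul] at h1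
    rw [hsym] at h1
    linarith
  have h3 := discrim_le_zero h
  unfold discrim at h3
  nlinarith

variable {M : Type} [TopologicalSpace M] {A : Atl n M} {L L' : LB A}

/-- `<du, dv>` (real part), as a function on `M` -/
def Gb (K : Kah A) (u v : M → ℝ) (x : M) : ℝ :=
  (fnD K (grd K.g (fun y => (u y : ℂ)) (fun y => (v y : ℂ))) x).re

theorem dl_gr (u : M → ℝ) (i : A.ι) (a : Fin n) (x : M) :
    dl A i a (fun y => (u y : ℂ)) x = gr (fun z => u ((A.e i).symm z)) (A.e i x) a := by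
  unfold OmT75.dl
  rw [dj_eq_wd]
  rfl

theorem sc {u : M → ℝ} (hu : A.Sm u) : ∀ i, A.SmAt i (fun y => (u y : ℂ)) :=
  fun i => smAt_ofReal (hu i)

theorem grdK_dn (K : Kah A) {u v : M → ℝ} (hu : A.Sm u) (hv : A.Sm v) :
    Dn A (grd K.g (fun y => (u y : ℂ)) (fun y => (v y : ℂ))) :=
  grd_dn (CF.tn (kah_cf K)) (sc hu) (sc hv)

theorem Gb_read (K : Kah A) {u v : M → ℝ} (hu : A.Sm u) (hv : A.Sm v) {i : A.ι} {x : M}
    (hx : x ∈ (A.e i).source) :
    Gb K u v x = (star (gr (fun z => v ((A.e i).symm z)) (A.e i x)) ⬝ᵥ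
      ((K.g i x)⁻¹ *ᵥ gr (fun z => u ((A.e i).symm z)) (A.e i x))).re := by
  have hd : (K.g i x).det ≠ 0 := (K.pos i x hx).det_pos.ne'
  unfold Gb
  rw [fnD_div K (grdK_dn K hu hv) hx, grd_qa, qa_eq, adjugate_eq (K.pos i x hx),
    Matrix.smul_mulVec, dotProduct_smul, smul_eq_mul, mul_div_cancel_left₀ _ hd]
  have e1 : (fun b => A.db i b (fun y => (v y : ℂ)) x) =
      star (gr (fun z => v ((A.e i).symm z)) (A.e i x)) := by
    funext b
    rw [db_ofReal, dl_gr]; rfl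
  have e2 : (fun a => dl A i a (fun y => (u y : ℂ)) x) =
      gr (fun z => u ((A.e i).symm z)) (A.e i x) := by
    funext a
    rw [dl_gr]
  rw [e1, e2]

theorem gq_read (K : Kah A) (u : M → ℝ) (i : A.ι) (x : M) :
    gq K u i x = (star (gr (fun z => u ((A.e i).symm z)) (A.e i x)) ⬝ᵥ
      ((K.g i x)⁻¹ *ᵥ gr (fun z => u ((A.e i).symm z)) (A.e i x))).re := by
  unfold gq
  rw [Matrix.mul_vecMulVec, Matrix.trace_vecMulVec, dotProduct_comm]

theorem Gb_self (K : Kah A) {u : M → ℝ} (hu : A.Sm u) (x : M) : Gb K u u x = Dg K u x := by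
  have hx := mem_ch A x
  rw [Gb_read K hu hu hx, Dg_eq K hu hx, gq_read]

theorem Gb_sq_le (K : Kah A) {u v : M → ℝ} (hu : A.Sm u) (hv : A.Sm v) (x : M) :
    Gb K u v x ^ 2 ≤ Dg K u x * Dg K v x := by
  have hx := mem_ch A x
  rw [Gb_read K hu hv hx, Dg_eq K hu hx, Dg_eq K hv hx, gq_read, gq_read]
  exact cs_aux (K.pos _ x hx).inv.posSemidef _ _

theorem Gb_comp (K : Kah A) {ψ ψ' : ℝ → ℝ} (hψ : ContDiff ℝ ∞ ψ)
    (h1 : ∀ s, HasDerivAt ψ (ψ' s) s) {u v : M → ℝ} (hu : A.Sm u) (hv : A.Sm v) (x : M) :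
    Gb K (fun y => ψ (u y)) v x = ψ' (u x) * Gb K u v x := by
  have hx := mem_ch A x
  rw [Gb_read K (sm_comp hψ hu) hv hx, Gb_read K hu hv hx]
  have e : gr (fun z => ψ (u ((A.e (ch A x)).symm z))) (A.e (ch A x) x) =
      ((ψ' (u x) : ℝ) : ℂ) • gr (fun z => u ((A.e (ch A x)).symm z)) (A.e (ch A x) x) := by
    funext a
    rw [Pi.smul_apply, smul_eq_mul]
    refine wd_comp_real (false, a) ?_ ?_
    · exact (sm_at hu hx).differentiableAt (by simp)
    · rw [(A.e (ch A x)).left_inv hx]; exact h1 _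
  rw [e, Matrix.mulVec_smul, dotProduct_smul, smul_eq_mul, Complex.re_ofReal_mul]

theorem sm_Gb (K : Kah A) {u v : M → ℝ} (hu : A.Sm u) (hv : A.Sm v) : A.Sm (Gb K u v) :=
  sm_re (sm_fnD K (grdK_dn K hu hv) (GreenG_5.smAt_grd (kah_cf K) (sc hu) (sc hv)))

section int

variable [T2Space M] [CompactSpace M] [Fintype A.ι] [MeasurableSpace M] [BorelSpace M]

/-- **Green's formula**: `∫ <du, dv> = - ∫ u Lap v` -/
theorem int_Gb (P : Part A) (K : Kah A) {u v : M → ℝ} (hu : A.Sm u) (hv : A.Sm v) :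
    ∫ x, Gb K u v x ∂(vm (volK K)) = - ∫ x, u x * Lap K v x ∂(vm (volK K)) := by
  have h1 : ∫ x, Gb K u v x ∂(vm (volK K)) =
      (totc P (grd K.g (fun y => (u y : ℂ)) (fun y => (v y : ℂ)))).re :=
    integral_fnD_re K P (grdK_dn K hu hv) (GreenG_5.smAt_grd (kah_cf K) (sc hu) (sc hv))
  have hD : Dn A (fun i x => (u x : ℂ) * ((K.g i x).adjugate * hsf A v i x).trace) := by
    have h0 := trA_dn (CF.tn (kah_cf K)) (CF.tn (hsf_cf hv))
    intro i j x hx
    have h2 := h0 i j x hx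
    show (u x : ℂ) * ((K.g i x).adjugate * hsf A v i x).trace =
      dens A i j x * ((u x : ℂ) * ((K.g j x).adjugate * hsf A v j x).trace)
    have h3 : ((K.g i x).adjugate * hsf A v i x).trace =
      dens A i j x * ((K.g j x).adjugate * hsf A v j x).trace := h2
    rw [h3]; ring
  have h2 : ∫ x, u x * Lap K v x ∂(vm (volK K)) =
      (totc P (fun i x => (u x : ℂ) * ((K.g i x).adjugate * hsf A v i x).trace)).re := by
    rw [← integral_fnD_re K P hD fun i => (sc hu i).mul (smAt_trA (kah_cf K) (hsf_cf hv) i)]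
    refine integral_congr_ae (Eventually.of_forall fun x => ?_)
    have hx := mem_ch A x
    show u x * Lap K v x = (fnD K _ x).re
    rw [fnD_div K hD hx, Lap_read K hv hx, ← trC_det K (hsf A v) hx, mul_div_assoc,
      mul_div_cancel_left₀ _ (K.pos _ x hx).det_pos.ne', Complex.re_ofReal_mul]
  rw [h1, totc_grd P (kah_cf K) hu hv, Complex.neg_re, h2]

theorem int_Gb_comp (P : Part A) (K : Kah A) {ψ ψ' : ℝ → ℝ} (hψ : ContDiff ℝ ∞ ψ)
    (h1 : ∀ s, HasDerivAt ψ (ψ' s) s) {u v : M → ℝ} (hu : A.Sm u) (hv : A.Sm v) :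
    ∫ x, ψ (u x) * Lap K v x ∂(vm (volK K)) = - ∫ x, ψ' (u x) * Gb K u v x ∂(vm (volK K)) := by
  have h2 := int_Gb P K (sm_comp hψ hu) hv
  simp only [Gb_comp K hψ h1 hu hv] at h2
  linarith

/-- **the structure `Har` on a compact Kaehler manifold** -/
theorem har_compact (P : Part A) (K : Kah A) {ρ φ Q : M → ℝ} {k e D : ℝ} (hρ : A.Sm ρ)
    (hφ : A.Sm φ) (hQ : Continuous Q) (k0 : 0 ≤ k) (e0 : 0 ≤ e)
    (hD : ∀ x, Dg K φ x ≤ D ^ 2) (hL : ∀ x, Lap K ρ x = - (k * Q x))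
    (hlow : ∀ x, -e ≤ Q x + Lap K φ x) :
    Har (vm (volK K)) ρ (Dg K ρ) Q (fun x => Q x + Lap K φ x) (Gb K ρ φ) k e D where
  k0 := k0
  e0 := e0
  mρ := (cont_sm hρ).measurable
  mW := (cont_sm (sm_Gb K hρ hφ)).measurable
  G0 := Dg_nonneg K hρ
  iG f hf _ := integrable_cont _ ((hf.comp (cont_sm hρ)).mul (continuous_Dg K hρ))
  iQ := integrable_cont _ hQ
  iQe := integrable_cont _ (hQ.add (cont_sm (sm_Lap K hφ)))
  hW x := by
    have h1 := Gb_sq_le K hρ hφ x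
    have h2 := Dg_nonneg K hρ x
    nlinarith [hD x]
  lQe := hlow
  A ψ ψ' hψ h1 _ := by
    rw [int_comp P K hψ h1 hρ, ← integral_neg, ← integral_const_mul]
    refine integral_congr_ae (Eventually.of_forall fun x => ?_)
    show -(ψ (ρ x) * Lap K ρ x) = k * (ψ (ρ x) * Q x)
    rw [hL]; ring
  B ψ ψ' hψ h1 _ := by
    have h2 : ∀ x, ψ (ρ x) * (Q x + Lap K φ x - Q x) = ψ (ρ x) * Lap K φ x := fun x => by ring
    simp only [h2]
    exact int_Gb_comp P K hψ h1 hρ hφ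

end int

end

end Crest.Agent.R281.Har_331
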