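import Crest.Agent.R281.Har2_331
import Crest.Agent.R281.S6D_664
import Crest.Agent.R273.Levi_145

/-!
# R281 (S0424), leaf S6-HARN (helper331), part 3: dictionary for an immersion `f : T → M`

* `hsf_pull` : `hsf B (u ∘ f) = Jpᵀ (hsf A u) conj Jp`
* `Dg_pull`  : `|d (u ∘ f)|² ≤ |du|² ∘ f` for `pullI K`
* `tr_pull`  : lower bound of the trace of a pulled back `(1,1)`-form
-/

set_option autoImplicit false
set_option linter.unusedSectionVars false

open Set Filter Topology Complex MeasureTheory Function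
open scoped ContDiff Matrix ComplexConjugate ComplexOrder

namespace Crest.Agent.R281.Har_331

open Crest.Agent.R275 Crest.Agent.R275.Geo Crest.Agent.R275.Core144 Crest.Agent.R275.EDR890
open Crest.Agent.R273.Defs_333 Crest.Agent.R273.Hess_333 Crest.Agent.R273.HessB_333
open Crest.Agent.R273.HM_333 Crest.Agent.R273.Kah_333 Crest.Agent.R273.Vol_333
open Crest.Agent.R273.Vm_333 Crest.Agent.R273.Map_835 Crest.Agent.R273.KahI_645
open Crest.Agent.R273.Green_5 Crest.Agent.R273.FIa0_597 Crest.Agent.R273.FIb0_597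
open Crest.Agent.R273.FIc0_597 Crest.Agent.R273
open Crest.Agent.R273.SchI_152 (Dg sm_sq Dg_nonneg continuous_Dg)
open Crest.Agent.R281.Glob1_484 Crest.Agent.R281.S6D_664

noncomputable section

variable {m n : ℕ}

/-! ### linear algebra -/

/-- the dual norm decreases under restriction to a subspace -/
theorem dual_le {G : Matrix (Fin n) (Fin n) ℂ} (hG : G.PosDef) {J : Matrix (Fin n) (Fin m) ℂ}
    (hH : (Jᵀ * G * J.map conj).PosDef) (p : Fin n → ℂ) :
    (star (Jᵀ *ᵥ p) ⬝ᵥ ((Jᵀ * G * J.map conj)⁻¹ *ᵥ (Jᵀ *ᵥ p))).re ≤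
      (star p ⬝ᵥ (G⁻¹ *ᵥ p)).re := by
  set H := Jᵀ * G * J.map conj with hHd
  set q := H⁻¹ *ᵥ (Jᵀ *ᵥ p) with hq
  set r := G⁻¹ *ᵥ p - J.map conj *ᵥ q with hr
  have hGu : IsUnit G.det := isUnit_iff_ne_zero.2 hG.det_pos.ne'
  have hHu : IsUnit H.det := isUnit_iff_ne_zero.2 hH.det_pos.ne'
  have hJs : (J.map conj)ᴴ = Jᵀ := by
    ext a b
    simp [Matrix.conjTranspose_apply]
  have hHq : H *ᵥ q = Jᵀ *ᵥ p := by
    rw [hq, Matrix.mulVec_mulVec, Matrix.mul_nonsing_inv _ hHu, Matrix.one_mulVec]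
  have hGr : G *ᵥ r = p - G *ᵥ (J.map conj *ᵥ q) := by
    rw [hr, Matrix.mulVec_sub, Matrix.mulVec_mulVec, Matrix.mul_nonsing_inv _ hGu,
      Matrix.one_mulVec]
  have h0 : 0 ≤ (star r ⬝ᵥ (G *ᵥ r)).re := hG.posSemidef.re_dotProduct_nonneg r
  have hs : star (J.map conj *ᵥ q) = star q ᵥ* Jᵀ := by
    rw [Matrix.star_mulVec, hJs]
  have hs2 : star (G⁻¹ *ᵥ p) = star p ᵥ* G⁻¹ := by
    rw [Matrix.star_mulVec, hG.inv.1.eq]
  have a1 : star (J.map conj *ᵥ q) ⬝ᵥ p = star q ⬝ᵥ (Jᵀ *ᵥ p) := by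
    rw [hs, Matrix.dotProduct_mulVec]
  have a2 : star (G⁻¹ *ᵥ p) ⬝ᵥ (G *ᵥ (J.map conj *ᵥ q)) = star p ⬝ᵥ (J.map conj *ᵥ q) := by
    rw [hs2, ← Matrix.dotProduct_mulVec, Matrix.mulVec_mulVec, Matrix.nonsing_inv_mul _ hGu,
      Matrix.one_mulVec]
  have a3 : star (J.map conj *ᵥ q) ⬝ᵥ (G *ᵥ (J.map conj *ᵥ q)) = star q ⬝ᵥ (Jᵀ *ᵥ p) := by
    rw [hs, ← Matrix.dotProduct_mulVec, Matrix.mulVec_mulVec, Matrix.mulVec_mulVec, ← hHd, hHq]
  have a4 : star p ⬝ᵥ (J.map conj *ᵥ q) = star (star q ⬝ᵥ (Jᵀ *ᵥ p)) := by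
    rw [Matrix.star_dotProduct, a1]
  have a5 : star (Jᵀ *ᵥ p) ⬝ᵥ q = star (star q ⬝ᵥ (Jᵀ *ᵥ p)) := by
    rw [Matrix.star_dotProduct]
  have h1 : star r ⬝ᵥ (G *ᵥ r) = star (G⁻¹ *ᵥ p) ⬝ᵥ p - star (star q ⬝ᵥ (Jᵀ *ᵥ p)) := by
    rw [hGr, hr, star_sub, sub_dotProduct, dotProduct_sub, dotProduct_sub, a1, a2, a3, a4]
    ring
  have h2 : star (G⁻¹ *ᵥ p) ⬝ᵥ p = star p ⬝ᵥ (G⁻¹ *ᵥ p) := by
    rw [hs2, Matrix.dotProduct_mulVec]
  rw [h1, h2, Complex.sub_re] at h0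
  rw [a5]
  linarith

variable {M T : Type} [TopologicalSpace M] [TopologicalSpace T] {A : Atl n M} {B : Atl m T}

theorem rd_diff {f : T → M} (hf : HolMap B A f) {j : B.ι} {i : A.ι} {y : T}
    (hy : y ∈ (B.e j).source) (hi : f y ∈ (A.e i).source) :
    DifferentiableAt ℂ (rd B A f j i) (B.e j y) := hf.diffAt (mem_dm hy hi)

theorem rd_val {f : T → M} {j : B.ι} {i : A.ι} {y : T} (hy : y ∈ (B.e j).source) :
    rd B A f j i (B.e j y) = A.e i (f y) := by
  show A.e i (f ((B.e j).symm (B.e j y))) = _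
  rw [(B.e j).left_inv hy]

theorem near_pull {f : T → M} (hf : HolMap B A f) {u : M → ℝ} {j : B.ι} {i : A.ι} {y : T}
    (hy : y ∈ (B.e j).source) (hi : f y ∈ (A.e i).source) :
    (fun w => u (f ((B.e j).symm w))) =ᶠ[𝓝 (B.e j y)]
      fun w => u ((A.e i).symm (rd B A f j i w)) := by
  filter_upwards [(hf.isOpen_dm j i).mem_nhds (mem_dm hy hi)] with w hw
  show u (f ((B.e j).symm w)) = u ((A.e i).symm (A.e i (f ((B.e j).symm w))))
  rw [(A.e i).left_inv hw.2]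

theorem hess_hs' {l : ℕ} (u : Cn l → ℝ) (z : Cn l) (a b : Fin l) :
    hess u z a b = Levi_145.hs (Levi_145.cx u) z a b := by
  rw [hess_apply]
  simp only [Levi_145.hs, Crest.Agent.R275.OmT75.dj, wd, wdL, cI_false]
  rw [neg_smul, ← sub_eq_add_neg]
  rfl

/-- chain rule for the complex Hessian -/
theorem hess_compR' {u : Cn n → ℝ} {S : Cn m → Cn n} {z : Cn m}
    (hT : AnalyticAt ℂ S z) (hu : ContDiffAt ℝ 2 u (S z)) :
    hess (fun w => u (S w)) z =
      (mt (fderiv ℂ S z))ᵀ * hess u (S z) * (mt (fderiv ℂ S z)).map conj := by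
  ext a b
  rw [hess_hs']
  have e : Levi_145.cx (fun w => u (S w)) = fun w => (Levi_145.cx u) (S w) := rfl
  rw [e, Levi_145.hs_comp hT (Levi_145.cx_c2 hu)]
  simp only [Matrix.mul_apply, Matrix.transpose_apply, Matrix.map_apply, Finset.sum_mul, hess_hs']
  rw [Finset.sum_comm]
  refine Finset.sum_congr rfl fun c _ => Finset.sum_congr rfl fun d _ => ?_
  show _ = (fderiv ℂ S z (EuclideanSpace.single a 1)) d * _ *
    conj ((fderiv ℂ S z (EuclideanSpace.single b 1)) c)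
  ring

/-- **(d1)** the Hessian of `u ∘ f` -/
theorem hsf_pull {f : T → M} (hf : HolMap B A f) {u : M → ℝ} {j : B.ι} {i : A.ι} {y : T}
    (hy : y ∈ (B.e j).source) (hi : f y ∈ (A.e i).source)
    (hu : ContDiffAt ℝ ∞ (fun z => u ((A.e i).symm z)) (A.e i (f y))) :
    hsf B (fun t => u (f t)) j y =
      (Jp B A f j i y)ᵀ * hsf A u i (f y) * (Jp B A f j i y).map conj := by
  have hT : AnalyticAt ℂ (rd B A f j i) (B.e j y) := hf.analyticAt (mem_dm hy hi)
  have h1 : hsf B (fun t => u (f t)) j y =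
      hess (fun w => u ((A.e i).symm (rd B A f j i w))) (B.e j y) := by
    show hess (fun w => u (f ((B.e j).symm w))) (B.e j y) = _
    exact hess_congr (near_pull hf hy hi)
  rw [h1, hess_compR' (u := fun z => u ((A.e i).symm z)) hT]
  · rw [rd_val hy]; rfl
  · rw [rd_val hy]; exact hu.of_le (WithTop.coe_le_coe.2 le_top)

/-- the gradient of `u ∘ f` -/
theorem gr_pull {f : T → M} (hf : HolMap B A f) {u : M → ℝ} {j : B.ι} {i : A.ι} {y : T}
    (hy : y ∈ (B.e j).source) (hi : f y ∈ (A.e i).source)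
    (hu : ContDiffAt ℝ ∞ (fun z => u ((A.e i).symm z)) (A.e i (f y))) :
    gr (fun w => u (f ((B.e j).symm w))) (B.e j y) =
      (Jp B A f j i y)ᵀ *ᵥ gr (fun z => u ((A.e i).symm z)) (A.e i (f y)) := by
  funext a
  have h1 : cu (fun w => u (f ((B.e j).symm w))) =ᶠ[𝓝 (B.e j y)]
      fun w => cu (fun z => u ((A.e i).symm z)) (rd B A f j i w) := by
    filter_upwards [near_pull hf (u := u) hy hi] with w hw
    show ((u (f ((B.e j).symm w)) : ℝ) : ℂ) = ((u ((A.e i).symm (rd B A f j i w)) : ℝ) : ℂ)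
    rw [hw]
  show wd (false, a) (cu fun w => u (f ((B.e j).symm w))) (B.e j y) = _
  rw [wd_congr h1, wd_comp' (f := cu fun z => u ((A.e i).symm z)) ?_ (rd_diff hf hy hi)]
  · rw [rd_val hy]
    rfl
  · rw [rd_val hy]
    exact (contDiffAt_cu hu).differentiableAt (by simp)

section imm

variable (K : Kah A) {f : T → M} (hf : HolMap B A f) (hi : Imm B A f)

/-- **(d2)** -/
theorem Dg_pull {u : M → ℝ} (hu : A.Sm u) (huf : B.Sm fun t => u (f t)) (y : T) :
    Dg (pullI K hf hi) (fun t => u (f t)) y ≤ Dg K u (f y) := by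
  have hy := mem_ch B y
  have hx := mem_ch A (f y)
  rw [Dg_eq _ huf hy, Dg_eq K hu hx, gq_read, gq_read]
  have h1 := gr_pull hf (u := u) hy hx (sm_at hu hx)
  rw [h1]
  have h2 := pullI_g K hf hi hy hx
  have h3 := (pullI K hf hi).pos _ y hy
  rw [h2] at h3
  rw [h2]
  exact dual_le (K.pos _ _ hx) h3 _

/-- **(d3)** -/
theorem tr_pull {S : Matrix (Fin n) (Fin n) ℂ} {j : B.ι} {i : A.ι} {y : T} {e : ℝ}
    (hy : y ∈ (B.e j).source) (hx : f y ∈ (A.e i).source)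
    (hS : (S + (e : ℂ) • K.g i (f y)).PosSemidef) :
    -(e * m) ≤ ((((pullI K hf hi).g j y)⁻¹ *
      ((Jp B A f j i y)ᵀ * S * (Jp B A f j i y).map conj)).trace).re := by
  have h2 := pullI_g K hf hi hy hx
  have h3 := (pullI K hf hi).pos _ y hy
  set J := Jp B A f j i y with hJ
  have hJs : (J.map conj)ᴴ = Jᵀ := by
    ext a b
    simp [Matrix.conjTranspose_apply]
  have h4 : (Jᵀ * (S + (e : ℂ) • K.g i (f y)) * J.map conj).PosSemidef := by
    have := hS.conjTranspose_mul_mul_same (J.map conj)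
    rwa [hJs] at this
  have h5 := tr_re_nonneg h3 h4
  have h6 : Jᵀ * (S + (e : ℂ) • K.g i (f y)) * J.map conj =
      Jᵀ * S * J.map conj + (e : ℂ) • (pullI K hf hi).g j y := by
    rw [h2, Matrix.mul_add, Matrix.add_mul, Matrix.mul_smul, Matrix.smul_mul]
  rw [h6, Matrix.mul_add, Matrix.trace_add, Matrix.mul_smul, Matrix.trace_smul, tr_self h3,
    Complex.add_re, smul_eq_mul, Complex.re_ofReal_mul, Complex.natCast_re] at h5
  linarith

end imm

end

end Crest.Agent.R281.Har_331
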