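import Crest.Agent.R273.DegOne_376

/-!
# Row 281, HODGE-2, part 1 (helper850): the part of degree two of the Fock space

* `c2 v a b`  : coefficient of `dz̄_a ∧ dz̄_b` of a Fock vector `v` (antisymmetric matrix)
* `v2 B`      : the Fock vector `1/2 ∑ B a b e_a e_b` of a matrix
* `c2_v2`, `v2_c2`, `c2_Gam`, `Gam_v2`, `c2_conj`
* `c2_sum_eW` : `c2 (∑ e_a w_a) p q = w_p {q} - w_q {p}`
* `sum_eW_v2` : `∑ e_a (v2 (T a)) = 0` if the cyclic sums of `T` vanish
-/

set_option autoImplicit false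
set_option linter.unusedSectionVars false

open Set Filter Topology Complex
open scoped ContDiff Matrix ComplexConjugate

namespace Crest.Agent.R281.Hdg_850

open Crest.Agent.R275.Kos798
open Crest.Agent.R273.Fock_243 (FI Gam eW iW ep)
open Crest.Agent.R273.DegOne_376

noncomputable section

variable {n : ℕ}

/-- the vacuum -/
def vac (n : ℕ) : FI n → ℂ := Pi.single ∅ 1

theorem vac_empty : vac n ∅ = 1 := Pi.single_eq_same _ _

theorem iW_vac (w : Fin n → ℂ) : iW w *ᵥ vac n = 0 := by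
  unfold iW
  rw [K_mulVec]
  funext T
  unfold op
  refine Finset.sum_eq_zero fun a _ => ?_
  by_cases ha : a ∈ T
  · simp [cf, ha]
  · have : tog T a ≠ ∅ := by
      intro h
      have h1 : a ∈ tog T a := (mem_tog_self T a).2 ha
      rw [h] at h1
      exact absurd h1 (Finset.notMem_empty a)
    simp [vac, Pi.single_eq_of_ne this]

/-- `(e_v w) ∅ = 0` -/
theorem eW_empty (v : Fin n → ℂ) (w : FI n → ℂ) : (eW v *ᵥ w) ∅ = 0 := by
  unfold eW
  rw [K_mulVec]
  unfold op
  refine Finset.sum_eq_zero fun a _ => ?_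
  simp [cf]

/-- the coefficient matrix of the part of degree two -/
def c2 (v : FI n → ℂ) : Matrix (Fin n) (Fin n) ℂ := fun a b => (iW (ep b) *ᵥ (iW (ep a) *ᵥ v)) ∅

theorem iW_ep_empty (a : Fin n) (v : FI n → ℂ) : (iW (ep a) *ᵥ v) ∅ = v {a} := by
  rw [iW_empty, Finset.sum_eq_single a]
  · simp
  · intro b _ hb
    simp [Pi.single_eq_of_ne hb]
  · intro h
    exact absurd (Finset.mem_univ a) h

theorem iW_ep_apply (a : Fin n) (v : FI n → ℂ) (T : FI n) :
    (iW (ep a) *ᵥ v) T = if a ∈ T then 0 else sgn ℂ a T * v (insert a T) := by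
  unfold iW
  rw [K_mulVec]
  unfold op
  rw [Finset.sum_eq_single a]
  · by_cases h : a ∈ T
    · simp [cf, h]
    · simp [cf, h, tog]
  · intro b _ hb
    by_cases h : b ∈ T
    · simp [cf, h]
    · simp [cf, h, Pi.single_eq_of_ne hb]
  · intro h
    exact absurd (Finset.mem_univ a) h

theorem c2_eq (v : FI n → ℂ) (a b : Fin n) :
    c2 v a b = if a = b then 0 else sgn ℂ a {b} * v {a, b} := by
  unfold c2
  rw [iW_ep_empty, iW_ep_apply]
  by_cases h : a = b
  · subst h; simp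
  · simp [h]

theorem sgn_conj (a : Fin n) (T : FI n) : conj (sgn ℂ a T) = sgn ℂ a T := by
  unfold sgn
  simp

theorem sgn_ne (a : Fin n) (T : FI n) : sgn ℂ a T ≠ 0 := by
  unfold sgn
  exact pow_ne_zero _ (by norm_num)

theorem c2_conj (v : FI n → ℂ) (a b : Fin n) :
    c2 (fun S => conj (v S)) a b = conj (c2 v a b) := by
  rw [c2_eq, c2_eq]
  split_ifs
  · simp
  · rw [map_mul, sgn_conj]

theorem c2_anti (v : FI n → ℂ) : (c2 v)ᵀ = - c2 v := by
  ext a b
  simp only [Matrix.transpose_apply, Matrix.neg_apply]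
  unfold c2
  have h := congrArg (fun m => (m *ᵥ v) ∅)
    (Crest.Agent.R273.Fock_243.iW_anti (ep a : Fin n → ℂ) (ep b))
  simp only [Matrix.add_mulVec, ← Matrix.mulVec_mulVec, Matrix.zero_mulVec, Pi.add_apply,
    Pi.zero_apply] at h
  linear_combination h

theorem c2_add (v w : FI n → ℂ) : c2 (v + w) = c2 v + c2 w := by
  ext a b
  simp [c2, Matrix.mulVec_add]

theorem c2_sub (v w : FI n → ℂ) : c2 (v - w) = c2 v - c2 w := by
  ext a b
  simp [c2, Matrix.mulVec_sub]

theorem c2_smul (c : ℂ) (v : FI n → ℂ) : c2 (c • v) = c • c2 v := by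
  ext a b
  simp [c2, Matrix.mulVec_smul]

theorem c2_sum {ι : Type*} (s : Finset ι) (v : ι → FI n → ℂ) :
    c2 (∑ i ∈ s, v i) = ∑ i ∈ s, c2 (v i) := by
  classical
  induction s using Finset.induction_on with
  | empty => ext a b; simp [c2]
  | insert a s ha ih => rw [Finset.sum_insert ha, Finset.sum_insert ha, c2_add, ih]

/-- `c2` is injective in degree two -/
theorem eq_zero_of_c2 {v : FI n → ℂ} (hv : ∀ S : FI n, S.card ≠ 2 → v S = 0) (h : c2 v = 0) :
    v = 0 := by
  funext S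
  by_cases hS : S.card = 2
  · obtain ⟨a, b, hab, rfl⟩ := Finset.card_eq_two.1 hS
    have h1 := congrFun (congrFun h a) b
    rw [c2_eq, if_neg hab] at h1
    exact (mul_eq_zero.1 h1).resolve_left (sgn_ne _ _)
  · exact hv S hS

/-- `c2` and linear maps of the base -/
theorem c2_Gam (m : Matrix (Fin n) (Fin n) ℂ) (v : FI n → ℂ) :
    c2 (Gam m *ᵥ v) = m * c2 v * mᵀ := by
  have h0 : ∀ w : FI n → ℂ, (Gam m *ᵥ w) ∅ = w ∅ := by
    intro w
    simp only [Matrix.mulVec, dotProduct]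
    rw [Finset.sum_eq_single ∅]
    · rw [Crest.Agent.R273.Fock_243.Gam_vac, if_pos rfl, one_mul]
    · intro T _ hT
      rw [Crest.Agent.R273.Fock_243.Gam_of_ne m (by
        rw [Finset.card_empty]; exact fun h => hT (Finset.card_eq_zero.1 h.symm)), zero_mul]
    · intro h
      exact absurd (Finset.mem_univ _) h
  ext a b
  have h1 : ∀ (c : Fin n) (w : FI n → ℂ), iW (ep c) *ᵥ (Gam m *ᵥ w) =
      Gam m *ᵥ (∑ d, m c d • (iW (ep d) *ᵥ w)) := by
    intro c w
    rw [Matrix.mulVec_mulVec, Crest.Agent.R273.Fock_243.iW_Gam, ← Matrix.mulVec_mulVec,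
      Crest.Agent.R273.Fock_243.iW_eq_sum]
    congr 1
    rw [Matrix.sum_mulVec]
    refine Finset.sum_congr rfl fun d _ => ?_
    rw [Matrix.smul_mulVec]
    congr 1
    simp [Matrix.mulVec, dotProduct, Matrix.transpose_apply, Pi.single_apply]
  have e1 : c2 (Gam m *ᵥ v) a b = ∑ x, ∑ y, m b x * (m a y * c2 v y x) := by
    unfold c2
    rw [h1, h1, h0]
    simp only [Matrix.mulVec_sum, Matrix.mulVec_smul, Finset.sum_apply, Pi.smul_apply, smul_eq_mul,
      Finset.mul_sum]
  rw [e1]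
  simp only [Matrix.mul_apply, Matrix.transpose_apply, Finset.sum_mul]
  exact Finset.sum_congr rfl fun x _ => Finset.sum_congr rfl fun y _ => by ring

/-! ### the vector of a matrix -/

/-- `1/2 ∑ B a b e_a e_b` -/
def v2 (B : Matrix (Fin n) (Fin n) ℂ) : FI n → ℂ :=
  (1 / 2 : ℂ) • ∑ a, ∑ b, B a b • (eW (ep a) *ᵥ (eW (ep b) *ᵥ vac n))

theorem eW_deg2 {v : Fin n → ℂ} {w : FI n → ℂ} {k : ℕ} (hw : ∀ S : FI n, S.card ≠ k → w S = 0)
    (S : FI n) (hS : S.card ≠ k + 1) : (eW v *ᵥ w) S = 0 := by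
  simp only [Matrix.mulVec, dotProduct]
  refine Finset.sum_eq_zero fun T _ => ?_
  by_cases hT : T.card = k
  · have : (eW v : Matrix (FI n) (FI n) ℂ) S T = 0 := by
      by_contra h0
      have := Crest.Agent.R273.LamN127.eW_deg h0
      omega
    rw [this, zero_mul]
  · rw [hw T hT, mul_zero]

theorem vac_deg (S : FI n) (hS : S.card ≠ 0) : vac n S = 0 := by
  refine Pi.single_eq_of_ne ?_ _
  rintro rfl
  exact hS Finset.card_empty

theorem v2_deg (B : Matrix (Fin n) (Fin n) ℂ) (S : FI n) (hS : S.card ≠ 2) : v2 B S = 0 := by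
  unfold v2
  simp only [Pi.smul_apply, Finset.sum_apply]
  rw [Finset.sum_eq_zero, smul_zero]
  intro a _
  refine Finset.sum_eq_zero fun b _ => ?_
  rw [eW_deg2 (k := 1) (eW_deg2 (k := 0) vac_deg) S hS, smul_zero]

theorem iW_ep_eW (a b : Fin n) (w : FI n → ℂ) :
    iW (ep a) *ᵥ (eW (ep b) *ᵥ w) = (if b = a then w else 0) - eW (ep b) *ᵥ (iW (ep a) *ᵥ w) := by
  have h := congrArg (fun m => m *ᵥ w)
    (Crest.Agent.R273.Fock_243.iW_eW (ep a : Fin n → ℂ) (ep b))
  simp only [Matrix.add_mulVec, ← Matrix.mulVec_mulVec] at h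
  rw [eq_sub_iff_add_eq, h]
  have h2 : (∑ j, (ep b : Fin n → ℂ) j * (ep a : Fin n → ℂ) j) = if b = a then 1 else 0 := by
    rw [Finset.sum_eq_single b]
    · simp [Pi.single_apply]
    · intro c _ hc
      simp [Pi.single_eq_of_ne hc]
    · intro h
      exact absurd (Finset.mem_univ b) h
  rw [h2]
  split_ifs
  · simp
  · simp

theorem c2_v2 {B : Matrix (Fin n) (Fin n) ℂ} (hB : Bᵀ = -B) : c2 (v2 B) = B := by
  ext p q
  have hB' : ∀ a b, B b a = - B a b := fun a b => congrFun (congrFun hB a) b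
  have key : ∀ a b : Fin n, (iW (ep q) *ᵥ (iW (ep p) *ᵥ (eW (ep a) *ᵥ (eW (ep b) *ᵥ vac n)))) ∅ =
      (if a = p ∧ b = q then 1 else 0) - (if b = p ∧ a = q then 1 else 0) := by
    intro a b
    rw [iW_ep_eW p a, iW_ep_eW p b, iW_vac, Matrix.mulVec_zero, sub_zero, Matrix.mulVec_sub,
      Pi.sub_apply]
    congr 1
    · by_cases h : a = p
      · rw [if_pos h, iW_ep_eW q b, iW_vac, Matrix.mulVec_zero, sub_zero]
        by_cases h' : b = q
        · simp [h, h', vac_empty]
        · simp [h']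
      · simp [h]
    · by_cases h : b = p
      · rw [if_pos h, iW_ep_eW q a, iW_vac, Matrix.mulVec_zero, sub_zero]
        by_cases h' : a = q
        · simp [h, h', vac_empty]
        · simp [h']
      · simp [h]
  unfold c2 v2
  simp only [Matrix.mulVec_smul, Matrix.mulVec_sum, Pi.smul_apply, Finset.sum_apply, key,
    smul_eq_mul]
  have h1 : ∑ a, ∑ b, B a b * ((if a = p ∧ b = q then (1 : ℂ) else 0) -
      (if b = p ∧ a = q then 1 else 0)) = B p q - B q p := by
    simp only [mul_sub, Finset.sum_sub_distrib]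
    congr 1
    · rw [Finset.sum_eq_single p, Finset.sum_eq_single q]
      · simp
      · intro b _ hb; simp [hb]
      · simp
      · intro a _ ha; simp [ha]
      · simp
    · rw [Finset.sum_eq_single q, Finset.sum_eq_single p]
      · simp
      · intro b _ hb; simp [hb]
      · simp
      · intro a _ ha; simp [ha]
      · simp
  rw [h1, hB' p q]
  ring

theorem v2_c2 {v : FI n → ℂ} (hv : ∀ S : FI n, S.card ≠ 2 → v S = 0) : v2 (c2 v) = v := by
  rw [← sub_eq_zero]
  refine eq_zero_of_c2 (fun S hS => ?_) ?_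
  · rw [Pi.sub_apply, v2_deg _ S hS, hv S hS, sub_zero]
  · rw [c2_sub, c2_v2 (c2_anti v), sub_self]

theorem Gam_v2 (m : Matrix (Fin n) (Fin n) ℂ) {B : Matrix (Fin n) (Fin n) ℂ} (hB : Bᵀ = -B) :
    Gam m *ᵥ v2 B = v2 (m * B * mᵀ) := by
  have h1 : ∀ S : FI n, S.card ≠ 2 → (Gam m *ᵥ v2 B) S = 0 := by
    intro S hS
    simp only [Matrix.mulVec, dotProduct]
    refine Finset.sum_eq_zero fun T _ => ?_
    by_cases hT : T.card = 2
    · rw [Crest.Agent.R273.Fock_243.Gam_of_ne m (by omega), zero_mul]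
    · rw [v2_deg B T hT, mul_zero]
  rw [← v2_c2 h1, c2_Gam, c2_v2 hB]

/-! ### the exterior derivative in degrees one and two -/

theorem c2_sum_eW (w : Fin n → FI n → ℂ) (p q : Fin n) :
    c2 (∑ a, eW (ep a) *ᵥ w a) p q = w p {q} - w q {p} := by
  have key : ∀ a, (iW (ep q) *ᵥ (iW (ep p) *ᵥ (eW (ep a) *ᵥ w a))) ∅ =
      (if a = p then w a {q} else 0) - (if a = q then w a {p} else 0) := by
    intro a
    rw [iW_ep_eW p a, Matrix.mulVec_sub, Pi.sub_apply, iW_ep_eW q a, Pi.sub_apply, eW_empty,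
      sub_zero]
    congr 1
    · split_ifs
      · exact iW_ep_empty _ _
      · simp
    · split_ifs
      · exact iW_ep_empty _ _
      · rfl
  unfold c2
  simp only [Matrix.mulVec_sum, Finset.sum_apply, key, Finset.sum_sub_distrib]
  simp

theorem v2_smul (c : ℂ) (B : Matrix (Fin n) (Fin n) ℂ) : v2 (c • B) = c • v2 B := by
  unfold v2
  simp only [Matrix.smul_apply, smul_eq_mul, Finset.smul_sum, smul_smul]
  refine Finset.sum_congr rfl fun a _ => Finset.sum_congr rfl fun b _ => ?_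
  congr 1
  ring

/-- closed forms of degree two -/
theorem sum_eW_v2 (T : Fin n → Matrix (Fin n) (Fin n) ℂ)
    (hT : ∀ a b c, T a b c + T b c a + T c a b = 0) :
    ∑ a, eW (ep a) *ᵥ v2 (T a) = 0 := by
  set E : Fin n → Fin n → Fin n → FI n → ℂ := fun a b c =>
    eW (ep a) *ᵥ (eW (ep b) *ᵥ (eW (ep c) *ᵥ vac n)) with hE
  have hsw : ∀ (a b : Fin n) (w : FI n → ℂ),
      eW (ep a) *ᵥ (eW (ep b) *ᵥ w) = - (eW (ep b) *ᵥ (eW (ep a) *ᵥ w)) := by
    intro a b w
    have h := congrArg (fun m => m *ᵥ w)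
      (Crest.Agent.R273.Fock_243.eW_anti (ep a : Fin n → ℂ) (ep b))
    simp only [Matrix.add_mulVec, ← Matrix.mulVec_mulVec, Matrix.zero_mulVec] at h
    exact eq_neg_of_add_eq_zero_left h
  have hcyc : ∀ a b c, E b c a = E a b c := by
    intro a b c
    simp only [hE]
    rw [hsw c a, Matrix.mulVec_neg, hsw b a, neg_neg]
  have h1 : ∑ a, eW (ep a) *ᵥ v2 (T a) = (1 / 2 : ℂ) • ∑ a, ∑ b, ∑ c, T a b c • E a b c := by
    rw [Finset.smul_sum]
    refine Finset.sum_congr rfl fun a _ => ?_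
    unfold v2
    simp only [Matrix.mulVec_smul, Matrix.mulVec_sum, hE]
  have h2 : ∑ a, ∑ b, ∑ c, T a b c • E a b c = ∑ a, ∑ b, ∑ c, T b c a • E a b c := by
    calc ∑ a, ∑ b, ∑ c, T a b c • E a b c
        = ∑ b, ∑ c, ∑ a, T b c a • E b c a := rfl
      _ = ∑ b, ∑ a, ∑ c, T b c a • E b c a := by
          refine Finset.sum_congr rfl fun b _ => Finset.sum_comm
      _ = ∑ a, ∑ b, ∑ c, T b c a • E b c a := Finset.sum_comm
      _ = _ := by simp only [hcyc]
  have h3 : ∑ a, ∑ b, ∑ c, T a b c • E a b c = ∑ a, ∑ b, ∑ c, T c a b • E a b c := by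
    calc ∑ a, ∑ b, ∑ c, T a b c • E a b c
        = ∑ c, ∑ a, ∑ b, T c a b • E c a b := rfl
      _ = ∑ a, ∑ c, ∑ b, T c a b • E c a b := Finset.sum_comm
      _ = ∑ a, ∑ b, ∑ c, T c a b • E c a b := by
          refine Finset.sum_congr rfl fun a _ => Finset.sum_comm
      _ = _ := by
          refine Finset.sum_congr rfl fun a _ => Finset.sum_congr rfl fun b _ =>
            Finset.sum_congr rfl fun c _ => ?_
          rw [← hcyc c a b]
  have h4 : (3 : ℂ) • ∑ a, ∑ b, ∑ c, T a b c • E a b c = 0 := by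
    have e : (3 : ℂ) • ∑ a, ∑ b, ∑ c, T a b c • E a b c =
        (∑ a, ∑ b, ∑ c, T a b c • E a b c) + (∑ a, ∑ b, ∑ c, T b c a • E a b c) +
          ∑ a, ∑ b, ∑ c, T c a b • E a b c := by
      rw [← h2, ← h3]
      module
    rw [e, ← Finset.sum_add_distrib, ← Finset.sum_add_distrib]
    refine Finset.sum_eq_zero fun a _ => ?_
    rw [← Finset.sum_add_distrib, ← Finset.sum_add_distrib]
    refine Finset.sum_eq_zero fun b _ => ?_
    rw [← Finset.sum_add_distrib, ← Finset.sum_add_distrib]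
    refine Finset.sum_eq_zero fun c _ => ?_
    rw [← add_smul, ← add_smul, hT, zero_smul]
  rw [h1, (smul_eq_zero.1 h4).resolve_left (by norm_num), smul_zero]

end

end Crest.Agent.R281.Hdg_850
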