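import Crest.Agent.R281.HkR2_835
import Crest.Agent.R275.EDRWd_890

/-!
# Row 281, HODGE-2, part 2 (helper850): components of real 1- and 2-forms on `ℂⁿ`

`V = Cn n`, `r = (b, a) : WI n` (`b = true` : `∂̄_a`, `b = false` : `∂_a`).
* `cp1 r η`, `cp2 r s W`, `cp3 t r s T` : complex components of real 1-, 2-, 3-tensors
* `eta_eq`, `W_eq` : reconstruction
* `cp2_alt`, `cp2_conj`, `cp2_comp` (holomorphic changes of coordinates)
* `cp3_cyc`, `wd_cp2`, `cp2_d` : derivatives, closedness, exterior derivative of a 1-form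
-/

set_option autoImplicit false
set_option linter.unusedSectionVars false

open Set Filter Topology Complex
open scoped ContDiff Matrix ComplexConjugate

namespace Crest.Agent.R281.Hdg_850

open Crest.Agent.R275.Geo Crest.Agent.R275.EDR890
open Crest.Agent.R281.HkR_835 (Bil)

noncomputable section

variable {n : ℕ}

/-- real 1-forms as complex valued ones -/
def toC : (Cn n →L[ℝ] ℝ) →L[ℝ] (Cn n →L[ℝ] ℂ) :=
  ContinuousLinearMap.compL ℝ (Cn n) ℝ ℂ ofRealCLM

@[simp] theorem toC_apply (η : Cn n →L[ℝ] ℝ) (v : Cn n) : toC η v = (η v : ℂ) := rfl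

/-- components of a real 1-form -/
def cp1 (s : WI n) : (Cn n →L[ℝ] ℝ) →L[ℝ] ℂ := (wdLc s).comp toC

theorem cp1_eq (s : WI n) (η : Cn n →L[ℝ] ℝ) : cp1 s η = (1 / 2 : ℂ) *
    ((η (EuclideanSpace.single s.2 1) : ℂ) + cI s.1 * (η (EuclideanSpace.single s.2 I) : ℂ)) := rfl

theorem cp1_wdL (s : WI n) (η : Cn n →L[ℝ] ℝ) : cp1 s η = wdL s (toC η) := rfl

/-- a real 1-form from its components -/
theorem eta_eq (η : Cn n →L[ℝ] ℝ) (v : Cn n) : (η v : ℂ) = ∑ s : WI n, ze s v * cp1 s η :=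
  apply_eq_sum (toC η) v

/-- components of a real bilinear form -/
def cp2 (r s : WI n) : Bil (Cn n) →L[ℝ] ℂ :=
  (wdLc r).comp (ContinuousLinearMap.compL ℝ (Cn n) (Cn n →L[ℝ] ℝ) ℂ (cp1 s))

theorem cp2_wdL (r s : WI n) (W : Bil (Cn n)) : cp2 r s W = wdL r ((cp1 s).comp W) := rfl

theorem cp2_eq (r s : WI n) (W : Bil (Cn n)) : cp2 r s W = (1 / 4 : ℂ) *
    ((W (EuclideanSpace.single r.2 1) (EuclideanSpace.single s.2 1) : ℂ)
      + cI s.1 * (W (EuclideanSpace.single r.2 1) (EuclideanSpace.single s.2 I) : ℂ)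
      + cI r.1 * (W (EuclideanSpace.single r.2 I) (EuclideanSpace.single s.2 1) : ℂ)
      + cI r.1 * cI s.1 * (W (EuclideanSpace.single r.2 I) (EuclideanSpace.single s.2 I) : ℂ)) := by
  rw [cp2_wdL]
  unfold wdL
  simp only [ContinuousLinearMap.comp_apply, cp1_eq, smul_eq_mul]
  ring

/-- a real bilinear form from its components -/
theorem W_eq (W : Bil (Cn n)) (u v : Cn n) :
    (W u v : ℂ) = ∑ r : WI n, ∑ s : WI n, ze r u * ze s v * cp2 r s W := by
  rw [eta_eq (W u) v, Finset.sum_comm]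
  refine Finset.sum_congr rfl fun s _ => ?_
  have h : cp1 s (W u) = ∑ r : WI n, ze r u • wdL r ((cp1 s).comp W) :=
    apply_eq_sum ((cp1 s).comp W) u
  rw [h, Finset.mul_sum]
  refine Finset.sum_congr rfl fun r _ => ?_
  rw [cp2_wdL, smul_eq_mul]
  ring

/-- the other type -/
def op (s : WI n) : WI n := (!s.1, s.2)

@[simp] theorem op_mk (b : Bool) (a : Fin n) : op (b, a) = (!b, a) := rfl

theorem conj_cI (b : Bool) : conj (cI b) = cI (!b) := by
  cases b <;> simp

theorem cp1_conj (s : WI n) (η : Cn n →L[ℝ] ℝ) : conj (cp1 s η) = cp1 (op s) η := by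
  rw [cp1_eq, cp1_eq]
  simp only [map_mul, map_add, conj_ofReal, map_div₀, map_one, map_ofNat, conj_cI, op]

theorem cp2_conj (r s : WI n) (W : Bil (Cn n)) : conj (cp2 r s W) = cp2 (op r) (op s) W := by
  rw [cp2_eq, cp2_eq]
  simp only [map_mul, map_add, conj_ofReal, map_div₀, map_one, map_ofNat, conj_cI, op]

theorem cp2_alt {W : Bil (Cn n)} (h : ∀ u v, W u v = - W v u) (r s : WI n) :
    cp2 r s W = - cp2 s r W := by
  rw [cp2_eq, cp2_eq, h (EuclideanSpace.single r.2 1) (EuclideanSpace.single s.2 1),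
    h (EuclideanSpace.single r.2 1) (EuclideanSpace.single s.2 I),
    h (EuclideanSpace.single r.2 I) (EuclideanSpace.single s.2 1),
    h (EuclideanSpace.single r.2 I) (EuclideanSpace.single s.2 I)]
  push_cast
  ring

/-- holomorphic changes of coordinates, 1-forms -/
theorem cp1_comp (s : WI n) (η : Cn n →L[ℝ] ℝ) (L : Cn n →L[ℂ] Cn n) :
    cp1 s (η.comp (L.restrictScalars ℝ)) =
      ∑ b, cj s.1 ((L (EuclideanSpace.single s.2 1)) b) * cp1 (s.1, b) η :=
  wdL_comp_clin s (toC η) L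

/-- holomorphic changes of coordinates, 2-forms -/
theorem cp2_comp (r s : WI n) {W W' : Bil (Cn n)} (L : Cn n →L[ℂ] Cn n)
    (h : ∀ u v, W' u v = W (L u) (L v)) :
    cp2 r s W' = ∑ a, ∑ b, cj r.1 ((L (EuclideanSpace.single r.2 1)) a) *
      cj s.1 ((L (EuclideanSpace.single s.2 1)) b) * cp2 (r.1, a) (s.1, b) W := by
  have h1 : (cp1 s).comp W' = ∑ b, (cj s.1 ((L (EuclideanSpace.single s.2 1)) b)) •
      (((cp1 (s.1, b)).comp W).comp (L.restrictScalars ℝ)) := by
    ext u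
    have h2 : W' u = (W (L u)).comp (L.restrictScalars ℝ) := by
      ext v
      exact h u v
    rw [ContinuousLinearMap.comp_apply, h2, cp1_comp]
    simp only [sum_apply, smul_apply, ContinuousLinearMap.comp_apply, smul_eq_mul]
    rfl
  rw [cp2_wdL, h1]
  have h3 : ∀ (t : Finset (Fin n)) (c : Fin n → ℂ) (G : Fin n → Cn n →L[ℝ] ℂ),
      wdL r (∑ b ∈ t, c b • G b) = ∑ b ∈ t, c b * wdL r (G b) := by
    intro t c G
    classical
    induction t using Finset.induction_on with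
    | empty => simp [wdL_zero]
    | insert a t ha ih => rw [Finset.sum_insert ha, Finset.sum_insert ha, wdL_add, wdL_smul, ih,
        smul_eq_mul]
  rw [h3]
  simp only [wdL_comp_clin, Finset.mul_sum, smul_eq_mul]
  rw [Finset.sum_comm]
  refine Finset.sum_congr rfl fun a _ => Finset.sum_congr rfl fun b _ => ?_
  rw [cp2_wdL]
  ring

/-! ### derivatives -/

/-- components of a real trilinear form -/
def cp3 (t r s : WI n) (T : Cn n →L[ℝ] Bil (Cn n)) : ℂ := wdL t ((cp2 r s).comp T)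

theorem cp3_eq (t r s : WI n) (T : Cn n →L[ℝ] Bil (Cn n)) : cp3 t r s T = (1 / 2 : ℂ) *
    (cp2 r s (T (EuclideanSpace.single t.2 1)) + cI t.1 * cp2 r s (T (EuclideanSpace.single t.2 I))) :=
  rfl

theorem cp3_cyc {T : Cn n →L[ℝ] Bil (Cn n)} (h : ∀ a b c, T a b c + T b c a + T c a b = 0)
    (t r s : WI n) : cp3 t r s T + cp3 r s t T + cp3 s t r T = 0 := by
  have H : ∀ a b c, ((T a b c : ℝ) : ℂ) + (T b c a : ℝ) + (T c a b : ℝ) = 0 := by
    intro a b c
    exact_mod_cast congrArg ofReal (h a b c)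
  simp only [cp3_eq, cp2_eq]
  set t1 : Cn n := EuclideanSpace.single t.2 1
  set tI : Cn n := EuclideanSpace.single t.2 I
  set r1 : Cn n := EuclideanSpace.single r.2 1
  set rI : Cn n := EuclideanSpace.single r.2 I
  set s1 : Cn n := EuclideanSpace.single s.2 1
  set sI : Cn n := EuclideanSpace.single s.2 I
  linear_combination (1 / 8 : ℂ) * (H t1 r1 s1 + cI s.1 * H t1 r1 sI + cI r.1 * H t1 rI s1 +
    cI r.1 * cI s.1 * H t1 rI sI + cI t.1 * H tI r1 s1 + cI t.1 * cI s.1 * H tI r1 sI +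
    cI t.1 * cI r.1 * H tI rI s1 + cI t.1 * cI r.1 * cI s.1 * H tI rI sI)

theorem wd_cp2 {w : Cn n → Bil (Cn n)} {z : Cn n} (hw : DifferentiableAt ℝ w z) (t r s : WI n) :
    wd t (fun y => cp2 r s (w y)) z = cp3 t r s (fderiv ℝ w z) := by
  have h0 : HasFDerivAt (fun y => cp2 r s (w y)) ((cp2 r s).comp (fderiv ℝ w z)) z :=
    HasFDerivAt.comp (f := w) (f' := fderiv ℝ w z) z ((cp2 r s).hasFDerivAt (x := w z))
      hw.hasFDerivAt
  have h : fderiv ℝ (fun y => cp2 r s (w y)) z = (cp2 r s).comp (fderiv ℝ w z) := h0.fderiv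
  rw [wd, h]
  rfl

theorem wd_cp1 {η : Cn n → Cn n →L[ℝ] ℝ} {z : Cn n} (hη : DifferentiableAt ℝ η z) (r s : WI n) :
    wd r (fun y => cp1 s (η y)) z = cp2 r s (fderiv ℝ η z) := by
  have h : fderiv ℝ (fun y => cp1 s (η y)) z = (cp1 s).comp (fderiv ℝ η z) :=
    ((cp1 s).hasFDerivAt.comp z hη.hasFDerivAt).fderiv
  rw [wd, h]
  rfl

/-- the exterior derivative of a real 1-form at a point -/
def dd (T : Bil (Cn n)) : Bil (Cn n) := T - T.flip

@[simp] theorem dd_apply (T : Bil (Cn n)) (u v : Cn n) : dd T u v = T u v - T v u := rfl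

theorem cp2_flip (r s : WI n) (T : Bil (Cn n)) : cp2 r s T.flip = cp2 s r T := by
  rw [cp2_eq, cp2_eq]
  simp only [ContinuousLinearMap.flip_apply]
  ring

theorem cp2_dd (r s : WI n) (T : Bil (Cn n)) : cp2 r s (dd T) = cp2 r s T - cp2 s r T := by
  unfold dd
  rw [map_sub (cp2 r s) T T.flip, cp2_flip]

theorem cp2_d {η : Cn n → Cn n →L[ℝ] ℝ} {z : Cn n} (hη : DifferentiableAt ℝ η z) (r s : WI n) :
    cp2 r s (dd (fderiv ℝ η z)) =
      wd r (fun y => cp1 s (η y)) z - wd s (fun y => cp1 r (η y)) z := by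
  rw [cp2_dd, wd_cp1 hη, wd_cp1 hη]

/-- bilinear forms with the same components are equal -/
theorem ext_cp2 {W W' : Bil (Cn n)} (h : ∀ r s, cp2 r s W = cp2 r s W') : W = W' := by
  ext u v
  have h1 := W_eq W u v
  have h2 := W_eq W' u v
  simp only [h] at h1
  rw [← h2] at h1
  exact_mod_cast h1

theorem ext_cp1 {η η' : Cn n →L[ℝ] ℝ} (h : ∀ r, cp1 r η = cp1 r η') : η = η' := by
  ext u
  have h1 := eta_eq η u
  have h2 := eta_eq η' u
  simp only [h] at h1
  rw [← h2] at h1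
  exact_mod_cast h1

/-- for real alternating forms the components `(∂̄,∂̄)`, `(∂,∂̄)` are enough -/
theorem ext_alt {W W' : Bil (Cn n)} (h : ∀ u v, W u v = - W v u) (h' : ∀ u v, W' u v = - W' v u)
    (h1 : ∀ a b, cp2 (true, a) (true, b) W = cp2 (true, a) (true, b) W')
    (h2 : ∀ a b, cp2 (false, a) (true, b) W = cp2 (false, a) (true, b) W') : W = W' := by
  refine ext_cp2 fun r s => ?_
  obtain ⟨p, a⟩ := r
  obtain ⟨q, b⟩ := s
  cases p <;> cases q
  · have h3 := congrArg (starRingEnd ℂ) (h1 a b)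
    rw [cp2_conj, cp2_conj] at h3
    exact h3
  · exact h2 a b
  · rw [cp2_alt h, cp2_alt h', h2]
  · exact h1 a b

end

end Crest.Agent.R281.Hdg_850
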