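import Crest.Agent.R281.Hdg5_850
import Crest.Agent.R281.HkR9_835
import Crest.Agent.R281.Fuj3_207
import Crest.Agent.R273.NormC_505
import Crest.Agent.R273.GreenM_5

/-!
# Row 281, HODGE-2, part 6 (helper850): (h4), the Kaehler cone is open

* `pd_near` : `K + ∑ t_k G_k` is positive for small `t`
* `kah_near`: a Kaehler form plus a small closed (1,1)-form is a Kaehler form
* `h4`      : `K + t y = K_t + c Re σ + d Im σ + exact` for small `t`
-/

set_option autoImplicit false
set_option linter.unusedSectionVars false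
set_option maxSynthPendingDepth 3

open Set Filter Topology Complex
open scoped ContDiff Matrix ComplexConjugate ComplexOrder

namespace Crest.Agent.R281.Hdg_850

open Crest.Agent.R275 Crest.Agent.R275.Geo Crest.Agent.R275.Core144 Crest.Agent.R275.EDR890
open Crest.Agent.R273 Crest.Agent.R273.Kah_333 Crest.Agent.R273.LamN127
open Crest.Agent.R281.Defs_273 (H2)
open Crest.Agent.R281.HkP2_508 (sl Span1)
open Crest.Agent.R281.HkR_835 Crest.Agent.R281.Ti_846

noncomputable section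

variable {n : ℕ} {M : Type} [TopologicalSpace M] {A : Atl n M}

/-- positivity does not depend on the chart -/
theorem pd_tr {G H : Matrix (Fin n) (Fin n) ℂ} {J : Matrix (Fin n) (Fin n) ℂ} (hJ : J.det ≠ 0)
    (h : G = Jᵀ * H * J.map conj) (hH : H.PosDef) : G.PosDef := by
  have h1 : (J.map conj)ᴴ = Jᵀ := by
    ext a b
    simp [Matrix.conjTranspose_apply]
  rw [h, ← h1]
  refine hH.conjTranspose_mul_mul_same ?_
  have h2 : IsUnit (J.map conj).det := by
    rw [GreenM_5.det_map_conj, isUnit_iff_ne_zero]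
    exact (map_ne_zero _).2 hJ
  exact Matrix.mulVec_injective_of_isUnit ((Matrix.isUnit_iff_isUnit_det _).2 h2)

theorem mem_supp (P : Part A) (x : M) : ∃ i, x ∈ tsupport (P.χ i) := by
  have h1 : ∃ i, P.ψ i x ≠ 0 := by
    by_contra h
    push Not at h
    have := P.sum_one x
    rw [finsum_congr h, finsum_zero] at this
    exact zero_ne_one this
  obtain ⟨i, hi⟩ := h1
  have h2 : P.χ i x = 1 := (P.χ_one i x (subset_tsupport _ hi)).self_of_nhds
  exact ⟨i, subset_tsupport _ (by rw [Function.mem_support, h2]; exact one_ne_zero)⟩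

theorem exists_le_all {ι : Type} [Finite ι] (f : ι → ℝ) (hf : ∀ i, 0 < f i) :
    ∃ ε > 0, ∀ i, ε ≤ f i := by
  cases isEmpty_or_nonempty ι with
  | inl h => exact ⟨1, one_pos, fun i => (h.false i).elim⟩
  | inr h =>
    obtain ⟨i, hi⟩ := Finite.exists_min f
    exact ⟨f i, hf i, hi⟩

/-- **uniform positivity** -/
theorem pd_near [Finite A.ι] (P : Part A) (K : Kah A) {κ : Type} [Fintype κ] (G : κ → K11 A) :
    ∃ ε > 0, ∀ t : κ → ℝ, (∀ k, |t k| < ε) → ∀ i, ∀ x ∈ (A.e i).source,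
      (K.g i x + ∑ k, (t k : ℂ) • (G k).g i x).PosDef := by
  have hKc : ∀ i a b, ContinuousOn (fun x => K.g i x a b) (tsupport (P.χ i)) := fun i a b =>
    (NormC_505.continuousOn_of_smAt (K.sm i a b)).mono (P.χ_sub i)
  have hGc : ∀ k i a b, ContinuousOn (fun x => (G k).g i x a b) (tsupport (P.χ i)) :=
    fun k i a b => (NormC_505.continuousOn_of_smAt ((G k).sm i a b)).mono (P.χ_sub i)
  have hl : ∀ i, ∃ c, 0 < c ∧ ∀ x ∈ tsupport (P.χ i), ∀ v : Fin n → ℂ,
      c * NormC_505.nsq v ≤ (star v ⬝ᵥ (K.g i x *ᵥ v)).re := fun i =>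
    NormC_505.exists_lower (P.χ_cpt i) (hKc i) fun x hx => K.pos i x (P.χ_sub i hx)
  have hu : ∀ k i, ∃ C, 0 ≤ C ∧ ∀ x ∈ tsupport (P.χ i), ∀ v : Fin n → ℂ,
      (star v ⬝ᵥ ((G k).g i x *ᵥ v)).re ≤ C * NormC_505.nsq v := fun k i =>
    NormC_505.exists_upper (P.χ_cpt i) (hGc k i)
  have hu' : ∀ k i, ∃ C, 0 ≤ C ∧ ∀ x ∈ tsupport (P.χ i), ∀ v : Fin n → ℂ,
      (star v ⬝ᵥ ((-(G k).g i x) *ᵥ v)).re ≤ C * NormC_505.nsq v := fun k i =>
    NormC_505.exists_upper (P.χ_cpt i) fun a b => (hGc k i a b).neg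
  choose c hc0 hc using hl
  choose C hC0 hC using hu
  choose C' hC0' hC' using hu'
  obtain ⟨ε, hε, hεi⟩ := exists_le_all (fun i => c i / (∑ k, (C k i + C' k i) + 1)) fun i =>
    div_pos (hc0 i) (by
      have : 0 ≤ ∑ k, (C k i + C' k i) :=
        Finset.sum_nonneg fun k _ => add_nonneg (hC0 k i) (hC0' k i)
      linarith)
  refine ⟨ε, hε, fun t ht => ?_⟩
  have key : ∀ i, ∀ x ∈ tsupport (P.χ i),
      (K.g i x + ∑ k, (t k : ℂ) • (G k).g i x).PosDef := by
    intro i x hx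
    have hxs := P.χ_sub i hx
    refine Matrix.PosDef.of_dotProduct_mulVec_pos ?_ fun v hv => ?_
    · refine (K.pos i x hxs).isHermitian.add ?_
      unfold Matrix.IsHermitian
      rw [Matrix.conjTranspose_sum]
      refine Finset.sum_congr rfl fun k _ => ?_
      rw [Matrix.conjTranspose_smul, ((G k).herm i x hxs).eq]
      congr 1
      exact Complex.conj_ofReal _
    · have hherm : (K.g i x + ∑ k, (t k : ℂ) • (G k).g i x).IsHermitian := by
        refine (K.pos i x hxs).isHermitian.add ?_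
        unfold Matrix.IsHermitian
        rw [Matrix.conjTranspose_sum]
        refine Finset.sum_congr rfl fun k _ => ?_
        rw [Matrix.conjTranspose_smul, ((G k).herm i x hxs).eq]
        congr 1
        exact Complex.conj_ofReal _
      have hq : 0 < NormC_505.nsq v := lt_of_le_of_ne (NormC_505.nsq_nonneg v) fun h =>
        hv (NormC_505.nsq_eq_zero h.symm)
      have him : (star v ⬝ᵥ ((K.g i x + ∑ k, (t k : ℂ) • (G k).g i x) *ᵥ v)).im = 0 :=
        hherm.im_star_dotProduct_mulVec_self v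
      have hre : (star v ⬝ᵥ ((K.g i x + ∑ k, (t k : ℂ) • (G k).g i x) *ᵥ v)).re =
          (star v ⬝ᵥ (K.g i x *ᵥ v)).re + ∑ k, t k * (star v ⬝ᵥ ((G k).g i x *ᵥ v)).re := by
        rw [Matrix.add_mulVec, dotProduct_add, Complex.add_re, Matrix.sum_mulVec, dotProduct_sum,
          Complex.re_sum]
        congr 1
        refine Finset.sum_congr rfl fun k _ => ?_
        rw [Matrix.smul_mulVec, dotProduct_smul, smul_eq_mul, Complex.re_ofReal_mul]
      have h1 := hc i x hx v
      have h2 : ∀ k, -(ε * ((C k i + C' k i) * NormC_505.nsq v)) ≤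
          t k * (star v ⬝ᵥ ((G k).g i x *ᵥ v)).re := by
        intro k
        set g := (star v ⬝ᵥ ((G k).g i x *ᵥ v)).re with hg
        have e1 : g ≤ C k i * NormC_505.nsq v := hC k i x hx v
        have e2 : -g ≤ C' k i * NormC_505.nsq v := by
          have := hC' k i x hx v
          rwa [Matrix.neg_mulVec, dotProduct_neg, Complex.neg_re] at this
        have e3 : |g| ≤ (C k i + C' k i) * NormC_505.nsq v := by
          rw [abs_le]
          have := mul_nonneg (hC0 k i) hq.le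
          have := mul_nonneg (hC0' k i) hq.le
          constructor <;> linarith
        have e4 : |t k * g| ≤ ε * ((C k i + C' k i) * NormC_505.nsq v) := by
          rw [abs_mul]
          exact mul_le_mul (ht k).le e3 (abs_nonneg _) hε.le
        exact (abs_le.1 e4).1
      have h3 : -(ε * ((∑ k, (C k i + C' k i)) * NormC_505.nsq v)) ≤
          ∑ k, t k * (star v ⬝ᵥ ((G k).g i x *ᵥ v)).re := by
        rw [Finset.sum_mul, Finset.mul_sum, ← Finset.sum_neg_distrib]
        exact Finset.sum_le_sum fun k _ => h2 k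
      have hS : 0 ≤ ∑ k, (C k i + C' k i) :=
        Finset.sum_nonneg fun k _ => add_nonneg (hC0 k i) (hC0' k i)
      have h4 : ε * (∑ k, (C k i + C' k i)) < c i := by
        have h5 := hεi i
        rw [le_div_iff₀ (by linarith)] at h5
        linarith [mul_add ε (∑ k, (C k i + C' k i)) 1]
      have h5 : ε * ((∑ k, (C k i + C' k i)) * NormC_505.nsq v) < c i * NormC_505.nsq v := by
        rw [← mul_assoc]
        exact mul_lt_mul_of_pos_right h4 hq
      rw [Complex.lt_def]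
      refine ⟨?_, him.symm⟩
      rw [hre, Complex.zero_re]
      linarith
  intro j x hx
  obtain ⟨i, hi⟩ := mem_supp P x
  have hxi := P.χ_sub i hi
  refine pd_tr (J := Jm A j i x) (GreenM_5.Jm_det_ne ⟨hx, hxi⟩) ?_ (key i x hi)
  rw [K.tr j i x ⟨hx, hxi⟩, Matrix.mul_add, Matrix.add_mul, Matrix.mul_sum, Matrix.sum_mul]
  congr 1
  refine Finset.sum_congr rfl fun k _ => ?_
  rw [(G k).tr j i x ⟨hx, hxi⟩, Matrix.mul_smul, Matrix.smul_mul]

/-- **(h4)**: a Kaehler form plus small closed (1,1)-forms is a Kaehler form -/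
theorem kah_near [Finite A.ι] (P : Part A) (K : Kah A) {κ : Type} [Fintype κ]
    (y : κ → F2 (ofAtl A)) (hy : ∀ k, y k ∈ E11 A) :
    ∃ ε > 0, ∀ t : κ → ℝ, (∀ k, |t k| < ε) → ∃ K' : Kah A,
      (∀ i, ∀ x ∈ (A.e i).source, K'.g i x = K.g i x + ∑ k, (t k : ℂ) • ((y k).k11 (hy k)).g i x) ∧
      ∀ i, ∀ z ∈ (A.e i).target,
        (ofKah K').f2.w i z = ((ofKah K).f2 + ∑ k, t k • y k).w i z := by
  obtain ⟨ε, hε, h⟩ := pd_near P K fun k => (y k).k11 (hy k)
  refine ⟨ε, hε, fun t ht => ?_⟩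
  set Y : F2 (ofAtl A) := (ofKah K).f2 + ∑ k, t k • y k with hY
  have hYm : Y ∈ E11 A := (E11 A).add_mem (f2_mem_E11 _)
    ((E11 A).sum_mem fun k _ => (E11 A).smul_mem _ (hy k))
  have hw : ∀ i z, Y.w i z = (ofKah K).f2.w i z + ∑ k, t k • (y k).w i z := by
    intro i z
    rw [hY, F2.add_w, F2.sum_w]
    rfl
  have hg : ∀ i, ∀ x ∈ (A.e i).source, (Y.k11 hYm).g i x =
      K.g i x + ∑ k, (t k : ℂ) • ((y k).k11 (hy k)).g i x := by
    intro i x hx
    have hz := (A.e i).map_source hx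
    refine hb_ext fun u v => ?_
    have e1 : ∀ (w : F2 (ofAtl A)) (hw : w ∈ E11 A), hb ((w.k11 hw).g i x) u v =
        ((w.w i (A.e i x) u (I • v) : ℝ) : ℂ) - I * ((w.w i (A.e i x) u v : ℝ) : ℂ) := by
      intro w hw
      have e2 := K11.f2_w (w.k11 hw) hz u v
      have e3 := K11.f2_w (w.k11 hw) hz u (I • v)
      rw [F2.k11_f2 w hw hz, (A.e i).left_inv hx] at e2 e3
      rw [hb_I_right] at e3
      rw [e2, e3]
      apply Complex.ext <;> simp
    have e4 : hb (K.g i x) u v =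
        (((ofKah K).f2.w i (A.e i x) u (I • v) : ℝ) : ℂ) -
          I * (((ofKah K).f2.w i (A.e i x) u v : ℝ) : ℂ) := by
      have e2 := K11.f2_w (ofKah K) hz u v
      have e3 := K11.f2_w (ofKah K) hz u (I • v)
      rw [(A.e i).left_inv hx] at e2 e3
      rw [hb_I_right] at e3
      rw [e2, e3]
      apply Complex.ext <;> simp [ofKah]
    rw [e1 Y hYm, show Y.w i (A.e i x) = _ from hw i (A.e i x), ← hbL_apply u v (_ + _), map_add, map_sum, hbL_apply, e4]
    have e5 : ∀ k, (hbL u v) ((t k : ℂ) • ((y k).k11 (hy k)).g i x) =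
        (t k : ℂ) * ((((y k).w i (A.e i x) u (I • v) : ℝ) : ℂ) -
          I * (((y k).w i (A.e i x) u v : ℝ) : ℂ)) := by
      intro k
      rw [map_smul, hbL_apply, e1 (y k) (hy k), smul_eq_mul]
    simp only [e5, add_apply, sum_apply, smul_apply, smul_eq_mul, Complex.ofReal_add,
      Complex.ofReal_sum, Complex.ofReal_mul, mul_sub, mul_add, Finset.sum_sub_distrib,
      Finset.mul_sum]
    have e6 : ∀ k, I * ((t k : ℂ) * (((y k).w i (A.e i x) u v : ℝ) : ℂ)) =
        (t k : ℂ) * (I * (((y k).w i (A.e i x) u v : ℝ) : ℂ)) := fun k => by ring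
    simp only [e6]
    ring
  refine ⟨(Y.k11 hYm).kah fun i x hx => by rw [hg i x hx]; exact h t ht i x hx, hg,
    fun i z hz => ?_⟩
  exact F2.k11_f2 Y hYm hz

/-- forms which vanish on the targets are exact -/
theorem ex_of_zero {w : F2 (ofAtl A)} (h : ∀ i, ∀ z ∈ (A.e i).target, w.w i z = 0) :
    w ∈ exS (ofAtl A) :=
  ⟨0, fun i z hz u v => by rw [h i z hz, F1.fderiv_zero]; simp⟩

theorem ex_of_eq {w w' : F2 (ofAtl A)} (h : ∀ i, ∀ z ∈ (A.e i).target, w.w i z = w'.w i z) :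
    w - w' ∈ exS (ofAtl A) :=
  ex_of_zero fun i z hz => by
    show w.w i z - w'.w i z = 0
    rw [h i z hz, sub_self]

/-- **(h1) + (h4)**: for a finite family of closed real 2-forms `y_k` and small `t`,
`K + ∑ t_k y_k = K_t + c(t) Re σ + d(t) Im σ + exact`, `K_t` Kaehler, `c, d` linear -/
theorem h4 [CompactSpace M] [T2Space M] [Finite A.ι] (P : Part A) (K : Kah A) {σ : H2 A}
    (hσ : ClH σ) (hs : Span1 σ) {κ : Type} [Fintype κ] (y : κ → F2 (ofAtl A)) :
    ∃ (c d : κ → ℝ), ∃ ε > 0, ∀ t : κ → ℝ, (∀ k, |t k| < ε) → ∃ K' : Kah A,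
      ∃ e ∈ exS (ofAtl A), (ofKah K).f2 + ∑ k, t k • y k = (ofKah K').f2 +
        (∑ k, t k * c k) • f2H σ hσ + (∑ k, t k * d k) • f2H (csm (-I) σ) (csm_cl hσ _) + e := by
  choose c d Y hY e he hx using fun k => h1 P K hσ hs (y k)
  obtain ⟨ε, hε, h⟩ := kah_near P K Y hY
  refine ⟨c, d, ε, hε, fun t ht => ?_⟩
  obtain ⟨K', -, h2⟩ := h t ht
  refine ⟨K', ((ofKah K).f2 + ∑ k, t k • Y k - (ofKah K').f2) + ∑ k, t k • e k,
    (exS _).add_mem (ex_of_eq fun i z hz => (h2 i z hz).symm)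
      ((exS _).sum_mem fun k _ => (exS _).smul_mem _ (he k)), ?_⟩
  have h3 : ∑ k, t k • y k = (∑ k, t k * c k) • f2H σ hσ +
      (∑ k, t k * d k) • f2H (csm (-I) σ) (csm_cl hσ _) + ∑ k, t k • Y k + ∑ k, t k • e k := by
    rw [Finset.sum_smul, Finset.sum_smul, ← Finset.sum_add_distrib, ← Finset.sum_add_distrib,
      ← Finset.sum_add_distrib]
    refine Finset.sum_congr rfl fun k _ => ?_
    conv_lhs => rw [hx k]
    rw [smul_add, smul_add, smul_add, smul_smul, smul_smul]
  rw [h3]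
  abel

end

end Crest.Agent.R281.Hdg_850
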