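import Crest.Agent.R281.Ti1_846
import Crest.Agent.R281.HkR5_835
import Crest.Agent.R281.FujP_513
import Crest.Agent.R273.FIlin_332

/-!
# Row 281, HODGE-2 (h3) (helper825), part 1: the products of Hermitian forms at a point

* `rf G`      : the real bilinear form `Re (i ∑ G_ab u_a conj v_b)` of `G` (835: `K11.f2`)
* `TP_rf`     : `TP b (fun _ => rf G) = TP b (fun _ => rf 1) * (det G).re` for Hermitian `G`
* `TPm b`     : `TP b` as a multilinear map, `TPm_symm`
* `TP_mix`    : `choose d a * TP (mixv d a (rf G) (rf S)) = TP b (rf 1) * ((dp G S).coeff a).re`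
* `simdH`     : simultaneous diagonalisation of `G > 0` and `S` Hermitian
-/

set_option autoImplicit false
set_option linter.unusedSectionVars false

open Set Filter Topology Complex
open scoped ContDiff Matrix ComplexConjugate ComplexOrder InnerProductSpace

namespace Crest.Agent.R281.Hdx_825

open Crest.Agent.R275.Geo Crest.Agent.R275.Core144 Crest.Agent.R275.EDR890
open Crest.Agent.R281.HkR_835 Crest.Agent.R281.Ti_846 Crest.Agent.R281.FujP_513
open Crest.Agent.R273.VolInv_5 Crest.Agent.R273.FIlin_332 Crest.Agent.R273.FIa0_597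

noncomputable section

variable {d : ℕ}

/-- the real form of a matrix -/
def rf (G : Matrix (Fin d) (Fin d) ℂ) : Bil (Cn d) := bM ((mL Gᵀ).comp iL)

theorem rf_apply {G : Matrix (Fin d) (Fin d) ℂ} (hG : G.IsHermitian) (u v : Cn d) :
    rf G u v = (I * hb G u v).re := bM_mL_iL hG u v

theorem rf_add (G S : Matrix (Fin d) (Fin d) ℂ) : rf (G + S) = rf G + rf S := by
  ext u v
  simp only [rf, add_apply]
  rw [bM_apply, bM_apply, bM_apply, ← Complex.add_re, ← Finset.sum_add_distrib]
  congr 1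
  refine Finset.sum_congr rfl fun a _ => ?_
  rw [← add_mul, ← map_add]
  congr 2
  simp only [ContinuousLinearMap.comp_apply, mL_apply, Matrix.transpose_add, Matrix.add_mulVec,
    Pi.add_apply]

theorem rf_smul (s : ℝ) (G : Matrix (Fin d) (Fin d) ℂ) : rf ((s : ℂ) • G) = s • rf G := by
  ext u v
  simp only [rf, smul_apply, smul_eq_mul]
  rw [bM_apply, bM_apply, ← Complex.re_ofReal_mul, Finset.mul_sum]
  congr 1
  refine Finset.sum_congr rfl fun a _ => ?_
  have : (mL (((s : ℂ) • G)ᵀ)).comp iL u a = (s : ℂ) * (mL Gᵀ).comp iL u a := by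
    simp only [ContinuousLinearMap.comp_apply, mL_apply, Matrix.transpose_smul,
      Matrix.smul_mulVec, Pi.smul_apply, smul_eq_mul]
  rw [this, map_mul, Complex.conj_ofReal]
  ring

/-- the pull back of a form by a matrix -/
theorem rf_pull (G P : Matrix (Fin d) (Fin d) ℂ) (hG : G.IsHermitian) (u v : Cn d) :
    rf (Pᵀ * G * P.map conj) u v = rf G (mL P u) (mL P v) := by
  have h1 : (Pᵀ * G * P.map conj).IsHermitian := by
    unfold Matrix.IsHermitian
    rw [Matrix.conjTranspose_mul, Matrix.conjTranspose_mul, hG.eq, Matrix.mul_assoc]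
    congr 1
    · ext a b
      simp [Matrix.conjTranspose_apply]
  rw [rf_apply h1, rf_apply hG, hb_mulVec G P (u := u) (v := v) (mL_eq P u) (mL_eq P v)]

/-! ### determinants -/

/-- the real determinant of a complex matrix -/
theorem det_mL (P : Matrix (Fin d) (Fin d) ℂ) :
    LinearMap.det ((mL P : Cn d →L[ℝ] Cn d) : Cn d →ₗ[ℝ] Cn d) = Complex.normSq P.det := by
  have h1 : ((mL P : Cn d →L[ℝ] Cn d) : Cn d →ₗ[ℝ] Cn d) =
      (Matrix.toEuclideanLin P).restrictScalars ℝ := rfl
  rw [h1, LinearMap.det_restrictScalars, Algebra.norm_complex_apply]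
  congr 1
  have h2 : Matrix.toEuclideanLin P = Matrix.toLin (EuclideanSpace.basisFun (Fin d) ℂ).toBasis
      (EuclideanSpace.basisFun (Fin d) ℂ).toBasis P := by
    rw [← Matrix.toEuclideanLin_eq_toLin_orthonormal]
  rw [h2, LinearMap.det_toLin]

variable (b : Module.Basis (Fin d × Fin 2) ℝ (Cn d))

theorem TP_pull (G P : Matrix (Fin d) (Fin d) ℂ) (hG : G.IsHermitian) :
    TP b (fun _ : Fin d => rf (Pᵀ * G * P.map conj)) =
      Complex.normSq P.det * TP b (fun _ : Fin d => rf G) := by
  rw [← det_mL P]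
  exact TP_comp' b (mL P) fun _ u v => rf_pull G P hG u v

/-- simultaneous diagonalisation of a positive definite and a Hermitian matrix -/
theorem simdH {G S : Matrix (Fin d) (Fin d) ℂ} (hG : G.PosDef) (hS : S.IsHermitian) :
    ∃ (B : Matrix (Fin d) (Fin d) ℂ) (e : Fin d → ℝ), IsUnit B.det ∧
      G = Bᴴ * B ∧ S = Bᴴ * Matrix.diagonal (fun i => (e i : ℂ)) * B := by
  obtain ⟨C, hGC⟩ := exists_sq hG.posSemidef
  have hC : IsUnit C.det := by
    have h1 : IsUnit G.det := (Matrix.isUnit_iff_isUnit_det _).1 hG.isUnit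
    rw [hGC, Matrix.det_mul] at h1
    exact isUnit_of_mul_isUnit_right h1
  have hCh : Cᴴ * (C⁻¹)ᴴ = 1 := by
    rw [← Matrix.conjTranspose_mul, Matrix.nonsing_inv_mul _ hC, Matrix.conjTranspose_one]
  set K : Matrix (Fin d) (Fin d) ℂ := (C⁻¹)ᴴ * S * C⁻¹ with hK
  have hKp : K.IsHermitian := Matrix.isHermitian_conjTranspose_mul_mul C⁻¹ hS
  set U : Matrix (Fin d) (Fin d) ℂ := (hKp.eigenvectorUnitary : Matrix (Fin d) (Fin d) ℂ) with hU
  have hU1 : Uᴴ * U = 1 := by
    have := Unitary.coe_star_mul_self hKp.eigenvectorUnitary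
    rwa [Matrix.star_eq_conjTranspose] at this
  have hU2 : U * Uᴴ = 1 := mul_eq_one_comm.1 hU1
  have hspec : K = U * Matrix.diagonal (fun i => (hKp.eigenvalues i : ℂ)) * Uᴴ := by
    have h := hKp.spectral_theorem
    rw [Unitary.conjStarAlgAut_apply] at h
    exact h
  have hUd : IsUnit (Uᴴ).det := by
    have h1 : (Uᴴ * U).det = 1 := by rw [hU1, Matrix.det_one]
    rw [Matrix.det_mul] at h1
    exact IsUnit.of_mul_eq_one _ h1
  refine ⟨Uᴴ * C, hKp.eigenvalues, ?_, ?_, ?_⟩
  · rw [Matrix.det_mul]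
    exact hUd.mul hC
  · rw [Matrix.conjTranspose_mul, Matrix.conjTranspose_conjTranspose]
    calc G = Cᴴ * C := hGC
      _ = Cᴴ * (U * Uᴴ) * C := by rw [hU2, Matrix.mul_one]
      _ = _ := by simp only [Matrix.mul_assoc]
  · rw [Matrix.conjTranspose_mul, Matrix.conjTranspose_conjTranspose]
    have h4 : S = Cᴴ * K * C := by
      rw [hK]
      calc S = (Cᴴ * (C⁻¹)ᴴ) * S * (C⁻¹ * C) := by
            rw [hCh, Matrix.nonsing_inv_mul _ hC, Matrix.one_mul, Matrix.mul_one]
        _ = _ := by simp only [Matrix.mul_assoc]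
    calc S = Cᴴ * K * C := h4
      _ = Cᴴ * (U * Matrix.diagonal (fun i => (hKp.eigenvalues i : ℂ)) * Uᴴ) * C := by
          rw [← hspec]
      _ = _ := by simp only [Matrix.mul_assoc]

/-- the case of positive eigenvalues -/
theorem TP_pos (B : Matrix (Fin d) (Fin d) ℂ) (e : Fin d → ℝ) (he : ∀ i, 0 ≤ e i) :
    TP b (fun _ : Fin d => rf (Bᴴ * Matrix.diagonal (fun i => (e i : ℂ)) * B)) =
      nd B * (∏ i, e i) * TP b (fun _ : Fin d => rf (1 : Matrix (Fin d) (Fin d) ℂ)) := by
  set D : Matrix (Fin d) (Fin d) ℂ := Matrix.diagonal (fun i => ((√(e i) : ℝ) : ℂ)) with hD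
  set P : Matrix (Fin d) (Fin d) ℂ := (D * B).map conj with hP
  have h1 : P.map conj = D * B := by
    ext a c
    show conj (conj ((D * B) a c)) = _
    rw [Complex.conj_conj]
  have h2 : Pᵀ = (D * B)ᴴ := by
    ext a c
    rfl
  have h3 : Dᴴ = D := by
    rw [hD, Matrix.diagonal_conjTranspose]
    congr 1
    funext i
    simp
  have h4 : D * D = Matrix.diagonal (fun i => (e i : ℂ)) := by
    rw [hD, Matrix.diagonal_mul_diagonal]
    congr 1
    funext i
    rw [← Complex.ofReal_mul, Real.mul_self_sqrt (he i)]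
  have h5 : Pᵀ * 1 * P.map conj = Bᴴ * Matrix.diagonal (fun i => (e i : ℂ)) * B := by
    rw [h1, h2, Matrix.mul_one, Matrix.conjTranspose_mul, h3, ← h4]
    simp only [Matrix.mul_assoc]
  rw [← h5, TP_pull b 1 P Matrix.isHermitian_one]
  congr 1
  have h6 : P.det = conj (D * B).det := by
    rw [hP]
    exact (RingHom.map_det (starRingEnd ℂ) (D * B)).symm
  rw [h6, Complex.normSq_conj, Matrix.det_mul, map_mul, hD, Matrix.det_diagonal, nd, map_prod,
    mul_comm]
  congr 1
  refine Finset.prod_congr rfl fun i _ => ?_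
  rw [Complex.normSq_ofReal, Real.mul_self_sqrt (he i)]

/-! ### the multilinear map -/

/-- `TP b` as a multilinear map -/
def TPm : MultilinearMap ℝ (fun _ : Fin d => Bil (Cn d)) ℝ where
  toFun w := TP b w
  map_update_add' := by
    intro D w k x y
    convert TP_update_add b w k x y
  map_update_smul' := by
    intro D w k c x
    rw [smul_eq_mul]
    convert TP_update_smul b w k c x

@[simp] theorem TPm_apply (w : Fin d → Bil (Cn d)) : TPm b w = TP b w := rfl

theorem TPm_symm : Symm (H := Bil (Cn d)) (TPm b) := fun σ v => TP_perm b v σ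

/-- **the top power of a Hermitian form** -/
theorem TP_rf {G : Matrix (Fin d) (Fin d) ℂ} (hG : G.IsHermitian) :
    TP b (fun _ : Fin d => rf G) =
      TP b (fun _ : Fin d => rf (1 : Matrix (Fin d) (Fin d) ℂ)) * G.det.re := by
  obtain ⟨B, e, hB, h1, h2⟩ := simdH (Matrix.PosDef.one (n := Fin d) (R := ℂ)) hG
  set c : ℝ := TP b (fun _ : Fin d => rf (1 : Matrix (Fin d) (Fin d) ℂ)) with hc
  -- the two polynomials in `s`
  set p : Polynomial ℝ := ∑ a ∈ Finset.range (d + 1),
    Polynomial.C ((d.choose a : ℝ) * TPm b (mixv d a (rf G) (rf 1))) * Polynomial.X ^ a with hp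
  set q : Polynomial ℝ := Polynomial.C (c * nd B) * ∏ i, (Polynomial.C (e i) + Polynomial.X) with hq
  have hpe : ∀ s : ℝ, p.eval s = TP b (fun _ : Fin d => rf (G + (s : ℂ) • 1)) := by
    intro s
    have h3 := (TPm_symm b).expand (rf G) (rf 1) s
    rw [TPm_apply] at h3
    rw [hp, Polynomial.eval_finsetSum]
    simp only [rf_add, rf_smul]
    rw [h3]
    refine Finset.sum_congr rfl fun a _ => ?_
    simp only [Polynomial.eval_mul, Polynomial.eval_C, Polynomial.eval_pow, Polynomial.eval_X]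
    ring
  have hqe : ∀ s : ℝ, q.eval s = c * nd B * ∏ i, (e i + s) := by
    intro s
    rw [hq, Polynomial.eval_mul, Polynomial.eval_prod]
    simp
  have hdec : ∀ s : ℝ, G + (s : ℂ) • 1 =
      Bᴴ * Matrix.diagonal (fun i => ((e i + s : ℝ) : ℂ)) * B := by
    intro s
    have h3 : Matrix.diagonal (fun i => ((e i + s : ℝ) : ℂ)) =
        Matrix.diagonal (fun i => (e i : ℂ)) + (s : ℂ) • (1 : Matrix (Fin d) (Fin d) ℂ) := by
      rw [← Matrix.diagonal_one, ← Matrix.diagonal_smul, Matrix.diagonal_add]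
      congr 1
      funext i
      simp
    rw [h3, Matrix.mul_add, Matrix.add_mul, ← h2, Matrix.mul_smul, Matrix.smul_mul, Matrix.mul_one,
      ← h1]
  have hpq : p = q := by
    obtain ⟨s0, hs0⟩ : ∃ s0 : ℝ, ∀ i, -e i ≤ s0 := by
      obtain ⟨m, hm⟩ := (Set.finite_range fun i => -e i).bddAbove
      exact ⟨m, fun i => hm ⟨i, rfl⟩⟩
    refine Polynomial.eq_of_infinite_eval_eq p q ?_
    refine (Set.Ioi_infinite s0).mono fun s hs => ?_
    show p.eval s = q.eval s
    rw [hpe, hqe, hdec, TP_pos b B _ fun i => by have := hs0 i; have := mem_Ioi.1 hs; linarith]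
    ring
  have h4 := congrArg (Polynomial.eval (0 : ℝ)) hpq
  rw [hpe, hqe] at h4
  have h5 : G + ((0 : ℝ) : ℂ) • (1 : Matrix (Fin d) (Fin d) ℂ) = G := by simp
  rw [h5] at h4
  rw [h4, mul_assoc]
  congr 1
  rw [h2, Matrix.det_mul, Matrix.det_mul, Matrix.det_diagonal]
  have h6 : Bᴴ.det * (∏ i, (e i : ℂ)) * B.det = ((nd B * ∏ i, (e i + 0) : ℝ) : ℂ) := by
    have := det_nd B
    push_cast
    rw [← this]
    simp only [add_zero]
    ring
  rw [h6, Complex.ofReal_re]

/-- **mixed products of two Hermitian forms** -/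
theorem TP_mix {G S : Matrix (Fin d) (Fin d) ℂ} (hG : G.IsHermitian) (hS : S.IsHermitian) {a : ℕ}
    (ha : a ≤ d) : (d.choose a : ℝ) * TP b (mixv d a (rf G) (rf S)) =
      TP b (fun _ : Fin d => rf (1 : Matrix (Fin d) (Fin d) ℂ)) * ((dp G S).coeff a).re := by
  set c : ℝ := TP b (fun _ : Fin d => rf (1 : Matrix (Fin d) (Fin d) ℂ)) with hc
  have h1 : ∀ s : ℝ, ∑ a ∈ Finset.range (d + 1),
      (d.choose a : ℝ) * TP b (mixv d a (rf G) (rf S)) * s ^ a =
      (∑ a ∈ Finset.range (d + 1), Polynomial.C (c * ((dp G S).coeff a).re) *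
        Polynomial.X ^ a : Polynomial ℝ).eval s := by
    intro s
    have h3 := (TPm_symm b).expand (rf G) (rf S) s
    simp only [TPm_apply] at h3
    have h4 : (fun _ : Fin d => rf G + s • rf S) = fun _ : Fin d => rf (G + (s : ℂ) • S) := by
      funext _
      rw [rf_add, rf_smul]
    have h5 : (G + (s : ℂ) • S).IsHermitian := by
      refine hG.add ?_
      unfold Matrix.IsHermitian
      rw [Matrix.conjTranspose_smul, hS.eq]
      simp
    rw [h4, TP_rf b h5, det_eq_sum, Complex.re_sum] at h3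
    rw [Polynomial.eval_finsetSum]
    simp only [Polynomial.eval_mul, Polynomial.eval_C, Polynomial.eval_pow, Polynomial.eval_X]
    rw [Finset.sum_congr rfl fun a _ => mul_right_comm ((d.choose a : ℝ)) _ (s ^ a), ← h3,
      Finset.mul_sum]
    refine Finset.sum_congr rfl fun a _ => ?_
    rw [← Complex.ofReal_pow, Complex.re_mul_ofReal]
    ring
  have h2 := coeff_of_expand _ _ h1 a ha
  rw [h2, Polynomial.finsetSum_coeff]
  simp only [Polynomial.coeff_C_mul, Polynomial.coeff_X_pow]
  rw [Finset.sum_eq_single a]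
  · simp
  · intro b' _ hb'
    simp [Ne.symm hb']
  · intro hcon
    exact absurd (Finset.mem_range.2 (Nat.lt_succ_of_le ha)) hcon

/-! ### the coefficients 0, 1, 2 -/

theorem sum_pairs_aux (e : Fin d → ℝ) (S : Finset (Fin d)) :
    (∑ i ∈ S, e i) ^ 2 = ∑ i ∈ S, e i ^ 2 + 2 * ∑ s ∈ Finset.powersetCard 2 S, ∏ i ∈ s, e i := by
  induction S using Finset.induction_on with
  | empty =>
    rw [Finset.powersetCard_eq_empty.2 (by simp)]
    simp
  | insert x S hx ih =>
    rw [Finset.sum_insert hx, Finset.sum_insert hx, Finset.powersetCard_succ_insert hx 1,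
      Finset.sum_union, Finset.sum_image, Finset.powersetCard_one, Finset.sum_map]
    · have h1 : ∑ i ∈ S, ∏ j ∈ insert x ((⟨singleton, Finset.singleton_injective⟩ :
          Fin d ↪ Finset (Fin d)) i), e j = e x * ∑ i ∈ S, e i := by
        rw [Finset.mul_sum]
        refine Finset.sum_congr rfl fun i hi => ?_
        show ∏ j ∈ insert x ({i} : Finset (Fin d)), e j = _
        rw [Finset.prod_insert (by
          rw [Finset.mem_singleton]
          rintro rfl
          exact hx hi), Finset.prod_singleton]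
      rw [h1]
      linear_combination ih
    · intro s hs t ht h
      rw [Finset.mem_coe, Finset.mem_powersetCard] at hs ht
      have h1 : (insert x s).erase x = (insert x t).erase x := congrArg (fun u => Finset.erase u x) h
      rwa [Finset.erase_insert fun h' => hx (hs.1 h'), Finset.erase_insert fun h' => hx (ht.1 h')]
        at h1
    · rw [Finset.disjoint_left]
      intro s hs ht
      rw [Finset.mem_powersetCard] at hs
      rw [Finset.mem_image] at ht
      obtain ⟨t, _, rfl⟩ := ht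
      exact hx (hs.1 (Finset.mem_insert_self x t))

/-- sum of the products of pairs -/
theorem sum_pairs (e : Fin d → ℝ) :
    2 * ∑ s : Finset (Fin d), (if s.card = 2 then ∏ i ∈ s, e i else 0) =
      (∑ i, e i) ^ 2 - ∑ i, e i ^ 2 := by
  have h1 : ∑ s : Finset (Fin d), (if s.card = 2 then ∏ i ∈ s, e i else 0) =
      ∑ s ∈ Finset.powersetCard 2 (Finset.univ : Finset (Fin d)), ∏ i ∈ s, e i := by
    rw [← Finset.sum_filter]
    congr 1
    ext s
    simp [Finset.mem_powersetCard]
  rw [h1, sum_pairs_aux e Finset.univ]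
  ring

/-- the coefficients for a diagonalised pair -/
theorem coeff_dp {G S B : Matrix (Fin d) (Fin d) ℂ} {e : Fin d → ℝ} (hG : G = Bᴴ * B)
    (hS : S = Bᴴ * Matrix.diagonal (fun i => (e i : ℂ)) * B) :
    ((dp G S).coeff 0).re = nd B ∧ ((dp G S).coeff 1).re = nd B * ∑ i, e i ∧
      2 * ((dp G S).coeff 2).re = nd B * ((∑ i, e i) ^ 2 - ∑ i, e i ^ 2) := by
  refine ⟨?_, ?_, ?_⟩
  · rw [coeff_dp_eq hG hS, Complex.ofReal_re, Finset.sum_eq_single ∅]
    · simp
    · intro s _ hs
      rw [if_neg fun h => hs (Finset.card_eq_zero.1 h)]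
    · simp
  · have h1 : ∑ s : Finset (Fin d), (if s.card = 1 then nd B * ∏ i ∈ s, e i else 0) =
        ∑ s ∈ Finset.powersetCard 1 (Finset.univ : Finset (Fin d)), nd B * ∏ i ∈ s, e i := by
      rw [← Finset.sum_filter]
      congr 1
      ext s
      simp [Finset.mem_powersetCard]
    rw [coeff_dp_eq hG hS, Complex.ofReal_re, h1, Finset.powersetCard_one, Finset.sum_map,
      Finset.mul_sum]
    refine Finset.sum_congr rfl fun i _ => ?_
    show nd B * ∏ j ∈ ({i} : Finset (Fin d)), e j = _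
    rw [Finset.prod_singleton]
  · rw [coeff_dp_eq hG hS, Complex.ofReal_re, ← sum_pairs, Finset.mul_sum, Finset.mul_sum,
      Finset.mul_sum]
    refine Finset.sum_congr rfl fun s _ => ?_
    split_ifs <;> ring

end

end Crest.Agent.R281.Hdx_825
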