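import Crest.Agent.R281.Hdx1_825
import Crest.Agent.R281.Ti8_846
import Crest.Agent.R281.HkR6_835
import Crest.Agent.R281.Fuj3_207
import Crest.Agent.R273.CLinE_933

/-!
# Row 281, HODGE-2 (h3) (helper825), part 2: the Hodge index theorem

`M` compact with `A : Atl d M`, `K : Kah A`; `IM μ b RP` the intersection form of 846 for any Haar
measure `μ`, any basis `b`, any partition `RP`, positive on `K`.

* `K11.addH y u`  : `y + i ∂∂̄ u`
* `exists_const`  : `tr_K (y + i ∂∂̄ u) = m` constant
* `int_eq`        : `IM (mixv d a K y)` for `a = 0, 1, 2` when `tr_K y` is constant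
* `hodge11`       : **Hodge index** for `y : K11 A`
* `hodge`         : **Hodge index** literally as in `Fuj6_207.sig` (`y` an invariant closed 2-form)
* `rev_cs`        : reversed Cauchy-Schwarz inequality
-/

set_option autoImplicit false
set_option linter.unusedSectionVars false
set_option maxSynthPendingDepth 3

open Set Filter Topology Complex MeasureTheory
open scoped ContDiff Matrix ComplexConjugate ComplexOrder

namespace Crest.Agent.R281.Hdx_825

open Crest.Agent.R275.Geo Crest.Agent.R275.Core144 Crest.Agent.R275.EDR890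
open Crest.Agent.R273.Kah_333 Crest.Agent.R273.Hess_333 Crest.Agent.R273.Vol_333
open Crest.Agent.R273.Vm_333 Crest.Agent.R273.Green_5 Crest.Agent.R273.GreenM_5
open Crest.Agent.R281.HkR_835 Crest.Agent.R281.Ti_846 Crest.Agent.R281.FujP_513
open Crest.Agent.R281.Fuj3_207
open Crest.Agent.R273.VolInv_5 Crest.Agent.R273.FIlin_332

noncomputable section

variable {d : ℕ} {M : Type} [TopologicalSpace M] {A : Atl d M}

theorem k11_cf (y : K11 A) : CF A y.g := ⟨y.sm, y.tr, y.closed⟩

/-- `y + i ∂∂̄ u` -/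
def addH (y : K11 A) (u : M → ℝ) (hu : A.Sm u) : K11 A where
  g i x := y.g i x + hsf A u i x
  sm := ((k11_cf y).add (hsf_cf hu)).sm
  herm i x hx := (y.herm i x hx).add (hsf_herm hu hx)
  tr := ((k11_cf y).add (hsf_cf hu)).tr
  closed := ((k11_cf y).add (hsf_cf hu)).closed

theorem addH_ex (y : K11 A) (u : M → ℝ) (hu : A.Sm u) : Ex ((addH y u hu).f2 - y.f2) :=
  ex_sub u hu _ _ fun _ _ _ => rfl

theorem trace_addH (K : Kah A) (y : K11 A) (u : M → ℝ) (hu : A.Sm u) {i : A.ι} {x : M}
    (hx : x ∈ (A.e i).source) : ((K.g i x)⁻¹ * (addH y u hu).g i x).trace =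
      trK K y.g x + (lapK K u x : ℂ) := by
  show ((K.g i x)⁻¹ * (y.g i x + hsf A u i x)).trace = _
  rw [Matrix.mul_add, Matrix.trace_add, lapK_ofReal K hu, trK_eq K (k11_cf y).tr hx,
    trK_eq K (hsf_tn hu) hx]

/-- **representative with constant trace** -/
theorem exists_const [T2Space M] [CompactSpace M] [ConnectedSpace M] [Finite A.ι] (P : Part A)
    (K : Kah A) (y : K11 A) : ∃ (u : M → ℝ) (hu : A.Sm u) (m : ℝ), ∀ i, ∀ x ∈ (A.e i).source,
      ((K.g i x)⁻¹ * (addH y u hu).g i x).trace = (m : ℂ) := by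
  let _ : MeasurableSpace M := borel M
  have : BorelSpace M := ⟨rfl⟩
  have h0 : A.Sm (fun x => (trK K y.g x).re) := sm_re (sm_trK K (k11_cf y).tr (k11_cf y).sm)
  have h1 : A.Sm (fun x => - (trK K y.g x).re) := fun i => (h0 i).neg
  obtain ⟨v, m, hv, h2⟩ := Crest.Agent.R273.CLin_933.lin_kah K P h1
  refine ⟨v, hv, -m, fun i x hx => ?_⟩
  rw [trace_addH K y _ hv hx, h2 x]
  have h4 : (((trK K y.g x).re : ℝ) : ℂ) = trK K y.g x := by
    rw [trK_eq K (k11_cf y).tr hx]
    exact trace_real (K.pos _ _ hx).1 (y.herm _ _ hx)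
  push_cast
  rw [h4]
  ring

/-! ### the integrals -/

/-- the `K11` version of `mixv` -/
def mixK (a : ℕ) (K : Kah A) (y : K11 A) : Fin d → K11 A := fun i =>
  if (i : ℕ) < a then y else ofKah K

theorem f2_rf (y : K11 A) (i : A.ι) (z : Cn d) :
    y.f2.w i z = rf (y.g i ((A.e i).symm z)) := rfl

theorem mixv_w (a : ℕ) (K : Kah A) (y : K11 A) (i : A.ι) (z : Cn d) :
    (fun k : Fin d => (mixv d a (ofKah K).f2 y.f2 k).w i z) =
      mixv d a (rf (K.g i ((A.e i).symm z))) (rf (y.g i ((A.e i).symm z))) := by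
  funext k
  unfold mixv
  split_ifs
  · exact f2_rf y i z
  · exact f2_rf (ofKah K) i z

section int

variable [CompactSpace M] (K : Kah A) (b : Module.Basis (Fin d × Fin 2) ℝ (Cn d))

/-- the constant of the basis -/
def cb (b : Module.Basis (Fin d × Fin 2) ℝ (Cn d)) : ℝ :=
  TP b (fun _ : Fin d => rf (1 : Matrix (Fin d) (Fin d) ℂ))

/-- the densities -/
theorem fn_mix {a : ℕ} (ha : a ≤ d) (y : K11 A) {i : A.ι} {x : M} (hx : x ∈ (A.e i).source)
    {B : Matrix (Fin d) (Fin d) ℂ} (hG : K.g i x = Bᴴ * B) :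
    (d.choose a : ℝ) * nd B *
      (TopF.of b (mixv d a (ofKah K).f2 y.f2)).fn (volK K) x =
      cb b * ((dp (K.g i x) (y.g i x)).coeff a).re := by
  have h1 : TP b (fun k : Fin d => (mixv d a (ofKah K).f2 y.f2 k).w i (A.e i x)) =
      (volK K).w i x * (TopF.of b (mixv d a (ofKah K).f2 y.f2)).fn (volK K) x :=
    (TopF.of b (mixv d a (ofKah K).f2 y.f2)).fn_eq (volK K) hx
  rw [mixv_w, (A.e i).left_inv hx] at h1
  have h2 := TP_mix b (K.pos i x hx).1 (y.herm i x hx) ha
  rw [h1] at h2
  have h3 : (volK K).w i x = nd B := by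
    have h4 : (((volK K).w i x : ℝ) : ℂ) = (nd B : ℂ) := by
      rw [volK_w K i hx, hG, Matrix.det_mul, det_nd]
    exact_mod_cast h4
  rw [h3] at h2
  rw [mul_assoc]
  exact h2

/-- the values of the densities for a form of constant trace -/
theorem fn_vals (hd : 2 ≤ d) (y : K11 A) {m : ℝ} {i : A.ι} {x : M} (hx : x ∈ (A.e i).source)
    (hm : ((K.g i x)⁻¹ * y.g i x).trace = (m : ℂ)) :
    (TopF.of b (mixv d 0 (ofKah K).f2 y.f2)).fn (volK K) x = cb b ∧
    d * (TopF.of b (mixv d 1 (ofKah K).f2 y.f2)).fn (volK K) x = cb b * m ∧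
    ∃ e : Fin d → ℝ, ∑ k, e k = m ∧
      (d * (d - 1) : ℝ) * (TopF.of b (mixv d 2 (ofKah K).f2 y.f2)).fn (volK K) x =
        cb b * (m ^ 2 - ∑ k, e k ^ 2) ∧
      ∀ c : ℝ, (∀ k, e k = c) → y.g i x = (c : ℂ) • K.g i x := by
  obtain ⟨B, e, hB, hG, hS⟩ := simdH (K.pos i x hx) (y.herm i x hx)
  obtain ⟨c0, c1, c2⟩ := coeff_dp hG hS
  have hn := nd_pos hB
  have he : ∑ k, e k = m := by
    have := tr_eq hB hG hS
    rw [hm] at this
    exact_mod_cast this.symm
  have f0 := fn_mix K b (Nat.zero_le d) y hx hG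
  have f1 := fn_mix K b (le_trans one_le_two hd) y hx hG
  have f2 := fn_mix K b hd y hx hG
  rw [c0, Nat.choose_zero_right] at f0
  rw [c1, Nat.choose_one_right, he] at f1
  have hch : ((d.choose 2 : ℕ) : ℝ) * 2 = d * (d - 1) := by
    have h1 := Nat.choose_two_right d
    have h2 : d.choose 2 * 2 = d * (d - 1) := by
      rw [h1]
      exact Nat.div_mul_cancel (Nat.even_mul_pred_self d).two_dvd
    have h3 : ((d - 1 : ℕ) : ℝ) = d - 1 := by
      rw [Nat.cast_sub (le_trans one_le_two hd), Nat.cast_one]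
    rw [← h3]
    exact_mod_cast h2
  refine ⟨?_, ?_, e, he, ?_, ?_⟩
  · have h1 : nd B * (TopF.of b (mixv d 0 (ofKah K).f2 y.f2)).fn (volK K) x = nd B * cb b := by
      push_cast at f0
      linarith
    exact mul_left_cancel₀ hn.ne' h1
  · have h1 : nd B * (d * (TopF.of b (mixv d 1 (ofKah K).f2 y.f2)).fn (volK K) x) =
        nd B * (cb b * m) := by
      linarith
    exact mul_left_cancel₀ hn.ne' h1
  · have h1 : nd B * ((d * (d - 1) : ℝ) *
        (TopF.of b (mixv d 2 (ofKah K).f2 y.f2)).fn (volK K) x) =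
        nd B * (cb b * (m ^ 2 - ∑ k, e k ^ 2)) := by
      rw [← hch, ← he]
      linear_combination 2 * f2 + cb b * c2
    exact mul_left_cancel₀ hn.ne' h1
  · intro c hc
    have h1 : (fun i => (e i : ℂ)) = fun _ => (c : ℂ) := by
      funext k
      rw [hc k]
    have h2 : Matrix.diagonal (fun _ : Fin d => (c : ℂ)) = (c : ℂ) • 1 := by
      rw [← Matrix.diagonal_one, ← Matrix.diagonal_smul]
      congr 1
      funext k
      simp
    rw [hS, hG, h1, h2, Matrix.mul_smul, Matrix.smul_mul, Matrix.mul_one]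

end int

/-- Haar measures are proportional -/
theorem exists_mu (μ : Measure (Cn d)) [μ.IsAddHaarMeasure] : ∃ κ : ℝ, 0 < κ ∧
    ∀ (P : RPart (ofAtl A)) (D : TopF (ofAtl A)), intT μ P D = κ * intT (lc d) P D := by
  have h1 := MeasureTheory.Measure.isAddLeftInvariant_eq_smul μ (lc d)
  set c := MeasureTheory.Measure.addHaarScalarFactor μ (lc d) with hc
  have h2 : 0 < c := MeasureTheory.Measure.addHaarScalarFactor_pos_of_isAddHaarMeasure μ (lc d)
  refine ⟨c, by exact_mod_cast h2, fun P D => ?_⟩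
  unfold intT
  rw [Finset.mul_sum]
  refine Finset.sum_congr rfl fun k _ => ?_
  rw [h1, Measure.restrict_smul, integral_smul_nnreal_measure]
  rfl

/-- `mixv` of cohomologous forms -/
theorem IM_mixv [CompactSpace M] (μ : Measure (Cn d)) [μ.IsAddHaarMeasure]
    (b : Module.Basis (Fin d × Fin 2) ℝ (Cn d)) (RP : RPart (ofAtl A)) (a : ℕ)
    {x x' y y' : F2 (ofAtl A)} (hx : x - x' ∈ exS (ofAtl A)) (hy : y - y' ∈ exS (ofAtl A)) :
    IM μ b RP (mixv d a x y) = IM μ b RP (mixv d a x' y') := by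
  refine IM_coh μ b RP (ori_ofAtl A) fun k => ?_
  unfold mixv
  split_ifs
  · exact hy
  · exact hx

theorem ex_of_g_zero (y : K11 A) (h : ∀ i, ∀ x ∈ (A.e i).source, y.g i x = 0) :
    y.f2 ∈ exS (ofAtl A) := by
  refine ⟨0, fun i z hz u v => ?_⟩
  have hz' : z ∈ (A.e i).target := hz
  rw [F1.fderiv_zero, y.f2_w hz', h i _ ((A.e i).map_target hz')]
  simp [hb]

section main

variable [T2Space M] [CompactSpace M] [ConnectedSpace M] [Finite A.ι] (P : Part A) (K : Kah A)
  (μ : Measure (Cn d)) [μ.IsAddHaarMeasure] (b : Module.Basis (Fin d × Fin 2) ℝ (Cn d))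
  (RP : RPart (ofAtl A))

/-- **the integrals** for a form with constant trace, and the vanishing of the primitive part -/
theorem int_vals (hd : 2 ≤ d) (y : K11 A) {m : ℝ}
    (hm : ∀ i, ∀ x ∈ (A.e i).source, ((K.g i x)⁻¹ * y.g i x).trace = (m : ℂ)) :
    ∃ κ V : ℝ, 0 < κ ∧ 0 < V ∧
      IM μ b RP (mixv d 0 (ofKah K).f2 y.f2) = κ * (cb b * V) ∧
      d * IM μ b RP (mixv d 1 (ofKah K).f2 y.f2) = κ * (cb b * m * V) ∧
      ∃ q : ℝ, m ^ 2 * V ≤ d * q ∧
        (d * (d - 1) : ℝ) * IM μ b RP (mixv d 2 (ofKah K).f2 y.f2) =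
          κ * (cb b * (m ^ 2 * V - q)) ∧
        (cb b ≠ 0 → m ^ 2 * V = d * q → ∀ i, ∀ x ∈ (A.e i).source,
          y.g i x = ((m / d : ℝ) : ℂ) • K.g i x) := by
  let _ : MeasurableSpace M := borel M
  have : BorelSpace M := ⟨rfl⟩
  have : Countable A.ι := inferInstance
  have := isFinite_vm (volK K)
  have hop : (vm (volK K)).IsOpenPosMeasure := isOpenPos_vm (volK K)
  obtain ⟨κ, hκ, hI⟩ := exists_mu (A := A) μ
  have hd0 : (0 : ℝ) < d := by
    have : (2 : ℝ) ≤ d := by exact_mod_cast hd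
    linarith
  have hdd : (0 : ℝ) < d * (d - 1) := by
    have : (2 : ℝ) ≤ d := by exact_mod_cast hd
    have h1 : (0 : ℝ) < d - 1 := by linarith
    positivity
  set V : ℝ := (vm (volK K)).real univ with hV
  have hV0 : 0 < V := by
    have h1 : vm (volK K) univ ≠ 0 := (isOpen_univ.measure_pos _ univ_nonempty).ne'
    exact ENNReal.toReal_pos h1 (measure_ne_top _ _)
  have hT : ∀ a, IM μ b RP (mixv d a (ofKah K).f2 y.f2) =
      κ * ∫ x, (TopF.of b (mixv d a (ofKah K).f2 y.f2)).fn (volK K) x ∂(vm (volK K)) := by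
    intro a
    rw [IM_apply]
    unfold II
    rw [hI, intT_eq (volK K)]
  set f2 : M → ℝ := (TopF.of b (mixv d 2 (ofKah K).f2 y.f2)).fn (volK K) with hf2
  have hf2c : Continuous f2 := TopF.fn_cont _ _
  have hf2i : Integrable f2 (vm (volK K)) :=
    hf2c.integrable_of_hasCompactSupport (HasCompactSupport.of_compactSpace _)
  refine ⟨κ, V, hκ, hV0, ?_, ?_, ?_⟩
  · rw [hT]
    congr 1
    have h1 : (TopF.of b (mixv d 0 (ofKah K).f2 y.f2)).fn (volK K) = fun _ => cb b := by
      funext x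
      obtain ⟨i, hi⟩ := A.cover x
      exact (fn_vals K b hd y hi (hm i x hi)).1
    rw [h1, integral_const, smul_eq_mul]
    ring
  · rw [hT, mul_left_comm]
    congr 1
    rw [← integral_const_mul]
    have h1 : (fun x => (d : ℝ) * (TopF.of b (mixv d 1 (ofKah K).f2 y.f2)).fn (volK K) x) =
        fun _ => cb b * m := by
      funext x
      obtain ⟨i, hi⟩ := A.cover x
      exact (fn_vals K b hd y hi (hm i x hi)).2.1
    rw [h1, integral_const, smul_eq_mul]
    ring
  · by_cases hcb : cb b = 0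
    · refine ⟨m ^ 2 * V / d, by rw [mul_div_cancel₀ _ hd0.ne'], ?_, fun h => absurd hcb h⟩
      rw [hT, mul_left_comm]
      congr 1
      rw [hcb, zero_mul, ← integral_const_mul]
      have h1 : (fun x => (d * (d - 1) : ℝ) * f2 x) = fun _ => 0 := by
        funext x
        obtain ⟨i, hi⟩ := A.cover x
        obtain ⟨e, -, h2, -⟩ := (fn_vals K b hd y hi (hm i x hi)).2.2
        rw [hcb, zero_mul] at h2
        exact h2
      rw [h1]
      simp
    · -- the function `Σ e²`
      set Q : M → ℝ := fun x => m ^ 2 - (d * (d - 1) : ℝ) * f2 x / cb b with hQ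
      have hQc : Continuous Q := by
        rw [hQ]
        fun_prop
      have hQi : Integrable Q (vm (volK K)) :=
        hQc.integrable_of_hasCompactSupport (HasCompactSupport.of_compactSpace _)
      have hQe : ∀ i, ∀ x ∈ (A.e i).source, ∃ e : Fin d → ℝ, ∑ k, e k = m ∧
          Q x = ∑ k, e k ^ 2 ∧ ∀ c : ℝ, (∀ k, e k = c) → y.g i x = (c : ℂ) • K.g i x := by
        intro i x hi
        obtain ⟨e, h1, h2, h3⟩ := (fn_vals K b hd y hi (hm i x hi)).2.2
        refine ⟨e, h1, ?_, h3⟩
        show m ^ 2 - (d * (d - 1) : ℝ) * f2 x / cb b = _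
        rw [h2]
        field_simp
        ring
      have hcs : ∀ e : Fin d → ℝ, ∑ k, e k = m → d * ∑ k, e k ^ 2 - m ^ 2 =
          d * ∑ k, (e k - m / d) ^ 2 := by
        intro e he
        have h1 : ∑ k, (e k - m / d) ^ 2 = ∑ k, e k ^ 2 - 2 * (m / d) * ∑ k, e k +
            d * (m / d) ^ 2 := by
          rw [Finset.mul_sum, ← Finset.sum_sub_distrib]
          have h2 : (d : ℝ) * (m / d) ^ 2 = ∑ _k : Fin d, (m / d) ^ 2 := by simp
          rw [h2, ← Finset.sum_add_distrib]
          exact Finset.sum_congr rfl fun k _ => by ring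
        rw [h1, he]
        field_simp
        ring
      have hQ0 : ∀ x, 0 ≤ d * Q x - m ^ 2 := by
        intro x
        obtain ⟨i, hi⟩ := A.cover x
        obtain ⟨e, h1, h2, -⟩ := hQe i x hi
        rw [h2, hcs e h1]
        positivity
      have hint : ∫ x, (d * Q x - m ^ 2) ∂(vm (volK K)) =
          d * (∫ x, Q x ∂(vm (volK K))) - m ^ 2 * V := by
        rw [integral_sub (hQi.const_mul _) (integrable_const _), integral_const_mul,
          integral_const, smul_eq_mul]
        ring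
      refine ⟨∫ x, Q x ∂(vm (volK K)), ?_, ?_, fun _ hEq i x hi => ?_⟩
      · have := integral_nonneg (μ := vm (volK K)) (f := fun x => d * Q x - m ^ 2) hQ0
        rw [hint] at this
        linarith
      · rw [hT, mul_left_comm]
        congr 1
        have h1 : ∫ x, Q x ∂(vm (volK K)) =
            m ^ 2 * V - (d * (d - 1) : ℝ) / cb b * ∫ x, f2 x ∂(vm (volK K)) := by
          rw [hQ, integral_sub (integrable_const _) ((hf2i.const_mul _).div_const _),
            integral_const, smul_eq_mul, integral_div, integral_const_mul]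
          ring
        rw [h1]
        field_simp
        ring
      · have h1 : ∫ x, (d * Q x - m ^ 2) ∂(vm (volK K)) = 0 := by
          rw [hint, hEq]
          ring
        have hcont : Continuous fun x => d * Q x - m ^ 2 := by fun_prop
        have h2 := (integral_eq_zero_iff_of_nonneg (μ := vm (volK K))
          (f := fun x => d * Q x - m ^ 2) hQ0 ((hQi.const_mul _).sub (integrable_const _))).1 h1
        have h3 : (fun x => d * Q x - m ^ 2) = fun _ => 0 :=
          (Continuous.ae_eq_iff_eq (vm (volK K)) hcont continuous_const).1 h2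
        obtain ⟨e, h4, h5, h6⟩ := hQe i x hi
        refine h6 (m / d) fun k => ?_
        have h7 : d * ∑ k, (e k - m / d) ^ 2 = 0 := by
          rw [← hcs e h4, ← h5]
          exact congrFun h3 x
        have h8 : ∑ k, (e k - m / d) ^ 2 = 0 := (mul_eq_zero.1 h7).resolve_left hd0.ne'
        have h9 := (Finset.sum_eq_zero_iff_of_nonneg fun k _ => sq_nonneg _).1 h8 k
          (Finset.mem_univ k)
        have h10 : e k - m / d = 0 := by simpa using h9
        linarith

end main

end

end Crest.Agent.R281.Hdx_825
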