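import Crest.Agent.R281.Hdx2_825
import Crest.Agent.R281.Fuj5_207

/-!
# Row 281, HODGE-2 (h3) (helper825), part 3: the Hodge index theorem, final forms

* `rev_cs`  : `IM(K..K) IM(K..K y y) ≤ IM(K..K y)²` and the case of equality
* `hodge11` : `y : K11 A`, `IM(K..K y) = 0`: `IM(K..K y y) ≤ 0`, `= 0` only if `y` is exact
* `hodge`   : literally the hypothesis `hodge` of `Fuj6_207.sig`
-/

set_option autoImplicit false
set_option linter.unusedSectionVars false
set_option maxSynthPendingDepth 3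

open Set Filter Topology Complex MeasureTheory
open scoped ContDiff Matrix ComplexConjugate ComplexOrder

namespace Crest.Agent.R281.Hdx_825

open Crest.Agent.R275.Geo Crest.Agent.R275.Core144 Crest.Agent.R275.EDR890
open Crest.Agent.R273.Kah_333 Crest.Agent.R273.Hess_333 Crest.Agent.R273.Vol_333
open Crest.Agent.R281.HkR_835 Crest.Agent.R281.Ti_846 Crest.Agent.R281.FujP_513
open Crest.Agent.R281.Fuj3_207
open Crest.Agent.R281.Fuj5_207 (E11 mem_E11 f2_mem mem_exS_of_eq)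

noncomputable section

variable {d : ℕ} {M : Type} [TopologicalSpace M] {A : Atl d M}
  [T2Space M] [CompactSpace M] [ConnectedSpace M] [Finite A.ι] (P : Part A) (K : Kah A)
  (μ : Measure (Cn d)) [μ.IsAddHaarMeasure]

section d

variable (b : Module.Basis (Fin d × Fin 2) ℝ (Cn d)) (RP : RPart (ofAtl A))

include P in
/-- the two inequalities for a closed real (1,1)-form -/
theorem main11 (hd : 2 ≤ d) (y : K11 A) :
    ∃ (κ V m q : ℝ), 0 < κ ∧ 0 < V ∧
      IM μ b RP (mixv d 0 (ofKah K).f2 y.f2) = κ * (cb b * V) ∧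
      d * IM μ b RP (mixv d 1 (ofKah K).f2 y.f2) = κ * (cb b * m * V) ∧
      m ^ 2 * V ≤ d * q ∧
      (d * (d - 1) : ℝ) * IM μ b RP (mixv d 2 (ofKah K).f2 y.f2) = κ * (cb b * (m ^ 2 * V - q)) ∧
      (cb b ≠ 0 → m ^ 2 * V = d * q → y.f2 - (m / d : ℝ) • (ofKah K).f2 ∈ exS (ofAtl A)) := by
  obtain ⟨u, hu, m, hm⟩ := exists_const P K y
  obtain ⟨κ, V, hκ, hV, h0, h1, q, h2, h3, h4⟩ := int_vals K μ b RP hd (addH y u hu) hm
  have hyy : (addH y u hu).f2 - y.f2 ∈ exS (ofAtl A) := addH_ex y u hu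
  have hkk : (ofKah K).f2 - (ofKah K).f2 ∈ exS (ofAtl A) := by
    rw [sub_self]
    exact (exS (ofAtl A)).zero_mem
  have hI : ∀ a, IM μ b RP (mixv d a (ofKah K).f2 (addH y u hu).f2) =
      IM μ b RP (mixv d a (ofKah K).f2 y.f2) := fun a => IM_mixv μ b RP a hkk hyy
  rw [hI] at h0 h1 h3
  refine ⟨κ, V, m, q, hκ, hV, h0, h1, h2, h3, fun hc he => ?_⟩
  have h5 : (addH y u hu).f2 - (m / d : ℝ) • (ofKah K).f2 ∈ exS (ofAtl A) := by
    refine mem_exS_of_eq fun i z hz v v' => ?_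
    have h6 := h4 hc he i _ ((A.e i).map_target hz)
    have h7 : (((m / d : ℝ) • (ofKah K).f2).w i z v v') = (m / d) * (ofKah K).f2.w i z v v' := rfl
    rw [h7, K11.f2_w _ hz, K11.f2_w _ hz, h6]
    have h8 : hb (((m / d : ℝ) : ℂ) • K.g i ((A.e i).symm z)) v v' =
        ((m / d : ℝ) : ℂ) * hb (K.g i ((A.e i).symm z)) v v' := by
      rw [← hbL_apply, map_smul, smul_eq_mul, hbL_apply]
    rw [h8, mul_left_comm, Complex.re_ofReal_mul]
    rfl
  have h9 : y.f2 - (m / d : ℝ) • (ofKah K).f2 =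
      ((addH y u hu).f2 - (m / d : ℝ) • (ofKah K).f2) - ((addH y u hu).f2 - y.f2) := by abel
  rw [h9]
  exact (exS (ofAtl A)).sub_mem h5 hyy

theorem mixv_zero (x y : F2 (ofAtl A)) : mixv d 0 x y = fun _ => x := by
  funext i
  simp [mixv]

include P in
/-- **Hodge index** -/
theorem hodge11 (hd : 2 ≤ d) (hpos : 0 < IM μ b RP (fun _ => (ofKah K).f2)) (y : K11 A)
    (h : IM μ b RP (mixv d 1 (ofKah K).f2 y.f2) = 0) :
    IM μ b RP (mixv d 2 (ofKah K).f2 y.f2) ≤ 0 ∧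
      (IM μ b RP (mixv d 2 (ofKah K).f2 y.f2) = 0 → y.f2 ∈ exS (ofAtl A)) := by
  obtain ⟨κ, V, m, q, hκ, hV, h0, h1, h2, h3, h4⟩ := main11 P K μ b RP hd y
  rw [mixv_zero] at h0
  rw [h0] at hpos
  have hcb : 0 < cb b := by
    have := (pos_iff_pos_of_mul_pos hpos).1 hκ
    exact (pos_iff_pos_of_mul_pos this).2 hV
  rw [h, mul_zero] at h1
  have hm : m = 0 := by
    have h5 : κ * cb b * V * m = 0 := by linarith
    exact (mul_eq_zero.1 h5).resolve_left (by positivity)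
  subst hm
  have hdd : (0 : ℝ) < d * (d - 1) := by
    have : (2 : ℝ) ≤ d := by exact_mod_cast hd
    have h1 : (0 : ℝ) < d - 1 := by linarith
    positivity
  have hd0 : (0 : ℝ) < d := by
    have : (2 : ℝ) ≤ d := by exact_mod_cast hd
    linarith
  have hq : 0 ≤ q := by
    have h5 : 0 ≤ (d : ℝ) * q := by
      have := h2
      simp only [ne_eq, OfNat.ofNat_ne_zero, not_false_eq_true, zero_pow, zero_mul] at this
      exact this
    exact nonneg_of_mul_nonneg_right h5 hd0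
  have h6 : (d * (d - 1) : ℝ) * IM μ b RP (mixv d 2 (ofKah K).f2 y.f2) = -(κ * cb b * q) := by
    rw [h3]
    ring
  constructor
  · have h7 : (d * (d - 1) : ℝ) * IM μ b RP (mixv d 2 (ofKah K).f2 y.f2) ≤ 0 := by
      rw [h6]
      have : 0 ≤ κ * cb b * q := by positivity
      linarith
    by_contra h8
    push Not at h8
    have := mul_pos hdd h8
    linarith
  · intro h7
    rw [h7, mul_zero] at h6
    have h8 : q = 0 := by
      have h9 : κ * cb b * q = 0 := by linarith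
      exact (mul_eq_zero.1 h9).resolve_left (by positivity)
    have h10 := h4 hcb.ne' (by rw [h8]; ring)
    rw [zero_div, zero_smul, sub_zero] at h10
    exact h10

include P in
/-- **reversed Cauchy-Schwarz inequality** -/
theorem rev_cs (hd : 2 ≤ d) (y : K11 A) :
    IM μ b RP (fun _ => (ofKah K).f2) * IM μ b RP (mixv d 2 (ofKah K).f2 y.f2) ≤
      IM μ b RP (mixv d 1 (ofKah K).f2 y.f2) ^ 2 ∧
    (IM μ b RP (fun _ => (ofKah K).f2) ≠ 0 →
      IM μ b RP (fun _ => (ofKah K).f2) * IM μ b RP (mixv d 2 (ofKah K).f2 y.f2) =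
      IM μ b RP (mixv d 1 (ofKah K).f2 y.f2) ^ 2 →
        ∃ c : ℝ, y.f2 - c • (ofKah K).f2 ∈ exS (ofAtl A)) := by
  obtain ⟨κ, V, m, q, hκ, hV, h0, h1, h2, h3, h4⟩ := main11 P K μ b RP hd y
  rw [mixv_zero] at h0
  set T0 := IM μ b RP (fun _ => (ofKah K).f2)
  set T1 := IM μ b RP (mixv d 1 (ofKah K).f2 y.f2)
  set T2 := IM μ b RP (mixv d 2 (ofKah K).f2 y.f2)
  have hd2 : (2 : ℝ) ≤ d := by exact_mod_cast hd
  have hd1 : (0 : ℝ) < d - 1 := by linarith
  have hd0 : (0 : ℝ) < d := by linarith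
  have key : (d : ℝ) ^ 2 * (d - 1) * (T1 ^ 2 - T0 * T2) =
      (κ * cb b) ^ 2 * V * (d * q - m ^ 2 * V) := by
    have e1 : (d : ℝ) ^ 2 * T1 ^ 2 = (κ * (cb b * m * V)) ^ 2 := by rw [← h1]; ring
    have e2 : (d : ℝ) ^ 2 * (d - 1) * (T0 * T2) = d * T0 * (κ * (cb b * (m ^ 2 * V - q))) := by
      rw [← h3]; ring
    have e3 : (d : ℝ) ^ 2 * (d - 1) * (T1 ^ 2 - T0 * T2) =
        (d - 1) * ((d : ℝ) ^ 2 * T1 ^ 2) - (d : ℝ) ^ 2 * (d - 1) * (T0 * T2) := by ring
    rw [e3, e1, e2, h0]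
    ring
  constructor
  · by_contra h5
    push Not at h5
    have h6 : (d : ℝ) ^ 2 * (d - 1) * (T1 ^ 2 - T0 * T2) < 0 := by
      refine mul_neg_of_pos_of_neg (by positivity) (by linarith)
    rw [key] at h6
    have h7 : 0 ≤ (κ * cb b) ^ 2 * V * (d * q - m ^ 2 * V) := by
      have : 0 ≤ d * q - m ^ 2 * V := by linarith
      positivity
    linarith
  · intro hT0 h5
    have hcb : cb b ≠ 0 := by
      intro h6
      rw [h6, zero_mul, mul_zero] at h0
      exact hT0 h0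
    refine ⟨m / d, h4 hcb ?_⟩
    rw [← h5, sub_self, mul_zero] at key
    have h6 : (κ * cb b) ^ 2 * V ≠ 0 := by positivity
    have h7 := (mul_eq_zero.1 key.symm).resolve_left h6
    linarith

end d

include P in
/-- **Hodge index**, as in `Fuj6_207.sig` -/
theorem hodge {N : ℕ} (hN : 2 ≤ N) (b : Module.Basis (Fin N × Fin 2) ℝ (Cn d))
    (RP : RPart (ofAtl A)) (hpos : 0 < IM μ b RP (fun _ => (ofKah K).f2)) :
    ∀ y ∈ E11 A, IM μ b RP (mixv N 1 (ofKah K).f2 y) = 0 →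
      IM μ b RP (mixv N 2 (ofKah K).f2 y) ≤ 0 ∧
        (IM μ b RP (mixv N 2 (ofKah K).f2 y) = 0 → y ∈ exS (ofAtl A)) := by
  obtain rfl : N = d := by
    have h1 := Module.finrank_eq_card_basis b
    have h2 := Module.finrank_eq_card_basis (bc d)
    rw [h2] at h1
    simp only [Fintype.card_prod, Fintype.card_fin] at h1
    omega
  intro y hy h
  set y' : K11 A := y.k11 hy with hy'
  have hyy : y - y'.f2 ∈ exS (ofAtl A) := mem_exS_of_eq fun i z hz u v => by
    rw [hy', F2.k11_f2 y hy hz]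
  have hkk : (ofKah K).f2 - (ofKah K).f2 ∈ exS (ofAtl A) := by
    rw [sub_self]
    exact (exS (ofAtl A)).zero_mem
  rw [IM_mixv μ b RP 1 hkk hyy] at h
  rw [IM_mixv μ b RP 2 hkk hyy]
  obtain ⟨h1, h2⟩ := hodge11 P K μ b RP hN hpos y' h
  refine ⟨h1, fun h3 => ?_⟩
  have h4 : y = (y - y'.f2) + y'.f2 := by abel
  rw [h4]
  exact (exS (ofAtl A)).add_mem hyy (h2 h3)

end

end Crest.Agent.R281.Hdx_825
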