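import Crest.Agent.R281.T6a_16
import Mathlib

/-! Row 281, S-T6 (helper16), part 2: pinching of a Gram matrix by trace and determinant,
and the final form of (T6'). -/

set_option autoImplicit false
open MeasureTheory Metric Set Filter Topology Matrix
open scoped ENNReal NNReal ContDiff ComplexOrder

namespace Crest.Agent.R281.T6_16
open Crest.Agent.R281.Mx_405 Crest.Agent.R281.St_405

noncomputable section

section mat

variable {ι : Type*} [Fintype ι] [DecidableEq ι] {G : Matrix ι ι ℂ}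

theorem tr_eig (hG : G.PosSemidef) : G.trace.re = ∑ i, hG.1.eigenvalues i := by
  rw [hG.1.trace_eq_sum_eigenvalues, Complex.re_sum]
  simp

theorem det_eig (hG : G.PosSemidef) : G.det.re = ∏ i, hG.1.eigenvalues i := by
  rw [hG.1.det_eq_prod_eigenvalues]
  have : (∏ i, ((hG.1.eigenvalues i : ℝ) : ℂ)) = ((∏ i, hG.1.eigenvalues i : ℝ) : ℂ) := by
    push_cast; rfl
  exact (congrArg Complex.re this).trans (Complex.ofReal_re _)

theorem eig_le_tr (hG : G.PosSemidef) (i : ι) : hG.1.eigenvalues i ≤ G.trace.re := by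
  rw [tr_eig hG]
  exact Finset.single_le_sum (f := hG.1.eigenvalues) (fun j _ => hG.eigenvalues_nonneg j)
    (Finset.mem_univ i)

theorem tr_re_nonneg' (hG : G.PosSemidef) : 0 ≤ G.trace.re := by
  rw [tr_eig hG]
  exact Finset.sum_nonneg fun j _ => hG.eigenvalues_nonneg j

/-- `det G ≤ (tr G)^N` -/
theorem det_le_tr_pow (hG : G.PosSemidef) : G.det.re ≤ G.trace.re ^ Fintype.card ι := by
  rw [det_eig hG]
  calc ∏ i, hG.1.eigenvalues i ≤ ∏ _i : ι, G.trace.re :=
        Finset.prod_le_prod (fun i _ => hG.eigenvalues_nonneg i) fun i _ => eig_le_tr hG i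
    _ = G.trace.re ^ Fintype.card ι := by rw [Finset.prod_const]; rfl

/-- lower bound of the eigenvalues -/
theorem eig_ge (hG : G.PosSemidef) {c B : ℝ} (hc : 0 < c) (hd : c ≤ G.det.re)
    (hB : G.trace.re ≤ B) (i : ι) : c / B ^ (Fintype.card ι - 1) ≤ hG.1.eigenvalues i := by
  have h0 : ∀ j, 0 ≤ hG.1.eigenvalues j := hG.eigenvalues_nonneg
  have hp : 0 < ∏ j, hG.1.eigenvalues j := by rw [← det_eig hG]; linarith
  have hi : 0 < hG.1.eigenvalues i := by
    rcases (h0 i).lt_or_eq with h | h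
    · exact h
    · exact absurd (Finset.prod_eq_zero (Finset.mem_univ i) h.symm) hp.ne'
  have hBpos : 0 < B := hi.trans_le ((eig_le_tr hG i).trans hB)
  rw [div_le_iff₀ (by positivity)]
  have h1 : ∏ j, hG.1.eigenvalues j =
      hG.1.eigenvalues i * ∏ j ∈ Finset.univ.erase i, hG.1.eigenvalues j :=
    (Finset.mul_prod_erase Finset.univ _ (Finset.mem_univ i)).symm
  have h2 : ∏ j ∈ Finset.univ.erase i, hG.1.eigenvalues j ≤ B ^ (Fintype.card ι - 1) := by
    calc ∏ j ∈ Finset.univ.erase i, hG.1.eigenvalues j ≤ ∏ _j ∈ Finset.univ.erase i, B :=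
          Finset.prod_le_prod (fun j _ => h0 j) fun j _ => (eig_le_tr hG j).trans hB
      _ = B ^ (Fintype.card ι - 1) := by
        rw [Finset.prod_const, Finset.card_erase_of_mem (Finset.mem_univ i)]; rfl
  rw [det_eig hG] at hd
  calc c ≤ ∏ j, hG.1.eigenvalues j := hd
    _ = hG.1.eigenvalues i * ∏ j ∈ Finset.univ.erase i, hG.1.eigenvalues j := h1
    _ ≤ hG.1.eigenvalues i * B ^ (Fintype.card ι - 1) :=
        mul_le_mul_of_nonneg_left h2 (h0 i)

/-- from eigenvalues to the Loewner order -/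
theorem sub_posSemidef (hG : G.PosSemidef) {a : ℝ} (ha : ∀ i, a ≤ hG.1.eigenvalues i) :
    (G - (a : ℂ) • (1 : Matrix ι ι ℂ)).PosSemidef := by
  set U : Matrix ι ι ℂ := (hG.1.eigenvectorUnitary : Matrix ι ι ℂ) with hU
  have h1 : G = U * diagonal (fun i => ((hG.1.eigenvalues i : ℝ) : ℂ)) * Uᴴ := by
    have h := hG.1.spectral_theorem
    rw [Unitary.conjStarAlgAut_apply] at h
    exact h
  have h2 : U * Uᴴ = 1 := Unitary.mul_star_self_of_mem hG.1.eigenvectorUnitary.2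
  have h3 : G - (a : ℂ) • (1 : Matrix ι ι ℂ) =
      U * diagonal (fun i => ((hG.1.eigenvalues i - a : ℝ) : ℂ)) * Uᴴ := by
    have e : (diagonal (fun i => ((hG.1.eigenvalues i - a : ℝ) : ℂ)) : Matrix ι ι ℂ) =
        diagonal (fun i => ((hG.1.eigenvalues i : ℝ) : ℂ)) - (a : ℂ) • (1 : Matrix ι ι ℂ) := by
      ext i j
      by_cases hij : i = j
      · subst hij
        simp
      · simp [hij]
    rw [e, Matrix.mul_sub, Matrix.sub_mul, ← h1, Matrix.mul_smul, Matrix.smul_mul,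
      Matrix.mul_one, h2]
  rw [h3]
  refine PosSemidef.mul_mul_conjTranspose_same ?_ U
  rw [posSemidef_diagonal_iff]
  intro i
  have := ha i
  exact_mod_cast sub_nonneg.2 this

theorem sub_posSemidef' (hG : G.PosSemidef) {a : ℝ} (ha : ∀ i, hG.1.eigenvalues i ≤ a) :
    ((a : ℂ) • (1 : Matrix ι ι ℂ) - G).PosSemidef := by
  set U : Matrix ι ι ℂ := (hG.1.eigenvectorUnitary : Matrix ι ι ℂ) with hU
  have h1 : G = U * diagonal (fun i => ((hG.1.eigenvalues i : ℝ) : ℂ)) * Uᴴ := by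
    have h := hG.1.spectral_theorem
    rw [Unitary.conjStarAlgAut_apply] at h
    exact h
  have h2 : U * Uᴴ = 1 := Unitary.mul_star_self_of_mem hG.1.eigenvectorUnitary.2
  have h3 : (a : ℂ) • (1 : Matrix ι ι ℂ) - G =
      U * diagonal (fun i => ((a - hG.1.eigenvalues i : ℝ) : ℂ)) * Uᴴ := by
    have e : (diagonal (fun i => ((a - hG.1.eigenvalues i : ℝ) : ℂ)) : Matrix ι ι ℂ) =
        (a : ℂ) • (1 : Matrix ι ι ℂ) - diagonal (fun i => ((hG.1.eigenvalues i : ℝ) : ℂ)) := by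
      ext i j
      by_cases hij : i = j
      · subst hij
        simp
      · simp [hij]
    rw [e, Matrix.mul_sub, Matrix.sub_mul, ← h1, Matrix.mul_smul, Matrix.smul_mul,
      Matrix.mul_one, h2]
  rw [h3]
  refine PosSemidef.mul_mul_conjTranspose_same ?_ U
  rw [posSemidef_diagonal_iff]
  intro i
  have := ha i
  exact_mod_cast sub_nonneg.2 this

/-- **pinching of a Gram matrix** -/
theorem gram_pinch (hG : G.PosSemidef) {c B : ℝ} (hc : 0 < c) (hd : c ≤ G.det.re)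
    (hB : G.trace.re ≤ B) :
    (G - ((c / B ^ (Fintype.card ι - 1) : ℝ) : ℂ) • (1 : Matrix ι ι ℂ)).PosSemidef ∧
      (((B : ℝ) : ℂ) • (1 : Matrix ι ι ℂ) - G).PosSemidef :=
  ⟨sub_posSemidef hG (eig_ge hG hc hd hB),
    sub_posSemidef' hG fun i => (eig_le_tr hG i).trans hB⟩

theorem re_dot_one (ξ : ι → ℂ) (a : ℝ) :
    (star ξ ⬝ᵥ (((a : ℂ) • (1 : Matrix ι ι ℂ)) *ᵥ ξ)).re = a * ∑ i, ‖ξ i‖ ^ 2 := by
  rw [Matrix.smul_mulVec, Matrix.one_mulVec, dotProduct_smul, smul_eq_mul, Complex.re_ofReal_mul,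
    dotProduct, Complex.re_sum]
  congr 1
  refine Finset.sum_congr rfl fun i _ => ?_
  rw [Pi.star_apply, Complex.star_def, ← Complex.normSq_eq_conj_mul_self, Complex.ofReal_re,
    Complex.normSq_eq_norm_sq]

/-- the same as an inequality of quadratic forms -/
theorem gram_pinch_form (hG : G.PosSemidef) {c B : ℝ} (hc : 0 < c) (hd : c ≤ G.det.re)
    (hB : G.trace.re ≤ B) (ξ : ι → ℂ) :
    c / B ^ (Fintype.card ι - 1) * ∑ i, ‖ξ i‖ ^ 2 ≤ (star ξ ⬝ᵥ (G *ᵥ ξ)).re ∧
      (star ξ ⬝ᵥ (G *ᵥ ξ)).re ≤ B * ∑ i, ‖ξ i‖ ^ 2 := by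
  obtain ⟨h1, h2⟩ := gram_pinch hG hc hd hB
  constructor
  · have h := h1.re_dotProduct_nonneg ξ
    rw [Matrix.sub_mulVec, dotProduct_sub] at h
    have h' : 0 ≤ (star ξ ⬝ᵥ (G *ᵥ ξ)).re -
        (star ξ ⬝ᵥ ((((c / B ^ (Fintype.card ι - 1) : ℝ) : ℂ) • (1 : Matrix ι ι ℂ)) *ᵥ ξ)).re := by
      simpa using h
    rw [re_dot_one] at h'
    linarith
  · have h := h2.re_dotProduct_nonneg ξ
    rw [Matrix.sub_mulVec, dotProduct_sub] at h
    have h' : 0 ≤ (star ξ ⬝ᵥ ((((B : ℝ) : ℂ) • (1 : Matrix ι ι ℂ)) *ᵥ ξ)).re -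
        (star ξ ⬝ᵥ (G *ᵥ ξ)).re := by
      simpa using h
    rw [re_dot_one] at h'
    linarith

end mat

/-! ### final form of (T6') -/

section fin

variable {X : Type*} [PseudoMetricSpace X] [MeasurableSpace X] {μ : Measure X}
  {cal : Calc μ} {C : ℝ≥0} {N : ℕ} {y : X} {R K : ℝ} {T P q a b : X → ℝ}

/-- **(T6')**: `Gm x` = Gram matrix of the `η_j` at `x`. Constants do not depend on `R`. -/
theorem T6D.gram (S : Sp cal C) (h : T6D cal N y R K T P q a b) (hR : 0 < R) {c : ℝ}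
    (hc : 0 < c) (hq : c ^ 2 ≤ q y) {Gm : X → Matrix (Fin N) (Fin N) ℂ}
    (hG : ∀ x ∈ closedBall y R, (Gm x).PosSemidef)
    (hdet : ∀ x ∈ closedBall y R, (Gm x).det.re = q x)
    (htr : ∀ x ∈ closedBall y R, (Gm x).trace.re = T x) :
    ∀ x ∈ closedBall y (th C K N c * R),
      (Gm x - ((c ^ 2 / 4 / (C * K) ^ (N - 1) : ℝ) : ℂ) • (1 : Matrix (Fin N) (Fin N) ℂ)).PosSemidef ∧
      (((C * K : ℝ) : ℂ) • (1 : Matrix (Fin N) (Fin N) ℂ) - Gm x).PosSemidef := by
  intro x hx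
  have hth := th_le C K N c
  have hx2 : x ∈ closedBall y (R / 2) := by
    refine closedBall_subset_closedBall ?_ hx
    calc th C K N c * R ≤ 1 / 24 * R := mul_le_mul_of_nonneg_right hth hR.le
      _ ≤ R / 2 := by linarith
  have hxR : x ∈ closedBall y R := closedBall_subset_closedBall (by linarith) hx2
  have h1 := gram_pinch (hG x hxR) (c := c ^ 2 / 4) (B := C * K) (by positivity)
    (by rw [hdet x hxR]; exact h.pinch S hR hc hq x hx)
    (by rw [htr x hxR]; exact h.T_le S hR x hx2)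
  rw [Fintype.card_fin] at h1
  exact h1

end fin

end

end Crest.Agent.R281.T6_16
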