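import Crest.Agent.R281.St5_405
import Crest.Agent.R281.T6b_16

/-!
# Row 281 (S0424), S-HALFA (helper593), part 1: abstract lemmas for the analytic half of Theorem S

* `smul_secD`   : a positive multiple of a section datum is a section datum;
* `ratio_le`    : `1 ≤ M u x → Gam u x / (u x)² ≤ 4 Gam (lg M u) x`;
* `form_lower`, `form_upper` : from the Gram matrix `Vᴴ G⁻¹ V` to the form `|Vᴴ u|²` against
  `u^* G u`.
-/

set_option autoImplicit false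
set_option linter.unusedSectionVars false

open MeasureTheory Metric Set Filter Topology
open scoped ENNReal NNReal ContDiff Matrix ComplexConjugate ComplexOrder

namespace Crest.Agent.R281.HfA_593

open Crest.Agent.R281.Mx_405 Crest.Agent.R281.St_405

noncomputable section

section secd

variable {X : Type*} [PseudoMetricSpace X] [MeasurableSpace X] {μ : Measure X}
  {cal : Calc μ} {C : ℝ≥0} {kap : ℝ} {u w : X → ℝ}

theorem smul_mem {f : X → ℝ} (hf : f ∈ cal.Sm) (t : ℝ) : (fun x => t * f x) ∈ cal.Sm :=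
  cal.comp_mem f hf univ (fun s => t * s) isOpen_univ (fun _ => mem_univ _)
    (contDiff_const.mul contDiff_id).contDiffOn

theorem deriv_smul (t : ℝ) : deriv (fun s : ℝ => t * s) = fun _ => t := by
  funext s
  simp

theorem Gam_smul {f : X → ℝ} (hf : f ∈ cal.Sm) (t : ℝ) (x : X) :
    cal.Gam (fun x => t * f x) x = t ^ 2 * cal.Gam f x := by
  have h := cal.Gam_comp f hf univ (fun s => t * s) isOpen_univ (fun _ => mem_univ _)
    (contDiff_const.mul contDiff_id).contDiffOn x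
  rw [deriv_smul] at h
  exact h

theorem Lap_smul {f : X → ℝ} (hf : f ∈ cal.Sm) (t : ℝ) (x : X) :
    cal.Lap (fun x => t * f x) x = t * cal.Lap f x := by
  have h := cal.Lap_comp f hf univ (fun s => t * s) isOpen_univ (fun _ => mem_univ _)
    (contDiff_const.mul contDiff_id).contDiffOn x
  rw [deriv_smul] at h
  simpa using h

/-- a positive multiple of a section datum -/
theorem smul_secD (h : SecD cal C kap u w) {t : ℝ} (ht : 0 < t) :
    SecD cal C kap (fun x => t * u x) (fun x => t * w x) where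
  u_mem := smul_mem h.u_mem t
  w_mem := smul_mem h.w_mem t
  u_nonneg x := mul_nonneg ht.le (h.u_nonneg x)
  w_nonneg x := mul_nonneg ht.le (h.w_nonneg x)
  Lap_u x := by rw [Lap_smul h.u_mem, h.Lap_u]; ring
  Gam_u x := by rw [Gam_smul h.u_mem, h.Gam_u]; ring
  Lap_w x := by
    rw [Lap_smul h.w_mem]
    have := mul_le_mul_of_nonneg_left (h.Lap_w x) ht.le
    refine le_trans (le_of_eq ?_) this
    ring
  jet e₁ he₁ := by
    obtain ⟨e, he, hee, hm, hi⟩ := h.jet (e₁ / t) (div_pos he₁ ht)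
    have e0 : (fun x => t * u x / (t * u x + t * w x + t * e)) =
        fun x => u x / (u x + w x + e) := by
      funext x
      rw [← mul_add, ← mul_add, mul_div_mul_left _ _ ht.ne']
    refine ⟨t * e, mul_pos ht he, ?_, ?_, ?_⟩
    · calc t * e ≤ t * (e₁ / t) := mul_le_mul_of_nonneg_left hee ht.le
        _ = e₁ := by field_simp
    · rw [e0]; exact hm
    · rw [e0]; exact hi

/-- the logarithmic energy is comparable with the energy of the truncated logarithm -/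
theorem ratio_le (h : SecD cal C kap u w) {M : ℝ} (hM : 0 < M) {x : X} (hx : 1 ≤ M * u x) :
    cal.Gam u x / u x ^ 2 ≤ 4 * cal.Gam (lg M u) x := by
  have hu : 0 < u x := by
    by_contra hcon
    have : M * u x ≤ 0 := mul_nonpos_of_nonneg_of_nonpos hM.le (not_lt.1 hcon)
    linarith
  have hG := cal.Gam_nonneg u h.u_mem x
  rw [h.Gam_lg hM.le x, div_le_iff₀ (by positivity)]
  have h1 : 1 ≤ 4 * (M / (1 + M * u x)) ^ 2 * u x ^ 2 := by
    have h2 : 1 + M * u x ≤ 2 * (M * u x) := by linarith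
    have h3 : 0 < 1 + M * u x := by linarith
    have h4 : (4 : ℝ) * (M / (1 + M * u x)) ^ 2 * u x ^ 2 =
        (2 * (M * u x) / (1 + M * u x)) ^ 2 := by
      field_simp
      ring
    rw [h4]
    have h5 : 1 ≤ 2 * (M * u x) / (1 + M * u x) := by
      rw [le_div_iff₀ h3]; linarith
    nlinarith
  calc cal.Gam u x = 1 * cal.Gam u x := (one_mul _).symm
    _ ≤ 4 * (M / (1 + M * u x)) ^ 2 * u x ^ 2 * cal.Gam u x :=
        mul_le_mul_of_nonneg_right h1 hG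
    _ = _ := by ring

/-- the quotient `Gam u / u²` does not see multiples -/
theorem ratio_smul {f : X → ℝ} (hf : f ∈ cal.Sm) {t : ℝ} (ht : 0 < t) (x : X) :
    cal.Gam (fun x => t * f x) x / (t * f x) ^ 2 = cal.Gam f x / f x ^ 2 := by
  rw [Gam_smul hf, mul_pow, mul_div_mul_left _ _ (by positivity)]

end secd

/-! ### forms -/

section forms

variable {ι : Type*} [Fintype ι] [DecidableEq ι]

theorem normSq_sub_mul (a b : ℂ) (t : ℝ) :
    ‖a - (t : ℂ) * b‖ ^ 2 = ‖a‖ ^ 2 - 2 * t * (star a * b).re + t ^ 2 * ‖b‖ ^ 2 := by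
  rw [← Complex.normSq_eq_norm_sq, ← Complex.normSq_eq_norm_sq, ← Complex.normSq_eq_norm_sq,
    Complex.normSq_apply, Complex.normSq_apply, Complex.normSq_apply]
  simp only [Complex.sub_re, Complex.mul_re, Complex.ofReal_re, Complex.ofReal_im, Complex.sub_im,
    Complex.mul_im, Complex.star_def, Complex.conj_re, Complex.conj_im]
  ring

theorem sum_normSq (z : ι → ℂ) : (star z ⬝ᵥ z).re = ∑ j, ‖z j‖ ^ 2 := by
  unfold dotProduct
  rw [Complex.re_sum]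
  refine Finset.sum_congr rfl fun j _ => ?_
  rw [← Complex.normSq_eq_norm_sq, Complex.normSq_apply]
  simp only [Pi.star_apply, Complex.star_def, Complex.mul_re, Complex.conj_re, Complex.conj_im]
  ring

theorem sum_sub (a b : ι → ℂ) (t : ℝ) :
    ∑ j, ‖a j - (t : ℂ) * b j‖ ^ 2 =
      ∑ j, ‖a j‖ ^ 2 - 2 * t * (star a ⬝ᵥ b).re + t ^ 2 * ∑ j, ‖b j‖ ^ 2 := by
  simp only [normSq_sub_mul]
  rw [Finset.sum_add_distrib, Finset.sum_sub_distrib, ← Finset.mul_sum, ← Finset.mul_sum]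
  unfold dotProduct
  rw [Complex.re_sum]
  rfl

/-- `(Vᴴ G⁻¹ V - lo)` at `w` -/
theorem form_at {G V : Matrix ι ι ℂ} (t : ℝ) (w : ι → ℂ) :
    (star w ⬝ᵥ ((Vᴴ * G⁻¹ * V - (t : ℂ) • (1 : Matrix ι ι ℂ)) *ᵥ w)).re =
      (star (V *ᵥ w) ⬝ᵥ (G⁻¹ *ᵥ (V *ᵥ w))).re - t * ∑ j, ‖w j‖ ^ 2 := by
  rw [Matrix.sub_mulVec, dotProduct_sub, Complex.sub_re, Matrix.smul_mulVec, Matrix.one_mulVec,
    dotProduct_smul, smul_eq_mul, Complex.re_ofReal_mul, sum_normSq]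
  congr 2
  rw [Matrix.star_mulVec, ← Matrix.mulVec_mulVec, ← Matrix.mulVec_mulVec,
    Matrix.dotProduct_mulVec (star w) (Vᴴ)]

theorem isUnit_of_lower {G V : Matrix ι ι ℂ} {lo : ℝ} (hlo : 0 < lo)
    (h : (Vᴴ * G⁻¹ * V - (lo : ℂ) • (1 : Matrix ι ι ℂ)).PosSemidef) : IsUnit V.det := by
  have h1 : ((lo : ℂ) • (1 : Matrix ι ι ℂ)).PosDef := by
    refine Matrix.PosDef.smul Matrix.PosDef.one ?_
    exact_mod_cast hlo
  have h2 : (Vᴴ * G⁻¹ * V).PosDef := by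
    have := Matrix.PosDef.posSemidef_add h h1
    simpa using this
  have h3 := h2.det_pos.ne'
  rw [Matrix.det_mul, mul_ne_zero_iff] at h3
  exact isUnit_iff_ne_zero.2 h3.2

theorem form_lower {G V : Matrix ι ι ℂ} (hG : G.PosDef) {lo : ℝ} (hlo : 0 < lo)
    (h : (Vᴴ * G⁻¹ * V - (lo : ℂ) • (1 : Matrix ι ι ℂ)).PosSemidef) (u : ι → ℂ) :
    lo * (star u ⬝ᵥ (G *ᵥ u)).re ≤ ∑ j, ‖(Vᴴ *ᵥ u) j‖ ^ 2 := by
  have hV := isUnit_of_lower hlo h
  have hGu : IsUnit G.det := isUnit_iff_ne_zero.2 hG.det_pos.ne'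
  set w : ι → ℂ := V⁻¹ *ᵥ (G *ᵥ u) with hw
  have hVw : V *ᵥ w = G *ᵥ u := by
    rw [hw, Matrix.mulVec_mulVec, Matrix.mul_nonsing_inv _ hV, Matrix.one_mulVec]
  set q : ℝ := (star u ⬝ᵥ (G *ᵥ u)).re with hq
  have h1 : lo * ∑ j, ‖w j‖ ^ 2 ≤ q := by
    have h2 := (Complex.le_def.1 (h.dotProduct_mulVec_nonneg w)).1
    rw [form_at, hVw, Matrix.mulVec_mulVec, Matrix.nonsing_inv_mul _ hGu, Matrix.one_mulVec] at h2
    have h3 : (star (G *ᵥ u) ⬝ᵥ u).re = q := by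
      rw [Matrix.star_mulVec, hG.1.eq, hq, Matrix.dotProduct_mulVec]
    rw [h3] at h2
    simp only [Complex.zero_re] at h2
    linarith
  have h4 : (star (Vᴴ *ᵥ u) ⬝ᵥ w).re = q := by
    rw [Matrix.star_mulVec, Matrix.conjTranspose_conjTranspose, ← Matrix.dotProduct_mulVec, hVw]
  have h5 : 0 ≤ ∑ j, ‖(Vᴴ *ᵥ u) j - (lo : ℂ) * w j‖ ^ 2 :=
    Finset.sum_nonneg fun j _ => by positivity
  rw [sum_sub, h4] at h5
  nlinarith

theorem form_upper {G V : Matrix ι ι ℂ} (hG : G.PosDef) {hi : ℝ} (hhi : 0 < hi)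
    (h : ((hi : ℂ) • (1 : Matrix ι ι ℂ) - Vᴴ * G⁻¹ * V).PosSemidef) (u : ι → ℂ) :
    ∑ j, ‖(Vᴴ *ᵥ u) j‖ ^ 2 ≤ hi * (star u ⬝ᵥ (G *ᵥ u)).re := by
  have hGu : IsUnit G.det := isUnit_iff_ne_zero.2 hG.det_pos.ne'
  obtain ⟨z, hz⟩ : ∃ z : ι → ℂ, z = Vᴴ *ᵥ u := ⟨_, rfl⟩
  rw [← hz]
  set q : ℝ := (star u ⬝ᵥ (G *ᵥ u)).re with hq
  set S : ℝ := ∑ j, ‖z j‖ ^ 2 with hS
  set p : ℝ := (star (V *ᵥ z) ⬝ᵥ (G⁻¹ *ᵥ (V *ᵥ z))).re with hp
  have h1 : p ≤ hi * S := by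
    have h2 := (Complex.le_def.1 (h.dotProduct_mulVec_nonneg z)).1
    have h3 : (star z ⬝ᵥ (((hi : ℂ) • (1 : Matrix ι ι ℂ) - Vᴴ * G⁻¹ * V) *ᵥ z)).re =
        - (star z ⬝ᵥ ((Vᴴ * G⁻¹ * V - (hi : ℂ) • (1 : Matrix ι ι ℂ)) *ᵥ z)).re := by
      rw [← neg_sub, Matrix.neg_mulVec, dotProduct_neg, Complex.neg_re]
    rw [h3, form_at] at h2
    simp only [Complex.zero_re] at h2
    linarith
  -- the form at `u - s G⁻¹ V z`
  have h4 : (star (V *ᵥ z) ⬝ᵥ u).re = S := by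
    rw [Matrix.star_mulVec, ← Matrix.dotProduct_mulVec, ← hz, sum_normSq]
  have h4' : (star u ⬝ᵥ (V *ᵥ z)).re = S := by
    have : star u ⬝ᵥ (V *ᵥ z) = star (star (V *ᵥ z) ⬝ᵥ u) := by
      rw [Matrix.star_dotProduct]
    rw [this, Complex.star_def, Complex.conj_re, h4]
  have h5 : 0 ≤ q - 2 * hi⁻¹ * S + hi⁻¹ ^ 2 * p := by
    have h6 := (Complex.le_def.1 (hG.posSemidef.dotProduct_mulVec_nonneg
      (u - ((hi⁻¹ : ℝ) : ℂ) • (G⁻¹ *ᵥ (V *ᵥ z))))).1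
    have e1 : G *ᵥ (u - ((hi⁻¹ : ℝ) : ℂ) • (G⁻¹ *ᵥ (V *ᵥ z))) =
        G *ᵥ u - ((hi⁻¹ : ℝ) : ℂ) • (V *ᵥ z) := by
      rw [Matrix.mulVec_sub, Matrix.mulVec_smul, Matrix.mulVec_mulVec,
        Matrix.mul_nonsing_inv _ hGu, Matrix.one_mulVec]
    have e2 : star (u - ((hi⁻¹ : ℝ) : ℂ) • (G⁻¹ *ᵥ (V *ᵥ z))) =
        star u - ((hi⁻¹ : ℝ) : ℂ) • star (G⁻¹ *ᵥ (V *ᵥ z)) := by
      rw [star_sub, star_smul, Complex.star_def, Complex.conj_ofReal]
    have e3 : star (G⁻¹ *ᵥ (V *ᵥ z)) ⬝ᵥ (G *ᵥ u) = star (V *ᵥ z) ⬝ᵥ u := by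
      rw [Matrix.star_mulVec, hG.1.inv.eq, ← Matrix.dotProduct_mulVec, Matrix.mulVec_mulVec,
        Matrix.nonsing_inv_mul _ hGu, Matrix.one_mulVec]
    have e4 : star (G⁻¹ *ᵥ (V *ᵥ z)) ⬝ᵥ (V *ᵥ z) = star (V *ᵥ z) ⬝ᵥ (G⁻¹ *ᵥ (V *ᵥ z)) := by
      rw [Matrix.star_mulVec, hG.1.inv.eq, ← Matrix.dotProduct_mulVec]
    rw [e1, e2, sub_dotProduct, dotProduct_sub, dotProduct_sub, smul_dotProduct, smul_dotProduct,
      dotProduct_smul, dotProduct_smul, e3, e4] at h6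
    simp only [smul_eq_mul, Complex.sub_re, Complex.re_ofReal_mul, h4, h4', Complex.zero_re] at h6
    rw [← hq, ← hp] at h6
    linarith
  have hi1 : hi⁻¹ ^ 2 * p ≤ hi⁻¹ * S := by
    calc hi⁻¹ ^ 2 * p ≤ hi⁻¹ ^ 2 * (hi * S) := mul_le_mul_of_nonneg_left h1 (by positivity)
      _ = hi⁻¹ * S := by field_simp
  have h7 : hi⁻¹ * S ≤ q := by linarith
  calc S = hi * (hi⁻¹ * S) := by field_simp
    _ ≤ hi * q := mul_le_mul_of_nonneg_left h7 hhi.le

end forms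

end

end Crest.Agent.R281.HfA_593
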