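import Crest.Agent.R281.SG2_790

/-!
# Row 281 (S0424), S-ASM (helper790): the interface between the two halves of Theorem S

* `GoodPt K s y R lo hi lam f` : on the ball `bX K y R` of `(ofKah K).M` no `s_j` vanishes,
  `lo |v|² ≤ Σ_j |dlog F_j (v)|² ≤ hi |v|²`, and `f` has mean `≤ lam` on all balls about `y`;
* `HalfA` (analytic half)  : `SDat` gives a good point with `lo, hi, lam` independent of `R`;
* `HalfG` (geometric half) : a good point gives `SOut`;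
* `theoremS_of : HalfA → HalfG → TheoremS`.
-/

set_option autoImplicit false
set_option linter.unusedSectionVars false

open Set Filter Topology Complex MeasureTheory
open scoped ContDiff Matrix ComplexConjugate ComplexOrder ENNReal

namespace Crest.Agent.R281.SGP_790

open Crest.Agent.R275.Geo Crest.Agent.R275.Core144 Crest.Agent.R275.EDR890
open Crest.Agent.R273.Defs_333 Crest.Agent.R273.Hess_333 Crest.Agent.R273.HessB_333
open Crest.Agent.R273.HM_333 Crest.Agent.R273.Kah_333 Crest.Agent.R273.Vol_333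
open Crest.Agent.R273.Vm_333 Crest.Agent.R273.FIb0_597
open Crest.Agent.R273.Ric_798 Crest.Agent.R273.RMan_798 Crest.Agent.R273.RMan4_798
open Crest.Agent.R281.Tor_922 Crest.Agent.R281.SIn_14
open Crest.Agent.R281.SAsm_790 Crest.Agent.R281.Fra_922

noncomputable section

variable {N : ℕ} {M : Type} [TopologicalSpace M] {A : Atl N M}

/-- closed Riemannian ball as a subset of `M` -/
def cbX [T2Space M] [ConnectedSpace M] (K : Kah A) (y : (ofKah K).M) (R : ℝ) : Set M :=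
  show Set (ofKah K).M from Metric.closedBall y R

/-- **good point** -/
structure GoodPt [T2Space M] [ConnectedSpace M] [Countable A.ι] [MeasurableSpace M] [BorelSpace M]
    (K : Kah A) (s : Fin (N + 1) → A.ι → M → ℂ)
    (y : (ofKah K).M) (R lo hi lam : ℝ) (f : M → ℝ≥0∞) : Prop where
  nz : ∀ x ∈ bX K y R, NZ s x
  lo : ∀ i, ∀ x ∈ (A.e i).source, x ∈ bX K y R → ∀ v : Cn N,
    lo * qf K i x v ≤ ∑ j, ‖(eta s i x *ᵥ v.ofLp) j‖ ^ 2
  hi : ∀ i, ∀ x ∈ (A.e i).source, x ∈ bX K y R → ∀ v : Cn N,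
    ∑ j, ‖(eta s i x *ᵥ v.ofLp) j‖ ^ 2 ≤ hi * qf K i x v
  avg : ∀ ρ : ℝ, 0 < ρ → ∫⁻ x in cbX K y ρ, f x ∂(vm (volK K)) ≤
    ENNReal.ofReal lam * vm (volK K) (cbX K y ρ)

/-- **analytic half** -/
def HalfA : Prop :=
  ∀ (N : ℕ) (m v C0 c : ℝ) (d : ℕ), 1 ≤ N → 0 < m → 0 < v → 0 < c →
    ∃ lo hi lam : ℝ, 0 < lo ∧ 0 < hi ∧ 0 < lam ∧ ∀ R : ℝ, 0 < R → ∃ L0 : ℝ, 1 ≤ L0 ∧
    ∀ L : ℝ, L0 ≤ L →
    ∀ (M : Type) [TopologicalSpace M] [T2Space M] [CompactSpace M] [ConnectedSpace M]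
      [MeasurableSpace M] [BorelSpace M] (A : Atl N M) [Finite A.ι], Part A →
    ∀ (K : Kah A) (Lb : LB A) (h : HM Lb) (s : Fin (N + 1) → A.ι → M → ℂ) (om : A.ι → M → ℂ),
      SDat A K Lb h s om m v C0 c d L →
    ∀ f : M → ℝ≥0∞, Measurable f → ∫⁻ x, f x ∂(vm (volK K)) ≤ vm (volK K) univ →
      ∃ y : (ofKah K).M, GoodPt K s y R lo hi lam f

/-- **geometric half** -/
def HalfG : Prop :=
  ∀ (N : ℕ) (lo hi lam m R1 : ℝ) (d : ℕ), 1 ≤ N → 0 < lo → 0 < hi → 0 < lam → 0 < m →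
    ∃ K1 : ℝ, 0 < K1 ∧ ∀ r ε : ℝ, R1 ≤ r → 0 < r → 0 < ε → ∃ R : ℝ, 0 < R ∧
    ∀ (v C0 c L : ℝ), 1 ≤ L →
    ∀ (M : Type) [TopologicalSpace M] [T2Space M] [CompactSpace M] [ConnectedSpace M]
      [MeasurableSpace M] [BorelSpace M] (A : Atl N M) [Finite A.ι], Part A →
    ∀ (K : Kah A) (Lb : LB A) (h : HM Lb) (s : Fin (N + 1) → A.ι → M → ℂ) (om : A.ι → M → ℂ),
      SDat A K Lb h s om m v C0 c d L →
    ∀ f : M → ℝ≥0∞, Measurable f → ∀ y : (ofKah K).M, GoodPt K s y R lo hi lam f →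
      SOut A K (quo s) d K1 R1 r ε f

/-- **Theorem S from its two halves** -/
theorem theoremS_of (hA : HalfA) (hG : HalfG) : TheoremS := by
  intro N m v C0 c R1 d hN hm hv hc
  obtain ⟨lo, hi, lam, hlo, hhi, hlam, hA'⟩ := hA N m v C0 c d hN hm hv hc
  obtain ⟨K1, hK1, hG'⟩ := hG N lo hi lam m R1 d hN hlo hhi hlam hm
  refine ⟨K1, hK1, fun r ε hr1 hr hε => ?_⟩
  obtain ⟨R, hR, hG''⟩ := hG' r ε hr1 hr hε
  obtain ⟨L0, hL0, hA''⟩ := hA' R hR
  refine ⟨L0, hL0, fun L hL M _ _ _ _ _ _ A _ P K Lb h s om hS f hf hf1 => ?_⟩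
  obtain ⟨y, hy⟩ := hA'' L hL M A P K Lb h s om hS f hf hf1
  exact hG'' v C0 c L (hL0.trans hL) M A P K Lb h s om hS f hf y hy

end

end Crest.Agent.R281.SGP_790
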