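import Crest.Agent.R281.Insp0_615
import Crest.Agent.R281.Poin1_274
import Crest.Agent.R249.SobF_982

/-!
# R281, S-SPI (helper615), part 1: doubling, `L¹` Poincaré inequality, Lipschitz estimate

* `dbl_rad`, `pi_rad`, `lip_rad` : for every radial contraction structure `Rad m 0 X μ`
* `dbl_calcX`, `poi_calcX`, `lip_calcX` : for `calcX P K`
-/

set_option autoImplicit false
set_option linter.unusedSectionVars false

open Set Filter Topology MeasureTheory Metric
open scoped ENNReal NNReal

namespace Crest.Agent.R281.Ins_615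

noncomputable section

section gen

open Crest.Agent.R247.Mcp688 Crest.Agent.R281.Poin_274 Crest.Agent.R281.Mx_405
  Crest.Agent.R281.St_405
open Crest.Agent.R249.SobA_982 Crest.Agent.R249.SobE_982 Crest.Agent.R249.SobF_982

variable {m : ℕ} {X : Type*} [MetricSpace X] [MeasurableSpace X] [BorelSpace X]
  {μ : Measure X}

theorem dbl_rad (C : Rad m 0 X μ) [IsFiniteMeasure μ] [μ.IsOpenPosMeasure] :
    Dbl μ ((2 : ℝ≥0) ^ m) where
  dbl x r hr := by
    have h := closedBall_doubling C le_rfl x hr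
    rw [dC_zero] at h
    refine h.trans (le_of_eq ?_)
    congr 1
    rw [ENNReal.ofReal_pow (by norm_num)]
    norm_num
  pos x r hr := measure_closedBall_pos μ x hr
  fin x r := measure_lt_top μ _

/-- the frame gradient is an upper gradient along the minimisers -/
theorem ug_of_lg (C : Rad m 0 X μ) {f G : X → ℝ} (h : LG f G) :
    UG C f (fun x => ENNReal.ofReal (G x)) := by
  intro u v huv
  rw [abs_sub_comm]
  exact ray' C (LGOn.of_lg (U := univ) h) huv (fun _ _ => mem_univ _)

/-- **`L¹` Poincaré inequality** -/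
theorem pi_rad (C : Rad m 0 X μ) [IsFiniteMeasure μ] [μ.IsOpenPosMeasure] {f G : X → ℝ}
    (h : LG f G) (hG : ∀ x r, IntegrableOn G (closedBall x r) μ)
    (hf : ∀ x r, IntegrableOn f (closedBall x r) μ) :
    PI μ f G (4 * 4 ^ m) := by
  intro x r hr
  have hB : 0 < μ.real (closedBall x r) :=
    ENNReal.toReal_pos (measure_closedBall_pos μ x hr).ne' (measure_ne_top _ _)
  have hB2 : 0 < μ.real (closedBall x (2 * r)) :=
    ENNReal.toReal_pos (measure_closedBall_pos μ x (by linarith)).ne' (measure_ne_top _ _)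
  have h1 := poinc_one le_rfl (ug_of_lg C h) h.contG.measurable.ennreal_ofReal x
    (measure_ne_top _ _) (measure_closedBall_pos μ x hr).ne' (hf x r)
  rw [dC_zero] at h1
  set a := ⨍ v in closedBall x r, f v ∂μ
  have i1 : IntegrableOn (fun u => |f u - a|) (closedBall x r) μ :=
    ((hf x r).sub (integrable_const _)).abs
  rw [← ofReal_integral_eq_lintegral_ofReal i1 (Eventually.of_forall fun u => abs_nonneg _),
    ← ofReal_integral_eq_lintegral_ofReal (hG x (2 * r)) (Eventually.of_forall fun u => h.nonneg _),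
    ← ENNReal.ofReal_mul (by positivity)] at h1
  have hI : 0 ≤ ∫ y in closedBall x (2 * r), G y ∂μ := integral_nonneg fun y => h.nonneg y
  have h2 := (ENNReal.ofReal_le_ofReal_iff (by positivity)).1 h1
  have h3 : μ.real (closedBall x (2 * r)) ≤ 2 ^ m * μ.real (closedBall x r) := by
    have h := closedBall_doubling C le_rfl x hr
    rw [dC_zero] at h
    have h4 := ENNReal.toReal_mono (ENNReal.mul_ne_top ENNReal.ofReal_ne_top
      (measure_ne_top _ _)) h
    rw [ENNReal.toReal_mul, ENNReal.toReal_ofReal (by positivity)] at h4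
    exact h4
  rw [setAverage_eq, setAverage_eq, smul_eq_mul, smul_eq_mul]
  set I := ∫ y in closedBall x (2 * r), G y ∂μ
  set V := μ.real (closedBall x r)
  set V2 := μ.real (closedBall x (2 * r))
  have h5 : V⁻¹ ≤ 2 ^ m * V2⁻¹ := by
    rw [← div_eq_mul_inv, inv_eq_one_div, div_le_div_iff₀ hB hB2]
    linarith
  have e4 : (4 : ℝ) ^ m = 2 ^ m * 2 ^ m := by rw [← mul_pow]; norm_num
  have h6 : V⁻¹ * (4 * r * 2 ^ m * I) ≤ (2 ^ m * V2⁻¹) * (4 * r * 2 ^ m * I) := by gcongr
  calc _ ≤ V⁻¹ * (4 * r * 2 ^ m * I) := by gcongr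
    _ ≤ _ := h6
    _ = 4 * 4 ^ m * r * (V2⁻¹ * I) := by rw [e4]; ring

/-- **Lipschitz estimate**, local form. -/
theorem lip_rad (C : Rad m 0 X μ) [μ.IsOpenPosMeasure] {f G : X → ℝ} {U : Set X}
    (h : LGOn U f G) {y : X} {r L : ℝ} (hr : 0 < r) (_hL : 0 ≤ L) (hU : ball y r ⊆ U)
    (hb : ∀ x ∈ ball y r, G x ≤ L) {p q : X} (hp : p ∈ closedBall y (r / 3))
    (hq : q ∈ closedBall y (r / 3)) : |f p - f q| ≤ L * dist p q := by
  have hd : Dense {z | (p, z) ∈ C.U} := by
    refine (MeasureTheory.Measure.dense_of_ae (μ := μ) (p := fun z => (p, z) ∈ C.U) (C.ae_U p))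
  have hqU : q ∈ U := hU (by rw [mem_ball]; rw [mem_closedBall] at hq; linarith)
  have hc : ContinuousAt f q := h.continuousAt hqU
  -- the estimate at good points near `q`
  have key : ∀ z, (p, z) ∈ C.U → dist z q < r / 9 → |f p - f z| ≤ L * dist p z := by
    intro z hz hzq
    rw [mem_closedBall] at hp hq
    have hm : ∀ t ∈ Icc (0:ℝ) 1, C.T p t z ∈ ball y r := by
      intro t ht
      have h1 := C.dist_left hz ht
      have h2 := C.dist_right hz ht
      have h4 := dist_triangle (C.T p t z) p y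
      have h5 := dist_triangle (C.T p t z) z y
      have h7 := dist_triangle z q y
      have h8 := dist_triangle_right p z y
      rw [dist_comm _ p] at h4
      rw [mem_ball]
      have h6 : 0 ≤ dist p z := dist_nonneg
      rcases le_total t (1 / 2) with h9 | h9
      · have : t * dist p z ≤ 1 / 2 * dist p z := mul_le_mul_of_nonneg_right h9 h6
        linarith
      · have : (1 - t) * dist p z ≤ 1 / 2 * dist p z :=
          mul_le_mul_of_nonneg_right (by linarith) h6
        linarith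
    have h1 := ray C h hz (fun t ht => hU (hm t ht))
    rw [abs_sub_comm]
    refine h1.trans ?_
    have h2 : ∫ t in (0:ℝ)..1, G (C.T p t z) ≤ ∫ _ in (0:ℝ)..1, L := by
      have hcont := contOn_ray C h hz (fun t ht => hU (hm t ht))
      apply intervalIntegral.integral_mono_on zero_le_one
      · exact (hcont.mono (by rw [uIcc_of_le zero_le_one])).intervalIntegrable
      · simp
      · intro t ht
        exact hb _ (hm t ht)
    rw [intervalIntegral.integral_const, sub_zero, one_smul] at h2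
    rw [mul_comm]
    exact mul_le_mul_of_nonneg_right h2 dist_nonneg
  -- limit
  have hcl : q ∈ closure ({z | (p, z) ∈ C.U} ∩ ball q (r / 9)) := by
    rw [_root_.mem_closure_iff]
    intro o ho hqo
    obtain ⟨z, hz1, hz2⟩ := hd.inter_open_nonempty (o ∩ ball q (r / 9))
      (ho.inter isOpen_ball) ⟨q, hqo, mem_ball_self (by positivity)⟩
    exact ⟨z, hz1.1, hz2, hz1.2⟩
  obtain ⟨u, hu, hlim⟩ := mem_closure_iff_seq_limit.1 hcl
  have l1 : Tendsto (fun k => |f p - f (u k)|) atTop (𝓝 |f p - f q|) :=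
    (tendsto_const_nhds.sub (hc.tendsto.comp hlim)).abs
  have l2 : Tendsto (fun k => L * dist p (u k)) atTop (𝓝 (L * dist p q)) :=
    (tendsto_const_nhds.dist hlim).const_mul L
  exact le_of_tendsto_of_tendsto' l1 l2 fun k => key _ (hu k).1 (hu k).2

theorem dbl_smul {μ : Measure X} {C : ℝ≥0} (h : Dbl μ C) {c : ℝ≥0∞} (h0 : c ≠ 0) (h1 : c ≠ ⊤) :
    Dbl (c • μ) C where
  dbl x r hr := by
    rw [Measure.smul_apply, Measure.smul_apply, smul_eq_mul, smul_eq_mul]
    calc c * μ (closedBall x (2 * r)) ≤ c * (C * μ (closedBall x r)) := by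
          gcongr; exact h.dbl x r hr
      _ = _ := by ring
  pos x r hr := by
    rw [Measure.smul_apply, smul_eq_mul]
    exact ENNReal.mul_pos h0 (h.pos x r hr).ne'
  fin x r := by
    rw [Measure.smul_apply, smul_eq_mul]
    exact ENNReal.mul_lt_top h1.lt_top (h.fin x r)

end gen

/-! ### the calculus `calcX` -/

section calcX

open Manifold
open scoped ContDiff Manifold
open Crest.Agent.R275.Geo Crest.Agent.R275.EDR890
open Crest.Agent.R273.RMan_798 Crest.Agent.R273.RMan4_798
open Crest.Agent.R275.Core144 Crest.Agent.R273.Defs_333 Crest.Agent.R273.Kah_333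
open Crest.Agent.R273.Vol_333 Crest.Agent.R273.Vm_333 Crest.Agent.R273.FIb0_597
open Crest.Agent.R273.SchI_152 (Dg Dg_nonneg continuous_Dg)
open Crest.Agent.R281.St_405 Crest.Agent.R281.Mx_405
open Crest.Agent.R249.SobA_982 Crest.Agent.R249.SobE_982

variable {n : ℕ} {M : Type} [TopologicalSpace M] {A : Atl n M} [T2Space M] [ConnectedSpace M]
  [CompactSpace M]

theorem openPos_muHE (K : Kah A) :
    (Measure.euclideanHausdorffMeasure (2 * n) : Measure (ofKah K).M).IsOpenPosMeasure :=
  Crest.Agent.R247.Ms322.isOpenPosMeasure (2 * n) (ofKah K).M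

theorem dbl_muX (K : Kah A) (hK : (volK K).Semipos) : Dbl (muX K) ((2 : ℝ≥0) ^ (2 * n)) := by
  obtain ⟨C⟩ := rad K hK
  have := finite_muHE K
  have := openPos_muHE K
  exact dbl_smul (dbl_rad C) (ENNReal.inv_ne_zero.2 (muHE_univ_ne_top K))
    (ENNReal.inv_ne_top.2 (muHE_univ_pos K).ne')

theorem norm_Gr_sqrt (K : Kah A) {f : M → ℝ} (hf : A.Sm f) (x : M) :
    ‖Crest.Agent.R247.Ms322.Gr (n := 2 * n) (fun p : (ofKah K).M => f p) x‖ =
      2 * √(Dg K f x) := by
  have h := norm_Gr_eq K hf x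
  have h0 := Dg_nonneg K hf x
  have h1 : (2 * √(Dg K f x)) ^ 2 = 4 * Dg K f x := by
    rw [mul_pow, Real.sq_sqrt h0]; norm_num
  rw [← h1] at h
  exact (pow_left_inj₀ (norm_nonneg _) (by positivity) two_ne_zero).1 h

theorem lg_calcX (K : Kah A) {f : M → ℝ} (hf : A.Sm f) :
    LG (X := (ofKah K).M) f (fun x => 2 * √(Dg K (M := M) f x)) := by
  have h1 : ContMDiff (𝓡 (2 * n)) 𝓘(ℝ, ℝ) 1 (fun p : (ofKah K).M => f p) :=
    (contMDiff_of_sm K hf).of_le (by norm_num)
  have h2 := lg_of_contMDiff (n := 2 * n) (M := (ofKah K).M) h1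
  exact h2.congr (fun _ => rfl) (fun y => (norm_Gr_sqrt K hf y).symm)

theorem poi_muX (K : Kah A) (hK : (volK K).Semipos) {f : (ofKah K).M → ℝ} (hf : A.Sm (M := M) f) :
    PI (muX K) f (fun x => √(Dg K (M := M) f x)) (8 * 4 ^ (2 * n)) := by
  obtain ⟨C⟩ := rad K hK
  have := finite_muHE K
  have := openPos_muHE K
  have hlg := lg_calcX K hf
  have hint : ∀ g : (ofKah K).M → ℝ, Continuous g → ∀ x r, IntegrableOn g (closedBall x r)
      (Measure.euclideanHausdorffMeasure (2 * n)) := fun g hg x r =>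
    (hg.continuousOn.integrableOn_compact (isCompact_closedBall x r))
  have h1 := pi_rad C hlg (hint _ hlg.contG) (hint _ hlg.continuous)
  intro x r hr
  have h2 := h1 x r hr
  rw [average_muX, average_muX, average_muX]
  refine h2.trans (le_of_eq ?_)
  rw [setAverage_eq, setAverage_eq, integral_const_mul]
  simp only [smul_eq_mul]
  ring

theorem lip_muX (K : Kah A) (hK : (volK K).Semipos) {f : (ofKah K).M → ℝ}
    (hf : A.Sm (M := M) f) (y : (ofKah K).M) {r G : ℝ} (hr : 0 < r) (hG : 0 ≤ G)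
    (hb : ∀ x ∈ ball y r, Dg K (M := M) f x ≤ G ^ 2) {p q : (ofKah K).M}
    (hp : p ∈ closedBall y (r / 3)) (hq : q ∈ closedBall y (r / 3)) :
    |f p - f q| ≤ 2 * G * dist p q := by
  obtain ⟨C⟩ := rad K hK
  have := openPos_muHE K
  refine lip_rad C (LGOn.of_lg (U := univ) (lg_calcX K hf)) hr (by positivity) (subset_univ _)
    (fun x hx => ?_) hp hq
  have h1 : √(Dg K (M := M) f x) ≤ G := Real.sqrt_le_iff.2 ⟨hG, hb x hx⟩
  linarith

variable [Fintype A.ι]

theorem poi_calcX (P : Part A) (K : Kah A) (hK : (volK K).Semipos) :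
    ∀ f ∈ (calcX P K).Sm, PI (muX K) f (fun x => √((calcX P K).Gam f x)) (8 * 4 ^ (2 * n)) :=
  fun _ hf => poi_muX K hK hf

theorem lip_calcX (P : Part A) (K : Kah A) (hK : (volK K).Semipos) :
    ∀ f ∈ (calcX P K).Sm, ∀ (y : (ofKah K).M) (r G : ℝ), 0 < r → 0 ≤ G →
    (∀ x ∈ closedBall y r, (calcX P K).Gam f x ≤ G ^ 2) →
    ∀ p ∈ closedBall y (r / 3), ∀ q ∈ closedBall y (r / 3), |f p - f q| ≤ 2 * G * dist p q :=
  fun _ hf y _ _ hr hG hb _ hp _ hq =>
    lip_muX K hK hf y hr hG (fun x hx => hb x (ball_subset_closedBall hx)) hp hq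

end calcX

end

end Crest.Agent.R281.Ins_615
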