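import Crest.Agent.R281.Spi2_405
import Crest.Agent.R281.Insp1_615

/-!
# R281, S-SPI (helper405), part 3: the instance `Sp (calcX P K) (Csp n)`

* `dg_calcX`, `cac_calcX`; **`sp_calcX`** : `(volK K).Semipos → Sp (calcX P K) (Csp n)`.
-/

set_option autoImplicit false
set_option linter.unusedSectionVars false

open Set Filter Topology MeasureTheory Metric Manifold
open scoped ENNReal NNReal Manifold
open Crest.Agent.R275.Geo Crest.Agent.R275.EDR890
open Crest.Agent.R273.RMan_798 Crest.Agent.R273.RMan4_798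
open Crest.Agent.R275.Core144 Crest.Agent.R273.Defs_333 Crest.Agent.R273.Kah_333
open Crest.Agent.R273.Vol_333 Crest.Agent.R273.Vm_333 Crest.Agent.R273.FIb0_597
open Crest.Agent.R273.SchI_152 (Dg Dg_nonneg continuous_Dg)
open Crest.Agent.R281.St_405 Crest.Agent.R281.Mx_405 Crest.Agent.R281.Ins_615
open Crest.Agent.R249.SobC_982 (Cth Cth_pos)
open Crest.Agent.R281.Sm4_593 (CDG CDG_pos)

noncomputable section
namespace Crest.Agent.R281.Spi_405

variable {n : ℕ} {M : Type} [TopologicalSpace M] {A : Atl n M} [T2Space M] [ConnectedSpace M]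
  [CompactSpace M]

/-- **sub-mean value inequality** for the calculus -/
theorem dg_calcX (hn : 1 ≤ n) (K : Kah A) (hK : (volK K).Semipos) {f : (ofKah K).M → ℝ}
    (hf : A.Sm (M := M) f) (hf0 : ∀ x, 0 ≤ f x) (y : (ofKah K).M) {r a b : ℝ} (hr : 0 < r)
    (ha : 0 ≤ a) (hb : 0 ≤ b) (hbr : b * r ^ 2 ≤ 1)
    (hL : ∀ x ∈ closedBall y r, - a - b * f x ≤ Lap K (M := M) f x) {x : (ofKah K).M}
    (hx : x ∈ closedBall y (r / 2)) :
    f x ≤ CDG (2 * n) * 8 ^ (2 * n) * ((⨍ z in closedBall y r, f z ∂(muX K)) + a * r ^ 2) := by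
  obtain ⟨C⟩ := rad K hK
  have hC2 : ∀ z : (ofKah K).M, ContMDiffAt (𝓡 (2 * n)) 𝓘(ℝ, ℝ) 2 f z := fun z =>
    (contMDiff_of_sm K hf z).of_le Crest.Agent.R247.Bo84.two_le_infty
  have h := dg_gen (n := 2 * n) C (by omega) hC2 hf0 (y := y) (A := 4 * a) (B := 4 * b) hr
    (by positivity) (by positivity) (by nlinarith) (fun z hz => by
      have h1 := hL z hz
      have h2 := mLap_eq K hf z
      have h3 : Crest.Agent.R247.Bo84.mLap (2 * n) f z = 4 * Lap K (M := M) f z := h2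
      rw [h3]
      linarith) hx
  refine h.trans ?_
  rw [average_muX]
  set m := ⨍ z in closedBall y r, f z ∂(Measure.euclideanHausdorffMeasure (2 * n)) with hm
  have hm0 : 0 ≤ m := by
    rw [hm, setAverage_eq, smul_eq_mul]
    exact mul_nonneg (inv_nonneg.2 measureReal_nonneg) (integral_nonneg hf0)
  have hC := (CDG_pos (2 * n)).le
  have h8 : (1 : ℝ) ≤ 8 ^ (2 * n) := one_le_pow₀ (by norm_num)
  have har : 0 ≤ a * r ^ 2 := by positivity
  rw [mul_assoc (CDG (2 * n))]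
  refine mul_le_mul_of_nonneg_left ?_ hC
  have h9 : 4 * a * (r / 4) ^ 2 = a * r ^ 2 / 4 := by ring
  rw [h9]
  nlinarith [mul_le_mul_of_nonneg_right h8 har]

/-- constant of the Caccioppoli type inequality -/
def Ccac (n : ℕ) : ℝ := 2 ^ (2 * n) * (2 + 16 * Cth ^ 2)

theorem Ccac_nonneg (n : ℕ) : 0 ≤ Ccac n := by unfold Ccac; positivity

/-- `t + t²/(2a)` -/
def qa (a t : ℝ) : ℝ := t + t ^ 2 / (2 * a)

theorem contDiff_qa (a : ℝ) : ContDiff ℝ (⊤ : ℕ∞) (qa a) := by
  unfold qa; fun_prop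

theorem deriv_qa {a : ℝ} (ha : a ≠ 0) : deriv (qa a) = fun t => 1 + t / a := by
  funext t
  have h1 : HasDerivAt (qa a) (1 + (2 * t) / (2 * a)) t := by
    have h2 : HasDerivAt (fun t : ℝ => t ^ 2) (2 * t) t := by simpa using hasDerivAt_pow 2 t
    exact (hasDerivAt_id t).add (h2.div_const (2 * a))
  rw [h1.deriv]
  field_simp

theorem deriv2_qa {a : ℝ} (ha : a ≠ 0) (t : ℝ) : deriv (deriv (qa a)) t = 1 / a := by
  rw [deriv_qa ha]
  have h1 : HasDerivAt (fun t : ℝ => 1 + t / a) (1 / a) t :=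
    ((hasDerivAt_id t).div_const a).const_add 1
  exact h1.deriv

/-- the Caccioppoli type inequality, `0 < a` -/
theorem cac_pos (hn : 1 ≤ n) (K : Kah A) (hK : (volK K).Semipos) {f : (ofKah K).M → ℝ}
    (hf : A.Sm (M := M) f) (hf0 : ∀ x, 0 ≤ f x) {h : (ofKah K).M → ℝ} (hh : Continuous h)
    (h0 : ∀ x, 0 ≤ h x) (y : (ofKah K).M) {r a b : ℝ} (hr : 0 < r)
    (ha : 0 < a) (hb : 0 ≤ b) (hfa : ∀ x ∈ closedBall y r, f x ≤ a)
    (hL : ∀ x ∈ closedBall y r, h x ≤ Lap K (M := M) f x + b) :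
    ⨍ x in closedBall y (r / 2), h x ∂(muX K) ≤ Ccac n * (a / r ^ 2 + b) := by
  obtain ⟨C⟩ := rad K hK
  have := finite_muHE K
  have := openPos_muHE K
  set μ : Measure (ofKah K).M := Measure.euclideanHausdorffMeasure (2 * n) with hμ
  set F : (ofKah K).M → ℝ := fun x => qa a (f x) with hF
  have hU : ∀ x : M, f x ∈ (univ : Set ℝ) := fun _ => mem_univ _
  have hcd : ContDiffOn ℝ (⊤ : ℕ∞) (qa a) univ := (contDiff_qa a).contDiffOn
  have hFS : A.Sm (M := M) F := Crest.Agent.R281.Glob2_484.sm_compOn (A := A) hcd hf hU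
  have hC2 : ∀ z : (ofKah K).M, ContMDiffAt (𝓡 (2 * n)) 𝓘(ℝ, ℝ) 2 F z := fun z =>
    (contMDiff_of_sm K hFS z).of_le Crest.Agent.R247.Bo84.two_le_infty
  have hLF : ∀ x : M, Lap K (M := M) F x = (1 + f x / a) * Lap K (M := M) f x +
      1 / a * Dg K (M := M) f x := fun x => by
    have h1 := Crest.Agent.R281.Glob2_484.Lap_compOn K isOpen_univ hcd hf hU x
    rw [deriv_qa ha.ne'] at h1
    have h2 : deriv (fun t : ℝ => 1 + t / a) (f x) = 1 / a := by
      rw [← deriv_qa ha.ne']; exact deriv2_qa ha.ne' _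
    rw [h2] at h1
    exact h1
  have hGF : ∀ x : M, Dg K (M := M) F x = (1 + f x / a) ^ 2 * Dg K (M := M) f x := fun x => by
    have h1 := Crest.Agent.R281.Glob2_484.Dg_compOn K isOpen_univ hcd hf hU x
    rw [deriv_qa ha.ne'] at h1
    exact h1
  have hDc : Continuous (fun x : (ofKah K).M => Dg K (M := M) f x) := continuous_Dg K hf
  have hb34 : closedBall y (3 * r / 4) ⊆ closedBall y r :=
    closedBall_subset_closedBall (by linarith)
  have hmain := cac_gen (n := 2 * n) (M := (ofKah K).M) (F := F) (h := fun x => 4 * h x)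
    (q := fun x => 4 / a * Dg K (M := M) f x) hC2 (continuous_const.mul hh)
    (continuous_const.mul hDc) (x0 := y) (a := r / 2) (b := 3 * r / 4) (B := 8 * b)
    (E := 4 * a) (by linarith) (by positivity) (by positivity)
    (fun x _ => by have := h0 x; positivity)
    (fun x _ => by have := Dg_nonneg K hf x; positivity)
    (fun x hx => by
      have h1 := hL x (hb34 hx)
      have h2 := hfa x (hb34 hx)
      have h3 := h0 x
      have h4 : Crest.Agent.R247.Bo84.mLap (2 * n) F x = 4 * Lap K (M := M) F x :=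
        mLap_eq K hFS x
      have h5 : 0 ≤ f x / a := div_nonneg (hf0 x) ha.le
      have h6 : f x / a ≤ 1 := (div_le_one ha).2 h2
      have h7 : h x - 2 * b ≤ (1 + f x / a) * Lap K (M := M) f x := by
        have h8 : (1 + f x / a) * (h x - b) ≤ (1 + f x / a) * Lap K (M := M) f x :=
          mul_le_mul_of_nonneg_left (by linarith) (by linarith)
        have h9 : 0 ≤ f x / a * h x := mul_nonneg h5 h3
        have h10 : f x / a * b ≤ b := mul_le_of_le_one_left hb h6
        nlinarith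
      rw [h4, hLF x]
      have h11 : 4 / a * Dg K (M := M) f x = 4 * (1 / a * Dg K (M := M) f x) := by ring
      rw [h11]
      linarith)
    (fun x hx => by
      have h2 := hfa x (hb34 hx)
      have h5 : 0 ≤ f x / a := div_nonneg (hf0 x) ha.le
      have h6 : f x / a ≤ 1 := (div_le_one ha).2 h2
      have h7 : ‖Crest.Agent.R247.Ms322.Gr (n := 2 * n) F x‖ ^ 2 = 4 * Dg K (M := M) F x :=
        norm_Gr_eq K hFS x
      have h8 := Dg_nonneg K hf x
      have h9 : (1 + f x / a) ^ 2 ≤ 4 := by nlinarith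
      rw [h7, hGF x]
      have h10 : 4 * a * (4 / a * Dg K (M := M) f x) = 16 * Dg K (M := M) f x := by
        field_simp; ring
      rw [h10]
      nlinarith [mul_le_mul_of_nonneg_right h9 h8])
  rw [average_muX, setAverage_eq, smul_eq_mul]
  have hV : 0 < μ.real (closedBall y (r / 2)) :=
    ENNReal.toReal_pos (measure_closedBall_pos μ y (by positivity)).ne' (measure_ne_top _ _)
  have hD : μ.real (closedBall y (3 * r / 4)) ≤ 2 ^ (2 * n) * μ.real (closedBall y (r / 2)) := by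
    have h1 := Crest.Agent.R281.Poin_274.closedBall_doubling C le_rfl y (r := r / 2) (by positivity)
    rw [Crest.Agent.R281.Poin_274.dC_zero, mul_div_cancel₀ r two_ne_zero] at h1
    have h4 := ENNReal.toReal_mono (ENNReal.mul_ne_top ENNReal.ofReal_ne_top
      (measure_ne_top _ _)) h1
    rw [ENNReal.toReal_mul, ENNReal.toReal_ofReal (by positivity)] at h4
    exact (measureReal_mono hb34).trans h4
  have e1 : 3 * r / 4 - r / 2 = r / 4 := by ring
  rw [e1, integral_const_mul] at hmain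
  rw [inv_mul_le_iff₀ hV]
  have e2 : (8 * b + 4 * a * (Cth / (r / 4)) ^ 2) = 4 * (2 * b + 16 * Cth ^ 2 * (a / r ^ 2)) := by
    field_simp
    ring
  rw [e2] at hmain
  have har : 0 ≤ a / r ^ 2 := by positivity
  have h12 : ∫ x in closedBall y (r / 2), h x ∂μ ≤
      (2 * b + 16 * Cth ^ 2 * (a / r ^ 2)) * μ.real (closedBall y (3 * r / 4)) := by linarith
  have hCt := Cth_pos
  calc ∫ x in closedBall y (r / 2), h x ∂μ ≤
        (2 * b + 16 * Cth ^ 2 * (a / r ^ 2)) * μ.real (closedBall y (3 * r / 4)) := h12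
    _ ≤ ((2 + 16 * Cth ^ 2) * (a / r ^ 2 + b)) *
        (2 ^ (2 * n) * μ.real (closedBall y (r / 2))) := by
          gcongr
          nlinarith [mul_nonneg (sq_nonneg Cth) hb]
    _ = _ := by unfold Ccac; ring

/-- **the Caccioppoli type inequality** -/
theorem cac_calcX (hn : 1 ≤ n) (K : Kah A) (hK : (volK K).Semipos) {f : (ofKah K).M → ℝ}
    (hf : A.Sm (M := M) f) (hf0 : ∀ x, 0 ≤ f x) {h : (ofKah K).M → ℝ} (hh : Continuous h)
    (h0 : ∀ x, 0 ≤ h x) (y : (ofKah K).M) {r a b : ℝ} (hr : 0 < r)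
    (ha : 0 ≤ a) (hb : 0 ≤ b) (hfa : ∀ x ∈ closedBall y r, f x ≤ a)
    (hL : ∀ x ∈ closedBall y r, h x ≤ Lap K (M := M) f x + b) :
    ⨍ x in closedBall y (r / 2), h x ∂(muX K) ≤ Ccac n * (a / r ^ 2 + b) := by
  have h1 : ∀ e : ℝ, 0 < e → ⨍ x in closedBall y (r / 2), h x ∂(muX K) ≤
      Ccac n * ((a + e) / r ^ 2 + b) := fun e he =>
    cac_pos hn K hK hf hf0 hh h0 y hr (by linarith) hb (fun x hx => by linarith [hfa x hx]) hL
  have h2 : Tendsto (fun e : ℝ => Ccac n * ((a + e) / r ^ 2 + b)) (𝓝[>] 0)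
      (𝓝 (Ccac n * ((a + 0) / r ^ 2 + b))) := by
    have h3 : Continuous (fun e : ℝ => Ccac n * ((a + e) / r ^ 2 + b)) := by fun_prop
    exact (h3.tendsto 0).mono_left nhdsWithin_le_nhds
  rw [add_zero] at h2
  exact ge_of_tendsto h2 (by filter_upwards [self_mem_nhdsWithin] with e he using h1 e he)

/-- the constant of the space hypotheses -/
def Csp (n : ℕ) : ℝ≥0 := 2 + 2 ^ (2 * n) + 8 * 4 ^ (2 * n) +
  (CDG (2 * n) * 8 ^ (2 * n)).toNNReal + (Ccac n).toNNReal

theorem Csp_two (n : ℕ) : (2 : ℝ) ≤ Csp n := by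
  have : (2 : ℝ≥0) ≤ Csp n := by unfold Csp; rw [add_assoc, add_assoc, add_assoc]; exact le_self_add
  exact_mod_cast this

theorem Csp_dbl (n : ℕ) : (2 : ℝ≥0) ^ (2 * n) ≤ Csp n := by
  unfold Csp
  calc (2 : ℝ≥0) ^ (2 * n) ≤ 2 + 2 ^ (2 * n) := le_add_self
    _ ≤ _ := by rw [add_assoc (2 + 2 ^ (2 * n) : ℝ≥0), add_assoc]; exact le_self_add

theorem Csp_poi (n : ℕ) : (8 * 4 ^ (2 * n) : ℝ) ≤ Csp n := by
  have : (8 * 4 ^ (2 * n) : ℝ≥0) ≤ Csp n := by
    unfold Csp
    calc (8 * 4 ^ (2 * n) : ℝ≥0) ≤ 2 + 2 ^ (2 * n) + 8 * 4 ^ (2 * n) := le_add_self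
      _ ≤ _ := by rw [add_assoc (2 + 2 ^ (2 * n) + 8 * 4 ^ (2 * n) : ℝ≥0)]; exact le_self_add
  exact_mod_cast this

theorem Csp_dg (n : ℕ) : CDG (2 * n) * 8 ^ (2 * n) ≤ Csp n := by
  have h1 : (CDG (2 * n) * 8 ^ (2 * n)).toNNReal ≤ Csp n := by
    unfold Csp
    exact le_trans le_add_self le_self_add
  have h2 : CDG (2 * n) * 8 ^ (2 * n) ≤ ((CDG (2 * n) * 8 ^ (2 * n)).toNNReal : ℝ) :=
    Real.le_coe_toNNReal _
  exact h2.trans (by exact_mod_cast h1)

theorem Csp_cac (n : ℕ) : Ccac n ≤ Csp n := by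
  have h1 : (Ccac n).toNNReal ≤ Csp n := by
    unfold Csp
    exact le_add_self
  exact (Real.le_coe_toNNReal _).trans (by exact_mod_cast h1)

variable [Fintype A.ι]

/-- **the space hypotheses hold for every compact Kaehler manifold with `Ric ≥ 0`**, with a constant
depending on the dimension only. -/
theorem sp_calcX (hn : 1 ≤ n) (P : Part A) (K : Kah A) (hK : (volK K).Semipos) :
    Sp (calcX P K) (Csp n) where
  prob := prob_muX K
  dbl := by
    have h := dbl_muX K hK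
    refine ⟨fun x r hr => (h.dbl x r hr).trans ?_, h.pos, h.fin⟩
    gcongr
    exact Csp_dbl n
  POI f hf x r hr := by
    refine (poi_calcX P K hK f hf x r hr).trans ?_
    have h1 : 0 ≤ ⨍ z in closedBall x (2 * r), √((calcX P K).Gam f z) ∂(muX K) := by
      rw [setAverage_eq, smul_eq_mul]
      exact mul_nonneg (inv_nonneg.2 measureReal_nonneg)
        (integral_nonneg fun _ => Real.sqrt_nonneg _)
    gcongr
    exact Csp_poi n
  DG1 f hf hf0 y r a b hr ha hb hbr hL x hx := by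
    refine (dg_calcX hn K hK hf hf0 y hr ha hb hbr hL hx).trans ?_
    have h1 : 0 ≤ ⨍ z in closedBall y r, f z ∂(muX K) := by
      rw [setAverage_eq, smul_eq_mul]
      exact mul_nonneg (inv_nonneg.2 measureReal_nonneg) (integral_nonneg hf0)
    gcongr
    exact Csp_dg n
  CAC f hf hf0 h hh h0 y r a b hr ha hb hfa hL := by
    refine (cac_calcX hn K hK hf hf0 hh h0 y hr ha hb hfa hL).trans ?_
    gcongr
    exact Csp_cac n
  LIP f hf y r G hr hG hb p hp q hq := by
    refine (lip_calcX P K hK f hf y r G hr hG hb p hp q hq).trans ?_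
    gcongr
    exact Csp_two n

end Crest.Agent.R281.Spi_405
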