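import Crest.Agent.R281.HfA1_593
import Crest.Agent.R281.Spi3_405
import Crest.Agent.R281.Glob3_484
import Crest.Agent.R281.TI4_671
import Crest.Agent.R281.SGP_790

/-!
# Row 281 (S0424), S-HALFA (helper593), part 2: the estimates at a good point

* `qf_lower`, `qf_upper` : bounds of the Gram matrix `gM K (VS s) x` give the bounds of `eta`;
* `core`  : at a good point (405's `GoodAt` for all `N + 1` sections, `c ≤ Jsq`) no `s_j` vanishes
  on `closedBall y R'` and the Gram matrix is pinched on `closedBall y (θ R')`.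
-/

set_option autoImplicit false
set_option linter.unusedSectionVars false

open Set Filter Topology Complex MeasureTheory
open scoped ContDiff Matrix ComplexConjugate ComplexOrder ENNReal NNReal

namespace Crest.Agent.R281.HfA_593

open Crest.Agent.R275.Geo Crest.Agent.R275.Core144 Crest.Agent.R275.EDR890
open Crest.Agent.R273.Defs_333 Crest.Agent.R273.Hess_333 Crest.Agent.R273.HessB_333
open Crest.Agent.R273.HM_333 Crest.Agent.R273.Kah_333 Crest.Agent.R273.Vol_333
open Crest.Agent.R273.Vm_333 Crest.Agent.R273.FIb0_597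
open Crest.Agent.R273.Ric_798 Crest.Agent.R273.RMan_798 Crest.Agent.R273.RMan4_798
open Crest.Agent.R273.SchI_152 (Dg Dg_nonneg continuous_Dg)
open Crest.Agent.R281.Tor_922 Crest.Agent.R281.SIn_14
open Crest.Agent.R281.SAsm_790 Crest.Agent.R281.Fra_922 Crest.Agent.R281.SGP_790
open Crest.Agent.R281.TI_671 (gM gm gM_eq gM_posSemidef VS hf_VS VS_eq_eta NZ_iff_pos exists_fields)
open Crest.Agent.R281.St_405 Crest.Agent.R281.Mx_405 Crest.Agent.R281.Ins_615
open Crest.Agent.R281.Spi_405 Crest.Agent.R281.T6_16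
open Crest.Agent.R281.Glob1_484 (nsM sm_nsM nsM_nonneg)

noncomputable section

variable {N : ℕ} {M : Type} [TopologicalSpace M] {A : Atl N M}

/-! ### from the Gram matrix to `eta` -/

theorem qf_star (K : Kah A) (i : A.ι) (x : M) (v : Cn N) :
    qf K i x v = (star (star v.ofLp) ⬝ᵥ (K.g i x *ᵥ star v.ofLp)).re := by
  unfold qf
  rw [star_star, Matrix.dotProduct_mulVec, Matrix.vecMul_transpose, dotProduct_comm]

theorem eta_star (V : Matrix (Fin N) (Fin N) ℂ) (v : Fin N → ℂ) :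
    ∑ j, ‖((Vᵀ)ᴴ *ᵥ star v) j‖ ^ 2 = ∑ j, ‖(V *ᵥ v) j‖ ^ 2 := by
  refine Finset.sum_congr rfl fun j _ => ?_
  have h1 : (Vᵀ)ᴴ *ᵥ star v = star (V *ᵥ v) := by
    rw [Matrix.star_mulVec, ← Matrix.mulVec_transpose]
    congr 1
  rw [h1, Pi.star_apply, norm_star]

section bounds

variable {Lb : LB A} {s : Fin (N + 1) → A.ι → M → ℂ}

theorem qf_lower (K : Kah A) (h : HM Lb) (hs : ∀ j, IsHS Lb univ (s j)) {i : A.ι} {x : M}
    (hx : x ∈ (A.e i).source) (hO : NZ s x) {lo : ℝ} (hlo : 0 < lo)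
    (hG : (gM K (VS s) x - ((lo : ℝ) : ℂ) • (1 : Matrix (Fin N) (Fin N) ℂ)).PosSemidef)
    (v : Cn N) : lo * qf K i x v ≤ ∑ j, ‖(eta s i x *ᵥ v.ofLp) j‖ ^ 2 := by
  rw [gM_eq K (hf_VS h hs) hx hO, gm, VS_eq_eta h hs hx hO] at hG
  have := form_lower (K.pos i x hx) hlo hG (star v.ofLp)
  rwa [← qf_star, eta_star] at this

theorem qf_upper (K : Kah A) (h : HM Lb) (hs : ∀ j, IsHS Lb univ (s j)) {i : A.ι} {x : M}
    (hx : x ∈ (A.e i).source) (hO : NZ s x) {hi : ℝ} (hhi : 0 < hi)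
    (hG : (((hi : ℝ) : ℂ) • (1 : Matrix (Fin N) (Fin N) ℂ) - gM K (VS s) x).PosSemidef)
    (v : Cn N) : ∑ j, ‖(eta s i x *ᵥ v.ofLp) j‖ ^ 2 ≤ hi * qf K i x v := by
  rw [gM_eq K (hf_VS h hs) hx hO, gm, VS_eq_eta h hs hx hO] at hG
  have := form_upper (K.pos i x hx) hhi hG (star v.ofLp)
  rwa [← qf_star, eta_star] at this

end bounds

/-! ### the core -/

section core

variable [T2Space M] [CompactSpace M] [ConnectedSpace M] [Fintype A.ι]
  {Lb : LB A} {s : Fin (N + 1) → A.ι → M → ℂ} {om : A.ι → M → ℂ}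

/-- the bound for the mean of the trace -/
def KT (N : ℕ) (K0 : ℝ) : ℝ := 16 * N * K0 ^ 2

theorem KT_pos (hN : 1 ≤ N) {K0 : ℝ} (h : 0 < K0) : 0 < KT N K0 := by
  have : (1 : ℝ) ≤ N := by exact_mod_cast hN
  unfold KT; positivity

/-- mean of `T` from the energies -/
theorem mean_T_le (P : Part A) (K : Kah A) (h : HM Lb) (hs : ∀ j, IsHS Lb univ (s j))
    {Cc : ℝ≥0} {kap : ℝ} {w : Fin (N + 1) → (ofKah K).M → ℝ} {t : Fin (N + 1) → ℝ}
    (ht : ∀ j, 0 < t j)
    (hsec : ∀ j, SecD (calcX P K) Cc kap (fun x => t j * nsM h (s j) x) (w j))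
    {Mb K0 R' : ℝ} (hMb : 0 < Mb) {y : (ofKah K).M}
    (hone : ∀ j, ∀ x ∈ Metric.closedBall y R', 1 ≤ Mb * (t j * nsM h (s j) x))
    (hen : ∀ j, ⨍ x in Metric.closedBall y R',
      (calcX P K).Gam (lg Mb (fun x => t j * nsM h (s j) x)) x ∂(muX K) ≤ K0 ^ 2)
    {T : (ofKah K).M → ℝ} (hT : Continuous T)
    (hTle : ∀ x ∈ Metric.closedBall y R', T x ≤ ∑ r : Fin N,
      (2 * (Dg K (M := M) (nsM h (s r.succ)) x / nsM h (s r.succ) x ^ 2) +
        2 * (Dg K (M := M) (nsM h (s 0)) x / nsM h (s 0) x ^ 2))) :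
    ⨍ x in Metric.closedBall y R', T x ∂(muX K) ≤ KT N K0 := by
  have hprob := prob_muX K
  set B : Set (ofKah K).M := Metric.closedBall y R' with hB
  set G : Fin (N + 1) → (ofKah K).M → ℝ := fun j x =>
    (calcX P K).Gam (lg Mb (fun x => t j * nsM h (s j) x)) x with hG
  have hGc : ∀ j, Continuous (G j) := fun j =>
    (calcX P K).contGam _ ((hsec j).lg_mem hMb.le)
  have hGi : ∀ j, IntegrableOn (G j) B (muX K) := fun j =>
    (integrable_of_continuous (hGc j)).integrableOn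
  have hr : ∀ j, ∀ x ∈ B, Dg K (M := M) (nsM h (s j)) x / nsM h (s j) x ^ 2 ≤ 4 * G j x := by
    intro j x hx
    have h1 := ratio_le (hsec j) hMb (hone j x hx)
    have h2 := ratio_smul (cal := calcX P K) (f := (nsM h (s j) : (ofKah K).M → ℝ))
      (sm_nsM h (hs j)) (ht j) x
    exact le_trans (le_of_eq h2.symm) h1
  have h1 : ∫ x in B, T x ∂(muX K) ≤ ∫ x in B, ∑ r : Fin N, (8 * G r.succ x + 8 * G 0 x) ∂(muX K) := by
    refine setIntegral_mono_on (integrable_of_continuous hT).integrableOn ?_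
      Metric.isClosed_closedBall.measurableSet fun x hx => ?_
    · refine integrable_finsetSum _ fun r _ => ?_
      exact ((hGi r.succ).const_mul 8).add ((hGi 0).const_mul 8)
    · refine (hTle x hx).trans (Finset.sum_le_sum fun r _ => ?_)
      have a1 := hr r.succ x hx
      have a2 := hr 0 x hx
      linarith
  rw [integral_finsetSum _ fun r _ => ((hGi r.succ).const_mul 8).add ((hGi 0).const_mul 8)] at h1
  have h2 : ∀ r : Fin N, ∫ x in B, (8 * G r.succ x + 8 * G 0 x) ∂(muX K) =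
      8 * ∫ x in B, G r.succ x ∂(muX K) + 8 * ∫ x in B, G 0 x ∂(muX K) := by
    intro r
    rw [integral_add ((hGi r.succ).const_mul 8) ((hGi 0).const_mul 8), integral_const_mul,
      integral_const_mul]
  simp only [h2] at h1
  have h3 : ∀ j, ((muX K).real B)⁻¹ * ∫ x in B, G j x ∂(muX K) ≤ K0 ^ 2 := by
    intro j
    have := hen j
    rwa [setAverage_eq, smul_eq_mul] at this
  rw [setAverage_eq, smul_eq_mul]
  have hm : 0 ≤ ((muX K).real B)⁻¹ := inv_nonneg.2 measureReal_nonneg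
  refine (mul_le_mul_of_nonneg_left h1 hm).trans ?_
  rw [Finset.mul_sum]
  calc ∑ r : Fin N, ((muX K).real B)⁻¹ * (8 * ∫ x in B, G r.succ x ∂(muX K) +
        8 * ∫ x in B, G 0 x ∂(muX K)) ≤ ∑ _r : Fin N, 16 * K0 ^ 2 := by
        refine Finset.sum_le_sum fun r _ => ?_
        have a1 := h3 r.succ
        have a2 := h3 0
        nlinarith
    _ = KT N K0 := by
        rw [Finset.sum_const, Finset.card_univ, Fintype.card_fin, nsmul_eq_mul]
        unfold KT
        ring

/-- **the estimates at a good point** -/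
theorem core (P : Part A) (K : Kah A) (hS : Sp (calcX P K) (Csp N)) (h : HM Lb)
    (hs : ∀ j, IsHS Lb univ (s j)) (homh : IsHS (KB A) univ om)
    (homn : ∀ i, ∀ x ∈ (A.e i).source, ‖om i x‖ ^ 2 = (K.g i x).det.re)
    {kap : ℝ} {w : Fin (N + 1) → (ofKah K).M → ℝ} {t : Fin (N + 1) → ℝ}
    (ht : ∀ j, 0 < t j)
    (hsec : ∀ j, SecD (calcX P K) (Csp N) kap (fun x => t j * nsM h (s j) x) (w j))
    {Mb K0 R' rho Aa : ℝ} (hMb : 0 < Mb) (hR' : 0 < R') {y : (ofKah K).M}
    (hgood : ∀ j, GoodAt (calcX P K) (Csp N) Mb K0 R' rho Aa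
      (fun x => t j * nsM h (s j) x) (w j) y)
    {c : ℝ} (hc : 0 < c) (hJ : c ≤ Jsq K s y) :
    (∀ x ∈ Metric.closedBall y R', NZ (A := A) (M := M) s x) ∧
    ∀ x ∈ Metric.closedBall y (th (Csp N) (KT N K0) N (Real.sqrt c) * R'),
      (gM K (VS s) x - ((c / 4 / (Csp N * KT N K0) ^ (N - 1) : ℝ) : ℂ) •
        (1 : Matrix (Fin N) (Fin N) ℂ)).PosSemidef ∧
      (((Csp N * KT N K0 : ℝ) : ℂ) • (1 : Matrix (Fin N) (Fin N) ℂ) - gM K (VS s) x).PosSemidef := by
  have hnz : ∀ x ∈ Metric.closedBall y R', NZ (A := A) (M := M) s x := by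
    intro x hx
    refine (NZ_iff_pos (A := A) (M := M) h).2 fun j => ?_
    by_contra hcon
    have h1 := (hgood j).one_le x hx
    have h2 : t j * nsM h (s j) x ≤ 0 := mul_nonpos_of_nonneg_of_nonpos (ht j).le (not_lt.1 hcon)
    have h3 : Mb * (t j * nsM h (s j) x) ≤ 0 := mul_nonpos_of_nonneg_of_nonpos hMb.le h2
    linarith
  refine ⟨hnz, ?_⟩
  have hcomp : IsCompact (Metric.closedBall y R' : Set (ofKah K).M) :=
    Metric.isClosed_closedBall.isCompact
  obtain ⟨T, Pp, q, a, b, hF, hqJ, hTle⟩ := exists_fields (A := A) (M := M) h hs homh homn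
    (B := (show Set M from (Metric.closedBall y R' : Set (ofKah K).M))) hcomp hnz
  have hy : y ∈ Metric.closedBall y R' := Metric.mem_closedBall_self hR'.le
  have hT6 : T6D (calcX P K) N y R' (KT N K0) T Pp q a b :=
    { T_mem := hF.T_sm
      P_mem := hF.P_sm
      q_mem := hF.q_sm
      a_mem := hF.a_sm
      b_mem := hF.b_sm
      T_nonneg := hF.T_nonneg
      P_nonneg := hF.P_nonneg
      q_nonneg := hF.q_nonneg
      Lap_T := fun x hx => hF.Lap_T x hx
      Lap_P := fun x hx => hF.Lap_P x hx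
      Lap_q := fun x hx => (hF.Lap_q x hx).le
      q_eq := fun x hx => hF.q_eq x hx
      q_le := fun x hx => hF.q_le x hx
      Gam_a := fun x hx => by
        have h1 := hF.Dg_a x hx
        have h2 := hF.P_nonneg x
        show Dg K (M := M) a x ≤ Pp x
        rw [h1]; linarith
      Gam_b := fun x hx => by
        have h1 := hF.Dg_b x hx
        have h2 := hF.P_nonneg x
        show Dg K (M := M) b x ≤ Pp x
        rw [h1]; linarith
      mean_T := mean_T_le P K h hs ht hsec hMb (fun j => (hgood j).one_le)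
        (fun j => (hgood j).energy R' hR') ((calcX P K).cont T hF.T_sm) hTle }
  have hq : Real.sqrt c ^ 2 ≤ q y := by
    rw [Real.sq_sqrt hc.le, hqJ y hy]
    exact hJ
  have key := hT6.gram hS hR' (Real.sqrt_pos.2 hc) hq (Gm := fun x => gM K (VS s) x)
    (fun x _ => gM_posSemidef K (VS s) x) (fun x hx => hF.q_det x hx) (fun x hx => hF.T_tr x hx)
  intro x hx
  have h1 := key x hx
  rw [Real.sq_sqrt hc.le] at h1
  exact h1

end core

end

end Crest.Agent.R281.HfA_593
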