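import Crest.Agent.R281.SGP_790
import Crest.Agent.R281.Fra5_922

/-!
# Row 281 (S0424), HALF-G (helper615), file 1: the strip over a ball, with all its sub-strips

`strip_of_frame'` : as `SG2_790.strip_of_frame`, with the distance bound `dist (Φ ζ) y ≤ C |ζ - ζ0|`,
`dlog F (DΦ v) = v`, and `bX K y ρ ⊆ Φ '' strip ζ0 r2` for all `r2 ≤ r` with `C' ρ ≤ r2`.
-/

set_option autoImplicit false
set_option linter.unusedSectionVars false

open Set Filter Topology Complex Metric Manifold Bundle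
open scoped ContDiff Matrix ComplexConjugate Manifold Bundle ComplexOrder

namespace Crest.Agent.R281.HfG_615

open Crest.Agent.R275.Geo
open Crest.Agent.R273.Defs_333
open Crest.Agent.R273.Kah_333
open Crest.Agent.R273.Ric_798 Crest.Agent.R273.RMan_798 Crest.Agent.R273.RMan4_798
open Crest.Agent.R281.Tor_922 Crest.Agent.R281.SAsm_790 Crest.Agent.R281.Fra_922
open Crest.Agent.R281.SIn_14

noncomputable section

theorem strip_mono {ι : Type*} {ζ0 : ι → ℂ} {r r' : ℝ} (h : r ≤ r') : strip ζ0 r ⊆ strip ζ0 r' :=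
  fun _ hζ j => (hζ j).trans_le h

theorem mem_strip_self {ι : Type*} {ζ0 : ι → ℂ} {r : ℝ} (h : 0 < r) : ζ0 ∈ strip ζ0 r :=
  fun j => by rw [sub_self, abs_zero]; exact h

/-- a torus strip restricts to smaller strips -/
theorem TorusStrip_restrict {ι : Type*} [Fintype ι] {X : Type*} [MetricSpace X] {F : X → ι → ℂ}
    {W : Set X} {C : ℝ} {d : ℕ} {y : X} {ζ0 : ι → ℂ} {r r2 : ℝ} {Lam : AddSubgroup (ι → ℂ)}
    {Φ : (ι → ℂ) → X} (h : TorusStrip F W C d y ζ0 r Lam Φ) (hC : 0 ≤ C) (h0 : 0 < r2)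
    (h2 : r2 ≤ r) : TorusStrip F W C d y ζ0 r2 Lam Φ := by
  have hm : strip ζ0 r2 ⊆ strip ζ0 r := strip_mono h2
  refine ⟨h.le_lat, h.factorial_mem, h.base, fun ζ hζ => h.mem_W ζ (hm hζ), h.cont.mono hm,
    fun ζ hζ => h.lift ζ (hm hζ), fun ζ hζ ζ' hζ' => h.eq_iff ζ (hm hζ) ζ' (hm hζ'),
    fun ζ hζ => h.dist_le ζ (hm hζ), fun ζ hζ => ?_, h.localHomeo.mono hm, fun V hVW hV hyV hV2 => ?_⟩
  · obtain ⟨lam, hlam, hb⟩ := exists_lat_near h0 d.factorial_pos hζ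
    have hmem : d.factorial • lam ∈ Lam := h.factorial_mem lam hlam
    have hst : ζ - d.factorial • lam ∈ strip ζ0 r2 := by
      have h3 : -(d.factorial • lam) ∈ lat ι := neg_mem (h.le_lat hmem)
      have h4 := strip_add_lat hζ h3
      rwa [← sub_eq_add_neg] at h4
    have he : Φ ζ = Φ (ζ - d.factorial • lam) := by
      rw [h.eq_iff ζ (hm hζ) _ (hm hst), sub_sub_cancel]
      exact hmem
    rw [he]
    refine (h.dist_le _ (hm hst)).trans (mul_le_mul_of_nonneg_left ?_ hC)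
    rw [mem_ball, dist_eq_norm] at hb
    exact hb.le
  · have h3 := h.image V hVW hV hyV fun p hp j => ⟨(hV2 p hp j).1, (hV2 p hp j).2.trans_le h2⟩
    intro p hp
    obtain ⟨ζ, hζ, rfl⟩ := h3 hp
    refine ⟨ζ, fun j => ?_, rfl⟩
    have h4 := (hV2 _ hp j).2
    rw [h.lift ζ hζ] at h4
    unfold expPi at h4
    rwa [Complex.norm_exp, Real.log_exp] at h4

variable {n : ℕ} {M : Type} [TopologicalSpace M] {A : Atl n M}

/-- the strip of `SIn_14` over a ball of the manifold, with its sub-strips -/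
structure SOk [T2Space M] [ConnectedSpace M] (K : Kah A) (F : M → Fin n → ℂ)
    (y : (ofKah K).M) (C C' R r : ℝ) (d : ℕ) (ζ0 : Fin n → ℂ) (Lam : AddSubgroup (Fin n → ℂ))
    (Φ : (Fin n → ℂ) → M) : Prop where
  str : Strip A F d ζ0 r Lam Φ
  base : Φ ζ0 = y
  mem : ∀ ζ ∈ strip ζ0 r, Φ ζ ∈ bX K y R
  dist_le : ∀ ζ ∈ strip ζ0 r, dist (show (ofKah K).M from Φ ζ) y ≤ C * ‖ζ - ζ0‖
  dl : ∀ ζ ∈ strip ζ0 r, ∀ i, Φ ζ ∈ (A.e i).source → ∀ v : Fin n → ℂ,
    dlg A F i (A.e i (Φ ζ)) (fderiv ℂ (fun w => A.e i (Φ w)) ζ v) = v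
  ball_sub : ∀ ρ r2 : ℝ, 0 < r2 → r2 ≤ r → C' * ρ ≤ r2 → ρ ≤ R → bX K y ρ ⊆ Φ '' strip ζ0 r2

/-- **frame bounds give the strip** -/
theorem strip_of_frame' [T2Space M] [ConnectedSpace M] [CompactSpace M] (K : Kah A)
    {F : M → Fin n → ℂ} {y : (ofKah K).M} {C C' R r : ℝ} {d : ℕ} (hC : 0 < C) (hC' : 0 ≤ C')
    (hr : 0 < r) (hR : C * (2 * (r + Real.pi * d.factorial)) < R)
    (hF : HolW A (bX K y R) F) (hne : ∀ p ∈ bX K y R, ∀ j, F p j ≠ 0)
    (hb : ∀ i, ∀ x ∈ (A.e i).source, x ∈ bX K y R → ∀ v : Cn n,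
      qf K i x v ≤ (C * ‖dlg A F i (A.e i x) v‖) ^ 2)
    (hb' : ∀ i, ∀ x ∈ (A.e i).source, x ∈ bX K y R → ∀ (v : Cn n) j,
      ‖dlg A F i (A.e i x) v j‖ ^ 2 ≤ C' ^ 2 * qf K i x v)
    (hd : ∀ s : Finset M, (∀ x ∈ s, x ∈ bX K y R) → (∀ a ∈ s, ∀ b ∈ s, F a = F b) →
      s.card ≤ d) :
    ∃ ζ0 Lam Φ, SOk K F y C C' R r d ζ0 Lam Φ := by
  have hR0 : 0 < R := lt_of_le_of_lt (by positivity) hR
  have hW : IsOpen (ball y R : Set (ofKah K).M) := isOpen_ball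
  have hWM : IsOpen (bX K y R) := isOpen_bX K y R
  have hFr : FrameBd (E := EE (2 * n)) (onX K F) (ball y R) C := by
    refine frameBd K hWM hF hne hC.le fun i z hz hzW v => ?_
    have h1 := hb i ((A.e i).symm z) ((A.e i).map_target hz) hzW v
    rw [qf_eq_G K ((A.e i).map_target hz), (A.e i).right_inv hz] at h1
    exact h1
  have hloc := hFr.isLocalHomeomorphOn hW (finrank_EE n)
  have hlcx := hFr.lcx hC.le hW (finrank_EE n)
  have hy : y ∈ ball y R := mem_ball_self hR0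
  have : CompactSpace (ofKah K).M := inferInstanceAs (CompactSpace M)
  set ζ0 : Fin n → ℂ := fun j => Complex.log (F y j) with hζ0
  have hy0 : expPi ζ0 = onX K F y := funext fun j => Complex.exp_log (hne y hy j)
  obtain ⟨R', hR', hR'R⟩ := exists_between hR
  obtain ⟨Lam, Φ, h⟩ := exists_torusStrip (W := (ball y R : Set (ofKah K).M)) (F := onX K F) hW hloc
    (d := d) (fun s hs hs' => hd s (fun x hx => hs hx) hs') hC.le hlcx (y := y) (ζ0 := ζ0) hy0 hr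
    (R := R') hR'.le isClosed_closedBall.isComplete (closedBall_subset_ball hR'R)
  have hx : ∀ ζ ∈ strip ζ0 r, (Φ ζ : M) ∈ bX K y R := fun ζ hζ => h.mem_W ζ hζ
  have hinj : ∀ ζ ∈ strip ζ0 r, ∀ i, (Φ ζ : M) ∈ (A.e i).source →
      Function.Injective (fderiv ℂ (fun w => F ((A.e i).symm w)) (A.e i (Φ ζ))) :=
    fun ζ hζ i hi => inj_of_bound K hi (hb i (Φ ζ) hi (hx ζ hζ))
  have hkey : ∀ ζ ∈ strip ζ0 r, ∀ i, (Φ ζ : M) ∈ (A.e i).source →
      DifferentiableAt ℂ (fun w => A.e i (Φ w)) ζ ∧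
      ∀ v : Fin n → ℂ, dlg A F i (A.e i (Φ ζ)) (fderiv ℂ (fun w => A.e i (Φ w)) ζ v) = v := by
    intro ζ hζ i hi
    exact dlg_lift_pi (Φ := (Φ : (Fin n → ℂ) → M)) hWM hF (isOpen_strip ζ0 r) h.cont
      (fun z hz => hx z hz) (fun z hz => h.lift z hz) hζ hi (hinj ζ hζ i hi)
  refine ⟨ζ0, Lam, Φ, ⟨h.le_lat, h.factorial_mem, h.cont, h.lift, h.eq_iff,
    fun ζ hζ i hi => ⟨(hkey ζ hζ i hi).1, fun h0 => ?_⟩⟩, h.base, hx, fun ζ hζ => h.dist_le ζ hζ,
    fun ζ hζ i hi v => (hkey ζ hζ i hi).2 v, fun ρ r2 h0 h2 hρ hρR => ?_⟩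
  · obtain ⟨v, hv, hv0⟩ := Matrix.exists_mulVec_eq_zero_iff.2 h0
    have h1 : fderiv ℂ (fun w => A.e i (Φ w)) ζ v = 0 := by
      ext b
      have hb2 := SG2_790.jac_mulVec (A := A) (show (Fin n → ℂ) → M from Φ) i ζ v b
      refine hb2.symm.trans ?_
      rw [hv0]
      rfl
    have h2 := (hkey ζ hζ i hi).2 v
    rw [h1] at h2
    apply hv
    rw [← h2]
    funext j
    simp [dlg]
  · have h1 := (TorusStrip_restrict h hC.le h0 h2).ball_subset_image hFr hW hC'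
      (fun p hp v j => up_bound K hWM hF hC' (fun i z hz hzW v j => ?_) p hp v j) h0 hρ
      (ball_subset_ball hρR)
    · exact h1
    · have h1 := hb' i ((A.e i).symm z) ((A.e i).map_target hz) hzW v j
      rw [qf_eq_G K ((A.e i).map_target hz), (A.e i).right_inv hz] at h1
      exact h1

end

end Crest.Agent.R281.HfG_615
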