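import Crest.Agent.R281.SG3_790

/-!
# Row 281 (S0424), S-ASM (helper790): the metric of the strip is close to a constant

`closeC2 n lo hi d r ε` : there is `r' ≥ r` such that a strip of radius `r'` on which the metric is
pinched between `lo` and `hi` satisfies `CloseC2 (pbg K Φ) (pbg K Φ ζ0) (strip ζ0 r) ε`.
-/

set_option autoImplicit false
set_option linter.unusedSectionVars false

open Set Filter Topology Complex Metric
open scoped ContDiff Matrix ComplexConjugate ComplexOrder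

namespace Crest.Agent.R281.SG4_790

open Crest.Agent.R275.Geo Crest.Agent.R275.Core144 Crest.Agent.R275.EDR890
open Crest.Agent.R273.Defs_333 Crest.Agent.R273.Hess_333 Crest.Agent.R273.HessB_333
open Crest.Agent.R273.HM_333 Crest.Agent.R273.Kah_333 Crest.Agent.R273.Vol_333
open Crest.Agent.R273.FIb0_597 Crest.Agent.R273.YauDefs_635
open Crest.Agent.R281.Tor_922 Crest.Agent.R281.SAsm_790 Crest.Agent.R281.SIn_14
open Crest.Agent.R281.SG2_790 Crest.Agent.R281.SPot_790 Crest.Agent.R281.SG3_790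
open Crest.Agent.R281.Glob1_484 (nsM)

noncomputable section

variable {n : ℕ}

section one

variable {M : Type} [TopologicalSpace M] {A : Atl n M} {Lb : LB A} {K : Kah A} {h : HM Lb}
  {s0 : A.ι → M → ℂ} {om : A.ι → M → ℂ} {c : ℝ} {F : M → Fin n → ℂ} {d : ℕ} {ζ0 : Fin n → ℂ}
  {r : ℝ} {Lam : AddSubgroup (Fin n → ℂ)} {Φ : (Fin n → ℂ) → M}

theorem smooth_u (hs : IsHS Lb univ s0) (hS : Strip A F d ζ0 r Lam Φ)
    (hne : ∀ ζ ∈ strip ζ0 r, 0 < nsM h s0 (Φ ζ)) :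
    ContDiffOn ℝ ∞ (pot h s0 c (Ps Φ)) (US ζ0 r) :=
  pot_smooth h hs c (holM_Ps hS) (isOpen_US ζ0 r) fun z hz => hne (eN n z) hz

theorem hess_u (hs : IsHS Lb univ s0) (hc : c ≠ 0)
    (hcur : ∀ i, ∀ x ∈ (A.e i).source, cur h i x = (c⁻¹ : ℂ) • K.g i x)
    (hS : Strip A F d ζ0 r Lam Φ) (hne : ∀ ζ ∈ strip ζ0 r, 0 < nsM h s0 (Φ ζ)) {z : Cn n}
    (hz : z ∈ US ζ0 r) : hess (pot h s0 c (Ps Φ)) z = pbg K Φ (eN n z) := by
  rw [hess_pot_pu K h hs hc (holM_Ps hS) (isOpen_US ζ0 r) hcur hz (hne (eN n z) hz), pu_Ps]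

theorem cH_u (hs : IsHS Lb univ s0) (hc : c ≠ 0)
    (hcur : ∀ i, ∀ x ∈ (A.e i).source, cur h i x = (c⁻¹ : ℂ) • K.g i x)
    (hS : Strip A F d ζ0 r Lam Φ) (hne : ∀ ζ ∈ strip ζ0 r, 0 < nsM h s0 (Φ ζ)) {z : Cn n}
    (hz : z ∈ US ζ0 r) : cH (pot h s0 c (Ps Φ)) z = pbg K Φ (eN n z) := by
  rw [Crest.Agent.R273.YauMax_635.cH_eq_hess
    ((smooth_u (c := c) hs hS hne).contDiffAt ((isOpen_US ζ0 r).mem_nhds hz)),
    hess_u hs hc hcur hS hne hz]

theorem lev_u (hs : IsHS Lb univ s0) (hc : c ≠ 0)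
    (hcur : ∀ i, ∀ x ∈ (A.e i).source, cur h i x = (c⁻¹ : ℂ) • K.g i x)
    (hS : Strip A F d ζ0 r Lam Φ) (hne : ∀ ζ ∈ strip ζ0 r, 0 < nsM h s0 (Φ ζ)) {z : Cn n}
    (hz : z ∈ US ζ0 r) (v : Cn n) : lev (pot h s0 c (Ps Φ)) z v =
      4 * qf K (ch A (Φ (eN n z))) (Φ (eN n z))
        (fderiv ℂ (fun w => A.e (ch A (Φ (eN n z))) (Φ w)) (eN n z) v.ofLp) := by
  have hu := (smooth_u (c := c) hs hS hne).contDiffAt ((isOpen_US ζ0 r).mem_nhds hz)
  have h1 := hq_re hu v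
  have h2 := hq_eq_dot (pot h s0 c (Ps Φ)) z (star v.ofLp)
  have h3 : (WithLp.toLp 2 (fun a => conj ((star v.ofLp) a)) : Cn n) = v := by
    ext a
    simp
  rw [h3, hess_u hs hc hcur hS hne hz] at h2
  have h4 := pbg_dot K Φ (eN n z) (star v.ofLp)
  rw [h2, h1, star_star] at h4
  rw [← h4]
  ring

end one

/-- **the metric of a long strip is close to a constant on a shorter one** -/
theorem closeC2 (n : ℕ) (lo hi : ℝ) (hlo : 0 < lo) (d : ℕ) (r ε : ℝ) (hr : 0 < r) (hε : 0 < ε) :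
    ∃ r' : ℝ, r ≤ r' ∧
    ∀ (M : Type) [TopologicalSpace M] (A : Atl n M) (K : Kah A) (Lb : LB A) (h : HM Lb)
      (s0 : A.ι → M → ℂ) (om : A.ι → M → ℂ) (c : ℝ) (F : M → Fin n → ℂ) (ζ0 : Fin n → ℂ)
      (Lam : AddSubgroup (Fin n → ℂ)) (Φ : (Fin n → ℂ) → M),
      IsHS Lb univ s0 → c ≠ 0 → (∀ i, ∀ x ∈ (A.e i).source, cur h i x = (c⁻¹ : ℂ) • K.g i x) →
      IsHS (KB A) univ om → (∀ i, ∀ x ∈ (A.e i).source, ‖om i x‖ ^ 2 = (K.g i x).det.re) →
      Strip A F d ζ0 r' Lam Φ → (∀ ζ ∈ strip ζ0 r', 0 < nsM h s0 (Φ ζ)) →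
      (∀ ζ ∈ strip ζ0 r', ∀ i, Φ ζ ∈ (A.e i).source → ∀ v : Fin n → ℂ,
        lo * ∑ j, ‖v j‖ ^ 2 ≤ qf K i (Φ ζ) (fderiv ℂ (fun w => A.e i (Φ w)) ζ v) ∧
        qf K i (Φ ζ) (fderiv ℂ (fun w => A.e i (Φ w)) ζ v) ≤ hi * ∑ j, ‖v j‖ ^ 2) →
      CloseC2 (pbg K Φ) (pbg K Φ ζ0) (strip ζ0 r) ε := by
  obtain ⟨C1, hC1, H1⟩ := Crest.Agent.R281.LioH_346.pinch_hol n (4 * lo) (4 * hi) (by positivity) 1
  obtain ⟨C2, hC2, H2⟩ := Crest.Agent.R281.LioH_346.pinch_hol n (4 * lo) (4 * hi) (by positivity) 2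
  have hD : 0 < d.factorial := Nat.factorial_pos d
  have hD' : (0 : ℝ) < d.factorial := by exact_mod_cast hD
  have hpi := Real.pi_pos
  have hB := Bn_ge n
  have hB0 : 0 < Bn n := by linarith
  set ρ : ℝ := Bn n * (r + Real.pi * d.factorial) with hρ
  have hρ0 : 0 < ρ := by positivity
  set r' : ℝ := r + 2 * ρ + 1 + C1 * ρ / ε + C1 * Bn n / ε + C2 * Bn n ^ 2 / ε with hr'
  have t1 : 0 ≤ C1 * ρ / ε := by positivity
  have t2 : 0 ≤ C1 * Bn n / ε := by positivity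
  have t3 : 0 ≤ C2 * Bn n ^ 2 / ε := by positivity
  have hr'1 : 1 ≤ r' := by rw [hr']; linarith
  have hr'0 : 0 < r' := by linarith
  have hrr : r ≤ r' := by rw [hr']; linarith
  have hρr : ρ < r' / 2 := by rw [hr']; linarith
  have e1 : C1 / r' * ρ ≤ ε := by
    have : C1 * ρ / ε ≤ r' := by rw [hr']; linarith
    rw [div_le_iff₀ hε] at this
    rw [div_mul_eq_mul_div, div_le_iff₀ hr'0]
    linarith [mul_comm r' ε]
  have e2 : C1 / r' ^ 1 * Bn n ^ 1 ≤ ε := by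
    have : C1 * Bn n / ε ≤ r' := by rw [hr']; linarith
    rw [div_le_iff₀ hε] at this
    rw [pow_one, pow_one, div_mul_eq_mul_div, div_le_iff₀ hr'0]
    linarith [mul_comm r' ε]
  have e3 : C2 / r' ^ 2 * Bn n ^ 2 ≤ ε := by
    have : C2 * Bn n ^ 2 / ε ≤ r' := by rw [hr']; linarith
    rw [div_le_iff₀ hε] at this
    rw [div_mul_eq_mul_div, div_le_iff₀ (by positivity)]
    have h5 : r' * ε ≤ ε * r' ^ 2 := by nlinarith [mul_pos hε hr'0]
    linarith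
  refine ⟨r', hrr, fun M _ A K Lb h s0 om c F ζ0 Lam Φ hs hc hcur hom homn hS hne hp => ?_⟩
  set u := pot h s0 c (Ps Φ) with hu
  set z0 : Cn n := (eN n).symm ζ0 with hz0
  have hsub : ball z0 r' ⊆ US ζ0 r' := ball_sub_US ζ0 r'
  have husm : ContDiffOn ℝ ∞ u (US ζ0 r') := smooth_u hs hS hne
  have hcH : ∀ z ∈ US ζ0 r', cH u z = pbg K Φ (eN n z) := fun z hz => cH_u hs hc hcur hS hne hz
  have hlev : ∀ z ∈ ball z0 r', ∀ v, 4 * lo * ‖v‖ ^ 2 ≤ lev u z v ∧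
      lev u z v ≤ 4 * hi * ‖v‖ ^ 2 := by
    intro z hz v
    have hz' := hsub hz
    have h1 := hp (eN n z) hz' (ch A (Φ (eN n z))) (mem_ch A _) v.ofLp
    rw [hu, lev_u hs hc hcur hS hne hz' v, EuclideanSpace.norm_sq_eq]
    constructor <;> nlinarith [h1.1, h1.2]
  have hJ : DifferentiableOn ℂ (omJ om (Ps Φ)) (ball z0 r') :=
    (omJ_diff hom (holM_Ps hS) (isOpen_US ζ0 r')).mono hsub
  have hdet : ∀ z ∈ ball z0 r', (cH u z).det = ((‖omJ om (Ps Φ) z‖ ^ 2 : ℝ) : ℂ) := by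
    intro z hz
    rw [hcH z (hsub hz), ← pu_Ps]
    exact det_pu K homn z
  have hsm : ∀ a b, ContDiffOn ℝ ∞ (fun z : Cn n => pbg K Φ (eN n z) a b) (US ζ0 r') := by
    intro a b
    refine (Crest.Agent.R273.YauLoc_635.contDiffOn_cH (isOpen_US ζ0 r') husm a b).congr ?_
    intro z hz
    rw [hcH z hz]
  have hbd : ∀ k C, (∀ z ∈ ball z0 (r' / 2), ∀ a b,
      ‖iteratedFDeriv ℝ k (fun w => cH u w a b) z‖ ≤ C / r' ^ k) →
      ∀ z ∈ ball z0 (r' / 2), ∀ a b,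
      ‖iteratedFDeriv ℝ k (fun z : Cn n => pbg K Φ (eN n z) a b) z‖ ≤ C / r' ^ k := by
    intro k C hk z hz a b
    have hzU : z ∈ US ζ0 r' := hsub (ball_subset_ball (by linarith) hz)
    have h1 : (fun z : Cn n => pbg K Φ (eN n z) a b) =ᶠ[𝓝 z] fun w => cH u w a b := by
      filter_upwards [(isOpen_US ζ0 r').mem_nhds hzU] with w hw
      rw [hcH w hw]
    rw [(h1.iteratedFDeriv ℝ k).eq_of_nhds]
    exact hk z hz a b
  have hb1 := hbd 1 C1 (H1 z0 r' u _ hr'0 (husm.mono hsub) hlev hJ hdet)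
  have hb2 := hbd 2 C2 (H2 z0 r' u _ hr'0 (husm.mono hsub) hlev hJ hdet)
  have hss : strip ζ0 r ⊆ strip ζ0 r' := fun ζ hζ j => (hζ j).trans_le hrr
  -- smoothness on `Fin n → ℂ`
  have hsm' : ∀ a b, ContDiffOn ℝ ∞ (fun ζ => pbg K Φ ζ a b) (strip ζ0 r') := by
    intro a b
    have h1 := (hsm a b).comp (g := fun z : Cn n => pbg K Φ (eN n z) a b)
      (f := fun ζ => (eR' n).symm ζ) (s := strip ζ0 r') ((eR' n).symm.contDiff.contDiffOn)
      (fun ζ hζ => hζ)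
    exact h1
  refine ⟨fun a b => (hsm' a b).mono hss, fun ζ hζ a b => ?_⟩
  -- move `ζ` near `ζ0`
  obtain ⟨lam0, hlam0, hball⟩ := exists_lat_near hr hD hζ
  set lam : Fin n → ℂ := -(d.factorial • lam0) with hlam
  have hlamL : lam ∈ Lam := Lam.neg_mem (hS.factorial_mem lam0 hlam0)
  set ζ' : Fin n → ℂ := ζ + lam with hζ'
  have hζ'b : ζ' ∈ ball ζ0 (r + Real.pi * d.factorial) := by
    rw [hζ', hlam, ← sub_eq_add_neg]
    exact hball
  have hζr' := hss hζ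
  set z' : Cn n := (eN n).symm ζ' with hz'
  have hdist : ‖z' - z0‖ < ρ := by
    rw [hz', hz0, ← map_sub]
    refine (norm_symm_le _).trans_lt ?_
    rw [mem_ball, dist_eq_norm] at hζ'b
    rw [hρ]
    exact mul_lt_mul_of_pos_left hζ'b hB0
  have hz'b : z' ∈ ball z0 (r' / 2) := by
    rw [mem_ball, dist_eq_norm]
    linarith
  have hz0b : z0 ∈ ball z0 (r' / 2) := mem_ball_self (by linarith)
  have heq : pbg K Φ ζ = pbg K Φ ζ' := (pbg_add K hS hζr' hlamL).symm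
  have hez : eN n z' = ζ' := (eN n).apply_symm_apply ζ'
  have hez0 : eN n z0 = ζ0 := (eN n).apply_symm_apply ζ0
  constructor
  · rw [heq]
    have h1 := (convex_ball z0 (r' / 2)).norm_image_sub_le_of_norm_fderiv_le (𝕜 := ℝ)
      (f := fun z : Cn n => pbg K Φ (eN n z) a b) (C := C1 / r') (fun y hy => ?_) (fun y hy => ?_)
      hz0b hz'b
    · simp only [hez, hez0] at h1
      refine h1.trans (le_trans ?_ e1)
      exact mul_le_mul_of_nonneg_left hdist.le (by positivity)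
    · have hy' : y ∈ US ζ0 r' := hsub (ball_subset_ball (by linarith) hy)
      exact ((hsm a b).contDiffAt ((isOpen_US ζ0 r').mem_nhds hy')).differentiableAt (by simp)
    · have := hb1 y hy a b
      rwa [norm_iteratedFDeriv_one, pow_one] at this
  · intro k hk1 hk2
    rw [← iter_add K hS hζr' hlamL a b k]
    refine (iter_norm_le (fun ζ => pbg K Φ ζ a b) ζ' k).trans ?_
    interval_cases k
    · exact (mul_le_mul_of_nonneg_right (hb1 z' hz'b a b) (by positivity)).trans e2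
    · exact (mul_le_mul_of_nonneg_right (hb2 z' hz'b a b) (by positivity)).trans e3

end

end Crest.Agent.R281.SG4_790
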