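import Crest.Agent.R281.HfG1_615
import Crest.Agent.R281.SG4_790
import Crest.Agent.R281.Fcl3_14

/-!
# Row 281 (S0424), HALF-G (helper615), file 2: the strip over a good point, `halfG`

* `dlg_quo`    : `dlog F (v) = eta *ᵥ v`
* `strip_good` : a good point gives the strip, the metric pinched between `hi⁻¹` and `lo⁻¹`
* `det_bounds` : the determinant of the metric is pinched
* **`halfG : HalfG`**
-/

set_option autoImplicit false
set_option linter.unusedSectionVars false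

open Set Filter Topology Complex Metric MeasureTheory
open scoped ContDiff Matrix ComplexConjugate ComplexOrder ENNReal

namespace Crest.Agent.R281.HfG_615

open Crest.Agent.R275.Geo Crest.Agent.R275.Core144 Crest.Agent.R275.EDR890
open Crest.Agent.R273.Defs_333 Crest.Agent.R273.Hess_333 Crest.Agent.R273.HessB_333
open Crest.Agent.R273.HM_333 Crest.Agent.R273.Kah_333 Crest.Agent.R273.Vol_333
open Crest.Agent.R273.Vm_333 Crest.Agent.R273.FIb0_597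
open Crest.Agent.R273.Ric_798 Crest.Agent.R273.RMan_798 Crest.Agent.R273.RMan4_798
open Crest.Agent.R281.Tor_922 Crest.Agent.R281.SAsm_790 Crest.Agent.R281.Fra_922
open Crest.Agent.R281.SIn_14 Crest.Agent.R281.SGP_790 Crest.Agent.R281.TI_671
open Crest.Agent.R281.Glob1_484 (nsM)
open Crest.Agent.R273.SchE_152 (EllC)

noncomputable section

variable {N : ℕ} {M : Type} [TopologicalSpace M] {A : Atl N M} {Lb : LB A}
  {s : Fin (N + 1) → A.ι → M → ℂ}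

/-- `dlog F (v) = eta *ᵥ v` -/
theorem dlg_quo (h : HM Lb) (hs : ∀ j, IsHS Lb univ (s j)) {i : A.ι} {x : M}
    (hx : x ∈ (A.e i).source) (hz : NZ s x) (v : Cn N) :
    dlg A (quo s) i (A.e i x) v = eta s i x *ᵥ v.ofLp := by
  have hd : DifferentiableAt ℂ (fun z => quo s ((A.e i).symm z)) (A.e i x) :=
    differentiableAt_pi.2 fun r => (quo_hol hs r i).diffAt (isOpen_NZ h hs) hx hz
  rw [dlg_eq_mulVec hx hd]
  have h1 : VF A (quo s) i x = VS s i x := rfl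
  rw [h1, VS_eq_eta h hs hx hz, Matrix.transpose_transpose]

theorem qf_nonneg (K : Kah A) {i : A.ι} {x : M} (hx : x ∈ (A.e i).source) (v : Cn N) :
    0 ≤ qf K i x v := by
  have h3 := ((K.pos i x hx).transpose).posSemidef.dotProduct_mulVec_nonneg v.ofLp
  exact (Complex.le_def.1 h3).1

theorem qf_pos (K : Kah A) {i : A.ι} {x : M} (hx : x ∈ (A.e i).source) {v : Cn N}
    (hv : v.ofLp ≠ 0) : 0 < qf K i x v := by
  have h3 := ((K.pos i x hx).transpose).dotProduct_mulVec_pos hv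
  exact (Complex.lt_def.1 h3).1

/-- the Lipschitz constant of the strip -/
def Cc (N : ℕ) (lo : ℝ) : ℝ := √(N / lo)

theorem Cc_pos {N : ℕ} (hN : 1 ≤ N) {lo : ℝ} (hlo : 0 < lo) : 0 < Cc N lo := by
  have : (0 : ℝ) < N := by exact_mod_cast hN
  exact Real.sqrt_pos.2 (by positivity)

theorem Cc_sq (N : ℕ) {lo : ℝ} (hlo : 0 < lo) : Cc N lo ^ 2 = N / lo :=
  Real.sq_sqrt (by positivity)

section

variable [T2Space M] [ConnectedSpace M] [Countable A.ι] [MeasurableSpace M] [BorelSpace M]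
variable {K : Kah A} {h : HM Lb} {om : A.ι → M → ℂ} {m v C0 c : ℝ} {d : ℕ} {L : ℝ}
  {y : (ofKah K).M} {R lo hi lam : ℝ} {f : M → ℝ≥0∞}

theorem Jsq_ne (hlo : 0 < lo) (hG : GoodPt K s y R lo hi lam f) {x : M} (hx : x ∈ bX K y R) :
    Jsq K s x ≠ 0 := by
  have hg := (Complex.lt_def.1 (K.pos _ x (mem_ch A x)).det_pos).1
  have hdet : (eta s (ch A x) x).det ≠ 0 := by
    intro h0
    obtain ⟨w, hw, hw0⟩ := Matrix.exists_mulVec_eq_zero_iff.2 h0
    have h1 := hG.lo (ch A x) x (mem_ch A x) hx (WithLp.toLp 2 w)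
    rw [show (WithLp.toLp 2 w : Cn N).ofLp = w from rfl, hw0] at h1
    have h2 := qf_pos K (mem_ch A x) (v := WithLp.toLp 2 w) hw
    have h3 : 0 < lo * qf K (ch A x) x (WithLp.toLp 2 w) := mul_pos hlo h2
    simp at h1
    linarith
  unfold Jsq
  exact div_ne_zero (pow_ne_zero 2 (norm_ne_zero_iff.2 hdet)) (ne_of_gt hg)

/-- **a good point gives the strip** -/
theorem strip_good [CompactSpace M] (hN : 1 ≤ N) (hS : SDat A K Lb h s om m v C0 c d L)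
    (hlo : 0 < lo) (hhi : 0 < hi) (hG : GoodPt K s y R lo hi lam f) {r : ℝ} (hr : 0 < r)
    (hR : Cc N lo * (2 * (r + Real.pi * d.factorial)) < R) :
    ∃ ζ0 Lam Φ, SOk K (quo s) y (Cc N lo) (√hi) R r d ζ0 Lam Φ ∧
      ∀ ζ ∈ strip ζ0 r, ∀ i, Φ ζ ∈ (A.e i).source → ∀ v : Fin N → ℂ,
        hi⁻¹ * ∑ j, ‖v j‖ ^ 2 ≤ qf K i (Φ ζ) (fderiv ℂ (fun w => A.e i (Φ w)) ζ v) ∧
        qf K i (Φ ζ) (fderiv ℂ (fun w => A.e i (Φ w)) ζ v) ≤ lo⁻¹ * ∑ j, ‖v j‖ ^ 2 := by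
  have hC := Cc_pos hN hlo
  have hdq : ∀ i, ∀ x ∈ (A.e i).source, x ∈ bX K y R → ∀ v : Cn N,
      dlg A (quo s) i (A.e i x) v = eta s i x *ᵥ v.ofLp := fun i x hx hxR v =>
    dlg_quo h hS.hol hx (hG.nz x hxR) v
  have hF : HolW A (bX K y R) (quo s) := holW_of fun r i =>
    (quo_hol hS.hol r i).mono fun x hx => hG.nz x hx
  have hb : ∀ i, ∀ x ∈ (A.e i).source, x ∈ bX K y R → ∀ v : Cn N,
      qf K i x v ≤ (Cc N lo * ‖dlg A (quo s) i (A.e i x) v‖) ^ 2 := by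
    intro i x hx hxR v
    have h1 := hG.lo i x hx hxR v
    rw [hdq i x hx hxR v, mul_pow, Cc_sq N hlo]
    have h2 := sum_sq_le (eta s i x *ᵥ v.ofLp)
    rw [div_mul_eq_mul_div, le_div_iff₀ hlo, mul_comm]
    exact h1.trans h2
  have hb' : ∀ i, ∀ x ∈ (A.e i).source, x ∈ bX K y R → ∀ (v : Cn N) j,
      ‖dlg A (quo s) i (A.e i x) v j‖ ^ 2 ≤ √hi ^ 2 * qf K i x v := by
    intro i x hx hxR v j
    have h1 := hG.hi i x hx hxR v
    rw [hdq i x hx hxR v, Real.sq_sqrt hhi.le]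
    refine le_trans ?_ h1
    exact Finset.single_le_sum (f := fun j => ‖(eta s i x *ᵥ v.ofLp) j‖ ^ 2)
      (fun j _ => by positivity) (Finset.mem_univ j)
  have hd : ∀ S : Finset M, (∀ x ∈ S, x ∈ bX K y R) → (∀ a ∈ S, ∀ b ∈ S, quo s a = quo s b) →
      S.card ≤ d := fun S hS1 hS2 =>
    hS.deg S (fun x hx => ⟨hG.nz x (hS1 x hx), Jsq_ne hlo hG (hS1 x hx)⟩) hS2
  obtain ⟨ζ0, Lam, Φ, hO⟩ := strip_of_frame' K (F := quo s) (y := y) (C := Cc N lo) (C' := √hi)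
    (R := R) (r := r) (d := d) hC (Real.sqrt_nonneg _) hr hR hF
    (fun p hp j => quo_ne (hG.nz p hp) j) hb hb' hd
  refine ⟨ζ0, Lam, Φ, hO, fun ζ hζ i hi' v => ?_⟩
  set w := fderiv ℂ (fun w => A.e i (Φ w)) ζ v with hw
  have hx := hO.mem ζ hζ
  have h1 : eta s i (Φ ζ) *ᵥ w.ofLp = v := by
    rw [← hdq i (Φ ζ) hi' hx w]
    exact hO.dl ζ hζ i hi' v
  have h2 := hG.lo i (Φ ζ) hi' hx w
  have h3 := hG.hi i (Φ ζ) hi' hx w
  rw [h1] at h2 h3
  constructor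
  · rw [inv_mul_le_iff₀ hhi]
    exact h3
  · rw [← div_eq_inv_mul, le_div_iff₀ hlo, mul_comm]
    exact h2

end

/-- the determinant of the metric on the strip -/
theorem det_bounds (K : Kah A) {Φ : (Fin N → ℂ) → M} {ζ : Fin N → ℂ} {lo hi : ℝ} (hlo : 0 < lo)
    (hhi : 0 < hi)
    (hp : ∀ i, Φ ζ ∈ (A.e i).source → ∀ v : Fin N → ℂ,
      lo * ∑ j, ‖v j‖ ^ 2 ≤ qf K i (Φ ζ) (fderiv ℂ (fun w => A.e i (Φ w)) ζ v) ∧
      qf K i (Φ ζ) (fderiv ℂ (fun w => A.e i (Φ w)) ζ v) ≤ hi * ∑ j, ‖v j‖ ^ 2) :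
    ((N.factorial : ℝ) * (2 * (1 / lo)) ^ N)⁻¹ ≤ (pbg K Φ ζ).det.re ∧
      (pbg K Φ ζ).det.re ≤ (N.factorial : ℝ) * (2 * hi) ^ N := by
  have hE : EllC lo hi (pbg K Φ ζ) := by
    refine ⟨SG3_790.pbg_herm K Φ ζ, fun x => ?_⟩
    rw [SG3_790.pbg_dot, ← SG3_790.sum_star]
    exact hp _ (mem_ch A (Φ ζ)) _
  have h1 := LioH_346.det_pinch hlo hhi hE (LioH_346.det_ne_of_ell hlo hE)
  have h2 : 0 < (pbg K Φ ζ).det := by
    have h3 := SG3_790.pbg_lo K Φ fun i hi' v => (hp i hi' v).1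
    have h4 : (((lo : ℝ) : ℂ) • (1 : Matrix (Fin N) (Fin N) ℂ)).PosDef :=
      Matrix.PosDef.one.smul (by exact_mod_cast hlo)
    have h5 := h4.add_posSemidef h3
    rw [add_sub_cancel] at h5
    exact h5.det_pos
  have h3 : ‖(pbg K Φ ζ).det‖ = (pbg K Φ ζ).det.re := by
    have h4 := Complex.lt_def.1 h2
    have h5 : (pbg K Φ ζ).det = (((pbg K Φ ζ).det.re : ℝ) : ℂ) :=
      Complex.ext rfl (by simpa using h4.2.symm)
    rw [h5, Complex.norm_real, Real.norm_eq_abs, abs_of_nonneg (by simpa using h4.1.le),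
      Complex.ofReal_re]
  rw [h3] at h1
  exact h1

end

end Crest.Agent.R281.HfG_615
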