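import Crest.Agent.R281.HfG2_615

/-!
# Row 281 (S0424), HALF-G (helper615), file 3: **`halfG : HalfG`**
-/

set_option autoImplicit false
set_option linter.unusedSectionVars false

open Set Filter Topology Complex Metric MeasureTheory
open scoped ContDiff Matrix ComplexConjugate ComplexOrder ENNReal

namespace Crest.Agent.R281.HfG_615

open Crest.Agent.R275.Geo Crest.Agent.R275.Core144 Crest.Agent.R275.EDR890
open Crest.Agent.R273.Defs_333 Crest.Agent.R273.Hess_333 Crest.Agent.R273.HessB_333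
open Crest.Agent.R273.HM_333 Crest.Agent.R273.Kah_333 Crest.Agent.R273.Vol_333
open Crest.Agent.R273.Vm_333 Crest.Agent.R273.FIb0_597
open Crest.Agent.R273.Ric_798 Crest.Agent.R273.RMan_798 Crest.Agent.R273.RMan4_798
open Crest.Agent.R281.Tor_922 Crest.Agent.R281.SAsm_790 Crest.Agent.R281.Fra_922
open Crest.Agent.R281.SIn_14 Crest.Agent.R281.SGP_790 Crest.Agent.R281.TI_671
open Crest.Agent.R281.Glob1_484 (nsM)

noncomputable section

/-- lower bound of the determinant -/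
def dlo (N : ℕ) (hi : ℝ) : ℝ := ((N.factorial : ℝ) * (2 * (1 / hi⁻¹)) ^ N)⁻¹

/-- upper bound of the determinant -/
def dhi (N : ℕ) (lo : ℝ) : ℝ := (N.factorial : ℝ) * (2 * lo⁻¹) ^ N

/-- the radius of the sub-strip that covers the ball of radius `Cc R1 + 1` -/
def rr2 (N : ℕ) (lo hi R1 : ℝ) : ℝ := √hi * (Cc N lo * |R1| + 1)

/-- the radius of the second ball -/
def RR2 (N : ℕ) (lo hi R1 : ℝ) (d : ℕ) : ℝ := rr2 N lo hi R1 + 2 * Real.pi * d.factorial + 1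

/-- the constant -/
def KK1 (N : ℕ) (lo hi lam R1 : ℝ) (d : ℕ) : ℝ :=
  hi + lo⁻¹ + |Fcl_14.KF N R1 (RR2 N lo hi R1 d) (dlo N hi) (dhi N lo) lam|

section

variable {N : ℕ} {M : Type} [TopologicalSpace M] {A : Atl N M} {Lb : LB A}
  {s : Fin (N + 1) → A.ι → M → ℂ}
variable [T2Space M] [ConnectedSpace M] [Countable A.ι] [MeasurableSpace M] [BorelSpace M]
variable {K : Kah A} {y : (ofKah K).M} {R lo hi lam : ℝ} {f : M → ℝ≥0∞}

/-- the `f`-clause -/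
theorem fcl (hN : 1 ≤ N) (hlo : 0 < lo) (hhi : 0 < hi) (hlam : 0 < lam)
    (hG : GoodPt K s y R lo hi lam f) (hf : Measurable f) {R1 r : ℝ} {d : ℕ} {ζ0 : Fin N → ℂ}
    {Lam : AddSubgroup (Fin N → ℂ)} {Φ : (Fin N → ℂ) → M}
    (hO : SOk K (quo s) y (Cc N lo) (√hi) R r d ζ0 Lam Φ)
    (hp : ∀ ζ ∈ strip ζ0 r, ∀ i, Φ ζ ∈ (A.e i).source → ∀ v : Fin N → ℂ,
        hi⁻¹ * ∑ j, ‖v j‖ ^ 2 ≤ qf K i (Φ ζ) (fderiv ℂ (fun w => A.e i (Φ w)) ζ v) ∧
        qf K i (Φ ζ) (fderiv ℂ (fun w => A.e i (Φ w)) ζ v) ≤ lo⁻¹ * ∑ j, ‖v j‖ ^ 2)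
    (hR1r : R1 ≤ r) (hR2r : RR2 N lo hi R1 d ≤ r) (hR : Cc N lo * |R1| + 1 ≤ R) :
    ∫⁻ ζ in Metric.ball ζ0 R1, f (Φ ζ) ≤
      ENNReal.ofReal (Fcl_14.KF N R1 (RR2 N lo hi R1 d) (dlo N hi) (dhi N lo) lam) := by
  rcases le_or_gt R1 0 with h0 | h0
  · rw [Metric.ball_eq_empty.2 h0]
    simp
  have hC := Cc_pos hN hlo
  have habs : |R1| = R1 := abs_of_pos h0
  have hsh : 0 < √hi := Real.sqrt_pos.2 hhi
  have hr2 : 0 < rr2 N lo hi R1 := by unfold rr2; positivity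
  have hsub : ∀ {R' : ℝ}, R' ≤ r → Metric.ball ζ0 R' ⊆ strip ζ0 r := by
    intro R' hR' ζ hζ j
    rw [mem_ball, dist_eq_norm] at hζ
    have h1 : ‖(ζ - ζ0) j‖ ≤ ‖ζ - ζ0‖ := norm_le_pi_norm (ζ - ζ0) j
    rw [← Complex.sub_re]
    exact ((Complex.abs_re_le_norm _).trans h1).trans_lt (hζ.trans_le hR')
  have hr2r : rr2 N lo hi R1 ≤ r := by
    refine le_trans ?_ hR2r
    unfold RR2
    have := Real.pi_pos
    have h1 : 0 ≤ 2 * Real.pi * d.factorial := by positivity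
    linarith
  have hdb : ∀ ζ ∈ strip ζ0 r, dlo N hi ≤ (pbg K Φ ζ).det.re ∧ (pbg K Φ ζ).det.re ≤ dhi N lo :=
    fun ζ hζ => det_bounds K (inv_pos.2 hhi) (inv_pos.2 hlo) (hp ζ hζ)
  refine Fcl_14.fclause K (U := strip ζ0 r) ⟨isOpen_strip ζ0 r, hO.str.cont,
    fun ζ hζ i hi' => (hO.str.hol ζ hζ i hi').1⟩ ⟨fun ζ hζ ζ' hζ' he =>
    hO.str.le_lat ((hO.str.eq_iff ζ hζ ζ' hζ').1 he)⟩ (hsub hR1r) (hsub hR2r) ?_ ?_ hlam.le
    (fun ζ hζ => (hdb ζ (hsub hR1r hζ)).1) (fun ζ hζ => (hdb ζ (hsub hR2r hζ)).2)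
    (B := cbX K y (Cc N lo * R1)) ?_ ?_ hf (hG.avg _ (by positivity))
  · unfold dlo; positivity
  · unfold dhi; positivity
  · rintro _ ⟨ζ, hζ, rfl⟩
    have h1 := hO.dist_le ζ (hsub hR1r hζ)
    rw [mem_ball, dist_eq_norm] at hζ
    exact h1.trans (mul_le_mul_of_nonneg_left hζ.le hC.le)
  · have h1 : cbX K y (Cc N lo * R1) ⊆ bX K y (Cc N lo * |R1| + 1) := by
      intro x hx
      have h2 : dist (show (ofKah K).M from x) y ≤ Cc N lo * R1 := hx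
      have h3 : dist (show (ofKah K).M from x) y < Cc N lo * |R1| + 1 := by
        rw [habs]; linarith
      exact h3
    have h2 := hO.ball_sub (Cc N lo * |R1| + 1) (rr2 N lo hi R1) hr2 hr2r le_rfl hR
    have h3 := Fcl_14.strip_sub hO.str hr2.le hr2r
    refine (h1.trans (h2.trans h3)).trans (image_mono inter_subset_left)

end

/-- **the geometric half of Theorem S** -/
theorem halfG : HalfG := by
  intro N lo hi lam m R1 d hN hlo hhi hlam hm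
  have hC := Cc_pos hN hlo
  have hK : hi ≤ KK1 N lo hi lam R1 d ∧ lo⁻¹ ≤ KK1 N lo hi lam R1 d ∧
      Fcl_14.KF N R1 (RR2 N lo hi R1 d) (dlo N hi) (dhi N lo) lam ≤ KK1 N lo hi lam R1 d := by
    have h1 := inv_pos.2 hlo
    have h2 := abs_nonneg (Fcl_14.KF N R1 (RR2 N lo hi R1 d) (dlo N hi) (dhi N lo) lam)
    have h3 := le_abs_self (Fcl_14.KF N R1 (RR2 N lo hi R1 d) (dlo N hi) (dhi N lo) lam)
    unfold KK1
    refine ⟨by linarith, by linarith, by linarith⟩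
  have hK0 : 0 < KK1 N lo hi lam R1 d := hhi.trans_le hK.1
  refine ⟨KK1 N lo hi lam R1 d, hK0, fun r ε hr1 hr hε => ?_⟩
  obtain ⟨r', hrr', hcl⟩ := SG4_790.closeC2 N hi⁻¹ lo⁻¹ (inv_pos.2 hhi) d r ε hr hε
  set r'' : ℝ := max r' (RR2 N lo hi R1 d) with hr''
  have hr0 : 0 < r'' := (hr.trans_le hrr').trans_le (le_max_left _ _)
  have hd : (0 : ℝ) < d.factorial := by exact_mod_cast Nat.factorial_pos d
  have hpi := Real.pi_pos
  set R : ℝ := Cc N lo * (2 * (r'' + Real.pi * d.factorial)) + (Cc N lo * |R1| + 1) with hR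
  have hR1 : 0 < Cc N lo * |R1| + 1 := by positivity
  have hR2 : 0 < Cc N lo * (2 * (r'' + Real.pi * d.factorial)) := by positivity
  refine ⟨R, by linarith, fun v C0 c L hL M _ _ _ _ _ _ A _ P K Lb h s om hS f hf y hG => ?_⟩
  obtain ⟨ζ0, Lam, Φ, hO, hp⟩ := strip_good hN hS hlo hhi hG hr0 (by linarith)
  have hL0 : 0 < L := by linarith
  have hst : Strip A (quo s) d ζ0 r' Lam Φ := SG3_790.Strip.mono' (le_max_left _ _) hO.str
  have hm1 : strip ζ0 r' ⊆ strip ζ0 r'' := strip_mono (le_max_left _ _)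
  have hz0 : ζ0 ∈ strip ζ0 r'' := mem_strip_self hr0
  refine ⟨ζ0, Lam, Φ, pbg K Φ ζ0, SG3_790.Strip.mono' hrr' hst, ?_, ?_, ?_, ?_⟩
  · refine SG3_790.pbg_lo K Φ fun i hi' v => le_trans ?_ (hp ζ0 hz0 i hi' v).1
    refine mul_le_mul_of_nonneg_right ?_ (Finset.sum_nonneg fun j _ => by positivity)
    exact inv_anti₀ hhi hK.1
  · refine SG3_790.pbg_hi K Φ fun i hi' v => (hp ζ0 hz0 i hi' v).2.trans ?_
    exact mul_le_mul_of_nonneg_right hK.2.1 (Finset.sum_nonneg fun j _ => by positivity)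
  · refine hcl M A K Lb h (s 0) om (L / m) (quo s) ζ0 Lam Φ (hS.hol 0) (by positivity) ?_ hS.omh
      hS.omn hst ?_ fun ζ hζ => hp ζ (hm1 hζ)
    · intro i x hx
      rw [hS.curv i x hx]
      congr 1
      push_cast
      rw [inv_div]
    · intro ζ hζ
      exact (nsM_pos_iff h 0).2 (hG.nz _ (hO.mem ζ (hm1 hζ)) 0)
  · refine (fcl hN hlo hhi hlam hG hf hO hp (hr1.trans (hrr'.trans (le_max_left _ _)))
      (le_max_right _ _) (by linarith)).trans ?_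
    exact ENNReal.ofReal_le_ofReal hK.2.2

end

end Crest.Agent.R281.HfG_615

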