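import Mathlib

/-!
# Row 281, YAU-VAR (helper680), part 1: the Banach space of Hölder functions on a set

* `HF a K F`      : bounded `a`-Hölder functions on `K` with values in `F` (a Banach space)
* `HF.fn`, `HF.of`: the function of an element, the element of a function (`0` if not Hölder)
* `HF.norm_le`, `HF.map`, `HF.bil`, `HF.mlin`, `HF.theta`
-/

set_option autoImplicit false

open Set Filter Topology BoundedContinuousFunction
open scoped ContDiff

namespace Crest.Agent.R281.Hjs_680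

noncomputable section

/-- the (discrete) index type -/
inductive Ix {E : Type} (K : Set E) : Type
  | pt (x : K) : Ix K
  | pr (x y : K) : Ix K

instance {E : Type} (K : Set E) : TopologicalSpace (Ix K) := ⊥
instance {E : Type} (K : Set E) : DiscreteTopology (Ix K) := ⟨rfl⟩

variable {E : Type} [NormedAddCommGroup E]
variable {F G H : Type} [NormedAddCommGroup F] [NormedSpace ℝ F]
  [NormedAddCommGroup G] [NormedSpace ℝ G] [NormedAddCommGroup H] [NormedSpace ℝ H]

/-- bounded Hölder functions -/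
def HF (a : ℝ) (K : Set E) (F : Type) [NormedAddCommGroup F] [NormedSpace ℝ F] :
    Submodule ℝ (Ix K →ᵇ F) where
  carrier := {g | ∀ x y : K, g (Ix.pr x y) =
    (‖(x : E) - y‖ ^ a)⁻¹ • (g (Ix.pt x) - g (Ix.pt y))}
  add_mem' := by
    intro f g hf hg x y
    have h1 := hf x y
    have h2 := hg x y
    rw [BoundedContinuousFunction.add_apply, BoundedContinuousFunction.add_apply,
      BoundedContinuousFunction.add_apply, h1, h2, ← smul_add]
    congr 1
    abel
  zero_mem' := by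
    intro x y
    simp
  smul_mem' := by
    intro c f hf x y
    have h1 := hf x y
    rw [BoundedContinuousFunction.smul_apply, BoundedContinuousFunction.smul_apply,
      BoundedContinuousFunction.smul_apply, h1, ← smul_sub, smul_comm]

theorem HF.isClosed (a : ℝ) (K : Set E) : IsClosed (HF a K F : Set (Ix K →ᵇ F)) := by
  have : (HF a K F : Set (Ix K →ᵇ F)) = ⋂ x : K, ⋂ y : K, {g : Ix K →ᵇ F |
      g (Ix.pr x y) =
        (‖(x : E) - y‖ ^ a)⁻¹ • (g (Ix.pt x) - g (Ix.pt y))} := by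
    ext g
    simp [HF]
  rw [this]
  refine isClosed_iInter fun x => isClosed_iInter fun y => isClosed_eq ?_ ?_
  · exact continuous_eval_const _
  · exact ((continuous_eval_const _).sub (continuous_eval_const _)).const_smul _

instance instNACGHF (a : ℝ) (K : Set E) : NormedAddCommGroup (HF a K F) :=
  Submodule.normedAddCommGroup (HF a K F)

instance instNSHF (a : ℝ) (K : Set E) : NormedSpace ℝ (HF a K F) :=
  Submodule.normedSpace (HF a K F)

instance instModHF (a : ℝ) (K : Set E) : Module ℝ (HF a K F) := Submodule.module (HF a K F)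

instance instSMulHF (a : ℝ) (K : Set E) : SMul ℝ (HF a K F) := Submodule.smul (HF a K F)

instance (a : ℝ) (K : Set E) [CompleteSpace F] : CompleteSpace (HF a K F) :=
  (HF.isClosed a K).completeSpace_coe

variable {a : ℝ} {K : Set E}

open Classical in
/-- the function of an element -/
def HF.fn (g : HF a K F) (x : E) : F := if h : x ∈ K then g.1 (Ix.pt ⟨x, h⟩) else 0

theorem HF.fn_of_mem (g : HF a K F) {x : E} (h : x ∈ K) :
    HF.fn g x = g.1 (Ix.pt ⟨x, h⟩) := dif_pos h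

theorem HF.norm_fn (g : HF a K F) (x : E) : ‖HF.fn g x‖ ≤ ‖g‖ := by
  by_cases h : x ∈ K
  · rw [HF.fn_of_mem g h]
    exact BoundedContinuousFunction.norm_coe_le_norm g.1 _
  · rw [HF.fn, dif_neg h]
    simp

theorem HF.norm_fn_sub (ha : 0 < a) (g : HF a K F) {x y : E} (hx : x ∈ K) (hy : y ∈ K) :
    ‖HF.fn g x - HF.fn g y‖ ≤ ‖g‖ * ‖x - y‖ ^ a := by
  by_cases hxy : x = y
  · subst hxy
    simp [Real.zero_rpow ha.ne']
  have h0 : 0 < ‖x - y‖ ^ a := Real.rpow_pos_of_pos (norm_pos_iff.2 (sub_ne_zero.2 hxy)) _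
  have h1 := g.2 ⟨x, hx⟩ ⟨y, hy⟩
  have h2 : ‖g.1 (Ix.pr ⟨x, hx⟩ ⟨y, hy⟩)‖ ≤ ‖g‖ :=
    BoundedContinuousFunction.norm_coe_le_norm g.1 _
  rw [h1, norm_smul, norm_inv, Real.norm_eq_abs, abs_of_pos h0] at h2
  rw [HF.fn_of_mem g hx, HF.fn_of_mem g hy]
  rw [inv_mul_le_iff₀ h0] at h2
  linarith

theorem HF.ext {g h : HF a K F} (hgh : ∀ x ∈ K, HF.fn g x = HF.fn h x) : g = h := by
  have h1 : ∀ x : K, g.1 (Ix.pt x) = h.1 (Ix.pt x) := fun x => by
    have := hgh x x.2
    rwa [HF.fn_of_mem g x.2, HF.fn_of_mem h x.2] at this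
  apply Subtype.ext
  ext q
  rcases q with x | ⟨x, y⟩
  · exact h1 x
  · exact (g.2 x y).trans (by rw [h1 x, h1 y]; exact (h.2 x y).symm)

theorem HF.norm_le {g : HF a K F} {C : ℝ} (hC : 0 ≤ C) (h0 : ∀ x ∈ K, ‖HF.fn g x‖ ≤ C)
    (h1 : ∀ x ∈ K, ∀ y ∈ K, ‖HF.fn g x - HF.fn g y‖ ≤ C * ‖x - y‖ ^ a) : ‖g‖ ≤ C := by
  refine (BoundedContinuousFunction.norm_le hC).2 fun q => ?_
  rcases q with x | ⟨x, y⟩
  · have := h0 x x.2
    rwa [HF.fn_of_mem g x.2] at this
  · have h2 := h1 x x.2 y y.2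
    rw [HF.fn_of_mem g x.2, HF.fn_of_mem g y.2] at h2
    have h3 : g.1 (Ix.pr x y) = _ := g.2 x y
    show ‖g.1 (Ix.pr x y)‖ ≤ C
    rw [h3, norm_smul, norm_inv, Real.norm_eq_abs, abs_of_nonneg (by positivity)]
    rcases eq_or_lt_of_le (show 0 ≤ ‖(x : E) - y‖ ^ a by positivity) with h0 | h0
    · rw [← h0]
      simpa using hC
    · rw [inv_mul_le_iff₀ h0]
      simpa [mul_comm] using h2

@[simp] theorem HF.fn_add (g h : HF a K F) (x : E) : HF.fn (g + h) x = HF.fn g x + HF.fn h x := by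
  by_cases hx : x ∈ K
  · simp [HF.fn_of_mem _ hx]
  · simp [HF.fn, hx]

@[simp] theorem HF.fn_sub (g h : HF a K F) (x : E) : HF.fn (g - h) x = HF.fn g x - HF.fn h x := by
  by_cases hx : x ∈ K
  · simp [HF.fn_of_mem _ hx]
  · simp [HF.fn, hx]

@[simp] theorem HF.fn_smul (c : ℝ) (g : HF a K F) (x : E) : HF.fn (c • g) x = c • HF.fn g x := by
  by_cases hx : x ∈ K
  · simp [HF.fn_of_mem _ hx]
  · simp [HF.fn, hx]

@[simp] theorem HF.fn_zero (x : E) : HF.fn (0 : HF a K F) x = 0 := by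
  by_cases hx : x ∈ K
  · simp [HF.fn_of_mem _ hx]
  · simp [HF.fn, hx]

/-- bounds of a function -/
structure Bd (a : ℝ) (K : Set E) (f : E → F) (C : ℝ) : Prop where
  nn : 0 ≤ C
  bd : ∀ x ∈ K, ‖f x‖ ≤ C
  hol : ∀ x ∈ K, ∀ y ∈ K, ‖f x - f y‖ ≤ C * ‖x - y‖ ^ a

/-- the element of a function with bounds -/
def HF.mk {f : E → F} {C : ℝ} (h : Bd a K f C) : HF a K F :=
  ⟨BoundedContinuousFunction.ofNormedAddCommGroupDiscrete
    (fun q : Ix K => match q with
      | Ix.pt x => f x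
      | Ix.pr x y => (‖(x : E) - y‖ ^ a)⁻¹ • (f x - f y)) C (by
      intro q
      rcases q with x | ⟨x, y⟩
      · exact h.bd x x.2
      · show ‖(‖(x : E) - y‖ ^ a)⁻¹ • (f x - f y)‖ ≤ C
        rw [norm_smul, norm_inv, Real.norm_eq_abs, abs_of_nonneg (by positivity)]
        rcases eq_or_lt_of_le (show 0 ≤ ‖(x : E) - y‖ ^ a by positivity) with h0 | h0
        · rw [← h0]
          simpa using h.nn
        · rw [inv_mul_le_iff₀ h0]
          simpa [mul_comm] using h.hol x x.2 y y.2), fun _ _ => rfl⟩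

theorem HF.fn_mk {f : E → F} {C : ℝ} (h : Bd a K f C) {x : E} (hx : x ∈ K) :
    HF.fn (HF.mk h) x = f x := by
  rw [HF.fn_of_mem _ hx]
  rfl

open Classical in
/-- the element of a function (`0` if the function is not Hölder) -/
def HF.of (a : ℝ) (K : Set E) (f : E → F) : HF a K F :=
  if h : ∃ C, Bd a K f C then HF.mk h.choose_spec else 0

theorem HF.fn_of {f : E → F} {C : ℝ} (h : Bd a K f C) {x : E} (hx : x ∈ K) :
    HF.fn (HF.of a K f) x = f x := by
  have h' : ∃ C, Bd a K f C := ⟨C, h⟩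
  rw [HF.of, dif_pos h']
  exact HF.fn_mk _ hx

theorem HF.norm_of {f : E → F} {C : ℝ} (h : Bd a K f C) : ‖HF.of a K f‖ ≤ C :=
  HF.norm_le h.nn (fun x hx => by rw [HF.fn_of h hx]; exact h.bd x hx)
    (fun x hx y hy => by rw [HF.fn_of h hx, HF.fn_of h hy]; exact h.hol x hx y hy)

theorem HF.bd (ha : 0 < a) (g : HF a K F) : Bd a K (HF.fn g) ‖g‖ :=
  ⟨norm_nonneg _, fun x _ => HF.norm_fn g x, fun _ hx _ hy => HF.norm_fn_sub ha g hx hy⟩

theorem HF.of_fn (ha : 0 < a) (g : HF a K F) : HF.of a K (HF.fn g) = g :=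
  HF.ext fun _ hx => HF.fn_of (HF.bd ha g) hx

theorem HF.eq_of {g : HF a K F} {f : E → F} {C : ℝ} (h : Bd a K f C)
    (hg : ∀ x ∈ K, HF.fn g x = f x) : g = HF.of a K f :=
  HF.ext fun x hx => by rw [HF.fn_of h hx, hg x hx]

theorem Bd.mono {f : E → F} {C C' : ℝ} (h : Bd a K f C) (hC : C ≤ C') : Bd a K f C' :=
  ⟨h.nn.trans hC, fun x hx => (h.bd x hx).trans hC, fun x hx y hy =>
    (h.hol x hx y hy).trans (mul_le_mul_of_nonneg_right hC (by positivity))⟩

theorem Bd.add {f g : E → F} {C C' : ℝ} (h : Bd a K f C) (h' : Bd a K g C') :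
    Bd a K (fun x => f x + g x) (C + C') :=
  ⟨add_nonneg h.nn h'.nn, fun x hx => (norm_add_le _ _).trans (add_le_add (h.bd x hx) (h'.bd x hx)),
    fun x hx y hy => by
      have : f x + g x - (f y + g y) = (f x - f y) + (g x - g y) := by abel
      rw [this, add_mul]
      exact (norm_add_le _ _).trans (add_le_add (h.hol x hx y hy) (h'.hol x hx y hy))⟩

theorem Bd.sub {f g : E → F} {C C' : ℝ} (h : Bd a K f C) (h' : Bd a K g C') :
    Bd a K (fun x => f x - g x) (C + C') :=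
  ⟨add_nonneg h.nn h'.nn, fun x hx => (norm_sub_le _ _).trans (add_le_add (h.bd x hx) (h'.bd x hx)),
    fun x hx y hy => by
      have : f x - g x - (f y - g y) = (f x - f y) - (g x - g y) := by abel
      rw [this, add_mul]
      exact (norm_sub_le _ _).trans (add_le_add (h.hol x hx y hy) (h'.hol x hx y hy))⟩

theorem Bd.congr {f g : E → F} {C : ℝ} (h : Bd a K f C) (hfg : ∀ x ∈ K, g x = f x) :
    Bd a K g C :=
  ⟨h.nn, fun x hx => by rw [hfg x hx]; exact h.bd x hx, fun x hx y hy => by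
    rw [hfg x hx, hfg y hy]; exact h.hol x hx y hy⟩

theorem HF.of_congr {f g : E → F} {C : ℝ} (h : Bd a K f C) (hfg : ∀ x ∈ K, g x = f x) :
    HF.of a K g = HF.of a K f :=
  HF.eq_of h fun x hx => by rw [HF.fn_of (h.congr hfg) hx, hfg x hx]

/-- bounded bilinear product -/
theorem Bd.bil {f : E → F} {g : E → G} {C C' : ℝ} (h : Bd a K f C) (h' : Bd a K g C')
    (B : F →L[ℝ] G →L[ℝ] H) : Bd a K (fun x => B (f x) (g x)) (2 * ‖B‖ * C * C') := by
  have hC := h.nn
  have hC' := h'.nn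
  have hB := norm_nonneg B
  have hp : 0 ≤ ‖B‖ * C * C' := by positivity
  refine ⟨by positivity, fun x hx => ?_, fun x hx y hy => ?_⟩
  · calc ‖B (f x) (g x)‖ ≤ ‖B‖ * ‖f x‖ * ‖g x‖ := B.le_opNorm₂ _ _
      _ ≤ ‖B‖ * C * C' := by
        gcongr
        · exact h.bd x hx
        · exact h'.bd x hx
      _ ≤ 2 * ‖B‖ * C * C' := by linarith
  · have : B (f x) (g x) - B (f y) (g y) = B (f x - f y) (g x) + B (f y) (g x - g y) := by
      simp
    rw [this]
    have e1 : ‖B (f x - f y) (g x)‖ ≤ ‖B‖ * (C * ‖x - y‖ ^ a) * C' := by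
      refine (B.le_opNorm₂ _ _).trans ?_
      gcongr
      · exact h.hol x hx y hy
      · exact h'.bd x hx
    have e2 : ‖B (f y) (g x - g y)‖ ≤ ‖B‖ * C * (C' * ‖x - y‖ ^ a) := by
      refine (B.le_opNorm₂ _ _).trans ?_
      gcongr
      · exact h.bd y hy
      · exact h'.hol x hx y hy
    calc _ ≤ _ := norm_add_le _ _
      _ ≤ ‖B‖ * (C * ‖x - y‖ ^ a) * C' + ‖B‖ * C * (C' * ‖x - y‖ ^ a) := add_le_add e1 e2
      _ = 2 * ‖B‖ * C * C' * ‖x - y‖ ^ a := by ring

theorem Bd.map {f : E → F} {C : ℝ} (h : Bd a K f C) (L : F →L[ℝ] G) :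
    Bd a K (fun x => L (f x)) (‖L‖ * C) := by
  have hC := h.nn
  refine ⟨by positivity, fun x hx => (L.le_opNorm _).trans (by gcongr; exact h.bd x hx),
    fun x hx y hy => ?_⟩
  rw [← map_sub, mul_assoc]
  exact (L.le_opNorm _).trans (by gcongr; exact h.hol x hx y hy)

/-- composition with a continuous linear map -/
def HF.map (ha : 0 < a) (L : F →L[ℝ] G) : HF a K F →L[ℝ] HF a K G :=
  LinearMap.mkContinuous
    { toFun := fun g => HF.of a K (fun x => L (HF.fn g x))
      map_add' := fun g h => by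
        refine (HF.eq_of ((HF.bd ha (g + h)).map L) fun x hx => ?_).symm
        rw [HF.fn_add, HF.fn_of ((HF.bd ha g).map L) hx, HF.fn_of ((HF.bd ha h).map L) hx]
        simp
      map_smul' := fun c g => by
        refine (HF.eq_of ((HF.bd ha (c • g)).map L) fun x hx => ?_).symm
        rw [RingHom.id_apply, HF.fn_smul, HF.fn_of ((HF.bd ha g).map L) hx]
        simp } ‖L‖ (fun g => HF.norm_of ((HF.bd ha g).map L))

@[simp] theorem HF.fn_map (ha : 0 < a) (L : F →L[ℝ] G) (g : HF a K F) {x : E} (hx : x ∈ K) :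
    HF.fn (HF.map ha L g) x = L (HF.fn g x) :=
  HF.fn_of ((HF.bd ha g).map L) hx

/-- pointwise bilinear product -/
def HF.bil (ha : 0 < a) (B : F →L[ℝ] G →L[ℝ] H) : HF a K F →L[ℝ] HF a K G →L[ℝ] HF a K H :=
  LinearMap.mkContinuous₂
    (LinearMap.mk₂ ℝ (fun (f : HF a K F) (g : HF a K G) =>
        HF.of a K (fun x => B (HF.fn f x) (HF.fn g x)))
      (fun f f' g => by
        refine (HF.eq_of ((HF.bd ha (f + f')).bil (HF.bd ha g) B) fun x hx => ?_).symm
        rw [HF.fn_add, HF.fn_of ((HF.bd ha f).bil (HF.bd ha g) B) hx,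
          HF.fn_of ((HF.bd ha f').bil (HF.bd ha g) B) hx]
        simp)
      (fun c f g => by
        refine (HF.eq_of ((HF.bd ha (c • f)).bil (HF.bd ha g) B) fun x hx => ?_).symm
        rw [HF.fn_smul, HF.fn_of ((HF.bd ha f).bil (HF.bd ha g) B) hx]
        simp)
      (fun f g g' => by
        refine (HF.eq_of ((HF.bd ha f).bil (HF.bd ha (g + g')) B) fun x hx => ?_).symm
        rw [HF.fn_add, HF.fn_of ((HF.bd ha f).bil (HF.bd ha g) B) hx,
          HF.fn_of ((HF.bd ha f).bil (HF.bd ha g') B) hx]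
        simp)
      (fun c f g => by
        refine (HF.eq_of ((HF.bd ha f).bil (HF.bd ha (c • g)) B) fun x hx => ?_).symm
        rw [HF.fn_smul, HF.fn_of ((HF.bd ha f).bil (HF.bd ha g) B) hx]
        simp)) (2 * ‖B‖)
    (fun f g => HF.norm_of ((HF.bd ha f).bil (HF.bd ha g) B))

@[simp] theorem HF.fn_bil (ha : 0 < a) (B : F →L[ℝ] G →L[ℝ] H) (f : HF a K F) (g : HF a K G)
    {x : E} (hx : x ∈ K) : HF.fn (HF.bil ha B f g) x = B (HF.fn f x) (HF.fn g x) :=
  HF.fn_of ((HF.bd ha f).bil (HF.bd ha g) B) hx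

/-- evaluation -/
def HF.ev (ha : 0 < a) (x : E) : HF a K F →L[ℝ] F :=
  LinearMap.mkContinuous
    { toFun := fun g => HF.fn g x
      map_add' := fun g h => HF.fn_add g h x
      map_smul' := fun c g => HF.fn_smul c g x } 1
    (fun g => by rw [one_mul]; exact HF.norm_fn g x)

@[simp] theorem HF.ev_apply (ha : 0 < a) (x : E) (g : HF a K F) : HF.ev ha x g = HF.fn g x := rfl

/-- linear maps with values functions: `HF (P →L F) → (P →L HF F)` -/
def HF.theta (ha : 0 < a) (P : Type) [NormedAddCommGroup P] [NormedSpace ℝ P] :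
    HF a K (P →L[ℝ] F) →L[ℝ] P →L[ℝ] HF a K F :=
  ((HF.bil ha (ContinuousLinearMap.id ℝ (P →L[ℝ] F))).flip.comp
    (LinearMap.mkContinuous
      { toFun := fun v : P => (HF.of a K (fun _ => v) : HF a K P)
        map_add' := fun v w => by
          have hv : ∀ v : P, Bd a K (fun _ : E => v) ‖v‖ := fun v =>
            ⟨norm_nonneg _, fun _ _ => le_rfl, fun x _ y _ => by simp; positivity⟩
          refine (HF.eq_of (hv _) fun x hx => ?_).symm
          rw [HF.fn_add, HF.fn_of (hv v) hx, HF.fn_of (hv w) hx]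
        map_smul' := fun c v => by
          have hv : ∀ v : P, Bd a K (fun _ : E => v) ‖v‖ := fun v =>
            ⟨norm_nonneg _, fun _ _ => le_rfl, fun x _ y _ => by simp; positivity⟩
          refine (HF.eq_of (hv _) fun x hx => ?_).symm
          rw [RingHom.id_apply, HF.fn_smul, HF.fn_of (hv v) hx] } 1
      (fun v => by
        have hv : ∀ v : P, Bd a K (fun _ : E => v) ‖v‖ := fun v =>
            ⟨norm_nonneg _, fun _ _ => le_rfl, fun x _ y _ => by simp; positivity⟩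
        rw [one_mul]
        exact HF.norm_of (hv v)))).flip

theorem HF.fn_theta (ha : 0 < a) (P : Type) [NormedAddCommGroup P] [NormedSpace ℝ P]
    (g : HF a K (P →L[ℝ] F)) (v : P) {x : E} (hx : x ∈ K) :
    HF.fn (HF.theta ha P g v) x = HF.fn g x v := by
  have hv : Bd a K (fun _ : E => v) ‖v‖ :=
    ⟨norm_nonneg _, fun _ _ => le_rfl, fun x _ y _ => by simp; positivity⟩
  show HF.fn (HF.bil ha (ContinuousLinearMap.id ℝ (P →L[ℝ] F)) g (HF.of a K (fun _ => v))) x = _
  rw [HF.fn_bil ha _ _ _ hx, HF.fn_of hv hx]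
  rfl

end

end Crest.Agent.R281.Hjs_680
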