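import Crest.Agent.R281.Hjs1_680

/-!
# Row 281, YAU-VAR (helper680), part 2: jointly smooth functions as smooth families of Hölder
functions

* `Bd.of_lip`      : Lipschitz functions on a bounded set are Hölder
* `contDiffOn_of`  : `a` jointly smooth on `O ×ˢ U`, `K ⊆ U` compact convex: `p ↦ a(p, ·)` is
  smooth on `O` with values in `HF α K F`
-/

set_option autoImplicit false
set_option linter.unusedSectionVars false

open Set Filter Topology
open scoped ContDiff

namespace Crest.Agent.R281.Hjs_680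

noncomputable section

variable {E : Type} [NormedAddCommGroup E] [NormedSpace ℝ E]
variable {F G H : Type} [NormedAddCommGroup F] [NormedSpace ℝ F]
  [NormedAddCommGroup G] [NormedSpace ℝ G] [NormedAddCommGroup H] [NormedSpace ℝ H]
variable {P : Type} [NormedAddCommGroup P] [NormedSpace ℝ P]
variable {α : ℝ} {K : Set E}

/-- Lipschitz functions on a set of diameter `≤ D` are Hölder -/
theorem Bd.of_lip (hα : 0 < α) (hα1 : α ≤ 1) {f : E → F} {C₀ C₁ D : ℝ} (hC₀ : 0 ≤ C₀)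
    (hC₁ : 0 ≤ C₁) (hD : 1 ≤ D) (hK : ∀ x ∈ K, ∀ y ∈ K, ‖x - y‖ ≤ D)
    (h0 : ∀ x ∈ K, ‖f x‖ ≤ C₀) (h1 : ∀ x ∈ K, ∀ y ∈ K, ‖f x - f y‖ ≤ C₁ * ‖x - y‖) :
    Bd α K f (C₀ + C₁ * D) := by
  have hD0 : 0 < D := by linarith
  refine ⟨by positivity, fun x hx => (h0 x hx).trans (by nlinarith), fun x hx y hy => ?_⟩
  have hn := norm_nonneg (x - y)
  have key : ‖x - y‖ ≤ D * ‖x - y‖ ^ α := by
    rcases eq_or_lt_of_le hn with h | h
    · rw [← h, Real.zero_rpow hα.ne']
      simp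
    · have e1 : ‖x - y‖ = ‖x - y‖ ^ (1 - α) * ‖x - y‖ ^ α := by
        rw [← Real.rpow_add h]
        simp
      have e2 : ‖x - y‖ ^ (1 - α) ≤ D := by
        calc ‖x - y‖ ^ (1 - α) ≤ D ^ (1 - α) :=
              Real.rpow_le_rpow h.le (hK x hx y hy) (by linarith)
          _ ≤ D ^ (1 : ℝ) := Real.rpow_le_rpow_of_exponent_le hD (by linarith)
          _ = D := Real.rpow_one D
      calc ‖x - y‖ = ‖x - y‖ ^ (1 - α) * ‖x - y‖ ^ α := e1
        _ ≤ D * ‖x - y‖ ^ α := mul_le_mul_of_nonneg_right e2 (by positivity)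
  have hp : 0 ≤ ‖x - y‖ ^ α := by positivity
  calc ‖f x - f y‖ ≤ C₁ * ‖x - y‖ := h1 x hx y hy
    _ ≤ C₁ * (D * ‖x - y‖ ^ α) := mul_le_mul_of_nonneg_left key hC₁
    _ ≤ (C₀ + C₁ * D) * ‖x - y‖ ^ α := by nlinarith [mul_nonneg hC₀ hp]

theorem exists_diam (hK : IsCompact K) : ∃ D : ℝ, 1 ≤ D ∧ ∀ x ∈ K, ∀ y ∈ K, ‖x - y‖ ≤ D := by
  obtain ⟨D, hD⟩ := (Metric.isBounded_iff.1 hK.isBounded)
  exact ⟨max D 1, le_max_right _ _, fun x hx y hy => by
    rw [← dist_eq_norm]
    exact (hD hx hy).trans (le_max_left _ _)⟩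

/-- `C¹` functions near a compact convex set are Hölder on it -/
theorem exists_bd (hα : 0 < α) (hα1 : α ≤ 1) (hK : IsCompact K) (hKc : Convex ℝ K) {U : Set E}
    (hU : IsOpen U) (hKU : K ⊆ U) {f : E → F} (hf : ContDiffOn ℝ 1 f U) :
    ∃ C, Bd α K f C := by
  obtain ⟨D, hD, hDK⟩ := exists_diam hK
  obtain ⟨C₀, hC₀⟩ := hK.exists_bound_of_continuousOn (hf.continuousOn.mono hKU)
  obtain ⟨C₁, hC₁⟩ := hK.exists_bound_of_continuousOn
    ((hf.continuousOn_fderiv_of_isOpen hU le_rfl).mono hKU)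
  refine ⟨_, Bd.of_lip hα hα1 (C₀ := max C₀ 0) (C₁ := max C₁ 0) (le_max_right _ _)
    (le_max_right _ _) hD hDK (fun x hx => (hC₀ x hx).trans (le_max_left _ _)) ?_⟩
  intro x hx y hy
  exact hKc.norm_image_sub_le_of_norm_hasFDerivWithin_le
    (fun z hz => (((hf.differentiableOn one_ne_zero z (hKU hz)).differentiableAt
      (hU.mem_nhds (hKU hz))).hasFDerivAt).hasFDerivWithinAt)
    (fun z hz => (hC₁ z hz).trans (le_max_left _ _)) hy hx

/-- base estimate: the family `c(q, ·) - c(p, ·)` is small in `C¹` -/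
theorem small_diff (hK : IsCompact K) (hKc : Convex ℝ K) {O : Set P} (hO : IsOpen O) {U : Set E}
    (hU : IsOpen U) (hKU : K ⊆ U) {c : P × E → F} (hc : ContDiffOn ℝ 1 c (O ×ˢ U)) {p : P}
    (hp : p ∈ O) {ε : ℝ} (hε : 0 < ε) :
    ∀ᶠ q in 𝓝 p, (∀ x ∈ K, ‖c (q, x) - c (p, x)‖ ≤ ε) ∧
      ∀ x ∈ K, ∀ y ∈ K, ‖(c (q, x) - c (p, x)) - (c (q, y) - c (p, y))‖ ≤ ε * ‖x - y‖ := by
  have hOU : IsOpen (O ×ˢ U) := hO.prod hU
  have h1 : ∀ x ∈ K, ∀ᶠ z : P × E in 𝓝 p ×ˢ 𝓝 x, ‖c (z.1, z.2) - c (p, z.2)‖ ≤ ε := by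
    intro x hx
    have hcx : ContinuousAt c (p, x) :=
      hc.continuousOn.continuousAt (hOU.mem_nhds ⟨hp, hKU hx⟩)
    have t1 : Tendsto (fun z : P × E => c (z.1, z.2) - c (p, z.2)) (𝓝 (p, x))
        (𝓝 (c (p, x) - c (p, x))) := by
      refine Tendsto.sub (hcx.tendsto) ?_
      have : Tendsto (fun z : P × E => (p, z.2)) (𝓝 (p, x)) (𝓝 (p, x)) :=
        (continuous_const.prodMk continuous_snd).tendsto' _ _ rfl
      exact hcx.tendsto.comp this
    rw [sub_self] at t1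
    rw [← nhds_prod_eq]
    have := t1.norm
    rw [norm_zero] at this
    exact (this.eventually (gt_mem_nhds hε)).mono fun z hz => hz.le
  have hd : ContinuousOn (fun z : P × E => (fderiv ℝ c z).comp (ContinuousLinearMap.inr ℝ P E))
      (O ×ˢ U) :=
    (hc.continuousOn_fderiv_of_isOpen hOU le_rfl).clm_comp continuousOn_const
  have h2 : ∀ x ∈ K, ∀ᶠ z : P × E in 𝓝 p ×ˢ 𝓝 x,
      ‖(fderiv ℝ c (z.1, z.2)).comp (ContinuousLinearMap.inr ℝ P E) -
        (fderiv ℝ c (p, z.2)).comp (ContinuousLinearMap.inr ℝ P E)‖ ≤ ε := by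
    intro x hx
    have hcx := hd.continuousAt (hOU.mem_nhds (x := (p, x)) ⟨hp, hKU hx⟩)
    have t1 : Tendsto (fun z : P × E => (fderiv ℝ c (z.1, z.2)).comp
        (ContinuousLinearMap.inr ℝ P E) - (fderiv ℝ c (p, z.2)).comp
        (ContinuousLinearMap.inr ℝ P E)) (𝓝 (p, x))
        (𝓝 ((fderiv ℝ c (p, x)).comp (ContinuousLinearMap.inr ℝ P E) -
          (fderiv ℝ c (p, x)).comp (ContinuousLinearMap.inr ℝ P E))) := by
      refine Tendsto.sub (hcx.tendsto) ?_
      have : Tendsto (fun z : P × E => (p, z.2)) (𝓝 (p, x)) (𝓝 (p, x)) :=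
        (continuous_const.prodMk continuous_snd).tendsto' _ _ rfl
      exact hcx.tendsto.comp this
    rw [sub_self] at t1
    rw [← nhds_prod_eq]
    have := t1.norm
    rw [norm_zero] at this
    exact (this.eventually (gt_mem_nhds hε)).mono fun z hz => hz.le
  have e1 := hK.eventually_forall_of_forall_eventually (x₀ := p) (P := fun q x =>
    ‖c (q, x) - c (p, x)‖ ≤ ε) (by
      intro x hx
      have := h1 x hx
      rwa [← nhds_prod_eq] at this)
  have e2 := hK.eventually_forall_of_forall_eventually (x₀ := p) (P := fun q x =>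
    ‖(fderiv ℝ c (q, x)).comp (ContinuousLinearMap.inr ℝ P E) -
        (fderiv ℝ c (p, x)).comp (ContinuousLinearMap.inr ℝ P E)‖ ≤ ε) (by
      intro x hx
      have := h2 x hx
      rwa [← nhds_prod_eq] at this)
  filter_upwards [e1, e2, hO.mem_nhds hp] with q hq1 hq2 hqO
  refine ⟨hq1, fun x hx y hy => ?_⟩
  have hder : ∀ q' ∈ O, ∀ z ∈ K, HasFDerivAt (fun z => c (q', z))
      ((fderiv ℝ c (q', z)).comp (ContinuousLinearMap.inr ℝ P E)) z := by
    intro q' hq' z hz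
    have hc1 : HasFDerivAt c (fderiv ℝ c (q', z)) (q', z) :=
      ((hc.differentiableOn one_ne_zero (q', z) ⟨hq', hKU hz⟩).differentiableAt
        (hOU.mem_nhds ⟨hq', hKU hz⟩)).hasFDerivAt
    have h2 : HasFDerivAt (fun z : E => (q', z)) (ContinuousLinearMap.inr ℝ P E) z :=
      hasFDerivAt_prodMk_right q' z
    exact hc1.comp z h2
  exact hKc.norm_image_sub_le_of_norm_hasFDerivWithin_le
    (f := fun z => c (q, z) - c (p, z))
    (fun z hz => ((hder q hqO z hz).sub (hder p hp z hz)).hasFDerivWithinAt)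
    (fun z hz => hq2 z hz) hy hx

theorem slice_contDiffOn {O : Set P} {U : Set E} {c : P × E → F} {n : ℕ∞ω}
    (hc : ContDiffOn ℝ n c (O ×ˢ U)) {p : P} (hp : p ∈ O) :
    ContDiffOn ℝ n (fun x => c (p, x)) U :=
  hc.comp (contDiff_const.prodMk contDiff_id).contDiffOn fun _ hx => ⟨hp, hx⟩

/-- continuity of the family -/
theorem continuousOn_of (hα : 0 < α) (hα1 : α ≤ 1) (hK : IsCompact K) (hKc : Convex ℝ K)
    {O : Set P} (hO : IsOpen O) {U : Set E} (hU : IsOpen U) (hKU : K ⊆ U) {c : P × E → F}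
    (hc : ContDiffOn ℝ 1 c (O ×ˢ U)) :
    ContinuousOn (fun p => HF.of α K (fun x => c (p, x))) O := by
  obtain ⟨D, hD, hDK⟩ := exists_diam hK
  intro p hp
  refine ContinuousAt.continuousWithinAt ?_
  rw [Metric.continuousAt_iff']
  intro ε hε
  have hδ : 0 < ε / (2 * (1 + D)) := by positivity
  filter_upwards [small_diff hK hKc hO hU hKU hc hp hδ, hO.mem_nhds hp] with q hq hqO
  obtain ⟨C₁, hC₁⟩ := exists_bd hα hα1 hK hKc hU hKU (slice_contDiffOn hc hqO)
  obtain ⟨C₂, hC₂⟩ := exists_bd hα hα1 hK hKc hU hKU (slice_contDiffOn hc hp)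
  have hb := Bd.of_lip hα hα1 hδ.le hδ.le hD hDK hq.1 hq.2
  have e : HF.of α K (fun x => c (q, x)) - HF.of α K (fun x => c (p, x)) =
      HF.of α K (fun x => c (q, x) - c (p, x)) :=
    HF.eq_of hb fun x hx => by rw [HF.fn_sub, HF.fn_of hC₁ hx, HF.fn_of hC₂ hx]
  rw [dist_eq_norm, e]
  refine (HF.norm_of hb).trans_lt ?_
  have h4 : ε / (2 * (1 + D)) + ε / (2 * (1 + D)) * D = ε / 2 := by
    field_simp
  rw [h4]
  linarith

/-- the partial derivative in the parameter -/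
def dP (c : P × E → F) (z : P × E) : P →L[ℝ] F :=
  (fderiv ℝ c z).comp (ContinuousLinearMap.inl ℝ P E)

theorem dP_contDiffOn {O : Set P} (hO : IsOpen O) {U : Set E} (hU : IsOpen U) {c : P × E → F}
    (hc : ContDiffOn ℝ ∞ c (O ×ˢ U)) : ContDiffOn ℝ ∞ (dP c) (O ×ˢ U) :=
  (hc.fderiv_of_isOpen (hO.prod hU) (m := ∞) (by simp)).clm_comp contDiffOn_const

/-- differentiability of the family -/
theorem hasFDerivAt_of (hα : 0 < α) (hα1 : α ≤ 1) (hK : IsCompact K) (hKc : Convex ℝ K)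
    {O : Set P} (hO : IsOpen O) {U : Set E} (hU : IsOpen U) (hKU : K ⊆ U) {c : P × E → F}
    (hc : ContDiffOn ℝ ∞ c (O ×ˢ U)) {p : P} (hp : p ∈ O) :
    HasFDerivAt (fun p => HF.of α K (fun x => c (p, x)))
      (HF.theta hα P (HF.of α K (fun x => dP c (p, x)))) p := by
  obtain ⟨D, hD, hDK⟩ := exists_diam hK
  have hc1 : ContDiffOn ℝ 1 c (O ×ˢ U) := hc.of_le (by simp)
  have hdc : ContDiffOn ℝ 1 (dP c) (O ×ˢ U) := (dP_contDiffOn hO hU hc).of_le (by simp)
  have hOU : IsOpen (O ×ˢ U) := hO.prod hU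
  have hder : ∀ q ∈ O, ∀ x ∈ K, HasFDerivAt (fun q => c (q, x)) (dP c (q, x)) q := by
    intro q hq x hx
    have hc1 : HasFDerivAt c (fderiv ℝ c (q, x)) (q, x) :=
      ((hc1.differentiableOn one_ne_zero (q, x) ⟨hq, hKU hx⟩).differentiableAt
        (hOU.mem_nhds ⟨hq, hKU hx⟩)).hasFDerivAt
    exact hc1.comp q (hasFDerivAt_prodMk_left q x)
  rw [hasFDerivAt_iff_isLittleO_nhds_zero, Asymptotics.isLittleO_iff]
  intro ε hε
  have hδ : 0 < ε / (1 + D) := by positivity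
  obtain ⟨ρ, hρ, hρs⟩ := Metric.eventually_nhds_iff_ball.1
    ((small_diff hK hKc hO hU hKU hdc hp hδ).and (hO.mem_nhds hp))
  filter_upwards [Metric.ball_mem_nhds (0 : P) hρ] with h hh
  have hseg : ∀ q ∈ segment ℝ p (p + h), q ∈ Metric.ball p ρ := by
    intro q hq
    refine (convex_ball p ρ).segment_subset (Metric.mem_ball_self hρ) ?_ hq
    simpa using hh
  have hph : p + h ∈ O := (hρs _ (hseg _ (right_mem_segment ℝ p (p + h)))).2
  obtain ⟨C₁, hC₁⟩ := exists_bd hα hα1 hK hKc hU hKU (slice_contDiffOn hc1 hph)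
  obtain ⟨C₂, hC₂⟩ := exists_bd hα hα1 hK hKc hU hKU (slice_contDiffOn hc1 hp)
  obtain ⟨C₃, hC₃⟩ := exists_bd hα hα1 hK hKc hU hKU (slice_contDiffOn hdc hp)
  have b0 : ∀ x ∈ K, ‖c (p + h, x) - c (p, x) - dP c (p, x) h‖ ≤ ε / (1 + D) * ‖h‖ := by
    intro x hx
    have := (convex_segment p (p + h)).norm_image_sub_le_of_norm_hasFDerivWithin_le'
      (f := fun q => c (q, x)) (f' := fun q => dP c (q, x)) (φ := dP c (p, x))
      (C := ε / (1 + D))
      (fun q hq => (hder q (hρs q (hseg q hq)).2 x hx).hasFDerivWithinAt)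
      (fun q hq => (hρs q (hseg q hq)).1.1 x hx) (left_mem_segment ℝ p (p + h))
      (right_mem_segment ℝ p (p + h))
    simpa using this
  have b1 : ∀ x ∈ K, ∀ y ∈ K, ‖(c (p + h, x) - c (p, x) - dP c (p, x) h) -
      (c (p + h, y) - c (p, y) - dP c (p, y) h)‖ ≤ ε / (1 + D) * ‖h‖ * ‖x - y‖ := by
    intro x hx y hy
    have := (convex_segment p (p + h)).norm_image_sub_le_of_norm_hasFDerivWithin_le'
      (f := fun q => c (q, x) - c (q, y)) (f' := fun q => dP c (q, x) - dP c (q, y))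
      (φ := dP c (p, x) - dP c (p, y)) (C := ε / (1 + D) * ‖x - y‖)
      (fun q hq => ((hder q (hρs q (hseg q hq)).2 x hx).sub
        (hder q (hρs q (hseg q hq)).2 y hy)).hasFDerivWithinAt)
      (fun q hq => by
        have := (hρs q (hseg q hq)).1.2 x hx y hy
        refine le_trans (le_of_eq ?_) this
        congr 1
        abel) (left_mem_segment ℝ p (p + h))
      (right_mem_segment ℝ p (p + h))
    calc _ = ‖c (p + h, x) - c (p + h, y) - (c (p, x) - c (p, y)) -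
          (dP c (p, x) - dP c (p, y)) (p + h - p)‖ := by
          congr 1
          simp
          abel
      _ ≤ _ := this
      _ = _ := by
        simp
        ring
  have hb := Bd.of_lip (f := fun x => c (p + h, x) - c (p, x) - dP c (p, x) h) hα hα1
    (C₀ := ε / (1 + D) * ‖h‖) (C₁ := ε / (1 + D) * ‖h‖) (by positivity) (by positivity) hD hDK
    b0 b1
  have e : HF.of α K (fun x => c (p + h, x)) - HF.of α K (fun x => c (p, x)) -
      HF.theta hα P (HF.of α K (fun x => dP c (p, x))) h =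
      HF.of α K (fun x => c (p + h, x) - c (p, x) - dP c (p, x) h) :=
    HF.eq_of hb fun x hx => by
      rw [HF.fn_sub, HF.fn_sub, HF.fn_of hC₁ hx, HF.fn_of hC₂ hx, HF.fn_theta hα P _ _ hx,
        HF.fn_of hC₃ hx]
  rw [e]
  refine (HF.norm_of hb).trans (le_of_eq ?_)
  field_simp

/-- **jointly smooth functions are smooth families of Hölder functions** -/
theorem contDiffOn_of (hα : 0 < α) (hα1 : α ≤ 1) (hK : IsCompact K) (hKc : Convex ℝ K)
    {O : Set P} (hO : IsOpen O) {U : Set E} (hU : IsOpen U) (hKU : K ⊆ U) {c : P × E → F}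
    (hc : ContDiffOn ℝ ∞ c (O ×ˢ U)) :
    ContDiffOn ℝ ∞ (fun p => HF.of α K (fun x => c (p, x))) O := by
  rw [contDiffOn_infty]
  intro n
  induction n generalizing F with
  | zero =>
    rw [Nat.cast_zero, contDiffOn_zero]
    exact continuousOn_of hα hα1 hK hKc hO hU hKU (hc.of_le (by simp))
  | succ n ih =>
    rw [Nat.cast_add, Nat.cast_one, contDiffOn_succ_iff_fderiv_of_isOpen hO]
    have hd : ∀ p ∈ O, HasFDerivAt (fun p => HF.of α K (fun x => c (p, x)))
        (HF.theta hα P (HF.of α K (fun x => dP c (p, x)))) p := fun p hp =>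
      hasFDerivAt_of hα hα1 hK hKc hO hU hKU hc hp
    refine ⟨fun p hp => (hd p hp).differentiableAt.differentiableWithinAt, by simp, ?_⟩
    have h1 := ih (dP_contDiffOn hO hU hc)
    have h3 : ContDiff ℝ n (fun g => HF.theta (a := α) (K := K) (F := F) hα P g) := by
      fun_prop
    exact (h3.comp_contDiffOn h1).congr fun p hp => (hd p hp).fderiv

end

end Crest.Agent.R281.Hjs_680
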