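import Crest.Agent.R281.Hjs2_680

/-!
# Row 281, YAU-VAR (helper680), part 3: the Banach algebra `Hol K` of real `1/2`-Hölder functions

* `Hol K`          : commutative Banach algebra (norm `2 ‖·‖`)
* `Hol.toHF`       : continuous linear equivalence with `HF (1/2) K ℝ`
* `Hol.val x`      : evaluation at a point of `K`, an algebra homomorphism
* `Hol.isUnit_iff` : units
-/

set_option autoImplicit false
set_option linter.unusedSectionVars false

open Set Filter Topology
open scoped ContDiff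

namespace Crest.Agent.R281.Hjs_680

noncomputable section

variable {E : Type} [NormedAddCommGroup E] [NormedSpace ℝ E] {K : Set E}

theorem half_pos' : (0 : ℝ) < 1 / 2 := by norm_num

/-- real `1/2`-Hölder functions on `K` -/
def Hol {E : Type} [NormedAddCommGroup E] (K : Set E) : Type := HF (1 / 2) K ℝ

namespace Hol

instance : AddCommGroup (Hol K) := inferInstanceAs (AddCommGroup (HF (1 / 2) K ℝ))
instance : Module ℝ (Hol K) := inferInstanceAs (Module ℝ (HF (1 / 2) K ℝ))

/-- the underlying element of `HF` (linear) -/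
def toL : Hol K ≃ₗ[ℝ] HF (1 / 2) K ℝ := LinearEquiv.refl ℝ _

instance : NormedAddCommGroup (Hol K) :=
  NormedAddCommGroup.induced (Hol K) (HF (1 / 2) K ℝ)
    (((2 : ℝ) • (toL : Hol K ≃ₗ[ℝ] HF (1 / 2) K ℝ).toLinearMap).toAddMonoidHom) (by
      intro f g h
      have h1 : (2 : ℝ) • toL f = (2 : ℝ) • toL g := h
      have h2 := smul_right_injective (HF (1 / 2) K ℝ) (two_ne_zero : (2 : ℝ) ≠ 0) h1
      exact toL.injective h2)

theorem norm_def (f : Hol K) : ‖f‖ = 2 * ‖toL f‖ := by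
  show ‖(2 : ℝ) • toL f‖ = _
  rw [norm_smul]
  simp

instance : NormedSpace ℝ (Hol K) where
  norm_smul_le c f := by
    rw [norm_def, norm_def, map_smul, norm_smul]
    exact le_of_eq (by ring)

/-- the underlying element of `HF` -/
def toHF : Hol K ≃L[ℝ] HF (1 / 2) K ℝ :=
  { (toL : Hol K ≃ₗ[ℝ] HF (1 / 2) K ℝ) with
    continuous_toFun := by
      refine (LinearMap.mkContinuous (toL : Hol K ≃ₗ[ℝ] HF (1 / 2) K ℝ).toLinearMap 1
        fun f => ?_).continuous
      rw [norm_def]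
      have := norm_nonneg (toL f)
      show ‖toL f‖ ≤ _
      linarith
    continuous_invFun := by
      refine (LinearMap.mkContinuous (toL : Hol K ≃ₗ[ℝ] HF (1 / 2) K ℝ).symm.toLinearMap 2
        fun f => ?_).continuous
      show ‖toL.symm f‖ ≤ _
      rw [norm_def, LinearEquiv.apply_symm_apply] }

theorem norm_toHF (f : Hol K) : ‖f‖ = 2 * ‖toHF f‖ := norm_def f

instance : CompleteSpace (Hol K) :=
  (toHF (K := K)).isUniformEmbedding.isUniformInducing.completeSpace_congr
    (toHF (K := K)).surjective |>.2 inferInstance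

/-- values -/
def fn (f : Hol K) (x : E) : ℝ := HF.fn (toHF f) x

/-- the element of a function -/
def of (K : Set E) (f : E → ℝ) : Hol K := toHF.symm (HF.of (1 / 2) K f)

theorem ext {f g : Hol K} (h : ∀ x ∈ K, fn f x = fn g x) : f = g :=
  toHF.injective (HF.ext h)

theorem fn_of {f : E → ℝ} {C : ℝ} (h : Bd (1 / 2) K f C) {x : E} (hx : x ∈ K) :
    fn (of K f) x = f x := by
  rw [fn, of, ContinuousLinearEquiv.apply_symm_apply]
  exact HF.fn_of h hx

theorem norm_of {f : E → ℝ} {C : ℝ} (h : Bd (1 / 2) K f C) : ‖of K f‖ ≤ 2 * C := by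
  rw [norm_toHF, of, ContinuousLinearEquiv.apply_symm_apply]
  linarith [HF.norm_of h]

theorem bd (f : Hol K) : Bd (1 / 2) K (fn f) (‖f‖ / 2) := by
  have := HF.bd half_pos' (toHF f)
  rw [norm_toHF]
  exact this.mono (by linarith)

theorem eq_of {g : Hol K} {f : E → ℝ} {C : ℝ} (h : Bd (1 / 2) K f C)
    (hg : ∀ x ∈ K, fn g x = f x) : g = of K f :=
  ext fun x hx => by rw [fn_of h hx, hg x hx]

@[simp] theorem fn_add (f g : Hol K) (x : E) : fn (f + g) x = fn f x + fn g x := by
  simp [fn]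

@[simp] theorem fn_sub (f g : Hol K) (x : E) : fn (f - g) x = fn f x - fn g x := by
  simp [fn]

@[simp] theorem fn_zero (x : E) : fn (0 : Hol K) x = 0 := by
  simp [fn]

@[simp] theorem fn_neg (f : Hol K) (x : E) : fn (-f) x = -fn f x := by
  have := fn_sub 0 f x
  rw [zero_sub, fn_zero, zero_sub] at this
  exact this

@[simp] theorem fn_smul (c : ℝ) (f : Hol K) (x : E) : fn (c • f) x = c * fn f x := by
  simp [fn]

theorem bd_const (c : ℝ) : Bd (1 / 2) K (fun _ : E => c) |c| :=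
  ⟨abs_nonneg c, fun _ _ => le_rfl, fun x _ y _ => by simp; positivity⟩

instance : Mul (Hol K) :=
  ⟨fun f g => toHF.symm (HF.bil half_pos' (ContinuousLinearMap.mul ℝ ℝ) (toHF f) (toHF g))⟩

instance : One (Hol K) := ⟨of K fun _ => 1⟩

theorem mul_def (f g : Hol K) : f * g =
    toHF.symm (HF.bil half_pos' (ContinuousLinearMap.mul ℝ ℝ) (toHF f) (toHF g)) := rfl

theorem fn_mul (f g : Hol K) {x : E} (hx : x ∈ K) : fn (f * g) x = fn f x * fn g x := by
  rw [fn, mul_def, ContinuousLinearEquiv.apply_symm_apply, HF.fn_bil half_pos' _ _ _ hx]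
  rfl

theorem fn_one {x : E} (hx : x ∈ K) : fn (1 : Hol K) x = 1 :=
  fn_of (bd_const 1) hx

instance : CommRing (Hol K) :=
  { (inferInstance : AddCommGroup (Hol K)), (inferInstance : Mul (Hol K)),
    (inferInstance : One (Hol K)) with
    mul_assoc := fun f g h => ext fun x hx => by
      rw [fn_mul _ _ hx, fn_mul _ _ hx, fn_mul _ _ hx, fn_mul _ _ hx, mul_assoc]
    mul_comm := fun f g => ext fun x hx => by
      rw [fn_mul _ _ hx, fn_mul _ _ hx, mul_comm]
    one_mul := fun f => ext fun x hx => by rw [fn_mul _ _ hx, fn_one hx, one_mul]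
    mul_one := fun f => ext fun x hx => by rw [fn_mul _ _ hx, fn_one hx, mul_one]
    left_distrib := fun f g h => ext fun x hx => by
      rw [fn_mul _ _ hx, fn_add, fn_add, fn_mul _ _ hx, fn_mul _ _ hx, mul_add]
    right_distrib := fun f g h => ext fun x hx => by
      rw [fn_mul _ _ hx, fn_add, fn_add, fn_mul _ _ hx, fn_mul _ _ hx, add_mul]
    zero_mul := fun f => ext fun x hx => by rw [fn_mul _ _ hx, fn_zero, zero_mul]
    mul_zero := fun f => ext fun x hx => by rw [fn_mul _ _ hx, fn_zero, mul_zero] }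

theorem norm_mul_le' (f g : Hol K) : ‖f * g‖ ≤ ‖f‖ * ‖g‖ := by
  have hb := (bd f).bil (bd g) (ContinuousLinearMap.mul ℝ ℝ)
  have h1 : f * g = of K (fun x => ContinuousLinearMap.mul ℝ ℝ (fn f x) (fn g x)) :=
    eq_of hb fun x hx => by rw [fn_mul _ _ hx]; rfl
  rw [h1]
  refine (norm_of hb).trans ?_
  have h2 : ‖ContinuousLinearMap.mul ℝ ℝ‖ ≤ 1 := ContinuousLinearMap.opNorm_mul_le ℝ ℝ
  have h3 := norm_nonneg f
  have h4 := norm_nonneg g
  have h5 : 0 ≤ ‖f‖ * ‖g‖ := by positivity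
  nlinarith [mul_le_mul_of_nonneg_right h2 h5]

instance : NormedCommRing (Hol K) :=
  { (inferInstance : NormedAddCommGroup (Hol K)), (inferInstance : CommRing (Hol K)) with
    norm_mul_le := norm_mul_le' }

instance : NormedAlgebra ℝ (Hol K) :=
  { Algebra.ofModule (R := ℝ) (A := Hol K)
      (fun c f g => ext fun x hx => by
        rw [fn_mul _ _ hx, fn_smul, fn_smul, fn_mul _ _ hx, mul_assoc])
      (fun c f g => ext fun x hx => by
        rw [fn_mul _ _ hx, fn_smul, fn_smul, fn_mul _ _ hx]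
        ring) with
    norm_smul_le := fun c f => norm_smul_le c f }

/-- evaluation at a point of `K` -/
def val {x : E} (hx : x ∈ K) : Hol K →ₐ[ℝ] ℝ :=
  AlgHom.ofLinearMap
    { toFun := fun f => fn f x
      map_add' := fun f g => fn_add f g x
      map_smul' := fun c f => fn_smul c f x } (fn_one hx) (fun f g => fn_mul f g hx)

@[simp] theorem val_apply {x : E} (hx : x ∈ K) (f : Hol K) : val hx f = fn f x := rfl

theorem abs_fn_le (f : Hol K) {x : E} (hx : x ∈ K) : |fn f x| ≤ ‖f‖ := by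
  have h := (bd f).bd x hx
  have := norm_nonneg f
  rw [Real.norm_eq_abs] at h
  linarith

/-- evaluation is continuous -/
def valL (x : E) : Hol K →L[ℝ] ℝ := (HF.ev half_pos' x).comp (toHF : Hol K ≃L[ℝ] _).toContinuousLinearMap

@[simp] theorem valL_apply (x : E) (f : Hol K) : valL x f = fn f x := rfl

/-- inverse of a Hölder function bounded below -/
theorem exists_inv {f : Hol K} {c : ℝ} (hc : 0 < c) (hf : ∀ x ∈ K, c ≤ |fn f x|) :
    ∃ g : Hol K, f * g = 1 ∧ ∀ x ∈ K, fn g x = (fn f x)⁻¹ := by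
  have hne : ∀ x ∈ K, fn f x ≠ 0 := fun x hx h => by
    have := hf x hx
    rw [h, abs_zero] at this
    linarith
  have hb : Bd (1 / 2) K (fun x => (fn f x)⁻¹) (c⁻¹ + c⁻¹ * c⁻¹ * ‖f‖) := by
    refine ⟨by positivity, fun x hx => ?_, fun x hx y hy => ?_⟩
    · rw [Real.norm_eq_abs, abs_inv]
      have h1 : |fn f x|⁻¹ ≤ c⁻¹ := inv_anti₀ hc (hf x hx)
      have h2 : 0 ≤ c⁻¹ * c⁻¹ * ‖f‖ := by positivity
      linarith
    · have h0 := (bd f).hol x hx y hy
      have e : (fn f x)⁻¹ - (fn f y)⁻¹ = -((fn f x)⁻¹ * (fn f y)⁻¹ * (fn f x - fn f y)) := by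
        have h1 := hne x hx
        have h2 := hne y hy
        field_simp
        ring
      rw [e, norm_neg, norm_mul, norm_mul, norm_inv, norm_inv, Real.norm_eq_abs,
        Real.norm_eq_abs]
      have h1 : |fn f x|⁻¹ ≤ c⁻¹ := inv_anti₀ hc (hf x hx)
      have h2 : |fn f y|⁻¹ ≤ c⁻¹ := inv_anti₀ hc (hf y hy)
      have h3 : 0 ≤ |fn f y|⁻¹ := by positivity
      have h4 : 0 ≤ ‖x - y‖ ^ (1 / 2 : ℝ) := by positivity
      have h5 := norm_nonneg f
      calc |fn f x|⁻¹ * |fn f y|⁻¹ * ‖fn f x - fn f y‖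
          ≤ c⁻¹ * c⁻¹ * (‖f‖ / 2 * ‖x - y‖ ^ (1 / 2 : ℝ)) := by gcongr
        _ ≤ (c⁻¹ + c⁻¹ * c⁻¹ * ‖f‖) * ‖x - y‖ ^ (1 / 2 : ℝ) := by
          have h6 : 0 ≤ c⁻¹ * ‖x - y‖ ^ (1 / 2 : ℝ) := by positivity
          have h7 : 0 ≤ c⁻¹ * c⁻¹ * ‖f‖ * ‖x - y‖ ^ (1 / 2 : ℝ) := by positivity
          nlinarith
  refine ⟨of K fun x => (fn f x)⁻¹, ext fun x hx => ?_, fun x hx => fn_of hb hx⟩
  rw [fn_mul _ _ hx, fn_of hb hx, fn_one hx, mul_inv_cancel₀ (hne x hx)]

theorem isUnit_of {f : Hol K} {c : ℝ} (hc : 0 < c) (hf : ∀ x ∈ K, c ≤ |fn f x|) : IsUnit f := by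
  obtain ⟨g, hg, -⟩ := exists_inv hc hf
  exact IsUnit.of_mul_eq_one g hg

/-- determinants are computed pointwise -/
theorem fn_det {m : Type} [DecidableEq m] [Fintype m] (A : Matrix m m (Hol K)) {x : E}
    (hx : x ∈ K) : fn A.det x = (A.map fun f => fn f x).det := by
  exact (val hx).toRingHom.map_det A

theorem fn_sum {ι : Type*} (s : Finset ι) (f : ι → Hol K) (x : E) :
    fn (∑ i ∈ s, f i) x = ∑ i ∈ s, fn (f i) x :=
  map_sum (valL x) f s

variable {P : Type} [NormedAddCommGroup P] [NormedSpace ℝ P]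

/-- jointly smooth functions are smooth families -/
theorem contDiffOn_of (hK : IsCompact K) (hKc : Convex ℝ K)
    {O : Set P} (hO : IsOpen O) {U : Set E} (hU : IsOpen U) (hKU : K ⊆ U) {c : P × E → ℝ}
    (hc : ContDiffOn ℝ ∞ c (O ×ˢ U)) :
    ContDiffOn ℝ ∞ (fun p => of K (fun x => c (p, x))) O :=
  (ContinuousLinearEquiv.contDiff (toHF (K := K)).symm).comp_contDiffOn
    (Hjs_680.contDiffOn_of half_pos' (by norm_num) hK hKc hO hU hKU hc)

end Hol

/-- determinants of matrices over a commutative Banach algebra are smooth -/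
theorem contDiff_det {R : Type} [NormedCommRing R] [NormedAlgebra ℝ R] {X : Type}
    [NormedAddCommGroup X] [NormedSpace ℝ X] {m : Type} [DecidableEq m] [Fintype m] {n : ℕ∞ω}
    {A : X → Matrix m m R} {s : Set X} (hA : ∀ i j, ContDiffOn ℝ n (fun p => A p i j) s) :
    ContDiffOn ℝ n (fun p => (A p).det) s := by
  simp only [Matrix.det_apply]
  refine ContDiffOn.sum fun σ _ => ?_
  have h1 : ContDiffOn ℝ n (fun p => ∏ i ∈ Finset.univ, A p (σ i) i) s := by
    have : ∀ t : Finset m, ContDiffOn ℝ n (fun p => ∏ i ∈ t, A p (σ i) i) s := by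
      intro t
      induction t using Finset.induction_on with
      | empty =>
        simp only [Finset.prod_empty]
        exact contDiffOn_const
      | insert i t hi ih =>
        simp only [Finset.prod_insert hi]
        exact (hA (σ i) i).mul ih
    exact this _
  have h2 : (fun p => Equiv.Perm.sign σ • ∏ i, A p (σ i) i) =
      fun p => (((Equiv.Perm.sign σ : ℤ) : ℝ)) • ∏ i, A p (σ i) i := by
    funext p
    rw [Units.smul_def, ← Int.cast_smul_eq_zsmul ℝ]
  rw [h2]
  exact h1.const_smul (((Equiv.Perm.sign σ : ℤ) : ℝ))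

end

end Crest.Agent.R281.Hjs_680
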