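import Crest.Agent.R281.Hjs3_680

/-!
# Row 281, YAU-VAR (helper680), part 4: `C^{2,1/2}` jets on a compact convex set

* `isClosed_deriv`  : the pairs `(u, v)` with `v = Du` on the interior are closed
* `Jet K`, `jet f`  : jets of order 2 with Hölder entries
* `Jet.isClosed_c2` : the honest jets (derivatives on the interior, symmetric) are closed
* `Jet.c2`          : the function of an honest jet is `C²` on the interior
* `Jet.comp_smooth` : composition with bounded linear operators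
-/

set_option autoImplicit false
set_option linter.unusedSectionVars false

open Set Filter Topology
open scoped ContDiff

namespace Crest.Agent.R281.Hjs_680

noncomputable section

variable {E : Type} [NormedAddCommGroup E] [NormedSpace ℝ E]
variable {F G : Type} [NormedAddCommGroup F] [NormedSpace ℝ F]
  [NormedAddCommGroup G] [NormedSpace ℝ G]
variable {a : ℝ} {K : Set E}

theorem HF.tendstoUniformlyOn {ι : Type*} {l : Filter ι} {u : ι → HF a K F} {v : HF a K F}
    (h : Tendsto u l (𝓝 v)) (s : Set E) :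
    TendstoUniformlyOn (fun i x => HF.fn (u i) x) (fun x => HF.fn v x) l s := by
  rw [Metric.tendstoUniformlyOn_iff]
  intro ε hε
  filter_upwards [Metric.tendsto_nhds.1 h ε hε] with i hi x _
  rw [dist_comm, dist_eq_norm, ← HF.fn_sub]
  rw [dist_eq_norm] at hi
  exact (HF.norm_fn _ _).trans_lt hi

theorem HF.tendsto_fn {ι : Type*} {l : Filter ι} {u : ι → HF a K F} {v : HF a K F}
    (h : Tendsto u l (𝓝 v)) (x : E) : Tendsto (fun i => HF.fn (u i) x) l (𝓝 (HF.fn v x)) :=
  (HF.tendstoUniformlyOn h univ).tendsto_at (mem_univ x)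

/-- being the derivative is a closed condition -/
theorem isClosed_deriv : IsClosed {z : HF a K F × HF a K (E →L[ℝ] F) |
    ∀ x ∈ interior K, HasFDerivAt (HF.fn z.1) (HF.fn z.2 x) x} := by
  refine IsSeqClosed.isClosed fun u z hu hz => ?_
  intro x hx
  have h1 : Tendsto (fun n => (u n).1) atTop (𝓝 z.1) := (continuous_fst.tendsto z).comp hz
  have h2 : Tendsto (fun n => (u n).2) atTop (𝓝 z.2) := (continuous_snd.tendsto z).comp hz
  exact hasFDerivAt_of_tendstoUniformlyOn isOpen_interior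
    (HF.tendstoUniformlyOn h2 (interior K)) (fun n x hx => hu n x hx)
    (fun x _ => HF.tendsto_fn h1 x) hx

/-- jets of order 2 -/
abbrev Jet (K : Set E) : Type :=
  HF (1 / 2) K ℝ × HF (1 / 2) K (E →L[ℝ] ℝ) × HF (1 / 2) K (E →L[ℝ] E →L[ℝ] ℝ)

/-- honest jets -/
def Jet.Honest (z : Jet K) : Prop :=
  (∀ x ∈ interior K, HasFDerivAt (HF.fn z.1) (HF.fn z.2.1 x) x) ∧
    ∀ x ∈ interior K, HasFDerivAt (HF.fn z.2.1) (HF.fn z.2.2 x) x

theorem Jet.isClosed_honest : IsClosed {z : Jet K | z.Honest} := by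
  have h1 : IsClosed {z : Jet K | ∀ x ∈ interior K, HasFDerivAt (HF.fn z.1) (HF.fn z.2.1 x) x} :=
    (isClosed_deriv (a := 1 / 2) (K := K) (F := ℝ)).preimage
      (f := fun z : Jet K => (z.1, z.2.1)) (by fun_prop)
  have h2 : IsClosed {z : Jet K | ∀ x ∈ interior K,
      HasFDerivAt (HF.fn z.2.1) (HF.fn z.2.2 x) x} :=
    (isClosed_deriv (a := 1 / 2) (K := K) (F := E →L[ℝ] ℝ)).preimage
      (f := fun z : Jet K => (z.2.1, z.2.2)) (by fun_prop)
  exact h1.inter h2

theorem HF.continuousOn_fn (ha : 0 < a) (g : HF a K F) : ContinuousOn (HF.fn g) K := by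
  intro x hx
  rw [ContinuousWithinAt, tendsto_iff_norm_sub_tendsto_zero]
  have h1 : Tendsto (fun y => ‖g‖ * ‖y - x‖ ^ a) (𝓝[K] x) (𝓝 (‖g‖ * ‖x - x‖ ^ a)) := by
    refine Tendsto.mono_left ?_ nhdsWithin_le_nhds
    refine ((continuous_const.mul ?_).tendsto x)
    exact (continuous_id.sub continuous_const).norm.rpow_const fun _ => Or.inr ha.le
  rw [sub_self, norm_zero, Real.zero_rpow ha.ne', mul_zero] at h1
  refine squeeze_zero' (Eventually.of_forall fun y => norm_nonneg _) ?_ h1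
  filter_upwards [self_mem_nhdsWithin] with y hy
  exact HF.norm_fn_sub ha g hy hx

theorem Jet.Honest.fderiv1 {z : Jet K} (h : z.Honest) {x : E} (hx : x ∈ interior K) :
    fderiv ℝ (HF.fn z.1) x = HF.fn z.2.1 x := (h.1 x hx).fderiv

theorem Jet.Honest.fderiv2 {z : Jet K} (h : z.Honest) {x : E} (hx : x ∈ interior K) :
    fderiv ℝ (fderiv ℝ (HF.fn z.1)) x = HF.fn z.2.2 x := by
  have : fderiv ℝ (HF.fn z.1) =ᶠ[𝓝 x] HF.fn z.2.1 := by
    filter_upwards [isOpen_interior.mem_nhds hx] with y hy using h.fderiv1 hy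
  rw [this.fderiv_eq, (h.2 x hx).fderiv]

/-- the function of an honest jet is `C²` on the interior -/
theorem Jet.Honest.c2 {z : Jet K} (h : z.Honest) : ContDiffOn ℝ 2 (HF.fn z.1) (interior K) := by
  rw [show (2 : ℕ∞ω) = 1 + 1 by norm_num, contDiffOn_succ_iff_fderiv_of_isOpen isOpen_interior]
  refine ⟨fun x hx => (h.1 x hx).differentiableAt.differentiableWithinAt, by simp, ?_⟩
  have h1 : ContDiffOn ℝ 1 (HF.fn z.2.1) (interior K) := by
    rw [show (1 : ℕ∞ω) = 0 + 1 by norm_num,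
      contDiffOn_succ_iff_fderiv_of_isOpen isOpen_interior]
    refine ⟨fun x hx => (h.2 x hx).differentiableAt.differentiableWithinAt, by simp, ?_⟩
    rw [contDiffOn_zero]
    exact ((HF.continuousOn_fn half_pos' z.2.2).mono interior_subset).congr
      fun x hx => (h.2 x hx).fderiv
  exact h1.congr fun x hx => h.fderiv1 hx

/-- the jet of a function -/
def jet (K : Set E) (f : E → ℝ) : Jet K :=
  (HF.of (1 / 2) K f, HF.of (1 / 2) K (fderiv ℝ f), HF.of (1 / 2) K (fderiv ℝ (fderiv ℝ f)))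

section smooth

variable (hK : IsCompact K) (hKc : Convex ℝ K) {U : Set E} (hU : IsOpen U) (hKU : K ⊆ U)
include hK hKc hU hKU

theorem bd0 {f : E → ℝ} (hf : ContDiffOn ℝ 3 f U) : ∃ C, Bd (1 / 2) K f C :=
  exists_bd half_pos' (by norm_num) hK hKc hU hKU (hf.of_le (by norm_num))

theorem bd1 {f : E → ℝ} (hf : ContDiffOn ℝ 3 f U) : ∃ C, Bd (1 / 2) K (fderiv ℝ f) C :=
  exists_bd half_pos' (by norm_num) hK hKc hU hKU
    ((hf.fderiv_of_isOpen hU (m := 2) (by norm_num)).of_le (by norm_num))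

theorem bd2 {f : E → ℝ} (hf : ContDiffOn ℝ 3 f U) :
    ∃ C, Bd (1 / 2) K (fderiv ℝ (fderiv ℝ f)) C :=
  exists_bd half_pos' (by norm_num) hK hKc hU hKU
    ((hf.fderiv_of_isOpen hU (m := 2) (by norm_num)).fderiv_of_isOpen hU (m := 1) (by norm_num))

theorem fn_jet0 {f : E → ℝ} (hf : ContDiffOn ℝ 3 f U) {x : E} (hx : x ∈ K) :
    HF.fn (jet K f).1 x = f x := by
  obtain ⟨C, hC⟩ := bd0 hK hKc hU hKU hf
  exact HF.fn_of hC hx

theorem fn_jet1 {f : E → ℝ} (hf : ContDiffOn ℝ 3 f U) {x : E} (hx : x ∈ K) :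
    HF.fn (jet K f).2.1 x = fderiv ℝ f x := by
  obtain ⟨C, hC⟩ := bd1 hK hKc hU hKU hf
  exact HF.fn_of hC hx

theorem fn_jet2 {f : E → ℝ} (hf : ContDiffOn ℝ 3 f U) {x : E} (hx : x ∈ K) :
    HF.fn (jet K f).2.2 x = fderiv ℝ (fderiv ℝ f) x := by
  obtain ⟨C, hC⟩ := bd2 hK hKc hU hKU hf
  exact HF.fn_of hC hx

theorem jet_honest {f : E → ℝ} (hf : ContDiffOn ℝ 3 f U) : (jet K f).Honest := by
  have hnb : ∀ x ∈ interior K, interior K ∈ 𝓝 x := fun x hx => isOpen_interior.mem_nhds hx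
  constructor
  · intro x hx
    have hxK := interior_subset hx
    rw [fn_jet1 hK hKc hU hKU hf hxK]
    have h1 : HasFDerivAt f (fderiv ℝ f x) x :=
      ((hf.differentiableOn (by norm_num) x (hKU hxK)).differentiableAt
        (hU.mem_nhds (hKU hxK))).hasFDerivAt
    refine h1.congr_of_eventuallyEq ?_
    filter_upwards [hnb x hx] with y hy using fn_jet0 hK hKc hU hKU hf (interior_subset hy)
  · intro x hx
    have hxK := interior_subset hx
    rw [fn_jet2 hK hKc hU hKU hf hxK]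
    have h2 : ContDiffOn ℝ 2 (fderiv ℝ f) U := hf.fderiv_of_isOpen hU (by norm_num)
    have h1 : HasFDerivAt (fderiv ℝ f) (fderiv ℝ (fderiv ℝ f) x) x :=
      ((h2.differentiableOn (by norm_num) x (hKU hxK)).differentiableAt
        (hU.mem_nhds (hKU hxK))).hasFDerivAt
    refine h1.congr_of_eventuallyEq ?_
    filter_upwards [hnb x hx] with y hy using fn_jet1 hK hKc hU hKU hf (interior_subset hy)

theorem jet_add {f g : E → ℝ} (hf : ContDiffOn ℝ 3 f U) (hg : ContDiffOn ℝ 3 g U) :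
    jet K (fun x => f x + g x) = jet K f + jet K g := by
  have hd : ∀ x ∈ U, fderiv ℝ (fun x => f x + g x) x = fderiv ℝ f x + fderiv ℝ g x := fun x hx =>
    fderiv_fun_add ((hf.differentiableOn (by norm_num) x hx).differentiableAt (hU.mem_nhds hx))
      ((hg.differentiableOn (by norm_num) x hx).differentiableAt (hU.mem_nhds hx))
  have hdd : ∀ x ∈ U, fderiv ℝ (fderiv ℝ (fun x => f x + g x)) x =
      fderiv ℝ (fderiv ℝ f) x + fderiv ℝ (fderiv ℝ g) x := by
    intro x hx
    have e : fderiv ℝ (fun x => f x + g x) =ᶠ[𝓝 x] fun x => fderiv ℝ f x + fderiv ℝ g x := by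
      filter_upwards [hU.mem_nhds hx] with y hy using hd y hy
    rw [e.fderiv_eq]
    exact fderiv_fun_add
      (((hf.fderiv_of_isOpen hU (m := 2) (by norm_num)).differentiableOn (by norm_num) x
        hx).differentiableAt (hU.mem_nhds hx))
      (((hg.fderiv_of_isOpen hU (m := 2) (by norm_num)).differentiableOn (by norm_num) x
        hx).differentiableAt (hU.mem_nhds hx))
  refine Prod.ext ?_ (Prod.ext ?_ ?_)
  · refine HF.ext fun x hx => ?_
    rw [Prod.fst_add, HF.fn_add, fn_jet0 hK hKc hU hKU (hf.add hg) hx,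
      fn_jet0 hK hKc hU hKU hf hx, fn_jet0 hK hKc hU hKU hg hx]
  · refine HF.ext fun x hx => ?_
    rw [Prod.snd_add, Prod.fst_add, HF.fn_add, fn_jet1 hK hKc hU hKU (hf.add hg) hx,
      fn_jet1 hK hKc hU hKU hf hx, fn_jet1 hK hKc hU hKU hg hx]
    exact hd x (hKU hx)
  · refine HF.ext fun x hx => ?_
    rw [Prod.snd_add, Prod.snd_add, HF.fn_add, fn_jet2 hK hKc hU hKU (hf.add hg) hx,
      fn_jet2 hK hKc hU hKU hf hx, fn_jet2 hK hKc hU hKU hg hx]
    exact hdd x (hKU hx)

theorem jet_smul {f : E → ℝ} (hf : ContDiffOn ℝ 3 f U) (c : ℝ) :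
    jet K (fun x => c * f x) = c • jet K f := by
  have hd : ∀ x ∈ U, fderiv ℝ (fun x => c * f x) x = c • fderiv ℝ f x := fun x hx =>
    fderiv_const_mul ((hf.differentiableOn (by norm_num) x hx).differentiableAt
      (hU.mem_nhds hx)) c
  have hcf : ContDiffOn ℝ 3 (fun x => c * f x) U := contDiffOn_const.mul hf
  have hdd : ∀ x ∈ U, fderiv ℝ (fderiv ℝ (fun x => c * f x)) x =
      c • fderiv ℝ (fderiv ℝ f) x := by
    intro x hx
    have e : fderiv ℝ (fun x => c * f x) =ᶠ[𝓝 x] fun x => c • fderiv ℝ f x := by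
      filter_upwards [hU.mem_nhds hx] with y hy using hd y hy
    rw [e.fderiv_eq]
    exact fderiv_fun_const_smul
      (((hf.fderiv_of_isOpen hU (m := 2) (by norm_num)).differentiableOn (by norm_num) x
        hx).differentiableAt (hU.mem_nhds hx)) c
  refine Prod.ext ?_ (Prod.ext ?_ ?_)
  · refine HF.ext fun x hx => ?_
    rw [Prod.smul_fst, HF.fn_smul, fn_jet0 hK hKc hU hKU hcf hx, fn_jet0 hK hKc hU hKU hf hx,
      smul_eq_mul]
  · refine HF.ext fun x hx => ?_
    rw [Prod.smul_snd, Prod.smul_fst, HF.fn_smul, fn_jet1 hK hKc hU hKU hcf hx,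
      fn_jet1 hK hKc hU hKU hf hx]
    exact hd x (hKU hx)
  · refine HF.ext fun x hx => ?_
    rw [Prod.smul_snd, Prod.smul_snd, HF.fn_smul, fn_jet2 hK hKc hU hKU hcf hx,
      fn_jet2 hK hKc hU hKU hf hx]
    exact hdd x (hKU hx)

/-- bound of the jet -/
theorem norm_jet_le {f : E → ℝ} {C : ℝ} (h0 : Bd (1 / 2) K f C)
    (h1 : Bd (1 / 2) K (fderiv ℝ f) C) (h2 : Bd (1 / 2) K (fderiv ℝ (fderiv ℝ f)) C) :
    ‖jet K f‖ ≤ C :=
  max_le (HF.norm_of h0) (max_le (HF.norm_of h1) (HF.norm_of h2))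

end smooth

end

end Crest.Agent.R281.Hjs_680
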