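import Crest.Agent.R281.Hk2_389
import Crest.Agent.R273.FId0_597

/-!
# R281 (S0424), S6-HARN (Hc), part 3 (helper389): Stokes on a leaf, the comparison

`T` not necessarily compact, `B : Atl n T` countable, `P : Part B`.
* `int_eq_tot` : the measure of `h` and the total integral, compact support
* `int_det_zero` : `∫ det ∂∂̄u = 0` for `u` smooth with compact support, `0 < n`
* `Dom B m` : `F : V → Fin m → ℂ` holomorphic, `V` open, `{b ≤ 1}` compact, `b = ∑ |F_k|²`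
* `Dom.compare` : `(1/(32 e))^n ∫_{b ≤ e} det ∂∂̄b ≤ ∫_{b ≤ 1/2} det ∂∂̄b`
-/

set_option autoImplicit false
set_option linter.unusedSectionVars false

open Set Filter Topology Complex MeasureTheory
open scoped ContDiff Matrix ComplexConjugate ComplexOrder

namespace Crest.Agent.R281.Hk_389

open Crest.Agent.R275 Crest.Agent.R275.Geo Crest.Agent.R275.Core144 Crest.Agent.R275.EDR890
open Crest.Agent.R275.Pai323 Crest.Agent.R275.C1d194
open Crest.Agent.R275.SerG398 (lint)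
open Crest.Agent.R273.Defs_333 Crest.Agent.R273.Hess_333 Crest.Agent.R273.HessB_333
open Crest.Agent.R273.HM_333 Crest.Agent.R273.Kah_333 Crest.Agent.R273.Vol_333
open Crest.Agent.R273.Vm_333 Crest.Agent.R273.StV_37
open Crest.Agent.R273.Green_5 Crest.Agent.R273.FIa0_597 Crest.Agent.R273.FIb0_597
open Crest.Agent.R273.FId0_597 Crest.Agent.R273
open Crest.Agent.R273.FS_333 (sq hess_sq wd_sq wd_sq' contDiffAt_of_hol)
open Crest.Agent.R281.Glob1_484

noncomputable section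

variable {n m : ℕ} {T : Type} [TopologicalSpace T] {B : Atl n T}

theorem dtM_eq' (h : HM (KB B)⁻¹) {S : B.ι → T → Matrix (Fin n) (Fin n) ℂ} (hS : TF B S)
    {i : B.ι} {x : T} (hx : x ∈ (B.e i).source) : dtM h S x = (S i x).det.re / h.w i x := by
  rw [← dtC_re, dtC_eq h hS hx, Complex.div_ofReal_re]

/-- functions which agree near `x` have the same `∂∂̄` -/
theorem hsf_ev {f g : T → ℝ} {x : T} (h : f =ᶠ[𝓝 x] g) {i : B.ι} (hx : x ∈ (B.e i).source) :
    hsf B f i x = hsf B g i x := by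
  refine hess_congr ?_
  have hc : Tendsto (B.e i).symm (𝓝 (B.e i x)) (𝓝 x) := by
    have := (B.e i).continuousAt_symm ((B.e i).map_source hx)
    rw [ContinuousAt, (B.e i).left_inv hx] at this
    exact this
  exact hc.eventually h

/-! ### integrals on a non compact manifold -/

section noncpt

variable [T2Space T] [Countable B.ι] [MeasurableSpace T] [BorelSpace T]

theorem integrable_cc {E : Type*} [NormedAddCommGroup E] [NormedSpace ℝ E]
    [SecondCountableTopologyEither T E] (h : HM (KB B)⁻¹) {f : T → E}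
    (hf : Continuous f) {K : Set T} (hK : IsCompact K) (h0 : ∀ x ∉ K, f x = 0) :
    Integrable f (vm h) := by
  have := isLocallyFinite_vm h
  have h1 : IntegrableOn f K (vm h) := hf.continuousOn.integrableOn_compact hK
  refine (integrableOn_iff_integrable_of_support_subset ?_).1 h1
  intro x hx
  by_contra hxK
  exact hx (h0 x hxK)

/-- bridge from the measure of `h` to the total integral of densities, compact support -/
theorem int_eq_tot (P : Part B) (h : HM (KB B)⁻¹) {f : T → ℂ} {G : B.ι → T → ℂ}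
    (hf : Continuous f) {K : Set T} (hK : IsCompact K) (h0 : ∀ x ∉ K, f x = 0)
    (hG : ∀ i, ∀ x ∈ (B.e i).source, (h.w i x : ℂ) * f x = G i x) :
    ∫ x, f x ∂(vm h) = tot P (Fn P hK) G := by
  have hint : ∀ i, Integrable (fun x => (P.ψ i x : ℂ) * f x) (vm h) := by
    intro i
    have hc : Continuous fun x => (P.ψ i x : ℂ) :=
      Complex.continuous_ofReal.comp (sm_continuous (P.ψ_sm i))
    exact integrable_cc h (hc.mul hf) hK fun x hx => by rw [h0 x hx, mul_zero]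
  have h1 : (fun x => f x) = fun x => ∑ i ∈ Fn P hK, (P.ψ i x : ℂ) * f x := by
    funext x
    rw [← Finset.sum_mul]
    by_cases hx : x ∈ K
    · rw [sum_psiC P hK (Finset.Subset.refl _) hx, one_mul]
    · rw [h0 x hx, mul_zero]
  calc ∫ x, f x ∂(vm h) = ∫ x, ∑ i ∈ Fn P hK, (P.ψ i x : ℂ) * f x ∂(vm h) := by rw [← h1]
    _ = ∑ i ∈ Fn P hK, ∫ x, (P.ψ i x : ℂ) * f x ∂(vm h) := integral_finsetSum _ fun i _ => hint i
    _ = _ := by
      unfold tot
      refine Finset.sum_congr rfl fun i _ => ?_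
      have h3 : ∫ x, (P.ψ i x : ℂ) * f x ∂(vm h) =
          ∫ x in (B.e i).source, (P.ψ i x : ℂ) * f x ∂(vm h) := by
        symm
        refine setIntegral_eq_integral_of_forall_compl_eq_zero fun x hx => ?_
        rw [psi_off P hx, Complex.ofReal_zero, zero_mul]
      rw [h3, setIntegral_vm h i (hint i).aestronglyMeasurable]
      unfold Crest.Agent.R275.SerG398.lint
      symm
      rw [← setIntegral_eq_integral_of_forall_compl_eq_zero (s := Ui B i)
        (fun y hy => rd_off hy)]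
      refine setIntegral_congr_fun (Vm_333.isOpen_Ui i).measurableSet fun y hy => ?_
      rw [rd_of_mem hy]
      change (P.ψ i (sg B i y) : ℂ) * G i (sg B i y) =
        (h.w i (sg B i y)) • ((P.ψ i (sg B i y) : ℂ) * f (sg B i y))
      rw [← hG i _ (sg_mem hy), Complex.real_smul]
      ring

theorem cont_dtM' (h : HM (KB B)⁻¹) {S : B.ι → T → Matrix (Fin n) (Fin n) ℂ} (hS : TF B S) :
    Continuous (dtM h S) := by
  have h1 : dtM h S = fun x => (dtC h S x).re := by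
    funext x; rw [dtC_re]
  rw [h1]
  exact Complex.continuous_re.comp (sm_continuous (sm_dtC h hS))

theorem dtC_zero (hn : 0 < n) (h : HM (KB B)⁻¹) {u : T → ℝ} {K : Set T} (hK : IsClosed K)
    (h0 : ∀ x ∉ K, u x = 0) {x : T} (hx : x ∉ K) : dtC h (hsf B u) x = 0 := by
  have h1 : u =ᶠ[𝓝 x] fun _ => 0 := by
    filter_upwards [hK.isOpen_compl.mem_nhds hx] with y hy
    exact h0 y hy
  have h2 : hsf B u (ch B x) x = 0 := by
    rw [hsf_ev h1 (mem_ch B x)]
    ext a b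
    show hess (fun _ => (0 : ℝ)) _ a b = _
    rw [hess_apply]
    have h3 : wd (true, b) (cu (fun _ : Cn n => (0 : ℝ))) = fun _ => 0 := by
      funext z
      have : cu (fun _ : Cn n => (0 : ℝ)) = fun _ => 0 := by
        funext z; simp [cu]
      rw [this]
      simp [wd, wdL]
    rw [h3]
    simp [wd, wdL]
  have : Nonempty (Fin n) := ⟨⟨0, hn⟩⟩
  unfold dtC
  rw [h2, Matrix.det_zero, zero_div]

theorem dtM_zero (hn : 0 < n) (h : HM (KB B)⁻¹) {u : T → ℝ} {K : Set T} (hK : IsClosed K)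
    (h0 : ∀ x ∉ K, u x = 0) {x : T} (hx : x ∉ K) : dtM h (hsf B u) x = 0 := by
  rw [← dtC_re, dtC_zero hn h hK h0 hx, Complex.zero_re]

theorem integrable_dtM (hn : 0 < n) (h : HM (KB B)⁻¹) {u : T → ℝ} (hu : B.Sm u) {K : Set T}
    (hK : IsCompact K) (h0 : ∀ x ∉ K, u x = 0) : Integrable (dtM h (hsf B u)) (vm h) :=
  integrable_cc h (cont_dtM' h (tf_hsf hu)) hK fun _ hx => dtM_zero hn h hK.isClosed h0 hx

theorem tr_adj_self (H : Matrix (Fin n) (Fin n) ℂ) : (H.adjugate * H).trace = n * H.det := by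
  rw [Matrix.adjugate_mul, Matrix.trace_smul, Matrix.trace_one, Fintype.card_fin, smul_eq_mul,
    mul_comm]

/-- Stokes: `∫ det ∂∂̄u = 0` -/
theorem int_det_zero (hn : 0 < n) (P : Part B) (h : HM (KB B)⁻¹) {u : T → ℝ} (hu : B.Sm u)
    {K : Set T} (hK : IsCompact K) (h0 : ∀ x ∉ K, u x = 0) :
    ∫ x, dtM h (hsf B u) x ∂(vm h) = 0 := by
  have hc : Continuous (dtC h (hsf B u)) := sm_continuous (sm_dtC h (tf_hsf hu))
  have hz : ∀ x ∉ K, dtC h (hsf B u) x = 0 := fun x hx => dtC_zero hn h hK.isClosed h0 hx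
  have h1 : ∫ x, dtC h (hsf B u) x ∂(vm h) = tot P (Fn P hK) fun i x => (hsf B u i x).det := by
    refine int_eq_tot P h hc hK hz fun i x hx => ?_
    have h6 : (h.w i x : ℂ) ≠ 0 := by exact_mod_cast (h.pos i x hx).ne'
    rw [dtC_eq h (tf_hsf hu) hx]
    field_simp
  have h2 := green1 P (hsf_cf hu) (u := fun y => (u y : ℂ)) (fun i => smAt_ofReal (hu i)) hK
    (Finset.Subset.refl (Fn P hK)) fun x hx => by rw [h0 x hx, Complex.ofReal_zero]
  have h3 : (n : ℂ) * tot P (Fn P hK) (fun i x => (hsf B u i x).det) = 0 := by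
    rw [← h2]
    unfold tot
    rw [Finset.mul_sum]
    refine Finset.sum_congr rfl fun i _ => ?_
    rw [← lint_smul]
    refine lint_congr fun x hx => ?_
    show (n : ℂ) * ((P.ψ i x : ℂ) * (hsf B u i x).det) =
      (P.ψ i x : ℂ) * ((hsf B u i x).adjugate * hm B (fun y => (u y : ℂ)) i x).trace
    rw [hm_ofReal u i hx, tr_adj_self]
    ring
  have h4 : tot P (Fn P hK) (fun i x => (hsf B u i x).det) = 0 := by
    rcases mul_eq_zero.1 h3 with h5 | h5
    · exact absurd h5 (by exact_mod_cast hn.ne')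
    · exact h5
  have h5 : ∫ x, dtM h (hsf B u) x ∂(vm h) = (∫ x, dtC h (hsf B u) x ∂(vm h)).re := by
    have h6 : Integrable (dtC h (hsf B u)) (vm h) := integrable_cc h hc hK hz
    rw [← RCLike.re_eq_complex_re, ← integral_re h6]
    refine integral_congr_ae (Eventually.of_forall fun x => ?_)
    exact (dtC_re h (hsf B u) x).symm
  rw [h5, h1, h4, Complex.zero_re]

end noncpt

/-! ### domains -/

/-- a finite family of functions on an open set `V`, holomorphic in the charts, with compact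
`{b ≤ 1}` -/
structure Dom (B : Atl n T) (m : ℕ) where
  V : Set T
  F : T → Fin m → ℂ
  op : IsOpen V
  hol : ∀ i k, DifferentiableOn ℂ (fun z => F ((B.e i).symm z) k)
    ((B.e i).target ∩ (B.e i).symm ⁻¹' V)
  cpt : IsCompact {x | x ∈ V ∧ ∑ k, ‖F x k‖ ^ 2 ≤ 1}

namespace Dom

variable (D : Dom B m)

/-- `b = ∑ |F_k|²` -/
def b (x : T) : ℝ := ∑ k, ‖D.F x k‖ ^ 2

theorem b_nonneg (x : T) : 0 ≤ D.b x := Finset.sum_nonneg fun _ _ => by positivity

/-- the sublevel `{b ≤ r}` -/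
def Z (r : ℝ) : Set T := {x | x ∈ D.V ∧ D.b x ≤ r}

open Classical in
/-- `φ(b)` extended by `0` -/
def cut (φ : ℝ → ℝ) (x : T) : ℝ := if x ∈ D.V then φ (D.b x) else 0

/-- the family in the chart `i` -/
def G (i : B.ι) (z : Cn n) (k : Fin m) : ℂ := D.F ((B.e i).symm z) k

/-- the domain in the chart `i` -/
def U (i : B.ι) : Set (Cn n) := (B.e i).target ∩ (B.e i).symm ⁻¹' D.V

theorem isOpen_U (i : B.ι) : IsOpen (D.U i) := (B.e i).isOpen_inter_preimage_symm D.op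

theorem mem_U {i : B.ι} {x : T} (hx : x ∈ (B.e i).source) (hV : x ∈ D.V) : B.e i x ∈ D.U i :=
  ⟨(B.e i).map_source hx, by
    show (B.e i).symm (B.e i x) ∈ D.V
    rw [(B.e i).left_inv hx]; exact hV⟩

theorem cut_V {φ : ℝ → ℝ} {x : T} (hx : x ∈ D.V) : D.cut φ x = φ (D.b x) := if_pos hx

theorem cut_notV {φ : ℝ → ℝ} {x : T} (hx : x ∉ D.V) : D.cut φ x = 0 := if_neg hx

theorem sq_G (i : B.ι) (z : Cn n) : sq (D.G i) z = D.b ((B.e i).symm z) := rfl

theorem cut_ev (φ : ℝ → ℝ) {i : B.ι} {z : Cn n} (hz : z ∈ D.U i) :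
    (fun z => D.cut φ ((B.e i).symm z)) =ᶠ[𝓝 z] fun z => φ (sq (D.G i) z) := by
  filter_upwards [(D.isOpen_U i).mem_nhds hz] with w hw
  exact D.cut_V hw.2

theorem sq_cd {i : B.ι} {z : Cn n} (hz : z ∈ D.U i) : ContDiffAt ℝ ∞ (sq (D.G i)) z :=
  sq_contDiffAt (D.isOpen_U i) (fun k => D.hol i k) hz

theorem b_contAt {x : T} (hx : x ∈ D.V) : ContinuousAt D.b x := by
  obtain ⟨i, hi⟩ := B.cover x
  have h1 : ContinuousAt (sq (D.G i)) (B.e i x) := (D.sq_cd (D.mem_U hi hx)).continuousAt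
  have h2 : ContinuousAt (fun y => sq (D.G i) (B.e i y)) x :=
    ContinuousAt.comp (f := B.e i) h1 ((B.e i).continuousAt hi)
  refine h2.congr ?_
  filter_upwards [(B.e i).open_source.mem_nhds hi] with y hy
  show D.b ((B.e i).symm (B.e i y)) = D.b y
  rw [(B.e i).left_inv hy]

theorem isClosed_Z [T2Space T] {r : ℝ} (hr : r ≤ 1) : IsClosed (D.Z r) := by
  rw [← isOpen_compl_iff, isOpen_iff_mem_nhds]
  intro x hx
  by_cases hV : x ∈ D.V
  · have h1 : r < D.b x := by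
      by_contra h
      exact hx ⟨hV, not_lt.1 h⟩
    filter_upwards [(D.b_contAt hV).eventually (lt_mem_nhds h1)] with y hy hyZ
    exact absurd hyZ.2 (not_le.2 hy)
  · have h1 : x ∉ {x | x ∈ D.V ∧ ∑ k, ‖D.F x k‖ ^ 2 ≤ 1} := fun h => hV h.1
    filter_upwards [D.cpt.isClosed.isOpen_compl.mem_nhds h1] with y hy hyZ
    exact hy ⟨hyZ.1, hyZ.2.trans hr⟩

theorem isCompact_Z [T2Space T] {r : ℝ} (hr : r ≤ 1) : IsCompact (D.Z r) :=
  D.cpt.of_isClosed_subset (D.isClosed_Z hr) fun _ hx => ⟨hx.1, hx.2.trans hr⟩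

theorem cut_off {φ : ℝ → ℝ} (h0 : ∀ t, 3 / 4 ≤ t → φ t = 0) {x : T} (hx : x ∉ D.Z 1) :
    D.cut φ x = 0 := by
  by_cases hV : x ∈ D.V
  · rw [D.cut_V hV]
    refine h0 _ ?_
    by_contra h
    exact hx ⟨hV, by linarith⟩
  · exact D.cut_notV hV

theorem cut_sm [T2Space T] {φ : ℝ → ℝ} (hφ : ContDiff ℝ ∞ φ) (h0 : ∀ t, 3 / 4 ≤ t → φ t = 0) :
    B.Sm (D.cut φ) := by
  intro i z hz
  refine ContDiffAt.contDiffWithinAt ?_
  by_cases hV : (B.e i).symm z ∈ D.V
  · refine ContDiffAt.congr_of_eventuallyEq ?_ (D.cut_ev φ ⟨hz, hV⟩)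
    exact hφ.contDiffAt.comp z (D.sq_cd ⟨hz, hV⟩)
  · have h1 : (B.e i).symm z ∉ D.Z 1 := fun h => hV h.1
    have h2 : (fun z => D.cut φ ((B.e i).symm z)) =ᶠ[𝓝 z] fun _ => 0 := by
      have h3 := (B.e i).continuousAt_symm hz
      filter_upwards [h3.preimage_mem_nhds ((D.isClosed_Z le_rfl).isOpen_compl.mem_nhds h1)]
        with w hw
      exact D.cut_off h0 hw
    exact contDiffAt_const.congr_of_eventuallyEq h2

/-- `∂∂̄ φ(b)` -/
theorem hsf_cut {φ φ' : ℝ → ℝ} {d2 : ℝ} (h1 : ∀ s, HasDerivAt φ (φ' s) s) {i : B.ι} {x : T}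
    (hx : x ∈ (B.e i).source) (hV : x ∈ D.V) (h2 : HasDerivAt φ' d2 (D.b x)) :
    hsf B (D.cut φ) i x =
      (φ' (D.b x) : ℝ) • ((jac (D.G i) (B.e i x))ᵀ * (jac (D.G i) (B.e i x)).map conj) +
      (d2 : ℝ) • Matrix.vecMulVec ((jac (D.G i) (B.e i x))ᵀ *ᵥ fun k => conj (D.F x k))
        (star ((jac (D.G i) (B.e i x))ᵀ *ᵥ fun k => conj (D.F x k))) := by
  have hz := D.mem_U hx hV
  have e : sq (D.G i) (B.e i x) = D.b x := by
    rw [D.sq_G, (B.e i).left_inv hx]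
  have e2 : (fun k => conj (D.G i (B.e i x) k)) = fun k => conj (D.F x k) := by
    funext k
    unfold G
    rw [(B.e i).left_inv hx]
  have e3 : hsf B (D.cut φ) i x = hess (fun z => D.cut φ ((B.e i).symm z)) (B.e i x) := rfl
  rw [e3, hess_congr (D.cut_ev φ hz),
    hess_comp_mat (φ' := φ') (d2 := d2) (D.sq_cd hz) (Eventually.of_forall h1)
      (by rw [e]; exact h2), hess_sq_mat (F := D.G i) (D.isOpen_U i) (fun k => D.hol i k) hz,
    gr_sq (F := D.G i) (D.isOpen_U i) (fun k => D.hol i k) hz, e, e2]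

/-- `∂∂̄ b` on `{b < 5/8}` -/
theorem hsf_cut0 {i : B.ι} {x : T} (hx : x ∈ (B.e i).source) (hV : x ∈ D.V)
    (hb : D.b x < 5 / 8) : hsf B (D.cut F0) i x =
      (jac (D.G i) (B.e i x))ᵀ * (jac (D.G i) (B.e i x)).map conj := by
  rw [D.hsf_cut F0_hasDerivAt hx hV (cp_hasDerivAt_zero hb), cp_one hb.le]
  simp

theorem hsf_cut1 {e : ℝ} (he : 0 < e) {i : B.ι} {x : T} (hx : x ∈ (B.e i).source) (hV : x ∈ D.V)
    (hb : D.b x < 5 / 8) : hsf B (D.cut (F1 e)) i x =
      (pa e (D.b x) : ℝ) • ((jac (D.G i) (B.e i x))ᵀ * (jac (D.G i) (B.e i x)).map conj) +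
      (pa' e (D.b x) : ℝ) • Matrix.vecMulVec ((jac (D.G i) (B.e i x))ᵀ *ᵥ fun k => conj (D.F x k))
        (star ((jac (D.G i) (B.e i x))ᵀ *ᵥ fun k => conj (D.F x k))) := by
  rw [D.hsf_cut (F1_hasDerivAt he) hx hV (cppa_hasDerivAt he hb), cp_one hb.le, one_mul]

theorem F1_zero {e t : ℝ} (ht : 3 / 4 ≤ t) : F1 e t = 0 := by
  rw [F1_eq (by linarith), F0_zero ht]

theorem sm0 [T2Space T] : B.Sm (D.cut F0) := D.cut_sm F0_contDiff fun _ h => F0_zero h

theorem sm1 [T2Space T] {e : ℝ} (he : 0 < e) : B.Sm (D.cut (F1 e)) :=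
  D.cut_sm (F1_contDiff he) fun _ h => F1_zero h

/-- the two functions agree off `{b ≤ 1/2}` -/
theorem ev_off [T2Space T] (e : ℝ) {x : T} (hx : x ∉ D.Z (1 / 2)) :
    D.cut F0 =ᶠ[𝓝 x] D.cut (F1 e) := by
  filter_upwards [(D.isClosed_Z (r := 1 / 2) (by norm_num)).isOpen_compl.mem_nhds hx] with y hy
  by_cases hV : y ∈ D.V
  · have h1 : 1 / 2 < D.b y := by
      by_contra h
      exact hy ⟨hV, not_lt.1 h⟩
    rw [D.cut_V hV, D.cut_V hV, F1_eq h1.le]
  · rw [D.cut_notV hV, D.cut_notV hV]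

variable [T2Space T] [Countable B.ι] [MeasurableSpace T] [BorelSpace T]

theorem nonneg0 (h : HM (KB B)⁻¹) {x : T} (hx : x ∈ D.Z (1 / 2)) :
    0 ≤ dtM h (hsf B (D.cut F0)) x := by
  have hi := mem_ch B x
  rw [dtM_eq' h (tf_hsf D.sm0) hi, D.hsf_cut0 hi hx.1 (by linarith [hx.2])]
  exact div_nonneg (Complex.le_def.1 (psd_jac _).det_nonneg).1 (h.pos _ x hi).le

theorem ge1 (h : HM (KB B)⁻¹) {e : ℝ} (he : 0 < e) {c : ℝ} (hc : 0 ≤ c) {x : T}
    (hx : x ∈ D.Z (1 / 2)) (h1 : c ≤ pa e (D.b x)) (h2 : c ≤ pa e (D.b x) + D.b x * pa' e (D.b x)) :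
    c ^ n * dtM h (hsf B (D.cut F0)) x ≤ dtM h (hsf B (D.cut (F1 e))) x := by
  have hi := mem_ch B x
  have hb : D.b x < 5 / 8 := by linarith [hx.2]
  rw [dtM_eq' h (tf_hsf D.sm0) hi, dtM_eq' h (tf_hsf (D.sm1 he)) hi,
    D.hsf_cut0 hi hx.1 hb, D.hsf_cut1 he hi hx.1 hb, ← mul_div_assoc]
  refine div_le_div_of_nonneg_right ?_ (h.pos _ x hi).le
  exact det_mono_smul (psd_jac _) hc (psd_prof _ _ h1 h2)

theorem nonneg1 (h : HM (KB B)⁻¹) {e : ℝ} (he : 0 < e) {x : T} (hx : x ∈ D.Z (1 / 2)) :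
    0 ≤ dtM h (hsf B (D.cut (F1 e))) x := by
  have hi := mem_ch B x
  have hb : D.b x < 5 / 8 := by linarith [hx.2]
  rw [dtM_eq' h (tf_hsf (D.sm1 he)) hi, D.hsf_cut1 he hi hx.1 hb]
  refine div_nonneg ?_ (h.pos _ x hi).le
  have h1 := psd_prof (jac (D.G (ch B x)) (B.e (ch B x) x)) (D.F x) (a₁ := pa e (D.b x))
    (a₂ := pa' e (D.b x)) (c := 0) (pa_nonneg he _) (pa_add_nonneg he (D.b_nonneg x))
  rw [Complex.ofReal_zero, zero_smul, sub_zero] at h1
  exact (Complex.le_def.1 h1.det_nonneg).1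

/-- **the comparison** -/
theorem compare (hn : 0 < n) (P : Part B) (h : HM (KB B)⁻¹) {e : ℝ} (he : 0 < e)
    (he' : e < 1 / 4) :
    (1 / (32 * e)) ^ n * ∫ x in D.Z e, dtM h (hsf B (D.cut F0)) x ∂(vm h) ≤
      ∫ x in D.Z (1 / 2), dtM h (hsf B (D.cut F0)) x ∂(vm h) := by
  have hK := D.isCompact_Z (r := 1) le_rfl
  have i0 : Integrable (dtM h (hsf B (D.cut F0))) (vm h) :=
    integrable_dtM hn h D.sm0 hK fun x hx => D.cut_off (fun _ h => F0_zero h) hx
  have i1 : Integrable (dtM h (hsf B (D.cut (F1 e)))) (vm h) :=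
    integrable_dtM hn h (D.sm1 he) hK fun x hx => D.cut_off (fun _ h => F1_zero h) hx
  have z0 : ∫ x, dtM h (hsf B (D.cut F0)) x ∂(vm h) = 0 :=
    int_det_zero hn P h D.sm0 hK fun x hx => D.cut_off (fun _ h => F0_zero h) hx
  have z1 : ∫ x, dtM h (hsf B (D.cut (F1 e))) x ∂(vm h) = 0 :=
    int_det_zero hn P h (D.sm1 he) hK fun x hx => D.cut_off (fun _ h => F1_zero h) hx
  have mZ : MeasurableSet (D.Z (1 / 2)) := (D.isClosed_Z (by norm_num)).measurableSet
  have mZe : MeasurableSet (D.Z e) := (D.isClosed_Z (by linarith)).measurableSet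
  have a0 := integral_add_compl mZ i0
  have a1 := integral_add_compl mZ i1
  have hoff : ∫ x in (D.Z (1 / 2))ᶜ, dtM h (hsf B (D.cut F0)) x ∂(vm h) =
      ∫ x in (D.Z (1 / 2))ᶜ, dtM h (hsf B (D.cut (F1 e))) x ∂(vm h) := by
    refine setIntegral_congr_fun mZ.compl fun x hx => ?_
    rw [dtM_eq' h (tf_hsf D.sm0) (mem_ch B x), dtM_eq' h (tf_hsf (D.sm1 he)) (mem_ch B x),
      hsf_ev (D.ev_off e hx) (mem_ch B x)]
  have heq : ∫ x in D.Z (1 / 2), dtM h (hsf B (D.cut F0)) x ∂(vm h) =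
      ∫ x in D.Z (1 / 2), dtM h (hsf B (D.cut (F1 e))) x ∂(vm h) := by
    rw [z0] at a0
    rw [z1] at a1
    rw [hoff] at a0
    linarith
  rw [heq, ← integral_const_mul]
  have hsub : D.Z e ⊆ D.Z (1 / 2) := fun x hx => ⟨hx.1, hx.2.trans (by linarith)⟩
  calc ∫ x in D.Z e, (1 / (32 * e)) ^ n * dtM h (hsf B (D.cut F0)) x ∂(vm h)
      ≤ ∫ x in D.Z e, dtM h (hsf B (D.cut (F1 e))) x ∂(vm h) := by
        refine setIntegral_mono_on (i0.const_mul _).integrableOn i1.integrableOn mZe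
          fun x hx => ?_
        exact D.ge1 h he (by positivity) (hsub hx) (pa_ge he he' (D.b_nonneg x) hx.2)
          (pa_add_ge he he' (D.b_nonneg x) hx.2)
    _ ≤ ∫ x in D.Z (1 / 2), dtM h (hsf B (D.cut (F1 e))) x ∂(vm h) := by
        refine setIntegral_mono_set i1.integrableOn ?_ (Eventually.of_forall hsub)
        filter_upwards [ae_restrict_mem mZ] with x hx
        exact D.nonneg1 h he hx

end Dom

end

end Crest.Agent.R281.Hk_389
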