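import Crest.Agent.R281.Hk3_389

/-!
# R281 (S0424), S6-HARN (Hc), part 4 (helper389): the local lower bound

* `vol_ell` : the volume of an ellipsoid in real coordinates
* `local_ge` : near `q`, `F q = 0`, `dF(q)` injective: `{|L(z-z₀)|² < e/4} ⊆ {b ≤ e}` and
  `det ∂∂̄b ≥ det(..)(q) / 2` for small `e`
* `Dom.lelong` : `om n / (2 · 128^n) ≤ ∫_{b ≤ 1/2} det ∂∂̄ b`
-/

set_option autoImplicit false
set_option linter.unusedSectionVars false
set_option linter.deprecated false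

open Set Filter Topology Complex MeasureTheory
open scoped ContDiff Matrix ComplexConjugate ComplexOrder ENNReal Pointwise

namespace Crest.Agent.R281.Hk_389

open Crest.Agent.R275 Crest.Agent.R275.Geo Crest.Agent.R275.Core144 Crest.Agent.R275.EDR890
open Crest.Agent.R275.Pai323 Crest.Agent.R275.C1d194
open Crest.Agent.R275.SerG398 (lint)
open Crest.Agent.R273.Defs_333 Crest.Agent.R273.Hess_333 Crest.Agent.R273.HessB_333
open Crest.Agent.R273.HM_333 Crest.Agent.R273.Kah_333 Crest.Agent.R273.Vol_333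
open Crest.Agent.R273.Vm_333 Crest.Agent.R273.StV_37
open Crest.Agent.R273.Green_5 Crest.Agent.R273.FIa0_597 Crest.Agent.R273.FIb0_597
open Crest.Agent.R273.FId0_597 Crest.Agent.R273
open Crest.Agent.R273.FS_333 (sq hess_sq wd_sq wd_sq' contDiffAt_of_hol)
open Crest.Agent.R281.Glob1_484

noncomputable section

variable {n m : ℕ}

/-! ### linear algebra -/

theorem quad (R : Matrix (Fin m) (Fin n) ℂ) (x : Fin n → ℂ) :
    (star x ⬝ᵥ ((Rᴴ * R) *ᵥ x)).re = ∑ k, ‖(R *ᵥ x) k‖ ^ 2 := by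
  rw [← Matrix.mulVec_mulVec, Matrix.dotProduct_mulVec, ← Matrix.star_mulVec, dotProduct,
    Complex.re_sum]
  refine Finset.sum_congr rfl fun k _ => ?_
  rw [Pi.star_apply, RCLike.star_def, mul_comm, Complex.mul_conj, Complex.ofReal_re,
    Complex.normSq_eq_norm_sq]

theorem map_conj_mulVec (R : Matrix (Fin m) (Fin n) ℂ) (v : Fin n → ℂ) (k : Fin m) :
    (R.map conj *ᵥ fun a => conj (v a)) k = conj ((R *ᵥ v) k) := by
  simp only [Matrix.mulVec, dotProduct, Matrix.map_apply, map_sum, map_mul]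

theorem exists_L (J : Matrix (Fin m) (Fin n) ℂ) (hd : (Jᵀ * J.map conj).det ≠ 0) :
    ∃ L : Cn n →L[ℂ] Cn n, (∀ v : Cn n, ‖L v‖ ^ 2 = ∑ k, ‖(J *ᵥ v) k‖ ^ 2) ∧
      ‖LinearMap.det (L : Cn n →ₗ[ℂ] Cn n)‖ ^ 2 = (Jᵀ * J.map conj).det.re ∧
      LinearMap.det (L : Cn n →ₗ[ℂ] Cn n) ≠ 0 := by
  obtain ⟨Q, hQ⟩ := exists_sq (psd_jac J)
  have hJ : Jᵀ * J.map conj = (J.map conj)ᴴ * J.map conj := by
    congr 1
    ext a b
    simp [Matrix.conjTranspose_apply]
  have hdet : LinearMap.det (Matrix.toEuclideanLin (Q.map conj) : Cn n →ₗ[ℂ] Cn n) =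
      conj Q.det := by
    rw [Matrix.toEuclideanLin_eq_toLin, LinearMap.det_toLin]
    rw [← RingHom.mapMatrix_apply, ← RingHom.map_det]
  have hdQ : (Jᵀ * J.map conj).det = conj Q.det * Q.det := by
    rw [hQ, Matrix.det_mul, Matrix.det_conjTranspose]
    rfl
  have hQ0 : Q.det ≠ 0 := by
    intro h0
    exact hd (by rw [hdQ, h0, mul_zero])
  refine ⟨(Matrix.toEuclideanLin (Q.map conj)).toContinuousLinearMap, fun v => ?_, ?_, ?_⟩
  · have h1 : (Matrix.toEuclideanLin (Q.map conj)).toContinuousLinearMap v =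
        (WithLp.toLp 2 ((Q.map conj) *ᵥ v.ofLp) : Cn n) := by
      show (Matrix.toEuclideanLin (Q.map conj)) v = _
      rw [Matrix.toEuclideanLin_apply]
    rw [h1, EuclideanSpace.norm_sq_eq]
    set x : Fin n → ℂ := fun a => conj (v a) with hx
    have hv : v.ofLp = fun a => conj (x a) := by
      funext a; simp [hx]
    have e1 : ∀ k, ‖((Q.map conj) *ᵥ v.ofLp) k‖ = ‖(Q *ᵥ x) k‖ := by
      intro k
      rw [hv, map_conj_mulVec, RCLike.norm_conj]
    have e2 : ∀ k, ‖(J *ᵥ v.ofLp) k‖ = ‖(J.map conj *ᵥ x) k‖ := by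
      intro k
      rw [hx, map_conj_mulVec, RCLike.norm_conj]
    simp only [e1, e2]
    rw [← quad, ← quad, ← hQ, ← hJ]
  · rw [LinearMap.coe_toContinuousLinearMap, hdet, RCLike.norm_conj, hdQ, mul_comm,
      Complex.mul_conj, Complex.ofReal_re, Complex.normSq_eq_norm_sq]
  · rw [LinearMap.coe_toContinuousLinearMap, hdet]
    simpa using hQ0

/-! ### volumes -/

/-- the volume of the unit ball of `Cn n` -/
def om (n : ℕ) : ℝ := (volume {y : RI n → ℝ | ‖(cc y : Cn n)‖ < 1}).toReal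

theorem isOpen_bl (n : ℕ) (r : ℝ) : IsOpen {y : RI n → ℝ | ‖(cc y : Cn n)‖ < r} :=
  isOpen_lt continuous_cc.norm continuous_const

theorem vol_lt (n : ℕ) : volume {y : RI n → ℝ | ‖(cc y : Cn n)‖ < 1} < ⊤ := by
  have h1 : {y : RI n → ℝ | ‖(cc y : Cn n)‖ < 1} ⊆ rc '' (Metric.closedBall (0 : Cn n) 1) := by
    intro y hy
    exact ⟨cc y, by simpa using le_of_lt hy, rc_cc y⟩
  exact (measure_mono h1).trans_lt
    ((isCompact_closedBall (0 : Cn n) 1).image continuous_rc).measure_lt_top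

theorem om_pos (n : ℕ) : 0 < om n := by
  refine ENNReal.toReal_pos ?_ (vol_lt n).ne
  refine ((isOpen_bl n 1).measure_pos volume ⟨0, ?_⟩).ne'
  have h0 : (cc (0 : RI n → ℝ) : Cn n) = 0 := by
    ext a; simp
  show ‖(cc (0 : RI n → ℝ) : Cn n)‖ < 1
  rw [h0, norm_zero]; exact one_pos

theorem ofReal_om (n : ℕ) : ENNReal.ofReal (om n) =
    volume {y : RI n → ℝ | ‖(cc y : Cn n)‖ < 1} := ENNReal.ofReal_toReal (vol_lt n).ne

theorem cc_smul (r : ℝ) (y : RI n → ℝ) : (cc (r • y) : Cn n) = r • cc y :=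
  ((rcE n).symm : (RI n → ℝ) →ₗ[ℝ] Cn n).map_smul r y

theorem cc_sub (y y' : RI n → ℝ) : (cc (y - y') : Cn n) = cc y - cc y' :=
  ((rcE n).symm : (RI n → ℝ) →ₗ[ℝ] Cn n).map_sub y y'

theorem vol_ball {r : ℝ} (hr : 0 < r) : volume {y : RI n → ℝ | ‖(cc y : Cn n)‖ < r} =
    ENNReal.ofReal (r ^ (2 * n) * om n) := by
  have h1 : {y : RI n → ℝ | ‖(cc y : Cn n)‖ < r} = r • {y : RI n → ℝ | ‖(cc y : Cn n)‖ < 1} := by
    ext y
    rw [Set.mem_smul_set_iff_inv_smul_mem₀ hr.ne']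
    show ‖(cc y : Cn n)‖ < r ↔ ‖(cc (r⁻¹ • y) : Cn n)‖ < 1
    rw [cc_smul, norm_smul, Real.norm_of_nonneg (by positivity), inv_mul_lt_iff₀ hr, mul_one]
  rw [h1, Measure.addHaar_smul, ENNReal.ofReal_mul (by positivity), ofReal_om,
    abs_of_nonneg (by positivity), Module.finrank_pi, Fintype.card_prod, Fintype.card_fin,
    Fintype.card_fin, mul_comm n 2]

theorem vol_ell (L : Cn n →L[ℂ] Cn n) (hL : LinearMap.det (L : Cn n →ₗ[ℂ] Cn n) ≠ 0) (z0 : Cn n)
    {r : ℝ} (hr : 0 < r) : volume {y : RI n → ℝ | ‖L (cc y - z0)‖ < r} =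
      ENNReal.ofReal ((‖LinearMap.det (L : Cn n →ₗ[ℂ] Cn n)‖ ^ 2)⁻¹ * (r ^ (2 * n) * om n)) := by
  set f : (RI n → ℝ) →ₗ[ℝ] (RI n → ℝ) := ((rcE n : Cn n →ₗ[ℝ] (RI n → ℝ)) ∘ₗ
    ((L : Cn n →ₗ[ℂ] Cn n).restrictScalars ℝ)) ∘ₗ ((rcE n).symm : (RI n → ℝ) →ₗ[ℝ] Cn n) with hf
  have hdet : LinearMap.det f = ‖LinearMap.det (L : Cn n →ₗ[ℂ] Cn n)‖ ^ 2 := det_real L
  have hf0 : LinearMap.det f ≠ 0 := by
    rw [hdet]
    exact pow_ne_zero 2 (norm_ne_zero_iff.2 hL)
  have hfy : ∀ y, (cc (f y) : Cn n) = L (cc y) := by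
    intro y
    show cc (rcL n (L (cc y))) = _
    rw [rcL_apply, cc_rc]
  have h1 : {y : RI n → ℝ | ‖L (cc y - z0)‖ < r} =
      (fun y => y + (-rc z0)) ⁻¹' (f ⁻¹' {y : RI n → ℝ | ‖(cc y : Cn n)‖ < r}) := by
    ext y
    show ‖L (cc y - z0)‖ < r ↔ ‖(cc (f (y + (-rc z0))) : Cn n)‖ < r
    rw [hfy, ← sub_eq_add_neg, cc_sub, cc_rc]
  rw [h1, measure_preimage_add_right, Measure.addHaar_preimage_linearMap _ hf0, vol_ball hr, hdet,
    abs_of_nonneg (by positivity), ← ENNReal.ofReal_mul (by positivity)]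

/-! ### the local estimate -/

theorem local_ge {G : Cn n → Fin m → ℂ} {U : Set (Cn n)} (hU : IsOpen U)
    (hG : ∀ k, DifferentiableOn ℂ (fun z => G z k) U) {z0 : Cn n} (hz : z0 ∈ U) (h0 : G z0 = 0)
    (hd : ((jac G z0)ᵀ * (jac G z0).map conj).det ≠ 0) (L : Cn n →L[ℂ] Cn n)
    (hL : ∀ v : Cn n, ‖L v‖ ^ 2 = ∑ k, ‖((jac G z0) *ᵥ v) k‖ ^ 2)
    (hL0 : LinearMap.det (L : Cn n →ₗ[ℂ] Cn n) ≠ 0) :
    ∃ e0 > 0, ∀ e, 0 < e → e < e0 → ∀ z, ‖L (z - z0)‖ < Real.sqrt e / 2 →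
      z ∈ U ∧ sq G z ≤ e ∧
        ((jac G z0)ᵀ * (jac G z0).map conj).det.re / 2 ≤
          ((jac G z)ᵀ * (jac G z).map conj).det.re := by
  -- the Euclidean version of `G`
  set Ge : Cn n → EuclideanSpace ℂ (Fin m) := fun z => WithLp.toLp 2 (G z) with hGe
  have hGd : DifferentiableAt ℂ Ge z0 := by
    rw [differentiableAt_euclidean]
    intro k
    exact (hG k).differentiableAt (hU.mem_nhds hz)
  have hGn : ∀ z, ‖Ge z‖ ^ 2 = sq G z := fun z => by
    rw [EuclideanSpace.norm_sq_eq]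
    rfl
  have hcomp : ∀ (v : Cn n) (k : Fin m), (fderiv ℂ Ge z0 v) k = ((jac G z0) *ᵥ v) k := by
    intro v k
    have e1 : (fderiv ℂ Ge z0 v) k = fderiv ℂ (fun z => G z k) z0 v := by
      have h2 := ((EuclideanSpace.proj k : EuclideanSpace ℂ (Fin m) →L[ℂ] ℂ).hasFDerivAt.comp z0
        hGd.hasFDerivAt).fderiv
      have h3 : ((EuclideanSpace.proj k : EuclideanSpace ℂ (Fin m) →L[ℂ] ℂ) ∘ Ge) =
          fun z => G z k := rfl
      rw [h3] at h2
      rw [h2]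
      rfl
    rw [e1]
    have e2 : v = ∑ a, v a • (EuclideanSpace.single a (1 : ℂ) : Cn n) := by
      ext c
      simp [Pi.single_apply]
    conv_lhs => rw [e2]
    rw [map_sum]
    simp only [map_smul, smul_eq_mul, Matrix.mulVec, dotProduct, jac, Matrix.of_apply]
    exact Finset.sum_congr rfl fun a _ => mul_comm _ _
  have hDn : ∀ v : Cn n, ‖fderiv ℂ Ge z0 v‖ = ‖L v‖ := by
    intro v
    have h1 : ‖fderiv ℂ Ge z0 v‖ ^ 2 = ‖L v‖ ^ 2 := by
      rw [EuclideanSpace.norm_sq_eq, hL v]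
      exact Finset.sum_congr rfl fun k _ => by rw [hcomp v k]
    exact (sq_eq_sq₀ (norm_nonneg _) (norm_nonneg _)).1 h1
  -- the inverse of `L`
  obtain ⟨C, hC0, hC⟩ : ∃ C > 0, ∀ v : Cn n, ‖v‖ ≤ C * ‖L v‖ := by
    have hinj : Function.Injective L := by
      have := (LinearMap.equivOfDetNeZero (L : Cn n →ₗ[ℂ] Cn n) hL0).injective
      exact this
    obtain ⟨K, hK0, hK⟩ := (LinearMap.exists_antilipschitzWith (L : Cn n →ₗ[ℂ] Cn n)
      (LinearMap.ker_eq_bot.2 hinj))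
    refine ⟨K, by exact_mod_cast hK0, fun v => ?_⟩
    have := hK.le_mul_dist v 0
    simpa using this
  have hlo := hGd.hasFDerivAt.isLittleO
  have hG0 : Ge z0 = 0 := by
    rw [hGe]
    simp only [h0]
    rfl
  have h1 : ∀ᶠ z in 𝓝 z0, ‖Ge z - Ge z0 - fderiv ℂ Ge z0 (z - z0)‖ ≤ (1 / C) * ‖z - z0‖ :=
    hlo.bound (by positivity)
  have hcont : ContinuousAt (fun z => (hess (sq G) z).det.re) z0 := by
    have hs := sq_contDiffAt hU hG hz
    have h2 : ∀ a b, ContinuousAt (fun z => hess (sq G) z a b) z0 := fun a b =>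
      (contDiffAt_hess hs a b).continuousAt
    have h3 : ContinuousAt (fun z => hess (sq G) z) z0 :=
      continuousAt_pi.2 fun a => continuousAt_pi.2 fun b => h2 a b
    have h4 : ContinuousAt (fun z => (hess (sq G) z).det) z0 :=
      (Continuous.matrix_det continuous_id).continuousAt.comp h3
    exact Complex.continuous_re.continuousAt.comp h4
  have hpos : 0 < ((jac G z0)ᵀ * (jac G z0).map conj).det.re := by
    have h2 := (psd_jac (jac G z0)).det_nonneg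
    have h3 := Complex.le_def.1 h2
    refine lt_of_le_of_ne h3.1 fun h4 => hd ?_
    apply Complex.ext
    · exact h4.symm
    · exact h3.2.symm
  have h2 : ∀ᶠ z in 𝓝 z0, ((jac G z0)ᵀ * (jac G z0).map conj).det.re / 2 ≤
      (hess (sq G) z).det.re := by
    have h3 : ((jac G z0)ᵀ * (jac G z0).map conj).det.re / 2 < (hess (sq G) z0).det.re := by
      rw [hess_sq_mat hU hG hz]
      linarith
    filter_upwards [hcont.eventually (lt_mem_nhds h3)] with z hz
    exact hz.le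
  obtain ⟨δ, hδ0, hδ⟩ := Metric.eventually_nhds_iff.1 ((h1.and h2).and (hU.mem_nhds hz))
  refine ⟨(δ / C) ^ 2, by positivity, fun e he he0 z hzL => ?_⟩
  have hse : Real.sqrt e < δ / C := by
    rw [Real.sqrt_lt' (by positivity)]
    exact he0
  have hs0 := Real.sqrt_nonneg e
  have hd1 : ‖z - z0‖ < δ := by
    have h3 := hC (z - z0)
    have h4 : C * ‖L (z - z0)‖ ≤ C * (Real.sqrt e / 2) := by gcongr
    have h5 : C * (Real.sqrt e / 2) < δ := by
      have h6 : C * (Real.sqrt e / 2) ≤ C * Real.sqrt e := by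
        apply mul_le_mul_of_nonneg_left _ hC0.le
        linarith
      have h7 : C * Real.sqrt e < C * (δ / C) := mul_lt_mul_of_pos_left hse hC0
      rw [mul_div_cancel₀ δ hC0.ne'] at h7
      linarith
    linarith
  obtain ⟨⟨h3, h4⟩, h5⟩ := hδ (y := z) (by rw [dist_eq_norm]; exact hd1)
  refine ⟨h5, ?_, ?_⟩
  · rw [← hGn]
    have h6 : ‖Ge z‖ ≤ Real.sqrt e := by
      have h7 : ‖Ge z‖ ≤ ‖Ge z - Ge z0 - fderiv ℂ Ge z0 (z - z0)‖ + ‖fderiv ℂ Ge z0 (z - z0)‖ := by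
        have : Ge z = (Ge z - Ge z0 - fderiv ℂ Ge z0 (z - z0)) + fderiv ℂ Ge z0 (z - z0) := by
          rw [hG0]; abel
        calc ‖Ge z‖ = ‖(Ge z - Ge z0 - fderiv ℂ Ge z0 (z - z0)) + fderiv ℂ Ge z0 (z - z0)‖ := by
              rw [← this]
          _ ≤ _ := norm_add_le _ _
      rw [hDn] at h7
      have h8 : (1 / C) * ‖z - z0‖ ≤ ‖L (z - z0)‖ := by
        rw [one_div, inv_mul_le_iff₀ hC0]
        exact hC _
      linarith
    calc ‖Ge z‖ ^ 2 ≤ Real.sqrt e ^ 2 := pow_le_pow_left₀ (norm_nonneg _) h6 2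
      _ = e := Real.sq_sqrt he.le
  · rw [← hess_sq_mat hU hG h5]
    exact h4

/-! ### the lower bound -/

namespace Dom

variable {T : Type} [TopologicalSpace T] {B : Atl n T} (D : Dom B m)
variable [T2Space T] [Countable B.ι] [MeasurableSpace T] [BorelSpace T]

theorem lelong_loc (hn : 0 < n) (h : HM (KB B)⁻¹) {i : B.ι} {q : T} (hi : q ∈ (B.e i).source)
    (hq : q ∈ D.V) (h0 : D.F q = 0)
    (hd : ((jac (D.G i) (B.e i q))ᵀ * (jac (D.G i) (B.e i q)).map conj).det ≠ 0) :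
    ∃ e > 0, e < 1 / 4 ∧
      (e / 4) ^ n * om n / 2 ≤ ∫ x in D.Z e, dtM h (hsf B (D.cut F0)) x ∂(vm h) := by
  obtain ⟨L, hL, hLd, hL0⟩ := exists_L _ hd
  have hG0 : D.G i (B.e i q) = 0 := by
    unfold G
    rw [(B.e i).left_inv hi]; exact h0
  obtain ⟨e0, he0, hloc⟩ := local_ge (G := D.G i) (D.isOpen_U i) (fun k => D.hol i k)
    (D.mem_U hi hq) hG0 hd L hL hL0
  set z0 := B.e i q with hz0
  set d := ((jac (D.G i) z0)ᵀ * (jac (D.G i) z0).map conj).det.re with hdd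
  have hd0 : 0 < d := by
    rw [← hLd]
    have := norm_pos_iff.2 hL0
    positivity
  set e := min (e0 / 2) (1 / 8) with he
  have hep : 0 < e := lt_min (by positivity) (by norm_num)
  have hee : e < e0 := (min_le_left _ _).trans_lt (by linarith)
  have he4 : e < 1 / 4 := (min_le_right _ _).trans_lt (by norm_num)
  refine ⟨e, hep, he4, ?_⟩
  have hse : 0 < Real.sqrt e / 2 := by
    have := Real.sqrt_pos.2 hep
    positivity
  set f := dtM h (hsf B (D.cut F0)) with hf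
  have hfc : Continuous f := cont_dtM' h (tf_hsf D.sm0)
  have i0 : Integrable f (vm h) :=
    integrable_dtM hn h D.sm0 (D.isCompact_Z le_rfl) fun x hx =>
      D.cut_off (fun _ h => F0_zero h) hx
  have hZ : D.Z e ⊆ D.Z (1 / 2) := fun x hx => ⟨hx.1, hx.2.trans (by linarith)⟩
  have mZ : MeasurableSet (D.Z e) := (D.isClosed_Z (by linarith)).measurableSet
  have hnn : 0 ≤ᵐ[(vm h).restrict (D.Z e)] f := by
    filter_upwards [ae_restrict_mem mZ] with x hx
    exact D.nonneg0 h (hZ hx)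
  set S : Set (RI n → ℝ) := {y | ‖L (cc y - z0)‖ < Real.sqrt e / 2} with hS
  have mS : MeasurableSet S :=
    (isOpen_lt (L.continuous.comp (continuous_cc.sub continuous_const)).norm
      continuous_const).measurableSet
  set E : Set T := (B.e i).source ∩ (B.e i) ⁻¹' {z | ‖L (z - z0)‖ < Real.sqrt e / 2} with hE
  have mE : MeasurableSet E := by
    refine ((B.e i).isOpen_inter_preimage ?_).measurableSet
    exact isOpen_lt (L.continuous.comp (continuous_id.sub continuous_const)).norm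
      continuous_const
  have hEZ : E ⊆ D.Z e := by
    rintro x ⟨hx, hxL⟩
    obtain ⟨h1, h2, -⟩ := hloc e hep hee (B.e i x) hxL
    rw [D.sq_G, (B.e i).left_inv hx] at h2
    have h3 : (B.e i).symm (B.e i x) ∈ D.V := h1.2
    rw [(B.e i).left_inv hx] at h3
    exact ⟨h3, h2⟩
  have hSU : S ⊆ Ui B i := fun y hy => (hloc e hep hee (cc y) hy).1.1
  set g : T → ℝ≥0∞ := fun x => ENNReal.ofReal (f x) with hg
  have mg : Measurable g := hfc.measurable.ennreal_ofReal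
  have A1 : ∫⁻ _ in S, ENNReal.ofReal (d / 2) ≤
      ∫⁻ y in Ui B i, Vm_333.dn h i y * E.indicator g (sg B i y) := by
    refine (setLIntegral_mono' mS fun y hy => ?_).trans (lintegral_mono_set hSU)
    have hyU := hSU hy
    obtain ⟨h1, h2, h3⟩ := hloc e hep hee (cc y) hy
    have hsy : sg B i y ∈ (B.e i).source := sg_mem hyU
    have hey : B.e i (sg B i y) = cc y := (B.e i).right_inv hyU
    have hyE : sg B i y ∈ E := by
      refine ⟨hsy, ?_⟩
      show ‖L (B.e i (sg B i y) - z0)‖ < _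
      rw [hey]
      exact hy
    have hyV : sg B i y ∈ D.V := h1.2
    have hb : D.b (sg B i y) ≤ e := h2
    rw [indicator_of_mem hyE]
    have hw := h.pos i _ hsy
    show _ ≤ ENNReal.ofReal (h.w i (sg B i y)) * ENNReal.ofReal (f (sg B i y))
    rw [← ENNReal.ofReal_mul hw.le]
    refine ENNReal.ofReal_le_ofReal ?_
    rw [hf, dtM_eq' h (tf_hsf D.sm0) hsy, D.hsf_cut0 hsy hyV (by linarith), hey,
      mul_div_cancel₀ _ hw.ne']
    exact h3
  have A2 : ∫⁻ y in Ui B i, Vm_333.dn h i y * E.indicator g (sg B i y) ≤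
      ∫⁻ x in D.Z e, g x ∂(vm h) := by
    rw [← setLIntegral_vm h i (mg.indicator mE)]
    calc ∫⁻ x in (B.e i).source, E.indicator g x ∂(vm h)
        ≤ ∫⁻ x, E.indicator g x ∂(vm h) := setLIntegral_le_lintegral _ _
      _ = ∫⁻ x in E, g x ∂(vm h) := lintegral_indicator mE _
      _ ≤ _ := lintegral_mono_set hEZ
  have A3 : ENNReal.ofReal ((e / 4) ^ n * om n / 2) = ∫⁻ _ in S, ENNReal.ofReal (d / 2) := by
    rw [setLIntegral_const, vol_ell L hL0 z0 hse, hLd, ← ENNReal.ofReal_mul (by positivity)]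
    congr 1
    have h1 : (Real.sqrt e / 2) ^ (2 * n) = (e / 4) ^ n := by
      rw [pow_mul, div_pow, Real.sq_sqrt hep.le]
      norm_num
    rw [h1]
    field_simp
  have A4 : ENNReal.ofReal ((e / 4) ^ n * om n / 2) ≤
      ENNReal.ofReal (∫ x in D.Z e, f x ∂(vm h)) := by
    rw [ofReal_integral_eq_lintegral_ofReal i0.integrableOn hnn, A3]
    exact A1.trans A2
  rcases ENNReal.ofReal_le_ofReal_iff'.1 A4 with h1 | h1
  · exact h1
  · have := om_pos n
    have h2 : 0 < (e / 4) ^ n * om n / 2 := by positivity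
    linarith

/-- **the Lelong lower bound** -/
theorem lelong (hn : 0 < n) (P : Part B) (h : HM (KB B)⁻¹) {i : B.ι} {q : T}
    (hi : q ∈ (B.e i).source) (hq : q ∈ D.V) (h0 : D.F q = 0)
    (hd : ((jac (D.G i) (B.e i q))ᵀ * (jac (D.G i) (B.e i q)).map conj).det ≠ 0) :
    om n / (2 * 128 ^ n) ≤ ∫ x in D.Z (1 / 2), dtM h (hsf B (D.cut F0)) x ∂(vm h) := by
  obtain ⟨e, he, he4, h1⟩ := D.lelong_loc hn h hi hq h0 hd
  refine le_trans ?_ (D.compare hn P h he he4)
  have h2 : (1 / (32 * e)) ^ n * ((e / 4) ^ n * om n / 2) = om n / (2 * 128 ^ n) := by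
    have h3 : (1 / (32 * e)) ^ n * (e / 4) ^ n = 1 / 128 ^ n := by
      rw [← mul_pow]
      have : 1 / (32 * e) * (e / 4) = 1 / 128 := by field_simp; norm_num
      rw [this, one_div_pow]
    calc (1 / (32 * e)) ^ n * ((e / 4) ^ n * om n / 2) =
        ((1 / (32 * e)) ^ n * (e / 4) ^ n) * (om n / 2) := by ring
      _ = _ := by rw [h3]; field_simp
  rw [← h2]
  exact mul_le_mul_of_nonneg_left h1 (by positivity)

end Dom

end

end Crest.Agent.R281.Hk_389
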