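import Crest.Agent.R281.Hk4_389
import Crest.Agent.R273.NormC_505

/-!
# R281 (S0424), S6-HARN (Hc), part 5 (helper389): uniform charts of the compact manifold

* `fam g z0 r` : the family `8 (g/g(z0) - 1)`, `(z_a - z0_a)/r`
* `up_M` : `∂∂̄ ∑|fam|² ≤ C (g_K + ∂ρ ∂̄ρ)`, `ρ = log |g|² - φ`
* `Uni K h C p`, `exists_uni` : the constants are uniform in `p ∈ M`
-/

set_option autoImplicit false
set_option linter.unusedSectionVars false
set_option linter.deprecated false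

open Set Filter Topology Complex MeasureTheory
open scoped ContDiff Matrix ComplexConjugate ComplexOrder ENNReal

namespace Crest.Agent.R281.Hk_389

open Crest.Agent.R275 Crest.Agent.R275.Geo Crest.Agent.R275.Core144 Crest.Agent.R275.EDR890
open Crest.Agent.R275.Pai323 Crest.Agent.R275.C1d194
open Crest.Agent.R273.Defs_333 Crest.Agent.R273.Hess_333 Crest.Agent.R273.HessB_333
open Crest.Agent.R273.HM_333 Crest.Agent.R273.Kah_333 Crest.Agent.R273.Vol_333
open Crest.Agent.R273.Vm_333 Crest.Agent.R273.StV_37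
open Crest.Agent.R273.Green_5 Crest.Agent.R273.FIa0_597 Crest.Agent.R273.FIb0_597
open Crest.Agent.R273
open Crest.Agent.R273.FS_333 (sq hess_sq wd_sq wd_sq' contDiffAt_of_hol)
open Crest.Agent.R281.Glob1_484

noncomputable section

variable {n N : ℕ}

/-! ### gradients -/

theorem gr_congr {u v : Cn n → ℝ} {z : Cn n} (h : u =ᶠ[𝓝 z] v) : gr u z = gr v z := by
  funext a
  have h1 : cu u =ᶠ[𝓝 z] cu v := by
    filter_upwards [h] with w hw
    show (u w : ℂ) = (v w : ℂ)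
    rw [hw]
  exact wd_congr h1 (false, a)

theorem gr_add' {u v : Cn n → ℝ} {z : Cn n} (hu : DifferentiableAt ℝ u z)
    (hv : DifferentiableAt ℝ v z) : gr (fun w => u w + v w) z = gr u z + gr v z := by
  funext a
  have e : cu (fun w => u w + v w) = fun w => cu u w + cu v w := by
    funext w; simp [cu]
  have hu' : DifferentiableAt ℝ (cu u) z := Complex.ofRealCLM.differentiableAt.comp z hu
  have hv' : DifferentiableAt ℝ (cu v) z := Complex.ofRealCLM.differentiableAt.comp z hv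
  show wd (false, a) (cu fun w => u w + v w) z = _
  rw [e, wd_add hu' hv']
  rfl

theorem gr_log_norm {g : Cn n → ℂ} {U : Set (Cn n)} (hU : IsOpen U) (hg : DifferentiableOn ℂ g U)
    {z : Cn n} (hz : z ∈ U) (h0 : g z ≠ 0) (a : Fin n) :
    gr (fun w => Real.log (‖g w‖ ^ 2)) z a =
      fderiv ℂ g z (EuclideanSpace.single a 1) / g z := by
  have h1 := wd_sq' (F := fun w (_ : Fin 1) => g w) hU (fun _ => hg) hz a
  have e : FS_333.sq (fun w (_ : Fin 1) => g w) = fun w => ‖g w‖ ^ 2 := by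
    funext w; simp [FS_333.sq]
  rw [e] at h1
  simp only [Finset.univ_unique, Finset.sum_singleton] at h1
  have hd : DifferentiableAt ℝ (fun w => ‖g w‖ ^ 2) z :=
    ((contDiffAt_of_hol hU hg hz).norm_sq ℝ).differentiableAt (by simp)
  have hp : (‖g z‖ ^ 2 : ℝ) ≠ 0 := pow_ne_zero 2 (norm_ne_zero_iff.2 h0)
  have h2 := wd_comp_real (φ := Real.log) (false, a) hd (Real.hasDerivAt_log hp)
  show wd (false, a) (cu fun w => Real.log (‖g w‖ ^ 2)) z = _
  rw [h2, h1]
  have h3 : ((‖g z‖ ^ 2 : ℝ) : ℂ) = g z * conj (g z) := by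
    rw [Complex.mul_conj, Complex.normSq_eq_norm_sq]
  have h4 : conj (g z) ≠ 0 := by simpa using h0
  rw [Complex.ofReal_inv, h3]
  field_simp

/-! ### the family -/

/-- the family `8 (g/g(z0) - 1)`, `(z_a - z0_a)/r` -/
def fam (g : Cn N → ℂ) (z0 : Cn N) (r : ℝ) (z : Cn N) : Fin (N + 1) → ℂ :=
  Fin.cons (8 * (g z / g z0 - 1)) (fun a => (z a - z0 a) / r)

theorem fam_diff {g : Cn N → ℂ} {z0 : Cn N} {r : ℝ} {U : Set (Cn N)}
    (hg : DifferentiableOn ℂ g U) (k : Fin (N + 1)) :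
    DifferentiableOn ℂ (fun z => fam g z0 r z k) U := by
  refine Fin.cases ?_ (fun a => ?_) k
  · show DifferentiableOn ℂ (fun z => 8 * (g z / g z0 - 1)) U
    have e : (fun z => 8 * (g z / g z0 - 1)) = fun z => 8 * (g z * (g z0)⁻¹ - 1) := by
      funext z; rw [div_eq_mul_inv]
    rw [e]
    exact ((hg.mul_const _).sub_const _).const_mul _
  · show DifferentiableOn ℂ (fun z : Cn N => (z a - z0 a) / (r : ℂ)) U
    have h1 : Differentiable ℂ (fun z : Cn N => z a) :=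
      (EuclideanSpace.proj a : Cn N →L[ℂ] ℂ).differentiable
    have e : (fun z : Cn N => (z a - z0 a) / (r : ℂ)) =
        fun z : Cn N => (z a - z0 a) * (r : ℂ)⁻¹ := by
      funext z; rw [div_eq_mul_inv]
    rw [e]
    exact ((h1.differentiableOn.sub_const _).mul_const _)

theorem fam_self {g : Cn N → ℂ} {z0 : Cn N} {r : ℝ} (h0 : g z0 ≠ 0) : fam g z0 r z0 = 0 := by
  funext k
  refine Fin.cases ?_ (fun a => ?_) k
  · show 8 * (g z0 / g z0 - 1) = 0
    rw [div_self h0]; simp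
  · show (z0 a - z0 a) / (r : ℂ) = 0
    simp

theorem sq_fam {g : Cn N → ℂ} {z0 : Cn N} {r : ℝ} (z : Cn N) :
    FS_333.sq (fam g z0 r) z = 64 * ‖g z / g z0 - 1‖ ^ 2 + (r ^ 2)⁻¹ * ‖z - z0‖ ^ 2 := by
  unfold FS_333.sq
  rw [Fin.sum_univ_succ, EuclideanSpace.norm_sq_eq, Finset.mul_sum]
  congr 1
  · show ‖8 * (g z / g z0 - 1)‖ ^ 2 = _
    rw [norm_mul, mul_pow]
    norm_num
  · refine Finset.sum_congr rfl fun a _ => ?_
    show ‖(z a - z0 a) / (r : ℂ)‖ ^ 2 = (r ^ 2)⁻¹ * ‖(z - z0) a‖ ^ 2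
    rw [norm_div, div_pow, Complex.norm_real, Real.norm_eq_abs, sq_abs, div_eq_mul_inv, mul_comm]
    rfl

theorem jac_fam {g : Cn N → ℂ} {z0 : Cn N} {r : ℝ} {U : Set (Cn N)} (hU : IsOpen U)
    (hg : DifferentiableOn ℂ g U) {z : Cn N} (hz : z ∈ U) :
    (jac (fam g z0 r) z)ᵀ * (jac (fam g z0 r) z).map conj =
      Matrix.vecMulVec (fun a => (8 / g z0) * fderiv ℂ g z (EuclideanSpace.single a 1))
        (star fun a => (8 / g z0) * fderiv ℂ g z (EuclideanSpace.single a 1)) +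
      (((r ^ 2)⁻¹ : ℝ) : ℂ) • (1 : Matrix (Fin N) (Fin N) ℂ) := by
  have hgd : DifferentiableAt ℂ g z := hg.differentiableAt (hU.mem_nhds hz)
  have r0 : ∀ a, jac (fam g z0 r) z 0 a =
      (8 / g z0) * fderiv ℂ g z (EuclideanSpace.single a 1) := by
    intro a
    show fderiv ℂ (fun z => 8 * (g z / g z0 - 1)) z (EuclideanSpace.single a 1) = _
    have h1 : HasFDerivAt (fun z => 8 * (g z / g z0 - 1)) ((8 / g z0) • fderiv ℂ g z) z := by
      have h2 := ((hgd.hasFDerivAt.mul_const (g z0)⁻¹).sub_const 1).const_mul 8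
      have e1 : (fun z => 8 * (g z * (g z0)⁻¹ - 1)) = fun z => 8 * (g z / g z0 - 1) := by
        funext z; rw [div_eq_mul_inv]
      rw [e1] at h2
      refine h2.congr_fderiv ?_
      rw [smul_smul, div_eq_mul_inv]
    rw [h1.fderiv]
    rfl
  have rs : ∀ c a, jac (fam g z0 r) z (Fin.succ c) a =
      if c = a then ((r : ℂ))⁻¹ else 0 := by
    intro c a
    show fderiv ℂ (fun z : Cn N => (z c - z0 c) / (r : ℂ)) z (EuclideanSpace.single a 1) = _
    have h1 : HasFDerivAt (fun z : Cn N => (z c - z0 c) / (r : ℂ))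
        ((r : ℂ)⁻¹ • (EuclideanSpace.proj c : Cn N →L[ℂ] ℂ)) z := by
      have h2 := (((EuclideanSpace.proj c : Cn N →L[ℂ] ℂ).hasFDerivAt (x := z)).sub_const
        (z0 c)).mul_const (r : ℂ)⁻¹
      exact h2
    rw [h1.fderiv]
    show (r : ℂ)⁻¹ * (EuclideanSpace.single a (1 : ℂ) : Cn N) c = _
    rw [EuclideanSpace.single_apply]
    split_ifs <;> simp
  ext a b
  rw [Matrix.mul_apply, Fin.sum_univ_succ]
  simp only [Matrix.transpose_apply, Matrix.map_apply, r0, rs, Matrix.add_apply,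
    Matrix.vecMulVec_apply, Matrix.smul_apply, Matrix.one_apply, Pi.star_apply, RCLike.star_def,
    smul_eq_mul]
  congr 1
  rw [Finset.sum_eq_single a]
  · by_cases hab : a = b
    · simp only [hab, if_true, mul_one, map_inv₀, Complex.conj_ofReal]
      push_cast
      rw [pow_two, mul_inv]
    · simp [hab]
  · intro c _ hc
    simp [hc]
  · intro h; exact absurd (Finset.mem_univ a) h

/-! ### the upper bound -/

theorem psd_two {v p q : Fin N → ℂ} {κ : ℂ} (hv : v = κ • (p + q)) (hκ : ‖κ‖ ^ 2 ≤ 81) :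
    ((162 : ℂ) • Matrix.vecMulVec p (star p) + (162 : ℂ) • Matrix.vecMulVec q (star q) -
      Matrix.vecMulVec v (star v)).PosSemidef := by
  have e : (162 : ℂ) • Matrix.vecMulVec p (star p) + (162 : ℂ) • Matrix.vecMulVec q (star q) -
      Matrix.vecMulVec v (star v) =
      (((‖κ‖ ^ 2 : ℝ)) : ℂ) • Matrix.vecMulVec (p - q) (star (p - q)) +
        (((162 - 2 * ‖κ‖ ^ 2 : ℝ)) : ℂ) • (Matrix.vecMulVec p (star p) +
          Matrix.vecMulVec q (star q)) := by
    have hk : (((‖κ‖ ^ 2 : ℝ)) : ℂ) = κ * conj κ := by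
      rw [Complex.mul_conj, Complex.normSq_eq_norm_sq]
    rw [Complex.ofReal_sub, Complex.ofReal_mul, hk, hv]
    ext a b
    simp only [Matrix.sub_apply, Matrix.add_apply, Matrix.smul_apply, Matrix.vecMulVec_apply,
      Pi.star_apply, Pi.smul_apply, Pi.add_apply, Pi.sub_apply, smul_eq_mul, RCLike.star_def,
      map_mul, map_add, map_sub]
    push_cast
    ring
  rw [e]
  refine Matrix.PosSemidef.add ?_ ?_
  · exact (Matrix.posSemidef_vecMulVec_self_star _).smul (by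
      exact_mod_cast (by positivity : (0 : ℝ) ≤ ‖κ‖ ^ 2))
  · refine Matrix.PosSemidef.smul ((Matrix.posSemidef_vecMulVec_self_star _).add
      (Matrix.posSemidef_vecMulVec_self_star _)) ?_
    exact_mod_cast (by linarith : (0 : ℝ) ≤ 162 - 2 * ‖κ‖ ^ 2)

theorem up_M {U : Set (Cn N)} (hU : IsOpen U) {g : Cn N → ℂ} (hg : DifferentiableOn ℂ g U)
    {φ ρ : Cn N → ℝ} {z0 z : Cn N} (hz : z ∈ U) (h0 : g z0 ≠ 0) (hgz : g z ≠ 0)
    (hφ : DifferentiableAt ℝ φ z)
    (hρ : ρ =ᶠ[𝓝 z] fun w => Real.log (‖g w‖ ^ 2) - φ w)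
    (hκ : ‖g z / g z0‖ ≤ 9 / 8) {r C : ℝ} {Km : Matrix (Fin N) (Fin N) ℂ} (hC : 162 ≤ C)
    (hK : ((C : ℂ) • Km - ((162 : ℂ) • Matrix.vecMulVec (gr φ z) (star (gr φ z)) +
      (((r ^ 2)⁻¹ : ℝ) : ℂ) • (1 : Matrix (Fin N) (Fin N) ℂ))).PosSemidef) :
    ((C : ℂ) • (Km + Matrix.vecMulVec (gr ρ z) (star (gr ρ z))) -
      (jac (fam g z0 r) z)ᵀ * (jac (fam g z0 r) z).map conj).PosSemidef := by
  have hlog : DifferentiableAt ℝ (fun w => Real.log (‖g w‖ ^ 2)) z := by
    have hd : DifferentiableAt ℝ (fun w => ‖g w‖ ^ 2) z :=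
      ((contDiffAt_of_hol hU hg hz).norm_sq ℝ).differentiableAt (by simp)
    exact hd.log (pow_ne_zero 2 (norm_ne_zero_iff.2 hgz))
  have hρd : DifferentiableAt ℝ ρ z := by
    refine DifferentiableAt.congr_of_eventuallyEq ?_ hρ
    exact hlog.sub hφ
  have h1 : gr (fun w => Real.log (‖g w‖ ^ 2)) z = gr ρ z + gr φ z := by
    rw [← gr_add' hρd hφ]
    refine gr_congr ?_
    filter_upwards [hρ] with w hw
    rw [hw]; ring
  set v : Fin N → ℂ := fun a => (8 / g z0) * fderiv ℂ g z (EuclideanSpace.single a 1) with hv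
  have hv' : v = (8 * (g z / g z0)) • (gr ρ z + gr φ z) := by
    rw [← h1]
    funext a
    rw [Pi.smul_apply, gr_log_norm hU hg hz hgz, smul_eq_mul, hv]
    field_simp
  have hκ' : ‖(8 * (g z / g z0) : ℂ)‖ ^ 2 ≤ 81 := by
    rw [norm_mul]
    have h2 : ‖(8 : ℂ)‖ = 8 := by norm_num
    rw [h2]
    have h3 := norm_nonneg (g z / g z0)
    nlinarith
  have h2 := psd_two hv' hκ'
  rw [jac_fam hU hg hz, ← hv]
  have e : (C : ℂ) • (Km + Matrix.vecMulVec (gr ρ z) (star (gr ρ z))) -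
      (Matrix.vecMulVec v (star v) + (((r ^ 2)⁻¹ : ℝ) : ℂ) • (1 : Matrix (Fin N) (Fin N) ℂ)) =
      ((C : ℂ) • Km - ((162 : ℂ) • Matrix.vecMulVec (gr φ z) (star (gr φ z)) +
        (((r ^ 2)⁻¹ : ℝ) : ℂ) • (1 : Matrix (Fin N) (Fin N) ℂ))) +
      (((C - 162 : ℝ)) : ℂ) • Matrix.vecMulVec (gr ρ z) (star (gr ρ z)) +
      ((162 : ℂ) • Matrix.vecMulVec (gr ρ z) (star (gr ρ z)) +
        (162 : ℂ) • Matrix.vecMulVec (gr φ z) (star (gr φ z)) -
        Matrix.vecMulVec v (star v)) := by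
    rw [Complex.ofReal_sub, sub_smul, smul_add]
    push_cast
    abel
  rw [e]
  refine (hK.add ?_).add h2
  exact (Matrix.posSemidef_vecMulVec_self_star _).smul (by
    exact_mod_cast (by linarith : (0 : ℝ) ≤ C - 162))

/-! ### uniform charts -/

theorem psd_of_bounds {G S : Matrix (Fin N) (Fin N) ℂ} (hG : G.IsHermitian) (hS : S.IsHermitian)
    {c b C : ℝ} (hc : ∀ v : Fin N → ℂ, c * NormC_505.nsq v ≤ (star v ⬝ᵥ (G *ᵥ v)).re)
    (hb : ∀ v : Fin N → ℂ, (star v ⬝ᵥ (S *ᵥ v)).re ≤ b * NormC_505.nsq v) (hC : 0 ≤ C)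
    (hCb : b ≤ C * c) : ((C : ℂ) • G - S).PosSemidef := by
  have hGC : ((C : ℂ) • G).IsHermitian := by
    unfold Matrix.IsHermitian
    rw [Matrix.conjTranspose_smul, hG.eq]
    congr 1
    exact Complex.conj_ofReal C
  have hH := hGC.sub hS
  refine Matrix.PosSemidef.of_dotProduct_mulVec_nonneg hH fun v => ?_
  have him : (star v ⬝ᵥ (((C : ℂ) • G - S) *ᵥ v)).im = 0 := hH.im_star_dotProduct_mulVec_self v
  refine Complex.le_def.2 ⟨?_, by rw [him]; simp⟩
  rw [Complex.zero_re, Matrix.sub_mulVec, Matrix.smul_mulVec, dotProduct_sub, dotProduct_smul,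
    Complex.sub_re, smul_eq_mul, Complex.re_ofReal_mul]
  have h1 := hc v
  have h2 := hb v
  have h3 := NormC_505.nsq_nonneg v
  have h4 : C * (c * NormC_505.nsq v) ≤ C * (star v ⬝ᵥ (G *ᵥ v)).re :=
    mul_le_mul_of_nonneg_left h1 hC
  have h5 : b * NormC_505.nsq v ≤ C * c * NormC_505.nsq v := mul_le_mul_of_nonneg_right hCb h3
  linarith

section uni

variable {M : Type} [TopologicalSpace M] {A : Atl N M} {L : LB A}

/-- the matrix to be estimated -/
def Sm' (φ : Cn N → ℝ) (r : ℝ) (z : Cn N) : Matrix (Fin N) (Fin N) ℂ :=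
  (162 : ℂ) • Matrix.vecMulVec (gr φ z) (star (gr φ z)) +
    (((r ^ 2)⁻¹ : ℝ) : ℂ) • (1 : Matrix (Fin N) (Fin N) ℂ)

theorem Sm'_psd (φ : Cn N → ℝ) (r : ℝ) (z : Cn N) : (Sm' φ r z).PosSemidef := by
  unfold Sm'
  refine Matrix.PosSemidef.add ?_ ?_
  · exact (Matrix.posSemidef_vecMulVec_self_star _).smul (by
      exact_mod_cast (by norm_num : (0 : ℝ) ≤ 162))
  · exact Matrix.PosSemidef.one.smul (by
      exact_mod_cast (by positivity : (0 : ℝ) ≤ (r ^ 2)⁻¹))

/-- uniform data near `p` in the chart `i` -/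
structure Uni (K : Kah A) (h : HM L) (C : ℝ) (p : M) (i : A.ι) (r : ℝ) : Prop where
  r0 : 0 < r
  src : p ∈ (A.e i).source
  ball : Metric.closedBall (A.e i p) r ⊆ (A.e i).target
  osc : ∀ z ∈ Metric.closedBall (A.e i p) r, |h.wt i z - h.wt i (A.e i p)| ≤ 1 / 4
  up : ∀ z ∈ Metric.closedBall (A.e i p) r,
    ((C : ℂ) • K.g i ((A.e i).symm z) - Sm' (h.wt i) r z).PosSemidef

theorem Uni.mono {K : Kah A} {h : HM L} {C C' : ℝ} {p : M} {i : A.ι} {r : ℝ}
    (H : Uni K h C p i r) (hC : C ≤ C') : Uni K h C' p i r where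
  r0 := H.r0
  src := H.src
  ball := H.ball
  osc := H.osc
  up z hz := by
    have h1 := H.up z hz
    have h2 : ((((C' - C : ℝ)) : ℂ) • K.g i ((A.e i).symm z)).PosSemidef :=
      (K.pos i _ ((A.e i).map_target (H.ball hz))).posSemidef.smul (by
        exact_mod_cast (by linarith : (0 : ℝ) ≤ C' - C))
    have e : (C' : ℂ) • K.g i ((A.e i).symm z) - Sm' (h.wt i) r z =
        ((C : ℂ) • K.g i ((A.e i).symm z) - Sm' (h.wt i) r z) +
          (((C' - C : ℝ)) : ℂ) • K.g i ((A.e i).symm z) := by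
      rw [Complex.ofReal_sub, sub_smul]; abel
    rw [e]
    exact h1.add h2

theorem exists_uni_loc (K : Kah A) (h : HM L) (x0 : M) :
    ∃ t ∈ 𝓝 x0, ∃ C : ℝ, 162 ≤ C ∧ ∀ p ∈ t, ∃ i r, Uni K h C p i r := by
  set i := ch A x0 with hi
  have hx0 : x0 ∈ (A.e i).source := mem_ch A x0
  set z0 := A.e i x0 with hz0
  have hz0t : z0 ∈ (A.e i).target := (A.e i).map_source hx0
  obtain ⟨R2, hR2, hsub2⟩ := Metric.nhds_basis_closedBall.mem_iff.1
    ((A.e i).open_target.mem_nhds hz0t)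
  set R := R2 / 2 with hR
  have hR0 : 0 < R := by positivity
  set Q := Metric.closedBall z0 R2 with hQ
  have hQc : IsCompact Q := isCompact_closedBall _ _
  have hwc : ContinuousOn (h.wt i) Q := ((wt_smooth h i).continuousOn).mono hsub2
  have huc := hQc.uniformContinuousOn_of_continuous hwc
  obtain ⟨δ, hδ, hδ2⟩ := Metric.uniformContinuousOn_iff.1 huc (1 / 4) (by norm_num)
  set r := min (δ / 2) R with hr
  have hr0 : 0 < r := lt_min (by positivity) hR0
  have hrδ : r < δ := (min_le_left _ _).trans_lt (by linarith)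
  have hrR : r ≤ R := min_le_right _ _
  -- bounds
  have hgc : ∀ a b, ContinuousOn (fun z => K.g i ((A.e i).symm z) a b) Q := fun a b =>
    (K.sm i a b).continuousOn.mono hsub2
  have hgp : ∀ z ∈ Q, (K.g i ((A.e i).symm z)).PosDef := fun z hz =>
    K.pos i _ ((A.e i).map_target (hsub2 hz))
  obtain ⟨c, hc0, hc⟩ := NormC_505.exists_lower hQc (H := fun z => K.g i ((A.e i).symm z)) hgc hgp
  have hSc : ∀ a b, ContinuousOn (fun z => Sm' (h.wt i) r z a b) Q := by
    intro a b z hz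
    have hcd : ContDiffAt ℝ ∞ (h.wt i) z :=
      (wt_smooth h i).contDiffAt ((A.e i).open_target.mem_nhds (hsub2 hz))
    have h1 : ∀ a, ContinuousAt (fun z => gr (h.wt i) z a) z := fun a =>
      (contDiffAt_wd (contDiffAt_cu hcd) (false, a)).continuousAt
    have h2 : ContinuousAt (fun z => (162 : ℂ) * (gr (h.wt i) z a * star (gr (h.wt i) z b)) +
        (((r ^ 2)⁻¹ : ℝ) : ℂ) * (1 : Matrix (Fin N) (Fin N) ℂ) a b) z := by
      exact (continuousAt_const.mul ((h1 a).mul (h1 b).star)).add continuousAt_const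
    exact h2.continuousWithinAt
  obtain ⟨b, hb0, hb⟩ := NormC_505.exists_upper hQc (H := Sm' (h.wt i) r) hSc
  refine ⟨(A.e i).source ∩ (A.e i) ⁻¹' Metric.ball z0 R, ?_, max 162 (b / c), le_max_left _ _,
    fun p hp => ⟨i, r, ?_⟩⟩
  · refine ((A.e i).isOpen_inter_preimage Metric.isOpen_ball).mem_nhds ⟨hx0, ?_⟩
    exact Metric.mem_ball_self hR0
  · have hpQ : Metric.closedBall (A.e i p) r ⊆ Q := by
      intro z hz
      have h1 : dist z (A.e i p) ≤ r := hz
      have h2 : dist (A.e i p) z0 < R := hp.2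
      show dist z z0 ≤ R2
      have h3 := dist_triangle z (A.e i p) z0
      have h4 : R2 = R + R := by rw [hR]; ring
      linarith
    refine ⟨hr0, hp.1, hpQ.trans hsub2, fun z hz => ?_, fun z hz => ?_⟩
    · have h1 : dist z (A.e i p) < δ := lt_of_le_of_lt hz hrδ
      have h2 := hδ2 z (hpQ hz) (A.e i p) (hpQ (Metric.mem_closedBall_self hr0.le)) h1
      rw [Real.dist_eq] at h2
      exact h2.le
    · refine psd_of_bounds (hgp z (hpQ hz)).1 (Sm'_psd _ _ _).1 (hc z (hpQ hz)) (hb z (hpQ hz))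
        ((by norm_num : (0 : ℝ) ≤ 162).trans (le_max_left _ _)) ?_
      calc b = b / c * c := (div_mul_cancel₀ b hc0.ne').symm
        _ ≤ max 162 (b / c) * c := mul_le_mul_of_nonneg_right (le_max_right _ _) hc0.le

/-- **uniform charts** -/
theorem exists_uni [CompactSpace M] (K : Kah A) (h : HM L) :
    ∃ C : ℝ, 162 ≤ C ∧ ∀ p, ∃ i r, Uni K h C p i r := by
  have H : ∃ C : ℝ, 162 ≤ C ∧ ∀ p ∈ (univ : Set M), ∃ i r, Uni K h C p i r := by
    refine isCompact_univ.induction_on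
      (p := fun S => ∃ C : ℝ, 162 ≤ C ∧ ∀ p ∈ S, ∃ i r, Uni K h C p i r) ?_ ?_ ?_ ?_
    · exact ⟨162, le_rfl, fun p hp => absurd hp (notMem_empty p)⟩
    · rintro S S' hSS' ⟨C, hC, h1⟩
      exact ⟨C, hC, fun p hp => h1 p (hSS' hp)⟩
    · rintro S S' ⟨C, hC, h1⟩ ⟨C', hC', h2⟩
      refine ⟨max C C', hC.trans (le_max_left _ _), fun p hp => ?_⟩
      rcases hp with hp | hp
      · obtain ⟨i, r, H⟩ := h1 p hp
        exact ⟨i, r, H.mono (le_max_left _ _)⟩
      · obtain ⟨i, r, H⟩ := h2 p hp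
        exact ⟨i, r, H.mono (le_max_right _ _)⟩
    · intro x _
      obtain ⟨t, ht, C, hC, h1⟩ := exists_uni_loc K h x
      exact ⟨t, mem_nhdsWithin_of_mem_nhds ht, C, hC, h1⟩
  obtain ⟨C, hC, h1⟩ := H
  exact ⟨C, hC, fun p => h1 p (mem_univ p)⟩

end uni

end

end Crest.Agent.R281.Hk_389
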