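import Crest.Agent.R281.Hk6_389
import Crest.Agent.R281.Har5_331

/-!
# R281 (S0424), S6-HARN, part 7 (helper389): the uniform Harnack inequality, unconditional

* `osc_le`  : compact connected immersed manifolds `f : T → M` of volume `≤ v`
* `osc_fam` : the same for the leaves `Fam A d 0 U` of helper664
-/

set_option autoImplicit false
set_option linter.unusedSectionVars false

open Set Filter Topology Complex MeasureTheory Function
open scoped ContDiff Matrix ComplexConjugate ComplexOrder ENNReal

namespace Crest.Agent.R281.Hk_389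

open Crest.Agent.R275.Geo Crest.Agent.R275.Core144 Crest.Agent.R275.EDR890
open Crest.Agent.R273.Defs_333 Crest.Agent.R273.Kah_333 Crest.Agent.R273.Vol_333
open Crest.Agent.R273.HM_333 Crest.Agent.R273.FIc0_597
open Crest.Agent.R273.Vm_333 Crest.Agent.R273.Map_835 Crest.Agent.R273.KahI_645
open Crest.Agent.R281.Glob1_484 Crest.Agent.R281.S6D_664 Crest.Agent.R281.Har_331
open Crest.Agent.R281.Defs_273

noncomputable section

variable {N d : ℕ} {M : Type} [TopologicalSpace M] {A : Atl N M} {L : LB A}

/-- **uniform Harnack inequality**, compact connected `T` -/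
theorem osc_le [T2Space M] [CompactSpace M] (K : Kah A) (h : HM L) (hnef : NefW K L) {k : ℕ}
    (hk : 0 < k) (hd : 0 < d) (v : ℝ) :
    ∃ C : ℝ, ∀ (T : Type) [TopologicalSpace T] [T2Space T] [CompactSpace T] [ConnectedSpace T]
      [MeasurableSpace T] [BorelSpace T] (B : Atl d T) [Countable B.ι] (_ : Part B) (f : T → M)
      (hf : HolMap B A f) (hi : Imm B A f) (s : A.ι → M → ℂ), IsHS (L ^ k) univ s →
      (∀ t, 0 < nsM (pow h k) s (f t)) → (vm (volK (pullI K hf hi))).real univ ≤ v →
      ∀ x y : T, rho (pow h k) s f x - rho (pow h k) s f y ≤ C := by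
  obtain ⟨c1, hc1, hlow⟩ := low_of (d := d) K (pow h k) hd
  exact osc_of_low' K h hnef hk hc1 hlow v

/-- **uniform Harnack inequality for leaves** -/
theorem osc_fam [T2Space M] [CompactSpace M] (K : Kah A) (h : HM L) (hnef : NefW K L) {k : ℕ}
    (hk : 0 < k) (hd : 0 < d) (v : ℝ) :
    ∃ C : ℝ, ∀ (U : Set (Cn 0)) (F : Fam A d 0 U), (F.mu K univ).toReal ≤ v →
      ∀ s, IsHS (L ^ k) univ s → F.NZ s → ∀ x y : F.V,
      Real.log (nsM (pow h k) s (F.i x)) - Real.log (nsM (pow h k) s (F.i y)) ≤ C := by
  obtain ⟨c1, hc1, hlow⟩ := low_of (d := d) K (pow h k) hd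
  exact harnack_leaf K h hnef hk hc1 hlow v

end

end Crest.Agent.R281.Hk_389
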