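import Crest.Agent.R281.OmH3_331

/-!
# R281 (S0424), leaf OM-HAR (helper331), part 4: a leaf of finite volume is compact

* `LowP` : the lower bound for `T` with `{a ≤ ρ}` compact; `LowP.low`
* `compact_leaf` : `T` compact.
-/

set_option autoImplicit false
set_option linter.unusedSectionVars false

open Set Filter Topology Complex MeasureTheory Function
open scoped ContDiff Matrix ComplexConjugate ComplexOrder

namespace Crest.Agent.R281.Har_331

open Crest.Agent.R275 Crest.Agent.R275.Geo Crest.Agent.R275.Core144 Crest.Agent.R275.EDR890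
open Crest.Agent.R273.Defs_333 Crest.Agent.R273.Hess_333 Crest.Agent.R273.HessB_333
open Crest.Agent.R273.HM_333 Crest.Agent.R273.Kah_333 Crest.Agent.R273.Vol_333
open Crest.Agent.R273.Vm_333 Crest.Agent.R273.Map_835 Crest.Agent.R273.KahI_645
open Crest.Agent.R273.Green_5 Crest.Agent.R273.FIa0_597 Crest.Agent.R273.FIb0_597
open Crest.Agent.R273.FIc0_597 Crest.Agent.R273
open Crest.Agent.R273.SchI_152 (Dg sm_sq Dg_nonneg continuous_Dg)
open Crest.Agent.R281.Glob1_484 Crest.Agent.R281.S6D_664 Crest.Agent.R281.Defs_273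

noncomputable section

variable {n : ℕ} {M : Type} [TopologicalSpace M] {A : Atl n M} {L L' : LB A}

/-- the lower bound, `T` not necessarily compact -/
def LowP (K : Kah A) (h : HM L) (d : ℕ) (c1 : ℝ) : Prop :=
  ∀ (T : Type) [TopologicalSpace T] [T2Space T] [ConnectedSpace T]
    [MeasurableSpace T] [BorelSpace T] (B : Atl d T) [Countable B.ι] (_ : Part B) (f : T → M)
    (hf : HolMap B A f) (hi : Imm B A f) (s : A.ι → M → ℂ), IsHS L univ s →
    (∀ t, 0 < nsM h s (f t)) → (∀ a, IsCompact {t | a ≤ rho h s f t}) → ∀ q : T,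
    c1 ≤ (vm (volK (pullI K hf hi))).real
        {x | rho h s f q - 1 < rho h s f x ∧ rho h s f x < rho h s f q + 1} +
      ∫ x in {x | rho h s f q - 1 < rho h s f x ∧ rho h s f x < rho h s f q + 1},
        Dg (pullI K hf hi) (rho h s f) x ∂(vm (volK (pullI K hf hi)))

theorem LowP.low {K : Kah A} {h : HM L} {d : ℕ} {c1 : ℝ} (H : LowP K h d c1) : Low K h d c1 := by
  intro T _ _ _ _ _ _ B _ P f hf hi s hs hp q
  have cρ : Continuous (rho h s f) := cont_sm (sm_rho h hs hf hp)
  exact H T B P f hf hi s hs hp (fun a => (isClosed_le continuous_const cρ).isCompact) q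

theorem exists_D [CompactSpace M] (K : Kah A) {φ : M → ℝ} (hφ : A.Sm φ) :
    ∃ D : ℝ, ∀ x, Dg K φ x ≤ D ^ 2 := by
  obtain ⟨D0, hD0⟩ := isCompact_univ.exists_bound_of_continuousOn
    (continuous_Dg K hφ).continuousOn
  refine ⟨max D0 1, fun x => ?_⟩
  have h1 := (le_abs_self _).trans (hD0 x (mem_univ x))
  have h2 : D0 ≤ max D0 1 := le_max_left _ _
  have h3 : 1 ≤ max D0 1 := le_max_right _ _
  nlinarith

variable {T : Type} [TopologicalSpace T] {d : ℕ} {B : Atl d T}
variable [T2Space T] [MeasurableSpace T] [BorelSpace T] [Countable B.ι]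

section leaf

variable [CompactSpace M] (K : Kah A) {f : T → M} (hf : HolMap B A f) (hi : Imm B A f)
    (P : Part B) (h : HM L) {k : ℕ} {s : A.ι → M → ℂ} (hs : IsHS (L ^ k) univ s)
    (hp : ∀ t, 0 < nsM (pow h k) s (f t))
    (hprop : ∀ a, IsCompact {t | a ≤ rho (pow h k) s f t})
    (hfin : IsFiniteMeasure (vm (volK (pullI K hf hi)))) (hk : 0 < k)

include P h hs hp hprop hfin hk

/-- `∫ tr Θ'` does not depend on the metric -/
theorem int_trT_eq (h' : HM L) :
    Integrable (trT K hf hi (cur h')) (vm (volK (pullI K hf hi))) ∧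
    ∫ t, trT K hf hi (cur h') t ∂(vm (volK (pullI K hf hi))) =
      ∫ t, trT K hf hi (cur h) t ∂(vm (volK (pullI K hf hi))) := by
  obtain ⟨D, hD⟩ := exists_D K (sm_ratio h' h)
  have H := har0_leaf K hf hi P h hs hp hprop hfin hk (sm_ratio h' h) hD
  have e : trT K hf hi (cur h') = fun y => trT K hf hi (cur h) y +
      Lap (pullI K hf hi) (fun t => ratio h' h (f t)) y := funext fun y => trT_cur K hf hi h h' y
  have iQ := H.iQ
  have iΦ := H.iΦ
  have h0 := H.int_zero
  rw [e]
  refine ⟨iQ.add iΦ, ?_⟩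
  rw [integral_add iQ iΦ, h0, add_zero]

/-- the mass bounds give `∫ tr Θ = 0` -/
theorem int_trT_zero (hnef : NefW K L)
    (hM2 : ∀ μ : ℝ, 0 < μ → ∃ e0 : ℝ, 0 < e0 ∧ ∀ e : ℝ, 0 < e → e < e0 → ∀ h' : HM L,
      (∀ i, ∀ x ∈ (A.e i).source, (cur h' i x + (e : ℂ) • K.g i x).PosSemidef) →
      ∫ t, (trT K hf hi (cur h') t + 2 * e * d) ∂(vm (volK (pullI K hf hi))) ≤ μ) :
    ∫ t, trT K hf hi (cur h) t ∂(vm (volK (pullI K hf hi))) = 0 := by
  set μT := vm (volK (pullI K hf hi)) with hμT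
  set V := μT.real univ with hV
  have hV0 : 0 ≤ V := measureReal_nonneg
  refine le_antisymm ?_ ?_
  · refine le_of_forall_pos_le_add fun μ hμ => ?_
    obtain ⟨e0, he0, hM⟩ := hM2 μ hμ
    obtain ⟨h', hh'⟩ := hnef (e0 / 2) (by positivity)
    have h1 := hM (e0 / 2) (by positivity) (by linarith) h' hh'
    obtain ⟨i1, h2⟩ := int_trT_eq K hf hi P h hs hp hprop hfin hk h'
    rw [integral_add i1 (integrable_const _), h2, integral_const, smul_eq_mul] at h1
    have h3 : 0 ≤ μT.real univ * (2 * (e0 / 2) * d) := by positivity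
    linarith
  · refine le_of_forall_pos_le_add fun μ hμ => ?_
    obtain ⟨h', hh'⟩ := hnef (μ / (d * V + 1)) (by positivity)
    obtain ⟨i1, h2⟩ := int_trT_eq K hf hi P h hs hp hprop hfin hk h'
    have h3 : ∫ _t : T, -(μ / (d * V + 1) * d) ∂μT ≤ ∫ t, trT K hf hi (cur h') t ∂μT :=
      integral_mono (integrable_const _) i1 fun t => trT_ge K hf hi hh' t
    rw [integral_const, smul_eq_mul, h2, ← hV] at h3
    have h4 : V * (μ / (d * V + 1) * d) ≤ μ := by
      have h5 : V * (μ / (d * V + 1) * d) = μ * ((d * V) / (d * V + 1)) := by field_simp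
      rw [h5]
      refine mul_le_of_le_one_right hμ.le ?_
      rw [div_le_one (by positivity)]; linarith
    linarith

/-- **a leaf of finite volume with `{a ≤ ρ}` compact and small mass is compact** -/
theorem compact_leaf [ConnectedSpace T] (hnef : NefW K L) {c1 : ℝ} (hc1 : 0 < c1)
    (hlow : LowP K (pow h k) d c1)
    (hM2 : ∀ μ : ℝ, 0 < μ → ∃ e0 : ℝ, 0 < e0 ∧ ∀ e : ℝ, 0 < e → e < e0 → ∀ h' : HM L,
      (∀ i, ∀ x ∈ (A.e i).source, (cur h' i x + (e : ℂ) • K.g i x).PosSemidef) →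
      ∫ t, (trT K hf hi (cur h') t + 2 * e * d) ∂(vm (volK (pullI K hf hi))) ≤ μ) :
    CompactSpace T := by
  set KT := pullI K hf hi with hKT
  set μT := vm (volK KT) with hμT
  set V := μT.real univ with hV
  have hV0 : 0 ≤ V := measureReal_nonneg
  set ρ := rho (pow h k) s f with hρ
  have sρ : B.Sm ρ := sm_rho _ hs hf hp
  have cρ : Continuous ρ := cont_sm sρ
  have hQ0 := int_trT_zero K hf hi P h hs hp hprop hfin hk hnef hM2
  set ε : ℝ := c1 / (8 * (k * d * V) + 1) with hε
  have hden : 0 < 8 * ((k : ℝ) * d * V) + 1 := by positivity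
  have hε0 : 0 < ε := div_pos hc1 hden
  obtain ⟨h', hh'⟩ := hnef ε hε0
  obtain ⟨D, hD⟩ := exists_D K (sm_ratio h' h)
  have H0 := har0_leaf K hf hi P h hs hp hprop hfin hk (sm_ratio h' h) hD
  have H := H0.har hQ0 (e := ε * d) (by positivity) fun x => by
    rw [← trT_cur K hf hi h h' x]
    exact trT_ge K hf hi hh' x
  have he : 8 * (k * (ε * d) * μT.real univ) ≤ c1 := by
    have h2 : 8 * ((k : ℝ) * (ε * d) * V) = ε * (8 * (k * d * V)) := by ring
    have h3 : ε * (8 * ((k : ℝ) * d * V) + 1) = c1 := div_mul_cancel₀ _ hden.ne'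
    rw [← hV, h2]
    linarith
  set C := 6 + 4 / c1 * (μT.real univ + (k : ℝ) ^ 2 * D ^ 2 * μT.real univ) with hC
  have hC0 : 0 ≤ C := by positivity
  obtain ⟨x⟩ := (inferInstance : Nonempty T)
  have key : ∀ y : T, ρ x - C ≤ ρ y := by
    intro y
    rcases le_total (ρ x) (ρ y) with hxy | hxy
    · linarith
    · have h1 := H.osc_le (continuous_Dg KT sρ).measurable hc1 hxy (fun c h0 h1 => by
        obtain ⟨q, rfl⟩ := mem_range_of_exists_le_of_exists_ge cρ ⟨y, h0⟩ ⟨x, h1⟩
        exact hlow T B P f hf hi s hs hp hprop q) he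
      linarith
  have hu : {t | ρ x - C ≤ ρ t} = univ := eq_univ_of_forall key
  have h1 := hprop (ρ x - C)
  rw [hu] at h1
  exact ⟨h1⟩

end leaf

end

end Crest.Agent.R281.Har_331
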