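import Crest.Agent.R281.Hk6_389
import Crest.Agent.R281.OmH4_331

/-!
# R281 (S0424), S6-HARN, part 8 (helper389): `LowP` of helper331 (leaves with `{a ≤ ρ}` compact)
-/

set_option autoImplicit false
set_option linter.unusedSectionVars false

open Set Filter Topology Complex MeasureTheory Function
open scoped ContDiff Matrix ComplexConjugate ComplexOrder ENNReal

namespace Crest.Agent.R281.Hk_389

open Crest.Agent.R275.Geo Crest.Agent.R275.Core144 Crest.Agent.R275.EDR890
open Crest.Agent.R273.Defs_333 Crest.Agent.R273.Kah_333 Crest.Agent.R273.Vol_333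
open Crest.Agent.R273.HM_333 Crest.Agent.R273.FIc0_597
open Crest.Agent.R273.Vm_333 Crest.Agent.R273.Map_835 Crest.Agent.R273.KahI_645
open Crest.Agent.R273.SchI_152 (Dg Dg_nonneg continuous_Dg)
open Crest.Agent.R281.Glob1_484 Crest.Agent.R281.S6D_664 Crest.Agent.R281.Har_331
open Crest.Agent.R281.Defs_273

noncomputable section

variable {N d : ℕ} {M : Type} [TopologicalSpace M] {A : Atl N M} {L : LB A}

/-- **`LowP`** of helper331 -/
theorem lowP_of [T2Space M] [CompactSpace M] (K : Kah A) (h : HM L) (hd : 0 < d) :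
    ∃ c1 : ℝ, 0 < c1 ∧ LowP K h d c1 := by
  obtain ⟨C, hC, hU⟩ := exists_uni K h
  have hCp : 0 < C := by linarith
  refine ⟨om d / (2 * 128 ^ d) / C ^ d, ?_, ?_⟩
  · have := om_pos d
    positivity
  · intro T _ _ _ _ _ B _ P f hf hi s hs hp hprop q
    have hloc := isLocallyFinite_vm (volK (pullI K hf hi))
    have sρ : B.Sm (rho h s f) := sm_rho h hs hf hp
    have hsub : {x | rho h s f q - 1 < rho h s f x ∧ rho h s f x < rho h s f q + 1} ⊆
        {x | rho h s f q - 1 ≤ rho h s f x} := fun x hx => le_of_lt hx.1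
    refine leaf_low_strip K h hC hU hd P hf hi hs hp (fun Q hQ hpos => ?_) q ?_ ?_
    · -- `f⁻¹(Q)` is contained in `{a ≤ ρ}`
      rcases Q.eq_empty_or_nonempty with h0 | h0
      · rw [h0, preimage_empty]; exact isCompact_empty
      have hc : ContinuousOn (nsM h s) Q := (cont_sm (sm_nsM h hs)).continuousOn
      obtain ⟨x0, hx0, hmin⟩ := hQ.exists_isMinOn h0 hc
      refine (hprop (Real.log (nsM h s x0))).of_isClosed_subset (hQ.isClosed.preimage hf.cont)
        fun t ht => ?_
      exact Real.log_le_log (hpos x0 hx0) (hmin ht)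
    · exact ((measure_mono hsub).trans_lt (hprop _).measure_lt_top).ne
    · exact ((continuous_Dg (pullI K hf hi) sρ).continuousOn.integrableOn_compact
        (hprop (rho h s f q - 1))).mono_set hsub

end

end Crest.Agent.R281.Hk_389
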