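import Crest.Agent.R281.HkR10_835
import Crest.Agent.R281.Cdr2_234

/-!
# Row 281, HK-MOVE0, part 1 (helper835): `i∂∂̄u` is exact, back and forth along `Cmp`

* `d2_lev`   : `D²f(u,v) + D²f(iu,iv) = 4 Re ∑ (∂_a ∂_b̄ f) u_a conj v_b`
* `dcF f hf` : the real 1-form `-¼ df ∘ i`; `isD_dcF`, `ex_of_hsf`: the forms of `g` and of
               `g + hsf A f` differ by `d (dcF f)`
* `F_F`      : `h.symm.F (h.F w) = w` on the targets; `ex_F`, `Eqv.F`
-/

set_option autoImplicit false
set_option linter.unusedSectionVars false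

open Set Filter Topology Complex
open scoped ContDiff Matrix ComplexConjugate ComplexOrder InnerProductSpace

namespace Crest.Agent.R281.HkR_835

open Crest.Agent.R275.Geo Crest.Agent.R275.Core144 Crest.Agent.R275.EDR890
open Crest.Agent.R273.Defs_333
open Crest.Agent.R273.Kah_333 Crest.Agent.R273.Hess_333 Crest.Agent.R281.Defs_273
open Crest.Agent.R281.Ti_846 Crest.Agent.R281.Dif_268 Crest.Agent.R281.Cdr_234

noncomputable section

variable {d : ℕ}

theorem hq_eq (f : Cn d → ℝ) (z v : Cn d) : hq f z v = hb (hess f z) v v := rfl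

theorem hb_add_left (G : Matrix (Fin d) (Fin d) ℂ) (u u' v : Cn d) :
    hb G (u + u') v = hb G u v + hb G u' v := by
  simp only [hb, PiLp.add_apply, mul_add, add_mul, Finset.sum_add_distrib]

theorem hb_add_right (G : Matrix (Fin d) (Fin d) ℂ) (u v v' : Cn d) :
    hb G u (v + v') = hb G u v + hb G u v' := by
  simp only [hb, PiLp.add_apply, map_add, mul_add, Finset.sum_add_distrib]

theorem d2_lev {f : Cn d → ℝ} {z : Cn d} (hf : ContDiffAt ℝ ∞ f z) (u v : Cn d) :
    fderiv ℝ (fderiv ℝ f) z u v + fderiv ℝ (fderiv ℝ f) z (I • u) (I • v) =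
      4 * (hb (hess f z) u v).re := by
  have hs : ∀ a b, fderiv ℝ (fderiv ℝ f) z a b = fderiv ℝ (fderiv ℝ f) z b a := fun a b =>
    Ti_846.symm2 hf a b
  have h0 : ∀ w, fderiv ℝ (fderiv ℝ f) z w w + fderiv ℝ (fderiv ℝ f) z (I • w) (I • w) =
      4 * (hb (hess f z) w w).re := by
    intro w
    have h1 := congrArg Complex.re (lev_eq hf w)
    rw [Complex.ofReal_re, hq_eq] at h1
    have h2 : lev f z w = fderiv ℝ (fderiv ℝ f) z w w +
        fderiv ℝ (fderiv ℝ f) z (I • w) (I • w) := by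
      unfold lev
      rw [iteratedFDeriv_two_apply, iteratedFDeriv_two_apply]
      rfl
    rw [h2] at h1
    rw [h1]
    simp
  have h3 := h0 (u + v)
  rw [smul_add] at h3
  simp only [map_add, add_apply, hb_add_left, hb_add_right, Complex.add_re] at h3
  have h4 := h0 u
  have h5 := h0 v
  have h6 := hs v u
  have h7 := hs (I • v) (I • u)
  have h8 : (hb (hess f z) v u).re = (hb (hess f z) u v).re := by
    rw [← hb_conj (hess_herm hf) u v, Complex.conj_re]
  linarith

variable {X : Type} [TopologicalSpace X] {A : Atl d X}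

/-- the 1-form `-¼ df ∘ i` -/
def dcF (f : X → ℝ) (hf : A.Sm f) : F1 (ofAtl A) where
  η i z := (-(1 / 4 : ℝ)) • (fderiv ℝ (fun y => f ((A.e i).symm y)) z).comp iL
  sm i := by
    have h1 : ContDiffOn ℝ ∞ (fderiv ℝ (fun y => f ((A.e i).symm y))) (A.e i).target :=
      (hf i).fderiv_of_isOpen (A.e i).open_target (by simp)
    exact (h1.clm_comp contDiffOn_const).const_smul _
  tr i j z hz v := by
    have h1 : (fun y => f ((A.e i).symm y)) =ᶠ[𝓝 z]
        fun y => f ((A.e j).symm ((ofAtl A).t i j y)) := by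
      filter_upwards [(RCh.isOpen_ov (C := ofAtl A) i j).mem_nhds hz] with y hy
      exact congrArg f ((A.e j).left_inv hy.2).symm
    have h2 : DifferentiableAt ℝ (fun y => f ((A.e j).symm y)) ((ofAtl A).t i j z) :=
      ((hf j).contDiffAt ((A.e j).open_target.mem_nhds (RCh.t_mem hz).1)).differentiableAt
        (by simp)
    have h3 : HasFDerivAt (fun y => f ((A.e j).symm ((ofAtl A).t i j y)))
        ((fderiv ℝ (fun y => f ((A.e j).symm y)) ((ofAtl A).t i j z)).comp
          (fderiv ℝ ((ofAtl A).t i j) z)) z :=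
      HasFDerivAt.comp (g := fun y => f ((A.e j).symm y)) (f := (ofAtl A).t i j) z
        h2.hasFDerivAt (RCh.t_diff hz).hasFDerivAt
    have h4 := ofAtl_dt_I hz v
    simp only [smul_apply, ContinuousLinearMap.comp_apply, iL_apply]
    rw [h1.fderiv_eq, h3.fderiv, ContinuousLinearMap.comp_apply, h4]

theorem isD_dcF {K K' : K11 A} {f : X → ℝ} (hf : A.Sm f)
    (h : ∀ i, ∀ x ∈ (A.e i).source, K'.g i x = K.g i x + hsf A f i x) :
    IsD (K'.f2 - K.f2) (dcF f hf) := by
  intro i z hz u v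
  have hc : ContDiffAt ℝ ∞ (fun y => f ((A.e i).symm y)) z :=
    (hf i).contDiffAt ((A.e i).open_target.mem_nhds hz)
  have h1 : (K'.f2 - K.f2).w i z u v = K'.f2.w i z u v - K.f2.w i z u v := rfl
  have h2 : K'.f2.w i z u v - K.f2.w i z u v =
      (hb (hess (fun y => f ((A.e i).symm y)) z) (I • u) v).re := by
    rw [K'.f2_w hz, K.f2_w hz, h i _ ((A.e i).map_target hz), hsf_read f i hz, hb_I_left,
      ← hbL_apply u v (K.g i ((A.e i).symm z) + _), map_add, hbL_apply, hbL_apply]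
    simp
  have h3 : ∀ a b, fderiv ℝ ((dcF f hf).η i) z a b =
      -(1 / 4 : ℝ) * fderiv ℝ (fderiv ℝ (fun y => f ((A.e i).symm y))) z a (I • b) := by
    intro a b
    have hd : DifferentiableAt ℝ (fderiv ℝ (fun y => f ((A.e i).symm y))) z :=
      (hc.fderiv_right (m := ∞) (by simp)).differentiableAt (by simp)
    have e1 : HasFDerivAt ((dcF f hf).η i) _ z :=
      ((hd.hasFDerivAt.clm_comp (hasFDerivAt_const (iL : Cn d →L[ℝ] Cn d) z)).const_smul
        (-(1 / 4 : ℝ)))
    rw [e1.fderiv]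
    simp
  have h4 := d2_lev hc (I • u) v
  have hI : I • I • u = -u := by rw [smul_smul, I_mul_I, neg_one_smul]
  rw [hI, map_neg, neg_apply] at h4
  rw [h1, h2, h3, h3, Ti_846.symm2 hc v (I • u)]
  linarith

theorem ex_of_hsf {K K' : K11 A} {f : X → ℝ} (hf : A.Sm f)
    (h : ∀ i, ∀ x ∈ (A.e i).source, K'.g i x = K.g i x + hsf A f i x) :
    Ex (K'.f2 - K.f2) := ⟨dcF f hf, isD_dcF hf h⟩

/-! ### back and forth -/

section bf

variable {V V' : Type} [NormedAddCommGroup V] [NormedSpace ℝ V] [NormedAddCommGroup V']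
  [NormedSpace ℝ V'] {C : RCh V X} {C' : RCh V' X}

theorem F_eqv {h : Cmp C C'} {w w' : F2 C} (e : Eqv w w') : Eqv (h.F w) (h.F w') := by
  intro j z hz u v
  obtain ⟨i, hi⟩ := Cmp.exists_mov (C' := C') C (j := j) hz
  rw [h.F_w w hi, h.F_w w' hi, e i _ (Cmp.mt_mem hi).1]

/-- going back -/
theorem F_F (h : Cmp C C') (w : F2 C) : Eqv (h.symm.F (h.F w)) w := by
  intro i z hz u v
  obtain ⟨j, hj⟩ := Cmp.exists_mov (C' := C) C' (j := i) hz
  rw [h.symm.F_w (h.F w) hj, h.F_w w (Cmp.mt_mem hj), Cmp.mt_mt hj]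
  have e1 : ∀ v, fderiv ℝ (mt C C' i j) (mt C' C j i z) (fderiv ℝ (mt C' C j i) z v) = v :=
    fun v => h.symm.d_d hj v
  rw [e1, e1]

theorem F_pull (h : Cmp C C') (w : F2 C) : Eqv (h.F w) ((SMap.ofCmp h).pull w) := by
  intro j z hz u v
  obtain ⟨i, hi⟩ := Cmp.exists_mov (C' := C') C (j := j) hz
  have hi' : z ∈ dom C C' (SMap.ofCmp h).f i j := hi
  rw [h.F_w w hi, (SMap.ofCmp h).pull_w w hi']
  rfl

theorem ex_F (h : Cmp C C') {w : F2 C} (he : Ex w) : Ex (h.F w) :=
  (F_pull h w).symm.ex ((SMap.ofCmp h).ex_pull he)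

theorem F_sub (h : Cmp C C') (w w' : F2 C) : Eqv (h.F (w - w')) (h.F w - h.F w') := by
  intro j z hz u v
  obtain ⟨i, hi⟩ := Cmp.exists_mov (C' := C') C (j := j) hz
  have e : (h.F w - h.F w').w j z u v = (h.F w).w j z u v - (h.F w').w j z u v := rfl
  rw [e, h.F_w _ hi, h.F_w _ hi, h.F_w _ hi]
  rfl

theorem F_smul (h : Cmp C C') (r : ℝ) (w : F2 C) : Eqv (h.F (r • w)) (r • h.F w) := by
  intro j z hz u v
  obtain ⟨i, hi⟩ := Cmp.exists_mov (C' := C') C (j := j) hz
  have e : (r • h.F w).w j z u v = r * (h.F w).w j z u v := rfl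
  rw [e, h.F_w _ hi, h.F_w _ hi]
  rfl

end bf

end

end Crest.Agent.R281.HkR_835
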