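import Crest.Agent.R281.HkM2_835
import Crest.Agent.R281.Nef1_252

/-!
# Row 281, HK-MOVE0, part 3 (helper835): the move to a Kaehler class

* `onA_11`, `onA_pos` : a closed real 2-form of type (1,1) / positive for `J 0`, in the charts of `A`
* `move1` : `KCls (ofHk H 0) w` (252): there is `H' : HkT C` with the same `J 0`, `om 1`, `om 2`
            multiplied by `r > 0` and `om 0` in the class of `w`
-/

set_option autoImplicit false
set_option maxSynthPendingDepth 3
set_option linter.unusedSectionVars false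

open Set Filter Topology Complex
open scoped ContDiff Matrix ComplexConjugate ComplexOrder InnerProductSpace

namespace Crest.Agent.R281.HkR_835

open Crest.Agent.R275.Geo Crest.Agent.R275.Core144 Crest.Agent.R275.EDR890
open Crest.Agent.R275.GC293
open Crest.Agent.R273.Defs_333
open Crest.Agent.R273.Kah_333 Crest.Agent.R273.Hess_333 Crest.Agent.R281.Defs_273
open Crest.Agent.R273.NoHVF_376
open Crest.Agent.R273.Vol_333 (addK Yau)
open Crest.Agent.R260.ACM_580 Crest.Agent.R260.NNB_580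
open Crest.Agent.R281.HkP1_508 Crest.Agent.R281.HkP2_508 Crest.Agent.R281.HkP3_508
open Crest.Agent.R281.Ti_846 Crest.Agent.R281.Dif_268 Crest.Agent.R281.Cdr_234
open Crest.Agent.R281.NefO_476 (ofHk Pos)
open Crest.Agent.R281.Nef_252 (T11 KCls)

noncomputable section

variable {d : ℕ} {X : Type} [TopologicalSpace X] {A : Atl d X}

variable {V : Type} [NormedAddCommGroup V] [NormedSpace ℝ V] {C : RCh V X}

theorem onA_dJ (H : HkT C) (hA : Cp (H.acm 0) A) {i : C.ι} {j : A.ι} {z : Cn d}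
    (hz : z ∈ mov C (ofAtl A) i j) (u : Cn d) :
    fderiv ℝ (mt C (ofAtl A) i j) z (I • u) =
      H.J 0 i (mt C (ofAtl A) i j z) (fderiv ℝ (mt C (ofAtl A) i j) z u) :=
  (hA j).lin' (i := i) hz u

/-- the form in the charts of `A` is of type (1,1) -/
theorem onA_11 (H : HkT C) (hA : Cp (H.acm 0) A) {w : F2 C} (h : T11 (ofHk H 0) w) (j : A.ι)
    (z : Cn d) (hz : z ∈ (A.e j).target) (u v : Cn d) :
    ((cmp_of_cp hA).F w).w j z (I • u) (I • v) = ((cmp_of_cp hA).F w).w j z u v := by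
  obtain ⟨i, hi⟩ := Cmp.exists_mov (C' := ofAtl A) C (j := j) hz
  rw [(cmp_of_cp hA).F_w w hi, (cmp_of_cp hA).F_w w hi, onA_dJ H hA hi, onA_dJ H hA hi]
  exact h i _ (Cmp.mt_mem hi).1 _ _

theorem onA_pos (H : HkT C) (hA : Cp (H.acm 0) A) {w : F2 C} (h : Pos (ofHk H 0) w) (j : A.ι)
    (z : Cn d) (hz : z ∈ (A.e j).target) (u : Cn d) (hu : u ≠ 0) :
    0 < ((cmp_of_cp hA).F w).w j z u (I • u) := by
  obtain ⟨i, hi⟩ := Cmp.exists_mov (C' := ofAtl A) C (j := j) hz
  rw [(cmp_of_cp hA).F_w w hi, onA_dJ H hA hi]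
  refine h i _ (Cmp.mt_mem hi).1 _ fun h0 => hu ?_
  refine (cmp_of_cp hA).inj hi ?_
  rw [h0, map_zero]

/-- a positive invariant form is a Kaehler metric -/
theorem posDef_GB {B : Bil (Cn d)} (hB : ∀ u v, B (I • u) (I • v) = B u v)
    (hA : ∀ u v, B u v = -B v u) (hp : ∀ u, u ≠ 0 → 0 < B u (I • u)) : (GB B).PosDef := by
  refine Matrix.PosDef.of_dotProduct_mulVec_pos (GB_herm hB hA) fun y hy => ?_
  set v : Cn d := WithLp.toLp 2 (fun b => conj (y b)) with hv
  have h1 : star y ⬝ᵥ (GB B *ᵥ y) = hb (GB B) v v := by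
    rw [hb_self]
    congr 2
    · funext b
      simp [hv]
    · funext b
      simp [hv]
  have hv0 : v ≠ 0 := by
    intro h0
    apply hy
    funext b
    have : v b = 0 := by rw [h0]; rfl
    simpa [hv] using this
  have h3 : B v v = 0 := by
    have := hA v v
    linarith
  rw [h1, ← hw_eq hB, hw, h3]
  have h4 := hp v hv0
  simp only [ofReal_zero, mul_zero, sub_zero]
  exact_mod_cast h4

/-- the Kaehler metric of a positive form of type (1,1) -/
def kahOf (H : HkT C) (hA : Cp (H.acm 0) A) (w : F2 C) (h : T11 (ofHk H 0) w)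
    (hp : Pos (ofHk H 0) w) : Kah A :=
  (((cmp_of_cp hA).F w).k11 fun j z hz u v => onA_11 H hA h j z hz u v).kah fun j _ hx =>
    posDef_GB (fun u v => onA_11 H hA h j _ ((A.e j).map_source hx) u v)
      (((cmp_of_cp hA).F w).alt j _ ((A.e j).map_source hx))
      fun u hu => onA_pos H hA hp j _ ((A.e j).map_source hx) u hu

theorem kahOf_f2 (H : HkT C) (hA : Cp (H.acm 0) A) (w : F2 C) (h : T11 (ofHk H 0) w)
    (hp : Pos (ofHk H 0) w) : Eqv (ofKah (kahOf H hA w h hp)).f2 ((cmp_of_cp hA).F w) := by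
  refine eqvA fun j z hz u v => ?_
  have := F2.k11_f2 ((cmp_of_cp hA).F w) (fun j z hz u v => onA_11 H hA h j z hz u v) hz
  rw [← this]
  rfl

/-- **one move** -/
theorem move1 [T2Space X] [CompactSpace X] [Finite A.ι] (P : Part A) (Y : Yau A) (H : HkT C)
    (hA : Cp (H.acm 0) A) (hu : (H.sig hA).Uniq) {w : F2 C} (hw : KCls (ofHk H 0) w) :
    ∃ (H' : HkT C) (r : ℝ), 0 < r ∧
      (∀ i, ∀ z ∈ (C.e i).target, ∀ v, H'.J 0 i z v = H.J 0 i z v) ∧
      Eqv (H'.om 1) (r • H.om 1) ∧ Eqv (H'.om 2) (r • H.om 2) ∧ Ex (H'.om 0 - w) := by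
  obtain ⟨w', h1, h2, h3⟩ := hw
  obtain ⟨H', r, h0, hJ, e1, e2, he⟩ := move0 P Y H hA hu (kahOf H hA w' h2 h3)
  refine ⟨H', r, h0, hJ, e1, e2, ?_⟩
  have k1 : Eqv ((cmp_of_cp hA).symm.F (ofKah (kahOf H hA w' h2 h3)).f2) w' :=
    (F_eqv (kahOf_f2 H hA w' h2 h3)).trans (F_F (cmp_of_cp hA) w')
  have k2 := Ex.add (Ex.add he (ex_sub_of_eqv k1)) h1
  have k4 : H'.om 0 - (cmp_of_cp hA).symm.F (ofKah (kahOf H hA w' h2 h3)).f2 +
      ((cmp_of_cp hA).symm.F (ofKah (kahOf H hA w' h2 h3)).f2 - w') + (w' - w) =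
      H'.om 0 - w := by abel
  rwa [k4] at k2

end

end Crest.Agent.R281.HkR_835
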