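import Crest.Agent.R281.HkM3_835

/-!
# Row 281, HK-MOVE0, part 4 (helper835): uniqueness of `σ` on the real triple

* `UniqT H`   : every closed holomorphic 2-form of `J 0` is a real combination of `om 1`, `om 2`
* `uniqT_of`, `uniq_of_T` : `UniqT H ↔ (H.sig hA).Uniq`
-/

set_option autoImplicit false
set_option maxSynthPendingDepth 3
set_option linter.unusedSectionVars false

open Set Filter Topology Complex
open scoped ContDiff Matrix ComplexConjugate ComplexOrder InnerProductSpace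

namespace Crest.Agent.R281.HkR_835

open Crest.Agent.R275.Geo Crest.Agent.R275.Core144 Crest.Agent.R275.EDR890
open Crest.Agent.R275.GC293
open Crest.Agent.R273.Defs_333
open Crest.Agent.R273.Kah_333 Crest.Agent.R273.Hess_333 Crest.Agent.R281.Defs_273
open Crest.Agent.R273.NoHVF_376
open Crest.Agent.R273.Vol_333 (addK Yau)
open Crest.Agent.R260.ACM_580 Crest.Agent.R260.NNB_580
open Crest.Agent.R281.HkP1_508 Crest.Agent.R281.HkP2_508 Crest.Agent.R281.HkP3_508
open Crest.Agent.R281.Ti_846 Crest.Agent.R281.Dif_268 Crest.Agent.R281.Cdr_234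
open Crest.Agent.R281.NefO_476 (ofHk Pos)
open Crest.Agent.R281.Nef_252 (T11 KCls)

noncomputable section

variable {d : ℕ} {X : Type} [TopologicalSpace X] {A : Atl d X}

variable {V : Type} [NormedAddCommGroup V] [NormedSpace ℝ V] {C : RCh V X}

/-- every closed holomorphic 2-form of the first complex structure is a combination of
`om 1`, `om 2` -/
def UniqT (H : HkT C) : Prop :=
  ∀ w₁ w₂ : F2 C, (∀ i, ∀ z ∈ (C.e i).target, ∀ u v,
      w₁.w i z (H.J 0 i z u) v = -w₂.w i z u v) →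
    ∃ a b : ℝ, Eqv w₁ (a • H.om 1 + b • H.om 2)

theorem F_lin2 {V' : Type} [NormedAddCommGroup V'] [NormedSpace ℝ V'] {C' : RCh V' X}
    (h : Cmp C C') (a b : ℝ) (w w' : F2 C) {j : C'.ι} {z : V'} (hz : z ∈ (C'.e j).target)
    (u v : V') : (h.F (a • w + b • w')).w j z u v =
      a * (h.F w).w j z u v + b * (h.F w').w j z u v := by
  obtain ⟨i, hi⟩ := Cmp.exists_mov (C' := C') C (j := j) hz
  rw [h.F_w _ hi, h.F_w _ hi, h.F_w _ hi]
  rfl

theorem F_lin2A (h : Cmp C (ofAtl A)) (a b : ℝ) (w w' : F2 C) {j : A.ι} {z : Cn d}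
    (hz : z ∈ (A.e j).target) (u v : Cn d) : (h.F (a • w + b • w')).w j z u v =
      a * (h.F w).w j z u v + b * (h.F w').w j z u v := F_lin2 h a b w w' hz u v

/-- type (2,0) in the charts of `A` -/
theorem onA_20 (H : HkT C) (hA : Cp (H.acm 0) A) {w₁ w₂ : F2 C}
    (h : ∀ i, ∀ z ∈ (C.e i).target, ∀ u v, w₁.w i z (H.J 0 i z u) v = -w₂.w i z u v) (j : A.ι)
    (z : Cn d) (hz : z ∈ (A.e j).target) (u v : Cn d) :
    ((cmp_of_cp hA).F w₁).w j z (I • u) v = -((cmp_of_cp hA).F w₂).w j z u v := by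
  obtain ⟨i, hi⟩ := Cmp.exists_mov (C' := ofAtl A) C (j := j) hz
  rw [(cmp_of_cp hA).F_w w₁ hi, (cmp_of_cp hA).F_w w₂ hi, onA_dJ H hA hi]
  exact h i _ (Cmp.mt_mem hi).1 _ _

theorem sig_sb (H : HkT C) (hA : Cp (H.acm 0) A) {j : A.ι} {z : Cn d}
    (hz : z ∈ (A.e j).target) (u v : Cn d) :
    sb (sl (H.sig hA).toH2 j z) u v =
      (((cmp_of_cp hA).F (H.om 1)).w j z u v : ℂ) +
        I * (((cmp_of_cp hA).F (H.om 2)).w j z u v : ℂ) :=
  S0_sb (H.onA hA) (onA_J H hA) hz u v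

theorem uniqT_of {H : HkT C} (hA : Cp (H.acm 0) A) (hu : (H.sig hA).Uniq) : UniqT H := by
  intro w₁ w₂ h
  set hc := cmp_of_cp hA with hhc
  have h' := fun j z hz u v => onA_20 H hA h j z hz u v
  obtain ⟨c, hcc⟩ := hu (h20 (hc.F w₁) (hc.F w₂) h')
  refine ⟨c.re, -c.im, ?_⟩
  have e1 : Eqv (hc.F w₁) (hc.F (c.re • H.om 1 + (-c.im) • H.om 2)) := by
    refine eqvA fun j z hz u v => ?_
    have k1 := sb_h20 (hc.F w₁) (hc.F w₂) h' hz u v
    have k2 : sl (h20 (hc.F w₁) (hc.F w₂) h') j z = c • sl (H.sig hA).toH2 j z :=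
      hcc j _ ((A.e j).map_target hz)
    rw [k2, sb_smul, sig_sb H hA hz] at k1
    have k3 := congrArg Complex.re k1
    simp only [Complex.add_re, Complex.mul_re, Complex.ofReal_re, Complex.ofReal_im, Complex.I_re,
      Complex.I_im, Complex.add_im, Complex.mul_im] at k3
    rw [F_lin2A hc _ _ _ _ hz]
    linarith
  exact ((F_F hc w₁).symm.trans (F_eqv e1)).trans (F_F hc _)

theorem sb_ext_re {G K : Matrix (Fin d) (Fin d) ℂ} (h : ∀ u v, (sb G u v).re = (sb K u v).re) :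
    G = K := by
  refine sb_ext fun u v => Complex.ext (h u v) ?_
  have h1 := h (-(I • u)) v
  have h2 : ∀ G : Matrix (Fin d) (Fin d) ℂ, (sb G (-(I • u)) v).re = (sb G u v).im := by
    intro G
    have : -(I • u) = I • I • I • u := by
      rw [smul_smul, I_mul_I, neg_one_smul]
    rw [this, sb_I_left, sb_I_left, sb_I_left]
    have : I * (I * (I * sb G u v)) = -I * sb G u v := by
      linear_combination (I * sb G u v) * I_mul_I
    rw [this]
    simp
  rwa [h2, h2] at h1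

theorem uniq_of_T [T2Space X] [CompactSpace X] [Finite A.ι] (P : Part A) {H : HkT C}
    (hA : Cp (H.acm 0) A) (hu : UniqT H) : (H.sig hA).Uniq := by
  intro τ
  set hc := cmp_of_cp hA with hhc
  have hcl : ClH τ := fun i z hz a b c =>
    closed_of_par (par_h2 P (ric0 (H.onA hA) (onA_J H hA)) τ) i hz a b c
  set w₁ := hc.symm.F (f2H τ hcl) with hw₁
  set w₂ := hc.symm.F (f2H (csm (-I) τ) (csm_cl hcl _)) with hw₂
  have h : ∀ i, ∀ z ∈ (C.e i).target, ∀ u v, w₁.w i z (H.J 0 i z u) v = -w₂.w i z u v := by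
    intro i z hz u v
    obtain ⟨j, hj⟩ := Cmp.exists_mov (C' := C) (ofAtl A) (j := i) hz
    rw [hw₁, hw₂, hc.symm.F_w _ hj, hc.symm.F_w _ hj]
    have e1 : fderiv ℝ (mt (ofAtl A) C j i) z (H.J 0 i z u) =
        I • fderiv ℝ (mt (ofAtl A) C j i) z u := (hA j).lin i z hj u
    rw [e1]
    exact f2H_type τ hcl j _ _ _
  obtain ⟨a, b, hab⟩ := hu w₁ w₂ h
  refine ⟨(a : ℂ) - I * b, fun i x hx => ?_⟩
  set z := A.e i x with hzd
  have hz : z ∈ (A.e i).target := (A.e i).map_source hx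
  have e1 : sl τ i z = τ.s i x := by
    show τ.s i ((A.e i).symm (A.e i x)) = _
    rw [(A.e i).left_inv hx]
  have e2 : sl (H.sig hA).toH2 i z = (H.sig hA).s i x := by
    show (H.sig hA).s i ((A.e i).symm (A.e i x)) = _
    rw [(A.e i).left_inv hx]
  rw [← e1, ← e2]
  refine sb_ext_re fun u v => ?_
  have k1 : Eqv (hc.F w₁) (f2H τ hcl) := F_F hc.symm _
  have k2 : Eqv (hc.F w₁) (hc.F (a • H.om 1 + b • H.om 2)) := F_eqv hab
  have k3 : (f2H τ hcl).w i z u v = (hc.F (a • H.om 1 + b • H.om 2)).w i z u v := by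
    rw [← k1 i z hz u v, k2 i z hz u v]
  have k4 := F_lin2A hc a b (H.om 1) (H.om 2) hz u v
  rw [f2H_w, k4] at k3
  rw [k3, sb_smul, sig_sb H hA hz]
  simp only [Complex.sub_re, Complex.sub_im, Complex.add_re, Complex.mul_re, Complex.ofReal_re,
    Complex.ofReal_im, Complex.I_re, Complex.I_im, Complex.add_im, Complex.mul_im]
  ring

end

end Crest.Agent.R281.HkR_835
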