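import Crest.Agent.R273.NoHVF_376

/-!
# R281 (S0424), leaf HK-PAR (helper508), part 1: Bochner formula for holomorphic 2-forms

Everything in one chart: `g` Kaehler matrix (`NoHVF_376.GM`), `s` holomorphic matrix of a `(2,0)`
tensor (skew symmetry is not used here).
* `Wm g s`    : `g⁻¹ s (g⁻¹)ᵀ` (indices raised)
* `Dm g s c`  : covariant derivative `∇_c s`;  `dm_Wm : ∂_c W = g⁻¹ (∇_c s) (g⁻¹)ᵀ`
* `nr2`       : `|s|² = tr (s* W)`
* `hess_nr2`  : `∂_a ∂_{b̄} |s|²`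
* `trace_hess_nr2` : for `Ric = 0`: `tr (g⁻¹ ∂∂̄ |s|²) = ∑ γ_{ba} tr ((∇_b s)* γ (∇_a s) γᵀ)`
-/

set_option autoImplicit false
set_option linter.unusedSectionVars false

open Set Filter Topology Complex MeasureTheory
open scoped ContDiff Matrix ComplexConjugate ComplexOrder

namespace Crest.Agent.R281.HkP1_508

open Crest.Agent.R275.Geo Crest.Agent.R275.Core144 Crest.Agent.R275.EDR890
open Crest.Agent.R275.GC293
open Crest.Agent.R273 Crest.Agent.R273.Hess_333 Crest.Agent.R273.HessB_333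
open Crest.Agent.R273.NoHVF_376

noncomputable section

variable {n : ℕ} {g s : Cn n → Matrix (Fin n) (Fin n) ℂ} {U : Set (Cn n)}

/-- holomorphic entries -/
def HolM (s : Cn n → Matrix (Fin n) (Fin n) ℂ) (U : Set (Cn n)) : Prop :=
  ∀ a b, DifferentiableOn ℂ (fun w => s w a b) U

theorem HolM.diffC (hs : HolM s U) (hU : IsOpen U) {z : Cn n} (hz : z ∈ U) (a b : Fin n) :
    DifferentiableAt ℂ (fun w => s w a b) z := (hs a b).differentiableAt (hU.mem_nhds hz)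

theorem HolM.diff (hs : HolM s U) (hU : IsOpen U) {z : Cn n} (hz : z ∈ U) (a b : Fin n) :
    DifferentiableAt ℝ (fun w => s w a b) z := (hs.diffC hU hz a b).restrictScalars ℝ

theorem HolM.smAt (hs : HolM s U) (hU : IsOpen U) {z : Cn n} (hz : z ∈ U) (a b : Fin n) :
    ContDiffAt ℝ ∞ (fun w => s w a b) z :=
  (((Crest.Agent.R266.SCV.contDiffOn_omega_of_differentiableOn hU (hs a b)).of_le le_top).contDiffAt
    (hU.mem_nhds hz)).restrict_scalars ℝ

theorem HolM.dbar (hs : HolM s U) (hU : IsOpen U) {z : Cn n} (hz : z ∈ U) (a : Fin n) :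
    dm (true, a) s z = 0 := by
  ext i b
  exact wd_hol (hs.diffC hU hz i b) a

theorem dm_transpose {κ κ' : Type} (r : WI n) (m : Cn n → Matrix κ κ' ℂ) (z : Cn n) :
    dm r (fun w => (m w)ᵀ) z = (dm r m z)ᵀ := rfl

theorem dm_conjT {κ κ' : Type} (r : WI n) {m : Cn n → Matrix κ κ' ℂ} {z : Cn n}
    (hm : ∀ a b, DifferentiableAt ℝ (fun w => m w a b) z) :
    dm r (fun w => (m w)ᴴ) z = (dm (!r.1, r.2) m z)ᴴ := by
  ext a b
  rw [dm_apply, Matrix.conjTranspose_apply, dm_apply]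
  have := conj_wd (!r.1, r.2) (hm b a)
  rw [Bool.not_not] at this
  exact this.symm

theorem dm_add' {κ κ' : Type} (r : WI n) {p q : Cn n → Matrix κ κ' ℂ} {z : Cn n}
    (hp : ∀ a b, DifferentiableAt ℝ (fun w => p w a b) z)
    (hq : ∀ a b, DifferentiableAt ℝ (fun w => q w a b) z) :
    dm r (fun w => p w + q w) z = dm r p z + dm r q z := by
  ext i j
  exact wd_add (hp i j) (hq i j) _

theorem dm_neg' {κ κ' : Type} (r : WI n) {p : Cn n → Matrix κ κ' ℂ} {z : Cn n}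
    (hp : ∀ a b, DifferentiableAt ℝ (fun w => p w a b) z) :
    dm r (fun w => - p w) z = - dm r p z := by
  ext i j
  have := wd_const_smul (f := fun w => p w i j) (z := z) (-1 : ℂ) (hp i j) r
  simp only [smul_eq_mul, neg_one_mul] at this
  exact this

/-- derivative of a trace -/
theorem wd_trace {κ : Type} [Fintype κ] (r : WI n) {m : Cn n → Matrix κ κ ℂ} {z : Cn n}
    (hm : ∀ a b, DifferentiableAt ℝ (fun w => m w a b) z) :
    wd r (fun w => (m w).trace) z = (dm r m z).trace := by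
  have e : (fun w => (m w).trace) = fun w => ∑ i, m w i i := rfl
  rw [e, wd_sum (f := fun i w => m w i i) _ fun i _ => hm i i]
  rfl

/-- raised form -/
def Wm (g s : Cn n → Matrix (Fin n) (Fin n) ℂ) (z : Cn n) : Matrix (Fin n) (Fin n) ℂ :=
  (g z)⁻¹ * (s z * ((g z)⁻¹)ᵀ)

/-- covariant derivative -/
def Dm (g s : Cn n → Matrix (Fin n) (Fin n) ℂ) (z : Cn n) (c : Fin n) : Matrix (Fin n) (Fin n) ℂ :=
  dm (false, c) s z - dm (false, c) g z * (g z)⁻¹ * s z -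
    s z * ((g z)⁻¹)ᵀ * (dm (false, c) g z)ᵀ

/-- connection matrix of the conjugate bundle -/
def Em (g : Cn n → Matrix (Fin n) (Fin n) ℂ) (b : Fin n) (z : Cn n) : Matrix (Fin n) (Fin n) ℂ :=
  (g z)⁻¹ * dm (true, b) g z

theorem inv_mulT (h : GM g U) {z : Cn n} (hz : z ∈ U) : (g z)⁻¹ * g z = 1 :=
  Matrix.nonsing_inv_mul _ (isUnit_iff_ne_zero.2 (h.det_ne hz))

theorem mul_invT (h : GM g U) {z : Cn n} (hz : z ∈ U) : g z * (g z)⁻¹ = 1 :=
  Matrix.mul_nonsing_inv _ (isUnit_iff_ne_zero.2 (h.det_ne hz))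

theorem dm_inv' (h : GM g U) {z : Cn n} (hz : z ∈ U) (r : WI n) :
    dm r (fun w => (g w)⁻¹) z = -((g z)⁻¹ * dm r g z * (g z)⁻¹) := by
  rw [dm_inv r h.op h.sm (fun _ => h.det_ne) hz]
  try simp only [Matrix.mul_assoc, Matrix.neg_mul, neg_mul]

theorem Wm_smAt (h : GM g U) (hs : HolM s U) {z : Cn n} (hz : z ∈ U) (a b : Fin n) :
    ContDiffAt ℝ ∞ (fun w => Wm g s w a b) z := by
  have e : (fun w => Wm g s w a b) = fun w => ∑ c, (g w)⁻¹ a c * ∑ d, s w c d * (g w)⁻¹ b d := by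
    funext w
    simp only [Wm, Matrix.mul_apply, Matrix.transpose_apply]
  rw [e]
  exact ContDiffAt.sum fun c _ => (h.inv_smAt hz a c).mul (ContDiffAt.sum fun d _ =>
    (hs.smAt h.op hz c d).mul (h.inv_smAt hz b d))

theorem Wm_diff (h : GM g U) (hs : HolM s U) {z : Cn n} (hz : z ∈ U) (a b : Fin n) :
    DifferentiableAt ℝ (fun w => Wm g s w a b) z := (Wm_smAt h hs hz a b).differentiableAt (by simp)

theorem Em_smAt (h : GM g U) {z : Cn n} (hz : z ∈ U) (b : Fin n) (i j : Fin n) :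
    ContDiffAt ℝ ∞ (fun w => Em g b w i j) z := by
  have e : (fun w => Em g b w i j) = fun w => ∑ c, (g w)⁻¹ i c * dm (true, b) g w c j := by
    funext w
    simp only [Em, Matrix.mul_apply]
  rw [e]
  exact ContDiffAt.sum fun c _ => (h.inv_smAt hz i c).mul (h.dm_smAt hz _ c j)

theorem Em_diff (h : GM g U) {z : Cn n} (hz : z ∈ U) (b : Fin n) (i j : Fin n) :
    DifferentiableAt ℝ (fun w => Em g b w i j) z := (Em_smAt h hz b i j).differentiableAt (by simp)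

/-- `∂_c W = g⁻¹ (∇_c s) (g⁻¹)ᵀ` -/
theorem dm_Wm (h : GM g U) (hs : HolM s U) {z : Cn n} (hz : z ∈ U) (c : Fin n) :
    dm (false, c) (Wm g s) z = (g z)⁻¹ * Dm g s z c * ((g z)⁻¹)ᵀ := by
  have hi : ∀ a b, DifferentiableAt ℝ (fun w => (g w)⁻¹ a b) z := fun a b => h.inv_diff hz a b
  have hiT : ∀ a b, DifferentiableAt ℝ (fun w => ((g w)⁻¹)ᵀ a b) z := fun a b => h.inv_diff hz b a
  have hsd : ∀ a b, DifferentiableAt ℝ (fun w => s w a b) z := fun a b => hs.diff h.op hz a b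
  have e1 := dm_mul (false, c) (p := fun w => (g w)⁻¹) (q := fun w => s w * ((g w)⁻¹)ᵀ) hi
    (diff_mul hsd hiT)
  have e2 := dm_mul (false, c) (p := s) (q := fun w => ((g w)⁻¹)ᵀ) hsd hiT
  rw [dm_transpose, dm_inv' h hz] at e2
  rw [dm_inv' h hz, e2] at e1
  change dm (false, c) (fun w => (g w)⁻¹ * (s w * ((g w)⁻¹)ᵀ)) z = _
  rw [e1, Dm]
  simp only [Matrix.mul_sub, Matrix.sub_mul, Matrix.mul_add, Matrix.neg_mul, Matrix.mul_neg,
    Matrix.transpose_neg, Matrix.transpose_mul, Matrix.mul_assoc]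
  abel

/-- `∂̄_b W = - E_b W - W E_bᵀ` -/
theorem dmb_Wm (h : GM g U) (hs : HolM s U) {z : Cn n} (hz : z ∈ U) (b : Fin n) :
    dm (true, b) (Wm g s) z = -(Em g b z * Wm g s z) - Wm g s z * (Em g b z)ᵀ := by
  have hi : ∀ a b, DifferentiableAt ℝ (fun w => (g w)⁻¹ a b) z := fun a b => h.inv_diff hz a b
  have hiT : ∀ a b, DifferentiableAt ℝ (fun w => ((g w)⁻¹)ᵀ a b) z := fun a b => h.inv_diff hz b a
  have hsd : ∀ a b, DifferentiableAt ℝ (fun w => s w a b) z := fun a b => hs.diff h.op hz a b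
  have e1 := dm_mul (true, b) (p := fun w => (g w)⁻¹) (q := fun w => s w * ((g w)⁻¹)ᵀ) hi
    (diff_mul hsd hiT)
  have e2 := dm_mul (true, b) (p := s) (q := fun w => ((g w)⁻¹)ᵀ) hsd hiT
  rw [dm_transpose, dm_inv' h hz, hs.dbar h.op hz, Matrix.zero_mul, zero_add] at e2
  rw [dm_inv' h hz, e2] at e1
  change dm (true, b) (fun w => (g w)⁻¹ * (s w * ((g w)⁻¹)ᵀ)) z = _
  rw [e1, Wm, Em]
  simp only [Matrix.mul_sub, Matrix.sub_mul, Matrix.mul_add, Matrix.neg_mul, Matrix.mul_neg,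
    Matrix.transpose_neg, Matrix.transpose_mul, Matrix.mul_assoc]
  abel

/-- `|s|²` -/
def nr2 (g s : Cn n → Matrix (Fin n) (Fin n) ℂ) (z : Cn n) : ℝ := ((s z)ᴴ * Wm g s z).trace.re

theorem inv_herm (h : GM g U) {z : Cn n} (hz : z ∈ U) : ((g z)⁻¹)ᴴ = (g z)⁻¹ := by
  rw [Matrix.conjTranspose_nonsing_inv, (h.pos z hz).1.eq]

theorem inv_hermT (h : GM g U) {z : Cn n} (hz : z ∈ U) : (((g z)⁻¹)ᵀ)ᴴ = ((g z)⁻¹)ᵀ := by
  have : (((g z)⁻¹)ᵀ)ᴴ = (((g z)⁻¹)ᴴ)ᵀ := rfl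
  rw [this, inv_herm h hz]

theorem nr2_real (h : GM g U) {z : Cn n} (hz : z ∈ U) :
    ((nr2 g s z : ℝ) : ℂ) = ((s z)ᴴ * Wm g s z).trace := by
  have h1 : conj ((s z)ᴴ * Wm g s z).trace = ((s z)ᴴ * Wm g s z).trace := by
    have := Matrix.trace_conjTranspose ((s z)ᴴ * Wm g s z)
    rw [Wm, Matrix.conjTranspose_mul, Matrix.conjTranspose_mul, Matrix.conjTranspose_mul,
      Matrix.conjTranspose_conjTranspose, inv_herm h hz, inv_hermT h hz] at this
    rw [Wm]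
    refine this.symm.trans ?_
    rw [Matrix.mul_assoc, Matrix.mul_assoc, Matrix.trace_mul_comm, Matrix.mul_assoc,
      Matrix.mul_assoc]
  exact Complex.conj_eq_iff_re.1 h1

theorem sH_diff (h : GM g U) (hs : HolM s U) {z : Cn n} (hz : z ∈ U) (a b : Fin n) :
    DifferentiableAt ℝ (fun w => (s w)ᴴ a b) z :=
  (conjCLE : ℂ →L[ℝ] ℂ).differentiableAt.comp z (hs.diff h.op hz b a)

theorem sH_smAt (h : GM g U) (hs : HolM s U) {z : Cn n} (hz : z ∈ U) (a b : Fin n) :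
    ContDiffAt ℝ ∞ (fun w => (s w)ᴴ a b) z :=
  (conjCLE : ℂ →L[ℝ] ℂ).contDiff.contDiffAt.comp z (hs.smAt h.op hz b a)

theorem nr2_smAt (h : GM g U) (hs : HolM s U) {z : Cn n} (hz : z ∈ U) :
    ContDiffAt ℝ ∞ (nr2 g s) z := by
  have e : nr2 g s = fun w => (∑ a, ∑ b, (s w)ᴴ a b * Wm g s w b a).re := by
    funext w
    simp only [nr2, Matrix.trace, Matrix.diag_apply, Matrix.mul_apply]
  rw [e]
  refine Complex.reCLM.contDiff.contDiffAt.comp z ?_
  exact ContDiffAt.sum fun a _ => ContDiffAt.sum fun b _ =>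
    (sH_smAt h hs hz a b).mul (Wm_smAt h hs hz b a)

theorem dsH (h : GM g U) (hs : HolM s U) {z : Cn n} (hz : z ∈ U) (a : Fin n) :
    dm (false, a) (fun w => (s w)ᴴ) z = 0 := by
  rw [dm_conjT _ fun i j => hs.diff h.op hz i j]
  change (dm (true, a) s z)ᴴ = 0
  rw [hs.dbar h.op hz, Matrix.conjTranspose_zero]

theorem dbsH (h : GM g U) (hs : HolM s U) {z : Cn n} (hz : z ∈ U) (b : Fin n) :
    dm (true, b) (fun w => (s w)ᴴ) z = (dm (false, b) s z)ᴴ := by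
  rw [dm_conjT _ fun i j => hs.diff h.op hz i j]
  rfl

theorem dgH (h : GM g U) {z : Cn n} (hz : z ∈ U) (b : Fin n) :
    (dm (false, b) g z)ᴴ = dm (true, b) g z := by
  have e := dm_conjT (true, b) (m := g) (z := z) fun i j => h.diff hz i j
  have e2 : dm (true, b) (fun w => (g w)ᴴ) z = dm (true, b) g z := by
    refine dm_congr _ ?_
    filter_upwards [h.op.mem_nhds hz] with w hw
    exact (h.pos w hw).1.eq
  rw [e2] at e
  exact e.symm

/-- `(∂_b s)* = (∇_b s)* + s* E_b + E_bᵀ s*` -/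
theorem dsH_eq (h : GM g U) {z : Cn n} (hz : z ∈ U) (b : Fin n) :
    (dm (false, b) s z)ᴴ = (Dm g s z b)ᴴ + (s z)ᴴ * Em g b z + (Em g b z)ᵀ * (s z)ᴴ := by
  have e1 : (dm (false, b) g z * (g z)⁻¹ * s z)ᴴ = (s z)ᴴ * Em g b z := by
    rw [Matrix.conjTranspose_mul, Matrix.conjTranspose_mul, inv_herm h hz, dgH h hz, Em]
  have e2 : (s z * ((g z)⁻¹)ᵀ * (dm (false, b) g z)ᵀ)ᴴ = (Em g b z)ᵀ * (s z)ᴴ := by
    have q : ((dm (false, b) g z)ᵀ)ᴴ = ((dm (false, b) g z)ᴴ)ᵀ := rfl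
    rw [Matrix.conjTranspose_mul, Matrix.conjTranspose_mul, inv_hermT h hz, q, dgH h hz, Em,
      Matrix.transpose_mul, Matrix.mul_assoc]
  rw [Dm, Matrix.conjTranspose_sub, Matrix.conjTranspose_sub, e1, e2]
  abel

theorem hess_nr2 (h : GM g U) (hs : HolM s U) {z : Cn n} (hz : z ∈ U) (a b : Fin n) :
    hess (nr2 g s) z a b =
      ((Dm g s z b)ᴴ * ((g z)⁻¹ * Dm g s z a * ((g z)⁻¹)ᵀ)).trace -
        ((s z)ᴴ * (dm (false, a) (Em g b) z * Wm g s z)).trace -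
        ((s z)ᴴ * (Wm g s z * (dm (false, a) (Em g b) z)ᵀ)).trace := by
  have hW : ∀ w ∈ U, ∀ a b, DifferentiableAt ℝ (fun w => Wm g s w a b) w :=
    fun w hw a b => Wm_diff h hs hw a b
  have hH : ∀ w ∈ U, ∀ a b, DifferentiableAt ℝ (fun w => (s w)ᴴ a b) w :=
    fun w hw a b => sH_diff h hs hw a b
  have hcu : ContDiffAt ℝ ∞ (cu (nr2 g s)) z :=
    Complex.ofRealCLM.contDiff.contDiffAt.comp z (nr2_smAt h hs hz)
  rw [hess_apply]
  have hcm : wd (false, a) (fun w => wd (true, b) (cu (nr2 g s)) w) z =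
      wd (true, b) (fun w => wd (false, a) (cu (nr2 g s)) w) z := wd_comm hcu _ _
  refine hcm.trans ?_
  -- first derivative
  have e1 : (fun w => wd (false, a) (cu (nr2 g s)) w) =ᶠ[𝓝 z] fun w =>
      ((s w)ᴴ * dm (false, a) (Wm g s) w).trace := by
    filter_upwards [h.op.mem_nhds hz] with w hw
    have s1 : cu (nr2 g s) =ᶠ[𝓝 w] fun y => ((s y)ᴴ * Wm g s y).trace := by
      filter_upwards [h.op.mem_nhds hw] with y hy
      exact nr2_real h hy
    rw [wd_congr s1, wd_trace _ (diff_mul (hH w hw) (hW w hw)),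
      dm_mul (false, a) (hH w hw) (hW w hw), dsH h hs hw, Matrix.zero_mul, zero_add]
  rw [wd_congr e1]
  have hW2 : ∀ i j, ContDiffAt ℝ ∞ (fun w => dm (false, a) (Wm g s) w i j) z := fun i j =>
    contDiffAt_wd (Wm_smAt h hs hz i j) _
  have hW2d : ∀ i j, DifferentiableAt ℝ (fun w => dm (false, a) (Wm g s) w i j) z := fun i j =>
    (hW2 i j).differentiableAt (by simp)
  rw [wd_trace _ (diff_mul (hH z hz) hW2d), dm_mul (true, b) (hH z hz) hW2d, dbsH h hs hz]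
  -- commute
  have e2 : dm (true, b) (dm (false, a) (Wm g s)) z =
      dm (false, a) (dm (true, b) (Wm g s)) z := by
    ext i j
    exact wd_comm (Wm_smAt h hs hz i j) _ _
  have hE : ∀ i j, DifferentiableAt ℝ (fun w => Em g b w i j) z := fun i j => Em_diff h hz b i j
  have hET : ∀ i j, DifferentiableAt ℝ (fun w => (Em g b w)ᵀ i j) z := fun i j => Em_diff h hz b j i
  have e3 : dm (false, a) (dm (true, b) (Wm g s)) z =
      -(dm (false, a) (Em g b) z * Wm g s z + Em g b z * dm (false, a) (Wm g s) z) -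
        (dm (false, a) (Wm g s) z * (Em g b z)ᵀ + Wm g s z * (dm (false, a) (Em g b) z)ᵀ) := by
    have s1 : dm (true, b) (Wm g s) =ᶠ[𝓝 z] fun w =>
        (-(Em g b w * Wm g s w)) + (-(Wm g s w * (Em g b w)ᵀ)) := by
      filter_upwards [h.op.mem_nhds hz] with w hw
      rw [dmb_Wm h hs hw, sub_eq_add_neg]
    have d1 := diff_mul hE (hW z hz)
    have d2 := diff_mul (hW z hz) hET
    have s2 := dm_add' (false, a) (p := fun w => -(Em g b w * Wm g s w))
      (q := fun w => -(Wm g s w * (Em g b w)ᵀ)) (z := z)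
      (fun i j => (d1 i j).fun_neg) (fun i j => (d2 i j).fun_neg)
    rw [dm_congr _ s1, s2, dm_neg' _ d1, dm_neg' _ d2, dm_mul _ hE (hW z hz),
      dm_mul _ (hW z hz) hET, dm_transpose]
    abel
  rw [e2, e3, dsH_eq h hz b, dm_Wm h hs hz a]
  set D := (g z)⁻¹ * Dm g s z a * ((g z)⁻¹)ᵀ with hD
  set F := dm (false, a) (Em g b) z with hF
  have c1 : ((Em g b z)ᵀ * ((s z)ᴴ * D)).trace = ((s z)ᴴ * (D * (Em g b z)ᵀ)).trace := by
    rw [Matrix.trace_mul_comm, Matrix.mul_assoc]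
  simp only [Matrix.add_mul, Matrix.mul_add, Matrix.mul_sub, Matrix.mul_neg, Matrix.trace_add,
    Matrix.trace_sub, Matrix.trace_neg, Matrix.mul_assoc, c1]
  ring

theorem dm_Em (h : GM g U) {z : Cn n} (hz : z ∈ U) (a b : Fin n) :
    dm (false, a) (Em g b) z = (g z)⁻¹ * Xc g z a b := by
  have e := dm_mul (false, a) (p := fun w => (g w)⁻¹) (q := dm (true, b) g)
    (fun i j => h.inv_diff hz i j) (fun i j => h.dm_diff hz _ i j)
  change dm (false, a) (fun w => (g w)⁻¹ * dm (true, b) g w) z = _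
  rw [e, dm_inv' h hz, Xc]
  simp only [Matrix.mul_sub, Matrix.neg_mul, Matrix.mul_assoc]
  abel

/-- the Ricci contraction -/
theorem sum_Em (h : GM g U) {z : Cn n} (hz : z ∈ U)
    (hric : hess (fun w => - Real.log (g w).det.re) z = 0) :
    ∑ b, ∑ a, (g z)⁻¹ b a • dm (false, a) (Em g b) z = 0 := by
  have e1 : ∑ b, ∑ a, (g z)⁻¹ b a • dm (false, a) (Em g b) z =
      (g z)⁻¹ * ∑ b, ∑ a, (g z)⁻¹ b a • Xc g z a b := by
    rw [Finset.mul_sum]
    refine Finset.sum_congr rfl fun b _ => ?_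
    rw [Finset.mul_sum]
    refine Finset.sum_congr rfl fun a _ => ?_
    rw [dm_Em h hz, Matrix.mul_smul]
  have e2 : ∑ b, ∑ a, (g z)⁻¹ b a • Xc g z a b = 0 := by
    ext c d
    have t := trace_Xc h hz c d
    rw [hric, Matrix.zero_apply, neg_zero, Matrix.trace] at t
    rw [Matrix.zero_apply, ← t, Matrix.sum_apply]
    refine Finset.sum_congr rfl fun b _ => ?_
    rw [Matrix.diag_apply, Matrix.mul_apply, Matrix.sum_apply]
    refine Finset.sum_congr rfl fun a _ => ?_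
    rw [Matrix.smul_apply, smul_eq_mul, Xc_symm h hz]
  rw [e1, e2, Matrix.mul_zero]

/-- **Bochner's formula** for holomorphic `(2,0)` tensors, Ricci flat case -/
theorem trace_hess_nr2 (h : GM g U) (hs : HolM s U) {z : Cn n} (hz : z ∈ U)
    (hric : hess (fun w => - Real.log (g w).det.re) z = 0) :
    ((g z)⁻¹ * hess (nr2 g s) z).trace =
      ∑ b, ∑ a, (g z)⁻¹ b a *
        ((Dm g s z b)ᴴ * ((g z)⁻¹ * Dm g s z a * ((g z)⁻¹)ᵀ)).trace := by
  have e1 : ((g z)⁻¹ * hess (nr2 g s) z).trace = ∑ b, ∑ a, (g z)⁻¹ b a * hess (nr2 g s) z a b := by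
    simp only [Matrix.trace, Matrix.diag_apply, Matrix.mul_apply]
  have e2 : ∑ b, ∑ a, (g z)⁻¹ b a * ((s z)ᴴ * (dm (false, a) (Em g b) z * Wm g s z)).trace = 0 := by
    have : ∑ b, ∑ a, (g z)⁻¹ b a * ((s z)ᴴ * (dm (false, a) (Em g b) z * Wm g s z)).trace =
        ((s z)ᴴ * ((∑ b, ∑ a, (g z)⁻¹ b a • dm (false, a) (Em g b) z) * Wm g s z)).trace := by
      simp only [Finset.sum_mul, Finset.mul_sum, Matrix.trace_sum, Matrix.smul_mul,
        Matrix.mul_smul, Matrix.trace_smul, smul_eq_mul]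
    rw [this, sum_Em h hz hric, Matrix.zero_mul, Matrix.mul_zero, Matrix.trace_zero]
  have e3 : ∑ b, ∑ a, (g z)⁻¹ b a * ((s z)ᴴ * (Wm g s z * (dm (false, a) (Em g b) z)ᵀ)).trace = 0 := by
    have : ∑ b, ∑ a, (g z)⁻¹ b a * ((s z)ᴴ * (Wm g s z * (dm (false, a) (Em g b) z)ᵀ)).trace =
        ((s z)ᴴ * (Wm g s z * (∑ b, ∑ a, (g z)⁻¹ b a • dm (false, a) (Em g b) z)ᵀ)).trace := by
      simp only [Matrix.transpose_sum, Matrix.transpose_smul, Finset.mul_sum, Matrix.trace_sum,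
        Matrix.mul_smul, Matrix.trace_smul, smul_eq_mul]
    rw [this, sum_Em h hz hric, Matrix.transpose_zero, Matrix.mul_zero, Matrix.mul_zero,
      Matrix.trace_zero]
  rw [e1]
  simp only [hess_nr2 h hs hz, mul_sub, Finset.sum_sub_distrib]
  rw [e2, e3, sub_zero, sub_zero]

/-- sum of squares -/
theorem sum_sq {G : Matrix (Fin n) (Fin n) ℂ} {C : Matrix (Fin n) (Fin n) ℂ} (hC : G = Cᴴ * C)
    (D : Fin n → Matrix (Fin n) (Fin n) ℂ) :
    ∑ b, ∑ a, G b a * ((D b)ᴴ * (G * D a * Gᵀ)).trace =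
      ∑ k, ((C * (∑ a, C k a • D a) * Cᵀ)ᴴ * (C * (∑ a, C k a • D a) * Cᵀ)).trace := by
  have e1 : ∀ X Y : Matrix (Fin n) (Fin n) ℂ,
      ((C * X * Cᵀ)ᴴ * (C * Y * Cᵀ)).trace = (Xᴴ * (G * Y * Gᵀ)).trace := by
    intro X Y
    have hT : Gᵀ = Cᵀ * (Cᵀ)ᴴ := by
      rw [hC, Matrix.transpose_mul]
      rfl
    rw [hT, hC]
    simp only [Matrix.conjTranspose_mul, Matrix.mul_assoc]
    rw [Matrix.trace_mul_comm]
    simp only [Matrix.mul_assoc]
  simp only [e1]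
  have e2 : ∀ k, ((∑ a, C k a • D a)ᴴ * (G * (∑ a, C k a • D a) * Gᵀ)).trace =
      ∑ b, ∑ a, conj (C k b) * C k a * ((D b)ᴴ * (G * D a * Gᵀ)).trace := by
    intro k
    rw [Matrix.conjTranspose_sum, Finset.sum_mul, Matrix.trace_sum]
    refine Finset.sum_congr rfl fun b _ => ?_
    rw [Finset.mul_sum, Finset.sum_mul, Finset.mul_sum, Matrix.trace_sum]
    refine Finset.sum_congr rfl fun a _ => ?_
    rw [Matrix.conjTranspose_smul]
    simp only [Matrix.smul_mul, Matrix.mul_smul, Matrix.trace_smul, smul_eq_mul, RCLike.star_def]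
    ring
  simp only [e2]
  have e3 : ∀ b a, G b a * ((D b)ᴴ * (G * D a * Gᵀ)).trace =
      ∑ k, conj (C k b) * C k a * ((D b)ᴴ * (G * D a * Gᵀ)).trace := by
    intro b a
    rw [← Finset.sum_mul]
    congr 1
    rw [hC, Matrix.mul_apply]
    rfl
  simp only [e3]
  calc ∑ b, ∑ a, ∑ k, conj (C k b) * C k a * ((D b)ᴴ * (G * D a * Gᵀ)).trace
      = ∑ b, ∑ k, ∑ a, conj (C k b) * C k a * ((D b)ᴴ * (G * D a * Gᵀ)).trace :=
        Finset.sum_congr rfl fun b _ => Finset.sum_comm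
    _ = _ := Finset.sum_comm

theorem sq_nonneg2 {G : Matrix (Fin n) (Fin n) ℂ} (hG : G.PosDef)
    (D : Fin n → Matrix (Fin n) (Fin n) ℂ) :
    0 ≤ ∑ b, ∑ a, G b a * ((D b)ᴴ * (G * D a * Gᵀ)).trace := by
  obtain ⟨C, hC⟩ := GreenM_5.exists_msqrt hG.posSemidef
  rw [sum_sq hC]
  exact Finset.sum_nonneg fun k _ => (Matrix.posSemidef_conjTranspose_mul_self _).trace_nonneg

theorem sq_eq_zero2 {G : Matrix (Fin n) (Fin n) ℂ} (hG : G.PosDef)
    {D : Fin n → Matrix (Fin n) (Fin n) ℂ}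
    (h : (∑ b, ∑ a, G b a * ((D b)ᴴ * (G * D a * Gᵀ)).trace).re = 0) : ∀ a, D a = 0 := by
  obtain ⟨C, hC⟩ := GreenM_5.exists_msqrt hG.posSemidef
  have hCdet : IsUnit C.det := by
    have hd : G.det ≠ 0 := hG.det_pos.ne'
    rw [hC, Matrix.det_mul] at hd
    exact isUnit_iff_ne_zero.2 (right_ne_zero_of_mul hd)
  have hCt : IsUnit Cᵀ.det := by rwa [Matrix.det_transpose]
  rw [sum_sq hC, Complex.re_sum] at h
  have h1 : ∀ k, ((C * (∑ a, C k a • D a) * Cᵀ)ᴴ * (C * (∑ a, C k a • D a) * Cᵀ)).trace = 0 := by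
    intro k
    have h2 := (Finset.sum_eq_zero_iff_of_nonneg (fun k _ =>
      (Complex.le_def.1 (Matrix.posSemidef_conjTranspose_mul_self
        (C * (∑ a, C k a • D a) * Cᵀ)).trace_nonneg).1)).1 h k (Finset.mem_univ k)
    have h3 := (Complex.le_def.1 (Matrix.posSemidef_conjTranspose_mul_self
        (C * (∑ a, C k a • D a) * Cᵀ)).trace_nonneg).2
    exact Complex.ext h2 h3.symm
  have h4 : ∀ k, ∑ a, C k a • D a = 0 := by
    intro k
    have h5 := Matrix.trace_conjTranspose_mul_self_eq_zero_iff.1 (h1 k)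
    calc ∑ a, C k a • D a = C⁻¹ * (C * (∑ a, C k a • D a) * Cᵀ) * (Cᵀ)⁻¹ := by
          rw [Matrix.mul_assoc C, ← Matrix.mul_assoc C⁻¹ C, Matrix.nonsing_inv_mul _ hCdet,
            Matrix.one_mul, Matrix.mul_assoc, Matrix.mul_nonsing_inv _ hCt, Matrix.mul_one]
      _ = 0 := by rw [h5, Matrix.mul_zero, Matrix.zero_mul]
  intro a
  have h6 : ∑ k, C⁻¹ a k • ∑ b, C k b • D b = D a := by
    simp only [Finset.smul_sum, smul_smul]
    rw [Finset.sum_comm]
    have h7 : ∀ b, ∑ k, (C⁻¹ a k * C k b) • D b = (1 : Matrix (Fin n) (Fin n) ℂ) a b • D b := by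
      intro b
      rw [← Finset.sum_smul, ← Matrix.mul_apply, Matrix.nonsing_inv_mul _ hCdet]
    simp only [h7, Matrix.one_apply, ite_smul, one_smul, zero_smul, Finset.sum_ite_eq,
      Finset.mem_univ, if_true]
  rw [← h6]
  simp only [h4, smul_zero, Finset.sum_const_zero]

end

end Crest.Agent.R281.HkP1_508
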