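import Crest.Agent.R281.HkR9_835
import Crest.Agent.R281.HkP3_508

/-!
# Row 281, HK-ROT, part 10 (helper835): the dictionary with 508's structure `HK K σ`

* `HkT.ofHK (h : HK K σ)` : hyperkaehler triple on the real charts of the atlas
* `HkT.S0s`, `hk0`        : a triple with `J 0 = i` gives `HK (H.K0 hJ) (H.S0s hJ)`
-/

set_option autoImplicit false
set_option linter.unusedSectionVars false

open Set Filter Topology Complex
open scoped ContDiff Matrix ComplexConjugate ComplexOrder InnerProductSpace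

namespace Crest.Agent.R281.HkR_835

open Crest.Agent.R275.Geo Crest.Agent.R275.Core144 Crest.Agent.R275.EDR890
open Crest.Agent.R273.Kah_333 Crest.Agent.R273.Hess_333 Crest.Agent.R281.Defs_273
open Crest.Agent.R273.NoHVF_376
open Crest.Agent.R281.HkP1_508 Crest.Agent.R281.HkP2_508 Crest.Agent.R281.HkP3_508

noncomputable section

variable {d : ℕ} {X : Type} [TopologicalSpace X] {A : Atl d X}

/-- the triple of a hyperkaehler pair -/
def HkT.ofHK {K : Kah A} {σ : HSymp A} (h : HK K σ) : HkT (ofAtl A) :=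
  HkT.ofKS K σ.toH2 (fun i _ hz a b c => h.closed i hz a b c) h.rel

theorem HkT.ofHK_J {K : Kah A} {σ : HSymp A} (h : HK K σ) (i : A.ι) (z v : Cn d) :
    (HkT.ofHK h).J 0 i z v = I • v := rfl

/-- the holomorphic symplectic form of a triple -/
def HkT.S0s (H : HkT (ofAtl A)) (hJ : ∀ (i : A.ι), ∀ z ∈ (A.e i).target, ∀ v,
    H.J 0 i z v = I • v) : HSymp A where
  toH2 := H.S0 hJ
  nd := S0_nd H hJ

theorem ric0 (H : HkT (ofAtl A)) (hJ : ∀ (i : A.ι), ∀ z ∈ (A.e i).target, ∀ v,
    H.J 0 i z v = I • v) : RicFlat (H.K0 hJ) := by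
  refine ricFlat_of_det (H.S0s hJ) one_pos fun i x hx => ?_
  have := congrArg Complex.re (det0 H hJ i x hx)
  rw [Complex.ofReal_re] at this
  rw [one_mul]
  exact this

theorem hk0 [T2Space X] [CompactSpace X] [Finite A.ι] (P : Part A) (H : HkT (ofAtl A))
    (hJ : ∀ (i : A.ι), ∀ z ∈ (A.e i).target, ∀ v, H.J 0 i z v = I • v) :
    HK (H.K0 hJ) (H.S0s hJ) where
  ric := ric0 H hJ
  par := par_h2 P (ric0 H hJ) _
  rel := hr0 H hJ

end

end Crest.Agent.R281.HkR_835
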