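import Crest.Agent.R260.ACM_580

/-!
# Row 281, HK-ROT, part 1 (helper835): Hitchin's lemma

`nij_zero` : `Ω` a complex valued alternating 2-form on an open set of a real normed space, closed,
nondegenerate and of type `(2,0)` for the field of complex structures `J`
(`Ω (J v) w = i Ω v w`) : then the Nijenhuis tensor of `J` vanishes.
-/

set_option autoImplicit false

open Set Filter Topology Complex
open scoped ContDiff

namespace Crest.Agent.R281.HkR_835

open Crest.Agent.R260.ACM_580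

noncomputable section

section hitchin

variable {V : Type*} [NormedAddCommGroup V] [NormedSpace ℝ V]

/-- real 2-tensors -/
abbrev Bil (V : Type*) [NormedAddCommGroup V] [NormedSpace ℝ V] : Type _ := V →L[ℝ] V →L[ℝ] ℝ

/-- the derivative of `z ↦ w z (J z v) u` -/
theorem fderiv_pair {w : V → Bil V} {J : V → V →L[ℝ] V} {z : V} (hw : DifferentiableAt ℝ w z)
    (hJ : DifferentiableAt ℝ J z) (v u a : V) :
    fderiv ℝ (fun y => w y (J y v) u) z a = fderiv ℝ w z a (J z v) u + w z (fderiv ℝ J z a v) u := by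
  have h1 : HasFDerivAt w (fderiv ℝ w z) z := hw.hasFDerivAt
  have h2 : HasFDerivAt J (fderiv ℝ J z) z := hJ.hasFDerivAt
  have h3 : HasFDerivAt (fun y => J y v) _ z := h2.clm_apply (hasFDerivAt_const v z)
  have h4 : HasFDerivAt (fun y => w y (J y v)) _ z := h1.clm_apply h3
  have h5 := (h4.clm_apply (hasFDerivAt_const u z)).fderiv
  rw [h5]
  simp
  ring

/-- the derivative of `z ↦ w z v u` -/
theorem fderiv_app {w : V → Bil V} {z : V} (hw : DifferentiableAt ℝ w z) (v u a : V) :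
    fderiv ℝ (fun y => w y v u) z a = fderiv ℝ w z a v u := by
  have h1 : HasFDerivAt w (fderiv ℝ w z) z := hw.hasFDerivAt
  have h4 : HasFDerivAt (fun y => w y v) _ z := h1.clm_apply (hasFDerivAt_const v z)
  have h5 := (h4.clm_apply (hasFDerivAt_const u z)).fderiv
  rw [h5]
  simp

/-- **Hitchin's lemma**: `w₁`, `w₂` closed, `w₁(Jv,u) = - w₂(v,u)`, `w₂(Jv,u) = w₁(v,u)`,
`w₁` nondegenerate: `J` is integrable. -/
theorem nij_zero {w₁ w₂ : V → Bil V} {J : V → V →L[ℝ] V} {U : Set V} (hU : IsOpen U)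
    (h1 : DifferentiableOn ℝ w₁ U) (h2 : DifferentiableOn ℝ w₂ U) (hJ : DifferentiableOn ℝ J U)
    (a1 : ∀ z ∈ U, ∀ v u, w₁ z v u = -w₁ z u v) (a2 : ∀ z ∈ U, ∀ v u, w₂ z v u = -w₂ z u v)
    (c1 : ∀ z ∈ U, ∀ a b c, fderiv ℝ w₁ z a b c + fderiv ℝ w₁ z b c a + fderiv ℝ w₁ z c a b = 0)
    (c2 : ∀ z ∈ U, ∀ a b c, fderiv ℝ w₂ z a b c + fderiv ℝ w₂ z b c a + fderiv ℝ w₂ z c a b = 0)
    (t1 : ∀ z ∈ U, ∀ v u, w₁ z (J z v) u = -w₂ z v u)
    (t2 : ∀ z ∈ U, ∀ v u, w₂ z (J z v) u = w₁ z v u)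
    (nd : ∀ z ∈ U, ∀ v, (∀ u, w₁ z v u = 0) → v = 0)
    {z : V} (hz : z ∈ U) (v w : V) : Nij J z v w = 0 := by
  have hn : U ∈ 𝓝 z := hU.mem_nhds hz
  have d1 : DifferentiableAt ℝ w₁ z := (h1 z hz).differentiableAt hn
  have d2 : DifferentiableAt ℝ w₂ z := (h2 z hz).differentiableAt hn
  have dJ : DifferentiableAt ℝ J z := (hJ z hz).differentiableAt hn
  -- derivative of antisymmetry
  have s1 : ∀ a b c, fderiv ℝ w₁ z a b c = -fderiv ℝ w₁ z a c b := by
    intro a b c
    rw [← fderiv_app d1, ← fderiv_app d1]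
    have : (fun y => w₁ y b c) =ᶠ[𝓝 z] fun y => -w₁ y c b := by
      filter_upwards [hn] with y hy using a1 y hy b c
    rw [this.fderiv_eq, fderiv_fun_neg]
    rfl
  have s2 : ∀ a b c, fderiv ℝ w₂ z a b c = -fderiv ℝ w₂ z a c b := by
    intro a b c
    rw [← fderiv_app d2, ← fderiv_app d2]
    have : (fun y => w₂ y b c) =ᶠ[𝓝 z] fun y => -w₂ y c b := by
      filter_upwards [hn] with y hy using a2 y hy b c
    rw [this.fderiv_eq, fderiv_fun_neg]
    rfl
  -- derivative of the type relation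
  have r1 : ∀ a b c, fderiv ℝ w₁ z a (J z b) c + w₁ z (fderiv ℝ J z a b) c
      = -fderiv ℝ w₂ z a b c := by
    intro a b c
    rw [← fderiv_pair d1 dJ, ← fderiv_app d2]
    have : (fun y => w₁ y (J y b) c) =ᶠ[𝓝 z] fun y => -w₂ y b c := by
      filter_upwards [hn] with y hy using t1 y hy b c
    rw [this.fderiv_eq, fderiv_fun_neg]
    rfl
  have r2 : ∀ a b c, fderiv ℝ w₂ z a (J z b) c + w₂ z (fderiv ℝ J z a b) c
      = fderiv ℝ w₁ z a b c := by
    intro a b c
    rw [← fderiv_pair d2 dJ, ← fderiv_app d1]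
    have : (fun y => w₂ y (J y b) c) =ᶠ[𝓝 z] fun y => w₁ y b c := by
      filter_upwards [hn] with y hy using t2 y hy b c
    rw [this.fderiv_eq]
  refine nd z hz _ fun u => ?_
  unfold Nij
  simp only [map_add, map_sub, add_apply, sub_apply]
  rw [t1 z hz, t1 z hz]
  -- abbreviations
  have e1 := r1 (J z v) w u
  have e2 := r1 (J z w) v u
  have e3 := r2 v w u
  have e4 := r2 w v u
  have f1 := c1 z hz (J z v) (J z w) u
  have f2 := c1 z hz v w u
  have f3 := c2 z hz (J z v) w u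
  have f4 := c2 z hz v (J z w) u
  have g1 := s1 (J z w) u (J z v)
  have g2 := s1 w u v
  have g3 := s2 w u (J z v)
  have g4 := s2 (J z w) u v
  -- type relation differentiated in the direction `u`
  have k1 := r1 u v (J z w)
  have k2 := r2 u v w
  have k3 := r1 u w (J z v)
  have k4 := r2 u w v
  have k5 := r1 u v w
  have k6 := r1 u w v
  have m1 := s1 u (J z v) (J z w)
  have m2 := s2 u v (J z w)
  have m3 := s2 u w (J z v)
  have m4 := s1 u v w
  have m5 := s1 u (J z v) w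
  have m6 := s1 u (J z w) v
  have n1 := t1 z hz w (fderiv ℝ J z u v)
  have n2 := t2 z hz w (fderiv ℝ J z u v)
  have n3 := a1 z hz (J z w) (fderiv ℝ J z u v)
  have n4 := a2 z hz w (fderiv ℝ J z u v)
  have n5 := t1 z hz v (fderiv ℝ J z u w)
  have n6 := t2 z hz v (fderiv ℝ J z u w)
  have n7 := a1 z hz (J z v) (fderiv ℝ J z u w)
  have n8 := a2 z hz v (fderiv ℝ J z u w)
  have n9 := a1 z hz w (fderiv ℝ J z u v)
  have n10 := a2 z hz (J z w) (fderiv ℝ J z u v)
  have n11 := a1 z hz v (fderiv ℝ J z u w)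
  have n12 := a2 z hz (J z v) (fderiv ℝ J z u w)
  linarith

end hitchin

end

end Crest.Agent.R281.HkR_835
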