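import Crest.Agent.R281.HkR1_835

/-!
# Row 281, HK-ROT, part 2 (helper835): hyperkaehler triples on a space with real charts

* `RCh V X`   : smooth real charts of `X` with values in `V` (the first half of `ACM_580.ACM`)
* `F2 C`      : closed smooth real 2-forms, read in the charts
* `HkT C`     : hyperkaehler triple: `om 0`, `om 1`, `om 2`, quaternion structure `J 0, J 1, J 2`,
                metric `g`, `om k (u, v) = g (J k u, v)`
* `HkT.Jv`, `HkT.ov` : `J_a`, `ω_a` for `a ∈ ℝ³`, `Jv_mul`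
* `HkT.rot`   : rotation of the triple by an oriented orthonormal frame
* `HkT.acm k` : `ACM_580.ACM V X` of `J k`, `HkT.acm_int` (Hitchin's lemma)
-/

set_option autoImplicit false

open Set Filter Topology Complex
open scoped ContDiff

namespace Crest.Agent.R281.HkR_835

open Crest.Agent.R260.ACM_580

noncomputable section

/-- a topological space with smooth real charts -/
structure RCh (V X : Type) [NormedAddCommGroup V] [NormedSpace ℝ V] [TopologicalSpace X] where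
  ι : Type
  e : ι → OpenPartialHomeomorph X V
  cover : ∀ x, ∃ i, x ∈ (e i).source
  sm : ∀ i j, ContDiffOn ℝ ∞ (fun z => e j ((e i).symm z))
    {z | z ∈ (e i).target ∧ (e i).symm z ∈ (e j).source}

variable {V X : Type} [NormedAddCommGroup V] [NormedSpace ℝ V] [TopologicalSpace X]

namespace RCh

variable (C : RCh V X)

/-- the overlap of the charts `i`, `j`, seen in the chart `i` -/
def ov (i j : C.ι) : Set V := {z | z ∈ (C.e i).target ∧ (C.e i).symm z ∈ (C.e j).source}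

/-- the transition map -/
def t (i j : C.ι) (z : V) : V := C.e j ((C.e i).symm z)

variable {C}

theorem isOpen_ov (i j : C.ι) : IsOpen (C.ov i j) :=
  (C.e i).isOpen_inter_preimage_symm (C.e j).open_source

theorem t_mem {i j : C.ι} {z : V} (hz : z ∈ C.ov i j) : C.t i j z ∈ C.ov j i := by
  refine ⟨(C.e j).map_source hz.2, ?_⟩
  show (C.e j).symm (C.e j ((C.e i).symm z)) ∈ (C.e i).source
  rw [(C.e j).left_inv hz.2]
  exact (C.e i).map_target hz.1

theorem t_t {i j : C.ι} {z : V} (hz : z ∈ C.ov i j) : C.t j i (C.t i j z) = z := by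
  show C.e i ((C.e j).symm (C.e j ((C.e i).symm z))) = z
  rw [(C.e j).left_inv hz.2, (C.e i).right_inv hz.1]

theorem t_smooth (i j : C.ι) : ContDiffOn ℝ ∞ (C.t i j) (C.ov i j) := C.sm i j

theorem t_diff {i j : C.ι} {z : V} (hz : z ∈ C.ov i j) : DifferentiableAt ℝ (C.t i j) z :=
  ((t_smooth i j).contDiffAt ((isOpen_ov i j).mem_nhds hz)).differentiableAt (by simp)

/-- the differentials of the transition maps are inverse to each other -/
theorem dt_dt {i j : C.ι} {z : V} (hz : z ∈ C.ov i j) (v : V) :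
    fderiv ℝ (C.t j i) (C.t i j z) (fderiv ℝ (C.t i j) z v) = v := by
  have h1 : (fun y => C.t j i (C.t i j y)) =ᶠ[𝓝 z] id := by
    filter_upwards [(isOpen_ov i j).mem_nhds hz] with y hy using t_t hy
  have h2 := ((t_diff (t_mem hz)).hasFDerivAt.comp z (t_diff hz).hasFDerivAt).fderiv
  have h3 : (C.t j i ∘ C.t i j) = fun y => C.t j i (C.t i j y) := rfl
  rw [h3, h1.fderiv_eq] at h2
  have := congrArg (fun T : V →L[ℝ] V => T v) h2
  simpa using this.symm

theorem dt_dt' {i j : C.ι} {z : V} (hz : z ∈ C.ov i j) (v : V) :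
    fderiv ℝ (C.t i j) z (fderiv ℝ (C.t j i) (C.t i j z) v) = v := by
  have h := dt_dt (t_mem hz) v
  rwa [t_t hz] at h

end RCh

/-- closed smooth real 2-forms -/
@[ext] structure F2 (C : RCh V X) where
  w : C.ι → V → Bil V
  sm : ∀ i, ContDiffOn ℝ ∞ (w i) (C.e i).target
  alt : ∀ i, ∀ z ∈ (C.e i).target, ∀ u v, w i z u v = -w i z v u
  tr : ∀ i j, ∀ z ∈ C.ov i j, ∀ u v,
    w i z u v = w j (C.t i j z) (fderiv ℝ (C.t i j) z u) (fderiv ℝ (C.t i j) z v)
  closed : ∀ i, ∀ z ∈ (C.e i).target, ∀ a b c,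
    fderiv ℝ (w i) z a b c + fderiv ℝ (w i) z b c a + fderiv ℝ (w i) z c a b = 0

namespace F2

variable {C : RCh V X}

theorem diffAt (w : F2 C) {i : C.ι} {z : V} (hz : z ∈ (C.e i).target) :
    DifferentiableAt ℝ (w.w i) z :=
  ((w.sm i).contDiffAt ((C.e i).open_target.mem_nhds hz)).differentiableAt (by simp)

/-- linear combinations -/
def lin {n : ℕ} (a : Fin n → ℝ) (w : Fin n → F2 C) : F2 C where
  w i z := ∑ k, a k • (w k).w i z
  sm i := ContDiffOn.sum fun k _ => ((w k).sm i).const_smul (a k)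
  alt i z hz u v := by
    simp only [sum_apply, smul_apply, smul_eq_mul, ← Finset.sum_neg_distrib]
    exact Finset.sum_congr rfl fun k _ => by rw [(w k).alt i z hz u v]; ring
  tr i j z hz u v := by
    simp only [sum_apply, smul_apply, smul_eq_mul]
    exact Finset.sum_congr rfl fun k _ => by rw [(w k).tr i j z hz u v]
  closed i z hz a' b c := by
    have hd : DifferentiableAt ℝ (fun y => ∑ k, a k • (w k).w i y) z :=
      ((ContDiffOn.sum fun k _ => ((w k).sm i).const_smul (a k)).contDiffAt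
        ((C.e i).open_target.mem_nhds hz)).differentiableAt (n := ∞) (by simp)
    have h : ∀ p q r, fderiv ℝ (fun y => ∑ k, a k • (w k).w i y) z p q r =
        ∑ k, a k * fderiv ℝ ((w k).w i) z p q r := by
      intro p q r
      rw [← fderiv_app hd]
      have h1 : (fun y => (∑ k, a k • (w k).w i y) q r) =
          fun y => ∑ k, a k * (w k).w i y q r := by
        funext y
        simp [sum_apply]
      have h2 : ∀ k, HasFDerivAt (fun y => (w k).w i y q r) (fderiv ℝ (fun y => (w k).w i y q r) z)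
          z := fun k => by
        have h3 : HasFDerivAt ((w k).w i) _ z := ((w k).diffAt hz).hasFDerivAt
        exact ((h3.clm_apply (hasFDerivAt_const q z)).clm_apply
          (hasFDerivAt_const r z)).differentiableAt.hasFDerivAt
      rw [h1, (HasFDerivAt.fun_sum fun k (_ : k ∈ Finset.univ) => (h2 k).const_mul (a k)).fderiv]
      simp [sum_apply, fderiv_app, diffAt _ hz]
    rw [h, h, h, ← Finset.sum_add_distrib, ← Finset.sum_add_distrib]
    refine Finset.sum_eq_zero fun k _ => ?_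
    have := (w k).closed i z hz a' b c
    rw [← mul_add, ← mul_add, this, mul_zero]

@[simp] theorem lin_w {n : ℕ} (a : Fin n → ℝ) (w : Fin n → F2 C) (i : C.ι) (z : V) (u v : V) :
    (lin a w).w i z u v = ∑ k, a k * (w k).w i z u v := by
  simp [lin]

end F2

/-- hyperkaehler triples -/
structure HkT (C : RCh V X) where
  om : Fin 3 → F2 C
  J : Fin 3 → C.ι → V → V →L[ℝ] V
  g : C.ι → V → Bil V
  J_sm : ∀ k i, ContDiffOn ℝ ∞ (J k i) (C.e i).target
  J_sq : ∀ k i, ∀ z ∈ (C.e i).target, ∀ v, J k i z (J k i z v) = -v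
  J_01 : ∀ i, ∀ z ∈ (C.e i).target, ∀ v, J 0 i z (J 1 i z v) = J 2 i z v
  g_symm : ∀ i, ∀ z ∈ (C.e i).target, ∀ u v, g i z u v = g i z v u
  g_pos : ∀ i, ∀ z ∈ (C.e i).target, ∀ v, v ≠ 0 → 0 < g i z v v
  om_eq : ∀ k i, ∀ z ∈ (C.e i).target, ∀ u v, (om k).w i z u v = g i z (J k i z u) v

namespace HkT

variable {C : RCh V X} (H : HkT C) {i : C.ι} {z : V}

theorem J_10 (hz : z ∈ (C.e i).target) (v : V) : H.J 1 i z (H.J 0 i z v) = -H.J 2 i z v := by
  have h1 : H.J 0 i z (H.J 1 i z (H.J 0 i z (H.J 1 i z (H.J 1 i z v)))) =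
      -H.J 1 i z v := by
    rw [H.J_01 i z hz, H.J_01 i z hz, H.J_sq 2 i z hz]
  rw [H.J_sq 1 i z hz] at h1
  simp only [map_neg] at h1
  have h2 := congrArg (H.J 0 i z) h1
  simp only [map_neg, neg_inj] at h2
  rw [H.J_sq 0 i z hz, H.J_01 i z hz] at h2
  rw [← h2, neg_neg]

theorem J_12 (hz : z ∈ (C.e i).target) (v : V) : H.J 1 i z (H.J 2 i z v) = H.J 0 i z v := by
  rw [← H.J_01 i z hz, J_10 H hz, ← H.J_01 i z hz, H.J_sq 1 i z hz]
  simp

theorem J_21 (hz : z ∈ (C.e i).target) (v : V) : H.J 2 i z (H.J 1 i z v) = -H.J 0 i z v := by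
  rw [← H.J_01 i z hz, H.J_sq 1 i z hz]
  simp

theorem J_20 (hz : z ∈ (C.e i).target) (v : V) : H.J 2 i z (H.J 0 i z v) = H.J 1 i z v := by
  have := H.J_10 hz (H.J 0 i z v)
  rw [H.J_sq 0 i z hz] at this
  simp only [map_neg, neg_inj] at this
  exact this.symm

theorem J_02 (hz : z ∈ (C.e i).target) (v : V) : H.J 0 i z (H.J 2 i z v) = -H.J 1 i z v := by
  rw [← H.J_01 i z hz, H.J_sq 0 i z hz]

/-- the metric is invariant -/
theorem g_J (k : Fin 3) (hz : z ∈ (C.e i).target) (u v : V) :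
    H.g i z (H.J k i z u) (H.J k i z v) = H.g i z u v := by
  have h1 := (H.om k).alt i z hz u (H.J k i z v)
  rw [H.om_eq k i z hz, H.om_eq k i z hz, H.J_sq k i z hz] at h1
  simp only [map_neg, neg_neg, neg_apply] at h1
  rw [h1, H.g_symm i z hz]

theorem g_J' (k : Fin 3) (hz : z ∈ (C.e i).target) (u v : V) :
    H.g i z (H.J k i z u) v = -H.g i z u (H.J k i z v) := by
  have h1 := H.g_J k hz u (H.J k i z v)
  rw [H.J_sq k i z hz] at h1
  simp only [map_neg] at h1
  rw [← h1, neg_neg]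

theorem g_eq (k : Fin 3) (hz : z ∈ (C.e i).target) (u v : V) :
    H.g i z u v = -(H.om k).w i z (H.J k i z u) v := by
  rw [H.om_eq k i z hz, H.J_sq k i z hz]
  simp

theorem g_sm (i : C.ι) : ContDiffOn ℝ ∞ (H.g i) (C.e i).target := by
  have h1 : ContDiffOn ℝ ∞ (fun z => -((H.om 0).w i z).comp (H.J 0 i z)) (C.e i).target :=
    (((H.om 0).sm i).clm_comp (H.J_sm 0 i)).neg
  refine h1.congr fun z hz => ?_
  ext u v
  rw [H.g_eq 0 hz]
  simp

theorem nondeg (k : Fin 3) (hz : z ∈ (C.e i).target) (v : V)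
    (h : ∀ u, (H.om k).w i z v u = 0) : v = 0 := by
  by_contra hv
  have h1 := h (H.J k i z v)
  rw [H.om_eq k i z hz, H.g_J k hz] at h1
  have h2 : 0 < H.g i z (H.J k i z v) (H.J k i z v) := by
    refine H.g_pos i z hz _ fun h0 => hv ?_
    have := H.J_sq k i z hz v
    rw [h0, map_zero] at this
    simpa using this.symm
  rw [H.g_J k hz, ] at h2
  have h3 := h (H.J k i z v)
  rw [H.om_eq k i z hz] at h3
  rw [H.g_J k hz] at h3
  linarith

/-- relation between `J 2`, `om 0`, `om 1` -/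
theorem om_J {k l m : Fin 3} (h : (k, l, m) = (0, 1, 2) ∨ (k, l, m) = (1, 2, 0) ∨
    (k, l, m) = (2, 0, 1)) (hz : z ∈ (C.e i).target) (u v : V) :
    (H.om l).w i z (H.J k i z u) v = -(H.om m).w i z u v ∧
      (H.om m).w i z (H.J k i z u) v = (H.om l).w i z u v := by
  simp only [Prod.mk.injEq] at h
  rcases h with ⟨rfl, rfl, rfl⟩ | ⟨rfl, rfl, rfl⟩ | ⟨rfl, rfl, rfl⟩
  · rw [H.om_eq 1 i z hz, H.om_eq 2 i z hz, H.om_eq 1 i z hz, H.om_eq 2 i z hz, H.J_10 hz,
      H.J_20 hz]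
    simp
  · rw [H.om_eq 2 i z hz, H.om_eq 0 i z hz, H.om_eq 2 i z hz, H.om_eq 0 i z hz, H.J_21 hz,
      H.J_01 i z hz]
    simp
  · rw [H.om_eq 0 i z hz, H.om_eq 1 i z hz, H.om_eq 0 i z hz, H.om_eq 1 i z hz, H.J_02 hz,
      H.J_12 hz]
    simp

theorem exists_cyc (k : Fin 3) : ∃ l m : Fin 3, (k, l, m) = (0, 1, 2) ∨ (k, l, m) = (1, 2, 0) ∨
    (k, l, m) = (2, 0, 1) := by
  fin_cases k
  · exact ⟨1, 2, Or.inl rfl⟩
  · exact ⟨2, 0, Or.inr (Or.inl rfl)⟩
  · exact ⟨0, 1, Or.inr (Or.inr rfl)⟩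

/-- transition law of the complex structures -/
theorem J_tr (k : Fin 3) {i j : C.ι} {z : V} (hz : z ∈ C.ov i j) (v : V) :
    fderiv ℝ (C.t i j) z (H.J k i z v) =
      H.J k j (C.t i j z) (fderiv ℝ (C.t i j) z v) := by
  obtain ⟨l, m, h⟩ := exists_cyc k
  have hz' := (RCh.t_mem hz).1
  rw [← sub_eq_zero]
  refine H.nondeg l hz' _ fun u => ?_
  simp only [map_sub, sub_apply]
  rw [(H.om_J h hz' _ u).1]
  have e1 := (H.om l).tr i j z hz (H.J k i z v) (fderiv ℝ (C.t j i) (C.t i j z) u)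
  have e2 := (H.om m).tr i j z hz v (fderiv ℝ (C.t j i) (C.t i j z) u)
  rw [RCh.dt_dt' hz] at e1 e2
  rw [← e1, ← e2, (H.om_J h hz.1 _ _).1]
  simp

theorem g_tr {i j : C.ι} {z : V} (hz : z ∈ C.ov i j) (u v : V) :
    H.g i z u v = H.g j (C.t i j z) (fderiv ℝ (C.t i j) z u) (fderiv ℝ (C.t i j) z v) := by
  rw [H.g_eq 0 hz.1, H.g_eq 0 (RCh.t_mem hz).1, (H.om 0).tr i j z hz, H.J_tr 0 hz]

/-! ### the almost complex manifolds of the triple -/

/-- the almost complex manifold `(X, J k)` -/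
def acm (k : Fin 3) : ACM V X where
  ι := C.ι
  e := C.e
  cover := C.cover
  sm := C.sm
  J := H.J k
  J_sm := H.J_sm k
  J_sq := H.J_sq k
  J_tr _ _ _ h1 h2 v := H.J_tr k ⟨h1, h2⟩ v

/-- **Hitchin's lemma** for triples -/
theorem acm_int (k : Fin 3) : (H.acm k).Int := by
  intro i z hz v w
  obtain ⟨l, m, h⟩ := exists_cyc k
  have ht : IsOpen (C.e i).target := (C.e i).open_target
  exact nij_zero (w₁ := (H.om l).w i) (w₂ := (H.om m).w i) (J := H.J k i) ht
    (((H.om l).sm i).differentiableOn (by simp)) (((H.om m).sm i).differentiableOn (by simp))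
    ((H.J_sm k i).differentiableOn (by simp)) ((H.om l).alt i) ((H.om m).alt i)
    ((H.om l).closed i) ((H.om m).closed i) (fun z hz v u => (H.om_J h hz v u).1)
    (fun z hz v u => (H.om_J h hz v u).2) (fun z hz v hv => H.nondeg l hz v hv) hz v w

/-! ### rotation -/

/-- `J_a`, `a ∈ ℝ³` -/
def Jv (a : Fin 3 → ℝ) (i : C.ι) (z : V) : V →L[ℝ] V := ∑ k, a k • H.J k i z

theorem Jv_apply (a : Fin 3 → ℝ) (i : C.ι) (z v : V) :
    H.Jv a i z v = a 0 • H.J 0 i z v + a 1 • H.J 1 i z v + a 2 • H.J 2 i z v := by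
  simp [Jv, Fin.sum_univ_three]

theorem Jv_mul (a b : Fin 3 → ℝ) (hz : z ∈ (C.e i).target) (v : V) :
    H.Jv a i z (H.Jv b i z v) =
      -(a 0 * b 0 + a 1 * b 1 + a 2 * b 2) • v +
        H.Jv ![a 1 * b 2 - a 2 * b 1, a 2 * b 0 - a 0 * b 2, a 0 * b 1 - a 1 * b 0] i z v := by
  simp only [Jv_apply, map_add, map_smul, H.J_sq _ i z hz, H.J_01 i z hz, H.J_10 hz, H.J_12 hz,
    H.J_21 hz, H.J_20 hz, H.J_02 hz, Matrix.cons_val_zero, Matrix.cons_val_one, Matrix.cons_val]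
  module

/-- oriented orthonormal frames of `ℝ³` -/
structure Fr (R : Fin 3 → Fin 3 → ℝ) : Prop where
  nrm : ∀ k, R k 0 * R k 0 + R k 1 * R k 1 + R k 2 * R k 2 = 1
  ort : R 0 0 * R 1 0 + R 0 1 * R 1 1 + R 0 2 * R 1 2 = 0
  crs : R 2 = ![R 0 1 * R 1 2 - R 0 2 * R 1 1, R 0 2 * R 1 0 - R 0 0 * R 1 2,
    R 0 0 * R 1 1 - R 0 1 * R 1 0]

/-- the rotated triple -/
def rot (R : Fin 3 → Fin 3 → ℝ) (hR : Fr R) : HkT C where
  om k := F2.lin (R k) H.om
  J k := H.Jv (R k)
  g := H.g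
  J_sm k i := ContDiffOn.sum fun l _ => (H.J_sm l i).const_smul (R k l)
  J_sq k i z hz v := by
    rw [H.Jv_mul _ _ hz, hR.nrm k, Jv_apply]
    simp [mul_comm]
  J_01 i z hz v := by
    rw [H.Jv_mul _ _ hz, hR.ort, ← hR.crs]
    simp
  g_symm := H.g_symm
  g_pos := H.g_pos
  om_eq k i z hz u v := by
    rw [F2.lin_w, Fin.sum_univ_three, H.om_eq 0 i z hz, H.om_eq 1 i z hz, H.om_eq 2 i z hz,
      Jv_apply]
    simp

@[simp] theorem rot_g (R : Fin 3 → Fin 3 → ℝ) (hR : Fr R) : (H.rot R hR).g = H.g := rfl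

theorem rot_om (R : Fin 3 → Fin 3 → ℝ) (hR : Fr R) (k : Fin 3) :
    (H.rot R hR).om k = F2.lin (R k) H.om := rfl

theorem rot_J (R : Fin 3 → Fin 3 → ℝ) (hR : Fr R) (k : Fin 3) :
    (H.rot R hR).J k = H.Jv (R k) := rfl

end HkT

end

end Crest.Agent.R281.HkR_835
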