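import Crest.Agent.R273.AbsStep_392

/-!
# R281, L2-CPT (helper578), part 1: regularised least squares in pre-Hilbert spaces

Same data as in `R273/AbsStep_392` (operators `T0 : S0 → S1`, `T1 : S1 → S2`, formal adjoint `T0s`,
mollifiers `J0, J1, J2`).  If `T1 g = 0` and
`‖⟪g, w⟫‖² ≤ D (‖T0s w‖² + ‖T1 w‖² + ε ‖w‖²)` for all `w : S1` then for every `τ > 0` there is
`y : S0` with `‖y‖² + ε⁻¹ ‖g - T0 y‖² ≤ D + τ`.
-/

set_option autoImplicit false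
set_option linter.style.haveILetI false

open Filter Topology
open scoped InnerProductSpace

namespace Crest.Agent.R281.HoC_578

open Crest.Agent.R273.AbsStep392

/-- a minimising sequence for `‖y‖² + ε⁻¹ ‖g - T0 y‖²` -/
theorem exists_ls_seq {S0 S1 : Type*} [NormedAddCommGroup S0] [InnerProductSpace ℂ S0]
    [NormedAddCommGroup S1] [InnerProductSpace ℂ S1] (T0 : S0 →ₗ[ℂ] S1) (g : S1) {ε : ℝ}
    (hε : 0 < ε) :
    ∃ y : ℕ → S0, CauchySeq y ∧ CauchySeq (fun n => g - T0 (y n)) ∧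
      ∀ w : S0, Tendsto (fun n => (ε⁻¹ : ℂ) * ⟪T0 w, g - T0 (y n)⟫_ℂ - ⟪w, y n⟫_ℂ) atTop (𝓝 0) := by
  let E := WithLp 2 (S0 × S1)
  set c : ℝ := Real.sqrt ε⁻¹ with hc
  have hc0 : 0 < c := Real.sqrt_pos.2 (inv_pos.2 hε)
  have hcc : c * c = ε⁻¹ := Real.mul_self_sqrt (inv_pos.2 hε).le
  let T : S0 →ₗ[ℂ] E :=
    (WithLp.linearEquiv 2 ℂ (S0 × S1)).symm.toLinearMap ∘ₗ
      (LinearMap.prod (-LinearMap.id) ((c : ℂ) • T0))
  let z : E := WithLp.toLp 2 ((0 : S0), (c : ℂ) • g)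
  obtain ⟨y, hy1, hy2⟩ := exists_min_seq T z
  have hz : ∀ n, z - T (y n) = WithLp.toLp 2 (y n, (c : ℂ) • (g - T0 (y n))) := by
    intro n
    have h1 : T (y n) = WithLp.toLp 2 (-(y n), (c : ℂ) • T0 (y n)) := rfl
    rw [h1]
    apply (WithLp.equiv 2 (S0 × S1)).injective
    show ((0 : S0) - -(y n), (c : ℂ) • g - (c : ℂ) • T0 (y n)) = (y n, (c : ℂ) • (g - T0 (y n)))
    rw [zero_sub, neg_neg, smul_sub]
  have hd : ∀ a b : S0 × S1, ‖a.1 - b.1‖ ≤ ‖WithLp.toLp 2 a - WithLp.toLp 2 b‖ ∧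
      ‖a.2 - b.2‖ ≤ ‖WithLp.toLp 2 a - WithLp.toLp 2 b‖ := by
    intro a b
    have h1 : ‖WithLp.toLp 2 a - WithLp.toLp 2 b‖ ^ 2 = ‖a.1 - b.1‖ ^ 2 + ‖a.2 - b.2‖ ^ 2 := by
      have := WithLp.prod_norm_sq_eq_of_L2 (WithLp.toLp 2 a - WithLp.toLp 2 b)
      simpa using this
    constructor
    · refine abs_le_of_sq_le_sq' (a := ‖a.1 - b.1‖) ?_ (norm_nonneg _) |>.2
      rw [h1]; nlinarith [sq_nonneg ‖a.2 - b.2‖]
    · refine abs_le_of_sq_le_sq' (a := ‖a.2 - b.2‖) ?_ (norm_nonneg _) |>.2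
      rw [h1]; nlinarith [sq_nonneg ‖a.1 - b.1‖]
  refine ⟨y, ?_, ?_, ?_⟩
  · rw [Metric.cauchySeq_iff] at hy1 ⊢
    intro δ hδ
    obtain ⟨N, hN⟩ := hy1 δ hδ
    refine ⟨N, fun m hm n hn => ?_⟩
    have h1 := hN m hm n hn
    rw [hz, hz, dist_eq_norm] at h1
    rw [dist_eq_norm]
    exact lt_of_le_of_lt (hd (y m, (c : ℂ) • (g - T0 (y m))) (y n, (c : ℂ) • (g - T0 (y n)))).1 h1
  · rw [Metric.cauchySeq_iff] at hy1 ⊢
    intro δ hδ
    obtain ⟨N, hN⟩ := hy1 (c * δ) (by positivity)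
    refine ⟨N, fun m hm n hn => ?_⟩
    have h1 := hN m hm n hn
    rw [hz, hz, dist_eq_norm] at h1
    have h2 := lt_of_le_of_lt
      (hd (y m, (c : ℂ) • (g - T0 (y m))) (y n, (c : ℂ) • (g - T0 (y n)))).2 h1
    dsimp only at h2
    rw [← smul_sub, norm_smul, Complex.norm_real, Real.norm_of_nonneg hc0.le] at h2
    rw [dist_eq_norm]
    exact lt_of_mul_lt_mul_left h2 hc0.le
  · intro w
    refine (hy2 w).congr fun n => ?_
    rw [hz]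
    have h1 : T w = WithLp.toLp 2 (-w, (c : ℂ) • T0 w) := rfl
    rw [h1, WithLp.prod_inner_apply]
    show ⟪-w, y n⟫_ℂ + ⟪(c : ℂ) • T0 w, (c : ℂ) • (g - T0 (y n))⟫_ℂ = _
    rw [inner_neg_left, inner_smul_left, inner_smul_right, Complex.conj_ofReal, ← mul_assoc,
      ← Complex.ofReal_mul, hcc]
    push_cast
    ring

/-- **regularised least squares** -/
theorem ls_abs {S0 S1 S2 : Type*}
    [NormedAddCommGroup S0] [InnerProductSpace ℂ S0]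
    [NormedAddCommGroup S1] [InnerProductSpace ℂ S1]
    [NormedAddCommGroup S2] [InnerProductSpace ℂ S2]
    (T0 : S0 →ₗ[ℂ] S1) (T1 : S1 →ₗ[ℂ] S2) (T0s : S1 →ₗ[ℂ] S0)
    (hadj : ∀ u w, ⟪T0 u, w⟫_ℂ = ⟪u, T0s w⟫_ℂ) (hTT : ∀ u, T1 (T0 u) = 0)
    (J0 : ℕ → S0 →ₗ[ℂ] S0) (J1 : ℕ → S1 →ₗ[ℂ] S1) (J2 : ℕ → S2 →ₗ[ℂ] S2) (C : ℝ)
    (F0b : ∀ N u, ‖J0 N u‖ ≤ C * ‖u‖) (F0 : ∀ u, Tendsto (fun N => J0 N u) atTop (𝓝 u))
    (F1b : ∀ N u, ‖J1 N u‖ ≤ C * ‖u‖) (F1 : ∀ u, Tendsto (fun N => J1 N u) atTop (𝓝 u))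
    (F2b : ∀ N u, ‖T1 (J1 N u) - J2 N (T1 u)‖ ≤ C * ‖u‖)
    (F2 : ∀ u, Tendsto (fun N => T1 (J1 N u) - J2 N (T1 u)) atTop (𝓝 0))
    (F2sb : ∀ N u, ‖T0s (J1 N u) - J0 N (T0s u)‖ ≤ C * ‖u‖)
    (F2s : ∀ u, Tendsto (fun N => T0s (J1 N u) - J0 N (T0s u)) atTop (𝓝 0))
    (F3 : ∀ N, ∃ (m : ℕ) (s e : Fin m → S0), ∀ v, J0 N v = ∑ k, ⟪s k, v⟫_ℂ • e k)
    (g : S1) (hg : T1 g = 0) {ε D : ℝ} (hε : 0 < ε) (hD : 0 ≤ D)
    (hG : ∀ w : S1, ‖⟪g, w⟫_ℂ‖ ^ 2 ≤ D * (‖T0s w‖ ^ 2 + ‖T1 w‖ ^ 2 + ε * ‖w‖ ^ 2))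
    {τ : ℝ} (hτ : 0 < τ) : ∃ y : S0, ‖y‖ ^ 2 + ε⁻¹ * ‖g - T0 y‖ ^ 2 ≤ D + τ := by
  obtain ⟨y', hy', hb', hE'⟩ := exists_ls_seq T0 g hε
  have hεc : (ε : ℂ) ≠ 0 := by exact_mod_cast hε.ne'
  -- `w_n`
  set w' : ℕ → S1 := fun n => (ε⁻¹ : ℂ) • (g - T0 (y' n)) with hw'
  have hw'c : CauchySeq w' := by
    have h := (uniformContinuous_const_smul (M := ℂ) (X := S1) (ε⁻¹ : ℂ)).comp_cauchySeq hb'
    exact h
  have hEL' : ∀ u : S0, Tendsto (fun n => ⟪T0 u, w' n⟫_ℂ - ⟪u, y' n⟫_ℂ) atTop (𝓝 0) := by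
    intro u
    refine (hE' u).congr fun n => ?_
    rw [hw', inner_smul_right]
  -- for fixed `N`, `J0 N (T0s w_n - y_n) → 0`
  have hfix : ∀ N, Tendsto (fun n => J0 N (T0s (w' n) - y' n)) atTop (𝓝 0) := by
    intro N
    obtain ⟨m, s, e, hse⟩ := F3 N
    have h1 : (fun n => J0 N (T0s (w' n) - y' n)) =
        fun n => ∑ k, (⟪T0 (s k), w' n⟫_ℂ - ⟪s k, y' n⟫_ℂ) • e k := by
      funext n
      rw [hse]
      exact Finset.sum_congr rfl fun k _ => by rw [inner_sub_right, hadj]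
    rw [h1]
    have h2 : Tendsto (fun n => ∑ k, (⟪T0 (s k), w' n⟫_ℂ - ⟪s k, y' n⟫_ℂ) • e k) atTop
        (𝓝 (∑ k, (0 : ℂ) • e k)) :=
      tendsto_finsetSum _ fun k _ => (hEL' (s k)).smul_const (e k)
    simpa using h2
  have hch : ∀ N : ℕ, ∃ n ≥ N, ‖J0 N (T0s (w' n) - y' n)‖ < 1 / ((N : ℝ) + 1) := by
    intro N
    have h1 := Metric.tendsto_atTop.1 (hfix N) (1 / ((N : ℝ) + 1)) (by positivity)
    obtain ⟨n0, hn0⟩ := h1
    refine ⟨max N n0, le_max_left _ _, ?_⟩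
    have := hn0 (max N n0) (le_max_right _ _)
    rwa [dist_zero_right] at this
  choose φ hφ1 hφ2 using hch
  have hφ : Tendsto φ atTop atTop := tendsto_atTop_mono hφ1 tendsto_id
  set y : ℕ → S0 := fun N => y' (φ N) with hy
  set v : ℕ → S1 := fun N => w' (φ N) with hv
  have hyc : CauchySeq y := hy'.comp_tendsto hφ
  have hvc : CauchySeq v := hw'c.comp_tendsto hφ
  have hTv : ∀ N, T1 (v N) = 0 := fun N => by
    simp only [hv, hw', map_smul, map_sub, hg, hTT, sub_zero, smul_zero]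
  have hgv : ∀ N, g = (ε : ℂ) • v N + T0 (y N) := fun N => by
    simp only [hv, hw', hy, smul_smul]
    rw [mul_inv_cancel₀ hεc, one_smul, sub_add_cancel]
  -- mollified sequence
  have hcv : Tendsto (fun N => J1 N (v N) - v N) atTop (𝓝 0) := by
    have h := tendsto_of_cauchy (fun N => J1 N - LinearMap.id) (C + 1)
      (fun N u => by
        have h1 : ‖(J1 N - LinearMap.id : S1 →ₗ[ℂ] S1) u‖ ≤ ‖J1 N u‖ + ‖u‖ := by
          simpa using norm_sub_le (J1 N u) u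
        have h2 := F1b N u
        linarith)
      (fun u => by
        have h1 : Tendsto (fun N => J1 N u - u) atTop (𝓝 (u - u)) := (F1 u).sub_const u
        simpa using h1)
      v hvc
    simpa using h
  have hcy : Tendsto (fun N => J0 N (y N) - y N) atTop (𝓝 0) := by
    have h := tendsto_of_cauchy (fun N => J0 N - LinearMap.id) (C + 1)
      (fun N u => by
        have h1 : ‖(J0 N - LinearMap.id : S0 →ₗ[ℂ] S0) u‖ ≤ ‖J0 N u‖ + ‖u‖ := by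
          simpa using norm_sub_le (J0 N u) u
        have h2 := F0b N u
        linarith)
      (fun u => by
        have h1 : Tendsto (fun N => J0 N u - u) atTop (𝓝 (u - u)) := (F0 u).sub_const u
        simpa using h1)
      y hyc
    simpa using h
  have hT1 : Tendsto (fun N => T1 (J1 N (v N))) atTop (𝓝 0) := by
    have h := tendsto_of_cauchy (fun N => T1 ∘ₗ J1 N - J2 N ∘ₗ T1) C
      (fun N u => by simpa using F2b N u) (fun u => by simpa using F2 u) v hvc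
    refine h.congr fun N => ?_
    simp [hTv]
  have hTs : Tendsto (fun N => T0s (J1 N (v N)) - y N) atTop (𝓝 0) := by
    have h := tendsto_of_cauchy (fun N => T0s ∘ₗ J1 N - J0 N ∘ₗ T0s) C
      (fun N u => by simpa using F2sb N u) (fun u => by simpa using F2s u) v hvc
    have h2 : Tendsto (fun N => J0 N (T0s (v N) - y N)) atTop (𝓝 0) :=
      squeeze_zero_norm (fun N => (hφ2 N).le) tendsto_one_div_add_atTop_nhds_zero_nat
    have h3 := (h.add h2).add hcy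
    rw [add_zero, add_zero] at h3
    refine h3.congr fun N => ?_
    simp only [LinearMap.sub_apply, LinearMap.comp_apply, map_sub]
    abel
  -- norms
  obtain ⟨a, ha⟩ := cauchySeq_tendsto_of_complete
    (UniformContinuous.comp_cauchySeq (uniformContinuous_norm) hyc)
  obtain ⟨b, hb⟩ := cauchySeq_tendsto_of_complete
    (UniformContinuous.comp_cauchySeq (uniformContinuous_norm) hvc)
  have ha' : Tendsto (fun N => ‖y N‖) atTop (𝓝 a) := ha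
  have hb1 : Tendsto (fun N => ‖v N‖) atTop (𝓝 b) := hb
  set m : ℝ := a ^ 2 + ε * b ^ 2 with hm
  have hm0 : 0 ≤ m := by positivity
  -- `⟪T0 y_n, v_n⟫ - ‖y_n‖² → 0`
  have hEL : ∀ u : S0, Tendsto (fun N => ⟪T0 u, v N⟫_ℂ - ⟪u, y N⟫_ℂ) atTop (𝓝 0) :=
    fun u => (hEL' u).comp hφ
  have hdiag : Tendsto (fun N => ⟪T0 (y N), v N⟫_ℂ - ⟪y N, y N⟫_ℂ) atTop (𝓝 0) := by
    obtain ⟨Ba, hBa⟩ := ha'.bddAbove_range
    obtain ⟨Bb, hBb⟩ := hb1.bddAbove_range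
    have hBa' : ∀ N, ‖y N‖ ≤ Ba := fun N => hBa ⟨N, rfl⟩
    have hBb' : ∀ N, ‖v N‖ ≤ Bb := fun N => hBb ⟨N, rfl⟩
    have hBa0 : 0 ≤ Ba := (norm_nonneg _).trans (hBa' 0)
    have hBb0 : 0 ≤ Bb := (norm_nonneg _).trans (hBb' 0)
    rw [Metric.tendsto_atTop]
    intro δ hδ
    obtain ⟨N1, hN1⟩ := Metric.cauchySeq_iff.1 hyc (δ / (3 * (Ba + 1))) (by positivity)
    obtain ⟨N2, hN2⟩ := Metric.cauchySeq_iff.1 hvc (δ / (3 * (ε * (Bb + 1)))) (by positivity)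
    set m0 := max N1 N2 with hm0'
    obtain ⟨N3, hN3⟩ := Metric.tendsto_atTop.1 (hEL (y m0)) (δ / 3) (by positivity)
    refine ⟨max m0 N3, fun N hN => ?_⟩
    have e1 := hN1 N ((le_max_left _ _).trans ((le_max_left _ _).trans hN)) m0 (le_max_left _ _)
    have e2 := hN2 N ((le_max_right _ _).trans ((le_max_left _ _).trans hN)) m0 (le_max_right _ _)
    have e3 := hN3 N ((le_max_right _ _).trans hN)
    rw [dist_zero_right] at e3 ⊢
    rw [dist_eq_norm] at e1 e2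
    have e4 : T0 (y N) - T0 (y m0) = -((ε : ℂ) • (v N - v m0)) := by
      have h1 := hgv N
      have h2 := hgv m0
      have h3 : T0 (y N) = g - (ε : ℂ) • v N := by rw [eq_sub_iff_add_eq, add_comm]; exact h1.symm
      have h4 : T0 (y m0) = g - (ε : ℂ) • v m0 := by
        rw [eq_sub_iff_add_eq, add_comm]; exact h2.symm
      rw [h3, h4, smul_sub]; abel
    have e5 : ⟪T0 (y N), v N⟫_ℂ - ⟪y N, y N⟫_ℂ = (⟪T0 (y m0), v N⟫_ℂ - ⟪y m0, y N⟫_ℂ)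
        + ⟪T0 (y N) - T0 (y m0), v N⟫_ℂ - ⟪y N - y m0, y N⟫_ℂ := by
      rw [inner_sub_left, inner_sub_left]; ring
    have e6 : ‖⟪T0 (y N) - T0 (y m0), v N⟫_ℂ‖ ≤ δ / 3 := by
      rw [e4]
      refine (norm_inner_le_norm _ _).trans ?_
      rw [norm_neg, norm_smul, Complex.norm_real, Real.norm_of_nonneg hε.le]
      have h1 : ε * ‖v N - v m0‖ * ‖v N‖ ≤ ε * (δ / (3 * (ε * (Bb + 1)))) * (Bb + 1) := by
        gcongr
        exact (hBb' N).trans (by linarith)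
      refine h1.trans (le_of_eq ?_)
      field_simp
    have e7 : ‖⟪y N - y m0, y N⟫_ℂ‖ ≤ δ / 3 := by
      refine (norm_inner_le_norm _ _).trans ?_
      have h1 : ‖y N - y m0‖ * ‖y N‖ ≤ (δ / (3 * (Ba + 1))) * (Ba + 1) := by
        gcongr
        exact (hBa' N).trans (by linarith)
      refine h1.trans (le_of_eq ?_)
      field_simp
    rw [e5]
    calc ‖(⟪T0 (y m0), v N⟫_ℂ - ⟪y m0, y N⟫_ℂ) + ⟪T0 (y N) - T0 (y m0), v N⟫_ℂ
          - ⟪y N - y m0, y N⟫_ℂ‖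
        ≤ ‖⟪T0 (y m0), v N⟫_ℂ - ⟪y m0, y N⟫_ℂ‖ + ‖⟪T0 (y N) - T0 (y m0), v N⟫_ℂ‖
          + ‖⟪y N - y m0, y N⟫_ℂ‖ := (norm_sub_le _ _).trans (by gcongr; exact norm_add_le _ _)
      _ < δ := by linarith
  have hgvl : Tendsto (fun N => ⟪g, v N⟫_ℂ) atTop (𝓝 (m : ℂ)) := by
    have h1 : ∀ N, ⟪g, v N⟫_ℂ = ((ε * ‖v N‖ ^ 2 + ‖y N‖ ^ 2 : ℝ) : ℂ)
        + (⟪T0 (y N), v N⟫_ℂ - ⟪y N, y N⟫_ℂ) := by
      intro N
      have h2 : ⟪g, v N⟫_ℂ = ⟪(ε : ℂ) • v N + T0 (y N), v N⟫_ℂ := by rw [← hgv N]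
      rw [h2, inner_add_left, inner_smul_left, Complex.conj_ofReal,
        inner_self_eq_norm_sq_to_K (𝕜 := ℂ) (v N), inner_self_eq_norm_sq_to_K (𝕜 := ℂ) (y N)]
      have e1 : ((‖v N‖ : ℝ) : ℂ) = (RCLike.ofReal ‖v N‖ : ℂ) := rfl
      have e2 : ((‖y N‖ : ℝ) : ℂ) = (RCLike.ofReal ‖y N‖ : ℂ) := rfl
      push_cast
      rw [e1, e2]
      ring
    have h2 : Tendsto (fun N => ((ε * ‖v N‖ ^ 2 + ‖y N‖ ^ 2 : ℝ) : ℂ)) atTop
        (𝓝 ((ε * b ^ 2 + a ^ 2 : ℝ) : ℂ)) :=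
      (Complex.continuous_ofReal.tendsto _).comp
        (((hb1.pow 2).const_mul ε).add (ha'.pow 2))
    have h3 := h2.add hdiag
    rw [add_zero] at h3
    have h4 : ((ε * b ^ 2 + a ^ 2 : ℝ) : ℂ) = (m : ℂ) := by rw [hm, add_comm]
    rw [h4] at h3
    exact h3.congr fun N => (h1 N).symm
  have hgc : Tendsto (fun N => ‖⟪g, J1 N (v N)⟫_ℂ‖ ^ 2) atTop (𝓝 (m ^ 2)) := by
    have h1 : Tendsto (fun N => ⟪g, J1 N (v N) - v N⟫_ℂ + ⟪g, v N⟫_ℂ) atTop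
        (𝓝 (⟪g, (0 : S1)⟫_ℂ + (m : ℂ))) := (tendsto_const_nhds.inner hcv).add hgvl
    rw [inner_zero_right, zero_add] at h1
    have h2 : Tendsto (fun N => ⟪g, J1 N (v N)⟫_ℂ) atTop (𝓝 (m : ℂ)) := by
      refine h1.congr fun N => ?_
      rw [← inner_add_right, sub_add_cancel]
    have h3 := h2.norm.pow 2
    rwa [Complex.norm_real, Real.norm_of_nonneg hm0] at h3
  have hn1 : Tendsto (fun N => ‖J1 N (v N)‖) atTop (𝓝 b) := by
    have h1 : Tendsto (fun N => ‖J1 N (v N)‖ - ‖v N‖) atTop (𝓝 0) :=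
      squeeze_zero_norm (fun N => by
        rw [Real.norm_eq_abs]; exact abs_norm_sub_norm_le _ _)
        (tendsto_zero_iff_norm_tendsto_zero.1 hcv)
    have h2 := h1.add hb1
    rw [zero_add] at h2
    exact h2.congr fun N => by ring
  have hn2 : Tendsto (fun N => ‖T0s (J1 N (v N))‖) atTop (𝓝 a) := by
    have h1 : Tendsto (fun N => ‖T0s (J1 N (v N))‖ - ‖y N‖) atTop (𝓝 0) :=
      squeeze_zero_norm (fun N => by
        rw [Real.norm_eq_abs]; exact abs_norm_sub_norm_le _ _)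
        (tendsto_zero_iff_norm_tendsto_zero.1 hTs)
    have h2 := h1.add ha'
    rw [zero_add] at h2
    exact h2.congr fun N => by ring
  have hn3 : Tendsto (fun N => ‖T1 (J1 N (v N))‖) atTop (𝓝 0) :=
    tendsto_zero_iff_norm_tendsto_zero.1 hT1
  have hR : Tendsto (fun N => D * (‖T0s (J1 N (v N))‖ ^ 2 + ‖T1 (J1 N (v N))‖ ^ 2
      + ε * ‖J1 N (v N)‖ ^ 2)) atTop (𝓝 (D * m)) := by
    have h1 := (((hn2.pow 2).add (hn3.pow 2)).add ((hn1.pow 2).const_mul ε)).const_mul D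
    have h2 : D * (a ^ 2 + (0 : ℝ) ^ 2 + ε * b ^ 2) = D * m := by rw [hm]; ring
    rwa [h2] at h1
  have hmD : m ≤ D := by
    have h1 : m ^ 2 ≤ D * m := le_of_tendsto_of_tendsto' hgc hR fun N => hG _
    by_contra hc
    push Not at hc
    nlinarith
  -- conclusion
  have hF : Tendsto (fun N => ‖y N‖ ^ 2 + ε⁻¹ * ‖g - T0 (y N)‖ ^ 2) atTop (𝓝 m) := by
    have h1 := (ha'.pow 2).add ((hb1.pow 2).const_mul ε)
    refine h1.congr fun N => ?_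
    have h2 : g - T0 (y N) = (ε : ℂ) • v N := by
      rw [sub_eq_iff_eq_add]; exact hgv N
    have h3 : ‖(ε : ℂ) • v N‖ = ε * ‖v N‖ := by
      rw [norm_smul, Complex.norm_real, Real.norm_of_nonneg hε.le]
    rw [h2, h3]
    field_simp
  obtain ⟨N, hN⟩ := (hF.eventually (eventually_lt_nhds (show m < D + τ by linarith))).exists
  exact ⟨y N, hN.le⟩

/-- **regularised least squares**, one space, inner product given by `InnerProductSpace.Core` -/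
theorem ls_core {S : Type*} [AddCommGroup S] [Module ℂ S] (c : InnerProductSpace.Core ℂ S)
    (T Ts : S →ₗ[ℂ] S) (hadj : ∀ u w, c.inner (T u) w = c.inner u (Ts w))
    (hTT : ∀ u, T (T u) = 0) (J : ℕ → S →ₗ[ℂ] S) (C : ℝ)
    (F1b : ∀ N u, nrm c (J N u) ≤ C * nrm c u)
    (F1 : ∀ u, Tendsto (fun N => nrm c (J N u - u)) atTop (𝓝 0))
    (F2b : ∀ N u, nrm c (T (J N u) - J N (T u)) ≤ C * nrm c u)
    (F2 : ∀ u, Tendsto (fun N => nrm c (T (J N u) - J N (T u))) atTop (𝓝 0))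
    (F2sb : ∀ N u, nrm c (Ts (J N u) - J N (Ts u)) ≤ C * nrm c u)
    (F2s : ∀ u, Tendsto (fun N => nrm c (Ts (J N u) - J N (Ts u))) atTop (𝓝 0))
    (F3 : ∀ N, ∃ (m : ℕ) (s e : Fin m → S), ∀ v, J N v = ∑ k, c.inner (s k) v • e k)
    (g : S) (hg : T g = 0) {ε D : ℝ} (hε : 0 < ε) (hD : 0 ≤ D)
    (hG : ∀ w : S, ‖c.inner g w‖ ^ 2 ≤ D * (nrm c (Ts w) ^ 2 + nrm c (T w) ^ 2
      + ε * nrm c w ^ 2))
    {τ : ℝ} (hτ : 0 < τ) : ∃ y : S, nrm c y ^ 2 + ε⁻¹ * nrm c (g - T y) ^ 2 ≤ D + τ := by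
  letI : NormedAddCommGroup S := c.toNormedAddCommGroup
  letI : InnerProductSpace ℂ S := .ofCore c.toCore
  have n0 : ∀ u : S, nrm c u = ‖u‖ := fun u => rfl
  simp only [n0] at *
  exact ls_abs T T Ts hadj hTT J J J C F1b
    (fun u => tendsto_iff_norm_sub_tendsto_zero.2 (F1 u)) F1b
    (fun u => tendsto_iff_norm_sub_tendsto_zero.2 (F1 u)) F2b
    (fun u => tendsto_zero_iff_norm_tendsto_zero.2 (F2 u)) F2sb
    (fun u => tendsto_zero_iff_norm_tendsto_zero.2 (F2s u)) F3 g hg hε hD hG hτ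

end Crest.Agent.R281.HoC_578
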