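import Crest.Agent.R281.HoC1_578
import Crest.Agent.R273.D13_505

/-!
# R281, L2-CPT (helper578), part 2: approximate solution of `∇ y = g` with an `L²` bound

Language of R273.  `K : Kah A`, `h : HM ((KB A)⁻¹ * N)`, `(HB K h).sn P` the `L²` norm of
`Sec (BN N)`.

* `ls_geo` : regularised least squares for `nabL B` and an `HDen`;
* `pq_self_adj`, `sn_pq_le` : degrees are orthogonal;
* `bkn_T_le` : `⟨T v, v⟩ ≤ ‖∇ (low v)‖² + ‖∇* (low v)‖²`;
* `solve_eps` : `g` closed of degree one with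
  `‖⟪g, low v⟫‖² ≤ D (⟨T v, v⟩ + ε ‖v‖²)` for `v` of degree one ⟹ for `τ > 0` there is `y` of degree
  zero with `‖y‖² + ε⁻¹ ‖g - ∇ y‖² ≤ D + τ`.
-/

set_option autoImplicit false
set_option linter.unusedSectionVars false

open Set Filter Topology Complex
open scoped ContDiff Matrix ComplexConjugate Kronecker ComplexOrder

namespace Crest.Agent.R281.HoC_578

open Crest.Agent.R275 Crest.Agent.R275.Geo Crest.Agent.R275.Core144
open Crest.Agent.R273.Defs_333 Crest.Agent.R273.HM_333 Crest.Agent.R273.Kah_333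
open Crest.Agent.R273.Fock_243 Crest.Agent.R273.Calc_243 Crest.Agent.R273.Bkn_243
open Crest.Agent.R273.LamN127 Crest.Agent.R273.NV_578
open Crest.Agent.R273.NormC_505 Crest.Agent.R273.DnInt_505 Crest.Agent.R273.L2K_774
open Crest.Agent.R273.DVec_733 Crest.Agent.R273.DMet_733 Crest.Agent.R273.DMetB_733
open Crest.Agent.R273.StV_37 Crest.Agent.R273.BKNa_37 Crest.Agent.R273.BKNb_37
open Crest.Agent.R273.BKNc_37 Crest.Agent.R273.BKNd_37 Crest.Agent.R273.BKNe_37
open Crest.Agent.R273.Mol_106 Crest.Agent.R273.Lim_505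
open Crest.Agent.R273.HDN_505 (HB HB_pos)

noncomputable section

variable {n : ℕ} {M : Type} [TopologicalSpace M] {A : Atl n M}

section geo

variable [T2Space M] [CompactSpace M] [Finite A.ι] {B : FBun A} (P : Part A)

/-- **regularised least squares** for the inner product of an `HDen` -/
theorem ls_geo (h : HDen B) (hp : h.Pos) (ds : FOp B B)
    (hadj : ∀ u w : Sec B, h.ip P (nabL B u).1 w.1 = h.ip P u.1 (ds.T w).1)
    (hdd : ∀ u : Sec B, nabL B (nabL B u) = 0)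
    (g : Sec B) (hg : nabL B g = 0) {ε D : ℝ} (hε : 0 < ε) (hD : 0 ≤ D)
    (hG : ∀ w : Sec B, ‖h.ip P g.1 w.1‖ ^ 2 ≤ D * (h.sn P (ds.T w) ^ 2
      + h.sn P (nabL B w) ^ 2 + ε * h.sn P w ^ 2))
    {τ : ℝ} (hτ : 0 < τ) :
    ∃ y : Sec B, h.sn P y ^ 2 + ε⁻¹ * h.sn P (g - nabL B y) ^ 2 ≤ D + τ := by
  obtain ⟨C1, h10, h1⟩ := sn_JN_le P h hp
  obtain ⟨C2, h20, h2⟩ := (FOp.nab B).sn_comm_le P h hp h
  obtain ⟨C3, h30, h3⟩ := ds.sn_comm_le P h hp h
  have hmax : ∀ {C a b : ℝ}, a ≤ C * b → 0 ≤ b → C ≤ max C1 (max C2 C3) →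
      a ≤ max C1 (max C2 C3) * b := fun hab hb hC => hab.trans (mul_le_mul_of_nonneg_right hC hb)
  exact ls_core (h.core P hp) (nabL B) ds.T hadj hdd (JN P B)
    (max C1 (max C2 C3))
    (fun N u => hmax (h1 N u) (h.sn_nonneg P u) (le_max_left _ _))
    (fun u => tendsto_sn_JN P h u)
    (fun N u => hmax (h2 N u) (h.sn_nonneg P u) ((le_max_left _ _).trans (le_max_right _ _)))
    (fun u => (FOp.nab B).tendsto_sn_comm P h u)
    (fun N u => hmax (h3 N u) (h.sn_nonneg P u) ((le_max_right _ _).trans (le_max_right _ _)))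
    (fun u => ds.tendsto_sn_comm P h u)
    (fun N => JN_finite P h hp N) g hg hε hD hG hτ

end geo

section kah

variable [T2Space M] [CompactSpace M] [Finite A.ι] {N : LB A} (P : Part A) (K : Kah A)
  (h : HM ((KB A)⁻¹ * N))

/-- `⟨T v, v⟩ ≤ ‖∇ (low v)‖² + ‖∇* (low v)‖²` -/
theorem bkn_T_le (v : MV N) :
    (totc P (inT K h v.1 v.1)).re ≤ (HB K h).sn P (nabL (BN N) (low K N v)) ^ 2
      + (HB K h).sn P (dsL K h (low K N v)) ^ 2 := by
  have hU : (HB K h).sn P (nabL (BN N) (low K N v)) ^ 2 = (totc P (inU K h v.1 v.1)).re := by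
    rw [HDen.sn_sq, ← IntP_eq_totc]
    congr 1
    exact IntP_congr P fun i x hx => HB_hd_nab K h v v hx
  have hG : (HB K h).sn P (dsL K h (low K N v)) ^ 2 =
      (Pai323.pr (DN N) P (low K N (dlt h v)) (cj h (dlt h v))).re := by
    have h1 : (dsL K h (low K N v)).1 = (-1 : ℂ) • (low K N (dlt h v)).1 := by
      rw [dsL_low, Submodule.coe_neg, neg_one_smul]
    rw [HDen.sn_sq, h1, HDen.ip_smul_left, HDen.ip_smul_right, HB_ip]
    simp
  have key := bkn_MV P K h v v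
  have hD : 0 ≤ (totc P (inD K h v.1 v.1)).re :=
    (Complex.le_def.1 (totc_nonneg P (inD_isD h (isV v) (isV v))
      fun i x hx => inD_nonneg K h _ i hx)).1
  have k1 := congrArg Complex.re key
  rw [Complex.add_re, Complex.add_re, ← hU, ← hG] at k1
  linarith

theorem pqL_zero_of_lt {q : ℕ} (hq : n < q) (u : Sec (BN N)) : Geo.pqL (BN N) q u = 0 := by
  have h1 := pqL_sum (B := BN N) (Crest.Agent.R273.DHod_733.topDeg_BN N) (Geo.pqL (BN N) q u)
  rw [← h1]
  refine Finset.sum_eq_zero fun r hr => ?_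
  have hr' : r ≤ n := Nat.lt_succ_iff.1 (Finset.mem_range.1 hr)
  have h2 := congrArg (fun f => f u) (pqL_orth (B := BN N) (q := r) (r := q) (by omega))
  exact h2

/-- the projections to the degrees are self adjoint -/
theorem pq_self_adj (q : ℕ) (u w : Sec (BN N)) :
    (HB K h).ip P (Geo.pqL (BN N) q u).1 w.1 = (HB K h).ip P u.1 (Geo.pqL (BN N) q w).1 := by
  by_cases hq : q ≤ n
  · obtain ⟨v, rfl⟩ := (low K N).surjective u
    rw [← low_pq, HB_ip', HB_ip', cj_pq h hq, Crest.Agent.R273.DHod_733.pr_pq P N hq]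
  · push Not at hq
    rw [pqL_zero_of_lt hq, pqL_zero_of_lt hq]
    have h1 : ((0 : Sec (BN N))).1 = (0 : ℂ) • ((0 : Sec (BN N))).1 := by
      rw [zero_smul]; rfl
    have e1 : (HB K h).ip P (0 : Sec (BN N)).1 w.1 = 0 := by
      rw [h1, HDen.ip_smul_left, map_zero, zero_mul]
    have e2 : (HB K h).ip P u.1 (0 : Sec (BN N)).1 = 0 := by
      rw [h1, HDen.ip_smul_right, zero_mul]
    rw [e1, e2]

theorem pq_pq (q : ℕ) (u : Sec (BN N)) :
    Geo.pqL (BN N) q (Geo.pqL (BN N) q u) = Geo.pqL (BN N) q u :=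
  LinearMap.congr_fun (pqL_idem (B := BN N) q) u

theorem sn_pq_le (q : ℕ) (u : Sec (BN N)) :
    (HB K h).sn P (Geo.pqL (BN N) q u) ≤ (HB K h).sn P u := by
  set a := (HB K h).sn P (Geo.pqL (BN N) q u) with ha
  have a0 : 0 ≤ a := (HB K h).sn_nonneg P _
  have h1 : a ^ 2 ≤ (HB K h).sn P u * a := by
    rw [ha, HDen.sn_sq, pq_self_adj, pq_pq]
    exact (Complex.re_le_norm _).trans ((HB K h).norm_ip_le P _ _)
  rcases a0.eq_or_lt with h2 | h2
  · rw [← h2]; exact (HB K h).sn_nonneg P u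
  · nlinarith

/-- **approximate solution with `L²` bound** -/
theorem solve_eps {g : Sec (BN N)} (hg : nabL (BN N) g = 0) (hg1 : Geo.pqL (BN N) 1 g = g)
    {ε D : ℝ} (hε : 0 < ε) (hD : 0 ≤ D)
    (hG : ∀ v : MV N, pqM N 1 v = v → ‖(HB K h).ip P g.1 (low K N v).1‖ ^ 2 ≤
      D * ((totc P (inT K h v.1 v.1)).re + ε * (HB K h).sn P (low K N v) ^ 2))
    {τ : ℝ} (hτ : 0 < τ) :
    ∃ y : Sec (BN N), Geo.pqL (BN N) 0 y = y ∧
      (HB K h).sn P y ^ 2 + ε⁻¹ * (HB K h).sn P (g - nabL (BN N) y) ^ 2 ≤ D + τ := by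
  have key : ∀ w : Sec (BN N), ‖(HB K h).ip P g.1 w.1‖ ^ 2 ≤
      D * ((HB K h).sn P ((dsF K h).T w) ^ 2 + (HB K h).sn P (nabL (BN N) w) ^ 2
        + ε * (HB K h).sn P w ^ 2) := by
    intro w
    obtain ⟨v, rfl⟩ := (low K N).surjective w
    set v1 : MV N := pqM N 1 v with hv1
    have e1 : pqM N 1 v1 = v1 := by
      apply Subtype.ext
      funext i x T
      rw [hv1, pqM_apply, pqM_apply]
      split_ifs <;> rfl
    have e2 : low K N v1 = Geo.pqL (BN N) 1 (low K N v) := low_pq K _ 1 v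
    have h1 := hG v1 e1
    have h2 := bkn_T_le P K h v1
    have e3 : (HB K h).ip P g.1 (low K N v1).1 = (HB K h).ip P g.1 (low K N v).1 := by
      rw [e2, ← pq_self_adj, hg1]
    have s1 : (HB K h).sn P (low K N v1) ≤ (HB K h).sn P (low K N v) := by
      rw [e2]; exact sn_pq_le P K h 1 _
    have s2 : (HB K h).sn P (nabL (BN N) (low K N v1)) ≤
        (HB K h).sn P (nabL (BN N) (low K N v)) := by
      have e4 : nabL (BN N) (low K N v1) = Geo.pqL (BN N) 2 (nabL (BN N) (low K N v)) := by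
        rw [e2]
        exact LinearMap.congr_fun (nabL_pqL (B := BN N) 1) (low K N v)
      rw [e4]; exact sn_pq_le P K h 2 _
    have s3 : (HB K h).sn P (dsL K h (low K N v1)) ≤ (HB K h).sn P (dsL K h (low K N v)) := by
      -- `dsL (pq 1 u)` is the projection of `dsL u` to degree zero
      set a := (HB K h).sn P (dsL K h (low K N v1)) with ha
      have a0 : 0 ≤ a := (HB K h).sn_nonneg P _
      have e5 : a ^ 2 ≤ a * (HB K h).sn P (dsL K h (low K N v)) := by
        -- `⟪ds w1, ds w1⟫ = ⟪∇ ds w1, w1⟫ = ⟪pq 1 ∇ ds w1, w⟫`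
        have e6 : (HB K h).ip P (dsL K h (low K N v1)).1 (dsL K h (low K N v1)).1 =
            (HB K h).ip P (Geo.pqL (BN N) 0 (dsL K h (low K N v1))).1
              (dsL K h (low K N v)).1 := by
          rw [← hadj, ← hadj, e2]
          have e7 : Geo.pqL (BN N) 1 (nabL (BN N) (dsL K h (Geo.pqL (BN N) 1 (low K N v)))) =
              nabL (BN N) (Geo.pqL (BN N) 0 (dsL K h (Geo.pqL (BN N) 1 (low K N v)))) :=
            (LinearMap.congr_fun (nabL_pqL (B := BN N) 0) _).symm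
          rw [← e7, pq_self_adj]
        rw [ha, HDen.sn_sq, e6]
        refine (Complex.re_le_norm _).trans (((HB K h).norm_ip_le P _ _).trans ?_)
        exact mul_le_mul_of_nonneg_right (sn_pq_le P K h 0 _) ((HB K h).sn_nonneg P _)
      rcases a0.eq_or_lt with h3 | h3
      · rw [← h3]; exact (HB K h).sn_nonneg P _
      · nlinarith
    rw [← e3]
    refine h1.trans (mul_le_mul_of_nonneg_left ?_ hD)
    have t1 : (HB K h).sn P (low K N v1) ^ 2 ≤ (HB K h).sn P (low K N v) ^ 2 :=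
      pow_le_pow_left₀ ((HB K h).sn_nonneg P _) s1 2
    have t2 := pow_le_pow_left₀ ((HB K h).sn_nonneg P _) s2 2
    have t3 := pow_le_pow_left₀ ((HB K h).sn_nonneg P _) s3 2
    have t4 : (HB K h).sn P ((dsF K h).T (low K N v)) = (HB K h).sn P (dsL K h (low K N v)) := rfl
    rw [t4]
    nlinarith [mul_le_mul_of_nonneg_left t1 hε.le]
  obtain ⟨y, hy⟩ := ls_geo P (HB K h) (HB_pos K h) (dsF K h) (hadj P K h) (nab_nab_BN N) g hg
    hε hD key hτ
  refine ⟨Geo.pqL (BN N) 0 y, pq_pq 0 y, ?_⟩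
  have e1 : g - nabL (BN N) (Geo.pqL (BN N) 0 y) = Geo.pqL (BN N) 1 (g - nabL (BN N) y) := by
    rw [map_sub, hg1]
    congr 1
    exact LinearMap.congr_fun (nabL_pqL (B := BN N) 0) y
  rw [e1]
  refine le_trans ?_ hy
  have t1 := pow_le_pow_left₀ ((HB K h).sn_nonneg P _) (sn_pq_le P K h 0 y) 2
  have t2 := pow_le_pow_left₀ ((HB K h).sn_nonneg P _) (sn_pq_le P K h 1 (g - nabL (BN N) y)) 2
  have t3 : 0 ≤ ε⁻¹ := (inv_pos.2 hε).le
  nlinarith [mul_le_mul_of_nonneg_left t2 t3]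

end kah

end

end Crest.Agent.R281.HoC_578
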