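import Crest.Agent.R281.HoC2_578
import Crest.Agent.R273.T8A_774

/-!
# R281, L2-CPT (helper578), part 3: Hoermander–Demailly on a compact Kähler manifold

* `sn_mono` : comparison of the `L²` norms of two metrics;
* `bdd_subseq` : bounded sequences in finite dimensional subspaces;
* `hormander_seq` : metrics `hh ν` bounded below by `c href`, `ε ν → 0`, `g` closed of degree one
  and `‖⟪g, low v⟫_ν‖² ≤ D (⟨T_ν v, v⟩_ν + ε ν ‖v‖_ν²)` for all `v` of degree one.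
  Then there is a smooth `y` of degree zero with `∇ y = g` and `‖y‖_b² ≤ D` for every smooth metric
  `b` with `b ≤ hh ν` eventually.
-/

set_option autoImplicit false
set_option linter.unusedSectionVars false
set_option linter.style.haveILetI false

open Set Filter Topology Complex
open scoped ContDiff Matrix ComplexConjugate Kronecker ComplexOrder

namespace Crest.Agent.R281.HoC_578

open Crest.Agent.R275 Crest.Agent.R275.Geo Crest.Agent.R275.Core144
open Crest.Agent.R273.Defs_333 Crest.Agent.R273.HM_333 Crest.Agent.R273.Kah_333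
open Crest.Agent.R273.Fock_243 Crest.Agent.R273.Calc_243 Crest.Agent.R273.Bkn_243
open Crest.Agent.R273.LamN127 Crest.Agent.R273.NV_578
open Crest.Agent.R273.NormC_505 Crest.Agent.R273.DnInt_505 Crest.Agent.R273.L2K_774
open Crest.Agent.R273.DVec_733 Crest.Agent.R273.DMet_733 Crest.Agent.R273.DMetB_733
open Crest.Agent.R273.StV_37 Crest.Agent.R273.BKNa_37 Crest.Agent.R273.BKNb_37
open Crest.Agent.R273.BKNc_37 Crest.Agent.R273.BKNd_37 Crest.Agent.R273.BKNe_37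
open Crest.Agent.R273.Mol_106 Crest.Agent.R273.Lim_505 Crest.Agent.R273.Pos_243
open Crest.Agent.R273.HDN_505 (HB HB_pos Ku Ku_posDef Gam_smAt)
open Crest.Agent.R273.AbsStep392 (nrm)
open Crest.Agent.R273.KRL2_803 Crest.Agent.R273.HodgeH_803

noncomputable section

/-! ### finite dimensional compactness -/

theorem bdd_subseq {S : Type*} [AddCommGroup S] [Module ℂ S] (c : InnerProductSpace.Core ℂ S)
    (W : Submodule ℂ S) [FiniteDimensional ℂ W] (u : ℕ → S) (hu : ∀ m, u m ∈ W) (C : ℝ)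
    (hC : ∀ m, nrm c (u m) ≤ C) :
    ∃ w ∈ W, ∃ φ : ℕ → ℕ, StrictMono φ ∧ Tendsto (fun m => nrm c (u (φ m) - w)) atTop (𝓝 0) := by
  letI : NormedAddCommGroup S := c.toNormedAddCommGroup
  letI : InnerProductSpace ℂ S := .ofCore c.toCore
  have n0 : ∀ u : S, nrm c u = ‖u‖ := fun u => rfl
  simp only [n0] at *
  haveI : ProperSpace W := FiniteDimensional.proper ℂ W
  obtain ⟨w, -, φ, hφ, hlim⟩ := tendsto_subseq_of_bounded
    (Metric.isBounded_closedBall (x := (0 : W)) (r := C))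
    (x := fun m => (⟨u m, hu m⟩ : W)) (fun m => by
      rw [mem_closedBall_zero_iff]
      exact hC m)
  refine ⟨w.1, w.2, φ, hφ, ?_⟩
  have h1 := tendsto_iff_norm_sub_tendsto_zero.1 hlim
  exact h1

variable {n : ℕ} {M : Type} [TopologicalSpace M] {A : Atl n M}

section mono

variable [T2Space M] [Finite A.ι] {N : LB A} (P : Part A) (K : Kah A)

theorem HB_hd_re (h : HM ((KB A)⁻¹ * N)) (u : Sec (BN N)) {i : A.ι} {x : M}
    (hx : x ∈ (A.e i).source) : ∃ q : ℝ, 0 ≤ q ∧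
      ((HB K h).hd u.1 u.1 i x).re = h.w i x * q ∧
      ∀ h' : HM ((KB A)⁻¹ * N), ((HB K h').hd u.1 u.1 i x).re = h'.w i x * q := by
  set G : Matrix (BN N).κ (BN N).κ ℂ :=
    Matrix.kroneckerMap (· * ·) (Gam (Ku K i x)) (1 : Matrix Unit Unit ℂ) with hG
  have hps : G.PosSemidef :=
    Crest.Agent.R273.HDN_505.kron_psd
      (Gam_posSemidef (Ku_posDef K hx).posSemidef) Matrix.PosSemidef.one
  have key : ∀ h' : HM ((KB A)⁻¹ * N), ((HB K h').hd u.1 u.1 i x).re =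
      h'.w i x * (star (u.1 i x) ⬝ᵥ (G *ᵥ u.1 i x)).re := by
    intro h'
    have h1 : (HB K h').hd u.1 u.1 i x =
        star (u.1 i x) ⬝ᵥ (((h'.w i x : ℂ) • G) *ᵥ u.1 i x) := rfl
    rw [h1, Matrix.smul_mulVec, dotProduct_smul, smul_eq_mul, Complex.re_ofReal_mul]
  exact ⟨(star (u.1 i x) ⬝ᵥ (G *ᵥ u.1 i x)).re,
    (Complex.le_def.1 (hps.dotProduct_mulVec_nonneg _)).1, key h, key⟩

/-- comparison of the norms of two metrics -/
theorem sn_mono {h h' : HM ((KB A)⁻¹ * N)} {c : ℝ}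
    (hle : ∀ i, ∀ x ∈ (A.e i).source, c * h.w i x ≤ h'.w i x) (u : Sec (BN N)) :
    c * (HB K h).sn P u ^ 2 ≤ (HB K h').sn P u ^ 2 := by
  rw [HDen.sn_sq, HDen.sn_sq]
  have h1 : c * ((HB K h).ip P u.1 u.1).re =
      (IntP P (fun i x => (c : ℂ) * (HB K h).hd u.1 u.1 i x)).re := by
    rw [IntP_const_mul, Complex.re_ofReal_mul]
    rfl
  rw [h1]
  refine IntP_re_mono P (((HB K h).isDn u.2 u.2).const_mul _) ((HB K h').isDn u.2 u.2) ?_
  intro i x hx
  obtain ⟨q, hq0, hq, hq'⟩ := HB_hd_re K h u hx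
  rw [Complex.re_ofReal_mul, hq, hq' h', ← mul_assoc]
  exact mul_le_mul_of_nonneg_right (hle i x hx) hq0

end mono

section main

variable [T2Space M] [CompactSpace M] [Finite A.ι] {N : LB A} (P : Part A) (K : Kah A)

/-- **Hoermander–Demailly**, sequence version -/
theorem hormander_seq (href : HM ((KB A)⁻¹ * N)) (hh : ℕ → HM ((KB A)⁻¹ * N)) {c : ℝ} (hc : 0 < c)
    (hlow : ∀ ν i, ∀ x ∈ (A.e i).source, c * href.w i x ≤ (hh ν).w i x)
    {ε : ℕ → ℝ} (hε : ∀ ν, 0 < ε ν) (hε0 : Tendsto ε atTop (𝓝 0)) {D : ℝ} (hD : 0 ≤ D)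
    {g : Sec (BN N)} (hg : nabL (BN N) g = 0) (hg1 : Geo.pqL (BN N) 1 g = g)
    (hG : ∀ ν, ∀ v : MV N, pqM N 1 v = v →
      ‖(HB K (hh ν)).ip P g.1 (low K N v).1‖ ^ 2 ≤
        D * ((totc P (inT K (hh ν) v.1 v.1)).re + ε ν * (HB K (hh ν)).sn P (low K N v) ^ 2)) :
    ∃ y : Sec (BN N), Geo.pqL (BN N) 0 y = y ∧ nabL (BN N) y = g ∧
      ∀ b : HM ((KB A)⁻¹ * N),
        (∀ᶠ ν in atTop, ∀ i, ∀ x ∈ (A.e i).source, b.w i x ≤ (hh ν).w i x) →
        (HB K b).sn P y ^ 2 ≤ D := by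
  -- approximate solutions
  have hτ : ∀ ν : ℕ, (0 : ℝ) < 1 / ((ν : ℝ) + 1) := fun ν => by positivity
  choose y hy0 hy using fun ν => solve_eps P K (hh ν) hg hg1 (hε ν) hD (hG ν) (hτ ν)
  have hy1 : ∀ ν, (HB K (hh ν)).sn P (y ν) ^ 2 ≤ D + 1 / ((ν : ℝ) + 1) := fun ν =>
    le_trans (le_add_of_nonneg_right (mul_nonneg (inv_pos.2 (hε ν)).le (sq_nonneg _))) (hy ν)
  have hone : ∀ ν : ℕ, 1 / ((ν : ℝ) + 1) ≤ 1 := fun ν => by
    rw [div_le_one (by positivity)]; linarith [(Nat.cast_nonneg ν : (0 : ℝ) ≤ ν)]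
  have hy2 : ∀ ν, (HB K (hh ν)).sn P (g - nabL (BN N) (y ν)) ^ 2 ≤ ε ν * (D + 1) := by
    intro ν
    have h1 : (ε ν)⁻¹ * (HB K (hh ν)).sn P (g - nabL (BN N) (y ν)) ^ 2 ≤ D + 1 := by
      have := hy ν
      have h2 := sq_nonneg ((HB K (hh ν)).sn P (y ν))
      linarith [hone ν]
    have h3 := mul_le_mul_of_nonneg_left h1 (hε ν).le
    rwa [← mul_assoc, mul_inv_cancel₀ (hε ν).ne', one_mul] at h3
  set r : ℕ → Sec (BN N) := fun ν => g - nabL (BN N) (y ν) with hr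
  have hrcl : ∀ ν, nabL (BN N) (r ν) = 0 := fun ν => by
    rw [hr, map_sub, hg, nab_nab_BN N, sub_zero]
  have hr1 : ∀ ν, Geo.pqL (BN N) 1 (r ν) = r ν := fun ν => by
    have h1 : Geo.pqL (BN N) 1 (nabL (BN N) (y ν)) = nabL (BN N) (y ν) := by
      have h2 := LinearMap.congr_fun (nabL_pqL (B := BN N) 0) (y ν)
      simp only [LinearMap.comp_apply] at h2
      rw [hy0 ν] at h2
      exact h2.symm
    rw [hr]
    simp only
    rw [map_sub, hg1, h1]
  -- reference norms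
  obtain ⟨Ca, hCa0, hCa⟩ := (HB K href).nS_le_sn P (HB_pos K href)
  obtain ⟨Cb, hCb0, hCb⟩ := (HB K href).sn_le_nS P
  have hyref : ∀ ν, (HB K href).sn P (y ν) ≤ Real.sqrt ((D + 1) / c) := by
    intro ν
    have h1 := sn_mono P K (hlow ν) (y ν)
    refine Real.le_sqrt_of_sq_le ?_
    rw [le_div_iff₀ hc, mul_comm]
    exact h1.trans ((hy1 ν).trans (by linarith [hone ν]))
  have hrref : Tendsto (fun ν => (HB K href).sn P (r ν)) atTop (𝓝 0) := by
    have h1 : Tendsto (fun ν => Real.sqrt (ε ν * (D + 1) / c)) atTop (𝓝 (Real.sqrt (0 * (D + 1) / c))) :=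
      ((hε0.mul_const (D + 1)).div_const c).sqrt
    rw [zero_mul, zero_div, Real.sqrt_zero] at h1
    refine squeeze_zero (fun ν => (HB K href).sn_nonneg P _) (fun ν => ?_) h1
    have h2 := sn_mono P K (hlow ν) (r ν)
    refine Real.le_sqrt_of_sq_le ?_
    rw [le_div_iff₀ hc, mul_comm]
    exact h2.trans (hy2 ν)
  have hrS : Tendsto (fun ν => (S0 P (BN N)).nrm 0 (r ν)) atTop (𝓝 0) := by
    have h1 := hrref.const_mul Ca
    rw [mul_zero] at h1
    exact squeeze_zero (fun ν => apply_nonneg _ _)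
      (fun ν => (Crest.Agent.R273.T8_774.nrm0_le_nS P 0 _).trans (hCa _)) h1
  -- the homotopy
  obtain ⟨T⟩ := exists_hodgeOp P (BN N) (nab_nab_BN N)
  have hHg : T.H g = 0 := by
    have h1 : ∀ ν, T.H g = T.H (r ν) := fun ν => by
      rw [hr]
      simp only
      rw [map_sub, T.Hnab, sub_zero]
    have h2 := HodgeOp.tendsto_map hrS T.H (T.H_le 0)
    have h3 : Tendsto (fun _ : ℕ => (S0 P (BN N)).nrm 0 (T.H g)) atTop (𝓝 0) :=
      h2.congr fun ν => by rw [← h1 ν]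
    exact (S0 P (BN N)).eq_zero _ (tendsto_nhds_unique tendsto_const_nhds h3)
  have hKr : ∀ ν, nabL (BN N) (T.K (r ν)) = r ν := fun ν => by
    refine T.eq_nab_K (hrcl ν) ?_
    rw [hr]
    simp only
    rw [map_sub, T.Hnab, sub_zero, hHg]
  have hK0 : ∀ ν, Geo.pqL (BN N) 0 (T.K (r ν)) = T.K (r ν) := fun ν => by
    have h1 := T.Kpq 0 (r ν)
    rw [zero_add, hr1 ν] at h1
    exact h1.symm
  obtain ⟨Cs, hCs0, hCs⟩ := Crest.Agent.R273.T8_774.nS_le_nrm0 P (B := BN N) 0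
  obtain ⟨Ck, hCk0, hCk⟩ := T.K_le 0
  have hKref : Tendsto (fun ν => nS P (BN N) 0 (T.K (r ν))) atTop (𝓝 0) := by
    have h1 := hrS.const_mul (Cs * Ck)
    rw [mul_zero] at h1
    refine squeeze_zero (fun ν => nS_nonneg _ _ _ _) (fun ν => ?_) h1
    refine (hCs _).trans ?_
    rw [mul_assoc]
    refine mul_le_mul_of_nonneg_left ?_ hCs0
    exact ((S0 P (BN N)).nrm_mono (Nat.zero_le _) _).trans (hCk _)
  have hKsn : Tendsto (fun ν => (HB K href).sn P (T.K (r ν))) atTop (𝓝 0) := by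
    have h1 := hKref.const_mul Cb
    rw [mul_zero] at h1
    exact squeeze_zero (fun ν => (HB K href).sn_nonneg P _) (fun ν => hCb _) h1
  -- exact solutions
  set z : ℕ → Sec (BN N) := fun ν => y ν + T.K (r ν) with hz
  have hz1 : ∀ ν, nabL (BN N) (z ν) = g := fun ν => by
    rw [hz]
    simp only
    rw [map_add, hKr ν, hr]
    simp only
    abel
  have hz0 : ∀ ν, Geo.pqL (BN N) 0 (z ν) = z ν := fun ν => by
    rw [hz]
    simp only
    rw [map_add, hy0 ν, hK0 ν]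
  let W : Submodule ℂ (Sec (BN N)) := LinearMap.range T.H ⊓
    (LinearMap.ker ((Geo.pqL (BN N) 0 - LinearMap.id : Sec (BN N) →ₗ[ℂ] Sec (BN N))) ⊓ LinearMap.ker (nabL (BN N)))
  haveI : FiniteDimensional ℂ (LinearMap.range T.H) := T.smH.1
  haveI : FiniteDimensional ℂ W := Submodule.finiteDimensional_inf_left _ _
  have hW : ∀ ν, z ν - z 0 ∈ W := by
    intro ν
    have h2 : nabL (BN N) (z ν - z 0) = 0 := by rw [map_sub, hz1, hz1, sub_self]
    refine ⟨⟨z ν - z 0, ?_⟩, ?_, h2⟩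
    swap
    · show (Geo.pqL (BN N) 0 - LinearMap.id : Sec (BN N) →ₗ[ℂ] Sec (BN N)) (z ν - z 0) = 0
      rw [LinearMap.sub_apply, LinearMap.id_apply, map_sub, hz0, hz0, sub_self]
    have h1 := T.htpy (z ν - z 0)
    have h3 : T.K (z ν - z 0) = 0 := by
      have h4 := T.Kpq0 (z ν - z 0)
      rwa [map_sub (Geo.pqL (BN N) 0), hz0, hz0] at h4
    rw [h2, h3, map_zero, map_zero, add_zero, sub_eq_zero] at h1
    exact h1.symm
  obtain ⟨Bk, hBk⟩ := hKsn.bddAbove_range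
  have hBk' : ∀ ν, (HB K href).sn P (T.K (r ν)) ≤ Bk := fun ν => hBk ⟨ν, rfl⟩
  obtain ⟨w, hwW, φ, hφ, hlim⟩ := bdd_subseq ((HB K href).core P (HB_pos K href)) W
    (fun ν => z ν - z 0) hW (Real.sqrt ((D + 1) / c) + Bk + (HB K href).sn P (z 0)) (fun ν => by
      show (HB K href).sn P (z ν - z 0) ≤ _
      refine ((HB K href).sn_sub_le P _ _).trans (add_le_add ?_ le_rfl)
      exact ((HB K href).sn_add_le P _ _).trans (add_le_add (hyref ν) (hBk' ν)))
  have hlim' : Tendsto (fun m => (HB K href).sn P (z (φ m) - z 0 - w)) atTop (𝓝 0) := hlim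
  -- the limit
  set y0 : Sec (BN N) := z 0 + w with hy00
  have hSlim : Tendsto (fun m => nS P (BN N) 0 (z (φ m) - y0)) atTop (𝓝 0) := by
    have h1 := hlim'.const_mul Ca
    rw [mul_zero] at h1
    refine squeeze_zero (fun ν => nS_nonneg _ _ _ _) (fun m => ?_) h1
    have h2 : z (φ m) - y0 = z (φ m) - z 0 - w := by rw [hy00]; abel
    rw [h2]
    exact hCa _
  have hw0 : Geo.pqL (BN N) 0 w = w := by
    have h1 : (Geo.pqL (BN N) 0 - LinearMap.id : Sec (BN N) →ₗ[ℂ] Sec (BN N)) w = 0 := hwW.2.1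
    rwa [LinearMap.sub_apply, LinearMap.id_apply, sub_eq_zero] at h1
  have hw1 : nabL (BN N) w = 0 := hwW.2.2
  refine ⟨y0, ?_, ?_, ?_⟩
  · rw [hy00, map_add, hz0, hw0]
  · rw [hy00, map_add, hz1, hw1, add_zero]
  · intro b hb
    obtain ⟨Cc, hCc0, hCc⟩ := (HB K b).sn_le_nS P
    -- `‖y0‖_b ≤ ‖y_{φ m}‖_b + ‖K r_{φ m}‖_b + ‖z_{φ m} - y0‖_b`
    have h1 : Tendsto (fun m => Real.sqrt (D + 1 / (((φ m : ℕ) : ℝ) + 1)) +
        (Cc * nS P (BN N) 0 (T.K (r (φ m))) + Cc * nS P (BN N) 0 (z (φ m) - y0))) atTop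
        (𝓝 (Real.sqrt (D + 0) + (Cc * 0 + Cc * 0))) := by
      have a1 : Tendsto (fun m => 1 / (((φ m : ℕ) : ℝ) + 1)) atTop (𝓝 0) :=
        tendsto_one_div_add_atTop_nhds_zero_nat.comp hφ.tendsto_atTop
      exact ((tendsto_const_nhds.add a1).sqrt).add
        (((hKref.comp hφ.tendsto_atTop).const_mul Cc).add (hSlim.const_mul Cc))
    rw [mul_zero, add_zero, add_zero, add_zero] at h1
    have h2 : ∀ᶠ m in atTop, (HB K b).sn P y0 ≤ Real.sqrt (D + 1 / (((φ m : ℕ) : ℝ) + 1)) +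
        (Cc * nS P (BN N) 0 (T.K (r (φ m))) + Cc * nS P (BN N) 0 (z (φ m) - y0)) := by
      filter_upwards [hφ.tendsto_atTop.eventually hb] with m hm
      have e1 : y0 = y (φ m) + (T.K (r (φ m)) - (z (φ m) - y0)) := by
        rw [hz]; simp only; abel
      have e2 : (HB K b).sn P (y (φ m)) ≤ Real.sqrt (D + 1 / (((φ m : ℕ) : ℝ) + 1)) := by
        refine Real.le_sqrt_of_sq_le ?_
        have e3 := sn_mono P K (h := b) (h' := hh (φ m)) (c := 1)
          (fun i x hx => by rw [one_mul]; exact hm i x hx) (y (φ m))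
        rw [one_mul] at e3
        exact e3.trans (hy1 _)
      conv_lhs => rw [e1]
      refine ((HB K b).sn_add_le P _ _).trans (add_le_add e2 ?_)
      exact ((HB K b).sn_sub_le P _ _).trans (add_le_add (hCc _) (hCc _))
    have h3 : (HB K b).sn P y0 ≤ Real.sqrt D := ge_of_tendsto h1 h2
    calc (HB K b).sn P y0 ^ 2 ≤ Real.sqrt D ^ 2 :=
          pow_le_pow_left₀ ((HB K b).sn_nonneg P _) h3 2
      _ = D := Real.sq_sqrt hD

end main

end

end Crest.Agent.R281.HoC_578
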