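import Crest.Agent.R281.HoC3_578

/-!
# R281, L2-CPT (helper578), part 4: pointwise hypotheses

* `cs_dens` : Cauchy–Schwarz for densities;
* `hd_low`, `inT_one` : the pointwise forms of the pairing with a polyvector of degree one and of
  the curvature term;
* `l2_pt` : **Hoermander–Demailly** with a pointwise hypothesis
  (`L2Stmt` of `LEnd1_10`, with the extra hypothesis `0 ≤ (F ν i x).re`).
-/

set_option autoImplicit false
set_option linter.unusedSectionVars false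
set_option linter.style.haveILetI false

open Set Filter Topology Complex
open scoped ContDiff Matrix ComplexConjugate Kronecker ComplexOrder

namespace Crest.Agent.R281.HoC_578

open Crest.Agent.R275 Crest.Agent.R275.Geo Crest.Agent.R275.Core144
open Crest.Agent.R273.Defs_333 Crest.Agent.R273.HM_333 Crest.Agent.R273.Kah_333
open Crest.Agent.R273.Fock_243 Crest.Agent.R273.Calc_243 Crest.Agent.R273.Bkn_243
open Crest.Agent.R273.LamN127 Crest.Agent.R273.NV_578
open Crest.Agent.R273.NormC_505 Crest.Agent.R273.DnInt_505 Crest.Agent.R273.L2K_774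
open Crest.Agent.R273.DVec_733 Crest.Agent.R273.DMet_733 Crest.Agent.R273.DMetB_733
open Crest.Agent.R273.StV_37 Crest.Agent.R273.BKNa_37 Crest.Agent.R273.BKNb_37
open Crest.Agent.R273.BKNc_37 Crest.Agent.R273.BKNd_37 Crest.Agent.R273.BKNe_37
open Crest.Agent.R273.Mol_106 Crest.Agent.R273.Lim_505 Crest.Agent.R273.Pos_243
open Crest.Agent.R273.HDN_505 (HB HB_pos Ku Ku_posDef Gam_smAt)
open Crest.Agent.R273.KRL2_803 Crest.Agent.R273.HodgeH_803

noncomputable section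

variable {n : ℕ} {M : Type} [TopologicalSpace M] {A : Atl n M}

/-! ### Cauchy–Schwarz for densities -/

/-- a real quadratic trick -/
theorem sq_le_of_forall_pos {x a b : ℝ} (hx : 0 ≤ x) (ha : 0 ≤ a) (hb : 0 ≤ b)
    (h : ∀ t : ℝ, 0 < t → 2 * x ≤ t * a + t⁻¹ * b) : x ^ 2 ≤ a * b := by
  rcases hx.eq_or_lt with rfl | hx
  · simpa using mul_nonneg ha hb
  rcases hb.eq_or_lt with rfl | hb
  · exfalso
    rcases ha.eq_or_lt with rfl | ha
    · have := h 1 one_pos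
      simp at this
      linarith
    · have := h (x / a) (by positivity)
      rw [div_mul_cancel₀ _ ha.ne'] at this
      linarith
  rcases ha.eq_or_lt with rfl | ha
  · exfalso
    have := h (b / x) (by positivity)
    rw [inv_div, div_mul_cancel₀ _ hb.ne'] at this
    linarith
  have h1 := h (b / x) (by positivity)
  rw [inv_div, div_mul_cancel₀ _ hb.ne'] at h1
  have h2 : x ≤ b / x * a := by linarith
  rw [div_mul_eq_mul_div, le_div_iff₀ hx] at h2
  nlinarith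

theorem cs_pt {f : ℂ} {a b t : ℝ} (ht : 0 < t) (hab : 0 ≤ t * a + t⁻¹ * b) (h : ‖f‖ ^ 2 ≤ a * b) :
    2 * ‖f‖ ≤ t * a + t⁻¹ * b := by
  refine abs_le_of_sq_le_sq' ?_ hab |>.2
  have h1 : (t * a + t⁻¹ * b) ^ 2 = (t * a - t⁻¹ * b) ^ 2 + 4 * (t * t⁻¹) * (a * b) := by ring
  rw [h1, mul_inv_cancel₀ ht.ne']
  nlinarith [sq_nonneg (t * a - t⁻¹ * b)]

theorem cs_dens [T2Space M] [Finite A.ι] (P : Part A) {f a b : A.ι → M → ℂ}
    (hf : IsDn A f) (ha : IsDn A a) (hb : IsDn A b)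
    (ha0 : ∀ i, ∀ x ∈ (A.e i).source, 0 ≤ (a i x).re)
    (hb0 : ∀ i, ∀ x ∈ (A.e i).source, 0 ≤ (b i x).re)
    (h : ∀ i, ∀ x ∈ (A.e i).source, ‖f i x‖ ^ 2 ≤ (a i x).re * (b i x).re) :
    ‖IntP P f‖ ^ 2 ≤ (IntP P a).re * (IntP P b).re := by
  have ia : 0 ≤ (IntP P a).re := by
    have h1 := IntP_re_mono P ((ha.const_mul 0)) ha fun i x hx => by
      rw [zero_mul, Complex.zero_re]; exact ha0 i x hx
    rwa [IntP_const_mul, zero_mul, Complex.zero_re] at h1
  have ib : 0 ≤ (IntP P b).re := by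
    have h1 := IntP_re_mono P ((hb.const_mul 0)) hb fun i x hx => by
      rw [zero_mul, Complex.zero_re]; exact hb0 i x hx
    rwa [IntP_const_mul, zero_mul, Complex.zero_re] at h1
  refine sq_le_of_forall_pos (norm_nonneg _) ia ib fun t ht => ?_
  -- the phase
  obtain ⟨u, hu, hu'⟩ : ∃ u : ℂ, ‖u‖ = 1 ∧ u * IntP P f = ‖IntP P f‖ := by
    by_cases h0 : IntP P f = 0
    · exact ⟨1, norm_one, by rw [h0]; simp⟩
    · refine ⟨‖IntP P f‖ / IntP P f, ?_, div_mul_cancel₀ _ h0⟩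
      rw [norm_div, Complex.norm_real, norm_norm, div_self (norm_ne_zero_iff.2 h0)]
  have h2 : 2 * ‖IntP P f‖ = (IntP P (fun i x => (2 * u) * f i x)).re := by
    rw [IntP_const_mul, mul_assoc, hu']
    simp
  have h3 : t * (IntP P a).re + t⁻¹ * (IntP P b).re =
      (IntP P (fun i x => (t : ℂ) * a i x + ((t⁻¹ : ℝ) : ℂ) * b i x)).re := by
    rw [IntP_add P (fun i => (ha.const_mul _).sm i) (fun i => (hb.const_mul _).sm i),
      IntP_const_mul, IntP_const_mul, Complex.add_re, Complex.re_ofReal_mul,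
      Complex.re_ofReal_mul]
  rw [h2, h3]
  refine IntP_re_mono P (hf.const_mul _) ((ha.const_mul _).add (hb.const_mul _)) fun i x hx => ?_
  rw [Complex.add_re, Complex.re_ofReal_mul, Complex.re_ofReal_mul]
  have h4 : (2 * u * f i x).re ≤ 2 * ‖f i x‖ := by
    refine (Complex.re_le_norm _).trans ?_
    rw [norm_mul, norm_mul, hu]
    simp
  refine h4.trans (cs_pt ht ?_ (h i x hx))
  have := ha0 i x hx
  have := hb0 i x hx
  positivity

/-! ### the pointwise forms -/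

theorem iW_vac' (w : Fin n → ℂ) (T : FI n) : (iW w : Matrix (FI n) (FI n) ℂ) T ∅ = 0 := by
  show Crest.Agent.R275.Kos798.K 0 w T ∅ = 0
  unfold Crest.Agent.R275.Kos798.K
  refine Finset.sum_eq_zero fun j _ => ?_
  by_cases h : Crest.Agent.R275.Kos798.tog T j = ∅
  · rw [if_pos h]
    have hj : j ∈ T := by
      by_contra hj
      unfold Crest.Agent.R275.Kos798.tog at h
      rw [if_neg hj] at h
      exact Finset.insert_ne_empty _ _ h
    unfold Crest.Agent.R275.Kos798.cf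
    rw [if_pos hj]
    simp
  · rw [if_neg h]

theorem iW_one (l a : Fin n) : (iW (ep l) : Matrix (FI n) (FI n) ℂ) *ᵥ Pi.single {a} 1 =
    (if a = l then (1 : ℂ) else 0) • Pi.single ∅ 1 := by
  have h1 := congrArg (fun X : Matrix (FI n) (FI n) ℂ => X *ᵥ Pi.single ∅ 1)
    (iW_eW (R := ℂ) (ep l) (ep a))
  simp only [Matrix.add_mulVec, ← Matrix.mulVec_mulVec, Matrix.smul_mulVec,
    Matrix.one_mulVec] at h1
  have h2 : (iW (ep l) : Matrix (FI n) (FI n) ℂ) *ᵥ Pi.single ∅ 1 = 0 := by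
    rw [Matrix.mulVec_single_one]
    funext T
    exact iW_vac' _ T
  rw [h2, Matrix.mulVec_zero, add_zero, eW_vac] at h1
  rw [h1]
  congr 1
  simp only [ep, Pi.single_apply, mul_ite, mul_one, mul_zero, Finset.sum_ite_eq', Finset.mem_univ,
    if_true]
  by_cases h : l = a
  · rw [if_pos h, if_pos h.symm]
  · rw [if_neg h, if_neg (Ne.symm h)]

/-- vectors of degree one -/
theorem one_eq {v : FI n → ℂ} (hv : ∀ S : FI n, S.card ≠ 1 → v S = 0) :
    v = ∑ a, v {a} • (Pi.single {a} (1 : ℂ) : FI n → ℂ) := by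
  funext S
  rw [Finset.sum_apply]
  simp only [Pi.smul_apply, smul_eq_mul]
  by_cases hS : S.card = 1
  · obtain ⟨a, rfl⟩ := Finset.card_eq_one.1 hS
    rw [Finset.sum_eq_single a, Pi.single_eq_same, mul_one]
    · intro b _ hb
      rw [Pi.single_eq_of_ne, mul_zero]
      intro h
      exact hb (Finset.singleton_injective h).symm
    · intro h; exact absurd (Finset.mem_univ a) h
  · rw [hv S hS]
    symm
    refine Finset.sum_eq_zero fun a _ => ?_
    rw [Pi.single_eq_of_ne, mul_zero]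
    rintro rfl
    exact hS (Finset.card_singleton a)

theorem star_one (v : FI n → ℂ) (hv : ∀ S : FI n, S.card ≠ 1 → v S = 0) :
    star v = ∑ a, conj (v {a}) • (Pi.single {a} (1 : ℂ) : FI n → ℂ) := by
  refine (one_eq (v := star v) fun S hS => ?_).trans rfl
  rw [Pi.star_apply, hv S hS, star_zero]

theorem iW_one' (l : Fin n) {v : FI n → ℂ} (hv : ∀ S : FI n, S.card ≠ 1 → v S = 0) :
    (iW (ep l) : Matrix (FI n) (FI n) ℂ) *ᵥ v = v {l} • Pi.single ∅ 1 := by
  conv_lhs => rw [one_eq hv]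
  rw [Matrix.mulVec_sum, Finset.sum_eq_single l]
  · rw [Matrix.mulVec_smul, iW_one, if_pos rfl, one_smul]
  · intro b _ hb
    rw [Matrix.mulVec_smul, iW_one, if_neg hb, zero_smul, smul_zero]
  · intro h; exact absurd (Finset.mem_univ l) h

theorem Cv_one (G : Matrix (Fin n) (Fin n) ℂ) (th : Matrix (Fin n) (Fin n) ℂ) {v : FI n → ℂ}
    (hv : ∀ S : FI n, S.card ≠ 1 → v S = 0) :
    Cv (Gam G) th v v = ∑ a, ∑ b, th a b * v {a} * conj (v {b}) := by
  have hs : ∀ S : FI n, S.card ≠ 1 → (star v) S = 0 := fun S hS => by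
    rw [Pi.star_apply, hv S hS, star_zero]
  unfold Cv
  rw [Finset.sum_comm]
  refine Finset.sum_congr rfl fun a _ => Finset.sum_congr rfl fun b _ => ?_
  rw [iW_one' b hs, iW_one' a hv, Matrix.mulVec_smul, smul_dotProduct, dotProduct_smul]
  have h1 : (Pi.single ∅ (1 : ℂ) : FI n → ℂ) ⬝ᵥ (Gam G *ᵥ Pi.single ∅ 1) = 1 := by
    rw [Matrix.mulVec_single_one, single_one_dotProduct, Matrix.col_apply, Gam_vac, if_pos rfl]
  rw [h1, Pi.star_apply]
  simp only [smul_eq_mul, mul_one, RCLike.star_def]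
  ring

theorem Gam_one_form (G : Matrix (Fin n) (Fin n) ℂ) {v : FI n → ℂ}
    (hv : ∀ S : FI n, S.card ≠ 1 → v S = 0) :
    star v ⬝ᵥ (Gam Gᵀ *ᵥ v) = ∑ a, ∑ b, G a b * v {a} * conj (v {b}) := by
  conv_lhs => rw [star_one v hv, one_eq hv]
  rw [Matrix.mulVec_sum, dotProduct_sum]
  refine Finset.sum_congr rfl fun a _ => ?_
  rw [sum_dotProduct]
  refine Finset.sum_congr rfl fun b _ => ?_
  rw [Matrix.mulVec_smul, smul_dotProduct, dotProduct_smul, Matrix.mulVec_single_one,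
    single_one_dotProduct, Matrix.col_apply, Gam_single,
    Matrix.transpose_apply]
  simp only [smul_eq_mul]
  rw [← one_eq hv]
  ring

section pt

variable {N : LB A} {K : Kah A}

theorem pqM_one {v : MV N} (hv : pqM N 1 v = v) (i : A.ι) (x : M) (S : FI n) (hS : S.card ≠ 1) :
    v.1 i x S = 0 := by
  rw [← hv, pqM_apply, if_neg hS]

theorem inT_one (h : HM ((KB A)⁻¹ * N)) {v : MV N} (hv : pqM N 1 v = v) (i : A.ι) (x : M) :
    inT K h v.1 v.1 i x = (h.w i x : ℂ) *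
      ∑ a, ∑ b, cur h i x a b * v.1 i x {a} * conj (v.1 i x {b}) := by
  unfold inT
  rw [Cv_one _ _ (pqM_one hv i x)]

theorem inG_one (h : HM ((KB A)⁻¹ * N)) {v : MV N} (hv : pqM N 1 v = v) (i : A.ι) (x : M) :
    inG K h v.1 v.1 i x = (h.w i x : ℂ) *
      ∑ a, ∑ b, K.g i x a b * v.1 i x {a} * conj (v.1 i x {b}) := by
  unfold inG
  rw [Gam_one_form _ (pqM_one hv i x)]

theorem hd_low (h : HM ((KB A)⁻¹ * N)) (g : A.ι → M → (BN N).κ → ℂ) {v : MV N}
    (hv : pqM N 1 v = v) {i : A.ι} {x : M} (hx : x ∈ (A.e i).source) :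
    (HB K h).hd g (low K N v).1 i x = (h.w i x : ℂ) *
      ∑ b, conj (oB (g i x) {b}) * v.1 i x {b} := by
  rw [HB_hd_iB]
  have h1 : oB ((low K N v).1 i x) = GK K i x *ᵥ v.1 i x := by
    rw [low_apply, oB_iB]
  rw [h1, Matrix.mulVec_mulVec, GI_GK K hx, Matrix.one_mulVec]
  congr 1
  conv_lhs => rw [one_eq (pqM_one hv i x)]
  rw [dotProduct_sum]
  refine Finset.sum_congr rfl fun b _ => ?_
  rw [dotProduct_smul, dotProduct_single_one, Pi.star_apply]
  simp only [smul_eq_mul, RCLike.star_def]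
  rw [mul_comm]

end pt

/-! ### the main theorem with pointwise hypotheses -/

section main

variable [T2Space M] [CompactSpace M] [Finite A.ι] {N : LB A} (P : Part A) (K : Kah A)

/-- integration of the pointwise bound -/
theorem pt_bound (h : HM ((KB A)⁻¹ * N)) {ε : ℝ} (g : Sec (BN N)) (F : A.ι → M → ℂ) {C : ℝ}
    (hpos : ∀ i, ∀ x ∈ (A.e i).source, ∀ ξ : Fin n → ℂ,
      0 ≤ (∑ a, ∑ b, (cur h i x + (ε : ℂ) • K.g i x) a b * ξ a * conj (ξ b)).re)
    (hF : IsDn A F) (hF0 : ∀ i, ∀ x ∈ (A.e i).source, 0 ≤ (F i x).re) (hC : (IntP P F).re ≤ C)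
    (hpt : ∀ i, ∀ x ∈ (A.e i).source, ∀ ξ : Fin n → ℂ,
      h.w i x * ‖∑ b, oB (g.1 i x) {b} * conj (ξ b)‖ ^ 2 ≤ (F i x).re *
        (∑ a, ∑ b, (cur h i x + (ε : ℂ) • K.g i x) a b * ξ a * conj (ξ b)).re)
    (v : MV N) (hv : pqM N 1 v = v) :
    ‖(HB K h).ip P g.1 (low K N v).1‖ ^ 2 ≤
      C * ((totc P (inT K h v.1 v.1)).re + ε * (HB K h).sn P (low K N v) ^ 2) := by
  have dT : IsDn A (inT K h v.1 v.1) :=
    ⟨(inT_isD h (isV v) (isV v)).sm, (inT_isD h (isV v) (isV v)).tr⟩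
  have dG : IsDn A ((HB K h).hd (low K N v).1 (low K N v).1) :=
    (HB K h).isDn (low K N v).2 (low K N v).2
  have dg : IsDn A ((HB K h).hd g.1 (low K N v).1) := (HB K h).isDn g.2 (low K N v).2
  have db : IsDn A (fun i x => inT K h v.1 v.1 i x +
      (ε : ℂ) * (HB K h).hd (low K N v).1 (low K N v).1 i x) := dT.add (dG.const_mul _)
  have key : ∀ i, ∀ x ∈ (A.e i).source, inT K h v.1 v.1 i x +
      (ε : ℂ) * (HB K h).hd (low K N v).1 (low K N v).1 i x =
      (h.w i x : ℂ) * ∑ a, ∑ b, (cur h i x + (ε : ℂ) • K.g i x) a b * v.1 i x {a} *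
        conj (v.1 i x {b}) := by
    intro i x hx
    rw [HB_hd K h v v hx, inT_one h hv, inG_one h hv, ← mul_assoc, mul_comm (ε : ℂ), mul_assoc,
      ← mul_add]
    congr 1
    rw [Finset.mul_sum, ← Finset.sum_add_distrib]
    refine Finset.sum_congr rfl fun a _ => ?_
    rw [Finset.mul_sum, ← Finset.sum_add_distrib]
    refine Finset.sum_congr rfl fun b _ => ?_
    rw [Matrix.add_apply, Matrix.smul_apply, smul_eq_mul]
    ring
  have hb : (totc P (inT K h v.1 v.1)).re + ε * (HB K h).sn P (low K N v) ^ 2 =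
      (IntP P (fun i x => inT K h v.1 v.1 i x +
        (ε : ℂ) * (HB K h).hd (low K N v).1 (low K N v).1 i x)).re := by
    rw [IntP_add P dT.sm (fun i => (dG.const_mul _).sm i), IntP_const_mul, Complex.add_re,
      Complex.re_ofReal_mul, ← IntP_eq_totc, HDen.sn_sq]
    rfl
  have hcs := cs_dens P dg hF db hF0
    (fun i x hx => by
      rw [key i x hx, Complex.re_ofReal_mul]
      exact mul_nonneg (h.pos i x hx).le (hpos i x hx _))
    (fun i x hx => by
      rw [key i x hx, Complex.re_ofReal_mul, hd_low h g.1 hv hx, norm_mul, Complex.norm_real,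
        Real.norm_of_nonneg (h.pos i x hx).le, mul_pow]
      have h1 := hpt i x hx (fun a => v.1 i x {a})
      have h2 : ‖∑ b, conj (oB (g.1 i x) {b}) * v.1 i x {b}‖ =
          ‖∑ b, oB (g.1 i x) {b} * conj (v.1 i x {b})‖ := by
        rw [← Complex.norm_conj, map_sum]
        congr 1
        refine Finset.sum_congr rfl fun b _ => ?_
        rw [map_mul, Complex.conj_conj]
      rw [h2]
      have h3 := mul_le_mul_of_nonneg_left h1 (h.pos i x hx).le
      calc h.w i x ^ 2 * ‖∑ b, oB (g.1 i x) {b} * conj (v.1 i x {b})‖ ^ 2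
          = h.w i x * (h.w i x * ‖∑ b, oB (g.1 i x) {b} * conj (v.1 i x {b})‖ ^ 2) := by ring
        _ ≤ _ := h3
        _ = _ := by ring)
  refine hcs.trans ?_
  rw [hb]
  refine mul_le_mul_of_nonneg_right hC ?_
  have h1 := IntP_re_mono P (db.const_mul 0) db fun i x hx => by
      rw [zero_mul, Complex.zero_re, key i x hx, Complex.re_ofReal_mul]
      exact mul_nonneg (h.pos i x hx).le (hpos i x hx _)
  rwa [IntP_const_mul, zero_mul, Complex.zero_re] at h1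

/-- **Hoermander–Demailly**, sequence version with pointwise hypotheses: metrics bounded below by
`c href`, `Θ_ν ≥ -ε_ν ω`, `ε_ν → 0`, and `|g|² ≤ F_ν` in the norm of `(Θ_ν + ε_ν ω)⁻¹`. -/
theorem l2_pt_gen (g : Sec (BN N)) (hg : nabL (BN N) g = 0) (hg1 : Geo.pqL (BN N) 1 g = g)
    (h : ℕ → HM ((KB A)⁻¹ * N)) (href : HM ((KB A)⁻¹ * N)) {c : ℝ} (hc : 0 < c)
    (hlow : ∀ ν i, ∀ x ∈ (A.e i).source, c * href.w i x ≤ (h ν).w i x)
    (ε : ℕ → ℝ) (hε : ∀ ν, 0 < ε ν) (hε0 : Tendsto ε atTop (𝓝 0))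
    (hpos : ∀ ν i, ∀ x ∈ (A.e i).source, (cur (h ν) i x + (ε ν : ℂ) • K.g i x).PosSemidef)
    (F : ℕ → A.ι → M → ℂ) (C : ℝ) (hF : ∀ ν, IsDn A (F ν))
    (hF0 : ∀ ν i, ∀ x ∈ (A.e i).source, 0 ≤ (F ν i x).re) (hC : ∀ ν, (IntP P (F ν)).re ≤ C)
    (hpt : ∀ ν i, ∀ x ∈ (A.e i).source, ∀ ξ : Fin n → ℂ,
      (h ν).w i x * ‖∑ b, oB (g.1 i x) {b} * conj (ξ b)‖ ^ 2 ≤ (F ν i x).re *
        (∑ a, ∑ b, (cur (h ν) i x + (ε ν : ℂ) • K.g i x) a b * ξ a * conj (ξ b)).re) :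
    ∃ y : Sec (BN N), Geo.pqL (BN N) 0 y = y ∧ nabL (BN N) y = g ∧
      ∀ b : HM ((KB A)⁻¹ * N),
        (∀ᶠ ν in atTop, ∀ i, ∀ x ∈ (A.e i).source, b.w i x ≤ (h ν).w i x) →
        (HB K b).sn P y ^ 2 ≤ C := by
  have hD : 0 ≤ C := (IntP_re_nonneg P (hF 0) (hF0 0)).trans (hC 0)
  refine hormander_seq P K href h hc hlow hε hε0 hD hg hg1 fun ν v hv => ?_
  refine pt_bound P K (h ν) g (F ν) (fun i x hx ξ => ?_) (hF ν) (hF0 ν) (hC ν) (hpt ν) v hv
  have h1 := (Complex.le_def.1 ((hpos ν i x hx).dotProduct_mulVec_nonneg (star ξ))).1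
  rw [Complex.zero_re] at h1
  refine h1.trans_eq ?_
  congr 1
  rw [star_star]
  show ∑ a, ξ a * (∑ b, (cur (h ν) i x + (ε ν : ℂ) • K.g i x) a b * star (ξ b)) = _
  refine Finset.sum_congr rfl fun a _ => ?_
  rw [Finset.mul_sum]
  refine Finset.sum_congr rfl fun b _ => ?_
  rw [RCLike.star_def]
  ring

end main

/-- `L2Stmt` of `LEnd1_10` with the extra hypothesis `0 ≤ (F ν i x).re` -/
theorem l2_pt [T2Space M] [CompactSpace M] [Finite A.ι] (P : Part A) (K : Kah A) :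
    ∀ (N : LB A) (g : Sec (BN N)), nabL (BN N) g = 0 → Geo.pqL (BN N) 1 g = g →
    ∀ (h : ℕ → HM ((KB A)⁻¹ * N)) (href : HM ((KB A)⁻¹ * N)),
      (∀ ν i, ∀ x ∈ (A.e i).source, href.w i x ≤ (h ν).w i x) →
    ∀ ε : ℕ → ℝ, (∀ ν, 0 < ε ν) → Tendsto ε atTop (𝓝 0) →
      (∀ ν i, ∀ x ∈ (A.e i).source, (cur (h ν) i x + (ε ν : ℂ) • K.g i x).PosSemidef) →
    ∀ (F : ℕ → A.ι → M → ℂ) (C : ℝ), (∀ ν, IsDn A (F ν)) →
      (∀ ν i, ∀ x ∈ (A.e i).source, 0 ≤ (F ν i x).re) → (∀ ν, (IntP P (F ν)).re ≤ C) →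
      (∀ ν i, ∀ x ∈ (A.e i).source, ∀ ξ : Fin n → ℂ,
        (h ν).w i x * ‖∑ b, oB (g.1 i x) {b} * conj (ξ b)‖ ^ 2 ≤ (F ν i x).re *
          (∑ a, ∑ b, (cur (h ν) i x + (ε ν : ℂ) • K.g i x) a b * ξ a * conj (ξ b)).re) →
    ∃ y : Sec (BN N), nabL (BN N) y = g ∧ Geo.pqL (BN N) 0 y = y ∧
      (HB K href).sn P y ^ 2 ≤ C := by
  intro N g hg hg1 h href hlow ε hε hε0 hpos F C hF hF0 hC hpt
  obtain ⟨y, hy0, hy, hb⟩ := l2_pt_gen P K g hg hg1 h href one_pos
    (fun ν i x hx => by rw [one_mul]; exact hlow ν i x hx) ε hε hε0 hpos F C hF hF0 hC hpt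
  exact ⟨y, hy, hy0, hb href (Eventually.of_forall fun ν i x hx => hlow ν i x hx)⟩

end

end Crest.Agent.R281.HoC_578
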