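import Crest.Agent.R281.HoC4_578
import Crest.Agent.R273.SerE_945

/-!
# R281, L2-CPT (helper578), part 5: user form over families of sections (helper10, post 7512)

* `oB_nab_embN` : `∂̄` of a section in the charts;
* `hd_embN` : the density of a section;
* `user` : Hoermander–Demailly for `g = ∂̄ y0`, `|∂̄ y0|² ≤ |y1|²` in the norm of
  `(Θ_ν + ε_ν ω)⁻¹`, with a flat metric on the canonical bundle.
-/

set_option autoImplicit false
set_option linter.unusedSectionVars false
set_option linter.style.haveILetI false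

open Set Filter Topology Complex
open scoped ContDiff Matrix ComplexConjugate Kronecker ComplexOrder

namespace Crest.Agent.R281.HoC_578

open Crest.Agent.R275 Crest.Agent.R275.Geo Crest.Agent.R275.Core144
open Crest.Agent.R273.Defs_333 Crest.Agent.R273.HM_333 Crest.Agent.R273.Kah_333
open Crest.Agent.R273.Fock_243 Crest.Agent.R273.Calc_243 Crest.Agent.R273.Bkn_243
open Crest.Agent.R273.LamN127 Crest.Agent.R273.NV_578
open Crest.Agent.R273.NormC_505 Crest.Agent.R273.DnInt_505 Crest.Agent.R273.L2K_774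
open Crest.Agent.R273.DVec_733 Crest.Agent.R273.DMet_733 Crest.Agent.R273.DMetB_733
open Crest.Agent.R273.Mol_106 Crest.Agent.R273.Lim_505 Crest.Agent.R273.Pos_243
open Crest.Agent.R273.HDN_505 (HB HB_pos Ku Ku_posDef Gam_smAt)
open Crest.Agent.R273.SerA_945

noncomputable section

variable {n : ℕ} {M : Type} [TopologicalSpace M] {A : Atl n M}

theorem oB_embN {N : LB A} (s : Fn A) (i : A.ι) (x : M) :
    oB (N := N) (embN s i x) = s i x • (Pi.single ∅ (1 : ℂ) : FI n → ℂ) := by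
  funext T
  show (if T = ∅ then s i x else 0) = s i x * (Pi.single ∅ (1 : ℂ) : FI n → ℂ) T
  by_cases hT : T = ∅
  · rw [if_pos hT, hT, Pi.single_eq_same, mul_one]
  · rw [if_neg hT, Pi.single_eq_of_ne hT, mul_zero]

/-- `∂̄` of a section in the charts -/
theorem oB_nab_embN {N : LB A} {s : Fn A} (hs : SmS N s)
    (hoff : ∀ i, ∀ x ∉ (A.e i).source, s i x = 0) {i : A.ι} {x : M} (hx : x ∈ (A.e i).source)
    (b : Fin n) : oB (nab (BN N) (embN s) i x) {b} = A.db i b (s i) x := by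
  have hm := embN_mem hs hoff
  rw [oB_nab hm.1.1 hx, Finset.sum_apply]
  have h1 : ∀ k : Fin n, dV I k (fun z => oB (N := N) (embN s i ((A.e i).symm z))) (A.e i x) =
      A.db i k (s i) x • (Pi.single ∅ (1 : ℂ) : FI n → ℂ) := by
    intro k
    funext T
    show A.db i k (fun y => oB (N := N) (embN s i y) T) x = _ * _
    by_cases hT : T = ∅
    · subst hT
      rw [Pi.single_eq_same, mul_one]
      congr 1
    · have h2 : (fun y => oB (N := N) (embN s i y) T) = fun _ => (0 : ℂ) := by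
        funext y
        rw [oB_embN, Pi.smul_apply, Pi.single_eq_of_ne hT, smul_zero]
      rw [h2, Pi.single_eq_of_ne hT, mul_zero]
      simp [Atl.db, dbj]
  rw [Finset.sum_eq_single b]
  · rw [h1, Matrix.mulVec_smul, eW_vac, Pi.smul_apply, Pi.single_eq_same, smul_eq_mul, mul_one]
  · intro k _ hk
    rw [h1, Matrix.mulVec_smul, eW_vac, Pi.smul_apply, Pi.single_eq_of_ne, smul_zero]
    intro h
    exact hk (Finset.singleton_injective h).symm
  · intro h
    exact absurd (Finset.mem_univ b) h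

/-- the density of a section -/
theorem hd_embN {N : LB A} (K : Kah A) (h : HM ((KB A)⁻¹ * N)) (s : Fn A) (i : A.ι) (x : M) :
    (HB K h).hd (embN s) (embN s) i x = ((h.w i x * ‖s i x‖ ^ 2 : ℝ) : ℂ) := by
  refine (HB_hd_iB K h (embN s) (embN s) i x).trans ?_
  have h0 : oB (N := N) (embN s i x) = s i x • (Pi.single ∅ (1 : ℂ) : FI n → ℂ) := oB_embN s i x
  rw [h0, Matrix.mulVec_smul, dotProduct_smul, star_smul, star_single',
    smul_dotProduct, Matrix.mulVec_single_one, single_one_dotProduct, Matrix.col_apply]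
  have h1 : GI K i x ∅ ∅ = 1 := by
    show Gam _ ∅ ∅ = 1
    rw [Gam_vac, if_pos rfl]
  rw [h1]
  simp only [smul_eq_mul, mul_one, RCLike.star_def]
  rw [Complex.mul_conj, Complex.normSq_eq_norm_sq]
  push_cast
  ring

variable [T2Space M] [CompactSpace M] [Finite A.ι]

/-- **Hoermander–Demailly**, user form (flat metric on the canonical bundle) -/
theorem user (P : Part A) (K : Kah A) (hX : HM (KB A))
    (hflat : ∀ i, ∀ x ∈ (A.e i).source, cur hX i x = 0) {N : LB A} (hh : ℕ → HM N) (b : HM N)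
    (hb : ∀ ν i, ∀ x ∈ (A.e i).source, b.w i x ≤ (hh ν).w i x) {ε : ℕ → ℝ} (hε : ∀ ν, 0 < ε ν)
    (hε0 : Tendsto ε atTop (𝓝 0))
    (hpsd : ∀ ν i, ∀ x ∈ (A.e i).source, (cur (hh ν) i x + (ε ν : ℂ) • K.g i x).PosSemidef)
    {y0 y1 : Fn A} (h0 : SmS N y0) (o0 : ∀ i, ∀ x ∉ (A.e i).source, y0 i x = 0)
    (h1 : SmS N y1) (o1 : ∀ i, ∀ x ∉ (A.e i).source, y1 i x = 0) {D : ℝ}
    (hD : ∀ ν, (HB K (mul (inv hX) (hh ν))).sn P ⟨embN y1, (embN_mem h1 o1).1⟩ ^ 2 ≤ D)
    (hpt : ∀ ν i, ∀ x ∈ (A.e i).source, ∀ ξ : Fin n → ℂ,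
      ‖∑ a, A.db i a (y0 i) x * conj (ξ a)‖ ^ 2 ≤ ‖y1 i x‖ ^ 2 *
        (∑ a, ∑ c, (cur (hh ν) i x + (ε ν : ℂ) • K.g i x) a c * ξ a * conj (ξ c)).re) :
    ∃ s, IsHS N univ s ∧ ∀ u : Sec (BN N), u.1 = embN y0 - embN s →
      (HB K (mul (inv hX) b)).sn P u ^ 2 ≤ D := by
  have hm := embN_mem h0 o0
  have hm1 := embN_mem h1 o1
  let σ : Sec (BN N) := ⟨embN y0, hm.1⟩
  have hσ0 : Geo.pqL (BN N) 0 σ = σ := Subtype.ext (R273.SerE_945.pq_of_isDeg hm.2)
  set g : Sec (BN N) := nabL (BN N) σ with hg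
  have hg1 : Geo.pqL (BN N) 1 g = g := by
    have h2 := LinearMap.congr_fun (nabL_pqL (B := BN N) 0) σ
    simp only [LinearMap.comp_apply] at h2
    rw [hσ0] at h2
    exact h2.symm
  have hg0 : nabL (BN N) g = 0 := nab_nab_BN N σ
  set H : ℕ → HM ((KB A)⁻¹ * N) := fun ν => mul (inv hX) (hh ν) with hH
  have hcur : ∀ ν i, ∀ x ∈ (A.e i).source, cur (H ν) i x = cur (hh ν) i x := by
    intro ν i x hx
    rw [hH]
    simp only
    rw [cur_mul _ _ i hx, cur_inv _ i hx, hflat i x hx, neg_zero, zero_add]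
  obtain ⟨y, hy, hy0, hyn⟩ := l2_pt P K N g hg0 hg1 H (mul (inv hX) b)
    (fun ν i x hx => mul_le_mul_of_nonneg_left (hb ν i x hx) ((inv hX).pos i x hx).le)
    ε hε hε0 (fun ν i x hx => by rw [hcur ν i x hx]; exact hpsd ν i x hx)
    (fun ν => (HB K (H ν)).hd (embN y1) (embN y1)) D
    (fun ν => (HB K (H ν)).isDn hm1.1 hm1.1)
    (fun ν i x hx => by
      rw [hd_embN, Complex.ofReal_re]
      exact mul_nonneg ((H ν).pos i x hx).le (sq_nonneg _))
    (fun ν => by
      have h3 := hD ν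
      rw [HDen.sn_sq] at h3
      exact h3)
    (fun ν i x hx ξ => by
      rw [hcur ν i x hx, hd_embN, Complex.ofReal_re, mul_assoc]
      refine mul_le_mul_of_nonneg_left ?_ ((H ν).pos i x hx).le
      refine le_trans (le_of_eq ?_) (hpt ν i x hx ξ)
      congr 2
      refine Finset.sum_congr rfl fun a _ => ?_
      rw [← oB_nab_embN h0 o0 hx a]
      rfl)
  -- the holomorphic section
  let yr : Raw A := y.1
  have hyF : yr ∈ FF N 0 := by
    refine ⟨y.2, ?_⟩
    intro i x κ hκ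
    by_contra hne
    have h4 : y.1 i x κ = pq (BN N) 0 y.1 i x κ := by
      conv_lhs => rw [← hy0]
      rfl
    rw [pq_apply, if_neg hne] at h4
    exact hκ h4
  have hu : embN y0 - yr ∈ FF N 0 := (FF N 0).sub_mem hm hyF
  have hDu : Db (embN y0 - yr) = 0 := by
    rw [Db_sub hm hyF]
    have h2 : Db yr = Db (embN y0) := congrArg Subtype.val hy
    rw [h2, sub_self]
  refine ⟨_, isHS_of_closed hu hDu, fun u hu' => ?_⟩
  have h5 : u = y := by
    refine Subtype.ext ?_
    have h6 : embN (fun i x => (embN y0 - yr) i x (∅, ())) = embN y0 - yr := (eq_embN hu).symm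
    show (u.1 : Raw A) = yr
    have h7 : (u.1 : Raw A) = embN y0 - embN (fun i x => (embN y0 - yr) i x (∅, ())) := hu'
    rw [h7, h6, sub_sub_cancel]
  rw [h5]
  exact hyn

end

end Crest.Agent.R281.HoC_578
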