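import Crest.Agent.R281.HoC5_578

/-!
# R281, L2-CPT (helper578), part 6: user form with a section independent of the test metric

* `user_gen` : as `user`, metrics bounded below by `c href`, one section `s` and the bound for
  every metric `b` which is eventually below `hh ν` (helper799, post 8089).
-/

set_option autoImplicit false
set_option linter.unusedSectionVars false
set_option linter.style.haveILetI false

open Set Filter Topology Complex
open scoped ContDiff Matrix ComplexConjugate Kronecker ComplexOrder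

namespace Crest.Agent.R281.HoC_578

open Crest.Agent.R275 Crest.Agent.R275.Geo Crest.Agent.R275.Core144
open Crest.Agent.R273.Defs_333 Crest.Agent.R273.HM_333 Crest.Agent.R273.Kah_333
open Crest.Agent.R273.LamN127 Crest.Agent.R273.NV_578
open Crest.Agent.R273.NormC_505 Crest.Agent.R273.DnInt_505
open Crest.Agent.R273.DVec_733 Crest.Agent.R273.DMet_733 Crest.Agent.R273.DMetB_733
open Crest.Agent.R273.HDN_505 (HB HB_pos Ku Ku_posDef Gam_smAt)
open Crest.Agent.R273.SerA_945

noncomputable section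

variable {n : ℕ} {M : Type} [TopologicalSpace M] {A : Atl n M}
variable [T2Space M] [CompactSpace M] [Finite A.ι]

/-- **Hoermander–Demailly**, user form, one section for all test metrics -/
theorem user_gen (P : Part A) (K : Kah A) (hX : HM (KB A))
    (hflat : ∀ i, ∀ x ∈ (A.e i).source, cur hX i x = 0) {N : LB A} (hh : ℕ → HM N) (href : HM N)
    {c : ℝ} (hc : 0 < c) (hlow : ∀ ν i, ∀ x ∈ (A.e i).source, c * href.w i x ≤ (hh ν).w i x)
    {ε : ℕ → ℝ} (hε : ∀ ν, 0 < ε ν) (hε0 : Tendsto ε atTop (𝓝 0))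
    (hpsd : ∀ ν i, ∀ x ∈ (A.e i).source, (cur (hh ν) i x + (ε ν : ℂ) • K.g i x).PosSemidef)
    {y0 y1 : Fn A} (h0 : SmS N y0) (o0 : ∀ i, ∀ x ∉ (A.e i).source, y0 i x = 0)
    (h1 : SmS N y1) (o1 : ∀ i, ∀ x ∉ (A.e i).source, y1 i x = 0) {D : ℝ}
    (hD : ∀ ν, (HB K (mul (inv hX) (hh ν))).sn P ⟨embN y1, (embN_mem h1 o1).1⟩ ^ 2 ≤ D)
    (hpt : ∀ ν i, ∀ x ∈ (A.e i).source, ∀ ξ : Fin n → ℂ,
      ‖∑ a, A.db i a (y0 i) x * conj (ξ a)‖ ^ 2 ≤ ‖y1 i x‖ ^ 2 *
        (∑ a, ∑ c, (cur (hh ν) i x + (ε ν : ℂ) • K.g i x) a c * ξ a * conj (ξ c)).re) :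
    ∃ s, IsHS N univ s ∧ ∀ b : HM N,
      (∀ᶠ ν in atTop, ∀ i, ∀ x ∈ (A.e i).source, b.w i x ≤ (hh ν).w i x) →
      ∀ u : Sec (BN N), u.1 = embN y0 - embN s → (HB K (mul (inv hX) b)).sn P u ^ 2 ≤ D := by
  have hm := embN_mem h0 o0
  have hm1 := embN_mem h1 o1
  let σ : Sec (BN N) := ⟨embN y0, hm.1⟩
  have hσ0 : Geo.pqL (BN N) 0 σ = σ := Subtype.ext (R273.SerE_945.pq_of_isDeg hm.2)
  set g : Sec (BN N) := nabL (BN N) σ with hg
  have hg1 : Geo.pqL (BN N) 1 g = g := by
    have h2 := LinearMap.congr_fun (nabL_pqL (B := BN N) 0) σ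
    simp only [LinearMap.comp_apply] at h2
    rw [hσ0] at h2
    exact h2.symm
  have hg0 : nabL (BN N) g = 0 := nab_nab_BN N σ
  set H : ℕ → HM ((KB A)⁻¹ * N) := fun ν => mul (inv hX) (hh ν) with hH
  have hcur : ∀ ν i, ∀ x ∈ (A.e i).source, cur (H ν) i x = cur (hh ν) i x := by
    intro ν i x hx
    rw [hH]
    simp only
    rw [cur_mul _ _ i hx, cur_inv _ i hx, hflat i x hx, neg_zero, zero_add]
  obtain ⟨y, hy0, hy, hyn⟩ := l2_pt_gen P K g hg0 hg1 H (mul (inv hX) href) hc
    (fun ν i x hx => by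
      have h3 := mul_le_mul_of_nonneg_left (hlow ν i x hx) ((inv hX).pos i x hx).le
      have e1 : (mul (inv hX) href).w i x = (inv hX).w i x * href.w i x := rfl
      have e2 : (H ν).w i x = (inv hX).w i x * (hh ν).w i x := rfl
      rw [e1, e2]
      linarith)
    ε hε hε0 (fun ν i x hx => by rw [hcur ν i x hx]; exact hpsd ν i x hx)
    (fun ν => (HB K (H ν)).hd (embN y1) (embN y1)) D
    (fun ν => (HB K (H ν)).isDn hm1.1 hm1.1)
    (fun ν i x hx => by
      rw [hd_embN, Complex.ofReal_re]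
      exact mul_nonneg ((H ν).pos i x hx).le (sq_nonneg _))
    (fun ν => by
      have h3 := hD ν
      rw [HDen.sn_sq] at h3
      exact h3)
    (fun ν i x hx ξ => by
      rw [hcur ν i x hx, hd_embN, Complex.ofReal_re, mul_assoc]
      refine mul_le_mul_of_nonneg_left ?_ ((H ν).pos i x hx).le
      refine le_trans (le_of_eq ?_) (hpt ν i x hx ξ)
      congr 2
      refine Finset.sum_congr rfl fun a _ => ?_
      rw [← oB_nab_embN h0 o0 hx a]
      rfl)
  -- the holomorphic section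
  let yr : Raw A := y.1
  have hyF : yr ∈ FF N 0 := by
    refine ⟨y.2, ?_⟩
    intro i x κ hκ
    by_contra hne
    have h4 : y.1 i x κ = pq (BN N) 0 y.1 i x κ := by
      conv_lhs => rw [← hy0]
      rfl
    rw [pq_apply, if_neg hne] at h4
    exact hκ h4
  have hu : embN y0 - yr ∈ FF N 0 := (FF N 0).sub_mem hm hyF
  have hDu : Db (embN y0 - yr) = 0 := by
    rw [Db_sub hm hyF]
    have h2 : Db yr = Db (embN y0) := congrArg Subtype.val hy
    rw [h2, sub_self]
  refine ⟨_, isHS_of_closed hu hDu, fun b hb u hu' => ?_⟩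
  have h5 : u = y := by
    refine Subtype.ext ?_
    have h6 : embN (fun i x => (embN y0 - yr) i x (∅, ())) = embN y0 - yr := (eq_embN hu).symm
    show (u.1 : Raw A) = yr
    have h7 : (u.1 : Raw A) = embN y0 - embN (fun i x => (embN y0 - yr) i x (∅, ())) := hu'
    rw [h7, h6, sub_sub_cancel]
  rw [h5]
  refine hyn (mul (inv hX) b) ?_
  filter_upwards [hb] with ν hν i x hx
  exact mul_le_mul_of_nonneg_left (hν i x hx) ((inv hX).pos i x hx).le

end

end Crest.Agent.R281.HoC_578
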