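import Crest.Agent.R281.PL2_713

/-!
# R281 (S0424), H0-OP, second road (helper409), part 1: TRANSFER

* `Bc C`       : finite family of closed chart balls whose open balls cover `X`
* `lintegral_image_le` : change of variables, inequality, between two model spaces
* `transfer`   : integrals over a compact subset of a chart target are bounded by the integrals over
                 the cells
-/

set_option autoImplicit false
set_option linter.unusedSectionVars false
set_option maxSynthPendingDepth 3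

open Set Filter Topology MeasureTheory Metric
open scoped ContDiff ENNReal NNReal

namespace Crest.Agent.R281.Hy_409

open Crest.Agent.R281.HkR_835 Crest.Agent.R281.Ti_846 Crest.Agent.R281.PL_713

noncomputable section

variable {V W X : Type} [NormedAddCommGroup V] [NormedSpace ℝ V] [NormedAddCommGroup W]
  [NormedSpace ℝ W] [TopologicalSpace X]

/-- finite family of closed chart balls; the open balls cover `X` -/
structure Bc (C : RCh V X) where
  κ : Type
  fin : Fintype κ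
  i : κ → C.ι
  z : κ → V
  r : κ → ℝ
  sub : ∀ k, closedBall (z k) (r k) ⊆ (C.e (i k)).target
  cov : ∀ x, ∃ k, x ∈ (C.e (i k)).source ∧ C.e (i k) x ∈ ball (z k) (r k)

attribute [instance] Bc.fin

section cv

variable [FiniteDimensional ℝ V] [MeasurableSpace V] [BorelSpace V]
  [FiniteDimensional ℝ W] [MeasurableSpace W] [BorelSpace W]

/-- additive Haar measures and linear equivalences -/
theorem map_smul (μ : Measure V) [μ.IsAddHaarMeasure] (ν : Measure W) [ν.IsAddHaarMeasure]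
    (L : V ≃L[ℝ] W) : ∃ c : ℝ≥0, ν = c • μ.map L := by
  have h : (μ.map L).IsAddHaarMeasure := inferInstance
  exact ⟨_, Measure.isAddLeftInvariant_eq_smul ν (μ.map L)⟩

/-- change of variables between two model spaces, inequality -/
theorem lintegral_image_le (μ : Measure V) [μ.IsAddHaarMeasure] (ν : Measure W)
    [ν.IsAddHaarMeasure] (L : V ≃L[ℝ] W) : ∃ c : ℝ≥0, ∀ (T : Set V) (τ : V → W) (b : ℝ≥0),
      MeasurableSet T → (∀ y ∈ T, DifferentiableAt ℝ τ y) → InjOn τ T →
      (∀ y ∈ T, |((L.symm : W →L[ℝ] V).comp (fderiv ℝ τ y)).det| ≤ b) →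
      ∀ f : W → ℝ≥0∞, ∫⁻ z in τ '' T, f z ∂ν ≤ c * b * ∫⁻ y in T, f (τ y) ∂μ := by
  obtain ⟨c, hc⟩ := map_smul μ ν L
  refine ⟨c, fun T τ b hT hτ hinj hb f => ?_⟩
  set σ : V → V := fun y => L.symm (τ y) with hσ
  have hσd : ∀ y ∈ T, HasFDerivWithinAt σ ((L.symm : W →L[ℝ] V).comp (fderiv ℝ τ y)) T y :=
    fun y hy => ((L.symm : W →L[ℝ] V).hasFDerivAt.comp y (hτ y hy).hasFDerivAt).hasFDerivWithinAt
  have hσi : InjOn σ T := fun y hy y' hy' h => hinj hy hy' (L.symm.injective h)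
  have h1 := lintegral_image_eq_lintegral_abs_det_fderiv_mul μ hT hσd hσi (fun v => f (L v))
  have h2 : ∫⁻ z in τ '' T, f z ∂ν = c * ∫⁻ v in σ '' T, f (L v) ∂μ := by
    rw [hc, Measure.restrict_smul, lintegral_smul_measure]
    have hme : MeasurableEmbedding (L : V → W) := L.toHomeomorph.measurableEmbedding
    rw [hme.restrict_map, hme.lintegral_map]
    have h3 : (L : V → W) ⁻¹' (τ '' T) = σ '' T := by
      ext v
      constructor
      · rintro ⟨y, hy, h⟩
        exact ⟨y, hy, by show L.symm (τ y) = v; rw [h, L.symm_apply_apply]⟩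
      · rintro ⟨y, hy, h⟩
        exact ⟨y, hy, by
          rw [← h]
          show τ y = L (L.symm (τ y))
          rw [L.apply_symm_apply]⟩
    rw [h3]
    rfl
  rw [h2, h1, mul_assoc]
  refine mul_le_mul_right ?_ _
  have h4 : ∀ y ∈ T, ENNReal.ofReal |((L.symm : W →L[ℝ] V).comp (fderiv ℝ τ y)).det| *
      f (L (σ y)) ≤ (b : ℝ≥0∞) * f (τ y) := by
    intro y hy
    have h5 : L (σ y) = τ y := L.apply_symm_apply _
    rw [h5]
    refine mul_le_mul_left ?_ _
    rw [← ENNReal.ofReal_coe_nnreal]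
    exact ENNReal.ofReal_le_ofReal (hb y hy)
  refine (setLIntegral_mono' hT h4).trans ?_
  rw [lintegral_const_mul' _ _ ENNReal.coe_ne_top]

end cv

/-! ### the transfer inequality -/

section tr

variable [FiniteDimensional ℝ V] [MeasurableSpace V] [BorelSpace V]
  [FiniteDimensional ℝ W] [MeasurableSpace W] [BorelSpace W] [CompactSpace X] [T2Space X]
  {C : RCh V X} {C' : RCh W X}

/-- part of `K` which is seen in the cell `k` -/
def QQ (B : Bc C) (a : C'.ι) (K : Set W) (k : B.κ) : Set W :=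
  K ∩ (C'.e a).symm ⁻¹' ((C.e (B.i k)).symm '' closedBall (B.z k) (B.r k))

theorem isCompact_QQ (B : Bc C) {a : C'.ι} {K : Set W} (hK : IsCompact K)
    (hKt : K ⊆ (C'.e a).target) (k : B.κ) : IsCompact (QQ B a K k) := by
  have h1 : IsCompact ((C.e (B.i k)).symm '' closedBall (B.z k) (B.r k)) :=
    (isCompact_closedBall _ _).image_of_continuousOn
      ((C.e (B.i k)).continuousOn_symm.mono (B.sub k))
  have h2 : IsClosed (QQ B a K k) :=
    ((C'.e a).continuousOn_symm.mono hKt).preimage_isClosed_of_isClosed hK.isClosed h1.isClosed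
  exact hK.of_isClosed_subset h2 inter_subset_left

theorem QQ_sub (B : Bc C) {a : C'.ι} {K : Set W} (hKt : K ⊆ (C'.e a).target) (k : B.κ) :
    QQ B a K k ⊆ mov C C' (B.i k) a := by
  rintro z ⟨hz, y, hy, hyz⟩
  refine ⟨hKt hz, ?_⟩
  rw [← hyz]
  exact (C.e (B.i k)).map_target (B.sub k hy)

/-- **TRANSFER** -/
theorem transfer (hC : Cmp C C') (B : Bc C) (μ : Measure V) [μ.IsAddHaarMeasure] (ν : Measure W)
    [ν.IsAddHaarMeasure] (L : V ≃L[ℝ] W) (a : C'.ι) {K : Set W} (hK : IsCompact K)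
    (hKt : K ⊆ (C'.e a).target) :
    ∃ c : ℝ≥0, ∀ (f0 : W → ℝ≥0∞) (f : B.κ → V → ℝ≥0∞),
      (∀ k, ∀ z ∈ mov C C' (B.i k) a, z ∈ K → mt C C' (B.i k) a z ∈ closedBall (B.z k) (B.r k) →
        f0 z ≤ (1 + ‖fderiv ℝ (mt C C' (B.i k) a) z‖ₑ) ^ 2 * f k (mt C C' (B.i k) a z)) →
      ∫⁻ z in K, f0 z ∂ν ≤ c * ∑ k, ∫⁻ y in closedBall (B.z k) (B.r k), f k y ∂μ := by
  classical
  obtain ⟨c0, hc0⟩ := lintegral_image_le μ ν L
  -- bounds on the compact sets
  have hb1 : ∀ k, ∃ b : ℝ≥0, ∀ z ∈ QQ B a K k, ‖fderiv ℝ (mt C C' (B.i k) a) z‖ₑ ≤ b := by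
    intro k
    have h1 : ContinuousOn (fderiv ℝ (mt C C' (B.i k) a)) (mov C C' (B.i k) a) :=
      ((hC.s (B.i k) a).continuousOn_fderiv_of_isOpen (Cmp.isOpen_mov _ _ _ _) (by simp))
    obtain ⟨b, hb⟩ := (isCompact_QQ B hK hKt k).exists_bound_of_continuousOn
      (h1.mono (QQ_sub B hKt k))
    refine ⟨Real.toNNReal b, fun z hz => ?_⟩
    rw [← ofReal_norm]
    exact ENNReal.ofReal_le_ofReal (hb z hz)
  have hb2 : ∀ k, ∃ b : ℝ≥0, ∀ z ∈ QQ B a K k,
      |((L.symm : W →L[ℝ] V).comp (fderiv ℝ (mt C' C a (B.i k)) (mt C C' (B.i k) a z))).det| ≤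
        b := by
    intro k
    have h0 : ContinuousOn (fderiv ℝ (mt C' C a (B.i k))) (mov C' C a (B.i k)) :=
      ((hC.s' (B.i k) a).continuousOn_fderiv_of_isOpen (Cmp.isOpen_mov _ _ _ _) (by simp))
    have h1 : ContinuousOn (fun z => fderiv ℝ (mt C' C a (B.i k)) (mt C C' (B.i k) a z))
        (mov C C' (B.i k) a) :=
      h0.comp (hC.s (B.i k) a).continuousOn fun z hz => Cmp.mt_mem hz
    have h2 : ContinuousOn (fun z =>
        ((L.symm : W →L[ℝ] V).comp (fderiv ℝ (mt C' C a (B.i k)) (mt C C' (B.i k) a z))).det)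
        (mov C C' (B.i k) a) :=
      ContinuousLinearMap.continuous_det.comp_continuousOn (continuousOn_const.clm_comp h1)
    obtain ⟨b, hb⟩ := (isCompact_QQ B hK hKt k).exists_bound_of_continuousOn
      (h2.mono (QQ_sub B hKt k))
    refine ⟨Real.toNNReal b, fun z hz => ?_⟩
    exact (hb z hz).trans (Real.le_coe_toNNReal b)
  choose b1 hb1 using hb1
  choose b2 hb2 using hb2
  refine ⟨c0 * ∑ k, b2 k * (1 + b1 k) ^ 2, fun f0 f hf => ?_⟩
  -- the pieces
  set S : B.κ → Set W := fun k =>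
    K ∩ (mov C C' (B.i k) a ∩ mt C C' (B.i k) a ⁻¹' ball (B.z k) (B.r k)) with hS
  have hopen : ∀ k, IsOpen (mov C C' (B.i k) a ∩ mt C C' (B.i k) a ⁻¹' ball (B.z k) (B.r k)) :=
    fun k => (hC.s (B.i k) a).continuousOn.isOpen_inter_preimage (Cmp.isOpen_mov _ _ _ _)
      isOpen_ball
  have hSm : ∀ k, MeasurableSet (S k) := fun k => hK.measurableSet.inter (hopen k).measurableSet
  have hSQ : ∀ k, S k ⊆ QQ B a K k := by
    rintro k z ⟨hz, hz1, hz2⟩
    refine ⟨hz, ?_⟩
    refine ⟨mt C C' (B.i k) a z, ball_subset_closedBall hz2, ?_⟩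
    exact (C.e (B.i k)).left_inv hz1.2
  have hcov : K ⊆ ⋃ k, S k := by
    intro z hz
    obtain ⟨k, hk1, hk2⟩ := B.cov ((C'.e a).symm z)
    exact mem_iUnion.2 ⟨k, hz, ⟨hKt hz, hk1⟩, hk2⟩
  have h1 : ∫⁻ z in K, f0 z ∂ν ≤ ∑ k, ∫⁻ z in S k, f0 z ∂ν := by
    refine (lintegral_mono_set hcov).trans ?_
    refine (lintegral_iUnion_le S f0).trans ?_
    rw [tsum_fintype]
  refine h1.trans ?_
  have h2 : ∀ k, ∫⁻ z in S k, f0 z ∂ν ≤
      (c0 * (b2 k * (1 + b1 k) ^ 2) : ℝ≥0) * ∫⁻ y in closedBall (B.z k) (B.r k), f k y ∂μ := by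
    intro k
    set τ := mt C' C a (B.i k) with hτ
    set T : Set V := mt C C' (B.i k) a '' S k with hT
    have hTeq : T = (mov C' C a (B.i k) ∩ ball (B.z k) (B.r k)) ∩ τ ⁻¹' K := by
      ext y
      constructor
      · rintro ⟨z, ⟨hz, hz1, hz2⟩, rfl⟩
        refine ⟨⟨Cmp.mt_mem hz1, hz2⟩, ?_⟩
        show mt C' C a (B.i k) (mt C C' (B.i k) a z) ∈ K
        rw [Cmp.mt_mt hz1]
        exact hz
      · rintro ⟨⟨hy1, hy2⟩, hy3⟩
        have h5 : mt C C' (B.i k) a (τ y) = y := Cmp.mt_mt (C := C') (C' := C) hy1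
        refine ⟨τ y, ⟨hy3, Cmp.mt_mem (C := C') (C' := C) hy1, ?_⟩, h5⟩
        show mt C C' (B.i k) a (τ y) ∈ ball (B.z k) (B.r k)
        rw [h5]
        exact hy2
    have hO : IsOpen (mov C' C a (B.i k) ∩ ball (B.z k) (B.r k)) :=
      (Cmp.isOpen_mov _ _ _ _).inter isOpen_ball
    have hτc : ContinuousOn τ (mov C' C a (B.i k) ∩ ball (B.z k) (B.r k)) :=
      (hC.s' (B.i k) a).continuousOn.mono inter_subset_left
    have hTm : MeasurableSet T := by
      rw [hTeq]
      obtain ⟨u, hu, hu2⟩ := (continuousOn_iff_isClosed.1 hτc) K hK.isClosed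
      rw [inter_comm, hu2]
      exact hu.measurableSet.inter hO.measurableSet
    have hTsub : T ⊆ mov C' C a (B.i k) := by
      rw [hTeq]; exact inter_subset_left.trans inter_subset_left
    have hTball : T ⊆ closedBall (B.z k) (B.r k) := by
      rw [hTeq]
      exact inter_subset_left.trans (inter_subset_right.trans ball_subset_closedBall)
    have himg : τ '' T = S k := by
      rw [hT, image_image]
      have : ∀ z ∈ S k, mt C' C a (B.i k) (mt C C' (B.i k) a z) = z := fun z hz =>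
        Cmp.mt_mt hz.2.1
      exact (image_congr this).trans (image_id _)
    have hinj : InjOn τ T := by
      intro y hy y' hy' h
      have e1 : mt C C' (B.i k) a (τ y) = y := Cmp.mt_mt (C := C') (C' := C) (hTsub hy)
      have e2 : mt C C' (B.i k) a (τ y') = y' := Cmp.mt_mt (C := C') (C' := C) (hTsub hy')
      rw [← e1, h, e2]
    have hQ : ∀ y ∈ T, τ y ∈ S k := fun y hy => himg ▸ mem_image_of_mem τ hy
    have h6 := hc0 T τ (b2 k) hTm (fun y hy => hC.symm.diff (hTsub hy)) hinj (by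
      intro y hy
      have h7 := hb2 k (τ y) (hSQ k (hQ y hy))
      have h8 : mt C C' (B.i k) a (τ y) = y := Cmp.mt_mt (C := C') (C' := C) (hTsub hy)
      rw [h8] at h7
      exact h7) f0
    rw [himg] at h6
    refine h6.trans ?_
    have h9 : ∫⁻ y in T, f0 (τ y) ∂μ ≤ ((1 + b1 k) ^ 2 : ℝ≥0) *
        ∫⁻ y in closedBall (B.z k) (B.r k), f k y ∂μ := by
      have h10 : ∀ y ∈ T, f0 (τ y) ≤ ((1 + b1 k) ^ 2 : ℝ≥0) * f k y := by
        intro y hy
        have h8 : mt C C' (B.i k) a (τ y) = y := Cmp.mt_mt (C := C') (C' := C) (hTsub hy)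
        have h11 := hf k (τ y) (hQ y hy).2.1 (hQ y hy).1 (by rw [h8]; exact hTball hy)
        rw [h8] at h11
        refine h11.trans (mul_le_mul_left ?_ _)
        have h12 := hb1 k (τ y) (hSQ k (hQ y hy))
        push_cast
        gcongr
      refine (setLIntegral_mono' hTm h10).trans ?_
      rw [lintegral_const_mul' _ _ ENNReal.coe_ne_top]
      gcongr
    calc (c0 : ℝ≥0∞) * b2 k * ∫⁻ y in T, f0 (τ y) ∂μ
        ≤ c0 * b2 k * (((1 + b1 k) ^ 2 : ℝ≥0) *
          ∫⁻ y in closedBall (B.z k) (B.r k), f k y ∂μ) := by gcongr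
      _ = _ := by
        push_cast
        ring
  refine (Finset.sum_le_sum fun k _ => h2 k).trans ?_
  rw [Finset.mul_sum]
  refine Finset.sum_le_sum fun k _ => ?_
  refine mul_le_mul_left ?_ _
  refine ENNReal.coe_le_coe.2 (mul_le_mul_right ?_ _)
  exact Finset.single_le_sum (f := fun k => b2 k * (1 + b1 k) ^ 2) (fun _ _ => zero_le)
    (Finset.mem_univ k)

end tr

end

end Crest.Agent.R281.Hy_409
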