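import Mathlib

/-!
# R281 (S0424), H0-OP, second road (helper409), part 2: Garding with frozen coefficients

`w : V → ℂ` smooth with compact support:

* `frozen`   : `∫ ‖∂_v w + i ∂_v' w‖² = ∫ ‖∂_v w‖² + ∫ ‖∂_v' w‖²` (constant `v, v'`)
* `garding0` : `∫ ‖dw‖² ≤ K ∫ ‖dw + i dw ∘ J‖²` if `‖J - J0‖ ≤ η` on the support of `w`
-/

set_option autoImplicit false
set_option linter.unusedSectionVars false

open Set Filter Topology MeasureTheory Metric Complex
open scoped ContDiff ENNReal NNReal ComplexConjugate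

namespace Crest.Agent.R281.Hy_409

noncomputable section

section alg

variable {V : Type} [NormedAddCommGroup V] [NormedSpace ℝ V]

/-- the operator `dw + i dw ∘ J` -/
def dbJ (T : V →L[ℝ] ℂ) (J : V →L[ℝ] V) : V →L[ℝ] ℂ := T + I • T.comp J

@[simp] theorem dbJ_apply (T : V →L[ℝ] ℂ) (J : V →L[ℝ] V) (v : V) :
    dbJ T J v = T v + I * T (J v) := rfl

theorem dbJ_add (T T' : V →L[ℝ] ℂ) (J : V →L[ℝ] V) : dbJ (T + T') J = dbJ T J + dbJ T' J := by
  ext v
  simp only [dbJ_apply, add_apply]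
  ring

theorem dbJ_smul (c : ℂ) (T : V →L[ℝ] ℂ) (J : V →L[ℝ] V) : dbJ (c • T) J = c • dbJ T J := by
  ext v
  simp only [dbJ_apply, smul_apply, smul_eq_mul]
  ring

theorem dbJ_cont {T : V → V →L[ℝ] ℂ} {J : V → V →L[ℝ] V} {S : Set V} (hT : ContinuousOn T S)
    (hJ : ContinuousOn J S) : ContinuousOn (fun z => dbJ (T z) (J z)) S :=
  hT.add ((hT.clm_comp hJ).const_smul Complex.I)

end alg

variable {V : Type} [NormedAddCommGroup V] [NormedSpace ℝ V] [FiniteDimensional ℝ V]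
  [MeasurableSpace V] [BorelSpace V] (μ : Measure V) [μ.IsAddHaarMeasure]

theorem dir_cont {w : V → ℂ} (hw : ContDiff ℝ ∞ w) (v : V) :
    Continuous fun x => fderiv ℝ w x v :=
  (hw.continuous_fderiv (by simp)).clm_apply continuous_const

theorem dir_supp {w : V → ℂ} (hc : HasCompactSupport w) (v : V) :
    HasCompactSupport fun x => fderiv ℝ w x v :=
  (hc.fderiv ℝ).comp_left (g := fun T : V →L[ℝ] ℂ => T v) (by simp)

theorem sq_int {E : Type*} [NormedAddCommGroup E] {f : V → E} (hf : Continuous f)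
    (hc : HasCompactSupport f) : Integrable (fun x => ‖f x‖ ^ 2) μ := by
  have h1 : Continuous fun x => ‖f x‖ ^ 2 := hf.norm.pow 2
  have h2 : HasCompactSupport fun x => ‖f x‖ ^ 2 := by
    refine hc.mono' ?_
    intro x hx
    refine subset_tsupport _ ?_
    intro h
    apply hx
    simp [h]
  exact h1.integrable_of_hasCompactSupport h2

theorem lint_sq {E : Type*} [NormedAddCommGroup E] {f : V → E} (hf : Continuous f)
    (hc : HasCompactSupport f) :
    ∫⁻ x, ‖f x‖ₑ ^ 2 ∂μ = ENNReal.ofReal (∫ x, ‖f x‖ ^ 2 ∂μ) := by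
  rw [ofReal_integral_eq_lintegral_ofReal (sq_int μ hf hc)
    (Eventually.of_forall fun x => by positivity)]
  refine lintegral_congr fun x => ?_
  rw [ENNReal.ofReal_pow (norm_nonneg _), ofReal_norm]

/-- the mixed integral is real -/
theorem im_zero {w : V → ℂ} (hw : ContDiff ℝ ∞ w) (hc : HasCompactSupport w) (v v' : V) :
    (∫ x, fderiv ℝ w x v * conj (fderiv ℝ w x v') ∂μ).im = 0 := by
  have hd : ∀ x, DifferentiableAt ℝ w x := fun x => (hw.differentiable (by simp)) x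
  have hd2 : ContDiff ℝ ∞ (fderiv ℝ w) := hw.fderiv_right (by simp)
  have hdir : ∀ u : V, ContDiff ℝ ∞ fun x => fderiv ℝ w x u := fun u =>
    hd2.clm_apply contDiff_const
  -- integration by parts
  have key : ∀ u u' : V, ∫ x, fderiv ℝ w x u * conj (fderiv ℝ w x u') ∂μ =
      -∫ x, w x * conj (fderiv ℝ (fderiv ℝ w) x u u') ∂μ := by
    intro u u'
    set g : V → ℂ := fun x => conj (fderiv ℝ w x u') with hg
    have hgd : ContDiff ℝ ∞ g := conjCLE.contDiff.comp (hdir u')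
    have hg' : ∀ x, fderiv ℝ g x u = conj (fderiv ℝ (fderiv ℝ w) x u u') := by
      intro x
      have h1 : HasFDerivAt (fun x => fderiv ℝ w x u') _ x :=
        ((hd2.differentiable (by simp)) x).hasFDerivAt.clm_apply (hasFDerivAt_const u' x)
      have h2 : HasFDerivAt g ((conjCLE : ℂ →L[ℝ] ℂ).comp _) x :=
        (conjCLE : ℂ →L[ℝ] ℂ).hasFDerivAt.comp x h1
      rw [h2.fderiv]
      simp
    have hgc : HasCompactSupport g := (dir_supp hc u').comp_left (g := conj) (by simp)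
    have h3 := integral_mul_fderiv_eq_neg_fderiv_mul_of_integrable (μ := μ) (f := g) (g := w)
      (v := u) ?_ ?_ ?_ (fun x _ => (hgd.differentiable (by simp)) x)
      (fun x _ => (hw.differentiable (by simp)) x)
    · have h4 : ∀ x, fderiv ℝ w x u * conj (fderiv ℝ w x u') = g x * fderiv ℝ w x u := fun x =>
        mul_comm _ _
      simp_rw [h4]
      rw [h3]
      congr 1
      refine integral_congr_ae (Eventually.of_forall fun x => ?_)
      simp only [hg']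
      ring
    · exact ((dir_cont hgd u).mul hw.continuous).integrable_of_hasCompactSupport
        (hc.mul_left)
    · exact (hgd.continuous.mul (dir_cont hw u)).integrable_of_hasCompactSupport
        (hgc.mul_right)
    · exact (hgd.continuous.mul hw.continuous).integrable_of_hasCompactSupport
        (hgc.mul_right)
  have hsym : ∀ x, fderiv ℝ (fderiv ℝ w) x v v' = fderiv ℝ (fderiv ℝ w) x v' v := fun x =>
    (hw.contDiffAt.isSymmSndFDerivAt (by
      rw [minSmoothness_of_isRCLikeNormedField]; exact WithTop.coe_le_coe.2 le_top)) v v'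
  have h1 : ∫ x, fderiv ℝ w x v * conj (fderiv ℝ w x v') ∂μ =
      ∫ x, fderiv ℝ w x v' * conj (fderiv ℝ w x v) ∂μ := by
    rw [key, key]
    simp_rw [hsym]
  have h2 : conj (∫ x, fderiv ℝ w x v * conj (fderiv ℝ w x v') ∂μ) =
      ∫ x, fderiv ℝ w x v' * conj (fderiv ℝ w x v) ∂μ := by
    rw [← integral_conj]
    refine integral_congr_ae (Eventually.of_forall fun x => ?_)
    simp only [map_mul, conj_conj]
    ring
  rw [← h1] at h2
  exact Complex.conj_eq_iff_im.1 h2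

theorem norm_sq_add_I (a b : ℂ) :
    ‖a + I * b‖ ^ 2 = ‖a‖ ^ 2 + ‖b‖ ^ 2 + 2 * (a * conj b).im := by
  rw [← Complex.normSq_eq_norm_sq, ← Complex.normSq_eq_norm_sq, ← Complex.normSq_eq_norm_sq]
  simp only [Complex.normSq_apply, Complex.add_re, Complex.add_im, Complex.mul_re, Complex.mul_im,
    Complex.I_re, Complex.I_im, Complex.conj_re, Complex.conj_im]
  ring

/-- **constant coefficients** -/
theorem frozen {w : V → ℂ} (hw : ContDiff ℝ ∞ w) (hc : HasCompactSupport w) (v v' : V) :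
    ∫ x, ‖fderiv ℝ w x v + I * fderiv ℝ w x v'‖ ^ 2 ∂μ =
      ∫ x, ‖fderiv ℝ w x v‖ ^ 2 ∂μ + ∫ x, ‖fderiv ℝ w x v'‖ ^ 2 ∂μ := by
  have i1 : ∀ u : V, Integrable (fun x => ‖fderiv ℝ w x u‖ ^ 2) μ := fun u =>
    sq_int μ (dir_cont hw u) (dir_supp hc u)
  have i2 : Integrable (fun x => fderiv ℝ w x v * conj (fderiv ℝ w x v')) μ :=
    ((dir_cont hw v).mul (continuous_conj.comp (dir_cont hw v'))).integrable_of_hasCompactSupport
      (dir_supp hc v).mul_right
  have i3 : Integrable (fun x => 2 * (fderiv ℝ w x v * conj (fderiv ℝ w x v')).im) μ :=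
    i2.im.const_mul 2
  have i4 : Integrable (fun x => ‖fderiv ℝ w x v‖ ^ 2 + ‖fderiv ℝ w x v'‖ ^ 2) μ :=
    (i1 v).add (i1 v')
  simp_rw [norm_sq_add_I]
  rw [integral_add i4 i3, integral_add (i1 v) (i1 v'), integral_const_mul]
  have h1 : ∫ x, (fderiv ℝ w x v * conj (fderiv ℝ w x v')).im ∂μ =
      (∫ x, fderiv ℝ w x v * conj (fderiv ℝ w x v') ∂μ).im := integral_im i2
  rw [h1, im_zero μ hw hc]
  ring

theorem frozen_le {w : V → ℂ} (hw : ContDiff ℝ ∞ w) (hc : HasCompactSupport w) (v v' : V) :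
    ∫⁻ x, ‖fderiv ℝ w x v‖ₑ ^ 2 ∂μ ≤ ∫⁻ x, ‖fderiv ℝ w x v + I * fderiv ℝ w x v'‖ₑ ^ 2 ∂μ := by
  have h1 : Continuous fun x => fderiv ℝ w x v + I * fderiv ℝ w x v' :=
    (dir_cont hw v).add (continuous_const.mul (dir_cont hw v'))
  have h2 : HasCompactSupport fun x => fderiv ℝ w x v + I * fderiv ℝ w x v' :=
    (dir_supp hc v).add (dir_supp hc v').mul_left
  rw [lint_sq μ (dir_cont hw v) (dir_supp hc v), lint_sq μ h1 h2, frozen μ hw hc]
  refine ENNReal.ofReal_le_ofReal (le_add_of_nonneg_right ?_)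
  exact integral_nonneg fun x => by positivity

theorem sq_add_le (a b : ℝ≥0∞) : (a + b) ^ 2 ≤ 2 * a ^ 2 + 2 * b ^ 2 := by
  have h := ENNReal.rpow_add_le_mul_rpow_add_rpow a b (p := 2) (by norm_num)
  norm_num at h
  rw [mul_add] at h
  exact h

/-- **Garding inequality with almost constant coefficients** -/
theorem garding0 : ∃ K : ℝ≥0, ∃ η : ℝ, 0 < η ∧ ∀ (J : V → V →L[ℝ] V) (J0 : V →L[ℝ] V) (w : V → ℂ),
    ContDiff ℝ ∞ w → HasCompactSupport w → (∀ y ∈ tsupport w, ‖J y - J0‖ ≤ η) →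
    ∫⁻ x, ‖fderiv ℝ w x‖ₑ ^ 2 ∂μ ≤ K * ∫⁻ x, ‖dbJ (fderiv ℝ w x) (J x)‖ₑ ^ 2 ∂μ := by
  classical
  set d := Module.finrank ℝ V with hd
  set b : Module.Basis (Fin d) ℝ V := Module.finBasis ℝ V with hb
  -- operator norm against the basis
  obtain ⟨Cb, hCb⟩ : ∃ Cb : ℝ≥0, ∀ T : V →L[ℝ] ℂ, ‖T‖ₑ ^ 2 ≤ Cb * ∑ a, ‖T (b a)‖ₑ ^ 2 := by
    obtain ⟨C, hC0, hC⟩ := b.exists_opNorm_le (F := ℂ)
    refine ⟨(Real.toNNReal C) ^ 2, fun T => ?_⟩
    have h1 : ‖T‖ ≤ C * √(∑ a, ‖T (b a)‖ ^ 2) := by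
      refine hC (Real.sqrt_nonneg _) fun a => ?_
      refine Real.le_sqrt_of_sq_le ?_
      exact Finset.single_le_sum (f := fun a => ‖T (b a)‖ ^ 2) (fun _ _ => by positivity)
        (Finset.mem_univ a)
    have h2 : ‖T‖ ^ 2 ≤ C ^ 2 * ∑ a, ‖T (b a)‖ ^ 2 := by
      have h3 := pow_le_pow_left₀ (norm_nonneg _) h1 2
      rwa [mul_pow, Real.sq_sqrt (Finset.sum_nonneg fun _ _ => by positivity)] at h3
    have h3 := ENNReal.ofReal_le_ofReal h2
    rw [ENNReal.ofReal_mul (by positivity), ENNReal.ofReal_pow (norm_nonneg _), ofReal_norm,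
      ENNReal.ofReal_pow hC0.le, ENNReal.ofReal_sum_of_nonneg (fun _ _ => by positivity)] at h3
    refine h3.trans (le_of_eq ?_)
    push_cast
    congr 1
    exact Finset.sum_congr rfl fun a _ => by rw [ENNReal.ofReal_pow (norm_nonneg _), ofReal_norm]
  set S : ℝ≥0 := ∑ a, ‖b a‖₊ ^ 2 with hS
  set K0 : ℝ≥0 := 2 * Cb * S with hK0
  -- choice of eta
  obtain ⟨η, hη, hKη⟩ : ∃ η : ℝ≥0, 0 < η ∧ K0 * η ^ 2 ≤ 1 / 2 := by
    refine ⟨1 / (2 * K0 + 2), by positivity, ?_⟩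
    have h1 : (0 : ℝ≥0) < 2 * K0 + 2 := by positivity
    rw [← NNReal.coe_le_coe]
    push_cast
    have h2 : (0 : ℝ) ≤ (K0 : ℝ) := K0.2
    rw [div_pow, one_pow, mul_one_div, div_le_iff₀ (by positivity)]
    nlinarith
  refine ⟨2 * K0, η, by exact_mod_cast hη, fun J J0 w hw hc hJ => ?_⟩
  set A := ∫⁻ x, ‖fderiv ℝ w x‖ₑ ^ 2 ∂μ with hA
  set Bq := ∫⁻ x, ‖dbJ (fderiv ℝ w x) (J x)‖ₑ ^ 2 ∂μ with hBq
  have hmeas : Measurable fun x => ‖fderiv ℝ w x‖ₑ ^ 2 :=
    ((hw.continuous_fderiv (by simp)).enorm.measurable).pow_const 2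
  have hAfin : A ≠ ⊤ := by
    rw [hA, lint_sq μ (hw.continuous_fderiv (by simp)) (hc.fderiv ℝ)]
    exact ENNReal.ofReal_ne_top
  -- one direction
  have h1 : ∀ a, ∫⁻ x, ‖fderiv ℝ w x (b a)‖ₑ ^ 2 ∂μ ≤
      2 * (‖b a‖₊ ^ 2 : ℝ≥0) * Bq + 2 * (‖b a‖₊ ^ 2 : ℝ≥0) * η ^ 2 * A := by
    intro a
    refine (frozen_le μ hw hc (b a) (J0 (b a))).trans ?_
    have h2 : ∀ x, ‖fderiv ℝ w x (b a) + I * fderiv ℝ w x (J0 (b a))‖ₑ ^ 2 ≤
        2 * (‖b a‖₊ ^ 2 : ℝ≥0) * ‖dbJ (fderiv ℝ w x) (J x)‖ₑ ^ 2 +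
          2 * (‖b a‖₊ ^ 2 : ℝ≥0) * η ^ 2 * ‖fderiv ℝ w x‖ₑ ^ 2 := by
      intro x
      by_cases hx : x ∈ tsupport w
      · have e1 : fderiv ℝ w x (b a) + I * fderiv ℝ w x (J0 (b a)) =
            dbJ (fderiv ℝ w x) (J x) (b a) - I * fderiv ℝ w x ((J x - J0) (b a)) := by
          rw [dbJ_apply, sub_apply, map_sub]
          ring
        rw [e1]
        have e2 : ‖dbJ (fderiv ℝ w x) (J x) (b a) - I * fderiv ℝ w x ((J x - J0) (b a))‖ₑ ≤
            ‖dbJ (fderiv ℝ w x) (J x)‖ₑ * ‖b a‖ₑ + ‖fderiv ℝ w x‖ₑ * (η * ‖b a‖ₑ) := by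
          refine enorm_sub_le.trans (add_le_add (ContinuousLinearMap.le_opENorm _ _) ?_)
          rw [enorm_mul]
          have e3 : ‖I‖ₑ = 1 := by rw [← ofReal_norm, norm_I, ENNReal.ofReal_one]
          rw [e3, one_mul]
          refine (ContinuousLinearMap.le_opENorm _ _).trans ?_
          gcongr
          refine (ContinuousLinearMap.le_opENorm _ _).trans ?_
          gcongr
          rw [← ofReal_norm, ← ENNReal.ofReal_coe_nnreal]
          exact ENNReal.ofReal_le_ofReal (hJ x hx)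
        refine (pow_le_pow_left' e2 2).trans ((sq_add_le _ _).trans (le_of_eq ?_))
        rw [mul_pow, mul_pow, mul_pow]
        push_cast
        simp only [enorm_eq_nnnorm]
        ring
      · have e1 : fderiv ℝ w x = 0 := by
          by_contra h
          exact hx (support_fderiv_subset ℝ h)
        rw [e1]
        simp
    refine (lintegral_mono h2).trans ?_
    rw [lintegral_add_right _ (hmeas.const_mul _)]
    refine add_le_add ?_ ?_
    · rw [lintegral_const_mul']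
      exact ENNReal.mul_ne_top (by norm_num) ENNReal.coe_ne_top
    · rw [lintegral_const_mul _ hmeas]
  have h3 : A ≤ Cb * ∑ a, ∫⁻ x, ‖fderiv ℝ w x (b a)‖ₑ ^ 2 ∂μ := by
    have hm : ∀ a, Measurable fun x => ‖fderiv ℝ w x (b a)‖ₑ ^ 2 := fun a =>
      (dir_cont hw (b a)).enorm.measurable.pow_const 2
    rw [← lintegral_finsetSum _ fun a _ => hm a, ← lintegral_const_mul' _ _ ENNReal.coe_ne_top]
    exact lintegral_mono fun x => hCb _
  have h4 : A ≤ K0 * Bq + A / 2 := by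
    refine h3.trans ?_
    calc (Cb : ℝ≥0∞) * ∑ a, ∫⁻ x, ‖fderiv ℝ w x (b a)‖ₑ ^ 2 ∂μ
        ≤ Cb * ∑ a, (2 * (‖b a‖₊ ^ 2 : ℝ≥0) * Bq + 2 * (‖b a‖₊ ^ 2 : ℝ≥0) * η ^ 2 * A) := by
          gcongr with a
          exact h1 a
      _ = K0 * Bq + (K0 * η ^ 2 : ℝ≥0) * A := by
          rw [Finset.sum_add_distrib, hK0, hS]
          push_cast
          simp only [← Finset.sum_mul, ← Finset.mul_sum]
          ring
      _ ≤ K0 * Bq + A / 2 := by
          gcongr
          have h5 : ((K0 * η ^ 2 : ℝ≥0) : ℝ≥0∞) ≤ ((1 / 2 : ℝ≥0) : ℝ≥0∞) :=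
            ENNReal.coe_le_coe.2 hKη
          rw [ENNReal.div_eq_inv_mul]
          refine mul_le_mul_left (h5.trans (le_of_eq ?_)) _
          simp
  have h5 : A / 2 + A / 2 ≤ K0 * Bq + A / 2 := by rwa [ENNReal.add_halves]
  have h6 : A / 2 ≤ K0 * Bq :=
    (ENNReal.add_le_add_iff_right (ENNReal.div_ne_top hAfin (by norm_num))).1 h5
  calc A = 2 * (A / 2) := by rw [two_mul, ENNReal.add_halves]
    _ ≤ 2 * (K0 * Bq) := by gcongr
    _ = _ := by push_cast; ring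

end

end Crest.Agent.R281.Hy_409
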