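import Crest.Agent.R281.Hy1_409
import Crest.Agent.R281.Hy2_409

/-!
# R281 (S0424), H0-OP, second road (helper409), part 3: GARDING for sections

* `DL s i z`  : covariant derivative as an element of `V →L[ℝ] ℂ`
* `N0, N1, NJ`: `∑ₖ ∫⁻` over the cells of `‖u‖²`, `‖Du‖²`, `‖Du + i Du ∘ J‖²`
* `refine_bc` : refinement of a family of cells
* `garding`   : `N1 s ≤ c (NJ s + N0 s)` for every continuous field `J`
-/

set_option autoImplicit false
set_option linter.unusedSectionVars false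
set_option maxSynthPendingDepth 3

open Set Filter Topology MeasureTheory Metric
open scoped ContDiff ENNReal NNReal

namespace Crest.Agent.R281.Hy_409

open Crest.Agent.R281.HkR_835 Crest.Agent.R281.Ti_846 Crest.Agent.R281.PL_713

noncomputable section

variable {V X : Type} [NormedAddCommGroup V] [NormedSpace ℝ V] [TopologicalSpace X] {C : RCh V X}

/-- a real covector as a complex valued one -/
def cof (a : V →L[ℝ] ℝ) : V →L[ℝ] ℂ := Complex.ofRealCLM.comp a

@[simp] theorem cof_apply (a : V →L[ℝ] ℝ) (v : V) : cof a v = ((a v : ℝ) : ℂ) := rfl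

/-- covariant derivative -/
def DL {L : PL C} (s : Sec L) (i : C.ι) (z : V) : V →L[ℝ] ℂ :=
  fderiv ℝ (s.u i) z + (Complex.I * s.u i z) • cof (L.th i z)

theorem DL_apply {L : PL C} (s : Sec L) (i : C.ι) (z v : V) : DL s i z v = s.D i z v := by
  show fderiv ℝ (s.u i) z v + (Complex.I * s.u i z) • ((L.th i z v : ℝ) : ℂ) = _
  rw [Sec.D, smul_eq_mul]
  ring

theorem db_eq {L : PL C} (s : Sec L) (J : C.ι → V → V →L[ℝ] V) (i : C.ι) (z v : V) :
    dbJ (DL s i z) (J i z) v = s.db J i z v := by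
  rw [dbJ_apply, DL_apply, DL_apply]
  rfl

theorem cof_cont {f : V → V →L[ℝ] ℝ} {S : Set V} (hf : ContinuousOn f S) :
    ContinuousOn (fun z => cof (f z)) S :=
  continuousOn_const.clm_comp hf

theorem DL_cont {L : PL C} (s : Sec L) (i : C.ι) : ContinuousOn (DL s i) (C.e i).target := by
  have h1 : ContinuousOn (fderiv ℝ (s.u i)) (C.e i).target :=
    (s.sm i).continuousOn_fderiv_of_isOpen (C.e i).open_target (by simp)
  exact h1.add ((continuousOn_const.mul (s.sm i).continuousOn).smul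
    (cof_cont (L.th_sm i).continuousOn))

theorem DL_add {L : PL C} (s t : Sec L) {i : C.ι} {z : V} (hz : z ∈ (C.e i).target) :
    DL (s + t) i z = DL s i z + DL t i z := by
  ext v
  rw [add_apply, DL_apply, DL_apply, DL_apply, Sec.D_add s t hz]

theorem DL_smul {L : PL C} (c : ℂ) (s : Sec L) {i : C.ι} {z : V} (hz : z ∈ (C.e i).target) :
    DL (c • s) i z = c • DL s i z := by
  ext v
  rw [smul_apply, DL_apply, DL_apply, Sec.D_smul c s hz, smul_eq_mul]

theorem DL_sub {L : PL C} (s t : Sec L) {i : C.ι} {z : V} (hz : z ∈ (C.e i).target) :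
    DL (s - t) i z = DL s i z - DL t i z := by
  have h1 : s - t = s + (-1 : ℂ) • t := by rw [neg_one_smul, sub_eq_add_neg]
  rw [h1, DL_add _ _ hz, DL_smul _ _ hz, neg_one_smul, sub_eq_add_neg]

theorem u_norm_tr {L : PL C} (s : Sec L) {i j : C.ι} {z : V} (hz : z ∈ C.ov i j) :
    ‖s.u i z‖ = ‖s.u j (C.t i j z)‖ := by
  rw [s.tr i j z hz, norm_mul, L.unit i j z hz, one_mul]

theorem DL_norm_tr {L : PL C} (s : Sec L) {i j : C.ι} {z : V} (hz : z ∈ C.ov i j) :
    ‖DL s i z‖ ≤ ‖DL s j (C.t i j z)‖ * ‖fderiv ℝ (C.t i j) z‖ := by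
  refine ContinuousLinearMap.opNorm_le_bound _ (by positivity) fun v => ?_
  rw [DL_apply, s.D_tr hz, norm_mul, L.unit i j z hz, one_mul, ← DL_apply, mul_assoc]
  exact (ContinuousLinearMap.le_opNorm _ _).trans
    (mul_le_mul_of_nonneg_left (ContinuousLinearMap.le_opNorm _ _) (norm_nonneg _))

section norms

variable [MeasurableSpace V] (B : Bc C) (μ : Measure V) {L : PL C}

/-- `L²` norm squared over the cells -/
def N0 (s : Sec L) : ℝ≥0∞ := ∑ k, ∫⁻ z in closedBall (B.z k) (B.r k), ‖s.u (B.i k) z‖ₑ ^ 2 ∂μ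

/-- `L²` norm squared of the covariant derivative -/
def N1 (s : Sec L) : ℝ≥0∞ := ∑ k, ∫⁻ z in closedBall (B.z k) (B.r k), ‖DL s (B.i k) z‖ₑ ^ 2 ∂μ

/-- `L²` norm squared of `Du + i Du ∘ J` -/
def NJ (J : C.ι → V → V →L[ℝ] V) (s : Sec L) : ℝ≥0∞ :=
  ∑ k, ∫⁻ z in closedBall (B.z k) (B.r k), ‖dbJ (DL s (B.i k) z) (J (B.i k) z)‖ₑ ^ 2 ∂μ

end norms

/-! ### refinement -/

section ref

variable [CompactSpace X]

theorem refine_bc (B : Bc C) (P : B.κ → V → ℝ → Prop)
    (hP : ∀ k, ∀ z ∈ ball (B.z k) (B.r k), ∃ δ > 0,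
      closedBall z (2 * δ) ⊆ ball (B.z k) (B.r k) ∧ P k z δ) :
    ∃ (B' : Bc C) (q : B'.κ → B.κ), (∀ k, B'.i k = B.i (q k)) ∧
      (∀ k, closedBall (B'.z k) (2 * B'.r k) ⊆ ball (B.z (q k)) (B.r (q k))) ∧
      (∀ k, 0 < B'.r k) ∧ ∀ k, P (q k) (B'.z k) (B'.r k) := by
  classical
  choose k hk1 hk2 using B.cov
  have h := fun x => hP (k x) (C.e (B.i (k x)) x) (hk2 x)
  choose δ hδ hsub hPδ using h
  have hopen : ∀ x, IsOpen ((C.e (B.i (k x))).source ∩
      C.e (B.i (k x)) ⁻¹' ball (C.e (B.i (k x)) x) (δ x)) := fun x =>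
    (C.e (B.i (k x))).isOpen_inter_preimage isOpen_ball
  obtain ⟨T, hT⟩ := isCompact_univ.elim_finite_subcover _ hopen
    (fun x _ => mem_iUnion.2 ⟨x, hk1 x, mem_ball_self (hδ x)⟩)
  refine ⟨{ κ := T, fin := inferInstance, i := fun x => B.i (k x),
            z := fun x => C.e (B.i (k x)) x, r := fun x => δ x,
            sub := fun x => ?_, cov := fun x => ?_ }, fun x => k x, fun x => rfl,
            fun x => hsub x, fun x => hδ x, fun x => hPδ x⟩
  · have h1 := hsub x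
    have h2 := hδ (x : X)
    refine (closedBall_subset_closedBall (by linarith)).trans (h1.trans ?_)
    exact ball_subset_closedBall.trans (B.sub _)
  · have h1 := hT (mem_univ x)
    rw [mem_iUnion₂] at h1
    obtain ⟨y, hy, hxy1, hxy2⟩ := h1
    exact ⟨⟨y, hy⟩, hxy1, hxy2⟩

end ref

/-! ### one chart -/

section one

variable [FiniteDimensional ℝ V] [MeasurableSpace V] [BorelSpace V] (μ : Measure V)
  [μ.IsAddHaarMeasure]

/-- cut-off of a function smooth near the support of the bump function -/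
theorem cut_smooth {z0 : V} (χ : ContDiffBump z0) {u : V → ℂ} {O : Set V} (hO : IsOpen O)
    (hu : ContDiffOn ℝ ∞ u O) (hs : closedBall z0 χ.rOut ⊆ O) :
    ContDiff ℝ ∞ fun z => (χ z : ℂ) * u z := by
  rw [contDiff_iff_contDiffAt]
  intro z
  by_cases hz : z ∈ O
  · have h1 : ContDiffAt ℝ ∞ (fun z => (χ z : ℂ)) z :=
      Complex.ofRealCLM.contDiff.contDiffAt.comp z χ.contDiff.contDiffAt
    exact h1.mul (hu.contDiffAt (hO.mem_nhds hz))
  · have h1 : (fun z => (χ z : ℂ) * u z) =ᶠ[𝓝 z] fun _ => 0 := by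
      have h2 : z ∉ closedBall z0 χ.rOut := fun h => hz (hs h)
      filter_upwards [isClosed_closedBall.isOpen_compl.mem_nhds h2] with y hy
      have h3 : χ y = 0 := χ.zero_of_le_dist (by
        have : ¬ dist y z0 ≤ χ.rOut := hy
        linarith)
      rw [h3]
      simp
    exact contDiffAt_const.congr_of_eventuallyEq h1

theorem cut_supp {z0 : V} (χ : ContDiffBump z0) (u : V → ℂ) :
    tsupport (fun z => (χ z : ℂ) * u z) ⊆ closedBall z0 χ.rOut := by
  refine closure_minimal ?_ isClosed_closedBall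
  intro z hz
  by_contra h
  apply hz
  have h3 : χ z = 0 := χ.zero_of_le_dist (by
    have : ¬ dist z z0 ≤ χ.rOut := h
    linarith)
  show (χ z : ℂ) * u z = 0
  rw [h3]
  simp

theorem cut_cpt {z0 : V} (χ : ContDiffBump z0) (u : V → ℂ) :
    HasCompactSupport (fun z => (χ z : ℂ) * u z) :=
  (isCompact_closedBall z0 χ.rOut).of_isClosed_subset (isClosed_tsupport _) (cut_supp χ u)

/-- derivative of the cut-off function -/
theorem cut_fderiv {z0 : V} (χ : ContDiffBump z0) {u : V → ℂ} {z : V}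
    (hu : DifferentiableAt ℝ u z) :
    fderiv ℝ (fun z => (χ z : ℂ) * u z) z =
      (χ z : ℂ) • fderiv ℝ u z + u z • cof (fderiv ℝ χ z) := by
  have h1 : HasFDerivAt (fun z => (χ z : ℂ)) (cof (fderiv ℝ χ z)) z :=
    Complex.ofRealCLM.hasFDerivAt.comp z
      ((χ.contDiff (n := 1)).differentiable (by simp) z).hasFDerivAt
  exact (h1.mul hu.hasFDerivAt).fderiv

theorem aem_sq {E : Type*} [NormedAddCommGroup E] {f : V → E} {K : Set V} (hK : IsCompact K)
    (hf : ContinuousOn f K) : AEMeasurable (fun z => ‖f z‖ₑ ^ 2) (μ.restrict K) := by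
  have h1 : ContinuousOn (fun z => ‖f z‖ₑ) K := hf.enorm
  exact (h1.aemeasurable hK.measurableSet).pow_const 2

theorem int_le {E : Type*} [NormedAddCommGroup E] {f g : V → ℝ≥0∞} {h : V → E} {K : Set V}
    (hK : IsCompact K) (hh : ContinuousOn h K) {a b : ℝ≥0}
    (H : ∀ z ∈ K, f z ≤ a * g z + b * ‖h z‖ₑ ^ 2) :
    ∫⁻ z in K, f z ∂μ ≤ a * ∫⁻ z in K, g z ∂μ + b * ∫⁻ z in K, ‖h z‖ₑ ^ 2 ∂μ := by
  refine (setLIntegral_mono' hK.measurableSet H).trans ?_
  rw [lintegral_add_right' _ ((aem_sq μ hK hh).const_mul _),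
    lintegral_const_mul' _ _ ENNReal.coe_ne_top, lintegral_const_mul' _ _ ENNReal.coe_ne_top]

/-- **Garding in one small ball** -/
theorem garding_ball {K0 : ℝ≥0} {η : ℝ} (hG : ∀ (J : V → V →L[ℝ] V) (J0 : V →L[ℝ] V) (w : V → ℂ),
    ContDiff ℝ ∞ w → HasCompactSupport w → (∀ y ∈ tsupport w, ‖J y - J0‖ ≤ η) →
    ∫⁻ x, ‖fderiv ℝ w x‖ₑ ^ 2 ∂μ ≤ K0 * ∫⁻ x, ‖dbJ (fderiv ℝ w x) (J x)‖ₑ ^ 2 ∂μ)
    {O : Set V} (hO : IsOpen O) {z0 : V} {δ : ℝ} (hδ : 0 < δ) (hs : closedBall z0 (2 * δ) ⊆ O)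
    {J : V → V →L[ℝ] V} (hJ : ContinuousOn J O)
    (hJ0 : ∀ y ∈ closedBall z0 (2 * δ), ‖J y - J z0‖ ≤ η)
    {th : V → V →L[ℝ] ℝ} (hth : ContinuousOn th O) :
    ∃ c : ℝ≥0, ∀ u : V → ℂ, ContDiffOn ℝ ∞ u O →
      ∫⁻ z in closedBall z0 δ, ‖fderiv ℝ u z + (Complex.I * u z) • cof (th z)‖ₑ ^ 2 ∂μ ≤
        c * (∫⁻ z in closedBall z0 (2 * δ),
          ‖dbJ (fderiv ℝ u z + (Complex.I * u z) • cof (th z)) (J z)‖ₑ ^ 2 ∂μ +
          ∫⁻ z in closedBall z0 (2 * δ), ‖u z‖ₑ ^ 2 ∂μ) := by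
  set χ : ContDiffBump z0 := ⟨3 / 2 * δ, 2 * δ, by positivity, by linarith⟩ with hχ
  set K := closedBall z0 (2 * δ) with hK
  have hKc : IsCompact K := isCompact_closedBall _ _
  have hdχ : Continuous fun z => cof (fderiv ℝ χ z) :=
    continuous_const.clm_comp ((χ.contDiff (n := 1)).continuous_fderiv (by simp))
  -- the zeroth order coefficient
  set m : V → V →L[ℝ] ℂ := fun z => cof (fderiv ℝ χ z) - ((χ z : ℂ) * Complex.I) • cof (th z)
    with hm
  have hmc : ContinuousOn m K := by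
    have e1 : ContinuousOn (fun z => (χ z : ℂ) * Complex.I) K :=
      ((Complex.continuous_ofReal.comp χ.continuous).mul continuous_const).continuousOn
    have e2 : ContinuousOn (fun z => cof (th z)) K := cof_cont (hth.mono hs)
    exact hdχ.continuousOn.sub (e1.smul e2)
  obtain ⟨M, hM⟩ := hKc.exists_bound_of_continuousOn (dbJ_cont hmc (hJ.mono hs))
  obtain ⟨M', hM'⟩ := hKc.exists_bound_of_continuousOn (cof_cont (hth.mono hs))
  set b : ℝ≥0 := 2 * Real.toNNReal M ^ 2 with hb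
  set b' : ℝ≥0 := 2 * Real.toNNReal M' ^ 2 with hb'
  refine ⟨2 * K0 * (2 + b) + b', fun u hu => ?_⟩
  have hucont : ContinuousOn u K := hu.continuousOn.mono hs
  have hud : ∀ z ∈ K, DifferentiableAt ℝ u z := fun z hz =>
    (hu.contDiffAt (hO.mem_nhds (hs hz))).differentiableAt (by simp)
  set w : V → ℂ := fun z => (χ z : ℂ) * u z with hw
  have hws : ContDiff ℝ ∞ w := cut_smooth χ hO hu hs
  have hwc : HasCompactSupport w := cut_cpt χ u
  have hwt : tsupport w ⊆ K := cut_supp χ u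
  have h1 := hG J (J z0) w hws hwc fun y hy => hJ0 y (hwt hy)
  set a0 := ∫⁻ z in K, ‖dbJ (fderiv ℝ u z + (Complex.I * u z) • cof (th z)) (J z)‖ₑ ^ 2 ∂μ
    with ha0
  set a1 := ∫⁻ z in K, ‖u z‖ₑ ^ 2 ∂μ with ha1
  -- upper bound of the right hand side
  have h2 : ∫⁻ x, ‖dbJ (fderiv ℝ w x) (J x)‖ₑ ^ 2 ∂μ ≤ (2 : ℝ≥0) * a0 + b * a1 := by
    have h3 : ∫⁻ x, ‖dbJ (fderiv ℝ w x) (J x)‖ₑ ^ 2 ∂μ =
        ∫⁻ x in K, ‖dbJ (fderiv ℝ w x) (J x)‖ₑ ^ 2 ∂μ := by
      rw [← lintegral_indicator hKc.measurableSet]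
      refine lintegral_congr fun x => ?_
      by_cases hx : x ∈ K
      · rw [indicator_of_mem hx]
      · rw [indicator_of_notMem hx]
        have e1 : fderiv ℝ w x = 0 := by
          by_contra h
          exact hx (hwt (support_fderiv_subset ℝ h))
        rw [e1]
        have e2 : dbJ (0 : V →L[ℝ] ℂ) (J x) = 0 := by
          ext v; simp
        rw [e2]
        simp
    rw [h3]
    refine int_le μ hKc hucont fun z hz => ?_
    have e1 : dbJ (fderiv ℝ w z) (J z) =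
        (χ z : ℂ) • dbJ (fderiv ℝ u z + (Complex.I * u z) • cof (th z)) (J z) +
          u z • dbJ (m z) (J z) := by
      rw [← dbJ_smul, ← dbJ_smul, ← dbJ_add]
      congr 1
      rw [hw, cut_fderiv χ (hud z hz), hm]
      ext v
      simp only [add_apply, smul_apply, sub_apply, smul_eq_mul]
      ring
    rw [e1]
    have e2 : ‖(χ z : ℂ) • dbJ (fderiv ℝ u z + (Complex.I * u z) • cof (th z)) (J z) +
        u z • dbJ (m z) (J z)‖ₑ ≤
        ‖dbJ (fderiv ℝ u z + (Complex.I * u z) • cof (th z)) (J z)‖ₑ +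
          Real.toNNReal M * ‖u z‖ₑ := by
      refine (enorm_add_le _ _).trans (add_le_add ?_ ?_)
      · rw [enorm_smul]
        refine mul_le_of_le_one_left (zero_le) ?_
        rw [← ofReal_norm, Complex.norm_real, Real.norm_eq_abs, abs_of_nonneg χ.nonneg]
        exact ENNReal.ofReal_le_one.2 χ.le_one
      · rw [enorm_smul, mul_comm]
        refine mul_le_mul_left ?_ _
        rw [← ofReal_norm]
        exact ENNReal.ofReal_le_ofReal (hM z hz)
    refine (pow_le_pow_left' e2 2).trans ((sq_add_le _ _).trans (le_of_eq ?_))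
    rw [hb]
    push_cast
    ring
  -- lower bound of the left hand side
  have h4 : ∫⁻ z in closedBall z0 δ, ‖fderiv ℝ u z + (Complex.I * u z) • cof (th z)‖ₑ ^ 2 ∂μ ≤
      (2 : ℝ≥0) * ∫⁻ z in closedBall z0 δ, ‖fderiv ℝ w z‖ₑ ^ 2 ∂μ +
        b' * ∫⁻ z in closedBall z0 δ, ‖u z‖ₑ ^ 2 ∂μ := by
    have hsub : closedBall z0 δ ⊆ K := closedBall_subset_closedBall (by linarith)
    refine int_le μ (isCompact_closedBall _ _) (hucont.mono hsub) fun z hz => ?_
    have e1 : fderiv ℝ w z = fderiv ℝ u z := by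
      refine Filter.EventuallyEq.fderiv_eq ?_
      have h5 : z ∈ ball z0 (3 / 2 * δ) := by
        rw [mem_ball]
        have : dist z z0 ≤ δ := hz
        linarith
      filter_upwards [isOpen_ball.mem_nhds h5] with y hy
      have h6 : χ y = 1 := χ.one_of_mem_closedBall (ball_subset_closedBall hy)
      show (χ y : ℂ) * u y = u y
      rw [h6]
      simp
    rw [e1]
    have e2 : ‖fderiv ℝ u z + (Complex.I * u z) • cof (th z)‖ₑ ≤
        ‖fderiv ℝ u z‖ₑ + Real.toNNReal M' * ‖u z‖ₑ := by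
      refine (enorm_add_le _ _).trans (add_le_add le_rfl ?_)
      rw [enorm_smul, enorm_mul]
      have e3 : ‖Complex.I‖ₑ = 1 := by rw [← ofReal_norm, Complex.norm_I, ENNReal.ofReal_one]
      rw [e3, one_mul, mul_comm]
      refine mul_le_mul_left ?_ _
      rw [← ofReal_norm]
      exact ENNReal.ofReal_le_ofReal (hM' z (hsub hz))
    refine (pow_le_pow_left' e2 2).trans ((sq_add_le _ _).trans (le_of_eq ?_))
    rw [hb']
    push_cast
    ring
  have hsub : closedBall z0 δ ⊆ K := closedBall_subset_closedBall (by linarith)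
  have h5 : ∫⁻ z in closedBall z0 δ, ‖fderiv ℝ w z‖ₑ ^ 2 ∂μ ≤
      K0 * ((2 : ℝ≥0) * a0 + b * a1) :=
    (setLIntegral_le_lintegral _ _).trans (h1.trans (by gcongr))
  have h6 : ∫⁻ z in closedBall z0 δ, ‖u z‖ₑ ^ 2 ∂μ ≤ a1 := lintegral_mono_set hsub
  calc _ ≤ (2 : ℝ≥0) * ∫⁻ z in closedBall z0 δ, ‖fderiv ℝ w z‖ₑ ^ 2 ∂μ +
        b' * ∫⁻ z in closedBall z0 δ, ‖u z‖ₑ ^ 2 ∂μ := h4
    _ ≤ (2 : ℝ≥0) * (K0 * ((2 : ℝ≥0) * a0 + b * a1)) + b' * a1 := by gcongr
    _ ≤ (2 : ℝ≥0) * (K0 * ((2 + b : ℝ≥0) * a0 + (2 + b : ℝ≥0) * a1)) +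
        b' * (a0 + a1) := by
        gcongr
        · exact le_self_add
        · exact le_add_self
        · exact le_add_self
    _ = _ := by
        push_cast
        ring

end one

end

end Crest.Agent.R281.Hy_409
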