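import Crest.Agent.R281.Hy3_409

/-!
# R281 (S0424), H0-OP, second road (helper409), part 4: GARDING on the whole space

* `N_tr`    : the norms for two families of cells are equivalent
* `garding` : `N1 s ≤ c (NJ s + N0 s)` for every continuous field `J`
-/

set_option autoImplicit false
set_option linter.unusedSectionVars false
set_option maxSynthPendingDepth 3

open Set Filter Topology MeasureTheory Metric
open scoped ContDiff ENNReal NNReal

namespace Crest.Agent.R281.Hy_409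

open Crest.Agent.R281.HkR_835 Crest.Agent.R281.Ti_846 Crest.Agent.R281.PL_713

noncomputable section

variable {V X : Type} [NormedAddCommGroup V] [NormedSpace ℝ V] [FiniteDimensional ℝ V]
  [MeasurableSpace V] [BorelSpace V] [TopologicalSpace X] [CompactSpace X] [T2Space X]
  {C : RCh V X} (μ : Measure V) [μ.IsAddHaarMeasure]

theorem cmp_refl (C : RCh V X) : Cmp C C :=
  ⟨fun i j => RCh.t_smooth j i, fun i j => RCh.t_smooth i j⟩

/-- a quantity bounded under changes of charts is estimated over any family of cells -/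
theorem tr_gen (B B' : Bc C) : ∃ c : ℝ≥0, ∀ f : C.ι → V → ℝ≥0∞,
    (∀ i j, ∀ z ∈ C.ov i j, f i z ≤ (1 + ‖fderiv ℝ (C.t i j) z‖ₑ) ^ 2 * f j (C.t i j z)) →
    ∑ k, ∫⁻ z in closedBall (B.z k) (B.r k), f (B.i k) z ∂μ ≤
      c * ∑ k, ∫⁻ z in closedBall (B'.z k) (B'.r k), f (B'.i k) z ∂μ := by
  have h := fun k : B.κ => transfer (cmp_refl C) B' μ μ (ContinuousLinearEquiv.refl ℝ V) (B.i k)
    (isCompact_closedBall (B.z k) (B.r k)) (B.sub k)
  choose c hc using h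
  refine ⟨∑ k, c k, fun f hf => ?_⟩
  push_cast
  rw [Finset.sum_mul]
  refine Finset.sum_le_sum fun k _ => ?_
  exact hc k (f (B.i k)) (fun k' => f (B'.i k')) fun k' z hz _ _ => hf _ _ z hz

theorem u_w {L : PL C} (s : Sec L) (i j : C.ι) (z : V) (hz : z ∈ C.ov i j) :
    ‖s.u i z‖ₑ ^ 2 ≤ (1 + ‖fderiv ℝ (C.t i j) z‖ₑ) ^ 2 * ‖s.u j (C.t i j z)‖ₑ ^ 2 := by
  have h1 : ‖s.u i z‖ₑ = ‖s.u j (C.t i j z)‖ₑ := by
    rw [← ofReal_norm, ← ofReal_norm, u_norm_tr s hz]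
  rw [h1]
  exact le_mul_of_one_le_left (zero_le) (one_le_pow_of_one_le' le_self_add 2)

theorem DL_w {L : PL C} (s : Sec L) (i j : C.ι) (z : V) (hz : z ∈ C.ov i j) :
    ‖DL s i z‖ₑ ^ 2 ≤ (1 + ‖fderiv ℝ (C.t i j) z‖ₑ) ^ 2 * ‖DL s j (C.t i j z)‖ₑ ^ 2 := by
  rw [← mul_pow]
  refine pow_le_pow_left' ?_ 2
  have h1 : ‖DL s i z‖ₑ ≤ ‖fderiv ℝ (C.t i j) z‖ₑ * ‖DL s j (C.t i j z)‖ₑ := by
    rw [← ofReal_norm, ← ofReal_norm, ← ofReal_norm, ← ENNReal.ofReal_mul (norm_nonneg _),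
      mul_comm ‖fderiv ℝ (C.t i j) z‖]
    exact ENNReal.ofReal_le_ofReal (DL_norm_tr s hz)
  exact h1.trans (mul_le_mul_left le_add_self _)

theorem N_tr (B B' : Bc C) : ∃ c : ℝ≥0, ∀ (L : PL C) (s : Sec L),
    N0 B μ s ≤ c * N0 B' μ s ∧ N1 B μ s ≤ c * N1 B' μ s := by
  obtain ⟨c, hc⟩ := tr_gen μ B B'
  exact ⟨c, fun L s => ⟨hc (fun i z => ‖s.u i z‖ₑ ^ 2) (u_w s),
    hc (fun i z => ‖DL s i z‖ₑ ^ 2) (DL_w s)⟩⟩

theorem cell_le (B : Bc C) (f : B.κ → V → ℝ≥0∞) (k : B.κ) {K : Set V}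
    (hK : K ⊆ closedBall (B.z k) (B.r k)) :
    ∫⁻ z in K, f k z ∂μ ≤ ∑ k, ∫⁻ z in closedBall (B.z k) (B.r k), f k z ∂μ :=
  (lintegral_mono_set hK).trans
    (Finset.single_le_sum (f := fun k => ∫⁻ z in closedBall (B.z k) (B.r k), f k z ∂μ)
      (fun _ _ => zero_le) (Finset.mem_univ k))

/-- **Garding inequality** -/
theorem garding (B : Bc C) (L : PL C) {J : C.ι → V → V →L[ℝ] V}
    (hJ : ∀ i, ContinuousOn (J i) (C.e i).target) :
    ∃ c : ℝ≥0, ∀ s : Sec L, N1 B μ s ≤ c * (NJ B μ J s + N0 B μ s) := by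
  obtain ⟨K0, η, hη, hG⟩ := garding0 (V := V) μ
  obtain ⟨B', q, hi, hsub, -, hP⟩ := refine_bc B (fun k z δ => ∃ c : ℝ≥0, ∀ s : Sec L,
    ∫⁻ y in closedBall z δ, ‖DL s (B.i k) y‖ₑ ^ 2 ∂μ ≤
      c * (∫⁻ y in closedBall z (2 * δ), ‖dbJ (DL s (B.i k) y) (J (B.i k) y)‖ₑ ^ 2 ∂μ +
        ∫⁻ y in closedBall z (2 * δ), ‖s.u (B.i k) y‖ₑ ^ 2 ∂μ)) (by
    intro k z hz
    have hzt : z ∈ (C.e (B.i k)).target := B.sub k (ball_subset_closedBall hz)
    have h1 : ContinuousAt (J (B.i k)) z :=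
      (hJ (B.i k)).continuousAt ((C.e (B.i k)).open_target.mem_nhds hzt)
    have h2 : {y | ‖J (B.i k) y - J (B.i k) z‖ < η} ∈ 𝓝 z := by
      have h3 := (Metric.continuousAt_iff.1 h1) η hη
      obtain ⟨d, hd, hd2⟩ := h3
      filter_upwards [ball_mem_nhds z hd] with y hy
      have := hd2 hy
      rwa [dist_eq_norm] at this
    obtain ⟨ε, hε, hε2⟩ := Metric.mem_nhds_iff.1 (inter_mem h2 (isOpen_ball.mem_nhds hz))
    have hcb : closedBall z (2 * (ε / 3)) ⊆ ball z ε := closedBall_subset_ball (by linarith)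
    refine ⟨ε / 3, by positivity, hcb.trans (hε2.trans inter_subset_right), ?_⟩
    obtain ⟨c, hc⟩ := garding_ball μ hG (C.e (B.i k)).open_target (z0 := z) (δ := ε / 3)
      (by positivity)
      ((hcb.trans (hε2.trans inter_subset_right)).trans (ball_subset_closedBall.trans (B.sub k)))
      (hJ (B.i k)) (fun y hy => (hε2 (hcb hy)).1.le) ((L.th_sm (B.i k)).continuousOn)
    exact ⟨c, fun s => hc (s.u (B.i k)) (s.sm _)⟩)
  choose c hc using hP
  obtain ⟨c1, hc1⟩ := N_tr μ B B'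
  refine ⟨c1 * ∑ k, c k, fun s => (hc1 L s).2.trans ?_⟩
  push_cast
  rw [mul_assoc, Finset.sum_mul]
  refine mul_le_mul_right (Finset.sum_le_sum fun k' _ => ?_) _
  have h1 := hc k' s
  rw [hi k']
  refine h1.trans (mul_le_mul_right (add_le_add ?_ ?_) _)
  · exact cell_le μ B (fun k z => ‖dbJ (DL s (B.i k) z) (J (B.i k) z)‖ₑ ^ 2) (q k')
      ((hsub k').trans ball_subset_closedBall)
  · exact cell_le μ B (fun k z => ‖s.u (B.i k) z‖ₑ ^ 2) (q k')
      ((hsub k').trans ball_subset_closedBall)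

end

end Crest.Agent.R281.Hy_409
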