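import Crest.Agent.R281.Hy4_409
import Crest.Agent.R330.Rellich_893

/-!
# R281 (S0424), H0-OP, second road (helper409), part 5: RELLICH

* `rellich_V` : smooth functions on `V` with supports in a fixed compact set, bounded in `H¹`
* `rellich_S` : sections bounded in `H¹` on the cells: a subsequence is `L²`-Cauchy on the cells
-/

set_option autoImplicit false
set_option linter.unusedSectionVars false
set_option maxSynthPendingDepth 3

open Set Filter Topology MeasureTheory Metric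
open scoped ContDiff ENNReal NNReal

namespace Crest.Agent.R281.Hy_409

open Crest.Agent.R281.HkR_835 Crest.Agent.R281.Ti_846 Crest.Agent.R281.PL_713

noncomputable section

variable {V W X : Type} [NormedAddCommGroup V] [NormedSpace ℝ V] [FiniteDimensional ℝ V]
  [MeasurableSpace V] [BorelSpace V] [NormedAddCommGroup W] [NormedSpace ℝ W]
  [FiniteDimensional ℝ W] [MeasurableSpace W] [BorelSpace W]

theorem lint_lin (μ : Measure V) [μ.IsAddHaarMeasure] (ν : Measure W) [ν.IsAddHaarMeasure]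
    (L : V ≃L[ℝ] W) : ∃ c : ℝ≥0, ∀ f : W → ℝ≥0∞, ∫⁻ z, f z ∂ν = c * ∫⁻ y, f (L y) ∂μ := by
  obtain ⟨c, hc⟩ := map_smul μ ν L
  refine ⟨c, fun f => ?_⟩
  have hme : MeasurableEmbedding (L : V → W) := L.toHomeomorph.measurableEmbedding
  rw [hc, lintegral_smul_measure, hme.lintegral_map]
  rfl

/-- common subsequence for finitely many properties -/
theorem common_sub {ι : Type*} (S : Finset ι) (R : ι → (ℕ → ℕ) → Prop)
    (hsub : ∀ (i : ι) (φ ψ : ℕ → ℕ), StrictMono ψ → R i φ → R i (φ ∘ ψ))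
    (hex : ∀ (i : ι) (φ : ℕ → ℕ), StrictMono φ → ∃ ψ : ℕ → ℕ, StrictMono ψ ∧ R i (φ ∘ ψ)) :
    ∃ φ : ℕ → ℕ, StrictMono φ ∧ ∀ i ∈ S, R i φ := by
  classical
  induction S using Finset.induction_on with
  | empty => exact ⟨id, strictMono_id, by simp⟩
  | insert a S ha ih =>
    obtain ⟨φ, hφ, h⟩ := ih
    obtain ⟨ψ, hψ, h2⟩ := hex a φ hφ
    refine ⟨φ ∘ ψ, hφ.comp hψ, fun i hi => ?_⟩
    rcases Finset.mem_insert.1 hi with rfl | hi
    · exact h2
    · exact hsub i φ ψ hψ (h i hi)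

theorem int_sq_le {E : Type*} [NormedAddCommGroup E] {f : V → E} (μ : Measure V)
    [μ.IsAddHaarMeasure] (hf : Continuous f) (hc : HasCompactSupport f) {D : ℝ} (hD : 0 ≤ D)
    (h : ∫⁻ x, ‖f x‖ₑ ^ 2 ∂μ ≤ ENNReal.ofReal D) : ∫ x, ‖f x‖ ^ 2 ∂μ ≤ D := by
  rw [lint_sq μ hf hc] at h
  exact (ENNReal.ofReal_le_ofReal_iff hD).1 h

/-- **Rellich on a finite dimensional space** -/
theorem rellich_V (μ : Measure V) [μ.IsAddHaarMeasure] {K : Set V} (hK : IsCompact K)
    {w : ℕ → V → ℂ} (hs : ∀ m, ContDiff ℝ ∞ (w m)) (hc : ∀ m, tsupport (w m) ⊆ K) {D : ℝ≥0}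
    (h0 : ∀ m, ∫⁻ x, ‖w m x‖ₑ ^ 2 ∂μ ≤ D) (h1 : ∀ m, ∫⁻ x, ‖fderiv ℝ (w m) x‖ₑ ^ 2 ∂μ ≤ D) :
    ∃ φ : ℕ → ℕ, StrictMono φ ∧ ∀ ε : ℝ≥0, 0 < ε → ∃ N, ∀ m ≥ N, ∀ k ≥ N,
      ∫⁻ x, ‖w (φ m) x - w (φ k) x‖ₑ ^ 2 ∂μ ≤ ε := by
  classical
  set L : V ≃L[ℝ] EuclideanSpace ℝ (Fin (Module.finrank ℝ V)) := toEuclidean with hL
  have hcs : ∀ m, HasCompactSupport (w m) := fun m =>
    hK.of_isClosed_subset (isClosed_tsupport _) (hc m)
  -- transported functions
  set v : ℕ → EuclideanSpace ℝ (Fin (Module.finrank ℝ V)) → ℂ := fun m x => w m (L.symm x) with hv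
  have hvs : ∀ m, ContDiff ℝ ∞ (v m) := fun m => (hs m).comp L.symm.contDiff
  have hvc : ∀ m, HasCompactSupport (v m) := fun m =>
    (hcs m).comp_homeomorph L.symm.toHomeomorph
  obtain ⟨c1, hc1⟩ := lint_lin μ volume L
  obtain ⟨c2, hc2⟩ := lint_lin (volume : Measure (EuclideanSpace ℝ (Fin (Module.finrank ℝ V))))
    μ L.symm
  have hsym : ∀ y, L.symm (L y) = y := fun y => L.symm_apply_apply y
  -- bounds
  set M : ℝ≥0 := ∑ i, ‖L.symm (EuclideanSpace.single i (1 : ℝ))‖₊ ^ 2 with hM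
  set D' : ℝ≥0 := c1 * D + c1 * (M * D) with hD'
  have hb0 : ∀ m, ∫ x, ‖v m x‖ ^ 2 ≤ D' := fun m => by
    refine int_sq_le _ (hvs m).continuous (hvc m) (NNReal.coe_nonneg D') ?_
    rw [hc1]
    simp only [hv, hsym]
    refine (mul_le_mul_right (h0 m) _).trans ?_
    rw [ENNReal.ofReal_coe_nnreal, hD']
    push_cast
    exact le_self_add
  have hder : ∀ m x i, fderiv ℝ (v m) x (EuclideanSpace.single i 1) =
      fderiv ℝ (w m) (L.symm x) (L.symm (EuclideanSpace.single i 1)) := by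
    intro m x i
    have e1 : HasFDerivAt (v m) ((fderiv ℝ (w m) (L.symm x)).comp
        (L.symm : EuclideanSpace ℝ (Fin (Module.finrank ℝ V)) →L[ℝ] V)) x :=
      (((hs m).differentiable (by simp)) (L.symm x)).hasFDerivAt.comp x
        (L.symm : EuclideanSpace ℝ (Fin (Module.finrank ℝ V)) →L[ℝ] V).hasFDerivAt
    rw [e1.fderiv]
    rfl
  have hb1 : ∀ m, ∫ x, ∑ i, ‖fderiv ℝ (v m) x (EuclideanSpace.single i 1)‖ ^ 2 ≤ D' := fun m => by
    have i0 : ∀ i, Integrable (fun x => ‖fderiv ℝ (v m) x (EuclideanSpace.single i 1)‖ ^ 2) :=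
      fun i => sq_int _ (dir_cont (hvs m) _) (dir_supp (hvc m) _)
    refine (ENNReal.ofReal_le_ofReal_iff (NNReal.coe_nonneg D')).1 ?_
    rw [ofReal_integral_eq_lintegral_ofReal
      (integrable_finsetSum _ fun i _ => i0 i)
      (Eventually.of_forall fun x => Finset.sum_nonneg fun _ _ => by positivity), hc1]
    have e1 : ∀ y, ENNReal.ofReal (∑ i, ‖fderiv ℝ (v m) (L y) (EuclideanSpace.single i 1)‖ ^ 2) ≤
        M * ‖fderiv ℝ (w m) y‖ₑ ^ 2 := by
      intro y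
      rw [ENNReal.ofReal_sum_of_nonneg (fun _ _ => by positivity), hM]
      push_cast
      rw [Finset.sum_mul]
      refine Finset.sum_le_sum fun i _ => ?_
      rw [hder, hsym, ENNReal.ofReal_pow (norm_nonneg _), ofReal_norm, ← mul_pow]
      refine pow_le_pow_left' ?_ 2
      rw [mul_comm]
      exact ContinuousLinearMap.le_opENorm _ _
    refine (mul_le_mul_right (lintegral_mono e1) _).trans ?_
    rw [lintegral_const_mul' _ _ ENNReal.coe_ne_top, ENNReal.ofReal_coe_nnreal, hD']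
    push_cast
    refine le_trans ?_ le_add_self
    gcongr
    exact h1 m
  obtain ⟨Ψ, φ, hΨ, hφ, hconv⟩ := Crest.Agent.R330.Rel893.rellich_local hvs hvc hb0 hb1
  refine ⟨φ, hφ, fun ε hε => ?_⟩
  -- the supports lie in a fixed ball
  obtain ⟨R, hR⟩ := (hK.image L.continuous).isBounded.exists_norm_le
  have hvz : ∀ m x, ¬ ‖x‖ ≤ R → v m x = 0 := by
    intro m x hx
    by_contra h
    apply hx
    refine hR x ⟨L.symm x, hc m (subset_tsupport _ h), L.apply_symm_apply x⟩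
  have hc2' := (hconv R)
  rw [Metric.tendsto_atTop] at hc2'
  have hη : (0 : ℝ) < ε / (4 * (c2 + 1)) := by positivity
  obtain ⟨N, hN⟩ := hc2' _ hη
  refine ⟨N, fun m hm k hk => ?_⟩
  rw [hc2]
  set S := {x : EuclideanSpace ℝ (Fin (Module.finrank ℝ V)) | ‖x‖ ≤ R} with hS
  have hSm : MeasurableSet S := Crest.Agent.R330.Rel893.measurableSet_ball R
  have e1 : ∫⁻ x, ‖w (φ m) (L.symm x) - w (φ k) (L.symm x)‖ₑ ^ 2 =
      ∫⁻ x in S, ‖v (φ m) x - v (φ k) x‖ₑ ^ 2 := by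
    rw [← lintegral_indicator hSm]
    refine lintegral_congr fun x => ?_
    by_cases hx : x ∈ S
    · rw [indicator_of_mem hx]
    · rw [indicator_of_notMem hx]
      have e2 : w (φ m) (L.symm x) = 0 := hvz (φ m) x hx
      have e3 : w (φ k) (L.symm x) = 0 := hvz (φ k) x hx
      rw [e2, e3]
      simp
  have hint : ∀ m, Integrable (fun x => ‖v (φ m) x - Ψ x‖ ^ 2) := fun m =>
    Crest.Agent.R330.Rel893.integrable_norm_sq_of_memLp
      ((Crest.Agent.R330.Rel893.memLp_core (hvs _) (hvc _)).sub hΨ)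
  have e4 : ∀ m ≥ N, ∫⁻ x in S, ‖v (φ m) x - Ψ x‖ₑ ^ 2 ≤ ENNReal.ofReal (ε / (4 * (c2 + 1))) := by
    intro m hm
    have h5 := hN m hm
    rw [Real.dist_eq, sub_zero, abs_of_nonneg (integral_nonneg fun x => by positivity)] at h5
    have h6 : ∫⁻ x in S, ‖v (φ m) x - Ψ x‖ₑ ^ 2 =
        ENNReal.ofReal (∫ x in S, ‖v (φ m) x - Ψ x‖ ^ 2) := by
      rw [ofReal_integral_eq_lintegral_ofReal (hint m).integrableOn
        (Eventually.of_forall fun x => by positivity)]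
      refine lintegral_congr fun x => ?_
      rw [ENNReal.ofReal_pow (norm_nonneg _), ofReal_norm]
    rw [h6]
    exact ENNReal.ofReal_le_ofReal h5.le
  have e5 : ∫⁻ x in S, ‖v (φ m) x - v (φ k) x‖ₑ ^ 2 ≤
      2 * ENNReal.ofReal (ε / (4 * (c2 + 1))) + 2 * ENNReal.ofReal (ε / (4 * (c2 + 1))) := by
    have hm1 : AEMeasurable (fun x => ‖v (φ m) x - Ψ x‖ₑ ^ 2) (volume.restrict S) := by
      have h7 : AEStronglyMeasurable (fun x => v (φ m) x - Ψ x) (volume.restrict S) :=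
        ((hvs (φ m)).continuous.aestronglyMeasurable.sub
          (hΨ.1.mono_measure Measure.restrict_le_self))
      exact h7.enorm.pow_const 2
    calc ∫⁻ x in S, ‖v (φ m) x - v (φ k) x‖ₑ ^ 2
        ≤ ∫⁻ x in S, (2 * ‖v (φ m) x - Ψ x‖ₑ ^ 2 + 2 * ‖v (φ k) x - Ψ x‖ₑ ^ 2) := by
          refine lintegral_mono fun x => ?_
          have h8 : v (φ m) x - v (φ k) x = (v (φ m) x - Ψ x) - (v (φ k) x - Ψ x) := by ring
          rw [h8]
          exact (pow_le_pow_left' enorm_sub_le 2).trans (sq_add_le _ _)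
      _ = 2 * (∫⁻ x in S, ‖v (φ m) x - Ψ x‖ₑ ^ 2) + 2 * (∫⁻ x in S, ‖v (φ k) x - Ψ x‖ₑ ^ 2) := by
          rw [lintegral_add_left' (hm1.const_mul 2), lintegral_const_mul' _ _ (by norm_num),
            lintegral_const_mul' _ _ (by norm_num)]
      _ ≤ _ := by
          gcongr
          · exact e4 m hm
          · exact e4 k hk
  calc (c2 : ℝ≥0∞) * ∫⁻ x, ‖w (φ m) (L.symm x) - w (φ k) (L.symm x)‖ₑ ^ 2
      ≤ c2 * (2 * ENNReal.ofReal (ε / (4 * (c2 + 1))) +
          2 * ENNReal.ofReal (ε / (4 * (c2 + 1)))) := by rw [e1]; gcongr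
    _ = ENNReal.ofReal (c2 * (4 * (ε / (4 * (c2 + 1))))) := by
        rw [ENNReal.ofReal_mul (NNReal.coe_nonneg c2), ENNReal.ofReal_coe_nnreal,
          ENNReal.ofReal_mul (by norm_num : (0 : ℝ) ≤ 4), ← add_mul]
        have h12 : (2 : ℝ≥0∞) + 2 = ENNReal.ofReal 4 := by norm_num
        rw [h12]
    _ ≤ ENNReal.ofReal ε := by
        refine ENNReal.ofReal_le_ofReal ?_
        have h9 : (0 : ℝ) ≤ c2 := NNReal.coe_nonneg c2
        have h10 : (0 : ℝ) ≤ ε := NNReal.coe_nonneg ε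
        have h11 : (c2 : ℝ) * (4 * (ε / (4 * (c2 + 1)))) = ε * (c2 / (c2 + 1)) := by
          field_simp
        rw [h11]
        refine mul_le_of_le_one_right h10 ?_
        rw [div_le_one (by positivity)]
        linarith
    _ = ε := ENNReal.ofReal_coe_nnreal

/-! ### sections -/

section sec

variable [TopologicalSpace X] [CompactSpace X] [T2Space X] {C : RCh V X} (μ : Measure V)
  [μ.IsAddHaarMeasure]

/-- bounds for the cut-off of a section in one small ball -/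
theorem cut_bound {O : Set V} (hO : IsOpen O) {z0 : V} {δ : ℝ}
    (hs : closedBall z0 (2 * δ) ⊆ O) {th : V → V →L[ℝ] ℝ} (hth : ContinuousOn th O)
    (χ : ContDiffBump z0) (hχ : χ.rOut = 2 * δ) :
    ∃ c : ℝ≥0, ∀ u : V → ℂ, ContDiffOn ℝ ∞ u O →
      ∫⁻ z, ‖(χ z : ℂ) * u z‖ₑ ^ 2 ∂μ ≤ ∫⁻ z in closedBall z0 (2 * δ), ‖u z‖ₑ ^ 2 ∂μ ∧
      ∫⁻ z, ‖fderiv ℝ (fun z => (χ z : ℂ) * u z) z‖ₑ ^ 2 ∂μ ≤
        c * (∫⁻ z in closedBall z0 (2 * δ),
          ‖fderiv ℝ u z + (Complex.I * u z) • cof (th z)‖ₑ ^ 2 ∂μ +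
          ∫⁻ z in closedBall z0 (2 * δ), ‖u z‖ₑ ^ 2 ∂μ) := by
  set K := closedBall z0 (2 * δ) with hK
  have hKc : IsCompact K := isCompact_closedBall _ _
  have hdχ : Continuous fun z => cof (fderiv ℝ χ z) :=
    continuous_const.clm_comp ((χ.contDiff (n := 1)).continuous_fderiv (by simp))
  set m : V → V →L[ℝ] ℂ := fun z => cof (fderiv ℝ χ z) - ((χ z : ℂ) * Complex.I) • cof (th z)
    with hm
  have hmc : ContinuousOn m K := by
    have e1 : ContinuousOn (fun z => (χ z : ℂ) * Complex.I) K :=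
      ((Complex.continuous_ofReal.comp χ.continuous).mul continuous_const).continuousOn
    have e2 : ContinuousOn (fun z => cof (th z)) K := cof_cont (hth.mono hs)
    exact hdχ.continuousOn.sub (e1.smul e2)
  obtain ⟨M, hM⟩ := hKc.exists_bound_of_continuousOn hmc
  set b : ℝ≥0 := 2 * Real.toNNReal M ^ 2 with hb
  refine ⟨2 + b, fun u hu => ?_⟩
  have hucont : ContinuousOn u K := hu.continuousOn.mono hs
  have hud : ∀ z ∈ K, DifferentiableAt ℝ u z := fun z hz =>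
    (hu.contDiffAt (hO.mem_nhds (hs hz))).differentiableAt (by simp)
  set w : V → ℂ := fun z => (χ z : ℂ) * u z with hw
  have hwt : tsupport w ⊆ K := by
    have := cut_supp χ u
    rwa [hχ] at this
  have hχ1 : ∀ z, ‖(χ z : ℂ)‖ₑ ≤ 1 := by
    intro z
    rw [← ofReal_norm, Complex.norm_real, Real.norm_eq_abs, abs_of_nonneg χ.nonneg]
    exact ENNReal.ofReal_le_one.2 χ.le_one
  refine ⟨?_, ?_⟩
  · have h3 : ∫⁻ x, ‖w x‖ₑ ^ 2 ∂μ = ∫⁻ x in K, ‖w x‖ₑ ^ 2 ∂μ := by
      rw [← lintegral_indicator hKc.measurableSet]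
      refine lintegral_congr fun x => ?_
      by_cases hx : x ∈ K
      · rw [indicator_of_mem hx]
      · rw [indicator_of_notMem hx]
        have e1 : w x = 0 := by
          by_contra h
          exact hx (hwt (subset_tsupport _ h))
        rw [e1]
        simp
    rw [h3]
    refine lintegral_mono fun z => pow_le_pow_left' ?_ 2
    show ‖(χ z : ℂ) * u z‖ₑ ≤ _
    rw [enorm_mul]
    exact mul_le_of_le_one_left zero_le (hχ1 z)
  · have h3 : ∫⁻ x, ‖fderiv ℝ w x‖ₑ ^ 2 ∂μ = ∫⁻ x in K, ‖fderiv ℝ w x‖ₑ ^ 2 ∂μ := by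
      rw [← lintegral_indicator hKc.measurableSet]
      refine lintegral_congr fun x => ?_
      by_cases hx : x ∈ K
      · rw [indicator_of_mem hx]
      · rw [indicator_of_notMem hx]
        have e1 : fderiv ℝ w x = 0 := by
          by_contra h
          exact hx (hwt (support_fderiv_subset ℝ h))
        rw [e1]
        simp
    rw [h3]
    have h4 : ∫⁻ x in K, ‖fderiv ℝ w x‖ₑ ^ 2 ∂μ ≤
        (2 : ℝ≥0) * (∫⁻ z in K, ‖fderiv ℝ u z + (Complex.I * u z) • cof (th z)‖ₑ ^ 2 ∂μ) +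
          b * ∫⁻ z in K, ‖u z‖ₑ ^ 2 ∂μ := by
      refine int_le μ hKc hucont fun z hz => ?_
      have e1 : fderiv ℝ w z = (χ z : ℂ) • (fderiv ℝ u z + (Complex.I * u z) • cof (th z)) +
          u z • m z := by
        rw [hw, cut_fderiv χ (hud z hz), hm]
        ext v
        simp only [add_apply, smul_apply, sub_apply, smul_eq_mul]
        ring
      rw [e1]
      have e2 : ‖(χ z : ℂ) • (fderiv ℝ u z + (Complex.I * u z) • cof (th z)) + u z • m z‖ₑ ≤
          ‖fderiv ℝ u z + (Complex.I * u z) • cof (th z)‖ₑ + Real.toNNReal M * ‖u z‖ₑ := by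
        refine (enorm_add_le _ _).trans (add_le_add ?_ ?_)
        · rw [enorm_smul]
          exact mul_le_of_le_one_left zero_le (hχ1 z)
        · rw [enorm_smul, mul_comm]
          refine mul_le_mul_left ?_ _
          rw [← ofReal_norm]
          exact ENNReal.ofReal_le_ofReal (hM z hz)
      refine (pow_le_pow_left' e2 2).trans ((sq_add_le _ _).trans (le_of_eq ?_))
      rw [hb]
      push_cast
      ring
    refine h4.trans ?_
    rw [mul_add]
    push_cast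
    gcongr
    · exact le_self_add
    · exact le_add_self

/-- **Rellich for sections** -/
theorem rellich_S (B : Bc C) {L : PL C} {u : ℕ → Sec L} {D : ℝ≥0} (h0 : ∀ m, N0 B μ (u m) ≤ D)
    (h1 : ∀ m, N1 B μ (u m) ≤ D) : ∃ φ : ℕ → ℕ, StrictMono φ ∧ ∀ ε : ℝ≥0, 0 < ε →
      ∃ N, ∀ m ≥ N, ∀ k ≥ N, N0 B μ (u (φ m) - u (φ k)) ≤ ε := by
  classical
  obtain ⟨B', q, hi, hsub, hpos, -⟩ := refine_bc B (fun _ _ _ => True) (by
    intro k z hz
    obtain ⟨ε, hε, hε2⟩ := Metric.mem_nhds_iff.1 (isOpen_ball.mem_nhds hz)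
    exact ⟨ε / 3, by positivity, (closedBall_subset_ball (by linarith)).trans hε2, trivial⟩)
  set χ : (k : B'.κ) → ContDiffBump (B'.z k) := fun k =>
    ⟨3 / 2 * B'.r k, 2 * B'.r k, by have := hpos k; positivity, by have := hpos k; linarith⟩
    with hχ
  have hst : ∀ k, closedBall (B'.z k) (2 * B'.r k) ⊆ (C.e (B'.i k)).target := by
    intro k
    rw [hi k]
    exact (hsub k).trans (ball_subset_closedBall.trans (B.sub _))
  have hcb := fun k => cut_bound μ (C.e (B'.i k)).open_target (hst k)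
    (L.th_sm (B'.i k)).continuousOn (χ k) rfl
  choose c hc using hcb
  set w : B'.κ → ℕ → V → ℂ := fun k m z => (χ k z : ℂ) * (u m).u (B'.i k) z with hw
  have hws : ∀ k m, ContDiff ℝ ∞ (w k m) := fun k m =>
    cut_smooth (χ k) (C.e (B'.i k)).open_target ((u m).sm _) (hst k)
  have hwt : ∀ k m, tsupport (w k m) ⊆ closedBall (B'.z k) (2 * B'.r k) := fun k m =>
    cut_supp (χ k) _
  have hb0 : ∀ k m, ∫⁻ z in closedBall (B'.z k) (2 * B'.r k), ‖(u m).u (B'.i k) z‖ₑ ^ 2 ∂μ ≤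
      D := by
    intro k m
    rw [hi k]
    exact (cell_le μ B (fun k z => ‖(u m).u (B.i k) z‖ₑ ^ 2) (q k)
      ((hsub k).trans ball_subset_closedBall)).trans (h0 m)
  have hb1 : ∀ k m, ∫⁻ z in closedBall (B'.z k) (2 * B'.r k), ‖DL (u m) (B'.i k) z‖ₑ ^ 2 ∂μ ≤
      D := by
    intro k m
    rw [hi k]
    exact (cell_le μ B (fun k z => ‖DL (u m) (B.i k) z‖ₑ ^ 2) (q k)
      ((hsub k).trans ball_subset_closedBall)).trans (h1 m)
  obtain ⟨φ, hφ, hR⟩ := common_sub (Finset.univ : Finset B'.κ) (fun k φ => ∀ ε : ℝ≥0, 0 < ε →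
      ∃ N, ∀ m ≥ N, ∀ l ≥ N, ∫⁻ x, ‖w k (φ m) x - w k (φ l) x‖ₑ ^ 2 ∂μ ≤ ε)
    (fun k φ ψ hψ h ε hε => by
      obtain ⟨N, hN⟩ := h ε hε
      exact ⟨N, fun m hm l hl => hN _ (hm.trans (hψ.id_le m)) _ (hl.trans (hψ.id_le l))⟩)
    (fun k φ hφ => by
      set D' : ℝ≥0 := D + c k * (D + D) with hD'
      obtain ⟨ψ, hψ, h⟩ := rellich_V μ (isCompact_closedBall (B'.z k) (2 * B'.r k))
        (w := fun m => w k (φ m)) (fun m => hws k _) (fun m => hwt k _) (D := D')
        (fun m => by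
          refine ((hc k ((u (φ m)).u (B'.i k)) ((u (φ m)).sm _)).1).trans ((hb0 k _).trans ?_)
          rw [hD']
          push_cast
          exact le_self_add)
        (fun m => by
          refine ((hc k ((u (φ m)).u (B'.i k)) ((u (φ m)).sm _)).2).trans ?_
          rw [hD']
          push_cast
          refine le_trans ?_ le_add_self
          gcongr
          · exact hb1 k (φ m)
          · exact hb0 k (φ m))
      exact ⟨ψ, hψ, h⟩)
  obtain ⟨c1, hc1⟩ := N_tr μ B B'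
  refine ⟨φ, hφ, fun ε hε => ?_⟩
  set ε' : ℝ≥0 := ε / ((c1 + 1) * (Fintype.card B'.κ + 1)) with hε'
  have hε'0 : 0 < ε' := by positivity
  choose N hN using fun k => hR k (Finset.mem_univ k) ε' hε'0
  refine ⟨∑ k, N k, fun m hm l hl => ?_⟩
  have hle : ∀ k, N k ≤ ∑ k, N k := fun k =>
    Finset.single_le_sum (fun _ _ => Nat.zero_le _) (Finset.mem_univ k)
  have h3 : N0 B' μ (u (φ m) - u (φ l)) ≤ ∑ k : B'.κ, (ε' : ℝ≥0∞) := by
    refine Finset.sum_le_sum fun k _ => ?_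
    have h4 := hN k m ((hle k).trans hm) l ((hle k).trans hl)
    refine le_trans ?_ h4
    refine le_trans (le_of_eq ?_) (setLIntegral_le_lintegral (closedBall (B'.z k) (B'.r k)) _)
    refine setLIntegral_congr_fun isClosed_closedBall.measurableSet fun z hz => ?_
    have h6 : χ k z = 1 := (χ k).one_of_mem_closedBall
      (closedBall_subset_closedBall (by have := hpos k; show B'.r k ≤ 3 / 2 * B'.r k; linarith) hz)
    show ‖(u (φ m) - u (φ l)).u (B'.i k) z‖ₑ ^ 2 = ‖w k (φ m) z - w k (φ l) z‖ₑ ^ 2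
    simp only [hw, h6]
    simp
  refine (hc1 L _).1.trans ?_
  refine (mul_le_mul_right h3 _).trans ?_
  rw [Finset.sum_const, Finset.card_univ, nsmul_eq_mul]
  have h7 : c1 * (Fintype.card B'.κ * ε') ≤ ε := by
    rw [hε', ← NNReal.coe_le_coe]
    push_cast
    have a1 : (0 : ℝ) ≤ c1 := NNReal.coe_nonneg c1
    have a2 : (0 : ℝ) ≤ (Fintype.card B'.κ : ℝ) := Nat.cast_nonneg _
    have a3 : (0 : ℝ) ≤ ε := NNReal.coe_nonneg ε
    rw [show (c1 : ℝ) * ((Fintype.card B'.κ : ℝ) * (ε / ((c1 + 1) * (Fintype.card B'.κ + 1)))) =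
      ε * ((c1 * Fintype.card B'.κ) / ((c1 + 1) * (Fintype.card B'.κ + 1))) by ring]
    refine mul_le_of_le_one_right a3 ?_
    rw [div_le_one (by positivity)]
    nlinarith
  exact_mod_cast h7

end sec

end

end Crest.Agent.R281.Hy_409
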