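import Crest.Agent.R271.Weyl_399
import Mathlib.Analysis.Calculus.LineDeriv.IntegrationByParts
import Mathlib.MeasureTheory.Function.LocallyIntegrable
import Mathlib.MeasureTheory.Integral.MeanInequalities
import Mathlib.MeasureTheory.Function.LpSpace.Complete

/-!
# R281 (S0424), H0-OP, second road (helper409), part 6: the WEYL LIMIT

* `hol_limit` : `F m` smooth on the open `O ⊆ ℂⁿ`, `L²`-Cauchy, `∂̄ (F m) → 0` in `L²(O)`
  ⟹ the `L²` limit is holomorphic on `O`
-/

set_option autoImplicit false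
set_option linter.unusedSectionVars false

open Set Filter Topology MeasureTheory Metric Complex
open scoped ContDiff ENNReal NNReal

namespace Crest.Agent.R281.Hy_409

open Crest.Agent.R271.Weyl399

section

variable {E : Type*} [NormedAddCommGroup E] [NormedSpace ℝ E]

theorem mul_cont {O : Set E} (hO : IsOpen O) {g φ : E → ℂ} (hg : ContinuousOn g O)
    (hφ : Continuous φ) (hs : tsupport φ ⊆ O) : Continuous fun x => g x * φ x := by
  rw [continuous_iff_continuousAt]
  intro x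
  by_cases hx : x ∈ O
  · exact (hg.continuousAt (hO.mem_nhds hx)).mul hφ.continuousAt
  · have hx' : x ∉ tsupport φ := fun h => hx (hs h)
    have h1 : (fun x => g x * φ x) =ᶠ[𝓝 x] fun _ => 0 := by
      filter_upwards [(isClosed_tsupport φ).isOpen_compl.mem_nhds hx'] with y hy
      rw [image_eq_zero_of_notMem_tsupport hy, mul_zero]
    exact (continuousAt_const).congr h1.symm

variable [MeasurableSpace E] [BorelSpace E] [FiniteDimensional ℝ E]

/-- integration by parts against a test function -/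
theorem ibp (μ : Measure E) [μ.IsAddHaarMeasure] {O : Set E} (hO : IsOpen O) {F φ : E → ℂ}
    (hF : ContDiffOn ℝ ∞ F O) (hφ : ContDiff ℝ ∞ φ) (hc : HasCompactSupport φ)
    (hs : tsupport φ ⊆ O) (v : E) :
    ∫ x, F x * fderiv ℝ φ x v ∂μ = - ∫ x, fderiv ℝ F x v * φ x ∂μ := by
  have c1 : Continuous fun x => fderiv ℝ φ x v := (hφ.continuous_fderiv (by simp)).clm_apply
    continuous_const
  have c2 : HasCompactSupport fun x => fderiv ℝ φ x v := hc.fderiv_apply ℝ v
  have c3 : tsupport (fun x => fderiv ℝ φ x v) ⊆ O := (tsupport_fderiv_apply_subset ℝ v).trans hs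
  have c4 : ContinuousOn (fun x => fderiv ℝ F x v) O :=
    (hF.continuousOn_fderiv_of_isOpen hO (by simp)).clm_apply continuousOn_const
  refine integral_mul_fderiv_eq_neg_fderiv_mul_of_integrable ?_ ?_ ?_ ?_ ?_
  · exact (mul_cont hO c4 hφ.continuous hs).integrable_of_hasCompactSupport hc.mul_left
  · exact (mul_cont hO hF.continuousOn c1 c3).integrable_of_hasCompactSupport c2.mul_left
  · exact (mul_cont hO hF.continuousOn hφ.continuous hs).integrable_of_hasCompactSupport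
      hc.mul_left
  · intro x hx
    exact ((hF.contDiffAt (hO.mem_nhds (hs hx))).differentiableAt (by simp))
  · intro x _
    exact (hφ.differentiable (by simp)) x

/-- Cauchy–Schwarz -/
theorem cs (μ : Measure E) {a b : E → ℂ} (ha : AEStronglyMeasurable a μ)
    (hb : AEStronglyMeasurable b μ) :
    ∫⁻ x, ‖a x * b x‖ₑ ∂μ ≤ (∫⁻ x, ‖a x‖ₑ ^ 2 ∂μ) ^ (1 / 2 : ℝ) *
      (∫⁻ x, ‖b x‖ₑ ^ 2 ∂μ) ^ (1 / 2 : ℝ) := by
  have h := ENNReal.lintegral_mul_le_Lp_mul_Lq μ Real.HolderConjugate.two_two ha.enorm hb.enorm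
  simp only [Pi.mul_apply] at h
  simp only [enorm_mul]
  refine h.trans (le_of_eq ?_)
  simp only [← ENNReal.rpow_natCast]
  norm_num

end

theorem sq_half {a : ℝ≥0∞} : (a ^ (1 / 2 : ℝ)) ^ 2 = a := by
  rw [← ENNReal.rpow_natCast, ← ENNReal.rpow_mul]
  norm_num

theorem eLp_two {α : Type*} [MeasurableSpace α] (μ : Measure α) (f : α → ℂ) :
    eLpNorm f 2 μ = (∫⁻ x, ‖f x‖ₑ ^ 2 ∂μ) ^ (1 / 2 : ℝ) := by
  rw [eLpNorm_eq_lintegral_rpow_enorm_toReal (by norm_num) (by norm_num)]
  simp only [ENNReal.toReal_ofNat, ← ENNReal.rpow_natCast]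
  norm_num

variable {n : ℕ}

theorem dbar_ibp {O : Set (Fin n → ℂ)} (hO : IsOpen O) {F φ : (Fin n → ℂ) → ℂ}
    (hF : ContDiffOn ℝ ∞ F O) (hφ : ContDiff ℝ ∞ φ) (hc : HasCompactSupport φ)
    (hs : tsupport φ ⊆ O) (j : Fin n) :
    ∫ x, F x * dbar j φ x = - ∫ x, dbar j F x * φ x := by
  have c1 : ∀ v, Continuous fun x => fderiv ℝ φ x v := fun v =>
    (hφ.continuous_fderiv (by simp)).clm_apply continuous_const
  have c2 : ∀ v, HasCompactSupport fun x => fderiv ℝ φ x v := fun v => hc.fderiv_apply ℝ v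
  have c3 : ∀ v, tsupport (fun x => fderiv ℝ φ x v) ⊆ O := fun v =>
    (tsupport_fderiv_apply_subset ℝ v).trans hs
  have c4 : ∀ v, ContinuousOn (fun x => fderiv ℝ F x v) O := fun v =>
    (hF.continuousOn_fderiv_of_isOpen hO (by simp)).clm_apply continuousOn_const
  have i1 : ∀ v, Integrable (fun x => F x * fderiv ℝ φ x v) := fun v =>
    (mul_cont hO hF.continuousOn (c1 v) (c3 v)).integrable_of_hasCompactSupport (c2 v).mul_left
  have i2 : ∀ v, Integrable (fun x => fderiv ℝ F x v * φ x) := fun v =>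
    (mul_cont hO (c4 v) hφ.continuous hs).integrable_of_hasCompactSupport hc.mul_left
  have e1 : ∀ x, F x * dbar j φ x = (1 / 2 : ℂ) * (F x * fderiv ℝ φ x (Pi.single j 1)) +
      (1 / 2 * I) * (F x * fderiv ℝ φ x (Pi.single j I)) := fun x => by unfold dbar; ring
  have e2 : ∀ x, dbar j F x * φ x = (1 / 2 : ℂ) * (fderiv ℝ F x (Pi.single j 1) * φ x) +
      (1 / 2 * I) * (fderiv ℝ F x (Pi.single j I) * φ x) := fun x => by unfold dbar; ring
  simp only [e1, e2]
  rw [integral_add ((i1 _).const_mul _) ((i1 _).const_mul _),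
    integral_add ((i2 _).const_mul _) ((i2 _).const_mul _), integral_const_mul,
    integral_const_mul, integral_const_mul, integral_const_mul,
    ibp volume hO hF hφ hc hs, ibp volume hO hF hφ hc hs]
  ring

/-- **the Weyl limit** -/
theorem hol_limit {O : Set (Fin n → ℂ)} (hO : IsOpen O) {F : ℕ → (Fin n → ℂ) → ℂ}
    (hF : ∀ m, ContDiffOn ℝ ∞ (F m) O) (hL : ∀ m, ∫⁻ z in O, ‖F m z‖ₑ ^ 2 < ⊤)
    (hC : ∀ ε : ℝ≥0, 0 < ε → ∃ N, ∀ m ≥ N, ∀ k ≥ N, ∫⁻ z in O, ‖F m z - F k z‖ₑ ^ 2 ≤ ε)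
    (hd : ∀ j : Fin n, Tendsto (fun m => ∫⁻ z in O, ‖dbar j (F m) z‖ₑ ^ 2) atTop (𝓝 0)) :
    ∃ h : (Fin n → ℂ) → ℂ, DifferentiableOn ℂ h O ∧
      Tendsto (fun m => ∫⁻ z in O, ‖F m z - h z‖ₑ ^ 2) atTop (𝓝 0) := by
  classical
  set ν : Measure (Fin n → ℂ) := volume.restrict O with hν
  have hme : ∀ m, AEStronglyMeasurable (F m) ν := fun m =>
    (hF m).continuousOn.aestronglyMeasurable hO.measurableSet
  have hML : ∀ m, MemLp (F m) 2 ν := fun m => by
    refine ⟨hme m, ?_⟩
    rw [eLp_two]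
    exact ENNReal.rpow_lt_top_of_nonneg (by norm_num) (hL m).ne
  set f : ℕ → Lp ℂ 2 ν := fun m => (hML m).toLp (F m) with hf
  have hed : ∀ m k, edist (f m) (f k) = (∫⁻ z, ‖F m z - F k z‖ₑ ^ 2 ∂ν) ^ (1 / 2 : ℝ) :=
    fun m k => by
    rw [hf, Lp.edist_toLp_toLp, eLp_two]
    rfl
  have hcau : CauchySeq f := by
    rw [EMetric.cauchySeq_iff]
    intro ε hε
    obtain ⟨δ, hδ0, hδ⟩ := ENNReal.lt_iff_exists_nnreal_btwn.1 hε
    have hδ0' : 0 < δ := by exact_mod_cast hδ0
    obtain ⟨N, hN⟩ := hC (δ ^ 2) (by positivity)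
    refine ⟨N, fun m hm k hk => ?_⟩
    rw [hed]
    refine lt_of_le_of_lt ?_ hδ
    refine (ENNReal.rpow_le_rpow (hN m hm k hk) (by norm_num)).trans ?_
    rw [ENNReal.coe_pow, ← ENNReal.rpow_natCast, ← ENNReal.rpow_mul]
    norm_num
  obtain ⟨g, hg⟩ := cauchySeq_tendsto_of_complete hcau
  have hgL : MemLp (g : (Fin n → ℂ) → ℂ) 2 ν := Lp.memLp g
  -- convergence to `g`
  have hlim : Tendsto (fun m => ∫⁻ z, ‖F m z - g z‖ₑ ^ 2 ∂ν) atTop (𝓝 0) := by
    have h1 : Tendsto (fun m => edist (f m) g) atTop (𝓝 0) := tendsto_iff_edist_tendsto_0.1 hg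
    have h2 : ∀ m, ∫⁻ z, ‖F m z - g z‖ₑ ^ 2 ∂ν = (edist (f m) g) ^ 2 := fun m => by
      have h3 : edist (f m) g = eLpNorm (fun z => F m z - g z) 2 ν := by
        rw [Lp.edist_def]
        refine eLpNorm_congr_ae ?_
        filter_upwards [(hML m).coeFn_toLp] with z hz
        simp only [Pi.sub_apply, hf, hz]
      rw [h3, eLp_two, sq_half]
    simp only [h2]
    have h3 := ENNReal.Tendsto.pow (n := 2) h1
    simpa using h3
  have hloc : LocallyIntegrableOn (g : (Fin n → ℂ) → ℂ) O volume :=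
    locallyIntegrableOn_of_locallyIntegrable_restrict (hgL.locallyIntegrable (by norm_num))
  have hweak : WeakHol (g : (Fin n → ℂ) → ℂ) O := by
    intro j φ hφ hc hs
    have c1 : Continuous (dbar j φ) := by
      unfold dbar
      have := fun v : Fin n → ℂ => ((hφ.continuous_fderiv (by simp)).clm_apply
        (continuous_const (y := v)))
      exact continuous_const.mul ((this _).add (continuous_const.mul (this _)))
    have c3 : tsupport (dbar j φ) ⊆ O := by
      refine (closure_minimal ?_ (isClosed_tsupport φ)).trans hs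
      intro x hx
      by_contra hx'
      apply hx
      have h1 : ∀ v, fderiv ℝ φ x v = 0 := fun v => by
        have : fderiv ℝ φ x = 0 := by
          by_contra h
          exact hx' (support_fderiv_subset ℝ h)
        rw [this]; rfl
      simp [dbar, h1]
    have c2 : HasCompactSupport (dbar j φ) := by
      refine hc.of_isClosed_subset (isClosed_tsupport _) (closure_minimal ?_ (isClosed_tsupport φ))
      intro x hx
      by_contra hx'
      apply hx
      have h1 : ∀ v, fderiv ℝ φ x v = 0 := fun v => by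
        have : fderiv ℝ φ x = 0 := by
          by_contra h
          exact hx' (support_fderiv_subset ℝ h)
        rw [this]; rfl
      simp [dbar, h1]
    have hA : ∫⁻ z, ‖dbar j φ z‖ₑ ^ 2 ∂ν ≠ ⊤ := by
      refine ((lintegral_mono' Measure.restrict_le_self le_rfl).trans_lt ?_).ne
      have h1 := (c1.memLp_of_hasCompactSupport (p := 2) (μ := volume) c2).eLpNorm_lt_top
      rw [eLp_two] at h1
      exact (ENNReal.rpow_lt_top_iff_of_pos (by norm_num)).1 h1
    have hB : ∫⁻ z, ‖φ z‖ₑ ^ 2 ∂ν ≠ ⊤ := by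
      refine ((lintegral_mono' Measure.restrict_le_self le_rfl).trans_lt ?_).ne
      have h1 := (hφ.continuous.memLp_of_hasCompactSupport (p := 2) (μ := volume)
        hc).eLpNorm_lt_top
      rw [eLp_two] at h1
      exact (ENNReal.rpow_lt_top_iff_of_pos (by norm_num)).1 h1
    have key : ∀ m, ‖∫ z, g z * dbar j φ z‖ₑ ≤
        (∫⁻ z, ‖F m z - g z‖ₑ ^ 2 ∂ν) ^ (1 / 2 : ℝ) * (∫⁻ z, ‖dbar j φ z‖ₑ ^ 2 ∂ν) ^ (1 / 2 : ℝ) +
        (∫⁻ z, ‖dbar j (F m) z‖ₑ ^ 2 ∂ν) ^ (1 / 2 : ℝ) * (∫⁻ z, ‖φ z‖ₑ ^ 2 ∂ν) ^ (1 / 2 : ℝ) := by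
      intro m
      have z1 : ∀ G : (Fin n → ℂ) → ℂ, ∫ z, G z * dbar j φ z = ∫ z, G z * dbar j φ z ∂ν :=
        fun G => by
        rw [hν]
        symm
        refine setIntegral_eq_integral_of_forall_compl_eq_zero fun z hz => ?_
        rw [image_eq_zero_of_notMem_tsupport fun h => hz (c3 h), mul_zero]
      have z2 : ∀ G : (Fin n → ℂ) → ℂ, ∫ z, G z * φ z = ∫ z, G z * φ z ∂ν := fun G => by
        rw [hν]
        symm
        refine setIntegral_eq_integral_of_forall_compl_eq_zero fun z hz => ?_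
        rw [image_eq_zero_of_notMem_tsupport fun h => hz (hs h), mul_zero]
      have mA : MemLp (dbar j φ) 2 ν :=
        (c1.memLp_of_hasCompactSupport (p := 2) (μ := volume) c2).restrict O
      have i1 : Integrable (fun z => g z * dbar j φ z) ν := hgL.integrable_mul mA
      have i2 : Integrable (fun z => F m z * dbar j φ z) ν := (hML m).integrable_mul mA
      have e1 : ∫ z, g z * dbar j φ z =
          -(∫ z, (F m z - g z) * dbar j φ z ∂ν) - ∫ z, dbar j (F m) z * φ z ∂ν := by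
        rw [z1, ← z2, ← sub_eq_zero]
        have e2 : ∫ z, (F m z - g z) * dbar j φ z ∂ν =
            ∫ z, F m z * dbar j φ z ∂ν - ∫ z, g z * dbar j φ z ∂ν := by
          rw [← integral_sub i2 i1]
          refine integral_congr_ae (Eventually.of_forall fun z => ?_)
          simp only [sub_mul]
        rw [e2, ← z1 (F m), dbar_ibp hO (hF m) hφ hc hs j]
        ring
      have md : AEStronglyMeasurable (dbar j (F m)) ν := by
        have c4 : ∀ v, ContinuousOn (fun x => fderiv ℝ (F m) x v) O := fun v =>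
          ((hF m).continuousOn_fderiv_of_isOpen hO (by simp)).clm_apply continuousOn_const
        have : ContinuousOn (dbar j (F m)) O := by
          unfold dbar
          exact continuousOn_const.mul ((c4 _).add (continuousOn_const.mul (c4 _)))
        exact this.aestronglyMeasurable hO.measurableSet
      rw [e1]
      refine (enorm_sub_le).trans (add_le_add ?_ ?_)
      · rw [enorm_neg]
        refine (enorm_integral_le_lintegral_enorm _).trans ?_
        exact cs ν ((hme m).sub hgL.1) c1.aestronglyMeasurable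
      · refine (enorm_integral_le_lintegral_enorm _).trans ?_
        exact cs ν md hφ.continuous.aestronglyMeasurable
    have hT : Tendsto (fun m => (∫⁻ z, ‖F m z - g z‖ₑ ^ 2 ∂ν) ^ (1 / 2 : ℝ) *
        (∫⁻ z, ‖dbar j φ z‖ₑ ^ 2 ∂ν) ^ (1 / 2 : ℝ) +
        (∫⁻ z, ‖dbar j (F m) z‖ₑ ^ 2 ∂ν) ^ (1 / 2 : ℝ) *
        (∫⁻ z, ‖φ z‖ₑ ^ 2 ∂ν) ^ (1 / 2 : ℝ)) atTop (𝓝 0) := by
      have t1 := (ENNReal.continuous_rpow_const (y := (1 / 2 : ℝ))).tendsto 0 |>.comp hlim
      have t2 := (ENNReal.continuous_rpow_const (y := (1 / 2 : ℝ))).tendsto 0 |>.comp (hd j)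
      rw [ENNReal.zero_rpow_of_pos (by norm_num)] at t1 t2
      have t3 := ENNReal.Tendsto.mul_const (b := (∫⁻ z, ‖dbar j φ z‖ₑ ^ 2 ∂ν) ^ (1 / 2 : ℝ)) t1
        (Or.inr (ENNReal.rpow_ne_top_of_nonneg (by norm_num) hA))
      have t4 := ENNReal.Tendsto.mul_const (b := (∫⁻ z, ‖φ z‖ₑ ^ 2 ∂ν) ^ (1 / 2 : ℝ)) t2
        (Or.inr (ENNReal.rpow_ne_top_of_nonneg (by norm_num) hB))
      have t5 := t3.add t4
      rw [zero_mul, zero_mul, add_zero] at t5
      exact t5
    have h0 : ‖∫ z, g z * dbar j φ z‖ₑ ≤ 0 := ge_of_tendsto' hT key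
    simpa using h0
  obtain ⟨h, hh, hae⟩ := weyl hO hloc hweak
  refine ⟨h, hh, ?_⟩
  refine hlim.congr fun m => lintegral_congr_ae ?_
  filter_upwards [hae] with z hz
  rw [hz]

end Crest.Agent.R281.Hy_409
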