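import Crest.Agent.R080.Cauchy
import Crest.Agent.R275.EDRWd_890
import Crest.Agent.R275.Poi_75

/-!
# R281 (S0424), YAU-GEN (helper487): the `∂̄`-lemma for `(0,1)`-forms in `ℂⁿ`

* `PD p r`      : open polydisc
* `T a φ`       : Cauchy transform of `φ` along the `a`-th coordinate
* `dbar_solve`  : a `∂̄`-closed smooth `(0,1)`-form on `PD p r` is `∂̄ h` on a smaller polydisc
-/

set_option autoImplicit false
set_option linter.unusedSectionVars false

open Set Filter Topology Complex MeasureTheory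
open scoped ContDiff

namespace Crest.Agent.R281.KpD_487

open Crest.Agent.R275.Geo Crest.Agent.R275.EDR890 Crest.Agent.R080 Crest.Agent.R080.CauchyP

noncomputable section

variable {n : ℕ}

/-! ### the coordinate lines -/

/-- the `a`-th complex coordinate line -/
def ln (a : Fin n) : ℂ →L[ℝ] Cn n :=
  (ContinuousLinearMap.toSpanSingleton ℂ (EuclideanSpace.single a (1 : ℂ) : Cn n)).restrictScalars ℝ

theorem ln_apply (a : Fin n) (z : ℂ) : ln a z = z • (EuclideanSpace.single a (1 : ℂ) : Cn n) := rfl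

theorem ln_coord (a b : Fin n) (z : ℂ) : (ln a z) b = if b = a then z else 0 := by
  rw [ln_apply]
  simp [PiLp.single_apply]

theorem ln_one (a : Fin n) : ln a 1 = EuclideanSpace.single a (1 : ℂ) := by
  rw [ln_apply, one_smul]

theorem ln_I (a : Fin n) : ln a I = EuclideanSpace.single a I := by
  ext b
  rw [ln_coord]
  simp [PiLp.single_apply]

theorem norm_ln (a : Fin n) (z : ℂ) : ‖ln a z‖ = ‖z‖ := by
  rw [ln_apply, norm_smul]
  simp

theorem ln_low (a : Fin n) : ∀ z, (1 : ℝ) * ‖z‖ ≤ ‖ln a z‖ := fun z => by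
  rw [norm_ln, one_mul]

theorem dbj_eq_Dp (a : Fin n) (f : Cn n → ℂ) (z : Cn n) :
    dbj a f z = (1 / 2 : ℂ) * Dp (ln a) f z := by
  simp [dbj, Dp, ln_one, ln_I]

theorem dbj_wd (a : Fin n) (f : Cn n → ℂ) (z : Cn n) : dbj a f z = wd (true, a) f z := rfl

/-! ### the solution operator -/

/-- Cauchy transform along the `a`-th coordinate -/
def T (a : Fin n) (φ : Cn n → ℂ) (x : Cn n) : ℂ := 2 * cauchyP (ln a) φ x

theorem exists_radius {φ : Cn n → ℂ} (hc : HasCompactSupport φ) :
    ∃ R : ℝ, ∀ x, R ≤ ‖x‖ → φ x = 0 := by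
  obtain ⟨R, hR⟩ := hc.isCompact.isBounded.subset_ball (0 : Cn n)
  refine ⟨R, fun x hx => ?_⟩
  by_contra h
  have h1 := hR (subset_tsupport _ h)
  rw [mem_ball_zero_iff] at h1
  exact absurd hx (not_le.2 h1)

theorem contDiff_T (a : Fin n) {φ : Cn n → ℂ} (hφ : ContDiff ℝ ∞ φ)
    (hc : HasCompactSupport φ) : ContDiff ℝ ∞ (T a φ) := by
  obtain ⟨R, hR⟩ := exists_radius hc
  exact contDiff_const.mul (cauchyP_contDiff one_pos (ln_low a) hφ hR)

theorem dbj_two_mul {a : Fin n} {g : Cn n → ℂ} {z : Cn n} (hg : DifferentiableAt ℝ g z) :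
    dbj a (fun x => 2 * g x) z = 2 * dbj a g z :=
  wd_const_smul (2 : ℂ) hg (true, a)

theorem dbj_T_self (a : Fin n) {φ : Cn n → ℂ} (hφ : ContDiff ℝ ∞ φ)
    (hc : HasCompactSupport φ) (x : Cn n) : dbj a (T a φ) x = φ x := by
  obtain ⟨R, hR⟩ := exists_radius hc
  have h1 : ContDiff ℝ ∞ (cauchyP (ln a) φ) := cauchyP_contDiff one_pos (ln_low a) hφ hR
  have h2 := Dp_cauchyP one_pos (ln_low a) (hφ.of_le (by exact_mod_cast le_top)) hR x
  have h3 : dbj a (T a φ) x = 2 * dbj a (cauchyP (ln a) φ) x :=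
    dbj_two_mul (h1.contDiffAt.differentiableAt (by simp))
  rw [h3, dbj_eq_Dp, h2]
  ring

theorem dbj_T (a b : Fin n) {φ : Cn n → ℂ} (hφ : ContDiff ℝ ∞ φ)
    (hc : HasCompactSupport φ) (x : Cn n) :
    dbj b (T a φ) x = 2 * ∫ z, kc z * dbj b φ (x - ln a z) := by
  obtain ⟨R, hR⟩ := exists_radius hc
  have h1 : ContDiff ℝ ∞ (cauchyP (ln a) φ) := cauchyP_contDiff one_pos (ln_low a) hφ hR
  have h3 : dbj b (T a φ) x = 2 * dbj b (cauchyP (ln a) φ) x :=
    dbj_two_mul (h1.contDiffAt.differentiableAt (by simp))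
  obtain ⟨hi, hd⟩ := hasFDerivAt_cauchyP one_pos (ln_low a)
    (hφ.of_le (by exact_mod_cast le_top)) hR x
  rw [h3]
  congr 1
  simp only [dbj]
  rw [hd.fderiv, ContinuousLinearMap.integral_apply hi, ContinuousLinearMap.integral_apply hi,
    smul_eq_mul, smul_eq_mul, ← integral_const_mul]
  have hi1 : ∀ v, Integrable (fun z => (kc z • fderiv ℝ φ (x - ln a z)) v) := fun v =>
    hi.apply_continuousLinearMap v
  rw [← integral_add (hi1 _) ((hi1 _).const_mul _), ← integral_const_mul]
  refine integral_congr_ae (Eventually.of_forall fun z => ?_)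
  simp only [smul_apply, smul_eq_mul]
  ring

/-- if `∂φ/∂z̄_b` vanishes on the complex line through `x` in direction `a` then
`∂(Tφ)/∂z̄_b (x) = 0` -/
theorem dbj_T_eq_zero (a b : Fin n) {φ : Cn n → ℂ} (hφ : ContDiff ℝ ∞ φ)
    (hc : HasCompactSupport φ) {x : Cn n} (h : ∀ z : ℂ, dbj b φ (x - ln a z) = 0) :
    dbj b (T a φ) x = 0 := by
  rw [dbj_T a b hφ hc]
  simp only [h, mul_zero, integral_zero]

/-! ### polydiscs and cut-offs -/

/-- open polydisc -/
def PD (p : Cn n) (r : ℝ) : Set (Cn n) := {y | ∀ a, ‖y a - p a‖ < r}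

/-- closed polydisc -/
def CPD (p : Cn n) (r : ℝ) : Set (Cn n) := {y | ∀ a, ‖y a - p a‖ ≤ r}

theorem isOpen_PD (p : Cn n) (r : ℝ) : IsOpen (PD p r) := by
  have : PD p r = ⋂ a : Fin n, {y : Cn n | ‖y a - p a‖ < r} := by
    ext y
    simp [PD]
  rw [this]
  exact isOpen_iInter_of_finite fun a => isOpen_lt (by fun_prop) continuous_const

theorem isClosed_CPD (p : Cn n) (r : ℝ) : IsClosed (CPD p r) := by
  have : CPD p r = ⋂ a : Fin n, {y : Cn n | ‖y a - p a‖ ≤ r} := by
    ext y
    simp [CPD]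
  rw [this]
  exact isClosed_iInter fun a => isClosed_le (by fun_prop) continuous_const

theorem mem_PD_self {p : Cn n} {r : ℝ} (hr : 0 < r) : p ∈ PD p r := fun a => by simpa using hr

theorem PD_mono {p : Cn n} {r s : ℝ} (h : r ≤ s) : PD p r ⊆ PD p s := fun _ hy a =>
  (hy a).trans_le h

theorem CPD_sub_PD {p : Cn n} {r s : ℝ} (h : r < s) : CPD p r ⊆ PD p s := fun _ hy a =>
  (hy a).trans_lt h

theorem convex_PD (p : Cn n) (r : ℝ) : Convex ℝ (PD p r) := by
  have : PD p r = ⋂ a : Fin n, (fun y : Cn n => y a) ⁻¹' (Metric.ball (p a) r) := by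
    ext y
    simp [PD, dist_eq_norm]
  rw [this]
  refine convex_iInter fun a => ?_
  exact (convex_ball (p a) r).is_linear_preimage (f := fun y : Cn n => y a)
    ⟨fun x y => rfl, fun c x => rfl⟩

theorem isCompact_CPD (p : Cn n) (r : ℝ) : IsCompact (CPD p r) := by
  refine Metric.isCompact_of_isClosed_isBounded (isClosed_CPD p r) ?_
  refine (Metric.isBounded_iff_subset_closedBall p).2 ⟨Real.sqrt (∑ _a : Fin n, r ^ 2), ?_⟩
  intro y hy
  rw [Metric.mem_closedBall, EuclideanSpace.dist_eq]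
  refine Real.sqrt_le_sqrt (Finset.sum_le_sum fun a _ => ?_)
  have h1 : dist (y a) (p a) ≤ r := by
    rw [dist_eq_norm]
    exact hy a
  exact pow_le_pow_left₀ dist_nonneg h1 2

/-- every ball contains a polydisc -/
theorem exists_PD_subset {p : Cn n} {U : Set (Cn n)} (hU : U ∈ 𝓝 p) :
    ∃ r, 0 < r ∧ PD p r ⊆ U := by
  obtain ⟨ε, hε, h⟩ := Metric.mem_nhds_iff.1 hU
  refine ⟨ε / (n + 1), by positivity, fun y hy => h ?_⟩
  rw [Metric.mem_ball, EuclideanSpace.dist_eq, Real.sqrt_lt' hε]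
  have h1 : ∀ a : Fin n, dist (y a) (p a) ^ 2 ≤ (ε / (n + 1)) ^ 2 := by
    intro a
    have h2 : dist (y a) (p a) ≤ ε / (n + 1) := by
      rw [dist_eq_norm]
      exact (hy a).le
    exact pow_le_pow_left₀ dist_nonneg h2 2
  calc ∑ a : Fin n, dist (y a) (p a) ^ 2 ≤ ∑ _a : Fin n, (ε / (n + 1)) ^ 2 :=
        Finset.sum_le_sum fun a _ => h1 a
    _ = n * (ε / (n + 1)) ^ 2 := by simp
    _ < ε ^ 2 := by
      rw [div_pow, ← mul_div_assoc, div_lt_iff₀ (by positivity)]
      have h3 : (0 : ℝ) ≤ n := Nat.cast_nonneg n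
      have h4 : (n : ℝ) < ((n : ℝ) + 1) ^ 2 := by nlinarith
      have h5 : 0 < ε ^ 2 := by positivity
      calc (n : ℝ) * ε ^ 2 < ((n : ℝ) + 1) ^ 2 * ε ^ 2 := mul_lt_mul_of_pos_right h4 h5
        _ = ε ^ 2 * ((n : ℝ) + 1) ^ 2 := mul_comm _ _

/-- one variable bump: `1` on the disc of radius `r / 2`, `0` outside the disc of radius `3 r / 4` -/
def bmp (p : Cn n) (r : ℝ) (hr : 0 < r) (a : Fin n) : ContDiffBump (p a) where
  rIn := r / 2
  rOut := 3 * r / 4
  rIn_pos := by positivity
  rIn_lt_rOut := by linarith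

/-- product cut-off -/
def cut (p : Cn n) (r : ℝ) (hr : 0 < r) (y : Cn n) : ℂ := ((∏ a, bmp p r hr a (y a) : ℝ) : ℂ)

theorem contDiff_bmp (p : Cn n) (r : ℝ) (hr : 0 < r) (a : Fin n) :
    ContDiff ℝ ∞ (fun y : Cn n => bmp p r hr a (y a)) := by
  have h1 : ContDiff ℝ ∞ (fun y : Cn n => y a) :=
    ((EuclideanSpace.proj a : Cn n →L[ℂ] ℂ).restrictScalars ℝ).contDiff
  exact (bmp p r hr a).contDiff.comp h1

theorem contDiff_cut (p : Cn n) (r : ℝ) (hr : 0 < r) : ContDiff ℝ ∞ (cut p r hr) := by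
  have h1 : ContDiff ℝ ∞ (fun y : Cn n => ∏ a, bmp p r hr a (y a)) :=
    contDiff_prod fun a _ => contDiff_bmp p r hr a
  exact Complex.ofRealCLM.contDiff.comp h1

theorem bmp_one {p : Cn n} {r : ℝ} {hr : 0 < r} {y : Cn n} {a : Fin n} (h : ‖y a - p a‖ ≤ r / 2) :
    bmp p r hr a (y a) = 1 :=
  (bmp p r hr a).one_of_mem_closedBall (by
    rw [mem_closedBall_iff_norm]
    exact h)

theorem cut_eq_one {p : Cn n} {r : ℝ} {hr : 0 < r} {y : Cn n} (hy : ∀ a, ‖y a - p a‖ ≤ r / 2) :
    cut p r hr y = 1 := by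
  rw [cut, Finset.prod_eq_one fun a _ => bmp_one (hy a)]
  simp

theorem cut_support {p : Cn n} {r : ℝ} {hr : 0 < r} {y : Cn n} (h : cut p r hr y ≠ 0) :
    ∀ a, ‖y a - p a‖ < 3 * r / 4 := by
  intro a
  by_contra hc
  push Not at hc
  refine h ?_
  rw [cut, Finset.prod_eq_zero (Finset.mem_univ a)]
  · simp
  · exact (bmp p r hr a).zero_of_le_dist (by
      rw [dist_eq_norm]
      exact hc)

theorem tsupport_cut {p : Cn n} {r : ℝ} {hr : 0 < r} :
    tsupport (cut p r hr) ⊆ CPD p (3 * r / 4) :=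
  closure_minimal (fun _ hy a => (cut_support hy a).le) (isClosed_CPD _ _)

theorem contDiff_mul_of {χ f : Cn n → ℂ} {U : Set (Cn n)} (hU : IsOpen U)
    (hχ : ContDiff ℝ ∞ χ) (hs : tsupport χ ⊆ U) (hf : ContDiffOn ℝ ∞ f U) :
    ContDiff ℝ ∞ (fun y => χ y * f y) := by
  rw [contDiff_iff_contDiffAt]
  intro y
  by_cases hy : y ∈ U
  · exact hχ.contDiffAt.mul (hf.contDiffAt (hU.mem_nhds hy))
  · have h1 : χ =ᶠ[𝓝 y] 0 := notMem_tsupport_iff_eventuallyEq.1 fun h => hy (hs h)
    refine (contDiffAt_const (c := (0 : ℂ))).congr_of_eventuallyEq ?_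
    filter_upwards [h1] with w hw
    rw [hw]
    simp

/-- derivatives of the cut-off in the directions in which it is constant -/
theorem fderiv_cut_single {p : Cn n} {r : ℝ} {hr : 0 < r} {y : Cn n} {b : Fin n}
    (hy : ‖y b - p b‖ < r / 2) (c : ℂ) :
    fderiv ℝ (cut p r hr) y (EuclideanSpace.single b c) = 0 := by
  have hd : HasFDerivAt (cut p r hr) (fderiv ℝ (cut p r hr) y) y :=
    ((contDiff_cut p r hr).contDiffAt.differentiableAt (by simp)).hasFDerivAt
  have hl : HasDerivAt (fun t : ℝ => y + t • (EuclideanSpace.single b c : Cn n))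
      (EuclideanSpace.single b c) 0 := by
    have := ((hasDerivAt_id (0 : ℝ)).smul_const (EuclideanSpace.single b c : Cn n)).const_add y
    simpa using this
  have h0 : y + (0 : ℝ) • (EuclideanSpace.single b c : Cn n) = y := by simp
  have h1 : HasDerivAt (fun t : ℝ => cut p r hr (y + t • (EuclideanSpace.single b c : Cn n)))
      (fderiv ℝ (cut p r hr) y (EuclideanSpace.single b c)) 0 := by
    rw [← h0] at hd
    have h5 := hd.comp_hasDerivAt (0 : ℝ) hl
    rw [h0] at h5
    exact h5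
  have hcont : Continuous fun t : ℝ => ‖(y + t • (EuclideanSpace.single b c : Cn n)) b - p b‖ := by
    fun_prop
  have h2 : ∀ᶠ t : ℝ in 𝓝 0, ‖(y + t • (EuclideanSpace.single b c : Cn n)) b - p b‖ < r / 2 := by
    refine hcont.continuousAt.eventually_lt continuousAt_const ?_
    simpa using hy
  have h3 : (fun t : ℝ => cut p r hr (y + t • (EuclideanSpace.single b c : Cn n)))
      =ᶠ[𝓝 0] fun _ => cut p r hr y := by
    filter_upwards [h2] with t ht
    rw [cut, cut]
    congr 1
    refine Finset.prod_congr rfl fun a _ => ?_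
    rcases eq_or_ne a b with rfl | hab
    · rw [bmp_one ht.le, bmp_one hy.le]
    · congr 1
      simp [hab]
  exact h1.unique ((hasDerivAt_const (0 : ℝ) (cut p r hr y)).congr_of_eventuallyEq h3)

theorem dbj_cut {p : Cn n} {r : ℝ} {hr : 0 < r} {y : Cn n} {b : Fin n}
    (hy : ‖y b - p b‖ < r / 2) : dbj b (cut p r hr) y = 0 := by
  simp [dbj, fderiv_cut_single hy]

/-! ### the lemma -/

theorem dbj_congr {a : Fin n} {f g : Cn n → ℂ} {z : Cn n} (h : f =ᶠ[𝓝 z] g) :
    dbj a f z = dbj a g z := wd_congr h (true, a)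

theorem dbj_zero_of {a : Fin n} {f : Cn n → ℂ} {z : Cn n} (h : f =ᶠ[𝓝 z] fun _ => 0) :
    dbj a f z = 0 := by
  rw [dbj_congr h]
  exact wd_const (0 : ℂ) z (true, a)

theorem dbar_aux (k : ℕ) : ∀ (p : Cn n) (r : ℝ), 0 < r → ∀ f : Fin n → Cn n → ℂ,
    (∀ a, ContDiffOn ℝ ∞ (f a) (PD p r)) →
    (∀ a b, ∀ y ∈ PD p r, dbj a (f b) y = dbj b (f a) y) →
    (∀ a : Fin n, k ≤ a.val → ∀ y ∈ PD p r, f a y = 0) →
    ∃ s, 0 < s ∧ s ≤ r ∧ ∃ h : Cn n → ℂ, ContDiff ℝ ∞ h ∧
      ∀ a, ∀ y ∈ PD p s, dbj a h y = f a y := by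
  induction k with
  | zero =>
    intro p r hr f _ _ h0
    refine ⟨r, hr, le_rfl, fun _ => 0, contDiff_const, fun a y hy => ?_⟩
    rw [h0 a (Nat.zero_le _) y hy]
    exact wd_const (0 : ℂ) y (true, a)
  | succ k ih =>
    intro p r hr f hf hcl h0
    by_cases hk : k < n
    · set a0 : Fin n := ⟨k, hk⟩ with ha0
      set φ : Cn n → ℂ := fun y => cut p r hr y * f a0 y with hφ
      have hts : tsupport (cut p r hr) ⊆ PD p r :=
        tsupport_cut.trans (CPD_sub_PD (by linarith))
      have hφs : ContDiff ℝ ∞ φ :=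
        contDiff_mul_of (isOpen_PD p r) (contDiff_cut p r hr) hts (hf a0)
      have hφc : HasCompactSupport φ := by
        refine HasCompactSupport.of_support_subset_isCompact (isCompact_CPD p (3 * r / 4)) ?_
        intro y hy a
        have h1 : cut p r hr y ≠ 0 := left_ne_zero_of_mul hy
        exact (cut_support h1 a).le
      set u : Cn n → ℂ := T a0 φ with hu
      have hus : ContDiff ℝ ∞ u := contDiff_T a0 hφs hφc
      have hsub : PD p (r / 2) ⊆ PD p r := PD_mono (by linarith)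
      have hu0 : ∀ y ∈ PD p (r / 2), dbj a0 u y = f a0 y := by
        intro y hy
        rw [hu, dbj_T_self a0 hφs hφc, hφ]
        simp only
        rw [cut_eq_one fun a => (hy a).le, one_mul]
      have hub : ∀ b : Fin n, k + 1 ≤ b.val → ∀ y ∈ PD p (r / 2), dbj b u y = 0 := by
        intro b hb y hy
        refine dbj_T_eq_zero a0 b hφs hφc fun z => ?_
        have hba : b ≠ a0 := by
          intro h
          rw [h, ha0] at hb
          simp at hb
        set w : Cn n := y - ln a0 z with hw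
        have hwb : ‖w b - p b‖ < r / 2 := by
          have e1 : w b = y b := by
            rw [hw]
            simp [ln_coord, hba]
          rw [e1]
          exact hy b
        by_cases hwU : w ∈ PD p r
        · have d1 : DifferentiableAt ℝ (cut p r hr) w :=
            (contDiff_cut p r hr).contDiffAt.differentiableAt (by simp)
          have d2 : DifferentiableAt ℝ (f a0) w :=
            ((hf a0).contDiffAt ((isOpen_PD p r).mem_nhds hwU)).differentiableAt (by simp)
          have e2 : dbj b φ w = dbj b (cut p r hr) w * f a0 w + cut p r hr w * dbj b (f a0) w :=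
            wd_mul d1 d2 (true, b)
          have e3 : dbj b (f a0) w = 0 := by
            rw [hcl b a0 w hwU]
            refine dbj_zero_of ?_
            filter_upwards [(isOpen_PD p r).mem_nhds hwU] with v hv
            exact h0 b hb v hv
          rw [e2, dbj_cut hwb, e3]
          ring
        · refine dbj_zero_of ?_
          have h1 : cut p r hr =ᶠ[𝓝 w] 0 :=
            notMem_tsupport_iff_eventuallyEq.1 fun h => hwU (hts h)
          filter_upwards [h1] with v hv
          rw [hφ]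
          simp only
          rw [hv]
          simp
      -- the remaining form
      set f' : Fin n → Cn n → ℂ := fun a y => f a y + (-1 : ℂ) • dbj a u y with hf'
      have hdu : ∀ a, ContDiff ℝ ∞ (dbj a u) := fun a =>
        contDiff_iff_contDiffAt.2 fun y => contDiffAt_wd hus.contDiffAt (true, a)
      obtain ⟨s, hs0, hsr, h, hh, hh2⟩ := ih p (r / 2) (by positivity) f'
        (fun a => ((hf a).mono hsub).add ((hdu a).const_smul (-1 : ℂ)).contDiffOn)
        (fun a b y hy => by
          have e : ∀ a b : Fin n, dbj a (f' b) y = dbj a (f b) y + (-1 : ℂ) • dbj a (dbj b u) y := by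
            intro a b
            have d1 : DifferentiableAt ℝ (f b) y :=
              ((hf b).contDiffAt ((isOpen_PD p r).mem_nhds (hsub hy))).differentiableAt (by simp)
            have d2 : DifferentiableAt ℝ (dbj b u) y := (hdu b).contDiffAt.differentiableAt (by simp)
            have e1 : dbj a (f' b) y = dbj a (f b) y + dbj a (fun w => (-1 : ℂ) • dbj b u w) y :=
              wd_add d1 (d2.const_smul (-1 : ℂ)) (true, a)
            rw [e1]
            congr 1
            exact wd_const_smul (-1 : ℂ) d2 (true, a)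
          rw [e a b, e b a, hcl a b y (hsub hy)]
          congr 2
          exact wd_comm hus.contDiffAt (true, a) (true, b))
        (fun a ha y hy => by
          have e0 : f' a y = f a y - dbj a u y := by
            simp only [hf']
            rw [neg_one_smul]
            ring
          rw [e0]
          rcases Nat.eq_or_lt_of_le ha with hak | hak
          · have e1 : a = a0 := Fin.ext hak.symm
            rw [e1, hu0 y hy, sub_self]
          · rw [h0 a hak y (hsub hy), hub a hak y hy, sub_zero])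
      refine ⟨s, hs0, by linarith, fun y => h y + u y, hh.add hus, fun a y hy => ?_⟩
      have hyr : y ∈ PD p (r / 2) := PD_mono hsr hy
      have e1 : dbj a (fun y => h y + u y) y = dbj a h y + dbj a u y :=
        wd_add (hh.contDiffAt.differentiableAt (by simp)) (hus.contDiffAt.differentiableAt (by simp))
          (true, a)
      rw [e1, hh2 a y hy]
      simp only [hf']
      rw [neg_one_smul]
      ring
    · exact ih p r hr f hf hcl fun a ha => absurd a.isLt (by omega)

/-- **the `∂̄`-lemma for `(0,1)`-forms** in `ℂⁿ` -/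
theorem dbar_solve {p : Cn n} {r : ℝ} (hr : 0 < r) {f : Fin n → Cn n → ℂ}
    (hf : ∀ a, ContDiffOn ℝ ∞ (f a) (PD p r))
    (hcl : ∀ a b, ∀ y ∈ PD p r, dbj a (f b) y = dbj b (f a) y) :
    ∃ s, 0 < s ∧ s ≤ r ∧ ∃ h : Cn n → ℂ, ContDiff ℝ ∞ h ∧
      ∀ a, ∀ y ∈ PD p s, dbj a h y = f a y :=
  dbar_aux n p r hr f hf hcl fun a ha => absurd a.isLt (by omega)

end

end Crest.Agent.R281.KpD_487
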