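import Crest.Agent.R281.PL3_713
import Crest.Agent.R281.KpD_487
import Crest.Agent.R273.Fam_835

/-!
# R281 (S0424), PREQ (helper713), part 4: DICT-L, existence

* `loc_pot`     : local potentials of the (0,1)-part of the connection (`∂bar`-lemma)
* `exists_frame`: local smooth frames `e` with `D e (v) + i D e (J v) = 0` in a chart of `C`
* `Cmp.trans'`, `JC.chg` : another holomorphic atlas
* `Dic C J L A` : the dictionary on the holomorphic atlas `A`: `D.lb`, `D.hm`, `D.iso m`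
* `exists_dic`  : existence on a finite good atlas with a partition of unity
* `ofHM h`      : the converse, `PL (ofAtl A)` of a Hermitian line bundle, `potHM h`, `potHM_lb`
-/

set_option autoImplicit false
set_option linter.unusedSectionVars false
set_option maxSynthPendingDepth 3

open Set Filter Topology Complex
open scoped ContDiff ComplexConjugate

namespace Crest.Agent.R281.PL_713

open Crest.Agent.R281.HkR_835 Crest.Agent.R281.Ti_846
open Crest.Agent.R275.Geo Crest.Agent.R275.Core144 Crest.Agent.R273.Defs_333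
open Crest.Agent.R275.GC293 Crest.Agent.R273.PB_835 Crest.Agent.R273.Map_835
open Crest.Agent.R273.Fam_835 Crest.Agent.R273.Kah_333 Crest.Agent.R281.KpD_487

noncomputable section

/-! ### local potentials -/

section vec

variable {n : ℕ}

/-- from the Wirtinger derivatives to all vectors -/
theorem vec_zero {T : Cn n → ℂ} (h0 : T 0 = 0) (ha : ∀ u v, T (u + v) = T u + T v)
    (hr : ∀ (r : ℝ) u, T (r • u) = r * T u) (hI : ∀ v, T (I • v) = -I * T v)
    (he : ∀ a, T (EuclideanSpace.single a 1) = 0) (v : Cn n) : T v = 0 := by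
  have hc : ∀ (c : ℂ) (v : Cn n), T (c • v) = (c.re - I * c.im) * T v := by
    intro c v
    have : c • v = c.re • v + c.im • (I • v) := by
      ext a
      simp only [PiLp.smul_apply, PiLp.add_apply, smul_eq_mul, Complex.real_smul]
      conv_lhs => rw [← Complex.re_add_im c]
      ring
    rw [this, ha, hr, hr, hI]
    ring
  let T' : Cn n →+ ℂ := { toFun := T, map_zero' := h0, map_add' := ha }
  have h1 : T v = T' (∑ a, v a • (EuclideanSpace.single a 1 : Cn n)) := by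
    rw [← cn_sum v]
    rfl
  rw [h1, map_sum]
  refine Finset.sum_eq_zero fun a _ => ?_
  show T (v a • (EuclideanSpace.single a 1 : Cn n)) = 0
  rw [hc, he, mul_zero]

/-- the `∂bar`-equation for all vectors -/
theorem vec_eq {h : Cn n → ℂ} {θ : Cn n →L[ℝ] ℝ} {y : Cn n}
    (he : ∀ a, dbj a h y = (I / 2) * ((θ (EuclideanSpace.single a 1) : ℂ) +
      I * (θ (I • (EuclideanSpace.single a 1 : Cn n)) : ℂ))) (v : Cn n) :
    fderiv ℝ h y v + I * fderiv ℝ h y (I • v) = I * ((θ v : ℂ) + I * (θ (I • v) : ℂ)) := by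
  have key := vec_zero (T := fun v => fderiv ℝ h y v + I * fderiv ℝ h y (I • v) -
    I * ((θ v : ℂ) + I * (θ (I • v) : ℂ))) (by simp) (fun u v => by
      simp only [smul_add, map_add]
      push_cast
      ring) (fun r u => by
      have : I • (r • u) = r • (I • u) := smul_comm _ _ _
      simp only [this, map_smul, smul_eq_mul, Complex.real_smul]
      push_cast
      ring) (fun v => by
      simp only [smul_smul, I_mul_I, neg_one_smul, map_neg]
      push_cast
      linear_combination (fderiv ℝ h y (I • v) - I * (θ (I • v) : ℂ)) * I_mul_I) (fun a => by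
      have h1 := he a
      unfold dbj at h1
      rw [sing_I] at h1
      simp only [smul_eq_mul] at h1
      linear_combination 2 * h1) v
  exact sub_eq_zero.1 key

end vec

variable {V X : Type} [NormedAddCommGroup V] [NormedSpace ℝ V] [TopologicalSpace X]
  {C : RCh V X} {n : ℕ} {A : Atl n X} {J : C.ι → V → V →L[ℝ] V}

/-- the differential of the connection form read in another chart -/
theorem dthc {V' : Type} [NormedAddCommGroup V'] [NormedSpace ℝ V'] {C' : RCh V' X}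
    (h : Cmp C C') (L : PL C) {i : C.ι} {a : C'.ι} {z : V'} (hm : z ∈ mov C C' i a) (u v : V') :
    fderiv ℝ (thc L C' i a) z u v - fderiv ℝ (thc L C' i a) z v u =
      L.F.w i (mt C C' i a z) (fderiv ℝ (mt C C' i a) z u) (fderiv ℝ (mt C C' i a) z v) := by
  have h0 := Cmp.isOpen_mov C C' i a
  have hs : ContDiffAt ℝ ∞ (mt C C' i a) z := (h.s i a).contDiffAt (h0.mem_nhds hm)
  have ht' : DifferentiableAt ℝ (fderiv ℝ (mt C C' i a)) z :=
    (((h.s i a).fderiv_of_isOpen h0 (m := ∞) (by simp)).contDiffAt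
      (h0.mem_nhds hm)).differentiableAt (by simp)
  have h2 : HasFDerivAt (fun y => L.th i (mt C C' i a y))
      ((fderiv ℝ (L.th i) (mt C C' i a z)).comp (fderiv ℝ (mt C C' i a) z)) z :=
    HasFDerivAt.comp (g := L.th i) (f := mt C C' i a) z
      (L.th_diff (Cmp.mt_mem hm).1).hasFDerivAt (h.diff hm).hasFDerivAt
  have h3 : HasFDerivAt (thc L C' i a) _ z := h2.clm_comp ht'.hasFDerivAt
  have h4 : ∀ p q, fderiv ℝ (thc L C' i a) z p q =
      fderiv ℝ (L.th i) (mt C C' i a z) (fderiv ℝ (mt C C' i a) z p)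
        (fderiv ℝ (mt C C' i a) z q) +
        L.th i (mt C C' i a z) (fderiv ℝ (fderiv ℝ (mt C C' i a)) z p q) := by
    intro p q
    rw [h3.fderiv]
    simp [add_comm]
  rw [h4, h4, sym2 hs u v, PL.F_w]
  ring

/-- the curvature is of type (1,1) -/
def F11 (J : C.ι → V → V →L[ℝ] V) (L : PL C) : Prop :=
  ∀ i, ∀ z ∈ (C.e i).target, ∀ u v, L.F.w i z (J i z u) (J i z v) = L.F.w i z u v

/-- **local potentials** -/
theorem loc_pot (hJ : JC C J A) {L : PL C} (hF : F11 J L) {x : X} {i : C.ι}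
    (hi : x ∈ (C.e i).source) {a : A.ι} (ha : x ∈ (A.e a).source) :
    ∃ s, 0 < s ∧ PD (A.e a x) s ⊆ mov C (ofAtl A) i a ∧ ∃ h : Cn n → ℂ, ContDiff ℝ ∞ h ∧
      ∀ y ∈ PD (A.e a x) s, ∀ v : Cn n, fderiv ℝ h y v + I * fderiv ℝ h y (I • v) =
        I * ((thc L (ofAtl A) i a y v : ℂ) + I * (thc L (ofAtl A) i a y (I • v) : ℂ)) := by
  have h0 := Cmp.isOpen_mov C (ofAtl A) i a
  have hz : A.e a x ∈ mov C (ofAtl A) i a := ⟨(A.e a).map_source ha, by
    show (A.e a).symm (A.e a x) ∈ (C.e i).source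
    rw [(A.e a).left_inv ha]
    exact hi⟩
  obtain ⟨r, hr, hrs⟩ := exists_PD_subset (h0.mem_nhds hz)
  set Θ := thc L (ofAtl A) i a with hΘ
  have hΘs : ContDiffOn ℝ ∞ Θ (mov C (ofAtl A) i a) := thc_sm hJ.cmp L i a
  set f : Fin n → Cn n → ℂ := fun b y => (I / 2) * ((Θ y (EuclideanSpace.single b 1) : ℂ) +
    I * (Θ y (I • (EuclideanSpace.single b 1 : Cn n)) : ℂ)) with hf
  have hap : ∀ w : Cn n, ContDiffOn ℝ ∞ (fun y => ((Θ y w : ℝ) : ℂ)) (mov C (ofAtl A) i a) :=
    fun w => Complex.ofRealCLM.contDiff.comp_contDiffOn (hΘs.clm_apply contDiffOn_const)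
  have hfs : ∀ b, ContDiffOn ℝ ∞ (f b) (PD (A.e a x) r) := fun b =>
    (contDiffOn_const.mul ((hap _).add (contDiffOn_const.mul (hap _)))).mono hrs
  have hD : ∀ b, ∀ y ∈ PD (A.e a x) r, ∀ w, fderiv ℝ (f b) y w =
      (I / 2) * ((fderiv ℝ Θ y w (EuclideanSpace.single b 1) : ℂ) +
        I * (fderiv ℝ Θ y w (I • (EuclideanSpace.single b 1 : Cn n)) : ℂ)) := by
    intro b y hy w
    have hΘd : DifferentiableAt ℝ Θ y :=
      (hΘs.contDiffAt (h0.mem_nhds (hrs hy))).differentiableAt (by simp)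
    have g1 : ∀ c : Cn n, HasFDerivAt (fun y => ((Θ y c : ℝ) : ℂ))
        (Complex.ofRealCLM.comp (fderiv ℝ (fun y => Θ y c) y)) y := fun c =>
      Complex.ofRealCLM.hasFDerivAt.comp y
        (hΘd.hasFDerivAt.clm_apply (hasFDerivAt_const c y)).differentiableAt.hasFDerivAt
    have g2 : HasFDerivAt (f b) _ y :=
      ((g1 (EuclideanSpace.single b 1)).add
        ((g1 (I • (EuclideanSpace.single b 1 : Cn n))).const_mul I)).const_mul (I / 2)
    rw [g2.fderiv]
    simp only [smul_apply, add_apply, smul_eq_mul, ContinuousLinearMap.comp_apply,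
      Complex.ofRealCLM_apply, ap1 hΘd]
  obtain ⟨s, hs, hsr, h, hh, heq⟩ := dbar_solve hr hfs (fun p q y hy => by
    have hm := hrs hy
    have k : ∀ u v : Cn n, fderiv ℝ Θ y (I • u) (I • v) - fderiv ℝ Θ y (I • v) (I • u) =
        fderiv ℝ Θ y u v - fderiv ℝ Θ y v u := by
      intro u v
      rw [dthc hJ.cmp L hm, dthc hJ.cmp L hm, hJ.lin i a y hm, hJ.lin i a y hm,
        hF _ _ (Cmp.mt_mem hm).1]
    obtain ⟨u, hu⟩ : ∃ u : Cn n, u = EuclideanSpace.single p 1 := ⟨_, rfl⟩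
    obtain ⟨v, hv⟩ : ∃ v : Cn n, v = EuclideanSpace.single q 1 := ⟨_, rfl⟩
    have k1 := k u v
    have k2 := k u (I • v)
    rw [smul_smul, I_mul_I, neg_one_smul, map_neg, map_neg, neg_apply] at k2
    unfold dbj
    rw [sing_I, sing_I, hD q y hy, hD q y hy, hD p y hy, hD p y hy, ← hu, ← hv]
    simp only [smul_eq_mul]
    have k1' : ((fderiv ℝ Θ y (I • u) (I • v) : ℝ) : ℂ) - (fderiv ℝ Θ y (I • v) (I • u) : ℝ) =
        (fderiv ℝ Θ y u v : ℝ) - (fderiv ℝ Θ y v u : ℝ) := by exact_mod_cast k1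
    have k2' : -((fderiv ℝ Θ y (I • u) v : ℝ) : ℂ) - -(fderiv ℝ Θ y v (I • u) : ℝ) =
        (fderiv ℝ Θ y u (I • v) : ℝ) - (fderiv ℝ Θ y (I • v) u : ℝ) := by exact_mod_cast k2
    linear_combination (1 / 4 * I * ((fderiv ℝ Θ y (I • u) (I • v) : ℝ) -
      (fderiv ℝ Θ y (I • v) (I • u) : ℝ))) * I_mul_I - (I / 4) * k1' - (I * I / 4) * k2')
  refine ⟨s, hs, (PD_mono hsr).trans hrs, h, hh, fun y hy v => ?_⟩
  exact vec_eq (fun b => heq b y hy) v

/-- **local holomorphic frames** in the charts of `C` -/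
theorem exists_frame (hJ : JC C J A) {L : PL C} (hF : F11 J L) {i : C.ι} {z : V}
    (hz : z ∈ (C.e i).target) : ∃ U : Set V, IsOpen U ∧ z ∈ U ∧ U ⊆ (C.e i).target ∧
      ∃ e : V → ℂ, ContDiffOn ℝ ∞ e U ∧ (∀ y ∈ U, e y ≠ 0) ∧ ∀ y ∈ U, ∀ v,
        (fderiv ℝ e y v + I * (L.th i y v : ℂ) * e y) +
          I * (fderiv ℝ e y (J i y v) + I * (L.th i y (J i y v) : ℂ) * e y) = 0 := by
  set x := (C.e i).symm z with hx
  have hi : x ∈ (C.e i).source := (C.e i).map_target hz
  obtain ⟨a, ha⟩ := A.cover x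
  obtain ⟨s, hs, hsub, h, hh, heq⟩ := loc_pot hJ hF hi ha
  have h0 : IsOpen (mov (ofAtl A) C a i) := Cmp.isOpen_mov (ofAtl A) C a i
  set m := mt (ofAtl A) C a i with hm
  have hms : ContDiffOn ℝ ∞ m (mov (ofAtl A) C a i) := hJ.cmp.s' i a
  refine ⟨mov (ofAtl A) C a i ∩ m ⁻¹' PD (A.e a x) s, hms.continuousOn.isOpen_inter_preimage h0
    (isOpen_PD _ _), ⟨⟨hz, ha⟩, mem_PD_self hs⟩, fun y hy => hy.1.1, fun y => exp (-h (m y)), ?_,
    fun y _ => exp_ne_zero _, fun y hy v => ?_⟩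
  · exact ((hh.comp_contDiffOn (hms.mono inter_subset_left)).neg).cexp
  · have hy1 := hy.1
    have hmy : m y ∈ mov C (ofAtl A) i a := Cmp.mt_mem (C := ofAtl A) (C' := C) hy1
    have hmd : HasFDerivAt m (fderiv ℝ m y) y := (hJ.cmp.symm.diff hy1).hasFDerivAt
    have g1 : HasFDerivAt (fun y => h (m y)) ((fderiv ℝ h (m y)).comp (fderiv ℝ m y)) y :=
      HasFDerivAt.comp (g := h) (f := m) y
        ((hh.contDiffAt (x := m y)).differentiableAt (by simp)).hasFDerivAt hmd
    have g2 : HasFDerivAt (fun y => exp (-h (m y))) _ y := g1.fun_neg.cexp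
    have e1 := heq (m y) hy.2 (fderiv ℝ m y v)
    have e2 : ∀ w, thc L (ofAtl A) i a (m y) (fderiv ℝ m y w) = L.th i y w := by
      intro w
      rw [thc_apply, hm, Cmp.mt_mt (C := ofAtl A) (C' := C) hy1]
      congr 1
      exact hJ.cmp.symm.d_d hy1 w
    rw [← hJ.lin' hy1, e2, e2] at e1
    rw [g2.fderiv]
    simp only [smul_apply, neg_apply, smul_eq_mul, ContinuousLinearMap.comp_apply]
    linear_combination (-exp (-h (m y))) * e1

/-! ### another holomorphic atlas -/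

theorem Cmp_trans {V V' V'' : Type} [NormedAddCommGroup V] [NormedSpace ℝ V]
    [NormedAddCommGroup V'] [NormedSpace ℝ V'] [NormedAddCommGroup V''] [NormedSpace ℝ V'']
    {C : RCh V X} {C' : RCh V' X} {C'' : RCh V'' X} (h : Cmp C C') (h' : Cmp C' C'') :
    Cmp C C'' := by
  have key : ∀ {V V' V'' : Type} [NormedAddCommGroup V] [NormedSpace ℝ V]
      [NormedAddCommGroup V'] [NormedSpace ℝ V'] [NormedAddCommGroup V''] [NormedSpace ℝ V'']
      {C : RCh V X} {C' : RCh V' X} {C'' : RCh V'' X} (_ : Cmp C C') (_ : Cmp C' C'')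
      (i : C.ι) (k : C''.ι), ContDiffOn ℝ ∞ (mt C C'' i k) (mov C C'' i k) := by
    intro V V' V'' _ _ _ _ _ _ C C' C'' h h' i k z hz
    obtain ⟨j, hj⟩ := Cmp.exists_mov (C' := C'') C' (j := k) hz.1
    have h1 : mt C' C'' j k z ∈ mov C C' i j := by
      refine ⟨(Cmp.mt_mem hj).1, ?_⟩
      show (C'.e j).symm (C'.e j ((C''.e k).symm z)) ∈ (C.e i).source
      rw [(C'.e j).left_inv hj.2]
      exact hz.2
    have h2 : ContDiffAt ℝ ∞ (fun y => mt C C' i j (mt C' C'' j k y)) z :=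
      ((h.s i j).contDiffAt ((Cmp.isOpen_mov C C' i j).mem_nhds h1)).comp z
        ((h'.s j k).contDiffAt ((Cmp.isOpen_mov C' C'' j k).mem_nhds hj))
    refine (h2.congr_of_eventuallyEq ?_).contDiffWithinAt
    filter_upwards [(Cmp.isOpen_mov C' C'' j k).mem_nhds hj] with y hy
    show C.e i ((C''.e k).symm y) = C.e i ((C'.e j).symm (C'.e j ((C''.e k).symm y)))
    rw [(C'.e j).left_inv hy.2]
  exact ⟨fun i j => key h h' i j, fun i j => key h'.symm h.symm j i⟩

theorem cmp_of_bih {A' : Atl n X} (h1 : HolMap A' A id) (h2 : HolMap A A' id) :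
    Cmp (ofAtl A) (ofAtl A') := by
  have key : ∀ {A A' : Atl n X} (_ : HolMap A' A id) (i : A.ι) (j : A'.ι),
      ContDiffOn ℝ ∞ (mt (ofAtl A) (ofAtl A') i j) (mov (ofAtl A) (ofAtl A') i j) := by
    intro A A' h i j
    have h3 := h.hol j i
    have h4 := h.isOpen_dm j i
    exact ((Crest.Agent.R266.SCV.contDiffOn_omega_of_differentiableOn h4 h3).restrict_scalars
      ℝ).of_le le_top
  exact ⟨fun i j => key h1 i j, fun i j => key h2 j i⟩

theorem mt_comp {V' V'' : Type} [NormedAddCommGroup V'] [NormedSpace ℝ V']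
    [NormedAddCommGroup V''] [NormedSpace ℝ V''] {C' : RCh V' X} {C'' : RCh V'' X}
    {i : C.ι} {j : C'.ι} {k : C''.ι} {z : V''} (hj : z ∈ mov C' C'' j k) :
    mt C C' i j (mt C' C'' j k z) = mt C C'' i k z := by
  show C.e i ((C'.e j).symm (C'.e j ((C''.e k).symm z))) = C.e i ((C''.e k).symm z)
  rw [(C'.e j).left_inv hj.2]

theorem mt_comp_mem {V' V'' : Type} [NormedAddCommGroup V'] [NormedSpace ℝ V']
    [NormedAddCommGroup V''] [NormedSpace ℝ V''] {C' : RCh V' X} {C'' : RCh V'' X}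
    {i : C.ι} {j : C'.ι} {k : C''.ι} {z : V''} (hj : z ∈ mov C' C'' j k)
    (hz : z ∈ mov C C'' i k) : mt C' C'' j k z ∈ mov C C' i j := by
  refine ⟨(Cmp.mt_mem hj).1, ?_⟩
  show (C'.e j).symm (C'.e j ((C''.e k).symm z)) ∈ (C.e i).source
  rw [(C'.e j).left_inv hj.2]
  exact hz.2

theorem dmt_comp {V' V'' : Type} [NormedAddCommGroup V'] [NormedSpace ℝ V']
    [NormedAddCommGroup V''] [NormedSpace ℝ V''] {C' : RCh V' X} {C'' : RCh V'' X}
    (h : Cmp C C') (h' : Cmp C' C'') {i : C.ι} {j : C'.ι} {k : C''.ι} {z : V''}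
    (hj : z ∈ mov C' C'' j k) (hz : z ∈ mov C C'' i k) (v : V'') :
    fderiv ℝ (mt C C' i j) (mt C' C'' j k z) (fderiv ℝ (mt C' C'' j k) z v) =
      fderiv ℝ (mt C C'' i k) z v := by
  have h1 : (fun y => mt C C' i j (mt C' C'' j k y)) =ᶠ[𝓝 z] mt C C'' i k := by
    filter_upwards [(Cmp.isOpen_mov C' C'' j k).mem_nhds hj] with y hy using mt_comp hy
  have h2 : HasFDerivAt (fun y => mt C C' i j (mt C' C'' j k y)) _ z :=
    HasFDerivAt.comp (g := mt C C' i j) (f := mt C' C'' j k) z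
      (h.diff (mt_comp_mem hj hz)).hasFDerivAt (h'.diff hj).hasFDerivAt
  rw [← h1.fderiv_eq, h2.fderiv]
  rfl

/-- transitions between holomorphic atlases are `ℂ`-linear -/
theorem bih_lin {A' : Atl n X} (h1 : HolMap A' A id) {i : A.ι} {j : A'.ι} {z : Cn n}
    (hz : z ∈ mov (ofAtl A) (ofAtl A') i j) (v : Cn n) :
    fderiv ℝ (mt (ofAtl A) (ofAtl A') i j) z (I • v) =
      I • fderiv ℝ (mt (ofAtl A) (ofAtl A') i j) z v := by
  have h3 : DifferentiableAt ℂ (mt (ofAtl A) (ofAtl A') i j) z :=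
    (h1.hol j i).differentiableAt ((h1.isOpen_dm j i).mem_nhds hz)
  rw [h3.fderiv_restrictScalars ℝ]
  simp

/-- a change of the holomorphic atlas -/
theorem JC.chg (h : JC C J A) {A' : Atl n X} (h1 : HolMap A' A id) (h2 : HolMap A A' id) :
    JC C J A' where
  cmp := Cmp_trans h.cmp (cmp_of_bih h1 h2)
  lin i k z hz v := by
    obtain ⟨a, ha⟩ := Cmp.exists_mov (C' := ofAtl A') (ofAtl A) (j := k) hz.1
    have hm := mt_comp_mem (C := C) ha hz
    rw [← dmt_comp h.cmp (cmp_of_bih h1 h2) ha hz, ← dmt_comp h.cmp (cmp_of_bih h1 h2) ha hz,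
      bih_lin h1 ha, h.lin i a _ hm, mt_comp ha]

/-! ### the dictionary -/

/-- the dictionary between `L : PL C` and the holomorphic atlas `A` -/
structure Dic (C : RCh V X) (J : C.ι → V → V →L[ℝ] V) (L : PL C) (A : Atl n X) where
  jc : JC C J A
  κ : A.ι → C.ι
  hκ : Sub C (ofAtl A) κ
  P : Pot (L.chg jc.cmp κ hκ)

/-- **DICT-L, existence** -/
theorem exists_dic [CompactSpace X] [T2Space X] (hJ : JC C J A) {L : PL C} (hF : F11 J L) :
    ∃ A' : Atl n X, Finite A'.ι ∧ GoodA A' ∧ Nonempty (Part A') ∧ LBih A' A id ∧ LBih A A' id ∧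
      Nonempty (Dic C J L A') := by
  choose ix hix using C.cover
  choose a ha using A.cover
  have hl := fun x => loc_pot hJ hF (hix x) (ha x)
  choose s hs hsub h hh heq using hl
  obtain ⟨A', hfin, hG, hP, hsubs, -, hL1, hL2⟩ := exists_refine A
    (fun x => (A.e (a x)).source ∩ A.e (a x) ⁻¹' PD (A.e (a x) x) (s x))
    (fun x => (A.e (a x)).isOpen_inter_preimage (isOpen_PD _ _))
    (fun x => ⟨x, ha x, mem_PD_self (hs x)⟩)
  choose q hq using hsubs
  have h1 := hL1.toHolMap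
  have h2 := hL2.toHolMap
  have hJ' := hJ.chg h1 h2
  have hc := cmp_of_bih h1 h2
  -- chart `k` of `A'` inside the polydisc
  have hmem : ∀ k, ∀ z ∈ (A'.e k).target, z ∈ mov (ofAtl A) (ofAtl A') (a (q k)) k :=
    fun k z hz => ⟨hz, (hq k ((A'.e k).map_target hz)).1⟩
  have hPD : ∀ k, ∀ z ∈ (A'.e k).target, mt (ofAtl A) (ofAtl A') (a (q k)) k z ∈
      PD (A.e (a (q k)) (q k)) (s (q k)) := fun k z hz => (hq k ((A'.e k).map_target hz)).2
  have hκ : Sub C (ofAtl A') (fun k => ix (q k)) := by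
    intro k y hy
    have hy1 := hq k hy
    have := (hsub (q k) hy1.2).2
    have h3 : (A.e (a (q k))).symm (A.e (a (q k)) y) ∈ (C.e (ix (q k))).source := this
    rwa [(A.e (a (q k))).left_inv hy1.1] at h3
  refine ⟨A', hfin, hG, hP, hL1, hL2, ⟨⟨hJ', fun k => ix (q k), hκ, ?_⟩⟩⟩
  refine ⟨fun k z => h (q k) (mt (ofAtl A) (ofAtl A') (a (q k)) k z), fun k => ?_,
    fun k z hz v => ?_⟩
  · exact (hh (q k)).comp_contDiffOn ((hc.s (a (q k)) k).mono fun z hz => hmem k z hz)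
  · have hz1 := hmem k z hz
    have hz2 : z ∈ mov C (ofAtl A') (ix (q k)) k := hκ.mem hz
    have g1 : HasFDerivAt (fun z => h (q k) (mt (ofAtl A) (ofAtl A') (a (q k)) k z)) _ z :=
      HasFDerivAt.comp (g := h (q k)) (f := mt (ofAtl A) (ofAtl A') (a (q k)) k) z
        (((hh (q k)).contDiffAt).differentiableAt (by simp)).hasFDerivAt
        (hc.diff hz1).hasFDerivAt
    have e1 := heq (q k) _ (hPD k z hz) (fderiv ℝ (mt (ofAtl A) (ofAtl A') (a (q k)) k) z v)
    have e2 : ∀ w, thc L (ofAtl A) (ix (q k)) (a (q k)) (mt (ofAtl A) (ofAtl A') (a (q k)) k z)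
        (fderiv ℝ (mt (ofAtl A) (ofAtl A') (a (q k)) k) z w) =
        (L.chg hJ'.cmp (fun k => ix (q k)) hκ).th k z w := by
      intro w
      rw [thc_apply, PL.chg_th, mt_comp hz1, dmt_comp hJ.cmp hc hz1 hz2]
    rw [← bih_lin h1 hz1, e2, e2] at e1
    rw [g1.fderiv]
    exact e1

namespace Dic

variable {L : PL C} (D : Dic C J L A)

/-- the holomorphic line bundle -/
def lb : LB A := D.P.lb

/-- its metric -/
def hm : HM D.lb := D.P.hm

/-- powers -/
def pow (m : ℕ) : Dic C J (L.pow m) A where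
  jc := D.jc
  κ := D.κ
  hκ := D.hκ
  P :=
    { h := (D.P.pow m).h
      sm := (D.P.pow m).sm
      eq := fun i z hz v => by
        have h1 := (D.P.pow m).eq i z hz v
        simp only [PL.pow_th, smul_apply, PL.chg_th] at h1 ⊢
        exact h1 }

theorem lb_pow (m : ℕ) : (D.pow m).lb = D.lb ^ m := by
  show (D.pow m).P.lb = D.P.lb ^ m
  rw [← Pot.lb_pow]
  ext i j x
  by_cases hx : x ∈ (A.e i).source ∩ (A.e j).source
  · rw [Pot.lb_g _ hx, Pot.lb_g _ hx]
    rfl
  · rw [LB.off _ i j x hx, LB.off _ i j x hx]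

/-- products -/
def mul {L' : PL C} (D : Dic C J L A) (P' : Pot (L'.chg D.jc.cmp D.κ D.hκ)) :
    Dic C J (L.mul L') A where
  jc := D.jc
  κ := D.κ
  hκ := D.hκ
  P :=
    { h := (D.P.mul P').h
      sm := (D.P.mul P').sm
      eq := fun i z hz v => by
        have h1 := (D.P.mul P').eq i z hz v
        simp only [PL.mul_th, add_apply, PL.chg_th] at h1 ⊢
        exact h1 }

/-- sections of `L` with `db = 0` are the holomorphic sections of `D.lb` -/
def iso0 : L.H0 J ≃ₗ[ℂ] (L.chg D.jc.cmp D.κ D.hκ).H0 (iJ A) :=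
  LinearEquiv.ofSubmodules (chS D.jc.cmp D.κ D.hκ) (L.H0 J)
    ((L.chg D.jc.cmp D.κ D.hκ).H0 (iJ A)) (by
      ext s
      constructor
      · rintro ⟨t, ht, rfl⟩
        exact (D.jc.mem_H0 D.κ D.hκ t).2 ht
      · intro hs
        refine ⟨(chS D.jc.cmp D.κ D.hκ).symm s, ?_, LinearEquiv.apply_symm_apply _ _⟩
        refine (D.jc.mem_H0 D.κ D.hκ _).1 ?_
        have : chF D.jc.cmp D.κ D.hκ ((chS D.jc.cmp D.κ D.hκ).symm s) = s :=
          (chS D.jc.cmp D.κ D.hκ (L := L)).apply_symm_apply s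
        rw [this]
        exact hs)

/-- the isomorphism -/
def iso : L.H0 J ≃ₗ[ℂ] HS D.lb univ := D.iso0.trans D.P.iso

theorem iso_apply (s : L.H0 J) {a : A.ι} {x : X} (hx : x ∈ (A.e a).source) :
    (D.iso s : A.ι → X → ℂ) a x =
      s.1.u (D.κ a) (C.e (D.κ a) x) * exp (D.P.h a (A.e a x)) := by
  show D.P.sx (chF D.jc.cmp D.κ D.hκ s.1) a x = _
  rw [D.P.sx_of _ hx, chF_u _ _ _ _ ((A.e a).map_source hx)]
  have : mt C (ofAtl A) (D.κ a) a (A.e a x) = C.e (D.κ a) x := by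
    show C.e (D.κ a) ((A.e a).symm (A.e a x)) = _
    rw [(A.e a).left_inv hx]
  rw [this]

/-- the curvature of the metric -/
theorem cur_eq {a : A.ι} {x : X} (hx : x ∈ (A.e a).source) (u v : Cn n) :
    -2 * (I * hb (cur D.hm a x) u v).re = L.F.w (D.κ a) (C.e (D.κ a) x)
      (fderiv ℝ (mt C (ofAtl A) (D.κ a) a) (A.e a x) u)
      (fderiv ℝ (mt C (ofAtl A) (D.κ a) a) (A.e a x) v) := by
  have h1 := D.P.F_cur hx u v
  rw [PL.chg_F _ _ _ _ ((A.e a).map_source hx)] at h1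
  have : mt C (ofAtl A) (D.κ a) a (A.e a x) = C.e (D.κ a) x := by
    show C.e (D.κ a) ((A.e a).symm (A.e a x)) = _
    rw [(A.e a).left_inv hx]
  rw [this] at h1
  exact h1.symm

end Dic

end

end Crest.Agent.R281.PL_713
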