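import Crest.Agent.R281.Hy5_409
import Crest.Agent.R281.Hy6_409
import Crest.Agent.R281.PL4_713

/-!
# R281 (S0424), H0-OP, second road (helper409), part 7: the LOCAL SOLUTION

* `chg_le`    : change of variables on compact sets, inequality
* `Loc n J th`: local data: complex coordinates `σ`, inverse `τ`, frame `e`
* `Loc.solve` : `u m` `L²`-Cauchy, `D'' u m → 0` in `L²` on a closed ball ⟹ the limit is a smooth
                solution of `D'' g = 0` on the open ball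
-/

set_option autoImplicit false
set_option linter.unusedSectionVars false
set_option maxSynthPendingDepth 3

open Set Filter Topology MeasureTheory Metric
open scoped ContDiff ENNReal NNReal

namespace Crest.Agent.R281.Hy_409

open Crest.Agent.R281.HkR_835 Crest.Agent.R281.Ti_846 Crest.Agent.R281.PL_713
open Crest.Agent.R271.Weyl399

noncomputable section

variable {V W : Type} [NormedAddCommGroup V] [NormedSpace ℝ V] [FiniteDimensional ℝ V]
  [MeasurableSpace V] [BorelSpace V] [NormedAddCommGroup W] [NormedSpace ℝ W]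
  [FiniteDimensional ℝ W] [MeasurableSpace W] [BorelSpace W]

/-- change of variables on compact subsets -/
theorem chg_le (μ : Measure V) [μ.IsAddHaarMeasure] (ν : Measure W) [ν.IsAddHaarMeasure]
    (L : V ≃L[ℝ] W) {O : Set V} (hO : IsOpen O) {σ : V → W} (hσ : ContDiffOn ℝ ∞ σ O)
    (hinj : InjOn σ O) {K : Set V} (hK : IsCompact K) (hKO : K ⊆ O) :
    ∃ c : ℝ≥0, ∀ T : Set V, T ⊆ K → MeasurableSet T → ∀ f : W → ℝ≥0∞,
      ∫⁻ z in σ '' T, f z ∂ν ≤ c * ∫⁻ y in T, f (σ y) ∂μ := by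
  obtain ⟨c, hc⟩ := lintegral_image_le μ ν L
  have h1 : ContinuousOn (fderiv ℝ σ) O := hσ.continuousOn_fderiv_of_isOpen hO (by simp)
  have h2 : ContinuousOn (fun y => ((L.symm : W →L[ℝ] V).comp (fderiv ℝ σ y)).det) K := by
    have h3 : Continuous fun A : V →L[ℝ] W => ((L.symm : W →L[ℝ] V).comp A).det :=
      ContinuousLinearMap.continuous_det.comp
        (((ContinuousLinearMap.compL ℝ V W V) (L.symm : W →L[ℝ] V)).continuous)
    exact h3.comp_continuousOn (h1.mono hKO)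
  obtain ⟨b, hb⟩ := hK.exists_bound_of_continuousOn h2
  refine ⟨c * b.toNNReal, fun T hTK hT f => ?_⟩
  have := hc T σ b.toNNReal hT (fun y hy => (hσ.contDiffAt (hO.mem_nhds (hKO (hTK hy)))).differentiableAt
    (by simp)) (hinj.mono (hTK.trans hKO)) (fun y hy => by
      refine le_trans ?_ (Real.le_coe_toNNReal b)
      exact hb y (hTK hy)) f
  push_cast
  exact this

/-! ### covariant derivatives of functions -/

/-- covariant derivative of a function -/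
def DT (th : V → V →L[ℝ] ℝ) (u : V → ℂ) (z : V) : V →L[ℝ] ℂ :=
  fderiv ℝ u z + (Complex.I * u z) • cof (th z)

theorem DL_DT {X : Type} [TopologicalSpace X] {C : RCh V X} {L : PL C} (s : Sec L) (i : C.ι)
    (z : V) : DL s i z = DT (L.th i) (s.u i) z := rfl

theorem DT_congr {th : V → V →L[ℝ] ℝ} {u u' : V → ℂ} {z : V} (h : u =ᶠ[𝓝 z] u') :
    DT th u z = DT th u' z := by
  unfold DT
  rw [h.fderiv_eq, h.eq_of_nhds]

theorem DT_mul {th : V → V →L[ℝ] ℝ} {q e : V → ℂ} {z : V} (hq : DifferentiableAt ℝ q z)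
    (he : DifferentiableAt ℝ e z) : DT th (fun z => q z * e z) z =
      e z • fderiv ℝ q z + q z • DT th e z := by
  unfold DT
  have h : HasFDerivAt (fun z => q z * e z) _ z := hq.hasFDerivAt.mul he.hasFDerivAt
  rw [h.fderiv]
  ext v
  simp only [add_apply, smul_apply, smul_eq_mul, cof_apply]
  ring

/-- local data -/
structure Loc (n : ℕ) (J : V → V →L[ℝ] V) (th : V → V →L[ℝ] ℝ) where
  O : Set V
  O' : Set (Fin n → ℂ)
  hO : IsOpen O
  hO' : IsOpen O'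
  σ : V → Fin n → ℂ
  τ : (Fin n → ℂ) → V
  hσ : ContDiffOn ℝ ∞ σ O
  hτ : ContDiffOn ℝ ∞ τ O'
  mσ : MapsTo σ O O'
  mτ : MapsTo τ O' O
  l : ∀ z ∈ O, τ (σ z) = z
  r : ∀ y ∈ O', σ (τ y) = y
  lin : ∀ z ∈ O, ∀ v, fderiv ℝ σ z (J z v) = Complex.I • fderiv ℝ σ z v
  e : V → ℂ
  es : ContDiffOn ℝ ∞ e O
  e0 : ∀ z ∈ O, e z ≠ 0
  eJ : ∀ z ∈ O, dbJ (DT th e z) (J z) = 0

namespace Loc

variable {n : ℕ} {J : V → V →L[ℝ] V} {th : V → V →L[ℝ] ℝ} (P : Loc n J th)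

theorem σd {z : V} (hz : z ∈ P.O) : DifferentiableAt ℝ P.σ z :=
  (P.hσ.contDiffAt (P.hO.mem_nhds hz)).differentiableAt (by simp)

theorem τd {y : Fin n → ℂ} (hy : y ∈ P.O') : DifferentiableAt ℝ P.τ y :=
  (P.hτ.contDiffAt (P.hO'.mem_nhds hy)).differentiableAt (by simp)

theorem τσ {z : V} (hz : z ∈ P.O) (v : V) : fderiv ℝ P.τ (P.σ z) (fderiv ℝ P.σ z v) = v := by
  have h1 : HasFDerivAt (fun z => P.τ (P.σ z)) _ z :=
    HasFDerivAt.comp (g := P.τ) (f := P.σ) z (P.τd (P.mσ hz)).hasFDerivAt (P.σd hz).hasFDerivAt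
  have h2 : (fun z => P.τ (P.σ z)) =ᶠ[𝓝 z] fun z => z := by
    filter_upwards [P.hO.mem_nhds hz] with y hy using P.l y hy
  have h3 := h1.fderiv.symm.trans (h2.fderiv_eq.trans fderiv_fun_id)
  exact DFunLike.congr_fun h3 v

theorem στ {y : Fin n → ℂ} (hy : y ∈ P.O') (w : Fin n → ℂ) :
    fderiv ℝ P.σ (P.τ y) (fderiv ℝ P.τ y w) = w := by
  have h1 : HasFDerivAt (fun y => P.σ (P.τ y)) _ y :=
    HasFDerivAt.comp (g := P.σ) (f := P.τ) y (P.σd (P.mτ hy)).hasFDerivAt (P.τd hy).hasFDerivAt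
  have h2 : (fun y => P.σ (P.τ y)) =ᶠ[𝓝 y] fun y => y := by
    filter_upwards [P.hO'.mem_nhds hy] with y hy using P.r y hy
  have h3 := h1.fderiv.symm.trans (h2.fderiv_eq.trans fderiv_fun_id)
  exact DFunLike.congr_fun h3 w

theorem lin' {y : Fin n → ℂ} (hy : y ∈ P.O') (w : Fin n → ℂ) :
    fderiv ℝ P.τ y (Complex.I • w) = J (P.τ y) (fderiv ℝ P.τ y w) := by
  have h1 := P.lin (P.τ y) (P.mτ hy) (fderiv ℝ P.τ y w)
  rw [P.στ hy] at h1
  have h2 := P.τσ (P.mτ hy) (J (P.τ y) (fderiv ℝ P.τ y w))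
  rw [h1, P.r y hy] at h2
  exact h2

/-- the linear equivalence of the model spaces -/
def eqv {z0 : V} (hz : z0 ∈ P.O) : V ≃L[ℝ] (Fin n → ℂ) :=
  ContinuousLinearEquiv.equivOfInverse (fderiv ℝ P.σ z0) (fderiv ℝ P.τ (P.σ z0))
    (fun v => P.τσ hz v) (fun w => by
      have h := P.στ (P.mσ hz) w
      rwa [P.l z0 hz] at h)

theorem image_open {B : Set V} (hB : IsOpen B) (hBO : B ⊆ P.O) : IsOpen (P.σ '' B) := by
  have h1 : P.σ '' B = P.O' ∩ P.τ ⁻¹' B := by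
    ext y
    constructor
    · rintro ⟨z, hz, rfl⟩
      refine ⟨P.mσ (hBO hz), ?_⟩
      show P.τ (P.σ z) ∈ B
      rw [P.l z (hBO hz)]
      exact hz
    · rintro ⟨h1, h2⟩
      exact ⟨P.τ y, h2, P.r y h1⟩
  rw [h1]
  exact P.hτ.continuousOn.isOpen_inter_preimage P.hO' hB

/-- the `∂bar`-derivative of `(u / e) ∘ τ` -/
theorem dbar_eq {u : V → ℂ} {y : Fin n → ℂ} (hy : y ∈ P.O')
    (hu : DifferentiableAt ℝ u (P.τ y)) (j : Fin n) :
    dbar j (fun y => u (P.τ y) * (P.e (P.τ y))⁻¹) y =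
      (1 / 2 : ℂ) * ((P.e (P.τ y))⁻¹ * dbJ (DT th u (P.τ y)) (J (P.τ y))
        (fderiv ℝ P.τ y (Pi.single j 1))) := by
  set z := P.τ y with hz
  have hzO : z ∈ P.O := P.mτ hy
  have hed : DifferentiableAt ℝ P.e z :=
    (P.es.contDiffAt (P.hO.mem_nhds hzO)).differentiableAt (by simp)
  set q : V → ℂ := fun z => u z * (P.e z)⁻¹ with hq
  have hqd : DifferentiableAt ℝ q z := hu.mul (hed.inv (P.e0 z hzO))
  have h1 : HasFDerivAt (fun y => q (P.τ y)) _ y :=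
    HasFDerivAt.comp (g := q) (f := P.τ) y hqd.hasFDerivAt (P.τd hy).hasFDerivAt
  have h2 : DT th u z = P.e z • fderiv ℝ q z + q z • DT th P.e z := by
    rw [← DT_mul hqd hed]
    refine DT_congr ?_
    filter_upwards [P.hO.mem_nhds hzO] with x hx
    rw [hq]
    show u x = u x * (P.e x)⁻¹ * P.e x
    rw [mul_assoc, inv_mul_cancel₀ (P.e0 x hx), mul_one]
  have h3 : ∀ v, dbJ (DT th u z) (J z) v = P.e z * (fderiv ℝ q z v +
      Complex.I * fderiv ℝ q z (J z v)) := by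
    intro v
    rw [h2, dbJ_add, dbJ_smul, dbJ_smul, P.eJ z hzO, smul_zero, add_zero, smul_apply, dbJ_apply,
      smul_eq_mul]
  have h4 : (Pi.single j Complex.I : Fin n → ℂ) = Complex.I • (Pi.single j 1 : Fin n → ℂ) := by
    ext k
    by_cases hk : k = j
    · subst hk; simp
    · simp [Pi.single_eq_of_ne hk]
  have h5 : (fun y => u (P.τ y) * (P.e (P.τ y))⁻¹) = fun y => q (P.τ y) := rfl
  unfold dbar
  rw [h5, h1.fderiv, ContinuousLinearMap.comp_apply, ContinuousLinearMap.comp_apply, h4,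
    P.lin' hy, ← hz, h3, ← mul_assoc (P.e z)⁻¹, inv_mul_cancel₀ (P.e0 z hzO), one_mul]

/-- the solution `e · (h ∘ σ)` -/
theorem sol {h : (Fin n → ℂ) → ℂ} {z : V} (hz : z ∈ P.O) (hh : DifferentiableAt ℂ h (P.σ z)) :
    dbJ (DT th (fun z => h (P.σ z) * P.e z) z) (J z) = 0 := by
  have hed : DifferentiableAt ℝ P.e z :=
    (P.es.contDiffAt (P.hO.mem_nhds hz)).differentiableAt (by simp)
  have h1 : HasFDerivAt (fun z => h (P.σ z)) _ z :=
    HasFDerivAt.comp (g := h) (f := P.σ) z (hh.restrictScalars ℝ).hasFDerivAt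
      (P.σd hz).hasFDerivAt
  rw [DT_mul h1.differentiableAt hed, dbJ_add, dbJ_smul, dbJ_smul, P.eJ z hz, smul_zero, add_zero,
    h1.fderiv]
  have h2 : dbJ ((fderiv ℝ h (P.σ z)).comp (fderiv ℝ P.σ z)) (J z) = 0 := by
    ext v
    rw [dbJ_apply, ContinuousLinearMap.comp_apply, ContinuousLinearMap.comp_apply, P.lin z hz,
      hh.fderiv_restrictScalars ℝ]
    have h3 := (fderiv ℂ h (P.σ z)).map_smul Complex.I (fderiv ℝ P.σ z v)
    rw [smul_eq_mul] at h3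
    simp only [ContinuousLinearMap.coe_restrictScalars', zero_apply]
    linear_combination (fderiv ℂ h (P.σ z) (fderiv ℝ P.σ z v)) * Complex.I_mul_I +
      Complex.I * h3
  rw [h2, smul_zero]

/-- bounds for multiplication by a continuous function on a compact set -/
theorem mul_bd {E E' : Type*} [NormedAddCommGroup E] [TopologicalSpace E'] {a : E' → E}
    {K : Set E'} (hK : IsCompact K) (ha : ContinuousOn a K) : ∃ M : ℝ≥0, ∀ z ∈ K, ‖a z‖ₑ ≤ M := by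
  obtain ⟨b, hb⟩ := hK.exists_bound_of_continuousOn ha
  refine ⟨b.toNNReal, fun z hz => ?_⟩
  rw [← ofReal_norm]
  exact ENNReal.ofReal_le_ofReal (hb z hz)

/-- **the local solution** -/
theorem solve (μ : Measure V) [μ.IsAddHaarMeasure] {z0 : V} {δ : ℝ} (hδ : 0 < δ)
    (hKO : closedBall z0 δ ⊆ P.O) {u : ℕ → V → ℂ} (hu : ∀ m, ContDiffOn ℝ ∞ (u m) P.O)
    (hC : ∀ ε : ℝ≥0, 0 < ε → ∃ N, ∀ m ≥ N, ∀ k ≥ N,
      ∫⁻ z in closedBall z0 δ, ‖u m z - u k z‖ₑ ^ 2 ∂μ ≤ ε)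
    (hd : Tendsto (fun m => ∫⁻ z in closedBall z0 δ, ‖dbJ (DT th (u m) z) (J z)‖ₑ ^ 2 ∂μ)
      atTop (𝓝 0)) :
    ∃ g : V → ℂ, ContDiffOn ℝ ∞ g (ball z0 δ) ∧ (∀ z ∈ ball z0 δ, dbJ (DT th g z) (J z) = 0) ∧
      Tendsto (fun m => ∫⁻ z in ball z0 δ, ‖u m z - g z‖ₑ ^ 2 ∂μ) atTop (𝓝 0) := by
  have hz0 : z0 ∈ P.O := hKO (mem_closedBall_self hδ.le)
  have hK : IsCompact (closedBall z0 δ) := isCompact_closedBall _ _
  have hBK : ball z0 δ ⊆ closedBall z0 δ := ball_subset_closedBall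
  have hBO : ball z0 δ ⊆ P.O := hBK.trans hKO
  set O'' := P.σ '' ball z0 δ with hO''
  have hop : IsOpen O'' := P.image_open isOpen_ball hBO
  have hO''O : O'' ⊆ P.O' := by
    rintro _ ⟨z, hz, rfl⟩
    exact P.mσ (hBO hz)
  have hτB : ∀ y ∈ O'', P.τ y ∈ ball z0 δ := by
    rintro _ ⟨z, hz, rfl⟩
    rw [P.l z (hBO hz)]
    exact hz
  have hinj : InjOn P.σ P.O := fun a ha b hb h => by rw [← P.l a ha, ← P.l b hb, h]
  have hinj' : InjOn P.τ P.O' := fun a ha b hb h => by rw [← P.r a ha, ← P.r b hb, h]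
  have hK' : IsCompact (P.σ '' closedBall z0 δ) :=
    hK.image_of_continuousOn (P.hσ.continuousOn.mono hKO)
  have hK'O : P.σ '' closedBall z0 δ ⊆ P.O' := by
    rintro _ ⟨z, hz, rfl⟩
    exact P.mσ (hKO hz)
  obtain ⟨c1, hc1⟩ := chg_le μ volume (P.eqv hz0) P.hO P.hσ hinj hK hKO
  obtain ⟨c2, hc2⟩ := chg_le volume μ (P.eqv hz0).symm P.hO' P.hτ hinj' hK' hK'O
  have c1' := hc1 (ball z0 δ) hBK measurableSet_ball
  have c2' := hc2 O'' (image_mono hBK) hop.measurableSet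
  have hτO'' : P.τ '' O'' = ball z0 δ := by
    ext z
    constructor
    · rintro ⟨y, hy, rfl⟩
      exact hτB y hy
    · intro hz
      exact ⟨P.σ z, ⟨z, hz, rfl⟩, P.l z (hBO hz)⟩
  rw [hτO''] at c2'
  -- bounds
  have hei : ContinuousOn (fun z => (P.e z)⁻¹) P.O :=
    P.es.continuousOn.inv₀ P.e0
  obtain ⟨M1, hM1⟩ := mul_bd hK (hei.mono hKO)
  obtain ⟨M2, hM2⟩ := mul_bd hK (P.es.continuousOn.mono hKO)
  obtain ⟨M3, hM3⟩ := mul_bd hK'
    ((P.hτ.continuousOn_fderiv_of_isOpen P.hO' (by simp)).mono hK'O)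
  set F : ℕ → (Fin n → ℂ) → ℂ := fun m y => u m (P.τ y) * (P.e (P.τ y))⁻¹ with hF
  have hFs : ∀ m, ContDiffOn ℝ ∞ (F m) O'' := fun m => by
    have h1 : ContDiffOn ℝ ∞ (fun z => u m z * (P.e z)⁻¹) P.O := (hu m).mul (P.es.inv P.e0)
    exact h1.comp (P.hτ.mono hO''O) fun y hy => hBO (hτB y hy)
  have hid : ∀ z ∈ ball z0 δ, P.τ (P.σ z) = z := fun z hz => P.l z (hBO hz)
  have hL : ∀ m, ∫⁻ z in O'', ‖F m z‖ₑ ^ 2 < ⊤ := fun m => by
    obtain ⟨M4, hM4⟩ := mul_bd hK (((hu m).continuousOn.mono hKO).mul (hei.mono hKO))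
    refine (c1' _).trans_lt (ENNReal.mul_lt_top ENNReal.coe_lt_top ?_)
    have h1 : ∫⁻ z in ball z0 δ, ‖F m (P.σ z)‖ₑ ^ 2 ∂μ ≤
        ∫⁻ z in ball z0 δ, (M4 : ℝ≥0∞) ^ 2 ∂μ := by
      refine setLIntegral_mono' measurableSet_ball fun z hz => ?_
      rw [hF]
      show ‖u m (P.τ (P.σ z)) * (P.e (P.τ (P.σ z)))⁻¹‖ₑ ^ 2 ≤ _
      rw [hid z hz]
      exact pow_le_pow_left' (hM4 z (hBK hz)) 2
    refine h1.trans_lt ?_
    rw [setLIntegral_const]
    exact ENNReal.mul_lt_top (ENNReal.pow_lt_top ENNReal.coe_lt_top) measure_ball_lt_top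
  have hCF : ∀ ε : ℝ≥0, 0 < ε → ∃ N, ∀ m ≥ N, ∀ k ≥ N, ∫⁻ z in O'', ‖F m z - F k z‖ₑ ^ 2 ≤ ε := by
    intro ε hε
    set c := c1 * M1 ^ 2 + 1 with hc
    have hcp : 0 < c := by positivity
    obtain ⟨N, hN⟩ := hC (ε / c) (by positivity)
    refine ⟨N, fun m hm k hk => (c1' _).trans ?_⟩
    have h1 : ∫⁻ z in ball z0 δ, ‖F m (P.σ z) - F k (P.σ z)‖ₑ ^ 2 ∂μ ≤
        (M1 : ℝ≥0∞) ^ 2 * ∫⁻ z in closedBall z0 δ, ‖u m z - u k z‖ₑ ^ 2 ∂μ := by
      refine le_trans ?_ (mul_le_mul_right (lintegral_mono_set hBK) _)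
      rw [← lintegral_const_mul' _ _ (ENNReal.pow_ne_top ENNReal.coe_ne_top)]
      refine setLIntegral_mono' measurableSet_ball fun z hz => ?_
      rw [hF]
      show ‖u m (P.τ (P.σ z)) * (P.e (P.τ (P.σ z)))⁻¹ -
        u k (P.τ (P.σ z)) * (P.e (P.τ (P.σ z)))⁻¹‖ₑ ^ 2 ≤ _
      rw [hid z hz, ← sub_mul, enorm_mul, mul_pow, mul_comm]
      exact mul_le_mul_left (pow_le_pow_left' (hM1 z (hBK hz)) 2) _
    refine (mul_le_mul_right (h1.trans (mul_le_mul_right (hN m hm k hk) _)) _).trans ?_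
    rw [← mul_assoc]
    have h2 : (c1 : ℝ≥0∞) * (M1 : ℝ≥0∞) ^ 2 * ((ε / c : ℝ≥0) : ℝ≥0∞) =
      ((c1 * M1 ^ 2 * (ε / c) : ℝ≥0) : ℝ≥0∞) := by push_cast; rfl
    rw [h2]
    refine ENNReal.coe_le_coe.2 ?_
    calc c1 * M1 ^ 2 * (ε / c) ≤ c * (ε / c) := by
          gcongr
          exact le_self_add
      _ = ε := mul_div_cancel₀ ε hcp.ne'
  have hdF : ∀ j : Fin n, Tendsto (fun m => ∫⁻ z in O'', ‖dbar j (F m) z‖ₑ ^ 2) atTop (𝓝 0) := by
    intro j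
    have h1 : ∀ m, ∫⁻ z in O'', ‖dbar j (F m) z‖ₑ ^ 2 ≤ (c1 * (M1 * M3) ^ 2 : ℝ≥0) *
        ∫⁻ z in closedBall z0 δ, ‖dbJ (DT th (u m) z) (J z)‖ₑ ^ 2 ∂μ := by
      intro m
      refine (c1' _).trans ?_
      push_cast
      rw [mul_assoc]
      refine mul_le_mul_right ?_ _
      refine le_trans ?_ (mul_le_mul_right (lintegral_mono_set hBK) _)
      rw [← lintegral_const_mul' _ _ (ENNReal.pow_ne_top
        (ENNReal.mul_ne_top ENNReal.coe_ne_top ENNReal.coe_ne_top))]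
      refine setLIntegral_mono' measurableSet_ball fun z hz => ?_
      have hy : P.σ z ∈ P.O' := P.mσ (hBO hz)
      have hud : DifferentiableAt ℝ (u m) (P.τ (P.σ z)) := by
        rw [hid z hz]
        exact ((hu m).contDiffAt (P.hO.mem_nhds (hBO hz))).differentiableAt (by simp)
      rw [← mul_pow]
      refine pow_le_pow_left' ?_ 2
      have h2 := P.dbar_eq hy hud j
      rw [hF]
      show ‖dbar j (fun y => u m (P.τ y) * (P.e (P.τ y))⁻¹) (P.σ z)‖ₑ ≤ _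
      rw [h2, hid z hz, enorm_mul, enorm_mul]
      have h3 : ‖(1 / 2 : ℂ)‖ₑ ≤ 1 := by
        rw [← ofReal_norm]
        have : ‖(1 / 2 : ℂ)‖ = 1 / 2 := by norm_num
        rw [this, ← ENNReal.ofReal_one]
        exact ENNReal.ofReal_le_ofReal (by norm_num)
      have h4 : ‖(Pi.single j 1 : Fin n → ℂ)‖ₑ ≤ 1 := by
        rw [← ofReal_norm, ← ENNReal.ofReal_one]
        refine ENNReal.ofReal_le_ofReal ?_
        refine (pi_norm_le_iff_of_nonneg zero_le_one).2 fun k => ?_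
        by_cases hk : k = j
        · subst hk; simp
        · simp [Pi.single_eq_of_ne hk]
      have h5 : ‖fderiv ℝ P.τ (P.σ z) (Pi.single j 1)‖ₑ ≤ M3 := by
        refine (ContinuousLinearMap.le_opENorm _ _).trans ?_
        calc _ ≤ (M3 : ℝ≥0∞) * 1 := mul_le_mul' (hM3 _ ⟨z, hBK hz, rfl⟩) h4
          _ = M3 := mul_one _
      have h6 : ‖dbJ (DT th (u m) z) (J z) (fderiv ℝ P.τ (P.σ z) (Pi.single j 1))‖ₑ ≤
          ‖dbJ (DT th (u m) z) (J z)‖ₑ * M3 :=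
        (ContinuousLinearMap.le_opENorm _ _).trans (mul_le_mul_right h5 _)
      calc _ ≤ 1 * ((M1 : ℝ≥0∞) * (‖dbJ (DT th (u m) z) (J z)‖ₑ * M3)) :=
            mul_le_mul' h3 (mul_le_mul' (hM1 z (hBK hz)) h6)
        _ = (M1 : ℝ≥0∞) * M3 * ‖dbJ (DT th (u m) z) (J z)‖ₑ := by ring
    refine tendsto_of_tendsto_of_tendsto_of_le_of_le tendsto_const_nhds ?_ (fun _ => zero_le) h1
    have h2 := ENNReal.Tendsto.const_mul (a := ((c1 * (M1 * M3) ^ 2 : ℝ≥0) : ℝ≥0∞)) hd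
      (Or.inr ENNReal.coe_ne_top)
    rwa [mul_zero] at h2
  obtain ⟨h, hh, hlim⟩ := hol_limit hop hFs hL hCF hdF
  have hhd : ∀ z ∈ ball z0 δ, DifferentiableAt ℂ h (P.σ z) := fun z hz =>
    hh.differentiableAt (hop.mem_nhds ⟨z, hz, rfl⟩)
  refine ⟨fun z => h (P.σ z) * P.e z, ?_, fun z hz => P.sol (hBO hz) (hhd z hz), ?_⟩
  · have h1 : ContDiffOn ℝ ∞ h O'' :=
      ((Crest.Agent.R266.SCV.contDiffOn_omega_of_differentiableOn hop hh).restrict_scalars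
        ℝ).of_le le_top
    exact (h1.comp (P.hσ.mono hBO) fun z hz => ⟨z, hz, rfl⟩).mul (P.es.mono hBO)
  · have h1 : ∀ m, ∫⁻ z in ball z0 δ, ‖u m z - h (P.σ z) * P.e z‖ₑ ^ 2 ∂μ ≤
        (c2 * M2 ^ 2 : ℝ≥0) * ∫⁻ z in O'', ‖F m z - h z‖ₑ ^ 2 := by
      intro m
      refine (c2' _).trans ?_
      push_cast
      rw [mul_assoc]
      refine mul_le_mul_right ?_ _
      rw [← lintegral_const_mul' _ _ (ENNReal.pow_ne_top ENNReal.coe_ne_top)]
      refine setLIntegral_mono' hop.measurableSet fun y hy => ?_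
      have hy1 := hτB y hy
      rw [P.r y (hO''O hy), ← mul_pow]
      refine pow_le_pow_left' ?_ 2
      have h2 : u m (P.τ y) - h y * P.e (P.τ y) = P.e (P.τ y) * (F m y - h y) := by
        rw [hF]
        show _ = P.e (P.τ y) * (u m (P.τ y) * (P.e (P.τ y))⁻¹ - h y)
        have h3 := P.e0 _ (hBO hy1)
        field_simp
      rw [h2, enorm_mul]
      exact mul_le_mul_left (hM2 _ (hBK hy1)) _
    refine tendsto_of_tendsto_of_tendsto_of_le_of_le tendsto_const_nhds ?_ (fun _ => zero_le) h1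
    have h2 := ENNReal.Tendsto.const_mul (a := ((c2 * M2 ^ 2 : ℝ≥0) : ℝ≥0∞)) hlim
      (Or.inr ENNReal.coe_ne_top)
    rwa [mul_zero] at h2

end Loc

end

end Crest.Agent.R281.Hy_409
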