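import Crest.Agent.R281.Hy7_409

/-!
# R281 (S0424), H0-OP, second road (helper409), part 8: WEYL for sections

* `exists_loc` : local data of `Loc` at every point of a chart
* `uniq`       : `L²` limits are compatible with the transition functions
* `weyl_S`     : `u m` `L²`-Cauchy, `D'' u m → 0` in `L²` over the cells ⟹ the limit is a section
                 `w ∈ L.H0 J`
-/

set_option autoImplicit false
set_option linter.unusedSectionVars false
set_option maxSynthPendingDepth 3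

open Set Filter Topology MeasureTheory Metric
open scoped ContDiff ENNReal NNReal

namespace Crest.Agent.R281.Hy_409

open Crest.Agent.R281.HkR_835 Crest.Agent.R281.Ti_846 Crest.Agent.R281.PL_713
open Crest.Agent.R275.Geo

noncomputable section

section loc

variable {V X : Type} [NormedAddCommGroup V] [NormedSpace ℝ V] [TopologicalSpace X]
  {C : RCh V X} {n : ℕ} {A : Atl n X} {J : C.ι → V → V →L[ℝ] V}

/-- the coordinates of `Cn n` -/
def cnE (n : ℕ) : Cn n ≃L[ℂ] (Fin n → ℂ) := EuclideanSpace.equiv (Fin n) ℂ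

/-- real version -/
def cnR (n : ℕ) : Cn n →L[ℝ] (Fin n → ℂ) := (cnE n : Cn n →L[ℂ] (Fin n → ℂ)).restrictScalars ℝ

/-- real version of the inverse -/
def cnR' (n : ℕ) : (Fin n → ℂ) →L[ℝ] Cn n :=
  ((cnE n).symm : (Fin n → ℂ) →L[ℂ] Cn n).restrictScalars ℝ

theorem cnR_symm (n : ℕ) (w : Cn n) : cnR' n (cnR n w) = w := (cnE n).symm_apply_apply w

theorem cnR_symm' (n : ℕ) (w : Fin n → ℂ) : cnR n (cnR' n w) = w := (cnE n).apply_symm_apply w

theorem cnR_I (n : ℕ) (w : Cn n) : cnR n (Complex.I • w) = Complex.I • cnR n w :=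
  (cnE n).map_smul Complex.I w

theorem exists_loc [FiniteDimensional ℝ V] [MeasurableSpace V] [BorelSpace V]
    (hJ : JC C J A) {L : PL C} (hF : F11 J L) {i : C.ι} {z : V}
    (hz : z ∈ (C.e i).target) : ∃ P : Loc n (J i) (L.th i), z ∈ P.O ∧ P.O ⊆ (C.e i).target := by
  obtain ⟨U, hU, hzU, hUt, e, hes, he0, heJ⟩ := exists_frame hJ hF hz
  obtain ⟨a, ha⟩ := A.cover ((C.e i).symm z)
  have hza : z ∈ mov (ofAtl A) C a i := ⟨hz, ha⟩
  have hO : IsOpen (U ∩ mov (ofAtl A) C a i) := hU.inter (Cmp.isOpen_mov _ _ _ _)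
  have hO1 : IsOpen (mov C (ofAtl A) i a ∩ mt C (ofAtl A) i a ⁻¹' (U ∩ mov (ofAtl A) C a i)) :=
    (hJ.cmp.s i a).continuousOn.isOpen_inter_preimage (Cmp.isOpen_mov _ _ _ _) hO
  refine ⟨{ O := U ∩ mov (ofAtl A) C a i
            O' := cnR' n ⁻¹' (mov C (ofAtl A) i a ∩ mt C (ofAtl A) i a ⁻¹'
              (U ∩ mov (ofAtl A) C a i))
            hO := hO
            hO' := hO1.preimage (cnR' n).continuous
            σ := fun z => cnR n (mt (ofAtl A) C a i z)
            τ := fun y => mt C (ofAtl A) i a (cnR' n y)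
            hσ := ?_
            hτ := ?_
            mσ := ?_
            mτ := fun y hy => hy.2
            l := ?_
            r := ?_
            lin := ?_
            e := e
            es := hes.mono inter_subset_left
            e0 := fun z hz => he0 z hz.1
            eJ := ?_ }, ⟨hzU, hza⟩, fun y hy => hUt hy.1⟩
  · exact (cnR n).contDiff.comp_contDiffOn ((hJ.cmp.s' i a).mono inter_subset_right)
  · exact ContDiffOn.comp (g := mt C (ofAtl A) i a) (f := cnR' n) (hJ.cmp.s i a)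
      (cnR' n).contDiff.contDiffOn fun y hy => hy.1
  · intro y hy
    have h1 : mt (ofAtl A) C a i y ∈ mov C (ofAtl A) i a :=
      Cmp.mt_mem (C := ofAtl A) (C' := C) hy.2
    refine mem_preimage.2 ?_
    rw [cnR_symm]
    refine ⟨h1, mem_preimage.2 ?_⟩
    rw [Cmp.mt_mt (C := ofAtl A) (C' := C) hy.2]
    exact hy
  · intro y hy
    show mt C (ofAtl A) i a (cnR' n (cnR n (mt (ofAtl A) C a i y))) = y
    rw [cnR_symm]
    exact Cmp.mt_mt (C := ofAtl A) (C' := C) hy.2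
  · intro y hy
    show cnR n (mt (ofAtl A) C a i (mt C (ofAtl A) i a (cnR' n y))) = y
    rw [Cmp.mt_mt hy.1, cnR_symm']
  · intro y hy v
    have h1 : HasFDerivAt (fun z => cnR n (mt (ofAtl A) C a i z)) _ y :=
      (cnR n).hasFDerivAt.comp y (hJ.cmp.symm.diff hy.2).hasFDerivAt
    rw [h1.fderiv, ContinuousLinearMap.comp_apply, ContinuousLinearMap.comp_apply, hJ.lin' hy.2,
      cnR_I]
  · intro y hy
    ext v
    have h1 := heJ y hy.1 v
    rw [dbJ_apply, zero_apply]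
    unfold DT
    simp only [add_apply, smul_apply, smul_eq_mul, cof_apply]
    linear_combination h1

end loc

variable {V X : Type} [NormedAddCommGroup V] [NormedSpace ℝ V] [FiniteDimensional ℝ V]
  [MeasurableSpace V] [BorelSpace V] [TopologicalSpace X] [CompactSpace X] [T2Space X]
  {C : RCh V X} (μ : Measure V) [μ.IsAddHaarMeasure] {L : PL C}

theorem t_comp {i j k : C.ι} {z : V} (hz : z ∈ C.ov i j) : C.t j k (C.t i j z) = C.t i k z := by
  show C.e k ((C.e j).symm (C.e j ((C.e i).symm z))) = C.e k ((C.e i).symm z)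
  rw [(C.e j).left_inv hz.2]

theorem t_comp_mem {i j k : C.ι} {z : V} (hz : z ∈ C.ov i j) (hk : z ∈ C.ov i k) :
    C.t i j z ∈ C.ov j k := by
  refine ⟨(C.e j).map_source hz.2, ?_⟩
  show (C.e j).symm (C.e j ((C.e i).symm z)) ∈ (C.e k).source
  rw [(C.e j).left_inv hz.2]
  exact hk.2

/-- **`L²` limits are compatible** -/
theorem uniq {i j : C.ι} {z0 z1 : V} {r0 r1 : ℝ} {u : ℕ → Sec L} {g0 g1 : V → ℂ}
    (c0 : ContinuousOn g0 (ball z0 r0)) (c1 : ContinuousOn g1 (ball z1 r1))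
    (h0 : Tendsto (fun m => ∫⁻ z in ball z0 r0, ‖(u m).u i z - g0 z‖ₑ ^ 2 ∂μ) atTop (𝓝 0))
    (h1 : Tendsto (fun m => ∫⁻ z in ball z1 r1, ‖(u m).u j z - g1 z‖ₑ ^ 2 ∂μ) atTop (𝓝 0))
    {y : V} (hy : y ∈ C.ov i j) (hy0 : y ∈ ball z0 r0) (hy1 : C.t i j y ∈ ball z1 r1) :
    g0 y = L.g i j y * g1 (C.t i j y) := by
  have hov := RCh.isOpen_ov (C := C) i j
  have hov' := RCh.isOpen_ov (C := C) j i
  have hΩ : IsOpen ((C.ov i j ∩ C.t i j ⁻¹' ball z1 r1) ∩ ball z0 r0) :=
    ((RCh.t_smooth i j).continuousOn.isOpen_inter_preimage hov isOpen_ball).inter isOpen_ball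
  obtain ⟨ρ, hρ, hsub⟩ := nhds_basis_closedBall.mem_iff.1 (hΩ.mem_nhds ⟨⟨hy, hy1⟩, hy0⟩)
  set K := closedBall y ρ with hK
  have hKc : IsCompact K := isCompact_closedBall _ _
  have hKov : K ⊆ C.ov i j := fun x hx => (hsub hx).1.1
  set T := C.t i j '' K with hT
  have hTc : IsCompact T := hKc.image_of_continuousOn ((RCh.t_smooth i j).continuousOn.mono hKov)
  have hTov : T ⊆ C.ov j i := by
    rintro _ ⟨x, hx, rfl⟩
    exact RCh.t_mem (hKov hx)
  have hTball : T ⊆ ball z1 r1 := by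
    rintro _ ⟨x, hx, rfl⟩
    exact (hsub hx).1.2
  have hTK : C.t j i '' T = K := by
    ext x
    constructor
    · rintro ⟨_, ⟨x', hx', rfl⟩, rfl⟩
      rwa [RCh.t_t (hKov hx')]
    · intro hx
      exact ⟨C.t i j x, ⟨x, hx, rfl⟩, RCh.t_t (hKov hx)⟩
  have hinj : InjOn (C.t j i) (C.ov j i) := fun a ha b hb h => by
    rw [← RCh.t_t ha, ← RCh.t_t hb, h]
  obtain ⟨c, hc⟩ := chg_le μ μ (ContinuousLinearEquiv.refl ℝ V) hov' (RCh.t_smooth j i) hinj
    hTc hTov
  have hc' := hc T subset_rfl hTc.isClosed.measurableSet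
  rw [hTK] at hc'
  have a0 : ContinuousOn g0 K := c0.mono fun x hx => (hsub hx).2
  have a1 : ContinuousOn (fun x => L.g i j x * g1 (C.t i j x)) K :=
    ((L.sm i j).continuousOn.mono hKov).mul
      (c1.comp ((RCh.t_smooth i j).continuousOn.mono hKov) fun x hx => (hsub hx).1.2)
  -- the integral of the difference is zero
  have b1 : ∀ m, ∫⁻ x in K, ‖(u m).u i x - L.g i j x * g1 (C.t i j x)‖ₑ ^ 2 ∂μ ≤
      c * ∫⁻ z in ball z1 r1, ‖(u m).u j z - g1 z‖ₑ ^ 2 ∂μ := by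
    intro m
    have e1 : ∫⁻ x in K, ‖(u m).u i x - L.g i j x * g1 (C.t i j x)‖ₑ ^ 2 ∂μ =
        ∫⁻ x in K, ‖(u m).u j (C.t i j x) - g1 (C.t i j x)‖ₑ ^ 2 ∂μ := by
      refine setLIntegral_congr_fun hKc.measurableSet fun x hx => ?_
      show ‖(u m).u i x - L.g i j x * g1 (C.t i j x)‖ₑ ^ 2 = _
      rw [(u m).tr i j x (hKov hx), ← mul_sub, enorm_mul]
      have e2 : ‖L.g i j x‖ₑ = 1 := by
        rw [← ofReal_norm, L.unit i j x (hKov hx), ENNReal.ofReal_one]
      rw [e2, one_mul]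
    rw [e1]
    refine (hc' (fun x => ‖(u m).u j (C.t i j x) - g1 (C.t i j x)‖ₑ ^ 2)).trans ?_
    refine mul_le_mul_right ?_ _
    refine le_trans (le_of_eq ?_) (lintegral_mono_set hTball)
    refine setLIntegral_congr_fun hTc.isClosed.measurableSet fun x hx => ?_
    show ‖(u m).u j (C.t i j (C.t j i x)) - g1 (C.t i j (C.t j i x))‖ₑ ^ 2 = _
    rw [RCh.t_t (hTov hx)]
  have b2 : ∀ m, ∫⁻ x in K, ‖g0 x - L.g i j x * g1 (C.t i j x)‖ₑ ^ 2 ∂μ ≤
      (2 : ℝ≥0) * ∫⁻ z in ball z0 r0, ‖(u m).u i z - g0 z‖ₑ ^ 2 ∂μ +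
        (2 : ℝ≥0) * (c * ∫⁻ z in ball z1 r1, ‖(u m).u j z - g1 z‖ₑ ^ 2 ∂μ) := by
    intro m
    have a2 : ContinuousOn (fun x => (u m).u i x - L.g i j x * g1 (C.t i j x)) K :=
      (((u m).sm i).continuousOn.mono fun x hx => (hKov hx).1).sub a1
    refine (int_le μ hKc a2 (g := fun x => ‖(u m).u i x - g0 x‖ₑ ^ 2) (a := 2) (b := 2)
      fun x _ => ?_).trans ?_
    · have e1 : g0 x - L.g i j x * g1 (C.t i j x) =
        -((u m).u i x - g0 x) + ((u m).u i x - L.g i j x * g1 (C.t i j x)) := by ring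
      rw [e1]
      refine (pow_le_pow_left' (enorm_add_le _ _) 2).trans ((sq_add_le _ _).trans ?_)
      rw [enorm_neg]
      rfl
    · refine add_le_add (mul_le_mul_right (lintegral_mono_set fun x hx => (hsub hx).2) _)
        (mul_le_mul_right (b1 m) _)
  have b3 : Tendsto (fun m => (2 : ℝ≥0) * ∫⁻ z in ball z0 r0, ‖(u m).u i z - g0 z‖ₑ ^ 2 ∂μ +
        (2 : ℝ≥0) * (c * ∫⁻ z in ball z1 r1, ‖(u m).u j z - g1 z‖ₑ ^ 2 ∂μ)) atTop (𝓝 0) := by
    have t1 := ENNReal.Tendsto.const_mul (a := ((2 : ℝ≥0) : ℝ≥0∞)) h0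
      (Or.inr ENNReal.coe_ne_top)
    have t2 := ENNReal.Tendsto.const_mul (a := (c : ℝ≥0∞)) h1 (Or.inr ENNReal.coe_ne_top)
    have t3 := ENNReal.Tendsto.const_mul (a := ((2 : ℝ≥0) : ℝ≥0∞)) t2
      (Or.inr ENNReal.coe_ne_top)
    have t4 := t1.add t3
    simpa using t4
  have b4 : ∫⁻ x in K, ‖g0 x - L.g i j x * g1 (C.t i j x)‖ₑ ^ 2 ∂μ = 0 :=
    le_antisymm (ge_of_tendsto' b3 b2) (zero_le)
  have a3 : ContinuousOn (fun x => g0 x - L.g i j x * g1 (C.t i j x)) K := a0.sub a1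
  rw [lintegral_eq_zero_iff' (aem_sq μ hKc a3)] at b4
  have b5 : g0 =ᵐ[μ.restrict (ball y ρ)] fun x => L.g i j x * g1 (C.t i j x) := by
    have b6 := ae_restrict_of_ae_restrict_of_subset (ball_subset_closedBall (x := y) (ε := ρ)) b4
    filter_upwards [b6] with x hx
    have h7 : ‖g0 x - L.g i j x * g1 (C.t i j x)‖ₑ ^ 2 = 0 := hx
    have h8 : ‖g0 x - L.g i j x * g1 (C.t i j x)‖ₑ = 0 := by
      exact pow_eq_zero_iff (by norm_num) |>.1 h7
    rw [enorm_eq_zero] at h8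
    exact sub_eq_zero.1 h8
  exact Measure.eqOn_open_of_ae_eq b5 isOpen_ball (a0.mono ball_subset_closedBall)
    (a1.mono ball_subset_closedBall) (mem_ball_self hρ)

/-- **WEYL for sections** -/
theorem weyl_S {n : ℕ} {A : Atl n X} {J : C.ι → V → V →L[ℝ] V} (hJ : JC C J A) (hF : F11 J L)
    (B : Bc C) (u : ℕ → Sec L)
    (hC : ∀ ε : ℝ≥0, 0 < ε → ∃ N, ∀ m ≥ N, ∀ k ≥ N, N0 B μ (u m - u k) ≤ ε)
    (hd : Tendsto (fun m => NJ B μ J (u m)) atTop (𝓝 0)) :
    ∃ w : Sec L, w ∈ L.H0 J ∧ Tendsto (fun m => N0 B μ (u m - w)) atTop (𝓝 0) := by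
  classical
  -- local solutions
  obtain ⟨B', q, hi, hsub, hpos, hPP⟩ := refine_bc B (fun k z δ =>
    ∃ g : V → ℂ, ContDiffOn ℝ ∞ g (ball z (2 * δ)) ∧
      (∀ y ∈ ball z (2 * δ), dbJ (DT (L.th (B.i k)) g y) (J (B.i k) y) = 0) ∧
      Tendsto (fun m => ∫⁻ y in ball z (2 * δ), ‖(u m).u (B.i k) y - g y‖ₑ ^ 2 ∂μ) atTop (𝓝 0))
    (fun k z hz => by
      obtain ⟨P, hzP, hPt⟩ := exists_loc hJ hF (B.sub k (ball_subset_closedBall hz))
      have ho : IsOpen (P.O ∩ ball (B.z k) (B.r k)) := P.hO.inter isOpen_ball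
      obtain ⟨ρ, hρ, hs⟩ := nhds_basis_closedBall.mem_iff.1 (ho.mem_nhds ⟨hzP, hz⟩)
      refine ⟨ρ / 2, by positivity, ?_, ?_⟩
      · rw [mul_div_cancel₀ _ (two_ne_zero)]
        exact hs.trans inter_subset_right
      · rw [mul_div_cancel₀ _ (two_ne_zero)]
        have hsB : closedBall z ρ ⊆ closedBall (B.z k) (B.r k) :=
          (hs.trans inter_subset_right).trans ball_subset_closedBall
        refine P.solve μ hρ (hs.trans inter_subset_left)
          (fun m => ((u m).sm (B.i k)).mono hPt) (fun ε hε => ?_) ?_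
        · obtain ⟨N, hN⟩ := hC ε hε
          refine ⟨N, fun m hm k' hk' => le_trans ?_ (hN m hm k' hk')⟩
          exact cell_le μ B (fun k y => ‖(u m - u k').u (B.i k) y‖ₑ ^ 2) k hsB
        · refine tendsto_of_tendsto_of_tendsto_of_le_of_le tendsto_const_nhds hd
            (fun _ => zero_le) fun m => ?_
          exact cell_le μ B (fun k y => ‖dbJ (DL (u m) (B.i k) y) (J (B.i k) y)‖ₑ ^ 2) k hsB)
  choose g hgs hgJ hgl using hPP
  set ι : B'.κ → C.ι := fun k => B.i (q k) with hι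
  have hBt : ∀ k, ball (B'.z k) (2 * B'.r k) ⊆ (C.e (ι k)).target := fun k =>
    ball_subset_closedBall.trans ((hsub k).trans (ball_subset_closedBall.trans (B.sub (q k))))
  have hcov := B'.cov
  choose kk hk1 hk2 using hcov
  have hk1' : ∀ x, x ∈ (C.e (ι (kk x))).source := fun x => by
    have := hk1 x
    rwa [hi] at this
  have hk2' : ∀ x, C.e (ι (kk x)) x ∈ ball (B'.z (kk x)) (2 * B'.r (kk x)) := fun x => by
    have h1 := hk2 x
    rw [hi] at h1
    exact ball_subset_ball (by linarith [hpos (kk x)]) h1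
  -- compatibility
  have huq : ∀ k l, ∀ y ∈ C.ov (ι k) (ι l), y ∈ ball (B'.z k) (2 * B'.r k) →
      C.t (ι k) (ι l) y ∈ ball (B'.z l) (2 * B'.r l) →
      g k y = L.g (ι k) (ι l) y * g l (C.t (ι k) (ι l) y) := fun k l y hy h0 h1 =>
    uniq μ (hgs k).continuousOn (hgs l).continuousOn (hgl k) (hgl l) hy h0 h1
  set W : C.ι → V → ℂ := fun i z => if z ∈ (C.e i).target then
    L.g i (ι (kk ((C.e i).symm z))) z * g (kk ((C.e i).symm z)) (C.t i (ι (kk ((C.e i).symm z))) z)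
    else 0 with hW
  have hWeq : ∀ i k, ∀ z ∈ C.ov i (ι k), C.t i (ι k) z ∈ ball (B'.z k) (2 * B'.r k) →
      W i z = L.g i (ι k) z * g k (C.t i (ι k) z) := by
    intro i k z hz hzb
    rw [hW]
    simp only [hz.1, if_true]
    set l := kk ((C.e i).symm z) with hl
    have hzl : z ∈ C.ov i (ι l) := ⟨hz.1, hk1' _⟩
    have h1 := huq l k (C.t i (ι l) z) (t_comp_mem hzl hz) (hk2' ((C.e i).symm z)) (by
      rw [t_comp hzl]; exact hzb)
    rw [h1, t_comp hzl, L.coc i (ι l) (ι k) z hzl hz, mul_assoc]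
  -- the section
  let w : Sec L :=
    { u := W
      sm := fun i z hz => by
        set k := kk ((C.e i).symm z) with hk
        have hzk : z ∈ C.ov i (ι k) := ⟨hz, hk1' _⟩
        have ho : IsOpen (C.ov i (ι k) ∩ C.t i (ι k) ⁻¹' ball (B'.z k) (2 * B'.r k)) :=
          (RCh.t_smooth i (ι k)).continuousOn.isOpen_inter_preimage (RCh.isOpen_ov _ _) isOpen_ball
        have hzo : z ∈ C.ov i (ι k) ∩ C.t i (ι k) ⁻¹' ball (B'.z k) (2 * B'.r k) :=
          ⟨hzk, hk2' ((C.e i).symm z)⟩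
        have h1 : ContDiffOn ℝ ∞ (fun y => L.g i (ι k) y * g k (C.t i (ι k) y))
            (C.ov i (ι k) ∩ C.t i (ι k) ⁻¹' ball (B'.z k) (2 * B'.r k)) :=
          ((L.sm i (ι k)).mono inter_subset_left).mul ((hgs k).comp
            ((RCh.t_smooth i (ι k)).mono inter_subset_left) fun y hy => hy.2)
        refine ((h1.contDiffAt (ho.mem_nhds hzo)).congr_of_eventuallyEq ?_).contDiffWithinAt
        filter_upwards [ho.mem_nhds hzo] with y hy
        exact hWeq i k y hy.1 hy.2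
      tr := fun i j z hz => by
        set k := kk ((C.e i).symm z) with hk
        have hzk : z ∈ C.ov i (ι k) := ⟨hz.1, hk1' _⟩
        have h1 := hWeq i k z hzk (hk2' ((C.e i).symm z))
        have h2 := hWeq j k (C.t i j z) (t_comp_mem hz hzk) (by
          rw [t_comp hz]; exact hk2' ((C.e i).symm z))
        rw [h1, h2, t_comp hz, L.coc i j (ι k) z hz hzk, mul_assoc]
      off := fun i z hz => by
        rw [hW]
        simp only [hz, if_false] }
  have hwu : ∀ k, ∀ y ∈ ball (B'.z k) (2 * B'.r k), w.u (ι k) y = g k y := by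
    intro k y hy
    have hyt := hBt k hy
    have h1 := hWeq (ι k) k y (PL.mem_self hyt) (by rw [PL.t_self hyt]; exact hy)
    rw [PL.g_self L hyt, PL.t_self hyt, one_mul] at h1
    exact h1
  refine ⟨w, ?_, ?_⟩
  · intro i z hz v
    set k := kk ((C.e i).symm z) with hk
    have hzk : z ∈ C.ov i (ι k) := ⟨hz, hk1' _⟩
    have hb : C.t i (ι k) z ∈ ball (B'.z k) (2 * B'.r k) := hk2' ((C.e i).symm z)
    have h1 : DL w (ι k) (C.t i (ι k) z) = DT (L.th (ι k)) (g k) (C.t i (ι k) z) := by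
      rw [DL_DT]
      refine DT_congr ?_
      filter_upwards [isOpen_ball.mem_nhds hb] with y hy using hwu k y hy
    have h2 := hgJ k _ hb
    have h3 : dbJ (DL w (ι k) (C.t i (ι k) z)) (J (ι k) (C.t i (ι k) z))
        (fderiv ℝ (C.t i (ι k)) z v) = 0 := by
      rw [h1, h2, zero_apply]
    rw [db_eq] at h3
    unfold Sec.db at h3 ⊢
    rw [w.D_tr hzk, w.D_tr hzk, hJ.J_tr hzk]
    linear_combination L.g i (ι k) z * h3
  · have h1 : Tendsto (fun m => N0 B' μ (u m - w)) atTop (𝓝 0) := by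
      have h2 : Tendsto (fun m => ∑ k, ∫⁻ y in ball (B'.z k) (2 * B'.r k),
          ‖(u m).u (ι k) y - g k y‖ₑ ^ 2 ∂μ) atTop (𝓝 0) := by
        have := tendsto_finsetSum (Finset.univ : Finset B'.κ) fun k _ => hgl k
        simpa using this
      refine tendsto_of_tendsto_of_tendsto_of_le_of_le tendsto_const_nhds h2
        (fun _ => zero_le) fun m => ?_
      refine Finset.sum_le_sum fun k _ => ?_
      have hs : closedBall (B'.z k) (B'.r k) ⊆ ball (B'.z k) (2 * B'.r k) :=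
        closedBall_subset_ball (by linarith [hpos k])
      refine le_trans (le_of_eq ?_) (lintegral_mono_set hs)
      refine setLIntegral_congr_fun measurableSet_closedBall fun y hy => ?_
      show ‖(u m - w).u (B'.i k) y‖ₑ ^ 2 = _
      rw [hi]
      show ‖(u m).u (ι k) y - w.u (ι k) y‖ₑ ^ 2 = _
      rw [hwu k y (hs hy)]
    obtain ⟨c, hc⟩ := N_tr μ B B'
    refine tendsto_of_tendsto_of_tendsto_of_le_of_le tendsto_const_nhds ?_
      (fun _ => zero_le) fun m => (hc L (u m - w)).1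
    have h2 := ENNReal.Tendsto.const_mul (a := (c : ℝ≥0∞)) h1 (Or.inr ENNReal.coe_ne_top)
    rwa [mul_zero] at h2

end

end Crest.Agent.R281.Hy_409
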