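import Crest.Agent.R281.OpA1_450
import Mathlib.Analysis.InnerProductSpace.Adjoint
import Mathlib.Analysis.InnerProductSpace.LaxMilgram

/-!
# (Z1) of H0-OP (286): left parametrices from Gårding's inequality; continuous closedness

* `lp_of_garding` : `‖x‖ ≤ C (‖P x‖ + ‖K x‖)`, `K` compact, Hilbert spaces ⟹ `LP P`
* `ker_closed_cont` : `P` continuous at `s₀`, `LP (P s₀)`, `Ker (P s) N` frequently ⟹ `Ker (P s₀) N`
-/

set_option autoImplicit false

open Filter Topology Set

namespace Crest.Agent.R281.OpZ_450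

open Crest.Agent.R281.Semi_450 Crest.Agent.R281.OpA_450 Module

section Hilb

variable {E F F' : Type*} [NormedAddCommGroup E] [InnerProductSpace ℂ E] [CompleteSpace E]
  [NormedAddCommGroup F] [InnerProductSpace ℂ F] [CompleteSpace F]
  [NormedAddCommGroup F'] [InnerProductSpace ℂ F'] [CompleteSpace F']

open ContinuousLinearMap in
/-- **left parametrix from Gårding's inequality** -/
theorem lp_of_garding {P : E →L[ℂ] F} {K : E →L[ℂ] F'} (hK : IsCompactOperator K) {C : ℝ}
    (h : ∀ x, ‖x‖ ≤ C * (‖P x‖ + ‖K x‖)) : LP P := by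
  classical
  set A : E →L[ℂ] E := (adjoint P).comp P + (adjoint K).comp K with hA
  have hq : ∀ x, inner ℂ (A x) x = ((‖P x‖ ^ 2 + ‖K x‖ ^ 2 : ℝ) : ℂ) := by
    intro x
    rw [hA, add_apply, inner_add_left, comp_apply, comp_apply, adjoint_inner_left,
      adjoint_inner_left, inner_self_eq_norm_sq_to_K, inner_self_eq_norm_sq_to_K]
    push_cast
    rfl
  -- bounded below
  set C' : ℝ := max C 1 with hC'
  have hC1 : 0 < C' := lt_of_lt_of_le one_pos (le_max_right _ _)
  have h' : ∀ x, ‖x‖ ≤ C' * (‖P x‖ + ‖K x‖) := fun x =>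
    (h x).trans (mul_le_mul_of_nonneg_right (le_max_left _ _)
      (add_nonneg (norm_nonneg _) (norm_nonneg _)))
  have hbd : ∀ x, ‖x‖ ≤ (2 * C' ^ 2) * ‖A x‖ := by
    intro x
    have h1 : ‖P x‖ ^ 2 + ‖K x‖ ^ 2 ≤ ‖A x‖ * ‖x‖ := by
      have h2 := norm_inner_le_norm (𝕜 := ℂ) (A x) x
      rw [hq, Complex.norm_real, Real.norm_of_nonneg (by positivity)] at h2
      exact h2
    have h3 := h' x
    have h4 : ‖x‖ ^ 2 ≤ C' ^ 2 * (‖P x‖ + ‖K x‖) ^ 2 := by
      rw [← mul_pow]
      exact pow_le_pow_left₀ (norm_nonneg _) h3 2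
    have h5 : (‖P x‖ + ‖K x‖) ^ 2 ≤ 2 * (‖P x‖ ^ 2 + ‖K x‖ ^ 2) := by
      nlinarith [sq_nonneg (‖P x‖ - ‖K x‖)]
    have h6 : ‖x‖ ^ 2 ≤ (2 * C' ^ 2) * (‖A x‖ * ‖x‖) := by
      refine h4.trans ?_
      have := mul_le_mul_of_nonneg_left (h5.trans (mul_le_mul_of_nonneg_left h1 two_pos.le))
        (sq_nonneg C')
      linarith
    rcases eq_or_lt_of_le (norm_nonneg x) with h0 | h0
    · rw [← h0]
      positivity
    · have h7 : ‖x‖ * ‖x‖ ≤ ((2 * C' ^ 2) * ‖A x‖) * ‖x‖ := by
        rw [← sq, mul_assoc]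
        exact h6
      exact le_of_mul_le_mul_right h7 h0
  -- `A` is bijective
  have hsa : adjoint A = A := by
    rw [hA, map_add, adjoint_comp, adjoint_comp, adjoint_adjoint, adjoint_adjoint]
  have hanti : AntilipschitzWith (Real.toNNReal (2 * C' ^ 2)) A := by
    refine A.antilipschitz_of_bound fun x => ?_
    rw [Real.coe_toNNReal _ (by positivity)]
    exact hbd x
  have hclosed : IsClosed (LinearMap.range (A : E →ₗ[ℂ] E) : Set E) :=
    hanti.isClosed_range A.uniformContinuous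
  have hinj : ∀ x, A x = 0 → x = 0 := by
    intro x hx
    have := hbd x
    rw [hx, norm_zero, mul_zero] at this
    exact norm_le_zero_iff.1 this
  have hsurj : LinearMap.range (A : E →ₗ[ℂ] E) = ⊤ := by
    have : (LinearMap.range (A : E →ₗ[ℂ] E)).HasOrthogonalProjection := by
      have := hclosed.completeSpace_coe
      infer_instance
    rw [← Submodule.orthogonal_eq_bot_iff]
    rw [Submodule.eq_bot_iff]
    intro y hy
    apply hinj
    have h2 : ∀ x, inner ℂ x (A y) = 0 := by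
      intro x
      have h3 := (Submodule.mem_orthogonal _ _).1 hy (A x) ⟨x, rfl⟩
      rw [← hsa, adjoint_inner_right]
      exact h3
    exact inner_self_eq_zero.1 (h2 (A y))
  set e : E ≃L[ℂ] E := ContinuousLinearEquiv.ofBijective A
    (LinearMap.ker_eq_bot'.2 fun x hx => hinj x hx) hsurj with he
  have hee : ∀ x, e.symm (A x) = x := fun x => by
    have h1 : e x = A x := rfl
    rw [← h1, e.symm_apply_apply]
  -- the parametrix
  set G : F →L[ℂ] E := (e.symm : E →L[ℂ] E).comp (adjoint P) with hG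
  set R : E →L[ℂ] E := -((e.symm : E →L[ℂ] E).comp ((adjoint K).comp K)) with hR
  have hRc : IsCompactOperator R := by
    rw [hR]
    exact (hK.clm_comp ((e.symm : E →L[ℂ] E).comp (adjoint K))).neg
  refine lp_of_compact' hRc (G := G) (K := R) fun u => ?_
  have h1 : adjoint P (P u) = A u - adjoint K (K u) := by
    rw [hA]
    simp
  show e.symm (adjoint P (P u)) = u + -(e.symm (adjoint K (K u)))
  rw [h1, map_sub, hee]
  abel

end Hilb

section Cont

variable {E F : Type*} [NormedAddCommGroup E] [NormedSpace ℂ E]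
  [NormedAddCommGroup F] [NormedSpace ℂ F]

/-- one operator: a kernel near `P` is not larger -/
theorem ker_of_near {P : E →L[ℂ] F} (h : LP P) : ∃ δ > 0, ∀ Q : E →L[ℂ] F, ‖Q - P‖ < δ →
    ∀ N, Ker Q N → Ker P N := by
  classical
  have hfd : FiniteDimensional ℂ (KK P) := finiteDimensional_KK h
  obtain ⟨π, hπ⟩ := Submodule.ClosedComplemented.of_finiteDimensional (𝕜 := ℂ) (KK P)
  obtain ⟨c, hc, hcb⟩ := bounded_below h π hπ
  refine ⟨c, hc, fun Q hQ N hN => ?_⟩
  obtain ⟨v, hv, hv0⟩ := hN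
  have hinj : ∀ w, Q w = 0 → π w = 0 → w = 0 := by
    intro w hw hπw
    have h1 := hcb w hπw
    have h2 : P w = -((Q - P) w) := by rw [sub_apply, hw, zero_sub, neg_neg]
    rw [h2, norm_neg] at h1
    have h3 := h1.trans ((Q - P).le_opNorm w)
    by_contra hne
    have h4 : 0 < ‖w‖ := norm_pos_iff.2 hne
    have h5 := le_of_mul_le_mul_right h3 h4
    linarith
  -- `π v i` independent
  have hli : LinearIndependent ℂ fun i => π (v i) := by
    rw [Fintype.linearIndependent_iff] at hv ⊢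
    intro g hg
    apply hv
    apply hinj
    · rw [map_sum]
      exact Finset.sum_eq_zero fun i _ => by rw [map_smul, hv0, smul_zero]
    · rw [map_sum]
      rw [← hg]
      exact Finset.sum_congr rfl fun i _ => map_smul _ _ _
  refine ⟨fun i => (π (v i) : E), hli.map' (KK P).subtype (Submodule.ker_subtype _),
    fun i => (π (v i)).2⟩

/-- **continuous closedness of `Ker`** -/
theorem ker_closed_cont {S : Type*} [TopologicalSpace S] {P : S → E →L[ℂ] F} {s₀ : S}
    (hP : ContinuousAt P s₀) (h : LP (P s₀)) {N : ℕ} (hfr : ∃ᶠ s in 𝓝 s₀, Ker (P s) N) :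
    Ker (P s₀) N := by
  obtain ⟨δ, hδ, hnear⟩ := ker_of_near h
  have h1 : ∀ᶠ s in 𝓝 s₀, ‖P s - P s₀‖ < δ := by
    have := tendsto_iff_norm_sub_tendsto_zero.1 hP
    exact this.eventually (gt_mem_nhds hδ)
  obtain ⟨s, hs, hs'⟩ := (hfr.and_eventually h1).exists
  exact hnear _ hs' _ hs

end Cont

end Crest.Agent.R281.OpZ_450
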