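import Crest.Agent.R281.Hz1_286
import Crest.Agent.R281.OpZ_450

/-!
# R281 (S0424), H0-OP (helper286), part 2: one structure

* abstract part: `S` a space of smooth objects, `j : S →ₗ H`, `E` = closure of the range;
  from Garding, Rellich and regularity: `LP`, kernel = smooth kernel
* `Gard`, `Rell`, `Regu` : the three analytic inputs for `L : PL C` and `J`
* `lp_PE`, `ker_PE_iff` : `LP (PE ..)`, `Ker (PE ..) N ↔ L.HasN J N`
-/

set_option autoImplicit false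
set_option linter.unusedSectionVars false

open Set Filter Topology Complex MeasureTheory Metric
open scoped ContDiff ENNReal

namespace Crest.Agent.R281.Hz_286

open Crest.Agent.R281.HkR_835 Crest.Agent.R281.PL_713 Crest.Agent.R281.Semi_450
  Crest.Agent.R281.OpZ_450

noncomputable section

/-! ### abstract part -/

section abs

variable {S H F G : Type} [AddCommGroup S] [Module ℂ S]
  [NormedAddCommGroup H] [InnerProductSpace ℂ H] [CompleteSpace H]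
  [NormedAddCommGroup F] [InnerProductSpace ℂ F] [CompleteSpace F]
  [NormedAddCommGroup G] [InnerProductSpace ℂ G] [CompleteSpace G]
  (j : S →ₗ[ℂ] H) (P : H →L[ℂ] F) (T : H →L[ℂ] G)

/-- closure of the smooth objects -/
def ES : Submodule ℂ H := (LinearMap.range j).topologicalClosure

theorem mem_ES (u : S) : j u ∈ ES j := Submodule.le_topologicalClosure _ ⟨u, rfl⟩

instance : CompleteSpace (ES j) :=
  (Submodule.isClosed_topologicalClosure (LinearMap.range j)).completeSpace_coe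

/-- a smooth object close to a given element of `ES` -/
theorem exists_near {x : H} (hx : x ∈ ES j) {ε : ℝ} (hε : 0 < ε) : ∃ u : S, ‖j u - x‖ < ε := by
  have h1 : x ∈ closure (LinearMap.range j : Set H) := hx
  obtain ⟨y, ⟨u, rfl⟩, hy⟩ := Metric.mem_closure_iff.1 h1 ε hε
  refine ⟨u, ?_⟩
  rw [← dist_eq_norm, dist_comm]
  exact hy

/-- Garding extends to the closure -/
theorem gard_ES {C : ℝ} (hG : ∀ u, ‖j u‖ ^ 2 ≤ C * (‖P (j u)‖ ^ 2 + ‖T (j u)‖ ^ 2)) :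
    ∀ x : ES j, ‖x‖ ≤ √(max C 0) * (‖(P.comp (ES j).subtypeL) x‖ + ‖(T.comp (ES j).subtypeL) x‖) := by
  have h1 : ∀ x ∈ closure (LinearMap.range j : Set H), ‖x‖ ≤ √(max C 0) * (‖P x‖ + ‖T x‖) := by
    have hcl : IsClosed {x : H | ‖x‖ ≤ √(max C 0) * (‖P x‖ + ‖T x‖)} :=
      isClosed_le continuous_norm (continuous_const.mul (P.continuous.norm.add T.continuous.norm))
    refine closure_minimal ?_ hcl
    rintro _ ⟨u, rfl⟩
    have h2 := hG u
    have h3 : ‖j u‖ ^ 2 ≤ max C 0 * (‖P (j u)‖ + ‖T (j u)‖) ^ 2 := by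
      refine h2.trans ?_
      have h4 : C * (‖P (j u)‖ ^ 2 + ‖T (j u)‖ ^ 2) ≤ max C 0 * (‖P (j u)‖ ^ 2 + ‖T (j u)‖ ^ 2) :=
        mul_le_mul_of_nonneg_right (le_max_left _ _) (by positivity)
      refine h4.trans (mul_le_mul_of_nonneg_left ?_ (le_max_right _ _))
      nlinarith [mul_nonneg (norm_nonneg (P (j u))) (norm_nonneg (T (j u)))]
    have h5 : ‖j u‖ ^ 2 ≤ (√(max C 0) * (‖P (j u)‖ + ‖T (j u)‖)) ^ 2 := by
      rw [mul_pow, Real.sq_sqrt (le_max_right _ _)]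
      exact h3
    exact (pow_le_pow_iff_left₀ (norm_nonneg _) (by positivity) two_ne_zero).1 h5
  intro x
  exact h1 x.1 x.2

/-- Rellich gives a compact operator -/
theorem compact_ES (hK : ∀ u : ℕ → S, (∃ D, ∀ m, ‖j (u m)‖ ^ 2 ≤ D) → ∃ φ : ℕ → ℕ, StrictMono φ ∧
      ∀ ε > 0, ∃ N, ∀ m ≥ N, ∀ k ≥ N, ‖T (j (u (φ m) - u (φ k)))‖ ^ 2 < ε) :
    IsCompactOperator (T.comp (ES j).subtypeL) := by
  set K : ES j →L[ℂ] G := T.comp (ES j).subtypeL with hKd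
  have hKx : ∀ x : ES j, K x = T x.1 := fun x => rfl
  refine (isCompactOperator_iff_isCompact_closure_image_ball (K : ES j →ₗ[ℂ] G) one_pos).2 ?_
  refine IsSeqCompact.isCompact fun y hy => ?_
  have h1 : ∀ n : ℕ, ∃ u : S, ‖j u‖ ≤ 2 ∧ ‖T (j u) - y n‖ ≤ (1 + ‖T‖) * (1 / ((n : ℝ) + 1)) := by
    intro n
    have hn : (0 : ℝ) < 1 / ((n : ℝ) + 1) := by positivity
    have hn1 : 1 / ((n : ℝ) + 1) ≤ 1 := by
      rw [div_le_one (by positivity)]
      have : (0 : ℝ) ≤ n := Nat.cast_nonneg n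
      linarith
    obtain ⟨_, ⟨x, hx, rfl⟩, hxy⟩ := Metric.mem_closure_iff.1 (hy n) _ hn
    obtain ⟨u, hu⟩ := exists_near j x.2 hn
    have hx1 : ‖x.1‖ < 1 := by
      have := mem_ball_zero_iff.1 hx
      exact this
    refine ⟨u, ?_, ?_⟩
    · have : j u = (j u - x.1) + x.1 := by abel
      rw [this]
      refine (norm_add_le _ _).trans ?_
      linarith
    · have h2 : T (j u) - y n = T (j u - x.1) + (T x.1 - y n) := by rw [map_sub]; abel
      rw [h2]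
      refine (norm_add_le _ _).trans ?_
      have h3 : ‖T (j u - x.1)‖ ≤ ‖T‖ * (1 / ((n : ℝ) + 1)) :=
        (T.le_opNorm _).trans (mul_le_mul_of_nonneg_left hu.le (norm_nonneg _))
      have h4 : ‖T x.1 - y n‖ ≤ 1 / ((n : ℝ) + 1) := by
        rw [← dist_eq_norm, dist_comm]
        exact hxy.le
      linarith
  choose u hu1 hu2 using h1
  obtain ⟨φ, hφ, hc⟩ := hK u ⟨2 ^ 2, fun m => pow_le_pow_left₀ (norm_nonneg _) (hu1 m) 2⟩
  have h5 : CauchySeq fun m => T (j (u (φ m))) := by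
    rw [Metric.cauchySeq_iff]
    intro ε hε
    obtain ⟨N, hN⟩ := hc (ε ^ 2) (by positivity)
    refine ⟨N, fun m hm k hk => ?_⟩
    have h6 := hN m hm k hk
    rw [dist_eq_norm, ← map_sub, ← map_sub]
    exact (pow_lt_pow_iff_left₀ (norm_nonneg _) hε.le two_ne_zero).1 h6
  obtain ⟨a, ha⟩ := cauchySeq_tendsto_of_complete h5
  have h7 : Tendsto (fun m => y (φ m)) atTop (𝓝 a) := by
    have h8 : Tendsto (fun m => T (j (u (φ m))) - y (φ m)) atTop (𝓝 0) := by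
      rw [tendsto_zero_iff_norm_tendsto_zero]
      have h9 : Tendsto (fun m : ℕ => (1 + ‖T‖) * (1 / ((φ m : ℝ) + 1))) atTop (𝓝 0) := by
        have := (tendsto_one_div_add_atTop_nhds_zero_nat (𝕜 := ℝ)).comp hφ.tendsto_atTop
        simpa using this.const_mul (1 + ‖T‖)
      exact squeeze_zero (fun _ => norm_nonneg _) (fun m => hu2 (φ m)) h9
    have h10 := ha.sub h8
    simpa using h10
  refine ⟨a, ?_, φ, hφ, h7⟩
  exact isClosed_closure.mem_of_tendsto h7 (Eventually.of_forall fun m => hy (φ m))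

/-- **left parametrix** -/
theorem lp_ES {C : ℝ} (hG : ∀ u, ‖j u‖ ^ 2 ≤ C * (‖P (j u)‖ ^ 2 + ‖T (j u)‖ ^ 2))
    (hK : ∀ u : ℕ → S, (∃ D, ∀ m, ‖j (u m)‖ ^ 2 ≤ D) → ∃ φ : ℕ → ℕ, StrictMono φ ∧
      ∀ ε > 0, ∃ N, ∀ m ≥ N, ∀ k ≥ N, ‖T (j (u (φ m) - u (φ k)))‖ ^ 2 < ε) :
    LP (P.comp (ES j).subtypeL) :=
  lp_of_garding (compact_ES j T hK) (gard_ES j P T hG)

/-- **the kernel consists of smooth objects** -/
theorem ker_ES {C : ℝ} (hG : ∀ u, ‖j u‖ ^ 2 ≤ C * (‖P (j u)‖ ^ 2 + ‖T (j u)‖ ^ 2))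
    {S0 : Submodule ℂ S} (h0 : ∀ w ∈ S0, P (j w) = 0)
    (hR : ∀ u : ℕ → S, (∀ ε > 0, ∃ N, ∀ m ≥ N, ∀ k ≥ N, ‖T (j (u m - u k))‖ ^ 2 < ε) →
      Tendsto (fun m => ‖P (j (u m))‖ ^ 2) atTop (𝓝 0) →
      ∃ w ∈ S0, Tendsto (fun m => ‖T (j (u m - w))‖ ^ 2) atTop (𝓝 0))
    {x : H} (hx : x ∈ ES j) (hPx : P x = 0) : ∃ w ∈ S0, j w = x := by
  have h1 : ∀ n : ℕ, ∃ u : S, ‖j u - x‖ < 1 / ((n : ℝ) + 1) := fun n =>
    exists_near j hx (by positivity)
  choose u hu using h1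
  have h2 : Tendsto (fun n => j (u n)) atTop (𝓝 x) := by
    rw [tendsto_iff_norm_sub_tendsto_zero]
    exact squeeze_zero (fun _ => norm_nonneg _) (fun n => (hu n).le)
      tendsto_one_div_add_atTop_nhds_zero_nat
  have h3 : Tendsto (fun n => ‖P (j (u n))‖ ^ 2) atTop (𝓝 0) := by
    have h4 := ((P.continuous.tendsto x).comp h2).norm.pow 2
    rw [hPx] at h4
    simpa using h4
  have h5 : ∀ ε > 0, ∃ N, ∀ m ≥ N, ∀ k ≥ N, ‖T (j (u m - u k))‖ ^ 2 < ε := by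
    intro ε hε
    have h6 : CauchySeq fun n => T (j (u n)) := ((T.continuous.tendsto x).comp h2).cauchySeq
    obtain ⟨N, hN⟩ := Metric.cauchySeq_iff.1 h6 (√ε) (Real.sqrt_pos.2 hε)
    refine ⟨N, fun m hm k hk => ?_⟩
    have h7 := hN m hm k hk
    rw [dist_eq_norm, ← map_sub, ← map_sub] at h7
    have h8 := pow_lt_pow_left₀ h7 (norm_nonneg _) two_ne_zero
    rwa [Real.sq_sqrt hε.le] at h8
  obtain ⟨w, hw, h9⟩ := hR u h5 h3
  refine ⟨w, hw, ?_⟩
  have h10 : Tendsto (fun n => ‖j (u n - w)‖ ^ 2) atTop (𝓝 0) := by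
    have h11 : Tendsto (fun n => C * (‖P (j (u n - w))‖ ^ 2 + ‖T (j (u n - w))‖ ^ 2)) atTop (𝓝 0) := by
      have h12 : ∀ n, P (j (u n - w)) = P (j (u n)) := fun n => by
        rw [map_sub, map_sub, h0 w hw, sub_zero]
      simp only [h12]
      simpa using (h3.add h9).const_mul C
    exact squeeze_zero (fun _ => sq_nonneg _) (fun n => hG (u n - w)) h11
  have h13 : Tendsto (fun n => ‖j (u n) - j w‖) atTop (𝓝 0) := by
    have h14 := h10.sqrt
    simp only [Real.sqrt_zero, map_sub] at h14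
    refine h14.congr fun n => ?_
    rw [Real.sqrt_sq (norm_nonneg _)]
  have h15 : Tendsto (fun n => j (u n)) atTop (𝓝 (j w)) := tendsto_iff_norm_sub_tendsto_zero.2 h13
  exact tendsto_nhds_unique h15 h2

/-- kernel count -/
theorem ker_ES_iff (hj : Function.Injective j) {C : ℝ}
    (hG : ∀ u, ‖j u‖ ^ 2 ≤ C * (‖P (j u)‖ ^ 2 + ‖T (j u)‖ ^ 2))
    {S0 : Submodule ℂ S} (h0 : ∀ w ∈ S0, P (j w) = 0)
    (hR : ∀ u : ℕ → S, (∀ ε > 0, ∃ N, ∀ m ≥ N, ∀ k ≥ N, ‖T (j (u m - u k))‖ ^ 2 < ε) →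
      Tendsto (fun m => ‖P (j (u m))‖ ^ 2) atTop (𝓝 0) →
      ∃ w ∈ S0, Tendsto (fun m => ‖T (j (u m - w))‖ ^ 2) atTop (𝓝 0)) (N : ℕ) :
    Ker (P.comp (ES j).subtypeL) N ↔ ∃ f : Fin N → S, LinearIndependent ℂ f ∧ ∀ k, f k ∈ S0 := by
  constructor
  · rintro ⟨v, hv, hv0⟩
    choose f hf hjf using fun k => ker_ES j P T hG h0 hR (v k).2 (hv0 k)
    refine ⟨f, ?_, hf⟩
    have h1 : LinearIndependent ℂ (fun k => ((v k : ES j) : H)) :=
      hv.map' (ES j).subtype (Submodule.ker_subtype _)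
    have h2 : (fun k => ((v k : ES j) : H)) = j ∘ f := by
      funext k
      exact (hjf k).symm
    rw [h2] at h1
    exact h1.of_comp j
  · rintro ⟨f, hf, hf0⟩
    refine ⟨fun k => ⟨j (f k), mem_ES j (f k)⟩, ?_, fun k => h0 _ (hf0 k)⟩
    have h1 : LinearIndependent ℂ (j ∘ f) := hf.map' j (LinearMap.ker_eq_bot.2 hj)
    exact LinearIndependent.of_comp (ES j).subtype h1

end abs

/-! ### sections -/

variable {V X : Type} [NormedAddCommGroup V] [NormedSpace ℝ V] [TopologicalSpace X]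
  {C : RCh V X} [FiniteDimensional ℝ V] [MeasurableSpace V] [BorelSpace V]
  (μ : Measure V) [μ.IsAddHaarMeasure] {σ' : Type} [Fintype σ'] (b : Module.Basis σ' ℝ V)
  (Z : Cells C)

/-- Garding's inequality -/
def Gard (L : PL C) (J : C.ι → V → V →L[ℝ] V) : Prop :=
  ∃ Cst, ∀ u : Sec L, N1 μ b Z u ≤ Cst * (ND μ b Z J u + N0 μ Z u)

/-- Rellich -/
def Rell (L : PL C) : Prop :=
  ∀ u : ℕ → Sec L, (∃ D, ∀ m, N1 μ b Z (u m) ≤ D) → ∃ φ : ℕ → ℕ, StrictMono φ ∧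
    ∀ ε > 0, ∃ N, ∀ m ≥ N, ∀ k ≥ N, N0 μ Z (u (φ m) - u (φ k)) < ε

/-- regularity of `L²` limits -/
def Regu (L : PL C) (J : C.ι → V → V →L[ℝ] V) : Prop :=
  ∀ u : ℕ → Sec L, (∀ ε > 0, ∃ N, ∀ m ≥ N, ∀ k ≥ N, N0 μ Z (u m - u k) < ε) →
    Tendsto (fun m => ND μ b Z J (u m)) atTop (𝓝 0) →
    ∃ w ∈ L.H0 J, Tendsto (fun m => N0 μ Z (u m - w)) atTop (𝓝 0)

variable {L : PL C} {J : C.ι → V → V →L[ℝ] V}
  {c : ∀ k : Z.σ, C(Z.B k, FJ σ' →L[ℂ] FO σ')}

/-- `c` is the coefficient of `(L, J)` -/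
def IsCf (L : PL C) (J : C.ι → V → V →L[ℝ] V) (c : ∀ k : Z.σ, C(Z.B k, FJ σ' →L[ℂ] FO σ')) :
    Prop :=
  ∀ k (z : Z.B k), c k z = cf b (L.th (Z.i k) z) (J (Z.i k) z)

theorem norm_Pop_sq (hc : IsCf b Z L J c) (u : Sec L) :
    ‖Pop μ Z c (jet μ b Z L u)‖ ^ 2 = ND μ b Z J u := by
  rw [norm_Pop_jet_sq]
  unfold ND
  refine Finset.sum_congr rfl fun k _ => ?_
  have h1 : ∀ z : Z.B k, ‖c k z (jetC b Z u k z)‖ ^ 2 =
      (fun y : V => ∑ l, ‖u.db J (Z.i k) y (b l)‖ ^ 2) z := by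
    intro z
    rw [hc k z, EuclideanSpace.norm_sq_eq]
    exact Finset.sum_congr rfl fun l _ => by rw [cf_jet]
  have hcpt : IsCompact (Z.B k) :=
    have := FiniteDimensional.proper_real V
    isCompact_closedBall _ _
  have hcont : ∀ l, IntegrableOn (fun y : V => ‖u.db J (Z.i k) y (b l)‖ ^ 2) (Z.B k) μ := by
    intro l
    have h2 : Continuous fun z : Z.B k => ‖u.db J (Z.i k) z (b l)‖ ^ 2 := by
      have h3 : ∀ z : Z.B k, u.db J (Z.i k) z (b l) = c k z (jetC b Z u k z) l := fun z => by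
        rw [hc k z, cf_jet]
      simp only [h3]
      have h4 : Continuous fun z : Z.B k => c k z (jetC b Z u k z) :=
        (c k).continuous.clm_apply (jetC b Z u k).continuous
      exact ((EuclideanSpace.proj (𝕜 := ℂ) l).continuous.comp h4).norm.pow 2
    have h5 : ContinuousOn (fun y : V => ‖u.db J (Z.i k) y (b l)‖ ^ 2) (Z.B k) :=
      continuousOn_iff_continuous_domRestrict.2 h2
    exact h5.integrableOn_compact hcpt
  simp only [h1]
  rw [int_nu μ Z k (fun y : V => ∑ l, ‖u.db J (Z.i k) y (b l)‖ ^ 2),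
    integral_finsetSum _ fun l _ => hcont l]

/-- the space of `H¹` sections -/
abbrev EL (L : PL C) : Submodule ℂ (HJ μ Z σ') := ES (jet μ b Z L)

/-- the operator on `H¹` sections -/
def PE (L : PL C) (c : ∀ k : Z.σ, C(Z.B k, FJ σ' →L[ℂ] FO σ')) : EL μ b Z L →L[ℂ] HF μ Z σ' :=
  (Pop μ Z c).comp (EL μ b Z L).subtypeL

theorem lp_PE (hc : IsCf b Z L J c) (hG : Gard μ b Z L J) (hK : Rell μ b Z L) :
    LP (PE μ b Z L c) := by
  obtain ⟨Cst, hG⟩ := hG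
  refine lp_ES (jet μ b Z L) (Pop μ Z c) (T0 μ Z σ') (C := Cst) (fun u => ?_) fun u hu => ?_
  · rw [norm_jet_sq, norm_Pop_sq μ b Z hc, norm_T0_jet_sq]
    exact hG u
  · simp only [norm_jet_sq] at hu
    simp only [norm_T0_jet_sq]
    exact hK u hu

theorem ker_PE_iff (hc : IsCf b Z L J c) (hG : Gard μ b Z L J) (hR : Regu μ b Z L J) (N : ℕ) :
    Ker (PE μ b Z L c) N ↔ L.HasN J N := by
  obtain ⟨Cst, hG⟩ := hG
  refine ker_ES_iff (jet μ b Z L) (Pop μ Z c) (T0 μ Z σ') (jet_inj μ b Z) (C := Cst) (fun u => ?_)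
    (S0 := L.H0 J) (fun w hw => ?_) (fun u hu1 hu2 => ?_) N
  · rw [norm_jet_sq, norm_Pop_sq μ b Z hc, norm_T0_jet_sq]
    exact hG u
  · have h1 : ‖Pop μ Z c (jet μ b Z L w)‖ ^ 2 = 0 := by
      rw [norm_Pop_sq μ b Z hc]
      unfold ND
      refine Finset.sum_eq_zero fun k _ => Finset.sum_eq_zero fun l _ => ?_
      rw [setIntegral_congr_fun (s := Z.B k) (g := fun _ => (0 : ℝ)) measurableSet_closedBall
        fun z hz => ?_]
      · simp
      · show ‖w.db J (Z.i k) z (b l)‖ ^ 2 = 0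
        rw [hw (Z.i k) z (Z.sub k hz)]
        simp
    exact norm_eq_zero.1 (by simpa using h1)
  · simp only [norm_T0_jet_sq] at hu1 ⊢
    simp only [norm_Pop_sq μ b Z hc] at hu2
    exact hR u hu1 hu2

end

end Crest.Agent.R281.Hz_286
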