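import Crest.Agent.R281.Hy8_409
import Crest.Agent.R281.Hz2_286

/-!
# R281 (S0424), H0-OP, second road (helper409), part 9: the three analytic inputs of Hz2_286

* `gard` : `Gard μ b Z L J`
* `rell` : `Rell μ b Z L`
* `regu` : `Regu μ b Z L J`
-/

set_option autoImplicit false
set_option linter.unusedSectionVars false
set_option maxSynthPendingDepth 3

open Set Filter Topology MeasureTheory Metric
open scoped ContDiff ENNReal NNReal

namespace Crest.Agent.R281.Hy_409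

open Crest.Agent.R281.HkR_835 Crest.Agent.R281.Ti_846 Crest.Agent.R281.PL_713
open Crest.Agent.R275.Geo
open Crest.Agent.R281.Hz_286 (Cells Gard Rell Regu ND)

noncomputable section

/-- the complex structure of a holomorphic atlas is continuous -/
theorem J_cont {V X : Type} [NormedAddCommGroup V] [NormedSpace ℝ V] [TopologicalSpace X]
    {C : RCh V X} {n : ℕ} {A : Atl n X} {J : C.ι → V → V →L[ℝ] V} (hJ : JC C J A) (i : C.ι) :
    ContinuousOn (J i) (C.e i).target := by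
  intro z0 hz0
  obtain ⟨a, ha⟩ := A.cover ((C.e i).symm z0)
  have hza : z0 ∈ mov (ofAtl A) C a i := ⟨hz0, ha⟩
  have ho : IsOpen (mov (ofAtl A) C a i) := Cmp.isOpen_mov _ _ _ _
  have h1 : ∀ z ∈ mov (ofAtl A) C a i, J i z =
      ((fderiv ℝ (mt C (ofAtl A) i a) (mt (ofAtl A) C a i z)).comp
        ((iL : Cn n →L[ℝ] Cn n).comp (fderiv ℝ (mt (ofAtl A) C a i) z))) := by
    intro z hz
    ext v
    have h2 : mt (ofAtl A) C a i z ∈ mov C (ofAtl A) i a :=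
      Cmp.mt_mem (C := ofAtl A) (C' := C) hz
    have h3 := hJ.lin i a _ h2 (fderiv ℝ (mt (ofAtl A) C a i) z v)
    rw [Cmp.mt_mt (C := ofAtl A) (C' := C) hz, hJ.cmp.symm.d_d hz] at h3
    exact h3.symm
  have h2 : ContinuousOn (fderiv ℝ (mt (ofAtl A) C a i)) (mov (ofAtl A) C a i) :=
    (hJ.cmp.s' i a).continuousOn_fderiv_of_isOpen ho (by simp)
  have h3 : ContinuousOn (fun z => fderiv ℝ (mt C (ofAtl A) i a) (mt (ofAtl A) C a i z))
      (mov (ofAtl A) C a i) :=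
    ((hJ.cmp.s i a).continuousOn_fderiv_of_isOpen (Cmp.isOpen_mov _ _ _ _) (by simp)).comp
      (hJ.cmp.s' i a).continuousOn fun z hz => Cmp.mt_mem (C := ofAtl A) (C' := C) hz
  have h4 : ContinuousOn (J i) (mov (ofAtl A) C a i) :=
    (h3.clm_comp (continuousOn_const.clm_comp h2)).congr h1
  exact (h4.continuousAt (ho.mem_nhds hza)).continuousWithinAt

variable {V X : Type} [NormedAddCommGroup V] [NormedSpace ℝ V] [FiniteDimensional ℝ V]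
  [MeasurableSpace V] [BorelSpace V] [TopologicalSpace X]
  {C : RCh V X} (μ : Measure V) [μ.IsAddHaarMeasure] {σ' : Type} [Fintype σ']
  (b : Module.Basis σ' ℝ V)

/-- operator norm and a basis -/
theorem op_sq_le : ∃ c : ℝ≥0, ∀ T : V →L[ℝ] ℂ, ‖T‖ₑ ^ 2 ≤ c * ∑ l, ‖T (b l)‖ₑ ^ 2 := by
  obtain ⟨K, hK, h⟩ := b.exists_opNorm_le (F := ℂ)
  refine ⟨(K ^ 2).toNNReal, fun T => ?_⟩
  set S : ℝ := ∑ l, ‖T (b l)‖ ^ 2 with hS
  have hS0 : 0 ≤ S := Finset.sum_nonneg fun _ _ => by positivity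
  have h1 : ‖T‖ ≤ K * √S := by
    refine h (Real.sqrt_nonneg _) fun l => ?_
    refine Real.le_sqrt_of_sq_le ?_
    exact Finset.single_le_sum (f := fun l => ‖T (b l)‖ ^ 2) (fun _ _ => by positivity)
      (Finset.mem_univ l)
  have h2 : ‖T‖ ^ 2 ≤ K ^ 2 * S := by
    calc ‖T‖ ^ 2 ≤ (K * √S) ^ 2 := pow_le_pow_left₀ (norm_nonneg _) h1 2
      _ = K ^ 2 * S := by rw [mul_pow, Real.sq_sqrt hS0]
  have h3 : ∑ l, ‖T (b l)‖ₑ ^ 2 = ENNReal.ofReal S := by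
    rw [hS, ENNReal.ofReal_sum_of_nonneg fun _ _ => by positivity]
    refine Finset.sum_congr rfl fun l _ => ?_
    rw [ENNReal.ofReal_pow (norm_nonneg _), ofReal_norm]
  rw [h3, ← ofReal_norm, ← ENNReal.ofReal_pow (norm_nonneg _)]
  show _ ≤ ENNReal.ofReal (K ^ 2) * _
  rw [← ENNReal.ofReal_mul (by positivity)]
  exact ENNReal.ofReal_le_ofReal h2

theorem ofReal_sq {E : Type*} [NormedAddCommGroup E] {f : V → E} {K : Set V} (hK : IsCompact K)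
    (hf : ContinuousOn f K) :
    ENNReal.ofReal (∫ z in K, ‖f z‖ ^ 2 ∂μ) = ∫⁻ z in K, ‖f z‖ₑ ^ 2 ∂μ := by
  have h1 : ContinuousOn (fun z => ‖f z‖ ^ 2) K := hf.norm.pow 2
  rw [ofReal_integral_eq_lintegral_ofReal (h1.integrableOn_compact hK)
    (Eventually.of_forall fun x => by positivity)]
  refine lintegral_congr fun x => ?_
  rw [ENNReal.ofReal_pow (norm_nonneg _), ofReal_norm]

variable (Z : Cells C) {L : PL C}

/-- the cells as `Bc` -/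
def toBc : Bc C := ⟨Z.σ, Z.fin, Z.i, Z.c, Z.r, Z.sub, Z.cover⟩

theorem N0_eq (u : Sec L) : N0 (toBc Z) μ u =
    ∑ k : Z.σ, ∫⁻ z in Z.B k, ‖u.u (Z.i k) z‖ₑ ^ 2 ∂μ := rfl

theorem N1_eq (u : Sec L) : N1 (toBc Z) μ u =
    ∑ k : Z.σ, ∫⁻ z in Z.B k, ‖DL u (Z.i k) z‖ₑ ^ 2 ∂μ := rfl

theorem cB (k : Z.σ) : IsCompact (Z.B k) := isCompact_closedBall _ _

theorem hN0_nonneg (u : Sec L) : 0 ≤ Hz_286.N0 μ Z u :=
  Finset.sum_nonneg fun _ _ => integral_nonneg fun _ => by positivity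

theorem dN_nonneg (u : Sec L) :
    0 ≤ ∑ k, ∑ l, ∫ z in Z.B k, ‖fderiv ℝ (u.u (Z.i k)) z (b l)‖ ^ 2 ∂μ :=
  Finset.sum_nonneg fun _ _ => Finset.sum_nonneg fun _ _ =>
    integral_nonneg fun _ => by positivity

theorem hND_nonneg (J : C.ι → V → V →L[ℝ] V) (u : Sec L) : 0 ≤ ND μ b Z J u :=
  Finset.sum_nonneg fun _ _ => Finset.sum_nonneg fun _ _ =>
    integral_nonneg fun _ => by positivity

theorem hN1_nonneg (u : Sec L) : 0 ≤ Hz_286.N1 μ b Z u :=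
  add_nonneg (hN0_nonneg μ Z u) (dN_nonneg μ b Z u)

theorem ofReal_N0 (u : Sec L) : ENNReal.ofReal (Hz_286.N0 μ Z u) = N0 (toBc Z) μ u := by
  unfold Hz_286.N0 N0
  rw [ENNReal.ofReal_sum_of_nonneg fun _ _ => integral_nonneg fun _ => by positivity]
  refine Finset.sum_congr rfl fun k _ => ?_
  exact ofReal_sq μ (cB Z k) ((u.sm (Z.i k)).continuousOn.mono (Z.sub k))

theorem ofReal_dN (u : Sec L) :
    ENNReal.ofReal (∑ k, ∑ l, ∫ z in Z.B k, ‖fderiv ℝ (u.u (Z.i k)) z (b l)‖ ^ 2 ∂μ) =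
      ∑ k, ∑ l, ∫⁻ z in Z.B k, ‖fderiv ℝ (u.u (Z.i k)) z (b l)‖ₑ ^ 2 ∂μ := by
  rw [ENNReal.ofReal_sum_of_nonneg fun _ _ => Finset.sum_nonneg fun _ _ =>
    integral_nonneg fun _ => by positivity]
  refine Finset.sum_congr rfl fun k _ => ?_
  rw [ENNReal.ofReal_sum_of_nonneg fun _ _ => integral_nonneg fun _ => by positivity]
  refine Finset.sum_congr rfl fun l _ => ?_
  refine ofReal_sq μ (cB Z k) ?_
  exact (((u.sm (Z.i k)).continuousOn_fderiv_of_isOpen (C.e (Z.i k)).open_target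
    (by simp)).mono (Z.sub k)).clm_apply continuousOn_const

theorem ofReal_ND {J : C.ι → V → V →L[ℝ] V} (hJ : ∀ i, ContinuousOn (J i) (C.e i).target)
    (u : Sec L) : ENNReal.ofReal (ND μ b Z J u) =
      ∑ k, ∑ l, ∫⁻ z in Z.B k, ‖dbJ (DL u (Z.i k) z) (J (Z.i k) z) (b l)‖ₑ ^ 2 ∂μ := by
  unfold ND
  rw [ENNReal.ofReal_sum_of_nonneg fun _ _ => Finset.sum_nonneg fun _ _ =>
    integral_nonneg fun _ => by positivity]
  refine Finset.sum_congr rfl fun k _ => ?_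
  rw [ENNReal.ofReal_sum_of_nonneg fun _ _ => integral_nonneg fun _ => by positivity]
  refine Finset.sum_congr rfl fun l _ => ?_
  simp only [← db_eq]
  refine ofReal_sq μ (cB Z k) ?_
  exact ((dbJ_cont (DL_cont u (Z.i k)) (hJ (Z.i k))).mono (Z.sub k)).clm_apply continuousOn_const

/-- `NJ` is bounded by `ND` -/
theorem NJ_le {J : C.ι → V → V →L[ℝ] V} (hJ : ∀ i, ContinuousOn (J i) (C.e i).target) :
    ∃ c : ℝ≥0, ∀ u : Sec L, NJ (toBc Z) μ J u ≤ c * ENNReal.ofReal (ND μ b Z J u) := by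
  obtain ⟨c, hc⟩ := op_sq_le b
  refine ⟨c, fun u => ?_⟩
  rw [ofReal_ND μ b Z hJ]
  unfold NJ
  rw [Finset.mul_sum]
  refine Finset.sum_le_sum fun k _ => ?_
  have h1 : ∀ l, AEMeasurable (fun z => ‖dbJ (DL u (Z.i k) z) (J (Z.i k) z) (b l)‖ₑ ^ 2)
      (μ.restrict (Z.B k)) := fun l => aem_sq μ (cB Z k)
    (((dbJ_cont (DL_cont u (Z.i k)) (hJ (Z.i k))).mono (Z.sub k)).clm_apply continuousOn_const)
  rw [← lintegral_finsetSum' _ fun l _ => h1 l, ← lintegral_const_mul' _ _ ENNReal.coe_ne_top]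
  exact lintegral_mono fun z => hc _

/-- bound of the connection on the cells -/
theorem th_bd (L : PL C) : ∃ M : ℝ≥0, ∀ k, ∀ z ∈ Z.B k, ‖cof (L.th (Z.i k) z)‖ₑ ≤ M := by
  have h := fun k => Loc.mul_bd (cB Z k)
    ((cof_cont (L.th_sm (Z.i k)).continuousOn).mono (Z.sub k))
  choose M hM using h
  refine ⟨∑ k, M k, fun k z hz => (hM k z hz).trans ?_⟩
  exact_mod_cast Finset.single_le_sum (f := M) (fun _ _ => zero_le) (Finset.mem_univ k)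

/-- the derivative and the covariant derivative -/
theorem fd_le {i : C.ι} {u : Sec L} {z : V} {M : ℝ≥0} (h : ‖cof (L.th i z)‖ₑ ≤ M) :
    ‖fderiv ℝ (u.u i) z‖ₑ ^ 2 ≤ 2 * ‖DL u i z‖ₑ ^ 2 + 2 * (M ^ 2 * ‖u.u i z‖ₑ ^ 2) ∧
    ‖DL u i z‖ₑ ^ 2 ≤ 2 * ‖fderiv ℝ (u.u i) z‖ₑ ^ 2 + 2 * (M ^ 2 * ‖u.u i z‖ₑ ^ 2) := by
  have h1 : ‖(Complex.I * u.u i z) • cof (L.th i z)‖ₑ ≤ M * ‖u.u i z‖ₑ := by
    rw [enorm_smul, enorm_mul]
    have h2 : ‖Complex.I‖ₑ = 1 := by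
      rw [← ofReal_norm, Complex.norm_I, ENNReal.ofReal_one]
    rw [h2, one_mul, mul_comm]
    exact mul_le_mul_left h _
  have e1 : fderiv ℝ (u.u i) z = DL u i z + -((Complex.I * u.u i z) • cof (L.th i z)) := by
    unfold DL
    abel
  constructor
  · have h3 : ‖fderiv ℝ (u.u i) z‖ₑ ≤ ‖DL u i z‖ₑ + M * ‖u.u i z‖ₑ := by
      rw [e1]
      refine (enorm_add_le _ _).trans ?_
      rw [enorm_neg]
      exact add_le_add le_rfl h1
    refine (pow_le_pow_left' h3 2).trans ((sq_add_le _ _).trans (le_of_eq ?_))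
    rw [mul_pow]
  · have h3 : ‖DL u i z‖ₑ ≤ ‖fderiv ℝ (u.u i) z‖ₑ + M * ‖u.u i z‖ₑ :=
      (enorm_add_le _ _).trans (add_le_add le_rfl h1)
    refine (pow_le_pow_left' h3 2).trans ((sq_add_le _ _).trans (le_of_eq ?_))
    rw [mul_pow]

/-- `Hz_286.N1` is bounded by `N1` and `N0` -/
theorem hN1_le (L : PL C) : ∃ c : ℝ≥0, ∀ u : Sec L, ENNReal.ofReal (Hz_286.N1 μ b Z u) ≤
    c * (N1 (toBc Z) μ u + N0 (toBc Z) μ u) := by
  obtain ⟨M, hM⟩ := th_bd Z L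
  set Kb : ℝ≥0 := ∑ l, ‖b l‖₊ ^ 2 with hKb
  refine ⟨1 + Kb * (2 + 2 * M ^ 2), fun u => ?_⟩
  unfold Hz_286.N1
  rw [ENNReal.ofReal_add (hN0_nonneg μ Z u) (dN_nonneg μ b Z u), ofReal_N0, ofReal_dN]
  have h1 : ∑ k, ∑ l, ∫⁻ z in Z.B k, ‖fderiv ℝ (u.u (Z.i k)) z (b l)‖ₑ ^ 2 ∂μ ≤
      Kb * (2 * N1 (toBc Z) μ u + 2 * (M ^ 2 * N0 (toBc Z) μ u)) := by
    rw [N1_eq, N0_eq, Finset.mul_sum, Finset.mul_sum, Finset.mul_sum, ← Finset.sum_add_distrib,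
      Finset.mul_sum]
    refine Finset.sum_le_sum fun k _ => ?_
    have h2 : ∀ l, ∫⁻ z in Z.B k, ‖fderiv ℝ (u.u (Z.i k)) z (b l)‖ₑ ^ 2 ∂μ ≤
        ‖b l‖ₑ ^ 2 * ∫⁻ z in Z.B k, ‖fderiv ℝ (u.u (Z.i k)) z‖ₑ ^ 2 ∂μ := by
      intro l
      rw [← lintegral_const_mul' _ _ (ENNReal.pow_ne_top enorm_ne_top)]
      refine lintegral_mono fun z => ?_
      rw [← mul_pow]
      refine pow_le_pow_left' ?_ 2
      rw [mul_comm]
      exact ContinuousLinearMap.le_opENorm _ _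
    refine (Finset.sum_le_sum fun l _ => h2 l).trans ?_
    rw [← Finset.sum_mul]
    have h3 : ∑ l, ‖b l‖ₑ ^ 2 = (Kb : ℝ≥0∞) := by
      rw [hKb]; push_cast; rfl
    rw [h3]
    refine mul_le_mul_right ?_ _
    have h4 : ∀ z ∈ Z.B k, ‖fderiv ℝ (u.u (Z.i k)) z‖ₑ ^ 2 ≤
        ((2 : ℝ≥0) : ℝ≥0∞) * ‖DL u (Z.i k) z‖ₑ ^ 2 + ((2 * M ^ 2 : ℝ≥0) : ℝ≥0∞) *
          ‖u.u (Z.i k) z‖ₑ ^ 2 := by
      intro z hz
      refine (fd_le (hM k z hz)).1.trans (le_of_eq ?_)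
      push_cast
      ring
    refine (int_le μ (cB Z k) ((u.sm (Z.i k)).continuousOn.mono (Z.sub k)) h4).trans
      (le_of_eq ?_)
    push_cast
    rw [mul_assoc]
  refine (add_le_add le_rfl h1).trans ?_
  push_cast
  calc N0 (toBc Z) μ u + (Kb : ℝ≥0∞) * (2 * N1 (toBc Z) μ u + 2 * ((M : ℝ≥0∞) ^ 2 *
        N0 (toBc Z) μ u)) ≤ (N1 (toBc Z) μ u + N0 (toBc Z) μ u) +
        (Kb : ℝ≥0∞) * (2 * (N1 (toBc Z) μ u + N0 (toBc Z) μ u) +
          2 * ((M : ℝ≥0∞) ^ 2 * (N1 (toBc Z) μ u + N0 (toBc Z) μ u))) := by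
        gcongr
        · exact le_add_self
        · exact le_self_add
        · exact le_add_self
    _ = (1 + (Kb : ℝ≥0∞) * (2 + 2 * (M : ℝ≥0∞) ^ 2)) * (N1 (toBc Z) μ u + N0 (toBc Z) μ u) := by
        ring

/-- `N1` is bounded by `Hz_286.N1` -/
theorem N1_le (L : PL C) : ∃ c : ℝ≥0, ∀ u : Sec L, N1 (toBc Z) μ u ≤
    c * ENNReal.ofReal (Hz_286.N1 μ b Z u) := by
  obtain ⟨M, hM⟩ := th_bd Z L
  obtain ⟨c, hc⟩ := op_sq_le b
  refine ⟨2 * c + 2 * M ^ 2, fun u => ?_⟩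
  unfold Hz_286.N1
  rw [ENNReal.ofReal_add (hN0_nonneg μ Z u) (dN_nonneg μ b Z u), ofReal_N0, ofReal_dN]
  have h1 : N1 (toBc Z) μ u ≤ 2 * (c * ∑ k, ∑ l, ∫⁻ z in Z.B k,
      ‖fderiv ℝ (u.u (Z.i k)) z (b l)‖ₑ ^ 2 ∂μ) + 2 * (M ^ 2 * N0 (toBc Z) μ u) := by
    rw [N1_eq, N0_eq, Finset.mul_sum, Finset.mul_sum, Finset.mul_sum, Finset.mul_sum,
      ← Finset.sum_add_distrib]
    refine Finset.sum_le_sum fun k _ => ?_
    have h4 : ∀ z ∈ Z.B k, ‖DL u (Z.i k) z‖ₑ ^ 2 ≤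
        ((2 : ℝ≥0) : ℝ≥0∞) * ‖fderiv ℝ (u.u (Z.i k)) z‖ₑ ^ 2 + ((2 * M ^ 2 : ℝ≥0) : ℝ≥0∞) *
          ‖u.u (Z.i k) z‖ₑ ^ 2 := by
      intro z hz
      refine (fd_le (hM k z hz)).2.trans (le_of_eq ?_)
      push_cast
      ring
    refine (int_le μ (cB Z k) ((u.sm (Z.i k)).continuousOn.mono (Z.sub k)) h4).trans ?_
    have h5 : ∫⁻ z in Z.B k, ‖fderiv ℝ (u.u (Z.i k)) z‖ₑ ^ 2 ∂μ ≤
        c * ∑ l, ∫⁻ z in Z.B k, ‖fderiv ℝ (u.u (Z.i k)) z (b l)‖ₑ ^ 2 ∂μ := by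
      have h6 : ∀ l, AEMeasurable (fun z => ‖fderiv ℝ (u.u (Z.i k)) z (b l)‖ₑ ^ 2)
          (μ.restrict (Z.B k)) := fun l => aem_sq μ (cB Z k)
        ((((u.sm (Z.i k)).continuousOn_fderiv_of_isOpen (C.e (Z.i k)).open_target
          (by simp)).mono (Z.sub k)).clm_apply continuousOn_const)
      rw [← lintegral_finsetSum' _ fun l _ => h6 l,
        ← lintegral_const_mul' _ _ ENNReal.coe_ne_top]
      exact lintegral_mono fun z => hc _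
    refine (add_le_add (mul_le_mul_right h5 _) le_rfl).trans (le_of_eq ?_)
    push_cast
    rw [mul_assoc 2 ((M : ℝ≥0∞) ^ 2)]
  refine h1.trans ?_
  set D := ∑ k, ∑ l, ∫⁻ z in Z.B k, ‖fderiv ℝ (u.u (Z.i k)) z (b l)‖ₑ ^ 2 ∂μ with hD
  push_cast
  calc 2 * ((c : ℝ≥0∞) * D) + 2 * ((M : ℝ≥0∞) ^ 2 * N0 (toBc Z) μ u) ≤
      2 * ((c : ℝ≥0∞) * (N0 (toBc Z) μ u + D)) + 2 * ((M : ℝ≥0∞) ^ 2 *
        (N0 (toBc Z) μ u + D)) := by
        gcongr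
        · exact le_add_self
        · exact le_self_add
    _ = (2 * (c : ℝ≥0∞) + 2 * (M : ℝ≥0∞) ^ 2) * (N0 (toBc Z) μ u + D) := by ring

variable [CompactSpace X] [T2Space X]

/-- **Garding**, shape of Hz2_286 -/
theorem gard_of_cont {J : C.ι → V → V →L[ℝ] V} (hJ : ∀ i, ContinuousOn (J i) (C.e i).target)
    (L : PL C) : Gard μ b Z L J := by
  obtain ⟨c1, h1⟩ := hN1_le μ b Z L
  obtain ⟨c2, h2⟩ := garding μ (toBc Z) L hJ
  obtain ⟨c3, h3⟩ := NJ_le μ b Z (L := L) hJ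
  refine ⟨c1 * (c2 * (c3 + 1) + 1), fun u => ?_⟩
  have hx := hND_nonneg μ b Z J u
  have hy := hN0_nonneg μ Z u
  rw [← ENNReal.ofReal_le_ofReal_iff (by positivity), ENNReal.ofReal_mul (by positivity),
    ENNReal.ofReal_add hx hy, ofReal_N0]
  have e1 : ENNReal.ofReal (c1 * (c2 * (c3 + 1) + 1)) =
      (c1 : ℝ≥0∞) * (c2 * (c3 + 1) + 1) := by
    have : ((c1 : ℝ) * (c2 * (c3 + 1) + 1)) = ((c1 * (c2 * (c3 + 1) + 1) : ℝ≥0) : ℝ) := by
      push_cast; ring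
    rw [this, ENNReal.ofReal_coe_nnreal]
    push_cast
    ring
  rw [e1]
  refine (h1 u).trans ?_
  rw [mul_assoc]
  refine mul_le_mul_right ?_ _
  calc N1 (toBc Z) μ u + N0 (toBc Z) μ u ≤
      c2 * (c3 * ENNReal.ofReal (ND μ b Z J u) + N0 (toBc Z) μ u) + N0 (toBc Z) μ u := by
        gcongr
        exact (h2 u).trans (mul_le_mul_right (add_le_add (h3 u) le_rfl) _)
    _ ≤ c2 * (c3 * (ENNReal.ofReal (ND μ b Z J u) + N0 (toBc Z) μ u) +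
        (ENNReal.ofReal (ND μ b Z J u) + N0 (toBc Z) μ u)) +
        (ENNReal.ofReal (ND μ b Z J u) + N0 (toBc Z) μ u) := by
        gcongr
        · exact le_self_add
        · exact le_add_self
        · exact le_add_self
    _ = (c2 * (c3 + 1) + 1) * (ENNReal.ofReal (ND μ b Z J u) + N0 (toBc Z) μ u) := by ring

/-- **Garding** for a holomorphic atlas -/
theorem gard {n : ℕ} {A : Atl n X} {J : C.ι → V → V →L[ℝ] V} (hJ : JC C J A) (L : PL C) :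
    Gard μ b Z L J := gard_of_cont μ b Z (J_cont hJ) L

/-- **Rellich**, shape of Hz2_286 -/
theorem rell (L : PL C) : Rell μ b Z L := by
  rintro u ⟨D, hD⟩
  obtain ⟨c, hc⟩ := N1_le μ b Z L
  have h0 : ∀ m, N0 (toBc Z) μ (u m) ≤ ((c + 1) * D.toNNReal : ℝ≥0) := fun m => by
    rw [← ofReal_N0]
    have h1 : Hz_286.N0 μ Z (u m) ≤ Hz_286.N1 μ b Z (u m) :=
      le_add_of_nonneg_right (dN_nonneg μ b Z (u m))
    refine (ENNReal.ofReal_le_ofReal (h1.trans (hD m))).trans ?_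
    push_cast
    exact le_mul_of_one_le_left zero_le le_add_self
  have h1 : ∀ m, N1 (toBc Z) μ (u m) ≤ ((c + 1) * D.toNNReal : ℝ≥0) := fun m => by
    refine (hc (u m)).trans ?_
    push_cast
    exact mul_le_mul' le_self_add (ENNReal.ofReal_le_ofReal (hD m))
  obtain ⟨φ, hφ, hC⟩ := rellich_S μ (toBc Z) h0 h1
  refine ⟨φ, hφ, fun ε hε => ?_⟩
  obtain ⟨N, hN⟩ := hC (ε / 2).toNNReal (by simpa using hε)
  refine ⟨N, fun m hm k hk => ?_⟩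
  have h2 := hN m hm k hk
  rw [← ofReal_N0] at h2
  have h3 : Hz_286.N0 μ Z (u (φ m) - u (φ k)) ≤ ε / 2 :=
    (ENNReal.ofReal_le_ofReal_iff (by positivity)).1 h2
  linarith

/-- **regularity of `L²` limits**, shape of Hz2_286 -/
theorem regu {n : ℕ} {A : Atl n X} {J : C.ι → V → V →L[ℝ] V} (hJ : JC C J A) {L : PL C}
    (hF : F11 J L) : Regu μ b Z L J := by
  intro u hC hd
  obtain ⟨c, hc⟩ := NJ_le μ b Z (L := L) (J_cont hJ)
  obtain ⟨w, hw, hl⟩ := weyl_S μ hJ hF (toBc Z) u (fun ε hε => by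
    obtain ⟨N, hN⟩ := hC ε (by exact_mod_cast hε)
    refine ⟨N, fun m hm k hk => ?_⟩
    rw [← ofReal_N0, ← ENNReal.ofReal_coe_nnreal]
    exact ENNReal.ofReal_le_ofReal (hN m hm k hk).le) (by
    refine tendsto_of_tendsto_of_tendsto_of_le_of_le tendsto_const_nhds ?_
      (fun _ => zero_le) fun m => hc (u m)
    have h1 := ENNReal.tendsto_ofReal hd
    rw [ENNReal.ofReal_zero] at h1
    have h2 := ENNReal.Tendsto.const_mul (a := (c : ℝ≥0∞)) h1 (Or.inr ENNReal.coe_ne_top)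
    rwa [mul_zero] at h2)
  refine ⟨w, hw, ?_⟩
  have h1 := (ENNReal.tendsto_toReal ENNReal.zero_ne_top).comp hl
  refine h1.congr fun m => ?_
  show (N0 (toBc Z) μ (u m - w)).toReal = _
  rw [← ofReal_N0, ENNReal.toReal_ofReal (hN0_nonneg μ Z _)]

end

end Crest.Agent.R281.Hy_409
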