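import Crest.Agent.R281.PL2_713

/-!
# R281 (S0424), H0-OP (helper286), part 0: cells and the norms of sections

* `Cells C`  : finitely many closed balls in the charts of `C : RCh V X`, the open balls cover `X`
* `N0 μ Z u` : `∑ k, ∫ z in B_k, ‖u_k z‖²`
* `N1 μ b Z u` : `N0` plus the squares of the first derivatives in the directions of the basis `b`
* `ND μ b Z J u` : `∑ k l, ∫ z in B_k, ‖(D u + I D u ∘ J) (b l)‖²`
-/

set_option autoImplicit false
set_option linter.unusedSectionVars false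

open Set Filter Topology Complex MeasureTheory Metric
open scoped ContDiff

namespace Crest.Agent.R281.Hz_286

open Crest.Agent.R281.HkR_835 Crest.Agent.R281.PL_713

noncomputable section

variable {V X : Type} [NormedAddCommGroup V] [NormedSpace ℝ V] [TopologicalSpace X]
  {C : RCh V X}

/-- finitely many closed balls in the charts, the open balls cover -/
structure Cells (C : RCh V X) where
  σ : Type
  [fin : Fintype σ]
  i : σ → C.ι
  c : σ → V
  r : σ → ℝ
  sub : ∀ k, closedBall (c k) (r k) ⊆ (C.e (i k)).target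
  cover : ∀ x, ∃ k, x ∈ (C.e (i k)).source ∧ C.e (i k) x ∈ ball (c k) (r k)

attribute [instance] Cells.fin

/-- the closed ball of the cell `k` -/
def Cells.B (Z : Cells C) (k : Z.σ) : Set V := closedBall (Z.c k) (Z.r k)

theorem Cells.exists_cells [CompactSpace X] (C : RCh V X) : Nonempty (Cells C) := by
  classical
  have h1 : ∀ x : X, ∃ (i : C.ι) (r : ℝ), 0 < r ∧ x ∈ (C.e i).source ∧
      closedBall (C.e i x) r ⊆ (C.e i).target := by
    intro x
    obtain ⟨i, hi⟩ := C.cover x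
    have h2 : (C.e i).target ∈ 𝓝 (C.e i x) :=
      (C.e i).open_target.mem_nhds ((C.e i).map_source hi)
    obtain ⟨r, hr, h3⟩ := Metric.nhds_basis_closedBall.mem_iff.1 h2
    exact ⟨i, r, hr, hi, h3⟩
  choose i r hr hi hb using h1
  have h4 : ∀ x, (C.e (i x)).source ∩ (C.e (i x)) ⁻¹' ball (C.e (i x) x) (r x) ∈ 𝓝 x := by
    intro x
    refine ((C.e (i x)).isOpen_inter_preimage isOpen_ball).mem_nhds ⟨hi x, ?_⟩
    exact mem_ball_self (hr x)
  obtain ⟨t, ht⟩ := CompactSpace.elim_nhds_subcover _ h4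
  refine ⟨{
    σ := t
    i := fun k => i k.1
    c := fun k => C.e (i k.1) k.1
    r := fun k => r k.1
    sub := fun k => hb k.1
    cover := fun x => ?_ }⟩
  have h5 : x ∈ ⋃ y ∈ t, (C.e (i y)).source ∩ (C.e (i y)) ⁻¹' ball (C.e (i y) y) (r y) := by
    rw [ht]; trivial
  obtain ⟨y, hy, h6⟩ := mem_iUnion₂.1 h5
  exact ⟨⟨y, hy⟩, h6.1, h6.2⟩

variable [MeasurableSpace V] (μ : Measure V) {σ' : Type} [Fintype σ'] (b : Module.Basis σ' ℝ V)
  (Z : Cells C) {L : PL C}

/-- the square of the `L²` norm of a section -/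
def N0 (u : Sec L) : ℝ := ∑ k, ∫ z in Z.B k, ‖u.u (Z.i k) z‖ ^ 2 ∂μ

/-- the square of the `H¹` norm of a section -/
def N1 (u : Sec L) : ℝ :=
  N0 μ Z u + ∑ k, ∑ l, ∫ z in Z.B k, ‖fderiv ℝ (u.u (Z.i k)) z (b l)‖ ^ 2 ∂μ

/-- the square of the `L²` norm of `D u + I D u ∘ J` -/
def ND (J : C.ι → V → V →L[ℝ] V) (u : Sec L) : ℝ :=
  ∑ k, ∑ l, ∫ z in Z.B k, ‖u.db J (Z.i k) z (b l)‖ ^ 2 ∂μ

end

end Crest.Agent.R281.Hz_286
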