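import Crest.Agent.R281.Hz0_286
import Mathlib.MeasureTheory.Function.Holder
import Mathlib.MeasureTheory.Function.L2Space

/-!
# R281 (S0424), H0-OP (helper286), part 1: the spaces and the operators

* `HJ`, `HF` : Hilbert spaces of `L²` 1-jets, resp. of `L²` one-forms, over the cells
* `Pop μ Z c` : multiplication by `c k : C(B_k, jets →L values)`, linear and continuous in `c`
* `jet μ b Z L : Sec L →ₗ[ℂ] HJ`, `norm_jet_sq : ‖jet u‖² = N1 u`
* `Pop_jet` : value of `Pop` on jets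
-/

set_option autoImplicit false
set_option linter.unusedSectionVars false

open Set Filter Topology Complex MeasureTheory Metric
open scoped ContDiff ENNReal

namespace Crest.Agent.R281.Hz_286

open Crest.Agent.R281.HkR_835 Crest.Agent.R281.PL_713

noncomputable section

/-! ### finite products of Hilbert spaces -/

section gen

variable {ι : Type} [Fintype ι] {G : ι → Type} [∀ i, NormedAddCommGroup (G i)]
  [∀ i, NormedSpace ℂ (G i)]

open Classical in
/-- the embedding of a component -/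
def embG (G : ι → Type) [∀ i, NormedAddCommGroup (G i)] [∀ i, NormedSpace ℂ (G i)] (k : ι) :
    G k →L[ℂ] PiLp 2 G :=
  LinearMap.mkContinuous
    { toFun := fun f => PiLp.single 2 k f
      map_add' := fun f g => PiLp.single_add 2 k
      map_smul' := fun c f => by
        rw [← PiLp.toLp_single, ← PiLp.toLp_single, Pi.single_smul]
        rfl } 1 fun f => by
    rw [one_mul]
    exact (PiLp.norm_single 2 G k f).le

theorem embG_same (k : ι) (f : G k) : (embG G k f) k = f := by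
  classical
  show (PiLp.single 2 k f) k = f
  simp

theorem embG_ne {k k' : ι} (h : k' ≠ k) (f : G k) : (embG G k f) k' = 0 := by
  classical
  show (PiLp.single 2 k f) k' = 0
  simp [h]

variable {H : ι → Type} [∀ i, NormedAddCommGroup (H i)] [∀ i, NormedSpace ℂ (H i)]

/-- diagonal operators, one component -/
def dgG (G H : ι → Type) [∀ i, NormedAddCommGroup (G i)] [∀ i, NormedSpace ℂ (G i)]
    [∀ i, NormedAddCommGroup (H i)] [∀ i, NormedSpace ℂ (H i)] (k : ι) :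
    (G k →L[ℂ] H k) →L[ℂ] (PiLp 2 G →L[ℂ] PiLp 2 H) :=
  (ContinuousLinearMap.compL ℂ (PiLp 2 G) (H k) (PiLp 2 H) (embG H k)).comp
    ((ContinuousLinearMap.compL ℂ (PiLp 2 G) (G k) (H k)).flip (PiLp.proj 2 G k))

theorem dgG_apply (k : ι) (T : G k →L[ℂ] H k) (x : PiLp 2 G) :
    dgG G H k T x = embG H k (T (x k)) := rfl

theorem sum_dgG_apply (T : ∀ k, G k →L[ℂ] H k) (x : PiLp 2 G) (k : ι) :
    ((∑ j, dgG G H j (T j)) x) k = T k (x k) := by
  rw [sum_apply, WithLp.ofLp_sum, Finset.sum_apply, Finset.sum_eq_single k]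
  · rw [dgG_apply, embG_same]
  · intro k' _ hk
    rw [dgG_apply, embG_ne hk.symm]
  · intro h; exact absurd (Finset.mem_univ k) h

end gen

variable {V X : Type} [NormedAddCommGroup V] [NormedSpace ℝ V] [TopologicalSpace X]
  {C : RCh V X} [FiniteDimensional ℝ V] [MeasurableSpace V] [BorelSpace V]
  (μ : Measure V) [μ.IsAddHaarMeasure] {σ' : Type} [Fintype σ'] (b : Module.Basis σ' ℝ V)
  (Z : Cells C) {L : PL C}

/-- values of 1-jets -/
abbrev FJ (σ' : Type) [Fintype σ'] : Type := EuclideanSpace ℂ (Option σ')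

/-- values of one-forms -/
abbrev FO (σ' : Type) [Fintype σ'] : Type := EuclideanSpace ℂ σ'

instance (k : Z.σ) : CompactSpace (Z.B k) :=
  haveI := FiniteDimensional.proper_real V
  isCompact_iff_compactSpace.1 (isCompact_closedBall _ _)

/-- the measure on the cell -/
def nu (k : Z.σ) : Measure (Z.B k) := μ.comap (Subtype.val)

instance (k : Z.σ) : IsFiniteMeasure (nu μ Z k) := by
  have := FiniteDimensional.proper_real V
  refine ⟨?_⟩
  have h1 : nu μ Z k univ = μ (Z.B k) := by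
    have h2 := comap_subtype_coe_apply (s := Z.B k) measurableSet_closedBall μ univ
    rw [image_univ, Subtype.range_coe_subtype] at h2
    exact h2
  rw [h1]
  exact (isCompact_closedBall _ _).measure_lt_top

/-- `L²` jets -/
abbrev HJ (σ' : Type) [Fintype σ'] : Type := PiLp 2 (fun k : Z.σ => Lp (FJ σ') 2 (nu μ Z k))

/-- `L²` one-forms -/
abbrev HF (σ' : Type) [Fintype σ'] : Type := PiLp 2 (fun k : Z.σ => Lp (FO σ') 2 (nu μ Z k))

/-- multiplication by a continuous coefficient on the cell `k` -/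
def mulOp (σ' : Type) [Fintype σ'] (k : Z.σ) :
    C(Z.B k, FJ σ' →L[ℂ] FO σ') →L[ℂ] (Lp (FJ σ') 2 (nu μ Z k) →L[ℂ] Lp (FO σ') 2 (nu μ Z k)) :=
  ((ContinuousLinearMap.id ℂ (FJ σ' →L[ℂ] FO σ')).holderL (nu μ Z k) ∞ 2 2).comp
    (ContinuousMap.toLp ∞ (nu μ Z k) ℂ)

theorem mulOp_coe (k : Z.σ) (c : C(Z.B k, FJ σ' →L[ℂ] FO σ')) (f : Lp (FJ σ') 2 (nu μ Z k)) :
    (mulOp μ Z σ' k c f : Z.B k → FO σ') =ᵐ[nu μ Z k] fun z => c z (f z) := by
  have h1 := (ContinuousLinearMap.id ℂ (FJ σ' →L[ℂ] FO σ')).coeFn_holder (r := 2)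
    (ContinuousMap.toLp ∞ (nu μ Z k) ℂ c) f
  have h2 := ContinuousMap.coeFn_toLp (p := ∞) (nu μ Z k) (𝕜 := ℂ) c
  have h3 : (mulOp μ Z σ' k c f : Z.B k → FO σ') = ((ContinuousLinearMap.id ℂ
    (FJ σ' →L[ℂ] FO σ')).holder 2 (ContinuousMap.toLp ∞ (nu μ Z k) ℂ c) f : Z.B k → FO σ') := rfl
  rw [h3]
  filter_upwards [h1, h2] with z hz hz'
  rw [hz, hz']
  rfl

/-- the operator of a coefficient on the cell `k` -/
def opk (σ' : Type) [Fintype σ'] (k : Z.σ) :
    C(Z.B k, FJ σ' →L[ℂ] FO σ') →L[ℂ] (HJ μ Z σ' →L[ℂ] HF μ Z σ') :=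
  (dgG (fun k : Z.σ => Lp (FJ σ') 2 (nu μ Z k)) (fun k : Z.σ => Lp (FO σ') 2 (nu μ Z k)) k).comp
    (mulOp μ Z σ' k)

/-- the operator of a family of coefficients -/
def Pop (c : ∀ k : Z.σ, C(Z.B k, FJ σ' →L[ℂ] FO σ')) : HJ μ Z σ' →L[ℂ] HF μ Z σ' :=
  ∑ k, opk μ Z σ' k (c k)

theorem Pop_apply (c : ∀ k : Z.σ, C(Z.B k, FJ σ' →L[ℂ] FO σ')) (x : HJ μ Z σ') (k : Z.σ) :
    (Pop μ Z c x) k = mulOp μ Z σ' k (c k) (x k) :=
  sum_dgG_apply (fun k => mulOp μ Z σ' k (c k)) x k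


/-! ### norms of continuous functions in `L²` -/

section l2

variable {α E : Type*} [TopologicalSpace α] [CompactSpace α] [MeasurableSpace α] [BorelSpace α]
  [NormedAddCommGroup E] [InnerProductSpace ℂ E] [SecondCountableTopologyEither α E]
  (ν : Measure α) [IsFiniteMeasure ν]

theorem norm_sq_lp (F : Lp E 2 ν) : ‖F‖ ^ 2 = ∫ a, ‖F a‖ ^ 2 ∂ν := by
  have h1 : ((‖F‖ ^ 2 : ℝ) : ℂ) = inner ℂ F F := by
    rw [inner_self_eq_norm_sq_to_K]
    push_cast
    rfl
  have h2 : (inner ℂ F F : ℂ) = ((∫ a, ‖F a‖ ^ 2 ∂ν : ℝ) : ℂ) := by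
    rw [L2.inner_def, ← integral_complex_ofReal]
    refine integral_congr_ae (Eventually.of_forall fun a => ?_)
    show inner ℂ (F a) (F a) = _
    rw [inner_self_eq_norm_sq_to_K]
    push_cast
    rfl
  exact_mod_cast h1.trans h2

theorem norm_sq_toLp (f : C(α, E)) :
    ‖ContinuousMap.toLp (E := E) 2 ν ℂ f‖ ^ 2 = ∫ a, ‖f a‖ ^ 2 ∂ν := by
  rw [norm_sq_lp]
  refine integral_congr_ae ?_
  filter_upwards [ContinuousMap.coeFn_toLp (p := 2) ν (𝕜 := ℂ) f] with a ha
  rw [ha]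

end l2

theorem int_nu (k : Z.σ) (g : V → ℝ) : ∫ z : Z.B k, g z ∂(nu μ Z k) = ∫ z in Z.B k, g z ∂μ :=
  integral_subtype_comap measurableSet_closedBall g

/-! ### jets -/

section jets

variable {Z}

theorem mem_tgt {k : Z.σ} {z : V} (hz : z ∈ Z.B k) : z ∈ (C.e (Z.i k)).target := Z.sub k hz

theorem cont_u (u : Sec L) (i : C.ι) : ContinuousOn (u.u i) (C.e i).target :=
  (u.sm i).continuousOn

theorem cont_du (u : Sec L) (i : C.ι) : ContinuousOn (fderiv ℝ (u.u i)) (C.e i).target :=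
  ((u.sm i).fderiv_of_isOpen (C.e i).open_target (m := ∞) (by simp)).continuousOn

variable (Z)

/-- the 1-jet of a section on the cell `k` -/
def jetC (u : Sec L) (k : Z.σ) : C(Z.B k, FJ σ') where
  toFun z := WithLp.toLp 2 fun o => Option.elim o (u.u (Z.i k) z)
    fun l => fderiv ℝ (u.u (Z.i k)) z (b l)
  continuous_toFun := by
    refine (PiLp.continuous_toLp 2 _).comp (continuous_pi fun o => ?_)
    have h1 : ∀ z : Z.B k, (z : V) ∈ (C.e (Z.i k)).target := fun z => Z.sub k z.2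
    cases o with
    | none => exact (cont_u u (Z.i k)).comp_continuous continuous_subtype_val h1
    | some l =>
      exact ((cont_du u (Z.i k)).comp_continuous continuous_subtype_val h1).clm_apply
        continuous_const

@[simp] theorem jetC_none (u : Sec L) (k : Z.σ) (z : Z.B k) :
    jetC b Z u k z none = u.u (Z.i k) z := rfl

@[simp] theorem jetC_some (u : Sec L) (k : Z.σ) (z : Z.B k) (l : σ') :
    jetC b Z u k z (some l) = fderiv ℝ (u.u (Z.i k)) z (b l) := rfl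

theorem jetC_add (u v : Sec L) (k : Z.σ) : jetC b Z (u + v) k = jetC b Z u k + jetC b Z v k := by
  ext z o
  have hz := Z.sub k z.2
  cases o with
  | none => rfl
  | some l =>
    show fderiv ℝ ((u + v).u (Z.i k)) z (b l) = fderiv ℝ (u.u (Z.i k)) z (b l) +
      fderiv ℝ (v.u (Z.i k)) z (b l)
    have h : fderiv ℝ ((u + v).u (Z.i k)) (z : V) =
        fderiv ℝ (u.u (Z.i k)) z + fderiv ℝ (v.u (Z.i k)) z :=
      ((u.diffAt hz).hasFDerivAt.add (v.diffAt hz).hasFDerivAt).fderiv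
    rw [h]
    rfl

theorem jetC_smul (c : ℂ) (u : Sec L) (k : Z.σ) : jetC b Z (c • u) k = c • jetC b Z u k := by
  ext z o
  have hz := Z.sub k z.2
  cases o with
  | none => rfl
  | some l =>
    show fderiv ℝ ((c • u).u (Z.i k)) z (b l) = c • fderiv ℝ (u.u (Z.i k)) z (b l)
    have h : fderiv ℝ ((c • u).u (Z.i k)) (z : V) = c • fderiv ℝ (u.u (Z.i k)) z :=
      ((u.diffAt hz).hasFDerivAt.const_mul c).fderiv
    rw [h]
    rfl

/-- the 1-jet in `L²` -/
def jet (L : PL C) : Sec L →ₗ[ℂ] HJ μ Z σ' where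
  toFun u := WithLp.toLp 2 fun k => ContinuousMap.toLp 2 (nu μ Z k) ℂ (jetC b Z u k)
  map_add' u v := by
    rw [← WithLp.toLp_add]
    congr 1
    funext k
    rw [jetC_add, map_add]
    rfl
  map_smul' c u := by
    rw [← WithLp.toLp_smul]
    congr 1
    funext k
    rw [jetC_smul, map_smul]
    rfl

theorem jet_apply (u : Sec L) (k : Z.σ) :
    (jet μ b Z L u) k = ContinuousMap.toLp 2 (nu μ Z k) ℂ (jetC b Z u k) := rfl

theorem norm_jet_sq (u : Sec L) : ‖jet μ b Z L u‖ ^ 2 = N1 μ b Z u := by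
  have hc : ∀ k : Z.σ, IsCompact (Z.B k) := fun k =>
    have := FiniteDimensional.proper_real V
    isCompact_closedBall _ _
  rw [PiLp.norm_sq_eq_of_L2]
  unfold N1 N0
  rw [← Finset.sum_add_distrib]
  refine Finset.sum_congr rfl fun k _ => ?_
  rw [jet_apply, norm_sq_toLp]
  have h1 : (fun z : Z.B k => ‖jetC b Z u k z‖ ^ 2) = fun z : Z.B k =>
      (fun y : V => ‖u.u (Z.i k) y‖ ^ 2 + ∑ l, ‖fderiv ℝ (u.u (Z.i k)) y (b l)‖ ^ 2) z := by
    funext z
    rw [EuclideanSpace.norm_sq_eq, Fintype.sum_option]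
    rfl
  rw [h1, int_nu μ Z k (fun y : V => ‖u.u (Z.i k) y‖ ^ 2 +
    ∑ l, ‖fderiv ℝ (u.u (Z.i k)) y (b l)‖ ^ 2)]
  have i0 : IntegrableOn (fun y : V => ‖u.u (Z.i k) y‖ ^ 2) (Z.B k) μ :=
    (((cont_u u (Z.i k)).mono (Z.sub k)).norm.pow 2).integrableOn_compact (hc k)
  have i1 : ∀ l ∈ (Finset.univ : Finset σ'), IntegrableOn
      (fun y : V => ‖fderiv ℝ (u.u (Z.i k)) y (b l)‖ ^ 2) (Z.B k) μ := fun l _ =>
    ((((cont_du u (Z.i k)).mono (Z.sub k)).clm_apply continuousOn_const).norm.pow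
      2).integrableOn_compact (hc k)
  rw [integral_add i0 (integrable_finsetSum _ i1), integral_finsetSum _ i1]

theorem jet_inj : Function.Injective (jet μ b Z L) := by
  rw [← LinearMap.ker_eq_bot, LinearMap.ker_eq_bot']
  intro u hu
  have h1 : ∀ k (z : V), z ∈ ball (Z.c k) (Z.r k) → u.u (Z.i k) z = 0 := by
    intro k
    have h2 : ContinuousMap.toLp 2 (nu μ Z k) ℂ (jetC b Z u k) = 0 := by
      rw [← jet_apply, hu]; rfl
    have h3 : ∫ z : Z.B k, ‖jetC b Z u k z‖ ^ 2 ∂(nu μ Z k) = 0 := by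
      rw [← norm_sq_toLp, h2]; simp
    have hc : IsCompact (Z.B k) :=
      have := FiniteDimensional.proper_real V
      isCompact_closedBall _ _
    have h4 : ∀ᵐ z ∂(nu μ Z k), ‖jetC b Z u k z‖ ^ 2 = 0 := by
      have h5 : Integrable (fun z => ‖jetC b Z u k z‖ ^ 2) (nu μ Z k) := by
        have : Continuous fun z => ‖jetC b Z u k z‖ ^ 2 := (jetC b Z u k).continuous.norm.pow 2
        exact this.integrable_of_hasCompactSupport (HasCompactSupport.of_compactSpace _)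
      exact (integral_eq_zero_iff_of_nonneg (fun _ => sq_nonneg _) h5).1 h3
    have h6 : ∀ᵐ z ∂(μ.restrict (Z.B k)), u.u (Z.i k) z = 0 := by
      rw [ae_restrict_iff_subtype (s := Z.B k) measurableSet_closedBall]
      filter_upwards [h4] with z hz
      have h7 : ‖jetC b Z u k z‖ = 0 := by simpa using hz
      have h8 := norm_eq_zero.1 h7
      have h9 : jetC b Z u k z none = 0 := by rw [h8]; rfl
      exact h9
    have h10 : (u.u (Z.i k)) =ᵐ[μ.restrict (ball (Z.c k) (Z.r k))] fun _ => (0 : ℂ) :=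
      ae_restrict_of_ae_restrict_of_subset ball_subset_closedBall h6
    exact Measure.eqOn_open_of_ae_eq h10 isOpen_ball
      ((cont_u u (Z.i k)).mono (ball_subset_closedBall.trans (Z.sub k))) continuousOn_const
  refine Sec.ext' fun i z hz => ?_
  obtain ⟨k, hk, hk2⟩ := Z.cover ((C.e i).symm z)
  have h11 : z ∈ C.ov i (Z.i k) := ⟨hz, hk⟩
  have h12 : u.u (Z.i k) (C.t i (Z.i k) z) = 0 := h1 k _ hk2
  rw [u.tr i (Z.i k) z h11, h12, mul_zero]
  rfl

/-- the section in `L²` -/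
abbrev H0s : Type := PiLp 2 (fun k : Z.σ => Lp ℂ 2 (nu μ Z k))

/-- from jets to values -/
def T0 (σ' : Type) [Fintype σ'] : HJ μ Z σ' →L[ℂ] H0s μ Z :=
  ∑ k, dgG (fun k : Z.σ => Lp (FJ σ') 2 (nu μ Z k)) (fun k : Z.σ => Lp ℂ 2 (nu μ Z k)) k
    ((EuclideanSpace.proj (none : Option σ') : FJ σ' →L[ℂ] ℂ).compLpL 2 (nu μ Z k))

theorem T0_apply (x : HJ μ Z σ') (k : Z.σ) : (T0 μ Z σ' x) k =
    (EuclideanSpace.proj (none : Option σ') : FJ σ' →L[ℂ] ℂ).compLpL 2 (nu μ Z k) (x k) :=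
  sum_dgG_apply (fun k => (EuclideanSpace.proj (none : Option σ') :
    FJ σ' →L[ℂ] ℂ).compLpL 2 (nu μ Z k)) x k

theorem norm_T0_jet_sq (u : Sec L) : ‖T0 μ Z σ' (jet μ b Z L u)‖ ^ 2 = N0 μ Z u := by
  rw [PiLp.norm_sq_eq_of_L2]
  unfold N0
  refine Finset.sum_congr rfl fun k _ => ?_
  rw [T0_apply, jet_apply, norm_sq_lp, ← int_nu μ Z k (fun z => ‖u.u (Z.i k) z‖ ^ 2)]
  refine integral_congr_ae ?_
  filter_upwards [ContinuousLinearMap.coeFn_compLpL (p := 2)
    (EuclideanSpace.proj (none : Option σ') : FJ σ' →L[ℂ] ℂ)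
    (ContinuousMap.toLp 2 (nu μ Z k) ℂ (jetC b Z u k)),
    ContinuousMap.coeFn_toLp (p := 2) (nu μ Z k) (𝕜 := ℂ) (jetC b Z u k)] with z hz hz'
  rw [hz, hz']
  rfl

/-- the operators on jets -/
theorem norm_Pop_jet_sq (c : ∀ k : Z.σ, C(Z.B k, FJ σ' →L[ℂ] FO σ')) (u : Sec L) :
    ‖Pop μ Z c (jet μ b Z L u)‖ ^ 2 =
      ∑ k, ∫ z : Z.B k, ‖c k z (jetC b Z u k z)‖ ^ 2 ∂(nu μ Z k) := by
  rw [PiLp.norm_sq_eq_of_L2]
  refine Finset.sum_congr rfl fun k _ => ?_
  rw [Pop_apply, jet_apply, norm_sq_lp]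
  refine integral_congr_ae ?_
  filter_upwards [mulOp_coe μ Z k (c k) (ContinuousMap.toLp 2 (nu μ Z k) ℂ (jetC b Z u k)),
    ContinuousMap.coeFn_toLp (p := 2) (nu μ Z k) (𝕜 := ℂ) (jetC b Z u k)] with z hz hz'
  rw [hz, hz']

/-! ### the coefficient -/

/-- `cf θ T` : the map from jets to the one-form `D u + I D u ∘ T` in the basis `b` -/
def cf (θ : V →L[ℝ] ℝ) (T : V →L[ℝ] V) : FJ σ' →L[ℂ] FO σ' :=
  LinearMap.toContinuousLinearMap
    { toFun := fun w => WithLp.toLp 2 fun l =>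
        (w (some l) + I * (θ (b l) : ℝ) * w none) +
          I * ((∑ m, ((b.repr (T (b l)) m : ℝ) : ℂ) * w (some m)) + I * (θ (T (b l)) : ℝ) * w none)
      map_add' := fun w w' => by
        ext l
        simp only [PiLp.add_apply, mul_add, Finset.sum_add_distrib]
        ring
      map_smul' := fun a w => by
        ext l
        simp only [PiLp.smul_apply, smul_eq_mul, RingHom.id_apply]
        have h1 : (∑ m, ((b.repr (T (b l)) m : ℝ) : ℂ) * (a * w (some m))) =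
            a * ∑ m, ((b.repr (T (b l)) m : ℝ) : ℂ) * w (some m) := by
          rw [Finset.mul_sum]
          exact Finset.sum_congr rfl fun m _ => by ring
        rw [h1]
        ring }

theorem cf_apply (θ : V →L[ℝ] ℝ) (T : V →L[ℝ] V) (w : FJ σ') (l : σ') :
    cf b θ T w l = (w (some l) + I * (θ (b l) : ℝ) * w none) +
      I * ((∑ m, ((b.repr (T (b l)) m : ℝ) : ℂ) * w (some m)) + I * (θ (T (b l)) : ℝ) * w none) :=
  rfl

theorem cf_jet (u : Sec L) (J : C.ι → V → V →L[ℝ] V) (k : Z.σ) (z : Z.B k) (l : σ') :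
    cf b (L.th (Z.i k) z) (J (Z.i k) z) (jetC b Z u k z) l = u.db J (Z.i k) z (b l) := by
  rw [cf_apply]
  unfold Sec.db Sec.D
  simp only [jetC_none, jetC_some]
  have h1 : fderiv ℝ (u.u (Z.i k)) (z : V) (J (Z.i k) z (b l)) =
      ∑ m, ((b.repr (J (Z.i k) z (b l)) m : ℝ) : ℂ) * fderiv ℝ (u.u (Z.i k)) (z : V) (b m) := by
    conv_lhs => rw [← b.sum_repr (J (Z.i k) z (b l))]
    rw [map_sum]
    exact Finset.sum_congr rfl fun m _ => by rw [map_smul, Complex.real_smul]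
  rw [h1]

end jets

end

end Crest.Agent.R281.Hz_286
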