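import Crest.Agent.R281.HKMovK_478
import Crest.Agent.R281.Hz0_286
import Crest.Agent.R281.HkR5_835

/-!
# R281 (S0424), MOVE-COEF (MC1) + (MC3) (helper365), file 1: analytic families in `C(S, W)`

* `analyticAt_series` : a convergent power series in one real variable is analytic
* `toC S g`           : restriction of `g` to `S` as an element of `C(S, W)` (`0` if not continuous)
* `analyticAt_toC`    : term by term bounds on `S` ⟹ `s ↦ toC S (g s)` is analytic
* `geo`               : a compact part of a chart of `C` in the balls of `A`, transition maps bounded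
* **`analyticAt_fun`, `analyticAt_dfun`** : `PsF` ⟹ `s ↦ f s`, `D (f s)` analytic on compact parts
  of the charts of `C`
* **`analyticAt_f2`** : `Ps11` ⟹ the real 2-form of `G s`, read in the charts of `C`, is analytic
-/

set_option autoImplicit false
set_option linter.unusedSectionVars false

open Set Filter Topology Complex Metric
open scoped ContDiff Matrix ComplexConjugate ComplexOrder

namespace Crest.Agent.R281.Mca_365

noncomputable section

/-! ### series -/

section series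

variable {F : Type*} [NormedAddCommGroup F] [NormedSpace ℝ F]

/-- a convergent power series is analytic -/
theorem analyticAt_series {f : ℝ → F} {c : ℕ → F} {s0 r : ℝ} (hr : 0 < r)
    (h : ∀ s, |s - s0| < r → HasSum (fun j => (s - s0) ^ j • c j) (f s)) : AnalyticAt ℝ f s0 := by
  let p : FormalMultilinearSeries ℝ ℝ F :=
    fun j => ContinuousMultilinearMap.mkPiRing ℝ (Fin j) (c j)
  have hp : ∀ j, p.coeff j = c j := fun j => by
    simp [p, FormalMultilinearSeries.coeff]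
  refine ⟨p, hasFPowerSeriesAt_iff.2 ?_⟩
  filter_upwards [Metric.ball_mem_nhds (0 : ℝ) hr] with y hy
  have hy' : |s0 + y - s0| < r := by
    rw [add_sub_cancel_left]
    simpa [Real.dist_eq] using hy
  have h1 := h (s0 + y) hy'
  simp only [add_sub_cancel_left] at h1
  refine h1.congr_fun fun j => ?_
  rw [hp]

variable {V W : Type*} [TopologicalSpace V] [NormedAddCommGroup W] [NormedSpace ℝ W]

open Classical in
/-- restriction to `S` -/
def toC (S : Set V) (g : V → W) : C(S, W) :=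
  if h : ContinuousOn g S then ⟨S.domRestrict g, continuousOn_iff_continuous_domRestrict.1 h⟩ else 0

theorem toC_apply {S : Set V} {g : V → W} (h : ContinuousOn g S) (z : S) : toC S g z = g z := by
  unfold toC
  rw [dif_pos h]
  rfl

theorem toC_congr {S : Set V} {g g' : V → W} (h : EqOn g g' S) : toC S g = toC S g' := by
  by_cases hg : ContinuousOn g S
  · have hg' : ContinuousOn g' S := hg.congr h.symm
    ext z
    rw [toC_apply hg, toC_apply hg', h z.2]
  · have hg' : ¬ ContinuousOn g' S := fun h' => hg (h'.congr h)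
    unfold toC
    rw [dif_neg hg, dif_neg hg']

/-- **term by term bounds give analytic families of continuous functions** -/
theorem analyticAt_toC [CompleteSpace W] {S : Set V} [CompactSpace S] {g : ℝ → V → W}
    {G : ℕ → V → W} {a : ℕ → ℝ} {s0 r : ℝ} (hr : 0 < r) (a0 : ∀ j, 0 ≤ a j)
    (ha : Summable fun j => a j * r ^ j) (hc : ∀ j, ContinuousOn (G j) S)
    (hg : ∀ s, |s - s0| < r → ContinuousOn (g s) S) (hb : ∀ j, ∀ z ∈ S, ‖G j z‖ ≤ a j)
    (hs : ∀ s, |s - s0| < r → ∀ z ∈ S, HasSum (fun j => (s - s0) ^ j • G j z) (g s z)) :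
    AnalyticAt ℝ (fun s => toC S (g s)) s0 := by
  refine analyticAt_series (c := fun j => toC S (G j)) hr fun s hsr => ?_
  have hn : ∀ j, ‖toC S (G j)‖ ≤ a j := fun j => by
    refine (ContinuousMap.norm_le _ (a0 j)).2 fun z => ?_
    rw [toC_apply (hc j)]
    exact hb j z z.2
  have h1 : Summable fun j => (s - s0) ^ j • toC S (G j) := by
    refine Summable.of_norm_bounded (Crest.Agent.R281.HKMov_478.smb a0 ha hsr.le) fun j => ?_
    rw [norm_smul, norm_pow, Real.norm_eq_abs]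
    exact mul_le_mul_of_nonneg_left (hn j) (by positivity)
  have h2 : ∑' j, (s - s0) ^ j • toC S (G j) = toC S (g s) := by
    ext z
    have h3 := ContinuousMap.hasSum_apply h1.hasSum z
    have h4 := hs s hsr z z.2
    rw [toC_apply (hg s hsr)]
    refine HasSum.unique (f := fun j => (s - s0) ^ j • G j z) ?_ h4
    refine h3.congr_fun fun j => ?_
    rw [ContinuousMap.smul_apply, toC_apply (hc j)]
  rw [← h2]
  exact h1.hasSum

end series

/-! ### geometry -/

open Crest.Agent.R275.Geo Crest.Agent.R275.Core144 Crest.Agent.R275.GC293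
open Crest.Agent.R275.EDR890
open Crest.Agent.R273.Defs_333 Crest.Agent.R273.YauDefs_635 Crest.Agent.R273.HM_333
open Crest.Agent.R273.YauCh_635 Crest.Agent.R273.Hess_333 Crest.Agent.R273.HessB_333
open Crest.Agent.R273.Kah_333 Crest.Agent.R273.YauMax_635 Crest.Agent.R273.YauLoc_635
open Crest.Agent.R273.SchA_152 Crest.Agent.R273.SchD_152 Crest.Agent.R273.YauQ_635
open Crest.Agent.R273.SchF_152
open Crest.Agent.R281.HkR_835 Crest.Agent.R281.HKMov_478

variable {n : ℕ} {V X : Type} [NormedAddCommGroup V] [NormedSpace ℝ V] [TopologicalSpace X]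
  {A : Atl n X} {C : RCh V X}

/-- compact parts of the charts of `C` are covered by the half balls of `A`, with bounded
transition maps -/
theorem geo (h : Cmp (ofAtl A) C) (Bc : Cb A) {S : Set V} (hS : IsCompact S) {j : C.ι}
    (hSj : S ⊆ (C.e j).target) : ∃ D : ℝ, 0 ≤ D ∧ ∀ z ∈ S, ∃ l : Bc.κ,
      z ∈ mov (ofAtl A) C (Bc.i l) j ∧
      mt (ofAtl A) C (Bc.i l) j z ∈ closedBall (Bc.z l) (Bc.r l / 2) ∧
      ‖fderiv ℝ (mt (ofAtl A) C (Bc.i l) j) z‖ ≤ D := by
  refine hS.induction_on (p := fun t => ∃ D : ℝ, 0 ≤ D ∧ ∀ z ∈ t, ∃ l : Bc.κ,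
      z ∈ mov (ofAtl A) C (Bc.i l) j ∧
      mt (ofAtl A) C (Bc.i l) j z ∈ closedBall (Bc.z l) (Bc.r l / 2) ∧
      ‖fderiv ℝ (mt (ofAtl A) C (Bc.i l) j) z‖ ≤ D) ⟨0, le_rfl, fun z hz => hz.elim⟩ ?_ ?_ ?_
  · rintro s t hst ⟨D, hD, H⟩
    exact ⟨D, hD, fun z hz => H z (hst hz)⟩
  · rintro s t ⟨D, hD, H⟩ ⟨D', hD', H'⟩
    refine ⟨max D D', le_max_of_le_left hD, fun z hz => ?_⟩
    rcases hz with hz | hz
    · obtain ⟨l, h1, h2, h3⟩ := H z hz
      exact ⟨l, h1, h2, h3.trans (le_max_left _ _)⟩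
    · obtain ⟨l, h1, h2, h3⟩ := H' z hz
      exact ⟨l, h1, h2, h3.trans (le_max_right _ _)⟩
  · intro x hx
    obtain ⟨l, hl, hxl⟩ := Bc.cover ((C.e j).symm x)
    have hm : x ∈ mov (ofAtl A) C (Bc.i l) j := ⟨hSj hx, hl⟩
    have hN : mov (ofAtl A) C (Bc.i l) j ∈ 𝓝 x := (Cmp.isOpen_mov _ _ _ _).mem_nhds hm
    have c1 : ContinuousAt (mt (ofAtl A) C (Bc.i l) j) x :=
      (h.s (Bc.i l) j).continuousOn.continuousAt hN
    have c2 : ContinuousAt (fun z => ‖fderiv ℝ (mt (ofAtl A) C (Bc.i l) j) z‖) x :=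
      (((h.s (Bc.i l) j).fderiv_of_isOpen (Cmp.isOpen_mov _ _ _ _)
        (m := ∞) (by simp)).continuousOn.continuousAt hN).norm
    have e1 : ∀ᶠ z in 𝓝 x, mt (ofAtl A) C (Bc.i l) j z ∈ ball (Bc.z l) (Bc.r l / 2) :=
      c1.eventually_mem (isOpen_ball.mem_nhds hxl)
    have e2 : ∀ᶠ z in 𝓝 x, ‖fderiv ℝ (mt (ofAtl A) C (Bc.i l) j) z‖ <
        ‖fderiv ℝ (mt (ofAtl A) C (Bc.i l) j) x‖ + 1 :=
      c2.eventually_lt_const (lt_add_one _)
    refine ⟨{z | z ∈ mov (ofAtl A) C (Bc.i l) j ∧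
      mt (ofAtl A) C (Bc.i l) j z ∈ ball (Bc.z l) (Bc.r l / 2) ∧
      ‖fderiv ℝ (mt (ofAtl A) C (Bc.i l) j) z‖ < ‖fderiv ℝ (mt (ofAtl A) C (Bc.i l) j) x‖ + 1},
      mem_nhdsWithin_of_mem_nhds ?_, _, add_nonneg (norm_nonneg _) zero_le_one,
      fun z hz => ⟨l, hz.1, ball_subset_closedBall hz.2.1, hz.2.2.le⟩⟩
    filter_upwards [hN, e1, e2] with z h1 h2 h3 using ⟨h1, h2, h3⟩

/-! ### functions -/

/-- a function read in a chart of `C` -/
def rd (C : RCh V X) (j : C.ι) (f : X → ℝ) (z : V) : ℝ := f ((C.e j).symm z)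

theorem rd_eq {f : X → ℝ} {i : A.ι} {j : C.ι} {z : V} (hz : z ∈ mov (ofAtl A) C i j) :
    rd C j f z = inC A i f (mt (ofAtl A) C i j z) := by
  show f ((C.e j).symm z) = f ((A.e i).symm (A.e i ((C.e j).symm z)))
  rw [(A.e i).left_inv hz.2]

theorem rd_smooth (h : Cmp (ofAtl A) C) {f : X → ℝ} (hf : A.Sm f) (j : C.ι) :
    ContDiffOn ℝ ∞ (rd C j f) (C.e j).target := by
  intro z hz
  obtain ⟨i, hi⟩ := Cmp.exists_mov (ofAtl A) hz
  have h1 : ContDiffOn ℝ ∞ (fun z => inC A i f (mt (ofAtl A) C i j z)) (mov (ofAtl A) C i j) :=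
    (inC_smooth hf i).comp (h.s i j) fun y hy => (Cmp.mt_mem hy).1
  have hN := (Cmp.isOpen_mov (ofAtl A) C i j).mem_nhds hi
  refine ((h1.contDiffAt hN).congr_of_eventuallyEq ?_).contDiffWithinAt
  filter_upwards [hN] with y hy using rd_eq hy

theorem drd_eq (h : Cmp (ofAtl A) C) {f : X → ℝ} (hf : A.Sm f) {i : A.ι} {j : C.ι} {z : V}
    (hz : z ∈ mov (ofAtl A) C i j) : fderiv ℝ (rd C j f) z =
      (fderiv ℝ (inC A i f) (mt (ofAtl A) C i j z)).comp (fderiv ℝ (mt (ofAtl A) C i j) z) := by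
  have hN := (Cmp.isOpen_mov (ofAtl A) C i j).mem_nhds hz
  have h1 : rd C j f =ᶠ[𝓝 z] fun z => inC A i f (mt (ofAtl A) C i j z) := by
    filter_upwards [hN] with y hy using rd_eq hy
  have hd : DifferentiableAt ℝ (inC A i f) (mt (ofAtl A) C i j z) :=
    (inC_contDiffAt hf i (Cmp.mt_mem hz).1).differentiableAt (by simp)
  rw [h1.fderiv_eq]
  exact (hd.hasFDerivAt.comp z (h.diff hz).hasFDerivAt).fderiv

/-- **functions** -/
theorem analyticAt_fun (h : Cmp (ofAtl A) C) {Bc : Cb A} {f : ℝ → X → ℝ} {s0 r : ℝ}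
    {φ : ℕ → X → ℝ} {a : ℕ → ℝ} (H : PsF Bc f s0 r φ a) (hf : ∀ s, |s - s0| < r → A.Sm (f s))
    {S : Set V} [CompactSpace S] {j : C.ι} (hSj : S ⊆ (C.e j).target) :
    AnalyticAt ℝ (fun s => toC S (rd C j (f s))) s0 := by
  obtain ⟨D, hD, hg⟩ := geo h Bc (isCompact_iff_compactSpace.2 inferInstance) hSj
  refine analyticAt_toC (G := fun k => rd C j (φ k)) H.r0 H.a0 H.sum
    (fun k => ((rd_smooth h (H.sm k) j).continuousOn.mono hSj))
    (fun s hs => ((rd_smooth h (hf s hs) j).continuousOn.mono hSj)) (fun k z hz => ?_)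
    fun s hs z hz => ?_
  · obtain ⟨l, h1, h2, h3⟩ := hg z hz
    rw [rd_eq h1]
    exact (H.n2 k l).h0.bdd _ h2
  · simpa [rd, smul_eq_mul] using H.hs s hs ((C.e j).symm z)

/-- **differentials of functions** -/
theorem analyticAt_dfun (h : Cmp (ofAtl A) C) {Bc : Cb A} {f : ℝ → X → ℝ} {s0 r : ℝ}
    {φ : ℕ → X → ℝ} {a : ℕ → ℝ} (H : PsF Bc f s0 r φ a) (hf : ∀ s, |s - s0| < r → A.Sm (f s))
    {S : Set V} [CompactSpace S] {j : C.ι} (hSj : S ⊆ (C.e j).target) :
    AnalyticAt ℝ (fun s => toC S (fderiv ℝ (rd C j (f s)))) s0 := by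
  obtain ⟨D, hD, hg⟩ := geo h Bc (isCompact_iff_compactSpace.2 inferInstance) hSj
  have hcd : ∀ {f : X → ℝ}, A.Sm f → ContinuousOn (fderiv ℝ (rd C j f)) S := fun hf =>
    ((rd_smooth h hf j).fderiv_of_isOpen (C.e j).open_target
      (m := ∞) (by simp)).continuousOn.mono hSj
  refine analyticAt_toC (a := fun k => a k * D) (G := fun k => fderiv ℝ (rd C j (φ k))) H.r0
    (fun k => mul_nonneg (H.a0 k) hD) ?_ (fun k => hcd (H.sm k))
    (fun s hs => hcd (hf s hs)) (fun k z hz => ?_) fun s hs z hz => ?_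
  · refine (H.sum.mul_right D).congr fun k => ?_
    ring
  · obtain ⟨l, h1, h2, h3⟩ := hg z hz
    rw [drd_eq h (H.sm k) h1]
    exact (ContinuousLinearMap.opNorm_comp_le _ _).trans
      (mul_le_mul ((H.n2 k l).h1.bdd _ h2) h3 (norm_nonneg _) (H.a0 k))
  · obtain ⟨l, h1, h2, h3⟩ := hg z hz
    have h4 := H.fd1 hs (hf s hs) l _ h2
    have h5 := h4.mapL ((ContinuousLinearMap.compL ℝ V (Cn n) ℝ).flip
      (fderiv ℝ (mt (ofAtl A) C (Bc.i l) j) z))
    rw [drd_eq h (hf s hs) h1]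
    refine h5.congr_fun fun k => ?_
    rw [drd_eq h (H.sm k) h1]
    simp

end

end Crest.Agent.R281.Mca_365
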