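import Crest.Agent.R281.Semi2_450

/-!
# Compact left parametrix ⟹ left parametrix modulo finite rank (row 281, task 1654)

`lp_of_compact`: `G ∘ P = 1 + K`, `K` compact ⟹ `LP P`.  Riesz-Schauder theory by the Fredholm
alternative of Mathlib applied to `1 + K + j π`, `π` a projection to `ker (1 + K)`.
-/

set_option autoImplicit false

open Filter Topology Set

namespace Crest.Agent.R281.Semi_450

variable {E F : Type*} [NormedAddCommGroup E] [NormedSpace ℂ E]
  [NormedAddCommGroup F] [NormedSpace ℂ F]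

open Module

/-- The kernel of `1 + K` is finite dimensional. -/
theorem finiteDimensional_ker {K : E →L[ℂ] E} (hK : IsCompactOperator K) :
    FiniteDimensional ℂ (LinearMap.ker ((1 + K : E →L[ℂ] E) : E →ₗ[ℂ] E)) := by
  set V := LinearMap.ker ((1 + K : E →L[ℂ] E) : E →ₗ[ℂ] E) with hV
  have hmem : ∀ v ∈ V, K v = -v := by
    intro v hv
    have h1 : v + K v = 0 := by simpa [hV] using hv
    rw [eq_neg_iff_add_eq_zero, add_comm]
    exact h1
  have hVK : ∀ v ∈ V, (K : E →ₗ[ℂ] E) v ∈ V := fun v hv => by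
    have : (K : E →ₗ[ℂ] E) v = -v := hmem v hv
    rw [this]
    exact V.neg_mem hv
  have hcl : IsClosed (V : Set E) := (1 + K : E →L[ℂ] E).isClosed_ker
  have hr : IsCompactOperator ((K : E →ₗ[ℂ] E).restrict hVK) :=
    IsCompactOperator.restrict (f := (K : E →ₗ[ℂ] E)) hK hVK hcl
  have hid : IsCompactOperator (id : V → V) := by
    have h2 := hr.neg
    have h3 : (-((K : E →ₗ[ℂ] E).restrict hVK : V → V)) = id := by
      funext v
      apply Subtype.ext
      have h4 : K (v : E) = -(v : E) := hmem v v.2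
      simp [LinearMap.restrict_apply, h4]
    rwa [h3] at h2
  exact FiniteDimensional.of_isCompactOperator_id (𝕜 := ℂ) hid

theorem finrange_of_factor {X : Type*} [AddCommGroup X] [Module ℂ X] [FiniteDimensional ℂ X]
    (a : X →ₗ[ℂ] E) (b : E →ₗ[ℂ] X) : FiniteDimensional ℂ (LinearMap.range (a ∘ₗ b)) :=
  Submodule.finiteDimensional_of_le (LinearMap.range_comp_le_range b a)

/-- an injective or a surjective linear map between any two vector spaces -/
theorem exists_inj_or_surj.{u, v} (X : Type u) (Y : Type v) [AddCommGroup X] [Module ℂ X]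
    [AddCommGroup Y] [Module ℂ Y] :
    ∃ j : X →ₗ[ℂ] Y, Function.Injective j ∨ Function.Surjective j := by
  rcases le_total (Cardinal.lift.{v} (Module.rank ℂ X)) (Cardinal.lift.{u} (Module.rank ℂ Y))
    with h | h
  · obtain ⟨f, hf⟩ := lift_rank_le_iff_exists_linearMap.1 h
    exact ⟨f, Or.inl hf⟩
  · obtain ⟨f, hf⟩ := lift_rank_le_iff_exists_linearMap.1 h
    obtain ⟨g, hg⟩ := LinearMap.exists_leftInverse_of_injective f (LinearMap.ker_eq_bot.2 hf)
    exact ⟨g, Or.inr fun y => ⟨f y, by simpa using congrArg (fun T => T y) hg⟩⟩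

/-- `1 + K` has a left inverse modulo finite rank. -/
theorem lp_one_add [CompleteSpace E] {K : E →L[ℂ] E} (hK : IsCompactOperator K) :
    ∃ A' : E →L[ℂ] E,
      FiniteDimensional ℂ (LinearMap.range ((A' * (1 + K) - 1 : E →L[ℂ] E) : E →ₗ[ℂ] E)) := by
  classical
  set A : E →L[ℂ] E := 1 + K with hA
  have hVf : FiniteDimensional ℂ (LinearMap.ker (A : E →ₗ[ℂ] E)) := finiteDimensional_ker hK
  set V := LinearMap.ker (A : E →ₗ[ℂ] E) with hV
  obtain ⟨π, hπ⟩ := Submodule.ClosedComplemented.of_finiteDimensional (𝕜 := ℂ) V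
  obtain ⟨C, hC⟩ := Submodule.exists_isCompl (LinearMap.range (A : E →ₗ[ℂ] E))
  obtain ⟨j, hj⟩ := exists_inj_or_surj V C
  set J : V →L[ℂ] E := LinearMap.toContinuousLinearMap (C.subtype ∘ₗ j) with hJ
  have hJv : ∀ v, J v = (j v : E) := fun v => rfl
  set B : E →L[ℂ] E := A + J.comp π with hB
  have hBu : ∀ u, B u = A u + (j (π u) : E) := fun u => rfl
  -- `B u = 0` splits
  have hB0 : ∀ u, B u = 0 → A u = 0 ∧ j (π u) = 0 := by
    intro u hu
    have h1 : A u ∈ LinearMap.range (A : E →ₗ[ℂ] E) := ⟨u, rfl⟩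
    have h2 : A u = -(j (π u) : E) := by
      rw [eq_neg_iff_add_eq_zero]
      exact hu
    have h3 : A u ∈ C := by
      rw [h2]
      exact C.neg_mem (j (π u)).2
    have h4 : A u = 0 := (Submodule.disjoint_def.1 hC.disjoint) _ h1 h3
    refine ⟨h4, ?_⟩
    apply Subtype.ext
    rw [h4] at h2
    simpa using h2.symm
  rcases hj with hj | hj
  · -- `B` is injective, hence a unit by the Fredholm alternative
    have hinj : ∀ u, B u = 0 → u = 0 := by
      intro u hu
      obtain ⟨h1, h2⟩ := hB0 u hu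
      have h3 : π u = 0 := hj (by rw [h2, map_zero])
      have h4 : u ∈ V := h1
      have h5 := hπ ⟨u, h4⟩
      rw [h3] at h5
      exact (congrArg Subtype.val h5).symm
    have hcomp : IsCompactOperator (-(K + J.comp π) : E →L[ℂ] E) := by
      have hprop : ProperSpace V := FiniteDimensional.proper ℂ V
      have h1 : IsCompactOperator (J.comp π : E →L[ℂ] E) :=
        (isCompactOperator_of_locallyCompactSpace_rng J).comp_clm π
      exact (hK.add h1).neg
    have hunit : IsUnit B := by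
      rcases hcomp.hasEigenvalue_or_mem_resolventSet (μ := (1 : ℂ)) one_ne_zero with h | h
      · exfalso
        obtain ⟨v, hv⟩ := h.exists_hasEigenvector
        have h1 := hv.apply_eq_smul
        have h2 : B v = 0 := by
          have h3 : -(K v + J (π v)) = v := by simpa using h1
          have h4 : B v = v + (K v + J (π v)) := by
            rw [hBu, ← hJv]
            simp only [hA, add_apply, one_apply_eq_self]
            abel
          rw [h4, neg_eq_iff_eq_neg.1 h3, add_neg_cancel]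
        exact hv.2 (hinj v h2)
      · rw [spectrum.mem_resolventSet_iff] at h
        have h1 : (algebraMap ℂ (E →L[ℂ] E) 1 - -(K + J.comp π) : E →L[ℂ] E) = B := by
          rw [map_one, hB, hA]
          abel
        rwa [h1] at h
    obtain ⟨b, hb⟩ := hunit
    refine ⟨(b⁻¹ : (E →L[ℂ] E)ˣ), ?_⟩
    have h1 : ((b⁻¹ : (E →L[ℂ] E)ˣ) : E →L[ℂ] E) * A - 1 =
        (-(((b⁻¹ : (E →L[ℂ] E)ˣ) : E →L[ℂ] E).comp J)).comp π := by
      have h2 : ((b⁻¹ : (E →L[ℂ] E)ˣ) : E →L[ℂ] E) * B = 1 := by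
        rw [← hb]
        exact Units.inv_mul b
      have h3 : A = B - J.comp π := by rw [hB]; abel
      rw [h3, mul_sub, h2]
      ext u
      simp
    rw [h1]
    exact finrange_of_factor (E := E) ((-(((b⁻¹ : (E →L[ℂ] E)ˣ) : E →L[ℂ] E).comp J) :
      V →L[ℂ] E) : V →ₗ[ℂ] E) (π : E →ₗ[ℂ] V)
  · -- `B` is surjective with finite dimensional kernel
    have hsurj : Function.Surjective B := by
      intro y
      obtain ⟨r, hr, c, hc, rfl⟩ := Submodule.mem_sup.1
        ((Submodule.eq_top_iff'.1 hC.sup_eq_top) y)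
      obtain ⟨a, rfl⟩ := hr
      obtain ⟨v, hv⟩ := hj ⟨c, hc⟩
      refine ⟨a - (π a : E) + (v : E), ?_⟩
      have h1 : π (a - (π a : E) + (v : E)) = v := by
        rw [map_add, map_sub, hπ, hπ]
        abel
      have h2 : ∀ w : V, A (w : E) = 0 := fun w => w.2
      rw [hBu, h1, hv]
      simp [h2]
    set Z := LinearMap.ker (B : E →ₗ[ℂ] E) with hZ
    have hZV : Z ≤ V := fun u hu => (hB0 u hu).1
    have hZf : FiniteDimensional ℂ Z := Submodule.finiteDimensional_of_le hZV
    obtain ⟨ρ, hρ⟩ := Submodule.ClosedComplemented.of_finiteDimensional (𝕜 := ℂ) Z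
    set Φ : E →L[ℂ] E × Z := B.prod ρ with hΦ
    have hΦi : Φ.ker = ⊥ := by
      rw [LinearMap.ker_eq_bot']
      intro u hu
      have h1 : B u = 0 := congrArg Prod.fst hu
      have h2 : ρ u = 0 := congrArg Prod.snd hu
      have h3 := hρ ⟨u, h1⟩
      rw [h2] at h3
      exact (congrArg Subtype.val h3).symm
    have hΦs : Φ.range = ⊤ := by
      rw [LinearMap.range_eq_top]
      rintro ⟨y, z⟩
      obtain ⟨u, hu⟩ := hsurj y
      have h2 : ∀ w : Z, B (w : E) = 0 := fun w => w.2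
      refine ⟨u - (ρ u : E) + (z : E), ?_⟩
      refine Prod.ext ?_ ?_
      · show B (u - (ρ u : E) + (z : E)) = y
        rw [map_add, map_sub, h2, h2, hu]
        abel
      · show ρ (u - (ρ u : E) + (z : E)) = z
        rw [map_add, map_sub, hρ, hρ]
        abel
    set e := ContinuousLinearEquiv.ofBijective Φ hΦi hΦs with he
    have heu : ∀ u, e.symm (B u, ρ u) = u := fun u => by
      have := ContinuousLinearEquiv.ofBijective_symm_apply_apply Φ hΦi hΦs u
      exact this
    set S : E →L[ℂ] E := (e.symm : E × Z →L[ℂ] E).comp (ContinuousLinearMap.inl ℂ E Z) with hS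
    refine ⟨S, ?_⟩
    have h1 : ((S * A - 1 : E →L[ℂ] E) : E →ₗ[ℂ] E) =
        (LinearMap.coprod (-((e.symm : E × Z →L[ℂ] E).comp (ContinuousLinearMap.inr ℂ E Z)) :
          Z →ₗ[ℂ] E) (-(S.comp J) : V →ₗ[ℂ] E)) ∘ₗ
        (LinearMap.prod (ρ : E →ₗ[ℂ] Z) (π : E →ₗ[ℂ] V)) := by
      ext u
      have h2 : S (A u) = S (B u) - S (J (π u)) := by
        rw [← map_sub]
        congr 1
        rw [hBu, hJv]
        abel
      have h3 : S (B u) = u - e.symm (0, ρ u) := by
        have h4 : ((B u, 0) : E × Z) = (B u, ρ u) - (0, ρ u) := by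
          ext <;> simp
        show e.symm (B u, 0) = _
        rw [h4, map_sub, heu]
      show S (A u) - u = -(e.symm (0, ρ u)) + -(S (J (π u)))
      rw [h2, h3]
      abel
    rw [h1]
    exact finrange_of_factor _ _

/-- **A left parametrix modulo compact operators gives `LP`.** -/
theorem lp_of_compact [CompleteSpace E] {P : E →L[ℂ] F} {G : F →L[ℂ] E} {K : E →L[ℂ] E}
    (hK : IsCompactOperator K) (h : G.comp P = 1 + K) : LP P := by
  obtain ⟨A', hA'⟩ := lp_one_add hK
  refine ⟨A'.comp G, ?_⟩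
  have h1 : (A'.comp G).comp P - 1 = A' * (1 + K) - 1 := by
    rw [← h]
    rfl
  rw [h1]
  exact hA'

/-- Pointwise form. -/
theorem lp_of_compact' [CompleteSpace E] {P : E →L[ℂ] F} {G : F →L[ℂ] E} {K : E →L[ℂ] E}
    (hK : IsCompactOperator K) (h : ∀ u, G (P u) = u + K u) : LP P :=
  lp_of_compact hK (by ext u; exact h u)

/-! ### Real segments -/

/-- **Real-analytic paths.**  `P : ℝ → E →L[ℂ] F` analytic on a neighbourhood of `[0,1]`: if `N`
independent kernel vectors exist near the end point `1`, they exist on all of `[0,1]`. -/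
theorem ker_seg [CompleteSpace E] [CompleteSpace F] {P : ℝ → E →L[ℂ] F}
    (hP : AnalyticOnNhd ℝ P (Icc 0 1)) (h : ∀ s ∈ Icc (0 : ℝ) 1, LP (P s)) {N : ℕ}
    (hε : ∃ ε > 0, ∀ s ∈ Icc (0 : ℝ) 1, 1 - ε < s → Ker (P s) N) :
    ∀ s ∈ Icc (0 : ℝ) 1, Ker (P s) N := by
  obtain ⟨ε, hε, hK⟩ := hε
  refine ker_of_accum (𝕜 := ℝ) isPreconnected_Icc hP h (s₁ := 1) (by simp) ?_
  rw [frequently_iff]
  intro O hO
  rw [mem_nhdsWithin] at hO
  obtain ⟨O', hO'o, h1O', hO'⟩ := hO
  obtain ⟨δ, hδ, hball⟩ := Metric.isOpen_iff.1 hO'o 1 h1O'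
  set η : ℝ := min (min (δ / 2) (ε / 2)) (1 / 2) with hη
  have hη0 : 0 < η := by
    refine lt_min (lt_min (by linarith) (by linarith)) (by norm_num)
  have hη1 : η ≤ δ / 2 := (min_le_left _ _).trans (min_le_left _ _)
  have hη2 : η ≤ ε / 2 := (min_le_left _ _).trans (min_le_right _ _)
  have hη3 : η ≤ 1 / 2 := min_le_right _ _
  refine ⟨1 - η, hO' ⟨hball ?_, ?_⟩, hK _ ⟨by linarith, by linarith⟩ (by linarith)⟩
  · rw [Metric.mem_ball, Real.dist_eq, abs_lt]
    constructor <;> linarith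
  · rw [mem_compl_iff, mem_singleton_iff]
    intro h2
    linarith

/-- Pointwise-on-the-interval form with an arbitrary accumulation point. -/
theorem ker_Icc [CompleteSpace E] [CompleteSpace F] {P : ℝ → E →L[ℂ] F} {a b : ℝ}
    (hP : AnalyticOnNhd ℝ P (Icc a b)) (h : ∀ s ∈ Icc a b, LP (P s)) {N : ℕ} {s₁ : ℝ}
    (hs₁ : s₁ ∈ Icc a b) (hfr : ∃ᶠ s in 𝓝[≠] s₁, Ker (P s) N) : ∀ s ∈ Icc a b, Ker (P s) N :=
  ker_of_accum (𝕜 := ℝ) isPreconnected_Icc hP h hs₁ hfr

end Crest.Agent.R281.Semi_450
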