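import Crest.Agent.R281.Hz2_286
import Crest.Agent.R281.Mca1_365
import Crest.Agent.R281.Semi3_450

/-!
# R281 (S0424), H0-OP (helper22), part 3: families

* `cC θ T`  : the coefficient of the continuous fields `θ`, `T` on a compact space
* `analyticAt_cC`, `analyticAt_PE` : analytic coefficients give analytic operators
* `EL_congr`, `lp_transfer`, `ker_transfer` : only the transition functions of `L` enter in `EL`
* **`hasN_analytic`** : analytic families of structures with Garding, Rellich, regularity: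
  `HasN` on a set with an accumulation point ⟹ `HasN` on the whole interval
* **`hasN_closed`**   : continuous families
-/

set_option autoImplicit false
set_option linter.unusedSectionVars false

open Set Filter Topology Complex MeasureTheory Metric
open scoped ContDiff ENNReal

namespace Crest.Agent.R281.Hz3_22

open Crest.Agent.R281.HkR_835 Crest.Agent.R281.PL_713 Crest.Agent.R281.Semi_450
  Crest.Agent.R281.OpZ_450 Crest.Agent.R281.Hz_286 Crest.Agent.R281.Mca_365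

noncomputable section

/-! ### the coefficient as a continuous function of the fields -/

section coeff

variable {V : Type} [NormedAddCommGroup V] [NormedSpace ℝ V] [FiniteDimensional ℝ V]
  {σ' : Type} [Fintype σ'] (b : Module.Basis σ' ℝ V)

open Classical in
/-- elementary operators -/
def el (o : Option σ') (l : σ') (a : ℂ) : FJ σ' →L[ℂ] FO σ' :=
  (EuclideanSpace.proj o : FJ σ' →L[ℂ] ℂ).smulRight (EuclideanSpace.single l a)

theorem el_apply (o : Option σ') (l : σ') (a : ℂ) (w : FJ σ') (l' : σ') [Decidable (l' = l)] :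
    el o l a w l' = if l' = l then a * w o else 0 := by
  classical
  show w o * (EuclideanSpace.single l a) l' = _
  rw [PiLp.single_apply]
  split_ifs <;> ring

theorem cf_ap (θ : V →L[ℝ] ℝ) (T : V →L[ℝ] V) (w : FJ σ') (l : σ') :
    cf b θ T w l = (w (some l) + I * (θ (b l) : ℝ) * w none) +
      I * ((∑ m, ((b.repr (T (b l)) m : ℝ) : ℂ) * w (some m)) + I * (θ (T (b l)) : ℝ) * w none) :=
  rfl

theorem cf_eq (θ : V →L[ℝ] ℝ) (T : V →L[ℝ] V) : cf b θ T = cf b 0 0 +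
    (∑ l, θ (b l) • el none l I) + (∑ l, ∑ m, (b.repr (T (b l)) m) • el (some m) l I) +
      ∑ l, ∑ m, (b.repr (T (b l)) m * θ (b m)) • el none l (-1) := by
  classical
  refine ContinuousLinearMap.ext fun w => ?_
  refine PiLp.ext fun l' => ?_
  have h1 : ((θ (T (b l')) : ℝ) : ℂ) = ∑ m, ((b.repr (T (b l')) m : ℝ) : ℂ) * ((θ (b m) : ℝ) : ℂ) := by
    have h2 : θ (T (b l')) = ∑ m, b.repr (T (b l')) m * θ (b m) := by
      conv_lhs => rw [← b.sum_repr (T (b l'))]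
      rw [map_sum]
      exact Finset.sum_congr rfl fun m _ => by rw [map_smul, smul_eq_mul]
    rw [h2]
    push_cast
    rfl
  have e1 : ∀ (a : ℝ) (o : Option σ') (l : σ') (c : ℂ), ((a • el o l c : FJ σ' →L[ℂ] FO σ') w) l' =
      (a : ℂ) * (if l' = l then c * w o else 0) := by
    intro a o l c
    rw [← el_apply o l c w l']
    rfl
  have e2 : ∀ (s : Finset σ') (g : σ' → (FJ σ' →L[ℂ] FO σ')), ((∑ l ∈ s, g l) w) l' =
      ∑ l ∈ s, (g l w) l' := by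
    intro s g
    rw [sum_apply, WithLp.ofLp_sum, Finset.sum_apply]
  simp only [add_apply, PiLp.add_apply, e2, e1, cf_ap, map_zero, Finsupp.coe_zero,
    Pi.zero_apply, zero_apply, Complex.ofReal_zero, h1]
  simp only [mul_ite, mul_zero, Finset.sum_ite_eq, Finset.mem_univ, if_true, zero_mul, add_zero,
    Finset.sum_const_zero]
  have e3 : ∀ (g : σ' → σ' → ℂ), (∑ l, ∑ m, if l' = l then g l m else 0) = ∑ m, g l' m := by
    intro g
    rw [Finset.sum_comm]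
    simp
  rw [e3, e3]
  simp only [Complex.ofReal_mul]
  have e4 : ∑ m, ((b.repr (T (b l')) m : ℝ) : ℂ) * (I * w (some m)) =
      I * ∑ m, ((b.repr (T (b l')) m : ℝ) : ℂ) * w (some m) := by
    rw [Finset.mul_sum]
    exact Finset.sum_congr rfl fun m _ => by ring
  have e5 : ∑ m, ((b.repr (T (b l')) m : ℝ) : ℂ) * ((θ (b m) : ℝ) : ℂ) * (-1 * w none) =
      -((∑ m, ((b.repr (T (b l')) m : ℝ) : ℂ) * ((θ (b m) : ℝ) : ℂ)) * w none) := by
    rw [Finset.sum_mul, ← Finset.sum_neg_distrib]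
    exact Finset.sum_congr rfl fun m _ => by ring
  rw [e4, e5]
  linear_combination ((∑ m, ((b.repr (T (b l')) m : ℝ) : ℂ) * ((θ (b m) : ℝ) : ℂ)) * w none) *
    Complex.I_mul_I

variable {K : Type} [TopologicalSpace K] [CompactSpace K]

/-- scalars to operators -/
def scO (A : FJ σ' →L[ℂ] FO σ') : C(K, ℝ) →L[ℝ] C(K, FJ σ' →L[ℂ] FO σ') :=
  ContinuousLinearMap.compLeftContinuous ℝ K ((1 : ℝ →L[ℝ] ℝ).smulRight A)

theorem scO_apply (A : FJ σ' →L[ℂ] FO σ') (f : C(K, ℝ)) (z : K) : scO A f z = f z • A := rfl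

theorem scO_an (A : FJ σ' →L[ℂ] FO σ') (f : C(K, ℝ)) :
    AnalyticAt ℝ (fun g : C(K, ℝ) => scO A g) f :=
  ContinuousLinearMap.analyticAt (𝕜 := ℝ) (E := C(K, ℝ)) (F := C(K, FJ σ' →L[ℂ] FO σ')) (scO A) f

/-- values of a form on a basis vector -/
def evT (l : σ') : C(K, V →L[ℝ] ℝ) →L[ℝ] C(K, ℝ) :=
  ContinuousLinearMap.compLeftContinuous ℝ K (ContinuousLinearMap.apply ℝ ℝ (b l))

/-- matrix coefficients -/
def evJ (l m : σ') : C(K, V →L[ℝ] V) →L[ℝ] C(K, ℝ) :=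
  ContinuousLinearMap.compLeftContinuous ℝ K
    ((LinearMap.toContinuousLinearMap (b.coord m)).comp (ContinuousLinearMap.apply ℝ V (b l)))

/-- **the coefficient of two continuous fields** -/
def cC (θ : C(K, V →L[ℝ] ℝ)) (T : C(K, V →L[ℝ] V)) : C(K, FJ σ' →L[ℂ] FO σ') :=
  ContinuousMap.const K (cf b 0 0) + (∑ l, scO (el none l I) (evT b l θ)) +
    (∑ l, ∑ m, scO (el (some m) l I) (evJ b l m T)) +
      ∑ l, ∑ m, scO (el none l (-1)) (evJ b l m T * evT b m θ)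

theorem cC_apply (θ : C(K, V →L[ℝ] ℝ)) (T : C(K, V →L[ℝ] V)) (z : K) :
    cC b θ T z = cf b (θ z) (T z) := by
  rw [cf_eq b (θ z) (T z)]
  unfold cC
  simp only [ContinuousMap.add_apply, ContinuousMap.sum_apply, scO_apply]
  rfl

theorem analyticAt_cC (p : C(K, V →L[ℝ] ℝ) × C(K, V →L[ℝ] V)) :
    AnalyticAt ℝ (fun p : C(K, V →L[ℝ] ℝ) × C(K, V →L[ℝ] V) => cC b p.1 p.2) p := by
  have h1 : ∀ l, AnalyticAt ℝ (fun p : C(K, V →L[ℝ] ℝ) × C(K, V →L[ℝ] V) => evT b l p.1) p :=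
    fun l => AnalyticAt.fun_comp (ContinuousLinearMap.analyticAt (𝕜 := ℝ)
      (E := C(K, V →L[ℝ] ℝ)) (F := C(K, ℝ)) (evT b l) p.1) analyticAt_fst
  have h2 : ∀ l m, AnalyticAt ℝ
      (fun p : C(K, V →L[ℝ] ℝ) × C(K, V →L[ℝ] V) => evJ b l m p.2) p :=
    fun l m => AnalyticAt.fun_comp (ContinuousLinearMap.analyticAt (𝕜 := ℝ)
      (E := C(K, V →L[ℝ] V)) (F := C(K, ℝ)) (evJ b l m) p.2) analyticAt_snd
  unfold cC
  refine ((analyticAt_const.fun_add ?_).fun_add ?_).fun_add ?_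
  · exact Finset.analyticAt_fun_sum _ fun l _ => AnalyticAt.fun_comp (scO_an _ _) (h1 l)
  · exact Finset.analyticAt_fun_sum _ fun l _ => Finset.analyticAt_fun_sum _ fun m _ =>
      AnalyticAt.fun_comp (scO_an _ _) (h2 l m)
  · exact Finset.analyticAt_fun_sum _ fun l _ => Finset.analyticAt_fun_sum _ fun m _ =>
      AnalyticAt.fun_comp (scO_an _ _) ((h2 l m).fun_mul (h1 m))

end coeff

/-! ### operators -/

variable {V X : Type} [NormedAddCommGroup V] [NormedSpace ℝ V] [TopologicalSpace X]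
  {C : RCh V X} [FiniteDimensional ℝ V] [MeasurableSpace V] [BorelSpace V]
  (μ : Measure V) [μ.IsAddHaarMeasure] {σ' : Type} [Fintype σ'] (b : Module.Basis σ' ℝ V)
  (Z : Cells C) {L L' : PL C}

theorem analyticAt_Pop {S : Type} [NormedAddCommGroup S] [NormedSpace ℝ S]
    {c : S → ∀ k : Z.σ, C(Z.B k, FJ σ' →L[ℂ] FO σ')} {s0 : S}
    (h : ∀ k, AnalyticAt ℝ (fun s => c s k) s0) : AnalyticAt ℝ (fun s => Pop μ Z (c s)) s0 := by
  unfold Pop
  refine Finset.analyticAt_fun_sum _ fun k _ => ?_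
  have h1 := (ContinuousLinearMap.analyticAt (𝕜 := ℂ) (E := C(Z.B k, FJ σ' →L[ℂ] FO σ'))
    (F := HJ μ Z σ' →L[ℂ] HF μ Z σ') (opk μ Z σ' k) (c s0 k)).restrictScalars (𝕜 := ℝ)
  exact AnalyticAt.fun_comp h1 (h k)

theorem analyticAt_PE {S : Type} [NormedAddCommGroup S] [NormedSpace ℝ S]
    {c : S → ∀ k : Z.σ, C(Z.B k, FJ σ' →L[ℂ] FO σ')} {s0 : S}
    (h : ∀ k, AnalyticAt ℝ (fun s => c s k) s0) :
    AnalyticAt ℝ (fun s => PE μ b Z L (c s)) s0 :=
  analyticAt_comp (𝕜 := ℝ) (analyticAt_Pop μ Z h) analyticAt_const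

/-! ### only the transition functions enter -/

/-- a section of another connection -/
def toSec (hg : L.g = L'.g) (u : Sec L) : Sec L' where
  u := u.u
  sm := u.sm
  tr i j z hz := by rw [← hg]; exact u.tr i j z hz
  off := u.off

theorem EL_congr (hg : L.g = L'.g) : EL μ b Z L = EL μ b Z L' := by
  have h1 : LinearMap.range (jet μ b Z L) = LinearMap.range (jet μ b Z L') := by
    ext x
    constructor
    · rintro ⟨u, rfl⟩
      exact ⟨toSec hg u, rfl⟩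
    · rintro ⟨u, rfl⟩
      exact ⟨toSec hg.symm u, rfl⟩
  show (LinearMap.range (jet μ b Z L)).topologicalClosure =
    (LinearMap.range (jet μ b Z L')).topologicalClosure
  rw [h1]

theorem lp_sub {H F : Type} [NormedAddCommGroup H] [NormedSpace ℂ H] [NormedAddCommGroup F]
    [NormedSpace ℂ F] {S S' : Submodule ℂ H} (h : S = S') (P : H →L[ℂ] F) :
    LP (P.comp S.subtypeL) ↔ LP (P.comp S'.subtypeL) := by
  subst h
  exact Iff.rfl

theorem ker_sub {H F : Type} [NormedAddCommGroup H] [NormedSpace ℂ H] [NormedAddCommGroup F]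
    [NormedSpace ℂ F] {S S' : Submodule ℂ H} (h : S = S') (P : H →L[ℂ] F) (N : ℕ) :
    Ker (P.comp S.subtypeL) N ↔ Ker (P.comp S'.subtypeL) N := by
  subst h
  exact Iff.rfl

theorem lp_PE_iff (hg : L.g = L'.g) (c : ∀ k : Z.σ, C(Z.B k, FJ σ' →L[ℂ] FO σ')) :
    LP (PE μ b Z L c) ↔ LP (PE μ b Z L' c) := lp_sub (EL_congr μ b Z hg) _

theorem ker_PE_iff' (hg : L.g = L'.g) (c : ∀ k : Z.σ, C(Z.B k, FJ σ' →L[ℂ] FO σ')) (N : ℕ) :
    Ker (PE μ b Z L c) N ↔ Ker (PE μ b Z L' c) N := ker_sub (EL_congr μ b Z hg) _ N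

/-! ### families -/

/-- the coefficient of the fields `θ`, `J` (total version) -/
def cD (θ : C.ι → V → V →L[ℝ] ℝ) (J : C.ι → V → V →L[ℝ] V) (k : Z.σ) :
    C(Z.B k, FJ σ' →L[ℂ] FO σ') :=
  cC b (toC (Z.B k) (θ (Z.i k))) (toC (Z.B k) (J (Z.i k)))

theorem analyticAt_cC' {K S : Type} [TopologicalSpace K] [CompactSpace K] [NormedAddCommGroup S]
    [NormedSpace ℝ S] {f : S → C(K, V →L[ℝ] ℝ)} {g : S → C(K, V →L[ℝ] V)} {s0 : S}
    (hf : AnalyticAt ℝ f s0) (hg : AnalyticAt ℝ g s0) :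
    AnalyticAt ℝ (fun s => cC b (f s) (g s)) s0 :=
  (analyticAt_cC b (f s0, g s0)).comp₂ hf hg

theorem continuousAt_cC' {K S : Type} [TopologicalSpace K] [CompactSpace K] [TopologicalSpace S]
    {f : S → C(K, V →L[ℝ] ℝ)} {g : S → C(K, V →L[ℝ] V)} {s0 : S}
    (hf : ContinuousAt f s0) (hg : ContinuousAt g s0) :
    ContinuousAt (fun s => cC b (f s) (g s)) s0 := by
  have h1 : ContinuousAt (fun s => (f s, g s)) s0 := hf.prodMk hg
  have h2 : ContinuousAt (fun p : C(K, V →L[ℝ] ℝ) × C(K, V →L[ℝ] V) => cC b p.1 p.2)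
    ((fun s => (f s, g s)) s0) := (analyticAt_cC b (f s0, g s0)).continuousAt
  exact ContinuousAt.comp (f := fun s => (f s, g s))
    (g := fun p : C(K, V →L[ℝ] ℝ) × C(K, V →L[ℝ] V) => cC b p.1 p.2) h2 h1

theorem isCf_cD {L : PL C} {θ : C.ι → V → V →L[ℝ] ℝ} {J J' : C.ι → V → V →L[ℝ] V}
    (hθ : ∀ k : Z.σ, EqOn (θ (Z.i k)) (L.th (Z.i k)) (Z.B k))
    (hJ : ∀ k : Z.σ, EqOn (J' (Z.i k)) (J (Z.i k)) (Z.B k))
    (hJc : ∀ k : Z.σ, ContinuousOn (J (Z.i k)) (Z.B k)) :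
    IsCf b Z L J (cD b Z θ J') := by
  intro k z
  have h1 : ContinuousOn (L.th (Z.i k)) (Z.B k) := (L.th_sm (Z.i k)).continuousOn.mono (Z.sub k)
  unfold cD
  rw [cC_apply, toC_congr (hθ k), toC_congr (hJ k), toC_apply h1, toC_apply (hJc k)]

/-- **(H0-OP), analytic families** : one real parameter -/
theorem hasN_analytic {a₁ a₂ : ℝ} {L0 : PL C} {L : ℝ → PL C} {J J' : ℝ → C.ι → V → V →L[ℝ] V}
    {θ : ℝ → C.ι → V → V →L[ℝ] ℝ}
    (hθa : ∀ k : Z.σ, AnalyticOnNhd ℝ (fun s => toC (Z.B k) (θ s (Z.i k))) (Icc a₁ a₂))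
    (hJa : ∀ k : Z.σ, AnalyticOnNhd ℝ (fun s => toC (Z.B k) (J' s (Z.i k))) (Icc a₁ a₂))
    (hg : ∀ s ∈ Icc a₁ a₂, (L s).g = L0.g)
    (hθ : ∀ s ∈ Icc a₁ a₂, ∀ k : Z.σ, EqOn (θ s (Z.i k)) ((L s).th (Z.i k)) (Z.B k))
    (hJ : ∀ s ∈ Icc a₁ a₂, ∀ k : Z.σ, EqOn (J' s (Z.i k)) (J s (Z.i k)) (Z.B k))
    (hJc : ∀ s ∈ Icc a₁ a₂, ∀ k : Z.σ, ContinuousOn (J s (Z.i k)) (Z.B k))
    (hG : ∀ s ∈ Icc a₁ a₂, Gard μ b Z (L s) (J s)) (hK : ∀ s ∈ Icc a₁ a₂, Rell μ b Z (L s))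
    (hR : ∀ s ∈ Icc a₁ a₂, Regu μ b Z (L s) (J s)) {N : ℕ} {s₁ : ℝ} (hs₁ : s₁ ∈ Icc a₁ a₂)
    (hfr : ∃ᶠ s in 𝓝[≠] s₁, s ∈ Icc a₁ a₂ ∧ (L s).HasN (J s) N) :
    ∀ s ∈ Icc a₁ a₂, (L s).HasN (J s) N := by
  have hc : ∀ s ∈ Icc a₁ a₂, IsCf b Z (L s) (J s) (cD b Z (θ s) (J' s)) := fun s hs =>
    isCf_cD b Z (hθ s hs) (hJ s hs) (hJc s hs)
  have hk : ∀ s ∈ Icc a₁ a₂, (Ker (PE μ b Z L0 (cD b Z (θ s) (J' s))) N ↔ (L s).HasN (J s) N) :=
    fun s hs => (ker_PE_iff' μ b Z (hg s hs) _ N).symm.trans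
      (ker_PE_iff μ b Z (hc s hs) (hG s hs) (hR s hs) N)
  have hlp : ∀ s ∈ Icc a₁ a₂, LP (PE μ b Z L0 (cD b Z (θ s) (J' s))) := fun s hs =>
    (lp_PE_iff μ b Z (hg s hs) _).1 (lp_PE μ b Z (hc s hs) (hG s hs) (hK s hs))
  have han : AnalyticOnNhd ℝ (fun s => PE μ b Z L0 (cD b Z (θ s) (J' s))) (Icc a₁ a₂) := by
    intro s hs
    refine analyticAt_PE μ b Z fun k => ?_
    exact analyticAt_cC' b (hθa k s hs) (hJa k s hs)
  intro s hs
  rw [← hk s hs]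
  refine ker_Icc han hlp hs₁ ?_ s hs
  exact hfr.mono fun s h => (hk s h.1).2 h.2

/-- **(H0-OP), continuous families** -/
theorem hasN_closed {S : Type} [TopologicalSpace S] {s₀ : S} {U : Set S} (hs₀ : s₀ ∈ U)
    {L0 : PL C} {L : S → PL C} {J : S → C.ι → V → V →L[ℝ] V}
    (hθa : ∀ k : Z.σ, ContinuousAt (fun s => toC (Z.B k) ((L s).th (Z.i k))) s₀)
    (hJa : ∀ k : Z.σ, ContinuousAt (fun s => toC (Z.B k) (J s (Z.i k))) s₀)
    (hg : ∀ s ∈ U, (L s).g = L0.g)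
    (hJc : ∀ s ∈ U, ∀ k : Z.σ, ContinuousOn (J s (Z.i k)) (Z.B k))
    (hG : ∀ s ∈ U, Gard μ b Z (L s) (J s)) (hK : Rell μ b Z (L s₀))
    (hR : ∀ s ∈ U, Regu μ b Z (L s) (J s)) {N : ℕ}
    (hfr : ∃ᶠ s in 𝓝 s₀, s ∈ U ∧ (L s).HasN (J s) N) : (L s₀).HasN (J s₀) N := by
  have hc : ∀ s ∈ U, IsCf b Z (L s) (J s) (cD b Z (L s).th (J s)) := fun s hs =>
    isCf_cD b Z (fun k z _ => rfl) (fun k z _ => rfl) (hJc s hs)
  have hk : ∀ s ∈ U, (Ker (PE μ b Z L0 (cD b Z (L s).th (J s))) N ↔ (L s).HasN (J s) N) :=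
    fun s hs => (ker_PE_iff' μ b Z (hg s hs) _ N).symm.trans
      (ker_PE_iff μ b Z (hc s hs) (hG s hs) (hR s hs) N)
  have hlp : LP (PE μ b Z L0 (cD b Z (L s₀).th (J s₀))) :=
    (lp_PE_iff μ b Z (hg s₀ hs₀) _).1 (lp_PE μ b Z (hc s₀ hs₀) (hG s₀ hs₀) hK)
  have hco : ContinuousAt (fun s => PE μ b Z L0 (cD b Z (L s).th (J s))) s₀ := by
    have h1 : ContinuousAt (fun s => fun k : Z.σ => cD b Z (L s).th (J s) k) s₀ := by
      refine continuousAt_pi.2 fun k => ?_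
      exact continuousAt_cC' b (hθa k) (hJa k)
    have h3 : Continuous fun c : (∀ k : Z.σ, C(Z.B k, FJ σ' →L[ℂ] FO σ')) => PE μ b Z L0 c := by
      have h4 : Continuous fun c : (∀ k : Z.σ, C(Z.B k, FJ σ' →L[ℂ] FO σ')) => Pop μ Z c := by
        unfold Pop
        exact continuous_finsetSum _ fun k _ => (opk μ Z σ' k).continuous.comp
          (continuous_apply k)
      exact h4.clm_comp continuous_const
    exact ContinuousAt.comp' h3.continuousAt h1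
  rw [← hk s₀ hs₀]
  exact ker_closed_cont hco hlp (hfr.mono fun s h => (hk s h.1).2 h.2)

end

end Crest.Agent.R281.Hz3_22
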