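import Crest.Agent.R281.Hz2_286
import Crest.Agent.R281.Semi3_450

/-!
# R281 (S0424), H0-OP + H0-CLOSED (helper286), part 3: families

Line bundles `Ls s` with connection and fields `Js s`, with the same transition functions.

* `cfL`        : coefficients from `θ k : C(B_k, V →L ℝ)`, `T k : C(B_k, V →L V)`, analytic /
                 continuous in `(θ, T)`
* `hasN_closed`   : continuous families: `∃ᶠ s in 𝓝 s₀, HasN` ⟹ `HasN` at `s₀`
* `hasN_accum`    : analytic families over a preconnected set of real parameters: an accumulation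
                    point ⟹ everywhere
* `hasN_seg`      : the same on `[0,1]` from a neighbourhood of the end point `1`
-/

set_option autoImplicit false
set_option linter.unusedSectionVars false

open Set Filter Topology Complex MeasureTheory Metric
open scoped ContDiff ENNReal

namespace Crest.Agent.R281.Hz_286

open Crest.Agent.R281.HkR_835 Crest.Agent.R281.PL_713 Crest.Agent.R281.Semi_450
  Crest.Agent.R281.OpZ_450

noncomputable section

/-! ### abstract families -/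

section absfam

variable {κ : Type} [Fintype κ] {K : κ → Type} [∀ k, TopologicalSpace (K k)]
  [∀ k, CompactSpace (K k)] {W : Type} [NormedAddCommGroup W] [NormedSpace ℂ W]
  {H F : Type} [NormedAddCommGroup H] [InnerProductSpace ℂ H]
  [NormedAddCommGroup F] [InnerProductSpace ℂ F]
  (o : ∀ k, C(K k, W) →L[ℂ] (H →L[ℂ] F)) (E : Submodule ℂ H)

/-- the family of operators -/
def OC (c : ∀ k, C(K k, W)) : E →L[ℂ] F := (∑ k, o k (c k)).comp E.subtypeL

theorem OC_eq (c : ∀ k, C(K k, W)) : OC o E c = ∑ k, ((ContinuousLinearMap.compL ℂ E H F).flip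
    E.subtypeL) (o k (c k)) := by
  rw [← map_sum]
  rfl

theorem contAt_OC {S : Type*} [TopologicalSpace S] {cs : S → ∀ k, C(K k, W)} {s₀ : S}
    (h : ∀ k, ContinuousAt (fun s => cs s k) s₀) : ContinuousAt (fun s => OC o E (cs s)) s₀ := by
  simp only [OC_eq]
  exact tendsto_finsetSum _ fun k _ => (((ContinuousLinearMap.compL ℂ E H F).flip
    E.subtypeL).continuous.comp (o k).continuous).continuousAt.comp (h k)

theorem OC_closed [CompleteSpace E] [CompleteSpace F] {S : Type*} [TopologicalSpace S]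
    {cs : S → ∀ k, C(K k, W)} {s₀ : S} (h : ∀ k, ContinuousAt (fun s => cs s k) s₀)
    (hLP : LP (OC o E (cs s₀))) {N : ℕ} (hfr : ∃ᶠ s in 𝓝 s₀, Ker (OC o E (cs s)) N) :
    Ker (OC o E (cs s₀)) N :=
  ker_closed_cont (P := fun s => OC o E (cs s)) (contAt_OC o E h) hLP hfr

variable [NormedSpace ℝ W] [IsScalarTower ℝ ℂ W]

theorem anAt_OC {S : Type*} [NormedAddCommGroup S] [NormedSpace ℝ S]
    {cs : S → ∀ k, C(K k, W)} {s₀ : S} (h : ∀ k, AnalyticAt ℝ (fun s => cs s k) s₀) :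
    AnalyticAt ℝ (fun s => OC o E (cs s)) s₀ := by
  simp only [OC_eq]
  exact Finset.analyticAt_fun_sum _ fun k _ =>
    (((((ContinuousLinearMap.compL ℂ E H F).flip E.subtypeL).comp
      (o k)).restrictScalars ℝ).analyticAt _).fun_comp (h k)

variable [CompleteSpace E] [CompleteSpace F]

theorem OC_accum {U : Set ℝ} (hU : IsPreconnected U) {cs : ℝ → ∀ k, C(K k, W)}
    (hcs : ∀ k, AnalyticOnNhd ℝ (fun s => cs s k) U) (hLP : ∀ s ∈ U, LP (OC o E (cs s)))
    {N : ℕ} {s₁ : ℝ} (hs₁ : s₁ ∈ U) (hfr : ∃ᶠ s in 𝓝[≠] s₁, Ker (OC o E (cs s)) N) :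
    ∀ s ∈ U, Ker (OC o E (cs s)) N :=
  ker_of_accum (𝕜 := ℝ) hU (fun s hs => anAt_OC o E fun k => hcs k s hs) hLP hs₁ hfr

theorem OC_countable {U : Set ℝ} (hU : IsPreconnected U) {cs : ℝ → ∀ k, C(K k, W)}
    (hcs : ∀ k, AnalyticOnNhd ℝ (fun s => cs s k) U) (hLP : ∀ s ∈ U, LP (OC o E (cs s)))
    {N : ℕ} {s₁ : ℝ} (hs₁ : s₁ ∈ U) (hn : ¬ Ker (OC o E (cs s₁)) N) :
    {s ∈ U | Ker (OC o E (cs s)) N}.Countable :=
  ker_countable (𝕜 := ℝ) hU (fun s hs => anAt_OC o E fun k => hcs k s hs) hLP hs₁ hn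

theorem OC_seg {cs : ℝ → ∀ k, C(K k, W)} (hcs : ∀ k, AnalyticOnNhd ℝ (fun s => cs s k) (Icc 0 1))
    (hLP : ∀ s ∈ Icc (0 : ℝ) 1, LP (OC o E (cs s))) {N : ℕ}
    (hε : ∃ ε > 0, ∀ s ∈ Icc (0 : ℝ) 1, 1 - ε < s → Ker (OC o E (cs s)) N) :
    ∀ s ∈ Icc (0 : ℝ) 1, Ker (OC o E (cs s)) N :=
  ker_seg (fun s hs => anAt_OC o E fun k => hcs k s hs) hLP hε

theorem OC_interior {S : Type*} [NormedAddCommGroup S] [NormedSpace ℝ S] {U : Set S}
    (hUo : IsOpen U) (hU : IsPreconnected U) {cs : S → ∀ k, C(K k, W)}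
    (hcs : ∀ k, AnalyticOnNhd ℝ (fun s => cs s k) U) (hLP : ∀ s ∈ U, LP (OC o E (cs s)))
    {N : ℕ} {s₁ : S} (hs₁ : s₁ ∈ U) (hint : ∀ᶠ s in 𝓝 s₁, Ker (OC o E (cs s)) N) :
    ∀ s ∈ U, Ker (OC o E (cs s)) N :=
  ker_of_interior (𝕜 := ℝ) hUo hU (fun s hs => anAt_OC o E fun k => hcs k s hs) hLP hs₁ hint

end absfam

/-! ### continuous functions on compact spaces -/

section bil

variable {K E₁ E₂ E₃ : Type*} [TopologicalSpace K] [CompactSpace K]
  [NormedAddCommGroup E₁] [NormedSpace ℝ E₁] [NormedAddCommGroup E₂] [NormedSpace ℝ E₂]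
  [NormedAddCommGroup E₃] [NormedSpace ℝ E₃]

/-- a bilinear map applied pointwise -/
def bilC (K : Type*) [TopologicalSpace K] [CompactSpace K] (B : E₁ →L[ℝ] E₂ →L[ℝ] E₃) :
    C(K, E₁) →L[ℝ] C(K, E₂) →L[ℝ] C(K, E₃) :=
  LinearMap.mkContinuous₂
    (LinearMap.mk₂ ℝ (fun f g => (⟨fun z => B (f z) (g z),
        (B.continuous.comp f.continuous).clm_apply g.continuous⟩ : C(K, E₃)))
      (fun f f' g => by ext z; simp) (fun c f g => by ext z; simp)
      (fun f g g' => by ext z; simp) (fun c f g => by ext z; simp)) ‖B‖ fun f g => by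
    refine (ContinuousMap.norm_le _ (by positivity)).2 fun z => ?_
    show ‖B (f z) (g z)‖ ≤ _
    refine (B.le_opNorm₂ _ _).trans ?_
    gcongr
    · exact f.norm_coe_le_norm z
    · exact g.norm_coe_le_norm z

theorem bilC_apply (B : E₁ →L[ℝ] E₂ →L[ℝ] E₃) (f : C(K, E₁)) (g : C(K, E₂)) (z : K) :
    bilC K B f g z = B (f z) (g z) := rfl

/-- a linear map applied pointwise -/
def linC (K : Type*) [TopologicalSpace K] [CompactSpace K] (B : E₁ →L[ℝ] E₂) :
    C(K, E₁) →L[ℝ] C(K, E₂) :=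
  LinearMap.mkContinuous
    { toFun := fun f => (⟨fun z => B (f z), B.continuous.comp f.continuous⟩ : C(K, E₂))
      map_add' := fun f f' => by ext z; simp
      map_smul' := fun c f => by ext z; simp } ‖B‖ fun f => by
    refine (ContinuousMap.norm_le _ (by positivity)).2 fun z => ?_
    show ‖B (f z)‖ ≤ _
    refine (B.le_opNorm _).trans ?_
    gcongr
    exact f.norm_coe_le_norm z

theorem linC_apply (B : E₁ →L[ℝ] E₂) (f : C(K, E₁)) (z : K) : linC K B f z = B (f z) := rfl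

end bil

variable {V X : Type} [NormedAddCommGroup V] [NormedSpace ℝ V] [TopologicalSpace X]
  {C : RCh V X} [FiniteDimensional ℝ V] [MeasurableSpace V] [BorelSpace V]
  (μ : Measure V) [μ.IsAddHaarMeasure] {σ' : Type} [Fintype σ'] (b : Module.Basis σ' ℝ V)
  (Z : Cells C)

/-! ### the coefficient as a polynomial -/

/-- `w ↦ (l ↦ w (some l))` -/
def cfd (σ' : Type) [Fintype σ'] : FJ σ' →L[ℂ] FO σ' :=
  LinearMap.toContinuousLinearMap
    { toFun := fun w => WithLp.toLp 2 fun l => w (some l)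
      map_add' := fun _ _ => rfl
      map_smul' := fun _ _ => rfl }

/-- `w ↦ (l ↦ I θ(b l) w none)` -/
def cfa : (V →L[ℝ] ℝ) →L[ℝ] (FJ σ' →L[ℂ] FO σ') :=
  LinearMap.toContinuousLinearMap
    { toFun := fun θ => LinearMap.toContinuousLinearMap
        { toFun := fun w => WithLp.toLp 2 fun l => I * (θ (b l) : ℝ) * w none
          map_add' := fun w w' => by
            ext l
            simp only [PiLp.add_apply, mul_add]
          map_smul' := fun a w => by
            ext l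
            simp only [PiLp.smul_apply, smul_eq_mul, RingHom.id_apply]
            ring }
      map_add' := fun θ θ' => by
        ext w l
        show I * (((θ + θ') (b l) : ℝ) : ℂ) * w none =
          I * (θ (b l) : ℝ) * w none + I * (θ' (b l) : ℝ) * w none
        rw [add_apply]
        push_cast
        ring
      map_smul' := fun a θ => by
        ext w l
        show I * (((a • θ) (b l) : ℝ) : ℂ) * w none = a • (I * (θ (b l) : ℝ) * w none)
        rw [smul_apply, smul_eq_mul, Complex.real_smul]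
        push_cast
        ring }

/-- `w ↦ (l ↦ -θ(b l) w none)` -/
def cfn : (V →L[ℝ] ℝ) →L[ℝ] (FJ σ' →L[ℂ] FO σ') :=
  LinearMap.toContinuousLinearMap
    { toFun := fun θ => LinearMap.toContinuousLinearMap
        { toFun := fun w => WithLp.toLp 2 fun l => -((θ (b l) : ℝ) * w none)
          map_add' := fun w w' => by
            ext l
            simp only [PiLp.add_apply, mul_add]
            ring
          map_smul' := fun a w => by
            ext l
            simp only [PiLp.smul_apply, smul_eq_mul, RingHom.id_apply]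
            ring }
      map_add' := fun θ θ' => by
        ext w l
        show -((((θ + θ') (b l) : ℝ) : ℂ) * w none) =
          -((θ (b l) : ℝ) * w none) + -((θ' (b l) : ℝ) * w none)
        rw [add_apply]
        push_cast
        ring
      map_smul' := fun a θ => by
        ext w l
        show -((((a • θ) (b l) : ℝ) : ℂ) * w none) = a • (-((θ (b l) : ℝ) * w none))
        rw [smul_apply, smul_eq_mul, Complex.real_smul]
        push_cast
        ring }

/-- `w ↦ (l ↦ I ∑ m, (T (b l))_m w (some m))` -/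
def cfe : (V →L[ℝ] V) →L[ℝ] (FJ σ' →L[ℂ] FO σ') :=
  LinearMap.toContinuousLinearMap
    { toFun := fun T => LinearMap.toContinuousLinearMap
        { toFun := fun w => WithLp.toLp 2 fun l =>
            I * ∑ m, ((b.repr (T (b l)) m : ℝ) : ℂ) * w (some m)
          map_add' := fun w w' => by
            ext l
            simp only [PiLp.add_apply, mul_add, Finset.sum_add_distrib]
          map_smul' := fun a w => by
            ext l
            simp only [PiLp.smul_apply, smul_eq_mul, RingHom.id_apply, Finset.mul_sum]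
            exact Finset.sum_congr rfl fun m _ => by ring }
      map_add' := fun T T' => by
        ext w l
        show I * ∑ m, ((b.repr ((T + T') (b l)) m : ℝ) : ℂ) * w (some m) =
          I * ∑ m, ((b.repr (T (b l)) m : ℝ) : ℂ) * w (some m) +
          I * ∑ m, ((b.repr (T' (b l)) m : ℝ) : ℂ) * w (some m)
        rw [← mul_add, ← Finset.sum_add_distrib]
        congr 1
        refine Finset.sum_congr rfl fun m _ => ?_
        have h1 : b.repr ((T + T') (b l)) m = b.repr (T (b l)) m + b.repr (T' (b l)) m := by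
          simp
        rw [h1]
        push_cast
        ring
      map_smul' := fun a T => by
        ext w l
        show I * ∑ m, ((b.repr ((a • T) (b l)) m : ℝ) : ℂ) * w (some m) =
          a • (I * ∑ m, ((b.repr (T (b l)) m : ℝ) : ℂ) * w (some m))
        have h0 : ∑ m, ((b.repr ((a • T) (b l)) m : ℝ) : ℂ) * w (some m) =
            (a : ℂ) * ∑ m, ((b.repr (T (b l)) m : ℝ) : ℂ) * w (some m) := by
          rw [Finset.mul_sum]
          refine Finset.sum_congr rfl fun m _ => ?_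
          have h1 : b.repr ((a • T) (b l)) m = a * b.repr (T (b l)) m := by
            simp
          rw [h1]
          push_cast
          ring
        rw [h0, Complex.real_smul]
        ring }

theorem cf_eq (θ : V →L[ℝ] ℝ) (T : V →L[ℝ] V) :
    cf b θ T = cfd σ' + cfa b θ + cfe b T + cfn b (θ.comp T) := by
  ext w l
  show (w (some l) + I * (θ (b l) : ℝ) * w none) +
      I * ((∑ m, ((b.repr (T (b l)) m : ℝ) : ℂ) * w (some m)) + I * (θ (T (b l)) : ℝ) * w none) =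
    w (some l) + I * (θ (b l) : ℝ) * w none + I * (∑ m, ((b.repr (T (b l)) m : ℝ) : ℂ) * w (some m))
      + -((θ (T (b l)) : ℝ) * w none)
  linear_combination ((θ (T (b l)) : ℝ) : ℂ) * w none * I_mul_I

/-- the coefficient from the connection form and the endomorphism on a cell -/
def cfL (k : Z.σ) (θ : C(Z.B k, V →L[ℝ] ℝ)) (T : C(Z.B k, V →L[ℝ] V)) :
    C(Z.B k, FJ σ' →L[ℂ] FO σ') :=
  ContinuousMap.const _ (cfd σ') + linC (Z.B k) (cfa b) θ + linC (Z.B k) (cfe b) T +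
    linC (Z.B k) (cfn b) (bilC (Z.B k) (ContinuousLinearMap.compL ℝ V V ℝ) θ T)

theorem cfL_apply (k : Z.σ) (θ : C(Z.B k, V →L[ℝ] ℝ)) (T : C(Z.B k, V →L[ℝ] V)) (z : Z.B k) :
    cfL b Z k θ T z = cf b (θ z) (T z) := by
  rw [cf_eq]
  rfl

theorem contDiff_cfL (k : Z.σ) {n : WithTop ℕ∞} :
    ContDiff ℝ n fun p : C(Z.B k, V →L[ℝ] ℝ) × C(Z.B k, V →L[ℝ] V) => cfL b Z k p.1 p.2 := by
  unfold cfL
  generalize linC (Z.B k) (cfa b) = L1
  generalize linC (Z.B k) (cfe b) = L2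
  generalize linC (Z.B k) (cfn b) = L3
  generalize (bilC (Z.B k) (ContinuousLinearMap.compL ℝ V V ℝ)) = B1
  have h1 : ContDiff ℝ n fun p : C(Z.B k, V →L[ℝ] ℝ) × C(Z.B k, V →L[ℝ] V) => B1 p.1 p.2 :=
    (B1.contDiff.comp contDiff_fst).clm_apply contDiff_snd
  have h2 : ContDiff ℝ n fun p : C(Z.B k, V →L[ℝ] ℝ) × C(Z.B k, V →L[ℝ] V) => L3 (B1 p.1 p.2) :=
    L3.contDiff.comp h1
  have h3 : ContDiff ℝ n fun p : C(Z.B k, V →L[ℝ] ℝ) × C(Z.B k, V →L[ℝ] V) => L1 p.1 :=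
    L1.contDiff.comp contDiff_fst
  have h4 : ContDiff ℝ n fun p : C(Z.B k, V →L[ℝ] ℝ) × C(Z.B k, V →L[ℝ] V) => L2 p.2 :=
    L2.contDiff.comp contDiff_snd
  exact ((contDiff_const.add h3).add h4).add h2

/-! ### the same transition functions -/

section reb

variable {L L' L'' : PL C}

/-- the transition functions agree -/
def SameG (L L' : PL C) : Prop := ∀ i j, ∀ z ∈ C.ov i j, L'.g i j z = L.g i j z

theorem SameG.refl (L : PL C) : SameG L L := fun _ _ _ _ => rfl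

theorem SameG.symm (h : SameG L L') : SameG L' L := fun i j z hz => (h i j z hz).symm

theorem SameG.trans (h : SameG L L') (h' : SameG L' L'') : SameG L L'' := fun i j z hz =>
  (h' i j z hz).trans (h i j z hz)

theorem SameG.add (L : PL C) (a : Ti_846.F1 C) : SameG L (L.add a) := fun _ _ _ _ => rfl

/-- sections of a bundle with the same transition functions -/
def reb (h : SameG L L') (s : Sec L) : Sec L' where
  u := s.u
  sm := s.sm
  tr i j z hz := by rw [h i j z hz]; exact s.tr i j z hz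
  off := s.off

theorem range_jet_le (h : SameG L L') :
    LinearMap.range (jet μ b Z L) ≤ LinearMap.range (jet μ b Z L') := by
  rintro _ ⟨u, rfl⟩
  exact ⟨reb h u, rfl⟩

theorem EL_eq (h : SameG L L') : EL μ b Z L = EL μ b Z L' := by
  have h1 : LinearMap.range (jet μ b Z L) = LinearMap.range (jet μ b Z L') :=
    le_antisymm (range_jet_le μ b Z h) (range_jet_le μ b Z h.symm)
  unfold EL ES
  rw [h1]

theorem lp_sub {H F : Type} [NormedAddCommGroup H] [InnerProductSpace ℂ H]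
    [NormedAddCommGroup F] [InnerProductSpace ℂ F] (P : H →L[ℂ] F) {E E' : Submodule ℂ H}
    (h : E = E') : LP (P.comp E.subtypeL) ↔ LP (P.comp E'.subtypeL) := by
  subst h
  rfl

theorem ker_sub {H F : Type} [NormedAddCommGroup H] [InnerProductSpace ℂ H]
    [NormedAddCommGroup F] [InnerProductSpace ℂ F] (P : H →L[ℂ] F) {E E' : Submodule ℂ H}
    (h : E = E') (N : ℕ) : Ker (P.comp E.subtypeL) N ↔ Ker (P.comp E'.subtypeL) N := by
  subst h
  rfl

theorem lp_reb (h : SameG L L') (c : ∀ k : Z.σ, C(Z.B k, FJ σ' →L[ℂ] FO σ')) :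
    LP (PE μ b Z L c) ↔ LP (PE μ b Z L' c) := lp_sub (Pop μ Z c) (EL_eq μ b Z h)

theorem ker_reb (h : SameG L L') (c : ∀ k : Z.σ, C(Z.B k, FJ σ' →L[ℂ] FO σ')) (N : ℕ) :
    Ker (PE μ b Z L c) N ↔ Ker (PE μ b Z L' c) N := ker_sub (Pop μ Z c) (EL_eq μ b Z h) N

end reb

section one

variable {L : PL C} {J : C.ι → V → V →L[ℝ] V} {c : ∀ k : Z.σ, C(Z.B k, FJ σ' →L[ℂ] FO σ')}

/-- holomorphic sections lie in the kernel -/
theorem Pop_jet_H0 (hc : IsCf b Z L J c) {w : Sec L} (hw : w ∈ L.H0 J) :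
    Pop μ Z c (jet μ b Z L w) = 0 := by
  have h1 : ‖Pop μ Z c (jet μ b Z L w)‖ ^ 2 = 0 := by
    rw [norm_Pop_sq μ b Z hc]
    unfold ND
    refine Finset.sum_eq_zero fun k _ => Finset.sum_eq_zero fun l _ => ?_
    rw [setIntegral_congr_fun (s := Z.B k) (g := fun _ => (0 : ℝ)) measurableSet_closedBall
      fun z hz => ?_]
    · simp
    · show ‖w.db J (Z.i k) z (b l)‖ ^ 2 = 0
      rw [hw (Z.i k) z (Z.sub k hz)]
      simp
  exact norm_eq_zero.1 (by simpa using h1)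

/-- `HasN ⟹ Ker`, no analysis -/
theorem ker_of_hasN (hc : IsCf b Z L J c) {N : ℕ} (h : L.HasN J N) : Ker (PE μ b Z L c) N := by
  obtain ⟨f, hf, hf0⟩ := h
  refine ⟨fun k => ⟨jet μ b Z L (f k), mem_ES (jet μ b Z L) (f k)⟩, ?_,
    fun k => Pop_jet_H0 μ b Z hc (hf0 k)⟩
  have h1 : LinearIndependent ℂ ((jet μ b Z L) ∘ f) :=
    hf.map' (jet μ b Z L) (LinearMap.ker_eq_bot.2 (jet_inj μ b Z))
  exact LinearIndependent.of_comp (EL μ b Z L).subtype h1

end one

/-- the three analytic inputs -/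
structure Inp (L : PL C) (J : C.ι → V → V →L[ℝ] V) : Prop where
  gard : Gard μ b Z L J
  rell : Rell μ b Z L
  regu : Regu μ b Z L J

section fam

variable {L0 : PL C}

theorem PE_eq (c : ∀ k : Z.σ, C(Z.B k, FJ σ' →L[ℂ] FO σ')) :
    PE μ b Z L0 c = OC (opk μ Z σ') (EL μ b Z L0) c := rfl

/-- left parametrix, seen on the reference bundle -/
theorem lp_fam {L : PL C} {J : C.ι → V → V →L[ℝ] V}
    {c : ∀ k : Z.σ, C(Z.B k, FJ σ' →L[ℂ] FO σ')} (h : SameG L0 L) (hc : IsCf b Z L J c)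
    (hI : Inp μ b Z L J) : LP (OC (opk μ Z σ') (EL μ b Z L0) c) :=
  (lp_reb μ b Z h c).2 (lp_PE μ b Z hc hI.gard hI.rell)

theorem ker_fam {L : PL C} {J : C.ι → V → V →L[ℝ] V}
    {c : ∀ k : Z.σ, C(Z.B k, FJ σ' →L[ℂ] FO σ')} (h : SameG L0 L) (hc : IsCf b Z L J c)
    (hI : Inp μ b Z L J) (N : ℕ) : Ker (OC (opk μ Z σ') (EL μ b Z L0) c) N ↔ L.HasN J N :=
  (ker_reb μ b Z h c N).trans (ker_PE_iff μ b Z hc hI.gard hI.regu N)

theorem ker_fam' {L : PL C} {J : C.ι → V → V →L[ℝ] V}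
    {c : ∀ k : Z.σ, C(Z.B k, FJ σ' →L[ℂ] FO σ')} (h : SameG L0 L) (hc : IsCf b Z L J c) {N : ℕ}
    (hN : L.HasN J N) : Ker (OC (opk μ Z σ') (EL μ b Z L0) c) N :=
  (ker_reb μ b Z h c N).2 (ker_of_hasN μ b Z hc hN)

/-- **closedness, continuous families** (analysis only at the limit) -/
theorem hasN_closed {S : Type*} [TopologicalSpace S] {Ls : S → PL C}
    {Js : S → C.ι → V → V →L[ℝ] V} {cs : S → ∀ k : Z.σ, C(Z.B k, FJ σ' →L[ℂ] FO σ')} {s₀ : S}
    (hg : ∀ᶠ s in 𝓝 s₀, SameG (Ls s₀) (Ls s)) (hc : ∀ᶠ s in 𝓝 s₀, IsCf b Z (Ls s) (Js s) (cs s))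
    (hcont : ∀ k, ContinuousAt (fun s => cs s k) s₀) (hI : Inp μ b Z (Ls s₀) (Js s₀)) {N : ℕ}
    (hfr : ∃ᶠ s in 𝓝 s₀, (Ls s).HasN (Js s) N) : (Ls s₀).HasN (Js s₀) N := by
  rw [← ker_fam μ b Z (SameG.refl (Ls s₀)) hc.self_of_nhds hI N]
  refine OC_closed (opk μ Z σ') (EL μ b Z (Ls s₀)) hcont
    (lp_fam μ b Z (SameG.refl (Ls s₀)) hc.self_of_nhds hI) ?_
  exact (hfr.and_eventually (hg.and hc)).mono fun s hs => ker_fam' μ b Z hs.2.1 hs.2.2 hs.1

variable {U : Set ℝ} {Ls : ℝ → PL C} {Js : ℝ → C.ι → V → V →L[ℝ] V}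
  {cs : ℝ → ∀ k : Z.σ, C(Z.B k, FJ σ' →L[ℂ] FO σ')}

/-- **analytic continuation of `HasN`** -/
theorem hasN_accum (hU : IsPreconnected U) (hg : ∀ s ∈ U, SameG L0 (Ls s))
    (hc : ∀ s ∈ U, IsCf b Z (Ls s) (Js s) (cs s))
    (han : ∀ k, AnalyticOnNhd ℝ (fun s => cs s k) U) (hI : ∀ s ∈ U, Inp μ b Z (Ls s) (Js s))
    {N : ℕ} {s₁ : ℝ} (hs₁ : s₁ ∈ U)
    (hfr : ∃ᶠ s in 𝓝[≠] s₁, s ∈ U ∧ (Ls s).HasN (Js s) N) : ∀ s ∈ U, (Ls s).HasN (Js s) N := by
  intro s hs
  rw [← ker_fam μ b Z (hg s hs) (hc s hs) (hI s hs) N]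
  refine OC_accum (opk μ Z σ') (EL μ b Z L0) hU han
    (fun s hs => lp_fam μ b Z (hg s hs) (hc s hs) (hI s hs)) hs₁ ?_ s hs
  exact hfr.mono fun s hs => ker_fam' μ b Z (hg s hs.1) (hc s hs.1) hs.2

/-- `HasN` fails at one point ⟹ it holds at most at countably many -/
theorem hasN_countable (hU : IsPreconnected U) (hg : ∀ s ∈ U, SameG L0 (Ls s))
    (hc : ∀ s ∈ U, IsCf b Z (Ls s) (Js s) (cs s))
    (han : ∀ k, AnalyticOnNhd ℝ (fun s => cs s k) U) (hI : ∀ s ∈ U, Inp μ b Z (Ls s) (Js s))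
    {N : ℕ} {s₁ : ℝ} (hs₁ : s₁ ∈ U) (hn : ¬ (Ls s₁).HasN (Js s₁) N) :
    {s ∈ U | (Ls s).HasN (Js s) N}.Countable := by
  have h1 := OC_countable (opk μ Z σ') (EL μ b Z L0) hU han
    (fun s hs => lp_fam μ b Z (hg s hs) (hc s hs) (hI s hs)) hs₁ (N := N)
    (fun h => hn ((ker_fam μ b Z (hg s₁ hs₁) (hc s₁ hs₁) (hI s₁ hs₁) N).1 h))
  refine Set.Countable.mono (fun s hs => ?_) h1
  exact ⟨hs.1, ker_fam' μ b Z (hg s hs.1) (hc s hs.1) hs.2⟩

/-- **`[0,1]`, from a neighbourhood of the end point `1`** -/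
theorem hasN_seg (hg : ∀ s ∈ Icc (0 : ℝ) 1, SameG L0 (Ls s))
    (hc : ∀ s ∈ Icc (0 : ℝ) 1, IsCf b Z (Ls s) (Js s) (cs s))
    (han : ∀ k, AnalyticOnNhd ℝ (fun s => cs s k) (Icc 0 1))
    (hI : ∀ s ∈ Icc (0 : ℝ) 1, Inp μ b Z (Ls s) (Js s)) {N : ℕ}
    (hε : ∃ ε > 0, ∀ s ∈ Icc (0 : ℝ) 1, 1 - ε < s → (Ls s).HasN (Js s) N) :
    ∀ s ∈ Icc (0 : ℝ) 1, (Ls s).HasN (Js s) N := by
  intro s hs
  rw [← ker_fam μ b Z (hg s hs) (hc s hs) (hI s hs) N]
  obtain ⟨ε, hε, h⟩ := hε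
  exact OC_seg (opk μ Z σ') (EL μ b Z L0) han
    (fun s hs => lp_fam μ b Z (hg s hs) (hc s hs) (hI s hs))
    ⟨ε, hε, fun s hs hs' => ker_fam' μ b Z (hg s hs) (hc s hs) (h s hs hs')⟩ s hs

/-- **several parameters, from an open piece** -/
theorem hasN_interior {S : Type*} [NormedAddCommGroup S] [NormedSpace ℝ S] {U : Set S}
    {Ls : S → PL C} {Js : S → C.ι → V → V →L[ℝ] V}
    {cs : S → ∀ k : Z.σ, C(Z.B k, FJ σ' →L[ℂ] FO σ')}
    (hUo : IsOpen U) (hU : IsPreconnected U) (hg : ∀ s ∈ U, SameG L0 (Ls s))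
    (hc : ∀ s ∈ U, IsCf b Z (Ls s) (Js s) (cs s))
    (han : ∀ k, AnalyticOnNhd ℝ (fun s => cs s k) U) (hI : ∀ s ∈ U, Inp μ b Z (Ls s) (Js s))
    {N : ℕ} {s₁ : S} (hs₁ : s₁ ∈ U) (hint : ∀ᶠ s in 𝓝 s₁, (Ls s).HasN (Js s) N) :
    ∀ s ∈ U, (Ls s).HasN (Js s) N := by
  intro s hs
  rw [← ker_fam μ b Z (hg s hs) (hc s hs) (hI s hs) N]
  refine OC_interior (opk μ Z σ') (EL μ b Z L0) hUo hU han
    (fun s hs => lp_fam μ b Z (hg s hs) (hc s hs) (hI s hs)) hs₁ ?_ s hs
  filter_upwards [hint, hUo.mem_nhds hs₁] with s hs hsU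
  exact ker_fam' μ b Z (hg s hsU) (hc s hsU) hs

end fam

end

end Crest.Agent.R281.Hz_286
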