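import Crest.Agent.R281.Hz3_286

/-!
# R281 (S0424), H0-OP + H0-CLOSED (helper286), part 4: families, from the connection forms and `J`

Input: `th s k : C(B_k, V →L ℝ)`, `T s k : C(B_k, V →L V)`, equal to the connection forms of `Ls s`
and to `Js s` on the cells, continuous or real analytic in `s`.

* `hasN_closed'`, `hasN_accum'`, `hasN_countable'`, `hasN_seg'`, `hasN_interior'`
-/

set_option autoImplicit false
set_option linter.unusedSectionVars false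

open Set Filter Topology Complex MeasureTheory Metric
open scoped ContDiff ENNReal

namespace Crest.Agent.R281.Hz_286

open Crest.Agent.R281.HkR_835 Crest.Agent.R281.PL_713 Crest.Agent.R281.Semi_450
  Crest.Agent.R281.OpZ_450

noncomputable section

variable {V X : Type} [NormedAddCommGroup V] [NormedSpace ℝ V] [TopologicalSpace X]
  {C : RCh V X} [FiniteDimensional ℝ V] [MeasurableSpace V] [BorelSpace V]
  (μ : Measure V) [μ.IsAddHaarMeasure] {σ' : Type} [Fintype σ'] (b : Module.Basis σ' ℝ V)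
  (Z : Cells C)

/-- `th, T` are the connection forms and the field on the cells -/
def IsDat (L : PL C) (J : C.ι → V → V →L[ℝ] V) (th : ∀ k : Z.σ, C(Z.B k, V →L[ℝ] ℝ))
    (T : ∀ k : Z.σ, C(Z.B k, V →L[ℝ] V)) : Prop :=
  ∀ k (z : Z.B k), th k z = L.th (Z.i k) z ∧ T k z = J (Z.i k) z

variable {Z}

theorem IsDat.isCf {L : PL C} {J : C.ι → V → V →L[ℝ] V} {th : ∀ k : Z.σ, C(Z.B k, V →L[ℝ] ℝ)}
    {T : ∀ k : Z.σ, C(Z.B k, V →L[ℝ] V)} (h : IsDat Z L J th T) :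
    IsCf b Z L J fun k => cfL b Z k (th k) (T k) := fun k z => by
  rw [cfL_apply, (h k z).1, (h k z).2]

variable (Z)

theorem contAt_cfL {S : Type*} [TopologicalSpace S] {s₀ : S} {k : Z.σ}
    {th : S → C(Z.B k, V →L[ℝ] ℝ)} {T : S → C(Z.B k, V →L[ℝ] V)} (h1 : ContinuousAt th s₀)
    (h2 : ContinuousAt T s₀) : ContinuousAt (fun s => cfL b Z k (th s) (T s)) s₀ := by
  have h3 := (contDiff_cfL b Z k (n := 0)).continuous
  exact (h3.continuousAt (x := (th s₀, T s₀))).comp (f := fun s => (th s, T s)) (h1.prodMk h2)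

theorem anAt_cfL {S : Type*} [NormedAddCommGroup S] [NormedSpace ℝ S] {s₀ : S} {k : Z.σ}
    {th : S → C(Z.B k, V →L[ℝ] ℝ)} {T : S → C(Z.B k, V →L[ℝ] V)} (h1 : AnalyticAt ℝ th s₀)
    (h2 : AnalyticAt ℝ T s₀) : AnalyticAt ℝ (fun s => cfL b Z k (th s) (T s)) s₀ := by
  have h3 : AnalyticAt ℝ (fun p : C(Z.B k, V →L[ℝ] ℝ) × C(Z.B k, V →L[ℝ] V) =>
      cfL b Z k p.1 p.2) (th s₀, T s₀) :=
    (contDiff_cfL b Z k (n := ω)).contDiffAt.analyticAt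
  exact h3.comp₂ h1 h2

variable {L0 : PL C}

/-- **closedness, continuous families** (analysis only at the limit) -/
theorem hasN_closed' {S : Type*} [TopologicalSpace S] {Ls : S → PL C}
    {Js : S → C.ι → V → V →L[ℝ] V} {th : S → ∀ k : Z.σ, C(Z.B k, V →L[ℝ] ℝ)}
    {T : S → ∀ k : Z.σ, C(Z.B k, V →L[ℝ] V)} {s₀ : S}
    (hg : ∀ᶠ s in 𝓝 s₀, SameG (Ls s₀) (Ls s))
    (hd : ∀ᶠ s in 𝓝 s₀, IsDat Z (Ls s) (Js s) (th s) (T s))
    (h1 : ∀ k, ContinuousAt (fun s => th s k) s₀) (h2 : ∀ k, ContinuousAt (fun s => T s k) s₀)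
    (hI : Inp μ b Z (Ls s₀) (Js s₀)) {N : ℕ}
    (hfr : ∃ᶠ s in 𝓝 s₀, (Ls s).HasN (Js s) N) : (Ls s₀).HasN (Js s₀) N :=
  hasN_closed μ b Z (cs := fun s k => cfL b Z k (th s k) (T s k)) hg
    (hd.mono fun _ h => h.isCf b) (fun k => contAt_cfL b Z (h1 k) (h2 k)) hI hfr

section real

variable {U : Set ℝ} {Ls : ℝ → PL C} {Js : ℝ → C.ι → V → V →L[ℝ] V}
  {th : ℝ → ∀ k : Z.σ, C(Z.B k, V →L[ℝ] ℝ)} {T : ℝ → ∀ k : Z.σ, C(Z.B k, V →L[ℝ] V)}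

/-- **analytic continuation of `HasN`** -/
theorem hasN_accum' (hU : IsPreconnected U) (hg : ∀ s ∈ U, SameG L0 (Ls s))
    (hd : ∀ s ∈ U, IsDat Z (Ls s) (Js s) (th s) (T s))
    (h1 : ∀ k, AnalyticOnNhd ℝ (fun s => th s k) U) (h2 : ∀ k, AnalyticOnNhd ℝ (fun s => T s k) U)
    (hI : ∀ s ∈ U, Inp μ b Z (Ls s) (Js s)) {N : ℕ} {s₁ : ℝ} (hs₁ : s₁ ∈ U)
    (hfr : ∃ᶠ s in 𝓝[≠] s₁, s ∈ U ∧ (Ls s).HasN (Js s) N) : ∀ s ∈ U, (Ls s).HasN (Js s) N :=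
  hasN_accum μ b Z (L0 := L0) (cs := fun s k => cfL b Z k (th s k) (T s k)) hU hg
    (fun s hs => (hd s hs).isCf b) (fun k s hs => anAt_cfL b Z (h1 k s hs) (h2 k s hs)) hI hs₁ hfr

/-- `HasN` fails at one point ⟹ it holds at most at countably many -/
theorem hasN_countable' (hU : IsPreconnected U) (hg : ∀ s ∈ U, SameG L0 (Ls s))
    (hd : ∀ s ∈ U, IsDat Z (Ls s) (Js s) (th s) (T s))
    (h1 : ∀ k, AnalyticOnNhd ℝ (fun s => th s k) U) (h2 : ∀ k, AnalyticOnNhd ℝ (fun s => T s k) U)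
    (hI : ∀ s ∈ U, Inp μ b Z (Ls s) (Js s)) {N : ℕ} {s₁ : ℝ} (hs₁ : s₁ ∈ U)
    (hn : ¬ (Ls s₁).HasN (Js s₁) N) : {s ∈ U | (Ls s).HasN (Js s) N}.Countable :=
  hasN_countable μ b Z (L0 := L0) (cs := fun s k => cfL b Z k (th s k) (T s k)) hU hg
    (fun s hs => (hd s hs).isCf b) (fun k s hs => anAt_cfL b Z (h1 k s hs) (h2 k s hs)) hI hs₁ hn

/-- **`[0,1]`, from a neighbourhood of the end point `1`** -/
theorem hasN_seg' (hg : ∀ s ∈ Icc (0 : ℝ) 1, SameG L0 (Ls s))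
    (hd : ∀ s ∈ Icc (0 : ℝ) 1, IsDat Z (Ls s) (Js s) (th s) (T s))
    (h1 : ∀ k, AnalyticOnNhd ℝ (fun s => th s k) (Icc 0 1))
    (h2 : ∀ k, AnalyticOnNhd ℝ (fun s => T s k) (Icc 0 1))
    (hI : ∀ s ∈ Icc (0 : ℝ) 1, Inp μ b Z (Ls s) (Js s)) {N : ℕ}
    (hε : ∃ ε > 0, ∀ s ∈ Icc (0 : ℝ) 1, 1 - ε < s → (Ls s).HasN (Js s) N) :
    ∀ s ∈ Icc (0 : ℝ) 1, (Ls s).HasN (Js s) N :=
  hasN_seg μ b Z (L0 := L0) (cs := fun s k => cfL b Z k (th s k) (T s k)) hg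
    (fun s hs => (hd s hs).isCf b) (fun k s hs => anAt_cfL b Z (h1 k s hs) (h2 k s hs)) hI hε

end real

/-- **several parameters, from an open piece** -/
theorem hasN_interior' {S : Type*} [NormedAddCommGroup S] [NormedSpace ℝ S] {U : Set S}
    {Ls : S → PL C} {Js : S → C.ι → V → V →L[ℝ] V}
    {th : S → ∀ k : Z.σ, C(Z.B k, V →L[ℝ] ℝ)} {T : S → ∀ k : Z.σ, C(Z.B k, V →L[ℝ] V)}
    (hUo : IsOpen U) (hU : IsPreconnected U) (hg : ∀ s ∈ U, SameG L0 (Ls s))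
    (hd : ∀ s ∈ U, IsDat Z (Ls s) (Js s) (th s) (T s))
    (h1 : ∀ k, AnalyticOnNhd ℝ (fun s => th s k) U) (h2 : ∀ k, AnalyticOnNhd ℝ (fun s => T s k) U)
    (hI : ∀ s ∈ U, Inp μ b Z (Ls s) (Js s))
    {N : ℕ} {s₁ : S} (hs₁ : s₁ ∈ U) (hint : ∀ᶠ s in 𝓝 s₁, (Ls s).HasN (Js s) N) :
    ∀ s ∈ U, (Ls s).HasN (Js s) N :=
  hasN_interior μ b Z (L0 := L0) (cs := fun s k => cfL b Z k (th s k) (T s k)) hUo hU hg
    (fun s hs => (hd s hs).isCf b) (fun k s hs => anAt_cfL b Z (h1 k s hs) (h2 k s hs)) hI hs₁ hint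

end

end Crest.Agent.R281.Hz_286
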