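import Crest.Agent.R273.RMan4_798
import Crest.Agent.R273.FIb0_597
import Crest.Agent.R247.Bo8_84

/-!
# R281, S-INST (helper615), part 1: unitary frames; Laplacian and gradient of the real metric of a
Kaehler matrix

`hm e K` (798) is the real coordinate metric of the Kaehler matrix `K` (`K a b = g_{b ā}`),
`e : V n ≃L[ℝ] ℝᵐ` any real-linear isomorphism.

* `exists_unitary`  : `Pᴴ K P = 1`, `P Pᴴ = K⁻¹`
* `isFrame_cols`    : the real frame `e p_a, e (i p_a)` is orthonormal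
* `lap_hm`          : `laplaceBeltrami (hm e K) (u ∘ e⁻¹) = 4 Re Σ (K⁻¹)_{bc} ∂_b ∂_{c̄} u`
* `gam_hm`          : `gam (hm e K) (u ∘ e⁻¹) (h ∘ e⁻¹) = 4 Re Σ (K⁻¹)_{bc} ∂_b u ∂_{c̄} h`
-/

set_option autoImplicit false
set_option linter.unusedSectionVars false

open Set Filter Topology Complex Matrix
open scoped ContDiff ComplexConjugate ComplexOrder
open Crest.GeometryTopology.CoordMetric
open Crest.Agent.R202.Tens
open Crest.Agent.R273.Ric_798
open Crest.Agent.R275.Geo Crest.Agent.R275.EDR890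
open Crest.Agent.R273.Defs_333
open Crest.Agent.R273.Hess_333 (cu hq hess_apply lev_eq conj_wd_real)

namespace Crest.Agent.R281.Ins_615

noncomputable section

variable {n m : ℕ}

/-! ### unitary matrices for a Hermitian form -/

section Fac

open scoped MatrixOrder Matrix.Norms.L2Operator

theorem exists_factor {A : Matrix (Fin n) (Fin n) ℂ} (hA : A.PosSemidef) :
    ∃ B : Matrix (Fin n) (Fin n) ℂ, A = Bᴴ * B := by
  obtain ⟨B, hB⟩ := CStarAlgebra.nonneg_iff_eq_star_mul_self.mp hA.nonneg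
  exact ⟨B, hB⟩

end Fac

theorem exists_unitary {A : Matrix (Fin n) (Fin n) ℂ} (hA : A.PosDef) :
    ∃ P : Matrix (Fin n) (Fin n) ℂ, Pᴴ * A * P = 1 ∧ P * Pᴴ = A⁻¹ := by
  obtain ⟨B, hB⟩ := exists_factor hA.inv.posSemidef
  have hAu : IsUnit A.det := isUnit_iff_ne_zero.2 hA.det_pos.ne'
  have h1 : A⁻¹ = Bᴴ * B := hB
  have h2 : A * (Bᴴ * B) = 1 := by rw [← h1, Matrix.mul_nonsing_inv _ hAu]
  have h3 : (A * Bᴴ) * B = 1 := by rw [Matrix.mul_assoc]; exact h2
  have h4 : B * (A * Bᴴ) = 1 := mul_eq_one_comm.1 h3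
  refine ⟨Bᴴ, ?_, ?_⟩
  · rw [Matrix.conjTranspose_conjTranspose, Matrix.mul_assoc]
    exact h4
  · rw [Matrix.conjTranspose_conjTranspose, h1]

/-- the `a`-th column as a vector -/
def cl (P : Matrix (Fin n) (Fin n) ℂ) (a : Fin n) : V n := WithLp.toLp 2 fun b => P b a

theorem cl_apply (P : Matrix (Fin n) (Fin n) ℂ) (a b : Fin n) : cl P a b = P b a := rfl

theorem sd_cl {A P : Matrix (Fin n) (Fin n) ℂ} (h : Pᴴ * A * P = 1) (a b : Fin n) :
    star (cl P b).ofLp ⬝ᵥ (A *ᵥ (cl P a).ofLp) = if a = b then 1 else 0 := by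
  have h1 := congrFun (congrFun h b) a
  rw [Matrix.one_apply, Matrix.mul_assoc, Matrix.mul_apply] at h1
  simp only [dotProduct, Pi.star_apply, Matrix.mulVec]
  rw [eq_comm] at h1
  rw [show (if a = b then (1 : ℂ) else 0) = if b = a then 1 else 0 by simp [eq_comm], h1]
  refine Finset.sum_congr rfl fun c _ => ?_
  rw [Matrix.conjTranspose_apply, Matrix.mul_apply]
  rfl

/-- the real frame -/
def cl2 (P : Matrix (Fin n) (Fin n) ℂ) (p : Fin n × Fin 2) : V n :=
  if p.2 = 0 then cl P p.1 else I • cl P p.1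

theorem cl2_zero (P : Matrix (Fin n) (Fin n) ℂ) (a : Fin n) : cl2 P (a, 0) = cl P a := rfl
theorem cl2_one (P : Matrix (Fin n) (Fin n) ℂ) (a : Fin n) : cl2 P (a, 1) = I • cl P a := rfl

theorem G_cl2 {K : V n → Matrix (Fin n) (Fin n) ℂ} {z : V n} {P : Matrix (Fin n) (Fin n) ℂ}
    (h : Pᴴ * K z * P = 1) (p q : Fin n × Fin 2) :
    G K z (cl2 P p) (cl2 P q) = if p = q then 1 else 0 := by
  obtain ⟨a, s⟩ := p
  obtain ⟨b, t⟩ := q
  have h0 := sd_cl h a b
  have hI : ∀ (v : V n), (I • v).ofLp = I • v.ofLp := fun v => rfl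
  have hsI : ∀ (v : V n), star (I • v.ofLp) = (-I) • star v.ofLp := by
    intro v
    rw [star_smul]
    simp
  unfold G
  fin_cases s <;> fin_cases t
  · simp only [Fin.zero_eta, cl2_zero, h0, Prod.mk.injEq, and_true]
    split_ifs <;> simp
  · simp only [Fin.zero_eta, Fin.mk_one, cl2_zero, cl2_one, hI, hsI, smul_dotProduct, h0,
      Prod.mk.injEq]
    split_ifs <;> simp_all
  · simp only [Fin.zero_eta, Fin.mk_one, cl2_zero, cl2_one, hI, Matrix.mulVec_smul,
      dotProduct_smul, h0, Prod.mk.injEq]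
    split_ifs <;> simp_all
  · simp only [Fin.mk_one, cl2_one, hI, hsI, Matrix.mulVec_smul, smul_dotProduct,
      dotProduct_smul, h0, Prod.mk.injEq, and_true]
    split_ifs <;> simp

theorem isFrame_cols (e : V n ≃L[ℝ] EuclideanSpace ℝ (Fin m)) (ε : Fin m ≃ Fin n × Fin 2)
    {K : V n → Matrix (Fin n) (Fin n) ℂ} {y : EuclideanSpace ℝ (Fin m)}
    (hK : (K (e.symm y)).IsHermitian) {P : Matrix (Fin n) (Fin n) ℂ}
    (h : Pᴴ * K (e.symm y) * P = 1) :
    Crest.Agent.R247.Bo84.IsFrame (hm e K y) (fun k => e (cl2 P (ε k))) := by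
  refine Crest.Agent.R247.Bo84.isFrame_of_orth (g := hm e K) (x := y) fun a b => ?_
  rw [bil_apply, sum_hm e hK, e.symm_apply_apply, e.symm_apply_apply, G_cl2 h]
  simp

/-! ### the Christoffel map -/

theorem B_add_left (K : V n → Matrix (Fin n) (Fin n) ℂ) (z u u' v : V n) :
    B K z (u + u') v = B K z u v + B K z u' v := by
  unfold B S
  rw [D1_add_dir, Matrix.mul_add, Matrix.add_mulVec]
  rfl

theorem B_smul_left (K : V n → Matrix (Fin n) (Fin n) ℂ) (z : V n) (c : ℝ) (u v : V n) :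
    B K z (c • u) v = c • B K z u v := by
  unfold B S
  rw [D1_rsmul_dir, Matrix.mul_smul, Matrix.smul_mulVec]
  ext a
  simp

theorem B_sum_left {ι : Type*} (K : V n → Matrix (Fin n) (Fin n) ℂ) (z v : V n) (s : Finset ι)
    (c : ι → ℝ) (u : ι → V n) :
    B K z (∑ i ∈ s, c i • u i) v = ∑ i ∈ s, c i • B K z (u i) v := by
  classical
  induction s using Finset.induction_on with
  | empty =>
    have := B_smul_left K z 0 0 v
    simpa using this
  | insert a s ha ih => rw [Finset.sum_insert ha, Finset.sum_insert ha, B_add_left, B_smul_left, ih]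

theorem B_II {K : V n → Matrix (Fin n) (Fin n) ℂ} (z u v : V n) :
    B K z (I • u) (I • v) = - B K z u v := by
  unfold B S
  rw [D1_I_dir, Matrix.mul_smul]
  have h1 : (I • v).ofLp = I • v.ofLp := rfl
  rw [h1, Matrix.mulVec_smul, Matrix.smul_mulVec, smul_smul, I_mul_I]
  ext a
  simp

theorem Gam_hm (e : V n ≃L[ℝ] EuclideanSpace ℝ (Fin m)) {K : V n → Matrix (Fin n) (Fin n) ℂ}
    {U : Set (V n)} (h : KD K U) {y : EuclideanSpace ℝ (Fin m)} (hy : e.symm y ∈ U)
    (u v : V n) : Gam (hm e K) y (e u) (e v) = e (B K (e.symm y) u v) := by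
  ext k
  rw [Gam_apply]
  simp only [chr_eq e h hy]
  have h1 : B K (e.symm y) u v = ∑ i, (e u i) • ∑ j, (e v j) • B K (e.symm y) (bb e i) (bb e j) := by
    conv_lhs => rw [← sum_bb e u, B_sum_left]
    refine Finset.sum_congr rfl fun i _ => ?_
    rw [B_symm h hy]
    conv_lhs => rw [← sum_bb e v, B_sum_left]
    congr 1
    refine Finset.sum_congr rfl fun j _ => ?_
    rw [B_symm h hy]
  rw [h1]
  simp only [map_sum, map_smul, Finset.smul_sum, smul_smul, WithLp.ofLp_sum, WithLp.ofLp_smul,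
    Finset.sum_apply, Pi.smul_apply, smul_eq_mul]
  refine Finset.sum_congr rfl fun i _ => Finset.sum_congr rfl fun j _ => ?_
  ring

/-! ### the Laplacian -/

theorem sum_cl2 {α : Type*} [AddCommMonoid α] (ε : Fin m ≃ Fin n × Fin 2)
    (F : Fin n × Fin 2 → α) : ∑ k, F (ε k) = ∑ a, (F (a, 0) + F (a, 1)) := by
  rw [Equiv.sum_comp ε F, Fintype.sum_prod_type]
  simp only [Fin.sum_univ_two]

variable {E : Type*} [NormedAddCommGroup E] [NormedSpace ℝ E]

theorem fderiv_comp_symm (e : V n ≃L[ℝ] EuclideanSpace ℝ (Fin m)) (u : V n → E)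
    (y : EuclideanSpace ℝ (Fin m)) :
    fderiv ℝ (fun y => u (e.symm y)) y =
      (fderiv ℝ u (e.symm y)).comp (e.symm : EuclideanSpace ℝ (Fin m) →L[ℝ] V n) :=
  e.symm.comp_right_fderiv

theorem fderiv2_comp_symm (e : V n ≃L[ℝ] EuclideanSpace ℝ (Fin m)) {u : V n → ℝ}
    {y : EuclideanSpace ℝ (Fin m)} (hu : ContDiffAt ℝ 2 u (e.symm y)) (v w : V n) :
    fderiv ℝ (fderiv ℝ (fun y => u (e.symm y))) y (e v) (e w) =
      fderiv ℝ (fderiv ℝ u) (e.symm y) v w := by
  have h1 : fderiv ℝ (fun y => u (e.symm y)) = fun y => (fderiv ℝ u (e.symm y)).comp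
      (e.symm : EuclideanSpace ℝ (Fin m) →L[ℝ] V n) := by
    funext y
    exact fderiv_comp_symm e u y
  have h2 : DifferentiableAt ℝ (fderiv ℝ u) (e.symm y) :=
    (hu.fderiv_right (m := 1) (by norm_num)).differentiableAt (by norm_num)
  have h3 : HasFDerivAt (fun y => fderiv ℝ u (e.symm y))
      ((fderiv ℝ (fderiv ℝ u) (e.symm y)).comp (e.symm : EuclideanSpace ℝ (Fin m) →L[ℝ] V n)) y :=
    h2.hasFDerivAt.comp y (e.symm : EuclideanSpace ℝ (Fin m) →L[ℝ] V n).hasFDerivAt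
  have h4 := h3.clm_comp (hasFDerivAt_const (e.symm : EuclideanSpace ℝ (Fin m) →L[ℝ] V n) y)
  rw [h1, h4.fderiv]
  simp

/-- the Hessian in the real coordinates -/
theorem hess_hm (e : V n ≃L[ℝ] EuclideanSpace ℝ (Fin m)) {K : V n → Matrix (Fin n) (Fin n) ℂ}
    {U : Set (V n)} (h : KD K U) {y : EuclideanSpace ℝ (Fin m)} (hy : e.symm y ∈ U)
    {u : V n → ℝ} (hu : ContDiffAt ℝ 2 u (e.symm y)) (v w : V n) :
    Crest.Agent.R247.Bo84.hess (hm e K) (fun y => u (e.symm y)) y (e v) (e w) =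
      fderiv ℝ (fderiv ℝ u) (e.symm y) v w - fderiv ℝ u (e.symm y) (B K (e.symm y) v w) := by
  rw [Crest.Agent.R247.Bo84.hess_apply, Gam_hm e h hy, fderiv2_comp_symm e hu,
    fderiv_comp_symm]
  simp

theorem riem (e : V n ≃L[ℝ] EuclideanSpace ℝ (Fin m)) {K : V n → Matrix (Fin n) (Fin n) ℂ}
    {U : Set (V n)} (h : KD K U) : IsRiemannianOn (hm e K) {y | e.symm y ∈ U} where
  isOpen := h.op.preimage e.symm.continuous
  contDiffOn i j := by
    have h1 : ∀ u v : V n, ContDiffOn ℝ ∞ (fun z => G K z u v) U := by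
      intro u v
      unfold G
      refine Complex.reCLM.contDiff.comp_contDiffOn ?_
      simp only [dotProduct, Matrix.mulVec]
      exact ContDiffOn.sum fun c _ => contDiffOn_const.mul
        (ContDiffOn.sum fun d _ => (h.sm c d).mul contDiffOn_const)
    exact (h1 _ _).comp e.symm.contDiff.contDiffOn fun y hy => hy
  posDef y hy := hm_posDef e h hy

/-- **the Laplacian is a sum of Levi forms** -/
theorem lap_hm_frame (e : V n ≃L[ℝ] EuclideanSpace ℝ (Fin m)) (ε : Fin m ≃ Fin n × Fin 2)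
    {K : V n → Matrix (Fin n) (Fin n) ℂ}
    {U : Set (V n)} (h : KD K U) {y : EuclideanSpace ℝ (Fin m)} (hy : e.symm y ∈ U)
    {P : Matrix (Fin n) (Fin n) ℂ} (hP : Pᴴ * K (e.symm y) * P = 1)
    {u : V n → ℝ} (hu : ContDiffAt ℝ 2 u (e.symm y)) :
    laplaceBeltrami (hm e K) (fun y => u (e.symm y)) y = ∑ a, lev u (e.symm y) (cl P a) := by
  have hu' : ContDiffAt ℝ 2 (fun y => u (e.symm y)) y :=
    hu.comp y e.symm.contDiff.contDiffAt
  rw [Crest.Agent.R247.Bo84.lap_frame (riem e h) hy hu' (isFrame_cols e ε (h.pd _ hy).1 hP)]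
  simp only [hess_hm e h hy hu]
  rw [sum_cl2 ε fun p => fderiv ℝ (fderiv ℝ u) (e.symm y) (cl2 P p) (cl2 P p) -
    fderiv ℝ u (e.symm y) (B K (e.symm y) (cl2 P p) (cl2 P p))]
  refine Finset.sum_congr rfl fun a _ => ?_
  rw [cl2_zero, cl2_one, B_II, map_neg, lev, iteratedFDeriv_two_apply, iteratedFDeriv_two_apply]
  simp only [Matrix.cons_val_zero, Matrix.cons_val_one]
  ring

theorem sum_hq {P : Matrix (Fin n) (Fin n) ℂ} (u : V n → ℝ) (z : V n) :
    ∑ a, hq u z (cl P a) = ∑ b, ∑ c, (P * Pᴴ) b c * Crest.Agent.R273.Hess_333.hess u z b c := by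
  unfold hq
  rw [Finset.sum_comm]
  refine Finset.sum_congr rfl fun b _ => ?_
  rw [Finset.sum_comm]
  refine Finset.sum_congr rfl fun c _ => ?_
  rw [Matrix.mul_apply, Finset.sum_mul]
  refine Finset.sum_congr rfl fun a _ => ?_
  rw [Matrix.conjTranspose_apply, cl_apply, cl_apply]
  simp only [RCLike.star_def]
  ring

/-- **the Laplacian** -/
theorem lap_hm (e : V n ≃L[ℝ] EuclideanSpace ℝ (Fin m)) (ε : Fin m ≃ Fin n × Fin 2)
    {K : V n → Matrix (Fin n) (Fin n) ℂ}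
    {U : Set (V n)} (h : KD K U) {y : EuclideanSpace ℝ (Fin m)} (hy : e.symm y ∈ U)
    {u : V n → ℝ} (hu : ContDiffAt ℝ ∞ u (e.symm y)) :
    laplaceBeltrami (hm e K) (fun y => u (e.symm y)) y =
      4 * (∑ b, ∑ c, (K (e.symm y))⁻¹ b c *
        Crest.Agent.R273.Hess_333.hess u (e.symm y) b c).re := by
  obtain ⟨P, hP, hPP⟩ := exists_unitary (h.pd _ hy)
  rw [lap_hm_frame e ε h hy hP (hu.of_le Crest.Agent.R247.Bo84.two_le_infty),
    ← hPP, ← sum_hq]
  have h1 : ∀ a, lev u (e.symm y) (cl P a) = 4 * (hq u (e.symm y) (cl P a)).re := by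
    intro a
    have := lev_eq hu (cl P a)
    have h2 := congrArg Complex.re this
    rw [ofReal_re] at h2
    rw [h2]
    simp
  simp only [h1, Complex.re_sum, Finset.mul_sum]

/-! ### the gradient -/

theorem real_vec {u : V n → ℝ} {z : V n} (hu : DifferentiableAt ℝ u z) (v : V n) :
    (fderiv ℝ u z v : ℂ) - I * (fderiv ℝ u z (I • v) : ℝ) = 2 * ∑ a, v a * wd (false, a) (cu u) z := by
  have h1 : fderiv ℝ (cu u) z = Complex.ofRealCLM.comp (fderiv ℝ u z) :=
    (Complex.ofRealCLM.hasFDerivAt.comp z hu.hasFDerivAt).fderiv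
  have h2 := wdL_vec false (fderiv ℝ (cu u) z) v
  simp only [cI_false, smul_eq_mul, cj_false] at h2
  have h3 : ∑ a, v a * wd (false, a) (cu u) z = ∑ a, v a * wdL (false, a) (fderiv ℝ (cu u) z) := rfl
  rw [h3, ← h2, h1]
  simp only [ContinuousLinearMap.comp_apply, Complex.ofRealCLM_apply]
  ring

theorem two_dir {u h : V n → ℝ} {z : V n} (hu : DifferentiableAt ℝ u z)
    (hh : DifferentiableAt ℝ h z) (v : V n) :
    fderiv ℝ u z v * fderiv ℝ h z v + fderiv ℝ u z (I • v) * fderiv ℝ h z (I • v) =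
      4 * ((∑ a, v a * wd (false, a) (cu u) z) * (∑ a, conj (v a) * wd (true, a) (cu h) z)).re := by
  have h1 := real_vec hu v
  have h2 := real_vec hh v
  have h3 : ∑ a, conj (v a) * wd (true, a) (cu h) z = conj (∑ a, v a * wd (false, a) (cu h) z) := by
    rw [map_sum]
    refine Finset.sum_congr rfl fun a _ => ?_
    rw [map_mul, conj_wd_real _ hh]
    rfl
  rw [h3]
  set X := ∑ a, v a * wd (false, a) (cu u) z
  set Y := ∑ a, v a * wd (false, a) (cu h) z
  have e1 : X = (1 / 2 : ℂ) * ((fderiv ℝ u z v : ℂ) - I * (fderiv ℝ u z (I • v) : ℝ)) := by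
    rw [h1]; ring
  have e2 : Y = (1 / 2 : ℂ) * ((fderiv ℝ h z v : ℂ) - I * (fderiv ℝ h z (I • v) : ℝ)) := by
    rw [h2]; ring
  have e3 : X * conj Y = (1 / 4 : ℂ) * (((fderiv ℝ u z v * fderiv ℝ h z v +
      fderiv ℝ u z (I • v) * fderiv ℝ h z (I • v) : ℝ) : ℂ) + I * ((fderiv ℝ u z v *
        fderiv ℝ h z (I • v) - fderiv ℝ u z (I • v) * fderiv ℝ h z v : ℝ) : ℂ)) := by
    rw [e1, e2]
    simp only [map_mul, map_sub, Complex.conj_ofReal, conj_I, map_div₀, map_one, map_ofNat]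
    push_cast
    linear_combination (-(1/4 : ℂ) * (fderiv ℝ u z (I • v) : ℂ) * (fderiv ℝ h z (I • v) : ℂ)) * I_sq
  rw [e3]
  simp

/-- the gradient form in a unitary frame -/
theorem gam_frame {g : MetricField m} {U : Set (EuclideanSpace ℝ (Fin m))}
    {x : EuclideanSpace ℝ (Fin m)} (hg : IsRiemannianOn g U) (hx : x ∈ U)
    {ξ : Fin m → EuclideanSpace ℝ (Fin m)} (hξ : Crest.Agent.R247.Bo84.IsFrame (g x) ξ)
    (f h : EuclideanSpace ℝ (Fin m) → ℝ) :
    Crest.Agent.R247.Bo84.gam g f h x = ∑ a, fderiv ℝ f x (ξ a) * fderiv ℝ h x (ξ a) := by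
  rw [Crest.Agent.R247.Bo84.gam_eq_bil hg hx, hξ.bil_eq hg hx]
  refine Finset.sum_congr rfl fun a _ => ?_
  rw [Crest.Agent.R247.Bo84.bil_grad hg hx, Crest.Agent.R247.Bo84.bil_grad hg hx]

/-- **the gradient form** -/
theorem gam_hm (e : V n ≃L[ℝ] EuclideanSpace ℝ (Fin m)) (ε : Fin m ≃ Fin n × Fin 2)
    {K : V n → Matrix (Fin n) (Fin n) ℂ}
    {U : Set (V n)} (hK : KD K U) {y : EuclideanSpace ℝ (Fin m)} (hy : e.symm y ∈ U)
    {u h : V n → ℝ} (hu : DifferentiableAt ℝ u (e.symm y)) (hh : DifferentiableAt ℝ h (e.symm y)) :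
    Crest.Agent.R247.Bo84.gam (hm e K) (fun y => u (e.symm y)) (fun y => h (e.symm y)) y =
      4 * (∑ b, ∑ c, (K (e.symm y))⁻¹ b c *
        (wd (false, b) (cu u) (e.symm y) * wd (true, c) (cu h) (e.symm y))).re := by
  obtain ⟨P, hP, hPP⟩ := exists_unitary (hK.pd _ hy)
  rw [gam_frame (riem e hK) hy (isFrame_cols e ε (hK.pd _ hy).1 hP), fderiv_comp_symm,
    fderiv_comp_symm]
  simp only [ContinuousLinearMap.comp_apply, ContinuousLinearEquiv.coe_coe,
    ContinuousLinearEquiv.symm_apply_apply]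
  rw [sum_cl2 ε fun p => fderiv ℝ u (e.symm y) (cl2 P p) * fderiv ℝ h (e.symm y) (cl2 P p)]
  simp only [cl2_zero, cl2_one, two_dir hu hh, ← Finset.mul_sum, ← Complex.re_sum]
  congr 2
  rw [← hPP]
  simp only [Matrix.mul_apply, Matrix.conjTranspose_apply, Finset.sum_mul, Finset.mul_sum, cl_apply]
  rw [Finset.sum_congr rfl fun i _ => Finset.sum_comm, Finset.sum_comm]
  refine Finset.sum_congr rfl fun b _ => ?_
  rw [Finset.sum_comm]
  refine Finset.sum_congr rfl fun c _ => Finset.sum_congr rfl fun a _ => ?_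
  simp only [RCLike.star_def]
  ring

end

end Crest.Agent.R281.Ins_615
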