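import Crest.Agent.R281.Ti3_846

/-!
# Row 281, HK-ISO, part 1 (helper139): the local calculus of Moser's argument

* `cJ b J z = b z ∘ J z`
* `d1_cJ`    : `d(b∘J)(u,v) - d(b∘J)(Ju,Jv) = db(Ju,v) + db(u,Jv)` for an integrable `J`
* `gam_inv`  : `σ_t = w₁ + i w₂` of type `(2,0)` for `J_t`, `∂_t w_k = dβ_k` : then
               `d(β₁∘J + β₂)` is `J`-invariant
-/

set_option autoImplicit false

open Set Filter Topology
open scoped ContDiff

namespace Crest.Agent.R281.Iso_139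

open Crest.Agent.R281.HkR_835 Crest.Agent.R260.ACM_580
open Crest.Agent.R281.Ti_846 hiding pb pb_apply symm2

noncomputable section

variable {V : Type} [NormedAddCommGroup V] [NormedSpace ℝ V]

theorem d1a (f : V → (V →L[ℝ] ℝ)) (z u v : V) :
    d1 f z u v = fderiv ℝ f z u v - fderiv ℝ f z v u := rfl

/-- `b ∘ J` -/
def cJ (b : V → V →L[ℝ] ℝ) (J : V → V →L[ℝ] V) (z : V) : V →L[ℝ] ℝ := (b z).comp (J z)

@[simp] theorem cJ_apply (b : V → V →L[ℝ] ℝ) (J : V → V →L[ℝ] V) (z v : V) :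
    cJ b J z v = b z (J z v) := rfl

theorem hasFDerivAt_cJ {b : V → V →L[ℝ] ℝ} {J : V → V →L[ℝ] V} {z : V}
    (hb : DifferentiableAt ℝ b z) (hJ : DifferentiableAt ℝ J z) (a v : V) :
    fderiv ℝ (cJ b J) z a v = fderiv ℝ b z a (J z v) + b z (fderiv ℝ J z a v) := by
  have h1 : HasFDerivAt b (fderiv ℝ b z) z := hb.hasFDerivAt
  have h2 : HasFDerivAt J (fderiv ℝ J z) z := hJ.hasFDerivAt
  have h3 : HasFDerivAt (cJ b J) _ z := h1.clm_comp h2
  rw [h3.fderiv]
  simp [add_comm]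

/-- derivative of `J² = -1` -/
theorem fderiv_sq {J : V → V →L[ℝ] V} {U : Set V} (hU : IsOpen U) (hJ : DifferentiableOn ℝ J U)
    (hs : ∀ z ∈ U, ∀ v, J z (J z v) = -v) {z : V} (hz : z ∈ U) (a v : V) :
    fderiv ℝ J z a (J z v) = - J z (fderiv ℝ J z a v) := by
  have hn : U ∈ 𝓝 z := hU.mem_nhds hz
  have h2 : HasFDerivAt J (fderiv ℝ J z) z := ((hJ z hz).differentiableAt hn).hasFDerivAt
  have h3 : HasFDerivAt (fun y => (J y).comp (J y)) _ z := h2.clm_comp h2
  have h4 : (fun y => (J y).comp (J y)) =ᶠ[𝓝 z] fun _ => -ContinuousLinearMap.id ℝ V := by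
    filter_upwards [hn] with y hy
    ext v
    simpa using hs y hy v
  have h5 := h3.unique ((hasFDerivAt_const (-ContinuousLinearMap.id ℝ V) z).congr_of_eventuallyEq h4)
  have h6 := congrArg (fun T : V →L[ℝ] V →L[ℝ] V => T a v) h5
  simp at h6
  rw [add_comm] at h6
  exact eq_neg_of_add_eq_zero_left h6

/-- `d(b∘J)(u,v) - d(b∘J)(Ju,Jv) = db(Ju,v) + db(u,Jv)` -/
theorem d1_cJ {b : V → V →L[ℝ] ℝ} {J : V → V →L[ℝ] V} {U : Set V} (hU : IsOpen U)
    (hb : DifferentiableOn ℝ b U) (hJ : DifferentiableOn ℝ J U)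
    (hs : ∀ z ∈ U, ∀ v, J z (J z v) = -v) {z : V} (hz : z ∈ U)
    (hN : ∀ v w, Nij J z v w = 0) (u v : V) :
    d1 (cJ b J) z u v - d1 (cJ b J) z (J z u) (J z v) =
      d1 b z (J z u) v + d1 b z u (J z v) := by
  have hn : U ∈ 𝓝 z := hU.mem_nhds hz
  have db : DifferentiableAt ℝ b z := (hb z hz).differentiableAt hn
  have dJ : DifferentiableAt ℝ J z := (hJ z hz).differentiableAt hn
  simp only [d1a, hasFDerivAt_cJ db dJ]
  rw [hs z hz, hs z hz, fderiv_sq hU hJ hs hz, fderiv_sq hU hJ hs hz]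
  have h1 : fderiv ℝ J z u v - fderiv ℝ J z v u + J z (fderiv ℝ J z (J z u) v) -
      J z (fderiv ℝ J z (J z v) u) = 0 := by
    have h2 := congrArg (J z) (hN u v)
    unfold Nij at h2
    simp only [map_add, map_sub, map_zero, hs z hz] at h2
    rw [← h2]
    abel
  have h3 := congrArg (b z) h1
  simp only [map_add, map_sub, map_zero, map_neg] at h3 ⊢
  linarith

/-- derivative in `t` of the type relations, pointwise: `σ_t = w₁ + i w₂`, `σ(Ju,v) = iσ(u,v)` -/
theorem type_dot {w₁ w₂ : ℝ → Bil V} {J : ℝ → V →L[ℝ] V} {t : ℝ} {e₁ e₂ : Bil V}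
    {K : V →L[ℝ] V} (h1 : HasDerivAt w₁ e₁ t) (h2 : HasDerivAt w₂ e₂ t) (hJ : HasDerivAt J K t)
    (a1 : ∀ s u v, w₁ s u v = - w₁ s v u)
    (a2 : ∀ s u v, w₂ s u v = - w₂ s v u)
    (r1 : ∀ s u v, w₁ s (J s u) v = - w₂ s u v) (r2 : ∀ s u v, w₂ s (J s u) v = w₁ s u v)
    (u v : V) : e₂ u v - e₂ (J t u) (J t v) + (e₁ (J t u) v + e₁ u (J t v)) = 0 := by
  -- derivative of `w (J u) v`
  have hd : ∀ {w : ℝ → Bil V} {e : Bil V}, HasDerivAt w e t → ∀ u v : V,
      HasDerivAt (fun s => w s (J s u) v) (e (J t u) v + w t (K u) v) t := by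
    intro w e hw u v
    have h3 := (hw.clm_apply (hJ.clm_apply (hasDerivAt_const t u))).clm_apply
      (hasDerivAt_const t v)
    simpa using h3
  have hc : ∀ {w : ℝ → Bil V} {e : Bil V}, HasDerivAt w e t → ∀ u v : V,
      HasDerivAt (fun s => w s u v) (e u v) t := by
    intro w e hw u v
    have h3 := (hw.clm_apply (hasDerivAt_const t u)).clm_apply (hasDerivAt_const t v)
    simpa using h3
  have s1 : ∀ u v, e₁ u v = - e₁ v u := by
    intro u v
    refine (hc h1 u v).unique ?_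
    have := (hc h1 v u).neg
    refine this.congr_of_eventuallyEq (Eventually.of_forall fun s => a1 s u v)
  have s2 : ∀ u v, e₂ u v = - e₂ v u := by
    intro u v
    refine (hc h2 u v).unique ?_
    have := (hc h2 v u).neg
    refine this.congr_of_eventuallyEq (Eventually.of_forall fun s => a2 s u v)
  have q1 : ∀ u v, e₁ (J t u) v + w₁ t (K u) v = - e₂ u v := by
    intro u v
    refine (hd h1 u v).unique ?_
    exact ((hc h2 u v).neg).congr_of_eventuallyEq (Eventually.of_forall fun s => r1 s u v)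
  have q2 : ∀ u v, e₂ (J t u) v + w₂ t (K u) v = e₁ u v := by
    intro u v
    refine (hd h2 u v).unique ?_
    exact (hc h1 u v).congr_of_eventuallyEq (Eventually.of_forall fun s => r2 s u v)
  -- `w₁ (K u) v` and `w₁ (J K u) v`
  have p1 := q1 u v
  have p2 := q1 v u
  have p3 := q2 u (J t v)
  have k1 : w₂ t (K u) (J t v) = w₁ t (K u) v := by
    rw [a2, r2, ← a1]
  have s3 := s1 (J t v) u
  have s4 := s2 v u
  have s5 := s1 u (J t v)
  have k2 := a1 t (K u) v
  linarith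

end

end Crest.Agent.R281.Iso_139
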