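import Crest.Agent.R281.Iso1_139
import Crest.Agent.R281.Flo4_222

/-!
# Row 281, HK-ISO, part 2 (helper139): Moser's vector field for holomorphic symplectic structures

* `JS0`, `JS1`, `JS2`, `JSJ` : jointly smooth families (parameter `t : ℝ`)
* `HSF C`       : jointly smooth family of holomorphic symplectic structures `σ_t = w₁ + i w₂`, `J_t`
* `dotF`        : the `t`-derivative of a family of 1-forms
* `HSF.gam`     : `γ_t = β₁ ∘ J + β₂`, `gam_inv` : `dγ_t` is `J_t`-invariant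
* `HSF.bf`      : `V_t = - w₁⁻¹ (β₁ - dp)`
* `HSF.iso`     : the flow of `V` transports `(w₁ s, w₂ s)` to `(w₁ t, w₂ t)`
-/

set_option autoImplicit false
set_option linter.unusedSectionVars false

open Set Filter Topology
open scoped ContDiff

namespace Crest.Agent.R281.Iso_139

open Crest.Agent.R281.HkR_835 Crest.Agent.R260.ACM_580
open Crest.Agent.R281.Dif_268 Crest.Agent.R281.Flo_222
open Crest.Agent.R281.Ti_846 hiding pb pb_apply symm2 sm'

noncomputable section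

variable {V X : Type} [NormedAddCommGroup V] [NormedSpace ℝ V] [TopologicalSpace X]
  {C : RCh V X}

/-! ### jointly smooth families -/

/-- jointly smooth family of functions -/
def JS0 (C : RCh V X) (f : ℝ → X → ℝ) : Prop :=
  ∀ i, ContDiffOn ℝ ∞ (fun p : ℝ × V => f p.1 ((C.e i).symm p.2)) (univ ×ˢ (C.e i).target)

/-- jointly smooth family of 1-forms -/
def JS1 (η : ℝ → F1 C) : Prop :=
  ∀ i, ContDiffOn ℝ ∞ (fun p : ℝ × V => (η p.1).η i p.2) (univ ×ˢ (C.e i).target)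

/-- jointly smooth family of closed 2-forms -/
def JS2 (w : ℝ → F2 C) : Prop :=
  ∀ i, ContDiffOn ℝ ∞ (fun p : ℝ × V => (w p.1).w i p.2) (univ ×ˢ (C.e i).target)

/-- jointly smooth family of fields of endomorphisms -/
def JSJ (C : RCh V X) (J : ℝ → C.ι → V → V →L[ℝ] V) : Prop :=
  ∀ i, ContDiffOn ℝ ∞ (fun p : ℝ × V => J p.1 i p.2) (univ ×ˢ (C.e i).target)

/-- differential of a function in the chart `i` -/
def dX (C : RCh V X) (f : X → ℝ) (i : C.ι) (z : V) : V →L[ℝ] ℝ :=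
  fderiv ℝ (fun y => f ((C.e i).symm y)) z

theorem isOpen_ut (i : C.ι) : IsOpen ((univ : Set ℝ) ×ˢ (C.e i).target) :=
  isOpen_univ.prod (C.e i).open_target

theorem mem_ut {i : C.ι} {t : ℝ} {z : V} (hz : z ∈ (C.e i).target) :
    (t, z) ∈ (univ : Set ℝ) ×ˢ (C.e i).target := ⟨mem_univ _, hz⟩

section part

variable {W : Type*} [NormedAddCommGroup W] [NormedSpace ℝ W]

/-- slices of a jointly smooth map -/
theorem slice_sm {i : C.ι} {G : ℝ × V → W} (hG : ContDiffOn ℝ ∞ G (univ ×ˢ (C.e i).target))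
    (t : ℝ) : ContDiffOn ℝ ∞ (fun z => G (t, z)) (C.e i).target :=
  hG.comp (contDiffOn_const.prodMk contDiffOn_id) fun _ hz => mem_ut hz

theorem cda {i : C.ι} {G : ℝ × V → W} (hG : ContDiffOn ℝ ∞ G (univ ×ˢ (C.e i).target))
    {t : ℝ} {z : V} (hz : z ∈ (C.e i).target) : ContDiffAt ℝ ∞ G (t, z) :=
  hG.contDiffAt ((isOpen_ut i).mem_nhds (mem_ut hz))

theorem dfa {i : C.ι} {G : ℝ × V → W} (hG : ContDiffOn ℝ ∞ G (univ ×ˢ (C.e i).target))
    {t : ℝ} {z : V} (hz : z ∈ (C.e i).target) : DifferentiableAt ℝ G (t, z) :=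
  (cda hG hz).differentiableAt (by simp)

/-- partial `t`-derivative -/
theorem hd_t {i : C.ι} {G : ℝ × V → W} (hG : ContDiffOn ℝ ∞ G (univ ×ˢ (C.e i).target))
    {t : ℝ} {z : V} (hz : z ∈ (C.e i).target) :
    HasDerivAt (fun s => G (s, z)) (fderiv ℝ G (t, z) (1, 0)) t :=
  hd_curve (c := fun _ => z) (dfa hG hz) (hasDerivAt_const t z)

/-- the `t`-derivative is jointly smooth -/
theorem dt_sm {i : C.ι} {G : ℝ × V → W} (hG : ContDiffOn ℝ ∞ G (univ ×ˢ (C.e i).target)) :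
    ContDiffOn ℝ ∞ (fun p => fderiv ℝ G p (1, 0)) (univ ×ˢ (C.e i).target) :=
  (hG.fderiv_of_isOpen (isOpen_ut i) (by simp)).clm_apply contDiffOn_const

/-- the `x`-derivative is jointly smooth -/
theorem dx_sm {i : C.ι} {G : ℝ × V → W} (hG : ContDiffOn ℝ ∞ G (univ ×ˢ (C.e i).target)) :
    ContDiffOn ℝ ∞ (fun p : ℝ × V => fderiv ℝ (fun y => G (p.1, y)) p.2)
      (univ ×ˢ (C.e i).target) := by
  have h1 : ContDiffOn ℝ ∞ (fun p => (fderiv ℝ G p).comp (ContinuousLinearMap.inr ℝ ℝ V))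
      (univ ×ˢ (C.e i).target) :=
    (hG.fderiv_of_isOpen (isOpen_ut i) (by simp)).clm_comp contDiffOn_const
  refine h1.congr fun p hp => ?_
  exact (fd_snd (g := G) (t := p.1) (z := p.2) (dfa hG hp.2)).fderiv

/-- partial derivatives commute -/
theorem dt_dx {i : C.ι} {G : ℝ × V → W} (hG : ContDiffOn ℝ ∞ G (univ ×ˢ (C.e i).target))
    {t : ℝ} {z : V} (hz : z ∈ (C.e i).target) (u : V) :
    HasDerivAt (fun s => fderiv ℝ (fun y => G (s, y)) z u)
      (fderiv ℝ (fun y => fderiv ℝ G (t, y) (1, 0)) z u) t := by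
  have hd2 : DifferentiableAt ℝ (fderiv ℝ G) (t, z) :=
    ((cda hG hz).fderiv_right (m := ∞) (by simp)).differentiableAt (by simp)
  have hsym : fderiv ℝ (fderiv ℝ G) (t, z) (1, 0) (0, u) =
      fderiv ℝ (fderiv ℝ G) (t, z) (0, u) (1, 0) :=
    ((cda hG hz).isSymmSndFDerivAt (by
      rw [minSmoothness_of_isRCLikeNormedField]; exact WithTop.coe_le_coe.2 le_top)) _ _
  have h1 : (fun s => fderiv ℝ (fun y => G (s, y)) z u) =
      fun s => fderiv ℝ G (s, z) (0, u) := by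
    funext s
    exact fd_snd_apply (dfa hG hz) u
  have h2 : HasDerivAt (fun s => fderiv ℝ G (s, z)) (fderiv ℝ (fderiv ℝ G) (t, z) (1, 0)) t :=
    hd_curve (c := fun _ => z) hd2 (hasDerivAt_const t z)
  have h3 := h2.clm_apply (hasDerivAt_const t ((0 : ℝ), u))
  have h4 : HasFDerivAt (fun y => fderiv ℝ G (t, y)) _ z := fd_snd hd2
  have h5 : HasFDerivAt (fun y => fderiv ℝ G (t, y) (1, 0)) _ z :=
    h4.clm_apply (hasFDerivAt_const ((1 : ℝ), (0 : V)) z)
  rw [h1, h5.fderiv]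
  simp only [map_zero, add_zero] at h3
  refine h3.congr_deriv ?_
  simp [hsym]

end part

/-! ### the `t`-derivative of a family of 1-forms -/

/-- the `t`-derivative of a jointly smooth family of 1-forms -/
def dotF (η : ℝ → F1 C) (h : JS1 η) (t : ℝ) : F1 C where
  η i z := fderiv ℝ (fun p : ℝ × V => (η p.1).η i p.2) (t, z) (1, 0)
  sm i := slice_sm (dt_sm (h i)) t
  tr i j z hz v := by
    have hz' := (RCh.t_mem hz).1
    have h1 := (hd_t (t := t) (h i) hz.1).clm_apply (hasDerivAt_const t v)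
    have h2 := (hd_t (t := t) (h j) hz').clm_apply
      (hasDerivAt_const t (fderiv ℝ (C.t i j) z v))
    have h3 := h1.unique (h2.congr_of_eventuallyEq (Eventually.of_forall fun s =>
      (η s).tr i j z hz v))
    simpa using h3

theorem dotF_js {η : ℝ → F1 C} (h : JS1 η) : JS1 (dotF η h) := fun i => dt_sm (h i)

theorem dotF_hd {η : ℝ → F1 C} (h : JS1 η) {i : C.ι} {t : ℝ} {z : V} (hz : z ∈ (C.e i).target)
    (u v : V) : HasDerivAt (fun s => d1 ((η s).η i) z u v) (d1 ((dotF η h t).η i) z u v) t := by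
  have key : ∀ u v, HasDerivAt (fun s => fderiv ℝ ((η s).η i) z u v)
      (fderiv ℝ ((dotF η h t).η i) z u v) t := by
    intro u v
    have h1 := (dt_dx (h i) hz u (t := t)).clm_apply (hasDerivAt_const t v)
    simp only [map_zero, add_zero] at h1
    exact h1
  exact (key u v).sub (key v u)

/-! ### families of holomorphic symplectic structures -/

/-- jointly smooth family of holomorphic symplectic structures, in real terms -/
structure HSF (C : RCh V X) where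
  w1 : ℝ → F2 C
  w2 : ℝ → F2 C
  J : ℝ → C.ι → V → V →L[ℝ] V
  js1 : JS2 w1
  js2 : JS2 w2
  jsJ : JSJ C J
  r1 : ∀ t i, ∀ z ∈ (C.e i).target, ∀ u v, (w1 t).w i z (J t i z u) v = -(w2 t).w i z u v
  r2 : ∀ t i, ∀ z ∈ (C.e i).target, ∀ u v, (w2 t).w i z (J t i z u) v = (w1 t).w i z u v
  nd : ∀ t i, ∀ z ∈ (C.e i).target, ∀ v, (∀ u, (w1 t).w i z v u = 0) → v = 0

namespace HSF

variable (H : HSF C) {t : ℝ} {i : C.ι} {z : V}

theorem J_sq (hz : z ∈ (C.e i).target) (v : V) : H.J t i z (H.J t i z v) = -v := by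
  rw [← add_eq_zero_iff_eq_neg]
  refine H.nd t i z hz _ fun u => ?_
  rw [map_add, add_apply, H.r1 t i z hz, H.r2 t i z hz]
  simp

theorem J_sm (t : ℝ) (i : C.ι) : ContDiffOn ℝ ∞ (H.J t i) (C.e i).target :=
  slice_sm (H.jsJ i) t

theorem J_tr {j : C.ι} (hz : z ∈ C.ov i j) (v : V) :
    fderiv ℝ (C.t i j) z (H.J t i z v) = H.J t j (C.t i j z) (fderiv ℝ (C.t i j) z v) := by
  have hz' := (RCh.t_mem hz).1
  rw [← sub_eq_zero]
  refine H.nd t j _ hz' _ fun u => ?_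
  simp only [map_sub, sub_apply]
  rw [H.r1 t j _ hz']
  have e1 := (H.w1 t).tr i j z hz (H.J t i z v) (fderiv ℝ (C.t j i) (C.t i j z) u)
  have e2 := (H.w2 t).tr i j z hz v (fderiv ℝ (C.t j i) (C.t i j z) u)
  rw [RCh.dt_dt' hz] at e1 e2
  rw [← e1, ← e2, H.r1 t i z hz.1]
  simp

theorem nij (hz : z ∈ (C.e i).target) (v w : V) : Nij (H.J t i) z v w = 0 :=
  nij_zero (w₁ := (H.w1 t).w i) (w₂ := (H.w2 t).w i) (J := H.J t i) (C.e i).open_target
    (((H.w1 t).sm i).differentiableOn (by simp)) (((H.w2 t).sm i).differentiableOn (by simp))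
    ((H.J_sm t i).differentiableOn (by simp)) ((H.w1 t).alt i) ((H.w2 t).alt i)
    ((H.w1 t).closed i) ((H.w2 t).closed i) (H.r1 t i) (H.r2 t i) (H.nd t i) hz v w

/-- `η ∘ J` -/
def cF (t : ℝ) (η : F1 C) : F1 C where
  η i := cJ (η.η i) (H.J t i)
  sm i := (η.sm i).clm_comp (H.J_sm t i)
  tr i j z hz v := by
    rw [cJ_apply, cJ_apply, η.tr i j z hz, H.J_tr hz]

/-- sum of two 1-forms -/
def _root_.Crest.Agent.R281.Iso_139.addF (η θ : F1 C) : F1 C where
  η i z := η.η i z + θ.η i z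
  sm i := (η.sm i).add (θ.sm i)
  tr i j z hz v := by
    simp only [add_apply]
    rw [η.tr i j z hz, θ.tr i j z hz]

/-- `γ_t = β₁ ∘ J + β₂` -/
def gam (b1 b2 : ℝ → F1 C) (t : ℝ) : F1 C := addF (H.cF t (b1 t)) (b2 t)

theorem gam_js {b1 b2 : ℝ → F1 C} (h1 : JS1 b1) (h2 : JS1 b2) : JS1 (H.gam b1 b2) := fun i =>
  ((h1 i).clm_comp (H.jsJ i)).add (h2 i)

theorem gam_d {b1 b2 : ℝ → F1 C} (hz : z ∈ (C.e i).target) (u v : V) :
    d1 ((H.gam b1 b2 t).η i) z u v =
      d1 (cJ ((b1 t).η i) (H.J t i)) z u v + d1 ((b2 t).η i) z u v := by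
  have h1 := (F1dAt (H.cF t (b1 t)) hz).hasFDerivAt.add (F1dAt (b2 t) hz).hasFDerivAt
  have h2 : (H.gam b1 b2 t).η i = (H.cF t (b1 t)).η i + (b2 t).η i := rfl
  have h3 : (H.cF t (b1 t)).η i = cJ ((b1 t).η i) (H.J t i) := rfl
  simp only [d1a]
  rw [h2, h1.fderiv, ← h3]
  simp only [add_apply]
  ring

/-- `dγ_t` is `J_t`-invariant -/
theorem gam_inv {b1 b2 : ℝ → F1 C}
    (e1 : ∀ t i, ∀ z ∈ (C.e i).target, ∀ u v,
      HasDerivAt (fun s => (H.w1 s).w i z u v) (d1 ((b1 t).η i) z u v) t)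
    (e2 : ∀ t i, ∀ z ∈ (C.e i).target, ∀ u v,
      HasDerivAt (fun s => (H.w2 s).w i z u v) (d1 ((b2 t).η i) z u v) t)
    (hz : z ∈ (C.e i).target) (u v : V) :
    d1 ((H.gam b1 b2 t).η i) z (H.J t i z u) (H.J t i z v) =
      d1 ((H.gam b1 b2 t).η i) z u v := by
  have full : ∀ {w : ℝ → F2 C} {b : ℝ → F1 C}, JS2 w → (∀ t i, ∀ z ∈ (C.e i).target, ∀ u v,
      HasDerivAt (fun s => (w s).w i z u v) (d1 ((b t).η i) z u v) t) →
      HasDerivAt (fun s => (w s).w i z) (d1 ((b t).η i) z) t := by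
    intro w b hw hb
    have h1 := hd_t (t := t) (hw i) hz
    have h2 : fderiv ℝ (fun p : ℝ × V => (w p.1).w i p.2) (t, z) (1, 0) = d1 ((b t).η i) z := by
      ext u v
      have h3 := (h1.clm_apply (hasDerivAt_const t u)).clm_apply (hasDerivAt_const t v)
      have h4 := h3.unique (hb t i z hz u v)
      simpa using h4
    rwa [h2] at h1
  have h3 := type_dot (full H.js1 e1) (full H.js2 e2) (hd_t (t := t) (H.jsJ i) hz)
    (fun s u v => (H.w1 s).alt i z hz u v) (fun s u v => (H.w2 s).alt i z hz u v)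
    (fun s u v => H.r1 s i z hz u v) (fun s u v => H.r2 s i z hz u v) u v
  have h4 := d1_cJ (b := (b1 t).η i) (J := H.J t i) (C.e i).open_target
    (((b1 t).sm i).differentiableOn (by simp)) ((H.J_sm t i).differentiableOn (by simp))
    (fun z hz v => H.J_sq hz v) hz (fun v w => H.nij hz v w) u v
  rw [H.gam_d hz, H.gam_d hz]
  linarith

/-! ### the vector field -/

variable [FiniteDimensional ℝ V]

theorem bij (hz : z ∈ (C.e i).target) :
    ∃ E : V ≃L[ℝ] (V →L[ℝ] ℝ), (E : V →L[ℝ] (V →L[ℝ] ℝ)) = (H.w1 t).w i z := by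
  have hinj : Function.Injective ((H.w1 t).w i z) := by
    intro a b hab
    rw [← sub_eq_zero]
    refine H.nd t i z hz _ fun u => ?_
    rw [map_sub, hab, sub_self, zero_apply]
  have hfr : Module.finrank ℝ V = Module.finrank ℝ (V →L[ℝ] ℝ) := by
    rw [← (LinearMap.toContinuousLinearMap (𝕜 := ℝ) (E := V) (F' := ℝ)).finrank_eq]
    exact (Subspace.dual_finrank_eq (K := ℝ) (V := V)).symm
  have hb : Function.Bijective ((H.w1 t).w i z : V →ₗ[ℝ] (V →L[ℝ] ℝ)) :=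
    ⟨hinj, (LinearMap.injective_iff_surjective_of_finrank_eq_finrank hfr).1 hinj⟩
  refine ⟨(LinearEquiv.ofBijective _ hb).toContinuousLinearEquiv, ?_⟩
  ext v
  rfl

/-- `V_t = - w₁⁻¹ (β₁ - dp)` in the chart `i` -/
def bv (b1 : ℝ → F1 C) (p : ℝ → X → ℝ) (i : C.ι) (q : ℝ × V) : V :=
  -(((H.w1 q.1).w i q.2).inverse ((b1 q.1).η i q.2 - dX C (p q.1) i q.2))

theorem w1_bv (b1 : ℝ → F1 C) (p : ℝ → X → ℝ) (hz : z ∈ (C.e i).target) :
    (H.w1 t).w i z (H.bv b1 p i (t, z)) = -((b1 t).η i z - dX C (p t) i z) := by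
  obtain ⟨E, hE⟩ := H.bij (t := t) hz
  simp only [bv, ← hE, ContinuousLinearMap.inverse_equiv, map_neg]
  simp

theorem dX_tr (f : X → ℝ) (hf : ∀ i, ContDiffOn ℝ ∞ (fun z => f ((C.e i).symm z)) (C.e i).target)
    {i j : C.ι} {z : V} (hz : z ∈ C.ov i j) (v : V) :
    dX C f i z v = dX C f j (C.t i j z) (fderiv ℝ (C.t i j) z v) := by
  have hz' := (RCh.t_mem hz).1
  have h1 : (fun y => f ((C.e i).symm y)) =ᶠ[𝓝 z] fun y => f ((C.e j).symm (C.t i j y)) := by
    filter_upwards [(RCh.isOpen_ov i j).mem_nhds hz] with y hy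
    show f ((C.e i).symm y) = f ((C.e j).symm (C.e j ((C.e i).symm y)))
    rw [(C.e j).left_inv hy.2]
  have h2 : HasFDerivAt (fun y => f ((C.e j).symm y)) (dX C f j (C.t i j z)) (C.t i j z) :=
    (((hf j).contDiffAt ((C.e j).open_target.mem_nhds hz')).differentiableAt
      (by simp)).hasFDerivAt
  have h3 : HasFDerivAt (fun y => f ((C.e j).symm (C.t i j y)))
      ((dX C f j (C.t i j z)).comp (fderiv ℝ (C.t i j) z)) z :=
    HasFDerivAt.comp (g := fun y => f ((C.e j).symm y)) (f := C.t i j) z h2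
      (RCh.t_diff hz).hasFDerivAt
  rw [dX, h1.fderiv_eq, h3.fderiv]
  rfl

theorem js0_sl {p : ℝ → X → ℝ} (hp : JS0 C p) (t : ℝ) (i : C.ι) :
    ContDiffOn ℝ ∞ (fun z => p t ((C.e i).symm z)) (C.e i).target :=
  slice_sm (G := fun q : ℝ × V => p q.1 ((C.e i).symm q.2)) (hp i) t

/-- Moser's vector field -/
def bf (b1 : ℝ → F1 C) (h1 : JS1 b1) (p : ℝ → X → ℝ) (hp : JS0 C p) : TVF C where
  b := H.bv b1 p
  sm i := by
    intro q hq
    obtain ⟨t, z⟩ := q
    have hz : z ∈ (C.e i).target := hq.2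
    obtain ⟨E, hE⟩ := H.bij (t := t) hz
    have e1 : ContDiffAt ℝ ∞ (fun q : ℝ × V => (H.w1 q.1).w i q.2) (t, z) := cda (H.js1 i) hz
    have e2 : ContDiffAt ℝ ∞ (ContinuousLinearMap.inverse (R := ℝ) (M := V) (M₂ := V →L[ℝ] ℝ))
        ((H.w1 t).w i z) := by
      rw [← hE]
      have : CompleteSpace V := FiniteDimensional.complete ℝ V
      exact contDiffAt_map_inverse E
    have e3 : ContDiffAt ℝ ∞ (fun q : ℝ × V => ((H.w1 q.1).w i q.2).inverse) (t, z) :=
      ContDiffAt.comp (g := ContinuousLinearMap.inverse) (f := fun q : ℝ × V =>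
        (H.w1 q.1).w i q.2) (t, z) e2 e1
    have e4 : ContDiffAt ℝ ∞ (fun q : ℝ × V => (b1 q.1).η i q.2 - dX C (p q.1) i q.2) (t, z) :=
      (cda (h1 i) hz).sub (cda (dx_sm (hp i)) hz)
    exact ((e3.clm_apply e4).neg).contDiffWithinAt
  tr i j t z hz := by
    have hz' := (RCh.t_mem hz).1
    rw [← sub_eq_zero]
    refine H.nd t j _ hz' _ fun u => ?_
    rw [map_sub, sub_apply, H.w1_bv b1 p hz']
    have e0 := (H.w1 t).tr i j z hz (H.bv b1 p i (t, z)) (fderiv ℝ (C.t j i) (C.t i j z) u)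
    rw [RCh.dt_dt' hz] at e0
    rw [← e0, H.w1_bv b1 p hz.1]
    have e1 := (b1 t).tr i j z hz (fderiv ℝ (C.t j i) (C.t i j z) u)
    have e2 := dX_tr (p t) (js0_sl hp t) hz (fderiv ℝ (C.t j i) (C.t i j z) u)
    rw [RCh.dt_dt' hz] at e1 e2
    simp only [neg_apply, sub_apply]
    rw [e1, e2]
    ring

/-- `d d f = 0` -/
theorem d1_dX {f : X → ℝ} (hf : ∀ i, ContDiffOn ℝ ∞ (fun z => f ((C.e i).symm z)) (C.e i).target)
    (hz : z ∈ (C.e i).target) (u v : V) : d1 (dX C f i) z u v = 0 := by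
  have h1 : ContDiffAt ℝ ∞ (fun y => f ((C.e i).symm y)) z :=
    (hf i).contDiffAt ((C.e i).open_target.mem_nhds hz)
  have h2 := Dif_268.symm2 h1 u v
  rw [d1a]
  exact sub_eq_zero.2 h2

theorem d1_congr {f g : V → V →L[ℝ] ℝ} (h : f =ᶠ[𝓝 z] g) (u v : V) :
    d1 f z u v = d1 g z u v := by
  rw [d1a, d1a, h.fderiv_eq]

theorem d1_sub {f g : V → V →L[ℝ] ℝ} (hf : DifferentiableAt ℝ f z) (hg : DifferentiableAt ℝ g z)
    (u v : V) : d1 (fun y => f y - g y) z u v = d1 f z u v - d1 g z u v := by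
  have h : HasFDerivAt (fun y => f y - g y) (fderiv ℝ f z - fderiv ℝ g z) z :=
    hf.hasFDerivAt.sub hg.hasFDerivAt
  rw [d1a, d1a, d1a, h.fderiv]
  simp only [sub_apply]
  ring

theorem d1_negsub {f g : V → V →L[ℝ] ℝ} (hf : DifferentiableAt ℝ f z)
    (hg : DifferentiableAt ℝ g z) (u v : V) :
    d1 (fun y => -(f y - g y)) z u v = -(d1 f z u v - d1 g z u v) := by
  have h : HasFDerivAt (fun y => -(f y - g y)) (-(fderiv ℝ f z - fderiv ℝ g z)) z :=
    (hf.hasFDerivAt.sub hg.hasFDerivAt).neg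
  rw [d1a, d1a, d1a, h.fderiv]
  simp only [neg_apply, sub_apply]
  ring

variable [CompleteSpace V] [CompactSpace X] [T2Space X]

/-- **Moser's isotopy**, abstract form: `∂_t w_k = dβ_k`, `dγ_t = d(dp_t ∘ J_t)` -/
theorem iso {b1 b2 : ℝ → F1 C} (h1 : JS1 b1)
    (e1 : ∀ t i, ∀ z ∈ (C.e i).target, ∀ u v,
      HasDerivAt (fun s => (H.w1 s).w i z u v) (d1 ((b1 t).η i) z u v) t)
    (e2 : ∀ t i, ∀ z ∈ (C.e i).target, ∀ u v,
      HasDerivAt (fun s => (H.w2 s).w i z u v) (d1 ((b2 t).η i) z u v) t)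
    {p : ℝ → X → ℝ} (hp : JS0 C p)
    (hd : ∀ t i, ∀ z ∈ (C.e i).target, ∀ u v,
      d1 ((H.gam b1 b2 t).η i) z u v = d1 (cJ (dX C (p t) i) (H.J t i)) z u v) (s t : ℝ) :
    Eqv (((H.bf b1 h1 p hp).flS s t).pull (H.w1 t)) (H.w1 s) ∧
      Eqv (((H.bf b1 h1 p hp).flS s t).pull (H.w2 t)) (H.w2 s) := by
  have hdX : ∀ t i, ∀ z ∈ (C.e i).target, DifferentiableAt ℝ (dX C (p t) i) z := by
    intro t i z hz
    have h2 : ContDiffOn ℝ ∞ (fderiv ℝ (fun y => p t ((C.e i).symm y))) (C.e i).target :=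
      (js0_sl hp t i).fderiv_of_isOpen (C.e i).open_target (by simp)
    exact (h2.contDiffAt ((C.e i).open_target.mem_nhds hz)).differentiableAt (by simp)
  constructor
  · refine TVF.moser _ _ (fun i => (H.js1 i).differentiableOn (by simp)) ?_ s t
    intro i t z hz u v
    rw [(e1 t i z hz u v).deriv]
    have h2 : dι ((H.w1 t).w i) (fun y => (H.bf b1 h1 p hp).b i (t, y)) z u v =
        d1 (fun y => (H.w1 t).w i y (H.bv b1 p i (t, y))) z u v := rfl
    have h3 : (fun y => (H.w1 t).w i y (H.bv b1 p i (t, y))) =ᶠ[𝓝 z]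
        fun y => -((b1 t).η i y - dX C (p t) i y) := by
      filter_upwards [(C.e i).open_target.mem_nhds hz] with y hy using H.w1_bv b1 p hy
    rw [h2, d1_congr h3, d1_negsub (F1dAt _ hz) (hdX t i z hz), d1_dX (js0_sl hp t) hz]
    ring
  · refine TVF.moser _ _ (fun i => (H.js2 i).differentiableOn (by simp)) ?_ s t
    intro i t z hz u v
    rw [(e2 t i z hz u v).deriv]
    have h2 : dι ((H.w2 t).w i) (fun y => (H.bf b1 h1 p hp).b i (t, y)) z u v =
        d1 (fun y => (H.w2 t).w i y (H.bv b1 p i (t, y))) z u v := rfl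
    have h3 : (fun y => (H.w2 t).w i y (H.bv b1 p i (t, y))) =ᶠ[𝓝 z]
        fun y => cJ ((b1 t).η i) (H.J t i) y - cJ (dX C (p t) i) (H.J t i) y := by
      filter_upwards [(C.e i).open_target.mem_nhds hz] with y hy
      ext v
      have e0 : (H.w2 t).w i y (H.bv b1 p i (t, y)) v =
          -((H.w1 t).w i y (H.bv b1 p i (t, y)) (H.J t i y v)) := by
        have := H.r1 t i y hy v (H.bv b1 p i (t, y))
        rw [(H.w1 t).alt i y hy, (H.w2 t).alt i y hy v] at this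
        linarith
      rw [e0, H.w1_bv b1 p hy]
      simp
    have h4 : DifferentiableAt ℝ (cJ ((b1 t).η i) (H.J t i)) z := F1dAt (H.cF t (b1 t)) hz
    have h5 : DifferentiableAt ℝ (cJ (dX C (p t) i) (H.J t i)) z := by
      have hJd : DifferentiableAt ℝ (H.J t i) z :=
        ((H.J_sm t i).contDiffAt ((C.e i).open_target.mem_nhds hz)).differentiableAt (by simp)
      exact ((hdX t i z hz).hasFDerivAt.clm_comp hJd.hasFDerivAt).differentiableAt
    rw [h2, d1_congr h3, d1_sub h4 h5, ← hd t i z hz, H.gam_d hz]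
    ring

end HSF

end

end Crest.Agent.R281.Iso_139
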