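import Crest.Agent.R281.HKA1_799
import Crest.Agent.R281.FujP_513

/-!
# Row 281, ISO-Q, part 1 (helper358): second order expansion of a natural top degree product

`I` a symmetric natural multilinear functional of `N` bilinear forms, `r` a form, `B` an
`r`-selfadjoint endomorphism, `w = r (B ., .)`.

* `first`  : `N I(w, r, …, r) = (1/2) tr B I(r, …, r)`
* `second` : if `B` anticommutes with some `J`, `J² = -1`:
  `C(N,2) I(w, w, r, …, r) = -(1/4) tr (B²) I(r, …, r)`, `I(w, r, …, r) = 0`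
-/

set_option autoImplicit false
set_option maxSynthPendingDepth 3
set_option linter.unusedSectionVars false

open Polynomial

namespace Crest.Agent.R281.Isq1_358

open Crest.Agent.R281.HKA_799 Crest.Agent.R281.FujP_513 Crest.Agent.R281.FujR_513

noncomputable section

section det

variable {V : Type*} [AddCommGroup V] [Module ℝ V] [FiniteDimensional ℝ V]

/-- `det (1 + t B) = 1 + t tr B + t² q(t)` -/
theorem det_poly (B : V →ₗ[ℝ] V) : ∃ q : ℝ[X], ∀ t : ℝ,
    LinearMap.det (1 + t • B) = 1 + LinearMap.trace ℝ V B * t + q.eval t * t ^ 2 := by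
  set b := Module.finBasis ℝ V
  refine ⟨(Matrix.det (1 + (X : ℝ[X]) • (LinearMap.toMatrix b b B).map C)).divX.divX,
    fun t => ?_⟩
  rw [LinearMap.trace_eq_matrix_trace ℝ b, ← Matrix.det_one_add_smul, ← LinearMap.det_toMatrix b]
  congr 1
  rw [map_add, map_smul]
  congr 1
  exact LinearMap.toMatrix_one b

/-- traces of `B` and the second coefficient if `B` anticommutes with `J` -/
theorem anti {B J : V →ₗ[ℝ] V} (hJ : J * J = -1) (hB : J * B = -(B * J)) {q : ℝ[X]}
    (hq : ∀ t : ℝ, LinearMap.det (1 + t • B) = 1 + LinearMap.trace ℝ V B * t + q.eval t * t ^ 2) :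
    LinearMap.trace ℝ V B = 0 ∧ q.coeff 0 = -(1 / 2) * LinearMap.trace ℝ V (B * B) := by
  have h0 : LinearMap.trace ℝ V B = 0 := by
    have h1 : LinearMap.trace ℝ V B = -LinearMap.trace ℝ V B := by
      have e : B = J * (B * J) := by
        rw [← mul_assoc, hB, neg_mul, mul_assoc, hJ]; simp
      conv_lhs => rw [e, LinearMap.trace_mul_comm, mul_assoc, hJ]
      simp
    linarith
  refine ⟨h0, ?_⟩
  have hdJ : LinearMap.det J ≠ 0 := by
    intro h
    have h1 := congrArg LinearMap.det hJ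
    rw [map_mul, h, mul_zero] at h1
    have h2 : (-1 : V →ₗ[ℝ] V) = (-1 : ℝ) • (1 : V →ₗ[ℝ] V) := by simp
    rw [h2, LinearMap.det_smul, map_one, mul_one] at h1
    exact absurd h1.symm (pow_ne_zero _ (by norm_num))
  have heven : ∀ t : ℝ, LinearMap.det (1 + (-t) • B) = LinearMap.det (1 + t • B) := by
    intro t
    have h1 : J * (1 + (-t) • B) = (1 + t • B) * J := by
      rw [mul_add, add_mul, mul_one, one_mul, mul_smul_comm, smul_mul_assoc, hB]
      simp
    have h2 := congrArg LinearMap.det h1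
    rw [map_mul, map_mul, mul_comm] at h2
    exact mul_right_cancel₀ hdJ h2
  obtain ⟨q', hq'⟩ := det_poly (B * B)
  have hsq : ∀ t : ℝ, (1 + q.eval t * t ^ 2) ^ 2 =
      1 - LinearMap.trace ℝ V (B * B) * t ^ 2 + q'.eval (-t ^ 2) * t ^ 4 := by
    intro t
    have h1 : (1 + t • B) * (1 + (-t) • B) = 1 + (-t ^ 2) • (B * B) := by
      rw [mul_add, add_mul, add_mul, one_mul, one_mul, mul_one, smul_mul_assoc, mul_smul_comm,
        smul_smul]
      have : t * -t = -t ^ 2 := by ring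
      rw [this]
      module
    have h2 := congrArg LinearMap.det h1
    rw [map_mul, heven, hq, hq', h0] at h2
    rw [← sub_eq_zero]
    linear_combination h2
  have hp : (1 + q * X ^ 2) ^ 2 =
      (1 - C (LinearMap.trace ℝ V (B * B)) * X ^ 2 + q'.comp (-X ^ 2) * X ^ 4 : ℝ[X]) := by
    refine Polynomial.funext fun t => ?_
    simpa [eval_comp] using hsq t
  have h3 := congrArg (fun p : ℝ[X] => p.coeff 2) hp
  have e1 : (1 + q * X ^ 2) ^ 2 = 1 + (C 2 * q) * X ^ 2 + (q ^ 2 * X ^ 2) * X ^ 2 := by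
    have : (C 2 : ℝ[X]) = 2 := rfl
    rw [this]; ring
  have e2 : q'.comp (-X ^ 2) * X ^ 4 = (q'.comp (-X ^ 2) * X ^ 2) * X ^ 2 := by ring
  simp only [e1, e2] at h3
  have k : ∀ p : ℝ[X], (p * X ^ 2).coeff 2 = p.coeff 0 := fun p => by
    have := coeff_mul_X_pow p 2 0
    simpa using this
  have k0 : ∀ p : ℝ[X], (p * X ^ 2).coeff 0 = 0 := fun p => by
    rw [mul_coeff_zero]; simp
  rw [coeff_add, coeff_add, coeff_add, coeff_sub, k, k, k, k, k0, k0, coeff_C_mul] at h3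
  simp only [coeff_one, coeff_C_zero] at h3
  norm_num at h3
  linarith

end det

section expand

variable {H : Type*} [AddCommGroup H] [Module ℝ H]

/-- mixed values are polynomial on lines in the repeated entry -/
theorem mix_polyL {k : ℕ} (T : MultilinearMap ℝ (fun _ : Fin k => H) ℝ) {a : ℕ} (ha : a ≤ k)
    (z : H) : PolyL (fun x => T (mixv k a x z)) := by
  obtain ⟨m, rfl⟩ : ∃ m, k = m + a := ⟨k - a, by omega⟩
  intro x y
  obtain ⟨p, hp⟩ := PolyL.multilinear (fixl z m a T) x y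
  refine ⟨p, fun s => ?_⟩
  rw [← hp s]
  show _ = fixl z m a T (fun _ => x + s • y)
  rw [fixl_apply, fixv_diag]

/-- coefficients of `t` and `t²` in `T (r + t w + t² z)` -/
theorem coeffs {k : ℕ} {T : MultilinearMap ℝ (fun _ : Fin k => H) ℝ} (hT : Symm T) (hk : 2 ≤ k)
    (r w z : H) {D : ℝ[X]} (hD : ∀ t : ℝ, T (fun _ => r + t • w + t ^ 2 • z) = D.eval t) :
    (k : ℝ) * T (mixv k 1 r w) = D.coeff 1 ∧
      (k.choose 2 : ℝ) * T (mixv k 2 r w) + (k : ℝ) * T (mixv k 1 r z) = D.coeff 2 := by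
  have hp : ∀ a : ℕ, ∃ p : ℝ[X], a ≤ k → ∀ t : ℝ, T (mixv k a (r + t • w) z) = p.eval t := by
    intro a
    by_cases ha : a ≤ k
    · obtain ⟨p, hp⟩ := mix_polyL T ha z r w
      exact ⟨p, fun _ => hp⟩
    · exact ⟨0, fun h => absurd h ha⟩
  choose p hp using hp
  have hsum : (∑ a ∈ Finset.range (k + 1), C (k.choose a : ℝ) * X ^ (2 * a) * p a : ℝ[X]) = D := by
    refine Polynomial.funext fun t => ?_
    rw [← hD t, hT.expand, eval_finsetSum]
    refine Finset.sum_congr rfl fun a ha => ?_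
    rw [hp a (Nat.lt_succ_iff.1 (Finset.mem_range.1 ha)) t]
    simp only [eval_mul, eval_C, eval_pow, eval_X, pow_mul]
  have h0 : ∀ a ≤ k, (k.choose a : ℝ) * T (mixv k a r w) = (p 0).coeff a := by
    refine coeff_of_expand (fun a => (k.choose a : ℝ) * T (mixv k a r w)) (p 0) fun t => ?_
    rw [← hp 0 (Nat.zero_le _) t]
    have e : mixv k 0 (r + t • w) z = fun _ => r + t • w := by
      funext i; simp [mixv]
    rw [e, hT.expand]
    exact Finset.sum_congr rfl fun a _ => by ring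
  have h1 : (p 1).coeff 0 = T (mixv k 1 r z) := by
    rw [coeff_zero_eq_eval_zero, ← hp 1 (by omega) 0]
    simp
  have hc : ∀ j ≤ 2, D.coeff j = ∑ a ∈ Finset.range (k + 1),
      (C (k.choose a : ℝ) * X ^ (2 * a) * p a : ℝ[X]).coeff j := by
    intro j _
    rw [← hsum, finsetSum_coeff]
  have hz : ∀ a ≥ 2, ∀ j ≤ 2, (C (k.choose a : ℝ) * X ^ (2 * a) * p a : ℝ[X]).coeff j = 0 := by
    intro a ha j hj
    rw [mul_assoc, coeff_C_mul, mul_comm (X ^ (2 * a)), coeff_mul_X_pow', if_neg (by omega),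
      mul_zero]
  obtain ⟨k', rfl⟩ : ∃ k', k = k' + 2 := ⟨k - 2, by omega⟩
  have hs : ∀ j ≤ 2, D.coeff j =
      (C ((k' + 2).choose 0 : ℝ) * X ^ (2 * 0) * p 0 : ℝ[X]).coeff j +
      (C ((k' + 2).choose 1 : ℝ) * X ^ (2 * 1) * p 1 : ℝ[X]).coeff j := by
    intro j hj
    rw [hc j hj, Finset.sum_range_succ', Finset.sum_range_succ']
    rw [Finset.sum_eq_zero fun a _ => hz (a + 1 + 1) (by omega) j hj]
    ring
  constructor
  · have h2 := h0 1 (by omega)
    have h3 := hs 1 (by omega)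
    rw [h3]
    have e1 : (C ((k' + 2).choose 1 : ℝ) * X ^ (2 * 1) * p 1 : ℝ[X]).coeff 1 = 0 := by
      rw [mul_assoc, coeff_C_mul, mul_comm (X ^ (2 * 1)), coeff_mul_X_pow', if_neg (by omega),
        mul_zero]
    rw [e1, add_zero]
    simp only [Nat.choose_zero_right, Nat.cast_one, C_1, mul_zero, pow_zero, one_mul]
    rw [← h2]
    simp
  · have h2 := h0 2 (by omega)
    have h3 := hs 2 le_rfl
    rw [h3]
    have e1 : (C ((k' + 2).choose 1 : ℝ) * X ^ (2 * 1) * p 1 : ℝ[X]).coeff 2 =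
        ((k' + 2 : ℕ) : ℝ) * (p 1).coeff 0 := by
      rw [mul_assoc, coeff_C_mul, mul_comm (X ^ (2 * 1)), coeff_mul_X_pow', if_pos (by omega)]
      simp
    rw [e1, h1]
    simp only [Nat.choose_zero_right, Nat.cast_one, C_1, mul_zero, pow_zero, one_mul]
    rw [← h2]

end expand

/-! ### natural functionals -/

section nat

variable {V : Type*} [NormedAddCommGroup V] [NormedSpace ℝ V] [FiniteDimensional ℝ V]
  {N : ℕ} {I : MultilinearMap ℝ (fun _ : Fin N => HKA_799.Bil V) ℝ}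

/-- the value along the family `T = 1 + (t/2) B` -/
theorem value (hI : HKA_799.Nat (fun w => I w)) {r : HKA_799.Bil V} {B : V →L[ℝ] V}
    (hB : ∀ u v, r (B u) v = r u (B v)) (t : ℝ) :
    I (fun _ => r + t • r.comp B + t ^ 2 • ((1 / 4 : ℝ) • r.comp (B.comp B))) =
      LinearMap.det (1 + (t / 2) • (B : V →ₗ[ℝ] V)) * I (fun _ => r) := by
  have h := hI (ContinuousLinearMap.id ℝ V + (t / 2) • B) (fun _ => r)
    (fun _ => r + t • r.comp B + t ^ 2 • ((1 / 4 : ℝ) • r.comp (B.comp B))) (by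
      intro k u v
      simp only [add_apply, smul_apply, ContinuousLinearMap.comp_apply,
        ContinuousLinearMap.id_apply, map_add, map_smul, smul_eq_mul]
      rw [hB u (B v), hB (B u) v, ← hB u v]
      rw [← hB (B u) v, ← hB u (B v), ← hB (B u) v]
      ring)
  have e : ((ContinuousLinearMap.id ℝ V + (t / 2) • B : V →L[ℝ] V) : V →ₗ[ℝ] V) =
      1 + (t / 2) • (B : V →ₗ[ℝ] V) := by
    ext u; simp
  rw [← e]
  exact h

/-- **first order** -/
theorem first (hS : Symm I) (hI : HKA_799.Nat (fun w => I w)) (hN : 2 ≤ N) {r : HKA_799.Bil V}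
    {B : V →L[ℝ] V} (hB : ∀ u v, r (B u) v = r u (B v)) :
    (N : ℝ) * I (mixv N 1 r (r.comp B)) =
      1 / 2 * LinearMap.trace ℝ V (B : V →ₗ[ℝ] V) * I (fun _ => r) := by
  obtain ⟨q, hq⟩ := det_poly (B : V →ₗ[ℝ] V)
  have h := (coeffs hS hN r (r.comp B) ((1 / 4 : ℝ) • r.comp (B.comp B))
    (D := C (I fun _ => r) * (1 + C (1 / 2 * LinearMap.trace ℝ V (B : V →ₗ[ℝ] V)) * X +
      (C (1 / 4) * q.comp (C (1 / 2) * X)) * X ^ 2)) (by
      intro t
      rw [value hI hB t, hq]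
      simp only [eval_mul, eval_add, eval_C, eval_X, eval_pow, eval_comp, eval_one]
      have : t / 2 = 1 / 2 * t := by ring
      rw [this]
      ring)).1
  rw [h, coeff_C_mul, coeff_add, coeff_add, coeff_mul_X_pow', if_neg (by omega)]
  simp only [coeff_one, coeff_C_mul, coeff_X_one]
  norm_num
  ring

/-- **second order**, for `B` anticommuting with a complex structure -/
theorem second (hS : Symm I) (hI : HKA_799.Nat (fun w => I w)) (hN : 2 ≤ N) {r : HKA_799.Bil V}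
    {B J : V →L[ℝ] V} (hB : ∀ u v, r (B u) v = r u (B v)) (hJ : ∀ u, J (J u) = -u)
    (hJB : ∀ u, J (B u) = -B (J u)) :
    I (mixv N 1 r (r.comp B)) = 0 ∧ (N.choose 2 : ℝ) * I (mixv N 2 r (r.comp B)) =
      -(1 / 4) * LinearMap.trace ℝ V ((B.comp B : V →L[ℝ] V) : V →ₗ[ℝ] V) * I (fun _ => r) := by
  obtain ⟨q, hq⟩ := det_poly (B : V →ₗ[ℝ] V)
  have hJ' : (J : V →ₗ[ℝ] V) * (J : V →ₗ[ℝ] V) = -1 := by
    ext u; simp [hJ]
  have hJB' : (J : V →ₗ[ℝ] V) * (B : V →ₗ[ℝ] V) = -((B : V →ₗ[ℝ] V) * (J : V →ₗ[ℝ] V)) := by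
    ext u; simp [hJB]
  obtain ⟨ht, hq0⟩ := anti hJ' hJB' hq
  have e : (B : V →ₗ[ℝ] V) * (B : V →ₗ[ℝ] V) = ((B.comp B : V →L[ℝ] V) : V →ₗ[ℝ] V) := by
    ext u; simp
  rw [e] at hq0
  have h1 := first hS hI hN hB
  rw [ht] at h1
  have hN0 : (N : ℝ) ≠ 0 := by positivity
  have h1' : I (mixv N 1 r (r.comp B)) = 0 := by
    have : (N : ℝ) * I (mixv N 1 r (r.comp B)) = 0 := by rw [h1]; ring
    exact (mul_eq_zero.1 this).resolve_left hN0
  refine ⟨h1', ?_⟩
  have hBB : ∀ u v, r ((B.comp B) u) v = r u ((B.comp B) v) := by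
    intro u v
    simp only [ContinuousLinearMap.comp_apply]
    rw [hB, hB]
  have h2 := first hS hI hN hBB
  obtain ⟨τ, hτ⟩ : ∃ τ, τ = LinearMap.trace ℝ V ((B.comp B : V →L[ℝ] V) : V →ₗ[ℝ] V) := ⟨_, rfl⟩
  rw [← hτ] at hq0 h2 ⊢
  have h := (coeffs hS hN r (r.comp B) ((1 / 4 : ℝ) • r.comp (B.comp B))
    (D := C (I fun _ => r) * (1 + C (1 / 2 * LinearMap.trace ℝ V (B : V →ₗ[ℝ] V)) * X +
      (C (1 / 4) * q.comp (C (1 / 2) * X)) * X ^ 2)) (by
      intro t
      rw [value hI hB t, hq]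
      simp only [eval_mul, eval_add, eval_C, eval_X, eval_pow, eval_comp, eval_one]
      have : t / 2 = 1 / 2 * t := by ring
      rw [this]
      ring)).2
  have e3 : I (mixv N 1 r ((1 / 4 : ℝ) • r.comp (B.comp B))) =
      1 / 4 * I (mixv N 1 r (r.comp (B.comp B))) := by
    obtain ⟨k, rfl⟩ : ∃ k, N = k + 1 := ⟨N - 1, by omega⟩
    rw [mixv_one, mixv_one, ← MultilinearMap.curryLeft_apply, ← MultilinearMap.curryLeft_apply,
      map_smul]
    rfl
  rw [e3, coeff_C_mul, coeff_add, coeff_add, coeff_mul_X_pow', if_pos (le_refl 2)] at h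
  have e4 : (q.comp (C (1 / 2) * X)).coeff 0 = q.coeff 0 := by
    rw [coeff_zero_eq_eval_zero, eval_comp, coeff_zero_eq_eval_zero]
    simp
  have e5 : (C (1 / 2 * LinearMap.trace ℝ V (B : V →ₗ[ℝ] V)) * X : ℝ[X]).coeff 2 = 0 := by
    rw [coeff_C_mul, coeff_X]; simp
  rw [e5, Nat.sub_self, coeff_C_mul, e4, hq0] at h
  simp only [coeff_one] at h
  norm_num at h
  have h3 : (N : ℝ) * (1 / 4 * I (mixv N 1 r (r.comp (B.comp B)))) =
      1 / 4 * (1 / 2 * τ * I (fun _ => r)) := by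
    rw [← h2]; ring
  linarith

end nat

end

end Crest.Agent.R281.Isq1_358
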