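import Crest.Agent.R281.Isq1_358
import Crest.Agent.R281.HkR8_835
import Crest.Agent.R281.Ti6_846

/-!
# Row 281, ISO-Q, part 2 (helper358): the isotropy density in coordinates

`S` antisymmetric invertible, `G` Hermitian matrices, `r = Re (S u v)`, `w = Re (i G u v̄)`:
for every natural symmetric multilinear `I` of `N ≥ 2` bilinear forms on `Cn d`:
`I (w, r, …, r) = 0`, `C(N,2) I (w, w, r, …, r) = -(1/2) Re tr (S⁻¹ G S̄⁻¹ Gᵀ) I (r, …, r)`.
-/

set_option autoImplicit false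
set_option maxSynthPendingDepth 3
set_option linter.unusedSectionVars false

open Complex
open scoped Matrix ComplexConjugate

namespace Crest.Agent.R281.Isq2_358

open Crest.Agent.R275.Geo Crest.Agent.R275.Core144 Crest.Agent.R275.EDR890
open Crest.Agent.R273.Kah_333
open Crest.Agent.R281.HkR_835 Crest.Agent.R281.Ti_846 Crest.Agent.R281.FujP_513
open Crest.Agent.R281.Isq1_358 Crest.Agent.R281.Defs_273

noncomputable section

variable {d : ℕ}

/-! ### the real trace of a complex matrix -/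

/-- coordinates in the basis `bc` -/
theorem bc_repr (v : Cn d) (a : Fin d) :
    (bc d).repr v (a, 0) = (v a).re ∧ (bc d).repr v (a, 1) = (v a).im := by
  set c : Fin d × Fin 2 → ℝ := fun p => if p.2 = 0 then (v p.1).re else (v p.1).im with hc
  have h1 : v = ∑ p, c p • bc d p := by
    ext b
    simp only [WithLp.ofLp_sum, WithLp.ofLp_smul, Finset.sum_apply, Pi.smul_apply, bc_apply]
    rw [Fintype.sum_prod_type]
    rw [Finset.sum_eq_single b]
    · simp only [Fin.sum_univ_two, hc, Zc, if_true, real_smul]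
      simp [Complex.re_add_im]
    · intro a' _ hab
      simp [Zc, Ne.symm hab]
    · intro h; exact absurd (Finset.mem_univ b) h
  have h2 : ⇑((bc d).repr v) = c := by
    have h3 := (bc d).repr_sum_self c
    rw [← h3]
    exact congrArg (fun x => ⇑((bc d).repr x)) h1
  rw [h2]
  simp [hc]

theorem trace_mL (P : Matrix (Fin d) (Fin d) ℂ) :
    LinearMap.trace ℝ (Cn d) ((mL P : Cn d →L[ℝ] Cn d) : Cn d →ₗ[ℝ] Cn d) = 2 * (P.trace).re := by
  rw [LinearMap.trace_eq_matrix_trace ℝ (bc d), Matrix.trace, Fintype.sum_prod_type]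
  rw [Matrix.trace, Complex.re_sum, Finset.mul_sum]
  refine Finset.sum_congr rfl fun a _ => ?_
  rw [Fin.sum_univ_two]
  simp only [Matrix.diag_apply, LinearMap.toMatrix_apply]
  rw [(bc_repr _ a).1, (bc_repr _ a).2, bc_zero, bc_one]
  have e1 : ((mL P : Cn d →L[ℝ] Cn d) (EuclideanSpace.single a (1 : ℂ))) a = P a a := by
    rw [mL_apply]; simp
  have e2 : ((mL P : Cn d →L[ℝ] Cn d) (EuclideanSpace.single a I)) a = P a a * I := by
    rw [mL_apply]; simp
  show (((mL P : Cn d →L[ℝ] Cn d) (EuclideanSpace.single a (1 : ℂ))) a).re +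
    (((mL P : Cn d →L[ℝ] Cn d) (EuclideanSpace.single a I)) a).im = _
  rw [e1, e2]
  simp
  ring

/-! ### the endomorphism -/

/-- `u ↦ i S⁻¹ G ū` -/
def BG (S G : Matrix (Fin d) (Fin d) ℂ) : Cn d →L[ℝ] Cn d := iL.comp ((mL (S⁻¹ * G)).comp cL)

/-- `Re (S u v)` -/
def rS (S : Matrix (Fin d) (Fin d) ℂ) : Bil (Cn d) := bM (cL.comp (mL Sᵀ))

theorem rS_apply (S : Matrix (Fin d) (Fin d) ℂ) (u v : Cn d) : rS S u v = (sb S u v).re :=
  bM_cL S u v

/-- `Re (i G u v̄)` -/
def wG (G : Matrix (Fin d) (Fin d) ℂ) : Bil (Cn d) := bM ((mL Gᵀ).comp iL)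

theorem wG_apply {G : Matrix (Fin d) (Fin d) ℂ} (hG : G.IsHermitian) (u v : Cn d) :
    wG G u v = (I * hb G u v).re := bM_mL_iL hG u v

theorem BG_anti (S G : Matrix (Fin d) (Fin d) ℂ) (u : Cn d) : iL (BG S G u) = -BG S G (iL u) := by
  simp only [BG, ContinuousLinearMap.comp_apply, iL_apply, cL_I, map_neg, mL_I]
  simp

theorem iL_sq (u : Cn d) : iL (iL u) = -u := by
  simp only [iL_apply, smul_smul, Complex.I_mul_I]
  simp

theorem BG_BG (S G : Matrix (Fin d) (Fin d) ℂ) (u : Cn d) :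
    BG S G (BG S G u) = mL ((S⁻¹ * G) * (S⁻¹ * G).map conj) u := by
  simp only [BG, ContinuousLinearMap.comp_apply, iL_apply]
  rw [cL_I, cL_mL, cL_cL, map_neg, mL_I, mL_mL, smul_neg, smul_smul, Complex.I_mul_I]
  simp

theorem rS_BG {S G : Matrix (Fin d) (Fin d) ℂ} (hS : Sᵀ = -S) (hdet : S.det ≠ 0)
    (hG : G.IsHermitian) (u v : Cn d) : rS S (BG S G u) v = wG G u v := by
  rw [rS_apply, wG_apply hG]
  have hS' : IsUnit S.det := isUnit_iff_ne_zero.2 hdet
  have h1 : sb S (BG S G u) v = conj (I * hb G u v) := by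
    rw [map_mul, hb_conj hG, Complex.conj_I]
    rw [sb_eq_dot, hb_eq_dot]
    have e1 : (BG S G u).ofLp = I • ((S⁻¹ * G) *ᵥ (fun b => conj (u b))) := by
      funext a
      show I * _ = _
      rfl
    have e2 : ((S⁻¹ * G) *ᵥ (fun b => conj (u b))) ᵥ* S = -(G *ᵥ (fun b => conj (u b))) := by
      rw [← Matrix.mulVec_transpose, hS, Matrix.neg_mulVec, Matrix.mulVec_mulVec,
        ← Matrix.mul_assoc, Matrix.mul_nonsing_inv _ hS', Matrix.one_mul]
    rw [e1, smul_dotProduct, Matrix.dotProduct_mulVec, e2, neg_dotProduct, dotProduct_comm,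
      smul_eq_mul]
    ring
  rw [h1, Complex.conj_re]

theorem wG_alt {G : Matrix (Fin d) (Fin d) ℂ} (hG : G.IsHermitian) (u v : Cn d) :
    wG G u v = -wG G v u := by
  rw [wG_apply hG, wG_apply hG, ← hb_conj hG u v]
  simp

theorem BG_adj {S G : Matrix (Fin d) (Fin d) ℂ} (hS : Sᵀ = -S) (hdet : S.det ≠ 0)
    (hG : G.IsHermitian) (u v : Cn d) : rS S (BG S G u) v = rS S u (BG S G v) := by
  have h1 : rS S u (BG S G v) = -rS S (BG S G v) u := by
    rw [rS_apply, rS_apply, sb_alt hS]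
    simp
  rw [h1, rS_BG hS hdet hG, rS_BG hS hdet hG, wG_alt hG]

theorem map_conj_inv (S : Matrix (Fin d) (Fin d) ℂ) : (S⁻¹).map conj = (S.map conj)⁻¹ := by
  have h1 : ∀ P : Matrix (Fin d) (Fin d) ℂ, P.map conj = Pᴴᵀ := by
    intro P; ext a b; simp
  rw [h1, h1, Matrix.conjTranspose_nonsing_inv, Matrix.transpose_nonsing_inv]

theorem herm_map {G : Matrix (Fin d) (Fin d) ℂ} (hG : G.IsHermitian) : G.map conj = Gᵀ := by
  ext a b
  have := congrFun (congrFun hG.eq b) a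
  simpa [Matrix.conjTranspose_apply] using this

/-- the trace of `B²` -/
theorem trace_BG {S G : Matrix (Fin d) (Fin d) ℂ} (hG : G.IsHermitian) :
    LinearMap.trace ℝ (Cn d) (((BG S G).comp (BG S G) : Cn d →L[ℝ] Cn d) : Cn d →ₗ[ℝ] Cn d) =
      2 * ((S⁻¹ * G * (S.map conj)⁻¹ * Gᵀ).trace).re := by
  have h1 : (BG S G).comp (BG S G) = mL ((S⁻¹ * G) * (S⁻¹ * G).map conj) := by
    ext1 u
    exact BG_BG S G u
  rw [h1, trace_mL]
  congr 3
  have h2 : (S⁻¹ * G).map conj = (S⁻¹).map conj * G.map conj := by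
    rw [Matrix.map_mul]
  rw [h2, map_conj_inv, herm_map hG, ← Matrix.mul_assoc]

/-- the trace is real -/
theorem trace_real {S G : Matrix (Fin d) (Fin d) ℂ} (hG : G.IsHermitian) :
    ((S⁻¹ * G * (S.map conj)⁻¹ * Gᵀ).trace).im = 0 := by
  have h1 : conj ((S⁻¹ * G * (S.map conj)⁻¹ * Gᵀ).trace) =
      (S⁻¹ * G * (S.map conj)⁻¹ * Gᵀ).trace := by
    have e : conj ((S⁻¹ * G * (S.map conj)⁻¹ * Gᵀ).trace) =
        ((S⁻¹ * G * (S.map conj)⁻¹ * Gᵀ).map conj).trace := by
      rw [Matrix.trace, Matrix.trace, map_sum]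
      rfl
    have hGG : (Gᵀ).map conj = G := by
      ext a b
      have := congrFun (congrFun hG.eq a) b
      simpa [Matrix.conjTranspose_apply] using this
    have hSS : ((S.map conj)⁻¹).map conj = S⁻¹ := by
      rw [map_conj_inv]
      congr 1
      ext a b; simp
    rw [e, Matrix.map_mul, Matrix.map_mul, Matrix.map_mul, map_conj_inv, herm_map hG, hGG, hSS,
      Matrix.mul_assoc ((S.map conj)⁻¹ * Gᵀ), Matrix.trace_mul_comm, ← Matrix.mul_assoc]
  have h2 := congrArg Complex.im h1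
  rw [Complex.conj_im] at h2
  linarith

/-! ### the pointwise identities -/

variable {N : ℕ} {J : MultilinearMap ℝ (fun _ : Fin N => HKA_799.Bil (Cn d)) ℝ}

theorem w_eq {S G : Matrix (Fin d) (Fin d) ℂ} (hS : Sᵀ = -S) (hdet : S.det ≠ 0)
    (hG : G.IsHermitian) : (rS S).comp (BG S G) = wG G := by
  ext u v
  exact rS_BG hS hdet hG u v

theorem pointwise (hJ : Symm J) (hn : HKA_799.Nat (fun w => J w)) (hN : 2 ≤ N)
    {S G : Matrix (Fin d) (Fin d) ℂ} (hS : Sᵀ = -S) (hdet : S.det ≠ 0) (hG : G.IsHermitian) :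
    J (mixv N 1 (rS S) (wG G)) = 0 ∧
      (N.choose 2 : ℝ) * J (mixv N 2 (rS S) (wG G)) =
        -(1 / 2) * ((S⁻¹ * G * (S.map conj)⁻¹ * Gᵀ).trace).re * J (fun _ => rS S) := by
  have h := second hJ hn hN (r := rS S) (B := BG S G) (J := iL) (BG_adj hS hdet hG) iL_sq
    (BG_anti S G)
  rw [w_eq hS hdet hG, trace_BG hG] at h
  refine ⟨h.1, ?_⟩
  rw [h.2]
  ring

end

end Crest.Agent.R281.Isq2_358
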