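import Crest.Agent.R281.Isq2_358
import Crest.Agent.R281.Fuj6_207
import Crest.Agent.R281.Ti7_846
import Crest.Agent.R281.Nef2_252

/-!
# Row 281, ISO-Q, part 3 (helper358): isotropy and the Fujiki form

* `IM_change` : `IM` for other Haar measures, bases, partitions of unity is a multiple
* `intT_intD` : `intT (lc n) (RPart.ofPart P) D = intD P f`
* `mass`      : `TP (bc d) (Re σ, …, Re σ) = 2^d d! |det s|`
* `int_one`, `int_two` : `∫ w ∧ r^(d-1) = 0`, `C(d,2) ∫ w² ∧ r^(d-2) = 2^d d!/2 intD P (qd σ G G)`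
* `iso_iff`   : `Isotropic P σ L ↔ Qf e e = 0`
-/

set_option autoImplicit false
set_option maxSynthPendingDepth 3
set_option linter.unusedSectionVars false

open Set Filter Topology Complex MeasureTheory
open scoped ContDiff Matrix ComplexConjugate ComplexOrder

namespace Crest.Agent.R281.Isq3_358

open Crest.Agent.R275.Geo Crest.Agent.R275.Core144 Crest.Agent.R275.EDR890
open Crest.Agent.R275.GC293 Crest.Agent.R275.C1d194
open Crest.Agent.R273.Defs_333 Crest.Agent.R273.Kah_333 Crest.Agent.R273.Vol_333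
open Crest.Agent.R273.StokesV_332
open Crest.Agent.R275.SerG398 (lint)
open Crest.Agent.R281.HkR_835 Crest.Agent.R281.Ti_846
open Crest.Agent.R281.HkP1_508 Crest.Agent.R281.HkP2_508 Crest.Agent.R281.HkP3_508
open Crest.Agent.R281.Defs_273
open Crest.Agent.R281.Fuj1_207 Crest.Agent.R281.Fuj2_207 Crest.Agent.R281.Fuj4_207
open Crest.Agent.R281.Fuj5_207 Crest.Agent.R281.Fuj6_207
open Crest.Agent.R281.FujP_513 (Symm mixv)
open Crest.Agent.R281.Isq1_358 Crest.Agent.R281.Isq2_358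
open Crest.Agent.R281.Nef_252 (curK ex_cur)

noncomputable section

/-! ### change of Haar measure, basis, partition -/

section change

variable {V X : Type} [NormedAddCommGroup V] [NormedSpace ℝ V] [FiniteDimensional ℝ V]
  [MeasurableSpace V] [BorelSpace V] [TopologicalSpace X] {C : RCh V X}

/-- change of basis -/
theorem TP_basis {N : ℕ} (b b' : Module.Basis (Fin N × Fin 2) ℝ V) (w : Fin N → HKA_799.Bil V) :
    TP b w = b'.det b * TP b' w := by
  have h1 := AlternatingMap.eq_smul_basis_det b' (wed w)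
  have h2 := congrArg (fun f => f (b : Fin N × Fin 2 → V)) h1
  simp only [AlternatingMap.smul_apply] at h2
  rw [← wed_apply, ← wed_apply, h2, smul_eq_mul, mul_comm]

/-- the intersection form for another Haar measure, basis, partition -/
theorem IM_change [CompactSpace X] {N : ℕ} (h : Ori C) (μ μ' : Measure V) [μ.IsAddHaarMeasure]
    [μ'.IsAddHaarMeasure] (b b' : Module.Basis (Fin N × Fin 2) ℝ V) (P P' : RPart C) :
    ∃ c : ℝ, c ≠ 0 ∧ ∀ w : Fin N → F2 C, IM μ b P w = c * IM μ' b' P' w := by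
  have : ProperSpace V := FiniteDimensional.proper_real V
  obtain ⟨c, hc0, hc⟩ : ∃ c : NNReal, 0 < c ∧ μ = c • μ' :=
    ⟨_, Measure.addHaarScalarFactor_pos_of_isAddHaarMeasure μ μ',
      Measure.isAddLeftInvariant_eq_smul μ μ'⟩
  have hd : b'.det b ≠ 0 := (Module.Basis.isUnit_det b' b).ne_zero
  refine ⟨c * b'.det b, mul_ne_zero (by exact_mod_cast hc0.ne') hd, fun w => ?_⟩
  rw [IM_apply, IM_apply, II_part μ' b' P' h P w]
  unfold II intT
  rw [Finset.mul_sum]
  refine Finset.sum_congr rfl fun k _ => ?_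
  rw [hc, Measure.restrict_smul, integral_smul_nnreal_measure, NNReal.smul_def, smul_eq_mul,
    mul_assoc, ← integral_const_mul (b'.det b)]
  congr 1
  refine setIntegral_congr_fun (C.e (P.c k)).open_target.measurableSet fun z _ => ?_
  simp only [TopF.of_D]
  rw [TP_basis b b']
  ring

end change

/-! ### the two integrals -/

section int

variable {n : ℕ} {M : Type} [TopologicalSpace M] {A : Atl n M}

theorem lint_lc (i : A.ι) (F : M → ℂ) (f : Cn n → ℝ)
    (h : ∀ z ∈ (A.e i).target, ((f z : ℝ) : ℂ) = F ((A.e i).symm z)) :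
    ((∫ z in (A.e i).target, f z ∂(lc n) : ℝ) : ℂ) = lint A i F := by
  have e0 : ∫ y in Ui A i, ((f (cc y) : ℝ) : ℂ) = ((∫ y in Ui A i, f (cc y) : ℝ) : ℂ) :=
    integral_ofReal (𝕜 := ℂ)
  rw [setIntegral_lc, ← e0,
    ← integral_indicator (Crest.Agent.R273.Vm_333.isOpen_Ui i).measurableSet]
  show _ = ∫ x, Crest.Agent.R275.Geo.rd A i F x
  refine integral_congr_ae (Eventually.of_forall fun y => ?_)
  by_cases hy : y ∈ Ui A i
  · show indicator _ _ y = _
    rw [indicator_of_mem hy, Crest.Agent.R275.C1d194.rd_of_mem hy]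
    exact h _ hy
  · show indicator _ _ y = _
    rw [indicator_of_notMem hy, Crest.Agent.R275.C1d194.rd_off hy]

/-- **the real integral is the integral of densities** -/
theorem intT_intD [T2Space M] [Finite A.ι] (P : Part A) (D : TopF (ofAtl A)) (f : A.ι → M → ℂ)
    (h : ∀ i, ∀ z ∈ (A.e i).target, ((D.D i z : ℝ) : ℂ) = f i ((A.e i).symm z)) :
    ((intT (lc n) (RPart.ofPart P) D : ℝ) : ℂ) = intD P f := by
  let _ := Fintype.ofFinite A.ι
  rw [intD_fintype]
  unfold intT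
  rw [Complex.ofReal_sum]
  refine Finset.sum_congr rfl fun i _ => ?_
  refine lint_lc i _ _ fun z hz => ?_
  rw [Complex.ofReal_mul]
  exact congrArg _ (h i z hz)

end int

/-- the product as a multilinear map -/
def TPM {V : Type} [NormedAddCommGroup V] [NormedSpace ℝ V] {N : ℕ} (b : Fin N × Fin 2 → V) :
    MultilinearMap ℝ (fun _ : Fin N => HKA_799.Bil V) ℝ where
  toFun w := TP b w
  map_update_add' := by
    intro D w k x y
    convert TP_update_add b w k x y
  map_update_smul' := by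
    intro D w k c x
    rw [smul_eq_mul]
    convert TP_update_smul b w k c x

@[simp] theorem TPM_apply {V : Type} [NormedAddCommGroup V] [NormedSpace ℝ V] {N : ℕ}
    (b : Fin N × Fin 2 → V) (w : Fin N → HKA_799.Bil V) : TPM b w = TP b w := rfl

section main

variable {d : ℕ} {M : Type} [TopologicalSpace M] {A : Atl d M}
  [T2Space M] [CompactSpace M] [ConnectedSpace M] [Finite A.ι] (P : Part A)
  (σ : HSymp A) (hu : σ.Uniq) (hc : ClH σ.toH2)

/-- the form of a (1,1)-form at a point -/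
theorem f2_wG (G : K11 A) {i : A.ι} {z : Cn d} (hz : z ∈ (A.e i).target) :
    G.f2.w i z = wG (G.g i ((A.e i).symm z)) := by
  ext u v
  rw [G.f2_w hz, wG_apply (G.herm i _ ((A.e i).map_target hz))]

/-- `Re σ` at a point -/
theorem reS_rS (i : A.ι) (z : Cn d) :
    (reS σ.toH2 hc).w i z = rS (σ.s i ((A.e i).symm z)) := by
  ext u v
  rw [reS_w, rS_apply]
  rfl

include P hu in
/-- **the mass of `Re σ`** -/
theorem mass (K : Kah A) (i : A.ι) {z : Cn d} (hz : z ∈ (A.e i).target) :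
    TP (bc d) (fun _ : Fin d => (reS σ.toH2 hc).w i z) =
      2 ^ d * d.factorial * ‖(σ.s i ((A.e i).symm z)).det‖ := by
  obtain ⟨u, hs, hp, r, hr, h0, h1⟩ := exists_HK_class P (KpK_487.yau_kah A) K σ hu
  obtain ⟨H, h2, h3, h4⟩ := exists_triple hc hr h1
  have hx := (A.e i).map_target hz
  have hfin : Module.finrank ℝ (Cn d) = 2 * d := by
    rw [Module.finrank_eq_card_basis (bc d)]
    simp [mul_comm]
  have h5 := (trip H i z hz).rot hfin (nat_TP' (bc d)) ![0, 1, 0]
  have h6 : ∀ k, (trip H i z hz).om k = (H.om k).w i z := by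
    intro k
    ext u v
    rw [(H.om_eq k i z hz)]
    rfl
  have h7 : (trip H i z hz).omv ![0, 1, 0] = r • (reS σ.toH2 hc).w i z := by
    rw [HKA_799.Trip.omv, Fin.sum_univ_three, h6, h6, h6, h3]
    simp <;> rfl
  have h8 := TP_smul (bc d) (fun _ : Fin d => (reS σ.toH2 hc).w i z) (fun _ => r)
  have h9 : ((TP (bc d) (fun _ : Fin d => (H.om 0).w i z) : ℝ) : ℂ) =
      2 ^ d * (d.factorial * ((‖((smulHS (r : ℂ) hr σ).s i ((A.e i).symm z)).det‖ : ℝ) : ℂ)) := by
    rw [h2, ← h1.det i hx, ← MD_same]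
    exact TP_herm (G := fun _ => (addK K u hs hp).g i ((A.e i).symm z))
      (fun _ => (ofKah (addK K u hs hp)).herm i _ hx)
      fun _ u' v => (ofKah (addK K u hs hp)).f2_w hz u' v
  have h10 : ‖((smulHS (r : ℂ) hr σ).s i ((A.e i).symm z)).det‖ =
      r ^ d * ‖(σ.s i ((A.e i).symm z)).det‖ := by
    show ‖((r : ℂ) • σ.s i ((A.e i).symm z)).det‖ = _
    rw [Matrix.det_smul, Fintype.card_fin, norm_mul, norm_pow, Complex.norm_real,
      Real.norm_of_nonneg h0.le]
  rw [h10] at h9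
  have h11 : TP (bc d) (fun _ : Fin d => (H.om 0).w i z) =
      2 ^ d * (d.factorial * (r ^ d * ‖(σ.s i ((A.e i).symm z)).det‖)) := by exact_mod_cast h9
  simp only [h7, h6] at h5
  rw [h8, h11] at h5
  simp only [Finset.prod_const, Finset.card_univ, Fintype.card_fin, Matrix.cons_val_zero,
    Matrix.cons_val_one, Matrix.cons_val] at h5
  norm_num at h5
  have h12 : r ^ d ≠ 0 := pow_ne_zero _ h0.ne'
  refine mul_left_cancel₀ h12 ?_
  rw [h5]
  ring

/-- the volume of a Kaehler form is positive -/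
theorem pos_kah (K : Kah A) (RP : RPart (ofAtl A)) :
    0 < IM (lc d) (bc d) RP (fun _ => (ofKah K).f2) := by
  let _ : MeasurableSpace M := borel M
  have : BorelSpace M := ⟨rfl⟩
  have : Countable A.ι := Finite.to_countable
  have := Crest.Agent.R273.Vm_333.isFinite_vm (volK K)
  have := Crest.Agent.R273.Vm_333.isOpenPos_vm (volK K)
  rw [IM_apply, II_same K RP]
  have h1 : 0 < (Crest.Agent.R273.Vm_333.vm (volK K)).real univ := by
    rw [measureReal_def]
    exact ENNReal.toReal_pos (isOpen_univ.measure_pos _ univ_nonempty).ne' (measure_ne_top _ _)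
  positivity

theorem TPM_symm {V : Type} [NormedAddCommGroup V] [NormedSpace ℝ V] {N : ℕ}
    (b : Fin N × Fin 2 → V) : Symm (TPM b) := fun π v => TP_perm b v π

theorem mixv_w (a : ℕ) (x y : F2 (ofAtl A)) (i : A.ι) (z : Cn d) :
    (fun k => (mixv d a x y k).w i z) = mixv d a (x.w i z) (y.w i z) := by
  funext k
  unfold mixv
  split_ifs <;> rfl

theorem of_mixv (a : ℕ) (G : K11 A) {i : A.ι} {z : Cn d} (hz : z ∈ (A.e i).target) :
    (TopF.of (bc d) (mixv d a (reS σ.toH2 hc) G.f2)).D i z =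
      TP (bc d) (mixv d a (rS (σ.s i ((A.e i).symm z))) (wG (G.g i ((A.e i).symm z)))) := by
  show TP (bc d) (fun k => (mixv d a (reS σ.toH2 hc) G.f2 k).w i z) = _
  rw [mixv_w, reS_rS, f2_wG G hz]

/-- **`∫ w ∧ (Re σ)^(d-1) = 0`** for a (1,1)-form `w` -/
theorem int_one (h2 : 2 ≤ d) (G : K11 A) :
    IM (lc d) (bc d) (RPart.ofPart P) (mixv d 1 (reS σ.toH2 hc) G.f2) = 0 := by
  have h1 : ((intT (lc d) (RPart.ofPart P) (TopF.of (bc d) (mixv d 1 (reS σ.toH2 hc) G.f2)) : ℝ)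
      : ℂ) = intD P (fun _ _ => 0) := by
    refine intT_intD P _ _ fun i z hz => ?_
    have hx := (A.e i).map_target hz
    have hp := (pointwise (TPM_symm (bc d)) (nat_TP' (bc d)) h2 (σ.alt i _ hx) (σ.nd i _ hx)
      (G.herm i _ hx)).1
    rw [TPM_apply] at hp
    rw [of_mixv σ hc 1 G hz, hp]
    rfl
  rw [intD_zero] at h1
  exact_mod_cast h1

include P hu in
/-- **`C(d,2) ∫ w² ∧ (Re σ)^(d-2) = (2^d d!/2) ∫ (σ σ̄)^(d/2-1) w²`** -/
theorem int_two (h2 : 2 ≤ d) (K : Kah A) (G : K11 A) :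
    ((d.choose 2 : ℕ) : ℂ) *
      ((IM (lc d) (bc d) (RPart.ofPart P) (mixv d 2 (reS σ.toH2 hc) G.f2) : ℝ) : ℂ) =
      (2 ^ d * d.factorial / 2) * intD P (qd σ G.g G.g) := by
  have hch : ((d.choose 2 : ℕ) : ℂ) ≠ 0 := by
    exact_mod_cast (Nat.choose_pos h2).ne'
  have h1 : ((intT (lc d) (RPart.ofPart P) (TopF.of (bc d) (mixv d 2 (reS σ.toH2 hc) G.f2)) : ℝ)
      : ℂ) = intD P (fun i x => (2 ^ d * d.factorial / 2 / ((d.choose 2 : ℕ) : ℂ)) *
        qd σ G.g G.g i x) := by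
    refine intT_intD P _ _ fun i z hz => ?_
    have hx := (A.e i).map_target hz
    have hp := (pointwise (TPM_symm (bc d)) (nat_TP' (bc d)) h2 (σ.alt i _ hx) (σ.nd i _ hx)
      (G.herm i _ hx)).2
    have hm := mass P σ hu hc K i hz
    rw [reS_rS] at hm
    rw [TPM_apply, TPM_apply, hm] at hp
    rw [of_mixv σ hc 2 G hz]
    have hr := trace_real (S := σ.s i ((A.e i).symm z)) (G.herm i _ hx)
    set t := ((σ.s i ((A.e i).symm z))⁻¹ * G.g i ((A.e i).symm z) *
      ((σ.s i ((A.e i).symm z)).map conj)⁻¹ * (G.g i ((A.e i).symm z))ᵀ).trace with ht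
    have ht' : ((t.re : ℝ) : ℂ) = t := by
      apply Complex.ext
      · simp
      · simp [hr]
    have hq : qd σ G.g G.g i ((A.e i).symm z) =
        -((‖(σ.s i ((A.e i).symm z)).det‖ : ℝ) : ℂ) * t := rfl
    rw [hq, ← ht']
    have hp' := congrArg (fun x : ℝ => (x : ℂ)) hp
    push_cast at hp' ⊢
    field_simp
    linear_combination 2 * hp'
  rw [intD_smul P _ isCompact_univ (offK_univ _)] at h1
  have h3 : ((IM (lc d) (bc d) (RPart.ofPart P) (mixv d 2 (reS σ.toH2 hc) G.f2) : ℝ) : ℂ) = _ := h1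
  rw [h3]
  field_simp

include P hu in
/-- the mass of `Re σ` on `M` is positive -/
theorem S_pos {ν : ℕ} (hN : d = 2 * ν) (K : Kah A) (RP : RPart (ofAtl A)) :
    0 < IM (lc d) (bc d) RP (fun _ => reS σ.toH2 hc) := by
  obtain ⟨K', H, ρ, hρ, h0, h1, h2, -⟩ := exists_tri P σ hu hc K
  exact (tri_of_hk (lc d) (bc d) RP hN H hρ h1 h2 (by rw [h0]; exact pos_kah K' RP)).S_pos

variable {N ν : ℕ} (hν : 1 ≤ ν) (hN : N = 2 * ν) (hN2 : 2 ≤ N)

/-- the dimension -/
theorem dim_eq (b : Module.Basis (Fin N × Fin 2) ℝ (Cn d)) : N = d := by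
  have h1 := Module.finrank_eq_card_basis b
  rw [Module.finrank_eq_card_basis (bc d)] at h1
  simpa using h1.symm

include P hν hN in
/-- the value of the form at a (1,1)-form -/
theorem Qf_k11 (μ : Measure (Cn d)) [μ.IsAddHaarMeasure]
    (b : Module.Basis (Fin N × Fin 2) ℝ (Cn d)) (RP : RPart (ofAtl A))
    (hS : 0 < IM μ b RP (fun _ => reS σ.toH2 hc)) (G : K11 A) :
    ∃ c : ℝ, c ≠ 0 ∧ Qf (IM μ b RP) hN2 ν (reS σ.toH2 hc) G.f2 G.f2 =
      c * IM (lc d) (bc d) (RPart.ofPart P) (mixv d 2 (reS σ.toH2 hc) G.f2) := by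
  obtain rfl : N = d := dim_eq b
  obtain ⟨c, hc0, hcw⟩ := IM_change (ori_ofAtl A) μ (lc N) b (bc N) RP (RPart.ofPart P)
  have h1 : IM μ b RP (v1 N G.f2 (reS σ.toH2 hc)) = 0 := by
    rw [v1_eq_mixv, hcw, int_one P σ hc hN2, mul_zero]
  have hν' : (1 : ℝ) ≤ ν := by exact_mod_cast hν
  refine ⟨rt (IM μ b RP fun _ => reS σ.toH2 hc) ν / (IM μ b RP fun _ => reS σ.toH2 hc) *
    ((2 * ν - 1) * c), mul_ne_zero (div_ne_zero (rt_pos hS ν).ne' hS.ne')
    (mul_ne_zero (by linarith) hc0), ?_⟩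
  rw [Qf_apply, h1, v2_eq_mixv, hcw (mixv N 2 _ _)]
  ring

include hu hν hN in
/-- **ISOTROPY AND THE FUJIKI FORM**, for (1,1)-forms -/
theorem intD_iff (K : Kah A) (μ : Measure (Cn d)) [μ.IsAddHaarMeasure]
    (b : Module.Basis (Fin N × Fin 2) ℝ (Cn d)) (RP : RPart (ofAtl A))
    (hS : 0 < IM μ b RP (fun _ => reS σ.toH2 hc)) (G : K11 A) :
    intD P (qd σ G.g G.g) = 0 ↔ Qf (IM μ b RP) hN2 ν (reS σ.toH2 hc) G.f2 G.f2 = 0 := by
  obtain ⟨c, hc0, h1⟩ := Qf_k11 P σ hc hν hN hN2 μ b RP hS G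
  have hd : 2 ≤ d := by rw [← dim_eq b]; exact hN2
  have h2 := int_two P σ hu hc hd K G
  rw [h1]
  have hch : ((d.choose 2 : ℕ) : ℂ) ≠ 0 := by exact_mod_cast (Nat.choose_pos hd).ne'
  constructor
  · intro h3
    rw [h3, mul_zero] at h2
    have h4 := (mul_eq_zero.1 h2).resolve_left hch
    have h5 : IM (lc d) (bc d) (RPart.ofPart P) (mixv d 2 (reS σ.toH2 hc) G.f2) = 0 := by
      exact_mod_cast h4
    rw [h5, mul_zero]
  · intro h3
    have h4 := (mul_eq_zero.1 h3).resolve_left hc0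
    rw [h4, Complex.ofReal_zero, mul_zero] at h2
    have h5 : (2 ^ d * (d.factorial : ℂ) / 2) ≠ 0 := by
      have := Nat.factorial_pos d
      positivity
    exact (mul_eq_zero.1 h2.symm).resolve_left h5

include hu hν hN in
/-- **ISO-Q**: `L` is isotropic iff its class is isotropic for the Fujiki form -/
theorem iso_iff (K : Kah A) (μ : Measure (Cn d)) [μ.IsAddHaarMeasure]
    (b : Module.Basis (Fin N × Fin 2) ℝ (Cn d)) (RP : RPart (ofAtl A))
    (hS : 0 < IM μ b RP (fun _ => reS σ.toH2 hc)) {L : LB A} (h : HM L) :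
    Isotropic P σ L ↔
      Qf (IM μ b RP) hN2 ν (reS σ.toH2 hc) (curK h).f2 (curK h).f2 = 0 := by
  constructor
  · intro h1
    exact (intD_iff P σ hu hc hν hN hN2 K μ b RP hS (curK h)).1 (h1 h)
  · intro h1 h'
    refine (intD_iff P σ hu hc hν hN hN2 K μ b RP hS (curK h')).2 ?_
    have hor := ori_ofAtl A
    have hT := IM_symm μ b RP
    have e1 := Qf_congr (ν := ν) μ b RP hor hN2 (reS σ.toH2 hc) (ex_cur h h') (curK h').f2
    have e2 := Qf_congr (ν := ν) μ b RP hor hN2 (reS σ.toH2 hc) (ex_cur h h') (curK h).f2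
    rw [e1, Qf_symm hT, e2]
    exact h1

include hν hN in
/-- positivity of the mass of `Re σ` from positivity on Kaehler forms -/
theorem S_pos' (P : Part A) (hu : σ.Uniq) (K : Kah A) (μ : Measure (Cn d)) [μ.IsAddHaarMeasure]
    (b : Module.Basis (Fin N × Fin 2) ℝ (Cn d)) (RP : RPart (ofAtl A))
    (hpos : ∀ K : Kah A, 0 < IM μ b RP (fun _ => (ofKah K).f2)) :
    0 < IM μ b RP (fun _ => reS σ.toH2 hc) := by
  obtain ⟨K', H, ρ, hρ, h0, h1, h2, -⟩ := exists_tri P σ hu hc K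
  exact (tri_of_hk μ b RP hN H hρ h1 h2 (by rw [h0]; exact hpos K')).S_pos

end main

end

end Crest.Agent.R281.Isq3_358
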