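import Mathlib

/-!
# Row 281, JETALG part 1 (helper257): order of vanishing on a smooth algebraic set

`E e` (`e ∈ ι`) polynomials, `θ` a local parametrisation of their zero set at `v`.  A polynomial `P`
satisfies `P ∘ θ = O(|t| ^ m)` iff `P ∈ (E) + 𝔪_v ^ m`.
-/

set_option autoImplicit false
set_option linter.unusedSectionVars false

open Filter Topology Asymptotics MvPolynomial

namespace Crest.Agent.R281.Ja1_257

variable {κ : Type} [Fintype κ]

section Ord

variable {F : Type*} [Field F]

/-- no terms of degree `< m` -/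
def Ord (m : ℕ) (G : MvPolynomial κ F) : Prop := ∀ s : κ →₀ ℕ, s.degree < m → coeff s G = 0

/-- Taylor shift -/
noncomputable def sh (v : κ → F) : MvPolynomial κ F →ₐ[F] MvPolynomial κ F :=
  aeval fun i => X i + C (v i)

/-- linear part at `v` -/
noncomputable def lin (v : κ → F) (E : MvPolynomial κ F) : MvPolynomial κ F :=
  ∑ i, C (eval v (pderiv i E)) * X i

theorem Ord.mono {m n : ℕ} {G : MvPolynomial κ F} (h : Ord n G) (hmn : m ≤ n) : Ord m G :=
  fun s hs => h s (lt_of_lt_of_le hs hmn)

theorem Ord.zero' (G : MvPolynomial κ F) : Ord 0 G := fun _ hs => absurd hs (Nat.not_lt_zero _)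

theorem ord_zero (m : ℕ) : Ord m (0 : MvPolynomial κ F) := fun _ _ => coeff_zero _

theorem Ord.add {m : ℕ} {G H : MvPolynomial κ F} (hG : Ord m G) (hH : Ord m H) : Ord m (G + H) :=
  fun s hs => by rw [coeff_add, hG s hs, hH s hs, add_zero]

theorem Ord.neg {m : ℕ} {G : MvPolynomial κ F} (hG : Ord m G) : Ord m (-G) :=
  fun s hs => by rw [coeff_neg, hG s hs, neg_zero]

theorem Ord.sub {m : ℕ} {G H : MvPolynomial κ F} (hG : Ord m G) (hH : Ord m H) : Ord m (G - H) :=
  fun s hs => by rw [coeff_sub, hG s hs, hH s hs, sub_zero]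

theorem Ord.sum {ι : Type*} (S : Finset ι) {m : ℕ} {G : ι → MvPolynomial κ F}
    (h : ∀ i ∈ S, Ord m (G i)) : Ord m (∑ i ∈ S, G i) := by
  intro s hs
  rw [coeff_sum]
  exact Finset.sum_eq_zero fun i hi => h i hi s hs

theorem Ord.mul {a b : ℕ} {G H : MvPolynomial κ F} (hG : Ord a G) (hH : Ord b H) :
    Ord (a + b) (G * H) := by
  classical
  intro s hs
  rw [coeff_mul]
  refine Finset.sum_eq_zero fun x hx => ?_
  have h1 : x.1 + x.2 = s := Finset.HasAntidiagonal.mem_antidiagonal.1 hx
  have h2 : x.1.degree + x.2.degree = s.degree := by rw [← h1, map_add]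
  rcases lt_or_ge x.1.degree a with h3 | h3
  · rw [hG _ h3, zero_mul]
  · rw [hH _ (by omega), mul_zero]

theorem Ord.of_hom {m : ℕ} {G : MvPolynomial κ F} (h : G.IsHomogeneous m) : Ord m G :=
  fun _ hs => h.coeff_eq_zero hs.ne

theorem eval_sh (v y : κ → F) (P : MvPolynomial κ F) : eval y (sh v P) = eval (v + y) P := by
  have h : (eval y).comp (sh v : MvPolynomial κ F →ₐ[F] MvPolynomial κ F).toRingHom =
      (eval (v + y) : MvPolynomial κ F →+* F) := by
    ext i
    · simp [sh]
    · simp [sh, add_comm]
  exact RingHom.congr_fun h P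

theorem sh_sh (v : κ → F) (P : MvPolynomial κ F) : sh v (sh (-v) P) = P := by
  have h : (sh v).comp (sh (-v)) = AlgHom.id F (MvPolynomial κ F) := by
    ext i
    simp [sh]
  exact AlgHom.congr_fun h P

theorem isHomogeneous_lin (v : κ → F) (E : MvPolynomial κ F) : (lin v E).IsHomogeneous 1 := by
  unfold lin
  exact IsHomogeneous.sum _ _ _ fun i _ => isHomogeneous_C_mul_X _ _

theorem ord_X (i : κ) : Ord 1 (X i : MvPolynomial κ F) := Ord.of_hom (isHomogeneous_X F i)

theorem taylor1 (v : κ → F) (E : MvPolynomial κ F) :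
    Ord 2 (sh v E - C (eval v E) - lin v E) := by
  classical
  induction E using MvPolynomial.induction_on with
  | C a =>
    have : sh v (C a) - C (eval v (C a)) - lin v (C a) = 0 := by
      simp [sh, lin]
    rw [this]; exact ord_zero 2
  | add p q hp hq =>
    have : sh v (p + q) - C (eval v (p + q)) - lin v (p + q) =
        (sh v p - C (eval v p) - lin v p) + (sh v q - C (eval v q) - lin v q) := by
      have h1 : lin v (p + q) = lin v p + lin v q := by
        simp [lin, add_mul, Finset.sum_add_distrib]
      rw [h1, map_add, map_add, map_add]; ring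
    rw [this]; exact hp.add hq
  | mul_X p j hp =>
    have h1 : lin v (p * X j) = C (v j) * lin v p + C (eval v p) * X j := by
      unfold lin
      rw [Finset.mul_sum]
      have h2 : ∀ i, C (eval v (pderiv i (p * X j))) * (X i : MvPolynomial κ F) =
          C (v j) * (C (eval v (pderiv i p)) * X i) +
            (if i = j then C (eval v p) * X j else 0) := by
        intro i
        rw [Derivation.leibniz, pderiv_X]
        by_cases hij : i = j
        · subst hij
          simp
          ring
        · simp [hij, Ne.symm hij]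
          ring
      rw [Finset.sum_congr rfl fun i _ => h2 i, Finset.sum_add_distrib]
      simp
    have h3 : sh v (p * X j) = sh v p * (X j + C (v j)) := by
      rw [map_mul]; simp [sh]
    have h4 : sh v (p * X j) - C (eval v (p * X j)) - lin v (p * X j) =
        (sh v p - C (eval v p) - lin v p) * (X j + C (v j)) + lin v p * X j := by
      rw [h1, h3]
      simp only [map_mul, eval_X]
      ring
    rw [h4]
    refine Ord.add ?_ ?_
    · exact (hp.mul (Ord.zero' _)).mono (by norm_num)
    · exact (Ord.of_hom (isHomogeneous_lin v p)).mul (ord_X j)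

theorem hc_mul {a : ℕ} {C' l : MvPolynomial κ F} (hl : l.IsHomogeneous 1) :
    homogeneousComponent (a + 1) (C' * l) = homogeneousComponent a C' * l := by
  classical
  conv_lhs => rw [← sum_homogeneousComponent C', Finset.sum_mul, map_sum]
  have h1 : ∀ j, homogeneousComponent (a + 1) (homogeneousComponent j C' * l) =
      if j = a then homogeneousComponent a C' * l else 0 := by
    intro j
    have h2 : (homogeneousComponent j C' * l).IsHomogeneous (j + 1) :=
      (homogeneousComponent_isHomogeneous j C').mul hl
    rw [homogeneousComponent_of_mem h2]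
    by_cases hj : j = a
    · simp [hj]
    · have : ¬ (a + 1 = j + 1) := by omega
      simp [hj, Ne.symm hj]
  rw [Finset.sum_congr rfl fun j _ => h1 j, Finset.sum_ite_eq']
  by_cases ha : a ∈ Finset.range (C'.totalDegree + 1)
  · rw [if_pos ha]
  · rw [if_neg ha, homogeneousComponent_eq_zero _ _ (by simpa using ha), zero_mul]

theorem ord_sub_hc {m : ℕ} {G : MvPolynomial κ F} (h : Ord m G) :
    Ord (m + 1) (G - homogeneousComponent m G) := by
  intro s hs
  rw [coeff_sub, coeff_homogeneousComponent]
  by_cases h1 : s.degree = m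
  · simp [h1]
  · rw [if_neg h1, h s (by omega), sub_zero]

/-- a polynomial vanishing on a linear subspace is in the ideal of its equations -/
theorem mem_ideal_of_vanish [Infinite F] {ι : Type*} [Fintype ι] (l : ι → MvPolynomial κ F)
    (hl : ∀ e, ∃ a : κ → F, l e = ∑ i, C (a i) * X i) (G : MvPolynomial κ F)
    (hG : ∀ y : κ → F, (∀ e, eval y (l e) = 0) → eval y G = 0) :
    ∃ c : ι → MvPolynomial κ F, G = ∑ e, c e * l e := by
  classical
  choose a ha using hl
  -- the linear map with components `l e`
  let Λ : (κ → F) →ₗ[F] (ι → F) := LinearMap.pi fun e => ∑ i, a e i • LinearMap.proj i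
  have hΛ : ∀ y e, Λ y e = eval y (l e) := by
    intro y e
    simp [Λ, ha, LinearMap.sum_apply]
  -- a generalised inverse
  obtain ⟨g, hg⟩ : ∃ g : (ι → F) →ₗ[F] (κ → F), ∀ y, Λ (g (Λ y)) = Λ y := by
    obtain ⟨g, hg⟩ := LinearMap.exists_rightInverse_of_surjective Λ.rangeRestrict
      (LinearMap.range_rangeRestrict Λ)
    obtain ⟨q, hq⟩ := Submodule.exists_isCompl (LinearMap.range Λ)
    refine ⟨g.comp (Submodule.projectionOnto (LinearMap.range Λ) q hq), fun y => ?_⟩
    have h1 : Submodule.projectionOnto (LinearMap.range Λ) q hq (Λ y) = Λ.rangeRestrict y :=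
      Submodule.projectionOnto_apply_left hq (Λ.rangeRestrict y)
    rw [LinearMap.comp_apply, h1]
    have h2 := LinearMap.congr_fun hg (Λ.rangeRestrict y)
    exact congrArg Subtype.val h2
  -- the projection `y ↦ y - g (Λ y)` as polynomials
  let π : κ → MvPolynomial κ F := fun i => X i - ∑ e, C (g (Pi.single e 1) i) * l e
  have hπ : ∀ y i, eval y (π i) = (y - g (Λ y)) i := by
    intro y i
    have h1 : Λ y = ∑ e, (Λ y e) • (Pi.single e (1 : F)) := by
      funext e'
      simp [Finset.sum_apply, Pi.single_apply]
    have h2 : g (Λ y) i = ∑ e, Λ y e * g (Pi.single e 1) i := by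
      conv_lhs => rw [h1]
      simp [map_sum, Finset.sum_apply]
    simp only [π, map_sub, eval_X, map_sum, map_mul, eval_C, Pi.sub_apply]
    rw [h2]
    congr 1
    refine Finset.sum_congr rfl fun e _ => ?_
    rw [hΛ]; ring
  let I : Ideal (MvPolynomial κ F) := Ideal.span (Set.range l)
  have h0 : aeval π G = 0 := by
    apply MvPolynomial.funext
    intro y
    rw [map_zero]
    have h1 : eval y (aeval π G) = eval (fun i => eval y (π i)) G := by
      have : (eval y).comp (aeval π : MvPolynomial κ F →ₐ[F] MvPolynomial κ F).toRingHom =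
          (eval fun i => eval y (π i)) := by
        ext i <;> simp
      exact RingHom.congr_fun this G
    rw [h1]
    apply hG
    intro e
    have h2 : (fun i => eval y (π i)) = y - g (Λ y) := funext fun i => hπ y i
    rw [h2, ← hΛ, map_sub, hg, sub_self]
    rfl
  have h3 : G ∈ I := by
    rw [← Ideal.Quotient.eq_zero_iff_mem]
    have h4 : (Ideal.Quotient.mk I : MvPolynomial κ F →+* _) G =
        (Ideal.Quotient.mk I) (aeval π G) := by
      have : (Ideal.Quotient.mk I : MvPolynomial κ F →+* _) =
          (Ideal.Quotient.mk I).comp (aeval π : MvPolynomial κ F →ₐ[F] MvPolynomial κ F).toRingHom := by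
        ext i
        · simp
        · simp only [RingHom.coe_comp, Function.comp_apply, AlgHom.toRingHom_eq_coe,
            RingHom.coe_coe, aeval_X, π, map_sub, map_sum, map_mul]
          have h5 : ∀ e, (Ideal.Quotient.mk I) (l e) = 0 := fun e =>
            Ideal.Quotient.eq_zero_iff_mem.2 (Ideal.subset_span ⟨e, rfl⟩)
          simp [h5]
      exact RingHom.congr_fun this G
    rw [h4, h0, map_zero]
  obtain ⟨c, hc⟩ := (Ideal.mem_span_range_iff_exists_fun).1 h3
  exact ⟨c, hc.symm⟩

end Ord

end Crest.Agent.R281.Ja1_257
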