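import Mathlib
import Crest.Agent.R281.Ja1_257

/-!
# Row 281, JETALG part 2 (helper257): vanishing order along a parametrised zero set

`isBigO_iff`: `P ∘ θ = O(‖t‖ ^ m)` iff `P` is in `(E) + 𝔪_v ^ m`.
-/

set_option autoImplicit false
set_option linter.unusedSectionVars false

open Filter Topology Asymptotics MvPolynomial
open Crest.Agent.R281.Ja1_257

namespace Crest.Agent.R281.Ja2_257

variable {κ : Type} [Fintype κ]
variable {V : Type*} [NormedAddCommGroup V] [NormedSpace ℂ V]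

theorem isBigO_eval {m : ℕ} {G : MvPolynomial κ ℂ} (hG : Ord m G) :
    (fun y : κ → ℂ => eval y G) =O[𝓝 0] fun y : κ → ℂ => ‖y‖ ^ m := by
  classical
  have h1 : (fun y : κ → ℂ => eval y G) =
      fun y => ∑ s ∈ G.support, coeff s G * ∏ i, y i ^ s i := by
    funext y; rw [eval_eq']
  rw [h1]
  refine IsBigO.fun_sum fun s hs => ?_
  have hsm : m ≤ s.degree := by
    by_contra h
    exact (mem_support_iff.1 hs) (hG s (not_le.1 h))
  refine IsBigO.of_bound ‖coeff s G‖ ?_
  have h2 : ∀ᶠ y : κ → ℂ in 𝓝 0, ‖y‖ < 1 := by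
    have := (continuous_norm (E := κ → ℂ)).tendsto 0
    rw [norm_zero] at this
    exact this.eventually (gt_mem_nhds one_pos)
  filter_upwards [h2] with y hy
  rw [norm_mul, norm_pow, norm_norm]
  refine mul_le_mul_of_nonneg_left ?_ (norm_nonneg _)
  calc ‖∏ i, y i ^ s i‖ = ∏ i, ‖y i‖ ^ s i := by rw [norm_prod]; simp
    _ ≤ ∏ i, ‖y‖ ^ s i := Finset.prod_le_prod (fun i _ => by positivity)
        fun i _ => pow_le_pow_left₀ (norm_nonneg _) (norm_le_pi_norm y i) _
    _ = ‖y‖ ^ s.degree := by rw [Finset.prod_pow_eq_pow_sum, Finsupp.degree_eq_sum]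
    _ ≤ ‖y‖ ^ m := pow_le_pow_of_le_one (norm_nonneg _) hy.le hsm

theorem isBigO_sub {θ : V → κ → ℂ} {L : V →L[ℂ] (κ → ℂ)} (hθ : HasFDerivAt θ L 0) :
    (fun t => θ t - θ 0) =O[𝓝 0] fun t => ‖t‖ := by
  have h := hθ.isBigO_sub
  simpa using h.norm_right

theorem tendsto_sub {θ : V → κ → ℂ} {L : V →L[ℂ] (κ → ℂ)} (hθ : HasFDerivAt θ L 0) :
    Tendsto (fun t => θ t - θ 0) (𝓝 0) (𝓝 0) := by
  have h := hθ.continuousAt.tendsto.sub_const (θ 0)
  simpa using h

theorem isBigO_comp {m : ℕ} {G : MvPolynomial κ ℂ} (hG : Ord m G)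
    {θ : V → κ → ℂ} {L : V →L[ℂ] (κ → ℂ)} (hθ : HasFDerivAt θ L 0) :
    (fun t => eval (θ t - θ 0) G) =O[𝓝 0] fun t => ‖t‖ ^ m := by
  have h1 := (isBigO_eval hG).comp_tendsto (tendsto_sub hθ)
  refine h1.trans ?_
  have h2 := ((isBigO_sub hθ).norm_left).pow m
  exact h2

theorem isBigO_of_ord {m : ℕ} {P : MvPolynomial κ ℂ}
    {θ : V → κ → ℂ} {L : V →L[ℂ] (κ → ℂ)} (hθ : HasFDerivAt θ L 0) (hP : Ord m (sh (θ 0) P)) :
    (fun t => eval (θ t) P) =O[𝓝 0] fun t => ‖t‖ ^ m := by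
  have h1 := isBigO_comp hP hθ
  refine h1.congr_left fun t => ?_
  rw [eval_sh]
  congr 2
  abel

theorem eval_smul_hom {m : ℕ} {H : MvPolynomial κ ℂ} (hH : H.IsHomogeneous m) (c : ℂ)
    (y : κ → ℂ) : eval (c • y) H = c ^ m * eval y H := by
  classical
  rw [eval_eq', eval_eq', Finset.mul_sum]
  refine Finset.sum_congr rfl fun s hs => ?_
  have h1 : s.degree = m := by
    by_contra h
    exact (mem_support_iff.1 hs) (hH.coeff_eq_zero h)
  have h2 : ∏ i, (c • y) i ^ s i = c ^ m * ∏ i, y i ^ s i := by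
    simp only [Pi.smul_apply, smul_eq_mul, mul_pow]
    rw [Finset.prod_mul_distrib, Finset.prod_pow_eq_pow_sum, ← Finsupp.degree_eq_sum, h1]
  rw [h2]; ring

/-- the leading form vanishes on the tangent space -/
theorem leading {m : ℕ} {G : MvPolynomial κ ℂ} (hG : Ord m G)
    {θ : V → κ → ℂ} {L : V →L[ℂ] (κ → ℂ)} (hθ : HasFDerivAt θ L 0)
    (h : (fun t => eval (θ t - θ 0) G) =O[𝓝 0] fun t => ‖t‖ ^ (m + 1)) (y : V) :
    eval (L y) (homogeneousComponent m G) = 0 := by
  set H := homogeneousComponent m G with hH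
  have h1 : (fun t => eval (θ t - θ 0) H) =O[𝓝 0] fun t => ‖t‖ ^ (m + 1) := by
    have h2 := isBigO_comp (ord_sub_hc hG) hθ
    have h3 := h.sub h2
    refine h3.congr_left fun t => ?_
    rw [map_sub, hH]; ring
  -- along the line `s • y`
  have hy : Tendsto (fun s : ℂ => s • y) (𝓝[≠] 0) (𝓝 0) := by
    have : Tendsto (fun s : ℂ => s • y) (𝓝 0) (𝓝 ((0 : ℂ) • y)) :=
      (continuous_id.smul continuous_const).tendsto 0
    rw [zero_smul] at this
    exact this.mono_left nhdsWithin_le_nhds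
  have h4 : (fun s : ℂ => eval (θ (s • y) - θ 0) H) =O[𝓝[≠] 0] fun s => ‖s • y‖ ^ (m + 1) :=
    h1.comp_tendsto hy
  have h5 : (fun s : ℂ => eval (s⁻¹ • (θ (s • y) - θ 0)) H) =O[𝓝[≠] 0]
      fun s => ‖s‖ * ‖y‖ ^ (m + 1) := by
    obtain ⟨C, hC⟩ := h4.bound
    refine IsBigO.of_bound C ?_
    filter_upwards [hC, self_mem_nhdsWithin] with s hs hs0
    have hs0' : s ≠ 0 := hs0
    rw [eval_smul_hom (homogeneousComponent_isHomogeneous m G), norm_mul, norm_pow, norm_inv]
    have h6 : 0 < ‖s‖ ^ m := pow_pos (norm_pos_iff.2 hs0') m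
    rw [norm_pow, norm_norm, norm_smul, mul_pow] at hs
    rw [norm_mul, norm_norm, norm_pow, norm_norm, inv_pow, inv_mul_le_iff₀ h6]
    calc _ ≤ C * (‖s‖ ^ (m + 1) * ‖y‖ ^ (m + 1)) := hs
      _ = _ := by ring
  have h7 : Tendsto (fun s : ℂ => ‖s‖ * ‖y‖ ^ (m + 1)) (𝓝[≠] 0) (𝓝 0) := by
    have : Tendsto (fun s : ℂ => ‖s‖ * ‖y‖ ^ (m + 1)) (𝓝 0) (𝓝 (‖(0 : ℂ)‖ * ‖y‖ ^ (m + 1))) :=
      (continuous_norm.mul continuous_const).tendsto 0
    rw [norm_zero, zero_mul] at this
    exact this.mono_left nhdsWithin_le_nhds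
  have h8 : Tendsto (fun s : ℂ => eval (s⁻¹ • (θ (s • y) - θ 0)) H) (𝓝[≠] 0) (𝓝 0) :=
    h5.trans_tendsto h7
  have h9 : Tendsto (fun s : ℂ => s⁻¹ • (θ (s • y) - θ 0)) (𝓝[≠] 0) (𝓝 (L y)) := by
    have h10 : HasDerivAt (fun s : ℂ => θ (s • y)) (L y) 0 := by
      have h11 : HasDerivAt (fun s : ℂ => s • y) y 0 := by
        simpa using (hasDerivAt_id (0 : ℂ)).smul_const y
      have h12 : HasFDerivAt θ L ((0 : ℂ) • y) := by rw [zero_smul]; exact hθ
      exact h12.comp_hasDerivAt 0 h11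
    have h13 := h10.tendsto_slope
    refine h13.congr' ?_
    filter_upwards with s
    simp [slope_def_module, zero_smul]
  have hcont : Continuous fun y : κ → ℂ => eval y H := MvPolynomial.continuous_eval H
  exact tendsto_nhds_unique ((hcont.tendsto _).comp h9) h8

section main

variable {ι : Type} [Fintype ι] (E : ι → MvPolynomial κ ℂ)
variable {θ : V → κ → ℂ} {L : V →L[ℂ] (κ → ℂ)}

/-- `P ∈ (E) + 𝔪_v ^ m` -/
def Jet {F : Type*} [Field F] (E : ι → MvPolynomial κ F) (m : ℕ) (v : κ → F)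
    (P : MvPolynomial κ F) : Prop :=
  ∃ B : ι → MvPolynomial κ F, Ord m (sh v (P - ∑ e, B e * E e))

theorem eval_lin {F : Type*} [Field F] (v y : κ → F) (P : MvPolynomial κ F) :
    eval y (lin v P) = ∑ i, eval v (pderiv i P) * y i := by
  simp [lin]

theorem Jet.isBigO {m : ℕ} {P : MvPolynomial κ ℂ} (hθ : HasFDerivAt θ L 0)
    (hE : ∀ e, ∀ᶠ t in 𝓝 0, eval (θ t) (E e) = 0) (h : Jet E m (θ 0) P) :
    (fun t => eval (θ t) P) =O[𝓝 0] fun t => ‖t‖ ^ m := by
  obtain ⟨B, hB⟩ := h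
  refine (isBigO_of_ord hθ hB).congr' ?_ (EventuallyEq.refl _ _)
  have h1 : ∀ᶠ t in 𝓝 0, ∀ e, eval (θ t) (E e) = 0 := eventually_all.2 hE
  filter_upwards [h1] with t ht
  simp [map_sub, map_sum, map_mul, ht]

theorem jet_of_isBigO {m : ℕ} {P : MvPolynomial κ ℂ} (hθ : HasFDerivAt θ L 0)
    (hE : ∀ e, ∀ᶠ t in 𝓝 0, eval (θ t) (E e) = 0)
    (hL : ∀ y, (∀ e, ∑ i, eval (θ 0) (pderiv i (E e)) * y i = 0) → ∃ t, L t = y)
    (h : (fun t => eval (θ t) P) =O[𝓝 0] fun t => ‖t‖ ^ m) : Jet E m (θ 0) P := by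
  classical
  induction m with
  | zero => exact ⟨fun _ => 0, Ord.zero' _⟩
  | succ m ih =>
    have hm : (fun t => eval (θ t) P) =O[𝓝 0] fun t => ‖t‖ ^ m := by
      refine h.trans ?_
      refine IsBigO.of_bound 1 ?_
      have h2 : ∀ᶠ y : V in 𝓝 0, ‖y‖ < 1 := by
        have := (continuous_norm (E := V)).tendsto 0
        rw [norm_zero] at this
        exact this.eventually (gt_mem_nhds one_pos)
      filter_upwards [h2] with t ht
      rw [one_mul, norm_pow, norm_pow, norm_norm]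
      exact pow_le_pow_of_le_one (norm_nonneg _) ht.le (Nat.le_succ m)
    obtain ⟨B, hB⟩ := ih hm
    set v := θ 0 with hv
    set G := sh v (P - ∑ e, B e * E e) with hG
    have hEv : ∀ e, eval v (E e) = 0 := fun e => (hE e).self_of_nhds
    have h1 : (fun t => eval (θ t - θ 0) G) =O[𝓝 0] fun t => ‖t‖ ^ (m + 1) := by
      refine h.congr' ?_ (EventuallyEq.refl _ _)
      have h1 : ∀ᶠ t in 𝓝 0, ∀ e, eval (θ t) (E e) = 0 := eventually_all.2 hE
      filter_upwards [h1] with t ht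
      rw [hG, eval_sh, ← hv]
      have h3 : v + (θ t - v) = θ t := by abel
      rw [h3]
      simp [map_sub, map_sum, map_mul, ht]
    have h2 := leading hB hθ h1
    cases m with
    | zero =>
      refine ⟨B, ?_⟩
      rw [← hG]
      have h3 : homogeneousComponent 0 G = 0 := by
        have h4 := h2 0
        rw [homogeneousComponent_zero] at h4 ⊢
        rw [eval_C] at h4
        rw [h4, map_zero]
      have h5 := ord_sub_hc hB
      rwa [h3, sub_zero] at h5
    | succ k =>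
      obtain ⟨c, hc⟩ := mem_ideal_of_vanish (fun e => lin v (E e))
        (fun e => ⟨fun i => eval v (pderiv i (E e)), rfl⟩) (homogeneousComponent (k + 1) G) (by
          intro y hy
          obtain ⟨t, rfl⟩ := hL y fun e => by rw [← eval_lin]; exact hy e
          exact h2 t)
      have hc' : homogeneousComponent (k + 1) G =
          ∑ e, homogeneousComponent k (c e) * lin v (E e) := by
        have h3 : homogeneousComponent (k + 1) (homogeneousComponent (k + 1) G) =
            homogeneousComponent (k + 1) G := by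
          rw [homogeneousComponent_of_mem (homogeneousComponent_isHomogeneous (k + 1) G),
            if_pos rfl]
        rw [← h3]
        conv_lhs => rw [hc]
        rw [map_sum]
        exact Finset.sum_congr rfl fun e _ => hc_mul (isHomogeneous_lin v (E e))
      let D : ι → MvPolynomial κ ℂ := fun e => homogeneousComponent k (c e)
      refine ⟨fun e => B e + sh (-v) (D e), ?_⟩
      have h4 : sh v (P - ∑ e, (B e + sh (-v) (D e)) * E e) =
          (G - homogeneousComponent (k + 1) G) - ∑ e, D e * (sh v (E e) - lin v (E e)) := by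
        have h5 : sh v (P - ∑ e, (B e + sh (-v) (D e)) * E e) =
            G - ∑ e, D e * sh v (E e) := by
          rw [hG]
          simp only [map_sub, map_sum, map_mul, map_add, sh_sh, add_mul, Finset.sum_add_distrib]
          ring
        rw [h5, hc']
        simp only [mul_sub, Finset.sum_sub_distrib, D]
        ring
      rw [h4]
      refine Ord.sub (ord_sub_hc hB) (Ord.sum _ fun e _ => ?_)
      have h6 : Ord 2 (sh v (E e) - lin v (E e)) := by
        have := taylor1 v (E e)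
        rwa [hEv, map_zero, sub_zero] at this
      have h7 : Ord k (D e) := Ord.of_hom (homogeneousComponent_isHomogeneous k (c e))
      exact h7.mul h6

theorem isBigO_iff {m : ℕ} {P : MvPolynomial κ ℂ} (hθ : HasFDerivAt θ L 0)
    (hE : ∀ e, ∀ᶠ t in 𝓝 0, eval (θ t) (E e) = 0)
    (hL : ∀ y, (∀ e, ∑ i, eval (θ 0) (pderiv i (E e)) * y i = 0) → ∃ t, L t = y) :
    ((fun t => eval (θ t) P) =O[𝓝 0] fun t => ‖t‖ ^ m) ↔ Jet E m (θ 0) P :=
  ⟨jet_of_isBigO E hθ hE hL, Jet.isBigO E hθ hE⟩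

end main

end Crest.Agent.R281.Ja2_257
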