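import Mathlib
import Crest.Agent.R281.Ja2_257
import Crest.Agent.R281.Gal4_257

/-!
# Row 281, JETALG part 3 (helper257): KAPPA-1 from jets

`T b = {v | E v = 0 and P v = 0 for every P of degree ≤ d with P ∘ θ = O(‖t‖ ^ m)}` is equivariant
under `Aut(ℂ/k)`, `k` a countable field containing the coefficients of `E`.
-/

set_option autoImplicit false
set_option linter.unusedSectionVars false

open Filter Topology Asymptotics MvPolynomial MeasureTheory Metric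
open Crest.Agent.R281.Ja1_257 Crest.Agent.R281.Ja2_257
open Crest.Agent.R281.Gal2_257 Crest.Agent.R281.Gal4_257

namespace Crest.Agent.R281.Ja3_257

section Alg

variable {F : Type} [Field F] {κ ι : Type} [Fintype κ] [Fintype ι]

theorem eval_map_equiv (σ : F ≃+* F) (v : κ → F) (P : MvPolynomial κ F) :
    eval (fun i => σ (v i)) (MvPolynomial.map (σ : F →+* F) P) = σ (eval v P) := by
  have h : (eval fun i => σ (v i)).comp (MvPolynomial.map (σ : F →+* F)) =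
      (σ : F →+* F).comp (eval v : MvPolynomial κ F →+* F) := by
    ext i <;> simp
  exact RingHom.congr_fun h P

theorem sh_map (σ : F ≃+* F) (v : κ → F) (P : MvPolynomial κ F) :
    MvPolynomial.map (σ : F →+* F) (sh v P) =
      sh (fun i => σ (v i)) (MvPolynomial.map (σ : F →+* F) P) := by
  have h : (MvPolynomial.map (σ : F →+* F)).comp
      (sh v : MvPolynomial κ F →ₐ[F] MvPolynomial κ F).toRingHom =
      (sh (fun i => σ (v i)) : MvPolynomial κ F →ₐ[F] MvPolynomial κ F).toRingHom.comp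
        (MvPolynomial.map (σ : F →+* F)) := by
    ext i <;> simp [sh]
  exact RingHom.congr_fun h P

theorem Ord.map (σ : F ≃+* F) {m : ℕ} {G : MvPolynomial κ F} (h : Ord m G) :
    Ord m (MvPolynomial.map (σ : F →+* F) G) := by
  intro s hs
  rw [coeff_map, h s hs, map_zero]

theorem Jet.map (σ : F ≃+* F) {E : ι → MvPolynomial κ F}
    (hE : ∀ e, MvPolynomial.map (σ : F →+* F) (E e) = E e) {m : ℕ} {v : κ → F}
    {P : MvPolynomial κ F} (h : Jet E m v P) :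
    Jet E m (fun i => σ (v i)) (MvPolynomial.map (σ : F →+* F) P) := by
  obtain ⟨B, hB⟩ := h
  refine ⟨fun e => MvPolynomial.map (σ : F →+* F) (B e), ?_⟩
  have h1 := Ord.map σ hB
  rw [sh_map] at h1
  simpa [map_sub, map_sum, map_mul, hE] using h1

theorem map_symm_map (σ : F ≃+* F) (P : MvPolynomial κ F) :
    MvPolynomial.map (σ : F →+* F) (MvPolynomial.map (σ.symm : F →+* F) P) = P := by
  rw [MvPolynomial.map_map]
  have : (σ : F →+* F).comp (σ.symm : F →+* F) = RingHom.id F := by ext x; simp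
  rw [this, MvPolynomial.map_id]

/-- a Zariski closed set is given by finitely many monomials -/
theorem exists_zer {T : Set (κ → F)}
    (hT : ∀ v, v ∉ T → ∃ P : MvPolynomial κ F, (∀ w ∈ T, eval w P = 0) ∧ eval v P ≠ 0) :
    ∃ S : Finset (κ →₀ ℕ), Zer S (Idl S T) ⊆ T := by
  classical
  let I : Ideal (MvPolynomial κ F) :=
    { carrier := {P | ∀ w ∈ T, eval w P = 0}
      add_mem' := by
        intro a b ha hb w hw
        rw [map_add, ha w hw, hb w hw, add_zero]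
      zero_mem' := by intro w _; simp
      smul_mem' := by
        intro c a ha w hw
        rw [smul_eq_mul, map_mul, ha w hw, mul_zero] }
  obtain ⟨G, hG⟩ : I.FG := (isNoetherianRing_iff_ideal_fg _).1 inferInstance I
  refine ⟨G.biUnion fun g => g.support, fun v hv => ?_⟩
  by_contra hvT
  obtain ⟨P, hP, hPv⟩ := hT v hvT
  apply hPv
  set S := G.biUnion fun g => g.support with hS
  have hsum : ∀ g ∈ G, ∀ w : κ → F,
      ∑ m : S, coeff (m : κ →₀ ℕ) g * ∏ i, w i ^ (m : κ →₀ ℕ) i = eval w g := by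
    intro g hg w
    rw [eval_eq', Finset.sum_coe_sort S fun m => coeff m g * ∏ i, w i ^ m i]
    symm
    refine Finset.sum_subset ?_ fun m _ hm => ?_
    · intro m hm
      exact Finset.mem_biUnion.2 ⟨g, hg, hm⟩
    · rw [notMem_support_iff.1 hm, zero_mul]
  have hgv : ∀ g ∈ G, eval v g = 0 := by
    intro g hg
    rw [← hsum g hg]
    apply hv
    intro w hw
    rw [hsum g hg]
    have : g ∈ I := hG ▸ Ideal.subset_span hg
    exact this w hw
  have hPI : P ∈ Ideal.span (G : Set (MvPolynomial κ F)) := by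
    have : P ∈ I := hP
    rwa [← hG] at this
  have hle : Ideal.span (G : Set (MvPolynomial κ F)) ≤ RingHom.ker (eval v) :=
    Ideal.span_le.2 fun g hg => hgv g hg
  exact hle hPI

end Alg

section Main

variable {E₁ E₂ : Type*} [NormedAddCommGroup E₁] [NormedSpace ℂ E₁] [FiniteDimensional ℂ E₁]
  [NormedAddCommGroup E₂] [NormedSpace ℂ E₂] [FiniteDimensional ℂ E₂]
  [MeasurableSpace (E₁ × E₂)] [BorelSpace (E₁ × E₂)]
variable {V : Type*} [NormedAddCommGroup V] [NormedSpace ℂ V]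
variable {κ ι : Type} [Fintype κ] [Fintype ι]

/-- the hypotheses of JETALG; `θ z` is a local parameter of the zero set of `E` at `φ z` -/
structure JetDat (T : E₁ → Set (κ → ℂ)) (U : Set (E₁ × E₂)) (φ : E₁ × E₂ → κ → ℂ)
    (E : ι → MvPolynomial κ ℂ) (m d : ℕ)
    (θ : E₁ × E₂ → V → κ → ℂ) (L : E₁ × E₂ → V →L[ℂ] (κ → ℂ)) : Prop where
  e0 : ∀ z ∈ U, θ z 0 = φ z
  e1 : ∀ z ∈ U, HasFDerivAt (θ z) (L z) 0
  e2 : ∀ z ∈ U, ∀ e, ∀ᶠ t in 𝓝 0, eval (θ z t) (E e) = 0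
  e3 : ∀ z ∈ U, ∀ y : κ → ℂ, (∀ e, ∑ i, eval (φ z) (pderiv i (E e)) * y i = 0) → ∃ t, L z t = y
  j1 : ∀ z ∈ U, ∀ P : MvPolynomial κ ℂ, P.totalDegree ≤ d →
    ((fun t => eval (θ z t) P) =O[𝓝 0] fun t => ‖t‖ ^ m) → ∀ v ∈ T z.1, eval v P = 0
  j2 : ∀ z ∈ U, ∀ v : κ → ℂ, (∀ e, eval v (E e) = 0) → v ∉ T z.1 →
    ∃ P : MvPolynomial κ ℂ, P.totalDegree ≤ d ∧
      ((fun t => eval (θ z t) P) =O[𝓝 0] fun t => ‖t‖ ^ m) ∧ eval v P ≠ 0
  j3 : ∀ z ∈ U, ∀ v ∈ T z.1, ∀ e, eval v (E e) = 0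
  j4 : ∀ z ∈ U, ∀ z' ∈ U, T z.1 = T z'.1 → z.1 = z'.1

variable {T : E₁ → Set (κ → ℂ)} {U : Set (E₁ × E₂)} {φ : E₁ × E₂ → κ → ℂ}
  {E : ι → MvPolynomial κ ℂ} {m d : ℕ}
  {θ : E₁ × E₂ → V → κ → ℂ} {L : E₁ × E₂ → V →L[ℂ] (κ → ℂ)}

theorem JetDat.iff (h : JetDat T U φ E m d θ L) {z : E₁ × E₂} (hz : z ∈ U)
    (P : MvPolynomial κ ℂ) :
    ((fun t => eval (θ z t) P) =O[𝓝 0] fun t => ‖t‖ ^ m) ↔ Jet E m (φ z) P := by
  have h1 := isBigO_iff (m := m) (P := P) E (h.e1 z hz) (h.e2 z hz) (by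
    rw [h.e0 z hz]; exact h.e3 z hz)
  rwa [h.e0 z hz] at h1

theorem JetDat.tr (h : JetDat T U φ E m d θ L) {z z' : E₁ × E₂} (hz : z ∈ U) (hz' : z' ∈ U)
    (σ : ℂ ≃+* ℂ) (hE : ∀ e, MvPolynomial.map (σ : ℂ →+* ℂ) (E e) = E e)
    (hσ : ∀ i, σ (φ z i) = φ z' i) {v : κ → ℂ} (hv : v ∈ T z.1) :
    (fun i => σ (v i)) ∈ T z'.1 := by
  by_contra hn
  have h1 : ∀ e, eval (fun i => σ (v i)) (E e) = 0 := by
    intro e
    rw [← hE e, eval_map_equiv, h.j3 z hz v hv e, map_zero]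
  obtain ⟨P', hd', hO', hP'⟩ := h.j2 z' hz' _ h1 hn
  rw [h.iff hz'] at hO'
  have hE' : ∀ e, MvPolynomial.map (σ.symm : ℂ →+* ℂ) (E e) = E e := by
    intro e
    conv_lhs => rw [← hE e]
    have := map_symm_map σ.symm (E e)
    simpa using this
  have h2 := Jet.map σ.symm hE' hO'
  have h3 : (fun i => σ.symm (φ z' i)) = φ z := by
    funext i
    rw [← hσ i, RingEquiv.symm_apply_apply]
  rw [h3, ← h.iff hz] at h2
  have hdeg : (MvPolynomial.map (σ.symm : ℂ →+* ℂ) P').totalDegree ≤ d := by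
    refine le_trans ?_ hd'
    exact Finset.sup_mono (support_map_subset _ _)
  have h4 := h.j1 z hz _ hdeg h2 v hv
  apply hP'
  rw [← map_symm_map σ P', eval_map_equiv, h4, map_zero]

theorem JetDat.trS (h : JetDat T U φ E m d θ L) {z z' : E₁ × E₂} (hz : z ∈ U) (hz' : z' ∈ U)
    (σ : ℂ ≃+* ℂ) (hE : ∀ e, MvPolynomial.map (σ : ℂ →+* ℂ) (E e) = E e)
    (hσ : ∀ i, σ (φ z i) = φ z' i) : TrS σ (T z.1) (T z'.1) := by
  intro v
  refine ⟨fun hv => h.tr hz hz' σ hE hσ hv, fun hv => ?_⟩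
  have hE' : ∀ e, MvPolynomial.map (σ.symm : ℂ →+* ℂ) (E e) = E e := by
    intro e
    conv_lhs => rw [← hE e]
    have := map_symm_map σ.symm (E e)
    simpa using this
  have h1 := h.tr hz' hz σ.symm hE' (fun i => by rw [← hσ i, RingEquiv.symm_apply_apply]) hv
  simpa using h1

theorem JetDat.zer (h : JetDat T U φ E m d θ L) {z : E₁ × E₂} (hz : z ∈ U) :
    ∃ S : Finset (κ →₀ ℕ), Zer S (Idl S (T z.1)) ⊆ T z.1 := by
  apply exists_zer
  intro v hv
  by_cases h1 : ∀ e, eval v (E e) = 0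
  · obtain ⟨P, hd, hO, hP⟩ := h.j2 z hz v h1 hv
    exact ⟨P, h.j1 z hz P hd hO, hP⟩
  · push Not at h1
    obtain ⟨e, he⟩ := h1
    exact ⟨E e, fun w hw => h.j3 z hz w hw e, he⟩

/-- **JETALG.** -/
theorem exists_rational_jets {k : Type} [Field k] [Countable k] [Algebra k ℂ]
    (μ : Measure (E₁ × E₂)) [μ.IsAddHaarMeasure] {z₁ : E₁ × E₂} {r : ℝ}
    (hr : 0 < r) (hφ : AnalyticOnNhd ℂ φ (ball z₁ r))
    (h : JetDat T (ball z₁ r) φ E m d θ L)
    (hk : ∀ e, E e ∈ (MvPolynomial.map (σ := κ) (algebraMap k ℂ)).range) :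
    ∃ P Q : Fin (Module.finrank ℂ E₁) → MvPolynomial κ k, ∃ z₀ ∈ ball z₁ r,
      (∀ j, aeval (φ z₀) (Q j) ≠ 0) ∧
      (∀ j, ∀ z ∈ ball z₁ r, ∀ z' ∈ ball z₁ r, z.1 = z'.1 →
        aeval (φ z) (P j) * aeval (φ z') (Q j) = aeval (φ z') (P j) * aeval (φ z) (Q j)) ∧
      LinearIndependent ℂ (fun j => fderiv ℂ (fun z => aeval (φ z) (P j) / aeval (φ z) (Q j)) z₀)
      := by
  have hE : ∀ σ : ℂ ≃ₐ[k] ℂ, ∀ e, MvPolynomial.map ((σ : ℂ ≃+* ℂ) : ℂ →+* ℂ) (E e) = E e := by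
    intro σ e
    obtain ⟨E', hE'⟩ := hk e
    rw [← hE', MvPolynomial.map_map]
    have h1 : ((σ : ℂ ≃+* ℂ) : ℂ →+* ℂ).comp (algebraMap k ℂ) = algebraMap k ℂ := by
      ext x
      simp
    rw [h1]
  refine exists_rational μ hr hφ T (N := ∅) (by simp) ?_ ?_ ?_
  · intro z hz _ z' hz' _ σ hσ
    exact h.trS hz hz' (σ : ℂ ≃+* ℂ) (hE σ) hσ
  · intro z hz _
    exact h.zer hz
  · intro z hz _ z' hz' _ h1
    exact h.j4 z hz z' hz' h1

/-- the countable field of the coefficients -/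
theorem exists_field (E : ι → MvPolynomial κ ℂ) : ∃ k : Subfield ℂ, Countable k ∧
    ∀ e, E e ∈ (MvPolynomial.map (σ := κ) (algebraMap k ℂ)).range := by
  classical
  let A : Set ℂ := ⋃ e, (E e).coeffs
  have hA : A.Countable := Set.countable_iUnion fun e => (E e).coeffs.countable_toSet
  refine ⟨Subfield.closure A, ?_, fun e => ?_⟩
  · rw [← Cardinal.mk_le_aleph0_iff]
    refine (Subfield.cardinalMk_closure_le_max A).trans ?_
    exact max_le (Cardinal.mk_le_aleph0_iff.2 hA.to_subtype) le_rfl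
  · refine mem_range_map_iff_coeffs_subset.2 ?_
    intro c hc
    exact ⟨⟨c, Subfield.subset_closure (Set.mem_iUnion.2 ⟨e, hc⟩)⟩, rfl⟩

/-- **JETALG**, the field of coefficients forgotten. -/
theorem exists_rational_jets' (μ : Measure (E₁ × E₂)) [μ.IsAddHaarMeasure] {z₁ : E₁ × E₂} {r : ℝ}
    (hr : 0 < r) (hφ : AnalyticOnNhd ℂ φ (ball z₁ r))
    (h : JetDat T (ball z₁ r) φ E m d θ L) :
    ∃ P Q : Fin (Module.finrank ℂ E₁) → MvPolynomial κ ℂ, ∃ z₀ ∈ ball z₁ r,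
      (∀ j, eval (φ z₀) (Q j) ≠ 0) ∧
      (∀ j, ∀ z ∈ ball z₁ r, ∀ z' ∈ ball z₁ r, z.1 = z'.1 →
        eval (φ z) (P j) * eval (φ z') (Q j) = eval (φ z') (P j) * eval (φ z) (Q j)) ∧
      LinearIndependent ℂ (fun j => fderiv ℂ (fun z => eval (φ z) (P j) / eval (φ z) (Q j)) z₀)
      := by
  obtain ⟨k, hk, hE⟩ := exists_field E
  obtain ⟨P, Q, z₀, h0, h1, h2, h3⟩ := exists_rational_jets (k := k) μ hr hφ h hE
  have hae : ∀ (R : MvPolynomial κ k) (y : κ → ℂ),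
      eval y (MvPolynomial.map (algebraMap k ℂ) R) = aeval y R := by
    intro R y
    rw [eval_map, aeval_def]
  refine ⟨fun j => MvPolynomial.map (algebraMap k ℂ) (P j),
    fun j => MvPolynomial.map (algebraMap k ℂ) (Q j), z₀, h0, ?_, ?_, ?_⟩
  · intro j; rw [hae]; exact h1 j
  · intro j z hz z' hz' h
    simp only [hae]
    exact h2 j z hz z' hz' h
  · simpa only [hae] using h3

end Main

end Crest.Agent.R281.Ja3_257
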