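import Crest.Agent.R281.AF4_867

/-!
# R281, JETALG (e) (helper310): affine local description of a projective manifold

`loc_aff` : from 867's `Eqs F E` (homogeneous equations of the cone) to the affine equations
`aff E j0 = E ∪ {X_{j0} - 1}` in the affine coordinates `F_k / F_{j0}`.
-/

set_option autoImplicit false
set_option linter.unusedSectionVars false

open Set Filter Topology Complex

namespace Crest.Agent.R281.Loc_310

open Crest.Agent.R275 Crest.Agent.R275.Geo Crest.Agent.R275.Core144
open Crest.Agent.R273.SerA_945 Crest.Agent.R273.SerB_945 Crest.Agent.R273.SerC_945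
open Crest.Agent.R273.SerE_945 Crest.Agent.R273.TD3_733 Crest.Agent.R273.FS_333
open Crest.Agent.R273.Defs_333 Crest.Agent.R273.SteinC_794
open Crest.Agent.R273.Chow_313 Crest.Agent.R260.Zt_313
open Crest.Agent.R281.AF_867

noncomputable section

/-- affine equations : the homogeneous ones and `X_{j0} = 1` -/
def aff {κ : Type*} (E : Set (MvPolynomial κ ℂ)) (j0 : κ) : Set (MvPolynomial κ ℂ) :=
  insert (MvPolynomial.X j0 - 1) E

theorem dE_aff {κ : Type*} [Fintype κ] (j0 : κ) (v t : κ → ℂ) :
    dE (MvPolynomial.X j0 - 1 : MvPolynomial κ ℂ) v t = t j0 := by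
  classical
  have h1 : (1 : MvPolynomial κ ℂ) = MvPolynomial.C 1 := by simp
  rw [dE_sub, dE_X, h1, dE_C, sub_zero]

variable {n : ℕ} {M : Type} [TopologicalSpace M] {A : Atl n M} {O : LB A} {r : ℕ}

/-- affine coordinates read in the chart `i` around `x` -/
def th (A : Atl n M) (F : Fin r → Fn A) (j0 : Fin r) (i : A.ι) (x : M) : Cn n → Fin r → ℂ :=
  fun t k => F k i ((A.e i).symm (A.e i x + t)) / F j0 i ((A.e i).symm (A.e i x + t))

theorem th_zero (F : Fin r → Fn A) (j0 : Fin r) {i : A.ι} {x : M} (hx : x ∈ (A.e i).source) :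
    th A F j0 i x 0 = fun k => F k i x / F j0 i x := by
  funext k
  simp only [th, add_zero, (A.e i).left_inv hx]

/-- holomorphic functions are analytic -/
theorem an_of_hol {i : A.ι} {f : M → ℂ} (hf : HolAt A i univ f) {x : M}
    (hx : x ∈ (A.e i).source) : AnalyticAt ℂ (fun w => f ((A.e i).symm w)) (A.e i x) := by
  have hU : IsOpen ((A.e i).target ∩ (A.e i).symm ⁻¹' univ) := isOpen_ti isOpen_univ
  have h1 := (Crest.Agent.R266.SCV.contDiffOn_omega_of_differentiableOn hU hf).contDiffAt
    (hU.mem_nhds ⟨(A.e i).map_source hx, mem_univ _⟩)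
  exact h1.analyticAt

theorem an_shift {G : Type*} [NormedAddCommGroup G] [NormedSpace ℂ G] {f : Cn n → G} {z : Cn n}
    (hf : AnalyticAt ℂ f z) : AnalyticAt ℂ (fun t => f (z + t)) 0 := by
  refine AnalyticAt.comp (g := f) (f := fun t => z + t) (by rw [add_zero]; exact hf) ?_
  exact analyticAt_const.add analyticAt_id

/-- **local description in affine coordinates** -/
theorem loc_aff {F : Fin r → Fn A} (hF : ∀ k, IsHS O univ (F k))
    {E : Set (MvPolynomial (Fin r) ℂ)} (hE : Eqs F E) {i : A.ι} {x : M}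
    (hx : x ∈ (A.e i).source)
    (imm : ∀ v : Cn n, (∃ c : ℂ, ∀ k, df A i (F k i) x v = c * F k i x) → v = 0)
    {j0 : Fin r} (h0 : F j0 i x ≠ 0) :
    AnalyticAt ℂ (th A F j0 i x) 0 ∧
    (∀ p ∈ aff E j0, ∀ᶠ t in 𝓝 (0 : Cn n), MvPolynomial.eval (th A F j0 i x t) p = 0) ∧
    Function.Injective (fderiv ℂ (th A F j0 i x) 0) ∧
    (∀ t : Fin r → ℂ, (∀ p ∈ aff E j0, dE p (th A F j0 i x 0) t = 0) →
      t ∈ range (fderiv ℂ (th A F j0 i x) 0)) ∧
    (∀ u, fderiv ℂ (th A F j0 i x) 0 u = fun k => (df A i (F k i) x u * F j0 i x -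
      F k i x * df A i (F j0 i) x u) / F j0 i x ^ 2) := by
  have han : ∀ k, AnalyticAt ℂ (fun t : Cn n => F k i ((A.e i).symm (A.e i x + t))) 0 :=
    fun k => an_shift (an_of_hol ((hF k).hol i) hx)
  have hval : ∀ k, F k i ((A.e i).symm (A.e i x + 0)) = F k i x := fun k => by
    rw [add_zero, (A.e i).left_inv hx]
  have hth : AnalyticAt ℂ (th A F j0 i x) 0 :=
    AnalyticAt.pi fun k => (han k).div (han j0) (by rw [hval]; exact h0)
  have hne : ∀ᶠ t in 𝓝 (0 : Cn n), F j0 i ((A.e i).symm (A.e i x + t)) ≠ 0 :=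
    (han j0).continuousAt.eventually_ne (by rw [hval]; exact h0)
  have hsrc : ∀ᶠ t in 𝓝 (0 : Cn n), (A.e i).symm (A.e i x + t) ∈ (A.e i).source := by
    have h1 : Tendsto (fun t : Cn n => A.e i x + t) (𝓝 0) (𝓝 (A.e i x)) := by
      have h2 : Continuous fun t : Cn n => A.e i x + t := continuous_const.add continuous_id
      have h3 := h2.tendsto 0
      rwa [add_zero] at h3
    filter_upwards [h1.eventually ((A.e i).open_target.mem_nhds ((A.e i).map_source hx))]
      with t ht
    exact (A.e i).map_target ht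
  -- derivative
  have hd0 : ∀ k, HasFDerivAt (fun t : Cn n => F k i ((A.e i).symm (A.e i x + t)))
      (df A i (F k i) x) 0 := by
    intro k
    have h1 : HasFDerivAt (fun w : Cn n => F k i ((A.e i).symm w)) (df A i (F k i) x)
        (A.e i x + 0) := by
      rw [add_zero]
      exact (((hF k).hol i).diffAt isOpen_univ hx (mem_univ x)).hasFDerivAt
    have h2 : HasFDerivAt (fun t : Cn n => A.e i x + t) (ContinuousLinearMap.id ℂ (Cn n)) 0 :=
      (hasFDerivAt_id (0 : Cn n)).const_add _
    have h3 := HasFDerivAt.comp (g := fun w : Cn n => F k i ((A.e i).symm w))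
      (f := fun t : Cn n => A.e i x + t) (0 : Cn n) h1 h2
    exact h3.congr_fderiv (ContinuousLinearMap.comp_id _)
  have hder : ∀ u, fderiv ℂ (th A F j0 i x) 0 u = fun k => (df A i (F k i) x u * F j0 i x -
      F k i x * df A i (F j0 i) x u) / F j0 i x ^ 2 := by
    intro u
    funext k
    have h1 : HasFDerivAt (fun t : Cn n => th A F j0 i x t k)
        ((ContinuousLinearMap.proj k : (Fin r → ℂ) →L[ℂ] ℂ).comp
          (fderiv ℂ (th A F j0 i x) 0)) 0 := by
      exact (ContinuousLinearMap.proj k : (Fin r → ℂ) →L[ℂ] ℂ).hasFDerivAt.comp 0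
        hth.differentiableAt.hasFDerivAt
    have h2 := h1.fun_mul (hd0 j0)
    have h4 : (fun t : Cn n => F k i ((A.e i).symm (A.e i x + t))) =ᶠ[𝓝 0]
        fun t => th A F j0 i x t k * F j0 i ((A.e i).symm (A.e i x + t)) := by
      filter_upwards [hne] with t ht
      simp only [th]
      rw [div_mul_cancel₀ _ ht]
    have h3 := DFunLike.congr_fun ((hd0 k).unique (h2.congr_of_eventuallyEq h4)) u
    simp only [add_apply, smul_apply, smul_eq_mul, ContinuousLinearMap.comp_apply,
      ContinuousLinearMap.proj_apply, hval] at h3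
    have h5 : th A F j0 i x 0 k = F k i x / F j0 i x := congrFun (th_zero F j0 hx) k
    rw [h5] at h3
    rw [h3]
    field_simp
    ring
  refine ⟨hth, ?_, ?_, ?_, hder⟩
  · rintro p (rfl | hp)
    · filter_upwards [hne] with t ht
      simp only [map_sub, MvPolynomial.eval_X, map_one, th]
      rw [div_self ht, sub_self]
    · obtain ⟨⟨d, hd⟩, hz⟩ := hE.rel hp
      filter_upwards [hne, hsrc] with t ht hts
      have h1 : th A F j0 i x t = (F j0 i ((A.e i).symm (A.e i x + t)))⁻¹ •
          fun k => F k i ((A.e i).symm (A.e i x + t)) := by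
        funext k
        simp only [th, Pi.smul_apply, smul_eq_mul]
        rw [div_eq_inv_mul]
      rw [h1, eval_smul hd, hz i _ hts, mul_zero]
  · intro u u' huu
    have h1 : fderiv ℂ (th A F j0 i x) 0 (u - u') = 0 := by
      rw [map_sub, huu, sub_self]
    rw [hder] at h1
    have h2 : u - u' = 0 := by
      refine imm _ ⟨df A i (F j0 i) x (u - u') / F j0 i x, fun k => ?_⟩
      have h3 := congrFun h1 k
      simp only [Pi.zero_apply] at h3
      have h4 : df A i (F k i) x (u - u') * F j0 i x -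
          F k i x * df A i (F j0 i) x (u - u') = 0 := by
        rcases div_eq_zero_iff.1 h3 with h5 | h5
        · exact h5
        · exact absurd (pow_eq_zero_iff (two_ne_zero) |>.1 h5) h0
      field_simp
      linear_combination h4
    exact sub_eq_zero.1 h2
  · intro t ht
    have ht0 : t j0 = 0 := by
      have := ht _ (mem_insert _ _)
      rwa [dE_aff] at this
    have h1 : ∀ p ∈ E, dE p (fun k => F k i x) t = 0 := by
      intro p hp
      obtain ⟨⟨d, hd⟩, hz⟩ := hE.rel hp
      have h2 := ht p (mem_insert_of_mem _ hp)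
      have h3 : th A F j0 i x 0 = (F j0 i x)⁻¹ • fun k => F k i x := by
        rw [th_zero F j0 hx]
        funext k
        simp only [Pi.smul_apply, smul_eq_mul]
        rw [div_eq_inv_mul]
      rw [h3, dE_smul_left hd] at h2
      rcases mul_eq_zero.1 h2 with h4 | h4
      · exact absurd h4 (pow_ne_zero _ (inv_ne_zero h0))
      · exact h4
    obtain ⟨a, u, htu⟩ := hE.tan i x hx t h1
    have h2 : a * F j0 i x + df A i (F j0 i) x u = 0 := by
      rw [← ht0, htu]
    refine ⟨F j0 i x • u, ?_⟩
    rw [hder]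
    funext k
    simp only [map_smul, smul_eq_mul]
    rw [htu]
    field_simp
    linear_combination (-(F k i x)) * h2

/-- the zeros of the affine equations -/
theorem pt_aff {F : Fin r → Fn A} {E : Set (MvPolynomial (Fin r) ℂ)} (hE : Eqs F E) {j0 : Fin r}
    {v : Fin r → ℂ} (hv : ∀ p ∈ aff E j0, MvPolynomial.eval v p = 0) :
    ∃ i, ∃ x ∈ (A.e i).source, F j0 i x ≠ 0 ∧ v = fun k => F k i x / F j0 i x := by
  have h1 : v j0 = 1 := by
    have := hv _ (mem_insert _ _)
    simp only [map_sub, MvPolynomial.eval_X, map_one] at this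
    exact sub_eq_zero.1 this
  have h2 : v ≠ 0 := by
    rintro rfl
    simp at h1
  obtain ⟨i, x, hx, c, hc, hvc⟩ := hE.pt v h2 fun p hp => hv p (mem_insert_of_mem _ hp)
  have h3 : c * F j0 i x = 1 := by
    rw [← h1, hvc]
    rfl
  have h4 : F j0 i x ≠ 0 := right_ne_zero_of_mul_eq_one h3
  refine ⟨i, x, hx, h4, ?_⟩
  rw [hvc]
  funext k
  simp only [Pi.smul_apply, smul_eq_mul]
  rw [eq_div_iff h4]
  linear_combination (F k i x) * h3

end

end Crest.Agent.R281.Loc_310
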