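import Crest.Agent.R281.SAsm1_790

/-!
# R281 (S0424), QTUBE (helper922), part 1: the frozen output

`QTube A K n κ R` : a quantified tube of compact complex `n`-dimensional fibres in `(M, A)`.
-/

set_option autoImplicit false

open Set Metric Filter Topology
open scoped ContDiff

namespace Crest.Agent.R281.Qt_922

open Crest.Agent.R275.Geo Crest.Agent.R273.Defs_333 Crest.Agent.R273.Kah_333
open Crest.Agent.R281.SAsm_790

noncomputable section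

variable {N : ℕ} {M : Type} [TopologicalSpace M]

/-- a holomorphic disc of radius `3` inside `T`, `K(g', g') ≤ κ` -/
structure Disc (A : Atl N M) (K : Kah A) (κ : ℝ) (T : Set M) (g : ℂ → M) : Prop where
  mem : ∀ ζ ∈ ball (0 : ℂ) 3, g ζ ∈ T
  cont : ContinuousOn g (ball (0 : ℂ) 3)
  hol : ∀ ζ ∈ ball (0 : ℂ) 3, ∀ i, g ζ ∈ (A.e i).source →
    DifferentiableAt ℂ (fun w => A.e i (g w)) ζ
  q : ∀ ζ ∈ ball (0 : ℂ) 3, ∀ i, g ζ ∈ (A.e i).source →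
    qf K i (g ζ) (deriv (fun w => A.e i (g w)) ζ) ≤ κ

/-- **the quantified tube** -/
structure QTube (A : Atl N M) (K : Kah A) (n : ℕ) (κ R : ℝ) where
  U : Set M
  f : M → Cn n
  op : IsOpen U
  cont : ContinuousOn f U
  hol : ∀ i, DifferentiableOn ℂ (fun z => f ((A.e i).symm z))
    ((A.e i).target ∩ (A.e i).symm ⁻¹' U)
  lt : ∀ x ∈ U, ‖f x‖ < R
  onto : ∀ b : Cn n, ‖b‖ < R → ∃ x ∈ U, f x = b
  surj : ∀ i, ∀ x ∈ (A.e i).source, x ∈ U →
    Function.Surjective (fderiv ℂ (fun z => f ((A.e i).symm z)) (A.e i x))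
  cpt : ∀ R' < R, IsCompact {x | x ∈ U ∧ ‖f x‖ ≤ R'}
  q1 : ∀ i, ∀ x ∈ (A.e i).source, x ∈ U → ∀ v : Cn N,
    ‖fderiv ℂ (fun z => f ((A.e i).symm z)) (A.e i x) v‖ ^ 2 ≤ κ * qf K i x v
  q2 : ∀ x ∈ U, ∀ z ∈ U, f x = f z →
    ∃ g : ℂ → M, Disc A K κ {y | y ∈ U ∧ f y = f x} g ∧ g 0 = z ∧ g 1 = x

end

end Crest.Agent.R281.Qt_922
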