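import Crest.Agent.R281.Kas2_975
import Crest.Agent.R281.Loc1_310
import Crest.Agent.R281.Qt1_922
import Crest.Agent.R281.Ja3_257

/-!
# Row 281, JETS assembly part 1 (helper257): local boxes and whole fibres of a `QTube`

* `exists_box` : holomorphic coordinates `Psi (b, w)` with `f (Psi (b, w)) = b`;
* `sec_zero_disc`, `cross_disc` : identities spread along the discs of the tube to whole fibres.
-/

set_option autoImplicit false
set_option linter.unusedSectionVars false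

open Set Filter Topology Complex Metric

noncomputable section

namespace Crest.Agent.R281.Jb_257

open Crest.Agent.R275.Geo Crest.Agent.R275.Core144 Crest.Agent.R275.Loc2879
open Crest.Agent.R273.Defs_333 Crest.Agent.R273.Kah_333 Crest.Agent.R273.FS_333
open Crest.Agent.R281.Rk_599 Crest.Agent.R281.Kd_22 Crest.Agent.R281.Kas_975
open Crest.Agent.R281.Qt_922

variable {N n : ℕ} {M : Type} [TopologicalSpace M] {A : Atl N M} {K : Kah A} {κ R : ℝ}

/-- **local box** adapted to `f` -/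
theorem exists_box (Q : QTube A K n κ R) {x₀ : M} (hx₀ : x₀ ∈ Q.U) {i₀ : A.ι}
    (hi₀ : x₀ ∈ (A.e i₀).source) {O : Set M} (hO : O ∈ 𝓝 x₀) :
    ∃ (W : Submodule ℂ (Cn N)) (Psi : Cn n × W → M) (r : ℝ), 0 < r ∧ Psi (Q.f x₀, 0) = x₀ ∧
      (∀ z ∈ ball (Q.f x₀, (0 : W)) r, Psi z ∈ Q.U ∧ Psi z ∈ (A.e i₀).source ∧ Psi z ∈ O ∧
        Q.f (Psi z) = z.1 ∧ ContinuousAt Psi z ∧ AnalyticAt ℂ (fun z => A.e i₀ (Psi z)) z) ∧
      ∀ z ∈ ball (Q.f x₀, (0 : W)) r, ∀ᶠ y in 𝓝 (Psi z),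
        ∃ w : W, (Q.f y, w) ∈ ball (Q.f x₀, (0 : W)) r ∧ Psi (Q.f y, w) = y := by
  set e := A.e i₀ with he
  set z₀ := e x₀ with hz₀
  set G : Cn N → Cn n := fun z => Q.f (e.symm z) with hG
  have hVo : IsOpen (e.target ∩ e.symm ⁻¹' Q.U) := isOpen_ti Q.op
  have hz₀V : z₀ ∈ e.target ∩ e.symm ⁻¹' Q.U :=
    ⟨e.map_source hi₀, by rw [mem_preimage, hz₀, e.left_inv hi₀]; exact hx₀⟩
  have hGa : AnalyticOnNhd ℂ G (e.target ∩ e.symm ⁻¹' Q.U) :=
    Crest.Agent.R266.SCV.analyticOnNhd_of_differentiableOn hVo (Q.hol i₀)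
  set D := fderiv ℂ G z₀ with hD
  have hDs : Function.Surjective D := Q.surj i₀ x₀ hi₀ hx₀
  set W : Submodule ℂ (Cn N) := LinearMap.ker (D : Cn N →ₗ[ℂ] Cn n) with hW
  let π : Cn N →L[ℂ] W := W.orthogonalProjection
  set Ξ : Cn N → Cn n × W := fun z => (G z, π (z - z₀)) with hΞ
  have hΞa : ∀ z ∈ e.target ∩ e.symm ⁻¹' Q.U, AnalyticAt ℂ Ξ z := fun z hz =>
    (hGa z hz).prod ((π.analyticAt _).comp (analyticAt_id.sub analyticAt_const))
  have hΞd : HasFDerivAt Ξ (D.prod π) z₀ := by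
    refine HasFDerivAt.prodMk (hGa z₀ hz₀V).differentiableAt.hasFDerivAt ?_
    have h1 : HasFDerivAt (fun z : Cn N => z - z₀) (ContinuousLinearMap.id ℂ (Cn N)) z₀ :=
      (hasFDerivAt_id z₀).sub_const z₀
    exact (π.hasFDerivAt.comp z₀ h1).congr_fderiv (ContinuousLinearMap.comp_id _)
  have hinj : Function.Injective (D.prod π) := by
    rw [injective_iff_map_eq_zero]
    intro v hv
    have h1 : D v = 0 := congrArg Prod.fst hv
    have h2 : π v = 0 := congrArg Prod.snd hv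
    have h3 : v ∈ W := h1
    have h4 : π v = ⟨v, h3⟩ := W.orthogonalProjection_mem_subspace_eq_self ⟨v, h3⟩
    rw [h4] at h2
    exact congrArg Subtype.val h2
  have hfin : Module.finrank ℂ (Cn N) = Module.finrank ℂ (Cn n × W) := by
    have h1 := LinearMap.finrank_range_add_finrank_ker (D : Cn N →ₗ[ℂ] Cn n)
    have h2 : LinearMap.range (D : Cn N →ₗ[ℂ] Cn n) = ⊤ := LinearMap.range_eq_top.2 hDs
    rw [h2, finrank_top] at h1
    rw [Module.finrank_prod, ← h1]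
  have hbij : Function.Bijective (D.prod π) :=
    ⟨hinj, (LinearMap.injective_iff_surjective_of_finrank_eq_finrank hfin
      (f := ((D.prod π : Cn N →L[ℂ] Cn n × W) : Cn N →ₗ[ℂ] Cn n × W))).1 hinj⟩
  let D' : Cn N ≃L[ℂ] Cn n × W := ContinuousLinearEquiv.ofBijective (D.prod π)
    (LinearMap.ker_eq_bot.2 hbij.1) (LinearMap.range_eq_top.2 hbij.2)
  have h3 : HasFDerivAt Ξ (D' : Cn N →L[ℂ] Cn n × W) z₀ := by
    have : (D' : Cn N →L[ℂ] Cn n × W) = D.prod π := ContinuousLinearMap.ext fun _ => rfl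
    rw [this]
    exact hΞd
  have h4 : ContDiffAt ℂ ⊤ Ξ z₀ := (hΞa z₀ hz₀V).contDiffAt
  set Φ := h4.toOpenPartialHomeomorph Ξ h3 (by simp) with hΦ
  have hΦc : ∀ z, Φ z = Ξ z := fun z => rfl
  have hz₀s : z₀ ∈ Φ.source := h4.mem_toOpenPartialHomeomorph_source h3 (by simp)
  have hΞ0 : Ξ z₀ = (Q.f x₀, (0 : W)) := by
    simp only [hΞ, hG, sub_self, map_zero, hz₀, e.left_inv hi₀]
  have h5 : ContDiffAt ℂ ⊤ Φ.symm (Ξ z₀) := h4.to_localInverse h3 (by simp)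
  have h6 : AnalyticAt ℂ Φ.symm (Ξ z₀) := h5.analyticAt
  have hs0 : Φ.symm (Ξ z₀) = z₀ := Φ.left_inv hz₀s
  obtain ⟨O', hO'O, hO'o, hxO'⟩ := mem_nhds_iff.1 hO
  -- the good region in the target of `Ξ`
  have hev : ∀ᶠ p in 𝓝 (Ξ z₀), p ∈ Φ.target ∧ AnalyticAt ℂ Φ.symm p ∧
      Φ.symm p ∈ e.target ∩ e.symm ⁻¹' (Q.U ∩ O') := by
    have g1 : ∀ᶠ p in 𝓝 (Ξ z₀), p ∈ Φ.target := Φ.open_target.mem_nhds (Φ.map_source hz₀s)
    refine g1.and (h6.eventually_analyticAt.and ?_)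
    refine h6.continuousAt.preimage_mem_nhds ?_
    rw [hs0]
    refine (isOpen_ti (Q.op.inter hO'o)).mem_nhds ⟨e.map_source hi₀, ?_⟩
    rw [mem_preimage, hz₀, e.left_inv hi₀]
    exact ⟨hx₀, hxO'⟩
  rw [hΞ0] at hev
  obtain ⟨r, hr, hball⟩ := Metric.eventually_nhds_iff_ball.1 hev
  refine ⟨W, fun z => e.symm (Φ.symm z), r, hr, ?_, ?_, ?_⟩
  · show e.symm (Φ.symm (Q.f x₀, (0 : W))) = x₀
    rw [← hΞ0, hs0, hz₀, e.left_inv hi₀]
  · intro z hz
    obtain ⟨a1, a2, a3⟩ := hball z hz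
    have a4 : Ξ (Φ.symm z) = z := Φ.right_inv a1
    have a5 : ContinuousAt (fun z => e.symm (Φ.symm z)) z :=
      ContinuousAt.comp (g := e.symm) (e.continuousAt_symm a3.1) a2.continuousAt
    refine ⟨a3.2.1, e.map_target a3.1, hO'O a3.2.2, congrArg Prod.fst a4, a5, ?_⟩
    refine a2.congr ?_
    have a6 : ∀ᶠ p in 𝓝 z, Φ.symm p ∈ e.target :=
      a2.continuousAt.preimage_mem_nhds (e.open_target.mem_nhds a3.1)
    filter_upwards [a6] with p hp
    exact (e.right_inv hp).symm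
  · intro z hz
    obtain ⟨a1, a2, a3⟩ := hball z hz
    have a4 : Ξ (Φ.symm z) = z := Φ.right_inv a1
    set y₀ := e.symm (Φ.symm z) with hy₀
    have hy₀s : y₀ ∈ e.source := e.map_target a3.1
    have hey : e y₀ = Φ.symm z := e.right_inv a3.1
    have b1 : ∀ᶠ y in 𝓝 y₀, y ∈ e.source := e.open_source.mem_nhds hy₀s
    have b2 : ∀ᶠ y in 𝓝 y₀, e y ∈ Φ.source :=
      (e.continuousAt hy₀s).preimage_mem_nhds
        (Φ.open_source.mem_nhds (by rw [hey]; exact Φ.map_target a1))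
    have b3 : ∀ᶠ y in 𝓝 y₀, Ξ (e y) ∈ ball (Q.f x₀, (0 : W)) r := by
      have c1 : ContinuousAt (fun y => Ξ (e y)) y₀ := by
        refine ContinuousAt.comp (g := Ξ) (f := e) ?_ (e.continuousAt hy₀s)
        rw [hey]
        exact (hΞa _ ⟨a3.1, a3.2.1⟩).continuousAt
      refine c1.preimage_mem_nhds (isOpen_ball.mem_nhds ?_)
      rw [hey, a4]
      exact hz
    filter_upwards [b1, b2, b3] with y c1 c2 c3
    have c4 : Ξ (e y) = (Q.f y, π (e y - z₀)) := by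
      simp only [hΞ, hG, e.left_inv c1]
    refine ⟨π (e y - z₀), by rw [← c4]; exact c3, ?_⟩
    show e.symm (Φ.symm (Q.f y, π (e y - z₀))) = y
    rw [← c4]
    have c5 : Φ.symm (Ξ (e y)) = e y := Φ.left_inv c2
    rw [c5, e.left_inv c1]

/-- a function holomorphic along a disc -/
theorem an_disc {g : ℂ → M} {T : Set M} (hg : Disc A K κ T g) {ζ : ℂ}
    (hζ : ζ ∈ ball (0 : ℂ) 3) {i : A.ι} (hi : g ζ ∈ (A.e i).source) :
    AnalyticAt ℂ (fun w => A.e i (g w)) ζ := by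
  have h1 : ∀ᶠ w in 𝓝 ζ, w ∈ ball (0 : ℂ) 3 ∧ g w ∈ (A.e i).source := by
    have hc : ContinuousAt g ζ := hg.cont.continuousAt (isOpen_ball.mem_nhds hζ)
    have g1 : ∀ᶠ w in 𝓝 ζ, w ∈ ball (0 : ℂ) 3 := isOpen_ball.mem_nhds hζ
    exact g1.and (hc.preimage_mem_nhds ((A.e i).open_source.mem_nhds hi))
  obtain ⟨ε, hε, hb⟩ := Metric.eventually_nhds_iff_ball.1 h1
  have h2 : DifferentiableOn ℂ (fun w => A.e i (g w)) (ball ζ ε) := fun w hw =>
    (hg.hol w (hb w hw).1 i (hb w hw).2).differentiableWithinAt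
  exact h2.analyticAt (isOpen_ball.mem_nhds (mem_ball_self hε))

/-- a section which vanishes along a disc near `0` vanishes along the disc -/
theorem sec_zero_disc {g : ℂ → M} {T : Set M} (hg : Disc A K κ T g) {L : LB A}
    {t : A.ι → M → ℂ} (ht : IsHS L univ t)
    (h0 : ∀ᶠ ζ in 𝓝 (0 : ℂ), ∀ i, g ζ ∈ (A.e i).source → t i (g ζ) = 0) :
    ∀ ζ ∈ ball (0 : ℂ) 3, ∀ i, g ζ ∈ (A.e i).source → t i (g ζ) = 0 := by
  set Z : Set ℂ := {ζ | ∀ᶠ ζ' in 𝓝 ζ, ∀ i, g ζ' ∈ (A.e i).source → t i (g ζ') = 0} with hZ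
  have hZo : IsOpen Z := by
    rw [isOpen_iff_mem_nhds]
    intro c hc
    exact eventually_eventually_nhds.2 hc
  have hsub : ball (0 : ℂ) 3 ⊆ Z := by
    refine (convex_ball (0 : ℂ) 3).isPreconnected.subset_of_closure_inter_subset hZo
      ⟨0, mem_ball_self (by norm_num), h0⟩ ?_
    rintro c ⟨hc, hcb⟩
    obtain ⟨i, hi⟩ := A.cover (g c)
    have hcont : ContinuousAt g c := hg.cont.continuousAt (isOpen_ball.mem_nhds hcb)
    have h1 : AnalyticAt ℂ (fun ζ => t i (g ζ)) c := by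
      have h2 : AnalyticAt ℂ (fun w => t i ((A.e i).symm w)) (A.e i (g c)) :=
        hm_of_isHS ht hi i hi
      refine (AnalyticAt.comp (g := fun w => t i ((A.e i).symm w))
        (f := fun ζ => A.e i (g ζ)) h2 (an_disc hg hcb hi)).congr ?_
      filter_upwards [hcont.preimage_mem_nhds ((A.e i).open_source.mem_nhds hi)] with ζ hζ
      have hζ' : g ζ ∈ (A.e i).source := hζ
      simp only [Function.comp, (A.e i).left_inv hζ']
    have g1 : ∀ᶠ c' in 𝓝 c, g c' ∈ (A.e i).source :=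
      hcont.preimage_mem_nhds ((A.e i).open_source.mem_nhds hi)
    have h3 : ∀ᶠ c' in 𝓝 c, g c' ∈ (A.e i).source ∧
        AnalyticAt ℂ (fun ζ => t i (g ζ)) c' := g1.and h1.eventually_analyticAt
    obtain ⟨ε, hε, hball⟩ := Metric.eventually_nhds_iff_ball.1 h3
    obtain ⟨c1, hc1b, hc1Z⟩ := mem_closure_iff.1 hc _ isOpen_ball (mem_ball_self hε)
    have h4 : (fun ζ => t i (g ζ)) =ᶠ[𝓝 c1] 0 := by
      filter_upwards [hc1Z, isOpen_ball.mem_nhds hc1b] with c' hc' hb'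
      exact hc' i (hball c' hb').1
    have h5 : EqOn (fun ζ => t i (g ζ)) 0 (ball c ε) :=
      AnalyticOnNhd.eqOn_zero_of_preconnected_of_eventuallyEq_zero
        (fun c' hc' => (hball c' hc').2) (convex_ball c ε).isPreconnected hc1b h4
    show ∀ᶠ ζ' in 𝓝 c, _
    filter_upwards [isOpen_ball.mem_nhds (mem_ball_self hε)] with c' hc' j hj
    have hi' := (hball c' hc').1
    exact (ht.zero_iff ⟨hi', hj⟩ (mem_univ _)).1 (h5 hc')
  intro ζ hζ
  exact (hsub hζ).self_of_nhds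

/-- a section which vanishes near one point of a fibre (in the fibre) vanishes on the fibre -/
theorem sec_zero_fib (Q : QTube A K n κ R) {L : LB A} {t : A.ι → M → ℂ} (ht : IsHS L univ t)
    {z : M} (hz : z ∈ Q.U)
    (h0 : ∀ᶠ y in 𝓝 z, y ∈ Q.U → Q.f y = Q.f z → ∀ i, y ∈ (A.e i).source → t i y = 0) :
    ∀ x ∈ Q.U, Q.f x = Q.f z → ∀ i, x ∈ (A.e i).source → t i x = 0 := by
  intro x hx hxz i hi
  obtain ⟨g, hg, hg0, hg1⟩ := Q.q2 x hx z hz hxz
  have h3 : (0 : ℂ) ∈ ball (0 : ℂ) 3 := mem_ball_self (by norm_num)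
  have hc : ContinuousAt g 0 := hg.cont.continuousAt (isOpen_ball.mem_nhds h3)
  have h4 : ∀ᶠ ζ in 𝓝 (0 : ℂ), ∀ j, g ζ ∈ (A.e j).source → t j (g ζ) = 0 := by
    have h5 : ∀ᶠ ζ in 𝓝 (0 : ℂ), g ζ ∈ Q.U → Q.f (g ζ) = Q.f z → ∀ i,
        g ζ ∈ (A.e i).source → t i (g ζ) = 0 := by
      have := hc.tendsto
      rw [hg0] at this
      exact this.eventually h0
    filter_upwards [h5, isOpen_ball.mem_nhds h3] with ζ h6 h7
    have h8 := hg.mem ζ h7
    exact h6 h8.1 (h8.2.trans hxz)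
  have h5 := sec_zero_disc hg ht h4 1 (by rw [mem_ball_zero_iff]; norm_num) i
  rw [hg1] at h5
  exact h5 hi

/-- the cross relation spreads from a box to whole fibres -/
theorem cross_fib (Q : QTube A K n κ R) {L : LB A} {s s₀ : A.ι → M → ℂ} (hs : IsHS L univ s)
    (hs₀ : IsHS L univ s₀) {z : M} (hz : z ∈ Q.U)
    (hX : ∀ᶠ y in 𝓝 z, y ∈ Q.U → Q.f y = Q.f z → ∀ᶠ y' in 𝓝 z, y' ∈ Q.U → Q.f y' = Q.f z →
      ∀ i i', y ∈ (A.e i).source → y' ∈ (A.e i').source → s i y * s₀ i' y' = s i' y' * s₀ i y)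
    {x x' : M} (hx : x ∈ Q.U) (hx' : x' ∈ Q.U) (hxz : Q.f x = Q.f z) (hxz' : Q.f x' = Q.f z)
    {i i' : A.ι} (hi : x ∈ (A.e i).source) (hi' : x' ∈ (A.e i').source) :
    s i x * s₀ i' x' = s i' x' * s₀ i x := by
  have h1 : ∀ᶠ y in 𝓝 z, y ∈ Q.U → Q.f y = Q.f z → ∀ j, y ∈ (A.e j).source →
      s i x * s₀ j y = s j y * s₀ i x := by
    filter_upwards [hX] with y hy hyU hyf j hj
    have ht : IsHS L univ (s j y • s₀ + (-(s₀ j y)) • s) := (hs₀.smul _).add (hs.smul _)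
    have h2 := sec_zero_fib Q ht hz (by
      filter_upwards [hy hyU hyf] with y' hy' hyU' hyf' j' hj'
      have := hy' hyU' hyf' j j' hj hj'
      simp only [Pi.add_apply, Pi.smul_apply, smul_eq_mul]
      linear_combination this) x hx hxz i hi
    simp only [Pi.add_apply, Pi.smul_apply, smul_eq_mul] at h2
    linear_combination -h2
  have ht : IsHS L univ (s i x • s₀ + (-(s₀ i x)) • s) := (hs₀.smul _).add (hs.smul _)
  have h2 := sec_zero_fib Q ht hz (by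
    filter_upwards [h1] with y hy hyU hyf j hj
    have := hy hyU hyf j hj
    simp only [Pi.add_apply, Pi.smul_apply, smul_eq_mul]
    linear_combination this) x' hx' hxz' i' hi'
  simp only [Pi.add_apply, Pi.smul_apply, smul_eq_mul] at h2
  linear_combination h2

end Crest.Agent.R281.Jb_257
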