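import Crest.Agent.R281.Loc1_310
import Crest.Agent.R281.Ja3_257
import Crest.Agent.R273.ChowR_313

/-!
# R281, JETS-ASM (J2) (helper310): 257's `JetDat` from MULT, SECTIONS, surjectivity, local description
-/

set_option autoImplicit false
set_option linter.unusedSectionVars false

open Set Filter Topology Complex Asymptotics Metric

namespace Crest.Agent.R281.Jd_310

open Crest.Agent.R275 Crest.Agent.R275.Geo Crest.Agent.R275.Core144
open Crest.Agent.R273.SerA_945 Crest.Agent.R273.SerB_945 Crest.Agent.R273.SerC_945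
open Crest.Agent.R273.SerE_945 Crest.Agent.R273.TD3_733 Crest.Agent.R273.FS_333
open Crest.Agent.R273.Defs_333 Crest.Agent.R273.SteinC_794
open Crest.Agent.R273.Chow_313 Crest.Agent.R260.Zt_313
open Crest.Agent.R281.AF_867 Crest.Agent.R281.Loc_310

noncomputable section

/-! ### orders of vanishing -/

theorem isBigO_shift {E G : Type*} [NormedAddCommGroup E] [NormedAddCommGroup G] {g : E → G}
    {z : E} {m : ℕ} : ((fun t => g (z + t)) =O[𝓝 0] fun t => ‖t‖ ^ m) ↔
      (g =O[𝓝 z] fun w => ‖w - z‖ ^ m) := by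
  constructor
  · intro h
    have h1 : Tendsto (fun w : E => w - z) (𝓝 z) (𝓝 0) := by
      have h2 : Continuous fun w : E => w - z := continuous_id.sub continuous_const
      have h3 := h2.tendsto z
      rwa [sub_self] at h3
    refine (h.comp_tendsto h1).congr_left fun w => ?_
    simp only [Function.comp_apply, add_sub_cancel]
  · intro h
    have h1 : Tendsto (fun t : E => z + t) (𝓝 0) (𝓝 z) := by
      have h2 : Continuous fun t : E => z + t := continuous_const.add continuous_id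
      have h3 := h2.tendsto 0
      rwa [add_zero] at h3
    have h2 := h.comp_tendsto h1
    refine h2.congr_right fun t => ?_
    simp only [Function.comp_apply, add_sub_cancel_left]

variable {n : ℕ} {M : Type} [TopologicalSpace M] {A : Atl n M} {O : LB A} {r : ℕ}

/-- the section `s` vanishes to order `m` at `x`, in the chart `i` -/
def Ord (A : Atl n M) (s : Fn A) (i : A.ι) (x : M) (m : ℕ) : Prop :=
  (fun w => s i ((A.e i).symm w)) =O[𝓝 (A.e i x)] fun w => ‖w - A.e i x‖ ^ m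

/-- affine coordinates -/
def crd (A : Atl n M) (F : Fin r → Fn A) (j0 : Fin r) (i : A.ι) (x : M) : Fin r → ℂ :=
  fun k => F k i x / F j0 i x

theorem crd_chg {F : Fin r → Fn A} (hF : ∀ k, IsHS O univ (F k)) (j0 : Fin r) {i j : A.ι} {x : M}
    (hi : x ∈ (A.e i).source) (hj : x ∈ (A.e j).source) : crd A F j0 i x = crd A F j0 j x := by
  funext k
  simp only [crd]
  rw [(hF k).tr i j x ⟨hi, hj⟩ (mem_univ x), (hF j0).tr i j x ⟨hi, hj⟩ (mem_univ x),
    mul_div_mul_left _ _ (O.ne_zero i j x)]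

/-- points of the affine part are determined by their coordinates -/
theorem crd_inj {F : Fin r → Fn A}
    (hinj : ∀ i j, ∀ x ∈ (A.e i).source, ∀ y ∈ (A.e j).source,
      (∃ c : ℂ, ∀ k, F k i x = c * F k j y) → x = y)
    {j0 : Fin r} {i j : A.ι} {x y : M} (hi : x ∈ (A.e i).source) (hj : y ∈ (A.e j).source)
    (hx : F j0 i x ≠ 0) (h : crd A F j0 i x = crd A F j0 j y) : x = y := by
  have hy : F j0 j y ≠ 0 := by
    intro h0
    have h1 := congrFun h j0
    simp only [crd, h0, div_zero, div_self hx] at h1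
    exact one_ne_zero h1
  refine hinj i j x hi y hj ⟨F j0 i x / F j0 j y, fun k => ?_⟩
  have h1 := congrFun h k
  simp only [crd] at h1
  rw [div_eq_div_iff hx hy] at h1
  field_simp
  linear_combination h1

/-- the linear form `X_{j0}` -/
def sg (j0 : Fin r) : Fin r → ℂ := Pi.single j0 1

theorem sg_sum (j0 : Fin r) (u : Fin r → ℂ) : ∑ k, sg j0 k * u k = u j0 := by
  classical
  simp [sg, Pi.single_apply]

theorem eval_hmg' (j0 : Fin r) {d : ℕ} {q : MvPolynomial (Fin r) ℂ} (hd : q.totalDegree ≤ d)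
    {u : Fin r → ℂ} (h0 : u j0 ≠ 0) : MvPolynomial.eval u (hmg (sg j0) d q) =
      u j0 ^ d * MvPolynomial.eval (fun k => u k / u j0) q := by
  have h1 := eval_hmg (sg j0) hd u (by rw [sg_sum]; exact h0)
  simp only [sg_sum] at h1
  exact h1

/-- a homogeneous polynomial at the affine coordinates -/
theorem eval_crd {p : MvPolynomial (Fin r) ℂ} {d : ℕ} (hp : p.IsHomogeneous d)
    {u : Fin r → ℂ} {j0 : Fin r} (h0 : u j0 ≠ 0) :
    MvPolynomial.eval u p = u j0 ^ d * MvPolynomial.eval (fun k => u k / u j0) p := by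
  rw [← eval_smul hp]
  have h1 : u = u j0 • fun k => u k / u j0 := by
    funext k
    simp only [Pi.smul_apply, smul_eq_mul]
    rw [mul_div_cancel₀ _ h0]
  rw [← h1]

/-- jets of a polynomial of degree `≤ d` in the affine coordinates versus jets of the section -/
theorem ord_iff {F : Fin r → Fn A} (hF : ∀ k, IsHS O univ (F k)) {j0 : Fin r} {i : A.ι} {x : M}
    (hx : x ∈ (A.e i).source) (h0 : F j0 i x ≠ 0) {s : Fn A} {d : ℕ} {q : MvPolynomial (Fin r) ℂ}
    (hs : ∀ y ∈ (A.e i).source, F j0 i y ≠ 0 →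
      s i y = F j0 i y ^ d * MvPolynomial.eval (crd A F j0 i y) q) {m : ℕ} :
    Ord A s i x m ↔
      ((fun t => MvPolynomial.eval (th A F j0 i x t) q) =O[𝓝 0] fun t => ‖t‖ ^ m) := by
  unfold Ord
  rw [← isBigO_shift (g := fun w => s i ((A.e i).symm w))]
  have han : AnalyticAt ℂ (fun t : Cn n => F j0 i ((A.e i).symm (A.e i x + t))) 0 :=
    an_shift (an_of_hol ((hF j0).hol i) hx)
  have hval : F j0 i ((A.e i).symm (A.e i x + 0)) = F j0 i x := by
    rw [add_zero, (A.e i).left_inv hx]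
  have hne : ∀ᶠ t in 𝓝 (0 : Cn n), F j0 i ((A.e i).symm (A.e i x + t)) ≠ 0 :=
    han.continuousAt.eventually_ne (by rw [hval]; exact h0)
  have hsrc : ∀ᶠ t in 𝓝 (0 : Cn n), (A.e i).symm (A.e i x + t) ∈ (A.e i).source := by
    have h1 : Tendsto (fun t : Cn n => A.e i x + t) (𝓝 0) (𝓝 (A.e i x)) := by
      have h2 : Continuous fun t : Cn n => A.e i x + t := continuous_const.add continuous_id
      have h3 := h2.tendsto 0
      rwa [add_zero] at h3
    filter_upwards [h1.eventually ((A.e i).open_target.mem_nhds ((A.e i).map_source hx))]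
      with t ht
    exact (A.e i).map_target ht
  have heq : ∀ᶠ t in 𝓝 (0 : Cn n), s i ((A.e i).symm (A.e i x + t)) =
      F j0 i ((A.e i).symm (A.e i x + t)) ^ d * MvPolynomial.eval (th A F j0 i x t) q := by
    filter_upwards [hne, hsrc] with t ht hts
    exact hs _ hts ht
  have hct : Tendsto (fun t : Cn n => F j0 i ((A.e i).symm (A.e i x + t)) ^ d) (𝓝 0)
      (𝓝 (F j0 i x ^ d)) := by
    have h1 := (han.continuousAt.tendsto).pow d
    rwa [hval] at h1
  have hb : (fun t : Cn n => F j0 i ((A.e i).symm (A.e i x + t)) ^ d) =O[𝓝 0]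
      fun _ => (1 : ℝ) := hct.isBigO_one ℝ
  have hb' : (fun t : Cn n => (F j0 i ((A.e i).symm (A.e i x + t)) ^ d)⁻¹) =O[𝓝 0]
      fun _ => (1 : ℝ) := (hct.inv₀ (pow_ne_zero d h0)).isBigO_one ℝ
  constructor
  · intro h
    have h1 := hb'.mul h
    simp only [one_mul] at h1
    refine h1.congr' ?_ EventuallyEq.rfl
    filter_upwards [heq, hne] with t ht ht0
    rw [ht, ← mul_assoc, inv_mul_cancel₀ (pow_ne_zero d ht0), one_mul]
  · intro h
    have h1 := hb.mul h
    simp only [one_mul] at h1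
    refine h1.congr' ?_ EventuallyEq.rfl
    filter_upwards [heq] with t ht
    exact ht.symm

/-! ### the assembly -/

variable {E₁ E₂ : Type*} [NormedAddCommGroup E₁] [NormedSpace ℂ E₁] [FiniteDimensional ℂ E₁]
  [NormedAddCommGroup E₂] [NormedSpace ℂ E₂] [FiniteDimensional ℂ E₂]

/-- the affine part of the fibre of `f` over `b` -/
def Tf (A : Atl n M) (F : Fin r → Fn A) (j0 : Fin r) (U : Set M) (f : M → E₁) (b : E₁) :
    Set (Fin r → ℂ) :=
  {v | ∃ y ∈ U, f y = b ∧ ∃ j, y ∈ (A.e j).source ∧ F j0 j y ≠ 0 ∧ v = crd A F j0 j y}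

/-- the affine equations -/
def aE (E0 : Finset (MvPolynomial (Fin r) ℂ)) (j0 : Fin r) :
    Option {p // p ∈ E0} → MvPolynomial (Fin r) ℂ
  | none => MvPolynomial.X j0 - 1
  | some p => p.1

theorem aE_mem (E0 : Finset (MvPolynomial (Fin r) ℂ)) (j0 : Fin r) (e : Option {p // p ∈ E0}) :
    aE E0 j0 e ∈ aff (E0 : Set (MvPolynomial (Fin r) ℂ)) j0 := by
  cases e with
  | none => exact mem_insert _ _
  | some p => exact mem_insert_of_mem _ p.2

theorem forall_aff {E0 : Finset (MvPolynomial (Fin r) ℂ)} {j0 : Fin r}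
    {Q : MvPolynomial (Fin r) ℂ → Prop} (h : ∀ e, Q (aE E0 j0 e)) :
    ∀ p ∈ aff (E0 : Set (MvPolynomial (Fin r) ℂ)) j0, Q p := by
  rintro p (rfl | hp)
  · exact h none
  · exact h (some ⟨p, hp⟩)

/-- the inputs of (J2) -/
structure Inp (A : Atl n M) (O : LB A) (F : Fin r → Fn A) (E0 : Finset (MvPolynomial (Fin r) ℂ))
    (U U' : Set M) (f : M → E₁) (m d : ℕ) : Prop where
  hF : ∀ k, IsHS O univ (F k)
  hE : Eqs F (E0 : Set (MvPolynomial (Fin r) ℂ))
  imm : ∀ i, ∀ x ∈ (A.e i).source, ∀ v : Cn n,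
    (∃ c : ℂ, ∀ k, df A i (F k i) x v = c * F k i x) → v = 0
  inj : ∀ i j, ∀ x ∈ (A.e i).source, ∀ y ∈ (A.e j).source,
    (∃ c : ℂ, ∀ k, F k i x = c * F k j y) → x = y
  surj : ∀ s : Fn A, IsHS (O ^ d) univ s → ∃ p : MvPolynomial (Fin r) ℂ, p.IsHomogeneous d ∧
    ∀ i, ∀ x ∈ (A.e i).source, s i x = MvPolynomial.eval (fun k => F k i x) p
  /-- MULT -/
  mult : ∀ s : Fn A, IsHS (O ^ d) univ s → ∀ i, ∀ x ∈ (A.e i).source, x ∈ U' → Ord A s i x m →
    ∀ y ∈ U, f y = f x → ∀ j, y ∈ (A.e j).source → s j y = 0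
  /-- SECTIONS -/
  sect : ∀ i, ∀ x ∈ (A.e i).source, x ∈ U' → ∀ y : M, ¬ (y ∈ U ∧ f y = f x) →
    ∃ s : Fn A, IsHS (O ^ d) univ s ∧ Ord A s i x m ∧ ∀ j, y ∈ (A.e j).source → s j y ≠ 0

/-- **(J2)** -/
theorem jetDat {F : Fin r → Fn A} {E0 : Finset (MvPolynomial (Fin r) ℂ)} {U U' : Set M}
    {f : M → E₁} {m d : ℕ} (h : Inp A O F E0 U U' f m d) (hUU : U' ⊆ U) {B : Set (E₁ × E₂)}
    {Ψ : E₁ × E₂ → M} {i : A.ι} {j0 : Fin r} (hi : ∀ z ∈ B, Ψ z ∈ (A.e i).source)
    (hU : ∀ z ∈ B, Ψ z ∈ U') (h0 : ∀ z ∈ B, F j0 i (Ψ z) ≠ 0) (hf : ∀ z ∈ B, f (Ψ z) = z.1) :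
    Ja3_257.JetDat (Tf A F j0 U f) B (fun z => crd A F j0 i (Ψ z)) (aE E0 j0) m d
      (fun z => th A F j0 i (Ψ z)) (fun z => fderiv ℂ (th A F j0 i (Ψ z)) 0) where
  e0 z hz := th_zero F j0 (hi z hz)
  e1 z hz := (loc_aff h.hF h.hE (hi z hz) (h.imm i _ (hi z hz))
    (h0 z hz)).1.differentiableAt.hasFDerivAt
  e2 z hz e := (loc_aff h.hF h.hE (hi z hz) (h.imm i _ (hi z hz)) (h0 z hz)).2.1 _
    (aE_mem E0 j0 e)
  e3 z hz y hy := by
    refine (loc_aff h.hF h.hE (hi z hz) (h.imm i _ (hi z hz)) (h0 z hz)).2.2.2.1 y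
      (forall_aff fun e => ?_)
    have h1 := hy e
    rw [th_zero F j0 (hi z hz)]
    exact h1
  j1 z hz P hP hO v hv := by
    obtain ⟨y, hyU, hfy, j, hj, hy0, rfl⟩ := hv
    have hh := hmg_homog (sg j0) hP
    have hs := isHS_evF h.hF hh
    have hev : ∀ (j : A.ι), ∀ y ∈ (A.e j).source, F j0 j y ≠ 0 →
        evF F (hmg (sg j0) d P) j y =
          F j0 j y ^ d * MvPolynomial.eval (crd A F j0 j y) P := by
      intro j y hj hy
      rw [evF_apply F _ hj, eval_hmg' j0 hP hy]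
      rfl
    have h1 := h.mult _ hs i (Ψ z) (hi z hz) (hU z hz)
      ((ord_iff h.hF (hi z hz) (h0 z hz) (fun y hy hy0 => hev i y hy hy0)).2 hO) y hyU
      (by rw [hfy, hf z hz]) j hj
    rw [hev j y hj hy0] at h1
    exact (mul_eq_zero.1 h1).resolve_left (pow_ne_zero _ hy0)
  j2 z hz v hv hvT := by
    obtain ⟨j, y, hj, hy0, rfl⟩ := pt_aff (A := A) h.hE (j0 := j0) (forall_aff hv)
    have hn : ¬ (y ∈ U ∧ f y = f (Ψ z)) := by
      rintro ⟨h1, h2⟩
      refine hvT ⟨y, h1, ?_, j, hj, hy0, rfl⟩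
      rw [h2, hf z hz]
    obtain ⟨s, hs, hO, hsy⟩ := h.sect i (Ψ z) (hi z hz) (hU z hz) y hn
    obtain ⟨p, hp, hps⟩ := h.surj s hs
    have hev : ∀ (j : A.ι), ∀ y ∈ (A.e j).source, F j0 j y ≠ 0 →
        s j y = F j0 j y ^ d * MvPolynomial.eval (crd A F j0 j y) p := by
      intro j y hj hy
      rw [hps j y hj, eval_crd (j0 := j0) hp hy]
      rfl
    refine ⟨p, hp.totalDegree_le, (ord_iff h.hF (hi z hz) (h0 z hz)
      (fun y hy hy0 => hev i y hy hy0)).1 hO, ?_⟩
    intro h1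
    refine hsy j hj ?_
    rw [hev j y hj hy0]
    change F j0 j y ^ d * MvPolynomial.eval (fun k => F k j y / F j0 j y) p = 0
    rw [h1, mul_zero]
  j3 z hz v hv e := by
    obtain ⟨y, -, -, j, hj, hy0, rfl⟩ := hv
    cases e with
    | none =>
      simp only [aE, crd, map_sub, MvPolynomial.eval_X, map_one]
      rw [div_self hy0, sub_self]
    | some p =>
      obtain ⟨⟨d', hd⟩, hz⟩ := h.hE.rel p.2
      have h1 := hz j y hj
      rw [eval_crd (j0 := j0) hd hy0] at h1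
      exact (mul_eq_zero.1 h1).resolve_left (pow_ne_zero _ hy0)
  j4 z hz z' hz' hT := by
    have h1 : crd A F j0 i (Ψ z) ∈ Tf A F j0 U f z.1 :=
      ⟨Ψ z, hUU (hU z hz), hf z hz, i, hi z hz, h0 z hz, rfl⟩
    rw [hT] at h1
    obtain ⟨y, -, hfy, j, hj, hy0, hc⟩ := h1
    have h2 := crd_inj h.inj (hi z hz) hj (h0 z hz) hc
    rw [← h2, hf z hz] at hfy
    exact hfy

end

end Crest.Agent.R281.Jd_310
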