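import Crest.Agent.R281.Jb1_257
import Crest.Agent.R281.Jd1_310

/-!
# Row 281, JETS assembly part 2 (helper257): sections of a power of `lb P` whose ratios are constant
# along the fibres of a `QTube`, of rank `n` at one point
-/

set_option autoImplicit false
set_option linter.unusedSectionVars false

open Set Filter Topology Complex Metric MeasureTheory

noncomputable section

namespace Crest.Agent.R281.Jb_257

open Crest.Agent.R275.Geo Crest.Agent.R275.Core144 Crest.Agent.R275.Loc2879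
open Crest.Agent.R273.Defs_333 Crest.Agent.R273.Kah_333 Crest.Agent.R273.FS_333
open Crest.Agent.R281.Rk_599 Crest.Agent.R281.Kd_22 Crest.Agent.R281.Kas_975
open Crest.Agent.R281.Qt_922 Crest.Agent.R281.Jd_310 Crest.Agent.R281.Ja3_257

variable {N n : ℕ} {M : Type} [TopologicalSpace M] {A : Atl N M} {K : Kah A} {κ R : ℝ}

/-- `exists_rational_jets` with a prescribed name for the dimension of the base -/
theorem exists_rational_jets_dim {E₁ E₂ : Type*} [NormedAddCommGroup E₁] [NormedSpace ℂ E₁]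
    [FiniteDimensional ℂ E₁] [NormedAddCommGroup E₂] [NormedSpace ℂ E₂] [FiniteDimensional ℂ E₂]
    {V : Type*} [NormedAddCommGroup V] [NormedSpace ℂ V]
    {κ' ι : Type} [Fintype κ'] [Fintype ι] {T : E₁ → Set (κ' → ℂ)} {φ : E₁ × E₂ → κ' → ℂ}
    {E : ι → MvPolynomial κ' ℂ} {m d : ℕ} {θ : E₁ × E₂ → V → κ' → ℂ}
    {L : E₁ × E₂ → V →L[ℂ] (κ' → ℂ)} {k : Type} [Field k] [Countable k] [Algebra k ℂ]
    {z₁ : E₁ × E₂} {r : ℝ} (hr : 0 < r) (hφ : AnalyticOnNhd ℂ φ (ball z₁ r))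
    (h : JetDat T (ball z₁ r) φ E m d θ L)
    (hk : ∀ e, E e ∈ (MvPolynomial.map (σ := κ') (algebraMap k ℂ)).range)
    {q : ℕ} (hq : Module.finrank ℂ E₁ = q) :
    ∃ P Q : Fin q → MvPolynomial κ' k, ∃ z₀ ∈ ball z₁ r,
      (∀ j, MvPolynomial.aeval (φ z₀) (Q j) ≠ 0) ∧
      (∀ j, ∀ z ∈ ball z₁ r, ∀ z' ∈ ball z₁ r, z.1 = z'.1 →
        MvPolynomial.aeval (φ z) (P j) * MvPolynomial.aeval (φ z') (Q j) =
          MvPolynomial.aeval (φ z') (P j) * MvPolynomial.aeval (φ z) (Q j)) ∧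
      LinearIndependent ℂ (fun j => fderiv ℂ
        (fun z => MvPolynomial.aeval (φ z) (P j) / MvPolynomial.aeval (φ z) (Q j)) z₀) := by
  subst hq
  letI : MeasurableSpace (E₁ × E₂) := borel (E₁ × E₂)
  haveI : BorelSpace (E₁ × E₂) := ⟨rfl⟩
  obtain ⟨P, Q, z₀, hz₀, h1, h2, h3⟩ := exists_rational_jets
    (MeasureTheory.Measure.addHaar (G := E₁ × E₂)) hr hφ h hk
  exact ⟨P, Q, z₀, hz₀, h1, h2, h3⟩

/-- **(K7)** -/
theorem exists_sections_qtube (P : ProjD A) (Q : QTube A K n κ R)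
    {E0 : Finset (MvPolynomial (Fin (P.N + 1)) ℂ)} {U' : Set M} (hUU : U' ⊆ Q.U) {m d : ℕ}
    (h : Inp A (lb P) (sec P) E0 Q.U U' Q.f m d) {x₀ : M} (hx₀ : U' ∈ 𝓝 x₀) :
    ∃ r : ℝ, 0 < r ∧ ∃ D : ℕ, 0 < D ∧ ∃ s : Fin (n + 1) → A.ι → M → ℂ,
      (∀ a, IsHS ((lb P) ^ D) univ (s a)) ∧
      (∀ a, ∀ x ∈ Q.U, ∀ x' ∈ Q.U, Q.f x = Q.f x' → Q.f x ∈ ball (Q.f x₀) r →
        ∀ i i', x ∈ (A.e i).source → x' ∈ (A.e i').source →
          s a i x * s 0 i' x' = s a i' x' * s 0 i x) ∧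
      ∃ x ∈ Q.U, Q.f x ∈ ball (Q.f x₀) r ∧ ∀ i, x ∈ (A.e i).source → Rk A s i x := by
  classical
  have hx₀U : x₀ ∈ Q.U := hUU (mem_of_mem_nhds hx₀)
  obtain ⟨i₀, hi₀⟩ := A.cover x₀
  obtain ⟨k0, hk0⟩ := exists_F_ne P hi₀
  have hF : ∀ i l x, x ∈ (A.e i).source → Hm A (fun x => P.F i x l) x := fun i l x hx =>
    hm_of_holAt (P.hol i l) isOpen_univ hx (mem_univ x)
  have hO : U' ∩ {x | P.F i₀ x k0 ≠ 0} ∈ 𝓝 x₀ :=
    inter_mem hx₀ ((hF i₀ k0 x₀ hi₀).ev_ne hk0)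
  obtain ⟨W, Psi, r, hr, hPsi0, hbox, hcov⟩ := exists_box Q hx₀U hi₀ hO
  set b₀ := Q.f x₀ with hb₀
  have hmem : ∀ z : Cn n × W, z ∈ ball (b₀, (0 : W)) r ↔ z.1 ∈ ball b₀ r ∧ z.2 ∈ ball (0 : W) r := by
    intro z
    rw [← ball_prod_same]
    exact Iff.rfl
  set φ : Cn n × W → Fin (P.N + 1) → ℂ := fun z => crd A (sec P) k0 i₀ (Psi z) with hφd
  have hφF : ∀ z ∈ ball (b₀, (0 : W)) r, ∀ l,
      φ z l = P.F i₀ (Psi z) l / P.F i₀ (Psi z) k0 := by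
    intro z hz l
    obtain ⟨h1, h2, h3, h4, h5, h6⟩ := hbox z hz
    simp only [hφd, crd]
    rw [sec_eq P h2 l, sec_eq P h2 k0]
  have hpull : ∀ z ∈ ball (b₀, (0 : W)) r, ∀ f : M → ℂ, Hm A f (Psi z) →
      AnalyticAt ℂ (fun z => f (Psi z)) z := by
    intro z hz f hf
    obtain ⟨h1, h2, h3, h4, h5, h6⟩ := hbox z hz
    refine (AnalyticAt.comp (g := fun w => f ((A.e i₀).symm w)) (f := fun q => A.e i₀ (Psi q))
      (hf i₀ h2) h6).congr ?_
    filter_upwards [h5.preimage_mem_nhds ((A.e i₀).open_source.mem_nhds h2)] with q hq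
    have hq' : Psi q ∈ (A.e i₀).source := hq
    simp only [Function.comp, (A.e i₀).left_inv hq']
  have hφ : AnalyticOnNhd ℂ φ (ball (b₀, (0 : W)) r) := by
    intro z hz
    obtain ⟨h1, h2, h3, h4, h5, h6⟩ := hbox z hz
    rw [analyticAt_pi_iff]
    intro l
    refine AnalyticAt.congr (f := fun z => P.F i₀ (Psi z) l / P.F i₀ (Psi z) k0) ?_ ?_
    · exact (hpull z hz _ (hF i₀ l _ h2)).div (hpull z hz _ (hF i₀ k0 _ h2)) h3.2
    · filter_upwards [isOpen_ball.mem_nhds hz] with q hq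
      exact (hφF q hq l).symm
  have hjet : JetDat (Tf A (sec P) k0 Q.U Q.f) (ball (b₀, (0 : W)) r) φ (aE E0 k0) m d
      (fun z => Crest.Agent.R281.Loc_310.th A (sec P) k0 i₀ (Psi z))
      (fun z => fderiv ℂ (Crest.Agent.R281.Loc_310.th A (sec P) k0 i₀ (Psi z)) 0) :=
    jetDat h hUU (fun z hz => (hbox z hz).2.1) (fun z hz => (hbox z hz).2.2.1.1)
      (fun z hz => by
        rw [sec_eq P (hbox z hz).2.1 k0]
        exact (hbox z hz).2.2.1.2)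
      (fun z hz => (hbox z hz).2.2.2.1)
  obtain ⟨k, hkc, hk⟩ := exists_field (aE E0 k0)
  obtain ⟨Pp, Qq, z₀, hz₀, hQ, hX, hli⟩ := exists_rational_jets_dim (k := k) hr hφ hjet hk
    (finrank_euclideanSpace_fin (𝕜 := ℂ) (n := n))
  have hzF : ∀ z ∈ ball (b₀, (0 : W)) r, ∀ i, Psi z ∈ (A.e i).source →
      P.F i (Psi z) k0 ≠ 0 := by
    intro z hz i hi h
    obtain ⟨h1, h2, h3, -⟩ := hbox z hz
    obtain ⟨c, hc⟩ := P.tr i₀ i (Psi z) ⟨h2, hi⟩
    apply h3.2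
    rw [hc, Pi.smul_apply, h, smul_zero]
  have hφeq : ∀ z ∈ ball (b₀, (0 : W)) r, ∀ i, Psi z ∈ (A.e i).source → ∀ l,
      φ z l = P.F i (Psi z) l / P.F i (Psi z) k0 := by
    intro z hz i hi l
    obtain ⟨h1, h2, h3, -⟩ := hbox z hz
    obtain ⟨c, hc⟩ := P.tr i₀ i (Psi z) ⟨h2, hi⟩
    have hc0 : c ≠ 0 := by
      rintro rfl
      apply h3.2
      rw [hc, zero_smul]; rfl
    rw [hφF z hz l, hc, Pi.smul_apply, Pi.smul_apply, smul_eq_mul, smul_eq_mul,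
      mul_div_mul_left _ _ hc0]
  obtain ⟨D, hD, s, hs, hcross, hrk⟩ := exists_sections (k := k) P k0 (Psi := Psi) isOpen_ball
    (fun z hz => (hbox z hz).2.2.2.2.1.continuousWithinAt)
    (fun i z hz => by
      have h2 : DifferentiableAt ℂ (fun z => A.e i (Psi z)) z := by
        rw [differentiableAt_euclidean]
        intro a
        have h3 : Hm A (fun x => A.e i x a) (Psi z) :=
          hm_chart (φ := fun w : Cn N => w a) hz.2
            ((EuclideanSpace.proj (𝕜 := ℂ) (ι := Fin N) a).analyticAt _)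
        exact (hpull z hz.1 _ h3).differentiableAt
      exact h2.differentiableWithinAt)
    hzF hφeq (R := fun z z' => z.1 = z'.1) hX hz₀ hQ hli
  refine ⟨r, hr, D, hD, s, hs, ?_, Psi z₀, (hbox z₀ hz₀).1, ?_, hrk⟩
  · intro a x hx x' hx' hxx' hb i i' hi hi'
    set z : Cn n × W := (Q.f x, 0) with hz
    have hzb : z ∈ ball (b₀, (0 : W)) r := (hmem z).2 ⟨hb, mem_ball_self hr⟩
    have hzf : Q.f (Psi z) = Q.f x := (hbox z hzb).2.2.2.1
    refine cross_fib Q (hs a) (hs 0) (z := Psi z) (hbox z hzb).1 ?_ hx hx' hzf.symm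
      (by rw [hzf, hxx']) hi hi'
    filter_upwards [hcov z hzb] with y hy hyU hyf
    obtain ⟨w, hw, hwy⟩ := hy
    filter_upwards [hcov z hzb] with y' hy' hyU' hyf'
    obtain ⟨w', hw', hwy'⟩ := hy'
    intro j j' hj hj'
    have h1 := hcross (Q.f y, w) hw (Q.f y', w') hw' (by
      show Q.f y = Q.f y'
      rw [hyf, hyf']) j j' (by rw [hwy]; exact hj) (by rw [hwy']; exact hj') a
    rw [hwy, hwy'] at h1
    exact h1
  · rw [(hbox z₀ hz₀).2.2.2.1]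
    exact ((hmem z₀).1 hz₀).1

/-- the cross relation on a holomorphic tube inside the fibres of `Q.f` = the hypothesis of
22's `kappa_of_ns` -/
theorem cross_tube {F B : Type} [NormedAddCommGroup F] [NormedSpace ℂ F] [NormedAddCommGroup B]
    [NormedSpace ℂ B] (Q : QTube A K n κ R) (T : HTube A F B) {V : Set (Cn n)}
    (hT : ∀ b ∈ T.Om, ∀ c, T.P (c, b) ∈ Q.U ∧ Q.f (T.P (c, b)) = Q.f (T.P (0, b)))
    (hV : ∀ b ∈ T.Om, Q.f (T.P (0, b)) ∈ V) {q : ℕ} {s : Fin (q + 1) → A.ι → M → ℂ}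
    (hs : ∀ a, ∀ x ∈ Q.U, ∀ x' ∈ Q.U, Q.f x = Q.f x' → Q.f x ∈ V →
        ∀ i i', x ∈ (A.e i).source → x' ∈ (A.e i').source →
          s a i x * s 0 i' x' = s a i' x' * s 0 i x) :
    ∀ j, ∀ c c' : F, ∀ b ∈ T.Om, ∀ i i', T.P (c, b) ∈ (A.e i).source →
      T.P (c', b) ∈ (A.e i').source → s j i (T.P (c, b)) * s 0 i' (T.P (c', b)) =
        s j i' (T.P (c', b)) * s 0 i (T.P (c, b)) := by
  intro j c c' b hb i i' hi hi'
  exact hs j _ (hT b hb c).1 _ (hT b hb c').1 (by rw [(hT b hb c).2, (hT b hb c').2])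
    (by rw [(hT b hb c).2]; exact hV b hb) i i' hi hi'

end Crest.Agent.R281.Jb_257
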