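import Crest.Agent.R281.Jd1_310
import Crest.Agent.R281.Qt1_922
import Crest.Agent.R281.AF2_867

/-!
# R281, JETS-ASM (J2), part 2 (helper310): the inputs from `QTube`, MULT and SECTIONS

`MULT` : 10's multiplicity bound (in `Qt_922.Disc`); `SEC` : 578's sections;
`exists_inp` : `Inp` for `O = lb P = Lb ^ m0`, all large degrees.
-/

set_option autoImplicit false
set_option linter.unusedSectionVars false

open Set Filter Topology Complex Asymptotics Metric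
open scoped ComplexOrder

namespace Crest.Agent.R281.Jd_310

open Crest.Agent.R275 Crest.Agent.R275.Geo Crest.Agent.R275.Core144
open Crest.Agent.R273.SerA_945 Crest.Agent.R273.SerB_945 Crest.Agent.R273.SerC_945
open Crest.Agent.R273.SerE_945 Crest.Agent.R273.TD3_733 Crest.Agent.R273.FS_333
open Crest.Agent.R273.Defs_333 Crest.Agent.R273.SteinC_794 Crest.Agent.R273.Kah_333
open Crest.Agent.R273.Chow_313 Crest.Agent.R260.Zt_313
open Crest.Agent.R281.AF_867 Crest.Agent.R281.Loc_310 Crest.Agent.R281.Qt_922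

noncomputable section

variable {N : ℕ} {M : Type} [TopologicalSpace M]

/-- the multiplicity bound, for sections of all line bundles -/
def MULT (A : Atl N M) (K : Kah A) (κ : ℝ) : Prop :=
  ∀ (T : Set M), IsCompact T → ∀ (L : LB A) (h : HM L) (C : ℝ), 0 ≤ C →
    (∀ i, ∀ y ∈ (A.e i).source, y ∈ T → ((C : ℂ) • K.g i y - cur h i y).PosSemidef) →
    ∀ s : Fn A, IsHS L univ s → ∀ (i : A.ι) (x : M) (m : ℕ), x ∈ (A.e i).source →
    Ord A s i x m → (∀ z ∈ T, ∃ g, Disc A K κ T g ∧ g 0 = z ∧ g 1 = x) →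
    2 * (C * κ) < m * Real.log 2 → ∀ y ∈ T, ∀ j, y ∈ (A.e j).source → s j y = 0

/-- sections of the powers `Lb ^ p`, `p ≥ p0`, with the order of vanishing `mu p` at a point of the
inner tube, not vanishing at a given point outside the fibre -/
def SEC (A : Atl N M) {K : Kah A} {n : ℕ} {κ R : ℝ} (q : QTube A K n κ R) (Lb : LB A) (R' : ℝ)
    (p0 : ℕ) (mu : ℕ → ℕ) : Prop :=
  ∀ p, p0 ≤ p → ∀ (i : A.ι) (x : M), x ∈ (A.e i).source → x ∈ q.U → ‖q.f x‖ < R' →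
    ∀ y : M, ¬ (y ∈ q.U ∧ q.f y = q.f x) →
      ∃ s : Fn A, IsHS (Lb ^ p) univ s ∧ Ord A s i x (mu p) ∧
        ∀ j, y ∈ (A.e j).source → s j y ≠ 0

section

variable {A : Atl N M} {K : Kah A} {n : ℕ} {κ R : ℝ}

theorem isCompact_fib [T2Space M] (q : QTube A K n κ R) {x : M} (hx : x ∈ q.U) :
    IsCompact {y | y ∈ q.U ∧ q.f y = q.f x} := by
  have hC := q.cpt ‖q.f x‖ (q.lt x hx)
  have h1 : {y | y ∈ q.U ∧ q.f y = q.f x} =
      {y | y ∈ q.U ∧ ‖q.f y‖ ≤ ‖q.f x‖} ∩ q.f ⁻¹' {q.f x} := by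
    ext y
    constructor
    · rintro ⟨h1, h2⟩
      exact ⟨⟨h1, by rw [h2]⟩, h2⟩
    · rintro ⟨⟨h1, _⟩, h2⟩
      exact ⟨h1, h2⟩
  rw [h1]
  refine hC.of_isClosed_subset ?_ inter_subset_left
  exact (q.cont.mono fun y hy => hy.1).preimage_isClosed_of_isClosed hC.isClosed
    isClosed_singleton

/-- the order `m` needed by MULT -/
theorem floor_ok {c κ : ℝ} (p : ℕ) (hc : 0 ≤ c * κ) :
    2 * ((c * p) * κ) < ((⌊3 * κ * c * p⌋₊ + 1 : ℕ) : ℝ) * Real.log 2 := by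
  have h1 : 3 * κ * c * p < ((⌊3 * κ * c * p⌋₊ + 1 : ℕ) : ℝ) := by
    push_cast
    exact Nat.lt_floor_add_one _
  have h2 : (0.6931471803 : ℝ) < Real.log 2 := Real.log_two_gt_d9
  have h3 : 0 ≤ (c * p) * κ := by
    have : (c * p) * κ = (c * κ) * p := by ring
    rw [this]
    positivity
  have h4 : (0 : ℝ) < ((⌊3 * κ * c * p⌋₊ + 1 : ℕ) : ℝ) := by positivity
  calc 2 * ((c * p) * κ) = 3 * κ * c * p * (2 / 3) := by ring
    _ ≤ ((⌊3 * κ * c * p⌋₊ + 1 : ℕ) : ℝ) * (2 / 3) := by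
        exact mul_le_mul_of_nonneg_right h1.le (by norm_num)
    _ < ((⌊3 * κ * c * p⌋₊ + 1 : ℕ) : ℝ) * Real.log 2 := by
        refine mul_lt_mul_of_pos_left ?_ h4
        linarith

variable [T2Space M] [ConnectedSpace M] [CompactSpace M] [Finite A.ι]

/-- **`Inp` from QTube, MULT, SECTIONS** -/
theorem exists_inp (PA : Part A) (hD : D2 A) (q : QTube A K n κ R) {Lb : LB A} (h : HM Lb)
    {c : ℝ} (hc : 0 ≤ c) (hcur : ∀ i, ∀ y ∈ (A.e i).source, cur h i y = (c : ℂ) • K.g i y)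
    (hM : MULT A K κ) {R' : ℝ} {p0 : ℕ} {mu : ℕ → ℕ}
    (hmu : ∀ p, p0 ≤ p → 2 * ((c * p) * κ) < mu p * Real.log 2)
    (hS : SEC A q Lb R' p0 mu) (P : ProjD A) {m0 : ℕ} (hm0 : 0 < m0) (hP : lb P = Lb ^ m0) :
    ∃ E0 : Finset (MvPolynomial (Fin (P.N + 1)) ℂ), ∃ d0 : ℕ, ∀ d, d0 ≤ d →
      Inp A (lb P) (fun k => sec P k) E0 q.U {x | x ∈ q.U ∧ ‖q.f x‖ < R'} q.f (mu (m0 * d)) d := by
  obtain ⟨E0, hE0, hE⟩ := exists_eqs_proj PA hD P
  obtain ⟨m1, hm1⟩ := surj_proj PA hD P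
  refine ⟨E0, max p0 m1, fun d hd => ?_⟩
  have hd0 : p0 ≤ m0 * d := (le_trans (le_max_left _ _) hd).trans (Nat.le_mul_of_pos_left d hm0)
  have hpw : lb P ^ d = Lb ^ (m0 * d) := by rw [hP, ← pow_mul]
  refine ⟨fun k => isHS_sec P k, hE _ Subset.rfl hE0, ?_, ?_, hm1 d (le_trans (le_max_right _ _) hd),
    ?_, ?_⟩
  · rintro i x hx v ⟨c, hc⟩
    refine (ofProj P).imm i (A.e i x) ((A.e i).map_source hx) v ⟨c, fun k => ?_⟩
    rw [(A.e i).left_inv hx]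
    exact hc k
  · rintro i j x hx y hy ⟨c, hc⟩
    refine P.inj i j x hx y hy ⟨c, funext fun k => ?_⟩
    have h1 := hc k
    rw [sec_eq P hx, sec_eq P hy] at h1
    exact h1
  · intro s hs i x hx hxU hO y hy hfy j hj
    rw [hpw] at hs
    refine hM {y | y ∈ q.U ∧ q.f y = q.f x} (isCompact_fib q hxU.1) _
      (Crest.Agent.R273.HM_333.pow h (m0 * d)) (c * (m0 * d : ℕ)) (by positivity)
      (fun i y hy _ => ?_) s hs i x _ hx hO (fun z hz => ?_) (hmu _ hd0) y ⟨hy, hfy⟩ j hj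
    · rw [cur_pow h _ i hy, hcur i y hy, smul_smul]
      have h1 : (((c * (m0 * d : ℕ) : ℝ)) : ℂ) = ((m0 * d : ℕ) : ℂ) * (c : ℂ) := by
        push_cast
        ring
      rw [h1, sub_self]
      exact Matrix.PosSemidef.zero
    · obtain ⟨g, hg, hg0, hg1⟩ := q.q2 x hxU.1 z hz.1 hz.2.symm
      exact ⟨g, hg, hg0, hg1⟩
  · intro i x hx hxU y hy
    obtain ⟨s, hs, hO, hsy⟩ := hS (m0 * d) hd0 i x hx hxU.1 hxU.2 y hy
    exact ⟨s, by rw [hpw]; exact hs, hO, hsy⟩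

end

end

end Crest.Agent.R281.Jd_310
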