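import Crest.Agent.R281.Mult1_10
import Crest.Agent.R281.Qt1_922

/-!
# R281 (S0424), MULT (helper10), part 2: the multiplicity bound for the fibres of a `QTube`

`fib Q x`   : the fibre of the tube through `x` (compact)
`mult_fib`  : a section of `L ^ p` (on a neighbourhood of the fibre), `cur h = c K`, which vanishes
              to order `m > 3 κ c p` at `x`, is zero on the fibre through `x`.
-/

set_option autoImplicit false
set_option linter.unusedSectionVars false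

open Set Filter Topology Complex Metric Asymptotics
open scoped ContDiff Matrix ComplexConjugate Manifold ComplexOrder

namespace Crest.Agent.R281.Mult_10

open Crest.Agent.R275.Geo Crest.Agent.R275.Core144 Crest.Agent.R275.GC293
open Crest.Agent.R273.Defs_333 Crest.Agent.R273.Kah_333 Crest.Agent.R273.HM_333
open Crest.Agent.R281.SAsm_790 (qf)
open Crest.Agent.R281.Qt_922 (QTube)

noncomputable section

variable {N : ℕ} {M : Type} [TopologicalSpace M] {A : Atl N M}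

theorem kq_eq_qf (K : Kah A) (i : A.ι) (y : M) (v : Cn N) : kq K i y v = qf K i y v := by
  unfold kq qf
  congr 1
  simp only [dotProduct, Matrix.mulVec, Pi.star_apply, RCLike.star_def, Finset.mul_sum,
    Matrix.transpose_apply]
  rw [Finset.sum_comm]
  refine Finset.sum_congr rfl fun a _ => Finset.sum_congr rfl fun b _ => ?_
  ring

theorem disc_of_qt {K : Kah A} {κ : ℝ} {T : Set M} {g : ℂ → M} (hg : Qt_922.Disc A K κ T g) :
    Disc K T κ g where
  mem := hg.mem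
  cont := hg.cont
  hol := fun i ζ hζ hi => hg.hol ζ hζ i hi
  speed := fun i ζ hζ hi => by
    rw [kq_eq_qf]
    exact hg.q ζ hζ i hi

variable {K : Kah A} {n : ℕ} {κ R : ℝ}

/-- the fibre of the tube through `x` -/
def fib (Q : QTube A K n κ R) (x : M) : Set M := {y | y ∈ Q.U ∧ Q.f y = Q.f x}

theorem mem_fib {Q : QTube A K n κ R} {x : M} (hx : x ∈ Q.U) : x ∈ fib Q x := ⟨hx, rfl⟩

theorem fib_sub (Q : QTube A K n κ R) (x : M) : fib Q x ⊆ Q.U := fun _ hy => hy.1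

theorem fib_compact (Q : QTube A K n κ R) {x : M} (hx : x ∈ Q.U) : IsCompact (fib Q x) := by
  have h1 := Q.cpt ‖Q.f x‖ (Q.lt x hx)
  have h2 : fib Q x = {y | y ∈ Q.U ∧ ‖Q.f y‖ ≤ ‖Q.f x‖} ∩ Q.f ⁻¹' {Q.f x} := by
    ext y
    constructor
    · rintro ⟨h3, h4⟩
      exact ⟨⟨h3, by rw [h4]⟩, h4⟩
    · rintro ⟨⟨h3, _⟩, h4⟩
      exact ⟨h3, h4⟩
  have hc : ContinuousOn Q.f {y | y ∈ Q.U ∧ ‖Q.f y‖ ≤ ‖Q.f x‖} :=
    Q.cont.mono fun y hy => hy.1
  rw [h2]
  -- a relatively closed subset of a compact set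
  rw [isCompact_iff_isCompact_univ]
  have h3 : IsClosed {y : ↥{y | y ∈ Q.U ∧ ‖Q.f y‖ ≤ ‖Q.f x‖} | Q.f y = Q.f x} :=
    isClosed_eq (continuousOn_iff_continuous_domRestrict.1 hc) continuous_const
  have h4 : CompactSpace ↥{y | y ∈ Q.U ∧ ‖Q.f y‖ ≤ ‖Q.f x‖} := isCompact_iff_compactSpace.1 h1
  have h5 := (h3.isCompact).image continuous_subtype_val
  rw [← isCompact_iff_isCompact_univ]
  convert h5 using 1
  ext y
  constructor
  · rintro ⟨h6, h7⟩
    exact ⟨⟨y, h6⟩, h7, rfl⟩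
  · rintro ⟨⟨y', h6⟩, h7, rfl⟩
    exact ⟨h6, h7⟩

theorem exists_disc (Q : QTube A K n κ R) {x : M} (hx : x ∈ Q.U) :
    ∀ z ∈ fib Q x, ∃ g : ℂ → M, Disc K (fib Q x) κ g ∧ g 0 = z ∧ g 1 = x := by
  intro z hz
  obtain ⟨g, hg, h0, h1⟩ := Q.q2 x hx z hz.1 hz.2.symm
  exact ⟨g, disc_of_qt hg, h0, h1⟩

theorem kappa_nonneg (Q : QTube A K n κ R) {x : M} (hx : x ∈ Q.U) : 0 ≤ κ := by
  obtain ⟨g, hg, h0, h1⟩ := exists_disc Q hx x (mem_fib hx)
  obtain ⟨i, hi⟩ := A.cover (g 0)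
  have h2 := hg.speed i 0 (by simp) hi
  refine le_trans ?_ h2
  set v : Cn N := deriv (fun ξ => A.e i (g ξ)) 0
  have h3 := (K.pos i (g 0) hi).posSemidef.dotProduct_mulVec_nonneg (fun a => conj (v a))
  have h4 : star (fun a => conj (v a)) ⬝ᵥ ((K.g i (g 0)) *ᵥ (fun a => conj (v a))) =
      ∑ a, ∑ b, K.g i (g 0) a b * v a * conj (v b) := by
    simp only [dotProduct, Matrix.mulVec, Pi.star_apply, RCLike.star_def, Finset.mul_sum,
      Complex.conj_conj]
    refine Finset.sum_congr rfl fun a _ => Finset.sum_congr rfl fun b _ => ?_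
    ring
  rw [h4] at h3
  exact (Complex.le_def.1 h3).1

/-- **the multiplicity bound for the fibres of the tube** -/
theorem mult_fib (Q : QTube A K n κ R) {x : M} (hx : x ∈ Q.U) {L : LB A} (h : HM L) {c : ℝ}
    (hc : 0 ≤ c)
    (hcur : ∀ i, ∀ y ∈ (A.e i).source, y ∈ fib Q x → cur h i y = (c : ℂ) • K.g i y)
    {U : Set M} (hU : IsOpen U) (hTU : fib Q x ⊆ U) (p : ℕ) {s : A.ι → M → ℂ}
    (hs : IsHS (L ^ p) U s) {i₀ : A.ι} (hi : x ∈ (A.e i₀).source) {m : ℕ}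
    (hj : (fun w => s i₀ ((A.e i₀).symm w)) =O[𝓝 (A.e i₀ x)] fun w => ‖w - A.e i₀ x‖ ^ m)
    (hm : 3 * κ * c * p < m) : ∀ y ∈ fib Q x, ∀ i, y ∈ (A.e i).source → s i y = 0 :=
  mult_pow (fib_compact Q hx) K h hcur hc (kappa_nonneg Q hx) hU hTU p hs hi (exists_disc Q hx)
    hj hm

end

end Crest.Agent.R281.Mult_10
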