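import Crest.Agent.R281.Jd2_310
import Crest.Agent.R281.Mult2_10

/-!
# R281, JETS-ASM (J2), part 3 (helper310): the inputs from `QTube` and SECTIONS (MULT = Mult2_10)
-/

set_option autoImplicit false
set_option linter.unusedSectionVars false

open Set Filter Topology Complex Asymptotics Metric
open scoped ComplexOrder

namespace Crest.Agent.R281.Jd_310

open Crest.Agent.R275 Crest.Agent.R275.Geo Crest.Agent.R275.Core144
open Crest.Agent.R273.SerA_945 Crest.Agent.R273.SerB_945 Crest.Agent.R273.SerC_945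
open Crest.Agent.R273.SerE_945 Crest.Agent.R273.TD3_733 Crest.Agent.R273.FS_333
open Crest.Agent.R273.Defs_333 Crest.Agent.R273.SteinC_794 Crest.Agent.R273.Kah_333
open Crest.Agent.R273.Chow_313 Crest.Agent.R260.Zt_313
open Crest.Agent.R281.AF_867 Crest.Agent.R281.Loc_310 Crest.Agent.R281.Qt_922

noncomputable section

variable {N : ℕ} {M : Type} [TopologicalSpace M]
variable {A : Atl N M} {K : Kah A} {n : ℕ} {κ R : ℝ}
variable [T2Space M] [ConnectedSpace M] [CompactSpace M] [Finite A.ι]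

/-- **`Inp` from QTube and SECTIONS** -/
theorem exists_inp' (PA : Part A) (hD : D2 A) (q : QTube A K n κ R) {Lb : LB A} (h : HM Lb)
    {c : ℝ} (hc : 0 ≤ c) (hcur : ∀ i, ∀ y ∈ (A.e i).source, cur h i y = (c : ℂ) • K.g i y)
    {R' : ℝ} {p0 : ℕ} {mu : ℕ → ℕ} (hmu : ∀ p, p0 ≤ p → 3 * κ * c * p < mu p)
    (hS : SEC A q Lb R' p0 mu) (P : ProjD A) {m0 : ℕ} (hm0 : 0 < m0) (hP : lb P = Lb ^ m0) :
    ∃ E0 : Finset (MvPolynomial (Fin (P.N + 1)) ℂ), ∃ d0 : ℕ, ∀ d, d0 ≤ d →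
      Inp A (lb P) (fun k => sec P k) E0 q.U {x | x ∈ q.U ∧ ‖q.f x‖ < R'} q.f (mu (m0 * d)) d := by
  obtain ⟨E0, hE0, hE⟩ := exists_eqs_proj PA hD P
  obtain ⟨m1, hm1⟩ := surj_proj PA hD P
  refine ⟨E0, max p0 m1, fun d hd => ?_⟩
  have hd0 : p0 ≤ m0 * d := (le_trans (le_max_left _ _) hd).trans (Nat.le_mul_of_pos_left d hm0)
  have hpw : lb P ^ d = Lb ^ (m0 * d) := by rw [hP, ← pow_mul]
  refine ⟨fun k => isHS_sec P k, hE _ Subset.rfl hE0, ?_, ?_, hm1 d (le_trans (le_max_right _ _) hd),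
    ?_, ?_⟩
  · rintro i x hx v ⟨c, hc⟩
    refine (ofProj P).imm i (A.e i x) ((A.e i).map_source hx) v ⟨c, fun k => ?_⟩
    rw [(A.e i).left_inv hx]
    exact hc k
  · rintro i j x hx y hy ⟨c, hc⟩
    refine P.inj i j x hx y hy ⟨c, funext fun k => ?_⟩
    have h1 := hc k
    rw [sec_eq P hx, sec_eq P hy] at h1
    exact h1
  · intro s hs i x hx hxU hO y hy hfy j hj
    rw [hpw] at hs
    exact Mult_10.mult_fib q hxU.1 h hc (fun i y hy _ => hcur i y hy) isOpen_univ (subset_univ _)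
      (m0 * d) hs hx hO (hmu _ hd0) y ⟨hy, hfy⟩ j hj
  · intro i x hx hxU y hy
    obtain ⟨s, hs, hO, hsy⟩ := hS (m0 * d) hd0 i x hx hxU.1 hxU.2 y hy
    exact ⟨s, by rw [hpw]; exact hs, hO, hsy⟩

/-- the order `⌊3 κ c p⌋ + 1` -/
theorem floor_ok' {c κ : ℝ} (p : ℕ) : 3 * κ * c * p < ((⌊3 * κ * c * p⌋₊ + 1 : ℕ) : ℝ) := by
  push_cast
  exact Nat.lt_floor_add_one _

end

end Crest.Agent.R281.Jd_310
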