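import Mathlib

/-! S6-JEN (664 #6845 (C)), part 1: Green's identity with a compactly supported test function, the radial
integral `∫ h (log ‖y‖²) / ‖y‖² = π ∫ h`, logarithmic test functions. -/

open MeasureTheory Set Filter Topology
open scoped ENNReal Real

noncomputable section
namespace Crest.Agent.R281.Jen_563

/-- directional derivative -/
def D (v : ℂ) (f : ℂ → ℝ) : ℂ → ℝ := fun y => fderiv ℝ f y v

/-- the Laplacian, as nested directional derivatives -/
def lap (f : ℂ → ℝ) (y : ℂ) : ℝ := D 1 (D 1 f) y + D Complex.I (D Complex.I f) y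

theorem D_contDiffAt {f : ℂ → ℝ} {y : ℂ} (hf : ContDiffAt ℝ 2 f y) (v : ℂ) :
    ContDiffAt ℝ 1 (D v f) y := by
  have : ContDiffAt ℝ 1 (fun z => fderiv ℝ f z v) y :=
    (hf.fderiv_right (m := 1) (by norm_num)).clm_apply contDiffAt_const
  exact this

theorem D_differentiableAt {f : ℂ → ℝ} {y : ℂ} (hf : ContDiffAt ℝ 2 f y) (v : ℂ) :
    DifferentiableAt ℝ (D v f) y := (D_contDiffAt hf v).differentiableAt (by norm_num)

theorem D_continuousOn {f : ℂ → ℝ} {U : Set ℂ} (hU : IsOpen U) (hf : ContDiffOn ℝ 2 f U) (v : ℂ) :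
    ContinuousOn (D v f) U := fun _ hy =>
  ((D_contDiffAt (hf.contDiffAt (hU.mem_nhds hy)) v).continuousAt).continuousWithinAt

theorem DD_continuousOn {f : ℂ → ℝ} {U : Set ℂ} (hU : IsOpen U) (hf : ContDiffOn ℝ 2 f U) (v w : ℂ) :
    ContinuousOn (D w (D v f)) U := by
  intro y hy
  have h1 : ContDiffAt ℝ 1 (D v f) y := D_contDiffAt (hf.contDiffAt (hU.mem_nhds hy)) v
  have h2 : ContDiffAt ℝ 0 (fun z => fderiv ℝ (D v f) z w) y :=
    (h1.fderiv_right (m := 0) (by norm_num)).clm_apply contDiffAt_const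
  exact h2.continuousAt.continuousWithinAt

theorem lap_continuousOn {f : ℂ → ℝ} {U : Set ℂ} (hU : IsOpen U) (hf : ContDiffOn ℝ 2 f U) :
    ContinuousOn (lap f) U := (DD_continuousOn hU hf 1 1).add (DD_continuousOn hU hf Complex.I Complex.I)

theorem lap_eq_laplacian {f : ℂ → ℝ} {y : ℂ} (hf : ContDiffAt ℝ 2 f y) :
    Laplacian.laplacian f y = lap f y := by
  rw [InnerProductSpace.laplacian_eq_iteratedFDeriv_complexPlane]
  have key : ∀ v : ℂ, iteratedFDeriv ℝ 2 f y ![v, v] = D v (D v f) y := by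
    intro v
    rw [iteratedFDeriv_two_apply]
    simp only [Matrix.cons_val_zero, Matrix.cons_val_one]
    have h1 : DifferentiableAt ℝ (fderiv ℝ f) y :=
      (hf.fderiv_right (m := 1) (by norm_num)).differentiableAt (by norm_num)
    have h2 : HasFDerivAt (fun z => fderiv ℝ f z v)
        ((ContinuousLinearMap.apply ℝ ℝ v).comp (fderiv ℝ (fderiv ℝ f) y)) y :=
      (ContinuousLinearMap.apply ℝ ℝ v).hasFDerivAt.comp y h1.hasFDerivAt
    unfold D
    rw [h2.fderiv]
    simp
  simp only [key, lap]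

theorem tsupport_D (ψ : ℂ → ℝ) (v : ℂ) : tsupport (D v ψ) ⊆ tsupport ψ := by
  have h := tsupport_fderiv_subset ℝ (f := ψ)
  refine subset_trans ?_ h
  unfold D
  exact closure_mono (fun y hy => by
    simp only [Function.mem_support, ne_eq] at hy ⊢
    intro h0
    exact hy (by simp [h0]))

/-- one integration by parts -/
theorem ibp {U : Set ℂ} (hU : IsOpen U) {F ψ : ℂ → ℝ} (hF : ContDiffOn ℝ 1 F U) (hψ : ContDiff ℝ 1 ψ)
    (hc : HasCompactSupport ψ) (hs : tsupport ψ ⊆ U) (v : ℂ) :
    ∫ y, F y * D v ψ y = -∫ y, D v F y * ψ y := by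
  have hcF : ContinuousOn F U := hF.continuousOn
  have hcD : ContinuousOn (D v F) U := fun y hy => by
    have h2 : ContDiffAt ℝ 0 (fun z => fderiv ℝ F z v) y :=
      ((hF.contDiffAt (hU.mem_nhds hy)).fderiv_right (m := 0) (by norm_num)).clm_apply contDiffAt_const
    exact h2.continuousAt.continuousWithinAt
  have hDψ : Continuous (D v ψ) := by
    have : ContDiff ℝ 0 (fun z => fderiv ℝ ψ z v) :=
      (hψ.fderiv_right (m := 0) (by norm_num)).clm_apply contDiff_const
    exact this.continuous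
  have hcDψ : HasCompactSupport (D v ψ) :=
    IsCompact.of_isClosed_subset hc (isClosed_tsupport _) (tsupport_D ψ v)
  have gen : ∀ (a b : ℂ → ℝ), ContinuousOn a U → Continuous b → HasCompactSupport b → tsupport b ⊆ U →
      Integrable (fun y => a y * b y) := by
    intro a b ha hb hbc hbs
    have hts : tsupport (fun y => a y * b y) ⊆ tsupport b :=
      closure_mono (fun y hy => by
        simp only [Function.mem_support, ne_eq] at hy ⊢
        intro h0; exact hy (by simp [h0]))
    have hco : Continuous (fun y => a y * b y) :=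
      ContinuousOn.continuous_of_tsupport_subset (ha.mul hb.continuousOn) hU (hts.trans hbs)
    exact hco.integrable_of_hasCompactSupport (IsCompact.of_isClosed_subset hbc (isClosed_tsupport _) hts)
  have := integral_bilinear_hasLineDerivAt_right_eq_neg_left_of_integrable (μ := (volume : Measure ℂ))
    (f := F) (f' := D v F) (g := ψ) (g' := D v ψ) (v := v) (B := ContinuousLinearMap.mul ℝ ℝ)
    (by simpa using gen (D v F) ψ hcD hψ.continuous hc hs)
    (by simpa using gen F (D v ψ) hcF hDψ hcDψ ((tsupport_D ψ v).trans hs))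
    (by simpa using gen F ψ hcF hψ.continuous hc hs)
    (fun x hx => by
      have : DifferentiableAt ℝ F x := ((hF.contDiffAt (hU.mem_nhds (hs hx)))).differentiableAt (by norm_num)
      exact this.hasFDerivAt.hasLineDerivAt v)
    (fun x _ => (hψ.differentiable (by norm_num) x).hasFDerivAt.hasLineDerivAt v)
  simpa using this

/-- Green: `∫ ψ ΔG = ∫ G Δψ`. -/
theorem green {U : Set ℂ} (hU : IsOpen U) {G ψ : ℂ → ℝ} (hG : ContDiffOn ℝ 2 G U) (hψ : ContDiff ℝ 2 ψ)
    (hc : HasCompactSupport ψ) (hs : tsupport ψ ⊆ U) :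
    ∫ y, lap G y * ψ y = ∫ y, G y * lap ψ y := by
  have hψ1 : ContDiff ℝ 1 ψ := hψ.of_le (by norm_num)
  have hDψ : ∀ v, ContDiff ℝ 1 (D v ψ) := fun v =>
    contDiff_iff_contDiffAt.2 fun y => D_contDiffAt hψ.contDiffAt v
  have hcDψ : ∀ v, HasCompactSupport (D v ψ) := fun v =>
    IsCompact.of_isClosed_subset hc (isClosed_tsupport _) (tsupport_D ψ v)
  have hDG : ∀ v, ContDiffOn ℝ 1 (D v G) U := fun v y hy =>
    (D_contDiffAt (hG.contDiffAt (hU.mem_nhds hy)) v).contDiffWithinAt
  have hG1 : ContDiffOn ℝ 1 G U := hG.of_le (by norm_num)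
  have key : ∀ v, ∫ y, D v (D v G) y * ψ y = ∫ y, G y * D v (D v ψ) y := by
    intro v
    have e1 := ibp hU (hDG v) hψ1 hc hs v
    have e2 := ibp hU hG1 (hDψ v) (hcDψ v) ((tsupport_D ψ v).trans hs) v
    linarith
  have gen : ∀ (a b : ℂ → ℝ), ContinuousOn a U → Continuous b → HasCompactSupport b → tsupport b ⊆ U →
      Integrable (fun y => a y * b y) := by
    intro a b ha hb hbc hbs
    have hts : tsupport (fun y => a y * b y) ⊆ tsupport b :=
      closure_mono (fun y hy => by
        simp only [Function.mem_support, ne_eq] at hy ⊢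
        intro h0; exact hy (by simp [h0]))
    have hco : Continuous (fun y => a y * b y) :=
      ContinuousOn.continuous_of_tsupport_subset (ha.mul hb.continuousOn) hU (hts.trans hbs)
    exact hco.integrable_of_hasCompactSupport (IsCompact.of_isClosed_subset hbc (isClosed_tsupport _) hts)
  have hDDψ : ∀ v, Continuous (D v (D v ψ)) := fun v => by
    have : ContDiff ℝ 0 (fun z => fderiv ℝ (D v ψ) z v) :=
      ((hDψ v).fderiv_right (m := 0) (by norm_num)).clm_apply contDiff_const
    exact this.continuous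
  have hsDD : ∀ v, tsupport (D v (D v ψ)) ⊆ tsupport ψ := fun v => (tsupport_D _ v).trans (tsupport_D ψ v)
  have hcDD : ∀ v, HasCompactSupport (D v (D v ψ)) := fun v =>
    IsCompact.of_isClosed_subset hc (isClosed_tsupport _) (hsDD v)
  have i1 : ∀ v, Integrable (fun y => D v (D v G) y * ψ y) := fun v =>
    gen _ _ (DD_continuousOn hU hG v v) hψ.continuous hc hs
  have i2 : ∀ v, Integrable (fun y => G y * D v (D v ψ) y) := fun v =>
    gen _ _ hG.continuousOn (hDDψ v) (hcDD v) ((hsDD v).trans hs)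
  calc ∫ y, lap G y * ψ y = ∫ y, (D 1 (D 1 G) y * ψ y + D Complex.I (D Complex.I G) y * ψ y) := by
        congr 1; ext y; simp only [lap]; ring
    _ = (∫ y, D 1 (D 1 G) y * ψ y) + ∫ y, D Complex.I (D Complex.I G) y * ψ y :=
        integral_add (i1 1) (i1 Complex.I)
    _ = (∫ y, G y * D 1 (D 1 ψ) y) + ∫ y, G y * D Complex.I (D Complex.I ψ) y := by
        rw [key 1, key Complex.I]
    _ = ∫ y, (G y * D 1 (D 1 ψ) y + G y * D Complex.I (D Complex.I ψ) y) :=
        (integral_add (i2 1) (i2 Complex.I)).symm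
    _ = ∫ y, G y * lap ψ y := by congr 1; ext y; simp only [lap]; ring

/-- the radial integral -/
theorem lint_log (h : ℝ → ℝ≥0∞) (hh : Measurable h) :
    ∫⁻ y : ℂ, ENNReal.ofReal (‖y‖ ^ 2)⁻¹ * h (Real.log (‖y‖ ^ 2)) = ENNReal.ofReal π * ∫⁻ s, h s := by
  rw [← Complex.lintegral_comp_polarCoord_symm]
  have e0 : (polarCoord.target : Set (ℝ × ℝ)) = Ioi (0 : ℝ) ×ˢ Ioo (-π) π := rfl
  rw [e0]
  have e1 : ∫⁻ p : ℝ × ℝ in Ioi (0 : ℝ) ×ˢ Ioo (-π) π, ENNReal.ofReal p.1 •
      (ENNReal.ofReal (‖Complex.polarCoord.symm p‖ ^ 2)⁻¹ *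
        h (Real.log (‖Complex.polarCoord.symm p‖ ^ 2)))
      = ∫⁻ p : ℝ × ℝ in Ioi (0 : ℝ) ×ˢ Ioo (-π) π, ENNReal.ofReal p.1⁻¹ * h (2 * Real.log p.1) := by
    refine setLIntegral_congr_fun (measurableSet_Ioi.prod measurableSet_Ioo) (fun p hp => ?_)
    have hp1 : 0 < p.1 := hp.1
    rw [Complex.norm_polarCoord_symm, sq_abs, Real.log_pow, smul_eq_mul, ← mul_assoc,
      ← ENNReal.ofReal_mul hp1.le]
    congr 2
    field_simp
  rw [e1]
  have hm : Measurable (fun r : ℝ => ENNReal.ofReal r⁻¹ * h (2 * Real.log r)) := by fun_prop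
  rw [Measure.volume_eq_prod, ← Measure.prod_restrict, lintegral_prod _ (by fun_prop)]
  simp only [lintegral_const, Measure.restrict_apply, MeasurableSet.univ, univ_inter, Real.volume_Ioo]
  rw [lintegral_mul_const _ hm]
  have e2 : ∫⁻ r : ℝ in Ioi 0, ENNReal.ofReal r⁻¹ * h (2 * Real.log r) = ENNReal.ofReal (1 / 2) * ∫⁻ s, h s := by
    have him : (fun s : ℝ => Real.exp (s / 2)) '' univ = Ioi 0 := by
      ext r
      simp only [image_univ, mem_range, mem_Ioi]
      constructor
      · rintro ⟨s, rfl⟩; exact Real.exp_pos _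
      · intro hr; exact ⟨2 * Real.log r, by rw [mul_div_cancel_left₀ _ (by norm_num : (2 : ℝ) ≠ 0), Real.exp_log hr]⟩
    rw [← him, lintegral_image_eq_lintegral_abs_deriv_mul (f' := fun s => Real.exp (s / 2) * (1 / 2))
      MeasurableSet.univ]
    · rw [Measure.restrict_univ, ← lintegral_const_mul _ hh]
      refine lintegral_congr fun s => ?_
      rw [Real.log_exp, mul_div_cancel₀ _ (by norm_num : (2 : ℝ) ≠ 0), ← mul_assoc,
        ← ENNReal.ofReal_mul (abs_nonneg _), abs_of_pos (by positivity)]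
      congr 2
      field_simp
    · intro s _
      have := (Real.hasDerivAt_exp (s / 2)).comp s ((hasDerivAt_id s).div_const 2)
      exact this.hasDerivWithinAt
    · intro s _ t _ hst
      have := Real.exp_injective hst
      linarith
  rw [e2, mul_assoc, mul_comm (∫⁻ s, h s), ← mul_assoc, ← ENNReal.ofReal_mul (by norm_num)]
  congr 2
  ring

end Crest.Agent.R281.Jen_563
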