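import Mathlib
import Crest.Agent.R281.Jen1_563

/-! S6-JEN, part 2: calculus of radial functions `g (log ‖y - a‖²)`, logarithmic cut-offs (J3). -/

open MeasureTheory Set Filter Topology
open scoped ENNReal Real ContDiff

noncomputable section
namespace Crest.Agent.R281.Jen_563

/-! ### calculus -/

theorem D_congr {f g : ℂ → ℝ} {y : ℂ} (h : f =ᶠ[𝓝 y] g) (v : ℂ) : D v f y = D v g y := by
  unfold D; rw [h.fderiv_eq]

theorem D_eventuallyEq {f g : ℂ → ℝ} {y : ℂ} (h : f =ᶠ[𝓝 y] g) (v : ℂ) : D v f =ᶠ[𝓝 y] D v g := by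
  filter_upwards [eventually_eventually_nhds.2 h] with z hz
  exact D_congr hz v

theorem lap_congr {f g : ℂ → ℝ} {y : ℂ} (h : f =ᶠ[𝓝 y] g) : lap f y = lap g y := by
  unfold lap
  rw [D_congr (D_eventuallyEq h 1) 1, D_congr (D_eventuallyEq h Complex.I) Complex.I]

theorem D_add {f g : ℂ → ℝ} {y : ℂ} (hf : DifferentiableAt ℝ f y) (hg : DifferentiableAt ℝ g y) (v : ℂ) :
    D v (fun z => f z + g z) y = D v f y + D v g y := by
  unfold D; rw [fderiv_fun_add hf hg]; rfl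

theorem D_mul {f g : ℂ → ℝ} {y : ℂ} (hf : DifferentiableAt ℝ f y) (hg : DifferentiableAt ℝ g y) (v : ℂ) :
    D v (fun z => f z * g z) y = f y * D v g y + g y * D v f y := by
  unfold D; rw [fderiv_fun_mul hf hg]; simp

theorem D_comp {g : ℝ → ℝ} {f : ℂ → ℝ} {y : ℂ} (hg : DifferentiableAt ℝ g (f y))
    (hf : DifferentiableAt ℝ f y) (v : ℂ) : D v (fun z => g (f z)) y = deriv g (f y) * D v f y := by
  unfold D
  have : HasFDerivAt (fun z => g (f z)) (deriv g (f y) • fderiv ℝ f y) y :=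
    hg.hasDerivAt.comp_hasFDerivAt y hf.hasFDerivAt
  rw [this.fderiv]; simp

theorem DD_mul {f g : ℂ → ℝ} {y : ℂ} (hf : ContDiffAt ℝ 2 f y) (hg : ContDiffAt ℝ 2 g y) (v : ℂ) :
    D v (D v (fun z => f z * g z)) y
      = f y * D v (D v g) y + g y * D v (D v f) y + 2 * (D v f y * D v g y) := by
  have hev : D v (fun z => f z * g z) =ᶠ[𝓝 y] fun z => f z * D v g z + g z * D v f z := by
    filter_upwards [hf.eventually (by simp), hg.eventually (by simp)] with z hz hz'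
    exact D_mul (hz.differentiableAt (by norm_num)) (hz'.differentiableAt (by norm_num)) v
  have df : DifferentiableAt ℝ f y := hf.differentiableAt (by norm_num)
  have dg : DifferentiableAt ℝ g y := hg.differentiableAt (by norm_num)
  have dDf := D_differentiableAt hf v
  have dDg := D_differentiableAt hg v
  rw [D_congr hev, D_add (f := fun z => f z * D v g z) (g := fun z => g z * D v f z) (df.mul dDg)
    (dg.mul dDf), D_mul df dDg, D_mul dg dDf]
  ring

theorem lap_mul {f g : ℂ → ℝ} {y : ℂ} (hf : ContDiffAt ℝ 2 f y) (hg : ContDiffAt ℝ 2 g y) :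
    lap (fun z => f z * g z) y = f y * lap g y + g y * lap f y
      + 2 * (D 1 f y * D 1 g y + D Complex.I f y * D Complex.I g y) := by
  unfold lap
  rw [DD_mul hf hg, DD_mul hf hg]
  ring

theorem DD_comp {g : ℝ → ℝ} {f : ℂ → ℝ} {y : ℂ} (hg : ContDiff ℝ 2 g) (hf : ContDiffAt ℝ 2 f y) (v : ℂ) :
    D v (D v (fun z => g (f z))) y
      = deriv (deriv g) (f y) * D v f y ^ 2 + deriv g (f y) * D v (D v f) y := by
  have hg' : ContDiff ℝ 1 (deriv g) := by
    have : ContDiff ℝ (1 + 1) g := by simpa [one_add_one_eq_two] using hg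
    exact (contDiff_succ_iff_deriv.1 this).2.2
  have hev : D v (fun z => g (f z)) =ᶠ[𝓝 y] fun z => deriv g (f z) * D v f z := by
    filter_upwards [hf.eventually (by simp)] with z hz
    exact D_comp (hg.differentiable (by norm_num) _) (hz.differentiableAt (by norm_num)) v
  have df : DifferentiableAt ℝ f y := hf.differentiableAt (by norm_num)
  have dDf := D_differentiableAt hf v
  have dg' : DifferentiableAt ℝ (deriv g) (f y) := hg'.differentiable (by norm_num) _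
  rw [D_congr hev, D_mul (f := fun z => deriv g (f z)) (dg'.comp y df) dDf, D_comp dg' df]
  ring

theorem lap_comp {g : ℝ → ℝ} {f : ℂ → ℝ} {y : ℂ} (hg : ContDiff ℝ 2 g) (hf : ContDiffAt ℝ 2 f y) :
    lap (fun z => g (f z)) y = deriv (deriv g) (f y) * (D 1 f y ^ 2 + D Complex.I f y ^ 2)
      + deriv g (f y) * lap f y := by
  unfold lap
  rw [DD_comp hg hf, DD_comp hg hf]
  ring

/-! ### the logarithm -/

/-- `log ‖y - a‖²` -/
def lg (a y : ℂ) : ℝ := Real.log (‖y - a‖ ^ 2)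

theorem lg_contDiffAt {a y : ℂ} (h : y ≠ a) (n : WithTop ℕ∞) : ContDiffAt ℝ n (lg a) y := by
  have h0 : ‖y - a‖ ^ 2 ≠ 0 := by simpa [sub_eq_zero] using h
  exact ((contDiffAt_id.sub contDiffAt_const).norm_sq ℝ).log h0

theorem D_lg {a y : ℂ} (h : y ≠ a) (v : ℂ) :
    D v (lg a) y = 2 * ((y - a).re * v.re + (y - a).im * v.im) / ‖y - a‖ ^ 2 := by
  have h0 : ‖y - a‖ ^ 2 ≠ 0 := by simpa [sub_eq_zero] using h
  have h1 : HasFDerivAt (fun z : ℂ => ‖z - a‖ ^ 2) (2 • (innerSL ℝ (y - a)).comp (ContinuousLinearMap.id ℝ ℂ)) y :=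
    ((hasFDerivAt_id y).sub_const a).norm_sq
  have h2 := h1.log h0
  unfold D lg
  rw [h2.fderiv]
  simp [Complex.inner, Complex.mul_re]
  field_simp
  ring

theorem grad_lg {a y : ℂ} (h : y ≠ a) :
    D 1 (lg a) y ^ 2 + D Complex.I (lg a) y ^ 2 = 4 * (‖y - a‖ ^ 2)⁻¹ := by
  have h0 : ‖y - a‖ ^ 2 ≠ 0 := by simpa [sub_eq_zero] using h
  rw [D_lg h, D_lg h]
  have h3 : ‖y - a‖ ^ 2 = (y - a).re ^ 2 + (y - a).im ^ 2 := by
    rw [← Complex.normSq_eq_norm_sq, Complex.normSq_apply]; ring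
  simp only [Complex.one_re, Complex.one_im, Complex.I_re, Complex.I_im, mul_one, mul_zero, add_zero,
    zero_add]
  rw [h3] at h0 ⊢
  field_simp
  ring

theorem abs_D_lg {a y : ℂ} (h : y ≠ a) {v : ℂ} (hv : ‖v‖ ≤ 1) : |D v (lg a) y| ≤ 2 * ‖y - a‖⁻¹ := by
  have h0 : 0 < ‖y - a‖ := norm_pos_iff.2 (sub_ne_zero.2 h)
  rw [D_lg h, abs_div, abs_mul, abs_of_pos (by positivity : (0 : ℝ) < ‖y - a‖ ^ 2), abs_two]
  have h3 : |(y - a).re * v.re + (y - a).im * v.im| ≤ ‖y - a‖ * ‖v‖ := by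
    have : (y - a).re * v.re + (y - a).im * v.im = inner ℝ (y - a) v := by
      simp [Complex.inner, Complex.mul_re]
      ring
    rw [this]
    exact abs_real_inner_le_norm _ _
  rw [div_le_iff₀ (by positivity)]
  have h4 : 2 * ‖y - a‖⁻¹ * ‖y - a‖ ^ 2 = 2 * ‖y - a‖ := by field_simp
  rw [h4]
  nlinarith

theorem lap_lg {a y : ℂ} (h : y ≠ a) : lap (lg a) y = 0 := by
  rw [← lap_eq_laplacian (lg_contDiffAt h 2)]
  have h1 : InnerProductSpace.HarmonicAt (fun z : ℂ => Real.log ‖z - a‖) y :=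
    AnalyticAt.harmonicAt_log_norm (f := fun z : ℂ => z - a) (by fun_prop) (by simpa [sub_eq_zero] using h)
  have h2 : lg a = (2 : ℝ) • fun z => Real.log ‖z - a‖ := by
    ext z; simp [lg, Real.log_pow]
  rw [h2]
  exact (h1.const_smul (c := (2 : ℝ))).2.self_of_nhds

/-- the radial function `g (log ‖y - a‖²)`, with value `c` at `a` -/
def rad (g : ℝ → ℝ) (c : ℝ) (a y : ℂ) : ℝ := if y = a then c else g (lg a y)

theorem rad_of_ne {g : ℝ → ℝ} {c : ℝ} {a y : ℂ} (h : y ≠ a) : rad g c a y = g (lg a y) := if_neg h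

theorem rad_eventually_of_ne {g : ℝ → ℝ} {c : ℝ} {a y : ℂ} (h : y ≠ a) :
    rad g c a =ᶠ[𝓝 y] fun z => g (lg a z) := by
  filter_upwards [isOpen_ne.mem_nhds h] with z hz
  exact rad_of_ne hz

theorem rad_eq_const {g : ℝ → ℝ} {s₀ c : ℝ} (h0 : ∀ s ≤ s₀, g s = c) {a y : ℂ}
    (h : ‖y - a‖ ^ 2 ≤ Real.exp s₀) : rad g c a y = c := by
  by_cases hy : y = a
  · exact if_pos hy
  · rw [rad_of_ne hy]
    have h1 : 0 < ‖y - a‖ ^ 2 := by
      have : 0 < ‖y - a‖ := norm_pos_iff.2 (sub_ne_zero.2 hy)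
      positivity
    exact h0 _ ((Real.log_le_iff_le_exp h1).2 h)

theorem rad_eventually_const {g : ℝ → ℝ} {s₀ c : ℝ} (h0 : ∀ s ≤ s₀, g s = c) (a : ℂ) :
    rad g c a =ᶠ[𝓝 a] fun _ => c := by
  have : {y : ℂ | ‖y - a‖ ^ 2 < Real.exp s₀} ∈ 𝓝 a := by
    refine (isOpen_lt (by fun_prop) (by fun_prop)).mem_nhds ?_
    simp [Real.exp_pos]
  filter_upwards [this] with y hy
  exact rad_eq_const h0 (le_of_lt hy)

theorem rad_contDiff {g : ℝ → ℝ} {s₀ c : ℝ} (h0 : ∀ s ≤ s₀, g s = c) {n : WithTop ℕ∞}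
    (hg : ContDiff ℝ n g) (a : ℂ) : ContDiff ℝ n (rad g c a) := by
  rw [contDiff_iff_contDiffAt]
  intro y
  by_cases hy : y = a
  · rw [hy]
    exact contDiffAt_const.congr_of_eventuallyEq (rad_eventually_const h0 a)
  · exact (hg.contDiffAt.comp y (lg_contDiffAt hy n)).congr_of_eventuallyEq (rad_eventually_of_ne hy)

theorem D_rad {g : ℝ → ℝ} (hg : ContDiff ℝ 2 g) {c : ℝ} {a y : ℂ} (h : y ≠ a) (v : ℂ) :
    D v (rad g c a) y = deriv g (lg a y) * D v (lg a) y := by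
  rw [D_congr (rad_eventually_of_ne h)]
  exact D_comp (hg.differentiable (by norm_num) _) ((lg_contDiffAt h 2).differentiableAt (by norm_num)) v

theorem lap_rad {g : ℝ → ℝ} (hg : ContDiff ℝ 2 g) {c : ℝ} {a y : ℂ} (h : y ≠ a) :
    lap (rad g c a) y = 4 * deriv (deriv g) (lg a y) * (‖y - a‖ ^ 2)⁻¹ := by
  rw [lap_congr (rad_eventually_of_ne h), lap_comp (f := lg a) hg (lg_contDiffAt h 2), grad_lg h, lap_lg h]
  ring

/-- radial integral, centred at `a`. -/
theorem lint_lg (a : ℂ) (h : ℝ → ℝ≥0∞) (hh : Measurable h) :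
    ∫⁻ y : ℂ, ENNReal.ofReal (‖y - a‖ ^ 2)⁻¹ * h (lg a y) = ENNReal.ofReal π * ∫⁻ s, h s := by
  rw [← lint_log h hh]
  exact lintegral_sub_right_eq_self (fun y : ℂ => ENNReal.ofReal (‖y‖ ^ 2)⁻¹ * h (Real.log (‖y‖ ^ 2))) a

theorem ae_ne (a : ℂ) : ∀ᵐ y : ℂ, y ≠ a := by
  have : (volume : Measure ℂ) {a} = 0 := measure_singleton a
  filter_upwards [compl_mem_ae_iff.2 this] with y hy
  exact hy

/-- `∫ |Δ rad g| = 4 π ∫ |g''|` -/
theorem lint_lap_rad {g : ℝ → ℝ} (hg : ContDiff ℝ 2 g) (c : ℝ) (a : ℂ) :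
    ∫⁻ y, ENNReal.ofReal |lap (rad g c a) y|
      = ENNReal.ofReal (4 * π) * ∫⁻ s, ENNReal.ofReal |deriv (deriv g) s| := by
  have hg' : Continuous (deriv (deriv g)) := by
    have h1 : ContDiff ℝ (1 + 1) g := by simpa [one_add_one_eq_two] using hg
    have h2 : ContDiff ℝ (0 + 1) (deriv g) := by simpa using (contDiff_succ_iff_deriv.1 h1).2.2
    exact (contDiff_succ_iff_deriv.1 h2).2.2.continuous
  have hm : Measurable fun s => ENNReal.ofReal (4 * |deriv (deriv g) s|) := by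
    have := hg'.measurable
    fun_prop
  have e := lint_lg a (fun s => ENNReal.ofReal (4 * |deriv (deriv g) s|)) hm
  have e1 : ∫⁻ y, ENNReal.ofReal |lap (rad g c a) y|
      = ∫⁻ y : ℂ, ENNReal.ofReal (‖y - a‖ ^ 2)⁻¹ * ENNReal.ofReal (4 * |deriv (deriv g) (lg a y)|) := by
    refine lintegral_congr_ae ?_
    filter_upwards [ae_ne a] with y hy
    rw [lap_rad hg hy, ← ENNReal.ofReal_mul (by positivity), abs_mul, abs_mul,
      abs_of_pos (by norm_num : (0 : ℝ) < 4), abs_of_nonneg (by positivity : (0 : ℝ) ≤ (‖y - a‖ ^ 2)⁻¹)]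
    congr 1; ring
  rw [e1, e]
  simp_rw [ENNReal.ofReal_mul (by norm_num : (0 : ℝ) ≤ 4)]
  rw [lintegral_const_mul _ (by have := hg'.measurable; fun_prop)]
  rw [← mul_assoc, mul_comm (ENNReal.ofReal π)]

/-! ### the cut-offs -/

/-- the standard smooth transition -/
abbrev tau : ℝ → ℝ := Real.smoothTransition

theorem tau_contDiff (n : ℕ∞) : ContDiff ℝ n tau := Real.smoothTransition.contDiff

theorem contDiff_deriv {g : ℝ → ℝ} (hg : ContDiff ℝ 2 g) : ContDiff ℝ 1 (deriv g) := by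
  have h1 : ContDiff ℝ (1 + 1) g := by simpa [one_add_one_eq_two] using hg
  exact (contDiff_succ_iff_deriv.1 h1).2.2

theorem continuous_deriv2 {g : ℝ → ℝ} (hg : ContDiff ℝ 2 g) : Continuous (deriv (deriv g)) := by
  have h2 : ContDiff ℝ (0 + 1) (deriv g) := by simpa using contDiff_deriv hg
  exact (contDiff_succ_iff_deriv.1 h2).2.2.continuous

theorem tau_deriv_zero {s : ℝ} (h : s < 0 ∨ 1 < s) : deriv tau s = 0 := by
  rcases h with h | h
  · have : tau =ᶠ[𝓝 s] fun _ => 0 := by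
      filter_upwards [Iio_mem_nhds h] with t ht
      exact Real.smoothTransition.zero_of_nonpos (le_of_lt ht)
    rw [this.deriv_eq]; simp
  · have : tau =ᶠ[𝓝 s] fun _ => 1 := by
      filter_upwards [Ioi_mem_nhds h] with t ht
      exact Real.smoothTransition.one_of_one_le (le_of_lt ht)
    rw [this.deriv_eq]; simp

theorem tau_deriv2_zero {s : ℝ} (h : s < 0 ∨ 1 < s) : deriv (deriv tau) s = 0 := by
  have : deriv tau =ᶠ[𝓝 s] fun _ => 0 := by
    rcases h with h | h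
    · filter_upwards [Iio_mem_nhds h] with t ht
      exact tau_deriv_zero (Or.inl ht)
    · filter_upwards [Ioi_mem_nhds h] with t ht
      exact tau_deriv_zero (Or.inr ht)
  rw [this.deriv_eq]; simp

theorem bdd_of_zero {h : ℝ → ℝ} (hc : Continuous h) (h0 : ∀ s, s < 0 ∨ 1 < s → h s = 0) :
    ∃ C, 0 < C ∧ ∀ s, |h s| ≤ C := by
  obtain ⟨C, hC⟩ := isCompact_Icc.exists_bound_of_continuousOn (s := Icc (0 : ℝ) 1) hc.continuousOn
  refine ⟨|C| + 1, by positivity, fun s => ?_⟩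
  by_cases hs : s ∈ Icc (0 : ℝ) 1
  · have := hC s hs
    rw [Real.norm_eq_abs] at this
    linarith [le_abs_self C]
  · have : s < 0 ∨ 1 < s := by
      by_contra hcon
      push Not at hcon
      exact hs ⟨hcon.1, hcon.2⟩
    rw [h0 s this, abs_zero]; positivity

theorem tau_bdd : ∃ C, 0 < C ∧ (∀ s, |deriv tau s| ≤ C) ∧ ∀ s, |deriv (deriv tau) s| ≤ C := by
  have h2 : ContDiff ℝ 2 tau := tau_contDiff 2
  obtain ⟨C1, h1, h1'⟩ := bdd_of_zero (contDiff_deriv h2).continuous (fun s hs => tau_deriv_zero hs)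
  obtain ⟨C2, h2, h2'⟩ := bdd_of_zero (continuous_deriv2 h2) (fun s hs => tau_deriv2_zero hs)
  exact ⟨max C1 C2, lt_max_of_lt_left h1, fun s => (h1' s).trans (le_max_left _ _),
    fun s => (h2' s).trans (le_max_right _ _)⟩

theorem lint_supp {h : ℝ → ℝ} {B u w : ℝ} (_ : u ≤ w) (hB : ∀ s, |h s| ≤ B)
    (hs : ∀ s, s ∉ Icc u w → h s = 0) :
    ∫⁻ s, ENNReal.ofReal |h s| ≤ ENNReal.ofReal (B * (w - u)) := by
  have hB0 : 0 ≤ B := (abs_nonneg _).trans (hB 0)
  calc ∫⁻ s, ENNReal.ofReal |h s| ≤ ∫⁻ s, (Icc u w).indicator (fun _ => ENNReal.ofReal B) s := by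
        refine lintegral_mono fun s => ?_
        by_cases h1 : s ∈ Icc u w
        · rw [indicator_of_mem h1]; exact ENNReal.ofReal_le_ofReal (hB s)
        · rw [indicator_of_notMem h1, hs s h1]; simp
    _ = ENNReal.ofReal (B * (w - u)) := by
        rw [lintegral_indicator measurableSet_Icc, lintegral_const, Measure.restrict_apply MeasurableSet.univ,
          univ_inter, Real.volume_Icc, ← ENNReal.ofReal_mul hB0]

/-- one puncture -/
theorem cut1 (a : ℂ) {η : ℝ} (hη : 0 < η) : ∃ χ : ℂ → ℝ, ContDiff ℝ ∞ χ ∧ (∀ y, 0 ≤ χ y ∧ χ y ≤ 1) ∧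
    (χ =ᶠ[𝓝 a] fun _ => 0) ∧ (∀ y, η ≤ ‖y - a‖ → χ y = 1) ∧
    (∀ v : ℂ, ‖v‖ ≤ 1 → ∫⁻ y, ENNReal.ofReal |D v χ y| ≤ ENNReal.ofReal η) ∧
    (∀ v : ℂ, ‖v‖ ≤ 1 → ∫⁻ y, ENNReal.ofReal (D v χ y ^ 2) ≤ ENNReal.ofReal η) ∧
    ∫⁻ y, ENNReal.ofReal |lap χ y| ≤ ENNReal.ofReal η := by
  obtain ⟨C, hC0, hC1, hC2⟩ := tau_bdd
  have hπ := Real.pi_pos
  -- choose Λ
  set K : ℝ := 4 * π * C + 4 * π * C ^ 2 + 4 * π * C + 2 with hK
  have hK0 : 0 < K := by positivity
  set Λ : ℝ := K / η + 1 with hΛ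
  have hΛ0 : 0 < Λ := by positivity
  have hΛ1 : 1 ≤ Λ := by rw [hΛ]; linarith [div_pos hK0 hη]
  have hKη : K ≤ η * Λ := by
    rw [hΛ, mul_add, mul_div_cancel₀ _ hη.ne']; linarith
  have small : ∀ x, x ≤ K → x / Λ ≤ η := by
    intro x hx
    rw [div_le_iff₀ hΛ0]; linarith
  have hexp : Real.exp (-Λ / 2) ≤ 2 / Λ := by
    have h1 := Real.add_one_le_exp (Λ / 2)
    have h2 : Real.exp (-Λ / 2) = (Real.exp (Λ / 2))⁻¹ := by
      rw [← Real.exp_neg]; congr 1; ring
    rw [h2, inv_le_comm₀ (Real.exp_pos _) (by positivity)]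
    rw [inv_div]
    linarith
  set g : ℝ → ℝ := fun s => tau (Λ⁻¹ * s + 2) with hg
  have hgC : ContDiff ℝ ∞ g := (tau_contDiff ⊤).comp (by fun_prop)
  have hg2 : ContDiff ℝ 2 g := (tau_contDiff 2).comp (by fun_prop)
  have hd : ∀ s, deriv g s = Λ⁻¹ * deriv tau (Λ⁻¹ * s + 2) := by
    intro s
    have h1 : HasDerivAt (fun s => Λ⁻¹ * s + 2) (Λ⁻¹ * 1) s := ((hasDerivAt_id s).const_mul Λ⁻¹).add_const 2
    have h2 : HasDerivAt tau (deriv tau (Λ⁻¹ * s + 2)) (Λ⁻¹ * s + 2) :=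
      ((tau_contDiff 2).differentiable (by norm_num) _).hasDerivAt
    have h3 := h2.comp s h1
    have h4 : deriv g s = deriv tau (Λ⁻¹ * s + 2) * (Λ⁻¹ * 1) := h3.deriv
    rw [h4]; ring
  have hd' : deriv g = fun s => Λ⁻¹ * deriv tau (Λ⁻¹ * s + 2) := funext hd
  have hdd : ∀ s, deriv (deriv g) s = Λ⁻¹ * (Λ⁻¹ * deriv (deriv tau) (Λ⁻¹ * s + 2)) := by
    intro s
    have h1 : HasDerivAt (fun s => Λ⁻¹ * s + 2) (Λ⁻¹ * 1) s := ((hasDerivAt_id s).const_mul Λ⁻¹).add_const 2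
    have h2 : HasDerivAt (deriv tau) (deriv (deriv tau) (Λ⁻¹ * s + 2)) (Λ⁻¹ * s + 2) :=
      ((contDiff_deriv (tau_contDiff 2)).differentiable (by norm_num) _).hasDerivAt
    rw [hd']
    have h3 := (h2.comp s h1).const_mul Λ⁻¹
    rw [show (fun s => Λ⁻¹ * deriv tau (Λ⁻¹ * s + 2))
      = fun y => Λ⁻¹ * (deriv tau ∘ fun s => Λ⁻¹ * s + 2) y from rfl, h3.deriv]
    ring
  have hout : ∀ s, s ∉ Icc (-(2 * Λ)) (-Λ) → Λ⁻¹ * s + 2 < 0 ∨ 1 < Λ⁻¹ * s + 2 := by
    intro s hs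
    by_contra hcon
    push Not at hcon
    apply hs
    have e1 : Λ * (Λ⁻¹ * s + 2) = s + 2 * Λ := by field_simp
    constructor
    · nlinarith [mul_nonneg hΛ0.le hcon.1]
    · nlinarith [mul_le_mul_of_nonneg_left hcon.2 hΛ0.le]
  have h0 : ∀ s ≤ -(2 * Λ), g s = 0 := by
    intro s hs
    refine Real.smoothTransition.zero_of_nonpos ?_
    have e1 : Λ * (Λ⁻¹ * s + 2) = s + 2 * Λ := by field_simp
    by_contra hcon
    push Not at hcon
    nlinarith [mul_pos hΛ0 hcon]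
  have h1 : ∀ s, -Λ ≤ s → g s = 1 := by
    intro s hs
    refine Real.smoothTransition.one_of_one_le ?_
    have e1 : Λ * (Λ⁻¹ * s + 2) = s + 2 * Λ := by field_simp
    by_contra hcon
    push Not at hcon
    nlinarith [mul_lt_mul_of_pos_left hcon hΛ0]
  have hgm : Measurable (deriv g) := (contDiff_deriv hg2).continuous.measurable
  refine ⟨rad g 0 a, rad_contDiff h0 hgC a, ?_, rad_eventually_const h0 a, ?_, ?_, ?_, ?_⟩
  · intro y
    by_cases hy : y = a
    · rw [rad, if_pos hy]; simp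
    · rw [rad_of_ne hy]
      exact ⟨Real.smoothTransition.nonneg _, Real.smoothTransition.le_one _⟩
  · intro y hy
    have hya : y ≠ a := by
      rintro rfl; simp at hy; linarith
    rw [rad_of_ne hya]
    refine h1 _ ?_
    have h3 : 0 < ‖y - a‖ := norm_pos_iff.2 (sub_ne_zero.2 hya)
    rw [lg, Real.le_log_iff_exp_le (by positivity)]
    have h4 : Real.exp (-Λ) = Real.exp (-Λ / 2) ^ 2 := by
      rw [← Real.exp_nat_mul]; congr 1; push_cast; ring
    rw [h4]
    have h5 : Real.exp (-Λ / 2) ≤ η := hexp.trans (small 2 (by rw [hK]; nlinarith [mul_pos hπ hC0, mul_pos hπ (pow_pos hC0 2)]))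
    exact pow_le_pow_left₀ (Real.exp_pos _).le (h5.trans hy) 2
  · intro v hv
    have e1 : ∫⁻ y, ENNReal.ofReal |D v (rad g 0 a) y|
        ≤ ∫⁻ y : ℂ, ENNReal.ofReal (‖y - a‖ ^ 2)⁻¹ * ENNReal.ofReal |2 * (deriv g (lg a y) * Real.exp (lg a y / 2))| := by
      refine lintegral_mono_ae ?_
      filter_upwards [ae_ne a] with y hy
      have h3 : 0 < ‖y - a‖ := norm_pos_iff.2 (sub_ne_zero.2 hy)
      rw [D_rad hg2 hy, ← ENNReal.ofReal_mul (by positivity)]
      apply ENNReal.ofReal_le_ofReal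
      have h6 : Real.exp (lg a y / 2) = ‖y - a‖ := by
        rw [lg, Real.log_pow, Nat.cast_ofNat, mul_div_cancel_left₀ _ (by norm_num : (2 : ℝ) ≠ 0), Real.exp_log h3]
      rw [h6, abs_mul, abs_mul, abs_mul, abs_two, abs_of_pos h3]
      have h7 := abs_D_lg hy hv
      have h8 := abs_nonneg (deriv g (lg a y))
      calc |deriv g (lg a y)| * |D v (lg a) y| ≤ |deriv g (lg a y)| * (2 * ‖y - a‖⁻¹) :=
            mul_le_mul_of_nonneg_left h7 h8
        _ = (‖y - a‖ ^ 2)⁻¹ * (2 * (|deriv g (lg a y)| * ‖y - a‖)) := by field_simp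
    refine e1.trans ?_
    rw [lint_lg a (fun s => ENNReal.ofReal |2 * (deriv g s * Real.exp (s / 2))|)
      (by have := Real.measurable_exp; fun_prop)]
    have e2 := lint_supp (h := fun s => 2 * (deriv g s * Real.exp (s / 2)))
      (B := 2 * (Λ⁻¹ * C * (2 / Λ))) (u := -(2 * Λ)) (w := -Λ) (by linarith) (by
        intro s
        by_cases hs : s ∈ Icc (-(2 * Λ)) (-Λ)
        · rw [abs_mul, abs_mul, abs_two, abs_of_pos (Real.exp_pos _), hd s, abs_mul,
            abs_of_pos (inv_pos.2 hΛ0)]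
          have h9 : Real.exp (s / 2) ≤ 2 / Λ := (Real.exp_le_exp.2 (by linarith [hs.2])).trans hexp
          have h10 : Λ⁻¹ * |deriv tau (Λ⁻¹ * s + 2)| ≤ Λ⁻¹ * C :=
            mul_le_mul_of_nonneg_left (hC1 _) (inv_pos.2 hΛ0).le
          have h11 := mul_le_mul h10 h9 (Real.exp_pos _).le (by positivity)
          linarith
        · rw [hd s, tau_deriv_zero (hout s hs)]; simp; positivity)
      (by intro s hs; simp only [hd s, tau_deriv_zero (hout s hs)]; simp)
    refine (mul_le_mul_right e2 _).trans ?_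
    rw [← ENNReal.ofReal_mul hπ.le]
    apply ENNReal.ofReal_le_ofReal
    have h12 : π * (2 * (Λ⁻¹ * C * (2 / Λ)) * (-Λ - -(2 * Λ))) = 4 * π * C / Λ := by
      field_simp; ring
    rw [h12]
    exact small _ (by rw [hK]; nlinarith [mul_pos hπ hC0, mul_pos hπ (pow_pos hC0 2)])
  · intro v hv
    have e1 : ∫⁻ y, ENNReal.ofReal (D v (rad g 0 a) y ^ 2)
        ≤ ∫⁻ y : ℂ, ENNReal.ofReal (‖y - a‖ ^ 2)⁻¹ * ENNReal.ofReal |4 * deriv g (lg a y) ^ 2| := by
      refine lintegral_mono_ae ?_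
      filter_upwards [ae_ne a] with y hy
      have h3 : 0 < ‖y - a‖ := norm_pos_iff.2 (sub_ne_zero.2 hy)
      rw [D_rad hg2 hy, ← ENNReal.ofReal_mul (by positivity)]
      apply ENNReal.ofReal_le_ofReal
      have h7 := abs_D_lg hy hv
      have h8 : D v (lg a) y ^ 2 ≤ (2 * ‖y - a‖⁻¹) ^ 2 := by
        rw [← sq_abs (D v (lg a) y)]
        exact pow_le_pow_left₀ (abs_nonneg _) h7 2
      rw [abs_of_nonneg (by positivity), mul_pow]
      calc deriv g (lg a y) ^ 2 * D v (lg a) y ^ 2 ≤ deriv g (lg a y) ^ 2 * (2 * ‖y - a‖⁻¹) ^ 2 :=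
            mul_le_mul_of_nonneg_left h8 (sq_nonneg _)
        _ = (‖y - a‖ ^ 2)⁻¹ * (4 * deriv g (lg a y) ^ 2) := by field_simp; norm_num
    refine e1.trans ?_
    rw [lint_lg a (fun s => ENNReal.ofReal |4 * deriv g s ^ 2|) (by fun_prop)]
    have e2 := lint_supp (h := fun s => 4 * deriv g s ^ 2)
      (B := 4 * (Λ⁻¹ * C) ^ 2) (u := -(2 * Λ)) (w := -Λ) (by linarith) (by
        intro s
        rw [abs_of_nonneg (by positivity), hd s, ← sq_abs, abs_mul, abs_of_pos (inv_pos.2 hΛ0)]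
        have h10 : Λ⁻¹ * |deriv tau (Λ⁻¹ * s + 2)| ≤ Λ⁻¹ * C :=
          mul_le_mul_of_nonneg_left (hC1 _) (inv_pos.2 hΛ0).le
        have := pow_le_pow_left₀ (by positivity) h10 2
        linarith)
      (by intro s hs; simp only [hd s, tau_deriv_zero (hout s hs)]; simp)
    refine (mul_le_mul_right e2 _).trans ?_
    rw [← ENNReal.ofReal_mul hπ.le]
    apply ENNReal.ofReal_le_ofReal
    have h12 : π * (4 * (Λ⁻¹ * C) ^ 2 * (-Λ - -(2 * Λ))) = 4 * π * C ^ 2 / Λ := by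
      field_simp; ring
    rw [h12]
    exact small _ (by rw [hK]; nlinarith [mul_pos hπ hC0, mul_pos hπ (pow_pos hC0 2)])
  · rw [lint_lap_rad hg2]
    have e2 := lint_supp (h := fun s => deriv (deriv g) s)
      (B := Λ⁻¹ * (Λ⁻¹ * C)) (u := -(2 * Λ)) (w := -Λ) (by linarith) (by
        intro s
        rw [hdd s, abs_mul, abs_mul, abs_of_pos (inv_pos.2 hΛ0)]
        exact mul_le_mul_of_nonneg_left (mul_le_mul_of_nonneg_left (hC2 _) (inv_pos.2 hΛ0).le)
          (inv_pos.2 hΛ0).le)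
      (by intro s hs; simp only [hdd s, tau_deriv2_zero (hout s hs)]; simp)
    refine (mul_le_mul_right e2 _).trans ?_
    rw [← ENNReal.ofReal_mul (by positivity)]
    apply ENNReal.ofReal_le_ofReal
    have h12 : 4 * π * (Λ⁻¹ * (Λ⁻¹ * C) * (-Λ - -(2 * Λ))) = 4 * π * C / Λ := by
      field_simp; ring
    rw [h12]
    exact small _ (by rw [hK]; nlinarith [mul_pos hπ hC0, mul_pos hπ (pow_pos hC0 2)])

/-- **(J3)** logarithmic cut-offs along a finite set. -/
theorem cutF (F : Finset ℂ) {η : ℝ} (hη : 0 < η) : ∃ χ : ℂ → ℝ, ContDiff ℝ ∞ χ ∧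
    (∀ y, 0 ≤ χ y ∧ χ y ≤ 1) ∧
    (∀ a ∈ F, χ =ᶠ[𝓝 a] fun _ => 0) ∧ (∀ y, (∀ a ∈ F, η ≤ ‖y - a‖) → χ y = 1) ∧
    (∀ v : ℂ, ‖v‖ ≤ 1 → ∫⁻ y, ENNReal.ofReal |D v χ y| ≤ ENNReal.ofReal η) ∧
    (∀ v : ℂ, ‖v‖ ≤ 1 → ∫⁻ y, ENNReal.ofReal (D v χ y ^ 2) ≤ ENNReal.ofReal η) ∧
    ∫⁻ y, ENNReal.ofReal |lap χ y| ≤ ENNReal.ofReal η := by
  induction F using Finset.induction_on generalizing η with
  | empty =>
    have hD : ∀ v, D v (fun _ : ℂ => (1 : ℝ)) = fun _ => 0 := by
      intro v; ext y; simp [D]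
    have hD0 : ∀ v, D v (fun _ : ℂ => (0 : ℝ)) = fun _ => 0 := by
      intro v; ext y; simp [D]
    refine ⟨fun _ => 1, contDiff_const, fun y => by simp, by simp, by simp, ?_, ?_, ?_⟩
    · intro v _; simp [hD]
    · intro v _; simp [hD]
    · simp [lap, hD, hD0]
  | insert a F _ ih =>
    obtain ⟨χ₁, s1, b1, z1, o1, l1, q1, p1⟩ := cut1 a (η := η / 8) (by positivity)
    obtain ⟨χ₂, s2, b2, z2, o2, l2, q2, p2⟩ := ih (η := η / 8) (by positivity)
    have d1 : ∀ y, DifferentiableAt ℝ χ₁ y := fun y => s1.differentiable (by simp) y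
    have d2 : ∀ y, DifferentiableAt ℝ χ₂ y := fun y => s2.differentiable (by simp) y
    have t1 : ∀ y, ContDiffAt ℝ 2 χ₁ y := fun y => (s1.of_le (by norm_cast)).contDiffAt
    have t2 : ∀ y, ContDiffAt ℝ 2 χ₂ y := fun y => (s2.of_le (by norm_cast)).contDiffAt
    have m1 : ∀ v, Measurable (D v χ₁) := fun v => by
      have : Continuous (D v χ₁) := by
        rw [continuous_iff_continuousAt]; exact fun y => (D_contDiffAt (t1 y) v).continuousAt
      exact this.measurable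
    have m2 : ∀ v, Measurable (D v χ₂) := fun v => by
      have : Continuous (D v χ₂) := by
        rw [continuous_iff_continuousAt]; exact fun y => (D_contDiffAt (t2 y) v).continuousAt
      exact this.measurable
    have n1 : Measurable (lap χ₁) := by
      have h : ContinuousOn (lap χ₁) univ :=
        lap_continuousOn isOpen_univ (s1.of_le (by norm_cast)).contDiffOn
      exact (continuousOn_univ.1 h).measurable
    have n2 : Measurable (lap χ₂) := by
      have h : ContinuousOn (lap χ₂) univ :=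
        lap_continuousOn isOpen_univ (s2.of_le (by norm_cast)).contDiffOn
      exact (continuousOn_univ.1 h).measurable
    refine ⟨fun y => χ₁ y * χ₂ y, s1.mul s2, ?_, ?_, ?_, ?_, ?_, ?_⟩
    · intro y
      exact ⟨mul_nonneg (b1 y).1 (b2 y).1, mul_le_one₀ (b1 y).2 (b2 y).1 (b2 y).2⟩
    · intro b hb
      rcases Finset.mem_insert.1 hb with rfl | hb
      · filter_upwards [z1] with y hy; rw [hy]; simp
      · filter_upwards [z2 b hb] with y hy; rw [hy]; simp
    · intro y hy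
      have e1 : χ₁ y = 1 := o1 y (le_trans (by linarith) (hy a (Finset.mem_insert_self a F)))
      have e2 : χ₂ y = 1 := o2 y (fun b hb => le_trans (by linarith) (hy b (Finset.mem_insert_of_mem hb)))
      simp only [e1, e2]; ring
    · intro v hv
      calc ∫⁻ y, ENNReal.ofReal |D v (fun y => χ₁ y * χ₂ y) y|
          ≤ ∫⁻ y, (ENNReal.ofReal |D v χ₁ y| + ENNReal.ofReal |D v χ₂ y|) := by
            refine lintegral_mono fun y => ?_
            rw [D_mul (d1 y) (d2 y), ← ENNReal.ofReal_add (abs_nonneg _) (abs_nonneg _)]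
            apply ENNReal.ofReal_le_ofReal
            refine (abs_add_le _ _).trans ?_
            rw [abs_mul, abs_mul, abs_of_nonneg (b1 y).1, abs_of_nonneg (b2 y).1]
            nlinarith [abs_nonneg (D v χ₁ y), abs_nonneg (D v χ₂ y), (b1 y).2, (b2 y).2]
        _ = (∫⁻ y, ENNReal.ofReal |D v χ₁ y|) + ∫⁻ y, ENNReal.ofReal |D v χ₂ y| :=
            lintegral_add_left (by have := m1 v; fun_prop) _
        _ ≤ ENNReal.ofReal (η / 8) + ENNReal.ofReal (η / 8) := add_le_add (l1 v hv) (l2 v hv)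
        _ ≤ ENNReal.ofReal η := by
            rw [← ENNReal.ofReal_add (by positivity) (by positivity)]
            apply ENNReal.ofReal_le_ofReal; linarith
    · intro v hv
      calc ∫⁻ y, ENNReal.ofReal (D v (fun y => χ₁ y * χ₂ y) y ^ 2)
          ≤ ∫⁻ y, (ENNReal.ofReal 2 * ENNReal.ofReal (D v χ₁ y ^ 2)
              + ENNReal.ofReal 2 * ENNReal.ofReal (D v χ₂ y ^ 2)) := by
            refine lintegral_mono fun y => ?_
            rw [D_mul (d1 y) (d2 y), ← ENNReal.ofReal_mul (by norm_num), ← ENNReal.ofReal_mul (by norm_num),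
              ← ENNReal.ofReal_add (by positivity) (by positivity)]
            apply ENNReal.ofReal_le_ofReal
            have h1 : (χ₁ y * D v χ₂ y) ^ 2 ≤ D v χ₂ y ^ 2 := by
              rw [mul_pow]
              have : χ₁ y ^ 2 ≤ 1 := pow_le_one₀ (b1 y).1 (b1 y).2
              nlinarith [sq_nonneg (D v χ₂ y)]
            have h2 : (χ₂ y * D v χ₁ y) ^ 2 ≤ D v χ₁ y ^ 2 := by
              rw [mul_pow]
              have : χ₂ y ^ 2 ≤ 1 := pow_le_one₀ (b2 y).1 (b2 y).2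
              nlinarith [sq_nonneg (D v χ₁ y)]
            nlinarith [sq_nonneg (χ₁ y * D v χ₂ y - χ₂ y * D v χ₁ y)]
        _ = (∫⁻ y, ENNReal.ofReal 2 * ENNReal.ofReal (D v χ₁ y ^ 2))
              + ∫⁻ y, ENNReal.ofReal 2 * ENNReal.ofReal (D v χ₂ y ^ 2) :=
            lintegral_add_left (by have := m1 v; fun_prop) _
        _ = ENNReal.ofReal 2 * (∫⁻ y, ENNReal.ofReal (D v χ₁ y ^ 2))
              + ENNReal.ofReal 2 * ∫⁻ y, ENNReal.ofReal (D v χ₂ y ^ 2) := by
            rw [lintegral_const_mul _ (by have := m1 v; fun_prop), lintegral_const_mul _ (by have := m2 v; fun_prop)]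
        _ ≤ ENNReal.ofReal 2 * ENNReal.ofReal (η / 8) + ENNReal.ofReal 2 * ENNReal.ofReal (η / 8) :=
            add_le_add (mul_le_mul_right (q1 v hv) _) (mul_le_mul_right (q2 v hv) _)
        _ ≤ ENNReal.ofReal η := by
            rw [← ENNReal.ofReal_mul (by norm_num), ← ENNReal.ofReal_add (by positivity) (by positivity)]
            apply ENNReal.ofReal_le_ofReal; linarith
    · have mm : Measurable fun y => ENNReal.ofReal |lap χ₁ y| + ENNReal.ofReal |lap χ₂ y|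
          + (ENNReal.ofReal (D 1 χ₁ y ^ 2) + ENNReal.ofReal (D 1 χ₂ y ^ 2)) := by
        have := m1 1; have := m2 1; fun_prop
      have ma : Measurable fun y => ENNReal.ofReal (D 1 χ₁ y ^ 2) := by have := m1 1; fun_prop
      have mb : Measurable fun y => ENNReal.ofReal (D Complex.I χ₁ y ^ 2) := by
        have := m1 Complex.I; fun_prop
      calc ∫⁻ y, ENNReal.ofReal |lap (fun y => χ₁ y * χ₂ y) y|
          ≤ ∫⁻ y, (ENNReal.ofReal |lap χ₁ y| + ENNReal.ofReal |lap χ₂ y|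
              + (ENNReal.ofReal (D 1 χ₁ y ^ 2) + ENNReal.ofReal (D 1 χ₂ y ^ 2))
              + (ENNReal.ofReal (D Complex.I χ₁ y ^ 2) + ENNReal.ofReal (D Complex.I χ₂ y ^ 2))) := by
            refine lintegral_mono fun y => ?_
            rw [lap_mul (t1 y) (t2 y), ← ENNReal.ofReal_add (by positivity) (by positivity),
              ← ENNReal.ofReal_add (by positivity) (by positivity),
              ← ENNReal.ofReal_add (by positivity) (by positivity),
              ← ENNReal.ofReal_add (by positivity) (by positivity),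
              ← ENNReal.ofReal_add (by positivity) (by positivity)]
            apply ENNReal.ofReal_le_ofReal
            refine (abs_add_le _ _).trans ?_
            have h1 : |χ₁ y * lap χ₂ y + χ₂ y * lap χ₁ y| ≤ |lap χ₁ y| + |lap χ₂ y| := by
              refine (abs_add_le _ _).trans ?_
              rw [abs_mul, abs_mul, abs_of_nonneg (b1 y).1, abs_of_nonneg (b2 y).1]
              nlinarith [abs_nonneg (lap χ₁ y), abs_nonneg (lap χ₂ y), (b1 y).2, (b2 y).2]
            have h2 : |2 * (D 1 χ₁ y * D 1 χ₂ y + D Complex.I χ₁ y * D Complex.I χ₂ y)|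
                ≤ (D 1 χ₁ y ^ 2 + D 1 χ₂ y ^ 2) + (D Complex.I χ₁ y ^ 2 + D Complex.I χ₂ y ^ 2) := by
              rw [abs_le]
              constructor <;> nlinarith [sq_nonneg (D 1 χ₁ y - D 1 χ₂ y), sq_nonneg (D 1 χ₁ y + D 1 χ₂ y),
                sq_nonneg (D Complex.I χ₁ y - D Complex.I χ₂ y), sq_nonneg (D Complex.I χ₁ y + D Complex.I χ₂ y)]
            linarith
        _ = ((∫⁻ y, ENNReal.ofReal |lap χ₁ y|) + ∫⁻ y, ENNReal.ofReal |lap χ₂ y|)
              + ((∫⁻ y, ENNReal.ofReal (D 1 χ₁ y ^ 2)) + ∫⁻ y, ENNReal.ofReal (D 1 χ₂ y ^ 2))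
              + ((∫⁻ y, ENNReal.ofReal (D Complex.I χ₁ y ^ 2))
                + ∫⁻ y, ENNReal.ofReal (D Complex.I χ₂ y ^ 2)) := by
            rw [lintegral_add_left mm, lintegral_add_left (by fun_prop), lintegral_add_left (by fun_prop),
              lintegral_add_left ma, lintegral_add_left mb]
        _ ≤ (ENNReal.ofReal (η / 8) + ENNReal.ofReal (η / 8)) + (ENNReal.ofReal (η / 8) + ENNReal.ofReal (η / 8))
              + (ENNReal.ofReal (η / 8) + ENNReal.ofReal (η / 8)) :=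
            add_le_add (add_le_add (add_le_add p1 p2) (add_le_add (q1 1 (by simp)) (q2 1 (by simp))))
              (add_le_add (q1 Complex.I (by simp)) (q2 Complex.I (by simp)))
        _ ≤ ENNReal.ofReal η := by
            rw [← ENNReal.ofReal_add (by positivity) (by positivity),
              ← ENNReal.ofReal_add (by positivity) (by positivity),
              ← ENNReal.ofReal_add (by positivity) (by positivity)]
            apply ENNReal.ofReal_le_ofReal; linarith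

end Crest.Agent.R281.Jen_563
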