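import Mathlib
import Crest.Agent.R281.Jen2_563

/-! S6-JEN, part 3: **Jensen's inequality with punctures (J1)**. -/

open MeasureTheory Set Filter Topology Metric
open scoped ENNReal Real ContDiff

noncomputable section
namespace Crest.Agent.R281.Jen_563

theorem lap_continuous {f : ℂ → ℝ} (hf : ContDiff ℝ 2 f) : Continuous (lap f) :=
  continuousOn_univ.1 (lap_continuousOn isOpen_univ hf.contDiffOn)

theorem D_continuous {f : ℂ → ℝ} (hf : ContDiff ℝ 2 f) (v : ℂ) : Continuous (D v f) :=
  continuousOn_univ.1 (D_continuousOn isOpen_univ hf.contDiffOn v)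

theorem tsupport_lap (ψ : ℂ → ℝ) : tsupport (lap ψ) ⊆ tsupport ψ := by
  have h1 : ∀ v, tsupport (D v (D v ψ)) ⊆ tsupport ψ := fun v => (tsupport_D _ v).trans (tsupport_D ψ v)
  intro y hy
  by_contra hc
  have e1 : D 1 (D 1 ψ) =ᶠ[𝓝 y] 0 := notMem_tsupport_iff_eventuallyEq.1 fun h => hc (h1 1 h)
  have e2 : D Complex.I (D Complex.I ψ) =ᶠ[𝓝 y] 0 :=
    notMem_tsupport_iff_eventuallyEq.1 fun h => hc (h1 Complex.I h)
  have e3 : lap ψ =ᶠ[𝓝 y] 0 := by
    filter_upwards [e1, e2] with z h1 h2
    unfold lap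
    rw [h1, h2]; simp
  exact notMem_tsupport_iff_eventuallyEq.2 e3 hy

theorem bdd_of_compact {f : ℂ → ℝ} (hf : Continuous f) (hc : HasCompactSupport f) : ∃ B, 0 ≤ B ∧ ∀ y, |f y| ≤ B := by
  obtain ⟨B, hB⟩ := hf.bounded_above_of_compact_support hc
  exact ⟨B, (norm_nonneg _).trans (hB 0), fun y => by simpa using hB y⟩

/-- **Green's inequality with punctures.** -/
theorem punct {U : Set ℂ} (hU : IsOpen U) (F : Finset ℂ) {G : ℂ → ℝ} {M : ℝ}
    (hG : ContDiffOn ℝ 2 G (U \ F)) (hM : ∀ y ∈ U \ F, |G y| ≤ M)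
    (hpos : ∀ y ∈ U \ F, 0 ≤ lap G y) {φ : ℂ → ℝ} (hφ : ContDiff ℝ 2 φ) (hc : HasCompactSupport φ)
    (hs : tsupport φ ⊆ U) (hφ0 : ∀ y, 0 ≤ φ y) :
    ∫⁻ y in U \ F, ENNReal.ofReal (lap G y * φ y)
      ≤ ENNReal.ofReal M * ∫⁻ y, ENNReal.ofReal |lap φ y| := by
  set V : Set ℂ := U \ F with hVdef
  have hV : IsOpen V := hU.sdiff F.finite_toSet.isClosed
  have hVm : MeasurableSet V := hV.measurableSet
  choose χ cs cb cz co cl cq cp using fun n : ℕ => cutF F (η := 1 / ((n : ℝ) + 1)) (by positivity)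
  have cs2 : ∀ n, ContDiff ℝ 2 (χ n) := fun n => (cs n).of_le (by norm_cast)
  -- the test functions
  set ψ : ℕ → ℂ → ℝ := fun n y => φ y * χ n y with hψ
  have ψs : ∀ n, ContDiff ℝ 2 (ψ n) := fun n => hφ.mul (cs2 n)
  have ψt : ∀ n, tsupport (ψ n) ⊆ tsupport φ := fun n => closure_mono fun y hy => by
    simp only [hψ, Function.mem_support, ne_eq] at hy ⊢
    intro h0; exact hy (by simp [h0])
  have ψc : ∀ n, HasCompactSupport (ψ n) := fun n =>
    IsCompact.of_isClosed_subset hc (isClosed_tsupport _) (ψt n)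
  have ψV : ∀ n, tsupport (ψ n) ⊆ V := by
    intro n y hy
    refine ⟨hs (ψt n hy), fun hyF => ?_⟩
    have : ψ n =ᶠ[𝓝 y] 0 := by
      filter_upwards [cz n y hyF] with z hz
      simp [hψ, hz]
    exact notMem_tsupport_iff_eventuallyEq.2 this hy
  have ψ0 : ∀ n y, 0 ≤ ψ n y := fun n y => mul_nonneg (hφ0 y) (cb n y).1
  -- bounds for φ
  obtain ⟨B0, hB0, hB0'⟩ := bdd_of_compact hφ.continuous hc
  obtain ⟨B1, hB1, hB1'⟩ := bdd_of_compact (D_continuous hφ 1)
    (IsCompact.of_isClosed_subset hc (isClosed_tsupport _) (tsupport_D φ 1))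
  obtain ⟨B2, hB2, hB2'⟩ := bdd_of_compact (D_continuous hφ Complex.I)
    (IsCompact.of_isClosed_subset hc (isClosed_tsupport _) (tsupport_D φ Complex.I))
  set L : ℝ≥0∞ := ∫⁻ y, ENNReal.ofReal |lap φ y| with hL
  -- the bound for ψ n
  have lapψ : ∀ n, ∫⁻ y, ENNReal.ofReal |lap (ψ n) y|
      ≤ L + ENNReal.ofReal (B0 + 2 * B1 + 2 * B2) * ENNReal.ofReal (1 / ((n : ℝ) + 1)) := by
    intro n
    have m0 : Measurable (lap (χ n)) := (lap_continuous (cs2 n)).measurable
    have m1 : Measurable (D 1 (χ n)) := (D_continuous (cs2 n) 1).measurable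
    have m2 : Measurable (D Complex.I (χ n)) := (D_continuous (cs2 n) Complex.I).measurable
    have m3 : Measurable (lap φ) := (lap_continuous hφ).measurable
    have hpt : ∀ y, |lap (ψ n) y| ≤ |lap φ y| + (B0 * |lap (χ n) y|
        + (2 * B1 * |D 1 (χ n) y| + 2 * B2 * |D Complex.I (χ n) y|)) := by
      intro y
      have e := lap_mul (f := φ) (g := χ n) (y := y) hφ.contDiffAt (cs2 n).contDiffAt
      simp only [hψ]
      rw [e]
      have a1 : |φ y * lap (χ n) y| ≤ B0 * |lap (χ n) y| := by
        rw [abs_mul]; exact mul_le_mul_of_nonneg_right (hB0' y) (abs_nonneg _)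
      have a2 : |χ n y * lap φ y| ≤ |lap φ y| := by
        rw [abs_mul, abs_of_nonneg (cb n y).1]
        exact mul_le_of_le_one_left (abs_nonneg _) (cb n y).2
      have a3 : |D 1 φ y * D 1 (χ n) y| ≤ B1 * |D 1 (χ n) y| := by
        rw [abs_mul]; exact mul_le_mul_of_nonneg_right (hB1' y) (abs_nonneg _)
      have a4 : |D Complex.I φ y * D Complex.I (χ n) y| ≤ B2 * |D Complex.I (χ n) y| := by
        rw [abs_mul]; exact mul_le_mul_of_nonneg_right (hB2' y) (abs_nonneg _)
      have t1 := abs_add_le (φ y * lap (χ n) y + χ n y * lap φ y)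
        (2 * (D 1 φ y * D 1 (χ n) y + D Complex.I φ y * D Complex.I (χ n) y))
      have t2 := abs_add_le (φ y * lap (χ n) y) (χ n y * lap φ y)
      have t3 := abs_add_le (D 1 φ y * D 1 (χ n) y) (D Complex.I φ y * D Complex.I (χ n) y)
      have t4 : |2 * (D 1 φ y * D 1 (χ n) y + D Complex.I φ y * D Complex.I (χ n) y)|
          = 2 * |D 1 φ y * D 1 (χ n) y + D Complex.I φ y * D Complex.I (χ n) y| := by
        rw [abs_mul, abs_two]
      rw [t4] at t1
      linarith
    calc ∫⁻ y, ENNReal.ofReal |lap (ψ n) y|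
        ≤ ∫⁻ y, (ENNReal.ofReal |lap φ y| + (ENNReal.ofReal B0 * ENNReal.ofReal |lap (χ n) y|
          + (ENNReal.ofReal (2 * B1) * ENNReal.ofReal |D 1 (χ n) y|
            + ENNReal.ofReal (2 * B2) * ENNReal.ofReal |D Complex.I (χ n) y|))) := by
          refine lintegral_mono fun y => ?_
          rw [← ENNReal.ofReal_mul (by positivity), ← ENNReal.ofReal_mul (by positivity),
            ← ENNReal.ofReal_mul (by positivity), ← ENNReal.ofReal_add (by positivity) (by positivity),
            ← ENNReal.ofReal_add (by positivity) (by positivity),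
            ← ENNReal.ofReal_add (by positivity) (by positivity)]
          exact ENNReal.ofReal_le_ofReal (hpt y)
      _ = L + (ENNReal.ofReal B0 * (∫⁻ y, ENNReal.ofReal |lap (χ n) y|)
          + (ENNReal.ofReal (2 * B1) * (∫⁻ y, ENNReal.ofReal |D 1 (χ n) y|)
            + ENNReal.ofReal (2 * B2) * ∫⁻ y, ENNReal.ofReal |D Complex.I (χ n) y|)) := by
          rw [lintegral_add_left (by fun_prop), lintegral_add_left (by fun_prop),
            lintegral_add_left (by fun_prop), lintegral_const_mul _ (by fun_prop),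
            lintegral_const_mul _ (by fun_prop), lintegral_const_mul _ (by fun_prop)]
      _ ≤ L + (ENNReal.ofReal B0 * ENNReal.ofReal (1 / ((n : ℝ) + 1))
          + (ENNReal.ofReal (2 * B1) * ENNReal.ofReal (1 / ((n : ℝ) + 1))
            + ENNReal.ofReal (2 * B2) * ENNReal.ofReal (1 / ((n : ℝ) + 1)))) := by
          gcongr
          · exact cp n
          · exact cl n 1 (by simp)
          · exact cl n Complex.I (by simp)
      _ = L + ENNReal.ofReal (B0 + 2 * B1 + 2 * B2) * ENNReal.ofReal (1 / ((n : ℝ) + 1)) := by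
          rw [ENNReal.ofReal_add (by positivity) (by positivity), ENNReal.ofReal_add (by positivity) (by positivity)]
          ring
  -- each term
  have hcont : ∀ n, Continuous fun y => lap G y * ψ n y := by
    intro n
    have hts : tsupport (fun y => lap G y * ψ n y) ⊆ tsupport (ψ n) := closure_mono fun y hy => by
      simp only [Function.mem_support, ne_eq] at hy ⊢
      intro h0; exact hy (by simp [h0])
    exact ContinuousOn.continuous_of_tsupport_subset
      ((lap_continuousOn hV hG).mul (ψs n).continuous.continuousOn) hV (hts.trans (ψV n))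
  have hint : ∀ n, Integrable fun y => lap G y * ψ n y := by
    intro n
    have hts : tsupport (fun y => lap G y * ψ n y) ⊆ tsupport (ψ n) := closure_mono fun y hy => by
      simp only [Function.mem_support, ne_eq] at hy ⊢
      intro h0; exact hy (by simp [h0])
    exact (hcont n).integrable_of_hasCompactSupport
      (IsCompact.of_isClosed_subset (ψc n) (isClosed_tsupport _) hts)
  have hnn : ∀ n y, 0 ≤ lap G y * ψ n y := by
    intro n y
    by_cases hy : y ∈ V
    · exact mul_nonneg (hpos y hy) (ψ0 n y)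
    · have : ψ n y = 0 := by
        by_contra h
        exact hy (ψV n (subset_tsupport _ h))
      rw [this]; simp
  have hterm : ∀ n, ∫⁻ y in V, ENNReal.ofReal (lap G y * ψ n y)
      ≤ ENNReal.ofReal M * (L + ENNReal.ofReal (B0 + 2 * B1 + 2 * B2) * ENNReal.ofReal (1 / ((n : ℝ) + 1))) := by
    intro n
    calc ∫⁻ y in V, ENNReal.ofReal (lap G y * ψ n y)
        ≤ ∫⁻ y, ENNReal.ofReal (lap G y * ψ n y) := setLIntegral_le_lintegral _ _
      _ = ENNReal.ofReal (∫ y, lap G y * ψ n y) :=
          (ofReal_integral_eq_lintegral_ofReal (hint n) (Eventually.of_forall (hnn n))).symm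
      _ = ENNReal.ofReal (∫ y, G y * lap (ψ n) y) := by rw [green hV hG (ψs n) (ψc n) (ψV n)]
      _ ≤ ‖∫ y, G y * lap (ψ n) y‖ₑ := by
          rw [Real.enorm_eq_ofReal_abs]; exact ENNReal.ofReal_le_ofReal (le_abs_self _)
      _ ≤ ∫⁻ y, ‖G y * lap (ψ n) y‖ₑ := enorm_integral_le_lintegral_enorm _
      _ ≤ ∫⁻ y, ENNReal.ofReal M * ENNReal.ofReal |lap (ψ n) y| := by
          refine lintegral_mono fun y => ?_
          rw [Real.enorm_eq_ofReal_abs, ← ENNReal.ofReal_mul' (abs_nonneg _)]
          apply ENNReal.ofReal_le_ofReal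
          rw [abs_mul]
          by_cases hy : y ∈ V
          · exact mul_le_mul_of_nonneg_right (hM y hy) (abs_nonneg _)
          · have : lap (ψ n) y = 0 := by
              by_contra h
              exact hy (ψV n (tsupport_lap _ (subset_tsupport _ h)))
            rw [this]; simp
      _ = ENNReal.ofReal M * ∫⁻ y, ENNReal.ofReal |lap (ψ n) y| := by
          have := (lap_continuous (ψs n)).measurable
          rw [lintegral_const_mul _ (by fun_prop)]
      _ ≤ _ := by gcongr; exact lapψ n
  -- Fatou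
  have hlim : ∀ y ∈ V, ENNReal.ofReal (lap G y * φ y)
      = liminf (fun n => ENNReal.ofReal (lap G y * ψ n y)) atTop := by
    intro y hy
    have hev : ∀ᶠ n : ℕ in atTop, χ n y = 1 := by
      have hpos' : ∃ ε > 0, ∀ a ∈ F, ε ≤ ‖y - a‖ := by
        have hcl : IsClosed (F : Set ℂ) := F.finite_toSet.isClosed
        obtain ⟨ε, hε, hsub⟩ := Metric.isOpen_iff.1 hcl.isOpen_compl y hy.2
        refine ⟨ε, hε, fun a ha => ?_⟩
        by_contra hlt
        push Not at hlt
        exact hsub (by rw [mem_ball, dist_comm, dist_eq_norm]; exact hlt) ha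
      obtain ⟨ε, hε, hεF⟩ := hpos'
      have ht : Tendsto (fun n : ℕ => 1 / ((n : ℝ) + 1)) atTop (𝓝 0) := tendsto_one_div_add_atTop_nhds_zero_nat
      filter_upwards [ht.eventually (gt_mem_nhds hε)] with n hn
      exact co n y fun a ha => hn.le.trans (hεF a ha)
    have hT : Tendsto (fun n => ENNReal.ofReal (lap G y * ψ n y)) atTop
        (𝓝 (ENNReal.ofReal (lap G y * φ y))) := by
      refine tendsto_const_nhds.congr' ?_
      filter_upwards [hev] with n hn
      simp [hψ, hn]
    exact hT.liminf_eq.symm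
  calc ∫⁻ y in V, ENNReal.ofReal (lap G y * φ y)
      = ∫⁻ y in V, liminf (fun n => ENNReal.ofReal (lap G y * ψ n y)) atTop :=
        setLIntegral_congr_fun hVm hlim
    _ ≤ liminf (fun n => ∫⁻ y in V, ENNReal.ofReal (lap G y * ψ n y)) atTop :=
        lintegral_liminf_le fun n => (hcont n).measurable.ennreal_ofReal
    _ ≤ liminf (fun n : ℕ => ENNReal.ofReal M * (L + ENNReal.ofReal (B0 + 2 * B1 + 2 * B2)
          * ENNReal.ofReal (1 / ((n : ℝ) + 1)))) atTop :=
        liminf_le_liminf (Eventually.of_forall hterm)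
    _ = ENNReal.ofReal M * L := by
        have ht : Tendsto (fun n : ℕ => 1 / ((n : ℝ) + 1)) atTop (𝓝 0) := tendsto_one_div_add_atTop_nhds_zero_nat
        have h1 : Tendsto (fun n : ℕ => ENNReal.ofReal (1 / ((n : ℝ) + 1))) atTop (𝓝 0) := by
          simpa using ENNReal.tendsto_ofReal ht
        have h2 : Tendsto (fun n : ℕ => ENNReal.ofReal (B0 + 2 * B1 + 2 * B2)
            * ENNReal.ofReal (1 / ((n : ℝ) + 1))) atTop (𝓝 (ENNReal.ofReal (B0 + 2 * B1 + 2 * B2) * 0)) :=
          ENNReal.Tendsto.const_mul h1 (Or.inr ENNReal.ofReal_ne_top)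
        rw [mul_zero] at h2
        have h3 := (tendsto_const_nhds (x := L)).add h2
        rw [add_zero] at h3
        exact (ENNReal.Tendsto.const_mul h3 (Or.inr ENNReal.ofReal_ne_top)).liminf_eq

/-! ### the test functions -/

/-- `∫ |P'|` for a monotone `P`, constant at both ends. -/
theorem lint_mono_deriv {P : ℝ → ℝ} (hP : ContDiff ℝ 1 P) (hm : Monotone P) {a b p q : ℝ} (hab : a ≤ b)
    (ha : ∀ s ≤ a, P s = p) (hb : ∀ s, b ≤ s → P s = q) :
    ∫⁻ s, ENNReal.ofReal |deriv P s| = ENNReal.ofReal (q - p) := by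
  have hc : Continuous (deriv P) := hP.continuous_deriv (by norm_num)
  have h0 : ∀ s, s ∉ Ioc a b → s ≠ a → ENNReal.ofReal |deriv P s| = 0 := by
    intro s hs hsa
    have hz : deriv P s = 0 := by
      by_cases h : s ≤ a
      · have hlt : s < a := lt_of_le_of_ne h hsa
        have : P =ᶠ[𝓝 s] fun _ => p := by
          filter_upwards [Iio_mem_nhds hlt] with t ht
          exact ha t (le_of_lt ht)
        rw [this.deriv_eq]; simp
      · push Not at h
        have hlt : b < s := by
          by_contra h'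
          push Not at h'
          exact hs ⟨h, h'⟩
        have : P =ᶠ[𝓝 s] fun _ => q := by
          filter_upwards [Ioi_mem_nhds hlt] with t ht
          exact hb t (le_of_lt ht)
        rw [this.deriv_eq]; simp
    rw [hz]; simp
  have e1 : ∫⁻ s, ENNReal.ofReal |deriv P s| = ∫⁻ s in Ioc a b, ENNReal.ofReal |deriv P s| := by
    rw [← lintegral_indicator measurableSet_Ioc]
    refine lintegral_congr_ae ?_
    have hne : ∀ᵐ s : ℝ, s ≠ a := by
      have : (volume : Measure ℝ) {a} = 0 := measure_singleton a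
      filter_upwards [compl_mem_ae_iff.2 this] with y hy
      exact hy
    filter_upwards [hne] with s hs
    by_cases h1 : s ∈ Ioc a b
    · rw [indicator_of_mem h1]
    · rw [indicator_of_notMem h1, h0 s h1 hs]
  have hnn : ∀ s, 0 ≤ deriv P s := fun s => hm.deriv_nonneg
  have e2 : ∫ s in a..b, deriv P s = P b - P a :=
    intervalIntegral.integral_deriv_eq_sub' P rfl (fun s _ => hP.differentiable (by norm_num) s)
      hc.continuousOn
  rw [e1]
  have e3 : ∫⁻ s in Ioc a b, ENNReal.ofReal |deriv P s| = ENNReal.ofReal (∫ s in Ioc a b, deriv P s) := by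
    rw [ofReal_integral_eq_lintegral_ofReal]
    · refine lintegral_congr fun s => ?_
      rw [abs_of_nonneg (hnn s)]
    · exact (hc.integrableOn_Icc (a := a) (b := b)).mono_set Ioc_subset_Icc_self
    · exact Eventually.of_forall hnn
  rw [e3, ← intervalIntegral.integral_of_le hab, e2, ha a le_rfl, hb b le_rfl]

/-- the test functions: `g ≥ 0`, `g = 0` on `s ≥ -δ`, constant near `-∞`, `∫|g''| ≤ 1`, and
`-s/2 - δ ≤ g s ≤ -s/2` for `-K ≤ s ≤ -2δ`. -/
theorem test_fun {K δ : ℝ} (_ : 0 ≤ K) (hδ : 0 < δ) : ∃ g : ℝ → ℝ, ContDiff ℝ 2 g ∧ (∀ s, 0 ≤ g s) ∧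
    (∀ s, -δ ≤ s → g s = 0) ∧ (∀ s ≤ -K - 1 - 2 * δ, g s = g (-K - 1 - 2 * δ)) ∧
    (∫⁻ s, ENNReal.ofReal |deriv (deriv g) s|) ≤ 1 ∧
    (∀ s ≤ 0, g s ≤ -s / 2) ∧ (∀ s ≤ 0, -K ≤ s → -s / 2 - δ ≤ g s) := by
  set K' : ℝ := K + 2 * δ with hK'
  set κ : ℝ → ℝ := fun t => tau (t + K' + 1) * tau (-t / δ - 1) with hκ
  have κs : ContDiff ℝ 1 κ :=
    ((tau_contDiff 1).comp (by fun_prop)).mul ((tau_contDiff 1).comp (by fun_prop))
  have κc : Continuous κ := κs.continuous
  have κ0 : ∀ t, 0 ≤ κ t := fun t => mul_nonneg (Real.smoothTransition.nonneg _) (Real.smoothTransition.nonneg _)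
  have κ1 : ∀ t, κ t ≤ 1 := fun t => mul_le_one₀ (Real.smoothTransition.le_one _)
    (Real.smoothTransition.nonneg _) (Real.smoothTransition.le_one _)
  have κa : ∀ t, -δ ≤ t → κ t = 0 := by
    intro t ht
    have h1 : -t / δ - 1 ≤ 0 := by
      rw [sub_nonpos, div_le_one hδ]; linarith
    have h2 : tau (-t / δ - 1) = 0 := Real.smoothTransition.zero_of_nonpos h1
    simp only [hκ, h2, mul_zero]
  have κb : ∀ t, t ≤ -K' - 1 → κ t = 0 := by
    intro t ht
    have h2 : tau (t + K' + 1) = 0 := Real.smoothTransition.zero_of_nonpos (by linarith)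
    simp only [hκ, h2, zero_mul]
  have κm : ∀ t, -K' ≤ t → t ≤ -(2 * δ) → κ t = 1 := by
    intro t h1 h2
    have h3 : tau (t + K' + 1) = 1 := Real.smoothTransition.one_of_one_le (by linarith)
    have h4 : tau (-t / δ - 1) = 1 := by
      refine Real.smoothTransition.one_of_one_le ?_
      have : 2 ≤ -t / δ := by rw [le_div_iff₀ hδ]; linarith
      linarith
    simp only [hκ, h3, h4, mul_one]
  have κi : ∀ a b, IntervalIntegrable κ volume a b := fun a b => κc.intervalIntegrable a b
  set g : ℝ → ℝ := fun s => -(1 / 2) * ∫ t in (0 : ℝ)..s, κ t with hg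
  have hgd : ∀ s, HasDerivAt g (-(1 / 2) * κ s) s := fun s =>
    (intervalIntegral.integral_hasDerivAt_right (κi 0 s) (κc.stronglyMeasurableAtFilter _ _)
      κc.continuousAt).const_mul _
  have hg' : deriv g = fun s => -(1 / 2) * κ s := funext fun s => (hgd s).deriv
  have hgC : ContDiff ℝ 2 g := by
    have : ContDiff ℝ (1 + 1) g := by
      rw [contDiff_succ_iff_deriv]
      refine ⟨fun s => (hgd s).differentiableAt, by simp, ?_⟩
      rw [hg']
      exact contDiff_const.mul κs
    simpa [one_add_one_eq_two] using this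
  have hg0 : ∀ s, -δ ≤ s → g s = 0 := by
    intro s hs
    have : ∫ t in (0 : ℝ)..s, κ t = ∫ t in (0 : ℝ)..s, (0 : ℝ) := by
      refine intervalIntegral.integral_congr fun t ht => κa t ?_
      have := ht.1
      rcases le_total 0 s with h | h
      · rw [uIcc_of_le h] at ht; linarith [ht.1]
      · rw [uIcc_of_ge h] at ht; linarith [ht.1]
    simp only [hg, this]; simp
  have hgneg : ∀ s, g s = (1 / 2) * ∫ t in s..(0 : ℝ), κ t := by
    intro s
    simp only [hg]
    rw [intervalIntegral.integral_symm s 0]; ring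
  have hgnn : ∀ s, 0 ≤ g s := by
    intro s
    rcases le_total (-δ) s with h | h
    · rw [hg0 s h]
    · rw [hgneg]
      have := intervalIntegral.integral_nonneg (μ := volume) (f := κ) (a := s) (b := 0) (by linarith)
        (fun t _ => κ0 t)
      positivity
  refine ⟨g, hgC, hgnn, hg0, ?_, ?_, ?_, ?_⟩
  · intro s hs
    rw [hgneg, hgneg (-K - 1 - 2 * δ),
      ← intervalIntegral.integral_add_adjacent_intervals (κi s (-K - 1 - 2 * δ)) (κi _ 0)]
    have : ∫ t in s..(-K - 1 - 2 * δ), κ t = ∫ t in s..(-K - 1 - 2 * δ), (0 : ℝ) := by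
      refine intervalIntegral.integral_congr fun t ht => κb t ?_
      rw [uIcc_of_le hs] at ht
      linarith [ht.2]
    rw [this]; simp
  · -- the mass of g''
    set P : ℝ → ℝ := fun s => tau (s + K' + 1) with hP
    set Q : ℝ → ℝ := fun s => -tau (-s / δ - 1) with hQ
    have Ps : ContDiff ℝ 1 P := (tau_contDiff 1).comp (by fun_prop)
    have Qs : ContDiff ℝ 1 Q := ((tau_contDiff 1).comp (by fun_prop)).neg
    have Pm : Monotone P := fun s t hst => Real.smoothTransition.monotone (by linarith)
    have Qm : Monotone Q := fun s t hst => by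
      refine neg_le_neg (Real.smoothTransition.monotone ?_)
      have : -t / δ ≤ -s / δ := div_le_div_of_nonneg_right (by linarith) hδ.le
      linarith
    have iP : ∫⁻ s, ENNReal.ofReal |deriv P s| = ENNReal.ofReal (1 - 0) :=
      lint_mono_deriv Ps Pm (a := -K' - 1) (b := -K') (by linarith)
        (fun s hs => Real.smoothTransition.zero_of_nonpos (by linarith))
        (fun s hs => Real.smoothTransition.one_of_one_le (by linarith))
    have iQ : ∫⁻ s, ENNReal.ofReal |deriv Q s| = ENNReal.ofReal (0 - -1) :=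
      lint_mono_deriv Qs Qm (a := -(2 * δ)) (b := -δ) (by linarith)
        (fun s hs => by
          simp only [hQ]
          have : tau (-s / δ - 1) = 1 := by
            refine Real.smoothTransition.one_of_one_le ?_
            have : 2 ≤ -s / δ := by rw [le_div_iff₀ hδ]; linarith
            linarith
          rw [this])
        (fun s hs => by
          simp only [hQ]
          have : tau (-s / δ - 1) = 0 := by
            refine Real.smoothTransition.zero_of_nonpos ?_
            rw [sub_nonpos, div_le_one hδ]; linarith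
          rw [this]; simp)
    have hκPQ : κ = fun s => -(P s * Q s) := by
      ext s; simp only [hκ, hP, hQ]; ring
    have hdd : ∀ s, deriv (deriv g) s = (1 / 2) * (deriv P s * Q s + P s * deriv Q s) := by
      intro s
      have h1 : HasDerivAt P (deriv P s) s := (Ps.differentiable (by norm_num) s).hasDerivAt
      have h2 : HasDerivAt Q (deriv Q s) s := (Qs.differentiable (by norm_num) s).hasDerivAt
      have h3 := ((h1.mul h2).neg).const_mul (-(1 / 2 : ℝ))
      rw [hg', hκPQ]
      have h4 : (fun s => -(1 / 2 : ℝ) * -(P s * Q s)) = fun y => -(1 / 2 : ℝ) * (-(P * Q)) y := by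
        ext y; simp
      rw [h4, h3.deriv]; ring
    have hle : ∀ s, |deriv (deriv g) s| ≤ (1 / 2) * |deriv P s| + (1 / 2) * |deriv Q s| := by
      intro s
      rw [hdd s, abs_mul, abs_of_pos (by norm_num : (0 : ℝ) < 1 / 2)]
      have h1 := abs_add_le (deriv P s * Q s) (P s * deriv Q s)
      rw [abs_mul, abs_mul] at h1
      have hPb : |P s| ≤ 1 := by
        rw [abs_of_nonneg (Real.smoothTransition.nonneg _)]; exact Real.smoothTransition.le_one _
      have hQb : |Q s| ≤ 1 := by
        simp only [hQ]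
        rw [abs_neg, abs_of_nonneg (Real.smoothTransition.nonneg _)]; exact Real.smoothTransition.le_one _
      nlinarith [mul_le_mul_of_nonneg_left hQb (abs_nonneg (deriv P s)),
        mul_le_mul_of_nonneg_right hPb (abs_nonneg (deriv Q s))]
    have mP : Measurable (deriv P) := (Ps.continuous_deriv (by norm_num)).measurable
    have mQ : Measurable (deriv Q) := (Qs.continuous_deriv (by norm_num)).measurable
    calc ∫⁻ s, ENNReal.ofReal |deriv (deriv g) s|
        ≤ ∫⁻ s, (ENNReal.ofReal (1 / 2) * ENNReal.ofReal |deriv P s|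
            + ENNReal.ofReal (1 / 2) * ENNReal.ofReal |deriv Q s|) := by
          refine lintegral_mono fun s => ?_
          rw [← ENNReal.ofReal_mul (by norm_num), ← ENNReal.ofReal_mul (by norm_num),
            ← ENNReal.ofReal_add (by positivity) (by positivity)]
          exact ENNReal.ofReal_le_ofReal (hle s)
      _ = ENNReal.ofReal (1 / 2) * (∫⁻ s, ENNReal.ofReal |deriv P s|)
            + ENNReal.ofReal (1 / 2) * ∫⁻ s, ENNReal.ofReal |deriv Q s| := by
          rw [lintegral_add_left (by fun_prop), lintegral_const_mul _ (by fun_prop),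
            lintegral_const_mul _ (by fun_prop)]
      _ = 1 := by
          rw [iP, iQ, ← ENNReal.ofReal_mul (by norm_num), ← ENNReal.ofReal_mul (by norm_num),
            ← ENNReal.ofReal_add (by norm_num) (by norm_num)]
          norm_num
  · intro s hs
    rw [hgneg]
    have h1 : ∫ t in s..(0 : ℝ), κ t ≤ ∫ t in s..(0 : ℝ), (1 : ℝ) :=
      intervalIntegral.integral_mono_on hs (κi s 0) (by simp) (fun t _ => κ1 t)
    rw [intervalIntegral.integral_const] at h1
    simp only [smul_eq_mul, mul_one] at h1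
    linarith
  · intro s hs hKs
    rcases le_total (-(2 * δ)) s with h | h
    · have := hgnn s; linarith
    · rw [hgneg, ← intervalIntegral.integral_add_adjacent_intervals (κi s (-(2 * δ))) (κi _ 0)]
      have h1 : ∫ t in s..(-(2 * δ)), κ t = ∫ t in s..(-(2 * δ)), (1 : ℝ) := by
        refine intervalIntegral.integral_congr fun t ht => ?_
        rw [uIcc_of_le h] at ht
        exact κm t (by linarith [ht.1]) ht.2
      have h2 : 0 ≤ ∫ t in (-(2 * δ))..(0 : ℝ), κ t :=
        intervalIntegral.integral_nonneg (by linarith) (fun t _ => κ0 t)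
      rw [h1, intervalIntegral.integral_const]
      simp only [smul_eq_mul, mul_one]
      linarith

/-- **JENSEN WITH PUNCTURES (J1)**: centre `a`, radius `R`. -/
theorem jensen (a : ℂ) {R : ℝ} (hR : 0 < R) (F : Finset ℂ) {G : ℂ → ℝ} {m₁ m₂ : ℝ}
    (hG : ContDiffOn ℝ 2 G (ball a R \ F)) (hM : ∀ y ∈ ball a R \ F, m₁ ≤ G y ∧ G y ≤ m₂)
    (hpos : ∀ y ∈ ball a R \ F, 0 ≤ lap G y) :
    ∫⁻ y in ball a R \ F, ENNReal.ofReal (lap G y * Real.log (R / ‖y - a‖))
      ≤ ENNReal.ofReal (2 * π * (m₂ - m₁)) := by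
  have hπ := Real.pi_pos
  set V : Set ℂ := ball a R \ F with hVdef
  have hV : IsOpen V := isOpen_ball.sdiff F.finite_toSet.isClosed
  -- centre the values of G
  set G₀ : ℂ → ℝ := fun y => G y + -((m₁ + m₂) / 2) with hG₀
  have hG₀s : ContDiffOn ℝ 2 G₀ V := hG.add contDiffOn_const
  have hlap : ∀ y ∈ V, lap G₀ y = lap G y := by
    intro y hy
    have hc : ContDiffAt ℝ 2 G y := hG.contDiffAt (hV.mem_nhds hy)
    have h1 : ∀ v, D v G₀ =ᶠ[𝓝 y] D v G := by
      intro v
      filter_upwards [hc.eventually (by simp)] with z hz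
      have hz1 : DifferentiableAt ℝ G z := hz.differentiableAt (by norm_num)
      simp only [hG₀]
      rw [D_add hz1 (differentiableAt_const _)]
      simp [D]
    unfold lap
    rw [D_congr (h1 1), D_congr (h1 Complex.I)]
  set σ : ℝ := 2 * Real.log R with hσ
  choose g gs g0 ga gb gi gu gl using fun n : ℕ => test_fun (K := n) (δ := 1 / ((n : ℝ) + 1)) (by positivity)
    (by positivity)
  set h : ℕ → ℝ → ℝ := fun n s => g n (s - σ) with hh
  set c : ℕ → ℝ := fun n => g n (-(n : ℝ) - 1 - 2 * (1 / ((n : ℝ) + 1))) with hcdef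
  have hs : ∀ n, ContDiff ℝ 2 (h n) := fun n => (gs n).comp (by fun_prop)
  have hconst : ∀ n : ℕ, ∀ s ≤ (-(n : ℝ) - 1 - 2 * (1 / ((n : ℝ) + 1))) + σ, h n s = c n := by
    intro n s hs
    exact gb n (s - σ) (by linarith)
  set φ : ℕ → ℂ → ℝ := fun n => rad (h n) (c n) a with hφ
  have φs : ∀ n, ContDiff ℝ 2 (φ n) := fun n => rad_contDiff (hconst n) (hs n) a
  have φ0 : ∀ n y, 0 ≤ φ n y := by
    intro n y
    simp only [hφ, rad]
    split_ifs
    · exact g0 n _
    · exact g0 n _
  have φt : ∀ n, tsupport (φ n) ⊆ closedBall a (R * Real.exp (-(1 / ((n : ℝ) + 1)) / 2)) := by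
    intro n
    refine closure_minimal ?_ isClosed_closedBall
    intro y hy
    rw [mem_closedBall, dist_eq_norm]
    by_contra hlt
    push Not at hlt
    apply hy
    have hya : y ≠ a := by
      rintro rfl
      simp at hlt
      have : 0 < R * Real.exp (-((n : ℝ) + 1)⁻¹ / 2) := by positivity
      linarith
    have h3 : 0 < ‖y - a‖ := norm_pos_iff.2 (sub_ne_zero.2 hya)
    simp only [hφ]
    rw [rad_of_ne hya]
    refine ga n _ ?_
    have h4 := Real.log_le_log (by positivity) hlt.le
    rw [Real.log_mul hR.ne' (Real.exp_pos _).ne', Real.log_exp] at h4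
    rw [lg, Real.log_pow, hσ]
    push_cast
    linarith
  have hlt : ∀ n : ℕ, R * Real.exp (-(1 / ((n : ℝ) + 1)) / 2) < R := by
    intro n
    have : Real.exp (-(1 / ((n : ℝ) + 1)) / 2) < 1 := by
      rw [Real.exp_lt_one_iff]
      have : (0 : ℝ) < 1 / ((n : ℝ) + 1) := by positivity
      linarith
    nlinarith
  have φc : ∀ n, HasCompactSupport (φ n) := fun n =>
    IsCompact.of_isClosed_subset (isCompact_closedBall a _) (isClosed_tsupport _) (φt n)
  have φU : ∀ n, tsupport (φ n) ⊆ ball a R := fun n => (φt n).trans (closedBall_subset_ball (hlt n))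
  have hterm : ∀ n, ∫⁻ y in V, ENNReal.ofReal (lap G y * φ n y) ≤ ENNReal.ofReal (2 * π * (m₂ - m₁)) := by
    intro n
    have h1 := punct isOpen_ball F (G := G₀) (M := (m₂ - m₁) / 2) hG₀s (by
        intro y hy
        have := hM y hy
        simp only [hG₀]
        rw [abs_le]; constructor <;> linarith [this.1, this.2])
      (fun y hy => by rw [hlap y hy]; exact hpos y hy) (φs n) (φc n) (φU n) (φ0 n)
    have h2 : ∫⁻ y, ENNReal.ofReal |lap (φ n) y| ≤ ENNReal.ofReal (4 * π) := by
      simp only [hφ]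
      rw [lint_lap_rad (hs n)]
      have h3 : ∀ s, deriv (deriv (h n)) s = deriv (deriv (g n)) (s - σ) := by
        intro s
        have e1 : deriv (h n) = fun s => deriv (g n) (s - σ) := by
          ext s
          simp only [hh]
          exact deriv_comp_sub_const (g n) σ s
        rw [e1]
        exact deriv_comp_sub_const (deriv (g n)) σ s
      have h4 : ∫⁻ s, ENNReal.ofReal |deriv (deriv (h n)) s| ≤ 1 := by
        simp_rw [h3]
        rw [lintegral_sub_right_eq_self (fun s => ENNReal.ofReal |deriv (deriv (g n)) s|) σ]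
        exact gi n
      calc _ ≤ ENNReal.ofReal (4 * π) * 1 := by gcongr
        _ = _ := mul_one _
    calc ∫⁻ y in V, ENNReal.ofReal (lap G y * φ n y)
        = ∫⁻ y in V, ENNReal.ofReal (lap G₀ y * φ n y) :=
          setLIntegral_congr_fun hV.measurableSet (fun y hy => by rw [hlap y hy])
      _ ≤ ENNReal.ofReal ((m₂ - m₁) / 2) * ∫⁻ y, ENNReal.ofReal |lap (φ n) y| := h1
      _ ≤ ENNReal.ofReal ((m₂ - m₁) / 2) * ENNReal.ofReal (4 * π) := by gcongr
      _ = ENNReal.ofReal (2 * π * (m₂ - m₁)) := by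
          rw [← ENNReal.ofReal_mul' (by positivity)]
          congr 1; ring
  -- Fatou
  have hlim : ∀ y ∈ V, y ≠ a → ENNReal.ofReal (lap G y * Real.log (R / ‖y - a‖))
      = liminf (fun n => ENNReal.ofReal (lap G y * φ n y)) atTop := by
    intro y hy hya
    have h3 : 0 < ‖y - a‖ := norm_pos_iff.2 (sub_ne_zero.2 hya)
    have h4 : ‖y - a‖ < R := by rw [← dist_eq_norm]; exact hy.1
    have e0 : Real.log (R / ‖y - a‖) = -(lg a y - σ) / 2 := by
      rw [Real.log_div hR.ne' h3.ne', lg, Real.log_pow, hσ]; push_cast; ring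
    have hneg : lg a y - σ ≤ 0 := by
      have : 0 ≤ Real.log (R / ‖y - a‖) := Real.log_nonneg (by rw [one_le_div h3]; exact h4.le)
      linarith
    have hδ : Tendsto (fun n : ℕ => 1 / ((n : ℝ) + 1)) atTop (𝓝 0) := tendsto_one_div_add_atTop_nhds_zero_nat
    have hφt : Tendsto (fun n => φ n y) atTop (𝓝 (Real.log (R / ‖y - a‖))) := by
      rw [e0]
      have hφe : ∀ n, φ n y = g n (lg a y - σ) := by
        intro n; simp only [hφ]; rw [rad_of_ne hya]
      simp_rw [hφe]
      refine tendsto_of_tendsto_of_tendsto_of_le_of_le' (g := fun n : ℕ => -(lg a y - σ) / 2 - 1 / ((n : ℝ) + 1))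
        (h := fun _ => -(lg a y - σ) / 2) ?_ tendsto_const_nhds ?_ ?_
      · simpa using tendsto_const_nhds.sub hδ
      · have : ∀ᶠ n : ℕ in atTop, -(lg a y - σ) ≤ (n : ℝ) :=
          tendsto_natCast_atTop_atTop.eventually_ge_atTop _
        filter_upwards [this] with n hn
        exact gl n _ hneg (by linarith)
      · exact Eventually.of_forall fun n => gu n _ hneg
    exact (ENNReal.tendsto_ofReal (tendsto_const_nhds.mul hφt)).liminf_eq.symm
  calc ∫⁻ y in V, ENNReal.ofReal (lap G y * Real.log (R / ‖y - a‖))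
      = ∫⁻ y in V, liminf (fun n => ENNReal.ofReal (lap G y * φ n y)) atTop := by
        refine lintegral_congr_ae ?_
        filter_upwards [ae_restrict_mem hV.measurableSet, ae_restrict_of_ae (ae_ne a)] with y hy hya
        exact hlim y hy hya
    _ ≤ liminf (fun n => ∫⁻ y in V, ENNReal.ofReal (lap G y * φ n y)) atTop := by
        refine lintegral_liminf_le' fun n => ?_
        have : ContinuousOn (fun y => lap G y * φ n y) V :=
          (lap_continuousOn hV hG).mul (φs n).continuous.continuousOn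
        exact (this.aemeasurable hV.measurableSet).ennreal_ofReal
    _ ≤ liminf (fun _ : ℕ => ENNReal.ofReal (2 * π * (m₂ - m₁))) atTop :=
        liminf_le_liminf (Eventually.of_forall hterm)
    _ = ENNReal.ofReal (2 * π * (m₂ - m₁)) := by simp

end Crest.Agent.R281.Jen_563
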