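import Mathlib
import Crest.Agent.R281.Jen3_563

/-! S6-JEN, part 4: layer cake (J2), Jensen for a measure over the punctured disc. -/

open MeasureTheory Set Filter Topology Metric
open scoped ENNReal Real ContDiff

noncomputable section
namespace Crest.Agent.R281.Jen_563

/-- change of variables `u = R e^{-t}`. -/
theorem lint_exp {R : ℝ} (hR : 0 < R) (H : ℝ → ℝ≥0∞) :
    ∫⁻ t in Ioi (0 : ℝ), H (R * Real.exp (-t)) = ∫⁻ u in Ioo 0 R, H u * ENNReal.ofReal (1 / u) := by
  have him : (fun t : ℝ => R * Real.exp (-t)) '' Ioi 0 = Ioo 0 R := by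
    ext u
    simp only [mem_image, mem_Ioi, mem_Ioo]
    constructor
    · rintro ⟨t, ht, rfl⟩
      refine ⟨by positivity, ?_⟩
      have : Real.exp (-t) < 1 := by rw [Real.exp_lt_one_iff]; linarith
      nlinarith
    · rintro ⟨h0, h1⟩
      refine ⟨-Real.log (u / R), ?_, ?_⟩
      · have : Real.log (u / R) < 0 := Real.log_neg (by positivity) (by rw [div_lt_one hR]; exact h1)
        linarith
      · rw [neg_neg, Real.exp_log (by positivity)]; field_simp
  rw [← him, lintegral_image_eq_lintegral_abs_deriv_mul (f' := fun t => R * (Real.exp (-t) * -1))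
    measurableSet_Ioi]
  · refine setLIntegral_congr_fun measurableSet_Ioi fun t _ => ?_
    have hp : 0 < R * Real.exp (-t) := by positivity
    have e1 : |R * (Real.exp (-t) * -1)| = R * Real.exp (-t) := by
      rw [show R * (Real.exp (-t) * -1) = -(R * Real.exp (-t)) by ring, abs_neg, abs_of_pos hp]
    rw [e1, mul_comm (H _), ← mul_assoc, ← ENNReal.ofReal_mul hp.le, mul_one_div_cancel hp.ne',
      ENNReal.ofReal_one, one_mul]
  · intro t _
    exact (((Real.hasDerivAt_exp (-t)).comp t (hasDerivAt_neg t)).const_mul R).hasDerivWithinAt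
  · intro s _ t _ hst
    have h1 : Real.exp (-s) = Real.exp (-t) := mul_left_cancel₀ hR.ne' hst
    have := Real.exp_injective h1
    linarith

/-- **(J2) LAYER CAKE** on a measure space with a radius function. -/
theorem layer {α : Type*} [MeasurableSpace α] (μ : Measure α) {ρ : α → ℝ} (hρ : AEMeasurable ρ μ)
    (hρ0 : ∀ᵐ x ∂μ, 0 < ρ x) {R : ℝ} (hR : 0 < R) :
    ∫⁻ x, ENNReal.ofReal (Real.log (R / ρ x)) ∂μ
      = ∫⁻ t in Ioo 0 R, μ {x | ρ x < t} * ENNReal.ofReal (1 / t) := by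
  have e1 : ∫⁻ x, ENNReal.ofReal (Real.log (R / ρ x)) ∂μ
      = ∫⁻ x, ENNReal.ofReal (max (Real.log (R / ρ x)) 0) ∂μ :=
    lintegral_congr fun x => by
      rcases le_total (Real.log (R / ρ x)) 0 with h | h
      · rw [max_eq_right h, ENNReal.ofReal_of_nonpos h, ENNReal.ofReal_zero]
      · rw [max_eq_left h]
  rw [e1, lintegral_eq_lintegral_meas_lt μ (f := fun x => max (Real.log (R / ρ x)) 0)
    (Eventually.of_forall fun x => le_max_right _ _) (by fun_prop),
    ← lint_exp hR (fun u => μ {x | ρ x < u})]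
  refine setLIntegral_congr_fun measurableSet_Ioi fun t ht => ?_
  refine measure_congr ?_
  filter_upwards [hρ0] with x hx
  apply propext
  change (t < max (Real.log (R / ρ x)) 0) ↔ (ρ x < R * Real.exp (-t))
  rw [lt_max_iff, or_iff_left (not_lt.2 (le_of_lt ht)), Real.lt_log_iff_exp_lt (by positivity),
    lt_div_iff₀ hx, Real.exp_neg, ← div_eq_mul_inv, lt_div_iff₀ (Real.exp_pos _), mul_comm]

/-- **Jensen for a measure over the punctured disc**: `b_* μ = ΔG dA` on `D(a,R) ∖ F`. -/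
theorem jensen_measure {α : Type*} [MeasurableSpace α] (μ : Measure α) {b : α → ℂ} (hb : Measurable b)
    (a : ℂ) {R : ℝ} (hR : 0 < R) (F : Finset ℂ) {G : ℂ → ℝ} {m₁ m₂ : ℝ}
    (hG : ContDiffOn ℝ 2 G (ball a R \ F)) (hM : ∀ y ∈ ball a R \ F, m₁ ≤ G y ∧ G y ≤ m₂)
    (hpos : ∀ y ∈ ball a R \ F, 0 ≤ lap G y)
    (hμ : μ.map b ≤ (volume.restrict (ball a R \ F)).withDensity fun y => ENNReal.ofReal (lap G y)) :
    ∫⁻ x, ENNReal.ofReal (Real.log (R / ‖b x - a‖)) ∂μ ≤ ENNReal.ofReal (2 * π * (m₂ - m₁)) := by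
  have hV : IsOpen (ball a R \ (F : Set ℂ)) := isOpen_ball.sdiff F.finite_toSet.isClosed
  have hm : Measurable fun y : ℂ => ENNReal.ofReal (Real.log (R / ‖y - a‖)) := by fun_prop
  have hl : AEMeasurable (fun y => ENNReal.ofReal (lap G y)) (volume.restrict (ball a R \ F)) :=
    ((lap_continuousOn hV hG).aemeasurable hV.measurableSet).ennreal_ofReal
  calc ∫⁻ x, ENNReal.ofReal (Real.log (R / ‖b x - a‖)) ∂μ
      = ∫⁻ y, ENNReal.ofReal (Real.log (R / ‖y - a‖)) ∂(μ.map b) := (lintegral_map hm hb).symm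
    _ ≤ ∫⁻ y, ENNReal.ofReal (Real.log (R / ‖y - a‖))
          ∂((volume.restrict (ball a R \ F)).withDensity fun y => ENNReal.ofReal (lap G y)) :=
        lintegral_mono' hμ le_rfl
    _ = ∫⁻ y in ball a R \ F, ENNReal.ofReal (lap G y * Real.log (R / ‖y - a‖)) := by
        rw [lintegral_withDensity_eq_lintegral_mul₀ hl hm.aemeasurable]
        refine setLIntegral_congr_fun hV.measurableSet fun y hy => ?_
        simp only [Pi.mul_apply]
        rw [← ENNReal.ofReal_mul (hpos y hy)]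
    _ ≤ _ := jensen a hR F hG hM hpos

/-- the fibre-mass form: `∫₀^R μ(|b - a| < t) dt/t ≤ 2π osc G`. -/
theorem jensen_layer {α : Type*} [MeasurableSpace α] (μ : Measure α) {b : α → ℂ} (hb : Measurable b)
    (a : ℂ) {R : ℝ} (hR : 0 < R) (F : Finset ℂ) {G : ℂ → ℝ} {m₁ m₂ : ℝ}
    (hG : ContDiffOn ℝ 2 G (ball a R \ F)) (hM : ∀ y ∈ ball a R \ F, m₁ ≤ G y ∧ G y ≤ m₂)
    (hpos : ∀ y ∈ ball a R \ F, 0 ≤ lap G y)
    (hμ : μ.map b ≤ (volume.restrict (ball a R \ F)).withDensity fun y => ENNReal.ofReal (lap G y)) :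
    ∫⁻ t in Ioo 0 R, μ {x | ‖b x - a‖ < t} * ENNReal.ofReal (1 / t) ≤ ENNReal.ofReal (2 * π * (m₂ - m₁)) := by
  have h0 : ∀ᵐ x ∂μ, 0 < ‖b x - a‖ := by
    have h1 : (μ.map b) {a} = 0 := by
      refine le_antisymm ((hμ {a}).trans ?_) zero_le
      refine le_of_eq ?_
      have hac := withDensity_absolutelyContinuous (volume.restrict (ball a R \ (F : Set ℂ)))
        (fun y => ENNReal.ofReal (lap G y))
      apply hac
      refine le_antisymm ((Measure.restrict_apply_le _ _).trans ?_) zero_le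
      simp
    rw [Measure.map_apply hb (measurableSet_singleton a)] at h1
    have h2 : ∀ᵐ x ∂μ, x ∉ b ⁻¹' {a} := measure_eq_zero_iff_ae_notMem.1 h1
    filter_upwards [h2] with x hx
    rw [norm_pos_iff, sub_ne_zero]
    exact hx
  have hm : Measurable fun x => ‖b x - a‖ := by fun_prop
  rw [← layer μ hm.aemeasurable h0 hR]
  exact jensen_measure μ hb a hR F hG hM hpos hμ

/-- the clipped logarithm `w = log⁺(R/|b - a|) / log(R/r)`: `∫ w dμ ≤ 2π osc G / log(R/r)`. -/
theorem jensen_clip {α : Type*} [MeasurableSpace α] (μ : Measure α) {b : α → ℂ} (hb : Measurable b)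
    (a : ℂ) {R r : ℝ} (hr : 0 < r) (hrR : r < R) (F : Finset ℂ) {G : ℂ → ℝ} {m₁ m₂ : ℝ}
    (hG : ContDiffOn ℝ 2 G (ball a R \ F)) (hM : ∀ y ∈ ball a R \ F, m₁ ≤ G y ∧ G y ≤ m₂)
    (hpos : ∀ y ∈ ball a R \ F, 0 ≤ lap G y)
    (hμ : μ.map b ≤ (volume.restrict (ball a R \ F)).withDensity fun y => ENNReal.ofReal (lap G y)) :
    ∫⁻ x, ENNReal.ofReal (max (Real.log (R / ‖b x - a‖) / Real.log (R / r)) 0) ∂μ
      ≤ ENNReal.ofReal (2 * π * (m₂ - m₁) / Real.log (R / r)) := by
  have hR : 0 < R := hr.trans hrR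
  have hl : 0 < Real.log (R / r) := Real.log_pos (by rw [one_lt_div hr]; exact hrR)
  have h1 := jensen_measure μ hb a hR F hG hM hpos hμ
  have hm : Measurable fun x => ENNReal.ofReal (Real.log (R / ‖b x - a‖)) := by fun_prop
  calc ∫⁻ x, ENNReal.ofReal (max (Real.log (R / ‖b x - a‖) / Real.log (R / r)) 0) ∂μ
      = ∫⁻ x, ENNReal.ofReal (Real.log (R / r))⁻¹ * ENNReal.ofReal (Real.log (R / ‖b x - a‖)) ∂μ := by
        refine lintegral_congr fun x => ?_
        rw [← ENNReal.ofReal_mul (by positivity), mul_comm, ← div_eq_mul_inv]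
        rcases le_total (Real.log (R / ‖b x - a‖) / Real.log (R / r)) 0 with h | h
        · rw [max_eq_right h, ENNReal.ofReal_of_nonpos h, ENNReal.ofReal_zero]
        · rw [max_eq_left h]
    _ = ENNReal.ofReal (Real.log (R / r))⁻¹ * ∫⁻ x, ENNReal.ofReal (Real.log (R / ‖b x - a‖)) ∂μ :=
        lintegral_const_mul _ hm
    _ ≤ ENNReal.ofReal (Real.log (R / r))⁻¹ * ENNReal.ofReal (2 * π * (m₂ - m₁)) := by gcongr
    _ = _ := by
        rw [← ENNReal.ofReal_mul (by positivity), mul_comm, ← div_eq_mul_inv]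

end Crest.Agent.R281.Jen_563
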