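import Crest.Agent.R281.Pol2_967

/-!
# R281, DIV 6, (J0) of helper664 #7270 (helper967), part 3: compact countable sets are polar

`Pol E`: for every `ε > 0` and every neighbourhood `W` of `E` there is a smooth `η` with compact support in `W`,
`0 ≤ η ≤ 1`, `η = 1` near `E`, `∫ |Δ η| ≤ ε`, `∫ |∇ η|² ≤ ε`, `∫ η ≤ ε`.
`pol_of_countable`: compact countable sets are `Pol`.
-/

set_option autoImplicit false

open MeasureTheory Set Filter Topology Metric
open scoped Real ContDiff

noncomputable section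
namespace Crest.Agent.R281.Pol_967

open Crest.Agent.R281.Jen_563

/-- cut-offs with small energy and small Laplacian (in `L¹`) at `E`; `gs η = |∇ η|²` -/
def Pol (E : Set ℂ) : Prop :=
  ∀ ε : ℝ, 0 < ε → ∀ W : Set ℂ, IsOpen W → E ⊆ W → ∃ η : ℂ → ℝ, ContDiff ℝ ∞ η ∧ HasCompactSupport η ∧
    tsupport η ⊆ W ∧ (∀ y, 0 ≤ η y) ∧ (∀ y, η y ≤ 1) ∧ (∀ᶠ y in 𝓝ˢ E, η y = 1) ∧
    ∫ y, |lap η y| ≤ ε ∧ ∫ y, gs η y ≤ ε ∧ ∫ y, η y ≤ ε

theorem Pol.mono {E E' : Set ℂ} (h : Pol E) (hE : E' ⊆ E) (hW : ∀ W, IsOpen W → E' ⊆ W → E ⊆ W) :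
    Pol E' := fun ε hε W hW1 hW2 => by
  obtain ⟨η, h1, h2, h3, h4, h5, h6, h7⟩ := h ε hε W hW1 (hW W hW1 hW2)
  exact ⟨η, h1, h2, h3, h4, h5, h6.filter_mono (nhdsSet_mono hE), h7⟩

section comp

variable {f : ℂ → ℝ} {Φ : ℝ → ℝ}

theorem D_compAt {y : ℂ} (hΦ : DifferentiableAt ℝ Φ (f y)) (hf : DifferentiableAt ℝ f y) (v : ℂ) :
    D v (fun z => Φ (f z)) y = deriv Φ (f y) * D v f y := by
  unfold D
  have h : HasFDerivAt (fun z => Φ (f z)) (deriv Φ (f y) • fderiv ℝ f y) y :=
    hΦ.hasDerivAt.comp_hasFDerivAt y hf.hasFDerivAt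
  rw [h.fderiv]
  simp

theorem smooth_deriv (hΦ : ContDiff ℝ ∞ Φ) : ContDiff ℝ ∞ (deriv Φ) := by
  have h : ContDiff ℝ (∞ + 1) Φ := by simpa using hΦ
  exact ((contDiff_succ_iff_deriv (n := ∞)).1 h).2.2

theorem lap_comp (hΦ : ContDiff ℝ ∞ Φ) (hf : ContDiff ℝ ∞ f) (y : ℂ) :
    lap (fun z => Φ (f z)) y = deriv Φ (f y) * lap f y + deriv (deriv Φ) (f y) * gs f y := by
  have hΦ' := smooth_deriv hΦ
  have key : ∀ v, D v (D v (fun z => Φ (f z))) y =
      deriv Φ (f y) * D v (D v f) y + deriv (deriv Φ) (f y) * D v f y ^ 2 := by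
    intro v
    have e : D v (fun z => Φ (f z)) = fun z => deriv Φ (f z) * D v f z := by
      funext z
      exact D_compAt (hΦ.differentiable (by simp) _) (hf.differentiable (by simp) z) v
    have hd : Differentiable ℝ (fun z => deriv Φ (f z)) :=
      (hΦ'.differentiable (by simp)).comp (hf.differentiable (by simp))
    rw [e, D_mulAt (hd y) ((smooth_D hf v).differentiable (by simp) y),
      D_compAt (hΦ'.differentiable (by simp) _) (hf.differentiable (by simp) y)]
    ring
  unfold lap gs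
  rw [key 1, key Complex.I]
  ring

theorem gs_comp (hΦ : ContDiff ℝ ∞ Φ) (hf : ContDiff ℝ ∞ f) (y : ℂ) :
    gs (fun z => Φ (f z)) y = deriv Φ (f y) ^ 2 * gs f y := by
  unfold gs
  rw [D_compAt (hΦ.differentiable (by simp) _) (hf.differentiable (by simp) y),
    D_compAt (hΦ.differentiable (by simp) _) (hf.differentiable (by simp) y)]
  ring

/-- the transition function has bounded derivatives -/
theorem exists_bound_trans : ∃ M : ℝ, 1 ≤ M ∧ (∀ t, |deriv Real.smoothTransition t| ≤ M) ∧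
    ∀ t, |deriv (deriv Real.smoothTransition) t| ≤ M := by
  have h0 : ContDiff ℝ ∞ Real.smoothTransition := Real.smoothTransition.contDiff
  have h1 := smooth_deriv h0
  have h2 := smooth_deriv h1
  have z1 : ∀ t, t ∉ Icc (0 : ℝ) 1 → deriv Real.smoothTransition t = 0 := by
    intro t ht
    rcases lt_or_ge t 0 with h | h
    · have e : Real.smoothTransition =ᶠ[𝓝 t] fun _ => 0 := by
        filter_upwards [gt_mem_nhds h] with x hx
        exact Real.smoothTransition.zero_of_nonpos hx.le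
      rw [e.deriv_eq]
      simp
    · have h' : 1 < t := by
        by_contra h3
        exact ht ⟨h, not_lt.1 h3⟩
      have e : Real.smoothTransition =ᶠ[𝓝 t] fun _ => 1 := by
        filter_upwards [lt_mem_nhds h'] with x hx
        exact Real.smoothTransition.one_of_one_le hx.le
      rw [e.deriv_eq]
      simp
  have t1 : tsupport (deriv Real.smoothTransition) ⊆ Icc (0 : ℝ) 1 :=
    closure_minimal (fun t ht => by
      by_contra h
      exact ht (z1 t h)) isClosed_Icc
  have c1 : HasCompactSupport (deriv Real.smoothTransition) :=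
    IsCompact.of_isClosed_subset isCompact_Icc (isClosed_tsupport _) t1
  have c2 : HasCompactSupport (deriv (deriv Real.smoothTransition)) := c1.deriv
  obtain ⟨M1, hM1⟩ := c1.exists_bound_of_continuous h1.continuous
  obtain ⟨M2, hM2⟩ := c2.exists_bound_of_continuous h2.continuous
  exact ⟨max 1 (max M1 M2), le_max_left _ _,
    fun t => (hM1 t).trans ((le_max_left _ _).trans (le_max_right _ _)),
    fun t => (hM2 t).trans ((le_max_right _ _).trans (le_max_right _ _))⟩

end comp

section sums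

variable {ι : Type*} (F : Finset ι) (p : ι → ℂ → ℝ)

theorem smooth_sum (hp : ∀ i, ContDiff ℝ ∞ (p i)) : ContDiff ℝ ∞ fun y => ∑ i ∈ F, p i y :=
  ContDiff.sum fun i _ => hp i

theorem D_sum (hp : ∀ i, ContDiff ℝ ∞ (p i)) (v y : ℂ) :
    D v (fun z => ∑ i ∈ F, p i z) y = ∑ i ∈ F, D v (p i) y := by
  unfold D
  have h : HasFDerivAt (fun z => ∑ i ∈ F, p i z) (∑ i ∈ F, fderiv ℝ (p i) y) y :=
    HasFDerivAt.fun_sum fun i _ => ((hp i).differentiable (by simp) y).hasFDerivAt
  rw [h.fderiv]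
  simp

theorem lap_sum (hp : ∀ i, ContDiff ℝ ∞ (p i)) (y : ℂ) :
    lap (fun z => ∑ i ∈ F, p i z) y = ∑ i ∈ F, lap (p i) y := by
  unfold lap
  have e : ∀ v, D v (fun z => ∑ i ∈ F, p i z) = fun z => ∑ i ∈ F, D v (p i) z := fun v =>
    funext fun z => D_sum F p hp v z
  rw [e, e, D_sum F _ (fun i => smooth_D (hp i) 1), D_sum F _ (fun i => smooth_D (hp i) Complex.I),
    ← Finset.sum_add_distrib]

theorem gs_sum_le (hp : ∀ i, ContDiff ℝ ∞ (p i)) {w : ι → ℝ} (hw : ∀ i, 0 < w i)
    (hw1 : ∑ i ∈ F, w i ≤ 1) (y : ℂ) :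
    gs (fun z => ∑ i ∈ F, p i z) y ≤ ∑ i ∈ F, (w i)⁻¹ * gs (p i) y := by
  have key : ∀ v, D v (fun z => ∑ i ∈ F, p i z) y ^ 2 ≤ ∑ i ∈ F, (w i)⁻¹ * D v (p i) y ^ 2 := by
    intro v
    rw [D_sum F p hp]
    have h := Finset.sum_sq_le_sum_mul_sum_of_sq_le_mul F (r := fun i => D v (p i) y)
      (f := w) (g := fun i => (w i)⁻¹ * D v (p i) y ^ 2) (fun i _ => (hw i).le)
      (fun i _ => mul_nonneg (inv_nonneg.2 (hw i).le) (sq_nonneg _)) (fun i _ => by
        have := (hw i).ne'
        apply le_of_eq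
        field_simp)
    refine h.trans ?_
    exact mul_le_of_le_one_left (Finset.sum_nonneg fun i _ =>
      mul_nonneg (inv_nonneg.2 (hw i).le) (sq_nonneg _)) hw1
  unfold gs
  refine (add_le_add (key 1) (key Complex.I)).trans (le_of_eq ?_)
  rw [← Finset.sum_add_distrib]
  refine Finset.sum_congr rfl fun i _ => ?_
  ring

theorem sum_half_le {ι : Type*} (F : Finset ι) {n : ι → ℕ} (hn : Function.Injective n) :
    ∑ i ∈ F, (1 / 2 : ℝ) ^ (n i + 1) ≤ 1 := by
  have h1 : ∑ i ∈ F, (1 / 2 : ℝ) ^ (n i + 1) = ∑ k ∈ F.map ⟨n, hn⟩, (1 / 2 : ℝ) ^ (k + 1) := by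
    rw [Finset.sum_map]
    rfl
  have h2 : ∑ k ∈ F.map ⟨n, hn⟩, (1 / 2 : ℝ) ^ (k + 1) =
      (1 / 2) * ∑ k ∈ F.map ⟨n, hn⟩, (1 / 2 : ℝ) ^ k := by
    rw [Finset.mul_sum]
    refine Finset.sum_congr rfl fun k _ => ?_
    rw [pow_succ]
    ring
  have h3 : ∑ k ∈ F.map ⟨n, hn⟩, (1 / 2 : ℝ) ^ k ≤ 2 := by
    have h4 := summable_geometric_two.sum_le_tsum (F.map ⟨n, hn⟩) fun k _ => by positivity
    rwa [tsum_geometric_two] at h4
  rw [h1, h2]
  linarith

end sums

/-- **compact countable sets are polar** -/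
theorem pol_of_countable {E : Set ℂ} (hE : IsCompact E) (hc : E.Countable) : Pol E := by
  intro ε hε W hW hEW
  obtain ⟨R, hR0, hR⟩ : ∃ R : ℝ, 0 < R ∧ E ⊆ ball 0 R := by
    obtain ⟨R, hR⟩ := hE.isBounded.subset_ball 0
    exact ⟨max R 1, by positivity, hR.trans (ball_subset_ball (le_max_left _ _))⟩
  obtain ⟨M, hM1, hMa, hMb⟩ := exists_bound_trans
  have hM0 : 0 < M := by linarith
  set K : ℝ := 2 * M + M ^ 2 + R ^ 2 / 4 * (2 * M) with hK
  have hK0 : 0 < K := by positivity
  set δ : ℝ := ε / K with hδd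
  have hδ : 0 < δ := by positivity
  have hδK : K * δ = ε := by rw [hδd]; field_simp
  let _ : Encodable E := hc.toEncodable
  have hWR : IsOpen (W ∩ ball 0 R) := hW.inter isOpen_ball
  choose p hps hpc hpt hp0 hp2 hp1 hpl hpg using fun a : E =>
    exists_pt (a : ℂ) hWR ⟨hEW a.2, hR a.2⟩ (δ := δ * (1 / 4) ^ (Encodable.encode a + 1)) (by positivity)
  -- finite subcover
  obtain ⟨F, hF⟩ : ∃ F : Finset E, E ⊆ ⋃ a ∈ F, interior {y | 1 ≤ p a y} := by
    refine hE.elim_finite_subcover (fun a : E => interior {y | 1 ≤ p a y}) (fun a => isOpen_interior) ?_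
    intro x hx
    exact mem_iUnion.2 ⟨⟨x, hx⟩, mem_interior_iff_mem_nhds.2 (hp1 ⟨x, hx⟩)⟩
  set P : ℂ → ℝ := fun y => ∑ a ∈ F, p a y with hP
  have hPs : ContDiff ℝ ∞ P := smooth_sum F p hps
  have hPt : tsupport P ⊆ ⋃ a ∈ F, tsupport (p a) := by
    refine closure_minimal ?_ (isClosed_biUnion_finset fun a _ => isClosed_tsupport _)
    intro y hy
    by_contra h
    refine hy (Finset.sum_eq_zero fun a ha => ?_)
    exact image_eq_zero_of_notMem_tsupport fun h' => h (mem_biUnion ha h')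
  have hPt' : tsupport P ⊆ W ∩ ball 0 R := hPt.trans (iUnion₂_subset fun a _ => hpt a)
  have hPc : HasCompactSupport P :=
    IsCompact.of_isClosed_subset (F.isCompact_biUnion fun a _ => hpc a) (isClosed_tsupport _) hPt
  have hP0 : ∀ y, 0 ≤ P y := fun y => Finset.sum_nonneg fun a _ => hp0 a y
  set w : E → ℝ := fun a => (1 / 2) ^ (Encodable.encode a + 1) with hwd
  have hw : ∀ a, 0 < w a := fun a => by positivity
  have hw1 : ∑ a ∈ F, w a ≤ 1 := sum_half_le F Encodable.encode_injective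
  have hw4 : ∀ a : E, (1 / 4 : ℝ) ^ (Encodable.encode a + 1) = w a ^ 2 := fun a => by
    rw [hwd]
    simp only
    rw [← pow_mul, mul_comm, pow_mul]
    norm_num
  have hwle : ∀ a, w a ≤ 1 := fun a => pow_le_one₀ (by norm_num) (by norm_num)
  have hPlap : ∫ y, |lap P y| ≤ δ := by
    calc ∫ y, |lap P y| ≤ ∫ y, ∑ a ∈ F, |lap (p a) y| := by
          refine integral_mono (int_lap hPs hPc).abs
            (integrable_finsetSum _ fun a _ => (int_lap (hps a) (hpc a)).abs) fun y => ?_
          simp only [hP]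
          rw [lap_sum F p hps]
          exact Finset.abs_sum_le_sum_abs _ _
      _ = ∑ a ∈ F, ∫ y, |lap (p a) y| :=
          integral_finsetSum _ fun a _ => (int_lap (hps a) (hpc a)).abs
      _ ≤ ∑ a ∈ F, δ * w a := by
          refine Finset.sum_le_sum fun a _ => (hpl a).trans ?_
          rw [hw4]
          refine mul_le_mul_of_nonneg_left ?_ hδ.le
          rw [sq]
          exact mul_le_of_le_one_left (hw a).le (hwle a)
      _ = δ * ∑ a ∈ F, w a := by rw [Finset.mul_sum]
      _ ≤ δ := mul_le_of_le_one_right hδ.le hw1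
  have hPgs : ∫ y, gs P y ≤ δ := by
    calc ∫ y, gs P y ≤ ∫ y, ∑ a ∈ F, (w a)⁻¹ * gs (p a) y := by
          refine integral_mono (int_gs hPs hPc)
            (integrable_finsetSum _ fun a _ => (int_gs (hps a) (hpc a)).const_mul _) fun y => ?_
          exact gs_sum_le F p hps hw hw1 y
      _ = ∑ a ∈ F, (w a)⁻¹ * ∫ y, gs (p a) y := by
          rw [integral_finsetSum _ fun a _ => (int_gs (hps a) (hpc a)).const_mul _]
          refine Finset.sum_congr rfl fun a _ => ?_
          rw [integral_const_mul]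
      _ ≤ ∑ a ∈ F, δ * w a := by
          refine Finset.sum_le_sum fun a _ => ?_
          have h1 := mul_le_mul_of_nonneg_left (hpg a) (inv_nonneg.2 (hw a).le)
          refine h1.trans (le_of_eq ?_)
          rw [hw4]
          have := (hw a).ne'
          field_simp
      _ = δ * ∑ a ∈ F, w a := by rw [Finset.mul_sum]
      _ ≤ δ := mul_le_of_le_one_right hδ.le hw1
  -- the cut-off
  have hT : ContDiff ℝ ∞ Real.smoothTransition := Real.smoothTransition.contDiff
  set η : ℂ → ℝ := fun y => Real.smoothTransition (P y) with hη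
  have hηs : ContDiff ℝ ∞ η := hT.comp hPs
  have hηt : tsupport η ⊆ tsupport P := by
    refine closure_mono fun y hy => ?_
    intro h
    exact hy (by simp only [hη, h]; exact Real.smoothTransition.zero_of_nonpos le_rfl)
  have hηc : HasCompactSupport η := IsCompact.of_isClosed_subset hPc (isClosed_tsupport _) hηt
  have hηlap : ∫ y, |lap η y| ≤ 2 * M * δ := by
    calc ∫ y, |lap η y| ≤ ∫ y, (M * |lap P y| + M * gs P y) := by
          refine integral_mono (int_lap hηs hηc).abs
            (((int_lap hPs hPc).abs.const_mul M).add ((int_gs hPs hPc).const_mul M)) fun y => ?_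
          simp only [hη]
          rw [lap_comp hT hPs]
          refine (abs_add_le _ _).trans (add_le_add ?_ ?_)
          · rw [abs_mul]
            exact mul_le_mul_of_nonneg_right (hMa _) (abs_nonneg _)
          · rw [abs_mul, abs_of_nonneg (gs_nonneg P y)]
            exact mul_le_mul_of_nonneg_right (hMb _) (gs_nonneg P y)
      _ = M * (∫ y, |lap P y|) + M * (∫ y, gs P y) := by
          rw [integral_add ((int_lap hPs hPc).abs.const_mul M) ((int_gs hPs hPc).const_mul M),
            integral_const_mul, integral_const_mul]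
      _ ≤ 2 * M * δ := by nlinarith
  have hηgs : ∫ y, gs η y ≤ M ^ 2 * δ := by
    calc ∫ y, gs η y ≤ ∫ y, M ^ 2 * gs P y := by
          refine integral_mono (int_gs hηs hηc) ((int_gs hPs hPc).const_mul _) fun y => ?_
          simp only [hη]
          rw [gs_comp hT hPs]
          refine mul_le_mul_of_nonneg_right ?_ (gs_nonneg P y)
          rw [← sq_abs]
          exact pow_le_pow_left₀ (abs_nonneg _) (hMa _) 2
      _ = M ^ 2 * ∫ y, gs P y := integral_const_mul _ _
      _ ≤ M ^ 2 * δ := mul_le_mul_of_nonneg_left hPgs (by positivity)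
  have hηint : ∫ y, η y ≤ R ^ 2 / 4 * (2 * M) * δ := by
    have h := int_le_lap hηs hηc (a := 0) (R := R)
      ((hηt.trans hPt').trans (inter_subset_right.trans ball_subset_closedBall))
    refine h.trans ?_
    rw [mul_assoc]
    exact mul_le_mul_of_nonneg_left hηlap (by positivity)
  have hle : ∀ c : ℝ, c ≤ K → c * δ ≤ ε := fun c hcK => by
    rw [← hδK]
    exact mul_le_mul_of_nonneg_right hcK hδ.le
  refine ⟨η, hηs, hηc, (hηt.trans hPt').trans inter_subset_left,
    fun y => Real.smoothTransition.nonneg _, fun y => Real.smoothTransition.le_one _, ?_, ?_, ?_, ?_⟩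
  · have hO : IsOpen (⋃ a ∈ F, interior {y | 1 ≤ p a y}) :=
      isOpen_biUnion fun a _ => isOpen_interior
    filter_upwards [hO.mem_nhdsSet.2 hF] with y hy
    obtain ⟨a, haF, hya⟩ := mem_iUnion₂.1 hy
    refine Real.smoothTransition.one_of_one_le ?_
    have h1 : y ∈ {y | 1 ≤ p a y} := interior_subset hya
    exact le_trans h1 (Finset.single_le_sum (f := fun a => p a y) (fun b _ => hp0 b y) haF)
  · exact hηlap.trans (hle _ (by rw [hK]; nlinarith [sq_nonneg M, mul_nonneg (sq_nonneg R) hM0.le]))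
  · exact hηgs.trans (hle _ (by rw [hK]; nlinarith [sq_nonneg M, mul_nonneg (sq_nonneg R) hM0.le]))
  · exact hηint.trans (hle _ (by rw [hK]; nlinarith [sq_nonneg M, mul_nonneg (sq_nonneg R) hM0.le]))

end Crest.Agent.R281.Pol_967
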