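import Mathlib
import Crest.Agent.R281.Jen4_563
import Crest.Agent.R281.Pol3_967

/-! S6-JEN, part 5: (J1) with an exceptional set `E` of capacity zero (967's `Pol`), in particular
closed and countable. -/

open MeasureTheory Set Filter Topology Metric
open scoped ENNReal Real ContDiff

noncomputable section
namespace Crest.Agent.R281.Jen_563

open Crest.Agent.R281.Pol_967 (gs Pol)

/-- `E` is closed in `U` and every compact piece of it has capacity zero. -/
structure PolIn (U E : Set ℂ) : Prop where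
  op : IsOpen (U \ E)
  pol : ∀ K, IsCompact K → K ⊆ U → Pol (E ∩ K)

theorem PolIn.of_countable {U E : Set ℂ} (hUE : IsOpen (U \ E)) (hc : (E ∩ U).Countable) : PolIn U E := by
  refine ⟨hUE, fun K hK hKU => ?_⟩
  have e : E ∩ K = K \ (U \ E) := by
    ext y
    constructor
    · rintro ⟨h1, h2⟩; exact ⟨h2, fun h => h.2 h1⟩
    · rintro ⟨h1, h2⟩
      refine ⟨?_, h1⟩
      by_contra h
      exact h2 ⟨hKU h1, h⟩
  have hsub : E ∩ K ⊆ E ∩ U := fun y hy => ⟨hy.1, hKU hy.2⟩
  refine Crest.Agent.R281.Pol_967.pol_of_countable ?_ (hc.mono hsub)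
  rw [e]
  exact hK.diff hUE

/-- **Green's inequality off a set of capacity zero.** -/
theorem punctP {U E : Set ℂ} (hE : PolIn U E) {G : ℂ → ℝ} {M : ℝ}
    (hG : ContDiffOn ℝ 2 G (U \ E)) (hM : ∀ y ∈ U \ E, |G y| ≤ M)
    (hpos : ∀ y ∈ U \ E, 0 ≤ lap G y) {φ : ℂ → ℝ} (hφ : ContDiff ℝ 2 φ) (hc : HasCompactSupport φ)
    (hs : tsupport φ ⊆ U) (hφ0 : ∀ y, 0 ≤ φ y) :
    ∫⁻ y in U \ E, ENNReal.ofReal (lap G y * φ y)
      ≤ ENNReal.ofReal M * ∫⁻ y, ENNReal.ofReal |lap φ y| := by
  set V : Set ℂ := U \ E with hVdef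
  have hV : IsOpen V := hE.op
  have hVm : MeasurableSet V := hV.measurableSet
  have hK : IsCompact (tsupport φ) := hc
  choose η ηs ηc _ η0 η1 ηE ηl ηg ηi using fun n : ℕ =>
    hE.pol (tsupport φ) hK hs ((1 / 4 : ℝ) ^ n) (by positivity) univ isOpen_univ (subset_univ _)
  have ηs2 : ∀ n, ContDiff ℝ 2 (η n) := fun n => (ηs n).of_le (by norm_cast)
  set χ : ℕ → ℂ → ℝ := fun n y => 1 + -(η n y) with hχ
  have χs : ∀ n, ContDiff ℝ 2 (χ n) := fun n => contDiff_const.add (ηs2 n).neg
  have χD : ∀ n v y, D v (χ n) y = -(D v (η n) y) := by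
    intro n v y
    simp only [hχ]
    unfold D
    rw [fderiv_const_add]
    have : fderiv ℝ (fun z => -(η n z)) y = -fderiv ℝ (η n) y := fderiv_fun_neg
    rw [this]; rfl
  have χl : ∀ n y, lap (χ n) y = -(lap (η n) y) := by
    intro n y
    unfold lap
    have h1 : ∀ v, D v (χ n) = fun y => -(D v (η n) y) := fun v => funext fun y => χD n v y
    have h2 : ∀ v, D v (fun y => -(D v (η n) y)) y = -(D v (D v (η n)) y) := by
      intro v
      have : fderiv ℝ (fun z => -(D v (η n) z)) y = -fderiv ℝ (D v (η n)) y := fderiv_fun_neg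
      show fderiv ℝ (fun z => -(D v (η n) z)) y v = _
      rw [this]; rfl
    rw [h1 1, h1 Complex.I, h2 1, h2 Complex.I]
    ring
  have χb : ∀ n y, 0 ≤ χ n y ∧ χ n y ≤ 1 := fun n y => by
    simp only [hχ]; constructor <;> linarith [η0 n y, η1 n y]
  -- the test functions
  set ψ : ℕ → ℂ → ℝ := fun n y => φ y * χ n y with hψ
  have ψs : ∀ n, ContDiff ℝ 2 (ψ n) := fun n => hφ.mul (χs n)
  have ψt : ∀ n, tsupport (ψ n) ⊆ tsupport φ := fun n => closure_mono fun y hy => by
    simp only [hψ, Function.mem_support, ne_eq] at hy ⊢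
    intro h0; exact hy (by simp [h0])
  have ψc : ∀ n, HasCompactSupport (ψ n) := fun n =>
    IsCompact.of_isClosed_subset hc (isClosed_tsupport _) (ψt n)
  have ψV : ∀ n, tsupport (ψ n) ⊆ V := by
    intro n y hy
    refine ⟨hs (ψt n hy), fun hyE => ?_⟩
    have h1 : ∀ᶠ z in 𝓝 y, η n z = 1 :=
      (nhds_le_nhdsSet (show y ∈ E ∩ tsupport φ from ⟨hyE, ψt n hy⟩)) (ηE n)
    have : ψ n =ᶠ[𝓝 y] 0 := by
      filter_upwards [h1] with z hz
      simp [hψ, hχ, hz]
    exact notMem_tsupport_iff_eventuallyEq.2 this hy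
  have ψ0 : ∀ n y, 0 ≤ ψ n y := fun n y => mul_nonneg (hφ0 y) (χb n y).1
  -- bounds for φ
  obtain ⟨B0, hB0, hB0'⟩ := bdd_of_compact hφ.continuous hc
  set L : ℝ≥0∞ := ∫⁻ y, ENNReal.ofReal |lap φ y| with hL
  -- the gradient mass of φ
  have hgφ : Integrable (fun y => gs φ y) := by
    have h1 : Continuous (fun y => gs φ y) := by
      unfold gs
      exact ((D_continuous hφ 1).pow 2).add ((D_continuous hφ Complex.I).pow 2)
    refine h1.integrable_of_hasCompactSupport (IsCompact.of_isClosed_subset hc (isClosed_tsupport _) ?_)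
    intro y hy
    by_contra hcon
    have e1 : D 1 φ =ᶠ[𝓝 y] 0 := notMem_tsupport_iff_eventuallyEq.1 fun h => hcon (tsupport_D φ 1 h)
    have e2 : D Complex.I φ =ᶠ[𝓝 y] 0 :=
      notMem_tsupport_iff_eventuallyEq.1 fun h => hcon (tsupport_D φ Complex.I h)
    have e3 : (fun y => gs φ y) =ᶠ[𝓝 y] 0 := by
      filter_upwards [e1, e2] with z h1 h2
      simp [gs, h1, h2]
    exact notMem_tsupport_iff_eventuallyEq.2 e3 hy
  set T : ℝ := ∫ y, gs φ y with hT
  have hT0 : 0 ≤ T := integral_nonneg fun y => by unfold gs; positivity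
  have hTl : ∫⁻ y, ENNReal.ofReal (gs φ y) = ENNReal.ofReal T :=
    (ofReal_integral_eq_lintegral_ofReal hgφ (Eventually.of_forall fun y => by
      show 0 ≤ gs φ y; unfold gs; positivity)).symm
  -- lintegral forms for η
  have hηint : ∀ n, Integrable (η n) := fun n =>
    (ηs n).continuous.integrable_of_hasCompactSupport (ηc n)
  have ηi' : ∀ n, ∫⁻ y, ENNReal.ofReal (η n y) ≤ ENNReal.ofReal ((1 / 4 : ℝ) ^ n) := fun n => by
    rw [← ofReal_integral_eq_lintegral_ofReal (hηint n) (Eventually.of_forall (η0 n))]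
    exact ENNReal.ofReal_le_ofReal (ηi n)
  have ηl' : ∀ n, ∫⁻ y, ENNReal.ofReal |lap (η n) y| ≤ ENNReal.ofReal ((1 / 4 : ℝ) ^ n) := fun n => by
    have h1 : Integrable (fun y => |lap (η n) y|) :=
      ((lap_continuous (ηs2 n)).integrable_of_hasCompactSupport
        (IsCompact.of_isClosed_subset (ηc n) (isClosed_tsupport _) (tsupport_lap _))).abs
    rw [← ofReal_integral_eq_lintegral_ofReal h1 (Eventually.of_forall fun y => abs_nonneg _)]
    exact ENNReal.ofReal_le_ofReal (ηl n)
  have ηg' : ∀ n, ∫⁻ y, ENNReal.ofReal (gs (η n) y) ≤ ENNReal.ofReal ((1 / 4 : ℝ) ^ n) := fun n => by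
    have h1 : Integrable (fun y => gs (η n) y) := by
      have h1 : Continuous (fun y => gs (η n) y) := by
        unfold gs
        exact ((D_continuous (ηs2 n) 1).pow 2).add ((D_continuous (ηs2 n) Complex.I).pow 2)
      refine h1.integrable_of_hasCompactSupport
        (IsCompact.of_isClosed_subset (ηc n) (isClosed_tsupport _) ?_)
      intro y hy
      by_contra hcon
      have e1 : D 1 (η n) =ᶠ[𝓝 y] 0 :=
        notMem_tsupport_iff_eventuallyEq.1 fun h => hcon (tsupport_D (η n) 1 h)
      have e2 : D Complex.I (η n) =ᶠ[𝓝 y] 0 :=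
        notMem_tsupport_iff_eventuallyEq.1 fun h => hcon (tsupport_D (η n) Complex.I h)
      have e3 : (fun y => gs (η n) y) =ᶠ[𝓝 y] 0 := by
        filter_upwards [e1, e2] with z h1 h2
        simp [gs, h1, h2]
      exact notMem_tsupport_iff_eventuallyEq.2 e3 hy
    rw [← ofReal_integral_eq_lintegral_ofReal h1 (Eventually.of_forall fun y => by
      show 0 ≤ gs (η n) y; unfold gs; positivity)]
    exact ENNReal.ofReal_le_ofReal (ηg n)
  -- the bound for ψ n
  have lapψ : ∀ n, ∫⁻ y, ENNReal.ofReal |lap (ψ n) y|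
      ≤ L + ENNReal.ofReal ((B0 + T + 1) * (1 / 2 : ℝ) ^ n) := by
    intro n
    have m0 : Measurable (lap (η n)) := (lap_continuous (ηs2 n)).measurable
    have m1 : Measurable (D 1 (η n)) := (D_continuous (ηs2 n) 1).measurable
    have m2 : Measurable (D Complex.I (η n)) := (D_continuous (ηs2 n) Complex.I).measurable
    have m3 : Measurable (lap φ) := (lap_continuous hφ).measurable
    have m4 : Measurable (D 1 φ) := (D_continuous hφ 1).measurable
    have m5 : Measurable (D Complex.I φ) := (D_continuous hφ Complex.I).measurable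
    have m6 : Measurable (gs φ) := by unfold gs; fun_prop
    have m7 : Measurable (gs (η n)) := by unfold gs; fun_prop
    set κ : ℝ := (1 / 2 : ℝ) ^ n with hκ
    have κ0 : 0 < κ := by positivity
    have κ1 : κ ≤ 1 := pow_le_one₀ (by norm_num) (by norm_num)
    have κ2 : (1 / 4 : ℝ) ^ n = κ ^ 2 := by
      rw [hκ, ← pow_mul, mul_comm, pow_mul]; norm_num
    have hpt : ∀ y, |lap (ψ n) y| ≤ |lap φ y| + (B0 * |lap (η n) y|
        + (κ * gs φ y + κ⁻¹ * gs (η n) y)) := by
      intro y
      have e := lap_mul (f := φ) (g := χ n) (y := y) hφ.contDiffAt (χs n).contDiffAt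
      simp only [hψ]
      rw [e, χl, χD, χD]
      have a1 : |φ y * -lap (η n) y| ≤ B0 * |lap (η n) y| := by
        rw [abs_mul, abs_neg]; exact mul_le_mul_of_nonneg_right (hB0' y) (abs_nonneg _)
      have a2 : |χ n y * lap φ y| ≤ |lap φ y| := by
        rw [abs_mul, abs_of_nonneg (χb n y).1]
        exact mul_le_of_le_one_left (abs_nonneg _) (χb n y).2
      have a3 : |2 * (D 1 φ y * -D 1 (η n) y + D Complex.I φ y * -D Complex.I (η n) y)|
          ≤ κ * gs φ y + κ⁻¹ * gs (η n) y := by
        have q : ∀ p r : ℝ, |2 * (p * r)| ≤ κ * p ^ 2 + κ⁻¹ * r ^ 2 := by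
          intro p r
          have h1 : 0 ≤ κ⁻¹ * (κ * p - r) ^ 2 := by positivity
          have h2 : 0 ≤ κ⁻¹ * (κ * p + r) ^ 2 := by positivity
          have e1 : κ⁻¹ * (κ * p - r) ^ 2 = κ * p ^ 2 - 2 * (p * r) + κ⁻¹ * r ^ 2 := by
            field_simp
            ring
          have e2 : κ⁻¹ * (κ * p + r) ^ 2 = κ * p ^ 2 + 2 * (p * r) + κ⁻¹ * r ^ 2 := by
            field_simp
            ring
          rw [abs_le]
          constructor <;> linarith
        have t1 := q (D 1 φ y) (-D 1 (η n) y)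
        have t2 := q (D Complex.I φ y) (-D Complex.I (η n) y)
        have t3 := abs_add_le (2 * (D 1 φ y * -D 1 (η n) y)) (2 * (D Complex.I φ y * -D Complex.I (η n) y))
        have t4 : 2 * (D 1 φ y * -D 1 (η n) y + D Complex.I φ y * -D Complex.I (η n) y)
            = 2 * (D 1 φ y * -D 1 (η n) y) + 2 * (D Complex.I φ y * -D Complex.I (η n) y) := by ring
        rw [t4]
        have e5 : κ * gs φ y + κ⁻¹ * gs (η n) y = (κ * D 1 φ y ^ 2 + κ⁻¹ * (-D 1 (η n) y) ^ 2)
            + (κ * D Complex.I φ y ^ 2 + κ⁻¹ * (-D Complex.I (η n) y) ^ 2) := by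
          unfold gs; ring
        rw [e5]
        linarith
      have t1 := abs_add_le (φ y * -lap (η n) y + χ n y * lap φ y)
        (2 * (D 1 φ y * -D 1 (η n) y + D Complex.I φ y * -D Complex.I (η n) y))
      have t2 := abs_add_le (φ y * -lap (η n) y) (χ n y * lap φ y)
      linarith
    calc ∫⁻ y, ENNReal.ofReal |lap (ψ n) y|
        ≤ ∫⁻ y, (ENNReal.ofReal |lap φ y| + (ENNReal.ofReal B0 * ENNReal.ofReal |lap (η n) y|
          + (ENNReal.ofReal κ * ENNReal.ofReal (gs φ y)
            + ENNReal.ofReal κ⁻¹ * ENNReal.ofReal (gs (η n) y)))) := by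
          refine lintegral_mono fun y => ?_
          have g1 : 0 ≤ gs φ y := by unfold gs; positivity
          have g2 : 0 ≤ gs (η n) y := by unfold gs; positivity
          rw [← ENNReal.ofReal_mul (by positivity), ← ENNReal.ofReal_mul (by positivity),
            ← ENNReal.ofReal_mul (by positivity), ← ENNReal.ofReal_add (by positivity) (by positivity),
            ← ENNReal.ofReal_add (by positivity) (by positivity),
            ← ENNReal.ofReal_add (by positivity) (by positivity)]
          exact ENNReal.ofReal_le_ofReal (hpt y)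
      _ = L + (ENNReal.ofReal B0 * (∫⁻ y, ENNReal.ofReal |lap (η n) y|)
          + (ENNReal.ofReal κ * (∫⁻ y, ENNReal.ofReal (gs φ y))
            + ENNReal.ofReal κ⁻¹ * ∫⁻ y, ENNReal.ofReal (gs (η n) y))) := by
          rw [lintegral_add_left (by fun_prop), lintegral_add_left (by fun_prop),
            lintegral_add_left (by fun_prop), lintegral_const_mul _ (by fun_prop),
            lintegral_const_mul _ (by fun_prop), lintegral_const_mul _ (by fun_prop)]
      _ ≤ L + (ENNReal.ofReal B0 * ENNReal.ofReal ((1 / 4 : ℝ) ^ n)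
          + (ENNReal.ofReal κ * ENNReal.ofReal T
            + ENNReal.ofReal κ⁻¹ * ENNReal.ofReal ((1 / 4 : ℝ) ^ n))) := by
          rw [hTl]
          gcongr
          · exact ηl' n
          · exact ηg' n
      _ ≤ L + ENNReal.ofReal ((B0 + T + 1) * κ) := by
          rw [← ENNReal.ofReal_mul (by positivity), ← ENNReal.ofReal_mul (by positivity),
            ← ENNReal.ofReal_mul (by positivity), ← ENNReal.ofReal_add (by positivity) (by positivity),
            ← ENNReal.ofReal_add (by positivity) (by positivity)]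
          gcongr
          rw [κ2]
          have e6 : κ⁻¹ * κ ^ 2 = κ := by field_simp
          rw [e6]
          have e7 : B0 * κ ^ 2 ≤ B0 * κ := by
            have := mul_le_mul_of_nonneg_left κ1 (mul_nonneg hB0 κ0.le)
            nlinarith
          linarith [e7, mul_comm κ T, add_mul (B0 + T) 1 κ, add_mul B0 T κ]
  -- each term
  have hcont : ∀ n, Continuous fun y => lap G y * ψ n y := by
    intro n
    have hts : tsupport (fun y => lap G y * ψ n y) ⊆ tsupport (ψ n) := closure_mono fun y hy => by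
      simp only [Function.mem_support, ne_eq] at hy ⊢
      intro h0; exact hy (by simp [h0])
    exact ContinuousOn.continuous_of_tsupport_subset
      ((lap_continuousOn hV hG).mul (ψs n).continuous.continuousOn) hV (hts.trans (ψV n))
  have hint : ∀ n, Integrable fun y => lap G y * ψ n y := by
    intro n
    have hts : tsupport (fun y => lap G y * ψ n y) ⊆ tsupport (ψ n) := closure_mono fun y hy => by
      simp only [Function.mem_support, ne_eq] at hy ⊢
      intro h0; exact hy (by simp [h0])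
    exact (hcont n).integrable_of_hasCompactSupport
      (IsCompact.of_isClosed_subset (ψc n) (isClosed_tsupport _) hts)
  have hnn : ∀ n y, 0 ≤ lap G y * ψ n y := by
    intro n y
    by_cases hy : y ∈ V
    · exact mul_nonneg (hpos y hy) (ψ0 n y)
    · have : ψ n y = 0 := by
        by_contra h
        exact hy (ψV n (subset_tsupport _ h))
      rw [this]; simp
  have hterm : ∀ n, ∫⁻ y in V, ENNReal.ofReal (lap G y * ψ n y)
      ≤ ENNReal.ofReal M * (L + ENNReal.ofReal ((B0 + T + 1) * (1 / 2 : ℝ) ^ n)) := by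
    intro n
    calc ∫⁻ y in V, ENNReal.ofReal (lap G y * ψ n y)
        ≤ ∫⁻ y, ENNReal.ofReal (lap G y * ψ n y) := setLIntegral_le_lintegral _ _
      _ = ENNReal.ofReal (∫ y, lap G y * ψ n y) :=
          (ofReal_integral_eq_lintegral_ofReal (hint n) (Eventually.of_forall (hnn n))).symm
      _ = ENNReal.ofReal (∫ y, G y * lap (ψ n) y) := by rw [green hV hG (ψs n) (ψc n) (ψV n)]
      _ ≤ ‖∫ y, G y * lap (ψ n) y‖ₑ := by
          rw [Real.enorm_eq_ofReal_abs]; exact ENNReal.ofReal_le_ofReal (le_abs_self _)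
      _ ≤ ∫⁻ y, ‖G y * lap (ψ n) y‖ₑ := enorm_integral_le_lintegral_enorm _
      _ ≤ ∫⁻ y, ENNReal.ofReal M * ENNReal.ofReal |lap (ψ n) y| := by
          refine lintegral_mono fun y => ?_
          rw [Real.enorm_eq_ofReal_abs, ← ENNReal.ofReal_mul' (abs_nonneg _)]
          apply ENNReal.ofReal_le_ofReal
          rw [abs_mul]
          by_cases hy : y ∈ V
          · exact mul_le_mul_of_nonneg_right (hM y hy) (abs_nonneg _)
          · have : lap (ψ n) y = 0 := by
              by_contra h
              exact hy (ψV n (tsupport_lap _ (subset_tsupport _ h)))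
            rw [this]; simp
      _ = ENNReal.ofReal M * ∫⁻ y, ENNReal.ofReal |lap (ψ n) y| := by
          have := (lap_continuous (ψs n)).measurable
          rw [lintegral_const_mul _ (by fun_prop)]
      _ ≤ _ := by gcongr; exact lapψ n
  -- a.e. convergence
  have hae : ∀ᵐ y : ℂ, Tendsto (fun n => η n y) atTop (𝓝 0) := by
    have h1 : ∫⁻ y, ∑' n, ENNReal.ofReal (η n y) ≠ ⊤ := by
      rw [lintegral_tsum fun n => ((ηs n).continuous.measurable.ennreal_ofReal).aemeasurable]
      refine ne_top_of_le_ne_top ?_ (ENNReal.tsum_le_tsum ηi')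
      have h2 : Summable fun n : ℕ => (1 / 4 : ℝ) ^ n := summable_geometric_of_lt_one (by norm_num) (by norm_num)
      rw [← ENNReal.ofReal_tsum_of_nonneg (fun n => by positivity) h2]
      exact ENNReal.ofReal_ne_top
    have h3 := ae_lt_top (Measurable.tsum fun n => (ηs n).continuous.measurable.ennreal_ofReal) h1
    filter_upwards [h3] with y hy
    have h4 := ENNReal.tendsto_atTop_zero_of_tsum_ne_top hy.ne
    have h5 := (ENNReal.tendsto_toReal ENNReal.zero_ne_top).comp h4
    simp only [ENNReal.toReal_zero] at h5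
    refine h5.congr fun n => ?_
    simp only [Function.comp]
    rw [ENNReal.toReal_ofReal (η0 n y)]
  have hlim : ∀ᵐ y ∂(volume.restrict V), ENNReal.ofReal (lap G y * φ y)
      = liminf (fun n => ENNReal.ofReal (lap G y * ψ n y)) atTop := by
    filter_upwards [ae_restrict_of_ae hae] with y hy
    have h1 : Tendsto (fun n => lap G y * ψ n y) atTop (𝓝 (lap G y * (φ y * (1 + -0)))) :=
      tendsto_const_nhds.mul (tendsto_const_nhds.mul (tendsto_const_nhds.add hy.neg))
    have h2 : lap G y * (φ y * (1 + -0)) = lap G y * φ y := by ring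
    rw [h2] at h1
    exact (ENNReal.tendsto_ofReal h1).liminf_eq.symm
  calc ∫⁻ y in V, ENNReal.ofReal (lap G y * φ y)
      = ∫⁻ y in V, liminf (fun n => ENNReal.ofReal (lap G y * ψ n y)) atTop :=
        lintegral_congr_ae hlim
    _ ≤ liminf (fun n => ∫⁻ y in V, ENNReal.ofReal (lap G y * ψ n y)) atTop :=
        lintegral_liminf_le fun n => (hcont n).measurable.ennreal_ofReal
    _ ≤ liminf (fun n : ℕ => ENNReal.ofReal M * (L + ENNReal.ofReal ((B0 + T + 1) * (1 / 2 : ℝ) ^ n))) atTop :=
        liminf_le_liminf (Eventually.of_forall hterm)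
    _ = ENNReal.ofReal M * L := by
        have ht : Tendsto (fun n : ℕ => (B0 + T + 1) * (1 / 2 : ℝ) ^ n) atTop (𝓝 ((B0 + T + 1) * 0)) :=
          (tendsto_pow_atTop_nhds_zero_of_lt_one (by norm_num) (by norm_num)).const_mul _
        rw [mul_zero] at ht
        have h1 : Tendsto (fun n : ℕ => ENNReal.ofReal ((B0 + T + 1) * (1 / 2 : ℝ) ^ n)) atTop (𝓝 0) := by
          simpa using ENNReal.tendsto_ofReal ht
        have h3 := (tendsto_const_nhds (x := L)).add h1
        rw [add_zero] at h3
        exact (ENNReal.Tendsto.const_mul h3 (Or.inr ENNReal.ofReal_ne_top)).liminf_eq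

end Crest.Agent.R281.Jen_563
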