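import Mathlib

/-!
# R281 (S0424), leaf S-GLOB (helper484): linear algebra of the 1-jet Bochner inequality

`s : ℂ`, `p : Fin n → ℂ` (`= ∇s` in an orthonormal frame), `q` (`= ∇∇s`), `c ≥ 0` (curvature constant),
`u = |s|²`, `w = |p|²`, `H = |q|²`, `du = s̄ p`, `dw = q p̄ - c s̄ p`.
`jet_main`: with `S = u + w + e`, `LF = (w - c n u) + (H - c (n+2) w + c² n u)`:
`|S du - u (du + dw)|² ≤ (3/2) S² (S LF - |du + dw|²) + ((3/2)(n+2) c + 4 c²) S⁴`.
-/

set_option autoImplicit false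

open scoped ComplexConjugate

namespace Crest.Agent.R281.Jet1_484

noncomputable section

variable {n : ℕ}

/-- `(q p̄)_c` -/
def X (p : Fin n → ℂ) (q : Fin n → Fin n → ℂ) (c : Fin n) : ℂ := ∑ a, q c a * conj (p a)

/-- `|v|²` -/
def N2 (v : Fin n → ℂ) : ℝ := ∑ a, ‖v a‖ ^ 2

/-- `|q|²` -/
def H2 (q : Fin n → Fin n → ℂ) : ℝ := ∑ c, ∑ a, ‖q c a‖ ^ 2

/-- `Y = s q - p pᵀ` -/
def Y (s : ℂ) (p : Fin n → ℂ) (q : Fin n → Fin n → ℂ) (c a : Fin n) : ℂ := s * q c a - p c * p a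

theorem N2_nonneg (v : Fin n → ℂ) : 0 ≤ N2 v := Finset.sum_nonneg fun _ _ => by positivity

theorem H2_nonneg (q : Fin n → Fin n → ℂ) : 0 ≤ H2 q :=
  Finset.sum_nonneg fun _ _ => Finset.sum_nonneg fun _ _ => by positivity

theorem norm_sum_sq_le (q p : Fin n → ℂ) :
    ‖∑ a, q a * conj (p a)‖ ^ 2 ≤ N2 p * N2 q := by
  have h1 : ‖∑ a, q a * conj (p a)‖ ≤ ∑ a, ‖q a‖ * ‖p a‖ := by
    refine (norm_sum_le _ _).trans (Finset.sum_le_sum fun a _ => ?_)
    rw [norm_mul, Complex.norm_conj]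
  have h2 := Finset.sum_mul_sq_le_sq_mul_sq Finset.univ (fun a => ‖q a‖) (fun a => ‖p a‖)
  have h3 : ‖∑ a, q a * conj (p a)‖ ^ 2 ≤ (∑ a, ‖q a‖ * ‖p a‖) ^ 2 := by gcongr
  calc _ ≤ _ := h3
    _ ≤ _ := h2
    _ = _ := by unfold N2; ring

theorem sq_norm_re (z : ℂ) : ‖z‖ ^ 2 = (z * conj z).re := by
  rw [Complex.mul_conj, Complex.ofReal_re, Complex.normSq_eq_norm_sq]

theorem norm_add_sq_c (z w : ℂ) : ‖z + w‖ ^ 2 = ‖z‖ ^ 2 + 2 * (z * conj w).re + ‖w‖ ^ 2 := by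
  rw [sq_norm_re, sq_norm_re, sq_norm_re, map_add]
  have : (w * conj z).re = (z * conj w).re := by
    simp only [Complex.mul_re, Complex.conj_re, Complex.conj_im]; ring
  rw [add_mul, mul_add, mul_add]
  simp only [Complex.add_re]
  rw [this]; ring

theorem norm_sub_sq_c (z w : ℂ) : ‖z - w‖ ^ 2 = ‖z‖ ^ 2 - 2 * (z * conj w).re + ‖w‖ ^ 2 := by
  have := norm_add_sq_c z (-w)
  rw [sub_eq_add_neg, this, norm_neg, map_neg, mul_neg, Complex.neg_re]
  ring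

/-- Lagrange identity for one row -/
theorem row (s : ℂ) (p : Fin n → ℂ) (q : Fin n → Fin n → ℂ) (c : Fin n) :
    ‖conj s * p c + X p q c‖ ^ 2 + ∑ a, ‖Y s p q c a‖ ^ 2 =
      (‖s‖ ^ 2 + N2 p) * ‖p c‖ ^ 2 + ‖s‖ ^ 2 * N2 (q c) + ‖X p q c‖ ^ 2 := by
  have h1 : ∀ a, ‖Y s p q c a‖ ^ 2 = ‖s‖ ^ 2 * ‖q c a‖ ^ 2 -
      2 * (s * conj (p c) * (q c a * conj (p a))).re + ‖p c‖ ^ 2 * ‖p a‖ ^ 2 := by
    intro a
    unfold Y
    rw [norm_sub_sq_c, norm_mul, norm_mul, mul_pow, mul_pow, map_mul]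
    congr 3
    ring_nf
  have h2 : ∑ a, ‖Y s p q c a‖ ^ 2 = ‖s‖ ^ 2 * N2 (q c) - 2 * (s * conj (p c) * X p q c).re +
      ‖p c‖ ^ 2 * N2 p := by
    rw [Finset.sum_congr rfl fun a _ => h1 a, Finset.sum_add_distrib, Finset.sum_sub_distrib,
      ← Finset.mul_sum, ← Finset.mul_sum, ← Finset.mul_sum]
    change ‖s‖ ^ 2 * N2 (q c) - _ + ‖p c‖ ^ 2 * N2 p = _
    have e : s * conj (p c) * X p q c = ∑ a, s * conj (p c) * (q c a * conj (p a)) := by
      unfold X; rw [Finset.mul_sum]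
    rw [e, Complex.re_sum]
  rw [h2, norm_add_sq_c, norm_mul, Complex.norm_conj, mul_pow]
  have h3 : (conj s * p c * conj (X p q c)).re = (s * conj (p c) * X p q c).re := by
    have : conj (s * conj (p c) * X p q c) = conj s * p c * conj (X p q c) := by
      simp [map_mul]
    rw [← this, Complex.conj_re]
  rw [h3]
  ring

theorem lagrange (s : ℂ) (p : Fin n → ℂ) (q : Fin n → Fin n → ℂ) :
    N2 (fun c => conj s * p c + X p q c) + H2 (Y s p q) ≤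
      (‖s‖ ^ 2 + N2 p) * (N2 p + H2 q) := by
  have h0 : N2 (fun c => conj s * p c + X p q c) + H2 (Y s p q) =
      ∑ c, ((‖s‖ ^ 2 + N2 p) * ‖p c‖ ^ 2 + ‖s‖ ^ 2 * N2 (q c) + ‖X p q c‖ ^ 2) := by
    unfold N2 H2
    rw [← Finset.sum_add_distrib]
    exact Finset.sum_congr rfl fun c _ => row s p q c
  rw [h0]
  calc ∑ c, ((‖s‖ ^ 2 + N2 p) * ‖p c‖ ^ 2 + ‖s‖ ^ 2 * N2 (q c) + ‖X p q c‖ ^ 2)
      ≤ ∑ c, ((‖s‖ ^ 2 + N2 p) * ‖p c‖ ^ 2 + ‖s‖ ^ 2 * N2 (q c) + N2 p * N2 (q c)) :=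
        Finset.sum_le_sum fun c _ => by
          have := norm_sum_sq_le (q c) p
          unfold X
          linarith
    _ = _ := by
      have e1 : N2 p = ∑ c, ‖p c‖ ^ 2 := rfl
      have e2 : H2 q = ∑ c, N2 (q c) := rfl
      rw [Finset.sum_add_distrib, Finset.sum_add_distrib, ← Finset.mul_sum, ← Finset.mul_sum,
        ← Finset.mul_sum, ← e1, ← e2]
      ring

/-- `s X_c = (Y p̄)_c + p_c |p|²` -/
theorem sX (s : ℂ) (p : Fin n → ℂ) (q : Fin n → Fin n → ℂ) (c : Fin n) :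
    s * X p q c = X p (Y s p q) c + p c * (N2 p : ℝ) := by
  unfold X Y N2
  push_cast
  rw [Finset.mul_sum, Finset.mul_sum, ← Finset.sum_add_distrib]
  refine Finset.sum_congr rfl fun a _ => ?_
  have : ((‖p a‖ : ℂ)) ^ 2 = p a * conj (p a) := by
    rw [Complex.mul_conj, Complex.normSq_eq_norm_sq]; push_cast; ring
  rw [this]; ring

/-- `|p̄ᵀ Y p̄|² ≤ |Y|² |p|⁴` -/
theorem pYp (p : Fin n → ℂ) (y : Fin n → Fin n → ℂ) :
    ‖∑ c, X p y c * conj (p c)‖ ^ 2 ≤ H2 y * N2 p ^ 2 := by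
  have h1 := norm_sum_sq_le (X p y) p
  have h2 : N2 (X p y) ≤ N2 p * H2 y := by
    unfold H2
    rw [Finset.mul_sum]
    exact Finset.sum_le_sum fun c _ => norm_sum_sq_le (y c) p
  calc _ ≤ N2 p * N2 (X p y) := h1
    _ ≤ N2 p * (N2 p * H2 y) := by
      have := N2_nonneg p
      gcongr
    _ = _ := by ring

theorem N2_X_le (p : Fin n → ℂ) (y : Fin n → Fin n → ℂ) : N2 (X p y) ≤ N2 p * H2 y := by
  unfold H2
  rw [Finset.mul_sum]
  exact Finset.sum_le_sum fun c _ => norm_sum_sq_le (y c) p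

/-- `|∂F|²` for `∂F = s̄ p + q p̄ - c s̄ p` -/
theorem dF (s : ℂ) (p : Fin n → ℂ) (q : Fin n → Fin n → ℂ) (c : ℝ) :
    N2 (fun i => conj s * p i + (X p q i - c * (conj s * p i))) =
      N2 (fun i => conj s * p i + X p q i) -
        2 * c * (N2 p * (‖s‖ ^ 2 + N2 p) + (∑ i, X p (Y s p q) i * conj (p i)).re) +
        c ^ 2 * (‖s‖ ^ 2 * N2 p) := by
  have h1 : ∀ i, ‖conj s * p i + (X p q i - c * (conj s * p i))‖ ^ 2 =
      ‖conj s * p i + X p q i‖ ^ 2 - 2 * c * ((conj s * p i + X p q i) * conj (conj s * p i)).re +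
        c ^ 2 * (‖s‖ ^ 2 * ‖p i‖ ^ 2) := by
    intro i
    have e : conj s * p i + (X p q i - c * (conj s * p i)) =
        (conj s * p i + X p q i) - (c : ℂ) * (conj s * p i) := by ring
    rw [e, norm_sub_sq_c, map_mul (starRingEnd ℂ) (c : ℂ), Complex.conj_ofReal]
    have e2 : (conj s * p i + X p q i) * ((c : ℂ) * conj (conj s * p i)) =
        (c : ℂ) * ((conj s * p i + X p q i) * conj (conj s * p i)) := by ring
    rw [e2, Complex.re_ofReal_mul, norm_mul, Complex.norm_real, mul_pow, norm_mul,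
      Complex.norm_conj, Real.norm_eq_abs, sq_abs]
    ring
  have h2 : ∀ i, ((conj s * p i + X p q i) * conj (conj s * p i)).re =
      ‖s‖ ^ 2 * ‖p i‖ ^ 2 + (X p (Y s p q) i * conj (p i)).re + N2 p * ‖p i‖ ^ 2 := by
    intro i
    have e : (conj s * p i + X p q i) * conj (conj s * p i) =
        (conj s * p i) * conj (conj s * p i) + (s * X p q i) * conj (p i) := by
      rw [map_mul, Complex.conj_conj]; ring
    have e1 : (X p (Y s p q) i + p i * (N2 p : ℝ)) * conj (p i) =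
        X p (Y s p q) i * conj (p i) + (N2 p : ℝ) * (p i * conj (p i)) := by ring
    rw [e, sX, e1, Complex.add_re, ← sq_norm_re, Complex.add_re, Complex.re_ofReal_mul,
      ← sq_norm_re, norm_mul, Complex.norm_conj, mul_pow]
    ring
  have h3 : N2 (fun i => conj s * p i + (X p q i - c * (conj s * p i))) =
      ∑ i, (‖conj s * p i + X p q i‖ ^ 2 - 2 * c * (‖s‖ ^ 2 * ‖p i‖ ^ 2 +
        (X p (Y s p q) i * conj (p i)).re + N2 p * ‖p i‖ ^ 2) +
        c ^ 2 * (‖s‖ ^ 2 * ‖p i‖ ^ 2)) := by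
    unfold N2
    refine Finset.sum_congr rfl fun i _ => ?_
    rw [h1, h2]
    rfl
  rw [h3, Finset.sum_add_distrib, Finset.sum_sub_distrib, ← Finset.mul_sum, ← Finset.mul_sum,
    Finset.sum_add_distrib, Finset.sum_add_distrib, ← Finset.mul_sum, ← Finset.mul_sum,
    Complex.re_sum]
  have e1 : N2 p = ∑ c, ‖p c‖ ^ 2 := rfl
  rw [← e1]
  show N2 (fun i => conj s * p i + X p q i) - _ + _ = _
  ring

/-- numerator of `∂(u/S)` -/
theorem num (s : ℂ) (p : Fin n → ℂ) (q : Fin n → Fin n → ℂ) (c e : ℝ) (i : Fin n) :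
    ((‖s‖ ^ 2 + N2 p + e : ℝ) : ℂ) * (conj s * p i) -
      ((‖s‖ ^ 2 : ℝ) : ℂ) * (conj s * p i + (X p q i - c * (conj s * p i))) =
      conj s * ((e : ℂ) * p i - X p (Y s p q) i + (c : ℂ) * ((‖s‖ ^ 2 : ℝ) : ℂ) * p i) := by
  have h1 : X p (Y s p q) i = s * X p q i - p i * (N2 p : ℝ) := by rw [sX]; ring
  have h2 : ((‖s‖ ^ 2 : ℝ) : ℂ) = s * conj s := by
    rw [Complex.mul_conj, Complex.normSq_eq_norm_sq]
  rw [h1]
  push_cast at h2 ⊢
  rw [h2]
  ring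

theorem norm_sq3 (a b d : ℂ) : ‖a - b + d‖ ^ 2 ≤ 3 * (‖a‖ ^ 2 + ‖b‖ ^ 2 + ‖d‖ ^ 2) := by
  have h1 : ‖a - b + d‖ ≤ ‖a‖ + ‖b‖ + ‖d‖ :=
    (norm_add_le _ _).trans (by gcongr; exact norm_sub_le _ _)
  have h2 : ‖a - b + d‖ ^ 2 ≤ (‖a‖ + ‖b‖ + ‖d‖) ^ 2 := by gcongr
  nlinarith [sq_nonneg (‖a‖ - ‖b‖), sq_nonneg (‖a‖ - ‖d‖), sq_nonneg (‖b‖ - ‖d‖)]

/-- **the 1-jet Bochner inequality, pointwise** -/
theorem jet_main (s : ℂ) (p : Fin n → ℂ) (q : Fin n → Fin n → ℂ) {c e : ℝ} (hc : 0 ≤ c)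
    (he : 0 < e) {u w H S LF : ℝ} (hu : u = ‖s‖ ^ 2) (hw : w = N2 p) (hH : H = H2 q)
    (hS : S = u + w + e)
    (hLF : LF = (w - c * n * u) + (H - c * (n + 2) * w + c ^ 2 * n * u)) :
    N2 (fun i => (S : ℂ) * (conj s * p i) -
      (u : ℂ) * (conj s * p i + (X p q i - c * (conj s * p i)))) ≤
      3 / 2 * (S ^ 2 * (S * LF - N2 (fun i => conj s * p i + (X p q i - c * (conj s * p i))))) +
        (3 / 2 * (n + 2) * c + 4 * c ^ 2) * S ^ 4 := by
  set y2 := H2 (Y s p q) with hy2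
  have hu0 : 0 ≤ u := by rw [hu]; positivity
  have hw0 : 0 ≤ w := by rw [hw]; exact N2_nonneg p
  have hH0 : 0 ≤ H := by rw [hH]; exact H2_nonneg q
  have hy0 : 0 ≤ y2 := H2_nonneg _
  have hn0 : (0 : ℝ) ≤ n := Nat.cast_nonneg n
  -- the left hand side
  have hL : N2 (fun i => (S : ℂ) * (conj s * p i) -
      (u : ℂ) * (conj s * p i + (X p q i - c * (conj s * p i)))) ≤
      3 * u * (e ^ 2 * w + w * y2 + c ^ 2 * u ^ 2 * w) := by
    have h1 : ∀ i, (S : ℂ) * (conj s * p i) -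
        (u : ℂ) * (conj s * p i + (X p q i - c * (conj s * p i))) =
        conj s * ((e : ℂ) * p i - X p (Y s p q) i + (c : ℂ) * (u : ℂ) * p i) := by
      intro i
      rw [hS, hw, hu]
      exact num s p q c e i
    have h2 : ∀ i, ‖(S : ℂ) * (conj s * p i) -
        (u : ℂ) * (conj s * p i + (X p q i - c * (conj s * p i)))‖ ^ 2 ≤
        3 * u * (e ^ 2 * ‖p i‖ ^ 2 + ‖X p (Y s p q) i‖ ^ 2 + c ^ 2 * u ^ 2 * ‖p i‖ ^ 2) := by
      intro i
      rw [h1, norm_mul, Complex.norm_conj, mul_pow, ← hu]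
      have h3 := norm_sq3 ((e : ℂ) * p i) (X p (Y s p q) i) ((c : ℂ) * (u : ℂ) * p i)
      have h4 : ‖(e : ℂ) * p i‖ ^ 2 = e ^ 2 * ‖p i‖ ^ 2 := by
        rw [norm_mul, mul_pow, Complex.norm_real, Real.norm_eq_abs, sq_abs]
      have h5 : ‖(c : ℂ) * (u : ℂ) * p i‖ ^ 2 = c ^ 2 * u ^ 2 * ‖p i‖ ^ 2 := by
        rw [norm_mul, norm_mul, mul_pow, mul_pow, Complex.norm_real, Complex.norm_real,
          Real.norm_eq_abs, Real.norm_eq_abs, sq_abs, sq_abs]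
      rw [h4, h5] at h3
      calc u * _ ≤ u * (3 * (e ^ 2 * ‖p i‖ ^ 2 + ‖X p (Y s p q) i‖ ^ 2 +
            c ^ 2 * u ^ 2 * ‖p i‖ ^ 2)) := mul_le_mul_of_nonneg_left h3 hu0
        _ = _ := by ring
    calc _ ≤ ∑ i, 3 * u * (e ^ 2 * ‖p i‖ ^ 2 + ‖X p (Y s p q) i‖ ^ 2 +
            c ^ 2 * u ^ 2 * ‖p i‖ ^ 2) := Finset.sum_le_sum fun i _ => h2 i
      _ = 3 * u * (e ^ 2 * w + N2 (X p (Y s p q)) + c ^ 2 * u ^ 2 * w) := by
        rw [← Finset.mul_sum, Finset.sum_add_distrib, Finset.sum_add_distrib, ← Finset.mul_sum,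
          ← Finset.mul_sum, hw]
        rfl
      _ ≤ _ := by
        have := N2_X_le p (Y s p q)
        rw [← hw] at this
        have h3 : 0 ≤ 3 * u := by positivity
        exact mul_le_mul_of_nonneg_left (by linarith) h3
  -- the right hand side
  have hR : e * w + y2 / 2 - (c * (n + 2) + 2 * c ^ 2) * S ^ 2 ≤
      S * LF - N2 (fun i => conj s * p i + (X p q i - c * (conj s * p i))) := by
    rw [dF s p q c, ← hu, ← hw]
    have h1 := lagrange s p q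
    rw [← hu, ← hw, ← hH] at h1
    have h2 := pYp p (Y s p q)
    rw [← hw] at h2
    set r := (∑ i, X p (Y s p q) i * conj (p i)).re with hr
    have h3 : r ^ 2 ≤ y2 * w ^ 2 := by
      refine le_trans ?_ h2
      rw [← sq_abs r]
      have := Complex.abs_re_le_norm (∑ i, X p (Y s p q) i * conj (p i))
      rw [← hr] at this
      gcongr
    -- `-2 c r ≤ y2 / 2 + 2 c² w²`
    have h4 : -(2 * c * r) ≤ y2 / 2 + 2 * c ^ 2 * w ^ 2 := by
      by_cases hw1 : w = 0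
      · rw [hw1] at h3 ⊢
        have : r = 0 := by nlinarith [sq_nonneg r]
        rw [this]; nlinarith
      · have hwp : 0 < w := lt_of_le_of_ne hw0 (Ne.symm hw1)
        -- `(r / w)² ≤ y2`
        have h5 : (r / w) ^ 2 ≤ y2 := by
          rw [div_pow, div_le_iff₀ (by positivity)]; exact h3
        have h6 : r = (r / w) * w := by field_simp
        rw [h6]
        nlinarith [sq_nonneg (r / w + 2 * c * w)]
    have h7 : S * LF - (N2 (fun i => conj s * p i + X p q i) - 2 * c * (w * (u + w) + r) +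
        c ^ 2 * (u * w)) ≥ S * LF - ((u + w) * (w + H) - y2) + 2 * c * (w * (u + w) + r) -
          c ^ 2 * (u * w) := by linarith
    have h8 : S * LF = (u + w + e) * (w + H) - (u + w + e) * (c * n * u + c * (n + 2) * w) +
        (u + w + e) * (c ^ 2 * n * u) := by rw [hLF, hS]; ring
    have h9 : (u + w + e) * (c * n * u + c * (n + 2) * w) ≤ c * (n + 2) * S ^ 2 := by
      rw [hS]
      have : c * n * u + c * (n + 2) * w ≤ c * (n + 2) * (u + w + e) := by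
        have a1 : 0 ≤ c * u := by positivity
        have a2 : 0 ≤ c * (n + 2) * e := by positivity
        nlinarith
      calc _ ≤ (u + w + e) * (c * (n + 2) * (u + w + e)) :=
            mul_le_mul_of_nonneg_left this (by positivity)
        _ = _ := by ring
    have h10 : 2 * c ^ 2 * w ^ 2 + c ^ 2 * (u * w) ≤ 2 * c ^ 2 * S ^ 2 := by
      have : 2 * w ^ 2 + u * w ≤ 2 * S ^ 2 := by
        rw [hS]
        nlinarith [mul_nonneg hu0 hw0, mul_nonneg hu0 he.le, mul_nonneg hw0 he.le,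
          sq_nonneg u, sq_nonneg e]
      nlinarith [sq_nonneg c]
    have h11 : 0 ≤ (u + w + e) * (c ^ 2 * n * u) := by positivity
    have h12 : 0 ≤ 2 * c * (w * (u + w)) := by positivity
    have h13 : 0 ≤ e * H := by positivity
    linarith
  -- conclusion
  have hSp : 0 < S := by rw [hS]; positivity
  have m1 := mul_nonneg hu0 he.le
  have m2 := mul_nonneg hw0 he.le
  have m3 := mul_nonneg hu0 hw0
  have k1 : u * w ≤ S ^ 2 / 4 := by
    rw [hS]; nlinarith [sq_nonneg (u - w), sq_nonneg e]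
  have k2 : u * e ≤ S ^ 2 / 4 := by
    rw [hS]; nlinarith [sq_nonneg (u - e), sq_nonneg w]
  have k3 : u ^ 2 ≤ S ^ 2 := by
    rw [hS]; nlinarith [sq_nonneg e, sq_nonneg w]
  have a1 : u * (e ^ 2 * w) ≤ S ^ 2 / 4 * (e * w) := by
    calc u * (e ^ 2 * w) = (u * e) * (e * w) := by ring
      _ ≤ _ := mul_le_mul_of_nonneg_right k2 (by positivity)
  have a2 : u * (w * y2) ≤ S ^ 2 / 4 * y2 := by
    calc u * (w * y2) = (u * w) * y2 := by ring
      _ ≤ _ := mul_le_mul_of_nonneg_right k1 hy0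
  have a3 : u * (c ^ 2 * u ^ 2 * w) ≤ c ^ 2 * (S ^ 2 / 4 * S ^ 2) := by
    calc u * (c ^ 2 * u ^ 2 * w) = c ^ 2 * ((u * w) * u ^ 2) := by ring
      _ ≤ _ := by gcongr
  have b1 : 3 / 2 * (S ^ 2 * (e * w + y2 / 2 - (c * (n + 2) + 2 * c ^ 2) * S ^ 2)) ≤
      3 / 2 * (S ^ 2 * (S * LF - N2 (fun i => conj s * p i + (X p q i - c * (conj s * p i))))) := by
    gcongr
  have b2 : 3 * u * (e ^ 2 * w + w * y2 + c ^ 2 * u ^ 2 * w) ≤
      3 * (S ^ 2 / 4 * (e * w) + S ^ 2 / 4 * y2 + c ^ 2 * (S ^ 2 / 4 * S ^ 2)) := by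
    linarith
  have b3 : 0 ≤ S ^ 2 * (e * w) := by positivity
  have b4 : 0 ≤ c ^ 2 * S ^ 4 := by positivity
  linarith

end

end Crest.Agent.R281.Jet1_484
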