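import Crest.Agent.R281.Bo2_815
import Crest.Agent.R281.Jet1_484

/-!
# R281 (S0424), leaf S-GLOB (helper484): `u = |s|²`, `w = |∇s|²` in a chart

`s = f e^{-φ/2}`, `f` holomorphic, `∂∂̄ φ = c g`, `Ric = 0`.
* `eta φ f` : the column `∂_a f - f ∂_a φ`; `uu φ f = e^{-φ}|f|²`; `ww K φ f = e^{-φ} g^{ab̄} η_a η̄_b`
* `hess_uu`, `lap_uu : lap u = w - c n u`; `dS_uu`
* `lap_ww : lap w = |∇∇s|² - c (n+2) w + c² n u`; `dS_ww`
-/

set_option autoImplicit false
set_option linter.unusedSectionVars false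

open Finset Matrix Complex Filter Topology
open scoped ContDiff ComplexConjugate ComplexOrder

namespace Crest.Agent.R281.Jet2_484

open Crest.Agent.R275.Geo Crest.Agent.R275.EDR890
open Crest.Agent.R273.Fock_243 Crest.Agent.R273.Calc_243
open Crest.Agent.R273.Bkn_243 Crest.Agent.R273.Pos_243 Crest.Agent.R273.BochA_101
open Crest.Agent.R273.BochB_101 Crest.Agent.R273.BochC_101 Crest.Agent.R273.BochD_101
open Crest.Agent.R273.Hess_333 Crest.Agent.R273.HessB_333 Crest.Agent.R273.FIa0_597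
open Crest.Agent.R281.Bo1_815 Crest.Agent.R281.Bo2_815

noncomputable section

variable {n : ℕ} {K : Cn n → Matrix (Fin n) (Fin n) ℂ} {z : Cn n} {φ : Cn n → ℝ} {f : Cn n → ℂ}
  {c : ℝ}

/-- `e^{-φ}` -/
def ex (φ : Cn n → ℝ) (y : Cn n) : ℝ := Real.exp (-φ y)

/-- `∂_a f - f ∂_a φ` -/
def et (φ : Cn n → ℝ) (f : Cn n → ℂ) (a : Fin n) (y : Cn n) : ℂ :=
  dS (-I) a f y - f y * dS (-I) a (cu φ) y

/-- the column `∂ f - f ∂ φ` -/
def eta (φ : Cn n → ℝ) (f : Cn n → ℂ) (y : Cn n) : Matrix (Fin n) Unit ℂ :=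
  Matrix.of fun a _ => et φ f a y

/-- hypotheses at a point -/
structure Hyp (K : Cn n → Matrix (Fin n) (Fin n) ℂ) (φ : Cn n → ℝ) (f : Cn n → ℂ) (c : ℝ)
    (y : Cn n) : Prop where
  sm : SmM y K
  pos : (K y).PosDef
  kah : KahAt K y
  φs : ContDiffAt ℝ ∞ φ y
  cur : ∀ a b, hess φ y a b = (c : ℂ) * K y b a
  fs : Sm y f
  hol : ∀ a, dS I a f y = 0

theorem sml {a b : Cn n → ℂ} {z : Cn n} (ha : Sm z a) (hb : Sm z b) :
    Sm z (fun y => a y * b y) := ContDiffAt.mul ha hb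

theorem sm_et (h : ∀ᶠ y in 𝓝 z, Hyp K φ f c y) (a : Fin n) : Sm z (et φ f a) :=
  (Sm.dS h.self_of_nhds.fs _ _).sub
    (h.self_of_nhds.fs.mul (Sm.dS (contDiffAt_cu h.self_of_nhds.φs) _ _))

theorem smM_eta (h : ∀ᶠ y in 𝓝 z, Hyp K φ f c y) : SmM z (eta φ f) := fun a _ => sm_et h a

theorem ev (h : ∀ᶠ y in 𝓝 z, Hyp K φ f c y) :
    ∀ᶠ y in 𝓝 z, ∀ᶠ x in 𝓝 y, Hyp K φ f c x := h.eventually_nhds

theorem dS_ex (hφ : DifferentiableAt ℝ φ z) (s : WI n) :
    wd s (cu (ex φ)) z = -((ex φ z : ℝ) : ℂ) * wd s (cu φ) z := by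
  have h1 : HasDerivAt (fun t : ℝ => Real.exp (-t)) (-Real.exp (-φ z)) (φ z) := by
    have := (hasDerivAt_neg (φ z)).exp
    simpa using this
  have h2 := wd_comp_real (φ := fun t : ℝ => Real.exp (-t)) (u := φ) s hφ h1
  have h3 : cu (ex φ) = cu fun w => Real.exp (-φ w) := rfl
  rw [h3, h2]
  simp [ex]

theorem sm_ex (hφ : ContDiffAt ℝ ∞ φ z) : Sm z (cu (ex φ)) := contDiffAt_cu (sm_exp hφ)

/-- `∂_{l̄} η_a = - c f g_{a l̄}` -/
theorem dbar_et (h : ∀ᶠ y in 𝓝 z, Hyp K φ f c y) (l a : Fin n) :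
    dS I l (et φ f a) z = -((c : ℂ) * f z * K z l a) := by
  have hz := h.self_of_nhds
  have d1 : DifferentiableAt ℝ (dS (-I) a f) z := (Sm.dS hz.fs _ _).diff
  have d2 : DifferentiableAt ℝ (dS (-I) a (cu φ)) z := (Sm.dS (contDiffAt_cu hz.φs) _ _).diff
  have d3 : DifferentiableAt ℝ f z := hz.fs.diff
  have e1 : dS I l (dS (-I) a f) z = 0 := by
    rw [dS_comm hz.fs]
    have : dS I l f =ᶠ[𝓝 z] fun _ => 0 := h.mono fun y hy => hy.hol l
    rw [dS_congr this]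
    exact dS_const
  have e2 : dS I l (dS (-I) a (cu φ)) z = (c : ℂ) * K z l a := by
    rw [dS_comm (contDiffAt_cu hz.φs), ← hz.cur a l, hess_eq]
  have e3 : et φ f a = fun y => dS (-I) a f y + (-1) * (f y * dS (-I) a (cu φ) y) := by
    funext y; unfold et; ring
  have d4 : DifferentiableAt ℝ (fun y => f y * dS (-I) a (cu φ) y) z := d3.mul d2
  have d5 : DifferentiableAt ℝ (fun y => (-1) * (f y * dS (-I) a (cu φ) y)) z :=
    d4.const_mul (-1 : ℂ)
  rw [e3, dS_add d1 d5, dS_const_mul (-1 : ℂ) d4, dS_mul d3 d2, e1, e2, hz.hol l]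
  ring

/-- `∂_k (e^{-φ} f) = e^{-φ} η_k` -/
theorem del_exf (h : ∀ᶠ y in 𝓝 z, Hyp K φ f c y) (k : Fin n) :
    dS (-I) k (fun y => cu (ex φ) y * f y) z = (ex φ z : ℂ) * et φ f k z := by
  have hz := h.self_of_nhds
  rw [dS_mul (sm_ex hz.φs).diff hz.fs.diff]
  have h1 : dS (-I) k (cu (ex φ)) z = -((ex φ z : ℝ) : ℂ) * dS (-I) k (cu φ) z :=
    dS_ex (hz.φs.differentiableAt (by simp)) (false, k)
  rw [h1]
  unfold et cu
  ring

/-- `∂_k conj f = 0` -/
theorem del_conjf (h : ∀ᶠ y in 𝓝 z, Hyp K φ f c y) (k : Fin n) :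
    dS (-I) k (fun y => conj (f y)) z = 0 := by
  rw [dS_conj h.self_of_nhds.fs.diff, conjnI, h.self_of_nhds.hol, map_zero]

theorem dbar_conjf (h : ∀ᶠ y in 𝓝 z, Hyp K φ f c y) (k : Fin n) :
    dS I k (fun y => conj (f y)) z = conj (dS (-I) k f z) := by
  rw [dS_conj h.self_of_nhds.fs.diff, conjI]

/-- `∂_{l̄} (e^{-φ} conj f) = e^{-φ} conj η_l` -/
theorem dbar_excf (h : ∀ᶠ y in 𝓝 z, Hyp K φ f c y) (l : Fin n) :
    dS I l (fun y => cu (ex φ) y * conj (f y)) z = (ex φ z : ℂ) * conj (et φ f l z) := by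
  have hz := h.self_of_nhds
  rw [dS_mul (sm_ex hz.φs).diff (Sm.conj hz.fs).diff, dbar_conjf h]
  have h1 : dS I l (cu (ex φ)) z = -((ex φ z : ℝ) : ℂ) * dS I l (cu φ) z :=
    dS_ex (hz.φs.differentiableAt (by simp)) (true, l)
  have h2 : dS I l (cu φ) z = conj (dS (-I) l (cu φ) z) :=
    dS_bar (hz.φs.differentiableAt (by simp)) l
  rw [h1, h2]
  unfold et cu
  rw [map_sub, map_mul]
  ring

theorem del_conj_et (h : ∀ᶠ y in 𝓝 z, Hyp K φ f c y) (k l : Fin n) :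
    dS (-I) k (fun y => conj (et φ f l y)) z = -((c : ℂ) * conj (f z) * K z l k) := by
  have hz := h.self_of_nhds
  rw [dS_conj (sm_et h l).diff, conjnI, dbar_et h, map_neg, map_mul, map_mul,
    Complex.conj_ofReal]
  have : conj (K z k l) = K z l k := hz.pos.isHermitian.apply l k
  rw [this]

/-! ### `u` -/

/-- `e^{-φ} |f|²` -/
def uu (φ : Cn n → ℝ) (f : Cn n → ℂ) (y : Cn n) : ℝ := ex φ y * ‖f y‖ ^ 2

theorem cu_uu (φ : Cn n → ℝ) (f : Cn n → ℂ) :
    cu (uu φ f) = fun y => (cu (ex φ) y * conj (f y)) * f y := by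
  funext y
  simp only [cu, uu]
  push_cast
  rw [mul_assoc, mul_comm (conj (f y)), Complex.mul_conj, Complex.normSq_eq_norm_sq]
  push_cast
  ring

theorem sm_uu (h : ∀ᶠ y in 𝓝 z, Hyp K φ f c y) : ContDiffAt ℝ ∞ (uu φ f) z :=
  (sm_exp h.self_of_nhds.φs).mul (h.self_of_nhds.fs.norm_sq ℝ)

theorem dS_uu (h : ∀ᶠ y in 𝓝 z, Hyp K φ f c y) (k : Fin n) :
    dS (-I) k (cu (uu φ f)) z = (ex φ z : ℂ) * conj (f z) * et φ f k z := by
  have hz := h.self_of_nhds
  have e : cu (uu φ f) = fun y => (cu (ex φ) y * f y) * conj (f y) := by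
    rw [cu_uu]; funext y; ring
  rw [e, dS_mul (sml (sm_ex hz.φs) hz.fs).diff (Sm.conj hz.fs).diff, del_exf h, del_conjf h]
  ring

theorem dbar_uu (h : ∀ᶠ y in 𝓝 z, Hyp K φ f c y) (l : Fin n) :
    dS I l (cu (uu φ f)) z = (ex φ z : ℂ) * conj (et φ f l z) * f z := by
  have hz := h.self_of_nhds
  rw [cu_uu, dS_mul (sml (sm_ex hz.φs) (Sm.conj hz.fs)).diff hz.fs.diff, dbar_excf h, hz.hol]
  ring

theorem hess_uu (h : ∀ᶠ y in 𝓝 z, Hyp K φ f c y) (k l : Fin n) :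
    hess (uu φ f) z k l = (ex φ z : ℂ) * (et φ f k z * conj (et φ f l z)) -
      (c : ℂ) * (uu φ f z : ℝ) * K z l k := by
  have hz := h.self_of_nhds
  have e1 : dS I l (cu (uu φ f)) =ᶠ[𝓝 z] fun y => (cu (ex φ) y * f y) * conj (et φ f l y) := by
    filter_upwards [ev h] with y hy
    rw [dbar_uu hy]
    simp only [cu]
    ring
  rw [hess_eq, dS_congr e1, dS_mul (sml (sm_ex hz.φs) hz.fs).diff (Sm.conj (sm_et h l)).diff,
    del_exf h, del_conj_et h]
  have e2 : ((uu φ f z : ℝ) : ℂ) = (ex φ z : ℂ) * (f z * conj (f z)) := by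
    rw [Complex.mul_conj, Complex.normSq_eq_norm_sq]
    simp only [uu]
    push_cast
    ring
  rw [e2]
  simp only [cu]
  ring

theorem nsq_eta (y : Cn n) : nsq (tw φ (Kd K)) (eta φ f) y =
    (ex φ y) * (tk K y (fun k l => et φ f k y * conj (et φ f l y))).re := by
  rw [nsq_tw]
  unfold nsq tk ex
  congr 2
  rw [Matrix.mul_assoc, Matrix.trace, Finset.sum_eq_single (a := ()) (by simp) (by simp)]
  simp only [Matrix.diag_apply, Matrix.mul_apply, Matrix.conjTranspose_apply, eta,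
    Matrix.of_apply, Kd, Matrix.transpose_apply, Finset.mul_sum]
  rw [Finset.sum_comm]
  refine Finset.sum_congr rfl fun a _ => Finset.sum_congr rfl fun b _ => ?_
  show conj _ * _ = _
  ring

theorem tk_K (hp : (K z).PosDef) : tk K z (fun k l => K z l k) = n := by
  have hi : (K z)⁻¹ * K z = 1 := Matrix.nonsing_inv_mul _ (isUnit_iff_ne_zero.2 hp.det_pos.ne')
  have h1 : tk K z (fun k l => K z l k) = ((K z)⁻¹ * K z).trace := by
    unfold tk Matrix.trace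
    refine Finset.sum_congr rfl fun k _ => ?_
    rw [Matrix.diag_apply, Matrix.mul_apply]
  rw [h1, hi, Matrix.trace_one, Fintype.card_fin]

/-- `lap u = w - c n u` -/
theorem lap_uu (h : ∀ᶠ y in 𝓝 z, Hyp K φ f c y) :
    lap K (uu φ f) z = nsq (tw φ (Kd K)) (eta φ f) z - c * n * uu φ f z := by
  have hz := h.self_of_nhds
  unfold lap
  rw [tk_congr (hess_uu h), tk_sub, tk_smul, tk_smul _ (fun k l => K z l k), tk_K hz.pos,
    nsq_eta, Complex.sub_re, Complex.re_ofReal_mul]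
  congr 1
  rw [show ((c : ℂ) * (uu φ f z : ℝ) * (n : ℂ)) = ((c * n * uu φ f z : ℝ) : ℂ) by
    push_cast; ring, Complex.ofReal_re]

/-! ### `w` -/

/-- the fibre metric of `Ω¹ ⊗ L` -/
abbrev GG (K : Cn n → Matrix (Fin n) (Fin n) ℂ) (φ : Cn n → ℝ) : Cn n → Matrix (Fin n) (Fin n) ℂ :=
  tw φ (Kd K)

/-- `w = |∇s|²` -/
def ww (K : Cn n → Matrix (Fin n) (Fin n) ℂ) (φ : Cn n → ℝ) (f : Cn n → ℂ) : Cn n → ℝ :=
  nsq (GG K φ) (eta φ f)

/-- the row `e_kᵀ` -/
def rE (k : Fin n) : Matrix Unit (Fin n) ℂ := Matrix.of fun _ a => if a = k then 1 else 0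

theorem smG (h : Hyp K φ f c z) : SmM z (GG K φ) := sm_tw h.φs (sm_Kd h.sm h.pos.det_pos.ne')

theorem posG (h : Hyp K φ f c z) : (GG K φ z).PosDef := tw_posDef (Kd_posDef h.pos)

theorem hermG (h : Hyp K φ f c z) : (GG K φ z).IsHermitian := (posG h).isHermitian

theorem dbar_eta (h : ∀ᶠ y in 𝓝 z, Hyp K φ f c y) (k : Fin n) :
    dM I k (eta φ f) z = Matrix.of fun a _ => -((c : ℂ) * f z * K z k a) := by
  ext a b
  exact dbar_et h k a

/-- `E_kᴴ G = - c e^{-φ} conj f e_kᵀ` -/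
theorem EG (h : ∀ᶠ y in 𝓝 z, Hyp K φ f c y) (k : Fin n) :
    (dM I k (eta φ f) z)ᴴ * GG K φ z = (-(c : ℂ) * (cu (ex φ) z * conj (f z))) • rE k := by
  have hz := h.self_of_nhds
  rw [dbar_eta h]
  ext u b
  have hi : (K z) * (K z)⁻¹ = 1 := Matrix.mul_nonsing_inv _ (isUnit_iff_ne_zero.2 hz.pos.det_pos.ne')
  have hi' : (K z)⁻¹ * K z = 1 := mul_eq_one_comm.1 hi
  have h1 : ∑ a, (K z)⁻¹ b a * K z a k = if b = k then 1 else 0 := by
    rw [← Matrix.mul_apply, hi', Matrix.one_apply]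
  rw [Matrix.smul_apply, smul_eq_mul, rE, Matrix.of_apply, ← h1, Matrix.mul_apply, Finset.mul_sum]
  refine Finset.sum_congr rfl fun a _ => ?_
  have h2 : conj (K z k a) = K z a k := hz.pos.isHermitian.apply a k
  have h3 : GG K φ z a b = cu (ex φ) z * (K z)⁻¹ b a := rfl
  rw [h3, Matrix.conjTranspose_apply, Matrix.of_apply]
  show conj _ * _ = _
  rw [map_neg, map_mul, map_mul, Complex.conj_ofReal, h2]
  ring

theorem rE_mul (k : Fin n) (V : Matrix (Fin n) Unit ℂ) : (rE k * V).trace = V k () := by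
  rw [Matrix.trace, Finset.sum_eq_single (a := ()) (by simp) (by simp), Matrix.diag_apply,
    Matrix.mul_apply, Finset.sum_eq_single (a := k)]
  · simp [rE]
  · intro b _ hb; simp [rE, hb]
  · simp

theorem mul_rE (k : Fin n) (V : Matrix (Fin n) Unit ℂ) : (Vᴴ * (rE k)ᴴ).trace = conj (V k ()) := by
  rw [← Matrix.conjTranspose_mul, Matrix.trace_conjTranspose, rE_mul]
  rfl

/-- `Vᴴ G E_l` -/
theorem VGE (h : ∀ᶠ y in 𝓝 z, Hyp K φ f c y) (l : Fin n) :
    ((eta φ f z)ᴴ * (GG K φ z * dM I l (eta φ f) z)).trace =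
      -(c : ℂ) * ((cu (ex φ) z * f z) * conj (et φ f l z)) := by
  have hz := h.self_of_nhds
  have h1 := congrArg Matrix.conjTranspose (EG h l)
  rw [Matrix.conjTranspose_mul, Matrix.conjTranspose_conjTranspose, (hermG hz).eq,
    Matrix.conjTranspose_smul] at h1
  rw [h1, Matrix.mul_smul, Matrix.trace_smul, mul_rE, smul_eq_mul]
  show conj _ * _ = _
  rw [map_mul, map_neg, map_mul, Complex.conj_conj, Complex.conj_ofReal]
  have : conj (cu (ex φ) z) = cu (ex φ) z := Complex.conj_ofReal _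
  rw [this]
  show _ * conj (et φ f l z) = _
  ring

theorem cu_ww (h : ∀ᶠ y in 𝓝 z, Hyp K φ f c y) :
    cu (ww K φ f) =ᶠ[𝓝 z] fun y => ((eta φ f y)ᴴ * GG K φ y * eta φ f y).trace :=
  cu_tr (h.mono fun y hy => gram_herm (hermG hy) (eta φ f y))

theorem sm_ww (h : ∀ᶠ y in 𝓝 z, Hyp K φ f c y) : ContDiffAt ℝ ∞ (ww K φ f) z :=
  sm_nsq (smG h.self_of_nhds) (smM_eta h)

/-- `∂_{l̄} w` -/
theorem dbar_ww (h : ∀ᶠ y in 𝓝 z, Hyp K φ f c y) (l : Fin n) :
    dS I l (cu (ww K φ f)) z =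
      (((dM (-I) l (eta φ f) z)ᴴ * GG K φ z + (eta φ f z)ᴴ * dM I l (GG K φ) z) *
        eta φ f z).trace + -(c : ℂ) * ((cu (ex φ) z * f z) * conj (et φ f l z)) := by
  have hz := h.self_of_nhds
  have hV := smM_eta h
  have hG := smG hz
  have hVH : SmM z (fun y => (eta φ f y)ᴴ) := SmM.conjTranspose hV
  rw [dS_congr (cu_ww h), dS_trace (sm_gram hG hV),
    dM_mul (fun S T => (SmM.mul hVH hG S T).diff) (fun S T => (hV S T).diff),
    dM_mul (fun S T => (hVH S T).diff) (fun S T => (hG S T).diff), dM_conjTranspose hV, conjI,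
    Matrix.trace_add, Matrix.mul_assoc (eta φ f z)ᴴ (GG K φ z), VGE h]

/-- `∂_k w` -/
theorem del_ww (h : ∀ᶠ y in 𝓝 z, Hyp K φ f c y) (k : Fin n) :
    dS (-I) k (cu (ww K φ f)) z =
      ((eta φ f z)ᴴ * GG K φ z * Dp (GG K φ) (eta φ f) k z).trace -
        (c : ℂ) * ((ex φ z : ℂ) * conj (f z) * et φ f k z) := by
  have hz := h.self_of_nhds
  have hV := smM_eta h
  have hG := smG hz
  have hVH : SmM z (fun y => (eta φ f y)ᴴ) := SmM.conjTranspose hV
  have hGi : GG K φ z * (GG K φ z)⁻¹ = 1 :=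
    Matrix.mul_nonsing_inv _ (isUnit_iff_ne_zero.2 (posG hz).det_pos.ne')
  rw [dS_congr (cu_ww h), dS_trace (sm_gram hG hV),
    dM_mul (fun S T => (SmM.mul hVH hG S T).diff) (fun S T => (hV S T).diff),
    dM_mul (fun S T => (hVH S T).diff) (fun S T => (hG S T).diff), dM_conjTranspose hV, conjnI,
    EG h, Matrix.add_mul, Matrix.trace_add, Matrix.trace_add, Matrix.smul_mul, Matrix.trace_smul,
    rE_mul]
  have h1 : (eta φ f z)ᴴ * GG K φ z * Dp (GG K φ) (eta φ f) k z =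
      (eta φ f z)ᴴ * dM (-I) k (GG K φ) z * eta φ f z +
        (eta φ f z)ᴴ * GG K φ z * dM (-I) k (eta φ f) z := by
    unfold Dp
    rw [Matrix.mul_assoc, Matrix.mul_add (GG K φ z), ← Matrix.mul_assoc (GG K φ z),
      ← Matrix.mul_assoc (GG K φ z), hGi, Matrix.one_mul, Matrix.mul_add]
    simp only [Matrix.mul_assoc]
    abel
  rw [h1, Matrix.trace_add, smul_eq_mul]
  show _ * et φ f k z + _ + _ = _
  simp only [cu]
  ring

/-- the Hessian of `w` -/
theorem hess_ww (h : ∀ᶠ y in 𝓝 z, Hyp K φ f c y) (k l : Fin n) :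
    hess (ww K φ f) z k l =
      ((Dp (GG K φ) (eta φ f) l z)ᴴ * GG K φ z * Dp (GG K φ) (eta φ f) k z).trace -
        ((eta φ f z)ᴴ * rm (GG K φ) z k l * eta φ f z).trace -
        2 * (c : ℂ) * ((ex φ z : ℂ) * (et φ f k z * conj (et φ f l z))) +
        (c : ℂ) ^ 2 * (uu φ f z : ℝ) * K z l k := by
  have hz := h.self_of_nhds
  have hV := smM_eta h
  have hG := smG hz
  have hVH : SmM z (fun y => (eta φ f y)ᴴ) := SmM.conjTranspose hV
  have hdV : SmM z (dM (-I) l (eta φ f)) := SmM.dM hV _ _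
  have hdVH : SmM z (fun y => (dM (-I) l (eta φ f) y)ᴴ) := SmM.conjTranspose hdV
  have hdG : SmM z (dM I l (GG K φ)) := SmM.dM hG _ _
  have hE : SmM z (dM I k (eta φ f)) := SmM.dM hV _ _
  have hEH : SmM z (fun y => (dM I k (eta φ f) y)ᴴ) := SmM.conjTranspose hE
  have hA : SmM z (fun y => (dM (-I) l (eta φ f) y)ᴴ * GG K φ y) := SmM.mul hdVH hG
  have hB : SmM z (fun y => (eta φ f y)ᴴ * dM I l (GG K φ) y) := SmM.mul hVH hdG
  have hAB : SmM z (fun y => (dM (-I) l (eta φ f) y)ᴴ * GG K φ y +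
      (eta φ f y)ᴴ * dM I l (GG K φ) y) := fun S T => (hA S T).add (hB S T)
  have hT : SmM z (fun y => ((dM (-I) l (eta φ f) y)ᴴ * GG K φ y +
      (eta φ f y)ᴴ * dM I l (GG K φ) y) * eta φ f y) := SmM.mul hAB hV
  have hGi : GG K φ z * (GG K φ z)⁻¹ = 1 :=
    Matrix.mul_nonsing_inv _ (isUnit_iff_ne_zero.2 (posG hz).det_pos.ne')
  have hhG : ∀ᶠ y in 𝓝 z, (GG K φ y).IsHermitian := h.mono fun y hy => hermG hy
  -- the germ of the first derivative
  have e1 : dS I l (cu (ww K φ f)) =ᶠ[𝓝 z] fun y =>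
      (((dM (-I) l (eta φ f) y)ᴴ * GG K φ y + (eta φ f y)ᴴ * dM I l (GG K φ) y) *
        eta φ f y).trace + -(c : ℂ) * ((cu (ex φ) y * f y) * conj (et φ f l y)) := by
    filter_upwards [ev h] with y hy
    exact dbar_ww hy l
  have s2 : Sm z (fun y => (cu (ex φ) y * f y) * conj (et φ f l y)) :=
    sml (sml (sm_ex hz.φs) hz.fs) (Sm.conj (sm_et h l))
  have d2 : DifferentiableAt ℝ (fun y => -(c : ℂ) * ((cu (ex φ) y * f y) * conj (et φ f l y))) z :=
    s2.diff.const_mul _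
  -- the extra term
  have e3 : (dM (-I) l (dM I k (eta φ f)) z)ᴴ * GG K φ z +
      (dM I k (eta φ f) z)ᴴ * dM I l (GG K φ) z =
      (-(c : ℂ) * ((ex φ z : ℂ) * conj (et φ f l z))) • rE k := by
    have g1 : (fun y => (dM I k (eta φ f) y)ᴴ * GG K φ y) =ᶠ[𝓝 z] fun y =>
        (-(c : ℂ) * (cu (ex φ) y * conj (f y))) • rE k := by
      filter_upwards [ev h] with y hy
      exact EG hy k
    have g2 := dM_congr (s := I) (a := l) g1
    rw [dM_mul (fun S T => (hEH S T).diff) (fun S T => (hG S T).diff), dM_conjTranspose hE,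
      conjI] at g2
    rw [g2]
    ext u b
    rw [dM_apply, Matrix.smul_apply, smul_eq_mul]
    have s3 : Sm z (fun y => cu (ex φ) y * conj (f y)) := sml (sm_ex hz.φs) (Sm.conj hz.fs)
    have g3 : (fun y => ((-(c : ℂ) * (cu (ex φ) y * conj (f y))) • rE k : Matrix Unit (Fin n) ℂ) u b)
        = fun y => (-(c : ℂ) * rE k u b) * (cu (ex φ) y * conj (f y)) := by
      funext y
      rw [Matrix.smul_apply, smul_eq_mul]; ring
    rw [g3, dS_const_mul _ s3.diff, dbar_excf h]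
    ring
  have e4 : dM I k (dM (-I) l (eta φ f)) z = dM (-I) l (dM I k (eta φ f)) z := by
    ext S T
    exact dS_comm (hV S T)
  have e5 : dM (-I) k (fun y => ((dM (-I) l (eta φ f) y)ᴴ * GG K φ y +
      (eta φ f y)ᴴ * dM I l (GG K φ) y) * eta φ f y) z =
      ((Dp (GG K φ) (eta φ f) l z)ᴴ * GG K φ z * Dp (GG K φ) (eta φ f) k z -
        (eta φ f z)ᴴ * rm (GG K φ) z k l * eta φ f z) +
      (-(c : ℂ) * ((ex φ z : ℂ) * conj (et φ f l z))) • (rE k * eta φ f z) := by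
    rw [dM_mul (fun S T => (hAB S T).diff) (fun S T => (hV S T).diff),
      dM_add hA hB, dM_mul (fun S T => (hdVH S T).diff) (fun S T => (hG S T).diff),
      dM_mul (fun S T => (hVH S T).diff) (fun S T => (hdG S T).diff), dM_conjTranspose hdV,
      dM_conjTranspose hV, conjnI, e4]
    have g1 := alg1 (V := eta φ f z) (Vc := dM (-I) k (eta φ f) z) (Vd := dM (-I) l (eta φ f) z)
      (Gc := dM (-I) k (GG K φ) z) (Gd := dM (-I) l (GG K φ) z) (Gdb := dM I l (GG K φ) z)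
      (Gcd := dM (-I) k (dM I l (GG K φ)) z) (hermG hz) hGi (dbar_herm hG hhG l)
    have g2 : (Dp (GG K φ) (eta φ f) l z)ᴴ * GG K φ z * Dp (GG K φ) (eta φ f) k z -
        (eta φ f z)ᴴ * rm (GG K φ) z k l * eta φ f z =
        (dM (-I) l (eta φ f) z)ᴴ * (dM (-I) k (GG K φ) z * eta φ f z + GG K φ z *
          dM (-I) k (eta φ f) z) + (eta φ f z)ᴴ * (dM (-I) k (dM I l (GG K φ)) z * eta φ f z +
          dM I l (GG K φ) z * dM (-I) k (eta φ f) z) := g1.symm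
    rw [g2, ← Matrix.smul_mul, ← e3]
    simp only [Matrix.mul_add, Matrix.add_mul, Matrix.mul_assoc]
    abel
  rw [hess_eq, dS_congr e1, dS_add (Sm.trace hT).diff d2, dS_trace hT, e5,
    dS_const_mul _ s2.diff, dS_mul (sml (sm_ex hz.φs) hz.fs).diff (Sm.conj (sm_et h l)).diff,
    del_exf h, del_conj_et h, Matrix.trace_add, Matrix.trace_sub, Matrix.trace_smul, rE_mul]
  have e6 : ((uu φ f z : ℝ) : ℂ) = (ex φ z : ℂ) * (f z * conj (f z)) := by
    rw [Complex.mul_conj, Complex.normSq_eq_norm_sq]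
    simp only [uu]
    push_cast
    ring
  rw [e6, smul_eq_mul]
  show _ - _ + _ * et φ f k z + _ = _
  simp only [cu]
  ring

theorem ene_eq : ene K (GG K φ) (eta φ f) z = (tk K z fun k l =>
    ((Dp (GG K φ) (eta φ f) l z)ᴴ * GG K φ z * Dp (GG K φ) (eta φ f) k z).trace).re := rfl

theorem lap_φ (h : Hyp K φ f c z) : lap K φ z = c * n := by
  unfold lap
  rw [tk_congr h.cur, tk_smul _ (fun k l => K z l k), tk_K h.pos]
  rw [show ((c : ℂ) * (n : ℂ)) = ((c * n : ℝ) : ℂ) by push_cast; ring, Complex.ofReal_re]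

/-- **`lap w = |∇∇s|² - c (n+2) w + c² n u`** -/
theorem lap_ww (h : ∀ᶠ y in 𝓝 z, Hyp K φ f c y) (hR : Matrix.of (ric K z) = 0) :
    lap K (ww K φ f) z = ene K (GG K φ) (eta φ f) z - c * (n + 2) * ww K φ f z +
      c ^ 2 * n * uu φ f z := by
  have hz := h.self_of_nhds
  have h1 : cvt K (GG K φ) (eta φ f) z = c * n * ww K φ f z := by
    rw [cvt_twform (h.mono fun y hy => hy.sm) (h.mono fun y hy => hy.pos)
      (h.mono fun y hy => hy.kah) hR hz.φs, lap_φ hz]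
    rfl
  have h2 : tk K z (fun k l => hess (ww K φ f) z k l) =
      tk K z (fun k l => ((Dp (GG K φ) (eta φ f) l z)ᴴ * GG K φ z *
        Dp (GG K φ) (eta φ f) k z).trace) -
      tk K z (fun k l => ((eta φ f z)ᴴ * rm (GG K φ) z k l * eta φ f z).trace) -
      2 * (c : ℂ) * ((ex φ z : ℂ) * tk K z (fun k l => et φ f k z * conj (et φ f l z))) +
      (c : ℂ) ^ 2 * (uu φ f z : ℝ) * n := by
    rw [tk_congr (hess_ww h), tk_add, tk_sub, tk_sub, tk_smul, tk_smul,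
      tk_smul _ (fun k l => K z l k), tk_K hz.pos]
  have h3 : (cvt K (GG K φ) (eta φ f) z) = (tk K z (fun k l =>
      ((eta φ f z)ᴴ * rm (GG K φ) z k l * eta φ f z).trace)).re := rfl
  have h4 : ww K φ f z = ex φ z * (tk K z (fun k l => et φ f k z * conj (et φ f l z))).re :=
    nsq_eta z
  unfold lap
  rw [h2, Complex.add_re, Complex.sub_re, Complex.sub_re, ← ene_eq, ← h3, h1]
  have h5 : (2 * (c : ℂ) * ((ex φ z : ℂ) * tk K z (fun k l => et φ f k z *
      conj (et φ f l z)))).re = 2 * c * ww K φ f z := by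
    rw [h4, show (2 * (c : ℂ) * ((ex φ z : ℂ) * tk K z (fun k l => et φ f k z *
      conj (et φ f l z)))) = ((2 * c * ex φ z : ℝ) : ℂ) * tk K z (fun k l => et φ f k z *
      conj (et φ f l z)) by push_cast; ring, Complex.re_ofReal_mul]
    ring
  have h6 : ((c : ℂ) ^ 2 * (uu φ f z : ℝ) * (n : ℂ)).re = c ^ 2 * n * uu φ f z := by
    rw [show ((c : ℂ) ^ 2 * (uu φ f z : ℝ) * (n : ℂ)) = ((c ^ 2 * n * uu φ f z : ℝ) : ℂ) by
      push_cast; ring, Complex.ofReal_re]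
  rw [h5, h6]
  ring

end

end Crest.Agent.R281.Jet2_484
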