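import Crest.Agent.R281.Jet2_484

/-!
# R281 (S0424), leaf S-GLOB (helper484): the 1-jet Bochner inequality in a chart

* `gsq_uu : |∂u|² = u w`
* `gsq_bb_le : |∂b|² ≤ (3/2) lap log(u+w+e) + (3/2)(n+2)c + 4c²`, `b = u/(u+w+e)`
* `lap_ww_ge : lap w ≥ - c (n+2) w`
-/

set_option autoImplicit false
set_option linter.unusedSectionVars false

open Finset Matrix Complex Filter Topology
open scoped ContDiff ComplexConjugate ComplexOrder

namespace Crest.Agent.R281.Jet3_484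

open Crest.Agent.R275.Geo Crest.Agent.R275.EDR890
open Crest.Agent.R273.Fock_243 Crest.Agent.R273.Calc_243
open Crest.Agent.R273.Bkn_243 Crest.Agent.R273.Pos_243 Crest.Agent.R273.BochA_101
open Crest.Agent.R273.BochB_101 Crest.Agent.R273.BochC_101 Crest.Agent.R273.BochD_101
open Crest.Agent.R273.Hess_333 Crest.Agent.R273.HessB_333 Crest.Agent.R273.FIa0_597
open Crest.Agent.R281.Bo1_815 Crest.Agent.R281.Bo2_815 Crest.Agent.R281.Jet2_484
open Crest.Agent.R281.Jet1_484 (N2 H2 X N2_nonneg H2_nonneg)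

noncomputable section

variable {n : ℕ} {K : Cn n → Matrix (Fin n) (Fin n) ℂ} {z : Cn n} {φ : Cn n → ℝ} {f : Cn n → ℂ}
  {c : ℝ}

/-- components in an orthonormal frame -/
def Fr (C : Matrix (Fin n) (Fin n) ℂ) (v : Fin n → ℂ) (i : Fin n) : ℂ := ∑ a, conj (C i a) * v a

theorem Fr_smul (C : Matrix (Fin n) (Fin n) ℂ) (t : ℂ) (v : Fin n → ℂ) (i : Fin n) :
    Fr C (fun a => t * v a) i = t * Fr C v i := by
  unfold Fr; rw [Finset.mul_sum]; exact Finset.sum_congr rfl fun a _ => by ring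

theorem Fr_add (C : Matrix (Fin n) (Fin n) ℂ) (v w : Fin n → ℂ) (i : Fin n) :
    Fr C (fun a => v a + w a) i = Fr C v i + Fr C w i := by
  unfold Fr; rw [← Finset.sum_add_distrib]; exact Finset.sum_congr rfl fun a _ => by ring

theorem Fr_sub (C : Matrix (Fin n) (Fin n) ℂ) (v w : Fin n → ℂ) (i : Fin n) :
    Fr C (fun a => v a - w a) i = Fr C v i - Fr C w i := by
  unfold Fr; rw [← Finset.sum_sub_distrib]; exact Finset.sum_congr rfl fun a _ => by ring

theorem tk_fr {C : Matrix (Fin n) (Fin n) ℂ} (hC : (K z)⁻¹ = Cᴴ * C) (a b : Fin n → ℂ) :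
    tk K z (fun k l => a k * conj (b l)) = ∑ i, Fr C a i * conj (Fr C b i) := by
  unfold tk Fr
  rw [hC]
  have h1 : ∀ i, (∑ k, conj (C i k) * a k) * conj (∑ l, conj (C i l) * b l) =
      ∑ k, ∑ l, conj (C i k) * C i l * (a k * conj (b l)) := by
    intro i
    rw [map_sum, Finset.sum_mul]
    refine Finset.sum_congr rfl fun k _ => ?_
    rw [Finset.mul_sum]
    refine Finset.sum_congr rfl fun l _ => ?_
    rw [map_mul, Complex.conj_conj]
    ring
  rw [Finset.sum_congr rfl fun i _ => h1 i]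
  have h2 : (∑ i, ∑ k, ∑ l, conj (C i k) * C i l * (a k * conj (b l))) =
      ∑ k, ∑ l, ∑ i, conj (C i k) * C i l * (a k * conj (b l)) := by
    rw [Finset.sum_comm]
    exact Finset.sum_congr rfl fun k _ => Finset.sum_comm
  rw [h2]
  refine Finset.sum_congr rfl fun k _ => ?_
  refine Finset.sum_congr rfl fun l _ => ?_
  rw [Matrix.mul_apply, Finset.sum_mul]
  refine Finset.sum_congr rfl fun i _ => ?_
  rw [Matrix.conjTranspose_apply]
  rfl

theorem sum_mul_conj (v : Fin n → ℂ) : (∑ i, v i * conj (v i)) = ((N2 v : ℝ) : ℂ) := by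
  unfold N2
  push_cast
  refine Finset.sum_congr rfl fun i _ => ?_
  rw [Complex.mul_conj, Complex.normSq_eq_norm_sq]
  push_cast
  rfl

theorem gsq_fr {C : Matrix (Fin n) (Fin n) ℂ} (hC : (K z)⁻¹ = Cᴴ * C) {g : Cn n → ℝ}
    (hg : DifferentiableAt ℝ g z) :
    gsq K g z = N2 (Fr C fun k => dS (-I) k (cu g) z) := by
  unfold gsq
  have h1 : ∀ k l, dS (-I) k (cu g) z * dS I l (cu g) z =
      dS (-I) k (cu g) z * conj (dS (-I) l (cu g) z) := fun k l => by rw [dS_bar hg]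
  rw [tk_congr h1, tk_fr hC, sum_mul_conj, Complex.ofReal_re]

/-- `(D_l)ᴴ G D_k` in the frame -/
theorem gram_fr {C : Matrix (Fin n) (Fin n) ℂ} (hC : (K z)⁻¹ = Cᴴ * C)
    (a b : Matrix (Fin n) Unit ℂ) :
    (aᴴ * GG K φ z * b).trace =
      (ex φ z : ℂ) * ∑ j, Fr C (fun i => b i ()) j * conj (Fr C (fun i => a i ()) j) := by
  rw [← tk_fr hC]
  unfold tk
  rw [Matrix.mul_assoc, Matrix.trace, Finset.sum_eq_single (a := ()) (by simp) (by simp),
    Matrix.diag_apply, Matrix.mul_apply, Finset.mul_sum]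
  have h1 : ∀ i, (aᴴ) () i * (GG K φ z * b) i () =
      ∑ j, (ex φ z : ℂ) * ((K z)⁻¹ j i * (b j () * conj (a i ()))) := by
    intro i
    rw [Matrix.mul_apply, Finset.mul_sum]
    refine Finset.sum_congr rfl fun j _ => ?_
    have h3 : GG K φ z i j = (ex φ z : ℂ) * (K z)⁻¹ j i := rfl
    have h4 : (aᴴ) () i = conj (a i ()) := rfl
    rw [h3, h4]
    ring
  rw [Finset.sum_congr rfl fun i _ => h1 i, Finset.sum_comm]
  refine Finset.sum_congr rfl fun k _ => ?_
  rw [Finset.mul_sum]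

section main

variable {C : Matrix (Fin n) (Fin n) ℂ}

/-- `s` -/
def ss (φ : Cn n → ℝ) (f : Cn n → ℂ) (z : Cn n) : ℂ := (Real.exp (-φ z / 2) : ℂ) * f z

/-- `p` -/
def pp (C : Matrix (Fin n) (Fin n) ℂ) (φ : Cn n → ℝ) (f : Cn n → ℂ) (z : Cn n) (i : Fin n) : ℂ :=
  (Real.exp (-φ z / 2) : ℂ) * Fr C (fun a => et φ f a z) i

/-- `q` -/
def qq (C : Matrix (Fin n) (Fin n) ℂ) (K : Cn n → Matrix (Fin n) (Fin n) ℂ) (φ : Cn n → ℝ)
    (f : Cn n → ℂ) (z : Cn n) (i j : Fin n) : ℂ :=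
  (Real.exp (-φ z / 2) : ℂ) * Fr C (fun k => Fr C (fun a => Dp (GG K φ) (eta φ f) k z a ()) j) i

theorem r2 (φ : Cn n → ℝ) (z : Cn n) :
    (Real.exp (-φ z / 2) : ℂ) * (Real.exp (-φ z / 2) : ℂ) = (ex φ z : ℂ) := by
  unfold ex
  rw [← Complex.ofReal_mul, ← Real.exp_add]
  congr 2
  ring

theorem nr (φ : Cn n → ℝ) (z : Cn n) (v : ℂ) :
    ‖(Real.exp (-φ z / 2) : ℂ) * v‖ ^ 2 = ex φ z * ‖v‖ ^ 2 := by
  rw [norm_mul, mul_pow, Complex.norm_real, Real.norm_eq_abs, sq_abs]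
  congr 1
  unfold ex
  rw [sq, ← Real.exp_add]
  congr 1
  ring

theorem norm_ss : uu φ f z = ‖ss φ f z‖ ^ 2 := by
  unfold ss
  rw [nr]; rfl

theorem norm_pp (hC : (K z)⁻¹ = Cᴴ * C) : ww K φ f z = N2 (pp C φ f z) := by
  have h1 : ww K φ f z = ex φ z * (tk K z (fun k l => et φ f k z * conj (et φ f l z))).re :=
    nsq_eta z
  rw [h1, tk_fr hC, sum_mul_conj, Complex.ofReal_re]
  unfold N2 pp
  rw [Finset.mul_sum]
  exact Finset.sum_congr rfl fun i _ => (nr φ z _).symm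

theorem norm_qq (hC : (K z)⁻¹ = Cᴴ * C) :
    ene K (GG K φ) (eta φ f) z = H2 (qq C K φ f z) := by
  rw [ene_eq]
  have h1 : ∀ k l, ((Dp (GG K φ) (eta φ f) l z)ᴴ * GG K φ z * Dp (GG K φ) (eta φ f) k z).trace =
      (ex φ z : ℂ) * ∑ j, Fr C (fun i => Dp (GG K φ) (eta φ f) k z i ()) j *
        conj (Fr C (fun i => Dp (GG K φ) (eta φ f) l z i ()) j) := fun k l => gram_fr hC _ _
  rw [tk_congr h1, tk_smul, tk_sum]
  have h2 : ∀ j, tk K z (fun k l => Fr C (fun i => Dp (GG K φ) (eta φ f) k z i ()) j *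
        conj (Fr C (fun i => Dp (GG K φ) (eta φ f) l z i ()) j)) =
      ((N2 (Fr C fun k => Fr C (fun i => Dp (GG K φ) (eta φ f) k z i ()) j) : ℝ) : ℂ) := by
    intro j
    rw [tk_fr hC (fun k => Fr C (fun i => Dp (GG K φ) (eta φ f) k z i ()) j)
      (fun l => Fr C (fun i => Dp (GG K φ) (eta φ f) l z i ()) j), sum_mul_conj]
  rw [Finset.sum_congr rfl fun j _ => h2 j, ← Complex.ofReal_sum, ← Complex.ofReal_mul,
    Complex.ofReal_re, Finset.mul_sum]
  unfold H2 N2 qq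
  rw [Finset.sum_comm]
  refine Finset.sum_congr rfl fun j _ => ?_
  rw [Finset.mul_sum]
  exact Finset.sum_congr rfl fun i _ => (nr φ z _).symm

theorem du_fr (h : ∀ᶠ y in 𝓝 z, Hyp K φ f c y) (i : Fin n) :
    Fr C (fun k => dS (-I) k (cu (uu φ f)) z) i = conj (ss φ f z) * pp C φ f z i := by
  have h1 : (fun k => dS (-I) k (cu (uu φ f)) z) =
      fun k => ((ex φ z : ℂ) * conj (f z)) * et φ f k z := by
    funext k; exact dS_uu h k
  rw [h1, Fr_smul]
  unfold ss pp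
  rw [map_mul, Complex.conj_ofReal, ← r2]
  ring

theorem dw_fr (h : ∀ᶠ y in 𝓝 z, Hyp K φ f c y) (hC : (K z)⁻¹ = Cᴴ * C) (i : Fin n) :
    Fr C (fun k => dS (-I) k (cu (ww K φ f)) z) i =
      X (pp C φ f z) (qq C K φ f z) i - c * (conj (ss φ f z) * pp C φ f z i) := by
  have h1 : (fun k => dS (-I) k (cu (ww K φ f)) z) = fun k =>
      (ex φ z : ℂ) * (∑ j, Fr C (fun i => Dp (GG K φ) (eta φ f) k z i ()) j *
        conj (Fr C (fun a => et φ f a z) j)) - (c : ℂ) * dS (-I) k (cu (uu φ f)) z := by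
    funext k
    rw [del_ww h, dS_uu h, gram_fr hC]
    rfl
  rw [h1, Fr_sub, Fr_smul, Fr_smul, du_fr h]
  congr 1
  unfold X qq pp
  have h2 : Fr C (fun k => ∑ j, Fr C (fun i => Dp (GG K φ) (eta φ f) k z i ()) j *
      conj (Fr C (fun a => et φ f a z) j)) i =
      ∑ j, Fr C (fun k => Fr C (fun i => Dp (GG K φ) (eta φ f) k z i ()) j) i *
        conj (Fr C (fun a => et φ f a z) j) := by
    conv_lhs => unfold Fr
    simp only [Finset.mul_sum]
    rw [Finset.sum_comm]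
    refine Finset.sum_congr rfl fun j _ => ?_
    conv_rhs => rw [Fr, Finset.sum_mul]
    refine Finset.sum_congr rfl fun k _ => ?_
    rw [← mul_assoc]
    rfl
  rw [h2, Finset.mul_sum]
  refine Finset.sum_congr rfl fun j _ => ?_
  rw [map_mul, Complex.conj_ofReal, ← r2]
  ring

end main

theorem gsq_uu (h : ∀ᶠ y in 𝓝 z, Hyp K φ f c y) : gsq K (uu φ f) z = uu φ f z * ww K φ f z := by
  obtain ⟨C, hC⟩ := exists_sq h.self_of_nhds.pos.inv.posSemidef
  rw [gsq_fr hC ((sm_uu h).differentiableAt (by simp)), norm_ss, norm_pp hC]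
  have h1 : (Fr C fun k => dS (-I) k (cu (uu φ f)) z) =
      fun i => conj (ss φ f z) * pp C φ f z i := by
    funext i; exact du_fr h i
  rw [h1]
  unfold N2
  rw [Finset.mul_sum]
  exact Finset.sum_congr rfl fun i _ => by rw [norm_mul, Complex.norm_conj, mul_pow]

theorem lap_ww_ge (h : ∀ᶠ y in 𝓝 z, Hyp K φ f c y) (hR : Matrix.of (ric K z) = 0) :
    -(c * (n + 2) * ww K φ f z) ≤ lap K (ww K φ f) z := by
  rw [lap_ww h hR]
  have hz := h.self_of_nhds
  have h1 := ene_nonneg (K := K) (G := GG K φ) hz.pos (posG hz).posSemidef (eta φ f)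
  have h2 : 0 ≤ uu φ f z := by rw [norm_ss]; positivity
  have h3 : 0 ≤ c ^ 2 * n * uu φ f z := by positivity
  linarith

/-- `b = u/(u+w+e)` -/
def bb (K : Cn n → Matrix (Fin n) (Fin n) ℂ) (φ : Cn n → ℝ) (f : Cn n → ℂ) (e : ℝ) (y : Cn n) : ℝ :=
  uu φ f y / (uu φ f y + ww K φ f y + e)

theorem dS_div {u v : Cn n → ℝ} (hu' : ContDiffAt ℝ ∞ u z) (hv' : ContDiffAt ℝ ∞ v z)
    (h0 : v z ≠ 0) (k : Fin n) :
    dS (-I) k (cu fun y => u y / v y) z =
      ((v z : ℂ) * dS (-I) k (cu u) z - (u z : ℂ) * dS (-I) k (cu v) z) / (v z : ℂ) ^ 2 := by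
  have hv : DifferentiableAt ℝ v z := hv'.differentiableAt (by simp)
  have hd : DifferentiableAt ℝ (fun y => u y / v y) z :=
    (hu'.div hv' h0).differentiableAt (by simp)
  have cuD : ∀ {g : Cn n → ℝ}, DifferentiableAt ℝ g z → DifferentiableAt ℝ (cu g) z := fun hg =>
    Complex.ofRealCLM.differentiableAt.comp z hg
  have h1 : cu u =ᶠ[𝓝 z] fun y => cu (fun y => u y / v y) y * cu v y := by
    filter_upwards [hv.continuousAt.eventually_ne h0] with y hy
    simp only [cu]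
    push_cast
    field_simp
  have h2 : dS (-I) k (cu u) z = dS (-I) k (cu fun y => u y / v y) z * v z +
      ((u z / v z : ℝ) : ℂ) * dS (-I) k (cu v) z := by
    rw [dS_congr h1, dS_mul (cuD hd) (cuD hv)]
    rfl
  have h3 : (v z : ℂ) ≠ 0 := by exact_mod_cast h0
  rw [h2]
  push_cast
  field_simp
  ring

/-- **the 1-jet Bochner inequality** -/
theorem gsq_bb_le (h : ∀ᶠ y in 𝓝 z, Hyp K φ f c y) (hR : Matrix.of (ric K z) = 0) (hc : 0 ≤ c)
    {e : ℝ} (he : 0 < e) :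
    gsq K (bb K φ f e) z ≤
      3 / 2 * lap K (fun y => Real.log (uu φ f y + ww K φ f y + e)) z +
        (3 / 2 * (n + 2) * c + 4 * c ^ 2) := by
  have hz := h.self_of_nhds
  obtain ⟨C, hC⟩ := exists_sq hz.pos.inv.posSemidef
  have hu := sm_uu h
  have hw := sm_ww h
  have hF : ContDiffAt ℝ ∞ (fun y => uu φ f y + ww K φ f y) z := hu.add hw
  have hS : ContDiffAt ℝ ∞ (fun y => uu φ f y + ww K φ f y + e) z := hF.add contDiffAt_const
  have hu0 : 0 ≤ uu φ f z := by rw [norm_ss]; positivity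
  have hw0 : 0 ≤ ww K φ f z := by rw [norm_pp hC]; exact N2_nonneg _
  have hS0 : 0 < uu φ f z + ww K φ f z + e := by positivity
  set S := uu φ f z + ww K φ f z + e with hSd
  have cuD : ∀ {g : Cn n → ℝ}, DifferentiableAt ℝ g z → DifferentiableAt ℝ (cu g) z := fun hg =>
    Complex.ofRealCLM.differentiableAt.comp z hg
  have hdu : DifferentiableAt ℝ (uu φ f) z := hu.differentiableAt (by simp)
  have hdw : DifferentiableAt ℝ (ww K φ f) z := hw.differentiableAt (by simp)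
  have hdF : DifferentiableAt ℝ (fun y => uu φ f y + ww K φ f y) z := hdu.add hdw
  -- gradient of `F`
  have gF : ∀ k, dS (-I) k (cu fun y => uu φ f y + ww K φ f y) z =
      dS (-I) k (cu (uu φ f)) z + dS (-I) k (cu (ww K φ f)) z := by
    intro k
    have : cu (fun y => uu φ f y + ww K φ f y) = fun y => cu (uu φ f) y + cu (ww K φ f) y := by
      funext y; simp [cu]
    rw [this, dS_add (cuD hdu) (cuD hdw)]
  have gS : ∀ k, dS (-I) k (cu fun y => uu φ f y + ww K φ f y + e) z =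
      dS (-I) k (cu (uu φ f)) z + dS (-I) k (cu (ww K φ f)) z := by
    intro k
    rw [← gF]
    have : cu (fun y => uu φ f y + ww K φ f y + e) =
        fun y => cu (fun y => uu φ f y + ww K φ f y) y + (e : ℂ) := by
      funext y; simp [cu]
    rw [this, dS_add (cuD hdF) (differentiableAt_const _), dS_const, add_zero]
  have LF : lap K (fun y => uu φ f y + ww K φ f y) z =
      (ww K φ f z - c * n * uu φ f z) + (ene K (GG K φ) (eta φ f) z -
        c * (n + 2) * ww K φ f z + c ^ 2 * n * uu φ f z) := by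
    rw [lap_add hu hw, lap_uu h, lap_ww h hR]
    rfl
  have L1 := lap_log_add (K := K) e hF hS0
  rw [L1]
  have hfr : (Fr C fun k => dS (-I) k (cu fun y => uu φ f y + ww K φ f y) z) =
      fun i => conj (ss φ f z) * pp C φ f z i + (X (pp C φ f z) (qq C K φ f z) i -
        c * (conj (ss φ f z) * pp C φ f z i)) := by
    funext i
    have : (fun k => dS (-I) k (cu fun y => uu φ f y + ww K φ f y) z) = fun k =>
      dS (-I) k (cu (uu φ f)) z + dS (-I) k (cu (ww K φ f)) z := funext gF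
    rw [this, Fr_add, du_fr h, dw_fr h hC]
  have hgF := gsq_fr (K := K) hC (g := fun y => uu φ f y + ww K φ f y)
    (hF.differentiableAt (by simp))
  rw [hfr] at hgF
  have hgb := gsq_fr (K := K) hC (g := bb K φ f e)
    ((hu.div hS hS0.ne').differentiableAt (by simp))
  have hfb : (Fr C fun k => dS (-I) k (cu (bb K φ f e)) z) = fun i =>
      ((S : ℂ) ^ 2)⁻¹ * ((S : ℂ) * (conj (ss φ f z) * pp C φ f z i) -
      (uu φ f z : ℂ) * (conj (ss φ f z) * pp C φ f z i + (X (pp C φ f z) (qq C K φ f z) i -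
        c * (conj (ss φ f z) * pp C φ f z i)))) := by
    funext i
    have : (fun k => dS (-I) k (cu (bb K φ f e)) z) = fun k => ((S : ℂ) ^ 2)⁻¹ *
        ((S : ℂ) * dS (-I) k (cu (uu φ f)) z - (uu φ f z : ℂ) *
          (dS (-I) k (cu (uu φ f)) z + dS (-I) k (cu (ww K φ f)) z)) := by
      funext k
      have h1 := dS_div (z := z) (u := uu φ f) (v := fun y => uu φ f y + ww K φ f y + e) hu
        hS hS0.ne' k
      rw [gS] at h1
      rw [← div_eq_inv_mul]
      exact h1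
    rw [this, Fr_smul, Fr_sub, Fr_smul, Fr_smul, Fr_add, du_fr h, dw_fr h hC]
  rw [hfb] at hgb
  have hN : N2 (fun i => ((S : ℂ) ^ 2)⁻¹ * ((S : ℂ) * (conj (ss φ f z) * pp C φ f z i) -
      (uu φ f z : ℂ) * (conj (ss φ f z) * pp C φ f z i + (X (pp C φ f z) (qq C K φ f z) i -
        c * (conj (ss φ f z) * pp C φ f z i))))) = (S ^ 4)⁻¹ *
      N2 (fun i => (S : ℂ) * (conj (ss φ f z) * pp C φ f z i) -
      (uu φ f z : ℂ) * (conj (ss φ f z) * pp C φ f z i + (X (pp C φ f z) (qq C K φ f z) i -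
        c * (conj (ss φ f z) * pp C φ f z i)))) := by
    unfold N2
    rw [Finset.mul_sum]
    refine Finset.sum_congr rfl fun i _ => ?_
    rw [norm_mul, mul_pow, norm_inv, norm_pow, Complex.norm_real, Real.norm_eq_abs,
      abs_of_pos hS0]
    congr 1
    rw [inv_pow, ← pow_mul]
  rw [hN] at hgb
  have key := Jet1_484.jet_main (ss φ f z) (pp C φ f z) (qq C K φ f z) hc he (u := uu φ f z)
    (w := ww K φ f z) (H := ene K (GG K φ) (eta φ f) z) (S := S)
    (LF := lap K (fun y => uu φ f y + ww K φ f y) z) norm_ss (norm_pp hC) (norm_qq hC) hSd LF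
  rw [hgb, hgF]
  have hS4 : 0 < S ^ 4 := by positivity
  set NN := N2 (fun i => conj (ss φ f z) * pp C φ f z i + (X (pp C φ f z) (qq C K φ f z) i -
        c * (conj (ss φ f z) * pp C φ f z i))) with hNN
  set LL := lap K (fun y => uu φ f y + ww K φ f y) z
  calc _ ≤ (S ^ 4)⁻¹ * (3 / 2 * (S ^ 2 * (S * LL - NN)) +
        (3 / 2 * (n + 2) * c + 4 * c ^ 2) * S ^ 4) :=
        mul_le_mul_of_nonneg_left key (by positivity)
    _ = 3 / 2 * (LL / S - NN / S ^ 2) + (3 / 2 * (n + 2) * c + 4 * c ^ 2) := by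
      field_simp

end

end Crest.Agent.R281.Jet3_484
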