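import Crest.Agent.R281.Js9_578
import Crest.Agent.R281.Jd3_310
import Crest.Agent.R273.D13_505

/-!
# R281, JETS (2) SECTIONS (helper578), part 10: 310's `SEC` and `Inp` without open inputs

* `sec`       : `∃ p0, SEC A Q L (R / 2) p0 (fun p => ⌊3 κ c p⌋ + 1)`;
* `exists_inp` : 310's `Inp` from a `QTube`, `lb P = Lb ^ m0`, `cur h = c K`, `CS κ² ≤ R²`.
-/

set_option autoImplicit false
set_option linter.unusedSectionVars false

open Set Filter Topology Complex Asymptotics Metric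
open scoped ComplexOrder

namespace Crest.Agent.R281.Js_578

open Crest.Agent.R273

open Crest.Agent.R275 Crest.Agent.R275.Geo Crest.Agent.R275.Core144
open Crest.Agent.R273.SerE_945 Crest.Agent.R273.TD3_733 Crest.Agent.R273.FS_333
open Crest.Agent.R273.Defs_333 Crest.Agent.R273.Kah_333 Crest.Agent.R273.SteinC_794
open Crest.Agent.R273.Chow_313 Crest.Agent.R260.Zt_313
open Crest.Agent.R281.AF_867 Crest.Agent.R281.Qt_922 Crest.Agent.R281.Jd_310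

noncomputable section

variable {n : ℕ} {M : Type} [TopologicalSpace M] {A : Atl n M} {K : Kah A} {d : ℕ} {κ R : ℝ}
variable [T2Space M] [CompactSpace M] [Finite A.ι]

/-- 310's `SEC` -/
theorem sec (P : Part A) {L : LB A} (h : HM L) {c : ℝ} (hc : 0 < c)
    (hcur : ∀ i, ∀ x ∈ (A.e i).source, cur h i x = (c : ℂ) • K.g i x)
    (hκ : 0 ≤ κ) (hR : CS * κ ^ 2 ≤ R ^ 2) (Q : QTube A K d κ R) :
    ∃ p0 : ℕ, SEC A Q L (R / 2) p0 (fun p => ⌊3 * κ * c * p⌋₊ + 1) := by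
  obtain ⟨p0, hp0⟩ := sections P K h hc hcur hκ hR Q
  refine ⟨p0, fun p hp i x hi hx hxR y hy => ?_⟩
  obtain ⟨s, hs, h1, h2⟩ := hp0 p hp (⌊3 * κ * c * p⌋₊ + 1) (by
    push_cast
    have h1 : (0 : ℝ) ≤ 3 * κ * c * p := by positivity
    linarith [Nat.floor_le h1]) x hx hxR y hy
  exact ⟨s, hs, h1 i hi, h2⟩

/-- **310's `Inp`, all inputs discharged** -/
theorem exists_inp [ConnectedSpace M] (PA : Part A) (Q : QTube A K d κ R) {Lb : LB A} (h : HM Lb)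
    {c : ℝ} (hc : 0 < c) (hcur : ∀ i, ∀ x ∈ (A.e i).source, cur h i x = (c : ℂ) • K.g i x)
    (hκ : 0 ≤ κ) (hR : CS * κ ^ 2 ≤ R ^ 2) (P : ProjD A) {m0 : ℕ} (hm0 : 0 < m0)
    (hP : lb P = Lb ^ m0) :
    ∃ E0 : Finset (MvPolynomial (Fin (P.N + 1)) ℂ), ∃ d0 : ℕ, ∃ mu : ℕ → ℕ, ∀ D, d0 ≤ D →
      Inp A (lb P) (fun k => FS_333.sec P k) E0 Q.U {x | x ∈ Q.U ∧ ‖Q.f x‖ < R / 2} Q.f
        (mu D) D := by
  obtain ⟨p0, hp0⟩ := sec PA h hc hcur hκ hR Q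
  obtain ⟨E0, d0, h0⟩ := exists_inp' PA (R273.D13_505.d2 PA K) Q h hc.le hcur
    (fun p _ => floor_ok' p) hp0 P hm0 hP
  exact ⟨E0, d0, fun D => ⌊3 * κ * c * (m0 * D : ℕ)⌋₊ + 1, h0⟩

end

end Crest.Agent.R281.Js_578
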