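import Crest.Agent.R271.RExt1_747

/-!
# R281, JETS (2) SECTIONS (helper578), part 1: order of vanishing from integrals over small balls

`van` : `∫_{B(p,s)} |f|² ≤ B s^{2(n+k)}` for all small `s` ⟹ `|f z| ≤ C |z - p|^k` near `p`.
-/

set_option autoImplicit false

open Set Filter Topology Metric MeasureTheory Complex
open scoped Real ENNReal NNReal

noncomputable section

namespace Crest.Agent.R281.Js_578

variable {n : ℕ}

theorem vol_cb (x : Fin n → ℂ) {ρ : ℝ} (hρ : 0 ≤ ρ) : volume (closedBall x ρ) =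
    ENNReal.ofReal (ρ ^ (2 * n) * (volume (closedBall (0 : Fin n → ℂ) 1)).toReal) := by
  rw [Measure.addHaar_closedBall' _ _ hρ, ENNReal.ofReal_mul (by positivity),
    ENNReal.ofReal_toReal measure_closedBall_lt_top.ne]
  congr 2
  have : Module.finrank ℝ (Fin n → ℂ) = 2 * n := by
    rw [Module.finrank_pi_fintype]
    simp [Complex.finrank_real_complex, mul_comm]
  rw [this]

/-- mean value over one ball -/
theorem sup_le {D : Set (Fin n → ℂ)} {x : Fin n → ℂ} {t : ℝ} {f : (Fin n → ℂ) → ℂ} {I : ℝ}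
    (hD : IsOpen D) (hf : DifferentiableOn ℂ f D) (ht : 0 < t) (htD : closedBall x t ⊆ D)
    (hI : 0 ≤ I) (hint : ∫⁻ y in closedBall x t, ‖f y‖ₑ ^ 2 ≤ ENNReal.ofReal I) :
    t ^ (2 * n) * (volume (closedBall (0 : Fin n → ℂ) 1)).toReal * ‖f x‖ ^ 2 ≤ I := by
  have h1 := (Crest.Agent.R271.RExt747.submean hD hf htD).trans hint
  rw [vol_cb x ht.le] at h1
  have h3 : ‖f x‖ₑ ^ 2 = ENNReal.ofReal (‖f x‖ ^ 2) := by
    rw [← ofReal_norm, ENNReal.ofReal_pow (norm_nonneg _)]
  rw [h3, ← ENNReal.ofReal_mul (by positivity), ENNReal.ofReal_le_ofReal_iff hI] at h1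
  exact h1

/-- **order of vanishing** -/
theorem van {D : Set (Fin n → ℂ)} {p : Fin n → ℂ} {r B : ℝ} {f : (Fin n → ℂ) → ℂ} {k : ℕ}
    (hD : IsOpen D) (hf : DifferentiableOn ℂ f D) (hr : 0 < r) (hrD : closedBall p r ⊆ D)
    (hB : 0 ≤ B)
    (hint : ∀ s : ℝ, 0 < s → s ≤ r →
      ∫⁻ y in closedBall p s, ‖f y‖ₑ ^ 2 ≤ ENNReal.ofReal (B * s ^ (2 * (n + k)))) :
    ∃ C : ℝ, 0 ≤ C ∧ ∀ z ∈ closedBall p (r / 2), ‖f z‖ ≤ C * ‖z - p‖ ^ k := by
  set v0 : ℝ := (volume (closedBall (0 : Fin n → ℂ) 1)).toReal with hv0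
  have hv0p : 0 < v0 := ENNReal.toReal_pos (measure_closedBall_pos volume _ one_pos).ne'
    measure_closedBall_lt_top.ne
  set C : ℝ := Real.sqrt (B * 2 ^ (2 * (n + k)) / v0) with hC
  have hC2 : C ^ 2 = B * 2 ^ (2 * (n + k)) / v0 := Real.sq_sqrt (by positivity)
  have hC0 : 0 ≤ C := Real.sqrt_nonneg _
  have key : ∀ z, ∀ t : ℝ, 0 < t → t ≤ r / 2 → closedBall z t ⊆ closedBall p (2 * t) →
      ‖f z‖ ≤ C * t ^ k := by
    intro z t ht htr hsub
    have h1 := hint (2 * t) (by positivity) (by linarith)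
    have h2 : closedBall z t ⊆ D :=
      (hsub.trans (closedBall_subset_closedBall (by linarith))).trans hrD
    have h3 := sup_le hD hf ht h2 (by positivity) ((lintegral_mono_set hsub).trans h1)
    rw [← hv0] at h3
    have h4 : ‖f z‖ ^ 2 ≤ (C * t ^ k) ^ 2 := by
      rw [mul_pow, hC2]
      have e : B * (2 * t) ^ (2 * (n + k)) =
          t ^ (2 * n) * (B * 2 ^ (2 * (n + k)) * (t ^ k) ^ 2) := by
        rw [mul_pow, mul_add 2 n k, pow_add t, ← pow_mul, mul_comm k 2]
        ring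
      rw [e, mul_assoc] at h3
      have h5 := le_of_mul_le_mul_left h3 (by positivity)
      rw [div_mul_eq_mul_div, le_div_iff₀ hv0p]
      linarith
    exact abs_le_of_sq_le_sq' h4 (by positivity) |>.2
  refine ⟨C, hC0, fun z hz => ?_⟩
  rcases eq_or_ne z p with rfl | hne
  · rw [sub_self, norm_zero]
    rcases Nat.eq_zero_or_pos k with rfl | hk
    · have h1 := key z (r / 2) (by positivity) le_rfl
        (closedBall_subset_closedBall (by linarith))
      simpa using h1
    · rw [zero_pow hk.ne', mul_zero]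
      have h1 : Tendsto (fun t : ℝ => C * t ^ k) (𝓝[>] 0) (𝓝 0) := by
        have : Continuous fun t : ℝ => C * t ^ k := by fun_prop
        have h2 := this.tendsto 0
        simp only [zero_pow hk.ne', mul_zero] at h2
        exact h2.mono_left nhdsWithin_le_nhds
      refine ge_of_tendsto h1 ?_
      filter_upwards [Ioc_mem_nhdsGT (show (0 : ℝ) < r / 2 by positivity)] with t ht
      exact key z t ht.1 ht.2 (closedBall_subset_closedBall (by linarith [ht.1]))
  · have ht : 0 < ‖z - p‖ := norm_pos_iff.2 (sub_ne_zero.2 hne)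
    have hz' : ‖z - p‖ ≤ r / 2 := by
      rw [← dist_eq_norm]
      exact mem_closedBall.1 hz
    refine key z ‖z - p‖ ht hz' (closedBall_subset_closedBall' ?_)
    rw [dist_eq_norm]
    linarith

end Crest.Agent.R281.Js_578
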