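import Crest.Agent.R281.HoC6_578

/-!
# R281, JETS (2) SECTIONS (helper578), part 2: Hoermander–Demailly for metrics on `K⁻¹ ⊗ N`

* `user_H` : as `HoC_578.user_gen`, for metrics of `(KB A)⁻¹ * N` (no flat metric on `KB A`).
-/

set_option autoImplicit false
set_option linter.unusedSectionVars false
set_option linter.style.haveILetI false

open Set Filter Topology Complex
open scoped ContDiff Matrix ComplexConjugate Kronecker ComplexOrder

namespace Crest.Agent.R281.Js_578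

open Crest.Agent.R275 Crest.Agent.R275.Geo Crest.Agent.R275.Core144
open Crest.Agent.R273.Defs_333 Crest.Agent.R273.HM_333 Crest.Agent.R273.Kah_333
open Crest.Agent.R273.LamN127 Crest.Agent.R273.NV_578
open Crest.Agent.R273.NormC_505 Crest.Agent.R273.DnInt_505
open Crest.Agent.R273.DVec_733 Crest.Agent.R273.DMet_733 Crest.Agent.R273.DMetB_733
open Crest.Agent.R273.HDN_505 (HB HB_pos Ku Ku_posDef Gam_smAt)
open Crest.Agent.R273.SerA_945
open Crest.Agent.R281.HoC_578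

noncomputable section

variable {n : ℕ} {M : Type} [TopologicalSpace M] {A : Atl n M}
variable [T2Space M] [CompactSpace M] [Finite A.ι]

/-- **Hoermander–Demailly**, metrics on `K⁻¹ ⊗ N` -/
theorem user_H (P : Part A) (K : Kah A) {N : LB A} (H : ℕ → HM ((KB A)⁻¹ * N))
    (Href : HM ((KB A)⁻¹ * N)) {c : ℝ} (hc : 0 < c)
    (hlow : ∀ ν i, ∀ x ∈ (A.e i).source, c * Href.w i x ≤ (H ν).w i x)
    {ε : ℕ → ℝ} (hε : ∀ ν, 0 < ε ν) (hε0 : Tendsto ε atTop (𝓝 0))
    (hpsd : ∀ ν i, ∀ x ∈ (A.e i).source, (cur (H ν) i x + (ε ν : ℂ) • K.g i x).PosSemidef)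
    {y0 y1 : Fn A} (h0 : SmS N y0) (o0 : ∀ i, ∀ x ∉ (A.e i).source, y0 i x = 0)
    (h1 : SmS N y1) (o1 : ∀ i, ∀ x ∉ (A.e i).source, y1 i x = 0) {D : ℝ}
    (hD : ∀ ν, (HB K (H ν)).sn P ⟨embN y1, (embN_mem h1 o1).1⟩ ^ 2 ≤ D)
    (hpt : ∀ ν i, ∀ x ∈ (A.e i).source, ∀ ξ : Fin n → ℂ,
      ‖∑ a, A.db i a (y0 i) x * conj (ξ a)‖ ^ 2 ≤ ‖y1 i x‖ ^ 2 *
        (∑ a, ∑ c, (cur (H ν) i x + (ε ν : ℂ) • K.g i x) a c * ξ a * conj (ξ c)).re) :
    ∃ (s : Fn A) (u : Sec (BN N)), IsHS N univ s ∧ u.1 = embN y0 - embN s ∧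
      ∀ b : HM ((KB A)⁻¹ * N),
      (∀ᶠ ν in atTop, ∀ i, ∀ x ∈ (A.e i).source, b.w i x ≤ (H ν).w i x) →
      (HB K b).sn P u ^ 2 ≤ D := by
  have hm := embN_mem h0 o0
  have hm1 := embN_mem h1 o1
  let σ : Sec (BN N) := ⟨embN y0, hm.1⟩
  have hσ0 : Geo.pqL (BN N) 0 σ = σ := Subtype.ext (R273.SerE_945.pq_of_isDeg hm.2)
  set g : Sec (BN N) := nabL (BN N) σ with hg
  have hg1 : Geo.pqL (BN N) 1 g = g := by
    have h2 := LinearMap.congr_fun (nabL_pqL (B := BN N) 0) σ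
    simp only [LinearMap.comp_apply] at h2
    rw [hσ0] at h2
    exact h2.symm
  have hg0 : nabL (BN N) g = 0 := nab_nab_BN N σ
  obtain ⟨y, hy0, hy, hyn⟩ := l2_pt_gen P K g hg0 hg1 H Href hc hlow
    ε hε hε0 hpsd
    (fun ν => (HB K (H ν)).hd (embN y1) (embN y1)) D
    (fun ν => (HB K (H ν)).isDn hm1.1 hm1.1)
    (fun ν i x hx => by
      rw [hd_embN, Complex.ofReal_re]
      exact mul_nonneg ((H ν).pos i x hx).le (sq_nonneg _))
    (fun ν => by
      have h3 := hD ν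
      rw [HDen.sn_sq] at h3
      exact h3)
    (fun ν i x hx ξ => by
      rw [hd_embN, Complex.ofReal_re, mul_assoc]
      refine mul_le_mul_of_nonneg_left ?_ ((H ν).pos i x hx).le
      refine le_trans (le_of_eq ?_) (hpt ν i x hx ξ)
      congr 2
      refine Finset.sum_congr rfl fun a _ => ?_
      rw [← oB_nab_embN h0 o0 hx a]
      rfl)
  -- the holomorphic section
  let yr : Raw A := y.1
  have hyF : yr ∈ FF N 0 := by
    refine ⟨y.2, ?_⟩
    intro i x κ hκ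
    by_contra hne
    have h4 : y.1 i x κ = pq (BN N) 0 y.1 i x κ := by
      conv_lhs => rw [← hy0]
      rfl
    rw [pq_apply, if_neg hne] at h4
    exact hκ h4
  have hu : embN y0 - yr ∈ FF N 0 := (FF N 0).sub_mem hm hyF
  have hDu : Db (embN y0 - yr) = 0 := by
    rw [Db_sub hm hyF]
    have h2 : Db yr = Db (embN y0) := congrArg Subtype.val hy
    rw [h2, sub_self]
  refine ⟨_, y, isHS_of_closed hu hDu, ?_, hyn⟩
  have h6 : embN (fun i x => (embN y0 - yr) i x (∅, ())) = embN y0 - yr := (eq_embN hu).symm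
  show (y.1 : Raw A) = embN y0 - embN (fun i x => (embN y0 - yr) i x (∅, ()))
  rw [h6, sub_sub_cancel]

end

end Crest.Agent.R281.Js_578
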