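import Crest.Agent.R281.End3_946

/-!
# R281, JETS (2) SECTIONS (helper578), part 3: the weights (after helper946's End2, End3)

* `TW A`       : an open set `U` and a holomorphic `w : U → ℂ^r`, `{|w| ≤ 1}` compact
* `gl D φ`     : `φ(|w|²)` on `U`, `0` off `U`; smooth if `φ = 0` on `t > 1`
* `wf D c d`   : the weight `χ(|w|²) log (|w|² + d²)`
* `wf_psd`     : `C ∂∂̄|w|² + ∂∂̄ wf ≥ 0` on `U`, `C` independent of `d`
* `wf_ge`      : `∂∂̄|w|² ≤ κ K` on `|w| ≤ 1` ⟹ `∂∂̄ wf ≥ - C κ K` on `M`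
-/

set_option autoImplicit false
set_option linter.unusedSectionVars false

open Set Filter Topology Complex
open scoped ContDiff Matrix ComplexConjugate ComplexOrder

namespace Crest.Agent.R281.Js_578

open Crest.Agent.R275.Geo Crest.Agent.R275.Core144 Crest.Agent.R275.EDR890 Crest.Agent.R273
open Crest.Agent.R273.Defs_333 Crest.Agent.R273.HM_333 Crest.Agent.R273.Kah_333
open Crest.Agent.R273.Hess_333 Crest.Agent.R273.HessB_333
open Crest.Agent.R273.FIa0_597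
open Crest.Agent.R273.FS_333 (sq wd_sq wd_sq' hess_sq contDiffAt_of_hol)
open Crest.Agent.R281.Glob1_484 (hess_comp_mat)
open Crest.Agent.R281.LEnd_10 (sqw)
open Crest.Agent.R281.End_946 (Cut exists_cut psd_comb psd_sq psd_hess_sq psd_smul coe_smul')

noncomputable section

/-! ### functions of `|w|²` on `M` -/

variable {n : ℕ} {M : Type} [TopologicalSpace M] {A : Atl n M}

/-- a holomorphic map on an open set, proper over the closed unit ball -/
structure TW (A : Atl n M) where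
  U : Set M
  isOpen_U : IsOpen U
  r : ℕ
  w : M → Fin r → ℂ
  hol : ∀ i k, HolAt A i U (fun x => w x k)
  cpt : IsCompact {x | x ∈ U ∧ sqw w x ≤ 1}

section Glob

variable (D : TW A)

open Classical in
/-- `φ(|w|²)` on `U`, zero off `U` -/
def gl (φ : ℝ → ℝ) (x : M) : ℝ := if x ∈ D.U then φ (sqw D.w x) else 0

theorem gl_mem {φ : ℝ → ℝ} {x : M} (hx : x ∈ D.U) : gl D φ x = φ (sqw D.w x) := if_pos hx

theorem gl_off {φ : ℝ → ℝ} {x : M} (hx : x ∉ D.U) : gl D φ x = 0 := if_neg hx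

theorem sqw_nonneg {r : ℕ} (w : M → Fin r → ℂ) (x : M) : 0 ≤ sqw w x :=
  Finset.sum_nonneg fun _ _ => by positivity

/-- `w` read in a chart -/
def wr (i : A.ι) : Cn n → Fin D.r → ℂ := fun z => D.w ((A.e i).symm z)

/-- the domain of `w` read in a chart -/
def Ur (i : A.ι) : Set (Cn n) := (A.e i).target ∩ (A.e i).symm ⁻¹' D.U

theorem isOpen_Ur (i : A.ι) : IsOpen (Ur D i) := isOpen_ti D.isOpen_U

theorem wr_hol (i : A.ι) (k : Fin D.r) : DifferentiableOn ℂ (fun z => wr D i z k) (Ur D i) :=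
  D.hol i k

theorem sqw_read (i : A.ι) : (fun z => sqw D.w ((A.e i).symm z)) = FS_333.sq (wr D i) := rfl

theorem mem_Ur {i : A.ι} {x : M} (hx : x ∈ (A.e i).source) (hU : x ∈ D.U) : A.e i x ∈ Ur D i :=
  ⟨(A.e i).map_source hx, by rw [mem_preimage, (A.e i).left_inv hx]; exact hU⟩

theorem sq_contDiffAt {i : A.ι} {z : Cn n} (hz : z ∈ Ur D i) :
    ContDiffAt ℝ ∞ (FS_333.sq (wr D i)) z := by
  refine ContDiffAt.sum fun k _ => ?_
  exact (contDiffAt_of_hol (isOpen_Ur D i) (wr_hol D i k) hz).norm_sq ℝ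

theorem psd_sqw {i : A.ι} {x : M} (hx : x ∈ (A.e i).source) (hU : x ∈ D.U) :
    (hsf A (sqw D.w) i x).PosSemidef :=
  psd_hess_sq (isOpen_Ur D i) (wr_hol D i) (mem_Ur D hx hU)

theorem sq_at {i : A.ι} {x : M} (hx : x ∈ (A.e i).source) :
    sq (wr D i) (A.e i x) = sqw D.w x := by
  show sqw D.w ((A.e i).symm (A.e i x)) = _
  rw [(A.e i).left_inv hx]

/-- `|w|² ∂∂̄|w|² ≥ ∂|w|² ⊗ ∂̄|w|²` -/
theorem psd_sqw' {i : A.ι} {x : M} (hx : x ∈ (A.e i).source) (hU : x ∈ D.U) :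
    ((sqw D.w x : ℝ) • hsf A (sqw D.w) i x -
      Matrix.vecMulVec (gr (sq (wr D i)) (A.e i x)) (star (gr (sq (wr D i)) (A.e i x)))).PosSemidef := by
  have h := psd_sq (isOpen_Ur D i) (wr_hol D i) (mem_Ur D hx hU)
  rw [sq_at D hx] at h
  exact h

/-- `∂∂̄ (φ(|w|²))` on `U` -/
theorem hsf_gl {φ φ' : ℝ → ℝ} {d2 : ℝ} {i : A.ι} {x : M} (hx : x ∈ (A.e i).source)
    (hU : x ∈ D.U) (h1 : ∀ᶠ s in 𝓝 (sqw D.w x), HasDerivAt φ (φ' s) s)
    (h2 : HasDerivAt φ' d2 (sqw D.w x)) :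
    hsf A (gl D φ) i x = (φ' (sqw D.w x) : ℝ) • hsf A (sqw D.w) i x +
      (d2 : ℝ) • Matrix.vecMulVec (gr (sq (wr D i)) (A.e i x))
        (star (gr (sq (wr D i)) (A.e i x))) := by
  have hz := mem_Ur D hx hU
  have e1 : (fun z => gl D φ ((A.e i).symm z)) =ᶠ[𝓝 (A.e i x)] fun z => φ (sq (wr D i) z) := by
    filter_upwards [(isOpen_Ur D i).mem_nhds hz] with z hz
    exact gl_mem D hz.2
  have h := hess_comp_mat (φ := φ) (φ' := φ') (d2 := d2) (sq_contDiffAt D hz)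
    (by rw [sq_at D hx]; exact h1) (by rw [sq_at D hx]; exact h2)
  rw [sq_at D hx] at h
  unfold hsf
  rw [hess_congr e1, h]
  rfl

variable [T2Space M]

theorem eventually_off {x : M} (hx : ¬ (x ∈ D.U ∧ sqw D.w x ≤ 1)) :
    ∀ᶠ y in 𝓝 x, ¬ (y ∈ D.U ∧ sqw D.w y ≤ 1) :=
  D.cpt.isClosed.isOpen_compl.mem_nhds hx

theorem gl_zero {φ : ℝ → ℝ} {x : M} (h0 : ∀ t, 1 < t → φ t = 0)
    (hx : ¬ (x ∈ D.U ∧ sqw D.w x ≤ 1)) : gl D φ x = 0 := by
  by_cases hU : x ∈ D.U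
  · rw [gl_mem D hU]
    refine h0 _ ?_
    by_contra h
    exact hx ⟨hU, not_lt.1 h⟩
  · exact gl_off D hU

/-- smoothness -/
theorem sm_gl {φ : ℝ → ℝ} {S : Set ℝ} (hS : IsOpen S) (hS0 : Ici 0 ⊆ S) (hφ : ContDiffOn ℝ ∞ φ S)
    (h0 : ∀ t, 1 < t → φ t = 0) : A.Sm (gl D φ) := by
  intro i z hz
  have hxs := (A.e i).map_target hz
  by_cases hU : (A.e i).symm z ∈ D.U
  · have hz' : z ∈ Ur D i := ⟨hz, hU⟩
    have e1 : (fun z => gl D φ ((A.e i).symm z)) =ᶠ[𝓝 z] fun z => φ (sq (wr D i) z) := by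
      filter_upwards [(isOpen_Ur D i).mem_nhds hz'] with z hz
      exact gl_mem D hz.2
    have h1 : ContDiffAt ℝ ∞ φ (sq (wr D i) z) := by
      exact hφ.contDiffAt (hS.mem_nhds (hS0 (mem_Ici.2 (FS_333.sq_nonneg' (wr D i) z))))
    exact ((h1.comp z (sq_contDiffAt D hz')).congr_of_eventuallyEq e1).contDiffWithinAt
  · have h1 := eventually_off D (x := (A.e i).symm z) (fun h => hU h.1)
    have h2 : ∀ᶠ w in 𝓝 z, gl D φ ((A.e i).symm w) = 0 := by
      have h3 : ContinuousAt (A.e i).symm z := (A.e i).continuousAt_symm hz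
      filter_upwards [h3.eventually h1] with w hw
      exact gl_zero D h0 hw
    have h4 : ContDiffAt ℝ ∞ (fun _ : Cn n => (0 : ℝ)) z := contDiffAt_const
    exact (h4.congr_of_eventuallyEq h2).contDiffWithinAt

theorem hsf_gl_off {φ : ℝ → ℝ} {i : A.ι} {x : M} (hx : x ∈ (A.e i).source)
    (h0 : ∀ t, 1 < t → φ t = 0) (hn : ¬ (x ∈ D.U ∧ sqw D.w x ≤ 1)) :
    hsf A (gl D φ) i x = 0 := by
  have h1 := eventually_off D hn
  have hz := (A.e i).map_source hx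
  have h3 : ContinuousAt (A.e i).symm (A.e i x) := (A.e i).continuousAt_symm hz
  rw [← (A.e i).left_inv hx] at h1
  have h2 : (fun z => gl D φ ((A.e i).symm z)) =ᶠ[𝓝 (A.e i x)] fun _ => 0 := by
    filter_upwards [h3.eventually h1] with w hw
    exact gl_zero D h0 hw
  unfold hsf
  rw [hess_congr h2]
  have h5 := hess_const_mul (u := fun _ : Cn n => (0 : ℝ)) (z := A.e i x) 0 contDiffAt_const
  simpa using h5

end Glob

section

variable (D : TW A) {a b : ℝ} (c : Cut a b)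

/-- the weight function -/
def wf (d : ℝ) : M → ℝ := gl D (c.lam d)

theorem wf_mem {d : ℝ} {x : M} (hx : x ∈ D.U) : wf D c d x = c.lam d (sqw D.w x) := gl_mem D hx

theorem wf_low {d : ℝ} {x : M} (hx : x ∈ D.U) (h : sqw D.w x ≤ a) :
    wf D c d x = Real.log (sqw D.w x + d ^ 2) := by
  rw [wf_mem D c hx, c.lam_low h]

theorem wf_psd (ha : 0 < a) (hab : a < b) :
    ∃ C : ℝ, 0 ≤ C ∧ ∀ d : ℝ, 0 < d → d ≤ 1 → ∀ i, ∀ x ∈ (A.e i).source, x ∈ D.U →
      (C • hsf A (sqw D.w) i x + hsf A (wf D c d) i x).PosSemidef := by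
  obtain ⟨C, hC, h⟩ := c.exists_bound ha hab
  refine ⟨C, hC, fun d hd hd1 i x hx hU => ?_⟩
  have ht := sqw_nonneg D.w x
  have hp : 0 < sqw D.w x + d ^ 2 := by positivity
  have e := hsf_gl D (φ := c.lam d) (φ' := c.lam1 d) (d2 := c.lam2 d (sqw D.w x)) hx hU ?_
    (c.lam_d2 hp)
  · unfold wf
    rw [e, ← add_assoc, ← add_smul]
    refine psd_comb (psd_sqw D hx hU) (Matrix.posSemidef_vecMulVec_self_star _)
      (psd_sqw' D hx hU) fun x' y' hx' hy' hxy => ?_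
    exact h d hd hd1 _ ht x' y' hx' hy' hxy
  · have ho : IsOpen {s : ℝ | 0 < s + d ^ 2} := isOpen_lt continuous_const (by fun_prop)
    filter_upwards [ho.mem_nhds hp] with s hs
    exact c.lam_d1 hs

variable [T2Space M]

theorem wf_sm (hb : b ≤ 1) {d : ℝ} (hd : 0 < d) : A.Sm (wf D c d) := by
  have ho : IsOpen {s : ℝ | 0 < s + d ^ 2} := isOpen_lt continuous_const (by fun_prop)
  refine sm_gl D ho (fun t ht => ?_) (c.lam_sm d) fun t ht => c.lam_zero (hb.trans ht.le)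
  have h0 : 0 ≤ t := ht
  show 0 < t + d ^ 2
  positivity

theorem wf_off (hb : b ≤ 1) {d : ℝ} {x : M} (hx : ¬ (x ∈ D.U ∧ sqw D.w x ≤ 1)) :
    wf D c d x = 0 := gl_zero D (fun _ ht => c.lam_zero (hb.trans ht.le)) hx

theorem hsf_wf_off (hb : b ≤ 1) {d : ℝ} {i : A.ι} {x : M} (hx : x ∈ (A.e i).source)
    (hn : ¬ (x ∈ D.U ∧ sqw D.w x ≤ 1)) : hsf A (wf D c d) i x = 0 :=
  hsf_gl_off D hx (fun _ ht => c.lam_zero (hb.trans ht.le)) hn

/-- upper bound of the weight, uniform in `d` -/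
theorem wf_le (hb : b ≤ 1) {d : ℝ} (hd : 0 < d) (hd1 : d ≤ 1) (x : M) :
    wf D c d x ≤ max |Real.log a| |Real.log (b + 1)| := by
  by_cases hU : x ∈ D.U
  · rw [wf_mem D c hU]
    exact c.lam_le (sqw_nonneg _ _) hd hd1
  · rw [wf_off D c hb fun h => hU h.1]
    exact (abs_nonneg _).trans (le_max_left _ _)

end

end

end Crest.Agent.R281.Js_578
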