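import Crest.Agent.R281.Js3_578
import Crest.Agent.R272.Kod3_410
import Crest.Agent.R273.SerD_945

/-!
# R281, JETS (2) SECTIONS (helper578), part 4: bounds for the weights

* `qv M ξ`      : the quadratic form `Re Σ M_ac ξ_a conj ξ_c`
* `exists_hsfK`, `exists_grad` : bounds by the Kähler form for smooth functions
* `cut0`, `CJ`  : a fixed cut-off and its constant
* `TW.W d`      : the weight, `W_ge`, `W_le`, `W_mono`, `W_low`, `exists_W_lower`, `exists_lip`
-/

set_option autoImplicit false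
set_option linter.unusedSectionVars false

open Set Filter Topology Complex
open scoped ContDiff Matrix ComplexConjugate ComplexOrder

namespace Crest.Agent.R281.Js_578

open Crest.Agent.R275.Geo Crest.Agent.R275.Core144 Crest.Agent.R275.EDR890 Crest.Agent.R273
open Crest.Agent.R275.Dg199
open Crest.Agent.R273.Defs_333 Crest.Agent.R273.HM_333 Crest.Agent.R273.Kah_333
open Crest.Agent.R273.Hess_333 Crest.Agent.R273.HessB_333
open Crest.Agent.R273.FIa0_597 Crest.Agent.R273.SerD_945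
open Crest.Agent.R272.Kod3_410 (sm_cont hsf_herm psd_mono dsq)
open Crest.Agent.R281.Glob1_484 (hess_comp_mat)
open Crest.Agent.R281.LEnd_10 (sqw)
open Crest.Agent.R281.End_946 (Cut exists_cut psd_comb psd_sq psd_hess_sq psd_smul coe_smul')

noncomputable section

variable {n : ℕ} {M : Type} [TopologicalSpace M] {A : Atl n M}

/-! ### quadratic forms -/

/-- the quadratic form -/
def qv (X : Matrix (Fin n) (Fin n) ℂ) (ξ : Fin n → ℂ) : ℝ :=
  (∑ a, ∑ c, X a c * ξ a * conj (ξ c)).re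

theorem qv_eq (X : Matrix (Fin n) (Fin n) ℂ) (ξ : Fin n → ℂ) :
    qv X ξ = (star (star ξ) ⬝ᵥ X *ᵥ star ξ).re := by
  unfold qv
  congr 1
  rw [star_star]
  show _ = ∑ a, ξ a * (∑ b, X a b * star (ξ b))
  refine Finset.sum_congr rfl fun a _ => ?_
  rw [Finset.mul_sum]
  refine Finset.sum_congr rfl fun b _ => ?_
  rw [RCLike.star_def]
  ring

theorem qv_nonneg {X : Matrix (Fin n) (Fin n) ℂ} (hX : X.PosSemidef) (ξ : Fin n → ℂ) :
    0 ≤ qv X ξ := by
  rw [qv_eq]
  exact (Complex.le_def.1 (hX.dotProduct_mulVec_nonneg (star ξ))).1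

theorem qv_add (X Y : Matrix (Fin n) (Fin n) ℂ) (ξ : Fin n → ℂ) :
    qv (X + Y) ξ = qv X ξ + qv Y ξ := by
  rw [qv_eq, qv_eq, qv_eq, Matrix.add_mulVec, dotProduct_add, Complex.add_re]

theorem qv_sub (X Y : Matrix (Fin n) (Fin n) ℂ) (ξ : Fin n → ℂ) :
    qv (X - Y) ξ = qv X ξ - qv Y ξ := by
  rw [qv_eq, qv_eq, qv_eq, Matrix.sub_mulVec, dotProduct_sub, Complex.sub_re]

theorem qv_smul (r : ℝ) (X : Matrix (Fin n) (Fin n) ℂ) (ξ : Fin n → ℂ) :
    qv (r • X) ξ = r * qv X ξ := by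
  rw [qv_eq, qv_eq, Matrix.smul_mulVec, dotProduct_smul, Complex.real_smul, Complex.re_ofReal_mul]

theorem qv_vec (g ξ : Fin n → ℂ) :
    qv (Matrix.vecMulVec g (star g)) ξ = ‖∑ a, g a * ξ a‖ ^ 2 := by
  unfold qv
  have h : (∑ a, ∑ c, Matrix.vecMulVec g (star g) a c * ξ a * conj (ξ c)) =
      (∑ a, g a * ξ a) * conj (∑ a, g a * ξ a) := by
    rw [map_sum, Finset.sum_mul_sum]
    refine Finset.sum_congr rfl fun a _ => Finset.sum_congr rfl fun c _ => ?_
    rw [Matrix.vecMulVec_apply, Pi.star_apply, RCLike.star_def, map_mul]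
    ring
  rw [h, Complex.mul_conj, Complex.normSq_eq_norm_sq, Complex.ofReal_re]

/-! ### smooth functions and the Kähler form -/

theorem smAt_cont {i : A.ι} {f : M → ℂ} (hf : A.SmAt i f) : ContinuousOn f (A.e i).source := by
  have h1 : ContinuousOn (fun z => f ((A.e i).symm z)) (A.e i).target := by
    have := hf
    exact ContDiffOn.continuousOn (𝕜 := ℝ) this
  have h2 : ContinuousOn (fun x => f ((A.e i).symm (A.e i x))) (A.e i).source :=
    h1.comp (A.e i).continuousOn_toFun (fun x hx => (A.e i).map_source hx)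
  exact h2.congr fun x hx => by simp only [(A.e i).left_inv hx]

/-- a smooth function: `hsf f ≥ -t K` -/
theorem exists_hsfK [CompactSpace M] (K : Kah A) {f : M → ℝ} (hf : A.Sm f) :
    ∃ t0 : ℝ, 0 ≤ t0 ∧ ∀ i, ∀ x ∈ (A.e i).source, (hsf A f i x + t0 • K.g i x).PosSemidef := by
  obtain ⟨t0, ht⟩ := exists_pos_add K.g (hsf A f) (fun i a b => smAt_cont (K.sm i a b)) (sm_cont hf)
    K.pos (fun i x hx => hsf_herm hf hx) (fun i j x hx => K.tr i j x hx)
    (fun i j x hx => hsf_tr hf hx)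
  refine ⟨max t0 0, le_max_right _ _, fun i x hx => ?_⟩
  have h := (ht _ (le_max_left t0 0) i x hx).posSemidef
  rwa [coe_smul'] at h

/-- the gradient of a smooth function `0 ≤ f ≤ 1` -/
theorem exists_grad [CompactSpace M] (K : Kah A) {f : M → ℝ} (hf : A.Sm f) (hf0 : ∀ x, 0 ≤ f x)
    (hf1 : ∀ x, f x ≤ 1) : ∃ C : ℝ, 0 ≤ C ∧ ∀ i, ∀ x ∈ (A.e i).source, ∀ ξ : Fin n → ℂ,
      ‖∑ a, A.db i a (fun y => (f y : ℂ)) x * conj (ξ a)‖ ^ 2 ≤ C * qv (K.g i x) ξ := by
  obtain ⟨t2, ht2, h2⟩ := exists_hsfK K hf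
  have hq : A.Sm (fun x => -(f x) ^ 2) := fun i => ((hf i).pow 2).neg
  obtain ⟨t1, ht1, h1⟩ := exists_hsfK K hq
  refine ⟨t1 / 2 + t2, by positivity, fun i x hx ξ => ?_⟩
  have hz := (A.e i).map_source hx
  have hfa := sm_contDiffAt hf i hz
  have hfx : f ((A.e i).symm (A.e i x)) = f x := by rw [(A.e i).left_inv hx]
  set g := gr (fun z => f ((A.e i).symm z)) (A.e i x) with hg
  -- Hessian of `-f²`
  have e1 : hsf A (fun x => -(f x) ^ 2) i x =
      (-(2 * f x) : ℝ) • hsf A f i x + (-2 : ℝ) • Matrix.vecMulVec g (star g) := by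
    have := hess_comp_mat (φ := fun s : ℝ => -s ^ 2) (φ' := fun s : ℝ => -(2 * s)) (d2 := -2) hfa
      (Eventually.of_forall fun s => by
        have h3 := (hasDerivAt_pow 2 s).fun_neg
        simpa using h3)
      (by
        have h3 := ((hasDerivAt_id (f ((A.e i).symm (A.e i x)))).const_mul (2 : ℝ)).fun_neg
        simpa using h3)
    rw [hfx] at this
    exact this
  have h3 := psd_smul (r := 1 / 2) (by norm_num) (h1 i x hx)
  have h4 := psd_smul (hf0 x) (h2 i x hx)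
  have hK := (K.pos i x hx).posSemidef
  have h5 := psd_smul (r := t1 / 2 + t2 - t1 / 2 - f x * t2)
    (by have := mul_le_mul_of_nonneg_right (hf1 x) ht2; linarith) hK
  have h6 := (h3.add h4).add h5
  have e2 : (1 / 2 : ℝ) • (hsf A (fun x => -(f x) ^ 2) i x + t1 • K.g i x) +
      (f x) • (hsf A f i x + t2 • K.g i x) +
      (t1 / 2 + t2 - t1 / 2 - f x * t2) • K.g i x =
      (t1 / 2 + t2) • K.g i x - Matrix.vecMulVec g (star g) := by
    rw [e1]
    module
  rw [e2] at h6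
  have h7 := qv_nonneg h6 ξ
  rw [qv_sub, qv_smul, qv_vec] at h7
  have e3 : ‖∑ a, A.db i a (fun y => (f y : ℂ)) x * conj (ξ a)‖ = ‖∑ a, g a * ξ a‖ := by
    rw [← RCLike.norm_conj, map_sum]
    congr 1
    refine Finset.sum_congr rfl fun a _ => ?_
    rw [map_mul, Complex.conj_conj]
    congr 1
    have h8 := star_gr (u := fun z => f ((A.e i).symm z)) (z := A.e i x)
      (hfa.differentiableAt (by simp)) a
    have h9 : A.db i a (fun y => (f y : ℂ)) x = star g a := h8.symm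
    rw [h9, Pi.star_apply, RCLike.star_def, Complex.conj_conj]
  rw [e3]
  linarith

/-! ### the fixed cut-off -/

/-- the fixed cut-off -/
def cut0 : Cut (1 / 4) (1 / 2) := (exists_cut (by norm_num)).some

theorem exists_CJ : ∃ C : ℝ, 0 ≤ C ∧ ∀ d : ℝ, 0 < d → d ≤ 1 → ∀ t : ℝ, 0 ≤ t → ∀ x y : ℝ, 0 ≤ x →
    0 ≤ y → y ≤ t * x → 0 ≤ (C + cut0.lam1 d t) * x + cut0.lam2 d t * y :=
  cut0.exists_bound (by norm_num) (by norm_num)

/-- the absolute constant of the weights -/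
def CJ : ℝ := exists_CJ.choose

theorem CJ_nonneg : 0 ≤ CJ := exists_CJ.choose_spec.1

namespace TW

variable (D : TW A)

/-- the weight `χ(|w|²) log (|w|² + d²)` -/
def W (d : ℝ) : M → ℝ := wf D cut0 d

theorem W_psd {d : ℝ} (hd : 0 < d) (hd1 : d ≤ 1) {i : A.ι} {x : M} (hx : x ∈ (A.e i).source)
    (hU : x ∈ D.U) : (CJ • hsf A (sqw D.w) i x + hsf A (D.W d) i x).PosSemidef := by
  have ht := sqw_nonneg D.w x
  have hp : 0 < sqw D.w x + d ^ 2 := by positivity
  have e := hsf_gl D (φ := cut0.lam d) (φ' := cut0.lam1 d) (d2 := cut0.lam2 d (sqw D.w x)) hx hU ?_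
    (cut0.lam_d2 hp)
  · unfold W wf
    rw [e, ← add_assoc, ← add_smul]
    refine psd_comb (psd_sqw D hx hU) (Matrix.posSemidef_vecMulVec_self_star _)
      (psd_sqw' D hx hU) fun x' y' hx' hy' hxy => ?_
    exact exists_CJ.choose_spec.2 d hd hd1 _ ht x' y' hx' hy' hxy
  · have ho : IsOpen {s : ℝ | 0 < s + d ^ 2} := isOpen_lt continuous_const (by fun_prop)
    filter_upwards [ho.mem_nhds hp] with s hs
    exact cut0.lam_d1 hs

theorem W_low {d : ℝ} {x : M} (hx : x ∈ D.U) (h : sqw D.w x ≤ 1 / 4) :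
    D.W d x = Real.log (sqw D.w x + d ^ 2) := wf_low D cut0 hx h

theorem W_mono {d d' : ℝ} (hd : 0 < d) (hdd : d ≤ d') (x : M) : D.W d x ≤ D.W d' x := by
  by_cases hU : x ∈ D.U
  · unfold W
    rw [wf_mem D cut0 hU, wf_mem D cut0 hU]
    have ht := sqw_nonneg D.w x
    refine mul_le_mul_of_nonneg_left ?_ (cut0.nn _)
    refine Real.log_le_log (by positivity) ?_
    have := pow_le_pow_left₀ hd.le hdd 2
    linarith
  · unfold W wf
    rw [gl_off D hU, gl_off D hU]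

/-- an absolute upper bound of the weight -/
def CW : ℝ := max |Real.log (1 / 4)| |Real.log (1 / 2 + 1)|

theorem CW_nonneg : 0 ≤ CW := (abs_nonneg _).trans (le_max_left _ _)

variable [T2Space M]

theorem W_sm {d : ℝ} (hd : 0 < d) : A.Sm (D.W d) := wf_sm D cut0 (by norm_num) hd

theorem W_le {d : ℝ} (hd : 0 < d) (hd1 : d ≤ 1) (x : M) : D.W d x ≤ CW :=
  wf_le D cut0 (by norm_num) hd hd1 x

theorem W_off {d : ℝ} {x : M} (hx : ¬ (x ∈ D.U ∧ sqw D.w x ≤ 1)) : D.W d x = 0 :=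
  wf_off D cut0 (by norm_num) hx

/-- **the curvature of the weight** -/
theorem W_ge {K : Kah A} {κ : ℝ} (hκ0 : 0 ≤ κ) (hκ : ∀ i, ∀ x ∈ (A.e i).source, x ∈ D.U →
    sqw D.w x ≤ 1 → (κ • K.g i x - hsf A (sqw D.w) i x).PosSemidef) {d : ℝ} (hd : 0 < d)
    (hd1 : d ≤ 1) {i : A.ι} {x : M} (hx : x ∈ (A.e i).source) :
    (hsf A (D.W d) i x + (CJ * κ) • K.g i x).PosSemidef := by
  by_cases hU : x ∈ D.U ∧ sqw D.w x ≤ 1
  · have h1 := D.W_psd hd hd1 hx hU.1
    have h2 := psd_smul CJ_nonneg (hκ i x hx hU.1 hU.2)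
    have e : hsf A (D.W d) i x + (CJ * κ) • K.g i x =
        (CJ • hsf A (sqw D.w) i x + hsf A (D.W d) i x) +
        CJ • (κ • K.g i x - hsf A (sqw D.w) i x) := by
      module
    rw [e]
    exact h1.add h2
  · have e : hsf A (D.W d) i x = 0 := hsf_wf_off D cut0 (by norm_num) hx hU
    rw [e, zero_add]
    exact psd_smul (mul_nonneg CJ_nonneg hκ0) (K.pos i x hx).posSemidef

theorem sqw_cont : ContinuousOn (sqw D.w) D.U := by
  intro x hx
  obtain ⟨i, hi⟩ := A.cover x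
  have hz := mem_Ur D hi hx
  have h1 : ContinuousAt (FS_333.sq (wr D i)) (A.e i x) := (sq_contDiffAt D hz).continuousAt
  have h2 : ContinuousAt (fun y => FS_333.sq (wr D i) (A.e i y)) x :=
    ContinuousAt.comp (f := fun y => A.e i y) h1 ((A.e i).continuousAt hi)
  refine (h2.congr ?_).continuousWithinAt
  filter_upwards [(A.e i).open_source.mem_nhds hi] with y hy
  exact sq_at D hy

/-- the weight is bounded below away from the zero set of `w` -/
theorem exists_W_lower {S : Set M} (hS : IsClosed S)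
    (h0 : ∀ x ∈ S, x ∈ D.U → D.w x = 0 → False) :
    ∃ B : ℝ, ∀ d : ℝ, 0 < d → d ≤ 1 → ∀ x ∈ S, -B ≤ D.W d x := by
  have hc : IsCompact ({x | x ∈ D.U ∧ sqw D.w x ≤ 1} ∩ S) := D.cpt.inter_right hS
  obtain ⟨ε, hε, hεS⟩ : ∃ ε : ℝ, 0 < ε ∧ ∀ x ∈ {x | x ∈ D.U ∧ sqw D.w x ≤ 1} ∩ S,
      ε ≤ sqw D.w x := by
    rcases ({x | x ∈ D.U ∧ sqw D.w x ≤ 1} ∩ S).eq_empty_or_nonempty with h | h
    · exact ⟨1, one_pos, fun x hx => by rw [h] at hx; exact hx.elim⟩
    · obtain ⟨y, hy, hmin⟩ := hc.exists_isMinOn h (D.sqw_cont.mono fun x hx => hx.1.1)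
      refine ⟨sqw D.w y, ?_, fun x hx => hmin hx⟩
      refine lt_of_le_of_ne (sqw_nonneg _ _) fun h1 => h0 y hy.2 hy.1.1 ?_
      funext k
      have h2 := (Finset.sum_eq_zero_iff_of_nonneg fun a _ => sq_nonneg ‖D.w y a‖).1 h1.symm k
        (Finset.mem_univ k)
      simpa using h2
  refine ⟨|Real.log ε|, fun d hd hd1 x hx => ?_⟩
  by_cases hU : x ∈ D.U ∧ sqw D.w x ≤ 1
  · have h1 := hεS x ⟨hU, hx⟩
    unfold W
    rw [wf_mem D cut0 hU.1]
    have h2 : Real.log ε ≤ Real.log (sqw D.w x + d ^ 2) :=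
      Real.log_le_log hε (by nlinarith [sq_nonneg d])
    have h3 := neg_abs_le (Real.log ε)
    have h4 := cut0.nn (sqw D.w x)
    have h5 := cut0.le (sqw D.w x)
    have h6 := abs_nonneg (Real.log ε)
    show -|Real.log ε| ≤ cut0.f (sqw D.w x) * Real.log (sqw D.w x + d ^ 2)
    rcases le_or_gt 0 (Real.log (sqw D.w x + d ^ 2)) with h7 | h7
    · have := mul_nonneg h4 h7
      linarith
    · nlinarith
  · rw [D.W_off hU]
    have := abs_nonneg (Real.log ε)
    linarith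

/-- `|w|² ≤ C |z - z_p|²` near a zero `p` -/
theorem exists_lip {p : M} (hp : p ∈ D.U) (h0 : D.w p = 0) {i : A.ι}
    (hi : p ∈ (A.e i).source) : ∃ C : ℝ, 0 < C ∧ ∀ᶠ q in 𝓝 p, sqw D.w q ≤ C * dsq A p i q := by
  have hz := mem_Ur D hi hp
  have key : ∀ k : Fin D.r, ∃ C : ℝ, 0 < C ∧ ∀ᶠ q in 𝓝 p, ‖D.w q k‖ ^ 2 ≤ C * dsq A p i q := by
    intro k
    have hd : DifferentiableAt ℂ (fun z => wr D i z k) (A.e i p) :=
      (wr_hol D i k).differentiableAt ((isOpen_Ur D i).mem_nhds hz)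
    obtain ⟨C, hC⟩ := hd.isBigO_sub.bound
    refine ⟨C ^ 2 + 1, by positivity, ?_⟩
    filter_upwards [ev_chart hi hC, (A.e i).open_source.mem_nhds hi] with q hq hqs
    have h1 : wr D i (A.e i q) k = D.w q k := by
      show D.w ((A.e i).symm (A.e i q)) k = _
      rw [(A.e i).left_inv hqs]
    have h2 : wr D i (A.e i p) k = 0 := by
      show D.w ((A.e i).symm (A.e i p)) k = _
      rw [(A.e i).left_inv hi, h0, Pi.zero_apply]
    rw [h1, h2, sub_zero] at hq
    have h3 : ‖A.e i q - A.e i p‖ ^ 2 = dsq A p i q := by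
      rw [EuclideanSpace.norm_sq_eq]
      rfl
    have h4 : ‖D.w q k‖ ^ 2 ≤ (C * ‖A.e i q - A.e i p‖) ^ 2 :=
      pow_le_pow_left₀ (norm_nonneg _) hq 2
    rw [mul_pow, h3] at h4
    have h5 : 0 ≤ dsq A p i q := by rw [← h3]; positivity
    linarith
  choose C hC hCe using key
  refine ⟨(∑ k, C k) + 1, by
    have := Finset.sum_nonneg fun k (_ : k ∈ Finset.univ) => (hC k).le
    linarith, ?_⟩
  filter_upwards [eventually_all.2 hCe] with q hq
  have h5 : 0 ≤ dsq A p i q := Finset.sum_nonneg fun _ _ => sq_nonneg _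
  calc sqw D.w q ≤ ∑ k, C k * dsq A p i q := Finset.sum_le_sum fun k _ => hq k
    _ = (∑ k, C k) * dsq A p i q := by rw [Finset.sum_mul]
    _ ≤ _ := by nlinarith

end TW

end

end Crest.Agent.R281.Js_578
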