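import Crest.Agent.R281.Js1_578
import Crest.Agent.R272.Kod5_410

/-!
# R281, JETS (2) SECTIONS (helper578), part 5: order of vanishing from weighted norms

* `lowerJ` : `∫_{B(ζ_p,s)} |y|² ≤ c⁻¹ (C1 n s² + e)^m ‖y‖²_h` for `h ≥ c2 hb (C1|z-z_p|²+e)^{-m}`;
* `vanJ`   : `‖y‖_{h_d} ≤ D` for all `d ∈ (0,1]`, weights `≥ c2 hb (C1|z-z_p|²+d²)^{-(n+k)}`
  near `p`, `y` holomorphic near `p` ⟹ `|y(z)| ≤ C |z-z_p|^k`.
-/

set_option autoImplicit false
set_option linter.unusedSectionVars false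

open Set Filter Topology Complex MeasureTheory Metric
open scoped ContDiff Matrix ComplexConjugate Kronecker ComplexOrder ENNReal

namespace Crest.Agent.R281.Js_578

open Crest.Agent.R275 Crest.Agent.R275.Geo Crest.Agent.R275.Core144 Crest.Agent.R275.Dg199
open Crest.Agent.R275.C1d194 Crest.Agent.R275.Pai323
open Crest.Agent.R275.SerG398 (lint dens)
open Crest.Agent.R273.Defs_333 Crest.Agent.R273.HM_333 Crest.Agent.R273.Kah_333
open Crest.Agent.R273.Fock_243 Crest.Agent.R273.Pos_243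
open Crest.Agent.R273.LamN127 Crest.Agent.R273.NormC_505 Crest.Agent.R273.DnInt_505
open Crest.Agent.R273.DVec_733 Crest.Agent.R273.DMet_733 Crest.Agent.R273.Mol_106
open Crest.Agent.R273.HDN_505 (HB HB_pos)
open Crest.Agent.R273.Lim_505
open Crest.Agent.R273.SteinM_794 (kap kap_eq mp_kap me_kap)
open Crest.Agent.R272.Kod2_410 Crest.Agent.R272.Kod5_410
open Crest.Agent.R272.Kod3_410 (dsq dsq_nonneg)

noncomputable section

variable {n : ℕ} {M : Type} [TopologicalSpace M] {A : Atl n M} {N : LB A}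
variable [T2Space M] [CompactSpace M] [Finite A.ι] (P : Part A) (K : Kah A)
  (hb : HM ((KB A)⁻¹ * N)) {p : M} {i0 : A.ι}

theorem lowerJ (hp : p ∈ (A.e i0).source) {W' : Set M} (hW' : IsOpen W') (hpW' : p ∈ W') :
    ∃ r c : ℝ, 0 < r ∧ 0 < c ∧
      (∀ ζ ∈ closedBall (WithLp.ofLp (A.e i0 p)) r, WithLp.toLp 2 ζ ∈ (A.e i0).target ∧
        (A.e i0).symm (WithLp.toLp 2 ζ) ∈ W') ∧
      ∀ (m : ℕ) (C1 c2 e : ℝ), 0 ≤ C1 → 0 < c2 → 0 < e → ∀ h : HM ((KB A)⁻¹ * N),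
        (∀ q ∈ W', q ∈ (A.e i0).source →
          c2 * hb.w i0 q * ((C1 * dsq A p i0 q + e) ^ m)⁻¹ ≤ h.w i0 q) →
        ∀ s : ℝ, 0 < s → s ≤ r →
        ∀ y : Sec (BN N), ∫⁻ ζ in closedBall (WithLp.ofLp (A.e i0 p)) s, ‖Yf i0 y.1 ζ‖ₑ ^ 2 ≤
          ENNReal.ofReal ((c2 * c)⁻¹ * (C1 * (n * s ^ 2) + e) ^ m * (HB K h).sn P y ^ 2) := by
  obtain ⟨χ, hχ, hχ1, hχs, hχc, hχ0, hχ2⟩ := exists_bump A ((A.e i0).open_source.mem_nhds hp)
  have hwp := hb.pos i0 p hp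
  have hwc : ContinuousAt (hb.w i0) p :=
    (Dg199.SmAt.smN (hb.sm i0) hp).continuousAt
  have ev : ∀ᶠ q in 𝓝 p, χ q = 1 ∧ q ∈ W' ∧ hb.w i0 p / 2 < hb.w i0 q := by
    refine hχ1.and ((hW'.eventually_mem hpW').and ?_)
    exact hwc.eventually (lt_mem_nhds (by linarith))
  have ev2 : ∀ᶠ ζ in 𝓝 (WithLp.ofLp (A.e i0 p)), WithLp.toLp 2 ζ ∈ (A.e i0).target ∧
      (χ ((A.e i0).symm (WithLp.toLp 2 ζ)) = 1 ∧ (A.e i0).symm (WithLp.toLp 2 ζ) ∈ W' ∧
        hb.w i0 p / 2 < hb.w i0 ((A.e i0).symm (WithLp.toLp 2 ζ))) := by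
    have h1 : Tendsto (fun ζ : Fin n → ℂ => (WithLp.toLp 2 ζ : Cn n))
        (𝓝 (WithLp.ofLp (A.e i0 p))) (𝓝 (A.e i0 p)) := by
      have := (PiLp.continuous_toLp 2 (fun _ : Fin n => ℂ)).continuousAt
        (x := WithLp.ofLp (A.e i0 p))
      exact this
    exact h1.eventually (((A.e i0).open_target.eventually_mem ((A.e i0).map_source hp)).and
      (ev_symm hp ev))
  obtain ⟨r, hr, hrb⟩ := Metric.eventually_nhds_iff_ball.1 ev2
  have hcb : closedBall (WithLp.ofLp (A.e i0 p)) (r / 2) ⊆ ball (WithLp.ofLp (A.e i0 p)) r :=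
    closedBall_subset_ball (by linarith)
  refine ⟨r / 2, hb.w i0 p / 2, by positivity, by positivity, fun ζ hζ =>
    ⟨(hrb ζ (hcb hζ)).1, (hrb ζ (hcb hζ)).2.2.1⟩, ?_⟩
  intro m C1 c2 e hC1 hc2 he h hw s hs hsr y
  set c : ℝ := hb.w i0 p / 2 with hc
  have hc0 : 0 < c := by positivity
  have hsub : closedBall (WithLp.ofLp (A.e i0 p)) s ⊆ ball (WithLp.ofLp (A.e i0 p)) r :=
    (closedBall_subset_closedBall hsr).trans hcb
  -- the localised density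
  have hdn : IsDn A ((HB K h).hd y.1 y.1) := (HB K h).isDn y.2 y.2
  have hχC : A.Sm (fun x => (χ x : ℂ)) := sm_iff.2 fun q => (hχ q).ofReal
  have hf : IsDn A (fun i x => (χ x : ℂ) * (HB K h).hd y.1 y.1 i x) := hdn.fmul hχC
  have hnn : ∀ i, ∀ x ∈ (A.e i).source, 0 ≤ ((HB K h).hd y.1 y.1 i x).re := fun i x hx =>
    (Complex.le_def.1 ((HB K h).hd_self_nonneg y.1 hx)).1
  have hmono : (IntP P (fun i x => (χ x : ℂ) * (HB K h).hd y.1 y.1 i x)).re ≤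
      (HB K h).sn P y ^ 2 := by
    rw [HDen.sn_sq]
    refine IntP_re_mono P hf hdn fun i x hx => ?_
    rw [Complex.re_ofReal_mul]
    have := mul_le_mul_of_nonneg_right (hχ2 x) (hnn i x hx)
    linarith
  have hz0 : ∀ i, ∀ x ∈ (A.e i).source, x ∉ tsupport χ →
      (χ x : ℂ) * (HB K h).hd y.1 y.1 i x = 0 := fun i x _ hx => by
    rw [image_eq_zero_of_notMem_tsupport hx, Complex.ofReal_zero, zero_mul]
  rw [IntP_loc P hf hχc hχs hz0] at hmono
  have hcc : CC A i0 (fun x => (χ x : ℂ) * (HB K h).hd y.1 y.1 i0 x) :=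
    CC.of_zero_off (hf.sm i0) hχc hχs fun x hx => by
      rw [image_eq_zero_of_notMem_tsupport hx, Complex.ofReal_zero, zero_mul]
  rw [lint_re i0 hcc.integrable] at hmono
  set G : (RI n → ℝ) → ℂ := rd A i0 (fun x => (χ x : ℂ) * (HB K h).hd y.1 y.1 i0 x) with hG
  have hGnn : ∀ x, 0 ≤ (G x).re := by
    intro x
    by_cases hx : x ∈ Ui A i0
    · rw [hG, C1d194.rd_of_mem hx, Complex.re_ofReal_mul]
      exact mul_nonneg (hχ0 _) (hnn i0 _ ((A.e i0).map_target hx))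
    · rw [hG, C1d194.rd_off hx]
      simp
  have hGint : Integrable (fun x => (G x).re) := hcc.integrable.re
  have h1 : ENNReal.ofReal (∫ x, (G x).re) = ∫⁻ x, ENNReal.ofReal (G x).re :=
    ofReal_integral_eq_lintegral_ofReal hGint (Eventually.of_forall hGnn)
  set D : ℝ := (c2 * c) * ((C1 * (n * s ^ 2) + e) ^ m)⁻¹ with hD
  have hse : 0 < C1 * (n * s ^ 2) + e := by positivity
  have hD0 : 0 < D := by positivity
  have h2 : ENNReal.ofReal D * ∫⁻ ζ in closedBall (WithLp.ofLp (A.e i0 p)) s,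
      ‖Yf i0 y.1 ζ‖ₑ ^ 2 ≤ ENNReal.ofReal (∫ x, (G x).re) := by
    rw [h1, ← lintegral_const_mul' _ _ ENNReal.ofReal_ne_top,
      ← (mp_kap n).setLIntegral_comp_preimage_emb (me_kap n)]
    refine (setLIntegral_mono' ?_ fun x hx => ?_).trans (setLIntegral_le_lintegral _ _)
    · exact (mp_kap n).measurable measurableSet_closedBall
    · have hx' : kap x ∈ closedBall (WithLp.ofLp (A.e i0 p)) s := hx
      obtain ⟨hxt, hx1, hx2, hx4⟩ := hrb (kap x) (hsub hx')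
      have hcx : (WithLp.toLp 2 (kap x) : Cn n) = cc x := by
        rw [kap_eq]
      rw [hcx] at hxt hx1 hx2 hx4
      have hxU : x ∈ Ui A i0 := hxt
      rw [hG, C1d194.rd_of_mem hxU, Complex.re_ofReal_mul, hx1, one_mul]
      have hsrc := (A.e i0).map_target hxt
      have h3 := hd_zero_le K h y.1 hsrc
      have hθ : dsq A p i0 ((A.e i0).symm (cc x)) ≤ n * s ^ 2 := by
        unfold dsq
        rw [(A.e i0).right_inv hxt]
        have h4 : ∀ a : Fin n, ‖cc x a - A.e i0 p a‖ ^ 2 ≤ s ^ 2 := by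
          intro a
          have h5 : ‖kap x a - (WithLp.ofLp (A.e i0 p)) a‖ ≤ s := by
            have h6 : ‖kap x - WithLp.ofLp (A.e i0 p)‖ ≤ s := by
              rw [← dist_eq_norm]; exact mem_closedBall.1 hx'
            exact (norm_le_pi_norm (kap x - WithLp.ofLp (A.e i0 p)) a).trans h6
          exact pow_le_pow_left₀ (norm_nonneg _) h5 2
        refine (Finset.sum_le_sum fun a _ => h4 a).trans ?_
        rw [Finset.sum_const, Finset.card_univ, Fintype.card_fin, nsmul_eq_mul]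
      have hθ0 := dsq_nonneg (A := A) p i0 ((A.e i0).symm (cc x))
      have h7 : D ≤ h.w i0 ((A.e i0).symm (cc x)) := by
        refine le_trans ?_ (hw _ hx2 hsrc)
        rw [hD]
        refine mul_le_mul (mul_le_mul_of_nonneg_left hx4.le hc2.le) ?_ (by positivity)
          (mul_nonneg hc2.le (le_trans (by positivity) hx4.le))
        refine inv_anti₀ (by positivity) ?_
        refine pow_le_pow_left₀ (by positivity) ?_ m
        have := mul_le_mul_of_nonneg_left hθ hC1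
        linarith
      have h8 : ‖Yf i0 y.1 (kap x)‖ₑ ^ 2 =
          ENNReal.ofReal (‖oB (y.1 i0 ((A.e i0).symm (cc x))) ∅‖ ^ 2) := by
        rw [← hcx, ENNReal.ofReal_pow (norm_nonneg _), ofReal_norm]
        rfl
      rw [h8, ← ENNReal.ofReal_mul hD0.le]
      refine ENNReal.ofReal_le_ofReal (le_trans ?_ h3)
      exact mul_le_mul_of_nonneg_right h7 (sq_nonneg _)
  have h3 : ENNReal.ofReal D * ∫⁻ ζ in closedBall (WithLp.ofLp (A.e i0 p)) s,
      ‖Yf i0 y.1 ζ‖ₑ ^ 2 ≤ ENNReal.ofReal ((HB K h).sn P y ^ 2) :=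
    h2.trans (ENNReal.ofReal_le_ofReal hmono)
  have h4 : ∫⁻ ζ in closedBall (WithLp.ofLp (A.e i0 p)) s, ‖Yf i0 y.1 ζ‖ₑ ^ 2 =
      ENNReal.ofReal D⁻¹ * (ENNReal.ofReal D *
        ∫⁻ ζ in closedBall (WithLp.ofLp (A.e i0 p)) s, ‖Yf i0 y.1 ζ‖ₑ ^ 2) := by
    rw [← mul_assoc, ← ENNReal.ofReal_mul (by positivity), inv_mul_cancel₀ hD0.ne',
      ENNReal.ofReal_one, one_mul]
  rw [h4]
  refine (mul_le_mul_right h3 _).trans ?_
  rw [← ENNReal.ofReal_mul (by positivity)]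
  refine ENNReal.ofReal_le_ofReal (le_of_eq ?_)
  rw [hD, _root_.mul_inv, inv_inv]

/-- **order of vanishing from weighted norms** -/
theorem vanJ (hp : p ∈ (A.e i0).source) {W' : Set M} (hW' : IsOpen W') (hpW' : p ∈ W') {k : ℕ}
    {C1 c2 D : ℝ} (hC1 : 0 ≤ C1) (hc2 : 0 < c2) (H : ℝ → HM ((KB A)⁻¹ * N))
    (hw : ∀ d : ℝ, 0 < d → d ≤ 1 → ∀ q ∈ W', q ∈ (A.e i0).source →
      c2 * hb.w i0 q * ((C1 * dsq A p i0 q + d ^ 2) ^ (n + k))⁻¹ ≤ (H d).w i0 q)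
    (y : Sec (BN N)) (hD : ∀ d : ℝ, 0 < d → d ≤ 1 → (HB K (H d)).sn P y ^ 2 ≤ D)
    (hol : DifferentiableOn ℂ (Yf i0 y.1) {ζ | WithLp.toLp 2 ζ ∈ (A.e i0).target ∧
      (A.e i0).symm (WithLp.toLp 2 ζ) ∈ W'}) :
    ∃ C : ℝ, 0 ≤ C ∧ ∀ᶠ ζ in 𝓝 (WithLp.ofLp (A.e i0 p)),
      ‖Yf i0 y.1 ζ‖ ≤ C * ‖ζ - WithLp.ofLp (A.e i0 p)‖ ^ k := by
  obtain ⟨r, c, hr, hc, hrW, hlow⟩ := lowerJ P K hb hp hW' hpW'
  have hcont : Continuous (fun ζ : Fin n → ℂ => (WithLp.toLp 2 ζ : Cn n)) :=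
    PiLp.continuous_toLp 2 (fun _ : Fin n => ℂ)
  set DD : Set (Fin n → ℂ) := {ζ | WithLp.toLp 2 ζ ∈ (A.e i0).target ∧
    (A.e i0).symm (WithLp.toLp 2 ζ) ∈ W'} with hDD
  have hDDo : IsOpen DD := (isOpen_ti (A := A) (i := i0) hW').preimage hcont
  have hD0 : 0 ≤ D := (sq_nonneg _).trans (hD 1 one_pos le_rfl)
  set r' : ℝ := min r 1 with hr'
  have hr'0 : 0 < r' := lt_min hr one_pos
  obtain ⟨C, hC0, hC⟩ := van (k := k) (r := r') (B := (c2 * c)⁻¹ * (C1 * n + 1) ^ (n + k) * D)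
    hDDo hol hr'0
    (fun ζ hζ => hrW ζ (closedBall_subset_closedBall (min_le_left _ _) hζ)) (by positivity)
    (fun s hs hsr => by
      refine (hlow (n + k) C1 c2 (s ^ 2) hC1 hc2 (by positivity) (H s)
        (hw s hs (hsr.trans (min_le_right _ _))) s hs (hsr.trans (min_le_left _ _)) y).trans
        (ENNReal.ofReal_le_ofReal ?_)
      have h1 := hD s hs (hsr.trans (min_le_right _ _))
      have h2 : C1 * (n * s ^ 2) + s ^ 2 = (C1 * n + 1) * s ^ 2 := by ring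
      rw [h2, mul_pow, ← pow_mul]
      calc (c2 * c)⁻¹ * ((C1 * n + 1) ^ (n + k) * s ^ (2 * (n + k))) * (HB K (H s)).sn P y ^ 2
          ≤ (c2 * c)⁻¹ * ((C1 * n + 1) ^ (n + k) * s ^ (2 * (n + k))) * D :=
            mul_le_mul_of_nonneg_left h1 (by positivity)
        _ = _ := by ring)
  refine ⟨C, hC0, ?_⟩
  filter_upwards [closedBall_mem_nhds (WithLp.ofLp (A.e i0 p)) (half_pos hr'0)] with ζ hζ
  exact hC ζ hζ

end

end Crest.Agent.R281.Js_578
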