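import Crest.Agent.R281.Js2_578
import Crest.Agent.R281.Js4_578
import Crest.Agent.R272.Kod6_410

/-!
# R281, JETS (2) SECTIONS (helper578), part 6: the cut off section and the metrics

* `cutdata` : near a point `x'`: a smooth section `y0`, holomorphic and nonzero near `x'`,
  supported in a given neighbourhood, `|∂̄ y0|² ≤ |y1|² K`, `y1` supported away from `x'`;
* `Hm`, `Hm_w`, `cur_Hm_ge` : the metrics `h0 e^{-m1 W1 - m2 W2}`.
-/

set_option autoImplicit false
set_option linter.unusedSectionVars false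

open Set Filter Topology Complex
open scoped ContDiff Matrix ComplexConjugate Kronecker ComplexOrder

namespace Crest.Agent.R281.Js_578

open Crest.Agent.R275 Crest.Agent.R275.Geo Crest.Agent.R275.Core144 Crest.Agent.R275.Dg199
open Crest.Agent.R273.Defs_333 Crest.Agent.R273.Kah_333
open Crest.Agent.R273.Hess_333 Crest.Agent.R273.HessB_333
open Crest.Agent.R273.SerA_945 Crest.Agent.R273.SerB_945
open Crest.Agent.R272.Kod6_410 (cutC cutC_eq cutC_off smS_cutC)
open Crest.Agent.R281.LEnd_10 (sqw)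
open Crest.Agent.R281.End_946 (psd_smul coe_smul')

noncomputable section

variable {n : ℕ} {M : Type} [TopologicalSpace M] {A : Atl n M}

theorem smN_real {f : M → ℝ} (hf : ∀ q, SmN A f q) (q : M) : SmN A (fun x => (f x : ℂ)) q :=
  (hf q).ofReal

theorem tsupport_ofReal (f : M → ℝ) : tsupport (fun x => (f x : ℂ)) = tsupport f := by
  unfold tsupport
  congr 1
  ext x
  simp

variable [T2Space M] [CompactSpace M]

/-- **the cut off section** -/
theorem cutdata (K : Kah A) (N : LB A) {x' : M} {V : Set M} (hV : IsOpen V) (hx'V : x' ∈ V) :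
    ∃ (y0 y1 : Fn A) (S0 S1 W : Set M), SmS N y0 ∧ (∀ i, ∀ x ∉ (A.e i).source, y0 i x = 0) ∧
      SmS N y1 ∧ (∀ i, ∀ x ∉ (A.e i).source, y1 i x = 0) ∧
      IsClosed S0 ∧ S0 ⊆ V ∧ (∀ i, ∀ x ∉ S0, y0 i x = 0) ∧
      IsClosed S1 ∧ S1 ⊆ V ∧ x' ∉ S1 ∧ (∀ i, ∀ x ∉ S1, y1 i x = 0) ∧
      IsOpen W ∧ x' ∈ W ∧ (∀ i, HolAt A i W (y0 i)) ∧
      (∀ i, x' ∈ (A.e i).source → y0 i x' ≠ 0) ∧
      ∀ i, ∀ x ∈ (A.e i).source, ∀ ξ : Fin n → ℂ,
        ‖∑ a, A.db i a (y0 i) x * conj (ξ a)‖ ^ 2 ≤ ‖y1 i x‖ ^ 2 * qv (K.g i x) ξ := by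
  obtain ⟨i', hi'⟩ := A.cover x'
  -- three bumps
  have hV1 : V ∩ (A.e i').source ∈ 𝓝 x' :=
    inter_mem (hV.mem_nhds hx'V) ((A.e i').open_source.mem_nhds hi')
  obtain ⟨χ₃, h3, h31, h3s, h3c, h30, h32⟩ := exists_bump A hV1
  obtain ⟨W3, hW3, hW3o, hxW3⟩ := eventually_nhds_iff.1 h31
  obtain ⟨χ, hχ, hχ1, hχs, hχc, hχ0, hχ2⟩ := exists_bump A (hW3o.mem_nhds hxW3)
  obtain ⟨W, hW, hWo, hxW⟩ := eventually_nhds_iff.1 hχ1
  obtain ⟨χ₄, h4, h41, h4s, h4c, h40, h42⟩ := exists_bump A (hWo.mem_nhds hxW)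
  obtain ⟨W4, hW4, hW4o, hxW4⟩ := eventually_nhds_iff.1 h41
  have hχsm : A.Sm χ := sm_iff.2 hχ
  obtain ⟨C, hC0, hC⟩ := exists_grad K hχsm hχ0 hχ2
  have hχV : tsupport χ ⊆ V ∩ (A.e i').source := by
    intro y hy
    have h5 := hW3 y (hχs hy)
    exact h3s (subset_tsupport _ (by rw [Function.mem_support, h5]; exact one_ne_zero))
  set ψ : M → ℝ := fun x => Real.sqrt C * (χ₃ x * (1 - χ₄ x)) with hψ
  have hψs : ∀ q, SmN A ψ q := fun q => by
    have h5 := ((smN_const (A := A) (1 : ℝ) q).sub (h4 q))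
    exact (smN_const (A := A) (Real.sqrt C) q).smul ((h3 q).smul h5)
  have hψt : tsupport ψ ⊆ tsupport χ₃ := by
    refine closure_minimal ?_ (isClosed_tsupport _)
    intro y hy
    refine subset_tsupport _ ?_
    rw [Function.mem_support] at hy ⊢
    intro h5
    exact hy (by rw [hψ]; simp only [h5, zero_mul, mul_zero])
  have hψ4 : ∀ y ∈ W4, ψ y = 0 := fun y hy => by
    rw [hψ]
    simp only [hW4 y hy, sub_self, mul_zero]
  refine ⟨cutC N (fun x => (χ x : ℂ)) i', cutC N (fun x => (ψ x : ℂ)) i', tsupport χ,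
    tsupport χ₃ \ W4, W ∩ (A.e i').source, ?_, cutC_off N _ i', ?_, cutC_off N _ i',
    isClosed_tsupport _, hχV.trans inter_subset_left, ?_, (isClosed_tsupport _).sdiff hW4o,
    (sdiff_subset.trans h3s).trans inter_subset_left, fun h => h.2 hxW4, ?_,
    hWo.inter (A.e i').open_source, ⟨hxW, hi'⟩, ?_, ?_, ?_⟩
  · refine smS_cutC N (smN_real hχ) ?_
    rw [tsupport_ofReal]
    exact hχV.trans inter_subset_right
  · refine smS_cutC N (smN_real hψs) ?_
    rw [tsupport_ofReal]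
    exact (hψt.trans h3s).trans inter_subset_right
  · intro i x hx
    by_cases hxs : x ∈ (A.e i).source
    · rw [cutC_eq N _ hxs, image_eq_zero_of_notMem_tsupport hx, Complex.ofReal_zero, zero_mul]
    · exact cutC_off N _ i' i x hxs
  · intro i x hx
    by_cases hxs : x ∈ (A.e i).source
    · rw [cutC_eq N _ hxs]
      have : ψ x = 0 := by
        by_cases h5 : x ∈ W4
        · exact hψ4 x h5
        · exact image_eq_zero_of_notMem_tsupport fun h6 => hx ⟨hψt h6, h5⟩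
      rw [this, Complex.ofReal_zero, zero_mul]
    · exact cutC_off N _ i' i x hxs
  · intro i
    refine ((N.hol i i').mono inter_subset_right).congr fun x hx hxW => ?_
    rw [cutC_eq N _ hx, hW x hxW.1, Complex.ofReal_one, one_mul]
  · intro i hi
    rw [cutC_eq N _ hi, hW x' hxW, Complex.ofReal_one, one_mul]
    exact N.ne_zero i i' x'
  · intro i x hx ξ
    have hK := qv_nonneg (K.pos i x hx).posSemidef ξ
    have hR : 0 ≤ ‖cutC N (fun x => (ψ x : ℂ)) i' i x‖ ^ 2 * qv (K.g i x) ξ :=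
      mul_nonneg (sq_nonneg _) hK
    by_cases hxχ : x ∈ tsupport χ
    · have hx' : x ∈ (A.e i').source := (hχV hxχ).2
      have hd1 : DifferentiableAt ℝ (fun z => ((χ ((A.e i).symm z) : ℝ) : ℂ)) (A.e i x) :=
        ((smN_iff hx).1 (smN_real hχ x)).differentiableAt (by simp)
      have hd2 : DifferentiableAt ℝ (fun z => N.g i i' ((A.e i).symm z)) (A.e i x) :=
        ((N.hol i i').diffAt (A.e i').open_source hx hx').restrictScalars ℝ
      have e1 : ∀ a, A.db i a (cutC N (fun x => (χ x : ℂ)) i' i) x =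
          A.db i a (fun x => (χ x : ℂ)) x * N.g i i' x := by
        intro a
        have e2 : A.db i a (cutC N (fun x => (χ x : ℂ)) i' i) x =
            A.db i a (fun y => (χ y : ℂ) * N.g i i' y) x := by
          unfold Atl.db
          have e3 : (fun z => cutC N (fun x => (χ x : ℂ)) i' i ((A.e i).symm z)) =ᶠ[𝓝 (A.e i x)]
              fun z => (χ ((A.e i).symm z) : ℂ) * N.g i i' ((A.e i).symm z) := by
            filter_upwards [(A.e i).open_target.mem_nhds ((A.e i).map_source hx)] with z hz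
            exact cutC_eq N _ ((A.e i).map_target hz)
          unfold dbj
          rw [e3.fderiv_eq]
        rw [e2, db_mul hd1 hd2 hx, (N.hol i i').db_zero (A.e i').open_source hx hx' a, mul_zero,
          add_zero]
      have e4 : ∑ a, A.db i a (cutC N (fun x => (χ x : ℂ)) i' i) x * conj (ξ a) =
          N.g i i' x * ∑ a, A.db i a (fun x => (χ x : ℂ)) x * conj (ξ a) := by
        rw [Finset.mul_sum]
        refine Finset.sum_congr rfl fun a _ => ?_
        rw [e1 a]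
        ring
      rw [e4, norm_mul, mul_pow]
      by_cases hxW : x ∈ W
      · have e5 : ∀ a, A.db i a (fun x => (χ x : ℂ)) x = 0 := by
          intro a
          unfold Atl.db dbj
          have e6 : (fun z => ((χ ((A.e i).symm z) : ℝ) : ℂ)) =ᶠ[𝓝 (A.e i x)] fun _ => 1 := by
            filter_upwards [ev_symm hx (hWo.eventually_mem hxW)] with z hz
            rw [hW _ hz, Complex.ofReal_one]
          rw [e6.fderiv_eq]
          simp
        have e7 : ∑ a, A.db i a (fun x => (χ x : ℂ)) x * conj (ξ a) = 0 :=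
          Finset.sum_eq_zero fun a _ => by rw [e5 a, zero_mul]
        rw [e7, norm_zero, zero_pow two_ne_zero, mul_zero]
        exact hR
      · have h5 : ψ x = Real.sqrt C := by
          have h6 : χ₃ x = 1 := hW3 x (hχs hxχ)
          have h7 : χ₄ x = 0 := image_eq_zero_of_notMem_tsupport fun h => hxW (h4s h)
          rw [hψ]
          simp only [h6, h7, sub_zero, mul_one]
        rw [cutC_eq N _ hx, h5, norm_mul, mul_pow, Complex.norm_real, Real.norm_eq_abs, sq_abs,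
          Real.sq_sqrt hC0]
        have h8 := mul_le_mul_of_nonneg_left (hC i x hx ξ) (sq_nonneg ‖N.g i i' x‖)
        linarith
    · have e5 : ∀ a, A.db i a (cutC N (fun x => (χ x : ℂ)) i' i) x = 0 := by
        intro a
        unfold Atl.db dbj
        have e6 : (fun z => cutC N (fun x => (χ x : ℂ)) i' i ((A.e i).symm z)) =ᶠ[𝓝 (A.e i x)]
            fun _ => 0 := by
          filter_upwards [ev_symm hx ((isClosed_tsupport χ).isOpen_compl.eventually_mem hxχ),
            (A.e i).open_target.mem_nhds ((A.e i).map_source hx)] with z hz hz'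
          rw [cutC_eq N _ ((A.e i).map_target hz'), image_eq_zero_of_notMem_tsupport hz,
            Complex.ofReal_zero, zero_mul]
        rw [e6.fderiv_eq]
        simp
      have e7 : ∑ a, A.db i a (cutC N (fun x => (χ x : ℂ)) i' i) x * conj (ξ a) = 0 :=
        Finset.sum_eq_zero fun a _ => by rw [e5 a, zero_mul]
      rw [e7, norm_zero, zero_pow two_ne_zero]
      exact hR

/-! ### the metrics -/

section metrics

variable (D1 D2 : TW A) (m1 m2 : ℕ)

/-- the total weight -/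
def wsum (d : ℝ) (x : M) : ℝ := m1 * D1.W d x + m2 * D2.W d x

theorem wsum_sm {d : ℝ} (hd : 0 < d) : A.Sm (wsum D1 D2 m1 m2 d) := fun i =>
  (contDiffOn_const.mul (D1.W_sm hd i)).add (contDiffOn_const.mul (D2.W_sm hd i))

theorem hsf_wsum {d : ℝ} (hd : 0 < d) {i : A.ι} {x : M} (hx : x ∈ (A.e i).source) :
    hsf A (wsum D1 D2 m1 m2 d) i x =
      (m1 : ℝ) • hsf A (D1.W d) i x + (m2 : ℝ) • hsf A (D2.W d) i x := by
  have hz := (A.e i).map_source hx
  have h1 := sm_contDiffAt (D1.W_sm hd) i hz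
  have h2 := sm_contDiffAt (D2.W_sm hd) i hz
  unfold hsf
  have e : (fun z => wsum D1 D2 m1 m2 d ((A.e i).symm z)) = fun z =>
      (fun z => (m1 : ℝ) * D1.W d ((A.e i).symm z)) z +
      (fun z => (m2 : ℝ) * D2.W d ((A.e i).symm z)) z := rfl
  rw [e, hess_add (contDiffAt_const.mul h1) (contDiffAt_const.mul h2), hess_const_mul _ h1,
    hess_const_mul _ h2, coe_smul', coe_smul']

theorem wsum_mono {d d' : ℝ} (hd : 0 < d) (hdd : d ≤ d') (x : M) :
    wsum D1 D2 m1 m2 d x ≤ wsum D1 D2 m1 m2 d' x :=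
  add_le_add (mul_le_mul_of_nonneg_left (D1.W_mono hd hdd x) (Nat.cast_nonneg _))
    (mul_le_mul_of_nonneg_left (D2.W_mono hd hdd x) (Nat.cast_nonneg _))

variable {N : LB A} (h0 : HM N)

open Classical in
/-- the metric `h0 e^{-wsum}` -/
def Hm (d : ℝ) : HM N :=
  if hd : 0 < d then R273.HM_333.tw h0 (wsum D1 D2 m1 m2 d) (wsum_sm D1 D2 m1 m2 hd) else h0

theorem Hm_w {d : ℝ} (hd : 0 < d) (i : A.ι) (x : M) :
    (Hm D1 D2 m1 m2 h0 d).w i x = h0.w i x * Real.exp (-wsum D1 D2 m1 m2 d x) := by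
  unfold Hm
  rw [dif_pos hd]
  rfl

theorem cur_Hm {d : ℝ} (hd : 0 < d) {i : A.ι} {x : M} (hx : x ∈ (A.e i).source) :
    cur (Hm D1 D2 m1 m2 h0 d) i x = cur h0 i x +
      ((m1 : ℝ) • hsf A (D1.W d) i x + (m2 : ℝ) • hsf A (D2.W d) i x) := by
  unfold Hm
  rw [dif_pos hd, cur_tw _ _ i hx, hsf_wsum D1 D2 m1 m2 hd hx]

/-- **the curvature** -/
theorem cur_Hm_ge {K : Kah A} {κ1 κ2 : ℝ} (hκ10 : 0 ≤ κ1) (hκ20 : 0 ≤ κ2)
    (hκ1 : ∀ i, ∀ x ∈ (A.e i).source, x ∈ D1.U →
      sqw D1.w x ≤ 1 → (κ1 • K.g i x - hsf A (sqw D1.w) i x).PosSemidef)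
    (hκ2 : ∀ i, ∀ x ∈ (A.e i).source, x ∈ D2.U →
      sqw D2.w x ≤ 1 → (κ2 • K.g i x - hsf A (sqw D2.w) i x).PosSemidef)
    (hcur : ∀ i, ∀ x ∈ (A.e i).source,
      (cur h0 i x - (m1 * (CJ * κ1) + m2 * (CJ * κ2) + 1) • K.g i x).PosSemidef)
    {d : ℝ} (hd : 0 < d) (hd1 : d ≤ 1) {i : A.ι} {x : M} (hx : x ∈ (A.e i).source) :
    (cur (Hm D1 D2 m1 m2 h0 d) i x - K.g i x).PosSemidef := by
  have e1 := psd_smul (Nat.cast_nonneg m1) (D1.W_ge hκ10 hκ1 hd hd1 hx)
  have e2 := psd_smul (Nat.cast_nonneg m2) (D2.W_ge hκ20 hκ2 hd hd1 hx)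
  have e3 := ((hcur i x hx).add e1).add e2
  have e4 : cur (Hm D1 D2 m1 m2 h0 d) i x - K.g i x =
      (cur h0 i x - (m1 * (CJ * κ1) + m2 * (CJ * κ2) + 1) • K.g i x) +
      (m1 : ℝ) • (hsf A (D1.W d) i x + (CJ * κ1) • K.g i x) +
      (m2 : ℝ) • (hsf A (D2.W d) i x + (CJ * κ2) • K.g i x) := by
    rw [cur_Hm D1 D2 m1 m2 h0 hd hx]
    module
  rw [e4]
  exact e3

end metrics

end

end Crest.Agent.R281.Js_578
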