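import Crest.Agent.R281.Js5_578
import Crest.Agent.R281.Js6_578

/-!
# R281, JETS (2) SECTIONS (helper578), part 7: the section

* `sect` : `N` with a metric on `K⁻¹ ⊗ N` of curvature `≥ ((n+k1) CJ κ1 + (n+k2) CJ κ2 + 1) K`
  ⟹ a holomorphic section which vanishes to the order `k1` at `x` and is `≠ 0` at `x'`.
-/

set_option autoImplicit false
set_option linter.unusedSectionVars false

open Set Filter Topology Complex MeasureTheory Metric Asymptotics
open scoped ContDiff Matrix ComplexConjugate Kronecker ComplexOrder ENNReal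

namespace Crest.Agent.R281.Js_578

open Crest.Agent.R275 Crest.Agent.R275.Geo Crest.Agent.R275.Core144 Crest.Agent.R275.Dg199
open Crest.Agent.R273.Defs_333 Crest.Agent.R273.Kah_333
open Crest.Agent.R273.Hess_333 Crest.Agent.R273.HessB_333
open Crest.Agent.R273.LamN127 Crest.Agent.R273.NormC_505 Crest.Agent.R273.DnInt_505
open Crest.Agent.R273.DVec_733 Crest.Agent.R273.DMet_733
open Crest.Agent.R273.HDN_505 (HB HB_pos)
open Crest.Agent.R273.SerA_945 Crest.Agent.R273.SerB_945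
open Crest.Agent.R272.Kod5_410 (Yf)
open Crest.Agent.R272.Kod3_410 (dsq dsq_nonneg)
open Crest.Agent.R281.LEnd_10 (sqw)
open Crest.Agent.R281.End_946 (psd_smul coe_smul')
open Crest.Agent.R281.HoC_578 (hd_embN)

noncomputable section

variable {n : ℕ} {M : Type} [TopologicalSpace M] {A : Atl n M} {N : LB A}

theorem Yf_eq {y0 s : Fn A} {u : Sec (BN N)} (hu : u.1 = embN y0 - embN s) (i : A.ι)
    (ζ : Fin n → ℂ) : Yf i u.1 ζ = y0 i ((A.e i).symm (WithLp.toLp 2 ζ)) -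
      s i ((A.e i).symm (WithLp.toLp 2 ζ)) := by
  rw [hu]
  rfl

section

variable [T2Space M]

/-- the pole of the weight -/
theorem exists_pole (D : TW A) {p : M} (hp : p ∈ D.U) (h0 : D.w p = 0) {i : A.ι}
    (hi : p ∈ (A.e i).source) : ∃ C1 : ℝ, 0 ≤ C1 ∧ ∀ᶠ q in 𝓝 p, ∀ (m : ℕ) (d : ℝ), 0 < d →
      ((C1 * dsq A p i q + d ^ 2) ^ m)⁻¹ ≤ Real.exp (-(m * D.W d q)) := by
  obtain ⟨C, hC, hCe⟩ := D.exists_lip hp h0 hi
  have h1 : ∀ᶠ q in 𝓝 p, sqw D.w q < 1 / 4 := by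
    have h2 : ContinuousAt (sqw D.w) p := D.sqw_cont.continuousAt (D.isOpen_U.mem_nhds hp)
    refine h2.eventually (gt_mem_nhds ?_)
    have : sqw D.w p = 0 := by
      unfold sqw
      rw [h0]
      simp
    rw [this]
    norm_num
  refine ⟨C, hC.le, ?_⟩
  filter_upwards [hCe, h1, D.isOpen_U.mem_nhds hp] with q h1 h2 h3 m d hd
  have ht := sqw_nonneg D.w q
  have hp : 0 < sqw D.w q + d ^ 2 := by positivity
  rw [D.W_low h3 h2.le, Real.exp_neg, mul_comm (m : ℝ), Real.exp_mul, Real.exp_log hp, Real.rpow_natCast]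
  exact inv_anti₀ (by positivity) (pow_le_pow_left₀ hp.le (by linarith) m)

end

variable [T2Space M] [CompactSpace M] [Finite A.ι] (P : Part A) (K : Kah A)

/-- order of vanishing of `y0 - s` -/
theorem van_sec (h0 : HM ((KB A)⁻¹ * N)) {p : M} {i : A.ι} (hp : p ∈ (A.e i).source)
    {k : ℕ} {C1 c2 D : ℝ} (hC1 : 0 ≤ C1) (hc2 : 0 < c2) (H : ℝ → HM ((KB A)⁻¹ * N))
    (hw : ∀ᶠ q in 𝓝 p, ∀ d : ℝ, 0 < d → d ≤ 1 →
      c2 * h0.w i q * ((C1 * dsq A p i q + d ^ 2) ^ (n + k))⁻¹ ≤ (H d).w i q)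
    {y0 s : Fn A} {u : Sec (BN N)} (hu : u.1 = embN y0 - embN s) (hs : IsHS N univ s)
    (hD : ∀ d : ℝ, 0 < d → d ≤ 1 → (HB K (H d)).sn P u ^ 2 ≤ D)
    {W : Set M} (hW : IsOpen W) (hpW : p ∈ W) (hy0 : HolAt A i W (y0 i)) :
    ∃ C : ℝ, 0 ≤ C ∧ ∀ᶠ z in 𝓝 (A.e i p),
      ‖y0 i ((A.e i).symm z) - s i ((A.e i).symm z)‖ ≤ C * ‖z - A.e i p‖ ^ k := by
  obtain ⟨W2, hW2, hW2o, hpW2⟩ := eventually_nhds_iff.1 hw
  have hWo : IsOpen (W ∩ W2) := hW.inter hW2o
  obtain ⟨C, hC0, hC⟩ := vanJ P K h0 hp hWo ⟨hpW, hpW2⟩ (k := k) hC1 hc2 H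
    (fun d hd hd1 q hq _ => hW2 q hq.2 d hd hd1) u hD (by
      intro ζ hζ
      have h1 : DifferentiableAt ℂ (fun z => y0 i ((A.e i).symm z)) (WithLp.toLp 2 ζ) :=
        DifferentiableOn.differentiableAt hy0 ((isOpen_ti (A := A) hW).mem_nhds ⟨hζ.1, hζ.2.1⟩)
      have h2 : DifferentiableAt ℂ (fun z => s i ((A.e i).symm z)) (WithLp.toLp 2 ζ) :=
        DifferentiableOn.differentiableAt (hs.hol i)
          ((isOpen_ti (A := A) isOpen_univ).mem_nhds ⟨hζ.1, mem_univ _⟩)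
      let E : (Fin n → ℂ) ≃L[ℂ] Cn n :=
        (PiLp.continuousLinearEquiv 2 ℂ (fun _ : Fin n => ℂ)).symm
      have h3 : DifferentiableAt ℂ (fun ζ => E ζ) ζ := E.differentiableAt
      have h4 : DifferentiableAt ℂ (fun z => y0 i ((A.e i).symm z) - s i ((A.e i).symm z)) (E ζ) :=
        h1.sub h2
      have h5 := DifferentiableAt.comp ζ (f := fun ζ => E ζ) h4 h3
      refine DifferentiableAt.differentiableWithinAt ?_
      refine h5.congr_of_eventuallyEq (Eventually.of_forall fun ξ => ?_)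
      exact Yf_eq hu i ξ)
  refine ⟨C, hC0, ?_⟩
  have h6 : Tendsto (fun z : Cn n => WithLp.ofLp z) (𝓝 (A.e i p)) (𝓝 (WithLp.ofLp (A.e i p))) :=
    (PiLp.continuous_ofLp 2 (fun _ : Fin n => ℂ)).continuousAt
  filter_upwards [h6.eventually hC] with z hz
  rw [Yf_eq hu] at hz
  refine hz.trans (mul_le_mul_of_nonneg_left ?_ hC0)
  refine pow_le_pow_left₀ (norm_nonneg _) ?_ k
  have h7 : WithLp.ofLp z - WithLp.ofLp (A.e i p) = WithLp.ofLp (z - A.e i p) := rfl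
  rw [h7]
  refine (pi_norm_le_iff_of_nonneg (norm_nonneg _)).2 fun a => ?_
  exact PiLp.norm_apply_le (z - A.e i p) a

include P in
/-- **the section** -/
theorem sect (h0 : HM ((KB A)⁻¹ * N)) (D1 D2 : TW A)
    {κ1 κ2 : ℝ} (hκ10 : 0 ≤ κ1) (hκ20 : 0 ≤ κ2)
    (hκ1 : ∀ i, ∀ x ∈ (A.e i).source, x ∈ D1.U →
      sqw D1.w x ≤ 1 → (κ1 • K.g i x - hsf A (sqw D1.w) i x).PosSemidef)
    (hκ2 : ∀ i, ∀ x ∈ (A.e i).source, x ∈ D2.U →
      sqw D2.w x ≤ 1 → (κ2 • K.g i x - hsf A (sqw D2.w) i x).PosSemidef)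
    {k1 k2 : ℕ}
    (hcur : ∀ i, ∀ x ∈ (A.e i).source,
      (cur h0 i x - (((n + k1 : ℕ) : ℝ) * (CJ * κ1) + ((n + k2 : ℕ) : ℝ) * (CJ * κ2) + 1) •
        K.g i x).PosSemidef)
    {x x' : M} (hx : x ∈ D1.U) (hx0 : D1.w x = 0) (hx' : x' ∈ D2.U) (hx'0 : D2.w x' = 0)
    (huniq : ∀ y ∈ D2.U, D2.w y = 0 → y = x') (hne : x' ∈ D1.U → D1.w x' ≠ 0) (hk2 : 0 < k2) :
    ∃ s, IsHS N univ s ∧
      (∀ i, x ∈ (A.e i).source → (fun z => s i ((A.e i).symm z)) =O[𝓝 (A.e i x)]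
        fun z => ‖z - A.e i x‖ ^ k1) ∧
      ∀ i, x' ∈ (A.e i).source → s i x' ≠ 0 := by
  set m1 : ℕ := n + k1 with hm1
  set m2 : ℕ := n + k2 with hm2
  -- the zero set of `w1`
  have hZc : IsClosed ({y | y ∈ D1.U ∧ sqw D1.w y ≤ 1} ∩ sqw D1.w ⁻¹' {0}) :=
    (D1.sqw_cont.mono fun y hy => hy.1).preimage_isClosed_of_isClosed D1.cpt.isClosed
      isClosed_singleton
  set V : Set M := ({y | y ∈ D1.U ∧ sqw D1.w y ≤ 1} ∩ sqw D1.w ⁻¹' {0})ᶜ with hV
  have hVo : IsOpen V := hZc.isOpen_compl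
  have sq0 : ∀ (D : TW A) (y : M), D.w y = 0 → sqw D.w y = 0 := fun D y h => by
    unfold sqw
    rw [h]
    simp
  have sq0' : ∀ (D : TW A) (y : M), sqw D.w y = 0 → D.w y = 0 := fun D y h => by
    funext k
    have h2 := (Finset.sum_eq_zero_iff_of_nonneg fun a _ => sq_nonneg ‖D.w y a‖).1 h k
      (Finset.mem_univ k)
    simpa using h2
  have hVne : ∀ y ∈ V, y ∈ D1.U → D1.w y = 0 → False := fun y hy hyU hy0 =>
    hy ⟨⟨hyU, by rw [sq0 D1 y hy0]; exact zero_le_one⟩, sq0 D1 y hy0⟩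
  have hx'V : x' ∈ V := fun h => hne h.1.1 (sq0' D1 x' h.2)
  obtain ⟨y0, y1, S0, S1, W, hy0, o0, hy1, o1, hS0, hS0V, hy0S, hS1, hS1V, hx'S1, hy1S, hW, hx'W,
    hy0W, hy0ne, hgrad⟩ := cutdata K N hVo hx'V
  -- uniform bounds
  obtain ⟨B1, hB1⟩ := D1.exists_W_lower hS1 fun y hy hyU hy0 => hVne y (hS1V hy) hyU hy0
  obtain ⟨B2, hB2⟩ := D2.exists_W_lower hS1 fun y hy hyU hy0 => by
    rw [huniq y hyU hy0] at hy
    exact hx'S1 hy
  set E : ℝ := Real.exp (m1 * B1 + m2 * B2) with hE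
  have hE0 : 0 < E := Real.exp_pos _
  set H : ℝ → HM ((KB A)⁻¹ * N) := Hm D1 D2 m1 m2 h0 with hH
  set dn : ℕ → ℝ := fun ν => 1 / ((ν : ℝ) + 1) with hdn
  have hdn0 : ∀ ν, 0 < dn ν := fun ν => by positivity
  have hdn1 : ∀ ν, dn ν ≤ 1 := fun ν => by
    rw [hdn]
    exact div_le_one_of_le₀ (by linarith [Nat.cast_nonneg (α := ℝ) ν]) (by positivity)
  have hdnt : Tendsto dn atTop (𝓝 0) := tendsto_one_div_add_atTop_nhds_zero_nat
  have hcur' : ∀ d : ℝ, 0 < d → d ≤ 1 → ∀ i, ∀ x ∈ (A.e i).source,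
      (cur (H d) i x - K.g i x).PosSemidef := fun d hd hd1 i x hx =>
    cur_Hm_ge D1 D2 m1 m2 h0 hκ10 hκ20 hκ1 hκ2 hcur hd hd1 hx
  have hmon : ∀ d d' : ℝ, 0 < d → d ≤ d' → ∀ i, ∀ x ∈ (A.e i).source,
      (H d').w i x ≤ (H d).w i x := by
    intro d d' hd hdd i x hx
    rw [hH, Hm_w _ _ _ _ _ hd, Hm_w _ _ _ _ _ (hd.trans_le hdd)]
    refine mul_le_mul_of_nonneg_left ?_ (h0.pos i x hx).le
    refine Real.exp_le_exp.2 (neg_le_neg ?_)
    exact wsum_mono D1 D2 m1 m2 hd hdd x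
  obtain ⟨s, u, hs, hu, hb⟩ := user_H P K (fun ν => H (dn ν)) (H 1) one_pos
    (fun ν i x hx => by
      rw [one_mul]
      exact hmon _ _ (hdn0 ν) (hdn1 ν) i x hx)
    (ε := dn) hdn0 hdnt
    (fun ν i x hx => by
      have h1 := (hcur' (dn ν) (hdn0 ν) (hdn1 ν) i x hx).add
        (psd_smul (r := 1 + dn ν) (by linarith [hdn0 ν]) (K.pos i x hx).posSemidef)
      have e : cur (H (dn ν)) i x - K.g i x + (1 + dn ν) • K.g i x =
          cur (H (dn ν)) i x + ((dn ν : ℝ) : ℂ) • K.g i x := by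
        rw [coe_smul']
        module
      rwa [e] at h1)
    hy0 o0 hy1 o1
    (D := E * (HB K h0).sn P ⟨embN y1, (embN_mem hy1 o1).1⟩ ^ 2)
    (fun ν => by
      rw [HDen.sn_sq, HDen.sn_sq]
      have h1 : E * ((HB K h0).ip P (embN y1) (embN y1)).re =
          (IntP P (fun i x => ((E : ℝ) : ℂ) * (HB K h0).hd (embN y1) (embN y1) i x)).re := by
        rw [IntP_const_mul, Complex.re_ofReal_mul]
        rfl
      show ((HB K (H (dn ν))).ip P (embN y1) (embN y1)).re ≤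
        E * ((HB K h0).ip P (embN y1) (embN y1)).re
      rw [h1]
      refine IntP_re_mono P ((HB K (H (dn ν))).isDn (embN_mem hy1 o1).1 (embN_mem hy1 o1).1)
        (((HB K h0).isDn (embN_mem hy1 o1).1 (embN_mem hy1 o1).1).const_mul _)
        fun i x hx => ?_
      rw [hd_embN, hd_embN, Complex.re_ofReal_mul, Complex.ofReal_re, Complex.ofReal_re]
      have hw0 := (h0.pos i x hx).le
      by_cases hxS : x ∈ S1
      · rw [hH, Hm_w _ _ _ _ _ (hdn0 ν)]
        have h2 := hB1 (dn ν) (hdn0 ν) (hdn1 ν) x hxS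
        have h3 := hB2 (dn ν) (hdn0 ν) (hdn1 ν) x hxS
        have h4 : Real.exp (-wsum D1 D2 m1 m2 (dn ν) x) ≤ E := by
          refine Real.exp_le_exp.2 ?_
          unfold wsum
          have h5 := mul_le_mul_of_nonneg_left h2 (Nat.cast_nonneg (α := ℝ) m1)
          have h6 := mul_le_mul_of_nonneg_left h3 (Nat.cast_nonneg (α := ℝ) m2)
          linarith
        have h5 := mul_le_mul_of_nonneg_left h4 (mul_nonneg hw0 (sq_nonneg ‖y1 i x‖))
        nlinarith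
      · rw [hy1S i x hxS, norm_zero, zero_pow two_ne_zero, mul_zero, mul_zero, mul_zero])
    (fun ν i x hx ξ => by
      refine (hgrad i x hx ξ).trans (mul_le_mul_of_nonneg_left ?_ (sq_nonneg _))
      have h1 := (hcur' (dn ν) (hdn0 ν) (hdn1 ν) i x hx).add
        (psd_smul (r := dn ν) (hdn0 ν).le (K.pos i x hx).posSemidef)
      have e : cur (H (dn ν)) i x - K.g i x + dn ν • K.g i x =
          (cur (H (dn ν)) i x + ((dn ν : ℝ) : ℂ) • K.g i x) - K.g i x := by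
        rw [coe_smul']
        module
      rw [e] at h1
      have h2 := qv_nonneg h1 ξ
      rw [qv_sub] at h2
      exact sub_nonneg.1 h2)
  -- the bound for every `d`
  have hbd : ∀ d : ℝ, 0 < d → d ≤ 1 → (HB K (H d)).sn P u ^ 2 ≤
      E * (HB K h0).sn P ⟨embN y1, (embN_mem hy1 o1).1⟩ ^ 2 := by
    intro d hd _
    refine hb (H d) ?_
    filter_upwards [hdnt.eventually (gt_mem_nhds hd)] with ν hν i x hx
    exact hmon _ _ (hdn0 ν) hν.le i x hx
  refine ⟨s, hs, fun i hi => ?_, fun i hi => ?_⟩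
  · -- at `x`
    obtain ⟨C1, hC1, hC1e⟩ := exists_pole D1 hx hx0 hi
    have hxS0 : x ∉ S0 := fun h => hVne x (hS0V h) hx hx0
    obtain ⟨C, hC0, hC⟩ := van_sec P K h0 hi (k := k1) (c2 := Real.exp (-(m2 * TW.CW))) hC1
      (Real.exp_pos _) H (by
        filter_upwards [hC1e, (A.e i).open_source.mem_nhds hi] with q hq hqs d hd hd1
        rw [hH, Hm_w _ _ _ _ _ hd]
        have h1 := hq m1 d hd
        have h2 : Real.exp (-(m2 * TW.CW)) ≤ Real.exp (-(m2 * D2.W d q)) :=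
          Real.exp_le_exp.2 (neg_le_neg (mul_le_mul_of_nonneg_left (D2.W_le hd hd1 q)
            (Nat.cast_nonneg _)))
        have h3 : Real.exp (-wsum D1 D2 m1 m2 d q) =
            Real.exp (-(m1 * D1.W d q)) * Real.exp (-(m2 * D2.W d q)) := by
          rw [← Real.exp_add]
          congr 1
          unfold wsum
          ring
        rw [h3]
        have hw0 := (h0.pos i q hqs).le
        have hds := dsq_nonneg (A := A) x i q
        have h4 : ((C1 * dsq A x i q + d ^ 2) ^ m1)⁻¹ * Real.exp (-(m2 * TW.CW)) ≤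
            Real.exp (-(m1 * D1.W d q)) * Real.exp (-(m2 * D2.W d q)) :=
          mul_le_mul h1 h2 (Real.exp_pos _).le (Real.exp_pos _).le
        have h5 := mul_le_mul_of_nonneg_left h4 hw0
        refine le_trans (le_of_eq ?_) h5
        ring)
      hu hs hbd hS0.isOpen_compl hxS0
      (by
        refine (show HolAt A i S0ᶜ (fun _ => (0 : ℂ)) from differentiableOn_const _).congr fun q _ hq => ?_
        rw [hy0S i q hq])
    refine IsBigO.of_bound C ?_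
    have h1 : ∀ᶠ z in 𝓝 (A.e i x), (A.e i).symm z ∈ S0ᶜ :=
      ev_symm hi (hS0.isOpen_compl.eventually_mem hxS0)
    filter_upwards [hC, h1] with z hz hz'
    rw [hy0S i _ hz', zero_sub, norm_neg] at hz
    rw [norm_pow, norm_norm]
    exact hz
  · -- at `x'`
    obtain ⟨C1, hC1, hC1e⟩ := exists_pole D2 hx' hx'0 hi
    obtain ⟨C, hC0, hC⟩ := van_sec P K h0 hi (k := k2) (c2 := Real.exp (-(m1 * TW.CW))) hC1
      (Real.exp_pos _) H (by
        filter_upwards [hC1e, (A.e i).open_source.mem_nhds hi] with q hq hqs d hd hd1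
        rw [hH, Hm_w _ _ _ _ _ hd]
        have h1 := hq m2 d hd
        have h2 : Real.exp (-(m1 * TW.CW)) ≤ Real.exp (-(m1 * D1.W d q)) :=
          Real.exp_le_exp.2 (neg_le_neg (mul_le_mul_of_nonneg_left (D1.W_le hd hd1 q)
            (Nat.cast_nonneg _)))
        have h3 : Real.exp (-wsum D1 D2 m1 m2 d q) =
            Real.exp (-(m2 * D2.W d q)) * Real.exp (-(m1 * D1.W d q)) := by
          rw [← Real.exp_add]
          congr 1
          unfold wsum
          ring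
        rw [h3]
        have hw0 := (h0.pos i q hqs).le
        have hds := dsq_nonneg (A := A) x' i q
        have h4 : ((C1 * dsq A x' i q + d ^ 2) ^ m2)⁻¹ * Real.exp (-(m1 * TW.CW)) ≤
            Real.exp (-(m2 * D2.W d q)) * Real.exp (-(m1 * D1.W d q)) :=
          mul_le_mul h1 h2 (Real.exp_pos _).le (Real.exp_pos _).le
        have h5 := mul_le_mul_of_nonneg_left h4 hw0
        refine le_trans (le_of_eq ?_) h5
        ring)
      hu hs hbd hW hx'W (hy0W i)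
    have h1 := hC.self_of_nhds
    rw [(A.e i).left_inv hi, sub_self, norm_zero, zero_pow hk2.ne', mul_zero, norm_le_zero_iff,
      sub_eq_zero] at h1
    rw [← h1]
    exact hy0ne i hi

end

end Crest.Agent.R281.Js_578
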