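import Crest.Agent.R281.Js4_578
import Crest.Agent.R281.Qt1_922
import Crest.Agent.R281.HfG2_615

/-!
# R281, JETS (2) SECTIONS (helper578), part 8: the two wells

* `TW.psd_of_q1` : a bound for the derivative of `w` gives `∂∂̄|w|² ≤ κ K`;
* `ofQT`         : the well `w = 2 (f - f x) / R` of a `QTube`;
* `exists_pt`    : wells `w = (z - z') / r` at all points `x'`, with one constant.
-/

set_option autoImplicit false
set_option linter.unusedSectionVars false

open Set Filter Topology Complex Metric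
open scoped ContDiff Matrix ComplexConjugate ComplexOrder

namespace Crest.Agent.R281.Js_578

open Crest.Agent.R275.Geo Crest.Agent.R275.Core144 Crest.Agent.R275.EDR890 Crest.Agent.R273
open Crest.Agent.R275.Dg199
open Crest.Agent.R273.Defs_333 Crest.Agent.R273.HM_333 Crest.Agent.R273.Kah_333
open Crest.Agent.R273.Hess_333 Crest.Agent.R273.HessB_333
open Crest.Agent.R281.LEnd_10 (sqw)
open Crest.Agent.R281.End_946 (psd_smul coe_smul' hess_sq_mat)
open Crest.Agent.R281.SAsm_790 (qf qf_tr)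
open Crest.Agent.R281.Qt_922

noncomputable section

variable {n : ℕ} {M : Type} [TopologicalSpace M] {A : Atl n M}

theorem qv_eq_qf (K : Kah A) (i : A.ι) (x : M) (v : Cn n) : qv (K.g i x) v.ofLp = qf K i x v := by
  unfold qv qf
  congr 1
  show _ = ∑ a, star (v.ofLp a) * ∑ b, (K.g i x)ᵀ a b * v.ofLp b
  rw [Finset.sum_comm]
  refine Finset.sum_congr rfl fun a _ => ?_
  rw [Finset.mul_sum]
  refine Finset.sum_congr rfl fun b _ => ?_
  rw [Matrix.transpose_apply, RCLike.star_def]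
  ring

theorem psd_of_qv {X : Matrix (Fin n) (Fin n) ℂ} (hX : X.IsHermitian) (h : ∀ ξ, 0 ≤ qv X ξ) :
    X.PosSemidef := by
  refine Matrix.PosSemidef.of_dotProduct_mulVec_nonneg hX fun v => ?_
  rw [Complex.nonneg_iff]
  refine ⟨?_, (hX.im_star_dotProduct_mulVec_self v).symm⟩
  have h1 := h (star v)
  rw [qv_eq, star_star, star_star] at h1
  exact h1

theorem qv_sum {ι : Type} (s : Finset ι) (X : ι → Matrix (Fin n) (Fin n) ℂ) (ξ : Fin n → ℂ) :
    qv (∑ k ∈ s, X k) ξ = ∑ k ∈ s, qv (X k) ξ := by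
  classical
  induction s using Finset.induction_on with
  | empty =>
    rw [Finset.sum_empty, Finset.sum_empty]
    simp [qv]
  | insert a s ha ih => rw [Finset.sum_insert ha, Finset.sum_insert ha, qv_add, ih]

theorem apply_eq_sum (L : Cn n →L[ℂ] ℂ) (ξ : Cn n) :
    ∑ a, L (EuclideanSpace.single a 1) * ξ.ofLp a = L ξ := by
  have h : ξ = ∑ a, ξ.ofLp a • (EuclideanSpace.single a (1 : ℂ) : Cn n) := by
    ext b
    simp [Pi.single_apply]
  conv_rhs => rw [h]
  rw [map_sum]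
  refine Finset.sum_congr rfl fun a _ => ?_
  rw [map_smul, smul_eq_mul, mul_comm]

/-- a bound for the derivative of `w` gives `∂∂̄|w|² ≤ κ K` -/
theorem TW.psd_of_q1 (D : TW A) {K : Kah A} {κ : ℝ} {i : A.ι} {x : M} (hx : x ∈ (A.e i).source)
    (hU : x ∈ D.U) (h : ∀ v : Cn n,
      ∑ k, ‖fderiv ℂ (fun z => D.w ((A.e i).symm z) k) (A.e i x) v‖ ^ 2 ≤ κ * qf K i x v) :
    (κ • K.g i x - hsf A (sqw D.w) i x).PosSemidef := by
  have hz := mem_Ur D hx hU
  have e : hsf A (sqw D.w) i x = ∑ k, Matrix.vecMulVec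
      (fun a => fderiv ℂ (fun z => wr D i z k) (A.e i x) (EuclideanSpace.single a 1))
      (star fun a => fderiv ℂ (fun z => wr D i z k) (A.e i x) (EuclideanSpace.single a 1)) :=
    hess_sq_mat (isOpen_Ur D i) (wr_hol D i) hz
  refine psd_of_qv ?_ fun ξ => ?_
  · have h1 := (K.pos i x hx).isHermitian
    have h2 := (psd_sqw D hx hU).isHermitian
    unfold Matrix.IsHermitian at *
    rw [Matrix.conjTranspose_sub, Matrix.conjTranspose_smul, h1, h2]
    simp
  · rw [qv_sub, qv_smul, e, qv_sum]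
    have h1 := h (WithLp.toLp 2 ξ)
    rw [← qv_eq_qf] at h1
    have h2 : ∑ k, qv (Matrix.vecMulVec
        (fun a => fderiv ℂ (fun z => wr D i z k) (A.e i x) (EuclideanSpace.single a 1))
        (star fun a => fderiv ℂ (fun z => wr D i z k) (A.e i x) (EuclideanSpace.single a 1))) ξ =
        ∑ k, ‖fderiv ℂ (fun z => D.w ((A.e i).symm z) k) (A.e i x) (WithLp.toLp 2 ξ)‖ ^ 2 := by
      refine Finset.sum_congr rfl fun k _ => ?_
      rw [qv_vec, ← apply_eq_sum]
      rfl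
    rw [h2]
    exact sub_nonneg.2 h1

/-! ### the well of a tube -/

section tube

variable {K : Kah A} {m : ℕ} {κ R : ℝ}

theorem hol_comp (Q : QTube A K m κ R) (i : A.ι) (k : Fin m) : HolAt A i Q.U (fun y => Q.f y k) := by
  have h1 := Q.hol i
  intro z hz
  exact ((EuclideanSpace.proj k : Cn m →L[ℂ] ℂ).differentiableAt).comp_differentiableWithinAt z
    (h1 z hz)

theorem sqw_eq (Q : QTube A K m κ R) (c : Cn m) (s : ℝ) (y : M) :
    sqw (fun y k => ((s : ℝ) : ℂ) * (Q.f y k - c k)) y = s ^ 2 * ‖Q.f y - c‖ ^ 2 := by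
  unfold sqw
  rw [EuclideanSpace.norm_sq_eq, Finset.mul_sum]
  refine Finset.sum_congr rfl fun k _ => ?_
  rw [norm_mul, mul_pow, Complex.norm_real, Real.norm_eq_abs, sq_abs]
  rfl

variable [T2Space M]

theorem cpt_tube (Q : QTube A K m κ R) {c : Cn m} {ρ : ℝ} (hc : ‖c‖ + ρ < R) :
    IsCompact {y | y ∈ Q.U ∧ ‖Q.f y - c‖ ≤ ρ} := by
  have h1 := Q.cpt (‖c‖ + ρ) hc
  have h2 : IsClosed ({y | y ∈ Q.U ∧ ‖Q.f y‖ ≤ ‖c‖ + ρ} ∩ (fun y => ‖Q.f y - c‖) ⁻¹' Iic ρ) := by
    refine ContinuousOn.preimage_isClosed_of_isClosed ?_ h1.isClosed isClosed_Iic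
    have h3 : ContinuousOn Q.f {y | y ∈ Q.U ∧ ‖Q.f y‖ ≤ ‖c‖ + ρ} := Q.cont.mono fun y hy => hy.1
    exact (h3.sub continuousOn_const).norm
  refine h1.of_isClosed_subset (s := {y | y ∈ Q.U ∧ ‖Q.f y‖ ≤ ‖c‖ + ρ}) ?_ ?_
  · convert h2 using 1
    ext y
    constructor
    · rintro ⟨hy, hy2⟩
      refine ⟨⟨hy, ?_⟩, hy2⟩
      have := norm_sub_norm_le (Q.f y) c
      linarith
    · rintro ⟨hy, hy2⟩
      exact ⟨hy.1, hy2⟩
  · rintro y ⟨hy, hy2⟩
    refine ⟨hy, ?_⟩
    have := norm_sub_norm_le (Q.f y) c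
    linarith

/-- the well of a tube -/
def ofQT (Q : QTube A K m κ R) (c : Cn m) {ρ : ℝ} (hρ : 0 < ρ) (hc : ‖c‖ + ρ < R) : TW A where
  U := Q.U
  isOpen_U := Q.op
  r := m
  w := fun y k => ((ρ⁻¹ : ℝ) : ℂ) * (Q.f y k - c k)
  hol := fun i k => by
    have h1 : HolAt A i Q.U (fun y => Q.f y k) := hol_comp Q i k
    exact (DifferentiableOn.sub_const h1 (c k)).const_mul _
  cpt := by
    have h1 := cpt_tube Q hc
    convert h1 using 1
    ext y
    refine and_congr_right fun _ => ?_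
    rw [sqw_eq, inv_pow, inv_mul_le_iff₀ (by positivity), mul_one]
    exact ⟨fun h => abs_le_of_sq_le_sq' h hρ.le |>.2, fun h => pow_le_pow_left₀ (norm_nonneg _) h 2⟩

variable (Q : QTube A K m κ R) (c : Cn m) {ρ : ℝ} (hρ : 0 < ρ) (hc : ‖c‖ + ρ < R)

theorem ofQT_U : (ofQT Q c hρ hc).U = Q.U := rfl

theorem ofQT_w {y : M} : (ofQT Q c hρ hc).w y = 0 ↔ Q.f y = c := by
  constructor
  · intro h
    ext k
    have h1 := congrFun h k
    have h2 : ((ρ⁻¹ : ℝ) : ℂ) ≠ 0 := by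
      rw [Ne, Complex.ofReal_eq_zero]
      exact (inv_pos.2 hρ).ne'
    exact sub_eq_zero.1 ((mul_eq_zero.1 h1).resolve_left h2)
  · intro h
    funext k
    show ((ρ⁻¹ : ℝ) : ℂ) * (Q.f y k - c k) = 0
    rw [h, sub_self, mul_zero]

theorem ofQT_psd {i : A.ι} {x : M} (hx : x ∈ (A.e i).source) (hU : x ∈ Q.U) :
    ((κ / ρ ^ 2) • K.g i x - hsf A (sqw (ofQT Q c hρ hc).w) i x).PosSemidef := by
  refine (ofQT Q c hρ hc).psd_of_q1 hx hU fun v => ?_
  have hd : DifferentiableAt ℂ (fun z => Q.f ((A.e i).symm z)) (A.e i x) :=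
    (Q.hol i).differentiableAt ((isOpen_ti (A := A) Q.op).mem_nhds
      ⟨(A.e i).map_source hx, by rw [mem_preimage, (A.e i).left_inv hx]; exact hU⟩)
  have h1 : ∀ k, fderiv ℂ (fun z => (ofQT Q c hρ hc).w ((A.e i).symm z) k) (A.e i x) v =
      ((ρ⁻¹ : ℝ) : ℂ) * (fderiv ℂ (fun z => Q.f ((A.e i).symm z)) (A.e i x) v) k := by
    intro k
    have h2 : HasFDerivAt (fun z => ((ρ⁻¹ : ℝ) : ℂ) * (Q.f ((A.e i).symm z) k - c k))
        (((ρ⁻¹ : ℝ) : ℂ) • ((EuclideanSpace.proj k : Cn m →L[ℂ] ℂ).comp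
          (fderiv ℂ (fun z => Q.f ((A.e i).symm z)) (A.e i x)))) (A.e i x) :=
      (((EuclideanSpace.proj k : Cn m →L[ℂ] ℂ).hasFDerivAt.comp (A.e i x)
        hd.hasFDerivAt).sub_const (c k)).const_mul _
    have h3 := h2.fderiv
    show fderiv ℂ (fun z => ((ρ⁻¹ : ℝ) : ℂ) * (Q.f ((A.e i).symm z) k - c k)) (A.e i x) v = _
    rw [h3]
    rfl
  have h4 := Q.q1 i x hx hU v
  calc ∑ k, ‖fderiv ℂ (fun z => (ofQT Q c hρ hc).w ((A.e i).symm z) k) (A.e i x) v‖ ^ 2
      = ∑ k, (ρ⁻¹) ^ 2 * ‖(fderiv ℂ (fun z => Q.f ((A.e i).symm z)) (A.e i x) v) k‖ ^ 2 := by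
        refine Finset.sum_congr rfl fun k _ => ?_
        rw [h1 k, norm_mul, mul_pow, Complex.norm_real, Real.norm_eq_abs, sq_abs]
    _ = (ρ⁻¹) ^ 2 * ‖fderiv ℂ (fun z => Q.f ((A.e i).symm z)) (A.e i x) v‖ ^ 2 := by
        rw [EuclideanSpace.norm_sq_eq, Finset.mul_sum]
    _ ≤ (ρ⁻¹) ^ 2 * (κ * qf K i x v) := mul_le_mul_of_nonneg_left h4 (by positivity)
    _ = κ / ρ ^ 2 * qf K i x v := by
        rw [inv_pow]
        ring

end tube

/-! ### the wells at points -/

section pt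

theorem qf_rsmul (K : Kah A) (i : A.ι) (x : M) (t : ℝ) (v : Cn n) :
    qf K i x (t • v) = t ^ 2 * qf K i x v := by
  rw [← qv_eq_qf, ← qv_eq_qf]
  unfold qv
  rw [← Complex.re_ofReal_mul]
  congr 1
  rw [Finset.mul_sum]
  refine Finset.sum_congr rfl fun a _ => ?_
  rw [Finset.mul_sum]
  refine Finset.sum_congr rfl fun b _ => ?_
  have h1 : ∀ c, (t • v).ofLp c = (t : ℂ) * v.ofLp c := fun c => by
    rw [WithLp.ofLp_smul, Pi.smul_apply, Complex.real_smul]
  rw [h1, h1, map_mul, Complex.conj_ofReal]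
  push_cast
  ring

/-- a lower bound of the metric on a compact set of a chart -/
theorem exists_low (K : Kah A) {i : A.ι} {B : Set (Cn n)} (hB : IsCompact B)
    (hBt : B ⊆ (A.e i).target) : ∃ C : ℝ, 0 ≤ C ∧ ∀ z ∈ B, ∀ u : Cn n,
      ‖u‖ ^ 2 ≤ C * qf K i ((A.e i).symm z) u := by
  have hS : IsCompact (B ×ˢ sphere (0 : Cn n) 1) := hB.prod (isCompact_sphere _ _)
  have hcont : ContinuousOn (fun p : Cn n × Cn n => qf K i ((A.e i).symm p.1) p.2)
      (B ×ˢ sphere (0 : Cn n) 1) := by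
    have e : (fun p : Cn n × Cn n => qf K i ((A.e i).symm p.1) p.2) = fun p =>
        (∑ a, ∑ c, K.g i ((A.e i).symm p.1) a c * p.2.ofLp a * conj (p.2.ofLp c)).re := by
      funext p
      rw [← qv_eq_qf]
      rfl
    rw [e]
    refine Complex.continuous_re.comp_continuousOn ?_
    refine continuousOn_finsetSum _ fun a _ => continuousOn_finsetSum _ fun c _ => ?_
    refine ContinuousOn.mul (ContinuousOn.mul ?_ ?_) ?_
    · have h1 : ContinuousOn (fun z => K.g i ((A.e i).symm z) a c) (A.e i).target :=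
        ContDiffOn.continuousOn (𝕜 := ℝ) (K.sm i a c)
      exact h1.comp continuousOn_fst fun p hp => hBt hp.1
    · exact Continuous.continuousOn (by fun_prop)
    · exact Continuous.continuousOn (by fun_prop)
  rcases (B ×ˢ sphere (0 : Cn n) 1).eq_empty_or_nonempty with h | h
  · refine ⟨0, le_rfl, fun z hz u => ?_⟩
    by_cases hu : u = 0
    · simp [hu]
    · exfalso
      have h1 : (z, (‖u‖⁻¹ : ℝ) • u) ∈ B ×ˢ sphere (0 : Cn n) 1 := by
        refine ⟨hz, ?_⟩
        rw [mem_sphere_zero_iff_norm, norm_smul, norm_inv, norm_norm,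
          inv_mul_cancel₀ (norm_ne_zero_iff.2 hu)]
      rw [h] at h1
      exact h1
  · obtain ⟨⟨z0, u0⟩, h0, hmin⟩ := hS.exists_isMinOn h hcont
    set m := qf K i ((A.e i).symm z0) u0 with hm
    have hm0 : 0 < m := by
      refine HfG_615.qf_pos K ((A.e i).map_target (hBt h0.1)) fun h1 => ?_
      have h2 : u0 = 0 := by
        ext b
        exact congrFun h1 b
      have h3 : ‖u0‖ = 1 := mem_sphere_zero_iff_norm.1 h0.2
      rw [h2, norm_zero] at h3
      exact zero_ne_one h3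
    refine ⟨m⁻¹, by positivity, fun z hz u => ?_⟩
    by_cases hu : u = 0
    · rw [hu, norm_zero, zero_pow two_ne_zero]
      have h1 := qf_rsmul K i ((A.e i).symm z) 0 (0 : Cn n)
      rw [zero_smul] at h1
      rw [h1]
      simp
    · have h1 : (z, (‖u‖⁻¹ : ℝ) • u) ∈ B ×ˢ sphere (0 : Cn n) 1 := by
        refine ⟨hz, ?_⟩
        rw [mem_sphere_zero_iff_norm, norm_smul, norm_inv, norm_norm,
          inv_mul_cancel₀ (norm_ne_zero_iff.2 hu)]
      have h2 : m ≤ qf K i ((A.e i).symm z) ((‖u‖⁻¹ : ℝ) • u) := hmin h1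
      rw [qf_rsmul] at h2
      have h3 : 0 < ‖u‖ ^ 2 := by
        have := norm_pos_iff.2 hu
        positivity
      rw [inv_pow, ← div_eq_inv_mul, le_div_iff₀ h3] at h2
      rw [← div_eq_inv_mul, le_div_iff₀ hm0]
      linarith

/-- the well at a point -/
def ptw [T2Space M] (i : A.ι) (c : Cn n) {r : ℝ} (hr : 0 < r)
    (hc : closedBall c r ⊆ (A.e i).target) : TW A where
  U := (A.e i).source
  isOpen_U := (A.e i).open_source
  r := n
  w := fun y k => ((r⁻¹ : ℝ) : ℂ) * (A.e i y k - c k)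
  hol := fun j k => by
    have h1 : DifferentiableOn ℂ (fun z => A.e i ((A.e j).symm z))
        ((A.e j).target ∩ (A.e j).symm ⁻¹' (A.e i).source) := A.holo j i
    have h2 : DifferentiableOn ℂ (fun z => A.e i ((A.e j).symm z) k)
        ((A.e j).target ∩ (A.e j).symm ⁻¹' (A.e i).source) := fun z hz =>
      ((EuclideanSpace.proj k : Cn n →L[ℂ] ℂ).differentiableAt).comp_differentiableWithinAt z
        (h1 z hz)
    exact (DifferentiableOn.sub_const h2 (c k)).const_mul _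
  cpt := by
    have h1 : IsCompact ((A.e i).symm '' closedBall c r) :=
      (isCompact_closedBall _ _).image_of_continuousOn ((A.e i).continuousOn_symm.mono hc)
    convert h1 using 1
    have e : ∀ y, sqw (fun y k => ((r⁻¹ : ℝ) : ℂ) * (A.e i y k - c k)) y =
        (r⁻¹) ^ 2 * ‖A.e i y - c‖ ^ 2 := by
      intro y
      unfold sqw
      rw [EuclideanSpace.norm_sq_eq, Finset.mul_sum]
      refine Finset.sum_congr rfl fun k _ => ?_
      rw [norm_mul, mul_pow, Complex.norm_real, Real.norm_eq_abs, sq_abs]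
      rfl
    ext y
    constructor
    · rintro ⟨hy, hy2⟩
      rw [e, inv_pow, inv_mul_le_iff₀ (by positivity), mul_one] at hy2
      refine ⟨A.e i y, ?_, (A.e i).left_inv hy⟩
      rw [mem_closedBall, dist_eq_norm]
      exact abs_le_of_sq_le_sq' hy2 hr.le |>.2
    · rintro ⟨z, hz, rfl⟩
      refine ⟨(A.e i).map_target (hc hz), ?_⟩
      rw [e, (A.e i).right_inv (hc hz), inv_pow, inv_mul_le_iff₀ (by positivity), mul_one]
      rw [mem_closedBall, dist_eq_norm] at hz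
      exact pow_le_pow_left₀ (norm_nonneg _) hz 2

/-- **the wells at all points, one constant** -/
theorem exists_pt [T2Space M] [CompactSpace M] (K : Kah A) : ∃ κ2 : ℝ, 0 ≤ κ2 ∧ ∀ x' : M,
    ∃ D : TW A, x' ∈ D.U ∧ D.w x' = 0 ∧ (∀ y ∈ D.U, D.w y = 0 → y = x') ∧
      ∀ i, ∀ x ∈ (A.e i).source, x ∈ D.U → sqw D.w x ≤ 1 →
        (κ2 • K.g i x - hsf A (sqw D.w) i x).PosSemidef := by
  have key : ∃ κ2 : ℝ, 0 ≤ κ2 ∧ ∀ x' ∈ (univ : Set M),
      ∃ D : TW A, x' ∈ D.U ∧ D.w x' = 0 ∧ (∀ y ∈ D.U, D.w y = 0 → y = x') ∧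
        ∀ i, ∀ x ∈ (A.e i).source, x ∈ D.U → sqw D.w x ≤ 1 →
          (κ2 • K.g i x - hsf A (sqw D.w) i x).PosSemidef := by
    refine isCompact_univ.induction_on (p := fun S => ∃ κ2 : ℝ, 0 ≤ κ2 ∧ ∀ x' ∈ S,
      ∃ D : TW A, x' ∈ D.U ∧ D.w x' = 0 ∧ (∀ y ∈ D.U, D.w y = 0 → y = x') ∧
        ∀ i, ∀ x ∈ (A.e i).source, x ∈ D.U → sqw D.w x ≤ 1 →
          (κ2 • K.g i x - hsf A (sqw D.w) i x).PosSemidef) ?_ ?_ ?_ ?_
    · exact ⟨0, le_rfl, fun x' hx' => hx'.elim⟩
    · rintro S T hST ⟨κ, hκ, h⟩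
      exact ⟨κ, hκ, fun x' hx' => h x' (hST hx')⟩
    · rintro S T ⟨κ, hκ, h⟩ ⟨κ', hκ', h'⟩
      have mono : ∀ (D : TW A) (a b : ℝ), a ≤ b → (∀ i, ∀ x ∈ (A.e i).source, x ∈ D.U →
          sqw D.w x ≤ 1 → (a • K.g i x - hsf A (sqw D.w) i x).PosSemidef) →
          ∀ i, ∀ x ∈ (A.e i).source, x ∈ D.U → sqw D.w x ≤ 1 →
            (b • K.g i x - hsf A (sqw D.w) i x).PosSemidef := by
        intro D a b hab hD i x hx hU h1
        have h2 := (hD i x hx hU h1).add (psd_smul (sub_nonneg.2 hab) (K.pos i x hx).posSemidef)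
        have e : a • K.g i x - hsf A (sqw D.w) i x + (b - a) • K.g i x =
            b • K.g i x - hsf A (sqw D.w) i x := by
          module
        rwa [e] at h2
      refine ⟨max κ κ', hκ.trans (le_max_left _ _), fun x' hx' => ?_⟩
      rcases hx' with hx' | hx'
      · obtain ⟨D, h1, h2, h3, h4⟩ := h x' hx'
        exact ⟨D, h1, h2, h3, mono D _ _ (le_max_left _ _) h4⟩
      · obtain ⟨D, h1, h2, h3, h4⟩ := h' x' hx'
        exact ⟨D, h1, h2, h3, mono D _ _ (le_max_right _ _) h4⟩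
    · intro q _
      obtain ⟨i, hi⟩ := A.cover q
      obtain ⟨r0, hr0, hrt⟩ := Metric.isOpen_iff.1 (A.e i).open_target _ ((A.e i).map_source hi)
      set r : ℝ := r0 / 4 with hr
      have hr1 : 0 < r := by positivity
      have hBt : closedBall (A.e i q) (2 * r) ⊆ (A.e i).target :=
        (closedBall_subset_ball (by rw [hr]; linarith)).trans hrt
      obtain ⟨C, hC0, hC⟩ := exists_low K (isCompact_closedBall (A.e i q) (2 * r)) hBt
      have hV : {x' | x' ∈ (A.e i).source ∧ A.e i x' ∈ ball (A.e i q) r} ∈ 𝓝 q := by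
        refine inter_mem ((A.e i).open_source.mem_nhds hi) ?_
        exact ((A.e i).continuousAt hi).preimage_mem_nhds (ball_mem_nhds _ hr1)
      refine ⟨_, mem_nhdsWithin_of_mem_nhds hV, C * (r⁻¹) ^ 2, by positivity, ?_⟩
      rintro x' ⟨hx', hx'b⟩
      have hsub : closedBall (A.e i x') r ⊆ closedBall (A.e i q) (2 * r) := by
        refine closedBall_subset_closedBall' ?_
        have := (mem_ball.1 hx'b).le
        linarith
      refine ⟨ptw i (A.e i x') hr1 (hsub.trans hBt), hx', ?_, ?_, ?_⟩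
      · funext k
        show ((r⁻¹ : ℝ) : ℂ) * (A.e i x' k - A.e i x' k) = 0
        rw [sub_self, mul_zero]
      · intro y hy h0
        refine (A.e i).injOn hy hx' ?_
        ext k
        have h1 : ((r⁻¹ : ℝ) : ℂ) * (A.e i y k - A.e i x' k) = 0 := congrFun h0 k
        have h2 : ((r⁻¹ : ℝ) : ℂ) ≠ 0 := by
          rw [Ne, Complex.ofReal_eq_zero]
          exact (inv_pos.2 hr1).ne'
        exact sub_eq_zero.1 ((mul_eq_zero.1 h1).resolve_left h2)
      · intro j x hx hU hle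
        have hxi : x ∈ (A.e i).source := hU
        refine TW.psd_of_q1 _ hx hU fun v => ?_
        have hxB : A.e i x ∈ closedBall (A.e i q) (2 * r) := by
          refine hsub ?_
          have e : sqw (ptw i (A.e i x') hr1 (hsub.trans hBt)).w x =
              (r⁻¹) ^ 2 * ‖A.e i x - A.e i x'‖ ^ 2 := by
            unfold sqw
            rw [EuclideanSpace.norm_sq_eq, Finset.mul_sum]
            refine Finset.sum_congr rfl fun k _ => ?_
            show ‖((r⁻¹ : ℝ) : ℂ) * (A.e i x k - A.e i x' k)‖ ^ 2 = _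
            rw [norm_mul, mul_pow, Complex.norm_real, Real.norm_eq_abs, sq_abs]
            rfl
          rw [e, inv_pow, inv_mul_le_iff₀ (by positivity), mul_one] at hle
          rw [mem_closedBall, dist_eq_norm]
          exact abs_le_of_sq_le_sq' hle hr1.le |>.2
        have hd : DifferentiableAt ℂ (fun z => A.e i ((A.e j).symm z)) (A.e j x) :=
          (A.holo j i).differentiableAt ((isOpen_ov (A := A) j i).mem_nhds (mem_ov ⟨hx, hxi⟩))
        have h1 : ∀ k, fderiv ℂ (fun z => (ptw i (A.e i x') hr1 (hsub.trans hBt)).w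
            ((A.e j).symm z) k) (A.e j x) v = ((r⁻¹ : ℝ) : ℂ) *
              (fderiv ℂ (fun z => A.e i ((A.e j).symm z)) (A.e j x) v) k := by
          intro k
          have h2 : HasFDerivAt (fun z => ((r⁻¹ : ℝ) : ℂ) *
              (A.e i ((A.e j).symm z) k - A.e i x' k))
              (((r⁻¹ : ℝ) : ℂ) • ((EuclideanSpace.proj k : Cn n →L[ℂ] ℂ).comp
                (fderiv ℂ (fun z => A.e i ((A.e j).symm z)) (A.e j x)))) (A.e j x) :=
            (((EuclideanSpace.proj k : Cn n →L[ℂ] ℂ).hasFDerivAt.comp (A.e j x)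
              hd.hasFDerivAt).sub_const (A.e i x' k)).const_mul _
          have h3 := h2.fderiv
          show fderiv ℂ (fun z => ((r⁻¹ : ℝ) : ℂ) *
            (A.e i ((A.e j).symm z) k - A.e i x' k)) (A.e j x) v = _
          rw [h3]
          rfl
        have h4 := hC (A.e i x) hxB (fderiv ℂ (fun z => A.e i ((A.e j).symm z)) (A.e j x) v)
        rw [(A.e i).left_inv hxi] at h4
        have h5 := qf_tr K (i := j) (j := i) ⟨hx, hxi⟩ v
        rw [hd.fderiv_restrictScalars ℝ, ContinuousLinearMap.coe_restrictScalars'] at h5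
        rw [← h5] at h4
        calc ∑ k, ‖fderiv ℂ (fun z => (ptw i (A.e i x') hr1 (hsub.trans hBt)).w
              ((A.e j).symm z) k) (A.e j x) v‖ ^ 2
            = ∑ k, (r⁻¹) ^ 2 *
                ‖(fderiv ℂ (fun z => A.e i ((A.e j).symm z)) (A.e j x) v) k‖ ^ 2 := by
              refine Finset.sum_congr rfl fun k _ => ?_
              rw [h1 k, norm_mul, mul_pow, Complex.norm_real, Real.norm_eq_abs, sq_abs]
          _ = (r⁻¹) ^ 2 * ‖fderiv ℂ (fun z => A.e i ((A.e j).symm z)) (A.e j x) v‖ ^ 2 := by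
              rw [EuclideanSpace.norm_sq_eq, Finset.mul_sum]
          _ ≤ (r⁻¹) ^ 2 * (C * qf K j x v) := mul_le_mul_of_nonneg_left h4 (by positivity)
          _ = C * (r⁻¹) ^ 2 * qf K j x v := by ring
  obtain ⟨κ2, h1, h2⟩ := key
  exact ⟨κ2, h1, fun x' => h2 x' (mem_univ x')⟩

end pt

end

end Crest.Agent.R281.Js_578
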