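import Crest.Agent.R281.Js7_578
import Crest.Agent.R281.Js8_578

/-!
# R281, JETS (2) SECTIONS (helper578), part 9: the sections over a quantified tube

* `CS` : the absolute constant, `1 ≤ CS`;
* `sections` : `cur h = c K`, `CS κ² ≤ R²` ⟹ for all large `p`, all `x` with `|f x| < R / 2`, all `x'`
  outside the fibre of `x`, all `m ≤ 3 κ c p + 1` : a section of `L ^ p` which vanishes to the
  order `m` at `x` and is `≠ 0` at `x'`.
-/

set_option autoImplicit false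
set_option linter.unusedSectionVars false

open Set Filter Topology Complex Metric Asymptotics
open scoped ContDiff Matrix ComplexConjugate ComplexOrder

namespace Crest.Agent.R281.Js_578

open Crest.Agent.R275.Geo Crest.Agent.R275.Core144 Crest.Agent.R275.EDR890 Crest.Agent.R273
open Crest.Agent.R275.Dg199
open Crest.Agent.R273.Defs_333 Crest.Agent.R273.HM_333 Crest.Agent.R273.Kah_333
open Crest.Agent.R273.Hess_333 Crest.Agent.R273.HessB_333
open Crest.Agent.R273.SerD_945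
open Crest.Agent.R281.LEnd_10 (sqw)
open Crest.Agent.R281.End_946 (psd_smul coe_smul')
open Crest.Agent.R281.Qt_922

noncomputable section

/-- the absolute constant -/
def CS : ℝ := 48 * CJ + 1

theorem one_le_CS : 1 ≤ CS := by
  unfold CS
  linarith [CJ_nonneg]

variable {n : ℕ} {M : Type} [TopologicalSpace M] {A : Atl n M}
variable [T2Space M] [CompactSpace M] [Finite A.ι] (P : Part A) (K : Kah A)

include P in
/-- **sections over a quantified tube** -/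
theorem sections {L : LB A} (h : HM L) {c : ℝ} (hc : 0 < c)
    (hcur : ∀ i, ∀ x ∈ (A.e i).source, cur h i x = (c : ℂ) • K.g i x) {d : ℕ} {κ R : ℝ}
    (hκ : 0 ≤ κ) (hR : CS * κ ^ 2 ≤ R ^ 2) (Q : QTube A K d κ R) :
    ∃ p0 : ℕ, ∀ p, p0 ≤ p → ∀ m : ℕ, (m : ℝ) ≤ 3 * κ * c * p + 1 → ∀ x ∈ Q.U, ‖Q.f x‖ < R / 2 →
      ∀ x' : M, ¬ (x' ∈ Q.U ∧ Q.f x' = Q.f x) → ∃ s, IsHS (L ^ p) univ s ∧
        (∀ i, x ∈ (A.e i).source → (fun z => s i ((A.e i).symm z)) =O[𝓝 (A.e i x)]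
          fun z => ‖z - A.e i x‖ ^ m) ∧
        ∀ i, x' ∈ (A.e i).source → s i x' ≠ 0 := by
  obtain ⟨g0⟩ := exists_hm P (KB A)⁻¹
  obtain ⟨t0, ht0⟩ := exists_pos_add K.g (cur g0) (fun i a b => smAt_cont (K.sm i a b))
    (cur_cont g0) K.pos (fun i x hx => cur_herm g0 i hx) (fun i j x hx => K.tr i j x hx)
    (fun i j x hx => cur_tr g0 hx)
  obtain ⟨κ2, hκ20, hpt⟩ := exists_pt K
  set T : ℝ := t0 + (n + 1) * (CJ * κ2) + (n + 1) * (CJ * (κ / (R / 2) ^ 2)) + 1 with hT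
  obtain ⟨p0, hp0⟩ := exists_nat_ge (2 * T / c)
  refine ⟨p0, fun p hp m hm x hx hxR x' hx' => ?_⟩
  have hR0 : 0 < R := by
    have := norm_nonneg (Q.f x)
    linarith
  have hcR : ‖Q.f x‖ + R / 2 < R := by linarith
  obtain ⟨D2, h2U, h2w, h2u, h2κ⟩ := hpt x'
  set κ1 : ℝ := κ / (R / 2) ^ 2 with hκ1
  have hκ10 : 0 ≤ κ1 := by positivity
  have hCJ := CJ_nonneg
  -- the numbers
  have hpc : T ≤ p * c / 2 := by
    have h1 : 2 * T / c ≤ p := hp0.trans (by exact_mod_cast hp)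
    rw [div_le_iff₀ hc] at h1
    linarith
  have hkey : 3 * κ * c * p * (CJ * κ1) ≤ p * c / 4 := by
    have h1 : 48 * CJ * κ ^ 2 ≤ R ^ 2 := by
      refine le_trans ?_ hR
      unfold CS
      nlinarith [sq_nonneg κ]
    have h2 : 3 * κ * c * p * (CJ * κ1) = (12 * (CJ * κ ^ 2) / R ^ 2) * (p * c) := by
      rw [hκ1]
      field_simp
      ring
    have h3 : 12 * (CJ * κ ^ 2) / R ^ 2 ≤ 1 / 4 := by
      rw [div_le_iff₀ (by positivity)]
      linarith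
    rw [h2]
    have h4 : 0 ≤ p * c := by positivity
    nlinarith
  have hnum : ((n + m : ℕ) : ℝ) * (CJ * κ1) + ((n + 1 : ℕ) : ℝ) * (CJ * κ2) + 1 + t0 ≤ p * c := by
    push_cast
    have h1 : (m : ℝ) * (CJ * κ1) ≤ (3 * κ * c * p + 1) * (CJ * κ1) :=
      mul_le_mul_of_nonneg_right hm (by positivity)
    have h2 : 0 ≤ p * c := by positivity
    nlinarith
  refine sect P K (HM_333.mul g0 (HM_333.pow h p)) (ofQT Q (Q.f x) (half_pos hR0) hcR) D2 hκ10 hκ20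
    (fun i y hy hyU _ => ofQT_psd Q (Q.f x) (half_pos hR0) hcR hy hyU) h2κ (k1 := m) (k2 := 1) ?_
    hx ((ofQT_w Q (Q.f x) (half_pos hR0) hcR).2 rfl) h2U h2w h2u
    (fun hU h0 => hx' ⟨hU, (ofQT_w Q (Q.f x) (half_pos hR0) hcR).1 h0⟩) one_pos
  intro i y hy
  have h1 := (ht0 t0 le_rfl i y hy).posSemidef
  have h2 := psd_smul (sub_nonneg.2 hnum) (K.pos i y hy).posSemidef
  have e : cur (HM_333.mul g0 (HM_333.pow h p)) i y -
      (((n + m : ℕ) : ℝ) * (CJ * κ1) + ((n + 1 : ℕ) : ℝ) * (CJ * κ2) + 1) • K.g i y =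
      (cur g0 i y + (t0 : ℂ) • K.g i y) + (p * c -
        (((n + m : ℕ) : ℝ) * (CJ * κ1) + ((n + 1 : ℕ) : ℝ) * (CJ * κ2) + 1 + t0)) • K.g i y := by
    rw [cur_mul _ _ i hy, cur_pow _ _ i hy, hcur i y hy, coe_smul', coe_smul']
    have e2 : (p : ℂ) • c • K.g i y = ((p : ℝ) * c) • K.g i y := by
      ext a b
      simp only [Matrix.smul_apply, smul_eq_mul, Complex.real_smul]
      push_cast
      ring
    rw [e2]
    module
  rw [e]
  exact h1.add h2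

include P in
/-- the form with `m = ⌊3 κ c p⌋ + 1` -/
theorem sections_floor {L : LB A} (h : HM L) {c : ℝ} (hc : 0 < c)
    (hcur : ∀ i, ∀ x ∈ (A.e i).source, cur h i x = (c : ℂ) • K.g i x) {d : ℕ} {κ R : ℝ}
    (hκ : 0 ≤ κ) (hR : CS * κ ^ 2 ≤ R ^ 2) (Q : QTube A K d κ R) :
    ∃ p0 : ℕ, ∀ p, p0 ≤ p → ∃ m : ℕ, 3 * κ * c * p < m ∧ ∀ x ∈ Q.U, ‖Q.f x‖ < R / 2 →
      ∀ x' : M, ¬ (x' ∈ Q.U ∧ Q.f x' = Q.f x) → ∃ s, IsHS (L ^ p) univ s ∧
        (∀ i, x ∈ (A.e i).source → (fun z => s i ((A.e i).symm z)) =O[𝓝 (A.e i x)]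
          fun z => ‖z - A.e i x‖ ^ m) ∧
        ∀ i, x' ∈ (A.e i).source → s i x' ≠ 0 := by
  obtain ⟨p0, hp0⟩ := sections P K h hc hcur hκ hR Q
  refine ⟨p0, fun p hp => ⟨⌊3 * κ * c * p⌋₊ + 1, ?_, hp0 p hp _ ?_⟩⟩
  · push_cast
    exact Nat.lt_floor_add_one _
  · push_cast
    have h1 : (0 : ℝ) ≤ 3 * κ * c * p := by positivity
    linarith [Nat.floor_le h1]

end

end Crest.Agent.R281.Js_578
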