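import Crest.Agent.R281.RkD_902
import Crest.Agent.R281.TubT_831
import Crest.Agent.R281.Qt1_922
import Crest.Agent.R281.HkM1_835

/-!
# Row 281, KAPPA-1 (node N7 `KappaP`), literal inputs (helper975)

* `TubeQ Q e H k A K κ R` : quantified tube (922's `QTube`) for the complex structure `J k` of `H`
  and the metric `K`, with a tube of tori (831's `HolTube`, `PVT`) in its inner part
* `QTubP Alg` : (K1) for a rational member `x` : a member `H` of the end over `x + i y`, `y²` rational,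
  isomorphic to the chart member, with a quantified tube of arbitrary radius, `κ` fixed
-/

set_option autoImplicit false
set_option linter.unusedSectionVars false
set_option maxSynthPendingDepth 3

open Set Filter Topology
open scoped ContDiff

namespace Crest.Agent.R281.KapD_975

open Crest.Agent.R275.Geo Crest.Agent.R275.Core144 Crest.Agent.R275.GC293
open Crest.Agent.R275.EDR890
open Crest.Agent.R273.Defs_333 Crest.Agent.R273.Kah_333
open Crest.Agent.R260.ACM_580 Crest.Agent.R260.NNB_580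
open Crest.Agent.R281.HkR_835 Crest.Agent.R281.Ti_846 Crest.Agent.R281.Cdr_234
open Crest.Agent.R281.Dif_268 Crest.Agent.R281.PL_713
open Crest.Agent.R281.NefO_476 Crest.Agent.R281.Nef_252
open Crest.Agent.R281.Alg_998 Crest.Agent.R281.RkD_902
open Crest.Agent.R281.Tub_831 (HolTube PVT)
open Crest.Agent.R281.Qt_922 (QTube)

noncomputable section

/-- quantified tube for `J k` and the metric `K` with a tube of tori in its inner part -/
def TubeQ {n : ℕ} {X : Type} [TopologicalSpace X] {C : RCh (Cn (2 * n)) X}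
    (Q : F2 C →ₗ[ℝ] F2 C →ₗ[ℝ] ℝ) (e : F2 C) (H : HkT C) (k : Fin 3) (A : Atl (2 * n) X)
    (K : Kah A) (κ R : ℝ) : Prop :=
  ∃ (q : QTube A K n κ R) (D : Set (Cn n)) (Ψ : Cn n × Cn n → X)
    (l : Fin (2 * n) → Cn n → Cn n) (τ : Cn n → Cn n → Cn n → ℂ) (w w' : F2 C),
    HolTube C (H.J k) w w' n D Ψ l τ ∧ PVT Q e D Ψ l ∧
    ∀ y ∈ D, ∀ c, Ψ (y, c) ∈ q.U ∧ q.f (Ψ (y, c)) = q.f (Ψ (y, 0)) ∧ ‖q.f (Ψ (y, c))‖ < R / 4

variable (Alg : AlgTT)

/-- **(K1)** -/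
def QTubP : Prop :=
  ∀ (n : ℕ) (X : Type) [TopologicalSpace X] [CompactSpace X] [T2Space X]
    [SimplyConnectedSpace X] (C : RCh (Cn (2 * n)) X) (Q : F2 C →ₗ[ℝ] F2 C →ₗ[ℝ] ℝ), Ctx n C Q →
    ∀ (H0 : HkT C) (L0 : PL C) (e : F2 C), Given Q H0 L0 e → ∀ (B : Box Q H0 e)
      (R : Road (Alg n X C Q) B) (x : ℚ), R.c x ∈ B.D → EndIso R x →
    ∃ κ : ℝ, 0 < κ ∧ ∀ r : ℝ, 0 < r → ∃ (H : HkT C) (y z s : ℝ), 0 < y ∧ 0 < z ∧ 0 < s ∧
      (∃ a : ℚ, (a : ℝ) = y ^ 2) ∧ Cl (H.om 1) (z • R.F.sre ⟨x, y⟩) ∧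
      IsoId (ofHk (B.H R.a (R.c x)) 0) (ofHk H 1) ∧
      ∃ (A : Atl (2 * n) X) (hA : Cp (H.acm 1) A) (K : Kah A),
        Eqv (ofKah K).f2 (s • (cmp_of_cp hA).F (H.om 1)) ∧ TubeQ Q e H 1 A K κ r

end

end Crest.Agent.R281.KapD_975
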