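import Crest.Agent.R281.Kas3_975
import Crest.Agent.R281.Js10_578

/-!
# Row 281, KAPPA-1 assembly, part 4 (helper975): the road JETS

* `fbn_of_qtube`      : 922's `QTube` is a fibration `Fbn`
* `sections_of_inp`   : 310's `Inp` ⟹ sections with the cross relation on the fibres and `Rk`
* `sections_of_qtube` : MULT, SECTIONS, QTube, `lb P = Lb ^ m0`, `cur h = c K` ⟹ the same
-/

set_option autoImplicit false
set_option linter.unusedSectionVars false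

open Set Filter Topology Complex Metric MeasureTheory

noncomputable section

namespace Crest.Agent.R281.Kas_975

open Crest.Agent.R275 Crest.Agent.R275.Geo Crest.Agent.R275.Core144 Crest.Agent.R275.Loc2879
open Crest.Agent.R273.Defs_333 Crest.Agent.R273.FS_333 Crest.Agent.R281.Rk_599
open Crest.Agent.R273.SerA_945 Crest.Agent.R273.SerB_945 Crest.Agent.R273.SerC_945
open Crest.Agent.R273.SerE_945 Crest.Agent.R273.TD3_733 Crest.Agent.R273.Kah_333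
open Crest.Agent.R281.Kd_22 Crest.Agent.R281.Gal2_257 Crest.Agent.R281.Gal4_257
open Crest.Agent.R281.AF_867 Crest.Agent.R281.Loc_310 Crest.Agent.R281.Jd_310
open Crest.Agent.R281.Qt_922 Crest.Agent.R281.Ja3_257

variable {N : ℕ} {M : Type} [TopologicalSpace M] {A : Atl N M} {n : ℕ}

/-- 922's `QTube` is a fibration -/
theorem fbn_of_qtube {K : Kah A} {κ R : ℝ} (q : QTube A K n κ R) : Fbn A n q.U q.f where
  op := q.op
  cont := q.cont
  hol := q.hol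
  surj := q.surj
  disc x hx z hz hxz := by
    obtain ⟨g, hg, h0, h1⟩ := q.q2 x hx z hz hxz
    exact ⟨g, ⟨hg.cont, hg.hol⟩, fun ζ hζ => hg.mem ζ hζ, h0, h1⟩

section Inp

variable {U U' : Set M} {f : M → Cn n}

/-- **310's `Inp` gives sections** with the cross relation on the fibres and of rank `n` -/
theorem sections_of_inp (H : Fbn A n U f) (P : ProjD A)
    {E0 : Finset (MvPolynomial (Fin (P.N + 1)) ℂ)} {m d : ℕ}
    (hI : Inp A (lb P) (fun k => sec P k) E0 U U' f m d) (hUU : U' ⊆ U) {x₁ : M}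
    (hx₁ : U' ∈ 𝓝 x₁) :
    ∃ r : ℝ, 0 < r ∧ ∃ D : ℕ, 0 < D ∧ ∃ s : Fin (n + 1) → A.ι → M → ℂ,
      (∀ a, IsHS ((lb P) ^ D) univ (s a)) ∧
      (∀ a, ∀ x ∈ U, ∀ x' ∈ U, f x ∈ ball (f x₁) r → f x' = f x → ∀ i i', x ∈ (A.e i).source →
        x' ∈ (A.e i').source → s a i x * s 0 i' x' = s a i' x' * s 0 i x) ∧
      ∃ i, ∃ x ∈ U, f x ∈ ball (f x₁) r ∧ Rk A s i x := by
  classical
  have hxU : x₁ ∈ U := hUU (mem_of_mem_nhds hx₁)
  obtain ⟨i₀, hi₀⟩ := A.cover x₁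
  obtain ⟨k0, hk0⟩ := exists_F_ne P hi₀
  have hF0 : Hm A (fun x => P.F i₀ x k0) x₁ :=
    hm_of_holAt (P.hol i₀ k0) isOpen_univ hi₀ (mem_univ x₁)
  obtain ⟨E₂, b, hb⟩ := exists_fbox H hxU
    (fun y => y ∈ U' ∧ y ∈ (A.e i₀).source ∧ P.F i₀ y k0 ≠ 0) (by
      have h1 : ∀ᶠ y in 𝓝 x₁, y ∈ U' := hx₁
      have h2 : ∀ᶠ y in 𝓝 x₁, y ∈ (A.e i₀).source := (A.e i₀).open_source.mem_nhds hi₀
      have h3 : ∀ᶠ y in 𝓝 x₁, P.F i₀ y k0 ≠ 0 := hF0.ev_ne hk0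
      exact h1.and (h2.and h3))
  have h0 : ∀ z ∈ ball (f x₁, (0 : E₂)) b.r, P.F b.i (b.Psi z) k0 ≠ 0 := by
    intro z hz h
    obtain ⟨-, h2, h3⟩ := hb z hz
    obtain ⟨c, hc⟩ := P.tr i₀ b.i (b.Psi z) ⟨h2, b.src z hz⟩
    apply h3
    rw [hc, Pi.smul_apply, h, smul_zero]
  have hcrd : ∀ z ∈ ball (f x₁, (0 : E₂)) b.r,
      crd A (fun k => sec P k) k0 b.i (b.Psi z) = b.aff P k0 z := by
    intro z hz
    funext l
    simp only [crd, FBox.aff]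
    rw [sec_eq P (b.src z hz), sec_eq P (b.src z hz)]
  have hJ0 := jetDat (i := b.i) (j0 := k0) hI hUU (B := ball (f x₁, (0 : E₂)) b.r) (Ψ := b.Psi)
    (fun z hz => b.src z hz) (fun z hz => (hb z hz).1)
    (fun z hz => by rw [sec_eq P (b.src z hz)]; exact h0 z hz) (fun z hz => b.val z hz)
  have hJ : JetDat (Crest.Agent.R281.Jd_310.Tf A (fun k => sec P k) k0 U f)
      (ball (f x₁, (0 : E₂)) b.r) (b.aff P k0) (aE E0 k0) m d
      (fun z => th A (fun k => sec P k) k0 b.i (b.Psi z))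
      (fun z => fderiv ℂ (th A (fun k => sec P k) k0 b.i (b.Psi z)) 0) :=
    { e0 := fun z hz => (hJ0.e0 z hz).trans (hcrd z hz)
      e1 := hJ0.e1
      e2 := hJ0.e2
      e3 := fun z hz y hy => hJ0.e3 z hz y (fun e => by rw [hcrd z hz]; exact hy e)
      j1 := hJ0.j1
      j2 := hJ0.j2
      j3 := hJ0.j3
      j4 := hJ0.j4 }
  obtain ⟨Pp, Qq, z₀, hz₀, hQ, hX, hli⟩ := exists_rational_jets'
    (MeasureTheory.Measure.addHaar : Measure (Cn n × E₂)) b.hr (b.aff_an P h0) hJ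
  have hae : ∀ (R : MvPolynomial (Fin (P.N + 1)) ℂ) (y : Fin (P.N + 1) → ℂ),
      MvPolynomial.aeval y R = MvPolynomial.eval y R := fun R y => by
    rw [MvPolynomial.aeval_def, MvPolynomial.eval, MvPolynomial.coe_eval₂Hom]
    rfl
  have hfr : Module.finrank ℂ (Cn n) = n := finrank_euclideanSpace_fin
  have key : ∀ (r : ℕ) (_ : r = n) (Pp Qq : Fin r → MvPolynomial (Fin (P.N + 1)) ℂ),
      (∀ j, MvPolynomial.eval (b.aff P k0 z₀) (Qq j) ≠ 0) →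
      (∀ j, ∀ z ∈ ball (f x₁, (0 : E₂)) b.r, ∀ z' ∈ ball (f x₁, (0 : E₂)) b.r, z.1 = z'.1 →
        MvPolynomial.eval (b.aff P k0 z) (Pp j) * MvPolynomial.eval (b.aff P k0 z') (Qq j) =
          MvPolynomial.eval (b.aff P k0 z') (Pp j) * MvPolynomial.eval (b.aff P k0 z) (Qq j)) →
      LinearIndependent ℂ (fun j => fderiv ℂ (fun z => MvPolynomial.eval (b.aff P k0 z) (Pp j) /
        MvPolynomial.eval (b.aff P k0 z) (Qq j)) z₀) →
      ∃ r : ℝ, 0 < r ∧ ∃ D : ℕ, 0 < D ∧ ∃ s : Fin (n + 1) → A.ι → M → ℂ,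
        (∀ a, IsHS ((lb P) ^ D) univ (s a)) ∧
        (∀ a, ∀ x ∈ U, ∀ x' ∈ U, f x ∈ ball (f x₁) r → f x' = f x → ∀ i i',
          x ∈ (A.e i).source → x' ∈ (A.e i').source →
            s a i x * s 0 i' x' = s a i' x' * s 0 i x) ∧
        ∃ i, ∃ x ∈ U, f x ∈ ball (f x₁) r ∧ Rk A s i x := by
    rintro r rfl Pp Qq hQ hX hli
    obtain ⟨D, hD, s, hs, hc, hrk⟩ := sections_of_box (k := ℂ) H P b h0 (Pp := Pp) (Qq := Qq)
      (fun j z hz z' hz' h => by simp only [hae]; exact hX j z hz z' hz' h) hz₀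
      (fun j => by rw [hae]; exact hQ j) (by simp only [hae]; exact hli)
    refine ⟨b.r, b.hr, D, hD, s, hs, hc, b.i, b.Psi z₀, b.memU _ hz₀, ?_, hrk b.i (b.src _ hz₀)⟩
    rw [b.val _ hz₀]
    rw [← ball_prod_same] at hz₀
    exact hz₀.1
  exact key _ hfr Pp Qq hQ hX hli

end Inp

section QT

variable {K : Kah A} {κ R : ℝ}
variable [T2Space M] [ConnectedSpace M] [CompactSpace M] [Finite A.ι]

/-- **JETS**: a quantified tube gives sections of a power of `lb P` which are constant (as ratios)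
on the fibres over a ball, of rank `n` at one point -/
theorem sections_of_qtube (PA : Part A) (q : QTube A K n κ R) {Lb : LB A}
    (h : HM Lb) {c : ℝ} (hc : 0 < c)
    (hcur : ∀ i, ∀ y ∈ (A.e i).source, cur h i y = (c : ℂ) • K.g i y) (hκ : 0 ≤ κ)
    (hR : Crest.Agent.R281.Js_578.CS * κ ^ 2 ≤ R ^ 2) (P : ProjD A) {m0 : ℕ} (hm0 : 0 < m0)
    (hP : lb P = Lb ^ m0) {x₁ : M} (hx₁ : x₁ ∈ q.U) (hx₁' : ‖q.f x₁‖ < R / 2) :
    ∃ r : ℝ, 0 < r ∧ ∃ D : ℕ, 0 < D ∧ ∃ s : Fin (n + 1) → A.ι → M → ℂ,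
      (∀ a, IsHS ((lb P) ^ D) univ (s a)) ∧
      (∀ a, ∀ x ∈ q.U, ∀ x' ∈ q.U, q.f x ∈ ball (q.f x₁) r → q.f x' = q.f x → ∀ i i',
        x ∈ (A.e i).source → x' ∈ (A.e i').source →
          s a i x * s 0 i' x' = s a i' x' * s 0 i x) ∧
      ∃ i, ∃ x ∈ q.U, q.f x ∈ ball (q.f x₁) r ∧ Rk A s i x := by
  obtain ⟨E0, d0, mu, hI⟩ := Crest.Agent.R281.Js_578.exists_inp PA q h hc hcur hκ hR P hm0 hP
  refine sections_of_inp (fbn_of_qtube q) P (hI d0 le_rfl) (fun x hx => hx.1) ?_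
  have h1 : ∀ᶠ x in 𝓝 x₁, x ∈ q.U := q.op.mem_nhds hx₁
  have h2 : ∀ᶠ x in 𝓝 x₁, ‖q.f x‖ < R / 2 := by
    have h3 : ContinuousAt q.f x₁ := q.cont.continuousAt (q.op.mem_nhds hx₁)
    exact (h3.norm).eventually_lt continuousAt_const hx₁'
  filter_upwards [h1, h2] with x a b
  exact ⟨a, b⟩

end QT

end Crest.Agent.R281.Kas_975
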