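import Crest.Agent.R281.Kd3_22

/-!
Row 281 (S0424), K1-DIV (helper22), part 4: on a holomorphic tube `P : F × Om → M` (e.g. a holomorphic
torus fibration in action-angle form) on whose fibres the ratios `s_j / s_{j₀}` are constant, the
movable part `t_{j₀}` has no zero on a fibre unless it vanishes identically on this fibre.

* `HTube A F B`   : holomorphic tube, locally invertible
* `HTube.ofChart` : construction from chart data (invertible derivative)
* `no_zero`       : the theorem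
* `exists_fibre`  : such fibres are dense
-/

set_option autoImplicit false
set_option linter.unusedSectionVars false

open Set Filter Topology Complex

noncomputable section

namespace Crest.Agent.R281.Kd_22

open Crest.Agent.R275.Geo Crest.Agent.R275.Core144 Crest.Agent.R275.Loc2879
open Crest.Agent.R273.Map_835 Crest.Agent.R273.PB_835

variable {n : ℕ} {M : Type} [TopologicalSpace M]

/-- a holomorphic tube: `P : F × Om → M` locally biholomorphic -/
structure HTube (A : Atl n M) (F B : Type) [NormedAddCommGroup F] [NormedSpace ℂ F]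
    [NormedAddCommGroup B] [NormedSpace ℂ B] where
  P : F × B → M
  Om : Set B
  isOpen : IsOpen Om
  cont : ∀ p : F × B, p.2 ∈ Om → ContinuousAt P p
  pull : ∀ p : F × B, p.2 ∈ Om → ∀ f : M → ℂ, Hm A f (P p) → AnalyticAt ℂ (fun q => f (P q)) p
  inv : ∀ p : F × B, p.2 ∈ Om → ∃ χ : M → F × B, χ (P p) = p ∧ ContinuousAt χ (P p) ∧
    (∀ φ : F × B → ℂ, AnalyticAt ℂ φ p → Hm A (fun w => φ (χ w)) (P p)) ∧
    ∀ᶠ w in 𝓝 (P p), P (χ w) = w

variable {A : Atl n M} {F B : Type} [NormedAddCommGroup F] [NormedSpace ℂ F]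
  [NormedAddCommGroup B] [NormedSpace ℂ B]

/-- change of atlas -/
def HTube.change (T : HTube A F B) {A' : Atl n M} (h : HolMap A' A id) (h' : HolMap A A' id) :
    HTube A' F B where
  P := T.P
  Om := T.Om
  isOpen := T.isOpen
  cont := T.cont
  pull p hp f hf := T.pull p hp f (hm_change h' hf)
  inv p hp := by
    obtain ⟨χ, h1, h2, h3, h4⟩ := T.inv p hp
    exact ⟨χ, h1, h2, fun φ hφ => hm_change h (h3 φ hφ), h4⟩

/-- construction from chart data: holomorphic in the charts with bijective derivative -/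
def HTube.ofChart [FiniteDimensional ℂ F] [FiniteDimensional ℂ B] (P : F × B → M) (Om : Set B)
    (isOpen : IsOpen Om) (cont : ∀ p : F × B, p.2 ∈ Om → ContinuousAt P p)
    (an : ∀ p : F × B, p.2 ∈ Om → ∀ i, P p ∈ (A.e i).source →
      AnalyticAt ℂ (fun q => A.e i (P q)) p)
    (bij : ∀ p : F × B, p.2 ∈ Om → ∀ i, P p ∈ (A.e i).source →
      Function.Bijective (fderiv ℂ (fun q => A.e i (P q)) p)) : HTube A F B where
  P := P
  Om := Om
  isOpen := isOpen
  cont := cont
  pull p hp f hf := by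
    obtain ⟨i, hi⟩ := A.cover (P p)
    have h1 := an p hp i hi
    refine (AnalyticAt.comp (g := fun z => f ((A.e i).symm z)) (f := fun q => A.e i (P q))
      (hf i hi) h1).congr ?_
    filter_upwards [(cont p hp).preimage_mem_nhds ((A.e i).open_source.mem_nhds hi)] with q hq
    have hq' : P q ∈ (A.e i).source := hq
    simp only [Function.comp, (A.e i).left_inv hq']
  inv p hp := by
    have _ : CompleteSpace F := FiniteDimensional.complete ℂ F
    have _ : CompleteSpace B := FiniteDimensional.complete ℂ B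
    obtain ⟨i, hi⟩ := A.cover (P p)
    have h1 := an p hp i hi
    have h2 := bij p hp i hi
    set D := fderiv ℂ (fun q => A.e i (P q)) p with hD
    let D' : (F × B) ≃L[ℂ] Cn n := ContinuousLinearEquiv.ofBijective D
      (LinearMap.ker_eq_bot.2 h2.1) (LinearMap.range_eq_top.2 h2.2)
    have h3 : HasFDerivAt (fun q => A.e i (P q)) (D' : (F × B) →L[ℂ] Cn n) p := by
      have : (D' : (F × B) →L[ℂ] Cn n) = D := ContinuousLinearMap.ext fun _ => rfl
      rw [this]
      exact h1.differentiableAt.hasFDerivAt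
    have h4 : ContDiffAt ℂ ⊤ (fun q => A.e i (P q)) p := h1.contDiffAt
    set G := h4.localInverse h3 (by simp) with hG
    have h5 : ContDiffAt ℂ ⊤ G (A.e i (P p)) := h4.to_localInverse h3 (by simp)
    have h6 : AnalyticAt ℂ G (A.e i (P p)) := h5.analyticAt
    have h7 : G (A.e i (P p)) = p := h4.localInverse_apply_image h3 (by simp)
    have h8 : ∀ᶠ z in 𝓝 (A.e i (P p)), A.e i (P (G z)) = z :=
      (h4.hasStrictFDerivAt' h3 (by simp)).eventually_right_inverse
    refine ⟨fun w => G (A.e i w), h7, ?_, ?_, ?_⟩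
    · exact ContinuousAt.comp (g := G) h6.continuousAt ((A.e i).continuousAt hi)
    · intro φ hφ
      refine hm_chart (φ := fun z => φ (G z)) hi ?_
      exact AnalyticAt.comp (g := φ) (f := G) (by rw [h7]; exact hφ) h6
    · have h9 : ContinuousAt (fun w => P (G (A.e i w))) (P p) := by
        have h10 : ContinuousAt (fun w => G (A.e i w)) (P p) :=
          ContinuousAt.comp (g := G) h6.continuousAt ((A.e i).continuousAt hi)
        refine ContinuousAt.comp (g := P) (f := fun w => G (A.e i w)) ?_ h10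
        rw [h7]; exact cont p hp
      have h11 : P (G (A.e i (P p))) = P p := by rw [h7]
      have h12 : ∀ᶠ w in 𝓝 (P p), P (G (A.e i w)) ∈ (A.e i).source :=
        h9.preimage_mem_nhds (by rw [h11]; exact (A.e i).open_source.mem_nhds hi)
      filter_upwards [h12, (ev_iff' hi).1 h8, (A.e i).open_source.mem_nhds hi] with w a b c
      exact (A.e i).injOn a c b

namespace HTube

variable (T : HTube A F B)

/-- a nonflat function is not flat on the tube -/
theorem nonflat {f : M → ℂ} {p : F × B} (hp : p.2 ∈ T.Om)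
    (hne : ¬ ∀ᶠ w in 𝓝 (T.P p), f w = 0) : ¬ ∀ᶠ q in 𝓝 p, f (T.P q) = 0 := by
  intro hcon
  obtain ⟨χ, h1, h2, -, h4⟩ := T.inv p hp
  apply hne
  have h5 : Tendsto χ (𝓝 (T.P p)) (𝓝 p) := by
    have := h2.tendsto
    rwa [h1] at this
  filter_upwards [h5.eventually hcon, h4] with w a b
  rwa [b] at a

end HTube

/-- **no zero on a fibre** -/
theorem no_zero (T : HTube A F B) {κ : Type*} {N : LB A} (C : CaD A)
    {s t : κ → A.ι → M → ℂ} (ht : ∀ j, IsHS N univ (t j))
    (hst : ∀ j i, ∀ x ∈ (A.e i).source, s j i x = C.h i x * t j i x)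
    (hcop : ∀ i, ∀ x ∈ (A.e i).source, Cop A (fun j => t j i) x) (j₀ : κ)
    (cross : ∀ j, ∀ c c' : F, ∀ b ∈ T.Om, ∀ i i', T.P (c, b) ∈ (A.e i).source →
      T.P (c', b) ∈ (A.e i').source → s j i (T.P (c, b)) * s j₀ i' (T.P (c', b)) =
        s j i' (T.P (c', b)) * s j₀ i (T.P (c, b)))
    {b : B} (hb : b ∈ T.Om) {c' : F} {i' : A.ι} (hi' : T.P (c', b) ∈ (A.e i').source)
    (hne : t j₀ i' (T.P (c', b)) ≠ 0) (c : F) (i : A.ι) (hi : T.P (c, b) ∈ (A.e i).source) :
    t j₀ i (T.P (c, b)) ≠ 0 := by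
  refine hcop i _ hi (t j₀ i) (hm_of_isHS (ht j₀) hi) fun j => ?_
  -- the four pulled back functions on `(F × F) × B`
  have pi1 : AnalyticAt ℂ (fun q : (F × F) × B => (q.1.1, q.2)) ((c, c'), b) :=
    (analyticAt_fst.comp_of_eq analyticAt_fst rfl).prod analyticAt_snd
  have pi2 : AnalyticAt ℂ (fun q : (F × F) × B => (q.1.2, q.2)) ((c, c'), b) :=
    (analyticAt_snd.comp_of_eq analyticAt_fst rfl).prod analyticAt_snd
  have hL : ∀ f : M → ℂ, Hm A f (T.P (c, b)) →
      AnalyticAt ℂ (fun q : (F × F) × B => f (T.P (q.1.1, q.2))) ((c, c'), b) := fun f hf =>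
    AnalyticAt.comp (g := fun q : F × B => f (T.P q)) (f := fun q : (F × F) × B => (q.1.1, q.2))
      (T.pull (c, b) hb f hf) pi1
  have hR : ∀ f : M → ℂ, Hm A f (T.P (c', b)) →
      AnalyticAt ℂ (fun q : (F × F) × B => f (T.P (q.1.2, q.2))) ((c, c'), b) := fun f hf =>
    AnalyticAt.comp (g := fun q : F × B => f (T.P q)) (f := fun q : (F × F) × B => (q.1.2, q.2))
      (T.pull (c', b) hb f hf) pi2
  have hCL := hL (C.h i) (C.hm i _ hi)
  have hCR := hR (C.h i') (C.hm i' _ hi')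
  have htL := fun l : κ => hL (t l i) (hm_of_isHS (ht l) hi)
  have htR := fun l : κ => hR (t l i') (hm_of_isHS (ht l) hi')
  -- slices
  have sl1 : Tendsto (fun q : F × B => (((q.1, c'), q.2) : (F × F) × B)) (𝓝 (c, b))
      (𝓝 ((c, c'), b)) := by
    have : ContinuousAt (fun q : F × B => (((q.1, c'), q.2) : (F × F) × B)) (c, b) := by fun_prop
    exact this.tendsto
  have sl2 : Tendsto (fun q : F × B => (((c, q.1), q.2) : (F × F) × B)) (𝓝 (c', b))
      (𝓝 ((c, c'), b)) := by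
    have : ContinuousAt (fun q : F × B => (((c, q.1), q.2) : (F × F) × B)) (c', b) := by fun_prop
    exact this.tendsto
  -- eventually in the domains
  have evL : ∀ᶠ q : F × B in 𝓝 (c, b), T.P q ∈ (A.e i).source :=
    (T.cont (c, b) hb).preimage_mem_nhds ((A.e i).open_source.mem_nhds hi)
  have evR : ∀ᶠ q : F × B in 𝓝 (c', b), T.P q ∈ (A.e i').source :=
    (T.cont (c', b) hb).preimage_mem_nhds ((A.e i').open_source.mem_nhds hi')
  have evO : ∀ᶠ q : (F × F) × B in 𝓝 ((c, c'), b), q.2 ∈ T.Om :=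
    continuousAt_snd.preimage_mem_nhds (T.isOpen.mem_nhds hb)
  have key : ∀ᶠ q : (F × F) × B in 𝓝 ((c, c'), b),
      t j i (T.P (q.1.1, q.2)) * t j₀ i' (T.P (q.1.2, q.2)) =
        t j i' (T.P (q.1.2, q.2)) * t j₀ i (T.P (q.1.1, q.2)) := by
    have h1 : gm _ hCL * gm _ hCR * gm _ (((htL j).mul (htR j₀)).sub ((htR j).mul (htL j₀))) =
        0 := by
      rw [gm_mul, gm_mul, gm_eq_zero]
      filter_upwards [pi1.continuousAt.eventually evL, pi2.continuousAt.eventually evR, evO]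
        with q a b d
      have e := cross j q.1.1 q.1.2 q.2 d i i' a b
      rw [hst _ _ _ a, hst _ _ _ b, hst _ _ _ b, hst _ _ _ a] at e
      simp only [Pi.mul_apply, Pi.sub_apply]
      linear_combination e
    rcases mul_eq_zero.1 h1 with h2 | h2
    · exfalso
      rcases mul_eq_zero.1 h2 with h3 | h3
      · rw [gm_eq_zero] at h3
        exact T.nonflat hb (C.nf i _ hi) (sl1.eventually h3)
      · rw [gm_eq_zero] at h3
        exact T.nonflat hb (C.nf i' _ hi') (sl2.eventually h3)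
    · rw [gm_eq_zero] at h2
      filter_upwards [h2] with q hq
      exact sub_eq_zero.1 hq
  have key2 : ∀ᶠ q : F × B in 𝓝 (c, b), t j i (T.P q) * t j₀ i' (T.P (c', q.2)) =
      t j i' (T.P (c', q.2)) * t j₀ i (T.P q) := sl1.eventually key
  -- the quotient
  have hmid : AnalyticAt ℂ (fun q : F × B => ((c', q.2) : F × B)) (c, b) :=
    analyticAt_const.prod analyticAt_snd
  have hq1 : AnalyticAt ℂ (fun q : F × B => t j i' (T.P (c', q.2))) (c, b) :=
    AnalyticAt.comp (g := fun q : F × B => t j i' (T.P q)) (f := fun q : F × B => (c', q.2))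
      (T.pull (c', b) hb _ (hm_of_isHS (ht j) hi')) hmid
  have hq2 : AnalyticAt ℂ (fun q : F × B => t j₀ i' (T.P (c', q.2))) (c, b) :=
    AnalyticAt.comp (g := fun q : F × B => t j₀ i' (T.P q)) (f := fun q : F × B => (c', q.2))
      (T.pull (c', b) hb _ (hm_of_isHS (ht j₀) hi')) hmid
  have hq : AnalyticAt ℂ (fun q : F × B => t j i' (T.P (c', q.2)) / t j₀ i' (T.P (c', q.2)))
      (c, b) := hq1.div hq2 hne
  have hqne : ∀ᶠ q : F × B in 𝓝 (c, b), t j₀ i' (T.P (c', q.2)) ≠ 0 :=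
    hq2.continuousAt.eventually_ne hne
  obtain ⟨χ, h1, h2, h3, h4⟩ := T.inv (c, b) hb
  refine ⟨_, h3 _ hq, ?_⟩
  have h5 : Tendsto χ (𝓝 (T.P (c, b))) (𝓝 (c, b)) := by
    have := h2.tendsto
    rwa [h1] at this
  filter_upwards [h5.eventually key2, h5.eventually hqne, h4] with w a b d
  rw [d] at a
  field_simp
  rw [a]; ring

/-- fibres without zeros are dense -/
theorem exists_fibre (T : HTube A F B) {κ : Type*} {N : LB A} (C : CaD A)
    {s t : κ → A.ι → M → ℂ} (ht : ∀ j, IsHS N univ (t j))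
    (hst : ∀ j i, ∀ x ∈ (A.e i).source, s j i x = C.h i x * t j i x)
    (hcop : ∀ i, ∀ x ∈ (A.e i).source, Cop A (fun j => t j i) x) (j₀ : κ)
    (hnf : ∀ i, ∀ x ∈ (A.e i).source, ¬ ∀ᶠ y in 𝓝 x, t j₀ i y = 0)
    (cross : ∀ j, ∀ c c' : F, ∀ b ∈ T.Om, ∀ i i', T.P (c, b) ∈ (A.e i).source →
      T.P (c', b) ∈ (A.e i').source → s j i (T.P (c, b)) * s j₀ i' (T.P (c', b)) =
        s j i' (T.P (c', b)) * s j₀ i (T.P (c, b)))
    {b₁ : B} (hb₁ : b₁ ∈ T.Om) {W : Set B} (hW : W ∈ 𝓝 b₁) :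
    ∃ b ∈ W ∩ T.Om, ∀ c i, T.P (c, b) ∈ (A.e i).source → t j₀ i (T.P (c, b)) ≠ 0 := by
  obtain ⟨i, hi⟩ := A.cover (T.P (0, b₁))
  have h1 := T.nonflat (p := (0, b₁)) hb₁ (hnf i _ hi)
  have h2 : ∀ᶠ q : F × B in 𝓝 (0, b₁), T.P q ∈ (A.e i).source ∧ q.2 ∈ T.Om ∧ q.2 ∈ W := by
    filter_upwards [(T.cont (0, b₁) hb₁).preimage_mem_nhds ((A.e i).open_source.mem_nhds hi),
      continuousAt_snd.preimage_mem_nhds (T.isOpen.mem_nhds hb₁),
      continuousAt_snd.preimage_mem_nhds hW] with q a b c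
    exact ⟨a, b, c⟩
  obtain ⟨q, hq1, hq2, hq3, hq4⟩ : ∃ q : F × B, t j₀ i (T.P q) ≠ 0 ∧ T.P q ∈ (A.e i).source ∧
      q.2 ∈ T.Om ∧ q.2 ∈ W := by
    have h3 : ∃ᶠ q : F × B in 𝓝 (0, b₁), t j₀ i (T.P q) ≠ 0 := by
      rwa [Filter.not_eventually] at h1
    obtain ⟨q, a, b⟩ := (h3.and_eventually h2).exists
    exact ⟨q, a, b⟩
  exact ⟨q.2, ⟨hq4, hq3⟩, fun c l hl =>
    no_zero T C ht hst hcop j₀ cross hq3 (c' := q.1) hq2 hq1 c l hl⟩

end Crest.Agent.R281.Kd_22
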