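import Crest.Agent.R281.Kas1_975
import Crest.Agent.R281.Kd4_22

/-!
# Row 281, KAPPA-1 assembly, part 2 (helper975): along the fibres of a holomorphic tube

* `HTube.restr`       : a smaller base
* `sec_zero_fibre`    : a section which vanishes on an open piece of a fibre vanishes on the fibre
* `cross_fibre`       : the cross relation spreads from a box to whole fibres
* `Co P S`            : the cone over `S ⊆ M`;  `Tf P k0 S`: its part `v_k0 = 1`
* `zer_of_chow`       : (h3) of `Gal4_257.exists_rational` from equations of the fibre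
* `trS_of_cone`       : (h2) from the cone form
* `tf_inj`            : (h4) from disjointness
* `exists_sections_tube` : the composition
-/

set_option autoImplicit false
set_option linter.unusedSectionVars false

open Set Filter Topology Complex Metric MeasureTheory

noncomputable section

namespace Crest.Agent.R281.Kas_975

open Crest.Agent.R275.Geo Crest.Agent.R275.Core144 Crest.Agent.R275.Loc2879
open Crest.Agent.R273.Defs_333 Crest.Agent.R273.FS_333 Crest.Agent.R281.Rk_599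
open Crest.Agent.R281.Kd_22 Crest.Agent.R281.Gal2_257 Crest.Agent.R281.Gal4_257

variable {n : ℕ} {M : Type} [TopologicalSpace M] {A : Atl n M}
  {F B : Type} [NormedAddCommGroup F] [NormedSpace ℂ F]
  [NormedAddCommGroup B] [NormedSpace ℂ B]

/-- a smaller base -/
def restr (T : HTube A F B) {Om' : Set B} (ho : IsOpen Om') (hs : Om' ⊆ T.Om) : HTube A F B where
  P := T.P
  Om := Om'
  isOpen := ho
  cont p hp := T.cont p (hs hp)
  pull p hp := T.pull p (hs hp)
  inv p hp := T.inv p (hs hp)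

/-- the fibre over `b` -/
def fib (T : HTube A F B) (b : B) : Set M := range fun c => T.P (c, b)

/-! ### identity theorem along a fibre -/

theorem an_fibre (T : HTube A F B) {f : M → ℂ} {b : B} {c : F} (hb : b ∈ T.Om)
    (hf : Hm A f (T.P (c, b))) : AnalyticAt ℂ (fun c' => f (T.P (c', b))) c :=
  AnalyticAt.comp (g := fun q : F × B => f (T.P q)) (f := fun c' : F => (c', b))
    (T.pull (c, b) hb f hf) (analyticAt_id.prod analyticAt_const)

theorem ev_source (T : HTube A F B) {b : B} {c : F} (hb : b ∈ T.Om) {i : A.ι}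
    (hi : T.P (c, b) ∈ (A.e i).source) : ∀ᶠ c' in 𝓝 c, T.P (c', b) ∈ (A.e i).source := by
  have h1 : ContinuousAt (fun c' => T.P (c', b)) c :=
    ContinuousAt.comp (g := T.P) (f := fun c' : F => (c', b)) (T.cont (c, b) hb)
      (continuousAt_id.prodMk continuousAt_const)
  exact h1 ((A.e i).open_source.mem_nhds hi)

/-- a section which vanishes on an open piece of a fibre vanishes on the fibre -/
theorem sec_zero_fibre (T : HTube A F B) {L : LB A} {t : A.ι → M → ℂ} (ht : IsHS L univ t)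
    {b : B} (hb : b ∈ T.Om) {V : Set F} (hV : IsOpen V) (hVn : V.Nonempty)
    (h0 : ∀ c ∈ V, ∀ i, T.P (c, b) ∈ (A.e i).source → t i (T.P (c, b)) = 0) :
    ∀ c i, T.P (c, b) ∈ (A.e i).source → t i (T.P (c, b)) = 0 := by
  letI : NormedSpace ℝ F := NormedSpace.complexToReal
  set Z : Set F := {c | ∀ᶠ c' in 𝓝 c, ∀ i, T.P (c', b) ∈ (A.e i).source → t i (T.P (c', b)) = 0}
    with hZ
  have hZo : IsOpen Z := by
    rw [isOpen_iff_mem_nhds]
    intro c hc
    exact eventually_eventually_nhds.2 hc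
  have hZc : IsClosed Z := by
    refine isClosed_of_closure_subset fun c hc => ?_
    obtain ⟨i, hi⟩ := A.cover (T.P (c, b))
    have h1 : ∀ᶠ c' in 𝓝 c, T.P (c', b) ∈ (A.e i).source ∧
        AnalyticAt ℂ (fun c' => t i (T.P (c', b))) c' :=
      (ev_source T hb hi).and (an_fibre T hb (hm_of_isHS ht hi)).eventually_analyticAt
    obtain ⟨ε, hε, hball⟩ := Metric.eventually_nhds_iff_ball.1 h1
    obtain ⟨c1, hc1b, hc1Z⟩ := mem_closure_iff.1 hc _ isOpen_ball (mem_ball_self hε)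
    have h2 : (fun c' => t i (T.P (c', b))) =ᶠ[𝓝 c1] 0 := by
      filter_upwards [hc1Z, isOpen_ball.mem_nhds hc1b] with c' hc' hb'
      exact hc' i (hball c' hb').1
    have h3 : EqOn (fun c' => t i (T.P (c', b))) 0 (ball c ε) :=
      AnalyticOnNhd.eqOn_zero_of_preconnected_of_eventuallyEq_zero
        (fun c' hc' => (hball c' hc').2) (convex_ball c ε).isPreconnected hc1b h2
    filter_upwards [isOpen_ball.mem_nhds (mem_ball_self hε)] with c' hc' j hj
    have hi' := (hball c' hc').1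
    exact (ht.zero_iff ⟨hi', hj⟩ (mem_univ _)).1 (h3 hc')
  obtain ⟨c₀, hc₀⟩ := hVn
  have hne : Z.Nonempty := ⟨c₀, by
    show ∀ᶠ c' in 𝓝 c₀, _
    filter_upwards [hV.mem_nhds hc₀] with c' hc'
    exact h0 c' hc'⟩
  have huniv : Z = univ := IsClopen.eq_univ ⟨hZc, hZo⟩ hne
  intro c
  have h1 : c ∈ Z := huniv ▸ mem_univ c
  exact h1.self_of_nhds

/-- the cross relation spreads from a box to whole fibres -/
theorem cross_fibre (T : HTube A F B) {L : LB A} {s s₀ : A.ι → M → ℂ} (hs : IsHS L univ s)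
    (hs₀ : IsHS L univ s₀) {b : B} (hb : b ∈ T.Om) {V : Set F} (hV : IsOpen V) (hVn : V.Nonempty)
    (hX : ∀ c ∈ V, ∀ c' ∈ V, ∀ i i', T.P (c, b) ∈ (A.e i).source →
      T.P (c', b) ∈ (A.e i').source →
        s i (T.P (c, b)) * s₀ i' (T.P (c', b)) = s i' (T.P (c', b)) * s₀ i (T.P (c, b)))
    (c c' : F) (i i' : A.ι) (hi : T.P (c, b) ∈ (A.e i).source)
    (hi' : T.P (c', b) ∈ (A.e i').source) :
    s i (T.P (c, b)) * s₀ i' (T.P (c', b)) = s i' (T.P (c', b)) * s₀ i (T.P (c, b)) := by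
  -- first `c` arbitrary, `c' ∈ V`
  have h1 : ∀ c' ∈ V, ∀ i', T.P (c', b) ∈ (A.e i').source → ∀ c i,
      T.P (c, b) ∈ (A.e i).source →
        s i (T.P (c, b)) * s₀ i' (T.P (c', b)) = s i' (T.P (c', b)) * s₀ i (T.P (c, b)) := by
    intro c' hc' i' hi' c i hi
    have ht : IsHS L univ (s₀ i' (T.P (c', b)) • s + (-(s i' (T.P (c', b)))) • s₀) :=
      (hs.smul _).add (hs₀.smul _)
    have h2 := sec_zero_fibre T ht hb hV hVn (fun d hd j hj => by
      have := hX d hd c' hc' j i' hj hi'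
      simp only [Pi.add_apply, Pi.smul_apply, smul_eq_mul]
      linear_combination this) c i hi
    simp only [Pi.add_apply, Pi.smul_apply, smul_eq_mul] at h2
    linear_combination h2
  have ht : IsHS L univ (s₀ i (T.P (c, b)) • s + (-(s i (T.P (c, b)))) • s₀) :=
    (hs.smul _).add (hs₀.smul _)
  have h2 := sec_zero_fibre T ht hb hV hVn (fun d hd j hj => by
    have := h1 d hd j hj c i hi
    simp only [Pi.add_apply, Pi.smul_apply, smul_eq_mul]
    linear_combination -this) c' i' hi'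
  simp only [Pi.add_apply, Pi.smul_apply, smul_eq_mul] at h2
  linear_combination -h2

/-! ### cones and affine parts -/

/-- the cone over `S` -/
def Co (P : ProjD A) (S : Set M) : Set (Fin (P.N + 1) → ℂ) :=
  {v | ∃ x ∈ S, ∃ i, x ∈ (A.e i).source ∧ ∃ c : ℂ, v = c • P.F i x}

/-- the affine part of the cone -/
def Tf (P : ProjD A) (k0 : Fin (P.N + 1)) (S : Set M) : Set (Fin (P.N + 1) → ℂ) :=
  {v | v k0 = 1 ∧ v ∈ Co P S}

theorem trS_of_cone {P : ProjD A} {k0 : Fin (P.N + 1)} {S S' : Set M} {σ : ℂ ≃+* ℂ}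
    (h : ∀ v : Fin (P.N + 1) → ℂ, v ∈ Co P S ↔ (fun l => σ (v l)) ∈ Co P S') :
    TrS σ (Tf P k0 S) (Tf P k0 S') := by
  intro v
  have h1 : v k0 = 1 ↔ σ (v k0) = 1 := by
    constructor
    · intro h; rw [h, map_one]
    · intro h; exact σ.injective (h.trans (map_one σ).symm)
  constructor
  · rintro ⟨h2, h3⟩
    exact ⟨h1.1 h2, (h v).1 h3⟩
  · rintro ⟨h2, h3⟩
    exact ⟨h1.2 h2, (h v).2 h3⟩

/-- `E0` are equations of `S` in the projective space -/
def ChowEq (P : ProjD A) (S : Set M) (E0 : Finset (MvPolynomial (Fin (P.N + 1)) ℂ)) : Prop :=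
  ∀ v : Fin (P.N + 1) → ℂ, v ≠ 0 → ((∀ p ∈ E0, MvPolynomial.eval v p = 0) ↔ v ∈ Co P S)

theorem zer_of_chow {P : ProjD A} {k0 : Fin (P.N + 1)} {S : Set M}
    {E0 : Finset (MvPolynomial (Fin (P.N + 1)) ℂ)} (h : ChowEq P S E0) :
    ∃ Sp : Finset (Fin (P.N + 1) →₀ ℕ), Zer Sp (Idl Sp (Tf P k0 S)) ⊆ Tf P k0 S := by
  classical
  set q : MvPolynomial (Fin (P.N + 1)) ℂ := MvPolynomial.X k0 - 1 with hq
  set Sp : Finset (Fin (P.N + 1) →₀ ℕ) := (insert q E0).biUnion fun p => p.support with hSp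
  have key : ∀ p ∈ insert q E0, ∀ v : Fin (P.N + 1) → ℂ,
      ∑ m : Sp, p.coeff m * ∏ i, v i ^ (m : Fin (P.N + 1) →₀ ℕ) i = MvPolynomial.eval v p := by
    intro p hp v
    rw [MvPolynomial.eval_eq', Finset.sum_coe_sort Sp fun m => p.coeff m * ∏ i, v i ^ m i]
    refine (Finset.sum_subset (fun m hm => Finset.mem_biUnion.2 ⟨p, hp, hm⟩) ?_).symm
    intro m _ hm
    rw [MvPolynomial.notMem_support_iff.1 hm, zero_mul]
  refine ⟨Sp, fun v hv => ?_⟩
  have h1 : ∀ p ∈ insert q E0, (∀ z ∈ Tf P k0 S, MvPolynomial.eval z p = 0) →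
      MvPolynomial.eval v p = 0 := by
    intro p hp hz
    rw [← key p hp v]
    refine hv (fun m => p.coeff m) fun z hz' => ?_
    rw [key p hp z]
    exact hz z hz'
  have h2 : v k0 = 1 := by
    have h3 := h1 q (Finset.mem_insert_self _ _) fun z hz => by
      rw [hq, map_sub, MvPolynomial.eval_X, map_one, hz.1, sub_self]
    rw [hq, map_sub, MvPolynomial.eval_X, map_one, sub_eq_zero] at h3
    exact h3
  have hv0 : v ≠ 0 := by
    intro h3
    rw [h3] at h2
    exact zero_ne_one h2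
  refine ⟨h2, (h v hv0).1 fun p hp => h1 p (Finset.mem_insert_of_mem hp) fun z hz => ?_⟩
  have hz0 : z ≠ 0 := by
    intro h3
    have h4 := hz.1
    rw [h3] at h4
    exact zero_ne_one h4
  exact (h z hz0).2 hz.2 p hp

/-- (h4) -/
theorem tf_inj {P : ProjD A} {k0 : Fin (P.N + 1)} {S S' : Set M} {x : M} (hx : x ∈ S) {i : A.ι}
    (hi : x ∈ (A.e i).source) (h0 : P.F i x k0 ≠ 0) (h : Tf P k0 S = Tf P k0 S') : x ∈ S' := by
  have h1 : (P.F i x k0)⁻¹ • P.F i x ∈ Tf P k0 S :=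
    ⟨by rw [Pi.smul_apply, smul_eq_mul, inv_mul_cancel₀ h0], x, hx, i, hi, _, rfl⟩
  rw [h] at h1
  obtain ⟨-, x', hx', i', hi', c, hc⟩ := h1
  have h2 : P.F i x = (P.F i x k0 * c) • P.F i' x' := by
    rw [mul_smul, ← hc, smul_smul, mul_inv_cancel₀ h0, one_smul]
  rwa [P.inj i i' x hi x' hi' ⟨_, h2⟩]

/-! ### the composition -/

section Comp

variable [FiniteDimensional ℂ F] [FiniteDimensional ℂ B]
  [MeasurableSpace (B × F)] [BorelSpace (B × F)]
variable {k : Type} [Field k] [Countable k] [Algebra k ℂ]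

/-- **from the uniqueness statement to sections**: on a holomorphic tube whose fibres are disjoint,
have equations, and correspond to each other under `Aut(ℂ/k)` as soon as two good points do, there
are `dim B + 1` sections of a power of `lb P` whose ratios are constant on the fibres over a ball
and have rank `dim B` at one point. -/
theorem exists_sections_tube (μ : Measure (B × F)) [μ.IsAddHaarMeasure] (P : ProjD A)
    (T : HTube A F B)
    (hdis : ∀ b ∈ T.Om, ∀ b' ∈ T.Om, ∀ c c', T.P (c, b) = T.P (c', b') → b = b')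
    {N : Set (B × F)} (hN : μ N = 0)
    (hchow : ∀ z : B × F, z.1 ∈ T.Om → z ∉ N → ∃ E0, ChowEq P (fib T z.1) E0)
    (huniq : ∀ z : B × F, z.1 ∈ T.Om → z ∉ N → ∀ z' : B × F, z'.1 ∈ T.Om → z' ∉ N →
      ∀ σ : ℂ ≃ₐ[k] ℂ, ∀ i i', T.P (z.2, z.1) ∈ (A.e i).source →
        T.P (z'.2, z'.1) ∈ (A.e i').source →
        (∃ c : ℂ, (fun l => σ (P.F i (T.P (z.2, z.1)) l)) = c • P.F i' (T.P (z'.2, z'.1))) →
        ∀ v : Fin (P.N + 1) → ℂ, v ∈ Co P (fib T z.1) ↔ (fun l => σ (v l)) ∈ Co P (fib T z'.1))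
    {b₁ : B} (hb₁ : b₁ ∈ T.Om) :
    ∃ r : ℝ, 0 < r ∧ ball b₁ r ⊆ T.Om ∧ ∃ D : ℕ, 0 < D ∧
      ∃ s : Fin (Module.finrank ℂ B + 1) → A.ι → M → ℂ,
        (∀ a, IsHS ((lb P) ^ D) univ (s a)) ∧
        (∀ a, ∀ c c' : F, ∀ b ∈ ball b₁ r, ∀ i i', T.P (c, b) ∈ (A.e i).source →
          T.P (c', b) ∈ (A.e i').source → s a i (T.P (c, b)) * s 0 i' (T.P (c', b)) =
            s a i' (T.P (c', b)) * s 0 i (T.P (c, b))) ∧
        ∃ c, ∃ b ∈ ball b₁ r, ∀ i, T.P (c, b) ∈ (A.e i).source → Rk A s i (T.P (c, b)) := by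
  classical
  obtain ⟨i₀, hi₀⟩ := A.cover (T.P (0, b₁))
  obtain ⟨k0, hk0⟩ := exists_F_ne P hi₀
  set Psi : B × F → M := fun z => T.P (z.2, z.1) with hPsi
  have hcont : ∀ z : B × F, z.1 ∈ T.Om → ContinuousAt Psi z := fun z hz =>
    ContinuousAt.comp (g := T.P) (f := fun z : B × F => (z.2, z.1)) (T.cont (z.2, z.1) hz)
      (continuousAt_snd.prodMk continuousAt_fst)
  have hpull : ∀ z : B × F, z.1 ∈ T.Om → ∀ f : M → ℂ, Hm A f (Psi z) →
      AnalyticAt ℂ (fun z => f (Psi z)) z := fun z hz f hf =>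
    AnalyticAt.comp (g := fun q : F × B => f (T.P q)) (f := fun z : B × F => (z.2, z.1))
      (T.pull (z.2, z.1) hz f hf) (analyticAt_snd.prod analyticAt_fst)
  have hF : ∀ i l x, x ∈ (A.e i).source → Hm A (fun x => P.F i x l) x := fun i l x hx =>
    hm_of_holAt (P.hol i l) isOpen_univ hx (mem_univ x)
  -- a box
  have hev : ∀ᶠ z : B × F in 𝓝 (b₁, 0), z.1 ∈ T.Om ∧ Psi z ∈ (A.e i₀).source ∧
      P.F i₀ (Psi z) k0 ≠ 0 := by
    have h1 : ∀ᶠ z : B × F in 𝓝 (b₁, 0), z.1 ∈ T.Om :=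
      continuousAt_fst.preimage_mem_nhds (T.isOpen.mem_nhds hb₁)
    have h2 : ∀ᶠ z : B × F in 𝓝 (b₁, 0), Psi z ∈ (A.e i₀).source :=
      (hcont (b₁, 0) hb₁).preimage_mem_nhds ((A.e i₀).open_source.mem_nhds hi₀)
    have h3 : ∀ᶠ z : B × F in 𝓝 (b₁, 0), P.F i₀ (Psi z) k0 ≠ 0 :=
      (hpull (b₁, 0) hb₁ _ (hF i₀ k0 _ hi₀)).continuousAt.eventually_ne hk0
    exact h1.and (h2.and h3)
  obtain ⟨r, hr, hball⟩ := Metric.eventually_nhds_iff_ball.1 hev
  set U : Set (B × F) := ball (b₁, (0 : F)) r with hU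
  have hbox : ∀ z : B × F, z ∈ U ↔ z.1 ∈ ball b₁ r ∧ z.2 ∈ ball (0 : F) r := by
    intro z
    rw [hU, ← ball_prod_same]
    exact Iff.rfl
  set φ : B × F → Fin (P.N + 1) → ℂ := fun z l => P.F i₀ (Psi z) l / P.F i₀ (Psi z) k0 with hφd
  have hφ : AnalyticOnNhd ℂ φ U := by
    intro z hz
    obtain ⟨h1, h2, h3⟩ := hball z hz
    rw [analyticAt_pi_iff]
    intro l
    exact (hpull z h1 _ (hF i₀ l _ h2)).div (hpull z h1 _ (hF i₀ k0 _ h2)) h3
  have h0 : ∀ z ∈ U, ∀ i, Psi z ∈ (A.e i).source → P.F i (Psi z) k0 ≠ 0 := by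
    intro z hz i hi h
    obtain ⟨h1, h2, h3⟩ := hball z hz
    obtain ⟨c, hc⟩ := P.tr i₀ i (Psi z) ⟨h2, hi⟩
    apply h3
    rw [hc, Pi.smul_apply, h, smul_zero]
  have hφeq : ∀ z ∈ U, ∀ i, Psi z ∈ (A.e i).source → ∀ l,
      φ z l = P.F i (Psi z) l / P.F i (Psi z) k0 := by
    intro z hz i hi l
    obtain ⟨h1, h2, h3⟩ := hball z hz
    obtain ⟨c, hc⟩ := P.tr i₀ i (Psi z) ⟨h2, hi⟩
    have hc0 : c ≠ 0 := by
      rintro rfl
      apply h3
      rw [hc, zero_smul]; rfl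
    simp only [hφd]
    rw [hc, Pi.smul_apply, Pi.smul_apply, smul_eq_mul, smul_eq_mul, mul_div_mul_left _ _ hc0]
  obtain ⟨Pp, Qq, z₀, hz₀, hQ, hX, hli⟩ := exists_rational (k := k) μ hr hφ
    (fun b => Tf P k0 (fib T b)) hN
    (fun z hz hzN z' hz' hzN' σ hσ => by
      obtain ⟨h1, h2, h3⟩ := hball z hz
      obtain ⟨h1', h2', h3'⟩ := hball z' hz'
      refine trS_of_cone (σ := (σ : ℂ ≃+* ℂ))
        (huniq z h1 hzN z' h1' hzN' σ i₀ i₀ h2 h2' ?_)
      refine ⟨σ (P.F i₀ (Psi z) k0) / P.F i₀ (Psi z') k0, ?_⟩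
      funext l
      have h4 := hσ l
      simp only [hφd, map_div₀] at h4
      rw [Pi.smul_apply, smul_eq_mul]
      have h5 : σ (P.F i₀ (Psi z) k0) ≠ 0 := (map_ne_zero σ).2 h3
      change σ (P.F i₀ (Psi z) l) = σ (P.F i₀ (Psi z) k0) / P.F i₀ (Psi z') k0 *
        P.F i₀ (Psi z') l
      rw [div_eq_iff h5] at h4
      rw [h4]; ring)
    (fun z hz hzN => by
      obtain ⟨E0, hE0⟩ := hchow z (hball z hz).1 hzN
      exact zer_of_chow hE0)
    (fun z hz _ z' hz' _ h => by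
      obtain ⟨h1, h2, h3⟩ := hball z hz
      have h4 : Psi z ∈ fib T z'.1 := tf_inj (S := fib T z.1) ⟨z.2, rfl⟩ h2 h3 h
      obtain ⟨c', hc'⟩ := h4
      exact hdis z.1 h1 z'.1 (hball z' hz').1 z.2 c' hc'.symm)
  obtain ⟨D, hD, s, hs, hcross, hrk⟩ := exists_sections (k := k) P k0 (Psi := Psi) isOpen_ball
    (fun z hz => (hcont z (hball z hz).1).continuousWithinAt)
    (fun i z hz => by
      have h1 := (hball z hz.1).1
      have h2 : DifferentiableAt ℂ (fun z => A.e i (Psi z)) z := by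
        rw [differentiableAt_euclidean]
        intro a
        have h3 : Hm A (fun x => A.e i x a) (Psi z) :=
          hm_chart (φ := fun w : Cn n => w a) hz.2
            ((EuclideanSpace.proj (𝕜 := ℂ) (ι := Fin n) a).analyticAt _)
        exact (hpull z h1 _ h3).differentiableAt
      exact h2.differentiableWithinAt)
    h0 hφeq (R := fun z z' => z.1 = z'.1) hX hz₀ hQ hli
  have hbr : ball b₁ r ⊆ T.Om := fun b hb =>
    (hball (b, 0) ((hbox _).2 ⟨hb, mem_ball_self hr⟩)).1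
  refine ⟨r, hr, hbr, D, hD, s, hs, ?_, z₀.2, z₀.1, ((hbox z₀).1 hz₀).1, hrk⟩
  intro a c c' b hb i i' hi hi'
  refine cross_fibre T (hs a) (hs 0) (hbr hb) (V := ball (0 : F) r) isOpen_ball
    ⟨0, mem_ball_self hr⟩ ?_ c c' i i' hi hi'
  intro d hd d' hd' j j' hj hj'
  exact hcross (b, d) ((hbox _).2 ⟨hb, hd⟩) (b, d') ((hbox _).2 ⟨hb, hd'⟩) rfl j j' hj hj' a

end Comp

end Crest.Agent.R281.Kas_975
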