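import Crest.Agent.R281.TubT_831
import Crest.Agent.R281.Kas2_975
import Crest.Agent.R260.NNB2_580

/-!
# Row 281, KAPPA-1 assembly, part 5 (helper975): from 831's `HolTube` to 22's `HTube`

* `an_hol`   : `Ψ` is holomorphic in the charts of an atlas with `Cp (H.acm k) A`
* `bij_hol`  : its complex differential is bijective
* `htube`    : the tube `HTube A (Cn n) (Cn n)`, `P (c, b) = Ψ (b, c)`
-/

set_option autoImplicit false
set_option linter.unusedSectionVars false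
set_option maxSynthPendingDepth 3

open Set Filter Topology Complex
open scoped ContDiff

namespace Crest.Agent.R281.Kas_975

open Crest.Agent.R275.Geo Crest.Agent.R275.Core144
open Crest.Agent.R281.HkR_835 Crest.Agent.R281.Ti_846 Crest.Agent.R281.Tub_831
open Crest.Agent.R281.Per_368 (SmI pull per)
open Crest.Agent.R260.ACM_580 Crest.Agent.R260.NNB_580
open Crest.Agent.R281.Kd_22

noncomputable section

variable {V X : Type} [NormedAddCommGroup V] [NormedSpace ℝ V] [TopologicalSpace X]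
  {C : RCh V X} {n : ℕ} {H : HkT C} {k : Fin 3} {A : Atl (2 * n) X}
  {w w' : F2 C} {D : Set (Cn n)} {Ψ : Cn n × Cn n → X} {l : Fin (2 * n) → Cn n → Cn n}
  {τ : Cn n → Cn n → Cn n → ℂ}

section

variable (hA : Cp (H.acm k) A) (hT : HolTube C (H.J k) w w' n D Ψ l τ)
include hA hT

/-- the chart expression in `A` through a chart of `C` -/
theorem ev_chart {p : Cn n × Cn n} (hp : p.1 ∈ D) {j : C.ι} (hj : Ψ p ∈ (C.e j).source) (i : A.ι) :
    (fun q => A.e i (Ψ q)) =ᶠ[𝓝 p] fun q => (fun z => A.e i ((C.e j).symm z)) (C.e j (Ψ q)) := by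
  filter_upwards [(hT.sm.isOpen_pre (C.e j).open_source).mem_nhds ⟨⟨hp, mem_univ _⟩, hj⟩] with q hq
  have : Ψ q ∈ (C.e j).source := hq.2
  simp only [(C.e j).left_inv this]

theorem hasF {p : Cn n × Cn n} (hp : p.1 ∈ D) {j : C.ι} (hj : Ψ p ∈ (C.e j).source) {i : A.ι}
    (hi : Ψ p ∈ (A.e i).source) :
    HasFDerivAt (fun q => A.e i (Ψ q))
      ((fderiv ℝ (fun z => A.e i ((C.e j).symm z)) (C.e j (Ψ p))).comp
        (fderiv ℝ (fun q => C.e j (Ψ q)) p)) p := by
  have hz : C.e j (Ψ p) ∈ ovr (H.acm k) j (A.e i) :=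
    mem_ovr_of_source (C := H.acm k) (φ := A.e i) hi hj
  have h1 : DifferentiableAt ℝ (fun z => A.e i ((C.e j).symm z)) (C.e j (Ψ p)) :=
    (hA i).diffAt hz
  have h2 : DifferentiableAt ℝ (fun q => C.e j (Ψ q)) p :=
    hT.sm.diffAt (ζ := p) ⟨hp, mem_univ _⟩ hj
  have h3 := HasFDerivAt.comp p (g := fun z => A.e i ((C.e j).symm z)) (f := fun q => C.e j (Ψ q))
    h1.hasFDerivAt h2.hasFDerivAt
  exact h3.congr_of_eventuallyEq (ev_chart hA hT hp hj i)

theorem diff_hol {p : Cn n × Cn n} (hp : p.1 ∈ D) {i : A.ι} (hi : Ψ p ∈ (A.e i).source) :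
    DifferentiableAt ℂ (fun q => A.e i (Ψ q)) p := by
  obtain ⟨j, hj⟩ := C.cover (Ψ p)
  have h3 := hasF hA hT hp hj hi
  have hz : C.e j (Ψ p) ∈ ovr (H.acm k) j (A.e i) :=
    mem_ovr_of_source (C := H.acm k) (φ := A.e i) hi hj
  refine differentiableAt_of_real h3.differentiableAt fun v => ?_
  rw [h3.fderiv]
  simp only [ContinuousLinearMap.comp_apply]
  rw [hT.hol p hp j hj v]
  exact (hA i).lin j _ hz _

theorem an_hol {p : Cn n × Cn n} (hp : p.1 ∈ D) {i : A.ι} (hi : Ψ p ∈ (A.e i).source) :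
    AnalyticAt ℂ (fun q => A.e i (Ψ q)) p := by
  have hO : IsOpen ((D ×ˢ univ) ∩ Ψ ⁻¹' (A.e i).source) := hT.sm.isOpen_pre (A.e i).open_source
  have h1 : DifferentiableOn ℂ (fun q => A.e i (Ψ q)) ((D ×ˢ univ) ∩ Ψ ⁻¹' (A.e i).source) :=
    fun q hq => (diff_hol hA hT hq.1.1 hq.2).differentiableWithinAt
  exact Crest.Agent.R266.SCV.analyticOnNhd_of_differentiableOn hO h1 p ⟨⟨hp, mem_univ _⟩, hi⟩

theorem inj_hol {p : Cn n × Cn n} (hp : p.1 ∈ D) {i : A.ι} (hi : Ψ p ∈ (A.e i).source) :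
    Function.Injective (fderiv ℂ (fun q => A.e i (Ψ q)) p) := by
  obtain ⟨j, hj⟩ := C.cover (Ψ p)
  have h3 := hasF hA hT hp hj hi
  have hz : C.e j (Ψ p) ∈ ovr (H.acm k) j (A.e i) :=
    mem_ovr_of_source (C := H.acm k) (φ := A.e i) hi hj
  have h4 := (diff_hol hA hT hp hi).fderiv_restrictScalars ℝ
  have h5 : ∀ u, fderiv ℂ (fun q => A.e i (Ψ q)) p u =
      fderiv ℝ (fun z => A.e i ((C.e j).symm z)) (C.e j (Ψ p))
        (fderiv ℝ (fun q => C.e j (Ψ q)) p u) := fun u => by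
    have := congrArg (fun T => T u) h4
    rw [h3.fderiv] at this
    exact this.symm
  intro u v huv
  rw [h5 u, h5 v] at huv
  have hinj : ∀ a b : V, fderiv ℝ (fun z => A.e i ((C.e j).symm z)) (C.e j (Ψ p)) a =
      fderiv ℝ (fun z => A.e i ((C.e j).symm z)) (C.e j (Ψ p)) b → a = b := by
    intro a b hab
    have e1 := (hA i).inv_right hz a
    have e2 := (hA i).inv_right hz b
    have e3 : fderiv ℝ (fun z => A.e i (((H.acm k).e j).symm z)) (C.e j (Ψ p)) a =
      fderiv ℝ (fun z => A.e i (((H.acm k).e j).symm z)) (C.e j (Ψ p)) b := hab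
    rw [← e1, e3, e2]
  exact hT.inj p hp j hj (hinj _ _ huv)

theorem bij_hol {p : Cn n × Cn n} (hp : p.1 ∈ D) {i : A.ι} (hi : Ψ p ∈ (A.e i).source) :
    Function.Bijective (fderiv ℂ (fun q => A.e i (Ψ q)) p) := by
  have h1 := inj_hol hA hT hp hi
  refine ⟨h1, ?_⟩
  have hd : Module.finrank ℂ (Cn n × Cn n) = Module.finrank ℂ (Cn (2 * n)) := by
    rw [Module.finrank_prod, finrank_euclideanSpace_fin, finrank_euclideanSpace_fin]
    omega
  exact (LinearMap.injective_iff_surjective_of_finrank_eq_finrank hd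
    (f := (fderiv ℂ (fun q => A.e i (Ψ q)) p : (Cn n × Cn n) →ₗ[ℂ] Cn (2 * n)))).1 h1

end

/-- **the tube `HTube`** of a tube of tori, over an open subset of the base -/
def htube (hA : Cp (H.acm k) A) (hT : HolTube C (H.J k) w w' n D Ψ l τ) (O : Set (Cn n))
    (hO : IsOpen O) (hOD : O ⊆ D) : HTube A (Cn n) (Cn n) :=
  HTube.ofChart (fun q => Ψ (q.2, q.1)) O hO
    (fun p hp => by
      have h1 : ContinuousAt Ψ (p.2, p.1) :=
        hT.sm.cont.continuousAt (hT.sm.op.mem_nhds ⟨hOD hp, mem_univ _⟩)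
      have h2 : ContinuousAt (fun q : Cn n × Cn n => (q.2, q.1)) p := by fun_prop
      exact ContinuousAt.comp (g := Ψ) (f := fun q : Cn n × Cn n => (q.2, q.1)) h1 h2)
    (fun p hp i hi => by
      have h1 : AnalyticAt ℂ (fun q => A.e i (Ψ q)) (p.2, p.1) :=
        an_hol hA hT (p := (p.2, p.1)) (hOD hp) hi
      have h2 : AnalyticAt ℂ (fun q : Cn n × Cn n => (q.2, q.1)) p := analyticAt_snd.prod analyticAt_fst
      exact AnalyticAt.comp (g := fun q => A.e i (Ψ q)) (f := fun q : Cn n × Cn n => (q.2, q.1))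
        h1 h2)
    (fun p hp i hi => by
      have h1 := bij_hol hA hT (p := (p.2, p.1)) (hOD hp) hi
      have h2 : fderiv ℂ (fun q : Cn n × Cn n => A.e i (Ψ (q.2, q.1))) p =
          (fderiv ℂ (fun q => A.e i (Ψ q)) (p.2, p.1)).comp
            ((ContinuousLinearEquiv.prodComm ℂ (Cn n) (Cn n) :
              (Cn n × Cn n) ≃L[ℂ] (Cn n × Cn n)) : (Cn n × Cn n) →L[ℂ] (Cn n × Cn n)) := by
        have h3 := (diff_hol hA hT (p := (p.2, p.1)) (hOD hp) hi).hasFDerivAt
        have h4 : HasFDerivAt (fun q : Cn n × Cn n => (q.2, q.1))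
            ((ContinuousLinearEquiv.prodComm ℂ (Cn n) (Cn n) :
              (Cn n × Cn n) ≃L[ℂ] (Cn n × Cn n)) : (Cn n × Cn n) →L[ℂ] (Cn n × Cn n)) p :=
          (ContinuousLinearEquiv.prodComm ℂ (Cn n) (Cn n)).hasFDerivAt
        exact (HasFDerivAt.comp p (g := fun q => A.e i (Ψ q))
          (f := fun q : Cn n × Cn n => (q.2, q.1)) h3 h4).fderiv
      rw [h2]
      exact h1.comp (ContinuousLinearEquiv.prodComm ℂ (Cn n) (Cn n)).bijective)

@[simp] theorem htube_P (hA : Cp (H.acm k) A) (hT : HolTube C (H.J k) w w' n D Ψ l τ)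
    (O : Set (Cn n)) (hO : IsOpen O) (hOD : O ⊆ D) (c b : Cn n) :
    (htube hA hT O hO hOD).P (c, b) = Ψ (b, c) := rfl

@[simp] theorem htube_Om (hA : Cp (H.acm k) A) (hT : HolTube C (H.J k) w w' n D Ψ l τ)
    (O : Set (Cn n)) (hO : IsOpen O) (hOD : O ⊆ D) : (htube hA hT O hO hOD).Om = O := rfl

end

end Crest.Agent.R281.Kas_975
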