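import Crest.Agent.R281.Kd11_22

/-!
# Row 281, KAPPA-1 glue, part 12 (helper22): the end of KAPPA-1

* `pres_cls`   : `c_1(p.L) = π e` (in the normalisation of `curK`) for a presentation `p`
* `kappa_main` : sections with `Rk` and the cross relation on the tori of a tube ==> sections of a
                 power of `L` with `Rk`
-/

set_option autoImplicit false
set_option linter.unusedSectionVars false
set_option maxSynthPendingDepth 3

open Set Filter Topology Complex Module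
open scoped ContDiff

namespace Crest.Agent.R281.Kd_22

open Crest.Agent.R275.Geo Crest.Agent.R275.Core144 Crest.Agent.R275.EDR890
open Crest.Agent.R275.GC293
open Crest.Agent.R273.Defs_333 Crest.Agent.R273.Kah_333
open Crest.Agent.R273.Map_835 (HolMap)
open Crest.Agent.R273.PB_835 (LBih Ref pullLB)
open Crest.Agent.R260.ACM_580 Crest.Agent.R260.NNB_580
open Crest.Agent.R281.HkR_835 Crest.Agent.R281.Ti_846 Crest.Agent.R281.Dif_268
open Crest.Agent.R281.Rk_599
open Crest.Agent.R281.NefO_476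
open Crest.Agent.R281.Nef_252
open Crest.Agent.R281.RkD_902 (Ctx Given Pres)
open Crest.Agent.R281.SkM_474 (FL FL_apply)
open Crest.Agent.R281.PL_713 (PL)

noncomputable section

variable {n : ℕ} {X : Type} [TopologicalSpace X] [CompactSpace X] [T2Space X]
  [SimplyConnectedSpace X] {C : RCh (Cn (2 * n)) X} {Q : F2 C →ₗ[ℝ] F2 C →ₗ[ℝ] ℝ} {H : HkT C}
  {L0 : PL C} {e : F2 C}

/-- the class of the line bundle of a presentation -/
theorem pres_cls (hlnk : Ex (L0.F - (-(2 * Real.pi)) • e)) (p : Pres n H L0) :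
    Ex ((curK p.h).f2 - Real.pi • (cmp_of_cp p.cp).F e) := by
  set G := FL (cmp_of_cp p.cp) with hG
  have h1 : Ex ((L0.add p.a).F - L0.F) := by
    refine ⟨p.a, fun i z hz u v => ?_⟩
    have h2 := Crest.Agent.R281.PL_713.PL.add_F L0 p.a hz u v
    show (L0.add p.a).F.w i z u v - L0.F.w i z u v = _
    rw [h2, add_sub_cancel_left]
    rfl
  have h2 : Ex ((L0.add p.a).F - (-(2 * Real.pi)) • e) := by
    have := Crest.Agent.R281.Nef_252.ex_add h1 hlnk
    rwa [sub_add_sub_cancel] at this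
  have h3 : Ex (G ((L0.add p.a).F - (-(2 * Real.pi)) • e)) :=
    Crest.Agent.R281.HkR_835.ex_F (cmp_of_cp p.cp) h2
  rw [map_sub, map_smul] at h3
  have h4 : Ex (G (L0.add p.a).F - (-2 : ℝ) • (curK p.h).f2) := eqv_ex_sub p.cur
  have h5 : Ex ((-2 : ℝ) • (curK p.h).f2 - (-(2 * Real.pi)) • G e) := by
    have := Crest.Agent.R281.Nef_252.ex_sub h3 h4
    rwa [sub_sub_sub_cancel_left] at this
  have h6 := Crest.Agent.R281.Nef_252.ex_smul (-1 / 2 : ℝ) h5
  have e1 : (-1 / 2 : ℝ) • ((-2 : ℝ) • (curK p.h).f2 - (-(2 * Real.pi)) • G e) =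
      (curK p.h).f2 - Real.pi • G e := by
    rw [smul_sub, smul_smul, smul_smul]
    congr 1
    · rw [show (-1 / 2 : ℝ) * -2 = 1 by ring, one_smul]
    · congr 1; ring
  rwa [e1] at h6

variable {A : Atl (2 * n) X} {F B : Type} [NormedAddCommGroup F]
  [NormedSpace ℂ F] [NormedAddCommGroup B] [NormedSpace ℂ B] [FiniteDimensional ℂ F]
  [FiniteDimensional ℂ B]

/-- **the end of KAPPA-1**: sections `s_0, …, s_r` of a line bundle `E` with the cross relation on
the tori of the tube and `Rk` at a point ==> sections of a power of `L` with `Rk` there -/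
theorem kappa_main [Nontrivial F] (hX : Ctx n C Q) (hG : Given Q H L0 e)
    (hnef : NefC (ofHk H 0) (H.om 0) e) (hA : Cp (H.acm 0) A) {L : LB A} (h : HM L) {c : ℝ}
    (hc : 0 < c) (hcl : Ex ((curK h).f2 - c • (cmp_of_cp hA).F e)) (T : HTube A F B)
    (hne : T.Om.Nonempty) (hdim : finrank ℂ F + finrank ℂ B = 2 * n) (hPV : PVan Q e T)
    {r : ℕ} (hr : 0 < r) {E : LB A} {s : Fin (r + 1) → A.ι → X → ℂ}
    (hs : ∀ j, IsHS E univ (s j)) {i₀ : A.ι} {x₀ : X} (hrk : Rk A s i₀ x₀)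
    (cross : ∀ j, ∀ c c' : F, ∀ b ∈ T.Om, ∀ i i', T.P (c, b) ∈ (A.e i).source →
      T.P (c', b) ∈ (A.e i').source → s j i (T.P (c, b)) * s 0 i' (T.P (c', b)) =
        s j i' (T.P (c', b)) * s 0 i (T.P (c, b))) :
    ∃ a : ℕ, 0 < a ∧ ∃ u : Fin (r + 1) → A.ι → X → ℂ, (∀ j, IsHS (L ^ a) univ (u j)) ∧
      (∀ j j' i, ∀ x ∈ (A.e i).source, u j i x * s j' i x = s j i x * u j' i x) ∧
      Rk A u i₀ x₀ :=
  kappa_of_ns hs hrk T cross (nsmov hX hG hnef hA h hc hcl T hne hdim hPV hr)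

end

end Crest.Agent.R281.Kd_22
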