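import Crest.Agent.R281.Pjx2_648
import Crest.Agent.R281.AlgDefs_998

/-!
# R281 (S0424), G26 PROJ-x (helper648), part 3: `(X, I'_x)` is projective for rational `x`

For `H` at `τ = x + i y` (998's `AtTau`: `[om 0] = A`, `[om 1] + i [om 2] = z σ_τ`):

* `fx z`, `fr_fx`   : the frame `((0, c, s), (0, -s, c), (1, 0, 0))`, `z = |z| (c + i s)`
* `rotx_om0/1/2`    : `[om'] = (|z| Re σ_τ, |z| Im σ_τ, A)` for `H' = H.rot (fx z)`: `J' 0 = I'_x`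
* `ratF_sre`        : `x`, `y²`, `N` rational ==> `Re σ_τ` rational
* `exists_y`        : every ray contains such a `y` (a natural number)
* `projX`           : **PROJ-x**: holomorphic atlas of `I'_x`, subordinate to an open cover, positive
                      line bundle with curvature exactly `(π m / |z|) met`, `m Re σ_τ` integral,
                      and `ProjD`
-/

set_option autoImplicit false
set_option linter.unusedSectionVars false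
set_option maxSynthPendingDepth 3

open Set Filter Topology Complex
open scoped ContDiff Matrix ComplexConjugate ComplexOrder

namespace Crest.Agent.R281.Pjx_648

open Crest.Agent.R281.HkR_835 Crest.Agent.R281.Dif_268 Crest.Agent.R281.Cdr_234
open Crest.Agent.R281.Alg_998
open Crest.Agent.R281.Ti_846 (Ex)
open Crest.Agent.R275.Geo Crest.Agent.R275.Core144 Crest.Agent.R275.GC293 Crest.Agent.R275.EDR890
open Crest.Agent.R273
open Crest.Agent.R273.Defs_333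
open Crest.Agent.R273.Kah_333 (Kah cur)
open Crest.Agent.R273.FS_333 (lb)
open Crest.Agent.R260.ACM_580 Crest.Agent.R260.NNB_580

noncomputable section

variable {d : ℕ} {X V : Type} [TopologicalSpace X] [NormedAddCommGroup V] [NormedSpace ℝ V]
  {C : RCh V X} {Q : F2 C →ₗ[ℝ] F2 C →ₗ[ℝ] ℝ} {F : Frm C Q} {Ap : F2 C} {H : HkT C} {τ z : ℂ}

/-! ### the frame -/

/-- the frame of the complex structure `I'_x` -/
def fx (z : ℂ) : Fin 3 → Fin 3 → ℝ :=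
  ![![0, z.re / ‖z‖, z.im / ‖z‖], ![0, -(z.im / ‖z‖), z.re / ‖z‖], ![1, 0, 0]]

theorem sq_add (hz : z ≠ 0) : z.re / ‖z‖ * (z.re / ‖z‖) + z.im / ‖z‖ * (z.im / ‖z‖) = 1 := by
  have h1 : z.re * z.re + z.im * z.im = ‖z‖ ^ 2 := by
    rw [Complex.sq_norm, Complex.normSq_apply]
  have h2 : ‖z‖ ≠ 0 := norm_ne_zero_iff.2 hz
  field_simp
  linarith

theorem fr_fx (hz : z ≠ 0) : HkT.Fr (fx z) where
  nrm k := by
    have h := sq_add hz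
    fin_cases k
    · show (0 : ℝ) * 0 + z.re / ‖z‖ * (z.re / ‖z‖) + z.im / ‖z‖ * (z.im / ‖z‖) = 1
      linarith
    · show (0 : ℝ) * 0 + -(z.im / ‖z‖) * -(z.im / ‖z‖) + z.re / ‖z‖ * (z.re / ‖z‖) = 1
      linarith
    · show (1 : ℝ) * 1 + 0 * 0 + 0 * 0 = 1
      norm_num
  ort := by
    show (0 : ℝ) * 0 + z.re / ‖z‖ * -(z.im / ‖z‖) + z.im / ‖z‖ * (z.re / ‖z‖) = 0
    ring
  crs := by
    have h := sq_add hz
    funext k
    fin_cases k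
    · show (1 : ℝ) = z.re / ‖z‖ * (z.re / ‖z‖) - z.im / ‖z‖ * -(z.im / ‖z‖)
      linarith
    · show (0 : ℝ) = z.im / ‖z‖ * 0 - 0 * (z.re / ‖z‖)
      ring
    · show (0 : ℝ) = 0 * -(z.im / ‖z‖) - z.re / ‖z‖ * 0
      ring

theorem nrm_id (hz : z ≠ 0) : z.re / ‖z‖ * z.re + z.im / ‖z‖ * z.im = ‖z‖ := by
  have h1 : z.re * z.re + z.im * z.im = ‖z‖ ^ 2 := by
    rw [Complex.sq_norm, Complex.normSq_apply]
  have h2 : ‖z‖ ≠ 0 := norm_ne_zero_iff.2 hz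
  field_simp
  linarith

theorem rotx_om2 (hz : z ≠ 0) : (H.rot (fx z) (fr_fx hz)).om 2 = H.om 0 := by
  rw [HkT.rot_om, F2.lin_eq, Fin.sum_univ_three]
  show (1 : ℝ) • H.om 0 + (0 : ℝ) • H.om 1 + (0 : ℝ) • H.om 2 = H.om 0
  module

theorem rotx_om0 (hz : z ≠ 0) (h1 : Cl (H.om 1) (z.re • F.sre τ - z.im • F.sim τ))
    (h2 : Cl (H.om 2) (z.im • F.sre τ + z.re • F.sim τ)) :
    Cl ((H.rot (fx z) (fr_fx hz)).om 0) (‖z‖ • F.sre τ) := by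
  have e1 : (H.rot (fx z) (fr_fx hz)).om 0 =
      (z.re / ‖z‖) • H.om 1 + (z.im / ‖z‖) • H.om 2 := by
    rw [HkT.rot_om, F2.lin_eq, Fin.sum_univ_three]
    show (0 : ℝ) • H.om 0 + (z.re / ‖z‖) • H.om 1 + (z.im / ‖z‖) • H.om 2 = _
    module
  have e2 : (‖z‖ : ℝ) • F.sre τ = (z.re / ‖z‖) • (z.re • F.sre τ - z.im • F.sim τ) +
      (z.im / ‖z‖) • (z.im • F.sre τ + z.re • F.sim τ) := by
    have e3 : (z.re / ‖z‖) • (z.re • F.sre τ - z.im • F.sim τ) +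
      (z.im / ‖z‖) • (z.im • F.sre τ + z.re • F.sim τ) =
        (z.re / ‖z‖ * z.re + z.im / ‖z‖ * z.im) • F.sre τ +
          (-(z.re / ‖z‖ * z.im) + z.im / ‖z‖ * z.re) • F.sim τ := by module
    rw [e3, nrm_id hz, show -(z.re / ‖z‖ * z.im) + z.im / ‖z‖ * z.re = 0 by ring, zero_smul,
      add_zero]
  rw [e1, e2]
  exact (h1.smul _).add (h2.smul _)

theorem rotx_om1 (hz : z ≠ 0) (h1 : Cl (H.om 1) (z.re • F.sre τ - z.im • F.sim τ))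
    (h2 : Cl (H.om 2) (z.im • F.sre τ + z.re • F.sim τ)) :
    Cl ((H.rot (fx z) (fr_fx hz)).om 1) (‖z‖ • F.sim τ) := by
  have e1 : (H.rot (fx z) (fr_fx hz)).om 1 =
      (-(z.im / ‖z‖)) • H.om 1 + (z.re / ‖z‖) • H.om 2 := by
    rw [HkT.rot_om, F2.lin_eq, Fin.sum_univ_three]
    show (0 : ℝ) • H.om 0 + (-(z.im / ‖z‖)) • H.om 1 + (z.re / ‖z‖) • H.om 2 = _
    module
  have e2 : (‖z‖ : ℝ) • F.sim τ = (-(z.im / ‖z‖)) • (z.re • F.sre τ - z.im • F.sim τ) +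
      (z.re / ‖z‖) • (z.im • F.sre τ + z.re • F.sim τ) := by
    have e3 : (-(z.im / ‖z‖)) • (z.re • F.sre τ - z.im • F.sim τ) +
      (z.re / ‖z‖) • (z.im • F.sre τ + z.re • F.sim τ) =
        (z.re / ‖z‖ * z.re + z.im / ‖z‖ * z.im) • F.sim τ +
          (-(z.im / ‖z‖ * z.re) + z.re / ‖z‖ * z.im) • F.sre τ := by module
    rw [e3, nrm_id hz, show -(z.im / ‖z‖ * z.re) + z.re / ‖z‖ * z.im = 0 by ring, zero_smul,
      add_zero]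
  rw [e1, e2]
  exact (h1.smul _).add (h2.smul _)

/-- the rotated triple: `[om'] = (|z| Re σ_τ, |z| Im σ_τ, A)` -/
theorem exists_rotx (h : AtTau F Ap H τ) : ∃ (z : ℂ) (hz : z ≠ 0),
    Cl ((H.rot (fx z) (fr_fx hz)).om 0) (‖z‖ • F.sre τ) ∧
    Cl ((H.rot (fx z) (fr_fx hz)).om 1) (‖z‖ • F.sim τ) ∧
    Cl ((H.rot (fx z) (fr_fx hz)).om 2) Ap := by
  obtain ⟨z, hz, h1, h2⟩ := h.om12
  refine ⟨z, hz, rotx_om0 hz h1 h2, rotx_om1 hz h1 h2, ?_⟩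
  rw [rotx_om2 hz]
  exact h.om0

/-! ### rationality -/

theorem ratF_smul {w : F2 C} (hw : RatF w) {r : ℝ} (hr : ∃ q : ℚ, (q : ℝ) = r) :
    RatF (r • w) := by
  obtain ⟨q, rfl⟩ := hr
  exact hw.smul q

theorem ratF_sre (hN : ∃ q : ℚ, (q : ℝ) = F.N) (hx : ∃ q : ℚ, (q : ℝ) = τ.re)
    (hy : ∃ q : ℚ, (q : ℝ) = τ.im ^ 2) : RatF (F.sre τ) := by
  obtain ⟨a, ha⟩ := hN
  obtain ⟨b, hb⟩ := hx
  obtain ⟨c, hc⟩ := hy
  refine Cls.sub (Cls.add F.rat_es (ratF_smul F.rat_v ⟨b, hb⟩)) (ratF_smul F.int_e.rat ?_)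
  refine ⟨a / 2 * (b ^ 2 - c), ?_⟩
  push_cast
  rw [ha, hb, hc]

/-- every ray contains a `y` with `y²` rational -/
theorem exists_y (Y : ℝ) : ∃ y : ℝ, Y < y ∧ 0 < y ∧ ∃ q : ℚ, (q : ℝ) = y ^ 2 := by
  obtain ⟨n, hn⟩ := exists_nat_gt (max Y 0)
  exact ⟨n, (le_max_left _ _).trans_lt hn, (le_max_right _ _).trans_lt hn, (n : ℚ) ^ 2, by simp⟩

/-! ### PROJ-x -/

/-- an integral multiple of `Re σ_τ` and of the Kaehler form of `I'_x` -/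
theorem exists_int_rotx [CompactSpace X] [T2Space X] (hz : z ≠ 0)
    (h0 : Cl ((H.rot (fx z) (fr_fx hz)).om 0) (‖z‖ • F.sre τ))
    (hN : ∃ q : ℚ, (q : ℝ) = F.N) (hx : ∃ q : ℚ, (q : ℝ) = τ.re)
    (hy : ∃ q : ℚ, (q : ℝ) = τ.im ^ 2) : ∃ m : ℕ, 0 < m ∧ IntF ((m : ℝ) • F.sre τ) ∧
      IntF (((m : ℝ) / ‖z‖) • (H.rot (fx z) (fr_fx hz)).om 0) := by
  obtain ⟨m, hm, hI⟩ := RatF.exists_int (ratF_sre hN hx hy)
  refine ⟨m, hm, hI, Cls.of_sub_ex hI ?_⟩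
  have h1 := h0.smul ((m : ℝ) / ‖z‖)
  rw [smul_smul, div_mul_cancel₀ _ (norm_ne_zero_iff.2 hz)] at h1
  exact h1

/-- **PROJ-x** -/
theorem projX [FiniteDimensional ℝ V] [CompactSpace X] [T2Space X] (hNN : NNat V d)
    (hz : z ≠ 0) (h0 : Cl ((H.rot (fx z) (fr_fx hz)).om 0) (‖z‖ • F.sre τ))
    (hN : ∃ q : ℚ, (q : ℝ) = F.N) (hx : ∃ q : ℚ, (q : ℝ) = τ.re)
    (hy : ∃ q : ℚ, (q : ℝ) = τ.im ^ 2) {κ : Type*} (O : κ → Set X)
    (hO : ∀ k, IsOpen (O k)) (hOc : ∀ x, ∃ k, x ∈ O k) :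
    ∃ (m : ℕ) (A : Atl d X) (hA : Cp ((H.rot (fx z) (fr_fx hz)).acm 0) A) (L : LB A) (h : HM L),
      0 < m ∧ IntF ((m : ℝ) • F.sre τ) ∧ Finite A.ι ∧ GoodA A ∧ Nonempty (Part A) ∧
      (∀ i, ∃ k, (A.e i).source ⊆ O k) ∧
      (∀ i, ∀ y ∈ (A.e i).source, cur h i y =
        ((Real.pi * ((m : ℝ) / ‖z‖) : ℝ) : ℂ) • (met (H.rot (fx z) (fr_fx hz)) hA).g i y) ∧
      h.Pos ∧ ∃ k : ℕ, 0 < k ∧ ∃ P : ProjD A, lb P = L ^ k := by
  obtain ⟨m, hm, h1, h2⟩ := exists_int_rotx hz h0 hN hx hy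
  have hc : 0 < (m : ℝ) / ‖z‖ := div_pos (by exact_mod_cast hm) (norm_pos_iff.2 hz)
  obtain ⟨A, hA, L, h, a1, a2, a3, a4, a5, a6, a7⟩ := proj_of_int hNN _ hc h2 O hO hOc
  exact ⟨m, A, hA, L, h, hm, h1, a1, a2, a3, a4, a5, a6, a7⟩

end

end Crest.Agent.R281.Pjx_648
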