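import Crest.Agent.R281.Pjx6_648
import Crest.Agent.R281.Pjx3_648

/-!
# R281 (S0424), PREQ (helper648), part 7: from the end member to the chart member

* `smapOf`, `pullK_f2`, `eqv_pull_cp` : forms under holomorphic maps
* `lb_iso` : `H₀` (chart member, `J 0`), `H` (end member, `J 1`), `g` a diffeomorphism which
             intertwines `J 0` of `H₀` and `J 1` of `H` and is the identity on classes, `K` a Kaehler
             metric on an atlas of `J 1` of `H` with form `s • om 1`, `[om 1] = z Re σ_τ`, `x`, `y²`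
             rational ==> on a refinement `A'` of any given atlas `A₀` of `J 0` of `H₀`: the pull back
             `K'` of `K`, a line bundle with curvature exactly `(π c) K'`, `ProjD`
* `rich_ref` : `Rich` on a refinement ==> `Rich`
-/

set_option autoImplicit false
set_option linter.unusedSectionVars false
set_option maxSynthPendingDepth 3

open Set Filter Topology Complex
open scoped ContDiff Matrix ComplexConjugate ComplexOrder

namespace Crest.Agent.R281.Pjx_648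

open Crest.Agent.R281.HkR_835 Crest.Agent.R281.Dif_268 Crest.Agent.R281.Cdr_234
open Crest.Agent.R281.Alg_998
open Crest.Agent.R281.Ti_846 (Ex)
open Crest.Agent.R281.NefO_476 Crest.Agent.R281.Nef_252
open Crest.Agent.R275.Geo Crest.Agent.R275.Core144 Crest.Agent.R275.GC293 Crest.Agent.R275.EDR890
open Crest.Agent.R273
open Crest.Agent.R273.Defs_333
open Crest.Agent.R273.Map_835 (HolMap dm Jp mem_dm holMap_id Jp_comp)
open Crest.Agent.R273.PB_835 (LBih Ref PB pullLB pullLB_g)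
open Crest.Agent.R273.Kah_333 (Kah cur)
open Crest.Agent.R273.FS_333 (lb)
open Crest.Agent.R260.ACM_580 Crest.Agent.R260.NNB_580
open Crest.Agent.R281.Sk_474 (Rich)

noncomputable section

/-! ### forms under holomorphic maps -/

section maps

variable {d : ℕ} {X Y : Type} [TopologicalSpace X] [TopologicalSpace Y] {A : Atl d X}
  {B : Atl d Y} {p : Y → X}

/-- a holomorphic map as a smooth map -/
def smapOf (h : HolMap B A p) : SMap (ofAtl B) (ofAtl A) where
  f := p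
  cont := h.cont
  sm i j := ((Crest.Agent.R266.SCV.contDiffOn_omega_of_differentiableOn (h.isOpen_dm j i)
    (h.hol j i)).restrict_scalars ℝ).of_le le_top

theorem fderiv_rdp (h : HolMap B A p) {k : B.ι} {i : A.ι} {z : Cn d}
    (hz : z ∈ dm B A p k i) (v : Cn d) :
    (fderiv ℝ (Map_835.rd B A p k i) z v).ofLp =
      (Jp B A p k i ((B.e k).symm z)) *ᵥ v.ofLp := by
  have h1 := (h.diffAt hz).fderiv_restrictScalars ℝ
  have h2 : B.e k ((B.e k).symm z) = z := (B.e k).right_inv hz.1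
  funext b
  rw [h1]
  show (fderiv ℂ (Map_835.rd B A p k i) z v) b = _
  rw [Map_835.mt_apply, Map_835.Jp_eq, h2]
  rfl

/-- the form of the pull back of a Kaehler metric -/
theorem pullK_f2 (h : LBih B A p) (K : Kah A) :
    Eqv (ofKah (pullK h K)).f2 ((smapOf h.toHolMap).pull (ofKah K).f2) := by
  intro k z hz u v
  obtain ⟨i, hi⟩ := A.cover (p ((B.e k).symm z))
  have hd : z ∈ dm B A p k i := ⟨hz, hi⟩
  have hd' : z ∈ dom (ofAtl A) (ofAtl B) (smapOf h.toHolMap).f i k := hd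
  have hk : (B.e k).symm z ∈ (B.e k).source := (B.e k).map_target hz
  have e1 : loc (ofAtl A) (ofAtl B) (smapOf h.toHolMap).f i k = Map_835.rd B A p k i := rfl
  have e2 : Map_835.rd B A p k i z ∈ (A.e i).target := (A.e i).map_source hi
  have e3 : (A.e i).symm (Map_835.rd B A p k i z) = p ((B.e k).symm z) := (A.e i).left_inv hi
  rw [(smapOf h.toHolMap).pull_w (ofKah K).f2 hd', e1, (ofKah (pullK h K)).f2_w hz,
    (ofKah K).f2_w e2, e3, hb_mulVec _ (Jp B A p k i ((B.e k).symm z))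
    (fderiv_rdp h.toHolMap hd u) (fderiv_rdp h.toHolMap hd v)]
  have e4 : (ofKah (pullK h K)).g k ((B.e k).symm z) =
    (Jp B A p k i ((B.e k).symm z))ᵀ * K.g i (p ((B.e k).symm z)) *
      (Jp B A p k i ((B.e k).symm z)).map conj := pullK_g h K hk hi
  rw [e4]
  rfl

theorem smap_ext {V V' : Type} [NormedAddCommGroup V] [NormedSpace ℝ V]
    [NormedAddCommGroup V'] [NormedSpace ℝ V'] {C : RCh V X} {C' : RCh V' Y} {g g' : SMap C' C}
    (h : g.f = g'.f) : g = g' := by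
  obtain ⟨f, hc, hs⟩ := g
  obtain ⟨f', hc', hs'⟩ := g'
  have h1 : f = f' := h
  subst h1
  rfl

/-- the transported forms under a holomorphic map -/
theorem eqv_pull_cp {V V' : Type} [NormedAddCommGroup V] [NormedSpace ℝ V]
    [NormedAddCommGroup V'] [NormedSpace ℝ V'] {C : RCh V X} {C' : RCh V' Y}
    (hc : Cmp C (ofAtl A)) (hc' : Cmp C' (ofAtl B)) (g : SMap C' C) (h : HolMap B A g.f)
    (w : F2 C) : Eqv ((smapOf h).pull (hc.F w)) (hc'.F (g.pull w)) := by
  have e1 := (F_pull hc w).pull (smapOf h)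
  have e2 := pull_comp (SMap.ofCmp hc) (smapOf h) w
  have e3 := pull_comp g (SMap.ofCmp hc') w
  have e4 : (SMap.ofCmp hc).comp (smapOf h) = g.comp (SMap.ofCmp hc') := smap_ext rfl
  rw [e4] at e2
  exact e1.trans (e2.symm.trans (e3.trans (F_pull hc' (g.pull w)).symm))

/-- the Jacobian law of a composition with a change of atlas -/
theorem jac_comp' {B' : Atl d Y} (h1 : HolMap B A p) (h2 : HolMap B' B id)
    (G : Matrix (Fin d) (Fin d) ℂ) {k : B'.ι} {j : B.ι} {i : A.ι} {y : Y}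
    (hk : y ∈ (B'.e k).source) (hj : y ∈ (B.e j).source) (hi : p y ∈ (A.e i).source) :
    (Jp B' B id k j y)ᵀ * ((Jp B A p j i y)ᵀ * G * (Jp B A p j i y).map conj) *
      (Jp B' B id k j y).map conj =
    (Jp B' A p k i y)ᵀ * G * (Jp B' A p k i y).map conj := by
  have h3 : Jp B A p j i y * Jp B' B id k j y = Jp B' A p k i y :=
    Jp_comp h1 h2 (i := k) (j := j) (l := i) (x := y) hk hj hi
  rw [← h3, Matrix.transpose_mul]
  have h4 : (Jp B A p j i y * Jp B' B id k j y).map conj =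
      (Jp B A p j i y).map conj * (Jp B' B id k j y).map conj :=
    Matrix.map_mul (f := (starRingEnd ℂ))
  rw [h4]
  simp only [Matrix.mul_assoc]

end maps

/-! ### from the end member to the chart member -/

section iso

variable {d : ℕ} {X V : Type} [TopologicalSpace X] [NormedAddCommGroup V] [NormedSpace ℝ V]
  {C : RCh V X} {Q : F2 C →ₗ[ℝ] F2 C →ₗ[ℝ] ℝ} {F : Frm C Q} {τ : ℂ}

/-- the class of the pulled back metric is integral up to a positive factor -/
theorem exists_int_iso [CompactSpace X] [T2Space X] {H₀ H : HkT C} {A₀ A : Atl d X}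
    (hA₀ : Cp (H₀.acm 0) A₀) (hA : Cp (H.acm 1) A) {g : SMap C C} (hl : LBih A₀ A g.f)
    (hcl : ∀ w : F2 C, Cl (g.pull w) w) {K : Kah A} {s z : ℝ} (hs : 0 < s) (hz : 0 < z)
    (hK : Eqv (ofKah K).f2 (s • (cmp_of_cp hA).F (H.om 1)))
    (h1 : Cl (H.om 1) (z • F.sre τ)) (hN : ∃ q : ℚ, (q : ℝ) = F.N) (hx : ∃ q : ℚ, (q : ℝ) = τ.re)
    (hy : ∃ q : ℚ, (q : ℝ) = τ.im ^ 2) :
    ∃ m : ℕ, 0 < m ∧ IntF ((m : ℝ) • F.sre τ) ∧
      IntF (((m : ℝ) / (s * z)) • (ofKah (pullK hl K)).f2) := by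
  obtain ⟨m, hm, hI⟩ := RatF.exists_int (ratF_sre hN hx hy)
  refine ⟨m, hm, hI, ?_⟩
  -- the class of `g.pull (om 1)`
  have h2 : Cl (g.pull (H.om 1)) (z • F.sre τ) := (hcl (H.om 1)).trans h1
  have h3 : Ex (((m : ℝ) / z) • g.pull (H.om 1) - (m : ℝ) • F.sre τ) := by
    have h4 := h2.smul ((m : ℝ) / z)
    rw [smul_smul, div_mul_cancel₀ _ hz.ne'] at h4
    exact h4
  have h4 : IntF (((m : ℝ) / z) • g.pull (H.om 1)) := Cls.of_sub_ex hI h3
  have h5 : Cls (Int.castAddHom ℝ).range ((cmp_of_cp hA₀).F (((m : ℝ) / z) • g.pull (H.om 1))) :=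
    (Cls.cmp_F (cmp_of_cp hA₀)).2 h4
  refine Cls.eqv h5 fun i y hy u v => ?_
  have e1 := F_smul (cmp_of_cp hA₀) ((m : ℝ) / z) (g.pull (H.om 1)) i y hy u v
  have e2 := pullK_f2 hl K i y hy u v
  have e3 := hK.pull (smapOf hl.toHolMap) i y hy u v
  have e4 := pull_smul (smapOf hl.toHolMap) s ((cmp_of_cp hA).F (H.om 1)) i y hy u v
  have e5 := eqv_pull_cp (cmp_of_cp hA) (cmp_of_cp hA₀) g hl.toHolMap (H.om 1) i y hy u v
  have e6 : (((m : ℝ) / z) • (cmp_of_cp hA₀).F (g.pull (H.om 1))).w i y u v =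
    (m : ℝ) / z * ((cmp_of_cp hA₀).F (g.pull (H.om 1))).w i y u v := rfl
  have e7 : (s • (smapOf hl.toHolMap).pull ((cmp_of_cp hA).F (H.om 1))).w i y u v =
    s * ((smapOf hl.toHolMap).pull ((cmp_of_cp hA).F (H.om 1))).w i y u v := rfl
  have e8 : (((m : ℝ) / (s * z)) • (ofKah (pullK hl K)).f2).w i y u v =
    (m : ℝ) / (s * z) * (ofKah (pullK hl K)).f2.w i y u v := rfl
  rw [e1, e6, e8, e2, e3, e4, e7, e5]
  field_simp

/-- **projective data at the chart member from the end member** -/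
theorem lb_iso [CompactSpace X] [T2Space X] {H₀ H : HkT C} {A₀ A : Atl d X}
    (hA₀ : Cp (H₀.acm 0) A₀) (hA : Cp (H.acm 1) A) {g k : SMap C C} (hb : Bi g k)
    (hg : HolM g (ofHk H₀ 0) (ofHk H 1)) (hcl : ∀ w : F2 C, Cl (g.pull w) w) {K : Kah A}
    {s z : ℝ} (hs : 0 < s) (hz : 0 < z)
    (hK : Eqv (ofKah K).f2 (s • (cmp_of_cp hA).F (H.om 1)))
    (h1 : Cl (H.om 1) (z • F.sre τ)) (hN : ∃ q : ℚ, (q : ℝ) = F.N) (hx : ∃ q : ℚ, (q : ℝ) = τ.re)
    (hy : ∃ q : ℚ, (q : ℝ) = τ.im ^ 2) {κ : Type*} (O : κ → Set X)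
    (hO : ∀ k, IsOpen (O k)) (hOc : ∀ x, ∃ k, x ∈ O k) :
    ∃ (c : ℝ) (A' : Atl d X) (_ : Cp (H₀.acm 0) A') (K' : Kah A') (Lb : LB A') (h : HM Lb),
      0 < c ∧ Finite A'.ι ∧ GoodA A' ∧ Nonempty (Part A') ∧ (∀ i, ∃ k, (A'.e i).source ⊆ O k) ∧
      Nonempty (Ref A' A₀ id) ∧ LBih A' A₀ id ∧ LBih A₀ A' id ∧ LBih A' A g.f ∧ LBih A A' k.f ∧
      (∀ (l : A'.ι) (i : A.ι) (y : X), y ∈ (A'.e l).source → g.f y ∈ (A.e i).source →
        K'.g l y = (Jp A' A g.f l i y)ᵀ * K.g i (g.f y) * (Jp A' A g.f l i y).map conj) ∧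
      (∀ i, ∀ y ∈ (A'.e i).source, cur h i y = ((Real.pi * c : ℝ) : ℂ) • K'.g i y) ∧ h.Pos ∧
      ∃ m : ℕ, 0 < m ∧ ∃ P : ProjD A', lb P = Lb ^ m := by
  have hh : HolMap A₀ A g.f := holMap_of hA₀ hA hg
  have hk : HolMap A A₀ k.f := holMap_of hA hA₀ (hb.holM hg)
  have hl : LBih A₀ A g.f := lbih_of_inv hh hk hb.kg
  have hl' : LBih A A₀ k.f := lbih_of_inv hk hh hb.gk
  obtain ⟨m, hm, -, hI⟩ := exists_int_iso hA₀ hA hl hcl hs hz hK h1 hN hx hy
  have hc : 0 < (m : ℝ) / (s * z) := div_pos (by exact_mod_cast hm) (mul_pos hs hz)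
  obtain ⟨A', K', Lb, h, a1, a2, a3, a4, a5, a6, a7, a8, a9, a10, a11⟩ :=
    lb_kah (pullK hl K) hc hI O hO hOc
  refine ⟨_, A', cp_of_hol hA₀ a6.toHolMap a7.toHolMap, K', Lb, h, hc, a1, a2, a3, a4, a5, a6, a7,
    hl.comp a6, a7.comp hl', fun l i y hl₁ hi => ?_, a9, a10, a11⟩
  obtain ⟨j, hj⟩ := A₀.cover y
  rw [a8 l j y hl₁ hj, pullK_g hl K hj hi, jac_comp' hl.toHolMap a6.toHolMap _ hl₁ hj hi]

end iso

/-- `Rich` on a refinement -/
theorem rich_ref {n : ℕ} {M : Type} [TopologicalSpace M] {A A' : Atl (2 * n) M}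
    (h : HolMap A' A id) (h' : HolMap A A' id) (R : Ref A' A id) {L : LB A}
    (hR : Rich A' (pullLB h R L)) : Rich A L :=
  rich_back h' h (fun _ => rfl) (fun _ => rfl) R hR

end

end Crest.Agent.R281.Pjx_648
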