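import Crest.Agent.R281.RkD_902

/-!
# R281 (S0424), RANK281 (helper902): first consequences of the definitions of `RkD_902`

* `EndIso.height` : the form "by heights" of `EndIso`
* `Road.b_pos`    : facts on the box member `(A, b_x)`: `om 1 ∼ s A`, `om 2 ∼ s b_x`, `s > 0`
-/

set_option autoImplicit false
set_option linter.unusedSectionVars false
set_option maxSynthPendingDepth 3

open Set Filter Topology
open scoped ContDiff

namespace Crest.Agent.R281.RkD_902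

open Crest.Agent.R275.Geo Crest.Agent.R275.Core144
open Crest.Agent.R281.HkR_835 Crest.Agent.R281.Ti_846 Crest.Agent.R281.Cdr_234
open Crest.Agent.R281.Dif_268 Crest.Agent.R281.PL_713
open Crest.Agent.R281.NefO_476 Crest.Agent.R281.Nef_252
open Crest.Agent.R281.Alg_998

noncomputable section

section gen

variable {V X : Type} [NormedAddCommGroup V] [NormedSpace ℝ V] [TopologicalSpace X]
  {C : RCh V X} {Q : F2 C →ₗ[ℝ] F2 C →ₗ[ℝ] ℝ} {H0 : HkT C} {e : F2 C}

/-- the form of `EndIso` by heights -/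
theorem EndIso.height {Alg : AlgT Q} {B : Box Q H0 e} {R : Road Alg B} {x : ℝ} (h : EndIso R x)
    {y : ℝ} (hy : R.K.Y < y) : ∃ H, MemN R.K ⟨x, y⟩ H ∧
      IsoId (ofHk (B.H R.a (R.c x)) 0) (ofHk H 1) := by
  obtain ⟨K, -, hK⟩ := h
  have h1 := hK (Real.log (y - R.K.Y))
  rw [Real.exp_log (by linarith), add_sub_cancel] at h1
  exact ⟨_, h1⟩

end gen

section ctx

variable {n : ℕ} {X : Type} [TopologicalSpace X] [CompactSpace X] {C : RCh (Cn (2 * n)) X}
  {Q : F2 C →ₗ[ℝ] F2 C →ₗ[ℝ] ℝ}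

namespace Ctx

theorem cl_left (hc : Ctx n C Q) {x x' y : F2 C} (h : Cl x x') : Q x y = Q x' y := by
  have := hc.ex _ y h
  rw [map_sub, LinearMap.sub_apply] at this
  linarith

theorem cl_right (hc : Ctx n C Q) {x x' y : F2 C} (h : Cl x x') : Q y x = Q y x' := by
  rw [hc.symm, hc.symm y]
  exact hc.cl_left h

theorem cl_cl (hc : Ctx n C Q) {x x' y y' : F2 C} (h : Cl x x') (h' : Cl y y') :
    Q x y = Q x' y' := by
  rw [hc.cl_left h, hc.cl_right h']

end Ctx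

variable {H0 : HkT C} {e : F2 C}

/-- `b_x` -/
def Road.bx {Alg : AlgT Q} {B : Box Q H0 e} (R : Road Alg B) (x : ℝ) : F2 C :=
  -R.F.v + (R.F.N * x) • R.F.e

theorem Road.A_bx {Alg : AlgT Q} {B : Box Q H0 e} (R : Road Alg B) (x : ℝ) :
    Q R.A (R.bx x) = 0 := by
  unfold Road.bx
  rw [map_add, map_neg, map_smul, R.Av, R.Ae]
  simp

theorem Road.bx_bx {Alg : AlgT Q} {B : Box Q H0 e} (hc : Ctx n C Q) (R : Road Alg B) (x : ℝ) :
    Q (R.bx x) (R.bx x) = R.F.N := by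
  have h1 := R.F.e_e
  have h2 := R.F.e_v
  have h3 : Q R.F.v R.F.e = 0 := by rw [hc.symm]; exact h2
  have h4 := R.F.v_v
  unfold Road.bx
  simp only [map_add, map_neg, map_smul, LinearMap.add_apply, LinearMap.neg_apply,
    LinearMap.smul_apply, smul_eq_mul, h1, h2, h3, h4]
  ring

theorem cl_lco {m : ℕ} {bas : Fin m → F2 C} {b : Fin m → ℝ} {w : F2 C} (s : ℝ)
    (h : Cl (lco bas b) w) : Cl (s • lco bas b) (s • w) := Cl.smul s h

/-- `om 1` of the chart member `(A, b_x)` is a positive multiple of `A` -/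
theorem Road.om1 {Alg : AlgT Q} {B : Box Q H0 e} (R : Road Alg B) {x : ℝ} (hx : R.c x ∈ B.D) :
    ∃ s : ℝ, 0 < s ∧ Cl ((B.H R.a (R.c x)).om 1) (s • R.A) := by
  obtain ⟨s, hs, h1⟩ := B.cl1 _ R.aB _ hx
  obtain ⟨r, hr, h2⟩ := R.ha
  refine ⟨s * r, mul_pos hs hr, h1.trans ?_⟩
  have h3 := Cl.smul s h2
  rwa [smul_smul] at h3

/-- `om 2` of the chart member `(A, b_x)` is a positive multiple of `b_x` -/
theorem Road.om2 {Alg : AlgT Q} {B : Box Q H0 e} (hc : Ctx n C Q) (R : Road Alg B) {x : ℝ}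
    (hx : R.c x ∈ B.D) :
    ∃ s : ℝ, 0 < s ∧ Cl ((B.H R.a (R.c x)).om 2) (s • R.bx x) := by
  obtain ⟨s, t, hs, h1⟩ := B.cl2 _ R.aB _ hx
  obtain ⟨s1, hs1, h2⟩ := R.om1 hx
  obtain ⟨r, hr, h3⟩ := R.ha
  have h4 : Cl ((B.H R.a (R.c x)).om 2) (s • R.bx x + t • (r • R.A)) :=
    h1.trans (Cl.add (Cl.smul s (R.hc x)) (Cl.smul t h3))
  have h5 := hc.ort (B.H R.a (R.c x)) 1 2 (by decide)
  rw [hc.cl_cl h2 h4] at h5
  simp only [map_add, map_smul, LinearMap.smul_apply, smul_eq_mul, R.A_bx] at h5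
  have hAA := R.AA
  have ht : t = 0 := by
    have h6 : s1 * (t * (r * Q R.A R.A)) = 0 := by linarith
    have h7 : s1 ≠ 0 := hs1.ne'
    have h8 : r * Q R.A R.A ≠ 0 := (mul_pos hr hAA).ne'
    rcases mul_eq_zero.1 h6 with h | h
    · exact absurd h h7
    · rcases mul_eq_zero.1 h with h | h
      · exact h
      · exact absurd h h8
  subst ht
  refine ⟨s, hs, ?_⟩
  rwa [zero_smul, add_zero] at h4

/-- `e` is orthogonal to `A`, `b_x` -/
theorem Road.e_A {Alg : AlgT Q} {B : Box Q H0 e} (hc : Ctx n C Q) (R : Road Alg B) :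
    Q e R.A = 0 := by
  have h := R.Ae
  have h1 : Q R.A e = Q R.A R.F.e := congrArg (Q R.A) R.Fe.symm
  rw [hc.symm, h1, h]

theorem Road.e_bx {Alg : AlgT Q} {B : Box Q H0 e} (R : Road Alg B) (x : ℝ) :
    Q e (R.bx x) = 0 := by
  have h1 : Q e (R.bx x) = Q R.F.e (R.bx x) := congrArg (fun u => Q u (R.bx x)) R.Fe.symm
  rw [h1]
  unfold Road.bx
  rw [map_add, map_neg, map_smul, R.F.e_e, R.F.e_v]
  simp

/-- scaled: the chart member is the box member `(A, b_x)` -/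
theorem given_box' (hc : Ctx n C Q) {L0 : PL C} (h : Given Q H0 L0 e) (B : Box Q H0 e)
    {b c : Fin B.m → ℝ} (hb : b ∈ B.B) (hd : c ∈ B.D) : Given Q (B.H b c) L0 e := by
  have hq : ∀ b' : Fin B.m → ℝ, Q e (lco B.bas b') = 0 := by
    intro b'
    unfold lco
    rw [map_sum]
    refine Finset.sum_eq_zero fun j _ => ?_
    rw [map_smul, hc.symm, B.orth j, smul_zero]
  refine ⟨B.pos2 b hb c hd, h.int, h.lnk, h.ee, ?_, ?_, B.pos b hb c hd⟩
  · obtain ⟨s, -, h1⟩ := B.cl1 b hb c hd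
    rw [hc.cl_right h1, map_smul, hq, smul_zero]
  · obtain ⟨s, t, -, h1⟩ := B.cl2 b hb c hd
    rw [hc.cl_right h1, map_add, map_smul, map_smul, hq, hq, smul_zero, smul_zero, add_zero]

end ctx

end

end Crest.Agent.R281.RkD_902
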