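import Crest.Agent.R281.Pjx7_648
import Crest.Agent.R281.RkE_902

/-!
# R281 (S0424), KAPPA-1 (helper648), part 8: the class of the given bundle on a refinement

* `c1F_pull` : the first Chern form of a pulled back metric
* `c1_pres`  : `c1F p.h ∼ e` for a presentation
* `c1_ref`   : the same for the pull back of `p.L` to a refinement of `p.A`
* `rat_N`    : `F.N` is rational
-/

set_option autoImplicit false
set_option linter.unusedSectionVars false
set_option maxSynthPendingDepth 3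

open Set Filter Topology Complex
open scoped ContDiff Matrix ComplexConjugate ComplexOrder

namespace Crest.Agent.R281.Pjx_648

open Crest.Agent.R281.HkR_835 Crest.Agent.R281.Dif_268 Crest.Agent.R281.Cdr_234
open Crest.Agent.R281.Alg_998 Crest.Agent.R281.RkD_902 Crest.Agent.R281.PL_713
open Crest.Agent.R281.Ti_846
open Crest.Agent.R281.NefO_476 Crest.Agent.R281.Nef_252
open Crest.Agent.R275.Geo Crest.Agent.R275.Core144 Crest.Agent.R275.GC293 Crest.Agent.R275.EDR890
open Crest.Agent.R273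
open Crest.Agent.R273.Defs_333
open Crest.Agent.R273.Map_835 (HolMap dm Jp mem_dm holMap_id Jp_comp)
open Crest.Agent.R273.PB_835 (LBih Ref PB pullLB pullLB_g)
open Crest.Agent.R273.Kah_333 (Kah cur)
open Crest.Agent.R260.ACM_580 Crest.Agent.R260.NNB_580

noncomputable section

section pull

variable {d : ℕ} {X Y : Type} [TopologicalSpace X] [TopologicalSpace Y] {A : Atl d X}
  {B : Atl d Y} {p : Y → X}

/-- the first Chern form of a pulled back metric -/
theorem c1F_pull (hl : LBih B A p) {L' : LB B} {L : LB A} (T : PB p L' L) (h : HM L) :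
    Eqv (c1F (T.pullHM hl.toHolMap h)) ((smapOf hl.toHolMap).pull (c1F h)) := by
  intro k z hz u v
  obtain ⟨i, hi⟩ := A.cover (p ((B.e k).symm z))
  have hd : z ∈ dm B A p k i := ⟨hz, hi⟩
  have hd' : z ∈ dom (ofAtl A) (ofAtl B) (smapOf hl.toHolMap).f i k := hd
  have hk : (B.e k).symm z ∈ (B.e k).source := (B.e k).map_target hz
  have e1 : loc (ofAtl A) (ofAtl B) (smapOf hl.toHolMap).f i k = Map_835.rd B A p k i := rfl
  have e2 : Map_835.rd B A p k i z ∈ (A.e i).target := (A.e i).map_source hi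
  have e3 : (A.e i).symm (Map_835.rd B A p k i z) = p ((B.e k).symm z) := (A.e i).left_inv hi
  have e4 : ∀ (u v : Cn d), (c1F h).w i (Map_835.rd B A p k i z) u v =
      Real.pi⁻¹ * (I * hb (cur h i (p ((B.e k).symm z))) u v).re := by
    intro u v
    have h1 : (c1F h).w i (Map_835.rd B A p k i z) u v =
      Real.pi⁻¹ * (Cdr_234.curK h).f2.w i (Map_835.rd B A p k i z) u v := rfl
    rw [h1, (Cdr_234.curK h).f2_w e2, e3]
    rfl
  have e5 : (c1F (T.pullHM hl.toHolMap h)).w k z u v =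
      Real.pi⁻¹ * (I * hb (cur (T.pullHM hl.toHolMap h) k ((B.e k).symm z)) u v).re := by
    have h1 : (c1F (T.pullHM hl.toHolMap h)).w k z u v =
      Real.pi⁻¹ * (Cdr_234.curK (T.pullHM hl.toHolMap h)).f2.w k z u v := rfl
    rw [h1, (Cdr_234.curK (T.pullHM hl.toHolMap h)).f2_w hz]
    rfl
  rw [(smapOf hl.toHolMap).pull_w (c1F h) hd', e1, e4, e5,
    hb_mulVec _ (Jp B A p k i ((B.e k).symm z)) (fderiv_rdp hl.toHolMap hd u)
    (fderiv_rdp hl.toHolMap hd v), LiftB_522.cur_pull T hl.toHolMap h hk hi]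

end pull

section pres

variable {n : ℕ} {X : Type} [TopologicalSpace X] {C : RCh (Cn (2 * n)) X}
  {Q : F2 C →ₗ[ℝ] F2 C →ₗ[ℝ] ℝ} {H : HkT C} {L0 : PL C} {e : F2 C}

theorem cl_add (L : PL C) (a : F1 C) : Cl (L.add a).F L.F := by
  refine ⟨a, fun i z hz u v => ?_⟩
  have h1 : ((L.add a).F - L.F).w i z u v = (L.add a).F.w i z u v - L.F.w i z u v := rfl
  have h2 := a.isD i z hz u v
  rw [h1, PL.add_F L a hz, add_sub_cancel_left]
  exact h2

/-- the class of the bundle of a presentation -/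
theorem c1_pres (hG : Given Q H L0 e) (p : Pres n H L0) :
    Ex (c1F p.h - (cmp_of_cp p.cp).F e) := by
  set hc := cmp_of_cp p.cp with hhc
  -- `(L0.add a).F ∼ -2π e`
  have h1 : Cl (L0.add p.a).F ((-(2 * Real.pi)) • e) := (cl_add L0 p.a).trans hG.lnk
  -- read on `A`
  have h2 : Ex (hc.F ((L0.add p.a).F - (-(2 * Real.pi)) • e)) := ex_F hc h1
  have h3 : Ex ((-(2 * Real.pi))⁻¹ • hc.F ((L0.add p.a).F - (-(2 * Real.pi)) • e)) :=
    Ex.smul _ h2
  refine Eqv.ex ?_ h3
  intro i z hz u v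
  have e1 := F_sub hc (L0.add p.a).F ((-(2 * Real.pi)) • e) i z hz u v
  have e2 := F_smul hc (-(2 * Real.pi)) e i z hz u v
  have e3 := p.cur i z hz u v
  have e4 : (c1F p.h - hc.F e).w i z u v = Real.pi⁻¹ * (Cdr_234.curK p.h).f2.w i z u v -
    (hc.F e).w i z u v := rfl
  have e5 : ((-(2 * Real.pi))⁻¹ • hc.F ((L0.add p.a).F - (-(2 * Real.pi)) • e)).w i z u v =
    (-(2 * Real.pi))⁻¹ * (hc.F ((L0.add p.a).F - (-(2 * Real.pi)) • e)).w i z u v := rfl
  have e6 : (hc.F (L0.add p.a).F - hc.F ((-(2 * Real.pi)) • e)).w i z u v =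
    (hc.F (L0.add p.a).F).w i z u v - (hc.F ((-(2 * Real.pi)) • e)).w i z u v := rfl
  have e7 : (((-2 : ℝ)) • (Nef_252.curK p.h).f2).w i z u v =
    -2 * (Cdr_234.curK p.h).f2.w i z u v := rfl
  have e8 : ((-(2 * Real.pi)) • hc.F e).w i z u v = -(2 * Real.pi) * (hc.F e).w i z u v := rfl
  rw [e4, e5, e1, e6, e3, e7, e2, e8]
  have hpi : Real.pi ≠ 0 := Real.pi_ne_zero
  field_simp
  ring

/-- the same on a refinement -/
theorem c1_ref (hG : Given Q H L0 e) (p : Pres n H L0) {A' : Atl (2 * n) X}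
    (hA' : Cp (H.acm 0) A') (hl : LBih A' p.A id) (R : Ref A' p.A id) :
    Ex (c1F ((PB.ref hl.toHolMap R p.L).pullHM hl.toHolMap p.h) - (cmp_of_cp hA').F e) := by
  have h1 := (smapOf hl.toHolMap).ex_pull (c1_pres hG p)
  refine Eqv.ex ?_ h1
  have e1 := c1F_pull hl (PB.ref hl.toHolMap R p.L) p.h
  have e2 := eqv_pull_cp (cmp_of_cp p.cp) (cmp_of_cp hA') (SMap.id C) hl.toHolMap e
  have e3 : Eqv ((cmp_of_cp hA').F ((SMap.id C).pull e)) ((cmp_of_cp hA').F e) :=
    F_eqv (pull_id e)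
  have e4 := pull_sub (smapOf hl.toHolMap) (c1F p.h) ((cmp_of_cp p.cp).F e)
  intro i z hz u v
  have k1 := e1 i z hz u v
  have k2 := (e2.trans e3) i z hz u v
  have k4 := e4 i z hz u v
  rw [k4]
  have k5 : (c1F ((PB.ref hl.toHolMap R p.L).pullHM hl.toHolMap p.h) -
      (cmp_of_cp hA').F e).w i z u v =
    (c1F ((PB.ref hl.toHolMap R p.L).pullHM hl.toHolMap p.h)).w i z u v -
      ((cmp_of_cp hA').F e).w i z u v := rfl
  rw [k5, k1, ← k2]
  rfl

/-- `F.N` is rational -/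
theorem rat_N [CompactSpace X] (hc : Ctx n C Q) (F : Frm C Q) : ∃ q : ℚ, (q : ℝ) = F.N := by
  obtain ⟨r, hr⟩ := hc.rat F.v F.v F.rat_v F.rat_v
  exact ⟨r, by rw [← hr, F.v_v]⟩

end pres

end

end Crest.Agent.R281.Pjx_648
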