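import Crest.Agent.R281.Qt1_922
import Crest.Agent.R273.PB_835

/-!
# R281 (S0424), KAPPA-1, (K2) of 975 (helper648), part 9: pull back of a quantified tube

`pbT hp hq hpq hqp hK T : QTube A' K' n κ R` for `T : QTube A K n κ R`, `p : M' → M` biholomorphic
with inverse `q`, `K' = p^* K`; `U = p ⁻¹' T.U`, `f = T.f ∘ p`.
-/

set_option autoImplicit false

open Set Metric Filter Topology Complex
open scoped ContDiff Matrix ComplexConjugate

namespace Crest.Agent.R281.Pjx_648

open Crest.Agent.R275.Geo Crest.Agent.R275.Core144 Crest.Agent.R273.Defs_333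
open Crest.Agent.R273.Kah_333
open Crest.Agent.R273
open Crest.Agent.R273.Map_835 (HolMap dm Jp mem_dm)
open Crest.Agent.R273.PB_835 (LBih)
open Crest.Agent.R281.SAsm_790 Crest.Agent.R281.Qt_922

noncomputable section

variable {N n : ℕ} {M M' : Type} [TopologicalSpace M] [TopologicalSpace M'] {A : Atl N M}
  {A' : Atl N M'} {p : M' → M} {q : M → M'} {K : Kah A} {K' : Kah A'} {κ R : ℝ}

/-- the law of a pulled back metric -/
def KLaw (A' : Atl N M') (A : Atl N M) (p : M' → M) (K' : Kah A') (K : Kah A) : Prop :=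
  ∀ (l : A'.ι) (i : A.ι) (y : M'), y ∈ (A'.e l).source → p y ∈ (A.e i).source →
    K'.g l y = (Jp A' A p l i y)ᵀ * K.g i (p y) * (Jp A' A p l i y).map conj

theorem qf_pull (hK : KLaw A' A p K' K) {l : A'.ι} {i : A.ι} {y : M'}
    (hy : y ∈ (A'.e l).source) (hi : p y ∈ (A.e i).source) (v : Cn N) :
    qf K' l y v = qf K i (p y) (fderiv ℂ (Map_835.rd A' A p l i) (A'.e l y) v) := by
  have h1 : (fderiv ℂ (Map_835.rd A' A p l i) (A'.e l y) v).ofLp =
      (Jp A' A p l i y) *ᵥ v.ofLp := by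
    funext b
    show (fderiv ℂ (Map_835.rd A' A p l i) (A'.e l y) v) b = _
    rw [Map_835.mt_apply, Map_835.Jp_eq]
    rfl
  unfold qf
  rw [hK l i y hy hi, h1]
  congr 1
  have h2 : ((Jp A' A p l i y)ᵀ * K.g i (p y) * (Jp A' A p l i y).map conj)ᵀ =
      (Jp A' A p l i y)ᴴ * (K.g i (p y))ᵀ * (Jp A' A p l i y) := by
    rw [Matrix.transpose_mul, Matrix.transpose_mul, Matrix.transpose_transpose,
      ← Matrix.mul_assoc]
    rfl
  rw [h2, ← Matrix.mulVec_mulVec, ← Matrix.mulVec_mulVec, Matrix.dotProduct_mulVec _ _ _,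
    Matrix.star_mulVec]

/-- the derivative of a function composed with `p` -/
theorem fderiv_comp_p (hp : LBih A' A p) {U : Set M} (hU : IsOpen U) {f : M → Cn n}
    (hf : ∀ i, DifferentiableOn ℂ (fun z => f ((A.e i).symm z))
      ((A.e i).target ∩ (A.e i).symm ⁻¹' U)) {l : A'.ι} {i : A.ι} {y : M'}
    (hy : y ∈ (A'.e l).source) (hi : p y ∈ (A.e i).source) (hyU : p y ∈ U) :
    HasFDerivAt (fun z => (f ∘ p) ((A'.e l).symm z))
      ((fderiv ℂ (fun z => f ((A.e i).symm z)) (A.e i (p y))).comp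
        (fderiv ℂ (Map_835.rd A' A p l i) (A'.e l y))) (A'.e l y) := by
  have hd : A'.e l y ∈ dm A' A p l i := mem_dm hy hi
  have hval : Map_835.rd A' A p l i (A'.e l y) = A.e i (p y) := by
    simp only [Map_835.rd]
    rw [(A'.e l).left_inv hy]
  have h1 := (hp.toHolMap.diffAt hd).hasFDerivAt
  have ho : IsOpen ((A.e i).target ∩ (A.e i).symm ⁻¹' U) :=
    (A.e i).isOpen_inter_preimage_symm hU
  have hm : A.e i (p y) ∈ (A.e i).target ∩ (A.e i).symm ⁻¹' U :=
    ⟨(A.e i).map_source hi, by rw [mem_preimage, (A.e i).left_inv hi]; exact hyU⟩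
  have h2 : HasFDerivAt (fun z => f ((A.e i).symm z))
      (fderiv ℂ (fun z => f ((A.e i).symm z)) (A.e i (p y)))
      (Map_835.rd A' A p l i (A'.e l y)) := by
    rw [hval]
    exact ((hf i).differentiableAt (ho.mem_nhds hm)).hasFDerivAt
  refine (HasFDerivAt.comp (A'.e l y) (g := fun z => f ((A.e i).symm z))
    (f := Map_835.rd A' A p l i) h2 h1).congr_of_eventuallyEq ?_
  filter_upwards [(hp.toHolMap.isOpen_dm l i).mem_nhds hd] with w hw
  have hw2 : p ((A'.e l).symm w) ∈ (A.e i).source := hw.2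
  show f (p ((A'.e l).symm w)) = f ((A.e i).symm (A.e i (p ((A'.e l).symm w))))
  rw [(A.e i).left_inv hw2]

/-- a disc under the inverse map -/
theorem disc_pb (hp : LBih A' A p) (hq : LBih A A' q) (hpq : ∀ x, p (q x) = x)
    (hK : KLaw A' A p K' K) {T : Set M} {T' : Set M'} (hT : ∀ x ∈ T, q x ∈ T') {g : ℂ → M}
    (hg : Disc A K κ T g) : Disc A' K' κ T' (q ∘ g) := by
  -- the disc in a chart
  have key : ∀ ζ ∈ ball (0 : ℂ) 3, ∀ l, q (g ζ) ∈ (A'.e l).source →
      DifferentiableAt ℂ (fun w => A'.e l (q (g w))) ζ := by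
    intro ζ hζ l hl
    obtain ⟨i, hi⟩ := A.cover (g ζ)
    have h1 := hg.hol ζ hζ i hi
    have hd : A.e i (g ζ) ∈ dm A A' q i l := mem_dm hi hl
    have h2 := hq.toHolMap.diffAt hd
    have hc : ContinuousAt g ζ := hg.cont.continuousAt (isOpen_ball.mem_nhds hζ)
    refine (DifferentiableAt.comp ζ (g := Map_835.rd A A' q i l) (f := fun w => A.e i (g w))
      h2 h1).congr_of_eventuallyEq ?_
    filter_upwards [hc ((A.e i).open_source.mem_nhds hi)] with w hw
    have hw' : g w ∈ (A.e i).source := hw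
    show A'.e l (q (g w)) = A'.e l (q ((A.e i).symm (A.e i (g w))))
    rw [(A.e i).left_inv hw']
  refine ⟨fun ζ hζ => hT _ (hg.mem ζ hζ), hq.cont.comp_continuousOn hg.cont, key,
    fun ζ hζ l hl => ?_⟩
  obtain ⟨i, hi⟩ := A.cover (g ζ)
  have hi' : p (q (g ζ)) ∈ (A.e i).source := by rw [hpq]; exact hi
  have hl' : q (g ζ) ∈ (A'.e l).source := hl
  have h3 := qf_pull hK hl' hi' (deriv (fun w => A'.e l (q (g w))) ζ)
  have hd : A'.e l (q (g ζ)) ∈ dm A' A p l i := mem_dm hl' hi'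
  have h4 : deriv (fun w => A.e i (g w)) ζ =
      fderiv ℂ (Map_835.rd A' A p l i) (A'.e l (q (g ζ)))
        (deriv (fun w => A'.e l (q (g w))) ζ) := by
    have h5 := (hp.toHolMap.diffAt hd).hasFDerivAt
    have h6 := (key ζ hζ l hl').hasDerivAt
    have h7 := HasFDerivAt.comp_hasDerivAt ζ (l := Map_835.rd A' A p l i)
      (f := fun w => A'.e l (q (g w))) h5 h6
    have hc : ContinuousAt (fun w => q (g w)) ζ :=
      hq.cont.continuousAt.comp (hg.cont.continuousAt (isOpen_ball.mem_nhds hζ))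
    refine (h7.congr_of_eventuallyEq ?_).deriv
    filter_upwards [hc ((A'.e l).open_source.mem_nhds hl')] with w hw
    have hw' : q (g w) ∈ (A'.e l).source := hw
    show A.e i (g w) = A.e i (p ((A'.e l).symm (A'.e l (q (g w)))))
    rw [(A'.e l).left_inv hw', hpq]
  rw [← h4, hpq] at h3
  show qf K' l (q (g ζ)) (deriv (fun w => A'.e l (q (g w))) ζ) ≤ κ
  rw [h3]
  exact hg.q ζ hζ i hi

/-- **pull back of a quantified tube** -/
def pbT (hp : LBih A' A p) (hq : LBih A A' q) (hpq : ∀ x, p (q x) = x) (hqp : ∀ y, q (p y) = y)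
    (hK : KLaw A' A p K' K) (T : QTube A K n κ R) : QTube A' K' n κ R where
  U := p ⁻¹' T.U
  f := T.f ∘ p
  op := T.op.preimage hp.cont
  cont := T.cont.comp hp.cont.continuousOn fun _ h => h
  hol l := by
    intro z hz
    have hy : (A'.e l).symm z ∈ (A'.e l).source := (A'.e l).map_target hz.1
    obtain ⟨i, hi⟩ := A.cover (p ((A'.e l).symm z))
    have h1 := fderiv_comp_p hp T.op T.hol hy hi hz.2
    rw [(A'.e l).right_inv hz.1] at h1
    exact h1.differentiableAt.differentiableWithinAt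
  lt x hx := T.lt _ hx
  onto b hb := by
    obtain ⟨x, hx, h1⟩ := T.onto b hb
    exact ⟨q x, by rw [mem_preimage, hpq]; exact hx, by
      show T.f (p (q x)) = b
      rw [hpq]; exact h1⟩
  surj l y hy hyU := by
    obtain ⟨i, hi⟩ := A.cover (p y)
    rw [(fderiv_comp_p hp T.op T.hol hy hi hyU).fderiv]
    have h1 : Function.Surjective (fderiv ℂ (Map_835.rd A' A p l i) (A'.e l y)) :=
      LinearMap.injective_iff_surjective
        (f := (fderiv ℂ (Map_835.rd A' A p l i) (A'.e l y)).toLinearMap).1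
        (hp.inj (mem_dm hy hi))
    exact (T.surj i _ hi hyU).comp h1
  cpt R' hR' := by
    have h1 : {x | x ∈ p ⁻¹' T.U ∧ ‖(T.f ∘ p) x‖ ≤ R'} = q '' {x | x ∈ T.U ∧ ‖T.f x‖ ≤ R'} := by
      ext x
      constructor
      · rintro ⟨h1, h2⟩
        exact ⟨p x, ⟨h1, h2⟩, hqp x⟩
      · rintro ⟨y, ⟨h1, h2⟩, rfl⟩
        refine ⟨?_, ?_⟩
        · rw [mem_preimage, hpq]; exact h1
        · show ‖T.f (p (q y))‖ ≤ R'
          rw [hpq]; exact h2
    rw [h1]
    exact (T.cpt R' hR').image hq.cont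
  q1 l y hy hyU v := by
    obtain ⟨i, hi⟩ := A.cover (p y)
    rw [(fderiv_comp_p hp T.op T.hol hy hi hyU).fderiv, qf_pull hK hy hi v]
    exact T.q1 i _ hi hyU _
  q2 x hx z hz hxz := by
    obtain ⟨g, hg, h0, h1⟩ := T.q2 (p x) hx (p z) hz hxz
    refine ⟨q ∘ g, disc_pb hp hq hpq hK (fun y hy => ?_) hg, ?_, ?_⟩
    · refine ⟨?_, ?_⟩
      · rw [mem_preimage, hpq]; exact hy.1
      · show T.f (p (q y)) = T.f (p x)
        rw [hpq]; exact hy.2
    · show q (g 0) = z
      rw [h0, hqp]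
    · show q (g 1) = x
      rw [h1, hqp]

@[simp] theorem pbT_U (hp : LBih A' A p) (hq : LBih A A' q) (hpq : ∀ x, p (q x) = x)
    (hqp : ∀ y, q (p y) = y) (hK : KLaw A' A p K' K) (T : QTube A K n κ R) :
    (pbT hp hq hpq hqp hK T).U = p ⁻¹' T.U := rfl

@[simp] theorem pbT_f (hp : LBih A' A p) (hq : LBih A A' q) (hpq : ∀ x, p (q x) = x)
    (hqp : ∀ y, q (p y) = y) (hK : KLaw A' A p K' K) (T : QTube A K n κ R) :
    (pbT hp hq hpq hqp hK T).f = T.f ∘ p := rfl

end

end Crest.Agent.R281.Pjx_648
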