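import Crest.Agent.R281.Rk3_599

/-!
# R281 (S0424), S6-RANK part 4 (helper599): rank ⇒ growth

* `eventually_val`  : the ratios at a point of `Rk` take all values near the value at the point
* `poly_zero`       : a polynomial which vanishes on the ratios near a point of `Rk` is zero
* `linInd_mon`      : the monomials of degree `q` in `s_0, .., s_r` are linearly independent
* `growth_of_rank`  : `(q + r).choose r ≤ h⁰(L ^ (k q))`
* `rank_of_choose`  : `(q + n).choose n ≤ h⁰(L ^ (k q))` for all `q` ⇒ sections of some `L ^ k'` with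
                      `n` independent ratios
-/

set_option autoImplicit false
set_option linter.unusedSectionVars false

open Set Filter Topology Complex Metric Asymptotics
open scoped NNReal ENNReal

namespace Crest.Agent.R281.Rk_599

open Crest.Agent.R275.Geo Crest.Agent.R275.Core144 Crest.Agent.R273.Sg1_101
open Crest.Agent.R273.Sg2_101

noncomputable section

variable {n : ℕ} {M : Type} [TopologicalSpace M] {A : Atl n M}

/-- near a point of `Rk` the ratios take all values near the value at the point -/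
theorem eventually_val {L : LB A} {r : ℕ} {s : Fin (r + 1) → A.ι → M → ℂ}
    (hs : ∀ a, IsHS L univ (s a)) {i : A.ι} {z : Cn n} (hz : z ∈ (A.e i).target)
    (h : Rk A s i ((A.e i).symm z)) {Q : Cn r → Prop}
    (hQ : ∀ᶠ w in 𝓝 z, Q (yv A s i w)) : ∀ᶠ p in 𝓝 (yv A s i z), Q p := by
  have h0 := h.2.1
  have hl := h.2.2
  rw [(A.e i).right_inv hz] at hl
  obtain ⟨v, hv⟩ := exists_dual hl
  have hc := contDiffAt_yv hs hz h0
  have hst := hc.hasStrictFDerivAt one_ne_zero
  have hR : ∀ t, fderiv ℂ (yv A s i) z (rinv v t) = t := by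
    intro t
    ext a
    rw [fderiv_yv hs hz h0, rinv_apply, map_sum]
    simp only [map_smul, hv, smul_eq_mul, mul_ite, mul_one, mul_zero]
    rw [Finset.sum_ite_eq Finset.univ a, if_pos (Finset.mem_univ a)]
  have hsurj : (fderiv ℂ (yv A s i) z).range = ⊤ :=
    LinearMap.range_eq_top.2 fun t => ⟨rinv v t, hR t⟩
  have hmap := hst.map_nhds_eq_of_surj hsurj
  rw [← hmap]
  exact hQ

/-- a polynomial which vanishes on the ratios near a point of `Rk` is zero -/
theorem poly_zero {L : LB A} {r : ℕ} {s : Fin (r + 1) → A.ι → M → ℂ}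
    (hs : ∀ a, IsHS L univ (s a)) {i : A.ι} {z : Cn n} (hz : z ∈ (A.e i).target)
    (h : Rk A s i ((A.e i).symm z)) {P : MvPolynomial (Fin r) ℂ}
    (hP : ∀ᶠ w in 𝓝 z, MvPolynomial.eval (fun a => rat A s i a w) P = 0) : P = 0 := by
  have h1 := eventually_val (Q := fun p : Cn r => MvPolynomial.eval (fun a => p a) P = 0) hs hz h hP
  -- a product of discs
  have h2 : Tendsto (fun u : Fin r → ℂ => (WithLp.toLp 2 u : Cn r)) (𝓝 fun a => yv A s i z a)
      (𝓝 (yv A s i z)) := by
    have h3 : Continuous (fun u : Fin r → ℂ => (WithLp.toLp 2 u : Cn r)) := by fun_prop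
    exact h3.tendsto' _ _ (by ext a; rfl)
  have h4 := h2.eventually h1
  obtain ⟨ε, hε, hball⟩ := Metric.eventually_nhds_iff_ball.1 h4
  have h5 : ∀ a, (ball (yv A s i z a) ε).Infinite := fun a =>
    infinite_of_mem_nhds (yv A s i z a) (ball_mem_nhds _ hε)
  refine MvPolynomial.funext_set (fun a => ball (yv A s i z a) ε) h5 fun x hx => ?_
  have h6 := hball x (by
    rw [mem_ball, dist_pi_lt_iff hε]
    intro a
    exact hx a (mem_univ a))
  rw [map_zero]
  exact h6

/-- the monomials, as sections -/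
def mono (A : Atl n M) {r : ℕ} (s : Fin (r + 1) → A.ι → M → ℂ) (α : Fin (r + 1) →₀ ℕ) :
    A.ι → M → ℂ := oneS A * ∏ a, s a ^ α a

theorem isHS_mono {L : LB A} {r : ℕ} {s : Fin (r + 1) → A.ι → M → ℂ}
    (hs : ∀ a, IsHS L univ (s a)) (α : Fin (r + 1) →₀ ℕ) :
    IsHS (L ^ (∑ a, α a)) univ (mono A s α) := by
  classical
  have h1 : ∀ S : Finset (Fin (r + 1)),
      IsHS (1 * L ^ (∑ a ∈ S, α a)) univ (oneS A * ∏ a ∈ S, s a ^ α a) := by
    intro S
    induction S using Finset.induction_on with
    | empty => simpa using isHS_oneS (A := A) univ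
    | insert a S ha ih =>
      rw [Finset.sum_insert ha, Finset.prod_insert ha]
      have h2 := isHS_mul_pow ih (hs a) (α a)
      have e1 : (1 : LB A) * L ^ (∑ a ∈ S, α a) * L ^ α a = 1 * L ^ (α a + ∑ a ∈ S, α a) := by
        rw [mul_assoc, ← pow_add, add_comm]
      have e2 : (oneS A * ∏ a ∈ S, s a ^ α a) * s a ^ α a =
          oneS A * (s a ^ α a * ∏ a ∈ S, s a ^ α a) := by ring
      rw [e1, e2] at h2
      exact h2
  have h2 := h1 Finset.univ
  rw [one_mul] at h2
  exact h2

/-- the monomials of degree `q` are linearly independent -/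
theorem linInd_mono {L : LB A} {r : ℕ} {s : Fin (r + 1) → A.ι → M → ℂ}
    (hs : ∀ a, IsHS L univ (s a)) {i : A.ι} {x : M} (h : Rk A s i x) (q : ℕ) :
    LinearIndependent ℂ (fun α : ((Finset.univ : Finset (Fin (r + 1))).finsuppAntidiag q) =>
      mono A s α.1) := by
  classical
  rw [Fintype.linearIndependent_iff]
  intro c hc
  set z := A.e i x with hz
  have hzt : z ∈ (A.e i).target := (A.e i).map_source h.1
  have hzx : (A.e i).symm z = x := (A.e i).left_inv h.1
  have h' : Rk A s i ((A.e i).symm z) := by rwa [hzx]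
  have h0 : rd A i (s 0) z ≠ 0 := h'.2.1
  have hne : ∀ᶠ w in 𝓝 z, rd A i (s 0) w ≠ 0 :=
    (analyticOnNhd_rd (hs 0) i z hzt).continuousAt.eventually_ne h0
  -- the dehomogenised exponents
  set β : ((Finset.univ : Finset (Fin (r + 1))).finsuppAntidiag q) → (Fin r →₀ ℕ) := fun α =>
    Finsupp.equivFunOnFinite.symm fun a => α.1 a.succ with hβ
  have hβa : ∀ α a, β α a = α.1 a.succ := fun α a => rfl
  have hsum : ∀ α : ((Finset.univ : Finset (Fin (r + 1))).finsuppAntidiag q),
      α.1 0 + ∑ a : Fin r, α.1 a.succ = q := by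
    intro α
    have h1 : ∑ a, α.1 a = q := (Finset.mem_finsuppAntidiag.1 α.2).1
    rw [Fin.sum_univ_succ] at h1
    exact h1
  have hinj : Function.Injective β := by
    intro α α' hαα'
    refine Subtype.ext (Finsupp.ext fun a => ?_)
    have h1 : ∀ b : Fin r, α.1 b.succ = α'.1 b.succ := fun b => by
      rw [← hβa, ← hβa, hαα']
    refine Fin.cases ?_ h1 a
    have h2 := hsum α
    have h3 := hsum α'
    rw [Finset.sum_congr rfl fun b _ => h1 b] at h2
    omega
  set P : MvPolynomial (Fin r) ℂ := ∑ α, MvPolynomial.monomial (β α) (c α) with hP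
  have hP0 : P = 0 := by
    refine poly_zero hs hzt h' ?_
    filter_upwards [hne, (A.e i).open_target.mem_nhds hzt] with w hw hwt
    have hws := (A.e i).map_target hwt
    have h1 := congrFun (congrFun hc i) ((A.e i).symm w)
    simp only [Finset.sum_apply, Pi.smul_apply, smul_eq_mul, Pi.zero_apply] at h1
    have hw' : s 0 i ((A.e i).symm w) ≠ 0 := hw
    have h2 : ∀ α : ((Finset.univ : Finset (Fin (r + 1))).finsuppAntidiag q),
        mono A s α.1 i ((A.e i).symm w) =
          s 0 i ((A.e i).symm w) ^ q * ∏ a, rat A s i a w ^ β α a := by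
      intro α
      have h3 : oneS A i ((A.e i).symm w) = 1 := by simp [oneS, hws]
      simp only [mono, Pi.mul_apply, Finset.prod_apply, Pi.pow_apply, h3, one_mul]
      rw [Fin.prod_univ_succ]
      have h4 : ∀ a : Fin r, s a.succ i ((A.e i).symm w) ^ α.1 a.succ =
          s 0 i ((A.e i).symm w) ^ α.1 a.succ * rat A s i a w ^ β α a := by
        intro a
        rw [hβa, ← mul_pow]
        congr 1
        unfold rat
        field_simp
      rw [Finset.prod_congr rfl fun a _ => h4 a, Finset.prod_mul_distrib, ← mul_assoc,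
        Finset.prod_pow_eq_pow_sum, ← pow_add, hsum α]
    simp only [h2] at h1
    have h5 : s 0 i ((A.e i).symm w) ^ q *
        MvPolynomial.eval (fun a => rat A s i a w) P = 0 := by
      rw [← h1, hP, map_sum, Finset.mul_sum]
      refine Finset.sum_congr rfl fun α _ => ?_
      rw [MvPolynomial.eval_monomial, Finsupp.prod_fintype _ _ (fun a => by simp)]
      ring
    exact (mul_eq_zero.1 h5).resolve_left (pow_ne_zero _ hw')
  intro α
  have h1 : MvPolynomial.coeff (β α) P = c α := by
    rw [hP, MvPolynomial.coeff_sum, Finset.sum_eq_single α]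
    · rw [MvPolynomial.coeff_monomial, if_pos rfl]
    · intro α' _ hne'
      rw [MvPolynomial.coeff_monomial, if_neg fun h => hne' (hinj h)]
    · intro h
      exact absurd (Finset.mem_univ α) h
  rw [← h1, hP0, MvPolynomial.coeff_zero]

/-- **rank ⇒ growth** -/
theorem growth_of_rank [CompactSpace M] [T2Space M] {L : LB A} {k r : ℕ}
    {s : Fin (r + 1) → A.ι → M → ℂ} (hs : ∀ a, IsHS (L ^ k) univ (s a)) {i : A.ι} {x : M}
    (h : Rk A s i x) (q : ℕ) : (q + r).choose r ≤ Module.finrank ℂ (HS (L ^ (k * q)) univ) := by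
  classical
  obtain ⟨T⟩ := exists_net A
  obtain ⟨c, hc⟩ := exists_Bd T (L ^ (k * q))
  have hfin : Module.Finite ℂ (HS (L ^ (k * q)) univ) := fin_HS hc
  have hmem : ∀ α : ((Finset.univ : Finset (Fin (r + 1))).finsuppAntidiag q),
      mono A s α.1 ∈ HS (L ^ (k * q)) univ := by
    intro α
    have h1 := isHS_mono hs α.1
    have h2 : ∑ a, α.1 a = q := (Finset.mem_finsuppAntidiag.1 α.2).1
    rw [h2, ← pow_mul] at h1
    exact h1
  have hli : LinearIndependent ℂ (fun α : ((Finset.univ : Finset (Fin (r + 1))).finsuppAntidiag q) =>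
      (⟨mono A s α.1, hmem α⟩ : HS (L ^ (k * q)) univ)) := by
    refine LinearIndependent.of_comp (HS (L ^ (k * q)) univ).subtype ?_
    exact linInd_mono hs h q
  have h1 := hli.fintype_card_le_finrank
  rw [Fintype.card_coe, Finset.card_finsuppAntidiag_nat_eq_choose, Finset.card_univ,
    Fintype.card_fin] at h1
  have h2 : (r + 1 + q - 1).choose q = (q + r).choose r := by
    have h3 : r + 1 + q - 1 = q + r := by omega
    rw [h3, Nat.choose_symm_add]
  rwa [h2] at h1

/-- growth along a subsequence ⇒ `n` independent ratios -/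
theorem rank_of_choose [CompactSpace M] [T2Space M] [PreconnectedSpace M] {L : LB A} {k d : ℕ}
    (hk : 0 < k)
    (h : ∀ q, (q + (d + 1)).choose (d + 1) ≤ Module.finrank ℂ (HS (L ^ (k * q)) univ)) :
    ∃ k', 0 < k' ∧ ∃ s : Fin (d + 1 + 1) → A.ι → M → ℂ, (∀ a, IsHS (L ^ k') univ (s a)) ∧
      ∃ i x, Rk A s i x := by
  refine rank_of_growth d fun C => ?_
  set q := C * k ^ d * (d + 1).factorial + 1 with hq
  refine ⟨k * q, lt_of_lt_of_le ?_ (h q)⟩
  -- `(q + 1) ^ (d + 1) ≤ (d + 1)! (q + d + 1).choose (d + 1)`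
  have h1 : (q + 1) ^ (d + 1) ≤ (d + 1).factorial * (q + (d + 1)).choose (d + 1) := by
    have h2 := Nat.pow_succ_le_ascFactorial (q + 1) (d + 1)
    rw [Nat.ascFactorial_eq_factorial_mul_choose] at h2
    exact h2
  have h3 : C * (k * q + 1) ^ d * (d + 1).factorial < (q + 1) ^ (d + 1) := by
    have h4 : k * q + 1 ≤ k * (q + 1) := by nlinarith
    calc C * (k * q + 1) ^ d * (d + 1).factorial ≤ C * (k * (q + 1)) ^ d * (d + 1).factorial := by
          gcongr
      _ = (C * k ^ d * (d + 1).factorial) * (q + 1) ^ d := by rw [mul_pow]; ring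
      _ < (q + 1) * (q + 1) ^ d := by
          have h5 : 0 < (q + 1) ^ d := by positivity
          refine Nat.mul_lt_mul_of_pos_right ?_ h5
          omega
      _ = (q + 1) ^ (d + 1) := by ring
  have h6 : C * (k * q + 1) ^ d * (d + 1).factorial <
      (q + (d + 1)).choose (d + 1) * (d + 1).factorial := by
    rw [mul_comm ((q + (d + 1)).choose (d + 1))]
    exact h3.trans_le h1
  exact lt_of_mul_lt_mul_right h6 (Nat.zero_le _)

end

end Crest.Agent.R281.Rk_599
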