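import Crest.Agent.R281.RkD_902
import Crest.Agent.R281.Cl1_548
import Crest.Agent.R281.Rk4_599

/-!
# R281 (S0424), RANK281 (helper902): the composition of the nodes of `RkD_902`

`rank281_of` : all nodes (T0)-(T9) and `END6` imply `Sk_474.RANK281`.
-/

set_option autoImplicit false
set_option linter.unusedSectionVars false
set_option maxSynthPendingDepth 3

open Set Filter Topology
open scoped ContDiff

namespace Crest.Agent.R281.Rank281_902

open Crest.Agent.R275.Geo Crest.Agent.R275.Core144 Crest.Agent.R275.GC293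
open Crest.Agent.R273.Defs_333 Crest.Agent.R273.Kah_333
open Crest.Agent.R260.ACM_580 Crest.Agent.R260.NNB_580
open Crest.Agent.R281.Defs_273 Crest.Agent.R281.Rk_599
open Crest.Agent.R281.HkR_835 Crest.Agent.R281.Ti_846 Crest.Agent.R281.Cdr_234
open Crest.Agent.R281.Dif_268 Crest.Agent.R281.PL_713
open Crest.Agent.R281.NefO_476 Crest.Agent.R281.Nef_252
open Crest.Agent.R281.Alg_998 Crest.Agent.R281.RkD_902

noncomputable section

section lemmas

variable {V X : Type} [NormedAddCommGroup V] [NormedSpace ℝ V] [TopologicalSpace X]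
  {C : RCh V X}

/-! ### small lemmas -/

theorem hN_mono {L : PL C} {J : AJ C} {N N' : ℕ} (h : N' ≤ N) (hN' : hN L J N) : hN L J N' := by
  obtain ⟨a, ha, v, hv, hv'⟩ := hN'
  exact ⟨a, ha, v ∘ Fin.castLE h, hv.comp _ (Fin.castLE_injective h), fun k => hv' _⟩

theorem hN_congr {L : PL C} {J J' : AJ C} {N : ℕ}
    (h : ∀ i, ∀ z ∈ (C.e i).target, J.J i z = J'.J i z) (hJ : hN L J N) : hN L J' N := by
  obtain ⟨a, ha, v, hv, hv'⟩ := hJ
  refine ⟨a, fun i z hz u v => ?_, v, hv, fun k i z hz w => ?_⟩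
  · rw [← h i z hz]
    exact ha i z hz u v
  · have := hv' k i z hz w
    unfold Sec.db at this ⊢
    rw [← h i z hz]
    exact this

end lemmas

section ctx

variable {n : ℕ} {X : Type} [TopologicalSpace X] [CompactSpace X] {C : RCh (Cn (2 * n)) X}
  {Q : F2 C →ₗ[ℝ] F2 C →ₗ[ℝ] ℝ}

theorem cl_left (hc : Ctx n C Q) {x x' y : F2 C} (h : Cl x x') : Q x y = Q x' y := by
  have := hc.ex _ y h
  rw [map_sub, LinearMap.sub_apply] at this
  linarith

theorem cl_right (hc : Ctx n C Q) {x x' y : F2 C} (h : Cl x x') : Q y x = Q y x' := by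
  rw [hc.symm, hc.symm y]
  exact cl_left hc h

theorem q_lc (hc : Ctx n C Q) {H0 : HkT C} {e : F2 C} (B : Box Q H0 e)
    (b : Fin B.m → ℝ) : Q e (lco B.bas b) = 0 := by
  unfold lco
  rw [map_sum]
  refine Finset.sum_eq_zero fun j _ => ?_
  rw [map_smul, hc.symm, B.orth j, smul_zero]

/-- `e` at the members of the box -/
theorem given_box (hc : Ctx n C Q) {H0 : HkT C} {L0 : PL C} {e : F2 C}
    (h : Given Q H0 L0 e) (B : Box Q H0 e) {b c : Fin B.m → ℝ} (hb : b ∈ B.B) (hd : c ∈ B.D) :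
    Given Q (B.H b c) L0 e := by
  refine ⟨B.pos2 b hb c hd, h.int, h.lnk, h.ee, ?_, ?_, B.pos b hb c hd⟩
  · obtain ⟨s, -, h1⟩ := B.cl1 b hb c hd
    rw [cl_right hc h1, map_smul, q_lc hc B, smul_zero]
  · obtain ⟨s, t, -, h1⟩ := B.cl2 b hb c hd
    rw [cl_right hc h1, map_add, map_smul, map_smul, q_lc hc B, q_lc hc B, smul_zero, smul_zero,
      add_zero]

end ctx

section lemmas2

variable {X : Type} [TopologicalSpace X]

theorem continuous_seg {m : ℕ} (b b' : Fin m → ℝ) : Continuous (seg b b') := by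
  unfold seg
  fun_prop

@[simp] theorem seg_zero {m : ℕ} (b b' : Fin m → ℝ) : seg b b' 0 = b := by simp [seg]
@[simp] theorem seg_one {m : ℕ} (b b' : Fin m → ℝ) : seg b b' 1 = b' := by simp [seg]

theorem seg_mem {m : ℕ} {S : Set (Fin m → ℝ)} (hS : Convex ℝ S) {b b' : Fin m → ℝ} (hb : b ∈ S)
    (hb' : b' ∈ S) {s : ℝ} (hs : s ∈ Icc (0 : ℝ) 1) : seg b b' s ∈ S :=
  hS hb hb' (by linarith [hs.2]) hs.1 (by ring)

/-- global generation of powers -/
theorem gg_pow {N : ℕ} {A : Atl N X} {L : LB A} (h : GG L) {m : ℕ} (hm : 0 < m) : GG (L ^ m) := by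
  intro x
  obtain ⟨s, hs, i, hi, hx⟩ := h x
  exact ⟨_, isHS_pow hs m hm, i, hi, pow_ne_zero m hx⟩

/-- the ratios of the sections `s_a s_0^(j-1)` of `L^(k j)` are those of the `s_a` -/
theorem rk_pow {N : ℕ} {A : Atl N X} {L : LB A} {k r : ℕ} {s : Fin (r + 1) → A.ι → X → ℂ}
    (hs : ∀ a, IsHS (L ^ k) univ (s a)) {i : A.ι} {x : X} (h : Rk A s i x) {j : ℕ} (hj : 0 < j) :
    ∃ t : Fin (r + 1) → A.ι → X → ℂ, (∀ a, IsHS (L ^ (k * j)) univ (t a)) ∧
      ∃ i x, Rk A t i x := by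
  obtain ⟨j, rfl⟩ : ∃ l, j = l + 1 := ⟨j - 1, by omega⟩
  refine ⟨fun a => s a * s 0 ^ j, fun a => ?_, i, x, h.1, ?_, ?_⟩
  · rcases Nat.eq_zero_or_pos j with h0 | h0
    · subst h0
      simpa using hs a
    · have h1 := (hs a).mul (isHS_pow (hs 0) j h0)
      rwa [← pow_mul, ← pow_add, show k + k * j = k * (j + 1) by ring] at h1
  · exact mul_ne_zero h.2.1 (pow_ne_zero j h.2.1)
  · have h1 : ∀ a, rat A (fun a => s a * s 0 ^ j) i a = rat A s i a := by
      intro a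
      funext z
      show s a.succ i ((A.e i).symm z) * s 0 i ((A.e i).symm z) ^ j /
        (s 0 i ((A.e i).symm z) * s 0 i ((A.e i).symm z) ^ j) = _
      by_cases h0 : s 0 i ((A.e i).symm z) = 0
      · unfold rat
        rw [h0, zero_mul, div_zero, div_zero]
      · exact mul_div_mul_right _ _ (pow_ne_zero j h0)
    simp only [h1]
    exact h.2.2

end lemmas2

/-! ### the transport along the two moves -/

/-- (T7) + (T8): a bound at the box member `(a, c)` holds at `(b₀, c₀)` -/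
theorem transport {Tub : TubTT} (h9 : OpenP Tub) (h10 : SemiP) {n : ℕ} {X : Type}
    [TopologicalSpace X] [CompactSpace X] [T2Space X] [SimplyConnectedSpace X]
    {C : RCh (Cn (2 * n)) X}
    {Q : F2 C →ₗ[ℝ] F2 C →ₗ[ℝ] ℝ} (hc : Ctx n C Q) {H0 : HkT C} {L0 : PL C} {e : F2 C}
    (hg : Given Q H0 L0 e) (B : Box Q H0 e) {a c : Fin B.m → ℝ} (ha : a ∈ B.B) (hd : c ∈ B.D)
    (ht : Tub n X C Q e (B.H a c)) (p : Pres n (B.H a c) L0) {m : ℕ} (hm : 0 < m)
    (hgg : GG (p.L ^ m))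
    (hrk : ∃ t : Fin (n + 1) → p.A.ι → X → ℂ, (∀ a, IsHS (p.L ^ m) univ (t a)) ∧
      ∃ i x, Rk p.A t i x) {N : ℕ} (hN1 : hN (L0.pow m) (ofHk (B.H a c) 0) N) :
    hN (L0.pow m) (ofHk H0 0) N := by
  have ho := h9 n X C Q hc H0 L0 e hg B a c ha hd ht p m hm hgg hrk N hN1
  rw [nhds_prod_eq] at ho
  obtain ⟨P1, hP1, P2, hP2, hP⟩ := Filter.eventually_prod_iff.1 ho
  -- first: `c` moves to `c₀`
  have key : ∀ b ∈ B.B, P1 b → hN (L0.pow m) (ofHk (B.H b B.c0) 0) N := by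
    intro b hb hb1
    obtain ⟨G, hG, hs⟩ := B.mv2 b hb B.c0 B.c0D c hd
    have h1 := h10 n X C Q hc L0 e G (fun s => B.H b (seg B.c0 c s)) hG hs
      (fun s hs => given_box hc hg B hb (seg_mem B.cD B.c0D hd hs)) m N ?_
    · simpa only [seg_zero] using h1
    · have h2 : Tendsto (seg B.c0 c) (𝓝[≤] (1 : ℝ)) (𝓝 c) := by
        have := (continuous_seg B.c0 c).tendsto 1
        rw [seg_one] at this
        exact this.mono_left nhdsWithin_le_nhds
      filter_upwards [h2.eventually hP2] with s hs2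
      exact hP hb1 hs2
  -- then: `b` moves to `b₀`
  obtain ⟨G, hG, hs⟩ := B.mv1 B.b0 B.b0B a ha
  have h1 := h10 n X C Q hc L0 e G (fun s => B.H (seg B.b0 a s) B.c0) hG hs
    (fun s hs => given_box hc hg B (seg_mem B.cB B.b0B ha hs) B.c0D) m N ?_
  · have h3 : hN (L0.pow m) (ofHk (B.H B.b0 B.c0) 0) N := by simpa only [seg_zero] using h1
    exact hN_congr (fun i z hz => B.J0 i z hz) h3
  · have h2 : Tendsto (seg B.b0 a) (𝓝[≤] (1 : ℝ)) (𝓝 a) := by
      have := (continuous_seg B.b0 a).tendsto 1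
      rw [seg_one] at this
      exact this.mono_left nhdsWithin_le_nhds
    filter_upwards [h2.eventually hP1, h2.eventually (B.oB.mem_nhds ha)] with s h4 h5
    exact key _ h5 h4

/-! ### the growth at the given structure -/

/-- the growth of `h⁰(L0^(m q))` at the given structure -/
theorem growth {Alg : AlgTT} {Tub : TubTT} (h1 : BoxP) (h2 : RoadP Alg) (h3 : ChartEndP Alg)
    (h4 : NefRayP Alg) (h5 : ToriP Alg Tub) (h6 : PresP) (h7 : MemHypP) (h8 : KappaP Alg Tub)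
    (hE : Sk_474.END6) (h9 : OpenP Tub) (h10 : SemiP) {n : ℕ} {X : Type}
    [TopologicalSpace X] [CompactSpace X] [T2Space X] [SimplyConnectedSpace X]
    {C : RCh (Cn (2 * n)) X}
    {Q : F2 C →ₗ[ℝ] F2 C →ₗ[ℝ] ℝ} (hc : Ctx n C Q) {H0 : HkT C} {L0 : PL C} {e : F2 C}
    (hg : Given Q H0 L0 e) :
    ∃ m : ℕ, 0 < m ∧ ∀ q : ℕ, 0 < q → hN (L0.pow (m * q)) (ofHk H0 0) ((q + n).choose n) := by
  obtain ⟨B⟩ := h1 n X C Q hc H0 L0 e hg
  obtain ⟨R⟩ := h2 n X C Q hc H0 L0 e hg B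
  obtain ⟨δ, hδ, hiso⟩ := h3 n X C Q hc H0 L0 e hg B R
  -- a rational `x` near `x₁`
  have hD : ∀ᶠ x in 𝓝 R.x1, R.c x ∈ B.D :=
    R.c_cont.continuousAt.eventually (B.oD.mem_nhds R.cD)
  have hd : ∀ᶠ x in 𝓝 R.x1, |x - R.x1| < δ := by
    have := Metric.ball_mem_nhds R.x1 hδ
    filter_upwards [this] with x hx
    rwa [Metric.mem_ball, Real.dist_eq] at hx
  obtain ⟨x, hx⟩ := (Rat.denseRange_cast (𝕜 := ℝ)).exists_mem_open isOpen_interior
    (nonempty_of_mem (mem_interior_iff_mem_nhds.2 (hD.and hd)))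
  obtain ⟨hxD, hxδ⟩ := interior_subset hx
  set H1 := B.H R.a (R.c x) with hH1
  have hE1 : EndIso R x := hiso x hxδ
  have hg1 : Given Q H1 L0 e := given_box hc hg B R.aB hxD
  have hnef := h4 n X C Q hc H0 L0 e hg B R x hxD hE1
  have htub := h5 n X C Q hc H0 L0 e hg B R x hxD hE1
  obtain ⟨p⟩ := h6 n X C Q hc H1 L0 e hg1
  obtain ⟨k, hk, s, hs, i, y, hrk⟩ := h8 n X C Q hc H0 L0 e hg B R x hxD hE1 hnef htub p
  obtain ⟨K, σ, hu, hn, hf, hi⟩ := h7 n X C Q hc H1 L0 e hg1 hnef p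
  have := p.fin
  obtain ⟨m0, hm0, hgg⟩ := hE n X p.A hc.n1 p.good p.P K σ hu p.L hn hf hi
    ⟨k, hk, s, hs, i, y, hrk⟩
  refine ⟨k * m0, Nat.mul_pos hk hm0, fun q hq => ?_⟩
  have hm : 0 < k * m0 * q := Nat.mul_pos (Nat.mul_pos hk hm0) hq
  have hg2 : GG (p.L ^ (k * m0 * q)) := by
    have h : GG ((p.L ^ m0) ^ (k * q)) := gg_pow hgg (Nat.mul_pos hk hq)
    rwa [← pow_mul, show m0 * (k * q) = k * m0 * q by ring] at h
  have hgr := growth_of_rank hs hrk (m0 * q)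
  have hle : (q + n).choose n ≤ (m0 * q + n).choose n :=
    Nat.choose_le_choose n (by nlinarith)
  have hN1 : hN (L0.pow (k * m0 * q)) (ofHk H1 0) ((q + n).choose n) := by
    refine p.sec _ _ ?_
    rw [mul_assoc]
    exact hle.trans hgr
  refine transport h9 h10 hc hg B R.aB hxD htub p hm hg2 ?_ hN1
  have h := rk_pow hs hrk (Nat.mul_pos hm0 hq)
  rwa [← mul_assoc] at h

/-- **RANK281** from the nodes -/
theorem rank281_of {Alg : AlgTT} {Tub : TubTT} (h0 : SetupP) (h1 : BoxP) (h2 : RoadP Alg)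
    (h3 : ChartEndP Alg) (h4 : NefRayP Alg) (h5 : ToriP Alg Tub) (h6 : PresP) (h7 : MemHypP)
    (h8 : KappaP Alg Tub) (hE : Sk_474.END6) (h9 : OpenP Tub) (h10 : SemiP) :
    Sk_474.RANK281 := by
  intro n M _ _ _ _ A _ hn hA P K σ hσ L hnef hnf hiso
  obtain ⟨Q, H0, L0, e, hc, hg, hfin⟩ := h0 n M A hn hA P K σ hσ L hnef hnf hiso
  obtain ⟨m, hm, hq⟩ := growth h1 h2 h3 h4 h5 h6 h7 h8 hE h9 h10 hc hg
  obtain ⟨d, rfl⟩ : ∃ d, n = d + 1 := ⟨n - 1, by omega⟩
  refine rank_of_growth d fun c => ?_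
  set q := c * m ^ d * (d + 1).factorial + 1 with hqd
  refine ⟨m * q, lt_of_lt_of_le ?_ (hfin _ _ (hq q (by omega)))⟩
  have h1 : (q + 1) ^ (d + 1) ≤ (d + 1).factorial * (q + (d + 1)).choose (d + 1) := by
    have h2 := Nat.pow_succ_le_ascFactorial (q + 1) (d + 1)
    rw [Nat.ascFactorial_eq_factorial_mul_choose] at h2
    exact h2
  have h3 : c * (m * q + 1) ^ d * (d + 1).factorial < (q + 1) ^ (d + 1) := by
    have h4 : m * q + 1 ≤ m * (q + 1) := by nlinarith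
    calc c * (m * q + 1) ^ d * (d + 1).factorial ≤ c * (m * (q + 1)) ^ d * (d + 1).factorial := by
          gcongr
      _ = (c * m ^ d * (d + 1).factorial) * (q + 1) ^ d := by rw [mul_pow]; ring
      _ < (q + 1) * (q + 1) ^ d := by
          have h5 : 0 < (q + 1) ^ d := by positivity
          refine Nat.mul_lt_mul_of_pos_right ?_ h5
          omega
      _ = (q + 1) ^ (d + 1) := by ring
  have h6 : c * (m * q + 1) ^ d * (d + 1).factorial <
      (q + (d + 1)).choose (d + 1) * (d + 1).factorial := by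
    rw [mul_comm ((q + (d + 1)).choose (d + 1))]
    exact h3.trans_le h1
  exact lt_of_mul_lt_mul_right h6 (Nat.zero_le _)

end

end Crest.Agent.R281.Rank281_902
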