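import Crest.Agent.R281.Tub2_836
import Crest.Agent.R281.TubT_831

/-!
# R281 (S0424), node ToriP, END 1 (helper836), file 1: transfer of the tubes of `TubT_831`

* `HolTube.map`, `HolTube.scale`, `PVT.map`, `PVT.scale`
* `tub_of_iso` : tube at `(J', w + i w')`, `(X, J 0) ≅ (X, J')` identity on classes ⟹ `Tub n C Q e H`
-/

set_option autoImplicit false
set_option linter.unusedSectionVars false
set_option maxSynthPendingDepth 3

open Set Filter Topology
open scoped ContDiff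

namespace Crest.Agent.R281.Tp_836

open Crest.Agent.R275.Geo (Cn)
open Crest.Agent.R281.HkR_835 Crest.Agent.R281.Per_368 Crest.Agent.R281.NefO_476
open Crest.Agent.R281.Dif_268 Crest.Agent.R281.Ti_846 Crest.Agent.R281.Nef_252
open Crest.Agent.R281.Tub_831 Crest.Agent.R281.Tub_836

noncomputable section

variable {V V' X X' : Type} [NormedAddCommGroup V] [NormedSpace ℝ V] [TopologicalSpace X]
  [NormedAddCommGroup V'] [NormedSpace ℝ V'] [TopologicalSpace X']
  {C : RCh V X} {C' : RCh V' X'}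

theorem mem_univ' {n : ℕ} {D : Set (Cn n)} {p : Cn n × Cn n} (hp : p.1 ∈ D) :
    p ∈ D ×ˢ (univ : Set (Cn n)) := ⟨hp, mem_univ _⟩

section tub

variable {n : ℕ} {D : Set (Cn n)} {Φ : Cn n × Cn n → X} {l : Fin (2 * n) → Cn n → Cn n}
  {τ : Cn n → Cn n → Cn n → ℂ} {w w' : F2 C}

/-- transfer along an isomorphism -/
theorem _root_.Crest.Agent.R281.Tub_831.HolTube.map {J : AJ C} {J' : AJ C'}
    (t : HolTube C J.J w w' n D Φ l τ) {g : SMap C' C} {k : SMap C C'} (hb : Bi g k)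
    (hg : HolM g J' J) : HolTube C' J'.J (g.pull w) (g.pull w') n D (k.f ∘ Φ) l τ where
  op := t.op
  cv := t.cv
  ne := t.ne
  sm := smI_map t.sm k
  hol p hp j hj u := by
    obtain ⟨i, hi⟩ := C.cover (Φ p)
    have hk : HolM k J J' := hb.holM hg
    have hj' : k.f (Φ p) ∈ (C'.e j).source := hj
    change fderiv ℝ (fun q => C'.e j (k.f (Φ q))) p _ = J'.J j (C'.e j (k.f (Φ p)))
      (fderiv ℝ (fun q => C'.e j (k.f (Φ q))) p u)
    rw [fderiv_map t.sm k (mem_univ' hp) hi hj', fderiv_map t.sm k (mem_univ' hp) hi hj',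
      t.hol p hp i hi, hk.h j i _ (map_dom k hi hj')]
    have e1 : loc C' C k.f j i (C.e i (Φ p)) = C'.e j (k.f (Φ p)) := by
      show C'.e j (k.f ((C.e i).symm (C.e i (Φ p)))) = _
      rw [(C.e i).left_inv hi]
    rw [e1]
  inj p hp j hj u v huv := by
    obtain ⟨i, hi⟩ := C.cover (Φ p)
    have hj' : k.f (Φ p) ∈ (C'.e j).source := hj
    change fderiv ℝ (fun q => C'.e j (k.f (Φ q))) p u =
      fderiv ℝ (fun q => C'.e j (k.f (Φ q))) p v at huv
    rw [fderiv_map t.sm k (mem_univ' hp) hi hj', fderiv_map t.sm k (mem_univ' hp) hi hj'] at huv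
    apply t.inj p hp i hi
    rw [← sub_eq_zero]
    exact hb.symm.imm j i _ (map_dom k hi hj') _ (by rw [map_sub, huv, sub_self])
  lhol := t.lhol
  lli := t.lli
  eq_iff y hy y' hy' x x' := by
    rw [← t.eq_iff y hy y' hy' x x']
    constructor
    · intro h
      have h2 := congrArg g.f h
      simp only [Function.comp_apply, hb.gk] at h2
      exact h2
    · intro h
      simp only [Function.comp_apply, h]
  symp p hp u v := by
    rw [pull_map t.sm k _ (mem_univ' hp), pull_map t.sm k _ (mem_univ' hp),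
      pull_eqv t.sm (hb.pull_pull w) (mem_univ' hp),
      pull_eqv t.sm (hb.pull_pull w') (mem_univ' hp)]
    exact t.symp p hp u v

/-- multiplication of the symplectic form by a constant -/
theorem _root_.Crest.Agent.R281.Tub_831.HolTube.scale {J : C.ι → V → V →L[ℝ] V}
    (t : HolTube C J w w' n D Φ l τ) {c : ℂ} (hc : c ≠ 0) {w₁ w₁' : F2 C}
    (h1 : Eqv w₁ (c.re • w - c.im • w')) (h2 : Eqv w₁' (c.im • w + c.re • w')) :
    HolTube C J w₁ w₁' n D (fun p => Φ (aC n c⁻¹ p)) (fun j y => c • l j y)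
      (fun y u v => c * τ y u v) := by
  have hpre : (fun p => aC n c⁻¹ p) ⁻¹' (D ×ˢ (univ : Set (Cn n))) = D ×ˢ univ := by
    ext p
    simp [aC_apply]
  have hD : ∀ p : Cn n × Cn n, p.1 ∈ D → aC n c⁻¹ p ∈ D ×ˢ (univ : Set (Cn n)) :=
    fun p hp => ⟨hp, mem_univ _⟩
  have hfd : ∀ p : Cn n × Cn n, p.1 ∈ D → ∀ i, Φ (aC n c⁻¹ p) ∈ (C.e i).source →
      fderiv ℝ (fun q => C.e i (Φ (aC n c⁻¹ q))) p =
        (fderiv ℝ (fun q => C.e i (Φ q)) (aC n c⁻¹ p)).comp ((aC n c⁻¹).restrictScalars ℝ) :=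
    fun p hp i hi => ((t.sm.diffAt (hD p hp) hi).hasFDerivAt.comp p
      (aC_hasFDerivAt c⁻¹ p)).fderiv
  have hs : SmI C (D ×ˢ (univ : Set (Cn n))) (fun p => Φ (aC n c⁻¹ p)) := by
    have := smI_pre t.sm (a := fun p => aC n c⁻¹ p)
      ((aC n c⁻¹).restrictScalars ℝ).contDiff
    rwa [hpre] at this
  refine
    { op := t.op
      cv := t.cv
      ne := t.ne
      sm := hs
      hol := fun p hp i hi u => ?_
      inj := fun p hp i hi u v huv => ?_
      lhol := fun j => (t.lhol j).const_smul c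
      lli := fun y hy => ?_
      eq_iff := fun y hy y' hy' x x' => ?_
      symp := fun p hp u v => ?_ }
  · rw [hfd p hp i hi]
    simp only [ContinuousLinearMap.comp_apply, ContinuousLinearMap.coe_restrictScalars']
    rw [map_smul, t.hol _ (hD p hp).1 i hi]
  · rw [hfd p hp i hi] at huv
    simp only [ContinuousLinearMap.comp_apply, ContinuousLinearMap.coe_restrictScalars'] at huv
    have h3 := congrArg (aC n c) (t.inj _ (hD p hp).1 i hi huv)
    rwa [aC_inv hc, aC_inv hc] at h3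
  · exact li_smul (t.lli y hy) hc
  · have h3 := t.eq_iff y hy y' hy' (c⁻¹ • x) (c⁻¹ • x')
    simp only [aC_apply]
    rw [h3]
    refine and_congr_right fun _ => exists_congr fun m => ?_
    have h4 : ∑ j, (m j : ℝ) • c • l j y = c • ∑ j, (m j : ℝ) • l j y := by
      rw [Finset.smul_sum]
      exact Finset.sum_congr rfl fun j _ => smul_comm _ _ _
    rw [h4, ← smul_sub]
    constructor
    · intro h; rw [← h, smul_smul, mul_inv_cancel₀ hc, one_smul]
    · intro h; rw [h, smul_smul, inv_mul_cancel₀ hc, one_smul]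
  · have e1 : ∀ v₁ : F2 C, Per_368.pull v₁ (fun p => Φ (aC n c⁻¹ p)) p u v =
        Per_368.pull v₁ Φ (aC n c⁻¹ p) (aC n c⁻¹ u) (aC n c⁻¹ v) := fun v₁ =>
      pull_pre t.sm v₁ (aC_hasFDerivAt c⁻¹ p) (hD p hp) u v
    have e2 : ∀ (v₁ v₁' : F2 C) (a b : ℝ) (q : Cn n × Cn n) (u v : Cn n × Cn n),
        q ∈ D ×ˢ (univ : Set (Cn n)) → Per_368.pull (a • v₁ + b • v₁') Φ q u v =
          a * Per_368.pull v₁ Φ q u v + b * Per_368.pull v₁' Φ q u v := by
      intro v₁ v₁' a b q u v hq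
      obtain ⟨i, hi⟩ := C.cover (Φ q)
      rw [t.sm.pull_eq _ hq hi, t.sm.pull_eq _ hq hi, t.sm.pull_eq _ hq hi]
      simp [pl_apply]
    have e3 : c.re • w - c.im • w' = c.re • w + (-c.im) • w' := by
      rw [neg_smul, sub_eq_add_neg]
    rw [pull_eqv hs h1 (mem_univ' hp), pull_eqv hs h2 (mem_univ' hp), e1, e1, e3,
      e2 _ _ _ _ _ _ _ (hD p hp), e2 _ _ _ _ _ _ _ (hD p hp)]
    have h3 := t.symp _ (hD p hp).1 (aC n c⁻¹ u) (aC n c⁻¹ v)
    rw [cmul, h3, mul_add]
    simp only [aC_apply]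
    congr 1
    rw [Finset.mul_sum]
    refine Finset.sum_congr rfl fun k _ => ?_
    simp only [PiLp.smul_apply, smul_eq_mul]
    field_simp

end tub

section pv

variable {n : ℕ} {D : Set (Cn n)} {Φ : Cn n × Cn n → X} {l : Fin (2 * n) → Cn n → Cn n}
  {Q : F2 C →ₗ[ℝ] F2 C →ₗ[ℝ] ℝ} {e : F2 C}

/-- **zero periods**, transfer along a map `k : C → C'` -/
theorem _root_.Crest.Agent.R281.Tub_831.PVT.map (hs : SmI C (D ×ˢ (univ : Set (Cn n))) Φ)
    (t : PVT Q e D Φ l) (k : SMap C C') {Q' : F2 C' →ₗ[ℝ] F2 C' →ₗ[ℝ] ℝ} {e' : F2 C'}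
    (hQ : ∀ v, Q' v e' = 0 → Q (k.pull v) e = 0) : PVT Q' e' D (k.f ∘ Φ) l := by
  intro v hv y hy x j m
  rw [← t (k.pull v) (hQ v hv) y hy x j m]
  unfold Per_368.per
  refine intervalIntegral.integral_congr fun s _ => intervalIntegral.integral_congr fun r _ => ?_
  have hp : pt ((y, x) : Cn n × Cn n) (0, l j y) (0, l m y) s r ∈
      D ×ˢ (univ : Set (Cn n)) := by
    refine ⟨?_, mem_univ _⟩
    simpa [pt] using hy
  exact congrArg (fun T : (Cn n × Cn n) →L[ℝ] (Cn n × Cn n) →L[ℝ] ℝ => T (0, l j y) (0, l m y))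
    (pull_map hs k v hp)

theorem _root_.Crest.Agent.R281.Tub_831.PVT.scale (hs : SmI C (D ×ˢ (univ : Set (Cn n))) Φ)
    (t : PVT Q e D Φ l) {c : ℂ} (hc : c ≠ 0) :
    PVT Q e D (fun p => Φ (aC n c⁻¹ p)) (fun j y => c • l j y) := by
  intro v hv y hy x j m
  rw [← t v hv y hy (c⁻¹ • x) j m]
  unfold Per_368.per
  refine intervalIntegral.integral_congr fun s _ => intervalIntegral.integral_congr fun r _ => ?_
  have hp : aC n c⁻¹ (pt ((y, x) : Cn n × Cn n) (0, c • l j y) (0, c • l m y) s r) ∈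
      D ×ˢ (univ : Set (Cn n)) := by
    refine ⟨?_, mem_univ _⟩
    simpa [pt, aC_apply] using hy
  have e1 := pull_pre hs v (aC_hasFDerivAt (n := n) c⁻¹
    (pt ((y, x) : Cn n × Cn n) (0, c • l j y) (0, c • l m y) s r)) hp (0, c • l j y) (0, c • l m y)
  have e2 : aC n c⁻¹ (pt ((y, x) : Cn n × Cn n) (0, c • l j y) (0, c • l m y) s r) =
      pt ((y, c⁻¹ • x) : Cn n × Cn n) (0, l j y) (0, l m y) s r := by
    simp only [pt, aC_apply]
    refine Prod.ext ?_ ?_
    · simp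
    · simp only [Prod.snd_add, Prod.smul_snd, smul_add]
      rw [smul_comm c⁻¹ s, smul_comm c⁻¹ r, smul_smul, smul_smul, inv_mul_cancel₀ hc, one_smul,
        one_smul]
  have e4 : ∀ u : Cn n, ((aC n c⁻¹).restrictScalars ℝ) ((0, c • u) : Cn n × Cn n) = (0, u) := by
    intro u
    show aC n c⁻¹ (0, c • u) = _
    rw [aC_apply]
    simp only [smul_smul, inv_mul_cancel₀ hc, one_smul]
  rw [e2, e4, e4] at e1
  exact e1

end pv

section top

variable {n : ℕ} {D : Set (Cn n)} {Φ : Cn n × Cn n → X} {l : Fin (2 * n) → Cn n → Cn n}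
  {τ : Cn n → Cn n → Cn n → ℂ} {w w' : F2 C} {Q : F2 C →ₗ[ℝ] F2 C →ₗ[ℝ] ℝ} {e : F2 C}

/-- uniqueness of the symplectic form of `J 0` -/
theorem tub_of_hk {H : HkT C} (hu : UniqT H) (hn : 1 ≤ n)
    (hJ : ∀ i, ∀ z ∈ (C.e i).target, ∀ u v, w.w i z (H.J 0 i z u) v = - w'.w i z u v)
    (t : HolTube C (H.J 0) w w' n D Φ l τ) (tp : PVT Q e D Φ l) :
    Tub_831.Tub n C Q e H := by
  obtain ⟨a, b, hab⟩ := hu w w' hJ
  have h12 : ∀ i, ∀ z ∈ (C.e i).target, ∀ u v, w.w i z u v =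
      a * (H.om 1).w i z u v + b * (H.om 2).w i z u v := by
    intro i z hz u v
    rw [hab i z hz u v]
    simp
  have h22 : ∀ i, ∀ z ∈ (C.e i).target, ∀ u v, w'.w i z u v =
      a * (H.om 2).w i z u v - b * (H.om 1).w i z u v := by
    intro i z hz u v
    have e1 := hJ i z hz u v
    rw [h12 i z hz, (H.om_J (Or.inl rfl) hz u v).1, (H.om_J (Or.inl rfl) hz u v).2] at e1
    linarith
  have hne : a ^ 2 + b ^ 2 ≠ 0 := by
    intro h0
    have ha : a = 0 := by nlinarith [sq_nonneg a, sq_nonneg b]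
    have hb : b = 0 := by nlinarith [sq_nonneg a, sq_nonneg b]
    subst ha hb
    obtain ⟨y, hy⟩ := t.ne
    have hp : ((y, 0) : Cn n × Cn n) ∈ D ×ˢ (univ : Set (Cn n)) := ⟨hy, mem_univ _⟩
    have hz : ∀ w : F2 C, (∀ i, ∀ z ∈ (C.e i).target, ∀ u v, w.w i z u v = 0) →
        ∀ u v, Per_368.pull w Φ (y, 0) u v = 0 := by
      intro w hw u v
      obtain ⟨i, hi⟩ := C.cover (Φ (y, 0))
      rw [t.sm.pull_eq w hp hi, pl_apply]
      exact hw i _ ((C.e i).map_source hi) _ _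
    have z1 := hz w fun i z hz u v => by rw [h12 i z hz]; ring
    have z2 := hz w' fun i z hz u v => by rw [h22 i z hz]; ring
    have s1 := t.symp _ hp.1 (0, EuclideanSpace.single ⟨0, hn⟩ 1)
      (EuclideanSpace.single ⟨0, hn⟩ 1, 0)
    have s2 := t.symp _ hp.1 (0, 0) (EuclideanSpace.single ⟨0, hn⟩ 1, 0)
    rw [z1, z2] at s1 s2
    simp at s1 s2
    rw [← s2] at s1
    simp at s1
  obtain ⟨c, hre, him⟩ : ∃ c : ℂ, c.re = a / (a ^ 2 + b ^ 2) ∧ c.im = b / (a ^ 2 + b ^ 2) :=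
    ⟨⟨a / (a ^ 2 + b ^ 2), b / (a ^ 2 + b ^ 2)⟩, rfl, rfl⟩
  have hc0 : c ≠ 0 := by
    intro h0
    rw [h0] at hre him
    simp only [Complex.zero_re, Complex.zero_im] at hre him
    have h1 : a = 0 := by
      rcases div_eq_zero_iff.1 hre.symm with h | h
      · exact h
      · exact absurd h hne
    have h2 : b = 0 := by
      rcases div_eq_zero_iff.1 him.symm with h | h
      · exact h
      · exact absurd h hne
    rw [h1, h2] at hne
    exact hne (by ring)
  refine ⟨D, _, _, _, t.scale hc0 ?_ ?_, tp.scale t.sm hc0⟩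
  · intro i z hz u v
    simp only [F2.sub_w, F2.smul_w, sub_apply, smul_apply, smul_eq_mul]
    rw [h12 i z hz, h22 i z hz, hre, him]
    field_simp
    ring
  · intro i z hz u v
    simp only [F2.add_w, F2.smul_w, add_apply, smul_apply, smul_eq_mul]
    rw [h12 i z hz, h22 i z hz, hre, him]
    field_simp
    ring

/-- **transfer**: a tube for `(J', w + i w')` and an isomorphism `(X, J 0) ≅ (X, J')` which is the
identity on classes give the tube of `H` -/
theorem tub_of_iso (hex : ∀ x y, Ex x → Q x y = 0) {H : HkT C} (hu : UniqT H) (hn : 1 ≤ n)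
    {J' : AJ C} {g k : SMap C C} (hb : Bi g k) (hg : HolM g (ofHk H 0) J')
    (hid : ∀ w : F2 C, Ex (g.pull w - w))
    (hJ : ∀ i, ∀ z ∈ (C.e i).target, ∀ u v, w.w i z (J'.J i z u) v = - w'.w i z u v)
    (t : HolTube C J'.J w w' n D Φ l τ) (tp : PVT Q e D Φ l) : Tub_831.Tub n C Q e H := by
  refine tub_of_hk hu hn (fun j z hz u v => ?_) (t.map hb hg)
    (tp.map t.sm k (Q' := Q) (e' := e) fun v hv => ?_)
  · obtain ⟨i, hi⟩ := g.exists_dom hz
    rw [g.pull_w _ hi, g.pull_w _ hi]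
    have h1 := hg.h i j z hi u
    have h2 : (ofHk H 0).J j z u = H.J 0 j z u := rfl
    rw [h2] at h1
    rw [h1]
    exact hJ i _ (g.loc_mem hi) _ _
  · have h2 : Ex (v - k.pull v) := by
      have h3 := hid (k.pull v)
      refine Eqv.ex ?_ h3
      intro i z hz u w
      have := hb.symm.pull_pull v i z hz u w
      simp only [F2.sub_w, sub_apply]
      rw [this]
    have h4 := hex _ e h2
    rw [map_sub, LinearMap.sub_apply, hv] at h4
    linarith

end top

end

end Crest.Agent.R281.Tp_836
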