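import Crest.Agent.R281.KapD_975
import Crest.Agent.R281.Kas4_975
import Crest.Agent.R281.Kas5_975
import Crest.Agent.R281.Kd12_22
import Crest.Agent.R281.Pjx7_648
import Crest.Agent.R281.Pjx8_648
import Crest.Agent.R281.Pjx9_648
import Crest.Agent.R281.Tp1_836
import Crest.Agent.R281.Rank281_902

/-!
# Row 281, node N7 (helper975): KAPPA-1 at a rational member

`kappaP_of : QTubP Alg → KappaP Alg Tub`
-/

set_option autoImplicit false
set_option linter.unusedSectionVars false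
set_option maxSynthPendingDepth 3

open Set Filter Topology Complex Metric
open scoped ContDiff

namespace Crest.Agent.R281.Kap_975

open Crest.Agent.R275.Geo Crest.Agent.R275.Core144 Crest.Agent.R275.GC293
open Crest.Agent.R275.EDR890
open Crest.Agent.R273.Defs_333 Crest.Agent.R273.Kah_333
open Crest.Agent.R273.Map_835 (HolMap)
open Crest.Agent.R273.PB_835 (LBih Ref pullLB)
open Crest.Agent.R273.FS_333 (lb)
open Crest.Agent.R260.ACM_580 Crest.Agent.R260.NNB_580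
open Crest.Agent.R281.HkR_835 Crest.Agent.R281.Ti_846 Crest.Agent.R281.Cdr_234
open Crest.Agent.R281.Dif_268 Crest.Agent.R281.PL_713 Crest.Agent.R281.Rk_599
open Crest.Agent.R281.NefO_476 Crest.Agent.R281.Nef_252
open Crest.Agent.R281.Alg_998 Crest.Agent.R281.RkD_902
open Crest.Agent.R281.Tub_831 (HolTube PVT)
open Crest.Agent.R281.Qt_922 (QTube)
open Crest.Agent.R281.SkM_474 (FL FL_apply)
open Crest.Agent.R281.Per_368 (SmI)
open Crest.Agent.R281.Kd_22 (PVan HTube)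
open Crest.Agent.R281.Pjx_648 (lb_iso rich_ref rat_N pbT)
open Crest.Agent.R281.Kas_975 Crest.Agent.R281.KapD_975

noncomputable section

section tube

variable {V X : Type} [NormedAddCommGroup V] [NormedSpace ℝ V] [TopologicalSpace X]
  {C : RCh V X} {J : C.ι → V → V →L[ℝ] V} {w w' : F2 C} {n : ℕ} {D : Set (Cn n)}
  {Ψ : Cn n × Cn n → X} {l : Fin (2 * n) → Cn n → Cn n} {τ : Cn n → Cn n → Cn n → ℂ}

/-- the periods -/
theorem per_of (hT : HolTube C J w w' n D Ψ l τ) {y : Cn n} (hy : y ∈ D) (k : Fin (2 * n))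
    (x : Cn n) : Ψ (y, x + l k y) = Ψ (y, x) := by
  rw [hT.eq_iff y hy y hy]
  refine ⟨rfl, Pi.single k 1, ?_⟩
  rw [add_sub_cancel_left, Finset.sum_eq_single k]
  · simp
  · intro b _ hb
    rw [Pi.single_eq_of_ne hb]
    simp
  · intro h
    exact absurd (Finset.mem_univ k) h

/-- the part of the base over a ball -/
theorem isOpen_base {A : Atl (2 * n) X} {K : Kah A} {κ r : ℝ} (q : QTube A K n κ r)
    (hT : HolTube C J w w' n D Ψ l τ) (hU : ∀ b ∈ D, Ψ (b, 0) ∈ q.U) (c₀ : Cn n) (r₀ : ℝ) :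
    IsOpen (D ∩ (fun b : Cn n => q.f (Ψ (b, 0))) ⁻¹' ball c₀ r₀) := by
  have h0 : ContinuousOn (fun b : Cn n => Ψ (b, 0)) D :=
    hT.sm.cont.comp (f := fun b : Cn n => (b, (0 : Cn n))) (by fun_prop)
      fun b hb' => ⟨hb', mem_univ _⟩
  have h1 : ContinuousOn (fun b : Cn n => q.f (Ψ (b, 0))) D :=
    q.cont.comp (f := fun b : Cn n => Ψ (b, 0)) h0 fun b hb' => hU b hb'
  exact h1.isOpen_inter_preimage hT.op isOpen_ball

end tube

section main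

variable {n : ℕ} {X : Type} [TopologicalSpace X] [CompactSpace X] [T2Space X]
  [SimplyConnectedSpace X] {C : RCh (Cn (2 * n)) X} {Q : F2 C →ₗ[ℝ] F2 C →ₗ[ℝ] ℝ} {H : HkT C}
  {L0 : PL C} {e : F2 C}

/-- the class of the pull back of `p.L` to a refinement -/
theorem cls_ref {H : HkT C} (hG : Given Q H L0 e) (p : Pres n H L0) {A' : Atl (2 * n) X}
    (hA' : Cp (H.acm 0) A') (hl : LBih A' p.A id) (hl' : LBih p.A A' id) (Rf : Ref A' p.A id) :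
    Ex ((Crest.Agent.R281.Nef_252.curK ((Crest.Agent.R273.PB_835.PB.ref hl.toHolMap Rf p.L).pullHM
      hl.toHolMap p.h)).f2 - Real.pi • (cmp_of_cp hA').F e) := by
  have e1 := Crest.Agent.R281.Kd_22.pres_cls hG.lnk p
  have e2 : Real.pi • (cmp_of_cp p.cp).F e = (cmp_of_cp p.cp).F (Real.pi • e) :=
    ((FL (cmp_of_cp p.cp)).map_smul Real.pi e).symm
  rw [e2] at e1
  have e3 := Crest.Agent.R281.Kd_22.cls_pull p.cp hA' hl.toHolMap hl'.toHolMap Rf p.h e1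
  have e4 : Real.pi • (cmp_of_cp hA').F e = (cmp_of_cp hA').F (Real.pi • e) :=
    ((FL (cmp_of_cp hA')).map_smul Real.pi e).symm
  rw [e4]
  exact e3

/-- **KAPPA-1 on one atlas** of the chart member -/
theorem kappa_on (hX : Ctx n C Q) (hG : Given Q H L0 e) (hnef : NefC (ofHk H 0) (H.om 0) e)
    {A : Atl (2 * n) X} [Finite A.ι] (PA : Part A) (hA : Cp (H.acm 0) A) {L : LB A} (hL : HM L)
    (hcls : Ex ((Crest.Agent.R281.Nef_252.curK hL).f2 - Real.pi • (cmp_of_cp hA).F e))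
    {K : Kah A} {Lb : LB A} (h : HM Lb) {c : ℝ} (hc0 : 0 < c)
    (hcur : ∀ i, ∀ y ∈ (A.e i).source, cur h i y = (c : ℂ) • K.g i y) (P : ProjD A) {m : ℕ}
    (hm : 0 < m) (hPL : lb P = Lb ^ m) {κ r : ℝ} (hκ : 0 ≤ κ) (hr : 0 < r)
    (hR : Crest.Agent.R281.Js_578.CS * κ ^ 2 ≤ r ^ 2) (q : QTube A K n κ r) {D : Set (Cn n)}
    {Ψ : Cn n × Cn n → X} {l : Fin (2 * n) → Cn n → Cn n} {τ : Cn n → Cn n → Cn n → ℂ}
    {w w' : F2 C} (hT : HolTube C (H.J 0) w w' n D Ψ l τ) (hP : PVT Q e D Ψ l)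
    (hc : ∀ y ∈ D, ∀ c, Ψ (y, c) ∈ q.U ∧ q.f (Ψ (y, c)) = q.f (Ψ (y, 0)) ∧
      ‖q.f (Ψ (y, c))‖ < r / 4) :
    ∃ a : ℕ, 0 < a ∧ ∃ u : Fin (n + 1) → A.ι → X → ℂ, (∀ j, IsHS (L ^ a) univ (u j)) ∧
      ∃ i x, Rk A u i x := by
  obtain ⟨y₁, hy₁⟩ := hT.ne
  have hx₁' : ‖q.f (Ψ (y₁, 0))‖ < r / 2 := by linarith [(hc y₁ hy₁ 0).2.2]
  obtain ⟨r₀, hr₀, Dg, -, t, ht, hcr, i₀, x₀, -, -, hrk⟩ :=
    sections_of_qtube PA q h hc0 hcur hκ hR P hm hPL (hc y₁ hy₁ 0).1 hx₁'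
  have hO : IsOpen (D ∩ (fun b : Cn n => q.f (Ψ (b, 0))) ⁻¹' ball (q.f (Ψ (y₁, 0))) r₀) :=
    isOpen_base q hT (fun b hb' => (hc b hb' 0).1) _ _
  have hn := hX.n1
  have : Nontrivial (Cn n) := by
    have : Nonempty (Fin n) := ⟨⟨0, hn⟩⟩
    infer_instance
  obtain ⟨T, hTO, hTP⟩ : ∃ T : HTube A (Cn n) (Cn n),
      T.Om = D ∩ (fun b : Cn n => q.f (Ψ (b, 0))) ⁻¹' ball (q.f (Ψ (y₁, 0))) r₀ ∧
      ∀ c b, T.P (c, b) = Ψ (b, c) := ⟨htube hA hT _ hO inter_subset_left, rfl, fun _ _ => rfl⟩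
  have hOD : T.Om ⊆ D := by rw [hTO]; exact inter_subset_left
  have hPV : PVan Q e T := Crest.Agent.R281.Kd_22.pvan_of_pvt hT.sm
    (fun b hb' j x => per_of hT hb' j x) hT.lli hP T hOD (fun b _ => hTP b.1 b.2)
  have hy₁' : q.f (Ψ (y₁, 0)) ∈ ball (q.f (Ψ (y₁, 0))) r₀ := mem_ball_self hr₀
  have hne : T.Om.Nonempty := by
    refine ⟨y₁, ?_⟩
    rw [hTO]
    exact mem_inter hy₁ (mem_preimage.2 hy₁')
  have hd : Module.finrank ℂ (Cn n) + Module.finrank ℂ (Cn n) = 2 * n := by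
    rw [finrank_euclideanSpace_fin]; omega
  have cross : ∀ j, ∀ c c' : Cn n, ∀ b ∈ T.Om, ∀ i i', T.P (c, b) ∈ (A.e i).source →
      T.P (c', b) ∈ (A.e i').source → t j i (T.P (c, b)) * t 0 i' (T.P (c', b)) =
        t j i' (T.P (c', b)) * t 0 i (T.P (c, b)) := by
    intro j c c' b hb' i i' hi hi'
    rw [hTP] at hi
    rw [hTP] at hi'
    rw [hTP, hTP]
    rw [hTO] at hb'
    have e1 := (hc b hb'.1 c).2.1
    have e2 := (hc b hb'.1 c').2.1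
    exact hcr j _ (hc b hb'.1 c).1 _ (hc b hb'.1 c').1 (by rw [e1]; exact hb'.2) (by rw [e1, e2])
      i i' hi hi'
  obtain ⟨a, ha, u, hu, -, hrku⟩ := Crest.Agent.R281.Kd_22.kappa_main hX hG hnef hA hL
    Real.pi_pos hcls T hne hd hPV hn ht hrk cross
  exact ⟨a, ha, u, hu, i₀, x₀, hrku⟩

/-- periods of the transported tube -/
theorem pvt_map (hX : Ctx n C Q) {g k : SMap C C} (hb : Bi g k)
    (hid : ∀ w : F2 C, Cl (g.pull w) w) {D : Set (Cn n)} {Ψ : Cn n × Cn n → X}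
    {l : Fin (2 * n) → Cn n → Cn n} (hs : SmI C (D ×ˢ univ) Ψ) (hP : PVT Q e D Ψ l) :
    PVT Q e D (k.f ∘ Ψ) l := by
  refine hP.map hs k (Q' := Q) (e' := e) fun v hv => ?_
  have h2 : Ex (v - k.pull v) := by
    have h3 := hid (k.pull v)
    refine Eqv.ex ?_ h3
    intro i z hz u w
    have := hb.symm.pull_pull v i z hz u w
    simp only [F2.sub_w, sub_apply]
    rw [this]
  have h4 := hX.ex _ e h2
  rw [map_sub, LinearMap.sub_apply, hv] at h4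
  linarith

/-- **KAPPA-1** at a member `H₀` isomorphic to a member `H` of the end with a quantified tube -/
theorem kappa_member (hX : Ctx n C Q) {H₀ : HkT C} (hG : Given Q H₀ L0 e)
    (hnef : NefC (ofHk H₀ 0) (H₀.om 0) e) (p : Pres n H₀ L0) (F : Frm C Q) {H : HkT C}
    {x : ℚ} {y z s κ r : ℝ} (hκ : 0 ≤ κ) (hr : 0 < r)
    (hR : Crest.Agent.R281.Js_578.CS * κ ^ 2 ≤ r ^ 2) (hz : 0 < z) (hs : 0 < s)
    (hy : ∃ a : ℚ, (a : ℝ) = y ^ 2) (hcl : Cl (H.om 1) (z • F.sre ⟨x, y⟩))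
    (hI : IsoId (ofHk H₀ 0) (ofHk H 1)) {A : Atl (2 * n) X} (hA : Cp (H.acm 1) A) {K : Kah A}
    (hK : Eqv (ofKah K).f2 (s • (cmp_of_cp hA).F (H.om 1))) (hq : TubeQ Q e H 1 A K κ r) :
    Crest.Agent.R281.Sk_474.Rich p.A p.L := by
  obtain ⟨g, k, hb, hg, hid⟩ := hI
  obtain ⟨q, D, Ψ, l, τ, w, w', hT, hP, hc⟩ := hq
  obtain ⟨c, A', hA', K', Lb, h, hc0, hfin, hgood, ⟨PA⟩, -, ⟨Rf⟩, hl, hl', hlg, hlk, hK', hcur,
    hpos, m, hm, P, hPL⟩ := lb_iso p.cp hA hb hg hid hs hz hK hcl (rat_N hX F) ⟨x, rfl⟩ hy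
      (κ := Unit) (fun _ => (univ : Set X)) (fun _ => isOpen_univ) (fun x => ⟨(), mem_univ x⟩)
  have hT' : HolTube C (H₀.J 0) (g.pull w) (g.pull w') n D (k.f ∘ Ψ) l τ :=
    HolTube.map (J := ofHk H 1) (J' := ofHk H₀ 0) hT hb hg
  have hP' : PVT Q e D (k.f ∘ Ψ) l := pvt_map hX hb hid hT.sm hP
  have key := kappa_on hX hG hnef PA hA' _ (cls_ref hG p hA' hl hl' Rf) h
    (mul_pos Real.pi_pos hc0) hcur P hm hPL hκ hr hR (pbT hlg hlk hb.gk hb.kg hK' q) hT' hP'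
    (fun b hb' c => by
      have h1 : g.f ((k.f ∘ Ψ) (b, c)) = Ψ (b, c) := hb.gk _
      have h2 : g.f ((k.f ∘ Ψ) (b, 0)) = Ψ (b, 0) := hb.gk _
      have h3 := hc b hb' c
      rw [← h1, ← h2] at h3
      exact h3)
  obtain ⟨a, ha, u, hu, i₀, x₀, hrku⟩ := key
  exact rich_ref hl.toHolMap hl'.toHolMap Rf ⟨a, ha, u, hu, i₀, x₀, hrku⟩

end main

/-- **node N7** -/
theorem kappaP_of (Alg : AlgTT) (Tub : TubTT) (hQ : QTubP Alg) : KappaP Alg Tub := by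
  intro n X _ _ _ _ C Q hX H0 L0 e hG B R x hxD hE hnef _ p
  have hG' : Given Q (B.H R.a (R.c x)) L0 e :=
    Crest.Agent.R281.Rank281_902.given_box hX hG B R.aB hxD
  obtain ⟨κ, hκ, hq⟩ := hQ n X C Q hX H0 L0 e hG B R x hxD hE
  have h1 := Crest.Agent.R281.Js_578.one_le_CS
  have hr0 : 0 < Crest.Agent.R281.Js_578.CS * κ := mul_pos (by linarith) hκ
  have hR : Crest.Agent.R281.Js_578.CS * κ ^ 2 ≤ (Crest.Agent.R281.Js_578.CS * κ) ^ 2 := by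
    have h2 : 0 ≤ κ ^ 2 := sq_nonneg κ
    nlinarith
  obtain ⟨H, y, z, s, hy, hz, hs, hyq, hcl, hI, A, hA, K, hK, hT⟩ := hq _ hr0
  exact kappa_member hX hG' hnef p R.F hκ.le hr0 hR hz hs hyq hcl hI hA hK hT

end

end Crest.Agent.R281.Kap_975
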