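import Crest.Agent.R281.Rk1_599

/-!
# R281 (S0424), S6-RANK part 2 (helper599): rank of the ratios of sections

* `rat A s i a`   : the ratio `s_(a+1) / s_0` in the chart `i`
* `Rk A s i x`    : `s_0 x ≠ 0` and the `r` ratios have independent differentials at `x`
* `Rk.chart`      : independent of the chart
* `Rk.dense`      : on a connected manifold the points of `Rk` are dense
-/

set_option autoImplicit false
set_option linter.unusedSectionVars false

open Set Filter Topology Complex Metric Asymptotics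
open scoped NNReal ENNReal

namespace Crest.Agent.R281.Rk_599

open Crest.Agent.R275.Geo Crest.Agent.R275.Core144 Crest.Agent.R273.Sg1_101
open Crest.Agent.R273.Sg2_101

noncomputable section

variable {n : ℕ} {M : Type} [TopologicalSpace M] {A : Atl n M}

/-- a section read in the chart `i` -/
def rd (A : Atl n M) (i : A.ι) (s : A.ι → M → ℂ) (z : Cn n) : ℂ := s i ((A.e i).symm z)

/-- the ratio `s_(a+1) / s_0` in the chart `i` -/
def rat (A : Atl n M) {r : ℕ} (s : Fin (r + 1) → A.ι → M → ℂ) (i : A.ι) (a : Fin r) (z : Cn n) : ℂ :=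
  s a.succ i ((A.e i).symm z) / s 0 i ((A.e i).symm z)

/-- `s_0 x ≠ 0` and the `r` ratios `s_(a+1) / s_0` have independent differentials at `x` -/
def Rk (A : Atl n M) {r : ℕ} (s : Fin (r + 1) → A.ι → M → ℂ) (i : A.ι) (x : M) : Prop :=
  x ∈ (A.e i).source ∧ s 0 i x ≠ 0 ∧
    LinearIndependent ℂ (fun a : Fin r => fderiv ℂ (rat A s i a) (A.e i x))

theorem differentiableOn_rd {L : LB A} {s : A.ι → M → ℂ} (hs : IsHS L univ s) (i : A.ι) :
    DifferentiableOn ℂ (rd A i s) (A.e i).target := hs_diff hs i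

theorem analyticOnNhd_rd {L : LB A} {s : A.ι → M → ℂ} (hs : IsHS L univ s) (i : A.ι) :
    AnalyticOnNhd ℂ (rd A i s) (A.e i).target :=
  Crest.Agent.R266.SCV.analyticOnNhd_of_differentiableOn (A.e i).open_target
    (differentiableOn_rd hs i)

theorem isHS_pow {L : LB A} {s : A.ι → M → ℂ} (hs : IsHS L univ s) (m : ℕ) (hm : 0 < m) :
    IsHS (L ^ m) univ (s ^ m) := by
  induction m with
  | zero => omega
  | succ m ih =>
    rcases Nat.eq_zero_or_pos m with h | h
    · subst h
      simpa using hs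
    · rw [pow_succ, pow_succ]
      exact (ih h).mul hs

/-- the ratios are analytic where `s_0 ≠ 0` -/
theorem analyticAt_rat {L : LB A} {r : ℕ} {s : Fin (r + 1) → A.ι → M → ℂ}
    (hs : ∀ a, IsHS L univ (s a)) {i : A.ι} {x : M} (hx : x ∈ (A.e i).source)
    (h0 : s 0 i x ≠ 0) (a : Fin r) : AnalyticAt ℂ (rat A s i a) (A.e i x) := by
  refine AnalyticAt.div (analyticOnNhd_rd (hs a.succ) i _ ((A.e i).map_source hx))
    (analyticOnNhd_rd (hs 0) i _ ((A.e i).map_source hx)) ?_
  show s 0 i ((A.e i).symm (A.e i x)) ≠ 0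
  rwa [(A.e i).left_inv hx]

/-- the differential of a ratio does not depend on the chart -/
theorem rat_chart {L : LB A} {r : ℕ} {s : Fin (r + 1) → A.ι → M → ℂ}
    (hs : ∀ a, IsHS L univ (s a)) {i j : A.ι} {x : M} (hi : x ∈ (A.e i).source)
    (hj : x ∈ (A.e j).source) (h0 : s 0 i x ≠ 0) (a : Fin r) :
    fderiv ℂ (rat A s i a) (A.e i x) =
      (fderiv ℂ (rat A s j a) (A.e j x)).comp
        (fderiv ℂ (fun z => A.e j ((A.e i).symm z)) (A.e i x)) := by
  have hj0 : s 0 j x ≠ 0 := fun h => h0 (by rw [(hs 0).tr i j x ⟨hi, hj⟩ (mem_univ _), h, mul_zero])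
  have hov : IsOpen {z | z ∈ (A.e i).target ∧ (A.e i).symm z ∈ (A.e j).source} :=
    (A.e i).isOpen_inter_preimage_symm (A.e j).open_source
  have hmem : A.e i x ∈ {z | z ∈ (A.e i).target ∧ (A.e i).symm z ∈ (A.e j).source} :=
    ⟨(A.e i).map_source hi, by rwa [(A.e i).left_inv hi]⟩
  have hd : DifferentiableAt ℂ (fun z => A.e j ((A.e i).symm z)) (A.e i x) :=
    (A.holo i j).differentiableAt (hov.mem_nhds hmem)
  have hval : A.e j ((A.e i).symm (A.e i x)) = A.e j x := by rw [(A.e i).left_inv hi]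
  have hra : DifferentiableAt ℂ (rat A s j a) (A.e j ((A.e i).symm (A.e i x))) := by
    rw [hval]
    exact (analyticAt_rat hs hj hj0 a).differentiableAt
  have heq : rat A s i a =ᶠ[𝓝 (A.e i x)] fun z => rat A s j a (A.e j ((A.e i).symm z)) := by
    filter_upwards [hov.mem_nhds hmem] with z hz
    have hzi := (A.e i).map_target hz.1
    unfold rat
    rw [(A.e j).left_inv hz.2, (hs a.succ).tr i j _ ⟨hzi, hz.2⟩ (mem_univ _),
      (hs 0).tr i j _ ⟨hzi, hz.2⟩ (mem_univ _), mul_div_mul_left _ _ (L.ne_zero i j _)]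
  rw [heq.fderiv_eq]
  have h1 := fderiv_comp (A.e i x) (g := rat A s j a) (f := fun z => A.e j ((A.e i).symm z)) hra hd
  rw [hval] at h1
  exact h1

theorem Rk.chart {L : LB A} {r : ℕ} {s : Fin (r + 1) → A.ι → M → ℂ}
    (hs : ∀ a, IsHS L univ (s a)) {i j : A.ι} {x : M} (h : Rk A s i x)
    (hj : x ∈ (A.e j).source) : Rk A s j x := by
  obtain ⟨hi, h0, hl⟩ := h
  refine ⟨hj, fun h => h0 (by rw [(hs 0).tr i j x ⟨hi, hj⟩ (mem_univ _), h, mul_zero]), ?_⟩
  set T : (Cn n →L[ℂ] ℂ) →ₗ[ℂ] (Cn n →L[ℂ] ℂ) :=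
    { toFun := fun φ => φ.comp (fderiv ℂ (fun z => A.e j ((A.e i).symm z)) (A.e i x))
      map_add' := fun φ ψ => by ext v; simp
      map_smul' := fun c φ => by ext v; simp } with hT
  refine LinearIndependent.of_comp T ?_
  have h1 : (⇑T ∘ fun a : Fin r => fderiv ℂ (rat A s j a) (A.e j x)) =
      fun a : Fin r => fderiv ℂ (rat A s i a) (A.e i x) := by
    funext a
    exact (rat_chart hs hi hj h0 a).symm
  rw [h1]
  exact hl

/-- a dual family -/
theorem exists_dual {E : Type*} [AddCommGroup E] [Module ℂ E] [TopologicalSpace E] {r : ℕ}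
    {φ : Fin r → E →L[ℂ] ℂ} (h : LinearIndependent ℂ φ) :
    ∃ v : Fin r → E, ∀ a b, φ a (v b) = if a = b then 1 else 0 := by
  classical
  have h' : LinearIndependent ℂ (fun a => (φ a : E →ₗ[ℂ] ℂ)) := by
    have h1 := h.map' (ContinuousLinearMap.coeLM ℂ : (E →L[ℂ] ℂ) →ₗ[ℂ] (E →ₗ[ℂ] ℂ))
      (LinearMap.ker_eq_bot.2 ContinuousLinearMap.coe_injective)
    exact h1
  -- the joint map is onto
  set Φ : E →ₗ[ℂ] (Fin r → ℂ) := LinearMap.pi fun a => (φ a : E →ₗ[ℂ] ℂ) with hΦ
  have hsurj : Function.Surjective Φ := by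
    rw [← LinearMap.range_eq_top]
    by_contra hne
    obtain ⟨f, hf0, hf⟩ := Submodule.exists_le_ker_of_lt_top _ (lt_top_iff_ne_top.2 hne)
    have h2 : ∑ a, f (Pi.single a 1) • (φ a : E →ₗ[ℂ] ℂ) = 0 := by
      ext v
      have h3 : f (Φ v) = 0 := hf (LinearMap.mem_range_self Φ v)
      have h4 : Φ v = ∑ a, (φ a v) • (Pi.single a (1 : ℂ) : Fin r → ℂ) := by
        funext b
        simp [hΦ, Finset.sum_apply, Pi.single_apply]
      rw [h4, map_sum] at h3
      simp only [map_smul, smul_eq_mul] at h3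
      simp only [LinearMap.sum_apply, LinearMap.smul_apply, smul_eq_mul, LinearMap.zero_apply,
        ContinuousLinearMap.coe_coe]
      rw [← h3]
      exact Finset.sum_congr rfl fun a _ => mul_comm _ _
    have h5 := Fintype.linearIndependent_iff.1 h' _ h2
    apply hf0
    refine LinearMap.pi_ext' fun a => ?_
    refine LinearMap.ext_ring ?_
    simpa using h5 a
  choose v hv using fun b => hsurj (Pi.single b (1 : ℂ) : Fin r → ℂ)
  refine ⟨v, fun a b => ?_⟩
  have h7 := congrFun (hv b) a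
  simp only [hΦ, LinearMap.pi_apply, ContinuousLinearMap.coe_coe] at h7
  rw [h7, Pi.single_apply]

/-- independence of functionals through a minor -/
theorem linInd_iff_det {E : Type*} [AddCommGroup E] [Module ℂ E] [TopologicalSpace E] {r : ℕ}
    (φ : Fin r → E →L[ℂ] ℂ) : LinearIndependent ℂ φ ↔
      ∃ v : Fin r → E, (Matrix.of fun a b => φ a (v b)).det ≠ 0 := by
  classical
  constructor
  · intro h
    obtain ⟨v, hv⟩ := exists_dual h
    refine ⟨v, ?_⟩
    have h6 : (Matrix.of fun a b => φ a (v b)) = 1 := by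
      ext a b
      rw [Matrix.of_apply, hv, Matrix.one_apply]
    rw [h6, Matrix.det_one]
    exact one_ne_zero
  · rintro ⟨v, hv⟩
    rw [Fintype.linearIndependent_iff]
    intro g hg
    have h1 : Matrix.vecMul g (Matrix.of fun a b => φ a (v b)) = 0 := by
      funext b
      have h2 := congrArg (fun T : E →L[ℂ] ℂ => T (v b)) hg
      simp only [sum_apply, smul_apply, smul_eq_mul,
        zero_apply] at h2
      simpa [Matrix.vecMul, dotProduct] using h2
    have h3 := Matrix.eq_zero_of_vecMul_eq_zero hv h1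
    exact fun a => congrFun h3 a

/-- the minors of the ratios, without denominators -/
def mnr (A : Atl n M) {r : ℕ} (s : Fin (r + 1) → A.ι → M → ℂ) (i : A.ι) (v : Fin r → Cn n)
    (z : Cn n) : ℂ :=
  rd A i (s 0) z * (Matrix.of fun a b : Fin r =>
    rd A i (s 0) z * fderiv ℂ (rd A i (s a.succ)) z (v b) -
      rd A i (s a.succ) z * fderiv ℂ (rd A i (s 0)) z (v b)).det

theorem analyticOnNhd_mnr {L : LB A} {r : ℕ} {s : Fin (r + 1) → A.ι → M → ℂ}
    (hs : ∀ a, IsHS L univ (s a)) (i : A.ι) (v : Fin r → Cn n) :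
    AnalyticOnNhd ℂ (mnr A s i v) (A.e i).target := by
  have h1 := fun a => analyticOnNhd_rd (hs a) i
  have h2 : ∀ a b, AnalyticOnNhd ℂ (fun z => fderiv ℂ (rd A i (s a)) z (v b)) (A.e i).target := by
    intro a b z hz
    exact ((ContinuousLinearMap.apply ℂ ℂ (v b)).analyticAt _).comp ((h1 a).fderiv z hz)
  unfold mnr
  refine (h1 0).mul ?_
  simp only [Matrix.det_apply]
  refine Finset.analyticOnNhd_fun_sum _ fun σ _ => ?_
  have h3 : AnalyticOnNhd ℂ (fun z => ∏ b, (Matrix.of fun a b : Fin r =>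
      rd A i (s 0) z * fderiv ℂ (rd A i (s a.succ)) z (v b) -
      rd A i (s a.succ) z * fderiv ℂ (rd A i (s 0)) z (v b)) (σ b) b) (A.e i).target := by
    refine Finset.analyticOnNhd_fun_prod _ fun b _ => ?_
    exact ((h1 0).mul (h2 _ _)).sub ((h1 _).mul (h2 _ _))
  intro z hz
  have h4 := h3 z hz
  rcases Int.units_eq_one_or (Equiv.Perm.sign σ) with h | h
  · simpa [h] using h4
  · refine h4.neg.congr (Eventually.of_forall fun z => ?_)
    simp [h]

theorem fderiv_rat {L : LB A} {r : ℕ} {s : Fin (r + 1) → A.ι → M → ℂ}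
    (hs : ∀ a, IsHS L univ (s a)) {i : A.ι} {z : Cn n} (hz : z ∈ (A.e i).target)
    (h0 : rd A i (s 0) z ≠ 0) (a : Fin r) (v : Cn n) :
    fderiv ℂ (rat A s i a) z v = ((rd A i (s 0) z) ^ 2)⁻¹ *
      (rd A i (s 0) z * fderiv ℂ (rd A i (s a.succ)) z v -
        rd A i (s a.succ) z * fderiv ℂ (rd A i (s 0)) z v) := by
  have h1 : HasFDerivAt (rd A i (s a.succ)) (fderiv ℂ (rd A i (s a.succ)) z) z :=
    (analyticOnNhd_rd (hs a.succ) i z hz).differentiableAt.hasFDerivAt
  have h2 : HasFDerivAt (rd A i (s 0)) (fderiv ℂ (rd A i (s 0)) z) z :=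
    (analyticOnNhd_rd (hs 0) i z hz).differentiableAt.hasFDerivAt
  have h3 := (h1.mul ((hasDerivAt_inv h0).comp_hasFDerivAt z h2)).fderiv
  have h4 : (rd A i (s a.succ) * (Inv.inv ∘ rd A i (s 0))) = rat A s i a := by
    funext w
    simp only [Pi.mul_apply, Function.comp_apply, rat, rd, div_eq_mul_inv]
  rw [h4] at h3
  rw [h3]
  simp only [smul_apply, add_apply, smul_eq_mul, Function.comp_apply]
  field_simp
  ring

theorem rk_iff_mnr {L : LB A} {r : ℕ} {s : Fin (r + 1) → A.ι → M → ℂ}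
    (hs : ∀ a, IsHS L univ (s a)) {i : A.ι} {x : M} (hx : x ∈ (A.e i).source) :
    Rk A s i x ↔ ∃ v, mnr A s i v (A.e i x) ≠ 0 := by
  have h0 : rd A i (s 0) (A.e i x) = s 0 i x := by unfold rd; rw [(A.e i).left_inv hx]
  have key : s 0 i x ≠ 0 → ∀ v : Fin r → Cn n,
      ((Matrix.of fun a b => fderiv ℂ (rat A s i a) (A.e i x) (v b)).det ≠ 0 ↔
        mnr A s i v (A.e i x) ≠ 0) := by
    intro hne v
    have h1 : (Matrix.of fun a b => fderiv ℂ (rat A s i a) (A.e i x) (v b)) =
        ((s 0 i x ^ 2)⁻¹) • (Matrix.of fun a b : Fin r =>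
          rd A i (s 0) (A.e i x) * fderiv ℂ (rd A i (s a.succ)) (A.e i x) (v b) -
          rd A i (s a.succ) (A.e i x) * fderiv ℂ (rd A i (s 0)) (A.e i x) (v b)) := by
      ext a b
      rw [Matrix.smul_apply, Matrix.of_apply, Matrix.of_apply, smul_eq_mul,
        fderiv_rat hs ((A.e i).map_source hx) (by rwa [h0]) a (v b), h0]
    unfold mnr
    rw [h1, Matrix.det_smul, h0]
    have h2 : (((s 0 i x) ^ 2)⁻¹) ^ Fintype.card (Fin r) ≠ 0 := pow_ne_zero _ (inv_ne_zero (pow_ne_zero _ hne))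
    constructor
    · intro h
      exact mul_ne_zero hne (right_ne_zero_of_mul h)
    · intro h
      exact mul_ne_zero h2 (right_ne_zero_of_mul h)
  constructor
  · rintro ⟨-, hne, hl⟩
    obtain ⟨v, hv⟩ := (linInd_iff_det _).1 hl
    exact ⟨v, (key hne v).1 hv⟩
  · rintro ⟨v, hv⟩
    have hne : s 0 i x ≠ 0 := by
      intro h
      apply hv
      unfold mnr
      rw [h0, h, zero_mul]
    exact ⟨hx, hne, (linInd_iff_det _).2 ⟨v, (key hne v).2 hv⟩⟩

/-- on a connected manifold the points of `Rk` are dense -/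
theorem dense_rk [PreconnectedSpace M] {L : LB A} {r : ℕ} {s : Fin (r + 1) → A.ι → M → ℂ}
    (hs : ∀ a, IsHS L univ (s a)) {i₀ : A.ι} {x₀ : M} (h₀ : Rk A s i₀ x₀) :
    Dense {x | ∃ i, Rk A s i x} := by
  classical
  set Z : Set M := {x | ∃ i, Rk A s i x}ᶜ with hZ
  -- the interior of the bad set is closed
  have hcl : IsClosed (interior Z) := by
    refine isClosed_of_closure_subset fun x hx => ?_
    obtain ⟨i, hi⟩ := A.cover x
    obtain ⟨ε, hε, hball⟩ := Metric.isOpen_iff.1 (A.e i).open_target _ ((A.e i).map_source hi)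
    have hW : IsOpen ((A.e i).source ∩ (A.e i) ⁻¹' ball (A.e i x) ε) :=
      (A.e i).isOpen_inter_preimage isOpen_ball
    obtain ⟨y, ⟨hyi, hyb⟩, hyZ⟩ := mem_closure_iff.1 hx _ hW ⟨hi, mem_ball_self hε⟩
    rw [mem_interior]
    refine ⟨_, ?_, hW, ⟨hi, mem_ball_self hε⟩⟩
    rintro w ⟨hwi, hwb⟩ ⟨j, hj⟩
    obtain ⟨v, hv⟩ := (rk_iff_mnr hs hwi).1 (hj.chart hs hwi)
    apply hv
    have h1 : mnr A s i v =ᶠ[𝓝 (A.e i y)] 0 := by
      have h2 : Tendsto (A.e i).symm (𝓝 (A.e i y)) (𝓝 y) := by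
        have := (A.e i).continuousAt_symm ((A.e i).map_source hyi)
        rw [ContinuousAt, (A.e i).left_inv hyi] at this
        exact this
      filter_upwards [h2.eventually (isOpen_interior.mem_nhds hyZ),
        (A.e i).open_target.mem_nhds ((A.e i).map_source hyi)] with z hz hzt
      by_contra hne
      have h3 : Rk A s i ((A.e i).symm z) := by
        refine (rk_iff_mnr hs ((A.e i).map_target hzt)).2 ⟨v, ?_⟩
        rwa [(A.e i).right_inv hzt]
      exact (interior_subset hz) ⟨i, h3⟩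
    exact ((analyticOnNhd_mnr hs i v).mono hball).eqOn_zero_of_preconnected_of_eventuallyEq_zero
      (convex_ball _ _).isPreconnected hyb h1 hwb
  have hclo : IsClopen (interior Z) := ⟨hcl, isOpen_interior⟩
  rcases isClopen_iff.1 hclo with h | h
  · have h1 : interior Z = ∅ := h
    rw [hZ, interior_compl, compl_empty_iff] at h1
    exact dense_iff_closure_eq.2 h1
  · have h1 : x₀ ∈ interior Z := by rw [h]; exact mem_univ x₀
    have h2 : x₀ ∈ Z := interior_subset h1
    exact absurd ⟨i₀, h₀⟩ h2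

end

end Crest.Agent.R281.Rk_599
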