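import Crest.Agent.R281.Gal4_257
import Crest.Agent.R281.Rk2_599
import Crest.Agent.R273.FS_333
import Crest.Agent.R266.Osgood

/-!
# Row 281, KAPPA-1 assembly, part 1 (helper975): from rational functions to sections

`hsec P k0 D p` : the polynomial `p` in the affine coordinates `F_l / F_k0`, homogenised with
`F_k0` to the degree `D`: a section of `(lb P) ^ D` (`isHS_hsec`), with
`hsec P k0 D p i x = F_k0 ^ D * aeval (F / F_k0) p` where `F_k0 ≠ 0`.

`exists_sections`: the output of `Gal4_257.exists_rational` gives `r + 1` sections of one power of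
`lb P` whose ratios are constant along the relation and have rank `r` at one point.
-/

set_option autoImplicit false
set_option linter.unusedSectionVars false

open Set Filter Topology Complex

namespace Crest.Agent.R281.Kas_975

open Crest.Agent.R275.Geo Crest.Agent.R275.Core144
open Crest.Agent.R273.Defs_333 Crest.Agent.R273.FS_333 Crest.Agent.R281.Rk_599

noncomputable section

variable {n : ℕ} {M : Type} [TopologicalSpace M] {A : Atl n M}

theorem pow_g (L : LB A) (D : ℕ) (i j : A.ι) (x : M) : (L ^ D).g i j x = L.g i j x ^ D := by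
  induction D with
  | zero => simp
  | succ D ih => rw [pow_succ, LB.mul_g, ih, pow_succ]

section Homog

variable (P : ProjD A) (k0 : Fin (P.N + 1)) {k : Type} [Field k] [Algebra k ℂ]

open Classical in
/-- `p` homogenised with `F_k0` to the degree `D` -/
def hsec (D : ℕ) (p : MvPolynomial (Fin (P.N + 1)) k) : A.ι → M → ℂ := fun i x =>
  if x ∈ (A.e i).source then
    ∑ m ∈ p.support, algebraMap k ℂ (p.coeff m) *
      ((∏ l, P.F i x l ^ m l) * P.F i x k0 ^ (D - ∑ l, m l))
  else 0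

theorem hsec_eq {i : A.ι} {x : M} (hx : x ∈ (A.e i).source) (D : ℕ)
    (p : MvPolynomial (Fin (P.N + 1)) k) : hsec P k0 D p i x =
      ∑ m ∈ p.support, algebraMap k ℂ (p.coeff m) *
        ((∏ l, P.F i x l ^ m l) * P.F i x k0 ^ (D - ∑ l, m l)) := if_pos hx

theorem sum_le_deg {p : MvPolynomial (Fin (P.N + 1)) k} {m : Fin (P.N + 1) →₀ ℕ}
    (hm : m ∈ p.support) : ∑ l, m l ≤ p.totalDegree := by
  have h := MvPolynomial.le_totalDegree hm
  rwa [Finsupp.sum_fintype _ _ (fun _ => rfl)] at h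

theorem isHS_hsec {D : ℕ} {p : MvPolynomial (Fin (P.N + 1)) k} (hD : p.totalDegree ≤ D) :
    IsHS ((lb P) ^ D) univ (hsec P k0 D p) where
  hol i := by
    refine HolAt.congr (f := fun x => ∑ m ∈ p.support, algebraMap k ℂ (p.coeff m) *
      ((∏ l, P.F i x l ^ m l) * P.F i x k0 ^ (D - ∑ l, m l))) ?_
      fun x hx _ => (hsec_eq P k0 hx D p).symm
    refine HolAt.sum _ fun m _ => HolAt.const_mul _ (HolAt.mul ?_ ((P.hol i k0).pow _))
    exact HolAt.prod _ fun l _ => (P.hol i l).pow _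
  off i x hx := if_neg hx
  tr i j x hx _ := by
    rw [hsec_eq P k0 hx.1, hsec_eq P k0 hx.2, pow_g, Finset.mul_sum]
    refine Finset.sum_congr rfl fun m hm => ?_
    have h1 : ∀ l, P.F i x l = gij P i j x * P.F j x l := fun l => congrFun (gij_spec P hx) l
    have h2 : (lb P).g i j x = gij P i j x := rfl
    have h3 : ∑ l, m l + (D - ∑ l, m l) = D :=
      Nat.add_sub_cancel' ((sum_le_deg P hm).trans hD)
    rw [h2]
    have h4 : ∏ l, P.F i x l ^ m l = gij P i j x ^ (∑ l, m l) * ∏ l, P.F j x l ^ m l := by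
      rw [← Finset.prod_pow_eq_pow_sum, ← Finset.prod_mul_distrib]
      exact Finset.prod_congr rfl fun l _ => by rw [h1 l, mul_pow]
    rw [h4, h1 k0, mul_pow]
    calc _ = gij P i j x ^ (∑ l, m l + (D - ∑ l, m l)) * (algebraMap k ℂ (p.coeff m) *
          ((∏ l, P.F j x l ^ m l) * P.F j x k0 ^ (D - ∑ l, m l))) := by rw [pow_add]; ring
      _ = _ := by rw [h3]

/-- the affine reading -/
theorem hsec_aeval {i : A.ι} {x : M} (hx : x ∈ (A.e i).source) (h0 : P.F i x k0 ≠ 0) {D : ℕ}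
    {p : MvPolynomial (Fin (P.N + 1)) k} (hD : p.totalDegree ≤ D) :
    hsec P k0 D p i x =
      P.F i x k0 ^ D * MvPolynomial.aeval (fun l => P.F i x l / P.F i x k0) p := by
  rw [hsec_eq P k0 hx, MvPolynomial.aeval_def, MvPolynomial.eval₂_eq', Finset.mul_sum]
  refine Finset.sum_congr rfl fun m hm => ?_
  have h3 : ∑ l, m l + (D - ∑ l, m l) = D :=
    Nat.add_sub_cancel' ((sum_le_deg P hm).trans hD)
  have h4 : ∏ l, (P.F i x l / P.F i x k0) ^ m l =
      (∏ l, P.F i x l ^ m l) / P.F i x k0 ^ (∑ l, m l) := by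
    rw [← Finset.prod_pow_eq_pow_sum, ← Finset.prod_div_distrib]
    exact Finset.prod_congr rfl fun l _ => div_pow _ _ _
  rw [h4]
  have h5 : P.F i x k0 ^ D = P.F i x k0 ^ (∑ l, m l) * P.F i x k0 ^ (D - ∑ l, m l) := by
    rw [← pow_add, h3]
  rw [h5]
  have h6 : P.F i x k0 ^ (∑ l, m l) ≠ 0 := pow_ne_zero _ h0
  field_simp

end Homog

section Main

variable {E : Type*} [NormedAddCommGroup E] [NormedSpace ℂ E]
variable {k : Type} [Field k] [Algebra k ℂ]

open MvPolynomial

/-- numerators over the common denominator -/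
def num {κ : Type} {r : ℕ} (Pp Qq : Fin r → MvPolynomial κ k) : Fin (r + 1) → MvPolynomial κ k :=
  Fin.cons (∏ j, Qq j) fun a => Pp a * ∏ j ∈ Finset.univ.erase a, Qq j

@[simp] theorem num_zero {κ : Type} {r : ℕ} (Pp Qq : Fin r → MvPolynomial κ k) :
    num Pp Qq 0 = ∏ j, Qq j := rfl

@[simp] theorem num_succ {κ : Type} {r : ℕ} (Pp Qq : Fin r → MvPolynomial κ k) (a : Fin r) :
    num Pp Qq a.succ = Pp a * ∏ j ∈ Finset.univ.erase a, Qq j := rfl

/-- the cross relation passes to the common denominator -/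
theorem num_cross {κ : Type} {r : ℕ} {Pp Qq : Fin r → MvPolynomial κ k} {v w : κ → ℂ}
    (h : ∀ j, aeval v (Pp j) * aeval w (Qq j) = aeval w (Pp j) * aeval v (Qq j))
    (a b : Fin (r + 1)) :
    (∀ j, aeval v (Qq j) ≠ 0) → (∀ j, aeval w (Qq j) ≠ 0) →
    aeval v (num Pp Qq a) * aeval w (num Pp Qq b) =
      aeval w (num Pp Qq a) * aeval v (num Pp Qq b) := by
  intro hv hw
  -- every numerator is `t_a * ∏ Q` with `t_a` the same at `v` and `w`
  have key : ∀ a : Fin (r + 1), ∃ t : ℂ,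
      aeval v (num Pp Qq a) = t * aeval v (∏ j, Qq j) ∧
      aeval w (num Pp Qq a) = t * aeval w (∏ j, Qq j) := by
    intro a
    refine Fin.cases ⟨1, by simp, by simp⟩ (fun a => ⟨aeval v (Pp a) / aeval v (Qq a), ?_, ?_⟩) a
    · rw [num_succ, ← Finset.mul_prod_erase Finset.univ Qq (Finset.mem_univ a), map_mul, map_mul]
      rw [← mul_assoc, div_mul_cancel₀ _ (hv a)]
    · have h1 : aeval v (Pp a) / aeval v (Qq a) = aeval w (Pp a) / aeval w (Qq a) := by
        rw [div_eq_div_iff (hv a) (hw a)]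
        exact h a
      rw [h1, num_succ, ← Finset.mul_prod_erase Finset.univ Qq (Finset.mem_univ a), map_mul,
        map_mul, ← mul_assoc, div_mul_cancel₀ _ (hw a)]
  obtain ⟨t, h1, h2⟩ := key a
  obtain ⟨u, h3, h4⟩ := key b
  rw [h1, h2, h3, h4]
  ring

/-- the cross relation with the denominator, no condition -/
theorem num_cross0 {κ : Type} {r : ℕ} {Pp Qq : Fin r → MvPolynomial κ k} {v w : κ → ℂ}
    (h : ∀ j, aeval v (Pp j) * aeval w (Qq j) = aeval w (Pp j) * aeval v (Qq j))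
    (a : Fin (r + 1)) :
    aeval v (num Pp Qq a) * aeval w (num Pp Qq 0) =
      aeval w (num Pp Qq a) * aeval v (num Pp Qq 0) := by
  refine Fin.cases (by simp [mul_comm]) (fun a => ?_) a
  rw [num_succ, num_zero, ← Finset.mul_prod_erase Finset.univ Qq (Finset.mem_univ a)]
  simp only [map_mul]
  linear_combination (aeval v (∏ j ∈ Finset.univ.erase a, Qq j)) *
    (aeval w (∏ j ∈ Finset.univ.erase a, Qq j)) * h a

/-- **Kas1**: the output of `Gal4_257.exists_rational` as sections of a power of `lb P` -/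
theorem exists_sections (P : ProjD A) (k0 : Fin (P.N + 1)) {Psi : E → M} {U : Set E}
    (hU : IsOpen U) (hc : ContinuousOn Psi U)
    (hh : ∀ i, DifferentiableOn ℂ (fun z => A.e i (Psi z)) (U ∩ Psi ⁻¹' (A.e i).source))
    {φ : E → Fin (P.N + 1) → ℂ}
    (h0 : ∀ z ∈ U, ∀ i, Psi z ∈ (A.e i).source → P.F i (Psi z) k0 ≠ 0)
    (hφ : ∀ z ∈ U, ∀ i, Psi z ∈ (A.e i).source → ∀ l,
      φ z l = P.F i (Psi z) l / P.F i (Psi z) k0)
    {r : ℕ} {Pp Qq : Fin r → MvPolynomial (Fin (P.N + 1)) k} {R : E → E → Prop}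
    (hX : ∀ j, ∀ z ∈ U, ∀ z' ∈ U, R z z' →
      aeval (φ z) (Pp j) * aeval (φ z') (Qq j) = aeval (φ z') (Pp j) * aeval (φ z) (Qq j))
    {z₀ : E} (hz₀ : z₀ ∈ U) (hQ : ∀ j, aeval (φ z₀) (Qq j) ≠ 0)
    (hli : LinearIndependent ℂ
      (fun j => fderiv ℂ (fun z => aeval (φ z) (Pp j) / aeval (φ z) (Qq j)) z₀)) :
    ∃ D : ℕ, 0 < D ∧ ∃ s : Fin (r + 1) → A.ι → M → ℂ,
      (∀ a, IsHS ((lb P) ^ D) univ (s a)) ∧
      (∀ z ∈ U, ∀ z' ∈ U, R z z' → ∀ i i', Psi z ∈ (A.e i).source → Psi z' ∈ (A.e i').source →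
        ∀ a, s a i (Psi z) * s 0 i' (Psi z') = s a i' (Psi z') * s 0 i (Psi z)) ∧
      ∀ i, Psi z₀ ∈ (A.e i).source → Rk A s i (Psi z₀) := by
  classical
  set S := num Pp Qq with hS
  obtain ⟨D, hD0, hD⟩ : ∃ D : ℕ, 0 < D ∧ ∀ a, (S a).totalDegree ≤ D := by
    refine ⟨1 + Finset.univ.sup fun a => (S a).totalDegree, by omega, fun a => ?_⟩
    have := Finset.le_sup (f := fun a => (S a).totalDegree) (Finset.mem_univ a)
    omega
  set s : Fin (r + 1) → A.ι → M → ℂ := fun a => hsec P k0 D (S a) with hs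
  have hval : ∀ z ∈ U, ∀ i, Psi z ∈ (A.e i).source → ∀ a,
      s a i (Psi z) = P.F i (Psi z) k0 ^ D * aeval (φ z) (S a) := by
    intro z hz i hi a
    have h1 : φ z = fun l => P.F i (Psi z) l / P.F i (Psi z) k0 := funext (hφ z hz i hi)
    rw [hs, h1]
    exact hsec_aeval P k0 hi (h0 z hz i hi) (hD a)
  refine ⟨D, hD0, s, fun a => isHS_hsec P k0 (hD a), ?_, ?_⟩
  · intro z hz z' hz' hR i i' hi hi' a
    rw [hval z hz i hi, hval z' hz' i' hi', hval z' hz' i' hi', hval z hz i hi]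
    have h1 := num_cross0 (fun j => hX j z hz z' hz' hR) a
    rw [← hS] at h1
    linear_combination (P.F i (Psi z) k0 ^ D) * (P.F i' (Psi z') k0 ^ D) * h1
  · intro i hi
    have hQ0 : aeval (φ z₀) (S 0) ≠ 0 := by
      rw [hS, num_zero, map_prod]
      exact Finset.prod_ne_zero_iff.2 fun j _ => hQ j
    have hs0 : s 0 i (Psi z₀) ≠ 0 := by
      rw [hval z₀ hz₀ i hi]
      exact mul_ne_zero (pow_ne_zero _ (h0 z₀ hz₀ i hi)) hQ0
    have hHS : ∀ a, IsHS ((lb P) ^ D) univ (s a) := fun a => isHS_hsec P k0 (hD a)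
    refine ⟨hi, hs0, ?_⟩
    have hcz : ContinuousAt Psi z₀ := hc.continuousAt (hU.mem_nhds hz₀)
    have hUi : U ∩ Psi ⁻¹' (A.e i).source ∈ 𝓝 z₀ :=
      inter_mem (hU.mem_nhds hz₀) (hcz ((A.e i).open_source.mem_nhds hi))
    have hd1 : DifferentiableAt ℂ (fun z => A.e i (Psi z)) z₀ := (hh i).differentiableAt hUi
    -- the ratio read on `E`
    have hd2 : ∀ a : Fin r, DifferentiableAt ℂ (rat A s i a) (A.e i (Psi z₀)) := fun a =>
      (analyticAt_rat hHS hi hs0 a).differentiableAt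
    have hev : ∀ a : Fin r, (fun z => aeval (φ z) (Pp a) / aeval (φ z) (Qq a)) =ᶠ[𝓝 z₀]
        fun z => rat A s i a (A.e i (Psi z)) := by
      intro a
      have hsc : ContinuousAt (fun z => s 0 i (Psi z)) z₀ := by
        have h1 : DifferentiableAt ℂ (fun w => s 0 i ((A.e i).symm w)) (A.e i (Psi z₀)) :=
          ((hHS 0).hol i).diffAt isOpen_univ hi (mem_univ _)
        have h2 : ContinuousAt (fun z => (fun w => s 0 i ((A.e i).symm w)) (A.e i (Psi z))) z₀ :=
          ContinuousAt.comp (f := fun z => A.e i (Psi z)) h1.continuousAt hd1.continuousAt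
        refine h2.congr ?_
        filter_upwards [hUi] with z hz
        simp only [(A.e i).left_inv hz.2]
      filter_upwards [hUi, hsc.eventually_ne hs0] with z hz hne
      have hzi : Psi z ∈ (A.e i).source := hz.2
      have h3 : aeval (φ z) (S 0) ≠ 0 := by
        intro h4
        apply hne
        rw [hval z hz.1 i hzi, h4, mul_zero]
      unfold rat
      rw [(A.e i).left_inv hzi, hval z hz.1 i hzi, hval z hz.1 i hzi,
        mul_div_mul_left _ _ (pow_ne_zero _ (h0 z hz.1 i hzi)), hS, num_succ, num_zero,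
        ← Finset.mul_prod_erase Finset.univ Qq (Finset.mem_univ a), map_mul, map_mul]
      rw [hS, num_zero, ← Finset.mul_prod_erase Finset.univ Qq (Finset.mem_univ a), map_mul] at h3
      rw [mul_div_mul_right _ _ (right_ne_zero_of_mul h3)]
    set T : (Cn n →L[ℂ] ℂ) →ₗ[ℂ] (E →L[ℂ] ℂ) :=
      { toFun := fun ψ => ψ.comp (fderiv ℂ (fun z => A.e i (Psi z)) z₀)
        map_add' := fun φ ψ => by ext v; simp
        map_smul' := fun c φ => by ext v; simp } with hT
    refine LinearIndependent.of_comp T ?_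
    have h1 : (⇑T ∘ fun a : Fin r => fderiv ℂ (rat A s i a) (A.e i (Psi z₀))) =
        fun j => fderiv ℂ (fun z => aeval (φ z) (Pp j) / aeval (φ z) (Qq j)) z₀ := by
      funext a
      have h2 : fderiv ℂ (fun z => rat A s i a (A.e i (Psi z))) z₀ =
          (fderiv ℂ (rat A s i a) (A.e i (Psi z₀))).comp
            (fderiv ℂ (fun z => A.e i (Psi z)) z₀) :=
        fderiv_comp z₀ (g := rat A s i a) (f := fun z => A.e i (Psi z)) (hd2 a) hd1
      exact h2.symm.trans (hev a).fderiv_eq.symm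
    rw [h1]
    exact hli

end Main

end

end Crest.Agent.R281.Kas_975
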