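import Crest.Agent.R281.Kas2_975

/-!
# Row 281, KAPPA-1 assembly, part 3 (helper975): holomorphic fibrations with fibres joined by discs

* `sec_zero_on`  : identity theorem for sections along a holomorphic map from a connected open set
* `Fbn A n U f`  : `f : U → ℂⁿ` a holomorphic submersion, any two points of a fibre are joined by a
                   holomorphic disc in the fibre (this is part of `Qt_922.QTube`)
* `cross_fbn`    : the cross relation spreads from an open piece to the whole fibre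
* `FBox`         : a box adapted to `f` around a point (implicit function theorem), `exists_fbox`
* `sections_of_box` : rational functions on the box ⟹ sections of a power of `lb P` with the cross
                   relation on all fibres over a ball and `Rk` at one point
-/

set_option autoImplicit false
set_option linter.unusedSectionVars false

open Set Filter Topology Complex Metric MeasureTheory

noncomputable section

namespace Crest.Agent.R281.Kas_975

open Crest.Agent.R275.Geo Crest.Agent.R275.Core144 Crest.Agent.R275.Loc2879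
open Crest.Agent.R273.Defs_333 Crest.Agent.R273.FS_333 Crest.Agent.R281.Rk_599
open Crest.Agent.R281.Kd_22 Crest.Agent.R281.Gal2_257 Crest.Agent.R281.Gal4_257

variable {N : ℕ} {M : Type} [TopologicalSpace M] {A : Atl N M}

/-! ### identity theorem -/

/-- a section which vanishes near one point of the image of a connected open set vanishes on it -/
theorem sec_zero_on {F : Type*} [NormedAddCommGroup F] [NormedSpace ℂ F] {S : Set F}
    (hS : IsOpen S) (hc : IsPreconnected S) {γ : F → M}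
    (cont : ∀ c ∈ S, ContinuousAt γ c)
    (an : ∀ c ∈ S, ∀ f : M → ℂ, Hm A f (γ c) → AnalyticAt ℂ (fun c' => f (γ c')) c)
    {L : LB A} {t : A.ι → M → ℂ} (ht : IsHS L univ t) {c₀ : F} (hc₀ : c₀ ∈ S)
    (h0 : ∀ᶠ c in 𝓝 c₀, ∀ i, γ c ∈ (A.e i).source → t i (γ c) = 0) :
    ∀ c ∈ S, ∀ i, γ c ∈ (A.e i).source → t i (γ c) = 0 := by
  letI : NormedSpace ℝ F := NormedSpace.complexToReal
  set Z : Set F := {c | ∀ᶠ c' in 𝓝 c, ∀ i, γ c' ∈ (A.e i).source → t i (γ c') = 0} with hZ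
  have hZo : IsOpen Z := by
    rw [isOpen_iff_mem_nhds]
    intro c hc
    exact eventually_eventually_nhds.2 hc
  have hsub : closure Z ∩ S ⊆ Z := by
    rintro c ⟨hcZ, hcS⟩
    obtain ⟨i, hi⟩ := A.cover (γ c)
    have hsrc : ∀ᶠ c' in 𝓝 c, γ c' ∈ (A.e i).source :=
      (cont c hcS) ((A.e i).open_source.mem_nhds hi)
    have h1 : ∀ᶠ c' in 𝓝 c, γ c' ∈ (A.e i).source ∧
        AnalyticAt ℂ (fun c' => t i (γ c')) c' :=
      hsrc.and (an c hcS _ (hm_of_isHS ht hi)).eventually_analyticAt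
    obtain ⟨ε, hε, hball⟩ := Metric.eventually_nhds_iff_ball.1 h1
    obtain ⟨c1, hc1b, hc1Z⟩ := mem_closure_iff.1 hcZ _ isOpen_ball (mem_ball_self hε)
    have h2 : (fun c' => t i (γ c')) =ᶠ[𝓝 c1] 0 := by
      filter_upwards [hc1Z, isOpen_ball.mem_nhds hc1b] with c' hc' hb'
      exact hc' i (hball c' hb').1
    have h3 : EqOn (fun c' => t i (γ c')) 0 (ball c ε) :=
      AnalyticOnNhd.eqOn_zero_of_preconnected_of_eventuallyEq_zero
        (fun c' hc' => (hball c' hc').2) (convex_ball c ε).isPreconnected hc1b h2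
    show ∀ᶠ c' in 𝓝 c, _
    filter_upwards [isOpen_ball.mem_nhds (mem_ball_self hε)] with c' hc' j hj
    have hi' := (hball c' hc').1
    exact (ht.zero_iff ⟨hi', hj⟩ (mem_univ _)).1 (h3 hc')
  have h4 : S ⊆ Z := hc.subset_of_closure_inter_subset hZo ⟨c₀, hc₀, h0⟩ hsub
  intro c hcS
  exact (h4 hcS).self_of_nhds

/-- holomorphic disc of radius `3` -/
structure HDisc (A : Atl N M) (g : ℂ → M) : Prop where
  cont : ContinuousOn g (ball (0 : ℂ) 3)
  hol : ∀ ζ ∈ ball (0 : ℂ) 3, ∀ i, g ζ ∈ (A.e i).source →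
    DifferentiableAt ℂ (fun w => A.e i (g w)) ζ

theorem HDisc.contAt {g : ℂ → M} (h : HDisc A g) {ζ : ℂ} (hζ : ζ ∈ ball (0 : ℂ) 3) :
    ContinuousAt g ζ := h.cont.continuousAt (isOpen_ball.mem_nhds hζ)

theorem HDisc.an {g : ℂ → M} (h : HDisc A g) {ζ : ℂ} (hζ : ζ ∈ ball (0 : ℂ) 3) {f : M → ℂ}
    (hf : Hm A f (g ζ)) : AnalyticAt ℂ (fun w => f (g w)) ζ := by
  obtain ⟨i, hi⟩ := A.cover (g ζ)
  have hsrc0 : ∀ᶠ w in 𝓝 ζ, g w ∈ (A.e i).source :=
    (h.contAt hζ) ((A.e i).open_source.mem_nhds hi)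
  have hsrc : ∀ᶠ w in 𝓝 ζ, g w ∈ (A.e i).source ∧ w ∈ ball (0 : ℂ) 3 :=
    hsrc0.and (isOpen_ball.mem_nhds hζ)
  obtain ⟨O, hO, hOo, hζO⟩ := _root_.eventually_nhds_iff.1 hsrc
  have h1 : AnalyticAt ℂ (fun w => A.e i (g w)) ζ := by
    refine Crest.Agent.R266.SCV.analyticOnNhd_of_differentiableOn hOo (fun w hw => ?_) ζ hζO
    exact (h.hol w (hO w hw).2 i (hO w hw).1).differentiableWithinAt
  refine (AnalyticAt.comp (g := fun z => f ((A.e i).symm z)) (f := fun w => A.e i (g w))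
    (hf i hi) h1).congr ?_
  filter_upwards [hOo.mem_nhds hζO] with w hw
  simp only [Function.comp, (A.e i).left_inv (hO w hw).1]

/-- a section which vanishes along a disc near `0` vanishes at its point `1` -/
theorem disc_zero {g : ℂ → M} (h : HDisc A g) {L : LB A} {t : A.ι → M → ℂ} (ht : IsHS L univ t)
    (h0 : ∀ᶠ ζ in 𝓝 (0 : ℂ), ∀ i, g ζ ∈ (A.e i).source → t i (g ζ) = 0) {i : A.ι}
    (hi : g 1 ∈ (A.e i).source) : t i (g 1) = 0 :=
  sec_zero_on (S := ball (0 : ℂ) 3) isOpen_ball (convex_ball _ _).isPreconnected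
    (fun _ hc => h.contAt hc) (fun _ hc _ hf => h.an hc hf) ht (by simp) h0 1 (by simp) i hi

/-! ### fibrations -/

/-- holomorphic submersion whose fibres are joined by discs -/
structure Fbn (A : Atl N M) (n : ℕ) (U : Set M) (f : M → Cn n) : Prop where
  op : IsOpen U
  cont : ContinuousOn f U
  hol : ∀ i, DifferentiableOn ℂ (fun z => f ((A.e i).symm z))
    ((A.e i).target ∩ (A.e i).symm ⁻¹' U)
  surj : ∀ i, ∀ x ∈ (A.e i).source, x ∈ U →
    Function.Surjective (fderiv ℂ (fun z => f ((A.e i).symm z)) (A.e i x))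
  disc : ∀ x ∈ U, ∀ z ∈ U, f x = f z → ∃ g : ℂ → M, HDisc A g ∧
    (∀ ζ ∈ ball (0 : ℂ) 3, g ζ ∈ U ∧ f (g ζ) = f x) ∧ g 0 = z ∧ g 1 = x

variable {n : ℕ} {U : Set M} {f : M → Cn n}

/-- a section which vanishes on an open piece of a fibre vanishes on the fibre -/
theorem Fbn.zero (H : Fbn A n U f) {L : LB A} {t : A.ι → M → ℂ} (ht : IsHS L univ t) {z₀ : M}
    (hz₀ : z₀ ∈ U) (h0 : ∀ᶠ y in 𝓝 z₀, f y = f z₀ → ∀ i, y ∈ (A.e i).source → t i y = 0)
    {x : M} (hx : x ∈ U) (hxz : f x = f z₀) (i : A.ι) (hi : x ∈ (A.e i).source) : t i x = 0 := by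
  obtain ⟨g, hg, hgT, hg0, hg1⟩ := H.disc x hx z₀ hz₀ hxz
  subst hg1
  refine disc_zero hg ht ?_ hi
  have h1 : Tendsto g (𝓝 0) (𝓝 z₀) := by
    have := (hg.contAt (ζ := 0) (by simp)).tendsto
    rwa [hg0] at this
  filter_upwards [h1.eventually h0, isOpen_ball.mem_nhds (show (0 : ℂ) ∈ ball (0 : ℂ) 3 by simp)]
    with ζ h2 h3 j hj
  exact h2 ((hgT ζ h3).2.trans hxz) j hj

/-- the cross relation spreads from an open piece of a fibre to the fibre -/
theorem Fbn.cross (H : Fbn A n U f) {L : LB A} {s s₀ : A.ι → M → ℂ} (hs : IsHS L univ s)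
    (hs₀ : IsHS L univ s₀) {z₀ : M} (hz₀ : z₀ ∈ U) {O : Set M} (hO : O ∈ 𝓝 z₀)
    (hX : ∀ y ∈ O, ∀ y' ∈ O, f y = f z₀ → f y' = f z₀ → ∀ i i', y ∈ (A.e i).source →
      y' ∈ (A.e i').source → s i y * s₀ i' y' = s i' y' * s₀ i y)
    {x x' : M} (hx : x ∈ U) (hx' : x' ∈ U) (hxz : f x = f z₀) (hxz' : f x' = f z₀) (i i' : A.ι)
    (hi : x ∈ (A.e i).source) (hi' : x' ∈ (A.e i').source) :
    s i x * s₀ i' x' = s i' x' * s₀ i x := by
  have h1 : ∀ y' ∈ O, f y' = f z₀ → ∀ i', y' ∈ (A.e i').source → ∀ x ∈ U, f x = f z₀ → ∀ i,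
      x ∈ (A.e i).source → s i x * s₀ i' y' = s i' y' * s₀ i x := by
    intro y' hy' hfy' i' hi' x hx hxz i hi
    have ht : IsHS L univ (s₀ i' y' • s + (-(s i' y')) • s₀) := (hs.smul _).add (hs₀.smul _)
    have h2 := H.zero ht hz₀ (by
      filter_upwards [hO] with y hy hfy j hj
      have := hX y hy y' hy' hfy hfy' j i' hj hi'
      simp only [Pi.add_apply, Pi.smul_apply, smul_eq_mul]
      linear_combination this) hx hxz i hi
    simp only [Pi.add_apply, Pi.smul_apply, smul_eq_mul] at h2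
    linear_combination h2
  have ht : IsHS L univ (s₀ i x • s + (-(s i x)) • s₀) := (hs.smul _).add (hs₀.smul _)
  have h2 := H.zero ht hz₀ (by
    filter_upwards [hO] with y hy hfy j hj
    have := h1 y hy hfy j hj x hx hxz i hi
    simp only [Pi.add_apply, Pi.smul_apply, smul_eq_mul]
    linear_combination -this) hx' hxz' i' hi'
  simp only [Pi.add_apply, Pi.smul_apply, smul_eq_mul] at h2
  linear_combination -h2

/-! ### a box adapted to a fibration -/

/-- a box around `x₁` adapted to `f` -/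
structure FBox (A : Atl N M) {n : ℕ} (U : Set M) (f : M → Cn n) (E₂ : Type)
    [NormedAddCommGroup E₂] [NormedSpace ℂ E₂] (x₁ : M) where
  i : A.ι
  r : ℝ
  hr : 0 < r
  Psi : Cn n × E₂ → M
  χ : M → Cn n × E₂
  src : ∀ z ∈ ball (f x₁, (0 : E₂)) r, Psi z ∈ (A.e i).source
  memU : ∀ z ∈ ball (f x₁, (0 : E₂)) r, Psi z ∈ U
  val : ∀ z ∈ ball (f x₁, (0 : E₂)) r, f (Psi z) = z.1
  an : AnalyticOnNhd ℂ (fun z => A.e i (Psi z)) (ball (f x₁, (0 : E₂)) r)
  inv : ∀ z ∈ ball (f x₁, (0 : E₂)) r, ∀ᶠ y in 𝓝 (Psi z), χ y ∈ ball (f x₁, (0 : E₂)) r ∧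
    Psi (χ y) = y ∧ (χ y).1 = f y
  base : Psi (f x₁, 0) = x₁

/-- **the implicit function theorem** -/
theorem exists_fbox (H : Fbn A n U f) {x₁ : M} (hx₁ : x₁ ∈ U) (ρ : M → Prop)
    (hρ : ∀ᶠ y in 𝓝 x₁, ρ y) : ∃ (E₂ : Submodule ℂ (Cn N)) (b : FBox A U f E₂ x₁),
      ∀ z ∈ ball (f x₁, (0 : E₂)) b.r, ρ (b.Psi z) := by
  obtain ⟨i, hi⟩ := A.cover x₁
  set a := A.e i x₁ with ha
  have hsa : (A.e i).symm a = x₁ := (A.e i).left_inv hi
  have hat : a ∈ (A.e i).target := (A.e i).map_source hi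
  set φ : Cn N → Cn n := fun z => f ((A.e i).symm z) with hφ
  have hop : IsOpen ((A.e i).target ∩ (A.e i).symm ⁻¹' U) := isOpen_ti H.op
  have hmem : a ∈ (A.e i).target ∩ (A.e i).symm ⁻¹' U := ⟨hat, by
    rw [mem_preimage, hsa]; exact hx₁⟩
  have hφa : AnalyticAt ℂ φ a :=
    Crest.Agent.R266.SCV.analyticOnNhd_of_differentiableOn hop (H.hol i) a hmem
  set D : Cn N →L[ℂ] Cn n := fderiv ℂ φ a with hD
  have hDs : Function.Surjective D := H.surj i x₁ hi hx₁
  set E₂ : Submodule ℂ (Cn N) := LinearMap.ker (D : Cn N →ₗ[ℂ] Cn n) with hE₂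
  obtain ⟨π₀, hπ₀⟩ := E₂.subtype.exists_leftInverse_of_injective (by simp)
  set π : Cn N →L[ℂ] E₂ := LinearMap.toContinuousLinearMap π₀ with hπ
  have hπi : ∀ w : E₂, π (w : Cn N) = w := fun w => LinearMap.congr_fun hπ₀ w
  set G : Cn N → Cn n × E₂ := fun z => (φ z, π (z - a)) with hG
  have hGa : AnalyticAt ℂ G a :=
    hφa.prod ((π.analyticAt _).comp (analyticAt_id.sub analyticAt_const))
  have hGd : HasFDerivAt G (D.prod π) a := by
    have h1 : HasFDerivAt φ D a := hφa.differentiableAt.hasFDerivAt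
    have h2 : HasFDerivAt (fun z => π (z - a)) π a := by
      have h3 : HasFDerivAt (fun z : Cn N => z - a) (ContinuousLinearMap.id ℂ (Cn N)) a :=
        (hasFDerivAt_id a).sub_const a
      have h4 := (π.hasFDerivAt (x := a - a)).comp (f := fun z : Cn N => z - a) a h3
      rwa [ContinuousLinearMap.comp_id] at h4
    exact h1.prodMk h2
  have hinj : Function.Injective (D.prod π) := by
    rw [injective_iff_map_eq_zero]
    intro v hv
    have h1 : D v = 0 := congrArg Prod.fst hv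
    have h2 : π v = 0 := congrArg Prod.snd hv
    have h3 : v ∈ E₂ := h1
    have h4 := hπi ⟨v, h3⟩
    simp only at h4
    rw [h2] at h4
    exact (congrArg Subtype.val h4).symm
  have hsurj : Function.Surjective (D.prod π) := by
    rintro ⟨u, w⟩
    obtain ⟨v, hv⟩ := hDs u
    refine ⟨v - (π v : Cn N) + (w : Cn N), ?_⟩
    have h1 : ∀ e : E₂, D (e : Cn N) = 0 := fun e => e.2
    refine Prod.ext ?_ ?_
    · show D (v - (π v : Cn N) + (w : Cn N)) = u
      rw [map_add, map_sub, h1, h1, hv, sub_zero, add_zero]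
    · show π (v - (π v : Cn N) + (w : Cn N)) = w
      rw [map_add, map_sub, hπi, hπi, sub_self, zero_add]
  have _ : CompleteSpace E₂ := FiniteDimensional.complete ℂ E₂
  let D' : Cn N ≃L[ℂ] (Cn n × E₂) := ContinuousLinearEquiv.ofBijective (D.prod π)
    (LinearMap.ker_eq_bot.2 hinj) (LinearMap.range_eq_top.2 hsurj)
  have hGd' : HasFDerivAt G (D' : Cn N →L[ℂ] (Cn n × E₂)) a := by
    have : (D' : Cn N →L[ℂ] (Cn n × E₂)) = D.prod π := ContinuousLinearMap.ext fun _ => rfl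
    rw [this]
    exact hGd
  have hGc : ContDiffAt ℂ ⊤ G a := hGa.contDiffAt
  set e := hGc.toOpenPartialHomeomorph G hGd' (by simp) with he
  have hea : a ∈ e.source := hGc.mem_toOpenPartialHomeomorph_source hGd' (by simp)
  have heG : ∀ z, e z = G z := fun z => rfl
  have hGa0 : G a = (f x₁, 0) := by
    simp only [hG, hφ, hsa, sub_self, map_zero]
  have het : (f x₁, (0 : E₂)) ∈ e.target := by
    rw [← hGa0]
    exact hGc.image_mem_toOpenPartialHomeomorph_target hGd' (by simp)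
  have hes : e.symm (f x₁, 0) = a := by
    rw [← hGa0]
    exact e.left_inv hea
  have hsan : AnalyticAt ℂ e.symm (f x₁, (0 : E₂)) := by
    have h1 : ContDiffAt ℂ ⊤ (hGc.localInverse hGd' (by simp)) (G a) :=
      hGc.to_localInverse hGd' (by simp)
    rw [hGa0] at h1
    exact h1.analyticAt
  -- shrink
  have hev : ∀ᶠ z in 𝓝 (f x₁, (0 : E₂)), z ∈ e.target ∧ AnalyticAt ℂ e.symm z ∧
      e.symm z ∈ (A.e i).target ∩ (A.e i).symm ⁻¹' U ∧ ρ ((A.e i).symm (e.symm z)) := by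
    have h1 : ∀ᶠ z in 𝓝 (f x₁, (0 : E₂)), z ∈ e.target := e.open_target.mem_nhds het
    have h2 := hsan.eventually_analyticAt
    have h3 : ∀ᶠ z in 𝓝 (f x₁, (0 : E₂)), e.symm z ∈ (A.e i).target ∩ (A.e i).symm ⁻¹' U :=
      hsan.continuousAt.preimage_mem_nhds (by rw [hes]; exact hop.mem_nhds hmem)
    have h4 : ContinuousAt (fun z => (A.e i).symm (e.symm z)) (f x₁, (0 : E₂)) := by
      refine ContinuousAt.comp (g := (A.e i).symm) ?_ hsan.continuousAt
      rw [hes]
      exact (A.e i).continuousAt_symm hat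
    have h5 : ∀ᶠ z in 𝓝 (f x₁, (0 : E₂)), ρ ((A.e i).symm (e.symm z)) := by
      have h6 : Tendsto (fun z => (A.e i).symm (e.symm z)) (𝓝 (f x₁, (0 : E₂))) (𝓝 x₁) := by
        have := h4.tendsto
        simp only [hes, hsa] at this
        exact this
      exact h6.eventually hρ
    filter_upwards [h1, h2, h3, h5] with z a1 a2 a3 a4
    exact ⟨a1, a2, a3, a4⟩
  obtain ⟨r, hr, hball⟩ := Metric.eventually_nhds_iff_ball.1 hev
  refine ⟨E₂, {
    i := i
    r := r
    hr := hr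
    Psi := fun z => (A.e i).symm (e.symm z)
    χ := fun y => G (A.e i y)
    src := fun z hz => (A.e i).map_target (hball z hz).2.2.1.1
    memU := fun z hz => (hball z hz).2.2.1.2
    val := fun z hz => ?_
    an := fun z hz => ?_
    inv := fun z hz => ?_
    base := ?_ }, fun z hz => (hball z hz).2.2.2⟩
  · have h1 : G (e.symm z) = z := e.right_inv (hball z hz).1
    have h2 := congrArg Prod.fst h1
    exact h2
  · refine (hball z hz).2.1.congr ?_
    filter_upwards [isOpen_ball.mem_nhds hz] with z' hz'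
    exact ((A.e i).right_inv (hball z' hz').2.2.1.1).symm
  · -- local surjectivity
    obtain ⟨h1, h2, h3, -⟩ := hball z hz
    have hy : (A.e i).symm (e.symm z) ∈ (A.e i).source := (A.e i).map_target h3.1
    have hcy : ContinuousAt (A.e i) ((A.e i).symm (e.symm z)) := (A.e i).continuousAt hy
    have hval : A.e i ((A.e i).symm (e.symm z)) = e.symm z := (A.e i).right_inv h3.1
    have hes' : e.symm z ∈ e.source := e.map_target h1
    have hsrc : ∀ᶠ y in 𝓝 ((A.e i).symm (e.symm z)), A.e i y ∈ e.source :=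
      hcy.preimage_mem_nhds (by rw [hval]; exact e.open_source.mem_nhds hes')
    have hGc' : ContinuousAt (fun y => e (A.e i y)) ((A.e i).symm (e.symm z)) := by
      refine ContinuousAt.comp (g := e) ?_ hcy
      rw [hval]
      exact e.continuousAt hes'
    have hbl : ∀ᶠ y in 𝓝 ((A.e i).symm (e.symm z)), e (A.e i y) ∈ ball (f x₁, (0 : E₂)) r :=
      hGc'.preimage_mem_nhds (by
        rw [hval, e.right_inv h1]; exact isOpen_ball.mem_nhds hz)
    filter_upwards [hsrc, hbl, (A.e i).open_source.mem_nhds hy] with y a1 a2 a3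
    refine ⟨a2, ?_, ?_⟩
    · have h5 : e.symm (G (A.e i y)) = A.e i y := e.left_inv a1
      show (A.e i).symm (e.symm (G (A.e i y))) = y
      rw [h5, (A.e i).left_inv a3]
    · show f ((A.e i).symm (A.e i y)) = f y
      rw [(A.e i).left_inv a3]
  · show (A.e i).symm (e.symm (f x₁, 0)) = x₁
    rw [hes, hsa]

/-! ### rational functions on a box -/

section Sec

variable {E₂ : Type} [NormedAddCommGroup E₂] [NormedSpace ℂ E₂] {x₁ : M}

theorem FBox.contAt (b : FBox A U f E₂ x₁) {z : Cn n × E₂} (hz : z ∈ ball (f x₁, (0 : E₂)) b.r) :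
    ContinuousAt b.Psi z := by
  have h1 : ContinuousAt (fun z => (A.e b.i).symm (A.e b.i (b.Psi z))) z := by
    refine ContinuousAt.comp (g := (A.e b.i).symm) ?_ (b.an z hz).continuousAt
    exact (A.e b.i).continuousAt_symm ((A.e b.i).map_source (b.src z hz))
  refine h1.congr ?_
  filter_upwards [isOpen_ball.mem_nhds hz] with w hw
  exact (A.e b.i).left_inv (b.src w hw)

theorem FBox.pull (b : FBox A U f E₂ x₁) {z : Cn n × E₂} (hz : z ∈ ball (f x₁, (0 : E₂)) b.r)
    {h : M → ℂ} (hh : Hm A h (b.Psi z)) : AnalyticAt ℂ (fun w => h (b.Psi w)) z := by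
  refine (AnalyticAt.comp (g := fun w => h ((A.e b.i).symm w)) (f := fun w => A.e b.i (b.Psi w))
    (hh b.i (b.src z hz)) (b.an z hz)).congr ?_
  filter_upwards [isOpen_ball.mem_nhds hz] with w hw
  simp only [Function.comp, (A.e b.i).left_inv (b.src w hw)]

/-- the affine coordinates on a box -/
def FBox.aff (b : FBox A U f E₂ x₁) (P : ProjD A) (k0 : Fin (P.N + 1)) (z : Cn n × E₂) :
    Fin (P.N + 1) → ℂ := fun l => P.F b.i (b.Psi z) l / P.F b.i (b.Psi z) k0

theorem FBox.aff_an (b : FBox A U f E₂ x₁) (P : ProjD A) {k0 : Fin (P.N + 1)}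
    (h0 : ∀ z ∈ ball (f x₁, (0 : E₂)) b.r, P.F b.i (b.Psi z) k0 ≠ 0) :
    AnalyticOnNhd ℂ (b.aff P k0) (ball (f x₁, (0 : E₂)) b.r) := by
  intro z hz
  unfold FBox.aff
  rw [analyticAt_pi_iff]
  intro l
  have hF : ∀ l, Hm A (fun x => P.F b.i x l) (b.Psi z) := fun l =>
    hm_of_holAt (P.hol b.i l) isOpen_univ (b.src z hz) (mem_univ _)
  exact (b.pull hz (hF l)).div (b.pull hz (hF k0)) (h0 z hz)

variable {k : Type} [Field k] [Algebra k ℂ]

open MvPolynomial

/-- **rational functions on a box give sections of a power of `lb P`**, with the cross relation on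
all the fibres over a ball -/
theorem sections_of_box (H : Fbn A n U f) (P : ProjD A) (b : FBox A U f E₂ x₁)
    {k0 : Fin (P.N + 1)} (h0 : ∀ z ∈ ball (f x₁, (0 : E₂)) b.r, P.F b.i (b.Psi z) k0 ≠ 0)
    {r : ℕ} {Pp Qq : Fin r → MvPolynomial (Fin (P.N + 1)) k}
    (hX : ∀ j, ∀ z ∈ ball (f x₁, (0 : E₂)) b.r, ∀ z' ∈ ball (f x₁, (0 : E₂)) b.r, z.1 = z'.1 →
      aeval (b.aff P k0 z) (Pp j) * aeval (b.aff P k0 z') (Qq j) =
        aeval (b.aff P k0 z') (Pp j) * aeval (b.aff P k0 z) (Qq j))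
    {z₀ : Cn n × E₂} (hz₀ : z₀ ∈ ball (f x₁, (0 : E₂)) b.r)
    (hQ : ∀ j, aeval (b.aff P k0 z₀) (Qq j) ≠ 0)
    (hli : LinearIndependent ℂ
      (fun j => fderiv ℂ (fun z => aeval (b.aff P k0 z) (Pp j) / aeval (b.aff P k0 z) (Qq j)) z₀)) :
    ∃ D : ℕ, 0 < D ∧ ∃ s : Fin (r + 1) → A.ι → M → ℂ,
      (∀ a, IsHS ((lb P) ^ D) univ (s a)) ∧
      (∀ a, ∀ x ∈ U, ∀ x' ∈ U, f x ∈ ball (f x₁) b.r → f x' = f x → ∀ i i', x ∈ (A.e i).source →
        x' ∈ (A.e i').source → s a i x * s 0 i' x' = s a i' x' * s 0 i x) ∧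
      ∀ i, b.Psi z₀ ∈ (A.e i).source → Rk A s i (b.Psi z₀) := by
  set V : Set (Cn n × E₂) := ball (f x₁, (0 : E₂)) b.r with hV
  have hchart : ∀ z ∈ V, ∀ i, b.Psi z ∈ (A.e i).source →
      ∃ c : ℂ, c ≠ 0 ∧ P.F b.i (b.Psi z) = c • P.F i (b.Psi z) := by
    intro z hz i hi
    obtain ⟨c, hc⟩ := P.tr b.i i (b.Psi z) ⟨b.src z hz, hi⟩
    refine ⟨c, ?_, hc⟩
    rintro rfl
    apply h0 z hz
    rw [hc, zero_smul]; rfl
  have h0' : ∀ z ∈ V, ∀ i, b.Psi z ∈ (A.e i).source → P.F i (b.Psi z) k0 ≠ 0 := by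
    intro z hz i hi h
    obtain ⟨c, -, hc⟩ := hchart z hz i hi
    apply h0 z hz
    rw [hc, Pi.smul_apply, h, smul_zero]
  have hφeq : ∀ z ∈ V, ∀ i, b.Psi z ∈ (A.e i).source → ∀ l,
      b.aff P k0 z l = P.F i (b.Psi z) l / P.F i (b.Psi z) k0 := by
    intro z hz i hi l
    obtain ⟨c, hc0, hc⟩ := hchart z hz i hi
    unfold FBox.aff
    rw [hc, Pi.smul_apply, Pi.smul_apply, smul_eq_mul, smul_eq_mul, mul_div_mul_left _ _ hc0]
  obtain ⟨D, hD, s, hs, hcross, hrk⟩ := exists_sections (k := k) P k0 (Psi := b.Psi) isOpen_ball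
    (fun z hz => (b.contAt hz).continuousWithinAt)
    (fun i z hz => by
      have h2 : DifferentiableAt ℂ (fun z => A.e i (b.Psi z)) z := by
        rw [differentiableAt_euclidean]
        intro a
        have h3 : Hm A (fun x => A.e i x a) (b.Psi z) :=
          hm_chart (φ := fun w : Cn N => w a) hz.2
            ((EuclideanSpace.proj (𝕜 := ℂ) (ι := Fin N) a).analyticAt _)
        exact (b.pull hz.1 h3).differentiableAt
      exact h2.differentiableWithinAt)
    h0' hφeq (R := fun z z' => z.1 = z'.1) hX hz₀ hQ hli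
  refine ⟨D, hD, s, hs, ?_, hrk⟩
  intro a x hx x' hx' hxb hxx i i' hi hi'
  -- the point of the box over `f x`
  have hzb : (f x, (0 : E₂)) ∈ V := by
    rw [hV, ← ball_prod_same]
    exact ⟨hxb, mem_ball_self b.hr⟩
  have hfz : f (b.Psi (f x, 0)) = f x := b.val _ hzb
  refine H.cross (hs a) (hs 0) (b.memU _ hzb) (b.inv _ hzb) ?_ hx hx' hfz.symm
    (hxx.trans hfz.symm) i i' hi hi'
  rintro y ⟨hy1, hy2, hy3⟩ y' ⟨hy1', hy2', hy3'⟩ hfy hfy' j j' hj hj'
  rw [← hy2] at hj ⊢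
  rw [← hy2'] at hj' ⊢
  exact hcross _ hy1 _ hy1' (by rw [hy3, hy3', hfy, hfy']) j j' hj hj' a

end Sec

end Crest.Agent.R281.Kas_975
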