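import Crest.Agent.R281.Pjx1_648
import Crest.Agent.R281.Cdr6_234
import Crest.Agent.R281.HkR9_835
import Crest.Agent.R272.Kod8_410

/-!
# R281 (S0424), G26 PROJ-x (helper648), part 2: an integral Kaehler form of a hyperkaehler triple

* `cp_of_hol`  : holomorphic charts for an almost complex structure, change of atlas
* `hol_of_cp`  : two holomorphic atlases for the same almost complex structure
* `met H hA`   : the Kaehler metric of the triple `H` on a holomorphic atlas `A` of `J 0`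
* `met_tr`     : its law under a change of atlas
* `proj_on`    : `IntF (c • H.om 0)`, `c > 0` ==> on a refinement `A'` of `A` there is a line bundle
                 with a metric of curvature exactly `π c (met H hA')`, hence positive
* `proj_of_int`: the same without a given atlas, + `ProjD`
-/

set_option autoImplicit false
set_option linter.unusedSectionVars false
set_option maxSynthPendingDepth 3

open Set Filter Topology Complex
open scoped ContDiff Matrix ComplexConjugate ComplexOrder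

namespace Crest.Agent.R281.Pjx_648

open Crest.Agent.R281.HkR_835 Crest.Agent.R281.Dif_268 Crest.Agent.R281.Cdr_234
open Crest.Agent.R281.Ti_846 (Ex)
open Crest.Agent.R275.Geo Crest.Agent.R275.Core144 Crest.Agent.R275.GC293 Crest.Agent.R275.EDR890
open Crest.Agent.R273
open Crest.Agent.R273.Defs_333 Crest.Agent.R273.Hess_333 Crest.Agent.R273.HessB_333
open Crest.Agent.R273.Map_835 (HolMap dm Jp mem_dm holMap_id Jp_comp)
open Crest.Agent.R273.PB_835 (LBih Ref)
open Crest.Agent.R273.Kah_333 (Kah cur)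
open Crest.Agent.R273.FS_333 (lb)
open Crest.Agent.R260.ACM_580 Crest.Agent.R260.NNB_580

noncomputable section

variable {d : ℕ} {X V : Type} [TopologicalSpace X] [NormedAddCommGroup V] [NormedSpace ℝ V]
  {A A' : Atl d X}

/-! ### holomorphic atlases of an almost complex structure -/

/-- two holomorphic atlases of the same almost complex structure -/
theorem hol_of_cp {Cm : ACM V X} (hA : Cp Cm A) (hA' : Cp Cm A') : HolMap A' A id :=
  ⟨continuous_id, fun i j => (hA' i).holo (hA j)⟩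

/-- a holomorphically compatible atlas is a holomorphic atlas -/
theorem cp_of_hol {Cm : ACM V X} (hA : Cp Cm A) (h : HolMap A' A id) (h' : HolMap A A' id) :
    Cp Cm A' := by
  intro a
  have key : ∀ i, ∀ z ∈ ovr Cm i (A'.e a), ∃ b : A.ι, z ∈ ovr Cm i (A.e b) ∧
      A.e b ((Cm.e i).symm z) ∈ dm A A' id b a ∧
      (fun z => A'.e a ((Cm.e i).symm z)) =ᶠ[𝓝 z]
        (Map_835.rd A A' id b a) ∘ (fun z => A.e b ((Cm.e i).symm z)) := by
    intro i z hz
    obtain ⟨b, hb⟩ := A.cover ((Cm.e i).symm z)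
    refine ⟨b, ⟨hz.1, hb⟩, mem_dm hb hz.2, ?_⟩
    filter_upwards [(isOpen_ovr i (A.e b)).mem_nhds (show z ∈ ovr Cm i (A.e b) from ⟨hz.1, hb⟩)]
      with w hw
    simp only [Function.comp, Map_835.rd, id]
    rw [(A.e b).left_inv hw.2]
  refine ⟨fun i z hz => ?_, fun i z hz => ?_, fun i z hz v => ?_⟩
  · obtain ⟨b, hb, hd, he⟩ := key i z hz
    have h1 : ContDiffAt ℝ ∞ (fun z => A.e b ((Cm.e i).symm z)) z :=
      ((hA b).sm i).contDiffAt ((isOpen_ovr i (A.e b)).mem_nhds hb)
    have h2 := KpK_487.rd_smooth h' hd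
    exact ((h2.comp z h1).congr_of_eventuallyEq he).contDiffWithinAt
  · obtain ⟨b, hb⟩ := A.cover ((A'.e a).symm z)
    have hd : z ∈ dm A' A id a b := ⟨hz.1, hb⟩
    have h1 := KpK_487.rd_smooth h hd
    have h2 : A.e b ((A'.e a).symm z) ∈ ovc Cm i (A.e b) := mem_ovc_of_source hb hz.2
    have h3 : ContDiffAt ℝ ∞ (fun z => Cm.e i ((A.e b).symm z))
        (Map_835.rd A' A id a b z) :=
      ((hA b).sm' i).contDiffAt ((isOpen_ovc i (A.e b)).mem_nhds h2)
    have he : (fun z => Cm.e i ((A'.e a).symm z)) =ᶠ[𝓝 z]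
        (fun z => Cm.e i ((A.e b).symm z)) ∘ (Map_835.rd A' A id a b) := by
      filter_upwards [(h.isOpen_dm a b).mem_nhds hd] with w hw
      have hw2 : (A'.e a).symm w ∈ (A.e b).source := hw.2
      simp only [Function.comp, Map_835.rd, id]
      rw [(A.e b).left_inv hw2]
    exact ((h3.comp z h1).congr_of_eventuallyEq he).contDiffWithinAt
  · obtain ⟨b, hb, hd, he⟩ := key i z hz
    have h1 : DifferentiableAt ℝ (fun z => A.e b ((Cm.e i).symm z)) z := (hA b).diffAt hb
    have h2 := h'.diffAt hd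
    have h3 : HasFDerivAt (fun z => A'.e a ((Cm.e i).symm z))
        ((fderiv ℝ (Map_835.rd A A' id b a) (A.e b ((Cm.e i).symm z))).comp
          (fderiv ℝ (fun z => A.e b ((Cm.e i).symm z)) z)) z :=
      (HasFDerivAt.comp z (g := Map_835.rd A A' id b a)
        (f := fun z => A.e b ((Cm.e i).symm z))
        (h2.restrictScalars ℝ).hasFDerivAt h1.hasFDerivAt).congr_of_eventuallyEq he
    rw [h3.fderiv, ContinuousLinearMap.comp_apply, ContinuousLinearMap.comp_apply,
      (hA b).lin i z hb v]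
    exact fderiv_real_I h2 _

/-! ### the Kaehler metric of a triple -/

variable {C : RCh V X}

/-- the Kaehler metric of the triple on a holomorphic atlas of its first complex structure -/
def met (H : HkT C) (hA : Cp (H.acm 0) A) : Kah A :=
  ((cmp_of_cp hA).hk H).K0 fun i _ hz v => hk_J_I hA i hz v

/-- change of the complex charts for the transported forms -/
theorem F_rd (hc : Cmp C (ofAtl A)) (hc' : Cmp C (ofAtl A')) (h : HolMap A' A id) (w : F2 C)
    {k : A'.ι} {i : A.ι} {z : Cn d} (hz : z ∈ dm A' A id k i) (u v : Cn d) :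
    (hc'.F w).w k z u v = (hc.F w).w i (Map_835.rd A' A id k i z)
      (fderiv ℝ (Map_835.rd A' A id k i) z u) (fderiv ℝ (Map_835.rd A' A id k i) z v) := by
  have hzi : (A'.e k).symm z ∈ (A.e i).source := hz.2
  obtain ⟨j, hj⟩ := C.cover ((A'.e k).symm z)
  have h1 : z ∈ mov C (ofAtl A') j k := ⟨hz.1, hj⟩
  have h2 : Map_835.rd A' A id k i z ∈ mov C (ofAtl A) j i := by
    refine ⟨(A.e i).map_source hzi, ?_⟩
    show (A.e i).symm (A.e i ((A'.e k).symm z)) ∈ (C.e j).source
    rw [(A.e i).left_inv hzi]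
    exact hj
  have h3 : DifferentiableAt ℝ (Map_835.rd A' A id k i) z := (h.diffAt hz).restrictScalars ℝ
  have h4 : DifferentiableAt ℝ (mt C (ofAtl A) j i) (Map_835.rd A' A id k i z) := hc.diff h2
  have h5 : mt C (ofAtl A') j k =ᶠ[𝓝 z]
      (mt C (ofAtl A) j i) ∘ (Map_835.rd A' A id k i) := by
    filter_upwards [(h.isOpen_dm k i).mem_nhds hz] with y hy
    have hy2 : (A'.e k).symm y ∈ (A.e i).source := hy.2
    show C.e j ((A'.e k).symm y) = C.e j ((A.e i).symm (A.e i ((A'.e k).symm y)))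
    rw [(A.e i).left_inv hy2]
  have h6 : HasFDerivAt (mt C (ofAtl A') j k)
      ((fderiv ℝ (mt C (ofAtl A) j i) (Map_835.rd A' A id k i z)).comp
        (fderiv ℝ (Map_835.rd A' A id k i) z)) z :=
    (HasFDerivAt.comp z (g := mt C (ofAtl A) j i) (f := Map_835.rd A' A id k i)
      h4.hasFDerivAt h3.hasFDerivAt).congr_of_eventuallyEq h5
  rw [hc'.F_w w h1, hc.F_w w h2, h6.fderiv, h5.eq_of_nhds]
  rfl

/-- the Kaehler metric of the triple under a change of the holomorphic atlas -/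
theorem met_tr (H : HkT C) (hA : Cp (H.acm 0) A) (hA' : Cp (H.acm 0) A') {k : A'.ι} {i : A.ι}
    {y : X} (hk : y ∈ (A'.e k).source) (hi : y ∈ (A.e i).source) :
    (met H hA').g k y =
      (Jp A' A id k i y)ᵀ * (met H hA).g i y * (Jp A' A id k i y).map conj := by
  have h : HolMap A' A id := hol_of_cp hA hA'
  set z := A'.e k y with hz
  have hzt : z ∈ (A'.e k).target := (A'.e k).map_source hk
  have hd : z ∈ dm A' A id k i := mem_dm hk hi
  have hy : (A'.e k).symm z = y := (A'.e k).left_inv hk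
  have hr : Map_835.rd A' A id k i z = A.e i y := KpK_487.rd_val hk
  have hrt : A.e i y ∈ (A.e i).target := (A.e i).map_source hi
  apply hb_ext
  intro u v
  have i1 : ∀ a b : Cn d, (((cmp_of_cp hA').hk H).om 0).w k z (I • a) (I • b) =
      (((cmp_of_cp hA').hk H).om 0).w k z a b := fun a b =>
    om0_inv _ (fun i _ hz v => hk_J_I hA' i hz v) hzt a b
  have i2 : ∀ a b : Cn d, (((cmp_of_cp hA).hk H).om 0).w i (A.e i y) (I • a) (I • b) =
      (((cmp_of_cp hA).hk H).om 0).w i (A.e i y) a b := fun a b =>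
    om0_inv _ (fun i _ hz v => hk_J_I hA i hz v) hrt a b
  have e1 : (met H hA').g k y = GB ((((cmp_of_cp hA').hk H).om 0).w k z) := rfl
  have e2 : (met H hA).g i y = GB ((((cmp_of_cp hA).hk H).om 0).w i (A.e i y)) := rfl
  have f1 := fderiv_rd h hd u
  have f2 := fderiv_rd h hd v
  rw [hy] at f1 f2
  rw [e1, ← hw_eq i1, e2, ← hb_mulVec _ _ f1 f2, ← hw_eq i2]
  have hI : fderiv ℝ (Map_835.rd A' A id k i) z (I • v) =
      I • fderiv ℝ (Map_835.rd A' A id k i) z v := fderiv_real_I (h.diffAt hd) v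
  simp only [hw]
  rw [← hI, ← hr]
  have g1 := F_rd (cmp_of_cp hA) (cmp_of_cp hA') h (H.om 0) hd u (I • v)
  have g2 := F_rd (cmp_of_cp hA) (cmp_of_cp hA') h (H.om 0) hd u v
  rw [Cmp.hk_om, Cmp.hk_om, g1, g2]

/-- the form of the metric is the transported Kaehler form -/
theorem met_f2 (H : HkT C) (hA : Cp (H.acm 0) A) {i : A.ι} {z : Cn d} (hz : z ∈ (A.e i).target) :
    (ofKah (met H hA)).f2.w i z = ((cmp_of_cp hA).F (H.om 0)).w i z :=
  K0_om0 _ _ hz

/-! ### an integral Kaehler form is a curvature -/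

theorem GB_smul (c : ℝ) (B : Bil (Cn d)) : GB (c • B) = (c : ℂ) • GB B := by
  ext a b
  simp only [GB, Matrix.of_apply, hw, Matrix.smul_apply, smul_eq_mul]
  show ((c * B _ _ : ℝ) : ℂ) - I * ((c * B _ _ : ℝ) : ℂ) = _
  push_cast
  ring

/-- **an integral multiple of the Kaehler form of a triple is the curvature of a positive line
bundle**, on a refinement of a given holomorphic atlas, subordinate to an open cover -/
theorem proj_on [CompactSpace X] [T2Space X] (H : HkT C) (hA : Cp (H.acm 0) A) {c : ℝ}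
    (hc : 0 < c) (hI : IntF (c • H.om 0)) {κ : Type*} (O : κ → Set X) (hO : ∀ k, IsOpen (O k))
    (hOc : ∀ x, ∃ k, x ∈ O k) :
    ∃ (A' : Atl d X) (hA' : Cp (H.acm 0) A') (L : LB A') (h : HM L), Finite A'.ι ∧ GoodA A' ∧
      Nonempty (Part A') ∧ (∀ i, ∃ k, (A'.e i).source ⊆ O k) ∧ Nonempty (Ref A' A id) ∧
      LBih A' A id ∧ LBih A A' id ∧
      (∀ i, ∀ y ∈ (A'.e i).source,
        cur h i y = ((Real.pi * c : ℝ) : ℂ) • (met H hA').g i y) ∧ h.Pos := by
  set hc0 := cmp_of_cp hA with hc0d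
  have hpc : 0 < Real.pi * c := mul_pos Real.pi_pos hc
  -- the (1,1)-form
  have i1 : ∀ i, ∀ z ∈ (A.e i).target, ∀ u v,
      ((Real.pi * c) • hc0.F (H.om 0)).w i z (I • u) (I • v) =
        ((Real.pi * c) • hc0.F (H.om 0)).w i z u v := by
    intro i z hz u v
    have h1 : (hc0.F (H.om 0)).w i z (I • u) (I • v) = (hc0.F (H.om 0)).w i z u v :=
      om0_inv _ (fun i _ hz v => hk_J_I hA i hz v) hz u v
    show Real.pi * c * (hc0.F (H.om 0)).w i z (I • u) (I • v) =
      Real.pi * c * (hc0.F (H.om 0)).w i z u v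
    rw [h1]
  set K : K11 A := ((Real.pi * c) • hc0.F (H.om 0)).k11 i1 with hK
  have hKg : ∀ i x, K.g i x = ((Real.pi * c : ℝ) : ℂ) • (met H hA).g i x := by
    intro i x
    show GB ((Real.pi * c) • (hc0.F (H.om 0)).w i (A.e i x)) = _
    rw [GB_smul]
    rfl
  -- its class
  have hKI : IntF ((Real.pi⁻¹ : ℝ) • K.f2) := by
    have h1 : Cls (Int.castAddHom ℝ).range (hc0.F (c • H.om 0)) := (Cls.cmp_F hc0).2 hI
    refine Cls.eqv h1 ?_
    intro i z hz u v
    obtain ⟨j, hj⟩ := Cmp.exists_mov (C' := ofAtl A) C (j := i) hz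
    have e1 : ((Real.pi⁻¹ : ℝ) • K.f2).w i z u v = Real.pi⁻¹ * K.f2.w i z u v := rfl
    have e2 : K.f2.w i z = ((Real.pi * c) • hc0.F (H.om 0)).w i z := F2.k11_f2 _ i1 hz
    have e3 : ((Real.pi * c) • hc0.F (H.om 0)).w i z u v =
      Real.pi * c * (hc0.F (H.om 0)).w i z u v := rfl
    have e4 : (c • H.om 0).w j = fun z => c • (H.om 0).w j z := rfl
    rw [hc0.F_w (c • H.om 0) hj, e1, e2, e3, hc0.F_w (H.om 0) hj, e4]
    show c * _ = _
    rw [← mul_assoc, ← mul_assoc, inv_mul_cancel₀ Real.pi_ne_zero, one_mul]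
    rfl
  obtain ⟨A', L, h, h1, h2, h3, h4, h5, h6, h7, h8⟩ := lefschetz K hKI O hO hOc
  have hA' : Cp (H.acm 0) A' := cp_of_hol hA h6.toHolMap h7.toHolMap
  have h9 : ∀ i, ∀ y ∈ (A'.e i).source,
      cur h i y = ((Real.pi * c : ℝ) : ℂ) • (met H hA').g i y := by
    intro k y hy
    obtain ⟨i, hi⟩ := A.cover y
    rw [h8 k i y hy hi, met_tr H hA hA' hy hi, hKg, Matrix.mul_smul, Matrix.smul_mul]
  refine ⟨A', hA', L, h, h1, h2, h3, h4, h5, h6, h7, h9, Kah_333.pos_of_cur fun i x hx => ?_⟩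
  rw [h9 i x hx]
  exact ((met H hA').pos i x hx).smul (by exact_mod_cast hpc)

/-- **PROJ** for a triple: an integral multiple of `om 0` ==> `J 0` is projective -/
theorem proj_of_int [FiniteDimensional ℝ V] [CompactSpace X] [T2Space X] (hNN : NNat V d)
    (H : HkT C) {c : ℝ} (hc : 0 < c) (hI : IntF (c • H.om 0)) {κ : Type*} (O : κ → Set X)
    (hO : ∀ k, IsOpen (O k)) (hOc : ∀ x, ∃ k, x ∈ O k) :
    ∃ (A : Atl d X) (hA : Cp (H.acm 0) A) (L : LB A) (h : HM L), Finite A.ι ∧ GoodA A ∧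
      Nonempty (Part A) ∧ (∀ i, ∃ k, (A.e i).source ⊆ O k) ∧
      (∀ i, ∀ y ∈ (A.e i).source,
        cur h i y = ((Real.pi * c : ℝ) : ℂ) • (met H hA).g i y) ∧ h.Pos ∧
      ∃ m : ℕ, 0 < m ∧ ∃ P : ProjD A, lb P = L ^ m := by
  obtain ⟨A0, -, -, -, -, -, h0⟩ := exists_rot hNN H
  obtain ⟨A, hA, L, h, h1, h2, h3, h4, -, -, -, h5, h6⟩ := proj_on H h0 hc hI O hO hOc
  obtain ⟨PA⟩ := h3
  exact ⟨A, hA, L, h, h1, h2, ⟨PA⟩, h4, h5, h6, Crest.Agent.R272.Kod8_410.exists_projD PA h6⟩

end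

end Crest.Agent.R281.Pjx_648
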