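import Crest.Agent.R281.NefM_252
import Crest.Agent.R281.Pjx2_648
import Crest.Agent.R281.HkM5_835

/-!
# R281 (S0424), START (D14), Kodaira half (helper565), part 1: several integral classes on one atlas

* `eqv_c1F_pull` : the Chern form of the pull back metric under a change of atlas
* `ex_c1F`       : two metrics on a line bundle have cohomologous Chern forms
* `eqv_c1F_pow`  : `c1F (h ^ m) = m c1F h`
* `lef_hk`       : Lefschetz (1,1) for `J 0` of a triple
* `lef_many`     : finitely many integral (1,1) classes on ONE good atlas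
-/

set_option autoImplicit false
set_option linter.unusedSectionVars false
set_option maxSynthPendingDepth 3

open Set Filter Topology Complex
open scoped ContDiff Matrix ComplexConjugate ComplexOrder

namespace Crest.Agent.R281.Kb_565

open Crest.Agent.R275.Geo Crest.Agent.R275.Core144 Crest.Agent.R275.EDR890
open Crest.Agent.R275.GC293
open Crest.Agent.R273
open Crest.Agent.R273.Kah_333 Crest.Agent.R273.Hess_333 Crest.Agent.R273.HessB_333
open Crest.Agent.R273.Defs_333 Crest.Agent.R273.HM_333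
open Crest.Agent.R273.Map_835 (HolMap dm Jp mem_dm)
open Crest.Agent.R273.PB_835 (LBih Ref pullLB)
open Crest.Agent.R281.Defs_273
open Crest.Agent.R260.ACM_580 Crest.Agent.R260.NNB_580
open Crest.Agent.R281.HkR_835 Crest.Agent.R281.Ti_846
open Crest.Agent.R281.NefO_476 Crest.Agent.R281.Dif_268
open Crest.Agent.R281.Nef_252
open Crest.Agent.R281.Cdr_234 (Cls IntF RatF c1F c1F_w cmp_of_hol pull_f2 lefschetz Cls.cmp_F
  hess_pullHM)

noncomputable section

/-! ### metrics -/

section met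

variable {n : ℕ} {M : Type} [TopologicalSpace M] {A A' : Atl n M}

/-- the Chern form of the pull back metric under a change of atlas -/
theorem eqv_c1F_pull {L : LB A} {L' : LB A'} (T : PB_835.PB id L' L) (h1 : HolMap A' A id)
    (h2 : HolMap A A' id) (h : HM L) :
    Eqv (c1F (T.pullHM h1 h)) ((SMap.ofCmp (cmp_of_hol h1 h2)).pull (c1F h)) := by
  set hc := cmp_of_hol h1 h2 with hhc
  intro k z hz u v
  obtain ⟨i, hi⟩ := A.cover ((A'.e k).symm z)
  have hzd : z ∈ dm A' A id k i := ⟨hz, hi⟩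
  have hz' : z ∈ dom (ofAtl A) (ofAtl A') (SMap.ofCmp hc).f i k := hzd
  have e0 : ((SMap.ofCmp hc).pull (c1F h)).w k z u v =
      Real.pi⁻¹ * ((SMap.ofCmp hc).pull (Cdr_234.curK h).f2).w k z u v := by
    rw [(SMap.ofCmp hc).pull_w _ hz', (SMap.ofCmp hc).pull_w _ hz']
    rfl
  have e2 := pull_f2 h1 h2 (Cdr_234.curK h) hzd u v
  rw [e0, c1F_w _ hz, hess_pullHM T h1 h hzd]
  exact congrArg (fun t => Real.pi⁻¹ * t) e2.symm

/-- the quotient of two metrics on the same bundle -/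
def quo {L : LB A} (h h' : HM L) (x : M) : ℝ :=
  Real.log (h'.w (PB_835.PB.ch A x) x) - Real.log (h.w (PB_835.PB.ch A x) x)

theorem quo_eq {L : LB A} (h h' : HM L) {i : A.ι} {x : M} (hx : x ∈ (A.e i).source) :
    quo h h' x = Real.log (h'.w i x) - Real.log (h.w i x) := by
  have hj := PB_835.PB.ch_mem A x
  set j := PB_835.PB.ch A x with hjd
  have e1 := h.tr i j x ⟨hx, hj⟩
  have e2 := h'.tr i j x ⟨hx, hj⟩
  have p1 := h.pos i x hx
  have p2 := h'.pos i x hx
  have g0 : 0 < ‖L.g i j x‖ ^ 2 := by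
    have := norm_pos_iff.2 (L.ne_zero i j x)
    positivity
  rw [quo, ← hjd]
  rw [e1, e2, Real.log_mul g0.ne' p1.ne', Real.log_mul g0.ne' p2.ne']
  ring

theorem quo_sm {L : LB A} (h h' : HM L) : A.Sm (quo h h') := by
  intro i
  have h1 : ContDiffOn ℝ ∞ (fun z => h.wt i z - h'.wt i z) (A.e i).target :=
    (wt_smooth h i).sub (wt_smooth h' i)
  refine h1.congr fun z hz => ?_
  have hx := (A.e i).map_target hz
  show quo h h' ((A.e i).symm z) = _
  rw [quo_eq h h' hx]
  simp only [HM.wt]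
  ring

/-- two metrics on a line bundle have cohomologous Chern forms -/
theorem ex_c1F {L : LB A} (h h' : HM L) : Ex (c1F h - c1F h') := by
  have h1 : ∀ i, ∀ x ∈ (A.e i).source, (Cdr_234.curK h).g i x = (Cdr_234.curK h').g i x +
      hsf A (quo h h') i x := by
    intro i x hx
    have hz := (A.e i).map_source hx
    show cur h i x = cur h' i x + hsf A (quo h h') i x
    have e1 : (fun y => quo h h' ((A.e i).symm y)) =ᶠ[𝓝 (A.e i x)]
        fun y => h.wt i y - h'.wt i y := by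
      filter_upwards [(A.e i).open_target.mem_nhds hz] with y hy
      rw [quo_eq h h' ((A.e i).map_target hy)]
      simp only [HM.wt]
      ring
    have e2 : hsf A (quo h h') i x = hess (fun y => h.wt i y - h'.wt i y) (A.e i x) := by
      unfold hsf
      exact hess_congr e1
    have e3 : (fun y => h.wt i y) =ᶠ[𝓝 (A.e i x)]
        fun y => h'.wt i y + (h.wt i y - h'.wt i y) := by
      filter_upwards with y
      ring
    rw [e2]
    unfold cur
    have e4 := hess_congr e3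
    rw [show (fun y => h.wt i y) = h.wt i from rfl] at e4
    rw [e4, hess_add (wt_contDiffAt h' i hz)
      ((wt_contDiffAt h i hz).sub (wt_contDiffAt h' i hz))]
  have h2 : Ex ((Cdr_234.curK h).f2 - (Cdr_234.curK h').f2) := ex_of_hsf (quo_sm h h') h1
  have h3 := Cdr_234.Ex.smul (Real.pi⁻¹ : ℝ) h2
  rwa [smul_sub] at h3

theorem eqv_c1F_pow {L : LB A} (h : HM L) (m : ℕ) :
    Eqv (c1F (HM_333.pow h m)) ((m : ℝ) • c1F h) := by
  intro i z hz u v
  have hx := (A.e i).map_target hz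
  have e1 : hess ((HM_333.pow h m).wt i) z = (m : ℂ) • hess (h.wt i) z := by
    have := cur_pow h m i hx
    unfold cur at this
    rwa [(A.e i).right_inv hz] at this
  rw [c1F_w _ hz, e1]
  have e2 : ((m : ℝ) • c1F h).w i z u v = (m : ℝ) * (c1F h).w i z u v := rfl
  rw [e2, c1F_w _ hz]
  have e3 : hb ((m : ℂ) • hess (h.wt i) z) u v = (m : ℂ) * hb (hess (h.wt i) z) u v := by
    simp only [hb, Matrix.smul_apply, smul_eq_mul, Finset.mul_sum]
    refine Finset.sum_congr rfl fun a _ => Finset.sum_congr rfl fun b _ => by ring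
  rw [e3]
  have e4 : (I * ((m : ℂ) * hb (hess (h.wt i) z) u v)).re =
      (m : ℝ) * (I * hb (hess (h.wt i) z) u v).re := by
    have : I * ((m : ℂ) * hb (hess (h.wt i) z) u v) =
        ((m : ℝ) : ℂ) * (I * hb (hess (h.wt i) z) u v) := by
      push_cast
      ring
    rw [this, Complex.re_ofReal_mul]
  rw [e4]
  ring

end met

/-! ### Lefschetz (1,1) at a triple -/

section lef

variable {V X : Type} [NormedAddCommGroup V] [NormedSpace ℝ V] [TopologicalSpace X]
  {d : ℕ} {C : RCh V X}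

/-- composition of the changes of charts -/
theorem F_comp_hol {H : HkT C} {A A' : Atl d X} (hA : Cp (H.acm 0) A) (hA' : Cp (H.acm 0) A')
    (h1 : HolMap A' A id) (h2 : HolMap A A' id) (w : F2 C) :
    Eqv ((SMap.ofCmp (cmp_of_hol h1 h2)).pull ((cmp_of_cp hA).F w)) ((cmp_of_cp hA').F w) := by
  set g := SMap.ofCmp (cmp_of_hol h1 h2) with hg
  have e8 : Eqv ((cmp_of_cp hA).F w) ((SMap.ofCmp (cmp_of_cp hA)).pull w) :=
    (cmp_F (cmp_of_cp hA) w).symm
  refine (e8.pull g).trans ((pull_comp (SMap.ofCmp (cmp_of_cp hA)) g w).symm.trans ?_)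
  refine Eqv.trans ?_ (cmp_F (cmp_of_cp hA') w)
  exact fun _ _ _ _ _ => rfl

/-- **Lefschetz (1,1) for `J 0` of a triple** -/
theorem lef_hk [FiniteDimensional ℝ V] [CompactSpace X] [T2Space X] (hNN : NNat V d)
    (H : HkT C) {w w' : F2 C} (hi : IntF w) (hw : T11 (ofHk H 0) w') (he : Ex (w' - w)) :
    ∃ (A : Atl d X) (hA : Cp (H.acm 0) A) (L : LB A) (h : HM L),
      Eqv (c1F h) ((cmp_of_cp hA).F w') := by
  obtain ⟨A0, -, -, -, -, -, hA0⟩ := exists_rot hNN H
  set h0 := cmp_of_cp hA0 with hh0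
  set w1 := h0.F w' with hw1
  have t1 : T11 (jA A0) w1 := fun i z hz u v => onA_11 H hA0 hw i z hz u v
  have tπ : T11 (jA A0) ((Real.pi : ℝ) • w1) := t1.smul _
  set K1 : K11 A0 := ((Real.pi : ℝ) • w1).k11 tπ with hK1
  have e1 : ∀ i, ∀ z ∈ (A0.e i).target, K1.f2.w i z = Real.pi • w1.w i z := fun i z hz =>
    F2.k11_f2 _ tπ hz
  have e2 : Eqv ((Real.pi⁻¹ : ℝ) • K1.f2) w1 := by
    intro i z hz u v
    show Real.pi⁻¹ * K1.f2.w i z u v = w1.w i z u v
    rw [e1 i z hz]
    show Real.pi⁻¹ * (Real.pi * w1.w i z u v) = w1.w i z u v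
    rw [← mul_assoc, inv_mul_cancel₀ Real.pi_ne_zero, one_mul]
  have i1 : IntF w1 := (Cls.cmp_F h0).2 (Cdr_234.Cls.of_sub_ex hi he)
  have i2 : IntF ((Real.pi⁻¹ : ℝ) • K1.f2) := Cdr_234.Cls.eqv i1 e2.symm
  obtain ⟨A', L, h, f1, f2, f3, -, -, f6, f7, f8⟩ := lefschetz K1 i2 (κ := Unit)
    (fun _ => (univ : Set X)) (fun _ => isOpen_univ) (fun x => ⟨(), mem_univ x⟩)
  have hA' : Cp (H.acm 0) A' := Nef_252.cp_of_hol hA0 f6.toHolMap f7.toHolMap
  refine ⟨A', hA', L, h, ?_⟩
  set g := SMap.ofCmp (cmp_of_hol f6.toHolMap f7.toHolMap) with hg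
  have e3 : Eqv (c1F h) (g.pull ((Real.pi⁻¹ : ℝ) • K1.f2)) := by
    intro k z hz u v
    obtain ⟨i, hi'⟩ := A0.cover ((A'.e k).symm z)
    have hzd : z ∈ dm A' A0 id k i := ⟨hz, hi'⟩
    have hk := (A'.e k).map_target hz
    have hz' : z ∈ dom (ofAtl A0) (ofAtl A') g.f i k := hzd
    have e4 : (g.pull ((Real.pi⁻¹ : ℝ) • K1.f2)).w k z u v =
        Real.pi⁻¹ * (g.pull K1.f2).w k z u v := by
      rw [g.pull_w _ hz', g.pull_w _ hz']
      rfl
    have e5 := pull_f2 f6.toHolMap f7.toHolMap K1 hzd u v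
    have e6 := (Cdr_234.curK h).f2_w (i := k) hz u v
    have e7 : (Cdr_234.curK h).g k ((A'.e k).symm z) = _ := f8 k i _ hk hi'
    rw [e4]
    show Real.pi⁻¹ * (Cdr_234.curK h).f2.w k z u v = _
    rw [e6, e7]
    exact congrArg (fun t => Real.pi⁻¹ * t) e5.symm
  exact e3.trans ((e2.pull g).trans (F_comp_hol hA0 hA' f6.toHolMap f7.toHolMap w'))

/-- a bundle on an atlas of `J 0` pulled back to a refinement -/
theorem ref_hk {H : HkT C} {A A' : Atl d X} (hA : Cp (H.acm 0) A) (hA' : Cp (H.acm 0) A')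
    (R : Ref A' A id) {L : LB A} (h : HM L) {w : F2 C}
    (hw : Eqv (c1F h) ((cmp_of_cp hA).F w)) :
    ∃ (L' : LB A') (h' : HM L'), Eqv (c1F h') ((cmp_of_cp hA').F w) := by
  have h1 : HolMap A' A id := Pjx_648.hol_of_cp hA hA'
  have h2 : HolMap A A' id := Pjx_648.hol_of_cp hA' hA
  refine ⟨pullLB h1 R L, (PB_835.PB.ref h1 R L).pullHM h1 h, ?_⟩
  refine (eqv_c1F_pull _ h1 h2 h).trans ?_
  exact (hw.pull _).trans (F_comp_hol hA hA' h1 h2 w)

/-- **finitely many integral (1,1) classes on ONE good atlas** -/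
theorem lef_many [FiniteDimensional ℝ V] [CompactSpace X] [T2Space X] (hNN : NNat V d)
    (H : HkT C) {ρ : Type} [Finite ρ] {w w' : ρ → F2 C} (hi : ∀ i, IntF (w i))
    (hw : ∀ i, T11 (ofHk H 0) (w' i)) (he : ∀ i, Ex (w' i - w i)) :
    ∃ (A : Atl d X) (_ : Finite A.ι) (_ : GoodA A) (_ : Nonempty (Part A))
      (hA : Cp (H.acm 0) A) (L : ρ → LB A) (h : ∀ i, HM (L i)),
      ∀ i, Eqv (c1F (h i)) ((cmp_of_cp hA).F (w' i)) := by
  choose A hA L h hc using fun i => lef_hk hNN H (hi i) (hw i) (he i)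
  obtain ⟨A0, -, -, -, -, -, hA0⟩ := exists_rot hNN H
  obtain ⟨A', h1, h2, h3, h4, -, h6, h7⟩ := Fam_835.exists_refine A0
    (fun q : (∀ i, (A i).ι) => ⋂ i, ((A i).e (q i)).source)
    (fun q => isOpen_iInter_of_finite fun i => ((A i).e (q i)).open_source)
    (fun x => by
      choose q hq using fun i => (A i).cover x
      exact ⟨q, mem_iInter.2 hq⟩)
  have hA' : Cp (H.acm 0) A' := Nef_252.cp_of_hol hA0 h6.toHolMap h7.toHolMap
  choose r hr using h4
  have key : ∀ i, ∃ (L' : LB A') (h' : HM L'), Eqv (c1F h') ((cmp_of_cp hA').F (w' i)) :=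
    fun i => ref_hk (hA i) hA' ⟨fun k => r k i, fun k x hx => mem_iInter.1 (hr k hx) i⟩ (h i) (hc i)
  choose L' h' hc' using key
  exact ⟨A', h1, h2, h3, hA', L', h', hc'⟩

end lef

end

end Crest.Agent.R281.Kb_565
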