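import Crest.Agent.R281.Kb1_565

/-!
# R281 (S0424), START (D14), Kodaira half (helper565), part 2: embeddings by integral Kaehler classes

* `pos_c1F`   : positivity of the metric from positivity of the form
* `ex_fs`     : `lb P = L ^ m` ==> the Fubini-Study form of `P` is in the class `m c1(L)`
* `kod_many`  : finitely many integral Kaehler classes `w i` of `J 0` of a triple: ONE good atlas,
                positive bundles `L i` of class `w i`, and for all large `m` embeddings `P i` with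
                `O(1) = L i ^ m`, `[FS (P i)] = m w i`
-/

set_option autoImplicit false
set_option linter.unusedSectionVars false
set_option maxSynthPendingDepth 3

open Set Filter Topology Complex
open scoped ContDiff Matrix ComplexConjugate ComplexOrder

namespace Crest.Agent.R281.Kb_565

open Crest.Agent.R275.Geo Crest.Agent.R275.Core144 Crest.Agent.R275.EDR890
open Crest.Agent.R275.GC293
open Crest.Agent.R273
open Crest.Agent.R273.Kah_333 Crest.Agent.R273.Hess_333 Crest.Agent.R273.HessB_333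
open Crest.Agent.R273.Defs_333 Crest.Agent.R273.HM_333
open Crest.Agent.R273.Map_835 (HolMap dm Jp mem_dm)
open Crest.Agent.R273.PB_835 (LBih Ref pullLB)
open Crest.Agent.R273.FS_333 (lb fs)
open Crest.Agent.R281.Defs_273
open Crest.Agent.R260.ACM_580 Crest.Agent.R260.NNB_580
open Crest.Agent.R281.HkR_835 Crest.Agent.R281.Ti_846
open Crest.Agent.R281.NefO_476 Crest.Agent.R281.Dif_268
open Crest.Agent.R281.Nef_252
open Crest.Agent.R281.Cdr_234 (Cls IntF RatF c1F c1F_w cmp_of_hol pull_f2 lefschetz Cls.cmp_F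
  hess_pullHM)

noncomputable section

section met

variable {n : ℕ} {M : Type} [TopologicalSpace M] {A : Atl n M}

/-- the curvature is `π` times the Chern form -/
theorem curK_f2 {L : LB A} (h : HM L) : (Cdr_234.curK h).f2 = (Real.pi : ℝ) • c1F h := by
  rw [c1F, smul_smul, mul_inv_cancel₀ Real.pi_ne_zero, one_smul]

theorem pos_of_c1F {L : LB A} {h : HM L} (hp : Pos (jA A) (c1F h)) : h.Pos := by
  refine pos_of_cur fun i x hx => ?_
  have h1 : Pos (jA A) (Cdr_234.curK h).f2 := by
    intro i z hz v hv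
    have h2 := hp i z hz v hv
    rw [curK_f2]
    show 0 < Real.pi * _
    exact mul_pos Real.pi_pos h2
  exact (pos_f2 _).1 h1 i x hx

/-- the Chern form of the Fubini-Study metric of an embedding by `L ^ m` -/
theorem ex_fs {L : LB A} (h : HM L) (P : ProjD A) {m : ℕ} (hP : lb P = L ^ m) :
    Ex (c1F (fs P) - (m : ℝ) • c1F h) := by
  have key : ∀ (L' : LB A) (e : L' = L ^ m) (h' : HM L'), Ex (c1F h' - (m : ℝ) • c1F h) := by
    rintro L' rfl h'
    have h1 := ex_c1F h' (HM_333.pow h m)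
    have h2 := eqv_ex_sub (eqv_c1F_pow h m)
    have h3 := ex_add h1 h2
    rwa [sub_add_sub_cancel] at h3
  exact key _ hP _

end met

section hk

variable {V X : Type} [NormedAddCommGroup V] [NormedSpace ℝ V] [TopologicalSpace X]
  {d : ℕ} {C : RCh V X}

theorem pos_hk {H : HkT C} {A : Atl d X} (hA : Cp (H.acm 0) A) {L : LB A} {h : HM L} {w : F2 C}
    (hw : Eqv (c1F h) ((cmp_of_cp hA).F w)) (hp : Pos (ofHk H 0) w) : h.Pos := by
  refine pos_of_c1F fun i z hz v hv => ?_
  have h1 := onA_pos H hA hp i z hz v hv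
  have h2 := hw i z hz v (I • v)
  show 0 < (c1F h).w i z v (I • v)
  rw [h2]
  exact h1

/-- **KODAIRA for finitely many classes**: one atlas, one bound for the exponent -/
theorem kod_many [FiniteDimensional ℝ V] [CompactSpace X] [T2Space X] (hNN : NNat V d)
    (H : HkT C) {ρ : Type} [Fintype ρ] {w : ρ → F2 C} (hi : ∀ i, IntF (w i))
    (hw : ∀ i, KCls (ofHk H 0) (w i)) :
    ∃ (A : Atl d X) (_ : Finite A.ι) (_ : GoodA A) (_ : Nonempty (Part A))
      (hA : Cp (H.acm 0) A) (L : ρ → LB A) (h : ∀ i, HM (L i)),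
      (∀ i, (h i).Pos) ∧ (∀ i, Ex (c1F (h i) - (cmp_of_cp hA).F (w i))) ∧
      ∃ m0 : ℕ, ∀ m, m0 ≤ m → ∀ i, ∃ P : ProjD A, lb P = L i ^ m ∧
        Ex (c1F (fs P) - (m : ℝ) • (cmp_of_cp hA).F (w i)) := by
  choose w' e1 e2 e3 using hw
  obtain ⟨A, f1, f2, ⟨PA⟩, hA, L, h, hc⟩ := lef_many hNN H hi e2 e1
  have hpos : ∀ i, (h i).Pos := fun i => pos_hk hA (hc i) (e3 i)
  have hex : ∀ i, Ex (c1F (h i) - (cmp_of_cp hA).F (w i)) := by
    intro i
    have a1 := eqv_ex_sub (hc i)
    have a2 : Ex ((cmp_of_cp hA).F (w' i - w i)) := (ex_cmp_F _ _).2 (e1 i)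
    have a3 : Eqv ((cmp_of_cp hA).F (w' i - w i)) ((cmp_of_cp hA).F (w' i) - (cmp_of_cp hA).F (w i)) :=
      F_sub _ _ _
    have a4 := ex_add a1 (a3.ex a2)
    rwa [sub_add_sub_cancel] at a4
  choose m1 hm1 using fun i => Crest.Agent.R272.Kod8_410.kodaira PA (hpos i) (1 : LB A)
  refine ⟨A, f1, f2, ⟨PA⟩, hA, L, h, hpos, hex, Finset.univ.sup m1, fun m hm i => ?_⟩
  obtain ⟨P, hP⟩ := hm1 i m ((Finset.le_sup (Finset.mem_univ i)).trans hm)
  rw [one_mul] at hP
  refine ⟨P, hP, ?_⟩
  have a1 := ex_fs (h i) P hP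
  have a2 := Cdr_234.Ex.smul (m : ℝ) (hex i)
  have a3 := ex_add a1 a2
  rwa [smul_sub, sub_add_sub_cancel] at a3

end hk

end

end Crest.Agent.R281.Kb_565
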