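import Mathlib

/-!
# R281 (S0424), KAPPA-1, leaf REG (helper530, for 360 #7887)

`reg` : `E(F z) = 0` near `0`, `F 0 = v`, `dF(0) = L`; `P ⊆ E` with
`{t | dp(v) t = 0 for p ∈ P} ⊆ range L`.  Then for every `q` vanishing on `F` near `0` there is `h` with
`h(v) ≠ 0` and `h q ∈ (P)`.  (Krull's intersection theorem; no analytic geometry.)
-/

set_option autoImplicit false
set_option linter.unusedSectionVars false

open Set Filter Topology Complex MvPolynomial

namespace Crest.Agent.R281.Kc1_530

noncomputable section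

variable {κ : Type*} [Fintype κ]

/-- the derivative of `p` at `v` in the direction `t` -/
def dd (p : MvPolynomial κ ℂ) (v t : κ → ℂ) : ℂ := ∑ k, eval v (pderiv k p) * t k

/-- the linear form with coefficients `c` -/
def lf (c : κ → ℂ) : MvPolynomial κ ℂ := ∑ k, C (c k) * X k

theorem eval_lf (c x : κ → ℂ) : eval x (lf c) = ∑ k, c k * x k := by
  unfold lf
  rw [map_sum]
  exact Finset.sum_congr rfl fun k _ => by rw [map_mul, eval_C, eval_X]

theorem lf_mem (c : κ → ℂ) : lf c ∈ idealOfVars κ ℂ :=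
  Ideal.sum_mem _ fun k _ => Ideal.mul_mem_left _ _ (Ideal.subset_span ⟨k, rfl⟩)

theorem mem_ofVars {p : MvPolynomial κ ℂ} (hp : eval 0 p = 0) : p ∈ idealOfVars κ ℂ := by
  have h : p ∈ idealOfVars κ ℂ ^ 1 := by
    rw [mem_pow_idealOfVars_iff']
    intro x hx
    have hx0 : x = 0 := by
      have : Finsupp.degree x = 0 := by omega
      exact (Finsupp.degree_eq_zero_iff x).1 this
    subst hx0
    have h1 : constantCoeff p = eval 0 p := by
      rw [constantCoeff_eq, ← constantCoeff_eq]
      have := congrFun (congrArg DFunLike.coe (eval_zero (R := ℂ) (σ := κ))) p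
      exact this.symm
    rw [← constantCoeff_eq, h1, hp]
  rwa [pow_one] at h

theorem eval_of_mem {p : MvPolynomial κ ℂ} (hp : p ∈ idealOfVars κ ℂ) : eval 0 p = 0 := by
  refine Submodule.span_induction (p := fun q _ => eval (0 : κ → ℂ) q = 0) ?_ (map_zero _)
    (fun a b _ _ ha hb => by rw [map_add, ha, hb, add_zero])
    (fun a b _ hb => by rw [smul_eq_mul, map_mul, hb, mul_zero]) hp
  rintro _ ⟨k, rfl⟩
  rw [eval_X]
  rfl

/-- first order Taylor expansion at `0` -/
theorem taylor1 (p : MvPolynomial κ ℂ) :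
    p - C (eval 0 p) - lf (fun k => eval 0 (pderiv k p)) ∈ idealOfVars κ ℂ ^ 2 := by
  classical
  induction p using MvPolynomial.induction_on with
  | C a =>
    have h1 : lf (fun k : κ => eval (0 : κ → ℂ) (pderiv k (C a : MvPolynomial κ ℂ))) = 0 := by
      unfold lf
      exact Finset.sum_eq_zero fun k _ => by
        beta_reduce
        rw [pderiv_C, map_zero, map_zero, zero_mul]
    rw [h1, eval_C, sub_self, sub_self]
    exact Ideal.zero_mem _
  | add p q hp hq =>
    have h1 : p + q - C (eval 0 (p + q)) - lf (fun k => eval (0 : κ → ℂ) (pderiv k (p + q))) =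
        (p - C (eval 0 p) - lf (fun k => eval 0 (pderiv k p))) +
        (q - C (eval 0 q) - lf (fun k => eval 0 (pderiv k q))) := by
      have h2 : lf (fun k => eval (0 : κ → ℂ) (pderiv k (p + q))) =
          lf (fun k => eval 0 (pderiv k p)) + lf (fun k => eval 0 (pderiv k q)) := by
        unfold lf
        rw [← Finset.sum_add_distrib]
        exact Finset.sum_congr rfl fun k _ => by
          beta_reduce
          rw [map_add, map_add, map_add, add_mul]
      rw [h2, map_add, map_add]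
      ring
    rw [h1]
    exact Ideal.add_mem _ hp hq
  | mul_X p k _ =>
    have h1 : eval (0 : κ → ℂ) (p * X k) = 0 := by rw [map_mul, eval_X]; simp
    have h2 : lf (fun l => eval (0 : κ → ℂ) (pderiv l (p * X k))) = C (eval 0 p) * X k := by
      unfold lf
      rw [Finset.sum_eq_single k]
      · beta_reduce
        rw [Derivation.leibniz, smul_eq_mul, smul_eq_mul, pderiv_X_self, map_add, map_mul, map_one,
          mul_one, map_mul, eval_X]
        simp
      · intro l _ hl
        beta_reduce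
        rw [Derivation.leibniz, smul_eq_mul, smul_eq_mul, pderiv_X_of_ne (Ne.symm hl), map_add,
          map_mul, map_mul, eval_X]
        simp
      · intro h
        exact absurd (Finset.mem_univ k) h
    rw [h1, h2]
    have h3 : p * X k - C 0 - C (eval 0 p) * X k = (p - C (eval 0 p)) * X k := by
      rw [map_zero]
      ring
    rw [h3, pow_two]
    refine Ideal.mul_mem_mul (mem_ofVars ?_) (Ideal.subset_span ⟨k, rfl⟩)
    rw [map_sub, eval_C, sub_self]

/-- a linear form vanishing on the Zariski tangent space -/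
theorem lf_mem_of_ker {P : Set (MvPolynomial κ ℂ)} (h0 : ∀ p ∈ P, eval 0 p = 0) {c : κ → ℂ}
    (hc : ∀ t : κ → ℂ, (∀ p ∈ P, dd p 0 t = 0) → ∑ k, c k * t k = 0) :
    lf c ∈ Ideal.span P ⊔ idealOfVars κ ℂ ^ 2 := by
  classical
  set S : Submodule ℂ (κ → ℂ) := Submodule.span ℂ
    ((fun p : MvPolynomial κ ℂ => fun k => eval (0 : κ → ℂ) (pderiv k p)) '' P) with hS
  have hcS : c ∈ S := by
    by_contra hcon
    obtain ⟨f, hf, hfr⟩ := Submodule.exists_dual_map_eq_bot_of_notMem hcon inferInstance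
    have hfl : ∀ v : κ → ℂ, f v = ∑ k, v k * f (Pi.single k 1) := by
      intro v
      have h3 : v = ∑ k, v k • (Pi.single k (1 : ℂ) : κ → ℂ) := by
        funext b
        simp [Finset.sum_apply, Pi.single_apply]
      conv_lhs => rw [h3]
      rw [map_sum]
      exact Finset.sum_congr rfl fun k _ => by rw [map_smul, smul_eq_mul]
    have h1 := hc (fun k => f (Pi.single k 1)) fun p hp => by
      have h2 : f (fun k => eval (0 : κ → ℂ) (pderiv k p)) ∈ S.map f :=
        ⟨_, Submodule.subset_span ⟨p, hp, rfl⟩, rfl⟩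
      rw [hfr] at h2
      have h3 : f (fun k => eval (0 : κ → ℂ) (pderiv k p)) = 0 := h2
      rw [hfl] at h3
      exact h3
    rw [← hfl] at h1
    exact hf h1
  refine Submodule.span_induction (p := fun q _ => lf q ∈ Ideal.span P ⊔ idealOfVars κ ℂ ^ 2)
    ?_ ?_ ?_ ?_ hcS
  · rintro _ ⟨p, hp, rfl⟩
    have h1 := taylor1 p
    rw [h0 p hp, map_zero, sub_zero] at h1
    have h2 : lf (fun k => eval 0 (pderiv k p)) =
        p + -(p - lf (fun k => eval (0 : κ → ℂ) (pderiv k p))) := by ring
    rw [h2]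
    exact Submodule.add_mem_sup (Ideal.subset_span hp) (Ideal.neg_mem_iff _ |>.2 h1)
  · have : lf (0 : κ → ℂ) = 0 := by
      unfold lf
      exact Finset.sum_eq_zero fun k _ => by rw [Pi.zero_apply, map_zero, zero_mul]
    rw [this]
    exact Submodule.zero_mem _
  · intro a b _ _ ha hb
    have : lf (a + b) = lf a + lf b := by
      unfold lf
      rw [← Finset.sum_add_distrib]
      exact Finset.sum_congr rfl fun k _ => by rw [Pi.add_apply, map_add, add_mul]
    rw [this]
    exact Submodule.add_mem _ ha hb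
  · intro r a _ ha
    have : lf (r • a) = C r * lf a := by
      unfold lf
      rw [Finset.mul_sum]
      exact Finset.sum_congr rfl fun k _ => by rw [Pi.smul_apply, smul_eq_mul, map_mul, mul_assoc]
    rw [this]
    exact Ideal.mul_mem_left _ _ ha

/-! ### linear substitutions -/

/-- substitution of a linear map -/
def sb (T : (κ → ℂ) →ₗ[ℂ] (κ → ℂ)) : MvPolynomial κ ℂ →ₐ[ℂ] MvPolynomial κ ℂ :=
  open Classical in aeval fun k => lf fun l => T (Pi.single l 1) k

theorem lin_apply (T : (κ → ℂ) →ₗ[ℂ] (κ → ℂ)) (x : κ → ℂ) (k : κ) :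
    (open Classical in ∑ l, T (Pi.single l 1) k * x l) = T x k := by
  classical
  have h3 : x = ∑ l, x l • (Pi.single l (1 : ℂ) : κ → ℂ) := by
    funext b
    simp [Finset.sum_apply, Pi.single_apply]
  conv_rhs => rw [h3]
  rw [map_sum, Finset.sum_apply]
  exact Finset.sum_congr rfl fun l _ => by
    rw [map_smul, Pi.smul_apply, smul_eq_mul, mul_comm]

theorem eval_sb (T : (κ → ℂ) →ₗ[ℂ] (κ → ℂ)) (x : κ → ℂ) (p : MvPolynomial κ ℂ) :
    eval x (sb T p) = eval (T x) p := by
  have h : (eval x).comp (sb T : MvPolynomial κ ℂ →+* MvPolynomial κ ℂ) = eval (T x) := by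
    refine MvPolynomial.ringHom_ext (fun a => ?_) fun k => ?_
    · simp [sb]
    · rw [RingHom.comp_apply, eval_X]
      show eval x (sb T (X k)) = _
      unfold sb
      rw [aeval_X, eval_lf, lin_apply]
  exact congrFun (congrArg DFunLike.coe h) p

theorem sb_X (T : (κ → ℂ) →ₗ[ℂ] (κ → ℂ)) (k : κ) :
    sb T (X k) = lf fun l => (open Classical in T (Pi.single l 1) k) := by
  unfold sb
  rw [aeval_X]

theorem sb_mem (T : (κ → ℂ) →ₗ[ℂ] (κ → ℂ)) (s : ℕ) {g : MvPolynomial κ ℂ}
    (hg : g ∈ idealOfVars κ ℂ ^ s) : sb T g ∈ idealOfVars κ ℂ ^ s := by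
  have h1 : Ideal.map (sb T) (idealOfVars κ ℂ) ≤ idealOfVars κ ℂ := by
    rw [Ideal.map_span, Ideal.span_le]
    rintro _ ⟨_, ⟨k, rfl⟩, rfl⟩
    rw [sb_X]
    exact lf_mem _
  have h2 : Ideal.map (sb T) (idealOfVars κ ℂ ^ s) ≤ idealOfVars κ ℂ ^ s := by
    rw [Ideal.map_pow]
    exact Ideal.pow_right_mono h1 s
  exact h2 (Ideal.mem_map_of_mem _ hg)

/-- the ideal of the differences -/
def dj (T : (κ → ℂ) →ₗ[ℂ] (κ → ℂ)) : Ideal (MvPolynomial κ ℂ) :=
  Ideal.span (range fun k => X k - sb T (X k))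

theorem sub_sb_mem (T : (κ → ℂ) →ₗ[ℂ] (κ → ℂ)) (g : MvPolynomial κ ℂ) : g - sb T g ∈ dj T := by
  induction g using MvPolynomial.induction_on with
  | C a =>
    have : sb T (C a) = C a := (sb T).commutes a
    rw [this, sub_self]
    exact Ideal.zero_mem _
  | add p q hp hq =>
    rw [map_add]
    have : p + q - (sb T p + sb T q) = (p - sb T p) + (q - sb T q) := by ring
    rw [this]
    exact Ideal.add_mem _ hp hq
  | mul_X p k hp =>
    rw [map_mul]
    have : p * X k - sb T p * sb T (X k) = X k * (p - sb T p) + sb T p * (X k - sb T (X k)) := by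
      ring
    rw [this]
    exact Ideal.add_mem _ (Ideal.mul_mem_left _ _ hp)
      (Ideal.mul_mem_left _ _ (Ideal.subset_span ⟨k, rfl⟩))

theorem absorb {R : Type*} [CommRing R] (m J : Ideal R) (s : ℕ) :
    m * (J * m ^ (s - 1)) ≤ J * m ^ s := by
  rcases Nat.eq_zero_or_pos s with hs | hs
  · subst hs
    rw [Nat.zero_sub, pow_zero]
    exact (Ideal.mul_le_right : m * (J * 1) ≤ J * 1)
  · rw [mul_left_comm, ← pow_succ', Nat.sub_add_cancel hs]

theorem sub_sb_mem_pow (T : (κ → ℂ) →ₗ[ℂ] (κ → ℂ)) (s : ℕ) {g : MvPolynomial κ ℂ}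
    (hg : g ∈ idealOfVars κ ℂ ^ s) : g - sb T g ∈ dj T * idealOfVars κ ℂ ^ (s - 1) := by
  induction s generalizing g with
  | zero =>
    rw [Nat.zero_sub, pow_zero, Ideal.one_eq_top, Ideal.mul_top]
    exact sub_sb_mem T g
  | succ s ih =>
    rw [pow_succ'] at hg
    rw [Nat.add_sub_cancel]
    refine Submodule.mul_induction_on (C := fun g => g - sb T g ∈ dj T * idealOfVars κ ℂ ^ s)
      hg (fun a ha b hb => ?_) (fun a b ha hb => ?_)
    · rw [map_mul]
      have h1 : a * b - sb T a * sb T b = a * (b - sb T b) + (a - sb T a) * sb T b := by ring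
      rw [h1]
      refine Ideal.add_mem _ ?_ (Ideal.mul_mem_mul (sub_sb_mem T a) (sb_mem T s hb))
      have h2 := Ideal.mul_mem_mul ha (ih hb)
      refine absorb (idealOfVars κ ℂ) (dj T) s h2
    · rw [map_add]
      have : a + b - (sb T a + sb T b) = (a - sb T a) + (b - sb T b) := by ring
      rw [this]
      exact Ideal.add_mem _ ha hb

/-! ### homogeneous components -/

theorem hc_mem (s : ℕ) (g : MvPolynomial κ ℂ) :
    homogeneousComponent s g ∈ idealOfVars κ ℂ ^ s := by
  rw [mem_pow_idealOfVars_iff']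
  intro x hx
  rw [coeff_homogeneousComponent, if_neg (by omega)]

theorem sub_hc_mem {s : ℕ} {g : MvPolynomial κ ℂ} (hg : g ∈ idealOfVars κ ℂ ^ s) :
    g - homogeneousComponent s g ∈ idealOfVars κ ℂ ^ (s + 1) := by
  rw [mem_pow_idealOfVars_iff'] at hg ⊢
  intro x hx
  rw [coeff_sub, coeff_homogeneousComponent]
  by_cases h : Finsupp.degree x = s
  · rw [if_pos h, sub_self]
  · rw [if_neg h, sub_zero]
    exact hg x (by omega)

theorem hc_eq_zero {s j : ℕ} (hj : j < s) {g : MvPolynomial κ ℂ}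
    (hg : g ∈ idealOfVars κ ℂ ^ s) : homogeneousComponent j g = 0 := by
  rw [mem_pow_idealOfVars_iff'] at hg
  ext x
  rw [coeff_homogeneousComponent, coeff_zero]
  split_ifs with h
  · exact hg x (by omega)
  · rfl

theorem eval_smul_homog {G : MvPolynomial κ ℂ} {j : ℕ} (hG : G.IsHomogeneous j) (t : ℂ)
    (u : κ → ℂ) : eval (t • u) G = t ^ j * eval u G := by
  rw [eval_eq, eval_eq, Finset.mul_sum]
  refine Finset.sum_congr rfl fun x hx => ?_
  have h1 : ∏ k ∈ x.support, (t • u) k ^ x k = t ^ j * ∏ k ∈ x.support, u k ^ x k := by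
    have h2 : ∀ k ∈ x.support, (t • u) k ^ x k = t ^ x k * u k ^ x k := fun k _ => by
      rw [Pi.smul_apply, smul_eq_mul, mul_pow]
    rw [Finset.prod_congr rfl h2, Finset.prod_mul_distrib, Finset.prod_pow_eq_pow_sum]
    congr 2
    have h3 := hG.degree_eq_sum_deg_support hx
    rw [h3]
  rw [h1]
  ring

theorem eval_smul_sum (g : MvPolynomial κ ℂ) (t : ℂ) (u : κ → ℂ) :
    eval (t • u) g =
      ∑ j ∈ Finset.range (g.totalDegree + 1), t ^ j * eval u (homogeneousComponent j g) := by
  conv_lhs => rw [← sum_homogeneousComponent g]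
  rw [map_sum]
  exact Finset.sum_congr rfl fun j _ =>
    eval_smul_homog (homogeneousComponent_isHomogeneous j g) t u

/-- the leading form of a polynomial vanishing along a curve -/
theorem hc_curve {c : ℂ → κ → ℂ} {w : κ → ℂ} (hc : HasDerivAt c w 0) (hc0 : c 0 = 0) {s : ℕ}
    {g : MvPolynomial κ ℂ} (hg : g ∈ idealOfVars κ ℂ ^ s)
    (hz : ∀ᶠ t in 𝓝 (0 : ℂ), eval (c t) g = 0) : eval w (homogeneousComponent s g) = 0 := by
  have h1 : Tendsto (fun t : ℂ => t⁻¹ • c t) (𝓝[≠] 0) (𝓝 w) := by
    have h2 := hc.tendsto_slope_zero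
    refine h2.congr fun t => ?_
    rw [zero_add, hc0, sub_zero]
  set N := g.totalDegree + 1 with hN
  -- the quotient
  let Q : ℂ → (κ → ℂ) → ℂ := fun t u =>
    ∑ j ∈ Finset.range N, t ^ (j - s) * eval u (homogeneousComponent j g)
  have hQc : Continuous fun p : ℂ × (κ → ℂ) => Q p.1 p.2 := by
    have h0 : ∀ j ∈ Finset.range N, Continuous fun p : ℂ × (κ → ℂ) =>
        p.1 ^ (j - s) * eval p.2 (homogeneousComponent j g) := fun j _ => by
      have e1 : Continuous fun p : ℂ × (κ → ℂ) => p.1 ^ (j - s) := continuous_fst.pow _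
      have e2 : Continuous fun p : ℂ × (κ → ℂ) => eval p.2 (homogeneousComponent j g) :=
        (MvPolynomial.continuous_eval (homogeneousComponent j g)).comp continuous_snd
      exact e1.mul e2
    exact continuous_finsetSum _ h0
  have h3 : Tendsto (fun t : ℂ => Q t (t⁻¹ • c t)) (𝓝[≠] 0) (𝓝 (Q 0 w)) := by
    have h4 : Tendsto (fun t : ℂ => (t, t⁻¹ • c t)) (𝓝[≠] 0) (𝓝 ((0 : ℂ), w)) :=
      (tendsto_nhdsWithin_of_tendsto_nhds tendsto_id).prodMk_nhds h1
    have h4' := Tendsto.comp (g := fun p : ℂ × (κ → ℂ) => Q p.1 p.2) (hQc.tendsto ((0 : ℂ), w)) h4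
    exact h4'
  have h5 : ∀ᶠ t in 𝓝[≠] (0 : ℂ), Q t (t⁻¹ • c t) = 0 := by
    filter_upwards [hz.filter_mono nhdsWithin_le_nhds, self_mem_nhdsWithin] with t ht ht0
    have ht0' : t ≠ 0 := ht0
    have e1 : c t = t • (t⁻¹ • c t) := by rw [smul_smul, mul_inv_cancel₀ ht0', one_smul]
    rw [e1, eval_smul_sum] at ht
    have e2 : t ^ s * Q t (t⁻¹ • c t) = 0 := by
      rw [← ht]
      show t ^ s * ∑ j ∈ Finset.range N, _ = _
      rw [Finset.mul_sum]
      refine Finset.sum_congr rfl fun j _ => ?_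
      rcases lt_or_ge j s with hj | hj
      · rw [hc_eq_zero hj hg, map_zero, mul_zero, mul_zero, mul_zero]
      · rw [← mul_assoc, ← pow_add, Nat.add_sub_cancel' hj]
    exact (mul_eq_zero.1 e2).resolve_left (pow_ne_zero _ ht0')
  have h6 : Q 0 w = 0 := by
    have h7 : Tendsto (fun t : ℂ => Q t (t⁻¹ • c t)) (𝓝[≠] 0) (𝓝 0) :=
      tendsto_const_nhds.congr' (by filter_upwards [h5] with t ht; exact ht.symm)
    exact tendsto_nhds_unique h3 h7
  have h8 : Q 0 w = eval w (homogeneousComponent s g) := by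
    show ∑ j ∈ Finset.range N, (0 : ℂ) ^ (j - s) * eval w (homogeneousComponent j g) = _
    by_cases hs : s ∈ Finset.range N
    · rw [Finset.sum_eq_single_of_mem s hs]
      · rw [Nat.sub_self, pow_zero, one_mul]
      · intro j _ hj
        rcases lt_or_gt_of_ne hj with h | h
        · rw [hc_eq_zero h hg, map_zero, mul_zero]
        · rw [zero_pow (by omega), zero_mul]
    · have h9 : homogeneousComponent s g = 0 :=
        homogeneousComponent_eq_zero _ _ (by
          rw [Finset.mem_range, hN] at hs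
          omega)
      rw [h9, map_zero]
      refine Finset.sum_eq_zero fun j hj => ?_
      have h10 : j < s := by
        rw [Finset.mem_range] at hj hs
        omega
      rw [hc_eq_zero h10 hg, map_zero, mul_zero]
  rw [← h8, h6]

/-! ### the regularity lemma -/

section Reg

variable {E : Type*} [NormedAddCommGroup E] [NormedSpace ℂ E]

/-- **REG at `0`** -/
theorem reg0 {F : E → κ → ℂ} {L : E →L[ℂ] (κ → ℂ)} (hF : HasFDerivAt F L 0) (hF0 : F 0 = 0)
    {P : Set (MvPolynomial κ ℂ)} (hP : ∀ p ∈ P, ∀ᶠ z in 𝓝 (0 : E), eval (F z) p = 0)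
    (htan : ∀ t, (∀ p ∈ P, dd p 0 t = 0) → t ∈ range L) {q : MvPolynomial κ ℂ}
    (hq : ∀ᶠ z in 𝓝 (0 : E), eval (F z) q = 0) :
    ∃ h : MvPolynomial κ ℂ, eval 0 h ≠ 0 ∧ h * q ∈ Ideal.span P := by
  classical
  set m := idealOfVars κ ℂ with hm
  set I := Ideal.span P with hI
  have hP0 : ∀ p ∈ P, eval 0 p = 0 := fun p hp => by
    have := (hP p hp).self_of_nhds
    rwa [hF0] at this
  -- elements of `I` vanish on `F`
  have hI0 : ∀ g ∈ I, ∀ᶠ z in 𝓝 (0 : E), eval (F z) g = 0 := by
    intro g hg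
    refine Submodule.span_induction (p := fun g _ => ∀ᶠ z in 𝓝 (0 : E), eval (F z) g = 0)
      hP (Eventually.of_forall fun _ => map_zero _) (fun a b _ _ ha hb => ?_)
      (fun a b _ hb => ?_) hg
    · filter_upwards [ha, hb] with z h1 h2
      rw [map_add, h1, h2, add_zero]
    · filter_upwards [hb] with z h2
      rw [smul_eq_mul, map_mul, h2, mul_zero]
  -- the tangent space and a projection onto it
  let W : Submodule ℂ (κ → ℂ) :=
    { carrier := {t | ∀ p ∈ P, dd p 0 t = 0}
      add_mem' := fun {a b} ha hb p hp => by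
        have h1 := ha p hp
        have h2 := hb p hp
        have h3 : dd p 0 (a + b) = dd p 0 a + dd p 0 b := by
          unfold dd
          rw [← Finset.sum_add_distrib]
          exact Finset.sum_congr rfl fun k _ => by rw [Pi.add_apply, mul_add]
        show dd p 0 (a + b) = 0
        rw [h3, h1, h2, add_zero]
      zero_mem' := fun p _ => by
        unfold dd
        exact Finset.sum_eq_zero fun k _ => by rw [Pi.zero_apply, mul_zero]
      smul_mem' := fun c a ha p hp => by
        have h1 := ha p hp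
        have h3 : dd p 0 (c • a) = c * dd p 0 a := by
          unfold dd
          rw [Finset.mul_sum]
          exact Finset.sum_congr rfl fun k _ => by rw [Pi.smul_apply, smul_eq_mul]; ring
        show dd p 0 (c • a) = 0
        rw [h3, h1, mul_zero] }
  obtain ⟨π, hπ⟩ := W.subtype.exists_leftInverse_of_injective
    (LinearMap.ker_eq_bot.2 W.injective_subtype)
  let T : (κ → ℂ) →ₗ[ℂ] (κ → ℂ) := W.subtype ∘ₗ π
  have hTW : ∀ x, T x ∈ W := fun x => (π x).2
  have hTid : ∀ x ∈ W, T x = x := fun x hx => by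
    have h1 := congrFun (congrArg DFunLike.coe hπ) (⟨x, hx⟩ : W)
    have h2 : π x = ⟨x, hx⟩ := h1
    show ((π x : W) : κ → ℂ) = x
    rw [h2]
  -- `dj T ≤ I ⊔ m²`
  have hJ : dj T ≤ I ⊔ m ^ 2 := by
    unfold dj
    rw [Ideal.span_le]
    rintro _ ⟨k, rfl⟩
    have e1 : X k - sb T (X k) =
        lf fun l => (if l = k then (1 : ℂ) else 0) - T (Pi.single l 1) k := by
      rw [sb_X]
      have e2 : (X k : MvPolynomial κ ℂ) = lf fun l => if l = k then (1 : ℂ) else 0 := by
        unfold lf
        rw [Finset.sum_eq_single k]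
        · beta_reduce
          rw [if_pos rfl, map_one, one_mul]
        · intro l _ hl
          beta_reduce
          rw [if_neg hl, map_zero, zero_mul]
        · intro h
          exact absurd (Finset.mem_univ k) h
      rw [e2]
      unfold lf
      rw [← Finset.sum_sub_distrib]
      refine Finset.sum_congr rfl fun l _ => ?_
      rw [map_sub, sub_mul]
    show X k - sb T (X k) ∈ I ⊔ m ^ 2
    rw [e1]
    refine lf_mem_of_ker hP0 fun t ht => ?_
    have ht' : T t = t := hTid t ht
    have e3 : ∑ l, ((if l = k then (1 : ℂ) else 0) - T (Pi.single l 1) k) * t l =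
        t k - T t k := by
      have e4 := lin_apply T t k
      have e5 : ∑ l, (if l = k then (1 : ℂ) else 0) * t l = t k := by
        rw [Finset.sum_eq_single k]
        · rw [if_pos rfl, one_mul]
        · intro l _ hl
          rw [if_neg hl, zero_mul]
        · intro h
          exact absurd (Finset.mem_univ k) h
      rw [← e5, ← e4, ← Finset.sum_sub_distrib]
      refine Finset.sum_congr rfl fun l _ => ?_
      rw [sub_mul]
    rw [e3, ht', sub_self]
  -- the induction
  have key : ∀ s : ℕ, q ∈ I ⊔ m ^ s := by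
    intro s
    induction s with
    | zero =>
      rw [pow_zero, Ideal.one_eq_top, sup_top_eq]
      exact Submodule.mem_top
    | succ s ih =>
      obtain ⟨i, hi, g, hg, hqe⟩ := Submodule.mem_sup.1 ih
      have hgF : ∀ᶠ z in 𝓝 (0 : E), eval (F z) g = 0 := by
        filter_upwards [hq, hI0 i hi] with z h1 h2
        rw [← hqe, map_add, h2, zero_add] at h1
        exact h1
      set G := homogeneousComponent s g with hG
      have hGW : ∀ w ∈ W, eval w G = 0 := by
        intro w hw
        obtain ⟨z0, hz0⟩ := htan w hw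
        have hc : HasDerivAt (fun t : ℂ => F (t • z0)) w 0 := by
          have h1 : HasDerivAt (fun t : ℂ => t • z0) z0 0 := by
            simpa using (hasDerivAt_id (0 : ℂ)).smul_const z0
          have h2 : HasFDerivAt F L ((0 : ℂ) • z0) := by rw [zero_smul]; exact hF
          have h3 := h2.comp_hasDerivAt (0 : ℂ) h1
          rw [hz0] at h3
          exact h3
        refine hc_curve hc (by rw [zero_smul, hF0]) hg ?_
        have h4 : Tendsto (fun t : ℂ => t • z0) (𝓝 0) (𝓝 0) := by
          have : Continuous fun t : ℂ => t • z0 := continuous_id.smul continuous_const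
          have h5 := this.tendsto 0
          rwa [zero_smul] at h5
        exact h4.eventually hgF
      have hG0 : sb T G = 0 := by
        refine MvPolynomial.funext fun x => ?_
        rw [eval_sb, map_zero]
        exact hGW _ (hTW x)
      have hGm : G ∈ dj T * m ^ (s - 1) := by
        have h1 := sub_sb_mem_pow T s (hc_mem s g)
        rw [← hG, hG0, sub_zero] at h1
        exact h1
      have hGI : G ∈ I ⊔ m ^ (s + 1) := by
        rcases Nat.eq_zero_or_pos s with hs | hs
        · -- `G` is a constant vanishing on `W`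
          subst hs
          have h1 : G = C (coeff 0 g) := homogeneousComponent_zero g
          have h2 := hGW 0 W.zero_mem
          rw [h1, eval_C] at h2
          rw [h1, h2, map_zero]
          exact Submodule.zero_mem _
        · have h1 : dj T * m ^ (s - 1) ≤ I ⊔ m ^ (s + 1) := by
            refine (Ideal.mul_mono_left hJ).trans ?_
            rw [Ideal.sup_mul]
            refine sup_le_sup Ideal.mul_le_left ?_
            rw [← pow_add]
            exact Ideal.pow_le_pow_right (by omega)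
          exact h1 hGm
      have h1 : q = i + G + (g - G) := by rw [← hqe]; ring
      rw [h1]
      refine Ideal.add_mem _ (Ideal.add_mem _ (Submodule.mem_sup_left hi) hGI)
        (Submodule.mem_sup_right ?_)
      exact sub_hc_mem hg
  -- Krull
  have hkr : (Ideal.Quotient.mk I q) ∈
      (⨅ i : ℕ, m ^ i • ⊤ : Submodule (MvPolynomial κ ℂ) (MvPolynomial κ ℂ ⧸ I)) := by
    rw [Submodule.mem_iInf]
    intro s
    obtain ⟨i, hi, g, hg, hqe⟩ := Submodule.mem_sup.1 (key s)
    have h1 : Ideal.Quotient.mk I q = g • (Ideal.Quotient.mk I 1) := by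
      rw [← hqe, map_add, Ideal.Quotient.eq_zero_iff_mem.2 hi, zero_add]
      rw [← Ideal.Quotient.mk_eq_mk, ← Ideal.Quotient.mk_eq_mk, ← Submodule.Quotient.mk_smul,
        smul_eq_mul, mul_one]
    rw [h1]
    exact Submodule.smul_mem_smul hg Submodule.mem_top
  obtain ⟨r, hr⟩ := (Ideal.mem_iInf_smul_pow_eq_bot_iff m _).1 hkr
  refine ⟨1 - r.1, ?_, ?_⟩
  · rw [map_sub, map_one, eval_of_mem r.2, sub_zero]
    exact one_ne_zero
  · rw [← Ideal.Quotient.eq_zero_iff_mem, sub_mul, one_mul, map_sub, sub_eq_zero]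
    rw [← hr]
    rw [← Ideal.Quotient.mk_eq_mk, ← Ideal.Quotient.mk_eq_mk, ← Submodule.Quotient.mk_smul,
      smul_eq_mul]

/-- translation -/
def tr (v : κ → ℂ) : MvPolynomial κ ℂ →ₐ[ℂ] MvPolynomial κ ℂ := aeval fun k => X k + C (v k)

theorem eval_tr (v x : κ → ℂ) (p : MvPolynomial κ ℂ) : eval x (tr v p) = eval (x + v) p := by
  have h : (eval x).comp (tr v : MvPolynomial κ ℂ →+* MvPolynomial κ ℂ) = eval (x + v) := by
    refine MvPolynomial.ringHom_ext (fun a => ?_) fun k => ?_
    · simp [tr]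
    · rw [RingHom.comp_apply, eval_X]
      show eval x (tr v (X k)) = _
      unfold tr
      rw [aeval_X, map_add, eval_X, eval_C]
      rfl
  exact congrFun (congrArg DFunLike.coe h) p

theorem tr_tr (v : κ → ℂ) (p : MvPolynomial κ ℂ) : tr (-v) (tr v p) = p := by
  refine MvPolynomial.funext fun x => ?_
  rw [eval_tr, eval_tr]
  congr 2
  rw [neg_add_cancel_right]

theorem pderiv_tr (v : κ → ℂ) (k : κ) (p : MvPolynomial κ ℂ) :
    pderiv k (tr v p) = tr v (pderiv k p) := by
  classical
  induction p using MvPolynomial.induction_on with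
  | C a =>
    have : tr v (C a) = C a := (tr v).commutes a
    rw [this, pderiv_C, map_zero]
  | add p q hp hq => rw [map_add, map_add, map_add, map_add, hp, hq]
  | mul_X p l hp =>
    have hX : tr v (X l) = X l + C (v l) := by unfold tr; rw [aeval_X]
    rw [map_mul, Derivation.leibniz, Derivation.leibniz, hp, map_add, smul_eq_mul, smul_eq_mul,
      smul_eq_mul, smul_eq_mul, map_mul, map_mul, hX, map_add, pderiv_C, add_zero]
    by_cases hl : l = k
    · subst hl
      rw [pderiv_X_self, map_one]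
    · rw [pderiv_X_of_ne hl, map_zero]

theorem dd_tr (v t : κ → ℂ) (p : MvPolynomial κ ℂ) : dd (tr v p) 0 t = dd p v t := by
  unfold dd
  refine Finset.sum_congr rfl fun k _ => ?_
  rw [pderiv_tr, eval_tr, zero_add]

/-- **REG** -/
theorem reg {F : E → κ → ℂ} {L : E →L[ℂ] (κ → ℂ)} {z0 : E} (hF : HasFDerivAt F L z0)
    {P : Set (MvPolynomial κ ℂ)} (hP : ∀ p ∈ P, ∀ᶠ z in 𝓝 z0, eval (F z) p = 0)
    (htan : ∀ t, (∀ p ∈ P, dd p (F z0) t = 0) → t ∈ range L) {q : MvPolynomial κ ℂ}
    (hq : ∀ᶠ z in 𝓝 z0, eval (F z) q = 0) :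
    ∃ h : MvPolynomial κ ℂ, eval (F z0) h ≠ 0 ∧ h * q ∈ Ideal.span P := by
  have hT : Tendsto (fun z : E => z0 + z) (𝓝 0) (𝓝 z0) := by
    have : Continuous fun z : E => z0 + z := continuous_const.add continuous_id
    have h := this.tendsto 0
    rwa [add_zero] at h
  have hG : HasFDerivAt (fun z => F (z0 + z) - F z0) L 0 := by
    have h1 : HasFDerivAt (fun z : E => z0 + z) (ContinuousLinearMap.id ℂ E) 0 := by
      simpa using (hasFDerivAt_id (0 : E)).const_add z0
    have h2 : HasFDerivAt F L (z0 + 0) := by rw [add_zero]; exact hF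
    have h3 := (h2.comp (0 : E) h1).sub_const (F z0)
    rw [ContinuousLinearMap.comp_id] at h3
    exact h3
  have hev : ∀ (p : MvPolynomial κ ℂ) (z : E),
      eval (F (z0 + z) - F z0) (tr (F z0) p) = eval (F (z0 + z)) p := fun p z => by
    rw [eval_tr, sub_add_cancel]
  obtain ⟨h, h1, h2⟩ := reg0 (P := tr (F z0) '' P) (q := tr (F z0) q) hG
    (by rw [add_zero, sub_self]) (by
      rintro _ ⟨p, hp, rfl⟩
      filter_upwards [hT.eventually (hP p hp)] with z hz
      rw [hev, hz]) (fun t ht => htan t fun p hp => by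
      rw [← dd_tr]
      exact ht _ ⟨p, hp, rfl⟩) (by
      filter_upwards [hT.eventually hq] with z hz
      rw [hev, hz])
  refine ⟨tr (-F z0) h, ?_, ?_⟩
  · rw [eval_tr, add_neg_cancel]
    exact h1
  · have h3 := Ideal.mem_map_of_mem (tr (-F z0)) h2
    rw [map_mul, tr_tr, Ideal.map_span] at h3
    have h4 : (tr (-F z0)) '' (tr (F z0) '' P) = P := by
      rw [image_image]
      simp only [tr_tr, image_id']
    rwa [h4] at h3

/-! ### automorphisms of `ℂ` -/

theorem eval_conj (σ : ℂ ≃+* ℂ) (x : κ → ℂ) (p : MvPolynomial κ ℂ) :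
    eval (fun k => σ (x k)) (MvPolynomial.map (σ : ℂ →+* ℂ) p) = σ (eval x p) := by
  rw [eval_map]
  have h := MvPolynomial.eval₂_comp_left (σ : ℂ →+* ℂ) (RingHom.id ℂ) x p
  rw [RingHom.comp_id] at h
  exact h.symm

theorem dd_conj (σ : ℂ ≃+* ℂ) (v t : κ → ℂ) (p : MvPolynomial κ ℂ) :
    dd (MvPolynomial.map (σ : ℂ →+* ℂ) p) (fun k => σ (v k)) (fun k => σ (t k)) =
      σ (dd p v t) := by
  unfold dd
  rw [map_sum]
  refine Finset.sum_congr rfl fun k _ => ?_
  rw [map_mul, pderiv_map, eval_conj]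

theorem mem_span_conj (σ : ℂ ≃+* ℂ) {P : Set (MvPolynomial κ ℂ)} {q : MvPolynomial κ ℂ}
    (h : q ∈ Ideal.span P) : MvPolynomial.map (σ : ℂ →+* ℂ) q ∈
      Ideal.span (MvPolynomial.map (σ : ℂ →+* ℂ) '' P) := by
  have h1 := Ideal.mem_map_of_mem (MvPolynomial.map (σ : ℂ →+* ℂ)) h
  rwa [Ideal.map_span] at h1

theorem eval_span {P : Set (MvPolynomial κ ℂ)} {q : MvPolynomial κ ℂ} (h : q ∈ Ideal.span P)
    {x : κ → ℂ} (hx : ∀ p ∈ P, eval x p = 0) : eval x q = 0 := by
  refine Submodule.span_induction (p := fun g _ => eval x g = 0) hx (map_zero _)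
    (fun a b _ _ ha hb => by rw [map_add, ha, hb, add_zero])
    (fun a b _ hb => by rw [smul_eq_mul, map_mul, hb, mul_zero]) h

/-- **REG, conjugated**: near `σ v` the conjugates of the equations `P` imply the conjugate of
`q`. -/
theorem reg_conj (σ : ℂ ≃+* ℂ) {F : E → κ → ℂ} {L : E →L[ℂ] (κ → ℂ)} {z0 : E}
    (hF : HasFDerivAt F L z0) {P : Set (MvPolynomial κ ℂ)}
    (hP : ∀ p ∈ P, ∀ᶠ z in 𝓝 z0, eval (F z) p = 0)
    (htan : ∀ t, (∀ p ∈ P, dd p (F z0) t = 0) → t ∈ range L) {q : MvPolynomial κ ℂ}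
    (hq : ∀ᶠ z in 𝓝 z0, eval (F z) q = 0) :
    ∀ᶠ x in 𝓝 (fun k => σ (F z0 k)), (∀ p ∈ P, eval x (MvPolynomial.map (σ : ℂ →+* ℂ) p) = 0) →
      eval x (MvPolynomial.map (σ : ℂ →+* ℂ) q) = 0 := by
  obtain ⟨h, h1, h2⟩ := reg hF hP htan hq
  have h3 : eval (fun k => σ (F z0 k)) (MvPolynomial.map (σ : ℂ →+* ℂ) h) ≠ 0 := by
    rw [eval_conj]
    exact (map_ne_zero σ).2 h1
  have h4 : ∀ᶠ x in 𝓝 (fun k => σ (F z0 k)),
      eval x (MvPolynomial.map (σ : ℂ →+* ℂ) h) ≠ 0 :=
    (MvPolynomial.continuous_eval _).continuousAt.eventually_ne h3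
  filter_upwards [h4] with x hx hPx
  have h5 := eval_span (mem_span_conj σ h2) (x := x) (by
    rintro _ ⟨p, hp, rfl⟩
    exact hPx p hp)
  rw [map_mul, map_mul] at h5
  exact (mul_eq_zero.1 h5).resolve_left hx

end Reg

end

end Crest.Agent.R281.Kc1_530
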