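import Crest.Agent.R281.Kc1_530

/-!
# R281 (S0424), JETALG / REG, truncated form (helper530, for 257)

`trunc` : `P(F z) = 0` near `z0`, `dF(z0) = L`, `{t | dp(F z0) t = 0 for p ∈ P} ⊆ range L` and
`q (F z) = O(|z - z0|^m)`.  Then `q ∈ (P) + 𝔪^m`, `𝔪` the maximal ideal of `F z0`.
`trunc_conv` : the converse; `mem_conj` : conjugation by a field automorphism.
-/

set_option autoImplicit false
set_option linter.unusedSectionVars false

open Set Filter Topology Complex MvPolynomial Asymptotics

namespace Crest.Agent.R281.Kc2_530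

open Crest.Agent.R281.Kc1_530

noncomputable section

variable {κ : Type*} [Fintype κ] {E : Type*} [NormedAddCommGroup E] [NormedSpace ℂ E]

/-- the maximal ideal of the point `v` -/
def mx (v : κ → ℂ) : Ideal (MvPolynomial κ ℂ) := RingHom.ker (eval v)

theorem mem_mx {v : κ → ℂ} {p : MvPolynomial κ ℂ} : p ∈ mx v ↔ eval v p = 0 := RingHom.mem_ker

theorem mx_zero : mx (0 : κ → ℂ) = idealOfVars κ ℂ :=
  le_antisymm (fun _ hp => mem_ofVars (mem_mx.1 hp)) (fun _ hp => mem_mx.2 (eval_of_mem hp))

/-- the leading form of a polynomial small along a curve -/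
theorem hc_curve' {c : ℂ → κ → ℂ} {w : κ → ℂ} (hc : HasDerivAt c w 0) (hc0 : c 0 = 0) {s : ℕ}
    {g : MvPolynomial κ ℂ} (hg : g ∈ idealOfVars κ ℂ ^ s)
    (hz : Tendsto (fun t : ℂ => (t ^ s)⁻¹ * eval (c t) g) (𝓝[≠] 0) (𝓝 0)) :
    eval w (homogeneousComponent s g) = 0 := by
  have h1 : Tendsto (fun t : ℂ => t⁻¹ • c t) (𝓝[≠] 0) (𝓝 w) := by
    have h2 := hc.tendsto_slope_zero
    refine h2.congr fun t => ?_
    rw [zero_add, hc0, sub_zero]
  set N := g.totalDegree + 1 with hN
  let Q : ℂ → (κ → ℂ) → ℂ := fun t u =>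
    ∑ j ∈ Finset.range N, t ^ (j - s) * eval u (homogeneousComponent j g)
  have hQc : Continuous fun p : ℂ × (κ → ℂ) => Q p.1 p.2 := by
    have h0 : ∀ j ∈ Finset.range N, Continuous fun p : ℂ × (κ → ℂ) =>
        p.1 ^ (j - s) * eval p.2 (homogeneousComponent j g) := fun j _ => by
      have e1 : Continuous fun p : ℂ × (κ → ℂ) => p.1 ^ (j - s) := continuous_fst.pow _
      have e2 : Continuous fun p : ℂ × (κ → ℂ) => eval p.2 (homogeneousComponent j g) :=
        (MvPolynomial.continuous_eval (homogeneousComponent j g)).comp continuous_snd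
      exact e1.mul e2
    exact continuous_finsetSum _ h0
  have h3 : Tendsto (fun t : ℂ => Q t (t⁻¹ • c t)) (𝓝[≠] 0) (𝓝 (Q 0 w)) := by
    have h4 : Tendsto (fun t : ℂ => (t, t⁻¹ • c t)) (𝓝[≠] 0) (𝓝 ((0 : ℂ), w)) :=
      (tendsto_nhdsWithin_of_tendsto_nhds tendsto_id).prodMk_nhds h1
    have h4' := Tendsto.comp (g := fun p : ℂ × (κ → ℂ) => Q p.1 p.2) (hQc.tendsto ((0 : ℂ), w)) h4
    exact h4'
  have h5 : ∀ᶠ t in 𝓝[≠] (0 : ℂ), (t ^ s)⁻¹ * eval (c t) g = Q t (t⁻¹ • c t) := by
    filter_upwards [self_mem_nhdsWithin] with t ht0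
    have ht0' : t ≠ 0 := ht0
    have e1 : c t = t • (t⁻¹ • c t) := by rw [smul_smul, mul_inv_cancel₀ ht0', one_smul]
    have e2 : t ^ s * Q t (t⁻¹ • c t) = eval (c t) g := by
      conv_rhs => rw [e1, eval_smul_sum]
      show t ^ s * ∑ j ∈ Finset.range N, _ = _
      rw [Finset.mul_sum]
      refine Finset.sum_congr rfl fun j _ => ?_
      rcases lt_or_ge j s with hj | hj
      · rw [hc_eq_zero hj hg, map_zero, mul_zero, mul_zero, mul_zero]
      · rw [← mul_assoc, ← pow_add, Nat.add_sub_cancel' hj]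
    rw [← e2, ← mul_assoc, inv_mul_cancel₀ (pow_ne_zero _ ht0'), one_mul]
  have h6 : Q 0 w = 0 := tendsto_nhds_unique h3 (hz.congr' h5)
  have h8 : Q 0 w = eval w (homogeneousComponent s g) := by
    show ∑ j ∈ Finset.range N, (0 : ℂ) ^ (j - s) * eval w (homogeneousComponent j g) = _
    by_cases hs : s ∈ Finset.range N
    · rw [Finset.sum_eq_single_of_mem s hs]
      · rw [Nat.sub_self, pow_zero, one_mul]
      · intro j _ hj
        rcases lt_or_gt_of_ne hj with h | h
        · rw [hc_eq_zero h hg, map_zero, mul_zero]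
        · rw [zero_pow (by omega), zero_mul]
    · have h9 : homogeneousComponent s g = 0 :=
        homogeneousComponent_eq_zero _ _ (by
          rw [Finset.mem_range, hN] at hs
          omega)
      rw [h9, map_zero]
      refine Finset.sum_eq_zero fun j hj => ?_
      have h10 : j < s := by
        rw [Finset.mem_range] at hj hs
        omega
      rw [hc_eq_zero h10 hg, map_zero, mul_zero]
  rw [← h8, h6]

/-- **the truncated lemma at `0`** -/
theorem trunc0 {F : E → κ → ℂ} {L : E →L[ℂ] (κ → ℂ)} (hF : HasFDerivAt F L 0) (hF0 : F 0 = 0)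
    {P : Set (MvPolynomial κ ℂ)} (hP : ∀ p ∈ P, ∀ᶠ z in 𝓝 (0 : E), eval (F z) p = 0)
    (htan : ∀ t, (∀ p ∈ P, dd p 0 t = 0) → t ∈ range L) {q : MvPolynomial κ ℂ} {k : ℕ}
    (hq : (fun z : E => eval (F z) q) =O[𝓝 0] fun z => ‖z‖ ^ k) :
    q ∈ Ideal.span P ⊔ idealOfVars κ ℂ ^ k := by
  classical
  set m := idealOfVars κ ℂ with hm
  set I := Ideal.span P with hI
  have hP0 : ∀ p ∈ P, eval 0 p = 0 := fun p hp => by
    have := (hP p hp).self_of_nhds
    rwa [hF0] at this
  have hI0 : ∀ g ∈ I, ∀ᶠ z in 𝓝 (0 : E), eval (F z) g = 0 := by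
    intro g hg
    refine Submodule.span_induction (p := fun g _ => ∀ᶠ z in 𝓝 (0 : E), eval (F z) g = 0)
      hP (Eventually.of_forall fun _ => map_zero _) (fun a b _ _ ha hb => ?_)
      (fun a b _ hb => ?_) hg
    · filter_upwards [ha, hb] with z h1 h2
      rw [map_add, h1, h2, add_zero]
    · filter_upwards [hb] with z h2
      rw [smul_eq_mul, map_mul, h2, mul_zero]
  let W : Submodule ℂ (κ → ℂ) :=
    { carrier := {t | ∀ p ∈ P, dd p 0 t = 0}
      add_mem' := fun {a b} ha hb p hp => by
        have h1 := ha p hp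
        have h2 := hb p hp
        have h3 : dd p 0 (a + b) = dd p 0 a + dd p 0 b := by
          unfold dd
          rw [← Finset.sum_add_distrib]
          exact Finset.sum_congr rfl fun k _ => by rw [Pi.add_apply, mul_add]
        show dd p 0 (a + b) = 0
        rw [h3, h1, h2, add_zero]
      zero_mem' := fun p _ => by
        unfold dd
        exact Finset.sum_eq_zero fun k _ => by rw [Pi.zero_apply, mul_zero]
      smul_mem' := fun c a ha p hp => by
        have h1 := ha p hp
        have h3 : dd p 0 (c • a) = c * dd p 0 a := by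
          unfold dd
          rw [Finset.mul_sum]
          exact Finset.sum_congr rfl fun k _ => by rw [Pi.smul_apply, smul_eq_mul]; ring
        show dd p 0 (c • a) = 0
        rw [h3, h1, mul_zero] }
  obtain ⟨π, hπ⟩ := W.subtype.exists_leftInverse_of_injective
    (LinearMap.ker_eq_bot.2 W.injective_subtype)
  let T : (κ → ℂ) →ₗ[ℂ] (κ → ℂ) := W.subtype ∘ₗ π
  have hTW : ∀ x, T x ∈ W := fun x => (π x).2
  have hTid : ∀ x ∈ W, T x = x := fun x hx => by
    have h1 := congrFun (congrArg DFunLike.coe hπ) (⟨x, hx⟩ : W)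
    have h2 : π x = ⟨x, hx⟩ := h1
    show ((π x : W) : κ → ℂ) = x
    rw [h2]
  have hJ : dj T ≤ I ⊔ m ^ 2 := by
    unfold dj
    rw [Ideal.span_le]
    rintro _ ⟨k, rfl⟩
    have e1 : X k - sb T (X k) =
        lf fun l => (if l = k then (1 : ℂ) else 0) - T (Pi.single l 1) k := by
      rw [sb_X]
      have e2 : (X k : MvPolynomial κ ℂ) = lf fun l => if l = k then (1 : ℂ) else 0 := by
        unfold lf
        rw [Finset.sum_eq_single k]
        · beta_reduce
          rw [if_pos rfl, map_one, one_mul]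
        · intro l _ hl
          beta_reduce
          rw [if_neg hl, map_zero, zero_mul]
        · intro h
          exact absurd (Finset.mem_univ k) h
      rw [e2]
      unfold lf
      rw [← Finset.sum_sub_distrib]
      refine Finset.sum_congr rfl fun l _ => ?_
      rw [map_sub, sub_mul]
    show X k - sb T (X k) ∈ I ⊔ m ^ 2
    rw [e1]
    refine lf_mem_of_ker hP0 fun t ht => ?_
    have ht' : T t = t := hTid t ht
    have e3 : ∑ l, ((if l = k then (1 : ℂ) else 0) - T (Pi.single l 1) k) * t l =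
        t k - T t k := by
      have e4 := lin_apply T t k
      have e5 : ∑ l, (if l = k then (1 : ℂ) else 0) * t l = t k := by
        rw [Finset.sum_eq_single k]
        · rw [if_pos rfl, one_mul]
        · intro l _ hl
          rw [if_neg hl, zero_mul]
        · intro h
          exact absurd (Finset.mem_univ k) h
      rw [← e5, ← e4, ← Finset.sum_sub_distrib]
      refine Finset.sum_congr rfl fun l _ => ?_
      rw [sub_mul]
    rw [e3, ht', sub_self]
  have key : ∀ s : ℕ, s ≤ k → q ∈ I ⊔ m ^ s := by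
    intro s
    induction s with
    | zero =>
      intro _
      rw [pow_zero, Ideal.one_eq_top, sup_top_eq]
      exact Submodule.mem_top
    | succ s ih =>
      intro hsk
      obtain ⟨i, hi, g, hg, hqe⟩ := Submodule.mem_sup.1 (ih (by omega))
      have hgF : (fun z : E => eval (F z) g) =O[𝓝 0] fun z => ‖z‖ ^ k := by
        refine hq.congr' ?_ EventuallyEq.rfl
        filter_upwards [hI0 i hi] with z h2
        rw [← hqe, map_add, h2, zero_add]
      set G := homogeneousComponent s g with hG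
      have hGW : ∀ w ∈ W, eval w G = 0 := by
        intro w hw
        obtain ⟨z0, hz0⟩ := htan w hw
        have hc : HasDerivAt (fun t : ℂ => F (t • z0)) w 0 := by
          have h1 : HasDerivAt (fun t : ℂ => t • z0) z0 0 := by
            simpa using (hasDerivAt_id (0 : ℂ)).smul_const z0
          have h2 : HasFDerivAt F L ((0 : ℂ) • z0) := by rw [zero_smul]; exact hF
          have h3 := h2.comp_hasDerivAt (0 : ℂ) h1
          rw [hz0] at h3
          exact h3
        refine hc_curve' hc (by rw [zero_smul, hF0]) hg ?_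
        have h4 : Tendsto (fun t : ℂ => t • z0) (𝓝 0) (𝓝 0) := by
          have : Continuous fun t : ℂ => t • z0 := continuous_id.smul continuous_const
          have h5 := this.tendsto 0
          rwa [zero_smul] at h5
        have h5 := hgF.comp_tendsto h4
        obtain ⟨Cc, hC⟩ := h5.bound
        have h6 : Tendsto (fun t : ℂ => |Cc| * (‖z0‖ ^ k) * ‖t‖ ^ (k - s)) (𝓝[≠] 0) (𝓝 0) := by
          have h7 : Continuous fun t : ℂ => |Cc| * (‖z0‖ ^ k) * ‖t‖ ^ (k - s) :=
            continuous_const.mul (continuous_norm.pow _)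
          have h8 := (h7.tendsto 0).mono_left (nhdsWithin_le_nhds (s := {(0 : ℂ)}ᶜ))
          rwa [norm_zero, zero_pow (by omega), mul_zero] at h8
        refine squeeze_zero_norm' ?_ h6
        filter_upwards [hC.filter_mono nhdsWithin_le_nhds, self_mem_nhdsWithin] with t ht ht0
        have ht0' : t ≠ 0 := ht0
        have ht1 : 0 < ‖t‖ := norm_pos_iff.2 ht0'
        simp only [Function.comp_apply, norm_pow, norm_norm] at ht
        rw [norm_mul, norm_inv, norm_pow]
        rw [norm_smul, mul_pow] at ht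
        have e9 : ‖t‖ ^ k = ‖t‖ ^ s * ‖t‖ ^ (k - s) := by
          rw [← pow_add, Nat.add_sub_cancel' (by omega)]
        have e10 : Cc * (‖t‖ ^ k * ‖z0‖ ^ k) ≤ |Cc| * (‖t‖ ^ k * ‖z0‖ ^ k) :=
          mul_le_mul_of_nonneg_right (le_abs_self _) (by positivity)
        have e11 := ht.trans e10
        calc (‖t‖ ^ s)⁻¹ * ‖eval (F (t • z0)) g‖
            ≤ (‖t‖ ^ s)⁻¹ * (|Cc| * (‖t‖ ^ k * ‖z0‖ ^ k)) := by
              exact mul_le_mul_of_nonneg_left e11 (by positivity)
          _ = |Cc| * (‖z0‖ ^ k) * ‖t‖ ^ (k - s) := by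
              rw [e9]
              field_simp
      have hG0 : sb T G = 0 := by
        refine MvPolynomial.funext fun x => ?_
        rw [eval_sb, map_zero]
        exact hGW _ (hTW x)
      have hGm : G ∈ dj T * m ^ (s - 1) := by
        have h1 := sub_sb_mem_pow T s (hc_mem s g)
        rw [← hG, hG0, sub_zero] at h1
        exact h1
      have hGI : G ∈ I ⊔ m ^ (s + 1) := by
        rcases Nat.eq_zero_or_pos s with hs | hs
        · subst hs
          have h1 : G = C (coeff 0 g) := homogeneousComponent_zero g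
          have h2 := hGW 0 W.zero_mem
          rw [h1, eval_C] at h2
          rw [h1, h2, map_zero]
          exact Submodule.zero_mem _
        · have h1 : dj T * m ^ (s - 1) ≤ I ⊔ m ^ (s + 1) := by
            refine (Ideal.mul_mono_left hJ).trans ?_
            rw [Ideal.sup_mul]
            refine sup_le_sup Ideal.mul_le_left ?_
            rw [← pow_add]
            exact Ideal.pow_le_pow_right (by omega)
          exact h1 hGm
      have h1 : q = i + G + (g - G) := by rw [← hqe]; ring
      rw [h1]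
      refine Ideal.add_mem _ (Ideal.add_mem _ (Submodule.mem_sup_left hi) hGI)
        (Submodule.mem_sup_right ?_)
      exact sub_hc_mem hg
  exact key k le_rfl

theorem map_tr_mx (v : κ → ℂ) (k : ℕ) {p : MvPolynomial κ ℂ} :
    tr v p ∈ idealOfVars κ ℂ ^ k ↔ p ∈ mx v ^ k := by
  have h1 : ∀ (u w : κ → ℂ), Ideal.map (tr u) (mx (u + w)) ≤ mx w := by
    intro u w
    rw [Ideal.map_le_iff_le_comap]
    intro p hp
    rw [Ideal.mem_comap, mem_mx, eval_tr, add_comm]
    exact mem_mx.1 hp
  rw [← mx_zero]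
  constructor
  · intro h
    have h2 := Ideal.mem_map_of_mem (tr (-v)) h
    rw [tr_tr, Ideal.map_pow] at h2
    have h3 := h1 (-v) v
    rw [neg_add_cancel] at h3
    exact Ideal.pow_right_mono h3 k h2
  · intro h
    have h2 := Ideal.mem_map_of_mem (tr v) h
    rw [Ideal.map_pow] at h2
    have h3 := h1 v 0
    rw [add_zero] at h3
    exact Ideal.pow_right_mono h3 k h2

theorem tr_span (v : κ → ℂ) {P : Set (MvPolynomial κ ℂ)} (k : ℕ) {q : MvPolynomial κ ℂ}
    (h : tr v q ∈ Ideal.span (tr v '' P) ⊔ idealOfVars κ ℂ ^ k) :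
    q ∈ Ideal.span P ⊔ mx v ^ k := by
  obtain ⟨a, ha, b, hb, hab⟩ := Submodule.mem_sup.1 h
  have h1 : q = tr (-v) a + tr (-v) b := by rw [← map_add, hab, tr_tr]
  rw [h1]
  have hcv : ∀ b : MvPolynomial κ ℂ, tr v (tr (-v) b) = b := fun b => by
    have := tr_tr (-v) b
    rwa [neg_neg] at this
  refine Submodule.add_mem_sup ?_ ?_
  · have h2 := Ideal.mem_map_of_mem (tr (-v)) ha
    rw [Ideal.map_span] at h2
    have h4 : (tr (-v)) '' (tr v '' P) = P := by
      rw [image_image]
      simp only [tr_tr, image_id']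
    rwa [h4] at h2
  · rw [← map_tr_mx, hcv]
    exact hb

/-- **the truncated lemma** -/
theorem trunc {F : E → κ → ℂ} {L : E →L[ℂ] (κ → ℂ)} {z0 : E} (hF : HasFDerivAt F L z0)
    {P : Set (MvPolynomial κ ℂ)} (hP : ∀ p ∈ P, ∀ᶠ z in 𝓝 z0, eval (F z) p = 0)
    (htan : ∀ t, (∀ p ∈ P, dd p (F z0) t = 0) → t ∈ range L) {q : MvPolynomial κ ℂ} {k : ℕ}
    (hq : (fun z : E => eval (F z) q) =O[𝓝 z0] fun z => ‖z - z0‖ ^ k) :
    q ∈ Ideal.span P ⊔ mx (F z0) ^ k := by
  have hT : Tendsto (fun z : E => z0 + z) (𝓝 0) (𝓝 z0) := by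
    have : Continuous fun z : E => z0 + z := continuous_const.add continuous_id
    have h := this.tendsto 0
    rwa [add_zero] at h
  have hG : HasFDerivAt (fun z => F (z0 + z) - F z0) L 0 := by
    have h1 : HasFDerivAt (fun z : E => z0 + z) (ContinuousLinearMap.id ℂ E) 0 := by
      simpa using (hasFDerivAt_id (0 : E)).const_add z0
    have h2 : HasFDerivAt F L (z0 + 0) := by rw [add_zero]; exact hF
    have h3 := (h2.comp (0 : E) h1).sub_const (F z0)
    rw [ContinuousLinearMap.comp_id] at h3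
    exact h3
  have hev : ∀ (p : MvPolynomial κ ℂ) (z : E),
      eval (F (z0 + z) - F z0) (tr (F z0) p) = eval (F (z0 + z)) p := fun p z => by
    rw [eval_tr, sub_add_cancel]
  refine tr_span (F z0) k (trunc0 (P := tr (F z0) '' P) (q := tr (F z0) q) hG
    (by rw [add_zero, sub_self]) (by
      rintro _ ⟨p, hp, rfl⟩
      filter_upwards [hT.eventually (hP p hp)] with z hz
      rw [hev, hz]) (fun t ht => htan t fun p hp => by
      rw [← dd_tr]
      exact ht _ ⟨p, hp, rfl⟩) ?_)
  have h1 := hq.comp_tendsto hT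
  refine (h1.congr (fun z => ?_) fun z => ?_)
  · simp only [Function.comp_apply]
    rw [hev]
  · simp only [Function.comp_apply]
    rw [add_sub_cancel_left]

/-- elements of `𝔪^k` are small -/
theorem isBigO_pow {F : E → κ → ℂ} {z0 : E}
    (hF : (fun z : E => F z - F z0) =O[𝓝 z0] fun z => ‖z - z0‖)
    {g : MvPolynomial κ ℂ} {k : ℕ} (hg : g ∈ mx (F z0) ^ k) :
    (fun z : E => eval (F z) g) =O[𝓝 z0] fun z => ‖z - z0‖ ^ k := by
  have hFc : Tendsto F (𝓝 z0) (𝓝 (F z0)) := by
    have h1 : Tendsto (fun z : E => ‖z - z0‖) (𝓝 z0) (𝓝 0) := by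
      have : Continuous fun z : E => ‖z - z0‖ := (continuous_id.sub continuous_const).norm
      have h := this.tendsto z0
      rwa [sub_self, norm_zero] at h
    have h2 := hF.trans_tendsto h1
    have h3 := h2.add_const (F z0)
    simpa using h3
  -- functions in `𝔪`
  have h1 : ∀ g ∈ mx (F z0), (fun z : E => eval (F z) g) =O[𝓝 z0] fun z => ‖z - z0‖ := by
    intro g hg
    have h2 : tr (F z0) g ∈ idealOfVars κ ℂ := by
      have := (map_tr_mx (F z0) 1 (p := g)).2 (by rwa [pow_one])
      rwa [pow_one] at this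
    have h3 : ∀ g ∈ idealOfVars κ ℂ,
        (fun z : E => eval (F z - F z0) g) =O[𝓝 z0] fun z => ‖z - z0‖ := by
      intro g hg
      refine Submodule.span_induction (p := fun g _ =>
        (fun z : E => eval (F z - F z0) g) =O[𝓝 z0] fun z => ‖z - z0‖) ?_ ?_ ?_ ?_ hg
      · rintro _ ⟨k, rfl⟩
        refine IsBigO.trans (IsBigO.of_bound 1 (Eventually.of_forall fun z => ?_)) hF
        rw [eval_X, one_mul]
        exact norm_le_pi_norm (F z - F z0) k
      · simp only [map_zero]
        exact isBigO_zero _ _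
      · intro a b _ _ ha hb
        simp only [map_add]
        exact ha.add hb
      · intro a b _ hb
        simp only [smul_eq_mul, map_mul]
        have h4 : (fun z : E => eval (F z - F z0) a) =O[𝓝 z0] fun _ => (1 : ℝ) := by
          have h5 : Tendsto (fun z : E => F z - F z0) (𝓝 z0) (𝓝 (F z0 - F z0)) :=
            hFc.sub_const _
          have h6 : Tendsto (fun z : E => eval (F z - F z0) a) (𝓝 z0)
              (𝓝 (eval (F z0 - F z0) a)) :=
            ((MvPolynomial.continuous_eval a).tendsto _).comp h5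
          exact h6.isBigO_one ℝ
        have h5 := h4.mul hb
        simpa using h5
    have h4 := h3 _ h2
    refine h4.congr_left fun z => ?_
    rw [eval_tr, sub_add_cancel]
  induction k generalizing g with
  | zero =>
    have h6 : Tendsto (fun z : E => eval (F z) g) (𝓝 z0) (𝓝 (eval (F z0) g)) :=
      ((MvPolynomial.continuous_eval g).tendsto _).comp hFc
    have := h6.isBigO_one ℝ
    simpa using this
  | succ k ih =>
    rw [pow_succ] at hg
    refine Submodule.mul_induction_on (C := fun g =>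
      (fun z : E => eval (F z) g) =O[𝓝 z0] fun z => ‖z - z0‖ ^ (k + 1)) hg
      (fun a ha b hb => ?_) (fun a b ha hb => ?_)
    · have h7 := (ih ha).mul (h1 b hb)
      simp only [map_mul, pow_succ]
      exact h7
    · simp only [map_add]
      exact ha.add hb

/-- **converse** -/
theorem trunc_conv {F : E → κ → ℂ} {z0 : E}
    (hF : (fun z : E => F z - F z0) =O[𝓝 z0] fun z => ‖z - z0‖)
    {P : Set (MvPolynomial κ ℂ)} (hP : ∀ p ∈ P, ∀ᶠ z in 𝓝 z0, eval (F z) p = 0)
    {q : MvPolynomial κ ℂ} {k : ℕ} (hq : q ∈ Ideal.span P ⊔ mx (F z0) ^ k) :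
    (fun z : E => eval (F z) q) =O[𝓝 z0] fun z => ‖z - z0‖ ^ k := by
  obtain ⟨i, hi, g, hg, rfl⟩ := Submodule.mem_sup.1 hq
  have hi0 : ∀ᶠ z in 𝓝 z0, eval (F z) i = 0 := by
    refine Submodule.span_induction (p := fun g _ => ∀ᶠ z in 𝓝 z0, eval (F z) g = 0)
      hP (Eventually.of_forall fun _ => map_zero _) (fun a b _ _ ha hb => ?_)
      (fun a b _ hb => ?_) hi
    · filter_upwards [ha, hb] with z h1 h2
      rw [map_add, h1, h2, add_zero]
    · filter_upwards [hb] with z h2
      rw [smul_eq_mul, map_mul, h2, mul_zero]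
  refine (isBigO_pow hF hg).congr' ?_ EventuallyEq.rfl
  filter_upwards [hi0] with z hz
  rw [map_add, hz, zero_add]

/-- conjugation -/
theorem mem_conj (σ : ℂ ≃+* ℂ) {P : Set (MvPolynomial κ ℂ)} {v : κ → ℂ} {k : ℕ}
    {q : MvPolynomial κ ℂ} (h : q ∈ Ideal.span P ⊔ mx v ^ k) :
    MvPolynomial.map (σ : ℂ →+* ℂ) q ∈
      Ideal.span (MvPolynomial.map (σ : ℂ →+* ℂ) '' P) ⊔ mx (fun i => σ (v i)) ^ k := by
  have h1 := Ideal.mem_map_of_mem (MvPolynomial.map (σ : ℂ →+* ℂ)) h
  rw [Ideal.map_sup, Ideal.map_span, Ideal.map_pow] at h1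
  have h2 : Ideal.map (MvPolynomial.map (σ : ℂ →+* ℂ)) (mx v) ≤ mx (fun i => σ (v i)) := ?_
  · exact (sup_le_sup_left (Ideal.pow_right_mono h2 k) _) h1
  rw [Ideal.map_le_iff_le_comap]
  intro p hp
  rw [Ideal.mem_comap, mem_mx, eval_conj, mem_mx.1 hp, map_zero]

end

end Crest.Agent.R281.Kc2_530
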