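import Crest.Agent.R281.Kc1_530
import Crest.Agent.R281.AF4_867

/-!
# R281 (S0424), KAP-CONJ (helper530, for 360 ConjCh): selection of equations

`sel` : at a conjugate point `v' = c • σ (v)` of the cone over `T` in the cone over `M`, one can
choose `codim` many equations of `T` whose conjugates are independent on `M` and imply near `v'` the
conjugates of all the equations.
-/

set_option autoImplicit false
set_option linter.unusedSectionVars false

open Set Filter Topology Complex MvPolynomial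

namespace Crest.Agent.R281.Kc3_530

open Crest.Agent.R281.Kc1_530
open Crest.Agent.R281.AF_867 (dE dE_smul_left dE_self dE_add_right dE_smul_right hasFDerivAt_ev)

noncomputable section

variable {κ : Type*} [Fintype κ]

theorem dd_eq (p : MvPolynomial κ ℂ) (v t : κ → ℂ) : dd p v t = dE p v t := rfl

theorem dd_zero_right (p : MvPolynomial κ ℂ) (v : κ → ℂ) : dd p v 0 = 0 := by
  unfold dd
  exact Finset.sum_eq_zero fun k _ => by rw [Pi.zero_apply, mul_zero]

/-- derivatives of conjugate polynomials at multiples of conjugate points -/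
theorem dd_conj' (σ : ℂ ≃+* ℂ) {p : MvPolynomial κ ℂ} {e : ℕ} (hp : p.IsHomogeneous e) {c : ℂ}
    (hc : c ≠ 0) (v t : κ → ℂ) :
    dd (MvPolynomial.map (σ : ℂ →+* ℂ) p) (c • fun k => σ (v k)) (fun k => σ (t k)) = 0 ↔
      dd p v t = 0 := by
  rw [dd_eq, dE_smul_left (hp.map _), ← dd_eq, dd_conj, mul_eq_zero, or_iff_right
    (pow_ne_zero _ hc), map_eq_zero_iff σ σ.injective]

section

variable {U W : Type*} [NormedAddCommGroup U] [NormedSpace ℂ U] [FiniteDimensional ℂ U]
  [NormedAddCommGroup W] [NormedSpace ℂ W] [FiniteDimensional ℂ W]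

theorem dd_of_vanish {G : W → κ → ℂ} {L : W →L[ℂ] (κ → ℂ)} {z0 : W} (hG : HasFDerivAt G L z0)
    {p : MvPolynomial κ ℂ} (hp : ∀ᶠ z in 𝓝 z0, eval (G z) p = 0) (z : W) :
    dd p (G z0) (L z) = 0 := by
  have h1 := hasFDerivAt_ev (f := fun k z => G z k) (f' := fun k =>
    (ContinuousLinearMap.proj (R := ℂ) (φ := fun _ : κ => ℂ) k).comp L) (z0 := z0)
    (fun k => (hasFDerivAt_pi'.1 hG) k) p
  have h2 : HasFDerivAt (fun z => eval (fun k => G z k) p) (0 : W →L[ℂ] ℂ) z0 := by
    have h3 : HasFDerivAt (fun _ : W => (0 : ℂ)) (0 : W →L[ℂ] ℂ) z0 := hasFDerivAt_const _ _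
    refine h3.congr_of_eventuallyEq ?_
    filter_upwards [hp] with z hz
    exact hz
  have h3 := h1.unique h2
  have h4 := congrArg (fun T : W →L[ℂ] ℂ => T z) h3
  simp only [_root_.sum_apply, _root_.smul_apply, ContinuousLinearMap.comp_apply,
    ContinuousLinearMap.proj_apply, smul_eq_mul, _root_.zero_apply] at h4
  exact h4

/-- **selection of equations** -/
theorem sel (σ : ℂ ≃+* ℂ) {E0 EM : Set (MvPolynomial κ ℂ)}
    (h0 : ∀ p ∈ E0, ∃ e, p.IsHomogeneous e) (hM : ∀ p ∈ EM, ∃ e, p.IsHomogeneous e)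
    (hMσ : ∀ p ∈ EM, MvPolynomial.map (σ : ℂ →+* ℂ) p = p)
    {G : W → κ → ℂ} {L : W →L[ℂ] (κ → ℂ)} {z0 : W} (hG : HasFDerivAt G L z0)
    (hL : Function.Injective L)
    (hE0 : ∀ p ∈ E0, ∀ᶠ z in 𝓝 z0, eval (G z) p = 0)
    (hEM : ∀ p ∈ EM, ∀ᶠ z in 𝓝 z0, eval (G z) p = 0)
    (htan : ∀ t, (∀ p ∈ E0 ∪ EM, dd p (G z0) t = 0) → t ∈ range L) (hne : G z0 ≠ 0)
    {v' : κ → ℂ} {c : ℂ} (hc : c ≠ 0) (hv' : v' = c • fun k => σ (G z0 k))
    {D : U →L[ℂ] (κ → ℂ)}
    (hD : ∀ t, (∀ p ∈ EM, dd p v' t = 0) → ∃ (a : ℂ) (u : U), t = a • v' + D u)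
    (hD' : ∀ p ∈ EM, ∀ u, dd p v' (D u) = 0)
    (hDi : ∀ (a : ℂ) (u : U), D u = a • v' → u = 0) :
    ∃ (k : ℕ) (p : Fin k → MvPolynomial κ ℂ), k + Module.finrank ℂ W = Module.finrank ℂ U + 1 ∧
      (∀ a, p a ∈ E0) ∧
      Function.Surjective
        (fun (u : U) (a : Fin k) => dd (MvPolynomial.map (σ : ℂ →+* ℂ) (p a)) v' (D u)) ∧
      ∀ q ∈ E0, ∀ᶠ w in 𝓝 v', (∀ a, eval w (MvPolynomial.map (σ : ℂ →+* ℂ) (p a)) = 0) →
        (∀ p ∈ EM, eval w p = 0) → eval w (MvPolynomial.map (σ : ℂ →+* ℂ) q) = 0 := by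
  classical
  set v := G z0 with hv
  have hhom : ∀ p ∈ E0 ∪ EM, ∃ e, p.IsHomogeneous e := fun p hp => hp.elim (h0 p) (hM p)
  have hvan : ∀ p ∈ E0 ∪ EM, eval v p = 0 := fun p hp =>
    hp.elim (fun h => (hE0 p h).self_of_nhds) (fun h => (hEM p h).self_of_nhds)
  have hdL : ∀ p ∈ E0 ∪ EM, ∀ z, dd p v (L z) = 0 := fun p hp z =>
    hp.elim (fun h => dd_of_vanish hG (hE0 p h) z) (fun h => dd_of_vanish hG (hEM p h) z)
  have hvan' : ∀ p ∈ E0 ∪ EM, eval v' (MvPolynomial.map (σ : ℂ →+* ℂ) p) = 0 := by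
    intro p hp
    obtain ⟨e, he⟩ := hhom p hp
    rw [hv', eval_smul_homog (he.map _), eval_conj, hvan p hp, map_zero, mul_zero]
  have hself : ∀ p ∈ E0 ∪ EM, dd (MvPolynomial.map (σ : ℂ →+* ℂ) p) v' v' = 0 := by
    intro p hp
    obtain ⟨e, he⟩ := hhom p hp
    rw [dd_eq, dE_self (he.map _), hvan' p hp, mul_zero]
  -- conjugation of tangent vectors
  have hcj : ∀ p ∈ E0 ∪ EM, ∀ t : κ → ℂ,
      dd (MvPolynomial.map (σ : ℂ →+* ℂ) p) v' t = 0 ↔ dd p v (fun k => σ.symm (t k)) = 0 := by
    intro p hp t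
    obtain ⟨e, he⟩ := hhom p hp
    have h1 := dd_conj' σ he hc v (fun k => σ.symm (t k))
    simp only [RingEquiv.apply_symm_apply] at h1
    rw [hv']
    exact h1
  -- `KS`
  let KS : Submodule ℂ (κ → ℂ) :=
    { carrier := {t | ∀ p ∈ E0 ∪ EM, dd (MvPolynomial.map (σ : ℂ →+* ℂ) p) v' t = 0}
      add_mem' := fun {a b} ha hb p hp => by
        rw [dd_eq, dE_add_right, ← dd_eq, ← dd_eq, ha p hp, hb p hp, add_zero]
      zero_mem' := fun p _ => dd_zero_right _ _
      smul_mem' := fun c a ha p hp => by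
        rw [dd_eq, dE_smul_right, ← dd_eq, ha p hp, mul_zero] }
  have hKS : ∀ t, t ∈ KS ↔ ∃ z, (fun k => σ.symm (t k)) = L z := by
    intro t
    constructor
    · intro ht
      obtain ⟨z, hz⟩ := htan (fun k => σ.symm (t k)) fun p hp => (hcj p hp t).1 (ht p hp)
      exact ⟨z, hz.symm⟩
    · rintro ⟨z, hz⟩ p hp
      rw [hcj p hp, hz]
      exact hdL p hp z
  -- a basis of `KS`
  let b := Module.finBasis ℂ W
  let Λ : (Fin (Module.finrank ℂ W) → ℂ) →ₗ[ℂ] (κ → ℂ) :=
    { toFun := fun a k => ∑ j, a j * σ (L (b j) k)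
      map_add' := fun a a' => by
        funext k
        rw [Pi.add_apply, ← Finset.sum_add_distrib]
        exact Finset.sum_congr rfl fun j _ => by rw [Pi.add_apply, add_mul]
      map_smul' := fun r a => by
        funext k
        rw [RingHom.id_apply, Pi.smul_apply, smul_eq_mul, Finset.mul_sum]
        exact Finset.sum_congr rfl fun j _ => by rw [Pi.smul_apply, smul_eq_mul]; ring }
  have hΛ : ∀ a, (fun k => σ.symm (Λ a k)) = L (∑ j, σ.symm (a j) • b j) := by
    intro a
    funext k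
    show σ.symm (∑ j, a j * σ (L (b j) k)) = _
    rw [map_sum, map_sum, Finset.sum_apply]
    exact Finset.sum_congr rfl fun j _ => by
      rw [map_mul, RingEquiv.symm_apply_apply, map_smul, Pi.smul_apply, smul_eq_mul]
  have hΛi : Function.Injective Λ := by
    rw [injective_iff_map_eq_zero]
    intro a ha
    have h1 := hΛ a
    rw [ha] at h1
    have h2 : L (∑ j, σ.symm (a j) • b j) = 0 := by
      rw [← h1]
      funext k
      exact map_zero σ.symm
    have h3 : ∑ j, σ.symm (a j) • b j = 0 := hL (by rw [h2, map_zero])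
    have h4 := Fintype.linearIndependent_iff.1 b.linearIndependent _ h3
    funext j
    have h5 := h4 j
    exact (map_eq_zero_iff σ.symm σ.symm.injective).1 h5
  have hΛr : LinearMap.range Λ = KS := by
    ext t
    rw [LinearMap.mem_range, hKS]
    constructor
    · rintro ⟨a, rfl⟩
      exact ⟨_, hΛ a⟩
    · rintro ⟨z, hz⟩
      refine ⟨fun j => σ (b.repr z j), ?_⟩
      funext k
      show ∑ j, σ (b.repr z j) * σ (L (b j) k) = t k
      have h1 : σ.symm (t k) = L z k := congrFun hz k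
      have h2 : L z = ∑ j, b.repr z j • L (b j) := by
        conv_lhs => rw [← b.sum_repr z]
        rw [map_sum]
        exact Finset.sum_congr rfl fun j _ => map_smul _ _ _
      rw [← σ.apply_symm_apply (t k), h1, h2, Finset.sum_apply, map_sum]
      exact Finset.sum_congr rfl fun j _ => by rw [Pi.smul_apply, smul_eq_mul, map_mul]
  have hf1 : Module.finrank ℂ KS = Module.finrank ℂ W := by
    rw [← hΛr, LinearMap.finrank_range_of_inj hΛi, Module.finrank_fin_fun]
  -- the functionals
  let φ : MvPolynomial κ ℂ → Module.Dual ℂ U := fun p =>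
    { toFun := fun u => dd (MvPolynomial.map (σ : ℂ →+* ℂ) p) v' (D u)
      map_add' := fun a a' => by rw [map_add, dd_eq, dE_add_right]; rfl
      map_smul' := fun r a => by rw [map_smul, dd_eq, dE_smul_right]; rfl }
  have hφ : ∀ p u, φ p u = dd (MvPolynomial.map (σ : ℂ →+* ℂ) p) v' (D u) := fun _ _ => rfl
  set Sf : Set (Module.Dual ℂ U) := φ '' E0 with hSf
  obtain ⟨k, hk, f, hfS, hfsp⟩ : ∃ k : ℕ, k = Module.finrank ℂ (Submodule.span ℂ Sf) ∧
      ∃ f : Fin k → Module.Dual ℂ U, (∀ i, f i ∈ Sf) ∧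
        Submodule.span ℂ (range f) = Submodule.span ℂ Sf := by
    obtain ⟨f, hfS, hfsp, -⟩ := Submodule.exists_fun_fin_finrank_span_eq ℂ Sf
    exact ⟨_, rfl, f, hfS, hfsp⟩
  choose p hp hpf using hfS
  set Kf : Submodule ℂ U := (Submodule.span ℂ Sf).dualCoannihilator with hKf
  have hKfm : ∀ u, u ∈ Kf ↔ ∀ p ∈ E0, dd (MvPolynomial.map (σ : ℂ →+* ℂ) p) v' (D u) = 0 := by
    intro u
    rw [hKf, Submodule.mem_dualCoannihilator]
    constructor
    · intro h p hp
      exact h (φ p) (Submodule.subset_span ⟨p, hp, rfl⟩)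
    · intro h g hg
      refine Submodule.span_induction (p := fun g _ => g u = 0) ?_ rfl
        (fun a a' _ _ ha hb => by
          show a u + a' u = 0
          rw [ha, hb, add_zero])
        (fun r a _ ha => by
          show r • a u = 0
          rw [ha, smul_zero]) hg
      rintro _ ⟨p, hp, rfl⟩
      exact h p hp
  have hKfm' : ∀ u, u ∈ Kf ↔ ∀ a, f a u = 0 := by
    intro u
    rw [hKf, ← hfsp, Submodule.mem_dualCoannihilator]
    constructor
    · intro h a
      exact h (f a) (Submodule.subset_span ⟨a, rfl⟩)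
    · intro h g hg
      refine Submodule.span_induction (p := fun g _ => g u = 0) ?_ rfl
        (fun a a' _ _ ha hb => by
          show a u + a' u = 0
          rw [ha, hb, add_zero])
        (fun r a _ ha => by
          show r • a u = 0
          rw [ha, smul_zero]) hg
      rintro _ ⟨a, rfl⟩
      exact h a
  have hdim : k + Module.finrank ℂ Kf = Module.finrank ℂ U := by
    rw [hk]
    exact Subspace.finrank_add_finrank_dualCoannihilator_eq _
  -- `KS = ℂ v' ⊕ D Kf`
  have hv'0 : v' ≠ 0 := by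
    rw [hv']
    refine smul_ne_zero hc fun h => hne ?_
    funext k
    have h1 := congrFun h k
    exact (map_eq_zero_iff σ σ.injective).1 h1
  let Γ : (ℂ × Kf) →ₗ[ℂ] (κ → ℂ) :=
    { toFun := fun q => q.1 • v' + D (q.2 : U)
      map_add' := fun q q' => by
        simp only [Prod.fst_add, Prod.snd_add, Submodule.coe_add, map_add, add_smul]
        abel
      map_smul' := fun r q => by
        simp only [Prod.smul_fst, Prod.smul_snd, Submodule.coe_smul, map_smul, smul_eq_mul,
          mul_smul, RingHom.id_apply, smul_add] }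
  have hΓi : Function.Injective Γ := by
    rw [injective_iff_map_eq_zero]
    rintro ⟨a, u⟩ h
    have h1 : a • v' + D (u : U) = 0 := h
    have h2 : D (u : U) = (-a) • v' := by
      rw [neg_smul, eq_neg_iff_add_eq_zero, add_comm]
      exact h1
    have h3 : (u : U) = 0 := hDi (-a) u h2
    rw [h3, map_zero, add_zero] at h1
    have h4 : a = 0 := (smul_eq_zero.1 h1).resolve_right hv'0
    rw [h4]
    exact Prod.ext rfl (Subtype.ext h3)
  have hΓr : LinearMap.range Γ = KS := by
    ext t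
    rw [LinearMap.mem_range]
    constructor
    · rintro ⟨⟨a, u⟩, rfl⟩
      intro p hp
      show dd (MvPolynomial.map (σ : ℂ →+* ℂ) p) v' (a • v' + D (u : U)) = 0
      rw [dd_eq, dE_add_right, dE_smul_right, ← dd_eq, ← dd_eq, hself p hp, mul_zero, zero_add]
      rcases hp with hp | hp
      · exact (hKfm u).1 u.2 p hp
      · rw [hMσ p hp]
        exact hD' p hp u
    · intro ht
      obtain ⟨a, u, rfl⟩ := hD t fun p hp => by
        have := ht p (Or.inr hp)
        rwa [hMσ p hp] at this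
      have hu : u ∈ Kf := by
        rw [hKfm]
        intro p hp
        have h1 := ht p (Or.inl hp)
        rw [dd_eq, dE_add_right, dE_smul_right, ← dd_eq, ← dd_eq, hself p (Or.inl hp), mul_zero,
          zero_add] at h1
        exact h1
      exact ⟨(a, ⟨u, hu⟩), rfl⟩
  have hf2 : Module.finrank ℂ KS = 1 + Module.finrank ℂ Kf := by
    rw [← hΓr, LinearMap.finrank_range_of_inj hΓi, Module.finrank_prod, Module.finrank_self]
  refine ⟨k, p, by omega, hp, ?_, ?_⟩
  · -- surjectivity
    let Ψ : U →ₗ[ℂ] (Fin k → ℂ) := LinearMap.pi f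
    have hker : LinearMap.ker Ψ = Kf := by
      ext u
      rw [LinearMap.mem_ker, hKfm']
      constructor
      · intro h a
        exact congrFun h a
      · intro h
        funext a
        exact h a
    have hrn := LinearMap.finrank_range_add_finrank_ker Ψ
    rw [hker] at hrn
    have hr : LinearMap.range Ψ = ⊤ := by
      apply Submodule.eq_top_of_finrank_eq
      rw [Module.finrank_fin_fun]
      omega
    have hsur : Function.Surjective Ψ := LinearMap.range_eq_top.1 hr
    intro w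
    obtain ⟨u, hu⟩ := hsur w
    refine ⟨u, ?_⟩
    funext a
    have h1 := congrFun hu a
    show dd (MvPolynomial.map (σ : ℂ →+* ℂ) (p a)) v' (D u) = w a
    rw [← hφ, hpf a]
    exact h1
  · intro q hq
    have hvr : ∀ p' ∈ range p ∪ EM, ∃ e, p'.IsHomogeneous e := by
      rintro p' (⟨a, rfl⟩ | h)
      · exact h0 _ (hp a)
      · exact hM _ h
    have hreg := reg_conj σ (P := range p ∪ EM) hG (by
      rintro p' (⟨a, rfl⟩ | h)
      · exact hE0 _ (hp a)
      · exact hEM _ h) (by
      intro t ht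
      have ht' : (fun k => σ (t k)) ∈ KS := by
        obtain ⟨a, u, hau⟩ := hD (fun k => σ (t k)) fun p' hp' => by
          obtain ⟨e, he⟩ := hM p' hp'
          have h1 := (dd_conj' σ he hc v t).2 (ht p' (Or.inr hp'))
          rw [hMσ p' hp', ← hv'] at h1
          exact h1
        have hu : u ∈ Kf := by
          rw [hKfm']
          intro a'
          obtain ⟨e, he⟩ := h0 _ (hp a')
          have h1 := (dd_conj' σ he hc v t).2 (ht (p a') (Or.inl ⟨a', rfl⟩))
          rw [← hv', hau, dd_eq, dE_add_right, dE_smul_right, ← dd_eq, ← dd_eq,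
            hself _ (Or.inl (hp a')), mul_zero, zero_add] at h1
          rw [← hpf a', hφ]
          exact h1
        rw [← hΓr, LinearMap.mem_range]
        exact ⟨(a, ⟨u, hu⟩), hau.symm⟩
      rw [hKS] at ht'
      obtain ⟨z, hz⟩ := ht'
      refine ⟨z, ?_⟩
      rw [← hz]
      funext k
      exact σ.symm_apply_apply (t k)) (hE0 q hq)
    -- scaling
    have hT : Tendsto (fun w : κ → ℂ => c⁻¹ • w) (𝓝 v') (𝓝 (fun k => σ (G z0 k))) := by
      have h1 : Continuous fun w : κ → ℂ => c⁻¹ • w := continuous_const_smul _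
      have h2 := h1.tendsto v'
      have h3 : c⁻¹ • v' = fun k => σ (G z0 k) := by
        rw [hv', smul_smul, inv_mul_cancel₀ hc, one_smul]
      rwa [h3] at h2
    filter_upwards [hT.eventually hreg] with w hw h1 h2
    have h3 := hw fun p' hp' => by
      obtain ⟨e, he⟩ := hvr p' hp'
      rw [eval_smul_homog (he.map _)]
      rcases hp' with ⟨a, rfl⟩ | hp'
      · rw [h1 a, mul_zero]
      · rw [hMσ p' hp', h2 p' hp', mul_zero]
    obtain ⟨e, he⟩ := h0 q hq
    rw [eval_smul_homog (he.map _)] at h3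
    exact (mul_eq_zero.1 h3).resolve_left (pow_ne_zero _ (inv_ne_zero hc))

end

end

end Crest.Agent.R281.Kc3_530
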