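import Crest.Agent.R281.Kd9_22
import Crest.Agent.R281.TubT_831
import Crest.Agent.R281.HkM1_835

/-!
# Row 281, KAPPA-1 glue, part 10 (helper22): periods under a change of charts

* `smI_change`, `pull_F`, `pull_eqv`, `per_congr`
* `q_zero'`     : `Q w e = 0` for a form `w` without periods over the tori
* `PVan`        : all classes orthogonal to `e` have no periods over the tori of the tube
* `pvan_of_pvt` : `PVan` from 831's `PVT`
-/

set_option autoImplicit false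
set_option linter.unusedSectionVars false
set_option maxSynthPendingDepth 3

open Set Filter Topology Complex Module
open scoped ContDiff

namespace Crest.Agent.R281.Kd_22

open Crest.Agent.R275.Geo
open Crest.Agent.R281.HkR_835 Crest.Agent.R281.HkR_835.Cmp Crest.Agent.R281.Ti_846
open Crest.Agent.R281.Dif_268 (Eqv)
open Crest.Agent.R281.Per_368
open Crest.Agent.R281.Tub_831 (PVT)

noncomputable section

section change

variable {V X : Type} [NormedAddCommGroup V] [NormedSpace ℝ V] [TopologicalSpace X]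
  {V' : Type} [NormedAddCommGroup V'] [NormedSpace ℝ V'] {C : RCh V X} {C' : RCh V' X}
  {E : Type*} [NormedAddCommGroup E] [NormedSpace ℝ E] {S : Set E} {Φ : E → X}

theorem mem_mov {i : C.ι} {j : C'.ι} {x : X} (hi : x ∈ (C.e i).source)
    (hj : x ∈ (C'.e j).source) : C'.e j x ∈ mov C C' i j := by
  refine ⟨(C'.e j).map_source hj, ?_⟩
  rw [(C'.e j).left_inv hj]; exact hi

theorem mt_e {i : C.ι} {j : C'.ι} {x : X} (hj : x ∈ (C'.e j).source) :
    mt C C' i j (C'.e j x) = C.e i x := by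
  show C.e i ((C'.e j).symm (C'.e j x)) = _
  rw [(C'.e j).left_inv hj]

theorem smI_change (h : Cmp C C') (hΦ : SmI C' S Φ) : SmI C S Φ where
  op := hΦ.op
  cont := hΦ.cont
  sm i := by
    rintro ζ ⟨hζ, hi⟩
    obtain ⟨j, hj⟩ := C'.cover (Φ ζ)
    have h1 : ContDiffAt ℝ ∞ (mt C C' i j) (C'.e j (Φ ζ)) :=
      (h.s i j).contDiffAt ((isOpen_mov C C' i j).mem_nhds (mem_mov hi hj))
    have h2 := ContDiffAt.comp (g := mt C C' i j) (f := fun y => C'.e j (Φ y)) ζ h1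
      (hΦ.smAt hζ hj)
    refine (h2.congr_of_eventuallyEq ?_).contDiffWithinAt
    filter_upwards [(hΦ.isOpen_pre (C'.e j).open_source).mem_nhds ⟨hζ, hj⟩] with y hy
    exact (mt_e hy.2).symm

theorem pull_F (h : Cmp C C') (hΦ : SmI C' S Φ) (w : F2 C) {ζ : E} (hζ : ζ ∈ S) :
    pull (h.F w) Φ ζ = pull w Φ ζ := by
  obtain ⟨j, hj⟩ := C'.cover (Φ ζ)
  obtain ⟨i, hi⟩ := C.cover (Φ ζ)
  have hΦ' := smI_change h hΦ
  rw [hΦ.pull_eq (h.F w) hζ hj, hΦ'.pull_eq w hζ hi]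
  have hm : C'.e j (Φ ζ) ∈ mov C C' i j := mem_mov hi hj
  have h1 : fderiv ℝ (fun y => C.e i (Φ y)) ζ =
      (fderiv ℝ (mt C C' i j) (C'.e j (Φ ζ))).comp (fderiv ℝ (fun y => C'.e j (Φ y)) ζ) := by
    have h2 : (fun y => C.e i (Φ y)) =ᶠ[𝓝 ζ] fun y => mt C C' i j (C'.e j (Φ y)) := by
      filter_upwards [(hΦ.isOpen_pre (C'.e j).open_source).mem_nhds ⟨hζ, hj⟩] with y hy
      exact (mt_e hy.2).symm
    rw [h2.fderiv_eq]
    exact (HasFDerivAt.comp (g := mt C C' i j) (f := fun y => C'.e j (Φ y)) ζ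
      (h.diff hm).hasFDerivAt (hΦ.diffAt hζ hj).hasFDerivAt).fderiv
  refine ContinuousLinearMap.ext fun a => ContinuousLinearMap.ext fun b => ?_
  rw [pl_apply, pl_apply, h.F_w w hm, h1, mt_e hj]
  rfl

theorem pull_eqv {w w' : F2 C} (he : Eqv w w') (Φ : E → X) (ζ : E) :
    pull w Φ ζ = pull w' Φ ζ := by
  refine ContinuousLinearMap.ext fun a => ContinuousLinearMap.ext fun b => ?_
  exact he _ _ ((C.e _).map_source (ci_mem C (Φ ζ))) _ _

theorem per_congr {ξ η : E → E →L[ℝ] E →L[ℝ] ℝ} {z v w : E}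
    (h : ∀ s t : ℝ, ξ (pt z v w s t) v w = η (pt z v w s t) v w) : per ξ z v w = per η z v w := by
  unfold per
  exact intervalIntegral.integral_congr fun s _ => intervalIntegral.integral_congr fun t _ => h s t

/-- a form without periods over the tori is orthogonal to `e` -/
theorem q_zero' [FiniteDimensional ℝ E] (hΦ : SmI C univ Φ) {Q : F2 C →ₗ[ℝ] ℝ} {ι : Type*}
    (β : ι → E) (hPV : ∀ w, Q w = 0 → ∀ z a c, per (pull w Φ) z (β a) (β c) = 0) {k w : F2 C}
    (hk : ∃ z a c, per (pull k Φ) z (β a) (β c) ≠ 0)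
    (hw : ∀ z a c, per (pull w Φ) z (β a) (β c) = 0) : Q w = 0 := by
  obtain ⟨z, a, c, h0⟩ := hk
  have h1 : Q (Q k • w + (-Q w) • k) = 0 := by
    rw [map_add, map_smul, map_smul, smul_eq_mul, smul_eq_mul]; ring
  have h2 := hPV _ h1 z a c
  have hin : ∀ s t : ℝ, pt z (β a) (β c) s t ∈ (univ : Set E) := fun _ _ => mem_univ _
  rw [per_add (S := univ) (ξ := pull (Q k • w) Φ)
    (η := pull ((-Q w) • k) Φ) (hΦ.pull_smooth _).continuousOn
    (hΦ.pull_smooth _).continuousOn hin (fun x _ => pull_add_w _ _ _ _ _ _),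
    per_smul (S := univ) (Q k) (ξ := pull w Φ) hin
      (fun x _ => pull_smul_w _ _ _ _ _ _),
    per_smul (S := univ) (-Q w) (ξ := pull k Φ) hin
      (fun x _ => pull_smul_w _ _ _ _ _ _), hw z a c, mul_zero, zero_add] at h2
  rcases mul_eq_zero.1 h2 with h3 | h3
  · linarith
  · exact absurd h3 h0

end change

section pv

variable {V X : Type} [NormedAddCommGroup V] [NormedSpace ℝ V] [TopologicalSpace X] {C : RCh V X}
  {d : ℕ} {A : Atl d X} {F B : Type} [NormedAddCommGroup F] [NormedSpace ℂ F]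
  [NormedAddCommGroup B] [NormedSpace ℂ B]

/-- all classes orthogonal to `e` have no periods over the tori of the tube -/
def PVan (Q : F2 C →ₗ[ℝ] F2 C →ₗ[ℝ] ℝ) (e : F2 C) (T : HTube A F B) : Prop :=
  ∀ b ∈ T.Om, ∃ (m : ℕ) (β : Basis (Fin m) ℝ F), (∀ a c, T.P (c + β a, b) = T.P (c, b)) ∧
    ∀ w : F2 C, Q w e = 0 → ∀ z a c, per (pull w (fun c => T.P (c, b))) z (β a) (β c) = 0

theorem PVan.change {Q : F2 C →ₗ[ℝ] F2 C →ₗ[ℝ] ℝ} {e : F2 C} {T : HTube A F B}
    (h : PVan Q e T) {A' : Atl d X} (h1 : Crest.Agent.R273.Map_835.HolMap A' A id)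
    (h2 : Crest.Agent.R273.Map_835.HolMap A A' id) : PVan Q e (T.change h1 h2) := h

/-- from the total map to the fibres -/
theorem pull_fib {F' B' : Type*} [NormedAddCommGroup F'] [NormedSpace ℝ F']
    [NormedAddCommGroup B'] [NormedSpace ℝ B'] {D : Set B'} {Ψ : B' × F' → X}
    (hΨ : SmI C (D ×ˢ univ) Ψ) (w : F2 C) {y : B'} (hy : y ∈ D) (x u v : F') :
    pull w (fun c => Ψ (y, c)) x u v = pull w Ψ (y, x) (0, u) (0, v) := by
  have hm : ((y, x) : B' × F') ∈ D ×ˢ (univ : Set F') := ⟨hy, mem_univ _⟩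
  have h1 : ∀ u, fderiv ℝ (fun c => C.e (ci C (Ψ (y, x))) (Ψ (y, c))) x u =
      fderiv ℝ (fun q => C.e (ci C (Ψ (y, x))) (Ψ q)) (y, x) (0, u) := by
    intro u
    have h2 := (hΨ.diffAt hm (ci_mem C (Ψ (y, x)))).hasFDerivAt
    have h3 : HasFDerivAt (fun c : F' => (y, c)) (ContinuousLinearMap.inr ℝ B' F') x :=
      (hasFDerivAt_const y x).prodMk (hasFDerivAt_id x)
    have h4 := (HasFDerivAt.comp (g := fun q => C.e (ci C (Ψ (y, x))) (Ψ q))
      (f := fun c : F' => (y, c)) x h2 h3).fderiv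
    have h5 : ((fun q => C.e (ci C (Ψ (y, x))) (Ψ q)) ∘ fun c : F' => (y, c)) =
        fun c => C.e (ci C (Ψ (y, x))) (Ψ (y, c)) := rfl
    rw [h5] at h4
    rw [h4]; rfl
  show w.w _ _ (fderiv ℝ (fun c => C.e (ci C (Ψ (y, x))) (Ψ (y, c))) x u)
    (fderiv ℝ (fun c => C.e (ci C (Ψ (y, x))) (Ψ (y, c))) x v) = _
  rw [h1, h1]
  rfl

/-- 831's form of the vanishing of the periods -/
theorem pvan_of_pvt {n : ℕ} {Q : F2 C →ₗ[ℝ] F2 C →ₗ[ℝ] ℝ} {e : F2 C}
    {D : Set (Cn n)} {Ψ : Cn n × Cn n → X} {l : Fin (2 * n) → Cn n → Cn n}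
    (hΨ : SmI C (D ×ˢ univ) Ψ) (hper : ∀ y ∈ D, ∀ k x, Ψ (y, x + l k y) = Ψ (y, x))
    (hli : ∀ y ∈ D, LinearIndependent ℝ (fun k => l k y))
    (hPV : PVT Q e D Ψ l) (T : HTube A (Cn n) (Cn n)) (hOm : T.Om ⊆ D)
    (hP : ∀ p : Cn n × Cn n, p.2 ∈ T.Om → T.P p = Ψ (p.2, p.1)) : PVan Q e T := by
  intro b hb
  have hbD := hOm hb
  have hcard : Fintype.card (Fin (2 * n)) = finrank ℝ (Cn n) := by
    rw [finrank_real_of_complex]; simp
  rcases Nat.eq_zero_or_pos n with hn | hn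
  · subst hn
    refine ⟨0, Basis.empty _, fun a => a.elim0, fun _ _ _ a => a.elim0⟩
  have : Nonempty (Fin (2 * n)) := ⟨⟨0, by omega⟩⟩
  refine ⟨2 * n, basisOfLinearIndependentOfCardEqFinrank (hli b hbD) hcard, fun a c => ?_,
    fun w hw z a c => ?_⟩
  · rw [coe_basisOfLinearIndependentOfCardEqFinrank, hP _ hb, hP _ hb]
    exact hper b hbD a c
  · rw [coe_basisOfLinearIndependentOfCardEqFinrank]
    have h1 := hPV w hw b hbD z a c
    rw [← h1]
    have h2 : (fun c => T.P (c, b)) = fun c => Ψ (b, c) := by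
      funext c; exact hP (c, b) hb
    rw [h2]
    unfold per
    refine intervalIntegral.integral_congr fun s _ => intervalIntegral.integral_congr fun t _ => ?_
    have h3 : pt ((b, z) : Cn n × Cn n) (0, l a b) (0, l c b) s t =
        (b, pt z (l a b) (l c b) s t) := by
      simp [pt]
    show pull w (fun c => Ψ (b, c)) (pt z (l a b) (l c b) s t) (l a b) (l c b) =
      pull w Ψ (pt (b, z) (0, l a b) (0, l c b) s t) (0, l a b) (0, l c b)
    rw [h3]
    exact pull_fib hΨ w hbD _ _ _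

end pv

end

end Crest.Agent.R281.Kd_22
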