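import Crest.Agent.R281.Kd4_22
import Crest.Agent.R281.Rk2_599

/-!
Row 281 (S0424), K1-DIV (helper22), part 6: transport of sections from a refined atlas back to the
given atlas, and the conclusion of K1-DIV.

* `pullLB_mul`, `pullLB_pow` ... : refinement is multiplicative
* `unS`, `isHS_unS`              : sections on the refined atlas give sections on the given atlas
* `rank_back`                    : `L^a = N^k` on the refined atlas ⟹ sections of `L^a` with the ratios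
                                   `s_j / s_0`, of maximal rank
* `kappa_of_ns`                  : K1-DIV
-/

set_option autoImplicit false
set_option linter.unusedSectionVars false

open Set Filter Topology Complex

noncomputable section

namespace Crest.Agent.R281.Kd_22

open Crest.Agent.R275.Geo Crest.Agent.R275.Core144 Crest.Agent.R275.Loc2879
open Crest.Agent.R273.Map_835 Crest.Agent.R273.PB_835 Crest.Agent.R273.Defs_333
open Crest.Agent.R275.GC293 Crest.Agent.R281.Rk_599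

variable {n : ℕ} {M : Type} [TopologicalSpace M] {A A' : Atl n M}

section Pull

variable (hid : HolMap A' A id) (R : Ref A' A id)

theorem pullLB_one : pullLB hid R 1 = 1 := by
  ext i j x
  by_cases hx : x ∈ (A'.e i).source ∩ (A'.e j).source
  · rw [pullLB_g hid R _ hx]; rfl
  · rw [(pullLB hid R 1).off i j x hx]; rfl

theorem pullLB_mul (L L' : LB A) :
    pullLB hid R (L * L') = pullLB hid R L * pullLB hid R L' := by
  ext i j x
  by_cases hx : x ∈ (A'.e i).source ∩ (A'.e j).source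
  · rw [LB.mul_g, pullLB_g hid R _ hx, pullLB_g hid R _ hx, pullLB_g hid R _ hx]; rfl
  · rw [(pullLB hid R (L * L')).off i j x hx, LB.mul_g, (pullLB hid R L).off i j x hx,
      (pullLB hid R L').off i j x hx, one_mul]

/-- refinement as a homomorphism of groups -/
def pullHom : LB A →* LB A' where
  toFun := pullLB hid R
  map_one' := pullLB_one hid R
  map_mul' := pullLB_mul hid R

theorem pullLB_pow (L : LB A) (m : ℕ) : pullLB hid R (L ^ m) = pullLB hid R L ^ m :=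
  map_pow (pullHom hid R) L m

theorem pullLB_inv (L : LB A) : pullLB hid R L⁻¹ = (pullLB hid R L)⁻¹ :=
  map_inv (pullHom hid R) L

theorem pullLB_zpow (L : LB A) (m : ℤ) : pullLB hid R (L ^ m) = pullLB hid R L ^ m :=
  map_zpow (pullHom hid R) L m

end Pull

/-! ### transport of sections to the coarse atlas -/

open Classical in
/-- a section on the refined atlas as a section on the given atlas -/
def unS (R : Ref A' A id) (Q : LB A) (v : A'.ι → M → ℂ) : A.ι → M → ℂ := fun i x =>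
  if x ∈ (A.e i).source then Q.g i (R.r (A'.cover x).choose) x * v (A'.cover x).choose x else 0

theorem unS_eq {hid : HolMap A' A id} {R : Ref A' A id} {Q : LB A} {v : A'.ι → M → ℂ}
    (hv : IsHS (pullLB hid R Q) univ v) {i : A.ι} {i' : A'.ι} {x : M} (hx : x ∈ (A.e i).source)
    (hx' : x ∈ (A'.e i').source) : unS R Q v i x = Q.g i (R.r i') x * v i' x := by
  have hc := (A'.cover x).choose_spec
  rw [unS, if_pos hx, hv.tr _ i' x ⟨hc, hx'⟩ (mem_univ x), pullLB_g hid R Q ⟨hc, hx'⟩, ← mul_assoc]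
  congr 1
  exact Q.mul i _ _ x ⟨⟨hx, R.sub _ x hc⟩, R.sub i' x hx'⟩

theorem unS_off {R : Ref A' A id} {Q : LB A} {v : A'.ι → M → ℂ} {i : A.ι} {x : M}
    (hx : x ∉ (A.e i).source) : unS R Q v i x = 0 := if_neg hx

theorem isHS_unS {hid : HolMap A' A id} (hid' : HolMap A A' id) {R : Ref A' A id} {Q : LB A}
    {v : A'.ι → M → ℂ} (hv : IsHS (pullLB hid R Q) univ v) : IsHS Q univ (unS R Q v) := by
  refine ⟨fun i => holAt_of_hm fun x hx _ => ?_, fun i x hx => unS_off hx, fun i j x hx _ => ?_⟩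
  · obtain ⟨i', hi'⟩ := A'.cover x
    have h1 : Hm A (v i') x := hm_change hid' (hm_of_isHS hv hi')
    have h2 : Hm A (Q.g i (R.r i')) x :=
      hm_of_holAt (Q.hol i _) (A.e _).open_source hx (R.sub i' x hi')
    refine (h2.mul h1).congr ?_
    filter_upwards [(A.e i).open_source.mem_nhds hx, (A'.e i').open_source.mem_nhds hi']
      with y hy hy'
    rw [unS_eq hv hy hy']
  · obtain ⟨i', hi'⟩ := A'.cover x
    rw [unS_eq hv hx.1 hi', unS_eq hv hx.2 hi', ← mul_assoc]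
    congr 1
    exact (Q.mul i j _ x ⟨hx, R.sub i' x hi'⟩).symm

theorem unS_ne {hid : HolMap A' A id} {R : Ref A' A id} {Q : LB A} {v : A'.ι → M → ℂ}
    (hv : IsHS (pullLB hid R Q) univ v) {i : A.ι} {i' : A'.ι} {x : M} (hx : x ∈ (A.e i).source)
    (hx' : x ∈ (A'.e i').source) (h : v i' x ≠ 0) : unS R Q v i x ≠ 0 := by
  rw [unS_eq hv hx hx']
  exact mul_ne_zero (Q.ne_zero _ _ _) h

/-- unit sections descend to the coarse atlas -/
theorem unS_unit {hid : HolMap A' A id} {R : Ref A' A id} {Q : LB A} {v : A'.ι → M → ℂ}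
    (hv : IsHS (pullLB hid R Q) univ v) (h : ∀ i, ∀ x ∈ (A'.e i).source, v i x ≠ 0) :
    ∀ i, ∀ x ∈ (A.e i).source, unS R Q v i x ≠ 0 := by
  intro i x hx
  obtain ⟨i', hi'⟩ := A'.cover x
  exact unS_ne hv hx hi' (h i' x hi')

/-! ### sections of `L ^ a` -/

theorem isHS_cast {L L' : LB A} (h : L = L') {s : A.ι → M → ℂ} (hs : IsHS L univ s) :
    IsHS L' univ s := h ▸ hs

/-- sections of `L^a` with the ratios `s_j / s_0` -/
theorem rank_back {hid : HolMap A' A id} (hid' : HolMap A A' id) {R : Ref A' A id} {E L : LB A}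
    {r : ℕ} {s : Fin (r + 1) → A.ι → M → ℂ} (hs : ∀ j, IsHS E univ (s j)) (C : CaD A')
    {N : LB A'} {t : Fin (r + 1) → A'.ι → M → ℂ} (ht : ∀ j, IsHS N univ (t j))
    (hst : ∀ j i, ∀ x ∈ (A'.e i).source, s j (R.r i) x = C.h i x * t j i x)
    {k a : ℕ} (hk : 0 < k) {σ : A'.ι → M → ℂ}
    (hσ : IsHS (pullLB hid R L ^ a * (N ^ k)⁻¹) univ σ)
    (hσ0 : ∀ i, ∀ x ∈ (A'.e i).source, σ i x ≠ 0) :
    ∃ u : Fin (r + 1) → A.ι → M → ℂ, (∀ j, IsHS (L ^ a) univ (u j)) ∧
      (∀ j j' i, ∀ x ∈ (A.e i).source, u j i x * s j' i x = s j i x * u j' i x) ∧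
      ∀ i x, Rk A s i x → Rk A u i x := by
  obtain ⟨k, rfl⟩ : ∃ m, k = m + 1 := ⟨k - 1, by omega⟩
  set w : Fin (r + 1) → A'.ι → M → ℂ := fun j => σ * (t j * t 0 ^ k) with hw
  have hw1 : ∀ j, IsHS (pullLB hid R (L ^ a)) univ (w j) := by
    intro j
    have h1 : IsHS (N * N ^ k) univ (t j * t 0 ^ k) := by
      induction k with
      | zero => simpa using ht j
      | succ m ih =>
        have h2 := isHS_mul_of (ht j) (ht 0) m
        exact h2
    refine isHS_cast ?_ (hσ.mul h1)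
    rw [pullLB_pow, pow_succ' N k, mul_assoc, inv_mul_cancel, mul_one]
  refine ⟨fun j => unS R (L ^ a) (w j), fun j => isHS_unS hid' (hw1 j), ?_, ?_⟩
  · intro j j' i x hx
    obtain ⟨i', hi'⟩ := A'.cover x
    have e1 := (hs j').tr i (R.r i') x ⟨hx, R.sub i' x hi'⟩ (mem_univ x)
    have e2 := (hs j).tr i (R.r i') x ⟨hx, R.sub i' x hi'⟩ (mem_univ x)
    simp only
    rw [unS_eq (hw1 j) hx hi', unS_eq (hw1 j') hx hi', e1, e2, hst _ _ _ hi', hst _ _ _ hi']
    simp only [hw, Pi.mul_apply]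
    ring
  · rintro i x ⟨hx, h0, hl⟩
    obtain ⟨i', hi'⟩ := A'.cover x
    have e1 := (hs 0).tr i (R.r i') x ⟨hx, R.sub i' x hi'⟩ (mem_univ x)
    have h1 : C.h i' x * t 0 i' x ≠ 0 := by
      intro h
      apply h0
      rw [e1, hst _ _ _ hi', h, mul_zero]
    have h2 : C.h i' x ≠ 0 := left_ne_zero_of_mul h1
    have h3 : t 0 i' x ≠ 0 := right_ne_zero_of_mul h1
    have h4 : w 0 i' x ≠ 0 := by
      simp only [hw, Pi.mul_apply, Pi.pow_apply]
      exact mul_ne_zero (hσ0 i' x hi') (mul_ne_zero h3 (pow_ne_zero _ h3))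
    have h5 : unS R (L ^ a) (w 0) i x ≠ 0 := unS_ne (hw1 0) hx hi' h4
    refine ⟨hx, h5, ?_⟩
    have key : ∀ b : Fin r, rat A (fun j => unS R (L ^ a) (w j)) i b =ᶠ[𝓝 (A.e i x)]
        rat A s i b := by
      intro b
      have hC : ∀ᶠ y in 𝓝 x, C.h i' y ≠ 0 := (C.hm i' x hi').ev_ne h2
      have ht0 : ∀ᶠ y in 𝓝 x, t 0 i' y ≠ 0 := (hm_of_isHS (ht 0) hi').ev_ne h3
      have hall : ∀ᶠ y in 𝓝 x, y ∈ (A.e i).source ∧ y ∈ (A'.e i').source ∧ C.h i' y ≠ 0 ∧
          t 0 i' y ≠ 0 := by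
        filter_upwards [(A.e i).open_source.mem_nhds hx, (A'.e i').open_source.mem_nhds hi', hC,
          ht0] with y a b c d
        exact ⟨a, b, c, d⟩
      filter_upwards [(ev_iff hx).1 hall] with z hz
      obtain ⟨a1, a2, a3, a4⟩ := hz
      set y := (A.e i).symm z with hy
      have f1 := (hs b.succ).tr i (R.r i') y ⟨a1, R.sub i' y a2⟩ (mem_univ y)
      have f2 := (hs 0).tr i (R.r i') y ⟨a1, R.sub i' y a2⟩ (mem_univ y)
      have f3 : E.g i (R.r i') y ≠ 0 := E.ne_zero _ _ _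
      have f4 : (L ^ a).g i (R.r i') y ≠ 0 := (L ^ a).ne_zero _ _ _
      have f5 := hσ0 i' y a2
      simp only [rat]
      rw [← hy, unS_eq (hw1 b.succ) a1 a2, unS_eq (hw1 0) a1 a2, f1, f2, hst _ _ _ a2,
        hst _ _ _ a2]
      simp only [hw, Pi.mul_apply, Pi.pow_apply]
      field_simp
    have e3 : (fun b : Fin r => fderiv ℂ (rat A (fun j => unS R (L ^ a) (w j)) i b) (A.e i x)) =
        fun b => fderiv ℂ (rat A s i b) (A.e i x) := funext fun b => (key b).fderiv_eq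
    rw [e3]
    exact hl
where
  isHS_mul_of {N : LB A'} {t t' : A'.ι → M → ℂ} (ht : IsHS N univ t) (ht' : IsHS N univ t') :
      ∀ m : ℕ, IsHS (N * N ^ (m + 1)) univ (t * t' ^ (m + 1)) := by
    intro m
    induction m with
    | zero =>
      rw [zero_add, pow_one, pow_one]
      exact ht.mul ht'
    | succ m ih =>
      rw [pow_succ N (m + 1), pow_succ t' (m + 1), ← mul_assoc, ← mul_assoc]
      exact ih.mul ht'

/-! ### identity theorem -/

/-- a section which is nonzero somewhere is flat nowhere -/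
theorem not_flat_of_ne [PreconnectedSpace M] {E : LB A} {s : A.ι → M → ℂ} (hs : IsHS E univ s)
    {i₀ : A.ι} {x₀ : M} (hx₀ : x₀ ∈ (A.e i₀).source) (h0 : s i₀ x₀ ≠ 0) :
    ∀ i, ∀ x ∈ (A.e i).source, ¬ ∀ᶠ y in 𝓝 x, s i y = 0 := by
  -- the set of flat points is clopen
  set Z : Set M := {x | ∃ i, x ∈ (A.e i).source ∧ ∀ᶠ y in 𝓝 x, s i y = 0} with hZ
  have hch : ∀ {x : M} {i j : A.ι}, x ∈ (A.e i).source → x ∈ (A.e j).source →
      (∀ᶠ y in 𝓝 x, s i y = 0) → ∀ᶠ y in 𝓝 x, s j y = 0 := by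
    intro x i j hi hj h
    filter_upwards [h, (A.e i).open_source.mem_nhds hi, (A.e j).open_source.mem_nhds hj]
      with y h1 h2 h3
    rw [hs.tr j i y ⟨h3, h2⟩ (mem_univ y), h1, mul_zero]
  have hZo : IsOpen Z := by
    rw [isOpen_iff_mem_nhds]
    rintro x ⟨i, hi, h⟩
    filter_upwards [eventually_eventually_nhds.2 h, (A.e i).open_source.mem_nhds hi] with y a b
    exact ⟨i, b, a⟩
  have hZc : IsOpen Zᶜ := by
    rw [isOpen_iff_mem_nhds]
    intro x hx
    obtain ⟨i, hi⟩ := A.cover x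
    have h1 : ¬ ∀ᶠ y in 𝓝 x, s i y = 0 := fun h => hx ⟨i, hi, h⟩
    filter_upwards [ev_not_flat (hm_of_isHS hs hi) h1, (A.e i).open_source.mem_nhds hi]
      with y a b
    rintro ⟨j, hj, h⟩
    exact a (hch hj b h)
  have hclopen : IsClopen Z := ⟨⟨hZc⟩, hZo⟩
  rcases isClopen_iff.1 hclopen with h | h
  · intro i x hx hcon
    have : x ∈ Z := ⟨i, hx, hcon⟩
    rw [h] at this
    exact this
  · exfalso
    have : x₀ ∈ Z := by rw [h]; exact mem_univ _
    obtain ⟨j, hj, hf⟩ := this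
    exact h0 ((hch hj hx₀ hf).self_of_nhds)

/-! ### K1-DIV -/

variable {F B : Type} [NormedAddCommGroup F] [NormedSpace ℂ F] [NormedAddCommGroup B]
  [NormedSpace ℂ B]

/-- the statement about the movable bundle which is consumed by `kappa_of_ns` (proved by the
Hodge index theorem and `H¹(O) = 0`): a line bundle with sections without common divisor, one of
which has no zero on a fibre of the tube, is up to powers isomorphic to `L` -/
def NSMov (L : LB A) (T : HTube A F B) (r : ℕ) : Prop :=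
  ∀ (A' : Atl n M) (R : Ref A' A id) (hl : LBih A' A id) (_ : LBih A A' id), Finite A'.ι →
    GoodA A' → Nonempty (Part A') → ∀ (N : LB A') (t : Fin (r + 1) → A'.ι → M → ℂ),
    (∀ j, IsHS N univ (t j)) →
    (∀ i, ∀ x ∈ (A'.e i).source, Cop A' (fun j => t j i) x) →
    (∃ i x, Rk A' t i x) →
    (∀ b₁ ∈ T.Om, ∀ W ∈ 𝓝 b₁, ∃ b ∈ W ∩ T.Om, ∀ c i, T.P (c, b) ∈ (A'.e i).source →
      t 0 i (T.P (c, b)) ≠ 0) →
    ∃ k a : ℕ, 0 < k ∧ 0 < a ∧ ∃ σ : A'.ι → M → ℂ,
      IsHS (pullLB hl.toHolMap R L ^ a * (N ^ k)⁻¹) univ σ ∧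
      ∀ i, ∀ x ∈ (A'.e i).source, σ i x ≠ 0

/-- `Rk` passes to the movable part -/
theorem rk_mov (hid : HolMap A' A id) (hid' : HolMap A A' id) {R : Ref A' A id} {E : LB A}
    {r : ℕ} {s : Fin (r + 1) → A.ι → M → ℂ} (hs : ∀ j, IsHS E univ (s j)) (C : CaD A')
    {t : Fin (r + 1) → A'.ι → M → ℂ}
    (hst : ∀ j i, ∀ x ∈ (A'.e i).source, s j (R.r i) x = C.h i x * t j i x)
    {i : A.ι} {x : M} (h : Rk A s i x) : ∃ i', Rk A' t i' x := by
  obtain ⟨i', hi'⟩ := A'.cover x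
  have h1 := h.chart hs (R.sub i' x hi')
  obtain ⟨hx, h0, hl⟩ := h1
  have h2 : C.h i' x * t 0 i' x ≠ 0 := by
    have := hst 0 i' x hi'
    rw [← this]; exact h0
  have h3 : C.h i' x ≠ 0 := left_ne_zero_of_mul h2
  have h4 : t 0 i' x ≠ 0 := right_ne_zero_of_mul h2
  refine ⟨i', hi', h4, ?_⟩
  -- chain rule for the change of atlas
  set φ : Cn n → Cn n := fun z => A.e (R.r i') ((A'.e i').symm z) with hφ
  have hmem : A'.e i' x ∈ dm A' A id i' (R.r i') :=
    ⟨(A'.e i').map_source hi', by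
      rw [mem_preimage, mem_preimage, (A'.e i').left_inv hi']; exact R.sub i' x hi'⟩
  have hφd : DifferentiableAt ℂ φ (A'.e i' x) :=
    (hid.hol i' (R.r i')).differentiableAt ((hid.isOpen_dm i' (R.r i')).mem_nhds hmem)
  have hφv : φ (A'.e i' x) = A.e (R.r i') x := by rw [hφ]; simp only [(A'.e i').left_inv hi']
  have key : ∀ b : Fin r, rat A' t i' b =ᶠ[𝓝 (A'.e i' x)] rat A s (R.r i') b ∘ φ := by
    intro b
    have hC : ∀ᶠ y in 𝓝 x, C.h i' y ≠ 0 := (C.hm i' x hi').ev_ne h3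
    have hall : ∀ᶠ y in 𝓝 x, y ∈ (A'.e i').source ∧ C.h i' y ≠ 0 := by
      filter_upwards [(A'.e i').open_source.mem_nhds hi', hC] with y a b
      exact ⟨a, b⟩
    filter_upwards [(ev_iff hi').1 hall] with z hz
    obtain ⟨a1, a2⟩ := hz
    simp only [rat, Function.comp, hφ]
    have a3 : (A'.e i').symm z ∈ (A.e (R.r i')).source := R.sub i' _ a1
    rw [(A.e (R.r i')).left_inv a3, hst _ _ _ a1, hst _ _ _ a1]
    rw [mul_div_mul_left _ _ a2]
  have hrd : ∀ b : Fin r, DifferentiableAt ℂ (rat A s (R.r i') b) (φ (A'.e i' x)) := fun b => by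
    rw [hφv]
    exact (analyticAt_rat hs hx h0 b).differentiableAt
  have e1 : (fun b : Fin r => fderiv ℂ (rat A' t i' b) (A'.e i' x)) =
      fun b => (fderiv ℂ (rat A s (R.r i') b) (A.e (R.r i') x)).comp (fderiv ℂ φ (A'.e i' x)) := by
    funext b
    rw [(key b).fderiv_eq, fderiv_comp _ (hrd b) hφd, hφv]
  rw [e1]
  -- the derivative of the transition map is invertible
  set ψ : Cn n → Cn n := fun z => A'.e i' ((A.e (R.r i')).symm z) with hψ
  have hmem' : A.e (R.r i') x ∈ dm A A' id (R.r i') i' :=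
    ⟨(A.e (R.r i')).map_source hx, by
      rw [mem_preimage, mem_preimage, (A.e (R.r i')).left_inv hx]; exact hi'⟩
  have hψd : DifferentiableAt ℂ ψ (A.e (R.r i') x) :=
    (hid'.hol (R.r i') i').differentiableAt ((hid'.isOpen_dm (R.r i') i').mem_nhds hmem')
  have hcomp : (fderiv ℂ φ (A'.e i' x)).comp (fderiv ℂ ψ (A.e (R.r i') x)) =
      ContinuousLinearMap.id ℂ (Cn n) := by
    have hψv : ψ (A.e (R.r i') x) = A'.e i' x := by
      rw [hψ]; simp only [(A.e (R.r i')).left_inv hx]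
    have h5 : φ ∘ ψ =ᶠ[𝓝 (A.e (R.r i') x)] id := by
      filter_upwards [(hid'.isOpen_dm (R.r i') i').mem_nhds hmem'] with z hz
      have hz1 : z ∈ (A.e (R.r i')).target := hz.1
      have hz2 : (A.e (R.r i')).symm z ∈ (A'.e i').source := hz.2
      simp only [Function.comp, hφ, hψ, id, (A'.e i').left_inv hz2, (A.e (R.r i')).right_inv hz1]
    have h6 := fderiv_comp (A.e (R.r i') x) (g := φ) (f := ψ) (by rw [hψv]; exact hφd) hψd
    rw [hψv] at h6
    rw [← h6, h5.fderiv_eq, fderiv_id]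
  rw [linearIndependent_iff'] at hl ⊢
  intro S g hg b hb
  refine hl S g ?_ b hb
  have h7 : (∑ b ∈ S, g b • fderiv ℂ (rat A s (R.r i') b) (A.e (R.r i') x)).comp
      (fderiv ℂ φ (A'.e i' x)) = 0 := by
    rw [← hg]
    ext v
    simp
  have h8 := congrArg (fun T : Cn n →L[ℂ] ℂ => T.comp (fderiv ℂ ψ (A.e (R.r i') x))) h7
  simp only [ContinuousLinearMap.comp_assoc, hcomp, ContinuousLinearMap.comp_id,
    ContinuousLinearMap.zero_comp] at h8
  exact h8

/-- **K1-DIV** -/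
theorem kappa_of_ns [CompactSpace M] [T2Space M] [PreconnectedSpace M] {E L : LB A} {r : ℕ}
    {s : Fin (r + 1) → A.ι → M → ℂ} (hs : ∀ j, IsHS E univ (s j)) {i₀ : A.ι} {x₀ : M}
    (hrk : Rk A s i₀ x₀) (T : HTube A F B)
    (cross : ∀ j, ∀ c c' : F, ∀ b ∈ T.Om, ∀ i i', T.P (c, b) ∈ (A.e i).source →
      T.P (c', b) ∈ (A.e i').source → s j i (T.P (c, b)) * s 0 i' (T.P (c', b)) =
        s j i' (T.P (c', b)) * s 0 i (T.P (c, b)))
    (hNS : NSMov L T r) :
    ∃ a : ℕ, 0 < a ∧ ∃ u : Fin (r + 1) → A.ι → M → ℂ, (∀ j, IsHS (L ^ a) univ (u j)) ∧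
      (∀ j j' i, ∀ x ∈ (A.e i).source, u j i x * s j' i x = s j i x * u j' i x) ∧
      Rk A u i₀ x₀ := by
  obtain ⟨A', R, hl, hl', C, t, hfin, hgood, hpart, ht, hst, hcop⟩ := exists_movable A E s hs 0
    (not_flat_of_ne (hs 0) hrk.1 hrk.2.1)
  have hid : HolMap A' A id := hl.toHolMap
  have hid' : HolMap A A' id := hl'.toHolMap
  obtain ⟨i', hi'⟩ := rk_mov hid hid' hs C hst hrk
  have hnf := not_flat_of_ne (ht 0) hi'.1 hi'.2.1
  obtain ⟨k, a, hk, ha, σ, hσ, hσ0⟩ := hNS A' R hl hl' hfin hgood hpart _ t ht hcop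
    ⟨i', x₀, hi'⟩ (fun b₁ hb₁ W hW => by
      have h1 := exists_fibre (T.change hid hid') (s := fun j i => s j (R.r i)) C ht hst hcop 0
        hnf (fun j c c' b hb i l hi hl => cross j c c' b hb (R.r i) (R.r l) (R.sub i _ hi)
          (R.sub l _ hl)) (b₁ := b₁) hb₁ hW
      exact h1)
  obtain ⟨u, h1, h2, h3⟩ := rank_back hid' hs C ht hst hk hσ hσ0
  exact ⟨a, ha, u, h1, h2, h3 i₀ x₀ hrk⟩

end Crest.Agent.R281.Kd_22
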