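import Crest.Agent.R281.Kd3_22
import Crest.Agent.R271.Null_821

/-!
Row 281 (S0424), K1-DIV (helper22), part 5: STAR (input of MOV, helper625): a family of holomorphic
functions without common divisor at `p` has no common zero on almost every line in each of `n`
independent directions, near `p`.

* `elim_fam`   : elimination for a finite family of germs
* `star`       : normed space version
* `star_chart` : for sections `t_j` with `Cop`, in a chart
-/

set_option autoImplicit false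
set_option linter.unusedSectionVars false

open Set Filter Topology Metric Complex MeasureTheory

noncomputable section

namespace Crest.Agent.R281.Kd_22

open Crest.Agent.R275.Geo Crest.Agent.R275.Core144 Crest.Agent.R275.Loc2879

universe u

section ElimFam

variable {E : Type u} [NormedAddCommGroup E] [NormedSpace ℂ E] [FiniteDimensional ℂ E] {z₀ : E}

/-- elimination for a finite family -/
theorem elim_fam {κ : Type*} (s : Finset κ) {g : OO ((z₀, (0 : ℂ)) : E × ℂ)} {n : ℕ}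
    (hg : Reg g n) (f : κ → OO ((z₀, (0 : ℂ)) : E × ℂ)) :
    ∃ (d : OO ((z₀, (0 : ℂ)) : E × ℂ)) (c : OO z₀), c ≠ 0 ∧ d ∣ g ∧ (∀ j ∈ s, d ∣ f j) ∧
      iot z₀ c * d ∈ Ideal.span (insert g (f '' (s : Set κ))) := by
  classical
  induction s using Finset.induction_on with
  | empty =>
    refine ⟨g, 1, one_ne_zero, dvd_rfl, by simp, ?_⟩
    rw [map_one, one_mul]
    exact Ideal.subset_span (mem_insert _ _)
  | insert j s hj ih =>
    obtain ⟨d, c, hc, hdg, hdf, hmem⟩ := ih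
    obtain ⟨x, hx⟩ := hdg
    have hg' := hg
    rw [hx] at hg'
    obtain ⟨a1, b1, hd, -, -⟩ := Reg.of_mul hg'
    obtain ⟨d', a, b, h1, h2, h3⟩ := exists_gcd_factor d (f j) hd.ne_zero
    have hd' := hd
    rw [h1] at hd'
    obtain ⟨a2, b2, -, ha, -⟩ := Reg.of_mul hd'
    obtain ⟨c1, hc1, hc1m⟩ := elim ha h3
    obtain ⟨X, Y, hXY⟩ := Ideal.mem_span_pair.1 hc1m
    refine ⟨d', c * c1, mul_ne_zero hc hc1, ?_, ?_, ?_⟩
    · rw [hx, h1, mul_assoc]
      exact Dvd.intro _ rfl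
    · intro i hi
      rcases Finset.mem_insert.1 hi with rfl | hi
      · rw [h2]; exact Dvd.intro _ rfl
      · refine dvd_trans ?_ (hdf i hi)
        rw [h1]; exact Dvd.intro _ rfl
    · have e1 : iot z₀ (c * c1) * d' = X * (iot z₀ c * d) + (iot z₀ c * Y) * f j := by
        rw [map_mul, ← hXY, h1, h2]; ring
      rw [e1]
      refine Ideal.add_mem _ (Ideal.mul_mem_left _ _ ?_) (Ideal.mul_mem_left _ _ ?_)
      · refine Ideal.span_mono ?_ hmem
        refine insert_subset_insert (image_mono ?_)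
        rw [Finset.coe_insert]; exact subset_insert _ _
      · refine Ideal.subset_span (mem_insert_of_mem _ ⟨j, ?_, rfl⟩)
        rw [Finset.coe_insert]; exact mem_insert _ _

end ElimFam

section Star

variable {F : Type u} [NormedAddCommGroup F] [NormedSpace ℂ F] [FiniteDimensional ℂ F]

theorem exists_chart_dir {n : ℕ} (hF : Module.finrank ℂ F = n + 1) {v : F} (hv : v ≠ 0) :
    ∃ e : ((Fin n → ℂ) × ℂ) ≃L[ℂ] F, e (0, 1) = v := by
  have hdim : Module.finrank ℂ ((Fin n → ℂ) × ℂ) = Module.finrank ℂ F := by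
    rw [hF]; simp
  let e0 : ((Fin n → ℂ) × ℂ) ≃L[ℂ] F := ContinuousLinearEquiv.ofFinrankEq hdim
  have h01 : e0 ((0 : Fin n → ℂ), (1 : ℂ)) ≠ 0 := by
    rw [Ne, map_eq_zero_iff _ e0.injective]
    simp [Prod.ext_iff]
  obtain ⟨A, hA⟩ := SeparatingDual.exists_continuousLinearEquiv_apply_eq (R := ℂ) h01 hv
  exact ⟨e0.trans A, hA⟩

/-- no common divisor at `p` -/
def CopF {κ : Type*} (f : κ → F → ℂ) (p : F) : Prop :=
  ∀ k : F → ℂ, AnalyticAt ℂ k p → (∀ j, Dv k (f j) p) → k p ≠ 0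

/-- one good direction -/
theorem star_dir [MeasurableSpace F] [BorelSpace F] (ν : Measure F) [ν.IsAddHaarMeasure]
    {κ : Type*} [Fintype κ] {f : κ → F → ℂ} {p : F} (hf : ∀ j, AnalyticAt ℂ (f j) p)
    (hcop : CopF f p) {j₀ : κ} {v : F} (hv : v ≠ 0)
    (hreg : ¬ ∀ᶠ t : ℂ in 𝓝 0, f j₀ (p + t • v) = 0) :
    ∃ r > 0, ∀ᵐ z ∂ν, z ∈ ball p r → ∀ c : ℂ, z + c • v ∈ ball p r →
      ∃ j, f j (z + c • v) ≠ 0 := by
  classical
  have hnt : Nontrivial F := nontrivial_of_ne v 0 hv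
  have hpos : 0 < Module.finrank ℂ F := Module.finrank_pos
  obtain ⟨n, hn⟩ := Nat.exists_eq_add_of_lt hpos
  have hn' : Module.finrank ℂ F = n + 1 := by omega
  obtain ⟨e, he⟩ := exists_chart_dir hn' hv
  set θ := affEquiv e p with hθ
  have hREG : ∃ m, Reg (z₀ := (0 : Fin n → ℂ)) (θ (gm (f j₀) (hf j₀))) m := by
    refine exists_reg ?_
    intro hcon
    apply hreg
    rw [hθ, affEquiv_gm] at hcon
    change rho (0 : Fin n → ℂ) (gm (fun x : (Fin n → ℂ) × ℂ => f j₀ (p + e x)) _) = 0 at hcon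
    rw [rho, pull_gm, gm_eq_zero] at hcon
    filter_upwards [hcon] with t ht
    have e1 : e ((0 : Fin n → ℂ), t) = t • v := by
      have : ((0 : Fin n → ℂ), t) = t • ((0 : Fin n → ℂ), (1 : ℂ)) := by
        ext <;> simp
      rw [this, map_smul, he]
    simp only [Function.comp_apply] at ht
    rw [e1] at ht
    exact ht
  obtain ⟨m, hm⟩ := hREG
  obtain ⟨d, c, hc, -, hdf, hmem⟩ := elim_fam (Finset.univ : Finset κ) hm
    (fun j => θ (gm (f j) (hf j)))
  -- `d` is a unit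
  have hdu : IsUnit d := by
    obtain ⟨D, hD⟩ := θ.surjective d
    obtain ⟨K, hK, rfl⟩ := exists_gm D
    have h1 : ∀ j, Dv K (f j) p := fun j => by
      rw [dv_iff hK (hf j)]
      have h2 := hdf j (Finset.mem_univ j)
      rw [← hD] at h2
      exact (map_dvd_iff θ).1 h2
    have h2 : IsUnit (gm K hK) := isUnit_gm.2 (hcop K hK h1)
    rw [← hD]
    exact h2.map θ
  have hmem' : iot (0 : Fin n → ℂ) c ∈ Ideal.span
      (insert (θ (gm (f j₀) (hf j₀))) ((fun j => θ (gm (f j) (hf j))) '' (univ : Set κ))) := by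
    obtain ⟨w, hw⟩ := hdu
    have e1 : iot (0 : Fin n → ℂ) c = (iot (0 : Fin n → ℂ) c * d) * (w⁻¹).val := by
      rw [mul_assoc, ← hw, Units.mul_inv, mul_one]
    rw [e1]
    refine Ideal.mul_mem_right _ _ ?_
    rw [Finset.coe_univ] at hmem
    exact hmem
  -- evaluation
  have hval : ∃ (Y : (Fin n → ℂ) × ℂ → ℂ) (hY : AnalyticAt ℂ Y (0, 0)),
      gm Y hY = iot (0 : Fin n → ℂ) c ∧
      ∀ᶠ x in 𝓝 ((0 : Fin n → ℂ), (0 : ℂ)), (∀ j, f j (p + e x) = 0) → Y x = 0 := by
    refine Submodule.span_induction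
      (p := fun y _ => ∃ (Y : (Fin n → ℂ) × ℂ → ℂ) (hY : AnalyticAt ℂ Y (0, 0)), gm Y hY = y ∧
        ∀ᶠ x in 𝓝 ((0 : Fin n → ℂ), (0 : ℂ)), (∀ j, f j (p + e x) = 0) → Y x = 0)
      ?_ ?_ ?_ ?_ hmem'
    · intro y hy
      obtain ⟨j, rfl⟩ : ∃ j, θ (gm (f j) (hf j)) = y := by
        rcases hy with rfl | ⟨j, -, rfl⟩
        · exact ⟨j₀, rfl⟩
        · exact ⟨j, rfl⟩
      exact ⟨fun x => f j (p + e x), analyticAt_comp_aff e (hf j), rfl,
        Eventually.of_forall fun x hx => hx j⟩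
    · exact ⟨0, analyticAt_const, rfl, Eventually.of_forall fun x _ => rfl⟩
    · rintro _ _ _ _ ⟨Y, hY, rfl, h1⟩ ⟨Z, hZ, rfl, h2⟩
      refine ⟨Y + Z, hY.add hZ, rfl, ?_⟩
      filter_upwards [h1, h2] with x a b hx
      rw [Pi.add_apply, a hx, b hx, add_zero]
    · rintro a _ _ ⟨Y, hY, rfl, h1⟩
      obtain ⟨Q, hQ, rfl⟩ := exists_gm a
      refine ⟨Q * Y, hQ.mul hY, rfl, ?_⟩
      filter_upwards [h1] with x a hx
      rw [Pi.mul_apply, a hx, mul_zero]
  obtain ⟨Y, hY, hYc, hYz⟩ := hval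
  obtain ⟨C, hC, rfl⟩ := exists_gm c
  have hYC : ∀ᶠ x in 𝓝 ((0 : Fin n → ℂ), (0 : ℂ)), Y x = C x.1 := by
    rw [iot, pull_gm, gm_eq_gm] at hYc
    filter_upwards [hYc] with x hx using hx
  obtain ⟨r1, hr1, hb1⟩ := Metric.eventually_nhds_iff_ball.1 (hYz.and hYC)
  obtain ⟨r2, hr2, hb2⟩ := Metric.eventually_nhds_iff_ball.1 hC.eventually_analyticAt
  have hcont : Continuous (fun z : F => e.symm (z - p)) := by fun_prop
  have h0 : Tendsto (fun z : F => e.symm (z - p)) (𝓝 p) (𝓝 ((0 : Fin n → ℂ), (0 : ℂ))) := by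
    have h4 := hcont.tendsto p
    simp only [sub_self, map_zero] at h4
    exact h4
  have hev : ∀ᶠ z in 𝓝 p, e.symm (z - p) ∈ ball ((0 : Fin n → ℂ), (0 : ℂ)) r1 ∧
      (e.symm (z - p)).1 ∈ ball (0 : Fin n → ℂ) r2 := by
    filter_upwards [h0.eventually (ball_mem_nhds _ hr1), h0.eventually (ball_mem_nhds _ hr2)]
      with z a b
    refine ⟨a, ?_⟩
    have b' : e.symm (z - p) ∈ ball ((0 : Fin n → ℂ), (0 : ℂ)) r2 := b
    rw [← ball_prod_same] at b'
    exact b'.1
  obtain ⟨r, hr, hb⟩ := Metric.eventually_nhds_iff_ball.1 hev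
  set G : F → ℂ := fun z => C (e.symm (z - p)).1 with hG
  have hGa : AnalyticOnNhd ℂ G (ball p r) := by
    intro z hz
    have h1 : AnalyticAt ℂ (fun z : F => (e.symm (z - p)).1) z := by
      have h2 : AnalyticAt ℂ (fun z : F => e.symm (z - p)) z :=
        AnalyticAt.comp (g := fun y => e.symm y) (f := fun z : F => z - p)
          (e.symm.toContinuousLinearMap.analyticAt _) (analyticAt_id.sub analyticAt_const)
      exact analyticAt_fst.comp h2
    exact AnalyticAt.comp (g := C) (f := fun z : F => (e.symm (z - p)).1) (hb2 _ (hb z hz).2) h1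
  have hGne : ∃ z ∈ ball p r, G z ≠ 0 := by
    by_contra hcon
    push Not at hcon
    apply hc
    rw [gm_eq_zero]
    have h1 : Tendsto (fun y : Fin n → ℂ => p + e (y, (0 : ℂ))) (𝓝 0) (𝓝 p) := by
      have h2 : Continuous (fun y : Fin n → ℂ => p + e (y, (0 : ℂ))) := by fun_prop
      have h3 := h2.tendsto 0
      have h4 : e ((0 : Fin n → ℂ), (0 : ℂ)) = 0 := map_zero e
      simp only [h4, add_zero] at h3
      exact h3
    filter_upwards [h1.eventually (ball_mem_nhds p hr)] with y hy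
    have h2 := hcon _ hy
    have h3 : (e.symm (p + e (y, (0 : ℂ)) - p)).1 = y := by
      rw [add_sub_cancel_left, ContinuousLinearEquiv.symm_apply_apply]
    rw [hG] at h2
    simp only [h3] at h2
    exact h2
  obtain ⟨z₁, hz₁, hne⟩ := hGne
  have hnull := Crest.Agent.R271.Local821.null_zero_ball ν hGa hz₁ hne
  refine ⟨r, hr, ?_⟩
  rw [ae_iff]
  refine measure_mono_null ?_ hnull
  intro z hz
  have hz' : ¬ (z ∈ ball p r → ∀ c : ℂ, z + c • v ∈ ball p r → ∃ j, f j (z + c • v) ≠ 0) := hz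
  push Not at hz'
  obtain ⟨hzb, t, htb, hall⟩ := hz'
  refine ⟨hzb, ?_⟩
  have h1 : e.symm (z + t • v - p) = e.symm (z - p) + t • ((0 : Fin n → ℂ), (1 : ℂ)) := by
    rw [← he, add_sub_right_comm, map_add, map_smul, ContinuousLinearEquiv.symm_apply_apply]
  have h2 : (e.symm (z + t • v - p)).1 = (e.symm (z - p)).1 := by
    rw [h1]; simp
  obtain ⟨h3, h4⟩ := hb1 _ (hb _ htb).1
  have h5 : p + e (e.symm (z + t • v - p)) = z + t • v := by simp
  have h6 := h3 (fun j => by rw [h5]; exact hall j)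
  rw [h4, h2] at h6
  exact h6

/-- independent good directions -/
theorem star [MeasurableSpace F] [BorelSpace F] (ν : Measure F) [ν.IsAddHaarMeasure]
    {κ : Type*} [Fintype κ] {f : κ → F → ℂ} {p : F} (hf : ∀ j, AnalyticAt ℂ (f j) p)
    (hcop : CopF f p) :
    ∃ r > 0, ∃ w : Module.Basis (Fin (Module.finrank ℂ F)) ℂ F, ∀ a, ∀ᵐ z ∂ν, z ∈ ball p r →
      ∀ c : ℂ, z + c • w a ∈ ball p r → ∃ j, f j (z + c • w a) ≠ 0 := by
  classical
  -- a nonflat member
  obtain ⟨j₀, hj₀⟩ : ∃ j, ¬ ∀ᶠ z in 𝓝 p, f j z = 0 := by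
    by_contra hcon
    push Not at hcon
    refine hcop (fun _ => 0) analyticAt_const (fun j => ⟨fun _ => 0, analyticAt_const, ?_⟩) rfl
    filter_upwards [hcon j] with z hz
    rw [hz, mul_zero]
  obtain ⟨ρ, hρ, hA⟩ := Metric.eventually_nhds_iff_ball.1 (hf j₀).eventually_analyticAt
  set V : Set F := {v | ∃ t : ℂ, p + t • v ∈ ball p ρ ∧ f j₀ (p + t • v) ≠ 0 ∧ v ≠ 0} with hV
  have hVo : IsOpen V := by
    rw [isOpen_iff_mem_nhds]
    rintro v ⟨t, h1, h2, h3⟩
    have h4 : ContinuousAt (fun v : F => p + t • v) v := by fun_prop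
    have h5 : ContinuousAt (fun v : F => f j₀ (p + t • v)) v :=
      ContinuousAt.comp (g := f j₀) (hA _ h1).continuousAt h4
    filter_upwards [h4.preimage_mem_nhds (isOpen_ball.mem_nhds h1), h5.eventually_ne h2,
      isOpen_ne.mem_nhds h3] with v' a b c
    exact ⟨t, a, b, c⟩
  have hreg : ∀ v ∈ V, ¬ ∀ᶠ t : ℂ in 𝓝 0, f j₀ (p + t • v) = 0 := by
    rintro v ⟨t, h1, h2, -⟩ hcon
    apply h2
    have hopen : IsOpen ((fun s : ℂ => p + s • v) ⁻¹' ball p ρ) :=
      isOpen_ball.preimage (by fun_prop)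
    have hconv : Convex ℝ ((fun s : ℂ => p + s • v) ⁻¹' ball p ρ) := by
      intro s hs s' hs' a b ha hb hab
      have h3 := convex_ball p ρ hs hs' ha hb hab
      have h4 : p + (a • s + b • s') • v = a • (p + s • v) + b • (p + s' • v) := by
        rw [smul_add, smul_add, add_smul]
        have h5 : a • p + b • p = p := by rw [← add_smul, hab, one_smul]
        have h6 : (a • s) • v = a • s • v := smul_assoc _ _ _
        have h7 : (b • s') • v = b • s' • v := smul_assoc _ _ _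
        rw [h6, h7]
        nth_rewrite 1 [← h5]
        abel
      show p + (a • s + b • s') • v ∈ ball p ρ
      rw [h4]; exact h3
    have han : AnalyticOnNhd ℂ (fun s : ℂ => f j₀ (p + s • v))
        ((fun s : ℂ => p + s • v) ⁻¹' ball p ρ) := by
      intro s hs
      exact AnalyticAt.comp (g := f j₀) (f := fun s : ℂ => p + s • v) (hA _ hs)
        (analyticAt_const.add (analyticAt_id.smul analyticAt_const))
    have h0 : (0 : ℂ) ∈ (fun s : ℂ => p + s • v) ⁻¹' ball p ρ := by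
      simp only [mem_preimage, zero_smul, add_zero]; exact mem_ball_self hρ
    exact han.eqOn_zero_of_preconnected_of_eventuallyEq_zero hconv.isPreconnected h0 hcon h1
  rcases subsingleton_or_nontrivial F with hsub | hnt
  · -- dimension zero
    refine ⟨1, one_pos, Module.finBasis ℂ F, fun a => ?_⟩
    exact absurd (Subsingleton.elim (Module.finBasis ℂ F a) 0) ((Module.finBasis ℂ F).ne_zero a)
  have hNB : (𝓝[≠] p).NeBot := Module.punctured_nhds_neBot ℂ F p
  have hVne : V.Nonempty := by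
    have h1 : ∃ᶠ z in 𝓝 p, f j₀ z ≠ 0 := by rwa [Filter.not_eventually] at hj₀
    obtain ⟨z, hz, hzb⟩ := (h1.and_eventually (ball_mem_nhds p hρ)).exists
    -- avoid `z = p`
    have h2 : ∃ z ∈ ball p ρ, f j₀ z ≠ 0 ∧ z ≠ p := by
      by_cases hzp : z = p
      · subst hzp
        have h3 : ∀ᶠ y in 𝓝[≠] z, f j₀ y ≠ 0 ∧ y ∈ ball z ρ ∧ y ≠ z := by
          filter_upwards [((hf j₀).continuousAt.eventually_ne hz).filter_mono nhdsWithin_le_nhds,
            mem_nhdsWithin_of_mem_nhds (ball_mem_nhds z hρ), self_mem_nhdsWithin] with y a b c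
          exact ⟨a, b, c⟩
        obtain ⟨y, h4, h5, h6⟩ := h3.exists
        exact ⟨y, h5, h4, h6⟩
      · exact ⟨z, hzb, hz, hzp⟩
    obtain ⟨z, h3, h4, h5⟩ := h2
    exact ⟨z - p, 1, by simpa using h3, by simpa using h4, sub_ne_zero.2 h5⟩
  have hspan : Submodule.span ℂ V = ⊤ := by
    refine Submodule.eq_top_of_nonempty_interior' _ ?_
    obtain ⟨v, hv⟩ := hVne
    exact ⟨v, mem_interior.2 ⟨V, Submodule.subset_span, hVo, hv⟩⟩
  obtain ⟨b, hbV, hbs, hbi⟩ := exists_linearIndependent ℂ V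
  let B : Module.Basis b ℂ F := Module.Basis.mk hbi (by
    rw [Subtype.range_coe, hbs, hspan])
  have _ : Fintype b := FiniteDimensional.fintypeBasisIndex B
  let ε : b ≃ Fin (Module.finrank ℂ F) := Fintype.equivFinOfCardEq
    (Module.finrank_eq_card_basis B).symm
  have hBV : ∀ a, B.reindex ε a ∈ V := by
    intro a
    rw [Module.Basis.reindex_apply, Module.Basis.mk_apply]
    exact hbV (ε.symm a).2
  choose r hr hstar using fun a => star_dir ν hf hcop (j₀ := j₀) (v := B.reindex ε a)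
    (by obtain ⟨-, -, -, h⟩ := hBV a; exact h) (hreg _ (hBV a))
  have hne : Nonempty (Fin (Module.finrank ℂ F)) := ⟨⟨0, Module.finrank_pos⟩⟩
  obtain ⟨a₀, ha₀⟩ := Finite.exists_min r
  refine ⟨r a₀, hr a₀, B.reindex ε, fun a => ?_⟩
  filter_upwards [hstar a] with z hz hzb c hc
  exact hz (ball_subset_ball (ha₀ a) hzb) c (ball_subset_ball (ha₀ a) hc)

end Star

section Chart

variable {n : ℕ} {M : Type} [TopologicalSpace M] {A : Atl n M}

theorem copF_of_cop {κ : Type*} {t : κ → M → ℂ} {i : A.ι} {x : M} (hx : x ∈ (A.e i).source)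
    (h : Cop A t x) : CopF (fun j z => t j ((A.e i).symm z)) (A.e i x) := by
  intro k hk hkt
  refine h (fun y => k (A.e i y)) (hm_chart hx hk) fun j => ?_
  rw [dvM_iff hx]
  refine (hkt j).congr_left ?_
  filter_upwards [(A.e i).open_target.mem_nhds ((A.e i).map_source hx)] with z hz
  rw [(A.e i).right_inv hz]

/-- **STAR** in a chart -/
theorem star_chart [MeasurableSpace (Cn n)] [BorelSpace (Cn n)] (ν : Measure (Cn n))
    [ν.IsAddHaarMeasure] {κ : Type*} [Fintype κ] {N : LB A} {t : κ → A.ι → M → ℂ}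
    (ht : ∀ j, IsHS N univ (t j))
    (hcop : ∀ i, ∀ x ∈ (A.e i).source, Cop A (fun j => t j i) x) (i : A.ι) {z₀ : Cn n}
    (hz₀ : z₀ ∈ (A.e i).target) :
    ∃ r > 0, ball z₀ r ⊆ (A.e i).target ∧ ∃ w : Module.Basis (Fin n) ℂ (Cn n), ∀ a, ∀ᵐ z ∂ν,
      z ∈ ball z₀ r → ∀ c : ℂ, z + c • w a ∈ ball z₀ r →
        ∃ j, t j i ((A.e i).symm (z + c • w a)) ≠ 0 := by
  have hx := (A.e i).map_target hz₀
  have h1 := copF_of_cop hx (hcop i _ hx)
  rw [(A.e i).right_inv hz₀] at h1
  have h2 : ∀ j, AnalyticAt ℂ (fun z => t j i ((A.e i).symm z)) z₀ := fun j => by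
    have := hm_of_isHS (ht j) hx i hx
    rwa [(A.e i).right_inv hz₀] at this
  obtain ⟨r, hr, w, hw⟩ := star ν h2 h1
  obtain ⟨r', hr', hb⟩ := Metric.isOpen_iff.1 (A.e i).open_target z₀ hz₀
  have hfr : Module.finrank ℂ (Cn n) = n := by simp
  refine ⟨min r r', lt_min hr hr', (ball_subset_ball (min_le_right _ _)).trans hb,
    w.reindex (finCongr hfr), fun a => ?_⟩
  filter_upwards [hw ((finCongr hfr).symm a)] with z hz hzb c hc
  rw [Module.Basis.reindex_apply] at hc ⊢
  exact hz (ball_subset_ball (min_le_left _ _) hzb) c (ball_subset_ball (min_le_left _ _) hc)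

end Chart

end Crest.Agent.R281.Kd_22
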