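import Crest.Agent.R281.Mov6_625
import Crest.Agent.R281.Kd5_22
import Crest.Agent.R281.Fuj8_207

/-!
# Row 281, task MOV (helper625), part 7: the class of a movable bundle orthogonal to an isotropic
nef class is proportional to it

* `Ray.q_nonneg`, `Ray.prop` : the algebra on 358's signature package `Sig`
* `star_of_cop`              : 22's `Cop` (no common divisor) gives `Star`
* `IM_mov_bcr`               : `∫ θ² K^(n-2) ≥ 0` in any numbering of the basis
* `mov_prop`                 : **`q (c₁ N) ≥ 0` and `c₁ N = t • w` modulo exact forms** for a movable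
                               bundle `N` orthogonal to the isotropic nef class `w`
-/

set_option autoImplicit false
set_option linter.unusedSectionVars false
set_option maxSynthPendingDepth 3

open Set Filter Topology Complex MeasureTheory Metric
open scoped ContDiff Matrix ComplexConjugate ComplexOrder

namespace Crest.Agent.R281.Mov_625

open Crest.Agent.R275 Crest.Agent.R275.Geo Crest.Agent.R275.Core144 Crest.Agent.R275.EDR890
open Crest.Agent.R275.C1d194 Crest.Agent.R275.Pai323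
open Crest.Agent.R273.Defs_333 Crest.Agent.R273.Hess_333 Crest.Agent.R273.HessB_333
open Crest.Agent.R273.HM_333 Crest.Agent.R273.Kah_333 Crest.Agent.R273.Vol_333
open Crest.Agent.R273.Vm_333
open Crest.Agent.R273.AppA_834
open Crest.Agent.R281.HkR_835 Crest.Agent.R281.Ti_846
open Crest.Agent.R281.Nef_252 (jA NefC KCls_jA curK)
open Crest.Agent.R281.FujP_513 (Symm mixv)
open Crest.Agent.R281.FujSig_358 (Sig second_polar q_line)
open Crest.Agent.R281.Fuj5_207 (E11 f2_mem)
open Crest.Agent.R281.Fuj7_207 (Tn bn Tn_eq)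

noncomputable section

namespace Ray

section

variable {H : Type*} [AddCommGroup H] [Module ℝ H] {n : ℕ}
  {T : MultilinearMap ℝ (fun _ : Fin (n + n) => H) ℝ}
  {q : QuadraticForm ℝ H} {Ex E11 : Submodule ℝ H} {r s K : H}

/-- **`q x ≥ 0`** if `∫ x² K_m^(n-2) ≥ 0` along a ray of Kaehler classes `om + m w`, `q w = 0`,
`q(om, w) > 0`, `q(x, w) = 0` -/
theorem q_nonneg (h : Sig T q Ex E11 r s K) {om w x : H} (hw : q w = 0)
    (how : 0 < QuadraticMap.polar q om w) (hxw : QuadraticMap.polar q x w = 0)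
    (hray : ∀ m : ℕ, ∃ y, y - (om + (m : ℝ) • w) ∈ Ex ∧ 0 ≤ T (mixv (n + n) 2 y x)) :
    0 ≤ q x := by
  set γ := QuadraticMap.polar q om w with hγ
  set β := QuadraticMap.polar q om x with hβ
  have hqk : ∀ y, ∀ m : ℕ, y - (om + (m : ℝ) • w) ∈ Ex → q y = q om + m * γ := by
    intro y m hy
    have h1 : y = (om + (m : ℝ) • w) + (y - (om + (m : ℝ) • w)) := by abel
    rw [h1, Sig.q_add, h.qex _ hy, h.ex _ _ hy, q_line, hw]
    ring
  have hpk : ∀ y, ∀ m : ℕ, y - (om + (m : ℝ) • w) ∈ Ex → QuadraticMap.polar q y x = β := by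
    intro y m hy
    have h1 : y = (om + (m : ℝ) • w) + (y - (om + (m : ℝ) • w)) := by abel
    rw [h1, QuadraticMap.polar_add_left, QuadraticMap.polar_add_left,
      QuadraticMap.polar_smul_left, QuadraticMap.polar_comm q w x, hxw,
      QuadraticMap.polar_comm q (y - (om + (m : ℝ) • w)) x, h.ex _ _ hy, smul_zero, add_zero,
      add_zero]
  have hn := h.pos
  have hn1 : (1 : ℝ) ≤ n := by exact_mod_cast hn
  -- the inequality along the ray
  have key : ∀ m : ℕ, 0 < q om + m * γ → 0 ≤ 2 * (q om + m * γ) * q x + (n - 1) * β ^ 2 := by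
    intro m hm
    obtain ⟨y, hy, hT⟩ := hray m
    have h1 := second_polar hn h.symm h.fuj y x
    rw [hqk y m hy, hpk y m hy] at h1
    set Q := q om + m * γ with hQ
    have h2 : 0 ≤ 2 * Q ^ (n - 1) * q x + (n - 1) * Q ^ (n - 2) * β ^ 2 := by
      rw [← h1]
      exact mul_nonneg (by linarith) hT
    rcases Nat.lt_or_ge n 2 with h3 | h3
    · have h4 : n = 1 := by omega
      subst h4
      simp only [Nat.sub_self, pow_zero, mul_one, Nat.cast_one, sub_self, zero_mul, add_zero]
        at h2 ⊢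
      have h5 : 0 ≤ q x := by linarith
      positivity
    · obtain ⟨j, rfl⟩ : ∃ j, n = j + 2 := ⟨n - 2, by omega⟩
      have e1 : j + 2 - 1 = j + 1 := rfl
      have e2 : j + 2 - 2 = j := rfl
      rw [e1, e2] at h2
      have h4 : 2 * Q ^ (j + 1) * q x + (((j + 2 : ℕ) : ℝ) - 1) * Q ^ j * β ^ 2 =
          Q ^ j * (2 * Q * q x + (((j + 2 : ℕ) : ℝ) - 1) * β ^ 2) := by ring
      rw [h4] at h2
      exact nonneg_of_mul_nonneg_right h2 (pow_pos hm j)
  by_contra hc
  push Not at hc
  -- choose `m` large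
  set D : ℝ := (n - 1) * β ^ 2 / (-(2 * q x)) with hD
  have hqx : 0 < -(2 * q x) := by linarith
  obtain ⟨m, hm⟩ := exists_nat_gt ((|q om| + |D| + 1) / γ)
  rw [div_lt_iff₀ how] at hm
  have h1 : |D| + 1 < q om + m * γ := by
    have := neg_abs_le (q om)
    linarith
  have h2 := key m (by have := abs_nonneg D; linarith)
  have h3 : D < q om + m * γ := by have := le_abs_self D; linarith
  rw [hD, div_lt_iff₀ hqx] at h3
  nlinarith

/-- **proportionality** -/
theorem prop (h : Sig T q Ex E11 r s K) {w x : H} (hw : q w = 0) (hwn : w ∉ Ex)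
    (hw11 : w ∈ E11) (hx11 : x ∈ E11) (hxw : QuadraticMap.polar q x w = 0) (hx : 0 ≤ q x) :
    ∃ t : ℝ, x - t • w ∈ Ex := by
  have hwr : QuadraticMap.polar q w r = 0 := by rw [QuadraticMap.polar_comm]; exact h.r11 w hw11
  have hws : QuadraticMap.polar q w s = 0 := by rw [QuadraticMap.polar_comm]; exact h.s11 w hw11
  have hxr : QuadraticMap.polar q x r = 0 := by rw [QuadraticMap.polar_comm]; exact h.r11 x hx11
  have hxs : QuadraticMap.polar q x s = 0 := by rw [QuadraticMap.polar_comm]; exact h.s11 x hx11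
  set α := QuadraticMap.polar q w K with hα
  have hα0 : α ≠ 0 := by
    intro h0
    exact hwn ((h.neg hwr hws h0).2 hw)
  set β := QuadraticMap.polar q x K with hβ
  set t : ℝ := β / α with ht
  refine ⟨t, ?_⟩
  have h1 : QuadraticMap.polar q (x - t • w) r = 0 := by
    rw [QuadraticMap.polar_sub_left, QuadraticMap.polar_smul_left, hxr, hwr]; simp
  have h2 : QuadraticMap.polar q (x - t • w) s = 0 := by
    rw [QuadraticMap.polar_sub_left, QuadraticMap.polar_smul_left, hxs, hws]; simp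
  have h3 : QuadraticMap.polar q (x - t • w) K = 0 := by
    rw [QuadraticMap.polar_sub_left, QuadraticMap.polar_smul_left, ← hβ, ← hα, ht, smul_eq_mul,
      div_mul_cancel₀ _ hα0, sub_self]
  have h4 := h.neg h1 h2 h3
  have h5 : q (x - t • w) = q x := by
    have := q_line q x w (-t)
    rw [neg_smul, ← sub_eq_add_neg] at this
    rw [this, hxw, hw]
    ring
  refine h4.2 (le_antisymm h4.1 ?_)
  rw [h5]
  exact hx

end

end Ray

/-! ### the geometric statement -/

variable {d : ℕ} {M : Type} [TopologicalSpace M] {A : Atl d M}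

/-- sections without common divisor satisfy `Star` -/
theorem star_of_cop {N : LB A} (h : HM N) {m : ℕ} {t : Fin m → A.ι → M → ℂ}
    (ht : ∀ j, IsHS N univ (t j))
    (hcop : ∀ i, ∀ x ∈ (A.e i).source, Kd_22.Cop A (fun j => t j i) x) :
    Star A {x | nrm h t x = 0} := by
  intro i z₀ hz₀
  obtain ⟨r, hr, hb, w, hw⟩ := Kd_22.star_chart (lc d) ht hcop i hz₀
  refine ⟨r, hr, hb, w, fun a => ?_⟩
  filter_upwards [hw a] with z hz hzb s hs
  obtain ⟨j, hj⟩ := hz hzb s hs
  have hzt := hb hs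
  have hx := (A.e i).map_target hzt
  have h1 : 0 < nrm h t ((A.e i).symm (z + s • w a)) := (nrm_pos_iff ht hx).2 ⟨j, hj⟩
  exact fun h0 => h1.ne' h0

variable [T2Space M] [CompactSpace M] [ConnectedSpace M] [Finite A.ι]

/-- **`∫ θ² K^(d-2) ≥ 0`** without measure-theoretic instances -/
theorem IM_mov' (P' : Geo.Part A) (K : Kah A) (P : RPart (ofAtl A)) (hd : 2 ≤ d) {N : LB A}
    (h : HM N) {m : ℕ} {t : Fin m → A.ι → M → ℂ} (ht : ∀ j, IsHS N univ (t j))
    (hS : Star A {x | nrm h t x = 0}) :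
    0 ≤ IM (lc d) (bc d) P (mixv d 2 (ofKah K).f2 (curK h).f2) := by
  classical
  have := Fintype.ofFinite A.ι
  let _ : MeasurableSpace M := borel M
  have : BorelSpace M := ⟨rfl⟩
  exact IM_mov P' K P hd ht hS

theorem Tn_mov {ν : ℕ} (hd : d = ν + ν) (hν : 1 ≤ ν) (P : Geo.Part A) (K : Kah A) {N : LB A}
    (h : HM N) {m : ℕ} {t : Fin m → A.ι → M → ℂ} (ht : ∀ j, IsHS N univ (t j))
    (hS : Star A {x | nrm h t x = 0}) :
    0 ≤ Tn hd P (mixv (ν + ν) 2 (ofKah K).f2 (curK h).f2) := by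
  subst hd
  have h1 := IM_mov' P K (RPart.ofPart P) (by omega) h ht hS
  have e : Tn rfl P = IM (lc (ν + ν)) (bc (ν + ν)) (RPart.ofPart P) := by
    unfold Tn
    rw [Crest.Agent.R281.Fuj7_207.bn_rfl]
  rw [e]
  exact h1

/-- **MOV**: the class of a movable line bundle `N` (sections `t j` without common divisor) which is
orthogonal to the isotropic nef class `w` is nonnegative and proportional to `w` -/
theorem mov_star {ν : ℕ} (hd : d = ν + ν) (P : Geo.Part A) {q : QuadraticForm ℝ (F2 (ofAtl A))}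
    {r s k : F2 (ofAtl A)} (S : Sig (Tn hd P) q (exS (ofAtl A)) (E11 A) r s k)
    {om w : F2 (ofAtl A)} (hw : NefC (jA A) om w) (h11 : w ∈ E11 A) (hww : q w = 0)
    (how : 0 < QuadraticMap.polar q om w) {N : LB A} (h : HM N)
    (hNw : QuadraticMap.polar q (curK h).f2 w = 0) {m : ℕ} {t : Fin m → A.ι → M → ℂ}
    (ht : ∀ j, IsHS N univ (t j)) (hS : Star A {x | nrm h t x = 0}) :
    0 ≤ q (curK h).f2 ∧ ∃ a : ℝ, Ex ((curK h).f2 - a • w) := by
  have h1 : 0 ≤ q (curK h).f2 := by
    refine Ray.q_nonneg S hww how hNw fun m => ?_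
    obtain ⟨K', hK'⟩ := (KCls_jA _).1 (hw m)
    exact ⟨(ofKah K').f2, hK', Tn_mov hd S.pos P K' h ht hS⟩
  refine ⟨h1, ?_⟩
  obtain ⟨a, ha⟩ := Ray.prop S hww (fun hx => how.ne' (S.ex om w hx)) h11 (f2_mem (curK h)) hNw h1
  exact ⟨a, ha⟩

/-- **MOV** with 22's `Cop` -/
theorem mov_prop {ν : ℕ} (hd : d = ν + ν) (P : Geo.Part A) {q : QuadraticForm ℝ (F2 (ofAtl A))}
    {r s k : F2 (ofAtl A)} (S : Sig (Tn hd P) q (exS (ofAtl A)) (E11 A) r s k)
    {om w : F2 (ofAtl A)} (hw : NefC (jA A) om w) (h11 : w ∈ E11 A) (hww : q w = 0)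
    (how : 0 < QuadraticMap.polar q om w) {N : LB A} (h : HM N)
    (hNw : QuadraticMap.polar q (curK h).f2 w = 0) {m : ℕ} {t : Fin m → A.ι → M → ℂ}
    (ht : ∀ j, IsHS N univ (t j))
    (hcop : ∀ i, ∀ x ∈ (A.e i).source, Kd_22.Cop A (fun j => t j i) x) :
    0 ≤ q (curK h).f2 ∧ ∃ a : ℝ, Ex ((curK h).f2 - a • w) :=
  mov_star hd P S hw h11 hww how h hNw ht (star_of_cop h ht hcop)

end

end Crest.Agent.R281.Mov_625
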