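import Crest.Agent.R281.Nef3_252
import Crest.Agent.R281.Hdg7_850

/-!
# Row 281, NEF-OPEN, part 4 (helper252): the class level without hypotheses

From the `dd^c`-lemma of 850 (`Hdg7_850.ddbar`):

* `ddb_jA`      : `DDb (jA A)` for a compact connected Kaehler manifold of dimension at least 2
* `AJ.acm`      : an integrable `J` as an almost complex manifold, `exists_atlJ` (NN)
* `ddb_of`      : `DDb J` for every integrable `J` with a Kaehler form
* `KCls_iffU`, `isOpen_KClsU`, `isGδ_NefCU`, `nefW_iffU`, `nefC_hk_iffU`: the statements of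
  `Nef1_252 .. Nef3_252` without the hypothesis `DDb`
-/

set_option autoImplicit false
set_option maxSynthPendingDepth 3
set_option linter.unusedSectionVars false

open Set Filter Topology Complex
open scoped ContDiff Matrix ComplexConjugate ComplexOrder

namespace Crest.Agent.R281.Nef_252

open Crest.Agent.R275.Geo Crest.Agent.R275.Core144 Crest.Agent.R275.EDR890
open Crest.Agent.R275.GC293
open Crest.Agent.R273.Kah_333 Crest.Agent.R273.Hess_333 Crest.Agent.R273.HessB_333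
open Crest.Agent.R273.Defs_333 Crest.Agent.R273.HM_333 Crest.Agent.R273.Vol_333
open Crest.Agent.R281.Defs_273
open Crest.Agent.R260.ACM_580 Crest.Agent.R260.NNB_580
open Crest.Agent.R281.HkR_835 Crest.Agent.R281.Ti_846
open Crest.Agent.R281.NefO_476 Crest.Agent.R281.Dif_268

noncomputable section

section atl

variable {d : ℕ} {X : Type} [TopologicalSpace X] {A : Atl d X}
  [MeasurableSpace (Cn d)] [BorelSpace (Cn d)]

/-- **the `dd^c`-lemma** for a compact Kaehler manifold -/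
theorem ddb_jA [CompactSpace X] [T2Space X] [ConnectedSpace X] [Finite A.ι] (hd : 2 ≤ d)
    (P : Part A) (K : Kah A) : DDb (jA A) := by
  intro w he ht
  obtain ⟨v, hv, h⟩ := (Crest.Agent.R281.Hdg_850.ddbar hd P (RPart.ofPart P) K w ht).1 he
  have hv4 : Sm (ofAtl A) (fun x => (1 / 4 : ℝ) * v x) := fun i => contDiffOn_const.mul (hv i)
  refine ⟨fun x => (1 / 4 : ℝ) * v x, hv4, fun i z hz a b => ?_⟩
  have e1 : (4 : ℂ) • hess (uc (ofAtl A) (fun x => (1 / 4 : ℝ) * v x) i) z =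
      hsf A v i ((A.e i).symm z) := by
    have e2 : uc (ofAtl A) (fun x => (1 / 4 : ℝ) * v x) i =
      fun y => (1 / 4 : ℝ) * v ((A.e i).symm y) := rfl
    have hz' : A.e i ((A.e i).symm z) = z := (A.e i).right_inv hz
    rw [e2, hess_const_mul _ (sm_contDiffAt hv i hz), smul_smul]
    unfold hsf
    rw [hz']
    norm_num
  have e3 := K11.f2_w (w.k11 ht) (i := i) hz a b
  rw [F2.k11_f2 w ht hz] at e3
  rw [ddc_hess hv4 hz, e1, ← h i _ ((A.e i).map_target hz), e3]

end atl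

variable {V X : Type} [NormedAddCommGroup V] [NormedSpace ℝ V] [TopologicalSpace X]
  {C : RCh V X}

/-- an integrable complex structure as an almost complex manifold -/
def acmJ (J : AJ C) (hJ : Cx J) : ACM V X where
  ι := C.ι
  e := C.e
  cover := C.cover
  sm := C.sm
  J := J.J
  J_sm := J.sm
  J_sq := hJ.sq
  J_tr i j z h1 h2 v := J.tr i j z ⟨h1, h2⟩ v

theorem acmJ_int (J : AJ C) (hJ : Cx J) : (acmJ J hJ).Int := hJ.int

section cmp

variable {d : ℕ} {A : Atl d X} {J : AJ C}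

theorem cmp_acmJ {hJ : Cx J} (hA : Cp (acmJ J hJ) A) : Cmp C (ofAtl A) :=
  ⟨fun i j => (hA j).sm' i, fun i j => (hA j).sm i⟩

theorem holM_acmJ {hJ : Cx J} (hA : Cp (acmJ J hJ) A) :
    HolM (SMap.ofCmp (cmp_acmJ hA)) (jA A) J := by
  constructor
  intro i j z hz v
  exact ((hA j).lin' (i := i) hz v)

theorem KCls_acmJ {hJ : Cx J} (hA : Cp (acmJ J hJ) A) (w : F2 C) :
    KCls J w ↔ KCls (jA A) ((cmp_acmJ hA).F w) := by
  rw [KCls_iff_pull (bi_cmp (cmp_acmJ hA)) (holM_acmJ hA)]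
  exact ⟨fun h => h.eqv (cmp_F _ w), fun h => h.eqv (cmp_F _ w).symm⟩

/-- the holomorphic atlas of an integrable complex structure -/
theorem exists_atlJ [FiniteDimensional ℝ V] [CompactSpace X] [T2Space X] (hNN : NNat V d)
    (J : AJ C) (hJ : Cx J) : ∃ (A : Atl d X) (_ : Finite A.ι) (_ : GoodA A)
      (_ : Nonempty (Part A)), Cp (acmJ J hJ) A := by
  obtain ⟨A, h1, h2, h3, -, -, h4⟩ := exists_atl hNN (acmJ_int J hJ) (κ := Unit)
    (fun _ => (univ : Set X)) (fun _ => isOpen_univ) (fun x => ⟨(), mem_univ x⟩)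
  exact ⟨A, h1, h2, h3, h4⟩

end cmp

section main

variable {d : ℕ} [FiniteDimensional ℝ V] [MeasurableSpace V] [BorelSpace V]
  [CompactSpace X] [T2Space X] [ConnectedSpace X]

/-- **the `dd^c`-lemma** for an integrable complex structure with a Kaehler class -/
theorem ddb_of (hNN : NNat V d) (hd : 2 ≤ d) {J : AJ C} (hJ : Cx J) {om : F2 C}
    (h : KCls J om) : DDb J := by
  obtain ⟨A, hf, -, ⟨P⟩, hA⟩ := exists_atlJ hNN J hJ
  obtain ⟨K, -⟩ := (KCls_jA _).1 ((KCls_acmJ hA om).1 h)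
  let _ : MeasurableSpace (Cn d) := borel _
  have : BorelSpace (Cn d) := ⟨rfl⟩
  exact DDb_of_pull (bi_cmp (cmp_acmJ hA)) (holM_acmJ hA) (ddb_jA hd P K)

theorem ddb_hk (hNN : NNat V d) (hd : 2 ≤ d) (H : HkT C) (k : Fin 3) : DDb (ofHk H k) :=
  ddb_of hNN hd (cx_ofHk H k) (KCls.of (T11_hk H k) (Pos_hk H k))

theorem KCls_iffU (hNN : NNat V d) (hd : 2 ≤ d) {J : AJ C} (hJ : Cx J) {w : F2 C}
    (hw : T11 J w) :
    KCls J w ↔ ∃ (u : X → ℝ) (hu : Sm C u), Pos J (w + ddc J u hu) :=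
  ⟨fun h => (KCls_iff hJ (ddb_of hNN hd hJ h) hw).1 h, fun ⟨_, _, h⟩ => KCls.of_ddc hJ hw h⟩

variable {P : Type*} [TopologicalSpace P]

/-- **the locus where the class of `b p` is Kaehler for `J p` is open** -/
theorem isOpen_KClsU (hNN : NNat V d) (hd : 2 ≤ d) {J : P → AJ C} (hJ : ContJ J)
    (hc : ∀ p, Cx (J p)) {b : P → F2 C} (hb : ContF b) (ht : ∀ p, T11 (J p) (b p)) :
    IsOpen {p | KCls (J p) (b p)} := by
  have : {p | KCls (J p) (b p)} =
      {p | ∃ (u : X → ℝ) (hu : Sm C u), Pos (J p) (b p + ddc (J p) u hu)} := by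
    ext p
    exact KCls_iffU hNN hd (hc p) (ht p)
  rw [this]
  exact nef_open hJ hb

/-- **the nef locus is a `G_δ`** -/
theorem isGδ_NefCU (hNN : NNat V d) (hd : 2 ≤ d) {J : P → AJ C} (hJ : ContJ J)
    (hc : ∀ p, Cx (J p)) {om F : P → F2 C} (ho : ContF om) (hF : ContF F)
    (ht : ∀ p, T11 (J p) (om p)) (ht' : ∀ p, T11 (J p) (F p)) :
    IsGδ {p | NefC (J p) (om p) (F p)} := by
  have : {p | NefC (J p) (om p) (F p)} = ⋂ N : ℕ, {p | KCls (J p) (om p + (N : ℝ) • F p)} := by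
    ext p
    simp [NefC]
  rw [this]
  exact IsGδ.iInter_of_isOpen fun N => isOpen_KClsU hNN hd hJ hc (ho.add (hF.smul _))
    fun p => (ht p).add ((ht' p).smul _)

end main

/-! ### nef line bundles -/

section nef

variable {d : ℕ} {A : Atl d X} [CompactSpace X] [T2Space X] [ConnectedSpace X] [Finite A.ι]

/-- **dictionary** -/
theorem nefW_iffU (hd : 2 ≤ d) (P : Part A) (K : Kah A) {L : LB A} (h : HM L) :
    NefW K L ↔ NefC (jA A) (ofKah K).f2 (curK h).f2 := by
  let _ : MeasurableSpace (Cn d) := borel _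
  have : BorelSpace (Cn d) := ⟨rfl⟩
  exact nefW_iff K h (ddb_jA hd P K)

/-- **nef classes of `J k` in the atlas language** -/
theorem nefC_hk_iffU [FiniteDimensional ℝ V] {H : HkT C} {k : Fin 3} (hd : 2 ≤ d)
    (hA : Cp (H.acm k) A) (P : Part A) (K : Kah A) {L : LB A} (h : HM L)
    {om w : F2 C} (ho : T11 (ofHk H k) om) (hp : Pos (ofHk H k) om)
    (hw : Ex ((curK h).f2 - (cmp_of_cp hA).F w)) :
    NefW K L ↔ NefC (ofHk H k) om w := by
  let _ : MeasurableSpace (Cn d) := borel _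
  have : BorelSpace (Cn d) := ⟨rfl⟩
  let _ : MeasurableSpace V := borel _
  have : BorelSpace V := ⟨rfl⟩
  exact nefC_hk_iff hA K h (ddb_jA hd P K) ho hp hw

end nef

end

end Crest.Agent.R281.Nef_252
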