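import Crest.Agent.R281.Sc5_413
import Crest.Agent.R281.Ti5_846

/-!
# Row 281, SC-PIC, part 6 (helper413): proportional classes

* `combK G t : K11 A`  : real linear combinations, `combK_f2`
* `rat_ex`             : `Ex (∑ t_j • (curK (h j)).f2)` ==> integral relations (`rat_main`)
* `exists_fun`         : `t` irrational ==> `f : ℝ →ₗ[ℚ] ℚ`, `f 1 = 1`, `f t = 0`
* `pow_of_prop`        : `Ex ((curK hN).f2 - t • (curK hL).f2)` ==> `N ^ k * (L ^ a)⁻¹` has a nowhere
                         zero section for some `k > 0`, `a : ℤ`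
-/

set_option autoImplicit false
set_option linter.unusedSectionVars false

open Set Filter Topology Complex
open scoped ContDiff Matrix ComplexConjugate InnerProductSpace

namespace Crest.Agent.R281.Sc_413

open Crest.Agent.R275 Crest.Agent.R275.Geo Crest.Agent.R275.Core144 Crest.Agent.R275.EDR890
open Crest.Agent.R275.GC293
open Crest.Agent.R273 Crest.Agent.R273.Defs_333 Crest.Agent.R273.Kah_333 Crest.Agent.R273.HM_333
open Crest.Agent.R273.Hess_333 Crest.Agent.R273.HessB_333
open Crest.Agent.R273.LamN127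
open Crest.Agent.R281.HkR_835 Crest.Agent.R281.Ti_846 Crest.Agent.R281.Hdg_850

noncomputable section

variable {n : ℕ} {M : Type} [TopologicalSpace M] {A : Atl n M}

/-! ### combinations of (1,1)-forms -/

section comb

variable {J : Type} [Fintype J] (G : J → K11 A) (t : J → ℝ)

theorem wd_comb {f : J → Cn n → ℂ} {z : Cn n} (hf : ∀ j, DifferentiableAt ℝ (f j) z) (s : WI n) :
    wd s (fun w => ∑ j, (t j : ℂ) * f j w) z = ∑ j, (t j : ℂ) * wd s (f j) z := by
  refine (wd_sum Finset.univ (fun j _ => (hf j).const_mul (t j : ℂ)) s).trans ?_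
  refine Finset.sum_congr rfl fun j _ => ?_
  have := wd_const_smul (t j : ℂ) (hf j) s
  simpa only [smul_eq_mul] using this

/-- `∑ t_j G_j` -/
def combK : K11 A where
  g i x := ∑ j, (t j : ℂ) • (G j).g i x
  sm i a b := by
    have h1 : ContDiffOn ℝ ∞ (fun z => ∑ j, (t j : ℂ) * (G j).g i ((A.e i).symm z) a b)
        (A.e i).target := ContDiffOn.sum fun j _ => contDiffOn_const.mul ((G j).sm i a b)
    refine h1.congr fun z _ => ?_
    simp only [Matrix.sum_apply, Matrix.smul_apply, smul_eq_mul]
  herm i x hx := by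
    show (∑ j, (t j : ℂ) • (G j).g i x)ᴴ = _
    rw [Matrix.conjTranspose_sum]
    refine Finset.sum_congr rfl fun j _ => ?_
    rw [Matrix.conjTranspose_smul, ((G j).herm i x hx).eq]
    congr 1
    exact Complex.conj_ofReal _
  tr i j x hx := by
    rw [Matrix.mul_sum, Matrix.sum_mul]
    refine Finset.sum_congr rfl fun k _ => ?_
    rw [(G k).tr i j x hx, Matrix.mul_smul, Matrix.smul_mul]
  closed i z hz a b c := by
    have hd : ∀ a b j, DifferentiableAt ℝ (fun w => (G j).g i ((A.e i).symm w) a b) z :=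
      fun a b j => (((G j).sm i a b).contDiffAt ((A.e i).open_target.mem_nhds hz)).differentiableAt
        (by simp)
    simp only [Matrix.sum_apply, Matrix.smul_apply, smul_eq_mul]
    rw [wd_comb t (hd a b), wd_comb t (hd c b)]
    exact Finset.sum_congr rfl fun j _ => by rw [(G j).closed i z hz a b c]

theorem combK_f2 {i : A.ι} {z : Cn n} (hz : z ∈ (A.e i).target) (u v : Cn n) :
    (∑ j, t j • (G j).f2 : F2 (ofAtl A)).w i z u v = (combK G t).f2.w i z u v := by
  have h1 : (∑ j, t j • (G j).f2 : F2 (ofAtl A)).w i z u v = ∑ j, t j * (G j).f2.w i z u v := by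
    have h0 := congrArg (fun B : Bil (Cn n) => B u v)
      (F2.sum_w (C := ofAtl A) Finset.univ (fun j => t j • (G j).f2) i z)
    refine h0.trans ?_
    simp only [sum_apply]
    rfl
  rw [h1, (combK G t).f2_w hz]
  have h2 : hb ((combK G t).g i ((A.e i).symm z)) u v =
      ∑ j, (t j : ℂ) * hb ((G j).g i ((A.e i).symm z)) u v := by
    show hb (∑ j, (t j : ℂ) • (G j).g i ((A.e i).symm z)) u v = _
    rw [← hbL_apply u v (∑ j, _), map_sum]
    exact Finset.sum_congr rfl fun j _ => by rw [map_smul, hbL_apply, smul_eq_mul]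
  rw [h2, Finset.mul_sum, Complex.re_sum]
  refine Finset.sum_congr rfl fun j _ => ?_
  rw [(G j).f2_w hz]
  simp only [Complex.mul_re, Complex.mul_im, Complex.I_re, Complex.I_im, Complex.ofReal_re,
    Complex.ofReal_im]
  ring

end comb

section sc

variable [CompactSpace M] [T2Space M] [SimplyConnectedSpace M] [Finite A.ι]

/-- **real relations between Chern classes are spanned by integral ones** -/
theorem rat_ex (hA : GoodA A) (P : Part A) (K : Kah A) {J : Type} [Fintype J] {L : J → LB A}
    (h : ∀ j, HM (L j)) (t : J → ℝ) (he : Ex (∑ j, t j • (curK (h j)).f2))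
    (f : ℝ →ₗ[ℚ] ℚ) : ∃ (D : ℕ) (m : J → ℤ), 0 < D ∧ (∀ j, (m j : ℚ) = D * f (t j)) ∧
      Triv (∏ j, L j ^ m j) := by
  have h1 : Ex (combK (fun j => curK (h j)) t).f2 :=
    ex_congr he fun i z hz u v => combK_f2 _ t hz u v
  obtain ⟨u, hu, h2⟩ := hsf_of_ex hA P K _ h1
  exact rat_main h t hA P K hu h2 f

/-- a `ℚ`-linear functional -/
theorem exists_fun {t : ℝ} (ht : Irrational t) : ∃ f : ℝ →ₗ[ℚ] ℚ, f 1 = 1 ∧ f t = 0 := by
  let T : (ℚ × ℚ) →ₗ[ℚ] ℝ := (LinearMap.toSpanSingleton ℚ ℝ 1).coprod
    (LinearMap.toSpanSingleton ℚ ℝ t)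
  have hT : ∀ p, T p = p.1 + p.2 * t := by
    intro p
    simp [T, LinearMap.toSpanSingleton_apply, Rat.smul_def]
  have hinj : LinearMap.ker T = ⊥ := by
    rw [LinearMap.ker_eq_bot']
    rintro ⟨a, b⟩ h
    rw [hT] at h
    by_cases hb : b = 0
    · subst hb
      simp only [Rat.cast_zero, zero_mul, add_zero, Rat.cast_eq_zero] at h
      rw [h]
      rfl
    · exfalso
      have hb' : (b : ℝ) ≠ 0 := by exact_mod_cast hb
      have h1 : t = ((-a / b : ℚ) : ℝ) := by
        push_cast
        field_simp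
        linear_combination h
      exact ht ⟨_, h1.symm⟩
  obtain ⟨g, hg⟩ := T.exists_leftInverse_of_injective hinj
  have h1 : g 1 = (1, 0) := by
    have := LinearMap.congr_fun hg (1, 0)
    rw [LinearMap.comp_apply, hT] at this
    simpa using this
  have h2 : g t = (0, 1) := by
    have := LinearMap.congr_fun hg (0, 1)
    rw [LinearMap.comp_apply, hT] at this
    simpa using this
  exact ⟨(LinearMap.fst ℚ ℚ ℚ).comp g, by simp [h1], by simp [h2]⟩

variable {N L : LB A}

/-- **proportional classes** : `c_1(N) = t c_1(L)`, `t` real, implies `N ^ k = L ^ a` up to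
isomorphism, `k > 0` -/
theorem pow_of_prop (hA : GoodA A) (P : Part A) (K : Kah A) (hN : HM N) (hL : HM L) (t : ℝ)
    (he : Ex ((curK hN).f2 - t • (curK hL).f2)) :
    ∃ (k : ℕ) (a : ℤ), 0 < k ∧ Triv (N ^ k * (L ^ a)⁻¹) := by
  by_cases ht : Irrational t
  · obtain ⟨f, hf1, hft⟩ := exists_fun ht
    let LL : Bool → LB A := fun b => bif b then N else L
    let hh : ∀ b, HM (LL b) := fun b => by
      cases b
      · exact hL
      · exact hN
    let tt : Bool → ℝ := fun b => bif b then 1 else -t
    have h1 : Ex (∑ b, tt b • (curK (hh b)).f2) := by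
      have e1 : (∑ b, tt b • (curK (hh b)).f2 : F2 (ofAtl A)) =
          (curK hN).f2 - t • (curK hL).f2 := by
        rw [Fintype.sum_bool]
        show (1 : ℝ) • (curK hN).f2 + (-t) • (curK hL).f2 = _
        rw [one_smul, neg_smul, sub_eq_add_neg]
      rw [e1]
      exact he
    obtain ⟨D, m, hD, hm, hT⟩ := rat_ex hA P K hh tt h1 f
    refine ⟨D, 0, hD, ?_⟩
    have e1 : m true = D := by
      have := hm true
      simp only [tt, cond_true, hf1, mul_one] at this
      exact_mod_cast this
    have e2 : m false = 0 := by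
      have := hm false
      simp only [tt, cond_false, map_neg, hft, neg_zero, mul_zero] at this
      exact_mod_cast this
    rw [Fintype.prod_bool, e1, e2] at hT
    simpa [LL] using hT
  · rw [Irrational, not_not] at ht
    obtain ⟨q, rfl⟩ := ht
    have h1 : Ex (((q.den : ℤ) : ℝ) • (curK hN).f2 - ((q.num : ℤ) : ℝ) • (curK hL).f2) := by
      have h2 : Ex ((q.den : ℝ) • ((curK hN).f2 - (q : ℝ) • (curK hL).f2)) :=
        (exS (ofAtl A)).smul_mem _ he
      have e1 : ((q.den : ℝ) • ((curK hN).f2 - (q : ℝ) • (curK hL).f2) : F2 (ofAtl A)) =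
          ((q.den : ℤ) : ℝ) • (curK hN).f2 - ((q.num : ℤ) : ℝ) • (curK hL).f2 := by
        rw [smul_sub, smul_smul]
        have e2 : (q.den : ℝ) * (q : ℝ) = ((q.num : ℤ) : ℝ) := by
          have := Rat.mul_den_eq_num q
          rw [mul_comm] at this
          exact_mod_cast this
        rw [e2]
        simp
      rw [e1] at h2
      exact h2
    refine ⟨q.den, q.num, q.den_pos, ?_⟩
    have h2 := triv_of_prop hA P K hN hL (q.den : ℤ) q.num h1
    rwa [zpow_natCast] at h2

end sc

end

end Crest.Agent.R281.Sc_413
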