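import Crest.Agent.R281.SkM1_474
import Crest.Agent.R260.NN6_900

/-!
# R281 (S0424), SIG-MEM (helper474), part 2: the signature package at every member

`C : RCh (Cn d) X`, `T : TopI (lc d) (bn hd) P q` (830), `H : HkT C` with `0 < q (H.om 0)`:

* `uniqT`   : `UniqT H` (every closed holomorphic 2-form of `J 0` is a combination of `om 1`, `om 2`)
* `sig_mem` : `FujSig_358.Sig (IM ..) q (exS C) (E11J (ofHk H 0)) (H.om 1) (H.om 2) (H.om 0)`
* `q_om`, `q_om0`, .. : values of `q` on the triple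
* `t11`     : a class orthogonal to `om 1`, `om 2` has a representative of type (1,1)
-/

set_option autoImplicit false
set_option linter.unusedSectionVars false
set_option maxSynthPendingDepth 3

open Set Filter Topology Function MeasureTheory Complex
open scoped ContDiff Matrix ComplexConjugate ComplexOrder

namespace Crest.Agent.R281.SkM_474

open Crest.Agent.R275.Geo Crest.Agent.R275.Core144 Crest.Agent.R275.EDR890
open Crest.Agent.R275.GC293
open Crest.Agent.R273.Defs_333 Crest.Agent.R273.Kah_333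
open Crest.Agent.R260.ACM_580 Crest.Agent.R260.NNB_580
open Crest.Agent.R281.Defs_273
open Crest.Agent.R281.HkP1_508 Crest.Agent.R281.HkP2_508 Crest.Agent.R281.HkP3_508
open Crest.Agent.R281.FujP_513 (Symm mixv)
open Crest.Agent.R281.FujSig_358
open Crest.Agent.R281.HkR_835 hiding pb pb_apply
open Crest.Agent.R281.HkR_835.Cmp
open Crest.Agent.R281.Ti_846 hiding pb pb_apply
open Crest.Agent.R281.Dif_268
open Crest.Agent.R281.NefO_476
open Crest.Agent.R281.Nef_252 (T11 T11_hk Pos_hk eqv_ex_sub jA)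
open Crest.Agent.R281.Al_830
open Crest.Agent.R281.Fuj7_207 (bn Tn)
open Crest.Agent.R281.Fuj5_207 (E11 reS imS)
open Crest.Agent.R281.Fuj1_207 (qf)

noncomputable section

/-! ### types -/

section types

variable {V X : Type} [TopologicalSpace X] [NormedAddCommGroup V] [NormedSpace ℝ V]
  [FiniteDimensional ℝ V] [MeasurableSpace V] [BorelSpace V] {C : RCh V X}

/-- closed real (1,1)-forms of `J` -/
def E11J (J : AJ C) : Submodule ℝ (F2 C) where
  carrier := {w | T11 J w}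
  zero_mem' := fun _ _ _ _ _ => by simp
  add_mem' h h' := h.add h'
  smul_mem' a _ h := h.smul a

theorem mem_E11J {J : AJ C} {w : F2 C} : w ∈ E11J J ↔ T11 J w := Iff.rfl

variable {d : ℕ} {A : Atl d X}

theorem isI_of {H : HkT C} (hA : Cp (H.acm 0) A) : IsI (ofHk H 0) A := fun i j _ hz v =>
  ((hA j).lin' (i := i) hz v).symm

theorem mem_exS_of_eqv {w w' : F2 C} (h : Eqv w w') : w - w' ∈ exS C := by
  refine eqv_ex_sub h

/-- exactness along `Cmp` -/
theorem F_mem_exS (h : Cmp C (ofAtl A)) (x : F2 C) : h.F x ∈ exS (ofAtl A) ↔ x ∈ exS C := by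
  refine ⟨fun hx => ?_, fun hx => ex_F h hx⟩
  have h1 : h.symm.F (h.F x) ∈ exS C := ex_F h.symm hx
  have h2 := mem_exS_of_eqv (F_F h x)
  have h3 := (exS C).sub_mem h1 h2
  rwa [sub_sub_cancel] at h3

/-- types along `Cmp` -/
theorem F_mem_E11 {H : HkT C} (hA : Cp (H.acm 0) A) (x : F2 C) :
    (cmp_of_cp hA).F x ∈ E11 A ↔ x ∈ E11J (ofHk H 0) := by
  constructor
  · intro hx i z hz u v
    obtain ⟨j, hj⟩ := exists_mov (C' := C) (ofAtl A) (j := i) hz
    obtain ⟨h1, h2⟩ := mov_swap (C := C) (C' := ofAtl A) hj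
    have h3 : ∀ u v, x.w i z u v = ((cmp_of_cp hA).F x).w j (mt (ofAtl A) C j i z)
        (fderiv ℝ (mt (ofAtl A) C j i) z u) (fderiv ℝ (mt (ofAtl A) C j i) z v) := by
      intro u v
      have h4 := F_F (cmp_of_cp hA) x i z hz u v
      rw [← h4, (cmp_of_cp hA).symm.F_w _ hj]
    rw [h3, h3]
    have h5 : ∀ v, fderiv ℝ (mt (ofAtl A) C j i) z ((ofHk H 0).J i z v) =
        I • fderiv ℝ (mt (ofAtl A) C j i) z v := fun v => (isI_of hA).back (cmp_of_cp hA) hj v
    rw [h5, h5]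
    exact hx j _ (mt_mem hj).1 _ _
  · intro hx j z hz u v
    exact (isI_of hA).t11 (cmp_of_cp hA) hx j z hz u v

end types

/-! ### members -/

variable {d : ℕ} {X : Type} [TopologicalSpace X] [T2Space X] [CompactSpace X] [ConnectedSpace X]

theorem closed_all {A : Atl d X} [Finite A.ι] (PA : Part A) {V : Type} [NormedAddCommGroup V]
    [NormedSpace ℝ V] {C : RCh V X} {H : HkT C} (hA : Cp (H.acm 0) A) (τ : H2 A) : ClH τ :=
  fun i _ hz a b c => closed_of_par (par_h2 PA (ric0 (H.onA hA) (onA_J H hA)) τ) i hz a b c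

section uniq

variable {V : Type} [NormedAddCommGroup V] [NormedSpace ℝ V] [FiniteDimensional ℝ V]
  [MeasurableSpace V] [BorelSpace V] {μ : Measure V} [μ.IsAddHaarMeasure] {C : RCh V X} {n : ℕ}
  {b : Module.Basis (Fin (n + n) × Fin 2) ℝ V} {P : RPart C} {q : QuadraticForm ℝ (F2 C)}

theorem nnatV (b : Module.Basis (Fin (n + n) × Fin 2) ℝ V) : NNat V (n + n) :=
  Crest.Agent.R260.NN6_900.nnat (n + n) V (by
    rw [Module.finrank_eq_card_basis b]; simp [mul_comm])

/-- **uniqueness of the symplectic form at every member** -/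
theorem uniqT (T : TopI μ b P q) (H : HkT C) (hq : 0 < q (H.om 0)) : UniqT H := by
  obtain ⟨A, hfin, hgood, ⟨PA⟩, h, hJ, hA⟩ := exists_rot (nnatV b) H
  refine uniqT_of hA ?_
  exact T.uniq_mem (isI_of hA) (cmp_of_cp hA) (H.J_sq 0) (T11_hk H 0) (Pos_hk H 0) hq (H.sig hA)
    fun τ => closed_all PA hA τ

end uniq

variable {C : RCh (Cn d) X} {n : ℕ} {hd : d = n + n} {P : RPart C} {q : QuadraticForm ℝ (F2 C)}

/-- **the signature package at a member, with its atlas** -/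
theorem sig_atl (T : TopI (lc d) (bn hd) P q) {H : HkT C} (hq : 0 < q (H.om 0)) {A : Atl d X}
    [Finite A.ι] (PA : Part A) (hA : Cp (H.acm 0) A) (hn2 : 2 ≤ n + n) :
    ∃ hcl : ClH (H.sig hA).toH2,
      Sig (Tn hd PA) (qf (Tn hd PA) hn2 n (reS (H.sig hA).toH2 hcl)) (exS (ofAtl A)) (E11 A)
        (reS (H.sig hA).toH2 hcl) (imS (H.sig hA).toH2 hcl) (ofKah (H.kah hA)).f2 ∧
      (∀ v : Fin (n + n) → F2 C, Tn hd PA (fun k => FL (cmp_of_cp hA) (v k)) =
        IM (lc d) (bn hd) P v) ∧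
      (∀ x, qf (Tn hd PA) hn2 n (reS (H.sig hA).toH2 hcl) (FL (cmp_of_cp hA) x) = q x) ∧
      FL (cmp_of_cp hA) (H.om 1) - reS (H.sig hA).toH2 hcl ∈ exS (ofAtl A) ∧
      FL (cmp_of_cp hA) (H.om 2) - imS (H.sig hA).toH2 hcl ∈ exS (ofAtl A) ∧
      FL (cmp_of_cp hA) (H.om 0) - (ofKah (H.kah hA)).f2 ∈ exS (ofAtl A) ⊓ E11 A := by
  have hn := T.npos
  have hU : (H.sig hA).Uniq := uniq_of_T PA hA (uniqT T H hq)
  set hc := cmp_of_cp hA with hhc
  have hcl : ClH (H.sig hA).toH2 := closed_all PA hA _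
  have S' := Crest.Agent.R281.Fuj8_207.sig hd PA hn (H.kah hA) (H.sig hA) hU hcl hn2
  have e0 : Eqv (hc.F (H.om 0)) (ofKah (H.kah hA)).f2 := fun i z hz u v => by
    have h1 := K0_om0 (H.onA hA) (onA_J H hA) hz
    exact (congrArg (fun B : Bil (Cn d) => B u v) h1).symm
  have e1 : Eqv (hc.F (H.om 1)) (reS (H.sig hA).toH2 hcl) := fun i z hz u v => by
    have h1 := S0_om1 (H.onA hA) (onA_J H hA) hz
    exact (congrArg (fun B : Bil (Cn d) => B u v) h1).symm
  have e2 : Eqv (hc.F (H.om 2)) (imS (H.sig hA).toH2 hcl) := fun i z hz u v => by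
    have h1 := S0_om2 (H.onA hA) (onA_J H hA) hz
    exact (congrArg (fun B : Bil (Cn d) => B u v) h1).symm
  -- orientations
  have hpC : ∀ i, ∀ z ∈ (C.e i).target, 0 < TP (bn hd) (fun _ => (H.om 0).w i z) :=
    sign_pos (lc d) (bn hd) P T.ori T.nn (TP_om_ne (bn hd) (isI_of hA) hc (T11_hk H 0)
      (Pos_hk H 0)) (by rw [T.fuj]; exact pow_pos hq n)
  have hpA : ∀ j, ∀ z ∈ (A.e j).target, 0 < TP (bn hd) (fun _ => (hc.F (H.om 0)).w j z) := by
    intro j z hz
    have h1 : (hc.F (H.om 0)).w j z = (ofKah (H.kah hA)).f2.w j z := by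
      ext u v
      exact e0 j z hz u v
    rw [h1]
    exact TP_bcr_kah_pos (finCongr hd) (H.kah hA) hz
  have hor : OriM C (ofAtl A) := oriM_of_pos hc (bn hd) (fun _ => H.om 0) hpC hpA
  have hT : ∀ v : Fin (n + n) → F2 C, Tn hd PA (fun k => FL hc (v k)) =
      IM (lc d) (bn hd) P v := fun v =>
    II_cmp (lc d) (bn hd) hc hor P (RPart.ofPart PA) v
  have hK : FL hc (H.om 0) - (ofKah (H.kah hA)).f2 ∈ exS (ofAtl A) := mem_exS_of_eqv e0
  have hq0 : 0 < qf (Tn hd PA) hn2 n (reS (H.sig hA).toH2 hcl) (FL hc (H.om 0)) := by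
    rw [sq_congr S' hK]
    exact S'.qK
  refine ⟨hcl, S', hT, fun x => ?_, mem_exS_of_eqv e1, mem_exS_of_eqv e2, hK, ?_⟩
  · refine ((line_eq (x := H.om 0) (y := x) (x' := FL hc (H.om 0)) (y' := FL hc x) q _ hn hq hq0
      fun t => ?_).2.2).symm
    rw [← T.fuj, ← map_smul, ← map_add, ← S'.fuj]
    exact (hT fun _ => H.om 0 + t • x).symm
  · refine (E11 A).sub_mem ((F_mem_E11 hA _).2 (T11_hk H 0)) ?_
    exact Crest.Agent.R281.Fuj5_207.f2_mem _

/-- **the signature package at every member** -/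
theorem sig_mem (T : TopI (lc d) (bn hd) P q) (H : HkT C) (hq : 0 < q (H.om 0)) :
    Sig (IM (lc d) (bn hd) P) q (exS C) (E11J (ofHk H 0)) (H.om 1) (H.om 2) (H.om 0) := by
  have hn := T.npos
  have hNN : NNat (Cn d) d := by
    have := nnatV (bn hd)
    rwa [← hd] at this
  obtain ⟨A, hfin, hgood, ⟨PA⟩, h, hJ, hA⟩ := exists_rot hNN H
  obtain ⟨hcl, S', hT, hq', h1, h2, h3⟩ := sig_atl T hq PA hA (by omega)
  refine sig_back (FL (cmp_of_cp hA)) hT hq' (F_mem_exS (cmp_of_cp hA)) (F_mem_E11 hA) (fun y' => ?_) h1 h2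
    h3 S'
  refine ⟨(cmp_of_cp hA).symm.F y', ?_⟩
  have e : Eqv ((cmp_of_cp hA).F ((cmp_of_cp hA).symm.F y')) y' := F_F (cmp_of_cp hA).symm y'
  refine ⟨mem_exS_of_eqv e, fun i z hz u v => ?_⟩
  have e1 : ∀ u v : Cn d, (FL (cmp_of_cp hA) ((cmp_of_cp hA).symm.F y') - y').w i z u v = 0 := by
    intro u v
    have e2 := e i z hz u v
    show ((cmp_of_cp hA).F ((cmp_of_cp hA).symm.F y')).w i z u v - y'.w i z u v = 0
    rw [e2, sub_self]
  rw [e1, e1]

/-- classes orthogonal to the symplectic form have a representative of type (1,1) -/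
theorem t11 (T : TopI (lc d) (bn hd) P q) (H : HkT C) (hq : 0 < q (H.om 0)) {x : F2 C}
    (h1 : QuadraticMap.polar q x (H.om 1) = 0) (h2 : QuadraticMap.polar q x (H.om 2) = 0) :
    ∃ y, Ex (y - x) ∧ T11 (ofHk H 0) y := by
  obtain ⟨y, hy, e, he, rfl⟩ := (sig_mem T H hq).type11.1 ⟨h1, h2⟩
  refine ⟨y, ?_, hy⟩
  have : y - (y + e) = -e := by abel
  rw [this]
  exact (exS C).neg_mem he

end

end Crest.Agent.R281.SkM_474
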