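import Crest.Agent.R281.Kd10_22
import Crest.Agent.R281.Kd6_22
import Crest.Agent.R281.RkD_902
import Crest.Agent.R281.Mov7_625
import Crest.Agent.R281.SkM2_474
import Crest.Agent.R281.Nef4_252
import Crest.Agent.R281.Kb1_565
import Crest.Agent.R281.Deg4_751
import Crest.Agent.R281.Sc6_413

/-!
# Row 281, KAPPA-1 glue, part 11 (helper22): `NSMov`

* `cls_pull` : the class of the curvature under a refinement of the atlas
* `np_of_rk` : `Rk` ==> two non-proportional sections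
* `nsmov`    : **`NSMov L T r`** at a structure with `Ctx`, `Given`, `NefC`, for a line bundle `L`
               with `c_1(L)` a positive multiple of `e`, and a tube over whose tori the classes
               orthogonal to `e` vanish
-/

set_option autoImplicit false
set_option linter.unusedSectionVars false
set_option maxSynthPendingDepth 3

open Set Filter Topology Complex Module
open scoped ContDiff

namespace Crest.Agent.R281.Kd_22

open Crest.Agent.R275.Geo Crest.Agent.R275.Core144 Crest.Agent.R275.EDR890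
open Crest.Agent.R275.GC293
open Crest.Agent.R273.Defs_333 Crest.Agent.R273.Kah_333 Crest.Agent.R273.HM_333
open Crest.Agent.R273.Map_835 (HolMap)
open Crest.Agent.R273.PB_835 (LBih Ref pullLB)
open Crest.Agent.R260.ACM_580 Crest.Agent.R260.NNB_580
open Crest.Agent.R281.HkR_835 Crest.Agent.R281.Ti_846 Crest.Agent.R281.Dif_268
open Crest.Agent.R281.Defs_273 (NefW)
open Crest.Agent.R281.Rk_599
open Crest.Agent.R281.NefO_476
open Crest.Agent.R281.Nef_252
open Crest.Agent.R281.Per_368 (per pull SmI)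
open Crest.Agent.R281.RkD_902 (Ctx Given)
open Crest.Agent.R281.Sc_413 (Triv)
open Crest.Agent.R281.SkM_474 (FL FL_apply sig_atl)
open Crest.Agent.R281.Fuj7_207 (bn Tn)
open Crest.Agent.R281.Fuj5_207 (E11)
open Crest.Agent.R281.PL_713 (PL)

noncomputable section

variable {d : ℕ} {V X : Type} [NormedAddCommGroup V] [NormedSpace ℝ V] [TopologicalSpace X]
  {C : RCh V X} {A A' : Atl d X}

/-- the class of the curvature under a refinement of the atlas -/
theorem cls_pull {H : HkT C} (hA : Cp (H.acm 0) A) (hA' : Cp (H.acm 0) A')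
    (h1 : HolMap A' A id) (h2 : HolMap A A' id) (R : Ref A' A id) {L : LB A} (h : HM L)
    {w : F2 C} (hw : Ex ((curK h).f2 - (cmp_of_cp hA).F w)) :
    Ex ((curK ((Crest.Agent.R273.PB_835.PB.ref h1 R L).pullHM h1 h)).f2 -
      (cmp_of_cp hA').F w) := by
  set h' := (Crest.Agent.R273.PB_835.PB.ref h1 R L).pullHM h1 h with hh'
  set g := SMap.ofCmp (Crest.Agent.R281.Cdr_234.cmp_of_hol h1 h2) with hg
  have e1 : Eqv (Crest.Agent.R281.Cdr_234.c1F h') (g.pull (Crest.Agent.R281.Cdr_234.c1F h)) :=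
    Crest.Agent.R281.Kb_565.eqv_c1F_pull _ h1 h2 h
  have hπ : Real.pi ≠ 0 := Real.pi_ne_zero
  have c1 : ∀ {A : Atl d X} {L : LB A} (h : HM L), Eqv (curK h).f2
      (Real.pi • Crest.Agent.R281.Cdr_234.c1F h) := by
    intro A L h i z hz u v
    have : Crest.Agent.R281.Cdr_234.c1F h = (Real.pi⁻¹ : ℝ) • (curK h).f2 := rfl
    rw [this, smul_smul, mul_inv_cancel₀ hπ, one_smul]
  have e2 : Eqv (curK h').f2 (g.pull (curK h).f2) := by
    have e3 : Eqv (curK h').f2 (Real.pi • Crest.Agent.R281.Cdr_234.c1F h') := c1 h'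
    refine e3.trans ?_
    have e4 : Eqv (Real.pi • Crest.Agent.R281.Cdr_234.c1F h')
        (Real.pi • g.pull (Crest.Agent.R281.Cdr_234.c1F h)) := fun i z hz u v =>
      congrArg (fun t : ℝ => Real.pi * t) (e1 i z hz u v)
    refine e4.trans ((pull_smul g Real.pi _).symm.trans ?_)
    exact (c1 h).symm.pull g
  have e5 : Ex (g.pull ((curK h).f2 - (cmp_of_cp hA).F w)) := g.ex_pull hw
  have e6 : Eqv (g.pull ((curK h).f2 - (cmp_of_cp hA).F w))
      ((curK h').f2 - (cmp_of_cp hA').F w) := by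
    refine (pull_sub g _ _).trans fun i z hz u v => ?_
    have e7 := e2 i z hz u v
    have e8 := Crest.Agent.R281.Kb_565.F_comp_hol hA hA' h1 h2 w i z hz u v
    show (g.pull (curK h).f2).w i z u v - (g.pull ((cmp_of_cp hA).F w)).w i z u v =
      (curK h').f2.w i z u v - ((cmp_of_cp hA').F w).w i z u v
    rw [e7, e8]
  exact e6.ex e5

/-- `Rk` ==> two non-proportional sections -/
theorem np_of_rk {N : LB A} {r : ℕ} {t : Fin (r + 1) → A.ι → X → ℂ} (ht : ∀ j, IsHS N univ (t j))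
    (hr : 0 < r) {i : A.ι} {x : X} (h : Rk A t i x) : ∃ s : Fin 2 → A.ι → X → ℂ,
      (∀ k, IsHS N univ (s k)) ∧ ∀ a b : ℂ,
        (∀ i, ∀ x ∈ (A.e i).source, a * s 0 i x + b * s 1 i x = 0) → a = 0 ∧ b = 0 := by
  obtain ⟨hx, h0, hl⟩ := h
  refine ⟨![t 0, t (Fin.succ ⟨0, hr⟩)], fun k => ?_, fun a b hab => ?_⟩
  · fin_cases k
    · exact ht 0
    · exact ht _
  have hb : b = 0 := by
    by_contra hb
    have h1 := hl.ne_zero ⟨0, hr⟩
    refine h1 ?_
    have h2 : rat A t i ⟨0, hr⟩ =ᶠ[𝓝 (A.e i x)] fun _ => - a / b := by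
      have h3 : ∀ᶠ z in 𝓝 (A.e i x), t 0 i ((A.e i).symm z) ≠ 0 := by
        have h4 := (an_sec (ht 0) i ((A.e i).map_source hx)).continuousAt
        refine h4.eventually_ne ?_
        show t 0 i ((A.e i).symm (A.e i x)) ≠ 0
        rw [(A.e i).left_inv hx]; exact h0
      filter_upwards [h3, (A.e i).open_target.mem_nhds ((A.e i).map_source hx)] with z hz hzt
      have h5 := hab i _ ((A.e i).map_target hzt)
      simp only [Matrix.cons_val_zero, Matrix.cons_val_one] at h5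
      show t (Fin.succ ⟨0, hr⟩) i ((A.e i).symm z) / t 0 i ((A.e i).symm z) = _
      rw [div_eq_div_iff hz hb]
      linear_combination h5
    rw [h2.fderiv_eq]
    exact fderiv_const_apply _
  refine ⟨?_, hb⟩
  have h5 := hab i x hx
  simp only [Matrix.cons_val_zero, hb, zero_mul, add_zero] at h5
  exact (mul_eq_zero.1 h5).resolve_right h0

theorem inv_aux {G : Type*} [CommGroup G] (x y : G) (k a : ℕ) :
    (x ^ k * (y ^ (a : ℤ))⁻¹)⁻¹ = y ^ a * (x ^ k)⁻¹ := by
  rw [zpow_natCast, mul_inv, inv_inv, mul_comm]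

/-- polar forms along a linear map -/
theorem polar_map {H₁ H₂ : Type*} [AddCommGroup H₁] [Module ℝ H₁] [AddCommGroup H₂] [Module ℝ H₂]
    {q : QuadraticForm ℝ H₁} {q' : QuadraticForm ℝ H₂} {G : H₁ →ₗ[ℝ] H₂} (h : ∀ x, q' (G x) = q x)
    (x y : H₁) : QuadraticMap.polar q' (G x) (G y) = QuadraticMap.polar q x y := by
  simp only [QuadraticMap.polar, ← map_add, h]

section main

variable {n : ℕ} {X : Type} [TopologicalSpace X] [CompactSpace X] [T2Space X]
  [SimplyConnectedSpace X] {C : RCh (Cn (2 * n)) X} {Q : F2 C →ₗ[ℝ] F2 C →ₗ[ℝ] ℝ} {H : HkT C}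
  {L0 : PL C} {e : F2 C} {A : Atl (2 * n) X} {F B : Type} [NormedAddCommGroup F]
  [NormedSpace ℂ F] [NormedAddCommGroup B] [NormedSpace ℂ B] [FiniteDimensional ℂ F]
  [FiniteDimensional ℂ B]

/-- the curvature of a line bundle whose section has no zeros on a torus is orthogonal to `e` -/
theorem orth_e [Nontrivial F] (hA : Cp (H.acm 0) A) (T : HTube A F B)
    (hdim : finrank ℂ F + finrank ℂ B = 2 * n) (hPV : PVan Q e T) {N : LB A} (h : HM N)
    {s : A.ι → X → ℂ} (hs : IsHS N univ s) {b : B} (hb : b ∈ T.Om)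
    (h0 : ∀ c i, T.P (c, b) ∈ (A.e i).source → s i (T.P (c, b)) ≠ 0) :
    Q ((cmp_of_cp hA).symm.F (curK h).f2) e = 0 := by
  have _ : FiniteDimensional ℝ F := FiniteDimensional.complexToReal F
  have hS := T.smI hb
  have hSC : SmI C univ (fun c => T.P (c, b)) := smI_change (cmp_of_cp hA) hS
  obtain ⟨m, β, hβp, hβ⟩ := hPV b hb
  have hper : ∀ l ∈ range β, ∀ ζ ∈ (univ : Set F), ζ + l ∈ (univ : Set F) ∧
      T.P (ζ + l, b) = T.P (ζ, b) := by
    rintro _ ⟨a, rfl⟩ ζ _
    exact ⟨mem_univ _, hβp a ζ⟩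
  have e0 : Eqv ((cmp_of_cp hA).F (H.om 0)) (ofKah (H.kah hA)).f2 := fun i z hz u v => by
    have h1 := K0_om0 (H.onA hA) (onA_J H hA) hz
    exact (congrArg (fun B : Bil (Cn (2 * n)) => B u v) h1).symm
  refine q_zero' (Q := Q.flip e) hSC β (fun w hw => hβ w hw) (k := H.om 0) ?_ ?_
  · obtain ⟨z, a, c, hne⟩ := kah_per_ne T hdim (H.kah hA) hb β hβp
    refine ⟨z, a, c, ?_⟩
    have e1 : per (pull (H.om 0) fun c => T.P (c, b)) z (β a) (β c) =
        per (pull (ofKah (H.kah hA)).f2 fun c => T.P (c, b)) z (β a) (β c) := by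
      refine per_congr fun s t => ?_
      rw [← pull_F (cmp_of_cp hA) hS (H.om 0) (mem_univ _), pull_eqv e0]
    rw [e1]; exact hne
  · intro z a c
    have e1 : per (pull ((cmp_of_cp hA).symm.F (curK h).f2) fun c => T.P (c, b)) z (β a) (β c) =
        per (pull (curK h).f2 fun c => T.P (c, b)) z (β a) (β c) := by
      refine per_congr fun s t => ?_
      rw [pull_F (cmp_of_cp hA).symm hSC (curK h).f2 (mem_univ _)]
    rw [e1]
    exact tor_zero (Λ := range β) h hs hS hper (fun ζ _ i hi => h0 ζ i hi) ⟨a, rfl⟩ ⟨c, rfl⟩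
      fun _ _ => mem_univ _

/-- **`NSMov`** -/
theorem nsmov [Nontrivial F] (hX : Ctx n C Q) (hG : Given Q H L0 e)
    (hnef : NefC (ofHk H 0) (H.om 0) e) (hA : Cp (H.acm 0) A) {L : LB A} (h : HM L) {c : ℝ}
    (hc : 0 < c) (hcl : Ex ((curK h).f2 - c • (cmp_of_cp hA).F e)) (T : HTube A F B)
    (hne : T.Om.Nonempty) (hdim : finrank ℂ F + finrank ℂ B = 2 * n) (hPV : PVan Q e T)
    {r : ℕ} (hr : 0 < r) : NSMov L T r := by
  intro A' R hl hl' hfin hgood hPart N t ht hcop hrk hfib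
  obtain ⟨P'⟩ := hPart
  obtain ⟨i, x, hrk⟩ := hrk
  have hA' : Cp (H.acm 0) A' := cp_of_hol hA hl.toHolMap hl'.toHolMap
  obtain ⟨hN⟩ := exists_hm P' N
  set L' := pullLB hl.toHolMap R L with hL'
  set h' : HM L' := (Crest.Agent.R273.PB_835.PB.ref hl.toHolMap R L).pullHM hl.toHolMap h with hh'
  have hcl' : Ex ((curK h').f2 - (cmp_of_cp hA').F (c • e)) :=
    cls_pull hA hA' hl.toHolMap hl'.toHolMap R h hcl
  -- the signature package on `A'`
  have hn1 := hX.n1
  obtain ⟨P, q, κ, hκ, Tp, hQ⟩ := hX.top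
  have hQs : ∀ x, Q x x = κ * (2 * q x) := fun x => by
    rw [hQ, QuadraticMap.polar_self, nsmul_eq_mul, Nat.cast_ofNat]
  have hq0 : 0 < q (H.om 0) := by
    have h1 := hG.pos
    rw [hQs] at h1
    have h2 := (mul_pos_iff_of_pos_left hκ).1 h1
    linarith
  have hqe : q e = 0 := by
    have h1 := hG.ee
    rw [hQs] at h1
    have h2 := (mul_eq_zero.1 h1).resolve_left hκ.ne'
    linarith
  have hp0 : 0 < QuadraticMap.polar q (H.om 0) e := by
    have h1 := hG.e0
    rw [hX.symm, hQ] at h1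
    exact (mul_pos_iff_of_pos_left hκ).1 h1
  obtain ⟨hcl0, S', hT, hq', g1, g2, g3⟩ := sig_atl Tp hq0 P' hA' (by omega)
  set q' := Crest.Agent.R281.Fuj1_207.qf (Tn (two_mul n) P') (by omega) n
    (Crest.Agent.R281.Fuj5_207.reS (H.sig hA').toH2 hcl0) with hq'def
  set G := FL (cmp_of_cp hA') with hGdef
  have hpol : ∀ x y, QuadraticMap.polar q' (G x) (G y) = QuadraticMap.polar q x y :=
    polar_map hq'
  have hex : ∀ x y y', y - y' ∈ Crest.Agent.R281.Ti_846.exS (ofAtl A') →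
      QuadraticMap.polar q' x y = QuadraticMap.polar q' x y' := by
    intro x y y' hy
    have h1 := S'.ex x _ hy
    rw [QuadraticMap.polar_sub_right, sub_eq_zero] at h1
    exact h1
  have hwc : (curK h').f2 - G (c • e) ∈ Crest.Agent.R281.Ti_846.exS (ofAtl A') := hcl'
  -- orthogonality
  obtain ⟨b₁, hb₁⟩ := hne
  obtain ⟨b, hbW, hb0⟩ := hfib b₁ hb₁ univ univ_mem
  have horth : Q ((cmp_of_cp hA').symm.F (curK hN).f2) e = 0 :=
    orth_e hA' (T.change hl.toHolMap hl'.toHolMap) hdim (hPV.change hl.toHolMap hl'.toHolMap) hN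
      (ht 0) hbW.2 hb0
  set y := (cmp_of_cp hA').symm.F (curK hN).f2 with hy
  have hGy : G y - (curK hN).f2 ∈ Crest.Agent.R281.Ti_846.exS (ofAtl A') :=
    Crest.Agent.R281.SkM_474.mem_exS_of_eqv (F_F (cmp_of_cp hA').symm (curK hN).f2)
  have hNw : QuadraticMap.polar q' (curK hN).f2 (curK h').f2 = 0 := by
    rw [hex _ _ _ hwc, QuadraticMap.polar_comm, ← hex _ _ _ hGy, hpol]
    have h1 := horth
    rw [hQ] at h1
    have h2 := (mul_eq_zero.1 h1).resolve_left hκ.ne'
    rw [QuadraticMap.polar_smul_left, QuadraticMap.polar_comm, h2]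
    simp
  have hww : q' (curK h').f2 = 0 := by
    rw [Crest.Agent.R281.SkM_474.sq_congr S' hwc, hq', QuadraticMap.map_smul, hqe]
    simp
  have how : 0 < QuadraticMap.polar q' (G (H.om 0)) (curK h').f2 := by
    rw [hex _ _ _ hwc, hpol, QuadraticMap.polar_smul_right]
    exact mul_pos hc hp0
  have hNef' : NefC (jA A') (G (H.om 0)) (curK h').f2 := by
    have h1 := (NefC_hk hA' _ _).1 (hnef.smul hc.le)
    refine h1.congr (by rw [FL_apply, sub_self]; exact Crest.Agent.R281.Nef_252.ex_zero) ?_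
    have := Crest.Agent.R281.Nef_252.ex_neg hcl'
    rwa [neg_sub] at this
  obtain ⟨-, a, ha⟩ := Crest.Agent.R281.Mov_625.mov_prop (two_mul n) P' S' hNef'
    (Crest.Agent.R281.Fuj5_207.f2_mem _) hww how hN hNw ht hcop
  -- powers
  obtain ⟨k, a', hk, hTriv⟩ := Crest.Agent.R281.Sc_413.pow_of_prop hgood P' (H.kah hA') hN h' a ha
  -- the sign
  obtain ⟨s, hs, hnp⟩ := np_of_rk ht hr hrk
  have hD := Crest.Agent.R281.Deg_751.Deg_pos P' (H.kah hA') hs hnp
  have hnW : NefW (H.kah hA') L' :=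
    (nefC_hk_iffU (by omega) hA' P' (H.kah hA') h' (T11_hk H 0) (Pos_hk H 0) hcl').2
      (hnef.smul hc.le)
  have hDL := Crest.Agent.R281.Deg_751.Deg_nef P' (H.kah hA') hnW
  have hD0 : Crest.Agent.R281.Deg_751.Deg P' (H.kah hA') (N ^ k * (L' ^ a')⁻¹) = 0 := by
    obtain ⟨u, hu, hu0⟩ := hTriv
    exact Crest.Agent.R281.Deg_751.deg_zero_of_triv P' (H.kah hA') _ hu hu0
  rw [Crest.Agent.R281.Deg_751.Deg_mul, Crest.Agent.R281.Deg_751.Deg_inv,
    Crest.Agent.R281.Deg_751.Deg_pow, Crest.Agent.R281.Deg_751.Deg_zpow] at hD0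
  have ha' : 0 < a' := by
    have hkr : (0 : ℝ) < k := by exact_mod_cast hk
    have h1 : 0 < (k : ℝ) * Crest.Agent.R281.Deg_751.Deg P' (H.kah hA') N := mul_pos hkr hD
    have h2 : 0 < (a' : ℝ) * Crest.Agent.R281.Deg_751.Deg P' (H.kah hA') L' := by linarith
    by_contra h3
    push Not at h3
    have h4 : (a' : ℝ) ≤ 0 := by exact_mod_cast h3
    exact absurd h2 (not_lt.2 (mul_nonpos_of_nonpos_of_nonneg h4 hDL))
  obtain ⟨a₀, rfl⟩ := Int.eq_ofNat_of_zero_le ha'.le
  refine ⟨k, a₀, hk, by exact_mod_cast ha', ?_⟩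
  have hT2 := hTriv.inv
  obtain ⟨σ, hσ, hσ0⟩ := hT2
  refine ⟨σ, ?_, hσ0⟩
  exact isHS_cast (inv_aux N L' k a₀) hσ

end main

end

end Crest.Agent.R281.Kd_22
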