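import Crest.Agent.R275.Loc2D_879

/-!
Row 281 (S0424), K1-DIV (helper22), part 1: greatest common divisors of holomorphic germs in every
dimension; relative primality is an open condition (resultant + zeros persist).

* `Dv k f q`  : `k` divides `f` near `q`
* `RP f h q`  : no common nonunit divisor at `q`
* `rp_open`   : `RP f h p → ∀ᶠ q in 𝓝 p, RP f h q`
* `exists_gcd_near` : a finite family has a divisor `h` at `p` which is the gcd at all nearby points
-/

set_option autoImplicit false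
set_option linter.unusedSectionVars false

open Set Filter Topology Metric Complex
open Crest.Agent.R275.Loc2879

noncomputable section

namespace Crest.Agent.R281.Kd_22

universe u v

section Defs

variable {E : Type u} [NormedAddCommGroup E] [NormedSpace ℂ E]
variable {E' : Type v} [NormedAddCommGroup E'] [NormedSpace ℂ E']

/-- `k` divides `f` near `q` (as holomorphic functions) -/
def Dv (k f : E → ℂ) (q : E) : Prop :=
  ∃ m : E → ℂ, AnalyticAt ℂ m q ∧ ∀ᶠ x in 𝓝 q, f x = k x * m x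

/-- relatively prime at `q` -/
def RP (f h : E → ℂ) (q : E) : Prop :=
  ∀ k : E → ℂ, AnalyticAt ℂ k q → Dv k f q → Dv k h q → k q ≠ 0

variable {k f h m : E → ℂ} {q p : E}

theorem dv_iff (hk : AnalyticAt ℂ k q) (hf : AnalyticAt ℂ f q) :
    Dv k f q ↔ gm k hk ∣ gm f hf := gm_dvd_gm.symm

theorem rp_iff (hf : AnalyticAt ℂ f q) (hh : AnalyticAt ℂ h q) :
    RP f h q ↔ IsRelPrime (gm f hf) (gm h hh) := by
  constructor
  · intro H d h1 h2
    obtain ⟨k, hk, rfl⟩ := exists_gm d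
    rw [isUnit_gm]
    exact H k hk ((dv_iff hk hf).2 h1) ((dv_iff hk hh).2 h2)
  · intro H k hk h1 h2
    have := H ((dv_iff hk hf).1 h1) ((dv_iff hk hh).1 h2)
    rwa [isUnit_gm] at this

theorem Dv.refl (f : E → ℂ) (q : E) : Dv f f q :=
  ⟨fun _ => 1, analyticAt_const, Eventually.of_forall fun x => by ring⟩

theorem Dv.trans (h1 : Dv k f q) (h2 : Dv f h q) : Dv k h q := by
  obtain ⟨a, ha, ea⟩ := h1
  obtain ⟨b, hb, eb⟩ := h2
  refine ⟨a * b, ha.mul hb, ?_⟩
  filter_upwards [ea, eb] with x h3 h4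
  rw [h4, h3, Pi.mul_apply]; ring

theorem Dv.congr_right {f' : E → ℂ} (h1 : Dv k f q) (he : f =ᶠ[𝓝 q] f') : Dv k f' q := by
  obtain ⟨a, ha, ea⟩ := h1
  exact ⟨a, ha, by filter_upwards [ea, he] with x h3 h4; rw [← h4, h3]⟩

theorem Dv.congr_left {k' : E → ℂ} (h1 : Dv k f q) (he : k =ᶠ[𝓝 q] k') : Dv k' f q := by
  obtain ⟨a, ha, ea⟩ := h1
  exact ⟨a, ha, by filter_upwards [ea, he] with x h3 h4; rw [← h4, h3]⟩

theorem Dv.ev (h1 : Dv k f q) : ∀ᶠ x in 𝓝 q, Dv k f x := by
  obtain ⟨a, ha, ea⟩ := h1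
  filter_upwards [ha.eventually_analyticAt, eventually_eventually_nhds.2 ea] with x h2 h3
  exact ⟨a, h2, h3⟩

theorem Dv.mul_right (h1 : Dv k f q) (hm : AnalyticAt ℂ m q) : Dv k (fun x => f x * m x) q := by
  obtain ⟨a, ha, ea⟩ := h1
  refine ⟨a * m, ha.mul hm, ?_⟩
  filter_upwards [ea] with x h3
  rw [h3, Pi.mul_apply]; ring

theorem Dv.add (h1 : Dv k f q) (h2 : Dv k h q) : Dv k (fun x => f x + h x) q := by
  obtain ⟨a, ha, ea⟩ := h1
  obtain ⟨b, hb, eb⟩ := h2
  refine ⟨a + b, ha.add hb, ?_⟩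
  filter_upwards [ea, eb] with x h3 h4
  rw [h4, h3, Pi.add_apply]; ring

/-- pull-back of divisibility -/
theorem Dv.comp {k f : E' → ℂ} {φ : E → E'} {x : E} (h1 : Dv k f (φ x))
    (hφ : AnalyticAt ℂ φ x) : Dv (k ∘ φ) (f ∘ φ) x := by
  obtain ⟨a, ha, ea⟩ := h1
  exact ⟨a ∘ φ, ha.comp hφ, hφ.continuousAt.eventually ea⟩

end Defs

/-! ### openness in coordinates -/

section Aux

variable {E : Type u} [NormedAddCommGroup E] [NormedSpace ℂ E] [FiniteDimensional ℂ E] {z₀ : E}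

theorem rp_aux {F H : E × ℂ → ℂ} {hF : AnalyticAt ℂ F (z₀, 0)} {hH : AnalyticAt ℂ H (z₀, 0)}
    {n : ℕ} (hreg : Reg (gm F hF) n) (hfh : IsRelPrime (gm F hF) (gm H hH)) :
    ∀ᶠ q in 𝓝 (z₀, (0 : ℂ)), RP F H q := by
  obtain ⟨c, hc, hmem⟩ := elim hreg hfh
  obtain ⟨a, b, hab⟩ := Ideal.mem_span_pair.1 hmem
  obtain ⟨A, hA, rfl⟩ := exists_gm a
  obtain ⟨B, hB, rfl⟩ := exists_gm b
  obtain ⟨C, hC, rfl⟩ := exists_gm c
  have hab' : ∀ᶠ x in 𝓝 (z₀, (0 : ℂ)), A x * F x + B x * H x = C x.1 := by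
    rw [iot, pull_gm, gm_mul, gm_mul, gm_add, gm_eq_gm] at hab
    filter_upwards [hab] with x hx using hx
  -- the base germ is not flat at nearby points
  have hCne : ∀ᶠ z in 𝓝 z₀, ¬ ∀ᶠ y in 𝓝 z, C y = 0 := by
    obtain ⟨r, hr, hCr⟩ := Metric.eventually_nhds_iff_ball.1 hC.eventually_analyticAt
    filter_upwards [ball_mem_nhds z₀ hr] with z hz hcon
    apply hc
    rw [gm_eq_zero]
    have h1 : AnalyticOnNhd ℂ C (ball z₀ r) := fun y hy => hCr y hy
    have h2 := h1.eqOn_zero_of_preconnected_of_eventuallyEq_zero (convex_ball _ _).isPreconnected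
      hz hcon
    filter_upwards [ball_mem_nhds z₀ hr] with y hy using h2 hy
  -- `F` is not flat along the nearby fibres
  have hFne : ∀ᶠ q in 𝓝 (z₀, (0 : ℂ)), ¬ ∀ᶠ w in 𝓝 (0 : ℂ), F (q.1, q.2 + w) = 0 := by
    have h0 : ¬ ∀ᶠ w in 𝓝 (0 : ℂ), F (z₀, w) = 0 := by
      intro hcon
      apply hreg.rho_ne_zero
      rw [rho, pull_gm, gm_eq_zero]
      exact hcon
    obtain ⟨r, hr, hFr⟩ := Metric.eventually_nhds_iff_ball.1 hF.eventually_analyticAt
    obtain ⟨w', hw', hne⟩ : ∃ w ∈ ball (0 : ℂ) r, F (z₀, w) ≠ 0 := by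
      by_contra hcon
      push Not at hcon
      exact h0 (Filter.mem_of_superset (ball_mem_nhds 0 hr) hcon)
    have hz : ∀ᶠ z in 𝓝 z₀, F (z, w') ≠ 0 := by
      have h1 : ContinuousAt (fun z : E => F (z, w')) z₀ := by
        have h2 : ContinuousAt F (z₀, w') := (hFr (z₀, w') (by
          rw [← ball_prod_same]; exact ⟨mem_ball_self hr, hw'⟩)).continuousAt
        exact ContinuousAt.comp (f := fun z : E => (z, w')) h2 (by fun_prop)
      exact h1.eventually_ne hne
    have hfst : Tendsto (fun q : E × ℂ => q.1) (𝓝 (z₀, (0 : ℂ))) (𝓝 z₀) := continuousAt_fst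
    filter_upwards [hfst.eventually hz, ball_mem_nhds (z₀, (0 : ℂ)) hr] with q h1 h2 hcon
    rw [← ball_prod_same] at h2
    apply h1
    have h3 : AnalyticOnNhd ℂ (fun w : ℂ => F (q.1, w)) (ball 0 r) := by
      intro w hw
      have h4 : AnalyticAt ℂ F (q.1, w) := hFr _ (by
        rw [← ball_prod_same]; exact ⟨h2.1, hw⟩)
      exact AnalyticAt.comp (g := F) (f := fun w : ℂ => (q.1, w)) h4
        (analyticAt_const.prod analyticAt_id)
    have h5 : (fun w : ℂ => F (q.1, w)) =ᶠ[𝓝 q.2] 0 := by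
      have h6 : Tendsto (fun w : ℂ => w - q.2) (𝓝 q.2) (𝓝 0) := by
        have : ContinuousAt (fun w : ℂ => w - q.2) q.2 := by fun_prop
        have h7 := this.tendsto
        rwa [sub_self] at h7
      filter_upwards [h6.eventually hcon] with w hw
      have : q.2 + (w - q.2) = w := by ring
      rw [this] at hw
      exact hw
    exact h3.eqOn_zero_of_preconnected_of_eventuallyEq_zero (convex_ball _ _).isPreconnected
      h2.2 h5 hw'
  have hfst : Tendsto (fun q : E × ℂ => q.1) (𝓝 (z₀, (0 : ℂ))) (𝓝 z₀) := continuousAt_fst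
  filter_upwards [hfst.eventually hCne, hFne, eventually_eventually_nhds.2 hab',
    hA.eventually_analyticAt, hB.eventually_analyticAt] with q h1 h2 h3 hAq hBq
  intro k hk hkF hkH hk0
  apply h1
  -- `k` divides the base germ
  obtain ⟨M, hM, hCM⟩ : Dv k (fun x : E × ℂ => C x.1) q := by
    have h4 := (hkF.mul_right hAq).add (hkH.mul_right hBq)
    refine h4.congr_right ?_
    filter_upwards [h3] with x hx
    rw [← hx]; ring
  obtain ⟨m, hm, hFm⟩ := hkF
  -- translate the point to the zero fibre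
  set K : E × ℂ → ℂ := fun x => k (x.1, q.2 + x.2) with hKdef
  have hsh : ∀ w : ℂ, AnalyticAt ℂ (fun x : E × ℂ => (x.1, w + x.2)) (q.1, 0) := fun w =>
    analyticAt_fst.prod (analyticAt_const.add analyticAt_snd)
  have hK : AnalyticAt ℂ K (q.1, 0) := by
    refine AnalyticAt.comp (g := k) (f := fun x : E × ℂ => (x.1, q.2 + x.2)) ?_ (hsh q.2)
    simpa using hk
  have hK0 : K (q.1, 0) = 0 := by simpa [hKdef] using hk0
  have htend : Tendsto (fun w : ℂ => (q.1, q.2 + w)) (𝓝 0) (𝓝 q) := by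
    have h5 : ContinuousAt (fun w : ℂ => ((q.1, q.2 + w) : E × ℂ)) 0 := by fun_prop
    have h6 := h5.tendsto
    simpa using h6
  have hKne : ¬ ∀ᶠ w in 𝓝 (0 : ℂ), K (q.1, w) = 0 := by
    intro hcon
    apply h2
    filter_upwards [hcon, htend.eventually hFm] with w h5 h6
    rw [h6]
    have h7 : k (q.1, q.2 + w) = 0 := h5
    rw [h7, zero_mul]
  obtain ⟨r, hr, hball⟩ := Metric.eventually_nhds_iff_ball.1 hCM
  have h8 := exists_zero_near hK hK0 hKne hr
  filter_upwards [h8, ball_mem_nhds q.1 hr] with z hz hzr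
  obtain ⟨w, hw, hKw⟩ := hz
  have h9 := hball (z, q.2 + w) (by
    rw [← Prod.mk.eta (p := q), ← ball_prod_same]
    refine ⟨hzr, ?_⟩
    rw [mem_ball, dist_eq_norm, add_sub_cancel_left]
    rwa [mem_ball_zero_iff] at hw)
  have h10 : k (z, q.2 + w) = 0 := hKw
  rw [h10, zero_mul] at h9
  exact h9

end Aux

/-! ### general finite dimensional spaces -/

section General

variable {F : Type u} [NormedAddCommGroup F] [NormedSpace ℂ F] [FiniteDimensional ℂ F]

/-- **relative primality is an open condition** -/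
theorem rp_open {p : F} {f h : F → ℂ} (hf : AnalyticAt ℂ f p) (hh : AnalyticAt ℂ h p)
    (H : RP f h p) : ∀ᶠ q in 𝓝 p, RP f h q := by
  have H' := (rp_iff hf hh).1 H
  rcases eq_or_ne (gm f hf) 0 with h0 | hne
  · rw [h0, isRelPrime_zero_left, isUnit_gm] at H'
    filter_upwards [hh.continuousAt.eventually_ne H', hh.eventually_analyticAt] with x hx hhx
    intro k hk _ hkh hk0
    obtain ⟨m, hm, e⟩ := hkh
    have := e.self_of_nhds
    rw [hk0, zero_mul] at this
    exact hx this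
  rcases Nat.eq_zero_or_pos (Module.finrank ℂ F) with h | hpos
  · have : Subsingleton F := Module.finrank_zero_iff.1 h
    exact Eventually.of_forall fun q => by rw [Subsingleton.elim q p]; exact H
  obtain ⟨n, hn⟩ := Nat.exists_eq_add_of_lt hpos
  have hn' : Module.finrank ℂ F = n + 1 := by omega
  obtain ⟨e, m, hm⟩ := exists_regular_chart hn' hne
  have h1 : IsRelPrime (affEquiv e p (gm f hf)) (affEquiv e p (gm h hh)) :=
    (isRelPrime_map (affEquiv e p).toMulEquiv).2 H'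
  rw [affEquiv_gm] at hm
  rw [affEquiv_gm, affEquiv_gm] at h1
  have h2 := rp_aux (z₀ := (0 : Fin n → ℂ)) hm h1
  have h3 : Tendsto (fun x : F => e.symm (x - p)) (𝓝 p) (𝓝 ((0 : Fin n → ℂ), (0 : ℂ))) := by
    have : Continuous (fun x : F => e.symm (x - p)) := by fun_prop
    have h4 := this.tendsto p
    simp only [sub_self, map_zero] at h4
    exact h4
  filter_upwards [h3.eventually h2] with q hq
  intro k hk hkf hkh
  have hφ : AnalyticAt ℂ (fun x : (Fin n → ℂ) × ℂ => p + e x) (e.symm (q - p)) :=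
    analyticAt_const.add (e.toContinuousLinearMap.analyticAt _)
  have hval : p + e (e.symm (q - p)) = q := by simp
  have h5 : Dv (k ∘ fun x : (Fin n → ℂ) × ℂ => p + e x) (f ∘ fun x => p + e x)
      (e.symm (q - p)) := Dv.comp (by rw [hval]; exact hkf) hφ
  have h6 : Dv (k ∘ fun x : (Fin n → ℂ) × ℂ => p + e x) (h ∘ fun x => p + e x)
      (e.symm (q - p)) := Dv.comp (by rw [hval]; exact hkh) hφ
  have h7 : AnalyticAt ℂ (k ∘ fun x : (Fin n → ℂ) × ℂ => p + e x) (e.symm (q - p)) :=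
    AnalyticAt.comp (by simpa using hk) hφ
  have h8 := hq _ h7 h5 h6
  have h9 : (k ∘ fun x : (Fin n → ℂ) × ℂ => p + e x) (e.symm (q - p)) = k q := by
    rw [Function.comp_apply, hval]
  rwa [h9] at h8

/-- common divisors of `d a`, `d b` with `a`, `b` relatively prime divide `d` -/
theorem dvd_of_isRelPrime {R : Type*} [CommRing R] [IsDomain R] [UniqueFactorizationMonoid R]
    {k d a b : R} (hab : IsRelPrime a b) (h1 : k ∣ d * a) (h2 : k ∣ d * b) : k ∣ d := by
  classical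
  let _ : GCDMonoid R := UniqueFactorizationMonoid.toGCDMonoid R
  have h3 : k ∣ gcd (d * a) (d * b) := dvd_gcd h1 h2
  have h4 : IsUnit (gcd a b) := hab (gcd_dvd_left a b) (gcd_dvd_right a b)
  have h5 : gcd (d * a) (d * b) ∣ d * gcd a b := (gcd_mul_left' d a b).dvd
  have h6 := h3.trans h5
  exact (h4.dvd_mul_right).1 h6

/-- the gcd of two germs is the gcd at all nearby points -/
theorem exists_gcd_two {p : F} {f h : F → ℂ} (hf : AnalyticAt ℂ f p) (hh : AnalyticAt ℂ h p)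
    (hne : ¬ ∀ᶠ x in 𝓝 p, f x = 0) :
    ∃ d : F → ℂ, AnalyticAt ℂ d p ∧ (¬ ∀ᶠ x in 𝓝 p, d x = 0) ∧ Dv d f p ∧ Dv d h p ∧
      ∀ᶠ q in 𝓝 p, ∀ k : F → ℂ, AnalyticAt ℂ k q → Dv k f q → Dv k h q → Dv k d q := by
  have hne' : gm f hf ≠ 0 := fun h0 => hne (gm_eq_zero.1 h0)
  obtain ⟨d, f', h', h1, h2, h3⟩ := exists_gcd_factor (gm f hf) (gm h hh) hne'
  obtain ⟨D, hD, rfl⟩ := exists_gm d
  obtain ⟨F', hF', rfl⟩ := exists_gm f'
  obtain ⟨H', hH', rfl⟩ := exists_gm h'
  rw [gm_mul, gm_eq_gm] at h1 h2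
  refine ⟨D, hD, ?_, ⟨F', hF', h1⟩, ⟨H', hH', h2⟩, ?_⟩
  · intro hcon
    apply hne
    filter_upwards [h1, hcon] with x h4 h5
    rw [h4, Pi.mul_apply, h5, zero_mul]
  · filter_upwards [rp_open hF' hH' ((rp_iff hF' hH').2 h3), eventually_eventually_nhds.2 h1,
      eventually_eventually_nhds.2 h2, hD.eventually_analyticAt, hF'.eventually_analyticAt,
      hH'.eventually_analyticAt] with q h4 h5 h6 hDq hFq hHq
    intro k hk hkf hkh
    have h7 : gm k hk ∣ gm D hDq * gm F' hFq := by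
      rw [gm_mul, ← dv_iff hk (hDq.mul hFq)]
      exact hkf.congr_right h5
    have h8 : gm k hk ∣ gm D hDq * gm H' hHq := by
      rw [gm_mul, ← dv_iff hk (hDq.mul hHq)]
      exact hkh.congr_right h6
    rw [dv_iff hk hDq]
    exact dvd_of_isRelPrime ((rp_iff hFq hHq).1 h4) h7 h8

/-- **local greatest common divisor of a finite family**, valid at all nearby points -/
theorem exists_gcd_near {ι : Type*} (s : Finset ι) {p : F} {G : ι → F → ℂ} {g : F → ℂ}
    (hg : AnalyticAt ℂ g p) (hG : ∀ j ∈ s, AnalyticAt ℂ (G j) p)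
    (hne : ¬ ∀ᶠ x in 𝓝 p, g x = 0) :
    ∃ d : F → ℂ, AnalyticAt ℂ d p ∧ (¬ ∀ᶠ x in 𝓝 p, d x = 0) ∧ Dv d g p ∧
      (∀ j ∈ s, Dv d (G j) p) ∧
      ∀ᶠ q in 𝓝 p, ∀ k : F → ℂ, AnalyticAt ℂ k q → Dv k g q → (∀ j ∈ s, Dv k (G j) q) →
        Dv k d q := by
  classical
  induction s using Finset.induction_on with
  | empty =>
    exact ⟨g, hg, hne, Dv.refl g p, by simp, Eventually.of_forall fun q k _ h _ => h⟩
  | insert j s hj ih =>
    obtain ⟨d, hd, hd0, hdg, hdG, hk⟩ := ih fun i hi => hG i (Finset.mem_insert_of_mem hi)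
    obtain ⟨d', hd', hd0', h1, h2, h3⟩ := exists_gcd_two hd (hG j (Finset.mem_insert_self j s)) hd0
    refine ⟨d', hd', hd0', h1.trans hdg, ?_, ?_⟩
    · intro i hi
      rcases Finset.mem_insert.1 hi with rfl | hi
      · exact h2
      · exact h1.trans (hdG i hi)
    · filter_upwards [hk, h3] with q h4 h5
      intro k hka hkg hkG
      exact h5 k hka (h4 k hka hkg fun i hi => hkG i (Finset.mem_insert_of_mem hi))
        (hkG j (Finset.mem_insert_self j s))

end General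

end Crest.Agent.R281.Kd_22
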