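import Crest.Agent.R281.Kd1_22
import Crest.Agent.R273.Fam_835

/-!
Row 281 (S0424), K1-DIV (helper22), part 2: germs of holomorphic functions on a complex manifold in
the atlas language (`Atl n M`), chart free.

* `Hm A f x`     : `f` is holomorphic near `x`
* `DvM A k f x`  : `k` divides `f` near `x`
* `exists_gcd_M` : local gcd of a finite family, valid at all nearby points
-/

set_option autoImplicit false
set_option linter.unusedSectionVars false

open Set Filter Topology Complex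

noncomputable section

namespace Crest.Agent.R281.Kd_22

open Crest.Agent.R275.Geo Crest.Agent.R275.Core144 Crest.Agent.R275.Loc2879

section Germs

variable {n : ℕ} {M : Type} [TopologicalSpace M] (A : Atl n M)

/-- `f` is holomorphic near `x` -/
def Hm (f : M → ℂ) (x : M) : Prop :=
  ∀ i, x ∈ (A.e i).source → AnalyticAt ℂ (fun z => f ((A.e i).symm z)) (A.e i x)

/-- `k` divides `f` near `x` -/
def DvM (k f : M → ℂ) (x : M) : Prop :=
  ∃ m : M → ℂ, Hm A m x ∧ ∀ᶠ y in 𝓝 x, f y = k y * m y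

variable {A} {i j : A.ι} {x : M} {f g h k a b c : M → ℂ}

theorem ev_iff (hx : x ∈ (A.e i).source) {P : M → Prop} :
    (∀ᶠ y in 𝓝 x, P y) ↔ ∀ᶠ z in 𝓝 (A.e i x), P ((A.e i).symm z) :=
  ((A.e i).eventually_nhds' P hx).symm

theorem ev_iff' (hx : x ∈ (A.e i).source) {P : Cn n → Prop} :
    (∀ᶠ z in 𝓝 (A.e i x), P z) ↔ ∀ᶠ y in 𝓝 x, P (A.e i y) :=
  (A.e i).eventually_nhds P hx

theorem an_trans (i j : A.ι) (hx : x ∈ (A.e i).source) (hx' : x ∈ (A.e j).source) :
    AnalyticAt ℂ (fun z => A.e i ((A.e j).symm z)) (A.e j x) := by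
  have ho : IsOpen (A.ov j i) := isOpen_ov j i
  exact Crest.Agent.R266.SCV.analyticOnNhd_of_differentiableOn ho (A.holo j i) _
    (mem_ov ⟨hx', hx⟩)

/-- one chart is enough -/
theorem Hm.of_one (hx : x ∈ (A.e i).source)
    (h : AnalyticAt ℂ (fun z => f ((A.e i).symm z)) (A.e i x)) : Hm A f x := by
  intro j hj
  have h1 := an_trans i j hx hj
  have h2 : AnalyticAt ℂ (fun z => f ((A.e i).symm z)) (A.e i ((A.e j).symm (A.e j x))) := by
    rwa [(A.e j).left_inv hj]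
  refine (AnalyticAt.comp (g := fun z => f ((A.e i).symm z))
    (f := fun z => A.e i ((A.e j).symm z)) h2 h1).congr ?_
  have h3 : ∀ᶠ z in 𝓝 (A.e j x), (A.e j).symm z ∈ (A.e i).source :=
    (ev_iff hj).1 ((A.e i).open_source.mem_nhds hx)
  filter_upwards [h3] with z hz
  simp [Function.comp, (A.e i).left_inv hz]

theorem Hm.congr (h : Hm A f x) (he : f =ᶠ[𝓝 x] g) : Hm A g x := by
  intro i hi
  exact (h i hi).congr ((ev_iff hi).1 he)

theorem Hm.ev (h : Hm A f x) : ∀ᶠ y in 𝓝 x, Hm A f y := by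
  obtain ⟨i, hi⟩ := A.cover x
  have h1 := (ev_iff' hi).1 (h i hi).eventually_analyticAt
  filter_upwards [h1, (A.e i).open_source.mem_nhds hi] with y hy hy'
  exact Hm.of_one hy' hy

theorem Hm.const (c : ℂ) (x : M) : Hm A (fun _ => c) x := fun _ _ => analyticAt_const

theorem Hm.mul (hf : Hm A f x) (hg : Hm A g x) : Hm A (fun y => f y * g y) x :=
  fun i hi => (hf i hi).mul (hg i hi)

theorem Hm.add (hf : Hm A f x) (hg : Hm A g x) : Hm A (fun y => f y + g y) x :=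
  fun i hi => (hf i hi).add (hg i hi)

theorem Hm.sub (hf : Hm A f x) (hg : Hm A g x) : Hm A (fun y => f y - g y) x :=
  fun i hi => (hf i hi).sub (hg i hi)

theorem Hm.inv (hf : Hm A f x) (h0 : f x ≠ 0) : Hm A (fun y => (f y)⁻¹) x := fun i hi =>
  (hf i hi).inv (by rwa [(A.e i).left_inv hi])

theorem Hm.pow (hf : Hm A f x) (m : ℕ) : Hm A (fun y => f y ^ m) x :=
  fun i hi => (hf i hi).pow m

theorem Hm.cont (hf : Hm A f x) : ContinuousAt f x := by
  obtain ⟨i, hi⟩ := A.cover x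
  have h1 := (hf i hi).continuousAt
  have h2 : ContinuousAt (fun y => f ((A.e i).symm (A.e i y))) x :=
    ContinuousAt.comp (g := fun z => f ((A.e i).symm z)) h1 ((A.e i).continuousAt hi)
  refine h2.congr ?_
  filter_upwards [(A.e i).open_source.mem_nhds hi] with y hy
  rw [(A.e i).left_inv hy]

theorem Hm.ev_ne (hf : Hm A f x) (h0 : f x ≠ 0) : ∀ᶠ y in 𝓝 x, f y ≠ 0 :=
  hf.cont.eventually_ne h0

theorem hm_of_holAt {U : Set M} (h : HolAt A i U f) (hU : IsOpen U) (hx : x ∈ (A.e i).source)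
    (hxU : x ∈ U) : Hm A f x := by
  refine Hm.of_one hx ?_
  exact Crest.Agent.R266.SCV.analyticOnNhd_of_differentiableOn (isOpen_ti hU) h _
    ⟨(A.e i).map_source hx, by rw [mem_preimage, (A.e i).left_inv hx]; exact hxU⟩

theorem holAt_of_hm {U : Set M} (h : ∀ x ∈ (A.e i).source, x ∈ U → Hm A f x) :
    HolAt A i U f := by
  intro z hz
  have hx := (A.e i).map_target hz.1
  have h1 := h _ hx hz.2 i hx
  rw [(A.e i).right_inv hz.1] at h1
  exact h1.differentiableAt.differentiableWithinAt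

/-- a function of the coordinates of the chart `i` -/
theorem hm_chart {φ : Cn n → ℂ} (hx : x ∈ (A.e i).source) (h : AnalyticAt ℂ φ (A.e i x)) :
    Hm A (fun y => φ (A.e i y)) x := by
  refine Hm.of_one hx (h.congr ?_)
  filter_upwards [(A.e i).open_target.mem_nhds ((A.e i).map_source hx)] with z hz
  rw [(A.e i).right_inv hz]

theorem hm_chart_iff {φ : Cn n → ℂ} (hx : x ∈ (A.e i).source) :
    Hm A (fun y => φ (A.e i y)) x ↔ AnalyticAt ℂ φ (A.e i x) := by
  refine ⟨fun h => (h i hx).congr ?_, hm_chart hx⟩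
  filter_upwards [(A.e i).open_target.mem_nhds ((A.e i).map_source hx)] with z hz
  rw [(A.e i).right_inv hz]

/-! ### flat germs, cancellation -/

theorem mul_flat (hf : Hm A f x) (hg : Hm A g x) (h : ∀ᶠ y in 𝓝 x, f y * g y = 0) :
    (∀ᶠ y in 𝓝 x, f y = 0) ∨ ∀ᶠ y in 𝓝 x, g y = 0 := by
  obtain ⟨i, hi⟩ := A.cover x
  have h1 : gm _ (hf i hi) * gm _ (hg i hi) = 0 := by
    rw [gm_mul, gm_eq_zero]
    exact (ev_iff hi).1 h
  rcases mul_eq_zero.1 h1 with h2 | h2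
  · left; exact (ev_iff hi).2 (gm_eq_zero.1 h2)
  · right; exact (ev_iff hi).2 (gm_eq_zero.1 h2)

theorem cancel (ha : Hm A a x) (hb : Hm A b x) (hc : Hm A c x) (hne : ¬ ∀ᶠ y in 𝓝 x, a y = 0)
    (h : ∀ᶠ y in 𝓝 x, a y * b y = a y * c y) : ∀ᶠ y in 𝓝 x, b y = c y := by
  have h1 : ∀ᶠ y in 𝓝 x, a y * (b y - c y) = 0 := by
    filter_upwards [h] with y hy
    rw [mul_sub, hy, sub_self]
  rcases mul_flat ha (hb.sub hc) h1 with h2 | h2
  · exact absurd h2 hne
  · filter_upwards [h2] with y hy using sub_eq_zero.1 hy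

/-- nonflatness is open -/
theorem ev_not_flat (hf : Hm A f x) (hne : ¬ ∀ᶠ y in 𝓝 x, f y = 0) :
    ∀ᶠ y in 𝓝 x, ¬ ∀ᶠ w in 𝓝 y, f w = 0 := by
  obtain ⟨i, hi⟩ := A.cover x
  obtain ⟨r, hr, hA⟩ := Metric.eventually_nhds_iff_ball.1 (hf i hi).eventually_analyticAt
  have h1 : ∀ᶠ z in 𝓝 (A.e i x), z ∈ Metric.ball (A.e i x) r ∧ z ∈ (A.e i).target :=
    Filter.inter_mem (Metric.ball_mem_nhds _ hr)
      ((A.e i).open_target.mem_nhds ((A.e i).map_source hi))
  have h2 := (ev_iff' hi).1 h1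
  filter_upwards [h2, (A.e i).open_source.mem_nhds hi] with y hy hyi hcon
  apply hne
  rw [ev_iff hi]
  have h3 : AnalyticOnNhd ℂ (fun z => f ((A.e i).symm z)) (Metric.ball (A.e i x) r) :=
    fun z hz => hA z hz
  have h4 := h3.eqOn_zero_of_preconnected_of_eventuallyEq_zero (convex_ball _ _).isPreconnected
    hy.1 ((ev_iff hyi).1 hcon)
  filter_upwards [Metric.ball_mem_nhds (A.e i x) hr] with z hz using h4 hz

/-! ### divisibility -/

theorem dvM_iff (hx : x ∈ (A.e i).source) :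
    DvM A k f x ↔ Dv (fun z => k ((A.e i).symm z)) (fun z => f ((A.e i).symm z)) (A.e i x) := by
  constructor
  · rintro ⟨m, hm, e⟩
    exact ⟨_, hm i hx, (ev_iff hx).1 e⟩
  · rintro ⟨m, hm, e⟩
    refine ⟨fun y => m (A.e i y), hm_chart hx hm, ?_⟩
    filter_upwards [(ev_iff' hx).1 e, (A.e i).open_source.mem_nhds hx] with y hy hyi
    simp only [(A.e i).left_inv hyi] at hy
    exact hy

theorem DvM.refl (f : M → ℂ) (x : M) : DvM A f f x :=
  ⟨fun _ => 1, Hm.const 1 x, Eventually.of_forall fun y => by ring⟩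

theorem DvM.trans (h1 : DvM A k f x) (h2 : DvM A f h x) : DvM A k h x := by
  obtain ⟨a, ha, ea⟩ := h1
  obtain ⟨b, hb, eb⟩ := h2
  refine ⟨_, ha.mul hb, ?_⟩
  filter_upwards [ea, eb] with y h3 h4
  rw [h4, h3]; ring

theorem DvM.congr_right (h1 : DvM A k f x) (he : f =ᶠ[𝓝 x] g) : DvM A k g x := by
  obtain ⟨a, ha, ea⟩ := h1
  exact ⟨a, ha, by filter_upwards [ea, he] with y h3 h4; rw [← h4, h3]⟩

theorem DvM.congr_left (h1 : DvM A k f x) (he : k =ᶠ[𝓝 x] g) : DvM A g f x := by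
  obtain ⟨a, ha, ea⟩ := h1
  exact ⟨a, ha, by filter_upwards [ea, he] with y h3 h4; rw [← h4, h3]⟩

theorem DvM.ev (h1 : DvM A k f x) : ∀ᶠ y in 𝓝 x, DvM A k f y := by
  obtain ⟨a, ha, ea⟩ := h1
  filter_upwards [ha.ev, eventually_eventually_nhds.2 ea] with y h2 h3
  exact ⟨a, h2, h3⟩

theorem DvM.mul_right {m : M → ℂ} (h1 : DvM A k f x) (hm : Hm A m x) :
    DvM A k (fun y => f y * m y) x := by
  obtain ⟨a, ha, ea⟩ := h1
  refine ⟨_, ha.mul hm, ?_⟩
  filter_upwards [ea] with y h3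
  rw [h3]; ring

/-- mutual divisibility gives a unit -/
theorem unit_of_dvM (hk : Hm A k x) (hne : ¬ ∀ᶠ y in 𝓝 x, k y = 0) (h1 : DvM A k f x)
    (h2 : DvM A f k x) : ∃ u : M → ℂ, Hm A u x ∧ u x ≠ 0 ∧ ∀ᶠ y in 𝓝 x, f y = k y * u y := by
  obtain ⟨a, ha, ea⟩ := h1
  obtain ⟨b, hb, eb⟩ := h2
  refine ⟨a, ha, ?_, ea⟩
  have h3 : ∀ᶠ y in 𝓝 x, k y * (a y * b y) = k y * 1 := by
    filter_upwards [ea, eb] with y h4 h5
    rw [mul_one, ← mul_assoc, ← h4, ← h5]
  have h4 := (cancel hk (ha.mul hb) (Hm.const 1 x) hne h3).self_of_nhds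
  exact left_ne_zero_of_mul_eq_one h4

/-- **local gcd on the manifold** -/
theorem exists_gcd_M {ι : Type*} (s : Finset ι) {G : ι → M → ℂ} (hg : Hm A g x)
    (hG : ∀ j ∈ s, Hm A (G j) x) (hne : ¬ ∀ᶠ y in 𝓝 x, g y = 0) :
    ∃ d : M → ℂ, Hm A d x ∧ (¬ ∀ᶠ y in 𝓝 x, d y = 0) ∧ DvM A d g x ∧
      (∀ j ∈ s, DvM A d (G j) x) ∧
      ∀ᶠ y in 𝓝 x, ∀ k : M → ℂ, Hm A k y → DvM A k g y → (∀ j ∈ s, DvM A k (G j) y) →
        DvM A k d y := by
  obtain ⟨i, hi⟩ := A.cover x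
  obtain ⟨d, hd, hd0, hdg, hdG, hk⟩ := exists_gcd_near s (hg i hi) (fun j hj => hG j hj i hi)
    (fun hcon => hne ((ev_iff hi).2 hcon))
  have he : (fun z => d (A.e i ((A.e i).symm z))) =ᶠ[𝓝 (A.e i x)] d := by
    filter_upwards [(A.e i).open_target.mem_nhds ((A.e i).map_source hi)] with z hz
    rw [(A.e i).right_inv hz]
  refine ⟨fun y => d (A.e i y), hm_chart hi hd, ?_, ?_, ?_, ?_⟩
  · intro hcon
    exact hd0 ((ev_iff' (P := fun z => d z = 0) hi).2 hcon)
  · rw [dvM_iff hi]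
    exact hdg.congr_left he.symm
  · intro j hj
    rw [dvM_iff hi]
    exact (hdG j hj).congr_left he.symm
  · filter_upwards [(ev_iff' hi).1 hk, (A.e i).open_source.mem_nhds hi] with y hy hyi
    intro k hk hkg hkG
    rw [dvM_iff hyi] at hkg ⊢
    have h1 := hy _ (hk i hyi) hkg (fun j hj => (dvM_iff hyi).1 (hkG j hj))
    refine h1.congr_right ?_
    filter_upwards [(A.e i).open_target.mem_nhds ((A.e i).map_source hyi)] with z hz
    rw [(A.e i).right_inv hz]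

end Germs

end Crest.Agent.R281.Kd_22
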