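import Crest.Agent.R281.Kd2_22

/-!
Row 281 (S0424), K1-DIV (helper22), part 3: effective divisors (Cartier data) on an atlas and their
line bundles; division of sections; the movable part of a finite family of sections.

* `CaD A`, `CaD.lb`, `CaD.isHS`  : Cartier data, line bundle, canonical section
* `Cop A t x`                    : no common nonunit divisor at `x`
* `exists_movable`               : `s_j = h t_j`, `h ∈ H⁰(D)`, `t_j ∈ H⁰(N)` without common divisor
-/

set_option autoImplicit false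
set_option linter.unusedSectionVars false

open Set Filter Topology Complex

noncomputable section

namespace Crest.Agent.R281.Kd_22

open Crest.Agent.R275.Geo Crest.Agent.R275.Core144 Crest.Agent.R275.Loc2879
open Crest.Agent.R273.Map_835 Crest.Agent.R273.PB_835 Crest.Agent.R273.Defs_333 Crest.Agent.R275.GC293

section Cartier

variable {n : ℕ} {M : Type} [TopologicalSpace M]

/-- effective Cartier data on the charts of `A` -/
structure CaD (A : Atl n M) where
  h : A.ι → M → ℂ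
  hm : ∀ i, ∀ x ∈ (A.e i).source, Hm A (h i) x
  nf : ∀ i, ∀ x ∈ (A.e i).source, ¬ ∀ᶠ y in 𝓝 x, h i y = 0
  as : ∀ i j, ∀ x ∈ (A.e i).source ∩ (A.e j).source,
    ∃ u : M → ℂ, Hm A u x ∧ u x ≠ 0 ∧ ∀ᶠ y in 𝓝 x, h i y = h j y * u y

variable {A : Atl n M}

open Classical in
/-- transition functions of the line bundle of Cartier data -/
def CaD.tf (C : CaD A) (i j : A.ι) (x : M) : ℂ :=
  if hx : x ∈ (A.e i).source ∩ (A.e j).source then (C.as i j x hx).choose x else 1

theorem CaD.tf_ev (C : CaD A) {i j : A.ι} {x : M} (hx : x ∈ (A.e i).source ∩ (A.e j).source)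
    {u : M → ℂ} (hu : Hm A u x) (e : ∀ᶠ y in 𝓝 x, C.h i y = C.h j y * u y) :
    C.tf i j =ᶠ[𝓝 x] u := by
  have hov : (A.e i).source ∩ (A.e j).source ∈ 𝓝 x :=
    ((A.e i).open_source.inter (A.e j).open_source).mem_nhds hx
  filter_upwards [hov, hu.ev, eventually_eventually_nhds.2 e] with y hy huy ey
  obtain ⟨h1, -, h3⟩ := (C.as i j y hy).choose_spec
  have h4 : ∀ᶠ w in 𝓝 y, C.h j w * (C.as i j y hy).choose w = C.h j w * u w := by
    filter_upwards [h3, ey] with w a b
    rw [← a, ← b]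
  have h5 := (cancel (C.hm j y hy.2) h1 huy (C.nf j y hy.2) h4).self_of_nhds
  rw [CaD.tf, dif_pos hy, h5]

theorem CaD.tf_off (C : CaD A) {i j : A.ι} {x : M}
    (hx : x ∉ (A.e i).source ∩ (A.e j).source) : C.tf i j x = 1 := dif_neg hx

theorem CaD.tf_hm (C : CaD A) {i j : A.ι} {x : M}
    (hx : x ∈ (A.e i).source ∩ (A.e j).source) : Hm A (C.tf i j) x := by
  obtain ⟨u, h1, -, h3⟩ := C.as i j x hx
  exact h1.congr (C.tf_ev hx h1 h3).symm

theorem CaD.tf_eq (C : CaD A) {i j : A.ι} {x : M}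
    (hx : x ∈ (A.e i).source ∩ (A.e j).source) :
    ∀ᶠ y in 𝓝 x, C.h i y = C.h j y * C.tf i j y := by
  obtain ⟨u, h1, -, h3⟩ := C.as i j x hx
  filter_upwards [h3, C.tf_ev hx h1 h3] with y a b
  rw [b, a]

/-- the line bundle of Cartier data -/
def CaD.lb (C : CaD A) : LB A where
  g := C.tf
  hol i j := holAt_of_hm fun x hx hj => C.tf_hm ⟨hx, hj⟩
  off i j x hx := C.tf_off hx
  self i x := by
    by_cases hx : x ∈ (A.e i).source
    · refine (C.tf_ev ⟨hx, hx⟩ (Hm.const 1 x) (Eventually.of_forall fun y => ?_)).self_of_nhds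
      ring
    · exact C.tf_off fun h => hx h.1
  mul i j k x hx := by
    have hij : x ∈ (A.e i).source ∩ (A.e j).source := hx.1
    have hjk : x ∈ (A.e j).source ∩ (A.e k).source := ⟨hx.1.2, hx.2⟩
    have hik : x ∈ (A.e i).source ∩ (A.e k).source := ⟨hx.1.1, hx.2⟩
    have h1 := C.tf_ev hik ((C.tf_hm hij).mul (C.tf_hm hjk)) (by
      filter_upwards [C.tf_eq hij, C.tf_eq hjk] with y a b
      rw [a, b]; ring)
    exact h1.self_of_nhds.symm

open Classical in
/-- the canonical section -/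
def CaD.sec (C : CaD A) : A.ι → M → ℂ := fun i x => if x ∈ (A.e i).source then C.h i x else 0

theorem CaD.sec_mem (C : CaD A) {i : A.ι} {x : M} (hx : x ∈ (A.e i).source) :
    C.sec i x = C.h i x := if_pos hx

theorem CaD.isHS (C : CaD A) : IsHS C.lb univ C.sec := by
  refine ⟨fun i => holAt_of_hm fun x hx _ => ?_, fun i x hx => if_neg hx, fun i j x hx _ => ?_⟩
  · refine (C.hm i x hx).congr ?_
    filter_upwards [(A.e i).open_source.mem_nhds hx] with y hy
    rw [C.sec_mem hy]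
  · rw [C.sec_mem hx.1, C.sec_mem hx.2]
    have := (C.tf_eq hx).self_of_nhds
    rw [this, mul_comm]; rfl

theorem hm_of_isHS {L : LB A} {s : A.ι → M → ℂ} (hs : IsHS L univ s) {i : A.ι} {x : M}
    (hx : x ∈ (A.e i).source) : Hm A (s i) x :=
  hm_of_holAt (hs.hol i) isOpen_univ hx (mem_univ x)

/-- a section divisible by Cartier data, divided -/
theorem CaD.div (C : CaD A) {E : LB A} {s t : A.ι → M → ℂ} (hs : IsHS E univ s)
    (ht : ∀ i, ∀ x ∈ (A.e i).source, Hm A (t i) x) (hoff : ∀ i, ∀ x ∉ (A.e i).source, t i x = 0)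
    (hst : ∀ i, ∀ x ∈ (A.e i).source, s i x = C.h i x * t i x) :
    IsHS (E * C.lb⁻¹) univ t := by
  refine ⟨fun i => holAt_of_hm fun x hx _ => ht i x hx, hoff, fun i j x hx _ => ?_⟩
  have hov : (A.e i).source ∩ (A.e j).source ∈ 𝓝 x :=
    ((A.e i).open_source.inter (A.e j).open_source).mem_nhds hx
  have hE : Hm A (E.g i j) x := hm_of_holAt (E.hol i j) (A.e j).open_source hx.1 hx.2
  -- `h_j (tf * t_i) = h_j (E.g * t_j)`
  have h1 : ∀ᶠ y in 𝓝 x, C.h j y * (C.tf i j y * t i y) = C.h j y * (E.g i j y * t j y) := by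
    filter_upwards [hov, C.tf_eq hx] with y hy e
    have e1 := hs.tr i j y hy (mem_univ y)
    rw [hst i y hy.1, hst j y hy.2, e] at e1
    linear_combination e1
  have h2 := (cancel (C.hm j x hx.2) ((C.tf_hm hx).mul (ht i x hx.1)) (hE.mul (ht j x hx.2))
    (C.nf j x hx.2) h1).self_of_nhds
  have h3 : C.lb.g i j x ≠ 0 := C.lb.ne_zero i j x
  have h4 : C.lb.g i j x = C.tf i j x := rfl
  simp only [LB.mul_g, LB.inv_g, h4] at *
  field_simp
  rw [mul_comm]; exact h2

end Cartier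

section Movable

variable {n : ℕ} {M : Type} [TopologicalSpace M] {A : Atl n M}

/-- no common nonunit divisor at `x` -/
def Cop (A : Atl n M) {κ : Type*} (t : κ → M → ℂ) (x : M) : Prop :=
  ∀ k : M → ℂ, Hm A k x → (∀ j, DvM A k (t j) x) → k x ≠ 0

theorem hm_change {A A' : Atl n M} (h : HolMap A' A id) {f : M → ℂ} {x : M} (hf : Hm A f x) :
    Hm A' f x := by
  obtain ⟨i, hi⟩ := A.cover x
  obtain ⟨i', hi'⟩ := A'.cover x
  refine Hm.of_one hi' ?_
  have ho : IsOpen (dm A' A id i' i) := h.isOpen_dm i' i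
  have hmem : A'.e i' x ∈ dm A' A id i' i :=
    ⟨(A'.e i').map_source hi', by rw [mem_preimage, mem_preimage, (A'.e i').left_inv hi']; exact hi⟩
  have h1 : AnalyticAt ℂ (fun z => A.e i ((A'.e i').symm z)) (A'.e i' x) :=
    Crest.Agent.R266.SCV.analyticOnNhd_of_differentiableOn ho (h.hol i' i) _ hmem
  have h2 : AnalyticAt ℂ (fun z => f ((A.e i).symm z)) (A.e i ((A'.e i').symm (A'.e i' x))) := by
    rw [(A'.e i').left_inv hi']
    exact hf i hi
  refine (AnalyticAt.comp (g := fun z => f ((A.e i).symm z))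
    (f := fun z => A.e i ((A'.e i').symm z)) h2 h1).congr ?_
  filter_upwards [ho.mem_nhds hmem] with z hz
  have hz2 : (A'.e i').symm z ∈ (A.e i).source := hz.2
  simp only [Function.comp, (A.e i).left_inv hz2]

theorem hm_iff_change {A A' : Atl n M} (h : HolMap A' A id) (h' : HolMap A A' id) {f : M → ℂ}
    {x : M} : Hm A' f x ↔ Hm A f x := ⟨hm_change h', hm_change h⟩

theorem dvM_change {A A' : Atl n M} (h : HolMap A' A id) (h' : HolMap A A' id) {k f : M → ℂ}
    {x : M} : DvM A' k f x ↔ DvM A k f x := by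
  constructor
  · rintro ⟨m, hm, e⟩; exact ⟨m, hm_change h' hm, e⟩
  · rintro ⟨m, hm, e⟩; exact ⟨m, hm_change h hm, e⟩

/-- restriction of a section to a refined atlas -/
def resS {A A' : Atl n M} (R : Ref A' A id) (s : A.ι → M → ℂ) : A'.ι → M → ℂ := fun i x =>
  open Classical in if x ∈ (A'.e i).source then s (R.r i) x else 0

theorem resS_mem {A A' : Atl n M} (R : Ref A' A id) (s : A.ι → M → ℂ) {i : A'.ι} {x : M}
    (hx : x ∈ (A'.e i).source) : resS R s i x = s (R.r i) x := if_pos hx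

theorem isHS_resS {A A' : Atl n M} (hid : HolMap A' A id) (R : Ref A' A id) {E : LB A}
    {s : A.ι → M → ℂ} (hs : IsHS E univ s) : IsHS (pullLB hid R E) univ (resS R s) := by
  refine ⟨fun i => holAt_of_hm fun x hx _ => ?_, fun i x hx => if_neg hx, fun i j x hx _ => ?_⟩
  · have h1 : Hm A' (s (R.r i)) x := hm_change hid (hm_of_isHS hs (R.sub i x hx))
    refine h1.congr ?_
    filter_upwards [(A'.e i).open_source.mem_nhds hx] with y hy
    rw [resS_mem R s hy]
  · rw [resS_mem R s hx.1, resS_mem R s hx.2, pullLB_g hid R E hx]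
    exact hs.tr _ _ x ⟨R.sub i x hx.1, R.sub j x hx.2⟩ (mem_univ _)

/-- **movable part of a finite family of sections**: on a refined atlas `s_j = h t_j` with `t_j`
without common nonunit divisor -/
theorem exists_movable [CompactSpace M] [T2Space M] (A : Atl n M) {κ : Type} [Fintype κ]
    (E : LB A) (s : κ → A.ι → M → ℂ) (hs : ∀ j, IsHS E univ (s j)) (j₀ : κ)
    (h0 : ∀ i, ∀ x ∈ (A.e i).source, ¬ ∀ᶠ y in 𝓝 x, s j₀ i y = 0) :
    ∃ (A' : Atl n M) (R : Ref A' A id) (hl : LBih A' A id) (_ : LBih A A' id) (C : CaD A')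
      (t : κ → A'.ι → M → ℂ), Finite A'.ι ∧ GoodA A' ∧ Nonempty (Part A') ∧
      (∀ j, IsHS (pullLB hl.toHolMap R E * C.lb⁻¹) univ (t j)) ∧
      (∀ j i, ∀ x ∈ (A'.e i).source, s j (R.r i) x = C.h i x * t j i x) ∧
      (∀ i, ∀ x ∈ (A'.e i).source, Cop A' (fun j => t j i) x) := by
  classical
  -- local gcds
  have key : ∀ x : M, ∃ (i : A.ι) (d : M → ℂ) (m : κ → M → ℂ) (O : Set M), IsOpen O ∧ x ∈ O ∧
      ∀ y ∈ O, y ∈ (A.e i).source ∧ Hm A d y ∧ (∀ j, Hm A (m j) y) ∧
        (∀ j, s j i y = d y * m j y) ∧ (¬ ∀ᶠ w in 𝓝 y, d w = 0) ∧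
        ∀ k : M → ℂ, Hm A k y → (∀ j, DvM A k (s j i) y) → DvM A k d y := by
    intro x
    obtain ⟨i, hi⟩ := A.cover x
    obtain ⟨d, hd, hd0, -, hdG, hk⟩ := exists_gcd_M (A := A) (x := x) (Finset.univ : Finset κ)
      (G := fun j => s j i) (g := s j₀ i) (hm_of_isHS (hs j₀) hi)
      (fun j _ => hm_of_isHS (hs j) hi) (h0 i x hi)
    choose m hm e using fun j => hdG j (Finset.mem_univ j)
    have hall : ∀ᶠ y in 𝓝 x, y ∈ (A.e i).source ∧ Hm A d y ∧ (∀ j, Hm A (m j) y) ∧
        (∀ j, s j i y = d y * m j y) ∧ (¬ ∀ᶠ w in 𝓝 y, d w = 0) ∧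
        ∀ k : M → ℂ, Hm A k y → (∀ j, DvM A k (s j i) y) → DvM A k d y := by
      filter_upwards [(A.e i).open_source.mem_nhds hi, hd.ev, eventually_all.2 fun j => (hm j).ev,
        eventually_all.2 e, ev_not_flat hd hd0, hk] with y h1 h2 h3 h4 h5 h6
      exact ⟨h1, h2, h3, h4, h5, fun k hk hkG => h6 k hk (hkG j₀) fun j _ => hkG j⟩
    obtain ⟨O, hO, hOo, hxO⟩ := eventually_nhds_iff.1 hall
    exact ⟨i, d, m, O, hOo, hxO, hO⟩
  choose ix d m O hOo hxO hO using key
  obtain ⟨A', hfin, hgood, hpart, hsub, -, hl, hl'⟩ :=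
    Crest.Agent.R273.Fam_835.exists_refine A O hOo (fun x => ⟨x, hxO x⟩)
  choose c hc using hsub
  let R : Ref A' A id := ⟨fun i => ix (c i), fun i x hx => (hO (c i) x (hc i hx)).1⟩
  have hid : HolMap A' A id := hl.toHolMap
  have hid' : HolMap A A' id := hl'.toHolMap
  -- divisibility between the local gcds
  have hdd : ∀ i j, ∀ x ∈ (A'.e i).source ∩ (A'.e j).source, DvM A (d (c i)) (d (c j)) x := by
    intro i j x hx
    obtain ⟨i1, i2, i3, i4, i5, i6⟩ := hO (c i) x (hc i hx.1)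
    obtain ⟨j1, j2, j3, j4, j5, j6⟩ := hO (c j) x (hc j hx.2)
    refine j6 _ i2 fun l => ?_
    have h1 : DvM A (d (c i)) (s l (ix (c i))) x := by
      refine ⟨m (c i) l, i3 l, ?_⟩
      filter_upwards [(A'.e i).open_source.mem_nhds hx.1] with y hy
      exact (hO (c i) y (hc i hy)).2.2.2.1 l
    have hg : Hm A (E.g (ix (c j)) (ix (c i))) x :=
      hm_of_holAt (E.hol _ _) (A.e _).open_source j1 i1
    refine (h1.mul_right hg).congr_right ?_
    filter_upwards [(A'.e i).open_source.mem_nhds hx.1, (A'.e j).open_source.mem_nhds hx.2]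
      with y hy hy'
    have e1 := (hs l).tr (ix (c j)) (ix (c i)) y
      ⟨(hO (c j) y (hc j hy')).1, (hO (c i) y (hc i hy)).1⟩ (mem_univ y)
    rw [e1, mul_comm]
  let C : CaD A' :=
    { h := fun i => d (c i)
      hm := fun i x hx => hm_change hid (hO (c i) x (hc i hx)).2.1
      nf := fun i x hx => (hO (c i) x (hc i hx)).2.2.2.2.1
      as := fun i j x hx => by
        obtain ⟨u, h1, h2, h3⟩ := unit_of_dvM (A := A) (hO (c j) x (hc j hx.2)).2.1
          (hO (c j) x (hc j hx.2)).2.2.2.2.1 (hdd j i x ⟨hx.2, hx.1⟩) (hdd i j x hx)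
        exact ⟨u, hm_change hid h1, h2, h3⟩ }
  let t : κ → A'.ι → M → ℂ := fun j i x => if x ∈ (A'.e i).source then m (c i) j x else 0
  have ht : ∀ j i, ∀ x ∈ (A'.e i).source, t j i x = m (c i) j x := fun j i x hx => if_pos hx
  have hthm : ∀ j i, ∀ x ∈ (A'.e i).source, Hm A' (t j i) x := by
    intro j i x hx
    refine (hm_change hid ((hO (c i) x (hc i hx)).2.2.1 j)).congr ?_
    filter_upwards [(A'.e i).open_source.mem_nhds hx] with y hy
    rw [ht j i y hy]
  refine ⟨A', R, hl, hl', C, t, hfin, hgood, hpart, fun j => ?_, fun j i x hx => ?_,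
    fun i x hx => ?_⟩
  · refine C.div (isHS_resS hid R (hs j)) (hthm j) (fun i x hx => if_neg hx) fun i x hx => ?_
    rw [resS_mem R _ hx, ht j i x hx]
    exact (hO (c i) x (hc i hx)).2.2.2.1 j
  · rw [ht j i x hx]
    exact (hO (c i) x (hc i hx)).2.2.2.1 j
  · -- no common divisor
    intro k hk hkt hk0
    obtain ⟨i1, i2, i3, i4, i5, i6⟩ := hO (c i) x (hc i hx)
    have hkA : Hm A k x := hm_change hid' hk
    have h1 : DvM A (fun y => d (c i) y * k y) (d (c i)) x := by
      refine i6 _ (i2.mul hkA) fun j => ?_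
      obtain ⟨q, hq, e⟩ := hkt j
      refine ⟨q, hm_change hid' hq, ?_⟩
      filter_upwards [e, (A'.e i).open_source.mem_nhds hx] with y hy hyi
      rw [(hO (c i) y (hc i hyi)).2.2.2.1 j, mul_assoc, ← hy, ht j i y hyi]
    obtain ⟨q, hq, e⟩ := h1
    have h2 : ∀ᶠ y in 𝓝 x, d (c i) y * (k y * q y) = d (c i) y * 1 := by
      filter_upwards [e] with y hy
      rw [mul_one, ← mul_assoc, ← hy]
    have h3 := (cancel i2 (hkA.mul hq) (Hm.const 1 x) i5 h2).self_of_nhds
    rw [hk0, zero_mul] at h3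
    exact zero_ne_one h3

end Movable

end Crest.Agent.R281.Kd_22
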