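import Crest.Agent.R281.Per4_368

/-!
S-PER (task 1725), part 5: linearity of the periods, linear combinations of integral classes,
change of (affine) coordinates.
-/

set_option maxSynthPendingDepth 3

open MeasureTheory Set Filter
open scoped Topology ENNReal ContDiff

namespace Crest.Agent.R281.Per_368

open Crest.Agent.R281.HkR_835
open Crest.Agent.R281.Cdr_234 (sh CD IntF)
open Crest.Agent.R281.Ti_846 (F1 IsD Ex)

section lin

variable {E : Type*} [NormedAddCommGroup E] [NormedSpace ℝ E]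

lemma continuous_on_par {S : Set E} {ξ : E → E →L[ℝ] E →L[ℝ] ℝ} (hξ : ContinuousOn ξ S)
    {z v w : E} (hin : ∀ s t : ℝ, pt z v w s t ∈ S) (a b : E) :
    Continuous fun p : ℝ × ℝ => ξ (pt z v w p.1 p.2) a b := by
  have h1 : ContinuousOn (fun p : ℝ × ℝ => ξ (pt z v w p.1 p.2) a b) univ :=
    ((hξ.comp (continuous_pt z v w).continuousOn
      (fun p _ => hin _ _)).clm_apply continuousOn_const).clm_apply continuousOn_const
  exact continuousOn_univ.1 h1

/-- linearity of the period -/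
lemma per_add {S : Set E} {ξ η ζ : E → E →L[ℝ] E →L[ℝ] ℝ} (hξ : ContinuousOn ξ S)
    (hη : ContinuousOn η S) {z v w : E} (hin : ∀ s t : ℝ, pt z v w s t ∈ S)
    (h : ∀ x ∈ S, ζ x v w = ξ x v w + η x v w) :
    per ζ z v w = per ξ z v w + per η z v w := by
  unfold per
  have c1 := continuous_on_par hξ hin v w
  have c2 := continuous_on_par hη hin v w
  rw [← intervalIntegral.integral_add]
  · refine intervalIntegral.integral_congr fun s _ => ?_
    show (∫ t in (0:ℝ)..1, ζ (pt z v w s t) v w) =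
      (∫ t in (0:ℝ)..1, ξ (pt z v w s t) v w) + ∫ t in (0:ℝ)..1, η (pt z v w s t) v w
    rw [← intervalIntegral.integral_add]
    · exact intervalIntegral.integral_congr fun t _ => h _ (hin s t)
    · exact (c1.comp (by fun_prop : Continuous fun t : ℝ => (s, t))).intervalIntegrable _ _
    · exact (c2.comp (by fun_prop : Continuous fun t : ℝ => (s, t))).intervalIntegrable _ _
  · exact (intervalIntegral.continuous_parametric_intervalIntegral_of_continuous'
      (f := fun s t => ξ (pt z v w s t) v w) c1 0 1).intervalIntegrable _ _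
  · exact (intervalIntegral.continuous_parametric_intervalIntegral_of_continuous'
      (f := fun s t => η (pt z v w s t) v w) c2 0 1).intervalIntegrable _ _

lemma per_smul (c : ℝ) {ξ ζ : E → E →L[ℝ] E →L[ℝ] ℝ} {S : Set E} {z v w : E}
    (hin : ∀ s t : ℝ, pt z v w s t ∈ S) (h : ∀ x ∈ S, ζ x v w = c * ξ x v w) :
    per ζ z v w = c * per ξ z v w := by
  unfold per
  rw [← intervalIntegral.integral_const_mul]
  refine intervalIntegral.integral_congr fun s _ => ?_
  show (∫ t in (0:ℝ)..1, ζ (pt z v w s t) v w) = c * ∫ t in (0:ℝ)..1, ξ (pt z v w s t) v w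
  rw [← intervalIntegral.integral_const_mul]
  exact intervalIntegral.integral_congr fun t _ => h _ (hin s t)

lemma per_sum {κ : Type*} (s : Finset κ) {S : Set E} {ξ : κ → E → E →L[ℝ] E →L[ℝ] ℝ}
    (hξ : ∀ k ∈ s, ContinuousOn (ξ k) S) {z v w : E} (hin : ∀ s t : ℝ, pt z v w s t ∈ S)
    (t : κ → ℝ) {ζ : E → E →L[ℝ] E →L[ℝ] ℝ}
    (h : ∀ x ∈ S, ζ x v w = ∑ k ∈ s, t k * ξ k x v w) :
    per ζ z v w = ∑ k ∈ s, t k * per (ξ k) z v w := by
  classical
  induction s using Finset.induction_on generalizing ζ with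
  | empty =>
    have := per_smul (S := S) (z := z) (v := v) (w := w) 0 (ξ := ζ) (ζ := ζ) hin
      (fun x hx => by rw [h x hx]; simp)
    simpa using this
  | insert a s ha ih =>
    have hs : ContinuousOn (fun x => ∑ k ∈ s, t k • ξ k x) S :=
      continuousOn_finsetSum _ fun k hk => ((hξ k (Finset.mem_insert_of_mem hk)).const_smul (t k))
    have ha' : ContinuousOn (fun x => t a • ξ a x) S :=
      (hξ a (Finset.mem_insert_self _ _)).const_smul (t a)
    rw [Finset.sum_insert ha, per_add (ζ := ζ) ha' hs hin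
      (fun x hx => by rw [h x hx, Finset.sum_insert ha]; simp [sum_apply]),
      per_smul (t a) (ξ := ξ a) (ζ := fun x => t a • ξ a x) hin (fun x hx => by simp),
      ih (ζ := fun x => ∑ k ∈ s, t k • ξ k x)
        (fun k hk => hξ k (Finset.mem_insert_of_mem hk)) (fun x hx => by simp [sum_apply])]

/-- affine change of coordinates -/
lemma per_affine {E' : Type*} [NormedAddCommGroup E'] [NormedSpace ℝ E']
    {ξ : E → E →L[ℝ] E →L[ℝ] ℝ} {η : E' → E' →L[ℝ] E' →L[ℝ] ℝ} (L : E' →L[ℝ] E) (c : E)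
    {z v w : E'} (h : ∀ s ∈ Icc (0:ℝ) 1, ∀ t ∈ Icc (0:ℝ) 1,
      η (pt z v w s t) v w = ξ (c + L (pt z v w s t)) (L v) (L w)) :
    per η z v w = per ξ (c + L z) (L v) (L w) := by
  unfold per
  refine intervalIntegral.integral_congr fun s hs => ?_
  refine intervalIntegral.integral_congr fun t ht => ?_
  rw [uIcc_of_le zero_le_one] at hs ht
  have e : c + L (pt z v w s t) = pt (c + L z) (L v) (L w) s t := by
    simp only [pt, map_add, map_smul]; abel
  show η (pt z v w s t) v w = ξ (pt (c + L z) (L v) (L w) s t) (L v) (L w)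
  rw [h s hs t ht, e]

end lin

variable {V X : Type} [NormedAddCommGroup V] [NormedSpace ℝ V] [TopologicalSpace X]
variable {E : Type*} [NormedAddCommGroup E] [NormedSpace ℝ E]
variable {C : RCh V X} {S Λ : Set E} {Φ : E → X}

lemma pull_add_w (a b : F2 C) (Φ : E → X) (ζ u v : E) :
    pull (a + b) Φ ζ u v = pull a Φ ζ u v + pull b Φ ζ u v := by
  simp only [pull, pl_apply, HkR_835.F2.add_w]; rfl

lemma pull_smul_w (c : ℝ) (a : F2 C) (Φ : E → X) (ζ u v : E) :
    pull (c • a) Φ ζ u v = c * pull a Φ ζ u v := by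
  simp only [pull, pl_apply, HkR_835.F2.smul_w]; rfl

lemma pull_zero_w (Φ : E → X) (ζ u v : E) :
    pull (0 : F2 C) Φ ζ u v = 0 := by
  simp only [pull, pl_apply, HkR_835.F2.zero_w]; rfl

lemma pull_sum_w {κ : Type*} (s : Finset κ) (g : κ → F2 C) (Φ : E → X) (ζ u v : E) :
    pull (∑ k ∈ s, g k) Φ ζ u v = ∑ k ∈ s, pull (g k) Φ ζ u v := by
  classical
  induction s using Finset.induction_on with
  | empty => simp [pull_zero_w]
  | insert a s ha ih => rw [Finset.sum_insert ha, pull_add_w, ih, Finset.sum_insert ha]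

/-- **combinations**: if the periods of the `b k` vanish and `w = Σ t k b k + exact`, the period
of `w` vanishes -/
theorem per_pull_comb [FiniteDimensional ℝ E] (h : SmI C S Φ)
    (hΛ : ∀ l ∈ Λ, ∀ ζ ∈ S, ζ + l ∈ S ∧ Φ (ζ + l) = Φ ζ) {κ : Type*} [Fintype κ]
    {b : κ → F2 C} {t : κ → ℝ} {w : F2 C} (hw : Ex (w - ∑ k, t k • b k)) {z v v' : E}
    (hv : v ∈ Λ) (hv' : v' ∈ Λ) (hin : ∀ s t : ℝ, pt z v v' s t ∈ S)
    (hb : ∀ k, per (pull (b k) Φ) z v v' = 0) :
    per (pull w Φ) z v v' = 0 := by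
  have h0 := per_pull_ex h hΛ hw hv hv' hin
  have h1 : per (pull (∑ k, t k • b k) Φ) z v v' = 0 := by
    rw [per_sum Finset.univ (S := S) (ξ := fun k => pull (b k) Φ)
      (fun k _ => (h.pull_smooth (b k)).continuousOn) hin t
      (fun x _ => by rw [pull_sum_w]; exact Finset.sum_congr rfl fun k _ => pull_smul_w _ _ _ _ _ _)]
    exact Finset.sum_eq_zero fun k _ => by rw [hb k, mul_zero]
  rw [per_add (S := S) (ξ := pull (w - ∑ k, t k • b k) Φ) (η := pull (∑ k, t k • b k) Φ)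
    (h.pull_smooth _).continuousOn (h.pull_smooth _).continuousOn hin
    (fun x _ => by rw [← pull_add_w, sub_add_cancel]), h0, h1, add_zero]

namespace SmI

/-- composition with an affine map -/
theorem comp_affine {E' : Type*} [NormedAddCommGroup E'] [NormedSpace ℝ E'] (h : SmI C S Φ)
    (L : E' →L[ℝ] E) (c : E) : SmI C ((fun p => c + L p) ⁻¹' S) (fun p => Φ (c + L p)) where
  op := h.op.preimage (by fun_prop)
  cont := h.cont.comp (by fun_prop) (fun p hp => hp)
  sm i := (h.sm i).comp (by fun_prop) (fun p hp => hp)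

/-- smooth maps restrict -/
theorem mono {S' : Set E} (h : SmI C S Φ) (hS : S' ⊆ S) (ho : IsOpen S') : SmI C S' Φ where
  op := ho
  cont := h.cont.mono hS
  sm i := (h.sm i).mono fun _ hx => ⟨hS hx.1, hx.2⟩

theorem pull_affine {E' : Type*} [NormedAddCommGroup E'] [NormedSpace ℝ E'] (h : SmI C S Φ)
    (L : E' →L[ℝ] E) (c : E) (w : F2 C) {p : E'} (hp : c + L p ∈ S) (u v : E') :
    pull w (fun p => Φ (c + L p)) p u v = pull w Φ (c + L p) (L u) (L v) := by
  have hi := ci_mem C (Φ (c + L p))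
  rw [(h.comp_affine L c).pull_eq w (i := ci C (Φ (c + L p))) (ζ := p) hp hi, h.pull_eq w hp hi,
    pl_apply, pl_apply]
  have h1 : HasFDerivAt (fun p : E' => c + L p) L p := by
    exact L.hasFDerivAt.const_add c
  have h2 := HasFDerivAt.comp (g := fun y => C.e (ci C (Φ (c + L p))) (Φ y))
    (f := fun p : E' => c + L p) p (h.diffAt hp hi).hasFDerivAt h1
  have h3 : fderiv ℝ (fun y => C.e (ci C (Φ (c + L p))) (Φ (c + L y))) p = _ := h2.fderiv
  rw [h3]
  rfl

/-- the periods in affine coordinates -/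
theorem per_pull_affine {E' : Type*} [NormedAddCommGroup E'] [NormedSpace ℝ E']
    (h : SmI C S Φ) (L : E' →L[ℝ] E) (c : E) (w : F2 C) {z v v' : E'}
    (hin : ∀ s ∈ Icc (0:ℝ) 1, ∀ t ∈ Icc (0:ℝ) 1, c + L (pt z v v' s t) ∈ S) :
    per (pull w (fun p => Φ (c + L p))) z v v' = per (pull w Φ) (c + L z) (L v) (L v') :=
  per_affine L c fun s hs t ht => h.pull_affine L c w (hin s hs t ht) v v'

end SmI

/-- pointwise bound of the pull back: `|w(a,b)| ≤ F N(a) N(b)` for a length `N` of tangent vectors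
and `N(DΦ u) ≤ B ‖u‖` -/
theorem abs_pull_le (h : SmI C S Φ) (w : F2 C) {F : X → ℝ} (hF : ∀ x, 0 ≤ F x)
    {N : C.ι → V → V → ℝ} (hN : ∀ i z a, 0 ≤ N i z a) {B : ℝ}
    (hw : ∀ i, ∀ z ∈ (C.e i).target, ∀ a b, |w.w i z a b| ≤ F ((C.e i).symm z) * N i z a * N i z b)
    {ζ : E} (hζ : ζ ∈ S)
    (hB : ∀ i, Φ ζ ∈ (C.e i).source → ∀ u : E,
      N i (C.e i (Φ ζ)) (fderiv ℝ (fun y => C.e i (Φ y)) ζ u) ≤ B * ‖u‖) (u v : E) :
    |pull w Φ ζ u v| ≤ F (Φ ζ) * (B * ‖u‖) * (B * ‖v‖) := by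
  have hi := ci_mem C (Φ ζ)
  rw [h.pull_eq w hζ hi, pl_apply]
  have h1 := hw _ _ ((C.e _).map_source hi) (fderiv ℝ (fun y => C.e (ci C (Φ ζ)) (Φ y)) ζ u)
    (fderiv ℝ (fun y => C.e (ci C (Φ ζ)) (Φ y)) ζ v)
  rw [(C.e _).left_inv hi] at h1
  refine h1.trans ?_
  have h2 := hB _ hi u
  have h3 := hB _ hi v
  have h4 := hN (ci C (Φ ζ)) (C.e (ci C (Φ ζ)) (Φ ζ))
    (fderiv ℝ (fun y => C.e (ci C (Φ ζ)) (Φ y)) ζ u)
  have h5 := hN (ci C (Φ ζ)) (C.e (ci C (Φ ζ)) (Φ ζ))
    (fderiv ℝ (fun y => C.e (ci C (Φ ζ)) (Φ y)) ζ v)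
  have h6 := hF (Φ ζ)
  have h7 : 0 ≤ B * ‖u‖ := h4.trans h2
  have h8 : 0 ≤ F (Φ ζ) * (B * ‖u‖) := mul_nonneg h6 h7
  exact mul_le_mul (mul_le_mul_of_nonneg_left h2 h6) h3 h5 h8

end Crest.Agent.R281.Per_368
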