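import Crest.Agent.R281.Sc2_413
import Crest.Agent.R281.F2Mod_358
import Crest.Agent.R273.NVPow_578

/-!
# Row 281, SC-PIC, part 3 (helper413): trivial line bundles

* `trivS A : Subgroup (LB A)` : line bundles with a nowhere zero global section, `mem_triv`
* `curK h : K11 A`            : curvature form, `cls h = (curK h).f2`
* `hmZ h k`                   : metric on `L ^ k`, `k : ℤ`
* `triv_of_ex`                : `Ex (curK h).f2` ==> `L ∈ trivS A` (simply connected)
* `triv_of_prop`              : `Ex (a • cls hN - b • cls hL)`, `a b : ℤ` ==> `N ^ a * (L ^ b)⁻¹ ∈ trivS A`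
* `Iso.sec`                   : sections of isomorphic line bundles
-/

set_option autoImplicit false
set_option linter.unusedSectionVars false

open Set Filter Topology Complex
open scoped ContDiff Matrix ComplexConjugate InnerProductSpace

namespace Crest.Agent.R281.Sc_413

open Crest.Agent.R275 Crest.Agent.R275.Geo Crest.Agent.R275.Core144 Crest.Agent.R275.EDR890
open Crest.Agent.R275.GC293
open Crest.Agent.R273 Crest.Agent.R273.Defs_333 Crest.Agent.R273.Kah_333 Crest.Agent.R273.HM_333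
open Crest.Agent.R273.LamN127
open Crest.Agent.R273.Hess_333 Crest.Agent.R273.HessB_333
open Crest.Agent.R273.NV_578 (castH cur_castH)
open Crest.Agent.R281.Defs_273 (H2 HSymp)
open Crest.Agent.R281.HkR_835 Crest.Agent.R281.Ti_846 Crest.Agent.R281.Hdg_850

noncomputable section

variable {n : ℕ} {M : Type} [TopologicalSpace M] {A : Atl n M} {L L' N : LB A}

/-! ### line bundles with a nowhere zero section -/

/-- `L` has a nowhere zero holomorphic section -/
def Triv (L : LB A) : Prop := ∃ s, IsHS L univ s ∧ ∀ i, ∀ x ∈ (A.e i).source, s i x ≠ 0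

theorem triv_one : Triv (1 : LB A) :=
  ⟨oneS A, isHS_oneS univ, fun i x hx => by simp [oneS, hx]⟩

theorem Triv.mul (h : Triv L) (h' : Triv L') : Triv (L * L') := by
  obtain ⟨s, hs, h0⟩ := h
  obtain ⟨t, ht, h0'⟩ := h'
  exact ⟨s * t, hs.mul ht, fun i x hx => mul_ne_zero (h0 i x hx) (h0' i x hx)⟩

theorem Triv.inv (h : Triv L) : Triv L⁻¹ := by
  obtain ⟨s, hs, h0⟩ := h
  exact ⟨s⁻¹, hs.inv fun i x hx _ => h0 i x hx, fun i x hx => inv_ne_zero (h0 i x hx)⟩

/-- the line bundles with a nowhere zero section -/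
def trivS (A : Atl n M) : Subgroup (LB A) where
  carrier := {L | Triv L}
  one_mem' := triv_one
  mul_mem' := Triv.mul
  inv_mem' := Triv.inv

theorem mem_triv : L ∈ trivS A ↔ Triv L := Iff.rfl

/-- multiplication by a section of `L' * L⁻¹` -/
theorem sec_mul {u s : A.ι → M → ℂ} {U : Set M} (hu : IsHS (L' * L⁻¹) U u) (hs : IsHS L U s) :
    IsHS L' U (u * s) := by
  have h1 := hu.mul hs
  rwa [mul_assoc, inv_mul_cancel, mul_one] at h1

/-- isomorphic line bundles: the sections correspond, with the same zeros -/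
theorem Triv.iso (h : Triv (L' * L⁻¹)) : ∃ u : A.ι → M → ℂ,
    (∀ i, ∀ x ∈ (A.e i).source, u i x ≠ 0) ∧ (∀ i, HolAt A i univ (u i)) ∧
    (∀ (U : Set M) (s : A.ι → M → ℂ), IsHS L U s → IsHS L' U (u * s)) ∧
    ∀ (U : Set M) (s : A.ι → M → ℂ), IsHS L' U s → IsHS L U (u⁻¹ * s) := by
  obtain ⟨u, hu, h0⟩ := h
  refine ⟨u, h0, hu.hol, fun U s hs => sec_mul (hu.mono (subset_univ U)) hs, fun U s hs => ?_⟩
  have h1 : IsHS (L * L'⁻¹) univ u⁻¹ := by
    have := hu.inv fun i x hx _ => h0 i x hx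
    rwa [mul_inv, inv_inv, mul_comm] at this
  exact sec_mul (h1.mono (subset_univ U)) hs

/-! ### the curvature form -/

/-- the curvature as a real (1,1)-form -/
def curK (h : HM L) : K11 A where
  g := cur h
  sm := cur_smooth h
  herm i x hx := cur_herm h i hx
  tr i j x hx := cur_tr h hx
  closed i z hz a b c := cur_closed h i hz a b c

@[simp] theorem curK_g (h : HM L) : (curK h).g = cur h := rfl

/-- `Ex` only depends on the values on the targets -/
theorem ex_congr {w w' : F2 (ofAtl A)} (h : Ex w)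
    (e : ∀ i, ∀ z ∈ (A.e i).target, ∀ u v, w.w i z u v = w'.w i z u v) : Ex w' := by
  obtain ⟨η, hη⟩ := h
  exact ⟨η, fun i z hz u v => by rw [← e i z hz, hη i z hz]⟩

/-- a combination of (1,1)-forms -/
theorem f2_comb (G H T : K11 A) (a b : ℝ)
    (h : ∀ i, ∀ x ∈ (A.e i).source, T.g i x = (a : ℂ) • G.g i x - (b : ℂ) • H.g i x)
    {i : A.ι} {z : Cn n} (hz : z ∈ (A.e i).target) (u v : Cn n) :
    (a • G.f2 - b • H.f2).w i z u v = T.f2.w i z u v := by
  have h1 := h i _ ((A.e i).map_target hz)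
  have h2 : (a • G.f2 - b • H.f2).w i z u v = a * G.f2.w i z u v - b * H.f2.w i z u v := rfl
  rw [h2, G.f2_w hz, H.f2_w hz, T.f2_w hz, h1, ← hbL_apply u v (_ - _), map_sub, map_smul,
    map_smul, hbL_apply, hbL_apply, smul_eq_mul, smul_eq_mul]
  simp only [Complex.mul_re, Complex.sub_re, Complex.sub_im, Complex.mul_im, Complex.I_re,
    Complex.I_im, Complex.ofReal_re, Complex.ofReal_im]
  ring

/-! ### integral powers -/

/-- the metric on `L ^ k` -/
def hmZ (h : HM L) : (k : ℤ) → HM (L ^ k)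
  | Int.ofNat m => castH (zpow_natCast L m).symm (pow h m)
  | Int.negSucc m => castH (zpow_negSucc L m).symm (inv (pow h (m + 1)))

theorem cur_hmZ (h : HM L) (k : ℤ) (i : A.ι) {x : M} (hx : x ∈ (A.e i).source) :
    cur (hmZ h k) i x = (k : ℂ) • cur h i x := by
  cases k with
  | ofNat m =>
    show cur (pow h m) i x = _
    rw [cur_pow h m i hx]
    simp
  | negSucc m =>
    show cur (inv (pow h (m + 1))) i x = _
    rw [cur_inv _ i hx, cur_pow h (m + 1) i hx, ← neg_smul]
    congr 1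
    simp

section sc

variable [CompactSpace M] [T2Space M] [SimplyConnectedSpace M] [Finite A.ι]

/-- **exact curvature ==> trivial** -/
theorem triv_of_ex (hA : GoodA A) (P : Part A) (K : Kah A) (h : HM L) (he : Ex (curK h).f2) :
    ∃ s, IsHS L univ s ∧ ∀ i, ∀ x ∈ (A.e i).source, s i x ≠ 0 := by
  obtain ⟨u, hu, h1⟩ := hsf_of_ex hA P K (curK h) he
  have hu' : A.Sm (fun x => -1 * u x) := fun i => contDiffOn_const.mul (hu i)
  have h2 : ∀ i, ∀ x ∈ (A.e i).source, cur (tw h _ hu') i x = 0 := by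
    intro i x hx
    rw [cur_tw h hu' i hx, ← curK_g h, h1 i x hx]
    have h3 : hsf A (fun x => -1 * u x) i x = ((-1 : ℝ) : ℂ) • hsf A u i x :=
      hess_const_mul (-1) (sm_contDiffAt hu i ((A.e i).map_source hx))
    rw [h3]
    simp
  obtain ⟨s, hs, h3⟩ := FlatSec_534.flatSec hA (tw h _ hu') h2
  refine ⟨s, hs, fun i x hx h0 => ?_⟩
  have := h3 i x hx
  rw [h0, norm_zero] at this
  norm_num at this

/-- **proportional classes, integral factors** -/
theorem triv_of_prop (hA : GoodA A) (P : Part A) (K : Kah A) (hN : HM N) (hL : HM L) (a b : ℤ)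
    (he : Ex ((a : ℝ) • (curK hN).f2 - (b : ℝ) • (curK hL).f2)) :
    ∃ s, IsHS (N ^ a * (L ^ b)⁻¹) univ s ∧ ∀ i, ∀ x ∈ (A.e i).source, s i x ≠ 0 := by
  refine triv_of_ex hA P K (mul (hmZ hN a) (inv (hmZ hL b))) ?_
  refine ex_congr he fun i z hz u v => f2_comb _ _ _ _ _ (fun i x hx => ?_) hz u v
  rw [curK_g, curK_g, curK_g, cur_mul _ _ i hx, cur_inv _ i hx, cur_hmZ _ _ i hx,
    cur_hmZ _ _ i hx, ← sub_eq_add_neg]
  simp

/-- cohomologous curvatures ==> isomorphic -/
theorem triv_of_coh (hA : GoodA A) (P : Part A) (K : Kah A) (hN : HM N) (hL : HM L)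
    (he : Ex ((curK hN).f2 - (curK hL).f2)) :
    ∃ s, IsHS (N * L⁻¹) univ s ∧ ∀ i, ∀ x ∈ (A.e i).source, s i x ≠ 0 := by
  have h1 := triv_of_prop hA P K hN hL 1 1 (by simpa using he)
  simpa using h1

end sc

end

end Crest.Agent.R281.Sc_413
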