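import Crest.Agent.R281.Kd3_22
import Crest.Agent.R281.Per5_368
import Crest.Agent.R281.Fuj3_207
import Crest.Agent.R281.Sc3_413

/-!
# Row 281, KAPPA-1 glue, part 7 (helper22): the periods of the curvature over the tori

* `phi h s`  : `-log |s|²_h`
* `tor_zero` : if a holomorphic section `s` of `N` has no zero on the image of the periodic
  holomorphic map `Φ`, all periods of `Φ^* (curK h).f2` vanish
-/

set_option autoImplicit false
set_option linter.unusedSectionVars false
set_option maxSynthPendingDepth 3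

open Set Filter Topology Complex
open scoped ContDiff Matrix ComplexConjugate ComplexOrder

namespace Crest.Agent.R281.Kd_22

open Crest.Agent.R275 Crest.Agent.R275.Geo Crest.Agent.R275.Core144 Crest.Agent.R275.EDR890
open Crest.Agent.R273.Defs_333 Crest.Agent.R273.Kah_333 Crest.Agent.R273.HM_333
open Crest.Agent.R273.Hess_333 Crest.Agent.R273.HessB_333
open Crest.Agent.R281.HkR_835 Crest.Agent.R281.Ti_846 Crest.Agent.R281.Fuj3_207
open Crest.Agent.R281.Per_368 Crest.Agent.R281.Sc_413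
open Crest.Agent.R281.Cdr_234 (sh isOpen_sh)

noncomputable section

variable {n : ℕ} {M : Type} [TopologicalSpace M] {A : Atl n M} {N : LB A}

/-- `-log |s|²_h`, computed in a chosen chart -/
def phi (h : HM N) (s : A.ι → M → ℂ) (x : M) : ℝ :=
  - Real.log (nsq h s (A.cover x).choose x)

/-- the set where the section does not vanish -/
def nz (A : Atl n M) (s : A.ι → M → ℂ) : Set M := {x | ∃ i, x ∈ (A.e i).source ∧ s i x ≠ 0}

variable {h : HM N} {s : A.ι → M → ℂ}

theorem nz_ne (hs : IsHS N univ s) {x : M} (hx : x ∈ nz A s) {i : A.ι}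
    (hi : x ∈ (A.e i).source) : s i x ≠ 0 := by
  obtain ⟨j, hj, h0⟩ := hx
  have h1 := hs.tr j i x ⟨hj, hi⟩ (mem_univ _)
  intro h2
  rw [h2, mul_zero] at h1
  exact h0 h1

theorem an_sec (hs : IsHS N univ s) (i : A.ι) {z : Cn n} (hz : z ∈ (A.e i).target) :
    AnalyticAt ℂ (fun z => s i ((A.e i).symm z)) z := by
  have h1 := hm_of_isHS hs ((A.e i).map_target hz) i ((A.e i).map_target hz)
  rwa [(A.e i).right_inv hz] at h1

theorem isOpen_nz (hs : IsHS N univ s) : IsOpen (nz A s) := by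
  rw [isOpen_iff_mem_nhds]
  rintro x ⟨i, hi, h0⟩
  have h1 : ContinuousOn (fun z => s i ((A.e i).symm z)) (A.e i).target := by
    have := hs.hol i
    unfold HolAt at this
    simpa using this.continuousOn
  have h2 : ContinuousAt (fun y => s i ((A.e i).symm (A.e i y))) x := by
    have h3 : ContinuousAt (fun z => s i ((A.e i).symm z)) (A.e i x) :=
      h1.continuousAt ((A.e i).open_target.mem_nhds ((A.e i).map_source hi))
    exact ContinuousAt.comp (g := fun z => s i ((A.e i).symm z)) h3 ((A.e i).continuousAt hi)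
  have h4 : ∀ᶠ y in 𝓝 x, s i ((A.e i).symm (A.e i y)) ≠ 0 := by
    refine h2.eventually_ne ?_
    rw [(A.e i).left_inv hi]; exact h0
  filter_upwards [h4, (A.e i).open_source.mem_nhds hi] with y hy hy'
  refine ⟨i, hy', ?_⟩
  rwa [(A.e i).left_inv hy'] at hy

theorem phi_eq (hs : IsHS N univ s) {x : M} (hx : x ∈ nz A s) {i : A.ι}
    (hi : x ∈ (A.e i).source) :
    phi h s x = h.wt i (A.e i x) - Real.log (‖s i x‖ ^ 2) := by
  have h0 := nz_ne hs hx hi
  have h1 := (A.cover x).choose_spec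
  unfold phi
  rw [nsq_indep h hs ⟨h1, hi⟩ (mem_univ x), nsq, Real.log_mul (by positivity)
    (h.pos i x hi).ne', HM.wt, (A.e i).left_inv hi]
  ring

theorem phi_smooth (hs : IsHS N univ s) (i : A.ι) :
    ContDiffOn ℝ ∞ (fun z => phi h s ((A.e i).symm z)) (sh (ofAtl A) i (nz A s)) := by
  have h1 : ContDiffOn ℝ ∞ (fun z => h.wt i z - Real.log (‖s i ((A.e i).symm z)‖ ^ 2))
      (sh (ofAtl A) i (nz A s)) := by
    refine ((wt_smooth h i).mono fun z hz => hz.1).sub ?_
    have h3 : ContDiffOn ℝ ∞ (fun z => s i ((A.e i).symm z)) (sh (ofAtl A) i (nz A s)) := by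
      intro z hz
      exact ((an_sec hs i hz.1).restrictScalars (𝕜 := ℝ)).contDiffAt.contDiffWithinAt
    refine ContDiffOn.log (h3.norm_sq ℝ) fun z hz => ?_
    have h5 := nz_ne hs hz.2 ((A.e i).map_target hz.1)
    positivity
  refine h1.congr fun z hz => ?_
  have h5 : z ∈ (A.e i).target := hz.1
  have h6 : (A.e i).symm z ∈ nz A s := hz.2
  have h7 := phi_eq (h := h) hs h6 ((A.e i).map_target h5)
  rw [(A.e i).right_inv h5] at h7
  exact h7

/-- the local primitives `-¼ dφ(i ·)` of the curvature -/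
def th (h : HM N) (s : A.ι → M → ℂ) (i : A.ι) (z : Cn n) : Cn n →L[ℝ] ℝ :=
  (-(1 / 4 : ℝ)) • (fderiv ℝ (fun y => phi h s ((A.e i).symm y)) z).comp iL

theorem th_smooth (hs : IsHS N univ s) (i : A.ι) :
    ContDiffOn ℝ ∞ (th h s i) (sh (ofAtl A) i (nz A s)) := by
  have h1 : ContDiffOn ℝ ∞ (fderiv ℝ fun y => phi h s ((A.e i).symm y))
      (sh (ofAtl A) i (nz A s)) :=
    (phi_smooth hs i).fderiv_of_isOpen (isOpen_sh (C := ofAtl A) i (isOpen_nz hs)) (by simp)
  exact (h1.clm_comp contDiffOn_const).const_smul _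

theorem th_tr (hs : IsHS N univ s) (i j : A.ι) (z : Cn n) (hz : z ∈ (ofAtl A).ov i j)
    (hU : (A.e i).symm z ∈ nz A s) (v : Cn n) :
    th h s i z v = th h s j ((ofAtl A).t i j z) (fderiv ℝ ((ofAtl A).t i j) z v) := by
  have h1 : (fun y => phi h s ((A.e i).symm y)) =ᶠ[𝓝 z]
      fun y => phi h s ((A.e j).symm ((ofAtl A).t i j y)) := by
    filter_upwards [(RCh.isOpen_ov (C := ofAtl A) i j).mem_nhds hz] with y hy
    congr 1
    exact ((A.e j).left_inv hy.2).symm
  have hz' : (ofAtl A).t i j z ∈ (A.e j).target := (RCh.t_mem hz).1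
  have hz'' : (A.e j).symm ((ofAtl A).t i j z) = (A.e i).symm z := (A.e j).left_inv hz.2
  have hmem : (ofAtl A).t i j z ∈ sh (ofAtl A) j (nz A s) := ⟨hz', by
    show (A.e j).symm ((ofAtl A).t i j z) ∈ nz A s
    rw [hz'']; exact hU⟩
  have h2 : DifferentiableAt ℝ (fun y => phi h s ((A.e j).symm y)) ((ofAtl A).t i j z) :=
    ((phi_smooth hs j).contDiffAt
      ((isOpen_sh (C := ofAtl A) j (isOpen_nz hs)).mem_nhds hmem)).differentiableAt (by simp)
  have h3 := (HasFDerivAt.comp (g := fun y => phi h s ((A.e j).symm y)) (f := (ofAtl A).t i j) z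
    h2.hasFDerivAt (RCh.t_diff hz).hasFDerivAt).fderiv
  have h4 : ((fun y => phi h s ((A.e j).symm y)) ∘ (ofAtl A).t i j) =
      fun y => phi h s ((A.e j).symm ((ofAtl A).t i j y)) := rfl
  rw [h4, ← h1.fderiv_eq] at h3
  simp only [th, smul_apply, ContinuousLinearMap.comp_apply, h3, iL_apply, ofAtl_dt_I hz]

theorem th_d (hs : IsHS N univ s) (i : A.ι) (z : Cn n) (hz : z ∈ sh (ofAtl A) i (nz A s))
    (v w : Cn n) :
    fderiv ℝ (th h s i) z v w - fderiv ℝ (th h s i) z w v = (curK h).f2.w i z v w := by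
  have hzt : z ∈ (A.e i).target := hz.1
  have hO := (isOpen_sh (C := ofAtl A) i (isOpen_nz hs)).mem_nhds hz
  have hsm : ContDiffAt ℝ ∞ (fun y => phi h s ((A.e i).symm y)) z :=
    (phi_smooth hs i).contDiffAt hO
  have h1 : DifferentiableAt ℝ (fderiv ℝ (fun y => phi h s ((A.e i).symm y))) z :=
    (hsm.fderiv_right (m := ∞) (by simp)).differentiableAt (by simp)
  have h2 : ∀ a b, fderiv ℝ (th h s i) z a b =
      -(1 / 4) * fderiv ℝ (fderiv ℝ (fun y => phi h s ((A.e i).symm y))) z a (I • b) := by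
    intro a b
    have h3 := ((h1.hasFDerivAt.clm_comp (hasFDerivAt_const iL z)).const_smul
      (-(1 / 4 : ℝ))).fderiv
    have h4 : th h s i = fun z => (-(1 / 4 : ℝ)) •
      (fderiv ℝ (fun y => phi h s ((A.e i).symm y)) z).comp iL := rfl
    rw [h4]
    have h5 := congrArg (fun L => L a b) h3
    refine h5.trans ?_
    simp
  -- the Hessian of `φ` is the curvature
  have h6 : hess (fun y => phi h s ((A.e i).symm y)) z = cur h i ((A.e i).symm z) := by
    have hev : ∀ᶠ w in 𝓝 z, DifferentiableAt ℂ (fun z => s i ((A.e i).symm z)) w := by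
      filter_upwards [(A.e i).open_target.mem_nhds hzt] with w hw
      exact (an_sec hs i hw).differentiableAt
    have h0 := nz_ne hs hz.2 ((A.e i).map_target hzt)
    have h7 := hess_log_norm hev h0
    have h8 : (fun y => h.wt i y) =ᶠ[𝓝 z] fun y => phi h s ((A.e i).symm y) +
        Real.log (‖s i ((A.e i).symm y)‖ ^ 2) := by
      filter_upwards [hO] with y hy
      have g1 : y ∈ (A.e i).target := hy.1
      have g2 : (A.e i).symm y ∈ nz A s := hy.2
      have g3 := phi_eq (h := h) hs g2 ((A.e i).map_target g1)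
      rw [(A.e i).right_inv g1] at g3
      rw [g3]
      ring
    have h9 : ContDiffAt ℝ ∞ (fun y => Real.log (‖s i ((A.e i).symm y)‖ ^ 2)) z := by
      have h10 : AnalyticAt ℂ (fun z => s i ((A.e i).symm z)) z := an_sec hs i hzt
      have h11 : ContDiffAt ℝ ∞ (fun z => s i ((A.e i).symm z)) z :=
        (h10.restrictScalars (𝕜 := ℝ)).contDiffAt
      refine ContDiffAt.log (h11.norm_sq ℝ) ?_
      positivity
    rw [cur_read h i hzt]
    have h12 := hess_congr h8
    have h13 : hess (fun y => h.wt i y) z = hess (h.wt i) z := rfl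
    rw [← h13, h12, hess_add hsm h9, h7, add_zero]
  rw [h2, h2, (curK h).f2_w hzt, curK_g, ← h6, hess_dd hsm]
  ring

/-- **the periods of the curvature over a torus without zeros vanish** -/
theorem tor_zero {E : Type*} [NormedAddCommGroup E] [NormedSpace ℝ E] {S Λ : Set E} {Φ : E → M}
    (h : HM N) {s : A.ι → M → ℂ} (hs : IsHS N univ s) (hΦ : SmI (ofAtl A) S Φ)
    (hΛ : ∀ l ∈ Λ, ∀ ζ ∈ S, ζ + l ∈ S ∧ Φ (ζ + l) = Φ ζ)
    (h0 : ∀ ζ ∈ S, ∀ i, Φ ζ ∈ (A.e i).source → s i (Φ ζ) ≠ 0) {z v v' : E}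
    (hv : v ∈ Λ) (hv' : v' ∈ Λ) (hin : ∀ s t : ℝ, pt z v v' s t ∈ S) :
    per (pull (curK h).f2 Φ) z v v' = 0 := by
  have hnz : ∀ ζ ∈ S, Φ ζ ∈ nz A s := fun ζ hζ => by
    obtain ⟨i, hi⟩ := A.cover (Φ ζ)
    exact ⟨i, hi, h0 ζ hζ i hi⟩
  have htr : ∀ i j, ∀ z ∈ (ofAtl A).ov i j, ((ofAtl A).e i).symm z ∈ nz A s → ∀ u,
      th h s i z u = th h s j ((ofAtl A).t i j z) (fderiv ℝ ((ofAtl A).t i j) z u) :=
    fun i j z hz hU u => th_tr hs i j z hz hU u
  have hS : S ∩ Φ ⁻¹' (nz A s) = S := inter_eq_left.2 hnz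
  refine per_exact (U := S) hΦ.op (η := pull1 (ofAtl A) (th h s) Φ) ?_
    (fun s _ t _ => hin s t) (fun x hx => ?_) (fun x hx _ => ?_) (fun x hx _ => ?_)
  · have := hΦ.pull1_smooth (θ := th h s) (isOpen_nz hs) (fun i => th_smooth hs i) htr
    rw [hS] at this
    exact this.of_le (by exact_mod_cast le_top)
  · exact hΦ.pull1_d (curK h).f2 (isOpen_nz hs) (fun i => th_smooth hs i) htr
      (fun i z hz u v => th_d hs i z hz u v) hx (hnz x hx) v v'
  · exact hΦ.pull1_add htr (hΛ v hv) hx (hnz x hx)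
  · exact hΦ.pull1_add htr (hΛ v' hv') hx (hnz x hx)

end

end Crest.Agent.R281.Kd_22
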