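import Crest.Agent.R281.Per1_368

/-!
# Row 281, KAPPA-1 glue, part 8 (helper22): vanishing periods ==> vanishing mean form

* `mean_shift` : the mean over a fundamental domain of a lattice is translation invariant
* `mean_zero`  : all periods of the periodic form `ξ` vanish ==> `∫_D ξ x u v = 0` for all `u v`
* `exists_per` : `ξ x u (J u) > 0` for all `x` ==> some period is not zero
-/

set_option autoImplicit false
set_option linter.unusedSectionVars false
set_option maxSynthPendingDepth 3

open Set Filter Topology MeasureTheory Module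
open scoped Pointwise

namespace Crest.Agent.R281.Kd_22

open Crest.Agent.R281.Per_368

variable {E : Type*} [NormedAddCommGroup E] [NormedSpace ℝ E] [FiniteDimensional ℝ E]
  [MeasurableSpace E] [BorelSpace E] {ι : Type*} [Fintype ι] (b : Basis ι ℝ E)
  (μ : Measure E) [μ.IsAddHaarMeasure]

theorem per_span {α : Type*} {f : E → α} (hp : ∀ a x, f (x + b a) = f x)
    (g : (Submodule.span ℤ (range b)).toAddSubgroup) (x : E) : f (g +ᵥ x) = f x := by
  have h1 : ∀ y ∈ Submodule.span ℤ (range b), ∀ x, f (y + x) = f x := by
    intro y hy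
    refine Submodule.span_induction (p := fun y _ => ∀ x, f (y + x) = f x) ?_ ?_ ?_ ?_ hy
    · rintro _ ⟨a, rfl⟩ x
      rw [add_comm]; exact hp a x
    · intro x; rw [zero_add]
    · intro y z _ _ h1 h2 x
      rw [add_assoc, h1, h2]
    · intro m y _ h1 x
      induction m using Int.induction_on generalizing x with
      | zero => simp
      | succ k ih => rw [add_smul, one_smul, add_assoc, ih, h1]
      | pred k ih =>
        rw [sub_smul, one_smul, ← h1 ((-(k:ℤ)) • y - y + x)]
        have : y + ((-(k:ℤ)) • y - y + x) = (-(k:ℤ)) • y + x := by abel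
        rw [this, ih]
  exact h1 g.1 g.2 x

theorem mean_shift {f : E → ℝ} (hp : ∀ a x, f (x + b a) = f x) (c : E) :
    ∫ x in ZSpan.fundamentalDomain b, f (x + c) ∂μ = ∫ x in ZSpan.fundamentalDomain b, f x ∂μ := by
  have hD := ZSpan.isAddFundamentalDomain' b μ
  have hD' := hD.vadd_of_comm c
  have _ : Countable (Submodule.span ℤ (range b)).toAddSubgroup :=
    (inferInstance : Countable (Submodule.span ℤ (range b)))
  have h1 := hD'.setIntegral_eq hD (f := f) (per_span b hp)
  rw [← h1]
  have h2 := (measurePreserving_add_right μ c).setIntegral_preimage_emb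
    (measurableEmbedding_addRight c) f (c +ᵥ ZSpan.fundamentalDomain b)
  rw [← h2]
  congr 2
  ext x
  simp only [mem_preimage, mem_vadd_set_iff_neg_vadd_mem, vadd_eq_add]
  rw [show -c + (x + c) = x by abel]

/-- **vanishing periods ==> vanishing mean form** -/
theorem mean_zero {ξ : E → E →L[ℝ] E →L[ℝ] ℝ} (hc : Continuous ξ)
    (hp : ∀ a x, ξ (x + b a) = ξ x) (h0 : ∀ z a c, per ξ z (b a) (b c) = 0) (u v : E) :
    ∫ x in ZSpan.fundamentalDomain b, ξ x u v ∂μ = 0 := by
  set D := ZSpan.fundamentalDomain b with hD
  have hDb : Bornology.IsBounded D := ZSpan.fundamentalDomain_isBounded b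
  have hDm : MeasurableSet D := ZSpan.fundamentalDomain_measurableSet b
  have hμD : μ D ≠ ⊤ := hDb.measure_lt_top.ne
  have hfin : IsFiniteMeasure (μ.restrict D) := ⟨by
    rw [Measure.restrict_apply_univ]; exact hμD.lt_top⟩
  have hint : ∀ g : E → ℝ, Continuous g → IntegrableOn g D μ := fun g hg =>
    (hg.continuousOn.integrableOn_compact hDb.isCompact_closure).mono_set subset_closure
  have hbase : ∀ a c, ∫ x in D, ξ x (b a) (b c) ∂μ = 0 := by
    intro a c
    set f : E → ℝ := fun x => ξ x (b a) (b c) with hf
    have hfc : Continuous f := (hc.clm_apply continuous_const).clm_apply continuous_const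
    have hfp : ∀ a x, f (x + b a) = f x := fun a x => by simp only [hf, hp]
    -- Fubini
    have h1 : ∀ s t : ℝ, ∫ x in D, f (pt x (b a) (b c) s t) ∂μ = ∫ x in D, f x ∂μ := by
      intro s t
      have := mean_shift b μ hfp (s • b a + t • b c)
      rw [← this]
      refine integral_congr_ae (Eventually.of_forall fun x => ?_)
      simp only [pt]
      rw [add_assoc]
    have hcont : Continuous fun q : E × (ℝ × ℝ) => f (pt q.1 (b a) (b c) q.2.1 q.2.2) := by
      refine hfc.comp ?_
      unfold pt; fun_prop
    have h2 : ∫ p in Q, (∫ x in D, f (pt x (b a) (b c) p.1 p.2) ∂μ) = ∫ x in D, f x ∂μ := by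
      simp only [h1]
      rw [setIntegral_const, measureReal_def, volume_Q]
      simp
    have hI : Integrable (fun q : (ℝ × ℝ) × E => f (pt q.2 (b a) (b c) q.1.1 q.1.2))
        ((volume.restrict Q).prod (μ.restrict D)) := by
      rw [Measure.prod_restrict]
      have h3 : Continuous fun q : (ℝ × ℝ) × E => f (pt q.2 (b a) (b c) q.1.1 q.1.2) := by
        refine hfc.comp ?_
        unfold pt; fun_prop
      exact (h3.continuousOn.integrableOn_compact
        (isCompact_Q.prod hDb.isCompact_closure)).mono_set (prod_mono le_rfl subset_closure)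
    have h4 := integral_integral_swap (f := fun (p : ℝ × ℝ) (x : E) =>
      f (pt x (b a) (b c) p.1 p.2)) (μ := volume.restrict Q) (ν := μ.restrict D) hI
    rw [← h2, h4]
    refine integral_eq_zero_of_ae (Eventually.of_forall fun x => ?_)
    have h5 := h0 x a c
    rw [per_eq_set (S := univ) hc.continuousOn (fun _ _ _ _ => mem_univ _)] at h5
    exact h5
  -- bilinearity
  have hI2 : ∀ p q : E, IntegrableOn (fun x => ξ x p q) D μ := fun p q =>
    hint _ ((hc.clm_apply continuous_const).clm_apply continuous_const)
  have e1 : ∀ x, ξ x u v = ∑ a, ∑ c, (b.repr u a * b.repr v c) * ξ x (b a) (b c) := by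
    intro x
    conv_lhs => rw [← b.sum_repr u, ← b.sum_repr v]
    simp only [map_sum, map_smul, sum_apply, smul_apply, smul_eq_mul, Finset.mul_sum]
    rw [Finset.sum_comm]
    refine Finset.sum_congr rfl fun a _ => Finset.sum_congr rfl fun c _ => ?_
    ring
  simp only [e1]
  rw [integral_finsetSum _ fun a _ => integrable_finsetSum _ fun c _ => (hI2 _ _).const_mul _]
  refine Finset.sum_eq_zero fun a _ => ?_
  rw [integral_finsetSum _ fun c _ => (hI2 _ _).const_mul _]
  refine Finset.sum_eq_zero fun c _ => ?_
  rw [integral_const_mul, hbase, mul_zero]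

/-- a periodic form which is positive on `(u, v)` everywhere has a period which is not zero -/
theorem exists_per {ξ : E → E →L[ℝ] E →L[ℝ] ℝ} (hc : Continuous ξ)
    (hp : ∀ a x, ξ (x + b a) = ξ x) {u v : E} (hpos : ∀ x, 0 < ξ x u v) :
    ∃ z a c, per ξ z (b a) (b c) ≠ 0 := by
  by_contra hcon
  push Not at hcon
  have h1 := mean_zero b (Measure.addHaar : Measure E) hc hp hcon u v
  have hDb : Bornology.IsBounded (ZSpan.fundamentalDomain b) := ZSpan.fundamentalDomain_isBounded b
  have h2 : Continuous fun x => ξ x u v := (hc.clm_apply continuous_const).clm_apply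
    continuous_const
  have h3 : IntegrableOn (fun x => ξ x u v) (ZSpan.fundamentalDomain b)
      (Measure.addHaar : Measure E) :=
    (h2.continuousOn.integrableOn_compact hDb.isCompact_closure).mono_set subset_closure
  have h4 : 0 < ∫ x in ZSpan.fundamentalDomain b, ξ x u v ∂(Measure.addHaar : Measure E) := by
    rw [integral_pos_iff_support_of_nonneg (fun x => (hpos x).le) h3]
    have h5 : Function.support (fun x => ξ x u v) = univ := by
      ext x; simp [(hpos x).ne']
    rw [h5, Measure.restrict_apply_univ]
    exact pos_iff_ne_zero.2 (ZSpan.measure_fundamentalDomain_ne_zero b)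
  linarith

end Crest.Agent.R281.Kd_22
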