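import Crest.Agent.R281.Glob2_484
import Crest.Agent.R273.AppA_834
import Crest.Agent.R273.CLinE_933
import Crest.Agent.R273.GreenG_5

/-!
# Row 281, task MOV (helper625), part 3: `log (∑|C_j|² + ε)` on a compact Kaehler manifold

* `ue h C ε = log (∑|C_j|²_h + ε)`, `ct h C ε = N/(N+ε)`, `Rf = ∂∂̄ue + ct · cur h ≥ 0` (`Rf_psd`)
* `trM_Rf`, `int_Rf` : `∫ tr Rf = ∫ ct tr (cur h)`
* `int_symm` : symmetry of the Laplacian
* `int_abs_ue` : `∫ |ue ε| ≤ B` uniformly in `0 < ε ≤ 1`
-/

set_option autoImplicit false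
set_option linter.unusedSectionVars false

open Set Filter Topology Complex MeasureTheory
open scoped ContDiff Matrix ComplexConjugate ComplexOrder

namespace Crest.Agent.R281.Mov_625

open Crest.Agent.R275 Crest.Agent.R275.Geo Crest.Agent.R275.Core144 Crest.Agent.R275.EDR890
open Crest.Agent.R273.Defs_333 Crest.Agent.R273.Hess_333 Crest.Agent.R273.HessB_333
open Crest.Agent.R273.HM_333 Crest.Agent.R273.Kah_333 Crest.Agent.R273.Vol_333
open Crest.Agent.R273.Vm_333
open Crest.Agent.R273.Green_5 Crest.Agent.R273.FIa0_597 Crest.Agent.R273.FIb0_597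
open Crest.Agent.R273.FIc0_597 Crest.Agent.R273 Crest.Agent.R273.AppA_834
open Crest.Agent.R273.TLd_201
open Crest.Agent.R281.Glob1_484 Crest.Agent.R281.Glob2_484

noncomputable section

variable {n N : ℕ} {M : Type} [TopologicalSpace M] {A : Atl n M} {L : LB A} {h : HM L}
  {C : Fin N → A.ι → M → ℂ}

/-- `log (∑|C_j|² + ε)` -/
def ue (h : HM L) (C : Fin N → A.ι → M → ℂ) (ε : ℝ) (x : M) : ℝ := Real.log (nrm h C x + ε)

/-- `N / (N + ε)` -/
def ct (h : HM L) (C : Fin N → A.ι → M → ℂ) (ε : ℝ) (x : M) : ℝ := nrm h C x / (nrm h C x + ε)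

/-- `∂∂̄ ue + ct · cur` -/
def Rf (h : HM L) (C : Fin N → A.ι → M → ℂ) (ε : ℝ) (i : A.ι) (x : M) :
    Matrix (Fin n) (Fin n) ℂ :=
  hsf A (ue h C ε) i x + ((ct h C ε x : ℝ) : ℂ) • cur h i x

theorem sm_ue (hC : ∀ j, IsHS L univ (C j)) {ε : ℝ} (hε : 0 < ε) : A.Sm (ue h C ε) :=
  sm_log_add (sm_nrm hC) (nrm_nonneg hC) hε

theorem sm_ct (hC : ∀ j, IsHS L univ (C j)) {ε : ℝ} (hε : 0 < ε) : A.Sm (ct h C ε) := fun i =>
  (sm_nrm (h' := h) hC i).div ((sm_nrm (h' := h) hC i).add contDiffOn_const) fun _ _ =>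
    (add_pos_of_nonneg_of_pos (nrm_nonneg hC _) hε).ne'

theorem ct_nonneg (hC : ∀ j, IsHS L univ (C j)) {ε : ℝ} (hε : 0 < ε) (x : M) :
    0 ≤ ct h C ε x :=
  div_nonneg (nrm_nonneg hC x) (add_pos_of_nonneg_of_pos (nrm_nonneg hC _) hε).le

theorem one_sub_ct (hC : ∀ j, IsHS L univ (C j)) {ε : ℝ} (hε : 0 < ε) (x : M) :
    1 - ct h C ε x = ε / (nrm h C x + ε) := by
  have := add_pos_of_nonneg_of_pos (nrm_nonneg (h' := h) hC x) hε
  unfold ct
  field_simp
  ring

theorem one_sub_ct_nonneg (hC : ∀ j, IsHS L univ (C j)) {ε : ℝ} (hε : 0 < ε) (x : M) :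
    0 ≤ 1 - ct h C ε x := by
  rw [one_sub_ct hC hε]
  exact div_nonneg hε.le (add_pos_of_nonneg_of_pos (nrm_nonneg hC _) hε).le

theorem ct_le_one (hC : ∀ j, IsHS L univ (C j)) {ε : ℝ} (hε : 0 < ε) (x : M) :
    ct h C ε x ≤ 1 := by
  linarith [one_sub_ct_nonneg (h := h) hC hε x]

/-- where `N > 0` -/
theorem Rf_eq (hC : ∀ j, IsHS L univ (C j)) {ε : ℝ} (hε : 0 < ε) {i : A.ι} {x : M}
    (hx : x ∈ (A.e i).source) (hN : 0 < nrm h C x) :
    Rf h C ε i x = (ct h C ε x : ℝ) • hess (fun z => Real.log (FS_333.sq (rd C i) z)) (A.e i x) +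
      (ε / (nrm h C x * (nrm h C x + ε) ^ 2) : ℝ) • Matrix.vecMulVec
          (gr (fun z => nrm h C ((A.e i).symm z)) (A.e i x))
          (star (gr (fun z => nrm h C ((A.e i).symm z)) (A.e i x))) := by
  have hz := (A.e i).map_source hx
  have hUz : ContDiffAt ℝ ∞ (fun z => nrm h C ((A.e i).symm z)) (A.e i x) :=
    sm_contDiffAt (sm_nrm hC) i hz
  have hp' : 0 < (fun z => nrm h C ((A.e i).symm z)) (A.e i x) := by
    simpa only [(A.e i).left_inv hx] using hN
  have h1 := hess_log_cmp hε.le hUz hp'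
  simp only [(A.e i).left_inv hx] at h1
  have h2 : hsf A (ue h C ε) i x =
      (ct h C ε x : ℝ) • hsf A (fun y => Real.log (nrm h C y)) i x +
      (ε / (nrm h C x * (nrm h C x + ε) ^ 2) : ℝ) • Matrix.vecMulVec
        (gr (fun z => nrm h C ((A.e i).symm z)) (A.e i x))
        (star (gr (fun z => nrm h C ((A.e i).symm z)) (A.e i x))) := by
    unfold hsf
    exact h1
  have h3 : ((ct h C ε x : ℝ) : ℂ) • cur h i x = (ct h C ε x : ℝ) • cur h i x := by
    ext a b
    simp
  unfold Rf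
  rw [h2, hsf_log hC hx hN, smul_sub, h3]
  abel

theorem Rf_psd (hC : ∀ j, IsHS L univ (C j)) {ε : ℝ} (hε : 0 < ε) {i : A.ι} {x : M}
    (hx : x ∈ (A.e i).source) : (Rf h C ε i x).PosSemidef := by
  have hS := sm_ue (h := h) hC hε
  have hpos : ∀ y ∈ (A.e i).source, 0 < nrm h C y → (Rf h C ε i y).PosSemidef := by
    intro y hy hNy
    rw [Rf_eq hC hε hy hNy]
    have h4 : 0 ≤ ε / (nrm h C y * (nrm h C y + ε) ^ 2) := by positivity
    exact ((lev_log_sq_nonneg hC hy hNy).smul (ct_nonneg hC hε y)).add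
      ((Matrix.posSemidef_vecMulVec_self_star _).smul h4)
  by_cases hx' : ∃ᶠ y in 𝓝 x, 0 < nrm h C y
  · -- closure
    have hcont : ContinuousAt (fun y => Rf h C ε i y) x := by
      refine continuousAt_pi.2 fun a => continuousAt_pi.2 fun b => ?_
      have h1 : A.SmAt i (fun y => (Rf h C ε i y) a b) := by
        have h5 : A.SmAt i (fun y => ((ct h C ε y : ℝ) : ℂ)) := 
          Complex.ofRealCLM.contDiff.comp_contDiffOn (sm_ct hC hε i)
        exact ((hsf_cf hS).sm i a b).add (h5.mul (cur_smooth h i a b))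
      have h2 : ContinuousAt (fun z => (fun y => (Rf h C ε i y) a b) ((A.e i).symm z))
          (A.e i x) :=
        (ContDiffOn.continuousOn h1).continuousAt
          ((A.e i).open_target.mem_nhds ((A.e i).map_source hx))
      have h3 := ContinuousAt.comp (f := fun y => A.e i y) h2 ((A.e i).continuousAt hx)
      refine h3.congr ?_
      filter_upwards [(A.e i).open_source.mem_nhds hx] with y hy
      simp only [Function.comp, (A.e i).left_inv hy]
    have h5 : ∃ᶠ y in 𝓝 x, (Rf h C ε i y) ∈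
          {X : Matrix (Fin n) (Fin n) ℂ | X.PosSemidef} :=
      (hx'.and_eventually ((A.e i).open_source.mem_nhds hx)).mono
        fun y hy => hpos y hy.2 hy.1
    exact TVolA_332.isClosed_psd.mem_of_frequently_of_tendsto h5 hcont
  · rw [not_frequently] at hx'
    have h2 : hsf A (ue h C ε) i x = 0 := by
      unfold hsf
      have h3 : (fun z => ue h C ε ((A.e i).symm z)) =ᶠ[𝓝 (A.e i x)]
          fun _ => Real.log ε := by
        have hc : Tendsto (A.e i).symm (𝓝 (A.e i x)) (𝓝 x) := by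
          have := (A.e i).continuousAt_symm ((A.e i).map_source hx)
          rwa [ContinuousAt, (A.e i).left_inv hx] at this
        filter_upwards [hc.eventually hx'] with z hz
        unfold ue
        rw [le_antisymm (not_lt.1 hz) (nrm_nonneg hC _), zero_add]
      rw [hess_congr h3]
      ext a b
      rw [hess_apply]
      have h4 : wd (true, b) (cu fun _ : Cn n => Real.log ε) = fun _ => 0 := by
        funext w
        exact wd_const _ _ _
      rw [h4, wd_const]
      rfl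
    have h6 : ct h C ε x = 0 := by
      unfold ct
      rw [le_antisymm (not_lt.1 hx'.self_of_nhds) (nrm_nonneg hC _), zero_div]
    unfold Rf
    rw [h2, h6, zero_add, Complex.ofReal_zero, zero_smul]
    exact Matrix.PosSemidef.zero

theorem tf_Rf (hC : ∀ j, IsHS L univ (C j)) {ε : ℝ} (hε : 0 < ε) : TF A (Rf h C ε) where
  sm i a b := by
    have h5 : A.SmAt i (fun y => ((ct h C ε y : ℝ) : ℂ)) := 
          Complex.ofRealCLM.contDiff.comp_contDiffOn (sm_ct hC hε i)
    exact ((hsf_cf (sm_ue hC hε)).sm i a b).add (h5.mul (cur_smooth h i a b))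
  tr i j x hx := by
    unfold Rf
    rw [(tf_hsf (sm_ue hC hε)).tr i j x hx, (tf_cur h).tr i j x hx, Matrix.mul_add,
      Matrix.add_mul, Matrix.mul_smul, Matrix.smul_mul]

theorem trM_Rf (K : Kah A) (ε : ℝ) (x : M) :
    trM K (Rf h C ε) x = Lap K (ue h C ε) x + ct h C ε x * trM K (cur h) x := by
  unfold Lap trM trC Rf
  rw [Matrix.mul_add, Matrix.trace_add, Matrix.mul_smul, Matrix.trace_smul, smul_eq_mul,
    Complex.add_re, Complex.re_ofReal_mul]

theorem grK_comm (K : Kah A) (φ u : M → ℝ) (x : M) :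
    GreenM_5.grK K φ u x = GreenM_5.grK K u φ x := by
  unfold GreenM_5.grK GreenM_5.gc
  rw [← Complex.conj_re, map_sum, Finset.sum_congr rfl fun a _ => map_sum _ _ _,
    Finset.sum_comm]
  congr 1
  refine Finset.sum_congr rfl fun b _ => Finset.sum_congr rfl fun a _ => ?_
  have hH := ((K.pos _ x (GreenM_5.mem_ci (A := A) x)).inv).isHermitian
  have h1 : conj ((K.g (GreenM_5.ci A x) x)⁻¹ b a) = (K.g (GreenM_5.ci A x) x)⁻¹ a b :=
    hH.apply a b
  rw [map_mul, map_mul, h1, GreenG_5.db_ofReal, GreenG_5.db_ofReal, Complex.conj_conj]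
  ring

section int

variable [T2Space M] [CompactSpace M] [Fintype A.ι] [MeasurableSpace M] [BorelSpace M]

theorem Lap_eq_lapK (K : Kah A) {u : M → ℝ} (hu : A.Sm u) (x : M) :
    Lap K u x = GreenM_5.lapK K u x := by
  rw [Lap_read K hu (mem_ch A x), GreenM_5.lapK_eq K hu (mem_ch A x)]
  rfl

theorem int_symm (P : Part A) (K : Kah A) {φ u : M → ℝ} (hφ : A.Sm φ) (hu : A.Sm u) :
    ∫ x, φ x * Lap K u x ∂(vm (volK K)) = ∫ x, u x * Lap K φ x ∂(vm (volK K)) := by
  have h1 := GreenM_5.integral_mul_lapK K P hφ hu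
  have h2 := GreenM_5.integral_mul_lapK K P hu hφ
  simp only [Lap_eq_lapK K hu, Lap_eq_lapK K hφ]
  rw [h1, h2]
  simp only [grK_comm K φ u]

theorem int_Rf (P : Part A) (K : Kah A) (hC : ∀ j, IsHS L univ (C j)) {ε : ℝ} (hε : 0 < ε) :
    ∫ x, trM K (Rf h C ε) x ∂(vm (volK K)) =
      ∫ x, ct h C ε x * trM K (cur h) x ∂(vm (volK K)) := by
  simp only [trM_Rf]
  have c1 : Continuous fun x => ct h C ε x * trM K (cur h) x :=
    (cont_sm (sm_ct hC hε)).mul (cont_trM K (tf_cur h))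
  rw [integral_add (integrable_cont _ (cont_sm (sm_Lap K (sm_ue hC hε))))
    (integrable_cont _ c1), int_lap P K (sm_ue hC hε), zero_add]

/-- bound of a continuous function -/
theorem exists_bd {f : M → ℝ} (hf : Continuous f) : ∃ B, 0 ≤ B ∧ ∀ x, |f x| ≤ B := by
  obtain ⟨B, hB⟩ := isCompact_univ.exists_bound_of_continuousOn hf.continuousOn
  exact ⟨max B 0, le_max_right _ _, fun x => (hB x (mem_univ x)).trans (le_max_left _ _)⟩

/-- **abstract `L¹` bound**: `u ≤ U₀`, `Lap u ≥ -B₁`, `u ≥ -D` on `{c ≤ F}` -/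
theorem l1_bound [ConnectedSpace M] (P : Part A) (K : Kah A) {F : M → ℝ} (hF : A.Sm F) {x₁ : M}
    {c : ℝ} (hc0 : 0 < c) (hx₁ : 2 * c ≤ F x₁) (U₀ B₁ D : ℝ) (hU₀ : 0 ≤ U₀) (hB₁ : 0 ≤ B₁) :
    ∃ B, ∀ u : M → ℝ, A.Sm u → (∀ x, u x ≤ U₀) → (∀ x, -B₁ ≤ Lap K u x) →
      (∀ x, c ≤ F x → -D ≤ u x) → ∫ x, |u x| ∂(vm (volK K)) ≤ B := by
  have hfin := isFinite_vm (volK K)
  have hop := isOpenPos_vm (volK K)
  set μ := vm (volK K) with hμ
  have ic : ∀ {f : M → ℝ}, Continuous f → Integrable f μ := fun hf => integrable_cont _ hf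
  -- the bump function
  set g : ℝ → ℝ := fun t => Real.smoothTransition (t / c - 1) with hg
  have hgs : ContDiff ℝ ∞ g :=
    Real.smoothTransition.contDiff.comp ((contDiff_id.div_const c).sub contDiff_const)
  set η : M → ℝ := fun x => g (F x) with hη
  have hηs : A.Sm η := sm_comp hgs hF
  have hη0 : ∀ x, 0 ≤ η x := fun x => Real.smoothTransition.nonneg _
  have hη1 : ∀ x, η x ≤ 1 := fun x => Real.smoothTransition.le_one _
  have hηsup : ∀ x, F x ≤ c → η x = 0 := by
    intro x hx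
    refine Real.smoothTransition.zero_of_nonpos ?_
    rw [sub_nonpos, div_le_one hc0]
    exact hx
  have cη : Continuous η := cont_sm hηs
  have hη1' : η x₁ = 1 := by
    refine Real.smoothTransition.one_of_one_le ?_
    have : 2 ≤ F x₁ / c := by rw [le_div_iff₀ hc0]; exact hx₁
    linarith
  set m : ℝ := ∫ x, η x ∂μ with hm
  have hm0 : 0 < m := by
    rw [hm]
    refine cη.integral_pos_of_hasCompactSupport_nonneg_nonzero
      (HasCompactSupport.of_compactSpace _) hη0 (x := x₁) ?_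
    rw [hη1']; exact one_ne_zero
  set V : ℝ := μ.real univ with hV
  have hV0 : 0 < V := by
    have h1 : m ≤ V := by
      have := integral_mono (ic cη) (integrable_const (μ := μ) (1 : ℝ)) hη1
      rw [integral_const, smul_eq_mul, mul_one] at this
      exact this
    linarith
  -- the solution of `Δφ = η - m/V`
  have hF' : A.Sm (fun x => η x - m / V) := fun i => (hηs i).sub contDiffOn_const
  have hF0 : ∫ x, (η x - m / V) ∂μ = 0 := by
    rw [integral_sub (ic cη) (integrable_const _), integral_const, smul_eq_mul,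
      ← hm, ← hV]
    field_simp
    ring
  obtain ⟨φ, hφs, hφ⟩ := CLin_933.lin_zero K P hF' hF0
  have cφ : Continuous φ := cont_sm hφs
  obtain ⟨Bφ, hBφ0, hBφ⟩ := exists_bd cφ
  have hφ' : ∀ x, Lap K φ x = η x - m / V := fun x => by rw [Lap_eq_lapK K hφs, hφ]
  refine ⟨2 * U₀ * V + V / m * (D * m + 2 * Bφ * B₁ * V), fun u su hup hL hlow => ?_⟩
  have cu : Continuous u := cont_sm su
  have cL : Continuous (Lap K u) := cont_sm (sm_Lap K su)
  have e1 : ∫ x, φ x * Lap K u x ∂μ = ∫ x, u x * Lap K φ x ∂μ := int_symm P K hφs su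
  have h5 : ∫ x, φ x * Lap K u x ∂μ ≤ 2 * Bφ * B₁ * V := by
    have h6 : ∀ x, φ x * Lap K u x ≤ Bφ * Lap K u x + 2 * Bφ * B₁ := by
      intro x
      have h7 := abs_le.1 (hBφ x)
      have h8 := hL x
      have h9 : 0 ≤ (Bφ - φ x) * (Lap K u x + B₁) :=
        mul_nonneg (by linarith [h7.2]) (by linarith)
      have h10 : 0 ≤ (Bφ + φ x) * B₁ := mul_nonneg (by linarith [h7.1]) hB₁
      linarith
    have i1 : Integrable (fun x => φ x * Lap K u x) μ := ic (cφ.mul cL)
    have i2 : Integrable (fun x => Bφ * Lap K u x) μ := (ic cL).const_mul _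
    have h11 := integral_mono i1 (i2.add (integrable_const (2 * Bφ * B₁))) h6
    have h12 : ∫ x, (Bφ * Lap K u x + 2 * Bφ * B₁) ∂μ = 2 * Bφ * B₁ * V := by
      rw [integral_add i2 (integrable_const _), integral_const_mul, int_lap P K su, mul_zero,
        zero_add, integral_const, smul_eq_mul, ← hV, mul_comm V]
    exact h11.trans h12.le
  have i3 : Integrable (fun x => u x * η x) μ := ic (cu.mul cη)
  have e2 : ∫ x, u x * Lap K φ x ∂μ = (∫ x, u x * η x ∂μ) - m / V * ∫ x, u x ∂μ := by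
    have e3 : (fun x => u x * Lap K φ x) = fun x => u x * η x - m / V * u x := by
      funext x
      rw [hφ' x]; ring
    rw [e3, integral_sub i3 ((ic cu).const_mul _), integral_const_mul]
  have h8 : -(D * m) ≤ ∫ x, u x * η x ∂μ := by
    have h9 : ∀ x, -(D * η x) ≤ u x * η x := by
      intro x
      by_cases hx : F x ≤ c
      · rw [hηsup x hx]; simp
      · push Not at hx
        have h10 := hlow x hx.le
        have h11 := mul_nonneg (by linarith : 0 ≤ u x + D) (hη0 x)
        linarith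
    have h10 := integral_mono ((ic cη).const_mul D).neg i3 h9
    have h11 : ∫ x, -(D * η x) ∂μ = -(D * m) := by
      rw [integral_neg, integral_const_mul, ← hm]
    exact h11.symm.le.trans h10
  have h12 : -(V / m * (D * m + 2 * Bφ * B₁ * V)) ≤ ∫ x, u x ∂μ := by
    rw [e1, e2] at h5
    have h13 : m / V * -(V / m * (D * m + 2 * Bφ * B₁ * V)) ≤ m / V * ∫ x, u x ∂μ := by
      have : m / V * -(V / m * (D * m + 2 * Bφ * B₁ * V)) = -(D * m + 2 * Bφ * B₁ * V) := by
        field_simp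
      rw [this]
      linarith
    exact le_of_mul_le_mul_left h13 (by positivity)
  have h14 : ∀ x, |u x| ≤ 2 * U₀ - u x := by
    intro x
    have h15 := hup x
    rcases abs_cases (u x) with h16 | h16 <;> linarith
  have h15 := integral_mono (ic cu.abs) ((integrable_const (2 * U₀)).sub (ic cu)) h14
  have h16 : ∫ x, (2 * U₀ - u x) ∂μ = 2 * U₀ * V - ∫ x, u x ∂μ := by
    rw [integral_sub (integrable_const _) (ic cu), integral_const, smul_eq_mul, ← hV,
      mul_comm V]
  have h17 : ∫ x, |u x| ∂μ ≤ 2 * U₀ * V - ∫ x, u x ∂μ := h15.trans h16.le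
  linarith

/-- **uniform `L¹` bound** -/
theorem int_abs_ue [ConnectedSpace M] (P : Part A) (K : Kah A) (hC : ∀ j, IsHS L univ (C j))
    (hne : ∃ x, 0 < nrm h C x) :
    ∃ B, ∀ ε : ℝ, 0 < ε → ε ≤ 1 → ∫ x, |ue h C ε x| ∂(vm (volK K)) ≤ B := by
  obtain ⟨x₁, hx₁⟩ := hne
  obtain ⟨BN, hBN0, hBN⟩ := exists_bd (cont_sm (sm_nrm (h' := h) hC))
  obtain ⟨B1, hB10, hB1⟩ := exists_bd (cont_trM K (tf_cur h))
  obtain ⟨B, hB⟩ := l1_bound P K (sm_nrm (h' := h) hC) (c := nrm h C x₁ / 2) (x₁ := x₁)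
    (by positivity) (by linarith) (Real.log (BN + 1)) B1 (-Real.log (nrm h C x₁ / 2))
    (Real.log_nonneg (by linarith)) hB10
  refine ⟨B, fun ε hε hε1 => hB _ (sm_ue hC hε) (fun x => ?_) (fun x => ?_) (fun x hx => ?_)⟩
  · refine Real.log_le_log (add_pos_of_nonneg_of_pos (nrm_nonneg hC _) hε) ?_
    have := (abs_le.1 (hBN x)).2
    linarith
  · have h1 := trM_nonneg K (fun i x hx => Rf_psd (h := h) hC hε hx) x
    rw [trM_Rf] at h1
    have h2 := ct_nonneg (h := h) hC hε x
    have h3 := ct_le_one (h := h) hC hε x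
    have h4 := abs_le.1 (hB1 x)
    nlinarith
  · rw [neg_neg]
    exact Real.log_le_log (by positivity) (by linarith)

end int

end

end Crest.Agent.R281.Mov_625
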