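import Crest.Agent.R281.Mov2_625
import Crest.Agent.R281.Mov3_625
import Crest.Agent.R281.Ti7_846

/-!
# Row 281, task MOV (helper625), part 4: chart independence, null sets, `log ∑|C_j|² ∈ L¹`

* `bl_indep`, `tr2_indep`, `bl_real`, `cont_q2`
* `setInt_chart`, `setLint_chart` : integrals over a chart with respect to `lc n`
* `Star A Z` : almost every complex line of `n` independent directions misses `Z`, locally
* `Star.ae` : `Z` is a null set; `integrable_log`
-/

set_option autoImplicit false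
set_option linter.unusedSectionVars false

open Set Filter Topology Complex MeasureTheory Metric
open scoped ContDiff Matrix ComplexConjugate ComplexOrder ENNReal

namespace Crest.Agent.R281.Mov_625

open Crest.Agent.R275 Crest.Agent.R275.Geo Crest.Agent.R275.Core144 Crest.Agent.R275.EDR890
open Crest.Agent.R275.C1d194 Crest.Agent.R275.Pai323
open Crest.Agent.R273.Defs_333 Crest.Agent.R273.Hess_333 Crest.Agent.R273.HessB_333
open Crest.Agent.R273.HM_333 Crest.Agent.R273.Kah_333 Crest.Agent.R273.Vol_333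
open Crest.Agent.R273.Vm_333
open Crest.Agent.R273.Green_5 Crest.Agent.R273.FIa0_597 Crest.Agent.R273.FIb0_597
open Crest.Agent.R273.FIc0_597 Crest.Agent.R273 Crest.Agent.R273.AppA_834
open Crest.Agent.R273.TLd_201
open Crest.Agent.R281.Glob1_484 Crest.Agent.R281.Glob2_484 Crest.Agent.R281.Ti_846

noncomputable section

variable {n N : ℕ} {M : Type} [TopologicalSpace M] {A : Atl n M} {L : LB A} {h : HM L}
  {C : Fin N → A.ι → M → ℂ}

/-! ### chart independence -/

/-- the endomorphism `g⁻¹ S` -/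
def en (K : Kah A) (S : A.ι → M → Matrix (Fin n) (Fin n) ℂ) (i : A.ι) (x : M) :
    Matrix (Fin n) (Fin n) ℂ := (K.g i x)⁻¹ * S i x

theorem en_conj (K : Kah A) {S : A.ι → M → Matrix (Fin n) (Fin n) ℂ} (hS : TF A S) {i j : A.ι}
    {x : M} (hx : x ∈ (A.e i).source ∩ (A.e j).source) :
    en K S i x = ((Jm A i j x).map conj)⁻¹ * en K S j x * (Jm A i j x).map conj := by
  unfold en
  rw [K.tr i j x hx, hS.tr i j x hx]
  set J := Jm A i j x with hJ
  have h1 : IsUnit (Jᵀ).det := by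
    rw [Matrix.det_transpose]; exact (det_Jm_ne hx).isUnit
  rw [Matrix.mul_inv_rev, Matrix.mul_inv_rev]
  calc (J.map conj)⁻¹ * ((K.g j x)⁻¹ * (Jᵀ)⁻¹) * (Jᵀ * S j x * J.map conj)
      = (J.map conj)⁻¹ * ((K.g j x)⁻¹ * (((Jᵀ)⁻¹ * Jᵀ) * S j x)) * J.map conj := by
        simp only [Matrix.mul_assoc]
    _ = _ := by rw [Matrix.nonsing_inv_mul _ h1, Matrix.one_mul]

theorem tr2_indep (K : Kah A) {S S' : A.ι → M → Matrix (Fin n) (Fin n) ℂ} (hS : TF A S)
    (hS' : TF A S') {i j : A.ι} {x : M} (hx : x ∈ (A.e i).source ∩ (A.e j).source) :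
    (en K S i x * en K S' i x).trace = (en K S j x * en K S' j x).trace := by
  have h2 : IsUnit ((Jm A i j x).map conj).det := (det_conj_ne hx).isUnit
  rw [en_conj K hS hx, en_conj K hS' hx]
  set P := (Jm A i j x).map conj with hP
  calc (P⁻¹ * en K S j x * P * (P⁻¹ * en K S' j x * P)).trace
      = (P⁻¹ * (en K S j x * (P * P⁻¹) * en K S' j x * P)).trace := by
        simp only [Matrix.mul_assoc]
    _ = (P⁻¹ * (en K S j x * en K S' j x * P)).trace := by
        rw [Matrix.mul_nonsing_inv _ h2, Matrix.mul_one]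
    _ = ((en K S j x * en K S' j x * P) * P⁻¹).trace := Matrix.trace_mul_comm _ _
    _ = _ := by rw [Matrix.mul_assoc, Matrix.mul_nonsing_inv _ h2, Matrix.mul_one]

theorem bl_indep (K : Kah A) {S S' : A.ι → M → Matrix (Fin n) (Fin n) ℂ} (hS : TF A S)
    (hS' : TF A S') {i j : A.ι} {x : M} (hx : x ∈ (A.e i).source ∩ (A.e j).source) :
    bl (K.g i x) (S i x) (S' i x) = bl (K.g j x) (S j x) (S' j x) := by
  have h1 := trC_indep K hS hx
  have h2 := trC_indep K hS' hx
  have h3 := tr2_indep K hS hS' hx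
  unfold trC at h1 h2
  unfold en at h3
  unfold bl
  rw [h1, h2, h3]

theorem tr2_real (K : Kah A) {S S' : A.ι → M → Matrix (Fin n) (Fin n) ℂ} {i : A.ι} {x : M}
    (hx : x ∈ (A.e i).source) (hS : (S i x).IsHermitian) (hS' : (S' i x).IsHermitian) :
    conj (en K S i x * en K S' i x).trace = (en K S i x * en K S' i x).trace := by
  have hg := ((K.pos i x hx).inv).isHermitian
  have h1 := Matrix.trace_conjTranspose (en K S i x * en K S' i x)
  have h2 : (en K S i x * en K S' i x)ᴴ = S' i x * (K.g i x)⁻¹ * (S i x * (K.g i x)⁻¹) := by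
    unfold en
    rw [Matrix.conjTranspose_mul, Matrix.conjTranspose_mul, Matrix.conjTranspose_mul, hg.eq,
      hS.eq, hS'.eq]
  rw [starRingEnd_apply, ← h1, h2]
  unfold en
  calc (S' i x * (K.g i x)⁻¹ * (S i x * (K.g i x)⁻¹)).trace
      = ((S i x * (K.g i x)⁻¹) * (S' i x * (K.g i x)⁻¹)).trace := Matrix.trace_mul_comm _ _
    _ = ((S i x * (K.g i x)⁻¹ * S' i x) * (K.g i x)⁻¹).trace := by simp only [Matrix.mul_assoc]
    _ = ((K.g i x)⁻¹ * (S i x * (K.g i x)⁻¹ * S' i x)).trace := Matrix.trace_mul_comm _ _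
    _ = _ := by simp only [Matrix.mul_assoc]

theorem bl_real (K : Kah A) {S S' : A.ι → M → Matrix (Fin n) (Fin n) ℂ} {i : A.ι} {x : M}
    (hx : x ∈ (A.e i).source) (hS : (S i x).IsHermitian) (hS' : (S' i x).IsHermitian) :
    ((K.g i x)⁻¹ * S i x).trace * ((K.g i x)⁻¹ * S' i x).trace -
      ((K.g i x)⁻¹ * S i x * ((K.g i x)⁻¹ * S' i x)).trace =
      ((bl (K.g i x) (S i x) (S' i x) : ℝ) : ℂ) := by
  have hg := (K.pos i x hx).isHermitian
  have h1 := GreenM_5.trace_real hg hS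
  have h2 := GreenM_5.trace_real hg hS'
  have h3 := tr2_real K hx hS hS'
  unfold en at h3
  symm
  unfold bl
  refine Complex.conj_eq_iff_re.1 ?_
  rw [map_sub, map_mul, h3, ← h1, ← h2, Complex.conj_ofReal, Complex.conj_ofReal]

/-- `tr (g⁻¹S g⁻¹S')` as a function on `M` -/
def tr2M (K : Kah A) (S S' : A.ι → M → Matrix (Fin n) (Fin n) ℂ) (x : M) : ℝ :=
  ((en K S (ch A x) x * en K S' (ch A x) x).trace).re

theorem cont_tr2M (K : Kah A) {S S' : A.ι → M → Matrix (Fin n) (Fin n) ℂ} (hS : TF A S)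
    (hS' : TF A S') : Continuous (tr2M K S S') := by
  refine cont_sm (A := A) fun i => ?_
  have h1 : A.SmAt i (fun x => (en K S i x * en K S' i x).trace) := by
    have h2 : ∀ {S : A.ι → M → Matrix (Fin n) (Fin n) ℂ}, TF A S → ∀ a b,
        A.SmAt i (fun x => en K S i x a b) := by
      intro S hS a b
      have h3 : (fun x => en K S i x a b) = fun x => ∑ c, (K.g i x)⁻¹ a c * S i x c b := by
        funext x
        simp only [en, Matrix.mul_apply]
      rw [h3]
      exact ContDiffOn.sum fun c _ => (smAt_inv K i a c).mul (hS.sm i c b)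
    have h3 : (fun x => (en K S i x * en K S' i x).trace) =
        fun x => ∑ a, ∑ b, en K S i x a b * en K S' i x b a := by
      funext x
      simp only [Matrix.trace, Matrix.diag_apply, Matrix.mul_apply]
    rw [h3]
    exact ContDiffOn.sum fun a _ => ContDiffOn.sum fun b _ => (h2 hS a b).mul (h2 hS' b a)
  refine (Complex.reCLM.contDiff.comp_contDiffOn h1).congr fun z hz => ?_
  show ((en K S _ _ * en K S' _ _).trace).re = ((en K S i _ * en K S' i _).trace).re
  rw [tr2_indep K hS hS' ⟨mem_ch A _, (A.e i).map_target hz⟩]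

/-- `bl` as a function on `M` -/
def q2 (K : Kah A) (S S' : A.ι → M → Matrix (Fin n) (Fin n) ℂ) (x : M) : ℝ :=
  bl (K.g (ch A x) x) (S (ch A x) x) (S' (ch A x) x)

theorem q2_eq (K : Kah A) {S S' : A.ι → M → Matrix (Fin n) (Fin n) ℂ} (hS : TF A S)
    (hS' : TF A S') {i : A.ι} {x : M} (hx : x ∈ (A.e i).source) :
    q2 K S S' x = bl (K.g i x) (S i x) (S' i x) :=
  bl_indep K hS hS' ⟨mem_ch A x, hx⟩

/-! ### integrals over charts -/

section chart

variable [CompactSpace M] [T2Space M] [MeasurableSpace M] [BorelSpace M] [Countable A.ι]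

theorem emb_rc (n : ℕ) : MeasurableEmbedding ((rcE n).symm : (RI n → ℝ) → Cn n) :=
  (rcE n).symm.toContinuousLinearEquiv.toHomeomorph.measurableEmbedding

theorem setLint_chart (v : HM (KB A)⁻¹) (i : A.ι) {f : M → ℝ≥0∞} (hf : Measurable f) :
    ∫⁻ x in (A.e i).source, f x ∂(vm v) =
      ∫⁻ z in (A.e i).target, ENNReal.ofReal (v.w i ((A.e i).symm z)) *
        f ((A.e i).symm z) ∂(lc n) := by
  rw [setLIntegral_vm v i hf]
  unfold lc
  rw [(emb_rc n).restrict_map, (emb_rc n).lintegral_map]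
  rfl

theorem setInt_chart (v : HM (KB A)⁻¹) (i : A.ι) {f : M → ℝ} (hf : Continuous f) :
    ∫ x in (A.e i).source, f x ∂(vm v) =
      ∫ z in (A.e i).target, v.w i ((A.e i).symm z) * f ((A.e i).symm z) ∂(lc n) := by
  rw [setIntegral_vm v i hf.aestronglyMeasurable, setIntegral_lc]
  rfl

/-- almost every complex line of `n` independent directions misses `Z`, locally -/
def Star (A : Atl n M) (Z : Set M) : Prop :=
  ∀ i, ∀ z₀ ∈ (A.e i).target, ∃ r > 0, ball z₀ r ⊆ (A.e i).target ∧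
    ∃ w : Module.Basis (Fin n) ℂ (Cn n), ∀ a, ∀ᵐ z ∂(lc n), z ∈ ball z₀ r →
      ∀ s : ℂ, z + s • w a ∈ ball z₀ r → (A.e i).symm (z + s • w a) ∉ Z

theorem Star.null {Z : Set M} (hS : Star A Z) (hn : 0 < n) (hZ : IsClosed Z)
    (v : HM (KB A)⁻¹) : vm v Z = 0 := by
  refine hZ.isCompact.measure_zero_of_nhdsWithin fun x hx => ?_
  have hxs := mem_ch A x
  set i := ch A x with hi
  obtain ⟨r, hr, hball, w, hw⟩ := hS i (A.e i x) ((A.e i).map_source hxs)
  set V : Set M := (A.e i).source ∩ (A.e i) ⁻¹' ball (A.e i x) r with hV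
  have hVo : IsOpen V := (A.e i).isOpen_inter_preimage isOpen_ball
  have hVx : x ∈ V := ⟨hxs, mem_ball_self hr⟩
  refine ⟨Z ∩ V, inter_mem_nhdsWithin _ (hVo.mem_nhds hVx), ?_⟩
  have hm : MeasurableSet (Z ∩ V) := hZ.measurableSet.inter hVo.measurableSet
  have h1 : vm v (Z ∩ V) = ∫⁻ x in (A.e i).source, (Z ∩ V).indicator 1 x ∂(vm v) := by
    rw [lintegral_indicator_one hm, Measure.restrict_apply hm]
    congr 1
    exact (inter_eq_left.2 fun y hy => hy.2.1).symm
  rw [h1, setLint_chart v i (measurable_one.indicator hm)]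
  have h2 : ∀ᵐ z ∂(lc n).restrict (A.e i).target, ENNReal.ofReal (v.w i ((A.e i).symm z)) *
      (Z ∩ V).indicator (1 : M → ℝ≥0∞) ((A.e i).symm z) = 0 := by
    rw [ae_restrict_iff' (A.e i).open_target.measurableSet]
    filter_upwards [hw ⟨0, hn⟩] with z hz hzt
    have h3 : (A.e i).symm z ∉ Z ∩ V := by
      rintro ⟨h4, h5⟩
      have h6 : z ∈ ball (A.e i x) r := by
        have := h5.2
        rwa [mem_preimage, (A.e i).right_inv hzt] at this
      have h7 := hz h6 0 (by simpa using h6)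
      rw [zero_smul, add_zero] at h7
      exact h7 h4
    rw [indicator_of_notMem h3, mul_zero]
  rw [lintegral_congr_ae h2, lintegral_zero]

theorem Star.ae_pos {Z : Set M} (hS : Star A Z) (hn : 0 < n) (hZ : IsClosed Z)
    (v : HM (KB A)⁻¹) : ∀ᵐ x ∂(vm v), x ∉ Z := by
  rw [ae_iff]
  simpa using hS.null hn hZ v

/-- the sequence of parameters -/
def ek (k : ℕ) : ℝ := 1 / ((k : ℝ) + 1)

theorem ek_pos (k : ℕ) : 0 < ek k := by unfold ek; positivity

theorem ek_le (k : ℕ) : ek k ≤ 1 := by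
  unfold ek
  rw [div_le_one (by positivity)]
  linarith [(Nat.cast_nonneg k : (0 : ℝ) ≤ k)]

theorem ek_tend : Tendsto ek atTop (𝓝 0) := tendsto_one_div_add_atTop_nhds_zero_nat

theorem ue_tend {x : M} (hx : 0 < nrm h C x) :
    Tendsto (fun k => ue h C (ek k) x) atTop (𝓝 (Real.log (nrm h C x))) := by
  have h1 : Tendsto (fun k => nrm h C x + ek k) atTop (𝓝 (nrm h C x + 0)) :=
    tendsto_const_nhds.add ek_tend
  rw [add_zero] at h1
  exact ((Real.continuousAt_log hx.ne').tendsto).comp h1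

theorem lint_log {μ : Measure M} [IsFiniteMeasure μ] (hC : ∀ j, IsHS L univ (C j))
    (hae : ∀ᵐ x ∂μ, 0 < nrm h C x) {B : ℝ}
    (hB : ∀ ε : ℝ, 0 < ε → ε ≤ 1 → ∫ x, |ue h C ε x| ∂μ ≤ B) :
    ∫⁻ x, ‖Real.log (nrm h C x)‖ₑ ∂μ ≤ ENNReal.ofReal B := by
  have cu : ∀ k, Continuous (ue h C (ek k)) := fun k => cont_sm (sm_ue hC (ek_pos k))
  have h1 : ∀ k, ∫⁻ x, ‖ue h C (ek k) x‖ₑ ∂μ ≤ ENNReal.ofReal B := by
    intro k
    have hi : Integrable (ue h C (ek k)) μ :=
      (cu k).integrable_of_hasCompactSupport (HasCompactSupport.of_compactSpace _)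
    rw [← ofReal_integral_norm_eq_lintegral_enorm hi]
    exact ENNReal.ofReal_le_ofReal (hB _ (ek_pos k) (ek_le k))
  calc ∫⁻ x, ‖Real.log (nrm h C x)‖ₑ ∂μ
      = ∫⁻ x, liminf (fun k => ‖ue h C (ek k) x‖ₑ) atTop ∂μ := by
        refine lintegral_congr_ae ?_
        filter_upwards [hae] with x hx
        exact ((continuous_enorm.tendsto _).comp (ue_tend hx)).liminf_eq.symm
    _ ≤ liminf (fun k => ∫⁻ x, ‖ue h C (ek k) x‖ₑ ∂μ) atTop :=
        lintegral_liminf_le fun k => (cu k).measurable.enorm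
    _ ≤ ENNReal.ofReal B := by
        refine liminf_le_of_le (by isBoundedDefault) fun b hb => ?_
        obtain ⟨k, hk⟩ := hb.exists
        exact hk.trans (h1 k)

/-- local integrability in a chart -/
theorem intOn_chart (v : HM (KB A)⁻¹) (i : A.ι) {f : M → ℝ} (hf : Measurable f) {B : ℝ}
    (hB : ∫⁻ x, ‖f x‖ₑ ∂(vm v) ≤ ENNReal.ofReal B) {Q : Set (Cn n)} (hQ : IsCompact Q)
    (hQt : Q ⊆ (A.e i).target) :
    IntegrableOn (fun z => f ((A.e i).symm z)) Q (lc n) := by
  have hw : ContinuousOn (fun z => v.w i ((A.e i).symm z)) Q :=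
    (ContDiffOn.continuousOn (v.sm i)).mono hQt
  obtain ⟨c, hc0, hc⟩ : ∃ c > 0, ∀ z ∈ Q, c ≤ v.w i ((A.e i).symm z) := by
    rcases Q.eq_empty_or_nonempty with hQe | hQe
    · exact ⟨1, one_pos, fun z hz => by rw [hQe] at hz; exact absurd hz (notMem_empty z)⟩
    · obtain ⟨z, hz, hmin⟩ := hQ.exists_isMinOn hQe hw
      exact ⟨_, v.pos i _ ((A.e i).map_target (hQt hz)), fun y hy => hmin hy⟩
  have hsm : AEStronglyMeasurable (fun z => f ((A.e i).symm z)) ((lc n).restrict Q) := by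
    have h1 : AEMeasurable (A.e i).symm ((lc n).restrict Q) :=
      ((A.e i).continuousOn_symm.mono hQt).aemeasurable hQ.measurableSet
    exact (hf.comp_aemeasurable h1).aestronglyMeasurable
  refine ⟨hsm, ?_⟩
  have h2 := setLint_chart v i hf.enorm
  have h3 : ∫⁻ x in (A.e i).source, ‖f x‖ₑ ∂(vm v) ≤ ENNReal.ofReal B :=
    (setLIntegral_le_lintegral _ _).trans hB
  rw [h2] at h3
  have h4 : ENNReal.ofReal c * ∫⁻ z in Q, ‖f ((A.e i).symm z)‖ₑ ∂(lc n) ≤ ENNReal.ofReal B := by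
    rw [← lintegral_const_mul' _ _ ENNReal.ofReal_ne_top]
    refine le_trans ?_ ((lintegral_mono_set hQt).trans h3)
    refine setLIntegral_mono' hQ.measurableSet fun z hz => ?_
    exact mul_le_mul_left (ENNReal.ofReal_le_ofReal (hc z hz)) _
  unfold HasFiniteIntegral
  by_contra hinf
  rw [not_lt, top_le_iff] at hinf
  rw [hinf, ENNReal.mul_top (by simpa using hc0)] at h4
  exact absurd h4 (by simp)

end chart

end

end Crest.Agent.R281.Mov_625
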