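import Crest.Agent.R281.Kd7_22
import Crest.Agent.R281.Kd8_22
import Crest.Agent.R281.Kd5_22
import Crest.Agent.R281.Kd6_22
import Crest.Agent.R281.HkR8_835
import Crest.Agent.R281.Mov4_625

/-!
# Row 281, KAPPA-1 glue, part 9 (helper22): the fibres of a holomorphic tube

* `HTube.an_chart`, `HTube.bij`, `HTube.smI`
* `kah_per_ne`  : a Kaehler form has a period over the torus `T_b` which is not zero
* `q_zero`      : `Q (cur N) e = 0` for a bundle whose curvature has no periods over `T_b`
* `star_of_cop` : sections without common divisor ==> 625's `Star`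
-/

set_option autoImplicit false
set_option linter.unusedSectionVars false
set_option maxSynthPendingDepth 3

open Set Filter Topology Complex Module
open scoped ContDiff Matrix ComplexConjugate ComplexOrder

namespace Crest.Agent.R281.Kd_22

open Crest.Agent.R275 Crest.Agent.R275.Geo Crest.Agent.R275.Core144 Crest.Agent.R275.EDR890
open Crest.Agent.R273.Defs_333 Crest.Agent.R273.Kah_333 Crest.Agent.R273.HM_333
open Crest.Agent.R273.Hess_333 Crest.Agent.R273.HessB_333 Crest.Agent.R273.AppA_834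
open Crest.Agent.R281.HkR_835 Crest.Agent.R281.Ti_846 Crest.Agent.R281.Fuj3_207
open Crest.Agent.R281.Per_368 Crest.Agent.R281.Sc_413
open Crest.Agent.R281.Mov_625 (Star)

noncomputable section

variable {n : ℕ} {M : Type} [TopologicalSpace M] {A : Atl n M}

/-- analytic coordinates ==> analytic -/
theorem an_pi {G : Type*} [NormedAddCommGroup G] [NormedSpace ℂ G] {g : G → Cn n} {p : G}
    (h : ∀ k, AnalyticAt ℂ (fun q => g q k) p) : AnalyticAt ℂ g p := by
  have h1 : AnalyticAt ℂ (fun q => fun k => g q k) p := AnalyticAt.pi h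
  have h2 : AnalyticAt ℂ (EuclideanSpace.equiv (Fin n) ℂ).symm (fun k => g p k) :=
    (EuclideanSpace.equiv (Fin n) ℂ).symm.toContinuousLinearMap.analyticAt _
  exact AnalyticAt.comp (g := (EuclideanSpace.equiv (Fin n) ℂ).symm) (f := fun q => fun k => g q k)
    h2 h1

namespace HTube

variable {F B : Type} [NormedAddCommGroup F] [NormedSpace ℂ F] [NormedAddCommGroup B]
  [NormedSpace ℂ B]

theorem an_chart (T : HTube A F B) {p : F × B} (hp : p.2 ∈ T.Om) {i : A.ι}
    (hi : T.P p ∈ (A.e i).source) : AnalyticAt ℂ (fun q => A.e i (T.P q)) p := by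
  refine an_pi fun k => ?_
  have h1 : AnalyticAt ℂ (fun z : Cn n => z k) (A.e i (T.P p)) :=
    (EuclideanSpace.proj (𝕜 := ℂ) k).analyticAt _
  exact T.pull p hp _ (hm_chart hi h1)

theorem surj [FiniteDimensional ℂ F] [FiniteDimensional ℂ B] (T : HTube A F B) {p : F × B}
    (hp : p.2 ∈ T.Om) {i : A.ι} (hi : T.P p ∈ (A.e i).source) :
    Function.Surjective (fderiv ℂ (fun q => A.e i (T.P q)) p) := by
  obtain ⟨χ, h1, h2, h3, h4⟩ := T.inv p hp
  set b := Module.finBasis ℂ (F × B) with hb
  -- `χ` is analytic in the chart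
  have h5 : AnalyticAt ℂ (fun z => χ ((A.e i).symm z)) (A.e i (T.P p)) := by
    have h6 : ∀ k, AnalyticAt ℂ (fun z => b.repr (χ ((A.e i).symm z)) k) (A.e i (T.P p)) := by
      intro k
      have h7 : AnalyticAt ℂ (fun q : F × B => b.repr q k) p :=
        (LinearMap.toContinuousLinearMap (b.coord k)).analyticAt _
      exact h3 _ h7 i hi
    have h8 : (fun z => χ ((A.e i).symm z)) =
        fun z => ∑ k, b.repr (χ ((A.e i).symm z)) k • b k := by
      funext z
      exact (b.sum_repr _).symm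
    rw [h8]
    exact Finset.analyticAt_fun_sum _ fun k _ => (h6 k).smul analyticAt_const
  have hv : χ ((A.e i).symm (A.e i (T.P p))) = p := by rw [(A.e i).left_inv hi, h1]
  have h9 : DifferentiableAt ℂ (fun q => A.e i (T.P q))
      ((fun z => χ ((A.e i).symm z)) (A.e i (T.P p))) := by
    show DifferentiableAt ℂ (fun q => A.e i (T.P q)) (χ ((A.e i).symm (A.e i (T.P p))))
    rw [hv]; exact (T.an_chart hp hi).differentiableAt
  have h10 := fderiv_comp (A.e i (T.P p)) h9 h5.differentiableAt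
  have h11 : (fun q => A.e i (T.P q)) ∘ (fun z => χ ((A.e i).symm z)) =ᶠ[𝓝 (A.e i (T.P p))] id := by
    have h12 := (ev_iff hi).1 h4
    filter_upwards [h12, (A.e i).open_target.mem_nhds ((A.e i).map_source hi)] with z hz hz'
    show A.e i (T.P (χ ((A.e i).symm z))) = z
    rw [hz, (A.e i).right_inv hz']
  rw [h11.fderiv_eq, fderiv_id] at h10
  intro v
  refine ⟨fderiv ℂ (fun z => χ ((A.e i).symm z)) (A.e i (T.P p)) v, ?_⟩
  have h13 := congrArg (fun L => L v) h10
  simp only [ContinuousLinearMap.id_apply, ContinuousLinearMap.comp_apply] at h13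
  rw [hv] at h13
  exact h13.symm

theorem bij [FiniteDimensional ℂ F] [FiniteDimensional ℂ B] (T : HTube A F B)
    (hdim : finrank ℂ F + finrank ℂ B = n) {p : F × B}
    (hp : p.2 ∈ T.Om) {i : A.ι} (hi : T.P p ∈ (A.e i).source) :
    Function.Bijective (fderiv ℂ (fun q => A.e i (T.P q)) p) := by
  have h1 := T.surj hp hi
  refine ⟨?_, h1⟩
  have h2 : finrank ℂ (F × B) = finrank ℂ (Cn n) := by
    rw [Module.finrank_prod, hdim]; simp
  exact (LinearMap.injective_iff_surjective_of_finrank_eq_finrank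
    (f := (fderiv ℂ (fun q => A.e i (T.P q)) p).toLinearMap) h2).2 h1

theorem fib_an (T : HTube A F B) {b : B} (hb : b ∈ T.Om) {c : F} {i : A.ι}
    (hi : T.P (c, b) ∈ (A.e i).source) : AnalyticAt ℂ (fun c => A.e i (T.P (c, b))) c :=
  AnalyticAt.comp (g := fun q => A.e i (T.P q)) (f := fun c => (c, b)) (T.an_chart (p := (c, b)) hb hi)
    (analyticAt_id.prod analyticAt_const)

/-- the fibres are smooth maps to `M` -/
theorem smI (T : HTube A F B) {b : B} (hb : b ∈ T.Om) :
    SmI (ofAtl A) univ (fun c => T.P (c, b)) where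
  op := isOpen_univ
  cont := by
    refine continuousOn_univ.2 (continuous_iff_continuousAt.2 fun c => ?_)
    exact ContinuousAt.comp (g := T.P) (f := fun c => (c, b)) (T.cont (c, b) hb) (by fun_prop)
  sm i := by
    rintro c ⟨_, hc⟩
    exact ((T.fib_an hb hc).restrictScalars (𝕜 := ℝ)).contDiffAt.contDiffWithinAt

theorem fib_fderiv (T : HTube A F B) {b : B} (hb : b ∈ T.Om) {c : F} {i : A.ι}
    (hi : T.P (c, b) ∈ (A.e i).source) (u : F) :
    fderiv ℝ (fun c => A.e i (T.P (c, b))) c u = fderiv ℂ (fun q => A.e i (T.P q)) (c, b) (u, 0) := by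
  have h1 := (T.fib_an hb hi).differentiableAt
  have h2 : fderiv ℝ (fun c => A.e i (T.P (c, b))) c u =
      fderiv ℂ (fun c => A.e i (T.P (c, b))) c u := by
    rw [h1.fderiv_restrictScalars ℝ]; rfl
  rw [h2]
  have h3 := (T.an_chart (p := (c, b)) hb hi).differentiableAt.hasFDerivAt
  have h4 : HasFDerivAt (fun c : F => (c, b)) (ContinuousLinearMap.inl ℂ F B) c :=
    (hasFDerivAt_id c).prodMk (hasFDerivAt_const b c)
  have h5 := HasFDerivAt.comp (g := fun q => A.e i (T.P q)) (f := fun c => (c, b)) c h3 h4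
  have h6 := h5.fderiv
  have h7 : ((fun q => A.e i (T.P q)) ∘ fun c => (c, b)) = fun c => A.e i (T.P (c, b)) := rfl
  rw [h7] at h6
  rw [h6]; rfl

end HTube

variable {F B : Type} [NormedAddCommGroup F] [NormedSpace ℂ F] [NormedAddCommGroup B]
  [NormedSpace ℂ B] [FiniteDimensional ℂ F] [FiniteDimensional ℂ B]

/-- **a Kaehler form has a nonzero period on `T_b`** -/
theorem kah_per_ne [Nontrivial F] (T : HTube A F B) (hdim : finrank ℂ F + finrank ℂ B = n)
    (K : Kah A) {b : B} (hbO : b ∈ T.Om) {ι : Type*} [Fintype ι] (β : Basis ι ℝ F)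
    (hp : ∀ a c, T.P (c + β a, b) = T.P (c, b)) :
    ∃ z a c, per (pull (ofKah K).f2 (fun c => T.P (c, b))) z (β a) (β c) ≠ 0 := by
  borelize F
  have _ : FiniteDimensional ℝ F := FiniteDimensional.complexToReal F
  have hS := T.smI hbO
  obtain ⟨u, hu⟩ := exists_ne (0 : F)
  refine exists_per β (u := u) (v := I • u) ?_ ?_ ?_
  · exact continuousOn_univ.1 (hS.pull_smooth (ofKah K).f2).continuousOn
  · intro a x
    exact hS.pull_add _ (l := β a) (fun ζ _ => ⟨mem_univ _, hp a ζ⟩) (mem_univ x)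
  · intro x
    obtain ⟨i, hi⟩ := A.cover (T.P (x, b))
    rw [hS.pull_eq _ (mem_univ x) hi, pl_apply]
    have hz : A.e i (T.P (x, b)) ∈ (A.e i).target := (A.e i).map_source hi
    have h1 : fderiv ℝ (fun y => A.e i (T.P (y, b))) x (I • u) =
        I • fderiv ℝ (fun y => A.e i (T.P (y, b))) x u := by
      rw [T.fib_fderiv hbO hi, T.fib_fderiv hbO hi, ← map_smul]
      congr 1
      simp
    have h2 : fderiv ℝ (fun y => A.e i (T.P (y, b))) x u ≠ 0 := by
      rw [T.fib_fderiv hbO hi]
      intro h3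
      have h4 := (T.bij hdim (p := (x, b)) hbO hi).1 (h3.trans (map_zero _).symm)
      exact hu (congrArg Prod.fst h4)
    have h5 : ((ofAtl A).e i) (T.P (x, b)) = A.e i (T.P (x, b)) := rfl
    show 0 < (ofKah K).f2.w i (A.e i (T.P (x, b)))
      (fderiv ℝ (fun y => A.e i (T.P (y, b))) x u)
      (fderiv ℝ (fun y => A.e i (T.P (y, b))) x (I • u))
    rw [h1, (ofKah K).f2_w hz, (A.e i).left_inv hi]
    set v := fderiv ℝ (fun y => A.e i (T.P (y, b))) x u with hv
    have h7 : (fun k => conj (v k)) ≠ 0 := by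
      intro h8
      refine h2 ?_
      ext k
      have := congrFun h8 k
      simpa using this
    have h9 : 0 < (hb (K.g i (T.P (x, b))) v v).re := by
      rw [hb_self]
      exact (Complex.lt_def.1 ((K.pos i _ hi).dotProduct_mulVec_pos h7)).1
    have h10 : I * hb (K.g i (T.P (x, b))) v (I • v) = hb (K.g i (T.P (x, b))) v v := by
      rw [hb_I_right, ← mul_assoc]
      simp
    show 0 < (I * hb (K.g i (T.P (x, b))) v (I • v)).re
    rw [h10]; exact h9

/-- the curvature of `N` is orthogonal to `e` -/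
theorem q_zero {T : HTube A F B} {Q : F2 (ofAtl A) → ℝ} (hadd : ∀ x y, Q (x + y) = Q x + Q y)
    (hsmul : ∀ (c : ℝ) x, Q (c • x) = c * Q x) {b : B} (hb : b ∈ T.Om) {ι : Type*}
    (β : ι → F) (hPV : ∀ w, Q w = 0 → ∀ z a c,
      per (pull w (fun c => T.P (c, b))) z (β a) (β c) = 0) {k w : F2 (ofAtl A)}
    (hk : ∃ z a c, per (pull k (fun c => T.P (c, b))) z (β a) (β c) ≠ 0)
    (hw : ∀ z a c, per (pull w (fun c => T.P (c, b))) z (β a) (β c) = 0) : Q w = 0 := by
  obtain ⟨z, a, c, h0⟩ := hk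
  have hS := T.smI hb
  have h1 : Q (Q k • w + (-Q w) • k) = 0 := by
    rw [hadd, hsmul, hsmul]; ring
  have h2 := hPV _ h1 z a c
  have hin : ∀ s t : ℝ, pt z (β a) (β c) s t ∈ (univ : Set F) := fun _ _ => mem_univ _
  rw [per_add (S := univ) (ξ := pull (Q k • w) fun c => T.P (c, b))
    (η := pull ((-Q w) • k) fun c => T.P (c, b)) (hS.pull_smooth _).continuousOn
    (hS.pull_smooth _).continuousOn hin (fun x _ => pull_add_w _ _ _ _ _ _),
    per_smul (S := univ) (Q k) (ξ := pull w fun c => T.P (c, b)) hin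
      (fun x _ => pull_smul_w _ _ _ _ _ _),
    per_smul (S := univ) (-Q w) (ξ := pull k fun c => T.P (c, b)) hin
      (fun x _ => pull_smul_w _ _ _ _ _ _), hw z a c, mul_zero, zero_add] at h2
  rcases mul_eq_zero.1 h2 with h3 | h3
  · linarith
  · exact absurd h3 h0

/-- sections without common divisor satisfy 625's `Star` -/
theorem star_of_cop {N : LB A} {r : ℕ} (h : HM N) {t : Fin r → A.ι → M → ℂ}
    (ht : ∀ j, IsHS N univ (t j))
    (hcop : ∀ i, ∀ x ∈ (A.e i).source, Cop A (fun j => t j i) x) :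
    Star A {x | nrm h t x = 0} := by
  intro i z₀ hz₀
  obtain ⟨r', hr, hball, w, hw⟩ := star_chart (lc n) ht hcop i hz₀
  refine ⟨r', hr, hball, w, fun a => ?_⟩
  filter_upwards [hw a] with z hz hzb c hc hmem
  obtain ⟨j, hj⟩ := hz hzb c hc
  have h1 : (A.e i).symm (z + c • w a) ∈ (A.e i).source := (A.e i).map_target (hball hc)
  have h2 := (nrm_pos_iff (h' := h) ht h1).2 ⟨j, hj⟩
  exact h2.ne' hmem

end

end Crest.Agent.R281.Kd_22
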