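import Crest.Agent.R273.YauCh_635
import Crest.Agent.R273.YauMax_635
import Crest.Agent.R273.Vol_333

/-!
# R281 (S0424), Yau's theorem for general Kaehler forms (helper487): local potentials

* `KP A`        : local potentials `u i` on the charts of `A` whose differences are pluriharmonic
* `KP.wt`, `KP.Pos`, `KP.Semipos`, `cur`, `kah`, `tw`
* `pot`, `KPos`, `MA`, `Sol` and the frozen statements `YauStmt`, ..., with a general Kaehler form
  instead of the curvature of a line bundle (compare `R273.YauDefs_635`)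
-/

set_option autoImplicit false
set_option linter.unusedSectionVars false

open Set Filter Topology Complex
open scoped ContDiff Matrix ComplexConjugate Manifold ComplexOrder

namespace Crest.Agent.R281.Kp_487

open Crest.Agent.R275.Geo Crest.Agent.R275.Core144 Crest.Agent.R275.GC293
open Crest.Agent.R275.EDR890
open Crest.Agent.R273.Defs_333 Crest.Agent.R273.YauDefs_635 Crest.Agent.R273.HM_333
open Crest.Agent.R273.Hess_333 Crest.Agent.R273.HessB_333 Crest.Agent.R273.Kah_333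
open Crest.Agent.R273.YauCh_635 Crest.Agent.R273.YauMax_635

noncomputable section

variable {n : ℕ} {M : Type} [TopologicalSpace M] {A : Atl n M}

/-- local potentials of a closed real `(1,1)`-form: functions on the charts with pluriharmonic
differences -/
structure KP (A : Atl n M) where
  u : A.ι → M → ℝ
  sm : ∀ i, A.SmAt i (u i)
  tr : ∀ i j, ∀ z ∈ A.ov i j,
    hess (fun w => u i ((A.e i).symm w) - u j ((A.e i).symm w)) z = 0

/-- the local potential read in the chart `i` -/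
def KP.wt (H : KP A) (i : A.ι) : Cn n → ℝ := fun z => H.u i ((A.e i).symm z)

/-- semipositive form -/
def KP.Semipos (H : KP A) : Prop :=
  ∀ i, ∀ z ∈ (A.e i).target, ∀ v : Cn n, 0 ≤ lev (H.wt i) z v

/-- positive form -/
def KP.Pos (H : KP A) : Prop :=
  ∀ i, ∀ z ∈ (A.e i).target, ∀ v : Cn n, v ≠ 0 → 0 < lev (H.wt i) z v

theorem wt_smooth (h : KP A) (i : A.ι) : ContDiffOn ℝ ∞ (h.wt i) (A.e i).target := h.sm i

theorem lev_of_hess_zero {u : Cn n → ℝ} {z : Cn n} (hu : ContDiffAt ℝ ∞ u z) (h : hess u z = 0)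
    (v : Cn n) : lev u z v = 0 := by
  have h1 := lev_eq hu v
  rw [hq, h] at h1
  simpa using h1

/-- the potentials of the chart `j` read in the chart `i` -/
theorem wt_tr (H : KP A) {i j : A.ι} {z : Cn n} (hz : z ∈ A.ov i j) :
    H.wt j (A.e j ((A.e i).symm z)) = H.u j ((A.e i).symm z) := by
  simp only [KP.wt, (A.e j).left_inv hz.2]

theorem Tm_hol {i j : A.ι} {x : M} (hx : x ∈ (A.e i).source ∩ (A.e j).source) :
    ContDiffAt ℝ ∞ (fun w => A.e j ((A.e i).symm w)) (A.e i x) :=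
  ((anal_Tm (A := A) hx).contDiffAt (n := ∞)).restrict_scalars ℝ

theorem uj_contDiffAt (H : KP A) {i j : A.ι} {x : M}
    (hx : x ∈ (A.e i).source ∩ (A.e j).source) :
    ContDiffAt ℝ ∞ (fun w => H.u j ((A.e i).symm w)) (A.e i x) := by
  have ho : IsOpen (A.ov i j) := isOpen_ov i j
  have h1 : ContDiffAt ℝ ∞ (fun w => H.wt j (A.e j ((A.e i).symm w))) (A.e i x) := by
    have h2 : ContDiffAt ℝ ∞ (H.wt j) (A.e j ((A.e i).symm (A.e i x))) := by
      rw [(A.e i).left_inv hx.1]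
      exact (wt_smooth H j).contDiffAt
        ((A.e j).open_target.mem_nhds ((A.e j).map_source hx.2))
    exact ContDiffAt.comp (A.e i x) (g := H.wt j) (f := fun w => A.e j ((A.e i).symm w)) h2
      (Tm_hol hx)
  refine h1.congr_of_eventuallyEq ?_
  filter_upwards [ho.mem_nhds (mem_ov hx)] with w hw
  exact (wt_tr H hw).symm

theorem hess_wt_uj (H : KP A) {i j : A.ι} {x : M}
    (hx : x ∈ (A.e i).source ∩ (A.e j).source) :
    hess (H.wt i) (A.e i x) = hess (fun w => H.u j ((A.e i).symm w)) (A.e i x) := by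
  have h1 : ContDiffAt ℝ ∞ (H.wt i) (A.e i x) :=
    (wt_smooth H i).contDiffAt ((A.e i).open_target.mem_nhds ((A.e i).map_source hx.1))
  have h2 := H.tr i j _ (mem_ov hx)
  have h3 := hess_sub h1 (uj_contDiffAt H hx)
  have h4 : hess (fun w => H.wt i w - H.u j ((A.e i).symm w)) (A.e i x) = 0 := h2
  rw [h4] at h3
  exact (sub_eq_zero.1 h3.symm)

/-- the curvature matrix -/
def cur (h : KP A) (i : A.ι) (x : M) : Matrix (Fin n) (Fin n) ℂ := hess (h.wt i) (A.e i x)

theorem wt_contDiffAt (h : KP A) (i : A.ι) {z : Cn n} (hz : z ∈ (A.e i).target) :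
    ContDiffAt ℝ ∞ (h.wt i) z :=
  (wt_smooth h i).contDiffAt ((A.e i).open_target.mem_nhds hz)

theorem cur_read (h : KP A) (i : A.ι) {z : Cn n} (hz : z ∈ (A.e i).target) :
    cur h i ((A.e i).symm z) = hess (h.wt i) z := by
  unfold cur
  rw [(A.e i).right_inv hz]

theorem cur_smooth (h : KP A) (i : A.ι) (a b : Fin n) : A.SmAt i (fun x => cur h i x a b) := by
  refine (contDiffOn_hess (A.e i).open_target (wt_smooth h i) a b).congr fun z hz => ?_
  simp only [cur_read h i hz]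

theorem cur_herm (h : KP A) (i : A.ι) {x : M} (hx : x ∈ (A.e i).source) :
    (cur h i x).IsHermitian :=
  hess_herm (wt_contDiffAt h i ((A.e i).map_source hx))

theorem cur_posSemidef {h : KP A} (hp : h.Semipos) (i : A.ι) {x : M} (hx : x ∈ (A.e i).source) :
    (cur h i x).PosSemidef :=
  posSemidef_hess (wt_contDiffAt h i ((A.e i).map_source hx))
    (hp i _ ((A.e i).map_source hx))

theorem cur_posDef {h : KP A} (hp : h.Pos) (i : A.ι) {x : M} (hx : x ∈ (A.e i).source) :
    (cur h i x).PosDef :=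
  posDef_hess (wt_contDiffAt h i ((A.e i).map_source hx))
    (hp i _ ((A.e i).map_source hx))

theorem semipos_of_cur {h : KP A} (H : ∀ i, ∀ x ∈ (A.e i).source, (cur h i x).PosSemidef) :
    h.Semipos := by
  intro i z hz v
  have h1 := H i _ ((A.e i).map_target hz)
  rw [cur_read h i hz] at h1
  exact lev_nonneg_of_posSemidef (wt_contDiffAt h i hz) h1 v

theorem pos_of_cur {h : KP A} (H : ∀ i, ∀ x ∈ (A.e i).source, (cur h i x).PosDef) :
    h.Pos := by
  intro i z hz v hv
  have h1 := H i _ ((A.e i).map_target hz)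
  rw [cur_read h i hz] at h1
  exact lev_pos_of_posDef (wt_contDiffAt h i hz) h1 hv

theorem Pos.semipos {h : KP A} (hp : h.Pos) : h.Semipos :=
  semipos_of_cur fun _ _ hx => (cur_posDef hp _ hx).posSemidef

theorem cur_closed (h : KP A) (i : A.ι) {z : Cn n} (hz : z ∈ (A.e i).target) (a b c : Fin n) :
    wd (false, c) (fun w => cur h i ((A.e i).symm w) a b) z =
      wd (false, a) (fun w => cur h i ((A.e i).symm w) c b) z := by
  have h1 : ∀ a, (fun w => cur h i ((A.e i).symm w) a b) =ᶠ[𝓝 z] fun w => hess (h.wt i) w a b := by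
    intro a
    filter_upwards [(A.e i).open_target.mem_nhds hz] with w hw
    rw [cur_read h i hw]
  rw [wd_congr (h1 a), wd_congr (h1 c)]
  exact wd_hess (wt_contDiffAt h i hz) a b c

theorem cur_closed' (h : KP A) (i : A.ι) {z : Cn n} (hz : z ∈ (A.e i).target) (a b c : Fin n) :
    wd (true, c) (fun w => cur h i ((A.e i).symm w) a b) z =
      wd (true, b) (fun w => cur h i ((A.e i).symm w) a c) z := by
  have h1 : ∀ b, (fun w => cur h i ((A.e i).symm w) a b) =ᶠ[𝓝 z] fun w => hess (h.wt i) w a b := by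
    intro b
    filter_upwards [(A.e i).open_target.mem_nhds hz] with w hw
    rw [cur_read h i hw]
  rw [wd_congr (h1 b), wd_congr (h1 c)]
  exact wdb_hess (A.e i).open_target (wt_smooth h i) hz a b c

theorem cur_tr (h : KP A) {i j : A.ι} {x : M} (hx : x ∈ (A.e i).source ∩ (A.e j).source) :
    cur h i x = (Jm A i j x)ᵀ * cur h j x * (Jm A i j x).map conj := by
  have ho : IsOpen (A.ov i j) := isOpen_ov i j
  have hm : A.e i x ∈ A.ov i j := mem_ov hx
  unfold cur
  rw [hess_wt_uj h hx]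
  refine hess_tr (f := fun _ => (1 : ℂ)) hx
    (uj_contDiffAt h hx) (wt_contDiffAt h j ((A.e j).map_source hx.2))
    (Eventually.of_forall fun w => differentiableAt_const _) one_ne_zero ?_
  filter_upwards [ho.mem_nhds hm] with w hw
  rw [wt_tr h hw]
  simp

/-- change of the potentials by a smooth function -/
def tw (h : KP A) (f : M → ℝ) (hf : A.Sm f) : KP A where
  u i x := h.u i x + f x
  sm i := (h.sm i).add (hf i)
  tr i j z hz := by
    have h1 := h.tr i j z hz
    simpa only [add_sub_add_right_eq_sub] using h1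

theorem wt_tw (h : KP A) (f : M → ℝ) (hf : A.Sm f) (i : A.ι) {z : Cn n}
    (_hz : z ∈ (A.e i).target) : (tw h f hf).wt i z = h.wt i z + f ((A.e i).symm z) := rfl

theorem cur_tw (h : KP A) {f : M → ℝ} (hf : A.Sm f) (i : A.ι) {x : M}
    (hx : x ∈ (A.e i).source) : cur (tw h f hf) i x = cur h i x + hsf A f i x := by
  have hz := (A.e i).map_source hx
  unfold cur hsf
  have h1 : (tw h f hf).wt i =ᶠ[𝓝 (A.e i x)] fun w => h.wt i w + f ((A.e i).symm w) := by
    filter_upwards [(A.e i).open_target.mem_nhds hz] with w hw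
    exact wt_tw h f hf i hw
  rw [hess_congr h1, hess_add (wt_contDiffAt h i hz) (sm_contDiffAt hf i hz)]

/-- the Kaehler metric of a positively curved line bundle -/
def kah (h : KP A) (hp : h.Pos) : Kah A where
  g := cur h
  sm := cur_smooth h
  pos i x hx := cur_posDef hp i hx
  tr i j x hx := cur_tr h hx
  closed i z hz a b c := cur_closed h i hz a b c
  closed' i z hz a b c := cur_closed' h i hz a b c

theorem wt_c2 (H : KP A) (i : A.ι) {z : Cn n} (hz : z ∈ (A.e i).target) :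
    ContDiffAt ℝ 2 (H.wt i) z :=
  ((wt_smooth H i).contDiffAt ((A.e i).open_target.mem_nhds hz)).of_le two_le_inf

theorem lev_wt_change (H : KP A) {i j : A.ι} {x : M}
    (hx : x ∈ (A.e i).source ∩ (A.e j).source) (w : Cn n) :
    lev (H.wt i) (A.e i x) w
      = lev (H.wt j) (A.e j x) (fderiv ℂ (Tm A i j) (A.e i x) w) := by
  have ho : IsOpen (A.ov i j) := isOpen_ov i j
  have e1 : lev (H.wt i) (A.e i x) w =
      lev (fun w => H.u j ((A.e i).symm w)) (A.e i x) w := by
    have h1 := lev_eq (wt_contDiffAt H i ((A.e i).map_source hx.1)) w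
    have h2 := lev_eq (uj_contDiffAt H hx) w
    have h3 : hq (H.wt i) (A.e i x) w = hq (fun w => H.u j ((A.e i).symm w)) (A.e i x) w := by
      unfold hq
      rw [hess_wt_uj H hx]
    rw [h3, ← h2] at h1
    exact_mod_cast h1
  rw [e1]
  refine lev_change (f := fun _ => (1 : ℂ)) hx (wt_c2 H j ((A.e j).map_source hx.2))
    analyticAt_const one_ne_zero ?_ w
  filter_upwards [ho.mem_nhds (mem_ov hx)] with w hw
  have h4 : H.wt j (Tm A i j w) = H.u j ((A.e i).symm w) := wt_tr H hw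
  rw [h4]
  simp

/-- on compact `M` the Levi form of a smooth function is bounded by a positive curvature -/
theorem exists_lev_bound [CompactSpace M] {H : KP A} (hH : H.Pos) {F : M → ℝ} (hF : A.Sm F) :
    ∃ K : ℝ, 0 ≤ K ∧ ∀ i, ∀ z ∈ (A.e i).target, ∀ v,
      |lev (inC A i F) z v| ≤ K * lev (H.wt i) z v := by
  have key : ∀ x : M, ∃ V ∈ 𝓝 x, ∃ K : ℝ, 0 ≤ K ∧ ∀ y ∈ V, ∀ i, y ∈ (A.e i).source → ∀ v,
      |lev (inC A i F) (A.e i y) v| ≤ K * lev (H.wt i) (A.e i y) v := by
    intro x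
    obtain ⟨j, hj⟩ := A.cover x
    have ht := (A.e j).map_source hj
    obtain ⟨ρ, hρ, hρs⟩ := Metric.nhds_basis_closedBall.mem_iff.1 ((A.e j).open_target.mem_nhds ht)
    have hK : IsCompact (Metric.closedBall (A.e j x) ρ) := isCompact_closedBall _ _
    obtain ⟨C, hC0, hC⟩ := lev_upper (A.e j).open_target
      ((inC_smooth hF j).of_le two_le_inf) hK hρs
    obtain ⟨c, hc0, hc⟩ := lev_lower (A.e j).open_target
      ((wt_smooth H j).of_le two_le_inf) hK hρs
      (fun z hz v hv => hH j z (hρs hz) v hv)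
    refine ⟨(A.e j).source ∩ (A.e j) ⁻¹' Metric.ball (A.e j x) ρ, ?_, C / c, by positivity, ?_⟩
    · exact ((A.e j).isOpen_inter_preimage Metric.isOpen_ball).mem_nhds
        ⟨hj, Metric.mem_ball_self hρ⟩
    · rintro y ⟨hyj, hyb⟩ i hyi v
      have hyc : A.e j y ∈ Metric.closedBall (A.e j x) ρ := Metric.ball_subset_closedBall hyb
      rw [lev_inC_change hF ⟨hyi, hyj⟩, lev_wt_change H ⟨hyi, hyj⟩]
      set w := fderiv ℂ (Tm A i j) (A.e i y) v
      calc |lev (inC A j F) (A.e j y) w| ≤ C * ‖w‖ ^ 2 := hC _ hyc w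
        _ = C / c * (c * ‖w‖ ^ 2) := by field_simp
        _ ≤ C / c * lev (H.wt j) (A.e j y) w :=
          mul_le_mul_of_nonneg_left (hc _ hyc w) (by positivity)
  choose V hV K hK0 hK using key
  obtain ⟨t, ht⟩ := CompactSpace.elim_nhds_subcover V hV
  refine ⟨∑ x ∈ t, K x, Finset.sum_nonneg fun x _ => hK0 x, fun i z hz v => ?_⟩
  have hy := (A.e i).map_target hz
  have h1 : (A.e i).symm z ∈ (⊤ : Set M) := mem_univ _
  rw [← ht] at h1
  simp only [mem_iUnion, exists_prop] at h1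
  obtain ⟨x, hxt, hx⟩ := h1
  have h2 := hK x _ hx i hy v
  rw [(A.e i).right_inv hz] at h2
  refine h2.trans (mul_le_mul_of_nonneg_right
    (Finset.single_le_sum (f := K) (fun y _ => hK0 y) hxt) ?_)
  rcases eq_or_ne v 0 with rfl | hv
  · rw [lev_zero]
  · exact (hH i z hz v hv).le

/-- local potential of `H` plus `φ`, read in the chart `i` -/
def pot (H : KP A) (φ : M → ℝ) (i : A.ι) : Cn n → ℝ :=
  fun z => H.wt i z + inC A i φ z

/-- `ω_H + i∂∂̄ φ > 0` -/
def KPos (H : KP A) (φ : M → ℝ) : Prop :=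
  ∀ i, ∀ z ∈ (A.e i).target, ∀ v : Cn n, v ≠ 0 → 0 < lev (pot H φ i) z v

/-- `(ω_H + i∂∂̄ φ)^n = e^f ω_H^n` -/
def MA (H : KP A) (φ f : M → ℝ) : Prop :=
  ∀ i, ∀ z ∈ (A.e i).target,
    (cH (pot H φ i) z).det = (Real.exp (inC A i f z) : ℂ) * (cH (H.wt i) z).det

/-- smooth solution of `(ω_H + i∂∂̄ φ)^n = e^(t F + c) ω_H^n` -/
def Sol (H : KP A) (F : M → ℝ) (t : ℝ) (φ : M → ℝ) (c : ℝ) : Prop :=
  A.Sm φ ∧ KPos H φ ∧ MA H φ (fun x => t * F x + c)

/-- Yau's theorem -/
def YauStmt : Prop :=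
  ∀ (n : ℕ) (M : Type) [TopologicalSpace M] [T2Space M] [CompactSpace M] [ConnectedSpace M]
    (A : Atl n M) [Finite A.ι], Nonempty (Part A) →
    ∀ (H : KP A), H.Pos → ∀ F : M → ℝ, A.Sm F →
      ∃ (φ : M → ℝ) (c : ℝ), A.Sm φ ∧ KPos H φ ∧ MA H φ (fun x => F x + c)

/-- C0 estimate -/
def C0Stmt : Prop :=
  ∀ (n : ℕ) (M : Type) [TopologicalSpace M] [T2Space M] [CompactSpace M] [ConnectedSpace M]
    (A : Atl n M) [Finite A.ι], Nonempty (Part A) →
    ∀ (H : KP A), H.Pos → ∀ K : ℝ, ∃ C : ℝ,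
      ∀ φ f : M → ℝ, A.Sm φ → A.Sm f → KPos H φ → MA H φ f → (∀ x, |f x| ≤ K) →
        ∀ x y, φ x - φ y ≤ C

/-- C2 estimate -/
def C2Stmt : Prop :=
  ∀ (n : ℕ) (M : Type) [TopologicalSpace M] [T2Space M] [CompactSpace M] [ConnectedSpace M]
    (A : Atl n M) [Finite A.ι], Nonempty (Part A) →
    ∀ (H : KP A), H.Pos → ∀ K : ℝ, ∃ C : ℝ, 0 < C ∧
      ∀ φ f : M → ℝ, A.Sm φ → A.Sm f → KPos H φ → MA H φ f → (∀ x, |f x| ≤ K) →
        (∀ i, ∀ z ∈ (A.e i).target, ∀ v, |lev (inC A i f) z v| ≤ K * lev (H.wt i) z v) →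
        (∀ x y, φ x - φ y ≤ K) →
        ∀ i, ∀ z ∈ (A.e i).target, ∀ v,
          lev (pot H φ i) z v ≤ C * lev (H.wt i) z v ∧ lev (H.wt i) z v ≤ C * lev (pot H φ i) z v

/-- openness of the continuity path -/
def OpenStmt : Prop :=
  ∀ (n : ℕ) (M : Type) [TopologicalSpace M] [T2Space M] [CompactSpace M] [ConnectedSpace M]
    (A : Atl n M) [Finite A.ι], Nonempty (Part A) →
    ∀ (H : KP A), H.Pos → ∀ F : M → ℝ, A.Sm F →
      ∀ (t₀ : ℝ) (φ₀ : M → ℝ) (c₀ : ℝ), Sol H F t₀ φ₀ c₀ →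
        ∃ δ > 0, ∀ t, |t - t₀| < δ → ∃ φ c, Sol H F t φ c

/-- closedness of the continuity path -/
def CloseStmt : Prop :=
  ∀ (n : ℕ) (M : Type) [TopologicalSpace M] [T2Space M] [CompactSpace M] [ConnectedSpace M]
    (A : Atl n M) [Finite A.ι], Nonempty (Part A) →
    ∀ (H : KP A), H.Pos → ∀ F : M → ℝ, A.Sm F →
      ∀ (t : ℕ → ℝ) (T : ℝ), (∀ k, 0 ≤ t k ∧ t k ≤ 1) → Tendsto t atTop (𝓝 T) →
        (∀ k, ∃ φ c, Sol H F (t k) φ c) → ∃ φ c, Sol H F T φ c

end

end Crest.Agent.R281.Kp_487
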