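import Crest.Agent.R281.Kp0_487

/-!
# R281 (S0424), Yau for general Kaehler forms (helper487): maximum principle part
(compare `R273.YauMax_635`)
-/

set_option autoImplicit false
set_option linter.unusedSectionVars false

open Set Filter Topology Complex
open scoped ContDiff Matrix ComplexConjugate ComplexOrder MatrixOrder

namespace Crest.Agent.R281.Kp_487

open Crest.Agent.R273

open Crest.Agent.R275.Geo Crest.Agent.R275.Core144 Crest.Agent.R275.GC293
open Crest.Agent.R275.OmT75 Crest.Agent.R275.EDR890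
open Crest.Agent.R273.Defs_333 Crest.Agent.R273.YauDefs_635 Crest.Agent.R273.HM_333
open Crest.Agent.R273.YauCh_635 Crest.Agent.R273.Hess_333 Crest.Agent.R273.HessB_333
open Crest.Agent.R273.Kah_333
open Crest.Agent.R273.YauMax_635

noncomputable section

variable {n : ℕ} {M : Type} [TopologicalSpace M] {A : Atl n M}

theorem pot_contDiffAt (H : KP A) {φ : M → ℝ} (hφ : A.Sm φ) (i : A.ι) {z : Cn n}
    (hz : z ∈ (A.e i).target) : ContDiffAt ℝ ∞ (pot H φ i) z :=
  (wt_contDiffAt H i hz).add (inC_contDiffAt hφ i hz)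

theorem hess_pot (H : KP A) {φ : M → ℝ} (hφ : A.Sm φ) (i : A.ι) {z : Cn n}
    (hz : z ∈ (A.e i).target) : hess (pot H φ i) z = hess (H.wt i) z + hess (inC A i φ) z :=
  hess_add (wt_contDiffAt H i hz) (inC_contDiffAt hφ i hz)

theorem exp_ge_one_of {H : KP A} (hH : H.Pos) {i : A.ι} {z : Cn n} (hz : z ∈ (A.e i).target)
    {P : Matrix (Fin n) (Fin n) ℂ} (hP : P.PosSemidef) {t : ℝ}
    (h : (hess (H.wt i) z + P).det = (Real.exp t : ℂ) * (hess (H.wt i) z).det) : 0 ≤ t := by
  have hpd : (hess (H.wt i) z).PosDef := posDef_hess (wt_contDiffAt H i hz) (hH i z hz)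
  have h1 := det_le_det_add hpd hP
  rw [h] at h1
  have h2 := hpd.det_pos
  have h3 : (hess (H.wt i) z).det = (((hess (H.wt i) z).det.re : ℝ) : ℂ) := by
    have := (Complex.pos_iff.1 h2).2
    apply Complex.ext <;> simp [this]
  rw [h3] at h1 h2
  rw [← Complex.ofReal_mul] at h1
  have h4 : (hess (H.wt i) z).det.re ≤ Real.exp t * (hess (H.wt i) z).det.re := by
    exact_mod_cast h1
  have h5 : 0 < (hess (H.wt i) z).det.re := by exact_mod_cast h2
  have h6 : 1 ≤ Real.exp t := by
    by_contra hc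
    push Not at hc
    nlinarith
  exact Real.one_le_exp_iff.1 h6

theorem f_nonneg_of_min {H : KP A} (hH : H.Pos) {φ f : M → ℝ} (hφ : A.Sm φ)
    (hMA : MA H φ f) {x : M} (hm : IsLocalMin φ x) : 0 ≤ f x := by
  obtain ⟨i, hi⟩ := A.cover x
  have hz := (A.e i).map_source hi
  have h1 := hMA i _ hz
  rw [cH_eq_hess (pot_contDiffAt H hφ i hz), cH_eq_hess (wt_contDiffAt H i hz),
    hess_pot H hφ i hz] at h1
  have h2 : (hess (inC A i φ) (A.e i x)).PosSemidef :=
    posSemidef_hess (inC_contDiffAt hφ i hz)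
      (lev_nonneg_of_localMin (inC_c2 hφ i hz) (inC_localMin hm hi))
  have h3 := exp_ge_one_of hH hz h2 h1
  simpa [inC, (A.e i).left_inv hi] using h3

theorem exp_le_one_of {H : KP A} {φ : M → ℝ} (hφ : A.Sm φ) (hK : KPos H φ) (hH : H.Pos)
    {i : A.ι} {z : Cn n} (hz : z ∈ (A.e i).target)
    (hP : (- hess (inC A i φ) z).PosSemidef) {t : ℝ}
    (h : (hess (pot H φ i) z).det = (Real.exp t : ℂ) * (hess (H.wt i) z).det) : t ≤ 0 := by
  have hpd : (hess (H.wt i) z).PosDef := posDef_hess (wt_contDiffAt H i hz) (hH i z hz)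
  have hpd' : (hess (pot H φ i) z).PosDef := posDef_hess (pot_contDiffAt H hφ i hz) (hK i z hz)
  have h1 := det_le_det_add hpd' hP
  have e1 : hess (pot H φ i) z + - hess (inC A i φ) z = hess (H.wt i) z := by
    rw [hess_pot H hφ i hz]
    abel
  rw [e1, h] at h1
  have h2 := hpd.det_pos
  have h3 : (hess (H.wt i) z).det = (((hess (H.wt i) z).det.re : ℝ) : ℂ) := by
    have := (Complex.pos_iff.1 h2).2
    apply Complex.ext <;> simp [this]
  rw [h3] at h1 h2
  rw [← Complex.ofReal_mul] at h1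
  have h4 : Real.exp t * (hess (H.wt i) z).det.re ≤ (hess (H.wt i) z).det.re := by
    exact_mod_cast h1
  have h5 : 0 < (hess (H.wt i) z).det.re := by exact_mod_cast h2
  have h6 : Real.exp t ≤ 1 := by
    by_contra hc
    push Not at hc
    nlinarith
  exact Real.exp_le_one_iff.1 h6

theorem f_nonpos_of_max {H : KP A} (hH : H.Pos) {φ f : M → ℝ} (hφ : A.Sm φ) (hK : KPos H φ)
    (hMA : MA H φ f) {x : M} (hm : IsLocalMax φ x) : f x ≤ 0 := by
  obtain ⟨i, hi⟩ := A.cover x
  have hz := (A.e i).map_source hi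
  have h1 := hMA i _ hz
  rw [cH_eq_hess (pot_contDiffAt H hφ i hz), cH_eq_hess (wt_contDiffAt H i hz)] at h1
  have hφ' : A.Sm (fun y => - φ y) := fun j => (hφ j).neg
  have hm' : IsLocalMin (fun y => - φ y) x := hm.neg
  have h2 : (hess (inC A i fun y => - φ y) (A.e i x)).PosSemidef :=
    posSemidef_hess (inC_contDiffAt hφ' i hz)
      (lev_nonneg_of_localMin (inC_c2 hφ' i hz) (inC_localMin hm' hi))
  have h4 : hess (inC A i fun y => - φ y) (A.e i x) = - hess (inC A i φ) (A.e i x) :=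
    hess_neg (inC_contDiffAt hφ i hz)
  rw [h4] at h2
  have h3 := exp_le_one_of hφ hK hH hz h2 h1
  simpa [inC, (A.e i).left_inv hi] using h3

/-- the constant of a solution is bounded -/
theorem abs_c_le [CompactSpace M] [Nonempty M] {H : KP A} (hH : H.Pos) {F φ : M → ℝ} {t c K : ℝ}
    (hF : ∀ x, |F x| ≤ K) (ht0 : 0 ≤ t) (ht1 : t ≤ 1) (hs : Sol H F t φ c) : |c| ≤ K := by
  obtain ⟨hφ, hKp, hMA⟩ := hs
  have hc := continuous_of_sm hφ
  obtain ⟨x, -, hx⟩ := isCompact_univ.exists_isMinOn univ_nonempty hc.continuousOn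
  obtain ⟨y, -, hy⟩ := isCompact_univ.exists_isMaxOn univ_nonempty hc.continuousOn
  have h1 : IsLocalMin φ x := hx.isLocalMin univ_mem
  have h2 : IsLocalMax φ y := hy.isLocalMax univ_mem
  have h3 := f_nonneg_of_min hH hφ hMA h1
  have h4 := f_nonpos_of_max hH hφ hKp hMA h2
  have hK : 0 ≤ K := (abs_nonneg _).trans (hF x)
  have h5 : |t * F x| ≤ K := by
    rw [abs_mul, abs_of_nonneg ht0]
    calc t * |F x| ≤ 1 * K := mul_le_mul ht1 (hF x) (abs_nonneg _) zero_le_one
      _ = K := one_mul K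
  have h6 : |t * F y| ≤ K := by
    rw [abs_mul, abs_of_nonneg ht0]
    calc t * |F y| ≤ 1 * K := mul_le_mul ht1 (hF y) (abs_nonneg _) zero_le_one
      _ = K := one_mul K
  rw [abs_le]
  constructor
  · have := (abs_le.1 h5).2
    linarith
  · have := (abs_le.1 h6).1
    linarith

end

end Crest.Agent.R281.Kp_487
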