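import Crest.Agent.R281.Kp2_487
import Crest.Agent.R273.YauPf_635
import Crest.Agent.R273.YauOpA_635

/-!
# R281 (S0424), Yau for general Kaehler forms (helper487): the Monge-Ampere ratio
(compare `R273.YauPf_635`, `R273.YauOpA_635`)
-/

set_option autoImplicit false
set_option linter.unusedSectionVars false

open Set Filter Topology Complex Metric
open scoped ContDiff Matrix ComplexConjugate ComplexOrder

namespace Crest.Agent.R281.Kp_487

open Crest.Agent.R273

section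

open Crest.Agent.R275.Geo Crest.Agent.R275.Core144 Crest.Agent.R275.GC293
open Crest.Agent.R273.Defs_333 Crest.Agent.R273.YauDefs_635 Crest.Agent.R273.HM_333
open Crest.Agent.R273.YauCh_635 Crest.Agent.R273.Hess_333 Crest.Agent.R273.HessB_333
open Crest.Agent.R273.Kah_333 Crest.Agent.R273.YauMax_635 Crest.Agent.R273.YauLoc_635
open Crest.Agent.R273.SchA_152 Crest.Agent.R273.SchD_152 Crest.Agent.R273.YauQ_635
open Crest.Agent.R273.YauSchF_635 Crest.Agent.R273.YauClose_635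
open Crest.Agent.R273.YauPf_635

noncomputable section

variable {n : ℕ} {M : Type} [TopologicalSpace M] {A : Atl n M}

/-- the ratio of the determinants in the chart `i` -/
def pr (H : KP A) (φ v : M → ℝ) (i : A.ι) (z : Cn n) : ℝ :=
  ((cH (pot H (fun y => φ y + v y) i) z).det / (cH (pot H φ i) z).det).re

/-- the linearised operator in the chart `i` -/
def lr (H : KP A) (φ w : M → ℝ) (i : A.ι) (z : Cn n) : ℝ :=
  ((cH (pot H φ i) z)⁻¹ * cH (inC A i w) z).trace.re

/-- the ratio of the determinants on `M` -/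
def Pf (H : KP A) (φ v : M → ℝ) (x : M) : ℝ := pr H φ v (ch A x) (A.e (ch A x) x)

/-- the linearised operator on `M` -/
def Lf (H : KP A) (φ w : M → ℝ) (x : M) : ℝ := lr H φ w (ch A x) (A.e (ch A x) x)

theorem cH_pot_tr (H : KP A) {φ : M → ℝ} (hφ : A.Sm φ) {i j : A.ι} {x : M}
    (hx : x ∈ (A.e i).source ∩ (A.e j).source) :
    cH (pot H φ i) (A.e i x) =
      (Jm A i j x)ᵀ * cH (pot H φ j) (A.e j x) * (Jm A i j x).map conj := by
  have key : ∀ k : A.ι, x ∈ (A.e k).source →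
      cH (pot H φ k) (A.e k x) = cur (tw H φ hφ) k x := by
    intro k hk
    have hz := (A.e k).map_source hk
    rw [cH_eq_hess (pot_contDiffAt H hφ k hz), hess_pot H hφ k hz, cur_tw H hφ k hk]
    rfl
  rw [key i hx.1, key j hx.2]
  exact cur_tr _ hx

theorem Pf_eq (H : KP A) {φ v : M → ℝ} (hφ : A.Sm φ) (hv : A.Sm v) {i : A.ι} {x : M}
    (hx : x ∈ (A.e i).source) : Pf H φ v x = pr H φ v i (A.e i x) := by
  have h := ch_mem A x
  rw [Pf, pr, cH_pot_tr H (sm_add hφ hv) ⟨h, hx⟩, cH_pot_tr H hφ ⟨h, hx⟩,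
    det_conj_ratio (det_J ⟨h, hx⟩), pr]

theorem Lf_eq (H : KP A) {φ w : M → ℝ} (hφ : A.Sm φ) (hw : A.Sm w) {i : A.ι} {x : M}
    (hx : x ∈ (A.e i).source) : Lf H φ w x = lr H φ w i (A.e i x) := by
  have h := ch_mem A x
  rw [Lf, lr, cH_inC_tr hw ⟨h, hx⟩, cH_pot_tr H hφ ⟨h, hx⟩,
    trace_conj (det_J ⟨h, hx⟩), lr]

theorem Pf_read (H : KP A) {φ v : M → ℝ} (hφ : A.Sm φ) (hv : A.Sm v) {i : A.ι} {z : Cn n}
    (hz : z ∈ (A.e i).target) : inC A i (Pf H φ v) z = pr H φ v i z := by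
  rw [inC, Pf_eq H hφ hv ((A.e i).map_target hz), (A.e i).right_inv hz]

theorem Lf_read (H : KP A) {φ w : M → ℝ} (hφ : A.Sm φ) (hw : A.Sm w) {i : A.ι} {z : Cn n}
    (hz : z ∈ (A.e i).target) : inC A i (Lf H φ w) z = lr H φ w i z := by
  rw [inC, Lf_eq H hφ hw ((A.e i).map_target hz), (A.e i).right_inv hz]

theorem posDef_pot {H : KP A} {φ : M → ℝ} (hφ : A.Sm φ) (hK : KPos H φ) {i : A.ι} {z : Cn n}
    (hz : z ∈ (A.e i).target) : (cH (pot H φ i) z).PosDef := by
  rw [cH_eq_hess (pot_contDiffAt H hφ i hz)]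
  exact posDef_hess (pot_contDiffAt H hφ i hz) (hK i z hz)

theorem det_pot_ne {H : KP A} {φ : M → ℝ} (hφ : A.Sm φ) (hK : KPos H φ) {i : A.ι} {z : Cn n}
    (hz : z ∈ (A.e i).target) : (cH (pot H φ i) z).det ≠ 0 :=
  (posDef_pot hφ hK hz).det_pos.ne'

theorem cH_pot_smooth (H : KP A) {φ : M → ℝ} (hφ : A.Sm φ) (i : A.ι) (a b : Fin n) :
    ContDiffOn ℝ ∞ (fun z => cH (pot H φ i) z a b) (A.e i).target :=
  contDiffOn_cH (A.e i).open_target ((wt_smooth H i).add (inC_smooth hφ i)) a b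

theorem Pf_sm {H : KP A} {φ v : M → ℝ} (hφ : A.Sm φ) (hK : KPos H φ) (hv : A.Sm v) :
    A.Sm (Pf H φ v) := by
  intro i
  have h1 : ContDiffOn ℝ ∞ (fun z => (cH (pot H (fun y => φ y + v y) i) z).det *
      ((cH (pot H φ i) z).det)⁻¹) (A.e i).target :=
    (contDiffOn_det (cH_pot_smooth H (sm_add hφ hv) i)).mul
      ((contDiffOn_det (cH_pot_smooth H hφ i)).inv fun z hz => det_pot_ne hφ hK hz)
  refine (Complex.reCLM.contDiff.comp_contDiffOn h1).congr fun z hz => ?_
  have := Pf_read H hφ hv hz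
  simp only [inC] at this
  rw [this, pr, div_eq_mul_inv]
  rfl

theorem Lf_sm {H : KP A} {φ w : M → ℝ} (hφ : A.Sm φ) (hK : KPos H φ) (hw : A.Sm w) :
    A.Sm (Lf H φ w) := by
  intro i
  have h1 : ContDiffOn ℝ ∞ (fun z => ((cH (pot H φ i) z)⁻¹ * cH (inC A i w) z).trace)
      (A.e i).target := by
    simp only [Matrix.trace, Matrix.diag_apply, Matrix.mul_apply]
    refine ContDiffOn.sum fun a _ => ContDiffOn.sum fun b _ => ?_
    exact (contDiffOn_inv (cH_pot_smooth H hφ i) (fun z hz => det_pot_ne hφ hK hz) a b).mul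
      (contDiffOn_cH (A.e i).open_target (inC_smooth hw i) b a)
  refine (Complex.reCLM.contDiff.comp_contDiffOn h1).congr fun z hz => ?_
  have := Lf_read H hφ hw hz
  simp only [inC] at this
  rw [this, lr]
  rfl

theorem cH_pot_add (H : KP A) {φ v : M → ℝ} (hφ : A.Sm φ) (hv : A.Sm v) {i : A.ι} {z : Cn n}
    (hz : z ∈ (A.e i).target) :
    cH (pot H (fun y => φ y + v y) i) z = cH (pot H φ i) z + cH (inC A i v) z := by
  have e : pot H (fun y => φ y + v y) i = fun w => pot H φ i w + inC A i v w := by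
    funext w
    simp only [pot, inC]
    ring
  rw [e, cH_add' (pot_contDiffAt H hφ i hz) (inC_contDiffAt hv i hz)]

theorem pr_eq {H : KP A} {φ v : M → ℝ} (hφ : A.Sm φ) (hK : KPos H φ) (hv : A.Sm v) {i : A.ι}
    {z : Cn n} (hz : z ∈ (A.e i).target) :
    pr H φ v i z = ((1 + (cH (pot H φ i) z)⁻¹ * cH (inC A i v) z).det).re := by
  rw [pr, cH_pot_add H hφ hv hz, det_add_ratio (det_pot_ne hφ hK hz)]

theorem Pf_zero {H : KP A} {φ : M → ℝ} (hφ : A.Sm φ) (hK : KPos H φ) :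
    Pf H φ (fun _ => 0) = fun _ => (1 : ℝ) := by
  funext x
  have h := ch_mem A x
  have hz := (A.e (ch A x)).map_source h
  have e : (fun y => φ y + (fun _ => (0 : ℝ)) y) = φ := by
    funext y
    simp
  rw [Pf, pr, e, div_self (det_pot_ne hφ hK hz), Complex.one_re]

theorem pr_quad {H : KP A} {φ : M → ℝ} (hφ : A.Sm φ) (hK : KPos H φ) {i : A.ι} {z₀ : Cn n} {R : ℝ}
    (hR : R ≤ 1) (hRt : closedBall z₀ R ⊆ (A.e i).target) : ∃ C : ℝ, 0 ≤ C ∧
      ∀ (δ d : ℝ) (v w : M → ℝ), 0 ≤ d → d ≤ δ → δ ≤ 1 → A.Sm v → A.Sm w →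
        C2A (1 / 2) δ (closedBall z₀ R) (inC A i v) → C2A (1 / 2) d (closedBall z₀ R) (inC A i w) →
        HO (1 / 2) (C * δ * d) (closedBall z₀ R) (fun z =>
          pr H φ (fun y => v y + w y) i z - pr H φ v i z - lr H φ w i z) := by
  have hinv : ∀ a b : Fin n, ∃ V, HO (1 / 2) V (closedBall z₀ R)
      (fun z => (cH (pot H φ i) z)⁻¹ a b) := fun a b =>
    ho_c1 (A.e i).open_target ((contDiffOn_inv (cH_pot_smooth H hφ i)
      (fun z hz => det_pot_ne hφ hK hz) a b).of_le (by simp)) hR hRt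
  choose V hV using hinv
  set K : ℝ := ∑ a, ∑ b, |V a b| with hKdef
  have hK0 : 0 ≤ K := Finset.sum_nonneg fun a _ => Finset.sum_nonneg fun b _ => abs_nonneg _
  have hVK : ∀ a b, V a b ≤ K := fun a b =>
    (le_abs_self _).trans ((Finset.single_le_sum (f := fun b => |V a b|)
      (fun b _ => abs_nonneg _) (Finset.mem_univ b)).trans
      (Finset.single_le_sum (f := fun a => ∑ b, |V a b|)
        (fun a _ => Finset.sum_nonneg fun b _ => abs_nonneg _) (Finset.mem_univ a)))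
  have hprod : ∀ (d : ℝ) (w : M → ℝ), 0 ≤ d → C2A (1 / 2) d (closedBall z₀ R) (inC A i w) →
      HO (1 / 2) (n * (2 * K) * d) (closedBall z₀ R) (fun z (a b : Fin n) =>
        ((cH (pot H φ i) z)⁻¹ * cH (inC A i w) z) a b) := by
    intro d w hd hw
    refine ho_pi (by positivity) fun a => ho_pi (by positivity) fun b => ?_
    simp only [Matrix.mul_apply]
    have h1 := ho_sum (Finset.univ : Finset (Fin n)) (a := 1 / 2) (M := 2 * K * d)
      (s := closedBall z₀ R)
      (f := fun l z => (cH (pot H φ i) z)⁻¹ a l * cH (inC A i w) z l b)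
      (fun l _ => ho_mul hK0 hd ((hV a l).mono (hVK a l)) (ho_cH hw.h2 l b))
    rw [Finset.card_univ, Fintype.card_fin] at h1
    exact h1.mono (by ring_nf; rfl)
  obtain ⟨C, hC0, hC⟩ := ho_det n (n * (2 * K))
  refine ⟨C * (n * (2 * K)) * (n * (2 * K)), by positivity,
    fun δ d v w hd hdδ hδ hv hw hv2 hw2 => ?_⟩
  have hδ0 : 0 ≤ δ := hd.trans hdδ
  have hX := hprod δ v hδ0 hv2
  have hY := hprod d w hd hw2
  have hq := hC (α := n * (2 * K) * δ) (β := n * (2 * K) * d) (by positivity)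
    (mul_le_mul_of_nonneg_left hdδ (by positivity))
    (by
      have : (0 : ℝ) ≤ n * (2 * K) := by positivity
      nlinarith) hX hY
  refine ((ho_re hq).mono (le_of_eq (by ring))).congr fun z hz => ?_
  have hzt := hRt hz
  have hvw : A.Sm (fun y => v y + w y) := sm_add hv hw
  rw [pr_eq hφ hK hvw hzt, pr_eq hφ hK hv hzt, lr]
  have e1 : cH (inC A i (fun y => v y + w y)) z = cH (inC A i v) z + cH (inC A i w) z :=
    cH_add' (inC_contDiffAt hv i hzt) (inC_contDiffAt hw i hzt)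
  rw [e1, Matrix.mul_add, ← add_assoc, ← Complex.sub_re, ← Complex.sub_re]
  rfl

end

end

section

open Set Filter _root_.Topology Complex Metric
open scoped ContDiff Matrix ComplexConjugate ComplexOrder

open Crest.Agent.R275.Geo Crest.Agent.R275.Core144 Crest.Agent.R275.GC293
open Crest.Agent.R273.Defs_333 Crest.Agent.R273.YauDefs_635 Crest.Agent.R273.HM_333
open Crest.Agent.R273.YauCh_635 Crest.Agent.R273.Hess_333 Crest.Agent.R273.HessB_333
open Crest.Agent.R273.Kah_333 Crest.Agent.R273.YauMax_635 Crest.Agent.R273.YauLoc_635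
open Crest.Agent.R273.SchA_152 Crest.Agent.R273.SchD_152 Crest.Agent.R273.YauQ_635
open Crest.Agent.R273.YauSchF_635 Crest.Agent.R273.YauClose_635 Crest.Agent.R273.YauPf_635
open Crest.Agent.R273.YauLim_635
open Crest.Agent.R273.YauOpA_635

noncomputable section

variable {n : ℕ} {M : Type} [TopologicalSpace M] {A : Atl n M}

theorem pot_zero (H : KP A) (i : A.ι) : pot H (fun _ => 0) i = H.wt i := by
  funext z
  simp [pot, inC]

theorem ma_of_local {H : KP A} (hH : H.Pos) {Ψ f : M → ℝ} (hΨ : A.Sm Ψ)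
    (h : ∀ x, ∃ k : A.ι, x ∈ (A.e k).source ∧
      (cH (pot H Ψ k) (A.e k x)).det = (Real.exp (f x) : ℂ) * (cH (H.wt k) (A.e k x)).det) :
    MA H Ψ f := by
  intro i z hz
  have hx := (A.e i).map_target hz
  obtain ⟨k, hk, hd⟩ := h ((A.e i).symm z)
  have hxx : (A.e i).symm z ∈ (A.e i).source ∩ (A.e k).source := ⟨hx, hk⟩
  have h0 : A.Sm (fun _ : M => (0 : ℝ)) := fun i => contDiffOn_const
  have t1 := cH_pot_tr H hΨ hxx
  have t2 := cH_pot_tr H h0 hxx
  rw [(A.e i).right_inv hz] at t1 t2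
  rw [pot_zero, pot_zero] at t2
  have hne : (cH (H.wt k) (A.e k ((A.e i).symm z))).det ≠ 0 :=
    (det_wt_pos hH ((A.e k).map_source hk)).ne'
  have hne' : (cH (H.wt i) z).det ≠ 0 := (det_wt_pos hH hz).ne'
  have hr := det_conj_ratio (B := cH (pot H Ψ k) (A.e k ((A.e i).symm z)))
    (C := cH (H.wt k) (A.e k ((A.e i).symm z))) (det_J hxx)
  rw [← t1, ← t2, hd, mul_div_assoc, div_self hne, mul_one, div_eq_iff hne'] at hr
  exact hr

theorem kpos_of_local {H : KP A} {Ψ : M → ℝ} (hΨ : A.Sm Ψ)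
    (h : ∀ x, ∃ k : A.ι, x ∈ (A.e k).source ∧ (cH (pot H Ψ k) (A.e k x)).PosDef) :
    KPos H Ψ := by
  intro i z hz v hv
  have hx := (A.e i).map_target hz
  obtain ⟨k, hk, hd⟩ := h ((A.e i).symm z)
  have hxx : (A.e i).symm z ∈ (A.e i).source ∩ (A.e k).source := ⟨hx, hk⟩
  have t1 := cH_pot_tr H hΨ hxx
  rw [(A.e i).right_inv hz] at t1
  have hJ := det_J hxx
  set J := Jm A i k ((A.e i).symm z) with hJd
  have e1 : (J.map conj)ᴴ = Jᵀ := by
    ext a b
    simp [Matrix.conjTranspose_apply, Matrix.transpose_apply]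
  have hunit : IsUnit (J.map conj) := by
    rw [Matrix.isUnit_iff_isUnit_det, isUnit_iff_ne_zero]
    have h2 : (J.map conj).det = conj J.det := by
      rw [← RingHom.mapMatrix_apply, ← RingHom.map_det]
    rw [h2]
    simpa using hJ
  have hp : (cH (pot H Ψ i) z).PosDef := by
    rw [t1, ← e1]
    exact hd.conjTranspose_mul_mul_same (Matrix.mulVec_injective_iff_isUnit.2 hunit)
  have hc := pot_contDiffAt H hΨ i hz
  rw [cH_eq_hess hc] at hp
  exact lev_pos_of_posDef hc hp hv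

end

end

end Crest.Agent.R281.Kp_487
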