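import Crest.Agent.R281.Kp3_487
import Crest.Agent.R273.YauOpen_635

/-!
# R281 (S0424), Yau for general Kaehler forms (helper487): openness
(compare `R273.YauOpen_635`)
-/

set_option autoImplicit false
set_option linter.unusedSectionVars false

open Set Filter Topology Complex Metric
open scoped ContDiff Matrix ComplexConjugate ComplexOrder

namespace Crest.Agent.R281.Kp_487

open Crest.Agent.R273

open Crest.Agent.R275.Geo Crest.Agent.R275.Core144 Crest.Agent.R275.GC293
open Crest.Agent.R273.Defs_333 Crest.Agent.R273.YauDefs_635 Crest.Agent.R273.HM_333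
open Crest.Agent.R273.YauCh_635 Crest.Agent.R273.Hess_333 Crest.Agent.R273.HessB_333
open Crest.Agent.R273.Kah_333 Crest.Agent.R273.YauMax_635 Crest.Agent.R273.YauLoc_635
open Crest.Agent.R273.SchA_152 Crest.Agent.R273.SchD_152 Crest.Agent.R273.YauQ_635
open Crest.Agent.R273.YauSchF_635 Crest.Agent.R273.YauClose_635 Crest.Agent.R273.YauPf_635
open Crest.Agent.R273.YauLim_635 Crest.Agent.R273.YauOpA_635 Crest.Agent.R273.CReg_933
open Crest.Agent.R273.YauOpen_635

noncomputable section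

variable {n : ℕ} {M : Type} [TopologicalSpace M] {A : Atl n M}

/-- linear theory at a smooth positive potential: `tr (G⁻¹ ∂∂̄ w) = f - m`,
`|m| + |w|_{2,a} ≤ C |f|_a`, norms with respect to a finite cover by chart balls -/
def LinStmt : Prop :=
  ∀ (n : ℕ) (M : Type) [TopologicalSpace M] [T2Space M] [CompactSpace M] [ConnectedSpace M]
    (A : Atl n M) [Finite A.ι], Nonempty (Part A) →
    ∀ (H : KP A), H.Pos → ∀ φ : M → ℝ, A.Sm φ → KPos H φ →
      ∃ (κ : Type) (_ : Finite κ) (ci : κ → A.ι) (cz : κ → Cn n) (cr : κ → ℝ) (C : ℝ), 0 ≤ C ∧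
        (∀ k, 0 < cr k ∧ cr k ≤ 1 ∧ closedBall (cz k) (cr k) ⊆ (A.e (ci k)).target) ∧
        (∀ x, ∃ k, x ∈ (A.e (ci k)).source ∧ A.e (ci k) x ∈ ball (cz k) (cr k)) ∧
        ∀ (N : ℝ) (f : M → ℝ), A.Sm f →
          (∀ k, HO (1 / 2) N (closedBall (cz k) (cr k)) (inC A (ci k) f)) →
          ∃ (w : M → ℝ) (m : ℝ), A.Sm w ∧ |m| ≤ C * N ∧
            (∀ k, C2A (1 / 2) (C * N) (closedBall (cz k) (cr k)) (inC A (ci k) w)) ∧
            ∀ i, ∀ z ∈ (A.e i).target, lr H φ w i z = inC A i f z - m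

/-- **openness** -/
theorem open_holds (hLin : LinStmt) (hR : RegStmt) : OpenStmt := by
  intro n M _ _ _ _ A _ hP H hH F hF t₀ φ₀ c₀ hsol
  obtain ⟨hφ, hK, hMA₀⟩ := hsol
  obtain ⟨κ, hκ, ci, cz, cr, CS, hCS, hcr, hcov, hlin⟩ := hLin n M A hP H hH φ₀ hφ hK
  set B : κ → Set (Cn n) := fun k => closedBall (cz k) (cr k) with hB
  have hBt : ∀ k, B k ⊆ (A.e (ci k)).target := fun k => (hcr k).2.2
  -- constants
  have hq := fun k => pr_quad hφ hK (hcr k).2.1 (hcr k).2.2
  choose Cq hCq0 hCq using hq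
  obtain ⟨CR, hCR0, hCR⟩ := exists_ub Cq
  set NN2 : ℝ → (M → ℝ) → Prop := fun d v =>
    A.Sm v ∧ ∀ k, C2A (1 / 2) d (B k) (inC A (ci k) v) with hNN2
  set NNH : ℝ → (M → ℝ) → Prop := fun d f =>
    A.Sm f ∧ ∀ k, HO (1 / 2) d (B k) (inC A (ci k) f) with hNNH
  have hsm0 : A.Sm (fun _ : M => (0 : ℝ)) := fun i => contDiffOn_const
  have newt := YauNA_635.newton NN2 NNH (Pf H φ₀) (Lf H φ₀) (fun _ => (1 : ℝ)) hCS hCR0
    ⟨hsm0, fun k => c2a_zero⟩
    (fun {a b v} hab hv => ⟨hv.1, fun k => (hv.2 k).mono hab⟩)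
    (fun {a b v w} hv hw => ⟨sm_add hv.1 hw.1, fun k => c2a_add (A.e (ci k)).open_target (hBt k)
      (inC_smooth hv.1 _) (inC_smooth hw.1 _) (hv.2 k) (hw.2 k)⟩)
    (fun {a b v} hab hv => ⟨hv.1, fun k => (hv.2 k).mono hab⟩)
    (fun {a b v w} hv hw => ⟨sm_add hv.1 hw.1, fun k => (hv.2 k).add (hw.2 k)⟩)
    (fun {a v} m hv => ⟨fun i => contDiffOn_const.mul (hv.1 i), fun k => ho_smul m (hv.2 k)⟩)
    (Pf_zero hφ hK)
    (fun N ρ hρ => by
      obtain ⟨w, m, hw, hm, hw2, hLw⟩ := hlin N ρ hρ.1 hρ.2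
      refine ⟨w, m, ?_, hm, hw, hw2⟩
      funext x
      obtain ⟨i, hi⟩ := A.cover x
      rw [Lf_eq H hφ hw hi, hLw i _ ((A.e i).map_source hi)]
      simp [inC, (A.e i).left_inv hi])
    (fun δ d v w hd hdδ hδ hv hw => by
      have hvw : A.Sm (v + w) := sm_add hv.1 hw.1
      refine ⟨fun i => ((Pf_sm hφ hK hvw i).sub (Pf_sm hφ hK hv.1 i)).sub
        (Lf_sm hφ hK hw.1 i), fun k => ?_⟩
      have h1 := hCq k δ d v w hd hdδ hδ hv.1 hw.1 (hv.2 k) (hw.2 k)
      have h2 : Cq k * δ * d ≤ CR * δ * d :=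
        mul_le_mul_of_nonneg_right (mul_le_mul_of_nonneg_right (hCR k) (hd.trans hdδ)) hd
      refine (h1.mono h2).congr fun z hz => ?_
      have e1 := Pf_read H hφ hvw (hBt k hz)
      have e2 := Pf_read H hφ hv.1 (hBt k hz)
      have e3 := Lf_read H hφ hw.1 (hBt k hz)
      simp only [inC] at e1 e2 e3
      simp only [inC, Pi.sub_apply, e1, e2, e3]
      rfl)
  -- positivity threshold
  have hlow : ∀ k, ∃ c : ℝ, 0 < c ∧ ∀ z ∈ B k, ∀ v, c * ‖v‖ ^ 2 ≤ lev (pot H φ₀ (ci k)) z v :=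
    fun k => lev_lower (A.e (ci k)).open_target
      (((wt_smooth H (ci k)).add (inC_smooth hφ (ci k))).of_le two_le_inf)
      (isCompact_closedBall _ _) (hBt k) (fun z hz v hv => hK (ci k) z (hBt k hz) v hv)
  choose lo' hlo'0 hlo' using hlow
  obtain ⟨lo, hlo0, hlo⟩ := exists_pos_lb hlo'0
  set η : ℝ := min (lo / 4) (1 / 2) with hη
  have hη0 : 0 < η := lt_min (by linarith) (by norm_num)
  have hηlo : η ≤ lo / 4 := min_le_left _ _
  have hηh : η ≤ 1 / 2 := min_le_right _ _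
  obtain ⟨ε, hε0, hnewt⟩ := newt η hη0
  -- Hoelder bound of F
  have hFH : ∀ k, ∃ V, HO (1 / 2) V (B k) (inC A (ci k) F) := fun k =>
    ho_c1 (A.e (ci k)).open_target ((inC_smooth hF (ci k)).of_le (by simp)) (hcr k).2.1
      (hcr k).2.2
  choose VF hVF using hFH
  obtain ⟨KF, hKF0, hKF⟩ := exists_ub VF
  refine ⟨min (1 / (2 * KF + 1)) (ε / (6 * KF + 1)), lt_min (by positivity) (by positivity),
    fun t ht => ?_⟩
  set s : ℝ := t - t₀ with hs
  have hs1 : |s| * (2 * KF + 1) ≤ 1 := by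
    have := (ht.trans_le (min_le_left _ _)).le
    rwa [le_div_iff₀ (by positivity)] at this
  have hs2 : 6 * |s| * KF ≤ ε := by
    have := (ht.trans_le (min_le_right _ _)).le
    rw [le_div_iff₀ (by positivity)] at this
    nlinarith [abs_nonneg s]
  set e : M → ℝ := fun x => Real.exp (s * F x) - 1 with he
  have heH : NNH ε e := by
    refine ⟨fun i => ((contDiffOn_const.mul (hF i)).exp).sub contDiffOn_const, fun k => ?_⟩
    exact (ho_exp hKF0 ((hVF k).mono (hKF k)) hs1).mono hs2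
  have hseq := hnewt e heH
  choose v μ hv hμ hres using hseq
  -- limits
  set U : Ultrafilter ℕ := hyperfilter ℕ with hU
  have hUle : (U : Filter ℕ) ≤ atTop := Nat.hyperfilter_le_atTop
  have hvb : ∀ j x, ‖v j x‖ ≤ η := by
    intro j x
    obtain ⟨k, hk, hkb⟩ := hcov x
    have := ((hv j).2 k).h0.bdd (A.e (ci k) x) (ball_subset_closedBall hkb)
    simpa [inC, (A.e (ci k)).left_inv hk] using this
  have hlim : ∀ x, ∃ y, Tendsto (fun j => v j x) U (𝓝 y) := fun x =>
    exists_lim U (fun j => hvb j x)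
  choose Φ hΦ using hlim
  obtain ⟨m, hm⟩ := exists_lim U (x := μ) (S := η) (fun j => by
    rw [Real.norm_eq_abs]
    exact hμ j)
  have hm1 : |m| ≤ 1 / 2 := by
    have := lim_norm_le hm (C := η) (fun j => by rw [Real.norm_eq_abs]; exact hμ j)
    rw [Real.norm_eq_abs] at this
    linarith
  have hm2 : 0 < 1 + m := by
    have := (abs_le.1 hm1).1
    linarith
  set Ψ : M → ℝ := fun y => φ₀ y + Φ y with hΨ
  set c : ℝ := c₀ + Real.log (1 + m) with hc
  -- local analysis in a ball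
  have hloc : ∀ k, ContDiffOn ℝ ∞ (pot H Ψ (ci k)) (ball (cz k) (cr k)) ∧
      ∀ z ∈ ball (cz k) (cr k), (cH (pot H Ψ (ci k)) z).PosDef ∧
        (cH (pot H Ψ (ci k)) z).det =
          (Real.exp (t * F ((A.e (ci k)).symm z) + c) : ℂ) * (cH (H.wt (ci k)) z).det := by
    intro k
    set O : Set (Cn n) := ball (cz k) (cr k) with hO
    have hOB : O ⊆ B k := ball_subset_closedBall
    have hOt : O ⊆ (A.e (ci k)).target := hOB.trans (hBt k)
    have hp0 : ContDiffOn ℝ ∞ (pot H φ₀ (ci k)) (A.e (ci k)).target :=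
      (wt_smooth H (ci k)).add (inC_smooth hφ (ci k))
    set u : ℕ → Cn n → ℝ := fun j => pot H (fun y => φ₀ y + v j y) (ci k) with hu
    have hue : ∀ j, u j = fun w => pot H φ₀ (ci k) w + inC A (ci k) (v j) w := fun j => by
      funext w
      simp only [hu, pot, inC]
      ring
    have husm : ∀ j, ContDiffOn ℝ ∞ (u j) (A.e (ci k)).target := fun j => by
      rw [hue j]
      exact hp0.add (inC_smooth (hv j).1 _)
    obtain ⟨V1, hV1⟩ := ho_smooth (A.e (ci k)).open_target hp0 (hcr k).2.1 (hcr k).2.2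
    obtain ⟨V0, hV0⟩ := (isCompact_closedBall (cz k) (cr k)).exists_bound_of_continuousOn
      (hp0.continuousOn.mono (hcr k).2.2)
    set S : ℝ := max (max V0 V1) 0 + η with hS
    have hS0 : 0 ≤ S := add_nonneg (le_max_right _ _) hη0.le
    have hV0S : V0 + η ≤ S := add_le_add ((le_max_left _ _).trans (le_max_left _ _)) le_rfl
    have hV1S : V1 + η ≤ S := add_le_add ((le_max_right _ _).trans (le_max_left _ _)) le_rfl
    obtain ⟨g1, g2, g3⟩ := ball_limit U (z₀ := cz k) (r := cr k) (a := 1 / 2) (S := S)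
      (by norm_num) hS0 (u := u) (V := pot H Ψ (ci k))
      (fun j => ((husm j).mono hOt).of_le two_le_inf)
      (fun j z hz => by
        rw [hue j]
        have b1 := hV0 z (hOB hz)
        have b2 := ((hv j).2 k).h0.bdd z (hOB hz)
        rw [Real.norm_eq_abs] at b1 b2
        exact (abs_add_le _ _).trans ((add_le_add b1 b2).trans hV0S))
      (fun j => by
        have h1 : HO (1 / 2) (V1 + η) (B k) (fderiv ℝ (fderiv ℝ (u j))) := by
          rw [hue j]
          exact (hV1.add ((hv j).2 k).h2).congr fun z hz =>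
            fd2_add (A.e (ci k)).open_target hp0 (inC_smooth (hv j).1 _) (hBt k hz)
        exact (h1.mono hV1S).subset hOB)
      (fun z hz => by
        have : ∀ j, u j z = H.wt (ci k) z + (φ₀ ((A.e (ci k)).symm z) + v j ((A.e (ci k)).symm z)) :=
          fun j => rfl
        simp only [this]
        exact tendsto_const_nhds.add (tendsto_const_nhds.add (hΦ _)))
    -- positivity
    have hlev : ∀ z ∈ O, ∀ ξ, lo / 2 * ‖ξ‖ ^ 2 ≤ lev (pot H Ψ (ci k)) z ξ := by
      intro z hz ξ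
      refine ge_of_tendsto (tendsto_lev (g2 z hz) ξ) (Eventually.of_forall fun j => ?_)
      have hzt := hOt hz
      have h1 : lev (u j) z ξ = lev (pot H φ₀ (ci k)) z ξ + lev (inC A (ci k) (v j)) z ξ := by
        rw [lev333_eq_lev145, lev333_eq_lev145, lev333_eq_lev145, hue j,
          Levi_145.lev_add ((pot_contDiffAt H hφ (ci k) hzt).of_le two_le_inf)
            (inC_c2 (hv j).1 (ci k) hzt)]
        ring
      have h2 := abs_lev_le (inC A (ci k) (v j)) z ξ
      have h3 := ((hv j).2 k).h2.bdd z (hOB hz)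
      have h4 := (hlo' k z (hOB hz) ξ)
      have h5 := hlo k
      have h6 : 0 ≤ ‖ξ‖ ^ 2 := by positivity
      have h7 : 2 * ‖fderiv ℝ (fderiv ℝ (inC A (ci k) (v j))) z‖ * ‖ξ‖ ^ 2 ≤
          2 * η * ‖ξ‖ ^ 2 :=
        mul_le_mul_of_nonneg_right (by linarith) h6
      have h8 : lo * ‖ξ‖ ^ 2 ≤ lo' k * ‖ξ‖ ^ 2 := mul_le_mul_of_nonneg_right h5 h6
      have h9 : 2 * η * ‖ξ‖ ^ 2 ≤ lo / 2 * ‖ξ‖ ^ 2 :=
        mul_le_mul_of_nonneg_right (by linarith) h6
      have h10 := (abs_le.1 (h2.trans h7)).1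
      rw [h1]
      linarith
    have hpd : ∀ z ∈ O, (cH (pot H Ψ (ci k)) z).PosDef := fun z hz =>
      posDef_cH (g1.contDiffAt (isOpen_ball.mem_nhds hz)) fun ξ hξ => by
        have h1 := hlev z hz ξ
        have h2 : 0 < ‖ξ‖ ^ 2 := by
          have := norm_pos_iff.2 hξ
          positivity
        nlinarith
    -- equation
    have heq : ∀ z ∈ O, (cH (pot H Ψ (ci k)) z).det =
        (Real.exp (t * F ((A.e (ci k)).symm z) + c) : ℂ) * (cH (H.wt (ci k)) z).det := by
      intro z hz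
      have hzt := hOt hz
      have hx := (A.e (ci k)).map_target hzt
      set x : M := (A.e (ci k)).symm z with hxd
      have l1 : Tendsto (fun j => pr H φ₀ (v j) (ci k) z) U
          (𝓝 ((cH (pot H Ψ (ci k)) z).det / (cH (pot H φ₀ (ci k)) z).det).re) :=
        (Complex.continuous_re.tendsto _).comp ((tendsto_det (g2 z hz)).div_const _)
      have l2 : Tendsto (fun j => (1 + μ j) * Real.exp (s * F x)) U
          (𝓝 ((1 + m) * Real.exp (s * F x))) := (hm.const_add 1).mul_const _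
      have l3 : Tendsto (fun j => (1 + μ j) * Real.exp (s * F x) - pr H φ₀ (v j) (ci k) z) U
          (𝓝 0) := by
        have l4 : Tendsto (fun j : ℕ => ε * (1 / 2 : ℝ) ^ j) U (𝓝 0) := by
          have := (tendsto_pow_atTop_nhds_zero_of_lt_one (r := (1 / 2 : ℝ)) (by norm_num)
            (by norm_num)).const_mul ε
          rw [mul_zero] at this
          exact this.mono_left hUle
        refine squeeze_zero_norm (fun j => ?_) l4
        have h1 := ((hres j).2 k).bdd z (hOB hz)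
        have h2 : inC A (ci k) ((1 + μ j) • ((fun _ => (1 : ℝ)) + e) - Pf H φ₀ (v j)) z =
            (1 + μ j) * Real.exp (s * F x) - pr H φ₀ (v j) (ci k) z := by
          have h3 := Pf_read H hφ (hv j).1 hzt
          simp only [inC] at h3
          simp only [inC, Pi.sub_apply, Pi.smul_apply, Pi.add_apply, smul_eq_mul, he, h3]
          ring
        rwa [h2] at h1
      have h0 := tendsto_nhds_unique l3 (l2.sub l1)
      have h1 : ((cH (pot H Ψ (ci k)) z).det / (cH (pot H φ₀ (ci k)) z).det).re =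
          (1 + m) * Real.exp (s * F x) := by linarith
      have hd0 := (posDef_pot hφ hK hzt).det_pos
      have hd1 := (hpd z hz).det_pos
      have r0 : (cH (pot H φ₀ (ci k)) z).det = (((cH (pot H φ₀ (ci k)) z).det.re : ℝ) : ℂ) := by
        have := (Complex.pos_iff.1 hd0).2
        apply Complex.ext <;> simp [← this]
      have r1 : (cH (pot H Ψ (ci k)) z).det = (((cH (pot H Ψ (ci k)) z).det.re : ℝ) : ℂ) := by
        have := (Complex.pos_iff.1 hd1).2
        apply Complex.ext <;> simp [← this]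
      have p0 : 0 < (cH (pot H φ₀ (ci k)) z).det.re := (Complex.pos_iff.1 hd0).1
      have h2 : (cH (pot H Ψ (ci k)) z).det.re / (cH (pot H φ₀ (ci k)) z).det.re =
          (1 + m) * Real.exp (s * F x) := by
        rw [← h1]
        conv_rhs => rw [r0, r1]
        rw [← Complex.ofReal_div, Complex.ofReal_re]
      rw [div_eq_iff p0.ne'] at h2
      have h3 := hMA₀ (ci k) z hzt
      simp only [inC] at h3
      rw [r1, h2, Complex.ofReal_mul, ← r0, h3, ← mul_assoc, ← Complex.ofReal_mul]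
      congr 2
      rw [hc, ← Real.exp_log hm2, mul_assoc, ← Real.exp_add, ← Real.exp_add, Real.exp_log hm2, hs]
      congr 1
      ring
    refine ⟨?_, fun z hz => ⟨hpd z hz, heq z hz⟩⟩
    refine hR n O (pot H Ψ (ci k)) (fh H F t c (ci k)) (1 / 2) isOpen_ball (by norm_num)
      (by norm_num) g1 ((fh_smooth hH hF t c (ci k)).mono hOt) (fun z₀ hz₀ => ?_)
      (fun z hz ξ hξ => ?_) (fun z hz => ?_)
    · obtain ⟨ρ, hρ, hρs⟩ := Metric.isOpen_iff.1 isOpen_ball z₀ hz₀
      exact ⟨ρ, hρ, S, hρs, fun z hz w hw => g3.hol z (hρs hz) w (hρs hw)⟩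
    · have h1 := hlev z hz ξ
      have h2 : 0 < ‖ξ‖ ^ 2 := by
        have := norm_pos_iff.2 hξ
        positivity
      nlinarith
    · rw [heq z hz, ← exp_ldet hH (hOt hz), fh, Real.exp_add _ (ldet H (ci k) z)]
      simp [inC]
  have hΨsm : A.Sm Ψ := by
    refine sm_of_local fun x => ?_
    obtain ⟨k, hk, hkb⟩ := hcov x
    refine ⟨ci k, hk, ?_⟩
    have h1 := ((hloc k).1.contDiffAt (isOpen_ball.mem_nhds hkb)).sub
      (wt_contDiffAt H (ci k) ((A.e (ci k)).map_source hk))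
    refine h1.congr_of_eventuallyEq (Eventually.of_forall fun w => ?_)
    simp [pot]
  refine ⟨Ψ, c, hΨsm, kpos_of_local hΨsm fun x => ?_, ma_of_local hH hΨsm fun x => ?_⟩
  · obtain ⟨k, hk, hkb⟩ := hcov x
    exact ⟨ci k, hk, ((hloc k).2 _ hkb).1⟩
  · obtain ⟨k, hk, hkb⟩ := hcov x
    refine ⟨ci k, hk, ?_⟩
    have := ((hloc k).2 _ hkb).2
    rwa [(A.e (ci k)).left_inv hk] at this

/-- **Yau's theorem** from the remaining inputs -/
theorem yau_main (h0 : C0Stmt) (h2 : C2Stmt) (h3 : C3Stmt) (hLin : LinStmt) : YauStmt :=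
  yau_holds h0 h2 h3 reg_holds schFlat_holds (open_holds hLin reg_holds)

end

end Crest.Agent.R281.Kp_487
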