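import Crest.Agent.R281.Kp1_487
import Crest.Agent.R273.C0f_793

/-!
# R281 (S0424), Yau for general Kaehler forms (helper487): the C0 estimate
(compare `R273.C0e_390`, `R273.C0f_793`)
-/

set_option autoImplicit false
set_option linter.unusedSectionVars false

open MeasureTheory Set Metric Filter Topology
open scoped ContDiff

namespace Crest.Agent.R281.Kp_487

open Crest.Agent.R273

section

open Crest.Agent.R275.Geo Crest.Agent.R275.Core144 Crest.Agent.R275.GC293
open Crest.Agent.R273.Defs_333 Crest.Agent.R273.YauDefs_635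
open Crest.Agent.R273.C0d_390 (lv submean l1_ball)
open Crest.Agent.R273.C0e_390

noncomputable section

variable {n : ℕ} {M : Type} [TopologicalSpace M] {A : Atl n M}
variable (μ : Measure (Cn n)) [μ.IsAddHaarMeasure]

theorem contDiffAt_wt (H : KP A) {i : A.ι} {z : Cn n} (hz : z ∈ (A.e i).target)
    {k : WithTop ℕ∞} (hk : k ≤ ∞) : ContDiffAt ℝ k (H.wt i) z :=
  (wt_contDiffAt H i hz).of_le hk

/-- `ω`-plurisubharmonic functions with maximum `0` -/
def PSH (H : KP A) (φ : M → ℝ) : Prop :=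
  A.Sm φ ∧ KPos H φ ∧ (∀ x, φ x ≤ 0) ∧ ∃ x, φ x = 0

theorem cls_psh (H : KP A) : Cls A (PSH H) := by
  refine ⟨fun φ hφ => hφ.1, fun φ hφ => hφ.2.2.1, fun i K hK hc => ?_⟩
  have hcont : ContinuousOn (fun z => fderiv ℝ (fderiv ℝ (H.wt i)) z) K := fun z hz => by
    have h1 : ContDiffAt ℝ 2 (H.wt i) z := contDiffAt_wt H (hK hz) two_le_inf
    exact ((h1.fderiv_right (m := 1) (by norm_num)).fderiv_right (m := 0)
      (by norm_num)).continuousAt.continuousWithinAt
  obtain ⟨C, hC⟩ := hc.exists_bound_of_continuousOn (f := fun z => fderiv ℝ (fderiv ℝ (H.wt i)) z) hcont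
  refine ⟨2 * |C|, by positivity, fun φ hφ z hz v => ?_⟩
  rw [lv_eq_lev]
  have h1 : 0 ≤ Defs_333.lev (pot H φ i) z v := by
    by_cases hv : v = 0
    · subst hv
      rw [lev333_eq]
      simp [D2]
    · exact (hφ.2.1 i z (hK hz) v hv).le
  have h2 : Defs_333.lev (pot H φ i) z v
      = Defs_333.lev (H.wt i) z v + Defs_333.lev (inC A i φ) z v :=
    lev_add (contDiffAt_wt H (hK hz) two_le_inf)
      (contDiffAt_inC hφ.1 (hK hz) two_le_inf) v
  have hb : ∀ w : Cn n, |D2 (H.wt i) z w w| ≤ |C| * ‖w‖ ^ 2 := by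
    intro w
    have h3 : ‖fderiv ℝ (fderiv ℝ (H.wt i)) z‖ ≤ |C| := (hC z hz).trans (le_abs_self C)
    calc |D2 (H.wt i) z w w| ≤ ‖fderiv ℝ (fderiv ℝ (H.wt i)) z‖ * ‖w‖ * ‖w‖ :=
          (fderiv ℝ (fderiv ℝ (H.wt i)) z).le_opNorm₂ w w
      _ ≤ |C| * ‖w‖ * ‖w‖ := by gcongr
      _ = _ := by ring
  have h4 : Defs_333.lev (H.wt i) z v ≤ 2 * |C| * ‖v‖ ^ 2 := by
    rw [lev333_eq]
    have h5 := (le_abs_self _).trans (hb v)
    have h6 := (le_abs_self _).trans (hb (Complex.I • v))
    rw [norm_smul, Complex.norm_I, one_mul] at h6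
    linarith
  linarith

/-- **C0-d** -/
theorem l1_psh [CompactSpace M] [ConnectedSpace M] (H : KP A) (i : A.ι)
    {K : Set (Cn n)} (hK : IsCompact K) (hKt : K ⊆ (A.e i).target) :
    ∃ C : ℝ, 0 ≤ C ∧ ∀ φ, PSH H φ →
      ∫⁻ w in K, ENNReal.ofReal (-inC A i φ w) ∂μ ≤ ENNReal.ofReal C :=
  l1_compact μ (cls_psh H) (fun _ hφ => hφ.2.2.2) i hK hKt

end

end

section

open Set Filter _root_.Topology Complex MeasureTheory
open scoped ContDiff Matrix ComplexConjugate ENNReal

open Crest.Agent.R275.Geo Crest.Agent.R275.Core144 Crest.Agent.R275.GC293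
open Crest.Agent.R273.Defs_333 Crest.Agent.R273.YauDefs_635 Crest.Agent.R273.C0e_390
open Crest.Agent.R273.C0a_793 Crest.Agent.R273.C0b_793
open Crest.Agent.R273.C0f_793

noncomputable section

variable {n : ℕ} {M : Type} [TopologicalSpace M] {A : Atl n M}

/-- bound of the determinant of the background metric on a compact set. -/
theorem exists_det_le (H : KP A) (i : A.ι) {K : Set (Cn n)} (hK : IsCompact K)
    (hKt : K ⊆ (A.e i).target) : ∃ D : ℝ, 0 ≤ D ∧ ∀ z ∈ K, ‖(cH (H.wt i) z).det‖ ≤ D := by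
  have hc : ContinuousOn (fun z => (cH (H.wt i) z).det) K := by
    intro z hz
    have h1 : ContDiffAt ℝ 2 (H.wt i) z := contDiffAt_wt H (hKt hz) two_le_inf
    have h2 : ContinuousAt (C0b_793.D2 (H.wt i)) z := continuousAt_D2 h1
    have h3 : ∀ v w : Cn n, ContinuousAt (fun z => YauDefs_635.D2 (H.wt i) z v w) z := fun v w =>
      (h2.clm_apply continuousAt_const).clm_apply continuousAt_const
    have h4 : ContinuousAt (fun z => cH (H.wt i) z) z := by
      refine continuousAt_pi.2 fun a => continuousAt_pi.2 fun b => ?_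
      simp only [cH, Matrix.of_apply]
      have k1 := h3 (EuclideanSpace.single a 1) (EuclideanSpace.single b 1)
      have k2 := h3 (EuclideanSpace.single a I) (EuclideanSpace.single b I)
      have k3 := h3 (EuclideanSpace.single a 1) (EuclideanSpace.single b I)
      have k4 := h3 (EuclideanSpace.single a I) (EuclideanSpace.single b 1)
      exact continuousAt_const.mul ((Complex.continuous_ofReal.continuousAt.comp (k1.add k2)).add
        (continuousAt_const.mul (Complex.continuous_ofReal.continuousAt.comp (k3.sub k4))))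
    have h5 : Continuous (fun m : Matrix (Fin n) (Fin n) ℂ => m.det) := continuous_id.matrix_det
    exact (h5.continuousAt.comp h4).continuousWithinAt
  obtain ⟨C, hC⟩ := hK.exists_bound_of_continuousOn hc
  exact ⟨|C|, abs_nonneg _, fun z hz => (hC z hz).trans (le_abs_self C)⟩

/-- **local form**: a minimum in a fixed chart ball is bounded below. -/
theorem local_C0 [CompactSpace M] [ConnectedSpace M] (H : KP A) (hH : H.Pos)
    {i : A.ι} {z1 : Cn n} {r : ℝ} (hr : 0 < r)
    (hz1 : Metric.closedBall z1 (3 * r) ⊆ (A.e i).target) (K : ℝ) :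
    ∃ C : ℝ, ∀ φ f : M → ℝ, PSH H φ → MA H φ f → (∀ x, |f x| ≤ K) →
      ∀ p ∈ cb A i z1 r, (∀ y, φ p ≤ φ y) → -φ p ≤ C := by
  have hsub2 : Metric.closedBall z1 (2 * r) ⊆ (A.e i).target :=
    (Metric.closedBall_subset_closedBall (by linarith)).trans hz1
  have hwt : ∀ x ∈ Metric.closedBall z1 (2 * r), ContDiffAt ℝ 2 (H.wt i) x := fun x hx =>
    contDiffAt_wt H (hsub2 hx) two_le_inf
  obtain ⟨ρ, hρ, hρr, lam, hlam, hq⟩ := exists_quad (u := H.wt i) (z1 := z1) (a := r)
    (b := 2 * r) (by linarith) hwt (fun x hx v hv => by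
      rw [← lev_eq_lv]
      exact hH i x (hsub2 hx) v hv)
  obtain ⟨D, hD0, hD⟩ := exists_det_le H i (isCompact_closedBall z1 (2 * r)) hsub2
  obtain ⟨C1, hC10, hC1⟩ := l1_psh (volume : Measure (Cn n)) H i
    (isCompact_closedBall z1 (2 * r)) hsub2
  set c : ℝ := lam * ρ ^ 2 with hc
  have hc0 : 0 < c := by positivity
  set Kd : ℝ := 16 ^ n * (Real.exp K * D) ^ 2 with hKd
  have hKd0 : 0 ≤ Kd := by positivity
  set v : ℝ := (volume (Metric.ball (0 : Cn n) (c / ρ))).toReal with hv
  have hv0 : 0 < v := ENNReal.toReal_pos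
    (Metric.measure_ball_pos volume _ (by positivity)).ne' measure_ball_lt_top.ne
  refine ⟨c + Kd * C1 / v, fun φ f hφ hMA hf p hp hmin => ?_⟩
  by_cases hM : -φ p ≤ c
  · have : 0 ≤ Kd * C1 / v := by positivity
    linarith
  push Not at hM
  set z0 : Cn n := A.e i p with hz0
  have hz0b : z0 ∈ Metric.closedBall z1 r := Metric.ball_subset_closedBall hp.2
  have hsub3 : Metric.closedBall z0 ρ ⊆ Metric.closedBall z1 (2 * r) := by
    intro x hx
    rw [Metric.mem_closedBall] at *
    have := dist_triangle x z0 z1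
    linarith
  have hz0φ : inC A i φ z0 = φ p := by
    unfold inC
    rw [hz0, (A.e i).left_inv hp.1]
  have hφc : ∀ x ∈ Metric.closedBall z1 (2 * r), ContDiffAt ℝ 2 (inC A i φ) x := fun x hx =>
    contDiffAt_inC hφ.1 (hsub2 hx) two_le_inf
  set u : Cn n → ℝ := fun y => psi (H.wt i) z0 y + inC A i φ y with hu
  have hu0 : u z0 = φ p := by
    simp only [hu, psi_self, hz0φ, zero_add]
  have huc : ∀ x ∈ Metric.closedBall z0 ρ, ContDiffAt ℝ 2 u x := fun x hx =>
    (contDiffAt_psi z0 (hwt x (hsub3 hx))).add (hφc x (hsub3 hx))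
  have hbd : ∀ x ∈ Metric.sphere z0 ρ, u z0 + c ≤ u x := by
    intro x hx
    have h1 := hq z0 hz0b x (Metric.sphere_subset_closedBall hx)
    have h2 : ‖x - z0‖ = ρ := by simpa [dist_eq_norm] using hx
    rw [h2] at h1
    have h3 : φ p ≤ inC A i φ x := hmin _
    rw [hu0]
    simp only [hu]
    linarith
  have hpsi0 : ∀ x ∈ Metric.closedBall z0 ρ, 0 ≤ psi (H.wt i) z0 x := fun x hx =>
    le_trans (by positivity) (hq z0 hz0b x hx)
  have hdet : ∀ x ∈ contact u z0 ρ c, 16 ^ n * ‖(chM u x).det‖ ^ 2 ≤ Kd := by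
    intro x hx
    have hxb : x ∈ Metric.closedBall z0 ρ := Metric.ball_subset_closedBall hx.1
    have hx2 := hsub3 hxb
    have h1 : chM u x = cH (pot H φ i) x := by
      rw [← chM_eq_cH]
      exact chM_psi_add (hwt z0 (hsub3 (Metric.mem_closedBall_self hρ.le))) (hwt x hx2)
        (hφc x hx2)
    rw [h1, hMA i x (hsub2 hx2), norm_mul, hKd]
    have h2 : ‖((Real.exp (inC A i f x) : ℝ) : ℂ)‖ ≤ Real.exp K := by
      rw [Complex.norm_real, Real.norm_eq_abs, abs_of_pos (Real.exp_pos _)]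
      exact Real.exp_le_exp.2 ((le_abs_self _).trans (hf _))
    have h3 := hD x hx2
    gcongr
  have habp := abp hρ huc hbd hdet
  -- the contact set is a sublevel set of `φ`
  have hcs : contact u z0 ρ c ⊆ {x | x ∈ Metric.closedBall z1 (2 * r) ∧
      ENNReal.ofReal (-φ p - c) ≤ ENNReal.ofReal (-inC A i φ x)} := by
    intro x hx
    have hxb : x ∈ Metric.closedBall z0 ρ := Metric.ball_subset_closedBall hx.1
    refine ⟨hsub3 hxb, ENNReal.ofReal_le_ofReal ?_⟩
    have h1 := hx.2.1
    rw [hu0] at h1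
    simp only [hu] at h1
    have h2 := hpsi0 x hxb
    linarith
  have hmk : ENNReal.ofReal (-φ p - c) * volume (contact u z0 ρ c) ≤ ENNReal.ofReal C1 := by
    have hm := measurableSet_contact (c := c) huc
    calc ENNReal.ofReal (-φ p - c) * volume (contact u z0 ρ c)
        = ∫⁻ _ in contact u z0 ρ c, ENNReal.ofReal (-φ p - c) := by rw [setLIntegral_const]
      _ ≤ ∫⁻ x in contact u z0 ρ c, ENNReal.ofReal (-inC A i φ x) :=
          setLIntegral_mono' hm fun x hx => (hcs hx).2
      _ ≤ ∫⁻ x in Metric.closedBall z1 (2 * r), ENNReal.ofReal (-inC A i φ x) :=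
          lintegral_mono_set fun x hx => (hcs hx).1
      _ ≤ ENNReal.ofReal C1 := hC1 φ hφ
  have hfin : ENNReal.ofReal (-φ p - c) * volume (Metric.ball (0 : Cn n) (c / ρ))
      ≤ ENNReal.ofReal (Kd * C1) := by
    calc ENNReal.ofReal (-φ p - c) * volume (Metric.ball (0 : Cn n) (c / ρ))
        ≤ ENNReal.ofReal (-φ p - c) * (ENNReal.ofReal Kd * volume (contact u z0 ρ c)) :=
          mul_le_mul_right habp _
      _ = ENNReal.ofReal Kd * (ENNReal.ofReal (-φ p - c) * volume (contact u z0 ρ c)) := by ring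
      _ ≤ ENNReal.ofReal Kd * ENNReal.ofReal C1 := mul_le_mul_right hmk _
      _ = ENNReal.ofReal (Kd * C1) := (ENNReal.ofReal_mul hKd0).symm
  have hvv : volume (Metric.ball (0 : Cn n) (c / ρ)) = ENNReal.ofReal v := by
    rw [hv, ENNReal.ofReal_toReal measure_ball_lt_top.ne]
  rw [hvv, ← ENNReal.ofReal_mul (by linarith), ENNReal.ofReal_le_ofReal_iff (by positivity)] at hfin
  have : -φ p - c ≤ Kd * C1 / v := by
    rw [le_div_iff₀ hv0]
    exact hfin
  linarith

theorem c0_holds : C0Stmt := by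
  intro n M _ _ _ _ A _ _ H hH K
  classical
  choose i z r hr hz hx using exists_cb (A := A)
  choose C hC using fun x : M => local_C0 H hH (hr x) (hz x) K
  obtain ⟨T, hT⟩ := isCompact_univ.elim_finite_subcover (fun t : M => cb A (i t) (z t) (r t))
    (fun t => isOpen_cb _ _ _) (fun t _ => mem_iUnion.2 ⟨t, hx t⟩)
  refine ⟨∑ t ∈ T, |C t|, fun φ f hφ hf hpos hMA hfK x y => ?_⟩
  have hcont := continuous_of_sm hφ
  obtain ⟨xm, -, hxm⟩ := isCompact_univ.exists_isMaxOn (univ_nonempty (α := M)) hcont.continuousOn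
  obtain ⟨p, -, hp⟩ := isCompact_univ.exists_isMinOn (univ_nonempty (α := M)) hcont.continuousOn
  have hxm' : ∀ y, φ y ≤ φ xm := fun y => hxm (mem_univ y)
  have hp' : ∀ y, φ p ≤ φ y := fun y => hp (mem_univ y)
  set φ' : M → ℝ := fun y => φ y - φ xm with hφ'
  have hpot : ∀ j w, w ∈ (A.e j).target → fderiv ℝ (fderiv ℝ (pot H φ' j)) w
      = fderiv ℝ (fderiv ℝ (pot H φ j)) w := by
    intro j w _
    have e : pot H φ' j = fun y => pot H φ j y - φ xm := by
      funext y
      simp only [pot, inC, hφ']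
      ring
    have e2 : fderiv ℝ (pot H φ' j) = fderiv ℝ (pot H φ j) := by
      funext y
      rw [e]
      exact fderiv_sub_const _
    rw [e2]
  have hPSH : PSH H φ' := by
    refine ⟨fun j => (hφ j).sub contDiffOn_const, fun j w hw v hv => ?_, fun y => ?_, xm, ?_⟩
    · have h1 := hpos j w hw v hv
      rw [lev333_eq] at h1 ⊢
      simp only [YauDefs_635.D2] at h1 ⊢
      rw [hpot j w hw]
      exact h1
    · have := hxm' y
      simp only [hφ']
      linarith
    · simp [hφ']
  have hMA' : MA H φ' f := by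
    intro j w hw
    rw [← hMA j w hw]
    congr 1
    ext a b
    simp only [cH, Matrix.of_apply, YauDefs_635.D2]
    rw [hpot j w hw]
  obtain ⟨t, htT, htp⟩ := mem_iUnion₂.1 (hT (mem_univ p))
  have h1 := hC t φ' f hPSH hMA' hfK p htp (fun y => by
    have := hp' y
    simp only [hφ']
    linarith)
  have h2 : |C t| ≤ ∑ t ∈ T, |C t| :=
    Finset.single_le_sum (f := fun t => |C t|) (fun t _ => abs_nonneg _) htT
  have h3 := le_abs_self (C t)
  have h4 := hxm' x
  have h5 := hp' y
  simp only [hφ'] at h1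
  linarith

end

end

end Crest.Agent.R281.Kp_487
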