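import Crest.Agent.R281.Kp4_487
import Crest.Agent.R281.Kp5_487
import Crest.Agent.R273.YauLin_635
import Crest.Agent.R273.CLinE_933

/-!
# R281 (S0424), Yau for general Kaehler forms (helper487): linear theory
(compare `R273.SchK_152`, `R273.CLinE_933`, `R273.YauLin_635`)
-/

set_option autoImplicit false
set_option linter.unusedSectionVars false

open Set Metric Filter
open scoped ContDiff Topology Matrix ComplexConjugate ComplexOrder

namespace Crest.Agent.R281.Kp_487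

open Crest.Agent.R273

section

open Crest.Agent.R275 Crest.Agent.R275.Geo Crest.Agent.R275.Core144
open Crest.Agent.R273.Defs_333 Crest.Agent.R273.Hess_333 Crest.Agent.R273.HessB_333
open Crest.Agent.R273.HM_333 Crest.Agent.R273.Kah_333 Crest.Agent.R273.YauDefs_635
open Crest.Agent.R273.YauMax_635
open Crest.Agent.R273.SchA_152 Crest.Agent.R273.SchD_152 Crest.Agent.R273.SchE_152
  Crest.Agent.R273.SchF_152 Crest.Agent.R273.SchG_152 Crest.Agent.R273.SchH_152
  Crest.Agent.R273.SchI_152 Crest.Agent.R273.SchJ_152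
open Crest.Agent.R273.SchK_152

noncomputable section

variable {n : ℕ} {M : Type} [TopologicalSpace M] {A : Atl n M}

theorem cur_pot (H : KP A) {φ : M → ℝ} (hφ : A.Sm φ) (i : A.ι) {z : Cn n}
    (hz : z ∈ (A.e i).target) : cur (tw H φ hφ) i ((A.e i).symm z) = cH (pot H φ i) z := by
  rw [cH_eq_hess (pot_contDiffAt H hφ i hz), hess_pot H hφ i hz,
    cur_tw H hφ i ((A.e i).map_target hz), cur_read H i hz, hsf_read φ i hz]
  rfl

theorem pos_tw (H : KP A) {φ : M → ℝ} (hφ : A.Sm φ) (hp : KPos H φ) : (tw H φ hφ).Pos :=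
  pos_of_cur fun i x hx => by
    have hz := (A.e i).map_source hx
    have h1 := cur_pot H hφ i hz
    rw [(A.e i).left_inv hx] at h1
    rw [h1, cH_eq_hess (pot_contDiffAt H hφ i hz)]
    exact posDef_hess (pot_contDiffAt H hφ i hz) (hp i _ hz)

/-- the Kaehler metric `ω_H + i∂∂̄φ` -/
def kp (H : KP A) {φ : M → ℝ} (hφ : A.Sm φ) (hp : KPos H φ) : Kah A :=
  kah (tw H φ hφ) (pos_tw H hφ hp)

theorem gi_kp (H : KP A) {φ : M → ℝ} (hφ : A.Sm φ) (hp : KPos H φ) (i : A.ι) {z : Cn n}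
    (hz : z ∈ (A.e i).target) : gi (kp H hφ hp) i z = (cH (pot H φ i) z)⁻¹ := by
  rw [← cur_pot H hφ i hz]
  rfl

/-- `tr((∂∂̄(pot))⁻¹ ∂∂̄v) = f - m` in all charts -/
def LinEq (H : KP A) (φ : M → ℝ) (v f : M → ℝ) (m : ℝ) : Prop :=
  ∀ i, ∀ z ∈ (A.e i).target,
    ((cH (pot H φ i) z)⁻¹ * cH (inC A i v) z).trace = ((f ((A.e i).symm z) - m : ℝ) : ℂ)

theorem LinEq.isLap {H : KP A} {φ v f : M → ℝ} {m : ℝ} (h : LinEq H φ v f m) (hφ : A.Sm φ)
    (hp : KPos H φ) : IsLap (gi (kp H hφ hp)) v (fun x => f x - m) := by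
  intro i z hz
  rw [gi_kp H hφ hp i hz, h i z hz]
  rfl

theorem lin_mean [T2Space M] [CompactSpace M] [ConnectedSpace M] [Finite A.ι] (P : Part A) {H : KP A} {φ : M → ℝ} (hφ : A.Sm φ) (hp : KPos H φ)
    {v f : M → ℝ} {m N : ℝ} (hv : A.Sm v) (h : LinEq H φ v f m) (hf : ∀ x, |f x| ≤ N) :
    |m| ≤ N :=
  abs_const_le P (kp H hφ hp) hv (h.isLap hφ hp) hf

/-- **linear estimate** for the metric `ω_H + i∂∂̄φ` -/
theorem lin_bound [T2Space M] [CompactSpace M] [ConnectedSpace M] [Finite A.ι] (P : Part A) {H : KP A} {φ : M → ℝ} (hφ : A.Sm φ) (hp : KPos H φ) (B : Cb A)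
    {a : ℝ} (ha : 0 < a) (ha1 : a < 1) :
    ∃ C : ℝ, 0 < C ∧ ∀ (x0 : M) (v f : M → ℝ) (m N : ℝ), A.Sm v → LinEq H φ v f m →
      B.NH a N f → v x0 = 0 → B.N2 a (C * N) v := by
  obtain ⟨C, hC, H1⟩ := schauder0 P (kp H hφ hp) B ha ha1
  refine ⟨C * 2, by positivity, fun x0 v f m N hv hlin hN hx0 => ?_⟩
  have hm := lin_mean P hφ hp hv hlin (fun x => hN.bdd x)
  have h1 := H1 x0 v _ (2 * N) hv (hlin.isLap hφ hp) (NH_sub_const hN hN.nonneg hm) hx0
  refine h1.mono (le_of_eq ?_)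
  ring

end

end

section

open Set Filter _root_.Topology MeasureTheory
open scoped ContDiff Matrix ComplexConjugate ComplexOrder ENNReal

open Crest.Agent.R275 Crest.Agent.R275.Geo Crest.Agent.R275.Core144 Crest.Agent.R275.EDR890
open Crest.Agent.R275.Pai323 Crest.Agent.R275.C1d194
open Crest.Agent.R273.SchE_152 Crest.Agent.R273.SchD_152
open Crest.Agent.R273.Defs_333 Crest.Agent.R273.Vm_333 Crest.Agent.R273.Kah_333
open Crest.Agent.R273.Hess_333 Crest.Agent.R273.HessB_333 Crest.Agent.R273.HM_333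
open Crest.Agent.R273.Vol_333 Crest.Agent.R273.Green_5 Crest.Agent.R273.GreenM_5
open Crest.Agent.R273.YauDefs_635
open Crest.Agent.R273.YauMax_635 (cH_eq_hess)
open Crest.Agent.R273.CLin_933

noncomputable section

variable {n : ℕ} {M : Type} [TopologicalSpace M] {A : Atl n M}

theorem tw_pos (H : KP A) {φ : M → ℝ} (hφ : A.Sm φ) (hpos : KPos H φ) : (tw H φ hφ).Pos := by
  refine pos_of_cur fun i x hx => ?_
  have hz := (A.e i).map_source hx
  rw [cur_tw H hφ i hx]
  have e1 : cur H i x + hsf A φ i x = hess (pot H φ i) (A.e i x) :=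
    (hess_pot H hφ i hz).symm
  rw [e1]
  exact posDef_hess (pot_contDiffAt H hφ i hz) (hpos i _ hz)

theorem g_pot (H : KP A) {φ : M → ℝ} (hφ : A.Sm φ) (hpos : KPos H φ) (i : A.ι) {z : Cn n}
    (hz : z ∈ (A.e i).target) :
    (kah (tw H φ hφ) (tw_pos H hφ hpos)).g i ((A.e i).symm z) = cH (pot H φ i) z := by
  have hx := (A.e i).map_target hz
  have e0 : (kah (tw H φ hφ) (tw_pos H hφ hpos)).g i ((A.e i).symm z)
      = cur (tw H φ hφ) i ((A.e i).symm z) := rfl
  rw [e0, cur_tw H hφ i hx, cH_eq_hess (pot_contDiffAt H hφ i hz),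
    hess_pot H hφ i hz]
  unfold cur hsf
  rw [(A.e i).right_inv hz]
  rfl

/-- **C-LIN, existence**: for every smooth `f` there are a smooth `v` and a real `m` with
`tr (g⁻¹ ∂∂̄v) = f - m`, `g = ∂∂̄(pot H φ)` -/
theorem lin_exist [T2Space M] [CompactSpace M] [ConnectedSpace M] [Finite A.ι] (P : Part A)
    (H : KP A) {φ : M → ℝ} (hφ : A.Sm φ) (hpos : KPos H φ) {f : M → ℝ} (hf : A.Sm f) :
    ∃ (v : M → ℝ) (m : ℝ), A.Sm v ∧ ∀ i, ∀ z ∈ (A.e i).target,
      ((cH (pot H φ i) z)⁻¹ * cH (inC A i v) z).trace = ((f ((A.e i).symm z) - m : ℝ) : ℂ) := by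
  set K := kah (tw H φ hφ) (tw_pos H hφ hpos) with hK
  obtain ⟨v, m, hv, he⟩ := lin_kah K P hf
  refine ⟨v, m, hv, fun i z hz => ?_⟩
  have hx := (A.e i).map_target hz
  rw [← he, lapK_ofReal K hv, trK_eq K (hsf_tn hv) hx, hK, g_pot H hφ hpos i hz, hsf_read v i hz]
  congr 2
  exact cH_eq_hess (ContDiffOn.contDiffAt (hv i) ((A.e i).open_target.mem_nhds hz))

end

end

section

open Set Filter _root_.Topology Complex Metric
open scoped ContDiff Matrix ComplexConjugate ComplexOrder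

open Crest.Agent.R275.Geo Crest.Agent.R275.Core144 Crest.Agent.R275.GC293
open Crest.Agent.R273.Defs_333 Crest.Agent.R273.YauDefs_635 Crest.Agent.R273.HM_333
open Crest.Agent.R273.YauCh_635 Crest.Agent.R273.SchF_152 Crest.Agent.R273.SchK_152
open Crest.Agent.R273.SchA_152 Crest.Agent.R273.SchD_152 Crest.Agent.R273.YauPf_635
open Crest.Agent.R273.YauOpen_635 Crest.Agent.R273.YauClose_635
open Crest.Agent.R273.YauLin_635

noncomputable section

variable {n : ℕ} {M : Type} [TopologicalSpace M] {A : Atl n M}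

/-- existence for the linearised equation -/
def LinExist : Prop :=
  ∀ (n : ℕ) (M : Type) [TopologicalSpace M] [T2Space M] [CompactSpace M] [ConnectedSpace M]
    (A : Atl n M) [Finite A.ι], Nonempty (Part A) →
    ∀ (H : KP A), H.Pos → ∀ φ : M → ℝ, A.Sm φ → KPos H φ →
      ∀ f : M → ℝ, A.Sm f → ∃ (v : M → ℝ) (m : ℝ), A.Sm v ∧ LinEq H φ v f m

theorem linEq_sub {H : KP A} {φ v f : M → ℝ} {m : ℝ} (h : LinEq H φ v f m) (d : ℝ) :
    LinEq H φ (fun x => v x - d) f m := by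
  intro i z hz
  have e : inC A i (fun x => v x - d) = fun w => inC A i v w - d := rfl
  rw [e, cH_sub_const]
  exact h i z hz

theorem lin_of (hE : LinExist) : LinStmt := by
  intro n M _ _ _ _ A _ hP H hH φ hφ hK
  obtain ⟨P⟩ := id hP
  obtain ⟨x₀⟩ : Nonempty M := inferInstance
  obtain ⟨B⟩ := Cb.nonempty A
  obtain ⟨C, hC, hb⟩ := lin_bound P hφ hK B (a := 1 / 2) (by norm_num) (by norm_num)
  refine ⟨B.κ, B.fin, B.i, B.z, fun k => B.r k / 2, max C 1, by positivity, fun k =>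
    ⟨by linarith [B.r0 k], by linarith [B.r1 k, B.r0 k], B.sub' k⟩, B.cover, fun N f hf hN => ?_⟩
  have hN' : B.NH (1 / 2) N f := hN
  have hN0 : 0 ≤ N := Cb.NH.nonneg hN'
  obtain ⟨v, m, hv, hlin⟩ := hE n M A hP H hH φ hφ hK f hf
  have hm := lin_mean P hφ hK hv hlin (fun x => hN'.bdd x)
  refine ⟨fun x => v x - v x₀, m, fun i => (hv i).sub contDiffOn_const, ?_, ?_, ?_⟩
  · calc |m| ≤ 1 * N := by rw [one_mul]; exact hm
      _ ≤ max C 1 * N := mul_le_mul_of_nonneg_right (le_max_right _ _) hN0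
  · have h1 := hb x₀ (fun x => v x - v x₀) f m N (fun i => (hv i).sub contDiffOn_const)
      (linEq_sub hlin _) hN' (sub_self _)
    exact fun k => (h1 k).mono (mul_le_mul_of_nonneg_right (le_max_left _ _) hN0)
  · intro i z hz
    rw [lr, linEq_sub hlin (v x₀) i z hz, Complex.ofReal_re]
    rfl

/-- **Yau's theorem** from `C2Stmt`, `C3Stmt`, `LinExist` -/
theorem yau_from (h2 : C2Stmt) (h3 : C3Stmt) (hE : LinExist) : YauStmt :=
  yau_main c0_holds h2 h3 (lin_of hE)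

end

end

end Crest.Agent.R281.Kp_487
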