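import Crest.Agent.R281.Kp7_487
import Crest.Agent.R281.Kp6_487
import Crest.Agent.R273.YauC3_812
import Crest.Agent.R273.CRegE_933

/-!
# R281 (S0424), Yau for general Kaehler forms (helper487): assembly

* `yauKP : YauStmt` : Yau's theorem for a Kaehler form given by local potentials `H : KP A` on the
  charts of a finite atlas with a partition of unity (no line bundle, no convexity of the atlas)
* `yau_cur` : the same for the matrices `cur H i x` (compare `R273.YauKah_635`)
-/

set_option autoImplicit false
set_option linter.unusedSectionVars false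

open Set Filter Topology Complex
open scoped ContDiff Matrix ComplexConjugate ComplexOrder

namespace Crest.Agent.R281.Kp_487

open Crest.Agent.R273
open Crest.Agent.R275.Geo Crest.Agent.R275.Core144 Crest.Agent.R275.GC293
open Crest.Agent.R273.Defs_333 Crest.Agent.R273.YauDefs_635 Crest.Agent.R273.HM_333
open Crest.Agent.R273.YauCh_635 Crest.Agent.R273.Hess_333 Crest.Agent.R273.HessB_333
open Crest.Agent.R273.Kah_333 Crest.Agent.R273.YauMax_635 Crest.Agent.R273.Vol_333

noncomputable section

theorem linExist : LinExist := by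
  intro n M _ _ _ _ A _ hP H hH φ hφ hK f hf
  obtain ⟨P⟩ := id hP
  exact lin_exist P H hφ hK hf

theorem linStmt : LinStmt := lin_of linExist

theorem openStmt : OpenStmt := open_holds linStmt CReg_933.reg_holds

/-- **Yau's theorem** for a Kaehler form given by local potentials -/
theorem yauKP : YauStmt := yau_from c2_holds YauC3_812.c3Stmt linExist

variable {n : ℕ} {M : Type} [TopologicalSpace M] {A : Atl n M}

/-- Yau's theorem for the matrices of the form -/
theorem yau_cur [T2Space M] [CompactSpace M] [ConnectedSpace M] [Finite A.ι]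
    (hP : Nonempty (Part A)) {H : KP A} (hp : H.Pos) {F : M → ℝ} (hF : A.Sm F) :
    ∃ (u : M → ℝ) (c : ℝ), A.Sm u ∧ ∀ i, ∀ x ∈ (A.e i).source,
      (cur H i x + hsf A u i x).PosDef ∧
        (cur H i x + hsf A u i x).det = ((Real.exp (F x + c) : ℝ) : ℂ) * (cur H i x).det := by
  obtain ⟨φ, c, h1, h2, h3⟩ := yauKP n M A hP H hp F hF
  refine ⟨φ, c, h1, fun i x hx => ?_⟩
  have hz := (A.e i).map_source hx
  have e1 : cur H i x + hsf A φ i x = hess (pot H φ i) (A.e i x) := (hess_pot H h1 i hz).symm
  have h4 := h3 i _ hz
  rw [cH_eq_hess (pot_contDiffAt H h1 i hz), cH_eq_hess (wt_contDiffAt H i hz)] at h4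
  simp only [inC, (A.e i).left_inv hx] at h4
  rw [e1]
  exact ⟨posDef_hess (pot_contDiffAt H h1 i hz) (h2 i _ hz), h4⟩

end

end Crest.Agent.R281.Kp_487
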