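import Mathlib

/-!
# R281, KRON (helper488), part 1: Kronecker's formula `x G'(w) ∈ R[w]`
-/

set_option autoImplicit false
set_option linter.unusedSectionVars false

open Polynomial

namespace Crest.Agent.R281.Kr_488

section General

variable {R S : Type*} [CommRing R] [IsDomain R] [IsIntegrallyClosed R] [CommRing S] [IsDomain S]
  [Algebra R S] [FaithfulSMul R S] [Algebra.IsIntegral R S]

theorem kron_field (K L : Type*) [Field K] [Field L] [Algebra R K] [IsFractionRing R K]
    [Algebra S L] [IsFractionRing S L] [Algebra K L] [Algebra R L] [IsScalarTower R K L]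
    [IsScalarTower R S L] [FiniteDimensional K L] [Algebra.IsSeparable K L] (w : S)
    (hw : Algebra.adjoin K {algebraMap S L w} = ⊤) (x : S) :
    ∃ p : R[X], (∀ i, (minpoly R w).natDegree ≤ i → p.coeff i = 0) ∧
      aeval w p = x * aeval w (derivative (minpoly R w)) := by
  classical
  set w' := algebraMap S L w with hw'
  set x' := algebraMap S L x with hx'
  have hwi : IsIntegral R w := Algebra.IsIntegral.isIntegral w
  have hwi' : IsIntegral R w' := hwi.map (IsScalarTower.toAlgHom R S L)
  have hxi' : IsIntegral R x' :=
    (Algebra.IsIntegral.isIntegral (R := R) x).map (IsScalarTower.toAlgHom R S L)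
  have hinj : Function.Injective (algebraMap S L) := IsFractionRing.injective S L
  have hmin : minpoly R w' = minpoly R w :=
    minpoly.algebraMap_eq (A := R) (B := S) (B' := L) hinj w
  have hminK : minpoly K w' = (minpoly R w).map (algebraMap R K) := by
    rw [minpoly.isIntegrallyClosed_eq_field_fractions' K hwi', hmin]
  have hne : aeval w' (derivative (minpoly K w')) ≠ 0 :=
    (Algebra.IsSeparable.isSeparable K w').aeval_derivative_ne_zero (minpoly.aeval _ _)
  have hmem : x' ∈ (Algebra.traceForm K L).dualSubmodule
      (Subalgebra.toSubmodule (Algebra.adjoin R {w'})) := by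
    rw [LinearMap.BilinForm.mem_dualSubmodule]
    intro y hy
    have hy' : IsIntegral R y := by
      have h1 : Algebra.adjoin R {w'} ≤ integralClosure R L := by
        rw [Algebra.adjoin_le_iff]
        rintro z rfl
        exact hwi'
      exact h1 hy
    have h2 : IsIntegral R (Algebra.trace K L (x' * y)) := Algebra.isIntegral_trace (hxi'.mul hy')
    obtain ⟨r, hr⟩ := IsIntegrallyClosed.isIntegral_iff.1 h2
    rw [Algebra.traceForm_apply, ← hr, Submodule.mem_one]
    exact ⟨r, rfl⟩
  rw [traceForm_dualSubmodule_adjoin R K hw hwi'] at hmem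
  obtain ⟨z, hz, hzx⟩ := (Submodule.mem_smul_pointwise_iff_exists _ _ _).1 hmem
  have hz' : z = x' * aeval w' (derivative (minpoly K w')) := by
    rw [← hzx, smul_eq_mul]
    field_simp
  have hz2 : z ∈ Algebra.adjoin R {w'} := hz
  rw [Algebra.adjoin_singleton_eq_range_aeval] at hz2
  obtain ⟨q, hq⟩ := hz2
  have hq' : aeval w' q = z := hq
  have hmon : (minpoly R w).Monic := minpoly.monic hwi
  refine ⟨q %ₘ minpoly R w, fun i hi => ?_, ?_⟩
  · refine coeff_eq_zero_of_degree_lt ?_
    refine lt_of_lt_of_le (degree_modByMonic_lt _ hmon) ?_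
    rw [degree_eq_natDegree hmon.ne_zero]
    exact_mod_cast hi
  · apply hinj
    have h3 : aeval w (q %ₘ minpoly R w) = aeval w q := by
      conv_rhs => rw [← modByMonic_add_div q (minpoly R w)]
      rw [map_add, map_mul, minpoly.aeval, zero_mul, add_zero]
    rw [h3, ← aeval_algebraMap_apply, hq', hz', map_mul, ← aeval_algebraMap_apply, hminK,
      derivative_map, aeval_map_algebraMap]

attribute [local instance] FractionRing.liftAlgebra

/-- **Kronecker's formula** -/
theorem kron_alg [Module.Finite R S] [CharZero R] (w : S)
    (hw : Algebra.adjoin (FractionRing R) {algebraMap S (FractionRing S) w} = ⊤) (x : S) :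
    ∃ p : R[X], (∀ i, (minpoly R w).natDegree ≤ i → p.coeff i = 0) ∧
      aeval w p = x * aeval w (derivative (minpoly R w)) := by
  have : FiniteDimensional (FractionRing R) (FractionRing S) :=
    Module.Finite.of_isLocalization R S (nonZeroDivisors R)
  exact kron_field (FractionRing R) (FractionRing S) w hw x

end General

end Crest.Agent.R281.Kr_488
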