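import Crest.Agent.R281.KrD_488
import Crest.Agent.R281.Kr1_488

/-!
# R281, KRON (helper488), part 2: the coordinate ring over `ℂ[y]`, finiteness
-/

set_option autoImplicit false
set_option linter.unusedSectionVars false

open MvPolynomial

namespace Crest.Agent.R281.Kr_488

noncomputable section

variable {n N : ℕ}

/-- homogeneous ideal -/
def HomI (I : Ideal (MvPolynomial (Fin (N + 1)) ℂ)) : Prop :=
  ∀ p ∈ I, ∀ d, homogeneousComponent d p ∈ I

/-- the substitution `y_j ↦ lam_j (x)` -/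
def sY (lam : Fin (n + 1) → Fin (N + 1) → ℂ) :
    MvPolynomial (Fin (n + 1)) ℂ →ₐ[ℂ] MvPolynomial (Fin (N + 1)) ℂ :=
  MvPolynomial.aeval fun j => lin (lam j)

/-- the coordinate ring, as an algebra over `ℂ[y]` -/
def CR (I : Ideal (MvPolynomial (Fin (N + 1)) ℂ)) (_lam : Fin (n + 1) → Fin (N + 1) → ℂ) : Type :=
  MvPolynomial (Fin (N + 1)) ℂ ⧸ I

section

variable (I : Ideal (MvPolynomial (Fin (N + 1)) ℂ)) (lam : Fin (n + 1) → Fin (N + 1) → ℂ)

instance : CommRing (CR I lam) := inferInstanceAs (CommRing (MvPolynomial (Fin (N + 1)) ℂ ⧸ I))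

instance : Algebra ℂ (CR I lam) := inferInstanceAs (Algebra ℂ (MvPolynomial (Fin (N + 1)) ℂ ⧸ I))

/-- the quotient map -/
def mkA : MvPolynomial (Fin (N + 1)) ℂ →ₐ[ℂ] CR I lam := Ideal.Quotient.mkₐ ℂ I

instance : Algebra (MvPolynomial (Fin (n + 1)) ℂ) (CR I lam) :=
  ((mkA I lam).comp (sY lam)).toRingHom.toAlgebra

theorem algebraMap_eq (p : MvPolynomial (Fin (n + 1)) ℂ) :
    algebraMap (MvPolynomial (Fin (n + 1)) ℂ) (CR I lam) p = mkA I lam (sY lam p) := rfl

instance : IsScalarTower ℂ (MvPolynomial (Fin (n + 1)) ℂ) (CR I lam) :=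
  IsScalarTower.of_algebraMap_eq fun c => by
    rw [algebraMap_eq]
    show algebraMap ℂ (CR I lam) c = mkA I lam (sY lam (algebraMap ℂ _ c))
    rw [AlgHom.commutes, AlgHom.commutes]

instance [I.IsPrime] : IsDomain (CR I lam) :=
  inferInstanceAs (IsDomain (MvPolynomial (Fin (N + 1)) ℂ ⧸ I))

theorem mkA_surjective : Function.Surjective (mkA I lam) := Ideal.Quotient.mk_surjective

theorem mkA_eq_zero {p : MvPolynomial (Fin (N + 1)) ℂ} : mkA I lam p = 0 ↔ p ∈ I :=
  Ideal.Quotient.eq_zero_iff_mem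

theorem smul_mkA (b : MvPolynomial (Fin (n + 1)) ℂ) (p : MvPolynomial (Fin (N + 1)) ℂ) :
    b • mkA I lam p = mkA I lam (sY lam b * p) := by
  rw [Algebra.smul_def, algebraMap_eq, map_mul]

end

/-! ### homogeneous components -/

theorem hc_mul_left {m : ℕ} {p : MvPolynomial (Fin m) ℂ} {i : ℕ} (hp : p.IsHomogeneous i)
    (q : MvPolynomial (Fin m) ℂ) (d : ℕ) :
    homogeneousComponent d (p * q) = if i ≤ d then p * homogeneousComponent (d - i) q else 0 := by
  conv_lhs => rw [← sum_homogeneousComponent q, Finset.mul_sum, map_sum]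
  have h1 : ∀ k, homogeneousComponent d (p * homogeneousComponent k q) =
      if d = i + k then p * homogeneousComponent k q else 0 := fun k =>
    homogeneousComponent_of_mem ((mem_homogeneousSubmodule _ _).2
      (hp.mul (homogeneousComponent_isHomogeneous k q)))
  simp only [h1]
  split_ifs with h
  · by_cases h2 : d - i ∈ Finset.range (q.totalDegree + 1)
    · rw [Finset.sum_eq_single_of_mem _ h2 fun k _ hk => if_neg (by omega), if_pos (by omega)]
    · rw [Finset.sum_eq_zero fun k hk => if_neg ?_, homogeneousComponent_eq_zero, mul_zero]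
      · rw [Finset.mem_range] at h2
        omega
      · rintro h3
        exact h2 (by rwa [h3, Nat.add_sub_cancel_left])
  · exact Finset.sum_eq_zero fun k _ => if_neg (by omega)

/-- monomials of degree `d` -/
def isMon (d : ℕ) (p : MvPolynomial (Fin (N + 1)) ℂ) : Prop :=
  ∃ α : Fin (N + 1) →₀ ℕ, α.degree = d ∧ p = monomial α 1

theorem homog_mem_span {d : ℕ} {p : MvPolynomial (Fin (N + 1)) ℂ} (hp : p.IsHomogeneous d) :
    p ∈ Submodule.span ℂ {q | isMon d q} := by
  rw [p.as_sum]
  refine Submodule.sum_mem _ fun α hα => ?_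
  have h1 : monomial α (coeff α p) = (coeff α p) • (monomial α (1 : ℂ)) := by
    rw [smul_monomial, smul_eq_mul, mul_one]
  rw [h1]
  refine Submodule.smul_mem _ _ (Submodule.subset_span ⟨α, ?_, rfl⟩)
  have h2 := hp (mem_support_iff.1 hα)
  rw [Finsupp.degree_eq_weight_one]
  exact h2

/-- **graded Nakayama** -/
theorem span_of_power {I : Ideal (MvPolynomial (Fin (N + 1)) ℂ)} (hI : HomI I)
    {lam : Fin (n + 1) → Fin (N + 1) → ℂ} {E0 : ℕ} (hE0 : 0 < E0)
    (hE : ∀ p, isMon E0 p → p ∈ I ⊔ Ideal.span (Set.range fun j => lin (lam j))) (d : ℕ) :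
    ∀ p, isMon (N := N) d p → mkA I lam p ∈ Submodule.span (MvPolynomial (Fin (n + 1)) ℂ)
      ((fun q => mkA I lam q) '' {q | ∃ k < E0, isMon k q}) := by
  induction d using Nat.strong_induction_on with
  | _ d ih =>
    intro p hp
    by_cases hd : d < E0
    · exact Submodule.subset_span ⟨p, ⟨d, hd, hp⟩, rfl⟩
    push Not at hd
    obtain ⟨α, hα, rfl⟩ := hp
    -- a submonomial of degree `E0`
    obtain ⟨γ, hγα, hγ⟩ : ∃ γ : Fin (N + 1) →₀ ℕ, γ ≤ α ∧ γ.degree = E0 := by
      clear ih hE hE0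
      induction E0 with
      | zero => exact ⟨0, bot_le, by simp⟩
      | succ k ihk =>
        obtain ⟨γ, h1, h2⟩ := ihk (by omega)
        have h3 : γ ≠ α := by
          rintro rfl
          omega
        have h4 : ∃ i, γ i < α i := by
          by_contra h
          push Not at h
          exact h3 (le_antisymm h1 fun i => h i)
        obtain ⟨i, hi⟩ := h4
        refine ⟨γ + Finsupp.single i 1, ?_, ?_⟩
        · intro j
          rcases eq_or_ne j i with rfl | hj
          · rw [Finsupp.add_apply, Finsupp.single_eq_same]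
            exact hi
          · rw [Finsupp.add_apply, Finsupp.single_eq_of_ne hj, add_zero]
            exact h1 j
        · rw [map_add, h2, Finsupp.degree_single]
    have hmul : monomial α (1 : ℂ) = monomial γ 1 * monomial (α - γ) 1 := by
      rw [monomial_mul, mul_one, add_tsub_cancel_of_le hγα]
    have h1 := hE (monomial γ 1) ⟨γ, hγ, rfl⟩
    obtain ⟨a, ha, b, hb, hab⟩ := Submodule.mem_sup.1 h1
    obtain ⟨c, hc⟩ := (Ideal.mem_span_range_iff_exists_fun).1 hb
    have hhom : (monomial α (1 : ℂ)).IsHomogeneous d := isHomogeneous_monomial _ hα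
    obtain ⟨m, hm⟩ : ∃ m : MvPolynomial (Fin (N + 1)) ℂ, m = monomial (α - γ) (1 : ℂ) := ⟨_, rfl⟩
    rw [← hm] at hmul
    have hsum : monomial α (1 : ℂ) = a * m + ∑ j, lin (lam j) * (c j * m) := by
      have h2 : monomial α (1 : ℂ) = (a + ∑ j, c j * lin (lam j)) * m := by
        rw [hmul, ← hab, hc]
      rw [h2, add_mul, Finset.sum_mul]
      exact congrArg (fun t => a * m + t) (Finset.sum_congr rfl fun j _ => by ring)
    have hd1 : 1 ≤ d := by omega
    have hcomp : monomial α (1 : ℂ) = homogeneousComponent d (a * m) +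
        ∑ j, lin (lam j) * homogeneousComponent (d - 1) (c j * m) := by
      have h2 := congrArg (homogeneousComponent d) hsum
      rw [homogeneousComponent_of_mem ((mem_homogeneousSubmodule _ _).2 hhom), if_pos rfl, map_add,
        map_sum] at h2
      rw [h2]
      refine congrArg (fun t => homogeneousComponent d (a * m) + t)
        (Finset.sum_congr rfl fun j _ => ?_)
      rw [hc_mul_left (lin_homog _), if_pos hd1]
    rw [hcomp, map_add, (mkA_eq_zero I lam).2 (hI _ (I.mul_mem_right _ ha) d), zero_add, map_sum]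
    refine Submodule.sum_mem _ fun j _ => ?_
    have h3 : mkA I lam (lin (lam j) * homogeneousComponent (d - 1) (c j * m)) =
        (X j : MvPolynomial (Fin (n + 1)) ℂ) • mkA I lam (homogeneousComponent (d - 1) (c j * m)) := by
      rw [smul_mkA]
      simp [sY]
    rw [h3]
    refine Submodule.smul_mem _ _ ?_
    have h4 := homog_mem_span (homogeneousComponent_isHomogeneous (d - 1) (c j * m))
    refine Submodule.span_induction (p := fun q _ => mkA I lam q ∈ Submodule.span
      (MvPolynomial (Fin (n + 1)) ℂ) ((fun q => mkA I lam q) '' {q | ∃ k < E0, isMon k q}))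
      ?_ ?_ ?_ ?_ h4
    · exact fun q hq => ih (d - 1) (by omega) q hq
    · rw [map_zero]
      exact Submodule.zero_mem _
    · intro x y _ _ hx hy
      rw [map_add]
      exact Submodule.add_mem _ hx hy
    · intro r x _ hx
      rw [map_smul, ← algebraMap_smul (MvPolynomial (Fin (n + 1)) ℂ) r (mkA I lam x)]
      exact Submodule.smul_mem _ _ hx

theorem finite_monos (E0 : ℕ) : {q : MvPolynomial (Fin (N + 1)) ℂ | ∃ k < E0, isMon k q}.Finite := by
  have h1 : (Set.Iic (Finsupp.equivFunOnFinite.symm fun _ : Fin (N + 1) => E0)).Finite :=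
    Set.finite_Iic _
  refine (h1.image fun α => monomial α (1 : ℂ)).subset ?_
  rintro q ⟨k, hk, α, hα, rfl⟩
  refine ⟨α, fun i => ?_, rfl⟩
  have h2 : α i ≤ α.degree := Finsupp.le_degree i α
  show α i ≤ E0
  omega

theorem finite_of_power {I : Ideal (MvPolynomial (Fin (N + 1)) ℂ)} (hI : HomI I)
    {lam : Fin (n + 1) → Fin (N + 1) → ℂ} {E0 : ℕ} (hE0 : 0 < E0)
    (hE : ∀ p, isMon E0 p → p ∈ I ⊔ Ideal.span (Set.range fun j => lin (lam j))) :
    Module.Finite (MvPolynomial (Fin (n + 1)) ℂ) (CR I lam) := by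
  refine ⟨⟨((finite_monos (N := N) E0).image fun q => mkA I lam q).toFinset, ?_⟩⟩
  rw [eq_top_iff]
  rintro x -
  obtain ⟨p, rfl⟩ := mkA_surjective I lam x
  rw [Set.Finite.coe_toFinset, p.as_sum, map_sum]
  refine Submodule.sum_mem _ fun α _ => ?_
  have h1 : monomial α (coeff α p) = (coeff α p) • (monomial α (1 : ℂ)) := by
    rw [smul_monomial, smul_eq_mul, mul_one]
  rw [h1, map_smul, ← algebraMap_smul (MvPolynomial (Fin (n + 1)) ℂ)]
  exact Submodule.smul_mem _ _ (span_of_power hI hE0 hE α.degree _ ⟨α, rfl, rfl⟩)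

theorem power_of_noZero {J : Ideal (MvPolynomial (Fin (N + 1)) ℂ)}
    (h0 : ∀ v : Fin (N + 1) → ℂ, (∀ p ∈ J, eval v p = 0) → v = 0) :
    ∃ e : ℕ, 0 < e ∧ ∀ i, (X i : MvPolynomial (Fin (N + 1)) ℂ) ^ e ∈ J := by
  have h1 : ∀ i, (X i : MvPolynomial (Fin (N + 1)) ℂ) ∈ J.radical := by
    intro i
    rw [← vanishingIdeal_zeroLocus_eq_radical (K := ℂ) J, mem_vanishingIdeal_iff]
    intro v hv
    have h2 := h0 v fun p hp => by
      have h3 := mem_zeroLocus_iff.1 hv p hp
      rwa [aeval_eq_eval] at h3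
    rw [h2]
    simp
  choose e he using h1
  refine ⟨(∑ i, e i) + 1, by omega, fun i => ?_⟩
  exact Ideal.pow_mem_of_pow_mem _ (he i)
    (le_trans (Finset.single_le_sum (fun j _ => Nat.zero_le (e j)) (Finset.mem_univ i))
      (Nat.le_succ _))

theorem mon_mem_of_power {J : Ideal (MvPolynomial (Fin (N + 1)) ℂ)} {e : ℕ}
    (he : ∀ i, (X i : MvPolynomial (Fin (N + 1)) ℂ) ^ e ∈ J) (p : MvPolynomial (Fin (N + 1)) ℂ)
    (hp : isMon ((N + 1) * e + 1) p) : p ∈ J := by
  obtain ⟨α, hα, rfl⟩ := hp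
  have h1 : ∃ i, e ≤ α i := by
    by_contra h
    push Not at h
    have h2 : α.degree = ∑ i, α i := Finsupp.degree_eq_sum α
    have h3 : ∑ i, α i ≤ ∑ _i : Fin (N + 1), e := Finset.sum_le_sum fun i _ => (h i).le
    rw [Finset.sum_const, Finset.card_univ, Fintype.card_fin, smul_eq_mul] at h3
    omega
  obtain ⟨i, hi⟩ := h1
  have h2 : monomial α (1 : ℂ) = X i ^ e * monomial (α - Finsupp.single i e) 1 := by
    rw [X_pow_eq_monomial, monomial_mul, mul_one, add_tsub_cancel_of_le]
    intro j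
    rcases eq_or_ne j i with rfl | hj
    · rw [Finsupp.single_eq_same]
      exact hi
    · rw [Finsupp.single_eq_of_ne hj]
      exact Nat.zero_le _
  rw [h2]
  exact J.mul_mem_right _ (he i)

/-- **finiteness of the projection** -/
theorem finite_of_noZero {I : Ideal (MvPolynomial (Fin (N + 1)) ℂ)} (hI : HomI I)
    {lam : Fin (n + 1) → Fin (N + 1) → ℂ}
    (h0 : ∀ v : Fin (N + 1) → ℂ, (∀ p ∈ I, eval v p = 0) → (∀ j, lv (lam j) v = 0) → v = 0) :
    Module.Finite (MvPolynomial (Fin (n + 1)) ℂ) (CR I lam) := by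
  obtain ⟨e, _, he⟩ := power_of_noZero (J := I ⊔ Ideal.span (Set.range fun j => lin (lam j)))
    fun v hv => h0 v (fun p hp => hv p (Ideal.mem_sup_left hp)) fun j => by
      rw [← eval_lin]
      exact hv _ (Ideal.mem_sup_right (Ideal.subset_span ⟨j, rfl⟩))
  exact finite_of_power hI (Nat.succ_pos _) fun p hp => mon_mem_of_power he p hp

end

end Crest.Agent.R281.Kr_488
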