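import Crest.Agent.R281.Kr2_488

/-!
# R281, KRON (helper488), part 3: `G`, `Nm_k` and the identities
-/

set_option autoImplicit false
set_option linter.unusedSectionVars false

open MvPolynomial

namespace Crest.Agent.R281.Kr_488

noncomputable section

variable {n N : ℕ}

/-- `ℂ[y]` -/
abbrev BR (n : ℕ) : Type := MvPolynomial (Fin (n + 1)) ℂ

/-- substitution `y_j = lam_j (x)`, `W = w (x)` -/
def subW (lam : Fin (n + 1) → Fin (N + 1) → ℂ) (w : Fin (N + 1) → ℂ) :
    Polynomial (BR n) →+* MvPolynomial (Fin (N + 1)) ℂ :=
  Polynomial.eval₂RingHom (sY lam).toRingHom (lin w)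

theorem sY_homog (lam : Fin (n + 1) → Fin (N + 1) → ℂ) {p : BR n} {d : ℕ}
    (hp : p.IsHomogeneous d) : (sY lam p).IsHomogeneous d := by
  have h := hp.aeval (fun j => lin (lam j)) fun j => lin_homog (lam j)
  rwa [one_mul] at h

theorem hc_sY (lam : Fin (n + 1) → Fin (N + 1) → ℂ) (p : BR n) (d : ℕ) :
    homogeneousComponent d (sY lam p) = sY lam (homogeneousComponent d p) := by
  conv_lhs => rw [← sum_homogeneousComponent p, map_sum, map_sum]
  have h1 : ∀ k, homogeneousComponent d (sY lam (homogeneousComponent k p)) =
      if d = k then sY lam (homogeneousComponent k p) else 0 := fun k =>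
    homogeneousComponent_of_mem ((mem_homogeneousSubmodule _ _).2
      (sY_homog lam (homogeneousComponent_isHomogeneous k p)))
  simp only [h1]
  by_cases h : d ∈ Finset.range (p.totalDegree + 1)
  · rw [Finset.sum_eq_single_of_mem _ h fun k _ hk => if_neg fun h => hk h.symm, if_pos rfl]
  · rw [Finset.sum_eq_zero fun k hk => if_neg ?_, homogeneousComponent_eq_zero, map_zero]
    · rw [Finset.mem_range] at h
      omega
    · rintro rfl
      exact h hk

/-- the part of total degree `d` -/
def hp (d : ℕ) (P : Polynomial (BR n)) : Polynomial (BR n) :=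
  ∑ i ∈ Finset.range (d + 1), Polynomial.C (homogeneousComponent (d - i) (P.coeff i)) *
    Polynomial.X ^ i

theorem coeff_hp (d : ℕ) (P : Polynomial (BR n)) (i : ℕ) :
    (hp d P).coeff i = if i ≤ d then homogeneousComponent (d - i) (P.coeff i) else 0 := by
  rw [hp, Polynomial.finsetSum_coeff]
  simp only [Polynomial.coeff_C_mul, Polynomial.coeff_X_pow, mul_ite, mul_one, mul_zero]
  rw [Finset.sum_ite_eq]
  simp only [Finset.mem_range, Nat.lt_succ_iff]

theorem hc_subW (lam : Fin (n + 1) → Fin (N + 1) → ℂ) (w : Fin (N + 1) → ℂ)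
    (P : Polynomial (BR n)) (d : ℕ) :
    homogeneousComponent d (subW lam w P) = subW lam w (hp d P) := by
  have h1 : subW lam w P = ∑ i ∈ Finset.range (P.natDegree + 1), sY lam (P.coeff i) * lin w ^ i := by
    show Polynomial.eval₂ _ _ P = _
    rw [Polynomial.eval₂_eq_sum_range]
    rfl
  have hlw : ∀ i, (lin w ^ i).IsHomogeneous i := fun i => by
    have := (lin_homog w).pow i
    rwa [one_mul] at this
  have h2 : ∀ i, homogeneousComponent d (sY lam (P.coeff i) * lin w ^ i) =
      if i ≤ d then sY lam (homogeneousComponent (d - i) (P.coeff i)) * lin w ^ i else 0 := by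
    intro i
    rw [mul_comm, hc_mul_left (hlw i)]
    split_ifs with h
    · rw [hc_sY, mul_comm]
    · rfl
  rw [h1, map_sum]
  simp only [h2]
  rw [hp, map_sum, ← Finset.sum_filter]
  have h3 : ∀ i, subW lam w (Polynomial.C (homogeneousComponent (d - i) (P.coeff i)) *
      Polynomial.X ^ i) = sY lam (homogeneousComponent (d - i) (P.coeff i)) * lin w ^ i := by
    intro i
    simp [subW]
  simp only [h3]
  refine Finset.sum_subset_zero_on_sdiff ?_ ?_ fun _ _ => rfl
  · intro i hi
    rw [Finset.mem_filter] at hi
    exact Finset.mem_range.2 (Nat.lt_succ_of_le hi.2)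
  · intro i hi
    rw [Finset.mem_sdiff, Finset.mem_filter, Finset.mem_range, Finset.mem_range] at hi
    have h4 : P.natDegree < i := by
      by_contra h
      exact hi.2 ⟨by omega, by omega⟩
    rw [Polynomial.coeff_eq_zero_of_natDegree_lt h4, map_zero, map_zero, zero_mul]

theorem aeval_mul_homog {σ R S : Type*} [CommRing R] [CommRing S] [Algebra R S]
    {F : MvPolynomial σ R} {d : ℕ} (hF : F.IsHomogeneous d) (g : σ → S) (s : S) :
    MvPolynomial.aeval (fun k => g k * s) F = s ^ d * MvPolynomial.aeval g F := by
  rw [MvPolynomial.aeval_def, MvPolynomial.aeval_def, MvPolynomial.eval₂_eq,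
    MvPolynomial.eval₂_eq, Finset.mul_sum]
  refine Finset.sum_congr rfl fun α hα => ?_
  have h1 : ∏ i ∈ α.support, (g i * s) ^ α i = (∏ i ∈ α.support, g i ^ α i) * s ^ d := by
    have h2 : α.degree = d := by
      rw [Finsupp.degree_eq_weight_one]
      exact hF (MvPolynomial.mem_support_iff.1 hα)
    simp only [mul_pow]
    rw [Finset.prod_mul_distrib, Finset.prod_pow_eq_pow_sum]
    rw [← h2]
    rfl
  rw [h1]
  ring

section Main

variable (I : Ideal (MvPolynomial (Fin (N + 1)) ℂ)) (lam : Fin (n + 1) → Fin (N + 1) → ℂ)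
  (w : Fin (N + 1) → ℂ)

/-- the element `w` of the coordinate ring -/
def wb : CR I lam := mkA I lam (lin w)

theorem aeval_wb (P : Polynomial (BR n)) :
    Polynomial.aeval (wb I lam w) P = mkA I lam (subW lam w P) := by
  have h : (Polynomial.aeval (wb I lam w) : Polynomial (BR n) →ₐ[BR n] CR I lam).toRingHom =
      (mkA I lam).toRingHom.comp (subW lam w) := by
    refine Polynomial.ringHom_ext' ?_ ?_
    · refine MvPolynomial.ringHom_ext ?_ ?_
      · intro r
        simp [subW, algebraMap_eq]
      · intro j
        simp [subW, algebraMap_eq]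
    · simp [subW, wb]
  exact congrArg (fun f => f P) h

variable [I.IsPrime] [Module.Finite (BR n) (CR I lam)] [FaithfulSMul (BR n) (CR I lam)]

/-- the minimal polynomial -/
def GG : Polynomial (BR n) := minpoly (BR n) (wb I lam w)

theorem wb_int : IsIntegral (BR n) (wb I lam w) := Algebra.IsIntegral.isIntegral _

theorem GG_monic : (GG I lam w).Monic := minpoly.monic (wb_int I lam w)

theorem GG_dvd_iff (P : Polynomial (BR n)) : GG I lam w ∣ P ↔ subW lam w P ∈ I := by
  have h := minpoly.isIntegrallyClosed_dvd_iff (wb_int I lam w) P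
  rw [aeval_wb, mkA_eq_zero] at h
  exact h.symm

/-- the degree -/
def DD : ℕ := (GG I lam w).natDegree

theorem DD_pos : 0 < DD I lam w := minpoly.natDegree_pos (wb_int I lam w)

theorem eq_zero_of_lt {P : Polynomial (BR n)} (hP : ∀ i, DD I lam w ≤ i → P.coeff i = 0)
    (h : subW lam w P ∈ I) : P = 0 := by
  by_contra h0
  obtain ⟨Q, hQ⟩ := (GG_dvd_iff I lam w P).2 h
  have h1 : P.natDegree < DD I lam w := by
    by_contra h2
    push Not at h2
    have := hP _ h2
    rw [Polynomial.coeff_natDegree, Polynomial.leadingCoeff_eq_zero] at this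
    exact h0 this
  have hQ0 : Q ≠ 0 := by
    rintro rfl
    rw [mul_zero] at hQ
    exact h0 hQ
  have h2 : P.natDegree = DD I lam w + Q.natDegree := by
    rw [hQ, (GG_monic I lam w).natDegree_mul' hQ0]
    rfl
  omega

variable {I}

theorem GG_hp (hI : HomI I) : hp (DD I lam w) (GG I lam w) = GG I lam w := by
  rw [← sub_eq_zero]
  refine eq_zero_of_lt I lam w (fun i hi => ?_) ?_
  · rw [Polynomial.coeff_sub, coeff_hp]
    rcases hi.eq_or_lt with h | h
    · subst h
      rw [if_pos le_rfl, Nat.sub_self]
      have h1 : (GG I lam w).coeff (DD I lam w) = 1 := (GG_monic I lam w).coeff_natDegree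
      rw [h1, homogeneousComponent_of_mem ((mem_homogeneousSubmodule _ _).2
        (isHomogeneous_one (Fin (n + 1)) ℂ)), if_pos rfl, sub_self]
    · rw [if_neg (by omega), Polynomial.coeff_eq_zero_of_natDegree_lt h, sub_self]
  · rw [map_sub, ← hc_subW]
    have h1 : subW lam w (GG I lam w) ∈ I := (GG_dvd_iff I lam w _).1 dvd_rfl
    exact I.sub_mem (hI _ h1 _) h1

theorem GG_homog (hI : HomI I) (i : ℕ) (hi : i ≤ DD I lam w) :
    ((GG I lam w).coeff i).IsHomogeneous (DD I lam w - i) := by
  rw [← GG_hp lam w hI, coeff_hp, if_pos hi]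
  exact homogeneousComponent_isHomogeneous _ _

theorem dG_homog (hI : HomI I) :
    (subW lam w (Polynomial.derivative (GG I lam w))).IsHomogeneous (DD I lam w - 1) := by
  have h1 : Polynomial.derivative (GG I lam w) =
      hp (DD I lam w - 1) (Polynomial.derivative (GG I lam w)) := by
    ext1 i
    rw [coeff_hp, Polynomial.coeff_derivative]
    split_ifs with h
    · have h2 := (GG_homog lam w hI (i + 1) (by have := DD_pos I lam w; omega))
      have h3 : ((GG I lam w).coeff (i + 1) * ((i : BR n) + 1)).IsHomogeneous
          (DD I lam w - 1 - i) := by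
        have h4 : ((i : BR n) + 1).IsHomogeneous 0 := by
          have := isHomogeneous_C (R := ℂ) (Fin (n + 1)) ((i : ℂ) + 1)
          rwa [map_add, map_one, map_natCast] at this
        have h5 := h2.mul h4
        rw [add_zero] at h5
        convert h5 using 1
        omega
      rw [homogeneousComponent_of_mem ((mem_homogeneousSubmodule _ _).2 h3), if_pos rfl]
    · rw [Polynomial.coeff_eq_zero_of_natDegree_lt, zero_mul]
      have := DD_pos I lam w
      show DD I lam w < _
      omega
  rw [h1, ← hc_subW]
  exact homogeneousComponent_isHomogeneous _ _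

attribute [local instance] FractionRing.liftAlgebra

/-- **the Kronecker data of `(I, lam, w)`** -/
theorem exists_good (hI : HomI I)
    (hw : Algebra.adjoin (FractionRing (BR n))
      {algebraMap (CR I lam) (FractionRing (CR I lam)) (wb I lam w)} = ⊤) :
    ∃ κ : KDat n N ℂ, κ.lam = lam ∧ κ.w = w ∧ κ.G = GG I lam w ∧
      κ.Good {p | p ∈ I ∧ ∃ d, p.IsHomogeneous d} := by
  classical
  choose q hq1 hq2 using fun k => kron_alg (wb I lam w) hw (mkA I lam (X k))
  set D := DD I lam w with hD
  have hDp : 0 < D := DD_pos I lam w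
  have hsq : ∀ k, subW lam w (hp D (q k)) - X k * subW lam w (Polynomial.derivative (GG I lam w))
      ∈ I := by
    intro k
    have h1 : subW lam w (q k) - X k * subW lam w (Polynomial.derivative (GG I lam w)) ∈ I := by
      rw [← mkA_eq_zero I lam, map_sub, map_mul, ← aeval_wb, ← aeval_wb, hq2 k]
      exact sub_self _
    have h2 := hI _ h1 D
    rw [map_sub, hc_subW] at h2
    have h3 : (X k * subW lam w (Polynomial.derivative (GG I lam w))).IsHomogeneous D := by
      have := (isHomogeneous_X ℂ k).mul (dG_homog lam w hI)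
      convert this using 1
      omega
    rwa [homogeneousComponent_of_mem ((mem_homogeneousSubmodule _ _).2 h3), if_pos rfl] at h2
  have hNd : ∀ k i, D ≤ i → (hp D (q k)).coeff i = 0 := by
    intro k i hi
    rw [coeff_hp]
    split_ifs with h
    · rw [hq1 k i hi, map_zero]
    · rfl
  have hder : ∀ i, D ≤ i → (Polynomial.derivative (GG I lam w)).coeff i = 0 := by
    intro i hi
    rw [Polynomial.coeff_derivative, Polynomial.coeff_eq_zero_of_natDegree_lt, zero_mul]
    show D < _
    omega
  let κ : KDat n N ℂ := ⟨lam, w, D, GG I lam w, fun k => hp D (q k)⟩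
  have hlin : ∀ a : Fin (N + 1) → ℂ, subW lam w (∑ k, Polynomial.C (MvPolynomial.C (a k)) *
      hp D (q k)) - lin a * subW lam w (Polynomial.derivative (GG I lam w)) ∈ I := by
    intro a
    have h1 : subW lam w (∑ k, Polynomial.C (MvPolynomial.C (a k)) * hp D (q k)) -
        lin a * subW lam w (Polynomial.derivative (GG I lam w)) =
        ∑ k, MvPolynomial.C (a k) * (subW lam w (hp D (q k)) -
          X k * subW lam w (Polynomial.derivative (GG I lam w))) := by
      rw [map_sum, lin, Finset.sum_mul, ← Finset.sum_sub_distrib]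
      refine Finset.sum_congr rfl fun k _ => ?_
      rw [map_mul]
      have h2 : subW lam w (Polynomial.C (MvPolynomial.C (a k))) = MvPolynomial.C (a k) := by
        simp [subW, sY]
      rw [h2]
      ring
    rw [h1]
    exact I.sum_mem fun k _ => I.mul_mem_left _ (hsq k)
  refine ⟨κ, rfl, rfl, rfl, ⟨hDp, GG_monic I lam w, rfl, fun i hi => GG_homog lam w hI i hi, hNd,
    fun k i hi => ?_, fun j => ?_, ?_, ?_, ?_, fun k => ?_⟩⟩
  · show ((hp D (q k)).coeff i).IsHomogeneous _
    rw [coeff_hp, if_pos hi.le]
    exact homogeneousComponent_isHomogeneous _ _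
  · rw [← sub_eq_zero]
    refine eq_zero_of_lt I lam w (fun i hi => ?_) ?_
    · rw [Polynomial.coeff_sub, Polynomial.finsetSum_coeff]
      rw [Finset.sum_eq_zero fun k _ => by
        rw [Polynomial.coeff_C_mul]
        show _ * (hp D (q k)).coeff i = 0
        rw [hNd k i hi, mul_zero]]
      rw [Polynomial.coeff_C_mul]
      show 0 - _ * (Polynomial.derivative (GG I lam w)).coeff i = 0
      rw [hder i hi, mul_zero, sub_zero]
    · have h1 := hlin (lam j)
      rw [map_sub, map_mul]
      have h2 : subW lam w (Polynomial.C (X j)) = lin (lam j) := by simp [subW, sY]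
      rw [h2]
      exact h1
  · rw [← sub_eq_zero]
    refine eq_zero_of_lt I lam w (fun i hi => ?_) ?_
    · rw [Polynomial.coeff_sub, Polynomial.finsetSum_coeff]
      rw [Finset.sum_eq_zero fun k _ => by
        rw [Polynomial.coeff_C_mul]
        show _ * (hp D (q k)).coeff i = 0
        rw [hNd k i hi, mul_zero]]
      rw [zero_sub, neg_eq_zero, Polynomial.coeff_sub]
      have h3 : ((D : Polynomial (BR n)) * GG I lam w).coeff i = (D : BR n) *
          (GG I lam w).coeff i := by
        rw [← Polynomial.C_eq_natCast, Polynomial.coeff_C_mul]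
      show (Polynomial.X * Polynomial.derivative (GG I lam w)).coeff i -
        ((D : Polynomial (BR n)) * GG I lam w).coeff i = 0
      obtain ⟨i', rfl⟩ : ∃ i', i = i' + 1 := ⟨i - 1, by omega⟩
      rw [h3, Polynomial.coeff_X_mul, Polynomial.coeff_derivative]
      rcases hi.eq_or_lt with h | h
      · have hD2 : D = i' + 1 := h
        rw [hD2]
        push_cast
        ring
      · rw [Polynomial.coeff_eq_zero_of_natDegree_lt (show (GG I lam w).natDegree < i' + 1 from h)]
        ring
    · have h1 := hlin w
      have h4 : subW lam w (GG I lam w) ∈ I := (GG_dvd_iff I lam w _).1 dvd_rfl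
      have h5 : subW lam w (∑ k, Polynomial.C (MvPolynomial.C (w k)) * hp D (q k) -
          (Polynomial.X * Polynomial.derivative (GG I lam w) -
            (D : Polynomial (BR n)) * GG I lam w)) =
          (subW lam w (∑ k, Polynomial.C (MvPolynomial.C (w k)) * hp D (q k)) -
            lin w * subW lam w (Polynomial.derivative (GG I lam w))) +
          (D : MvPolynomial (Fin (N + 1)) ℂ) * subW lam w (GG I lam w) := by
        rw [map_sub, map_sub, map_mul, map_mul, map_natCast]
        have h6 : subW lam w Polynomial.X = lin w := by simp [subW]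
        rw [h6]
        ring
      show subW lam w (∑ k, Polynomial.C (MvPolynomial.C (w k)) * hp D (q k) -
          (Polynomial.X * Polynomial.derivative (GG I lam w) -
            (D : Polynomial (BR n)) * GG I lam w)) ∈ I
      rw [h5]
      exact I.add_mem h1 (I.mul_mem_left _ h4)
  · rintro F ⟨hF, d, hFd⟩
    show GG I lam w ∣ _
    rw [GG_dvd_iff]
    -- `F (N) ≡ dG^d F (x)`
    have h1 : mkA I lam (subW lam w (MvPolynomial.aeval (fun k => hp D (q k)) F)) =
        mkA I lam (MvPolynomial.aeval (fun k => X k *
          subW lam w (Polynomial.derivative (GG I lam w))) F) := by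
      have h2 : (mkA I lam).toRingHom.comp ((subW lam w).comp
          (MvPolynomial.aeval (R := ℂ) fun k => hp D (q k)).toRingHom) =
          (mkA I lam).toRingHom.comp (MvPolynomial.aeval (R := ℂ) fun k => X k *
          subW lam w (Polynomial.derivative (GG I lam w))).toRingHom := by
        refine MvPolynomial.ringHom_ext ?_ ?_
        · intro r
          have h3 : subW lam w (algebraMap ℂ (Polynomial (BR n)) r) = MvPolynomial.C r := by
            rw [Polynomial.algebraMap_apply]
            simp [subW, sY]
          simp only [RingHom.comp_apply, AlgHom.toRingHom_eq_coe, RingHom.coe_coe,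
            MvPolynomial.algHom_C]
          rw [h3]
          simp
        · intro k
          simp only [RingHom.comp_apply, AlgHom.toRingHom_eq_coe, RingHom.coe_coe,
            MvPolynomial.aeval_X]
          rw [← sub_eq_zero, ← map_sub, mkA_eq_zero]
          exact hsq k
      exact congrArg (fun f => f F) h2
    rw [← mkA_eq_zero I lam]
    refine h1.trans ?_
    rw [mkA_eq_zero]
    have h3 : MvPolynomial.aeval (fun k => X k *
        subW lam w (Polynomial.derivative (GG I lam w))) F =
        subW lam w (Polynomial.derivative (GG I lam w)) ^ d * F := by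
      rw [aeval_mul_homog hFd, MvPolynomial.aeval_X_left_apply]
    rw [h3]
    exact I.mul_mem_left _ hF
  · refine ⟨(GG_dvd_iff I lam w _).1 dvd_rfl, D, ?_⟩
    have h1 := homogeneousComponent_isHomogeneous D (subW lam w (GG I lam w))
    rw [hc_subW, GG_hp lam w hI] at h1
    exact h1
  · have h1 : X k * κ.dG - κ.sub (κ.Nm k) = -(subW lam w (hp D (q k)) -
        X k * subW lam w (Polynomial.derivative (GG I lam w))) := by
      rw [neg_sub]
      rfl
    rw [h1]
    refine ⟨I.neg_mem (hsq k), D, ?_⟩
    rw [neg_sub]
    refine IsHomogeneous.sub ?_ ?_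
    · have h5 := (isHomogeneous_X ℂ k).mul (dG_homog lam w hI)
      have h6 : 1 + (DD I lam w - 1) = D := by omega
      rw [h6] at h5
      exact h5
    · rw [← hc_subW]
      exact homogeneousComponent_isHomogeneous _ _

end Main

end

end Crest.Agent.R281.Kr_488
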