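import Crest.Agent.R281.Kr3_488

/-!
# R281, KRON (helper488), part 4: lifting of points, separability, `G' ≠ 0` at a good point
-/

set_option autoImplicit false
set_option linter.unusedSectionVars false

open MvPolynomial Filter Topology

namespace Crest.Agent.R281.Kr_488

noncomputable section

variable {n N : ℕ}

/-- the zero set -/
def Vz (I : Ideal (MvPolynomial (Fin (N + 1)) ℂ)) : Set (Fin (N + 1) → ℂ) :=
  {v | ∀ p ∈ I, eval v p = 0}

/-- the values of the linear forms -/
def lamv (lam : Fin (n + 1) → Fin (N + 1) → ℂ) (v : Fin (N + 1) → ℂ) : Fin (n + 1) → ℂ :=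
  fun j => lv (lam j) v

/-- the value at `(y, W)` -/
def ev (y : Fin (n + 1) → ℂ) (W : ℂ) : Polynomial (BR n) →+* ℂ :=
  Polynomial.eval₂RingHom (MvPolynomial.eval y) W

theorem eval_subW (lam : Fin (n + 1) → Fin (N + 1) → ℂ) (w : Fin (N + 1) → ℂ)
    (p : Polynomial (BR n)) (v : Fin (N + 1) → ℂ) :
    MvPolynomial.eval v (subW lam w p) = ev (lamv lam v) (lv w v) p := by
  have h : (MvPolynomial.eval v).comp (subW lam w) = ev (lamv lam v) (lv w v) := by
    refine Polynomial.ringHom_ext' ?_ ?_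
    · refine MvPolynomial.ringHom_ext ?_ ?_
      · intro r
        simp [subW, ev, sY]
      · intro j
        simp [subW, ev, sY, eval_lin, lamv]
    · simp [subW, ev, eval_lin]
  exact congrArg (fun f => f p) h

theorem isClosed_Vz (I : Ideal (MvPolynomial (Fin (N + 1)) ℂ)) : IsClosed (Vz I) := by
  have h : Vz I = ⋂ p ∈ I, {v | eval v p = 0} := by
    ext v
    simp [Vz]
  rw [h]
  exact isClosed_biInter fun p _ => isClosed_eq (MvPolynomial.continuous_eval p) continuous_const

theorem continuous_lv (a : Fin (N + 1) → ℂ) : Continuous (lv a) := by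
  unfold lv
  fun_prop

theorem continuous_lamv (lam : Fin (n + 1) → Fin (N + 1) → ℂ) : Continuous (lamv lam) :=
  continuous_pi fun j => continuous_lv (lam j)

theorem lv_smul (a : Fin (N + 1) → ℂ) (c : ℂ) (v : Fin (N + 1) → ℂ) : lv a (c • v) = c * lv a v := by
  unfold lv
  rw [Finset.mul_sum]
  exact Finset.sum_congr rfl fun k _ => by
    rw [Pi.smul_apply, smul_eq_mul]
    ring

theorem lamv_smul (lam : Fin (n + 1) → Fin (N + 1) → ℂ) (c : ℂ) (v : Fin (N + 1) → ℂ) :
    lamv lam (c • v) = c • lamv lam v := by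
  funext j
  exact lv_smul _ _ _

theorem eval_smul_homog {m : ℕ} {p : MvPolynomial (Fin m) ℂ} {d : ℕ} (hp : p.IsHomogeneous d)
    (c : ℂ) (v : Fin m → ℂ) : eval (c • v) p = c ^ d * eval v p := by
  have h := aeval_mul_homog (S := ℂ) hp v c
  rw [MvPolynomial.aeval_eq_eval, MvPolynomial.aeval_eq_eval] at h
  rw [← h]
  congr 1
  congr 1
  funext k
  rw [Pi.smul_apply, smul_eq_mul, mul_comm]

/-- the zero set is a cone -/
theorem Vz_smul {I : Ideal (MvPolynomial (Fin (N + 1)) ℂ)} (hI : HomI I) {v : Fin (N + 1) → ℂ}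
    (hv : v ∈ Vz I) (c : ℂ) : c • v ∈ Vz I := by
  intro p hp
  rw [← sum_homogeneousComponent p, map_sum]
  refine Finset.sum_eq_zero fun d _ => ?_
  rw [eval_smul_homog (homogeneousComponent_isHomogeneous d p), hv _ (hI p hp d), mul_zero]

/-- boundedness of the fibres -/
theorem exists_bound {I : Ideal (MvPolynomial (Fin (N + 1)) ℂ)} (hI : HomI I)
    {lam : Fin (n + 1) → Fin (N + 1) → ℂ} (h0 : ∀ v ∈ Vz I, lamv lam v = 0 → v = 0) :
    ∃ C : ℝ, 0 < C ∧ ∀ v ∈ Vz I, ‖v‖ ≤ C * ‖lamv lam v‖ := by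
  have hK : IsCompact (Metric.sphere (0 : Fin (N + 1) → ℂ) 1 ∩ Vz I) :=
    (isCompact_sphere 0 1).inter_right (isClosed_Vz I)
  rcases (Metric.sphere (0 : Fin (N + 1) → ℂ) 1 ∩ Vz I).eq_empty_or_nonempty with he | hne
  · refine ⟨1, one_pos, fun v hv => ?_⟩
    rcases eq_or_ne v 0 with rfl | hv0
    · simp
    · exfalso
      have hn : ‖v‖ ≠ 0 := norm_ne_zero_iff.2 hv0
      have h1 : ((‖v‖⁻¹ : ℝ) : ℂ) • v ∈ Metric.sphere (0 : Fin (N + 1) → ℂ) 1 ∩ Vz I := by
        refine ⟨?_, Vz_smul hI hv _⟩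
        rw [mem_sphere_zero_iff_norm, norm_smul, Complex.norm_real, norm_inv, norm_norm,
          inv_mul_cancel₀ hn]
      rw [he] at h1
      exact h1
  · obtain ⟨v0, hv0, hmin⟩ := hK.exists_isMinOn hne (continuous_lamv lam).norm.continuousOn
    have hc : 0 < ‖lamv lam v0‖ := by
      rw [norm_pos_iff]
      intro h
      have h1 := h0 v0 hv0.2 h
      have h2 := hv0.1
      rw [h1, mem_sphere_zero_iff_norm, norm_zero] at h2
      exact zero_ne_one h2
    refine ⟨‖lamv lam v0‖⁻¹, inv_pos.2 hc, fun v hv => ?_⟩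
    rcases eq_or_ne v 0 with rfl | hvn
    · rw [norm_zero]
      positivity
    · have hn : 0 < ‖v‖ := norm_pos_iff.2 hvn
      have h1 : ((‖v‖⁻¹ : ℝ) : ℂ) • v ∈ Metric.sphere (0 : Fin (N + 1) → ℂ) 1 ∩ Vz I := by
        refine ⟨?_, Vz_smul hI hv _⟩
        rw [mem_sphere_zero_iff_norm, norm_smul, Complex.norm_real, norm_inv, norm_norm,
          inv_mul_cancel₀ hn.ne']
      have h2 : ‖lamv lam v0‖ ≤ ‖lamv lam (((‖v‖⁻¹ : ℝ) : ℂ) • v)‖ := hmin h1
      rw [lamv_smul, norm_smul, Complex.norm_real, norm_inv, norm_norm] at h2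
      rw [inv_mul_eq_div, le_div_iff₀ hc]
      have h3 := mul_le_mul_of_nonneg_left h2 hn.le
      rwa [← mul_assoc, mul_inv_cancel₀ hn.ne', one_mul] at h3

/-- a non-zero polynomial does not vanish near a point -/
theorem mem_closure_ne_zero {m : ℕ} {d : MvPolynomial (Fin m) ℂ} (hd : d ≠ 0) (y0 : Fin m → ℂ) :
    y0 ∈ closure {y | eval y d ≠ 0} := by
  by_contra h
  rw [mem_closure_iff_frequently, not_frequently] at h
  apply hd
  obtain ⟨ε, hε, hb⟩ := Metric.eventually_nhds_iff_ball.1 h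
  refine MvPolynomial.funext_set (fun i => Metric.ball (y0 i) ε) (fun i => ?_) fun y hy => ?_
  · exact infinite_of_mem_nhds (y0 i) (Metric.ball_mem_nhds _ hε)
  · rw [map_zero]
    by_contra h0
    refine hb y ?_ h0
    rw [Metric.mem_ball, dist_pi_lt_iff hε]
    exact fun i => hy i (Set.mem_univ i)

section Main

variable (I : Ideal (MvPolynomial (Fin (N + 1)) ℂ)) (lam : Fin (n + 1) → Fin (N + 1) → ℂ)
  (w : Fin (N + 1) → ℂ) [I.IsPrime] [Module.Finite (BR n) (CR I lam)]
  [FaithfulSMul (BR n) (CR I lam)]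

/-- **lying over** -/
theorem exists_lift {y : Fin (n + 1) → ℂ} {W : ℂ} (h : ev y W (GG I lam w) = 0) :
    ∃ v ∈ Vz I, lamv lam v = y ∧ lv w v = W := by
  let φ : Polynomial (BR n) →+* CR I lam := (mkA I lam).toRingHom.comp (subW lam w)
  have hφ : ∀ p, φ p = mkA I lam (subW lam w p) := fun _ => rfl
  have hint : φ.IsIntegral := by
    refine RingHom.IsIntegral.tower_top (Polynomial.C : BR n →+* Polynomial (BR n)) φ ?_
    have h1 : φ.comp (Polynomial.C : BR n →+* Polynomial (BR n)) =
        algebraMap (BR n) (CR I lam) := by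
      refine RingHom.ext fun p => ?_
      simp [φ, subW, algebraMap_eq]
    rw [h1]
    exact fun x => Algebra.IsIntegral.isIntegral x
  have hsurj : Function.Surjective (ev y W) := by
    intro c
    refine ⟨Polynomial.C (MvPolynomial.C c), ?_⟩
    simp [ev]
  letI : Algebra (Polynomial (BR n)) (CR I lam) := φ.toAlgebra
  haveI : Algebra.IsIntegral (Polynomial (BR n)) (CR I lam) := ⟨hint⟩
  haveI := RingHom.ker_isMaximal_of_surjective (ev y W) hsurj
  obtain ⟨Q, hQ, hQP⟩ := Ideal.exists_ideal_over_maximal_of_isIntegral (S := CR I lam)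
    (RingHom.ker (ev y W)) (by
      intro p hp
      have h1 : φ p = 0 := hp
      rw [hφ, mkA_eq_zero, ← GG_dvd_iff] at h1
      obtain ⟨q, rfl⟩ := h1
      rw [RingHom.mem_ker, map_mul, h, zero_mul])
  have hmax : (Ideal.comap (mkA I lam) Q).IsMaximal :=
    Ideal.comap_isMaximal_of_surjective (mkA I lam) (mkA_surjective I lam)
  obtain ⟨v, hv⟩ := MvPolynomial.isMaximal_iff_eq_vanishingIdeal_singleton.1 hmax
  have hmem : ∀ p : MvPolynomial (Fin (N + 1)) ℂ, mkA I lam p ∈ Q → eval v p = 0 := by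
    intro p hp
    have h1 : p ∈ Ideal.comap (mkA I lam) Q := hp
    rw [hv, MvPolynomial.mem_vanishingIdeal_singleton_iff] at h1
    rwa [MvPolynomial.aeval_eq_eval] at h1
  have hker : ∀ p : Polynomial (BR n), ev y W p = 0 → ev (lamv lam v) (lv w v) p = 0 := by
    intro p hp
    rw [← eval_subW]
    refine hmem _ ?_
    have h1 : p ∈ Ideal.comap (algebraMap (Polynomial (BR n)) (CR I lam)) Q := by
      rw [hQP]
      exact hp
    exact h1
  refine ⟨v, fun p hp => hmem p ?_, ?_, ?_⟩
  · rw [(mkA_eq_zero I lam).2 hp]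
    exact Q.zero_mem
  · funext j
    have h1 := hker (Polynomial.C (X j - MvPolynomial.C (y j))) (by simp [ev])
    have h2 : lamv lam v j - y j = 0 := by simpa [ev] using h1
    exact sub_eq_zero.1 h2
  · have h1 := hker (Polynomial.X - Polynomial.C (MvPolynomial.C W)) (by simp [ev])
    have h2 : lv w v - W = 0 := by simpa [ev] using h1
    exact sub_eq_zero.1 h2

/-- **Bezout identity** -/
theorem exists_bezout : ∃ (U V : Polynomial (BR n)) (d : BR n), d ≠ 0 ∧
    U * GG I lam w + V * Polynomial.derivative (GG I lam w) = Polynomial.C d := by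
  classical
  have hirr : Irreducible ((GG I lam w).map (algebraMap (BR n) (FractionRing (BR n)))) :=
    ((GG_monic I lam w).irreducible_iff_irreducible_map_fraction_map).1
      (minpoly.irreducible (wb_int I lam w))
  obtain ⟨a, b, hab⟩ := (Polynomial.separable_def' _).1 hirr.separable
  obtain ⟨c, hc, hc'⟩ := IsLocalization.integerNormalization_spec (nonZeroDivisors (BR n)) a
  obtain ⟨e, he, he'⟩ := IsLocalization.integerNormalization_spec (nonZeroDivisors (BR n)) b
  refine ⟨Polynomial.C e * IsLocalization.integerNormalization (nonZeroDivisors (BR n)) a,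
    Polynomial.C c * IsLocalization.integerNormalization (nonZeroDivisors (BR n)) b, c * e,
    mul_ne_zero (nonZeroDivisors.ne_zero hc) (nonZeroDivisors.ne_zero he), ?_⟩
  apply Polynomial.map_injective (algebraMap (BR n) (FractionRing (BR n)))
    (IsFractionRing.injective _ _)
  simp only [Polynomial.map_add, Polynomial.map_mul, Polynomial.map_C]
  rw [hc', he', ← Polynomial.derivative_map]
  rw [Algebra.smul_def, Algebra.smul_def]
  have h1 : ∀ r : BR n, algebraMap (BR n) (Polynomial (FractionRing (BR n))) r =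
      Polynomial.C (algebraMap (BR n) (FractionRing (BR n)) r) := fun r => rfl
  rw [h1, h1]
  have h2 := congrArg (fun t => Polynomial.C (algebraMap (BR n) (FractionRing (BR n)) c) *
    Polynomial.C (algebraMap (BR n) (FractionRing (BR n)) e) * t) hab
  simp only [mul_one] at h2
  rw [map_mul, map_mul, ← h2]
  ring

/-- distinct lifts over a regular point -/
theorem exists_lifts {y : Fin (n + 1) → ℂ} {U V : Polynomial (BR n)} {d : BR n}
    (hUV : U * GG I lam w + V * Polynomial.derivative (GG I lam w) = Polynomial.C d)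
    (hd : eval y d ≠ 0) :
    ∃ v : Fin (DD I lam w) → (Fin (N + 1) → ℂ), (∀ i, v i ∈ Vz I) ∧ (∀ i, lamv lam (v i) = y) ∧
      Function.Injective (fun i => lv w (v i)) ∧
      ∀ T, ev y T (GG I lam w) = ∏ i, (T - lv w (v i)) := by
  classical
  set g : Polynomial ℂ := (GG I lam w).map (eval y) with hg
  have hgm : g.Monic := (GG_monic I lam w).map _
  have hgd : g.natDegree = DD I lam w := (GG_monic I lam w).natDegree_map _
  have hsep : g.Separable := by
    rw [Polynomial.separable_def']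
    refine ⟨Polynomial.C (eval y d)⁻¹ * U.map (eval y), Polynomial.C (eval y d)⁻¹ * V.map (eval y),
      ?_⟩
    have h1 := congrArg (Polynomial.map (eval y)) hUV
    rw [Polynomial.map_add, Polynomial.map_mul, Polynomial.map_mul, Polynomial.map_C,
      ← Polynomial.derivative_map] at h1
    rw [mul_assoc, mul_assoc, ← mul_add, h1, ← Polynomial.C_mul, inv_mul_cancel₀ hd,
      Polynomial.C_1]
  have hnd := Polynomial.nodup_roots hsep
  have hcard : Fintype.card g.roots.toFinset = DD I lam w := by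
    rw [Fintype.card_coe, Multiset.toFinset_card_of_nodup hnd, ← hgd]
    exact (IsAlgClosed.splits g).natDegree_eq_card_roots.symm
  let σ : Fin (DD I lam w) ≃ g.roots.toFinset := (Fintype.equivFinOfCardEq hcard).symm
  have hroot : ∀ i, ev y (σ i : ℂ) (GG I lam w) = 0 := by
    intro i
    have h1 : (σ i : ℂ) ∈ g.roots := Multiset.mem_toFinset.1 (σ i).2
    have h2 := Polynomial.isRoot_of_mem_roots h1
    rw [Polynomial.IsRoot, Polynomial.eval_map] at h2
    exact h2
  choose v hv1 hv2 hv3 using fun i => exists_lift I lam w (hroot i)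
  refine ⟨v, hv1, hv2, ?_, ?_⟩
  · intro i j hij
    simp only [hv3] at hij
    exact σ.injective (Subtype.ext hij)
  · intro T
    have h1 := (IsAlgClosed.splits g).eq_prod_roots_of_monic hgm
    have h2 : ev y T (GG I lam w) = g.eval T := by
      rw [hg, Polynomial.eval_map]
      rfl
    rw [h2, h1, Polynomial.eval_multiset_prod, Multiset.map_map]
    simp only [Function.comp_apply, Polynomial.eval_sub, Polynomial.eval_X, Polynomial.eval_C, hv3]
    have h3 : (∏ i, (T - (σ i : ℂ))) = ∏ x : g.roots.toFinset, (T - (x : ℂ)) :=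
      Fintype.prod_equiv σ _ _ fun i => rfl
    rw [h3, Finset.prod_coe_sort g.roots.toFinset (fun x => T - x), Finset.prod,
      Multiset.toFinset_val, hnd.dedup]

/-- **`G' ≠ 0` at a point where the projection is locally injective and `w` separates the
fibre** -/
theorem dG_ne_zero (hI : HomI I) (h0 : ∀ v ∈ Vz I, lamv lam v = 0 → v = 0)
    {x0 : Fin (N + 1) → ℂ} (hx0 : x0 ∈ Vz I)
    (hloc : ∃ O ∈ 𝓝 x0, Set.InjOn (lamv lam) (Vz I ∩ O))
    (hsep : ∀ v ∈ Vz I, lamv lam v = lamv lam x0 → lv w v = lv w x0 → v = x0) :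
    eval x0 (subW lam w (Polynomial.derivative (GG I lam w))) ≠ 0 := by
  classical
  obtain ⟨U, V, d, hd, hUV⟩ := exists_bezout I lam w
  obtain ⟨C, hC, hCb⟩ := exists_bound hI h0
  set y0 := lamv lam x0 with hy0
  set W0 := lv w x0 with hW0
  obtain ⟨ys, hys, hyt⟩ := mem_closure_iff_seq_limit.1 (mem_closure_ne_zero hd y0)
  choose vs hv1 hv2 hv3 hv4 using fun m => exists_lifts I lam w hUV (hys m)
  -- bounded
  obtain ⟨R, hR⟩ : ∃ R : ℝ, ∀ m, ‖ys m‖ ≤ R := by
    obtain ⟨R, hR⟩ := (Metric.isBounded_range_of_tendsto ys hyt).exists_norm_le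
    exact ⟨R, fun m => hR _ ⟨m, rfl⟩⟩
  have hR0 : 0 ≤ R := (norm_nonneg _).trans (hR 0)
  have hb : ∀ m, vs m ∈ Metric.closedBall (0 : Fin (DD I lam w) → (Fin (N + 1) → ℂ)) (C * R) := by
    intro m
    rw [mem_closedBall_zero_iff, pi_norm_le_iff_of_nonneg (by positivity)]
    intro i
    refine (hCb _ (hv1 m i)).trans ?_
    rw [hv2 m i]
    exact mul_le_mul_of_nonneg_left (hR m) hC.le
  obtain ⟨v, -, φ, hφ, hφt⟩ := (isCompact_closedBall _ _).tendsto_subseq hb
  have hvi : ∀ i, Tendsto (fun m => vs (φ m) i) atTop (𝓝 (v i)) := fun i =>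
    (tendsto_pi_nhds.1 hφt) i
  have hyφ : Tendsto (fun m => ys (φ m)) atTop (𝓝 y0) := hyt.comp hφ.tendsto_atTop
  have hvX : ∀ i, v i ∈ Vz I := fun i =>
    (isClosed_Vz I).mem_of_tendsto (hvi i) (Eventually.of_forall fun m => hv1 _ i)
  have hvy : ∀ i, lamv lam (v i) = y0 := by
    intro i
    refine tendsto_nhds_unique (((continuous_lamv lam).tendsto _).comp (hvi i)) ?_
    refine hyφ.congr fun m => ?_
    exact (hv2 (φ m) i).symm
  have hprod : ∀ T, ev y0 T (GG I lam w) = ∏ i, (T - lv w (v i)) := by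
    intro T
    have hcont : Continuous fun y : Fin (n + 1) → ℂ => ev y T (GG I lam w) := by
      have h1 : (fun y : Fin (n + 1) → ℂ => ev y T (GG I lam w)) = fun y =>
          ∑ i ∈ Finset.range ((GG I lam w).natDegree + 1), eval y ((GG I lam w).coeff i) * T ^ i := by
        funext y
        show Polynomial.eval₂ _ _ _ = _
        rw [Polynomial.eval₂_eq_sum_range]
      rw [h1]
      exact continuous_finsetSum _ fun i _ => (MvPolynomial.continuous_eval _).mul continuous_const
    refine tendsto_nhds_unique ((hcont.tendsto y0).comp hyφ) ?_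
    have h2 : Tendsto (fun m => ∏ i, (T - lv w (vs (φ m) i))) atTop
        (𝓝 (∏ i, (T - lv w (v i)))) :=
      tendsto_finsetProd _ fun i _ => tendsto_const_nhds.sub
        (((continuous_lv w).tendsto _).comp (hvi i))
    refine h2.congr fun m => ?_
    exact (hv4 (φ m) T).symm
  have hG0 : ev y0 W0 (GG I lam w) = 0 := by
    rw [hy0, hW0, ← eval_subW]
    exact hx0 _ ((GG_dvd_iff I lam w _).1 dvd_rfl)
  obtain ⟨i0, -, hi0⟩ := Finset.prod_eq_zero_iff.1 ((hprod W0).symm.trans hG0)
  have hw0 : lv w (v i0) = W0 := (sub_eq_zero.1 hi0).symm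
  have hv0 : v i0 = x0 := hsep _ (hvX i0) (hvy i0) hw0
  have huniq : ∀ j, j ≠ i0 → W0 - lv w (v j) ≠ 0 := by
    intro j hj h
    have hvj : v j = x0 := hsep _ (hvX j) (hvy j) (sub_eq_zero.1 h).symm
    obtain ⟨O, hO, hinj⟩ := hloc
    have h1 : ∀ᶠ m in atTop, vs (φ m) i0 ∈ O := (hvi i0) (by rw [hv0]; exact hO)
    have h2 : ∀ᶠ m in atTop, vs (φ m) j ∈ O := (hvi j) (by rw [hvj]; exact hO)
    obtain ⟨m, hm1, hm2⟩ := (h1.and h2).exists
    have h3 : vs (φ m) j = vs (φ m) i0 := hinj ⟨hv1 _ _, hm2⟩ ⟨hv1 _ _, hm1⟩ (by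
      rw [hv2, hv2])
    exact hj (hv3 (φ m) (congrArg (lv w) h3))
  -- the derivative
  rw [eval_subW]
  have hpoly : (GG I lam w).map (eval y0) = ∏ i, (Polynomial.X - Polynomial.C (lv w (v i))) := by
    refine Polynomial.funext fun T => ?_
    have h1 : ((GG I lam w).map (eval y0)).eval T = ev y0 T (GG I lam w) := by
      rw [Polynomial.eval_map]
      rfl
    rw [h1, hprod, Polynomial.eval_prod]
    simp
  have hev : ev y0 W0 (Polynomial.derivative (GG I lam w)) =
      (Polynomial.derivative ((GG I lam w).map (eval y0))).eval W0 := by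
    rw [Polynomial.derivative_map, Polynomial.eval_map]
    rfl
  rw [← hy0, ← hW0, hev, hpoly, ← Finset.mul_prod_erase _ _ (Finset.mem_univ i0),
    Polynomial.derivative_mul, Polynomial.eval_add, Polynomial.eval_mul, Polynomial.eval_mul]
  simp only [Polynomial.derivative_sub, Polynomial.derivative_X, Polynomial.derivative_C, sub_zero,
    Polynomial.eval_one, one_mul, Polynomial.eval_sub, Polynomial.eval_X, Polynomial.eval_C, hw0,
    sub_self, zero_mul, add_zero, Polynomial.eval_prod]
  rw [Finset.prod_ne_zero_iff]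
  intro j hj
  exact huniq j (Finset.ne_of_mem_erase hj)

end Main

end

end Crest.Agent.R281.Kr_488
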