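import Crest.Agent.R281.Kr4_488

/-!
# R281, KRON (helper488), part 5: a generic `w`; the abstract theorem
-/

set_option autoImplicit false
set_option linter.unusedSectionVars false

open MvPolynomial Filter Topology

namespace Crest.Agent.R281.Kr_488

noncomputable section

variable {n N : ℕ}

theorem lin_add (a b : Fin (N + 1) → ℂ) : lin (a + b) = lin a + lin b := by
  unfold lin
  rw [← Finset.sum_add_distrib]
  exact Finset.sum_congr rfl fun k _ => by
    rw [Pi.add_apply, map_add]
    ring

theorem lin_smul (c : ℂ) (a : Fin (N + 1) → ℂ) : lin (c • a) = MvPolynomial.C c * lin a := by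
  unfold lin
  rw [Finset.mul_sum]
  exact Finset.sum_congr rfl fun k _ => by
    rw [Pi.smul_apply, smul_eq_mul, map_mul]
    ring

theorem lin_zero : lin (0 : Fin (N + 1) → ℂ) = 0 := by
  simp [lin]

theorem lin_single (k : Fin (N + 1)) : lin (Pi.single k (1 : ℂ)) = X k := by
  unfold lin
  rw [Finset.sum_eq_single k]
  · simp
  · intro j _ hj
    rw [Pi.single_eq_of_ne hj, map_zero, zero_mul]
  · simp

theorem lv_single (k : Fin (N + 1)) (v : Fin (N + 1) → ℂ) : lv (Pi.single k (1 : ℂ)) v = v k := by
  rw [← eval_lin, lin_single, eval_X]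

theorem lv_sub_left (a v v' : Fin (N + 1) → ℂ) : lv a v - lv a v' = lv a (v - v') := by
  unfold lv
  rw [← Finset.sum_sub_distrib]
  exact Finset.sum_congr rfl fun k _ => by
    rw [Pi.sub_apply]
    ring

/-- the linear forms which take the same value at two points -/
def sepS (v v' : Fin (N + 1) → ℂ) : Submodule ℂ (Fin (N + 1) → ℂ) where
  carrier := {a | lv a v = lv a v'}
  add_mem' := by
    intro a b ha hb
    have ha' : lv a v = lv a v' := ha
    have hb' : lv b v = lv b v' := hb
    have h : ∀ u, lv (a + b) u = lv a u + lv b u := by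
      intro u
      rw [← eval_lin, lin_add, map_add, eval_lin, eval_lin]
    show lv (a + b) v = lv (a + b) v'
    rw [h, h, ha', hb']
  zero_mem' := by
    show lv 0 v = lv 0 v'
    simp [lv]
  smul_mem' := by
    intro c a ha
    have ha' : lv a v = lv a v' := ha
    have h : ∀ u, lv (c • a) u = c * lv a u := by
      intro u
      rw [← eval_lin, lin_smul, map_mul, eval_C, eval_lin]
    show lv (c • a) v = lv (c • a) v'
    rw [h, h, ha']

theorem sepS_ne_top {v v' : Fin (N + 1) → ℂ} (h : v ≠ v') : sepS v v' ≠ ⊤ := by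
  intro h1
  apply h
  funext k
  have h2 : Pi.single k (1 : ℂ) ∈ sepS v v' := by
    rw [h1]
    trivial
  have h3 : lv (Pi.single k (1 : ℂ)) v = lv (Pi.single k (1 : ℂ)) v' := h2
  rwa [lv_single, lv_single] at h3

section Main

variable (I : Ideal (MvPolynomial (Fin (N + 1)) ℂ)) (lam : Fin (n + 1) → Fin (N + 1) → ℂ)
  [I.IsPrime] [Module.Finite (BR n) (CR I lam)] [FaithfulSMul (BR n) (CR I lam)]

/-- finite fibres -/
theorem finite_fibre (y0 : Fin (n + 1) → ℂ) : {v | v ∈ Vz I ∧ lamv lam v = y0}.Finite := by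
  classical
  have h1 : ∀ k, IsIntegral (BR n) (mkA I lam (X k)) := fun k => Algebra.IsIntegral.isIntegral _
  choose P hP1 hP2 using h1
  have h2 : ∀ k, ((P k).map (eval y0)).roots.toFinset.finite_toSet.toFinset.Nonempty ∨ True :=
    fun _ => Or.inr trivial
  refine (Set.Finite.pi fun k => ((P k).map (eval y0)).roots.toFinset.finite_toSet).subset ?_
  rintro v ⟨hv, hvy⟩ k -
  rw [Finset.mem_coe, Multiset.mem_toFinset, Polynomial.mem_roots ((hP1 k).map _).ne_zero,
    Polynomial.IsRoot, Polynomial.eval_map]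
  -- `P_k (X_k) ∈ I`
  have h3 : (P k).eval₂ (sY lam).toRingHom (X k) ∈ I := by
    rw [← mkA_eq_zero I lam]
    have h4 := hP2 k
    rw [← h4]
    exact Polynomial.hom_eval₂ (P k) (sY lam).toRingHom (mkA I lam).toRingHom (X k)
  have h5 := hv _ h3
  have h6 : eval v ((P k).eval₂ (sY lam).toRingHom (X k)) =
      (P k).eval₂ ((eval v).comp (sY lam).toRingHom) (eval v (X k)) :=
    Polynomial.hom_eval₂ (P k) (sY lam).toRingHom (eval v) (X k)
  rw [h6, eval_X] at h5
  have h7 : (eval v).comp (sY lam).toRingHom = eval y0 := by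
    refine MvPolynomial.ringHom_ext ?_ ?_
    · intro r
      simp [sY]
    · intro j
      rw [← hvy]
      simp [sY, eval_lin, lamv]
  rwa [h7] at h5

attribute [local instance] FractionRing.liftAlgebra

/-- the linear forms whose class lies in an intermediate field -/
def fieldS (M : IntermediateField (FractionRing (BR n)) (FractionRing (CR I lam))) :
    Submodule ℂ (Fin (N + 1) → ℂ) where
  carrier := {a | algebraMap (CR I lam) (FractionRing (CR I lam)) (wb I lam a) ∈ M}
  add_mem' := by
    intro a b ha hb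
    show algebraMap (CR I lam) (FractionRing (CR I lam)) (mkA I lam (lin (a + b))) ∈ M
    rw [lin_add, map_add, map_add]
    exact M.add_mem ha hb
  zero_mem' := by
    show algebraMap (CR I lam) (FractionRing (CR I lam)) (mkA I lam (lin 0)) ∈ M
    rw [lin_zero, map_zero, map_zero]
    exact M.zero_mem
  smul_mem' := by
    intro c a ha
    show algebraMap (CR I lam) (FractionRing (CR I lam)) (mkA I lam (lin (c • a))) ∈ M
    have h1 : mkA I lam (MvPolynomial.C c) = algebraMap (BR n) (CR I lam) (MvPolynomial.C c) := by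
      rw [algebraMap_eq]
      simp [sY]
    rw [lin_smul, map_mul, map_mul, h1]
    refine M.mul_mem ?_ ha
    rw [← IsScalarTower.algebraMap_apply (BR n) (CR I lam) (FractionRing (CR I lam)),
      IsScalarTower.algebraMap_apply (BR n) (FractionRing (BR n)) (FractionRing (CR I lam))]
    exact M.algebraMap_mem _

theorem fieldS_ne_top {M : IntermediateField (FractionRing (BR n)) (FractionRing (CR I lam))}
    (hM : M ≠ ⊤) : fieldS I lam M ≠ ⊤ := by
  intro h
  apply hM
  rw [eq_top_iff]
  rintro x -
  have hC : ∀ c : ℂ, algebraMap (CR I lam) (FractionRing (CR I lam)) (mkA I lam (C c)) ∈ M := by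
    intro c
    have h1 : mkA I lam (MvPolynomial.C c) = algebraMap (BR n) (CR I lam) (MvPolynomial.C c) := by
      rw [algebraMap_eq]
      simp [sY]
    rw [h1, ← IsScalarTower.algebraMap_apply (BR n) (CR I lam) (FractionRing (CR I lam)),
      IsScalarTower.algebraMap_apply (BR n) (FractionRing (BR n)) (FractionRing (CR I lam))]
    exact M.algebraMap_mem _
  have hX : ∀ k, algebraMap (CR I lam) (FractionRing (CR I lam)) (mkA I lam (X k)) ∈ M := by
    intro k
    have h1 : Pi.single k (1 : ℂ) ∈ fieldS I lam M := by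
      rw [h]
      trivial
    have h2 : algebraMap (CR I lam) (FractionRing (CR I lam))
      (mkA I lam (lin (Pi.single k (1 : ℂ)))) ∈ M := h1
    rwa [lin_single] at h2
  have hall : ∀ p : MvPolynomial (Fin (N + 1)) ℂ,
      algebraMap (CR I lam) (FractionRing (CR I lam)) (mkA I lam p) ∈ M := by
    intro p
    induction p using MvPolynomial.induction_on with
    | C c => exact hC c
    | add p q hp hq =>
      rw [map_add, map_add]
      exact M.add_mem hp hq
    | mul_X p k hp =>
      rw [map_mul, map_mul]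
      exact M.mul_mem hp (hX k)
  obtain ⟨a, b, hb, rfl⟩ := IsFractionRing.div_surjective (A := CR I lam) x
  obtain ⟨p, rfl⟩ := mkA_surjective I lam a
  obtain ⟨q, rfl⟩ := mkA_surjective I lam b
  exact M.div_mem (hall p) (hall q)

/-- **a generic `w`** -/
theorem exists_w (x0 : Fin (N + 1) → ℂ) :
    ∃ w : Fin (N + 1) → ℂ, Algebra.adjoin (FractionRing (BR n))
      {algebraMap (CR I lam) (FractionRing (CR I lam)) (wb I lam w)} = ⊤ ∧
      ∀ v ∈ Vz I, lamv lam v = lamv lam x0 → lv w v = lv w x0 → v = x0 := by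
  classical
  have hfd : FiniteDimensional (FractionRing (BR n)) (FractionRing (CR I lam)) :=
    Module.Finite.of_isLocalization (BR n) (CR I lam) (nonZeroDivisors (BR n))
  have hfin : Finite (IntermediateField (FractionRing (BR n)) (FractionRing (CR I lam))) :=
    Field.finite_intermediateField_of_exists_primitive_element _ _
      (Field.exists_primitive_element _ _)
  have := Fintype.ofFinite (IntermediateField (FractionRing (BR n)) (FractionRing (CR I lam)))
  have hfib := finite_fibre I lam (lamv lam x0)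
  let s : Finset (Submodule ℂ (Fin (N + 1) → ℂ)) :=
    ((Finset.univ.filter fun M : IntermediateField (FractionRing (BR n)) (FractionRing (CR I lam)) =>
      M ≠ ⊤).image fun M => fieldS I lam M) ∪
    ((hfib.toFinset.filter fun v => v ≠ x0).image fun v => sepS v x0)
  have hs : ⊤ ∉ s := by
    intro h
    rcases Finset.mem_union.1 h with h | h
    · obtain ⟨M, hM, hMt⟩ := Finset.mem_image.1 h
      exact fieldS_ne_top I lam (Finset.mem_filter.1 hM).2 hMt
    · obtain ⟨v, hv, hvt⟩ := Finset.mem_image.1 h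
      exact sepS_ne_top (Finset.mem_filter.1 hv).2 hvt
  have h1 := Subspace.biUnion_ne_univ_of_top_notMem hs
  obtain ⟨w, hw⟩ := (Set.ne_univ_iff_exists_notMem _).1 h1
  simp only [Set.mem_iUnion, not_exists] at hw
  refine ⟨w, ?_, ?_⟩
  · set α := algebraMap (CR I lam) (FractionRing (CR I lam)) (wb I lam w) with hα
    have h2 : IntermediateField.adjoin (FractionRing (BR n)) {α} = ⊤ := by
      by_contra hne
      refine hw (fieldS I lam (IntermediateField.adjoin (FractionRing (BR n)) {α})) ?_ ?_
      · exact Finset.mem_union_left _ (Finset.mem_image.2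
          ⟨_, Finset.mem_filter.2 ⟨Finset.mem_univ _, hne⟩, rfl⟩)
      · exact IntermediateField.mem_adjoin_simple_self _ α
    have h3 := IntermediateField.adjoin_simple_toSubalgebra_of_isAlgebraic
      (F := FractionRing (BR n)) (α := α) (IsAlgebraic.of_finite _ α)
    rw [← h3, h2]
    rfl
  · intro v hv hy hvw
    by_contra hne
    refine hw (sepS v x0) ?_ hvw
    exact Finset.mem_union_right _ (Finset.mem_image.2
      ⟨v, Finset.mem_filter.2 ⟨hfib.mem_toFinset.2 ⟨hv, hy⟩, hne⟩, rfl⟩)

end Main

theorem faithful_of_interior {I : Ideal (MvPolynomial (Fin (N + 1)) ℂ)}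
    {lam : Fin (n + 1) → Fin (N + 1) → ℂ} (h : (interior (lamv lam '' Vz I)).Nonempty) :
    FaithfulSMul (BR n) (CR I lam) := by
  rw [faithfulSMul_iff_algebraMap_injective, injective_iff_map_eq_zero]
  intro p hp
  rw [algebraMap_eq, mkA_eq_zero] at hp
  by_contra hp0
  obtain ⟨y0, hy0⟩ := h
  have h1 := mem_closure_ne_zero hp0 y0
  rw [mem_closure_iff_frequently] at h1
  obtain ⟨y, hy1, hy2⟩ := (h1.and_eventually (isOpen_interior.mem_nhds hy0)).exists
  obtain ⟨v, hv, rfl⟩ := interior_subset hy2
  apply hy1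
  have h2 := hv _ hp
  rw [← h2]
  have h7 : (eval v).comp (sY lam).toRingHom = eval (lamv lam v) := by
    refine MvPolynomial.ringHom_ext ?_ ?_
    · intro r
      simp [sY]
    · intro j
      simp [sY, eval_lin, lamv]
  exact (congrArg (fun f => f p) h7).symm

/-- **KRON, abstract form** -/
theorem kron_abs {I : Ideal (MvPolynomial (Fin (N + 1)) ℂ)} (hp : I.IsPrime) (hI : HomI I)
    {lam : Fin (n + 1) → Fin (N + 1) → ℂ} (h0 : ∀ v ∈ Vz I, lamv lam v = 0 → v = 0)
    (hint : (interior (lamv lam '' Vz I)).Nonempty) {x0 : Fin (N + 1) → ℂ} (hx0 : x0 ∈ Vz I)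
    (hloc : ∃ O ∈ 𝓝 x0, Set.InjOn (lamv lam) (Vz I ∩ O)) :
    ∃ κ : KDat n N ℂ, κ.lam = lam ∧ κ.Good {p | p ∈ I ∧ ∃ d, p.IsHomogeneous d} ∧
      eval x0 κ.dG ≠ 0 ∧ Irreducible κ.G ∧ (∃ (U V : Polynomial (BR n)) (d : BR n), d ≠ 0 ∧
        U * κ.G + V * Polynomial.derivative κ.G = Polynomial.C d) ∧
      (∀ y W, ev y W κ.G = 0 → ∃ v ∈ Vz I, lamv lam v = y ∧ lv κ.w v = W) ∧
      (∀ P : Polynomial (BR n), κ.G ∣ P ↔ κ.sub P ∈ I) := by
  haveI := hp
  haveI : Module.Finite (BR n) (CR I lam) := finite_of_noZero hI fun v hv hv' =>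
    h0 v hv (funext hv')
  haveI : FaithfulSMul (BR n) (CR I lam) := faithful_of_interior hint
  obtain ⟨w, hw, hsep⟩ := exists_w I lam x0
  obtain ⟨κ, h1, h2, h3, hg⟩ := exists_good lam w hI hw
  have hsub : ∀ P, κ.sub P = subW lam w P := by
    intro P
    subst h1 h2
    rfl
  refine ⟨κ, h1, hg, ?_, ?_, ?_, ?_, ?_⟩
  · have h4 : κ.dG = subW lam w (Polynomial.derivative (GG I lam w)) := by
      rw [← h3]
      exact hsub _
    rw [h4]
    exact dG_ne_zero I lam w hI h0 hx0 hloc hsep
  · rw [h3]
    exact minpoly.irreducible (wb_int I lam w)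
  · rw [h3]
    exact exists_bezout I lam w
  · rw [h3, h2]
    exact fun y W h => exists_lift I lam w h
  · intro P
    rw [h3, hsub]
    exact GG_dvd_iff I lam w P

end

end Crest.Agent.R281.Kr_488
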