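import Crest.Agent.R272.CpChow_338
import Crest.Agent.R281.Kr5_488

/-!
# R281, KRON (helper488), part 6: the ideal of a projective manifold, its cone, local structure
-/

set_option autoImplicit false
set_option linter.unusedSectionVars false

open Set Filter Topology MvPolynomial
open Crest.AlgGeometry

namespace Crest.Agent.R281.Kr_488

open Crest.Agent.R275 Crest.Agent.R275.Geo Crest.Agent.R275.Core144 Crest.Agent.R275.Dg199
open Crest.Agent.R273.LamN127 Crest.Agent.R273.SerA_945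
open Crest.Agent.R273.SerB_945 Crest.Agent.R273.SerC_945 Crest.Agent.R273.SerE_945
open Crest.Agent.R273.Defs_333 Crest.Agent.R273.FS_333 Crest.Agent.R273.SteinC_794
open Crest.Agent.R273.Chow_313 Crest.Agent.R273.TD3_733
open Crest.Agent.R272.CpTop_338 Crest.Agent.R272.CpSub_338 Crest.Agent.R272.CpChow_338

noncomputable section

variable {n : ℕ} {M : Type} [TopologicalSpace M] {A : Atl n M}

/-- the homogeneous ideal of the image -/
def IP (P : ProjD A) : Ideal (MvPolynomial (Fin (P.N + 1)) ℂ) := Ideal.span (VanS P)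

attribute [local instance] MvPolynomial.gradedAlgebra

theorem IP_isHomogeneous (P : ProjD A) :
    (IP P).IsHomogeneous (homogeneousSubmodule (Fin (P.N + 1)) ℂ) := by
  refine Ideal.homogeneous_span _ _ ?_
  rintro p ⟨⟨d, hd⟩, -⟩
  exact ⟨d, hd⟩

theorem IP_HomI (P : ProjD A) : HomI (IP P) := fun _ hp d =>
  homogeneousComponent_mem_of_mem (IP_isHomogeneous P) hp d

theorem eval_IP (P : ProjD A) {p : MvPolynomial (Fin (P.N + 1)) ℂ} (hp : p ∈ IP P) {i : A.ι} {x : M}
    (hx : x ∈ (A.e i).source) : eval (P.F i x) p = 0 := by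
  have h : IP P ≤ RingHom.ker (eval (P.F i x)) := by
    unfold IP
    rw [Ideal.span_le]
    intro q hq
    exact hq.2 i x hx
  exact h hp

/-- the homogeneous elements of the ideal are the homogeneous relations -/
theorem IP_homog (P : ProjD A) : {p | p ∈ IP P ∧ ∃ d, p.IsHomogeneous d} = VanS P := by
  ext p
  constructor
  · rintro ⟨hp, hd⟩
    exact ⟨hd, fun i x hx => eval_IP P hp hx⟩
  · exact fun hp => ⟨Ideal.subset_span hp, hp.1⟩

theorem IP_prime [ConnectedSpace M] (P : ProjD A) : (IP P).IsPrime := by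
  refine (IP_isHomogeneous P).isPrime_of_homogeneous_mem_or_mem ?_ ?_
  · rw [Ideal.ne_top_iff_one]
    intro h
    obtain ⟨x⟩ := (inferInstance : Nonempty M)
    have h1 := eval_IP P h (ci_mem A x)
    rw [map_one] at h1
    exact one_ne_zero h1
  · rintro p q ⟨d, hd⟩ ⟨e, he⟩ hpq
    have hd' : p.IsHomogeneous d := hd
    have he' : q.IsHomogeneous e := he
    by_cases hq : ∃ i x, evF (fun k => sec P k) q i x ≠ 0
    · left
      have h1 : ∀ i, ∀ x ∈ (A.e i).source, evF (fun k => sec P k) p i x *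
          evF (fun k => sec P k) q i x = 0 := by
        intro i x hx
        rw [evF_apply _ _ hx, evF_apply _ _ hx, ← map_mul]
        have h2 : (fun k => sec P k i x) = P.F i x := funext fun k => sec_eq P hx k
        rw [h2]
        exact eval_IP P hpq hx
      have h2 := eq_zero_of_mul (isHS_evF (isHS_sec P) hd') (isHS_evF (isHS_sec P) he') hq h1
      refine Ideal.subset_span ⟨⟨d, hd'⟩, fun i x hx => ?_⟩
      have h3 := h2 i x
      rw [evF_apply _ _ hx] at h3
      have h4 : (fun k => sec P k i x) = P.F i x := funext fun k => sec_eq P hx k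
      rwa [h4] at h3
    · right
      push Not at hq
      refine Ideal.subset_span ⟨⟨e, he'⟩, fun i x hx => ?_⟩
      have h3 := hq i x
      rw [evF_apply _ _ hx] at h3
      have h4 : (fun k => sec P k i x) = P.F i x := funext fun k => sec_eq P hx k
      rwa [h4] at h3

variable [T2Space M] [ConnectedSpace M] [CompactSpace M] [Finite A.ι]

theorem Vz_IP_iff (PA : Part A) (hD : D2 A) (P : ProjD A) {v : Fin (P.N + 1) → ℂ} (hv : v ≠ 0) :
    v ∈ Vz (IP P) ↔ CPn.mk v hv ∈ range (toCP P) := by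
  rw [mem_range_iff PA hD P v hv]
  constructor
  · exact fun h p hp => h p (Ideal.subset_span hp)
  · intro h p hp
    have h1 : IP P ≤ RingHom.ker (eval v) := by
      unfold IP
      rw [Ideal.span_le]
      exact fun q hq => h q hq
    exact h1 hp

theorem F_mem_Vz (P : ProjD A) {i : A.ι} {x : M} (hx : x ∈ (A.e i).source) (c : ℂ) :
    c • P.F i x ∈ Vz (IP P) :=
  Vz_smul (IP_HomI P) (fun _ hp => eval_IP P hp hx) c

/-- the parametrisation of the cone -/
def par (P : ProjD A) (i : A.ι) (q : ℂ × Cn n) : Fin (P.N + 1) → ℂ :=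
  q.1 • P.F i ((A.e i).symm q.2)

theorem local_param (PA : Part A) (hD : D2 A) (P : ProjD A) {i : A.ι} {x0 : M}
    (hx0 : x0 ∈ (A.e i).source) {V' : Set (ℂ × Cn n)} (hV' : V' ∈ 𝓝 ((1 : ℂ), A.e i x0)) :
    ∀ᶠ v in 𝓝 (P.F i x0), v ∈ Vz (IP P) → v ∈ par P i '' V' := by
  set u0 := P.F i x0 with hu0
  have hu0n : u0 ≠ 0 := P.ne i x0 hx0
  obtain ⟨k, hk⟩ := Function.ne_iff.1 hu0n
  have hk' : u0 k ≠ 0 := hk
  set z0 := A.e i x0 with hz0
  have hz0t : z0 ∈ (A.e i).target := (A.e i).map_source hx0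
  have hsz : (A.e i).symm z0 = x0 := (A.e i).left_inv hx0
  obtain ⟨U1, hU1, U2, hU2, hU12⟩ := mem_nhds_prod_iff.1 hV'
  -- the ratio
  have hFc : ContinuousAt (fun z => P.F i ((A.e i).symm z) k) z0 :=
    (Fdiff P i hz0t k).continuousAt
  have hrat : ContinuousAt (fun q : (Fin (P.N + 1) → ℂ) × Cn n =>
      q.1 k / P.F i ((A.e i).symm q.2) k) (u0, z0) := by
    refine ContinuousAt.div ?_ ?_ ?_
    · exact ((continuous_apply k).comp continuous_fst).continuousAt
    · exact ContinuousAt.comp (g := fun z => P.F i ((A.e i).symm z) k)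
        (f := fun q : (Fin (P.N + 1) → ℂ) × Cn n => q.2) hFc continuousAt_snd
    · show P.F i ((A.e i).symm z0) k ≠ 0
      rw [hsz]
      exact hk'
  have hrat0 : (fun q : (Fin (P.N + 1) → ℂ) × Cn n =>
      q.1 k / P.F i ((A.e i).symm q.2) k) (u0, z0) = 1 := by
    show u0 k / P.F i ((A.e i).symm z0) k = 1
    rw [hsz]
    exact div_self hk'
  have h1 : {q : (Fin (P.N + 1) → ℂ) × Cn n | q.1 k / P.F i ((A.e i).symm q.2) k ∈ U1} ∈
      𝓝 (u0, z0) := hrat (by rw [hrat0]; exact hU1)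
  obtain ⟨V1, hV1, W2, hW2, hVW⟩ := mem_nhds_prod_iff.1 h1
  -- the neighbourhood in `M`
  have hFk : ∀ᶠ z in 𝓝 z0, P.F i ((A.e i).symm z) k ≠ 0 := by
    refine hFc.eventually_ne ?_
    rw [hsz]
    exact hk'
  have h2 : {x | x ∈ (A.e i).source ∧ A.e i x ∈ U2 ∩ W2 ∩
      {z | P.F i ((A.e i).symm z) k ≠ 0}} ∈ 𝓝 x0 := by
    refine inter_mem ((A.e i).open_source.mem_nhds hx0) ?_
    exact (A.e i).continuousAt hx0 (inter_mem (inter_mem hU2 hW2) hFk)
  rw [(isClosedEmbedding_toCP P).isInducing.nhds_eq_comap, mem_comap] at h2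
  obtain ⟨O, hO, hOs⟩ := h2
  rw [toCP_eq P hx0] at hO
  have h3 : ∀ᶠ v in 𝓝 u0, ∀ hv : v ≠ 0, CPn.mk v hv ∈ O := by
    have h4 : ContinuousAt (q (N := P.N)) ⟨u0, hu0n⟩ := continuous_q.continuousAt
    have h5 := h4 hO
    rw [Filter.mem_map, nhds_subtype_eq_comap, mem_comap] at h5
    obtain ⟨S, hS, hSs⟩ := h5
    filter_upwards [hS] with v hv hv0
    exact hSs (show (⟨v, hv0⟩ : NZ P.N) ∈ Subtype.val ⁻¹' S from hv)
  have h6 : ∀ᶠ v in 𝓝 u0, v ≠ 0 := continuousAt_id.eventually_ne hu0n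
  filter_upwards [hV1, h3, h6] with v hv1 hv2 hv3 hv4
  obtain ⟨x, hx⟩ := (Vz_IP_iff PA hD P hv3).1 hv4
  obtain ⟨hxs, ⟨hxU, hxW⟩, hxk⟩ := hOs (show toCP P x ∈ O from by rw [hx]; exact hv2 hv3)
  rw [toCP_eq P hxs] at hx
  obtain ⟨c, hc, hvc⟩ := (mk_eq_iff' hv3 (P.ne i x hxs)).1 hx.symm
  have hxsy : (A.e i).symm (A.e i x) = x := (A.e i).left_inv hxs
  refine ⟨(c, A.e i x), hU12 ⟨?_, hxU⟩, ?_⟩
  · have h7 : (v, A.e i x) ∈ V1 ×ˢ W2 := ⟨hv1, hxW⟩
    have h8 := hVW h7
    have h9 : v k / P.F i ((A.e i).symm (A.e i x)) k ∈ U1 := h8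
    rw [hxsy] at h9
    have hxk' : P.F i x k ≠ 0 := by
      have h10 : P.F i ((A.e i).symm (A.e i x)) k ≠ 0 := hxk
      rwa [hxsy] at h10
    rw [hvc, Pi.smul_apply, smul_eq_mul, mul_div_cancel_right₀ _ hxk'] at h9
    exact h9
  · show c • P.F i ((A.e i).symm (A.e i x)) = v
    rw [hxsy, hvc]

end

end Crest.Agent.R281.Kr_488
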