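import Crest.Agent.R281.Kr6_488

/-!
# R281, KRON (helper488), part 7: generic linear projection of a projective manifold
-/

set_option autoImplicit false
set_option linter.unusedSectionVars false

open Set Filter Topology MvPolynomial
open Crest.AlgGeometry
open scoped ContDiff

namespace Crest.Agent.R281.Kr_488

open Crest.Agent.R275 Crest.Agent.R275.Geo Crest.Agent.R275.Core144 Crest.Agent.R275.Dg199
open Crest.Agent.R273.LamN127 Crest.Agent.R273.SerA_945
open Crest.Agent.R273.SerB_945 Crest.Agent.R273.SerC_945 Crest.Agent.R273.SerE_945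
open Crest.Agent.R273.Defs_333 Crest.Agent.R273.FS_333 Crest.Agent.R273.SteinC_794
open Crest.Agent.R273.Chow_313 Crest.Agent.R273.TD3_733
open Crest.Agent.R272.CpTop_338 Crest.Agent.R272.CpSub_338 Crest.Agent.R272.CpChow_338

noncomputable section

variable {n : ℕ} {M : Type} [TopologicalSpace M] {A : Atl n M}

/-- the projection as a continuous linear map -/
def LamL {N : ℕ} (lam : Fin (n + 1) → Fin (N + 1) → ℂ) :
    (Fin (N + 1) → ℂ) →L[ℂ] (Fin (n + 1) → ℂ) :=
  ∑ j, ∑ k, lam j k • (ContinuousLinearMap.single ℂ (fun _ : Fin (n + 1) => ℂ) j).comp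
    (ContinuousLinearMap.proj (R := ℂ) (φ := fun _ : Fin (N + 1) => ℂ) k)

theorem LamL_apply {N : ℕ} (lam : Fin (n + 1) → Fin (N + 1) → ℂ) (v : Fin (N + 1) → ℂ) :
    LamL lam v = lamv lam v := by
  funext j
  simp only [LamL, _root_.sum_apply, _root_.smul_apply,
    ContinuousLinearMap.comp_apply, ContinuousLinearMap.proj_apply, Finset.sum_apply,
    Pi.smul_apply, smul_eq_mul, ContinuousLinearMap.single_apply]
  rw [Finset.sum_eq_single j]
  · simp [lamv, lv]
  · intro i _ hij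
    refine Finset.sum_eq_zero fun k _ => ?_
    rw [Pi.single_eq_of_ne (Ne.symm hij), mul_zero]
  · simp

theorem continuous_LamL {N : ℕ} :
    Continuous (LamL (n := n) (N := N)) := by
  unfold LamL
  refine continuous_finsetSum _ fun j _ => continuous_finsetSum _ fun k _ => ?_
  exact (continuous_apply_apply j k).smul continuous_const

/-- the embedding read in a chart -/
def Gz (P : ProjD A) (i : A.ι) (z : Cn n) : Fin (P.N + 1) → ℂ := P.F i ((A.e i).symm z)

theorem Gz_diff (P : ProjD A) (i : A.ι) : DifferentiableOn ℂ (Gz P i) (A.e i).target := by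
  intro z hz
  refine DifferentiableAt.differentiableWithinAt ?_
  exact differentiableAt_pi.2 fun k => Fdiff P i hz k

theorem Gz_contDiffAt (P : ProjD A) (i : A.ι) {z : Cn n} (hz : z ∈ (A.e i).target) :
    ContDiffAt ℂ 1 (Gz P i) z :=
  ((Crest.Agent.R266.SCV.contDiffOn_omega_of_differentiableOn (A.e i).open_target
    (Gz_diff P i)).contDiffAt ((A.e i).open_target.mem_nhds hz)).of_le le_top

/-- the derivative of the parametrisation of the cone at `(1, z)` -/
def TL (P : ProjD A) (i : A.ι) (z : Cn n) : ℂ × Cn n →L[ℂ] (Fin (P.N + 1) → ℂ) :=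
  (fderiv ℂ (Gz P i) z).comp (ContinuousLinearMap.snd ℂ ℂ (Cn n)) +
    (ContinuousLinearMap.fst ℂ ℂ (Cn n)).smulRight (Gz P i z)

theorem TL_apply (P : ProjD A) (i : A.ι) (z : Cn n) (q : ℂ × Cn n) :
    TL P i z q = fderiv ℂ (Gz P i) z q.2 + q.1 • Gz P i z := rfl

theorem TL_inj (P : ProjD A) {i : A.ι} {z : Cn n} (hz : z ∈ (A.e i).target) :
    Function.Injective (TL P i z) := by
  rw [injective_iff_map_eq_zero]
  rintro ⟨s, v⟩ h
  rw [TL_apply] at h
  have h1 : fderiv ℂ (Gz P i) z v = (-s) • Gz P i z := by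
    rw [neg_smul]
    exact eq_neg_of_add_eq_zero_left h
  have hv : v = 0 := P.imm i z hz v ⟨-s, h1⟩
  subst hv
  rw [map_zero] at h1
  have h2 : Gz P i z ≠ 0 := P.ne i _ ((A.e i).map_target hz)
  have h3 : -s = 0 := by
    rcases smul_eq_zero.1 h1.symm with h3 | h3
    · exact h3
    · exact absurd h3 h2
  rw [neg_eq_zero] at h3
  rw [h3]
  rfl

theorem par_hasFDerivAt (P : ProjD A) {i : A.ι} {z : Cn n} (hz : z ∈ (A.e i).target) :
    HasFDerivAt (par P i) (TL P i z) ((1 : ℂ), z) := by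
  have h1 : HasFDerivAt (fun q : ℂ × Cn n => Gz P i q.2)
      ((fderiv ℂ (Gz P i) z).comp (ContinuousLinearMap.snd ℂ ℂ (Cn n))) ((1 : ℂ), z) :=
    HasFDerivAt.comp (g := Gz P i) (f := fun q : ℂ × Cn n => q.2) ((1 : ℂ), z)
      ((Gz_contDiffAt P i hz).differentiableAt (by norm_num)).hasFDerivAt hasFDerivAt_snd
  have h2 := (hasFDerivAt_fst (𝕜 := ℂ) (p := ((1 : ℂ), z))).smul h1
  have h3 : (((1 : ℂ), z) : ℂ × Cn n).1 • ((fderiv ℂ (Gz P i) z).comp
      (ContinuousLinearMap.snd ℂ ℂ (Cn n))) + (ContinuousLinearMap.fst ℂ ℂ (Cn n)).smulRight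
        (Gz P i (((1 : ℂ), z) : ℂ × Cn n).2) = TL P i z := by
    rw [one_smul]
    rfl
  rw [h3] at h2
  exact h2

theorem par_contDiffAt (P : ProjD A) {i : A.ι} {z : Cn n} (hz : z ∈ (A.e i).target) :
    ContDiffAt ℂ 1 (par P i) ((1 : ℂ), z) := by
  have h1 : ContDiffAt ℂ 1 (fun q : ℂ × Cn n => Gz P i q.2) ((1 : ℂ), z) :=
    ContDiffAt.comp (g := Gz P i) (f := fun q : ℂ × Cn n => q.2) ((1 : ℂ), z)
      (Gz_contDiffAt P i hz) contDiffAt_snd
  exact contDiffAt_fst.smul h1

/-- local injectivity and openness of the projection -/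
theorem loc_proj (P : ProjD A) {i : A.ι} {z0 : Cn n} (hz0 : z0 ∈ (A.e i).target)
    {lam : Fin (n + 1) → Fin (P.N + 1) → ℂ}
    (hinj : Function.Injective ((LamL lam).comp (TL P i z0))) :
    ∃ S ∈ 𝓝 ((1 : ℂ), z0), InjOn (fun q => lamv lam (par P i q)) S ∧
      (∀ q ∈ S, q.2 ∈ (A.e i).target) ∧
      (interior ((fun q => lamv lam (par P i q)) '' S)).Nonempty := by
  have hfr : Module.finrank ℂ (ℂ × Cn n) = Module.finrank ℂ (Fin (n + 1) → ℂ) := by
    rw [Module.finrank_prod, Module.finrank_self, finrank_euclideanSpace_fin,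
      Module.finrank_fin_fun, add_comm]
  let e : (ℂ × Cn n) ≃ₗ[ℂ] (Fin (n + 1) → ℂ) :=
    LinearEquiv.ofInjectiveOfFinrankEq ((LamL lam).comp (TL P i z0) : ℂ × Cn n →ₗ[ℂ] _) hinj hfr
  let e' : (ℂ × Cn n) ≃L[ℂ] (Fin (n + 1) → ℂ) := e.toContinuousLinearEquiv
  let f : ℂ × Cn n → (Fin (n + 1) → ℂ) := fun q => LamL lam (par P i q)
  have hfc : ContDiffAt ℂ 1 f ((1 : ℂ), z0) :=
    (LamL lam).contDiff.contDiffAt.comp _ (par_contDiffAt P hz0)
  have hfd : HasFDerivAt f (e' : ℂ × Cn n →L[ℂ] (Fin (n + 1) → ℂ)) ((1 : ℂ), z0) := by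
    have h1 : HasFDerivAt f ((LamL lam).comp (TL P i z0)) ((1 : ℂ), z0) :=
      (LamL lam).hasFDerivAt.comp _ (par_hasFDerivAt P hz0)
    have h2 : (e' : ℂ × Cn n →L[ℂ] (Fin (n + 1) → ℂ)) = (LamL lam).comp (TL P i z0) :=
      ContinuousLinearMap.ext fun q => rfl
    rw [h2]
    exact h1
  let R := hfc.toOpenPartialHomeomorph f hfd one_ne_zero
  have hR : ∀ p, R p = f p := fun p => rfl
  have hmem : ((1 : ℂ), z0) ∈ R.source :=
    hfc.mem_toOpenPartialHomeomorph_source hfd one_ne_zero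
  have hopen : IsOpen ({q : ℂ × Cn n | q.2 ∈ (A.e i).target}) :=
    (A.e i).open_target.preimage continuous_snd
  have hfl : ∀ q, lamv lam (par P i q) = f q := fun q => (LamL_apply lam _).symm
  refine ⟨R.source ∩ {q | q.2 ∈ (A.e i).target},
    (R.open_source.inter hopen).mem_nhds ⟨hmem, hz0⟩, ?_, fun q hq => hq.2, ?_⟩
  · intro q1 h1 q2 h2 h12
    have h3 : f q1 = f q2 := by
      rw [← hfl, ← hfl]
      exact h12
    exact R.injOn h1.1 h2.1 h3
  · have h1 : IsOpen (R '' (R.source ∩ {q | q.2 ∈ (A.e i).target})) :=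
      R.isOpen_image_of_subset_source (R.open_source.inter hopen) inter_subset_left
    have h2 : (fun q => lamv lam (par P i q)) '' (R.source ∩ {q | q.2 ∈ (A.e i).target}) =
        R '' (R.source ∩ {q | q.2 ∈ (A.e i).target}) := by
      refine image_congr fun q _ => ?_
      rw [hR]
      exact hfl q
    rw [h2, h1.interior_eq]
    exact ⟨_, ⟨_, ⟨hmem, hz0⟩, rfl⟩⟩

/-- there are projections which are injective on a tangent space -/
theorem exists_lamT {N : ℕ} (T : ℂ × Cn n →L[ℂ] (Fin (N + 1) → ℂ)) (hT : Function.Injective T) :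
    ∃ lam : Fin (n + 1) → Fin (N + 1) → ℂ, Function.Injective ((LamL lam).comp T) := by
  classical
  have hfr : Module.finrank ℂ (ℂ × Cn n) = Module.finrank ℂ (Fin (n + 1) → ℂ) := by
    rw [Module.finrank_prod, Module.finrank_self, finrank_euclideanSpace_fin,
      Module.finrank_fin_fun, add_comm]
  obtain ⟨g, hg⟩ := LinearMap.exists_leftInverse_of_injective
    (T : ℂ × Cn n →ₗ[ℂ] (Fin (N + 1) → ℂ)) (LinearMap.ker_eq_bot.2 hT)
  let e : (ℂ × Cn n) ≃ₗ[ℂ] (Fin (n + 1) → ℂ) := LinearEquiv.ofFinrankEq _ _ hfr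
  let L : (Fin (N + 1) → ℂ) →ₗ[ℂ] (Fin (n + 1) → ℂ) := e.toLinearMap ∘ₗ g
  refine ⟨fun j k => L (Pi.single k 1) j, ?_⟩
  have h1 : ∀ v, LamL (fun j k => L (Pi.single k 1) j) v = L v := by
    intro v
    rw [LamL_apply]
    funext j
    have h2 : v = ∑ k, v k • (Pi.single k (1 : ℂ) : Fin (N + 1) → ℂ) := by
      funext m
      rw [Finset.sum_apply, Finset.sum_eq_single m]
      · simp
      · intro k _ hk
        rw [Pi.smul_apply, Pi.single_eq_of_ne (Ne.symm hk), smul_zero]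
      · simp
    conv_rhs => rw [h2, map_sum, Finset.sum_apply]
    unfold lamv lv
    refine Finset.sum_congr rfl fun k _ => ?_
    rw [map_smul, Pi.smul_apply, smul_eq_mul, mul_comm]
  rw [injective_iff_map_eq_zero]
  intro q hq
  have h2 : L (T q) = 0 := by
    rw [← h1]
    exact hq
  have h3 : g (T q) = q := congrArg (fun f => f q) hg
  have h4 : e (g (T q)) = 0 := h2
  rw [h3] at h4
  exact e.map_eq_zero_iff.1 h4

end

end Crest.Agent.R281.Kr_488
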