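import Crest.Agent.R281.Kr7_488

/-!
# R281, KRON (helper488), part 8: a generic projection has no zero on the manifold; the theorem
-/

set_option autoImplicit false
set_option linter.unusedSectionVars false

open Set Filter Topology MvPolynomial
open Crest.AlgGeometry
open scoped ContDiff NNReal

namespace Crest.Agent.R281.Kr_488

open Crest.Agent.R275 Crest.Agent.R275.Geo Crest.Agent.R275.Core144 Crest.Agent.R275.Dg199
open Crest.Agent.R273.LamN127 Crest.Agent.R273.SerA_945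
open Crest.Agent.R273.SerB_945 Crest.Agent.R273.SerC_945 Crest.Agent.R273.SerE_945
open Crest.Agent.R273.Defs_333 Crest.Agent.R273.FS_333 Crest.Agent.R273.SteinC_794
open Crest.Agent.R273.Chow_313 Crest.Agent.R273.TD3_733
open Crest.Agent.R272.CpTop_338 Crest.Agent.R272.CpSub_338 Crest.Agent.R272.CpChow_338

noncomputable section

variable {n : ℕ} {M : Type} [TopologicalSpace M] {A : Atl n M}

/-- the parametrisation of the bad projections -/
def badF (P : ProjD A) (i : A.ι) (k : Fin (P.N + 1))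
    (q : Cn n × (Fin (n + 1) → Fin P.N → ℂ)) : Fin (n + 1) → Fin (P.N + 1) → ℂ :=
  fun j => Fin.insertNth (α := fun _ => ℂ) k (-∑ l, q.2 j l * aff P i k q.1 l) (q.2 j)

theorem badF_contDiffAt (P : ProjD A) (i : A.ι) (k : Fin (P.N + 1))
    {q : Cn n × (Fin (n + 1) → Fin P.N → ℂ)} (hq : q.1 ∈ affD P i k) :
    ContDiffAt ℝ 1 (badF P i k) q := by
  have haff : ContDiffAt ℝ 1 (aff P i k) q.1 :=
    (((Crest.Agent.R266.SCV.contDiffOn_omega_of_differentiableOn (isOpen_affD P i k)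
      (aff_diff P i k)).contDiffAt ((isOpen_affD P i k).mem_nhds hq)).of_le le_top).restrict_scalars ℝ
  have hl : ∀ l, ContDiffAt ℝ 1 (fun q : Cn n × (Fin (n + 1) → Fin P.N → ℂ) =>
      aff P i k q.1 l) q := fun l =>
    ContDiffAt.comp (g := fun z => aff P i k z l) (f := fun q : Cn n × (Fin (n + 1) →
      Fin P.N → ℂ) => q.1) q ((contDiffAt_pi.1 haff) l) contDiffAt_fst
  have hm : ∀ j l, ContDiffAt ℝ 1 (fun q : Cn n × (Fin (n + 1) → Fin P.N → ℂ) => q.2 j l) q := by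
    intro j l
    have h1 : ContDiff ℝ 1 (fun m : Fin (n + 1) → Fin P.N → ℂ => m j l) :=
      (contDiff_apply_apply ℝ ℂ j l)
    exact h1.contDiffAt.comp q contDiffAt_snd
  rw [contDiffAt_pi]
  intro j
  rw [contDiffAt_pi]
  intro m
  refine Fin.succAboveCases k ?_ (fun l => ?_) m
  · have h1 : (fun q => badF P i k q j k) = fun q => -∑ l, q.2 j l * aff P i k q.1 l := by
      funext q
      exact Fin.insertNth_apply_same _ _ _
    rw [h1]
    exact (ContDiffAt.sum fun l _ => (hm j l).mul (hl l)).neg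
  · have h1 : (fun q => badF P i k q j (k.succAbove l)) = fun q => q.2 j l := by
      funext q
      exact Fin.insertNth_apply_succAbove _ _ _ _
    rw [h1]
    exact hm j l

/-- the projections with a zero in the chart `i`, `F_k ≠ 0` -/
def bad (P : ProjD A) (i : A.ι) (k : Fin (P.N + 1)) : Set (Fin (n + 1) → Fin (P.N + 1) → ℂ) :=
  badF P i k '' {q | q.1 ∈ affD P i k}

theorem dimH_bad (P : ProjD A) (i : A.ι) (k : Fin (P.N + 1)) :
    dimH (bad P i k) ≤ ((2 * n + (n + 1) * (P.N * 2) : ℕ) : ENNReal) := by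
  have h1 : dimH (bad P i k) ≤ dimH {q : Cn n × (Fin (n + 1) → Fin P.N → ℂ) | q.1 ∈ affD P i k} := by
    refine dimH_image_le_of_locally_lipschitzOn fun q hq => ?_
    obtain ⟨K, t, ht, hK⟩ := (badF_contDiffAt P i k hq).exists_lipschitzOnWith
    exact ⟨K, t, mem_nhdsWithin_of_mem_nhds ht, hK⟩
  refine h1.trans ((dimH_mono (subset_univ _)).trans ?_)
  rw [Real.dimH_univ_eq_finrank, Module.finrank_prod]
  have h2 : Module.finrank ℝ (Cn n) = 2 * n := by
    rw [finrank_real_of_complex, finrank_euclideanSpace_fin]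
  have h3 : Module.finrank ℝ (Fin (n + 1) → Fin P.N → ℂ) = (n + 1) * (P.N * 2) := by
    rw [Module.finrank_pi_fintype]
    simp [Module.finrank_pi_fintype, Complex.finrank_real_complex]
  rw [h2, h3]

theorem mem_bad (P : ProjD A) {lam : Fin (n + 1) → Fin (P.N + 1) → ℂ} {i : A.ι} {x : M}
    (hx : x ∈ (A.e i).source) (h0 : lamv lam (P.F i x) = 0) : ∃ k, lam ∈ bad P i k := by
  obtain ⟨k, hk⟩ := Function.ne_iff.1 (P.ne i x hx)
  have hk' : P.F i x k ≠ 0 := hk
  have hxs : (A.e i).symm (A.e i x) = x := (A.e i).left_inv hx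
  refine ⟨k, (A.e i x, fun j l => lam j (k.succAbove l)), ⟨(A.e i).map_source hx, ?_⟩, ?_⟩
  · rw [hxs]
    exact hk'
  · funext j m
    have h1 := congrFun h0 j
    unfold lamv lv at h1
    rw [Fin.sum_univ_succAbove _ k] at h1
    refine Fin.succAboveCases k ?_ (fun l => ?_) m
    · have h2 : badF P i k (A.e i x, fun j l => lam j (k.succAbove l)) j k =
          -∑ l, lam j (k.succAbove l) * aff P i k (A.e i x) l :=
        Fin.insertNth_apply_same _ _ _
      rw [h2]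
      have h3 : ∀ l, lam j (k.succAbove l) * aff P i k (A.e i x) l =
          (lam j (k.succAbove l) * P.F i x (k.succAbove l)) / P.F i x k := by
        intro l
        rw [aff, hxs, mul_div_assoc]
      rw [Finset.sum_congr rfl fun l _ => h3 l, ← Finset.sum_div]
      have h4 : ∑ l, lam j (k.succAbove l) * P.F i x (k.succAbove l) =
          -(lam j k * P.F i x k) := by
        have h5 : lam j k * P.F i x k + ∑ l, lam j (k.succAbove l) * P.F i x (k.succAbove l) = 0 :=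
          h1
        exact eq_neg_of_add_eq_zero_right h5
      rw [h4, neg_div, neg_neg, mul_div_cancel_right₀ _ hk']
    · exact Fin.insertNth_apply_succAbove _ _ _ _

/-- **a generic projection** -/
theorem exists_lam [Finite A.ι] (P : ProjD A) {i0 : A.ι} {z0 : Cn n} (hz0 : z0 ∈ (A.e i0).target) :
    ∃ lam : Fin (n + 1) → Fin (P.N + 1) → ℂ,
      (∀ i, ∀ x ∈ (A.e i).source, lamv lam (P.F i x) ≠ 0) ∧
      Function.Injective ((LamL lam).comp (TL P i0 z0)) := by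
  have h1 : dimH (⋃ i, ⋃ k, bad P i k) < (Module.finrank ℝ (Fin (n + 1) → Fin (P.N + 1) → ℂ) :
      ENNReal) := by
    refine lt_of_le_of_lt (b := ((2 * n + (n + 1) * (P.N * 2) : ℕ) : ENNReal)) ?_ ?_
    · rw [dimH_iUnion]
      refine iSup_le fun i => ?_
      rw [dimH_iUnion]
      exact iSup_le fun k => dimH_bad P i k
    · have h2 : Module.finrank ℝ (Fin (n + 1) → Fin (P.N + 1) → ℂ) =
          (n + 1) * ((P.N + 1) * 2) := by
        rw [Module.finrank_pi_fintype]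
        simp [Module.finrank_pi_fintype, Complex.finrank_real_complex]
      rw [h2]
      have h3 : 2 * n + (n + 1) * (P.N * 2) < (n + 1) * ((P.N + 1) * 2) := by ring_nf; omega
      exact_mod_cast h3
  have h2 : Dense (⋃ i, ⋃ k, bad P i k)ᶜ := dense_compl_of_dimH_lt_finrank h1
  have h3 : IsOpen {lam : Fin (n + 1) → Fin (P.N + 1) → ℂ |
      Function.Injective ((LamL lam).comp (TL P i0 z0))} := by
    have h4 : Continuous fun lam : Fin (n + 1) → Fin (P.N + 1) → ℂ =>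
        (LamL lam).comp (TL P i0 z0) := continuous_LamL.clm_comp continuous_const
    exact ContinuousLinearMap.isOpen_injective.preimage h4
  obtain ⟨lam0, hlam0⟩ := exists_lamT (TL P i0 z0) (TL_inj P hz0)
  obtain ⟨lam, hl1, hl2⟩ := h2.inter_open_nonempty _ h3 ⟨lam0, hlam0⟩
  refine ⟨lam, fun i x hx h0 => ?_, hl1⟩
  obtain ⟨k, hk⟩ := mem_bad P hx h0
  exact hl2 (mem_iUnion.2 ⟨i, mem_iUnion.2 ⟨k, hk⟩⟩)

/-! ### homogeneity of `sub` -/

theorem sub_isHomogeneous {R : Type*} [CommRing R] {N : ℕ} (κ : KDat n N R)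
    {p : Polynomial (MvPolynomial (Fin (n + 1)) R)} {d : ℕ}
    (h1 : ∀ i ≤ d, (p.coeff i).IsHomogeneous (d - i)) (h2 : ∀ i, d < i → p.coeff i = 0) :
    (κ.sub p).IsHomogeneous d := by
  have h3 : κ.sub p = ∑ i ∈ Finset.range (p.natDegree + 1),
      κ.subY (p.coeff i) * lin κ.w ^ i := by
    show Polynomial.eval₂ _ _ p = _
    rw [Polynomial.eval₂_eq_sum_range]
    rfl
  rw [h3]
  refine MvPolynomial.IsHomogeneous.sum _ _ _ fun i _ => ?_
  by_cases hi : i ≤ d
  · have h4 : (κ.subY (p.coeff i)).IsHomogeneous (1 * (d - i)) :=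
      (h1 i hi).aeval (fun j => lin (κ.lam j)) fun j => lin_homog (κ.lam j)
    have h5 := h4.mul ((lin_homog κ.w).pow i)
    have h6 : 1 * (d - i) + 1 * i = d := by omega
    rwa [h6] at h5
  · rw [h2 i (by omega), map_zero, zero_mul]
    exact MvPolynomial.isHomogeneous_zero _ _ _

theorem dG_isHomogeneous {R : Type*} [CommRing R] {N : ℕ} {κ : KDat n N R}
    {E : Set (MvPolynomial (Fin (N + 1)) R)} (h : κ.Good E) : κ.dG.IsHomogeneous (κ.D - 1) := by
  have hD := h.D_pos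
  refine sub_isHomogeneous κ (fun i hi => ?_) fun i hi => ?_
  · rw [Polynomial.coeff_derivative]
    have h4 : ((i : MvPolynomial (Fin (n + 1)) R) + 1).IsHomogeneous 0 := by
      have := isHomogeneous_C (R := R) (Fin (n + 1)) ((i : R) + 1)
      rwa [map_add, map_one, map_natCast] at this
    have h5 := (h.homG (i + 1) (by omega)).mul h4
    have h6 : κ.D - (i + 1) + 0 = κ.D - 1 - i := by omega
    rwa [h6] at h5
  · rw [Polynomial.coeff_derivative, Polynomial.coeff_eq_zero_of_natDegree_lt, zero_mul]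
    rw [h.deg]
    omega

/-! ### the theorem -/

section Final

variable [T2Space M] [ConnectedSpace M] [CompactSpace M] [Finite A.ι]

theorem Vz_IP_cases (PA : Part A) (hD : D2 A) (P : ProjD A) {v : Fin (P.N + 1) → ℂ}
    (hv : v ∈ Vz (IP P)) (hv0 : v ≠ 0) :
    ∃ i, ∃ x ∈ (A.e i).source, ∃ c : ℂ, c ≠ 0 ∧ v = c • P.F i x := by
  obtain ⟨x, hx⟩ := (Vz_IP_iff PA hD P hv0).1 hv
  have hxs := ci_mem A x
  rw [toCP_eq P hxs] at hx
  obtain ⟨c, hc, hvc⟩ := (mk_eq_iff' hv0 (P.ne _ x hxs)).1 hx.symm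
  exact ⟨_, x, hxs, c, hc, hvc⟩

/-- **KRON at a point** -/
theorem kron_at (PA : Part A) (hD : D2 A) (P : ProjD A) {i0 : A.ι} {x0 : M}
    (hx0 : x0 ∈ (A.e i0).source) :
    ∃ κ : KDat n P.N ℂ, κ.Good (VanS P) ∧ eval (P.F i0 x0) κ.dG ≠ 0 ∧
      (∀ i, ∀ x ∈ (A.e i).source, κ.lamv (P.F i x) ≠ 0) ∧ Irreducible κ.G ∧
      (∃ (U V : Polynomial (MvPolynomial (Fin (n + 1)) ℂ)) (d : MvPolynomial (Fin (n + 1)) ℂ),
        d ≠ 0 ∧ U * κ.G + V * Polynomial.derivative κ.G = Polynomial.C d) ∧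
      (∀ y W, KDat.ev y W κ.G = 0 → ∃ v ∈ Vz (IP P), κ.lamv v = y ∧ lv κ.w v = W) := by
  have hz0 : A.e i0 x0 ∈ (A.e i0).target := (A.e i0).map_source hx0
  have hsz : (A.e i0).symm (A.e i0 x0) = x0 := (A.e i0).left_inv hx0
  obtain ⟨lam, hl1, hl2⟩ := exists_lam P hz0
  obtain ⟨S, hS, hSi, hSt, hSo⟩ := loc_proj P hz0 hl2
  have h0 : ∀ v ∈ Vz (IP P), lamv lam v = 0 → v = 0 := by
    intro v hv hv0
    by_contra hne
    obtain ⟨i, x, hx, c, hc, rfl⟩ := Vz_IP_cases PA hD P hv hne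
    rw [lamv_smul, smul_eq_zero] at hv0
    rcases hv0 with h | h
    · exact hc h
    · exact hl1 i x hx h
  have hmem : ∀ q ∈ S, par P i0 q ∈ Vz (IP P) := fun q hq =>
    F_mem_Vz P ((A.e i0).map_target (hSt q hq)) _
  have hint : (interior (lamv lam '' Vz (IP P))).Nonempty := by
    refine hSo.mono (interior_mono ?_)
    rintro y ⟨q, hq, rfl⟩
    exact ⟨_, hmem q hq, rfl⟩
  have hloc : ∃ O ∈ 𝓝 (P.F i0 x0), Set.InjOn (lamv lam) (Vz (IP P) ∩ O) := by
    refine ⟨_, local_param PA hD P hx0 hS, ?_⟩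
    rintro v1 ⟨h1, h1'⟩ v2 ⟨h2, h2'⟩ h12
    obtain ⟨q1, hq1, rfl⟩ := h1' h1
    obtain ⟨q2, hq2, rfl⟩ := h2' h2
    rw [hSi hq1 hq2 h12]
  have hx0V : P.F i0 x0 ∈ Vz (IP P) := by
    have := F_mem_Vz P hx0 1
    rwa [one_smul] at this
  obtain ⟨κ, hκl, hκ, hκd, hirr, hbez, hlift, -⟩ := kron_abs (IP_prime P) (IP_HomI P) h0 hint hx0V
    hloc
  rw [IP_homog] at hκ
  refine ⟨κ, hκ, hκd, ?_, hirr, hbez, ?_⟩
  · intro i x hx h
    refine hl1 i x hx ?_
    rw [← hκl]
    exact h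
  · intro y W h
    obtain ⟨v, hv, hvy, hvw⟩ := hlift y W h
    refine ⟨v, hv, ?_, hvw⟩
    rw [← hvy, ← hκl]
    rfl

/-- **KRON**: finitely many Kronecker representations cover the manifold -/
theorem kron (PA : Part A) (hD : D2 A) (P : ProjD A) :
    ∃ (m : ℕ) (κ : Fin m → KDat n P.N ℂ), (∀ a, (κ a).Good (VanS P)) ∧
      (∀ i, ∀ x ∈ (A.e i).source, ∃ a, eval (P.F i x) (κ a).dG ≠ 0) ∧
      (∀ a i, ∀ x ∈ (A.e i).source, (κ a).lamv (P.F i x) ≠ 0) ∧
      (∀ a, Irreducible (κ a).G) ∧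
      (∀ a, ∃ (U V : Polynomial (MvPolynomial (Fin (n + 1)) ℂ)) (d : MvPolynomial (Fin (n + 1)) ℂ),
        d ≠ 0 ∧ U * (κ a).G + V * Polynomial.derivative (κ a).G = Polynomial.C d) ∧
      (∀ a y W, KDat.ev y W (κ a).G = 0 → ∃ v ∈ Vz (IP P), (κ a).lamv v = y ∧
        lv (κ a).w v = W) := by
  classical
  choose κ h1 h2 h3 h4 h5 h6 using fun x0 : M => kron_at PA hD P (ci_mem A x0)
  have hU : ∀ x0 : M, {x | ∃ i, x ∈ (A.e i).source ∧ eval (P.F i x) (κ x0).dG ≠ 0} ∈ 𝓝 x0 := by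
    intro x0
    have hx0 := ci_mem A x0
    have hc : ContinuousAt (fun x => eval (P.F (ci A x0) x) (κ x0).dG) x0 :=
      (MvPolynomial.continuous_eval (κ x0).dG).continuousAt.comp (continuousAt_F P hx0)
    filter_upwards [(A.e (ci A x0)).open_source.mem_nhds hx0, hc.eventually_ne (h2 x0)] with x h7 h8
    exact ⟨_, h7, h8⟩
  obtain ⟨t, ht⟩ := isCompact_univ.elim_nhds_subcover _ fun x0 _ => hU x0
  let e : Fin t.card ≃ t := t.equivFin.symm
  refine ⟨t.card, fun a => κ (e a), fun a => h1 _, ?_, fun a => h3 _, fun a => h4 _,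
    fun a => h5 _, fun a => h6 _⟩
  intro i x hx
  obtain ⟨x0, hx0t, j, hxj, hne⟩ : ∃ x0 ∈ t, ∃ j, x ∈ (A.e j).source ∧
      eval (P.F j x) (κ x0).dG ≠ 0 := by
    have := ht.2 (mem_univ x)
    simpa using this
  refine ⟨e.symm ⟨x0, hx0t⟩, ?_⟩
  show eval (P.F i x) (κ (e (e.symm ⟨x0, hx0t⟩))).dG ≠ 0
  rw [e.apply_symm_apply]
  obtain ⟨c, hc⟩ := P.tr j i x ⟨hxj, hx⟩
  -- `F j x = c • F i x`
  intro h0
  apply hne
  rw [hc]
  have hhom : ∃ d, (κ x0).dG.IsHomogeneous d := ⟨(κ x0).D - 1, by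
    exact dG_isHomogeneous (h1 x0)⟩
  obtain ⟨d, hd⟩ := hhom
  rw [eval_smul_homog hd, h0, mul_zero]

end Final

end

end Crest.Agent.R281.Kr_488
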