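import Crest.Agent.R281.KrD_488

/-!
# R281, KRON (helper871, partner of helper488): the pointwise part

`KDat.map`, `Good.map` (specialisation of the coefficients) and, over a field of characteristic zero, the map
`H v = dG (v) • v - Nm (lam v, w v)`: it takes values in `ker lam`, its zeros with `dG ≠ 0` are the common
zeros of `E`, and its derivative is bijective on `ker lam`.
-/

set_option autoImplicit false

open MvPolynomial Polynomial

namespace Crest.Agent.R281.KrB1_871

open Crest.Agent.R281.Kr_488

noncomputable section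

variable {n N : ℕ} {R S : Type*} [CommRing R] [CommRing S]

/-- specialisation of the Kronecker data -/
def mapK (κ : KDat n N R) (φ : R →+* S) : KDat n N S where
  lam := fun j k => φ (κ.lam j k)
  w := fun k => φ (κ.w k)
  D := κ.D
  G := κ.G.map (MvPolynomial.map φ)
  Nm := fun k => (κ.Nm k).map (MvPolynomial.map φ)

theorem sub_map (κ : KDat n N R) (φ : R →+* S) (p : Polynomial (MvPolynomial (Fin (n + 1)) R)) :
    (mapK κ φ).sub (p.map (MvPolynomial.map φ)) = MvPolynomial.map φ (κ.sub p) := by
  have h : (mapK κ φ).sub.comp (Polynomial.mapRingHom (MvPolynomial.map φ)) =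
      (MvPolynomial.map φ).comp κ.sub := by
    refine Polynomial.ringHom_ext' ?_ ?_
    · refine MvPolynomial.ringHom_ext ?_ ?_
      · intro r
        simp [KDat.sub, KDat.subY, mapK]
      · intro j
        simp [KDat.sub, KDat.subY, mapK, map_lin]
    · simp [KDat.sub, KDat.subY, mapK, map_lin]
  exact congrArg (fun f => f p) h

theorem dG_map (κ : KDat n N R) (φ : R →+* S) :
    (mapK κ φ).dG = MvPolynomial.map φ κ.dG := by
  unfold KDat.dG
  rw [← sub_map]
  congr 1
  simp [mapK, Polynomial.derivative_map]

theorem Good.map {κ : KDat n N R} {E : Set (MvPolynomial (Fin (N + 1)) R)} (h : κ.Good E)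
    [Nontrivial S] (φ : R →+* S) : (mapK κ φ).Good (MvPolynomial.map φ '' E) where
  D_pos := h.D_pos
  monic := h.monic.map _
  deg := by
    show (κ.G.map (MvPolynomial.map φ)).natDegree = κ.D
    rw [h.monic.natDegree_map, h.deg]
  homG := fun i hi => by
    show ((κ.G.map (MvPolynomial.map φ)).coeff i).IsHomogeneous (κ.D - i)
    rw [Polynomial.coeff_map]
    exact (h.homG i hi).map φ
  degN := fun k i hi => by
    show ((κ.Nm k).map (MvPolynomial.map φ)).coeff i = 0
    rw [Polynomial.coeff_map, h.degN k i hi, map_zero]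
  homN := fun k i hi => by
    show (((κ.Nm k).map (MvPolynomial.map φ)).coeff i).IsHomogeneous (κ.D - i)
    rw [Polynomial.coeff_map]
    exact (h.homN k i hi).map φ
  lamN := fun j => by
    have h1 := congrArg (Polynomial.map (MvPolynomial.map φ)) (h.lamN j)
    simpa [mapK, Polynomial.map_sum, Polynomial.derivative_map] using h1
  wN := by
    have h1 := congrArg (Polynomial.map (MvPolynomial.map φ)) h.wN
    simpa [mapK, Polynomial.map_sum, Polynomial.derivative_map] using h1
  dvd := by
    rintro _ ⟨F, hF, rfl⟩
    obtain ⟨c, hc⟩ := h.dvd F hF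
    refine ⟨c.map (MvPolynomial.map φ), ?_⟩
    have h1 := congrArg (Polynomial.map (MvPolynomial.map φ)) hc
    rw [Polynomial.map_mul] at h1
    rw [show (mapK κ φ).G = κ.G.map (MvPolynomial.map φ) from rfl, ← h1]
    have h2 : (Polynomial.mapRingHom (MvPolynomial.map φ)).comp
        (MvPolynomial.aeval κ.Nm : MvPolynomial (Fin (N + 1)) R →ₐ[R]
          Polynomial (MvPolynomial (Fin (n + 1)) R)).toRingHom =
        (MvPolynomial.aeval (mapK κ φ).Nm : MvPolynomial (Fin (N + 1)) S →ₐ[S]
          Polynomial (MvPolynomial (Fin (n + 1)) S)).toRingHom.comp (MvPolynomial.map φ) := by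
      refine MvPolynomial.ringHom_ext ?_ ?_
      · intro r
        simp [Polynomial.algebraMap_apply, MvPolynomial.algebraMap_eq]
      · intro j
        simp [mapK]
    exact (congrArg (fun f => f F) h2).symm
  memG := by
    refine ⟨_, h.memG, ?_⟩
    exact (sub_map κ φ κ.G).symm
  memN := fun k => by
    refine ⟨_, h.memN k, ?_⟩
    rw [map_sub, map_mul, MvPolynomial.map_X, dG_map]
    congr 1
    exact (sub_map κ φ (κ.Nm k)).symm

end

end Crest.Agent.R281.KrB1_871
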