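import Crest.Agent.R281.KrB1_871

/-!
# R281, KRON (helper871): the map `H v = dG (v) • v - Nm (lam v, w v)`

Polynomial identities `lam (H) = 0`, `w (H) = D * G`, the pointwise criterion on `dG ≠ 0`.
-/

set_option autoImplicit false

open MvPolynomial Polynomial

namespace Crest.Agent.R281.KrB2_871

open Crest.Agent.R281.Kr_488 Crest.Agent.R281.KrB1_871

noncomputable section

variable {n N : ℕ} {R S : Type*} [CommRing R] [CommRing S]

/-- the coordinates of `H` -/
def Hp (κ : KDat n N R) (k : Fin (N + 1)) : MvPolynomial (Fin (N + 1)) R :=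
  MvPolynomial.X k * κ.dG - κ.sub (κ.Nm k)

theorem Hp_map (κ : KDat n N R) (φ : R →+* S) (k : Fin (N + 1)) :
    Hp (mapK κ φ) k = MvPolynomial.map φ (Hp κ k) := by
  unfold Hp
  rw [map_sub, map_mul, MvPolynomial.map_X, dG_map]
  congr 1
  exact sub_map κ φ (κ.Nm k)

variable {κ : KDat n N R} {E : Set (MvPolynomial (Fin (N + 1)) R)}

theorem lam_Hp (h : κ.Good E) (j : Fin (n + 1)) :
    ∑ k, MvPolynomial.C (κ.lam j k) * Hp κ k = 0 := by
  have h1 := congrArg κ.sub (h.lamN j)
  have h2 : κ.sub (Polynomial.C (MvPolynomial.X j) * Polynomial.derivative κ.G) =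
      lin (κ.lam j) * κ.dG := by
    rw [map_mul]
    congr 1
    simp [KDat.sub, KDat.subY]
  rw [h2, map_sum] at h1
  have h3 : ∀ k, κ.sub (Polynomial.C (MvPolynomial.C (κ.lam j k)) * κ.Nm k) =
      MvPolynomial.C (κ.lam j k) * κ.sub (κ.Nm k) := by
    intro k
    rw [map_mul]
    congr 1
    simp [KDat.sub, KDat.subY]
  simp only [h3] at h1
  simp only [Hp, mul_sub, Finset.sum_sub_distrib, h1]
  rw [lin, Finset.sum_mul, sub_eq_zero]
  exact Finset.sum_congr rfl fun k _ => (mul_assoc _ _ _).symm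

theorem w_Hp (h : κ.Good E) :
    ∑ k, MvPolynomial.C (κ.w k) * Hp κ k = (κ.D : MvPolynomial (Fin (N + 1)) R) * κ.sub κ.G := by
  have h1 := congrArg κ.sub h.wN
  have h2 : κ.sub (Polynomial.X * Polynomial.derivative κ.G -
      (κ.D : Polynomial (MvPolynomial (Fin (n + 1)) R)) * κ.G) =
      lin κ.w * κ.dG - (κ.D : MvPolynomial (Fin (N + 1)) R) * κ.sub κ.G := by
    rw [map_sub, map_mul, map_mul, map_natCast]
    congr 2
    simp [KDat.sub]
  rw [h2, map_sum] at h1
  have h3 : ∀ k, κ.sub (Polynomial.C (MvPolynomial.C (κ.w k)) * κ.Nm k) =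
      MvPolynomial.C (κ.w k) * κ.sub (κ.Nm k) := by
    intro k
    rw [map_mul]
    congr 1
    simp [KDat.sub, KDat.subY]
  simp only [h3] at h1
  simp only [Hp, mul_sub, Finset.sum_sub_distrib, h1]
  rw [lin, Finset.sum_mul]
  simp only [← mul_assoc]
  ring

theorem eval_smul_homog {σ : Type*} {p : MvPolynomial σ R} {d : ℕ} (hp : p.IsHomogeneous d)
    (c : R) (v : σ → R) : MvPolynomial.eval (c • v) p = c ^ d * MvPolynomial.eval v p := by
  rw [MvPolynomial.eval_eq, MvPolynomial.eval_eq, Finset.mul_sum]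
  refine Finset.sum_congr rfl fun m hm => ?_
  have h1 : m.sum (fun _ e => e) = d := by
    have := hp (MvPolynomial.mem_support_iff.mp hm)
    rw [Finsupp.weight_apply] at this
    simpa using this
  have h2 : ∏ i ∈ m.support, (c • v) i ^ m i = c ^ d * ∏ i ∈ m.support, v i ^ m i := by
    rw [← h1, Finsupp.sum, ← Finset.prod_pow_eq_pow_sum, ← Finset.prod_mul_distrib]
    exact Finset.prod_congr rfl fun i _ => by simp [mul_pow]
  rw [h2]
  ring

/-- **the pointwise criterion** -/
theorem mem_iff [IsDomain R] [CharZero R] (h : κ.Good E) (hE : ∀ F ∈ E, ∃ m, F.IsHomogeneous m)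
    {v : Fin (N + 1) → R} (hd : MvPolynomial.eval v κ.dG ≠ 0) :
    (∀ F ∈ E, MvPolynomial.eval v F = 0) ↔ ∀ k, MvPolynomial.eval v (Hp κ k) = 0 := by
  constructor
  · intro h1 k
    exact h1 _ (h.memN k)
  · intro h1 F hF
    obtain ⟨m, hm⟩ := hE F hF
    have hG : MvPolynomial.eval v (κ.sub κ.G) = 0 := by
      have h2 := congrArg (MvPolynomial.eval v) (w_Hp h)
      rw [map_sum, map_mul, map_natCast] at h2
      have h3 : ∑ x, MvPolynomial.eval v (MvPolynomial.C (κ.w x) * Hp κ x) = 0 :=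
        Finset.sum_eq_zero fun k _ => by rw [map_mul, h1 k, mul_zero]
      rw [h3] at h2
      rcases mul_eq_zero.mp h2.symm with h4 | h4
      · exact absurd h4 (Nat.cast_ne_zero.mpr h.D_pos.ne')
      · exact h4
    set d := MvPolynomial.eval v κ.dG with hdd
    have hN : (fun k => MvPolynomial.eval v (κ.sub (κ.Nm k))) = d • v := by
      funext k
      have h2 := h1 k
      rw [Hp, map_sub, map_mul, MvPolynomial.eval_X, sub_eq_zero] at h2
      rw [← h2, Pi.smul_apply, smul_eq_mul, mul_comm]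
    have hFN : MvPolynomial.eval (d • v) F =
        KDat.ev (κ.lamv v) (lv κ.w v) (MvPolynomial.aeval κ.Nm F) := by
      rw [← hN]
      have h2 : (KDat.ev (κ.lamv v) (lv κ.w v)).comp
          (MvPolynomial.aeval κ.Nm : MvPolynomial (Fin (N + 1)) R →ₐ[R]
            Polynomial (MvPolynomial (Fin (n + 1)) R)).toRingHom =
          MvPolynomial.eval fun k => MvPolynomial.eval v (κ.sub (κ.Nm k)) := by
        refine MvPolynomial.ringHom_ext ?_ ?_
        · intro r
          simp [KDat.ev, Polynomial.algebraMap_apply, MvPolynomial.algebraMap_eq]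
        · intro k
          simp [κ.eval_sub]
      exact (congrArg (fun f => f F) h2).symm
    obtain ⟨c, hc⟩ := h.dvd F hF
    rw [hc, map_mul, ← κ.eval_sub, hG, zero_mul, eval_smul_homog hm] at hFN
    rcases mul_eq_zero.mp hFN with h4 | h4
    · exact absurd h4 (pow_ne_zero m hd)
    · exact h4

end

end Crest.Agent.R281.KrB2_871
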