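import Crest.Agent.R281.KrB2_871
import Crest.Agent.R281.Eh4_461

/-!
# R281, KRON (helper871): the derivative of `H` on `ker lam`

At a zero of `H` with `dG ≠ 0` (any point with `dG ≠ 0`, in fact) the derivative of `H` maps `ker lam`
bijectively onto itself.
-/

set_option autoImplicit false

open MvPolynomial Polynomial Set Filter Topology

namespace Crest.Agent.R281.KrB3_871

open Crest.Agent.R281.Kr_488 Crest.Agent.R281.KrB1_871 Crest.Agent.R281.KrB2_871

noncomputable section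

variable {n N : ℕ}

/-- the linear map with matrix `lam` -/
def TT (lam : Fin (n + 1) → Fin (N + 1) → ℂ) : EuclideanSpace ℂ (Fin (N + 1)) →L[ℂ] (Fin (n + 1) → ℂ) :=
  ContinuousLinearMap.pi fun j => ∑ k, lam j k • (EuclideanSpace.proj k : _ →L[ℂ] ℂ)

theorem TT_apply (lam : Fin (n + 1) → Fin (N + 1) → ℂ) (v : EuclideanSpace ℂ (Fin (N + 1)))
    (j : Fin (n + 1)) : TT lam v j = lv (lam j) (fun k => v k) := by
  simp [TT, lv]

/-- the linear form with coefficients `w` -/
def WW (w : Fin (N + 1) → ℂ) : EuclideanSpace ℂ (Fin (N + 1)) →L[ℂ] ℂ :=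
  ∑ k, w k • (EuclideanSpace.proj k : _ →L[ℂ] ℂ)

theorem WW_apply (w : Fin (N + 1) → ℂ) (v : EuclideanSpace ℂ (Fin (N + 1))) :
    WW w v = lv w (fun k => v k) := by
  simp [WW, lv]

/-- the map `H` -/
def Hv (κ : KDat n N ℂ) (v : EuclideanSpace ℂ (Fin (N + 1))) : EuclideanSpace ℂ (Fin (N + 1)) :=
  WithLp.toLp 2 fun k => MvPolynomial.eval (fun i => v i) (Hp κ k)

theorem Hv_apply (κ : KDat n N ℂ) (v : EuclideanSpace ℂ (Fin (N + 1))) (k : Fin (N + 1)) :
    Hv κ v k = MvPolynomial.eval (fun i => v i) (Hp κ k) := rfl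

theorem analyticAt_eval (F : MvPolynomial (Fin (N + 1)) ℂ) (u : EuclideanSpace ℂ (Fin (N + 1))) :
    AnalyticAt ℂ (fun v : EuclideanSpace ℂ (Fin (N + 1)) => MvPolynomial.eval (fun i => v i) F) u := by
  induction F using MvPolynomial.induction_on with
  | C a => simpa using analyticAt_const
  | add p q hp hq =>
    simp only [map_add]
    exact hp.add hq
  | mul_X p i hp =>
    have h1 : AnalyticAt ℂ (fun v : EuclideanSpace ℂ (Fin (N + 1)) => v i) u :=
      (EuclideanSpace.proj i : EuclideanSpace ℂ (Fin (N + 1)) →L[ℂ] ℂ).analyticAt u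
    simp only [map_mul, MvPolynomial.eval_X]
    exact hp.mul h1

theorem analyticAt_toLp {P : Type*} [NormedAddCommGroup P] [NormedSpace ℂ P] {m : ℕ}
    {f : P → Fin m → ℂ} {p : P} (h : ∀ i, AnalyticAt ℂ (fun x => f x i) p) :
    AnalyticAt ℂ (fun x => (WithLp.toLp 2 (f x) : EuclideanSpace ℂ (Fin m))) p := by
  have h1 : AnalyticAt ℂ f p := AnalyticAt.pi h
  exact ((PiLp.continuousLinearEquiv 2 ℂ (fun _ : Fin m => ℂ)).symm.toContinuousLinearMap.analyticAt
    (f p)).comp h1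

theorem analyticAt_Hv (κ : KDat n N ℂ) (u : EuclideanSpace ℂ (Fin (N + 1))) :
    AnalyticAt ℂ (Hv κ) u :=
  analyticAt_toLp fun k => analyticAt_eval (Hp κ k) u

variable {κ : KDat n N ℂ} {E : Set (MvPolynomial (Fin (N + 1)) ℂ)}

theorem TT_Hv (h : κ.Good E) (v : EuclideanSpace ℂ (Fin (N + 1))) : TT κ.lam (Hv κ v) = 0 := by
  funext j
  rw [TT_apply]
  have h1 := congrArg (MvPolynomial.eval fun i => v i) (lam_Hp h j)
  simpa [lv, Hv_apply] using h1

theorem WW_Hv (h : κ.Good E) (v : EuclideanSpace ℂ (Fin (N + 1))) :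
    WW κ.w (Hv κ v) = κ.D * MvPolynomial.eval (fun i => v i) (κ.sub κ.G) := by
  rw [WW_apply]
  have h1 := congrArg (MvPolynomial.eval fun i => v i) (w_Hp h)
  simpa [lv, Hv_apply] using h1

/-- on a line in the direction of `ker lam` the values are polynomials in `W` -/
theorem eval_line (p : Polynomial (MvPolynomial (Fin (n + 1)) ℂ))
    {u x : EuclideanSpace ℂ (Fin (N + 1))} (hx : TT κ.lam x = 0) (t : ℂ) :
    MvPolynomial.eval (fun i => (u + t • x) i) (κ.sub p) =
      (p.map (MvPolynomial.eval (κ.lamv fun i => u i))).eval (WW κ.w u + t * WW κ.w x) := by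
  rw [κ.eval_sub]
  have h1 : (κ.lamv fun i => (u + t • x) i) = κ.lamv fun i => u i := by
    funext j
    have h2 : TT κ.lam (u + t • x) j = TT κ.lam u j := by
      rw [map_add, map_smul, hx, smul_zero, add_zero]
    rw [TT_apply, TT_apply] at h2
    exact h2
  have h3 : lv κ.w (fun i => (u + t • x) i) = WW κ.w u + t * WW κ.w x := by
    rw [← WW_apply, map_add, map_smul, smul_eq_mul]
  rw [h1, h3, KDat.ev, Polynomial.coe_eval₂RingHom, Polynomial.eval_map]

theorem hasDerivAt_line (p : Polynomial (MvPolynomial (Fin (n + 1)) ℂ))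
    {u x : EuclideanSpace ℂ (Fin (N + 1))} (hx : TT κ.lam x = 0) :
    HasDerivAt (fun t : ℂ => MvPolynomial.eval (fun i => (u + t • x) i) (κ.sub p))
      (MvPolynomial.eval (fun i => u i) (κ.sub (Polynomial.derivative p)) * WW κ.w x) 0 := by
  have h1 : (fun t : ℂ => MvPolynomial.eval (fun i => (u + t • x) i) (κ.sub p)) =
      fun t => (p.map (MvPolynomial.eval (κ.lamv fun i => u i))).eval (WW κ.w u + t * WW κ.w x) := by
    funext t
    rw [eval_line (κ := κ) p (u := u) hx t]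
  have h2 : MvPolynomial.eval (fun i => u i) (κ.sub (Polynomial.derivative p)) =
      (Polynomial.derivative (p.map (MvPolynomial.eval (κ.lamv fun i => u i)))).eval
        (WW κ.w u + 0 * WW κ.w x) := by
    have := eval_line (κ := κ) (Polynomial.derivative p) (u := u) hx 0
    rw [zero_smul, add_zero] at this
    rw [this, Polynomial.derivative_map]
  rw [h1, h2]
  have h3 : HasDerivAt (fun t : ℂ => WW κ.w u + t * WW κ.w x) (WW κ.w x) 0 := by
    simpa using ((hasDerivAt_id (0 : ℂ)).mul_const (WW κ.w x)).const_add (WW κ.w u)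
  generalize p.map (MvPolynomial.eval (κ.lamv fun i => u i)) = Q
  have h4 := Q.hasDerivAt (WW κ.w u + 0 * WW κ.w x)
  have h5 := HasDerivAt.comp (0 : ℂ) (h := fun t : ℂ => WW κ.w u + t * WW κ.w x) h4 h3
  exact h5

/-- derivative along a line -/
theorem hasDerivAt_Hv (u x : EuclideanSpace ℂ (Fin (N + 1))) :
    HasDerivAt (fun t : ℂ => Hv κ (u + t • x)) (fderiv ℂ (Hv κ) u x) 0 := by
  have h1 : HasFDerivAt (Hv κ) (fderiv ℂ (Hv κ) u) (u + (0 : ℂ) • x) := by
    rw [zero_smul, add_zero]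
    exact (analyticAt_Hv κ u).differentiableAt.hasFDerivAt
  have h2 : HasDerivAt (fun t : ℂ => u + t • x) x 0 := by
    simpa using ((hasDerivAt_id (0 : ℂ)).smul_const x).const_add u
  exact h1.comp_hasDerivAt (0 : ℂ) h2

theorem TT_D (h : κ.Good E) (u x : EuclideanSpace ℂ (Fin (N + 1))) :
    TT κ.lam (fderiv ℂ (Hv κ) u x) = 0 := by
  have h1 := ((TT κ.lam).hasFDerivAt (x := Hv κ (u + (0 : ℂ) • x))).comp_hasDerivAt (0 : ℂ)
    (hasDerivAt_Hv (κ := κ) u x)
  have h2 : (⇑(TT κ.lam) ∘ fun t : ℂ => Hv κ (u + t • x)) = fun _ => 0 := by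
    funext t
    exact TT_Hv h _
  rw [h2] at h1
  exact h1.unique (hasDerivAt_const (0 : ℂ) 0)

theorem WW_D (h : κ.Good E) {u x : EuclideanSpace ℂ (Fin (N + 1))} (hx : TT κ.lam x = 0) :
    WW κ.w (fderiv ℂ (Hv κ) u x) = κ.D * (MvPolynomial.eval (fun i => u i) κ.dG * WW κ.w x) := by
  have h1 := ((WW κ.w).hasFDerivAt (x := Hv κ (u + (0 : ℂ) • x))).comp_hasDerivAt (0 : ℂ)
    (hasDerivAt_Hv (κ := κ) u x)
  have h2 : (⇑(WW κ.w) ∘ fun t : ℂ => Hv κ (u + t • x)) = fun t =>
      (κ.D : ℂ) * MvPolynomial.eval (fun i => (u + t • x) i) (κ.sub κ.G) := by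
    funext t
    exact WW_Hv h _
  rw [h2] at h1
  exact h1.unique ((hasDerivAt_line κ.G hx).const_mul (κ.D : ℂ))

theorem D_eq {u x : EuclideanSpace ℂ (Fin (N + 1))} (hx : TT κ.lam x = 0)
    (hw : WW κ.w x = 0) : fderiv ℂ (Hv κ) u x = MvPolynomial.eval (fun i => u i) κ.dG • x := by
  have h1 := hasDerivAt_Hv (κ := κ) u x
  have h0 : ∀ (p : Polynomial (MvPolynomial (Fin (n + 1)) ℂ)) (t : ℂ),
      MvPolynomial.eval (fun i => (u + t • x) i) (κ.sub p) =
        MvPolynomial.eval (fun i => u i) (κ.sub p) := by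
    intro p t
    have h2 := eval_line (κ := κ) p (u := u) hx t
    have h3 := eval_line (κ := κ) p (u := u) hx 0
    rw [hw, mul_zero] at h2 h3
    rw [zero_smul, add_zero] at h3
    rw [h2, h3]
  have h2 : (fun t : ℂ => Hv κ (u + t • x)) = fun t =>
      Hv κ u + t • (MvPolynomial.eval (fun i => u i) κ.dG • x) := by
    funext t
    ext k
    rw [PiLp.add_apply, PiLp.smul_apply, PiLp.smul_apply, Hv_apply, Hv_apply, Hp, map_sub, map_mul,
      map_sub, map_mul, h0, KDat.dG, h0, MvPolynomial.eval_X, MvPolynomial.eval_X, PiLp.add_apply,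
      PiLp.smul_apply]
    simp only [smul_eq_mul]
    ring
  rw [h2] at h1
  have h3 : HasDerivAt (fun t : ℂ => Hv κ u + t • (MvPolynomial.eval (fun i => u i) κ.dG • x))
      (MvPolynomial.eval (fun i => u i) κ.dG • x) 0 := by
    simpa using ((hasDerivAt_id (0 : ℂ)).smul_const
      (MvPolynomial.eval (fun i => u i) κ.dG • x)).const_add (Hv κ u)
  exact h1.unique h3

/-- **the derivative of `H` is bijective on `ker lam`** -/
theorem D_surj (h : κ.Good E) {u : EuclideanSpace ℂ (Fin (N + 1))}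
    (hd : MvPolynomial.eval (fun i => u i) κ.dG ≠ 0) {y : EuclideanSpace ℂ (Fin (N + 1))}
    (hy : TT κ.lam y = 0) : ∃ x, TT κ.lam x = 0 ∧ fderiv ℂ (Hv κ) u x = y := by
  set K0 : Submodule ℂ (EuclideanSpace ℂ (Fin (N + 1))) := LinearMap.ker (TT κ.lam).toLinearMap
    with hK0
  have hmem : ∀ x, x ∈ K0 ↔ TT κ.lam x = 0 := fun x => LinearMap.mem_ker
  set A : K0 →ₗ[ℂ] K0 := ((fderiv ℂ (Hv κ) u).toLinearMap.comp K0.subtype).codRestrict K0
    (fun x => (hmem _).mpr (TT_D h u x)) with hA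
  have hinj : Function.Injective A := by
    rw [← LinearMap.ker_eq_bot, LinearMap.ker_eq_bot']
    intro x hx
    have h1 : fderiv ℂ (Hv κ) u (x : EuclideanSpace ℂ (Fin (N + 1))) = 0 := by
      have := congrArg Subtype.val hx
      simpa [hA] using this
    have hx0 := (hmem _).mp x.2
    have h2 := WW_D h (u := u) hx0
    rw [h1, map_zero] at h2
    have h3 : WW κ.w (x : EuclideanSpace ℂ (Fin (N + 1))) = 0 := by
      rcases mul_eq_zero.mp h2.symm with h4 | h4
      · exact absurd h4 (Nat.cast_ne_zero.mpr h.D_pos.ne')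
      · exact (mul_eq_zero.mp h4).resolve_left hd
    have h4 := D_eq (κ := κ) (u := u) hx0 h3
    rw [h1] at h4
    have h5 := (smul_eq_zero.mp h4.symm).resolve_left hd
    exact Subtype.ext h5
  obtain ⟨x, hx⟩ := (LinearMap.injective_iff_surjective.mp hinj) ⟨y, (hmem _).mpr hy⟩
  refine ⟨x, (hmem _).mp x.2, ?_⟩
  have := congrArg Subtype.val hx
  simpa [hA] using this

end

end Crest.Agent.R281.KrB3_871
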