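import Crest.Agent.R281.KrD_488

/-!
# R281, KRON (helper488): transport of the Kronecker data along ring homomorphisms, pointwise
consequences
-/

set_option autoImplicit false
set_option linter.unusedSectionVars false

open MvPolynomial

namespace Crest.Agent.R281.Kr_488

noncomputable section

variable {n N : ℕ}

namespace KDat

section Map

variable {R S : Type*} [CommRing R] [CommRing S] (φ : R →+* S) (κ : KDat n N R)

/-- image under a ring homomorphism -/
def map : KDat n N S where
  lam j k := φ (κ.lam j k)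
  w k := φ (κ.w k)
  D := κ.D
  G := κ.G.map (MvPolynomial.map φ)
  Nm k := (κ.Nm k).map (MvPolynomial.map φ)

theorem sub_map (p : Polynomial (MvPolynomial (Fin (n + 1)) R)) :
    (κ.map φ).sub (p.map (MvPolynomial.map φ)) = MvPolynomial.map φ (κ.sub p) := by
  have h : ((κ.map φ).sub).comp (Polynomial.mapRingHom (MvPolynomial.map φ)) =
      (MvPolynomial.map φ).comp κ.sub := by
    refine Polynomial.ringHom_ext' ?_ ?_
    · refine MvPolynomial.ringHom_ext ?_ ?_
      · intro r
        simp [sub, subY]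
      · intro j
        simp [sub, subY, KDat.map, map_lin]
    · simp [sub, KDat.map, map_lin]
  exact congrArg (fun f => f p) h

theorem dG_map : (κ.map φ).dG = MvPolynomial.map φ κ.dG := by
  unfold dG
  rw [← sub_map, ← Polynomial.derivative_map]
  rfl

theorem aeval_map_Nm (F : MvPolynomial (Fin (N + 1)) R) :
    MvPolynomial.aeval (κ.map φ).Nm (MvPolynomial.map φ F) =
      (MvPolynomial.aeval κ.Nm F).map (MvPolynomial.map φ) := by
  have h : ((MvPolynomial.aeval (R := S) (κ.map φ).Nm).toRingHom).comp (MvPolynomial.map φ) =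
      (Polynomial.mapRingHom (MvPolynomial.map φ)).comp
        (MvPolynomial.aeval (R := R) κ.Nm).toRingHom := by
    refine MvPolynomial.ringHom_ext ?_ ?_
    · intro r
      simp [Polynomial.algebraMap_apply]
    · intro j
      simp [KDat.map]
  exact congrArg (fun f => f F) h

variable {κ}

theorem Good.map [Nontrivial S] {E : Set (MvPolynomial (Fin (N + 1)) R)} (h : κ.Good E) :
    (κ.map φ).Good (MvPolynomial.map φ '' E) where
  D_pos := h.D_pos
  monic := h.monic.map _
  deg := by
    show (κ.G.map _).natDegree = _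
    rw [h.monic.natDegree_map, h.deg]
    rfl
  homG i hi := by
    show ((κ.G.map (MvPolynomial.map φ)).coeff i).IsHomogeneous _
    rw [Polynomial.coeff_map]
    exact (h.homG i hi).map φ
  degN k i hi := by
    show ((κ.Nm k).map _).coeff i = 0
    rw [Polynomial.coeff_map, h.degN k i hi, map_zero]
  homN k i hi := by
    show (((κ.Nm k).map (MvPolynomial.map φ)).coeff i).IsHomogeneous _
    rw [Polynomial.coeff_map]
    exact (h.homN k i hi).map φ
  lamN j := by
    have h1 := congrArg (Polynomial.map (MvPolynomial.map φ)) (h.lamN j)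
    rw [Polynomial.map_sum, Polynomial.map_mul, Polynomial.map_C, map_X,
      ← Polynomial.derivative_map] at h1
    rw [← show _ = Polynomial.C (X j) * Polynomial.derivative (κ.map φ).G from h1]
    refine Finset.sum_congr rfl fun k _ => ?_
    rw [Polynomial.map_mul, Polynomial.map_C, map_C]
    rfl
  wN := by
    have h1 := congrArg (Polynomial.map (MvPolynomial.map φ)) h.wN
    rw [Polynomial.map_sum, Polynomial.map_sub, Polynomial.map_mul, Polynomial.map_mul,
      Polynomial.map_X, ← Polynomial.derivative_map, Polynomial.map_natCast] at h1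
    rw [← show _ = Polynomial.X * Polynomial.derivative (κ.map φ).G -
      ((κ.map φ).D : Polynomial (MvPolynomial (Fin (n + 1)) S)) * (κ.map φ).G from h1]
    refine Finset.sum_congr rfl fun k _ => ?_
    rw [Polynomial.map_mul, Polynomial.map_C, map_C]
    rfl
  dvd := by
    rintro _ ⟨F, hF, rfl⟩
    rw [aeval_map_Nm]
    exact Polynomial.map_dvd _ (h.dvd F hF)
  memG := ⟨_, h.memG, (sub_map φ κ κ.G).symm⟩
  memN k := ⟨_, h.memN k, by
    rw [map_sub, map_mul, map_X, dG_map, ← sub_map]
    rfl⟩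

theorem isHomogeneous_of_map (hφ : Function.Injective φ) {m d : ℕ} {p : MvPolynomial (Fin m) R}
    (h : (MvPolynomial.map φ p).IsHomogeneous d) : p.IsHomogeneous d := by
  intro α hα
  refine h ?_
  rw [coeff_map]
  intro h0
  exact hα (hφ (h0.trans (map_zero φ).symm))

theorem Good.of_map (hφ : Function.Injective φ) {E : Set (MvPolynomial (Fin (N + 1)) R)}
    (h : (κ.map φ).Good (MvPolynomial.map φ '' E)) : κ.Good E := by
  have hm : Function.Injective (MvPolynomial.map (σ := Fin (N + 1)) φ) := map_injective φ hφ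
  have hm' : Function.Injective (MvPolynomial.map (σ := Fin (n + 1)) φ) := map_injective φ hφ
  have hpm : Function.Injective (Polynomial.map (MvPolynomial.map (σ := Fin (n + 1)) φ)) :=
    Polynomial.map_injective _ hm'
  have hmon : κ.G.Monic := Polynomial.monic_of_injective hm' h.monic
  have hnt : Nontrivial S ∨ Subsingleton S := (subsingleton_or_nontrivial S).symm
  refine ⟨h.D_pos, hmon, ?_, ?_, ?_, ?_, ?_, ?_, ?_, ?_, ?_⟩
  · have h1 := h.deg
    have h2 : (κ.map φ).G.natDegree = κ.G.natDegree := Polynomial.natDegree_map_eq_of_injective hm' _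
    rw [← h2, h1]
    rfl
  · intro i hi
    have h1 := h.homG i hi
    have h2 : (κ.map φ).G.coeff i = MvPolynomial.map φ (κ.G.coeff i) := Polynomial.coeff_map _ _
    rw [h2] at h1
    exact isHomogeneous_of_map φ hφ h1
  · intro k i hi
    have h1 := h.degN k i hi
    have h2 : ((κ.map φ).Nm k).coeff i = MvPolynomial.map φ ((κ.Nm k).coeff i) :=
      Polynomial.coeff_map _ _
    rw [h2] at h1
    exact hm' (h1.trans (map_zero _).symm)
  · intro k i hi
    have h1 := h.homN k i hi
    have h2 : ((κ.map φ).Nm k).coeff i = MvPolynomial.map φ ((κ.Nm k).coeff i) :=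
      Polynomial.coeff_map _ _
    rw [h2] at h1
    exact isHomogeneous_of_map φ hφ h1
  · intro j
    apply hpm
    rw [Polynomial.map_sum, Polynomial.map_mul, Polynomial.map_C, map_X,
      ← Polynomial.derivative_map]
    refine Eq.trans ?_ (h.lamN j)
    refine Finset.sum_congr rfl fun k _ => ?_
    rw [Polynomial.map_mul, Polynomial.map_C, map_C]
    rfl
  · apply hpm
    rw [Polynomial.map_sum, Polynomial.map_sub, Polynomial.map_mul, Polynomial.map_mul,
      Polynomial.map_X, ← Polynomial.derivative_map, Polynomial.map_natCast]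
    refine Eq.trans ?_ h.wN
    refine Finset.sum_congr rfl fun k _ => ?_
    rw [Polynomial.map_mul, Polynomial.map_C, map_C]
    rfl
  · intro F hF
    have h1 := h.dvd _ ⟨F, hF, rfl⟩
    rw [aeval_map_Nm] at h1
    have h2 : (κ.map φ).G = κ.G.map (MvPolynomial.map φ) := rfl
    rw [h2] at h1
    rw [← Polynomial.modByMonic_eq_zero_iff_dvd hmon]
    rw [← Polynomial.modByMonic_eq_zero_iff_dvd (hmon.map _), ← Polynomial.map_modByMonic _ hmon]
      at h1
    exact hpm (h1.trans (Polynomial.map_zero _).symm)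
  · obtain ⟨F, hF, hF2⟩ := h.memG
    have h2 : (κ.map φ).G = κ.G.map (MvPolynomial.map φ) := rfl
    rw [h2, sub_map] at hF2
    rw [← hm hF2]
    exact hF
  · intro k
    obtain ⟨F, hF, hF2⟩ := h.memN k
    have h2 : (κ.map φ).Nm k = (κ.Nm k).map (MvPolynomial.map φ) := rfl
    rw [h2, sub_map, dG_map] at hF2
    have h3 : X k * MvPolynomial.map φ κ.dG - MvPolynomial.map φ (κ.sub (κ.Nm k)) =
        MvPolynomial.map φ (X k * κ.dG - κ.sub (κ.Nm k)) := by
      rw [map_sub, map_mul, map_X]
    rw [h3] at hF2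
    rw [← hm hF2]
    exact hF

/-- all coefficients of the data -/
def coeffs (κ : KDat n N R) : Set R :=
  {r | (∃ j k, r = κ.lam j k) ∨ (∃ k, r = κ.w k) ∨ (∃ i α, r = (κ.G.coeff i).coeff α) ∨
    ∃ k i α, r = ((κ.Nm k).coeff i).coeff α}

end Map

section Pt

variable {K : Type*} [Field K] [CharZero K] (κ : KDat n N K)

/-- the vector `dG (v) v - Nm (lam v, w v)` -/
def Hv (v : Fin (N + 1) → K) : Fin (N + 1) → K :=
  fun k => v k * ev (κ.lamv v) (lv κ.w v) (Polynomial.derivative κ.G) -
    ev (κ.lamv v) (lv κ.w v) (κ.Nm k)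

theorem Hv_eq (v : Fin (N + 1) → K) (k : Fin (N + 1)) :
    κ.Hv v k = eval v (X k * κ.dG - κ.sub (κ.Nm k)) := by
  rw [map_sub, map_mul, eval_X, dG, eval_sub, eval_sub]
  rfl

variable {κ} {E : Set (MvPolynomial (Fin (N + 1)) K)}

theorem ev_C_C (y : Fin (n + 1) → K) (W c : K) :
    ev y W (Polynomial.C (MvPolynomial.C c)) = c := by
  simp [ev]

theorem ev_natCast (y : Fin (n + 1) → K) (W : K) (m : ℕ) :
    ev y W (m : Polynomial (MvPolynomial (Fin (n + 1)) K)) = m := map_natCast _ _

theorem Good.lam_ev (h : κ.Good E) (y : Fin (n + 1) → K) (W : K) (j : Fin (n + 1)) :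
    lv (κ.lam j) (fun k => ev y W (κ.Nm k)) = y j * ev y W (Polynomial.derivative κ.G) := by
  have h1 := congrArg (ev y W) (h.lamN j)
  rw [map_sum, map_mul] at h1
  simp only [map_mul, ev_C_C] at h1
  have h2 : ev y W (Polynomial.C (X j)) = y j := by simp [ev]
  rw [h2] at h1
  exact h1

theorem Good.w_ev (h : κ.Good E) (y : Fin (n + 1) → K) (W : K) :
    lv κ.w (fun k => ev y W (κ.Nm k)) =
      W * ev y W (Polynomial.derivative κ.G) - κ.D * ev y W κ.G := by
  have h1 := congrArg (ev y W) h.wN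
  rw [map_sum, map_sub, map_mul, map_mul, ev_natCast] at h1
  simp only [map_mul, ev_C_C] at h1
  have h2 : ev y W Polynomial.X = W := by simp [ev]
  rw [h2] at h1
  exact h1

theorem lv_sub_fun (a u v : Fin (N + 1) → K) : lv a (fun k => u k - v k) = lv a u - lv a v := by
  unfold lv
  rw [← Finset.sum_sub_distrib]
  exact Finset.sum_congr rfl fun k _ => by ring

theorem lv_mul_right (a v : Fin (N + 1) → K) (c : K) : lv a (fun k => v k * c) = lv a v * c := by
  unfold lv
  rw [Finset.sum_mul]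
  exact Finset.sum_congr rfl fun k _ => by ring

/-- `Hv` takes values in `ker lam` -/
theorem Good.lam_Hv (h : κ.Good E) (v : Fin (N + 1) → K) (j : Fin (n + 1)) :
    lv (κ.lam j) (κ.Hv v) = 0 := by
  unfold Hv
  rw [lv_sub_fun, lv_mul_right, h.lam_ev]
  exact sub_self _

theorem Good.w_Hv (h : κ.Good E) (v : Fin (N + 1) → K) :
    lv κ.w (κ.Hv v) = κ.D * ev (κ.lamv v) (lv κ.w v) κ.G := by
  unfold Hv
  rw [lv_sub_fun, lv_mul_right, h.w_ev]
  ring

theorem Good.Hv_eq_zero (h : κ.Good E) {v : Fin (N + 1) → K} (hv : ∀ F ∈ E, eval v F = 0) :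
    κ.Hv v = 0 := by
  funext k
  rw [Hv_eq, hv _ (h.memN k)]
  rfl

theorem ev_aeval (y : Fin (n + 1) → K) (W : K) (g : Fin (N + 1) →
    Polynomial (MvPolynomial (Fin (n + 1)) K)) (F : MvPolynomial (Fin (N + 1)) K) :
    ev y W (MvPolynomial.aeval g F) = eval (fun k => ev y W (g k)) F := by
  have h : (ev y W).comp (MvPolynomial.aeval (R := K) g).toRingHom =
      eval (fun k => ev y W (g k)) := by
    refine MvPolynomial.ringHom_ext ?_ ?_
    · intro r
      simp [ev_C_C]
    · intro j
      simp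
  exact congrArg (fun f => f F) h

theorem eval_smul_homog' {F : MvPolynomial (Fin (N + 1)) K} {d : ℕ} (hF : F.IsHomogeneous d)
    (c : K) (v : Fin (N + 1) → K) : eval (fun k => v k * c) F = c ^ d * eval v F := by
  rw [MvPolynomial.eval_eq, MvPolynomial.eval_eq, Finset.mul_sum]
  refine Finset.sum_congr rfl fun α hα => ?_
  have h1 : ∏ i ∈ α.support, (v i * c) ^ α i = (∏ i ∈ α.support, v i ^ α i) * c ^ d := by
    have h2 : α.degree = d := by
      rw [Finsupp.degree_eq_weight_one]
      exact hF (MvPolynomial.mem_support_iff.1 hα)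
    simp only [mul_pow]
    rw [Finset.prod_mul_distrib, Finset.prod_pow_eq_pow_sum]
    rw [← h2]
    rfl
  rw [h1]
  ring

/-- the equations at the points `Nm (y, W)` -/
theorem Good.eval_N (h : κ.Good E) {y : Fin (n + 1) → K} {W : K} (hG : ev y W κ.G = 0)
    {F : MvPolynomial (Fin (N + 1)) K} (hF : F ∈ E) :
    eval (fun k => ev y W (κ.Nm k)) F = 0 := by
  obtain ⟨Q, hQ⟩ := h.dvd F hF
  rw [← ev_aeval, hQ, map_mul, hG, zero_mul]

/-- **the chart**: where `dG ≠ 0` the equations are `Hv = 0` -/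
theorem Good.iff_Hv (h : κ.Good E) (hE : ∀ F ∈ E, ∃ d, F.IsHomogeneous d) {v : Fin (N + 1) → K}
    (hd : eval v κ.dG ≠ 0) : (∀ F ∈ E, eval v F = 0) ↔ κ.Hv v = 0 := by
  refine ⟨h.Hv_eq_zero, fun hv F hF => ?_⟩
  have h1 := h.w_Hv v
  rw [hv] at h1
  have h2 : lv κ.w (0 : Fin (N + 1) → K) = 0 := by simp [lv]
  rw [h2] at h1
  have hD : (κ.D : K) ≠ 0 := Nat.cast_ne_zero.2 h.D_pos.ne'
  have hG : ev (κ.lamv v) (lv κ.w v) κ.G = 0 := by
    rcases mul_eq_zero.1 h1.symm with h3 | h3
    · exact absurd h3 hD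
    · exact h3
  have h3 := h.eval_N hG hF
  have hd' : ev (κ.lamv v) (lv κ.w v) (Polynomial.derivative κ.G) ≠ 0 := by
    rw [← eval_sub]
    exact hd
  have h4 : (fun k => ev (κ.lamv v) (lv κ.w v) (κ.Nm k)) =
      fun k => v k * ev (κ.lamv v) (lv κ.w v) (Polynomial.derivative κ.G) := by
    funext k
    have h5 := congrFun hv k
    exact (sub_eq_zero.1 h5).symm
  obtain ⟨d, hFd⟩ := hE F hF
  rw [h4, eval_smul_homog' hFd] at h3
  rcases mul_eq_zero.1 h3 with h5 | h5
  · exact absurd h5 (pow_ne_zero _ hd')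
  · exact h5

/-- the point over a simple root -/
def pt (κ : KDat n N K) (y : Fin (n + 1) → K) (W : K) : Fin (N + 1) → K :=
  fun k => ev y W (κ.Nm k) * (ev y W (Polynomial.derivative κ.G))⁻¹

theorem Good.lamv_pt (h : κ.Good E) {y : Fin (n + 1) → K} {W : K}
    (hd : ev y W (Polynomial.derivative κ.G) ≠ 0) : κ.lamv (κ.pt y W) = y := by
  funext j
  show lv (κ.lam j) (fun k => ev y W (κ.Nm k) * _) = _
  rw [lv_mul_right, h.lam_ev, mul_assoc, mul_inv_cancel₀ hd, mul_one]

theorem Good.w_pt (h : κ.Good E) {y : Fin (n + 1) → K} {W : K} (hG : ev y W κ.G = 0)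
    (hd : ev y W (Polynomial.derivative κ.G) ≠ 0) : lv κ.w (κ.pt y W) = W := by
  show lv κ.w (fun k => ev y W (κ.Nm k) * _) = _
  rw [lv_mul_right, h.w_ev, hG, mul_zero, sub_zero, mul_assoc, mul_inv_cancel₀ hd, mul_one]

theorem Good.dG_pt (h : κ.Good E) {y : Fin (n + 1) → K} {W : K} (hG : ev y W κ.G = 0)
    (hd : ev y W (Polynomial.derivative κ.G) ≠ 0) :
    eval (κ.pt y W) κ.dG = ev y W (Polynomial.derivative κ.G) := by
  rw [dG, eval_sub, h.lamv_pt hd, h.w_pt hG hd]

theorem Good.eval_pt (h : κ.Good E) (hE : ∀ F ∈ E, ∃ d, F.IsHomogeneous d)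
    {y : Fin (n + 1) → K} {W : K} (hG : ev y W κ.G = 0) :
    ∀ F ∈ E, eval (κ.pt y W) F = 0 := by
  intro F hF
  obtain ⟨d, hFd⟩ := hE F hF
  unfold pt
  rw [eval_smul_homog' hFd, h.eval_N hG hF, mul_zero]

/-- a zero of the equations with `dG ≠ 0` is the point over its simple root -/
theorem Good.eq_pt (h : κ.Good E) {v : Fin (N + 1) → K} (hv : ∀ F ∈ E, eval v F = 0)
    (hd : eval v κ.dG ≠ 0) : v = κ.pt (κ.lamv v) (lv κ.w v) := by
  have h1 := h.Hv_eq_zero hv
  have hd' : ev (κ.lamv v) (lv κ.w v) (Polynomial.derivative κ.G) ≠ 0 := by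
    rw [← eval_sub]
    exact hd
  funext k
  have h2 := sub_eq_zero.1 (congrFun h1 k)
  rw [pt, ← h2, mul_assoc, mul_inv_cancel₀ hd', mul_one]

end Pt

end KDat

end

end Crest.Agent.R281.Kr_488
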