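import Crest.Agent.R281.KrE_488

/-!
# R281, KRON (helper488): points with values in any algebra; the tangent space has dimension `n + 1`

* `Good.aeval_pt`, `Good.lva_pt`, `Good.w_ptA`, `Good.eq_ptA` : for every commutative `R`-algebra
  `L` the `L`-points of the equations with `dG` invertible are the `(y, W)` with `G (y, W) = 0`,
  `G' (y, W)` invertible;
* `Good.tan_exists_unique` : `K` field, `v` a zero of `E`, `dG v ≠ 0`: for every `s` there is exactly
  one tangent vector `t` (`∑ k, (∂_k F)(v) t_k = 0` for all `F ∈ E`) with `lam t = s`.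
-/

set_option autoImplicit false
set_option linter.unusedSectionVars false

open MvPolynomial

namespace Crest.Agent.R281.Kr_488

noncomputable section

variable {n N : ℕ}

namespace KDat

section Alg

variable {R : Type*} [CommRing R] {L : Type*} [CommRing L] [Algebra R L]

/-- the value at an `L`-point `(y, W)` -/
def evA (y : Fin (n + 1) → L) (W : L) : Polynomial (MvPolynomial (Fin (n + 1)) R) →+* L :=
  Polynomial.eval₂RingHom (MvPolynomial.aeval (R := R) y).toRingHom W

/-- the value of a linear form at an `L`-point -/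
def lva (a : Fin (N + 1) → R) (x : Fin (N + 1) → L) : L := ∑ k, algebraMap R L (a k) * x k

theorem aeval_lin (a : Fin (N + 1) → R) (x : Fin (N + 1) → L) :
    MvPolynomial.aeval x (lin a) = lva a x := by
  simp [lin, lva]

theorem evA_C (y : Fin (n + 1) → L) (W : L) (p : MvPolynomial (Fin (n + 1)) R) :
    evA y W (Polynomial.C p) = MvPolynomial.aeval y p := by
  simp [evA]

theorem evA_X (y : Fin (n + 1) → L) (W : L) :
    evA (R := R) y W Polynomial.X = W := by
  simp [evA]

theorem aeval_sub (κ : KDat n N R) (p : Polynomial (MvPolynomial (Fin (n + 1)) R))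
    (x : Fin (N + 1) → L) :
    MvPolynomial.aeval x (κ.sub p) = evA (fun j => lva (κ.lam j) x) (lva κ.w x) p := by
  have h : ((MvPolynomial.aeval (R := R) x).toRingHom).comp κ.sub =
      evA (fun j => lva (κ.lam j) x) (lva κ.w x) := by
    refine Polynomial.ringHom_ext' ?_ ?_
    · refine MvPolynomial.ringHom_ext ?_ ?_
      · intro r
        simp [sub, evA, subY]
      · intro j
        simp [sub, evA, subY, aeval_lin]
    · simp [sub, evA, aeval_lin]
  exact congrArg (fun f => f p) h

theorem evA_aeval (y : Fin (n + 1) → L) (W : L) (g : Fin (N + 1) →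
    Polynomial (MvPolynomial (Fin (n + 1)) R)) (F : MvPolynomial (Fin (N + 1)) R) :
    evA y W (MvPolynomial.aeval g F) = MvPolynomial.aeval (fun k => evA y W (g k)) F := by
  have h : (evA y W).comp (MvPolynomial.aeval (R := R) g).toRingHom =
      (MvPolynomial.aeval (R := R) (fun k => evA y W (g k))).toRingHom := by
    refine MvPolynomial.ringHom_ext ?_ ?_
    · intro r
      simp [evA_C]
    · intro j
      simp
  exact congrArg (fun f => f F) h

theorem aeval_homog {F : MvPolynomial (Fin (N + 1)) R} {d : ℕ} (hF : F.IsHomogeneous d)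
    (g : Fin (N + 1) → L) (s : L) :
    MvPolynomial.aeval (fun k => g k * s) F = s ^ d * MvPolynomial.aeval g F := by
  rw [MvPolynomial.aeval_def, MvPolynomial.aeval_def, MvPolynomial.eval₂_eq,
    MvPolynomial.eval₂_eq, Finset.mul_sum]
  refine Finset.sum_congr rfl fun α hα => ?_
  have h1 : ∏ i ∈ α.support, (g i * s) ^ α i = (∏ i ∈ α.support, g i ^ α i) * s ^ d := by
    have h2 : α.degree = d := by
      rw [Finsupp.degree_eq_weight_one]
      exact hF (MvPolynomial.mem_support_iff.1 hα)
    simp only [mul_pow]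
    rw [Finset.prod_mul_distrib, Finset.prod_pow_eq_pow_sum]
    rw [← h2]
    rfl
  rw [h1]
  ring

variable {κ : KDat n N R} {E : Set (MvPolynomial (Fin (N + 1)) R)}

theorem lva_mul_right (a : Fin (N + 1) → R) (x : Fin (N + 1) → L) (c : L) :
    lva a (fun k => x k * c) = lva a x * c := by
  unfold lva
  rw [Finset.sum_mul]
  exact Finset.sum_congr rfl fun k _ => by ring

theorem Good.lam_evA (h : κ.Good E) (y : Fin (n + 1) → L) (W : L) (j : Fin (n + 1)) :
    lva (κ.lam j) (fun k => evA y W (κ.Nm k)) = y j * evA y W (Polynomial.derivative κ.G) := by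
  have h1 := congrArg (evA (L := L) y W) (h.lamN j)
  rw [map_sum, map_mul] at h1
  simp only [map_mul, evA_C, MvPolynomial.aeval_C, MvPolynomial.aeval_X] at h1
  exact h1

theorem Good.w_evA (h : κ.Good E) (y : Fin (n + 1) → L) (W : L) :
    lva κ.w (fun k => evA y W (κ.Nm k)) =
      W * evA y W (Polynomial.derivative κ.G) - κ.D * evA y W κ.G := by
  have h1 := congrArg (evA (L := L) y W) h.wN
  rw [map_sum, map_sub, map_mul, map_mul, map_natCast] at h1
  simp only [map_mul, evA_C, MvPolynomial.aeval_C, evA_X] at h1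
  exact h1

/-- **the points `Nm (y, W) / G' (y, W)`** -/
theorem Good.aeval_pt (h : κ.Good E) (hE : ∀ F ∈ E, ∃ d, F.IsHomogeneous d)
    {y : Fin (n + 1) → L} {W : L} (hG : evA y W κ.G = 0) (u : L) :
    ∀ F ∈ E, MvPolynomial.aeval (fun k => evA y W (κ.Nm k) * u) F = 0 := by
  intro F hF
  obtain ⟨d, hFd⟩ := hE F hF
  obtain ⟨Q, hQ⟩ := h.dvd F hF
  rw [aeval_homog hFd, ← evA_aeval, hQ, map_mul, hG, zero_mul, mul_zero]

theorem Good.lva_pt (h : κ.Good E) {y : Fin (n + 1) → L} {W u : L}
    (hu : evA y W (Polynomial.derivative κ.G) * u = 1) (j : Fin (n + 1)) :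
    lva (κ.lam j) (fun k => evA y W (κ.Nm k) * u) = y j := by
  rw [lva_mul_right, h.lam_evA, mul_assoc, hu, mul_one]

theorem Good.w_ptA (h : κ.Good E) {y : Fin (n + 1) → L} {W u : L} (hG : evA y W κ.G = 0)
    (hu : evA y W (Polynomial.derivative κ.G) * u = 1) :
    lva κ.w (fun k => evA y W (κ.Nm k) * u) = W := by
  rw [lva_mul_right, h.w_evA, hG, mul_zero, sub_zero, mul_assoc, hu, mul_one]

/-- **every point of the equations with `dG` invertible is of this form** -/
theorem Good.eq_ptA (h : κ.Good E) {x : Fin (N + 1) → L}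
    (hx : ∀ F ∈ E, MvPolynomial.aeval x F = 0) {u : L}
    (hu : MvPolynomial.aeval x κ.dG * u = 1) :
    evA (fun j => lva (κ.lam j) x) (lva κ.w x) κ.G = 0 ∧
      ∀ k, x k = evA (fun j => lva (κ.lam j) x) (lva κ.w x) (κ.Nm k) * u := by
  constructor
  · rw [← aeval_sub]
    exact hx _ h.memG
  · intro k
    have h1 := hx _ (h.memN k)
    rw [_root_.map_sub, map_mul, MvPolynomial.aeval_X, aeval_sub] at h1
    rw [← sub_eq_zero.1 h1, mul_assoc, hu, mul_one]

end Alg

section Tan

variable {K : Type*} [Field K]

/-- the differential of a polynomial -/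
def dEv (p : MvPolynomial (Fin (N + 1)) K) (v t : Fin (N + 1) → K) : K :=
  ∑ k, MvPolynomial.eval v (MvPolynomial.pderiv k p) * t k

open TrivSqZeroExt in
/-- the value at a point over the dual numbers -/
theorem aeval_dual (p : MvPolynomial (Fin (N + 1)) K) (v t : Fin (N + 1) → K) :
    MvPolynomial.aeval (fun k => (inl (v k) + inr (t k) : TrivSqZeroExt K K)) p =
      inl (MvPolynomial.eval v p) + inr (dEv p v t) := by
  induction p using MvPolynomial.induction_on with
  | C c =>
    rw [MvPolynomial.aeval_C, MvPolynomial.eval_C]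
    have h1 : dEv (MvPolynomial.C c) v t = 0 := by simp [dEv]
    rw [h1, inr_zero, add_zero]
    rfl
  | add p q hp hq =>
    rw [map_add, hp, hq, map_add]
    have h1 : dEv (p + q) v t = dEv p v t + dEv q v t := by
      simp only [dEv, map_add, add_mul, Finset.sum_add_distrib]
    rw [h1, inl_add, inr_add]
    abel
  | mul_X p k hp =>
    rw [map_mul, hp, MvPolynomial.aeval_X, map_mul, MvPolynomial.eval_X]
    have h1 : dEv (p * MvPolynomial.X k) v t = MvPolynomial.eval v p * t k + v k * dEv p v t := by
      unfold dEv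
      have h2 : ∀ l, MvPolynomial.eval v (MvPolynomial.pderiv l (p * MvPolynomial.X k)) * t l =
          (if l = k then MvPolynomial.eval v p * t k else 0) +
            v k * (MvPolynomial.eval v (MvPolynomial.pderiv l p) * t l) := by
        intro l
        rw [Derivation.leibniz, map_add, smul_eq_mul, smul_eq_mul, map_mul, map_mul,
          MvPolynomial.eval_X]
        split_ifs with hl
        · subst hl
          rw [MvPolynomial.pderiv_X_self, map_one]
          ring
        · rw [MvPolynomial.pderiv_X_of_ne (Ne.symm hl), map_zero]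
          ring
      rw [Finset.sum_congr rfl fun l _ => h2 l, Finset.sum_add_distrib, Finset.sum_ite_eq',
        if_pos (Finset.mem_univ k), Finset.mul_sum]
    rw [h1]
    ext <;> simp [add_comm, mul_comm]

variable {κ : KDat n N K} {E : Set (MvPolynomial (Fin (N + 1)) K)}

open TrivSqZeroExt in
theorem lva_dual (a v t : Fin (N + 1) → K) :
    lva a (fun k => (inl (v k) + inr (t k) : TrivSqZeroExt K K)) =
      inl (lv a v) + inr (lv a t) := by
  unfold lva lv
  ext
  · simp [TrivSqZeroExt.fst_sum, TrivSqZeroExt.algebraMap_eq_inl]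
  · simp [TrivSqZeroExt.snd_sum, TrivSqZeroExt.algebraMap_eq_inl]

open TrivSqZeroExt in
theorem evA_dual_add (y : Fin (n + 1) → TrivSqZeroExt K K) (W : TrivSqZeroExt K K) (b : K)
    (P : Polynomial (MvPolynomial (Fin (n + 1)) K)) :
    evA y (W + inr b) P = evA y W P + evA y W (Polynomial.derivative P) * inr b := by
  have h1 : ∀ c : TrivSqZeroExt K K, evA y c P =
      (P.map (MvPolynomial.aeval (R := K) y).toRingHom).eval c := fun c => by
    rw [Polynomial.eval_map]
    rfl
  have h2 : evA y W (Polynomial.derivative P) =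
      (Polynomial.derivative (P.map (MvPolynomial.aeval (R := K) y).toRingHom)).eval W := by
    rw [Polynomial.derivative_map, Polynomial.eval_map]
    rfl
  rw [h1, h1, h2]
  exact Polynomial.eval_add_of_sq_eq_zero _ _ _ (by rw [sq]; exact inr_mul_inr K b b)

open TrivSqZeroExt in
/-- values at constant points -/
theorem evA_inl (y : Fin (n + 1) → K) (W : K) (P : Polynomial (MvPolynomial (Fin (n + 1)) K)) :
    evA (fun j => (inl (y j) : TrivSqZeroExt K K)) (inl W) P = inl (ev y W P) := by
  have h : evA (R := K) (fun j => (inl (y j) : TrivSqZeroExt K K)) (inl W) =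
      (inlHom K K).comp (ev y W) := by
    refine Polynomial.ringHom_ext' ?_ ?_
    · refine MvPolynomial.ringHom_ext ?_ ?_
      · intro r
        simp [evA, ev, TrivSqZeroExt.algebraMap_eq_inl]
      · intro j
        simp [evA, ev]
    · simp [evA, ev]
  exact congrArg (fun f => f P) h

open TrivSqZeroExt in
/-- the first component of a value -/
theorem fst_evA (y : Fin (n + 1) → TrivSqZeroExt K K) (W : TrivSqZeroExt K K)
    (P : Polynomial (MvPolynomial (Fin (n + 1)) K)) :
    (evA y W P).fst = ev (fun j => (y j).fst) W.fst P := by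
  have h : (fstHom K K K).toRingHom.comp (evA (R := K) y W) =
      ev (fun j => (y j).fst) W.fst := by
    refine Polynomial.ringHom_ext' ?_ ?_
    · refine MvPolynomial.ringHom_ext ?_ ?_
      · intro r
        simp [evA, ev, TrivSqZeroExt.algebraMap_eq_inl]
      · intro j
        simp [evA, ev]
    · simp [evA, ev]
  exact congrArg (fun f => f P) h

open TrivSqZeroExt in
/-- **the tangent space projects bijectively** -/
theorem Good.tan_exists_unique (h : κ.Good E) (hE : ∀ F ∈ E, ∃ d, F.IsHomogeneous d)
    {v : Fin (N + 1) → K} (hv : ∀ F ∈ E, MvPolynomial.eval v F = 0)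
    (hd : MvPolynomial.eval v κ.dG ≠ 0) (s : Fin (n + 1) → K) :
    ∃! t : Fin (N + 1) → K, (∀ F ∈ E, dEv F v t = 0) ∧ ∀ j, lv (κ.lam j) t = s j := by
  set y0 := κ.lamv v with hy0
  set W0 := lv κ.w v with hW0
  have hd' : ev y0 W0 (Polynomial.derivative κ.G) ≠ 0 := by
    rw [← eval_sub]
    exact hd
  have hG0 : ev y0 W0 κ.G = 0 := by
    rw [hy0, hW0, ← eval_sub]
    exact hv _ h.memG
  have hN0 : ∀ k, v k * ev y0 W0 (Polynomial.derivative κ.G) = ev y0 W0 (κ.Nm k) := by
    intro k
    have h1 := hv _ (h.memN k)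
    rw [_root_.map_sub, map_mul, MvPolynomial.eval_X, dG, eval_sub, eval_sub] at h1
    exact sub_eq_zero.1 h1
  -- a unit of the dual numbers
  have hunit : ∀ a : TrivSqZeroExt K K, a.fst ≠ 0 → ∃ u, a * u = 1 := by
    intro a ha
    exact ⟨a⁻¹, TrivSqZeroExt.mul_inv_cancel ha⟩
  refine existsUnique_of_exists_of_unique ?_ ?_
  · -- existence
    set y : Fin (n + 1) → TrivSqZeroExt K K := fun j => inl (y0 j) + inr (s j) with hy
    have hyf : (fun j => (y j).fst) = y0 := by
      funext j
      simp [hy]
    set c := evA y (inl W0) κ.G with hc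
    have hcf : c.fst = 0 := by
      rw [hc, fst_evA, hyf]
      simpa using hG0
    set b := -c.snd * (ev y0 W0 (Polynomial.derivative κ.G))⁻¹ with hb
    have hG : evA y (inl W0 + inr b) κ.G = 0 := by
      rw [evA_dual_add, ← hc]
      have h1 : (evA y (inl W0) (Polynomial.derivative κ.G)).fst =
          ev y0 W0 (Polynomial.derivative κ.G) := by
        rw [fst_evA, hyf]
        simp
      ext
      · rw [fst_add, fst_mul, fst_inr, mul_zero, add_zero, hcf]
        simp
      · rw [snd_add, snd_mul, fst_inr, snd_inr, h1, hb]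
        simp only [smul_eq_mul, MulOpposite.op_zero, zero_smul, add_zero, snd_zero]
        field_simp
        simp
    have hdf : (evA y (inl W0 + inr b) (Polynomial.derivative κ.G)).fst ≠ 0 := by
      rw [fst_evA, hyf]
      simpa using hd'
    obtain ⟨u, hu⟩ := hunit _ hdf
    set x : Fin (N + 1) → TrivSqZeroExt K K := fun k => evA y (inl W0 + inr b) (κ.Nm k) * u with hx
    have hxf : ∀ k, (x k).fst = v k := by
      intro k
      have h1 := congrArg TrivSqZeroExt.fst hu
      rw [fst_mul, fst_evA, hyf, fst_one] at h1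
      have h2 : (inl W0 + inr b : TrivSqZeroExt K K).fst = W0 := by simp
      rw [h2] at h1
      show (evA y (inl W0 + inr b) (κ.Nm k) * u).fst = v k
      rw [fst_mul, fst_evA, hyf, h2, ← hN0 k, mul_assoc, h1, mul_one]
    have hxe : x = fun k => (inl (v k) + inr ((x k).snd) : TrivSqZeroExt K K) := by
      funext k
      ext
      · simp [hxf]
      · simp
    refine ⟨fun k => (x k).snd, fun F hF => ?_, fun j => ?_⟩
    · have h1 := h.aeval_pt hE hG u F hF
      change MvPolynomial.aeval x F = 0 at h1
      rw [hxe, aeval_dual] at h1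
      have h2 := congrArg TrivSqZeroExt.snd h1
      simpa using h2
    · have h1 := h.lva_pt hu j
      change lva (κ.lam j) x = y j at h1
      rw [hxe, lva_dual] at h1
      have h2 := congrArg TrivSqZeroExt.snd h1
      simpa [hy] using h2
  · -- uniqueness
    rintro t1 t2 ⟨h1, h1'⟩ ⟨h2, h2'⟩
    have hlin : ∀ F ∈ E, dEv F v (fun k => t1 k - t2 k) = 0 := by
      intro F hF
      have h3 : dEv F v (fun k => t1 k - t2 k) = dEv F v t1 - dEv F v t2 := by
        unfold dEv
        rw [← Finset.sum_sub_distrib]
        exact Finset.sum_congr rfl fun k _ => by ring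
      rw [h3, h1 F hF, h2 F hF, sub_zero]
    have hlam : ∀ j, lv (κ.lam j) (fun k => t1 k - t2 k) = 0 := by
      intro j
      have h3 : lv (κ.lam j) (fun k => t1 k - t2 k) = lv (κ.lam j) t1 - lv (κ.lam j) t2 := by
        unfold lv
        rw [← Finset.sum_sub_distrib]
        exact Finset.sum_congr rfl fun k _ => by ring
      rw [h3, h1', h2', sub_self]
    set t : Fin (N + 1) → K := fun k => t1 k - t2 k with ht
    set x : Fin (N + 1) → TrivSqZeroExt K K := fun k => inl (v k) + inr (t k) with hx
    have hxE : ∀ F ∈ E, MvPolynomial.aeval x F = 0 := by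
      intro F hF
      rw [hx, aeval_dual, hv F hF, hlin F hF]
      simp
    have hly : (fun j => lva (κ.lam j) x) = fun j => inl (y0 j) := by
      funext j
      rw [hx, lva_dual, hlam]
      simp [hy0]
      rfl
    have hlw : lva κ.w x = inl W0 + inr (lv κ.w t) := by
      rw [hx, lva_dual]
    -- `w t = 0`
    have hwt : lv κ.w t = 0 := by
      have h3 := hxE _ h.memG
      rw [aeval_sub, hly, hlw, evA_dual_add, evA_inl, evA_inl, hG0] at h3
      have h4 := congrArg TrivSqZeroExt.snd h3
      have h5 : lv κ.w t = 0 ∨ ev y0 W0 (Polynomial.derivative κ.G) = 0 := by simpa using h4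
      exact h5.resolve_right hd'
    have hfin : ∀ k, t k = 0 := by
      intro k
      have h3 := hxE _ (h.memN k)
      rw [_root_.map_sub, map_mul, MvPolynomial.aeval_X, dG, aeval_sub, aeval_sub, hly, hlw, hwt,
        inr_zero, add_zero, evA_inl, evA_inl] at h3
      have h4 := congrArg TrivSqZeroExt.snd h3
      have h5 : t k * ev y0 W0 (Polynomial.derivative κ.G) = 0 := by
        simpa [hx, mul_comm] using h4
      exact (mul_eq_zero.1 h5).resolve_right hd'
    funext k
    exact sub_eq_zero.1 (hfin k)

end Tan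

end KDat

end

end Crest.Agent.R281.Kr_488
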