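import Crest.Agent.R281.HKMovC_478
import Crest.Agent.R281.HKMovE_478

/-!
# R281 (S0424), LAP-AN (helper508), file 1: the inverse power series

* `Hn Z` : coefficients of `(1 + ∑_{j≥1} s^j Z_j)⁻¹`; `Hn_similar`, `Hn_conv`
* `conv_sum` : Cauchy products of nonnegative sequences
* `inv_sum`  : `(1 + Z_s) * H_s = 1` for the sums
-/

set_option autoImplicit false
set_option linter.unusedSectionVars false

open Set Metric Finset
open scoped ContDiff Matrix

namespace Crest.Agent.R281.LAn_508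

noncomputable section

section alg

variable {m : Type*} [Fintype m] [DecidableEq m]

/-- coefficients of `(1 + ∑_{j ≥ 1} s^j Z_j)⁻¹` -/
def Hn (Z : ℕ → Matrix m m ℂ) : ℕ → Matrix m m ℂ
  | 0 => 1
  | (j + 1) => -∑ i : Fin (j + 1), Z (i.1 + 1) * Hn Z (j - i.1)
termination_by j => j
decreasing_by omega

theorem Hn_zero (Z : ℕ → Matrix m m ℂ) : Hn Z 0 = 1 := by rw [Hn]

theorem Hn_succ (Z : ℕ → Matrix m m ℂ) (j : ℕ) :
    Hn Z (j + 1) = -∑ i ∈ range (j + 1), Z (i + 1) * Hn Z (j - i) := by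
  rw [Hn, Finset.sum_range]

theorem Hn_congr {Z Z' : ℕ → Matrix m m ℂ} (h : ∀ j, 1 ≤ j → Z j = Z' j) :
    ∀ j, Hn Z j = Hn Z' j := by
  intro j
  induction j using Nat.strong_induction_on with
  | _ j ih =>
    rcases j with _ | j
    · rw [Hn_zero, Hn_zero]
    · rw [Hn_succ, Hn_succ]
      congr 1
      refine Finset.sum_congr rfl fun i hi => ?_
      rw [h (i + 1) (by omega), ih (j - i) (by have := Finset.mem_range.1 hi; omega)]

theorem Hn_similar {Z : ℕ → Matrix m m ℂ} {P : Matrix m m ℂ} (hP : P.det ≠ 0) :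
    ∀ j, Hn (fun k => P⁻¹ * Z k * P) j = P⁻¹ * Hn Z j * P := by
  have hu : IsUnit P.det := isUnit_iff_ne_zero.2 hP
  intro j
  induction j using Nat.strong_induction_on with
  | _ j ih =>
    rcases j with _ | j
    · rw [Hn_zero, Hn_zero, Matrix.mul_one, Matrix.nonsing_inv_mul _ hu]
    · rw [Hn_succ, Hn_succ, Matrix.mul_neg, Matrix.neg_mul, Matrix.mul_sum, Matrix.sum_mul]
      congr 1
      refine Finset.sum_congr rfl fun i hi => ?_
      rw [ih (j - i) (by have := Finset.mem_range.1 hi; omega)]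
      calc _ = P⁻¹ * Z (i + 1) * (P * P⁻¹) * Hn Z (j - i) * P := by
            simp only [Matrix.mul_assoc]
        _ = _ := by rw [Matrix.mul_nonsing_inv _ hu, Matrix.mul_one]; simp only [Matrix.mul_assoc]

/-- the Cauchy product vanishes -/
theorem Hn_conv (Z : ℕ → Matrix m m ℂ) (j : ℕ) :
    Hn Z (j + 1) + ∑ i ∈ range (j + 1), Z (i + 1) * Hn Z (j - i) = 0 := by
  rw [Hn_succ, neg_add_cancel]

end alg

/-! ### Cauchy products -/

theorem conv_eq (u v : ℕ → ℝ) (r : ℝ) (J : ℕ) :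
    ∑ j ∈ range J, (∑ i ∈ range (j + 1), u (i + 1) * v (j - i)) * r ^ (j + 1) =
      ∑ i ∈ range J, (u (i + 1) * r ^ (i + 1)) * ∑ l ∈ range (J - i), v l * r ^ l := by
  have h := Finset.sum_range_diag_flip J fun i l => (u (i + 1) * r ^ (i + 1)) * (v l * r ^ l)
  simp only [Finset.mul_sum]
  rw [← h]
  refine Finset.sum_congr rfl fun j _ => ?_
  rw [Finset.sum_mul]
  refine Finset.sum_congr rfl fun i hi => ?_
  have hi' := Finset.mem_range.1 hi
  have e : r ^ (j + 1) = r ^ (i + 1) * r ^ (j - i) := by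
    rw [← pow_add]
    congr 1
    omega
  rw [e]
  ring

theorem conv_sum {u v : ℕ → ℝ} {r : ℝ} (hr : 0 ≤ r) (hu : ∀ j, 0 ≤ u j) (hv : ∀ j, 0 ≤ v j)
    (J : ℕ) :
    ∑ j ∈ range J, (∑ i ∈ range (j + 1), u (i + 1) * v (j - i)) * r ^ (j + 1) ≤
      (∑ i ∈ range J, u (i + 1) * r ^ (i + 1)) * ∑ l ∈ range J, v l * r ^ l := by
  rw [conv_eq, Finset.sum_mul]
  refine Finset.sum_le_sum fun i _ => mul_le_mul_of_nonneg_left ?_
    (mul_nonneg (hu _) (pow_nonneg hr _))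
  exact Finset.sum_le_sum_of_subset_of_nonneg (Finset.range_mono (Nat.sub_le _ _))
    fun l _ _ => mul_nonneg (hv l) (pow_nonneg hr l)

/-- **Volterra majorant** : `x_0 ≤ b_0`, `x_{j+1} ≤ b_{j+1} + ∑ u_{i+1} x_{j-i}`, `∑ u r^i ≤ 1/2` -/
theorem volt {u x b : ℕ → ℝ} {r U W : ℝ} (hr : 0 ≤ r) (hu : ∀ j, 0 ≤ u j) (hx : ∀ j, 0 ≤ x j)
    (hU : ∀ J, ∑ i ∈ range J, u (i + 1) * r ^ (i + 1) ≤ U) (hU2 : U ≤ 1 / 2)
    (h0 : x 0 ≤ b 0) (hs : ∀ j, x (j + 1) ≤ b (j + 1) + ∑ i ∈ range (j + 1), u (i + 1) * x (j - i))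
    (hW : ∀ J, ∑ j ∈ range J, b j * r ^ j ≤ W) (J : ℕ) :
    ∑ j ∈ range J, x j * r ^ j ≤ 2 * W := by
  have hW0 : 0 ≤ W := by simpa using hW 0
  have hxs : ∀ J, 0 ≤ ∑ j ∈ range J, x j * r ^ j := fun J =>
    Finset.sum_nonneg fun j _ => mul_nonneg (hx j) (pow_nonneg hr j)
  rcases J with _ | J
  · simpa using hW0
  · have h1 : ∑ j ∈ range (J + 1), x j * r ^ j ≤
        ∑ j ∈ range (J + 1), b j * r ^ j +
          ∑ j ∈ range J, (∑ i ∈ range (j + 1), u (i + 1) * x (j - i)) * r ^ (j + 1) := by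
      rw [Finset.sum_range_succ' _ J, Finset.sum_range_succ' _ J]
      have h2 : ∑ k ∈ range J, x (k + 1) * r ^ (k + 1) ≤
          ∑ k ∈ range J, b (k + 1) * r ^ (k + 1) +
            ∑ j ∈ range J, (∑ i ∈ range (j + 1), u (i + 1) * x (j - i)) * r ^ (j + 1) := by
        rw [← Finset.sum_add_distrib]
        refine Finset.sum_le_sum fun j _ => ?_
        rw [← add_mul]
        exact mul_le_mul_of_nonneg_right (hs j) (pow_nonneg hr _)
      have h3 : x 0 * r ^ 0 ≤ b 0 * r ^ 0 := mul_le_mul_of_nonneg_right h0 (pow_nonneg hr _)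
      linarith
    have h4 := conv_sum hr hu hx J
    have h5 : ∑ l ∈ range J, x l * r ^ l ≤ ∑ j ∈ range (J + 1), x j * r ^ j :=
      Finset.sum_le_sum_of_subset_of_nonneg (Finset.range_mono (Nat.le_succ _))
        fun l _ _ => mul_nonneg (hx l) (pow_nonneg hr l)
    have h6 : (∑ i ∈ range J, u (i + 1) * r ^ (i + 1)) * ∑ l ∈ range J, x l * r ^ l ≤
        1 / 2 * ∑ j ∈ range (J + 1), x j * r ^ j :=
      mul_le_mul ((hU J).trans hU2) h5 (hxs J) (by norm_num)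
    have h7 := hW (J + 1)
    linarith

/-- sequences given by a Volterra recursion exist -/
theorem exists_volt (b : ℕ → ℝ) (u : ℕ → ℝ) : ∃ x : ℕ → ℝ, x 0 = b 0 ∧
    ∀ j, x (j + 1) = b (j + 1) + ∑ i ∈ range (j + 1), u (i + 1) * x (j - i) := by
  obtain ⟨x, h0, h⟩ := HKMov_478.exists_seq (α := ℝ) (b 0)
    (fun x J a => a = b (J + 1) + ∑ i ∈ range (J + 1), u (i + 1) * x (J - i))
    (fun f f' J a h ha => by
      rw [ha]
      congr 1
      refine Finset.sum_congr rfl fun i _ => ?_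
      rw [h (J - i) (Nat.sub_le _ _)])
    (fun f J => ⟨_, rfl⟩)
  exact ⟨x, h0, h⟩

theorem volt_nonneg {b u x : ℕ → ℝ} (hb : ∀ j, 0 ≤ b j) (hu : ∀ j, 0 ≤ u j) (h0 : x 0 = b 0)
    (h : ∀ j, x (j + 1) = b (j + 1) + ∑ i ∈ range (j + 1), u (i + 1) * x (j - i)) :
    ∀ j, 0 ≤ x j := by
  intro j
  induction j using Nat.strong_induction_on with
  | _ j ih =>
    rcases j with _ | j
    · rw [h0]; exact hb 0
    · rw [h]
      refine add_nonneg (hb _) (Finset.sum_nonneg fun i hi => mul_nonneg (hu _) (ih _ ?_))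
      omega

end

end Crest.Agent.R281.LAn_508
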