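import Crest.Agent.R281.LAn1_508
import Crest.Agent.R281.HKMovD_478

/-!
# R281 (S0424), LAP-AN (helper508), file 2: the linear recursion and its bounds

For a power series of Hermitian forms `G_s = K + ∑_{j≥1} s^j Y_j` and `q_s = ∑ s^j q_j`:
the power series solution of `tr (G_s⁻¹ (q_s + ∂∂̄ ψ_s)) = c_s`.
-/

set_option autoImplicit false
set_option linter.unusedSectionVars false

open Set Metric
open scoped ContDiff Matrix ComplexConjugate ComplexOrder

namespace Crest.Agent.R281.LAn_508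

open Crest.Agent.R275.Geo Crest.Agent.R275.Core144 Crest.Agent.R275.GC293
open Crest.Agent.R273.Defs_333 Crest.Agent.R273.YauDefs_635 Crest.Agent.R273.HM_333
open Crest.Agent.R273.YauCh_635 Crest.Agent.R273.Hess_333 Crest.Agent.R273.HessB_333
open Crest.Agent.R273.Kah_333 Crest.Agent.R273.YauMax_635 Crest.Agent.R273.YauLoc_635
open Crest.Agent.R273.SchA_152 Crest.Agent.R273.SchD_152 Crest.Agent.R273.YauQ_635
open Crest.Agent.R273.Green_5 Crest.Agent.R273.GreenM_5 Crest.Agent.R273.FIb0_597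
open Crest.Agent.R273.SchG_152 Crest.Agent.R273.SchF_152 Crest.Agent.R273.SchH_152
open Crest.Agent.R273.YauSchF_635 Crest.Agent.R273.YauOpA_635
open Crest.Agent.R273.YauPf_635 hiding ch
open Crest.Agent.R273.SchJ_152
open HKMov_478

noncomputable section

variable {n : ℕ} {M : Type} [TopologicalSpace M] {A : Atl n M}

/-! ### smoothness of the coefficients -/

theorem Hn_sm {E : Type*} [NormedAddCommGroup E] [NormedSpace ℝ E] {U : Set E}
    {Z : ℕ → E → Matrix (Fin n) (Fin n) ℂ}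
    (hZ : ∀ j, 1 ≤ j → ∀ b c, ContDiffOn ℝ ∞ (fun z => Z j z b c) U) :
    ∀ j b c, ContDiffOn ℝ ∞ (fun z => Hn (fun k => Z k z) j b c) U := by
  intro j
  induction j using Nat.strong_induction_on with
  | _ j ih =>
    intro b c
    rcases j with _ | j
    · simp only [Hn_zero]
      exact contDiffOn_const
    · have e : (fun z => Hn (fun k => Z k z) (j + 1) b c) = fun z =>
          -∑ i ∈ Finset.range (j + 1), ∑ l, Z (i + 1) z b l * Hn (fun k => Z k z) (j - i) l c := by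
        funext z
        rw [Hn_succ, Matrix.neg_apply, Matrix.sum_apply]
        congr 1
      rw [e]
      refine (ContDiffOn.sum fun i hi => ContDiffOn.sum fun l _ => ?_).neg
      exact (hZ (i + 1) (by omega) b l).mul
        (ih (j - i) (by have := Finset.mem_range.1 hi; omega) l c)

/-- Hölder bounds of the inverse series -/
theorem Hn_ho {E : Type*} [NormedAddCommGroup E] {s : Set E} {al : ℝ}
    {Z : ℕ → E → Matrix (Fin n) (Fin n) ℂ} {a h : ℕ → ℝ} (ha : ∀ j, 0 ≤ a j)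
    (hh : ∀ j, 0 ≤ h j) (h0 : h 0 = 1)
    (hs : ∀ j, h (j + 1) = ∑ i ∈ Finset.range (j + 1), (2 * n * a (i + 1)) * h (j - i))
    (hZ : ∀ j, 1 ≤ j → ∀ b c, HO al (a j) s (fun z => Z j z b c)) :
    ∀ j b c, HO al (h j) s (fun z => Hn (fun k => Z k z) j b c) := by
  intro j
  induction j using Nat.strong_induction_on with
  | _ j ih =>
    intro b c
    rcases j with _ | j
    · simp only [Hn_zero, h0]
      refine ho_const ?_
      rw [Matrix.one_apply]
      split_ifs <;> simp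
    · have e : (fun z => Hn (fun k => Z k z) (j + 1) b c) = fun z =>
          -∑ i ∈ Finset.range (j + 1), ∑ l, Z (i + 1) z b l * Hn (fun k => Z k z) (j - i) l c := by
        funext z
        rw [Hn_succ, Matrix.neg_apply, Matrix.sum_apply]
        congr 1
      rw [e, hs]
      refine (ho_fsum _ fun i hi => ?_).neg
      have h1 := ho_sum (Finset.univ : Finset (Fin n)) (a := al)
        (M := 2 * a (i + 1) * h (j - i)) (s := s)
        (f := fun l z => Z (i + 1) z b l * Hn (fun k => Z k z) (j - i) l c)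
        (fun l _ => ho_mul (ha _) (hh _) (hZ (i + 1) (by omega) b l)
          (ih (j - i) (by have := Finset.mem_range.1 hi; omega) l c))
      rw [Finset.card_univ, Fintype.card_fin] at h1
      exact h1.mono (le_of_eq (by ring))

/-! ### the known part of the equation -/

/-- the part of order `J + 1` with `G_s⁻¹` differentiated -/
def Lf (K : Kah A) (Y T : ℕ → A.ι → M → Matrix (Fin n) (Fin n) ℂ) (J : ℕ) (x : M) : ℝ :=
  (∑ i ∈ Finset.range (J + 1), (Hn (Zf K Y (ch A x) x) (i + 1) *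
    Zf K T (ch A x) x (J - i)).trace).re

theorem Hn_tr (K : Kah A) {Y : ℕ → A.ι → M → Matrix (Fin n) (Fin n) ℂ}
    (hY : ∀ j, 1 ≤ j → HF A (Y j)) {i j : A.ι}
    {x : M} (hx : x ∈ (A.e i).source ∩ (A.e j).source) (k : ℕ) :
    Hn (Zf K Y i x) k = ((Jm A i j x).map conj)⁻¹ * Hn (Zf K Y j x) k *
      (Jm A i j x).map conj := by
  rw [← Hn_similar (det_Jbar hx)]
  exact Hn_congr (fun l hl => Zf_tr K (hY l hl).toTF hx) k

theorem Lf_eq (K : Kah A) {Y T : ℕ → A.ι → M → Matrix (Fin n) (Fin n) ℂ}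
    (hY : ∀ j, 1 ≤ j → HF A (Y j)) (hT : ∀ j, HF A (T j)) (J : ℕ) {i : A.ι} {x : M}
    (hx : x ∈ (A.e i).source) : Lf K Y T J x =
      (∑ l ∈ Finset.range (J + 1), (Hn (Zf K Y i x) (l + 1) * Zf K T i x (J - l)).trace).re := by
  unfold Lf
  refine congrArg Complex.re (Finset.sum_congr rfl fun l _ => ?_)
  have hx' : x ∈ (A.e (ch A x)).source ∩ (A.e i).source := ⟨mem_ch A x, hx⟩
  have hu : IsUnit ((Jm A (ch A x) i x).map conj).det := isUnit_iff_ne_zero.2 (det_Jbar hx')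
  rw [Hn_tr K hY hx', Zf, Zf, Zf_tr K (hT (J - l)).toTF hx']
  set Q := (Jm A (ch A x) i x).map conj with hQ
  have e : Q⁻¹ * Hn (Zf K Y i x) (l + 1) * Q * (Q⁻¹ * ((K.g i x)⁻¹ * T (J - l) i x) * Q) =
      Q⁻¹ * ((Hn (Zf K Y i x) (l + 1) * ((K.g i x)⁻¹ * T (J - l) i x)) * Q) := by
    calc _ = Q⁻¹ * Hn (Zf K Y i x) (l + 1) * (Q * Q⁻¹) * ((K.g i x)⁻¹ * T (J - l) i x) * Q := by
          simp only [Matrix.mul_assoc]
      _ = _ := by rw [Matrix.mul_nonsing_inv _ hu, Matrix.mul_one]; simp only [Matrix.mul_assoc]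
  rw [e, Matrix.trace_mul_comm, Matrix.mul_assoc, Matrix.mul_nonsing_inv _ hu, Matrix.mul_one]

theorem Lf_sm (K : Kah A) {Y T : ℕ → A.ι → M → Matrix (Fin n) (Fin n) ℂ}
    (hY : ∀ j, 1 ≤ j → HF A (Y j)) (hT : ∀ j, HF A (T j)) (J : ℕ) : A.Sm (Lf K Y T J) := by
  intro i
  have h1 : ContDiffOn ℝ ∞ (fun z => ∑ l ∈ Finset.range (J + 1),
      (Hn (Zf K Y i ((A.e i).symm z)) (l + 1) * Zf K T i ((A.e i).symm z) (J - l)).trace)
      (A.e i).target := by
    refine ContDiffOn.sum fun l _ => ?_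
    simp only [Matrix.trace, Matrix.diag_apply, Matrix.mul_apply]
    refine ContDiffOn.sum fun a _ => ContDiffOn.sum fun b _ => ContDiffOn.mul ?_ ?_
    · have h3 := Hn_sm (Z := fun k z => Zf K Y i ((A.e i).symm z) k)
        (fun k hk b c => Zf_sm K (hY k hk).toTF i b c) (l + 1) a b
      exact h3
    · exact Zf_sm K (hT (J - l)).toTF i b a
  refine (Complex.reCLM.contDiff.comp_contDiffOn h1).congr fun z hz => ?_
  have h4 := Lf_eq K hY hT J ((A.e i).map_target hz)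
  rw [h4]
  simp only [Function.comp_apply, Complex.reCLM_apply]

theorem Lf_congr (K : Kah A) (Y q : ℕ → A.ι → M → Matrix (Fin n) (Fin n) ℂ) {ψ ψ' : ℕ → M → ℝ}
    {J : ℕ} (h : ∀ j ≤ J, ψ j = ψ' j) : Lf K Y (Yf A q ψ) J = Lf K Y (Yf A q ψ') J := by
  funext x
  unfold Lf
  refine congrArg Complex.re (Finset.sum_congr rfl fun l _ => ?_)
  have e : Zf K (Yf A q ψ) (ch A x) x (J - l) = Zf K (Yf A q ψ') (ch A x) x (J - l) := by
    simp only [Zf, Yf, h (J - l) (Nat.sub_le _ _)]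
  rw [e]

/-- **the linear recursion** -/
theorem exists_lrec [T2Space M] [CompactSpace M] [ConnectedSpace M] [Finite A.ι] (P : Part A)
    (K : Kah A) (x0 : M) {Y q : ℕ → A.ι → M → Matrix (Fin n) (Fin n) ℂ}
    (hY : ∀ j, 1 ≤ j → HF A (Y j)) (hq : ∀ j, HF A (q j)) :
    ∃ (ψ : ℕ → M → ℝ) (c : ℕ → ℝ), (∀ j, A.Sm (ψ j)) ∧ (∀ j, ψ j x0 = 0) ∧
      (∀ x, lapK K (ψ 0) x = c 0 - (trK K (q 0) x).re) ∧
      ∀ J x, lapK K (ψ (J + 1)) x =
        c (J + 1) - (Lf K Y (Yf A q ψ) J x + (trK K (q (J + 1)) x).re) := by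
  have hsolve : ∀ {R : M → ℝ}, A.Sm R → ∃ a : {v : M → ℝ // A.Sm v ∧ v x0 = 0} × ℝ,
      ∀ x, lapK K a.1.1 x = a.2 - R x := by
    intro R hR
    have hR' : A.Sm (fun x => -R x) := fun i => (hR i).neg
    obtain ⟨v, μ, hv, hlap⟩ := Crest.Agent.R273.CLin_933.lin_kah K P hR'
    refine ⟨⟨⟨fun y => v y - v x0, fun i => (hv i).sub contDiffOn_const, sub_self _⟩, -μ⟩,
      fun x => ?_⟩
    simp only
    rw [lapK_sub_const K hv, hlap x]
    ring
  obtain ⟨a0, ha0⟩ := hsolve (trK_sm K (hq 0))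
  obtain ⟨f, hf0, hf⟩ := exists_seq
    (α := {v : M → ℝ // A.Sm v ∧ v x0 = 0} × ℝ) a0
    (fun f J a => ∀ x, lapK K a.1.1 x = a.2 - (Lf K Y (Yf A q (fun j => (f j).1.1)) J x +
      (trK K (q (J + 1)) x).re))
    (fun f f' J a h ha x => by
      have e := Lf_congr K Y q (J := J) (ψ := fun j => (f j).1.1) (ψ' := fun j => (f' j).1.1)
        (fun j hj => by simp only [h j hj])
      rw [ha x, e])
    (fun f J => hsolve (R := fun x => Lf K Y (Yf A q (fun j => (f j).1.1)) J x +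
        (trK K (q (J + 1)) x).re) fun i =>
      (Lf_sm K hY (fun j => (hq j).add (hf_hsf (f j).1.2.1)) J i).add (trK_sm K (hq (J + 1)) i))
  refine ⟨fun j => (f j).1.1, fun j => (f j).2, fun j => (f j).1.2.1,
    fun j => (f j).1.2.2, fun x => ?_, fun J x => hf J x⟩
  simp only [hf0]
  exact ha0 x

/-! ### bounds -/

/-- the bounded power series solution of the linear equation -/
structure LnS (K : Kah A) (Bc : Cb A) (Y q : ℕ → A.ι → M → Matrix (Fin n) (Fin n) ℂ) (x0 : M)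
    (r W : ℝ) (w : ℕ → ℝ) where
  ψ : ℕ → M → ℝ
  c : ℕ → ℝ
  b : ℕ → ℝ
  sm : ∀ j, A.Sm (ψ j)
  nrm : ∀ j, ψ j x0 = 0
  b_nn : ∀ j, 0 ≤ b j
  b_sum : ∀ J, ∑ j ∈ Finset.range J, b j * r ^ j ≤ W
  w_le : ∀ j, w j ≤ b j
  n2 : ∀ j, Bc.N2 (1 / 2) (b j) (ψ j)
  hc : ∀ j, |c j| ≤ b j
  hoT : ∀ j, ∀ k b' c', HO (1 / 2) (b j) (closedBall (Bc.z k) (Bc.r k / 2))
    (fun z => Yf A q ψ j (Bc.i k) ((A.e (Bc.i k)).symm z) b' c')
  hoW : ∀ j, ∀ k b' c', HO (1 / 2) (b j) (closedBall (Bc.z k) (Bc.r k / 2))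
    (fun z => Zf K (Yf A q ψ) (Bc.i k) ((A.e (Bc.i k)).symm z) j b' c')
  eqn0 : ∀ i, ∀ x ∈ (A.e i).source, ((Zf K (Yf A q ψ) i x 0).trace).re = c 0
  eqn : ∀ J, ∀ i, ∀ x ∈ (A.e i).source, ((Zf K (Yf A q ψ) i x (J + 1)).trace).re +
    (∑ l ∈ Finset.range (J + 1), (Hn (Zf K Y i x) (l + 1) *
      Zf K (Yf A q ψ) i x (J - l)).trace).re = c (J + 1)

end

end Crest.Agent.R281.LAn_508
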