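import Crest.Agent.R281.LAn2_508

/-!
# R281 (S0424), LAP-AN (helper508), file 3: existence with bounds

`ln_bound` : uniform `η0`, `C`; for every family `Y` with `∑ a_j r^j ≤ η0` and every `q` with
`∑ w_j r^j ≤ W` there is `LnS K Bc Y q x0 r (C * W) w`.
-/

set_option autoImplicit false
set_option linter.unusedSectionVars false

open Set Metric
open scoped ContDiff Matrix ComplexConjugate ComplexOrder

namespace Crest.Agent.R281.LAn_508

open Crest.Agent.R275.Geo Crest.Agent.R275.Core144 Crest.Agent.R275.GC293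
open Crest.Agent.R273.Defs_333 Crest.Agent.R273.YauDefs_635 Crest.Agent.R273.HM_333
open Crest.Agent.R273.YauCh_635 Crest.Agent.R273.Hess_333 Crest.Agent.R273.HessB_333
open Crest.Agent.R273.Kah_333 Crest.Agent.R273.YauMax_635 Crest.Agent.R273.YauLoc_635
open Crest.Agent.R273.SchA_152 Crest.Agent.R273.SchD_152 Crest.Agent.R273.YauQ_635
open Crest.Agent.R273.Green_5 Crest.Agent.R273.GreenM_5 Crest.Agent.R273.FIb0_597
open Crest.Agent.R273.SchG_152 Crest.Agent.R273.SchF_152 Crest.Agent.R273.SchH_152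
open Crest.Agent.R273.YauSchF_635 Crest.Agent.R273.YauOpA_635
open Crest.Agent.R273.YauPf_635 hiding ch
open Crest.Agent.R273.SchJ_152
open HKMov_478

noncomputable section

variable {n : ℕ} {M : Type} [TopologicalSpace M] {A : Atl n M}

/-- Hölder bound of the trace of a product -/
theorem ho_tr_mul {E : Type*} [NormedAddCommGroup E] {s : Set E} {al p q : ℝ} (hp : 0 ≤ p)
    (hq : 0 ≤ q) {U V : E → Matrix (Fin n) (Fin n) ℂ}
    (hU : ∀ b c, HO al p s (fun z => U z b c)) (hV : ∀ b c, HO al q s (fun z => V z b c)) :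
    HO al (2 * n ^ 2 * p * q) s (fun z => (U z * V z).trace) := by
  simp only [Matrix.trace, Matrix.diag_apply, Matrix.mul_apply]
  have h1 : ∀ b : Fin n, HO al (n * (2 * p * q)) s (fun z => ∑ c, U z b c * V z c b) := by
    intro b
    have h := ho_sum (Finset.univ : Finset (Fin n)) (a := al) (M := 2 * p * q) (s := s)
      (f := fun c z => U z b c * V z c b) (fun c _ => ho_mul hp hq (hU b c) (hV c b))
    rwa [Finset.card_univ, Fintype.card_fin] at h
  have h2 := ho_sum (Finset.univ : Finset (Fin n)) (a := al) (M := n * (2 * p * q)) (s := s)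
    (f := fun b z => ∑ c, U z b c * V z c b) (fun b _ => h1 b)
  rw [Finset.card_univ, Fintype.card_fin] at h2
  exact h2.mono (le_of_eq (by ring))

/-- **existence with bounds, uniform smallness** -/
theorem ln_bound [T2Space M] [CompactSpace M] [ConnectedSpace M] [Finite A.ι] (P : Part A)
    (K : Kah A) (Bc : Cb A) (x0 : M) : ∃ η0 C : ℝ, 0 < η0 ∧ 0 < C ∧
    ∀ (r : ℝ) (a w : ℕ → ℝ) (W : ℝ) (Y q : ℕ → A.ι → M → Matrix (Fin n) (Fin n) ℂ), 0 < r →
      (∀ j, 0 ≤ a j) → (∀ J, ∑ j ∈ Finset.range J, a (j + 1) * r ^ (j + 1) ≤ η0) →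
      (∀ j, 1 ≤ j → HF A (Y j)) →
      (∀ j, 1 ≤ j → ∀ k b c, HO (1 / 2) (a j) (closedBall (Bc.z k) (Bc.r k / 2))
        (fun z => Zf K Y (Bc.i k) ((A.e (Bc.i k)).symm z) j b c)) →
      (∀ j, 0 ≤ w j) → (∀ J, ∑ j ∈ Finset.range J, w j * r ^ j ≤ W) →
      (∀ j, HF A (q j)) →
      (∀ j k b c, HO (1 / 2) (w j) (closedBall (Bc.z k) (Bc.r k / 2))
        (fun z => q j (Bc.i k) ((A.e (Bc.i k)).symm z) b c)) →
      Nonempty (LnS K Bc Y q x0 r (C * W) w) := by
  obtain ⟨V, hV0, hV⟩ := hf_inv_bound K Bc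
  obtain ⟨CS, hCS, hlin⟩ := lin_boundK P K Bc
  set CT : ℝ := max CS 1 with hCT
  have hCT1 : 1 ≤ CT := le_max_right _ _
  have hCT0 : 0 ≤ CT := by linarith
  set c1 : ℝ := n * (2 * V) + 1 with hc1
  have hn0 : (0 : ℝ) ≤ n := Nat.cast_nonneg n
  have hc11 : 1 ≤ c1 := by
    rw [hc1]
    have : (0 : ℝ) ≤ n * (2 * V) := by positivity
    linarith
  have hc10 : 0 ≤ c1 := by linarith
  set e1 : ℝ := 1 + CT * (n * c1) with he1
  have he10 : 0 ≤ e1 := by positivity
  set N1 : ℝ := n + 1 with hN1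
  have hN1p : 1 ≤ N1 := by rw [hN1]; linarith
  have hnN : (n : ℝ) ≤ N1 := by rw [hN1]; linarith
  set D0 : ℝ := 16 * N1 ^ 3 * c1 * CT with hD0
  have hD0p : 0 < D0 := by positivity
  refine ⟨1 / D0, c1 * (2 * e1), by positivity, by positivity, ?_⟩
  intro r a w W Y q hr ha hsum hY hZ hw hW hq hqw
  -- the majorant of the inverse
  obtain ⟨h, hh0, hhs⟩ := exists_volt (fun j => if j = 0 then (1 : ℝ) else 0)
    (fun j => 2 * n * a j)
  have hun : ∀ j, 0 ≤ 2 * n * a j := fun j => by have := ha j; positivity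
  have hhn : ∀ j, 0 ≤ h j := volt_nonneg (b := fun j => if j = 0 then (1 : ℝ) else 0)
    (fun j => by split_ifs <;> norm_num) hun hh0 hhs
  have hh0' : h 0 = 1 := by rw [hh0]; simp
  have hhs' : ∀ j, h (j + 1) = ∑ i ∈ Finset.range (j + 1), (2 * n * a (i + 1)) * h (j - i) := by
    intro j
    rw [hhs j, if_neg (by omega), zero_add]
  have hU1 : ∀ J, ∑ i ∈ Finset.range J, (2 * n * a (i + 1)) * r ^ (i + 1) ≤
      2 * n * (1 / D0) := by
    intro J
    have e : ∑ i ∈ Finset.range J, (2 * n * a (i + 1)) * r ^ (i + 1) =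
        2 * n * ∑ i ∈ Finset.range J, a (i + 1) * r ^ (i + 1) := by
      rw [Finset.mul_sum]
      exact Finset.sum_congr rfl fun i _ => by ring
    rw [e]
    exact mul_le_mul_of_nonneg_left (hsum J) (by positivity)
  have hc1C : 1 ≤ c1 * CT := by nlinarith
  have hN3 : N1 ≤ N1 ^ 3 := by
    have : N1 ^ 3 = N1 * N1 ^ 2 := by ring
    rw [this]
    have : 1 ≤ N1 ^ 2 := one_le_pow₀ hN1p
    nlinarith
  have hbig : 16 * N1 ≤ D0 := by
    rw [hD0]
    have h1 : 16 * N1 ^ 3 * c1 * CT = 16 * N1 ^ 3 * (c1 * CT) := by ring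
    rw [h1]
    have h2 : 0 ≤ N1 ^ 3 := by positivity
    nlinarith
  have hU2 : 2 * n * (1 / D0) ≤ 1 / 2 := by
    rw [mul_one_div, div_le_div_iff₀ hD0p (by norm_num)]
    linarith
  have hhsum : ∀ J, ∑ j ∈ Finset.range J, h j * r ^ j ≤ 2 * 1 := by
    refine volt hr.le hun hhn hU1 hU2 (b := fun j => if j = 0 then (1 : ℝ) else 0) hh0.le
      (fun j => (hhs j).le) ?_
    intro J
    rcases J with _ | J
    · simp
    · rw [Finset.sum_range_succ']
      simp
  have hhsum1 : ∀ J, ∑ j ∈ Finset.range J, h (j + 1) * r ^ (j + 1) ≤ 2 * (2 * n * (1 / D0)) := by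
    intro J
    have h1 := conv_sum hr.le hun hhn J
    have e : ∑ j ∈ Finset.range J, h (j + 1) * r ^ (j + 1) =
        ∑ j ∈ Finset.range J, (∑ i ∈ Finset.range (j + 1), 2 * n * a (i + 1) * h (j - i)) *
          r ^ (j + 1) := Finset.sum_congr rfl fun j _ => by rw [hhs' j]
    rw [e]
    refine h1.trans ?_
    have h2 := mul_le_mul (hU1 J) (hhsum J)
      (Finset.sum_nonneg fun j _ => mul_nonneg (hhn j) (pow_nonneg hr.le j)) (by positivity)
    linarith
  -- the majorant of the solution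
  set u : ℕ → ℝ := fun i => CT * (2 * n ^ 2 * c1 * h i) with hu
  have hun' : ∀ i, 0 ≤ u i := fun i => by have := hhn i; positivity
  obtain ⟨p, hp0, hps⟩ := exists_volt (fun j => e1 * w j) u
  have hpn : ∀ j, 0 ≤ p j := volt_nonneg (fun j => mul_nonneg he10 (hw j)) hun' hp0 hps
  have hU3 : ∀ J, ∑ i ∈ Finset.range J, u (i + 1) * r ^ (i + 1) ≤
      CT * (2 * n ^ 2 * c1) * (2 * (2 * n * (1 / D0))) := by
    intro J
    have e : ∑ i ∈ Finset.range J, u (i + 1) * r ^ (i + 1) =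
        CT * (2 * n ^ 2 * c1) * ∑ i ∈ Finset.range J, h (i + 1) * r ^ (i + 1) := by
      rw [Finset.mul_sum]
      exact Finset.sum_congr rfl fun i _ => by rw [hu]; ring
    rw [e]
    exact mul_le_mul_of_nonneg_left (hhsum1 J) (by positivity)
  have hU4 : CT * (2 * n ^ 2 * c1) * (2 * (2 * n * (1 / D0))) ≤ 1 / 2 := by
    have e : CT * (2 * n ^ 2 * c1) * (2 * (2 * n * (1 / D0))) =
        8 * (n : ℝ) ^ 3 * c1 * CT / D0 := by ring
    rw [e, div_le_div_iff₀ hD0p (by norm_num), hD0]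
    have h3 : (n : ℝ) ^ 3 ≤ N1 ^ 3 := pow_le_pow_left₀ hn0 hnN 3
    have h4 : (n : ℝ) ^ 3 * (c1 * CT) ≤ N1 ^ 3 * (c1 * CT) :=
      mul_le_mul_of_nonneg_right h3 (by positivity)
    nlinarith
  have hpsum : ∀ J, ∑ j ∈ Finset.range J, p j * r ^ j ≤ 2 * (e1 * W) := by
    refine volt hr.le hun' hpn hU3 hU4 (b := fun j => e1 * w j) hp0.le (fun j => (hps j).le) ?_
    intro J
    have e : ∑ j ∈ Finset.range J, e1 * w j * r ^ j = e1 * ∑ j ∈ Finset.range J, w j * r ^ j := by
      rw [Finset.mul_sum]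
      exact Finset.sum_congr rfl fun i _ => by ring
    rw [e]
    exact mul_le_mul_of_nonneg_left (hW J) he10
  -- the solution
  obtain ⟨ψ, c, hψ, hnrm, hr0, hrec⟩ := exists_lrec P K x0 hY hq
  have hT : ∀ j, HF A (Yf A q ψ j) := fun j => (hq j).add (hf_hsf (hψ j))
  -- bounds of the right hand side
  have hHn : ∀ j k b c', HO (1 / 2) (h j) (closedBall (Bc.z k) (Bc.r k / 2))
      (fun z => Hn (Zf K Y (Bc.i k) ((A.e (Bc.i k)).symm z)) j b c') := fun j k =>
    Hn_ho (Z := fun l z => Zf K Y (Bc.i k) ((A.e (Bc.i k)).symm z) l) ha hhn hh0' hhs'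
      (fun l hl b c' => hZ l hl k b c') j
  have hqtr : ∀ j, Bc.NH (1 / 2) (n * (c1 * w j)) (fun x => (trK K (q j) x).re) := by
    intro j k
    have h3 : HO (1 / 2) (n * (c1 * w j))
        (closedBall (Bc.z k) (Bc.r k / 2)) (fun z => (((K.g (Bc.i k) ((A.e (Bc.i k)).symm z))⁻¹ *
          q j (Bc.i k) ((A.e (Bc.i k)).symm z)).trace).re) := by
      refine ho_re ?_
      simp only [Matrix.trace, Matrix.diag_apply]
      have h4 := ho_sum (Finset.univ : Finset (Fin n)) (a := 1 / 2) (M := c1 * w j)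
        (s := closedBall (Bc.z k) (Bc.r k / 2))
        (f := fun l z => ((K.g (Bc.i k) ((A.e (Bc.i k)).symm z))⁻¹ *
          q j (Bc.i k) ((A.e (Bc.i k)).symm z)) l l)
        (fun l _ => ho_inv_mul hV0 (hw _) (hV k) (Y := q j) (fun b c => hqw j k b c) l l)
      rw [Finset.card_univ, Fintype.card_fin] at h4
      exact h4
    refine h3.congr fun z hz => ?_
    have h6 := congrArg Complex.re (trK_hf K (hq j) ((A.e (Bc.i k)).map_target (Bc.sub' k hz)))
    rw [Complex.ofReal_re] at h6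
    simp only [inC, h6]
  -- the induction
  have key : ∀ j, ∃ F : ℝ, 0 ≤ F ∧ w j + CT * F ≤ p j ∧ Bc.N2 (1 / 2) (CT * F) (ψ j) ∧
      |c j| ≤ F := by
    intro j
    induction j using Nat.strong_induction_on with
    | _ j ih =>
      rcases j with _ | J
      · have h7 := hlin x0 (ψ 0) _ (c 0) _ (hψ _) hr0 (hqtr 0) (hnrm _)
        have hF0 : 0 ≤ n * (c1 * w 0) := by have := hw 0; positivity
        refine ⟨n * (c1 * w 0), hF0, le_of_eq ?_,
          h7.1.mono (mul_le_mul_of_nonneg_right (le_max_left _ _) hF0), h7.2⟩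
        rw [hp0, he1]
        ring
      · have hW' : ∀ l ≤ J, ∀ k b c', HO (1 / 2) (c1 * p l) (closedBall (Bc.z k) (Bc.r k / 2))
            (fun z => Zf K (Yf A q ψ) (Bc.i k) ((A.e (Bc.i k)).symm z) l b c') := by
          intro l hl k b c'
          obtain ⟨F, hF, hFp, hF2, -⟩ := ih l (by omega)
          refine ho_inv_mul hV0 (hpn l) (hV k) (Y := Yf A q ψ l) (fun b c' => ?_) b c'
          exact (((hqw l k b c').add (n2_hsf (hψ _) hF2 k b c')).mono hFp).congr
            fun z _ => rfl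
        have hL : Bc.NH (1 / 2) (∑ i ∈ Finset.range (J + 1),
            2 * n ^ 2 * h (i + 1) * (c1 * p (J - i))) (Lf K Y (Yf A q ψ) J) := by
          intro k
          have h1 : HO (1 / 2) (∑ i ∈ Finset.range (J + 1),
              2 * n ^ 2 * h (i + 1) * (c1 * p (J - i)))
              (closedBall (Bc.z k) (Bc.r k / 2)) (fun z => (∑ i ∈ Finset.range (J + 1),
                (Hn (Zf K Y (Bc.i k) ((A.e (Bc.i k)).symm z)) (i + 1) *
                  Zf K (Yf A q ψ) (Bc.i k) ((A.e (Bc.i k)).symm z) (J - i)).trace).re) := by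
            refine ho_re (ho_fsum _ fun i hi => ?_)
            exact ho_tr_mul (hhn _) (mul_nonneg hc10 (hpn _)) (fun b c' => hHn (i + 1) k b c')
              (fun b c' => hW' (J - i) (Nat.sub_le _ _) k b c')
          refine h1.congr fun z hz => ?_
          exact Lf_eq K hY hT J ((A.e (Bc.i k)).map_target (Bc.sub' k hz))
        have hF0 : 0 ≤ ∑ i ∈ Finset.range (J + 1), 2 * n ^ 2 * h (i + 1) * (c1 * p (J - i)) :=
          Finset.sum_nonneg fun i _ => by
            have h8 := hhn (i + 1)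
            have h9 := hpn (J - i)
            positivity
        have hF1 : 0 ≤ n * (c1 * w (J + 1)) := by have := hw (J + 1); positivity
        have hN : Bc.NH (1 / 2) ((∑ i ∈ Finset.range (J + 1),
            2 * n ^ 2 * h (i + 1) * (c1 * p (J - i))) + n * (c1 * w (J + 1)))
            (fun x => Lf K Y (Yf A q ψ) J x + (trK K (q (J + 1)) x).re) := fun k =>
          ((hL k).add (hqtr (J + 1) k)).congr fun z _ => rfl
        have h7 := hlin x0 (ψ (J + 1)) _ (c (J + 1)) _ (hψ _) (hrec J) hN (hnrm _)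
        refine ⟨_, add_nonneg hF0 hF1, le_of_eq ?_,
          h7.1.mono (mul_le_mul_of_nonneg_right (le_max_left _ _) (add_nonneg hF0 hF1)), h7.2⟩
        rw [hps J, hu, he1, mul_add, Finset.mul_sum]
        have e : ∑ i ∈ Finset.range (J + 1), CT * (2 * n ^ 2 * h (i + 1) * (c1 * p (J - i))) =
            ∑ i ∈ Finset.range (J + 1), CT * (2 * n ^ 2 * c1 * h (i + 1)) * p (J - i) :=
          Finset.sum_congr rfl fun i _ => by ring
        rw [e]
        ring
  have hb : ∀ j, p j ≤ c1 * p j := fun j => by nlinarith [hpn j]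
  have hoT : ∀ j, ∀ k b' c', HO (1 / 2) (p j) (closedBall (Bc.z k) (Bc.r k / 2))
      (fun z => Yf A q ψ j (Bc.i k) ((A.e (Bc.i k)).symm z) b' c') := by
    intro j k b' c'
    obtain ⟨F, hF, hFp, hF2, -⟩ := key j
    exact (((hqw j k b' c').add (n2_hsf (hψ _) hF2 k b' c')).mono hFp).congr fun z _ => rfl
  refine ⟨⟨ψ, c, fun j => c1 * p j, hψ, hnrm, fun j => mul_nonneg hc10 (hpn j), ?_, ?_, ?_, ?_,
    ?_, ?_, ?_, ?_⟩⟩
  · intro J
    have e : ∑ j ∈ Finset.range J, c1 * p j * r ^ j = c1 * ∑ j ∈ Finset.range J, p j * r ^ j := by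
      rw [Finset.mul_sum]
      exact Finset.sum_congr rfl fun i _ => by ring
    rw [e]
    calc _ ≤ c1 * (2 * (e1 * W)) := mul_le_mul_of_nonneg_left (hpsum J) hc10
      _ = _ := by ring
  · intro j
    obtain ⟨F, hF, hFp, -, -⟩ := key j
    have := mul_nonneg hCT0 hF
    linarith [hb j]
  · intro j
    obtain ⟨F, hF, hFp, hF2, -⟩ := key j
    exact hF2.mono (by linarith [hb j, hw j])
  · intro j
    obtain ⟨F, hF, hFp, -, hc⟩ := key j
    have : F ≤ CT * F := by nlinarith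
    linarith [hb j, hw j]
  · intro j k b' c'
    exact (hoT j k b' c').mono (hb j)
  · intro j k b' c'
    exact ho_inv_mul hV0 (hpn j) (hV k) (Y := Yf A q ψ j) (fun b c => hoT j k b c) b' c'
  · intro i x hx
    have h1 : (Zf K (Yf A q ψ) i x 0).trace =
        ((K.g i x)⁻¹ * q 0 i x).trace + ((K.g i x)⁻¹ * hsf A (ψ 0) i x).trace := by
      rw [Zf, Yf, Matrix.mul_add, Matrix.trace_add]
    have h3 := congrArg Complex.re (trK_hf K (hq 0) hx)
    have h4 := congrArg Complex.re (trK_hf K (hf_hsf (hψ 0)) hx)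
    rw [Complex.ofReal_re] at h3 h4
    have h5 := hr0 x
    have h6 : (trK K (hsf A (ψ 0)) x).re = lapK K (ψ 0) x := rfl
    rw [h1, Complex.add_re, ← h3, ← h4, h6, h5]
    ring
  · intro J i x hx
    have h1 : (Zf K (Yf A q ψ) i x (J + 1)).trace =
        ((K.g i x)⁻¹ * q (J + 1) i x).trace + ((K.g i x)⁻¹ * hsf A (ψ (J + 1)) i x).trace := by
      rw [Zf, Yf, Matrix.mul_add, Matrix.trace_add]
    have h3 := congrArg Complex.re (trK_hf K (hq (J + 1)) hx)
    have h4 := congrArg Complex.re (trK_hf K (hf_hsf (hψ (J + 1))) hx)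
    rw [Complex.ofReal_re] at h3 h4
    have h5 := hrec J x
    have h6 : (trK K (hsf A (ψ (J + 1))) x).re = lapK K (ψ (J + 1)) x := rfl
    rw [h1, Complex.add_re, ← h3, ← h4, h6, h5, ← Lf_eq K hY hT J hx]
    ring

end

end Crest.Agent.R281.LAn_508
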