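import Crest.Agent.R273.CRegE_933

/-!
# R281 (S0424), LAP-AN (helper508), file 4: linear regularity in complex form

`lin_reg_c` : `u` of class `C^{2,a}`, `Re tr (B(z) ∂∂̄u(z)) = f(z)` with `B` smooth, positive
definite and `f` smooth ==> `u` smooth.
-/

set_option autoImplicit false
set_option linter.unusedSectionVars false

open Set Metric Complex
open scoped ContDiff Matrix ComplexConjugate ComplexOrder Topology

namespace Crest.Agent.R281.LAn_508

open Crest.Agent.R275.Geo Crest.Agent.R275.Core144 Crest.Agent.R275.GC293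
open Crest.Agent.R273.Defs_333 Crest.Agent.R273.YauDefs_635
open Crest.Agent.R238 Crest.Agent.R238.Boot
open Crest.Agent.R273.CReg_933

noncomputable section

variable {n : ℕ}

/-- `cHV` as a linear map -/
def cHVL (n : ℕ) : VM (dC n) →ₗ[ℝ] Matrix (Fin n) (Fin n) ℂ where
  toFun := cHV
  map_add' H K := by
    have := cHV_add_smul H K 1
    simpa using this
  map_smul' t K := by
    have h0 : cHV (0 : VM (dC n)) = 0 := by
      have := cHV_add_smul (0 : VM (dC n)) 0 1
      simpa using this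
    have := cHV_add_smul (0 : VM (dC n)) K t
    rw [zero_add, h0, zero_add] at this
    rw [this]
    ext a b
    simp

/-- `H ↦ Re tr (B * cHV H)` -/
def trL (B : Matrix (Fin n) (Fin n) ℂ) : VM (dC n) →ₗ[ℝ] ℝ where
  toFun H := ((B * cHVL n H).trace).re
  map_add' H K := by rw [map_add, Matrix.mul_add, Matrix.trace_add, Complex.add_re]
  map_smul' t K := by
    rw [map_smul, Matrix.mul_smul, Matrix.trace_smul, Complex.real_smul, Complex.re_ofReal_mul]
    rfl

theorem trL_apply (B : Matrix (Fin n) (Fin n) ℂ) (H : VM (dC n)) :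
    trL B H = ((B * cHV H).trace).re := rfl

theorem trL_r1 {B : Matrix (Fin n) (Fin n) ℂ} (hB : B.PosDef) {z : Fin (dC n) → ℝ} (hz : z ≠ 0) :
    0 < trL B (r1 z) := by
  have h1 : 0 < star (fun b => pz z b) ⬝ᵥ (B *ᵥ (fun a => pz z a)) :=
    hB.dotProduct_mulVec_pos (pz_ne hz)
  have h2 : (B * cHV (r1 z)).trace = (1 / 4 : ℂ) *
      (star (fun b => pz z b) ⬝ᵥ (B *ᵥ (fun a => pz z a))) := by
    rw [cHV_r1, Matrix.mul_smul, Matrix.trace_smul, smul_eq_mul]
    congr 1
    simp only [Matrix.trace, Matrix.diag_apply, Matrix.mul_apply, Matrix.of_apply, dotProduct,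
      Matrix.mulVec, Pi.star_apply, RCLike.star_def, Finset.mul_sum]
    refine Finset.sum_congr rfl fun i _ => Finset.sum_congr rfl fun j _ => ?_
    ring
  rw [trL_apply, h2]
  have h3 : 0 < (1 / 4 : ℂ) * (star (fun b => pz z b) ⬝ᵥ (B *ᵥ (fun a => pz z a))) :=
    mul_pos (by norm_num [Complex.lt_def]) h1
  exact (Complex.pos_iff.1 h3).1

theorem trL_sum (B : Matrix (Fin n) (Fin n) ℂ) {W : VM (dC n)} (hW : ∀ i j, W i j = W j i) :
    ∑ i, ∑ j, trL B (Es i j) * W i j = trL B W := by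
  conv_rhs => rw [← sum_Es hW]
  simp only [map_sum, map_smul, smul_eq_mul]
  exact Finset.sum_congr rfl fun i _ => Finset.sum_congr rfl fun j _ => mul_comm _ _

theorem trL_pd {B : Matrix (Fin n) (Fin n) ℂ} (hB : B.PosDef) :
    PD (fun i j => trL B (Es i j)) := by
  refine ⟨fun i j => by simp only [Es_comm i j], fun z hz => ?_⟩
  refine lt_of_lt_of_eq (trL_r1 hB hz) ?_
  rw [← trL_sum B (W := r1 z) fun i j => by simp only [r1]; ring]
  refine Finset.sum_congr rfl fun i _ => Finset.sum_congr rfl fun j _ => ?_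
  simp only [r1]
  ring

/-- **linear regularity, complex form** -/
theorem lin_reg_c {U : Set (Cn n)} {u f : Cn n → ℝ} {a : ℝ} {B : Cn n → Matrix (Fin n) (Fin n) ℂ}
    (hU : IsOpen U) (ha : 0 < a) (ha1 : a < 1) (hu : ContDiffOn ℝ 2 u U)
    (hf : ContDiffOn ℝ ∞ f U)
    (hH : ∀ z₀ ∈ U, ∃ r > 0, ∃ C, ball z₀ r ⊆ U ∧ ∀ z ∈ ball z₀ r, ∀ w ∈ ball z₀ r,
      ‖fderiv ℝ (fderiv ℝ u) z - fderiv ℝ (fderiv ℝ u) w‖ ≤ C * ‖z - w‖ ^ a)
    (hB : ∀ b c, ContDiffOn ℝ ∞ (fun z => B z b c) U) (hpos : ∀ z ∈ U, (B z).PosDef)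
    (heq : ∀ z ∈ U, ((B z * cH u z).trace).re = f z) : ContDiffOn ℝ ∞ u U := by
  set T : E (dC n) →L[ℝ] Cn n := ((TT n).symm : E (dC n) →L[ℝ] Cn n) with hT
  set U' : Set (E (dC n)) := (fun x => T x) ⁻¹' U with hU'
  have hU'o : IsOpen U' := hU.preimage T.continuous
  have hcT : ContDiff ℝ ∞ (fun x : E (dC n) => T x) := T.contDiff
  set u' : E (dC n) → ℝ := fun x => u ((TT n).symm x) with hu'
  have hcT2 : ContDiff ℝ 2 (fun x : E (dC n) => T x) := T.contDiff
  have hu'c : ContDiffOn ℝ 2 u' U' := hu.comp hcT2.contDiffOn fun x hx => hx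
  have hc2 : ∀ x ∈ U', ContDiffAt ℝ 2 u ((TT n).symm x) := fun x hx =>
    hu.contDiffAt (hU.mem_nhds hx)
  have hLH : ∀ i j, LH a U' (fun x => Hs u' x i j) := by
    intro i j x0 hx0
    obtain ⟨r, hr, C, hrU, hC⟩ := hH (T x0) hx0
    have hb : ∃ r' > 0, ∀ x ∈ ball x0 r', T x ∈ ball (T x0) r :=
      Metric.continuousAt_iff.1 T.continuous.continuousAt r hr
    obtain ⟨r', hr', hb⟩ := hb
    set C' : ℝ := |C| * ‖T‖ ^ a * (‖(TT n).symm (ee i)‖ * ‖(TT n).symm (ee j)‖) with hC'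
    have hC'0 : 0 ≤ C' := by positivity
    have key : ∀ x ∈ ball x0 r', ∀ y ∈ ball x0 r', |Hs u' x i j - Hs u' y i j| ≤ C' * ‖x - y‖ ^ a := by
      intro x hx y hy
      have hx' := hb x hx
      have hy' := hb y hy
      simp only [Hs, hu', fd2_comp_equiv (hc2 x (hrU hx')), fd2_comp_equiv (hc2 y (hrU hy')), D2]
      have h1 := hC _ hx' _ hy'
      have h2 : fderiv ℝ (fderiv ℝ u) ((TT n).symm x) ((TT n).symm (ee i)) ((TT n).symm (ee j))
          - fderiv ℝ (fderiv ℝ u) ((TT n).symm y) ((TT n).symm (ee i)) ((TT n).symm (ee j))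
          = (fderiv ℝ (fderiv ℝ u) (T x) - fderiv ℝ (fderiv ℝ u) (T y)) ((TT n).symm (ee i))
            ((TT n).symm (ee j)) := rfl
      rw [h2, ← Real.norm_eq_abs]
      refine (ContinuousLinearMap.le_opNorm₂ _ _ _).trans ?_
      have h3 : ‖T x - T y‖ ^ a ≤ ‖T‖ ^ a * ‖x - y‖ ^ a := by
        rw [← map_sub, ← Real.mul_rpow (norm_nonneg _) (norm_nonneg _)]
        exact Real.rpow_le_rpow (norm_nonneg _) (T.le_opNorm _) ha.le
      have h4 : ‖fderiv ℝ (fderiv ℝ u) (T x) - fderiv ℝ (fderiv ℝ u) (T y)‖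
          ≤ |C| * (‖T‖ ^ a * ‖x - y‖ ^ a) :=
        h1.trans ((mul_le_mul_of_nonneg_right (le_abs_self C)
          (Real.rpow_nonneg (norm_nonneg _) _)).trans
          (mul_le_mul_of_nonneg_left h3 (abs_nonneg _)))
      calc _ = ‖fderiv ℝ (fderiv ℝ u) (T x) - fderiv ℝ (fderiv ℝ u) (T y)‖
            * (‖(TT n).symm (ee i)‖ * ‖(TT n).symm (ee j)‖) := by ring
        _ ≤ (|C| * (‖T‖ ^ a * ‖x - y‖ ^ a)) * (‖(TT n).symm (ee i)‖ * ‖(TT n).symm (ee j)‖) :=
          mul_le_mul_of_nonneg_right h4 (by positivity)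
        _ = _ := by rw [hC']; ring
    refine ⟨r', hr', max C' (|Hs u' x0 i j| + C' * r' ^ a), fun x hx => ?_, fun x hx y hy => ?_⟩
    · have h1 := key x hx x0 (mem_ball_self hr')
      have h2 : ‖x - x0‖ ^ a ≤ r' ^ a :=
        Real.rpow_le_rpow (norm_nonneg _) (by rw [← dist_eq_norm]; exact (mem_ball.1 hx).le) ha.le
      have h3 : |Hs u' x i j| ≤ |Hs u' x i j - Hs u' x0 i j| + |Hs u' x0 i j| := by
        have := abs_add_le (Hs u' x i j - Hs u' x0 i j) (Hs u' x0 i j)
        simpa using this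
      have h4 := mul_le_mul_of_nonneg_left h2 hC'0
      exact (by linarith : |Hs u' x i j| ≤ |Hs u' x0 i j| + C' * r' ^ a).trans (le_max_right _ _)
    · exact (key x hx y hy).trans
        (mul_le_mul_of_nonneg_right (le_max_left _ _) (Real.rpow_nonneg (norm_nonneg _) _))
  have hlck : LCK a 2 U' u' := lck_two ha.le ha1.le hU'o hu'c hLH
  have hG : ∀ x ∈ U', cHV (HM2 u' x) = cH u ((TT n).symm x) := fun x hx => cHV_HM2 (hc2 x hx)
  have hcoef : ∀ i j, ContDiffOn ℝ ∞ (fun x => trL (B (T x)) (Es i j)) U' := by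
    intro i j
    have h1 : ContDiffOn ℝ ∞ (fun x => (B (T x) * cHV (Es i j)).trace) U' := by
      simp only [Matrix.trace, Matrix.diag_apply, Matrix.mul_apply]
      exact ContDiffOn.sum fun b _ => ContDiffOn.sum fun c _ =>
        ((hB b c).comp hcT.contDiffOn fun x hx => hx).mul contDiffOn_const
    exact Complex.reCLM.contDiff.comp_contDiffOn h1
  have hsm : ContDiffOn ℝ ∞ u' U' := by
    rw [contDiffOn_infty]
    intro k
    have h1 : LCK a (k + 3) U' u' := by
      refine lin_reg ha ha1 hU'o (A := fun x i j => trL (B (T x)) (Es i j))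
        (g := fun x => f (T x)) (fun x hx => trL_pd (hpos _ hx)) k hlck
        (fun i j => lck_of_contDiffOn ha.le ha1.le hU'o _ (hcoef i j))
        (lck_of_contDiffOn ha.le ha1.le hU'o _ (hf.comp hcT.contDiffOn fun x hx => hx))
        (fun x hx => ?_)
      have h2 := trL_sum (B (T x)) (W := HM2 u' x) (fun i j => hs_symm_on hU'o hu'c hx i j)
      have h3 : ∑ i, ∑ j, trL (B (T x)) (Es i j) * Hs u' x i j = trL (B (T x)) (HM2 u' x) := h2
      rw [h3, trL_apply, hG x hx]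
      exact heq _ hx
    exact (h1.contDiffOn ha hU'o).of_le (by exact_mod_cast Nat.le_add_right k 3)
  have hTT : ContDiff ℝ ∞ (fun z : Cn n => TT n z) := (TT n).contDiff
  have h := hsm.comp hTT.contDiffOn (s := U) fun z hz => by
    show T (TT n z) ∈ U
    have : T (TT n z) = z := (TT n).symm_apply_apply z
    rwa [this]
  refine h.congr fun z hz => ?_
  simp [hu']

end

end Crest.Agent.R281.LAn_508
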