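import Crest.Agent.R281.LEnd1_10
import Crest.Agent.R273.FIa0_597

/-!
# R281 (S0424), S6-L2END (helper10), part 2: the cut off section `φ(|w|²) τ^p`

`EndIn.T`       : the compact tube `{x ∈ U, |w x|² ≤ ρ}`
`cutS E φ p`    : the section `φ(|w|²) τ^p` of `L ^ (k0 * p)`, `φ` supported in `t < ρ`
`smS_cutS`      : it is smooth
`cutS_pt`       : `|∂̄(cutS φ p)(ξ)|² ≤ φ'(s)² |τ^p|² s · (∂∂̄ s)(ξ, ξ)`, `s = |w|²`
-/

set_option autoImplicit false
set_option linter.unusedSectionVars false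

open Set Filter Topology Complex MeasureTheory Metric
open scoped ContDiff Matrix ComplexConjugate Manifold ComplexOrder ENNReal

namespace Crest.Agent.R281.LEnd_10

open Crest.Agent.R275 Crest.Agent.R275.Geo Crest.Agent.R275.Core144 Crest.Agent.R275.GC293
open Crest.Agent.R275.Dg199 Crest.Agent.R275.EDR890
open Crest.Agent.R273.Defs_333 Crest.Agent.R273.Kah_333 Crest.Agent.R273.HM_333
open Crest.Agent.R273.Hess_333 Crest.Agent.R273.HessB_333 Crest.Agent.R273.FS_333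
open Crest.Agent.R281.Defs_273
open Crest.Agent.R273.SerA_945 Crest.Agent.R273.SerB_945

noncomputable section

variable {n : ℕ} {M : Type} [TopologicalSpace M] {A : Atl n M}
variable {K : Kah A} {L : LB A} {x0 : M} (E : EndIn K L x0)

/-- the compact tube -/
def EndIn.T : Set M := {x | x ∈ E.U ∧ sqw E.w x ≤ E.ρ}

theorem sqw_nonneg {r : ℕ} (w : M → Fin r → ℂ) (x : M) : 0 ≤ sqw w x :=
  Finset.sum_nonneg fun _ _ => by positivity

theorem EndIn.isCompact_T : IsCompact E.T := E.cpt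

/-! ### reading in a chart -/

/-- `w` read in the chart `i` -/
def EndIn.wr (i : A.ι) (z : Cn n) : Fin E.r → ℂ := fun k => E.w ((A.e i).symm z) k

/-- `U` read in the chart `i` -/
def EndIn.V (i : A.ι) : Set (Cn n) := (A.e i).target ∩ (A.e i).symm ⁻¹' E.U

theorem EndIn.isOpen_V (i : A.ι) : IsOpen (E.V i) := isOpen_ti (A := A) (i := i) E.isOpen_U

theorem EndIn.mem_V {i : A.ι} {x : M} (hx : x ∈ (A.e i).source) (hU : x ∈ E.U) :
    A.e i x ∈ E.V i :=
  ⟨(A.e i).map_source hx, by rw [mem_preimage, (A.e i).left_inv hx]; exact hU⟩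

theorem EndIn.hol_wr (i : A.ι) (k : Fin E.r) : DifferentiableOn ℂ (fun z => E.wr i z k) (E.V i) :=
  E.hol i k

/-- the derivatives of `w` -/
def EndIn.dw (i : A.ι) (x : M) (k : Fin E.r) (a : Fin n) : ℂ :=
  fderiv ℂ (fun z => E.wr i z k) (A.e i x) (EuclideanSpace.single a 1)

theorem EndIn.hess_w {i : A.ι} {x : M} (hx : x ∈ (A.e i).source) (hU : x ∈ E.U) (a b : Fin n) :
    hsf A (sqw E.w) i x a b = ∑ k, E.dw i x k a * conj (E.dw i x k b) :=
  hess_sq (E.isOpen_V i) (E.hol_wr i) (E.mem_V hx hU) a b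

theorem EndIn.wd_w {i : A.ι} {x : M} (hx : x ∈ (A.e i).source) (hU : x ∈ E.U) (b : Fin n) :
    wd (true, b) (cu (sq (E.wr i))) (A.e i x) = ∑ k, E.w x k * conj (E.dw i x k b) := by
  rw [wd_sq (E.isOpen_V i) (E.hol_wr i) (E.mem_V hx hU) b]
  refine Finset.sum_congr rfl fun k _ => ?_
  have : E.wr i (A.e i x) k = E.w x k := by
    show E.w ((A.e i).symm (A.e i x)) k = _
    rw [(A.e i).left_inv hx]
  rw [this]
  rfl

theorem EndIn.sq_wr {i : A.ι} {x : M} (hx : x ∈ (A.e i).source) :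
    sq (E.wr i) (A.e i x) = sqw E.w x := by
  show ∑ k, ‖E.w ((A.e i).symm (A.e i x)) k‖ ^ 2 = _
  rw [(A.e i).left_inv hx]
  rfl

theorem EndIn.sq_cd {i : A.ι} {x : M} (hx : x ∈ (A.e i).source) (hU : x ∈ E.U) :
    ContDiffAt ℝ ∞ (sq (E.wr i)) (A.e i x) :=
  ContDiffAt.sum fun k _ =>
    (contDiffAt_of_hol (E.isOpen_V i) (E.hol_wr i k) (E.mem_V hx hU)).norm_sq ℝ

theorem EndIn.smN_sqw {x : M} (hU : x ∈ E.U) : SmN A (sqw E.w) x := by
  obtain ⟨i, hi⟩ := A.cover x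
  exact ⟨i, hi, E.sq_cd hi hU⟩

/-- Cauchy-Schwarz -/
theorem EndIn.cs {i : A.ι} {x : M} (hx : x ∈ (A.e i).source) (hU : x ∈ E.U) (ξ : Fin n → ℂ) :
    ‖∑ b, (∑ k, E.w x k * conj (E.dw i x k b)) * conj (ξ b)‖ ^ 2 ≤
      sqw E.w x * (∑ a, ∑ b, hsf A (sqw E.w) i x a b * ξ a * conj (ξ b)).re := by
  set q : Fin E.r → ℂ := fun k => ∑ a, E.dw i x k a * ξ a with hq
  have e1 : ∑ b, (∑ k, E.w x k * conj (E.dw i x k b)) * conj (ξ b) =
      ∑ k, E.w x k * conj (q k) := by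
    rw [hq]
    simp only [map_sum, map_mul, Finset.mul_sum, Finset.sum_mul]
    rw [Finset.sum_comm]
    refine Finset.sum_congr rfl fun k _ => Finset.sum_congr rfl fun b _ => ?_
    ring
  have e2 : ∑ a, ∑ b, hsf A (sqw E.w) i x a b * ξ a * conj (ξ b) =
      ((∑ k, ‖q k‖ ^ 2 : ℝ) : ℂ) := by
    have e3 : ((∑ k, ‖q k‖ ^ 2 : ℝ) : ℂ) = ∑ k, q k * conj (q k) := by
      rw [ofReal_sum]
      exact Finset.sum_congr rfl fun k _ => by rw [Complex.mul_conj, Complex.normSq_eq_norm_sq]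
    rw [e3]
    simp only [E.hess_w hx hU, hq, map_sum, map_mul, Finset.sum_mul, Finset.mul_sum]
    rw [Finset.sum_congr rfl fun a _ => Finset.sum_comm, Finset.sum_comm]
    refine Finset.sum_congr rfl fun k _ => ?_
    rw [Finset.sum_comm]
    refine Finset.sum_congr rfl fun a _ => Finset.sum_congr rfl fun b _ => ?_
    ring
  rw [e1, e2, ofReal_re]
  have h1 : ‖∑ k, E.w x k * conj (q k)‖ ≤ ∑ k, ‖E.w x k‖ * ‖q k‖ := by
    refine (norm_sum_le _ _).trans (le_of_eq (Finset.sum_congr rfl fun k _ => ?_))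
    rw [norm_mul, RCLike.norm_conj]
  refine (pow_le_pow_left₀ (norm_nonneg _) h1 2).trans ?_
  exact Finset.sum_mul_sq_le_sq_mul_sq _ _ _

/-! ### the cut off section -/

open Classical in
/-- the section `φ(|w|²) τ^p` -/
def cutS (φ : ℝ → ℝ) (p : ℕ) : Fn A := fun i x =>
  if x ∈ (A.e i).source ∧ x ∈ E.U then (φ (sqw E.w x) : ℂ) * E.τ i x ^ p else 0

variable {φ : ℝ → ℝ} {p : ℕ}

theorem cutS_eq {i : A.ι} {x : M} (hx : x ∈ (A.e i).source) (hU : x ∈ E.U) :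
    cutS E φ p i x = (φ (sqw E.w x) : ℂ) * E.τ i x ^ p := if_pos ⟨hx, hU⟩

theorem cutS_off (i : A.ι) : ∀ x ∉ (A.e i).source, cutS E φ p i x = 0 := fun _ hx =>
  if_neg fun h => hx h.1

theorem cutS_offU (i : A.ι) {x : M} (hU : x ∉ E.U) : cutS E φ p i x = 0 :=
  if_neg fun h => hU h.2

section

variable [T2Space M]

theorem EndIn.isClosed_T : IsClosed E.T := E.isCompact_T.isClosed

theorem cutS_offT (hφ : ∀ t, E.ρ ≤ t → φ t = 0) (i : A.ι) {x : M} (hT : x ∉ E.T) :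
    cutS E φ p i x = 0 := by
  by_cases h : x ∈ (A.e i).source ∧ x ∈ E.U
  · rw [cutS_eq E h.1 h.2]
    have h1 : E.ρ ≤ sqw E.w x := by
      by_contra h2
      exact hT ⟨h.2, (not_le.1 h2).le⟩
    rw [hφ _ h1, ofReal_zero, zero_mul]
  · exact if_neg h

theorem smS_cutS (hφs : ContDiff ℝ ∞ φ) (hφ : ∀ t, E.ρ ≤ t → φ t = 0) :
    SmS (L ^ (E.k0 * p)) (cutS E φ p) := by
  refine SmS.of_smN (fun i q hq => ?_) (fun i j x hx => ?_)
  · by_cases hU : q ∈ E.U
    · have h1 : SmN A (fun x => (φ (sqw E.w x) : ℂ)) q := by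
        have h2 : ContDiffAt ℝ ∞ (fun z => φ (sq (E.wr i) z)) (A.e i q) :=
          hφs.contDiffAt.comp _ (E.sq_cd hq hU)
        exact SmN.ofReal (f := fun x => φ (sqw E.w x)) ⟨i, hq, h2⟩
      have h3 : SmN A (E.τ i) q := by
        refine (smN_iff hq).2 ?_
        exact contDiffAt_of_hol (isOpen_ti (A := A) (i := i) E.isOpen_U) (E.isHS.hol i)
          (E.mem_V hq hU)
      refine (h1.mul (h3.pow p)).congr ?_
      filter_upwards [(A.e i).open_source.mem_nhds hq, E.isOpen_U.mem_nhds hU] with x hx hxU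
      exact cutS_eq E hx hxU
    · refine (smN_const (A := A) (0 : ℂ) q).congr ?_
      have hT : q ∉ E.T := fun h => hU h.1
      filter_upwards [E.isClosed_T.isOpen_compl.mem_nhds hT] with x hx
      exact cutS_offT E hφ i hx
  · by_cases hU : x ∈ E.U
    · rw [cutS_eq E hx.1 hU, cutS_eq E hx.2 hU, E.isHS.tr i j x hx hU, mul_pow, pow_mul,
        LB_pow_g (L ^ E.k0) p]
      ring
    · rw [cutS_offU E i hU, cutS_offU E j hU, mul_zero]

end

/-- `∂̄` of the section on `U` -/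
theorem db_cutS (hφs : ContDiff ℝ ∞ φ) {i : A.ι} {x : M} (hx : x ∈ (A.e i).source)
    (hU : x ∈ E.U) (b : Fin n) :
    A.db i b (cutS E φ p i) x = ((deriv φ (sqw E.w x) : ℝ) : ℂ) * E.τ i x ^ p *
      ∑ k, E.w x k * conj (E.dw i x k b) := by
  have h1 : (fun z => cutS E φ p i ((A.e i).symm z)) =ᶠ[𝓝 (A.e i x)] fun z =>
      cu (fun z => φ (sq (E.wr i) z)) z * (E.τ i ((A.e i).symm z)) ^ p := by
    filter_upwards [(E.isOpen_V i).mem_nhds (E.mem_V hx hU)] with z hz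
    exact cutS_eq E ((A.e i).map_target hz.1) hz.2
  have hd : DifferentiableAt ℝ (sq (E.wr i)) (A.e i x) :=
    (E.sq_cd hx hU).differentiableAt (by simp)
  have hφd : DifferentiableAt ℝ φ (sq (E.wr i) (A.e i x)) :=
    hφs.contDiffAt.differentiableAt (by simp)
  have h2 : DifferentiableAt ℝ (cu (fun z => φ (sq (E.wr i) z))) (A.e i x) :=
    Complex.ofRealCLM.differentiableAt.comp _ (hφd.comp _ hd)
  have h3 : DifferentiableAt ℂ (fun z => (E.τ i ((A.e i).symm z)) ^ p) (A.e i x) := by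
    have h4 : DifferentiableAt ℂ (fun z => E.τ i ((A.e i).symm z)) (A.e i x) :=
      (E.isHS.hol i).differentiableAt ((E.isOpen_V i).mem_nhds (E.mem_V hx hU))
    exact h4.pow p
  show wd (true, b) (fun z => cutS E φ p i ((A.e i).symm z)) (A.e i x) = _
  rw [wd_congr h1, wd_mul h2 (h3.restrictScalars ℝ), wd_hol h3, mul_zero, add_zero,
    Crest.Agent.R273.FIa0_597.wd_comp_real (true, b) hd hφd.hasDerivAt, E.wd_w hx hU b, E.sq_wr hx]
  simp only [(A.e i).left_inv hx]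
  ring

/-- the pointwise bound -/
theorem cutS_pt (hφs : ContDiff ℝ ∞ φ) {i : A.ι} {x : M} (hx : x ∈ (A.e i).source)
    (hU : x ∈ E.U) (ξ : Fin n → ℂ) :
    ‖∑ b, A.db i b (cutS E φ p i) x * conj (ξ b)‖ ^ 2 ≤
      (deriv φ (sqw E.w x)) ^ 2 * ‖E.τ i x ^ p‖ ^ 2 * (sqw E.w x *
        (∑ a, ∑ b, hsf A (sqw E.w) i x a b * ξ a * conj (ξ b)).re) := by
  have e1 : ∑ b, A.db i b (cutS E φ p i) x * conj (ξ b) =
      ((deriv φ (sqw E.w x) : ℝ) : ℂ) * E.τ i x ^ p *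
        ∑ b, (∑ k, E.w x k * conj (E.dw i x k b)) * conj (ξ b) := by
    rw [Finset.mul_sum]
    refine Finset.sum_congr rfl fun b _ => ?_
    rw [db_cutS E hφs hx hU b]
    ring
  rw [e1, norm_mul, norm_mul, mul_pow, mul_pow, Complex.norm_real, Real.norm_eq_abs, sq_abs]
  exact mul_le_mul_of_nonneg_left (E.cs hx hU ξ) (by positivity)

end

end Crest.Agent.R281.LEnd_10
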