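import Crest.Agent.R281.LEnd3_10
import Crest.Agent.R281.HoC3_578

/-!
# R281 (S0424), S6-L2END (helper10), part 4: the section which does not vanish at `x0`

`L2User P K hX` : the `L²` theorem in the user's form (helper578), `hX` a flat metric of `K_M`
`locGen_of`     : `L2User`, `EndIn`, `HasWt` ⟹ `LocGen L x0`
`semiAmple_of`  : the conclusion of division 6 from the local data
-/

set_option autoImplicit false
set_option linter.unusedSectionVars false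

open Set Filter Topology Complex MeasureTheory Metric
open scoped ContDiff Matrix ComplexConjugate Kronecker ComplexOrder ENNReal

namespace Crest.Agent.R281.LEnd_10

open Crest.Agent.R275 Crest.Agent.R275.Geo Crest.Agent.R275.Core144 Crest.Agent.R275.Dg199
open Crest.Agent.R275.EDR890
open Crest.Agent.R273.Defs_333 Crest.Agent.R273.HM_333 Crest.Agent.R273.Kah_333
open Crest.Agent.R273.Hess_333 Crest.Agent.R273.HessB_333 Crest.Agent.R273.FS_333
open Crest.Agent.R273.LamN127 Crest.Agent.R273.NormC_505 Crest.Agent.R273.DnInt_505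
open Crest.Agent.R273.DVec_733 Crest.Agent.R273.DMet_733
open Crest.Agent.R273.HDN_505 (HB HB_pos)
open Crest.Agent.R273.SerA_945 Crest.Agent.R273.SerB_945
open Crest.Agent.R281.Defs_273
open Crest.Agent.R281.HoC_578 (HB_hd_re)
open Crest.Agent.R272.Kod5_410 (Yf)

noncomputable section

variable {n : ℕ} {M : Type} [TopologicalSpace M] {A : Atl n M}

/-- the `L²` theorem in the user's form -/
def L2User [T2Space M] [CompactSpace M] [Finite A.ι] (P : Part A) (K : Kah A) (hX : HM (KB A)) :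
    Prop :=
  ∀ (N : LB A) (hh : ℕ → HM N) (b : HM N),
    (∀ ν i, ∀ x ∈ (A.e i).source, b.w i x ≤ (hh ν).w i x) →
  ∀ ε : ℕ → ℝ, (∀ ν, 0 < ε ν) → Tendsto ε atTop (𝓝 0) →
    (∀ ν i, ∀ x ∈ (A.e i).source, (cur (hh ν) i x + (ε ν : ℂ) • K.g i x).PosSemidef) →
  ∀ (y0 y1 : Fn A) (_ : SmS N y0) (_ : ∀ i, ∀ x ∉ (A.e i).source, y0 i x = 0)
    (h1 : SmS N y1) (o1 : ∀ i, ∀ x ∉ (A.e i).source, y1 i x = 0) (D : ℝ),
    (∀ ν, (HB K (mul (inv hX) (hh ν))).sn P ⟨embN y1, (embN_mem h1 o1).1⟩ ^ 2 ≤ D) →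
    (∀ ν i, ∀ x ∈ (A.e i).source, ∀ ξ : Fin n → ℂ,
      ‖∑ a, A.db i a (y0 i) x * conj (ξ a)‖ ^ 2 ≤ ‖y1 i x‖ ^ 2 *
        (∑ a, ∑ c, (cur (hh ν) i x + (ε ν : ℂ) • K.g i x) a c * ξ a * conj (ξ c)).re) →
  ∃ s, IsHS N univ s ∧ ∀ u : Sec (BN N), u.1 = embN y0 - embN s →
    (HB K (mul (inv hX) b)).sn P u ^ 2 ≤ D

/-! ### small lemmas -/

theorem form_eq (X : Matrix (Fin n) (Fin n) ℂ) (ξ : Fin n → ℂ) :
    ∑ a, ∑ c, X a c * ξ a * conj (ξ c) = star (star ξ) ⬝ᵥ (X *ᵥ star ξ) := by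
  rw [star_star]
  simp only [dotProduct, Matrix.mulVec, Finset.mul_sum, Pi.star_apply, RCLike.star_def]
  refine Finset.sum_congr rfl fun a _ => Finset.sum_congr rfl fun c _ => ?_
  ring

theorem form_nonneg {X : Matrix (Fin n) (Fin n) ℂ} (hX : X.PosSemidef) (ξ : Fin n → ℂ) :
    0 ≤ (∑ a, ∑ c, X a c * ξ a * conj (ξ c)).re := by
  rw [form_eq]
  exact (Complex.le_def.1 (hX.dotProduct_mulVec_nonneg _)).1

theorem form_mono {X H : Matrix (Fin n) (Fin n) ℂ} (h : (X - H).PosSemidef) (ξ : Fin n → ℂ) :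
    (∑ a, ∑ c, H a c * ξ a * conj (ξ c)).re ≤ (∑ a, ∑ c, X a c * ξ a * conj (ξ c)).re := by
  have h1 := form_nonneg h ξ
  have h2 : ∑ a, ∑ c, (X - H) a c * ξ a * conj (ξ c) =
      ∑ a, ∑ c, X a c * ξ a * conj (ξ c) - ∑ a, ∑ c, H a c * ξ a * conj (ξ c) := by
    rw [← Finset.sum_sub_distrib]
    refine Finset.sum_congr rfl fun a _ => ?_
    rw [← Finset.sum_sub_distrib]
    refine Finset.sum_congr rfl fun c _ => ?_
    rw [Matrix.sub_apply]
    ring
  rw [h2, Complex.sub_re] at h1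
  linarith

theorem psd_smul {X : Matrix (Fin n) (Fin n) ℂ} (hX : X.PosSemidef) {t : ℝ} (ht : 0 ≤ t) :
    ((t : ℂ) • X).PosSemidef :=
  hX.smul (by exact_mod_cast ht)

theorem hsf_lin {u v : M → ℝ} (c : ℝ) (hu : A.Sm u) (hv : A.Sm v) {i : A.ι} {x : M}
    (hx : x ∈ (A.e i).source) : hsf A (fun y => c * u y + v y) i x =
      (c : ℂ) • hsf A u i x + hsf A v i x := by
  have hz := (A.e i).map_source hx
  unfold hsf
  rw [hess_add (u := fun z => c * u ((A.e i).symm z)) (v := fun z => v ((A.e i).symm z))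
    (contDiffAt_const.mul (sm_contDiffAt hu i hz)) (sm_contDiffAt hv i hz)]
  rw [hess_const_mul c (sm_contDiffAt hu i hz)]

theorem sm_lin {u v : M → ℝ} (c : ℝ) (hu : A.Sm u) (hv : A.Sm v) :
    A.Sm (fun y => c * u y + v y) := fun i => (contDiffOn_const.mul (hu i)).add (hv i)

theorem hess_zero (z : Cn n) : hess (fun _ => (0 : ℝ)) z = 0 := by
  ext a b
  rw [hess_apply]
  have h4 : wd (true, b) (cu fun _ : Cn n => (0 : ℝ)) = fun _ => 0 := by
    funext w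
    exact wd_const _ _ _
  rw [h4, wd_const]
  rfl

/-- the density vanishes where the section vanishes -/
theorem hd_of_zero {N : LB A} (K : Kah A) (h : HM ((KB A)⁻¹ * N)) {u : A.ι → M → (BN N).κ → ℂ}
    {i : A.ι} {x : M} (h0 : u i x = 0) : (HB K h).hd u u i x = 0 := by
  unfold HDen.hd
  rw [h0, star_zero, zero_dotProduct]

section

variable {K : Kah A} {L : LB A} {x0 : M} (E : EndIn K L x0)

theorem EndIn.psd_w {i : A.ι} {x : M} (hx : x ∈ (A.e i).source) (hU : x ∈ E.U) :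
    (hsf A (sqw E.w) i x).PosSemidef := by
  have h : hsf A (sqw E.w) i x = (Matrix.of fun k b => conj (E.dw i x k b))ᴴ *
      (Matrix.of fun k b => conj (E.dw i x k b)) := by
    ext a b
    rw [E.hess_w hx hU, Matrix.mul_apply]
    refine Finset.sum_congr rfl fun k _ => ?_
    rw [Matrix.conjTranspose_apply, Matrix.of_apply, Matrix.of_apply, RCLike.star_def,
      Complex.conj_conj]
  rw [h]
  exact Matrix.posSemidef_conjTranspose_mul_self _

/-- `∂̄` of the cut off section vanishes off the tube -/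
theorem db_cutS_off [T2Space M] {φ : ℝ → ℝ} {p : ℕ} (hφ : ∀ t, E.ρ ≤ t → φ t = 0) {i : A.ι}
    {x : M} (hx : x ∈ (A.e i).source) (hT : x ∉ E.T) (a : Fin n) :
    A.db i a (cutS E φ p i) x = 0 := by
  have h1 : (fun z => cutS E φ p i ((A.e i).symm z)) =ᶠ[𝓝 (A.e i x)] fun _ => (0 : ℂ) := by
    have h2 : ∀ᶠ y in 𝓝 x, y ∉ E.T := E.isClosed_T.isOpen_compl.mem_nhds hT
    filter_upwards [ev_symm hx h2] with z hz
    exact cutS_offT E hφ i hz
  show wd (true, a) (fun z => cutS E φ p i ((A.e i).symm z)) (A.e i x) = 0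
  rw [wd_congr h1, wd_const]

/-! ### the metrics -/

/-- the metric `h^q e^{-q u - Φ}` -/
def mt (q : ℕ) {u Φ : M → ℝ} (hu : A.Sm u) (hΦ : A.Sm Φ) : HM (L ^ q) :=
  tw (pow E.h q) (fun y => (q : ℝ) * u y + Φ y) (sm_lin _ hu hΦ)

theorem cur_mt (q : ℕ) {u Φ : M → ℝ} (hu : A.Sm u) (hΦ : A.Sm Φ) {i : A.ι} {x : M}
    (hx : x ∈ (A.e i).source) :
    cur (mt E q hu hΦ) i x = (q : ℂ) • (cur E.h i x + hsf A u i x) + hsf A Φ i x := by
  unfold mt
  rw [cur_tw _ _ _ hx, cur_pow _ _ _ hx, hsf_lin _ hu hΦ hx, smul_add, add_assoc]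
  norm_num

theorem mt_w (q : ℕ) {u Φ : M → ℝ} (hu : A.Sm u) (hΦ : A.Sm Φ) (i : A.ι) (x : M) :
    (mt E q hu hΦ).w i x = E.h.w i x ^ q * Real.exp (-(q * u x + Φ x)) := by
  show (pow E.h q).w i x * _ = _
  rw [pow_w]

/-- positivity on the tube -/
theorem psd_mt {q : ℕ} {u Φ : M → ℝ} (hu : A.Sm u) (hΦ : A.Sm Φ) {i : A.ι} {x : M}
    (hx : x ∈ (A.e i).source) (hT : x ∈ E.T) {δ C3 : ℝ} (hq : C3 + 1 ≤ q * E.ε)
    (h1 : (cur E.h i x + hsf A u i x + (δ : ℂ) • K.g i x - (E.ε : ℂ) •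
      hsf A (sqw E.w) i x).PosSemidef)
    (h2 : (hsf A Φ i x + (C3 : ℂ) • hsf A (sqw E.w) i x).PosSemidef) :
    (cur (mt E q hu hΦ) i x + ((q * δ : ℝ) : ℂ) • K.g i x - hsf A (sqw E.w) i x).PosSemidef := by
  have h3 := psd_smul h1 (Nat.cast_nonneg (α := ℝ) q)
  have h4 := psd_smul (E.psd_w hx hT.1) (t := q * E.ε - C3 - 1) (by linarith)
  have h5 := (h3.add h2).add h4
  convert h5 using 1
  rw [cur_mt E q hu hΦ hx]
  push_cast
  module

/-- positivity off the tube -/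
theorem psd_mt_off [T2Space M] {q : ℕ} {u Φ : M → ℝ} (hu : A.Sm u) (hΦ : A.Sm Φ) {i : A.ι} {x : M}
    (hx : x ∈ (A.e i).source) (hT : x ∉ E.T) {δ : ℝ}
    (h1 : (cur E.h i x + hsf A u i x + (δ : ℂ) • K.g i x).PosSemidef)
    (h2 : ∀ x, ¬ (x ∈ E.U ∧ sqw E.w x < E.ρ) → Φ x = 0) :
    (cur (mt E q hu hΦ) i x + ((q * δ : ℝ) : ℂ) • K.g i x).PosSemidef := by
  have h3 := psd_smul h1 (Nat.cast_nonneg (α := ℝ) q)
  have h4 : hsf A Φ i x = 0 := by
    have e1 : (fun z => Φ ((A.e i).symm z)) =ᶠ[𝓝 (A.e i x)] fun _ => (0 : ℝ) := by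
      have e2 : ∀ᶠ y in 𝓝 x, y ∉ E.T := E.isClosed_T.isOpen_compl.mem_nhds hT
      filter_upwards [ev_symm hx e2] with z hz
      exact h2 _ fun h => hz ⟨h.1, h.2.le⟩
    unfold hsf
    rw [hess_congr e1, hess_zero]
  convert h3 using 1
  rw [cur_mt E q hu hΦ hx, h4]
  push_cast
  module

end

end

end Crest.Agent.R281.LEnd_10
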