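import Crest.Agent.R281.LEnd4_10
import Crest.Agent.R281.HoC4_578

/-!
# R281 (S0424), S6-L2END (helper10), part 5: `L2User` from helper578's theorem
-/

set_option autoImplicit false
set_option linter.unusedSectionVars false

open Set Filter Topology Complex MeasureTheory Metric
open scoped ContDiff Matrix ComplexConjugate Kronecker ComplexOrder ENNReal

namespace Crest.Agent.R281.LEnd_10

open Crest.Agent.R275 Crest.Agent.R275.Geo Crest.Agent.R275.Core144 Crest.Agent.R275.Dg199
open Crest.Agent.R275.EDR890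
open Crest.Agent.R273.Defs_333 Crest.Agent.R273.HM_333 Crest.Agent.R273.Kah_333
open Crest.Agent.R273.Hess_333 Crest.Agent.R273.HessB_333 Crest.Agent.R273.FS_333
open Crest.Agent.R273.Fock_243 Crest.Agent.R273.Calc_243
open Crest.Agent.R273.LamN127 Crest.Agent.R273.NormC_505 Crest.Agent.R273.DnInt_505
open Crest.Agent.R273.DVec_733 Crest.Agent.R273.DMet_733 Crest.Agent.R273.DMetB_733
open Crest.Agent.R273.HDN_505 (HB HB_pos)
open Crest.Agent.R273.SerA_945 Crest.Agent.R273.SerB_945
open Crest.Agent.R281.Defs_273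
open Crest.Agent.R281.HoC_578 (HB_hd_re)
open Crest.Agent.R272.Kod5_410 (Yf hd_zero_le)

noncomputable section

variable {n : ℕ} {M : Type} [TopologicalSpace M] {A : Atl n M}

/-- the part of degree one of `e_a ∧ f` (copy of `DegOne_376.eW_single_apply`) -/
theorem eW_one (a b : Fin n) (v : FI n → ℂ) :
    ((eW (ep a) : Matrix (FI n) (FI n) ℂ) *ᵥ v) {b} = if a = b then v ∅ else 0 := by
  unfold eW
  rw [Crest.Agent.R275.Kos798.K_mulVec]
  unfold Crest.Agent.R275.Kos798.op
  rw [Finset.sum_eq_single b]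
  · have h1 : (({b} : FI n).filter (· < b)) = ∅ := by
      ext x
      simp only [Finset.mem_filter, Finset.mem_singleton, Finset.notMem_empty, iff_false, not_and]
      rintro rfl
      exact lt_irrefl _
    simp only [Crest.Agent.R275.Kos798.sgn, Crest.Agent.R275.Kos798.cf,
      Crest.Agent.R275.Kos798.tog, h1, Finset.mem_singleton, if_true, Finset.card_empty, pow_zero,
      one_mul, Finset.erase_singleton]
    by_cases hab : a = b
    · subst hab
      simp
    · rw [if_neg hab, show (ep a : Fin n → ℂ) b = 0 from Pi.single_eq_of_ne (Ne.symm hab) _,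
        zero_mul]
  · intro c _ hc
    simp [Crest.Agent.R275.Kos798.cf, Finset.mem_singleton, hc]
  · intro h
    exact absurd (Finset.mem_univ _) h

theorem embN_vac {N : LB A} (y : Fn A) (i : A.ι) (x : M) :
    oB (N := N) (embN y i x) ∅ = y i x := by
  show (if (∅ : Finset (Fin n)) = ∅ then y i x else 0) = y i x
  rw [if_pos rfl]

/-- the components of `∂̄ y0` -/
theorem nab_embN {N : LB A} {y0 : Fn A} (h0 : SmS N y0)
    (o0 : ∀ i, ∀ x ∉ (A.e i).source, y0 i x = 0) {i : A.ι} {x : M} (hx : x ∈ (A.e i).source)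
    (b : Fin n) : oB (N := N) (nab (BN N) (embN y0) i x) {b} = A.db i b (y0 i) x := by
  have hm := embN_mem h0 o0
  have h1 := congrFun (oB_nab (N := N) (u := embN y0) hm.1.1 hx) {b}
  refine h1.trans ?_
  rw [Finset.sum_apply, Finset.sum_eq_single b]
  · rw [eW_one, if_pos rfl]
    have h3 : (fun z => oB (N := N) (embN y0 i ((A.e i).symm z)) ∅) =
        fun z => y0 i ((A.e i).symm z) := by
      funext z
      exact embN_vac y0 i _
    show wd (true, b) (fun z => oB (N := N) (embN y0 i ((A.e i).symm z)) ∅) (A.e i x) = _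
    rw [h3]
    rfl
  · intro a _ hab
    rw [eW_one, if_neg hab]
  · intro h
    exact absurd (Finset.mem_univ _) h

variable [T2Space M] [CompactSpace M] [Finite A.ι] (P : Part A) (K : Kah A)

theorem cur_mulX {N : LB A} {hX : HM (KB A)} (hflat : ∀ i, ∀ x ∈ (A.e i).source, cur hX i x = 0)
    (h : HM N) {i : A.ι} {x : M} (hx : x ∈ (A.e i).source) :
    cur (mul (inv hX) h) i x = cur h i x := by
  rw [cur_mul _ _ _ hx, cur_inv _ _ hx, hflat i x hx, neg_zero, zero_add]

/-- **the `L²` theorem in the user's form** -/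
theorem l2User (hX : HM (KB A)) (hflat : ∀ i, ∀ x ∈ (A.e i).source, cur hX i x = 0) :
    L2User P K hX := by
  intro N hh b hb ε hε hε0 hpsd y0 y1 h0 o0 h1 o1 D hD hpt
  have hm := embN_mem h0 o0
  let u0 : Sec (BN N) := ⟨embN y0, hm.1⟩
  let u1 : Sec (BN N) := ⟨embN y1, (embN_mem h1 o1).1⟩
  have hu0 : pqL (BN N) 0 u0 = u0 := Subtype.ext (R273.SerE_945.pq_of_isDeg hm.2)
  set g : Sec (BN N) := nabL (BN N) u0 with hg
  have hg1 : pqL (BN N) 1 g = g := by
    refine Subtype.ext ?_
    have h4 := nab_pq (B := BN N) 0 u0.2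
    have h5 : pq (BN N) 0 u0.1 = u0.1 := congrArg Subtype.val hu0
    rw [h5] at h4
    exact h4.symm
  have hg0 : nabL (BN N) g = 0 := nab_nab_BN N u0
  have hw : ∀ (h : HM N) i x, (mul (inv hX) h).w i x = (hX.w i x)⁻¹ * h.w i x := fun h i x => rfl
  have hXp : ∀ i, ∀ x ∈ (A.e i).source, 0 < (hX.w i x)⁻¹ := fun i x hx => inv_pos.2 (hX.pos i x hx)
  obtain ⟨y, hy, hy0, hyn⟩ := HoC_578.l2_pt P K N g hg0 hg1 (fun ν => mul (inv hX) (hh ν))
    (mul (inv hX) b)
    (fun ν i x hx => by
      rw [hw, hw]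
      exact mul_le_mul_of_nonneg_left (hb ν i x hx) (hXp i x hx).le) ε hε hε0
    (fun ν i x hx => by
      rw [cur_mulX hflat _ hx]
      exact hpsd ν i x hx)
    (fun ν => (HB K (mul (inv hX) (hh ν))).hd u1.1 u1.1) D
    (fun ν => (HB K _).isDn u1.2 u1.2)
    (fun ν i x hx => (Complex.le_def.1 ((HB K _).hd_self_nonneg u1.1 hx)).1)
    (fun ν => by
      have := hD ν
      rw [HDen.sn_sq] at this
      exact this)
    (fun ν i x hx ξ => by
      rw [cur_mulX hflat _ hx]
      have e1 : ∑ c, oB (g.1 i x) {c} * conj (ξ c) = ∑ a, A.db i a (y0 i) x * conj (ξ a) :=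
        Finset.sum_congr rfl fun c _ => by
          rw [← nab_embN h0 o0 hx c]
          rfl
      rw [e1]
      have e2 := hd_zero_le K (mul (inv hX) (hh ν)) u1.1 hx
      have e3 : oB (u1.1 i x) ∅ = y1 i x := embN_vac y1 i x
      rw [e3] at e2
      have e4 : 0 ≤ (∑ a, ∑ c, (cur (hh ν) i x + (ε ν : ℂ) • K.g i x) a c * ξ a *
          conj (ξ c)).re := form_nonneg (hpsd ν i x hx) ξ
      calc (mul (inv hX) (hh ν)).w i x * ‖∑ a, A.db i a (y0 i) x * conj (ξ a)‖ ^ 2
          ≤ (mul (inv hX) (hh ν)).w i x * (‖y1 i x‖ ^ 2 * _) :=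
            mul_le_mul_of_nonneg_left (hpt ν i x hx ξ) ((mul (inv hX) (hh ν)).pos i x hx).le
        _ = ((mul (inv hX) (hh ν)).w i x * ‖y1 i x‖ ^ 2) * _ := by ring
        _ ≤ _ := mul_le_mul_of_nonneg_right e2 e4)
  let yr : Raw A := y.1
  have hyF : yr ∈ FF N 0 := by
    refine ⟨y.2, ?_⟩
    intro i x κ hκ
    by_contra hne
    have h1 : y.1 i x κ = pq (BN N) 0 y.1 i x κ := by
      conv_lhs => rw [← hy0]
      rfl
    rw [pq_apply, if_neg hne] at h1
    exact hκ h1
  have hu : embN y0 - yr ∈ FF N 0 := (FF N 0).sub_mem hm hyF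
  have hDu : Db (embN y0 - yr) = 0 := by
    rw [Db_sub hm hyF]
    have h2 : Db yr = Db (embN y0) := congrArg Subtype.val hy
    rw [h2, sub_self]
  have hsec := isHS_of_closed hu hDu
  refine ⟨_, hsec, fun u hu' => ?_⟩
  have e5 : u = y := by
    refine Subtype.ext ?_
    rw [hu']
    funext i x k
    show embN y0 i x k - embN (fun i x => (embN y0 - yr) i x (∅, ())) i x k = y.1 i x k
    by_cases hk : k.1 = ∅
    · obtain ⟨T, ⟨⟩⟩ := k
      simp only at hk
      subst hk
      have e6 : embN (fun i x => (embN y0 - yr) i x ((∅ : Finset (Fin n)), ())) i x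
          ((∅ : Finset (Fin n)), ()) = (embN y0 - yr) i x ((∅ : Finset (Fin n)), ()) :=
        if_pos rfl
      rw [e6]
      show embN y0 i x ((∅ : Finset (Fin n)), ()) - (embN y0 i x ((∅ : Finset (Fin n)), ()) -
        yr i x ((∅ : Finset (Fin n)), ())) = yr i x ((∅ : Finset (Fin n)), ())
      ring
    · have e6 : embN (fun i x => (embN y0 - yr) i x (∅, ())) i x k = 0 := if_neg hk
      have e7 : embN y0 i x k = 0 := if_neg hk
      have e8 : y.1 i x k = 0 := by
        by_contra hne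
        exact hk (Finset.card_eq_zero.1 (hyF.2 i x k hne))
      rw [e6, e7, e8, sub_zero]
  rw [e5]
  exact hyn

end

end Crest.Agent.R281.LEnd_10
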