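import Crest.Agent.R281.LEnd5_10
import Crest.Agent.R281.End4_946

/-!
# R281 (S0424), S6-L2END (helper10), part 6: the section which does not vanish at `x0`
-/

set_option autoImplicit false
set_option linter.unusedSectionVars false

open Set Filter Topology Complex MeasureTheory Metric
open scoped ContDiff Matrix ComplexConjugate Kronecker ComplexOrder ENNReal

namespace Crest.Agent.R281.LEnd_10

open Crest.Agent.R275 Crest.Agent.R275.Geo Crest.Agent.R275.Core144 Crest.Agent.R275.Dg199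
open Crest.Agent.R275.EDR890
open Crest.Agent.R273.Defs_333 Crest.Agent.R273.HM_333 Crest.Agent.R273.Kah_333
open Crest.Agent.R273.Hess_333 Crest.Agent.R273.HessB_333 Crest.Agent.R273.FS_333
open Crest.Agent.R273.LamN127 Crest.Agent.R273.NormC_505 Crest.Agent.R273.DnInt_505
open Crest.Agent.R273.DVec_733 Crest.Agent.R273.DMet_733
open Crest.Agent.R273.HDN_505 (HB HB_pos)
open Crest.Agent.R273.SerA_945 Crest.Agent.R273.SerB_945
open Crest.Agent.R281.Defs_273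
open Crest.Agent.R281.HoC_578 (HB_hd_re)
open Crest.Agent.R272.Kod5_410 (Yf)

noncomputable section

variable {n : ℕ} {M : Type} [TopologicalSpace M] {A : Atl n M}
variable {K : Kah A} {L : LB A} {x0 : M} (E : EndIn K L x0)

/-! ### the cut-off function -/

/-- `1` on `t ≤ ρ/4`, `0` on `t ≥ ρ/2` -/
def cf (ρ : ℝ) (t : ℝ) : ℝ := Real.smoothTransition ((ρ / 2 - t) / (ρ / 4))

theorem cf_smooth (ρ : ℝ) : ContDiff ℝ ∞ (cf ρ) := by
  have h1 : ContDiff ℝ ∞ (fun t : ℝ => (ρ / 2 - t) / (ρ / 4)) := by fun_prop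
  exact Real.smoothTransition.contDiff.comp h1

theorem cf_one {ρ t : ℝ} (hρ : 0 < ρ) (ht : t ≤ ρ / 4) : cf ρ t = 1 := by
  refine Real.smoothTransition.one_of_one_le ?_
  rw [le_div_iff₀ (by positivity)]
  linarith

theorem cf_zero {ρ t : ℝ} (hρ : 0 < ρ) (ht : ρ / 2 ≤ t) : cf ρ t = 0 := by
  refine Real.smoothTransition.zero_of_nonpos ?_
  exact div_nonpos_of_nonpos_of_nonneg (by linarith) (by positivity)

theorem dcf_lt {ρ t : ℝ} (hρ : 0 < ρ) (ht : t < ρ / 4) : deriv (cf ρ) t = 0 := by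
  have h1 : cf ρ =ᶠ[𝓝 t] fun _ => (1 : ℝ) := by
    filter_upwards [Iio_mem_nhds ht] with s hs
    exact cf_one hρ (le_of_lt hs)
  rw [h1.deriv_eq, deriv_const]

theorem dcf_gt {ρ t : ℝ} (hρ : 0 < ρ) (ht : ρ / 2 < t) : deriv (cf ρ) t = 0 := by
  have h1 : cf ρ =ᶠ[𝓝 t] fun _ => (0 : ℝ) := by
    filter_upwards [Ioi_mem_nhds ht] with s hs
    exact cf_zero hρ (le_of_lt hs)
  rw [h1.deriv_eq, deriv_const]

theorem dcf_smooth (ρ : ℝ) : ContDiff ℝ ∞ (fun t => Real.sqrt ρ * deriv (cf ρ) t) := by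
  have h1 : ContDiff ℝ ∞ (deriv (cf ρ)) := ((contDiff_infty_iff_deriv).1 (cf_smooth ρ)).2
  exact contDiff_const.mul h1

/-! ### the pointwise inequality -/

section pt

variable [T2Space M] {q : ℕ} {u Φ : M → ℝ} (hu : A.Sm u) (hΦ : A.Sm Φ) {C3 δ : ℝ}
  (hq : C3 + 1 ≤ q * E.ε)
  (h1 : ∀ i, ∀ x ∈ (A.e i).source, (cur E.h i x + hsf A u i x + (δ : ℂ) • K.g i x).PosSemidef)
  (h2 : ∀ i, ∀ x ∈ (A.e i).source, x ∈ E.U → sqw E.w x ≤ E.ρ →
    (cur E.h i x + hsf A u i x + (δ : ℂ) • K.g i x - (E.ε : ℂ) • hsf A (sqw E.w) i x).PosSemidef)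
  (h3 : ∀ i, ∀ x ∈ (A.e i).source, x ∈ E.U → sqw E.w x ≤ E.ρ →
    (hsf A Φ i x + (C3 : ℂ) • hsf A (sqw E.w) i x).PosSemidef)
  (h4 : ∀ x, ¬ (x ∈ E.U ∧ sqw E.w x < E.ρ) → Φ x = 0)

include hq h1 h2 h3 h4 in
theorem psd_all (i : A.ι) (x : M) (hx : x ∈ (A.e i).source) :
    (cur (mt E q hu hΦ) i x + ((q * δ : ℝ) : ℂ) • K.g i x).PosSemidef := by
  by_cases hT : x ∈ E.T
  · have h5 := psd_mt E hu hΦ hx hT hq (h2 i x hx hT.1 hT.2) (h3 i x hx hT.1 hT.2)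
    have h6 := h5.add (E.psd_w hx hT.1)
    rwa [sub_add_cancel] at h6
  · exact psd_mt_off E hu hΦ hx hT (h1 i x hx) h4

include hq h1 h2 h3 h4 in
theorem pt_all (p : ℕ) (i : A.ι) (x : M) (hx : x ∈ (A.e i).source) (ξ : Fin n → ℂ) :
    ‖∑ a, A.db i a (cutS E (cf E.ρ) p i) x * conj (ξ a)‖ ^ 2 ≤
      ‖cutS E (fun t => Real.sqrt E.ρ * deriv (cf E.ρ) t) p i x‖ ^ 2 *
        (∑ a, ∑ c, (cur (mt E q hu hΦ) i x + ((q * δ : ℝ) : ℂ) • K.g i x) a c * ξ a *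
          conj (ξ c)).re := by
  have hpos := form_nonneg (psd_all E hu hΦ hq h1 h2 h3 h4 i x hx) ξ
  have hρ0 : ∀ t, E.ρ ≤ t → cf E.ρ t = 0 := fun t ht =>
    cf_zero E.ρ_pos (by linarith [E.ρ_pos])
  by_cases hT : x ∈ E.T
  · have e1 := cutS_pt E (p := p) (cf_smooth E.ρ) hx hT.1 ξ
    refine e1.trans ?_
    rw [cutS_eq E hx hT.1, norm_mul, mul_pow, Complex.norm_real, Real.norm_eq_abs, sq_abs, mul_pow,
      Real.sq_sqrt E.ρ_pos.le]
    have e2 := form_mono (psd_mt E hu hΦ hx hT hq (h2 i x hx hT.1 hT.2) (h3 i x hx hT.1 hT.2)) ξ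
    have e3 := form_nonneg (E.psd_w hx hT.1) ξ
    have e4 : sqw E.w x * (∑ a, ∑ b, hsf A (sqw E.w) i x a b * ξ a * conj (ξ b)).re ≤
        E.ρ * (∑ a, ∑ c, (cur (mt E q hu hΦ) i x + ((q * δ : ℝ) : ℂ) • K.g i x) a c * ξ a *
          conj (ξ c)).re := by
      refine mul_le_mul hT.2 e2 e3 E.ρ_pos.le
    calc deriv (cf E.ρ) (sqw E.w x) ^ 2 * ‖E.τ i x ^ p‖ ^ 2 *
          (sqw E.w x * (∑ a, ∑ b, hsf A (sqw E.w) i x a b * ξ a * conj (ξ b)).re)
        ≤ deriv (cf E.ρ) (sqw E.w x) ^ 2 * ‖E.τ i x ^ p‖ ^ 2 * (E.ρ * _) :=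
          mul_le_mul_of_nonneg_left e4 (by positivity)
      _ = _ := by ring
  · have e1 : ∑ a, A.db i a (cutS E (cf E.ρ) p i) x * conj (ξ a) = 0 :=
      Finset.sum_eq_zero fun a _ => by rw [db_cutS_off E hρ0 hx hT a, zero_mul]
    rw [e1, norm_zero]
    have : (0 : ℝ) ^ 2 = 0 := by norm_num
    rw [this]
    exact mul_nonneg (sq_nonneg _) hpos

end pt

/-! ### the norm of `y1` -/

section norm

variable [T2Space M] [CompactSpace M] [Finite A.ι] (P : Part A)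

theorem sn_y1 (hX : HM (KB A)) {q : ℕ} {u Φ : M → ℝ} (hu : A.Sm u) (hΦ : A.Sm Φ) {C4 : ℝ}
    (hC : ∀ x, |u x| ≤ E.C) (h5 : ∀ x, (x ∈ E.U → E.ρ / 8 ≤ sqw E.w x) → |Φ x| ≤ C4) (p : ℕ)
    {y : Sec (BN (L ^ q))}
    (hy : y.1 = embN (cutS E (fun t => Real.sqrt E.ρ * deriv (cf E.ρ) t) p)) :
    (HB K (mul (inv hX) (mt E q hu hΦ))).sn P y ^ 2 ≤
      Real.exp (q * E.C + C4) * (HB K (mul (inv hX) (pow E.h q))).sn P y ^ 2 := by
  rw [HDen.sn_sq, HDen.sn_sq]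
  have h1 : Real.exp (q * E.C + C4) * ((HB K (mul (inv hX) (pow E.h q))).ip P y.1 y.1).re =
      (IntP P (fun i x => ((Real.exp (q * E.C + C4) : ℝ) : ℂ) *
        (HB K (mul (inv hX) (pow E.h q))).hd y.1 y.1 i x)).re := by
    rw [IntP_const_mul, Complex.re_ofReal_mul]
    rfl
  rw [h1]
  refine IntP_re_mono P ((HB K _).isDn y.2 y.2) (((HB K _).isDn y.2 y.2).const_mul _) ?_
  intro i x hx
  rw [Complex.re_ofReal_mul]
  obtain ⟨r, hr0, hr, hr'⟩ := HB_hd_re K (mul (inv hX) (pow E.h q)) y hx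
  by_cases h0 : cutS E (fun t => Real.sqrt E.ρ * deriv (cf E.ρ) t) p i x = 0
  · have e1 : y.1 i x = 0 := by
      rw [hy]
      funext k
      show (if k.1 = ∅ then cutS E (fun t => Real.sqrt E.ρ * deriv (cf E.ρ) t) p i x else 0) = 0
      rw [h0]
      split_ifs <;> rfl
    rw [hd_of_zero K _ e1, hd_of_zero K _ e1]
    simp
  · have hU : x ∈ E.U := by
      by_contra hU
      exact h0 (cutS_offU E i hU)
    have e2 : Real.sqrt E.ρ * deriv (cf E.ρ) (sqw E.w x) ≠ 0 := by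
      intro h
      rw [cutS_eq E hx hU, h, ofReal_zero, zero_mul] at h0
      exact h0 rfl
    have e3 : E.ρ / 4 ≤ sqw E.w x := by
      by_contra h
      refine e2 ?_
      rw [dcf_lt E.ρ_pos (not_le.1 h), mul_zero]
    have e4 : |Φ x| ≤ C4 := h5 x fun _ => by linarith [E.ρ_pos]
    rw [hr, hr' (mul (inv hX) (mt E q hu hΦ))]
    have e5 : (mul (inv hX) (mt E q hu hΦ)).w i x =
        (mul (inv hX) (pow E.h q)).w i x * Real.exp (-(q * u x + Φ x)) := by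
      show (hX.w i x)⁻¹ * ((mt E q hu hΦ).w i x) = (hX.w i x)⁻¹ * ((pow E.h q).w i x) * _
      rw [mt_w, pow_w, mul_assoc]
    rw [e5]
    have e6 : Real.exp (-(q * u x + Φ x)) ≤ Real.exp (q * E.C + C4) := by
      refine Real.exp_le_exp.2 ?_
      have f1 := abs_le.1 (hC x)
      have f2 := abs_le.1 e4
      have f3 : (q : ℝ) * (-u x) ≤ q * E.C :=
        mul_le_mul_of_nonneg_left (by linarith) (Nat.cast_nonneg q)
      linarith
    have e7 : 0 ≤ (mul (inv hX) (pow E.h q)).w i x * r :=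
      mul_nonneg ((mul (inv hX) (pow E.h q)).pos i x hx).le hr0
    calc (mul (inv hX) (pow E.h q)).w i x * Real.exp (-(q * u x + Φ x)) * r
        = Real.exp (-(q * u x + Φ x)) * ((mul (inv hX) (pow E.h q)).w i x * r) := by ring
      _ ≤ _ := mul_le_mul_of_nonneg_right e6 e7

end norm

end

end Crest.Agent.R281.LEnd_10
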