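import Crest.Agent.R281.LI2_473
import Crest.Agent.R281.As1_957

/-!
# LS-INST / PER-INST, part 3 (row 281, helper473): `Geom` of helper957 from Hodge data
-/

set_option autoImplicit false

open Polynomial Set Filter Topology UpperHalfPlane
open scoped Polynomial.Bivariate

namespace Crest.Agent.R281.LI_473

open CL_473 As_957 Ends1_989 Ends2_989 Ends3_989 Ends4_989 Ends5_989

variable {H : Type*} [AddCommGroup H] [Module ℝ H] {Q : H →ₗ[ℝ] H →ₗ[ℝ] ℝ}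
  {f : ℂ[X][Y]} {δ : ℂ[X]} {G : Type*} [Group G] {E : Type*} [MulAction G E]
  {L : LS (Qs f δ) G E} {F : Fr Q} {Lz : AddSubgroup H} {κ : Type*}

/-- **`Geom` from Hodge data** -/
noncomputable def HM.geom (D : HM L F Lz κ)
    (hol : ∀ x, (∀ i, D.cls i x = D.cl i) → ∃ φ₀ φ₁ : ℂ → ℂ, AnalyticAt ℂ φ₀ (L.p x).1.1 ∧
      AnalyticAt ℂ φ₁ (L.p x).1.1 ∧ ∀ᶠ q in 𝓝 (L.p x),
        F.z0 (D.re (L.s x q)) (D.im (L.s x q)) = φ₀ q.1.1 ∧
        F.z1 (D.re (L.s x q)) (D.im (L.s x q)) = φ₁ q.1.1) :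
    Geom f δ F.N (F.Λ Lz) D.Gp D.Mk where
  toLS := D.lS
  R := D.R
  mem := D.R_mem
  Φ := D.Φ
  Φ_smul := D.Φ_smul
  Φ_hol x := by
    obtain ⟨φ₀, φ₁, h0, h1, h⟩ := hol x.1 x.2.1
    have hx := h.self_of_nhds
    rw [L.s_self] at hx
    have hN : (F.N : ℂ) ≠ 0 := Complex.ofReal_ne_zero.mpr F.N_pos.ne'
    have hne : φ₀ (L.p x.1).1.1 ≠ 0 := by
      rw [← hx.1]; exact (D.isPer x.2.1).spec.1
    refine ⟨fun u => φ₁ u / (F.N * φ₀ u), h1.div (analyticAt_const.mul h0) (mul_ne_zero hN hne), ?_⟩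
    have hU : L.U (L.p x.1) ∈ 𝓝 (L.p x.1) := (L.U_open _).mem_nhds (L.U_mem _)
    change ∀ᶠ q in 𝓝 (L.p x.1), (D.Φ (D.lS.s x q) : ℂ) = _
    filter_upwards [h, hU] with q hq hqU
    rw [D.Φ_s x hqU, Fr.tau, hq.1, hq.2]

theorem HM.geom_Φ (D : HM L F Lz κ) (hol) (x : D.Mk) :
    ((D.geom hol).Φ x : ℂ) = F.tau (D.re x.1) (D.im x.1) := rfl

theorem HM.geom_toLS (D : HM L F Lz κ) (hol) : (D.geom hol).toLS = D.lS := rfl

theorem HM.geom_R (D : HM L F Lz κ) (hol) : (D.geom hol).R = D.R := rfl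

end Crest.Agent.R281.LI_473
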