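import Mathlib

/-!
# Row 281 (S0424), leaf S6-LAGALG (helper479), part 1: Lagrangian subspaces of a quaternionic metric

Conventions (508, 835): `G` Hermitian positive definite (`g_{a b̄}`), squared length of `v` is
`∑ G a b v_a conj v_b = star v ⬝ᵥ (Gᵀ *ᵥ v)`; `S` antisymmetric; hyperkaehler relation
`S * (Gᵀ)⁻¹ * Sᴴ = c • G` (`c = 1` in `HkP3_508.HK.rel`).  `A` is an `m × n` matrix whose columns
form a frame of a subspace `F`; `gr G A = Aᵀ G conj A` is its Gram matrix, `Aᵀ S V` are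
the covectors `σ(A_j, V_k)` on `F`, `dst G A V W` is the square of the distance to `F` (polarised).

* `schur_eq`   : `F` Lagrangian of half dimension: the Schur complement (square of the distance to
  `F`) of the vectors `V` is `c⁻¹` times the dual form of `G|_F` on the covectors `Aᵀ S V`;
* `schur_ge`   : the same with `≥` for an arbitrary isotropic `F`;
* `det_frame`  : determinant of `G` on `F + V`; `det_one`: one vector, cofactor form;
* `le_lift`    : `|ι_v σ|²_{G|F} ≤ c |v|²`, `F` isotropic.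
-/

set_option autoImplicit false
set_option linter.unusedSectionVars false

open Matrix
open scoped ComplexOrder ComplexConjugate

namespace Crest.Agent.R281.Lag_479

noncomputable section

variable {m n p q : Type*} [Fintype m] [DecidableEq m] [Fintype n] [DecidableEq n]
  [Fintype p] [DecidableEq p] [Fintype q] [DecidableEq q]

/-- the Gram matrix of the frame `A` in the convention `g_{a b̄}`: `gr G A j k = ⟨A_j, A_k⟩` -/
def gr (G : Matrix m m ℂ) (A : Matrix m n ℂ) : Matrix n n ℂ := Aᵀ * G * (Aᵀ)ᴴ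

/-- the square of the distance to the span of `A` (polarised, convention `star v ⬝ᵥ Gᵀ w`) -/
def dst (G : Matrix m m ℂ) (A : Matrix m n ℂ) (V : Matrix m p ℂ) (W : Matrix m q ℂ) :
    Matrix p q ℂ :=
  Vᴴ * Gᵀ * W - Vᴴ * Gᵀ * A * ((gr G A)ᵀ)⁻¹ * (Aᴴ * Gᵀ * W)

theorem gr_transpose (G : Matrix m m ℂ) (A : Matrix m n ℂ) : (gr G A)ᵀ = Aᴴ * Gᵀ * A := by
  rw [gr, transpose_mul, transpose_mul, transpose_transpose, Matrix.mul_assoc]
  rfl

theorem gr_apply (G : Matrix m m ℂ) (A : Matrix m n ℂ) (j k : n) :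
    gr G A j k = ∑ a, ∑ b, G a b * A a j * conj (A b k) := by
  rw [gr, Matrix.mul_apply, Finset.sum_comm]
  refine Finset.sum_congr rfl fun b _ => ?_
  rw [Matrix.mul_apply, Finset.sum_mul]
  refine Finset.sum_congr rfl fun a _ => ?_
  simp only [transpose_apply, conjTranspose_apply, RCLike.star_def]
  ring

theorem gr_posDef {G : Matrix m m ℂ} (hG : G.PosDef) {A : Matrix m n ℂ}
    (hA : Function.Injective A.mulVec) : (gr G A).PosDef := by
  rw [← PosDef.transpose_iff, gr_transpose]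
  exact hG.transpose.conjTranspose_mul_mul_same hA

/-- the conjugate frame `(Gᵀ)⁻¹ Sᴴ conj A` of the orthogonal complement -/
def comp (G S : Matrix m m ℂ) (A : Matrix m n ℂ) : Matrix m n ℂ := (Gᵀ)⁻¹ * Sᴴ * (Aᵀ)ᴴ

section
variable {G S : Matrix m m ℂ} {c : ℝ} {A : Matrix m n ℂ}

theorem isUnit_T (hG : G.PosDef) : IsUnit (Gᵀ).det :=
  (Matrix.isUnit_iff_isUnit_det _).1 hG.transpose.isUnit

theorem herm_T (hG : G.PosDef) : (Gᵀ)ᴴ = Gᵀ := hG.transpose.isHermitian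

theorem comp_H (hG : G.PosDef) : (comp G S A)ᴴ = Aᵀ * S * (Gᵀ)⁻¹ := by
  rw [comp, conjTranspose_mul, conjTranspose_mul, conjTranspose_conjTranspose,
    conjTranspose_conjTranspose, conjTranspose_nonsing_inv, herm_T hG, Matrix.mul_assoc]

theorem comp_orth (hG : G.PosDef) (hL : Aᵀ * S * A = 0) : Aᴴ * Gᵀ * comp G S A = 0 := by
  have h1 : Gᵀ * comp G S A = Sᴴ * (Aᵀ)ᴴ := by
    rw [comp, Matrix.mul_assoc, Matrix.mul_nonsing_inv_cancel_left _ _ (isUnit_T hG)]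
  rw [Matrix.mul_assoc, h1, ← conjTranspose_mul, ← conjTranspose_mul, hL, conjTranspose_zero]

theorem comp_orth' (hG : G.PosDef) (hL : Aᵀ * S * A = 0) : (comp G S A)ᴴ * Gᵀ * A = 0 := by
  rw [comp_H hG, Matrix.mul_assoc (Aᵀ * S), Matrix.nonsing_inv_mul _ (isUnit_T hG), Matrix.mul_one,
    hL]

theorem comp_gram (hG : G.PosDef) (hR : S * (Gᵀ)⁻¹ * Sᴴ = (c : ℂ) • G) :
    (comp G S A)ᴴ * Gᵀ * comp G S A = (c : ℂ) • gr G A := by
  have h1 : Gᵀ * comp G S A = Sᴴ * (Aᵀ)ᴴ := by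
    rw [comp, Matrix.mul_assoc, Matrix.mul_nonsing_inv_cancel_left _ _ (isUnit_T hG)]
  have h2 : Aᵀ * S * (Gᵀ)⁻¹ * (Sᴴ * (Aᵀ)ᴴ) = Aᵀ * (S * (Gᵀ)⁻¹ * Sᴴ) * (Aᵀ)ᴴ := by
    simp only [Matrix.mul_assoc]
  rw [Matrix.mul_assoc, h1, comp_H hG, h2, hR, gr, Matrix.mul_smul, Matrix.smul_mul]

theorem comp_cov (hG : G.PosDef) (V : Matrix m p ℂ) : (comp G S A)ᴴ * Gᵀ * V = Aᵀ * S * V := by
  rw [comp_H hG, Matrix.mul_assoc (Aᵀ * S), Matrix.nonsing_inv_mul _ (isUnit_T hG), Matrix.mul_one]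

theorem cov_comp (hG : G.PosDef) (V : Matrix m p ℂ) :
    Vᴴ * Gᵀ * comp G S A = (Aᵀ * S * V)ᴴ := by
  rw [← comp_cov (G := G) (S := S) (A := A) hG V, conjTranspose_mul, conjTranspose_mul, herm_T hG,
    conjTranspose_conjTranspose, Matrix.mul_assoc]

/-- the two blocks resolve the identity when `A` is a frame of a half dimensional subspace -/
theorem resolve (hG : G.PosDef) (hc : 0 < c) (hR : S * (Gᵀ)⁻¹ * Sᴴ = (c : ℂ) • G)
    (hA : Function.Injective A.mulVec) (hL : Aᵀ * S * A = 0)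
    (hcard : Fintype.card m = 2 * Fintype.card n) :
    A * ((gr G A)ᵀ)⁻¹ * (Aᴴ * Gᵀ) +
      comp G S A * ((c : ℂ)⁻¹ • (gr G A)⁻¹) * ((comp G S A)ᴴ * Gᵀ) = 1 := by
  set D := (gr G A)ᵀ with hD
  set B := comp G S A with hB
  have hDu : IsUnit D.det := (Matrix.isUnit_iff_isUnit_det _).1 (gr_posDef hG hA).transpose.isUnit
  have hCu : IsUnit (gr G A).det := (Matrix.isUnit_iff_isUnit_det _).1 (gr_posDef hG hA).isUnit
  have hc0 : (c : ℂ) ≠ 0 := by exact_mod_cast hc.ne'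
  have key : fromRows (D⁻¹ * (Aᴴ * Gᵀ)) (((c : ℂ)⁻¹ • (gr G A)⁻¹) * (Bᴴ * Gᵀ)) *
      fromCols A B = 1 := by
    rw [fromRows_mul_fromCols]
    have e1 : D⁻¹ * (Aᴴ * Gᵀ) * A = 1 := by
      rw [Matrix.mul_assoc, ← gr_transpose, ← hD, Matrix.nonsing_inv_mul _ hDu]
    have e2 : D⁻¹ * (Aᴴ * Gᵀ) * B = 0 := by
      rw [Matrix.mul_assoc, comp_orth hG hL, Matrix.mul_zero]
    have e3 : (c : ℂ)⁻¹ • (gr G A)⁻¹ * (Bᴴ * Gᵀ) * A = 0 := by
      rw [Matrix.mul_assoc, comp_orth' hG hL, Matrix.mul_zero]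
    have e4 : (c : ℂ)⁻¹ • (gr G A)⁻¹ * (Bᴴ * Gᵀ) * B = 1 := by
      rw [Matrix.mul_assoc, comp_gram hG hR, Matrix.smul_mul, Matrix.mul_smul, smul_smul,
        inv_mul_cancel₀ hc0, one_smul, Matrix.nonsing_inv_mul _ hCu]
    rw [e1, e2, e3, e4, fromBlocks_one]
  have hce : Fintype.card (n ⊕ n) = Fintype.card m := by
    rw [Fintype.card_sum, hcard]; ring
  have key2 := (Matrix.mul_eq_one_comm_of_equiv (Fintype.equivOfCardEq hce)).1 key
  rw [fromCols_mul_fromRows] at key2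
  rw [← key2]
  simp only [Matrix.mul_assoc]

/-- **(L1)** the square of the distance to a Lagrangian subspace `F` is the dual norm of the
covector `ι_v σ|_F`, up to the constant `c` -/
theorem schur_eq (hG : G.PosDef) (hc : 0 < c) (hR : S * (Gᵀ)⁻¹ * Sᴴ = (c : ℂ) • G)
    (hA : Function.Injective A.mulVec) (hL : Aᵀ * S * A = 0)
    (hcard : Fintype.card m = 2 * Fintype.card n) (V : Matrix m p ℂ) (W : Matrix m q ℂ) :
    dst G A V W = (c : ℂ)⁻¹ • ((Aᵀ * S * V)ᴴ * (gr G A)⁻¹ * (Aᵀ * S * W)) := by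
  have h := congrArg (fun X => Vᴴ * Gᵀ * X * W) (resolve hG hc hR hA hL hcard)
  simp only [Matrix.mul_add, Matrix.add_mul, Matrix.mul_one] at h
  have e1 : Vᴴ * Gᵀ * (A * ((gr G A)ᵀ)⁻¹ * (Aᴴ * Gᵀ)) * W =
      Vᴴ * Gᵀ * A * ((gr G A)ᵀ)⁻¹ * (Aᴴ * Gᵀ * W) := by simp only [Matrix.mul_assoc]
  have e2 : Vᴴ * Gᵀ * (comp G S A * ((c : ℂ)⁻¹ • (gr G A)⁻¹) * ((comp G S A)ᴴ * Gᵀ)) * W =
      (c : ℂ)⁻¹ • ((Aᵀ * S * V)ᴴ * (gr G A)⁻¹ * (Aᵀ * S * W)) := by
    rw [← comp_cov (G := G) (S := S) (A := A) hG W, ← cov_comp (G := G) (S := S) (A := A) hG V]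
    simp only [Matrix.mul_assoc, Matrix.mul_smul, Matrix.smul_mul]
  rw [e1, e2] at h
  rw [dst, ← h, add_sub_cancel_left]

/-- **(L4)** for an arbitrary isotropic subspace the dual norm of `ι_v σ|_F` is at most `c` times
the square of the distance to `F` (Loewner order) -/
theorem schur_ge (hG : G.PosDef) (hc : 0 < c) (hR : S * (Gᵀ)⁻¹ * Sᴴ = (c : ℂ) • G)
    (hA : Function.Injective A.mulVec) (hL : Aᵀ * S * A = 0) (V : Matrix m p ℂ) :
    (dst G A V V - (c : ℂ)⁻¹ • ((Aᵀ * S * V)ᴴ * (gr G A)⁻¹ * (Aᵀ * S * V))).PosSemidef := by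
  set D := (gr G A)ᵀ with hD
  set B := comp G S A with hB
  have hDu : IsUnit D.det := (Matrix.isUnit_iff_isUnit_det _).1 (gr_posDef hG hA).transpose.isUnit
  have hCu : IsUnit (gr G A).det := (Matrix.isUnit_iff_isUnit_det _).1 (gr_posDef hG hA).isUnit
  have hc0 : (c : ℂ) ≠ 0 := by exact_mod_cast hc.ne'
  -- the rest of `V`
  set R := V - A * (D⁻¹ * (Aᴴ * Gᵀ * V)) - B * ((c : ℂ)⁻¹ • (gr G A)⁻¹ * (Aᵀ * S * V)) with hR'
  have hRR : dst G A V V - (c : ℂ)⁻¹ • ((Aᵀ * S * V)ᴴ * (gr G A)⁻¹ * (Aᵀ * S * V)) =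
      Rᴴ * Gᵀ * R := by
    have a1 : Aᴴ * Gᵀ * R = 0 := by
      rw [hR', Matrix.mul_sub, Matrix.mul_sub, ← Matrix.mul_assoc _ A, ← gr_transpose, ← hD,
        Matrix.mul_nonsing_inv_cancel_left _ _ hDu, ← Matrix.mul_assoc _ B, comp_orth hG hL,
        Matrix.zero_mul, sub_self, zero_sub, neg_zero]
    have a2 : Bᴴ * Gᵀ * R = 0 := by
      rw [hR', Matrix.mul_sub, Matrix.mul_sub, ← Matrix.mul_assoc _ A, comp_orth' hG hL,
        Matrix.zero_mul, sub_zero, ← Matrix.mul_assoc _ B, comp_gram hG hR, hB, comp_cov hG,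
        Matrix.smul_mul, Matrix.smul_mul, Matrix.mul_smul, smul_smul, mul_inv_cancel₀ hc0, one_smul,
        Matrix.mul_nonsing_inv_cancel_left _ _ hCu, sub_self]
    have b1 : Rᴴ * Gᵀ * A = 0 := by
      have := congrArg conjTranspose a1
      rwa [conjTranspose_mul, conjTranspose_mul, herm_T hG, conjTranspose_conjTranspose,
        conjTranspose_zero, ← Matrix.mul_assoc] at this
    have b2 : Rᴴ * Gᵀ * B = 0 := by
      have := congrArg conjTranspose a2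
      rwa [conjTranspose_mul, conjTranspose_mul, herm_T hG, conjTranspose_conjTranspose,
        conjTranspose_zero, ← Matrix.mul_assoc] at this
    have b3 : Rᴴ * Gᵀ * R = Rᴴ * Gᵀ * V := by
      conv_lhs => rw [hR']
      rw [← hR', Matrix.mul_sub, Matrix.mul_sub, ← Matrix.mul_assoc _ A, b1, Matrix.zero_mul,
        ← Matrix.mul_assoc _ B, b2, Matrix.zero_mul, sub_zero, sub_zero]
    have hDH : (D⁻¹)ᴴ = D⁻¹ := by
      rw [conjTranspose_nonsing_inv, (gr_posDef hG hA).transpose.isHermitian]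
    have hCH : ((gr G A)⁻¹)ᴴ = (gr G A)⁻¹ := by
      rw [conjTranspose_nonsing_inv, (gr_posDef hG hA).isHermitian]
    have b4 : Rᴴ = Vᴴ - Vᴴ * Gᵀ * A * D⁻¹ * Aᴴ -
        (c : ℂ)⁻¹ • ((Aᵀ * S * V)ᴴ * (gr G A)⁻¹ * Bᴴ) := by
      rw [hR', conjTranspose_sub, conjTranspose_sub, conjTranspose_mul A, conjTranspose_mul D⁻¹,
        conjTranspose_mul (Aᴴ * Gᵀ) V, conjTranspose_mul Aᴴ, conjTranspose_conjTranspose, herm_T hG,
        hDH, conjTranspose_mul B, conjTranspose_mul ((c : ℂ)⁻¹ • (gr G A)⁻¹), conjTranspose_smul,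
        hCH, Matrix.mul_smul, Matrix.smul_mul]
      have : star ((c : ℂ)⁻¹) = (c : ℂ)⁻¹ := by
        rw [← Complex.ofReal_inv]
        exact Complex.conj_ofReal _
      rw [this]
      simp only [Matrix.mul_assoc]
    rw [b3, b4, Matrix.sub_mul, Matrix.sub_mul, Matrix.sub_mul, Matrix.sub_mul, dst]
    congr 1
    · congr 1
      rw [← hD]
      simp only [Matrix.mul_assoc]
    · rw [Matrix.smul_mul, Matrix.smul_mul]
      congr 1
      rw [← comp_cov (G := G) (S := S) (A := A) hG V, ← hB]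
      simp only [Matrix.mul_assoc]
  rw [hRR]
  exact hG.transpose.posSemidef.conjTranspose_mul_mul_same R

/-- the rest of `V` after projection to the span of `A` -/
def rst (G : Matrix m m ℂ) (A : Matrix m n ℂ) (V : Matrix m p ℂ) : Matrix m p ℂ :=
  V - A * (((gr G A)ᵀ)⁻¹ * (Aᴴ * Gᵀ * V))

theorem rst_orth (hG : G.PosDef) (hA : Function.Injective A.mulVec) (V : Matrix m p ℂ) :
    Aᴴ * Gᵀ * rst G A V = 0 := by
  have hDu : IsUnit ((gr G A)ᵀ).det :=
    (Matrix.isUnit_iff_isUnit_det _).1 (gr_posDef hG hA).transpose.isUnit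
  rw [rst, Matrix.mul_sub, ← Matrix.mul_assoc _ A, ← gr_transpose,
    Matrix.mul_nonsing_inv_cancel_left _ _ hDu, sub_self]

theorem dst_eq_rst (hG : G.PosDef) (hA : Function.Injective A.mulVec) (V : Matrix m p ℂ)
    (W : Matrix m q ℂ) : dst G A V W = (rst G A V)ᴴ * Gᵀ * rst G A W := by
  have b1 : (rst G A V)ᴴ * Gᵀ * A = 0 := by
    have := congrArg conjTranspose (rst_orth hG hA V)
    rwa [conjTranspose_mul, conjTranspose_mul, herm_T hG, conjTranspose_conjTranspose,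
      conjTranspose_zero, ← Matrix.mul_assoc] at this
  have hDH : (((gr G A)ᵀ)⁻¹)ᴴ = ((gr G A)ᵀ)⁻¹ := by
    rw [conjTranspose_nonsing_inv, (gr_posDef hG hA).transpose.isHermitian]
  have b3 : (rst G A V)ᴴ * Gᵀ * rst G A W = (rst G A V)ᴴ * Gᵀ * W := by
    conv_lhs => rw [rst.eq_def G A W]
    rw [Matrix.mul_sub, ← Matrix.mul_assoc _ A, b1, Matrix.zero_mul, sub_zero]
  rw [b3, rst, conjTranspose_sub, conjTranspose_mul A, conjTranspose_mul (((gr G A)ᵀ)⁻¹),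
    conjTranspose_mul (Aᴴ * Gᵀ) V, conjTranspose_mul Aᴴ, conjTranspose_conjTranspose, herm_T hG,
    hDH, Matrix.sub_mul, Matrix.sub_mul, dst]
  simp only [Matrix.mul_assoc]

theorem dst_posSemidef (hG : G.PosDef) (hA : Function.Injective A.mulVec) (V : Matrix m p ℂ) :
    (dst G A V V).PosSemidef := by
  rw [dst_eq_rst hG hA]
  exact hG.transpose.posSemidef.conjTranspose_mul_mul_same _

/-- the square of the distance is at most the square of the length -/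
theorem dst_le (hG : G.PosDef) (hA : Function.Injective A.mulVec) (V : Matrix m p ℂ) :
    (Vᴴ * Gᵀ * V - dst G A V V).PosSemidef := by
  have h : Vᴴ * Gᵀ * V - dst G A V V = (Aᴴ * Gᵀ * V)ᴴ * ((gr G A)ᵀ)⁻¹ * (Aᴴ * Gᵀ * V) := by
    rw [dst, sub_sub_cancel, conjTranspose_mul, conjTranspose_mul, conjTranspose_conjTranspose,
      herm_T hG]
    simp only [Matrix.mul_assoc]
  rw [h]
  exact (gr_posDef hG hA).transpose.inv.posSemidef.conjTranspose_mul_mul_same _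

/-- the distance to `F` is unchanged when vectors of `F` are added -/
theorem dst_add (hG : G.PosDef) (hA : Function.Injective A.mulVec) (V : Matrix m p ℂ)
    (X : Matrix n p ℂ) : dst G A (V + A * X) (V + A * X) = dst G A V V := by
  have hDu : IsUnit ((gr G A)ᵀ).det :=
    (Matrix.isUnit_iff_isUnit_det _).1 (gr_posDef hG hA).transpose.isUnit
  have h : rst G A (V + A * X) = rst G A V := by
    rw [rst, rst, Matrix.mul_add, ← Matrix.mul_assoc _ A, ← gr_transpose, Matrix.mul_add,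
      Matrix.nonsing_inv_mul_cancel_left _ _ hDu, Matrix.mul_add]
    abel
  rw [dst_eq_rst hG hA, dst_eq_rst hG hA, h]

/-- **(L4')** `|ι_V σ|²_{G|F} ≤ c |V|²` for an isotropic `F` (any lift `V`) -/
theorem le_lift (hG : G.PosDef) (hc : 0 < c) (hR : S * (Gᵀ)⁻¹ * Sᴴ = (c : ℂ) • G)
    (hA : Function.Injective A.mulVec) (hL : Aᵀ * S * A = 0) (V : Matrix m p ℂ) :
    (Vᴴ * Gᵀ * V - (c : ℂ)⁻¹ • ((Aᵀ * S * V)ᴴ * (gr G A)⁻¹ * (Aᵀ * S * V))).PosSemidef := by
  have h := (schur_ge hG hc hR hA hL V).add (dst_le hG hA V)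
  rwa [add_comm, sub_add_sub_cancel] at h

/-- determinant of `G` on `F + V`: Schur complement -/
theorem det_frame (hG : G.PosDef) (hA : Function.Injective A.mulVec) (V : Matrix m p ℂ) :
    (gr G (fromCols A V)).det = (gr G A).det * (dst G A V V).det := by
  have hDp : ((gr G A)ᵀ).PosDef := (gr_posDef hG hA).transpose
  let _ : Invertible ((gr G A)ᵀ) := hDp.isUnit.invertible
  have e : (gr G (fromCols A V))ᵀ =
      fromBlocks ((gr G A)ᵀ) (Aᴴ * Gᵀ * V) (Vᴴ * Gᵀ * A) (Vᴴ * Gᵀ * V) := by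
    rw [gr_transpose, gr_transpose, conjTranspose_fromCols_eq_fromRows_conjTranspose,
      fromRows_mul, fromRows_mul_fromCols]
  rw [← det_transpose, e, det_fromBlocks₁₁, invOf_eq_nonsing_inv, det_transpose, dst]

/-- **(L3)** determinant of `G` on `F + V`, `F` Lagrangian -/
theorem det_frame_lag (hG : G.PosDef) (hc : 0 < c) (hR : S * (Gᵀ)⁻¹ * Sᴴ = (c : ℂ) • G)
    (hA : Function.Injective A.mulVec) (hL : Aᵀ * S * A = 0)
    (hcard : Fintype.card m = 2 * Fintype.card n) (V : Matrix m p ℂ) :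
    (gr G (fromCols A V)).det = (gr G A).det *
      (((c : ℂ)⁻¹ ^ Fintype.card p) * ((Aᵀ * S * V)ᴴ * (gr G A)⁻¹ * (Aᵀ * S * V)).det) := by
  rw [det_frame hG hA, schur_eq hG hc hR hA hL hcard, det_smul]

/-! ### one vector -/

/-- **(L1), one vector** -/
theorem one_eq (hG : G.PosDef) (hc : 0 < c) (hR : S * (Gᵀ)⁻¹ * Sᴴ = (c : ℂ) • G)
    (hA : Function.Injective A.mulVec) (hL : Aᵀ * S * A = 0)
    (hcard : Fintype.card m = 2 * Fintype.card n) (v : m → ℂ) :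
    dst G A (replicateCol Unit v) (replicateCol Unit v) () () =
      (c : ℂ)⁻¹ * (star ((Aᵀ * S) *ᵥ v) ⬝ᵥ ((gr G A)⁻¹ *ᵥ ((Aᵀ * S) *ᵥ v))) := by
  rw [schur_eq hG hc hR hA hL hcard, Matrix.smul_apply, smul_eq_mul]
  congr 1
  rw [← replicateCol_mulVec, Matrix.mul_assoc, ← replicateCol_mulVec, conjTranspose_replicateCol,
    replicateRow_mul_replicateCol_apply]

/-- **(L3), one vector, cofactor form**: `det G|_{F + v} = c⁻¹ β* adj(G|_F) β`, `β = ι_v σ|_F` -/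
theorem det_one (hG : G.PosDef) (hc : 0 < c) (hR : S * (Gᵀ)⁻¹ * Sᴴ = (c : ℂ) • G)
    (hA : Function.Injective A.mulVec) (hL : Aᵀ * S * A = 0)
    (hcard : Fintype.card m = 2 * Fintype.card n) (v : m → ℂ) :
    (gr G (fromCols A (replicateCol Unit v))).det =
      (c : ℂ)⁻¹ * (star ((Aᵀ * S) *ᵥ v) ⬝ᵥ ((gr G A).adjugate *ᵥ ((Aᵀ * S) *ᵥ v))) := by
  have hu : IsUnit (gr G A).det := (Matrix.isUnit_iff_isUnit_det _).1 (gr_posDef hG hA).isUnit
  rw [det_frame hG hA, det_unique (dst G A (replicateCol Unit v) (replicateCol Unit v))]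
  have h := one_eq hG hc hR hA hL hcard v
  change (gr G A).det * dst G A (replicateCol Unit v) (replicateCol Unit v) () () = _
  rw [h, Matrix.inv_def, Matrix.smul_mulVec, dotProduct_smul, smul_eq_mul]
  have h2 : (gr G A).det * Ring.inverse (gr G A).det = 1 := Ring.mul_inverse_cancel _ hu
  linear_combination ((c : ℂ)⁻¹ * (star ((Aᵀ * S) *ᵥ v) ⬝ᵥ
    ((gr G A).adjugate *ᵥ ((Aᵀ * S) *ᵥ v)))) * h2

/-- one vector: the dual norm of `ι_v σ|_F` is at most `c |v|²`, `F` isotropic -/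
theorem one_le (hG : G.PosDef) (hc : 0 < c) (hR : S * (Gᵀ)⁻¹ * Sᴴ = (c : ℂ) • G)
    (hA : Function.Injective A.mulVec) (hL : Aᵀ * S * A = 0) (v : m → ℂ) :
    star ((Aᵀ * S) *ᵥ v) ⬝ᵥ ((gr G A)⁻¹ *ᵥ ((Aᵀ * S) *ᵥ v)) ≤ (c : ℂ) * (star v ⬝ᵥ (Gᵀ *ᵥ v)) := by
  have h := (le_lift hG hc hR hA hL (replicateCol Unit v)).diag_nonneg (i := ())
  have e1 : ((replicateCol Unit v)ᴴ * Gᵀ * replicateCol Unit v) () () =
      star v ⬝ᵥ (Gᵀ *ᵥ v) := by
    rw [Matrix.mul_assoc, ← replicateCol_mulVec, conjTranspose_replicateCol,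
      replicateRow_mul_replicateCol_apply]
  have e2 : ((Aᵀ * S * replicateCol Unit v)ᴴ * (gr G A)⁻¹ * (Aᵀ * S * replicateCol Unit v)) () () =
      star ((Aᵀ * S) *ᵥ v) ⬝ᵥ ((gr G A)⁻¹ *ᵥ ((Aᵀ * S) *ᵥ v)) := by
    rw [← replicateCol_mulVec, Matrix.mul_assoc, ← replicateCol_mulVec, conjTranspose_replicateCol,
      replicateRow_mul_replicateCol_apply]
  rw [Matrix.sub_apply, Matrix.smul_apply, e1, e2, smul_eq_mul, sub_nonneg] at h
  have hc0 : (c : ℂ) ≠ 0 := by exact_mod_cast hc.ne'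
  have hc' : (0 : ℂ) ≤ (c : ℂ) := by exact_mod_cast hc.le
  have := mul_le_mul_of_nonneg_left h hc'
  rwa [mul_inv_cancel_left₀ hc0] at this

end

end

end Crest.Agent.R281.Lag_479
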