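import Crest.Agent.R281.Lag1_479

/-!
# Row 281 (S0424), leaf S6-LAGALG (helper479), part 2: averages and block form

* `avg_posDef`, `jensen_inv` : for a probability measure and positive definite matrices `C x`,
  `mean (C⁻¹) - (mean C)⁻¹` is positive semidefinite (799 #6644 (3));
* `schur_blocks` : block form `Q = G₂₂ - G₂₁ G₁₁⁻¹ G₁₂ = c⁻¹ P^T conj(G₁₁)⁻¹ conj P` for coordinates
  `(y, x)` in which the `x`-directions are Lagrangian (799 #6644 (1)).
-/

set_option autoImplicit false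
set_option linter.unusedSectionVars false

open Matrix MeasureTheory
open scoped ComplexOrder ComplexConjugate

namespace Crest.Agent.R281.Lag_479

noncomputable section

variable {m n p q : Type*} [Fintype m] [DecidableEq m] [Fintype n] [DecidableEq n]
  [Fintype p] [DecidableEq p] [Fintype q] [DecidableEq q]

/-- pointwise: `2 Re η* ξ - η* C η ≤ ξ* C⁻¹ ξ` -/
theorem young {C : Matrix n n ℂ} (hC : C.PosDef) (ξ η : n → ℂ) :
    2 * (star η ⬝ᵥ ξ).re - (star η ⬝ᵥ (C *ᵥ η)).re ≤ (star ξ ⬝ᵥ (C⁻¹ *ᵥ ξ)).re := by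
  have hu : IsUnit C.det := (Matrix.isUnit_iff_isUnit_det _).1 hC.isUnit
  have h := hC.inv.posSemidef.re_dotProduct_nonneg (ξ - C *ᵥ η)
  have e : star (ξ - C *ᵥ η) ⬝ᵥ (C⁻¹ *ᵥ (ξ - C *ᵥ η)) =
      star ξ ⬝ᵥ (C⁻¹ *ᵥ ξ) - star ξ ⬝ᵥ η - star η ⬝ᵥ ξ + star η ⬝ᵥ (C *ᵥ η) := by
    have h1 : C⁻¹ *ᵥ (C *ᵥ η) = η := by
      rw [mulVec_mulVec, Matrix.nonsing_inv_mul _ hu, one_mulVec]
    have h2 : ∀ w : n → ℂ, star (C *ᵥ η) ⬝ᵥ w = star η ⬝ᵥ (C *ᵥ w) := by
      intro w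
      rw [star_mulVec, hC.isHermitian.eq, dotProduct_mulVec]
    have h3 : C *ᵥ (C⁻¹ *ᵥ ξ) = ξ := by
      rw [mulVec_mulVec, Matrix.mul_nonsing_inv _ hu, one_mulVec]
    rw [mulVec_sub, h1, star_sub, sub_dotProduct, dotProduct_sub, dotProduct_sub, h2, h2, h3]
    ring
  rw [e] at h
  have h4 : (star ξ ⬝ᵥ η).re = (star η ⬝ᵥ ξ).re := by
    rw [star_dotProduct ξ η, RCLike.star_def, Complex.conj_re]
  have h' : 0 ≤ (star ξ ⬝ᵥ (C⁻¹ *ᵥ ξ)).re - (star ξ ⬝ᵥ η).re - (star η ⬝ᵥ ξ).re +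
    (star η ⬝ᵥ (C *ᵥ η)).re := h
  linarith

section avg

variable {X : Type*} [MeasurableSpace X] {μ : Measure X}

/-- entrywise mean -/
def avg (μ : Measure X) (C : X → Matrix n n ℂ) : Matrix n n ℂ := of fun i j => ∫ x, C x i j ∂μ

theorem avg_form {C : X → Matrix n n ℂ} (hi : ∀ i j, Integrable (fun x => C x i j) μ)
    (ξ η : n → ℂ) : ξ ⬝ᵥ (avg μ C *ᵥ η) = ∫ x, ξ ⬝ᵥ (C x *ᵥ η) ∂μ := by
  have h1 : ∀ i j, Integrable (fun x => ξ i * (C x i j * η j)) μ := fun i j =>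
    ((hi i j).mul_const _).const_mul _
  simp only [dotProduct, mulVec, avg, of_apply, Finset.mul_sum]
  rw [integral_finsetSum _ fun i _ => integrable_finsetSum _ fun j _ => h1 i j]
  refine Finset.sum_congr rfl fun i _ => ?_
  rw [integral_finsetSum _ fun j _ => h1 i j]
  refine Finset.sum_congr rfl fun j _ => ?_
  rw [integral_const_mul, integral_mul_const]

theorem avg_integrable {C : X → Matrix n n ℂ} (hi : ∀ i j, Integrable (fun x => C x i j) μ)
    (ξ η : n → ℂ) : Integrable (fun x => ξ ⬝ᵥ (C x *ᵥ η)) μ := by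
  have h1 : ∀ i j, Integrable (fun x => ξ i * (C x i j * η j)) μ := fun i j =>
    ((hi i j).mul_const _).const_mul _
  simp only [dotProduct, mulVec, Finset.mul_sum]
  exact integrable_finsetSum _ fun i _ => integrable_finsetSum _ fun j _ => h1 i j

theorem avg_herm {C : X → Matrix n n ℂ} (hC : ∀ᵐ x ∂μ, (C x).IsHermitian) :
    (avg μ C).IsHermitian := by
  ext i j
  rw [conjTranspose_apply, avg, of_apply, of_apply, RCLike.star_def, ← integral_conj]
  refine integral_congr_ae ?_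
  filter_upwards [hC] with x hx
  have := congrFun (congrFun hx i) j
  rw [conjTranspose_apply, RCLike.star_def] at this
  exact this

theorem avg_posDef [NeZero μ] {C : X → Matrix n n ℂ} (hC : ∀ᵐ x ∂μ, (C x).PosDef)
    (hi : ∀ i j, Integrable (fun x => C x i j) μ) : (avg μ C).PosDef := by
  have hH : (avg μ C).IsHermitian := avg_herm (hC.mono fun x hx => hx.isHermitian)
  refine PosDef.of_dotProduct_mulVec_pos hH fun ξ hξ => ?_
  have hre : 0 < (star ξ ⬝ᵥ (avg μ C *ᵥ ξ)).re := by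
    rw [avg_form hi]
    have h1 : (∫ x, star ξ ⬝ᵥ (C x *ᵥ ξ) ∂μ).re = ∫ x, (star ξ ⬝ᵥ (C x *ᵥ ξ)).re ∂μ :=
      (integral_re (avg_integrable hi (star ξ) ξ)).symm
    rw [h1, integral_pos_iff_support_of_nonneg_ae]
    · have h2 : ∀ᵐ x ∂μ, x ∈ Function.support fun x => (star ξ ⬝ᵥ (C x *ᵥ ξ)).re := by
        filter_upwards [hC] with x hx
        exact (Complex.pos_iff.1 (hx.dotProduct_mulVec_pos hξ)).1.ne'
      rw [pos_iff_ne_zero]
      intro h0
      have h3 : ∀ᵐ x ∂μ, False := by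
        filter_upwards [h2, measure_eq_zero_iff_ae_notMem.1 h0] with x hx hx'
        exact hx' hx
      rw [ae_iff] at h3
      simp only [not_false_eq_true, Set.ofPred_true, Measure.measure_univ_eq_zero] at h3
      exact NeZero.ne μ h3
    · filter_upwards [hC] with x hx
      exact (Complex.nonneg_iff.1 (hx.posSemidef.dotProduct_mulVec_nonneg ξ)).1
    · exact (avg_integrable hi (star ξ) ξ).re
  have him : (star ξ ⬝ᵥ (avg μ C *ᵥ ξ)).im = 0 := by
    have h := hH.im_star_dotProduct_mulVec_self ξ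
    exact h
  rw [Complex.pos_iff]
  exact ⟨hre, him.symm⟩

/-- **Jensen**: `mean (C⁻¹) ≥ (mean C)⁻¹` -/
theorem jensen_inv [IsProbabilityMeasure μ] {C : X → Matrix n n ℂ} (hC : ∀ᵐ x ∂μ, (C x).PosDef)
    (hi : ∀ i j, Integrable (fun x => C x i j) μ)
    (hi' : ∀ i j, Integrable (fun x => (C x)⁻¹ i j) μ) :
    (avg μ (fun x => (C x)⁻¹) - (avg μ C)⁻¹).PosSemidef := by
  have hP : (avg μ C).PosDef := avg_posDef hC hi
  have hu : IsUnit (avg μ C).det := (Matrix.isUnit_iff_isUnit_det _).1 hP.isUnit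
  have hH : (avg μ (fun x => (C x)⁻¹) - (avg μ C)⁻¹).IsHermitian :=
    (avg_herm (hC.mono fun x hx => hx.inv.isHermitian)).sub hP.inv.isHermitian
  refine PosSemidef.of_dotProduct_mulVec_nonneg hH fun ξ => ?_
  have hre : 0 ≤ (star ξ ⬝ᵥ ((avg μ (fun x => (C x)⁻¹) - (avg μ C)⁻¹) *ᵥ ξ)).re := by
    rw [sub_mulVec, dotProduct_sub, avg_form hi', Complex.sub_re]
    set η := (avg μ C)⁻¹ *ᵥ ξ with hη
    have h1 : (∫ x, star ξ ⬝ᵥ ((C x)⁻¹ *ᵥ ξ) ∂μ).re = ∫ x, (star ξ ⬝ᵥ ((C x)⁻¹ *ᵥ ξ)).re ∂μ :=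
      (integral_re (avg_integrable hi' (star ξ) ξ)).symm
    have h2 : ∫ x, (2 * (star η ⬝ᵥ ξ).re - (star η ⬝ᵥ (C x *ᵥ η)).re) ∂μ ≤
        ∫ x, (star ξ ⬝ᵥ ((C x)⁻¹ *ᵥ ξ)).re ∂μ := by
      refine integral_mono_ae ?_ (avg_integrable hi' (star ξ) ξ).re ?_
      · exact (integrable_const _).sub (avg_integrable hi (star η) η).re
      · filter_upwards [hC] with x hx
        exact young hx ξ η
    have h3 : ∫ x, (2 * (star η ⬝ᵥ ξ).re - (star η ⬝ᵥ (C x *ᵥ η)).re) ∂μ =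
        2 * (star η ⬝ᵥ ξ).re - (star η ⬝ᵥ (avg μ C *ᵥ η)).re := by
      have h7 : Integrable (fun x => (star η ⬝ᵥ (C x *ᵥ η)).re) μ :=
        (avg_integrable hi (star η) η).re
      rw [integral_sub (integrable_const _) h7, avg_form hi]
      have h4 : (∫ x, star η ⬝ᵥ (C x *ᵥ η) ∂μ).re = ∫ x, (star η ⬝ᵥ (C x *ᵥ η)).re ∂μ :=
        (integral_re (avg_integrable hi (star η) η)).symm
      rw [h4]
      simp
    have h5 : avg μ C *ᵥ η = ξ := by
      rw [hη, mulVec_mulVec, Matrix.mul_nonsing_inv _ hu, one_mulVec]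
    have h6 : (star ξ ⬝ᵥ η).re = (star η ⬝ᵥ ξ).re := by
      rw [star_dotProduct ξ η, RCLike.star_def, Complex.conj_re]
    rw [h3, h5] at h2
    rw [h1, h6]
    linarith
  rw [Complex.nonneg_iff]
  exact ⟨hre, (hH.im_star_dotProduct_mulVec_self ξ).symm⟩

end avg

/-! ### block form -/

/-- coordinates `(y, x) ∈ p ⊕ n`, `x`-directions isotropic: the Schur complement of the `x`-block is
`c⁻¹ P^T conj(G_xx)⁻¹ conj P`-dual; here in the transposed (`star v ⬝ᵥ Gᵀ w`) convention -/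
theorem schur_blocks {Gyy : Matrix p p ℂ} {Gyx : Matrix p n ℂ} {Gxy : Matrix n p ℂ}
    {Gxx : Matrix n n ℂ} {Syy : Matrix p p ℂ} {P : Matrix n p ℂ} {c : ℝ}
    (hG : (fromBlocks Gyy Gyx Gxy Gxx).PosDef) (hc : 0 < c)
    (hR : fromBlocks Syy (-Pᵀ) P 0 * ((fromBlocks Gyy Gyx Gxy Gxx)ᵀ)⁻¹ *
      (fromBlocks Syy (-Pᵀ) P 0)ᴴ = (c : ℂ) • fromBlocks Gyy Gyx Gxy Gxx)
    (hcard : Fintype.card p = Fintype.card n) :
    (Gyy - Gyx * Gxx⁻¹ * Gxy)ᵀ = (c : ℂ)⁻¹ • (Pᴴ * Gxx⁻¹ * P) := by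
  set A : Matrix (p ⊕ n) n ℂ := fromRows 0 1 with hA
  set V : Matrix (p ⊕ n) p ℂ := fromRows 1 0 with hV
  have hAi : Function.Injective A.mulVec := by
    intro x y h
    ext i
    have := congrFun h (Sum.inr i)
    simpa [hA, fromRows_mulVec] using this
  have hAt : Aᵀ = fromCols 0 1 := by rw [hA, transpose_fromRows]; simp
  have hAH : Aᴴ = fromCols 0 1 := by
    rw [hA, conjTranspose_fromRows_eq_fromCols_conjTranspose]; simp
  have hVH : Vᴴ = fromCols 1 0 := by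
    rw [hV, conjTranspose_fromRows_eq_fromCols_conjTranspose]; simp
  have hL : Aᵀ * fromBlocks Syy (-Pᵀ) P 0 * A = 0 := by
    rw [hAt, fromCols_mul_fromBlocks, hA, fromCols_mul_fromRows]
    simp
  have hg : (gr (fromBlocks Gyy Gyx Gxy Gxx) A)ᵀ = Gxxᵀ := by
    rw [gr_transpose, hAH, fromBlocks_transpose, fromCols_mul_fromBlocks, hA,
      fromCols_mul_fromRows]
    simp
  have hg' : gr (fromBlocks Gyy Gyx Gxy Gxx) A = Gxx := by
    rw [← transpose_transpose (gr _ _), hg, transpose_transpose]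
  have hcard' : Fintype.card (p ⊕ n) = 2 * Fintype.card n := by
    rw [Fintype.card_sum, hcard]; ring
  have h := schur_eq hG hc hR hAi hL hcard' V V
  have e1 : Aᵀ * fromBlocks Syy (-Pᵀ) P 0 * V = P := by
    rw [hAt, fromCols_mul_fromBlocks, hV, fromCols_mul_fromRows]
    simp
  rw [e1, hg', dst, hg, hVH, hAH, fromBlocks_transpose] at h
  rw [← h, hV, hA, fromCols_mul_fromBlocks, fromCols_mul_fromBlocks, fromCols_mul_fromRows,
    fromCols_mul_fromRows, fromCols_mul_fromRows]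
  simp only [Matrix.one_mul, Matrix.zero_mul, add_zero, zero_add, Matrix.mul_one, Matrix.mul_zero]
  rw [transpose_sub, transpose_mul, transpose_mul, transpose_nonsing_inv]
  simp only [Matrix.mul_assoc]

end

end Crest.Agent.R281.Lag_479
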