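import Crest.Agent.R273.YauPf_635
import Crest.Agent.R273.SchJ_152
import Crest.Agent.R281.HkR5_835

/-!
# Row 281, LAP-AN, part 1 (helper850): majorants, Hölder norms of matrix fields

* `exists_seq` : dependent choice with the whole past
* `maj`        : scalar majorant
* `MH`, `NM`   : Hölder norms of matrices / matrix fields in the balls of a cover
-/

set_option autoImplicit false
set_option linter.unusedSectionVars false

open Set Filter Topology Complex Metric
open scoped ContDiff Matrix ComplexConjugate ComplexOrder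

namespace Crest.Agent.R281.Lap_850

open Crest.Agent.R275.Geo Crest.Agent.R275.Core144
open Crest.Agent.R273.SchA_152 Crest.Agent.R273.SchD_152 Crest.Agent.R273.SchF_152
open Crest.Agent.R273.YauQ_635 Crest.Agent.R273.YauSchF_635 Crest.Agent.R273.YauPf_635
open Crest.Agent.R273.YauCh_635 Crest.Agent.R273.YauMax_635 Crest.Agent.R273.Kah_333 Crest.Agent.R273.Hess_333
open Crest.Agent.R273.Defs_333

noncomputable section

/-! ### sequences -/

/-- dependent choice with the whole past -/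
theorem exists_seq {α : ℕ → Type*} (R : ∀ j, (∀ l, l < j → α l) → α j → Prop)
    (h : ∀ j p, ∃ y, R j p y) : ∃ f : ∀ j, α j, ∀ j, R j (fun l _ => f l) (f j) := by
  choose g hg using h
  let f : ∀ j, α j := fun j => Nat.strongRec (motive := α) (fun j ih => g j ih) j
  have hf : ∀ j, f j = g j (fun l _ => f l) := fun j => by
    show Nat.strongRec (motive := α) (fun j ih => g j ih) j = _
    rw [Nat.strongRec_eq]
  refine ⟨f, fun j => ?_⟩
  have := hg j (fun l _ => f l)
  rw [← hf j] at this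
  exact this

/-- scalar majorant: `x_j ≤ α_j + ∑_{i<j} β_{j-i} x_i` -/
theorem maj {x α β : ℕ → ℝ} (hx0 : ∀ j, 0 ≤ x j) (hβ0 : ∀ j, 0 ≤ β j) (hα0 : ∀ j, 0 ≤ α j)
    (hrec : ∀ j, x j ≤ α j + ∑ i ∈ Finset.range j, β (j - i) * x i) {r A' B : ℝ} (hr : 0 < r)
    (hα : ∀ J, ∑ j ∈ Finset.range J, α j * r ^ j ≤ A')
    (hβ : ∀ J, ∑ j ∈ Finset.range J, β j * r ^ j ≤ B) {ρ : ℝ} (hρ0 : 0 ≤ ρ) (hρr : ρ ≤ r)
    (hρB : ρ * B ≤ r / 2) (J : ℕ) : ∑ j ∈ Finset.range J, x j * ρ ^ j ≤ 2 * A' := by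
  -- tails of `β`
  have hB0 : 0 ≤ B := (Finset.sum_nonneg fun _ _ => mul_nonneg (hβ0 _) (by positivity)).trans (hβ 0)
  have hb : ∀ J, ∑ i ∈ Finset.range J, β (i + 1) * ρ ^ (i + 1) ≤ 1 / 2 := by
    intro J
    have h1 : ∀ i, β (i + 1) * ρ ^ (i + 1) ≤ (ρ / r) * (β (i + 1) * r ^ (i + 1)) := by
      intro i
      have h2 : ρ ^ (i + 1) ≤ (ρ / r) * r ^ (i + 1) := by
        rw [pow_succ, pow_succ, div_mul_eq_mul_div, le_div_iff₀ hr]
        have h3 : ρ ^ i ≤ r ^ i := pow_le_pow_left₀ hρ0 hρr i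
        have h4 : ρ ^ i * (ρ * r) ≤ r ^ i * (ρ * r) :=
          mul_le_mul_of_nonneg_right h3 (by positivity)
        nlinarith
      calc β (i + 1) * ρ ^ (i + 1) ≤ β (i + 1) * ((ρ / r) * r ^ (i + 1)) :=
            mul_le_mul_of_nonneg_left h2 (hβ0 _)
        _ = _ := by ring
    have h2 : ∑ i ∈ Finset.range J, β (i + 1) * r ^ (i + 1) ≤ B := by
      have h3 := hβ (J + 1)
      rw [Finset.sum_range_succ'] at h3
      have h4 : 0 ≤ β 0 * r ^ 0 := mul_nonneg (hβ0 0) (by positivity)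
      linarith
    calc ∑ i ∈ Finset.range J, β (i + 1) * ρ ^ (i + 1)
        ≤ ∑ i ∈ Finset.range J, (ρ / r) * (β (i + 1) * r ^ (i + 1)) :=
          Finset.sum_le_sum fun i _ => h1 i
      _ = (ρ / r) * ∑ i ∈ Finset.range J, β (i + 1) * r ^ (i + 1) := by rw [Finset.mul_sum]
      _ ≤ (ρ / r) * B := mul_le_mul_of_nonneg_left h2 (by positivity)
      _ ≤ 1 / 2 := by
          rw [div_mul_eq_mul_div, div_le_iff₀ hr]
          linarith
  have ha : ∑ j ∈ Finset.range J, α j * ρ ^ j ≤ A' :=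
    (Finset.sum_le_sum fun j _ => mul_le_mul_of_nonneg_left (pow_le_pow_left₀ hρ0 hρr j)
      (hα0 j)).trans (hα J)
  have hX : ∑ j ∈ Finset.range J, (∑ i ∈ Finset.range j, β (j - i) * x i) * ρ ^ j ≤
      (1 / 2) * ∑ j ∈ Finset.range J, x j * ρ ^ j := by
    have h1 : ∑ j ∈ Finset.range J, (∑ i ∈ Finset.range j, β (j - i) * x i) * ρ ^ j =
        ∑ i ∈ Finset.range J, ∑ j ∈ Finset.Ico (i + 1) J, (β (j - i) * ρ ^ (j - i)) *
          (x i * ρ ^ i) := by
      simp only [Finset.sum_mul]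
      rw [Finset.range_eq_Ico, Finset.sum_sigma', Finset.sum_sigma']
      refine Finset.sum_nbij' (fun p => ⟨p.2, p.1⟩) (fun p => ⟨p.2, p.1⟩) ?_ ?_ ?_ ?_ ?_
      · rintro ⟨j, i⟩ h
        simp only [Finset.mem_sigma, Finset.mem_Ico, Finset.mem_range] at h ⊢
        omega
      · rintro ⟨i, j⟩ h
        simp only [Finset.mem_sigma, Finset.mem_Ico, Finset.mem_range] at h ⊢
        omega
      · rintro ⟨j, i⟩ _
        rfl
      · rintro ⟨i, j⟩ _
        rfl
      · rintro ⟨j, i⟩ h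
        simp only [Finset.mem_sigma, Finset.mem_Ico, Finset.mem_range] at h
        have e : ρ ^ j = ρ ^ (j - i) * ρ ^ i := by
          rw [← pow_add]
          congr 1
          omega
        simp only
        rw [e]
        ring
    rw [h1, Finset.mul_sum]
    refine Finset.sum_le_sum fun i hi => ?_
    rw [← Finset.sum_mul]
    refine mul_le_mul_of_nonneg_right ?_ (mul_nonneg (hx0 i) (by positivity))
    rw [Finset.sum_Ico_eq_sum_range]
    refine le_trans (le_of_eq (Finset.sum_congr rfl fun k _ => ?_)) (hb (J - (i + 1)))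
    have e : i + 1 + k - i = k + 1 := by omega
    rw [e]
  have hS : ∑ j ∈ Finset.range J, x j * ρ ^ j ≤ ∑ j ∈ Finset.range J, α j * ρ ^ j +
      ∑ j ∈ Finset.range J, (∑ i ∈ Finset.range j, β (j - i) * x i) * ρ ^ j := by
    rw [← Finset.sum_add_distrib]
    refine Finset.sum_le_sum fun j _ => ?_
    rw [← add_mul]
    exact mul_le_mul_of_nonneg_right (hrec j) (by positivity)
  linarith

/-! ### Hölder norms -/

section ho

variable {X F : Type*} [NormedAddCommGroup X] [NormedAddCommGroup F] {a M N : ℝ} {s : Set X}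

theorem ho_sub {f g : X → F} (h : HO a M s f) (h' : HO a N s g) :
    HO a (M + N) s (fun x => f x - g x) := by
  have := h.add h'.neg
  simpa only [← sub_eq_add_neg] using this

theorem ho_sum' {ι : Type*} (t : Finset ι) {f : ι → X → F} {c : ι → ℝ}
    (h : ∀ i ∈ t, HO a (c i) s (f i)) : HO a (∑ i ∈ t, c i) s (fun x => ∑ i ∈ t, f i x) := by
  refine ⟨fun z hz => ?_, fun z hz w hw => ?_⟩
  · exact (norm_sum_le _ _).trans (Finset.sum_le_sum fun i hi => (h i hi).bdd z hz)
  · rw [← Finset.sum_sub_distrib, Finset.sum_mul]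
    exact (norm_sum_le _ _).trans (Finset.sum_le_sum fun i hi => (h i hi).hol z hz w hw)

theorem ho_const_smul {𝕜 : Type*} [NormedField 𝕜] [NormedSpace 𝕜 F] (c : 𝕜) {f : X → F}
    (h : HO a M s f) : HO a (‖c‖ * M) s (fun x => c • f x) := by
  refine ⟨fun z hz => ?_, fun z hz w hw => ?_⟩
  · rw [norm_smul]
    exact mul_le_mul_of_nonneg_left (h.bdd z hz) (norm_nonneg _)
  · rw [← smul_sub, norm_smul, mul_assoc]
    exact mul_le_mul_of_nonneg_left (h.hol z hz w hw) (norm_nonneg _)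

/-- limits -/
theorem ho_lim {f : ℕ → X → F} {g : X → F} {c : ℕ → ℝ} (h : ∀ᶠ J in atTop, HO a (c J) s (f J))
    (hc : Tendsto c atTop (𝓝 N)) (hg : ∀ x ∈ s, Tendsto (fun J => f J x) atTop (𝓝 (g x))) :
    HO a N s g := by
  refine ⟨fun z hz => ?_, fun z hz w hw => ?_⟩
  · exact le_of_tendsto_of_tendsto (hg z hz).norm hc (h.mono fun J hJ => hJ.bdd z hz)
  · exact le_of_tendsto_of_tendsto ((hg z hz).sub (hg w hw)).norm (hc.mul_const _)
      (h.mono fun J hJ => hJ.hol z hz w hw)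

end ho

variable {n : ℕ}

/-- Hölder norm (exponent `1/2`) of a matrix valued function -/
def MH (N : ℝ) (s : Set (Cn n)) (f : Cn n → Matrix (Fin n) (Fin n) ℂ) : Prop :=
  ∀ p q, HO (1 / 2) N s (fun z => f z p q)

section mh

variable {M N : ℝ} {s : Set (Cn n)} {f g : Cn n → Matrix (Fin n) (Fin n) ℂ}

theorem MH.mono (h : MH M s f) (hM : M ≤ N) : MH N s f := fun p q => (h p q).mono hM

theorem MH.congr (h : MH M s f) (hg : ∀ z ∈ s, g z = f z) : MH M s g := fun p q =>
  (h p q).congr fun z hz => by rw [hg z hz]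

theorem MH.add (h : MH M s f) (h' : MH N s g) : MH (M + N) s (fun z => f z + g z) :=
  fun p q => (h p q).add (h' p q)

theorem MH.sub (h : MH M s f) (h' : MH N s g) : MH (M + N) s (fun z => f z - g z) :=
  fun p q => ho_sub (h p q) (h' p q)

theorem MH.smul (c : ℂ) (h : MH M s f) : MH (‖c‖ * M) s (fun z => c • f z) :=
  fun p q => ho_const_smul c (h p q)

theorem MH.sum {ι : Type*} (t : Finset ι) {f : ι → Cn n → Matrix (Fin n) (Fin n) ℂ} {c : ι → ℝ}
    (h : ∀ i ∈ t, MH (c i) s (f i)) : MH (∑ i ∈ t, c i) s (fun z => ∑ i ∈ t, f i z) := by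
  intro p q
  simp only [Matrix.sum_apply]
  exact ho_sum' t fun i hi => h i hi p q

theorem MH.mul (hM : 0 ≤ M) (hN : 0 ≤ N) (h : MH M s f) (h' : MH N s g) :
    MH (2 * n * M * N) s (fun z => f z * g z) := by
  intro p q
  simp only [Matrix.mul_apply]
  have h1 := ho_sum (Finset.univ : Finset (Fin n)) (a := 1 / 2) (M := 2 * M * N) (s := s)
    (f := fun l z => f z p l * g z l q) fun l _ => ho_mul hM hN (h p l) (h' l q)
  rw [Finset.card_univ, Fintype.card_fin] at h1
  exact h1.mono (le_of_eq (by ring))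

theorem MH.trace (h : MH M s f) : HO (1 / 2) (n * M) s (fun z => (f z).trace) := by
  simp only [Matrix.trace, Matrix.diag_apply]
  have h1 := ho_sum (Finset.univ : Finset (Fin n)) (a := 1 / 2) (M := M) (s := s)
    (f := fun l z => f z l l) fun l _ => h l l
  rw [Finset.card_univ, Fintype.card_fin] at h1
  exact h1

theorem MH.lim {f : ℕ → Cn n → Matrix (Fin n) (Fin n) ℂ} {c : ℕ → ℝ}
    (h : ∀ᶠ J in atTop, MH (c J) s (f J)) (hc : Tendsto c atTop (𝓝 N))
    (hg : ∀ z ∈ s, Tendsto (fun J => f J z) atTop (𝓝 (g z))) : MH N s g := fun p q =>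
  ho_lim (h.mono fun _ hJ => hJ p q) hc fun z hz =>
    (tendsto_pi_nhds.1 ((tendsto_pi_nhds.1 (hg z hz)) p)) q

end mh

/-! ### fields -/

variable {M : Type} [TopologicalSpace M] {A : Atl n M}

/-- Hölder norm of a field of matrices in the balls of a cover -/
def NM (B : Cb A) (N : ℝ) (S : A.ι → M → Matrix (Fin n) (Fin n) ℂ) : Prop :=
  ∀ k, MH N (closedBall (B.z k) (B.r k / 2)) (fun z => S (B.i k) ((A.e (B.i k)).symm z))

section nm

variable {B : Cb A} {N N' : ℝ} {S T : A.ι → M → Matrix (Fin n) (Fin n) ℂ}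

theorem NM.mono (h : NM B N S) (hN : N ≤ N') : NM B N' S := fun k => (h k).mono hN

theorem NM.add (h : NM B N S) (h' : NM B N' T) : NM B (N + N') (fun i x => S i x + T i x) :=
  fun k => (h k).add (h' k)

theorem NM.sub (h : NM B N S) (h' : NM B N' T) : NM B (N + N') (fun i x => S i x - T i x) :=
  fun k => (h k).sub (h' k)

theorem NM.smul (c : ℂ) (h : NM B N S) : NM B (‖c‖ * N) (fun i x => c • S i x) :=
  fun k => (h k).smul c

theorem NM.mul (hN : 0 ≤ N) (hN' : 0 ≤ N') (h : NM B N S) (h' : NM B N' T) :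
    NM B (2 * n * N * N') (fun i x => S i x * T i x) := fun k => (h k).mul hN hN' (h' k)

theorem NM.sum {ι : Type*} (t : Finset ι) {S : ι → A.ι → M → Matrix (Fin n) (Fin n) ℂ}
    {c : ι → ℝ} (h : ∀ l ∈ t, NM B (c l) (S l)) :
    NM B (∑ l ∈ t, c l) (fun i x => ∑ l ∈ t, S l i x) :=
  fun k => MH.sum t fun l hl => h l hl k

/-- smooth fields have finite norm -/
theorem exists_nm (B : Cb A) (hs : ∀ i a b, A.SmAt i (fun x => S i x a b)) :
    ∃ N, 0 ≤ N ∧ NM B N S := by
  have hfin := B.fin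
  have h1 : ∀ k p q, ∃ V, HO (1 / 2) V (closedBall (B.z k) (B.r k / 2))
      (fun z => S (B.i k) ((A.e (B.i k)).symm z) p q) := fun k p q =>
    ho_c1 (A.e (B.i k)).open_target ((hs (B.i k) p q).of_le (by simp))
      (by linarith [B.r0 k, B.r1 k]) (B.sub' k)
  choose V hV using h1
  let _ := Fintype.ofFinite B.κ
  refine ⟨∑ k, ∑ p, ∑ q, |V k p q|, by positivity, fun k p q => (hV k p q).mono ?_⟩
  calc V k p q ≤ |V k p q| := le_abs_self _
    _ ≤ ∑ q, |V k p q| := Finset.single_le_sum (f := fun q => |V k p q|)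
        (fun _ _ => abs_nonneg _) (Finset.mem_univ q)
    _ ≤ ∑ p, ∑ q, |V k p q| := Finset.single_le_sum (f := fun p => ∑ q, |V k p q|)
        (fun _ _ => Finset.sum_nonneg fun _ _ => abs_nonneg _) (Finset.mem_univ p)
    _ ≤ _ := Finset.single_le_sum (f := fun k => ∑ p, ∑ q, |V k p q|)
        (fun _ _ => Finset.sum_nonneg fun _ _ => Finset.sum_nonneg fun _ _ => abs_nonneg _)
        (Finset.mem_univ k)

/-- `hsf` is bounded by the `C^{2,1/2}` norm -/
theorem nm_hsf {v : M → ℝ} (hv : A.Sm v) (h : B.N2 (1 / 2) N v) : NM B N (hsf A v) := by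
  intro k p q
  refine (ho_cH (h k).h2 p q).congr fun z hz => ?_
  have hzt := B.sub' k hz
  show hsf A v (B.i k) ((A.e (B.i k)).symm z) p q = _
  rw [hsf_read v (B.i k) hzt]
  have h1 := cH_eq_hess (sm_contDiffAt hv (B.i k) hzt)
  exact (congrFun (congrFun h1 p) q).symm

end nm

end

end Crest.Agent.R281.Lap_850
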