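import Mathlib

/-!
# R281 (S0424), LAP-AN (helper365), file 1: inverse power series of matrices

* `Gm G Y k` : coefficients of `(G + ∑_{j ≥ 1} s^j Y_j)⁻¹`
* `gm_conv`  : the convolution identity, `gm_herm`, `gm_similar`
* `tr_real`, `tr_similar` : traces `tr (Γ_k S)`
-/

set_option autoImplicit false

open Finset

namespace Crest.Agent.R281.LapAn_365

noncomputable section

variable {m : Type*} [Fintype m] [DecidableEq m]

/-- coefficients of the inverse of `G + ∑_{j ≥ 1} s^j Y_j` -/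
def Gm (G : Matrix m m ℂ) (Y : ℕ → Matrix m m ℂ) : ℕ → Matrix m m ℂ
  | 0 => G⁻¹
  | k + 1 => -∑ i : Fin (k + 1), G⁻¹ * Y (i + 1) * Gm G Y (k - i)
termination_by k => k
decreasing_by omega

theorem gm_zero (G : Matrix m m ℂ) (Y : ℕ → Matrix m m ℂ) : Gm G Y 0 = G⁻¹ := by rw [Gm]

theorem gm_succ (G : Matrix m m ℂ) (Y : ℕ → Matrix m m ℂ) (k : ℕ) :
    Gm G Y (k + 1) = -∑ i ∈ range (k + 1), G⁻¹ * Y (i + 1) * Gm G Y (k - i) := by
  rw [Gm, Finset.sum_range fun i => G⁻¹ * Y (i + 1) * Gm G Y (k - i)]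

theorem gm_congr {G : Matrix m m ℂ} {Y Y' : ℕ → Matrix m m ℂ} {k : ℕ}
    (h : ∀ j, 1 ≤ j → j ≤ k → Y j = Y' j) : Gm G Y k = Gm G Y' k := by
  induction k using Nat.strong_induction_on with
  | _ k ih =>
    rcases k with _ | k
    · rw [gm_zero, gm_zero]
    · rw [gm_succ G Y k, gm_succ G Y' k]
      congr 1
      refine Finset.sum_congr rfl fun i hi => ?_
      have hi' := Finset.mem_range.1 hi
      rw [h (i + 1) (by omega) (by omega), ih (k - i) (by omega) fun j h1 h2 =>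
        h j h1 (by omega)]

/-- the sequence `G, Y_1, Y_2, ..` -/
def Yh (G : Matrix m m ℂ) (Y : ℕ → Matrix m m ℂ) (j : ℕ) : Matrix m m ℂ := if j = 0 then G else Y j

/-- **the convolution identity** -/
theorem gm_conv {G : Matrix m m ℂ} (hG : IsUnit G.det) (Y : ℕ → Matrix m m ℂ) (k : ℕ) :
    ∑ i ∈ range (k + 1), Yh G Y i * Gm G Y (k - i) = if k = 0 then 1 else 0 := by
  rcases k with _ | k
  · simp [Yh, gm_zero, Matrix.mul_nonsing_inv _ hG]
  · rw [if_neg (Nat.succ_ne_zero k), Finset.sum_range_succ']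
    have h1 : Yh G Y 0 = G := by simp [Yh]
    rw [h1, Nat.sub_zero, gm_succ, Matrix.mul_neg, Finset.mul_sum, ← sub_eq_add_neg, sub_eq_zero]
    refine Finset.sum_congr rfl fun i hi => ?_
    have h2 : Yh G Y (i + 1) = Y (i + 1) := by simp [Yh]
    have h3 : k + 1 - (i + 1) = k - i := by omega
    rw [h2, h3, ← Matrix.mul_assoc, ← Matrix.mul_assoc, Matrix.mul_nonsing_inv _ hG,
      Matrix.one_mul]

/-- power series form -/
theorem gm_ps {G : Matrix m m ℂ} (hG : IsUnit G.det) (Y : ℕ → Matrix m m ℂ) :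
    (PowerSeries.mk (Yh G Y)) * PowerSeries.mk (Gm G Y) = 1 := by
  ext1 k
  rw [PowerSeries.coeff_mul, PowerSeries.coeff_one, ← gm_conv hG Y k,
    Finset.Nat.sum_antidiagonal_eq_sum_range_succ_mk]
  refine Finset.sum_congr rfl fun i _ => ?_
  rw [PowerSeries.coeff_mk, PowerSeries.coeff_mk]

/-- conjugate transposes -/
theorem gm_herm {G : Matrix m m ℂ} (hG : IsUnit G.det) (Y : ℕ → Matrix m m ℂ) (k : ℕ) :
    (Gm G.conjTranspose (fun j => (Y j).conjTranspose) k).conjTranspose = Gm G Y k := by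
  have hG' : IsUnit (G.conjTranspose).det := by
    rw [Matrix.det_conjTranspose]
    exact hG.star
  have h1 := gm_ps hG Y
  have h2 : PowerSeries.mk (fun k => (Gm G.conjTranspose
      (fun j => (Y j).conjTranspose) k).conjTranspose) * PowerSeries.mk (Yh G Y) = 1 := by
    ext1 k
    have h3 := congrArg Matrix.conjTranspose (gm_conv hG' (fun j => (Y j).conjTranspose) k)
    rw [PowerSeries.coeff_mul, PowerSeries.coeff_one,
      Finset.Nat.sum_antidiagonal_eq_sum_range_succ_mk, ← Finset.sum_range_reflect]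
    have h4 : (if k = 0 then (1 : Matrix m m ℂ) else 0).conjTranspose = if k = 0 then 1 else 0 := by
      split_ifs <;> simp
    rw [h4, Matrix.conjTranspose_sum] at h3
    rw [← h3]
    refine Finset.sum_congr rfl fun i hi => ?_
    have hi' : i ≤ k := by have := Finset.mem_range.1 hi; omega
    have e1 : k + 1 - 1 - i = k - i := by omega
    have e2 : k - (k - i) = i := by omega
    have e3 : (Yh G.conjTranspose (fun j => (Y j).conjTranspose) i).conjTranspose = Yh G Y i := by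
      unfold Yh
      split_ifs <;> simp
    simp only [e1, e2, PowerSeries.coeff_mk, Matrix.conjTranspose_mul, e3]
  have h5 := left_inv_eq_right_inv h2 h1
  have h6 := congrArg (PowerSeries.coeff k) h5
  rwa [PowerSeries.coeff_mk, PowerSeries.coeff_mk] at h6

theorem gm_isHermitian {G : Matrix m m ℂ} (hG : IsUnit G.det) (hGh : G.IsHermitian)
    {Y : ℕ → Matrix m m ℂ} (hY : ∀ j, 1 ≤ j → (Y j).IsHermitian) (k : ℕ) :
    (Gm G Y k).IsHermitian := by
  have h1 := gm_herm hG Y k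
  rw [hGh.eq, gm_congr (Y' := Y) fun j hj _ => (hY j hj).eq] at h1
  exact h1

/-- change of coordinates -/
theorem gm_similar {G G' P Q : Matrix m m ℂ} (hP : IsUnit P.det) (hQ : IsUnit Q.det)
    (hGG : G = P * G' * Q) {Y Y' : ℕ → Matrix m m ℂ} (hYY : ∀ j, 1 ≤ j → Y j = P * Y' j * Q)
    (k : ℕ) : Gm G Y k = Q⁻¹ * Gm G' Y' k * P⁻¹ := by
  have hGi : G⁻¹ = Q⁻¹ * G'⁻¹ * P⁻¹ := by
    rw [hGG, Matrix.mul_inv_rev, Matrix.mul_inv_rev, Matrix.mul_assoc]
  induction k using Nat.strong_induction_on with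
  | _ k ih =>
    rcases k with _ | k
    · rw [gm_zero, gm_zero, hGi]
    · have e1 : P⁻¹ * P = 1 := Matrix.nonsing_inv_mul _ hP
      have e2 : Q * Q⁻¹ = 1 := Matrix.mul_nonsing_inv _ hQ
      have e4 : Q⁻¹ * Gm G' Y' (k + 1) * P⁻¹ = -∑ i ∈ range (k + 1),
          Q⁻¹ * (G'⁻¹ * Y' (i + 1) * Gm G' Y' (k - i)) * P⁻¹ := by
        rw [gm_succ G' Y' k, mul_neg, neg_mul, Finset.mul_sum, Finset.sum_mul]
      rw [e4, gm_succ G Y k]
      congr 1
      refine Finset.sum_congr rfl fun i hi => ?_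
      rw [ih (k - i) (by omega), hYY (i + 1) (by omega), hGi]
      have e3 : Q⁻¹ * G'⁻¹ * P⁻¹ * (P * Y' (i + 1) * Q) * (Q⁻¹ * Gm G' Y' (k - i) * P⁻¹) =
          Q⁻¹ * (G'⁻¹ * ((P⁻¹ * P) * Y' (i + 1) * ((Q * Q⁻¹) * Gm G' Y' (k - i)))) * P⁻¹ := by
        simp only [Matrix.mul_assoc]
      rw [e3, e1, e2, Matrix.one_mul, Matrix.one_mul]
      simp only [Matrix.mul_assoc]

theorem tr_similar {Γ S P Q : Matrix m m ℂ} (hP : IsUnit P.det) (hQ : IsUnit Q.det) :
    ((Q⁻¹ * Γ * P⁻¹) * (P * S * Q)).trace = (Γ * S).trace := by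
  calc _ = (Q⁻¹ * (Γ * ((P⁻¹ * P) * S) * Q)).trace := by simp only [Matrix.mul_assoc]
    _ = (Γ * S * Q * Q⁻¹).trace := by
        rw [Matrix.nonsing_inv_mul _ hP, Matrix.one_mul, Matrix.trace_mul_comm]
    _ = _ := by rw [Matrix.mul_assoc, Matrix.mul_nonsing_inv _ hQ, Matrix.mul_one]

omit [DecidableEq m] in
theorem tr_real {Γ S : Matrix m m ℂ} (hΓ : Γ.IsHermitian) (hS : S.IsHermitian) :
    ((Γ * S).trace).im = 0 := by
  have h1 : starRingEnd ℂ (Γ * S).trace = (Γ * S).trace := by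
    have h2 : (Γ * S).conjTranspose.trace = star (Γ * S).trace := Matrix.trace_conjTranspose _
    rw [Matrix.conjTranspose_mul, hΓ.eq, hS.eq, Matrix.trace_mul_comm] at h2
    exact h2.symm
  exact Complex.conj_eq_iff_im.1 h1

end

end Crest.Agent.R281.LapAn_365
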