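import Crest.Agent.R273.StokesV_332
import Crest.Agent.R273.Map_835

/-!
# R281 (S0424), leaf integrals, part 1 (helper425): integrals of densities and biholomorphic maps

`B : Atl n V`, `B' : Atl n V'`, `φ : V ≃ₜ V'` biholomorphic (`HolMap` both ways).

* `uAtl`     : the union of the atlas `B` and of the pull-back of `B'` on `V`;
* `partL`, `partR` : the partitions of unity of `B` and `B'`, seen in the union atlas;
* `intD_bih` : `intD P f = intD P' f'` when `f_i(x) = |det Jφ|² f'_j(φ x)`.
-/

set_option autoImplicit false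
set_option linter.unusedSectionVars false

open Set Filter Topology Complex MeasureTheory
open scoped ContDiff Matrix ComplexConjugate

namespace Crest.Agent.R281.Lf1_425

open Crest.Agent.R275.Geo Crest.Agent.R275.Tor812 Crest.Agent.R275.TorS666
open Crest.Agent.R275.C1d194 Crest.Agent.R275.Pai323 Crest.Agent.R275.OmT75
open Crest.Agent.R275.SerG398 (lint dens)
open Crest.Agent.R273.StokesV_332
open Crest.Agent.R273.Map_835 (HolMap Jp dm mem_dm)

noncomputable section

variable {n : ℕ} {V V' : Type} [TopologicalSpace V] [TopologicalSpace V']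
  {B : Atl n V} {B' : Atl n V'}

theorem finsum_inl {α β : Type} {R : Type*} [AddCommMonoid R] (g : α ⊕ β → R)
    (h : ∀ j, g (Sum.inr j) = 0) : ∑ᶠ s, g s = ∑ᶠ i, g (Sum.inl i) := by
  rw [← finsum_mem_range (f := g) (g := (Sum.inl : α → α ⊕ β)) Sum.inl_injective,
    ← finsum_mem_univ]
  refine (finsum_mem_inter_support_eq' _ _ _ fun s hs => ?_).symm
  rcases s with i | j
  · simp
  · exact absurd (h j) hs

theorem finsum_inr {α β : Type} {R : Type*} [AddCommMonoid R] (g : α ⊕ β → R)
    (h : ∀ i, g (Sum.inl i) = 0) : ∑ᶠ s, g s = ∑ᶠ j, g (Sum.inr j) := by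
  rw [← finsum_mem_range (f := g) (g := (Sum.inr : β → α ⊕ β)) Sum.inr_injective,
    ← finsum_mem_univ]
  refine (finsum_mem_inter_support_eq' _ _ _ fun s hs => ?_).symm
  rcases s with i | j
  · exact absurd (h i) hs
  · simp

/-- smooth functions pull back under holomorphic maps -/
theorem smAt_comp {n' : ℕ} {B' : Atl n' V'} {q : V → V'} (hq : HolMap B B' q)
    {W : Type*} [NormedAddCommGroup W] [NormedSpace ℝ W]
    {f : V' → W} (hf : B'.Sm f) : B.Sm (fun x => f (q x)) := by
  intro i z hz
  obtain ⟨j, hj⟩ := B'.cover (q ((B.e i).symm z))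
  have hzd : z ∈ dm B B' q i j := ⟨hz, hj⟩
  have h1 : ContDiffAt ℝ ∞ (fun z => B'.e j (q ((B.e i).symm z))) z := by
    have h2 : ContDiffAt ℂ ∞ (fun z => B'.e j (q ((B.e i).symm z))) z :=
      (hq.analyticAt hzd).contDiffAt
    exact h2.restrict_scalars ℝ
  have h3 : ContDiffAt ℝ ∞ (fun w => f ((B'.e j).symm w)) (B'.e j (q ((B.e i).symm z))) :=
    (hf j).contDiffAt ((B'.e j).open_target.mem_nhds ((B'.e j).map_source hj))
  have h4 : ContDiffAt ℝ ∞ (fun z => f ((B'.e j).symm (B'.e j (q ((B.e i).symm z))))) z :=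
    ContDiffAt.comp z (g := fun w => f ((B'.e j).symm w)) h3 h1
  refine (h4.congr_of_eventuallyEq ?_).contDiffWithinAt
  filter_upwards [(hq.isOpen_dm i j).mem_nhds hzd] with w hw
  rw [(B'.e j).left_inv hw.2]

/-- the union of the atlas `B` and of the pull-back of `B'` -/
def uAtl (φ : V ≃ₜ V') (h : HolMap B B' φ) (h' : HolMap B' B φ.symm) : Atl n V where
  ι := B.ι ⊕ B'.ι
  e := Sum.elim B.e (fun j => φ.toOpenPartialHomeomorph.trans (B'.e j))
  cover x := by
    obtain ⟨i, hi⟩ := B.cover x
    exact ⟨Sum.inl i, hi⟩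
  cube s := by
    rcases s with i | j
    · exact B.cube i
    · intro z hz
      have hz' : z ∈ (B'.e j).target := by
        simpa using hz
      exact B'.cube j z hz'
  holo s t := by
    rcases s with i | j
    · rcases t with i' | j'
      · exact B.holo i i'
      · refine (h.hol i j').mono fun z hz => ?_
        exact ⟨hz.1, by simpa using hz.2⟩
    · rcases t with i' | j'
      · refine (h'.hol j i').mono fun z hz => ?_
        exact ⟨by simpa using hz.1, hz.2⟩
      · show DifferentiableOn ℂ (fun z => B'.e j' (φ (φ.symm ((B'.e j).symm z)))) _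
        simp only [φ.apply_symm_apply]
        refine (B'.holo j j').mono fun z hz => ?_
        exact ⟨by simpa using hz.1, by simpa using hz.2⟩

variable {φ : V ≃ₜ V'} {h : HolMap B B' φ} {h' : HolMap B' B φ.symm}

theorem src_inr (j : B'.ι) (x : V) :
    x ∈ ((uAtl φ h h').e (Sum.inr j)).source ↔ φ x ∈ (B'.e j).source := by
  show x ∈ (φ.toOpenPartialHomeomorph.trans (B'.e j)).source ↔ _
  simp

theorem tgt_inr (j : B'.ι) (z : Cn n) :
    z ∈ ((uAtl φ h h').e (Sum.inr j)).target ↔ z ∈ (B'.e j).target := by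
  show z ∈ (φ.toOpenPartialHomeomorph.trans (B'.e j)).target ↔ _
  simp

theorem symm_inr (j : B'.ι) (z : Cn n) :
    ((uAtl φ h h').e (Sum.inr j)).symm z = φ.symm ((B'.e j).symm z) := rfl

theorem app_inr (j : B'.ι) (x : V) : (uAtl φ h h').e (Sum.inr j) x = B'.e j (φ x) := rfl

/-- smoothness in the union atlas -/
theorem sm_uAtl {W : Type*} [NormedAddCommGroup W] [NormedSpace ℝ W] {f : V → W} (hf : B.Sm f) :
    (uAtl φ h h').Sm f := by
  intro s
  rcases s with i | j
  · exact hf i
  · have h1 := smAt_comp h' hf j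
    refine h1.mono fun z hz => ?_
    exact (tgt_inr j z).1 hz

theorem sm_uAtl' {W : Type*} [NormedAddCommGroup W] [NormedSpace ℝ W] {f : V' → W}
    (hf : B'.Sm f) : (uAtl φ h h').Sm (fun x => f (φ x)) := sm_uAtl (smAt_comp h hf)

theorem smAt_inr {f : V' → ℂ} {j : B'.ι} (hf : B'.SmAt j f) :
    (uAtl φ h h').SmAt (Sum.inr j) (fun x => f (φ x)) := by
  have h1 : ContDiffOn ℝ ∞ (fun z => f ((B'.e j).symm z))
      ((uAtl φ h h').e (Sum.inr j)).target := hf.mono fun z hz => (tgt_inr j z).1 hz
  refine h1.congr fun z _ => ?_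
  show f (φ (φ.symm ((B'.e j).symm z))) = _
  rw [φ.apply_symm_apply]

/-- the partition of `B` in the union atlas -/
def partL (P : Part B) : Part (uAtl φ h h') where
  ψ := Sum.elim P.ψ (fun _ _ => 0)
  χ := Sum.elim P.χ (fun _ _ => 0)
  ψ_sm s := by
    rcases s with i | j
    · exact sm_uAtl (P.ψ_sm i)
    · exact fun _ => contDiffOn_const
  χ_sm s := by
    rcases s with i | j
    · exact sm_uAtl (P.χ_sm i)
    · exact fun _ => contDiffOn_const
  χ_cpt s := by
    rcases s with i | j
    · exact P.χ_cpt i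
    · have : tsupport (fun _ : V => (0 : ℝ)) = ∅ := by simp [tsupport]
      show IsCompact (tsupport (fun _ : V => (0 : ℝ)))
      rw [this]
      exact isCompact_empty
  χ_sub s := by
    rcases s with i | j
    · exact P.χ_sub i
    · have : tsupport (fun _ : V => (0 : ℝ)) = ∅ := by simp [tsupport]
      show tsupport (fun _ : V => (0 : ℝ)) ⊆ _
      rw [this]
      exact empty_subset _
  χ_one s := by
    rcases s with i | j
    · exact P.χ_one i
    · intro x hx
      have : tsupport (fun _ : V => (0 : ℝ)) = ∅ := by simp [tsupport]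
      have hx' : x ∈ tsupport (fun _ : V => (0 : ℝ)) := hx
      rw [this] at hx'
      exact absurd hx' (notMem_empty x)
  lf K hK := by
    refine ((P.lf K hK).image Sum.inl).subset ?_
    rintro (i | j) hs
    · exact ⟨i, hs, rfl⟩
    · have : tsupport (fun _ : V => (0 : ℝ)) = ∅ := by simp [tsupport]
      have hs' : (tsupport (fun _ : V => (0 : ℝ)) ∩ K).Nonempty := hs
      rw [this, empty_inter] at hs'
      exact absurd hs' not_nonempty_empty
  sum_one x := by
    rw [← P.sum_one x]
    exact finsum_inl (fun s : B.ι ⊕ B'.ι => Sum.elim P.ψ (fun _ _ => (0 : ℝ)) s x) fun _ => rfl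

theorem tsupport_comp (f : V' → ℝ) (φ : V ≃ₜ V') :
    tsupport (fun x => f (φ x)) = φ ⁻¹' tsupport f := by
  unfold tsupport
  rw [φ.preimage_closure]
  rfl

/-- the partition of `B'` in the union atlas -/
def partR (P' : Part B') : Part (uAtl φ h h') where
  ψ := Sum.elim (fun _ _ => 0) (fun j x => P'.ψ j (φ x))
  χ := Sum.elim (fun _ _ => 0) (fun j x => P'.χ j (φ x))
  ψ_sm s := by
    rcases s with i | j
    · exact fun _ => contDiffOn_const
    · exact sm_uAtl' (P'.ψ_sm j)
  χ_sm s := by
    rcases s with i | j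
    · exact fun _ => contDiffOn_const
    · exact sm_uAtl' (P'.χ_sm j)
  χ_cpt s := by
    rcases s with i | j
    · have : tsupport (fun _ : V => (0 : ℝ)) = ∅ := by simp [tsupport]
      show IsCompact (tsupport (fun _ : V => (0 : ℝ)))
      rw [this]
      exact isCompact_empty
    · show IsCompact (tsupport (fun x => P'.χ j (φ x)))
      rw [tsupport_comp]
      exact φ.isClosedEmbedding.isCompact_preimage (P'.χ_cpt j)
  χ_sub s := by
    rcases s with i | j
    · have : tsupport (fun _ : V => (0 : ℝ)) = ∅ := by simp [tsupport]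
      show tsupport (fun _ : V => (0 : ℝ)) ⊆ _
      rw [this]
      exact empty_subset _
    · show tsupport (fun x => P'.χ j (φ x)) ⊆ _
      rw [tsupport_comp]
      intro x hx
      exact (src_inr j x).2 (P'.χ_sub j hx)
  χ_one s := by
    rcases s with i | j
    · intro x hx
      have : tsupport (fun _ : V => (0 : ℝ)) = ∅ := by simp [tsupport]
      have hx' : x ∈ tsupport (fun _ : V => (0 : ℝ)) := hx
      rw [this] at hx'
      exact absurd hx' (notMem_empty x)
    · intro x hx
      have hx' : x ∈ tsupport (fun x => P'.ψ j (φ x)) := hx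
      rw [tsupport_comp] at hx'
      exact φ.continuous.continuousAt.eventually (P'.χ_one j (φ x) hx')
  lf K hK := by
    refine ((P'.lf (φ '' K) (hK.image φ.continuous)).image Sum.inr).subset ?_
    rintro (i | j) hs
    · have : tsupport (fun _ : V => (0 : ℝ)) = ∅ := by simp [tsupport]
      have hs' : (tsupport (fun _ : V => (0 : ℝ)) ∩ K).Nonempty := hs
      rw [this, empty_inter] at hs'
      exact absurd hs' not_nonempty_empty
    · have hs' : (tsupport (fun x => P'.χ j (φ x)) ∩ K).Nonempty := hs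
      rw [tsupport_comp] at hs'
      obtain ⟨x, hx1, hx2⟩ := hs'
      exact ⟨j, ⟨φ x, hx1, mem_image_of_mem _ hx2⟩, rfl⟩
  sum_one x := by
    rw [← P'.sum_one (φ x)]
    exact finsum_inr (fun s : B.ι ⊕ B'.ι => Sum.elim (fun _ _ => (0 : ℝ))
      (fun j x => P'.ψ j (φ x)) s x) fun _ => rfl

/-- reading in the right charts -/
theorem lint_inr (j : B'.ι) (g : V' → ℂ) :
    lint (uAtl φ h h') (Sum.inr j) (fun x => g (φ x)) = lint B' j g := by
  unfold lint
  congr 1
  funext x
  by_cases hx : x ∈ Ui B' j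
  · have hx' : x ∈ Ui (uAtl φ h h') (Sum.inr j) := (tgt_inr (φ := φ) (h := h) (h' := h') j _).2 hx
    rw [rd_of_mem hx', rd_of_mem hx]
    show g (φ (φ.symm ((B'.e j).symm (cc x)))) = _
    rw [φ.apply_symm_apply]
  · have hx' : x ∉ Ui (uAtl φ h h') (Sum.inr j) := fun h1 =>
      hx ((tgt_inr (φ := φ) (h := h) (h' := h') j _).1 h1)
    rw [rd_off hx', rd_off hx]

theorem intD_partL (P : Part B) (f : B.ι ⊕ B'.ι → V → ℂ) :
    intD (partL P : Part (uAtl φ h h')) f = intD P (fun i => f (Sum.inl i)) := by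
  refine (finsum_inl (fun s : B.ι ⊕ B'.ι => lint (uAtl φ h h') s
        (fun x => (((partL P : Part (uAtl φ h h')).ψ s x : ℝ) : ℂ) * f s x)) fun j => ?_)
  rw [← lint_zero (A := uAtl φ h h') (Sum.inr j)]
  refine lint_congr fun x _ => ?_
  show (((0 : ℝ)) : ℂ) * _ = 0
  simp

theorem intD_partR (P' : Part B') (f : B.ι ⊕ B'.ι → V → ℂ) (g : B'.ι → V' → ℂ)
    (hg : ∀ j x, f (Sum.inr j) x = g j (φ x)) :
    intD (partR P' : Part (uAtl φ h h')) f = intD P' g := by
  refine (finsum_inr (fun s : B.ι ⊕ B'.ι => lint (uAtl φ h h') s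
        (fun x => (((partR P' : Part (uAtl φ h h')).ψ s x : ℝ) : ℂ) * f s x)) fun i => ?_).trans
        (finsum_congr fun j => ?_)
  · rw [← lint_zero (A := uAtl φ h h') (Sum.inl i)]
    refine lint_congr fun x _ => ?_
    show (((0 : ℝ)) : ℂ) * _ = 0
    simp
  · rw [← lint_inr (φ := φ) (h := h) (h' := h') j (fun x => (P'.ψ j x : ℂ) * g j x)]
    refine lint_congr fun x _ => ?_
    rw [hg]
    rfl

/-- the density of the union atlas -/
theorem dens_mix {i : B.ι} {j : B'.ι} {x : V} :
    dens (uAtl φ h h') (Sum.inl i) (Sum.inr j) x = ((‖(Jp B B' φ i j x).det‖ ^ 2 : ℝ) : ℂ) := rfl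

theorem dens_mul_dens [T2Space V] {A : Atl n V} {i j : A.ι} {x : V}
    (hx : x ∈ (A.e i).source ∩ (A.e j).source) : dens A j i x * dens A i j x = 1 := by
  have h1 := congrArg Matrix.det (J_mul_J (A := A) hx)
  rw [Matrix.det_mul, Matrix.det_one] at h1
  unfold dens
  rw [← Complex.ofReal_mul, ← mul_pow, ← norm_mul, h1]
  simp

theorem dens_inr_inr (j j' : B'.ι) (x : V) :
    dens (uAtl φ h h') (Sum.inr j) (Sum.inr j') x = dens B' j j' (φ x) := by
  have h1 : (fun z => (uAtl φ h h').e (Sum.inr j') (((uAtl φ h h').e (Sum.inr j)).symm z)) =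
      fun z => B'.e j' ((B'.e j).symm z) := by
    funext z
    show B'.e j' (φ (φ.symm ((B'.e j).symm z))) = _
    rw [φ.apply_symm_apply]
  unfold dens Atl.J
  rw [h1]
  rfl

/-- a pair of densities related by the Jacobian of `φ` is a density of the union atlas -/
theorem den_uAtl [T2Space V] {f : B.ι → V → ℂ} {f' : B'.ι → V' → ℂ} (hf : Den B f) (hf' : Den B' f')
    (hm : ∀ i j x, x ∈ (B.e i).source → φ x ∈ (B'.e j).source →
      f i x = ((‖(Jp B B' φ i j x).det‖ ^ 2 : ℝ) : ℂ) * f' j (φ x)) :
    Den (uAtl φ h h') (Sum.elim f (fun j x => f' j (φ x))) where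
  sm s := by
    rcases s with i | j
    · exact hf.sm i
    · exact smAt_inr (hf'.sm j)
  tr s t x hx := by
    have hx' := hx
    rcases s with i | j
    · rcases t with i' | j'
      · exact hf.tr i i' x hx
      · have h2 : φ x ∈ (B'.e j').source := (src_inr j' x).1 hx.2
        rw [dens_mix]
        exact hm i j' x hx.1 h2
    · rcases t with i' | j'
      · have h2 : φ x ∈ (B'.e j).source := (src_inr j x).1 hx.1
        have h3 : f i' x = dens (uAtl φ h h') (Sum.inl i') (Sum.inr j) x * f' j (φ x) := by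
          rw [dens_mix]
          exact hm i' j x hx.2 h2
        show f' j (φ x) = dens (uAtl φ h h') (Sum.inr j) (Sum.inl i') x * f i' x
        rw [h3, ← mul_assoc, dens_mul_dens ⟨hx.2, hx.1⟩, one_mul]
      · rw [dens_inr_inr]
        exact hf'.tr j j' (φ x) ⟨(src_inr j x).1 hx.1, (src_inr j' x).1 hx.2⟩

/-- **the integral of a density is invariant under biholomorphic maps** -/
theorem intD_bih [T2Space V] (φ : V ≃ₜ V') (h : HolMap B B' φ) (h' : HolMap B' B φ.symm)
    {f : B.ι → V → ℂ} {f' : B'.ι → V' → ℂ} (hf : Den B f) (hf' : Den B' f')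
    (hm : ∀ i j x, x ∈ (B.e i).source → φ x ∈ (B'.e j).source →
      f i x = ((‖(Jp B B' φ i j x).det‖ ^ 2 : ℝ) : ℂ) * f' j (φ x)) {K : Set V}
    (hK : IsCompact K) (h0 : OffK B f K) (P : Part B) (P' : Part B') :
    intD P f = intD P' f' := by
  have hd := den_uAtl (h := h) (h' := h') hf hf' hm
  have hoff : OffK (uAtl φ h h') (Sum.elim f (fun j x => f' j (φ x))) K := by
    intro s x hx hxK
    rcases s with i | j
    · exact h0 i x hx hxK
    · obtain ⟨i, hi⟩ := B.cover x
      have h1 := hd.tr (Sum.inr j) (Sum.inl i) x ⟨hx, hi⟩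
      have h2 : f i x = 0 := h0 i x hi hxK
      rw [h1]
      show _ * f i x = 0
      rw [h2, mul_zero]
  have h1 := intD_indep (partL P : Part (uAtl φ h h')) (partR P') hd hK hoff
  rw [intD_partL, intD_partR P' _ f' fun _ _ => rfl] at h1
  exact h1

end

end Crest.Agent.R281.Lf1_425
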