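import Crest.Agent.R272.DCov4_426

/-!
# R281 (S0424), OM-LF (helper703), file 1: atlases with partition of unity without compactness

* `locallyCompact`, `locallyConnected` : a space with a family of charts
* `exists_lf`     : `X` Hausdorff, `σ`-compact, `C : Fam n X`, `O` an open cover: a countable locally
                    finite cover by small coordinate balls of the charts of `C`, subordinate to `O`
* `subAtl`        : the atlas of such a cover
* `exists_part_lf`: partition of unity of a locally finite atlas with relatively compact charts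
* `exists_atl_nc` : the noncompact version of `Fam_835.Fam.exists_atl`
* `secondCountable_of_atl` : `M` with countably many charts is second countable
-/

set_option autoImplicit false
set_option linter.unusedSectionVars false

open Set Filter Topology Metric
open scoped ContDiff Manifold

namespace Crest.Agent.R281.Lf_703

open Crest.Agent.R275 Crest.Agent.R275.Geo Crest.Agent.R275.GC293
open Crest.Agent.R273.Fam_835 Crest.Agent.R272.DCov_426

noncomputable section

variable {n : ℕ} {X : Type} [TopologicalSpace X]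

theorem locallyCompact (C : Fam n X) : LocallyCompactSpace X := by
  let _ := C.cs
  exact ChartedSpace.locallyCompactSpace (Cn n) X

theorem locallyConnected (C : Fam n X) : LocallyConnectedSpace X := by
  let _ := C.cs
  exact ChartedSpace.locallyConnectedSpace (Cn n) X

/-- countably many charts: second countable -/
theorem secondCountable_of_fam (C : Fam n X) [Countable C.ι] : SecondCountableTopology X := by
  have : ∀ p : C.ι, SecondCountableTopology (C.e p).source := fun p =>
    ((C.e p).toHomeomorphSourceTarget).secondCountableTopology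
  refine TopologicalSpace.secondCountableTopology_of_countable_cover
    (U := fun p : C.ι => (C.e p).source) (fun p => (C.e p).open_source) ?_
  rw [eq_univ_iff_forall]
  intro x
  obtain ⟨i, hi⟩ := C.cover x
  exact mem_iUnion.2 ⟨i, hi⟩

theorem secondCountable_of_atl (A : Atl n X) [Countable A.ι] : SecondCountableTopology X :=
  haveI : Countable (fam A).ι := inferInstanceAs (Countable A.ι)
  secondCountable_of_fam (fam A)

section Loc

variable (C : Fam n X) {κ : Type} (O : κ → Set X)

variable {C O} in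
theorem source_eq (t : LI C O) : t.e.source = (C.e t.c).symm '' ball t.z0 t.r := by
  ext x
  rw [t.mem_source]
  constructor
  · rintro ⟨h1, h2⟩
    exact ⟨_, h2, (C.e t.c).left_inv h1⟩
  · rintro ⟨z, hz, rfl⟩
    have h1 := (t.sub z hz).1
    exact ⟨(C.e t.c).map_target h1, by rwa [(C.e t.c).right_inv h1]⟩

/-- **countable locally finite cover by small balls** -/
theorem exists_lf [T2Space X] [SigmaCompactSpace X] (hO : ∀ k, IsOpen (O k))
    (hOc : ∀ x, ∃ k, x ∈ O k) : ∃ (α : Type) (F : α → LI C O), Countable α ∧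
      (∀ x, ∃ a, x ∈ (F a).e.source) ∧ LocallyFinite (fun a => (F a).e.source) ∧
      (∀ a, IsCompact (closure (F a).e.source)) ∧
      ∀ a, closedBall (F a).z0 (F a).r ⊆ (C.e (F a).c).target := by
  have := locallyCompact C
  have h0 : ∀ x : X, ∃ (c : C.ι) (k : κ) (R : ℝ), x ∈ (C.e c).source ∧ 0 < R ∧
      ∀ z ∈ closedBall (C.e c x) R, z ∈ (C.e c).target ∧ (C.e c).symm z ∈ O k := by
    intro x
    obtain ⟨c, hc⟩ := C.cover x
    obtain ⟨k, hk⟩ := hOc x
    have h1 : (C.e c).target ∩ (C.e c).symm ⁻¹' (O k) ∈ 𝓝 (C.e c x) :=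
      ((C.e c).isOpen_inter_preimage_symm (hO k)).mem_nhds
        ⟨(C.e c).map_source hc, by rw [mem_preimage, (C.e c).left_inv hc]; exact hk⟩
    obtain ⟨R, hR, h2⟩ := Metric.nhds_basis_closedBall.mem_iff.1 h1
    exact ⟨c, k, R, hc, hR, fun z hz => h2 hz⟩
  choose c k R hc hR hsub using h0
  let p : ∀ _ : X, ℝ → Prop := fun x r => 0 < r ∧ r ≤ R x
  let B : ∀ _ : X, ℝ → Set X := fun x r => (C.e (c x)).symm '' ball (C.e (c x) x) r
  have hB : ∀ x, (𝓝 x).HasBasis (p x) (B x) := by
    intro x
    have h1 : (𝓝 (C.e (c x) x)).HasBasis (fun r : ℝ => 0 < r ∧ r ≤ R x)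
        (fun r => ball (C.e (c x) x) r) := by
      refine Metric.nhds_basis_ball.restrict fun r hr => ?_
      exact ⟨min r (R x), lt_min hr (hR x), min_le_right _ _, ball_subset_ball (min_le_left _ _)⟩
    have h2 := h1.map (C.e (c x)).symm
    have h3 : map (C.e (c x)).symm (𝓝 (C.e (c x) x)) = 𝓝 x :=
      (C.e (c x)).symm_map_nhds_eq (hc x)
    rw [h3] at h2
    exact h2
  obtain ⟨α, x, r, hr, hcov, hlf⟩ :=
    refinement_of_locallyCompact_sigmaCompact_of_nhds_basis hB
  let F : α → LI C O := fun a =>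
    { c := c (x a)
      z0 := C.e (c (x a)) (x a)
      r := r a
      k := k (x a)
      hr := (hr a).1
      sub := fun z hz => hsub (x a) z
        (closedBall_subset_closedBall (hr a).2 (ball_subset_closedBall hz)) }
  have hF : ∀ a, (F a).e.source = B (x a) (r a) := fun a => source_eq (F a)
  have hlf' : LocallyFinite (fun a => (F a).e.source) := by
    have : (fun a => (F a).e.source) = fun a => B (x a) (r a) := funext hF
    rw [this]
    exact hlf
  have hne : ∀ a, ((F a).e.source).Nonempty := by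
    intro a
    rw [hF]
    exact ⟨_, _, mem_ball_self (hr a).1, rfl⟩
  have hcb : ∀ a, closedBall (F a).z0 (F a).r ⊆ (C.e (F a).c).target := fun a z hz =>
    (hsub (x a) z (closedBall_subset_closedBall (hr a).2 hz)).1
  refine ⟨α, F, ?_, ?_, hlf', ?_, hcb⟩
  · exact Set.countable_univ_iff.1 (hlf'.countable_univ hne)
  · intro y
    have hy : y ∈ ⋃ a, B (x a) (r a) := hcov ▸ mem_univ y
    obtain ⟨a, ha⟩ := mem_iUnion.1 hy
    exact ⟨a, by rw [hF]; exact ha⟩
  · intro a
    have h1 : IsCompact ((C.e (F a).c).symm '' closedBall (F a).z0 (F a).r) :=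
      (isCompact_closedBall _ _).image_of_continuousOn
        ((C.e (F a).c).continuousOn_symm.mono (hcb a))
    refine h1.closure_of_subset ?_
    rw [source_eq]
    exact image_mono ball_subset_closedBall

variable {C O} in
/-- the atlas of a cover by small balls -/
def subAtl {α : Type} (F : α → LI C O) (h : ∀ x, ∃ a, x ∈ (F a).e.source) : Atl n X where
  ι := α
  e a := (F a).e
  cover := h
  cube a z hz p := rc_mem_of_ball (F a).z0 (F a).r (F a).hr ((F a).mem_target.1 hz) p
  holo a b := by
    intro z hz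
    have h1 := (F a).mem_target.1 hz.1
    have h2 := ((F a).sub _ h1).1
    have h3 := ((F b).mem_source.1 hz.2).1
    rw [(F a).e_symm] at h3
    have h4 : DifferentiableAt ℂ (fun z => C.e (F b).c ((C.e (F a).c).symm z))
        ((aff (F a).z0 (F a).r (F a).hr).symm z) :=
      (C.holo (F a).c (F b).c).differentiableAt (((C.e (F a).c).isOpen_inter_preimage_symm
        (C.e (F b).c).open_source).mem_nhds ⟨h2, h3⟩)
    have h5 := DifferentiableAt.comp z (g := fun z => C.e (F b).c ((C.e (F a).c).symm z)) h4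
      (differentiable_aff_symm (F a).z0 (F a).r (F a).hr).differentiableAt
    exact (DifferentiableAt.comp z (g := aff (F b).z0 (F b).r (F b).hr)
      (differentiable_aff (F b).z0 (F b).r (F b).hr).differentiableAt
        h5).differentiableWithinAt

variable {C O} in
theorem cmp_subAtl {α : Type} (F : α → LI C O) (h : ∀ x, ∃ a, x ∈ (F a).e.source) :
    Cmp C (subAtl F h) := by
  refine ⟨⟨continuous_id, fun a c => ?_⟩, ⟨continuous_id, fun c a => ?_⟩⟩
  · intro z hz
    have h1 := (F a).mem_target.1 hz.1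
    have h2 := ((F a).sub _ h1).1
    have h4 : DifferentiableAt ℂ (fun z => C.e c ((C.e (F a).c).symm z))
        ((aff (F a).z0 (F a).r (F a).hr).symm z) :=
      (C.holo (F a).c c).differentiableAt (((C.e (F a).c).isOpen_inter_preimage_symm
        (C.e c).open_source).mem_nhds ⟨h2, hz.2⟩)
    exact (DifferentiableAt.comp z (g := fun z => C.e c ((C.e (F a).c).symm z)) h4
      (differentiable_aff_symm (F a).z0 (F a).r
        (F a).hr).differentiableAt).differentiableWithinAt
  · intro z hz
    have h3 : (C.e c).symm z ∈ (C.e (F a).c).source := ((F a).mem_source.1 hz.2).1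
    have h4 : DifferentiableAt ℂ (fun z => C.e (F a).c ((C.e c).symm z)) z :=
      (C.holo c (F a).c).differentiableAt (((C.e c).isOpen_inter_preimage_symm
        (C.e (F a).c).open_source).mem_nhds ⟨hz.1, h3⟩)
    exact (DifferentiableAt.comp z (g := aff (F a).z0 (F a).r (F a).hr)
      (differentiable_aff (F a).z0 (F a).r (F a).hr).differentiableAt h4).differentiableWithinAt

end Loc

/-! ### partition of unity -/

section PartU

variable (A : Atl n X)

theorem sm_of_contMDiff {W : Type*} [NormedAddCommGroup W] [NormedSpace ℝ W] {f : X → W} :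
    letI := (fam A).cs
    ContMDiff 𝓘(ℝ, Cn n) 𝓘(ℝ, W) ∞ f → A.Sm f := by
  let _ := (fam A).cs
  have _ := (fam A).isManifold
  have : IsManifold 𝓘(ℝ, Cn n) ∞ X := ZC352.isManifold_real
  intro hf i
  have h1 : ContMDiffOn 𝓘(ℝ, Cn n) 𝓘(ℝ, Cn n) ∞ (A.e i).symm (A.e i).target :=
    contMDiffOn_symm_of_mem_maximalAtlas
      (StructureGroupoid.subset_maximalAtlas _ (mem_range_self i))
  have h2 : ContMDiffOn 𝓘(ℝ, Cn n) 𝓘(ℝ, W) ∞ (f ∘ (A.e i).symm) (A.e i).target :=
    hf.comp_contMDiffOn h1
  exact contMDiffOn_iff_contDiffOn.1 h2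

/-- **partition of unity of a locally finite atlas** -/
theorem exists_part_lf [T2Space X] [SigmaCompactSpace X]
    (hlf : LocallyFinite fun i => (A.e i).source)
    (hc : ∀ i, IsCompact (closure (A.e i).source)) :
    ∃ P : Part A, (∀ i x, 0 ≤ P.ψ i x) ∧ ∀ i x, P.χ i x ∈ Icc (0 : ℝ) 1 := by
  let _ := (fam A).cs
  have _ := (fam A).isManifold
  have : IsManifold 𝓘(ℝ, Cn n) ∞ X := ZC352.isManifold_real
  have := locallyCompact (fam A)
  obtain ⟨f, hf⟩ := SmoothPartitionOfUnity.exists_isSubordinate 𝓘(ℝ, Cn n) (s := (univ : Set X))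
    isClosed_univ (fun i => (A.e i).source) (fun i => (A.e i).open_source)
    (fun x _ => mem_iUnion.2 (A.cover x))
  have h1 : ∀ i : A.ι, ∃ χ : C^∞⟮𝓘(ℝ, Cn n), X; 𝓘(ℝ), ℝ⟯,
      (∀ᶠ x in 𝓝ˢ ((A.e i).source)ᶜ, χ x = 0) ∧
      (∀ᶠ x in 𝓝ˢ (tsupport (f i)), χ x = 1) ∧ ∀ x, χ x ∈ Icc (0 : ℝ) 1 := by
    intro i
    apply exists_contMDiffMap_zero_one_nhds_of_isClosed
    · exact (A.e i).open_source.isClosed_compl
    · exact isClosed_tsupport _
    · rw [disjoint_compl_left_iff_subset]
      exact hf i
  choose χ hχ0 hχ1 hχ using h1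
  have hsub : ∀ i, tsupport (χ i) ⊆ (A.e i).source := by
    intro i x hx
    by_contra hxs
    have h2 : ∀ᶠ y in 𝓝 x, χ i y = 0 :=
      (hχ0 i).filter_mono (nhds_le_nhdsSet (mem_compl hxs))
    exact (notMem_tsupport_iff_eventuallyEq.2 h2) hx
  refine ⟨⟨fun i x => f i x, fun i x => χ i x, fun i => ?_, fun i => ?_, fun i => ?_, hsub,
    fun i x hx => ?_, fun K hK => ?_, fun x => f.sum_eq_one (mem_univ x)⟩, fun i x => f.nonneg i x,
    hχ⟩
  · exact sm_of_contMDiff A (f i).contMDiff
  · exact sm_of_contMDiff A (χ i).contMDiff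
  · exact (hc i).of_isClosed_subset (isClosed_tsupport _) ((hsub i).trans subset_closure)
  · exact (hχ1 i).filter_mono (nhds_le_nhdsSet hx)
  · refine (hlf.finite_nonempty_inter_compact hK).subset ?_
    rintro i ⟨x, hx, hxK⟩
    exact ⟨x, hsub i hx, hxK⟩

end PartU

/-- **atlases without compactness** -/
theorem exists_atl_nc [T2Space X] [SigmaCompactSpace X] (C : Fam n X) {κ : Type} (O : κ → Set X)
    (hO : ∀ k, IsOpen (O k)) (hOc : ∀ x, ∃ k, x ∈ O k) :
    ∃ A : Atl n X, Countable A.ι ∧ Nonempty (Part A) ∧ (∀ i, ∃ k, (A.e i).source ⊆ O k) ∧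
      Cmp C A ∧ LocallyFinite (fun i => (A.e i).source) ∧
      ∀ i, IsCompact (closure (A.e i).source) := by
  obtain ⟨α, F, h1, h2, h3, h4, -⟩ := exists_lf C O hO hOc
  obtain ⟨P, -, -⟩ := exists_part_lf (subAtl F h2) h3 h4
  exact ⟨subAtl F h2, h1, ⟨P⟩, fun a => ⟨(F a).k, (F a).source_sub⟩, cmp_subAtl F h2, h3, h4⟩

end

end Crest.Agent.R281.Lf_703
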