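import Crest.Agent.R281.Lf1_703
import Crest.Agent.R272.Lev_54

/-!
# R281 (S0424), OM-LF (helper703), file 2: the components of a regular fibre

`F : Fam N M`, `X0 ⊆ M` open, `f : M → Cn m` holomorphic on `X0`, `y : Cn m`.

* `Ad F X0 f d`      : a holomorphic chart `g` of `M` with values in `Cn d × Cn m`, `(g x).2 = f x`
* `exists_ad`        : it exists near every point of `X0` where `df` is surjective
* `TI`, `TI.ch`      : plaques and the charts of `T = connectedComponentIn (X0 ∩ f⁻¹{y}) p`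
* `famT`             : the complex structure of `T`; `famT_hol` (the inclusion is holomorphic)
-/

set_option autoImplicit false
set_option linter.unusedSectionVars false

open Set Filter Topology Metric

namespace Crest.Agent.R281.Lf_703

open Crest.Agent.R275 Crest.Agent.R275.Geo Crest.Agent.R275.GC293
open Crest.Agent.R273.Fam_835 Crest.Agent.R272.DCov_426 Crest.Agent.R272.FamP_54
open Crest.Agent.R272.Lev_54

noncomputable section

variable {N d m : ℕ} {M : Type} [TopologicalSpace M]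

section Cpt

variable {E E' : Type*} [NormedAddCommGroup E] [NormedSpace ℂ E] [NormedAddCommGroup E']
  [NormedSpace ℂ E'] {F : Fam N M}

/-- transition between two compatible charts -/
theorem cpt_trans {g : OpenPartialHomeomorph M E} {g' : OpenPartialHomeomorph M E'}
    (hg : Cpt F g) (hg' : Cpt F g') {z : E} (hz : z ∈ g.target) (hz' : g.symm z ∈ g'.source) :
    DifferentiableAt ℂ (fun z => g' (g.symm z)) z := by
  obtain ⟨i, hi⟩ := F.cover (g.symm z)
  have h1 := hg.hol' i z hz hi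
  have h2 := hg'.hol _ hz' i hi
  have h3 : DifferentiableAt ℂ (fun w => g' ((F.e i).symm (F.e i (g.symm w)))) z :=
    DifferentiableAt.comp z (g := fun w => g' ((F.e i).symm w)) h2 h1
  refine h3.congr_of_eventuallyEq ?_
  have h4 : ∀ᶠ w in 𝓝 z, g.symm w ∈ (F.e i).source :=
    (g.continuousAt_symm hz).preimage_mem_nhds ((F.e i).open_source.mem_nhds hi)
  filter_upwards [h4] with w hw
  rw [(F.e i).left_inv hw]

end Cpt

/-- a chart of `M` adapted to `f` -/
structure Ad (F : Fam N M) (X0 : Set M) (f : M → Cn m) (d : ℕ) where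
  g : OpenPartialHomeomorph M (Cn d × Cn m)
  sub : g.source ⊆ X0
  cpt : Cpt F g
  snd : ∀ x ∈ g.source, (g x).2 = f x

variable {F : Fam N M} {X0 : Set M} {f : M → Cn m} {y : Cn m}

/-- adapted charts exist at the regular points -/
theorem exists_ad (hN : N = d + m) (hX0 : IsOpen X0) (hf : HF F X0 f) {p : M} (hp : p ∈ X0)
    (j : F.ι) (hj : p ∈ (F.e j).source)
    (hs : Function.Surjective (fderiv ℂ (fun z => f ((F.e j).symm z)) (F.e j p))) :
    ∃ a : Ad F X0 f d, p ∈ a.g.source := by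
  have hW : IsOpen ((F.e j).target ∩ (F.e j).symm ⁻¹' X0) :=
    (F.e j).isOpen_inter_preimage_symm hX0
  obtain ⟨χ, h1, h2, h3, h4, h5⟩ := straighten (V := Cn d) (Φ := fun z => f ((F.e j).symm z))
    (a := F.e j p) hW (by
      rintro z ⟨hz, hzO⟩
      have h1 := hf _ hzO j ((F.e j).map_target hz)
      rw [(F.e j).right_inv hz] at h1
      exact h1.differentiableWithinAt)
    ⟨(F.e j).map_source hj, by rw [mem_preimage, (F.e j).left_inv hj]; exact hp⟩ hs
    (by simpa using hN)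
  have hsrc : ∀ x, x ∈ ((F.e j).trans χ).source ↔ x ∈ (F.e j).source ∧ F.e j x ∈ χ.source :=
    fun x => Iff.rfl
  refine ⟨⟨(F.e j).trans χ, ?_, ⟨?_, ?_⟩, ?_⟩, ?_⟩
  · intro x hx
    obtain ⟨hx1, hx2⟩ := (hsrc x).1 hx
    have h6 := (h2 hx2).2
    rw [mem_preimage, (F.e j).left_inv hx1] at h6
    exact h6
  · intro x hx
    obtain ⟨hx1, hx2⟩ := (hsrc x).1 hx
    exact HFA.comp_left (f := fun y => F.e j y) (g := χ)
      (h4.differentiableAt (χ.open_source.mem_nhds hx2)) (hfa_chart hx1)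
  · intro i z hz hi
    have hz1 : z ∈ χ.target := hz.1
    have hz2 : χ.symm z ∈ (F.e j).target := hz.2
    have hi' : (F.e j).symm (χ.symm z) ∈ (F.e i).source := hi
    have h6 : DifferentiableAt ℂ χ.symm z := h5.differentiableAt (χ.open_target.mem_nhds hz1)
    have h7 : DifferentiableAt ℂ (fun z => F.e i ((F.e j).symm z)) (χ.symm z) :=
      (F.holo j i).differentiableAt (((F.e j).isOpen_inter_preimage_symm
        (F.e i).open_source).mem_nhds ⟨hz2, hi'⟩)
    exact DifferentiableAt.comp z (g := fun z => F.e i ((F.e j).symm z)) h7 h6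
  · intro x hx
    obtain ⟨hx1, hx2⟩ := (hsrc x).1 hx
    show (χ (F.e j x)).2 = f x
    rw [h3, (F.e j).left_inv hx1]
  · exact (hsrc p).2 ⟨hj, h1⟩

/-! ### the component -/

/-- the fibre component -/
abbrev cmpt (X0 : Set M) (f : M → Cn m) (y : Cn m) (p : M) : Set M :=
  connectedComponentIn (X0 ∩ f ⁻¹' {y}) p

variable {p : M}

theorem cmpt_f {x : M} (hx : x ∈ cmpt X0 f y p) : f x = y :=
  (connectedComponentIn_subset _ _ hx).2

theorem cmpt_X0 {x : M} (hx : x ∈ cmpt X0 f y p) : x ∈ X0 :=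
  (connectedComponentIn_subset _ _ hx).1

/-- index of a plaque of the fibre component -/
structure TI (F : Fam N M) (X0 : Set M) (f : M → Cn m) (y : Cn m) (p : M) (d : ℕ) where
  a : Ad F X0 f d
  z0 : Cn d
  r : ℝ
  hr : 0 < r
  sub : ball z0 r ×ˢ ball y r ⊆ a.g.target
  mem : a.g.symm (z0, y) ∈ cmpt X0 f y p

namespace TI

variable (t : TI F X0 f y p d)

theorem mem_target {z : Cn d} (hz : z ∈ ball t.z0 t.r) : (z, y) ∈ t.a.g.target :=
  t.sub ⟨hz, mem_ball_self t.hr⟩

theorem mem_source {z : Cn d} (hz : z ∈ ball t.z0 t.r) : t.a.g.symm (z, y) ∈ t.a.g.source :=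
  t.a.g.map_target (t.mem_target hz)

theorem plaque {z : Cn d} (hz : z ∈ ball t.z0 t.r) : t.a.g.symm (z, y) ∈ cmpt X0 f y p := by
  have h1 : ContinuousOn (fun z => t.a.g.symm (z, y)) (ball t.z0 t.r) :=
    t.a.g.continuousOn_symm.comp (by fun_prop) fun z hz => t.mem_target hz
  have h2 : IsPreconnected ((fun z => t.a.g.symm (z, y)) '' ball t.z0 t.r) :=
    ((convex_ball t.z0 t.r).isPreconnected).image _ h1
  have h3 : (fun z => t.a.g.symm (z, y)) '' ball t.z0 t.r ⊆ X0 ∩ f ⁻¹' {y} := by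
    rintro _ ⟨w, hw, rfl⟩
    refine ⟨t.a.sub (t.mem_source hw), ?_⟩
    show f (t.a.g.symm (w, y)) = y
    rw [← t.a.snd _ (t.mem_source hw), t.a.g.right_inv (t.mem_target hw)]
  have h4 := h2.subset_connectedComponentIn ⟨t.z0, mem_ball_self t.hr, rfl⟩ h3
  have h5 : connectedComponentIn (X0 ∩ f ⁻¹' {y}) p =
      connectedComponentIn (X0 ∩ f ⁻¹' {y}) (t.a.g.symm (t.z0, y)) :=
    connectedComponentIn_eq t.mem
  show _ ∈ connectedComponentIn (X0 ∩ f ⁻¹' {y}) p
  rw [h5]
  exact h4 ⟨z, hz, rfl⟩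

theorem eq_mk {x : M} (hx : x ∈ cmpt X0 f y p) (hs : x ∈ t.a.g.source) :
    t.a.g x = ((t.a.g x).1, y) := by
  have h1 := t.a.snd x hs
  rw [cmpt_f hx] at h1
  exact Prod.ext rfl h1

open Classical in
/-- the chart of the component -/
def ch : OpenPartialHomeomorph (cmpt X0 f y p) (Cn d) where
  toFun x := (t.a.g x.1).1
  invFun z := if h : t.a.g.symm (z, y) ∈ cmpt X0 f y p then ⟨_, h⟩ else ⟨_, t.mem⟩
  source := {x | x.1 ∈ t.a.g.source ∧ (t.a.g x.1).1 ∈ ball t.z0 t.r}
  target := ball t.z0 t.r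
  map_source' x hx := hx.2
  map_target' z hz := by
    rw [dif_pos (t.plaque hz)]
    refine ⟨t.mem_source hz, ?_⟩
    show (t.a.g (t.a.g.symm (z, y))).1 ∈ _
    rw [t.a.g.right_inv (t.mem_target hz)]
    exact hz
  left_inv' x hx := by
    have h1 : t.a.g.symm ((t.a.g x.1).1, y) = x.1 := by
      rw [← t.eq_mk x.2 hx.1, t.a.g.left_inv hx.1]
    have h2 : t.a.g.symm ((t.a.g x.1).1, y) ∈ cmpt X0 f y p := by rw [h1]; exact x.2
    rw [dif_pos h2]
    exact Subtype.ext h1
  right_inv' z hz := by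
    rw [dif_pos (t.plaque hz)]
    show (t.a.g (t.a.g.symm (z, y))).1 = z
    rw [t.a.g.right_inv (t.mem_target hz)]
  open_source := by
    have h1 : IsOpen (t.a.g.source ∩ t.a.g ⁻¹' (Prod.fst ⁻¹' ball t.z0 t.r)) :=
      t.a.g.isOpen_inter_preimage (isOpen_ball.preimage continuous_fst)
    exact h1.preimage continuous_subtype_val
  open_target := isOpen_ball
  continuousOn_toFun := by
    have h1 : ContinuousOn (fun x => (t.a.g x).1) t.a.g.source :=
      continuous_fst.comp_continuousOn t.a.g.continuousOn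
    exact h1.comp continuous_subtype_val.continuousOn fun x hx => hx.1
  continuousOn_invFun := by
    rw [Topology.IsInducing.subtypeVal.continuousOn_iff]
    have h1 : ContinuousOn (fun z => t.a.g.symm (z, y)) (ball t.z0 t.r) :=
      t.a.g.continuousOn_symm.comp (by fun_prop) fun z hz => t.mem_target hz
    refine h1.congr ?_
    intro z hz
    simp only [Function.comp]
    rw [dif_pos (t.plaque hz)]

theorem ch_apply (x : cmpt X0 f y p) : t.ch x = (t.a.g x.1).1 := rfl

theorem mem_ch_source {x : cmpt X0 f y p} :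
    x ∈ t.ch.source ↔ x.1 ∈ t.a.g.source ∧ (t.a.g x.1).1 ∈ ball t.z0 t.r := Iff.rfl

theorem ch_target : t.ch.target = ball t.z0 t.r := rfl

theorem ch_symm {z : Cn d} (hz : z ∈ ball t.z0 t.r) :
    (t.ch.symm z).1 = t.a.g.symm (z, y) := by
  have h1 : t.ch.symm z = (open Classical in if h : t.a.g.symm (z, y) ∈ cmpt X0 f y p
    then ⟨_, h⟩ else ⟨_, t.mem⟩ : cmpt X0 f y p) := rfl
  rw [h1, dif_pos (t.plaque hz)]

/-- transition -/
theorem trans_diffAt (t' : TI F X0 f y p d) {z : Cn d} (hz : z ∈ ball t.z0 t.r)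
    (h : t.ch.symm z ∈ t'.ch.source) :
    DifferentiableAt ℂ (fun z => t'.ch (t.ch.symm z)) z := by
  have h1 : t.a.g.symm (z, y) ∈ t'.a.g.source := by
    rw [← t.ch_symm hz]
    exact (t'.mem_ch_source.1 h).1
  have h2 : DifferentiableAt ℂ (fun w => t'.a.g (t.a.g.symm w)) (z, y) :=
    cpt_trans t.a.cpt t'.a.cpt (t.mem_target hz) h1
  have h3 : DifferentiableAt ℂ (fun z => t'.a.g (t.a.g.symm (z, y))) z :=
    DifferentiableAt.comp z (g := fun w => t'.a.g (t.a.g.symm w))
      (f := fun z : Cn d => (z, y)) h2 (by fun_prop)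
  refine h3.fst.congr_of_eventuallyEq ?_
  filter_upwards [isOpen_ball.mem_nhds hz] with w hw
  rw [t'.ch_apply, t.ch_symm hw]

end TI

/-- **the complex structure of the fibre component** -/
def famT (hN : N = d + m) (hX0 : IsOpen X0) (hf : HF F X0 f)
    (hs : ∀ x ∈ X0, f x = y → ∀ j, x ∈ (F.e j).source →
      Function.Surjective (fderiv ℂ (fun z => f ((F.e j).symm z)) (F.e j x))) :
    Fam d (cmpt X0 f y p) where
  ι := TI F X0 f y p d
  e t := t.ch
  cover x := by
    obtain ⟨j, hj⟩ := F.cover x.1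
    obtain ⟨a, ha⟩ := exists_ad (d := d) hN hX0 hf (cmpt_X0 x.2) j hj
      (hs x.1 (cmpt_X0 x.2) (cmpt_f x.2) j hj)
    have h1 : a.g x.1 = ((a.g x.1).1, y) := by
      have h1 := a.snd x.1 ha
      rw [cmpt_f x.2] at h1
      exact Prod.ext rfl h1
    have h2 : ((a.g x.1).1, y) ∈ a.g.target := by
      rw [← h1]; exact a.g.map_source ha
    obtain ⟨r, hr, h3⟩ := Metric.mem_nhds_iff.1 (a.g.open_target.mem_nhds h2)
    rw [← ball_prod_same] at h3
    refine ⟨⟨a, (a.g x.1).1, r, hr, h3, ?_⟩, ?_⟩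
    · rw [← h1, a.g.left_inv ha]
      exact x.2
    · exact ⟨ha, mem_ball_self hr⟩
  holo t t' := by
    intro z hz
    exact (t.trans_diffAt t' hz.1 hz.2).differentiableWithinAt

section hol

variable (hN : N = d + m) (hX0 : IsOpen X0) (hf : HF F X0 f)
    (hs : ∀ x ∈ X0, f x = y → ∀ j, x ∈ (F.e j).source →
      Function.Surjective (fderiv ℂ (fun z => f ((F.e j).symm z)) (F.e j x)))

/-- the inclusion is holomorphic -/
theorem famT_hol : HolC (famT (p := p) hN hX0 hf hs) F Subtype.val := by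
  refine holC_of_local continuous_subtype_val fun x => ?_
  obtain ⟨t, ht⟩ := (famT (p := p) hN hX0 hf hs).cover x
  obtain ⟨j, hj⟩ := F.cover x.1
  refine ⟨t, j, ht, hj, ?_⟩
  obtain ⟨h1, h2⟩ := (TI.mem_ch_source t).1 ht
  have e1 : (TI.a t).g.symm (((TI.a t).g x.1).1, y) = x.1 := by
    rw [← TI.eq_mk t x.2 h1, (TI.a t).g.left_inv h1]
  have h3 : DifferentiableAt ℂ (fun w => F.e j ((TI.a t).g.symm w)) (((TI.a t).g x.1).1, y) :=
    (TI.a t).cpt.hol' j _ (TI.mem_target t h2) (by rw [e1]; exact hj)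
  have h4 : DifferentiableAt ℂ (fun z => F.e j ((TI.a t).g.symm (z, y))) ((TI.a t).g x.1).1 :=
    DifferentiableAt.comp _ (g := fun w => F.e j ((TI.a t).g.symm w))
      (f := fun z : Cn d => (z, y)) h3 (by fun_prop)
  refine h4.congr_of_eventuallyEq ?_
  filter_upwards [isOpen_ball.mem_nhds h2] with w hw
  show F.e j (((TI.ch t).symm w).1) = _
  rw [TI.ch_symm t hw]

end hol

end

end Crest.Agent.R281.Lf_703
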