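import Crest.Agent.R281.Lf2_703
import Crest.Agent.R281.S6D_664

/-!
# R281 (S0424), OM-LF (helper703), file 3: leaves as noncompact complex manifolds

* `Lf A n X0`   : 854's record (#7579)
* `PC T X0 f y` : product charts of the ambient manifold along the leaf
* `exists_Lf`   : every component of a regular fibre is an `Lf` with product charts
-/

set_option autoImplicit false
set_option linter.unusedSectionVars false

open Set Filter Topology Metric

namespace Crest.Agent.R281.Lf_703

open Crest.Agent.R275 Crest.Agent.R275.Geo Crest.Agent.R275.GC293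
open Crest.Agent.R273.Fam_835 Crest.Agent.R272.DCov_426 Crest.Agent.R272.FamP_54
open Crest.Agent.R272.Lev_54 Crest.Agent.R273.Map_835 Crest.Agent.R281.S6D_664

noncomputable section

variable {N n m : ℕ} {M : Type} [TopologicalSpace M]

/-- **a leaf**: an embedded connected manifold, closed in `X0` (854, #7579) -/
structure Lf (A : Atl N M) (n : ℕ) (X0 : Set M) where
  V : Type
  [top : TopologicalSpace V]
  [t2 : T2Space V]
  [conn : ConnectedSpace V]
  B : Atl n V
  [cnt : Countable B.ι]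
  P : Part B
  i : V → M
  hol : HolMap B A i
  imm : Imm B A i
  inj : Function.Injective i
  mem : ∀ v, i v ∈ X0
  cls : ∀ C ⊆ X0, IsCompact C → IsCompact (i ⁻¹' C)
  ind : IsInducing i
  ψ_nonneg : ∀ k v, 0 ≤ P.ψ k v
  χ_mem : ∀ k v, P.χ k v ∈ Icc (0 : ℝ) 1
  lf : LocallyFinite fun k => (B.e k).source
  rc : ∀ k, IsCompact (closure (B.e k).source)

attribute [instance] Lf.top Lf.t2 Lf.conn Lf.cnt

/-- **product charts of the ambient manifold along the leaf** `{f = y}` -/
structure PC {A : Atl N M} {O : Set M} (T : Lf A n O) (X0 : Set M) (f : M → Cn m) (y : Cn m) where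
  G : T.B.ι → OpenPartialHomeomorph M (Cn n × Cn m)
  r : T.B.ι → ℝ
  hr : ∀ k, 0 < r k
  sub : ∀ k, (G k).source ⊆ X0
  cpt : ∀ k, Cpt (fam A) (G k)
  snd : ∀ k, ∀ x ∈ (G k).source, (G k x).2 = f x
  tgt : ∀ k, (G k).target = (T.B.e k).target ×ˢ ball y (r k)
  src : ∀ k v, v ∈ (T.B.e k).source ↔ T.i v ∈ (G k).source
  fst : ∀ k v, v ∈ (T.B.e k).source → (G k (T.i v)).1 = T.B.e k v

/-! ### auxiliary facts -/

/-- components are closed in the set -/
theorem cmpt_closed {Z : Set M} {p x : M} (hp : p ∈ Z) (hx : x ∈ closure (connectedComponentIn Z p))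
    (hxZ : x ∈ Z) : x ∈ connectedComponentIn Z p := by
  have h1 : IsPreconnected (insert x (connectedComponentIn Z p)) :=
    isPreconnected_connectedComponentIn.subset_closure (subset_insert _ _)
      (insert_subset hx subset_closure)
  have h2 : insert x (connectedComponentIn Z p) ⊆ Z :=
    insert_subset hxZ (connectedComponentIn_subset _ _)
  exact h1.subset_connectedComponentIn (mem_insert_of_mem _ (mem_connectedComponentIn hp)) h2
    (mem_insert _ _)

/-- a map with a differentiable left inverse has an injective derivative -/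
theorem inj_of_left {E E' : Type*} [NormedAddCommGroup E] [NormedSpace ℂ E]
    [NormedAddCommGroup E'] [NormedSpace ℂ E'] {φ : E → E'} {ψ : E' → E} {z : E}
    (hφ : DifferentiableAt ℂ φ z) (hψ : DifferentiableAt ℂ ψ (φ z))
    (h : ∀ᶠ w in 𝓝 z, ψ (φ w) = w) : Function.Injective (fderiv ℂ φ z) := by
  have h1 : HasFDerivAt (fun w => ψ (φ w)) ((fderiv ℂ ψ (φ z)).comp (fderiv ℂ φ z)) z :=
    hψ.hasFDerivAt.comp z hφ.hasFDerivAt
  have h2 : HasFDerivAt (fun w => ψ (φ w)) (ContinuousLinearMap.id ℂ E) z :=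
    (hasFDerivAt_id z).congr_of_eventuallyEq h
  have h3 := h1.unique h2
  intro v w hvw
  have h4 := congrArg (fun L : E →L[ℂ] E => L v) h3
  have h5 := congrArg (fun L : E →L[ℂ] E => L w) h3
  simp only [ContinuousLinearMap.comp_apply, ContinuousLinearMap.id_apply] at h4 h5
  rw [← h4, ← h5, hvw]

/-- normalisation of the first factor -/
def nrm (m : ℕ) (z0 : Cn n) (r : ℝ) (hr : 0 < r) : Cn n × Cn m ≃ₜ Cn n × Cn m :=
  (aff z0 r hr).prodCongr (Homeomorph.refl _)

theorem nrm_apply (z0 : Cn n) (r : ℝ) (hr : 0 < r) (w : Cn n × Cn m) :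
    nrm m z0 r hr w = (aff z0 r hr w.1, w.2) := rfl

theorem nrm_symm (z0 : Cn n) (r : ℝ) (hr : 0 < r) (w : Cn n × Cn m) :
    (nrm m z0 r hr).symm w = ((aff z0 r hr).symm w.1, w.2) := rfl

theorem differentiable_nrm (z0 : Cn n) (r : ℝ) (hr : 0 < r) :
    Differentiable ℂ (nrm m z0 r hr) :=
  ((differentiable_aff z0 r hr).comp differentiable_fst).prodMk differentiable_snd

theorem differentiable_nrm_symm (z0 : Cn n) (r : ℝ) (hr : 0 < r) :
    Differentiable ℂ (nrm m z0 r hr).symm :=
  ((differentiable_aff_symm z0 r hr).comp differentiable_fst).prodMk differentiable_snd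

/-- restriction of a chart to a product of balls, with the first factor normalised -/
def pch (g : OpenPartialHomeomorph M (Cn n × Cn m)) (z0 : Cn n) (r : ℝ) (hr : 0 < r) (y : Cn m)
    (ρ : ℝ) : OpenPartialHomeomorph M (Cn n × Cn m) :=
  g.trans ((nrm m z0 r hr).toOpenPartialHomeomorph.restrOpen (ball z0 r ×ˢ ball y ρ)
    (isOpen_ball.prod isOpen_ball))

section pch

variable {g : OpenPartialHomeomorph M (Cn n × Cn m)} {z0 : Cn n} {r : ℝ} {hr : 0 < r} {y : Cn m}
  {ρ : ℝ}

theorem pch_apply (x : M) : pch g z0 r hr y ρ x = (aff z0 r hr (g x).1, (g x).2) := rfl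

theorem pch_symm (w : Cn n × Cn m) :
    (pch g z0 r hr y ρ).symm w = g.symm ((aff z0 r hr).symm w.1, w.2) := rfl

theorem mem_pch_source {x : M} : x ∈ (pch g z0 r hr y ρ).source ↔
    x ∈ g.source ∧ (g x).1 ∈ ball z0 r ∧ (g x).2 ∈ ball y ρ := by
  constructor
  · intro h
    exact ⟨h.1, h.2.2⟩
  · intro h
    exact ⟨h.1, mem_univ _, h.2⟩

theorem mem_pch_target (hsub : ball z0 r ×ˢ ball y ρ ⊆ g.target) {w : Cn n × Cn m} :
    w ∈ (pch g z0 r hr y ρ).target ↔
      (aff z0 r hr).symm w.1 ∈ ball z0 r ∧ w.2 ∈ ball y ρ := by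
  constructor
  · intro h
    exact h.1.2
  · intro h
    exact ⟨⟨mem_univ _, h⟩, hsub h⟩

theorem cpt_pch {F : Fam N M} (hg : Cpt F g) (hsub : ball z0 r ×ˢ ball y ρ ⊆ g.target) :
    Cpt F (pch g z0 r hr y ρ) := by
  refine ⟨fun x hx => ?_, fun i w hw hi => ?_⟩
  · exact HFA.comp_left (f := g) (g := nrm m z0 r hr)
      (differentiable_nrm z0 r hr).differentiableAt (hg.hol x (mem_pch_source.1 hx).1)
  · have h1 := (mem_pch_target hsub).1 hw
    have h2 : DifferentiableAt ℂ (fun w => F.e i (g.symm w)) ((nrm m z0 r hr).symm w) :=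
      hg.hol' i _ (hsub h1) hi
    exact DifferentiableAt.comp w (g := fun w => F.e i (g.symm w)) h2
      (differentiable_nrm_symm z0 r hr).differentiableAt

end pch

/-- **every component of a regular fibre is a leaf with product charts** -/
theorem exists_Lf {A : Atl N M} [T2Space M] [SecondCountableTopology M] (hN : N = n + m)
    {X0 : Set M} (hX0 : IsOpen X0) {f : M → Cn m} (hf : HF (fam A) X0 f) {y : Cn m}
    (hs : ∀ x ∈ X0, f x = y → ∀ j, x ∈ (A.e j).source →
      Function.Surjective (fderiv ℂ (fun z => f ((A.e j).symm z)) (A.e j x)))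
    {p : M} (hp : p ∈ X0) (hpy : f p = y) {O : Set M} (hZO : X0 ∩ f ⁻¹' {y} ⊆ O)
    (hO : ∀ x ∈ closure (X0 ∩ f ⁻¹' {y}), x ∈ O → x ∈ X0 ∩ f ⁻¹' {y}) :
    ∃ T : Lf A n O, range T.i = connectedComponentIn (X0 ∩ f ⁻¹' {y}) p ∧
      Nonempty (PC T X0 f y) := by
  have hpZ : p ∈ X0 ∩ f ⁻¹' {y} := ⟨hp, hpy⟩
  set C := famT (F := fam A) (d := n) (p := p) hN hX0 hf hs with hC
  have hconn : ConnectedSpace (cmpt X0 f y p) :=
    isConnected_iff_connectedSpace.1 (isConnected_connectedComponentIn_iff.2 hpZ)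
  have := locallyCompact C
  obtain ⟨α, G, h1, h2, h3, h4, -⟩ := exists_lf C (fun _ : Unit => (univ : Set (cmpt X0 f y p)))
    (fun _ => isOpen_univ) (fun x => ⟨(), trivial⟩)
  obtain ⟨P, hψ, hχ⟩ := exists_part_lf (subAtl G h2) h3 h4
  have hcnt : Countable (subAtl G h2).ι := h1
  have hholC : HolC (fam (subAtl G h2)) (fam A) Subtype.val :=
    (famT_hol (F := fam A) (d := n) (p := p) hN hX0 hf hs).comp (cmp_subAtl G h2).fwd
  have hhol : HolMap (subAtl G h2) A Subtype.val := holC_iff.1 hholC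
  -- the ambient chart of the index `a`
  have hbs : ∀ a : α, ball (G a).z0 (G a).r ⊆ ball (TI.z0 (G a).c) (TI.r (G a).c) := by
    intro a z hz
    exact ((G a).sub z hz).1
  have hbp : ∀ a : α, ball (G a).z0 (G a).r ×ˢ ball y (TI.r (G a).c) ⊆
      (TI.a (G a).c).g.target := by
    intro a w hw
    exact TI.sub (G a).c ⟨hbs a hw.1, hw.2⟩
  have hsrc : ∀ (a : α) (v : cmpt X0 f y p), v ∈ (G a).e.source ↔
      v.1 ∈ (TI.a (G a).c).g.source ∧ ((TI.a (G a).c).g v.1).1 ∈ ball (G a).z0 (G a).r := by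
    intro a v
    rw [(G a).mem_source]
    constructor
    · rintro ⟨h5, h6⟩
      exact ⟨((TI.mem_ch_source (G a).c).1 h5).1, h6⟩
    · rintro ⟨h5, h6⟩
      exact ⟨(TI.mem_ch_source (G a).c).2 ⟨h5, hbs a h6⟩, h6⟩
  have hap : ∀ (a : α) (v : cmpt X0 f y p), (G a).e v =
      aff (G a).z0 (G a).r (G a).hr ((TI.a (G a).c).g v.1).1 := fun a v => rfl
  have himm : Imm (subAtl G h2) A Subtype.val := by
    intro a i v hv hi
    have hvs := (hsrc a v).1 hv
    have e1 : ((G a).e.symm ((G a).e v)) = v := (G a).e.left_inv hv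
    have hd := hhol.diffAt (mem_dm hv hi)
    have e2 : rd (subAtl G h2) A Subtype.val a i ((subAtl G h2).e a v) = A.e i v.1 := by
      show A.e i ((G a).e.symm ((G a).e v)).1 = _
      rw [e1]
    refine inj_of_left (ψ := fun w => aff (G a).z0 (G a).r (G a).hr
      ((TI.a (G a).c).g ((A.e i).symm w)).1) hd ?_ ?_
    · rw [e2]
      have h5 : DifferentiableAt ℂ (fun w => (TI.a (G a).c).g ((A.e i).symm w)) (A.e i v.1) :=
        (TI.a (G a).c).cpt.hol _ hvs.1 i hi
      exact (differentiable_aff (G a).z0 (G a).r (G a).hr).differentiableAt.comp _ h5.fst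
    · have h6 : ∀ᶠ z in 𝓝 ((G a).e v), z ∈ (G a).e.target ∧
          (((G a).e.symm z).1 ∈ (A.e i).source) := by
        refine ((G a).e.open_target.eventually_mem ((G a).e.map_source hv)).and ?_
        have h7 : ContinuousAt (fun z => ((G a).e.symm z).1) ((G a).e v) :=
          continuous_subtype_val.continuousAt.comp
            ((G a).e.continuousAt_symm ((G a).e.map_source hv))
        refine h7.preimage_mem_nhds ((A.e i).open_source.mem_nhds ?_)
        show ((G a).e.symm ((G a).e v)).1 ∈ _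
        rw [e1]
        exact hi
      filter_upwards [h6] with z hz
      show aff (G a).z0 (G a).r (G a).hr
        ((TI.a (G a).c).g ((A.e i).symm (A.e i ((G a).e.symm z).1))).1 = z
      rw [(A.e i).left_inv hz.2, ← hap, (G a).e.right_inv hz.1]
  let T : Lf A n O :=
    { V := cmpt X0 f y p
      B := subAtl G h2
      cnt := hcnt
      P := P
      i := Subtype.val
      hol := hhol
      imm := himm
      inj := Subtype.val_injective
      mem := fun v => hZO (connectedComponentIn_subset _ _ v.2)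
      cls := by
        intro K hKO hK
        rw [Topology.IsEmbedding.subtypeVal.isCompact_iff]
        have h5 : Subtype.val '' (Subtype.val ⁻¹' K : Set (cmpt X0 f y p)) =
            K ∩ closure (cmpt X0 f y p) := by
          ext x
          constructor
          · rintro ⟨v, hv, rfl⟩
            exact ⟨hv, subset_closure v.2⟩
          · rintro ⟨hxK, hx⟩
            have h6 : x ∈ X0 ∩ f ⁻¹' {y} :=
              hO x (closure_mono (connectedComponentIn_subset _ _) hx) (hKO hxK)
            exact ⟨⟨x, cmpt_closed hpZ hx h6⟩, hxK, rfl⟩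
        rw [h5]
        exact hK.inter_right isClosed_closure
      ind := Topology.IsInducing.subtypeVal
      ψ_nonneg := hψ
      χ_mem := hχ
      lf := h3
      rc := h4 }
  refine ⟨T, Subtype.range_coe, ⟨⟨fun a => pch (TI.a (G a).c).g (G a).z0 (G a).r (G a).hr y
    (TI.r (G a).c), fun a => TI.r (G a).c, fun a => TI.hr (G a).c, ?_, ?_, ?_, ?_, ?_, ?_⟩⟩⟩
  · intro a x hx
    exact (TI.a (G a).c).sub (mem_pch_source.1 hx).1
  · intro a
    exact cpt_pch (TI.a (G a).c).cpt (hbp a)
  · intro a x hx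
    exact (TI.a (G a).c).snd x (mem_pch_source.1 hx).1
  · intro a
    ext w
    rw [mem_pch_target (hbp a)]
    constructor
    · rintro ⟨h5, h6⟩
      exact ⟨(G a).mem_target.2 h5, h6⟩
    · rintro ⟨h5, h6⟩
      exact ⟨(G a).mem_target.1 h5, h6⟩
  · intro a v
    show v ∈ (G a).e.source ↔ _
    rw [hsrc a v, mem_pch_source]
    constructor
    · rintro ⟨h5, h6⟩
      refine ⟨h5, h6, ?_⟩
      rw [(TI.a (G a).c).snd _ h5, cmpt_f v.2]
      exact mem_ball_self (TI.hr (G a).c)
    · rintro ⟨h5, h6, -⟩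
      exact ⟨h5, h6⟩
  · intro a v _
    rfl

end

end Crest.Agent.R281.Lf_703
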