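import Crest.Agent.R281.Lf3_425
import Crest.Agent.R281.Fib5_425
import Crest.Agent.R281.S6V7_664

/-!
# R281 (S0424), leaf integrals, part 4 (helper425): leaf integrals of a fibration

* `prj`         : a family is a projection (`Prj`);
* `push_eq_leaf`: `push F.P f u = intD (leaf F hu).P f`;
* `leafI Φ T`   : the integral of the leaf density `Φ` over the leaf `T ⊆ M`;
* `leafI_eq`, `leafI_fam`; `leafI_sm` : smoothness of `x ↦ leafI Φ (Tf x)` in the tubes.
-/

set_option autoImplicit false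
set_option linter.unusedSectionVars false

open Set Filter Topology Complex Function MeasureTheory
open scoped ContDiff Matrix ComplexConjugate

namespace Crest.Agent.R281.Lf4_425

open Crest.Agent.R275.Geo Crest.Agent.R275.Core144 Crest.Agent.R275.EDR890
open Crest.Agent.R275.C1d194 Crest.Agent.R275.Tor812 Crest.Agent.R275.TorS666
open Crest.Agent.R275.Pai323
open Crest.Agent.R275.SerG398 (lint dens)
open Crest.Agent.R273.StokesV_332 Crest.Agent.R281.S6D_664 Crest.Agent.R281.Fub_192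
open Crest.Agent.R281.Fib1_425 Crest.Agent.R281.Fib2_425
open Crest.Agent.R281.Fib3_425 Crest.Agent.R281.Fib4_425
open Crest.Agent.R281.Lf2_425 Crest.Agent.R281.Lf3_425

noncomputable section

variable {N d m : ℕ} {M : Type} [TopologicalSpace M] {A : Atl N M} {U : Set (Cn m)}

/-- a family is a projection -/
theorem prj (F : Fam A d m U) (hU : IsOpen U) : Prj F.B F.y U := ⟨F.last, F.mem, F.proper, hU⟩

theorem jr_glue (t : RI d → ℝ) (u : Cn m) : jr t (rc u) = rc (glue u (cc t)) := by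
  funext p
  rcases exists_fi_or_bi p with ⟨q, rfl⟩ | ⟨q, rfl⟩
  · rw [jr_fi]
    show t q = rc (glue u (cc t)) (Fin.castAdd m q.1, q.2)
    have e : rc (glue u (cc t)) (Fin.castAdd m q.1, q.2) = rc (cc t) q := by simp [rc]
    rw [e, rc_cc]
  · rw [jr_bi]
    show rc u q = rc (glue u (cc t)) (Fin.natAdd d q.1, q.2)
    simp [rc]

/-- the push-forward is the leaf integral -/
theorem push_eq_leaf (F : Fam A d m U) (f : F.B.ι → F.V → ℂ) {u : Cn m} (hu : u ∈ U) :
    push F.P f u = intD (leaf F hu).P (fun k v => f k v.1) := by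
  unfold push intD
  refine finsum_congr fun k => ?_
  unfold tm par
  show _ = ∫ z : RI d → ℝ, rd (latl F hu) k
    (fun v => ((F.P.ψ k v.1 : ℝ) : ℂ) * f k v.1) z
  congr 1
  funext t
  rw [jr_glue, rd_on_leaf F (fun x => ((F.P.ψ k x : ℝ) : ℂ) * f k x) hu]

variable {Φ : LDen A d}

open Classical in
/-- **leaf integral** over the set `T ⊆ M` -/
def leafI (Φ : LDen A d) (T : Set M) : ℂ :=
  if h : ∃ F : Fam A d 0 univ, range F.i = T then intD h.choose.P (Φ.pb h.choose) else 0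

theorem leafI_eq [T2Space M] (F : Fam A d 0 univ) {O : Set M} (hΦ : Φ.SmOn O)
    (hO : ∀ v, F.i v ∈ O) : leafI Φ (range F.i) = intD F.P (Φ.pb F) := by
  have h : ∃ F' : Fam A d 0 univ, range F'.i = range F.i := ⟨F, rfl⟩
  unfold leafI
  rw [dif_pos h]
  exact (leaf_unique (Φ := Φ) F h.choose h.choose_spec.symm hΦ hO).symm

theorem range_leaf (F : Fam A d m U) {u : Cn m} (hu : u ∈ U) :
    range (leaf F hu).i = F.i '' (F.y ⁻¹' {u}) := by
  ext x
  constructor
  · rintro ⟨v, rfl⟩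
    exact ⟨v.1, v.2, rfl⟩
  · rintro ⟨v, hv, rfl⟩
    exact ⟨⟨v, hv⟩, rfl⟩

/-- leaf integrals along a family -/
theorem leafI_fam [T2Space M] (F : Fam A d m U) {O : Set M} (hΦ : Φ.SmOn O)
    (hO : ∀ v, F.i v ∈ O) {u : Cn m} (hu : u ∈ U) :
    leafI Φ (F.i '' (F.y ⁻¹' {u})) = push F.P (Φ.pb F) u := by
  rw [← range_leaf F hu, leafI_eq (leaf F hu) hΦ fun v => hO v.1, push_eq_leaf F _ hu]
  refine intD_congr _ fun k v hv => ?_
  exact LDen.pb_leaf F hu hv

open Crest.Agent.R281.S6V_664 Crest.Agent.R275.GC293 in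
/-- smoothness of leaf integrals in a tube -/
theorem leafI_sm [T2Space M] [SecondCountableTopology M] {Tf : M → Set M} (hN : N = d + m)
    (τ : Tube A m Tf) {O : Set M} (hO : τ.W ⊆ O) (hΦ : Φ.SmOn O) {x0 : M} (hx0 : x0 ∈ τ.W) :
    ∃ W : Cn m → ℂ, ∃ Q : Set M, IsOpen Q ∧ x0 ∈ Q ∧ Q ⊆ τ.W ∧
      (∀ x ∈ Q, leafI Φ (Tf x) = W (τ.f x)) ∧ ∀ x ∈ Q, ContDiffAt ℝ ∞ W (τ.f x) := by
  obtain ⟨r, hr, F, h1, h2, h3, h4, h5⟩ := exists_tubeFam (A := A) (d := d) hN τ hx0
  have hUo : IsOpen {u | (aff (τ.f x0) r hr).symm u ∈ Metric.ball (τ.f x0) r} :=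
    Metric.isOpen_ball.preimage (aff (τ.f x0) r hr).symm.continuous
  have hOF : ∀ v, F.i v ∈ O := fun v => hO (h1 v).1
  have hsm := LDen.pb_smAt F hΦ hOF
  have hp := prj F hUo
  have hpush := contDiffOn_push (P := F.P) hp hsm
  refine ⟨fun w => push F.P (Φ.pb F) (aff (τ.f x0) r hr w), range F.i,
    h2.isOpen_range, ?_, ?_, ?_, ?_⟩
  · rw [h3]
    exact ⟨hx0, Metric.mem_ball_self hr⟩
  · rw [h3]
    exact fun x hx => hx.1
  · rintro _ ⟨v, rfl⟩
    have h6 : aff (τ.f x0) r hr (τ.f (F.i v)) = F.y v := by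
      rw [(h1 v).2, Homeomorph.apply_symm_apply]
    rw [h5 v, leafI_fam F hΦ hOF (F.mem v)]
    show _ = push F.P (Φ.pb F) (aff (τ.f x0) r hr (τ.f (F.i v)))
    rw [h6]
  · rintro _ ⟨v, rfl⟩
    have h6 : aff (τ.f x0) r hr (τ.f (F.i v)) = F.y v := by
      rw [(h1 v).2, Homeomorph.apply_symm_apply]
    refine ContDiffAt.comp (τ.f (F.i v)) (g := push F.P (Φ.pb F)) ?_
      (contDiff_aff (τ.f x0) r hr).contDiffAt
    rw [h6]
    exact hpush.contDiffAt (hUo.mem_nhds (F.mem v))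

end

end Crest.Agent.R281.Lf4_425
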