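import Crest.Agent.R275.Core_144
import Crest.Agent.R272.FamP_54

/-!
# R281 (S0424), OM-LF, piece (SEC) of helper703 #7820 (helper901): sections and submersions

`s : Fin (m+1) → A.ι → M → ℂ` sections of a line bundle (`IsHS L univ (s a)`):

* `Rg s x`   : regularity at `x` for the value `[1:0:...:0]` (854 #7579)
* `Bs s`     : the base locus, `U0 s = {s 0 ≠ 0}`, `Zs s = {all s a.succ = 0}`
* `qf s`     : `x ↦ (s a.succ x / s 0 x)_a : M → Cn m`
* `hf_qf`    : holomorphic on `U0 s`; `isOpen_u0`, `isClosed_bs`, `isClosed_zs`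
* `surj_of_rg` : `Rg s x` ==> the derivative of `qf s` in every chart at `x` is surjective
* `zs_eq`    : `(Bs s)ᶜ ∩ Zs s = {x | x ∈ U0 s ∧ qf s x = 0}`; `mem_of_closure`
-/

set_option autoImplicit false
set_option linter.unusedSectionVars false

open Set Filter Topology Complex
open scoped ContDiff Matrix ComplexConjugate Manifold

namespace Crest.Agent.R281.LfS_901

open Crest.Agent.R275.Geo Crest.Agent.R275.Core144 Crest.Agent.R273.Fam_835
open Crest.Agent.R272.FamP_54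

noncomputable section

/-- linearly independent functionals on a vector space form a surjective map -/
theorem surjective_of_li {V : Type*} [AddCommGroup V] [Module ℂ V] {m : ℕ}
    (f : Fin m → (V →ₗ[ℂ] ℂ)) (h : LinearIndependent ℂ f) :
    Function.Surjective (fun v a => f a v : V → Fin m → ℂ) := by
  classical
  let F : V →ₗ[ℂ] (Fin m → ℂ) := LinearMap.pi f
  have hF : LinearMap.range F = ⊤ := by
    by_contra hne
    obtain ⟨g, hg0, hg⟩ := Submodule.exists_le_ker_of_lt_top _ (lt_top_iff_ne_top.2 hne)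
    have h1 : ∑ a, g (Pi.single a 1) • f a = 0 := by
      ext v
      have h2 : g (F v) = 0 := hg (LinearMap.mem_range_self F v)
      have h3 : F v = ∑ a, f a v • (Pi.single a (1 : ℂ) : Fin m → ℂ) := by
        ext b
        simp [F, Finset.sum_apply, Pi.single_apply]
      rw [h3, map_sum] at h2
      simp only [map_smul, smul_eq_mul] at h2
      simp only [LinearMap.sum_apply, LinearMap.smul_apply, smul_eq_mul, LinearMap.zero_apply]
      rw [← h2]
      exact Finset.sum_congr rfl fun a _ => mul_comm _ _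
    have h4 : ∀ a, g (Pi.single a 1) = 0 := fun a =>
      Fintype.linearIndependent_iff.1 h _ h1 a
    apply hg0
    apply LinearMap.pi_ext'
    intro a
    ext
    simpa using h4 a
  intro y
  obtain ⟨v, hv⟩ := LinearMap.range_eq_top.1 hF y
  exact ⟨v, hv⟩

variable {N m : ℕ} {M : Type} [TopologicalSpace M] {A : Atl N M} {L : LB A}
  {s : Fin (m + 1) → A.ι → M → ℂ} {x : M}

/-- regularity at `x` for the value `[1:0:...:0]` (854 #7579) -/
def Rg (s : Fin (m + 1) → A.ι → M → ℂ) (x : M) : Prop :=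
  ∀ j, x ∈ (A.e j).source → s 0 j x ≠ 0 ∧ (∀ a : Fin m, s a.succ j x = 0) ∧
    LinearIndependent ℂ (fun a : Fin m => fderiv ℂ (fun z => s a.succ j ((A.e j).symm z)) (A.e j x))

/-- the base locus -/
def Bs (s : Fin (m + 1) → A.ι → M → ℂ) : Set M :=
  {x | ∀ j a, x ∈ (A.e j).source → s a j x = 0}

/-- the set `{s 0 ≠ 0}` -/
def U0 (s : Fin (m + 1) → A.ι → M → ℂ) : Set M := {x | ∃ j, x ∈ (A.e j).source ∧ s 0 j x ≠ 0}

/-- the set of zeros of all `s a.succ` -/
def Zs (s : Fin (m + 1) → A.ι → M → ℂ) : Set M :=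
  {x | ∀ j, x ∈ (A.e j).source → ∀ a : Fin m, s a.succ j x = 0}

/-- a chart at a point -/
def ch (A : Atl N M) (x : M) : A.ι := (A.cover x).choose

theorem ch_mem (A : Atl N M) (x : M) : x ∈ (A.e (ch A x)).source := (A.cover x).choose_spec

/-- the quotients `s a.succ / s 0` -/
def qf (s : Fin (m + 1) → A.ι → M → ℂ) (x : M) : Cn m :=
  WithLp.toLp 2 (fun a => s a.succ (ch A x) x / s 0 (ch A x) x)

theorem mem_u0 (h : ∀ a, IsHS L univ (s a)) {j : A.ι} (hj : x ∈ (A.e j).source) :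
    x ∈ U0 s ↔ s 0 j x ≠ 0 := by
  constructor
  · rintro ⟨i, hi, h0⟩
    exact fun h1 => h0 (((h 0).zero_iff ⟨hi, hj⟩ trivial).2 h1)
  · intro h0
    exact ⟨j, hj, h0⟩

theorem mem_zs (h : ∀ a, IsHS L univ (s a)) {j : A.ι} (hj : x ∈ (A.e j).source) :
    x ∈ Zs s ↔ ∀ a : Fin m, s a.succ j x = 0 := by
  constructor
  · intro h1
    exact h1 j hj
  · intro h1 i hi a
    exact ((h a.succ).zero_iff ⟨hi, hj⟩ trivial).2 (h1 a)

theorem mem_bs (h : ∀ a, IsHS L univ (s a)) {j : A.ι} (hj : x ∈ (A.e j).source) :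
    x ∈ Bs s ↔ ∀ a, s a j x = 0 := by
  constructor
  · intro h1 a
    exact h1 j a hj
  · intro h1 i a hi
    exact ((h a).zero_iff ⟨hi, hj⟩ trivial).2 (h1 a)

theorem qf_eq (h : ∀ a, IsHS L univ (s a)) {j : A.ι} (hj : x ∈ (A.e j).source) (a : Fin m) :
    qf s x a = s a.succ j x / s 0 j x := by
  have hc := ch_mem A x
  have h1 := (h a.succ).tr (ch A x) j x ⟨hc, hj⟩ trivial
  have h2 := (h 0).tr (ch A x) j x ⟨hc, hj⟩ trivial
  have h3 := L.ne_zero (ch A x) j x
  change s a.succ (ch A x) x / s 0 (ch A x) x = _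
  rw [h1, h2, mul_div_mul_left _ _ h3]

theorem diffAt (h : ∀ a, IsHS L univ (s a)) (a : Fin (m + 1)) {j : A.ι}
    (hj : x ∈ (A.e j).source) :
    DifferentiableAt ℂ (fun z => s a j ((A.e j).symm z)) (A.e j x) :=
  ((h a).hol j).diffAt isOpen_univ hj trivial

/-- a section is continuous on the chart domain -/
theorem continuousAt_sec (h : ∀ a, IsHS L univ (s a)) (a : Fin (m + 1)) {j : A.ι}
    (hj : x ∈ (A.e j).source) : ContinuousAt (s a j) x := by
  have h1 : ContinuousAt (fun y => s a j ((A.e j).symm (A.e j y))) x :=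
    ContinuousAt.comp (g := fun z => s a j ((A.e j).symm z)) (diffAt h a hj).continuousAt
      ((A.e j).continuousAt hj)
  refine h1.congr ?_
  filter_upwards [(A.e j).open_source.mem_nhds hj] with y hy
  rw [(A.e j).left_inv hy]

theorem isOpen_u0 (h : ∀ a, IsHS L univ (s a)) : IsOpen (U0 s) := by
  rw [isOpen_iff_mem_nhds]
  rintro x ⟨j, hj, h0⟩
  filter_upwards [(A.e j).open_source.mem_nhds hj,
    (continuousAt_sec h 0 hj).eventually_ne h0] with y hy hy0
  exact ⟨j, hy, hy0⟩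

theorem isClosed_bs (h : ∀ a, IsHS L univ (s a)) : IsClosed (Bs s) := by
  rw [← isOpen_compl_iff, isOpen_iff_mem_nhds]
  intro x hx
  obtain ⟨j, hj⟩ := A.cover x
  have h1 : ∃ a, s a j x ≠ 0 := by
    by_contra hne
    push Not at hne
    exact hx ((mem_bs h hj).2 hne)
  obtain ⟨a, ha⟩ := h1
  filter_upwards [(A.e j).open_source.mem_nhds hj,
    (continuousAt_sec h a hj).eventually_ne ha] with y hy hy0
  exact fun hb => hy0 (hb j a hy)

theorem isClosed_zs (h : ∀ a, IsHS L univ (s a)) : IsClosed (Zs s) := by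
  rw [← isOpen_compl_iff, isOpen_iff_mem_nhds]
  intro x hx
  obtain ⟨j, hj⟩ := A.cover x
  have h1 : ∃ a : Fin m, s a.succ j x ≠ 0 := by
    by_contra hne
    push Not at hne
    exact hx ((mem_zs h hj).2 hne)
  obtain ⟨a, ha⟩ := h1
  filter_upwards [(A.e j).open_source.mem_nhds hj,
    (continuousAt_sec h a.succ hj).eventually_ne ha] with y hy hy0
  exact fun hb => hy0 (hb j hy a)

/-- in the chart `j` the map `qf s` is given by the quotients of the `j`-components -/
theorem qf_symm_eventuallyEq (h : ∀ a, IsHS L univ (s a)) {j : A.ι} (hj : x ∈ (A.e j).source) :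
    (fun z => qf s ((A.e j).symm z)) =ᶠ[𝓝 (A.e j x)] fun z =>
      (WithLp.toLp 2 (fun a : Fin m => s a.succ j ((A.e j).symm z) / s 0 j ((A.e j).symm z)) :
        Cn m) := by
  filter_upwards [(A.e j).open_target.mem_nhds ((A.e j).map_source hj)] with z hz
  ext a
  exact qf_eq h ((A.e j).map_target hz) a

theorem hasFDerivAt_quot (h : ∀ a, IsHS L univ (s a)) {j : A.ι} (hj : x ∈ (A.e j).source)
    (h0 : s 0 j x ≠ 0) (a : Fin m) :
    DifferentiableAt ℂ (fun z => s a.succ j ((A.e j).symm z) / s 0 j ((A.e j).symm z))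
      (A.e j x) := by
  have hb0 : s 0 j ((A.e j).symm (A.e j x)) ≠ 0 := by rw [(A.e j).left_inv hj]; exact h0
  have h1 := DifferentiableAt.fun_inv (diffAt h 0 hj) hb0
  simp only [div_eq_mul_inv]
  exact DifferentiableAt.fun_mul (diffAt h a.succ hj) h1

/-- `qf s` is holomorphic on `U0 s` -/
theorem hf_qf (h : ∀ a, IsHS L univ (s a)) : HF (fam A) (U0 s) (qf s) := by
  intro x hx j hj
  have h0 := (mem_u0 h hj).1 hx
  refine DifferentiableAt.congr_of_eventuallyEq ?_ (qf_symm_eventuallyEq h hj)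
  have h1 : DifferentiableAt ℂ (fun z => fun a : Fin m =>
      s a.succ j ((A.e j).symm z) / s 0 j ((A.e j).symm z)) (A.e j x) :=
    differentiableAt_pi.2 fun a => hasFDerivAt_quot h hj h0 a
  exact ((PiLp.continuousLinearEquiv 2 ℂ (fun _ : Fin m => ℂ)).symm.differentiableAt).comp
    (A.e j x) h1

/-- the derivative of `qf s` at a common zero of the `s a.succ` -/
theorem fderiv_qf (h : ∀ a, IsHS L univ (s a)) {j : A.ι} (hj : x ∈ (A.e j).source)
    (h0 : s 0 j x ≠ 0) (a : Fin m) (hz : s a.succ j x = 0) (v : Cn N) :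
    fderiv ℂ (fun z => qf s ((A.e j).symm z)) (A.e j x) v a =
      (s 0 j x)⁻¹ * fderiv ℂ (fun z => s a.succ j ((A.e j).symm z)) (A.e j x) v := by
  have hd : DifferentiableAt ℂ (fun z => qf s ((A.e j).symm z)) (A.e j x) :=
    hf_qf h x ((mem_u0 h hj).2 h0) j hj
  -- the coordinate
  have h1 : fderiv ℂ (fun z => qf s ((A.e j).symm z)) (A.e j x) v a =
      fderiv ℂ (fun z => qf s ((A.e j).symm z) a) (A.e j x) v := by
    have h2 := ((EuclideanSpace.proj a : Cn m →L[ℂ] ℂ).hasFDerivAt.comp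
      (A.e j x) hd.hasFDerivAt).fderiv
    have h3 : fderiv ℂ (fun z => qf s ((A.e j).symm z) a) (A.e j x) =
        (EuclideanSpace.proj a : Cn m →L[ℂ] ℂ).comp
          (fderiv ℂ (fun z => qf s ((A.e j).symm z)) (A.e j x)) := h2
    rw [h3]
    rfl
  have h2 : (fun z => qf s ((A.e j).symm z) a) =ᶠ[𝓝 (A.e j x)]
      fun z => s a.succ j ((A.e j).symm z) / s 0 j ((A.e j).symm z) := by
    filter_upwards [qf_symm_eventuallyEq h hj] with z hz
    rw [hz]
  rw [h1, h2.fderiv_eq]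
  have hn := diffAt h a.succ hj
  have hb := diffAt h 0 hj
  have hb0 : s 0 j ((A.e j).symm (A.e j x)) ≠ 0 := by rw [(A.e j).left_inv hj]; exact h0
  have hg : DifferentiableAt ℂ (fun z => (s 0 j ((A.e j).symm z))⁻¹) (A.e j x) :=
    DifferentiableAt.fun_inv hb hb0
  have h3 := fderiv_mul hn hg
  have h4 : (fun z => s a.succ j ((A.e j).symm z) / s 0 j ((A.e j).symm z)) =
      fun z => s a.succ j ((A.e j).symm z) * (s 0 j ((A.e j).symm z))⁻¹ := by
    ext z
    rw [div_eq_mul_inv]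
  rw [h4]
  have h5 : (fun z => s a.succ j ((A.e j).symm z) * (s 0 j ((A.e j).symm z))⁻¹) =
      (fun z => s a.succ j ((A.e j).symm z)) * (fun z => (s 0 j ((A.e j).symm z))⁻¹) := rfl
  rw [h5, h3]
  simp only [add_apply, smul_apply, smul_eq_mul,
    (A.e j).left_inv hj, hz, zero_mul, zero_add]

/-- **regular points: the derivative of `qf s` is surjective** -/
theorem surj_of_rg (h : ∀ a, IsHS L univ (s a)) (hr : Rg s x) (j : A.ι)
    (hj : x ∈ (A.e j).source) :
    Function.Surjective (fderiv ℂ (fun z => qf s ((A.e j).symm z)) (A.e j x)) := by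
  obtain ⟨h0, hz, hli⟩ := hr j hj
  have h1 : LinearIndependent ℂ (fun a : Fin m =>
      ((fderiv ℂ (fun z => s a.succ j ((A.e j).symm z)) (A.e j x) : Cn N →L[ℂ] ℂ) :
        Cn N →ₗ[ℂ] ℂ)) :=
    hli.map' (ContinuousLinearMap.coeLM ℂ : (Cn N →L[ℂ] ℂ) →ₗ[ℂ] (Cn N →ₗ[ℂ] ℂ))
      (LinearMap.ker_eq_bot.2 ContinuousLinearMap.coe_injective)
  have h2 := surjective_of_li _ h1
  intro y
  obtain ⟨v, hv⟩ := h2 (fun a => s 0 j x * y a)
  refine ⟨v, ?_⟩
  ext a
  rw [fderiv_qf h hj h0 a (hz a) v]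
  have h3 : fderiv ℂ (fun z => s a.succ j ((A.e j).symm z)) (A.e j x) v = s 0 j x * y a :=
    congrFun hv a
  rw [h3, ← mul_assoc, inv_mul_cancel₀ h0, one_mul]

/-- outside the base locus: zeros of all `s a.succ` = zeros of `qf s` in `U0 s` -/
theorem zs_eq (h : ∀ a, IsHS L univ (s a)) :
    (Bs s)ᶜ ∩ Zs s = {x | x ∈ U0 s ∧ qf s x = 0} := by
  ext x
  obtain ⟨j, hj⟩ := A.cover x
  constructor
  · rintro ⟨hb, hz⟩
    have h1 : s 0 j x ≠ 0 := by
      intro h0
      refine hb ((mem_bs h hj).2 fun a => ?_)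
      refine Fin.cases h0 (fun b => hz j hj b) a
    refine ⟨⟨j, hj, h1⟩, ?_⟩
    ext a
    rw [qf_eq h hj a, hz j hj a, zero_div]
    rfl
  · rintro ⟨hu, hq⟩
    have h0 := (mem_u0 h hj).1 hu
    refine ⟨fun hb => h0 (hb j 0 hj), (mem_zs h hj).2 fun a => ?_⟩
    have h1 : qf s x a = 0 := by rw [hq]; rfl
    rw [qf_eq h hj a] at h1
    exact (div_eq_zero_iff.1 h1).resolve_right h0

theorem rg_subset (h : ∀ a, IsHS L univ (s a)) (hr : Rg s x) : x ∈ (Bs s)ᶜ ∩ Zs s := by
  obtain ⟨j, hj⟩ := A.cover x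
  obtain ⟨h0, hz, -⟩ := hr j hj
  exact ⟨fun hb => h0 (hb j 0 hj), (mem_zs h hj).2 hz⟩

/-- `Z = (Bs)ᶜ ∩ Zs` is closed in `(Bs)ᶜ` -/
theorem mem_of_closure (h : ∀ a, IsHS L univ (s a)) (hx : x ∈ closure ((Bs s)ᶜ ∩ Zs s))
    (hb : x ∉ Bs s) : x ∈ (Bs s)ᶜ ∩ Zs s :=
  ⟨hb, (isClosed_zs h).closure_subset_iff.2 inter_subset_right hx⟩

/-- the intersection with a compact set outside the base locus is compact -/
theorem isCompact_inter (h : ∀ a, IsHS L univ (s a)) {K : Set M} (hK : IsCompact K)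
    (hKb : K ⊆ (Bs s)ᶜ) : IsCompact (K ∩ ((Bs s)ᶜ ∩ Zs s)) := by
  have : K ∩ ((Bs s)ᶜ ∩ Zs s) = K ∩ Zs s := by
    ext x
    exact ⟨fun hx => ⟨hx.1, hx.2.2⟩, fun hx => ⟨hx.1, hKb hx.1, hx.2⟩⟩
  rw [this]
  exact hK.inter_right (isClosed_zs h)

/-- all points of the fibre are regular ==> `qf s` is a submersion at every zero in `U0 s` -/
theorem surj_fibre (h : ∀ a, IsHS L univ (s a))
    (hreg : ∀ x, x ∉ Bs s → x ∈ Zs s → Rg s x) {x : M} (hx : x ∈ U0 s) (hq : qf s x = 0)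
    (j : A.ι) (hj : x ∈ (A.e j).source) :
    Function.Surjective (fderiv ℂ (fun z => qf s ((A.e j).symm z)) (A.e j x)) := by
  have h1 : x ∈ (Bs s)ᶜ ∩ Zs s := by
    rw [zs_eq h]
    exact ⟨hx, hq⟩
  exact surj_of_rg h (hreg x h1.1 h1.2) j hj

end

end Crest.Agent.R281.LfS_901
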