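import Crest.Agent.R281.Lf3_703
import Crest.Agent.R281.LfS_901

/-!
# R281 (S0424), OM-LF (helper703), file 4: the section version

* `exists_leaf` : `s : Fin (m+1) → ..` sections of a line bundle, every point of
  `Z = {x ∉ Bs | s_1 = .. = s_m = 0}` regular (`Rg`, 854 #7579): every component of `Z` is a leaf,
  closed in the complement of the base locus, with product charts for `(s_a/s_0)_a` along it.
-/

set_option autoImplicit false
set_option linter.unusedSectionVars false

open Set Filter Topology Metric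

namespace Crest.Agent.R281.Lf_703

open Crest.Agent.R275 Crest.Agent.R275.Geo Crest.Agent.R275.Core144
open Crest.Agent.R273.Fam_835 Crest.Agent.R273.Map_835 Crest.Agent.R281.S6D_664
open Crest.Agent.R281.LfS_901

noncomputable section

variable {N n m : ℕ} {M : Type} [TopologicalSpace M]

/-- **the component of a regular fibre of `[s_0 : .. : s_m]` through `x0`** -/
theorem exists_leaf {A : Atl N M} [T2Space M] [SecondCountableTopology M] (hN : N = n + m)
    {L : LB A} {s : Fin (m + 1) → A.ι → M → ℂ} (h : ∀ a, IsHS L univ (s a))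
    (hreg : ∀ x, x ∉ Bs s → x ∈ Zs s → Rg s x) {x0 : M} (h0 : x0 ∉ Bs s) (h1 : x0 ∈ Zs s) :
    ∃ T : Lf A n (Bs s)ᶜ, range T.i = connectedComponentIn ((Bs s)ᶜ ∩ Zs s) x0 ∧
      Nonempty (PC T (U0 s) (qf s) 0) := by
  have hZ : (Bs s)ᶜ ∩ Zs s = U0 s ∩ qf s ⁻¹' {0} := zs_eq h
  have hx : x0 ∈ U0 s ∩ qf s ⁻¹' {0} := hZ ▸ ⟨h0, h1⟩
  have key := exists_Lf (A := A) (n := n) hN (isOpen_u0 h) (hf_qf h) (y := 0)
    (fun x hx hq j hj => surj_fibre h hreg hx hq j hj) hx.1 hx.2 (O := (Bs s)ᶜ)
    (by rw [← hZ]; exact inter_subset_left)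
    (by rw [← hZ]; exact fun x hx hb => mem_of_closure h hx hb)
  rw [hZ]
  exact key

end

end Crest.Agent.R281.Lf_703
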