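import Crest.Agent.R281.Lf4_703
import Crest.Agent.R281.Rk2_599

/-!
# R281 (S0424), OM-LF (helper703), file 5: regularity in 599's form

* `rg_of_rk`      : `Rk A s i x` (599) at a common zero of the `s_a`, `a ≥ 1`, gives `Rg s x`
* `exists_leaf_rk`: `exists_leaf` with `Rk`
-/

set_option autoImplicit false
set_option linter.unusedSectionVars false

open Set Filter Topology Metric

namespace Crest.Agent.R281.Lf_703

open Crest.Agent.R275 Crest.Agent.R275.Geo Crest.Agent.R275.Core144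
open Crest.Agent.R273.Fam_835 Crest.Agent.R273.Map_835 Crest.Agent.R281.S6D_664
open Crest.Agent.R281.LfS_901

noncomputable section

variable {N n m : ℕ} {M : Type} [TopologicalSpace M] {A : Atl N M} {L : LB A}
  {s : Fin (m + 1) → A.ι → M → ℂ}

theorem rg_of_rk (h : ∀ a, IsHS L univ (s a)) {i : A.ι} {x : M} (hr : Rk_599.Rk A s i x)
    (hz : x ∈ Zs s) : Rg s x := by
  intro j hj
  obtain ⟨-, h0, hl⟩ := hr.chart h hj
  refine ⟨h0, hz j hj, ?_⟩
  -- `d s_a = s_0 d (s_a / s_0)` at a common zero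
  have key : ∀ a : Fin m, fderiv ℂ (Rk_599.rat A s j a) (A.e j x) =
      (s 0 j x)⁻¹ • fderiv ℂ (fun z => s a.succ j ((A.e j).symm z)) (A.e j x) := by
    intro a
    have e0 : Rk_599.rd A j (s 0) (A.e j x) = s 0 j x := by
      unfold Rk_599.rd; rw [(A.e j).left_inv hj]
    have e1 : Rk_599.rd A j (s a.succ) (A.e j x) = 0 := by
      unfold Rk_599.rd; rw [(A.e j).left_inv hj]; exact hz j hj a
    ext v
    rw [Rk_599.fderiv_rat h ((A.e j).map_source hj) (by rw [e0]; exact h0) a v, e0, e1]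
    show _ = (s 0 j x)⁻¹ * fderiv ℂ (Rk_599.rd A j (s a.succ)) (A.e j x) v
    field_simp
    ring
  have h5 : LinearIndependent ℂ (fun a : Fin m => (s 0 j x)⁻¹ •
      fderiv ℂ (fun z => s a.succ j ((A.e j).symm z)) (A.e j x)) := by
    have : (fun a : Fin m => (s 0 j x)⁻¹ •
      fderiv ℂ (fun z => s a.succ j ((A.e j).symm z)) (A.e j x)) =
        fun a => fderiv ℂ (Rk_599.rat A s j a) (A.e j x) := funext fun a => (key a).symm
    rw [this]
    exact hl
  have h6 := h5.units_smul (fun _ : Fin m => Units.mk0 (s 0 j x) h0)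
  have h7 : ((fun _ : Fin m => Units.mk0 (s 0 j x) h0) • fun a : Fin m => (s 0 j x)⁻¹ •
      fderiv ℂ (fun z => s a.succ j ((A.e j).symm z)) (A.e j x)) =
        fun a : Fin m => fderiv ℂ (fun z => s a.succ j ((A.e j).symm z)) (A.e j x) := by
    funext a
    show (Units.mk0 (s 0 j x) h0) • ((s 0 j x)⁻¹ •
      fderiv ℂ (fun z => s a.succ j ((A.e j).symm z)) (A.e j x)) = _
    rw [Units.smul_def, smul_smul, Units.val_mk0, mul_inv_cancel₀ h0, one_smul]
  rw [h7] at h6
  exact h6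

/-- **leaves of a regular value, regularity in 599's form** -/
theorem exists_leaf_rk [T2Space M] [SecondCountableTopology M] (hN : N = n + m)
    (h : ∀ a, IsHS L univ (s a))
    (hreg : ∀ x, x ∉ Bs s → x ∈ Zs s → ∃ i, Rk_599.Rk A s i x) {x0 : M} (h0 : x0 ∉ Bs s)
    (h1 : x0 ∈ Zs s) :
    ∃ T : Lf A n (Bs s)ᶜ, range T.i = connectedComponentIn ((Bs s)ᶜ ∩ Zs s) x0 ∧
      Nonempty (PC T (U0 s) (qf s) 0) :=
  exists_leaf hN h (fun x hx hz => by
    obtain ⟨i, hi⟩ := hreg x hx hz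
    exact rg_of_rk h hi hz) h0 h1

end

end Crest.Agent.R281.Lf_703
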