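import Crest.Agent.R281.Om2_854
import Crest.Agent.R281.S6D_664

/-!
# R281 (S0424), S6-OMEGA (helper854), part 3: (LOC), the volume of a leaf is at most the volume of
thin tubes around it
-/

set_option autoImplicit false
set_option linter.unusedSectionVars false

open Set Filter Topology Complex MeasureTheory Metric
open scoped ContDiff Matrix ComplexConjugate Manifold ComplexOrder ENNReal Pointwise

namespace Crest.Agent.R281.Om_854

open Crest.Agent.R275.Geo Crest.Agent.R275.Core144 Crest.Agent.R275.EDR890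
open Crest.Agent.R273.Defs_333 Crest.Agent.R273.Hess_333 Crest.Agent.R273.HessB_333
open Crest.Agent.R273.HM_333 Crest.Agent.R273.Kah_333 Crest.Agent.R273.Vol_333
open Crest.Agent.R273.Vm_333 Crest.Agent.R273.Map_835 Crest.Agent.R273.KahI_645
open Crest.Agent.R275.Pai323 Crest.Agent.R275.C1d194 Crest.Agent.R273
open Crest.Agent.R281.S6D_664

noncomputable section

variable {d m : ℕ}

/-! ### balls -/

theorem volume_bl {δ : ℝ} (hδ : 0 < δ) :
    volume (bl m δ) = ENNReal.ofReal (δ ^ m) * volume (bl m 1) := by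
  have hs : 0 < Real.sqrt δ := Real.sqrt_pos.2 hδ
  have h1 : bl m δ = (Real.sqrt δ) • bl m 1 := by
    ext y
    rw [mem_smul_set_iff_inv_smul_mem₀ hs.ne']
    show ‖(cc y : Cn m)‖ ^ 2 ≤ δ ↔ ‖(cc ((Real.sqrt δ)⁻¹ • y) : Cn m)‖ ^ 2 ≤ 1
    have h2 : (cc ((Real.sqrt δ)⁻¹ • y) : Cn m) = (Real.sqrt δ)⁻¹ • cc y :=
      (rcE m).symm.map_smul _ _
    rw [h2, norm_smul, mul_pow, Real.norm_eq_abs, sq_abs, inv_pow, Real.sq_sqrt hδ.le,
      inv_mul_le_iff₀ hδ, mul_one]
  rw [h1, Measure.addHaar_smul]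
  congr 2
  have h3 : Module.finrank ℝ (RI m → ℝ) = 2 * m := by
    rw [Module.finrank_fintype_fun_eq_card, Fintype.card_prod, Fintype.card_fin, Fintype.card_fin,
      mul_comm]
  rw [h3, pow_mul, Real.sq_sqrt hδ.le, abs_of_nonneg (by positivity)]

/-! ### continuity -/

variable {M : Type} [TopologicalSpace M] {A : Atl (d + m) M} {T : Type} [TopologicalSpace T]
  {B : Atl d T} {jj : T → M}
  {g : OpenPartialHomeomorph M (Cn d × Cn m)} {i : A.ι}

theorem continuousAt_JJ (hg : PCpt A g) {p : Cn d × Cn m} (hp : p ∈ g.target)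
    (hi : g.symm p ∈ (A.e i).source) (a b : Fin (d + m)) :
    ContinuousAt (fun p => JJ A g i p a b) p := by
  set O1 : Set (Cn d × Cn m) := g.target ∩ g.symm ⁻¹' (A.e i).source with hO1
  have oO : IsOpen O1 := g.symm.isOpen_inter_preimage (A.e i).open_source
  have h1 : ∀ᶠ z in 𝓝 (glu d m p), DifferentiableAt ℂ (fun z => A.e i (g.symm (spl d m z))) z := by
    have h8 : ∀ᶠ z in 𝓝 (glu d m p), spl d m z ∈ O1 := by
      have h9 : ContinuousAt (spl d m) (glu d m p) := (splE d m).continuous.continuousAt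
      refine h9.eventually (p := fun q => q ∈ O1) ?_
      rw [spl_glu]
      exact oO.mem_nhds ⟨hp, hi⟩
    filter_upwards [h8] with z hz
    have := diff_JJ hg hz.1 hz.2
    rwa [glu_spl] at this
  have h2 := (je_smooth h1 b a).continuousAt
  have h3 : ContinuousAt (glu d m) p := (splE d m).symm.continuous.continuousAt
  exact ContinuousAt.comp (g := Je (fun z => A.e i (g.symm (spl d m z))) b a) h2 h3

theorem continuousAt_g (K : Kah A) {p : Cn d × Cn m} (hp : p ∈ g.target)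
    (hi : g.symm p ∈ (A.e i).source) (a b : Fin (d + m)) :
    ContinuousAt (fun p => K.g i (g.symm p) a b) p := by
  have h1 : ContinuousAt (fun z => K.g i ((A.e i).symm z) a b) (A.e i (g.symm p)) :=
    ((K.sm i a b).continuousOn).continuousAt
      ((A.e i).open_target.mem_nhds ((A.e i).map_source hi))
  have h2 : ContinuousAt (fun p => A.e i (g.symm p)) p :=
    ContinuousAt.comp (g := A.e i) ((A.e i).continuousAt hi) (g.continuousAt_symm hp)
  have h3 : ContinuousAt (fun p => K.g i ((A.e i).symm (A.e i (g.symm p))) a b) p :=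
    ContinuousAt.comp (g := fun z => K.g i ((A.e i).symm z) a b) h1 h2
  refine h3.congr ?_
  filter_upwards [(g.symm.isOpen_inter_preimage (A.e i).open_source).mem_nhds ⟨hp, hi⟩] with q hq
  rw [(A.e i).left_inv hq.2]

/-- the density of the leaf block in the product chart -/
def qq (K : Kah A) (g : OpenPartialHomeomorph M (Cn d × Cn m)) (i : A.ι) (p : Cn d × Cn m) : ℝ :=
  (lb ((JJ A g i p)ᵀ * K.g i (g.symm p) * (JJ A g i p).map conj)).det.re

theorem continuousAt_qq (K : Kah A) (hg : PCpt A g) {p : Cn d × Cn m} (hp : p ∈ g.target)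
    (hi : g.symm p ∈ (A.e i).source) : ContinuousAt (qq K g i) p := by
  have h1 : ContinuousAt (fun p => lb ((JJ A g i p)ᵀ * K.g i (g.symm p) *
      (JJ A g i p).map conj)) p := by
    rw [ContinuousAt]
    refine tendsto_pi_nhds.2 fun a => tendsto_pi_nhds.2 fun b => ?_
    simp only [lb, Matrix.submatrix_apply, Matrix.mul_apply, Matrix.transpose_apply,
      Matrix.map_apply]
    refine tendsto_finsetSum _ fun c _ => Tendsto.mul (tendsto_finsetSum _ fun e _ =>
      Tendsto.mul (continuousAt_JJ hg hp hi _ _) (continuousAt_g K hp hi _ _)) ?_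
    exact (continuous_conj.tendsto _).comp (continuousAt_JJ hg hp hi _ _)
  have h2 : Continuous fun X : Matrix (Fin d) (Fin d) ℂ => X.det.re :=
    Complex.continuous_re.comp continuous_id.matrix_det
  exact h2.continuousAt.comp h1

/-- at the leaf the density is that of the induced metric -/
theorem qq_leaf (K : Kah A) (hg : PCpt A g) (hol : HolMap B A jj)
    (imm : Imm B A jj) {k : B.ι} {t : T} (ht : t ∈ (B.e k).source)
    (hi : jj t ∈ (A.e i).source)
    (hsy : ∀ z ∈ (B.e k).target, (z, 0) ∈ g.target ∧ g.symm (z, 0) = jj ((B.e k).symm z)) :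
    qq K g i (B.e k t, 0) = ((pullI K hol imm).g k t).det.re := by
  have hz : B.e k t ∈ (B.e k).target := (B.e k).map_source ht
  have h2 := (hsy _ hz).2
  rw [(B.e k).left_inv ht] at h2
  rw [pullI_g K hol imm ht hi, Jp_JJ hg ht hi hsy, qq, h2]
  congr 2

/-- product charts along the leaf `T` over `f = 0` -/
def PCs (A : Atl (d + m) M) (X0 : Set M) (f : M → Cn m) (B : Atl d T) (jj : T → M) : Prop :=
  ∀ k : B.ι, ∃ g : OpenPartialHomeomorph M (Cn d × Cn m), g.source ⊆ X0 ∧ PCpt A g ∧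
    (∀ i, ∀ x ∈ g.source, x ∈ (A.e i).source →
      DifferentiableAt ℂ (fun z => g ((A.e i).symm z)) (A.e i x)) ∧
    (∀ x ∈ g.source, (g x).2 = f x) ∧
    ∀ z ∈ (B.e k).target, (z, 0) ∈ g.target ∧ g.symm (z, 0) = jj ((B.e k).symm z)

variable [T2Space M] [MeasurableSpace M] [BorelSpace M] [T2Space T] [MeasurableSpace T] [BorelSpace T]
  [Countable A.ι] [Countable B.ι]

/-- **(LOC)** -/
theorem loc {X0 : Set M} {f : M → Cn m} (hpc : PCs A X0 f B jj) (cj : Continuous jj)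
    (hf : ∀ i, ∀ x ∈ X0, x ∈ (A.e i).source →
      DifferentiableAt ℂ (fun z => f ((A.e i).symm z)) (A.e i x))
    (hol : HolMap B A jj) (imm : Imm B A jj)
    (be : Kah A) (Kd : ℝ → Kah A) {c : ℝ} (hc : 0 ≤ c)
    (hlow : ∀ i, ∀ C, IsCompact C → C ⊆ (A.e i).source ∩ X0 → ∀ᶠ δ in 𝓝[>] (0 : ℝ),
      ∀ x ∈ C, ‖f x‖ ^ 2 ≤ δ → ((Kd δ).g i x - be.g i x -
        ((c / δ : ℝ) : ℂ) • ((Df A f i x)ᵀ * (Df A f i x).map conj)).PosSemidef) :
    ∀ t : T, ∃ U ∈ 𝓝 t, ∀ E ⊆ U, IsCompact E → ∀ O, IsOpen O → jj '' E ⊆ O →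
      ∀ᶠ δ in 𝓝[>] (0 : ℝ), (ENNReal.ofReal (c ^ m / 2) * volume (bl m 1)) *
        vm (volK (pullI be hol imm)) E ≤ vm (volK (Kd δ)) O := by
  intro t
  obtain ⟨k, hk⟩ := B.cover t
  obtain ⟨i, hi⟩ := A.cover (jj t)
  obtain ⟨g, hgX, hg, hg', hsnd, hsy⟩ := hpc k
  have oU : IsOpen ((B.e k).source ∩ jj ⁻¹' (A.e i).source) :=
    (B.e k).open_source.inter ((A.e i).open_source.preimage cj)
  refine ⟨_, oU.mem_nhds ⟨hk, hi⟩, fun E hE cE O oO hEO => ?_⟩
  set E' : Set (Cn d) := B.e k '' E with hE'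
  have cE' : IsCompact E' := cE.image_of_continuousOn
    ((B.e k).continuousOn.mono fun x hx => (hE hx).1)
  have hE't : ∀ z ∈ E', z ∈ (B.e k).target ∧ (B.e k).symm z ∈ E := by
    rintro _ ⟨x, hx, rfl⟩
    exact ⟨(B.e k).map_source (hE hx).1, by rw [(B.e k).left_inv (hE hx).1]; exact hx⟩
  set O1 : Set (Cn d × Cn m) := g.target ∩ g.symm ⁻¹' ((A.e i).source ∩ O) with hO1
  have oO1 : IsOpen O1 := g.symm.isOpen_inter_preimage ((A.e i).open_source.inter oO)
  have cq : ∀ p ∈ O1, ContinuousAt (qq be g i) p := fun p hp => continuousAt_qq be hg hp.1 hp.2.1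
  have ci : Continuous fun p : Cn d × Cn m => ((p.1, 0) : Cn d × Cn m) := by fun_prop
  set W : Set (Cn d × Cn m) :=
    {p | p ∈ O1 ∧ (p.1, (0 : Cn m)) ∈ O1 ∧ qq be g i (p.1, 0) < 2 * qq be g i p} with hW
  have oW : IsOpen W := by
    rw [isOpen_iff_mem_nhds]
    rintro p ⟨h1, h2, h3⟩
    have h4 : ContinuousAt (fun p : Cn d × Cn m => qq be g i (p.1, 0)) p :=
      ContinuousAt.comp (g := qq be g i) (cq _ h2) ci.continuousAt
    have h5 : ContinuousAt (fun p : Cn d × Cn m => 2 * qq be g i p) p :=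
      (cq _ h1).const_mul 2
    filter_upwards [oO1.mem_nhds h1, ci.continuousAt.preimage_mem_nhds (oO1.mem_nhds h2),
      h4.eventually_lt h5 h3] with q hq1 hq2 hq3
    exact ⟨hq1, hq2, hq3⟩
  have hz0 : ∀ z ∈ E', (z, (0 : Cn m)) ∈ O1 ∧ qq be g i (z, 0) =
      ((pullI be hol imm).g k ((B.e k).symm z)).det.re := by
    intro z hz
    obtain ⟨h1, h2⟩ := hE't z hz
    obtain ⟨h3, h4⟩ := hsy z h1
    refine ⟨⟨h3, ?_, ?_⟩, ?_⟩
    · rw [h4]; exact (hE h2).2
    · rw [h4]; exact hEO ⟨_, h2, rfl⟩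
    · have h5 := qq_leaf be hg hol imm (hE h2).1 (hE h2).2 hsy
      rwa [(B.e k).right_inv h1] at h5
  have hpos : ∀ z ∈ E', 0 < qq be g i (z, 0) := by
    intro z hz
    rw [(hz0 z hz).2]
    exact det_re_pos ((pullI be hol imm).pos k _ (hE (hE't z hz).2).1)
  have hEW : E' ×ˢ ({0} : Set (Cn m)) ⊆ W := by
    rintro ⟨z, w⟩ ⟨hz, hw⟩
    obtain rfl : w = 0 := hw
    exact ⟨(hz0 z hz).1, (hz0 z hz).1, by linarith [hpos z hz]⟩
  obtain ⟨u, v, ou, ov, hu, hv, huv⟩ := generalized_tube_lemma cE' isCompact_singleton oW hEW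
  obtain ⟨r, hr, hrv⟩ := Metric.isOpen_iff.1 ov 0 (hv rfl)
  set C : Set M := g.symm '' (E' ×ˢ closedBall (0 : Cn m) (r / 2)) with hC
  have hball : closedBall (0 : Cn m) (r / 2) ⊆ v :=
    (closedBall_subset_ball (by linarith)).trans hrv
  have hsubW : E' ×ˢ closedBall (0 : Cn m) (r / 2) ⊆ W :=
    (prod_mono hu hball).trans huv
  have cC : IsCompact C := (cE'.prod (isCompact_closedBall _ _)).image_of_continuousOn
    (g.continuousOn_symm.mono fun p hp => (hsubW hp).1.1)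
  have hCs : C ⊆ (A.e i).source ∩ X0 := by
    rintro _ ⟨p, hp, rfl⟩
    exact ⟨(hsubW hp).1.2.1, hgX (g.map_target (hsubW hp).1.1)⟩
  have hev : ∀ᶠ δ in 𝓝[>] (0 : ℝ), δ < (r / 2) ^ 2 :=
    mem_nhdsWithin_of_mem_nhds (Iio_mem_nhds (by positivity))
  filter_upwards [hlow i C cC hCs, hev, self_mem_nhdsWithin] with δ h1 h2 h3
  have hδ : 0 < δ := h3
  have hsub : E' ×ˢ {w : Cn m | ‖w‖ ^ 2 ≤ δ} ⊆ E' ×ˢ closedBall (0 : Cn m) (r / 2) := by
    refine prod_mono le_rfl fun w hw => ?_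
    rw [mem_closedBall_zero_iff]
    have h4 : ‖w‖ ^ 2 ≤ (r / 2) ^ 2 := le_trans hw h2.le
    exact (pow_le_pow_iff_left₀ (norm_nonneg _) (by positivity) two_ne_zero).1 h4
  set h' := volK (pullI be hol imm) with hh'
  have hm : AEMeasurable (fun y : RI d → ℝ => ENNReal.ofReal
      (((pullI be hol imm).g k ((B.e k).symm (cc y))).det.re))
      (volume.restrict {y : RI d → ℝ | cc y ∈ E'}) :=
    (aemeas_dn h' k).mono_measure (Measure.restrict_mono
      (show {y : RI d → ℝ | cc y ∈ E'} ⊆ Ui B k from fun y hy => (hE't _ hy).1) le_rfl)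
  have key := vm_box (volK (Kd δ)) i cE' (δ := δ) (κ := (c / δ) ^ m / 2) (by positivity)
    (Ψ := g.symm) (O := O1) oO1 (hsub.trans (hsubW.trans fun p hp => hp.1))
    (fun p hp => hp.2.1) (g.continuousOn_symm.mono fun p hp => hp.1)
    (fun p hp => (hg i p hp.1 hp.2.1).differentiableWithinAt)
    (g.symm.injOn.mono fun p hp => hp.1)
    (ρ := fun z => ((pullI be hol imm).g k ((B.e k).symm z)).det.re) hm ?_
  · have h5 : g.symm '' (E' ×ˢ {w : Cn m | ‖w‖ ^ 2 ≤ δ}) ⊆ O := by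
      rintro _ ⟨p, hp, rfl⟩
      exact (hsubW (hsub hp)).1.2.2
    refine le_trans (le_of_eq ?_) (key.trans (measure_mono h5))
    have h6 : vm h' E = ∫⁻ y in {y : RI d → ℝ | cc y ∈ E'}, ENNReal.ofReal
        (((pullI be hol imm).g k ((B.e k).symm (cc y))).det.re) := by
      rw [vm_apply_chart h' cE.isClosed.measurableSet (fun x hx => (hE hx).1),
        chm_apply h' k cE.isClosed.measurableSet]
      have h7 : {y : RI d → ℝ | y ∈ Ui B k ∧ sg B k y ∈ E} = {y : RI d → ℝ | cc y ∈ E'} := by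
        ext y
        constructor
        · rintro ⟨hy, hyE⟩
          exact ⟨_, hyE, (B.e k).right_inv hy⟩
        · intro hy
          exact hE't _ hy
      rw [h7]
      rfl
    rw [h6, volume_bl hδ]
    have h8 : ENNReal.ofReal (c ^ m / 2) = ENNReal.ofReal ((c / δ) ^ m / 2) *
        ENNReal.ofReal (δ ^ m) := by
      rw [← ENNReal.ofReal_mul (by positivity)]
      congr 1
      rw [div_pow]
      field_simp
    rw [h8]
    ring
  · intro z hz w hw
    have hp : (z, w) ∈ E' ×ˢ {w : Cn m | ‖w‖ ^ 2 ≤ δ} := ⟨hz, hw⟩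
    have hpW := hsubW (hsub hp)
    have h5 : ‖f (g.symm (z, w))‖ ^ 2 ≤ δ := by
      rw [← hsnd _ (g.map_target hpW.1.1), g.right_inv hpW.1.1]
      exact hw
    have h6 := low_pt (c := c / δ) hg hsnd hpW.1.1 hpW.1.2.1
      (hf i _ (hgX (g.map_target hpW.1.1)) hpW.1.2.1) (K := Kd δ) (be := be) (by positivity)
      (det_JJ hg hg' hpW.1.1 hpW.1.2.1) (h1 _ ⟨_, hsub hp, rfl⟩ h5)
    have h7 := hpW.2.2
    have h8 : ((pullI be hol imm).g k ((B.e k).symm z)).det.re ≤ 2 * qq be g i (z, w) := by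
      rw [← (hz0 z hz).2]; exact h7.le
    have h9 : 0 ≤ (c / δ) ^ m := by positivity
    calc (c / δ) ^ m / 2 * ((pullI be hol imm).g k ((B.e k).symm z)).det.re
        ≤ (c / δ) ^ m / 2 * (2 * qq be g i (z, w)) :=
          mul_le_mul_of_nonneg_left h8 (by positivity)
      _ = (c / δ) ^ m * qq be g i (z, w) := by ring
      _ ≤ _ := h6

end

end Crest.Agent.R281.Om_854
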