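import Crest.Agent.R281.Lf5_703
import Crest.Agent.R281.Om3_854

/-!
# R281 (S0424), OM-LF (helper703), file 6: the leaf as a subtype, with 854's `PCs`

* `exists_sub`       : the component `T = connectedComponentIn (X0 ∩ f⁻¹{y}) p` as a subtype
* `isCompact_sub`    : `K ⊆ O` compact ⟹ `Subtype.val ⁻¹' K` compact in `T`
* `connectedSpace_sub`
* `exists_pcs`       : with `PCs A X0 f B` (854 Om3), `y = 0`
-/

set_option autoImplicit false
set_option linter.unusedSectionVars false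

open Set Filter Topology Metric

namespace Crest.Agent.R281.Lf_703

open Crest.Agent.R275 Crest.Agent.R275.Geo Crest.Agent.R275.GC293 Crest.Agent.R275.Core144
open Crest.Agent.R273.Fam_835 Crest.Agent.R272.DCov_426 Crest.Agent.R272.FamP_54
open Crest.Agent.R272.Lev_54 Crest.Agent.R273.Map_835 Crest.Agent.R281.S6D_664
open Crest.Agent.R281.LfS_901

noncomputable section

variable {N n m : ℕ} {M : Type} [TopologicalSpace M]

theorem connectedSpace_sub {X0 : Set M} {f : M → Cn m} {y : Cn m} {p : M} (hp : p ∈ X0)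
    (hpy : f p = y) : ConnectedSpace (cmpt X0 f y p) :=
  isConnected_iff_connectedSpace.1 (isConnected_connectedComponentIn_iff.2 ⟨hp, hpy⟩)

theorem isCompact_sub {X0 : Set M} {f : M → Cn m} {y : Cn m} {p : M} (hp : p ∈ X0)
    (hpy : f p = y) {O : Set M}
    (hO : ∀ x ∈ closure (X0 ∩ f ⁻¹' {y}), x ∈ O → x ∈ X0 ∩ f ⁻¹' {y}) {K : Set M} (hKO : K ⊆ O)
    (hK : IsCompact K) : IsCompact (Subtype.val ⁻¹' K : Set (cmpt X0 f y p)) := by
  rw [Topology.IsEmbedding.subtypeVal.isCompact_iff]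
  have h5 : Subtype.val '' (Subtype.val ⁻¹' K : Set (cmpt X0 f y p)) =
      K ∩ closure (cmpt X0 f y p) := by
    ext x
    constructor
    · rintro ⟨v, hv, rfl⟩
      exact ⟨hv, subset_closure v.2⟩
    · rintro ⟨hxK, hx⟩
      have h6 : x ∈ X0 ∩ f ⁻¹' {y} :=
        hO x (closure_mono (connectedComponentIn_subset _ _) hx) (hKO hxK)
      exact ⟨⟨x, cmpt_closed ⟨hp, hpy⟩ hx h6⟩, hxK, rfl⟩
  rw [h5]
  exact hK.inter_right isClosed_closure

/-- **the component of a regular fibre as a subtype** -/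
theorem exists_sub {A : Atl N M} [T2Space M] [SecondCountableTopology M] (hN : N = n + m)
    {X0 : Set M} (hX0 : IsOpen X0) {f : M → Cn m} (hf : HF (fam A) X0 f) {y : Cn m}
    (hs : ∀ x ∈ X0, f x = y → ∀ j, x ∈ (A.e j).source →
      Function.Surjective (fderiv ℂ (fun z => f ((A.e j).symm z)) (A.e j x))) (p : M) :
    ∃ (B : Atl n (cmpt X0 f y p)) (P : Part B), Countable B.ι ∧ (∀ k v, 0 ≤ P.ψ k v) ∧
      (∀ k v, P.χ k v ∈ Icc (0 : ℝ) 1) ∧ HolMap B A Subtype.val ∧ Imm B A Subtype.val ∧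
      LocallyFinite (fun k => (B.e k).source) ∧ (∀ k, IsCompact (closure (B.e k).source)) ∧
      ∀ k, ∃ (G : OpenPartialHomeomorph M (Cn n × Cn m)) (r : ℝ), 0 < r ∧ G.source ⊆ X0 ∧
        Cpt (fam A) G ∧ (∀ x ∈ G.source, (G x).2 = f x) ∧
        G.target = (B.e k).target ×ˢ ball y r ∧
        (∀ v : cmpt X0 f y p, v ∈ (B.e k).source ↔ v.1 ∈ G.source) ∧
        (∀ v ∈ (B.e k).source, (G v.1).1 = B.e k v) ∧
        ∀ z ∈ (B.e k).target, (z, y) ∈ G.target ∧ G.symm (z, y) = ((B.e k).symm z).1 := by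
  set C := famT (F := fam A) (d := n) (p := p) hN hX0 hf hs with hC
  have := locallyCompact C
  obtain ⟨α, G, h1, h2, h3, h4, -⟩ := exists_lf C (fun _ : Unit => (univ : Set (cmpt X0 f y p)))
    (fun _ => isOpen_univ) (fun x => ⟨(), trivial⟩)
  obtain ⟨P, hψ, hχ⟩ := exists_part_lf (subAtl G h2) h3 h4
  have hcnt : Countable (subAtl G h2).ι := h1
  have hholC : HolC (fam (subAtl G h2)) (fam A) Subtype.val :=
    (famT_hol (F := fam A) (d := n) (p := p) hN hX0 hf hs).comp (cmp_subAtl G h2).fwd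
  have hhol : HolMap (subAtl G h2) A Subtype.val := holC_iff.1 hholC
  have hbs : ∀ a : α, ball (G a).z0 (G a).r ⊆ ball (TI.z0 (G a).c) (TI.r (G a).c) := by
    intro a z hz
    exact ((G a).sub z hz).1
  have hbp : ∀ a : α, ball (G a).z0 (G a).r ×ˢ ball y (TI.r (G a).c) ⊆
      (TI.a (G a).c).g.target := by
    intro a w hw
    exact TI.sub (G a).c ⟨hbs a hw.1, hw.2⟩
  have hsrc : ∀ (a : α) (v : cmpt X0 f y p), v ∈ (G a).e.source ↔
      v.1 ∈ (TI.a (G a).c).g.source ∧ ((TI.a (G a).c).g v.1).1 ∈ ball (G a).z0 (G a).r := by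
    intro a v
    rw [(G a).mem_source]
    constructor
    · rintro ⟨h5, h6⟩
      exact ⟨((TI.mem_ch_source (G a).c).1 h5).1, h6⟩
    · rintro ⟨h5, h6⟩
      exact ⟨(TI.mem_ch_source (G a).c).2 ⟨h5, hbs a h6⟩, h6⟩
  have hap : ∀ (a : α) (v : cmpt X0 f y p), (G a).e v =
      aff (G a).z0 (G a).r (G a).hr ((TI.a (G a).c).g v.1).1 := fun a v => rfl
  have himm : Imm (subAtl G h2) A Subtype.val := by
    intro a i v hv hi
    have hvs := (hsrc a v).1 hv
    have e1 : ((G a).e.symm ((G a).e v)) = v := (G a).e.left_inv hv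
    have hd := hhol.diffAt (mem_dm hv hi)
    have e2 : rd (subAtl G h2) A Subtype.val a i ((subAtl G h2).e a v) = A.e i v.1 := by
      show A.e i ((G a).e.symm ((G a).e v)).1 = _
      rw [e1]
    refine inj_of_left (ψ := fun w => aff (G a).z0 (G a).r (G a).hr
      ((TI.a (G a).c).g ((A.e i).symm w)).1) hd ?_ ?_
    · rw [e2]
      have h5 : DifferentiableAt ℂ (fun w => (TI.a (G a).c).g ((A.e i).symm w)) (A.e i v.1) :=
        (TI.a (G a).c).cpt.hol _ hvs.1 i hi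
      exact (differentiable_aff (G a).z0 (G a).r (G a).hr).differentiableAt.comp _ h5.fst
    · have h6 : ∀ᶠ z in 𝓝 ((G a).e v), z ∈ (G a).e.target ∧
          (((G a).e.symm z).1 ∈ (A.e i).source) := by
        refine ((G a).e.open_target.eventually_mem ((G a).e.map_source hv)).and ?_
        have h7 : ContinuousAt (fun z => ((G a).e.symm z).1) ((G a).e v) :=
          continuous_subtype_val.continuousAt.comp
            ((G a).e.continuousAt_symm ((G a).e.map_source hv))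
        refine h7.preimage_mem_nhds ((A.e i).open_source.mem_nhds ?_)
        show ((G a).e.symm ((G a).e v)).1 ∈ _
        rw [e1]
        exact hi
      filter_upwards [h6] with z hz
      show aff (G a).z0 (G a).r (G a).hr
        ((TI.a (G a).c).g ((A.e i).symm (A.e i ((G a).e.symm z).1))).1 = z
      rw [(A.e i).left_inv hz.2, ← hap, (G a).e.right_inv hz.1]
  refine ⟨subAtl G h2, P, hcnt, hψ, hχ, hhol, himm, h3, h4, fun a => ?_⟩
  have htgt : (pch (TI.a (G a).c).g (G a).z0 (G a).r (G a).hr y (TI.r (G a).c)).target =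
      (G a).e.target ×ˢ ball y (TI.r (G a).c) := by
    ext w
    rw [mem_pch_target (hbp a)]
    constructor
    · rintro ⟨h5, h6⟩
      exact ⟨(G a).mem_target.2 h5, h6⟩
    · rintro ⟨h5, h6⟩
      exact ⟨(G a).mem_target.1 h5, h6⟩
  refine ⟨pch (TI.a (G a).c).g (G a).z0 (G a).r (G a).hr y (TI.r (G a).c), TI.r (G a).c,
    TI.hr (G a).c, ?_, cpt_pch (TI.a (G a).c).cpt (hbp a), ?_, htgt, ?_, fun v _ => rfl, ?_⟩
  · intro x hx
    exact (TI.a (G a).c).sub (mem_pch_source.1 hx).1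
  · intro x hx
    exact (TI.a (G a).c).snd x (mem_pch_source.1 hx).1
  · intro v
    show v ∈ (G a).e.source ↔ _
    rw [hsrc a v, mem_pch_source]
    constructor
    · rintro ⟨h5, h6⟩
      refine ⟨h5, h6, ?_⟩
      rw [(TI.a (G a).c).snd _ h5, cmpt_f v.2]
      exact mem_ball_self (TI.hr (G a).c)
    · rintro ⟨h5, h6, -⟩
      exact ⟨h5, h6⟩
  · intro z hz
    have hz' : z ∈ (G a).e.target := hz
    refine ⟨?_, ?_⟩
    · rw [htgt]
      exact ⟨hz', mem_ball_self (TI.hr (G a).c)⟩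
    · show (TI.a (G a).c).g.symm ((aff (G a).z0 (G a).r (G a).hr).symm z, y) =
        ((TI.ch (G a).c).symm ((aff (G a).z0 (G a).r (G a).hr).symm z)).1
      rw [TI.ch_symm (G a).c (hbs a ((G a).mem_target.1 hz'))]

/-- **854's form** (`Om3_854.PCs`), `A : Atl (d + m) M`, the value is `0` -/
theorem exists_pcs {d : ℕ} {A : Atl (d + m) M} [T2Space M] [SecondCountableTopology M]
    {X0 : Set M} (hX0 : IsOpen X0) {f : M → Cn m} (hf : HF (fam A) X0 f)
    (hs : ∀ x ∈ X0, f x = 0 → ∀ j, x ∈ (A.e j).source →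
      Function.Surjective (fderiv ℂ (fun z => f ((A.e j).symm z)) (A.e j x))) (p : M) :
    ∃ (B : Atl d (cmpt X0 f 0 p)) (P : Part B), Countable B.ι ∧ (∀ k v, 0 ≤ P.ψ k v) ∧
      (∀ k v, P.χ k v ∈ Icc (0 : ℝ) 1) ∧ HolMap B A Subtype.val ∧ Imm B A Subtype.val ∧
      Om_854.PCs A X0 f B := by
  obtain ⟨B, P, h1, h2, h3, h4, h5, -, -, h6⟩ := exists_sub (A := A) rfl hX0 hf hs p
  refine ⟨B, P, h1, h2, h3, h4, h5, fun k => ?_⟩
  obtain ⟨G, r, -, h7, h8, h9, -, -, -, h10⟩ := h6 k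
  exact ⟨G, h7, fun i q hq hi => h8.hol' i q hq hi, fun i x hx hi => h8.hol x hx i hi, h9, h10⟩

/-- the section version of `exists_sub` -/
theorem exists_sub_sec {A : Atl N M} [T2Space M] [SecondCountableTopology M] (hN : N = n + m)
    {L : LB A} {s : Fin (m + 1) → A.ι → M → ℂ} (h : ∀ a, IsHS L univ (s a))
    (hreg : ∀ x, x ∉ Bs s → x ∈ Zs s → Rg s x) (x0 : M) :
    ∃ (B : Atl n (cmpt (U0 s) (qf s) 0 x0)) (P : Part B), Countable B.ι ∧ (∀ k v, 0 ≤ P.ψ k v) ∧
      (∀ k v, P.χ k v ∈ Icc (0 : ℝ) 1) ∧ HolMap B A Subtype.val ∧ Imm B A Subtype.val ∧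
      LocallyFinite (fun k => (B.e k).source) ∧ (∀ k, IsCompact (closure (B.e k).source)) ∧
      ∀ k, ∃ (G : OpenPartialHomeomorph M (Cn n × Cn m)) (r : ℝ), 0 < r ∧ G.source ⊆ U0 s ∧
        Cpt (fam A) G ∧ (∀ x ∈ G.source, (G x).2 = qf s x) ∧
        G.target = (B.e k).target ×ˢ ball 0 r ∧
        (∀ v : cmpt (U0 s) (qf s) 0 x0, v ∈ (B.e k).source ↔ v.1 ∈ G.source) ∧
        (∀ v ∈ (B.e k).source, (G v.1).1 = B.e k v) ∧
        ∀ z ∈ (B.e k).target, (z, 0) ∈ G.target ∧ G.symm (z, 0) = ((B.e k).symm z).1 :=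
  exists_sub hN (isOpen_u0 h) (hf_qf h) (fun _ hx hq j hj => surj_fibre h hreg hx hq j hj) x0

/-- the compact sets off the base locus meet the leaf in compact sets -/
theorem isCompact_sub_sec {A : Atl N M} {L : LB A} {s : Fin (m + 1) → A.ι → M → ℂ}
    (h : ∀ a, IsHS L univ (s a)) {x0 : M} (h0 : x0 ∉ Bs s) (h1 : x0 ∈ Zs s) {K : Set M}
    (hK : IsCompact K) (hKb : ∀ x ∈ K, x ∉ Bs s) :
    IsCompact (Subtype.val ⁻¹' K : Set (cmpt (U0 s) (qf s) 0 x0)) := by
  have hZ : (Bs s)ᶜ ∩ Zs s = U0 s ∩ qf s ⁻¹' {0} := zs_eq h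
  have hx : x0 ∈ U0 s ∩ qf s ⁻¹' {0} := hZ ▸ ⟨h0, h1⟩
  exact isCompact_sub hx.1 hx.2 (O := (Bs s)ᶜ)
    (by rw [← hZ]; exact fun x hx hb => mem_of_closure h hx hb) hKb hK

end

end Crest.Agent.R281.Lf_703
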