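import Crest.Agent.R272.DCov4_426

/-!
# R281 (S0424), OM-LF-PART (helper901): atlases and partitions of unity of non compact manifolds

`subAtl`        : a family of small normalised balls in the charts of `C : Fam n X` as an atlas;
`exists_li`     : countable, locally finite, relatively compact covering family of small balls;
`exists_atl_nc` : every second countable Hausdorff space with a `Fam n X` has an `Atl n X` with
                  countably many, relatively compact, locally finite charts, subordinate to a given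
                  open cover, with a partition of unity, compatible with the family.
-/

set_option autoImplicit false
set_option linter.unusedSectionVars false

open Set Filter Topology Metric
open scoped ContDiff Manifold

namespace Crest.Agent.R281.LfP_901

open Crest.Agent.R275 Crest.Agent.R275.Geo Crest.Agent.R275.Core144 Crest.Agent.R275.GC293
open Crest.Agent.R273.Map_835 Crest.Agent.R273.Fam_835 Crest.Agent.R272.DCov_426

noncomputable section

variable {n : ℕ} {X : Type} [TopologicalSpace X] {C : Fam n X} {κ : Type} {O : κ → Set X}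

/-- the space of a family is locally compact -/
theorem locallyCompact_of_fam (C : Fam n X) : LocallyCompactSpace X := by
  let _ := C.cs
  exact ChartedSpace.locallyCompactSpace (Cn n) X

/-- a covering family of small balls as an atlas -/
def subAtl (hO : ∀ k, IsOpen (O k)) (hOc : ∀ x, ∃ k, x ∈ O k) {α : Type} (l : α → LI C O)
    (hc : ∀ x, ∃ a, x ∈ (l a).e.source) : Atl n X where
  ι := α
  e a := (l a).e
  cover := hc
  cube a := (locAtl C O hO hOc).cube (l a)
  holo a b := (locAtl C O hO hOc).holo (l a) (l b)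

section

variable (hO : ∀ k, IsOpen (O k)) (hOc : ∀ x, ∃ k, x ∈ O k) {α : Type} (l : α → LI C O)
  (hc : ∀ x, ∃ a, x ∈ (l a).e.source)

theorem subAtl_fwd : HolC (fam (subAtl hO hOc l hc)) C id :=
  ⟨continuous_id, fun a c => (cmp_locAtl C O hO hOc).fwd.hol (l a) c⟩

theorem subAtl_bwd : HolC C (fam (subAtl hO hOc l hc)) id :=
  ⟨continuous_id, fun c a => (cmp_locAtl C O hO hOc).bwd.hol c (l a)⟩

/-- smooth functions of the real manifold are smooth in the charts of `subAtl` -/
theorem sm_subAtl {W : Type*} [NormedAddCommGroup W] [NormedSpace ℝ W] {f : X → W}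
    (hf : letI := C.cs; ContMDiff 𝓘(ℝ, Cn n) 𝓘(ℝ, W) ∞ f) : (subAtl hO hOc l hc).Sm f := by
  let _ := C.cs
  have _ := C.isManifold
  have _ : IsManifold 𝓘(ℝ, Cn n) ∞ X := ZC352.isManifold_real
  intro a
  have hmem : C.e (l a).c ∈ atlas (Cn n) X := mem_range_self _
  have h1 : ContMDiffOn 𝓘(ℝ, Cn n) 𝓘(ℝ, Cn n) ∞ (C.e (l a).c).symm (C.e (l a).c).target :=
    contMDiffOn_symm_of_mem_maximalAtlas (StructureGroupoid.subset_maximalAtlas _ hmem)
  have h2 : ContMDiffOn 𝓘(ℝ, Cn n) 𝓘(ℝ, W) ∞ (f ∘ (C.e (l a).c).symm) (C.e (l a).c).target :=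
    ContMDiff.comp_contMDiffOn hf h1
  have h3 : ContDiffOn ℝ ∞ (f ∘ (C.e (l a).c).symm) (C.e (l a).c).target :=
    contMDiffOn_iff_contDiffOn.1 h2
  have h4 : ContDiffOn ℝ ∞ ((f ∘ (C.e (l a).c).symm) ∘ (aff (l a).z0 (l a).r (l a).hr).symm)
      (l a).e.target := by
    refine h3.comp (contDiff_aff_symm _ _ _).contDiffOn ?_
    intro z hz
    exact ((l a).sub _ ((l a).mem_target.1 hz)).1
  exact h4

/-- partition of unity of a locally finite, relatively compact `subAtl` -/
theorem part_subAtl [T2Space X] [SigmaCompactSpace X]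
    (hlf : LocallyFinite fun a => (l a).e.source)
    (hrc : ∀ a, ∃ K : Set X, IsCompact K ∧ (l a).e.source ⊆ K) :
    Nonempty (Part (subAtl hO hOc l hc)) := by
  let _ := C.cs
  have _ := C.isManifold
  have _ : IsManifold 𝓘(ℝ, Cn n) ∞ X := ZC352.isManifold_real
  have _ : LocallyCompactSpace X := locallyCompact_of_fam C
  obtain ⟨f, hf⟩ := SmoothPartitionOfUnity.exists_isSubordinate 𝓘(ℝ, Cn n) (s := (univ : Set X))
    isClosed_univ (fun a => (l a).e.source) (fun a => (l a).e.open_source)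
    (fun x _ => mem_iUnion.2 (hc x))
  have h1 : ∀ a : α, ∃ χ : C^∞⟮𝓘(ℝ, Cn n), X; 𝓘(ℝ), ℝ⟯,
      (∀ᶠ x in 𝓝ˢ ((l a).e.source)ᶜ, χ x = 0) ∧
      (∀ᶠ x in 𝓝ˢ (tsupport (f a)), χ x = 1) ∧ ∀ x, χ x ∈ Icc (0 : ℝ) 1 := by
    intro a
    apply exists_contMDiffMap_zero_one_nhds_of_isClosed
    · exact (l a).e.open_source.isClosed_compl
    · exact isClosed_tsupport _
    · rw [disjoint_compl_left_iff_subset]
      exact hf a
  choose χ hχ0 hχ1 hχ using h1
  have hsub : ∀ a, tsupport (χ a) ⊆ (l a).e.source := by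
    intro a x hx
    by_contra hxs
    have h2 : ∀ᶠ y in 𝓝 x, χ a y = 0 :=
      (hχ0 a).filter_mono (nhds_le_nhdsSet (mem_compl hxs))
    exact (notMem_tsupport_iff_eventuallyEq.2 h2) hx
  refine ⟨⟨fun a x => f a x, fun a x => χ a x, fun a => ?_, fun a => ?_, fun a => ?_, hsub,
    fun a x hx => ?_, fun K hK => ?_, fun x => f.sum_eq_one (mem_univ x)⟩⟩
  · exact sm_subAtl hO hOc l hc (f a).contMDiff
  · exact sm_subAtl hO hOc l hc (χ a).contMDiff
  · obtain ⟨K, hK, hK'⟩ := hrc a
    exact hK.of_isClosed_subset (isClosed_tsupport _) ((hsub a).trans hK')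
  · exact (hχ1 a).filter_mono (nhds_le_nhdsSet hx)
  · exact (hlf.finite_nonempty_inter_compact hK).subset fun a ha =>
      ha.mono (inter_subset_inter_left _ (hsub a))

end

/-- **good charts of a non compact manifold**, precise form: a countable, locally finite covering
family of small balls, relatively compact in the charts of `C` and in the sets `O k`. -/
theorem exists_li [T2Space X] [SecondCountableTopology X] (C : Fam n X) (O : κ → Set X)
    (hO : ∀ k, IsOpen (O k)) (hOc : ∀ x, ∃ k, x ∈ O k) :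
    ∃ (α : Type) (l : α → LI C O), Countable α ∧ (∀ x, ∃ a, x ∈ (l a).e.source) ∧
      (LocallyFinite fun a => (l a).e.source) ∧
      (∀ a, closedBall (l a).z0 (l a).r ⊆ (C.e (l a).c).target) ∧
      (∀ a, ∀ z ∈ closedBall (l a).z0 (l a).r, (C.e (l a).c).symm z ∈ O (l a).k) ∧
      (∀ a, ∃ K : Set X, IsCompact K ∧ (l a).e.source ⊆ K ∧ K ⊆ (C.e (l a).c).source ∧
        K ⊆ O (l a).k) ∧
      ∀ a, ((l a).e.source).Nonempty := by
  have _ : LocallyCompactSpace X := locallyCompact_of_fam C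
  have _ : SigmaCompactSpace X := inferInstance
  -- charts and radii
  have h0 : ∀ x : X, ∃ (c : C.ι) (k : κ) (R : ℝ), 0 < R ∧ x ∈ (C.e c).source ∧
      ∀ z ∈ ball (C.e c x) R, z ∈ (C.e c).target ∧ (C.e c).symm z ∈ O k := by
    intro x
    obtain ⟨c, hc⟩ := C.cover x
    obtain ⟨k, hk⟩ := hOc x
    have h1 : (C.e c).target ∩ (C.e c).symm ⁻¹' (O k) ∈ 𝓝 (C.e c x) :=
      ((C.e c).isOpen_inter_preimage_symm (hO k)).mem_nhds
        ⟨(C.e c).map_source hc, by rw [mem_preimage, (C.e c).left_inv hc]; exact hk⟩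
    obtain ⟨r, hr, h2⟩ := Metric.mem_nhds_iff.1 h1
    exact ⟨c, k, r, hr, hc, fun z hz => h2 hz⟩
  choose c k R hR hcx hsub using h0
  have hB : ∀ x : X, (𝓝 x).HasBasis (fun r : ℝ => 0 < r ∧ r < R x)
      (fun r => (C.e (c x)).source ∩ (C.e (c x)) ⁻¹' ball (C.e (c x) x) r) := by
    intro x
    refine ⟨fun t => ⟨fun ht => ?_, ?_⟩⟩
    · have h1 : (C.e (c x)).target ∩ (C.e (c x)).symm ⁻¹' (interior t) ∈ 𝓝 (C.e (c x) x) :=
        ((C.e (c x)).isOpen_inter_preimage_symm isOpen_interior).mem_nhds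
          ⟨(C.e (c x)).map_source (hcx x), by
            rw [mem_preimage, (C.e (c x)).left_inv (hcx x)]; exact mem_interior_iff_mem_nhds.2 ht⟩
      obtain ⟨r, hr, h2⟩ := Metric.mem_nhds_iff.1 h1
      refine ⟨min r (R x / 2), ⟨lt_min hr (half_pos (hR x)),
        (min_le_right _ _).trans_lt (half_lt_self (hR x))⟩, ?_⟩
      rintro y ⟨hy, hy'⟩
      have h3 := h2 (ball_subset_ball (min_le_left _ _) hy')
      have h4 : (C.e (c x)).symm (C.e (c x) y) ∈ interior t := h3.2
      rw [(C.e (c x)).left_inv hy] at h4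
      exact interior_subset h4
    · rintro ⟨r, ⟨hr, -⟩, h2⟩
      exact mem_of_superset (((C.e (c x)).isOpen_inter_preimage isOpen_ball).mem_nhds
        ⟨hcx x, mem_ball_self hr⟩) h2
  obtain ⟨α, q, r, hp, hcov, hlf⟩ := refinement_of_locallyCompact_sigmaCompact_of_nhds_basis hB
  set l : α → LI C O := fun a => ⟨c (q a), C.e (c (q a)) (q a), r a, k (q a), (hp a).1,
    fun z hz => hsub (q a) z (ball_subset_ball (hp a).2.le hz)⟩ with hl
  have hsrc : ∀ a, (l a).e.source =
      (C.e (c (q a))).source ∩ (C.e (c (q a))) ⁻¹' ball (C.e (c (q a)) (q a)) (r a) := by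
    intro a
    ext x
    exact (l a).mem_source
  have hc' : ∀ x, ∃ a, x ∈ (l a).e.source := by
    intro x
    have : x ∈ ⋃ a, (C.e (c (q a))).source ∩
        (C.e (c (q a))) ⁻¹' ball (C.e (c (q a)) (q a)) (r a) := by
      rw [hcov]; exact mem_univ x
    obtain ⟨a, ha⟩ := mem_iUnion.1 this
    exact ⟨a, by rw [hsrc]; exact ha⟩
  have hlf' : LocallyFinite fun a => (l a).e.source := by
    have : (fun a => (l a).e.source) = fun a => (C.e (c (q a))).source ∩
        (C.e (c (q a))) ⁻¹' ball (C.e (c (q a)) (q a)) (r a) := funext hsrc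
    rw [this]
    exact hlf
  have hne : ∀ a, ((l a).e.source).Nonempty := fun a =>
    ⟨q a, by rw [hsrc]; exact ⟨hcx (q a), mem_ball_self (hp a).1⟩⟩
  have hcb : ∀ a, closedBall (C.e (c (q a)) (q a)) (r a) ⊆ (C.e (c (q a))).target := fun a z hz =>
    (hsub (q a) z (closedBall_subset_ball (hp a).2 hz)).1
  have hcO : ∀ a, ∀ z ∈ closedBall (C.e (c (q a)) (q a)) (r a),
      (C.e (c (q a))).symm z ∈ O (k (q a)) := fun a z hz =>
    (hsub (q a) z (closedBall_subset_ball (hp a).2 hz)).2
  have hrc : ∀ a, ∃ K : Set X, IsCompact K ∧ (l a).e.source ⊆ K ∧ K ⊆ (C.e (l a).c).source ∧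
      K ⊆ O (l a).k := by
    intro a
    refine ⟨(C.e (c (q a))).symm '' closedBall (C.e (c (q a)) (q a)) (r a),
      (isCompact_closedBall _ _).image_of_continuousOn
        ((C.e (c (q a))).continuousOn_symm.mono (hcb a)), ?_, ?_, ?_⟩
    · intro x hx
      rw [hsrc] at hx
      exact ⟨_, ball_subset_closedBall hx.2, (C.e (c (q a))).left_inv hx.1⟩
    · rintro _ ⟨z, hz, rfl⟩
      exact (C.e (c (q a))).map_target (hcb a hz)
    · rintro _ ⟨z, hz, rfl⟩
      exact hcO a z hz
  have hcount : Countable α := by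
    rw [← countable_univ_iff]
    exact hlf'.countable_univ hne
  exact ⟨α, l, hcount, hc', hlf', hcb, hcO, hrc, hne⟩

/-- **good charts of a non compact manifold** -/
theorem exists_atl_nc [T2Space X] [SecondCountableTopology X] (C : Fam n X) (O : κ → Set X)
    (hO : ∀ k, IsOpen (O k)) (hOc : ∀ x, ∃ k, x ∈ O k) :
    ∃ B : Atl n X, Countable B.ι ∧ Nonempty (Part B) ∧ (∀ i, ∃ k, (B.e i).source ⊆ O k) ∧
      (LocallyFinite fun i => (B.e i).source) ∧
      (∀ i, ∃ K : Set X, IsCompact K ∧ (B.e i).source ⊆ K) ∧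
      (∀ i, ((B.e i).source).Nonempty) ∧
      (∀ i, ∃ c, (B.e i).source ⊆ (C.e c).source) ∧
      HolC (fam B) C id ∧ HolC C (fam B) id := by
  have _ : LocallyCompactSpace X := locallyCompact_of_fam C
  have _ : SigmaCompactSpace X := inferInstance
  obtain ⟨α, l, hcount, hc', hlf', -, -, hrc, hne⟩ := exists_li C O hO hOc
  have hrc' : ∀ a, ∃ K : Set X, IsCompact K ∧ (l a).e.source ⊆ K := fun a => by
    obtain ⟨K, h1, h2, -⟩ := hrc a
    exact ⟨K, h1, h2⟩
  exact ⟨subAtl hO hOc l hc', hcount, part_subAtl hO hOc l hc' hlf' hrc', fun a =>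
    ⟨(l a).k, (l a).source_sub⟩, hlf', hrc', hne, fun a => ⟨(l a).c, fun x hx =>
      ((l a).mem_source.1 hx).1⟩, subAtl_fwd hO hOc l hc', subAtl_bwd hO hOc l hc'⟩

end

end Crest.Agent.R281.LfP_901
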