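import Crest.Agent.R281.Mc14_673

/-!
# R281 / LAGT adapter (helper40), part 1

`LagtS1`: the torus theorem for nearly constant forms on `tube N 1`, a compactness lemma for
`C ^ 2 = -1`, mean value and period estimates.
-/

set_option autoImplicit false
set_option maxSynthPendingDepth 3

open MeasureTheory Set Metric Filter
open scoped ContDiff Topology

namespace Crest.Agent.R281.Lg_40

open Crest.Agent.R281.Mc673
open Crest.Agent.R238.Sch (ee norm_ee)

noncomputable section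

variable {N : ℕ}

/-- the almost complex relation between `x` and `y` at `p` -/
def Rel (x y : Fo N) (p : W N) : Prop :=
  ∃ I : W N → W N, (∀ u, I (I u) = -u) ∧ ∀ u w, x p (I u) w = - y p u w

/-- the torus theorem for nearly constant forms, centres in the whole ball of radius `1 / 2` -/
def LagtS1 : Prop := ∀ (N : ℕ) (Lam eps : ℝ), 0 < Lam → 0 < eps →
  ∃ del > 0, ∀ x y : Fo N, ClF 1 x → ClF 1 y →
    (∀ p ∈ tube N 1, ‖x p‖ ≤ Lam ∧ ‖y p‖ ≤ Lam) →
    (∀ p ∈ tube N 1, ∀ u, ‖u‖ ≤ Lam * ‖x p u‖) →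
    (∀ p ∈ tube N 1, ‖fderiv ℝ x p‖ ≤ del ∧ ‖fderiv ℝ (fderiv ℝ x) p‖ ≤ del ∧
      ‖fderiv ℝ y p‖ ≤ del ∧ ‖fderiv ℝ (fderiv ℝ y) p‖ ≤ del) →
    (∀ p ∈ tube N 1, ∃ I : W N → W N, (∀ u, I (I u) = -u) ∧ ∀ u w, x p (I u) w = - y p u w) →
    (∀ j k, mn (fun θ => x (θ, 0) (ee j, 0) (ee k, 0)) = 0 ∧
      mn (fun θ => y (θ, 0) (ee j, 0) (ee k, 0)) = 0) →
    ∃ a : V N → V N → V N, Tori N 1 (1 / 2) eps x y a

/-! ### compactness -/

theorem exists_exact (N : ℕ) (Lam eta : ℝ) (heta : 0 < eta) :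
    ∃ e0 > 0, ∀ C0 : Matrix (Fin N) (Fin N) ℝ, (∀ j k, |C0 j k| ≤ Lam) →
      (∀ j k, |(C0 * C0 + 1) j k| ≤ e0) →
      ∃ C : Matrix (Fin N) (Fin N) ℝ, C * C = -1 ∧ ∀ j k, |C j k - C0 j k| ≤ eta := by
  classical
  let K : Set (Matrix (Fin N) (Fin N) ℝ) := {C0 | ∀ j k, C0 j k ∈ Icc (-Lam) Lam}
  have hK : IsCompact K := by
    have : K = Set.pi univ fun _ => Set.pi univ fun _ => Icc (-Lam) Lam := by
      ext C0
      exact ⟨fun h j _ k _ => h j k, fun h j k => h j (mem_univ _) k (mem_univ _)⟩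
    rw [this]
    exact isCompact_univ_pi fun _ => isCompact_univ_pi fun _ => isCompact_Icc
  let f : Matrix (Fin N) (Fin N) ℝ → ℝ := fun C0 => ∑ j, ∑ k, |(C0 * C0 + 1) j k|
  have hf : Continuous f := by
    refine continuous_finsetSum _ fun j _ => continuous_finsetSum _ fun k _ => ?_
    have h1 : Continuous fun C0 : Matrix (Fin N) (Fin N) ℝ => C0 * C0 + 1 := by fun_prop
    exact (h1.matrix_elem j k).abs
  let S : Set (Matrix (Fin N) (Fin N) ℝ) :=
    {C0 | ∀ C : Matrix (Fin N) (Fin N) ℝ, C * C = -1 → eta ≤ ∑ j, ∑ k, |C j k - C0 j k|}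
  have hS : IsClosed S := by
    have : S = ⋂ C : {C : Matrix (Fin N) (Fin N) ℝ // C * C = -1},
        {C0 | eta ≤ ∑ j, ∑ k, |C.1 j k - C0 j k|} := by
      ext C0; simp [S]
    rw [this]
    refine isClosed_iInter fun C => isClosed_le continuous_const ?_
    refine continuous_finsetSum _ fun j _ => continuous_finsetSum _ fun k _ => ?_
    exact (continuous_const.sub (continuous_id.matrix_elem j k)).abs
  have hc : IsCompact (K ∩ S) := hK.inter_right hS
  have hpos : ∀ C0 ∈ K ∩ S, 0 < f C0 := by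
    intro C0 h
    have h0 : 0 ≤ f C0 := Finset.sum_nonneg fun j _ => Finset.sum_nonneg fun k _ => abs_nonneg _
    rcases h0.lt_or_eq with h1 | h1
    · exact h1
    · exfalso
      have h2 : ∀ j k, (C0 * C0 + 1) j k = 0 := by
        intro j k
        have h3 := (Finset.sum_eq_zero_iff_of_nonneg
          (fun j _ => Finset.sum_nonneg fun k _ => abs_nonneg ((C0 * C0 + 1) j k))).1 h1.symm j
          (Finset.mem_univ j)
        have h4 := (Finset.sum_eq_zero_iff_of_nonneg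
          (fun k _ => abs_nonneg ((C0 * C0 + 1) j k))).1 h3 k (Finset.mem_univ k)
        exact abs_eq_zero.1 h4
      have h5 : C0 * C0 = -1 := by
        rw [eq_neg_iff_add_eq_zero]
        ext j k
        exact h2 j k
      have h6 := h.2 C0 h5
      simp at h6
      linarith
  have key : ∃ m > 0, ∀ C0 ∈ K ∩ S, m ≤ f C0 := by
    rcases (K ∩ S).eq_empty_or_nonempty with he | hne
    · exact ⟨1, one_pos, fun C0 h => by rw [he] at h; exact absurd h (by simp)⟩
    · obtain ⟨C1, hC1, hmin⟩ := hc.exists_isMinOn hne hf.continuousOn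
      exact ⟨f C1, hpos C1 hC1, fun C0 h => isMinOn_iff.1 hmin C0 h⟩
  obtain ⟨m, hm, hmf⟩ := key
  refine ⟨m / (2 * ((N : ℝ) ^ 2 + 1)), by positivity, fun C0 h1 h2 => ?_⟩
  by_contra hcon
  push Not at hcon
  have hmem : C0 ∈ K ∩ S := by
    refine ⟨fun j k => abs_le.1 (h1 j k), fun C hC => ?_⟩
    obtain ⟨j, k, hjk⟩ := hcon C hC
    have h3 : |C j k - C0 j k| ≤ ∑ j, ∑ k, |C j k - C0 j k| :=
      (Finset.single_le_sum (f := fun k => |C j k - C0 j k|) (fun k _ => abs_nonneg _)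
        (Finset.mem_univ k)).trans
        (Finset.single_le_sum (f := fun j => ∑ k, |C j k - C0 j k|)
          (fun j _ => Finset.sum_nonneg fun k _ => abs_nonneg _) (Finset.mem_univ j))
    linarith
  have h4 := hmf C0 hmem
  have h5 : f C0 ≤ ∑ _j : Fin N, ∑ _k : Fin N, m / (2 * ((N : ℝ) ^ 2 + 1)) :=
    Finset.sum_le_sum fun j _ => Finset.sum_le_sum fun k _ => h2 j k
  simp only [Finset.sum_const, Finset.card_univ, Fintype.card_fin, nsmul_eq_mul] at h5
  have h6 : (N : ℝ) * ((N : ℝ) * (m / (2 * ((N : ℝ) ^ 2 + 1)))) < m := by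
    rw [← mul_assoc, mul_div_assoc', div_lt_iff₀ (by positivity)]
    nlinarith [sq_nonneg (N : ℝ)]
  linarith

/-! ### mean value -/

theorem norm_cube_le {y : V N} (hy : y ∈ cube N) : ‖y‖ ≤ N := by
  refine (norm_le_sum y).trans ?_
  have : ∑ k, |y k| ≤ ∑ _k : Fin N, (1 : ℝ) :=
    Finset.sum_le_sum fun k _ => abs_le.2 ⟨by linarith [(hy k).1], (hy k).2⟩
  simpa using this

theorem dist_zero_le {w : Fo N} {del : ℝ} (hw : ClF 1 w)
    (hd : ∀ p ∈ tube N 1, ‖fderiv ℝ w p‖ ≤ del) (θ : V N) :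
    ‖w (θ, 0) - w (0, 0)‖ ≤ del * N := by
  obtain ⟨k, y, hy, rfl⟩ := exists_cube θ
  have h0 : ∀ θ : V N, ((θ, 0) : W N) ∈ tube N 1 := fun θ => by simp [tube]
  have h1 : w (y + kv k, 0) = w (y, 0) := hw.per k (y, 0) (h0 y)
  rw [h1]
  have hconv : Convex ℝ (tube N 1) := by
    intro p hp q hq a b ha hb hab
    show ‖a • p.2 + b • q.2‖ < 1
    calc ‖a • p.2 + b • q.2‖ ≤ ‖a • p.2‖ + ‖b • q.2‖ := norm_add_le _ _
      _ = a * ‖p.2‖ + b * ‖q.2‖ := by
        rw [norm_smul, norm_smul, Real.norm_of_nonneg ha, Real.norm_of_nonneg hb]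
      _ < 1 := by
        have hp' : ‖p.2‖ < 1 := hp
        have hq' : ‖q.2‖ < 1 := hq
        rcases ha.lt_or_eq with ha | ha
        · nlinarith
        · subst ha
          have : b = 1 := by linarith
          subst this; linarith
  have h2 := hconv.norm_image_sub_le_of_norm_fderiv_le (f := w) (C := del)
    (fun p hp => hw.da hp) hd (h0 0) (h0 y)
  have h3 : ‖((y, 0) : W N) - (0, 0)‖ = ‖y‖ := by
    simp [Prod.norm_def]
  have hdel : 0 ≤ del := (norm_nonneg _).trans (hd _ (h0 0))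
  rw [h3] at h2
  exact h2.trans (mul_le_mul_of_nonneg_left (norm_cube_le hy) hdel)

theorem norm_eh_le (j : Fin N) : ‖eh j‖ ≤ 1 := by
  simp [eh, Prod.norm_def, norm_ee]

theorem norm_ev_le (j : Fin N) : ‖ev' j‖ ≤ 1 := by
  simp [ev', Prod.norm_def, norm_ee]

theorem abs_app_le (φ : W N →L[ℝ] W N →L[ℝ] ℝ) {u v : W N} (hu : ‖u‖ ≤ 1) (hv : ‖v‖ ≤ 1) :
    |φ u v| ≤ ‖φ‖ := by
  have h := φ.le_opNorm₂ u v
  rw [Real.norm_eq_abs] at h
  have h1 : ‖φ‖ * ‖u‖ * ‖v‖ ≤ ‖φ‖ * 1 * 1 := by gcongr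
  linarith

theorem period_le {w : Fo N} {del : ℝ} (hw : ClF 1 w)
    (hd : ∀ p ∈ tube N 1, ‖fderiv ℝ w p‖ ≤ del) {j k : Fin N}
    (hm : mn (fun θ => w (θ, 0) (eh j) (eh k)) = 0) :
    |w (0, 0) (eh j) (eh k)| ≤ del * N := by
  set c := w (0, 0) (eh j) (eh k) with hc
  have hdel : 0 ≤ del := (norm_nonneg _).trans (hd _ (mem_tube_zero one_pos 0))
  have hvol : volume (Crest.Agent.R275.Tor812.box (0 : Fin N → ℝ)) = 1 :=
    Crest.Agent.R275.Tor812.volume_box _
  have hcont : Continuous (fun θ : V N => w (θ, 0) (eh j) (eh k)) := by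
    have h1 : Continuous (fun θ : V N => w (θ, 0)) := by
      refine continuous_iff_continuousAt.2 fun θ => ?_
      exact (hw.cda (mem_tube_zero one_pos θ)).continuousAt.comp
        (f := fun θ : V N => ((θ, 0) : W N)) (by fun_prop)
    exact (h1.clm_apply continuous_const).clm_apply continuous_const
  have hb : ∀ θ, |w (θ, 0) (eh j) (eh k) - c| ≤ del * N := by
    intro θ
    have h1 := abs_app_le (w (θ, 0) - w (0, 0)) (norm_eh_le j) (norm_eh_le k)
    simp only [_root_.sub_apply] at h1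
    exact h1.trans (dist_zero_le hw hd θ)
  have hfin : volume (Crest.Agent.R275.Tor812.box (0 : Fin N → ℝ)) < ⊤ := by rw [hvol]; simp
  have hi : IntegrableOn (fun x : Fin N → ℝ => w (WithLp.toLp 2 x, 0) (eh j) (eh k) - c)
      (Crest.Agent.R275.Tor812.box (0 : Fin N → ℝ)) := by
    refine Measure.integrableOn_of_bounded (M := del * N) hfin.ne ?_ ?_
    · exact ((hcont.comp (PiLp.continuous_toLp 2 _)).sub continuous_const).aestronglyMeasurable
    · exact Filter.Eventually.of_forall fun x => by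
        rw [Real.norm_eq_abs]; exact hb _
  have hi2 : IntegrableOn (fun _ : Fin N → ℝ => c)
      (Crest.Agent.R275.Tor812.box (0 : Fin N → ℝ)) := by
    refine integrableOn_const ?_
    rw [hvol]; simp
  have h1 : ∫ x in Crest.Agent.R275.Tor812.box (0 : Fin N → ℝ),
      (w (WithLp.toLp 2 x, 0) (eh j) (eh k) - c) = - c := by
    have h2 : mn (fun θ => w (θ, 0) (eh j) (eh k)) =
        ∫ x in Crest.Agent.R275.Tor812.box (0 : Fin N → ℝ),
          ((w (WithLp.toLp 2 x, 0) (eh j) (eh k) - c) + c) := by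
      simp [mn]
    rw [hm, integral_add hi hi2] at h2
    have h3 : ∫ _x in Crest.Agent.R275.Tor812.box (0 : Fin N → ℝ), c = c := mn_const (N := N) c
    rw [h3] at h2
    linarith
  have h2 := norm_setIntegral_le_of_norm_le_const (C := del * N) hfin
    (f := fun x : Fin N → ℝ => w (WithLp.toLp 2 x, 0) (eh j) (eh k) - c)
    (fun x _ => by rw [Real.norm_eq_abs]; exact hb _)
  rw [h1, norm_neg, Real.norm_eq_abs, measureReal_def, hvol] at h2
  simpa using h2

end

end Crest.Agent.R281.Lg_40
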