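import Crest.Agent.R281.Lg1_40

/-!
# R281 / LAGT adapter (helper40), part 2

Linear algebra at one point: normalisation of the mixed part of `X`, approximate complex structure.
-/

set_option autoImplicit false
set_option maxSynthPendingDepth 3

open MeasureTheory Set Metric Filter
open scoped ContDiff Topology RealInnerProductSpace

namespace Crest.Agent.R281.Lg_40

open Crest.Agent.R281.Mc673
open Crest.Agent.R238.Sch (ee norm_ee)

noncomputable section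

variable {N : ℕ}

theorem sum_ee (v : V N) : v = ∑ j, v j • (ee j : V N) := by
  ext i
  simp [ee, Finset.sum_apply, Pi.single_apply]

theorem inner_ee (v : V N) (j : Fin N) : ⟪v, (ee j : V N)⟫ = v j := by
  simp [ee, EuclideanSpace.inner_single_right]

/-- the mixed part of a bilinear form: `⟪Mt a, v⟫ = - X (a, 0) (0, v)` -/
def Mt (X : W N →L[ℝ] W N →L[ℝ] ℝ) : V N →L[ℝ] V N :=
  LinearMap.toContinuousLinearMap
    { toFun := fun a => WithLp.toLp 2 fun l => - X (a, 0) (ev' l)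
      map_add' := fun a b => by
        ext l
        have : ((a + b, 0) : W N) = (a, 0) + (b, 0) := by simp
        simp only [this, map_add, _root_.add_apply, PiLp.add_apply]
        ring
      map_smul' := fun c a => by
        ext l
        have : ((c • a, 0) : W N) = c • (a, 0) := by simp
        simp only [this, map_smul, _root_.smul_apply, PiLp.smul_apply, smul_eq_mul,
          RingHom.id_apply]
        ring }

theorem Mt_apply (X : W N →L[ℝ] W N →L[ℝ] ℝ) (a : V N) (l : Fin N) :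
    Mt X a l = - X (a, 0) (ev' l) := rfl

theorem inr_sum (v : V N) : ((0, v) : W N) = ∑ l, v l • ev' l := by
  have h1 : ((0, v) : W N) = LinearMap.inr ℝ (V N) (V N) v := rfl
  rw [h1]
  conv_lhs => rw [sum_ee v]
  rw [map_sum]
  refine Finset.sum_congr rfl fun l _ => ?_
  rw [map_smul]; rfl

theorem inl_sum (v : V N) : ((v, 0) : W N) = ∑ l, v l • eh l := by
  have h1 : ((v, 0) : W N) = LinearMap.inl ℝ (V N) (V N) v := rfl
  rw [h1]
  conv_lhs => rw [sum_ee v]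
  rw [map_sum]
  refine Finset.sum_congr rfl fun l _ => ?_
  rw [map_smul]; rfl

theorem inner_Mt (X : W N →L[ℝ] W N →L[ℝ] ℝ) (a v : V N) :
    ⟪Mt X a, v⟫ = - X (a, 0) (0, v) := by
  rw [inr_sum v, map_sum]
  have h1 : ⟪Mt X a, v⟫ = ∑ l, v l * Mt X a l := by
    simp [PiLp.inner_apply]
  rw [h1, ← Finset.sum_neg_distrib]
  refine Finset.sum_congr rfl fun l _ => ?_
  rw [Mt_apply, map_smul, smul_eq_mul]; ring

theorem norm_inl (a : V N) : ‖((a, 0) : W N)‖ = ‖a‖ := by simp [Prod.norm_def]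

theorem norm_inr (a : V N) : ‖((0, a) : W N)‖ = ‖a‖ := by simp [Prod.norm_def]

theorem norm_Mt_le {X : W N →L[ℝ] W N →L[ℝ] ℝ} {Lam : ℝ} (hX : ‖X‖ ≤ Lam) (a : V N) :
    ‖Mt X a‖ ≤ Lam * ‖a‖ := by
  have h1 : ‖Mt X a‖ * ‖Mt X a‖ ≤ Lam * ‖a‖ * ‖Mt X a‖ := by
    rw [← real_inner_self_eq_norm_mul_norm, inner_Mt]
    have h2 := X.le_opNorm₂ (a, 0) (0, Mt X a)
    rw [norm_inl, norm_inr, Real.norm_eq_abs] at h2
    have h3 : ‖X‖ * ‖a‖ * ‖Mt X a‖ ≤ Lam * ‖a‖ * ‖Mt X a‖ := by gcongr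
    have := neg_abs_le (X (a, 0) (0, Mt X a))
    linarith [le_abs_self (X (a, 0) (0, Mt X a)), neg_le_abs (X (a, 0) (0, Mt X a))]
  rcases (norm_nonneg (Mt X a)).lt_or_eq with h | h
  · exact le_of_mul_le_mul_right h1 h
  · rw [← h]
    have hL : 0 ≤ Lam := (norm_nonneg _).trans hX
    positivity

theorem sum_abs_le (v : V N) : ∑ k, |v k| ≤ N * ‖v‖ := by
  have : ∑ k, |v k| ≤ ∑ _k : Fin N, ‖v‖ := Finset.sum_le_sum fun k _ => abs_co_le v k
  simpa using this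

/-- the horizontal block is small -/
theorem abs_hh_le {X : W N →L[ℝ] W N →L[ℝ] ℝ} {s : ℝ}
    (h : ∀ j k, |X (eh j) (eh k)| ≤ s) (a b : V N) :
    |X (a, 0) (b, 0)| ≤ s * (∑ j, |a j|) * ∑ k, |b k| := by
  rw [inl_sum a, map_sum, _root_.sum_apply, inl_sum b]
  calc |∑ j, (X (a j • eh j)) (∑ k, b k • eh k)|
      ≤ ∑ j, |(X (a j • eh j)) (∑ k, b k • eh k)| := Finset.abs_sum_le_sum_abs _ _
    _ ≤ ∑ j, ∑ k, |a j| * |b k| * s := by
        refine Finset.sum_le_sum fun j _ => ?_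
        rw [map_sum]
        refine (Finset.abs_sum_le_sum_abs _ _).trans (Finset.sum_le_sum fun k _ => ?_)
        rw [map_smul, map_smul, _root_.smul_apply, smul_eq_mul, smul_eq_mul, abs_mul, abs_mul]
        have := h j k
        have h1 : |b k| * (|a j| * |(X (eh j)) (eh k)|) ≤ |b k| * (|a j| * s) := by gcongr
        linarith
    _ = s * (∑ j, |a j|) * ∑ k, |b k| := by
        rw [mul_assoc, Finset.sum_mul_sum, Finset.mul_sum]
        refine Finset.sum_congr rfl fun j _ => ?_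
        rw [Finset.mul_sum]
        refine Finset.sum_congr rfl fun k _ => ?_
        ring

/-- lower bound of the mixed part -/
theorem Mt_lower {X : W N →L[ℝ] W N →L[ℝ] ℝ} {Lam s : ℝ} (hL : 0 < Lam)
    (hnd : ∀ u, ‖u‖ ≤ Lam * ‖X u‖) (h : ∀ j k, |X (eh j) (eh k)| ≤ s) (hs : 0 ≤ s)
    (hsm : Lam * (s * N * N) ≤ 1 / 2) (a : V N) : ‖a‖ ≤ 2 * Lam * ‖Mt X a‖ := by
  have h1 := hnd (a, 0)
  rw [norm_inl] at h1
  have h2 : ‖X (a, 0)‖ ≤ s * N * N * ‖a‖ + ‖Mt X a‖ := by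
    refine ContinuousLinearMap.opNorm_le_bound _ (by positivity) fun u => ?_
    have h3 : X (a, 0) u = X (a, 0) (u.1, 0) - ⟪Mt X a, u.2⟫ := by
      rw [inner_Mt, sub_neg_eq_add, ← map_add]
      congr 1
      ext <;> simp
    rw [h3, Real.norm_eq_abs]
    have h4 := abs_hh_le h a u.1
    have h5 := abs_real_inner_le_norm (Mt X a) u.2
    have h6 : ‖u.1‖ ≤ ‖u‖ := norm_fst_le u
    have h7 : ‖u.2‖ ≤ ‖u‖ := norm_snd_le u
    have h8 := sum_abs_le a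
    have h9 := sum_abs_le u.1
    have hN : (0 : ℝ) ≤ N := Nat.cast_nonneg N
    have h10 : s * (∑ j, |a j|) * ∑ k, |u.1 k| ≤ s * (N * ‖a‖) * (N * ‖u‖) := by
      have hn1 : 0 ≤ ∑ j, |a j| := Finset.sum_nonneg fun _ _ => abs_nonneg _
      have hn2 : 0 ≤ ∑ j, |u.1 j| := Finset.sum_nonneg fun _ _ => abs_nonneg _
      have : ∑ k, |u.1 k| ≤ N * ‖u‖ := h9.trans (by gcongr)
      gcongr
    have h11 : ‖Mt X a‖ * ‖u.2‖ ≤ ‖Mt X a‖ * ‖u‖ := by gcongr
    calc |X (a, 0) (u.1, 0) - ⟪Mt X a, u.2⟫| ≤ |X (a, 0) (u.1, 0)| + |⟪Mt X a, u.2⟫| :=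
          abs_sub _ _
      _ ≤ (s * N * N * ‖a‖ + ‖Mt X a‖) * ‖u‖ := by nlinarith
  have h3 : Lam * ‖X (a, 0)‖ ≤ Lam * (s * N * N * ‖a‖ + ‖Mt X a‖) :=
    mul_le_mul_of_nonneg_left h2 hL.le
  have h4 : Lam * (s * N * N) * ‖a‖ ≤ 1 / 2 * ‖a‖ :=
    mul_le_mul_of_nonneg_right hsm (norm_nonneg a)
  nlinarith

/-- the normalising linear change and its inverse -/
theorem exists_B {X : W N →L[ℝ] W N →L[ℝ] ℝ} {Lam s : ℝ} (hL : 0 < Lam) (hX : ‖X‖ ≤ Lam)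
    (hnd : ∀ u, ‖u‖ ≤ Lam * ‖X u‖) (h : ∀ j k, |X (eh j) (eh k)| ≤ s) (hs : 0 ≤ s)
    (hsm : Lam * (s * N * N) ≤ 1 / 2) :
    ∃ B M : V N →L[ℝ] V N, (∀ v, B (M v) = v) ∧ (∀ v, M (B v) = v) ∧
      (∀ v, ‖B v‖ ≤ 2 * Lam * ‖v‖) ∧ (∀ v, ‖M v‖ ≤ Lam * ‖v‖) ∧
      (∀ θ v, X (θ, 0) (0, v) = - ⟪θ, M v⟫) := by
  have hlow := Mt_lower hL hnd h hs hsm
  have hinj : Function.Injective (Mt X) := by
    intro a b hab
    have h1 := hlow (a - b)
    rw [map_sub, hab, sub_self, norm_zero, mul_zero] at h1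
    exact sub_eq_zero.1 (norm_le_zero_iff.1 h1)
  let e : V N ≃ₗ[ℝ] V N := LinearEquiv.ofInjectiveEndo (Mt X : V N →ₗ[ℝ] V N) hinj
  let Bt : V N →L[ℝ] V N := LinearMap.toContinuousLinearMap (e.symm : V N →ₗ[ℝ] V N)
  have he : ∀ v, e v = Mt X v := fun v => rfl
  have hB1 : ∀ v, Bt (Mt X v) = v := fun v => by
    show e.symm (Mt X v) = v
    rw [← he, e.symm_apply_apply]
  have hB2 : ∀ v, Mt X (Bt v) = v := fun v => by
    show Mt X (e.symm v) = v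
    rw [← he, e.apply_symm_apply]
  have hBt : ‖Bt‖ ≤ 2 * Lam := by
    refine ContinuousLinearMap.opNorm_le_bound _ (by positivity) fun v => ?_
    have h1 := hlow (Bt v)
    rwa [hB2] at h1
  have hMt : ‖Mt X‖ ≤ Lam :=
    ContinuousLinearMap.opNorm_le_bound _ hL.le fun v => norm_Mt_le hX v
  refine ⟨ContinuousLinearMap.adjoint Bt, ContinuousLinearMap.adjoint (Mt X), fun v => ?_,
    fun v => ?_, fun v => ?_, fun v => ?_, fun θ v => ?_⟩
  · refine ext_inner_left ℝ fun u => ?_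
    rw [ContinuousLinearMap.adjoint_inner_right, ContinuousLinearMap.adjoint_inner_right, hB2]
  · refine ext_inner_left ℝ fun u => ?_
    rw [ContinuousLinearMap.adjoint_inner_right, ContinuousLinearMap.adjoint_inner_right, hB1]
  · refine ((ContinuousLinearMap.adjoint Bt).le_opNorm v).trans ?_
    rw [LinearIsometryEquiv.norm_map]
    gcongr
  · refine ((ContinuousLinearMap.adjoint (Mt X)).le_opNorm v).trans ?_
    rw [LinearIsometryEquiv.norm_map]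
    gcongr
  · rw [ContinuousLinearMap.adjoint_inner_right, inner_Mt, neg_neg]

theorem inner_ee_ee (j k : Fin N) : ⟪(ee j : V N), (ee k : V N)⟫ = if j = k then 1 else 0 := by
  rw [inner_ee]
  simp [ee, eq_comm]

/-- the coefficient matrix of the mixed part of `Y` -/
def C0 (Y : W N →L[ℝ] W N →L[ℝ] ℝ) (B : V N →L[ℝ] V N) : Matrix (Fin N) (Fin N) ℝ :=
  Matrix.of fun j k => - Y (eh j) (0, B (ee k))

theorem C0_apply (Y : W N →L[ℝ] W N →L[ℝ] ℝ) (B : V N →L[ℝ] V N) (j k : Fin N) :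
    C0 Y B j k = - Y (eh j) (0, B (ee k)) := rfl

theorem abs_C0_le {Y : W N →L[ℝ] W N →L[ℝ] ℝ} {B : V N →L[ℝ] V N} {Lam : ℝ} (hL : 0 < Lam)
    (hY : ‖Y‖ ≤ Lam) (hB : ∀ v, ‖B v‖ ≤ 2 * Lam * ‖v‖) (j k : Fin N) :
    |C0 Y B j k| ≤ 2 * Lam ^ 2 := by
  rw [C0_apply, abs_neg]
  have h1 := Y.le_opNorm₂ (eh j) (0, B (ee k))
  rw [norm_inr, Real.norm_eq_abs] at h1
  have h2 := hB (ee k)
  rw [norm_ee, mul_one] at h2
  have h3 : ‖Y‖ * ‖eh j‖ * ‖B (ee k)‖ ≤ Lam * 1 * (2 * Lam) := by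
    gcongr
    exact norm_eh_le j
  nlinarith

/-- the constant of `C0_sq_le` -/
def Dc (N : ℕ) (Lam : ℝ) : ℝ :=
  2 * Lam ^ 2 * (2 * Lam * N * (1 + N ^ 2 * Lam ^ 2)) * (1 + 2 * N * Lam ^ 2)

theorem C0_sq_le {X Y : W N →L[ℝ] W N →L[ℝ] ℝ} {B M : V N →L[ℝ] V N} {Lam s : ℝ} (hL : 0 < Lam)
    (hX : ‖X‖ ≤ Lam) (hY : ‖Y‖ ≤ Lam) (hnd : ∀ u, ‖u‖ ≤ Lam * ‖X u‖)
    (halt : ∀ u v, X u v = - X v u)
    (hx : ∀ j k, |X (eh j) (eh k)| ≤ s) (hy : ∀ j k, |Y (eh j) (eh k)| ≤ s) (hs : 0 ≤ s)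
    {I : W N → W N} (hI : ∀ u, I (I u) = -u) (hIx : ∀ u w, X (I u) w = - Y u w)
    (hBM : ∀ v, B (M v) = v) (hMB : ∀ v, M (B v) = v) (hB : ∀ v, ‖B v‖ ≤ 2 * Lam * ‖v‖)
    (hM : ∀ θ v, X (θ, 0) (0, v) = - ⟪θ, M v⟫) (j k : Fin N) :
    |(C0 Y B * C0 Y B + 1) j k| ≤ Dc N Lam * s := by
  have hN : (0 : ℝ) ≤ N := Nat.cast_nonneg N
  set z := I (eh j) with hz
  have hzn : ‖z‖ ≤ Lam ^ 2 := by
    have h1 : X z = - Y (eh j) := ContinuousLinearMap.ext fun w => hIx (eh j) w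
    have h2 := hnd z
    rw [h1, norm_neg] at h2
    have h3 : ‖Y (eh j)‖ ≤ Lam := by
      refine (Y.le_opNorm _).trans ?_
      have : ‖Y‖ * ‖eh j‖ ≤ Lam * 1 := by gcongr; exact norm_eh_le j
      linarith
    calc ‖z‖ ≤ Lam * ‖Y (eh j)‖ := h2
      _ ≤ Lam * Lam := by gcongr
      _ = Lam ^ 2 := by ring
  have hsplit : ∀ (Φ : W N →L[ℝ] W N →L[ℝ] ℝ) (w : W N),
      Φ z w = Φ (z.1, 0) w + Φ (0, z.2) w := by
    intro Φ w
    rw [← _root_.add_apply, ← map_add]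
    congr 2
    ext <;> simp
  have hα : ‖z.1‖ ≤ Lam ^ 2 := (norm_fst_le z).trans hzn
  -- `β` is small
  have hMβ : ∀ l, |M z.2 l| ≤ s * (1 + N ^ 2 * Lam ^ 2) := by
    intro l
    have h1 := hIx (eh j) (eh l)
    rw [← hz, hsplit X] at h1
    have h2 : X (0, z.2) (eh l) = M z.2 l := by
      rw [halt, eh, hM, neg_neg, real_inner_comm, inner_ee]
    rw [h2] at h1
    have h3 := abs_hh_le hx z.1 (ee l)
    have h4 := sum_abs_le z.1
    have h5 := sum_abs_le (ee l : V N)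
    rw [norm_ee, mul_one] at h5
    have h6 : s * (∑ j, |z.1 j|) * ∑ k, |(ee l : V N) k| ≤ s * (N * Lam ^ 2) * N := by
      have hn1 : 0 ≤ ∑ j, |z.1 j| := Finset.sum_nonneg fun _ _ => abs_nonneg _
      have hn2 : 0 ≤ ∑ k, |(ee l : V N) k| := Finset.sum_nonneg fun _ _ => abs_nonneg _
      have : ∑ j, |z.1 j| ≤ N * Lam ^ 2 := h4.trans (by gcongr)
      gcongr
    have h7 : M z.2 l = - Y (eh j) (eh l) - X (z.1, 0) (eh l) := by linarith
    rw [h7]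
    have h8 := hy j l
    have h9 : |X (z.1, 0) (eh l)| ≤ s * (N * Lam ^ 2) * N := h3.trans h6
    have h10 := abs_sub (- Y (eh j) (eh l)) (X (z.1, 0) (eh l))
    rw [abs_neg] at h10
    nlinarith
  have hβ : ‖z.2‖ ≤ 2 * Lam * N * (1 + N ^ 2 * Lam ^ 2) * s := by
    have h1 : ‖M z.2‖ ≤ N * (s * (1 + N ^ 2 * Lam ^ 2)) := by
      refine (norm_le_sum _).trans ?_
      have : ∑ l, |M z.2 l| ≤ ∑ _l : Fin N, s * (1 + N ^ 2 * Lam ^ 2) :=
        Finset.sum_le_sum fun l _ => hMβ l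
      simpa using this
    have h2 := hB (M z.2)
    rw [hBM] at h2
    have h3 : 2 * Lam * ‖M z.2‖ ≤ 2 * Lam * (N * (s * (1 + N ^ 2 * Lam ^ 2))) := by gcongr
    nlinarith
  set q := 2 * Lam * N * (1 + N ^ 2 * Lam ^ 2) * s with hq
  have hq0 : 0 ≤ q := by positivity
  -- errors
  have hE : ∀ (Φ : W N →L[ℝ] W N →L[ℝ] ℝ), ‖Φ‖ ≤ Lam → ∀ l,
      |Φ (0, z.2) (0, B (ee l))| ≤ 2 * Lam ^ 2 * q := by
    intro Φ hΦ l
    have h1 := Φ.le_opNorm₂ (0, z.2) (0, B (ee l))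
    rw [norm_inr, norm_inr, Real.norm_eq_abs] at h1
    have h2 := hB (ee l)
    rw [norm_ee, mul_one] at h2
    have h3 : ‖Φ‖ * ‖z.2‖ * ‖B (ee l)‖ ≤ Lam * q * (2 * Lam) := by gcongr
    nlinarith
  have hα' : ∀ l, z.1 l = - C0 Y B j l + X (0, z.2) (0, B (ee l)) := by
    intro l
    have h1 := hIx (eh j) (0, B (ee l))
    rw [← hz, hsplit X, hM, hMB, inner_ee] at h1
    rw [C0_apply]; linarith
  have hYz : ∀ w, Y z w = X (eh j) w := by
    intro w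
    have h1 := hIx z w
    rw [hz, hI, ← hz] at h1
    simp only [map_neg, _root_.neg_apply] at h1
    linarith
  have hsum : ∑ l, z.1 l * C0 Y B l k = (if j = k then 1 else 0) + Y (0, z.2) (0, B (ee k)) := by
    have h1 := hYz (0, B (ee k))
    rw [hsplit Y, eh, hM, hMB, inner_ee_ee] at h1
    have h2 : Y (z.1, 0) (0, B (ee k)) = - ∑ l, z.1 l * C0 Y B l k := by
      rw [inl_sum z.1, map_sum, _root_.sum_apply, ← Finset.sum_neg_distrib]
      refine Finset.sum_congr rfl fun l _ => ?_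
      rw [map_smul, _root_.smul_apply, smul_eq_mul, C0_apply]; ring
    rw [h2] at h1
    linarith
  have hfin : (C0 Y B * C0 Y B + 1) j k =
      - Y (0, z.2) (0, B (ee k)) + ∑ l, X (0, z.2) (0, B (ee l)) * C0 Y B l k := by
    rw [Matrix.add_apply, Matrix.mul_apply, Matrix.one_apply]
    have h1 : ∑ l, z.1 l * C0 Y B l k = - ∑ l, C0 Y B j l * C0 Y B l k +
        ∑ l, X (0, z.2) (0, B (ee l)) * C0 Y B l k := by
      rw [← Finset.sum_neg_distrib, ← Finset.sum_add_distrib]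
      refine Finset.sum_congr rfl fun l _ => ?_
      rw [hα' l]; ring
    linarith
  rw [hfin]
  have h1 := hE Y hY k
  have h2 : |∑ l, X (0, z.2) (0, B (ee l)) * C0 Y B l k| ≤ N * (2 * Lam ^ 2 * q * (2 * Lam ^ 2)) := by
    refine (Finset.abs_sum_le_sum_abs _ _).trans ?_
    have : ∑ l, |X (0, z.2) (0, B (ee l)) * C0 Y B l k| ≤
        ∑ _l : Fin N, 2 * Lam ^ 2 * q * (2 * Lam ^ 2) := by
      refine Finset.sum_le_sum fun l _ => ?_
      rw [abs_mul]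
      have := hE X hX l
      have := abs_C0_le (B := B) hL hY hB l k
      gcongr
    simpa using this
  have h3 := abs_add_le (- Y (0, z.2) (0, B (ee k))) (∑ l, X (0, z.2) (0, B (ee l)) * C0 Y B l k)
  rw [abs_neg] at h3
  calc |-Y (0, z.2) (0, B (ee k)) + ∑ l, X (0, z.2) (0, B (ee l)) * C0 Y B l k|
      ≤ 2 * Lam ^ 2 * q + N * (2 * Lam ^ 2 * q * (2 * Lam ^ 2)) := by linarith
    _ = Dc N Lam * s := by rw [hq, Dc]; ring

end

end Crest.Agent.R281.Lg_40
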