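import Crest.Agent.R281.Lg2_40

/-!
# R281 / LAGT adapter (helper40), part 3

Pull back under `(θ, v) ↦ (θ, c + B v)`.
-/

set_option autoImplicit false
set_option maxSynthPendingDepth 3

open MeasureTheory Set Metric Filter
open scoped ContDiff Topology RealInnerProductSpace

namespace Crest.Agent.R281.Lg_40

open Crest.Agent.R281.Mc673
open Crest.Agent.R238.Sch (ee norm_ee)

noncomputable section

variable {N : ℕ}

/-- bilinear forms -/
abbrev Bil (N : ℕ) := W N →L[ℝ] W N →L[ℝ] ℝ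

/-- `(θ, v) ↦ (θ, B v)` -/
def TT (B : V N →L[ℝ] V N) : W N →L[ℝ] W N := (ContinuousLinearMap.id ℝ (V N)).prodMap B

theorem TT_apply (B : V N →L[ℝ] V N) (p : W N) : TT B p = (p.1, B p.2) := rfl

/-- pull back of bilinear forms -/
def LL (T : W N →L[ℝ] W N) : Bil N →L[ℝ] Bil N :=
  (ContinuousLinearMap.postcomp (W N) (ContinuousLinearMap.precomp ℝ T)).comp
    (ContinuousLinearMap.precomp (W N →L[ℝ] ℝ) T)

theorem LL_apply (T : W N →L[ℝ] W N) (φ : Bil N) (u v : W N) : LL T φ u v = φ (T u) (T v) := rfl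

/-- pull back of derivatives -/
def L2 (T : W N →L[ℝ] W N) : (W N →L[ℝ] Bil N) →L[ℝ] (W N →L[ℝ] Bil N) :=
  (ContinuousLinearMap.postcomp (W N) (LL T)).comp (ContinuousLinearMap.precomp (Bil N) T)

theorem L2_apply (T : W N →L[ℝ] W N) (ψ : W N →L[ℝ] Bil N) (u v w : W N) :
    L2 T ψ u v w = ψ (T u) (T v) (T w) := rfl

theorem norm_LL_le {T : W N →L[ℝ] W N} {t : ℝ} (ht : 0 ≤ t) (hT : ∀ u, ‖T u‖ ≤ t * ‖u‖)
    (φ : Bil N) : ‖LL T φ‖ ≤ t ^ 2 * ‖φ‖ := by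
  refine ContinuousLinearMap.opNorm_le_bound₂ _ (by positivity) fun u v => ?_
  rw [LL_apply]
  refine (φ.le_opNorm₂ _ _).trans ?_
  calc ‖φ‖ * ‖T u‖ * ‖T v‖ ≤ ‖φ‖ * (t * ‖u‖) * (t * ‖v‖) := by
        gcongr
        · exact hT u
        · exact hT v
    _ = t ^ 2 * ‖φ‖ * ‖u‖ * ‖v‖ := by ring

theorem norm_L2_le {T : W N →L[ℝ] W N} {t : ℝ} (ht : 0 ≤ t) (hT : ∀ u, ‖T u‖ ≤ t * ‖u‖)
    (ψ : W N →L[ℝ] Bil N) : ‖L2 T ψ‖ ≤ t ^ 3 * ‖ψ‖ := by
  refine ContinuousLinearMap.opNorm_le_bound _ (by positivity) fun u => ?_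
  have h1 : L2 T ψ u = LL T (ψ (T u)) := rfl
  rw [h1]
  refine (norm_LL_le ht hT _).trans ?_
  calc t ^ 2 * ‖ψ (T u)‖ ≤ t ^ 2 * (‖ψ‖ * (t * ‖u‖)) := by
        gcongr
        exact (ψ.le_opNorm _).trans (mul_le_mul_of_nonneg_left (hT u) (norm_nonneg _))
    _ = t ^ 3 * ‖ψ‖ * ‖u‖ := by ring

/-- `(θ, v) ↦ (θ, c + B v)` -/
def TA (B : V N →L[ℝ] V N) (c : V N) (p : W N) : W N := (p.1, c + B p.2)

theorem TA_eq (B : V N →L[ℝ] V N) (c : V N) (p : W N) : TA B c p = TT B p + (0, c) := by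
  ext1
  · simp [TA, TT_apply]
  · simp [TA, TT_apply, add_comm]

theorem hasFDerivAt_TA (B : V N →L[ℝ] V N) (c : V N) (p : W N) :
    HasFDerivAt (TA B c) (TT B) p := by
  have h1 : TA B c = fun p => TT B p + (0, c) := funext fun p => TA_eq B c p
  rw [h1]
  exact (TT B).hasFDerivAt.add_const _

theorem contDiff_TA (B : V N →L[ℝ] V N) (c : V N) : ContDiff ℝ ∞ (TA B c) := by
  have h1 : TA B c = fun p => TT B p + (0, c) := funext fun p => TA_eq B c p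
  rw [h1]
  exact (TT B).contDiff.add contDiff_const

/-- the pulled back form -/
def pl (w : Fo N) (B : V N →L[ℝ] V N) (c : V N) : Fo N := fun p => LL (TT B) (w (TA B c p))

theorem pl_apply (w : Fo N) (B : V N →L[ℝ] V N) (c : V N) (p u v : W N) :
    pl w B c p u v = w (TA B c p) (TT B u) (TT B v) := rfl

theorem hasFDerivAt_pl {w : Fo N} {B : V N →L[ℝ] V N} {c : V N} {p : W N}
    (hw : DifferentiableAt ℝ w (TA B c p)) :
    HasFDerivAt (pl w B c) (L2 (TT B) (fderiv ℝ w (TA B c p))) p := by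
  have h1 : HasFDerivAt (fun p => w (TA B c p)) ((fderiv ℝ w (TA B c p)).comp (TT B)) p :=
    hw.hasFDerivAt.comp p (hasFDerivAt_TA B c p)
  exact (LL (TT B)).hasFDerivAt.comp p h1

section

variable {w : Fo N} {B : V N →L[ℝ] V N} {c : V N} {r : ℝ}

theorem clF_pl (hw : ClF 1 w) (hB : ∀ p ∈ tube N r, TA B c p ∈ tube N 1) :
    ClF r (pl w B c) where
  sm := by
    have h1 : ContDiffOn ℝ ∞ (fun p => w (TA B c p)) (tube N r) :=
      hw.sm.comp (contDiff_TA B c).contDiffOn hB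
    exact (LL (TT B)).contDiff.comp_contDiffOn h1
  alt := fun p hp u v => hw.alt _ (hB p hp) _ _
  cl := fun p hp u v z => by
    rw [(hasFDerivAt_pl (hw.da (hB p hp))).fderiv]
    exact hw.cl _ (hB p hp) _ _ _
  per := fun k p hp => by
    have h1 := hw.per k (TA B c p) (hB p hp)
    show LL (TT B) (w (TA B c (p.1 + kv k, p.2))) = LL (TT B) (w (TA B c p))
    have h2 : TA B c (p.1 + kv k, p.2) = ((TA B c p).1 + kv k, (TA B c p).2) := rfl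
    rw [h2, h1]

theorem norm_fderiv_pl_le {t K : ℝ} (ht : 0 ≤ t) (hT : ∀ u, ‖TT B u‖ ≤ t * ‖u‖) (hw : ClF 1 w)
    (hK : ∀ p ∈ tube N 1, ‖fderiv ℝ w p‖ ≤ K)
    (hB : ∀ p ∈ tube N r, TA B c p ∈ tube N 1) {p : W N} (hp : p ∈ tube N r) :
    ‖fderiv ℝ (pl w B c) p‖ ≤ t ^ 3 * K := by
  rw [(hasFDerivAt_pl (hw.da (hB p hp))).fderiv]
  refine (norm_L2_le ht hT _).trans ?_
  have := hK _ (hB p hp)
  gcongr

/-- Lipschitz bound from the derivative on the (convex) tube -/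
theorem lip_tube {F : Type*} [NormedAddCommGroup F] [NormedSpace ℝ F] {f : W N → F} {K : ℝ}
    (hd : ∀ p ∈ tube N r, DifferentiableAt ℝ f p) (hK : ∀ p ∈ tube N r, ‖fderiv ℝ f p‖ ≤ K)
    {p q : W N} (hp : p ∈ tube N r) (hq : q ∈ tube N r) : ‖f p - f q‖ ≤ K * ‖p - q‖ :=
  (convex_tube r).norm_image_sub_le_of_norm_fderiv_le (𝕜 := ℝ) hd hK hq hp

theorem da2 (hw : ClF 1 w) {p : W N} (hp : p ∈ tube N 1) :
    DifferentiableAt ℝ (fderiv ℝ w) p :=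
  ((hw.cda hp).fderiv_right (m := ∞) (by simp)).differentiableAt (by simp)

theorem norm_TA_sub {t : ℝ} (hT : ∀ u, ‖TT B u‖ ≤ t * ‖u‖) (p q : W N) :
    ‖TA B c p - TA B c q‖ ≤ t * ‖p - q‖ := by
  rw [TA_eq, TA_eq, add_sub_add_right_eq_sub, ← map_sub]
  exact hT _

theorem norm_TA_c (c c' : V N) (p : W N) : ‖TA B c p - TA B c' p‖ = ‖c - c'‖ := by
  rw [TA_eq, TA_eq, add_sub_add_left_eq_sub]
  simp [Prod.norm_def]

theorem fderiv_pl_lip {t K : ℝ} (ht : 0 ≤ t) (hK0 : 0 ≤ K) (hT : ∀ u, ‖TT B u‖ ≤ t * ‖u‖)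
    (hw : ClF 1 w) (hK : ∀ p ∈ tube N 1, ‖fderiv ℝ (fderiv ℝ w) p‖ ≤ K)
    (hB : ∀ p ∈ tube N r, TA B c p ∈ tube N 1) {p q : W N} (hp : p ∈ tube N r)
    (hq : q ∈ tube N r) :
    ‖fderiv ℝ (pl w B c) p - fderiv ℝ (pl w B c) q‖ ≤ t ^ 4 * K * ‖p - q‖ := by
  rw [(hasFDerivAt_pl (hw.da (hB p hp))).fderiv, (hasFDerivAt_pl (hw.da (hB q hq))).fderiv,
    ← map_sub]
  have h1 := norm_L2_le ht hT (fderiv ℝ w (TA B c p) - fderiv ℝ w (TA B c q))
  have h2 := lip_tube (fun p hp => da2 hw hp) hK (hB p hp) (hB q hq)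
  have h3 := norm_TA_sub (c := c) hT p q
  calc _ ≤ t ^ 3 * ‖fderiv ℝ w (TA B c p) - fderiv ℝ w (TA B c q)‖ := h1
    _ ≤ t ^ 3 * (K * (t * ‖p - q‖)) := by
        refine mul_le_mul_of_nonneg_left (h2.trans (mul_le_mul_of_nonneg_left h3 hK0))
          (by positivity)
    _ = t ^ 4 * K * ‖p - q‖ := by ring

/-- dependence of the pull back on the centre -/
theorem close_pl {t K : ℝ} (ht : 1 ≤ t) (hK0 : 0 ≤ K) (hT : ∀ u, ‖TT B u‖ ≤ t * ‖u‖)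
    (hw : ClF 1 w) (hK1 : ∀ p ∈ tube N 1, ‖fderiv ℝ w p‖ ≤ K)
    (hK : ∀ p ∈ tube N 1, ‖fderiv ℝ (fderiv ℝ w) p‖ ≤ K) {c c' : V N}
    (hB : ∀ p ∈ tube N r, TA B c p ∈ tube N 1) (hB' : ∀ p ∈ tube N r, TA B c' p ∈ tube N 1) :
    Close r (t ^ 3 * K * ‖c - c'‖) (pl w B c) (pl w B c') where
  c0 := fun p hp => by
    have e : pl w B c p - pl w B c' p = LL (TT B) (w (TA B c p) - w (TA B c' p)) := by
      rw [map_sub]; rfl
    rw [e]
    have h1 := norm_LL_le (by linarith) hT (w (TA B c p) - w (TA B c' p))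
    have h2 := lip_tube (fun p hp => hw.da hp) hK1 (hB p hp) (hB' p hp)
    rw [norm_TA_c] at h2
    calc _ ≤ t ^ 2 * ‖w (TA B c p) - w (TA B c' p)‖ := h1
      _ ≤ t ^ 2 * (K * ‖c - c'‖) := mul_le_mul_of_nonneg_left h2 (by positivity)
      _ ≤ t ^ 3 * (K * ‖c - c'‖) := by
          refine mul_le_mul_of_nonneg_right (pow_le_pow_right₀ ht (by norm_num)) (by positivity)
      _ = t ^ 3 * K * ‖c - c'‖ := by ring
  c1 := fun p hp => by
    rw [(hasFDerivAt_pl (hw.da (hB p hp))).fderiv, (hasFDerivAt_pl (hw.da (hB' p hp))).fderiv,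
      ← map_sub]
    have h1 := norm_L2_le (by linarith) hT (fderiv ℝ w (TA B c p) - fderiv ℝ w (TA B c' p))
    have h2 := lip_tube (fun p hp => da2 hw hp) hK (hB p hp) (hB' p hp)
    rw [norm_TA_c] at h2
    calc _ ≤ t ^ 3 * ‖fderiv ℝ w (TA B c p) - fderiv ℝ w (TA B c' p)‖ := h1
      _ ≤ t ^ 3 * (K * ‖c - c'‖) := mul_le_mul_of_nonneg_left h2 (by positivity)
      _ = t ^ 3 * K * ‖c - c'‖ := by ring

end

end

end Crest.Agent.R281.Lg_40
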