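import Crest.Agent.R281.Lg3_40

/-!
# R281 / LAGT adapter (helper40), part 4

`LagtY → LagtS1`: the torus theorem for nearly constant forms with centres in a fixed ball.
-/

set_option autoImplicit false
set_option maxSynthPendingDepth 3

open MeasureTheory Set Metric Filter
open scoped ContDiff Topology RealInnerProductSpace

namespace Crest.Agent.R281.Lg_40

open Crest.Agent.R281.Mc673
open Crest.Agent.R238.Sch (ee norm_ee)
open Crest.Agent.R273.SchA_152 (HO)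

noncomputable section

variable {N : ℕ}

theorem ev_small (A : ℝ) {B : ℝ} (hB : 0 < B) : ∀ᶠ d in 𝓝[>] (0 : ℝ), A * d ≤ B := by
  have h1 : Tendsto (fun d : ℝ => A * d) (𝓝[>] 0) (𝓝 (A * 0)) :=
    ((continuous_const.mul continuous_id).tendsto 0).mono_left nhdsWithin_le_nhds
  rw [mul_zero] at h1
  filter_upwards [h1 (Iio_mem_nhds hB)] with d hd using le_of_lt hd

/-- mean value on the tube, away from the zero section -/
theorem dist_le {w : Fo N} {del : ℝ} (hw : ClF 1 w)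
    (hd : ∀ p ∈ tube N 1, ‖fderiv ℝ w p‖ ≤ del) (θ : V N) {c : V N} (hc : ‖c‖ < 1) :
    ‖w (θ, c) - w (0, 0)‖ ≤ del * (N + 1) := by
  obtain ⟨k, y, hy, rfl⟩ := exists_cube θ
  have h0 : ∀ θ : V N, ((θ, c) : W N) ∈ tube N 1 := fun θ => hc
  have h1 : w (y + kv k, c) = w (y, c) := hw.per k (y, c) (h0 y)
  rw [h1]
  have h2 := lip_tube (fun p hp => hw.da hp) hd (h0 y) (mem_tube_zero one_pos 0)
  have h3 : ‖((y, c) : W N) - (0, 0)‖ ≤ N + 1 := by
    have : ((y, c) : W N) - (0, 0) = (y, c) := by ext1 <;> simp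
    rw [this]
    have hy' := norm_cube_le hy
    have hN : (0 : ℝ) ≤ N := Nat.cast_nonneg N
    exact max_le (by simpa using hy'.trans (by linarith)) (by simpa using hc.le.trans (by linarith))
  have hdel : 0 ≤ del := (norm_nonneg _).trans (hd _ (mem_tube_zero one_pos 0))
  exact h2.trans (mul_le_mul_of_nonneg_left h3 hdel)

/-- the vanishing on the graph, all vectors -/
theorem graph_zero {w : Fo N} {a : V N → V N} {θ : V N}
    (h : ∀ j k, pb w a j k θ = 0) (u v : V N) :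
    w (θ, a θ) (u, fderiv ℝ a θ u) (v, fderiv ℝ a θ v) = 0 := by
  have hs : ∀ u : V N, ((u, fderiv ℝ a θ u) : W N) =
      ∑ j, u j • ((ee j, fderiv ℝ a θ (ee j)) : W N) := by
    intro u
    have h1 : ((u, fderiv ℝ a θ u) : W N) =
        ((ContinuousLinearMap.id ℝ (V N)).prod (fderiv ℝ a θ)) u := rfl
    rw [h1]
    conv_lhs => rw [sum_ee u]
    rw [map_sum]
    refine Finset.sum_congr rfl fun j _ => ?_
    rw [map_smul]; rfl
  rw [hs v, map_sum]
  refine Finset.sum_eq_zero fun k _ => ?_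
  rw [hs u, map_sum, _root_.sum_apply]
  refine Finset.sum_eq_zero fun j _ => ?_
  rw [map_smul, map_smul, _root_.smul_apply, smul_eq_mul, smul_eq_mul]
  have h2 : w (θ, a θ) (ee j, fderiv ℝ a θ (ee j)) (ee k, fderiv ℝ a θ (ee k)) = 0 := h j k
  rw [h2]; ring

theorem mdl_hh (C : Matrix (Fin N) (Fin N) ℝ) (j k : Fin N) : mdl C (eh j) (eh k) = 0 := by
  rw [mdl_apply]; simp [eh]

theorem mdl_vv (C : Matrix (Fin N) (Fin N) ℝ) (j k : Fin N) : mdl C (ev' j) (ev' k) = 0 := by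
  rw [mdl_apply]; simp [ev']

theorem mdl_hv (C : Matrix (Fin N) (Fin N) ℝ) (j l : Fin N) :
    mdl C (eh j) (ev' l) = - C j l := by
  rw [mdl_apply]
  simp only [eh, ev', ee_apply, PiLp.zero_apply, zero_mul, zero_sub]
  rw [Finset.sum_eq_single j, Finset.sum_eq_single l]
  · simp
  · intro m _ hm; simp [hm]
  · simp
  · intro m _ hm; simp [hm]
  · simp

theorem TT_eh (B : V N →L[ℝ] V N) (j : Fin N) : TT B (eh j) = eh j := by
  rw [TT_apply]; simp [eh]

theorem TT_ev (B : V N →L[ℝ] V N) (j : Fin N) : TT B (ev' j) = (0, B (ee j)) := by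
  rw [TT_apply]; simp [ev']

/-- one of the two `Near` clauses -/
theorem near_pl {w : Fo N} {B : V N →L[ℝ] V N} {c : V N} {r t K δ Lam del e : ℝ} (ht : 1 ≤ t)
    (hr : 0 < r) (hdel : 0 ≤ del) (he : 0 ≤ e)
    (hT : ∀ u, ‖TT B u‖ ≤ t * ‖u‖) (hLam : 0 ≤ Lam) (hw : ClF 1 w)
    (hn : ∀ p ∈ tube N 1, ‖w p‖ ≤ Lam)
    (hd : ∀ p ∈ tube N 1, ‖fderiv ℝ w p‖ ≤ del)
    (hd2 : ∀ p ∈ tube N 1, ‖fderiv ℝ (fderiv ℝ w) p‖ ≤ del) (hc : ‖c‖ ≤ 1 / 2)
    (hB : ∀ p ∈ tube N r, TA B c p ∈ tube N 1) (C : Matrix (Fin N) (Fin N) ℝ)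
    (hm : ∀ j k, mn (fun θ => w (θ, 0) (eh j) (eh k)) = 0)
    (hv : ∀ j l, |w (0, 0) (eh j) (0, B (ee l)) + C j l| ≤ e)
    (hK1 : t ^ 4 * Lam ≤ K) (hK2 : t ^ 4 * del ≤ K)
    (hδ1 : (2 * N + 1) * t * del + e ≤ δ) (hδ2 : t ^ 3 * del ≤ δ) :
    Near r K δ (pl w B c) (mdl C) := by
  have h0r : ∀ θ : V N, ((θ, 0) : W N) ∈ tube N r := fun θ => mem_tube_zero hr θ
  have hTA : ∀ θ : V N, TA B c (θ, 0) = (θ, c) := fun θ => by simp [TA]
  have hc1 : ‖c‖ < 1 := lt_of_le_of_lt hc (by norm_num)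
  have hN : (0 : ℝ) ≤ N := Nat.cast_nonneg N
  have hBn : ∀ l, ‖B (ee l)‖ ≤ t := fun l => by
    have h1 := hT (ev' l)
    rw [TT_ev, norm_inr, norm_ev', mul_one] at h1
    exact h1
  have ht4 : t ^ 3 ≤ t ^ 4 := pow_le_pow_right₀ ht (by norm_num)
  have ht2 : t ^ 2 ≤ t ^ 4 := pow_le_pow_right₀ ht (by norm_num)
  have hdd : ∀ θ i, ∀ u v : W N, ‖u‖ = 1 → ‖v‖ = 1 →
      |fderiv ℝ (pl w B c) (θ, 0) (eh i) u v| ≤ δ := by
    intro θ i u v hu hv
    have h1 := tri_le (fderiv ℝ (pl w B c) (θ, 0)) (eh i) u v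
    rw [norm_eh, hu, hv, mul_one, mul_one, mul_one] at h1
    exact (h1.trans (norm_fderiv_pl_le (by linarith) hT hw hd hB (h0r θ))).trans hδ2
  refine ⟨clF_pl hw hB, mdl_alt C, fun p hp => ?_, fun p hp q hq => ?_, fun θ j k => ?_,
    fun θ j l => ?_, fun θ l m => ?_, fun θ i j k => hdd θ i _ _ (norm_eh j) (norm_eh k),
    fun θ i j l => hdd θ i _ _ (norm_eh j) (norm_ev' l)⟩
  · refine (norm_fderiv_pl_le (by linarith) hT hw hd hB hp).trans (le_trans ?_ hK2)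
    exact mul_le_mul_of_nonneg_right ht4 hdel
  · refine (fderiv_pl_lip (by linarith) hdel hT hw hd2 hB hp hq).trans ?_
    exact mul_le_mul_of_nonneg_right hK2 (norm_nonneg _)
  · rw [mdl_hh, sub_zero, pl_apply, TT_eh, TT_eh, hTA]
    have h1 := abs_app_le (w (θ, c) - w (0, 0)) (norm_eh_le j) (norm_eh_le k)
    simp only [_root_.sub_apply] at h1
    have h2 := h1.trans (dist_le hw hd θ hc1)
    have h3 := period_le hw hd (hm j k)
    have h4 : |w (θ, c) (eh j) (eh k)| ≤ del * (2 * N + 1) := by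
      have h5 := abs_add_le (w (θ, c) (eh j) (eh k) - w (0, 0) (eh j) (eh k))
        (w (0, 0) (eh j) (eh k))
      rw [sub_add_cancel] at h5
      linarith
    refine h4.trans (le_trans ?_ hδ1)
    have : del * (2 * N + 1) * 1 ≤ del * (2 * N + 1) * t :=
      mul_le_mul_of_nonneg_left ht (by positivity)
    nlinarith
  · rw [mdl_hv, sub_neg_eq_add, pl_apply, TT_eh, TT_ev, hTA]
    have h1 := bil_le (w (θ, c) - w (0, 0)) (eh j) (0, B (ee l))
    rw [norm_eh, mul_one, norm_inr] at h1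
    simp only [_root_.sub_apply] at h1
    have h2 := dist_le hw hd θ hc1
    have h3 : ‖w (θ, c) - w (0, 0)‖ * ‖B (ee l)‖ ≤ del * (N + 1) * t :=
      mul_le_mul h2 (hBn l) (norm_nonneg _) (by positivity)
    have h4 := hv j l
    have h5 := abs_add_le (w (θ, c) (eh j) (0, B (ee l)) - w (0, 0) (eh j) (0, B (ee l)))
      (w (0, 0) (eh j) (0, B (ee l)) + C j l)
    have h6 : w (θ, c) (eh j) (0, B (ee l)) - w (0, 0) (eh j) (0, B (ee l)) +
      (w (0, 0) (eh j) (0, B (ee l)) + C j l) = w (θ, c) (eh j) (0, B (ee l)) + C j l := by ring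
    rw [h6] at h5
    have h7 : (0 : ℝ) ≤ N * t * del := by positivity
    nlinarith
  · rw [mdl_vv, sub_zero, pl_apply, TT_ev, TT_ev, hTA]
    have h1 := bil_le (w (θ, c)) (0, B (ee l)) (0, B (ee m))
    rw [norm_inr, norm_inr] at h1
    have h2 : ‖w (θ, c)‖ * ‖B (ee l)‖ * ‖B (ee m)‖ ≤ Lam * t * t := by
      have := hn (θ, c) hc1
      have := hBn l
      have := hBn m
      gcongr
    have h3 : Lam * t * t ≤ t ^ 4 * Lam := by
      have : t ^ 2 * Lam ≤ t ^ 4 * Lam := mul_le_mul_of_nonneg_right ht2 hLam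
      nlinarith
    linarith

/-- periods of the translated form -/
theorem mn_pl {w : Fo N} {B : V N →L[ℝ] V N} {c : V N} (hw : ClF 1 w) (hc : ‖c‖ < 1)
    (j k : Fin N) (hm : mn (fun θ => w (θ, 0) (eh j) (eh k)) = 0) :
    mn (fun θ => pl w B c (θ, 0) (eh j) (eh k)) = 0 := by
  have h1 := mn_pb hw (SP.const c) (fun _ => hc) j k
  have hd : ∀ (c : V N) (j : Fin N) (θ : V N), dr j (fun _ : V N => c) θ = 0 := fun c j θ => by
    simp [dr]
  have e1 : pb w (fun _ => c) j k = fun θ => pl w B c (θ, 0) (eh j) (eh k) := by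
    funext θ
    rw [pl_apply, TT_eh, TT_eh]
    simp [pb, hd, TA, eh]
  have e2 : pb w (fun _ => 0) j k = fun θ => w (θ, 0) (eh j) (eh k) := by
    funext θ
    simp [pb, hd, eh]
  rw [e1, e2, hm] at h1
  exact h1

theorem rel_pl {x y : Fo N} {B M : V N →L[ℝ] V N} {c : V N} {p : W N}
    (hBM : ∀ v, B (M v) = v) (hMB : ∀ v, M (B v) = v) (h : Rel x y (TA B c p)) :
    Rel (pl x B c) (pl y B c) p := by
  obtain ⟨I, hI, hx⟩ := h
  have h1 : ∀ u, TT B (TT M u) = u := fun u => by simp [TT_apply, hBM]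
  have h2 : ∀ u, TT M (TT B u) = u := fun u => by simp [TT_apply, hMB]
  refine ⟨fun u => TT M (I (TT B u)), fun u => ?_, fun u w => ?_⟩
  · show TT M (I (TT B (TT M (I (TT B u))))) = -u
    rw [h1, hI, map_neg, h2]
  · rw [pl_apply, pl_apply, h1, hx]

end

end Crest.Agent.R281.Lg_40
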