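import Crest.Agent.R281.Lg4_40

/-!
# R281 / LAGT adapter (helper40), part 5

`R2 → R3 → LagtS1`: the torus theorem for nearly constant forms with centres in a fixed ball.
-/

set_option autoImplicit false
set_option maxSynthPendingDepth 3

open MeasureTheory Set Metric Filter
open scoped ContDiff Topology RealInnerProductSpace

namespace Crest.Agent.R281.Lg_40

open Crest.Agent.R281.Mc673
open Crest.Agent.R238.Sch (ee norm_ee)
open Crest.Agent.R273.SchA_152 (HO)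

noncomputable section

variable {N : ℕ}

/-- covering by a contraction -/
theorem exists_cover {S : V N → V N} {v : V N} (hv : ‖v‖ ≤ 1 / 4)
    (hS : ∀ c, ‖c‖ ≤ 1 / 2 → ‖S c‖ ≤ 1 / 4)
    (hL : ∀ c c', ‖c‖ ≤ 1 / 2 → ‖c'‖ ≤ 1 / 2 → ‖S c - S c'‖ ≤ 1 / 2 * ‖c - c'‖) :
    ∃ c, ‖c‖ ≤ 1 / 2 ∧ c + S c = v := by
  set s : Set (V N) := closedBall 0 (1 / 2) with hs
  have hmem : ∀ c, c ∈ s ↔ ‖c‖ ≤ 1 / 2 := fun c => by rw [hs, mem_closedBall_zero_iff]
  have hmaps : MapsTo (fun c => v - S c) s s := by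
    intro c hc
    rw [hmem] at hc ⊢
    exact (norm_sub_le _ _).trans (by linarith [hS c hc])
  have hcon : ContractingWith (1 / 2) (hmaps.restrict (fun c => v - S c) s s) := by
    refine ⟨by norm_num, LipschitzWith.of_dist_le_mul fun c c' => ?_⟩
    have h1 := hL c.1 c'.1 ((hmem _).1 c.2) ((hmem _).1 c'.2)
    have h2 : dist (hmaps.restrict (fun c => v - S c) s s c)
        (hmaps.restrict (fun c => v - S c) s s c') = ‖S c.1 - S c'.1‖ := by
      rw [Subtype.dist_eq, dist_eq_norm]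
      show ‖v - S c.1 - (v - S c'.1)‖ = _
      rw [sub_sub_sub_cancel_left, norm_sub_rev]
    rw [h2, Subtype.dist_eq, dist_eq_norm]
    simpa using h1
  have hcomp : IsComplete s := isClosed_closedBall.isComplete
  obtain ⟨c, hc, hfix, -⟩ := hcon.exists_fixedPoint' hcomp hmaps
    (x := 0) (by rw [hmem]; simp) (edist_ne_top _ _)
  refine ⟨c, (hmem c).1 hc, ?_⟩
  have h3 : v - S c = c := hfix
  exact (sub_eq_iff_eq_add.1 h3).symm

set_option maxHeartbeats 1600000 in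
theorem lagtS1_of (r2 : R2) (r3 : R3) : LagtS1 := by
  intro N Lam eps hLam heps
  have hN : (0 : ℝ) ≤ N := Nat.cast_nonneg N
  -- constants
  set t : ℝ := 1 + 2 * Lam with htd
  have ht : 1 ≤ t := by linarith
  set r : ℝ := 1 / (4 * (Lam + 1)) with hrd
  have hr : 0 < r := by positivity
  have hrB : 2 * Lam * r < 1 / 2 := by
    rw [hrd, mul_one_div, div_lt_iff₀ (by positivity)]
    nlinarith
  set Λ : ℝ := 2 * Lam ^ 2 + 1 with hΛd
  have hΛ : 0 ≤ Λ := by positivity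
  set K : ℝ := t ^ 4 * (Lam + 1) with hKd
  have hK : 0 ≤ K := by positivity
  obtain ⟨e1, he1, HY⟩ := rigid r2 r3 N (Λ := Λ) hK
  obtain ⟨CH, tg, G⟩ := exists_good N (q := 1 / 4) hΛ hK hr (by norm_num)
  have hCH := G.CH0
  have htg := G.t0
  obtain ⟨ρ, hρ, hρt, hρ1, hρe, hρ4, hρK, hρb⟩ : ∃ ρ > 0, ρ ≤ tg / 4 ∧ ρ ≤ 1 ∧
      2 * Lam * ρ ≤ eps ∧ 2 * Lam * ρ ≤ 1 / 4 ∧ K * (3 * ρ) ≤ e1 / 2 ∧ ρ ≤ e1 := by
    have e1' := ev_small 1 (show 0 < tg / 4 by positivity)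
    have e2 := ev_small 1 (show (0 : ℝ) < 1 by norm_num)
    have e3 := ev_small (2 * Lam) heps
    have e4 := ev_small (2 * Lam) (show (0 : ℝ) < 1 / 4 by norm_num)
    have e5 := ev_small (K * 3) (show 0 < e1 / 2 by positivity)
    have e6 := ev_small 1 he1
    obtain ⟨ρ, ⟨⟨⟨⟨⟨⟨h1, h2⟩, h3⟩, h4⟩, h5⟩, h6⟩, h7⟩⟩ :=
      ((((((e1'.and e2).and e3).and e4).and e5).and e6).and self_mem_nhdsWithin).exists
    exact ⟨ρ, h7, by linarith, by linarith, h3, h4, by linarith, by linarith⟩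
  obtain ⟨δ, hδ, hδt, hδ2, hδC⟩ : ∃ δ > 0, δ ≤ tg ∧ δ ≤ e1 / 2 ∧ CH * δ ≤ ρ / 2 := by
    have e1' := ev_small 1 htg
    have e2 := ev_small 1 (show 0 < e1 / 2 by positivity)
    have e3 := ev_small CH (show 0 < ρ / 2 by positivity)
    obtain ⟨δ, ⟨⟨⟨h1, h2⟩, h3⟩, h4⟩⟩ := (((e1'.and e2).and e3).and self_mem_nhdsWithin).exists
    exact ⟨δ, h4, by linarith, by linarith, h3⟩
  obtain ⟨e0, he0, Hex⟩ := exists_exact N (2 * Lam ^ 2) (min (δ / 2) 1) (by positivity)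
  obtain ⟨del, hdel, hd1, hdA, hdB, hdC, hdD, hdE, hdF⟩ : ∃ del > 0, del ≤ 1 ∧
      Lam * (del * N * N * N) ≤ 1 / 2 ∧ Dc N Lam * (del * N) ≤ e0 ∧
      (2 * N + 1) * t * del ≤ δ / 2 ∧ t ^ 3 * del ≤ δ ∧ 4 * Lam * CH * t ^ 3 * del ≤ eps ∧
      4 * Lam * CH * t ^ 3 * del ≤ 1 / 2 := by
    have e1' := ev_small 1 one_pos
    have e2 := ev_small (Lam * (N * N * N)) (show (0 : ℝ) < 1 / 2 by norm_num)
    have e3 := ev_small (Dc N Lam * N) he0
    have e4 := ev_small ((2 * N + 1) * t) (show 0 < δ / 2 by positivity)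
    have e5 := ev_small (t ^ 3) hδ
    have e6 := ev_small (4 * Lam * CH * t ^ 3) heps
    have e7 := ev_small (4 * Lam * CH * t ^ 3) (show (0 : ℝ) < 1 / 2 by norm_num)
    obtain ⟨d, ⟨⟨⟨⟨⟨⟨⟨h1, h2⟩, h3⟩, h4⟩, h5⟩, h6⟩, h7⟩, h8⟩⟩ :=
      (((((((e1'.and e2).and e3).and e4).and e5).and e6).and e7).and self_mem_nhdsWithin).exists
    exact ⟨d, h8, by linarith, by linarith [h2], by linarith [h3], h4, h5, h6, h7⟩
  refine ⟨del, hdel, fun x y hx hy hb hnd hdd hrel hm => ?_⟩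
  have h00 : ((0, 0) : W N) ∈ tube N 1 := mem_tube_zero one_pos 0
  have hmx : ∀ j k, mn (fun θ => x (θ, 0) (eh j) (eh k)) = 0 := fun j k => (hm j k).1
  have hmy : ∀ j k, mn (fun θ => y (θ, 0) (eh j) (eh k)) = 0 := fun j k => (hm j k).2
  have hpx := fun j k => period_le hx (fun p hp => (hdd p hp).1) (hmx j k)
  have hpy := fun j k => period_le hy (fun p hp => (hdd p hp).2.2.1) (hmy j k)
  have hs0 : 0 ≤ del * N := by positivity
  obtain ⟨B, M, hBM, hMB, hBn, hMn, hXM⟩ := exists_B hLam (hb _ h00).1 (hnd _ h00) hpx hs0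
    (by linarith)
  obtain ⟨I, hI, hIx⟩ := hrel _ h00
  have hsq := C0_sq_le hLam (hb _ h00).1 (hb _ h00).2 (hnd _ h00) (hx.alt _ h00) hpx hpy hs0
    hI hIx hBM hMB hBn hXM
  obtain ⟨C, hCC, hCn⟩ := Hex (C0 (y (0, 0)) B) (abs_C0_le hLam (hb _ h00).2 hBn)
    fun j k => (hsq j k).trans hdB
  have hCL : ∀ j k, |C j k| ≤ Λ := by
    intro j k
    have h1 := (hCn j k).trans (min_le_right _ _)
    have h2 := abs_C0_le hLam (hb _ h00).2 hBn j k
    have h3 := abs_add_le (C j k - C0 (y (0, 0)) B j k) (C0 (y (0, 0)) B j k)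
    rw [sub_add_cancel] at h3
    linarith
  have hT : ∀ u, ‖TT B u‖ ≤ t * ‖u‖ := by
    intro u
    rw [TT_apply]
    refine max_le ?_ ?_
    · have h1 : ‖u.1‖ ≤ ‖u‖ := norm_fst_le u
      have := norm_nonneg u
      show ‖u.1‖ ≤ _
      nlinarith
    · have h1 : ‖u.2‖ ≤ ‖u‖ := norm_snd_le u
      have h2 := hBn u.2
      have := norm_nonneg u
      show ‖B u.2‖ ≤ _
      nlinarith
  have hTA : ∀ c : V N, ‖c‖ ≤ 1 / 2 → ∀ p ∈ tube N r, TA B c p ∈ tube N 1 := by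
    intro c hc p hp
    have hp' : ‖p.2‖ < r := hp
    show ‖c + B p.2‖ < 1
    have h1 := hBn p.2
    have h2 : 2 * Lam * ‖p.2‖ ≤ 2 * Lam * r := by gcongr
    have h3 := norm_add_le c (B p.2)
    linarith
  have hdelt : t ^ 4 * del ≤ K := by
    rw [hKd]; exact mul_le_mul_of_nonneg_left (by linarith) (by positivity)
  have hKL : t ^ 4 * Lam ≤ K := by
    rw [hKd]; exact mul_le_mul_of_nonneg_left (by linarith) (by positivity)
  -- the data at every centre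
  have hD : ∀ c : V N, ‖c‖ ≤ 1 / 2 → Dat r K δ Λ C (pl x B c) (pl y B c) := by
    intro c hc
    have hc1 : ‖c‖ < 1 := lt_of_le_of_lt hc (by norm_num)
    refine ⟨hCC, hCL, ?_, ?_, fun j k => mn_pl hx hc1 j k (hmx j k),
      fun j k => mn_pl hy hc1 j k (hmy j k)⟩
    · refine near_pl (e := 0) (del := del) (Lam := Lam) ht hr hdel.le le_rfl hT hLam.le hx
        (fun p hp => (hb p hp).1) (fun p hp => (hdd p hp).1) (fun p hp => (hdd p hp).2.1) hc
        (hTA c hc) 1 hmx (fun j l => ?_) hKL hdelt (by linarith) hdD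
      have h1 : x (0, 0) (eh j) (0, B (ee l)) = - ⟪(ee j : V N), M (B (ee l))⟫ := hXM _ _
      rw [h1, hMB, inner_ee_ee, Matrix.one_apply]
      simp
    · refine near_pl (e := δ / 2) (del := del) (Lam := Lam) ht hr hdel.le (by positivity) hT
        hLam.le hy (fun p hp => (hb p hp).2) (fun p hp => (hdd p hp).2.2.1)
        (fun p hp => (hdd p hp).2.2.2) hc (hTA c hc) C hmy (fun j l => ?_) hKL hdelt
        (by linarith) hdD
      have h1 : y (0, 0) (eh j) (0, B (ee l)) = - C0 (y (0, 0)) B j l := by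
        rw [C0_apply, neg_neg]
      have h2 := (hCn j l).trans (min_le_left _ _)
      rw [h1, neg_add_eq_sub]
      exact h2
  -- the solutions
  have hsol : ∀ c : V N, ∃ (A : ℕ → V N → V N) (a : V N → V N), ‖c‖ ≤ 1 / 2 →
      Sol C (pl x B c) (pl y B c) tg ρ 0 A a := by
    intro c
    by_cases hc : ‖c‖ ≤ 1 / 2
    · obtain ⟨A, a, h⟩ := exists_sol' G (by norm_num) hδ.le hδt hρ hρt hδC (hD c hc)
        (c := 0) (by simpa using hρ.le)
      exact ⟨A, a, fun _ => h⟩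
    · exact ⟨fun _ => 0, 0, fun h => absurd h hc⟩
  choose A S hS using hsol
  have hSn : ∀ c, ‖c‖ ≤ 1 / 2 → ∀ θ, ‖S c θ‖ ≤ ρ := fun c hc θ => by
    simpa using (hS c hc).ho0.bdd θ (mem_univ θ)
  have hSd : ∀ c, ‖c‖ ≤ 1 / 2 → ∀ θ, ‖fderiv ℝ (S c) θ‖ ≤ ρ := fun c hc θ =>
    (hS c hc).ho1.bdd θ (mem_univ θ)
  have hSr : ∀ c, ‖c‖ ≤ 1 / 2 → ∀ θ, ‖S c θ‖ < r := fun c hc θ =>
    lt_of_le_of_lt (hSn c hc θ) (by linarith [G.tr])
  have hpair : ∀ c c' : V N, ‖c‖ ≤ 1 / 2 → ‖c'‖ ≤ 1 / 2 → ∀ θ,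
      ‖S c θ - S c' θ‖ ≤ 2 * (CH * (t ^ 3 * del * ‖c - c'‖)) ∧
      ‖fderiv ℝ (S c) θ - fderiv ℝ (S c') θ‖ ≤ 2 * (CH * (t ^ 3 * del * ‖c - c'‖)) := by
    intro c c' hc hc' θ
    have hκ : 0 ≤ t ^ 3 * del * ‖c - c'‖ := by positivity
    have h1 := sol_pair G (by norm_num) (by norm_num) ((hD c hc).mono hδt) ((hD c' hc').mono hδt) hκ
      (close_pl ht hdel.le hT hx (fun p hp => (hdd p hp).1) (fun p hp => (hdd p hp).2.1)
        (hTA c hc) (hTA c' hc'))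
      (close_pl ht hdel.le hT hy (fun p hp => (hdd p hp).2.2.1) (fun p hp => (hdd p hp).2.2.2)
        (hTA c hc) (hTA c' hc')) (hS c hc) (hS c' hc')
    have h2 := h1.1.bdd θ (mem_univ θ)
    have h3 := h1.2.bdd θ (mem_univ θ)
    simp only [sub_self, sub_zero, norm_zero, mul_zero, zero_add] at h2 h3
    exact ⟨h2, h3⟩
  have hlipc : ∀ c c' : V N, 2 * Lam * (2 * (CH * (t ^ 3 * del * ‖c - c'‖))) =
      4 * Lam * CH * t ^ 3 * del * ‖c - c'‖ := fun c c' => by ring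
  have hBS : ∀ v, ‖B v‖ ≤ 2 * Lam * ‖v‖ := hBn
  have hfd : ∀ c, ‖c‖ ≤ 1 / 2 → ∀ θ,
      fderiv ℝ (fun θ => c + B (S c θ)) θ = B.comp (fderiv ℝ (S c) θ) := by
    intro c hc θ
    have h1 : HasFDerivAt (fun θ => c + B (S c θ)) (B.comp (fderiv ℝ (S c) θ)) θ :=
      (B.hasFDerivAt.comp θ ((hS c hc).df θ).hasFDerivAt).const_add c
    exact h1.fderiv
  have hcomp : ∀ (T : V N →L[ℝ] V N) (b : ℝ), ‖T‖ ≤ b → ‖B.comp T‖ ≤ 2 * Lam * b := by
    intro T b hT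
    have hb0 : 0 ≤ b := (norm_nonneg _).trans hT
    refine ContinuousLinearMap.opNorm_le_bound _ (by positivity) fun v => ?_
    have h1 := hBn (T v)
    have h2 := T.le_opNorm v
    have h3 : ‖T‖ * ‖v‖ ≤ b * ‖v‖ := by gcongr
    calc ‖B (T v)‖ ≤ 2 * Lam * ‖T v‖ := h1
      _ ≤ 2 * Lam * (b * ‖v‖) := by gcongr; linarith
      _ = 2 * Lam * b * ‖v‖ := by ring
  have hz : ∀ (w : Fo N), ∀ c, ‖c‖ ≤ 1 / 2 → (∀ j k θ, pb (pl w B c) (S c) j k θ = 0) →
      ∀ θ u v, w (θ, c + B (S c θ)) (u, fderiv ℝ (fun θ => c + B (S c θ)) θ u)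
        (v, fderiv ℝ (fun θ => c + B (S c θ)) θ v) = 0 := by
    intro w c hc h θ u v
    have h1 := graph_zero (fun j k => h j k θ) u v
    rw [hfd c hc]
    exact h1
  have hnear : ∀ c, ‖c‖ ≤ 1 / 2 → ∀ θ, ‖B (S c θ)‖ ≤ 2 * Lam * ρ := by
    intro c hc θ
    refine (hBn (S c θ)).trans ?_
    have := hSn c hc θ
    gcongr
  refine ⟨fun c θ => c + B (S c θ), ?_, ?_, ?_, ?_, ?_, ?_, ?_, ?_, ?_, ?_⟩
  · intro c hc
    exact contDiff_const.add (B.contDiff.comp (hS c hc).contDiff)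
  · intro c hc k θ
    show c + B (S c (θ + kv k)) = c + B (S c θ)
    rw [(hS c hc).per k θ]
  · intro c hc θ
    show ‖c + B (S c θ)‖ < 1
    have h1 := norm_add_le c (B (S c θ))
    have h2 := hnear c hc θ
    linarith
  · intro c hc θ
    show ‖c + B (S c θ) - c‖ ≤ eps
    rw [add_sub_cancel_left]
    exact (hnear c hc θ).trans hρe
  · intro c hc θ
    rw [hfd c hc]
    exact (hcomp _ ρ (hSd c hc θ)).trans hρe
  · intro c hc
    exact hz x c hc fun j k θ => (hS c hc).eqx0 (hD c hc) (hSr c hc) j k θ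
  · intro c hc
    exact hz y c hc (HY r δ tg ρ C _ _ (hD c hc)
      (fun p hp => rel_pl hBM hMB (hrel _ (hTA c hc p hp))) hδ.le G.t1 G.tr hρ
      (by linarith [G.tr]) (by linarith) hρb hρ1 0 (by simpa using hρ.le) (A c) (S c) (hS c hc))
  · intro c c' hc hc' θ
    show ‖c + B (S c θ) - (c' + B (S c' θ)) - (c - c')‖ ≤ _
    have e : c + B (S c θ) - (c' + B (S c' θ)) - (c - c') = B (S c θ - S c' θ) := by
      rw [map_sub]; abel
    rw [e]
    have h1 := hBn (S c θ - S c' θ)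
    have h2 : 2 * Lam * ‖S c θ - S c' θ‖ ≤
        2 * Lam * (2 * (CH * (t ^ 3 * del * ‖c - c'‖))) := by
      have := (hpair c c' hc hc' θ).1
      gcongr
    rw [hlipc] at h2
    have h3 : 4 * Lam * CH * t ^ 3 * del * ‖c - c'‖ ≤ eps * ‖c - c'‖ := by gcongr
    linarith
  · intro c c' hc hc' θ
    rw [hfd c hc, hfd c' hc', ← ContinuousLinearMap.comp_sub]
    have h2 := hcomp _ _ (hpair c c' hc hc' θ).2
    rw [hlipc] at h2
    have h3 : 4 * Lam * CH * t ^ 3 * del * ‖c - c'‖ ≤ eps * ‖c - c'‖ := by gcongr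
    linarith
  · intro θ v hv
    refine exists_cover (S := fun c => B (S c θ)) (by linarith)
      (fun c hc => (hnear c hc θ).trans hρ4) fun c c' hc hc' => ?_
    · rw [← map_sub]
      have h1 := hBn (S c θ - S c' θ)
      have h2 : 2 * Lam * ‖S c θ - S c' θ‖ ≤
          2 * Lam * (2 * (CH * (t ^ 3 * del * ‖c - c'‖))) := by
        have := (hpair c c' hc hc' θ).1
        gcongr
      rw [hlipc] at h2
      have h3 : 4 * Lam * CH * t ^ 3 * del * ‖c - c'‖ ≤ 1 / 2 * ‖c - c'‖ := by gcongr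
      linarith

end

end Crest.Agent.R281.Lg_40
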