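import Crest.Agent.R281.HkR2_835

/-!
# R281 (S0424), EHR3 (helper461), part 1: points below a smooth map into a family of members

`EFam C H O` : jointly smooth family, parameters in the open set `O`, of homogeneous coordinates of
injective immersions of the real manifold `(X, C)` into the projective space of `H`.
`Below F c w x` : the point `x` of `X` lies below the vector `w` of the cone of the member `c`.
`lift` : if `θ` is smooth at `q1`, with values in the cones of the members `κ q`, then the point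
`pt q` below `θ q` is continuous at `q1` and smooth in the charts.
-/

set_option autoImplicit false
set_option linter.unusedSectionVars false

open Set Filter Topology
open scoped ContDiff

namespace Crest.Agent.R281.Lift_461

open Crest.Agent.R281.HkR_835

noncomputable section

variable {V X H E Q : Type} [NormedAddCommGroup V] [NormedSpace ℝ V] [TopologicalSpace X]
  [NormedAddCommGroup H] [NormedSpace ℂ H]
  [NormedAddCommGroup E] [NormedSpace ℝ E]
  [NormedAddCommGroup Q] [NormedSpace ℝ Q]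

/-- smooth family of embedded members -/
structure EFam (C : RCh V X) (H : Type) [NormedAddCommGroup H] [NormedSpace ℂ H] (O : Set E) where
  U : C.ι → E → V → H
  sm : ∀ i, ContDiffOn ℝ ∞ (fun p : E × V => U i p.1 p.2) (O ×ˢ (C.e i).target)
  ne : ∀ i, ∀ c ∈ O, ∀ z ∈ (C.e i).target, U i c z ≠ 0
  tr : ∀ i j, ∀ z ∈ C.ov i j, ∀ c ∈ O, ∃ a : ℂ, U i c z = a • U j c (C.t i j z)
  inj : ∀ i j, ∀ c ∈ O, ∀ z ∈ (C.e i).target, ∀ z' ∈ (C.e j).target,
    (∃ a : ℂ, U i c z = a • U j c z') → (C.e i).symm z = (C.e j).symm z'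
  imm : ∀ i, ∀ c ∈ O, ∀ z ∈ (C.e i).target, ∀ v : V,
    (∃ a : ℂ, fderiv ℝ (U i c) z v = a • U i c z) → v = 0

variable {C : RCh V X} {O : Set E}

namespace EFam

variable (F : EFam C H O)

/-- `x` lies below `w` for the member `c` -/
def Below (c : E) (w : H) (x : X) : Prop :=
  ∃ i, x ∈ (C.e i).source ∧ ∃ a : ℂ, a ≠ 0 ∧ w = a • F.U i c (C.e i x)

theorem below_chart {c : E} (hc : c ∈ O) {w : H} {x : X} (h : F.Below c w x) {j : C.ι}
    (hx : x ∈ (C.e j).source) : ∃ a : ℂ, a ≠ 0 ∧ w = a • F.U j c (C.e j x) := by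
  obtain ⟨i, hi, a, ha, rfl⟩ := h
  have hz : C.e i x ∈ C.ov i j := ⟨(C.e i).map_source hi, by rwa [(C.e i).left_inv hi]⟩
  obtain ⟨b, hb⟩ := F.tr i j _ hz c hc
  have h1 : C.t i j (C.e i x) = C.e j x := by
    show C.e j ((C.e i).symm (C.e i x)) = C.e j x
    rw [(C.e i).left_inv hi]
  rw [h1] at hb
  have hb0 : b ≠ 0 := by
    rintro rfl
    rw [zero_smul] at hb
    exact F.ne i c hc _ hz.1 hb
  exact ⟨a * b, mul_ne_zero ha hb0, by rw [hb, smul_smul]⟩

theorem Below.ne_zero {F : EFam C H O} {c : E} (hc : c ∈ O) {w : H} {x : X} (h : F.Below c w x) :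
    w ≠ 0 := by
  obtain ⟨i, hi, a, ha, rfl⟩ := h
  exact smul_ne_zero ha (F.ne i c hc _ ((C.e i).map_source hi))

theorem below_unique {c : E} (hc : c ∈ O) {w : H} {x x' : X} (h : F.Below c w x)
    (h' : F.Below c w x') : x = x' := by
  obtain ⟨i, hi, a, ha, h1⟩ := h
  obtain ⟨j, hj, b, hb, h2⟩ := h'
  have h3 := F.inj i j c hc _ ((C.e i).map_source hi) _ ((C.e j).map_source hj) ⟨a⁻¹ * b, by
    rw [mul_smul, ← h2, h1, smul_smul, inv_mul_cancel₀ ha, one_smul]⟩
  rwa [(C.e i).left_inv hi, (C.e j).left_inv hj] at h3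

theorem Below.smul {F : EFam C H O} {c : E} {w : H} {x : X} (h : F.Below c w x) {b : ℂ}
    (hb : b ≠ 0) : F.Below c (b • w) x := by
  obtain ⟨i, hi, a, ha, rfl⟩ := h
  exact ⟨i, hi, b * a, mul_ne_zero hb ha, by rw [smul_smul]⟩

theorem below_self {i : C.ι} {c : E} {z : V} (hz : z ∈ (C.e i).target) :
    F.Below c (F.U i c z) ((C.e i).symm z) :=
  ⟨i, (C.e i).map_target hz, 1, one_ne_zero, by rw [one_smul, (C.e i).right_inv hz]⟩

theorem continuousAt_U (hO : IsOpen O) {i : C.ι} {c : E} (hc : c ∈ O) {z : V}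
    (hz : z ∈ (C.e i).target) : ContDiffAt ℝ ∞ (fun p : E × V => F.U i p.1 p.2) (c, z) :=
  (F.sm i).contDiffAt ((hO.prod (C.e i).open_target).mem_nhds ⟨hc, hz⟩)

/-- the point below is continuous -/
theorem tendsto_pt [CompactSpace X] [T2Space X] (hO : IsOpen O) {κ : Q → E}
    {θ : Q → H} {pt : Q → X} {q1 : Q} (hκ : ContinuousAt κ q1) (hθ : ContinuousAt θ q1)
    (hq1 : κ q1 ∈ O) (hb : ∀ᶠ q in 𝓝 q1, F.Below (κ q) (θ q) (pt q)) :
    Tendsto pt (𝓝 q1) (𝓝 (pt q1)) := by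
  have hb1 : F.Below (κ q1) (θ q1) (pt q1) := hb.self_of_nhds
  rw [tendsto_nhds]
  intro N hN hx1
  have hK : IsCompact Nᶜ := hN.isClosed_compl.isCompact
  have key : ∀ᶠ q in 𝓝 q1, ∀ x ∈ Nᶜ, ¬ F.Below (κ q) (θ q) x := by
    refine hK.eventually_forall_of_forall_eventually ?_
    intro x2 hx2
    obtain ⟨j, hj⟩ := C.cover x2
    have hz2 := (C.e j).map_source hj
    set f : Q × X → (Fin 2 → H) := fun z => ![θ z.1, F.U j (κ z.1) (C.e j z.2)] with hf
    have hfc : ContinuousAt f (q1, x2) := by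
      rw [continuousAt_pi]
      intro k
      have h1 : ContinuousAt (fun z : Q × X => θ z.1) (q1, x2) :=
        ContinuousAt.comp (g := θ) (f := fun z : Q × X => z.1) hθ continuousAt_fst
      have h2 : ContinuousAt (fun z : Q × X => F.U j (κ z.1) (C.e j z.2)) (q1, x2) := by
        have h3 : ContinuousAt (fun z : Q × X => (κ z.1, C.e j z.2)) (q1, x2) := by
          refine ContinuousAt.prodMk ?_ ?_
          · exact ContinuousAt.comp (g := κ) (f := fun z : Q × X => z.1) hκ continuousAt_fst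
          · exact ContinuousAt.comp (g := C.e j) (f := fun z : Q × X => z.2)
              ((C.e j).continuousAt hj) continuousAt_snd
        exact ContinuousAt.comp (g := fun p : E × V => F.U j p.1 p.2)
          (f := fun z : Q × X => (κ z.1, C.e j z.2)) (F.continuousAt_U hO hq1 hz2).continuousAt h3
      fin_cases k
      · exact h1
      · exact h2
    have hli : LinearIndependent ℂ (f (q1, x2)) := by
      rw [LinearIndependent.pair_iff]
      intro s t hst
      by_contra hcon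
      have hθ0 : θ q1 ≠ 0 := hb1.ne_zero hq1
      have hU0 : F.U j (κ q1) (C.e j x2) ≠ 0 := F.ne j _ hq1 _ hz2
      have hs : s ≠ 0 := by
        rintro rfl
        rw [zero_smul, zero_add, smul_eq_zero] at hst
        exact hcon ⟨rfl, hst.resolve_right hU0⟩
      have ht : t ≠ 0 := by
        rintro rfl
        rw [zero_smul, add_zero, smul_eq_zero] at hst
        exact hs (hst.resolve_right hθ0)
      have h1 : θ q1 = (-(s⁻¹ * t)) • F.U j (κ q1) (C.e j x2) := by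
        have h2 : s • θ q1 = -(t • F.U j (κ q1) (C.e j x2)) := eq_neg_of_add_eq_zero_left hst
        have h3 := congrArg (fun w => s⁻¹ • w) h2
        simp only [smul_smul, inv_mul_cancel₀ hs, one_smul, smul_neg] at h3
        rw [h3, neg_smul]
      have h2 : F.Below (κ q1) (θ q1) x2 :=
        ⟨j, hj, _, neg_ne_zero.2 (mul_ne_zero (inv_ne_zero hs) ht), h1⟩
      exact hx2 (F.below_unique hq1 h2 hb1 ▸ hx1)
    have h3 : ∀ᶠ z in 𝓝 (q1, x2), LinearIndependent ℂ (f z) := hfc hli.eventually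
    have h4 : ∀ᶠ z : Q × X in 𝓝 (q1, x2), z.2 ∈ (C.e j).source :=
      continuousAt_snd.eventually ((C.e j).open_source.mem_nhds hj)
    have h5 : ∀ᶠ z : Q × X in 𝓝 (q1, x2), κ z.1 ∈ O :=
      (ContinuousAt.comp (g := κ) (f := fun z : Q × X => z.1) hκ continuousAt_fst).eventually
        (hO.mem_nhds hq1)
    filter_upwards [h3, h4, h5] with z g1 g2 g3 g4
    obtain ⟨a, ha, g5⟩ := F.below_chart g3 g4 g2
    rw [LinearIndependent.pair_iff] at g1
    have := (g1 1 (-a) (by rw [g5]; simp)).1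
    exact one_ne_zero this
  filter_upwards [key, hb] with q h1 h2
  by_contra h3
  exact h1 _ h3 h2

end EFam

/-! ### inverse function theorem with a parameter -/

theorem exists_param_inverse {Y : Type*} [NormedAddCommGroup Y] [NormedSpace ℝ Y]
    [CompleteSpace E] [CompleteSpace Y] {G : E × Y → Y} {c1 : E} {y1 : Y} {n : WithTop ℕ∞}
    (hn : n ≠ 0) (hG : ContDiffAt ℝ n G (c1, y1))
    (hD : HasFDerivAt (fun y => G (c1, y)) (ContinuousLinearMap.id ℝ Y) y1) :
    ∃ K : E × Y → Y, ContDiffAt ℝ n K (c1, G (c1, y1)) ∧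
      ∀ᶠ q in 𝓝 (c1, y1), K (q.1, G q) = q.2 := by
  set Hm : E × Y → E × Y := fun q => (q.1, G q) with hH
  have hHc : ContDiffAt ℝ n Hm (c1, y1) := contDiffAt_fst.prodMk hG
  set D : E × Y →L[ℝ] Y := fderiv ℝ G (c1, y1) with hDD
  have hGd : HasFDerivAt G D (c1, y1) := (hG.differentiableAt hn).hasFDerivAt
  have hDr : D ∘L .inr ℝ E Y = .id ℝ Y := by
    have h1 : HasFDerivAt (fun u : Y => G (c1, u)) (D ∘L .inr ℝ E Y) y1 :=
      HasFDerivAt.comp (f := fun u : Y => (c1, u)) y1 hGd (hasFDerivAt_prodMk_right _ _)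
    exact h1.unique hD
  have hDv : ∀ (a : E) (b : Y), D (a, b) = D (a, 0) + b := by
    intro a b
    have h1 : ((a, b) : E × Y) = (a, 0) + (0, b) := by simp
    have h2 : D (0, b) = b := by
      have := congrArg (fun f : Y →L[ℝ] Y => f b) hDr
      simpa using this
    rw [h1, map_add, h2]
  let L : (E × Y) ≃L[ℝ] (E × Y) := ContinuousLinearEquiv.equivOfInverse
    ((ContinuousLinearMap.fst ℝ E Y).prod D)
    ((ContinuousLinearMap.fst ℝ E Y).prod (ContinuousLinearMap.snd ℝ E Y -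
      D ∘L (ContinuousLinearMap.inl ℝ E Y) ∘L (ContinuousLinearMap.fst ℝ E Y)))
    (fun q => by
      obtain ⟨a, b⟩ := q
      simp [hDv a b])
    (fun q => by
      obtain ⟨a, b⟩ := q
      simp [hDv a (b - D (a, 0))])
  have hHd : HasFDerivAt Hm (L : (E × Y) →L[ℝ] (E × Y)) (c1, y1) := by
    have : HasFDerivAt Hm ((ContinuousLinearMap.fst ℝ E Y).prod D) (c1, y1) :=
      hasFDerivAt_fst.prodMk hGd
    exact this
  have hHs : HasStrictFDerivAt Hm (L : (E × Y) →L[ℝ] (E × Y)) (c1, y1) :=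
    hHc.hasStrictFDerivAt' hHd hn
  set K : E × Y → E × Y := hHs.localInverse Hm L (c1, y1) with hK
  have hK1 : ∀ᶠ q in 𝓝 (c1, y1), K (Hm q) = q := hHs.eventually_left_inverse
  have hKc : ContDiffAt ℝ n K (c1, G (c1, y1)) := ContDiffAt.to_localInverse hHc hHd hn
  refine ⟨fun q => (K q).2, ?_, ?_⟩
  · exact ContDiffAt.comp (g := fun q : E × Y => q.2) (c1, G (c1, y1)) contDiffAt_snd hKc
  · filter_upwards [hK1] with q h3
    exact congrArg Prod.snd h3

namespace EFam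

variable (F : EFam C H O)

/-- **the point below is smooth** -/
theorem lift [CompactSpace X] [T2Space X] [FiniteDimensional ℝ V] [FiniteDimensional ℂ H]
    [CompleteSpace E] (hO : IsOpen O) {n : WithTop ℕ∞} (hn : n ≠ 0) (hn' : n ≤ ∞) {κ : Q → E}
    {θ : Q → H} {pt : Q → X} {q1 : Q} (hκ : ContDiffAt ℝ n κ q1) (hθ : ContDiffAt ℝ n θ q1)
    (hq1 : κ q1 ∈ O) (hb : ∀ᶠ q in 𝓝 q1, F.Below (κ q) (θ q) (pt q)) {j : C.ι}
    (hj : pt q1 ∈ (C.e j).source) :
    ContDiffAt ℝ n (fun q => C.e j (pt q)) q1 ∧ ∃ a : Q → ℂ, ContDiffAt ℝ n a q1 ∧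
      ∀ᶠ q in 𝓝 q1, a q ≠ 0 ∧ θ q = a q • F.U j (κ q) (C.e j (pt q)) := by
  have hVc : CompleteSpace V := FiniteDimensional.complete ℝ V
  have hHf : FiniteDimensional ℝ H := FiniteDimensional.complexToReal H
  have hpt := F.tendsto_pt hO hκ.continuousAt hθ.continuousAt hq1 hb
  have hb1 : F.Below (κ q1) (θ q1) (pt q1) := hb.self_of_nhds
  obtain ⟨a1, ha1, hθ1⟩ := F.below_chart hq1 hb1 hj
  set z1 : V := C.e j (pt q1) with hz1
  have hz1t : z1 ∈ (C.e j).target := (C.e j).map_source hj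
  set c1 : E := κ q1 with hc1
  have hU : ContDiffAt ℝ ∞ (fun p : E × V => F.U j p.1 p.2) (c1, z1) :=
    F.continuousAt_U hO hq1 hz1t
  have hUz : HasFDerivAt (F.U j c1) (fderiv ℝ (F.U j c1) z1) z1 := by
    have h1 : ContDiffAt ℝ ∞ (fun y : V => (c1, y)) z1 := by fun_prop
    exact ((hU.comp (f := fun y : V => (c1, y)) z1 h1).differentiableAt (by simp)).hasFDerivAt
  set T : V × ℂ →L[ℝ] H := a1 • (fderiv ℝ (F.U j c1) z1 ∘L .fst ℝ V ℂ) +
    (ContinuousLinearMap.snd ℝ V ℂ).smulRight (F.U j c1 z1) with hT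
  have hTd : HasFDerivAt (fun p : V × ℂ => p.2 • F.U j c1 p.1) T (z1, a1) := by
    have h1 : HasFDerivAt (fun p : V × ℂ => F.U j c1 p.1)
        (fderiv ℝ (F.U j c1) z1 ∘L .fst ℝ V ℂ) (z1, a1) :=
      HasFDerivAt.comp (g := F.U j c1) (f := fun p : V × ℂ => p.1) (z1, a1) hUz hasFDerivAt_fst
    exact HasFDerivAt.smul (𝕜 := ℝ) (𝕜' := ℂ) hasFDerivAt_snd h1
  have hTi : LinearMap.ker (T : V × ℂ →ₗ[ℝ] H) = ⊥ := by
    rw [LinearMap.ker_eq_bot']
    rintro ⟨v, b⟩ hv
    have h1 : a1 • fderiv ℝ (F.U j c1) z1 v + b • F.U j c1 z1 = 0 := by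
      have h2 : T (v, b) = 0 := hv
      simpa [hT] using h2
    have h2 : v = 0 := F.imm j c1 hq1 z1 hz1t v ⟨-(a1⁻¹ * b), by
      have h3 := congrArg (fun w => a1⁻¹ • w) (eq_neg_of_add_eq_zero_left h1)
      simp only [smul_smul, inv_mul_cancel₀ ha1, one_smul, smul_neg] at h3
      rw [h3, neg_smul]⟩
    subst h2
    rw [map_zero, smul_zero, zero_add] at h1
    have h3 : b = 0 := (smul_eq_zero.mp h1).resolve_right (F.ne j c1 hq1 z1 hz1t)
    rw [h3]
    rfl
  obtain ⟨L0, hL0⟩ := (T : V × ℂ →ₗ[ℝ] H).exists_leftInverse_of_injective hTi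
  set L : H →L[ℝ] V × ℂ := LinearMap.toContinuousLinearMap L0 with hL
  have hLT : ∀ p, L (T p) = p := fun p => by
    have := congrArg (fun f : V × ℂ →ₗ[ℝ] V × ℂ => f p) hL0
    simpa [hL] using this
  set G : E × (V × ℂ) → V × ℂ := fun q => L (q.2.2 • F.U j q.1 q.2.1) with hG
  have hGc : ContDiffAt ℝ n G (c1, (z1, a1)) := by
    have h1 : ContDiffAt ℝ ∞ (fun q : E × (V × ℂ) => F.U j q.1 q.2.1) (c1, (z1, a1)) := by
      have h2 : ContDiffAt ℝ ∞ (fun q : E × (V × ℂ) => (q.1, q.2.1)) (c1, (z1, a1)) := by fun_prop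
      exact ContDiffAt.comp (g := fun p : E × V => F.U j p.1 p.2)
        (f := fun q : E × (V × ℂ) => (q.1, q.2.1)) (c1, (z1, a1)) hU h2
    have h2 : ContDiffAt ℝ ∞ (fun q : E × (V × ℂ) => q.2.2) (c1, (z1, a1)) := by fun_prop
    have h3 : ContDiffAt ℝ ∞ (fun q : E × (V × ℂ) => q.2.2 • F.U j q.1 q.2.1) (c1, (z1, a1)) :=
      h2.smul h1
    exact (L.contDiff.contDiffAt.comp (c1, (z1, a1)) h3).of_le hn'
  have hGd : HasFDerivAt (fun y => G (c1, y)) (ContinuousLinearMap.id ℝ (V × ℂ)) (z1, a1) := by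
    have h1 := L.hasFDerivAt.comp (z1, a1) hTd
    have h2 : L ∘L T = ContinuousLinearMap.id ℝ (V × ℂ) := by
      ext p <;> simp [hLT]
    rw [h2] at h1
    exact h1
  obtain ⟨K, hKc, hK⟩ := exists_param_inverse hn hGc hGd
  have hG1 : G (c1, (z1, a1)) = L (θ q1) := by
    show L (a1 • F.U j c1 z1) = L (θ q1)
    rw [hθ1]
  rw [hG1] at hKc
  -- the functional which computes the factor
  obtain ⟨ℓ, hℓ⟩ := SeparatingDual.exists_eq_one (R := ℂ) (F.ne j c1 hq1 z1 hz1t)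
  have hsrc : ∀ᶠ q in 𝓝 q1, pt q ∈ (C.e j).source := hpt ((C.e j).open_source.mem_nhds hj)
  have hκO : ∀ᶠ q in 𝓝 q1, κ q ∈ O := hκ.continuousAt.eventually (hO.mem_nhds hq1)
  have hz : Tendsto (fun q => C.e j (pt q)) (𝓝 q1) (𝓝 z1) :=
    ((C.e j).continuousAt hj).tendsto.comp hpt
  have hUt : Tendsto (fun q => F.U j (κ q) (C.e j (pt q))) (𝓝 q1) (𝓝 (F.U j c1 z1)) := by
    have h1 : Tendsto (fun q => (κ q, C.e j (pt q))) (𝓝 q1) (𝓝 (c1, z1)) :=
      hκ.continuousAt.tendsto.prodMk_nhds hz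
    exact hU.continuousAt.tendsto.comp h1
  have hℓt : Tendsto (fun q => ℓ (F.U j (κ q) (C.e j (pt q)))) (𝓝 q1) (𝓝 1) := by
    have := (ℓ.continuous.continuousAt (x := F.U j c1 z1)).tendsto.comp hUt
    rwa [hℓ] at this
  have hℓ0 : ∀ᶠ q in 𝓝 q1, ℓ (F.U j (κ q) (C.e j (pt q))) ≠ 0 := hℓt.eventually_ne one_ne_zero
  set a' : Q → ℂ := fun q => ℓ (θ q) / ℓ (F.U j (κ q) (C.e j (pt q))) with ha'
  have ha't : Tendsto a' (𝓝 q1) (𝓝 a1) := by
    have h1 : Tendsto (fun q => ℓ (θ q)) (𝓝 q1) (𝓝 (ℓ (θ q1))) :=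
      (ℓ.continuous.continuousAt.comp hθ.continuousAt).tendsto
    have h2 := h1.div hℓt one_ne_zero
    have h3 : ℓ (θ q1) / 1 = a1 := by rw [hθ1, map_smul, hℓ]; simp
    rwa [h3] at h2
  have hrel : ∀ᶠ q in 𝓝 q1, a' q ≠ 0 ∧ θ q = a' q • F.U j (κ q) (C.e j (pt q)) := by
    filter_upwards [hb, hsrc, hκO, hℓ0] with q h1 h2 h3 h4
    obtain ⟨a, ha, h5⟩ := F.below_chart h3 h1 h2
    have h6 : a' q = a := by
      show ℓ (θ q) / _ = a
      rw [h5, map_smul, smul_eq_mul, mul_div_assoc, div_self h4, mul_one]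
    rw [h6]
    exact ⟨ha, h5⟩
  have hfin : ∀ᶠ q in 𝓝 q1, K (κ q, L (θ q)) = (C.e j (pt q), a' q) := by
    have h1 : Tendsto (fun q => (κ q, (C.e j (pt q), a' q))) (𝓝 q1) (𝓝 (c1, (z1, a1))) :=
      hκ.continuousAt.tendsto.prodMk_nhds (hz.prodMk_nhds ha't)
    filter_upwards [h1 hK, hrel] with q h2 h3
    have h4 : G (κ q, (C.e j (pt q), a' q)) = L (θ q) := by
      show L (a' q • F.U j (κ q) (C.e j (pt q))) = L (θ q)
      rw [← h3.2]
    have h5 : K (κ q, G (κ q, (C.e j (pt q), a' q))) = (C.e j (pt q), a' q) := h2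
    rwa [h4] at h5
  have hm : ContDiffAt ℝ n (fun q => K (κ q, L (θ q))) q1 := by
    have h1 : ContDiffAt ℝ n (fun q => (κ q, L (θ q))) q1 :=
      hκ.prodMk (L.contDiff.contDiffAt.comp q1 hθ)
    exact ContDiffAt.comp (g := K) (f := fun q => (κ q, L (θ q))) q1 hKc h1
  refine ⟨?_, a', ?_, hrel⟩
  · have h1 : ContDiffAt ℝ n (fun q => (K (κ q, L (θ q))).1) q1 := hm.fst
    refine h1.congr_of_eventuallyEq ?_
    filter_upwards [hfin] with q hq
    rw [hq]
  · have h1 : ContDiffAt ℝ n (fun q => (K (κ q, L (θ q))).2) q1 := hm.snd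
    refine h1.congr_of_eventuallyEq ?_
    filter_upwards [hfin] with q hq
    rw [hq]

end EFam

end

end Crest.Agent.R281.Lift_461
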