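import Crest.Agent.R281.Lift1_461

/-!
# R281 (S0424), EHR3 (helper461), part 3: members with LOCAL lifts

`LFam C H O` : jointly smooth family, parameters in the open set `O`, of injective immersions of the
real manifold `(X, C)` into the projective space of `H`; `L c x` is any vector of the line over `x`,
smooth lifts exist locally.  Stable under diffeomorphisms of `X`.
`Below F c w x` : the point `x` of `X` lies below the vector `w` of the cone of the member `c`.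
`lift` : if `θ` is smooth at `q1`, with values in the cones of the members `κ q`, then the point
`pt q` below `θ q` is continuous at `q1` and smooth in the charts.
-/

set_option autoImplicit false
set_option linter.unusedSectionVars false

open Set Filter Topology
open scoped ContDiff

namespace Crest.Agent.R281.LF_461

open Crest.Agent.R281.HkR_835 Crest.Agent.R281.Lift_461

noncomputable section

variable {V X H E Q : Type} [NormedAddCommGroup V] [NormedSpace ℝ V] [TopologicalSpace X]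
  [NormedAddCommGroup H] [NormedSpace ℂ H]
  [NormedAddCommGroup E] [NormedSpace ℝ E]
  [NormedAddCommGroup Q] [NormedSpace ℝ Q]

/-- smooth family of injective immersions into a projective space, with local lifts -/
structure LFam (C : RCh V X) (H : Type) [NormedAddCommGroup H] [NormedSpace ℂ H] (O : Set E) where
  L : E → X → H
  ne : ∀ c ∈ O, ∀ x, L c x ≠ 0
  inj : ∀ c ∈ O, ∀ x x', (∃ a : ℂ, L c x = a • L c x') → x = x'
  loc : ∀ c1 ∈ O, ∀ i, ∀ z1 ∈ (C.e i).target, ∃ U : E × V → H, ContDiffAt ℝ ∞ U (c1, z1) ∧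
    (∀ᶠ p in 𝓝 (c1, z1), ∃ a : ℂ, a ≠ 0 ∧ U p = a • L p.1 ((C.e i).symm p.2)) ∧
    ∀ v : V, (∃ a : ℂ, fderiv ℝ (fun z => U (c1, z)) z1 v = a • U (c1, z1)) → v = 0

variable {C : RCh V X} {O : Set E}

namespace LFam

variable (F : LFam C H O)

/-- `x` lies below `w` for the member `c` -/
def Below (c : E) (w : H) (x : X) : Prop := ∃ a : ℂ, a ≠ 0 ∧ w = a • F.L c x

theorem Below.ne_zero {F : LFam C H O} {c : E} (hc : c ∈ O) {w : H} {x : X} (h : F.Below c w x) :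
    w ≠ 0 := by
  obtain ⟨a, ha, rfl⟩ := h
  exact smul_ne_zero ha (F.ne c hc _)

theorem below_unique {c : E} (hc : c ∈ O) {w : H} {x x' : X} (h : F.Below c w x)
    (h' : F.Below c w x') : x = x' := by
  obtain ⟨a, ha, h1⟩ := h
  obtain ⟨b, hb, h2⟩ := h'
  exact F.inj c hc _ _ ⟨a⁻¹ * b, by
    rw [mul_smul, ← h2, h1, smul_smul, inv_mul_cancel₀ ha, one_smul]⟩

theorem Below.smul {F : LFam C H O} {c : E} {w : H} {x : X} (h : F.Below c w x) {b : ℂ}
    (hb : b ≠ 0) : F.Below c (b • w) x := by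
  obtain ⟨a, ha, rfl⟩ := h
  exact ⟨b * a, mul_ne_zero hb ha, by rw [smul_smul]⟩

theorem below_self (c : E) (x : X) : F.Below c (F.L c x) x := ⟨1, one_ne_zero, (one_smul _ _).symm⟩

/-- vectors above the same point are proportional -/
theorem Below.prop {F : LFam C H O} {c : E} {w w' : H} {x : X} (h : F.Below c w x)
    (h' : F.Below c w' x) : ∃ b : ℂ, b ≠ 0 ∧ w' = b • w := by
  obtain ⟨a, ha, rfl⟩ := h
  obtain ⟨a', ha', rfl⟩ := h'
  exact ⟨a' * a⁻¹, mul_ne_zero ha' (inv_ne_zero ha), by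
    rw [smul_smul, mul_assoc, inv_mul_cancel₀ ha, mul_one]⟩

/-- the point below is continuous -/
theorem tendsto_pt [CompactSpace X] [T2Space X] {κ : Q → E}
    {θ : Q → H} {pt : Q → X} {q1 : Q} (hκ : ContinuousAt κ q1) (hθ : ContinuousAt θ q1)
    (hq1 : κ q1 ∈ O) (hb : ∀ᶠ q in 𝓝 q1, F.Below (κ q) (θ q) (pt q)) :
    Tendsto pt (𝓝 q1) (𝓝 (pt q1)) := by
  have hb1 : F.Below (κ q1) (θ q1) (pt q1) := hb.self_of_nhds
  rw [tendsto_nhds]
  intro N hN hx1
  have hK : IsCompact Nᶜ := hN.isClosed_compl.isCompact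
  have key : ∀ᶠ q in 𝓝 q1, ∀ x ∈ Nᶜ, ¬ F.Below (κ q) (θ q) x := by
    refine hK.eventually_forall_of_forall_eventually ?_
    intro x2 hx2
    obtain ⟨j, hj⟩ := C.cover x2
    have hz2 := (C.e j).map_source hj
    obtain ⟨U, hUc, hUL, -⟩ := F.loc _ hq1 j _ hz2
    set f : Q × X → (Fin 2 → H) := fun z => ![θ z.1, U (κ z.1, C.e j z.2)] with hf
    have hz3 : ContinuousAt (fun z : Q × X => (κ z.1, C.e j z.2)) (q1, x2) := by
      refine ContinuousAt.prodMk ?_ ?_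
      · exact ContinuousAt.comp (g := κ) (f := fun z : Q × X => z.1) hκ continuousAt_fst
      · exact ContinuousAt.comp (g := C.e j) (f := fun z : Q × X => z.2)
          ((C.e j).continuousAt hj) continuousAt_snd
    have hfc : ContinuousAt f (q1, x2) := by
      rw [continuousAt_pi]
      intro k
      have h1 : ContinuousAt (fun z : Q × X => θ z.1) (q1, x2) :=
        ContinuousAt.comp (g := θ) (f := fun z : Q × X => z.1) hθ continuousAt_fst
      have h2 : ContinuousAt (fun z : Q × X => U (κ z.1, C.e j z.2)) (q1, x2) :=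
        ContinuousAt.comp (g := U)
          (f := fun z : Q × X => (κ z.1, C.e j z.2)) hUc.continuousAt hz3
      fin_cases k
      · exact h1
      · exact h2
    have hUL1 : ∃ a : ℂ, a ≠ 0 ∧ U (κ q1, C.e j x2) = a • F.L (κ q1) x2 := by
      obtain ⟨a, ha, h⟩ := hUL.self_of_nhds
      refine ⟨a, ha, ?_⟩
      simpa only [(C.e j).left_inv hj] using h
    have hli : LinearIndependent ℂ (f (q1, x2)) := by
      rw [LinearIndependent.pair_iff]
      intro s t hst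
      by_contra hcon
      have hθ0 : θ q1 ≠ 0 := hb1.ne_zero hq1
      obtain ⟨b, hb0, hbU⟩ := hUL1
      have hU0 : U (κ q1, C.e j x2) ≠ 0 := by
        rw [hbU]
        exact smul_ne_zero hb0 (F.ne _ hq1 _)
      have hs : s ≠ 0 := by
        rintro rfl
        rw [zero_smul, zero_add, smul_eq_zero] at hst
        exact hcon ⟨rfl, hst.resolve_right hU0⟩
      have ht : t ≠ 0 := by
        rintro rfl
        rw [zero_smul, add_zero, smul_eq_zero] at hst
        exact hs (hst.resolve_right hθ0)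
      have h1 : θ q1 = (-(s⁻¹ * t)) • U (κ q1, C.e j x2) := by
        have h2 : s • θ q1 = -(t • U (κ q1, C.e j x2)) := eq_neg_of_add_eq_zero_left hst
        have h3 := congrArg (fun w => s⁻¹ • w) h2
        simp only [smul_smul, inv_mul_cancel₀ hs, one_smul, smul_neg] at h3
        rw [h3, neg_smul]
      have h2 : F.Below (κ q1) (θ q1) x2 :=
        ⟨-(s⁻¹ * t) * b, mul_ne_zero (neg_ne_zero.2 (mul_ne_zero (inv_ne_zero hs) ht)) hb0, by
          rw [h1, hbU, smul_smul]⟩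
      exact hx2 (F.below_unique hq1 h2 hb1 ▸ hx1)
    have h3 : ∀ᶠ z in 𝓝 (q1, x2), LinearIndependent ℂ (f z) := hfc hli.eventually
    have h4 : ∀ᶠ z : Q × X in 𝓝 (q1, x2), z.2 ∈ (C.e j).source :=
      continuousAt_snd.eventually ((C.e j).open_source.mem_nhds hj)
    filter_upwards [h3, h4, hz3 hUL] with z g1 g2 g3 g4
    obtain ⟨b, hb0, hbU⟩ := g3
    have hbU' : U (κ z.1, C.e j z.2) = b • F.L (κ z.1) z.2 := by
      simpa only [(C.e j).left_inv g2] using hbU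
    obtain ⟨a, ha, g5⟩ := g4
    rw [LinearIndependent.pair_iff] at g1
    have := (g1 b (-a) (by
      show b • θ z.1 + (-a) • U (κ z.1, C.e j z.2) = 0
      rw [g5, hbU', smul_smul, smul_smul, ← add_smul]
      convert zero_smul ℂ _ using 2
      ring)).1
    exact hb0 this
  filter_upwards [key, hb] with q h1 h2
  by_contra h3
  exact h1 _ h3 h2

/-- **the point below is smooth**, with a given local lift `U` -/
theorem lift' [CompactSpace X] [T2Space X] [FiniteDimensional ℝ V] [FiniteDimensional ℂ H]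
    [CompleteSpace E] (hO : IsOpen O) {n : WithTop ℕ∞} (hn : n ≠ 0) (hn' : n ≤ ∞) {κ : Q → E}
    {θ : Q → H} {pt : Q → X} {q1 : Q} (hκ : ContDiffAt ℝ n κ q1) (hθ : ContDiffAt ℝ n θ q1)
    (hq1 : κ q1 ∈ O) (hb : ∀ᶠ q in 𝓝 q1, F.Below (κ q) (θ q) (pt q)) {j : C.ι}
    (hj : pt q1 ∈ (C.e j).source) {U : E × V → H} (hU : ContDiffAt ℝ ∞ U (κ q1, C.e j (pt q1)))
    (hUL : ∀ᶠ p in 𝓝 (κ q1, C.e j (pt q1)), ∃ a : ℂ, a ≠ 0 ∧
      U p = a • F.L p.1 ((C.e j).symm p.2))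
    (himm : ∀ v : V, (∃ a : ℂ, fderiv ℝ (fun z => U (κ q1, z)) (C.e j (pt q1)) v =
      a • U (κ q1, C.e j (pt q1))) → v = 0) :
    ContDiffAt ℝ n (fun q => C.e j (pt q)) q1 ∧ ∃ a : Q → ℂ, ContDiffAt ℝ n a q1 ∧
      ∀ᶠ q in 𝓝 q1, a q ≠ 0 ∧ θ q = a q • U (κ q, C.e j (pt q)) := by
  have hVc : CompleteSpace V := FiniteDimensional.complete ℝ V
  have hHf : FiniteDimensional ℝ H := FiniteDimensional.complexToReal H
  have hpt := F.tendsto_pt hκ.continuousAt hθ.continuousAt hq1 hb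
  have hb1 : F.Below (κ q1) (θ q1) (pt q1) := hb.self_of_nhds
  set z1 : V := C.e j (pt q1) with hz1
  have hz1t : z1 ∈ (C.e j).target := (C.e j).map_source hj
  set c1 : E := κ q1 with hc1
  have hUL1 : ∃ a : ℂ, a ≠ 0 ∧ U (c1, z1) = a • F.L c1 (pt q1) := by
    obtain ⟨a, ha, h⟩ := hUL.self_of_nhds
    exact ⟨a, ha, by simpa only [hz1, (C.e j).left_inv hj] using h⟩
  obtain ⟨b1, hb1', hbU1⟩ := hUL1
  have hU1 : U (c1, z1) ≠ 0 := by
    rw [hbU1]
    exact smul_ne_zero hb1' (F.ne _ hq1 _)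
  obtain ⟨a0, ha0, hθ0⟩ := hb1
  obtain ⟨a1, ha1, hθ1⟩ : ∃ a1 : ℂ, a1 ≠ 0 ∧ θ q1 = a1 • U (c1, z1) :=
    ⟨a0 * b1⁻¹, mul_ne_zero ha0 (inv_ne_zero hb1'), by
      rw [hbU1, smul_smul, mul_assoc, inv_mul_cancel₀ hb1', mul_one]
      exact hθ0⟩
  have hUz : HasFDerivAt (fun z => U (c1, z)) (fderiv ℝ (fun z => U (c1, z)) z1) z1 := by
    have h1 : ContDiffAt ℝ ∞ (fun y : V => (c1, y)) z1 := by fun_prop
    exact ((hU.comp (f := fun y : V => (c1, y)) z1 h1).differentiableAt (by simp)).hasFDerivAt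
  set T : V × ℂ →L[ℝ] H := a1 • (fderiv ℝ (fun z => U (c1, z)) z1 ∘L .fst ℝ V ℂ) +
    (ContinuousLinearMap.snd ℝ V ℂ).smulRight (U (c1, z1)) with hT
  have hTd : HasFDerivAt (fun p : V × ℂ => p.2 • U (c1, p.1)) T (z1, a1) := by
    have h1 : HasFDerivAt (fun p : V × ℂ => U (c1, p.1))
        (fderiv ℝ (fun z => U (c1, z)) z1 ∘L .fst ℝ V ℂ) (z1, a1) :=
      HasFDerivAt.comp (g := fun z => U (c1, z)) (f := fun p : V × ℂ => p.1) (z1, a1) hUz hasFDerivAt_fst
    exact HasFDerivAt.smul (𝕜 := ℝ) (𝕜' := ℂ) hasFDerivAt_snd h1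
  have hTi : LinearMap.ker (T : V × ℂ →ₗ[ℝ] H) = ⊥ := by
    rw [LinearMap.ker_eq_bot']
    rintro ⟨v, b⟩ hv
    have h1 : a1 • fderiv ℝ (fun z => U (c1, z)) z1 v + b • U (c1, z1) = 0 := by
      have h2 : T (v, b) = 0 := hv
      simpa [hT] using h2
    have h2 : v = 0 := himm v ⟨-(a1⁻¹ * b), by
      have h3 := congrArg (fun w => a1⁻¹ • w) (eq_neg_of_add_eq_zero_left h1)
      simp only [smul_smul, inv_mul_cancel₀ ha1, one_smul, smul_neg] at h3
      rw [h3, neg_smul]⟩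
    subst h2
    rw [map_zero, smul_zero, zero_add] at h1
    have h3 : b = 0 := (smul_eq_zero.mp h1).resolve_right hU1
    rw [h3]
    rfl
  obtain ⟨L0, hL0⟩ := (T : V × ℂ →ₗ[ℝ] H).exists_leftInverse_of_injective hTi
  set L : H →L[ℝ] V × ℂ := LinearMap.toContinuousLinearMap L0 with hL
  have hLT : ∀ p, L (T p) = p := fun p => by
    have := congrArg (fun f : V × ℂ →ₗ[ℝ] V × ℂ => f p) hL0
    simpa [hL] using this
  set G : E × (V × ℂ) → V × ℂ := fun q => L (q.2.2 • U (q.1, q.2.1)) with hG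
  have hGc : ContDiffAt ℝ n G (c1, (z1, a1)) := by
    have h1 : ContDiffAt ℝ ∞ (fun q : E × (V × ℂ) => U (q.1, q.2.1)) (c1, (z1, a1)) := by
      have h2 : ContDiffAt ℝ ∞ (fun q : E × (V × ℂ) => (q.1, q.2.1)) (c1, (z1, a1)) := by fun_prop
      exact ContDiffAt.comp (g := U)
        (f := fun q : E × (V × ℂ) => (q.1, q.2.1)) (c1, (z1, a1)) hU h2
    have h2 : ContDiffAt ℝ ∞ (fun q : E × (V × ℂ) => q.2.2) (c1, (z1, a1)) := by fun_prop
    have h3 : ContDiffAt ℝ ∞ (fun q : E × (V × ℂ) => q.2.2 • U (q.1, q.2.1)) (c1, (z1, a1)) :=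
      h2.smul h1
    exact (L.contDiff.contDiffAt.comp (c1, (z1, a1)) h3).of_le hn'
  have hGd : HasFDerivAt (fun y => G (c1, y)) (ContinuousLinearMap.id ℝ (V × ℂ)) (z1, a1) := by
    have h1 := L.hasFDerivAt.comp (z1, a1) hTd
    have h2 : L ∘L T = ContinuousLinearMap.id ℝ (V × ℂ) := by
      ext p <;> simp [hLT]
    rw [h2] at h1
    exact h1
  obtain ⟨K, hKc, hK⟩ := exists_param_inverse hn hGc hGd
  have hG1 : G (c1, (z1, a1)) = L (θ q1) := by
    show L (a1 • U (c1, z1)) = L (θ q1)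
    rw [hθ1]
  rw [hG1] at hKc
  -- the functional which computes the factor
  obtain ⟨ℓ, hℓ⟩ := SeparatingDual.exists_eq_one (R := ℂ) hU1
  have hsrc : ∀ᶠ q in 𝓝 q1, pt q ∈ (C.e j).source := hpt ((C.e j).open_source.mem_nhds hj)
  have hκO : ∀ᶠ q in 𝓝 q1, κ q ∈ O := hκ.continuousAt.eventually (hO.mem_nhds hq1)
  have hz : Tendsto (fun q => C.e j (pt q)) (𝓝 q1) (𝓝 z1) :=
    ((C.e j).continuousAt hj).tendsto.comp hpt
  have hUt : Tendsto (fun q => U (κ q, C.e j (pt q))) (𝓝 q1) (𝓝 (U (c1, z1))) := by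
    have h1 : Tendsto (fun q => (κ q, C.e j (pt q))) (𝓝 q1) (𝓝 (c1, z1)) :=
      hκ.continuousAt.tendsto.prodMk_nhds hz
    exact hU.continuousAt.tendsto.comp h1
  have hℓt : Tendsto (fun q => ℓ (U (κ q, C.e j (pt q)))) (𝓝 q1) (𝓝 1) := by
    have := (ℓ.continuous.continuousAt (x := U (c1, z1))).tendsto.comp hUt
    rwa [hℓ] at this
  have hℓ0 : ∀ᶠ q in 𝓝 q1, ℓ (U (κ q, C.e j (pt q))) ≠ 0 := hℓt.eventually_ne one_ne_zero
  set a' : Q → ℂ := fun q => ℓ (θ q) / ℓ (U (κ q, C.e j (pt q))) with ha'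
  have ha't : Tendsto a' (𝓝 q1) (𝓝 a1) := by
    have h1 : Tendsto (fun q => ℓ (θ q)) (𝓝 q1) (𝓝 (ℓ (θ q1))) :=
      (ℓ.continuous.continuousAt.comp hθ.continuousAt).tendsto
    have h2 := h1.div hℓt one_ne_zero
    have h3 : ℓ (θ q1) / 1 = a1 := by rw [hθ1, map_smul, hℓ]; simp
    rwa [h3] at h2
  have hrel : ∀ᶠ q in 𝓝 q1, a' q ≠ 0 ∧ θ q = a' q • U (κ q, C.e j (pt q)) := by
    have hUq : Tendsto (fun q => (κ q, C.e j (pt q))) (𝓝 q1) (𝓝 (c1, z1)) :=
      hκ.continuousAt.tendsto.prodMk_nhds hz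
    filter_upwards [hb, hsrc, hκO, hℓ0, hUq hUL] with q h1 h2 h3 h4 h7
    obtain ⟨b, hb0, hbU⟩ := h7
    have hbU' : U (κ q, C.e j (pt q)) = b • F.L (κ q) (pt q) := by
      simpa only [(C.e j).left_inv h2] using hbU
    obtain ⟨a2, ha2, h8⟩ := h1
    obtain ⟨a, ha, h5⟩ : ∃ a : ℂ, a ≠ 0 ∧ θ q = a • U (κ q, C.e j (pt q)) :=
      ⟨a2 * b⁻¹, mul_ne_zero ha2 (inv_ne_zero hb0), by
        rw [hbU', smul_smul, mul_assoc, inv_mul_cancel₀ hb0, mul_one]
        exact h8⟩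
    have h6 : a' q = a := by
      show ℓ (θ q) / _ = a
      rw [h5, map_smul, smul_eq_mul, mul_div_assoc, div_self h4, mul_one]
    rw [h6]
    exact ⟨ha, h5⟩
  have hfin : ∀ᶠ q in 𝓝 q1, K (κ q, L (θ q)) = (C.e j (pt q), a' q) := by
    have h1 : Tendsto (fun q => (κ q, (C.e j (pt q), a' q))) (𝓝 q1) (𝓝 (c1, (z1, a1))) :=
      hκ.continuousAt.tendsto.prodMk_nhds (hz.prodMk_nhds ha't)
    filter_upwards [h1 hK, hrel] with q h2 h3
    have h4 : G (κ q, (C.e j (pt q), a' q)) = L (θ q) := by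
      show L (a' q • U (κ q, C.e j (pt q))) = L (θ q)
      rw [← h3.2]
    have h5 : K (κ q, G (κ q, (C.e j (pt q), a' q))) = (C.e j (pt q), a' q) := h2
    rwa [h4] at h5
  have hm : ContDiffAt ℝ n (fun q => K (κ q, L (θ q))) q1 := by
    have h1 : ContDiffAt ℝ n (fun q => (κ q, L (θ q))) q1 :=
      hκ.prodMk (L.contDiff.contDiffAt.comp q1 hθ)
    exact ContDiffAt.comp (g := K) (f := fun q => (κ q, L (θ q))) q1 hKc h1
  refine ⟨?_, a', ?_, hrel⟩
  · have h1 : ContDiffAt ℝ n (fun q => (K (κ q, L (θ q))).1) q1 := hm.fst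
    refine h1.congr_of_eventuallyEq ?_
    filter_upwards [hfin] with q hq
    rw [hq]
  · have h1 : ContDiffAt ℝ n (fun q => (K (κ q, L (θ q))).2) q1 := hm.snd
    refine h1.congr_of_eventuallyEq ?_
    filter_upwards [hfin] with q hq
    rw [hq]

/-- **the point below is smooth** -/
theorem lift [CompactSpace X] [T2Space X] [FiniteDimensional ℝ V] [FiniteDimensional ℂ H]
    [CompleteSpace E] (hO : IsOpen O) {n : WithTop ℕ∞} (hn : n ≠ 0) (hn' : n ≤ ∞) {κ : Q → E}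
    {θ : Q → H} {pt : Q → X} {q1 : Q} (hκ : ContDiffAt ℝ n κ q1) (hθ : ContDiffAt ℝ n θ q1)
    (hq1 : κ q1 ∈ O) (hb : ∀ᶠ q in 𝓝 q1, F.Below (κ q) (θ q) (pt q)) {j : C.ι}
    (hj : pt q1 ∈ (C.e j).source) : ContDiffAt ℝ n (fun q => C.e j (pt q)) q1 := by
  obtain ⟨U, h1, h2, h3⟩ := F.loc _ hq1 j _ ((C.e j).map_source hj)
  exact (F.lift' hO hn hn' hκ hθ hq1 hb hj h1 h2 h3).1

end LFam

end

end Crest.Agent.R281.LF_461
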