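import Crest.Agent.R273.YauSchF_635
import Crest.Agent.R273.YauPf_635

/-!
# R281 (S0424), leaf S-T7, part 2 (helper346): uniform families of smooth functions

All families live on `ball 0 1` of `Cn n` and the estimates on `ball 0 (1/2)`.

* `Sf F`      : smooth on the unit ball
* `UH m F`    : uniform `C^{m,1/2}` bounds on every `closedBall 0 ρ`, `ρ < 1/2`
* closure of `UH m` under sums, products, directional derivatives, inverse matrices
-/

set_option autoImplicit false
set_option linter.unusedSectionVars false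

open Set Filter Topology Complex Metric
open scoped ContDiff Matrix ComplexConjugate

namespace Crest.Agent.R281.LioA_346

open Crest.Agent.R275.Geo Crest.Agent.R273.SchA_152 Crest.Agent.R273.YauSchF_635
  Crest.Agent.R273.YauQ_635

noncomputable section

variable {n : ℕ} {ι : Type}

/-- smooth family -/
def Sf (F : ι → Cn n → ℂ) : Prop := ∀ i, ContDiffOn ℝ ∞ (F i) (ball 0 1)

/-- uniform local Hölder bound in `ball 0 (1/2)` -/
def H0 (F : ι → Cn n → ℂ) : Prop :=
  ∀ ρ : ℝ, 0 < ρ → ρ < 1 / 2 → ∃ M : ℝ, 0 ≤ M ∧ ∀ i, HO (1 / 2) M (closedBall 0 ρ) (F i)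

/-- directional derivative -/
def dv (v : Cn n) (F : ι → Cn n → ℂ) : ι → Cn n → ℂ := fun i z => fderiv ℝ (F i) z v

/-- uniform `C^{m,1/2}` bounds -/
def UH : ℕ → (ι → Cn n → ℂ) → Prop
  | 0, F => H0 F
  | m + 1, F => H0 F ∧ ∀ v, UH m (dv v F)

/-! ### smoothness -/

theorem Sf.at {F : ι → Cn n → ℂ} (h : Sf F) (i : ι) {z : Cn n} (hz : z ∈ ball (0 : Cn n) 1) :
    ContDiffAt ℝ ∞ (F i) z := (h i).contDiffAt (isOpen_ball.mem_nhds hz)

theorem Sf.diff {F : ι → Cn n → ℂ} (h : Sf F) (i : ι) {z : Cn n} (hz : z ∈ ball (0 : Cn n) 1) :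
    DifferentiableAt ℝ (F i) z := (h.at i hz).differentiableAt (by simp)

theorem Sf.dv {F : ι → Cn n → ℂ} (h : Sf F) (v : Cn n) : Sf (dv v F) := fun i =>
  ((h i).fderiv_of_isOpen (m := ∞) isOpen_ball (by simp)).clm_apply contDiffOn_const

theorem Sf.congr {F G : ι → Cn n → ℂ} (h : Sf F)
    (e : ∀ i, ∀ z ∈ ball (0 : Cn n) 1, G i z = F i z) : Sf G := fun i => (h i).congr (e i)

theorem Sf.add {F G : ι → Cn n → ℂ} (h : Sf F) (h' : Sf G) : Sf (fun i z => F i z + G i z) :=
  fun i => (h i).add (h' i)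

theorem Sf.mul {F G : ι → Cn n → ℂ} (h : Sf F) (h' : Sf G) : Sf (fun i z => F i z * G i z) :=
  fun i => (h i).mul (h' i)

theorem Sf.const (c : ι → ℂ) : Sf (fun i (_ : Cn n) => c i) := fun _ => contDiffOn_const

theorem Sf.sum {κ : Type*} (s : Finset κ) {F : κ → ι → Cn n → ℂ} (h : ∀ k ∈ s, Sf (F k)) :
    Sf (fun i z => ∑ k ∈ s, F k i z) := fun i => ContDiffOn.sum fun k hk => h k hk i

/-! ### Hölder -/

theorem H0.congr {F G : ι → Cn n → ℂ} (h : H0 F)
    (e : ∀ i, ∀ z ∈ ball (0 : Cn n) (1 / 2), G i z = F i z) : H0 G := fun ρ h0 h1 => by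
  obtain ⟨M, hM, H⟩ := h ρ h0 h1
  exact ⟨M, hM, fun i => (H i).congr fun z hz => e i z (closedBall_subset_ball h1 hz)⟩

theorem H0.add {F G : ι → Cn n → ℂ} (h : H0 F) (h' : H0 G) : H0 (fun i z => F i z + G i z) :=
  fun ρ h0 h1 => by
  obtain ⟨M, hM, H⟩ := h ρ h0 h1
  obtain ⟨N, hN, H'⟩ := h' ρ h0 h1
  exact ⟨M + N, add_nonneg hM hN, fun i => (H i).add (H' i)⟩

theorem H0.mul {F G : ι → Cn n → ℂ} (h : H0 F) (h' : H0 G) : H0 (fun i z => F i z * G i z) :=
  fun ρ h0 h1 => by
  obtain ⟨M, hM, H⟩ := h ρ h0 h1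
  obtain ⟨N, hN, H'⟩ := h' ρ h0 h1
  exact ⟨2 * M * N, by positivity, fun i => ho_mul hM hN (H i) (H' i)⟩

theorem H0.const (c : ℂ) : H0 (fun (_ : ι) (_ : Cn n) => c) := fun ρ _ _ =>
  ⟨‖c‖, norm_nonneg _, fun _ => ⟨fun _ _ => le_rfl, fun x _ y _ => by
    rw [sub_self, norm_zero]
    exact mul_nonneg (norm_nonneg _) (Real.rpow_nonneg (norm_nonneg _) _)⟩⟩

theorem H0.sum {κ : Type*} (s : Finset κ) {F : κ → ι → Cn n → ℂ} (h : ∀ k ∈ s, H0 (F k)) :
    H0 (fun i z => ∑ k ∈ s, F k i z) := by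
  classical
  induction s using Finset.induction_on with
  | empty => simpa using H0.const 0
  | insert k s hk ih =>
    have h1 := (h k (Finset.mem_insert_self k s)).add
      (ih fun j hj => h j (Finset.mem_insert_of_mem hj))
    simpa only [Finset.sum_insert hk] using h1

/-! ### `UH` -/

theorem UH.h0 {m : ℕ} {F : ι → Cn n → ℂ} (h : UH m F) : H0 F := by
  cases m with
  | zero => exact h
  | succ m => exact h.1

theorem UH.dv {m : ℕ} {F : ι → Cn n → ℂ} (h : UH (m + 1) F) (v : Cn n) : UH m (dv v F) := h.2 v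

theorem UH.of_succ {m : ℕ} {F : ι → Cn n → ℂ} (h : UH (m + 1) F) : UH m F := by
  induction m generalizing F with
  | zero => exact h.1
  | succ m ih => exact ⟨h.1, fun v => ih (h.2 v)⟩

theorem UH.of_le {m k : ℕ} {F : ι → Cn n → ℂ} (h : UH m F) (hk : k ≤ m) : UH k F := by
  induction m with
  | zero =>
    rw [Nat.le_zero] at hk
    exact hk ▸ h
  | succ m ih =>
    rcases Nat.lt_or_ge k (m + 1) with h1 | h1
    · exact ih h.of_succ (by omega)
    · have : k = m + 1 := by omega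
      exact this ▸ h

theorem dv_congr {F G : ι → Cn n → ℂ} (e : ∀ i, ∀ z ∈ ball (0 : Cn n) 1, G i z = F i z)
    (v : Cn n) : ∀ i, ∀ z ∈ ball (0 : Cn n) 1, dv v G i z = dv v F i z := fun i z hz => by
  have h1 : G i =ᶠ[𝓝 z] F i := Filter.eventually_of_mem (isOpen_ball.mem_nhds hz) (e i)
  show fderiv ℝ (G i) z v = fderiv ℝ (F i) z v
  rw [h1.fderiv_eq]

theorem sub_half {z : Cn n} (hz : z ∈ ball (0 : Cn n) (1 / 2)) : z ∈ ball (0 : Cn n) 1 :=
  ball_subset_ball (by norm_num) hz

theorem UH.congr {m : ℕ} {F G : ι → Cn n → ℂ} (h : UH m F)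
    (e : ∀ i, ∀ z ∈ ball (0 : Cn n) 1, G i z = F i z) : UH m G := by
  induction m generalizing F G with
  | zero => exact H0.congr h fun i z hz => e i z (sub_half hz)
  | succ m ih =>
    exact ⟨H0.congr h.1 fun i z hz => e i z (sub_half hz), fun v => ih (h.2 v) (dv_congr e v)⟩

theorem UH.add {m : ℕ} {F G : ι → Cn n → ℂ} (sF : Sf F) (sG : Sf G) (h : UH m F) (h' : UH m G) :
    UH m (fun i z => F i z + G i z) := by
  induction m generalizing F G with
  | zero => exact H0.add h h'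
  | succ m ih =>
    refine ⟨H0.add h.1 h'.1, fun v => ?_⟩
    refine (ih (sF.dv v) (sG.dv v) (h.2 v) (h'.2 v)).congr fun i z hz => ?_
    show fderiv ℝ (fun z => F i z + G i z) z v = _
    rw [fderiv_fun_add (sF.diff i hz) (sG.diff i hz)]
    rfl

theorem UH.mul {m : ℕ} {F G : ι → Cn n → ℂ} (sF : Sf F) (sG : Sf G) (h : UH m F) (h' : UH m G) :
    UH m (fun i z => F i z * G i z) := by
  induction m generalizing F G with
  | zero => exact H0.mul h h'
  | succ m ih =>
    refine ⟨H0.mul h.1 h'.1, fun v => ?_⟩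
    have h1 := ih sF (sG.dv v) h.of_succ (h'.2 v)
    have h2 := ih (sF.dv v) sG (h.2 v) h'.of_succ
    refine (UH.add (sF.mul (sG.dv v)) ((sF.dv v).mul sG) h1 h2).congr fun i z hz => ?_
    show fderiv ℝ (fun z => F i z * G i z) z v = _
    rw [fderiv_fun_mul (sF.diff i hz) (sG.diff i hz)]
    simp only [_root_.add_apply, _root_.smul_apply, smul_eq_mul]
    show F i z * LioA_346.dv v G i z + G i z * LioA_346.dv v F i z = _
    ring

theorem UH.const (m : ℕ) (c : ℂ) : UH m (fun (_ : ι) (_ : Cn n) => c) := by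
  induction m generalizing c with
  | zero => exact H0.const c
  | succ m ih =>
    refine ⟨H0.const c, fun v => (ih 0).congr fun i z _ => ?_⟩
    show fderiv ℝ (fun _ : Cn n => c) z v = 0
    simp

theorem UH.sum {m : ℕ} {κ : Type*} (s : Finset κ) {F : κ → ι → Cn n → ℂ}
    (hs : ∀ k ∈ s, Sf (F k)) (h : ∀ k ∈ s, UH m (F k)) : UH m (fun i z => ∑ k ∈ s, F k i z) := by
  classical
  induction s using Finset.induction_on with
  | empty => simpa using UH.const m 0
  | insert k s hk ih =>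
    have h1 := UH.add (hs k (Finset.mem_insert_self k s))
      (Sf.sum s fun j hj => hs j (Finset.mem_insert_of_mem hj)) (h k (Finset.mem_insert_self k s))
      (ih (fun j hj => hs j (Finset.mem_insert_of_mem hj))
        fun j hj => h j (Finset.mem_insert_of_mem hj))
    simpa only [Finset.sum_insert hk] using h1

theorem UH.const_mul {m : ℕ} {F : ι → Cn n → ℂ} (sF : Sf F) (h : UH m F) (c : ℂ) :
    UH m (fun i z => c * F i z) := UH.mul (Sf.const fun _ => c) sF (UH.const m c) h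

theorem UH.sub {m : ℕ} {F G : ι → Cn n → ℂ} (sF : Sf F) (sG : Sf G) (h : UH m F) (h' : UH m G) :
    UH m (fun i z => F i z - G i z) := by
  have h1 := UH.add sF ((Sf.const fun _ => (-1 : ℂ)).mul sG) h (h'.const_mul sG (-1))
  refine h1.congr fun i z _ => ?_
  ring

/-! ### matrices -/

/-- families of matrices -/
abbrev MF (ι : Type) (n : ℕ) : Type := ι → Cn n → Matrix (Fin n) (Fin n) ℂ

/-- entries -/
def en (A : MF ι n) (a b : Fin n) : ι → Cn n → ℂ := fun i z => A i z a b

/-- directional derivative of a matrix family -/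
def dm (v : Cn n) (A : MF ι n) : MF ι n := fun i z => Matrix.of fun a b => dv v (en A a b) i z

def SM (A : MF ι n) : Prop := ∀ a b, Sf (en A a b)

def UM (m : ℕ) (A : MF ι n) : Prop := ∀ a b, UH m (en A a b)

theorem SM.dm {A : MF ι n} (h : SM A) (v : Cn n) : SM (dm v A) := fun a b => (h a b).dv v

theorem UM.dm {m : ℕ} {A : MF ι n} (h : UM (m + 1) A) (v : Cn n) : UM m (dm v A) :=
  fun a b => (h a b).dv v

theorem UM.of_succ {m : ℕ} {A : MF ι n} (h : UM (m + 1) A) : UM m A := fun a b => (h a b).of_succ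

theorem SM.mul {A B : MF ι n} (h : SM A) (h' : SM B) : SM (fun i z => A i z * B i z) :=
  fun a b => by
  have h1 := Sf.sum Finset.univ fun c (_ : c ∈ Finset.univ) => (h a c).mul (h' c b)
  exact h1

theorem UM.mul {m : ℕ} {A B : MF ι n} (sA : SM A) (sB : SM B) (h : UM m A) (h' : UM m B) :
    UM m (fun i z => A i z * B i z) := fun a b =>
  UH.sum Finset.univ (fun c _ => (sA a c).mul (sB c b))
    (fun c _ => UH.mul (sA a c) (sB c b) (h a c) (h' c b))

theorem SM.tr {A : MF ι n} (h : SM A) : Sf (fun i z => (A i z).trace) :=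
  Sf.sum Finset.univ fun c _ => h c c

theorem UM.tr {m : ℕ} {A : MF ι n} (sA : SM A) (h : UM m A) : UH m (fun i z => (A i z).trace) :=
  UH.sum Finset.univ (fun c _ => sA c c) fun c _ => h c c

theorem UM.congr {m : ℕ} {A B : MF ι n} (h : UM m A)
    (e : ∀ i, ∀ z ∈ ball (0 : Cn n) 1, B i z = A i z) : UM m B := fun a b =>
  (h a b).congr fun i z hz => by
    show B i z a b = A i z a b
    rw [e i z hz]

theorem dm_mul {A B : MF ι n} (sA : SM A) (sB : SM B) (v : Cn n) (i : ι) {z : Cn n}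
    (hz : z ∈ ball (0 : Cn n) 1) :
    dm v (fun i z => A i z * B i z) i z = dm v A i z * B i z + A i z * dm v B i z := by
  ext a b
  have hd : ∀ c ∈ (Finset.univ : Finset (Fin n)), DifferentiableAt ℝ
      (fun z => en A a c i z * en B c b i z) z := fun c _ =>
    ((sA a c).diff i hz).mul ((sB c b).diff i hz)
  show fderiv ℝ (fun z => ∑ c, en A a c i z * en B c b i z) z v = _
  rw [fderiv_fun_sum hd, Matrix.add_apply, Matrix.mul_apply, Matrix.mul_apply,
    ← Finset.sum_add_distrib, _root_.sum_apply]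
  refine Finset.sum_congr rfl fun c _ => ?_
  rw [fderiv_fun_mul ((sA a c).diff i hz) ((sB c b).diff i hz)]
  simp only [_root_.add_apply, _root_.smul_apply, smul_eq_mul]
  show A i z a c * dv v (en B c b) i z + B i z c b * dv v (en A a c) i z
    = dv v (en A a c) i z * B i z c b + A i z a c * dv v (en B c b) i z
  ring

theorem dm_tr {A : MF ι n} (sA : SM A) (v : Cn n) (i : ι) {z : Cn n}
    (hz : z ∈ ball (0 : Cn n) 1) : dv v (fun i z => (A i z).trace) i z = (dm v A i z).trace := by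
  have hd : ∀ c ∈ (Finset.univ : Finset (Fin n)), DifferentiableAt ℝ
      (fun z => en A c c i z) z := fun c _ => (sA c c).diff i hz
  show fderiv ℝ (fun z => ∑ c, en A c c i z) z v = _
  rw [fderiv_fun_sum hd, _root_.sum_apply]
  rfl

/-- derivative of the inverse -/
theorem dm_inv {A G : MF ι n} (sA : SM A) (sG : SM G)
    (h1 : ∀ i, ∀ z ∈ ball (0 : Cn n) 1, A i z * G i z = 1) (v : Cn n) (i : ι)
    {z : Cn n} (hz : z ∈ ball (0 : Cn n) 1) :
    dm v G i z = (fun i z => (-1 : ℂ) • (G i z * dm v A i z * G i z)) i z := by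
  have h2 : dm v A i z * G i z + A i z * dm v G i z = 0 := by
    rw [← dm_mul sA sG v i hz]
    ext a b
    have := dv_congr (F := fun _ _ => (1 : Matrix (Fin n) (Fin n) ℂ) a b)
      (G := en (fun i z => A i z * G i z) a b) (fun i z hz => by
        show (A i z * G i z) a b = _
        rw [h1 i z hz]) v i z hz
    show dv v (en (fun i z => A i z * G i z) a b) i z = 0
    rw [this]
    show fderiv ℝ (fun _ : Cn n => _) z v = 0
    simp
  have h3 : G i z * A i z = 1 := mul_eq_one_comm.1 (h1 i z hz)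
  have h4 : G i z * (dm v A i z * G i z + A i z * dm v G i z) = 0 := by rw [h2, mul_zero]
  rw [mul_add, ← mul_assoc (G i z) (A i z), h3, one_mul] at h4
  show dm v G i z = (-1 : ℂ) • (G i z * dm v A i z * G i z)
  rw [neg_smul, one_smul, mul_assoc]
  exact eq_neg_of_add_eq_zero_right h4

theorem UM.smul {m : ℕ} {A : MF ι n} (sA : SM A) (h : UM m A) (c : ℂ) :
    UM m (fun i z => c • A i z) := fun a b => (h a b).const_mul (sA a b) c

theorem SM.smul {A : MF ι n} (h : SM A) (c : ℂ) : SM (fun i z => c • A i z) :=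
  fun a b => (Sf.const fun _ => c).mul (h a b)

/-- regularity of the inverse -/
theorem UM.inv {m : ℕ} {A G : MF ι n} (sA : SM A) (sG : SM G)
    (h1 : ∀ i, ∀ z ∈ ball (0 : Cn n) 1, A i z * G i z = 1) (hA : UM m A) (hG : UM 0 G) :
    UM m G := by
  induction m with
  | zero => exact hG
  | succ m ih =>
    have hG' := ih hA.of_succ
    refine fun a b => ⟨hG a b, fun v => ?_⟩
    have h2 : UM m (fun i z => (-1 : ℂ) • (G i z * LioA_346.dm v A i z * G i z)) :=
      UM.smul ((sG.mul (sA.dm v)).mul sG)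
        (UM.mul (sG.mul (sA.dm v)) sG (UM.mul sG (sA.dm v) hG' (hA.dm v)) hG') _
    have h3 : UM m (LioA_346.dm v G) := h2.congr fun i z hz => dm_inv sA sG h1 v i hz
    exact h3 a b

/-! ### from `UH` to iterated derivatives -/

theorem iter_succ {F : ι → Cn n → ℂ} (sF : Sf F) (i : ι) {z : Cn n}
    (hz : z ∈ ball (0 : Cn n) 1) (k : ℕ) (v : Fin (k + 1) → Cn n) :
    iteratedFDeriv ℝ (k + 1) (F i) z v
      = iteratedFDeriv ℝ k (dv (v (Fin.last k)) F i) z (Fin.init v) := by
  have h1 : ContDiffOn ℝ k (fderiv ℝ (F i)) (ball 0 1) :=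
    ((sF i).fderiv_of_isOpen (m := ∞) isOpen_ball (by simp)).of_le (by exact_mod_cast le_top)
  have h2 := iteratedFDerivWithin_clm_apply_const_apply (isOpen_ball.uniqueDiffOn) h1 le_rfl hz
    (u := v (Fin.last k)) (m := Fin.init v)
  rw [iteratedFDerivWithin_of_isOpen k isOpen_ball hz,
    iteratedFDerivWithin_of_isOpen k isOpen_ball hz] at h2
  rw [iteratedFDeriv_succ_apply_right]
  exact h2.symm

theorem UH.iter {k : ℕ} {F : ι → Cn n → ℂ} (sF : Sf F) (h : UH k F) (v : Fin k → Cn n) :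
    ∃ M, ∀ i, ‖iteratedFDeriv ℝ k (F i) 0 v‖ ≤ M := by
  induction k generalizing F with
  | zero =>
    obtain ⟨M, _, H⟩ := h (1 / 4) (by norm_num) (by norm_num)
    refine ⟨M, fun i => ?_⟩
    rw [iteratedFDeriv_zero_apply]
    exact (H i).bdd 0 (by simp)
  | succ k ih =>
    obtain ⟨M, H⟩ := ih (sF.dv (v (Fin.last k))) (h.2 _) (Fin.init v)
    refine ⟨M, fun i => ?_⟩
    rw [iter_succ sF i (by simp) k v]
    exact H i

end

end Crest.Agent.R281.LioA_346
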