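import Crest.Agent.R273.YauC3_812
import Crest.Agent.R273.YauLoc_635

/-!
# R281 (S0424), leaf S-T7, part 1 (helper346): scaled local Calabi `C3` estimate

* `sc c R g`        : `z ↦ g (c + R z)`; derivatives of all orders, complex Hessian, Levi form
* `pinch_c3`        : metric pinched between `lo` and `hi` on `ball z₀ R`, `det = e^f` with
                      `|D^j f| ≤ K / R^j` (`j = 1,2,3`) ⟹ `|D (cH u)| ≤ C / R` on `ball z₀ (R/2)`
* `pinch_lip`       : the same, Lipschitz form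
* `pinch_liouville` : pinched on `Cn n` with `det = const` ⟹ `cH u` is constant
-/

set_option autoImplicit false
set_option linter.unusedSectionVars false

open Set Filter Topology Complex Metric
open scoped ContDiff Matrix ComplexConjugate

namespace Crest.Agent.R281.LioC3_346

open Crest.Agent.R275.Geo Crest.Agent.R273.Defs_333 Crest.Agent.R273.YauDefs_635

noncomputable section

section gen

variable {E F : Type*} [NormedAddCommGroup E] [NormedSpace ℝ E] [NormedAddCommGroup F]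
  [NormedSpace ℝ F]

/-- pull-back by `z ↦ c + R z` -/
def sc (c : E) (R : ℝ) (g : E → F) : E → F := fun z => g (c + R • z)

theorem sc_apply (c : E) (R : ℝ) (g : E → F) (z : E) : sc c R g z = g (c + R • z) := rfl

theorem fderiv_sc (c : E) (R : ℝ) (g : E → F) (z : E) :
    fderiv ℝ (sc c R g) z = R • fderiv ℝ g (c + R • z) := by
  have h1 : sc c R g = fun x => (fun y => g (c + y)) (R • x) := rfl
  rw [h1, fderiv_comp_smul (f := fun y => g (c + y)) (x := z) R, fderiv_comp_add_left]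

theorem fderiv_sc' (c : E) (R : ℝ) (g : E → F) :
    fderiv ℝ (sc c R g) = R • sc c R (fderiv ℝ g) := by
  funext z
  rw [fderiv_sc]
  rfl

theorem fderiv_smul_sc (a : ℝ) (c : E) (R : ℝ) (g : E → F) (z : E) :
    fderiv ℝ (fun y => a • g (c + R • y)) z = (a * R) • fderiv ℝ g (c + R • z) := by
  have h1 : (fun y => a • g (c + R • y)) = a • sc c R g := rfl
  rw [h1, fderiv_const_smul_field, Pi.smul_apply, fderiv_sc, smul_smul]

theorem iteratedFDeriv_sc (c : E) (R : ℝ) (g : E → F) (k : ℕ) :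
    iteratedFDeriv ℝ k (sc c R g) = fun y => R ^ k • iteratedFDeriv ℝ k g (c + R • y) := by
  induction k with
  | zero =>
    funext z
    ext v
    simp [iteratedFDeriv_zero_apply, sc]
  | succ k ih =>
    funext z
    ext v
    have h1 := fderiv_smul_sc (R ^ k) c R (iteratedFDeriv ℝ k g) z
    rw [iteratedFDeriv_succ_apply_left, ih, h1, ← pow_succ]
    have h2 : (R ^ (k + 1) • iteratedFDeriv ℝ (k + 1) g (c + R • z)) v
        = R ^ (k + 1) • iteratedFDeriv ℝ (k + 1) g (c + R • z) v := rfl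
    rw [h2, iteratedFDeriv_succ_apply_left]
    rfl

theorem norm_iteratedFDeriv_sc (c : E) {R : ℝ} (hR : 0 ≤ R) (g : E → F) (k : ℕ) (z : E) :
    ‖iteratedFDeriv ℝ k (sc c R g) z‖ = R ^ k * ‖iteratedFDeriv ℝ k g (c + R • z)‖ := by
  rw [iteratedFDeriv_sc]
  exact (norm_smul _ _).trans (by rw [Real.norm_of_nonneg (pow_nonneg hR k)])

theorem contDiffOn_sc {c : E} {R r : ℝ} (hR : 0 < R) {g : E → F} {m : WithTop ℕ∞}
    (hg : ContDiffOn ℝ m g (ball c (R * r))) : ContDiffOn ℝ m (sc c R g) (ball 0 r) := by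
  have h1 : ContDiff ℝ m fun z : E => c + R • z := contDiff_const.add (contDiff_id.const_smul R)
  refine hg.comp h1.contDiffOn fun z hz => ?_
  rw [mem_ball_zero_iff] at hz
  rw [mem_ball_iff_norm, add_sub_cancel_left, norm_smul, Real.norm_of_nonneg hR.le]
  exact mul_lt_mul_of_pos_left hz hR

theorem mem_of_sc {c : E} {R r : ℝ} (hR : 0 < R) {z : E} (hz : z ∈ ball (0 : E) r) :
    c + R • z ∈ ball c (R * r) := by
  rw [mem_ball_zero_iff] at hz
  rw [mem_ball_iff_norm, add_sub_cancel_left, norm_smul, Real.norm_of_nonneg hR.le]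
  exact mul_lt_mul_of_pos_left hz hR

theorem exists_of_mem {c : E} {R r : ℝ} (hR : 0 < R) {w : E} (hw : w ∈ ball c (R * r)) :
    ∃ z ∈ ball (0 : E) r, c + R • z = w := by
  refine ⟨R⁻¹ • (w - c), ?_, ?_⟩
  · rw [mem_ball_iff_norm] at hw
    rw [mem_ball_zero_iff, norm_smul, Real.norm_of_nonneg (inv_nonneg.2 hR.le)]
    rw [inv_mul_lt_iff₀ hR]
    exact hw
  · rw [smul_smul, mul_inv_cancel₀ hR.ne', one_smul, add_sub_cancel]

end gen

variable {n : ℕ}

/-- rescaled potential -/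
def us (c : Cn n) (R : ℝ) (u : Cn n → ℝ) : Cn n → ℝ := fun z => (R ^ 2)⁻¹ • u (c + R • z)

theorem fd2_us (c : Cn n) {R : ℝ} (hR : R ≠ 0) (u : Cn n → ℝ) (z : Cn n) :
    fderiv ℝ (fderiv ℝ (us c R u)) z = fderiv ℝ (fderiv ℝ u) (c + R • z) := by
  have h1 : fderiv ℝ (us c R u) = fun y => ((R ^ 2)⁻¹ * R) • fderiv ℝ u (c + R • y) := by
    funext y
    exact fderiv_smul_sc _ c R u y
  have h2 : (R ^ 2)⁻¹ * R * R = 1 := by
    field_simp
  rw [h1]
  refine (fderiv_smul_sc ((R ^ 2)⁻¹ * R) c R (fderiv ℝ u) z).trans ?_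
  rw [h2]
  exact one_smul ℝ _

theorem D2_us (c : Cn n) {R : ℝ} (hR : R ≠ 0) (u : Cn n → ℝ) (z v w : Cn n) :
    D2 (us c R u) z v w = D2 u (c + R • z) v w := by
  rw [D2, fd2_us c hR, D2]

theorem cH_us (c : Cn n) {R : ℝ} (hR : R ≠ 0) (u : Cn n → ℝ) (z : Cn n) :
    cH (us c R u) z = cH u (c + R • z) := by
  ext a b
  simp only [cH, Matrix.of_apply, D2_us c hR]

theorem lev_us (c : Cn n) {R : ℝ} (hR : R ≠ 0) (u : Cn n → ℝ) (z v : Cn n) :
    lev (us c R u) z v = lev u (c + R • z) v := by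
  rw [lev333_eq, lev333_eq, D2_us c hR, D2_us c hR]

theorem contDiffOn_us {c : Cn n} {R r : ℝ} (hR : 0 < R) {u : Cn n → ℝ} {m : WithTop ℕ∞}
    (hu : ContDiffOn ℝ m u (ball c (R * r))) : ContDiffOn ℝ m (us c R u) (ball 0 r) :=
  (contDiffOn_sc hR hu).const_smul (R ^ 2)⁻¹

/-- pinched solutions of the Monge-Ampere equation on `ball z₀ R`, the right hand side being
controlled up to order `N` at the scale `R` -/
structure Pin (n : ℕ) (lo hi : ℝ) (K : ℕ → ℝ) (N : ℕ∞) (z₀ : Cn n) (R : ℝ) (u f : Cn n → ℝ) :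
    Prop where
  hu : ContDiffOn ℝ ∞ u (ball z₀ R)
  hf : ContDiffOn ℝ ∞ f (ball z₀ R)
  hlev : ∀ z ∈ ball z₀ R, ∀ v, lo * ‖v‖ ^ 2 ≤ lev u z v ∧ lev u z v ≤ hi * ‖v‖ ^ 2
  hdet : ∀ z ∈ ball z₀ R, (cH u z).det = (Real.exp (f z) : ℂ)
  hfK : ∀ z ∈ ball z₀ R, ∀ j : ℕ, 1 ≤ j → (j : ℕ∞) ≤ N → ‖iteratedFDeriv ℝ j f z‖ ≤ K j / R ^ j

theorem Pin.us {lo hi : ℝ} {K : ℕ → ℝ} {N : ℕ∞} {z₀ : Cn n} {R : ℝ} {u f : Cn n → ℝ}
    (hR : 0 < R) (h : Pin n lo hi K N z₀ R u f) :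
    Pin n lo hi K N 0 1 (us z₀ R u) (sc z₀ R f) where
  hu := contDiffOn_us hR (by rw [mul_one]; exact h.hu)
  hf := contDiffOn_sc hR (by rw [mul_one]; exact h.hf)
  hlev z hz v := by
    rw [lev_us _ hR.ne']
    have := mem_of_sc (c := z₀) hR hz
    rw [mul_one] at this
    exact h.hlev _ this v
  hdet z hz := by
    rw [cH_us _ hR.ne', sc_apply]
    have := mem_of_sc (c := z₀) hR hz
    rw [mul_one] at this
    exact h.hdet _ this
  hfK z hz j hj hjN := by
    have := mem_of_sc (c := z₀) hR hz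
    rw [mul_one] at this
    rw [norm_iteratedFDeriv_sc _ hR.le]
    have h1 := h.hfK _ this j hj hjN
    rw [le_div_iff₀ (by positivity)] at h1
    rw [one_pow, div_one, mul_comm]
    exact h1

theorem Pin.mono {lo hi : ℝ} {K : ℕ → ℝ} {N : ℕ∞} {z₀ z₁ : Cn n} {R r : ℝ} {u f : Cn n → ℝ}
    (hr : 0 < r) (hK : ∀ j, 0 ≤ K j) (hsub : ball z₁ r ⊆ ball z₀ R) (hrR : r ≤ R)
    (h : Pin n lo hi K N z₀ R u f) : Pin n lo hi K N z₁ r u f where
  hu := h.hu.mono hsub
  hf := h.hf.mono hsub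
  hlev z hz := h.hlev z (hsub hz)
  hdet z hz := h.hdet z (hsub hz)
  hfK z hz j hj hjN := (h.hfK z (hsub hz) j hj hjN).trans
    (div_le_div_of_nonneg_left (hK j) (by positivity) (pow_le_pow_left₀ hr.le hrR j))

/-- **scaled Calabi estimate** -/
theorem pinch_c3 (n : ℕ) (lo hi : ℝ) (K : ℕ → ℝ) (hlo : 0 < lo) : ∃ C : ℝ, 0 ≤ C ∧
    ∀ (z₀ : Cn n) (R : ℝ) (u f : Cn n → ℝ), 0 < R → Pin n lo hi K 3 z₀ R u f →
      ∀ z ∈ ball z₀ (R / 2), ∀ a b, ‖fderiv ℝ (fun w => cH u w a b) z‖ ≤ C / R := by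
  obtain ⟨C, hC⟩ := Crest.Agent.R273.YauC3_812.c3Stmt n 1 lo hi (max (K 1) (max (K 2) (K 3)))
    one_pos hlo
  refine ⟨max C 0, le_max_right _ _, fun z₀ R u f hR h z hz a b => ?_⟩
  have hs := h.us hR
  obtain ⟨y, hy, rfl⟩ := exists_of_mem (r := 1 / 2) hR (w := z)
    (by rw [mul_one_div]; exact hz)
  have h1 := hC 0 (us z₀ R u) (sc z₀ R f) hs.hu hs.hf hs.hlev hs.hdet (fun w hw j hj1 hj3 => by
    have h2 := hs.hfK w hw j hj1 (by exact_mod_cast hj3)
    rw [one_pow, div_one] at h2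
    refine h2.trans ?_
    interval_cases j
    · exact le_max_left _ _
    · exact (le_max_left _ _).trans (le_max_right _ _)
    · exact (le_max_right _ _).trans (le_max_right _ _)) y hy a b
  have h3 : (fun w => cH (us z₀ R u) w a b) = sc z₀ R (fun w => cH u w a b) := by
    funext w
    rw [cH_us _ hR.ne', sc_apply]
  rw [h3, fderiv_sc, norm_smul, Real.norm_of_nonneg hR.le] at h1
  rw [le_div_iff₀ hR, mul_comm]
  exact h1.trans (le_max_left _ _)

/-- scaled Calabi estimate, Lipschitz form -/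
theorem pinch_lip (n : ℕ) (lo hi : ℝ) (K : ℕ → ℝ) (hlo : 0 < lo) : ∃ C : ℝ, 0 ≤ C ∧
    ∀ (z₀ : Cn n) (R : ℝ) (u f : Cn n → ℝ), 0 < R → Pin n lo hi K 3 z₀ R u f →
      ∀ z ∈ ball z₀ (R / 2), ∀ w ∈ ball z₀ (R / 2), ∀ a b,
        ‖cH u z a b - cH u w a b‖ ≤ C / R * ‖z - w‖ := by
  obtain ⟨C, hC0, hC⟩ := pinch_c3 n lo hi K hlo
  refine ⟨C, hC0, fun z₀ R u f hR h z hz w hw a b => ?_⟩
  have hsub : ball z₀ (R / 2) ⊆ ball z₀ R := ball_subset_ball (by linarith)
  refine (convex_ball z₀ (R / 2)).norm_image_sub_le_of_norm_fderiv_le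
    (f := fun w => cH u w a b) (fun y hy => ?_) (fun y hy => hC z₀ R u f hR h y hy a b) hw hz
  exact ((Crest.Agent.R273.YauLoc_635.contDiffOn_cH isOpen_ball h.hu a b).contDiffAt
    (isOpen_ball.mem_nhds (hsub hy))).differentiableAt (by simp)

/-- **Liouville theorem**: a pinched metric on `Cn n` with constant determinant is constant -/
theorem pinch_liouville {n : ℕ} {lo hi c : ℝ} (hlo : 0 < lo) {u : Cn n → ℝ}
    (hu : ContDiff ℝ ∞ u) (hlev : ∀ z v, lo * ‖v‖ ^ 2 ≤ lev u z v ∧ lev u z v ≤ hi * ‖v‖ ^ 2)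
    (hdet : ∀ z, (cH u z).det = (Real.exp c : ℂ)) (z w : Cn n) : cH u z = cH u w := by
  obtain ⟨C, hC0, hC⟩ := pinch_lip n lo hi 0 hlo
  ext a b
  have hP : ∀ R, Pin n lo hi 0 3 0 R u (fun _ => c) := fun R =>
    { hu := hu.contDiffOn
      hf := contDiffOn_const
      hlev := fun z _ => hlev z
      hdet := fun z _ => hdet z
      hfK := fun z _ j hj _ => by
        rw [iteratedFDeriv_const_of_ne (by omega)]
        simp }
  have h1 : ∀ᶠ R : ℝ in atTop, ‖cH u z a b - cH u w a b‖ ≤ C / R * ‖z - w‖ := by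
    filter_upwards [eventually_gt_atTop (2 * (‖z‖ + ‖w‖))] with R hR
    have hz := norm_nonneg z
    have hw := norm_nonneg w
    have hR0 : 0 < R := by linarith
    refine hC 0 R u _ hR0 (hP R) z ?_ w ?_ a b
    · rw [mem_ball_zero_iff]; linarith
    · rw [mem_ball_zero_iff]; linarith
  have h2 : Tendsto (fun R : ℝ => C / R * ‖z - w‖) atTop (𝓝 (0 * ‖z - w‖)) :=
    (tendsto_const_nhds.div_atTop tendsto_id).mul_const _
  rw [zero_mul] at h2
  have h3 : ‖cH u z a b - cH u w a b‖ ≤ 0 := ge_of_tendsto h2 h1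
  exact sub_eq_zero.1 (norm_le_zero_iff.1 h3)

end

end Crest.Agent.R281.LioC3_346
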