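import Crest.Agent.R281.LioA_346
import Crest.Agent.R281.LioC3_346

/-!
# R281 (S0424), leaf S-T7, part 3 (helper346): point picking and Schauder for families

* `cH_sc`     : complex Hessian of `z ↦ u (c + R z) - k`
* `point_pick`: semilinear elliptic systems with natural growth: from `|W|, |DW|` bounded to
                `|D²W|` bounded
-/

set_option autoImplicit false
set_option linter.unusedSectionVars false

open Set Filter Topology Complex Metric
open scoped ContDiff Matrix ComplexConjugate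

namespace Crest.Agent.R281.LioB_346

open Crest.Agent.R275.Geo Crest.Agent.R273.SchA_152 Crest.Agent.R273.YauSchF_635
  Crest.Agent.R273.YauQ_635 Crest.Agent.R273.SchE_152 Crest.Agent.R273.SchD_152
  Crest.Agent.R273.YauDefs_635 Crest.Agent.R281.LioA_346 Crest.Agent.R281.LioC3_346

noncomputable section

variable {n : ℕ} {ι : Type}

/-- rescaled function, normalised at `c` -/
def nz (c : Cn n) (R : ℝ) (u : Cn n → ℝ) (k : ℝ) : Cn n → ℝ := fun z => u (c + R • z) - k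

theorem fd_nz (c : Cn n) (R : ℝ) (u : Cn n → ℝ) (k : ℝ) (z : Cn n) :
    fderiv ℝ (nz c R u k) z = R • fderiv ℝ u (c + R • z) := by
  have h1 : nz c R u k = fun z => sc c R u z - k := rfl
  rw [h1, fderiv_sub_const]
  exact fderiv_sc c R u z

theorem fd2_nz (c : Cn n) (R : ℝ) (u : Cn n → ℝ) (k : ℝ) (z : Cn n) :
    fderiv ℝ (fderiv ℝ (nz c R u k)) z = (R * R) • fderiv ℝ (fderiv ℝ u) (c + R • z) := by
  have h1 : fderiv ℝ (nz c R u k) = fun z => R • fderiv ℝ u (c + R • z) := by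
    funext z
    exact fd_nz c R u k z
  rw [h1]
  exact fderiv_smul_sc R c R (fderiv ℝ u) z

theorem cH_nz (c : Cn n) (R : ℝ) (u : Cn n → ℝ) (k : ℝ) (z : Cn n) :
    cH (nz c R u k) z = ((R * R : ℝ) : ℂ) • cH u (c + R • z) := by
  ext a b
  have h1 : ∀ v w, D2 (nz c R u k) z v w = (R * R) * D2 u (c + R • z) v w := by
    intro v w
    rw [D2, fd2_nz]
    rfl
  rw [Matrix.smul_apply]
  simp only [cH, Matrix.of_apply, h1, smul_eq_mul]
  push_cast
  ring

theorem contDiffOn_nz {c : Cn n} {R : ℝ} {u : Cn n → ℝ} {k : ℝ} {U V : Set (Cn n)}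
    (hu : ContDiffOn ℝ ∞ u U) (hV : ∀ z ∈ V, c + R • z ∈ U) : ContDiffOn ℝ ∞ (nz c R u k) V := by
  have h1 : ContDiff ℝ ∞ fun z : Cn n => c + R • z := contDiff_const.add (contDiff_id.const_smul R)
  exact (hu.comp h1.contDiffOn fun z hz => hV z hz).sub contDiffOn_const

theorem nsm2 (c : ℝ) (B : Cn n →L[ℝ] Cn n →L[ℝ] ℝ) : ‖c • B‖ = |c| * ‖B‖ := by
  have := @norm_smul ℝ (Cn n →L[ℝ] Cn n →L[ℝ] ℝ) _ _ _ NormedSpace.toNormSMulClass c B
  exact this

theorem cont_norm {X F : Type*} [TopologicalSpace X] [NormedAddCommGroup F] {f : X → F}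
    {s : Set X} (h : ContinuousOn f s) : ContinuousOn (fun x => ‖f x‖) s := h.norm

theorem two_mul_rpow {t : ℝ} (h0 : 0 ≤ t) (h2 : t ≤ 2) : t ≤ 2 * t ^ (1 / 2 : ℝ) :=
  le_two_rpow h0 h2

/-- Hölder from Lipschitz on the closed unit ball -/
theorem ho_of_lip {F : Type*} [NormedAddCommGroup F] {g : Cn n → F} {M L : ℝ}
    (hM : ∀ x ∈ closedBall (0 : Cn n) 1, ‖g x‖ ≤ M) (hL : 0 ≤ L)
    (hg : ∀ x ∈ closedBall (0 : Cn n) 1, ∀ y ∈ closedBall (0 : Cn n) 1,
      ‖g x - g y‖ ≤ L * ‖x - y‖) :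
    HO (1 / 2) (max M (2 * L)) (closedBall 0 1) g := by
  refine ⟨fun x hx => (hM x hx).trans (le_max_left _ _), fun x hx y hy => ?_⟩
  have h1 := two_mul_rpow (norm_nonneg _) (norm_sub_le_two le_rfl hx hy)
  have h2 : 0 ≤ ‖x - y‖ ^ (1 / 2 : ℝ) := Real.rpow_nonneg (norm_nonneg _) _
  calc ‖g x - g y‖ ≤ L * ‖x - y‖ := hg x hx y hy
    _ ≤ L * (2 * ‖x - y‖ ^ (1 / 2 : ℝ)) := mul_le_mul_of_nonneg_left h1 hL
    _ = (2 * L) * ‖x - y‖ ^ (1 / 2 : ℝ) := by ring
    _ ≤ _ := mul_le_mul_of_nonneg_right (le_max_right _ _) h2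

/-- **point picking** -/
theorem point_pick {κ : Type} [Fintype κ] {lo hi C M : ℝ} (hlo : 0 < lo) (hlohi : lo ≤ hi)
    (hC : 0 ≤ C) (hM : 0 ≤ M) {ρ : ℝ} (hρ0 : 0 < ρ) (hρ : ρ < 1 / 2) : ∃ B : ℝ,
    ∀ (W : κ → Cn n → ℝ) (G : Cn n → Matrix (Fin n) (Fin n) ℂ) (h : κ → Cn n → ℝ),
      (∀ k, ContDiffOn ℝ ∞ (W k) (ball 0 1)) →
      (∀ z ∈ ball (0 : Cn n) (1 / 2), EllC lo hi (G z)) →
      (∀ a b, ∀ z ∈ ball (0 : Cn n) (1 / 2), DifferentiableAt ℝ (fun w => G w a b) z ∧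
        ‖G z a b‖ ≤ C ∧ ‖fderiv ℝ (fun w => G w a b) z‖ ≤ C) →
      (∀ k, ∀ z ∈ ball (0 : Cn n) (1 / 2), ‖fderiv ℝ (W k) z‖ ≤ C) →
      (∀ k, ∀ z ∈ ball (0 : Cn n) (1 / 2), h k z = ((G z * cH (W k) z).trace).re ∧
        DifferentiableAt ℝ (h k) z ∧ |h k z| ≤ M ∧
        ‖fderiv ℝ (h k) z‖ ≤ M * (1 + ∑ j, ‖fderiv ℝ (fderiv ℝ (W j)) z‖)) →
      ∀ z ∈ closedBall (0 : Cn n) ρ, ∑ j, ‖fderiv ℝ (fderiv ℝ (W j)) z‖ ≤ B := by
  set s : ℝ := (ρ + 1 / 2) / 2 with hs
  have hs1 : s < 1 / 2 := by rw [hs]; linarith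
  have hs0 : 0 < s := by rw [hs]; linarith
  have hρs : ρ < s := by rw [hs]; linarith
  obtain ⟨CS, hCS, HS⟩ := int_schauder_cx n (a := 1 / 2) (lo := lo) (hi := hi) (by norm_num)
    (by norm_num) hlo hlohi (max C (2 * C)) one_pos le_rfl
  set A : ℝ := Fintype.card κ * (CS * (10 * M + C)) with hA
  have hA0 : 0 ≤ A := by positivity
  refine ⟨max 16 (A ^ 2) / (s - ρ) ^ 2, ?_⟩
  intro W G h hW hell hG hWC hh z hz
  set N : Cn n → ℝ := fun z => ∑ j, ‖fderiv ℝ (fderiv ℝ (W j)) z‖ with hN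
  have hN0 : ∀ z, 0 ≤ N z := fun z => Finset.sum_nonneg fun j _ => ContinuousLinearMap.opNorm_nonneg _
  have hsub : closedBall (0 : Cn n) s ⊆ ball 0 1 := closedBall_subset_ball (by linarith)
  have hNc : ContinuousOn N (closedBall 0 s) := by
    refine continuousOn_finsetSum _ fun j _ => ?_
    have h1 : ContDiffOn ℝ ∞ (fderiv ℝ (W j)) (ball 0 1) :=
      (hW j).fderiv_of_isOpen isOpen_ball (by simp)
    have h2 : ContDiffOn ℝ ∞ (fderiv ℝ (fderiv ℝ (W j))) (ball 0 1) :=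
      h1.fderiv_of_isOpen isOpen_ball (by simp)
    exact cont_norm (h2.continuousOn.mono hsub)
  have hΦ : ContinuousOn (fun z : Cn n => (s - ‖z‖) ^ 2 * N z) (closedBall 0 s) :=
    ((continuousOn_const.sub continuous_norm.continuousOn).pow 2).mul hNc
  obtain ⟨z₁, hz₁, hmax⟩ := (isCompact_closedBall (0 : Cn n) s).exists_isMaxOn
    ⟨0, by simp [hs0.le]⟩ hΦ
  rw [isMaxOn_iff] at hmax
  have key : (s - ‖z₁‖) ^ 2 * N z₁ ≤ max 16 (A ^ 2) := by
    by_contra hcon
    rw [not_le, max_lt_iff] at hcon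
    obtain ⟨hc1, hc2⟩ := hcon
    have hz₁s : ‖z₁‖ ≤ s := mem_closedBall_zero_iff.1 hz₁
    set d : ℝ := s - ‖z₁‖ with hd
    have hd0 : 0 ≤ d := by rw [hd]; linarith
    have hd1 : 0 < d := by
      rcases hd0.eq_or_lt with h0 | h0
      · rw [← h0] at hc1
        norm_num at hc1
      · exact h0
    have hds : d ≤ s := by
      have := norm_nonneg z₁
      rw [hd]; linarith
    have hNpos : 0 < N z₁ := by
      by_contra h0
      have h1 : N z₁ = 0 := le_antisymm (not_lt.1 h0) (hN0 _)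
      rw [h1] at hc1
      norm_num at hc1
    set lam : ℝ := Real.sqrt (N z₁) with hlam
    have hlam0 : 0 < lam := Real.sqrt_pos.2 hNpos
    have hlam2 : lam ^ 2 = N z₁ := Real.sq_sqrt (hN0 _)
    have hdl : 4 < d * lam := by
      by_contra h0
      rw [not_lt] at h0
      have h1 : (d * lam) ^ 2 ≤ 4 ^ 2 := pow_le_pow_left₀ (by positivity) h0 2
      rw [mul_pow, hlam2] at h1
      linarith
    have hlam1 : 8 < lam := by
      have : d * lam < 1 / 2 * lam := mul_lt_mul_of_pos_right (by linarith) hlam0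
      linarith
    have hli : 0 < lam⁻¹ := inv_pos.2 hlam0
    -- the points of the small ball
    have hball : ∀ y ∈ ball (0 : Cn n) 2, z₁ + lam⁻¹ • y ∈ ball (0 : Cn n) (1 / 2) ∧
        N (z₁ + lam⁻¹ • y) ≤ 4 * lam ^ 2 := by
      intro y hy
      rw [mem_ball_zero_iff] at hy
      have h1 : ‖lam⁻¹ • y‖ < d / 2 := by
        rw [norm_smul, Real.norm_of_nonneg hli.le, inv_mul_lt_iff₀ hlam0]
        nlinarith
      have h2 : ‖z₁ + lam⁻¹ • y‖ ≤ ‖z₁‖ + d / 2 := (norm_add_le _ _).trans (by linarith)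
      have h3 : d / 2 ≤ s - ‖z₁ + lam⁻¹ • y‖ := by
        rw [hd] at h2 ⊢
        linarith
      have h4 : z₁ + lam⁻¹ • y ∈ closedBall (0 : Cn n) s := by
        rw [mem_closedBall_zero_iff]
        linarith
      refine ⟨closedBall_subset_ball hs1 h4, ?_⟩
      have h5 := hmax _ h4
      have h6 : (d / 2) ^ 2 * N (z₁ + lam⁻¹ • y) ≤ d ^ 2 * N z₁ :=
        le_trans (mul_le_mul_of_nonneg_right (pow_le_pow_left₀ (by positivity) h3 2) (hN0 _)) h5
      rw [hlam2]
      have hd2 : 0 < d ^ 2 := by positivity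
      nlinarith
    have hsm : closedBall (0 : Cn n) 1 ⊆ ball 0 2 := closedBall_subset_ball (by norm_num)
    -- derivative bounds give Lipschitz bounds along the rescaled ball
    have hlip : ∀ (F : Type) [NormedAddCommGroup F] [NormedSpace ℝ F] (g : Cn n → F) (L : ℝ),
        (∀ y ∈ ball (0 : Cn n) 2, DifferentiableAt ℝ g (z₁ + lam⁻¹ • y) ∧
          ‖fderiv ℝ g (z₁ + lam⁻¹ • y)‖ ≤ L) →
        ∀ x ∈ closedBall (0 : Cn n) 1, ∀ y ∈ closedBall (0 : Cn n) 1,
          ‖g (z₁ + lam⁻¹ • x) - g (z₁ + lam⁻¹ • y)‖ ≤ (lam⁻¹ * L) * ‖x - y‖ := by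
      intro F _ _ g L hg x hx y hy
      have hcv : Convex ℝ (ball (0 : Cn n) 2) := convex_ball _ _
      refine hcv.norm_image_sub_le_of_norm_fderiv_le (𝕜 := ℝ) (f := sc z₁ lam⁻¹ g) (fun w hw => ?_)
        (fun w hw => ?_) (hsm hy) (hsm hx)
      · have h1 : DifferentiableAt ℝ (fun y : Cn n => z₁ + lam⁻¹ • y) w :=
          (differentiableAt_id.const_smul lam⁻¹).const_add z₁
        exact (hg w hw).1.comp w h1
      · rw [fderiv_sc, norm_smul, Real.norm_of_nonneg hli.le]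
        exact mul_le_mul_of_nonneg_left (hg w hw).2 hli.le
    have hlam1' : lam⁻¹ ≤ 1 := inv_le_one_of_one_le₀ (by linarith)
    -- Schauder on the rescaled ball
    have hmain : ∀ k, ‖fderiv ℝ (fderiv ℝ (W k)) z₁‖ ≤ lam * (CS * (10 * M + C)) := by
      intro k
      have e1 := HS 0 (fun y => G (z₁ + lam⁻¹ • y))
        (fun y hy => hell _ (hball y (hsm hy)).1)
        (fun a b => ((ho_of_lip (L := C) (fun y hy => (hG a b _ (hball y (hsm hy)).1).2.1) hC
          (fun x hx y hy => (hlip ℂ (fun w => G w a b) C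
            (fun y hy => ⟨(hG a b _ (hball y hy).1).1, (hG a b _ (hball y hy).1).2.2⟩)
            x hx y hy).trans (mul_le_mul_of_nonneg_right (by nlinarith) (norm_nonneg _))))))
        (ball 0 2) isOpen_ball hsm (nz z₁ lam⁻¹ (W k) (W k z₁)) (10 * M * lam⁻¹) (C * lam⁻¹)
        ((contDiffOn_nz (hW k) fun y hy => sub_half (hball y hy).1).of_le
          Crest.Agent.R273.YauCh_635.two_le_inf)
        (ho_smooth isOpen_ball (contDiffOn_nz (hW k) fun y hy => sub_half (hball y hy).1) le_rfl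
          hsm)
        ?_ ?_
      · have e2 := (e1.h2).bdd 0 (by simp)
        rw [fd2_nz, smul_zero, add_zero] at e2
        have e3 : ‖(lam⁻¹ * lam⁻¹) • fderiv ℝ (fderiv ℝ (W k)) z₁‖
            = (lam⁻¹ * lam⁻¹) * ‖fderiv ℝ (fderiv ℝ (W k)) z₁‖ := by
          rw [nsm2, abs_of_nonneg (by positivity)]
        rw [e3] at e2
        have e4 : (lam⁻¹ * lam⁻¹) * ‖fderiv ℝ (fderiv ℝ (W k)) z₁‖ ≤
            lam⁻¹ * (CS * (10 * M + C)) := by
          refine e2.trans (le_of_eq ?_)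
          ring
        rw [mul_assoc] at e4
        have e5 := le_of_mul_le_mul_left e4 hli
        rwa [inv_mul_le_iff₀ hlam0] at e5
      · -- the right hand side
        have f1 : ∀ y ∈ closedBall (0 : Cn n) 1,
            ((G (z₁ + lam⁻¹ • y) * cH (nz z₁ lam⁻¹ (W k) (W k z₁)) y).trace).re
              = (lam⁻¹ * lam⁻¹) * h k (z₁ + lam⁻¹ • y) := by
          intro y hy
          rw [cH_nz, Matrix.mul_smul, Matrix.trace_smul, smul_eq_mul, Complex.re_ofReal_mul,
            (hh k _ (hball y (hsm hy)).1).1]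
        have f2 : ∀ x ∈ closedBall (0 : Cn n) 1, ∀ y ∈ closedBall (0 : Cn n) 1,
            ‖h k (z₁ + lam⁻¹ • x) - h k (z₁ + lam⁻¹ • y)‖ ≤
              (lam⁻¹ * (M * (5 * lam ^ 2))) * ‖x - y‖ := by
          refine hlip ℝ (h k) _ fun y hy => ?_
          obtain ⟨g1, g2⟩ := hball y hy
          obtain ⟨-, g3, -, g4⟩ := hh k _ g1
          refine ⟨g3, g4.trans (mul_le_mul_of_nonneg_left ?_ hM)⟩
          have g5 : ∑ j, ‖fderiv ℝ (fderiv ℝ (W j)) (z₁ + lam⁻¹ • y)‖ ≤ 4 * lam ^ 2 := g2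
          nlinarith
        have f3 : HO (1 / 2) (10 * M * lam⁻¹) (closedBall (0 : Cn n) 1)
            (fun y => (lam⁻¹ * lam⁻¹) * h k (z₁ + lam⁻¹ • y)) := by
          have g0 : (lam⁻¹ * lam⁻¹) * (lam⁻¹ * (M * (5 * lam ^ 2))) = 5 * M * lam⁻¹ := by
            field_simp
          refine (ho_of_lip (M := lam⁻¹ * M) (L := 5 * M * lam⁻¹) (fun y hy => ?_)
            (by positivity) (fun x hx y hy => ?_)).mono (max_le ?_ ?_)
          · rw [Real.norm_eq_abs, abs_mul, abs_of_nonneg (by positivity : 0 ≤ lam⁻¹ * lam⁻¹),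
              mul_assoc]
            refine mul_le_mul_of_nonneg_left ?_ hli.le
            have g1 := (hh k _ (hball y (hsm hy)).1).2.2.1
            have g2 := abs_nonneg (h k (z₁ + lam⁻¹ • y))
            nlinarith
          · rw [← mul_sub, norm_mul, Real.norm_of_nonneg (by positivity : 0 ≤ lam⁻¹ * lam⁻¹),
              ← g0, mul_assoc (lam⁻¹ * lam⁻¹)]
            exact mul_le_mul_of_nonneg_left (f2 x hx y hy) (by positivity)
          · nlinarith [mul_nonneg hM hli.le]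
          · nlinarith [mul_nonneg hM hli.le]
        exact f3.congr f1
      · -- the sup bound
        intro y hy
        have g1 := hlip ℝ (W k) C (fun y hy =>
          ⟨((hW k).contDiffAt (isOpen_ball.mem_nhds (sub_half (hball y hy).1))).differentiableAt
            (by simp), hWC k _ (hball y hy).1⟩) y hy 0 (by simp)
        rw [smul_zero, add_zero, sub_zero] at g1
        have g2 : ‖y‖ ≤ 1 := mem_closedBall_zero_iff.1 hy
        show |W k (z₁ + lam⁻¹ • y) - W k z₁| ≤ C * lam⁻¹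
        rw [← Real.norm_eq_abs]
        refine g1.trans ?_
        have g3 : 0 ≤ lam⁻¹ * C := by positivity
        nlinarith
    -- conclusion
    have hfin : lam ^ 2 ≤ A * lam := by
      rw [hlam2, hA]
      calc N z₁ ≤ ∑ _j : κ, lam * (CS * (10 * M + C)) := Finset.sum_le_sum fun j _ => hmain j
        _ = Fintype.card κ * (CS * (10 * M + C)) * lam := by
          rw [Finset.sum_const, Finset.card_univ, nsmul_eq_mul]
          ring
    have hlA : lam ≤ A := by
      have : lam * lam ≤ A * lam := by rw [← pow_two]; exact hfin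
      exact le_of_mul_le_mul_right this hlam0
    have h9 : d ^ 2 * N z₁ ≤ A ^ 2 := by
      rw [← hlam2]
      have h10 : d ^ 2 ≤ 1 := by nlinarith
      have h11 : lam ^ 2 ≤ A ^ 2 := pow_le_pow_left₀ hlam0.le hlA 2
      nlinarith [sq_nonneg lam]
    linarith
  have hzs : z ∈ closedBall (0 : Cn n) s := closedBall_subset_closedBall hρs.le hz
  have h1 := (hmax z hzs).trans key
  have h2 : s - ρ ≤ s - ‖z‖ := by
    have := mem_closedBall_zero_iff.1 hz
    linarith
  rw [le_div_iff₀ (by have : 0 < s - ρ := by linarith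
                      positivity)]
  calc N z * (s - ρ) ^ 2 ≤ N z * (s - ‖z‖) ^ 2 :=
        mul_le_mul_of_nonneg_left (pow_le_pow_left₀ (by linarith) h2 2) (hN0 z)
    _ = (s - ‖z‖) ^ 2 * N z := by ring
    _ ≤ _ := h1

end

end Crest.Agent.R281.LioB_346
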