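import Crest.Agent.R281.LioE_346
import Crest.Agent.R273.C2a_793

/-!
# R281 (S0424), leaf S-T7, part 6 (helper346): interior estimates of all orders

* `pinch_ck` : metric pinched between `lo` and `hi` on `ball z₀ R`, `det = e^f` with
               `|D^j f| ≤ K j / R^j` for all `j ≥ 1` ⟹ `|D^k (cH u)| ≤ C_k / R^k` on
               `ball z₀ (R/2)`, for every `k`
-/

set_option autoImplicit false
set_option linter.unusedSectionVars false

open Set Filter Topology Complex Metric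
open scoped ContDiff Matrix ComplexConjugate

namespace Crest.Agent.R281.LioCk_346

open Crest.Agent.R275.Geo Crest.Agent.R273.SchA_152 Crest.Agent.R273.SchE_152
  Crest.Agent.R273.Defs_333 Crest.Agent.R273.YauDefs_635 Crest.Agent.R281.LioA_346
  Crest.Agent.R281.LioC3_346 Crest.Agent.R281.LioB_346 Crest.Agent.R281.LioD_346
  Crest.Agent.R281.LioE_346

noncomputable section

variable {n : ℕ}

/-- the family of all pinched solutions on the unit ball -/
abbrev PF (n : ℕ) (lo hi : ℝ) (K : ℕ → ℝ) : Type :=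
  {p : (Cn n → ℝ) × (Cn n → ℝ) // Pin n lo hi K ⊤ 0 1 p.1 p.2}

section fam

variable {lo hi : ℝ} {K : ℕ → ℝ}

def uF : PF n lo hi K → Cn n → ℝ := fun p => p.1.1

def fF : PF n lo hi K → Cn n → ℝ := fun p => p.1.2

/-- the metric -/
def AF : MF (PF n lo hi K) n := hm uF

/-- the inverse metric -/
def GF : MF (PF n lo hi K) n := fun i z => (AF i z)⁻¹

theorem rf_u : Rf (uF : PF n lo hi K → Cn n → ℝ) := fun i => i.2.hu

theorem rf_f : Rf (fF : PF n lo hi K → Cn n → ℝ) := fun i => i.2.hf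

theorem sm_A : SM (AF : MF (PF n lo hi K) n) := rf_u.hm

theorem det_A (i : PF n lo hi K) {z : Cn n} (hz : z ∈ ball (0 : Cn n) 1) :
    (AF i z).det = (Real.exp (fF i z) : ℂ) := i.2.hdet z hz

theorem det_ne (i : PF n lo hi K) {z : Cn n} (hz : z ∈ ball (0 : Cn n) 1) :
    (AF i z).det ≠ 0 := by
  rw [det_A i hz]
  exact_mod_cast (Real.exp_pos _).ne'

theorem sm_G : SM (GF : MF (PF n lo hi K) n) := fun a b i =>
  Crest.Agent.R273.YauPf_635.contDiffOn_inv (fun a b => sm_A a b i) (fun _ hz => det_ne i hz) a b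

theorem A_mul_G (i : PF n lo hi K) {z : Cn n} (hz : z ∈ ball (0 : Cn n) 1) :
    AF i z * GF i z = 1 := Matrix.mul_nonsing_inv _ (isUnit_iff_ne_zero.2 (det_ne i hz))

theorem G_mul_A (i : PF n lo hi K) {z : Cn n} (hz : z ∈ ball (0 : Cn n) 1) :
    GF i z * AF i z = 1 := Matrix.nonsing_inv_mul _ (isUnit_iff_ne_zero.2 (det_ne i hz))

theorem ell_A (i : PF n lo hi K) {z : Cn n} (hz : z ∈ ball (0 : Cn n) 1) :
    EllC (lo / 4) (hi / 4) (AF i z) := ell_of_lev (rf_u.at i hz) (i.2.hlev z hz)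

theorem ell_G (hlo : 0 < lo) (hhi : 0 < hi) (i : PF n lo hi K) {z : Cn n}
    (hz : z ∈ ball (0 : Cn n) 1) : EllC (lo / 4 / (hi / 4) ^ 2) (1 / (lo / 4)) (GF i z) :=
  ell_inv (by positivity) (by positivity) (ell_A i hz) (det_ne i hz)

theorem ell_mono {lo hi lo' hi' : ℝ} {G : Matrix (Fin n) (Fin n) ℂ} (h : EllC lo hi G)
    (h1 : lo' ≤ lo) (h2 : hi ≤ hi') : EllC lo' hi' G := by
  refine ⟨h.1, fun ζ => ?_⟩
  have h0 : 0 ≤ ∑ a, ‖ζ a‖ ^ 2 := Finset.sum_nonneg fun _ _ => by positivity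
  exact ⟨(mul_le_mul_of_nonneg_right h1 h0).trans (h.2 ζ).1,
    (h.2 ζ).2.trans (mul_le_mul_of_nonneg_right h2 h0)⟩

theorem norm_A_le (hlo : 0 < lo) (hhi : 0 < hi) (i : PF n lo hi K) {z : Cn n}
    (hz : z ∈ ball (0 : Cn n) 1) (a b : Fin n) : ‖en AF a b i z‖ ≤ hi / 2 := by
  have := ell_entry (by positivity) (by positivity) (ell_A i hz) a b
  refine this.trans (le_of_eq (by ring))

theorem norm_G_le (hlo : 0 < lo) (hhi : 0 < hi) (i : PF n lo hi K) {z : Cn n}
    (hz : z ∈ ball (0 : Cn n) 1) (a b : Fin n) : ‖en GF a b i z‖ ≤ 8 / lo := by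
  have := ell_entry (by positivity) (by positivity) (ell_G hlo hhi i hz) a b
  refine this.trans (le_of_eq (by field_simp; norm_num))

/-- first derivatives of the metric (Calabi) -/
theorem norm_DA (n : ℕ) (lo hi : ℝ) (K : ℕ → ℝ) (hlo : 0 < lo) : ∃ C : ℝ, 0 ≤ C ∧
    ∀ (i : PF n lo hi K), ∀ z ∈ ball (0 : Cn n) (1 / 2), ∀ a b, ‖fderiv ℝ (en AF a b i) z‖ ≤ C := by
  obtain ⟨C, hC0, hC⟩ := pinch_c3 n lo hi K hlo
  refine ⟨C, hC0, fun i z hz a b => ?_⟩
  have hp : Pin n lo hi K 3 0 1 (uF i) (fF i) :=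
    { hu := i.2.hu
      hf := i.2.hf
      hlev := i.2.hlev
      hdet := i.2.hdet
      hfK := fun z hz j hj _ => i.2.hfK z hz j hj le_top }
  have := hC 0 1 (uF i) (fF i) one_pos hp z hz a b
  rwa [div_one] at this

/-- first derivatives of the inverse metric -/
theorem norm_DG (n : ℕ) {lo hi : ℝ} (K : ℕ → ℝ) (hlo : 0 < lo) (hhi : 0 < hi) : ∃ C : ℝ, 0 ≤ C ∧
    ∀ (i : PF n lo hi K), ∀ z ∈ ball (0 : Cn n) (1 / 2), ∀ a b, ‖fderiv ℝ (en GF a b i) z‖ ≤ C := by
  obtain ⟨C, hC0, hC⟩ := norm_DA n lo hi K hlo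
  refine ⟨n * (n * (8 / lo * C) * (8 / lo)), by positivity, fun i z hz a b => ?_⟩
  refine ContinuousLinearMap.opNorm_le_bound _ (by positivity) fun v => ?_
  have h1 := congrFun (congrFun (dm_inv (A := AF) (G := GF) sm_A sm_G
    (fun i z hz => A_mul_G i hz) v i (sub_half hz)) a) b
  have h2 : ∀ c d, ‖dm v AF i z c d‖ ≤ C * ‖v‖ := fun c d =>
    (ContinuousLinearMap.le_opNorm _ _).trans
      (mul_le_mul_of_nonneg_right (hC i z hz c d) (norm_nonneg _))
  have h3 : ∀ c, ‖(GF i z * dm v AF i z) a c‖ ≤ n * (8 / lo * (C * ‖v‖)) := by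
    intro c
    rw [Matrix.mul_apply]
    refine (norm_sum_le _ _).trans ((Finset.sum_le_sum fun d _ => ?_).trans
      (le_of_eq (by rw [Finset.sum_const, Finset.card_univ, Fintype.card_fin, nsmul_eq_mul])))
    rw [norm_mul]
    exact mul_le_mul (norm_G_le hlo hhi i (sub_half hz) a d) (h2 d c) (norm_nonneg _)
      (by positivity)
  have h4 : fderiv ℝ (en GF a b i) z v = dm v GF i z a b := rfl
  rw [h4, h1]
  show ‖(-1 : ℂ) • (GF i z * dm v AF i z * GF i z) a b‖ ≤ _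
  rw [norm_smul, norm_neg, norm_one, one_mul, Matrix.mul_apply]
  refine (norm_sum_le _ _).trans ((Finset.sum_le_sum fun c _ => ?_).trans
    (le_of_eq (?_ : ∑ _c : Fin n, n * (8 / lo * (C * ‖v‖)) * (8 / lo) = _)))
  · rw [norm_mul]
    exact mul_le_mul (h3 c) (norm_G_le hlo hhi i (sub_half hz) c b) (norm_nonneg _) (by positivity)
  · rw [Finset.sum_const, Finset.card_univ, Fintype.card_fin, nsmul_eq_mul]
    ring

/-! ### the equation and its derivatives -/

/-- first derivative of `log det` -/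
theorem eq1 (w : Cn n) (i : PF n lo hi K) {z : Cn n} (hz : z ∈ ball (0 : Cn n) 1) :
    (GF i z * dm w AF i z).trace = dv w (cx fF) i z := by
  have hA : ∀ a b, HasFDerivAt (fun y => AF i y a b) (fderiv ℝ (fun y => AF i y a b) z) z :=
    fun a b => ((sm_A a b).diff i hz).hasFDerivAt
  have h1 := (Crest.Agent.R273.C2a_793.hasFDerivAt_det hA).fderiv
  have hf : HasFDerivAt (fF i) (fderiv ℝ (fF i) z) z := (rf_f.diff i hz).hasFDerivAt
  have h2 : HasFDerivAt (fun y => ((Real.exp (fF i y) : ℝ) : ℂ))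
      (Complex.ofRealCLM.comp (Real.exp (fF i z) • fderiv ℝ (fF i) z)) z :=
    Complex.ofRealCLM.hasFDerivAt.comp z hf.exp
  have h3 : (fun y => (AF i y).det) =ᶠ[𝓝 z] fun y => ((Real.exp (fF i y) : ℝ) : ℂ) :=
    Filter.eventually_of_mem (isOpen_ball.mem_nhds hz) fun y hy => det_A i hy
  have h4 := h3.fderiv_eq (𝕜 := ℝ)
  rw [h1, h2.fderiv] at h4
  have h5 := congrArg (fun L : Cn n →L[ℝ] ℂ => L w) h4
  simp only [_root_.sum_apply, _root_.smul_apply, smul_eq_mul, ContinuousLinearMap.comp_apply,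
    Complex.ofRealCLM_apply] at h5
  have h6 : (AF i z).adjugate = (AF i z).det • GF i z := by
    have hu : IsUnit (AF i z).det := isUnit_iff_ne_zero.2 (det_ne i hz)
    rw [GF, Matrix.inv_def, smul_smul, Ring.mul_inverse_cancel _ hu, one_smul]
  have h7 : ∑ a, ∑ b, (AF i z).adjugate a b * (fderiv ℝ (fun y => AF i y b a) z) w
      = (AF i z).det * (GF i z * dm w AF i z).trace := by
    rw [h6, Matrix.trace, Finset.mul_sum]
    refine Finset.sum_congr rfl fun a _ => ?_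
    rw [Matrix.diag_apply, Matrix.mul_apply, Finset.mul_sum]
    refine Finset.sum_congr rfl fun b _ => ?_
    rw [Matrix.smul_apply, smul_eq_mul, mul_assoc]
    rfl
  rw [h7] at h5
  have h8 : dv w (cx fF) i z = ((fderiv ℝ (fF i) z w : ℝ) : ℂ) := dv_cx rf_f w i hz
  rw [h8]
  refine mul_left_cancel₀ (det_ne i hz) (h5.trans ?_)
  rw [det_A i hz]
  push_cast
  ring

/-- right hand side -/
def KF (v w : Cn n) : PF n lo hi K → Cn n → ℂ := fun i z =>
  dv v (dv w (cx fF)) i z - (dm v GF i z * dm w AF i z).trace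

/-- second derivative of `log det` -/
theorem eq2 (v w : Cn n) (i : PF n lo hi K) {z : Cn n} (hz : z ∈ ball (0 : Cn n) 1) :
    (GF i z * dm v (dm w AF) i z).trace = KF v w i z := by
  have s1 : SM (fun (i : PF n lo hi K) z => GF i z * dm w AF i z) := sm_G.mul (sm_A.dm w)
  have h1 := dv_congr (F := fun i z => (GF i z * dm w AF i z).trace) (G := dv w (cx fF))
    (fun i z hz => (eq1 (lo := lo) (hi := hi) (K := K) w i hz).symm) v i z hz
  rw [dm_tr s1 v i hz, dm_mul sm_G (sm_A.dm w) v i hz, Matrix.trace_add] at h1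
  rw [KF, h1]
  ring

theorem sf_K (v w : Cn n) : Sf (KF v w : PF n lo hi K → Cn n → ℂ) := by
  have s1 : SM (fun (i : PF n lo hi K) z => dm v GF i z * dm w AF i z) :=
    (sm_G.dm v).mul (sm_A.dm w)
  exact (((rf_f.sf.dv w).dv v).add ((Sf.const fun _ => (-1 : ℂ)).mul s1.tr)).congr
    fun i z _ => by
      show dv v (dv w (cx fF)) i z - (dm v GF i z * dm w AF i z).trace = _
      ring

/-- real and imaginary parts of the entries of the metric -/
def WF (k : Fin n × Fin n × Bool) : PF n lo hi K → Cn n → ℝ := fun i z =>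
  if k.2.2 then (AF i z k.1 k.2.1).im else (AF i z k.1 k.2.1).re

theorem rf_W (k : Fin n × Fin n × Bool) : Rf (WF k : PF n lo hi K → Cn n → ℝ) := fun i => by
  rcases k with ⟨a, b, s⟩
  cases s
  · exact Complex.reCLM.contDiff.comp_contDiffOn (sm_A a b i)
  · exact Complex.imCLM.contDiff.comp_contDiffOn (sm_A a b i)

theorem en_A_eq (a b : Fin n) (i : PF n lo hi K) (z : Cn n) :
    en AF a b i z = cx (WF (a, b, false)) i z + I * cx (WF (a, b, true)) i z := by
  show AF i z a b = (((AF i z a b).re : ℝ) : ℂ) + I * (((AF i z a b).im : ℝ) : ℂ)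
  rw [mul_comm I]
  exact (Complex.re_add_im _).symm

/-- vectors entering the second derivatives -/
def v1 (k : Fin n × Fin n × Bool) : Cn n × Cn n :=
  (EuclideanSpace.single k.1 1, EuclideanSpace.single k.2.1 (if k.2.2 then I else 1))

def v2 (k : Fin n × Fin n × Bool) : Cn n × Cn n :=
  (EuclideanSpace.single k.1 I, EuclideanSpace.single k.2.1 (if k.2.2 then 1 else I))

/-- sign -/
def sg (k : Fin n × Fin n × Bool) : ℝ := if k.2.2 then -1 else 1

theorem W_eq (k : Fin n × Fin n × Bool) (i : PF n lo hi K) (z : Cn n) :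
    WF k i z = 1 / 4 * (D2 (uF i) z (v1 k).1 (v1 k).2 + sg k * D2 (uF i) z (v2 k).1 (v2 k).2) := by
  rcases k with ⟨a, b, s⟩
  have h1 : AF i z a b = cH (uF i) z a b := rfl
  cases s
  · simp only [WF, v1, v2, sg, h1, cH, Matrix.of_apply, Bool.false_eq_true, if_false]
    simp only [Complex.mul_re, Complex.add_re, Complex.add_im, Complex.ofReal_re,
      Complex.ofReal_im, Complex.I_re, Complex.I_im, Complex.mul_im]
    norm_num
  · simp only [WF, v1, v2, sg, h1, cH, Matrix.of_apply, if_true]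
    simp only [Complex.mul_re, Complex.add_re, Complex.add_im, Complex.ofReal_re,
      Complex.ofReal_im, Complex.I_re, Complex.I_im, Complex.mul_im]
    norm_num
    ring

/-- `D_x D_y u` -/
def ddu (x y : Cn n) : PF n lo hi K → Cn n → ℝ := dr x (dr y uF)

theorem ddu_eq (x y : Cn n) (i : PF n lo hi K) {z : Cn n} (hz : z ∈ ball (0 : Cn n) 1) :
    ddu x y i z = D2 (uF i) z x y :=
  fd2_eval ((rf_u.at i hz).of_le Crest.Agent.R273.YauCh_635.two_le_inf) x y

theorem hm_ddu (x y : Cn n) (i : PF n lo hi K) {z : Cn n} (hz : z ∈ ball (0 : Cn n) 1) :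
    hm (ddu x y) i z = dm x (dm y AF) i z := by
  rw [ddu, hm_dr (rf_u.dr y) x i hz]
  ext a b
  exact dv_congr (F := en (dm y AF) a b) (G := en (hm (dr y uF)) a b) (fun i z hz => by
    show hm (dr y uF) i z a b = dm y AF i z a b
    rw [hm_dr rf_u y i hz]
    rfl) x i z hz

theorem cH_comb {u v : Cn n → ℝ} {z : Cn n} (c d : ℝ) (hu : ContDiffAt ℝ ∞ u z)
    (hv : ContDiffAt ℝ ∞ v z) :
    cH (fun w => c * u w + d * v w) z = (c : ℂ) • cH u z + (d : ℂ) • cH v z := by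
  have hs : ∀ {w : Cn n → ℝ} (c : ℝ), ContDiffAt ℝ ∞ w z →
      cH (fun y => c * w y) z = (c : ℂ) • cH w z := by
    intro w c hw
    rw [Crest.Agent.R273.YauMax_635.cH_eq_hess (contDiffAt_const.mul hw),
      Crest.Agent.R273.YauMax_635.cH_eq_hess hw]
    exact Crest.Agent.R273.HessB_333.hess_const_mul c hw
  rw [Crest.Agent.R273.YauPf_635.cH_add' (contDiffAt_const.mul hu) (contDiffAt_const.mul hv),
    hs c hu, hs d hv]

/-- right hand side for `WF k` -/
def HF (k : Fin n × Fin n × Bool) : PF n lo hi K → Cn n → ℂ := fun i z =>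
  ((1 / 4 : ℝ) : ℂ) * KF (v1 k).1 (v1 k).2 i z
    + ((1 / 4 * sg k : ℝ) : ℂ) * KF (v2 k).1 (v2 k).2 i z

theorem sf_H (k : Fin n × Fin n × Bool) : Sf (HF k : PF n lo hi K → Cn n → ℂ) :=
  ((Sf.const fun _ => _).mul (sf_K _ _)).add ((Sf.const fun _ => _).mul (sf_K _ _))

theorem cH_congr {u v : Cn n → ℝ} {z : Cn n} (h : u =ᶠ[𝓝 z] v) : cH u z = cH v z := by
  have h1 : fderiv ℝ u =ᶠ[𝓝 z] fderiv ℝ v := h.fderiv (𝕜 := ℝ)
  have h2 : fderiv ℝ (fderiv ℝ u) z = fderiv ℝ (fderiv ℝ v) z := h1.fderiv_eq (𝕜 := ℝ)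
  ext a b
  simp only [cH, Matrix.of_apply, D2, h2]

/-- the equation for the real and imaginary parts of the metric -/
theorem eq3 (k : Fin n × Fin n × Bool) (i : PF n lo hi K) {z : Cn n}
    (hz : z ∈ ball (0 : Cn n) 1) : (GF i z * hm (WF k) i z).trace = HF k i z := by
  have h1 : WF k i =ᶠ[𝓝 z] fun y => 1 / 4 * ddu (v1 k).1 (v1 k).2 i y
      + 1 / 4 * sg k * ddu (v2 k).1 (v2 k).2 i y := by
    refine Filter.eventually_of_mem (isOpen_ball.mem_nhds hz) fun y hy => ?_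
    show WF k i y = 1 / 4 * ddu (v1 k).1 (v1 k).2 i y
      + 1 / 4 * sg k * ddu (v2 k).1 (v2 k).2 i y
    rw [W_eq, ddu_eq _ _ i hy, ddu_eq _ _ i hy]
    ring
  have h2 : hm (WF k) i z = ((1 / 4 : ℝ) : ℂ) • hm (ddu (v1 k).1 (v1 k).2) i z
      + ((1 / 4 * sg k : ℝ) : ℂ) • hm (ddu (v2 k).1 (v2 k).2) i z := by
    show cH (WF k i) z = _
    rw [cH_congr h1]
    exact cH_comb _ _ (((rf_u.dr _).dr _).at i hz) (((rf_u.dr _).dr _).at i hz)
  rw [h2, Matrix.mul_add, Matrix.mul_smul, Matrix.mul_smul, Matrix.trace_add, Matrix.trace_smul,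
    Matrix.trace_smul, hm_ddu _ _ i hz, hm_ddu _ _ i hz, eq2 _ _ i hz, eq2 _ _ i hz]
  rfl

/-! ### bounded right hand side -/

/-- the sum of the norms of the second derivatives of the metric -/
def NF : PF n lo hi K → Cn n → ℝ := fun i z =>
  ∑ k : Fin n × Fin n × Bool, ‖fderiv ℝ (fderiv ℝ (WF k i)) z‖

theorem NF_nonneg (i : PF n lo hi K) (z : Cn n) : 0 ≤ NF i z :=
  Finset.sum_nonneg fun _ _ => ContinuousLinearMap.opNorm_nonneg _

theorem b1_of {F : PF n lo hi K → Cn n → ℂ} {M M' : ℝ} (hM : 0 ≤ M) (hM' : 0 ≤ M')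
    (h : ∀ i, ∀ z ∈ ball (0 : Cn n) (1 / 2), ‖F i z‖ ≤ M)
    (h' : ∀ i, ∀ z ∈ ball (0 : Cn n) (1 / 2), ‖fderiv ℝ (F i) z‖ ≤ M' * (1 + NF i z)) :
    B1 NF F :=
  ⟨M + M', by positivity, fun i z hz => ⟨(h i z hz).trans (by linarith), (h' i z hz).trans
    (mul_le_mul_of_nonneg_right (by linarith) (by linarith [NF_nonneg i z]))⟩⟩

theorem b1_A (hlo : 0 < lo) (hhi : 0 < hi) (a b : Fin n) :
    B1 NF (en (AF : MF (PF n lo hi K) n) a b) := by
  obtain ⟨C, hC0, hC⟩ := norm_DA n lo hi K hlo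
  refine b1_of (M := hi / 2) (by positivity) hC0
    (fun i z hz => norm_A_le hlo hhi i (sub_half hz) a b)
    fun i z hz => (hC i z hz a b).trans ?_
  nlinarith [NF_nonneg i z]

theorem b1_G (hlo : 0 < lo) (hhi : 0 < hi) (a b : Fin n) :
    B1 NF (en (GF : MF (PF n lo hi K) n) a b) := by
  obtain ⟨C, hC0, hC⟩ := norm_DG n K hlo hhi
  refine b1_of (M := 8 / lo) (by positivity) hC0
    (fun i z hz => norm_G_le hlo hhi i (sub_half hz) a b)
    fun i z hz => (hC i z hz a b).trans ?_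
  nlinarith [NF_nonneg i z]

theorem norm_DW (n : ℕ) (lo hi : ℝ) (K : ℕ → ℝ) (hlo : 0 < lo) : ∃ C : ℝ, 0 ≤ C ∧
    ∀ (i : PF n lo hi K), ∀ z ∈ ball (0 : Cn n) (1 / 2), ∀ k, ‖fderiv ℝ (WF k i) z‖ ≤ C := by
  obtain ⟨C, hC0, hC⟩ := norm_DA n lo hi K hlo
  refine ⟨C, hC0, fun i z hz k => ?_⟩
  rcases k with ⟨a, b, s⟩
  have hd := ((sm_A a b).diff i (sub_half hz)).hasFDerivAt
  refine ContinuousLinearMap.opNorm_le_bound _ hC0 fun v => ?_
  have h2 : ‖fderiv ℝ (en AF a b i) z v‖ ≤ C * ‖v‖ :=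
    (ContinuousLinearMap.le_opNorm _ _).trans
      (mul_le_mul_of_nonneg_right (hC i z hz a b) (norm_nonneg _))
  cases s
  · have h1 : HasFDerivAt (WF (a, b, false) i) (Complex.reCLM.comp (fderiv ℝ (en AF a b i) z)) z :=
      Complex.reCLM.hasFDerivAt.comp z hd
    rw [h1.fderiv]
    exact (Complex.abs_re_le_norm _).trans h2
  · have h1 : HasFDerivAt (WF (a, b, true) i) (Complex.imCLM.comp (fderiv ℝ (en AF a b i) z)) z :=
      Complex.imCLM.hasFDerivAt.comp z hd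
    rw [h1.fderiv]
    exact (Complex.abs_im_le_norm _).trans h2

/-- derivative of a directional derivative of a real family -/
theorem norm_fd_cxdr {w : PF n lo hi K → Cn n → ℝ} (hw : Rf w) (v : Cn n) (i : PF n lo hi K)
    {z : Cn n} (hz : z ∈ ball (0 : Cn n) 1) :
    ‖fderiv ℝ (cx (dr v w) i) z‖ ≤ ‖v‖ * ‖fderiv ℝ (fderiv ℝ (w i)) z‖ := by
  refine ContinuousLinearMap.opNorm_le_bound _
    (mul_nonneg (norm_nonneg _) (ContinuousLinearMap.opNorm_nonneg _)) fun x => ?_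
  have h1 : fderiv ℝ (cx (dr v w) i) z x = ((fderiv ℝ (fderiv ℝ (w i)) z x v : ℝ) : ℂ) := by
    have h2 : fderiv ℝ (cx (dr v w) i) z x = ((fderiv ℝ (dr v w i) z x : ℝ) : ℂ) :=
      fderiv_ofReal ((hw.dr v).diff i hz) x
    rw [h2]
    congr 1
    exact fd2_eval ((hw.at i hz).of_le Crest.Agent.R273.YauCh_635.two_le_inf) x v
  rw [h1, Complex.norm_real]
  have a1 := (fderiv ℝ (fderiv ℝ (w i)) z x).le_opNorm v
  have a2 := (fderiv ℝ (fderiv ℝ (w i)) z).le_opNorm x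
  calc _ ≤ ‖fderiv ℝ (fderiv ℝ (w i)) z x‖ * ‖v‖ := a1
    _ ≤ (‖fderiv ℝ (fderiv ℝ (w i)) z‖ * ‖x‖) * ‖v‖ := mul_le_mul_of_nonneg_right a2 (norm_nonneg _)
    _ = ‖v‖ * ‖fderiv ℝ (fderiv ℝ (w i)) z‖ * ‖x‖ := by ring

theorem b1_dvW (hlo : 0 < lo) (k : Fin n × Fin n × Bool) (v : Cn n) :
    B1 NF (dv v (cx (WF k : PF n lo hi K → Cn n → ℝ))) := by
  obtain ⟨C, hC0, hC⟩ := norm_DW n lo hi K hlo
  refine B1.congr (F := cx (dr v (WF k))) ?_ fun i z hz => dv_cx (rf_W k) v i hz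
  refine b1_of (M := C * ‖v‖) (by positivity) (norm_nonneg v) (fun i z hz => ?_)
    fun i z hz => ?_
  · show ‖((fderiv ℝ (WF k i) z v : ℝ) : ℂ)‖ ≤ _
    rw [Complex.norm_real]
    exact (ContinuousLinearMap.le_opNorm _ _).trans
      (mul_le_mul_of_nonneg_right (hC i z hz k) (norm_nonneg _))
  · refine (norm_fd_cxdr (rf_W k) v i (sub_half hz)).trans
      (mul_le_mul_of_nonneg_left ?_ (norm_nonneg _))
    have h1 : ‖fderiv ℝ (fderiv ℝ (WF k i)) z‖ ≤ NF i z :=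
      Finset.single_le_sum (f := fun k => ‖fderiv ℝ (fderiv ℝ (WF k i)) z‖)
        (fun _ _ => ContinuousLinearMap.opNorm_nonneg _) (Finset.mem_univ k)
    linarith

theorem b1_dvA (hlo : 0 < lo) (a b : Fin n) (v : Cn n) :
    B1 NF (en (dm v (AF : MF (PF n lo hi K) n)) a b) := by
  have s1 := (rf_W (a, b, false) (n := n) (lo := lo) (hi := hi) (K := K)).sf
  have s2 := (rf_W (a, b, true) (n := n) (lo := lo) (hi := hi) (K := K)).sf
  refine B1.congr (B1.add (s1.dv v) ((Sf.const fun _ => I).mul (s2.dv v)) (b1_dvW hlo _ v)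
    (B1.const_mul NF_nonneg (s2.dv v) (b1_dvW hlo _ v) I)) fun i z hz => ?_
  show fderiv ℝ (en AF a b i) z v = fderiv ℝ (cx (WF (a, b, false)) i) z v
    + I * fderiv ℝ (cx (WF (a, b, true)) i) z v
  have h1 : en AF a b i = fun z => cx (WF (a, b, false)) i z + I * cx (WF (a, b, true)) i z :=
    funext fun z => en_A_eq a b i z
  rw [h1, fderiv_fun_add (s1.diff i hz) ((s2.diff i hz).const_mul I),
    fderiv_const_mul (s2.diff i hz)]
  rfl

theorem b1_dvG (hlo : 0 < lo) (hhi : 0 < hi) (a b : Fin n) (v : Cn n) :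
    B1 NF (en (dm v (GF : MF (PF n lo hi K) n)) a b) := by
  have h1 := B1.matmul NF_nonneg (sm_G.mul (sm_A.dm v)) sm_G
    (B1.matmul NF_nonneg sm_G (sm_A.dm v) (b1_G hlo hhi (K := K)) fun a b => b1_dvA hlo a b v)
    (b1_G hlo hhi) a b
  refine (B1.const_mul NF_nonneg (((sm_G.mul (sm_A.dm v)).mul sm_G) a b) h1 (-1)).congr
    fun i z hz => ?_
  exact congrFun (congrFun (dm_inv (A := AF) (G := GF) sm_A sm_G
    (fun i z hz => A_mul_G i hz) v i hz) a) b

/-- the right hand side `f` has bounded derivatives -/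
theorem ab_f (v : Cn n) : AB (dv v (cx (fF : PF n lo hi K → Cn n → ℝ))) := by
  intro j
  refine ⟨‖v‖ * |K (j + 1)|, by positivity, fun i z hz => ?_⟩
  refine (norm_iter_dv rf_f.sf v j i hz).trans (mul_le_mul_of_nonneg_left ?_ (norm_nonneg _))
  have h1 := i.2.hfK z hz (j + 1) (by omega) le_top
  rw [one_pow, div_one] at h1
  have h2 : cx fF i = fun z => Complex.ofRealLI (fF i z) := rfl
  have h3 : ‖iteratedFDeriv ℝ (j + 1) (cx fF i) z‖ = ‖iteratedFDeriv ℝ (j + 1) (fF i) z‖ := by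
    rw [h2]
    exact Complex.ofRealLI.norm_iteratedFDeriv_comp_left (f := fF i)
      (((rf_f i).contDiffAt (isOpen_ball.mem_nhds hz)).of_le
        (by exact_mod_cast le_top)) le_rfl
  rw [h3]
  exact h1.trans (le_abs_self _)

theorem b1_of_ab {F : PF n lo hi K → Cn n → ℂ} (h : AB F) : B1 NF F := by
  obtain ⟨K0, hK0, H0⟩ := h 0
  obtain ⟨K1, hK1, H1⟩ := h 1
  refine b1_of hK0 hK1 (fun i z hz => ?_) fun i z hz => ?_
  · have := H0 i z (sub_half hz)
    rwa [norm_iteratedFDeriv_zero] at this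
  · have := H1 i z (sub_half hz)
    rw [norm_iteratedFDeriv_one] at this
    refine this.trans ?_
    nlinarith [NF_nonneg i z]

theorem b1_K (hlo : 0 < lo) (hhi : 0 < hi) (v w : Cn n) :
    B1 NF (KF v w : PF n lo hi K → Cn n → ℂ) := by
  have s1 : SM (fun (i : PF n lo hi K) z => dm v GF i z * dm w AF i z) :=
    (sm_G.dm v).mul (sm_A.dm w)
  have h1 : B1 NF (fun (i : PF n lo hi K) z => (dm v GF i z * dm w AF i z).trace) :=
    B1.sum NF_nonneg Finset.univ (fun c _ => s1 c c) fun c _ =>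
      B1.matmul NF_nonneg (sm_G.dm v) (sm_A.dm w) (fun a b => b1_dvG hlo hhi a b v)
        (fun a b => b1_dvA hlo a b w) c c
  have h2 : B1 NF (dv v (dv w (cx (fF : PF n lo hi K → Cn n → ℝ)))) :=
    b1_of_ab ((ab_f w).dv (rf_f.sf.dv w) v)
  refine (B1.add ((rf_f.sf.dv w).dv v) ((Sf.const fun _ => (-1 : ℂ)).mul s1.tr) h2
    (B1.const_mul NF_nonneg s1.tr h1 (-1))).congr fun i z _ => ?_
  show dv v (dv w (cx fF)) i z - (dm v GF i z * dm w AF i z).trace = _
  ring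

theorem b1_H (hlo : 0 < lo) (hhi : 0 < hi) (k : Fin n × Fin n × Bool) :
    B1 NF (HF k : PF n lo hi K → Cn n → ℂ) :=
  B1.add ((Sf.const fun _ => _).mul (sf_K _ _)) ((Sf.const fun _ => _).mul (sf_K _ _))
    (B1.const_mul NF_nonneg (sf_K _ _) (b1_K hlo hhi _ _) _)
    (B1.const_mul NF_nonneg (sf_K _ _) (b1_K hlo hhi _ _) _)

/-- second derivatives of the metric -/
theorem norm_D2W (n : ℕ) {lo hi : ℝ} (K : ℕ → ℝ) (hlo : 0 < lo) (hlohi : lo ≤ hi) {ρ : ℝ}
    (h0 : 0 < ρ) (h1 : ρ < 1 / 2) : ∃ B : ℝ, ∀ (i : PF n lo hi K),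
      ∀ z ∈ closedBall (0 : Cn n) ρ, NF i z ≤ B := by
  have hhi : 0 < hi := hlo.trans_le hlohi
  obtain ⟨CW, hCW0, hCW⟩ := norm_DW n lo hi K hlo
  obtain ⟨CG, hCG0, hCG⟩ := norm_DG n K hlo hhi
  set lo' : ℝ := lo / 4 / (hi / 4) ^ 2
  set hi' : ℝ := 1 / (lo / 4)
  have hlo' : 0 < lo' := by positivity
  have hhi' : 0 < hi' := by positivity
  obtain ⟨M, hM0, hM⟩ : ∃ M, 0 ≤ M ∧ ∀ (k : Fin n × Fin n × Bool) (i : PF n lo hi K),
      ∀ z ∈ ball (0 : Cn n) (1 / 2), ‖HF k i z‖ ≤ M ∧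
        ‖fderiv ℝ (HF k i) z‖ ≤ M * (1 + NF i z) := by
    refine exists_unif (P := fun k M => ∀ (i : PF n lo hi K),
      ∀ z ∈ ball (0 : Cn n) (1 / 2), ‖HF k i z‖ ≤ M ∧
        ‖fderiv ℝ (HF k i) z‖ ≤ M * (1 + NF i z)) (fun k x y hxy h i z hz => ?_) fun k =>
        b1_H hlo hhi k
    exact ⟨(h i z hz).1.trans hxy, (h i z hz).2.trans
      (mul_le_mul_of_nonneg_right hxy (by linarith [NF_nonneg i z]))⟩
  obtain ⟨B, hB⟩ := point_pick (n := n) (κ := Fin n × Fin n × Bool) (lo := lo') (hi := max hi' lo')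
    (C := max CW (max CG (8 / lo))) (M := M) hlo' (le_max_right _ _)
    (hCW0.trans (le_max_left _ _)) hM0 h0 h1
  refine ⟨B, fun i => hB (fun k => WF k i) (GF i) (fun k z => (HF k i z).re)
    (fun k => rf_W k i) (fun z hz => ell_mono (ell_G hlo hhi i (sub_half hz)) le_rfl
      (le_max_left _ _)) (fun a b z hz => ⟨(sm_G a b).diff i (sub_half hz),
        (norm_G_le hlo hhi i (sub_half hz) a b).trans ((le_max_right _ _).trans
          (le_max_right _ _)), (hCG i z hz a b).trans ((le_max_left _ _).trans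
            (le_max_right _ _))⟩) (fun k z hz => (hCW i z hz k).trans (le_max_left _ _))
      fun k z hz => ⟨?_, ?_, ?_, ?_⟩⟩
  · show (HF k i z).re = _
    rw [← eq3 k i (sub_half hz)]
    rfl
  · exact (Complex.reCLM.differentiable _).comp z ((sf_H k).diff i (sub_half hz))
  · exact (Complex.abs_re_le_norm _).trans (hM k i z hz).1
  · have h2 : HasFDerivAt (fun z => (HF k i z).re) (Complex.reCLM.comp (fderiv ℝ (HF k i) z)) z :=
      Complex.reCLM.hasFDerivAt.comp z ((sf_H k).diff i (sub_half hz)).hasFDerivAt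
    rw [h2.fderiv]
    refine le_trans ?_ (hM k i z hz).2
    refine ContinuousLinearMap.opNorm_le_bound _ (norm_nonneg _) fun v => ?_
    exact (Complex.abs_re_le_norm _).trans (ContinuousLinearMap.le_opNorm _ _)

/-! ### bootstrapping -/

theorem uh_W1 (hlo : 0 < lo) (hlohi : lo ≤ hi) (k : Fin n × Fin n × Bool) :
    UH 1 (cx (WF k : PF n lo hi K → Cn n → ℝ)) := by
  have hhi : 0 < hi := hlo.trans_le hlohi
  obtain ⟨CW, hCW0, hCW⟩ := norm_DW n lo hi K hlo
  refine ⟨h0_of_fderiv (rf_W k).sf fun ρ h0 h1 => ?_, fun v => ?_⟩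
  · refine ⟨max (hi / 2) CW, (by positivity : (0 : ℝ) ≤ hi / 2).trans (le_max_left _ _),
      fun i z hz => ⟨?_, ?_⟩⟩
    · have hz' := sub_half (closedBall_subset_ball h1 hz)
      have h2 := norm_A_le hlo hhi i hz' k.1 k.2.1
      refine le_trans ?_ (h2.trans (le_max_left _ _))
      show ‖((WF k i z : ℝ) : ℂ)‖ ≤ _
      rw [Complex.norm_real]
      rcases k with ⟨a, b, s⟩
      cases s
      · exact Complex.abs_re_le_norm _
      · exact Complex.abs_im_le_norm _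
    · refine le_trans ?_ ((hCW i z (closedBall_subset_ball h1 hz) k).trans (le_max_right _ _))
      refine ContinuousLinearMap.opNorm_le_bound _ (norm_nonneg _) fun v => ?_
      have h2 : fderiv ℝ (cx (WF k) i) z v = ((fderiv ℝ (WF k i) z v : ℝ) : ℂ) :=
        fderiv_ofReal ((rf_W k).diff i (sub_half (closedBall_subset_ball h1 hz))) v
      rw [h2, Complex.norm_real]
      exact ContinuousLinearMap.le_opNorm _ _
  · have h2 : H0 (cx (dr v (WF k : PF n lo hi K → Cn n → ℝ))) := by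
      refine h0_of_fderiv ((rf_W k).dr v).sf fun ρ h0 h1 => ?_
      obtain ⟨B, hB⟩ := norm_D2W n K hlo hlohi h0 h1
      refine ⟨max (CW * ‖v‖) (‖v‖ * max B 0), (by positivity : (0 : ℝ) ≤ CW * ‖v‖).trans
        (le_max_left _ _), fun i z hz => ⟨?_, ?_⟩⟩
      · refine le_trans ?_ (le_max_left _ _)
        show ‖((fderiv ℝ (WF k i) z v : ℝ) : ℂ)‖ ≤ _
        rw [Complex.norm_real]
        exact (ContinuousLinearMap.le_opNorm _ _).trans
          (mul_le_mul_of_nonneg_right (hCW i z (closedBall_subset_ball h1 hz) k) (norm_nonneg _))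
      · refine le_trans ?_ (le_max_right _ _)
        refine (norm_fd_cxdr (rf_W k) v i (sub_half (closedBall_subset_ball h1 hz))).trans
          (mul_le_mul_of_nonneg_left ?_ (norm_nonneg _))
        have h3 : ‖fderiv ℝ (fderiv ℝ (WF k i)) z‖ ≤ NF i z :=
          Finset.single_le_sum (f := fun k => ‖fderiv ℝ (fderiv ℝ (WF k i)) z‖)
            (fun _ _ => ContinuousLinearMap.opNorm_nonneg _) (Finset.mem_univ k)
        exact h3.trans ((hB i z hz).trans (le_max_left _ _))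
    exact h2.congr fun i z hz => dv_cx (rf_W k) v i (sub_half hz)

theorem um_A {m : ℕ} (h : ∀ k, UH m (cx (WF k : PF n lo hi K → Cn n → ℝ))) :
    UM m (AF : MF (PF n lo hi K) n) := fun a b =>
  (UH.add (rf_W _).sf ((Sf.const fun _ => I).mul (rf_W _).sf) (h (a, b, false))
    (UH.const_mul (rf_W _).sf (h (a, b, true)) I)).congr fun i z _ => en_A_eq a b i z

theorem um_G0 (hlo : 0 < lo) (hhi : 0 < hi) : UM 0 (GF : MF (PF n lo hi K) n) := by
  intro a b
  obtain ⟨C, hC0, hC⟩ := norm_DG n K hlo hhi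
  refine h0_of_fderiv (sm_G a b) fun ρ h0 h1 => ?_
  refine ⟨max (8 / lo) C, (by positivity : (0 : ℝ) ≤ 8 / lo).trans (le_max_left _ _),
    fun i z hz => ⟨?_, ?_⟩⟩
  · exact (norm_G_le hlo hhi i (sub_half (closedBall_subset_ball h1 hz)) a b).trans
      (le_max_left _ _)
  · exact (hC i z (closedBall_subset_ball h1 hz) a b).trans (le_max_right _ _)

theorem uh_W (hlo : 0 < lo) (hlohi : lo ≤ hi) (m : ℕ) (k : Fin n × Fin n × Bool) :
    UH (m + 1) (cx (WF k : PF n lo hi K → Cn n → ℝ)) := by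
  have hhi : 0 < hi := hlo.trans_le hlohi
  induction m generalizing k with
  | zero => exact uh_W1 hlo hlohi k
  | succ m ih =>
    have hA : UM (m + 1) (AF : MF (PF n lo hi K) n) := um_A ih
    have hG : UM (m + 1) (GF : MF (PF n lo hi K) n) :=
      UM.inv sm_A sm_G (fun i z hz => A_mul_G i hz) hA (um_G0 hlo hhi)
    have hK : ∀ v w, UH m (KF v w : PF n lo hi K → Cn n → ℂ) := by
      intro v w
      have s1 : SM (fun (i : PF n lo hi K) z => dm v GF i z * dm w AF i z) :=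
        (sm_G.dm v).mul (sm_A.dm w)
      exact UH.sub ((rf_f.sf.dv w).dv v) s1.tr
        (((ab_f w).dv (rf_f.sf.dv w) v).uh ((rf_f.sf.dv w).dv v) m)
        (UM.tr s1 (UM.mul (sm_G.dm v) (sm_A.dm w) (hG.dm v) (hA.dm w)))
    have hH : UH m (fun (i : PF n lo hi K) z => (GF i z * hm (WF k) i z).trace) :=
      (UH.add ((Sf.const fun _ => _).mul (sf_K _ _)) ((Sf.const fun _ => _).mul (sf_K _ _))
        (UH.const_mul (sf_K _ _) (hK _ _) _) (UH.const_mul (sf_K _ _) (hK _ _) _)).congr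
        fun i z hz => eq3 k i hz
    exact LioD_346.lift (lo := lo / 4 / (hi / 4) ^ 2)
      (hi := max (1 / (lo / 4)) (lo / 4 / (hi / 4) ^ 2)) (by positivity) (le_max_right _ _) sm_G
      (fun i z hz => ell_mono (ell_G hlo hhi i (sub_half hz)) le_rfl (le_max_left _ _)) m hG
      (rf_W k) (ih k) hH

/-- bound of all derivatives at the centre -/
theorem norm_iter_A (n : ℕ) {lo hi : ℝ} (K : ℕ → ℝ) (hlo : 0 < lo) (hlohi : lo ≤ hi) (k : ℕ) :
    ∃ C : ℝ, 0 ≤ C ∧ ∀ (i : PF n lo hi K) (a b : Fin n),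
      ‖iteratedFDeriv ℝ k (en AF a b i) 0‖ ≤ C := by
  have hA : UM (k + 1) (AF : MF (PF n lo hi K) n) := um_A fun k' => uh_W hlo hlohi k k'
  have h1 : ∀ (ab : Fin n × Fin n), ∃ C : ℝ, 0 ≤ C ∧ ∀ (i : PF n lo hi K),
      ‖iteratedFDeriv ℝ k (en AF ab.1 ab.2 i) 0‖ ≤ C := by
    intro ab
    have h2 : ∀ J : Fin k → Fin n × Bool, ∃ M, ∀ i : PF n lo hi K,
        ‖iteratedFDeriv ℝ k (en AF ab.1 ab.2 i) 0 fun l => rb (J l)‖ ≤ M := fun J =>
      UH.iter (sm_A _ _) (hA ab.1 ab.2).of_succ _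
    choose M hM using h2
    refine ⟨∑ J, |M J|, Finset.sum_nonneg fun _ _ => abs_nonneg _, fun i => ?_⟩
    exact (norm_mult_le _).trans (Finset.sum_le_sum fun J _ => (hM J i).trans (le_abs_self _))
  obtain ⟨C, hC0, hC⟩ := exists_unif (P := fun (ab : Fin n × Fin n) C => ∀ (i : PF n lo hi K),
    ‖iteratedFDeriv ℝ k (en AF ab.1 ab.2 i) 0‖ ≤ C) (fun _ x y hxy h i => (h i).trans hxy) h1
  exact ⟨C, hC0, fun i a b => hC (a, b) i⟩

end fam

theorem Pin.abs {lo hi : ℝ} {K : ℕ → ℝ} {N : ℕ∞} {z₀ : Cn n} {R : ℝ} {u f : Cn n → ℝ}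
    (hR : 0 < R) (h : Pin n lo hi K N z₀ R u f) : Pin n lo (max hi lo) (fun j => |K j|) N z₀ R u f where
  hu := h.hu
  hf := h.hf
  hlev z hz v := ⟨(h.hlev z hz v).1, (h.hlev z hz v).2.trans
    (mul_le_mul_of_nonneg_right (le_max_left _ _) (by positivity))⟩
  hdet := h.hdet
  hfK z hz j hj hjN := (h.hfK z hz j hj hjN).trans
    (div_le_div_of_nonneg_right (le_abs_self _) (by positivity))

/-- **interior estimates of all orders for pinched solutions**, scale invariant -/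
theorem pinch_ck (n : ℕ) (lo hi : ℝ) (K : ℕ → ℝ) (hlo : 0 < lo) (k : ℕ) : ∃ C : ℝ, 0 ≤ C ∧
    ∀ (z₀ : Cn n) (R : ℝ) (u f : Cn n → ℝ), 0 < R → Pin n lo hi K ⊤ z₀ R u f →
      ∀ z ∈ ball z₀ (R / 2), ∀ a b,
        ‖iteratedFDeriv ℝ k (fun w => cH u w a b) z‖ ≤ C / R ^ k := by
  obtain ⟨C, hC0, hC⟩ := norm_iter_A n (lo := lo) (hi := max hi lo) (fun j => |K j|) hlo
    (le_max_right _ _) k
  refine ⟨2 ^ k * C, by positivity, fun z₀ R u f hR h z hz a b => ?_⟩
  have hR2 : 0 < R / 2 := by positivity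
  have hsub : ball z (R / 2) ⊆ ball z₀ R := by
    refine ball_subset_ball' ?_
    rw [mem_ball] at hz
    linarith
  have h1 : Pin n lo (max hi lo) (fun j => |K j|) ⊤ z (R / 2) u f :=
    (Pin.abs hR h).mono hR2 (fun j => abs_nonneg _) hsub (by linarith)
  have h2 := h1.us hR2
  have h3 := hC ⟨(us z (R / 2) u, sc z (R / 2) f), h2⟩ a b
  have h4 : en AF a b (⟨(us z (R / 2) u, sc z (R / 2) f), h2⟩ :
      PF n lo (max hi lo) (fun j => |K j|)) = sc z (R / 2) (fun w => cH u w a b) := by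
    funext w
    show cH (us z (R / 2) u) w a b = _
    rw [cH_us _ hR2.ne']
    rfl
  rw [h4, norm_iteratedFDeriv_sc _ hR2.le, smul_zero, add_zero] at h3
  rw [le_div_iff₀ (by positivity)]
  calc ‖iteratedFDeriv ℝ k (fun w => cH u w a b) z‖ * R ^ k
      = 2 ^ k * ((R / 2) ^ k * ‖iteratedFDeriv ℝ k (fun w => cH u w a b) z‖) := by
        rw [div_pow]
        field_simp
    _ ≤ 2 ^ k * C := mul_le_mul_of_nonneg_left h3 (by positivity)

end

end Crest.Agent.R281.LioCk_346
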