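import Crest.Agent.R281.LioB_346

/-!
# R281 (S0424), leaf S-T7, part 4 (helper346): Schauder bootstrapping for uniform families

* `schauder_uh` : `tr (G ∂∂̄w) ∈ C^{1/2}` ⟹ `w ∈ C^{2,1/2}`, uniformly
* `lift`        : `tr (G ∂∂̄w) ∈ C^{m,1/2}`, `w, G ∈ C^{m+1,1/2}` ⟹ `w ∈ C^{m+2,1/2}`
* `B1`          : families with bounds `|F| ≤ M`, `|DF| ≤ M (1 + N)`
-/

set_option autoImplicit false
set_option linter.unusedSectionVars false

open Set Filter Topology Complex Metric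
open scoped ContDiff Matrix ComplexConjugate

namespace Crest.Agent.R281.LioD_346

open Crest.Agent.R275.Geo Crest.Agent.R273.SchA_152 Crest.Agent.R273.YauSchF_635
  Crest.Agent.R273.YauQ_635 Crest.Agent.R273.SchE_152 Crest.Agent.R273.SchD_152
  Crest.Agent.R273.YauDefs_635 Crest.Agent.R281.LioA_346 Crest.Agent.R281.LioC3_346
  Crest.Agent.R281.LioB_346

noncomputable section

variable {n : ℕ} {ι : Type}

/-! ### real families -/

/-- complexification of a real family -/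
def cx (w : ι → Cn n → ℝ) : ι → Cn n → ℂ := fun i z => (w i z : ℂ)

/-- smooth real family -/
def Rf (w : ι → Cn n → ℝ) : Prop := ∀ i, ContDiffOn ℝ ∞ (w i) (ball 0 1)

/-- directional derivative of a real family -/
def dr (v : Cn n) (w : ι → Cn n → ℝ) : ι → Cn n → ℝ := fun i z => fderiv ℝ (w i) z v

theorem Rf.at {w : ι → Cn n → ℝ} (h : Rf w) (i : ι) {z : Cn n} (hz : z ∈ ball (0 : Cn n) 1) :
    ContDiffAt ℝ ∞ (w i) z := (h i).contDiffAt (isOpen_ball.mem_nhds hz)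

theorem Rf.diff {w : ι → Cn n → ℝ} (h : Rf w) (i : ι) {z : Cn n} (hz : z ∈ ball (0 : Cn n) 1) :
    DifferentiableAt ℝ (w i) z := (h.at i hz).differentiableAt (by simp)

theorem Rf.dr {w : ι → Cn n → ℝ} (h : Rf w) (v : Cn n) : Rf (dr v w) := fun i =>
  ((h i).fderiv_of_isOpen (m := ∞) isOpen_ball (by simp)).clm_apply contDiffOn_const

theorem Rf.sf {w : ι → Cn n → ℝ} (h : Rf w) : Sf (cx w) := fun i =>
  Complex.ofRealCLM.contDiff.comp_contDiffOn (h i)

theorem Rf.fd {w : ι → Cn n → ℝ} (h : Rf w) (i : ι) :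
    ContDiffOn ℝ ∞ (fderiv ℝ (w i)) (ball 0 1) := (h i).fderiv_of_isOpen isOpen_ball (by simp)

theorem fderiv_ofReal {w : Cn n → ℝ} {z : Cn n} (h : DifferentiableAt ℝ w z) (v : Cn n) :
    fderiv ℝ (fun z => (w z : ℂ)) z v = ((fderiv ℝ w z v : ℝ) : ℂ) := by
  have h1 : HasFDerivAt (fun z => (w z : ℂ)) (Complex.ofRealCLM.comp (fderiv ℝ w z)) z :=
    Complex.ofRealCLM.hasFDerivAt.comp z h.hasFDerivAt
  rw [h1.fderiv]
  rfl

theorem dv_cx {w : ι → Cn n → ℝ} (h : Rf w) (v : Cn n) (i : ι) {z : Cn n}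
    (hz : z ∈ ball (0 : Cn n) 1) : dv v (cx w) i z = cx (dr v w) i z :=
  fderiv_ofReal (h.diff i hz) v

/-! ### local to global -/

theorem ho_glue {F : Type*} [NormedAddCommGroup F] {r : Cn n → F} {Q δ ρ : ℝ} (hQ : 0 ≤ Q)
    (hδ : 0 < δ) (h : ∀ z0 ∈ closedBall (0 : Cn n) ρ, HO (1 / 2) Q (closedBall z0 δ) r) :
    HO (1 / 2) (max Q (2 * Q / δ ^ (1 / 2 : ℝ))) (closedBall 0 ρ) r := by
  have hδ' : 0 < δ ^ (1 / 2 : ℝ) := Real.rpow_pos_of_pos hδ _
  have hb : ∀ x ∈ closedBall (0 : Cn n) ρ, ‖r x‖ ≤ Q := fun x hx =>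
    (h x hx).bdd x (mem_closedBall_self hδ.le)
  refine ⟨fun x hx => (hb x hx).trans (le_max_left _ _), fun x hx y hy => ?_⟩
  have h0 : 0 ≤ ‖x - y‖ ^ (1 / 2 : ℝ) := Real.rpow_nonneg (norm_nonneg _) _
  rcases le_or_gt ‖x - y‖ δ with h1 | h1
  · have h2 := (h x hx).hol x (mem_closedBall_self hδ.le) y (by
      rw [mem_closedBall, dist_comm, dist_eq_norm]
      exact h1)
    exact h2.trans (mul_le_mul_of_nonneg_right (le_max_left _ _) h0)
  · have h2 : ‖r x - r y‖ ≤ 2 * Q := (norm_sub_le _ _).trans (by linarith [hb x hx, hb y hy])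
    have h3 : δ ^ (1 / 2 : ℝ) ≤ ‖x - y‖ ^ (1 / 2 : ℝ) :=
      Real.rpow_le_rpow hδ.le h1.le (by norm_num)
    refine h2.trans ((?_ : 2 * Q ≤ 2 * Q / δ ^ (1 / 2 : ℝ) * ‖x - y‖ ^ (1 / 2 : ℝ)).trans
      (mul_le_mul_of_nonneg_right (le_max_right _ _) h0))
    rw [div_mul_eq_mul_div, le_div_iff₀ hδ']
    exact mul_le_mul_of_nonneg_left h3 (by positivity)

theorem ho_eval {a Q : ℝ} {s : Set (Cn n)} {r : Cn n → Cn n →L[ℝ] ℝ} (h : HO a Q s r)
    (v : Cn n) : HO a (‖v‖ * Q) s (fun z => ((r z v : ℝ) : ℂ)) := by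
  refine ho_clm (fun L : Cn n →L[ℝ] ℝ => ((L v : ℝ) : ℂ)) (norm_nonneg v) (fun L => ?_)
    (fun L L' => ?_) h
  · rw [Complex.norm_real, mul_comm]
    exact L.le_opNorm v
  · rw [← Complex.ofReal_sub]
    rfl

theorem ho_eval2 {a Q : ℝ} {s : Set (Cn n)} {r : Cn n → Cn n →L[ℝ] Cn n →L[ℝ] ℝ}
    (h : HO a Q s r) (v w : Cn n) :
    HO a (‖v‖ * ‖w‖ * Q) s (fun z => ((r z v w : ℝ) : ℂ)) := by
  refine ho_clm (fun L : Cn n →L[ℝ] Cn n →L[ℝ] ℝ => ((L v w : ℝ) : ℂ)) (by positivity)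
    (fun L => ?_) (fun L L' => ?_) h
  · rw [Complex.norm_real]
    have h1 := (L v).le_opNorm w
    have h2 := L.le_opNorm v
    calc ‖L v w‖ ≤ ‖L v‖ * ‖w‖ := h1
      _ ≤ (‖L‖ * ‖v‖) * ‖w‖ := mul_le_mul_of_nonneg_right h2 (norm_nonneg _)
      _ = ‖v‖ * ‖w‖ * ‖L‖ := by ring
  · rw [← Complex.ofReal_sub]
    rfl

theorem exists_unif {κ : Type*} [Finite κ] {P : κ → ℝ → Prop}
    (hP : ∀ k x y, x ≤ y → P k x → P k y) (h : ∀ k, ∃ x, 0 ≤ x ∧ P k x) :
    ∃ x, 0 ≤ x ∧ ∀ k, P k x := by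
  choose f hf0 hf using h
  cases nonempty_fintype κ
  refine ⟨∑ k, f k, Finset.sum_nonneg fun k _ => hf0 k, fun k => hP k _ _ ?_ (hf k)⟩
  exact Finset.single_le_sum (fun j _ => hf0 j) (Finset.mem_univ k)

/-- **Schauder estimate for uniform families** -/
theorem schauder_uh {lo hi : ℝ} (hlo : 0 < lo) (hlohi : lo ≤ hi) {G : MF ι n} (hG : UM 0 G)
    (hell : ∀ i, ∀ z ∈ ball (0 : Cn n) (1 / 2), EllC lo hi (G i z)) {w : ι → Cn n → ℝ}
    (sw : Rf w) (hw : H0 (cx w)) (hh : H0 (fun i z => (G i z * cH (w i) z).trace)) :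
    UH 2 (cx w) := by
  have main : ∀ ρ : ℝ, 0 < ρ → ρ < 1 / 2 → ∃ Q : ℝ, 0 ≤ Q ∧ ∀ i,
      HO (1 / 2) Q (closedBall 0 ρ) (w i) ∧ HO (1 / 2) Q (closedBall 0 ρ) (fderiv ℝ (w i)) ∧
        HO (1 / 2) Q (closedBall 0 ρ) (fderiv ℝ (fderiv ℝ (w i))) := by
    intro ρ hρ0 hρ
    set δ : ℝ := (1 / 2 - ρ) / 2 with hδ
    have hδ0 : 0 < δ := by rw [hδ]; linarith
    have hδ1 : δ ≤ 1 := by rw [hδ]; linarith
    have hρδ : ρ + δ < 1 / 2 := by rw [hδ]; linarith
    obtain ⟨MG, hMG0, hMG⟩ : ∃ x, 0 ≤ x ∧ ∀ k : Fin n × Fin n, ∀ i,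
        HO (1 / 2) x (closedBall 0 (ρ + δ)) (en G k.1 k.2 i) :=
      exists_unif (fun k x y hxy h i => (h i).mono hxy)
        (fun k => hG k.1 k.2 (ρ + δ) (by linarith) hρδ)
    obtain ⟨N, hN0, hN⟩ := hh (ρ + δ) (by linarith) hρδ
    obtain ⟨S, hS0, hS⟩ := hw (ρ + δ) (by linarith) hρδ
    obtain ⟨C, hC0, HC⟩ := int_schauder_cx n (a := 1 / 2) (lo := lo) (hi := hi) (by norm_num)
      (by norm_num) hlo hlohi MG hδ0 hδ1
    have hsub : ∀ z0 ∈ closedBall (0 : Cn n) ρ, closedBall z0 δ ⊆ closedBall 0 (ρ + δ) := by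
      intro z0 hz0
      refine closedBall_subset_closedBall' ?_
      rw [mem_closedBall] at hz0
      linarith
    have hsub' : closedBall (0 : Cn n) (ρ + δ) ⊆ ball 0 (1 / 2) := closedBall_subset_ball hρδ
    set Q : ℝ := C * (N + S) with hQ
    have hQ0 : 0 ≤ Q := by positivity
    have loc : ∀ i, ∀ z0 ∈ closedBall (0 : Cn n) ρ, C2A (1 / 2) Q (closedBall z0 (δ / 2)) (w i) := by
      intro i z0 hz0
      have hs := hsub z0 hz0
      refine HC z0 (G i) (fun z hz => hell i z (hsub' (hs hz)))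
        (fun a b => (hMG (a, b) i).subset hs) (ball 0 1) isOpen_ball
        (fun z hz => sub_half (hsub' (hs hz))) (w i) N S ((sw i).of_le
          Crest.Agent.R273.YauCh_635.two_le_inf)
        (ho_smooth isOpen_ball (sw i) hδ1 fun z hz => sub_half (hsub' (hs hz))) ?_ ?_
      · exact Crest.Agent.R273.YauPf_635.ho_re ((hN i).subset hs)
      · intro z hz
        have := (hS i).bdd z (hs hz)
        rwa [cx, Complex.norm_real, Real.norm_eq_abs] at this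
    refine ⟨max Q (2 * Q / (δ / 2) ^ (1 / 2 : ℝ)), hQ0.trans (le_max_left _ _), fun i => ?_⟩
    exact ⟨ho_glue hQ0 (by positivity) fun z0 hz0 => (loc i z0 hz0).h0,
      ho_glue hQ0 (by positivity) fun z0 hz0 => (loc i z0 hz0).h1,
      ho_glue hQ0 (by positivity) fun z0 hz0 => (loc i z0 hz0).h2⟩
  refine ⟨hw, fun v => ⟨fun ρ h0 h1 => ?_, fun v' => ?_⟩⟩
  · obtain ⟨Q, hQ0, H⟩ := main ρ h0 h1
    refine ⟨‖v‖ * Q, by positivity, fun i => ?_⟩
    exact (ho_eval (H i).2.1 v).congr fun z hz =>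
      dv_cx sw v i (sub_half (closedBall_subset_ball h1 hz))
  · have h2 : H0 (dv v' (cx (dr v w))) := by
      intro ρ h0 h1
      obtain ⟨Q, hQ0, H⟩ := main ρ h0 h1
      refine ⟨‖v'‖ * ‖v‖ * Q, by positivity, fun i => ?_⟩
      refine (ho_eval2 (H i).2.2 v' v).congr fun z hz => ?_
      have hz' := sub_half (closedBall_subset_ball h1 hz)
      rw [dv_cx (sw.dr v) v' i hz']
      have h3 : DifferentiableAt ℝ (fderiv ℝ (w i)) z :=
        ((sw.fd i).contDiffAt (isOpen_ball.mem_nhds hz')).differentiableAt (by simp)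
      show ((fderiv ℝ (fun z => fderiv ℝ (w i) z v) z v' : ℝ) : ℂ) = _
      rw [fderiv_clm_apply h3 (differentiableAt_const v)]
      simp
    exact h2.congr fun i z hz => dv_congr (fun i z hz => dv_cx sw v i hz) v' i z (sub_half hz)

/-! ### commuting derivatives -/

theorem fd2_eval {F : Type*} [NormedAddCommGroup F] [NormedSpace ℝ F] {u : Cn n → F} {z : Cn n}
    (hu : ContDiffAt ℝ 2 u z) (v w : Cn n) :
    fderiv ℝ (fun y => fderiv ℝ u y w) z v = fderiv ℝ (fderiv ℝ u) z v w := by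
  have h3 : DifferentiableAt ℝ (fderiv ℝ u) z :=
    (hu.fderiv_right (m := 1) (by norm_num)).differentiableAt (by norm_num)
  rw [fderiv_clm_apply h3 (differentiableAt_const w)]
  simp

theorem fd_comm {F : Type*} [NormedAddCommGroup F] [NormedSpace ℝ F] {u : Cn n → F} {z : Cn n}
    (hu : ContDiffAt ℝ 2 u z) (v w : Cn n) :
    fderiv ℝ (fun y => fderiv ℝ u y w) z v = fderiv ℝ (fun y => fderiv ℝ u y v) z w := by
  rw [fd2_eval hu, fd2_eval hu]
  exact Crest.Agent.R273.Levi_145.fd_symm hu v w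

/-- `D_w` commutes with the second derivatives -/
theorem D2_fd {u : Cn n → ℝ} {U : Set (Cn n)} (hU : IsOpen U) (hu : ContDiffOn ℝ ∞ u U)
    {z : Cn n} (hz : z ∈ U) (x y w : Cn n) :
    D2 (fun z => fderiv ℝ u z w) z x y = fderiv ℝ (fun z => D2 u z x y) z w := by
  have hinf : (2 : WithTop ℕ∞) ≤ ∞ := Crest.Agent.R273.YauCh_635.two_le_inf
  have hd : ∀ w, ContDiffOn ℝ ∞ (fun z => fderiv ℝ u z w) U := fun w =>
    (hu.fderiv_of_isOpen (m := ∞) hU (by simp)).clm_apply contDiffOn_const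
  have hat : ∀ {g : Cn n → ℝ}, ContDiffOn ℝ ∞ g U → ∀ y ∈ U, ContDiffAt ℝ 2 g y :=
    fun hg y hy => (hg.contDiffAt (hU.mem_nhds hy)).of_le hinf
  have h1 : D2 (fun z => fderiv ℝ u z w) z x y
      = fderiv ℝ (fun z' => fderiv ℝ (fun z => fderiv ℝ u z w) z' y) z x := by
    rw [fd2_eval (hat (hd w) z hz)]
    rfl
  have h2 : (fun z' => fderiv ℝ (fun z => fderiv ℝ u z w) z' y)
      =ᶠ[𝓝 z] fun z' => fderiv ℝ (fun z => fderiv ℝ u z y) z' w :=
    Filter.eventually_of_mem (hU.mem_nhds hz) fun z' hz' => fd_comm (hat hu z' hz') y w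
  have h3 : (fun z' => fderiv ℝ (fun z => fderiv ℝ u z y) z' x)
      =ᶠ[𝓝 z] fun z' => D2 u z' x y :=
    Filter.eventually_of_mem (hU.mem_nhds hz) fun z' hz' => fd2_eval (hat hu z' hz') x y
  rw [h1, h2.fderiv_eq, fd_comm (hat (hd y) z hz) x w, h3.fderiv_eq]

theorem cH_fd {u : Cn n → ℝ} {U : Set (Cn n)} (hU : IsOpen U) (hu : ContDiffOn ℝ ∞ u U)
    {z : Cn n} (hz : z ∈ U) (w : Cn n) (a b : Fin n) :
    cH (fun z => fderiv ℝ u z w) z a b = fderiv ℝ (fun z => cH u z a b) z w := by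
  have hD : ∀ x y, DifferentiableAt ℝ (fun z => D2 u z x y) z := by
    intro x y
    have h1 : ContDiffOn ℝ ∞ (fderiv ℝ (fderiv ℝ u)) U :=
      (hu.fderiv_of_isOpen (m := ∞) hU (by simp)).fderiv_of_isOpen hU (by simp)
    have h2 : ContDiffOn ℝ ∞ (fun z => D2 u z x y) U :=
      (h1.clm_apply contDiffOn_const).clm_apply contDiffOn_const
    exact (h2.contDiffAt (hU.mem_nhds hz)).differentiableAt (by simp)
  have hc : ∀ x y, HasFDerivAt (fun z => ((D2 u z x y : ℝ) : ℂ))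
      (Complex.ofRealCLM.comp (fderiv ℝ (fun z => D2 u z x y) z)) z := fun x y =>
    Complex.ofRealCLM.hasFDerivAt.comp z (hD x y).hasFDerivAt
  set e1 : Cn n := EuclideanSpace.single a 1
  set e2 : Cn n := EuclideanSpace.single a I
  set f1 : Cn n := EuclideanSpace.single b 1
  set f2 : Cn n := EuclideanSpace.single b I
  have h4 : HasFDerivAt (fun z => cH u z a b)
      ((1 / 4 : ℂ) • ((Complex.ofRealCLM.comp (fderiv ℝ (fun z => D2 u z e1 f1) z)
        + Complex.ofRealCLM.comp (fderiv ℝ (fun z => D2 u z e2 f2) z))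
        + I • (Complex.ofRealCLM.comp (fderiv ℝ (fun z => D2 u z e1 f2) z)
        - Complex.ofRealCLM.comp (fderiv ℝ (fun z => D2 u z e2 f1) z)))) z := by
    have h5 := (((hc e1 f1).add (hc e2 f2)).add (((hc e1 f2).sub (hc e2 f1)).const_mul I)).const_mul
      (1 / 4 : ℂ)
    refine h5.congr_of_eventuallyEq (Filter.Eventually.of_forall fun y => ?_)
    simp only [cH, Matrix.of_apply]
    push_cast
    rfl
  rw [h4.fderiv]
  simp only [cH, Matrix.of_apply, D2_fd hU hu hz]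
  simp only [_root_.smul_apply, _root_.add_apply, _root_.sub_apply, ContinuousLinearMap.comp_apply,
    Complex.ofRealCLM_apply, smul_eq_mul]
  push_cast
  rfl

/-! ### lifting -/

/-- the complex Hessian of a real family -/
def hm (w : ι → Cn n → ℝ) : MF ι n := fun i z => cH (w i) z

theorem Rf.hm {w : ι → Cn n → ℝ} (h : Rf w) : SM (hm w) := fun a b i =>
  Crest.Agent.R273.YauLoc_635.contDiffOn_cH isOpen_ball (h i) a b

theorem hm_dr {w : ι → Cn n → ℝ} (h : Rf w) (v : Cn n) (i : ι) {z : Cn n}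
    (hz : z ∈ ball (0 : Cn n) 1) : hm (dr v w) i z = dm v (hm w) i z := by
  ext a b
  exact cH_fd isOpen_ball (h i) hz v a b

/-- entries of the complex Hessian as second derivatives -/
theorem hm_entry {w : ι → Cn n → ℝ} (h : Rf w) (a b : Fin n) (i : ι) {z : Cn n}
    (hz : z ∈ ball (0 : Cn n) 1) : en (hm w) a b i z = (1 / 4 : ℂ) *
      ((dv (EuclideanSpace.single a 1) (dv (EuclideanSpace.single b 1) (cx w)) i z
        + dv (EuclideanSpace.single a I) (dv (EuclideanSpace.single b I) (cx w)) i z)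
      + I * (dv (EuclideanSpace.single a 1) (dv (EuclideanSpace.single b I) (cx w)) i z
        + (-1) * dv (EuclideanSpace.single a I) (dv (EuclideanSpace.single b 1) (cx w)) i z)) := by
  have key : ∀ x y, dv x (dv y (cx w)) i z = ((D2 (w i) z x y : ℝ) : ℂ) := by
    intro x y
    rw [dv_congr (F := cx (dr y w)) (fun i z hz => dv_cx h y i hz) x i z hz,
      dv_cx (h.dr y) x i hz]
    show ((fderiv ℝ (fun z => fderiv ℝ (w i) z y) z x : ℝ) : ℂ) = _
    rw [fd2_eval ((h.at i hz).of_le Crest.Agent.R273.YauCh_635.two_le_inf)]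
    rfl
  simp only [key]
  show cH (w i) z a b = _
  simp only [cH, Matrix.of_apply]
  push_cast
  ring

theorem UH.hm {m : ℕ} {w : ι → Cn n → ℝ} (h : Rf w) (hw : UH (m + 2) (cx w)) : UM m (hm w) := by
  intro a b
  have s2 : ∀ x y, Sf (dv x (dv y (cx w))) := fun x y => (h.sf.dv y).dv x
  have u2 : ∀ x y, UH m (dv x (dv y (cx w))) := fun x y => (hw.dv y).dv x
  have h1 := UH.const_mul ((s2 (EuclideanSpace.single a 1) (EuclideanSpace.single b 1)).add
      (s2 (EuclideanSpace.single a I) (EuclideanSpace.single b I)) |>.add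
      ((Sf.const fun _ => I).mul ((s2 (EuclideanSpace.single a 1) (EuclideanSpace.single b I)).add
        ((Sf.const fun _ => (-1 : ℂ)).mul
          (s2 (EuclideanSpace.single a I) (EuclideanSpace.single b 1))))))
    (UH.add ((s2 _ _).add (s2 _ _)) ((Sf.const fun _ => I).mul ((s2 _ _).add
      ((Sf.const fun _ => (-1 : ℂ)).mul (s2 _ _))))
      (UH.add (s2 _ _) (s2 _ _) (u2 _ _) (u2 _ _))
      (UH.const_mul ((s2 _ _).add ((Sf.const fun _ => (-1 : ℂ)).mul (s2 _ _)))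
        (UH.add (s2 _ _) ((Sf.const fun _ => (-1 : ℂ)).mul (s2 _ _)) (u2 _ _)
          (UH.const_mul (s2 _ _) (u2 _ _) (-1))) I)) (1 / 4)
  exact h1.congr fun i z hz => hm_entry h a b i hz

/-- **lifting**: one more derivative -/
theorem lift {lo hi : ℝ} (hlo : 0 < lo) (hlohi : lo ≤ hi) {G : MF ι n} (sG : SM G)
    (hell : ∀ i, ∀ z ∈ ball (0 : Cn n) (1 / 2), EllC lo hi (G i z)) (m : ℕ)
    (hG : UM (m + 1) G) {w : ι → Cn n → ℝ} (sw : Rf w) (hw : UH (m + 1) (cx w))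
    (hh : UH m (fun i z => (G i z * hm w i z).trace)) : UH (m + 2) (cx w) := by
  induction m generalizing w with
  | zero => exact schauder_uh hlo hlohi (fun a b => (hG a b).h0) hell sw hw.h0 hh
  | succ m ih =>
    refine ⟨hw.h0, fun v => ?_⟩
    have h2 : UH (m + 2) (cx w) := ih hG.of_succ sw hw.of_succ hh.of_succ
    have h3 : UH (m + 2) (cx (dr v w)) := by
      refine ih hG.of_succ (sw.dr v) ((hw.dv v).congr fun i z hz => (dv_cx sw v i hz).symm) ?_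
      -- the differentiated equation
      have s1 : SM (fun i z => G i z * hm w i z) := sG.mul sw.hm
      have s2 : SM (fun i z => dm v G i z * hm w i z) := (sG.dm v).mul sw.hm
      have e1 : UH m (dv v (fun i z => (G i z * hm w i z).trace)) := hh.dv v
      have e2 : UH m (fun i z => (dm v G i z * hm w i z).trace) :=
        UM.tr s2 (UM.mul (sG.dm v) sw.hm (hG.dm v).of_succ (UH.hm sw h2))
      refine (UH.sub (s1.tr.dv v) s2.tr e1 e2).congr fun i z hz => ?_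
      rw [hm_dr sw v i hz, dm_tr s1 v i hz, dm_mul sG sw.hm v i hz, Matrix.trace_add]
      ring
    exact h3.congr fun i z hz => dv_cx sw v i hz

/-! ### Hölder bounds from derivative bounds -/

theorem h0_of_fderiv {F : ι → Cn n → ℂ} (sF : Sf F)
    (h : ∀ ρ : ℝ, 0 < ρ → ρ < 1 / 2 → ∃ M : ℝ, 0 ≤ M ∧ ∀ i, ∀ z ∈ closedBall (0 : Cn n) ρ,
      ‖F i z‖ ≤ M ∧ ‖fderiv ℝ (F i) z‖ ≤ M) : H0 F := by
  intro ρ h0 h1
  obtain ⟨M, hM, H⟩ := h ρ h0 h1
  refine ⟨2 * M, by positivity, fun i => ⟨fun x hx => (H i x hx).1.trans (by linarith),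
    fun x hx y hy => ?_⟩⟩
  have h3 : ‖F i x - F i y‖ ≤ M * ‖x - y‖ :=
    (convex_closedBall (0 : Cn n) ρ).norm_image_sub_le_of_norm_fderiv_le
      (fun w hw => sF.diff i (sub_half (closedBall_subset_ball h1 hw)))
      (fun w hw => (H i w hw).2) hy hx
  have h4 := le_two_rpow (norm_nonneg _) (norm_sub_le_two (by linarith : ρ ≤ 1) hx hy)
  calc ‖F i x - F i y‖ ≤ M * ‖x - y‖ := h3
    _ ≤ M * (2 * ‖x - y‖ ^ (1 / 2 : ℝ)) := mul_le_mul_of_nonneg_left h4 hM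
    _ = 2 * M * ‖x - y‖ ^ (1 / 2 : ℝ) := by ring

/-- bounded derivatives of all orders -/
def AB (F : ι → Cn n → ℂ) : Prop :=
  ∀ j : ℕ, ∃ K : ℝ, 0 ≤ K ∧ ∀ i, ∀ z ∈ ball (0 : Cn n) 1, ‖iteratedFDeriv ℝ j (F i) z‖ ≤ K

theorem norm_iter_dv {F : ι → Cn n → ℂ} (sF : Sf F) (v : Cn n) (j : ℕ) (i : ι) {z : Cn n}
    (hz : z ∈ ball (0 : Cn n) 1) : ‖iteratedFDeriv ℝ j (dv v F i) z‖
      ≤ ‖v‖ * ‖iteratedFDeriv ℝ (j + 1) (F i) z‖ := by
  refine ContinuousMultilinearMap.opNorm_le_bound (by positivity) fun m => ?_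
  have h1 := iter_succ sF i hz j (Fin.snoc (α := fun _ => Cn n) m v)
  rw [Fin.snoc_last, Fin.init_snoc] at h1
  rw [← h1]
  refine (ContinuousMultilinearMap.le_opNorm _ _).trans (le_of_eq ?_)
  rw [Fin.prod_univ_castSucc]
  simp only [Fin.snoc_castSucc, Fin.snoc_last]
  ring

theorem AB.dv {F : ι → Cn n → ℂ} (sF : Sf F) (h : AB F) (v : Cn n) : AB (dv v F) := fun j => by
  obtain ⟨K, hK, H⟩ := h (j + 1)
  exact ⟨‖v‖ * K, by positivity, fun i z hz =>
    (norm_iter_dv sF v j i hz).trans (mul_le_mul_of_nonneg_left (H i z hz) (norm_nonneg _))⟩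

theorem AB.h0 {F : ι → Cn n → ℂ} (sF : Sf F) (h : AB F) : H0 F := by
  refine h0_of_fderiv sF fun ρ h0 h1 => ?_
  obtain ⟨K0, hK0, H0⟩ := h 0
  obtain ⟨K1, hK1, H1⟩ := h 1
  refine ⟨max K0 K1, hK0.trans (le_max_left _ _), fun i z hz => ?_⟩
  have hz' := sub_half (closedBall_subset_ball h1 hz)
  have e0 := H0 i z hz'
  have e1 := H1 i z hz'
  rw [norm_iteratedFDeriv_zero] at e0
  rw [norm_iteratedFDeriv_one] at e1
  exact ⟨e0.trans (le_max_left _ _), e1.trans (le_max_right _ _)⟩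

theorem AB.uh {F : ι → Cn n → ℂ} (sF : Sf F) (h : AB F) (m : ℕ) : UH m F := by
  induction m generalizing F with
  | zero => exact h.h0 sF
  | succ m ih => exact ⟨h.h0 sF, fun v => ih (sF.dv v) (h.dv sF v)⟩

/-! ### the class `B1` -/

/-- `|F| ≤ M`, `|DF| ≤ M (1 + N)` -/
def B1 (N : ι → Cn n → ℝ) (F : ι → Cn n → ℂ) : Prop :=
  ∃ M : ℝ, 0 ≤ M ∧ ∀ i, ∀ z ∈ ball (0 : Cn n) (1 / 2),
    ‖F i z‖ ≤ M ∧ ‖fderiv ℝ (F i) z‖ ≤ M * (1 + N i z)

variable {N : ι → Cn n → ℝ}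

theorem B1.congr {F G : ι → Cn n → ℂ} (h : B1 N F)
    (e : ∀ i, ∀ z ∈ ball (0 : Cn n) 1, G i z = F i z) : B1 N G := by
  obtain ⟨M, hM, H⟩ := h
  refine ⟨M, hM, fun i z hz => ?_⟩
  have h1 : G i =ᶠ[𝓝 z] F i :=
    Filter.eventually_of_mem (isOpen_ball.mem_nhds (sub_half hz)) (e i)
  rw [e i z (sub_half hz), h1.fderiv_eq]
  exact H i z hz

theorem B1.add {F G : ι → Cn n → ℂ} (sF : Sf F) (sG : Sf G) (h : B1 N F) (h' : B1 N G) :
    B1 N (fun i z => F i z + G i z) := by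
  obtain ⟨M, hM, H⟩ := h
  obtain ⟨M', hM', H'⟩ := h'
  refine ⟨M + M', by positivity, fun i z hz => ?_⟩
  obtain ⟨a1, a2⟩ := H i z hz
  obtain ⟨b1, b2⟩ := H' i z hz
  refine ⟨(norm_add_le _ _).trans (add_le_add a1 b1), ?_⟩
  rw [fderiv_fun_add (sF.diff i (sub_half hz)) (sG.diff i (sub_half hz)), add_mul]
  exact (norm_add_le _ _).trans (add_le_add a2 b2)

theorem B1.mul (hN : ∀ i z, 0 ≤ N i z) {F G : ι → Cn n → ℂ} (sF : Sf F) (sG : Sf G)
    (h : B1 N F) (h' : B1 N G) : B1 N (fun i z => F i z * G i z) := by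
  obtain ⟨M, hM, H⟩ := h
  obtain ⟨M', hM', H'⟩ := h'
  refine ⟨2 * M * M', by positivity, fun i z hz => ?_⟩
  obtain ⟨a1, a2⟩ := H i z hz
  obtain ⟨b1, b2⟩ := H' i z hz
  have hN1 := hN i z
  constructor
  · rw [norm_mul]
    have := mul_le_mul a1 b1 (norm_nonneg _) hM
    nlinarith [mul_nonneg hM hM']
  · rw [fderiv_fun_mul (sF.diff i (sub_half hz)) (sG.diff i (sub_half hz))]
    refine (norm_add_le _ _).trans ?_
    rw [norm_smul, norm_smul]
    have c1 := mul_le_mul a1 b2 (norm_nonneg _) hM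
    have c2 := mul_le_mul b1 a2 (norm_nonneg _) hM'
    linarith

theorem B1.const (hN : ∀ i z, 0 ≤ N i z) (c : ℂ) : B1 N (fun (_ : ι) (_ : Cn n) => c) :=
  ⟨‖c‖, norm_nonneg _, fun i z _ => ⟨le_rfl, by
    have h1 : fderiv ℝ (fun _ : Cn n => c) z = 0 := by simp
    rw [h1, norm_zero]
    have := hN i z
    positivity⟩⟩

theorem B1.sum (hN : ∀ i z, 0 ≤ N i z) {κ : Type*} (s : Finset κ) {F : κ → ι → Cn n → ℂ}
    (hs : ∀ k ∈ s, Sf (F k)) (h : ∀ k ∈ s, B1 N (F k)) : B1 N (fun i z => ∑ k ∈ s, F k i z) := by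
  classical
  induction s using Finset.induction_on with
  | empty => simpa using B1.const hN 0
  | insert k s hk ih =>
    have h1 := B1.add (hs k (Finset.mem_insert_self k s))
      (Sf.sum s fun j hj => hs j (Finset.mem_insert_of_mem hj)) (h k (Finset.mem_insert_self k s))
      (ih (fun j hj => hs j (Finset.mem_insert_of_mem hj))
        fun j hj => h j (Finset.mem_insert_of_mem hj))
    simpa only [Finset.sum_insert hk] using h1

theorem B1.const_mul (hN : ∀ i z, 0 ≤ N i z) {F : ι → Cn n → ℂ} (sF : Sf F) (h : B1 N F) (c : ℂ) :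
    B1 N (fun i z => c * F i z) := B1.mul hN (Sf.const fun _ => c) sF (B1.const hN c) h

theorem B1.matmul (hN : ∀ i z, 0 ≤ N i z) {A B : MF ι n} (sA : SM A) (sB : SM B)
    (h : ∀ a b, B1 N (en A a b)) (h' : ∀ a b, B1 N (en B a b)) (a b : Fin n) :
    B1 N (en (fun i z => A i z * B i z) a b) :=
  B1.sum hN Finset.univ (fun c _ => (sA a c).mul (sB c b))
    (fun c _ => B1.mul hN (sA a c) (sB c b) (h a c) (h' c b))

end

end Crest.Agent.R281.LioD_346
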