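import Crest.Agent.R281.LioD_346

/-!
# R281 (S0424), leaf S-T7, part 5 (helper346): linear algebra of pinched Hermitian matrices and the
differentiated Monge-Ampere equation

* `ell_entry` : entries of a pinched matrix
* `ell_inv`   : the inverse of a pinched matrix is pinched
* `ell_of_lev`: pinched Levi form = pinched complex Hessian
* `norm_mult_le` : norm of a multilinear map on `Cn n` from the values on a real basis
-/

set_option autoImplicit false
set_option linter.unusedSectionVars false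

open Set Filter Topology Complex Metric
open scoped ContDiff Matrix ComplexConjugate

namespace Crest.Agent.R281.LioE_346

open Crest.Agent.R275.Geo Crest.Agent.R273.SchE_152 Crest.Agent.R273.YauDefs_635
  Crest.Agent.R273.Defs_333 Crest.Agent.R273.HessB_333 Crest.Agent.R273.Hess_333

noncomputable section

variable {n : ℕ}

/-! ### pinched matrices -/

theorem form_expand (G : Matrix (Fin n) (Fin n) ℂ) (x y : Fin n → ℂ) :
    star (x + y) ⬝ᵥ (G *ᵥ (x + y)) - star (x - y) ⬝ᵥ (G *ᵥ (x - y))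
      = 2 * (star x ⬝ᵥ (G *ᵥ y) + star y ⬝ᵥ (G *ᵥ x)) := by
  simp only [star_add, star_sub, Matrix.mulVec_add, Matrix.mulVec_sub, add_dotProduct,
    sub_dotProduct, dotProduct_add, dotProduct_sub]
  ring

theorem form_herm {G : Matrix (Fin n) (Fin n) ℂ} (hG : G.IsHermitian) (x y : Fin n → ℂ) :
    star y ⬝ᵥ (G *ᵥ x) = conj (star x ⬝ᵥ (G *ᵥ y)) := by
  have h1 : conj (star x ⬝ᵥ (G *ᵥ y)) = star (star x ⬝ᵥ (G *ᵥ y)) := rfl
  rw [h1, ← Matrix.star_dotProduct_star, star_star, Matrix.star_mulVec, hG.eq, dotProduct_comm,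
    ← Matrix.dotProduct_mulVec]
  exact dotProduct_comm _ _

theorem sum_norm_single (a : Fin n) (c : ℂ) : ∑ i, ‖(Pi.single a c : Fin n → ℂ) i‖ ^ 2 = ‖c‖ ^ 2 := by
  rw [Finset.sum_eq_single a]
  · simp
  · intro b _ hb
    simp [Pi.single_eq_of_ne hb]
  · intro h
    exact absurd (Finset.mem_univ a) h

theorem sum_norm_add_le (x y : Fin n → ℂ) :
    ∑ i, ‖(x + y) i‖ ^ 2 ≤ 2 * ∑ i, ‖x i‖ ^ 2 + 2 * ∑ i, ‖y i‖ ^ 2 := by
  rw [Finset.mul_sum, Finset.mul_sum, ← Finset.sum_add_distrib]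
  refine Finset.sum_le_sum fun i _ => ?_
  have h1 : ‖x i + y i‖ ≤ ‖x i‖ + ‖y i‖ := norm_add_le _ _
  have h2 : ‖x i + y i‖ ^ 2 ≤ (‖x i‖ + ‖y i‖) ^ 2 := pow_le_pow_left₀ (norm_nonneg _) h1 2
  show ‖x i + y i‖ ^ 2 ≤ _
  nlinarith [sq_nonneg (‖x i‖ - ‖y i‖)]

theorem re_form_le {lo hi : ℝ} (hlo : 0 ≤ lo) {G : Matrix (Fin n) (Fin n) ℂ} (hG : EllC lo hi G)
    (x y : Fin n → ℂ) (hx : ∑ i, ‖x i‖ ^ 2 = 1) (hy : ∑ i, ‖y i‖ ^ 2 = 1) (hhi : 0 ≤ hi) :
    (star x ⬝ᵥ (G *ᵥ y)).re ≤ hi := by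
  have h1 := form_expand G x y
  rw [form_herm hG.1 x y] at h1
  have h2 := congrArg Complex.re h1
  simp only [Complex.sub_re, Complex.mul_re, Complex.add_re, Complex.re_ofNat, Complex.conj_re,
    Complex.im_ofNat, zero_mul, sub_zero] at h2
  have h3 := (hG.2 (x + y)).2
  have h4 := (hG.2 (x - y)).1
  have h5 : 0 ≤ ∑ i, ‖(x - y) i‖ ^ 2 := Finset.sum_nonneg fun i _ => by positivity
  have h6 := sum_norm_add_le x y
  rw [hx, hy] at h6
  have h7 : hi * ∑ i, ‖(x + y) i‖ ^ 2 ≤ hi * (2 * 1 + 2 * 1) := mul_le_mul_of_nonneg_left h6 hhi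
  have h8 : 0 ≤ lo * ∑ i, ‖(x - y) i‖ ^ 2 := mul_nonneg hlo h5
  linarith

theorem ell_entry {lo hi : ℝ} (hlo : 0 ≤ lo) (hhi : 0 ≤ hi) {G : Matrix (Fin n) (Fin n) ℂ}
    (hG : EllC lo hi G) (a b : Fin n) : ‖G a b‖ ≤ 2 * hi := by
  have key : ∀ c : ℂ, ‖c‖ = 1 → (G a b * c).re ≤ hi := by
    intro c hc
    have h1 := re_form_le hlo hG (Pi.single a 1) (Pi.single b c)
      (by rw [sum_norm_single]; simp) (by rw [sum_norm_single, hc]; simp) hhi
    have h2 : star (Pi.single a (1 : ℂ) : Fin n → ℂ) = Pi.single a 1 := by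
      ext i
      by_cases h : i = a
      · subst h; simp
      · simp [Pi.single_eq_of_ne h]
    rw [h2, single_dotProduct, one_mul, Matrix.mulVec, dotProduct_single] at h1
    exact h1
  have h1 := key 1 (by simp)
  have h2 := key (-1) (by simp)
  have h3 := key I (by simp)
  have h4 := key (-I) (by simp)
  simp only [mul_one, mul_neg, Complex.neg_re, Complex.mul_I_re, neg_neg] at h1 h2 h3 h4
  have h5 := Complex.norm_le_abs_re_add_abs_im (G a b)
  have h6 : |(G a b).re| ≤ hi := abs_le.2 ⟨by linarith, h1⟩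
  have h7 : |(G a b).im| ≤ hi := abs_le.2 ⟨by linarith, by linarith⟩
  linarith

theorem dot_cs (x y : Fin n → ℂ) :
    ‖star x ⬝ᵥ y‖ ^ 2 ≤ (∑ i, ‖x i‖ ^ 2) * ∑ i, ‖y i‖ ^ 2 := by
  have h1 : ‖star x ⬝ᵥ y‖ ≤ ∑ i, ‖x i‖ * ‖y i‖ := by
    refine (norm_sum_le _ _).trans (le_of_eq ?_)
    refine Finset.sum_congr rfl fun i _ => ?_
    rw [norm_mul, Pi.star_apply, norm_star]
  refine (pow_le_pow_left₀ (norm_nonneg _) h1 2).trans ?_
  exact Finset.sum_mul_sq_le_sq_mul_sq _ _ _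

/-- the inverse of a pinched matrix -/
theorem ell_inv {lo hi : ℝ} (hlo : 0 < lo) (hhi : 0 < hi) {G : Matrix (Fin n) (Fin n) ℂ}
    (hG : EllC lo hi G) (hd : G.det ≠ 0) : EllC (lo / hi ^ 2) (1 / lo) G⁻¹ := by
  refine ⟨hG.1.inv, fun ζ => ?_⟩
  have hu : IsUnit G.det := isUnit_iff_ne_zero.2 hd
  set η : Fin n → ℂ := G⁻¹ *ᵥ ζ with hη
  have h1 : G *ᵥ η = ζ := by
    rw [hη, Matrix.mulVec_mulVec, Matrix.mul_nonsing_inv G hu, Matrix.one_mulVec]
  have h2 : (star ζ ⬝ᵥ η).re = (star η ⬝ᵥ (G *ᵥ η)).re := by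
    have h3 : star ζ ⬝ᵥ η = conj (star η ⬝ᵥ (G *ᵥ η)) := by
      rw [← form_herm hG.1 η η, h1]
      have h4 : star η ⬝ᵥ ζ = conj (star ζ ⬝ᵥ η) := by
        have : conj (star ζ ⬝ᵥ η) = star (star ζ ⬝ᵥ η) := rfl
        rw [this, ← Matrix.star_dotProduct_star, star_star, dotProduct_comm]
      have h5 : star η ⬝ᵥ (G *ᵥ η) = conj (star η ⬝ᵥ (G *ᵥ η)) := form_herm hG.1 η η
      rw [h1] at h5
      rw [h5, h4, Complex.conj_conj]
    rw [h3, Complex.conj_re]
  have hE := hG.2 η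
  set Z : ℝ := ∑ a, ‖ζ a‖ ^ 2 with hZ
  set E : ℝ := ∑ a, ‖η a‖ ^ 2 with hEd
  have hZ0 : 0 ≤ Z := Finset.sum_nonneg fun i _ => by positivity
  have hE0 : 0 ≤ E := Finset.sum_nonneg fun i _ => by positivity
  set q : ℝ := (star ζ ⬝ᵥ η).re with hq
  rw [← h2] at hE
  have h6 : q ^ 2 ≤ Z * E := by
    refine le_trans ?_ (dot_cs ζ η)
    rw [hq]
    exact (sq_le_sq' (by linarith [neg_abs_le (star ζ ⬝ᵥ η).re,
      Complex.abs_re_le_norm (star ζ ⬝ᵥ η)]) ((le_abs_self _).trans (Complex.abs_re_le_norm _)))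
  have hq0 : 0 ≤ q := le_trans (by positivity) hE.1
  -- `|ζ|^2 = ζ^* G η ≤ hi |ζ| |η|`
  have h8 : Z ≤ hi ^ 2 * E := by
    have form_cs : ∀ x y : Fin n → ℂ, (star x ⬝ᵥ (G *ᵥ y)).re ^ 2 ≤
        (hi * ∑ i, ‖x i‖ ^ 2) * (hi * ∑ i, ‖y i‖ ^ 2) := by
      intro x y
      -- nonnegativity of the form at `x + t y`
      have hx0 : 0 ≤ (star x ⬝ᵥ (G *ᵥ x)).re := le_trans (by positivity) (hG.2 x).1
      have hy0 : 0 ≤ (star y ⬝ᵥ (G *ᵥ y)).re := le_trans (by positivity) (hG.2 y).1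
      have hpos : ∀ t : ℝ, 0 ≤ (star y ⬝ᵥ (G *ᵥ y)).re * (t * t)
          + (2 * (star x ⬝ᵥ (G *ᵥ y)).re) * t + (star x ⬝ᵥ (G *ᵥ x)).re := by
        intro t
        have h := le_trans (by positivity) (hG.2 (x + (t : ℂ) • y)).1
        have e : star (x + (t : ℂ) • y) ⬝ᵥ (G *ᵥ (x + (t : ℂ) • y))
            = star x ⬝ᵥ (G *ᵥ x) + (t : ℂ) * (star x ⬝ᵥ (G *ᵥ y) + star y ⬝ᵥ (G *ᵥ x))
              + (t : ℂ) * (t : ℂ) * (star y ⬝ᵥ (G *ᵥ y)) := by
          have hs : star ((t : ℂ) • y) = (t : ℂ) • star y := by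
            rw [star_smul]
            congr 1
            exact Complex.conj_ofReal t
          simp only [star_add, hs, Matrix.mulVec_add, Matrix.mulVec_smul, add_dotProduct,
            dotProduct_add, smul_dotProduct, dotProduct_smul, smul_eq_mul]
          ring
        rw [e, form_herm hG.1 x y] at h
        simp only [Complex.add_re, Complex.re_ofReal_mul, Complex.conj_re, mul_assoc] at h
        nlinarith
      have hdisc := discrim_le_zero hpos
      rw [discrim] at hdisc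
      have a1 : (star x ⬝ᵥ (G *ᵥ y)).re ^ 2 ≤
          (star x ⬝ᵥ (G *ᵥ x)).re * (star y ⬝ᵥ (G *ᵥ y)).re := by nlinarith
      exact a1.trans (mul_le_mul (hG.2 x).2 (hG.2 y).2 hy0 (hx0.trans (hG.2 x).2))
    have h9 := form_cs ζ η
    rw [h1] at h9
    have h10 : (star ζ ⬝ᵥ ζ).re = Z := by
      rw [dotProduct, Complex.re_sum, hZ]
      refine Finset.sum_congr rfl fun i _ => ?_
      rw [Pi.star_apply, RCLike.star_def, mul_comm, Complex.mul_conj, Complex.normSq_eq_norm_sq,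
        Complex.ofReal_re]
    rw [h10] at h9
    rcases hZ0.eq_or_lt with h0 | h0
    · rw [← h0]; positivity
    · have h11 : Z * Z ≤ Z * (hi ^ 2 * E) := by
        calc Z * Z = Z ^ 2 := by ring
          _ ≤ hi * Z * (hi * E) := h9
          _ = Z * (hi ^ 2 * E) := by ring
      exact le_of_mul_le_mul_left h11 h0
  constructor
  · rw [div_mul_eq_mul_div, div_le_iff₀ (by positivity)]
    calc lo * Z ≤ lo * (hi ^ 2 * E) := mul_le_mul_of_nonneg_left h8 hlo.le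
      _ = lo * E * hi ^ 2 := by ring
      _ ≤ q * hi ^ 2 := mul_le_mul_of_nonneg_right hE.1 (by positivity)
  · rw [div_mul_eq_mul_div, one_mul, le_div_iff₀ hlo]
    rcases hq0.eq_or_lt with h0 | h0
    · rw [← h0]; simpa using hZ0
    · have h12 : q * (q * lo) ≤ q * Z := by
        have h13 : lo * q ^ 2 ≤ Z * (lo * E) := by
          calc lo * q ^ 2 ≤ lo * (Z * E) := mul_le_mul_of_nonneg_left h6 hlo.le
            _ = Z * (lo * E) := by ring
        have h14 : Z * (lo * E) ≤ Z * q := mul_le_mul_of_nonneg_left hE.1 hZ0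
        nlinarith
      exact le_of_mul_le_mul_left h12 h0

theorem ell_of_lev {lo hi : ℝ} {u : Cn n → ℝ} {z : Cn n} (hu : ContDiffAt ℝ ∞ u z)
    (h : ∀ v, lo * ‖v‖ ^ 2 ≤ lev u z v ∧ lev u z v ≤ hi * ‖v‖ ^ 2) :
    EllC (lo / 4) (hi / 4) (cH u z) := by
  rw [Crest.Agent.R273.YauMax_635.cH_eq_hess hu]
  refine ⟨hess_herm hu, fun ζ => ?_⟩
  rw [hq_eq_dot, hq_re hu]
  have h1 := h (WithLp.toLp 2 (fun a => conj (ζ a)))
  have h2 : ‖(WithLp.toLp 2 (fun a => conj (ζ a)) : Cn n)‖ ^ 2 = ∑ a, ‖ζ a‖ ^ 2 := by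
    rw [EuclideanSpace.norm_sq_eq]
    refine Finset.sum_congr rfl fun a _ => ?_
    show ‖conj (ζ a)‖ ^ 2 = _
    rw [Complex.norm_conj]
  rw [h2] at h1
  constructor
  · linarith [h1.1]
  · linarith [h1.2]

/-! ### multilinear maps -/

/-- the real basis of `Cn n` -/
def rb (p : Fin n × Bool) : Cn n := EuclideanSpace.single p.1 (if p.2 then I else 1)

/-- real coordinates -/
def rc (v : Cn n) (p : Fin n × Bool) : ℝ := if p.2 then (v p.1).im else (v p.1).re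

theorem rb_sum (v : Cn n) : v = ∑ p : Fin n × Bool, rc v p • rb p := by
  rw [Fintype.sum_prod_type]
  ext a
  simp only [Fintype.sum_bool, rc, rb]
  rw [WithLp.ofLp_sum, Finset.sum_apply, Finset.sum_eq_single a]
  · simp only [if_true, Bool.false_eq_true, if_false, PiLp.add_apply, PiLp.smul_apply,
      PiLp.single_apply, Complex.real_smul, mul_one]
    rw [add_comm]
    exact (Complex.re_add_im _).symm
  · intro b _ hb
    simp [hb.symm]
  · intro h
    exact absurd (Finset.mem_univ a) h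

theorem rc_le (v : Cn n) (p : Fin n × Bool) : |rc v p| ≤ ‖v‖ := by
  have h1 : ‖v p.1‖ ≤ ‖v‖ := PiLp.norm_apply_le v p.1
  rw [rc]
  split_ifs
  · exact (Complex.abs_im_le_norm _).trans h1
  · exact (Complex.abs_re_le_norm _).trans h1

theorem norm_mult_le {k : ℕ} (T : ContinuousMultilinearMap ℝ (fun _ : Fin k => Cn n) ℂ) :
    ‖T‖ ≤ ∑ J : Fin k → Fin n × Bool, ‖T fun i => rb (J i)‖ := by
  refine ContinuousMultilinearMap.opNorm_le_bound
    (Finset.sum_nonneg fun J _ => norm_nonneg _) fun m => ?_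
  have h1 : m = fun i => ∑ p : Fin n × Bool, rc (m i) p • rb p := funext fun i => rb_sum (m i)
  have h2 : T m = ∑ J : Fin k → Fin n × Bool, T (fun i => rc (m i) (J i) • rb (J i)) := by
    conv_lhs => rw [h1]
    exact T.toMultilinearMap.map_sum (fun i (p : Fin n × Bool) => rc (m i) p • rb p)
  rw [h2, Finset.sum_mul]
  refine (norm_sum_le _ _).trans (Finset.sum_le_sum fun J _ => ?_)
  rw [T.map_smul_univ (fun i => rc (m i) (J i)) (fun i => rb (J i)), norm_smul, mul_comm]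
  refine mul_le_mul_of_nonneg_left ?_ (norm_nonneg _)
  rw [Real.norm_eq_abs, Finset.abs_prod]
  exact Finset.prod_le_prod (fun i _ => abs_nonneg _) fun i _ => rc_le (m i) (J i)

end

end Crest.Agent.R281.LioE_346
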