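import Crest.Agent.R281.LioCk_346
import Crest.Agent.R266.SCV

/-!
# R281 (S0424), leaf S-T7, part 7 (helper346): Cauchy estimates and `det = |J|²`

* `hol_ck`    : holomorphic `F` on `ball z₀ R`, `|F| ≤ M` ⟹ `|D^k F| ≤ C_k M / R^k` on
                `ball z₀ (R/2)` (values in any complex Banach space)
* `log_ck`    : `J` holomorphic with `c ≤ |J| ≤ M` ⟹ `|D^j log |J|²| ≤ K_j / R^j` (`j ≥ 1`)
* `pinch_hol` : `u` smooth with Levi form between `lo` and `hi` on `ball z₀ R` and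
                `det (cH u) = |J|²`, `J` holomorphic (no bound on `J` required)
                ⟹ `|D^k (cH u)| ≤ C_k / R^k` on `ball z₀ (R/2)`
-/

set_option autoImplicit false
set_option linter.unusedSectionVars false

open Set Filter Topology Complex Metric
open scoped ContDiff Matrix ComplexConjugate

namespace Crest.Agent.R281.LioH_346

open Crest.Agent.R275.Geo Crest.Agent.R273.SchE_152
  Crest.Agent.R273.Defs_333 Crest.Agent.R273.YauDefs_635 Crest.Agent.R281.LioA_346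
  Crest.Agent.R281.LioC3_346 Crest.Agent.R281.LioE_346 Crest.Agent.R281.LioCk_346

noncomputable section

variable {n : ℕ}

/-! ### Cauchy estimates -/

section cauchy

variable {W : Type} [NormedAddCommGroup W] [NormedSpace ℂ W] [CompleteSpace W]

theorem hol_fderiv {F : Cn n → W} {z₀ : Cn n} {R M : ℝ} (hR : 0 < R) (hM : 0 ≤ M)
    (hF : DifferentiableOn ℂ F (ball z₀ R)) (hb : ∀ z ∈ ball z₀ R, ‖F z‖ ≤ M) {z : Cn n}
    (hz : z ∈ ball z₀ (R / 2)) : ‖fderiv ℂ F z‖ ≤ 4 * M / R := by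
  refine ContinuousLinearMap.opNorm_le_bound _ (by positivity) fun v => ?_
  rcases eq_or_ne v 0 with hv | hv
  · rw [hv, map_zero, norm_zero, norm_zero, mul_zero]
  have hv0 : 0 < ‖v‖ := norm_pos_iff.2 hv
  set ρ : ℝ := R / (4 * ‖v‖) with hρ
  have hρ0 : 0 < ρ := by positivity
  have hin : ∀ t ∈ closedBall (0 : ℂ) ρ, z + t • v ∈ ball z₀ R := by
    intro t ht
    rw [mem_closedBall_zero_iff] at ht
    rw [mem_ball, dist_eq_norm] at hz ⊢
    have h1 : ‖t • v‖ ≤ R / 4 := by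
      rw [norm_smul]
      calc ‖t‖ * ‖v‖ ≤ ρ * ‖v‖ := mul_le_mul_of_nonneg_right ht hv0.le
        _ = R / 4 := by rw [hρ]; field_simp
    have h2 : z + t • v - z₀ = (z - z₀) + t • v := by abel
    rw [h2]
    exact (norm_add_le _ _).trans_lt (by linarith)
  have hd : ∀ t ∈ closedBall (0 : ℂ) ρ, DifferentiableAt ℂ (fun t : ℂ => F (z + t • v)) t := by
    intro t ht
    have h1 : DifferentiableAt ℂ F (z + t • v) := hF.differentiableAt (isOpen_ball.mem_nhds (hin t ht))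
    exact h1.comp t ((differentiableAt_id.smul_const v).const_add z)
  have hcl : DiffContOnCl ℂ (fun t : ℂ => F (z + t • v)) (ball 0 ρ) := by
    refine ⟨fun t ht => (hd t (ball_subset_closedBall ht)).differentiableWithinAt, fun t ht => ?_⟩
    rw [closure_ball _ hρ0.ne'] at ht
    exact (hd t ht).continuousAt.continuousWithinAt
  have h3 := Complex.norm_deriv_le_of_forall_mem_sphere_norm_le hρ0 hcl
    fun t ht => hb _ (hin t (sphere_subset_closedBall ht))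
  have h4 : deriv (fun t : ℂ => F (z + t • v)) 0 = fderiv ℂ F z v := by
    have h5 : HasDerivAt (fun t : ℂ => z + t • v) v 0 := by
      have := ((hasDerivAt_id (0 : ℂ)).smul_const v).const_add z
      simpa using this
    have h6 : DifferentiableAt ℂ F (z + (0 : ℂ) • v) :=
      hF.differentiableAt (isOpen_ball.mem_nhds (hin 0 (by simp [hρ0.le])))
    have h7 := (h6.hasFDerivAt.comp_hasDerivAt (0 : ℂ) h5).deriv
    rw [zero_smul, add_zero] at h7
    exact h7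
  rw [h4] at h3
  refine h3.trans (le_of_eq ?_)
  rw [hρ]
  field_simp

theorem fderiv_real {F : Cn n → W} {z : Cn n} (hF : DifferentiableAt ℂ F z) :
    fderiv ℝ F z = ContinuousLinearMap.restrictScalarsIsometry ℂ (Cn n) W ℝ ℝ (fderiv ℂ F z) := by
  rw [(hF.hasFDerivAt.restrictScalars ℝ).fderiv]
  rfl

end cauchy

theorem diffOn_fderiv {W : Type} [NormedAddCommGroup W] [NormedSpace ℂ W] [CompleteSpace W]
    {F : Cn n → W} {U : Set (Cn n)} (hU : IsOpen U)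
    (hF : DifferentiableOn ℂ F U) : DifferentiableOn ℂ (fderiv ℂ F) U := fun z hz =>
  ((Crest.Agent.R266.SCV.analyticOnNhd_of_differentiableOn hU hF z hz).fderiv).differentiableAt.differentiableWithinAt

theorem contDiffOn_hol {W : Type} [NormedAddCommGroup W] [NormedSpace ℂ W] [CompleteSpace W]
    {F : Cn n → W} {U : Set (Cn n)} (hU : IsOpen U) (hF : DifferentiableOn ℂ F U) :
    ContDiffOn ℝ ∞ F U := fun z hz =>
  (((Crest.Agent.R266.SCV.analyticOnNhd_of_differentiableOn hU hF z hz).contDiffAt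
    (n := ∞)).restrict_scalars ℝ).contDiffWithinAt

theorem hol_center (n : ℕ) (k : ℕ) : ∃ C : ℝ, 0 ≤ C ∧
    ∀ (W : Type) [NormedAddCommGroup W] [NormedSpace ℂ W] [CompleteSpace W]
      (F : Cn n → W) (z₀ : Cn n) (R M : ℝ), 0 < R → 0 ≤ M → DifferentiableOn ℂ F (ball z₀ R) →
      (∀ z ∈ ball z₀ R, ‖F z‖ ≤ M) → ‖iteratedFDeriv ℝ k F z₀‖ ≤ C * M / R ^ k := by
  induction k with
  | zero =>
    refine ⟨1, zero_le_one, fun W _ _ _ F z₀ R M hR hM hF hb => ?_⟩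
    rw [norm_iteratedFDeriv_zero, pow_zero, div_one, one_mul]
    exact hb z₀ (mem_ball_self hR)
  | succ k ih =>
    obtain ⟨C, hC0, hC⟩ := ih
    refine ⟨2 ^ (k + 2) * C, by positivity, fun W _ _ _ F z₀ R M hR hM hF hb => ?_⟩
    have hsub : ball z₀ (R / 2) ⊆ ball z₀ R := ball_subset_ball (by linarith)
    have h1 := hC (Cn n →L[ℂ] W) (fderiv ℂ F) z₀ (R / 2) (4 * M / R) (by positivity)
      (by positivity) ((diffOn_fderiv isOpen_ball hF).mono hsub)
      fun z hz => hol_fderiv hR hM hF hb hz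
    have h2 : fderiv ℝ F =ᶠ[𝓝 z₀] fun z =>
        ContinuousLinearMap.restrictScalarsIsometry ℂ (Cn n) W ℝ ℝ (fderiv ℂ F z) :=
      Filter.eventually_of_mem (isOpen_ball.mem_nhds (mem_ball_self hR)) fun z hz =>
        fderiv_real (hF.differentiableAt (isOpen_ball.mem_nhds hz))
    have h3 : ContDiffAt ℝ k (fderiv ℂ F) z₀ :=
      ((contDiffOn_hol isOpen_ball (diffOn_fderiv isOpen_ball hF)).contDiffAt
        (isOpen_ball.mem_nhds (mem_ball_self hR))).of_le (by exact_mod_cast le_top)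
    rw [← norm_iteratedFDeriv_fderiv, (Filter.EventuallyEq.iteratedFDeriv ℝ h2 k).eq_of_nhds]
    have h4 : ‖iteratedFDeriv ℝ k (fun z =>
        ContinuousLinearMap.restrictScalarsIsometry ℂ (Cn n) W ℝ ℝ (fderiv ℂ F z)) z₀‖
        = ‖iteratedFDeriv ℝ k (fderiv ℂ F) z₀‖ :=
      (ContinuousLinearMap.restrictScalarsIsometry ℂ (Cn n) W ℝ ℝ).norm_iteratedFDeriv_comp_left
        h3 le_rfl
    rw [h4]
    refine h1.trans (le_of_eq ?_)
    rw [div_pow]
    field_simp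
    ring

/-- **Cauchy estimates** -/
theorem hol_ck (n : ℕ) (k : ℕ) : ∃ C : ℝ, 0 ≤ C ∧
    ∀ (W : Type) [NormedAddCommGroup W] [NormedSpace ℂ W] [CompleteSpace W]
      (F : Cn n → W) (z₀ : Cn n) (R M : ℝ), 0 < R → 0 ≤ M → DifferentiableOn ℂ F (ball z₀ R) →
      (∀ z ∈ ball z₀ R, ‖F z‖ ≤ M) →
      ∀ z ∈ ball z₀ (R / 2), ‖iteratedFDeriv ℝ k F z‖ ≤ C * M / R ^ k := by
  obtain ⟨C, hC0, hC⟩ := hol_center n k
  refine ⟨2 ^ k * C, by positivity, fun W _ _ _ F z₀ R M hR hM hF hb z hz => ?_⟩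
  have hsub : ball z (R / 2) ⊆ ball z₀ R := by
    refine ball_subset_ball' ?_
    rw [mem_ball] at hz
    linarith
  refine (hC W F z (R / 2) M (by positivity) hM (hF.mono hsub)
    fun w hw => hb w (hsub hw)).trans (le_of_eq ?_)
  rw [div_pow]
  field_simp

/-! ### the logarithm of a holomorphic function -/

/-- `D log |J|² = Re (2 J⁻¹ DJ)` -/
theorem fderiv_log {J : Cn n → ℂ} {z : Cn n} (hJ : DifferentiableAt ℂ J z) (h0 : J z ≠ 0) :
    fderiv ℝ (fun w => Real.log (‖J w‖ ^ 2)) z = Complex.reCLM.comp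
      (ContinuousLinearMap.restrictScalars ℝ ((2 * (J z)⁻¹) • fderiv ℂ J z)) := by
  have h1 : HasFDerivAt J (ContinuousLinearMap.restrictScalars ℝ (fderiv ℂ J z)) z :=
    hJ.hasFDerivAt.restrictScalars ℝ
  have h2 := (h1.norm_sq).log (by positivity : ‖J z‖ ^ 2 ≠ 0)
  have h3 : HasFDerivAt (fun w => Real.log (‖J w‖ ^ 2)) _ z := h2
  rw [h3.fderiv]
  ext v
  have h4 : (innerSL ℝ (J z)) (fderiv ℂ J z v) = (conj (J z) * fderiv ℂ J z v).re := by
    rw [innerSL_apply_apply, Complex.inner]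
    ring_nf
  have h5 : (‖J z‖ ^ 2)⁻¹ * (2 * (conj (J z) * fderiv ℂ J z v).re)
      = (2 * (J z)⁻¹ * fderiv ℂ J z v).re := by
    have h6 : (2 * (J z)⁻¹ * fderiv ℂ J z v)
        = (((‖J z‖ ^ 2)⁻¹ * 2 : ℝ) : ℂ) * (conj (J z) * fderiv ℂ J z v) := by
      rw [Complex.inv_def, Complex.normSq_eq_norm_sq]
      push_cast
      ring
    rw [h6, Complex.re_ofReal_mul]
    ring
  show (‖J z‖ ^ 2)⁻¹ * ((2 : ℕ) • (innerSL ℝ (J z)) (fderiv ℂ J z v))
    = (2 * (J z)⁻¹ * fderiv ℂ J z v).re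
  rw [h4, ← h5, nsmul_eq_mul]
  norm_num

theorem log_ck (n : ℕ) (c M : ℝ) (hc : 0 < c) : ∃ K : ℕ → ℝ, (∀ j, 0 ≤ K j) ∧
    ∀ (J : Cn n → ℂ) (z₀ : Cn n) (R : ℝ), 0 < R → DifferentiableOn ℂ J (ball z₀ R) →
      (∀ z ∈ ball z₀ R, c ≤ ‖J z‖ ∧ ‖J z‖ ≤ M) →
      ∀ j : ℕ, 1 ≤ j → ∀ z ∈ ball z₀ (R / 4),
        ‖iteratedFDeriv ℝ j (fun w => Real.log (‖J w‖ ^ 2)) z‖ ≤ K j / (R / 4) ^ j := by
  have hK := fun k => hol_ck n k
  choose C hC0 hC using hK
  refine ⟨fun j => C (j - 1) * (8 * c⁻¹ * |M|) , fun j => by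
    have := hC0 (j - 1)
    positivity, ?_⟩
  intro J z₀ R hR hJ hJb j hj z hz
  obtain ⟨k, rfl⟩ : ∃ k, j = k + 1 := ⟨j - 1, by omega⟩
  have hne : ∀ z ∈ ball z₀ R, J z ≠ 0 := fun z hz h => by
    have := (hJb z hz).1
    rw [h, norm_zero] at this
    linarith
  set L : Cn n → (Cn n →L[ℂ] ℂ) := fun z => (2 * (J z)⁻¹) • fderiv ℂ J z with hL
  have hsub : ball z₀ (R / 2) ⊆ ball z₀ R := ball_subset_ball (by linarith)
  have hsub4 : ball z₀ (R / 4) ⊆ ball z₀ (R / 2) := ball_subset_ball (by linarith)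
  have hLd : DifferentiableOn ℂ L (ball z₀ (R / 2)) := by
    have h1 : DifferentiableOn ℂ (fun z => 2 * (J z)⁻¹) (ball z₀ R) :=
      (hJ.inv hne).const_mul 2
    exact (h1.smul (diffOn_fderiv isOpen_ball hJ)).mono hsub
  have hLb : ∀ z ∈ ball z₀ (R / 2), ‖L z‖ ≤ 8 * c⁻¹ * |M| / R := by
    intro z hz
    have h1 := hol_fderiv hR (abs_nonneg M) hJ
      (fun z hz => (hJb z hz).2.trans (le_abs_self M)) hz
    have h2 : ‖(2 * (J z)⁻¹ : ℂ)‖ ≤ 2 * c⁻¹ := by
      rw [norm_mul, norm_inv]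
      have : ‖(2 : ℂ)‖ = 2 := by simp
      rw [this]
      exact mul_le_mul_of_nonneg_left (inv_anti₀ hc (hJb z (hsub hz)).1) (by norm_num)
    rw [hL]
    show ‖(2 * (J z)⁻¹) • fderiv ℂ J z‖ ≤ _
    rw [norm_smul]
    calc _ ≤ 2 * c⁻¹ * (4 * |M| / R) := mul_le_mul h2 h1 (norm_nonneg _) (by positivity)
      _ = 8 * c⁻¹ * |M| / R := by ring
  have hz2 : z ∈ ball z₀ (R / 2 / 2) := by
    have : R / 2 / 2 = R / 4 := by ring
    rwa [this]
  have h3 := hC k (Cn n →L[ℂ] ℂ) L z₀ (R / 2) (8 * c⁻¹ * |M| / R) (by positivity) (by positivity)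
    hLd hLb z hz2
  -- compare with the derivatives of `log |J|²`
  have hzR : z ∈ ball z₀ R := hsub (hsub4 hz)
  have h4 : fderiv ℝ (fun w => Real.log (‖J w‖ ^ 2)) =ᶠ[𝓝 z] fun y =>
      (ContinuousLinearMap.compL ℝ (Cn n) ℂ ℝ Complex.reCLM)
        (ContinuousLinearMap.restrictScalarsIsometry ℂ (Cn n) ℂ ℝ ℝ (L y)) :=
    Filter.eventually_of_mem (isOpen_ball.mem_nhds hzR) fun y hy =>
      fderiv_log (hJ.differentiableAt (isOpen_ball.mem_nhds hy)) (hne y hy)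
  have h5 : ContDiffAt ℝ k L z :=
    ((contDiffOn_hol isOpen_ball hLd).contDiffAt
      (isOpen_ball.mem_nhds (hsub4 hz))).of_le (by exact_mod_cast le_top)
  have h6 : ContDiffAt ℝ k (fun y =>
      ContinuousLinearMap.restrictScalarsIsometry ℂ (Cn n) ℂ ℝ ℝ (L y)) z :=
    (ContinuousLinearMap.restrictScalarsIsometry ℂ (Cn n) ℂ ℝ ℝ).contDiff.contDiffAt.comp z h5
  rw [← norm_iteratedFDeriv_fderiv, (Filter.EventuallyEq.iteratedFDeriv ℝ h4 k).eq_of_nhds]
  have h7 := (ContinuousLinearMap.compL ℝ (Cn n) ℂ ℝ Complex.reCLM).norm_iteratedFDeriv_comp_left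
    h6 le_rfl
  have h8 : ‖ContinuousLinearMap.compL ℝ (Cn n) ℂ ℝ Complex.reCLM‖ ≤ 1 := by
    refine ContinuousLinearMap.opNorm_le_bound _ zero_le_one fun T => ?_
    rw [one_mul, ContinuousLinearMap.compL_apply]
    refine ContinuousLinearMap.opNorm_le_bound _ (norm_nonneg _) fun v => ?_
    exact (Complex.abs_re_le_norm _).trans (T.le_opNorm v)
  have h9 : ‖iteratedFDeriv ℝ k (fun y =>
      ContinuousLinearMap.restrictScalarsIsometry ℂ (Cn n) ℂ ℝ ℝ (L y)) z‖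
      = ‖iteratedFDeriv ℝ k L z‖ :=
    (ContinuousLinearMap.restrictScalarsIsometry ℂ (Cn n) ℂ ℝ ℝ).norm_iteratedFDeriv_comp_left
      h5 le_rfl
  have h10 : C k * (8 * c⁻¹ * |M| / R) / (R / 2) ^ k
      ≤ C k * (8 * c⁻¹ * |M|) / (R / 4) ^ (k + 1) := by
    have e1 : C k * (8 * c⁻¹ * |M| / R) / (R / 2) ^ k
        = C k * (8 * c⁻¹ * |M|) * (2 ^ k / R ^ (k + 1)) := by
      rw [div_pow, pow_succ R]
      field_simp
    have e2 : C k * (8 * c⁻¹ * |M|) / (R / 4) ^ (k + 1)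
        = C k * (8 * c⁻¹ * |M|) * (4 ^ (k + 1) / R ^ (k + 1)) := by
      rw [div_pow]
      field_simp
    rw [e1, e2]
    have e3 : (2 : ℝ) ^ k ≤ 4 ^ (k + 1) :=
      (pow_le_pow_left₀ (by norm_num) (by norm_num) k).trans
        (pow_le_pow_right₀ (by norm_num) (by omega))
    have := hC0 k
    exact mul_le_mul_of_nonneg_left (div_le_div_of_nonneg_right e3 (by positivity)) (by positivity)
  refine le_trans ?_ (h3.trans h10)
  calc _ ≤ ‖ContinuousLinearMap.compL ℝ (Cn n) ℂ ℝ Complex.reCLM‖ *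
        ‖iteratedFDeriv ℝ k (fun y =>
          ContinuousLinearMap.restrictScalarsIsometry ℂ (Cn n) ℂ ℝ ℝ (L y)) z‖ := h7
    _ ≤ 1 * ‖iteratedFDeriv ℝ k L z‖ := by
        rw [h9]
        exact mul_le_mul_of_nonneg_right h8 (norm_nonneg _)
    _ = _ := one_mul _

/-! ### determinants of pinched matrices -/

theorem det_norm_le {A : Matrix (Fin n) (Fin n) ℂ} {x : ℝ} (h : ∀ a b, ‖A a b‖ ≤ x) :
    ‖A.det‖ ≤ (n.factorial : ℝ) * x ^ n := by
  have h1 := Matrix.det_le (abv := (IsAbsoluteValue.toAbsoluteValue (norm : ℂ → ℝ))) (A := A)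
    (x := x) h
  rw [Fintype.card_fin, nsmul_eq_mul] at h1
  exact h1

theorem det_pinch {lo hi : ℝ} (hlo : 0 < lo) (hhi : 0 < hi) {A : Matrix (Fin n) (Fin n) ℂ}
    (hA : EllC lo hi A) (hd : A.det ≠ 0) :
    ((n.factorial : ℝ) * (2 * (1 / lo)) ^ n)⁻¹ ≤ ‖A.det‖ ∧
      ‖A.det‖ ≤ (n.factorial : ℝ) * (2 * hi) ^ n := by
  refine ⟨?_, det_norm_le fun a b => ell_entry hlo.le hhi.le hA a b⟩
  have h1 := ell_inv hlo hhi hA hd
  have h2 := det_norm_le fun a b => ell_entry (by positivity) (by positivity) h1 a b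
  rw [Matrix.det_nonsing_inv, Ring.inverse_eq_inv', norm_inv] at h2
  have h3 : 0 < ‖A.det‖ := norm_pos_iff.2 hd
  exact inv_le_of_inv_le₀ h3 h2

/-- the determinant of a pinched matrix does not vanish -/
theorem det_ne_of_ell {lo hi : ℝ} (hlo : 0 < lo) {A : Matrix (Fin n) (Fin n) ℂ}
    (hA : EllC lo hi A) : A.det ≠ 0 := by
  intro h0
  obtain ⟨v, hv, hv0⟩ := Matrix.exists_mulVec_eq_zero_iff.2 h0
  have h1 := (hA.2 v).1
  rw [hv0, dotProduct_zero, Complex.zero_re] at h1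
  have h2 : 0 < ∑ a, ‖v a‖ ^ 2 := by
    obtain ⟨a, ha⟩ := Function.ne_iff.1 hv
    refine Finset.sum_pos' (fun _ _ => by positivity) ⟨a, Finset.mem_univ a, ?_⟩
    have : 0 < ‖v a‖ := norm_pos_iff.2 ha
    positivity
  nlinarith

/-- **interior estimates of all orders, `det = |J|²`** -/
theorem pinch_hol (n : ℕ) (lo hi : ℝ) (hlo : 0 < lo) (k : ℕ) : ∃ C : ℝ, 0 ≤ C ∧
    ∀ (z₀ : Cn n) (R : ℝ) (u : Cn n → ℝ) (J : Cn n → ℂ), 0 < R → ContDiffOn ℝ ∞ u (ball z₀ R) →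
      (∀ z ∈ ball z₀ R, ∀ v, lo * ‖v‖ ^ 2 ≤ lev u z v ∧ lev u z v ≤ hi * ‖v‖ ^ 2) →
      DifferentiableOn ℂ J (ball z₀ R) →
      (∀ z ∈ ball z₀ R, (cH u z).det = ((‖J z‖ ^ 2 : ℝ) : ℂ)) →
      ∀ z ∈ ball z₀ (R / 2), ∀ a b,
        ‖iteratedFDeriv ℝ k (fun w => cH u w a b) z‖ ≤ C / R ^ k := by
  set hi' : ℝ := max hi lo with hhi'
  have hhi0 : 0 < hi' := hlo.trans_le (le_max_right _ _)
  set m : ℝ := ((n.factorial : ℝ) * (2 * (1 / (lo / 4))) ^ n)⁻¹ with hm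
  set M : ℝ := (n.factorial : ℝ) * (2 * (hi' / 4)) ^ n with hM
  have hfac : (0 : ℝ) < n.factorial := by exact_mod_cast Nat.factorial_pos n
  have hm0 : 0 < m := by positivity
  have hM0 : 0 < M := by positivity
  obtain ⟨K, hK0, hK⟩ := log_ck n (Real.sqrt m) (Real.sqrt M) (Real.sqrt_pos.2 hm0)
  obtain ⟨C, hC0, hC⟩ := pinch_ck n lo hi' K hlo k
  refine ⟨8 ^ k * C, by positivity, fun z₀ R u J hR hu hlev hJ hdet z hz a b => ?_⟩
  have hsub : ball z (R / 2) ⊆ ball z₀ R := by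
    refine ball_subset_ball' ?_
    rw [mem_ball] at hz
    linarith
  have hsub2 : ball z (R / 2 / 4) ⊆ ball z (R / 2) := ball_subset_ball (by linarith)
  have hell : ∀ w ∈ ball z₀ R, EllC (lo / 4) (hi' / 4) (cH u w) := fun w hw =>
    ell_of_lev (hu.contDiffAt (isOpen_ball.mem_nhds hw)) fun v => ⟨(hlev w hw v).1,
      (hlev w hw v).2.trans (mul_le_mul_of_nonneg_right (le_max_left _ _) (by positivity))⟩
  have hJb : ∀ w ∈ ball z₀ R, Real.sqrt m ≤ ‖J w‖ ∧ ‖J w‖ ≤ Real.sqrt M := by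
    intro w hw
    have h1 := det_pinch (by positivity) (by positivity) (hell w hw)
      (det_ne_of_ell (by positivity) (hell w hw))
    have h2 : ‖(cH u w).det‖ = ‖J w‖ ^ 2 := by
      rw [hdet w hw, Complex.norm_real, Real.norm_of_nonneg (by positivity)]
    rw [h2] at h1
    exact ⟨(Real.sqrt_le_left (norm_nonneg _)).2 h1.1, Real.le_sqrt_of_sq_le h1.2⟩
  have hJ0 : ∀ w ∈ ball z₀ R, J w ≠ 0 := fun w hw h => by
    have := (hJb w hw).1
    rw [h, norm_zero] at this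
    exact absurd this (not_le.2 (Real.sqrt_pos.2 hm0))
  have hP : Pin n lo hi' K ⊤ z (R / 2 / 4) u (fun w => Real.log (‖J w‖ ^ 2)) :=
    { hu := hu.mono (hsub2.trans hsub)
      hf := fun w hw => (Crest.Agent.R273.Levi_145.c2_log_normSq
        (Crest.Agent.R266.SCV.analyticOnNhd_of_differentiableOn isOpen_ball hJ w
          (hsub (hsub2 hw))) (hJ0 w (hsub (hsub2 hw))) ∞).contDiffWithinAt
      hlev := fun w hw v => ⟨(hlev w (hsub (hsub2 hw)) v).1,
        (hlev w (hsub (hsub2 hw)) v).2.trans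
          (mul_le_mul_of_nonneg_right (le_max_left _ _) (by positivity))⟩
      hdet := fun w hw => by
        have h1 : 0 < ‖J w‖ := norm_pos_iff.2 (hJ0 w (hsub (hsub2 hw)))
        rw [Real.exp_log (by positivity)]
        exact hdet w (hsub (hsub2 hw))
      hfK := fun w hw j hj _ => hK J z (R / 2) (by positivity) (hJ.mono hsub)
        (fun w hw => hJb w (hsub hw)) j hj w hw }
  have h3 := hC z (R / 2 / 4) u _ (by positivity) hP z (mem_ball_self (by positivity)) a b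
  refine h3.trans (le_of_eq ?_)
  have : R / 2 / 4 = R / 8 := by ring
  rw [this, div_pow]
  field_simp

end

end Crest.Agent.R281.LioH_346
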