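import Crest.Agent.R281.LioH_346
import Crest.Agent.R281.SIn_14

/-!
# R281 (S0424), Theorem S, SG3 (helper346): `CloseC2` on the whole strip

`closeC2_strip` : potential `u` on the strip `{|Re ζ - Re ζ0| < R}` with Levi form between `lo` and
`hi`, `det (cH u) = |J|²`, `J` holomorphic, `H = cH u` periodic modulo `Lam ⊇ D • lat`; then for
`R ≥ R0 (N, lo, hi, r, ε, D)` the matrix `H` is `ε`-close (two derivatives) to the constant matrix
`H ζ0` on the strip `{|Re ζ - Re ζ0| < r}`.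
-/

set_option autoImplicit false
set_option linter.unusedSectionVars false

open Set Filter Topology Complex Metric
open scoped ContDiff Matrix ComplexConjugate

namespace Crest.Agent.R281.LioS_346

open Crest.Agent.R275.Geo Crest.Agent.R273.SchE_152
  Crest.Agent.R273.Defs_333 Crest.Agent.R273.YauDefs_635 Crest.Agent.R281.LioA_346
  Crest.Agent.R281.LioC3_346 Crest.Agent.R281.LioE_346 Crest.Agent.R281.LioCk_346
  Crest.Agent.R281.LioH_346 Crest.Agent.R281.Tor_922 Crest.Agent.R281.SIn_14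

noncomputable section

variable {N : ℕ}

/-- `Fin N → ℂ` (sup norm) as `Cn N` (euclidean norm) -/
def tL (N : ℕ) : (Fin N → ℂ) →L[ℝ] Cn N :=
  ((PiLp.continuousLinearEquiv 2 ℝ (fun _ : Fin N => ℂ)).symm : (Fin N → ℂ) →L[ℝ] Cn N)

theorem tL_apply (ζ : Fin N → ℂ) : tL N ζ = WithLp.toLp 2 ζ := rfl

/-- the strip in `Cn N` -/
def cstrip (ζ0 : Fin N → ℂ) (r : ℝ) : Set (Cn N) := {z | z.ofLp ∈ strip ζ0 r}

theorem mem_cstrip {ζ0 : Fin N → ℂ} {r : ℝ} {ζ : Fin N → ℂ} :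
    tL N ζ ∈ cstrip ζ0 r ↔ ζ ∈ strip ζ0 r := Iff.rfl

theorem ball_sub_cstrip {ζ0 : Fin N → ℂ} {r ρ : ℝ} {z : Cn N} (hz : z ∈ cstrip ζ0 r) :
    ball z ρ ⊆ cstrip ζ0 (r + ρ) := by
  intro w hw j
  rw [mem_ball, dist_eq_norm] at hw
  have h1 : ‖(w - z) j‖ ≤ ‖w - z‖ := PiLp.norm_apply_le (w - z) j
  have h2 : |(w j).re - (z j).re| ≤ ‖(w - z) j‖ := by
    rw [← Complex.sub_re]
    exact Complex.abs_re_le_norm _
  have h3 : |(z j).re - (ζ0 j).re| < r := hz j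
  have h4 : (w j).re - (ζ0 j).re = ((w j).re - (z j).re) + ((z j).re - (ζ0 j).re) := by ring
  show |(w j).re - (ζ0 j).re| < r + ρ
  rw [h4]
  exact (abs_add_le _ _).trans_lt (by linarith)

theorem isOpen_cstrip (ζ0 : Fin N → ℂ) (r : ℝ) : IsOpen (cstrip ζ0 r) := by
  have h1 : Continuous fun z : Cn N => z.ofLp :=
    (PiLp.continuousLinearEquiv 2 ℝ (fun _ : Fin N => ℂ)).continuous
  exact (isOpen_strip ζ0 r).preimage h1

theorem strip_mono {ζ0 : Fin N → ℂ} {r R : ℝ} (h : r ≤ R) : strip ζ0 r ⊆ strip ζ0 R :=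
  fun _ hζ j => (hζ j).trans_le h

/-- change of norm for iterated derivatives -/
theorem norm_iter_comp {f : Cn N → ℂ} {U : Set (Cn N)} (hU : IsOpen U) (hf : ContDiffOn ℝ ∞ f U)
    {ζ : Fin N → ℂ} (hζ : tL N ζ ∈ U) (k : ℕ) :
    ‖iteratedFDeriv ℝ k (fun ζ => f (tL N ζ)) ζ‖ ≤ ‖iteratedFDeriv ℝ k f (tL N ζ)‖ * ‖tL N‖ ^ k := by
  have hV : IsOpen (tL N ⁻¹' U) := hU.preimage (tL N).continuous
  have h1 := (tL N).iteratedFDerivWithin_comp_right (hf.of_le (m := k)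
    (by exact_mod_cast le_top)) hU.uniqueDiffOn hV.uniqueDiffOn hζ (i := k) le_rfl
  have h2 : iteratedFDerivWithin ℝ k (f ∘ tL N) (tL N ⁻¹' U) ζ
      = iteratedFDeriv ℝ k (f ∘ tL N) ζ := iteratedFDerivWithin_of_isOpen k hV hζ
  have h3 : iteratedFDerivWithin ℝ k f U (tL N ζ) = iteratedFDeriv ℝ k f (tL N ζ) :=
    iteratedFDerivWithin_of_isOpen k hU hζ
  rw [h2, h3] at h1
  show ‖iteratedFDeriv ℝ k (f ∘ tL N) ζ‖ ≤ _
  rw [h1]
  refine (ContinuousMultilinearMap.norm_compContinuousLinearMap_le _ _).trans (le_of_eq ?_)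
  simp

/-- **closeness to a constant matrix on the whole strip** -/
theorem closeC2_strip (N : ℕ) (lo hi r ε : ℝ) (D : ℕ) (hlo : 0 < lo) (hr : 0 < r) (hε : 0 < ε)
    (hD : 0 < D) : ∃ R0 : ℝ, r < R0 ∧ ∀ R : ℝ, R0 ≤ R →
    ∀ (ζ0 : Fin N → ℂ) (Lam : AddSubgroup (Fin N → ℂ)) (H : (Fin N → ℂ) → Matrix (Fin N) (Fin N) ℂ)
      (u : Cn N → ℝ) (J : Cn N → ℂ),
      (∀ lam ∈ lat (Fin N), D • lam ∈ Lam) →
      ContDiffOn ℝ ∞ u (cstrip ζ0 R) →
      (∀ z ∈ cstrip ζ0 R, ∀ v, lo * ‖v‖ ^ 2 ≤ lev u z v ∧ lev u z v ≤ hi * ‖v‖ ^ 2) →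
      DifferentiableOn ℂ J (cstrip ζ0 R) →
      (∀ z ∈ cstrip ζ0 R, (cH u z).det = ((‖J z‖ ^ 2 : ℝ) : ℂ)) →
      (∀ ζ ∈ strip ζ0 R, H ζ = cH u (tL N ζ)) →
      (∀ ζ ∈ strip ζ0 r, ∀ lam ∈ Lam, H (ζ - lam) = H ζ) →
      CloseC2 H (H ζ0) (strip ζ0 r) ε := by
  obtain ⟨C1, hC10, hC1⟩ := pinch_hol N lo hi hlo 1
  obtain ⟨C2, hC20, hC2⟩ := pinch_hol N lo hi hlo 2
  set t : ℝ := ‖tL N‖ + 1 with ht
  have ht1 : 1 ≤ t := by
    have := norm_nonneg (tL N)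
    linarith
  have hpi := Real.pi_pos
  have hD' : (0 : ℝ) < D := by exact_mod_cast hD
  set d0 : ℝ := r + Real.pi * D with hd0
  have hd00 : 0 < d0 := by positivity
  -- the half radius of the balls
  set ρ0 : ℝ := max 1 (max (C1 * t * (d0 + 1) / ε) (C2 * t ^ 2 / ε)) with hρ0
  have hρ01 : 1 ≤ ρ0 := le_max_left _ _
  have hA : C1 * t * (d0 + 1) ≤ ε * ρ0 := by
    have : C1 * t * (d0 + 1) / ε ≤ ρ0 := (le_max_left _ _).trans (le_max_right _ _)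
    rwa [div_le_iff₀ hε, mul_comm ρ0] at this
  have hB : C2 * t ^ 2 ≤ ε * ρ0 := by
    have : C2 * t ^ 2 / ε ≤ ρ0 := (le_max_right _ _).trans (le_max_right _ _)
    rwa [div_le_iff₀ hε, mul_comm ρ0] at this
  refine ⟨r + ρ0, by linarith, ?_⟩
  intro R hR ζ0 Lam H u J hLam hu hlev hJ hdet hH hper
  set ρ : ℝ := R - r with hρ
  have hρρ0 : ρ0 ≤ ρ := by rw [hρ]; linarith
  have hρpos : 0 < ρ := by linarith
  have hrR : r ≤ R := by linarith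
  have hball : ∀ z ∈ cstrip ζ0 r, ball z ρ ⊆ cstrip ζ0 R := by
    intro z hz
    have h1 := ball_sub_cstrip (ρ := ρ) hz
    have h2 : r + ρ = R := by rw [hρ]; ring
    rwa [h2] at h1
  have hsub : cstrip ζ0 r ⊆ cstrip ζ0 R := fun z hz => strip_mono hrR hz
  have hcH : ∀ a b, ContDiffOn ℝ ∞ (fun w => cH u w a b) (cstrip ζ0 R) := fun a b =>
    Crest.Agent.R273.YauLoc_635.contDiffOn_cH (isOpen_cstrip ζ0 R) hu a b
  -- derivative bounds in the euclidean norm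
  have hk : ∀ (k : ℕ) (C : ℝ), 0 ≤ C → (∀ (z₀ : Cn N) (R : ℝ) (u : Cn N → ℝ) (J : Cn N → ℂ),
      0 < R → ContDiffOn ℝ ∞ u (ball z₀ R) →
      (∀ z ∈ ball z₀ R, ∀ v, lo * ‖v‖ ^ 2 ≤ lev u z v ∧ lev u z v ≤ hi * ‖v‖ ^ 2) →
      DifferentiableOn ℂ J (ball z₀ R) →
      (∀ z ∈ ball z₀ R, (cH u z).det = ((‖J z‖ ^ 2 : ℝ) : ℂ)) →
      ∀ z ∈ ball z₀ (R / 2), ∀ a b,
        ‖iteratedFDeriv ℝ k (fun w => cH u w a b) z‖ ≤ C / R ^ k) →
      ∀ z ∈ cstrip ζ0 r, ∀ a b, ‖iteratedFDeriv ℝ k (fun w => cH u w a b) z‖ ≤ C / ρ ^ k := by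
    intro k C _ hC z hz a b
    exact hC z ρ u J hρpos (hu.mono (hball z hz)) (fun w hw => hlev w (hball z hz hw))
      (hJ.mono (hball z hz)) (fun w hw => hdet w (hball z hz hw)) z
      (mem_ball_self (by positivity)) a b
  -- `H` is locally `cH u ∘ tL`
  have hHe : ∀ a b, ∀ ζ ∈ strip ζ0 r, (fun ζ => H ζ a b) =ᶠ[𝓝 ζ] fun ζ => cH u (tL N ζ) a b :=
    fun a b ζ hζ => Filter.eventually_of_mem ((isOpen_strip ζ0 R).mem_nhds (strip_mono hrR hζ))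
      fun w hw => by
        show H w a b = _
        rw [hH w hw]
  have hsm : ∀ a b, ContDiffOn ℝ ∞ (fun ζ => cH u (tL N ζ) a b) (strip ζ0 R) := fun a b =>
    (hcH a b).comp (tL N).contDiff.contDiffOn fun ζ hζ => hζ
  have hder : ∀ (k : ℕ) (C : ℝ), 0 ≤ C →
      (∀ z ∈ cstrip ζ0 r, ∀ a b, ‖iteratedFDeriv ℝ k (fun w => cH u w a b) z‖ ≤ C / ρ ^ k) →
      ∀ ζ ∈ strip ζ0 r, ∀ a b, ‖iteratedFDeriv ℝ k (fun ζ => H ζ a b) ζ‖ ≤ C / ρ ^ k * t ^ k := by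
    intro k C hC0 hC ζ hζ a b
    rw [(Filter.EventuallyEq.iteratedFDeriv ℝ (hHe a b ζ hζ) k).eq_of_nhds]
    refine (norm_iter_comp (isOpen_cstrip ζ0 R) (hcH a b) (strip_mono hrR hζ) k).trans ?_
    refine mul_le_mul (hC (tL N ζ) hζ a b) ?_ (by positivity) (by positivity)
    exact pow_le_pow_left₀ (norm_nonneg _) (by rw [ht]; linarith) k
  have hd1 := hder 1 C1 hC10 (hk 1 C1 hC10 hC1)
  have hd2 := hder 2 C2 hC20 (hk 2 C2 hC20 hC2)
  have e1 : C1 / ρ ^ 1 * t ^ 1 * (d0 + 1) ≤ ε := by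
    rw [pow_one, pow_one, div_mul_eq_mul_div, div_mul_eq_mul_div, div_le_iff₀ hρpos]
    exact hA.trans (mul_le_mul_of_nonneg_left hρρ0 hε.le)
  have e1' : C1 / ρ ^ 1 * t ^ 1 ≤ ε := by
    refine le_trans ?_ e1
    have : 0 ≤ C1 / ρ ^ 1 * t ^ 1 := by positivity
    nlinarith
  have e2 : C2 / ρ ^ 2 * t ^ 2 ≤ ε := by
    rw [div_mul_eq_mul_div, div_le_iff₀ (by positivity)]
    have h1 : ρ ≤ ρ ^ 2 := by nlinarith
    exact hB.trans (mul_le_mul_of_nonneg_left (hρρ0.trans h1) hε.le)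
  refine ⟨fun a b => ?_, fun ζ hζ a b => ⟨?_, ?_⟩⟩
  · refine ((hsm a b).mono (strip_mono hrR)).congr fun ζ hζ => ?_
    rw [hH ζ (strip_mono hrR hζ)]
  · -- closeness: periodicity and the mean value inequality
    obtain ⟨lam, hlam, hnear⟩ := exists_lat_near hr hD hζ
    have hLm := hLam lam hlam
    have hlat : -(D • lam) ∈ lat (Fin N) := neg_mem (nsmul_mem hlam D)
    have hζ' : ζ - D • lam ∈ strip ζ0 r := by
      rw [sub_eq_add_neg]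
      exact strip_add_lat hζ hlat
    have hζ0 : ζ0 ∈ strip ζ0 r := fun j => by simpa using hr
    rw [← hper ζ hζ _ hLm]
    have h1 : ‖(fun ζ => H ζ a b) (ζ - D • lam) - (fun ζ => H ζ a b) ζ0‖
        ≤ (C1 / ρ ^ 1 * t ^ 1) * ‖(ζ - D • lam) - ζ0‖ := by
      refine Convex.norm_image_sub_le_of_norm_fderiv_le (𝕜 := ℝ) (f := fun ζ => H ζ a b)
        (s := strip ζ0 r) (fun w hw => ?_) (fun w hw => ?_) (convex_strip ζ0 r) hζ0 hζ'
      · exact ((((hsm a b).contDiffAt ((isOpen_strip ζ0 R).mem_nhds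
          (strip_mono hrR hw))).differentiableAt (by simp)).congr_of_eventuallyEq (hHe a b w hw))
      · rw [← norm_iteratedFDeriv_one]
        exact hd1 w hw a b
    have h2 : ‖(ζ - D • lam) - ζ0‖ ≤ d0 := by
      rw [mem_ball, dist_eq_norm] at hnear
      exact hnear.le
    refine h1.trans (le_trans ?_ e1)
    refine mul_le_mul_of_nonneg_left (by linarith) (by positivity)
  · intro k hk1 hk2
    interval_cases k
    · exact (hd1 ζ hζ a b).trans e1'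
    · exact (hd2 ζ hζ a b).trans e2

end

end Crest.Agent.R281.LioS_346
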