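import Mathlib

/-!
# Row 281, LAP-VAR, part 1 (helper626): smooth dependence from an a priori estimate

`contDiffOn_of_apriori`: `A p : G →L H` smooth in `p ∈ U`, `‖x‖ ≤ c ‖A p x‖` on a closed subspace
`W` of the Banach space `G`, `g : U → W` and `p ↦ A p (g p)` of class `C^n`: then `g` is `C^n`.
No surjectivity is used.
-/

set_option autoImplicit false
set_option linter.unusedSectionVars false

open Set Filter Topology Asymptotics
open scoped ContDiff

namespace Crest.Agent.R281.Lv1_626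

noncomputable section

universe u

variable {E : Type u} [NormedAddCommGroup E] [NormedSpace ℝ E]

section base

variable {G H : Type u} [NormedAddCommGroup G] [NormedSpace ℝ G] [NormedAddCommGroup H]
  [NormedSpace ℝ H]

/-- continuity of the solution -/
theorem continuousOn_sol {W : Submodule ℝ G} {U : Set E} {A : E → G →L[ℝ] H}
    (hA : ContinuousOn A U) {c : ℝ} (hE : ∀ p ∈ U, ∀ x ∈ W, ‖x‖ ≤ c * ‖A p x‖) {g : E → G}
    (hg : ∀ p ∈ U, g p ∈ W) (hF : ContinuousOn (fun p => A p (g p)) U) : ContinuousOn g U := by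
  intro p hp
  have h1 : Tendsto (fun q => c * (‖A q (g q) - A p (g p)‖ + ‖A q - A p‖ * (c * ‖A q (g q)‖)))
      (𝓝[U] p) (𝓝 (c * (‖A p (g p) - A p (g p)‖ + ‖A p - A p‖ * (c * ‖A p (g p)‖)))) := by
    have hF' := hF p hp
    have hA' := hA p hp
    exact ((((hF'.sub tendsto_const_nhds).norm).add
      ((hA'.sub tendsto_const_nhds).norm.mul (hF'.norm.const_mul c)))).const_mul c
  rw [sub_self, sub_self, norm_zero, norm_zero, zero_mul, add_zero, mul_zero] at h1
  rw [ContinuousWithinAt, tendsto_iff_norm_sub_tendsto_zero]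
  refine squeeze_zero' (Eventually.of_forall fun q => norm_nonneg _) ?_ h1
  filter_upwards [self_mem_nhdsWithin] with q hq
  have e1 := hE p hp (g q - g p) (W.sub_mem (hg q hq) (hg p hp))
  have hc : 0 ≤ c ∨ g q - g p = 0 := by
    by_contra hcon
    push Not at hcon
    have h2 : 0 < ‖g q - g p‖ := norm_pos_iff.2 hcon.2
    have h3 : c * ‖A p (g q - g p)‖ ≤ 0 := mul_nonpos_of_nonpos_of_nonneg hcon.1.le (norm_nonneg _)
    linarith
  have e2 : A p (g q - g p) = (A q (g q) - A p (g p)) - (A q - A p) (g q) := by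
    simp only [map_sub, sub_apply]
    abel
  have e3 := hE q hq (g q) (hg q hq)
  rcases hc with hc | h0
  · refine e1.trans (mul_le_mul_of_nonneg_left ?_ hc)
    rw [e2]
    refine (norm_sub_le _ _).trans (add_le_add le_rfl ?_)
    exact ((A q - A p).le_opNorm (g q)).trans (mul_le_mul_of_nonneg_left e3 (norm_nonneg _))
  · rw [h0, norm_zero]
    rcases le_total 0 c with hc | hc
    · positivity
    · have e4 : ‖g q‖ ≤ 0 := e3.trans (mul_nonpos_of_nonpos_of_nonneg hc (norm_nonneg _))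
      have e5 : g q = 0 := norm_le_zero_iff.1 e4
      have e6 : g p = 0 := by rw [e5, zero_sub, neg_eq_zero] at h0; exact h0
      simp [e5, e6]

/-- the linear equation for the derivative is solvable: closed range and difference quotients -/
theorem exists_dir [CompleteSpace G] {W : Submodule ℝ G} (hW : IsClosed (W : Set G)) {U : Set E}
    (hU : IsOpen U) {A : E → G →L[ℝ] H} {c : ℝ} (hc : 0 ≤ c)
    (hE : ∀ p ∈ U, ∀ x ∈ W, ‖x‖ ≤ c * ‖A p x‖) {g : E → G} (hg : ∀ p ∈ U, g p ∈ W)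
    (hgc : ContinuousOn g U) {p : E} (hp : p ∈ U) {A' : E →L[ℝ] G →L[ℝ] H}
    (hA : HasFDerivAt A A' p) {F' : E →L[ℝ] H} (hF : HasFDerivAt (fun q => A q (g q)) F' p) (v : E) :
    ∃ y ∈ W, A p y = F' v - A' v (g p) := by
  have : CompleteSpace W := hW.completeSpace_coe
  set R : W →L[ℝ] H := (A p).comp W.subtypeL with hR
  have hanti : AntilipschitzWith (Real.toNNReal c) R := by
    refine ContinuousLinearMap.antilipschitz_of_bound R fun x => ?_
    rw [Real.coe_toNNReal _ hc]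
    exact hE p hp x x.2
  have hcl : IsClosed (range R) := hanti.isClosed_range R.uniformContinuous
  -- difference quotients
  have hline : Tendsto (fun t : ℝ => p + t • v) (𝓝[≠] 0) (𝓝 p) := by
    have : Tendsto (fun t : ℝ => p + t • v) (𝓝 0) (𝓝 (p + (0 : ℝ) • v)) :=
      Continuous.tendsto (by fun_prop) 0
    rw [zero_smul, add_zero] at this
    exact this.mono_left nhdsWithin_le_nhds
  have hUe : ∀ᶠ t : ℝ in 𝓝[≠] 0, p + t • v ∈ U := hline.eventually (hU.mem_nhds hp)
  have hF1 : Tendsto (fun t : ℝ => t⁻¹ • (A (p + t • v) (g (p + t • v)) - A p (g p))) (𝓝[≠] 0)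
      (𝓝 (F' v)) := by
    have h1 : HasDerivAt (fun t : ℝ => A (p + t • v) (g (p + t • v))) (F' v) 0 := by
      have h2 : HasDerivAt (fun t : ℝ => p + t • v) v 0 := by
        simpa using ((hasDerivAt_id (0 : ℝ)).smul_const v).const_add p
      have h3 : HasFDerivAt (fun q => A q (g q)) F' (p + (0 : ℝ) • v) := by
        simpa using hF
      exact h3.comp_hasDerivAt 0 h2
    have h4 := h1.tendsto_slope_zero
    simpa using h4
  have hA1 : Tendsto (fun t : ℝ => t⁻¹ • (A (p + t • v) - A p)) (𝓝[≠] 0) (𝓝 (A' v)) := by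
    have h1 : HasDerivAt (fun t : ℝ => A (p + t • v)) (A' v) 0 := by
      have h2 : HasDerivAt (fun t : ℝ => p + t • v) v 0 := by
        simpa using ((hasDerivAt_id (0 : ℝ)).smul_const v).const_add p
      have h3 : HasFDerivAt A A' (p + (0 : ℝ) • v) := by
        simpa using hA
      exact h3.comp_hasDerivAt 0 h2
    have h4 := h1.tendsto_slope_zero
    simpa using h4
  have hg1 : Tendsto (fun t : ℝ => g (p + t • v)) (𝓝[≠] 0) (𝓝 (g p)) :=
    (hgc.continuousAt (hU.mem_nhds hp)).tendsto.comp hline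
  have hlim : Tendsto (fun t : ℝ => t⁻¹ • (A (p + t • v) (g (p + t • v)) - A p (g p)) -
      (t⁻¹ • (A (p + t • v) - A p)) (g (p + t • v))) (𝓝[≠] 0) (𝓝 (F' v - A' v (g p))) :=
    hF1.sub (((isBoundedBilinearMap_apply (𝕜 := ℝ) (E := G) (F := H)).continuous.tendsto
      (A' v, g p)).comp (hA1.prodMk_nhds hg1))
  have hmem : F' v - A' v (g p) ∈ range R := by
    refine hcl.mem_of_tendsto hlim ?_
    filter_upwards [hUe] with t ht
    refine ⟨⟨t⁻¹ • (g (p + t • v) - g p), W.smul_mem _ (W.sub_mem (hg _ ht) (hg p hp))⟩, ?_⟩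
    simp only [hR, ContinuousLinearMap.comp_apply, Submodule.subtypeL_apply, map_smul, map_sub,
      smul_apply, sub_apply, smul_sub]
    abel
  obtain ⟨y, hy⟩ := hmem
  exact ⟨y, y.2, hy⟩

/-- the derivative of the solution -/
theorem exists_fderiv [CompleteSpace G] {W : Submodule ℝ G} (hW : IsClosed (W : Set G))
    {U : Set E} (hU : IsOpen U) {A : E → G →L[ℝ] H} {c : ℝ} (hc : 0 ≤ c)
    (hE : ∀ p ∈ U, ∀ x ∈ W, ‖x‖ ≤ c * ‖A p x‖) {g : E → G} (hg : ∀ p ∈ U, g p ∈ W)
    (hgc : ContinuousOn g U) {p : E} (hp : p ∈ U) {A' : E →L[ℝ] G →L[ℝ] H}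
    (hA : HasFDerivAt A A' p) {F' : E →L[ℝ] H} (hF : HasFDerivAt (fun q => A q (g q)) F' p) :
    ∃ y : E →L[ℝ] G, (∀ v, y v ∈ W) ∧ (∀ v, A p (y v) = F' v - A' v (g p)) ∧
      HasFDerivAt g y p := by
  choose y hy hAy using exists_dir hW hU hc hE hg hgc hp hA hF
  have huniq : ∀ x ∈ W, ∀ x' ∈ W, A p x = A p x' → x = x' := by
    intro x hx x' hx' h
    have h1 := hE p hp (x - x') (W.sub_mem hx hx')
    rw [map_sub, h, sub_self, norm_zero, mul_zero] at h1
    exact sub_eq_zero.1 (norm_le_zero_iff.1 h1)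
  let yl : E →ₗ[ℝ] G :=
    { toFun := y
      map_add' := fun v w => huniq _ (hy _) _ (W.add_mem (hy v) (hy w)) (by
        rw [map_add, hAy, hAy, hAy, map_add, map_add, add_apply]
        abel)
      map_smul' := fun r v => huniq _ (hy _) _ (W.smul_mem _ (hy v)) (by
        rw [RingHom.id_apply, map_smul, hAy, hAy, map_smul, map_smul, smul_apply, smul_sub]) }
  have hbd : ∀ v, ‖yl v‖ ≤ c * (‖F'‖ + ‖A'‖ * ‖g p‖) * ‖v‖ := by
    intro v
    have h1 : ‖y v‖ ≤ c * ‖A p (y v)‖ := hE p hp _ (hy v)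
    rw [hAy] at h1
    refine h1.trans ?_
    rw [mul_assoc]
    refine mul_le_mul_of_nonneg_left ?_ hc
    refine (norm_sub_le _ _).trans ?_
    rw [add_mul]
    refine add_le_add (F'.le_opNorm v) ?_
    calc ‖A' v (g p)‖ ≤ ‖A' v‖ * ‖g p‖ := (A' v).le_opNorm _
      _ ≤ ‖A'‖ * ‖v‖ * ‖g p‖ := by
        exact mul_le_mul_of_nonneg_right (A'.le_opNorm v) (norm_nonneg _)
      _ = ‖A'‖ * ‖g p‖ * ‖v‖ := by ring
  let yc : E →L[ℝ] G := yl.mkContinuous _ hbd
  refine ⟨yc, fun v => hy v, fun v => hAy v, ?_⟩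
  have hgp : ContinuousAt g p := hgc.continuousAt (hU.mem_nhds hp)
  rw [hasFDerivAt_iff_isLittleO]
  have hkey : (fun q => A p (g q - g p - yc (q - p))) =o[𝓝 p] fun q => q - p := by
    have e1 : ∀ q, A p (g q - g p - yc (q - p)) =
        (A q (g q) - A p (g p) - F' (q - p)) - ((A q - A p - A' (q - p)) (g q) +
          A' (q - p) (g q - g p)) := by
      intro q
      have h1 : A p (yc (q - p)) = F' (q - p) - A' (q - p) (g p) := hAy _
      have h2 : A p (g q - g p - yc (q - p)) = A p (g q) - A p (g p) - A p (yc (q - p)) := by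
        rw [map_sub, map_sub]
      have h3 : (A q - A p - A' (q - p)) (g q) = A q (g q) - A p (g q) - A' (q - p) (g q) := rfl
      have h4 : A' (q - p) (g q - g p) = A' (q - p) (g q) - A' (q - p) (g p) := map_sub _ _ _
      rw [h2, h1, h3, h4]
      abel
    simp only [e1]
    have hFo := hasFDerivAt_iff_isLittleO.1 hF
    have hAo := hasFDerivAt_iff_isLittleO.1 hA
    refine hFo.sub (IsLittleO.add ?_ ?_)
    · -- bounded factor
      obtain ⟨K, hK⟩ : ∃ K : ℝ, ∀ᶠ q in 𝓝 p, ‖g q‖ ≤ K :=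
        ⟨‖g p‖ + 1, (hgp.norm.eventually_lt continuousAt_const (by linarith)).mono
          fun q hq => hq.le⟩
      have h1 : (fun q => (A q - A p - A' (q - p)) (g q)) =O[𝓝 p]
          fun q => A q - A p - A' (q - p) := by
        refine IsBigO.of_bound K ?_
        filter_upwards [hK] with q hq
        calc ‖(A q - A p - A' (q - p)) (g q)‖ ≤ ‖A q - A p - A' (q - p)‖ * ‖g q‖ :=
              ContinuousLinearMap.le_opNorm _ _
          _ ≤ ‖A q - A p - A' (q - p)‖ * K := mul_le_mul_of_nonneg_left hq (norm_nonneg _)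
          _ = K * ‖A q - A p - A' (q - p)‖ := mul_comm _ _
      exact h1.trans_isLittleO hAo
    · rw [isLittleO_iff]
      intro ε hε
      have hε' : 0 < ε / (‖A'‖ + 1) := by positivity
      have h2 : ∀ᶠ q in 𝓝 p, ‖g q - g p‖ < ε / (‖A'‖ + 1) := by
        have := (tendsto_iff_norm_sub_tendsto_zero.1 hgp.tendsto)
        exact this.eventually (gt_mem_nhds hε')
      filter_upwards [h2] with q hq
      calc ‖A' (q - p) (g q - g p)‖ ≤ ‖A' (q - p)‖ * ‖g q - g p‖ := (A' (q - p)).le_opNorm _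
        _ ≤ (‖A'‖ * ‖q - p‖) * (ε / (‖A'‖ + 1)) := by
          gcongr
          exact A'.le_opNorm _
        _ = (‖A'‖ / (‖A'‖ + 1)) * (ε * ‖q - p‖) := by ring
        _ ≤ 1 * (ε * ‖q - p‖) := by
          gcongr
          rw [div_le_one (by positivity)]
          linarith
        _ = ε * ‖q - p‖ := one_mul _
  rw [isLittleO_iff] at hkey ⊢
  intro ε hε
  have hε' : 0 < ε / (c + 1) := by positivity
  filter_upwards [hkey hε', hU.mem_nhds hp] with q hq hqU
  have h1 := hE p hp (g q - g p - yc (q - p))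
    (W.sub_mem (W.sub_mem (hg q hqU) (hg p hp)) (hy _))
  calc ‖g q - g p - yc (q - p)‖ ≤ c * ‖A p (g q - g p - yc (q - p))‖ := h1
    _ ≤ c * (ε / (c + 1) * ‖q - p‖) := mul_le_mul_of_nonneg_left hq hc
    _ = (c / (c + 1)) * (ε * ‖q - p‖) := by ring
    _ ≤ 1 * (ε * ‖q - p‖) := by
      gcongr
      rw [div_le_one (by positivity)]
      linarith
    _ = ε * ‖q - p‖ := one_mul _

end base

/-- the maps with values in `W` -/
def valW (E : Type u) [NormedAddCommGroup E] [NormedSpace ℝ E] {G : Type u}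
    [NormedAddCommGroup G] [NormedSpace ℝ G] (W : Submodule ℝ G) : Submodule ℝ (E →L[ℝ] G) where
  carrier := {T | ∀ v, T v ∈ W}
  add_mem' := fun ha hb v => W.add_mem (ha v) (hb v)
  zero_mem' := fun _ => W.zero_mem
  smul_mem' := fun r _ ha v => W.smul_mem r (ha v)

theorem isClosed_valW {G : Type u} [NormedAddCommGroup G] [NormedSpace ℝ G] {W : Submodule ℝ G}
    (hW : IsClosed (W : Set G)) : IsClosed (valW E W : Set (E →L[ℝ] G)) := by
  have : (valW E W : Set (E →L[ℝ] G)) = ⋂ v : E, (fun T : E →L[ℝ] G => T v) ⁻¹' (W : Set G) := by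
    ext T
    simp [valW]
  rw [this]
  exact isClosed_iInter fun v => hW.preimage (by fun_prop)

/-- **smooth dependence from an a priori estimate** -/
theorem contDiffOn_nat (n : ℕ) : ∀ {G H : Type u} [NormedAddCommGroup G] [NormedSpace ℝ G]
    [NormedAddCommGroup H] [NormedSpace ℝ H] [CompleteSpace G] {W : Submodule ℝ G}
    (_ : IsClosed (W : Set G)) {U : Set E} (_ : IsOpen U) {A : E → G →L[ℝ] H}
    (_ : ContDiffOn ℝ ∞ A U) {c : ℝ} (_ : 0 ≤ c) (_ : ∀ p ∈ U, ∀ x ∈ W, ‖x‖ ≤ c * ‖A p x‖)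
    {g : E → G} (_ : ∀ p ∈ U, g p ∈ W) (_ : ContDiffOn ℝ n (fun p => A p (g p)) U),
    ContDiffOn ℝ n g U := by
  induction n with
  | zero =>
    intro G H _ _ _ _ _ W hW U hU A hA c hc hE g hg hF
    rw [Nat.cast_zero, contDiffOn_zero] at hF ⊢
    exact continuousOn_sol hA.continuousOn hE hg hF
  | succ n ih =>
    intro G H _ _ _ _ _ W hW U hU A hA c hc hE g hg hF
    have hFn : ContDiffOn ℝ n (fun p => A p (g p)) U := hF.of_le (by exact_mod_cast Nat.le_succ n)
    have hgn : ContDiffOn ℝ n g U := ih hW hU hA hc hE hg hFn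
    have hgc : ContinuousOn g U := hgn.continuousOn
    have hFd : ∀ p ∈ U, HasFDerivAt (fun q => A q (g q)) (fderiv ℝ (fun q => A q (g q)) p) p :=
      fun p hp => ((hF.contDiffAt (hU.mem_nhds hp)).differentiableAt
        (by exact_mod_cast Nat.succ_ne_zero n)).hasFDerivAt
    have hAd : ∀ p ∈ U, HasFDerivAt A (fderiv ℝ A p) p := fun p hp =>
      ((hA.contDiffAt (hU.mem_nhds hp)).differentiableAt (by simp)).hasFDerivAt
    have hex := fun p (hp : p ∈ U) =>
      exists_fderiv hW hU hc hE hg hgc hp (hAd p hp) (hFd p hp)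
    have hgd : ∀ p ∈ U, (∀ v, fderiv ℝ g p v ∈ W) ∧ (∀ v, A p (fderiv ℝ g p v) =
        fderiv ℝ (fun q => A q (g q)) p v - fderiv ℝ A p v (g p)) ∧
        HasFDerivAt g (fderiv ℝ g p) p := by
      intro p hp
      obtain ⟨y, h1, h2, h3⟩ := hex p hp
      rw [h3.fderiv]
      exact ⟨h1, h2, h3⟩
    have key : ContDiffOn ℝ n (fderiv ℝ g) U := by
      refine ih (G := E →L[ℝ] G) (H := E →L[ℝ] H) (isClosed_valW hW) hU
        (A := fun p => ContinuousLinearMap.compL ℝ E G H (A p)) ?_ hc ?_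
        (fun p hp => (hgd p hp).1) ?_
      · exact (ContinuousLinearMap.contDiff _).comp_contDiffOn hA
      · intro p hp T hT
        refine ContinuousLinearMap.opNorm_le_bound _ (by positivity) fun v => ?_
        refine (hE p hp (T v) (hT v)).trans ?_
        rw [mul_assoc]
        exact mul_le_mul_of_nonneg_left
          (((A p).comp T).le_opNorm v) hc
      · have h1 : ContDiffOn ℝ n (fderiv ℝ fun q => A q (g q)) U :=
          ((contDiffOn_succ_iff_fderiv_of_isOpen hU).1 (by exact_mod_cast hF)).2.2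
        have h2' : ContDiffOn ℝ ∞ (fderiv ℝ A) U := hA.fderiv_of_isOpen hU (by simp)
        have h2 : ContDiffOn ℝ n (fderiv ℝ A) U := h2'.of_le (by exact_mod_cast le_top)
        have h3 : ContDiffOn ℝ n
            (fun p => (ContinuousLinearMap.apply ℝ H (g p)).comp (fderiv ℝ A p)) U := by
          have h4 : ContDiffOn ℝ n (fun p => ContinuousLinearMap.apply ℝ H (g p)) U :=
            ContDiff.comp_contDiffOn (g := fun x : G => ContinuousLinearMap.apply ℝ H x)
              (by fun_prop) hgn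
          exact h4.clm_comp h2
        refine (h1.sub h3).congr fun p hp => ?_
        ext v
        simpa using (hgd p hp).2.1 v
    have hd : DifferentiableOn ℝ g U := fun p hp =>
      ((hgd p hp).2.2.differentiableAt).differentiableWithinAt
    have := (contDiffOn_succ_iff_fderiv_of_isOpen (n := (n : WithTop ℕ∞)) hU).2
      ⟨hd, by simp, key⟩
    exact_mod_cast this

theorem contDiffOn_of_apriori {G H : Type u} [NormedAddCommGroup G] [NormedSpace ℝ G]
    [NormedAddCommGroup H] [NormedSpace ℝ H] [CompleteSpace G] {W : Submodule ℝ G}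
    (hW : IsClosed (W : Set G)) {U : Set E} (hU : IsOpen U) {A : E → G →L[ℝ] H}
    (hA : ContDiffOn ℝ ∞ A U) {c : ℝ} (hc : 0 ≤ c) (hE : ∀ p ∈ U, ∀ x ∈ W, ‖x‖ ≤ c * ‖A p x‖)
    {g : E → G} (hg : ∀ p ∈ U, g p ∈ W) (hF : ContDiffOn ℝ ∞ (fun p => A p (g p)) U) :
    ContDiffOn ℝ ∞ g U :=
  contDiffOn_infty.2 fun n => contDiffOn_nat n hW hU hA hc hE hg (hF.of_le (by
    exact_mod_cast le_top))

/-- version with the estimate at one point only, on a neighbourhood -/
theorem contDiffAt_of_apriori {G H : Type u} [NormedAddCommGroup G] [NormedSpace ℝ G]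
    [NormedAddCommGroup H] [NormedSpace ℝ H] [CompleteSpace G] {W : Submodule ℝ G}
    (hW : IsClosed (W : Set G)) {U : Set E} (hU : IsOpen U) {p₀ : E} (hp₀ : p₀ ∈ U)
    {A : E → G →L[ℝ] H} (hA : ContDiffOn ℝ ∞ A U) {c : ℝ} (hc : 0 ≤ c)
    (hE : ∀ x ∈ W, ‖x‖ ≤ c * ‖A p₀ x‖) {g : E → G} (hg : ∀ p ∈ U, g p ∈ W)
    (hF : ContDiffOn ℝ ∞ (fun p => A p (g p)) U) : ContDiffAt ℝ ∞ g p₀ := by
  have hcont : ContinuousAt A p₀ := hA.continuousOn.continuousAt (hU.mem_nhds hp₀)
  have hδ : (0 : ℝ) < 1 / (2 * (c + 1)) := by positivity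
  have h1 : ∀ᶠ p in 𝓝 p₀, ‖A p - A p₀‖ < 1 / (2 * (c + 1)) :=
    (tendsto_iff_norm_sub_tendsto_zero.1 hcont.tendsto).eventually (gt_mem_nhds hδ)
  obtain ⟨V, hV, hVo, hpV⟩ := mem_nhds_iff.1 (h1.and (hU.mem_nhds hp₀))
  have hVU : V ⊆ U := fun p hp => (hV hp).2
  have hE' : ∀ p ∈ V, ∀ x ∈ W, ‖x‖ ≤ (2 * c) * ‖A p x‖ := by
    intro p hp x hx
    have e1 := hE x hx
    have e2 : A p₀ x = A p x - (A p - A p₀) x := by simp
    have e3 : ‖A p₀ x‖ ≤ ‖A p x‖ + 1 / (2 * (c + 1)) * ‖x‖ := by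
      rw [e2]
      refine (norm_sub_le _ _).trans (add_le_add le_rfl ?_)
      exact ((A p - A p₀).le_opNorm x).trans
        (mul_le_mul_of_nonneg_right (hV hp).1.le (norm_nonneg _))
    have e4 : c * (1 / (2 * (c + 1)) * ‖x‖) ≤ 1 / 2 * ‖x‖ := by
      rw [← mul_assoc]
      refine mul_le_mul_of_nonneg_right ?_ (norm_nonneg _)
      rw [mul_one_div, div_le_div_iff₀ (by positivity) (by norm_num)]
      linarith
    nlinarith [mul_le_mul_of_nonneg_left e3 hc]
  exact (contDiffOn_of_apriori hW hVo (hA.mono hVU) (by positivity) hE'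
    (fun p hp => hg p (hVU hp)) (hF.mono hVU)).contDiffAt (hVo.mem_nhds hpV)

end

end Crest.Agent.R281.Lv1_626
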