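import Mathlib

/-!
# Row 281, LAP-VAR, part 2 (helper626): jointly smooth maps are smooth maps into `C(K, W)`

* `JC U n g` : `g : E → K → W` has `n` derivatives in the first variable, all jointly continuous
* `contDiffOn_mkC` : then `p ↦ g p ∈ C(K, W)` is `C^n`
* `jc_smooth`, `jc_quot` : for `a` smooth on `U × O` the functions `a (p, x k)` and the Hoelder
  quotients `|x k - y k|^(-1/2) (a (p, x k) - a (p, y k))` are of this kind for all `n`
-/

set_option autoImplicit false
set_option linter.unusedSectionVars false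

open Set Filter Topology
open scoped ContDiff

namespace Crest.Agent.R281.Lv2_626

noncomputable section

open Classical in
/-- bundle a continuous function -/
def mkC {K W : Type*} [TopologicalSpace K] [TopologicalSpace W] [Zero W] (f : K → W) : C(K, W) :=
  if h : Continuous f then ⟨f, h⟩ else 0

theorem mkC_apply {K W : Type*} [TopologicalSpace K] [TopologicalSpace W] [Zero W] {f : K → W}
    (h : Continuous f) (k : K) : mkC f k = f k := by
  rw [mkC, dif_pos h]
  rfl

variable {E : Type} [NormedAddCommGroup E] [NormedSpace ℝ E] {K : Type} [TopologicalSpace K]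
  [CompactSpace K]

/-- a family of linear maps as a linear map into the continuous functions -/
def evC (E : Type) [NormedAddCommGroup E] [NormedSpace ℝ E] (K : Type) [TopologicalSpace K]
    [CompactSpace K] (W : Type) [NormedAddCommGroup W] [NormedSpace ℝ W] :
    C(K, E →L[ℝ] W) →L[ℝ] E →L[ℝ] C(K, W) :=
  LinearMap.mkContinuous₂
    (LinearMap.mk₂ ℝ (fun (T : C(K, E →L[ℝ] W)) (v : E) => (⟨fun k => T k v, by fun_prop⟩ : C(K, W)))
      (fun _ _ _ => by ext; simp) (fun _ _ _ => by ext; simp) (fun _ _ _ => by ext; simp)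
      (fun _ _ _ => by ext; simp)) 1 (fun T v => by
    rw [one_mul]
    refine (ContinuousMap.norm_le _ (by positivity)).2 fun k => ?_
    exact ((T k).le_opNorm v).trans (mul_le_mul_of_nonneg_right (T.norm_coe_le_norm k)
      (norm_nonneg _)))

@[simp] theorem evC_apply {W : Type} [NormedAddCommGroup W] [NormedSpace ℝ W]
    (T : C(K, E →L[ℝ] W)) (v : E) (k : K) : evC E K W T v k = T k v := rfl

/-- `n` derivatives in the parameter, jointly continuous -/
def JC (U : Set E) (K : Type) [TopologicalSpace K] : (n : ℕ) → (W : Type) → [NormedAddCommGroup W] →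
    [NormedSpace ℝ W] → (E → K → W) → Prop
  | 0, _, _, _, g => ContinuousOn (fun q : E × K => g q.1 q.2) (U ×ˢ univ)
  | n + 1, W, _, _, g => ContinuousOn (fun q : E × K => g q.1 q.2) (U ×ˢ univ) ∧
      ∃ g' : E → K → (E →L[ℝ] W), (∀ p ∈ U, ∀ k, HasFDerivAt (fun q => g q k) (g' p k) p) ∧
        JC U K n (E →L[ℝ] W) g'

theorem JC.cont {U : Set E} {n : ℕ} {W : Type} [NormedAddCommGroup W] [NormedSpace ℝ W]
    {g : E → K → W} (h : JC U K n W g) : ContinuousOn (fun q : E × K => g q.1 q.2) (U ×ˢ univ) := by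
  cases n with
  | zero => exact h
  | succ n => exact h.1

theorem cont_slice {U : Set E} {W : Type} [NormedAddCommGroup W] [NormedSpace ℝ W]
    {g : E → K → W} (h : ContinuousOn (fun q : E × K => g q.1 q.2) (U ×ˢ univ)) {p : E}
    (hp : p ∈ U) : Continuous (g p) := by
  rw [← continuousOn_univ]
  exact h.comp (f := fun k : K => (p, k)) (by fun_prop) fun k _ => ⟨hp, mem_univ _⟩

/-- uniform closeness on the compact space -/
theorem eventually_close {U : Set E} (hU : IsOpen U) {W : Type} [NormedAddCommGroup W]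
    [NormedSpace ℝ W] {g : E → K → W}
    (h : ContinuousOn (fun q : E × K => g q.1 q.2) (U ×ˢ univ)) {p : E} (hp : p ∈ U) {ε : ℝ}
    (hε : 0 < ε) : ∀ᶠ q in 𝓝 p, ∀ k : K, ‖g q k - g p k‖ < ε := by
  have h1 := (isCompact_univ (X := K)).eventually_forall_of_forall_eventually (x₀ := p)
    (P := fun q k => ‖g q k - g p k‖ < ε) (fun k _ => by
      have h2 : ContinuousAt (fun z : E × K => ‖g z.1 z.2 - g p z.2‖) (p, k) := by
        have h3 : ContinuousAt (fun z : E × K => g z.1 z.2) (p, k) :=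
          h.continuousAt (prod_mem_nhds (hU.mem_nhds hp) univ_mem)
        have h4 : ContinuousAt (fun z : E × K => g p z.2) (p, k) :=
          (cont_slice h hp).continuousAt.comp continuousAt_snd
        exact (h3.sub h4).norm
      have h5 : ‖g (p, k).1 (p, k).2 - g p (p, k).2‖ < ε := by simpa using hε
      exact h2.eventually (gt_mem_nhds h5))
  filter_upwards [h1] with q hq k using hq k (mem_univ k)

theorem continuousOn_mkC {U : Set E} (hU : IsOpen U) {W : Type} [NormedAddCommGroup W]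
    [NormedSpace ℝ W] {g : E → K → W}
    (h : ContinuousOn (fun q : E × K => g q.1 q.2) (U ×ˢ univ)) :
    ContinuousOn (fun p => mkC (g p)) U := by
  intro p hp
  rw [ContinuousWithinAt, Metric.tendsto_nhds]
  intro ε hε
  have h1 := (eventually_close hU h hp (half_pos hε)).filter_mono
    (nhdsWithin_le_nhds (s := U))
  filter_upwards [h1, self_mem_nhdsWithin] with q hq hqU
  rw [dist_eq_norm]
  refine lt_of_le_of_lt ((ContinuousMap.norm_le _ (half_pos hε).le).2 fun k => ?_)
    (half_lt_self hε)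
  rw [ContinuousMap.sub_apply, mkC_apply (cont_slice h hqU), mkC_apply (cont_slice h hp)]
  exact (hq k).le

theorem hasFDerivAt_mkC {U : Set E} (hU : IsOpen U) {W : Type} [NormedAddCommGroup W]
    [NormedSpace ℝ W] {g : E → K → W} {g' : E → K → (E →L[ℝ] W)}
    (h : ContinuousOn (fun q : E × K => g q.1 q.2) (U ×ˢ univ))
    (h' : ContinuousOn (fun q : E × K => g' q.1 q.2) (U ×ˢ univ))
    (hd : ∀ p ∈ U, ∀ k, HasFDerivAt (fun q => g q k) (g' p k) p) {p : E} (hp : p ∈ U) :
    HasFDerivAt (fun p => mkC (g p)) (evC E K W (mkC (g' p))) p := by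
  rw [hasFDerivAt_iff_isLittleO, Asymptotics.isLittleO_iff]
  intro ε hε
  have h1 := (eventually_close hU h' hp hε).and (hU.mem_nhds hp)
  obtain ⟨δ, hδ, hball⟩ := Metric.eventually_nhds_iff_ball.1 h1
  filter_upwards [Metric.ball_mem_nhds p hδ] with q hq
  refine (ContinuousMap.norm_le _ (by positivity)).2 fun k => ?_
  have hqU : q ∈ U := (hball q hq).2
  rw [ContinuousMap.sub_apply, ContinuousMap.sub_apply, mkC_apply (cont_slice h hqU),
    mkC_apply (cont_slice h hp), evC_apply, mkC_apply (cont_slice h' hp)]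
  exact Convex.norm_image_sub_le_of_norm_hasFDerivWithin_le' (s := Metric.ball p δ)
    (f := fun q => g q k) (f' := fun q => g' q k) (φ := g' p k)
    (fun x hx => (hd x (hball x hx).2 k).hasFDerivWithinAt)
    (fun x hx => ((hball x hx).1 k).le) (convex_ball p δ) (Metric.mem_ball_self hδ) hq

/-- **jointly smooth maps are smooth maps into the continuous functions** -/
theorem contDiffOn_mkC (n : ℕ) : ∀ {W : Type} [NormedAddCommGroup W] [NormedSpace ℝ W]
    {U : Set E} (_ : IsOpen U) {g : E → K → W} (_ : JC U K n W g),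
    ContDiffOn ℝ n (fun p => mkC (g p)) U := by
  induction n with
  | zero =>
    intro W _ _ U hU g hg
    rw [Nat.cast_zero, contDiffOn_zero]
    exact continuousOn_mkC hU hg
  | succ n ih =>
    intro W _ _ U hU g hg
    obtain ⟨hc, g', hd, hg'⟩ := hg
    have hder : ∀ p ∈ U, HasFDerivAt (fun p => mkC (g p)) (evC E K W (mkC (g' p))) p :=
      fun p hp => hasFDerivAt_mkC hU hc hg'.cont hd hp
    have := (contDiffOn_succ_iff_fderiv_of_isOpen (𝕜 := ℝ) (n := (n : WithTop ℕ∞))
      (f := fun p => mkC (g p)) hU).2 ⟨fun p hp => (hder p hp).differentiableAt.differentiableWithinAt,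
        by simp, ?_⟩
    · exact_mod_cast this
    · have h1 : ContDiffOn ℝ n (fun p => evC E K W (mkC (g' p))) U :=
        ContDiff.comp_contDiffOn (g := fun T => evC E K W T) (by fun_prop) (ih hU hg')
      exact h1.congr fun p hp => (hder p hp).fderiv

theorem contDiffOn_mkC_infty {W : Type} [NormedAddCommGroup W] [NormedSpace ℝ W]
    {U : Set E} (hU : IsOpen U) {g : E → K → W} (h : ∀ n : ℕ, JC U K n W g) :
    ContDiffOn ℝ ∞ (fun p => mkC (g p)) U :=
  contDiffOn_infty.2 fun n => contDiffOn_mkC n hU (h n)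

/-! ### smooth functions and their Hoelder quotients -/

variable {V : Type} [NormedAddCommGroup V] [NormedSpace ℝ V]

/-- the partial derivative in the parameter -/
def dp {W : Type} [NormedAddCommGroup W] [NormedSpace ℝ W] (a : E × V → W) (q : E × V) :
    E →L[ℝ] W := (fderiv ℝ a q).comp (ContinuousLinearMap.inl ℝ E V)

theorem dp_smooth {W : Type} [NormedAddCommGroup W] [NormedSpace ℝ W] {a : E × V → W}
    {S : Set (E × V)} (hS : IsOpen S) (ha : ContDiffOn ℝ ∞ a S) : ContDiffOn ℝ ∞ (dp a) S :=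
  (ha.fderiv_of_isOpen hS (by simp)).clm_comp contDiffOn_const

theorem hasFDerivAt_dp {W : Type} [NormedAddCommGroup W] [NormedSpace ℝ W] {a : E × V → W}
    {S : Set (E × V)} (hS : IsOpen S) (ha : ContDiffOn ℝ ∞ a S) {p : E} {z : V}
    (h : (p, z) ∈ S) : HasFDerivAt (fun q => a (q, z)) (dp a (p, z)) p := by
  have h1 : HasFDerivAt a (fderiv ℝ a (p, z)) (p, z) :=
    ((ha.contDiffAt (hS.mem_nhds h)).differentiableAt (by simp)).hasFDerivAt
  have h2 : HasFDerivAt (fun q : E => (q, z)) (ContinuousLinearMap.inl ℝ E V) p :=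
    hasFDerivAt_prodMk_left p z
  exact h1.comp p h2

theorem jc_smooth {U : Set E} (hU : IsOpen U) {O : Set V} (hO : IsOpen O) {x : K → V}
    (hx : Continuous x) (hxO : ∀ k, x k ∈ O) (n : ℕ) : ∀ {W : Type} [NormedAddCommGroup W]
    [NormedSpace ℝ W] {a : E × V → W} (_ : ContDiffOn ℝ ∞ a (U ×ˢ O)),
    JC U K n W fun p k => a (p, x k) := by
  have hcont : ∀ {W : Type} [NormedAddCommGroup W] [NormedSpace ℝ W] {a : E × V → W}
      (_ : ContDiffOn ℝ ∞ a (U ×ˢ O)),
      ContinuousOn (fun q : E × K => a (q.1, x q.2)) (U ×ˢ univ) := by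
    intro W _ _ a ha
    exact ha.continuousOn.comp (f := fun q : E × K => (q.1, x q.2)) (by fun_prop)
      fun q hq => ⟨hq.1, hxO q.2⟩
  induction n with
  | zero => intro W _ _ a ha; exact hcont ha
  | succ n ih =>
    intro W _ _ a ha
    refine ⟨hcont ha, fun p k => dp a (p, x k), fun p hp k => ?_, ?_⟩
    · exact hasFDerivAt_dp (hU.prod hO) ha ⟨hp, hxO k⟩
    · exact ih (dp_smooth (hU.prod hO) ha)

/-- the Hoelder quotient -/
def quot {W : Type} [NormedAddCommGroup W] [NormedSpace ℝ W] (x y : V) (u v : W) : W :=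
  (‖x - y‖ ^ (1 / 2 : ℝ))⁻¹ • (u - v)

theorem cont_quot {U : Set E} (hU : IsOpen U) {O : Set V} (hO : IsOpen O) {x y : K → V}
    (hx : Continuous x) (hxO : ∀ k, x k ∈ O) (hy : Continuous y) (hyO : ∀ k, y k ∈ O) {W : Type}
    [NormedAddCommGroup W] [NormedSpace ℝ W] {a : E × V → W} (ha : ContDiffOn ℝ ∞ a (U ×ˢ O)) :
    ContinuousOn (fun q : E × K => quot (x q.2) (y q.2) (a (q.1, x q.2)) (a (q.1, y q.2)))
      (U ×ˢ univ) := by
  have hopen : IsOpen (U ×ˢ O) := hU.prod hO
  rintro ⟨p, k⟩ ⟨hp, -⟩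
  refine ContinuousAt.continuousWithinAt ?_
  have hax : ContinuousAt (fun q : E × K => a (q.1, x q.2)) (p, k) := by
    have h1 : ContinuousAt a (p, x k) := ha.continuousOn.continuousAt (hopen.mem_nhds ⟨hp, hxO k⟩)
    exact ContinuousAt.comp (g := a) (f := fun q : E × K => (q.1, x q.2)) h1
      (by fun_prop)
  have hay : ContinuousAt (fun q : E × K => a (q.1, y q.2)) (p, k) := by
    have h1 : ContinuousAt a (p, y k) := ha.continuousOn.continuousAt (hopen.mem_nhds ⟨hp, hyO k⟩)
    exact ContinuousAt.comp (g := a) (f := fun q : E × K => (q.1, y q.2)) h1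
      (by fun_prop)
  by_cases hxy : x k = y k
  · -- on the diagonal
    have h0 : quot (x k) (y k) (a (p, x k)) (a (p, y k)) = 0 := by
      simp [quot, hxy]
    rw [ContinuousAt]
    change Tendsto _ _ (𝓝 (quot (x k) (y k) (a (p, x k)) (a (p, y k))))
    rw [h0]
    obtain ⟨L, t, ht, hL⟩ := (((ha.contDiffAt (hopen.mem_nhds ⟨hp, hxO k⟩)).of_le (by simp) :
      ContDiffAt ℝ 1 a (p, x k))).exists_lipschitzOnWith
    have hlim : Tendsto (fun q : E × K => (L : ℝ) * ‖x q.2 - y q.2‖ ^ (1 / 2 : ℝ)) (𝓝 (p, k))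
        (𝓝 0) := by
      have h1 : Continuous fun q : E × K => (L : ℝ) * ‖x q.2 - y q.2‖ ^ (1 / 2 : ℝ) :=
        continuous_const.mul ((Continuous.norm (by fun_prop)).rpow_const fun q => Or.inr (by norm_num))
      have h2 := h1.tendsto (p, k)
      have h3 : (L : ℝ) * ‖x (p, k).2 - y (p, k).2‖ ^ (1 / 2 : ℝ) = 0 := by
        simp [hxy]
      rwa [h3] at h2
    refine squeeze_zero_norm' ?_ hlim
    have hc1 : Tendsto (fun q : E × K => (q.1, x q.2)) (𝓝 (p, k)) (𝓝 (p, x k)) :=
      Continuous.tendsto (by fun_prop) (p, k)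
    have hc2 : Tendsto (fun q : E × K => (q.1, y q.2)) (𝓝 (p, k)) (𝓝 (p, x k)) := by
      rw [hxy]
      exact Continuous.tendsto (by fun_prop) (p, k)
    filter_upwards [hc1 ht, hc2 ht] with q h1 h2
    by_cases h : x q.2 = y q.2
    · rw [quot, h, sub_self, sub_self, smul_zero, norm_zero]
      positivity
    have hpos : 0 < ‖x q.2 - y q.2‖ := norm_pos_iff.2 (sub_ne_zero.2 h)
    have h3 : ‖a (q.1, x q.2) - a (q.1, y q.2)‖ ≤ L * ‖x q.2 - y q.2‖ := by
      have := hL.dist_le_mul _ h1 _ h2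
      rw [dist_eq_norm] at this
      refine this.trans (le_of_eq ?_)
      rw [Prod.dist_eq, dist_self, dist_eq_norm, max_eq_right (norm_nonneg _)]
    rw [quot, norm_smul, norm_inv, Real.norm_of_nonneg (by positivity)]
    have hs : ‖x q.2 - y q.2‖ = ‖x q.2 - y q.2‖ ^ (1 / 2 : ℝ) * ‖x q.2 - y q.2‖ ^ (1 / 2 : ℝ) := by
      rw [← Real.rpow_add hpos]
      norm_num
    have hr : 0 < ‖x q.2 - y q.2‖ ^ (1 / 2 : ℝ) := Real.rpow_pos_of_pos hpos _
    calc (‖x q.2 - y q.2‖ ^ (1 / 2 : ℝ))⁻¹ * ‖a (q.1, x q.2) - a (q.1, y q.2)‖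
        ≤ (‖x q.2 - y q.2‖ ^ (1 / 2 : ℝ))⁻¹ * (L * ‖x q.2 - y q.2‖) :=
          mul_le_mul_of_nonneg_left h3 (by positivity)
      _ = L * ‖x q.2 - y q.2‖ ^ (1 / 2 : ℝ) := by
          rw [inv_mul_eq_div, div_eq_iff hr.ne', mul_assoc, ← hs]
  · have h1 : ContinuousAt (fun q : E × K => (‖x q.2 - y q.2‖ ^ (1 / 2 : ℝ))⁻¹) (p, k) := by
      refine ContinuousAt.inv₀ ?_ ?_
      · exact (Continuous.norm (by fun_prop)).continuousAt.rpow_const (Or.inr (by norm_num))
      · have : 0 < ‖x k - y k‖ := norm_pos_iff.2 (sub_ne_zero.2 hxy)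
        positivity
    exact h1.smul (hax.sub hay)

theorem jc_quot {U : Set E} (hU : IsOpen U) {O : Set V} (hO : IsOpen O) {x y : K → V}
    (hx : Continuous x) (hxO : ∀ k, x k ∈ O) (hy : Continuous y) (hyO : ∀ k, y k ∈ O) (n : ℕ) :
    ∀ {W : Type} [NormedAddCommGroup W] [NormedSpace ℝ W] {a : E × V → W}
    (_ : ContDiffOn ℝ ∞ a (U ×ˢ O)),
    JC U K n W fun p k => quot (x k) (y k) (a (p, x k)) (a (p, y k)) := by
  induction n with
  | zero => intro W _ _ a ha; exact cont_quot hU hO hx hxO hy hyO ha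
  | succ n ih =>
    intro W _ _ a ha
    refine ⟨cont_quot hU hO hx hxO hy hyO ha, fun p k =>
      quot (x k) (y k) (dp a (p, x k)) (dp a (p, y k)), fun p hp k => ?_, ?_⟩
    · have h1 := hasFDerivAt_dp (hU.prod hO) ha (p := p) (z := x k) ⟨hp, hxO k⟩
      have h2 := hasFDerivAt_dp (hU.prod hO) ha (p := p) (z := y k) ⟨hp, hyO k⟩
      exact (h1.sub h2).const_smul _
    · exact ih (dp_smooth (hU.prod hO) ha)

end

end Crest.Agent.R281.Lv2_626
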