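import Crest.Agent.R281.Lv1_626
import Crest.Agent.R281.Hjs2_680

/-!
# Row 281, LAP-VAR, part 3 (helper626): smooth dependence for linear equations

`v0_abs`: `j k u` = reading (jet) of the function `u` in the piece `k`; a family
`a k (p, z) (j k (u p) z) + c p = f k (p, z)` on a finite family of compact convex sets `B k`,
coefficients jointly smooth, and an a priori Hoelder estimate at `p₀` in the class `𝒮` of admissible
functions: then `p ↦ j k (u p) z` and `p ↦ c p` are smooth at `p₀`.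
-/

set_option autoImplicit false
set_option linter.unusedSectionVars false

open Set Filter Topology
open scoped ContDiff

namespace Crest.Agent.R281.Lv3_626

open Crest.Agent.R281.Hjs_680 Crest.Agent.R281.Lv1_626

noncomputable section

theorem hp : (0 : ℝ) < 1 / 2 := by norm_num
theorem hl : (1 / 2 : ℝ) ≤ 1 := by norm_num

variable {P V X κ F : Type} [NormedAddCommGroup P] [NormedSpace ℝ P] [NormedAddCommGroup V]
  [NormedSpace ℝ V] [NormedAddCommGroup F] [NormedSpace ℝ F]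

/-- jets -/
abbrev GS (B : κ → Set V) (F : Type) [NormedAddCommGroup F] [NormedSpace ℝ F] : Type :=
  (k : κ) → HF (1 / 2) (B k) F

/-- the domains -/
structure Dom (B O : κ → Set V) : Prop where
  cpt : ∀ k, IsCompact (B k)
  cvx : ∀ k, Convex ℝ (B k)
  opn : ∀ k, IsOpen (O k)
  sub : ∀ k, B k ⊆ O k

/-- the jet maps -/
structure JetD (B : κ → Set V) (𝒮 : Submodule ℝ (X → ℝ)) (j : κ → (X → ℝ) → V → F) : Prop where
  add : ∀ u ∈ 𝒮, ∀ v ∈ 𝒮, ∀ k, ∀ z ∈ B k, j k (u + v) z = j k u z + j k v z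
  smul : ∀ u ∈ 𝒮, ∀ r : ℝ, ∀ k, ∀ z ∈ B k, j k (r • u) z = r • j k u z
  bd : ∀ u ∈ 𝒮, ∀ k, ∃ C, Bd (1 / 2) (B k) (j k u) C

variable {B O : κ → Set V} {𝒮 : Submodule ℝ (X → ℝ)} {j : κ → (X → ℝ) → V → F}

/-- the jet -/
def jet (B : κ → Set V) (j : κ → (X → ℝ) → V → F) (u : X → ℝ) : GS B F := fun k =>
  HF.of (1 / 2) (B k) (j k u)

/-- the value of `HF.of` for functions with some bound -/
theorem fn_of' {K : Set V} {f : V → F}
    (h : ∃ C, Bd (1 / 2) K f C) {x : V} (hx : x ∈ K) : HF.fn (HF.of (1 / 2) K f) x = f x := by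
  obtain ⟨C, hC⟩ := h
  exact HF.fn_of hC hx

theorem JetD.fn (J : JetD B 𝒮 j) {u : X → ℝ} (hu : u ∈ 𝒮) {k : κ} {z : V} (hz : z ∈ B k) :
    HF.fn (jet B j u k) z = j k u z := fn_of' (J.bd u hu k) hz

theorem JetD.jet_add (J : JetD B 𝒮 j) {u v : X → ℝ} (hu : u ∈ 𝒮) (hv : v ∈ 𝒮) :
    jet B j (u + v) = jet B j u + jet B j v := by
  funext k
  refine HF.ext fun x hx => ?_
  rw [Pi.add_apply, HF.fn_add, J.fn (𝒮.add_mem hu hv) hx, J.fn hu hx, J.fn hv hx, J.add u hu v hv k x hx]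

theorem JetD.jet_smul (J : JetD B 𝒮 j) {u : X → ℝ} (hu : u ∈ 𝒮) (r : ℝ) :
    jet B j (r • u) = r • jet B j u := by
  funext k
  refine HF.ext fun x hx => ?_
  rw [Pi.smul_apply, HF.fn_smul, J.fn (𝒮.smul_mem r hu) hx, J.fn hu hx, J.smul u hu r k x hx]

/-- the submodule of the jets of admissible functions and constants -/
def W₀ (J : JetD B 𝒮 j) : Submodule ℝ (GS B F × ℝ) where
  carrier := {x | ∃ u ∈ 𝒮, ∃ c : ℝ, x = (jet B j u, c)}
  add_mem' := by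
    rintro _ _ ⟨u, hu, c, rfl⟩ ⟨v, hv, d, rfl⟩
    exact ⟨u + v, 𝒮.add_mem hu hv, c + d, by rw [J.jet_add hu hv]; rfl⟩
  zero_mem' := ⟨0, 𝒮.zero_mem, 0, by
    have h := J.jet_smul 𝒮.zero_mem 0
    rw [smul_zero, zero_smul] at h
    rw [h]
    rfl⟩
  smul_mem' := by
    rintro r _ ⟨u, hu, c, rfl⟩
    exact ⟨r • u, 𝒮.smul_mem r hu, r * c, by rw [J.jet_smul hu r]; rfl⟩

/-- constants as Hoelder functions -/
def cst (K : Set V) : HF (1 / 2) K ℝ := HF.of (1 / 2) K fun _ => (1 : ℝ)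

theorem fn_cst {K : Set V} {x : V} (hx : x ∈ K) : HF.fn (cst K) x = 1 :=
  HF.fn_of (C := 1) ⟨zero_le_one, fun _ _ => by simp, fun x _ y _ => by
    rw [sub_self, norm_zero]; positivity⟩ hx

/-- the operator on one piece -/
def opk (K : Set V) (α : HF (1 / 2) K (F →L[ℝ] ℝ)) : HF (1 / 2) K F →L[ℝ] HF (1 / 2) K ℝ :=
  HF.bil hp (ContinuousLinearMap.id ℝ (F →L[ℝ] ℝ)) α

theorem fn_opk {K : Set V} (α : HF (1 / 2) K (F →L[ℝ] ℝ)) (x : HF (1 / 2) K F) {z : V}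
    (hz : z ∈ K) : HF.fn (opk K α x) z = HF.fn α z (HF.fn x z) :=
  HF.fn_bil hp _ α x hz

variable [Fintype κ]

/-- the operator -/
def opA (B : κ → Set V) (a : κ → P × V → (F →L[ℝ] ℝ)) (p : P) :
    (GS B F × ℝ) →L[ℝ] GS B ℝ := by
  classical
  exact ∑ k, (ContinuousLinearMap.single ℝ (fun k => HF (1 / 2) (B k) ℝ) k).comp
    (((opk (B k) (HF.of (1 / 2) (B k) (fun z => a k (p, z)))).comp
      ((ContinuousLinearMap.proj k).comp (ContinuousLinearMap.fst ℝ (GS B F) ℝ))) +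
      (ContinuousLinearMap.snd ℝ (GS B F) ℝ).smulRight (cst (B k)))

theorem opA_apply (B : κ → Set V) (a : κ → P × V → (F →L[ℝ] ℝ)) (p : P) (x : GS B F × ℝ) (k : κ) :
    opA B a p x k = opk (B k) (HF.of (1 / 2) (B k) (fun z => a k (p, z))) (x.1 k) +
      x.2 • cst (B k) := by
  classical
  rw [opA, sum_apply, Finset.sum_apply, Finset.sum_eq_single k]
  · simp
  · intro l _ hl
    simp [Ne.symm hl]
  · intro h
    exact absurd (Finset.mem_univ k) h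

theorem opA_smooth (D : Dom B O) {T : Set P} (hT : IsOpen T) {a : κ → P × V → (F →L[ℝ] ℝ)}
    (ha : ∀ k, ContDiffOn ℝ ∞ (a k) (T ×ˢ O k)) : ContDiffOn ℝ ∞ (opA B a) T := by
  classical
  unfold opA
  refine ContDiffOn.sum fun k _ => ?_
  refine ContDiffOn.clm_comp contDiffOn_const (ContDiffOn.add (ContDiffOn.clm_comp ?_
    contDiffOn_const) contDiffOn_const)
  have h1 := contDiffOn_of hp hl (D.cpt k) (D.cvx k) hT (D.opn k) (D.sub k) (ha k)
  have h2 : ContDiff ℝ ∞ (fun g : HF (1 / 2) (B k) (F →L[ℝ] ℝ) => opk (B k) g) := by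
    unfold opk
    fun_prop
  exact h2.comp_contDiffOn h1

/-- **smooth dependence for linear equations** -/
theorem v0_abs [CompleteSpace F] (D : Dom B O) (J : JetD B 𝒮 j) {T : Set P} (hT : IsOpen T)
    {p₀ : P} (hp₀ : p₀ ∈ T) {a : κ → P × V → (F →L[ℝ] ℝ)}
    (ha : ∀ k, ContDiffOn ℝ ∞ (a k) (T ×ˢ O k)) {f : κ → P × V → ℝ}
    (hf : ∀ k, ContDiffOn ℝ ∞ (f k) (T ×ˢ O k)) {C : ℝ} (hC : 0 ≤ C)
    (hE : ∀ u ∈ 𝒮, ∀ c N : ℝ, 0 ≤ N →
      (∀ k, Bd (1 / 2) (B k) (fun z => a k (p₀, z) (j k u z) + c) N) →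
      |c| ≤ C * N ∧ ∀ k, Bd (1 / 2) (B k) (j k u) (C * N))
    {u : P → X → ℝ} (hu : ∀ p ∈ T, u p ∈ 𝒮) {c : P → ℝ}
    (heq : ∀ p ∈ T, ∀ k, ∀ z ∈ B k, a k (p, z) (j k (u p) z) + c p = f k (p, z)) :
    ContDiffAt ℝ ∞ c p₀ ∧ ∀ k, ∀ z ∈ B k, ContDiffAt ℝ ∞ (fun p => j k (u p) z) p₀ := by
  -- bounds of the coefficients at a parameter
  have hbda : ∀ p ∈ T, ∀ k, ∃ C, Bd (1 / 2) (B k) (fun z => a k (p, z)) C := fun p hpT k =>
    exists_bd hp hl (D.cpt k) (D.cvx k) (D.opn k) (D.sub k)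
      (((slice_contDiffOn (ha k) hpT).of_le (by simp)))
  have hfn : ∀ p ∈ T, ∀ u ∈ 𝒮, ∀ c : ℝ, ∀ k, ∀ z ∈ B k,
      HF.fn (opA B a p (jet B j u, c) k) z = a k (p, z) (j k u z) + c := by
    intro p hpT u hu c k z hz
    rw [opA_apply, HF.fn_add, fn_opk _ _ hz, HF.fn_smul, fn_cst hz, fn_of' (hbda p hpT k) hz,
      J.fn hu hz]
    simp
  set W : Submodule ℝ (GS B F × ℝ) := (W₀ J).topologicalClosure with hW
  have hWc : IsClosed (W : Set (GS B F × ℝ)) := (W₀ J).isClosed_topologicalClosure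
  have hest : ∀ x ∈ W, ‖x‖ ≤ C * ‖opA B a p₀ x‖ := by
    have hcl : IsClosed {x : GS B F × ℝ | ‖x‖ ≤ C * ‖opA B a p₀ x‖} :=
      isClosed_le (by fun_prop) (by fun_prop)
    have hsub : (W₀ J : Set (GS B F × ℝ)) ⊆ {x : GS B F × ℝ | ‖x‖ ≤ C * ‖opA B a p₀ x‖} := by
      rintro _ ⟨v, hv, d, rfl⟩
      set N := ‖opA B a p₀ (jet B j v, d)‖ with hN
      have hN0 : 0 ≤ N := norm_nonneg _
      have hle : ∀ k, ‖opA B a p₀ (jet B j v, d) k‖ ≤ N := fun k => norm_le_pi_norm _ k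
      have h1 : ∀ k, Bd (1 / 2) (B k) (fun z => a k (p₀, z) (j k v z) + d) N := fun k =>
        ((HF.bd hp (opA B a p₀ (jet B j v, d) k)).mono (hle k)).congr fun z hz =>
          (hfn p₀ hp₀ v hv d k z hz).symm
      obtain ⟨h2, h3⟩ := hE v hv d N hN0 h1
      have hCN : 0 ≤ C * N := mul_nonneg hC hN0
      change ‖((jet B j v, d) : GS B F × ℝ)‖ ≤ C * N
      rw [Prod.norm_def]
      refine max_le ((pi_norm_le_iff_of_nonneg hCN).2 fun k => ?_) (by rwa [Real.norm_eq_abs])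
      exact HF.norm_of (h3 k)
    exact fun x hx => (closure_minimal hsub hcl) hx
  have hsm : ContDiffOn ℝ ∞ (fun p => opA B a p (jet B j (u p), c p)) T := by
    have h1 : ContDiffOn ℝ ∞ (fun p => (fun k => HF.of (1 / 2) (B k) (fun z => f k (p, z)) :
        GS B ℝ)) T := contDiffOn_pi.2 fun k =>
      contDiffOn_of hp hl (D.cpt k) (D.cvx k) hT (D.opn k) (D.sub k) (hf k)
    refine h1.congr fun p hpT => ?_
    funext k
    refine HF.ext fun z hz => ?_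
    have hbf : ∃ C, Bd (1 / 2) (B k) (fun z => f k (p, z)) C :=
      exists_bd hp hl (D.cpt k) (D.cvx k) (D.opn k) (D.sub k)
        (((slice_contDiffOn (hf k) hpT).of_le (by simp)))
    rw [hfn p hpT _ (hu p hpT) _ k z hz, heq p hpT k z hz]
    exact (fn_of' hbf hz).symm
  have key := contDiffAt_of_apriori hWc hT hp₀ (opA_smooth D hT ha) hC hest
    (g := fun p => (jet B j (u p), c p)) (fun p hpT =>
      (W₀ J).le_topologicalClosure ⟨u p, hu p hpT, c p, rfl⟩) hsm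
  refine ⟨key.snd, fun k z hz => ?_⟩
  have h1 : ContDiffAt ℝ ∞ (fun p => jet B j (u p)) p₀ := key.fst
  have h2 : ContDiffAt ℝ ∞ (fun p => jet B j (u p) k) p₀ := contDiffAt_pi.1 h1 k
  have h3 : ContDiffAt ℝ ∞ (fun p => HF.ev hp z (jet B j (u p) k)) p₀ :=
    ContDiffAt.comp (g := fun g => HF.ev (F := F) (K := B k) hp z g) p₀
      (ContDiff.contDiffAt (by fun_prop)) h2
  refine h3.congr_of_eventuallyEq ?_
  filter_upwards [hT.mem_nhds hp₀] with p hpT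
  rw [HF.ev_apply, J.fn (hu p hpT) hz]

end

end Crest.Agent.R281.Lv3_626
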