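import Crest.Agent.R281.Ti3_846
import Crest.Agent.R281.F2Mod_358

/-!
# Row 281, NEF-OPEN, part 1 (helper476)

On one compact space `X` with real charts `C`:

* `AJ C`      : smooth field of endomorphisms `J` (compatible with the transitions)
* `SmF C`     : smooth real functions
* `dc J u`    : the real 1-form `-du ∘ J`; `ddc J u = d (dc J u)`
* `Pos J b`   : `0 < b (v, J v)` for `v ≠ 0`, everywhere
* `Fam`       : family `p ↦ (J p, b p)`, continuous in `C¹` resp. `C⁰`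
* `nef_open`  : `{p | ∃ u, Pos (J p) (b p + ddc (J p) u)}` is open.
-/

set_option autoImplicit false
set_option maxSynthPendingDepth 3
set_option linter.unusedSectionVars false

open Set Filter Topology
open scoped ContDiff

namespace Crest.Agent.R281.NefO_476

open Crest.Agent.R260.ACM_580 Crest.Agent.R281.HkR_835 Crest.Agent.R281.Ti_846

noncomputable section

variable {V X : Type} [NormedAddCommGroup V] [NormedSpace ℝ V] [TopologicalSpace X]

/-- smooth fields of endomorphisms of the tangent spaces -/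
structure AJ (C : RCh V X) where
  J : C.ι → V → V →L[ℝ] V
  sm : ∀ i, ContDiffOn ℝ ∞ (J i) (C.e i).target
  tr : ∀ i j, ∀ z ∈ C.ov i j, ∀ v,
    fderiv ℝ (C.t i j) z (J i z v) = J j (C.t i j z) (fderiv ℝ (C.t i j) z v)

/-- smooth real functions -/
def Sm (C : RCh V X) (u : X → ℝ) : Prop :=
  ∀ i, ContDiffOn ℝ ∞ (fun z => u ((C.e i).symm z)) (C.e i).target

/-- the complex structures of a hyperkaehler triple -/
def ofHk {C : RCh V X} (H : HkT C) (k : Fin 3) : AJ C where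
  J := H.J k
  sm := H.J_sm k
  tr _ _ _ hz v := H.J_tr k hz v

variable {C : RCh V X}

/-- `u` in the chart `i` -/
def uc (C : RCh V X) (u : X → ℝ) (i : C.ι) (z : V) : ℝ := u ((C.e i).symm z)

theorem uc_t (u : X → ℝ) {i j : C.ι} {z : V} (hz : z ∈ C.ov i j) :
    uc C u j (C.t i j z) = uc C u i z := by
  show u ((C.e j).symm (C.e j ((C.e i).symm z))) = u ((C.e i).symm z)
  rw [(C.e j).left_inv hz.2]

theorem Sm.at {u : X → ℝ} (hu : Sm C u) {i : C.ι} {z : V} (hz : z ∈ (C.e i).target) :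
    ContDiffAt ℝ ∞ (uc C u i) z := (hu i).contDiffAt ((C.e i).open_target.mem_nhds hz)

theorem Sm.fd {u : X → ℝ} (hu : Sm C u) {i j : C.ι} {z : V} (hz : z ∈ C.ov i j) (v : V) :
    fderiv ℝ (uc C u i) z v = fderiv ℝ (uc C u j) (C.t i j z) (fderiv ℝ (C.t i j) z v) := by
  have h1 : uc C u i =ᶠ[𝓝 z] fun y => uc C u j (C.t i j y) := by
    filter_upwards [(RCh.isOpen_ov i j).mem_nhds hz] with y hy using (uc_t u hy).symm
  have h2 : HasFDerivAt (fun y => uc C u j (C.t i j y))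
      ((fderiv ℝ (uc C u j) (C.t i j z)).comp (fderiv ℝ (C.t i j) z)) z :=
    HasFDerivAt.comp (g := uc C u j) (f := C.t i j) z
      (((hu.at (RCh.t_mem hz).1).differentiableAt (by simp)).hasFDerivAt)
      (RCh.t_diff hz).hasFDerivAt
  rw [h1.fderiv_eq, h2.fderiv]
  rfl

/-- `d^c u = - du ∘ J` -/
def dc (J : AJ C) (u : X → ℝ) (hu : Sm C u) : F1 C where
  η i z := -(fderiv ℝ (uc C u i) z).comp (J.J i z)
  sm i := by
    have h1 : ContDiffOn ℝ ∞ (fderiv ℝ (uc C u i)) (C.e i).target :=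
      (hu i).fderiv_of_isOpen (C.e i).open_target (by simp)
    exact (h1.clm_comp (J.sm i)).neg
  tr i j z hz v := by
    simp only [neg_apply, ContinuousLinearMap.comp_apply]
    rw [hu.fd hz, J.tr i j z hz]

variable [FiniteDimensional ℝ V] [MeasurableSpace V] [BorelSpace V]

/-- `dd^c u` -/
def ddc (J : AJ C) (u : X → ℝ) (hu : Sm C u) : F2 C := (dc J u hu).d

/-- the formula for `dd^c u` in a chart -/
def ddcF (U : V → ℝ) (T : V → V →L[ℝ] V) (z a b : V) : ℝ :=
  -(fderiv ℝ (fderiv ℝ U) z a (T z b) + fderiv ℝ U z (fderiv ℝ T z a b)) +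
    (fderiv ℝ (fderiv ℝ U) z b (T z a) + fderiv ℝ U z (fderiv ℝ T z b a))

theorem ddc_w (J : AJ C) (u : X → ℝ) (hu : Sm C u) {i : C.ι} {z : V}
    (hz : z ∈ (C.e i).target) (a b : V) :
    (ddc J u hu).w i z a b = ddcF (uc C u i) (J.J i) z a b := by
  have h1 : DifferentiableAt ℝ (fderiv ℝ (uc C u i)) z :=
    (((hu i).fderiv_of_isOpen (C.e i).open_target (m := ∞) (by simp)).contDiffAt
      ((C.e i).open_target.mem_nhds hz)).differentiableAt (by simp)
  have h2 : DifferentiableAt ℝ (J.J i) z :=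
    ((J.sm i).contDiffAt ((C.e i).open_target.mem_nhds hz)).differentiableAt (by simp)
  have h3 := (h1.hasFDerivAt.clm_comp h2.hasFDerivAt).fun_neg
  have h4 : ∀ p q, fderiv ℝ ((dc J u hu).η i) z p q =
      -(fderiv ℝ (fderiv ℝ (uc C u i)) z p (J.J i z q) +
        fderiv ℝ (uc C u i) z (fderiv ℝ (J.J i) z p q)) := by
    intro p q
    have : (dc J u hu).η i = fun y => -(fderiv ℝ (uc C u i) y).comp (J.J i y) := rfl
    rw [this, h3.fderiv]
    simp [add_comm]
  show fderiv ℝ ((dc J u hu).η i) z a b - fderiv ℝ ((dc J u hu).η i) z b a = _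
  rw [h4, h4, ddcF]
  ring

/-- positivity of a 2-form with respect to `J` -/
def Pos (J : AJ C) (b : F2 C) : Prop :=
  ∀ i, ∀ z ∈ (C.e i).target, ∀ v, v ≠ 0 → 0 < b.w i z v (J.J i z v)

/-- positivity is independent of the chart -/
theorem pos_tr {J : AJ C} {b : F2 C} {i j : C.ι} {z : V} (hz : z ∈ C.ov i j)
    (h : ∀ v, v ≠ 0 → 0 < b.w j (C.t i j z) v (J.J j (C.t i j z) v)) (v : V) (hv : v ≠ 0) :
    0 < b.w i z v (J.J i z v) := by
  rw [b.tr i j z hz, J.tr i j z hz]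
  refine h _ fun h0 => hv ?_
  have := RCh.dt_dt hz v
  rw [h0, map_zero] at this
  exact this.symm

section Family

variable {P : Type*} [TopologicalSpace P]

/-- a family of 2-forms, jointly continuous -/
def ContF (b : P → F2 C) : Prop :=
  ∀ i, ContinuousOn (fun q : P × V => (b q.1).w i q.2) (univ ×ˢ (C.e i).target)

/-- a family of endomorphism fields, jointly continuous in `C¹` -/
structure ContJ (J : P → AJ C) : Prop where
  c0 : ∀ i, ContinuousOn (fun q : P × V => (J q.1).J i q.2) (univ ×ˢ (C.e i).target)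
  c1 : ∀ i, ContinuousOn (fun q : P × V => fderiv ℝ ((J q.1).J i) q.2) (univ ×ˢ (C.e i).target)

theorem ContF.add {b b' : P → F2 C} (h : ContF b) (h' : ContF b') : ContF fun p => b p + b' p :=
  fun i => (h i).add (h' i)

theorem ContF.smul {b : P → F2 C} (h : ContF b) (a : ℝ) : ContF fun p => a • b p :=
  fun i => (h i).const_smul a

/-- the value `(b + dd^c u) (v, J v)` -/
def Ps (J : P → AJ C) (b : P → F2 C) (u : X → ℝ) (i : C.ι) (q : (P × V) × V) : ℝ :=
  (b q.1.1).w i q.1.2 q.2 ((J q.1.1).J i q.1.2 q.2) +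
    ddcF (uc C u i) ((J q.1.1).J i) q.1.2 q.2 ((J q.1.1).J i q.1.2 q.2)

theorem Ps_cont {J : P → AJ C} (hJ : ContJ J) {b : P → F2 C} (hb : ContF b) {u : X → ℝ}
    (hu : Sm C u) (i : C.ι) :
    ContinuousOn (Ps J b u i) ((univ ×ˢ (C.e i).target) ×ˢ univ) := by
  have m1 : MapsTo (fun q : (P × V) × V => q.1) ((univ ×ˢ (C.e i).target) ×ˢ univ)
      (univ ×ˢ (C.e i).target) := fun q hq => hq.1
  have m2 : MapsTo (fun q : (P × V) × V => q.1.2) ((univ ×ˢ (C.e i).target) ×ˢ univ)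
      ((C.e i).target) := fun q hq => hq.1.2
  have c1 : ContinuousOn (fun q : (P × V) × V => q.1) ((univ ×ˢ (C.e i).target) ×ˢ univ) :=
    continuous_fst.continuousOn
  have c2 : ContinuousOn (fun q : (P × V) × V => q.1.2) ((univ ×ˢ (C.e i).target) ×ˢ univ) :=
    (continuous_snd.comp continuous_fst).continuousOn
  have cv : ContinuousOn (fun q : (P × V) × V => q.2) ((univ ×ˢ (C.e i).target) ×ˢ univ) :=
    continuous_snd.continuousOn
  have hb' := (hb i).comp c1 m1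
  have hJ0 := (hJ.c0 i).comp c1 m1
  have hJ1 := (hJ.c1 i).comp c1 m1
  have s1 : ContDiffOn ℝ ∞ (fderiv ℝ (uc C u i)) (C.e i).target :=
    (hu i).fderiv_of_isOpen (C.e i).open_target (by simp)
  have s2 : ContDiffOn ℝ ∞ (fderiv ℝ (fderiv ℝ (uc C u i))) (C.e i).target :=
    s1.fderiv_of_isOpen (C.e i).open_target (by simp)
  have hD1 := s1.continuousOn.comp c2 m2
  have hD2 := s2.continuousOn.comp c2 m2
  simp only [Function.comp_def] at hb' hJ0 hJ1 hD1 hD2
  have hJv := hJ0.clm_apply cv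
  have hJJv := hJ0.clm_apply hJv
  have t1 := (hb'.clm_apply cv).clm_apply hJv
  have t2 := (hD2.clm_apply cv).clm_apply hJJv
  have t3 := hD1.clm_apply ((hJ1.clm_apply cv).clm_apply hJv)
  have t4 := (hD2.clm_apply hJv).clm_apply hJv
  have t5 := hD1.clm_apply ((hJ1.clm_apply hJv).clm_apply cv)
  exact t1.add (((t2.add t3).neg).add (t4.add t5))

theorem Ps_eq (J : P → AJ C) (b : P → F2 C) {u : X → ℝ} (hu : Sm C u) {i : C.ι} {p : P} {z : V}
    (hz : z ∈ (C.e i).target) (v : V) :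
    Ps J b u i ((p, z), v) = (b p + ddc (J p) u hu).w i z v ((J p).J i z v) := by
  show _ = (b p).w i z v ((J p).J i z v) + (ddc (J p) u hu).w i z v ((J p).J i z v)
  rw [ddc_w _ _ _ hz]
  rfl

/-- **openness of positivity** -/
theorem nef_open [CompactSpace X] {J : P → AJ C} (hJ : ContJ J)
    {b : P → F2 C} (hb : ContF b) :
    IsOpen {p | ∃ (u : X → ℝ) (hu : Sm C u), Pos (J p) (b p + ddc (J p) u hu)} := by
  rw [isOpen_iff_mem_nhds]
  rintro p₀ ⟨u, hu, hpos⟩
  have : ProperSpace V := FiniteDimensional.proper ℝ V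
  -- local step
  have key : ∀ x : X, ∃ (i : C.ι) (N : Set P) (W : Set V), x ∈ (C.e i).source ∧ N ∈ 𝓝 p₀ ∧
      IsOpen W ∧ C.e i x ∈ W ∧ W ⊆ (C.e i).target ∧ ∀ p ∈ N, ∀ z ∈ W, ∀ v : V, ‖v‖ = 1 →
        0 < (b p + ddc (J p) u hu).w i z v ((J p).J i z v) := by
    intro x
    obtain ⟨i, hi⟩ := C.cover x
    have hz0 : C.e i x ∈ (C.e i).target := (C.e i).map_source hi
    have hopen : IsOpen ((univ ×ˢ (C.e i).target : Set (P × V)) ×ˢ (univ : Set V)) :=
      (isOpen_univ.prod (C.e i).open_target).prod isOpen_univ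
    have hO : IsOpen (((univ ×ˢ (C.e i).target : Set (P × V)) ×ˢ (univ : Set V)) ∩
        Ps J b u i ⁻¹' Ioi 0) :=
      (Ps_cont hJ hb hu i).isOpen_inter_preimage hopen isOpen_Ioi
    have hsub : ({(p₀, C.e i x)} : Set (P × V)) ×ˢ Metric.sphere (0 : V) 1 ⊆
        ((univ ×ˢ (C.e i).target : Set (P × V)) ×ˢ (univ : Set V)) ∩ Ps J b u i ⁻¹' Ioi 0 := by
      rintro ⟨⟨p, z⟩, v⟩ ⟨hpz, hv⟩
      simp only [mem_singleton_iff, Prod.mk.injEq] at hpz
      obtain ⟨rfl, rfl⟩ := hpz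
      refine ⟨⟨⟨mem_univ _, hz0⟩, mem_univ _⟩, ?_⟩
      show 0 < Ps J b u i ((p, C.e i x), v)
      rw [Ps_eq J b hu hz0]
      refine hpos i _ hz0 v fun h0 => ?_
      simp [h0] at hv
    obtain ⟨A, B, hA, hB, hA', hB', hAB⟩ := generalized_tube_lemma isCompact_singleton
      (isCompact_sphere (0 : V) 1) hO hsub
    have hA'' : A ∈ 𝓝 (p₀, C.e i x) := hA.mem_nhds (hA' rfl)
    rw [nhds_prod_eq] at hA''
    obtain ⟨N, hN, W, hW, hNW⟩ := mem_prod_iff.1 hA''
    obtain ⟨W', hW'sub, hW'o, hW'x⟩ := mem_nhds_iff.1 hW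
    refine ⟨i, N, W' ∩ (C.e i).target, hi, hN, hW'o.inter (C.e i).open_target,
      ⟨hW'x, hz0⟩, inter_subset_right, fun p hp z hz v hv => ?_⟩
    have h1 := hAB (mk_mem_prod (hNW (mk_mem_prod hp (hW'sub hz.1))) (hB' (by simp [hv] :
      v ∈ Metric.sphere (0 : V) 1)))
    have h2 : 0 < Ps J b u i ((p, z), v) := h1.2
    rwa [Ps_eq J b hu hz.2] at h2
  choose ci N W hsrc hN hW hx hWt hP using key
  obtain ⟨t, -, ht⟩ := isCompact_univ.elim_nhds_subcover
    (fun x => (C.e (ci x)).source ∩ C.e (ci x) ⁻¹' W x) fun x _ =>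
      ((C.e (ci x)).isOpen_inter_preimage (hW x)).mem_nhds ⟨hsrc x, hx x⟩
  have hNN : (⋂ x ∈ t, N x) ∈ 𝓝 p₀ := (biInter_finset_mem t).2 fun x _ => hN x
  refine mem_of_superset hNN fun p hp => ⟨u, hu, fun i z hz v hv => ?_⟩
  obtain ⟨x, hxt, hxs, hxW⟩ := mem_iUnion₂.1 (ht (mem_univ ((C.e i).symm z)))
  have hov : z ∈ C.ov i (ci x) := ⟨hz, hxs⟩
  refine pos_tr hov (fun v' hv' => ?_) v hv
  have hn : 0 < ‖v'‖ := norm_pos_iff.2 hv'
  have h1 := hP x p (mem_iInter₂.1 hp x hxt) (C.t i (ci x) z) hxW (‖v'‖⁻¹ • v') (by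
    rw [norm_smul, norm_inv, norm_norm, inv_mul_cancel₀ hn.ne'])
  simp only [map_smul, smul_apply, smul_eq_mul] at h1
  have h2 : 0 < ‖v'‖⁻¹ * ‖v'‖⁻¹ := by positivity
  rw [← mul_assoc] at h1
  exact (mul_pos_iff_of_pos_left h2).1 h1

end Family

end

end Crest.Agent.R281.NefO_476
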