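import Crest.Agent.R281.HkR4_835
import Crest.Agent.R281.NefO1_476

/-!
# Row 281, LAP-VAR, part 4 (helper626): the trace of a 2-form with respect to `om` and `J`

* `Rm b G`     : the real Gram matrix `Re h_G(b_a, b_c)`; `trace_Rm : tr (R_G⁻¹ R_H) = 2 Re tr (G⁻¹ H)`
* `Mt b w T`   : the matrix `w(b_a, T b_c)`
* `ddJ`        : the pointwise formula for `dd^c` in terms of the jets
* `aL b w T dT : ℝ × (V →L ℝ) × (V →L V →L ℝ) →L ℝ`, `(u, Du, D²u) ↦ tr (M⁻¹ (dd^c u)(b_a, T b_c))`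
* `aL_smooth`  : joint smoothness
-/

set_option autoImplicit false
set_option linter.unusedSectionVars false
set_option maxSynthPendingDepth 3
set_option synthInstance.maxHeartbeats 200000

open Set Filter Topology Complex
open scoped ContDiff Matrix ComplexConjugate ComplexOrder InnerProductSpace

namespace Crest.Agent.R281.Lv4_626

open Crest.Agent.R275.Geo Crest.Agent.R281.HkR_835 Crest.Agent.R281.Ti_846
open Crest.Agent.R281.NefO_476

noncomputable section

section alg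

variable {d : ℕ} {β : Type} [Fintype β] [DecidableEq β]

/-- the coordinate inclusion `ℂ → Cⁿ` -/
def inc (a : Fin d) : ℂ →ₗ[ℝ] Cn d where
  toFun z := EuclideanSpace.single a z
  map_add' z w := by ext b; by_cases h : b = a <;> simp [h]
  map_smul' r z := by ext b; by_cases h : b = a <;> simp [h]

/-- the coordinate projection -/
def prj (a : Fin d) : Cn d →ₗ[ℝ] ℂ where
  toFun v := v a
  map_add' _ _ := rfl
  map_smul' _ _ := rfl

/-- multiplication by `m` -/
def mulc (m : ℂ) : ℂ →ₗ[ℝ] ℂ where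
  toFun z := m * z
  map_add' _ _ := mul_add _ _ _
  map_smul' r z := by simp; ring

theorem trace_mulc (m : ℂ) : LinearMap.trace ℝ ℂ (mulc m) = 2 * m.re := by
  rw [← Algebra.trace_complex_apply m, Algebra.trace_apply]
  rfl

theorem prj_inc (a b : Fin d) (z : ℂ) : prj b (inc a z) = if b = a then z else 0 := by
  change (EuclideanSpace.single a z : Cn d) b = _
  simp

/-- the real trace of a complex matrix -/
theorem trace_mL (G : Matrix (Fin d) (Fin d) ℂ) :
    LinearMap.trace ℝ (Cn d) (mL G : Cn d →ₗ[ℝ] Cn d) = 2 * G.trace.re := by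
  have h1 : (mL G : Cn d →ₗ[ℝ] Cn d) = ∑ a, ∑ b, (inc a).comp ((mulc (G a b)).comp (prj b)) := by
    ext v c
    simp only [LinearMap.sum_apply, LinearMap.comp_apply]
    have h2 : ∀ (s : Finset (Fin d)) (f : Fin d → Cn d), (∑ a ∈ s, f a) c = ∑ a ∈ s, f a c := by
      intro s f
      exact map_sum (prj c) f s
    rw [h2]
    simp only [h2]
    have h3 : ∀ a b, (inc a (mulc (G a b) (prj b v))) c = if c = a then G a b * v b else 0 :=
      fun a b => prj_inc a c _
    simp only [h3]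
    change (mL G v) c = _
    rw [mL_apply, Matrix.mulVec, dotProduct]
    symm
    rw [Finset.sum_eq_single c]
    · simp
    · intro a _ ha
      simp [Ne.symm ha]
    · intro h
      exact absurd (Finset.mem_univ c) h
  rw [h1, map_sum]
  simp only [map_sum]
  have h4 : ∀ a b : Fin d, LinearMap.trace ℝ (Cn d) ((inc a).comp ((mulc (G a b)).comp (prj b))) =
      if a = b then 2 * (G a b).re else 0 := by
    intro a b
    rw [LinearMap.trace_comp_comm']
    have h5 : ((mulc (G a b)).comp (prj b)).comp (inc a) = mulc (if b = a then G a b else 0) := by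
      ext
      all_goals simp [mulc, prj_inc]
    rw [h5, trace_mulc]
    by_cases h : a = b
    · simp [h]
    · simp [h, Ne.symm h]
  simp only [h4]
  simp only [Finset.sum_ite_eq, Finset.mem_univ, if_true]
  rw [Matrix.trace, Complex.re_sum, Finset.mul_sum]
  rfl

/-- the real Gram matrix of a Hermitian form -/
def Rm (b : Module.Basis β ℝ (Cn d)) (G : Matrix (Fin d) (Fin d) ℂ) : Matrix β β ℝ :=
  Matrix.of fun a c => (hb G (b a) (b c)).re

theorem hb_mL_right (G Q : Matrix (Fin d) (Fin d) ℂ) (u v : Cn d) :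
    hb G u (mL (Q.map conj) v) = hb (G * Q) u v := by
  have h1 : hb G u (mL (Q.map conj) v) =
      ∑ a, ∑ e, ∑ c, G a c * u a * (Q c e * conj (v e)) := by
    unfold hb
    refine Finset.sum_congr rfl fun a _ => ?_
    rw [Finset.sum_comm]
    refine Finset.sum_congr rfl fun c _ => ?_
    rw [mL_apply, Matrix.mulVec, dotProduct, map_sum, Finset.mul_sum]
    refine Finset.sum_congr rfl fun e _ => ?_
    rw [map_mul, Matrix.map_apply, Complex.conj_conj]
  rw [h1]
  unfold hb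
  refine Finset.sum_congr rfl fun a _ => Finset.sum_congr rfl fun e _ => ?_
  rw [Matrix.mul_apply, Finset.sum_mul, Finset.sum_mul]
  exact Finset.sum_congr rfl fun c _ => by ring

theorem Rm_mul (b : Module.Basis β ℝ (Cn d)) (G Q : Matrix (Fin d) (Fin d) ℂ) :
    Rm b (G * Q) = Rm b G * LinearMap.toMatrix b b (mL (Q.map conj) : Cn d →ₗ[ℝ] Cn d) := by
  ext a c
  rw [Rm, Matrix.of_apply, ← hb_mL_right, Matrix.mul_apply]
  have h1 : mL (Q.map conj) (b c) =
      ∑ e, (LinearMap.toMatrix b b (mL (Q.map conj) : Cn d →ₗ[ℝ] Cn d) e c) • b e := by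
    have := b.sum_repr (mL (Q.map conj) (b c))
    rw [← this]
    refine Finset.sum_congr rfl fun e _ => ?_
    rw [LinearMap.toMatrix_apply]
    simp
  have h2 : ∀ (s : Finset β) (r : β → ℝ), (hb G (b a) (∑ e ∈ s, r e • b e)).re =
      ∑ e ∈ s, r e * (hb G (b a) (b e)).re := by
    intro s r
    induction s using Finset.induction_on with
    | empty => simp [hb]
    | insert e s he ih =>
      rw [Finset.sum_insert he, Finset.sum_insert he, ← ih]
      simp only [hb, PiLp.add_apply, PiLp.smul_apply, map_add, mul_add, Finset.sum_add_distrib,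
        Complex.add_re]
      congr 1
      simp only [Complex.re_sum, Finset.mul_sum]
      refine Finset.sum_congr rfl fun x _ => Finset.sum_congr rfl fun y _ => ?_
      simp only [Complex.real_smul, map_mul, Complex.conj_ofReal]
      rw [mul_left_comm, Complex.re_ofReal_mul]
  rw [h1, h2]
  refine Finset.sum_congr rfl fun e _ => ?_
  rw [mul_comm]
  rfl

theorem trace_Rm (b : Module.Basis β ℝ (Cn d)) {G H : Matrix (Fin d) (Fin d) ℂ}
    (hG : IsUnit G.det) (hR : IsUnit (Rm b G).det) :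
    ((Rm b G)⁻¹ * Rm b H).trace = 2 * (G⁻¹ * H).trace.re := by
  have h1 : H = G * (G⁻¹ * H) := by
    rw [← Matrix.mul_assoc, Matrix.mul_nonsing_inv _ hG, Matrix.one_mul]
  have h2 : Rm b H = Rm b G * LinearMap.toMatrix b b
      (mL ((G⁻¹ * H).map conj) : Cn d →ₗ[ℝ] Cn d) := by
    conv_lhs => rw [h1]
    exact Rm_mul b G _
  rw [h2, ← Matrix.mul_assoc, Matrix.nonsing_inv_mul _ hR, Matrix.one_mul,
    ← LinearMap.trace_eq_matrix_trace, trace_mL]
  congr 1
  have h3 : ((G⁻¹ * H).map conj).trace = conj (G⁻¹ * H).trace := by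
    rw [Matrix.trace, Matrix.trace, map_sum]
    rfl
  rw [h3, Complex.conj_re]

end alg

/-! ### smooth matrices -/

section sm

variable {E : Type} [NormedAddCommGroup E] [NormedSpace ℝ E] {β : Type} [Fintype β]
  [DecidableEq β] {S : Set E}

theorem sm_det {M : E → Matrix β β ℝ} (h : ∀ a c, ContDiffOn ℝ ∞ (fun q => M q a c) S) :
    ContDiffOn ℝ ∞ (fun q => (M q).det) S := by
  simp only [Matrix.det_apply']
  refine ContDiffOn.sum fun σ _ => contDiffOn_const.mul ?_
  exact contDiffOn_prod fun c _ => h _ _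

theorem sm_inv {M : E → Matrix β β ℝ} (h : ∀ a c, ContDiffOn ℝ ∞ (fun q => M q a c) S)
    (hd : ∀ q ∈ S, (M q).det ≠ 0) (a c : β) : ContDiffOn ℝ ∞ (fun q => (M q)⁻¹ a c) S := by
  have h1 : ContDiffOn ℝ ∞ (fun q => ((M q).det)⁻¹ * (M q).adjugate a c) S := by
    refine ((sm_det h).inv hd).mul ?_
    simp only [Matrix.adjugate_apply]
    refine sm_det fun x y => ?_
    by_cases hx : x = c
    · subst hx
      simp only [Matrix.updateRow_self]
      exact contDiffOn_const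
    · simp only [Matrix.updateRow_ne hx]
      exact h x y
  refine h1.congr fun q _ => ?_
  rw [Matrix.inv_def, Matrix.smul_apply, Ring.inverse_eq_inv', smul_eq_mul]

end sm

/-! ### the operator -/

section op

variable {V : Type} [NormedAddCommGroup V] [NormedSpace ℝ V] {β : Type} [Fintype β]
  [DecidableEq β]

/-- the matrix `w(b_a, T b_c)` -/
def Mt (b : Module.Basis β ℝ V) (w : Bil V) (T : V →L[ℝ] V) : Matrix β β ℝ :=
  Matrix.of fun a c => w (b a) (T (b c))

/-- `dd^c` in terms of the jets -/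
def ddJ (D1 : V →L[ℝ] ℝ) (D2 : V →L[ℝ] V →L[ℝ] ℝ) (T : V →L[ℝ] V) (dT : V →L[ℝ] V →L[ℝ] V)
    (a b : V) : ℝ :=
  -(D2 a (T b) + D1 (dT a b)) + (D2 b (T a) + D1 (dT b a))

theorem ddcF_eq (U : V → ℝ) (T : V → V →L[ℝ] V) (z a b : V) :
    ddcF U T z a b = ddJ (fderiv ℝ U z) (fderiv ℝ (fderiv ℝ U) z) (T z) (fderiv ℝ T z) a b := rfl

/-- the jets of order 2 -/
abbrev Jt (V : Type) [NormedAddCommGroup V] [NormedSpace ℝ V] : Type :=
  ℝ × (V →L[ℝ] ℝ) × (V →L[ℝ] V →L[ℝ] ℝ)

/-- the matrix of `dd^c` -/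
def St (b : Module.Basis β ℝ V) (D1 : V →L[ℝ] ℝ) (D2 : V →L[ℝ] V →L[ℝ] ℝ) (T : V →L[ℝ] V)
    (dT : V →L[ℝ] V →L[ℝ] V) : Matrix β β ℝ :=
  Matrix.of fun a c => ddJ D1 D2 T dT (b a) (T (b c))

variable [FiniteDimensional ℝ V]

/-- the trace of `dd^c u` as a linear function of the jet of `u` -/
def aLl (b : Module.Basis β ℝ V) (w : Bil V) (T : V →L[ℝ] V) (dT : V →L[ℝ] V →L[ℝ] V) :
    Jt V →ₗ[ℝ] ℝ where
  toFun := fun (φ : Jt V) => ((Mt b w T)⁻¹ * St b φ.2.1 φ.2.2 T dT).trace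
  map_add' := fun (φ ψ : Jt V) => by
    have : St b (φ + ψ).2.1 (φ + ψ).2.2 T dT = St b φ.2.1 φ.2.2 T dT + St b ψ.2.1 ψ.2.2 T dT := by
      ext a c
      simp only [St, Matrix.of_apply, Matrix.add_apply, ddJ, Prod.snd_add, Prod.fst_add,
        add_apply]
      ring
    rw [this, Matrix.mul_add, Matrix.trace_add]
  map_smul' := fun (r : ℝ) (φ : Jt V) => by
    have : St b (r • φ).2.1 (r • φ).2.2 T dT = r • St b φ.2.1 φ.2.2 T dT := by
      ext a c
      simp only [St, Matrix.of_apply, Matrix.smul_apply, ddJ, Prod.smul_snd, Prod.smul_fst,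
        smul_apply, smul_eq_mul]
      ring
    rw [this, Matrix.mul_smul, Matrix.trace_smul]
    rfl

/-- the trace of `dd^c u` as a linear function of the jet of `u` -/
def aL (b : Module.Basis β ℝ V) (w : Bil V) (T : V →L[ℝ] V) (dT : V →L[ℝ] V →L[ℝ] V) :
    Jt V →L[ℝ] ℝ :=
  ⟨aLl b w T dT, LinearMap.continuous_of_finiteDimensional _⟩

theorem aL_apply (b : Module.Basis β ℝ V) (w : Bil V) (T : V →L[ℝ] V) (dT : V →L[ℝ] V →L[ℝ] V)
    (φ : Jt V) : aL b w T dT φ = ((Mt b w T)⁻¹ * St b φ.2.1 φ.2.2 T dT).trace := rfl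

theorem sm_Mt {E : Type} [NormedAddCommGroup E] [NormedSpace ℝ E] {S : Set E}
    (b : Module.Basis β ℝ V) {w : E → Bil V} {T : E → V →L[ℝ] V} (hw : ContDiffOn ℝ ∞ w S)
    (hT : ContDiffOn ℝ ∞ T S) (a c : β) : ContDiffOn ℝ ∞ (fun q => Mt b (w q) (T q) a c) S :=
  (hw.clm_apply contDiffOn_const).clm_apply (hT.clm_apply contDiffOn_const)

theorem sm_St {E : Type} [NormedAddCommGroup E] [NormedSpace ℝ E] {S : Set E}
    (b : Module.Basis β ℝ V) (D1 : V →L[ℝ] ℝ) (D2 : V →L[ℝ] V →L[ℝ] ℝ) {T : E → V →L[ℝ] V}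
    {dT : E → V →L[ℝ] V →L[ℝ] V} (hT : ContDiffOn ℝ ∞ T S) (hdT : ContDiffOn ℝ ∞ dT S) (a c : β) :
    ContDiffOn ℝ ∞ (fun q => St b D1 D2 (T q) (dT q) a c) S := by
  have h1 : ContDiffOn ℝ ∞ (fun q => T q (b c)) S := hT.clm_apply contDiffOn_const
  have h2 : ContDiffOn ℝ ∞ (fun q => T q (T q (b c))) S := hT.clm_apply h1
  have h3 : ContDiffOn ℝ ∞ (fun q => T q (b a)) S := hT.clm_apply contDiffOn_const
  have h4 : ContDiffOn ℝ ∞ (fun q => dT q (b a) (T q (b c))) S :=
    (hdT.clm_apply contDiffOn_const).clm_apply h1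
  have h5 : ContDiffOn ℝ ∞ (fun q => dT q (T q (b c)) (b a)) S :=
    (hdT.clm_apply h1).clm_apply contDiffOn_const
  have e1 : ContDiffOn ℝ ∞ (fun q => D2 (b a) (T q (T q (b c)))) S :=
    (D2 (b a)).contDiff.comp_contDiffOn h2
  have e2 : ContDiffOn ℝ ∞ (fun q => D1 (dT q (b a) (T q (b c)))) S :=
    D1.contDiff.comp_contDiffOn h4
  have e3 : ContDiffOn ℝ ∞ (fun q => D2 (T q (b c)) (T q (b a))) S :=
    (contDiffOn_const.clm_apply h1).clm_apply h3
  have e4 : ContDiffOn ℝ ∞ (fun q => D1 (dT q (T q (b c)) (b a))) S :=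
    D1.contDiff.comp_contDiffOn h5
  exact ((e1.add e2).neg).add (e3.add e4)

/-- joint smoothness of the operator -/
theorem aL_smooth {E : Type} [NormedAddCommGroup E] [NormedSpace ℝ E] {S : Set E}
    (b : Module.Basis β ℝ V) {w : E → Bil V} {T : E → V →L[ℝ] V} {dT : E → V →L[ℝ] V →L[ℝ] V}
    (hw : ContDiffOn ℝ ∞ w S) (hT : ContDiffOn ℝ ∞ T S) (hdT : ContDiffOn ℝ ∞ dT S)
    (hd : ∀ q ∈ S, (Mt b (w q) (T q)).det ≠ 0) :
    ContDiffOn ℝ ∞ (fun q => aL b (w q) (T q) (dT q)) S := by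
  rw [contDiffOn_clm_apply]
  intro φ
  simp only [aL_apply, Matrix.trace, Matrix.diag, Matrix.mul_apply]
  exact ContDiffOn.sum fun a _ => ContDiffOn.sum fun c _ =>
    (sm_inv (sm_Mt b hw hT) hd a c).mul (sm_St b _ _ hT hdT c a)

/-- the trace of a form -/
theorem sm_trace {E : Type} [NormedAddCommGroup E] [NormedSpace ℝ E] {S : Set E}
    (b : Module.Basis β ℝ V) {w w' : E → Bil V} {T : E → V →L[ℝ] V}
    (hw : ContDiffOn ℝ ∞ w S) (hw' : ContDiffOn ℝ ∞ w' S) (hT : ContDiffOn ℝ ∞ T S)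
    (hd : ∀ q ∈ S, (Mt b (w q) (T q)).det ≠ 0) :
    ContDiffOn ℝ ∞ (fun q => ((Mt b (w q) (T q))⁻¹ * Mt b (w' q) (T q)).trace) S := by
  simp only [Matrix.trace, Matrix.diag, Matrix.mul_apply]
  exact ContDiffOn.sum fun a _ => ContDiffOn.sum fun c _ =>
    (sm_inv (sm_Mt b hw hT) hd a c).mul (sm_Mt b hw' hT c a)

end op

end

end Crest.Agent.R281.Lv4_626
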