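import Crest.Agent.R281.Lv3_626
import Crest.Agent.R281.Lv4_626
import Crest.Agent.R281.Nef2_252
import Crest.Agent.R273.SchJ_152

/-!
# Row 281, LAP-VAR, part 5 (helper626): smooth dependence at a point whose complex structure is given
by a holomorphic atlas

* `det_Mt_ne` : positivity implies `det (w(b_a, T b_c)) ≠ 0`
* `aL_base`   : for the Kaehler form of `K` and `J = i`: the trace of `dd^c u` is `8 Lap_K u`
* `v0_atl`    : `V0` in the charts of the atlas
-/

set_option autoImplicit false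
set_option linter.unusedSectionVars false
set_option maxSynthPendingDepth 3
set_option synthInstance.maxHeartbeats 200000

open Set Filter Topology Complex Metric
open scoped ContDiff Matrix ComplexConjugate ComplexOrder InnerProductSpace

namespace Crest.Agent.R281.Lv5_626

open Crest.Agent.R275.Geo Crest.Agent.R275.Core144 Crest.Agent.R275.EDR890
open Crest.Agent.R275.GC293
open Crest.Agent.R273.Kah_333 Crest.Agent.R273.Hess_333 Crest.Agent.R273.HessB_333
open Crest.Agent.R273.Defs_333 Crest.Agent.R273.HM_333 Crest.Agent.R273.Vol_333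
open Crest.Agent.R273.YauDefs_635 Crest.Agent.R273.SchA_152 Crest.Agent.R273.SchD_152
open Crest.Agent.R273.SchE_152 Crest.Agent.R273.SchF_152 Crest.Agent.R273.SchG_152
open Crest.Agent.R273.SchH_152 Crest.Agent.R273.SchI_152 Crest.Agent.R273.SchJ_152
open Crest.Agent.R273.YauMax_635 (cH_eq_hess)
open Crest.Agent.R281.HkR_835 Crest.Agent.R281.Ti_846 Crest.Agent.R281.NefO_476
open Crest.Agent.R281.Nef_252
open Crest.Agent.R281.Lv3_626 Crest.Agent.R281.Lv4_626 Crest.Agent.R281.Hjs_680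

noncomputable section

theorem det_Mt_ne {V : Type} [NormedAddCommGroup V] [NormedSpace ℝ V] {β : Type} [Fintype β]
    [DecidableEq β] (b : Module.Basis β ℝ V) {w : Bil V} {T : V →L[ℝ] V}
    (h : ∀ v, v ≠ 0 → 0 < w v (T v)) : (Mt b w T).det ≠ 0 := by
  intro h0
  obtain ⟨x, hx, hMx⟩ := Matrix.exists_mulVec_eq_zero_iff.2 h0
  set v : V := ∑ c, x c • b c with hv
  have hv0 : v ≠ 0 := by
    intro hv0
    apply hx
    have := b.linearIndependent
    rw [Fintype.linearIndependent_iff] at this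
    exact funext (this x hv0)
  have h1 : ∀ a, w (b a) (T v) = 0 := by
    intro a
    have h2 := congrFun hMx a
    simp only [Matrix.mulVec, dotProduct, Mt, Matrix.of_apply, Pi.zero_apply] at h2
    rw [hv, map_sum, map_sum, ← h2]
    refine Finset.sum_congr rfl fun c _ => ?_
    rw [map_smul, map_smul, smul_eq_mul, mul_comm]
  have h3 : w v (T v) = 0 := by
    conv_lhs => rw [hv]
    rw [map_sum, sum_apply]
    refine Finset.sum_eq_zero fun a _ => ?_
    rw [map_smul, smul_apply, ← hv, h1, smul_zero]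
  exact (h v hv0).ne' h3

section base

variable {d : ℕ} {X : Type} [TopologicalSpace X] {A : Atl d X}

/-- the jets read in the chart balls -/
def jm (B : Cb A) (k : B.κ) (u : X → ℝ) (z : Cn d) : Jt (Cn d) :=
  (inC A (B.i k) u z, fderiv ℝ (inC A (B.i k) u) z, fderiv ℝ (fderiv ℝ (inC A (B.i k) u)) z)

/-- normalised smooth functions -/
def SS (A : Atl d X) (x₁ : X) : Submodule ℝ (X → ℝ) where
  carrier := {u | A.Sm u ∧ u x₁ = 0}
  add_mem' := fun {u v} hu hv => ⟨fun i => (hu.1 i).add (hv.1 i), by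
    rw [Pi.add_apply, hu.2, hv.2, add_zero]⟩
  zero_mem' := ⟨fun i => contDiffOn_const, rfl⟩
  smul_mem' := fun r u hu => ⟨fun i => contDiffOn_const.mul (hu.1 i), by
    rw [Pi.smul_apply, hu.2, smul_zero]⟩

theorem dom (B : Cb A) : Dom (fun k : B.κ => closedBall (B.z k) (B.r k / 2))
    (fun k => (A.e (B.i k)).target) :=
  ⟨fun _ => isCompact_closedBall _ _, fun _ => convex_closedBall _ _,
    fun k => (A.e (B.i k)).open_target, fun k => B.sub' k⟩

theorem inC_sm {u : X → ℝ} (hu : A.Sm u) (i : A.ι) : ContDiffOn ℝ ∞ (inC A i u) (A.e i).target :=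
  hu i

theorem inC_d0 {u : X → ℝ} (hu : A.Sm u) {i : A.ι} {z : Cn d} (hz : z ∈ (A.e i).target) :
    DifferentiableAt ℝ (inC A i u) z :=
  ((inC_sm hu i).contDiffAt ((A.e i).open_target.mem_nhds hz)).differentiableAt (by simp)

theorem inC_s1 {u : X → ℝ} (hu : A.Sm u) (i : A.ι) :
    ContDiffOn ℝ ∞ (fderiv ℝ (inC A i u)) (A.e i).target :=
  (inC_sm hu i).fderiv_of_isOpen (A.e i).open_target (by simp)

theorem inC_s2 {u : X → ℝ} (hu : A.Sm u) (i : A.ι) :
    ContDiffOn ℝ ∞ (fderiv ℝ (fderiv ℝ (inC A i u))) (A.e i).target :=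
  (inC_s1 hu i).fderiv_of_isOpen (A.e i).open_target (by simp)

theorem inC_d1 {u : X → ℝ} (hu : A.Sm u) {i : A.ι} {z : Cn d} (hz : z ∈ (A.e i).target) :
    DifferentiableAt ℝ (fderiv ℝ (inC A i u)) z :=
  ((inC_s1 hu i).contDiffAt ((A.e i).open_target.mem_nhds hz)).differentiableAt (by simp)

theorem jm_smooth (B : Cb A) (k : B.κ) {u : X → ℝ} (hu : A.Sm u) :
    ContDiffOn ℝ ∞ (jm B k u) (A.e (B.i k)).target :=
  (inC_sm hu _).prodMk ((inC_s1 hu _).prodMk (inC_s2 hu _))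

theorem jm_add (B : Cb A) (k : B.κ) {u v : X → ℝ} (hu : A.Sm u) (hv : A.Sm v) {z : Cn d}
    (hz : z ∈ (A.e (B.i k)).target) : jm B k (u + v) z = jm B k u z + jm B k v z := by
  have h1 : ∀ y ∈ (A.e (B.i k)).target, fderiv ℝ (inC A (B.i k) (u + v)) y =
      fderiv ℝ (inC A (B.i k) u) y + fderiv ℝ (inC A (B.i k) v) y := fun y hy =>
    fderiv_fun_add (inC_d0 hu hy) (inC_d0 hv hy)
  have h2 : fderiv ℝ (fderiv ℝ (inC A (B.i k) (u + v))) z =
      fderiv ℝ (fderiv ℝ (inC A (B.i k) u)) z + fderiv ℝ (fderiv ℝ (inC A (B.i k) v)) z := by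
    have h3 : fderiv ℝ (inC A (B.i k) (u + v)) =ᶠ[𝓝 z]
        fun y => fderiv ℝ (inC A (B.i k) u) y + fderiv ℝ (inC A (B.i k) v) y := by
      filter_upwards [(A.e (B.i k)).open_target.mem_nhds hz] with y hy using h1 y hy
    rw [h3.fderiv_eq]
    exact fderiv_fun_add (inC_d1 hu hz) (inC_d1 hv hz)
  exact Prod.ext rfl (Prod.ext (h1 z hz) h2)

theorem jm_smul (B : Cb A) (k : B.κ) {u : X → ℝ} (r : ℝ) (hu : A.Sm u) {z : Cn d}
    (hz : z ∈ (A.e (B.i k)).target) : jm B k (r • u) z = r • jm B k u z := by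
  have h1 : ∀ y ∈ (A.e (B.i k)).target, fderiv ℝ (inC A (B.i k) (r • u)) y =
      r • fderiv ℝ (inC A (B.i k) u) y := fun y hy =>
    fderiv_fun_const_smul (inC_d0 hu hy) r
  have h2 : fderiv ℝ (fderiv ℝ (inC A (B.i k) (r • u))) z =
      r • fderiv ℝ (fderiv ℝ (inC A (B.i k) u)) z := by
    have h3 : fderiv ℝ (inC A (B.i k) (r • u)) =ᶠ[𝓝 z]
        fun y => r • fderiv ℝ (inC A (B.i k) u) y := by
      filter_upwards [(A.e (B.i k)).open_target.mem_nhds hz] with y hy using h1 y hy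
    rw [h3.fderiv_eq]
    exact fderiv_fun_const_smul (inC_d1 hu hz) r
  exact Prod.ext rfl (Prod.ext (h1 z hz) h2)

theorem jetD (B : Cb A) (x₁ : X) : JetD (fun k : B.κ => closedBall (B.z k) (B.r k / 2))
    (SS A x₁) (jm B) where
  add _ hu _ hv k _ hz := jm_add B k hu.1 hv.1 (B.sub' k hz)
  smul _ hu r k _ hz := jm_smul B k r hu.1 (B.sub' k hz)
  bd _ hu k := exists_bd Lv3_626.hp Lv3_626.hl (isCompact_closedBall _ _) (convex_closedBall _ _)
    (A.e (B.i k)).open_target (B.sub' k) ((jm_smooth B k hu.1).of_le (by simp))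

variable {β : Type} [Fintype β] [DecidableEq β]

/-- the trace of `dd^c u` at the base structure -/
theorem aL_base (b : Module.Basis β ℝ (Cn d)) (K : Kah A) {u : X → ℝ} (hu : A.Sm u) {i : A.ι}
    {z : Cn d} (hz : z ∈ (A.e i).target) {w : Bil (Cn d)} {T : Cn d →L[ℝ] Cn d}
    {dT : Cn d →L[ℝ] Cn d →L[ℝ] Cn d}
    (hw : ∀ x y, w x y = (I * hb (K.g i ((A.e i).symm z)) x y).re) (hT : ∀ x, T x = I • x)
    (hdT : dT = 0) :
    aL b w T dT (inC A i u z, fderiv ℝ (inC A i u) z, fderiv ℝ (fderiv ℝ (inC A i u)) z) =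
      8 * Lap K u ((A.e i).symm z) := by
  have hx := (A.e i).map_target hz
  set G := K.g i ((A.e i).symm z) with hG
  have hGp : G.PosDef := K.pos i _ hx
  have hM : Mt b w T = Rm b G := by
    ext a c
    simp only [Mt, Rm, Matrix.of_apply]
    rw [hw, hT, hb_I_right]
    congr 1
    linear_combination (-hb G (b a) (b c)) * I_mul_I
  have hMd : IsUnit (Rm b G).det := by
    rw [← hM]
    refine (det_Mt_ne b fun v hv => ?_).isUnit
    rw [hw, hT, re_I_hb]
    exact hb_pos hGp hv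
  have hu' : Sm (ofAtl A) u := hu
  have hS : St b (fderiv ℝ (inC A i u) z) (fderiv ℝ (fderiv ℝ (inC A i u)) z) T dT =
      Rm b ((4 : ℂ) • hess (inC A i u) z) := by
    ext a c
    simp only [St, Rm, Matrix.of_apply]
    have h1 := ddc_hess hu' hz (b a) (I • b c)
    rw [ddc_w (jA A) u hu' hz, ddcF_eq] at h1
    have h2 : fderiv ℝ ((jA A).J i) z = 0 := by
      show fderiv ℝ (fun _ => iL) z = 0
      simp
    rw [h2, hb_I_right] at h1
    have h3 : T = iL := by
      ext1 v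
      rw [hT]
      rfl
    have h4 : I * (-I * hb ((4 : ℂ) • hess (uc (ofAtl A) u i) z) (b a) (b c)) =
        hb ((4 : ℂ) • hess (uc (ofAtl A) u i) z) (b a) (b c) := by
      linear_combination (-hb ((4 : ℂ) • hess (uc (ofAtl A) u i) z) (b a) (b c)) * I_mul_I
    rw [h4] at h1
    rw [hdT, h3]
    exact h1
  rw [aL_apply, hM, hS, trace_Rm b (Matrix.isUnit_iff_isUnit_det _ |>.1 hGp.isUnit) hMd]
  have h5 := isLap K hu i z hz
  have h6 : gi K i z = G⁻¹ := rfl
  rw [h6, cH_eq_hess ((inC_sm hu i).contDiffAt ((A.e i).open_target.mem_nhds hz))] at h5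
  have h7 : inC A i (Lap K u) z = Lap K u ((A.e i).symm z) := rfl
  rw [← h7, ← h5, Matrix.mul_smul, Matrix.trace_smul, smul_eq_mul]
  have h8 : ((4 : ℂ) * (G⁻¹ * hess (inC A i u) z).trace).re =
      4 * (G⁻¹ * hess (inC A i u) z).trace.re := by
    simp
  rw [h8]
  ring

variable [T2Space X] [CompactSpace X] [ConnectedSpace X] [Finite A.ι]

/-- **the a priori estimate** -/
theorem est (P₀ : Part A) (K : Kah A) (B : Cb A) (b : Module.Basis β ℝ (Cn d)) (x₁ : X)
    {W₀ : A.ι → Cn d → Bil (Cn d)} {T₀ : A.ι → Cn d → Cn d →L[ℝ] Cn d}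
    (hw : ∀ i, ∀ z ∈ (A.e i).target, ∀ x y,
      W₀ i z x y = (I * hb (K.g i ((A.e i).symm z)) x y).re)
    (hT : ∀ i, ∀ z ∈ (A.e i).target, ∀ x, T₀ i z x = I • x) :
    ∃ C : ℝ, 0 ≤ C ∧ ∀ u ∈ SS A x₁, ∀ c N : ℝ, 0 ≤ N →
      (∀ k, Bd (1 / 2) (closedBall (B.z k) (B.r k / 2))
        (fun z => aL b (W₀ (B.i k) z) (T₀ (B.i k) z) (fderiv ℝ (T₀ (B.i k)) z) (jm B k u z) + c)
        N) →
      |c| ≤ C * N ∧ ∀ k, Bd (1 / 2) (closedBall (B.z k) (B.r k / 2)) (jm B k u) (C * N) := by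
  obtain ⟨C, hC, hsch⟩ := schauder0 P₀ K B (a := 1 / 2) (by norm_num) (by norm_num)
  refine ⟨max C 1, by positivity, fun u hu c N hN hbd => ?_⟩
  have hu0 := hu.1
  have hdT : ∀ i, ∀ z ∈ (A.e i).target, fderiv ℝ (T₀ i) z = 0 := by
    intro i z hz
    have h1 : T₀ i =ᶠ[𝓝 z] fun _ => iL := by
      filter_upwards [(A.e i).open_target.mem_nhds hz] with y hy
      ext1 v
      rw [hT i y hy]
      rfl
    rw [h1.fderiv_eq]
    simp
  have hop : ∀ k, ∀ z ∈ closedBall (B.z k) (B.r k / 2),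
      aL b (W₀ (B.i k) z) (T₀ (B.i k) z) (fderiv ℝ (T₀ (B.i k)) z) (jm B k u z) =
        8 * Lap K u ((A.e (B.i k)).symm z) := fun k z hz =>
    aL_base b K hu0 (B.sub' k hz) (hw _ z (B.sub' k hz)) (hT _ z (B.sub' k hz))
      (hdT _ z (B.sub' k hz))
  set g : X → ℝ := fun x => 8 * Lap K u x + c with hg
  have hNg : B.NH (1 / 2) N g := by
    intro k
    have h1 := (hbd k).congr (g := inC A (B.i k) g) fun z hz => by
      rw [hop k z hz]
      rfl
    exact ⟨h1.bd, h1.hol⟩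
  have hgb : ∀ x, |g x| ≤ N := fun x => hNg.bdd x
  have hlap : IsLap (gi K) u (fun x => g x / 8 - c / 8) := by
    have h1 := isLap K hu0
    have h2 : (fun x => g x / 8 - c / 8) = Lap K u := by
      funext x
      simp only [hg]
      ring
    rw [h2]
    exact h1
  have hc : |c| ≤ N := by
    have h1 : |c / 8| ≤ N / 8 := abs_const_le P₀ K (f := fun x => g x / 8) hu0 hlap fun x => by
      rw [abs_div, abs_of_pos (by norm_num : (0 : ℝ) < 8)]
      exact div_le_div_of_nonneg_right (hgb x) (by norm_num)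
    rw [abs_div, abs_of_pos (by norm_num : (0 : ℝ) < 8)] at h1
    exact (div_le_div_iff_of_pos_right (by norm_num)).1 h1
  have hNf : B.NH (1 / 2) N (fun x => g x / 8 - c / 8) := by
    intro k
    refine ⟨fun z hz => ?_, fun z hz y hy => ?_⟩
    · have h1 := hgb ((A.e (B.i k)).symm z)
      have h2 : inC A (B.i k) (fun x => g x / 8 - c / 8) z = (g ((A.e (B.i k)).symm z) - c) / 8 := by
        simp only [inC]
        ring
      rw [h2, Real.norm_eq_abs, abs_div, abs_of_pos (by norm_num : (0 : ℝ) < 8),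
        div_le_iff₀ (by norm_num)]
      have h3 := abs_sub (g ((A.e (B.i k)).symm z)) c
      linarith
    · have h1 := (hNg k).hol z hz y hy
      have h2 : inC A (B.i k) (fun x => g x / 8 - c / 8) z -
          inC A (B.i k) (fun x => g x / 8 - c / 8) y =
          (inC A (B.i k) g z - inC A (B.i k) g y) / 8 := by
        simp only [inC]
        ring
      rw [h2, norm_div]
      have h3 : ‖(8 : ℝ)‖ = 8 := by norm_num
      rw [h3, div_le_iff₀ (by norm_num)]
      have h4 : 0 ≤ N * ‖z - y‖ ^ (1 / 2 : ℝ) := by positivity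
      linarith
  have h2 := hsch x₁ u _ N hu0 hlap hNf hu.2
  refine ⟨hc.trans ?_, fun k => ?_⟩
  · calc N = 1 * N := (one_mul N).symm
      _ ≤ max C 1 * N := mul_le_mul_of_nonneg_right (le_max_right _ _) hN
  · have h3 := h2 k
    have h4 : Bd (1 / 2) (closedBall (B.z k) (B.r k / 2)) (jm B k u) (C * N) := by
      refine ⟨by positivity, fun z hz => ?_, fun z hz y hy => ?_⟩
      · exact norm_prod_le_iff.2 ⟨h3.h0.bdd z hz, norm_prod_le_iff.2
          ⟨h3.h1.bdd z hz, h3.h2.bdd z hz⟩⟩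
      · exact norm_prod_le_iff.2 ⟨h3.h0.hol z hz y hy, norm_prod_le_iff.2
          ⟨h3.h1.hol z hz y hy, h3.h2.hol z hz y hy⟩⟩
    exact h4.mono (mul_le_mul_of_nonneg_right (le_max_left _ _) hN)

/-- **`V0` in the charts of the atlas of the base structure** -/
theorem v0_atl (P₀ : Part A) (K : Kah A) (b : Module.Basis β ℝ (Cn d)) (x₁ : X) {E : Type}
    [NormedAddCommGroup E] [NormedSpace ℝ E] {T : Set E} (hTo : IsOpen T) {p₀ : E} (hp₀ : p₀ ∈ T)
    {J : E → A.ι → Cn d → Cn d →L[ℝ] Cn d} {om : E → A.ι → Cn d → Bil (Cn d)}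
    (hJ : ∀ i, ContDiffOn ℝ ∞ (fun q : E × Cn d => J q.1 i q.2) (T ×ˢ (A.e i).target))
    (hom : ∀ i, ContDiffOn ℝ ∞ (fun q : E × Cn d => om q.1 i q.2) (T ×ˢ (A.e i).target))
    (hpos : ∀ p ∈ T, ∀ i, ∀ z ∈ (A.e i).target, ∀ v, v ≠ 0 → 0 < om p i z v (J p i z v))
    (hw : ∀ i, ∀ z ∈ (A.e i).target, ∀ x y,
      om p₀ i z x y = (I * hb (K.g i ((A.e i).symm z)) x y).re)
    (hT : ∀ i, ∀ z ∈ (A.e i).target, ∀ x, J p₀ i z x = I • x)
    {f : E → A.ι → Cn d → ℝ}
    (hf : ∀ i, ContDiffOn ℝ ∞ (fun q : E × Cn d => f q.1 i q.2) (T ×ˢ (A.e i).target))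
    {u : E → X → ℝ} (hu : ∀ p ∈ T, A.Sm (u p)) (hu1 : ∀ p ∈ T, u p x₁ = 0) {c : E → ℝ}
    (heq : ∀ p ∈ T, ∀ i, ∀ z ∈ (A.e i).target,
      ((Mt b (om p i z) (J p i z))⁻¹ * Matrix.of fun a c =>
        ddcF (inC A i (u p)) (J p i) z (b a) (J p i z (b c))).trace + c p = f p i z) :
    ContDiffAt ℝ ∞ c p₀ ∧ ∀ x, ContDiffAt ℝ ∞ (fun p => u p x) p₀ := by
  obtain ⟨B⟩ := Cb.nonempty A
  have := B.fin
  let _ : Fintype B.κ := Fintype.ofFinite _
  obtain ⟨C, hC, hE⟩ := est P₀ K B b x₁ hw hT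
  set Kk : B.κ → Set (Cn d) := fun k => closedBall (B.z k) (B.r k / 2) with hKk
  set O : B.κ → Set (Cn d) := fun k => (A.e (B.i k)).target with hO
  have hD : Dom Kk O := dom B
  have hJD : JetD Kk (SS A x₁) (jm B) := jetD B x₁
  -- the coefficients
  set a : B.κ → E × Cn d → (Jt (Cn d) →L[ℝ] ℝ) := fun k q =>
    aL b (om q.1 (B.i k) q.2) (J q.1 (B.i k) q.2) (fderiv ℝ (J q.1 (B.i k)) q.2) with ha
  have hopen : ∀ k, IsOpen (T ×ˢ O k) := fun k => hTo.prod (A.e (B.i k)).open_target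
  have hdJ : ∀ k, ContDiffOn ℝ ∞ (fun q : E × Cn d => fderiv ℝ (J q.1 (B.i k)) q.2)
      (T ×ˢ O k) := by
    intro k
    have h1 : ContDiffOn ℝ ∞ (fun q : E × Cn d =>
        (fderiv ℝ (fun q : E × Cn d => J q.1 (B.i k) q.2) q).comp
          (ContinuousLinearMap.inr ℝ E (Cn d))) (T ×ˢ O k) :=
      ((hJ (B.i k)).fderiv_of_isOpen (hopen k) (by simp)).clm_comp contDiffOn_const
    refine h1.congr fun q hq => ?_
    have h2 : HasFDerivAt (fun q : E × Cn d => J q.1 (B.i k) q.2)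
        (fderiv ℝ (fun q : E × Cn d => J q.1 (B.i k) q.2) q) (q.1, q.2) :=
      ((((hJ (B.i k)).contDiffAt ((hopen k).mem_nhds hq))).differentiableAt (by simp)).hasFDerivAt
    have h3 : HasFDerivAt (fun z : Cn d => (q.1, z)) (ContinuousLinearMap.inr ℝ E (Cn d)) q.2 :=
      hasFDerivAt_prodMk_right q.1 q.2
    exact (h2.comp q.2 h3).fderiv
  have hasm : ∀ k, ContDiffOn ℝ ∞ (a k) (T ×ˢ O k) := fun k =>
    aL_smooth b (hom (B.i k)) (hJ (B.i k)) (hdJ k) fun q hq =>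
      det_Mt_ne b (hpos q.1 hq.1 _ q.2 hq.2)
  have key := v0_abs hD hJD hTo hp₀ hasm (f := fun k q => f q.1 (B.i k) q.2)
    (fun k => hf (B.i k)) hC hE (u := u) (fun p hp => ⟨hu p hp, hu1 p hp⟩) (c := c)
    (fun p hp k z hz => heq p hp (B.i k) z (hD.sub k hz))
  refine ⟨key.1, fun x => ?_⟩
  obtain ⟨k, hk, hkx⟩ := B.cover x
  have h1 := (key.2 k (A.e (B.i k) x) (ball_subset_closedBall hkx)).fst
  have h2 : ∀ p, (jm B k (u p) (A.e (B.i k) x)).1 = u p x := fun p => by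
    show u p ((A.e (B.i k)).symm (A.e (B.i k) x)) = u p x
    rw [(A.e (B.i k)).left_inv hk]
  simpa only [h2] using h1

end base

end

end Crest.Agent.R281.Lv5_626
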