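import Crest.Agent.R281.Tt3_476

/-!
# Row 281, YAU-VAR/TRICK, part 4 (helper476): pull back between different models

* `LD.ofCmp`    : the identity between two compatible systems of charts
* `mdet b' b L` : determinant of the matrix of `L : V' →L V`
* `Dat.pullB`, `JSDat.pullB`, `JSDat.pullC`, `SolMA.pullB`, `SolMA.of_pullB`
* `ddcF_comp`   : naturality of `ddcF` for functions of class `C²`
-/

set_option autoImplicit false
set_option maxSynthPendingDepth 3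
set_option linter.unusedSectionVars false

open Set Filter Topology Metric
open scoped ContDiff

namespace Crest.Agent.R281.Tt_476

open Crest.Agent.R260.ACM_580 Crest.Agent.R281.HkR_835 Crest.Agent.R281.NefO_476
open Crest.Agent.R281.Nef_252
open Crest.Agent.R281.Dif_268
open Crest.Agent.R281.Ti_846 hiding pb pb_apply symm2

noncomputable section

/-! ### `ddcF` and functions of class `C²` -/

section c2

variable {V V' : Type} [NormedAddCommGroup V] [NormedSpace ℝ V]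
  [NormedAddCommGroup V'] [NormedSpace ℝ V']

theorem symm_c2 {φ : V → ℝ} {z : V} (hf : ContDiffAt ℝ 2 φ z) (a b : V) :
    fderiv ℝ (fderiv ℝ φ) z a b = fderiv ℝ (fderiv ℝ φ) z b a :=
  (hf.isSymmSndFDerivAt (by rw [minSmoothness_of_isRCLikeNormedField])) a b

/-- second derivative of a composition -/
theorem fderiv2_comp {U : V → ℝ} {φ : V' → V} {z : V'} (hU : ContDiffAt ℝ 2 U (φ z))
    (hφ : ContDiffAt ℝ ∞ φ z) (a b : V') :
    fderiv ℝ (fderiv ℝ (fun y => U (φ y))) z a b =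
      fderiv ℝ (fderiv ℝ U) (φ z) (fderiv ℝ φ z a) (fderiv ℝ φ z b) +
        fderiv ℝ U (φ z) (fderiv ℝ (fderiv ℝ φ) z a b) := by
  have hU1 : ∀ᶠ y in 𝓝 (φ z), DifferentiableAt ℝ U y := by
    filter_upwards [hU.eventually (by simp)] with y hy using hy.differentiableAt (by simp)
  have hφ1 : ∀ᶠ y in 𝓝 z, DifferentiableAt ℝ φ y := by
    filter_upwards [(hφ.of_le (m := 1) (by simp)).eventually (by simp)] with y hy
      using hy.differentiableAt (by simp)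
  have e1 : fderiv ℝ (fun y => U (φ y)) =ᶠ[𝓝 z] fun y => (fderiv ℝ U (φ y)).comp (fderiv ℝ φ y) := by
    filter_upwards [hφ.continuousAt.eventually hU1, hφ1] with y h1 h2
    exact (HasFDerivAt.comp (g := U) (f := φ) y h1.hasFDerivAt h2.hasFDerivAt).fderiv
  have dU : HasFDerivAt (fderiv ℝ U) (fderiv ℝ (fderiv ℝ U) (φ z)) (φ z) :=
    ((hU.fderiv_right (m := 1) (by norm_num)).differentiableAt (by simp)).hasFDerivAt
  have dφ : HasFDerivAt (fderiv ℝ φ) (fderiv ℝ (fderiv ℝ φ) z) z :=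
    ((hφ.fderiv_right (m := ∞) (by simp)).differentiableAt (by simp)).hasFDerivAt
  have dφ0 : HasFDerivAt φ (fderiv ℝ φ z) z := (hφ.differentiableAt (by simp)).hasFDerivAt
  have d1 : HasFDerivAt (fun y => fderiv ℝ U (φ y))
      ((fderiv ℝ (fderiv ℝ U) (φ z)).comp (fderiv ℝ φ z)) z :=
    HasFDerivAt.comp (g := fderiv ℝ U) z dU dφ0
  rw [e1.fderiv_eq, (d1.clm_comp dφ).fderiv]
  simp [add_comm]

/-- **naturality of `ddcF`** for functions of class `C²` -/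
theorem ddcF_comp {U : V → ℝ} {φ : V' → V} {J : V → V →L[ℝ] V} {J' : V' → V' →L[ℝ] V'} {z : V'}
    (hU : ContDiffAt ℝ 2 U (φ z)) (hφ : ContDiffAt ℝ ∞ φ z) (hJ : DifferentiableAt ℝ J (φ z))
    (hJ' : DifferentiableAt ℝ J' z)
    (hr : ∀ᶠ y in 𝓝 z, ∀ v, fderiv ℝ φ y (J' y v) = J (φ y) (fderiv ℝ φ y v)) (a b : V') :
    ddcF (fun y => U (φ y)) J' z a b = ddcF U J (φ z) (fderiv ℝ φ z a) (fderiv ℝ φ z b) := by
  have hr0 := hr.self_of_nhds
  have e := fderiv_rel hφ hJ hJ' hr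
  have s : fderiv ℝ (fderiv ℝ φ) z a b = fderiv ℝ (fderiv ℝ φ) z b a :=
    Crest.Agent.R281.Dif_268.symm2 hφ a b
  have hU0 : HasFDerivAt U (fderiv ℝ U (φ z)) (φ z) :=
    (hU.differentiableAt (by simp)).hasFDerivAt
  have dφ0 : HasFDerivAt φ (fderiv ℝ φ z) z := (hφ.differentiableAt (by simp)).hasFDerivAt
  have e1 : ∀ v, fderiv ℝ (fun y => U (φ y)) z v = fderiv ℝ U (φ z) (fderiv ℝ φ z v) := by
    intro v
    have h0 : HasFDerivAt (fun y => U (φ y)) ((fderiv ℝ U (φ z)).comp (fderiv ℝ φ z)) z :=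
      HasFDerivAt.comp (g := U) (f := φ) z hU0 dφ0
    rw [h0.fderiv]
    rfl
  have e2 : ∀ p q, fderiv ℝ U (φ z) (fderiv ℝ (fderiv ℝ φ) z p (J' z q)) +
      fderiv ℝ U (φ z) (fderiv ℝ φ z (fderiv ℝ J' z p q)) =
      fderiv ℝ U (φ z) (fderiv ℝ J (φ z) (fderiv ℝ φ z p) (fderiv ℝ φ z q)) +
        fderiv ℝ U (φ z) (J (φ z) (fderiv ℝ (fderiv ℝ φ) z p q)) := by
    intro p q
    rw [← map_add, ← map_add, e p q]
  unfold ddcF
  rw [fderiv2_comp hU hφ, fderiv2_comp hU hφ, e1, e1, hr0, hr0]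
  have h1 := e2 a b
  have h2 := e2 b a
  rw [s] at h1
  linarith

end c2

variable {V V' X X' : Type} [NormedAddCommGroup V] [NormedSpace ℝ V]
  [NormedAddCommGroup V'] [NormedSpace ℝ V'] [TopologicalSpace X] [TopologicalSpace X']
  {C : RCh V X} {C' : RCh V' X'}

/-- the identity between two compatible systems of charts -/
def LD.ofCmp {V V' X : Type} [NormedAddCommGroup V] [NormedSpace ℝ V] [NormedAddCommGroup V']
    [NormedSpace ℝ V'] [TopologicalSpace X] {C : RCh V X} {C' : RCh V' X} (h : Cmp C C') :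
    LD C' C where
  toSMap := SMap.ofCmp h
  inv i j z hz := by
    have hz' : z ∈ mov C C' i j := hz
    refine ⟨ContinuousLinearEquiv.equivOfInverse (fderiv ℝ (mt C C' i j) z)
      (fderiv ℝ (mt C' C j i) (mt C C' i j z)) (fun v => h.d_d hz' v) (fun v => h.d_d' hz' v), ?_⟩
    ext v
    rfl

@[simp] theorem LD.ofCmp_f {V V' X : Type} [NormedAddCommGroup V] [NormedSpace ℝ V]
    [NormedAddCommGroup V'] [NormedSpace ℝ V'] [TopologicalSpace X] {C : RCh V X} {C' : RCh V' X}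
    (h : Cmp C C') (x : X) : (LD.ofCmp h).f x = x := rfl

/-! ### determinants -/

section mdet

variable {κ : Type} [Fintype κ] [DecidableEq κ] (b' : Module.Basis κ ℝ V')
  (b : Module.Basis κ ℝ V)

/-- the determinant of the matrix of `L` -/
def mdet (L : V' →L[ℝ] V) : ℝ := (LinearMap.toMatrix b' b (L : V' →ₗ[ℝ] V)).det

theorem mdet_self (L : V →L[ℝ] V) : mdet b b L = L.det := LinearMap.det_toMatrix b _

theorem mdet_comp (T : V →L[ℝ] V) (L : V' →L[ℝ] V) :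
    mdet b' b (T ∘L L) = T.det * mdet b' b L := by
  have h1 : ((T ∘L L : V' →L[ℝ] V) : V' →ₗ[ℝ] V) = (T : V →ₗ[ℝ] V) ∘ₗ (L : V' →ₗ[ℝ] V) := rfl
  unfold mdet
  rw [h1, LinearMap.toMatrix_comp b' b b, Matrix.det_mul, LinearMap.det_toMatrix]

theorem mdet_comp' (L : V' →L[ℝ] V) (S : V' →L[ℝ] V') :
    mdet b' b (L ∘L S) = mdet b' b L * S.det := by
  have h1 : ((L ∘L S : V' →L[ℝ] V) : V' →ₗ[ℝ] V) = (L : V' →ₗ[ℝ] V) ∘ₗ (S : V' →ₗ[ℝ] V') := rfl
  unfold mdet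
  rw [h1, LinearMap.toMatrix_comp b' b' b, Matrix.det_mul, LinearMap.det_toMatrix]

theorem mdet_ne_zero {L : V' →L[ℝ] V} (h : L.IsInvertible) : mdet b' b L ≠ 0 := by
  obtain ⟨e, rfl⟩ := h
  exact (LinearEquiv.isUnit_det e.toLinearEquiv b' b).ne_zero

theorem contDiff_mdet [FiniteDimensional ℝ V] [FiniteDimensional ℝ V'] :
    ContDiff ℝ ∞ (mdet b' b) := by
  have h : mdet b' b = fun T => ∑ σ : Equiv.Perm κ,
      ((Equiv.Perm.sign σ : ℤ) : ℝ) * ∏ k, b.coord (σ k) (T (b' k)) := by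
    funext T
    unfold mdet
    rw [Matrix.det_apply']
    simp [LinearMap.toMatrix_apply]
  rw [h]
  refine ContDiff.sum fun σ _ => contDiff_const.mul (contDiff_prod fun k _ => ?_)
  have hl : IsBoundedLinearMap ℝ (fun T : V' →L[ℝ] V => b.coord (σ k) (T (b' k))) :=
    ((LinearMap.toContinuousLinearMap (b.coord (σ k))).comp
      (ContinuousLinearMap.apply ℝ V (b' k))).isBoundedLinearMap
  exact hl.contDiff

theorem detB_pullB (B : Bil V) (L : V' →L[ℝ] V) :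
    detB b' (fun x y => B (L x) (L y)) = detB b (fun x y => B x y) * mdet b' b L ^ 2 := by
  let B' : LinearMap.BilinForm ℝ V :=
    LinearMap.mk₂ ℝ (fun x y => B x y) (by simp) (by simp) (by simp) (by simp)
  have h1 : LinearMap.BilinForm.toMatrix b B' = Matrix.of fun k l => B (b k) (b l) := by
    ext k l
    simp [LinearMap.BilinForm.toMatrix_apply, B']
  have h2 : LinearMap.BilinForm.toMatrix b' (B'.comp (L : V' →ₗ[ℝ] V) (L : V' →ₗ[ℝ] V)) =
      Matrix.of fun k l => B (L (b' k)) (L (b' l)) := by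
    ext k l
    simp [LinearMap.BilinForm.toMatrix_apply, B']
  have h3 := LinearMap.BilinForm.toMatrix_comp b b' B' (L : V' →ₗ[ℝ] V) (L : V' →ₗ[ℝ] V)
  rw [h1, h2] at h3
  unfold detB mdet
  rw [h3, Matrix.det_mul, Matrix.det_mul, Matrix.det_transpose]
  ring

end mdet

section dens

variable {κ : Type} [Fintype κ] [DecidableEq κ] (b' : Module.Basis κ ℝ V')
  (b : Module.Basis κ ℝ V)

namespace LD

variable (g : LD C' C)

theorem dlocB_i {i i' : C.ι} {j : C'.ι} {z : V'} (hz : z ∈ dom C C' g.f i j)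
    (hz' : z ∈ dom C C' g.f i' j) :
    (fderiv ℝ (C.t i i') (Dif_268.loc C C' g.f i j z)) ∘L
      (fderiv ℝ (Dif_268.loc C C' g.f i j) z) = fderiv ℝ (Dif_268.loc C C' g.f i' j) z := by
  ext v
  exact g.dt_loc hz hz' v

theorem dlocB_j {i : C.ι} {j j' : C'.ι} {z : V'} (hz : z ∈ C'.ov j j')
    (hz' : z ∈ dom C C' g.f i j) :
    (fderiv ℝ (Dif_268.loc C C' g.f i j') (C'.t j j' z)) ∘L (fderiv ℝ (C'.t j j') z) =
      fderiv ℝ (Dif_268.loc C C' g.f i j) z := by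
  ext v
  exact g.dloc_t hz hz' v

/-- pull back of a squared density, raw -/
def rB' (r : Dens C) (j : C'.ι) (z : V') : ℝ :=
  r.r (g.idx j z) (Dif_268.loc C C' g.f (g.idx j z) j z) *
    mdet b' b (fderiv ℝ (Dif_268.loc C C' g.f (g.idx j z) j) z) ^ 2

theorem rB'_eq (r : Dens C) {i : C.ι} {j : C'.ι} {z : V'} (hz : z ∈ dom C C' g.f i j) :
    g.rB' b' b r j z = r.r i (Dif_268.loc C C' g.f i j z) *
      mdet b' b (fderiv ℝ (Dif_268.loc C C' g.f i j) z) ^ 2 := by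
  have h1 := g.idx_mem hz.1
  rw [rB', r.tr _ i _ (g.loc_ov h1 hz), g.t_loc h1, ← g.dlocB_i h1 hz, mdet_comp]
  ring

variable [FiniteDimensional ℝ V] [FiniteDimensional ℝ V']

/-- pull back of a squared density -/
def pDB (r : Dens C) : Dens C' where
  r := g.rB' b' b r
  sm j := by
    intro z hz
    obtain ⟨i, hi⟩ := g.exists_dom hz
    have ho := (g.isOpen_dom i j).mem_nhds hi
    have hD : ContDiffAt ℝ ∞ (fderiv ℝ (Dif_268.loc C C' g.f i j)) z :=
      (g.contDiffAt_loc hi).fderiv_right (m := ∞) (by simp)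
    have h1 : ContDiffAt ℝ ∞ (fun y => r.r i (Dif_268.loc C C' g.f i j y)) z :=
      ContDiffAt.comp (g := r.r i) z
        ((r.sm i).contDiffAt ((C.e i).open_target.mem_nhds (g.loc_mem hi))) (g.contDiffAt_loc hi)
    have h2 : ContDiffAt ℝ ∞ (fun y => mdet b' b (fderiv ℝ (Dif_268.loc C C' g.f i j) y)) z :=
      ContDiffAt.comp (g := mdet b' b) z (contDiff_mdet b' b).contDiffAt hD
    refine ContDiffAt.contDiffWithinAt ((h1.mul (h2.pow 2)).congr_of_eventuallyEq ?_)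
    filter_upwards [ho] with y hy using g.rB'_eq b' b r hy
  tr j j' z hz := by
    obtain ⟨i, hi⟩ := g.exists_dom hz.1
    rw [g.rB'_eq b' b r hi, g.rB'_eq b' b r (g.dom_t hz hi), g.loc_t hz, ← g.dlocB_j hz hi,
      mdet_comp']
    ring

end LD

variable [FiniteDimensional ℝ V] [FiniteDimensional ℝ V'] [CompleteSpace V']

/-- pull back of the data between different models -/
def Dat.pullB (D : Dat C) (g : LD C' C) : Dat C' where
  J := g.pJ D.J
  om := g.pull D.om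
  r := g.pDB b' b D.r
  f := D.f ∘ g.f
  fs := Sm.comp D.fs g.toSMap

end dens

/-! ### families -/

section pull

variable {κ : Type} [Fintype κ] [DecidableEq κ] (b' : Module.Basis κ ℝ V')
  (b : Module.Basis κ ℝ V) {E W : Type} [NormedAddCommGroup E]
  [NormedSpace ℝ E] [NormedAddCommGroup W] [NormedSpace ℝ W] {T : Set E} {S : Set W}
  {Φ : W → LD C' C}

/-- the domain of a family in charts -/
def OmB (S : Set W) (Φ : W → LD C' C) (i : C.ι) (j : C'.ι) : Set (W × V') :=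
  {q : W × V' | q.1 ∈ S ∧ q.2 ∈ dom C C' (Φ q.1).f i j}

theorem FamLD.jsDB (hΦ : FamLD S Φ) {i : C.ι} {j : C'.ι} {q : W × V'} (hq : q ∈ OmB S Φ i j) :
    ContDiffAt ℝ ∞ (fun q : W × V' => fderiv ℝ (Dif_268.loc C C' (Φ q.1).f i j) q.2) q := by
  have h1 : ContDiffAt ℝ ∞ (fun q : W × V' => Dif_268.loc C C' (Φ q.1).f i j q.2) q :=
    (hΦ.js i j).contDiffAt ((hΦ.op i j).mem_nhds hq)
  refine ContDiffAt.fderiv (f := fun (q : W × V') (y : V') => Dif_268.loc C C' (Φ q.1).f i j y)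
    (g := fun q => q.2) (n := ∞) (m := ∞) ?_ contDiffAt_snd (by simp)
  have h2 : ContDiffAt ℝ ∞ (fun q : (W × V') × V' => (q.1.1, q.2)) (q, q.2) :=
    (contDiffAt_fst.fst).prodMk contDiffAt_snd
  exact ContDiffAt.comp (g := fun q : W × V' => Dif_268.loc C C' (Φ q.1).f i j q.2)
    (f := fun q : (W × V') × V' => (q.1.1, q.2)) (q, q.2) h1 h2

theorem nhds_domB (hΦ : FamLD S Φ) {i : C.ι} {j : C'.ι} {q : (E × W) × V'}
    (hq : (q.1.2, q.2) ∈ OmB S Φ i j) :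
    ∀ᶠ y : (E × W) × V' in 𝓝 q, (y.1.2, y.2) ∈ OmB S Φ i j := by
  have h1 : Continuous (fun y : (E × W) × V' => (y.1.2, y.2)) := by fun_prop
  exact h1.continuousAt.eventually ((hΦ.op i j).mem_nhds hq)

theorem cdLB (hΦ : FamLD S Φ) {i : C.ι} {j : C'.ι} {q : (E × W) × V'}
    (hq : (q.1.2, q.2) ∈ OmB S Φ i j) :
    ContDiffAt ℝ ∞ (fun y : (E × W) × V' => Dif_268.loc C C' (Φ y.1.2).f i j y.2) q :=
  ContDiffAt.comp (g := fun q : W × V' => Dif_268.loc C C' (Φ q.1).f i j q.2)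
    (f := fun y : (E × W) × V' => (y.1.2, y.2)) q
    ((hΦ.js i j).contDiffAt ((hΦ.op i j).mem_nhds hq))
    ((contDiffAt_fst.snd).prodMk contDiffAt_snd)

theorem cdDB (hΦ : FamLD S Φ) {i : C.ι} {j : C'.ι} {q : (E × W) × V'}
    (hq : (q.1.2, q.2) ∈ OmB S Φ i j) :
    ContDiffAt ℝ ∞ (fun y : (E × W) × V' => fderiv ℝ (Dif_268.loc C C' (Φ y.1.2).f i j) y.2) q :=
  ContDiffAt.comp (g := fun q : W × V' => fderiv ℝ (Dif_268.loc C C' (Φ q.1).f i j) q.2)
    (f := fun y : (E × W) × V' => (y.1.2, y.2)) q (hΦ.jsDB hq)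
    ((contDiffAt_fst.snd).prodMk contDiffAt_snd)

theorem cdCB {F : Type*} [NormedAddCommGroup F] [NormedSpace ℝ F] (hT : IsOpen T)
    (hΦ : FamLD S Φ) {i : C.ι} {j : C'.ι} {a : E → V → F}
    (ha : ContDiffOn ℝ ∞ (fun q : E × V => a q.1 q.2) (T ×ˢ (C.e i).target))
    {q : (E × W) × V'} (hp : q.1.1 ∈ T) (hq : (q.1.2, q.2) ∈ OmB S Φ i j) :
    ContDiffAt ℝ ∞ (fun y : (E × W) × V' =>
      a y.1.1 (Dif_268.loc C C' (Φ y.1.2).f i j y.2)) q := by
  have h1 : ContDiffAt ℝ ∞ (fun q : E × V => a q.1 q.2)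
      (q.1.1, Dif_268.loc C C' (Φ q.1.2).f i j q.2) :=
    ha.contDiffAt ((hT.prod (C.e i).open_target).mem_nhds ⟨hp, (Φ q.1.2).loc_mem hq.2⟩)
  exact ContDiffAt.comp (g := fun q : E × V => a q.1 q.2)
    (f := fun y : (E × W) × V' => (y.1.1, Dif_268.loc C C' (Φ y.1.2).f i j y.2)) q h1
    ((contDiffAt_fst.fst).prodMk (cdLB hΦ hq))

variable [FiniteDimensional ℝ V] [FiniteDimensional ℝ V'] [CompleteSpace V']

theorem JSJ.pullB (hT : IsOpen T) (hΦ : FamLD S Φ) {J : E → AJ C} (hJ : JSJ T J) :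
    JSJ (T ×ˢ S) fun q : E × W => (Φ q.2).pJ (J q.1) := by
  intro j
  rintro ⟨⟨p, s⟩, z⟩ ⟨⟨hp, hs⟩, hz⟩
  obtain ⟨i, hi⟩ := (Φ s).exists_dom hz
  have hq : (((p, s), z).1.2, ((p, s), z).2) ∈ OmB S Φ i j := ⟨hs, hi⟩
  refine ContDiffAt.contDiffWithinAt ?_
  have h1 : (fun y : (E × W) × V' => ((Φ y.1.2).pJ (J y.1.1)).J j y.2) =ᶠ[𝓝 ((p, s), z)]
      fun y => (fderiv ℝ (Dif_268.loc C C' (Φ y.1.2).f i j) y.2).inverse ∘L
        ((J y.1.1).J i (Dif_268.loc C C' (Φ y.1.2).f i j y.2)) ∘L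
        (fderiv ℝ (Dif_268.loc C C' (Φ y.1.2).f i j) y.2) := by
    filter_upwards [nhds_domB hΦ hq] with y hy using (Φ y.1.2).j'_eq (J y.1.1) hy.2
  refine ContDiffAt.congr_of_eventuallyEq ?_ h1
  have h2 : ContDiffAt ℝ ∞ (fun y : (E × W) × V' =>
      (fderiv ℝ (Dif_268.loc C C' (Φ y.1.2).f i j) y.2).inverse) ((p, s), z) :=
    ContDiffAt.comp (g := ContinuousLinearMap.inverse) ((p, s), z)
      (((Φ s).inv i j z hi).contDiffAt_map_inverse) (cdDB hΦ hq)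
  exact h2.clm_comp ((cdCB (a := fun p z => (J p).J i z) hT hΦ (hJ i) hp hq).clm_comp
    (cdDB hΦ hq))

theorem JS2.pullB (hT : IsOpen T) (hΦ : FamLD S Φ) {w : E → F2 C} (hw : JS2 T w) :
    JS2 (T ×ˢ S) fun q : E × W => (Φ q.2).pull (w q.1) := by
  intro j
  refine contDiffOn_clm_apply.2 fun u => contDiffOn_clm_apply.2 fun v => ?_
  rintro ⟨⟨p, s⟩, z⟩ ⟨⟨hp, hs⟩, hz⟩
  obtain ⟨i, hi⟩ := (Φ s).exists_dom hz
  have hq : (((p, s), z).1.2, ((p, s), z).2) ∈ OmB S Φ i j := ⟨hs, hi⟩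
  refine ContDiffAt.contDiffWithinAt ?_
  have h1 : (fun y : (E × W) × V' => ((Φ y.1.2).pull (w y.1.1)).w j y.2 u v) =ᶠ[𝓝 ((p, s), z)]
      fun y => (w y.1.1).w i (Dif_268.loc C C' (Φ y.1.2).f i j y.2)
        (fderiv ℝ (Dif_268.loc C C' (Φ y.1.2).f i j) y.2 u)
        (fderiv ℝ (Dif_268.loc C C' (Φ y.1.2).f i j) y.2 v) := by
    filter_upwards [nhds_domB hΦ hq] with y hy using (Φ y.1.2).pull_w (w y.1.1) hy.2 u v
  refine ContDiffAt.congr_of_eventuallyEq ?_ h1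
  exact ((cdCB (a := fun p z => (w p).w i z) hT hΦ (hw i) hp hq).clm_apply
    ((cdDB hΦ hq).clm_apply contDiffAt_const)).clm_apply
    ((cdDB hΦ hq).clm_apply contDiffAt_const)

theorem JSD.pullB {κ : Type} [Fintype κ] [DecidableEq κ] (b' : Module.Basis κ ℝ V')
    (b : Module.Basis κ ℝ V) (hT : IsOpen T) (hΦ : FamLD S Φ) {r : E → Dens C} (hr : JSD T r) :
    JSD (T ×ˢ S) fun q : E × W => (Φ q.2).pDB b' b (r q.1) := by
  intro j
  rintro ⟨⟨p, s⟩, z⟩ ⟨⟨hp, hs⟩, hz⟩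
  obtain ⟨i, hi⟩ := (Φ s).exists_dom hz
  have hq : (((p, s), z).1.2, ((p, s), z).2) ∈ OmB S Φ i j := ⟨hs, hi⟩
  refine ContDiffAt.contDiffWithinAt ?_
  have h1 : (fun y : (E × W) × V' => ((Φ y.1.2).pDB b' b (r y.1.1)).r j y.2) =ᶠ[𝓝 ((p, s), z)]
      fun y => (r y.1.1).r i (Dif_268.loc C C' (Φ y.1.2).f i j y.2) *
        mdet b' b (fderiv ℝ (Dif_268.loc C C' (Φ y.1.2).f i j) y.2) ^ 2 := by
    filter_upwards [nhds_domB hΦ hq] with y hy using (Φ y.1.2).rB'_eq b' b (r y.1.1) hy.2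
  refine ContDiffAt.congr_of_eventuallyEq ?_ h1
  have h2 : ContDiffAt ℝ ∞ (fun y : (E × W) × V' =>
      mdet b' b (fderiv ℝ (Dif_268.loc C C' (Φ y.1.2).f i j) y.2)) ((p, s), z) :=
    ContDiffAt.comp (g := mdet b' b) ((p, s), z) (contDiff_mdet b' b).contDiffAt
      (cdDB hΦ hq)
  exact (cdCB (a := fun p z => (r p).r i z) hT hΦ (hr i) hp hq).mul (h2.pow 2)

theorem JS0.pullB (hT : IsOpen T) (hΦ : FamLD S Φ) {u : E → X → ℝ} (hu : JS0 C T u) :
    JS0 C' (T ×ˢ S) fun (q : E × W) x => u q.1 ((Φ q.2).f x) := by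
  intro j
  rintro ⟨⟨p, s⟩, z⟩ ⟨⟨hp, hs⟩, hz⟩
  obtain ⟨i, hi⟩ := (Φ s).exists_dom hz
  have hq : (((p, s), z).1.2, ((p, s), z).2) ∈ OmB S Φ i j := ⟨hs, hi⟩
  refine ContDiffAt.contDiffWithinAt ?_
  have h1 : (fun y : (E × W) × V' => u y.1.1 ((Φ y.1.2).f ((C'.e j).symm y.2))) =ᶠ[𝓝 ((p, s), z)]
      fun y => u y.1.1 ((C.e i).symm (Dif_268.loc C C' (Φ y.1.2).f i j y.2)) := by
    filter_upwards [nhds_domB hΦ hq] with y hy
    rw [(Φ y.1.2).symm_loc hy.2]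
  refine ContDiffAt.congr_of_eventuallyEq ?_ h1
  exact cdCB (a := fun p z => u p ((C.e i).symm z)) hT hΦ (hu i) hp hq

/-- the pulled back family is jointly smooth -/
theorem JSDat.pullB (hT : IsOpen T) (hΦ : FamLD S Φ) {D : E → Dat C}
    (hD : JSDat T D) : JSDat (T ×ˢ S) fun q : E × W => (D q.1).pullB b' b (Φ q.2) :=
  ⟨hD.J.pullB hT hΦ, hD.om.pullB hT hΦ, hD.r.pullB b' b hT hΦ, hD.f.pullB hT hΦ⟩

/-- a constant family of maps -/
theorem FamLD.const (g : LD C' C) : FamLD (univ : Set ℝ) fun _ => g := by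
  have h : ∀ i j, {q : ℝ × V' | q.1 ∈ (univ : Set ℝ) ∧ q.2 ∈ dom C C' g.f i j} =
      Prod.snd ⁻¹' (dom C C' g.f i j) := fun i j => by ext q; simp
  refine ⟨fun i j => ?_, fun i j => ?_⟩
  · rw [h]
    exact (g.isOpen_dom i j).preimage continuous_snd
  · rw [h]
    exact (g.sm i j).comp contDiffOn_snd fun q hq => hq

/-- restriction of jointly smooth families to a slice of the parameters -/
theorem JSDat.comp {E' : Type} [NormedAddCommGroup E'] [NormedSpace ℝ E'] {T' : Set E'}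
    {D : E → Dat C} (hD : JSDat T D) {α : E' → E} (hα : ContDiffOn ℝ ∞ α T')
    (hm : MapsTo α T' T) : JSDat T' fun p => D (α p) := by
  have h : ∀ i, ContDiffOn ℝ ∞ (fun q : E' × V => (α q.1, q.2)) (T' ×ˢ (C.e i).target) := fun i =>
    (hα.comp contDiffOn_fst fun q hq => hq.1).prodMk contDiffOn_snd
  have h' : ∀ i, MapsTo (fun q : E' × V => (α q.1, q.2)) (T' ×ˢ (C.e i).target)
      (T ×ˢ (C.e i).target) := fun i q hq => ⟨hm hq.1, hq.2⟩
  exact ⟨fun i => (hD.J i).comp (h i) (h' i), fun i => (hD.om i).comp (h i) (h' i),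
    fun i => (hD.r i).comp (h i) (h' i), fun i => (hD.f i).comp (h i) (h' i)⟩

/-- pull back of a family by one map -/
theorem JSDat.pullC (hT : IsOpen T) (g : LD C' C) {D : E → Dat C}
    (hD : JSDat T D) : JSDat T fun p : E => (D p).pullB b' b g :=
  (hD.pullB b' b hT (FamLD.const g)).comp (α := fun p => (p, (0 : ℝ)))
    (contDiffOn_id.prodMk contDiffOn_const) fun _ hp => ⟨hp, mem_univ _⟩

end pull

/-! ### the Monge-Ampere equation -/

section MA

variable [FiniteDimensional ℝ V] [MeasurableSpace V] [BorelSpace V]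
  [FiniteDimensional ℝ V'] [MeasurableSpace V'] [BorelSpace V'] [CompleteSpace V']
  {κ : Type} [Fintype κ] [DecidableEq κ] {b' : Module.Basis κ ℝ V'} {b : Module.Basis κ ℝ V}

/-- the form `om + dd^c u` pulls back -/
theorem pullB_form (D : Dat C) {u : X → ℝ} (hu : Sm C u) (g : LD C' C) {i : C.ι} {j : C'.ι}
    {z : V'} (hi : z ∈ dom C C' g.f i j) (x y : V') :
    ((D.pullB b' b g).om + ddc (D.pullB b' b g).J (u ∘ g.f) (Sm.comp hu g.toSMap)).w j z x y =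
      (D.om + ddc D.J u hu).w i (Dif_268.loc C C' g.f i j z)
        (fderiv ℝ (Dif_268.loc C C' g.f i j) z x) (fderiv ℝ (Dif_268.loc C C' g.f i j) z y) := by
  show ((g.pull D.om) + ddc (g.pJ D.J) (u ∘ g.f) (Sm.comp hu g.toSMap)).w j z x y = _
  simp only [F2.add_w, add_apply]
  rw [ddc_pull g D.J hu hi.1, g.pull_w _ hi, g.pull_w _ hi]

theorem pullB_det (D : Dat C) {u : X → ℝ} (hu : Sm C u) (g : LD C' C) {i : C.ι} {j : C'.ι}
    {z : V'} (hi : z ∈ dom C C' g.f i j) :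
    detB b' (fun x y => ((D.pullB b' b g).om + ddc (D.pullB b' b g).J (u ∘ g.f)
      (Sm.comp hu g.toSMap)).w j z x ((D.pullB b' b g).J.J j z y)) =
    detB b (fun x y => (D.om + ddc D.J u hu).w i (Dif_268.loc C C' g.f i j z) x
      (D.J.J i (Dif_268.loc C C' g.f i j z) y)) *
      mdet b' b (fderiv ℝ (Dif_268.loc C C' g.f i j) z) ^ 2 := by
  have h1 : ∀ x y, ((D.pullB b' b g).om + ddc (D.pullB b' b g).J (u ∘ g.f)
      (Sm.comp hu g.toSMap)).w j z x ((D.pullB b' b g).J.J j z y) =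
      (((D.om + ddc D.J u hu).w i (Dif_268.loc C C' g.f i j z)).bilinearComp
        (ContinuousLinearMap.id ℝ V) (D.J.J i (Dif_268.loc C C' g.f i j z)))
        (fderiv ℝ (Dif_268.loc C C' g.f i j) z x) (fderiv ℝ (Dif_268.loc C C' g.f i j) z y) := by
    intro x y
    rw [pullB_form D hu g hi]
    show (D.om + ddc D.J u hu).w i (Dif_268.loc C C' g.f i j z)
      (fderiv ℝ (Dif_268.loc C C' g.f i j) z x)
      (fderiv ℝ (Dif_268.loc C C' g.f i j) z ((g.pJ D.J).J j z y)) = _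
    rw [g.pJ_spec D.J hi]
    rfl
  have h2 : (fun x y => ((D.pullB b' b g).om + ddc (D.pullB b' b g).J (u ∘ g.f)
      (Sm.comp hu g.toSMap)).w j z x ((D.pullB b' b g).J.J j z y)) =
      fun x y => (((D.om + ddc D.J u hu).w i (Dif_268.loc C C' g.f i j z)).bilinearComp
        (ContinuousLinearMap.id ℝ V) (D.J.J i (Dif_268.loc C C' g.f i j z)))
        (fderiv ℝ (Dif_268.loc C C' g.f i j) z x) (fderiv ℝ (Dif_268.loc C C' g.f i j) z y) := by
    funext x y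
    exact h1 x y
  rw [h2, detB_pullB b' b]
  rfl

theorem SolMA.pullB (D : Dat C) (u : X → ℝ) (g : LD C' C) (h : SolMA b D u) :
    SolMA b' (D.pullB b' b g) (u ∘ g.f) := by
  refine ⟨g.pJ_cx h.cx, g.pJ_t11 h.t11, g.pJ_pos h.pos0, Sm.comp h.sm g.toSMap,
    fun j z hz v hv => ?_, ?_⟩
  · obtain ⟨i, hi⟩ := g.exists_dom hz
    rw [pullB_form D h.sm g hi]
    have h1 : fderiv ℝ (Dif_268.loc C C' g.f i j) z ((D.pullB b' b g).J.J j z v) = _ :=
      g.pJ_spec D.J hi v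
    rw [h1]
    refine h.pos i _ (g.loc_mem hi) _ fun h0 => hv (g.injD hi ?_)
    rw [h0, map_zero]
  · obtain ⟨k, hk⟩ := h.eq
    refine ⟨k, fun j z hz => ?_⟩
    obtain ⟨i, hi⟩ := g.exists_dom hz
    have h4 : (D.pullB b' b g).r.r j z = D.r.r i (Dif_268.loc C C' g.f i j z) *
        mdet b' b (fderiv ℝ (Dif_268.loc C C' g.f i j) z) ^ 2 := g.rB'_eq b' b D.r hi
    rw [pullB_det D h.sm g hi, h4, hk i _ (g.loc_mem hi)]
    ring

/-- points of the target charts are images -/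
theorem LD.exists_pt (g : LD C' C) (hs : Function.Surjective g.f) {i : C.ι} {y : V}
    (hy : y ∈ (C.e i).target) : ∃ j z, z ∈ dom C C' g.f i j ∧ Dif_268.loc C C' g.f i j z = y := by
  obtain ⟨x', hx'⟩ := hs ((C.e i).symm y)
  obtain ⟨j, hj⟩ := C'.cover x'
  refine ⟨j, C'.e j x', ⟨(C'.e j).map_source hj, ?_⟩, ?_⟩
  · rw [(C'.e j).left_inv hj, hx']
    exact (C.e i).map_target hy
  · show C.e i (g.f ((C'.e j).symm (C'.e j x'))) = y
    rw [(C'.e j).left_inv hj, hx', (C.e i).right_inv hy]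

/-- the converse for surjective local diffeomorphisms -/
theorem SolMA.of_pullB (D : Dat C) (u : X → ℝ) (g : LD C' C) (hs : Function.Surjective g.f)
    (hu : Sm C u) (h : SolMA b' (D.pullB b' b g) (u ∘ g.f)) : SolMA b D u := by
  have hsur : ∀ {i : C.ι} {j : C'.ι} {z : V'}, z ∈ dom C C' g.f i j → ∀ v,
      ∃ v', fderiv ℝ (Dif_268.loc C C' g.f i j) z v' = v := fun {i j z} hz v =>
    (g.inv i j z hz).surjective v
  refine ⟨⟨fun i y hy v => ?_, fun i y hy v w => ?_⟩, fun i y hy v w => ?_, fun i y hy v hv => ?_,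
    hu, fun i y hy v hv => ?_, ?_⟩
  · obtain ⟨j, z, hz, rfl⟩ := g.exists_pt hs hy
    obtain ⟨v', rfl⟩ := hsur hz v
    have h1 := h.cx.sq j z hz.1 v'
    rw [← g.pJ_spec D.J hz, ← g.pJ_spec D.J hz]
    have h2 : (g.pJ D.J).J j z ((g.pJ D.J).J j z v') = -v' := h1
    rw [h2, map_neg]
  · obtain ⟨j, z, hz, rfl⟩ := g.exists_pt hs hy
    obtain ⟨v', rfl⟩ := hsur hz v
    obtain ⟨w', rfl⟩ := hsur hz w
    rw [← nij_rel (J' := (g.pJ D.J).J j) (g.contDiffAt_loc hz) (LD.AJ.diffAt D.J hy)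
      (LD.AJ.diffAt (g.pJ D.J) hz.1)]
    · have h2 : Nij ((g.pJ D.J).J j) z v' w' = 0 := h.cx.int j z hz.1 v' w'
      rw [h2, map_zero]
    · filter_upwards [(g.isOpen_dom i j).mem_nhds hz] with y hy v using g.pJ_spec D.J hy v
  · obtain ⟨j, z, hz, rfl⟩ := g.exists_pt hs hy
    obtain ⟨v', rfl⟩ := hsur hz v
    obtain ⟨w', rfl⟩ := hsur hz w
    rw [← g.pJ_spec D.J hz, ← g.pJ_spec D.J hz, ← g.pull_w _ hz, ← g.pull_w _ hz]
    exact h.t11 j z hz.1 v' w'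
  · obtain ⟨j, z, hz, rfl⟩ := g.exists_pt hs hy
    obtain ⟨v', rfl⟩ := hsur hz v
    rw [← g.pJ_spec D.J hz, ← g.pull_w _ hz]
    exact h.pos0 j z hz.1 v' fun h0 => hv (by rw [h0, map_zero])
  · obtain ⟨j, z, hz, rfl⟩ := g.exists_pt hs hy
    obtain ⟨v', rfl⟩ := hsur hz v
    rw [← g.pJ_spec D.J hz, ← pullB_form (b' := b') (b := b) D hu g hz]
    exact h.pos j z hz.1 v' fun h0 => hv (by rw [h0, map_zero])
  · obtain ⟨k, hk⟩ := h.eq
    refine ⟨k, fun i y hy => ?_⟩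
    obtain ⟨j, z, hz, rfl⟩ := g.exists_pt hs hy
    have h1 := hk j z hz.1
    have h4 : (D.pullB b' b g).r.r j z = D.r.r i (Dif_268.loc C C' g.f i j z) *
        mdet b' b (fderiv ℝ (Dif_268.loc C C' g.f i j) z) ^ 2 := g.rB'_eq b' b D.r hz
    have h5 := pullB_det (b' := b') (b := b) D hu g hz
    have h6 : mdet b' b (fderiv ℝ (Dif_268.loc C C' g.f i j) z) ^ 2 ≠ 0 :=
      pow_ne_zero 2 (mdet_ne_zero b' b (g.inv i j z hz))
    rw [h4] at h1
    have h7 := h5.symm.trans h1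
    refine mul_right_cancel₀ h6 ?_
    rw [h7]
    ring

end MA

end

end Crest.Agent.R281.Tt_476
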