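import Crest.Agent.R281.Lv5_626
import Crest.Agent.R281.Tt4_476
import Crest.Agent.R281.HkR9_835
import Crest.Agent.R260.NNB2_580
import Crest.Agent.R260.NN6_900

/-!
# Row 281, LAP-VAR, part 6 (helper626): **smooth dependence of the solutions of the Laplace equation**

* `trW b J om w i z` : trace of the form `w` with respect to `om` and `J`
* `SolLap b D u`     : `tr (dd^c u) = D.f + k`
* `v0_lap`           : `V0 C SolLap`;  `joint_lap` : joint smoothness (476's trick)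
-/

set_option autoImplicit false
set_option linter.unusedSectionVars false
set_option maxSynthPendingDepth 3
set_option synthInstance.maxHeartbeats 200000

open Set Filter Topology Complex Metric
open scoped ContDiff Matrix ComplexConjugate ComplexOrder InnerProductSpace

namespace Crest.Agent.R281.Lv6_626

open Crest.Agent.R275.Geo Crest.Agent.R275.Core144 Crest.Agent.R275.EDR890
open Crest.Agent.R275.GC293
open Crest.Agent.R273.Kah_333 Crest.Agent.R273.Vol_333 Crest.Agent.R273.YauDefs_635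
open Crest.Agent.R260.ACM_580 Crest.Agent.R260.NNB_580
open Crest.Agent.R281.HkR_835 Crest.Agent.R281.NefO_476
open Crest.Agent.R281.Ti_846 hiding pb pb_apply symm2
open Crest.Agent.R281.Nef_252 Crest.Agent.R281.Tt_476 Crest.Agent.R281.Dif_268
open Crest.Agent.R281.Lv4_626 Crest.Agent.R281.Lv5_626

noncomputable section

/-! ### the trace under linear maps -/

section lin

variable {V V' : Type} [NormedAddCommGroup V] [NormedSpace ℝ V] [NormedAddCommGroup V']
  [NormedSpace ℝ V'] {κ : Type} [Fintype κ] [DecidableEq κ]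

theorem Mt_pull (b' : Module.Basis κ ℝ V') (b : Module.Basis κ ℝ V) {w : Bil V} {w' : Bil V'}
    {T : V →L[ℝ] V} {T' : V' →L[ℝ] V'} {L : V' →L[ℝ] V} (hw : ∀ x y, w' x y = w (L x) (L y))
    (hT : ∀ x, L (T' x) = T (L x)) : Mt b' w' T' =
      (LinearMap.toMatrix b' b (L : V' →ₗ[ℝ] V))ᵀ * Mt b w T *
        LinearMap.toMatrix b' b (L : V' →ₗ[ℝ] V) := by
  set Q := LinearMap.toMatrix b' b (L : V' →ₗ[ℝ] V) with hQ
  have hL : ∀ c, L (b' c) = ∑ e, Q e c • b e := fun c => by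
    have := b.sum_repr (L (b' c))
    rw [← this]
    refine Finset.sum_congr rfl fun e _ => ?_
    rw [hQ, LinearMap.toMatrix_apply]
    simp
  ext a c
  simp only [Mt, Matrix.of_apply, Matrix.mul_apply, Matrix.transpose_apply]
  rw [hw, hT, hL a, hL c]
  simp only [map_sum, map_smul, sum_apply, smul_apply, smul_eq_mul, Finset.mul_sum,
    Finset.sum_mul]
  refine Finset.sum_congr rfl fun e _ => Finset.sum_congr rfl fun e' _ => ?_
  ring

theorem trace_pull (b' : Module.Basis κ ℝ V') (b : Module.Basis κ ℝ V) {w s : Bil V}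
    {w' s' : Bil V'} {T : V →L[ℝ] V} {T' : V' →L[ℝ] V'} {L : V' →L[ℝ] V}
    (hw : ∀ x y, w' x y = w (L x) (L y)) (hs : ∀ x y, s' x y = s (L x) (L y))
    (hT : ∀ x, L (T' x) = T (L x)) (hL : L.IsInvertible) :
    ((Mt b' w' T')⁻¹ * Mt b' s' T').trace = ((Mt b w T)⁻¹ * Mt b s T).trace := by
  rw [Mt_pull b' b hw hT, Mt_pull b' b hs hT]
  set Q := LinearMap.toMatrix b' b (L : V' →ₗ[ℝ] V) with hQ
  have hd : Q.det ≠ 0 := mdet_ne_zero b' b hL
  have hQu : IsUnit Q.det := hd.isUnit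
  have hQt : IsUnit (Qᵀ).det := by rw [Matrix.det_transpose]; exact hQu
  rw [Matrix.mul_inv_rev, Matrix.mul_inv_rev]
  have h1 : Q⁻¹ * ((Mt b w T)⁻¹ * (Qᵀ)⁻¹) * (Qᵀ * Mt b s T * Q) =
      Q⁻¹ * ((Mt b w T)⁻¹ * Mt b s T * Q) := by
    calc Q⁻¹ * ((Mt b w T)⁻¹ * (Qᵀ)⁻¹) * (Qᵀ * Mt b s T * Q) =
        Q⁻¹ * ((Mt b w T)⁻¹ * ((Qᵀ)⁻¹ * Qᵀ) * Mt b s T * Q) := by
          simp only [Matrix.mul_assoc]
      _ = _ := by rw [Matrix.nonsing_inv_mul _ hQt, Matrix.mul_one]
  rw [h1, Matrix.trace_mul_comm, Matrix.mul_assoc, Matrix.mul_nonsing_inv _ hQu, Matrix.mul_one]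

end lin

variable {V V' X X' : Type} [NormedAddCommGroup V] [NormedSpace ℝ V]
  [NormedAddCommGroup V'] [NormedSpace ℝ V'] [TopologicalSpace X] [TopologicalSpace X']
  {C : RCh V X} {C' : RCh V' X'}
  {κ : Type} [Fintype κ] [DecidableEq κ] {b' : Module.Basis κ ℝ V'} {b : Module.Basis κ ℝ V}

/-- the trace of the form `w` -/
def trW (b : Module.Basis κ ℝ V) (J : AJ C) (om w : F2 C) (i : C.ι) (z : V) : ℝ :=
  ((Mt b (om.w i z) (J.J i z))⁻¹ * Mt b (w.w i z) (J.J i z)).trace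

section eq

variable [FiniteDimensional ℝ V] [MeasurableSpace V] [BorelSpace V]
  [FiniteDimensional ℝ V'] [MeasurableSpace V'] [BorelSpace V'] [CompleteSpace V']

/-- solutions of the Laplace equation of the data `D` (the density `D.r` is not used) -/
structure SolLap (b : Module.Basis κ ℝ V) (D : Dat C) (u : X → ℝ) : Prop where
  cx : Cx D.J
  t11 : T11 D.J D.om
  pos0 : Pos D.J D.om
  sm : Sm C u
  eq : ∃ k : ℝ, ∀ i, ∀ z ∈ (C.e i).target,
    trW b D.J D.om (ddc D.J u sm) i z = D.f ((C.e i).symm z) + k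

theorem SolLap.cst (D : Dat C) (u : X → ℝ) (c : ℝ) (h : SolLap b D u) :
    SolLap b D fun x => u x - c := by
  have hs : Sm C fun x => u x - c := fun i => (h.sm i).sub contDiffOn_const
  obtain ⟨k, hk⟩ := h.eq
  refine ⟨h.cx, h.t11, h.pos0, hs, k, fun i z hz => ?_⟩
  rw [← hk i z hz]
  have he : (ddc D.J (fun x => u x - c) hs).w i z = (ddc D.J u h.sm).w i z := by
    ext x y
    exact ddc_congr D.J hs h.sm (c := -c) (fun x => by ring) hz x y
  rw [trW, he]
  rfl

theorem SolLap.pullB (D : Dat C) (u : X → ℝ) (g : LD C' C) (h : SolLap b D u) :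
    SolLap b' (D.pullB b' b g) (u ∘ g.f) := by
  obtain ⟨k, hk⟩ := h.eq
  refine ⟨g.pJ_cx h.cx, g.pJ_t11 h.t11, g.pJ_pos h.pos0, Sm.comp h.sm g.toSMap, k,
    fun j z hz => ?_⟩
  obtain ⟨i, hi⟩ := g.exists_dom hz
  have h1 : (D.pullB b' b g).f ((C'.e j).symm z) =
      D.f ((C.e i).symm (Dif_268.loc C C' g.f i j z)) := by
    show D.f (g.f ((C'.e j).symm z)) = _
    rw [g.symm_loc hi]
  rw [h1, ← hk i _ (g.loc_mem hi)]
  refine trace_pull b' b (L := fderiv ℝ (Dif_268.loc C C' g.f i j) z) (fun x y => ?_)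
    (fun x y => ?_) (fun x => ?_) (g.inv i j z hi)
  · exact g.pull_w D.om hi x y
  · have h2 := ddc_pull g D.J h.sm hz x y
    rw [g.pull_w _ hi] at h2
    exact h2
  · exact g.pJ_spec D.J hi x

theorem SolLap.pull [CompleteSpace V] (D : Dat C) (u : X → ℝ) (g : LD C C) (h : SolLap b D u) :
    SolLap b (D.pull g) (u ∘ g.f) := by
  obtain ⟨k, hk⟩ := h.eq
  refine ⟨g.pJ_cx h.cx, g.pJ_t11 h.t11, g.pJ_pos h.pos0, Sm.comp h.sm g.toSMap, k,
    fun j z hz => ?_⟩
  obtain ⟨i, hi⟩ := g.exists_dom hz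
  have h1 : (D.pull g).f ((C.e j).symm z) =
      D.f ((C.e i).symm (Dif_268.loc C C g.f i j z)) := by
    show D.f (g.f ((C.e j).symm z)) = _
    rw [g.symm_loc hi]
  rw [h1, ← hk i _ (g.loc_mem hi)]
  refine trace_pull b b (L := fderiv ℝ (Dif_268.loc C C g.f i j) z) (fun x y => ?_)
    (fun x y => ?_) (fun x => ?_) (g.inv i j z hi)
  · exact g.pull_w D.om hi x y
  · have h2 := ddc_pull g D.J h.sm hz x y
    rw [g.pull_w _ hi] at h2
    exact h2
  · exact g.pJ_spec D.J hi x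

end eq

/-! ### the holomorphic atlas of an integrable structure -/

/-- the almost complex manifold -/
def acm (J : AJ C) (h : Cx J) : ACM V X where
  ι := C.ι
  e := C.e
  cover := C.cover
  sm := C.sm
  J := J.J
  J_sm := J.sm
  J_sq := h.sq
  J_tr i j _ h1 h2 v := J.tr i j _ ⟨h1, h2⟩ v

theorem acm_int (J : AJ C) (h : Cx J) : (acm J h).Int := h.int

/-- **Newlander-Nirenberg** for `(C, J)` -/
theorem exists_hol [FiniteDimensional ℝ V] [CompactSpace X] [T2Space X] {d : ℕ}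
    (hd : Module.finrank ℝ V = 2 * d) {J : AJ C} (hJ : Cx J) :
    ∃ (A : Atl d X) (_ : Finite A.ι) (_ : GoodA A) (_ : Nonempty (Part A)) (h : Cmp C (ofAtl A)),
      ∀ (i : A.ι), ∀ z ∈ (A.e i).target, ∀ v, ((LD.ofCmp h).pJ J).J i z v = I • v := by
  obtain ⟨A, h1, h2, h3, -, -, h4⟩ := exists_atl (Crest.Agent.R260.NN6_900.nnat d V hd)
    (acm_int J hJ) (κ := Unit) (fun _ => univ) (fun _ => isOpen_univ) fun _ => ⟨(), mem_univ _⟩
  have hc : Cmp C (ofAtl A) := ⟨fun i j => (h4 j).sm' i, fun i j => (h4 j).sm i⟩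
  refine ⟨A, h1, h2, h3, hc, fun i z hz v => ?_⟩
  obtain ⟨k, hk⟩ := (LD.ofCmp hc).exists_dom (j := i) hz
  refine (LD.ofCmp hc).injD hk ?_
  rw [(LD.ofCmp hc).pJ_spec J hk]
  exact ((h4 i).lin' (i := k) hk v).symm

end

end Crest.Agent.R281.Lv6_626
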