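import Crest.Agent.R281.Lv6_626

/-!
# Row 281, LAP-VAR, part 7 (helper626): `V0` and joint smoothness for the Laplace equation

* `v0_lap`    : `V0 C SolLap`
* `joint_lap` : solutions of a jointly smooth family of Laplace equations are jointly smooth
-/

set_option autoImplicit false
set_option linter.unusedSectionVars false
set_option maxSynthPendingDepth 3
set_option synthInstance.maxHeartbeats 200000

open Set Filter Topology Complex Metric
open scoped ContDiff Matrix ComplexConjugate ComplexOrder InnerProductSpace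

namespace Crest.Agent.R281.Lv7_626

open Crest.Agent.R275.Geo Crest.Agent.R275.Core144 Crest.Agent.R275.EDR890
open Crest.Agent.R275.GC293
open Crest.Agent.R273.Kah_333 Crest.Agent.R273.Vol_333 Crest.Agent.R273.YauDefs_635
open Crest.Agent.R260.ACM_580 Crest.Agent.R260.NNB_580
open Crest.Agent.R281.HkR_835 Crest.Agent.R281.NefO_476
open Crest.Agent.R281.Ti_846 hiding pb pb_apply symm2
open Crest.Agent.R281.Nef_252 Crest.Agent.R281.Tt_476 Crest.Agent.R281.Dif_268
open Crest.Agent.R281.Lv4_626 Crest.Agent.R281.Lv5_626 Crest.Agent.R281.Lv6_626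

noncomputable section

theorem even_finrank {V : Type} [NormedAddCommGroup V] [NormedSpace ℝ V] [FiniteDimensional ℝ V]
    (T : V →L[ℝ] V) (hT : ∀ v, T (T v) = -v) : ∃ d, Module.finrank ℝ V = 2 * d := by
  have h1 : LinearMap.det (T : V →ₗ[ℝ] V) * LinearMap.det (T : V →ₗ[ℝ] V) =
      (-1) ^ Module.finrank ℝ V := by
    rw [← LinearMap.det_comp]
    have h2 : (T : V →ₗ[ℝ] V) ∘ₗ (T : V →ₗ[ℝ] V) = (-1 : ℝ) • LinearMap.id := by
      ext v
      simpa using hT v
    rw [h2, LinearMap.det_smul, LinearMap.det_id, mul_one]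
  have h3 : Even (Module.finrank ℝ V) := by
    by_contra h4
    rw [Nat.not_even_iff_odd] at h4
    rw [h4.neg_one_pow] at h1
    nlinarith [mul_self_nonneg (LinearMap.det (T : V →ₗ[ℝ] V))]
  obtain ⟨d, hd⟩ := h3
  exact ⟨d, by omega⟩

variable {V X : Type} [NormedAddCommGroup V] [NormedSpace ℝ V] [FiniteDimensional ℝ V]
  [MeasurableSpace V] [BorelSpace V] [TopologicalSpace X]
  {C : RCh V X} {κ : Type} [Fintype κ] [DecidableEq κ]

/-- **smoothness in the parameters of the solutions of the Laplace equation** -/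
theorem v0_lap [CompactSpace X] [T2Space X] [ConnectedSpace X] (b : Module.Basis κ ℝ V) :
    V0 C (SolLap b) := by
  intro E _ _ _ T x₁ D u hTo hD hS hu1 x
  have : CompleteSpace V := FiniteDimensional.complete ℝ V
  intro p₀ hp₀
  -- the dimension
  obtain ⟨i₁, hi₁⟩ := C.cover x₁
  obtain ⟨d, hd⟩ := even_finrank ((D p₀).J.J i₁ (C.e i₁ x₁))
    ((hS p₀ hp₀).cx.sq i₁ _ ((C.e i₁).map_source hi₁))
  -- the holomorphic atlas
  obtain ⟨A, hfin, hgood, ⟨P₀⟩, hc, hJI⟩ := exists_hol hd (hS p₀ hp₀).cx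
  have hd' : Module.finrank ℝ V = Module.finrank ℝ (Cn d) := by
    rw [hd, finrank_real_of_complex, finrank_euclideanSpace, Fintype.card_fin]
  let L : V ≃ₗ[ℝ] Cn d := LinearEquiv.ofFinrankEq _ _ hd'
  let b' : Module.Basis κ ℝ (Cn d) := b.map L
  set g : LD (ofAtl A) C := LD.ofCmp hc with hg
  have hDp : JSDat T fun p => (D p).pullB b' b g := JSDat.pullC b' b hTo g hD
  have hSp : ∀ p ∈ T, SolLap b' ((D p).pullB b' b g) (u p) := fun p hp =>
    SolLap.pullB (b' := b') (D p) (u p) g (hS p hp)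
  -- the Kaehler metric
  have h11 : ∀ i, ∀ z ∈ (A.e i).target, ∀ v w,
      ((D p₀).pullB b' b g).om.w i z (I • v) (I • w) = ((D p₀).pullB b' b g).om.w i z v w := by
    intro i z hz v w
    have h1 := (hSp p₀ hp₀).t11 i z hz v w
    have h2 : ((D p₀).pullB b' b g).J.J i z = iL := by
      ext1 v
      exact hJI i z hz v
    rw [h2] at h1
    exact h1
  set K₁ : K11 A := ((D p₀).pullB b' b g).om.k11 h11 with hK₁
  have hval : ∀ i, ∀ z ∈ (A.e i).target, K₁.f2.w i z = ((D p₀).pullB b' b g).om.w i z :=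
    fun i z hz => F2.k11_f2 _ h11 hz
  have hpos : Pos (jA A) K₁.f2 := fun i z hz v hv => by
    rw [hval i z hz]
    have h1 := (hSp p₀ hp₀).pos0 i z hz v hv
    have h2 : ((D p₀).pullB b' b g).J.J i z = iL := by
      ext1 v
      exact hJI i z hz v
    rw [h2] at h1
    exact h1
  set K : Kah A := K₁.kah ((pos_f2 K₁).1 hpos) with hK
  -- the constants
  have hk : ∀ p, ∃ k : ℝ, p ∈ T → ∀ i, ∀ z ∈ (A.e i).target,
      ((Mt b' (((D p).pullB b' b g).om.w i z) (((D p).pullB b' b g).J.J i z))⁻¹ *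
        Matrix.of fun a c => ddcF (inC A i (u p)) (((D p).pullB b' b g).J.J i) z (b' a)
          (((D p).pullB b' b g).J.J i z (b' c))).trace + k =
        ((D p).pullB b' b g).f ((A.e i).symm z) := by
    intro p
    by_cases hp : p ∈ T
    · obtain ⟨k, hk⟩ := (hSp p hp).eq
      refine ⟨-k, fun _ i z hz => ?_⟩
      have h1 := hk i z hz
      have h2 : trW b' ((D p).pullB b' b g).J ((D p).pullB b' b g).om
          (ddc ((D p).pullB b' b g).J (u p) (hSp p hp).sm) i z =
          ((Mt b' (((D p).pullB b' b g).om.w i z) (((D p).pullB b' b g).J.J i z))⁻¹ *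
        Matrix.of fun a c => ddcF (inC A i (u p)) (((D p).pullB b' b g).J.J i) z (b' a)
          (((D p).pullB b' b g).J.J i z (b' c))).trace := by
        refine congrArg (fun M : Matrix κ κ ℝ => ((Mt b' (((D p).pullB b' b g).om.w i z)
          (((D p).pullB b' b g).J.J i z))⁻¹ * M).trace) ?_
        ext a c
        exact ddc_w _ _ _ hz _ _
      rw [← h2, h1]
      show _ = ((D p).pullB b' b g).f ((A.e i).symm z)
      have h3 : ((ofAtl A).e i).symm z = (A.e i).symm z := rfl
      rw [h3]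
      ring
    · exact ⟨0, fun h => absurd h hp⟩
  choose c hc' using hk
  have key := v0_atl P₀ K b' x₁ hTo hp₀ (J := fun p => ((D p).pullB b' b g).J.J)
    (om := fun p => ((D p).pullB b' b g).om.w) (hDp.J) (hDp.om)
    (fun p hp i z hz v hv => (hSp p hp).pos0 i z hz v hv)
    (fun i z hz v w => by rw [← hval i z hz]; exact K₁.f2_w hz v w)
    (fun i z hz v => hJI i z hz v)
    (f := fun p i z => ((D p).pullB b' b g).f ((A.e i).symm z)) (hDp.f)
    (u := u) (fun p hp => (hSp p hp).sm) hu1 (c := c) (fun p hp i z hz => hc' p hp i z hz)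
  exact (key.2 x).contDiffWithinAt

/-- **joint smoothness of the solutions of the Laplace equation** -/
theorem joint_lap [CompactSpace X] [T2Space X] [ConnectedSpace X] (b : Module.Basis κ ℝ V)
    {E : Type} [NormedAddCommGroup E] [NormedSpace ℝ E] [FiniteDimensional ℝ E]
    {T : Set E} (hT : IsOpen T) {x1 : X} {D : E → Dat C} {u : E → X → ℝ}
    (hD : JSDat T D) (hu : ∀ p ∈ T, SolLap b (D p) (u p)) (h1 : ∀ p ∈ T, u p x1 = 0) :
    JS0 C T u := by
  have : CompleteSpace V := FiniteDimensional.complete ℝ V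
  exact trick (fun D u g h => SolLap.pull D u g h) (v0_lap b) hT hD hu h1 SolLap.cst

end

end Crest.Agent.R281.Lv7_626
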