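import Crest.Agent.R281.Yv5_900

/-!
# Row 281, YAU-VAR (L2'): `TrSt` (helper457)

* `ddcF_congr`  : `ddcF` depends on the germ of `U`
* `ddcF_tr`     : transition law of `ddcF` for functions of class `C²`
* `ddcB`        : `ddcF` as a continuous bilinear form
* `bt_tr`, `trSt` : **`TrSt b B D0 U`**
-/

set_option autoImplicit false
set_option maxSynthPendingDepth 3
set_option linter.unusedSectionVars false

open Set Filter Topology Metric
open scoped ContDiff

namespace Crest.Agent.R281.Ly_457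

open Crest.Agent.R275.Geo Crest.Agent.R275.Core144 Crest.Agent.R275.EDR890
open Crest.Agent.R273.YauDefs_635 Crest.Agent.R273.SchF_152
open Crest.Agent.R260.ACM_580 Crest.Agent.R281.HkR_835 Crest.Agent.R281.NefO_476
open Crest.Agent.R281.Tt_476 Crest.Agent.R281.Yv_900

noncomputable section

section gen

variable {V X : Type} [NormedAddCommGroup V] [NormedSpace ℝ V] [TopologicalSpace X]
  {C : RCh V X}

/-- `ddcF` depends on the germ of the function -/
theorem ddcF_congr {U U' : V → ℝ} {T : V → V →L[ℝ] V} {z : V} (h : U =ᶠ[𝓝 z] U') (a b : V) :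
    ddcF U T z a b = ddcF U' T z a b := by
  unfold ddcF
  rw [h.fderiv.fderiv_eq, h.fderiv_eq]

/-- transition law for functions of class `C²` -/
theorem ddcF_tr (J : AJ C) {U : X → ℝ} (hU : ∀ i, ContDiffOn ℝ 2 (uc C U i) (C.e i).target)
    {i j : C.ι} {z : V} (hz : z ∈ C.ov i j) (a b : V) :
    ddcF (uc C U i) (J.J i) z a b =
      ddcF (uc C U j) (J.J j) (C.t i j z) (fderiv ℝ (C.t i j) z a) (fderiv ℝ (C.t i j) z b) := by
  have hz' := (RCh.t_mem hz).1
  have h1 : uc C U i =ᶠ[𝓝 z] fun y => uc C U j (C.t i j y) := by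
    filter_upwards [(RCh.isOpen_ov i j).mem_nhds hz] with y hy using (uc_t U hy).symm
  rw [ddcF_congr h1]
  refine ddcF_comp ((hU j).contDiffAt ((C.e j).open_target.mem_nhds hz'))
    ((RCh.t_smooth i j).contDiffAt ((RCh.isOpen_ov i j).mem_nhds hz))
    (((J.sm j).contDiffAt ((C.e j).open_target.mem_nhds hz')).differentiableAt (by simp))
    (((J.sm i).contDiffAt ((C.e i).open_target.mem_nhds hz.1)).differentiableAt (by simp)) ?_ a b
  filter_upwards [(RCh.isOpen_ov i j).mem_nhds hz] with y hy v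
  exact J.tr i j y hy v

/-- `ddcF` as a bilinear form -/
def ddcB (U : V → ℝ) (T : V → V →L[ℝ] V) (z : V) : Bil V :=
  -((fderiv ℝ (fderiv ℝ U) z).bilinearComp (ContinuousLinearMap.id ℝ V) (T z) +
      (ContinuousLinearMap.compL ℝ V V ℝ (fderiv ℝ U z)).comp (fderiv ℝ T z)) +
    ((fderiv ℝ (fderiv ℝ U) z).bilinearComp (ContinuousLinearMap.id ℝ V) (T z) +
      (ContinuousLinearMap.compL ℝ V V ℝ (fderiv ℝ U z)).comp (fderiv ℝ T z)).flip

theorem ddcB_apply (U : V → ℝ) (T : V → V →L[ℝ] V) (z a b : V) :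
    ddcB U T z a b = ddcF U T z a b := by
  simp [ddcB, ddcF]

end gen

section main

variable {n : ℕ} {X : Type} [TopologicalSpace X] {A : Atl n X}

/-- the form `(om + dd^c U)(a, J c)` as a bilinear form -/
def btB (D0 : Dat (ofAtl A)) (U : X → ℝ) (i : A.ι) (z : Cn n) : Bil (Cn n) :=
  (D0.om.w i z + ddcB (inC A i U) (D0.J.J i) z).bilinearComp (ContinuousLinearMap.id ℝ (Cn n))
    (D0.J.J i z)

theorem btB_apply (D0 : Dat (ofAtl A)) (U : X → ℝ) (i : A.ι) (z a c : Cn n) :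
    btB D0 U i z a c = bt (fun _ : Unit => D0) U i () z a c := by
  show (D0.om.w i z + ddcB (inC A i U) (D0.J.J i) z) a (D0.J.J i z c) = _
  rw [add_apply, add_apply, ddcB_apply]
  rfl

/-- transition law -/
theorem bt_tr (D0 : Dat (ofAtl A)) {U : X → ℝ}
    (hU : ∀ i, ContDiffOn ℝ 2 (inC A i U) (A.e i).target) {i j : A.ι} {z : Cn n}
    (hz : z ∈ (ofAtl A).ov i j) (a c : Cn n) :
    bt (fun _ : Unit => D0) U i () z a c = bt (fun _ : Unit => D0) U j () ((ofAtl A).t i j z)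
      (fderiv ℝ ((ofAtl A).t i j) z a) (fderiv ℝ ((ofAtl A).t i j) z c) := by
  show D0.om.w i z a (D0.J.J i z c) + ddcF (uc (ofAtl A) U i) (D0.J.J i) z a (D0.J.J i z c) =
    D0.om.w j ((ofAtl A).t i j z) (fderiv ℝ ((ofAtl A).t i j) z a)
      (D0.J.J j ((ofAtl A).t i j z) (fderiv ℝ ((ofAtl A).t i j) z c)) +
    ddcF (uc (ofAtl A) U j) (D0.J.J j) ((ofAtl A).t i j z) (fderiv ℝ ((ofAtl A).t i j) z a)
      (D0.J.J j ((ofAtl A).t i j z) (fderiv ℝ ((ofAtl A).t i j) z c))
  rw [D0.om.tr i j z hz, ddcF_tr D0.J hU hz, D0.J.tr i j z hz]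

theorem exists_half (B : Cb A) (i : A.ι) {z : Cn n} (hz : z ∈ (A.e i).target) :
    ∃ k, z ∈ (ofAtl A).ov i (B.i k) ∧ (ofAtl A).t i (B.i k) z ∈ ball (B.z k) (B.r k / 2) := by
  obtain ⟨k, h1, h2⟩ := B.cover ((A.e i).symm z)
  exact ⟨k, ⟨hz, h1⟩, h2⟩

variable {ι : Type} [Fintype ι] [DecidableEq ι] (b : Module.Basis ι ℝ (Cn n)) (B : Cb A)

theorem det_bt (D0 : Dat (ofAtl A)) (U : X → ℝ) (i : A.ι) (z : Cn n) :
    (Matrix.of fun a c => bt (fun _ : Unit => D0) U i () z (b a) (b c)).det =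
      detB b (fun x y => btB D0 U i z x y) := by
  unfold detB
  simp_rw [btB_apply]

/-- **`TrSt`** -/
theorem trSt (D0 : Dat (ofAtl A)) (U : X → ℝ) : TrSt b B D0 U := by
  intro hU
  refine ⟨fun h i z hz v hv => ?_, fun c h i z hz => ?_⟩
  · obtain ⟨k, hk, hb⟩ := exists_half B i hz
    rw [bt_tr D0 hU hk]
    refine h k _ hb _ fun h0 => hv ?_
    have h1 := RCh.dt_dt hk v
    rw [h0, map_zero] at h1
    exact h1.symm
  · obtain ⟨k, hk, hb⟩ := exists_half B i hz
    have h1 := h k _ hb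
    rw [det_bt] at h1 ⊢
    have h2 : detB b (fun x y => btB D0 U i z x y) =
        detB b (fun x y => btB D0 U (B.i k) ((ofAtl A).t i (B.i k) z)
          (fderiv ℝ ((ofAtl A).t i (B.i k)) z x) (fderiv ℝ ((ofAtl A).t i (B.i k)) z y)) := by
      unfold detB
      congr 1
      ext x y
      show btB D0 U i z (b x) (b y) = btB D0 U (B.i k) ((ofAtl A).t i (B.i k) z)
        (fderiv ℝ ((ofAtl A).t i (B.i k)) z (b x)) (fderiv ℝ ((ofAtl A).t i (B.i k)) z (b y))
      rw [btB_apply, btB_apply, bt_tr D0 hU hk]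
    rw [h2, detB_pull, h1, D0.r.tr i (B.i k) z hk]
    ring

end main

end

end Crest.Agent.R281.Ly_457
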