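import Crest.Agent.R281.Ly1_457

/-!
# Row 281, YAU-VAR (L5): `ClosSt` (helper457)

Elements of the closure of the jets of smooth functions are jets of functions of class `C²`
(on 680's `Jet.isClosed_honest`).
-/

set_option autoImplicit false
set_option maxSynthPendingDepth 3
set_option linter.unusedSectionVars false

open Set Filter Topology Metric
open scoped ContDiff

namespace Crest.Agent.R281.Ly_457

open Crest.Agent.R275.Geo Crest.Agent.R275.Core144 Crest.Agent.R275.EDR890
open Crest.Agent.R273.YauDefs_635 Crest.Agent.R273.SchF_152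
open Crest.Agent.R260.ACM_580 Crest.Agent.R281.HkR_835 Crest.Agent.R281.NefO_476
open Crest.Agent.R281.Hjs_680 Crest.Agent.R281.Tt_476 Crest.Agent.R281.Yv_900

noncomputable section

variable {n : ℕ} {X : Type} [TopologicalSpace X] {A : Atl n X}

/-- **`ClosSt`** -/
theorem closSt (B : Cb A) : ClosSt B := by
  intro x hx
  have hx' : x ∈ closure ((LinearMap.range (jj B) : Submodule ℝ (JJ B)) : Set (JJ B)) := by
    rwa [← Submodule.topologicalClosure_coe]
  obtain ⟨u, hu, hlim⟩ := mem_closure_iff_seq_limit.1 hx'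
  choose f hf using hu
  have hk : ∀ k, Tendsto (fun m => jj B (f m) k) atTop (𝓝 (x k)) := by
    intro k
    have h1 : Tendsto (fun m => u m k) atTop (𝓝 (x k)) :=
      ((continuous_apply k).tendsto x).comp hlim
    refine h1.congr fun m => ?_
    rw [hf m]
  have hk0 : ∀ k, Tendsto (fun m => (jj B (f m) k).1) atTop (𝓝 (x k).1) := fun k =>
    ((p0L (KK B k)).continuous.tendsto (x k)).comp (hk k)
  -- the jets are honest
  have hon : ∀ k, Jet.Honest (K := KK B k) (x k) := by
    intro k
    refine (Jet.isClosed_honest (K := KK B k)).mem_of_tendsto (hk k)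
      (Eventually.of_forall fun m => ?_)
    exact jet_honest (KK_compact B k) (KK_convex B k) (A.e (B.i k)).open_target (KK_sub B k)
      (SmE.cd3 (f m) (B.i k))
  -- the function
  choose kp hkp using B.cover
  let U : X → ℝ := fun p => HF.fn (x (kp p)).1 (A.e (B.i (kp p)) p)
  have hU : ∀ p, Tendsto (fun m => (f m).1 p) atTop (𝓝 (U p)) := by
    intro p
    have h1 := HF.tendsto_fn (hk0 (kp p)) (A.e (B.i (kp p)) p)
    refine h1.congr fun m => ?_
    rw [fn_jj0 B (f m) (kp p) (ball_subset_closedBall (hkp p).2)]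
    show (f m).1 ((A.e (B.i (kp p))).symm (A.e (B.i (kp p)) p)) = _
    rw [(A.e (B.i (kp p))).left_inv (hkp p).1]
  have h0 : ∀ k, ∀ z ∈ KK B k, HF.fn (x k).1 z = inC A (B.i k) U z := by
    intro k z hz
    have h1 := HF.tendsto_fn (hk0 k) z
    have h2 : Tendsto (fun m => HF.fn (jj B (f m) k).1 z) atTop (𝓝 (inC A (B.i k) U z)) := by
      refine (hU ((A.e (B.i k)).symm z)).congr fun m => ?_
      rw [fn_jj0 B (f m) k hz]
      rfl
    exact tendsto_nhds_unique h1 h2
  have hint : ∀ k, ball (B.z k) (B.r k / 2) ⊆ interior (KK B k) := fun k =>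
    ball_subset_interior_closedBall
  have hev : ∀ k, ∀ z ∈ ball (B.z k) (B.r k / 2), inC A (B.i k) U =ᶠ[𝓝 z] HF.fn (x k).1 := by
    intro k z hz
    filter_upwards [isOpen_ball.mem_nhds hz] with y hy
    exact (h0 k y (ball_subset_closedBall hy)).symm
  refine ⟨U, fun i => ?_, fun k => ⟨h0 k, fun z hz => ⟨?_, ?_⟩⟩⟩
  · intro z hz
    refine ContDiffAt.contDiffWithinAt ?_
    obtain ⟨k, hk, hb⟩ := exists_half B i hz
    have h1 : ContDiffAt ℝ 2 (inC A (B.i k) U) ((ofAtl A).t i (B.i k) z) := by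
      refine ContDiffAt.congr_of_eventuallyEq ?_ (hev k _ hb)
      exact (hon k).c2.contDiffAt (isOpen_interior.mem_nhds (hint k hb))
    have h2' : ContDiffAt ℝ ∞ ((ofAtl A).t i (B.i k)) z :=
      (RCh.t_smooth (C := ofAtl A) i (B.i k)).contDiffAt
        ((RCh.isOpen_ov (C := ofAtl A) i (B.i k)).mem_nhds hk)
    have h2 : ContDiffAt ℝ 2 ((ofAtl A).t i (B.i k)) z := h2'.of_le ENat.LEInfty.out
    have h3 : inC A i U =ᶠ[𝓝 z] fun y => inC A (B.i k) U ((ofAtl A).t i (B.i k) y) := by
      filter_upwards [(RCh.isOpen_ov (C := ofAtl A) i (B.i k)).mem_nhds hk] with y hy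
      exact (uc_t (C := ofAtl A) U hy).symm
    exact (ContDiffAt.comp (g := inC A (B.i k) U) z h1 h2).congr_of_eventuallyEq h3
  · rw [(hev k z hz).fderiv_eq]
    exact ((hon k).fderiv1 (hint k hz)).symm
  · rw [(hev k z hz).fderiv.fderiv_eq]
    exact ((hon k).fderiv2 (hint k hz)).symm

end

end Crest.Agent.R281.Ly_457
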