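import Crest.Agent.R281.YVMa1_449
import Crest.Agent.R281.Nef4_252
import Crest.Agent.R281.KpK_487
import Crest.Agent.R260.NN6_900

/-!
# Row 281 (S0424), YAU-VAR, leaf PTEX in the language of `Dat` / `SolMA` (helper449), part 2

* `exists_solMA` : `X` compact, Hausdorff, connected, `J` integrable, `ω` positive of type (1,1),
  `r` nowhere 0 ==> the Monge-Ampere equation `det ((ω + dd^c u)(·, J ·)) = k r` has a solution
  (Newlander-Nirenberg `NN6_900.nnat`, Yau `KpK_487.yau_kah'`)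
* `exists_solMA_norm` : the same with `u x₁ = 0`
-/

set_option autoImplicit false
set_option maxSynthPendingDepth 3
set_option linter.unusedSectionVars false

open Set Filter Topology Complex
open scoped ContDiff Matrix ComplexConjugate ComplexOrder InnerProductSpace

namespace Crest.Agent.R281.YVMa_449

open Crest.Agent.R260.ACM_580 Crest.Agent.R260.NNB_580 Crest.Agent.R281.HkR_835
open Crest.Agent.R275.Geo Crest.Agent.R275.Core144 Crest.Agent.R275.EDR890
open Crest.Agent.R273.Kah_333 Crest.Agent.R273.Hess_333 Crest.Agent.R273.HessB_333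
open Crest.Agent.R281.NefO_476 Crest.Agent.R281.Nef_252 Crest.Agent.R281.Tt_476
open Crest.Agent.R281.Dif_268

noncomputable section

section atl

variable {n : ℕ} {X : Type} [TopologicalSpace X] {A : Atl n X}
  [MeasurableSpace (Cn n)] [BorelSpace (Cn n)]

/-- `ω + dd^c (u/4)` is the form of `K + ∂∂̄ u` -/
theorem add_ddc_w {W : F2 (ofAtl A)} (hW : T11 (jA A) W) {u : X → ℝ} (hu : A.Sm u)
    (h4 : Sm (ofAtl A) (fun x => (1 / 4 : ℝ) * u x)) {j : A.ι} {z : Cn n}
    (hz : z ∈ (A.e j).target) (a c : Cn n) :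
    (W + ddc (jA A) (fun x => (1 / 4 : ℝ) * u x) h4).w j z a c =
      (I * hb ((W.k11 hW).g j ((A.e j).symm z) + hsf A u j ((A.e j).symm z)) a c).re := by
  have e1 : (4 : ℂ) • hess (uc (ofAtl A) (fun x => (1 / 4 : ℝ) * u x) j) z =
      hsf A u j ((A.e j).symm z) := by
    have e2 : uc (ofAtl A) (fun x => (1 / 4 : ℝ) * u x) j =
      fun y => (1 / 4 : ℝ) * u ((A.e j).symm y) := rfl
    have hz' : A.e j ((A.e j).symm z) = z := (A.e j).right_inv hz
    rw [e2, hess_const_mul _ (sm_contDiffAt hu j hz), smul_smul]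
    unfold hsf
    rw [hz']
    norm_num
  have e3 := K11.f2_w (W.k11 hW) (i := j) hz a c
  rw [F2.k11_f2 W hW hz] at e3
  have e4 := ddc_hess h4 (i := j) hz a c
  rw [e1] at e4
  show W.w j z a c + (ddc (jA A) (fun x => (1 / 4 : ℝ) * u x) h4).w j z a c = _
  rw [e3, e4, Nef_252.hb_add, mul_add, Complex.add_re]

theorem re_I_hb' (G : Matrix (Fin n) (Fin n) ℂ) (u v : Cn n) :
    (I * hb G u (I • v)).re = (hb G u v).re := by
  rw [hb_I_right]
  have : I * (-I * hb G u v) = hb G u v := by linear_combination (-hb G u v) * I_mul_I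
  rw [this]

end atl

variable {V X : Type} [NormedAddCommGroup V] [NormedSpace ℝ V] [TopologicalSpace X]
  {C : RCh V X} {κ : Type} [Fintype κ] [DecidableEq κ] [FiniteDimensional ℝ V]
  [MeasurableSpace V] [BorelSpace V] [CompactSpace X] [T2Space X] [ConnectedSpace X]

/-- **existence of a solution of the Monge-Ampere equation for one member** -/
theorem exists_solMA' {n : ℕ} (hNN : NNat V n) (b : Module.Basis κ ℝ V) (D : Dat C)
    (hJ : Cx D.J) (ht : T11 D.J D.om) (hp : Pos D.J D.om)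
    (hr : ∀ i, ∀ z ∈ (C.e i).target, D.r.r i z ≠ 0) : ∃ u, SolMA b D u := by
  obtain ⟨A, hf, -, ⟨P⟩, hA⟩ := exists_atlJ hNN D.J hJ
  let _ : MeasurableSpace (Cn n) := borel _
  have : BorelSpace (Cn n) := ⟨rfl⟩
  have hc : Cmp C (ofAtl A) := cmp_acmJ hA
  set g : SMap (ofAtl A) C := SMap.ofCmp hc with hg0
  set k : SMap C (ofAtl A) := SMap.ofCmp hc.symm with hk0
  have hg : HolM g (jA A) D.J := holM_acmJ hA
  have hgk : Bi g k := bi_cmp hc
  have hk : HolM k D.J (jA A) := hgk.holM hg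
  -- the Kaehler metric
  have hW : T11 (jA A) (g.pull D.om) := pull_T11 hg ht
  have hWp : Pos (jA A) (g.pull D.om) := pull_Pos hg hgk.imm hp
  set W : F2 (ofAtl A) := g.pull D.om with hW0
  have hK1p : Pos (jA A) (W.k11 hW).f2 := fun i z hz v hv => by
    rw [F2.k11_f2 W hW hz]
    exact hWp i z hz v hv
  set K : Kah A := (W.k11 hW).kah ((pos_f2 _).1 hK1p) with hK
  obtain ⟨s, hs⟩ := Rt_sign b D hp hr
  have hRs : Sm (ofAtl A) (Rt b D) := Sm.pull g (Rt_sm b D hp hr)
  have hF0 : A.Sm fun x => (1 / 2 : ℝ) * Real.log (Rt b D x) := by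
    intro j z hz
    refine ContDiffAt.contDiffWithinAt ?_
    have h1 : ContDiffAt ℝ ∞ (fun y => Rt b D ((A.e j).symm y)) z :=
      (hRs j).contDiffAt ((A.e j).open_target.mem_nhds hz)
    exact contDiffAt_const.mul (h1.log (Rt_ne b D hp hr _))
  obtain ⟨K', u, c, hu, hK', hd⟩ := KpK_487.yau_kah' K hF0
  -- the potential
  have h4 : Sm (ofAtl A) (fun x => (1 / 4 : ℝ) * u x) := fun i => contDiffOn_const.mul (hu i)
  have h4' : Sm C (fun x => (1 / 4 : ℝ) * u x) := Sm.pull k h4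
  set φ : X → ℝ := fun x => (1 / 4 : ℝ) * u x with hφ
  have hval : ∀ (j : A.ι) (z : Cn n), z ∈ (A.e j).target → ∀ a c,
      (W + ddc (jA A) φ h4).w j z a c = (I * hb (K'.g j ((A.e j).symm z)) a c).re := by
    intro j z hz a c
    rw [add_ddc_w hW hu h4 hz, hK']
    rfl
  have hpull : Eqv (g.pull (D.om + ddc D.J φ h4')) (W + ddc (jA A) φ h4) :=
    (pull_add g _ _).trans (eqv_add (Eqv.refl _) (pull_ddc hg h4'))
  have hpos' : Pos (jA A) (W + ddc (jA A) φ h4) := by
    intro j z hz v hv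
    have h1 := hval j z hz v (I • v)
    rw [re_I_hb] at h1
    exact lt_of_lt_of_eq (hb_pos (K'.pos j _ ((A.e j).map_target hz)) hv) h1.symm
  have hpos : Pos D.J (D.om + ddc D.J φ h4') :=
    eqv_Pos (hgk.pull_pull _) (pull_Pos hk hgk.symm.imm (eqv_Pos hpull.symm hpos'))
  refine ⟨φ, hJ, ht, hp, h4', hpos, s * Real.exp (2 * c), ?_⟩
  -- the equation
  intro i z hz
  obtain ⟨j, hj⟩ := Cmp.exists_mov (ofAtl A) (C' := C) (j := i) hz
  have hy : mt (ofAtl A) C j i z ∈ mov C (ofAtl A) i j := Cmp.mt_mem hj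
  have hyz : mt C (ofAtl A) i j (mt (ofAtl A) C j i z) = z := Cmp.mt_mt hj
  have hxz : (C.e i).symm z = (A.e j).symm (mt (ofAtl A) C j i z) :=
    ((A.e j).left_inv hj.2).symm
  set y := mt (ofAtl A) C j i z with hy0
  have hx : (A.e j).symm y ∈ (A.e j).source := (A.e j).map_target hy.1
  have hyd : y ∈ dom C (ofAtl A) g.f i j := hy
  have hJy : ∀ v, fderiv ℝ (mt C (ofAtl A) i j) y (I • v) =
      D.J.J i z (fderiv ℝ (mt C (ofAtl A) i j) y v) := by
    intro v
    have h1 := hg.h i j y hyd v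
    have h2 : Dif_268.loc C (ofAtl A) g.f i j y = z := hyz
    rw [h2] at h1
    exact h1
  -- the basis of `Cn n`
  let L : Cn n ≃ₗ[ℝ] V :=
    { (fderiv ℝ (mt C (ofAtl A) i j) y : Cn n →ₗ[ℝ] V) with
      invFun := fderiv ℝ (mt (ofAtl A) C j i) (mt C (ofAtl A) i j y)
      left_inv := fun v => hc.d_d hy v
      right_inv := fun v => hc.d_d' hy v }
  have hL : ∀ v, L v = fderiv ℝ (mt C (ofAtl A) i j) y v := fun v => rfl
  set b' : Module.Basis κ ℝ (Cn n) := b.map L.symm with hb'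
  have hbL : ∀ m, b m = L (b' m) := fun m => by
    rw [hb', Module.Basis.map_apply, LinearEquiv.apply_symm_apply]
  -- determinants of forms which are read as Hermitian forms
  have key : ∀ (w : F2 C) (G : Matrix (Fin n) (Fin n) ℂ), G.IsHermitian →
      (∀ a c, (g.pull w).w j y a c = (I * hb G a c).re) →
      detB b (fun x x' => w.w i z x (D.J.J i z x')) =
        G.det.re ^ 2 * detB b' (fun x y => (⟪x, y⟫_ℝ : ℝ)) := by
    intro w G hG hw
    rw [← detB_hb b' hG]
    unfold detB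
    congr 1
    ext m l
    show w.w i z (b m) (D.J.J i z (b l)) = (hb G (b' m) (b' l)).re
    rw [hbL m, hbL l, hL, hL, ← hJy, ← re_I_hb' G, ← hw, g.pull_w w hyd]
    have h2 : Dif_268.loc C (ofAtl A) g.f i j y = z := hyz
    rw [h2]
    rfl
  have hH0 : (K.g j ((A.e j).symm y)).IsHermitian := (K.pos j _ hx).isHermitian
  have hH' : (K'.g j ((A.e j).symm y)).IsHermitian := (K'.pos j _ hx).isHermitian
  have e0 := key D.om _ hH0 fun a c => by
    have e3 := K11.f2_w (W.k11 hW) (i := j) hy.1 a c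
    rw [F2.k11_f2 W hW hy.1] at e3
    exact e3
  have e1 := key (D.om + ddc D.J φ h4') _ hH' fun a c => by
    rw [hpull j y hy.1, hval j y hy.1]
  have h4d := hd j _ hx
  have h5 : (K'.g j ((A.e j).symm y)).det.re =
      Real.exp ((1 / 2 : ℝ) * Real.log (Rt b D ((A.e j).symm y)) + c) *
        (K.g j ((A.e j).symm y)).det.re := by
    rw [h4d, Complex.re_ofReal_mul]
  have h6 : Real.exp ((1 / 2 : ℝ) * Real.log (Rt b D ((A.e j).symm y)) + c) ^ 2 =
      s * Rt b D ((A.e j).symm y) * Real.exp (2 * c) := by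
    rw [← hs, ← Real.exp_log_eq_abs (Rt_ne b D hp hr _), ← Real.exp_nat_mul, ← Real.exp_add]
    congr 1
    push_cast
    ring
  have h7 : Rt b D ((A.e j).symm y) = D.r.r i z / dJ b D.J D.om i z := by
    rw [← hxz, Rt_eq b D ((C.e i).map_target hz), (C.e i).right_inv hz]
  have hw0 : dJ b D.J D.om i z ≠ 0 := dJ_ne b hp hz
  have e0' : dJ b D.J D.om i z = _ := e0
  rw [e1, h5, mul_pow, h6, h7, mul_assoc, ← e0']
  field_simp

omit [MeasurableSpace V] [BorelSpace V] [CompactSpace X] [T2Space X] in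
/-- the dimension of a space with an almost complex structure is even -/
theorem finrank_even {J : AJ C} (hJ : Cx J) : ∃ n, Module.finrank ℝ V = 2 * n := by
  obtain ⟨x⟩ := (inferInstance : Nonempty X)
  obtain ⟨i, hi⟩ := C.cover x
  have hz := (C.e i).map_source hi
  set T : V →ₗ[ℝ] V := (J.J i (C.e i x) : V →ₗ[ℝ] V) with hT
  have h1 : T ∘ₗ T = (-1 : ℝ) • LinearMap.id := by
    ext v
    show J.J i _ (J.J i _ v) = _
    rw [hJ.sq i _ hz]
    simp
  have h2 := congrArg LinearMap.det h1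
  rw [LinearMap.det_comp, LinearMap.det_smul, LinearMap.det_id, mul_one] at h2
  have h3 : Even (Module.finrank ℝ V) := by
    by_contra h
    rw [Nat.not_even_iff_odd] at h
    rw [h.neg_one_pow] at h2
    nlinarith [mul_self_nonneg (LinearMap.det T)]
  obtain ⟨n, hn⟩ := h3
  exact ⟨n, by rw [hn]; ring⟩

/-- **existence of a solution of the Monge-Ampere equation for one member** -/
theorem exists_solMA (b : Module.Basis κ ℝ V) (D : Dat C)
    (hJ : Cx D.J) (ht : T11 D.J D.om) (hp : Pos D.J D.om)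
    (hr : ∀ i, ∀ z ∈ (C.e i).target, D.r.r i z ≠ 0) : ∃ u, SolMA b D u := by
  obtain ⟨n, hn⟩ := finrank_even (C := C) hJ
  exact exists_solMA' (Crest.Agent.R260.NN6_900.nnat n V hn) b D hJ ht hp hr

/-- a solution with `u x₁ = 0` -/
theorem exists_solMA_norm (b : Module.Basis κ ℝ V) (D : Dat C)
    (hJ : Cx D.J) (ht : T11 D.J D.om) (hp : Pos D.J D.om)
    (hr : ∀ i, ∀ z ∈ (C.e i).target, D.r.r i z ≠ 0) (x₁ : X) : ∃ u, SolMA b D u ∧ u x₁ = 0 := by
  obtain ⟨u, hu⟩ := exists_solMA b D hJ ht hp hr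
  exact ⟨fun x => u x - u x₁, SolMA.cst D u (u x₁) hu, sub_self _⟩

end

end Crest.Agent.R281.YVMa_449
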