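import Crest.Agent.R281.Yv8_900
import Crest.Agent.R281.YVMa2_449

/-!
# Row 281, YAU-VAR (helper457), (L7) TR: the transport to holomorphic charts

* `TForm X`  : the T-formula (leaf L4) for all families over `X`
* `v0_of`    : `TForm X → V0 C (SolMA b)`
* `js_of`    : jointly smooth families of solutions
-/

set_option autoImplicit false
set_option maxSynthPendingDepth 3
set_option linter.unusedSectionVars false

open Set Filter Topology Complex
open scoped ContDiff

namespace Crest.Agent.R281.Ly3_457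

open Crest.Agent.R275.Geo Crest.Agent.R275.Core144 Crest.Agent.R275.EDR890
open Crest.Agent.R273.Defs_333 Crest.Agent.R273.Kah_333
open Crest.Agent.R273.YauDefs_635 Crest.Agent.R273.SchF_152
open Crest.Agent.R260.ACM_580 Crest.Agent.R281.HkR_835 Crest.Agent.R281.NefO_476
open Crest.Agent.R281.Nef_252 Crest.Agent.R281.Tt_476 Crest.Agent.R281.Yv_900
open Crest.Agent.R281.Dif_268 Crest.Agent.R281.YVMa_449

noncomputable section

/-- the T-formula (leaf L4) for all families over `X` -/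
def TForm (X : Type) [TopologicalSpace X] : Prop :=
  ∀ (n : ℕ) (A : Atl n X) (ι : Type) [Fintype ι] [DecidableEq ι] (b : Module.Basis ι ℝ (Cn n))
    (P : Type) [NormedAddCommGroup P] [NormedSpace ℝ P] [FiniteDimensional ℝ P] (T : Set P)
    (D : P → Dat (ofAtl A)) (B : Cb A) (u0 : X → ℝ) (k0 : ℝ) (p0 : P),
    TH b D u0 k0 T p0 → TSt b B D u0 k0 p0

variable {V X : Type} [NormedAddCommGroup V] [NormedSpace ℝ V] [TopologicalSpace X]
  {C : RCh V X} {κ : Type} [Fintype κ] [DecidableEq κ] [FiniteDimensional ℝ V]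
  [MeasurableSpace V] [BorelSpace V] [CompactSpace X] [T2Space X] [ConnectedSpace X]

/-- smoothness at one parameter, with Newlander-Nirenberg as a hypothesis -/
theorem v0_at {n : ℕ} (hNN : NNat V n) (hn : Module.finrank ℝ V = 2 * n)
    (hTF : TForm X) (b : Module.Basis κ ℝ V) {E : Type} [NormedAddCommGroup E]
    [NormedSpace ℝ E] [FiniteDimensional ℝ E] {T : Set E} (hT : IsOpen T) {x1 : X}
    {D : E → Dat C} {u : E → X → ℝ} (hD : JSDat T D) (hu : ∀ p ∈ T, SolMA b (D p) (u p))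
    (h1 : ∀ p ∈ T, u p x1 = 0) {p0 : E} (hp : p0 ∈ T) (x : X) :
    ContDiffAt ℝ ∞ (fun p => u p x) p0 := by
  have hJ : Cx (D p0).J := (hu p0 hp).cx
  obtain ⟨A, hf, -, ⟨P⟩, hA⟩ := exists_atlJ hNN (D p0).J hJ
  have hc : Cmp C (ofAtl A) := cmp_acmJ hA
  have hg : HolM (SMap.ofCmp hc) (jA A) (D p0).J := holM_acmJ hA
  set g : LD (ofAtl A) C := LD.ofCmp hc with hg0
  have hfr : Module.finrank ℝ V = Module.finrank ℝ (Cn n) := by
    rw [hn, ← Module.finrank_mul_finrank ℝ ℂ (Cn n)]
    simp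
  let L : V ≃ₗ[ℝ] Cn n := LinearEquiv.ofFinrankEq _ _ hfr
  set b' : Module.Basis κ ℝ (Cn n) := b.map L with hb'
  have hD' : JSDat T fun p : E => (D p).pullB b' b g := hD.pullC b' b hT g
  have hu' : ∀ p ∈ T, SolMA b' ((D p).pullB b' b g) (u p) := fun p hpT =>
    SolMA.pullB (D p) (u p) g (hu p hpT)
  have hJ' : ∀ i, ∀ z ∈ (A.e i).target, ∀ v, ((D p0).pullB b' b g).J.J i z v = Complex.I • v := by
    intro j z hz v
    obtain ⟨i, hi⟩ := g.exists_dom (C := C) (C' := ofAtl A) (j := j) hz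
    refine g.injD hi ?_
    have e1 := g.pJ_spec (D p0).J hi v
    have e2 := hg.h i j z hi v
    exact e1.trans e2.symm
  exact v0_atl_T P b' hT hD' hu' h1 hp hJ' (fun B k0 h => hTF _ _ _ _ _ _ _ _ _ _ _ h) x

/-- **(L7) TR**: smoothness in the parameters, from the T-formula -/
theorem v0_of (hTF : TForm X) (b : Module.Basis κ ℝ V) : V0 C (SolMA (C := C) b) := by
  intro E _ _ _ T x1 D u hT hD hu h1 x p hp
  obtain ⟨n, hn⟩ := finrank_even (C := C) (hu p hp).cx
  exact (v0_at (Crest.Agent.R260.NN6_900.nnat n V hn) hn hTF b hT hD hu h1 hp x).contDiffWithinAt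

/-- **YAU-VAR** from the T-formula: the solutions form a jointly smooth family -/
theorem js_of (hTF : TForm X) (b : Module.Basis κ ℝ V) {E : Type} [NormedAddCommGroup E]
    [NormedSpace ℝ E] [FiniteDimensional ℝ E] {T : Set E} (hT : IsOpen T) {x1 : X}
    {D : E → Dat C} {u : E → X → ℝ} (hD : JSDat T D) (hu : ∀ p ∈ T, SolMA b (D p) (u p))
    (h1 : ∀ p ∈ T, u p x1 = 0) : JS0 C T u :=
  joint_MA (v0_of hTF b) hT hD hu h1

end

end Crest.Agent.R281.Ly3_457
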