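import Crest.Agent.R281.Yv6_900

/-!
# Row 281, YAU-VAR (L4) T-FORMULA (helper846): the derivative of the operator at `p0`
-/

set_option autoImplicit false
set_option maxSynthPendingDepth 3
set_option linter.unusedSectionVars false

open Set Filter Topology Metric Complex
open scoped ContDiff Matrix ComplexConjugate ComplexOrder

namespace Crest.Agent.R281.Yt_846

open Crest.Agent.R275.Geo Crest.Agent.R275.Core144 Crest.Agent.R275.EDR890
open Crest.Agent.R273.Defs_333 Crest.Agent.R273.Kah_333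
open Crest.Agent.R273.YauDefs_635 Crest.Agent.R273.SchF_152 Crest.Agent.R273.SchG_152
open Crest.Agent.R273.SchH_152
open Crest.Agent.R260.ACM_580 Crest.Agent.R281.HkR_835 Crest.Agent.R281.NefO_476
open Crest.Agent.R281.Nef_252 Crest.Agent.R281.Hjs_680 Crest.Agent.R281.Tt_476
open Crest.Agent.R281.Yv_900 Crest.Agent.R281.Uq_250

noncomputable section

variable {n : ℕ} {X : Type} [TopologicalSpace X] {A : Atl n X}
variable {ι : Type} [Fintype ι] [DecidableEq ι] {b : Module.Basis ι ℝ (Cn n)} {B : Cb A}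
  {P : Type} [NormedAddCommGroup P] [NormedSpace ℝ P] {D : P → Dat (ofAtl A)} {u0 : X → ℝ}
  {k0 : ℝ} {T : Set P} {p0 : P}

/-- the real part of `hb G a c` from the form of `G` -/
theorem re_I_hb' (G : Matrix (Fin n) (Fin n) ℂ) (a c : Cn n) :
    (I * hb G a (I • c)).re = (hb G a c).re := by
  rw [hb_I_right]
  have : I * (-I * hb G a c) = hb G a c := by linear_combination (-hb G a c) * I_mul_I
  rw [this]

theorem J_eq (h : TH b D u0 k0 T p0) {i : A.ι} {z : Cn n} (hz : z ∈ (A.e i).target) :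
    (D p0).J.J i z = iL := by
  ext1 v
  rw [h.hJ i z hz v, iL_apply]

/-- the form `om + dd^c u0` has type (1,1) -/
theorem t11 (h : TH b D u0 k0 T p0) : T11 (jA A) ((D p0).om + ddc (D p0).J u0 h.sol.sm) := by
  intro i z hz u v
  have h1 := h.sol.t11 i z hz u v
  have h2 := ddc_T11 h.sol.cx u0 h.sol.sm i z hz u v
  rw [h.hJ i z hz, h.hJ i z hz] at h1 h2
  show ((D p0).om + ddc (D p0).J u0 h.sol.sm).w i z (I • u) (I • v) = _
  rw [F2.add_w]
  simp only [add_apply]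
  rw [h1, h2]

/-- the metric of `om + dd^c u0` -/
def kk (h : TH b D u0 k0 T p0) : Kah A :=
  (((D p0).om + ddc (D p0).J u0 h.sol.sm).k11 (t11 h)).kah ((pos_f2 _).1 (by
    intro i z hz v hv
    rw [F2.k11_f2 _ (t11 h) hz]
    have h1 := h.sol.pos i z hz v hv
    rw [h.hJ i z hz] at h1
    exact h1))

theorem bt_kk (h : TH b D u0 k0 T p0) {i : A.ι} {z : Cn n} (hz : z ∈ (A.e i).target)
    (a c : Cn n) : bt D u0 i p0 z a c = (hb ((kk h).g i ((A.e i).symm z)) a c).re := by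
  rw [← bt_eq h.sol.sm hz, ← F2.k11_f2 _ (t11 h) hz, h.hJ i z hz, K11.f2_w _ hz, re_I_hb']
  rfl

/-- the part of the operator which is linear in the jet -/
theorem lin_kk (h : TH b D u0 k0 T p0) {i : A.ι} {w : Cn n → ℝ}
    (hw : ContDiffOn ℝ ∞ w (A.e i).target) {z : Cn n} (hz : z ∈ (A.e i).target) (a c : Cn n) :
    c2 ((D p0).J.J i) a c z (fderiv ℝ (fderiv ℝ w) z) + c1 ((D p0).J.J i) a c z (fderiv ℝ w z) =
      (hb ((4 : ℂ) • cH w z) a c).re := by
  rw [← Yv_900.ddcF_eq]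
  have h1 : ContDiffAt ℝ 2 w z :=
    (hw.contDiffAt ((A.e i).open_target.mem_nhds hz)).of_le (WithTop.coe_le_coe.2 le_top)
  have h2 : ((D p0).J.J i) =ᶠ[𝓝 z] fun _ => (iL : Cn n →L[ℝ] Cn n) := by
    filter_upwards [(A.e i).open_target.mem_nhds hz] with y hy using J_eq h hy
  have h3 : ddcF w ((D p0).J.J i) z a ((D p0).J.J i z c) = ddcF w (fun _ => iL) z a (I • c) := by
    rw [h.hJ i z hz c]
    unfold ddcF
    rw [h2.fderiv_eq, h2.self_of_nhds]
  rw [h3, ddcF_iL h1, re_I_hb']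

theorem MM_kk (h : TH b D u0 k0 T p0) (w : SmE A) {i : A.ι} {z : Cn n}
    (hz : z ∈ (A.e i).target) (s : ℝ) :
    MM b D u0 i p0 z (s • fderiv ℝ (inC A i w) z) (s • fderiv ℝ (fderiv ℝ (inC A i w)) z) =
      RM b ((kk h).g i ((A.e i).symm z)) + s • RM b ((4 : ℂ) • cH (inC A i w) z) := by
  ext a c
  have h1 := bt_kk h hz (b a) (b c)
  have h2 := lin_kk h (SmE.cd w i) hz (b a) (b c)
  simp only [MM, Matrix.of_apply, Matrix.add_apply, Matrix.smul_apply, map_smul, smul_eq_mul]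
  show _ = (hb ((kk h).g i ((A.e i).symm z)) (b a) (b c)).re +
    s * (hb ((4 : ℂ) • cH (inC A i w) z) (b a) (b c)).re
  rw [h1, ← h2]
  ring

/-- **(L4) T-FORMULA** -/
theorem tst (h : TH b D u0 k0 T p0) : TSt b B D u0 k0 p0 := by
  refine ⟨kk h, fun w f hwf => ?_⟩
  have hsm : A.Sm u0 := h.sol.sm
  have hd : HasFDerivAt (fun x : JJ B => GG b B D u0 k0 p0 x)
      (fderiv ℝ (GG b B D u0 k0 p0) 0) 0 := by
    have h1 : ContDiffAt ℝ ∞ (fun q : P × JJ B => GG b B D u0 k0 q.1 q.2) (p0, 0) :=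
      (contDiffOn_GG b B u0 k0 h.hT h.hD hsm h.hr).contDiffAt
        ((h.hT.prod isOpen_univ).mem_nhds ⟨h.hp, mem_univ _⟩)
    have h2 : ContDiffAt ℝ ∞ (fun x : JJ B => GG b B D u0 k0 p0 x) 0 :=
      ContDiffAt.comp (g := fun q : P × JJ B => GG b B D u0 k0 q.1 q.2)
        (f := fun x : JJ B => (p0, x)) 0 h1 (contDiffAt_const.prodMk contDiffAt_id)
    exact (h2.differentiableAt (by simp)).hasFDerivAt
  funext k
  refine Hol.ext fun z hz => ?_
  have hzt := KK_sub B k hz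
  set G := (kk h).g (B.i k) ((A.e (B.i k)).symm z) with hG
  have hGp : G.PosDef := (kk h).pos _ _ ((A.e (B.i k)).map_target hzt)
  have hG0 : G.det ≠ 0 := hGp.det_pos.ne'
  -- the curve
  have c1' : HasDerivAt (fun s : ℝ => Hol.fn (GG b B D u0 k0 p0 (s • jj B w) k) z)
      (Hol.fn (fderiv ℝ (GG b B D u0 k0 p0) 0 (jj B w) k) z) 0 := by
    have e1 : HasDerivAt (fun s : ℝ => s • jj B w) (jj B w) 0 := by
      have := (hasDerivAt_id (0 : ℝ)).smul_const (jj B w)
      simpa using this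
    have e2 : HasDerivAt (fun s : ℝ => GG b B D u0 k0 p0 (s • jj B w))
        (fderiv ℝ (GG b B D u0 k0 p0) 0 (jj B w)) 0 := by
      refine HasFDerivAt.comp_hasDerivAt (0 : ℝ) (l := fun x : JJ B => GG b B D u0 k0 p0 x) ?_ e1
      rw [zero_smul]
      exact hd
    exact (Hol.valL z).hasFDerivAt.comp_hasDerivAt (0 : ℝ) ((hasDerivAt_pi.1 e2) k)
  have e3 : (RM b G).det = k0 * (D p0).r.r (B.i k) z := by
    rw [← h.eq (B.i k) z hzt]
    have := MM_kk h w hzt 0
    rw [zero_smul, zero_smul, zero_smul, add_zero] at this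
    rw [this]
  have e4 : ∀ s : ℝ, Hol.fn (GG b B D u0 k0 p0 (s • jj B w) k) z =
      (RM b G + s • RM b ((4 : ℂ) • cH (inC A (B.i k) w) z)).det / (RM b G).det := by
    intro s
    rw [fn_GG b B u0 k0 h.hT h.hD hsm h.hr k h.hp _ hz]
    have e5 : HF.fn ((s • jj B w) k).2.1 z = s • fderiv ℝ (inC A (B.i k) w) z := by
      rw [← fn_jj1 B w k hz]
      exact HF.fn_smul _ _ _
    have e6 : HF.fn ((s • jj B w) k).2.2 z = s • fderiv ℝ (fderiv ℝ (inC A (B.i k) w)) z := by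
      rw [← fn_jj2 B w k hz]
      exact HF.fn_smul _ _ _
    rw [e5, e6, MM_kk h w hzt s, e3, div_eq_mul_inv]
  have c2' : HasDerivAt (fun s : ℝ => Hol.fn (GG b B D u0 k0 p0 (s • jj B w) k) z)
      (2 * ((G⁻¹ * ((4 : ℂ) • cH (inC A (B.i k) w) z)).trace).re) 0 :=
    (hasDerivAt_RM b hG0 _).congr_of_eventuallyEq (Eventually.of_forall e4)
  have e7 := c1'.unique c2'
  rw [e7, fn_hh B _ k hz]
  have e8 := hwf (B.i k) z hzt
  have e9 : inC A (B.i k) ((8 : ℝ) • f : SmE A) z = 8 * inC A (B.i k) f z := rfl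
  rw [e9]
  have e10 : (gi (kk h) (B.i k) z * cH (inC A (B.i k) w) z).trace.re = inC A (B.i k) f z := e8
  rw [← e10, Matrix.mul_smul, Matrix.trace_smul]
  have e11 : gi (kk h) (B.i k) z = G⁻¹ := rfl
  rw [e11]
  simp
  ring

end

end Crest.Agent.R281.Yt_846
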