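import Crest.Agent.R281.Ly3_457
import Crest.Agent.R281.Yt1_846

/-!
# Row 281, **YAU-VAR** (helper457): the solutions of a jointly smooth family of Monge-Ampere
equations form a jointly smooth family

* `tForm` : `TForm X` (846's `tst`)
* `v0`    : `V0 C (SolMA b)`
* `js`    : `JS0 C T u`
-/

set_option autoImplicit false
set_option maxSynthPendingDepth 3
set_option linter.unusedSectionVars false

open Set Filter Topology Complex
open scoped ContDiff

namespace Crest.Agent.R281.Ly4_457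

open Crest.Agent.R275.Geo Crest.Agent.R275.Core144 Crest.Agent.R275.EDR890
open Crest.Agent.R273.Defs_333 Crest.Agent.R273.Kah_333
open Crest.Agent.R273.YauDefs_635 Crest.Agent.R273.SchF_152
open Crest.Agent.R260.ACM_580 Crest.Agent.R281.HkR_835 Crest.Agent.R281.NefO_476
open Crest.Agent.R281.Nef_252 Crest.Agent.R281.Tt_476 Crest.Agent.R281.Yv_900
open Crest.Agent.R281.Ly3_457

noncomputable section

theorem tForm (X : Type) [TopologicalSpace X] : TForm X :=
  fun _ _ _ _ _ _ _ _ _ _ _ _ _ _ _ _ h => Yt_846.tst h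

variable {V X : Type} [NormedAddCommGroup V] [NormedSpace ℝ V] [TopologicalSpace X]
  {C : RCh V X} {κ : Type} [Fintype κ] [DecidableEq κ] [FiniteDimensional ℝ V]
  [MeasurableSpace V] [BorelSpace V] [CompactSpace X] [T2Space X] [ConnectedSpace X]

/-- smoothness in the parameters of the solutions of the Monge-Ampere equation -/
theorem v0 (b : Module.Basis κ ℝ V) : V0 C (SolMA (C := C) b) := v0_of (tForm X) b

/-- **YAU-VAR** -/
theorem js (b : Module.Basis κ ℝ V) {E : Type} [NormedAddCommGroup E]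
    [NormedSpace ℝ E] [FiniteDimensional ℝ E] {T : Set E} (hT : IsOpen T) {x1 : X}
    {D : E → Dat C} {u : E → X → ℝ} (hD : JSDat T D) (hu : ∀ p ∈ T, SolMA b (D p) (u p))
    (h1 : ∀ p ∈ T, u p x1 = 0) : JS0 C T u :=
  js_of (tForm X) b hT hD hu h1

/-- **YAU-VAR with existence**: a jointly smooth family of solutions -/
theorem exists_js (b : Module.Basis κ ℝ V) {E : Type} [NormedAddCommGroup E]
    [NormedSpace ℝ E] [FiniteDimensional ℝ E] {T : Set E} (hT : IsOpen T) (x1 : X)
    {D : E → Dat C} (hD : JSDat T D) (hJ : ∀ p ∈ T, Cx (D p).J)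
    (ht : ∀ p ∈ T, T11 (D p).J (D p).om) (hp : ∀ p ∈ T, Pos (D p).J (D p).om)
    (hr : ∀ p ∈ T, ∀ i, ∀ z ∈ (C.e i).target, (D p).r.r i z ≠ 0) :
    ∃ u : E → X → ℝ, (∀ p ∈ T, SolMA b (D p) (u p) ∧ u p x1 = 0) ∧ JS0 C T u := by
  classical
  have h : ∀ p : E, ∃ u : X → ℝ, p ∈ T → SolMA b (D p) u ∧ u x1 = 0 := by
    intro p
    by_cases hpT : p ∈ T
    · obtain ⟨u, hu⟩ := YVMa_449.exists_solMA_norm b (D p) (hJ p hpT) (ht p hpT) (hp p hpT)
        (hr p hpT) x1
      exact ⟨u, fun _ => hu⟩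
    · exact ⟨0, fun h => absurd h hpT⟩
  choose u hu using h
  exact ⟨u, fun p hpT => hu p hpT, js b hT hD (fun p hpT => (hu p hpT).1)
    fun p hpT => (hu p hpT).2⟩

end

end Crest.Agent.R281.Ly4_457
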