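import Crest.Agent.R281.Yv5_900
import Crest.Agent.R273.SchJ_152
import Crest.Agent.R273.CLinE_933

/-!
# Row 281, YAU-VAR (L3) of 900 #8246 (helper449): LIN, the linear theory in the jet norms

* `NH_of_hh`, `norm_jj_le`, `norm_hh_le` : comparison of the norms
* `linSt` : **`LinSt B K x1`** of `Yv5_900`
-/

set_option autoImplicit false
set_option linter.unusedSectionVars false
set_option maxSynthPendingDepth 3

open Set Filter Topology Metric
open scoped ContDiff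

namespace Crest.Agent.R281.Lz_449

open Crest.Agent.R275.Geo Crest.Agent.R275.Core144 Crest.Agent.R275.EDR890
open Crest.Agent.R275.GC293
open Crest.Agent.R273.Kah_333 Crest.Agent.R273.Hess_333 Crest.Agent.R273.HessB_333
open Crest.Agent.R273.Defs_333 Crest.Agent.R273.HM_333 Crest.Agent.R273.Vol_333
open Crest.Agent.R273.YauDefs_635 Crest.Agent.R273.SchA_152 Crest.Agent.R273.SchD_152
open Crest.Agent.R273.SchE_152 Crest.Agent.R273.SchF_152 Crest.Agent.R273.SchG_152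
open Crest.Agent.R273.SchH_152 Crest.Agent.R273.SchI_152 Crest.Agent.R273.SchJ_152
open Crest.Agent.R273.GreenM_5 Crest.Agent.R273.CLin_933
open Crest.Agent.R281.Hjs_680 Crest.Agent.R281.Yv_900

noncomputable section

variable {n : ℕ} {X : Type} [TopologicalSpace X] {A : Atl n X}

section norm

variable (B : Cb A)

/-- the norm of `hh f` bounds the Hölder norm -/
theorem NH_of_hh (f : SmE A) : B.NH (1 / 2) (‖hh B f‖ / 2) (f : X → ℝ) := by
  intro k
  have h1 : ‖hh B f k‖ ≤ ‖hh B f‖ := norm_le_pi_norm _ k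
  have h2 := (Hol.bd (hh B f k)).congr (g := inC A (B.i k) (f : X → ℝ)) fun z hz =>
    (fn_hh B f k hz).symm
  exact HO.mono ⟨h2.bd, h2.hol⟩ (by linarith)

/-- a `C^{2,1/2}` bound is a bound of the jets -/
theorem norm_jj_le (f : SmE A) {N : ℝ} (hN : 0 ≤ N) (h : B.N2 (1 / 2) N (f : X → ℝ)) :
    ‖jj B f‖ ≤ N := by
  refine (pi_norm_le_iff_of_nonneg hN).2 fun k => ?_
  have h1 := h k
  exact norm_jet_le (KK_compact B k) (KK_convex B k)
    (A.e (B.i k)).open_target (KK_sub B k) ⟨hN, h1.h0.bdd, h1.h0.hol⟩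
    ⟨hN, h1.h1.bdd, h1.h1.hol⟩ ⟨hN, h1.h2.bdd, h1.h2.hol⟩

/-- a Hölder bound is a bound of `hh` -/
theorem norm_hh_le (f : SmE A) {N : ℝ} (hN : 0 ≤ N) (h : B.NH (1 / 2) N (f : X → ℝ)) :
    ‖hh B f‖ ≤ 2 * N := by
  refine (pi_norm_le_iff_of_nonneg (by positivity)).2 fun k => ?_
  exact Hol.norm_of ⟨hN, (h k).bdd, (h k).hol⟩

end norm

theorem Lap_eq_lapK (K : Kah A) {u : X → ℝ} (hu : A.Sm u) (x : X) : Lap K u x = lapK K u x := by
  obtain ⟨i, hi⟩ := A.cover x
  rw [Lap, LapC_eq K hu hi, lapK_eq K hu hi]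
  rfl

theorem NH_mul {B : Cb A} {a N c : ℝ} {f : X → ℝ} (h : B.NH a N f) (hc : 0 ≤ c) :
    B.NH a (c * N) (fun x => c * f x) := by
  intro k
  refine ⟨fun z hz => ?_, fun z hz w hw => ?_⟩
  · have h1 := (h k).bdd z hz
    have h2 : inC A (B.i k) (fun x => c * f x) z = c * inC A (B.i k) f z := rfl
    rw [h2, norm_mul, Real.norm_eq_abs c, abs_of_nonneg hc]
    exact mul_le_mul_of_nonneg_left h1 hc
  · have h1 := (h k).hol z hz w hw
    have h2 : inC A (B.i k) (fun x => c * f x) z - inC A (B.i k) (fun x => c * f x) w =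
        c * (inC A (B.i k) f z - inC A (B.i k) f w) := by
      simp only [inC]
      ring
    rw [h2, norm_mul, Real.norm_eq_abs c, abs_of_nonneg hc, mul_assoc]
    exact mul_le_mul_of_nonneg_left h1 hc

theorem NH_sub_const {B : Cb A} {a N m : ℝ} {f : X → ℝ} (h : B.NH a N f) (hN : 0 ≤ N)
    (hm : |m| ≤ N) : B.NH a (2 * N) (fun x => f x - m) := by
  intro k
  refine ⟨fun z hz => ?_, fun z hz w hw => ?_⟩
  · have h1 := (h k).bdd z hz
    have h2 : inC A (B.i k) (fun x => f x - m) z = inC A (B.i k) f z - m := rfl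
    rw [h2]
    refine (norm_sub_le _ _).trans ?_
    rw [Real.norm_eq_abs m]
    linarith
  · have h1 := (h k).hol z hz w hw
    have h2 : inC A (B.i k) (fun x => f x - m) z - inC A (B.i k) (fun x => f x - m) w =
        inC A (B.i k) f z - inC A (B.i k) f w := by
      simp only [inC]
      ring
    rw [h2]
    refine h1.trans (mul_le_mul_of_nonneg_right (by linarith) (Real.rpow_nonneg (norm_nonneg _) _))

theorem Lap_sub_const (K : Kah A) {u : X → ℝ} (hu : A.Sm u) (c : ℝ) (x : X) :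
    Lap K (fun y => u y - c) x = Lap K u x := by
  have h1 : IsLap (gi K) (fun y => u y - c) (Lap K u) := isLap_sub_const (isLap K hu) c
  exact congrFun (lap_of_isLap K (sm_sub_const hu c) h1) x

variable [T2Space X] [CompactSpace X] [ConnectedSpace X] [Finite A.ι]

/-- **(L3), existence with estimate** -/
theorem lin_ex (P₀ : Part A) (K : Kah A) (B : Cb A) :
    ∃ C : ℝ, ∀ f : SmE A, ∃ (w : SmE A) (m : ℝ),
      IsLap (gi K) w (fun x => 8⁻¹ * (f.1 x + m)) ∧
      ‖jj B w‖ ≤ C * ‖hh B f‖ ∧ |m| ≤ C * ‖hh B f‖ := by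
  obtain ⟨C, hC, hsch⟩ := schauder0 P₀ K B (a := 1 / 2) (by norm_num) (by norm_num)
  refine ⟨max C 1, fun f => ?_⟩
  have hf' : A.Sm (fun x => 8⁻¹ * f.1 x) := fun i => contDiffOn_const.mul (f.2 i)
  obtain ⟨v, m, hv, he⟩ := lin_kah K P₀ hf'
  obtain ⟨x₁⟩ := (inferInstance : Nonempty X)
  set w : X → ℝ := fun x => v x - v x₁ with hw
  have hws : A.Sm w := sm_sub_const hv _
  set N : ℝ := ‖hh B f‖ / 2 with hN
  have hN0 : 0 ≤ N := by positivity
  have h1 : B.NH (1 / 2) (8⁻¹ * N) (fun x => 8⁻¹ * f.1 x) := NH_mul (NH_of_hh B f) (by norm_num)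
  have hlap : ∀ x, Lap K w x = 8⁻¹ * f.1 x - m := by
    intro x
    rw [hw, Lap_sub_const K hv, Lap_eq_lapK K hv, he]
  have hil : IsLap (gi K) w (fun x => 8⁻¹ * f.1 x - m) := by
    have h2 := isLap K hws
    have h3 : Lap K w = fun x => 8⁻¹ * f.1 x - m := funext hlap
    rwa [h3] at h2
  have hm : |m| ≤ 8⁻¹ * N := abs_const_le P₀ K hws hil fun x => h1.bdd x
  have h2 := NH_sub_const h1 (by positivity) hm
  have h3 := hsch x₁ w _ _ hws hil h2 (by simp [hw])
  refine ⟨⟨w, hws⟩, -(8 * m), ?_, ?_, ?_⟩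
  · have h4 : (fun x => 8⁻¹ * (f.1 x + -(8 * m))) = fun x => 8⁻¹ * f.1 x - m := by
      funext x
      ring
    rw [h4]
    exact hil
  · have h4 := norm_jj_le B ⟨w, hws⟩ (N := C * (2 * (8⁻¹ * N))) (by positivity) h3
    refine h4.trans ?_
    have h5 : C * (2 * (8⁻¹ * N)) = C * (8⁻¹ * ‖hh B f‖) := by
      rw [hN]
      ring
    rw [h5]
    calc C * (8⁻¹ * ‖hh B f‖) ≤ C * ‖hh B f‖ :=
          mul_le_mul_of_nonneg_left (by linarith [norm_nonneg (hh B f)]) hC.le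
      _ ≤ _ := mul_le_mul_of_nonneg_right (le_max_left _ _) (norm_nonneg _)
  · rw [abs_neg, abs_mul, abs_of_pos (by norm_num : (0 : ℝ) < 8)]
    have h5 : N ≤ ‖hh B f‖ := by
      rw [hN]
      linarith [norm_nonneg (hh B f)]
    calc 8 * |m| ≤ 1 * ‖hh B f‖ := by linarith
      _ ≤ _ := mul_le_mul_of_nonneg_right (le_max_right _ _) (norm_nonneg _)

/-- **(L3), uniqueness** -/
theorem lin_uniq (P₀ : Part A) (K : Kah A) {w : X → ℝ} (hw : A.Sm w)
    {m : ℝ} (h : IsLap (gi K) w (fun _ => 8⁻¹ * m)) {x₁ : X} (hx₁ : w x₁ = 0) : w = 0 ∧ m = 0 := by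
  obtain ⟨B⟩ := Cb.nonempty A
  obtain ⟨C, hC, hsch⟩ := schauder0 P₀ K B (a := 1 / 2) (by norm_num) (by norm_num)
  have hil : IsLap (gi K) w (fun _ => 0 - (-(8⁻¹ * m))) := by
    have h3 : (fun _ : X => 8⁻¹ * m) = fun _ => 0 - (-(8⁻¹ * m)) := by
      funext x
      ring
    rwa [h3] at h
  have hm : |(-(8⁻¹ * m))| ≤ 0 :=
    abs_const_le P₀ K (f := fun _ => (0 : ℝ)) hw hil fun x => by simp
  have hm0 : m = 0 := by
    have h1 := abs_nonpos_iff.1 hm
    linarith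
  refine ⟨?_, hm0⟩
  have hN : B.NH (1 / 2) 0 (fun _ : X => (0 : ℝ) - (-(8⁻¹ * m))) := by
    intro k
    rw [hm0]
    refine ⟨fun z hz => ?_, fun z hz y hy => ?_⟩ <;> simp [inC]
  have h3 := (hsch x₁ w _ 0 hw hil hN hx₁).nh
  funext x
  have h4 := h3.bdd x
  rw [mul_zero] at h4
  exact abs_nonpos_iff.1 h4

/-- **(L3)** -/
theorem linSt (P₀ : Part A) (K : Kah A) (B : Cb A) (x1 : X) : LinSt B K x1 := by
  refine ⟨lin_ex P₀ K B, fun w m h hw => ?_⟩
  obtain ⟨h1, h2⟩ := lin_uniq P₀ K w.2 h hw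
  refine ⟨?_, h2⟩
  have h3 : w = 0 := Subtype.ext h1
  rw [h3, map_zero]

end

end Crest.Agent.R281.Lz_449
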