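import Crest.Agent.R281.HkR2_835
import Mathlib.LinearAlgebra.Alternating.Basic
import Mathlib.LinearAlgebra.Determinant

/-!
# Row 281, TOPINT, part 1 (helper846): products of real 2-forms at a point

* `mlt w`, `wed w` : `w₁ ∧ … ∧ w_N` as an alternating form in `2N` variables (index `K × Fin 2`)
* `TP b w`         : its value on the family `b`
* `TP_comp`        : `TP b (T^* w) = det T * TP b w` for a basis `b`
* `TP_ex`          : if `w k₀ = dη` and the other `w k` are closed, `TP b w` is a divergence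
-/

set_option autoImplicit false
set_option linter.unusedSectionVars false

open Set Filter Topology
open scoped ContDiff

namespace Crest.Agent.R281.Ti_846

open Crest.Agent.R281.HkR_835 Equiv

noncomputable section

variable {V : Type*} [NormedAddCommGroup V] [NormedSpace ℝ V]
variable {K : Type*} [Fintype K] [DecidableEq K]

/-- one factor of the product -/
theorem upd_fst {α : Type*} {D : DecidableEq (K × Fin 2)} (v : K × Fin 2 → α) {k0 k : K}
    (hk : k ≠ k0) (e f : Fin 2) (z : α) : @Function.update _ _ D v (k0, e) z (k, f) = v (k, f) := by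
  rw [Function.update_of_ne (by intro h; exact hk (congrArg Prod.fst h))]

/-- `v ↦ ∏ k, w k (v (k,0), v (k,1))` -/
def mlt (w : K → Bil V) : MultilinearMap ℝ (fun _ : K × Fin 2 => V) ℝ where
  toFun v := ∏ k, w k (v (k, 0)) (v (k, 1))
  map_update_add' := by
    intro D v p x y
    obtain ⟨k0, e⟩ := p
    have h : ∀ z : V, ∏ k,
        w k (Function.update v (k0, e) z (k, 0)) (Function.update v (k0, e) z (k, 1)) =
        (w k0 (Function.update v (k0, e) z (k0, 0)) (Function.update v (k0, e) z (k0, 1))) *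
        ∏ k ∈ Finset.univ.erase k0, w k (v (k, 0)) (v (k, 1)) := by
      intro z
      rw [← Finset.mul_prod_erase _ _ (Finset.mem_univ k0)]
      congr 1
      refine Finset.prod_congr rfl fun k hk => ?_
      rw [upd_fst v (Finset.ne_of_mem_erase hk), upd_fst v (Finset.ne_of_mem_erase hk)]
    rw [h, h, h, ← add_mul]
    congr 1
    fin_cases e <;> simp
  map_update_smul' := by
    intro D v p c x
    obtain ⟨k0, e⟩ := p
    have h : ∀ z : V, ∏ k,
        w k (Function.update v (k0, e) z (k, 0)) (Function.update v (k0, e) z (k, 1)) =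
        (w k0 (Function.update v (k0, e) z (k0, 0)) (Function.update v (k0, e) z (k0, 1))) *
        ∏ k ∈ Finset.univ.erase k0, w k (v (k, 0)) (v (k, 1)) := by
      intro z
      rw [← Finset.mul_prod_erase _ _ (Finset.mem_univ k0)]
      congr 1
      refine Finset.prod_congr rfl fun k hk => ?_
      rw [upd_fst v (Finset.ne_of_mem_erase hk), upd_fst v (Finset.ne_of_mem_erase hk)]
    rw [h, h, smul_eq_mul, ← mul_assoc]
    congr 1
    fin_cases e <;> simp

@[simp] theorem mlt_apply (w : K → Bil V) (v : K × Fin 2 → V) :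
    mlt w v = ∏ k, w k (v (k, 0)) (v (k, 1)) := rfl

/-- `w₁ ∧ … ∧ w_N` (without normalising factor) -/
def wed (w : K → Bil V) : V [⋀^(K × Fin 2)]→ₗ[ℝ] ℝ := MultilinearMap.alternatization (mlt w)

/-- `∑_σ sgn σ ∏ k, w k (b (σ (k,0)), b (σ (k,1)))` -/
def TP (b : K × Fin 2 → V) (w : K → Bil V) : ℝ :=
  ∑ σ : Perm (K × Fin 2), ((Perm.sign σ : ℤ) : ℝ) * ∏ k, w k (b (σ (k, 0))) (b (σ (k, 1)))

theorem wed_apply (w : K → Bil V) (b : K × Fin 2 → V) : wed w b = TP b w := by
  unfold wed TP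
  rw [MultilinearMap.alternatization_apply]
  refine Finset.sum_congr rfl fun σ _ => ?_
  rw [MultilinearMap.domDomCongr_apply, mlt_apply, Units.smul_def, zsmul_eq_mul]

/-- pull back of a bilinear form -/
def pb (T : V →L[ℝ] V) (w : Bil V) : Bil V := (w.comp T).flip.comp T |>.flip

@[simp] theorem pb_apply (T : V →L[ℝ] V) (w : Bil V) (u v : V) : pb T w u v = w (T u) (T v) := rfl

/-- **naturality** -/
theorem TP_comp (b : Module.Basis (K × Fin 2) ℝ V) (T : V →L[ℝ] V) (w : K → Bil V) :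
    TP b (fun k => pb T (w k)) = LinearMap.det (T : V →ₗ[ℝ] V) * TP b w := by
  have h1 : TP b (fun k => pb T (w k)) = wed w (T ∘ b) := by
    rw [wed_apply]
    rfl
  have h2 := AlternatingMap.eq_smul_basis_det b (wed w)
  rw [h1, ← wed_apply w b]
  have h3 : wed w (T ∘ b) = wed w b * b.det (T ∘ b) := by
    conv_lhs => rw [h2]
    rfl
  have h4 := Module.Basis.det_comp b (T : V →ₗ[ℝ] V) b
  rw [b.det_self, mul_one] at h4
  rw [h3]
  have h5 : b.det (T ∘ b) = LinearMap.det (T : V →ₗ[ℝ] V) := h4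
  rw [h5, mul_comm]

theorem TP_comp' (b : Module.Basis (K × Fin 2) ℝ V) (T : V →L[ℝ] V) {w w' : K → Bil V}
    (h : ∀ k u v, w k u v = w' k (T u) (T v)) :
    TP b w = LinearMap.det (T : V →ₗ[ℝ] V) * TP b w' := by
  rw [← TP_comp b T w']
  congr 1
  funext k
  ext u v
  exact h k u v

/-! ### multilinearity, symmetry -/

theorem TP_congr {b : K × Fin 2 → V} {w w' : K → Bil V} (h : ∀ k u v, w k u v = w' k u v) :
    TP b w = TP b w' := by
  unfold TP
  simp only [h]

theorem TP_update_add (b : K × Fin 2 → V) (w : K → Bil V) (k : K) (x y : Bil V) :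
    TP b (Function.update w k (x + y)) =
      TP b (Function.update w k x) + TP b (Function.update w k y) := by
  unfold TP
  rw [← Finset.sum_add_distrib]
  refine Finset.sum_congr rfl fun σ _ => ?_
  rw [← mul_add]
  congr 1
  have h : ∀ z : Bil V, ∏ l, Function.update w k z l (b (σ (l, 0))) (b (σ (l, 1))) =
      z (b (σ (k, 0))) (b (σ (k, 1))) *
        ∏ l ∈ Finset.univ.erase k, w l (b (σ (l, 0))) (b (σ (l, 1))) := by
    intro z
    rw [← Finset.mul_prod_erase _ _ (Finset.mem_univ k), Function.update_self]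
    congr 1
    refine Finset.prod_congr rfl fun l hl => ?_
    rw [Function.update_of_ne (Finset.ne_of_mem_erase hl)]
  rw [h, h, h, ← add_mul]
  simp

theorem TP_update_smul (b : K × Fin 2 → V) (w : K → Bil V) (k : K) (c : ℝ) (x : Bil V) :
    TP b (Function.update w k (c • x)) = c * TP b (Function.update w k x) := by
  unfold TP
  rw [Finset.mul_sum]
  refine Finset.sum_congr rfl fun σ _ => ?_
  have h : ∀ z : Bil V, ∏ l, Function.update w k z l (b (σ (l, 0))) (b (σ (l, 1))) =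
      z (b (σ (k, 0))) (b (σ (k, 1))) *
        ∏ l ∈ Finset.univ.erase k, w l (b (σ (l, 0))) (b (σ (l, 1))) := by
    intro z
    rw [← Finset.mul_prod_erase _ _ (Finset.mem_univ k), Function.update_self]
    congr 1
    refine Finset.prod_congr rfl fun l hl => ?_
    rw [Function.update_of_ne (Finset.ne_of_mem_erase hl)]
  rw [h, h]
  simp only [smul_apply, smul_eq_mul]
  ring

theorem TP_smul (b : K × Fin 2 → V) (w : K → Bil V) (c : K → ℝ) :
    TP b (fun k => c k • w k) = (∏ k, c k) * TP b w := by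
  unfold TP
  rw [Finset.mul_sum]
  refine Finset.sum_congr rfl fun σ _ => ?_
  simp only [smul_apply, smul_eq_mul, Finset.prod_mul_distrib]
  ring

/-- the sign of a permutation of the pairs is one -/
theorem sign_pairs (π : Perm K) :
    Perm.sign (Equiv.prodCongr π (Equiv.refl (Fin 2))) = 1 := by
  have h1 : Equiv.prodCongr π (Equiv.refl (Fin 2)) = Equiv.prodCongrLeft fun _ => π := by
    ext x <;> simp
  rw [h1, Perm.sign_prodCongrLeft]
  simp

/-- **symmetry** -/
theorem TP_perm (b : K × Fin 2 → V) (w : K → Bil V) (π : Perm K) :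
    TP b (fun k => w (π k)) = TP b w := by
  unfold TP
  refine Fintype.sum_equiv (Equiv.mulRight (Equiv.prodCongr π (Equiv.refl (Fin 2))).symm) _ _
    fun σ => ?_
  have h0 : (Equiv.mulRight (Equiv.prodCongr π (Equiv.refl (Fin 2))).symm) σ =
      σ * (Equiv.prodCongr π (Equiv.refl (Fin 2))).symm := rfl
  have h1 : Perm.sign (σ * (Equiv.prodCongr π (Equiv.refl (Fin 2))).symm) = Perm.sign σ := by
    rw [Perm.sign_mul, Perm.sign_symm, sign_pairs, mul_one]
  rw [h0, h1]
  congr 1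
  refine Fintype.prod_equiv π _ _ fun k => ?_
  have h2 : ∀ e : Fin 2, (σ * (Equiv.prodCongr π (Equiv.refl (Fin 2))).symm) (π k, e) =
      σ (k, e) := by
    intro e
    rw [Perm.mul_apply]
    congr 1
    simp
  rw [h2, h2]

/-! ### exact factors -/

/-- the closedness kills the terms with a differentiated factor -/
theorem sum_closed (b : K × Fin 2 → V) {k0 k1 : K} (h : k1 ≠ k0) (D : V → V → V → ℝ)
    (hD : ∀ x y z, D x y z + D y z x + D z x y = 0) (f : K → V → V → ℝ) (g : V → ℝ) :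
    ∑ σ : Perm (K × Fin 2), ((Perm.sign σ : ℤ) : ℝ) *
      (D (b (σ (k0, 0))) (b (σ (k1, 0))) (b (σ (k1, 1))) *
        ((∏ k ∈ (Finset.univ.erase k0).erase k1, f k (b (σ (k, 0))) (b (σ (k, 1)))) *
          g (b (σ (k0, 1))))) = 0 := by
  set R : Perm (K × Fin 2) → ℝ := fun σ =>
    (∏ k ∈ (Finset.univ.erase k0).erase k1, f k (b (σ (k, 0))) (b (σ (k, 1)))) *
          g (b (σ (k0, 1))) with hR
  set F : Perm (K × Fin 2) → ℝ := fun σ => ((Perm.sign σ : ℤ) : ℝ) *
      (D (b (σ (k0, 0))) (b (σ (k1, 0))) (b (σ (k1, 1))) * R σ) with hF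
  have n12 : ((k0, 0) : K × Fin 2) ≠ (k1, 0) := by
    intro h'; exact h (congrArg Prod.fst h').symm
  have n13 : ((k0, 0) : K × Fin 2) ≠ (k1, 1) := by
    intro h'; exact h (congrArg Prod.fst h').symm
  have n23 : ((k1, 0) : K × Fin 2) ≠ (k1, 1) := by
    intro h'; exact zero_ne_one (congrArg Prod.snd h')
  set c : Perm (K × Fin 2) := swap (k0, 0) (k1, 0) * swap (k1, 0) (k1, 1) with hc
  have c1 : c (k0, 0) = (k1, 0) := by
    rw [hc, Perm.mul_apply, swap_apply_of_ne_of_ne n12 n13, swap_apply_left]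
  have c2 : c (k1, 0) = (k1, 1) := by
    rw [hc, Perm.mul_apply, swap_apply_left, swap_apply_of_ne_of_ne n13.symm n23.symm]
  have c3 : c (k1, 1) = (k0, 0) := by
    rw [hc, Perm.mul_apply, swap_apply_right, swap_apply_right]
  have c4 : ∀ p : K × Fin 2, p ≠ (k0, 0) → p ≠ (k1, 0) → p ≠ (k1, 1) → c p = p := by
    intro p h1 h2 h3
    rw [hc, Perm.mul_apply, swap_apply_of_ne_of_ne h2 h3, swap_apply_of_ne_of_ne h1 h2]
  have sc : Perm.sign c = 1 := by
    rw [hc, Perm.sign_mul, Perm.sign_swap n12, Perm.sign_swap n23]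
    rfl
  have hRc : ∀ σ, R (σ * c) = R σ := by
    intro σ
    simp only [hR, Perm.mul_apply]
    rw [c4 (k0, 1) (by simp) (by intro h'; exact h (congrArg Prod.fst h').symm)
      (by intro h'; exact h (congrArg Prod.fst h').symm)]
    congr 1
    refine Finset.prod_congr rfl fun k hk => ?_
    have hk1 := Finset.ne_of_mem_erase hk
    have hk0 := Finset.ne_of_mem_erase (Finset.mem_of_mem_erase hk)
    have hh : ∀ e : Fin 2, c (k, e) = (k, e) := fun e => c4 _
      (by intro h'; exact hk0 (congrArg Prod.fst h')) (by intro h'; exact hk1 (congrArg Prod.fst h'))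
      (by intro h'; exact hk1 (congrArg Prod.fst h'))
    rw [hh, hh]
  have hs : ∀ σ, Perm.sign (σ * c) = Perm.sign σ := by
    intro σ
    rw [Perm.sign_mul, sc, mul_one]
  have e1 : ∑ σ, F σ = ∑ σ, F (σ * c) :=
    (Fintype.sum_equiv (Equiv.mulRight c) _ _ fun σ => rfl).symm
  have e2 : ∑ σ, F σ = ∑ σ, F (σ * c * c) := by
    rw [e1]
    exact (Fintype.sum_equiv (Equiv.mulRight c) (fun σ => F (σ * c * c)) (fun σ => F (σ * c))
      fun σ => rfl).symm
  have e3 : ∀ σ, F σ + F (σ * c) + F (σ * c * c) = 0 := by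
    intro σ
    have f2 : F (σ * c) = ((Perm.sign σ : ℤ) : ℝ) *
        (D (b (σ (k1, 0))) (b (σ (k1, 1))) (b (σ (k0, 0))) * R σ) := by
      simp only [hF, hs, hRc, Perm.mul_apply, c1, c2, c3]
    have f3 : F (σ * c * c) = ((Perm.sign σ : ℤ) : ℝ) *
        (D (b (σ (k1, 1))) (b (σ (k0, 0))) (b (σ (k1, 0))) * R σ) := by
      simp only [hF, hs, hRc, Perm.mul_apply, c1, c2, c3]
    have f1 : F σ = ((Perm.sign σ : ℤ) : ℝ) *
        (D (b (σ (k0, 0))) (b (σ (k1, 0))) (b (σ (k1, 1))) * R σ) := rfl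
    rw [f1, f2, f3, ← mul_add, ← mul_add, ← add_mul, ← add_mul, hD, zero_mul, mul_zero]
  have e4 : ∑ σ, (F σ + F (σ * c) + F (σ * c * c)) = 0 := Finset.sum_eq_zero fun σ _ => e3 σ
  rw [Finset.sum_add_distrib, Finset.sum_add_distrib, ← e1, ← e2] at e4
  have : ∑ σ, F σ = 0 := by linarith
  exact this

/-- the antisymmetric part of a derivative -/
theorem sum_anti (b : K × Fin 2 → V) (k0 : K) (E : V → V → ℝ) (f : K → V → V → ℝ) :
    ∑ σ : Perm (K × Fin 2), ((Perm.sign σ : ℤ) : ℝ) *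
      ((E (b (σ (k0, 0))) (b (σ (k0, 1))) - E (b (σ (k0, 1))) (b (σ (k0, 0)))) *
        ∏ k ∈ Finset.univ.erase k0, f k (b (σ (k, 0))) (b (σ (k, 1)))) =
    2 * ∑ σ : Perm (K × Fin 2), ((Perm.sign σ : ℤ) : ℝ) *
      (E (b (σ (k0, 0))) (b (σ (k0, 1))) *
        ∏ k ∈ Finset.univ.erase k0, f k (b (σ (k, 0))) (b (σ (k, 1)))) := by
  set R : Perm (K × Fin 2) → ℝ := fun σ =>
    ∏ k ∈ Finset.univ.erase k0, f k (b (σ (k, 0))) (b (σ (k, 1))) with hR
  have n : ((k0, 0) : K × Fin 2) ≠ (k0, 1) := by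
    intro h'; exact zero_ne_one (congrArg Prod.snd h')
  set c : Perm (K × Fin 2) := swap (k0, 0) (k0, 1) with hc
  have hRc : ∀ σ, R (σ * c) = R σ := by
    intro σ
    simp only [hR, Perm.mul_apply]
    refine Finset.prod_congr rfl fun k hk => ?_
    have hk0 := Finset.ne_of_mem_erase hk
    have hh : ∀ e : Fin 2, c (k, e) = (k, e) := fun e => swap_apply_of_ne_of_ne
      (by intro h'; exact hk0 (congrArg Prod.fst h')) (by intro h'; exact hk0 (congrArg Prod.fst h'))
    rw [hh, hh]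
  have e1 : ∑ σ : Perm (K × Fin 2), ((Perm.sign σ : ℤ) : ℝ) *
      (E (b (σ (k0, 1))) (b (σ (k0, 0))) * R σ) =
      -∑ σ : Perm (K × Fin 2), ((Perm.sign σ : ℤ) : ℝ) *
        (E (b (σ (k0, 0))) (b (σ (k0, 1))) * R σ) := by
    rw [← Finset.sum_neg_distrib]
    refine Fintype.sum_equiv (Equiv.mulRight c) _ _ fun σ => ?_
    have h1 : (Equiv.mulRight c) σ = σ * c := rfl
    rw [h1, hRc, Perm.sign_mul, hc, Perm.sign_swap n, Perm.mul_apply, Perm.mul_apply,
      swap_apply_left, swap_apply_right]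
    push_cast
    ring
  have e2 : ∑ σ : Perm (K × Fin 2), ((Perm.sign σ : ℤ) : ℝ) *
      ((E (b (σ (k0, 0))) (b (σ (k0, 1))) - E (b (σ (k0, 1))) (b (σ (k0, 0)))) * R σ) =
      ∑ σ : Perm (K × Fin 2), ((Perm.sign σ : ℤ) : ℝ) *
        (E (b (σ (k0, 0))) (b (σ (k0, 1))) * R σ) -
      ∑ σ : Perm (K × Fin 2), ((Perm.sign σ : ℤ) : ℝ) *
        (E (b (σ (k0, 1))) (b (σ (k0, 0))) * R σ) := by
    rw [← Finset.sum_sub_distrib]
    refine Finset.sum_congr rfl fun σ _ => ?_
    ring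
  have e3 := e2
  rw [e1] at e3
  rw [show (∑ σ : Perm (K × Fin 2), ((Perm.sign σ : ℤ) : ℝ) *
      ((E (b (σ (k0, 0))) (b (σ (k0, 1))) - E (b (σ (k0, 1))) (b (σ (k0, 0)))) *
        ∏ k ∈ Finset.univ.erase k0, f k (b (σ (k, 0))) (b (σ (k, 1))))) = _ from e3]
  ring

/-- the integrand of the divergence -/
def dvg (b : K × Fin 2 → V) (k0 : K) (w : K → V → Bil V) (η : V → V →L[ℝ] ℝ)
    (σ : Perm (K × Fin 2)) (y : V) : ℝ :=
  η y (b (σ (k0, 1))) * ∏ k ∈ Finset.univ.erase k0, w k y (b (σ (k, 0))) (b (σ (k, 1)))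

/-- **an exact factor**: `w₁ ∧ … ∧ dη` is a divergence -/
theorem TP_ex (b : K × Fin 2 → V) (k0 : K) {w : K → V → Bil V} {η : V → V →L[ℝ] ℝ} {z : V}
    (hw : ∀ k, k ≠ k0 → DifferentiableAt ℝ (w k) z) (hη : DifferentiableAt ℝ η z)
    (hc : ∀ k, k ≠ k0 → ∀ x y t, fderiv ℝ (w k) z x y t + fderiv ℝ (w k) z y t x +
      fderiv ℝ (w k) z t x y = 0)
    (h0 : ∀ u v, w k0 z u v = fderiv ℝ η z u v - fderiv ℝ η z v u) :
    TP b (fun k => w k z) = 2 * ∑ σ : Perm (K × Fin 2), ((Perm.sign σ : ℤ) : ℝ) *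
      fderiv ℝ (dvg b k0 w η σ) z (b (σ (k0, 0))) := by
  have hd : ∀ σ : Perm (K × Fin 2), fderiv ℝ (dvg b k0 w η σ) z (b (σ (k0, 0))) =
      fderiv ℝ η z (b (σ (k0, 0))) (b (σ (k0, 1))) *
        (∏ k ∈ Finset.univ.erase k0, w k z (b (σ (k, 0))) (b (σ (k, 1)))) +
      ∑ k1 ∈ Finset.univ.erase k0,
        fderiv ℝ (w k1) z (b (σ (k0, 0))) (b (σ (k1, 0))) (b (σ (k1, 1))) *
        ((∏ k ∈ (Finset.univ.erase k0).erase k1, w k z (b (σ (k, 0))) (b (σ (k, 1)))) *
          η z (b (σ (k0, 1)))) := by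
    intro σ
    have g1 : HasFDerivAt (fun y => η y (b (σ (k0, 1)))) _ z :=
      hη.hasFDerivAt.clm_apply (hasFDerivAt_const (b (σ (k0, 1))) z)
    have g2 : ∀ k ∈ Finset.univ.erase k0,
        HasFDerivAt (fun y => w k y (b (σ (k, 0))) (b (σ (k, 1))))
          (fderiv ℝ (fun y => w k y (b (σ (k, 0))) (b (σ (k, 1)))) z) z := by
      intro k hk
      have h3 : HasFDerivAt (w k) _ z := (hw k (Finset.ne_of_mem_erase hk)).hasFDerivAt
      exact ((h3.clm_apply (hasFDerivAt_const (b (σ (k, 0))) z)).clm_apply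
        (hasFDerivAt_const (b (σ (k, 1))) z)).differentiableAt.hasFDerivAt
    have g3 := HasFDerivAt.finsetProd g2
    have g4 := (g1.fun_mul g3).fderiv
    unfold dvg
    rw [g4]
    simp only [add_apply, smul_apply, smul_eq_mul, sum_apply, Finset.mul_sum]
    rw [add_comm]
    congr 1
    · simp
      ring
    · refine Finset.sum_congr rfl fun k1 hk1 => ?_
      rw [fderiv_app (hw k1 (Finset.ne_of_mem_erase hk1))]
      ring
  have e1 : TP b (fun k => w k z) = ∑ σ : Perm (K × Fin 2), ((Perm.sign σ : ℤ) : ℝ) *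
      ((fderiv ℝ η z (b (σ (k0, 0))) (b (σ (k0, 1))) -
        fderiv ℝ η z (b (σ (k0, 1))) (b (σ (k0, 0)))) *
        ∏ k ∈ Finset.univ.erase k0, w k z (b (σ (k, 0))) (b (σ (k, 1)))) := by
    unfold TP
    refine Finset.sum_congr rfl fun σ _ => ?_
    rw [← Finset.mul_prod_erase _ _ (Finset.mem_univ k0), h0]
  rw [e1, sum_anti b k0 (fun u v => fderiv ℝ η z u v) (fun k u v => w k z u v)]
  congr 1
  simp only [hd, mul_add, Finset.sum_add_distrib]
  have e2 : ∑ σ : Perm (K × Fin 2), ((Perm.sign σ : ℤ) : ℝ) * ∑ k1 ∈ Finset.univ.erase k0,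
        fderiv ℝ (w k1) z (b (σ (k0, 0))) (b (σ (k1, 0))) (b (σ (k1, 1))) *
        ((∏ k ∈ (Finset.univ.erase k0).erase k1, w k z (b (σ (k, 0))) (b (σ (k, 1)))) *
          η z (b (σ (k0, 1)))) = 0 := by
    simp only [Finset.mul_sum]
    rw [Finset.sum_comm]
    refine Finset.sum_eq_zero fun k1 hk1 => ?_
    have hk := Finset.ne_of_mem_erase hk1
    exact sum_closed b hk (fun x y t => fderiv ℝ (w k1) z x y t) (hc k1 hk)
      (fun k u v => w k z u v) (fun v => η z v)
  rw [e2, add_zero]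

end

end Crest.Agent.R281.Ti_846
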