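import Crest.Agent.R281.HkR4_835
import Crest.Agent.R281.Ti1_846
import Crest.Agent.R272.Symp1_92

/-!
# Row 281, MASS (D18), part 1 (helper69): the top power of `Re σ` at a point

* `det_mL`    : the real determinant of a complex matrix is `‖det‖²`
* `exists_T`  : two invertible antisymmetric matrices are congruent, `S = Tᵀ * S' * T`
* `reM S`     : the real 2-form `Re σ`, `σ u v = ∑ s_ab u_a v_b`
* `TP_reM`    : `TP b (Re σ, …, Re σ) * ‖det S'‖ = TP b (Re σ', …, Re σ') * ‖det S‖`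
* `exists_cR` : `TP b (Re σ, …, Re σ) = c * ‖det S‖`
-/

set_option autoImplicit false
set_option linter.unusedSectionVars false

open Set Filter Topology Complex
open scoped ContDiff Matrix ComplexConjugate InnerProductSpace

namespace Crest.Agent.R281.Ma_69

open Crest.Agent.R275.Geo
open Crest.Agent.R281.HkR_835 Crest.Agent.R281.Ti_846
open Crest.Agent.R272.Symp_92 (PS exists_sympl)

noncomputable section

variable {d : ℕ}

/-! ### the real determinant of a complex matrix -/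

theorem mL_coe (T : Matrix (Fin d) (Fin d) ℂ) :
    ((mL T : Cn d →L[ℝ] Cn d) : Cn d →ₗ[ℝ] Cn d) =
      (Matrix.toEuclideanLin T).restrictScalars ℝ := rfl

theorem det_toEuclideanLin (T : Matrix (Fin d) (Fin d) ℂ) :
    LinearMap.det (Matrix.toEuclideanLin T) = T.det := by
  exact LinearMap.det_toLin (PiLp.basisFun 2 ℂ (Fin d)) T

theorem det_mL (T : Matrix (Fin d) (Fin d) ℂ) :
    LinearMap.det ((mL T : Cn d →L[ℝ] Cn d) : Cn d →ₗ[ℝ] Cn d) = ‖T.det‖ ^ 2 := by
  rw [mL_coe, LinearMap.det_restrictScalars, det_toEuclideanLin, Algebra.norm_complex_apply,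
    Complex.normSq_eq_norm_sq]

/-! ### congruence of antisymmetric matrices -/

/-- the bilinear form of a matrix on `Fin d → ℂ` -/
def bf (S : Matrix (Fin d) (Fin d) ℂ) : (Fin d → ℂ) →ₗ[ℂ] (Fin d → ℂ) →ₗ[ℂ] ℂ :=
  Matrix.toLinearMap₂' ℂ S

theorem bf_apply (S : Matrix (Fin d) (Fin d) ℂ) (x y : Fin d → ℂ) :
    bf S x y = x ⬝ᵥ S *ᵥ y := Matrix.toLinearMap₂'_apply' S x y

theorem bf_alt {S : Matrix (Fin d) (Fin d) ℂ} (hS : Sᵀ = -S) (x : Fin d → ℂ) :
    bf S x x = 0 := by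
  have h1 : bf S x x = - bf S x x := by
    conv_lhs => rw [bf_apply, Matrix.dotProduct_mulVec, ← Matrix.mulVec_transpose, hS,
      Matrix.neg_mulVec, neg_dotProduct, dotProduct_comm]
    rw [bf_apply]
  linear_combination (1 / 2 : ℂ) * h1

theorem bf_surj {S : Matrix (Fin d) (Fin d) ℂ} (hd : S.det ≠ 0) (f : (Fin d → ℂ) →ₗ[ℂ] ℂ) :
    ∃ y, ∀ x, bf S x y = f x := by
  have hu : IsUnit S.det := isUnit_iff_ne_zero.2 hd
  refine ⟨S⁻¹ *ᵥ (fun a => f (Pi.single a 1)), fun x => ?_⟩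
  rw [bf_apply, Matrix.mulVec_mulVec, Matrix.mul_nonsing_inv _ hu, Matrix.one_mulVec]
  have h1 : x = ∑ a, x a • (Pi.single a (1 : ℂ) : Fin d → ℂ) := by
    funext c
    simp [Finset.sum_apply, Pi.single_apply]
  conv_rhs => rw [h1, map_sum]
  simp [dotProduct]

/-- symplectic basis -/
theorem exists_bas {S : Matrix (Fin d) (Fin d) ℂ} (hS : Sᵀ = -S) (hd : S.det ≠ 0) :
    ∃ (N : ℕ) (v : Module.Basis (Fin N ⊕ Fin N) ℂ (Fin d → ℂ)), N + N = d ∧
      ∀ i j, bf S (v i) (v j) = Matrix.fromBlocks (0 : Matrix (Fin N) (Fin N) ℂ) 1 (-1) 0 i j := by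
  obtain ⟨N, p, q, h, hx⟩ := exists_sympl (bf S) (bf_alt hS) (bf_surj hd)
  have hli := h.linInd (bf_alt hS)
  have hsp : ⊤ ≤ Submodule.span ℂ (Set.range (Sum.elim p q)) := by
    intro x _
    rw [hx x]
    refine Submodule.sum_mem _ fun i _ => Submodule.sub_mem _ ?_ ?_
    · exact Submodule.smul_mem _ _ (Submodule.subset_span ⟨Sum.inl i, rfl⟩)
    · exact Submodule.smul_mem _ _ (Submodule.subset_span ⟨Sum.inr i, rfl⟩)
  refine ⟨N, Module.Basis.mk hli hsp, ?_, ?_⟩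
  · have := Module.finrank_eq_card_basis (Module.Basis.mk hli hsp)
    rw [Module.finrank_fin_fun] at this
    simpa using this.symm
  · intro i j
    rw [Module.Basis.mk_apply, Module.Basis.mk_apply]
    rcases i with i | i <;> rcases j with j | j
    · simpa using h.pp i j
    · simpa [Matrix.one_apply] using h.pq i j
    · have := h.qp (bf_alt hS) i j
      simp only [Sum.elim_inr, Sum.elim_inl, this, Matrix.fromBlocks_apply₂₁, Matrix.neg_apply,
        Matrix.one_apply]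
      split_ifs <;> simp
    · simpa using h.qq i j

theorem bf_mul (S T : Matrix (Fin d) (Fin d) ℂ) (x y : Fin d → ℂ) :
    bf S (T *ᵥ x) (T *ᵥ y) = bf (Tᵀ * S * T) x y := by
  rw [bf_apply, bf_apply, ← Matrix.vecMul_transpose, ← Matrix.dotProduct_mulVec,
    Matrix.mulVec_mulVec, Matrix.mulVec_mulVec, Matrix.mul_assoc]

theorem bf_single (S : Matrix (Fin d) (Fin d) ℂ) (a b : Fin d) :
    bf S (Pi.single a 1) (Pi.single b 1) = S a b := by
  rw [bf_apply]
  simp

theorem bf_inj {S S' : Matrix (Fin d) (Fin d) ℂ} (h : ∀ x y, bf S x y = bf S' x y) : S = S' := by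
  ext a b
  rw [← bf_single S, h, bf_single]

/-- two invertible antisymmetric matrices are congruent -/
theorem exists_T {S S' : Matrix (Fin d) (Fin d) ℂ} (hS : Sᵀ = -S) (hd : S.det ≠ 0)
    (hS' : S'ᵀ = -S') (hd' : S'.det ≠ 0) :
    ∃ T : Matrix (Fin d) (Fin d) ℂ, S = Tᵀ * S' * T := by
  obtain ⟨N, v, hN, hv⟩ := exists_bas hS hd
  obtain ⟨N', v', hN', hv'⟩ := exists_bas hS' hd'
  obtain rfl : N = N' := by omega
  set T : (Fin d → ℂ) →ₗ[ℂ] (Fin d → ℂ) := (v.equiv v' (Equiv.refl _)).toLinearMap with hT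
  have hTv : ∀ i, T (v i) = v' i := fun i => by
    rw [hT]
    simp
  have h1 : bf S = (bf S').compl₁₂ T T := by
    refine v.ext fun i => v.ext fun j => ?_
    rw [LinearMap.compl₁₂_apply, hTv, hTv, hv, hv']
  refine ⟨LinearMap.toMatrix' T, bf_inj fun x y => ?_⟩
  rw [← bf_mul, h1, LinearMap.compl₁₂_apply, LinearMap.toMatrix'_mulVec,
    LinearMap.toMatrix'_mulVec]

/-! ### the real form -/

/-- `Re σ`, `σ u v = ∑ s_ab u_a v_b` -/
def reM (S : Matrix (Fin d) (Fin d) ℂ) : Bil (Cn d) := bM (cL.comp (mL Sᵀ))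

theorem reM_apply (S : Matrix (Fin d) (Fin d) ℂ) (u v : Cn d) : reM S u v = (sb S u v).re :=
  bM_cL S u v

theorem sb_eq (S : Matrix (Fin d) (Fin d) ℂ) (u v : Cn d) : sb S u v = bf S u.ofLp v.ofLp := by
  rw [bf_apply]
  simp only [sb, dotProduct, Matrix.mulVec, Finset.mul_sum]
  exact Finset.sum_congr rfl fun a _ => Finset.sum_congr rfl fun b _ => by ring

theorem reM_mL (S T : Matrix (Fin d) (Fin d) ℂ) (u v : Cn d) :
    reM (Tᵀ * S * T) u v = reM S (mL T u) (mL T v) := by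
  rw [reM_apply, reM_apply, sb_eq, sb_eq, mL_eq, mL_eq, bf_mul]

variable {K : Type*} [Fintype K] [DecidableEq K]

theorem TP_reM_mul (b : Module.Basis (K × Fin 2) ℝ (Cn d)) (S T : Matrix (Fin d) (Fin d) ℂ) :
    TP b (fun _ => reM (Tᵀ * S * T)) = ‖T.det‖ ^ 2 * TP b (fun _ => reM S) := by
  rw [TP_comp' b (mL T) (w' := fun _ => reM S) (fun _ u v => reM_mL S T u v), det_mL]

/-- **the top power of `Re σ` is a constant multiple of `‖det S‖`** -/
theorem TP_reM (b : Module.Basis (K × Fin 2) ℝ (Cn d)) {S S' : Matrix (Fin d) (Fin d) ℂ}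
    (hS : Sᵀ = -S) (hd : S.det ≠ 0) (hS' : S'ᵀ = -S') (hd' : S'.det ≠ 0) :
    TP b (fun _ => reM S) * ‖S'.det‖ = TP b (fun _ => reM S') * ‖S.det‖ := by
  obtain ⟨T, rfl⟩ := exists_T hS hd hS' hd'
  rw [TP_reM_mul, Matrix.det_mul, Matrix.det_mul, Matrix.det_transpose, norm_mul, norm_mul]
  ring

/-- the constant -/
def cR (b : Module.Basis (K × Fin 2) ℝ (Cn d)) : ℝ :=
  open Classical in
  if h : ∃ S : Matrix (Fin d) (Fin d) ℂ, Sᵀ = -S ∧ S.det ≠ 0 then
    TP b (fun _ => reM h.choose) / ‖h.choose.det‖ else 0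

theorem TP_cR (b : Module.Basis (K × Fin 2) ℝ (Cn d)) {S : Matrix (Fin d) (Fin d) ℂ}
    (hS : Sᵀ = -S) (hd : S.det ≠ 0) : TP b (fun _ => reM S) = cR b * ‖S.det‖ := by
  have h : ∃ S : Matrix (Fin d) (Fin d) ℂ, Sᵀ = -S ∧ S.det ≠ 0 := ⟨S, hS, hd⟩
  have h0 : ‖h.choose.det‖ ≠ 0 := norm_ne_zero_iff.2 h.choose_spec.2
  have h1 := TP_reM b hS hd h.choose_spec.1 h.choose_spec.2
  unfold cR
  rw [dif_pos h, div_mul_eq_mul_div, ← h1, mul_div_cancel_right₀ _ h0]

/-- the form `Re (c σ)` -/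
theorem reM_smul (c : ℂ) (S : Matrix (Fin d) (Fin d) ℂ) (u v : Cn d) :
    reM (c • S) u v = c.re * reM S u v + c.im * -(sb S u v).im := by
  rw [reM_apply, reM_apply]
  have : sb (c • S) u v = c * sb S u v := by
    simp only [sb, Finset.mul_sum, Matrix.smul_apply, smul_eq_mul]
    exact Finset.sum_congr rfl fun a _ => Finset.sum_congr rfl fun b _ => by ring
  rw [this, Complex.mul_re]
  ring

end

end Crest.Agent.R281.Ma_69
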