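import Crest.Agent.R281.Ma1_69
import Crest.Agent.R281.HkR8_835
import Crest.Agent.R281.Ti6_846
import Crest.Agent.R281.HKA1_799

/-!
# Row 281, MASS (D18), part 2 (helper69): the constant

* `TP_reM_bc` : `TP (bc n) (Re σ, …, Re σ) = 2^n n! ‖det S‖`
-/

set_option autoImplicit false
set_option linter.unusedSectionVars false

open Set Filter Topology Complex MeasureTheory
open scoped ContDiff Matrix ComplexConjugate InnerProductSpace ENNReal ComplexOrder

namespace Crest.Agent.R281.Ma_69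

open Crest.Agent.R275.Geo Crest.Agent.R275.Core144 Crest.Agent.R275.EDR890
open Crest.Agent.R273.Defs_333 Crest.Agent.R273.Hess_333 Crest.Agent.R273.HessB_333
open Crest.Agent.R273.HM_333 Crest.Agent.R273.Kah_333 Crest.Agent.R273.Vol_333
open Crest.Agent.R273.Vm_333 Crest.Agent.R275.Pai323 Crest.Agent.R275.C1d194
open Crest.Agent.R281.HkR_835 Crest.Agent.R281.Ti_846 Crest.Agent.R281.HkP2_508
open Crest.Agent.R281.Defs_273 (H2 HSymp)
open Crest.Agent.R281.HKA_799 (Trip)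

noncomputable section

variable {n : ℕ}

/-! ### the standard quaternionic triple of an antisymmetric unitary matrix -/

theorem gI (G : Matrix (Fin n) (Fin n) ℂ) (hG : G.IsHermitian) (u v : Cn n) :
    bM (mL Gᵀ) (I • u) (I • v) = bM (mL Gᵀ) u v := by
  rw [bM_mL G hG, bM_mL G hG, hb_I_left, hb_I_right]
  have : I * (-I * hb G u v) = hb G u v := by
    linear_combination (-(hb G u v)) * I_mul_I
  rw [this]

/-- the quaternionic triple of `(G, S)` -/
def tri {G S : Matrix (Fin n) (Fin n) ℂ} (hG : G.PosDef) (hS : Sᵀ = -S)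
    (h : S * (Gᵀ)⁻¹ * Sᴴ = G) : Trip (Cn n) where
  g := bM (mL Gᵀ)
  J := ![iL, J1 G S, iL.comp (J1 G S)]
  symm u v := by
    rw [bM_mL G hG.isHermitian, bM_mL G hG.isHermitian, ← hb_conj hG.isHermitian, Complex.conj_re]
  sq0 u := by
    show I • I • u = -u
    rw [smul_smul, I_mul_I, neg_one_smul]
  sq1 u := J1_sq hG hS h u
  m01 u := rfl
  m10 u := J1_I G S u
  inv k u v := by
    have hs : ∀ u v, bM (mL Gᵀ) u v = bM (mL Gᵀ) v u := fun u v => by
      rw [bM_mL G hG.isHermitian, bM_mL G hG.isHermitian, ← hb_conj hG.isHermitian,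
        Complex.conj_re]
    have h1 : bM (mL Gᵀ) (J1 G S u) (J1 G S v) = bM (mL Gᵀ) u v := by
      rw [bM_J1 hG, sb_alt hS, Complex.neg_re, ← bM_J1 hG, J1_sq hG hS h, map_neg,
        neg_apply, neg_neg, hs]
    fin_cases k
    · exact gI G hG.isHermitian u v
    · exact h1
    · exact (gI G hG.isHermitian _ _).trans h1

theorem tri_om1 {G S : Matrix (Fin n) (Fin n) ℂ} (hG : G.PosDef) (hS : Sᵀ = -S)
    (h : S * (Gᵀ)⁻¹ * Sᴴ = G) : (tri hG hS h).omv ![0, 1, 0] = reM S := by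
  ext u v
  rw [Trip.omv_apply, reM_apply]
  simp only [Matrix.cons_val_zero, Matrix.cons_val_one, Matrix.cons_val, zero_mul, one_mul,
    zero_add, add_zero]
  exact bM_J1 hG u v

theorem tri_om0 {G S : Matrix (Fin n) (Fin n) ℂ} (hG : G.PosDef) (hS : Sᵀ = -S)
    (h : S * (Gᵀ)⁻¹ * Sᴴ = G) (u v : Cn n) : (tri hG hS h).om 0 u v = (I * hb G u v).re := by
  show bM (mL Gᵀ) (I • u) v = _
  rw [bM_mL G hG.isHermitian, hb_I_left]

theorem TP_std {G S : Matrix (Fin n) (Fin n) ℂ} (hG : G.PosDef) (hS : Sᵀ = -S)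
    (h : S * (Gᵀ)⁻¹ * Sᴴ = G) :
    ((TP (bc n) (fun _ => reM S) : ℝ) : ℂ) = 2 ^ n * (n.factorial * G.det) := by
  have hfin : Module.finrank ℝ (Cn n) = 2 * n := by
    rw [Module.finrank_eq_card_basis (bc n)]
    simp [mul_comm]
  have h1 := (tri hG hS h).rot hfin (I := fun w : Fin n → HKA_799.Bil (Cn n) => TP (bc n) w)
    (fun T _ _ h => TP_comp' (bc n) T h) ![0, 1, 0]
  simp only [tri_om1, Matrix.cons_val_zero, Matrix.cons_val_one, Matrix.cons_val] at h1
  norm_num at h1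
  rw [h1, TP_herm (G := fun _ => G) (fun _ => hG.isHermitian) fun _ u v => tri_om0 hG hS h u v,
    MD_same]

/-! ### the constant -/

/-- the standard antisymmetric matrix -/
theorem exists_S0 {S : Matrix (Fin n) (Fin n) ℂ} (hS : Sᵀ = -S) (hd : S.det ≠ 0) :
    ∃ S0 : Matrix (Fin n) (Fin n) ℂ, S0ᵀ = -S0 ∧ S0 * S0ᴴ = 1 := by
  obtain ⟨N, v, hN, -⟩ := exists_bas hS hd
  subst hN
  set J : Matrix (Fin N ⊕ Fin N) (Fin N ⊕ Fin N) ℂ := Matrix.fromBlocks 0 1 (-1) 0 with hJ
  have h1 : Jᵀ = -J := by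
    rw [hJ, Matrix.fromBlocks_transpose, Matrix.fromBlocks_neg]
    simp
  have h2 : J * Jᴴ = 1 := by
    rw [hJ, Matrix.fromBlocks_conjTranspose, Matrix.fromBlocks_multiply]
    simp
  refine ⟨J.submatrix finSumFinEquiv.symm finSumFinEquiv.symm, ?_, ?_⟩
  · rw [Matrix.transpose_submatrix, h1]
    rfl
  · rw [Matrix.conjTranspose_submatrix, Matrix.submatrix_mul_equiv, h2]
    simp

/-- **the top power of `Re σ`** -/
theorem TP_reM_bc {S : Matrix (Fin n) (Fin n) ℂ} (hS : Sᵀ = -S) (hd : S.det ≠ 0) :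
    TP (bc n) (fun _ => reM S) = 2 ^ n * n.factorial * ‖S.det‖ := by
  obtain ⟨S0, h0, h1⟩ := exists_S0 hS hd
  have h2 : ‖S0.det‖ = 1 := by
    have h3 := congrArg (fun P => ‖Matrix.det P‖) h1
    simp only [Matrix.det_mul, Matrix.det_conjTranspose, norm_mul, norm_star, Matrix.det_one,
      norm_one] at h3
    nlinarith [norm_nonneg S0.det]
  have h4 : S0.det ≠ 0 := by
    rw [← norm_pos_iff, h2]
    exact one_pos
  have h5 := TP_reM (bc n) hS hd h0 h4
  have h6 := TP_std (G := 1) (S := S0) Matrix.PosDef.one h0 (by simpa using h1)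
  rw [Matrix.det_one, mul_one] at h6
  have h7 : TP (bc n) (fun _ => reM S0) = 2 ^ n * n.factorial := by exact_mod_cast h6
  rw [h2, mul_one, h7] at h5
  exact h5

end

end Crest.Agent.R281.Ma_69
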