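import Mathlib

/-!
# W3-ALG (c): the half plane dictionary for the form `2 x₀ x₂ + N x₁²`

Coordinates of 473: `x = x₀ e* + x₁ v + x₂ e`, `N = q(v) > 0`.
Every isometry is `± Sym²(M)`, `det M = ± 1`, and acts on `sig N τ = (1, τ, -(N/2) τ²)` by the
Möbius map of `M`.
-/

set_option autoImplicit false

open Complex
open UpperHalfPlane hiding I
open scoped MatrixGroups

namespace Crest.Agent.R281.W3c_698

/-- The form `2 x₀ x₂ + N x₁²`, polarised. -/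
def qb (N : ℝ) (x y : Fin 3 → ℝ) : ℝ := x 0 * y 2 + x 2 * y 0 + N * x 1 * y 1

/-- Its complex bilinear extension. -/
def qbC (N : ℝ) (x y : Fin 3 → ℂ) : ℂ := x 0 * y 2 + x 2 * y 0 + N * x 1 * y 1

/-- The isotropic vector of `τ`. -/
noncomputable def sig (N : ℝ) (τ : ℂ) : Fin 3 → ℂ := ![1, τ, -(N / 2) * τ ^ 2]

@[simp] theorem sig_zero (N : ℝ) (τ : ℂ) : sig N τ 0 = 1 := rfl
@[simp] theorem sig_one (N : ℝ) (τ : ℂ) : sig N τ 1 = τ := rfl
@[simp] theorem sig_two (N : ℝ) (τ : ℂ) : sig N τ 2 = -(N / 2) * τ ^ 2 := rfl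

theorem qbC_sig (N : ℝ) (τ : ℂ) : qbC N (sig N τ) (sig N τ) = 0 := by
  simp only [qbC, sig_zero, sig_one, sig_two]; ring

theorem qbC_sig_conj (N : ℝ) (τ : ℂ) :
    qbC N (sig N τ) (fun i => (starRingEnd ℂ) (sig N τ i)) = ((2 * N * τ.im ^ 2 : ℝ) : ℂ) := by
  have h : (starRingEnd ℂ) (sig N τ 2) = -(N / 2) * ((starRingEnd ℂ) τ) ^ 2 := by
    rw [sig_two, map_mul, map_neg, map_div₀, map_pow, Complex.conj_ofReal, map_ofNat]
  simp only [qbC, sig_zero, sig_one, h]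
  rw [sig_two]
  apply Complex.ext
  · simp [pow_two]; ring
  · simp [pow_two]; ring

theorem qbC_sig_e (N : ℝ) (τ : ℂ) : qbC N (sig N τ) ![0, 0, 1] = 1 := by
  simp [qbC]

/-- Every isotropic `z` with `q(z, z̄) > 0` is `z₀ • sig (z₁ / z₀)`, `Im (z₁ / z₀) ≠ 0`. -/
theorem eq_sig {N : ℝ} (hN : 0 < N) {z : Fin 3 → ℂ} (h0 : qbC N z z = 0)
    (h1 : 0 < (qbC N z (fun i => (starRingEnd ℂ) (z i))).re) :
    z 0 ≠ 0 ∧ z = z 0 • sig N (z 1 / z 0) ∧ (z 1 / z 0).im ≠ 0 := by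
  have hNC : (N : ℂ) ≠ 0 := by exact_mod_cast hN.ne'
  have hz : z 0 ≠ 0 := by
    intro hz
    have h2 : z 1 = 0 := by
      have : (N : ℂ) * z 1 * z 1 = 0 := by
        have := h0
        simp only [qbC, hz] at this
        linear_combination this
      simpa [hNC] using this
    simp [qbC, hz, h2] at h1
  have e2 : z 2 = z 0 * (-(N / 2) * (z 1 / z 0) ^ 2) := by
    have := h0
    simp only [qbC] at this
    field_simp
    linear_combination this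
  have e : z = z 0 • sig N (z 1 / z 0) := by
    funext i
    fin_cases i
    · simp
    · simp [mul_div_cancel₀ _ hz]
    · simpa using e2
  refine ⟨hz, e, ?_⟩
  intro him
  have h3 : qbC N z (fun i => (starRingEnd ℂ) (z i))
      = (z 0 * (starRingEnd ℂ) (z 0)) * qbC N (sig N (z 1 / z 0))
        (fun i => (starRingEnd ℂ) (sig N (z 1 / z 0) i)) := by
    have ei : ∀ i, z i = z 0 * sig N (z 1 / z 0) i := fun i => by
      conv_lhs => rw [e]
      simp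
    generalize z 1 / z 0 = w at ei
    have hc : ∀ i, (starRingEnd ℂ) (z i)
        = (starRingEnd ℂ) (z 0) * (starRingEnd ℂ) (sig N w i) := fun i => by
      conv_lhs => rw [ei i]
      rw [map_mul]
    simp only [qbC]
    rw [hc 2, hc 1, hc 0, ei 2, ei 1]
    simp only [sig_zero, map_one]
    ring
  rw [h3, qbC_sig_conj, him] at h1
  simp at h1

/-- `Sym²` of the matrix `[[a, b], [c, d]]` in the coordinates `(e*, v, e)`. -/
noncomputable def sym2 (N a b c d : ℝ) (x : Fin 3 → ℝ) : Fin 3 → ℝ :=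
  ![d ^ 2 * x 0 + 2 * c * d * x 1 - 2 / N * c ^ 2 * x 2,
    b * d * x 0 + (a * d + b * c) * x 1 - 2 / N * a * c * x 2,
    -(N / 2) * b ^ 2 * x 0 - N * a * b * x 1 + a ^ 2 * x 2]

theorem exists_p {N : ℝ} (hN : 0 < N) {p0 p1 p2 : ℝ} (h : 2 * p0 * p2 + N * p1 ^ 2 = 0)
    (h2 : 0 ≤ p2) (h0 : p0 ≤ 0) :
    ∃ a c : ℝ, p2 = a ^ 2 ∧ p0 = -(2 / N) * c ^ 2 ∧ p1 = -(2 / N) * a * c := by
  have hc : 0 ≤ -(N * p0 / 2) := by nlinarith
  have ha2 : (Real.sqrt p2) ^ 2 = p2 := Real.sq_sqrt h2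
  have hc2 : (Real.sqrt (-(N * p0 / 2))) ^ 2 = -(N * p0 / 2) := Real.sq_sqrt hc
  set a := Real.sqrt p2
  set c := Real.sqrt (-(N * p0 / 2))
  have ha0 : 0 ≤ a := Real.sqrt_nonneg _
  have hc0 : 0 ≤ c := Real.sqrt_nonneg _
  have hac : (a * c) ^ 2 = (N / 2 * p1) ^ 2 := by
    rw [mul_pow, ha2, hc2]; nlinarith
  have hac0 : 0 ≤ a * c := mul_nonneg ha0 hc0
  have hp0 : p0 = -(2 / N) * c ^ 2 := by rw [hc2]; field_simp
  rcases sq_eq_sq_iff_eq_or_eq_neg.1 hac with h3 | h3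
  · refine ⟨a, -c, ha2.symm, by rw [neg_sq]; exact hp0, ?_⟩
    have : -(2 / N) * a * -c = 2 / N * (a * c) := by ring
    rw [this, h3]; field_simp
  · refine ⟨a, c, ha2.symm, hp0, ?_⟩
    have : -(2 / N) * a * c = -(2 / N) * (a * c) := by ring
    rw [this, h3]; field_simp

theorem exists_q {N : ℝ} (hN : 0 < N) {q0 q1 q2 : ℝ} (h : 2 * q0 * q2 + N * q1 ^ 2 = 0)
    (h0 : 0 ≤ q0) (h2 : q2 ≤ 0) :
    ∃ b d : ℝ, q0 = d ^ 2 ∧ q1 = b * d ∧ q2 = -(N / 2) * b ^ 2 := by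
  obtain ⟨a, c, e1, e2, e3⟩ := exists_p hN (p0 := q2) (p1 := q1) (p2 := q0) (by linarith) h0 h2
  refine ⟨-(2 / N) * c, a, e1, by rw [e3]; ring, ?_⟩
  rw [e2]; field_simp

theorem exists_q' {N : ℝ} (hN : 0 < N) {q0 q1 q2 : ℝ} (h : 2 * q0 * q2 + N * q1 ^ 2 = 0) :
    ∃ t b d : ℝ, (t = 1 ∨ t = -1) ∧ q0 = t * d ^ 2 ∧ q1 = t * (b * d)
      ∧ q2 = t * (-(N / 2) * b ^ 2) := by
  have hle : q0 * q2 ≤ 0 := by nlinarith [sq_nonneg q1]
  by_cases hc : 0 ≤ q0 ∧ q2 ≤ 0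
  · obtain ⟨b, d, e1, e2, e3⟩ := exists_q hN h hc.1 hc.2
    exact ⟨1, b, d, Or.inl rfl, by rw [one_mul]; exact e1, by rw [one_mul]; exact e2,
      by rw [one_mul]; exact e3⟩
  · have h0 : q0 ≤ 0 := by
      by_contra h0
      push Not at h0
      apply hc
      refine ⟨h0.le, ?_⟩
      by_contra h2
      push Not at h2
      nlinarith [mul_pos h0 h2]
    have h2 : 0 ≤ q2 := by
      by_contra h2
      push Not at h2
      apply hc
      refine ⟨?_, h2.le⟩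
      by_contra h0
      push Not at h0
      nlinarith [mul_pos_of_neg_of_neg h0 h2]
    obtain ⟨b, d, e1, e2, e3⟩ := exists_q hN (q0 := -q0) (q1 := -q1) (q2 := -q2)
      (by nlinarith) (by linarith) (by linarith)
    exact ⟨-1, b, d, Or.inr rfl, by linarith, by linarith, by linarith⟩

theorem eq_of_three {x : Fin 3 → ℝ} {a b c : ℝ} (h0 : x 0 = a) (h1 : x 1 = b) (h2 : x 2 = c) :
    x = ![a, b, c] := by
  funext i
  fin_cases i
  · exact h0
  · exact h1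
  · exact h2

theorem decomp (x : Fin 3 → ℝ) :
    x = x 0 • (![1, 0, 0] : Fin 3 → ℝ) + x 1 • (![0, 1, 0] : Fin 3 → ℝ)
      + x 2 • (![0, 0, 1] : Fin 3 → ℝ) := by
  funext i
  fin_cases i <;> simp

/-- Main step with the normalisation `g e = (≤ 0, *, ≥ 0)`. -/
theorem exists_sym2_aux {N : ℝ} (hN : 0 < N) (g : (Fin 3 → ℝ) →ₗ[ℝ] (Fin 3 → ℝ))
    (hg : ∀ x y, qb N (g x) (g y) = qb N x y)
    (h2 : 0 ≤ g ![0, 0, 1] 2) (h0 : g ![0, 0, 1] 0 ≤ 0) :
    ∃ a b c d : ℝ, (a * d - b * c = 1 ∨ a * d - b * c = -1) ∧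
      ∀ x, g x = sym2 N a b c d x := by
  have hpp := hg ![0, 0, 1] ![0, 0, 1]
  have hqq := hg ![1, 0, 0] ![1, 0, 0]
  have hpq := hg ![0, 0, 1] ![1, 0, 0]
  have hrp := hg ![0, 1, 0] ![0, 0, 1]
  have hrq := hg ![0, 1, 0] ![1, 0, 0]
  have hrr := hg ![0, 1, 0] ![0, 1, 0]
  have dec : ∀ x, g x = x 0 • g ![1, 0, 0] + x 1 • g ![0, 1, 0] + x 2 • g ![0, 0, 1] := by
    intro x
    conv_lhs => rw [decomp x]
    simp only [map_add, map_smul]
  set p := g ![0, 0, 1] with hp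
  set q := g ![1, 0, 0] with hq
  set r := g ![0, 1, 0] with hr
  simp [qb] at hpp hqq hpq hrp hrq hrr
  obtain ⟨a, c, a1, a2, a3⟩ := exists_p hN (p0 := p 0) (p1 := p 1) (p2 := p 2)
    (by linarith) h2 h0
  obtain ⟨t, b, d, ht, b1, b2, b3⟩ := exists_q' hN (q0 := q 0) (q1 := q 1) (q2 := q 2)
    (by linarith)
  have hNne : N ≠ 0 := hN.ne'
  obtain ⟨K, hK0⟩ : ∃ K : ℝ, K = 2 / N := ⟨_, rfl⟩
  have hK : N * K = 2 := by rw [hK0]; field_simp
  rw [← hK0] at a2 a3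
  have key : t * (a * d - b * c) ^ 2 = 1 := by
    rw [a1, a2, a3, b1, b2, b3] at hpq
    linear_combination hpq - t * (b ^ 2 * c ^ 2 / 2 - a * b * c * d) * hK
  have ht1 : t = 1 := by
    rcases ht with ht | ht
    · exact ht
    · rw [ht] at key; nlinarith [sq_nonneg (a * d - b * c)]
  rw [ht1, one_mul] at key b1 b2 b3
  have hdet : a * d - b * c = 1 ∨ a * d - b * c = -1 := by
    have : (a * d - b * c) ^ 2 = 1 ^ 2 := by rw [key]; ring
    exact sq_eq_sq_iff_eq_or_eq_neg.1 this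
  -- the vector `r`
  have hrp' : a ^ 2 * r 0 - 2 * a * c * r 1 - K * c ^ 2 * r 2 = 0 := by
    rw [a1, a2, a3] at hrp
    linear_combination hrp + (a * c * r 1) * hK
  have hrq' : -(N / 2) * b ^ 2 * r 0 + N * b * d * r 1 + d ^ 2 * r 2 = 0 := by
    rw [b1, b2, b3] at hrq
    linear_combination hrq
  obtain ⟨γ, hγ⟩ : ∃ γ : ℝ, γ = -a * b * r 0 + (a * d + b * c) * r 1 + K * c * d * r 2 :=
    ⟨_, rfl⟩
  have r0 : r 0 = γ * (2 * c * d) := by
    rw [hγ]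
    linear_combination (-K * c ^ 2) * hrq' + (d ^ 2) * hrp' - (r 0) * key
      - (b ^ 2 * c ^ 2 * r 0 / 2 - b * c ^ 2 * d * r 1) * hK
  have r1 : r 1 = γ * (a * d + b * c) := by
    rw [hγ]
    linear_combination (-K * a * c) * hrq' + (b * d) * hrp' - (r 1) * key
      - (a * b ^ 2 * c * r 0 / 2 - a * b * c * d * r 1) * hK
  have r2 : r 2 = γ * (-N * a * b) := by
    rw [hγ]
    linear_combination (a ^ 2) * hrq' - (N / 2 * b ^ 2) * hrp' - (r 2) * key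
      - (b ^ 2 * c ^ 2 / 2 - a * b * c * d) * (r 2) * hK
  have hγ2 : γ ^ 2 = 1 := by
    have e1 : 2 * r 0 * r 2 + N * r 1 ^ 2 = N := by linarith
    rw [r0, r1, r2] at e1
    have e2 : N * γ ^ 2 * (a * d - b * c) ^ 2 = N * 1 := by linear_combination e1
    rw [key, mul_one] at e2
    exact mul_left_cancel₀ hNne e2
  have hγ3 : γ = 1 ∨ γ = -1 := by
    have : γ ^ 2 = 1 ^ 2 := by rw [hγ2]; ring
    exact sq_eq_sq_iff_eq_or_eq_neg.1 this
  rw [hK0] at a2 a3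
  rcases hγ3 with h | h
  · refine ⟨a, b, c, d, hdet, fun x => ?_⟩
    rw [dec x]
    unfold sym2
    refine eq_of_three ?_ ?_ ?_
    · simp only [Pi.add_apply, Pi.smul_apply, smul_eq_mul]
      rw [b1, r0, a2, h]; ring
    · simp only [Pi.add_apply, Pi.smul_apply, smul_eq_mul]
      rw [b2, r1, a3, h]; ring
    · simp only [Pi.add_apply, Pi.smul_apply, smul_eq_mul]
      rw [b3, r2, a1, h]; ring
  · refine ⟨a, -b, c, -d, ?_, fun x => ?_⟩
    · rcases hdet with h' | h'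
      · right; linarith
      · left; linarith
    rw [dec x]
    unfold sym2
    refine eq_of_three ?_ ?_ ?_
    · simp only [Pi.add_apply, Pi.smul_apply, smul_eq_mul]
      rw [b1, r0, a2, h]; ring
    · simp only [Pi.add_apply, Pi.smul_apply, smul_eq_mul]
      rw [b2, r1, a3, h]; ring
    · simp only [Pi.add_apply, Pi.smul_apply, smul_eq_mul]
      rw [b3, r2, a1, h]; ring

/-- **Every isometry is `± Sym²(M)` with `det M = ± 1`.** -/
theorem exists_sym2 {N : ℝ} (hN : 0 < N) (g : (Fin 3 → ℝ) →ₗ[ℝ] (Fin 3 → ℝ))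
    (hg : ∀ x y, qb N (g x) (g y) = qb N x y) :
    ∃ s a b c d : ℝ, (s = 1 ∨ s = -1) ∧ (a * d - b * c = 1 ∨ a * d - b * c = -1) ∧
      ∀ x, g x = s • sym2 N a b c d x := by
  have hpp := hg ![0, 0, 1] ![0, 0, 1]
  have hpq := hg ![0, 0, 1] ![1, 0, 0]
  simp only [qb, Matrix.cons_val_zero, Matrix.cons_val_one, Matrix.cons_val] at hpp hpq
  by_cases hc : 0 ≤ g ![0, 0, 1] 2 ∧ g ![0, 0, 1] 0 ≤ 0
  · obtain ⟨a, b, c, d, h1, h2⟩ := exists_sym2_aux hN g hg hc.1 hc.2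
    exact ⟨1, a, b, c, d, Or.inl rfl, h1, fun x => by rw [one_smul]; exact h2 x⟩
  · have hle : g ![0, 0, 1] 0 * g ![0, 0, 1] 2 ≤ 0 := by nlinarith [sq_nonneg (g ![0, 0, 1] 1)]
    have h2 : g ![0, 0, 1] 2 ≤ 0 := by
      by_contra h2
      push Not at h2
      apply hc
      refine ⟨h2.le, ?_⟩
      by_contra h0
      push Not at h0
      nlinarith [mul_pos h0 h2]
    have h0 : 0 ≤ g ![0, 0, 1] 0 := by
      by_contra h0
      push Not at h0
      apply hc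
      refine ⟨?_, h0.le⟩
      by_contra h2
      push Not at h2
      nlinarith [mul_pos_of_neg_of_neg h0 h2]
    obtain ⟨a, b, c, d, h3, h4⟩ := exists_sym2_aux hN (-g) (by
      intro x y
      rw [← hg x y]
      simp only [qb, LinearMap.neg_apply, Pi.neg_apply]
      ring) (by simpa using h2) (by simpa using h0)
    refine ⟨-1, a, b, c, d, Or.inr rfl, h3, fun x => ?_⟩
    rw [← h4 x, LinearMap.neg_apply]; simp

/-- Complexification of a real linear map of `ℝ³`. -/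
noncomputable def cx (g : (Fin 3 → ℝ) →ₗ[ℝ] (Fin 3 → ℝ)) (z : Fin 3 → ℂ) : Fin 3 → ℂ :=
  fun i => (g (fun j => (z j).re) i : ℂ) + (g (fun j => (z j).im) i : ℂ) * I

theorem cx_eq {N : ℝ} {g : (Fin 3 → ℝ) →ₗ[ℝ] (Fin 3 → ℝ)} {s a b c d : ℝ}
    (h : ∀ x, g x = s • sym2 N a b c d x) (z : Fin 3 → ℂ) :
    cx g z = (s : ℂ) • ![(d : ℂ) ^ 2 * z 0 + 2 * c * d * z 1 - 2 / N * c ^ 2 * z 2,
      (b : ℂ) * d * z 0 + (a * d + b * c) * z 1 - 2 / N * a * c * z 2,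
      -((N : ℂ) / 2) * b ^ 2 * z 0 - N * a * b * z 1 + a ^ 2 * z 2] := by
  have hz : ∀ i, ((z i).re : ℂ) + ((z i).im : ℂ) * I = z i := fun i => re_add_im (z i)
  funext i
  fin_cases i
  · show ((g (fun j => (z j).re) 0 : ℝ) : ℂ) + ((g (fun j => (z j).im) 0 : ℝ) : ℂ) * I
      = (s : ℂ) * ((d : ℂ) ^ 2 * z 0 + 2 * c * d * z 1 - 2 / N * c ^ 2 * z 2)
    rw [h, h]
    simp only [sym2, Pi.smul_apply, smul_eq_mul, Matrix.cons_val_zero]
    push_cast
    linear_combination ((s : ℂ) * d ^ 2) * hz 0 + ((s : ℂ) * (2 * c * d)) * hz 1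
      - ((s : ℂ) * (2 / N * c ^ 2)) * hz 2
  · show ((g (fun j => (z j).re) 1 : ℝ) : ℂ) + ((g (fun j => (z j).im) 1 : ℝ) : ℂ) * I
      = (s : ℂ) * ((b : ℂ) * d * z 0 + (a * d + b * c) * z 1 - 2 / N * a * c * z 2)
    rw [h, h]
    simp only [sym2, Pi.smul_apply, smul_eq_mul, Matrix.cons_val_one, Matrix.cons_val_zero]
    push_cast
    linear_combination ((s : ℂ) * (b * d)) * hz 0 + ((s : ℂ) * (a * d + b * c)) * hz 1
      - ((s : ℂ) * (2 / N * a * c)) * hz 2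
  · show ((g (fun j => (z j).re) 2 : ℝ) : ℂ) + ((g (fun j => (z j).im) 2 : ℝ) : ℂ) * I
      = (s : ℂ) * (-((N : ℂ) / 2) * b ^ 2 * z 0 - N * a * b * z 1 + a ^ 2 * z 2)
    rw [h, h]
    simp only [sym2, Pi.smul_apply, smul_eq_mul, Matrix.cons_val]
    push_cast
    linear_combination ((s : ℂ) * (-((N : ℂ) / 2) * b ^ 2)) * hz 0
      - ((s : ℂ) * (N * a * b)) * hz 1 + ((s : ℂ) * a ^ 2) * hz 2

theorem cx_sig {N : ℝ} (hN : 0 < N) {g : (Fin 3 → ℝ) →ₗ[ℝ] (Fin 3 → ℝ)} {s a b c d : ℝ}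
    (h : ∀ x, g x = s • sym2 N a b c d x) {τ : ℂ} (hτ : (c : ℂ) * τ + d ≠ 0) :
    cx g (sig N τ) = ((s : ℂ) * (c * τ + d) ^ 2) • sig N ((a * τ + b) / (c * τ + d)) := by
  have hNC : (N : ℂ) ≠ 0 := by exact_mod_cast hN.ne'
  rw [cx_eq h, mul_smul]
  congr 1
  funext i
  obtain ⟨D, hD⟩ : ∃ D : ℂ, D = (c : ℂ) * τ + d := ⟨_, rfl⟩
  rw [← hD] at hτ ⊢
  fin_cases i
  · show (d : ℂ) ^ 2 * sig N τ 0 + 2 * c * d * sig N τ 1 - 2 / N * c ^ 2 * sig N τ 2
      = D ^ 2 * sig N ((a * τ + b) / D) 0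
    rw [sig_zero, sig_one, sig_two, sig_zero, hD]
    field_simp
    ring
  · show (b : ℂ) * d * sig N τ 0 + (a * d + b * c) * sig N τ 1 - 2 / N * a * c * sig N τ 2
      = D ^ 2 * sig N ((a * τ + b) / D) 1
    have e : D ^ 2 * ((a * τ + b) / D) = D * (a * τ + b) := by field_simp
    rw [sig_zero, sig_one, sig_two, sig_one, e, hD]
    field_simp
    ring
  · show -((N : ℂ) / 2) * b ^ 2 * sig N τ 0 - N * a * b * sig N τ 1 + a ^ 2 * sig N τ 2
      = D ^ 2 * sig N ((a * τ + b) / D) 2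
    have e : D ^ 2 * (-((N : ℂ) / 2) * ((a * τ + b) / D) ^ 2)
        = -((N : ℂ) / 2) * (a * τ + b) ^ 2 := by field_simp
    rw [sig_zero, sig_one, sig_two, sig_two, e]
    ring

theorem denom_ne {c d : ℝ} {τ : ℂ} (hcd : c ≠ 0 ∨ d ≠ 0) (hτ : 0 < τ.im) :
    (c : ℂ) * τ + d ≠ 0 := by
  intro h
  have him := congrArg Complex.im h
  have hre := congrArg Complex.re h
  simp at him hre
  have hc : c = 0 := by
    rcases him with h1 | h1
    · exact h1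
    · exact absurd h1 hτ.ne'
  rw [hc] at hre
  simp at hre
  rcases hcd with h1 | h1
  · exact h1 hc
  · exact h1 hre

theorem cd_ne {a b c d : ℝ} (h : a * d - b * c = 1 ∨ a * d - b * c = -1) : c ≠ 0 ∨ d ≠ 0 := by
  by_contra hn
  push Not at hn
  rw [hn.1, hn.2] at h
  rcases h with h | h <;> norm_num at h

theorem im_moebius {a b c d : ℝ} {τ : ℂ} (hτ : (c : ℂ) * τ + d ≠ 0) :
    ((a * τ + b) / (c * τ + d) : ℂ).im = (a * d - b * c) * τ.im / normSq ((c : ℂ) * τ + d) := by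
  have hn : normSq ((c : ℂ) * τ + d) ≠ 0 := by
    simpa [normSq_eq_zero] using hτ
  rw [Complex.div_im]
  field_simp
  simp
  ring

/-- An isometry mapping one point of the upper half plane into it is `± Sym²(M)`, `M ∈ SL(2,ℝ)`. -/
theorem exists_SL {N : ℝ} (hN : 0 < N) (g : (Fin 3 → ℝ) →ₗ[ℝ] (Fin 3 → ℝ))
    (hg : ∀ x y, qb N (g x) (g y) = qb N x y) {τ τ' : ℂ} (hτ : 0 < τ.im) (hτ' : 0 < τ'.im) {j : ℂ}
    (hj : cx g (sig N τ) = j • sig N τ') :
    ∃ (s : ℝ) (M : SL(2, ℝ)), (s = 1 ∨ s = -1) ∧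
      (∀ x, g x = s • sym2 N (M 0 0) (M 0 1) (M 1 0) (M 1 1) x) ∧
      (∀ w : ℍ, cx g (sig N w) = ((s : ℂ) * (denom M w) ^ 2) • sig N ((M • w : ℍ) : ℂ)) ∧
      ∀ w w' : ℍ, ∀ k : ℂ, cx g (sig N w) = k • sig N w' → w' = M • w := by
  obtain ⟨s, a, b, c, d, hs, hdet, hx⟩ := exists_sym2 hN g hg
  have hsC : (s : ℂ) ≠ 0 := by
    rcases hs with h | h <;> rw [h] <;> norm_num
  have hne : ∀ w : ℂ, 0 < w.im → (c : ℂ) * w + d ≠ 0 := fun w hw => denom_ne (cd_ne hdet) hw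
  have huniq : ∀ w w' : ℂ, 0 < w.im → ∀ k : ℂ, cx g (sig N w) = k • sig N w' →
      w' = (a * w + b) / (c * w + d) := by
    intro w w' hw k hk
    rw [cx_sig hN hx (hne w hw)] at hk
    have e0 := congrFun hk 0
    have e1 := congrFun hk 1
    rw [Pi.smul_apply, Pi.smul_apply, smul_eq_mul, smul_eq_mul, sig_zero, sig_zero, mul_one,
      mul_one] at e0
    rw [Pi.smul_apply, Pi.smul_apply, smul_eq_mul, smul_eq_mul, sig_one, sig_one, ← e0] at e1
    have hk0 : (s : ℂ) * (c * w + d) ^ 2 ≠ 0 := mul_ne_zero hsC (pow_ne_zero _ (hne w hw))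
    exact (mul_left_cancel₀ hk0 e1).symm
  have hd1 : a * d - b * c = 1 := by
    rcases hdet with h | h
    · exact h
    · exfalso
      have e := huniq τ τ' hτ j hj
      have him := im_moebius (a := a) (b := b) (c := c) (d := d) (hne τ hτ)
      rw [← e, h] at him
      have hn : 0 < normSq ((c : ℂ) * τ + d) := normSq_pos.2 (hne τ hτ)
      have : -1 * τ.im / normSq ((c : ℂ) * τ + d) < 0 := by
        apply div_neg_of_neg_of_pos _ hn
        linarith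
      linarith
  obtain ⟨M, hM⟩ : ∃ M : SL(2, ℝ), (M : Matrix (Fin 2) (Fin 2) ℝ) = !![a, b; c, d] :=
    ⟨⟨!![a, b; c, d], by rw [Matrix.det_fin_two_of]; exact hd1⟩, rfl⟩
  have m00 : M 0 0 = a := by
    show (M : Matrix (Fin 2) (Fin 2) ℝ) 0 0 = a
    rw [hM]; rfl
  have m01 : M 0 1 = b := by
    show (M : Matrix (Fin 2) (Fin 2) ℝ) 0 1 = b
    rw [hM]; rfl
  have m10 : M 1 0 = c := by
    show (M : Matrix (Fin 2) (Fin 2) ℝ) 1 0 = c
    rw [hM]; rfl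
  have m11 : M 1 1 = d := by
    show (M : Matrix (Fin 2) (Fin 2) ℝ) 1 1 = d
    rw [hM]; rfl
  have hMw : ∀ w : ℍ, ((M • w : ℍ) : ℂ) = (a * w + b) / (c * w + d) := by
    intro w
    rw [UpperHalfPlane.coe_specialLinearGroup_apply]
    simp only [m00, m01, m10, m11, Algebra.algebraMap_self, RingHom.id_apply]
  refine ⟨s, M, hs, ?_, ?_, ?_⟩
  · intro x; rw [m00, m01, m10, m11]; exact hx x
  · intro w
    rw [cx_sig hN hx (hne w w.im_pos), hMw]
    have : denom M w = (c : ℂ) * w + d := by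
      simp [denom, m10, m11]
    rw [this]
  · intro w w' k hk
    apply UpperHalfPlane.ext
    rw [huniq w w' w.im_pos k hk, hMw]

end Crest.Agent.R281.W3c_698
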