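import Crest.Agent.R281.Ma2_69
import Crest.Agent.R281.Ti7_846
import Crest.Agent.R281.Ti5_846
import Crest.Agent.R281.W3c_698

/-!
# Row 281, MASS (D18), part 3 (helper69): the mass of a holomorphic symplectic form

* `TP_reindex`, `TP_chg` : change of the index type, of the basis
* `II_f2H`    : `∫_X (Re σ)^n = 2^n n! |σ|(X)`, `|σ| = vm (volS σ)` (density `‖det s‖` in the charts)
* `II_gen`    : any Haar measure, any basis: a constant `c ≠ 0` independent of the manifold
* `mass_f2`   : `|σ|(X)` from the class of `Re σ` in a fixed system of real charts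
* `mass_sig`  : class `z * sig N τ` in `⟨e*, v, e⟩`: `|σ|(X) = κ (|z|² N y²)^ν / (2^n n!)`
-/

set_option autoImplicit false
set_option linter.unusedSectionVars false
set_option maxSynthPendingDepth 3

open Set Filter Topology Complex MeasureTheory
open scoped ContDiff Matrix ComplexConjugate InnerProductSpace ENNReal ComplexOrder

namespace Crest.Agent.R281.Ma_69

open Crest.Agent.R275.Geo Crest.Agent.R275.Core144 Crest.Agent.R275.EDR890
open Crest.Agent.R273.Defs_333 Crest.Agent.R273.HM_333 Crest.Agent.R273.Kah_333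
open Crest.Agent.R273.Vol_333 Crest.Agent.R273.Vm_333
open Crest.Agent.R281.HkR_835 Crest.Agent.R281.Ti_846 Crest.Agent.R281.HkP2_508
open Crest.Agent.R281.Defs_273 (H2 HSymp)

noncomputable section

/-! ### index type and basis -/

section lin

variable {V : Type*} [NormedAddCommGroup V] [NormedSpace ℝ V]
variable {K K' : Type*} [Fintype K] [DecidableEq K] [Fintype K'] [DecidableEq K']

theorem TP_reindex (e : K ≃ K') (b : K' × Fin 2 → V) (w : K' → Bil V) :
    TP (fun p : K × Fin 2 => b (e p.1, p.2)) (fun k => w (e k)) = TP b w := by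
  unfold TP
  set E : K × Fin 2 ≃ K' × Fin 2 := e.prodCongr (Equiv.refl _) with hE
  refine Fintype.sum_equiv E.permCongr _ _ fun σ => ?_
  rw [Equiv.Perm.sign_permCongr]
  congr 1
  refine Fintype.prod_equiv e _ _ fun k => ?_
  have h1 : ∀ j : Fin 2, (E.permCongr σ) (e k, j) = E (σ (k, j)) := by
    intro j
    rw [Equiv.permCongr_apply]
    congr 2
    rw [hE]
    simp [Prod.map]
  rw [h1, h1]
  rfl

theorem TP_chg (b b' : Module.Basis (K × Fin 2) ℝ V) (w : K → Bil V) :
    TP b w = b'.det b * TP b' w := by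
  rw [← wed_apply w b, ← wed_apply w b']
  have h2 := AlternatingMap.eq_smul_basis_det b' (wed w)
  conv_lhs => rw [h2]
  rw [AlternatingMap.smul_apply, smul_eq_mul, mul_comm]

end lin

variable {n : ℕ}

/-- any basis -/
theorem TP_gen {K : Type*} [Fintype K] [DecidableEq K] (b : Module.Basis (K × Fin 2) ℝ (Cn n)) :
    ∃ c : ℝ, c ≠ 0 ∧ ∀ w : Bil (Cn n), TP b (fun _ => w) = c * TP (bc n) (fun _ => w) := by
  have h1 : Fintype.card K = n := by
    have h2 := Module.finrank_eq_card_basis b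
    rw [Module.finrank_eq_card_basis (bc n)] at h2
    simp only [Fintype.card_prod, Fintype.card_fin] at h2
    omega
  obtain ⟨e⟩ : Nonempty (Fin n ≃ K) := ⟨(Fintype.equivFinOfCardEq h1).symm⟩
  set b' : Module.Basis (Fin n × Fin 2) ℝ (Cn n) :=
    b.reindex (e.prodCongr (Equiv.refl _)).symm with hb'
  have hb2 : ∀ p, b' p = b (e p.1, p.2) := fun p => by
    rw [hb', Module.Basis.reindex_apply]
    rfl
  refine ⟨(bc n).det b', ((bc n).isUnit_det b').ne_zero, fun w => ?_⟩
  rw [← TP_chg, ← TP_reindex e b (fun _ => w)]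
  congr 1
  funext p
  exact (hb2 p).symm

variable {M : Type} [TopologicalSpace M] {A : Atl n M}

section glob

variable [CompactSpace M]

/-! ### Haar measures -/

variable (μ : Measure (Cn n)) [μ.IsAddHaarMeasure]

/-- the ratio of two Haar measures -/
def kap : ℝ := (Measure.addHaarScalarFactor μ (lc n) : ℝ)

theorem kap_pos : 0 < kap μ :=
  NNReal.coe_pos.2 (Measure.addHaarScalarFactor_pos_of_isAddHaarMeasure μ (lc n))

theorem intT_kap (C : RCh (Cn n) M) (P : RPart C) (D : TopF C) :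
    intT μ P D = kap μ * intT (lc n) P D := by
  have h1 : μ = (Measure.addHaarScalarFactor μ (lc n)) • (lc n) :=
    Measure.isAddLeftInvariant_eq_smul μ (lc n)
  unfold intT
  rw [Finset.mul_sum]
  refine Finset.sum_congr rfl fun k _ => ?_
  conv_lhs => rw [h1]
  rw [Measure.restrict_smul, integral_smul_nnreal_measure]
  rfl

/-- **the mass of a holomorphic symplectic form** -/
theorem II_f2H [MeasurableSpace M] [BorelSpace M] [Countable A.ι] (σ : HSymp A)
    (hc : ClH σ.toH2) (P : RPart (ofAtl A)) :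
    II (lc n) (bc n) P (fun _ => f2H σ.toH2 hc) =
      2 ^ n * n.factorial * (vm (volS σ)).real univ := by
  rw [II_vm (volS σ) P (fun _ => f2H σ.toH2 hc) (f := fun _ => 2 ^ n * n.factorial)]
  · rw [integral_const, smul_eq_mul, mul_comm]
  · intro i x hx
    have h1 : TP (bc n) (fun _ : Fin n => (f2H σ.toH2 hc).w i (A.e i x)) =
        TP (bc n) (fun _ => reM (σ.s i x)) := TP_congr fun _ u v => by
      rw [f2H_w, reM_apply, sl, (A.e i).left_inv hx]
    rw [h1, TP_reM_bc (σ.alt i x hx) (σ.nd i x hx)]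
    show _ = ‖(σ.s i x).det‖ * _
    ring

end glob

/-- any Haar measure, any basis -/
theorem II_gen (μ : Measure (Cn n)) [μ.IsAddHaarMeasure] {K : Type} [Fintype K] [DecidableEq K]
    (b : Module.Basis (K × Fin 2) ℝ (Cn n)) :
    ∃ c : ℝ, c ≠ 0 ∧ ∀ (M : Type) [TopologicalSpace M] [CompactSpace M] (C : RCh (Cn n) M)
      (P : RPart C) (w : F2 C),
      II μ b P (fun _ => w) = c * II (lc n) (bc n) P (fun _ => w) := by
  obtain ⟨c, hc, h⟩ := TP_gen b
  refine ⟨kap μ * c, mul_ne_zero (kap_pos μ).ne' hc, ?_⟩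
  intro M _ _ C P w
  unfold II
  rw [intT_kap, mul_assoc]
  congr 1
  have h1 := intT_sum (lc n) P (Finset.univ : Finset (Fin 1)) (fun _ => c)
    (fun _ => TopF.of (bc n) (fun _ : Fin n => w)) (TopF.of b (fun _ : K => w)) (fun i z _ => by
      rw [Fin.sum_univ_one]
      exact h (w.w i z))
  rw [Fin.sum_univ_one] at h1
  exact h1

/-! ### fixed real charts -/

section fixed

variable [CompactSpace M] [MeasurableSpace M] [BorelSpace M] [Countable A.ι]

/-- **the mass from the class of `Re σ`** in a fixed system of real charts -/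
theorem mass_f2 (σ : HSymp A) (hc : ClH σ.toH2) {C : RCh (Cn n) M} (hC : Cmp C (ofAtl A))
    (ho : OriM C (ofAtl A)) (hoC : Ori C) (P : RPart C) (P' : RPart (ofAtl A)) {r r' : F2 C}
    (hr : ∀ i, ∀ z ∈ (A.e i).target, ∀ u v,
      (hC.F r).w i z u v = (sb (σ.s i ((A.e i).symm z)) u v).re) (hcoh : Coh r r') :
    2 ^ n * n.factorial * (vm (volS σ)).real univ = II (lc n) (bc n) P (fun _ => r') := by
  rw [← II_coh (lc n) hoC (bc n) P (fun _ => r) (fun _ => r') fun _ => hcoh, ← II_f2H σ hc P',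
    ← II_cmp (lc n) (bc n) hC ho P P' (fun _ => r)]
  refine (II_congr (lc n) (bc n) P' fun _ i z hz u v => ?_).symm
  exact (hr i z hz u v).trans (f2H_w σ.toH2 hc i z u v).symm

end fixed

/-! ### the period -/

open Crest.Agent.R281.W3c_698

/-- real part of an isotropic vector -/
theorem qb_re {N : ℝ} {Z : Fin 3 → ℂ} (h : qbC N Z Z = 0) :
    qb N (fun i => (Z i).re) (fun i => (Z i).re) =
      (1 / 2) * (qbC N Z (fun i => conj (Z i))).re := by
  have h1 := congrArg Complex.re h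
  simp only [qbC, Complex.add_re, Complex.mul_re, Complex.mul_im, Complex.ofReal_re,
    Complex.ofReal_im, Complex.conj_re, Complex.conj_im, Complex.zero_re, qb] at h1 ⊢
  linarith

theorem qb_re_sig {N : ℝ} (z τ : ℂ) :
    qb N (fun i => (z * sig N τ i).re) (fun i => (z * sig N τ i).re) =
      ‖z‖ ^ 2 * (N * τ.im ^ 2) := by
  have h0 : qbC N (fun i => z * sig N τ i) (fun i => z * sig N τ i) = 0 := by
    have := qbC_sig N τ
    simp only [qbC] at this ⊢
    linear_combination (z ^ 2) * this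
  rw [qb_re h0]
  have h1 : qbC N (fun i => z * sig N τ i) (fun i => conj (z * sig N τ i)) =
      ((‖z‖ ^ 2 : ℝ) : ℂ) * ((2 * N * τ.im ^ 2 : ℝ) : ℂ) := by
    have h2 := qbC_sig_conj N τ
    have h3 : ((‖z‖ ^ 2 : ℝ) : ℂ) = z * conj z := by
      rw [Complex.mul_conj, Complex.normSq_eq_norm_sq]
    rw [h3]
    simp only [qbC, map_mul] at h2 ⊢
    linear_combination (z * conj z) * h2
  rw [h1, Complex.re_ofReal_mul, Complex.ofReal_re]
  ring

/-- **(D18)**: `W : Fin 3 → F2 C` represents `e*, v, e`; the top power is `κ q^ν` on `⟨W⟩`; the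
class of `Re σ` is `Re (z sig τ)`: then `|σ|(X) = κ (|z|² N (Im τ)²)^ν / (2^n n!)` -/
theorem mass_sig [CompactSpace M] [MeasurableSpace M] [BorelSpace M] [Countable A.ι]
    (σ : HSymp A) (hc : ClH σ.toH2) {C : RCh (Cn n) M} (hC : Cmp C (ofAtl A))
    (ho : OriM C (ofAtl A)) (hoC : Ori C) (P : RPart C) (P' : RPart (ofAtl A)) {r : F2 C}
    (hr : ∀ i, ∀ z ∈ (A.e i).target, ∀ u v,
      (hC.F r).w i z u v = (sb (σ.s i ((A.e i).symm z)) u v).re)
    (W : Fin 3 → F2 C) {κ N : ℝ} {ν : ℕ}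
    (hQ : ∀ x : Fin 3 → ℝ, II (lc n) (bc n) P (fun _ => ∑ i, x i • W i) = κ * qb N x x ^ ν)
    (z τ : ℂ) (hcoh : Coh r (∑ i, (z * sig N τ i).re • W i)) :
    (vm (volS σ)).real univ = κ * (‖z‖ ^ 2 * (N * τ.im ^ 2)) ^ ν / (2 ^ n * n.factorial) := by
  have h1 := mass_f2 σ hc hC ho hoC P P' hr hcoh
  rw [hQ, qb_re_sig] at h1
  rw [← h1, mul_div_cancel_left₀]
  positivity

/-- the same for any Haar measure and any basis, the constant `c` depends only on them -/
theorem mass_gen (μ : Measure (Cn n)) [μ.IsAddHaarMeasure] {K : Type} [Fintype K] [DecidableEq K]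
    (b : Module.Basis (K × Fin 2) ℝ (Cn n)) :
    ∃ c : ℝ, c ≠ 0 ∧ ∀ (M : Type) [TopologicalSpace M] [CompactSpace M] [MeasurableSpace M]
      [BorelSpace M] (A : Atl n M) [Countable A.ι] (σ : HSymp A) (_ : ClH σ.toH2)
      (C : RCh (Cn n) M) (hC : Cmp C (ofAtl A)) (_ : OriM C (ofAtl A)) (_ : Ori C) (P : RPart C)
      (_ : RPart (ofAtl A)) (r r' : F2 C) (_ : ∀ i, ∀ z ∈ (A.e i).target, ∀ u v,
        (hC.F r).w i z u v = (sb (σ.s i ((A.e i).symm z)) u v).re) (_ : Coh r r'),
      II μ b P (fun _ => r') = c * (vm (volS σ)).real univ := by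
  obtain ⟨c, hc, h⟩ := II_gen μ b
  refine ⟨c * (2 ^ n * n.factorial), mul_ne_zero hc (by positivity), ?_⟩
  intro M _ _ _ _ A _ σ hcl C hC ho hoC P P' r r' hr hcoh
  rw [h M C P r', ← mass_f2 σ hcl hC ho hoC P P' hr hcoh]
  ring

/-- **(D18), any Haar measure and any basis** -/
theorem mass_sig_gen (μ : Measure (Cn n)) [μ.IsAddHaarMeasure] {K : Type} [Fintype K]
    [DecidableEq K] (b : Module.Basis (K × Fin 2) ℝ (Cn n)) :
    ∃ c : ℝ, c ≠ 0 ∧ ∀ (M : Type) [TopologicalSpace M] [CompactSpace M] [MeasurableSpace M]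
      [BorelSpace M] (A : Atl n M) [Countable A.ι] (σ : HSymp A) (_ : ClH σ.toH2)
      (C : RCh (Cn n) M) (hC : Cmp C (ofAtl A)) (_ : OriM C (ofAtl A)) (_ : Ori C) (P : RPart C)
      (_ : RPart (ofAtl A)) (r : F2 C) (_ : ∀ i, ∀ z ∈ (A.e i).target, ∀ u v,
        (hC.F r).w i z u v = (sb (σ.s i ((A.e i).symm z)) u v).re)
      (W : Fin 3 → F2 C) (κ N : ℝ) (ν : ℕ)
      (_ : ∀ x : Fin 3 → ℝ, II μ b P (fun _ => ∑ i, x i • W i) = κ * qb N x x ^ ν)
      (z τ : ℂ) (_ : Coh r (∑ i, (z * sig N τ i).re • W i)),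
      c * (vm (volS σ)).real univ = κ * (‖z‖ ^ 2 * (N * τ.im ^ 2)) ^ ν := by
  obtain ⟨c, hc, h⟩ := mass_gen μ b
  refine ⟨c, hc, ?_⟩
  intro M _ _ _ _ A _ σ hcl C hC ho hoC P P' r hr W κ N ν hQ z τ hcoh
  rw [← h M A σ hcl C hC ho hoC P P' r _ hr hcoh, hQ, qb_re_sig]

/-- the mass is positive -/
theorem mass_pos [CompactSpace M] [MeasurableSpace M] [BorelSpace M] [Countable A.ι]
    [Nonempty M] (σ : HSymp A) : 0 < (vm (volS σ)).real univ := by
  have h1 := isOpenPos_vm (volS σ)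
  have h2 := isFinite_vm (volS σ)
  exact ENNReal.toReal_pos (isOpen_univ.measure_pos _ univ_nonempty).ne' (measure_ne_top _ _)

end

end Crest.Agent.R281.Ma_69
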