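import Mathlib.Analysis.Calculus.BumpFunction.FiniteDimension
import Mathlib.Analysis.Calculus.BumpFunction.Normed
import Mathlib.Analysis.Calculus.ParametricIntegral
import Mathlib.Analysis.SpecialFunctions.SmoothTransition
import Mathlib.MeasureTheory.Group.Integral
import Mathlib.MeasureTheory.Integral.Prod
import Mathlib.MeasureTheory.Integral.DominatedConvergence
import Mathlib.MeasureTheory.Measure.Lebesgue.EqHaar

/-!
# R281 (S0424), leaf S6-MASS, part 1 (helper519): measures with zero gradient

`exists_const` : a measure `ν` on an open preconnected set `U` of a finite dimensional real vector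
space, finite on compact subsets of `U`, with `∫ dχ(w) dν = 0` for all test functions `χ` of `U`, is a
multiple of Lebesgue measure on `U`.
-/

set_option autoImplicit false
set_option linter.unusedSectionVars false

open Set Filter Topology MeasureTheory Metric
open scoped ContDiff ENNReal NNReal

namespace Crest.Agent.R281.Mass1_519

noncomputable section

variable {E : Type*} [NormedAddCommGroup E] [NormedSpace ℝ E]

/-! ### supports -/

theorem tsupport_shift {χ : E → ℝ} {c : E} {r s : ℝ} (hχ : tsupport χ ⊆ closedBall c r) {h : E}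
    (hh : ‖h‖ ≤ s) : tsupport (fun x => χ (x - h)) ⊆ closedBall c (r + s) := by
  refine closure_minimal ?_ isClosed_closedBall
  intro x hx
  have h1 : x - h ∈ closedBall c r := hχ (subset_tsupport _ hx)
  rw [mem_closedBall, dist_eq_norm] at h1 ⊢
  calc ‖x - c‖ = ‖(x - h - c) + h‖ := by congr 1; abel
    _ ≤ ‖x - h - c‖ + ‖h‖ := norm_add_le _ _
    _ ≤ r + s := add_le_add h1 hh

variable [FiniteDimensional ℝ E]

theorem compact_of_tsupport {χ : E → ℝ} {c : E} {r : ℝ} (hχ : tsupport χ ⊆ closedBall c r) :
    HasCompactSupport χ := by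
  have := FiniteDimensional.proper_real E
  exact (isCompact_closedBall c r).of_isClosed_subset (isClosed_tsupport _) hχ

variable [MeasurableSpace E] [BorelSpace E]

theorem integrable_of_cc {ν : Measure E} [IsFiniteMeasure ν] {f : E → ℝ} (hf : Continuous f)
    (hc : HasCompactSupport f) : Integrable f ν := by
  obtain ⟨C, hC⟩ := hc.exists_bound_of_continuous hf
  exact Integrable.of_bound hf.aestronglyMeasurable C (Eventually.of_forall hC)

/-! ### local translation invariance -/

/-- zero gradient on `closedBall c R` -/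
def ZG (ν : Measure E) (c : E) (R : ℝ) : Prop :=
  ∀ χ : E → ℝ, ContDiff ℝ ∞ χ → tsupport χ ⊆ closedBall c R → ∀ w, ∫ x, fderiv ℝ χ x w ∂ν = 0

theorem trans_inv {ν : Measure E} [IsFiniteMeasure ν] {c : E} {r : ℝ} (hr : 0 < r)
    (H : ZG ν c (3 * r)) {χ : E → ℝ} (hχ : ContDiff ℝ ∞ χ) (hs : tsupport χ ⊆ closedBall c r)
    {h : E} (hh : ‖h‖ ≤ r) : ∫ x, χ (x - h) ∂ν = ∫ x, χ x ∂ν := by
  have hcc := compact_of_tsupport hs
  have hdc : Continuous (fderiv ℝ χ) := hχ.continuous_fderiv (by simp)
  obtain ⟨C, hC⟩ := (hcc.fderiv (𝕜 := ℝ)).exists_bound_of_continuous hdc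
  have key : ∀ t ∈ Ico (0:ℝ) 1, HasDerivAt (fun t : ℝ => ∫ x, χ (x - t • h) ∂ν) 0 t := by
    intro t ht
    have h1 := hasDerivAt_integral_of_dominated_loc_of_deriv_le (μ := ν)
      (F := fun (t : ℝ) x => χ (x - t • h)) (F' := fun (t : ℝ) x => - fderiv ℝ χ (x - t • h) h)
      (x₀ := t) (s := univ) (bound := fun _ => C * ‖h‖) univ_mem
      (Eventually.of_forall fun s => (hχ.continuous.comp
        (continuous_id.sub continuous_const)).aestronglyMeasurable)
      (by
        obtain ⟨C', hC'⟩ := hcc.exists_bound_of_continuous hχ.continuous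
        exact Integrable.of_bound (hχ.continuous.comp
          (continuous_id.sub continuous_const)).aestronglyMeasurable C'
          (Eventually.of_forall fun x => hC' _))
      (by
        have : Continuous fun x => - fderiv ℝ χ (x - t • h) h :=
          ((hdc.comp (continuous_id.sub continuous_const)).clm_apply continuous_const).neg
        exact this.aestronglyMeasurable)
      (Eventually.of_forall fun x s _ => by
        rw [norm_neg]
        exact ((fderiv ℝ χ (x - s • h)).le_opNorm h).trans
          (mul_le_mul_of_nonneg_right (hC _) (norm_nonneg _)))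
      (integrable_const _)
      (Eventually.of_forall fun x s _ => by
        have h2 : HasDerivAt (fun s : ℝ => x - s • h) (-h) s := by
          have := ((hasDerivAt_id s).smul_const h).const_sub x
          simpa using this
        have h3 : HasFDerivAt χ (fderiv ℝ χ (x - s • h)) (x - s • h) :=
          ((hχ.differentiable (by simp)) _).hasFDerivAt
        have h4 := h3.comp_hasDerivAt s h2
        rw [map_neg] at h4
        exact h4)
    have h5 : ∫ x, - fderiv ℝ χ (x - t • h) h ∂ν = 0 := by
      have h6 := H (fun x => χ (x - t • h)) (hχ.comp (contDiff_id.sub contDiff_const))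
        (by
          have h7 : ‖t • h‖ ≤ r := by
            rw [norm_smul, Real.norm_eq_abs, abs_of_nonneg ht.1]
            exact (mul_le_of_le_one_left (norm_nonneg _) ht.2.le).trans hh
          refine (tsupport_shift hs h7).trans (closedBall_subset_closedBall ?_)
          linarith) h
      have h8 : ∀ x, fderiv ℝ (fun x => χ (x - t • h)) x h = fderiv ℝ χ (x - t • h) h := by
        intro x
        rw [fderiv_comp_sub]
      simp only [h8] at h6
      rw [integral_neg, h6, neg_zero]
    have h9 := h1.2
    rw [h5] at h9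
    exact h9
  have hcont : ContinuousOn (fun t : ℝ => ∫ x, χ (x - t • h) ∂ν) (Icc 0 1) := by
    refine Continuous.continuousOn ?_
    obtain ⟨C', hC'⟩ := hcc.exists_bound_of_continuous hχ.continuous
    refine continuous_of_dominated (bound := fun _ => C') (fun t => ?_) (fun t => ?_)
      (integrable_const _) ?_
    · exact (hχ.continuous.comp (continuous_id.sub continuous_const)).aestronglyMeasurable
    · exact Eventually.of_forall fun x => hC' _
    · refine Eventually.of_forall fun x => ?_
      exact hχ.continuous.comp (continuous_const.sub (continuous_id.smul continuous_const))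
  have h10 := constant_of_has_deriv_right_zero hcont
    (fun t ht => (key t ht).hasDerivWithinAt) 1 (right_mem_Icc.2 zero_le_one)
  simpa using h10

/-! ### the local statement -/

variable (μ : Measure E) [μ.IsAddHaarMeasure]

theorem local_eq {ν : Measure E} [IsFiniteMeasure ν] {c : E} {r : ℝ} (hr : 0 < r)
    (H : ZG ν c (3 * r)) : ∃ κ : ℝ, 0 ≤ κ ∧ ∀ χ : E → ℝ, ContDiff ℝ ∞ χ →
      tsupport χ ⊆ closedBall c r → ∫ x, χ x ∂ν = κ * ∫ x, χ x ∂μ := by
  -- the bump function
  let ρ : ContDiffBump (0 : E) := ⟨r / 2, r, by positivity, by linarith⟩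
  have hρs : tsupport (ρ : E → ℝ) ⊆ closedBall 0 r := (ρ.tsupport_eq).le
  have hρc : ContDiff ℝ ∞ (ρ : E → ℝ) := ρ.contDiff
  have hρcc : HasCompactSupport (ρ : E → ℝ) := ρ.hasCompactSupport
  have hI : 0 < ∫ x, ρ x ∂μ := ρ.integral_pos
  set I := ∫ x, ρ x ∂μ with hIdef
  set J := ∫ x, ρ (x - c) ∂ν with hJdef
  have hJ : 0 ≤ J := integral_nonneg fun x => ρ.nonneg
  refine ⟨J / I, by positivity, fun χ hχ hs => ?_⟩
  have hcc := compact_of_tsupport hs
  have hρ0 : ∀ h : E, r < ‖h‖ → ρ h = 0 := by
    intro h hh
    refine image_eq_zero_of_notMem_tsupport fun h' => ?_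
    have := hρs h'
    rw [mem_closedBall, dist_zero_right] at this
    linarith
  have hχ0 : ∀ w : E, w ∉ closedBall c r → χ w = 0 := fun w hw =>
    image_eq_zero_of_notMem_tsupport fun h' => hw (hs h')
  -- `ρ (x - w)` for `w ∈ closedBall c r`
  have hρw : ∀ w ∈ closedBall c r, ∫ x, ρ (x - w) ∂ν = J := by
    intro w hw
    have h1 : tsupport (fun x => ρ (x - c)) ⊆ closedBall c r := by
      refine closure_minimal ?_ isClosed_closedBall
      intro x hx
      have h2 := hρs (subset_tsupport _ hx)
      rw [mem_closedBall, dist_zero_right] at h2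
      rwa [mem_closedBall, dist_eq_norm]
    have h3 := trans_inv hr H (χ := fun x => ρ (x - c)) (hρc.comp (contDiff_id.sub contDiff_const))
      h1 (h := w - c) (by rwa [mem_closedBall, dist_eq_norm] at hw)
    rw [hJdef, ← h3]
    refine integral_congr_ae (Eventually.of_forall fun x => ?_)
    show ρ (x - w) = ρ (x - (w - c) - c)
    congr 1; abel
  have hK : IsCompact (closedBall (0:E) r ×ˢ closedBall c (r + r)) :=
    (isCompact_closedBall _ _).prod (isCompact_closedBall _ _)
  have hK' : IsCompact (closedBall c r ×ˢ closedBall c (r + r)) :=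
    (isCompact_closedBall _ _).prod (isCompact_closedBall _ _)
  have hint1 : Integrable (fun p : E × E => ρ p.1 * χ (p.2 - p.1)) (μ.prod ν) := by
    refine Continuous.integrable_of_hasCompactSupport ((hρc.continuous.comp continuous_fst).mul
      (hχ.continuous.comp (continuous_snd.sub continuous_fst))) ?_
    refine HasCompactSupport.intro hK fun p hp => ?_
    by_cases h1 : p.1 ∈ closedBall (0:E) r
    · have h2 : p.2 - p.1 ∉ closedBall c r := by
        intro h2
        apply hp
        refine ⟨h1, ?_⟩
        rw [mem_closedBall, dist_eq_norm] at h1 h2 ⊢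
        rw [sub_zero] at h1
        calc ‖p.2 - c‖ = ‖(p.2 - p.1 - c) + p.1‖ := by congr 1; abel
          _ ≤ ‖p.2 - p.1 - c‖ + ‖p.1‖ := norm_add_le _ _
          _ ≤ r + r := add_le_add h2 h1
      rw [hχ0 _ h2, mul_zero]
    · rw [mem_closedBall, dist_zero_right, not_le] at h1
      rw [hρ0 _ h1, zero_mul]
  have hint2 : Integrable (fun p : E × E => ρ (p.2 - p.1) * χ p.1) (μ.prod ν) := by
    refine Continuous.integrable_of_hasCompactSupport ((hρc.continuous.comp
      (continuous_snd.sub continuous_fst)).mul (hχ.continuous.comp continuous_fst)) ?_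
    refine HasCompactSupport.intro hK' fun p hp => ?_
    by_cases h1 : p.1 ∈ closedBall c r
    · have h2 : r < ‖p.2 - p.1‖ := by
        by_contra h2
        apply hp
        refine ⟨h1, ?_⟩
        rw [not_lt] at h2
        rw [mem_closedBall, dist_eq_norm] at h1 ⊢
        calc ‖p.2 - c‖ = ‖(p.2 - p.1) + (p.1 - c)‖ := by congr 1; abel
          _ ≤ ‖p.2 - p.1‖ + ‖p.1 - c‖ := norm_add_le _ _
          _ ≤ r + r := add_le_add h2 h1
      rw [hρ0 _ h2, zero_mul]
    · rw [hχ0 _ h1, mul_zero]
  have e1 : I * ∫ x, χ x ∂ν = ∫ h, ∫ x, ρ h * χ (x - h) ∂ν ∂μ := by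
    rw [hIdef, ← integral_mul_const]
    refine integral_congr_ae (Eventually.of_forall fun h => ?_)
    show ρ h * _ = ∫ x, ρ h * χ (x - h) ∂ν
    rw [integral_const_mul]
    by_cases hh : ‖h‖ ≤ r
    · rw [trans_inv hr H hχ hs hh]
    · rw [hρ0 h (not_le.1 hh), zero_mul, zero_mul]
  have e2 : ∫ h, ∫ x, ρ h * χ (x - h) ∂ν ∂μ = ∫ x, ∫ h, ρ h * χ (x - h) ∂μ ∂ν :=
    integral_integral_swap hint1
  have e3 : ∀ x, ∫ h, ρ h * χ (x - h) ∂μ = ∫ w, ρ (x - w) * χ w ∂μ := by
    intro x
    rw [← integral_sub_left_eq_self (fun h => ρ h * χ (x - h)) μ x]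
    refine integral_congr_ae (Eventually.of_forall fun w => ?_)
    show ρ (x - w) * χ (x - (x - w)) = _
    rw [sub_sub_cancel]
  have e4 : ∫ x, ∫ w, ρ (x - w) * χ w ∂μ ∂ν = ∫ w, ∫ x, ρ (x - w) * χ w ∂ν ∂μ :=
    (integral_integral_swap (f := fun w x => ρ (x - w) * χ w) hint2).symm
  have e5 : ∫ w, ∫ x, ρ (x - w) * χ w ∂ν ∂μ = J * ∫ w, χ w ∂μ := by
    rw [← integral_const_mul]
    refine integral_congr_ae (Eventually.of_forall fun w => ?_)
    show ∫ x, ρ (x - w) * χ w ∂ν = J * χ w
    rw [integral_mul_const]
    by_cases hw : w ∈ closedBall c r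
    · rw [hρw w hw]
    · rw [hχ0 w hw, mul_zero, mul_zero]
  have e6 : I * ∫ x, χ x ∂ν = J * ∫ w, χ w ∂μ := by
    rw [e1, e2, ← e5, ← e4]
    exact integral_congr_ae (Eventually.of_forall e3)
  field_simp
  linarith

/-! ### from test functions to measures -/

theorem integral_indicator_lim {ν : Measure E} {W : Set E} (hW : IsOpen W) (hν : ν W < ⊤)
    {f : E → ℝ} (hf : Function.support f = W) (hfs : Continuous f)
    (hr : Set.range f ⊆ Set.Icc 0 1) :
    Tendsto (fun n : ℕ => ∫ x, Real.smoothTransition (n * f x - 1) ∂ν) atTop (𝓝 (ν.real W)) := by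
  have h0 : ∀ x, x ∉ W → f x = 0 := fun x hx => by
    rw [← hf] at hx
    exact Function.notMem_support.1 hx
  have hpos : ∀ x ∈ W, 0 < f x := fun x hx => by
    rw [← hf] at hx
    exact lt_of_le_of_ne (hr (mem_range_self x)).1 (Ne.symm hx)
  have h1 : ν.real W = ∫ x, W.indicator (fun _ => (1:ℝ)) x ∂ν := by
    rw [integral_indicator hW.measurableSet, setIntegral_const]
    simp
  rw [h1]
  refine tendsto_integral_of_dominated_convergence (W.indicator fun _ => (1:ℝ)) (fun n => ?_) ?_
    (fun n => ?_) ?_
  · exact (Real.smoothTransition.continuous.comp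
      ((continuous_const.mul hfs).sub continuous_const)).aestronglyMeasurable
  · exact (integrable_indicator_iff hW.measurableSet).2 (integrableOn_const hν.ne)
  · refine Eventually.of_forall fun x => ?_
    by_cases hx : x ∈ W
    · rw [indicator_of_mem hx, Real.norm_eq_abs, abs_of_nonneg (Real.smoothTransition.nonneg _)]
      exact Real.smoothTransition.le_one _
    · rw [indicator_of_notMem hx, h0 x hx, mul_zero, zero_sub,
        Real.smoothTransition.zero_of_nonpos (by norm_num), norm_zero]
  · refine Eventually.of_forall fun x => ?_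
    by_cases hx : x ∈ W
    · rw [indicator_of_mem hx]
      have hx0 := hpos x hx
      obtain ⟨N, hN⟩ := exists_nat_ge (2 / f x)
      refine tendsto_const_nhds.congr' ?_
      filter_upwards [eventually_ge_atTop N] with n hn
      rw [Real.smoothTransition.one_of_one_le]
      have h2 : 2 / f x ≤ n := hN.trans (by exact_mod_cast hn)
      rw [div_le_iff₀ hx0] at h2
      linarith
    · rw [indicator_of_notMem hx, h0 x hx]
      refine tendsto_const_nhds.congr fun n => ?_
      rw [mul_zero, zero_sub, Real.smoothTransition.zero_of_nonpos (by norm_num)]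

/-- two measures which agree on test functions of a ball -/
theorem restrict_eq {ν ν' : Measure E} {c : E} {r : ℝ}
    (h1 : ν (ball c r) < ⊤) (h2 : ν' (ball c r) < ⊤) {κ : ℝ} (hκ : 0 ≤ κ)
    (H : ∀ χ : E → ℝ, ContDiff ℝ ∞ χ → tsupport χ ⊆ closedBall c r →
      ∫ x, χ x ∂ν = κ * ∫ x, χ x ∂ν') :
    ν.restrict (ball c r) = ENNReal.ofReal κ • ν'.restrict (ball c r) := by
  have key : ∀ W : Set E, IsOpen W → W ⊆ ball c r → ν W = ENNReal.ofReal κ * ν' W := by
    intro W hW hs
    obtain ⟨f, hf, hfs, hr⟩ := hW.exists_contDiff_support_eq (n := ⊤)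
    have n1 : ν W < ⊤ := (measure_mono hs).trans_lt h1
    have n2 : ν' W < ⊤ := (measure_mono hs).trans_lt h2
    have t1 := integral_indicator_lim hW n1 hf hfs.continuous hr
    have t2 := (integral_indicator_lim hW n2 hf hfs.continuous hr).const_mul κ
    have t3 : ∀ n : ℕ, ∫ x, Real.smoothTransition (n * f x - 1) ∂ν =
        κ * ∫ x, Real.smoothTransition (n * f x - 1) ∂ν' := by
      intro n
      refine H _ ?_ ?_
      · exact Real.smoothTransition.contDiff.comp ((contDiff_const.mul hfs).sub contDiff_const)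
      · refine closure_minimal (fun x hx => ?_) isClosed_closedBall
        have h3 : x ∈ W := by
          by_contra h3
          rw [← hf] at h3
          apply hx
          show Real.smoothTransition (n * f x - 1) = 0
          rw [Function.notMem_support.1 h3, mul_zero, zero_sub,
            Real.smoothTransition.zero_of_nonpos (by norm_num)]
        exact ball_subset_closedBall (hs h3)
    simp only [t3] at t1
    have h4 := tendsto_nhds_unique t1 t2
    have h5 : ENNReal.ofReal (ν.real W) = ENNReal.ofReal (κ * ν'.real W) := by rw [h4]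
    rw [ENNReal.ofReal_mul hκ, ofReal_measureReal n1.ne, ofReal_measureReal n2.ne] at h5
    exact h5
  have : IsFiniteMeasure (ν.restrict (ball c r)) := ⟨by rwa [Measure.restrict_apply_univ]⟩
  have key2 : ∀ W : Set E, IsOpen W → ν.restrict (ball c r) W =
      (ENNReal.ofReal κ • ν'.restrict (ball c r)) W := by
    intro W hW
    rw [Measure.smul_apply, Measure.restrict_apply hW.measurableSet,
      Measure.restrict_apply hW.measurableSet, smul_eq_mul]
    exact key _ (hW.inter isOpen_ball) inter_subset_right
  refine ext_of_generate_finite {s | IsOpen s} (BorelSpace.measurable_eq) isPiSystem_isOpen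
    (fun s hs => key2 s hs) (key2 univ isOpen_univ)

/-- **measures with zero gradient are locally multiples of Haar measure, hence globally on
connected open sets** -/
theorem exists_const {U : Set E} (hU : IsOpen U) (hc : IsPreconnected U) {ν : Measure E}
    (hν : ∀ C ⊆ U, IsCompact C → ν C < ⊤)
    (H : ∀ χ : E → ℝ, ContDiff ℝ ∞ χ → HasCompactSupport χ → tsupport χ ⊆ U →
      ∀ w, ∫ x, fderiv ℝ χ x w ∂ν = 0) :
    ∃ v : ℝ, 0 ≤ v ∧ ν.restrict U = ENNReal.ofReal v • μ.restrict U := by
  have := FiniteDimensional.proper_real E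
  -- the local statement
  have loc : ∀ x : E, ∃ r κ : ℝ, x ∈ U → 0 < r ∧ ball x r ⊆ U ∧ 0 ≤ κ ∧
      ν.restrict (ball x r) = ENNReal.ofReal κ • μ.restrict (ball x r) := by
    intro x
    by_cases hx : x ∈ U
    swap
    · exact ⟨0, 0, fun h => absurd h hx⟩
    obtain ⟨ε, hε, hεU⟩ := Metric.isOpen_iff.1 hU x hx
    have hr : 0 < ε / 4 := by positivity
    have hsub : closedBall x (3 * (ε / 4)) ⊆ U :=
      (closedBall_subset_ball (by linarith)).trans hεU
    have hfin : IsFiniteMeasure (ν.restrict (closedBall x (3 * (ε / 4)))) :=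
      ⟨by rw [Measure.restrict_apply_univ]; exact hν _ hsub (isCompact_closedBall _ _)⟩
    have hZ : ZG (ν.restrict (closedBall x (3 * (ε / 4)))) x (3 * (ε / 4)) := by
      intro χ hχ hs w
      rw [setIntegral_eq_integral_of_forall_compl_eq_zero]
      · exact H χ hχ (compact_of_tsupport hs) (hs.trans hsub) w
      · intro y hy
        have h1 : y ∉ tsupport χ := fun h => hy (hs h)
        have h2 : fderiv ℝ χ y = 0 :=
          image_eq_zero_of_notMem_tsupport fun h => h1 (tsupport_fderiv_subset ℝ h)
        rw [h2]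
        rfl
    obtain ⟨κ, hκ, hl⟩ := local_eq μ hr hZ
    refine ⟨ε / 4, κ, fun _ => ⟨hr, (ball_subset_ball (by linarith)).trans hεU, hκ, ?_⟩⟩
    have h1 : ν.restrict (ball x (ε / 4)) =
        (ν.restrict (closedBall x (3 * (ε / 4)))).restrict (ball x (ε / 4)) := by
      rw [Measure.restrict_restrict measurableSet_ball, inter_eq_left.2]
      exact ball_subset_closedBall.trans (closedBall_subset_closedBall (by linarith))
    rw [h1]
    exact restrict_eq (measure_lt_top _ _) measure_ball_lt_top hκ hl
  choose r κ hrk using loc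
  have key : ∀ x ∈ U, ∀ y ∈ U, y ∈ ball x (r x) → κ y = κ x := by
    intro x hx y hy hyx
    obtain ⟨r1, s1, k1, e1⟩ := hrk x hx
    obtain ⟨r2, s2, k2, e2⟩ := hrk y hy
    set W := ball x (r x) ∩ ball y (r y) with hW
    have hWo : IsOpen W := isOpen_ball.inter isOpen_ball
    have hWne : W.Nonempty := ⟨y, hyx, mem_ball_self r2⟩
    have p1 : μ W ≠ 0 := (hWo.measure_pos μ hWne).ne'
    have p2 : μ W ≠ ⊤ := ((measure_mono inter_subset_left).trans_lt
      (measure_ball_lt_top (x := x) (r := r x))).ne
    have f1 : ν W = ENNReal.ofReal (κ x) * μ W := by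
      have := congrArg (fun m : Measure E => m W) e1
      simp only [Measure.smul_apply, smul_eq_mul] at this
      rwa [Measure.restrict_apply hWo.measurableSet, Measure.restrict_apply hWo.measurableSet,
        inter_eq_left.2 inter_subset_left] at this
    have f2 : ν W = ENNReal.ofReal (κ y) * μ W := by
      have := congrArg (fun m : Measure E => m W) e2
      simp only [Measure.smul_apply, smul_eq_mul] at this
      rwa [Measure.restrict_apply hWo.measurableSet, Measure.restrict_apply hWo.measurableSet,
        inter_eq_left.2 inter_subset_right] at this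
    have f3 : ENNReal.ofReal (κ x) = ENNReal.ofReal (κ y) := by
      rw [f1] at f2
      exact (ENNReal.mul_left_inj p1 p2).1 f2
    exact ((ENNReal.ofReal_eq_ofReal_iff k1 k2).1 f3).symm
  rcases U.eq_empty_or_nonempty with rfl | ⟨x₀, hx₀⟩
  · exact ⟨0, le_rfl, by simp⟩
  refine ⟨κ x₀, (hrk x₀ hx₀).2.2.1, ?_⟩
  -- constancy
  have hconst : ∀ x ∈ U, κ x = κ x₀ := by
    have hps : PreconnectedSpace U := isPreconnected_iff_preconnectedSpace.1 hc
    have hlc : IsLocallyConstant (fun x : U => κ x) := by
      rw [IsLocallyConstant.iff_eventually_eq]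
      intro x
      have h1 : ∀ᶠ y : U in 𝓝 x, (y : E) ∈ ball (x : E) (r x) :=
        continuous_subtype_val.continuousAt.eventually
          (isOpen_ball.mem_nhds (mem_ball_self (hrk x x.2).1))
      filter_upwards [h1] with y hy
      exact key x x.2 y y.2 hy
    intro x hx
    exact hlc.apply_eq_of_preconnectedSpace ⟨x, hx⟩ ⟨x₀, hx₀⟩
  obtain ⟨T, hTU, hTc, hT⟩ := TopologicalSpace.isOpen_biUnion_countable U
    (fun x => ball x (r x)) (fun x _ => isOpen_ball)
  have hUeq : ⋃ x ∈ T, ball x (r x) = U := by
    rw [hT]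
    refine Subset.antisymm (iUnion₂_subset fun x hx => (hrk x hx).2.1) fun x hx => ?_
    exact mem_iUnion₂.2 ⟨x, hx, mem_ball_self (hrk x hx).1⟩
  have h1 : ν.restrict (⋃ x ∈ T, ball x (r x)) =
      (ENNReal.ofReal (κ x₀) • μ).restrict (⋃ x ∈ T, ball x (r x)) := by
    rw [Measure.restrict_biUnion_congr hTc]
    intro x hx
    rw [Measure.restrict_smul, (hrk x (hTU hx)).2.2.2, hconst x (hTU hx)]
  rw [hUeq, Measure.restrict_smul] at h1
  exact h1

end

end Crest.Agent.R281.Mass1_519
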