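import Crest.Agent.R281.S6D_664

/-!
# R281 (S0424), leaf S6-MASS, part 2 (helper519): the closed fibre volume

* `det_block`, `alg`      : matrix algebra (alternating sums of adjugates);
* `AdL B y`               : adapted charts: the last `m` coordinates are `y`;
* `AdL.J_nat`, `AdL.fb_tr`, `AdL.det_J` : the Jacobians are block triangular;
* `stokesY`               : `∫ (∂_b χ)(y) det (fb g) = 0` for every closed field `g` of type (1,1).
-/

set_option autoImplicit false
set_option linter.unusedSectionVars false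

open Set Filter Topology Complex Function MeasureTheory
open scoped ContDiff Matrix ComplexConjugate ComplexOrder

namespace Crest.Agent.R281.Mass2_519

open Crest.Agent.R275 Crest.Agent.R275.Geo Crest.Agent.R275.Core144 Crest.Agent.R275.EDR890
open Crest.Agent.R275.SerG398 (lint dens)
open Crest.Agent.R273.Defs_333 Crest.Agent.R273.Kah_333 Crest.Agent.R273.Hess_333
open Crest.Agent.R273.HessB_333 Crest.Agent.R273.KahI_645
open Crest.Agent.R273.Green_5 Crest.Agent.R273.Vol_333
open Crest.Agent.R273.StokesV_332 Crest.Agent.R281.S6D_664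

noncomputable section

/-! ### algebra -/

section alg

variable {ι : Type*} [Fintype ι] [DecidableEq ι]

/-- the diagonal matrix of the indicator of `S` -/
def dg (S : Finset ι) : Matrix ι ι ℂ := Matrix.diagonal fun i => if i ∈ S then 1 else 0

/-- the rows in `S` replaced by unit rows -/
def rowE (S : Finset ι) (K : Matrix ι ι ℂ) : Matrix ι ι ℂ :=
  Matrix.of fun i j => if i ∈ S then (if i = j then 1 else 0) else K i j

theorem adj_add_single (M : Matrix ι ι ℂ) {r p : ι} (q : ι) :
    (M + dg {r}).adjugate p q - M.adjugate p q =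
      if q = r then 0 else (M.updateRow r (Pi.single r 1)).adjugate p q := by
  rw [Matrix.adjugate_apply, Matrix.adjugate_apply]
  by_cases hq : q = r
  · rw [if_pos hq, sub_eq_zero]
    congr 1
    ext i j
    by_cases hi : i = q
    · subst hi; simp
    · rw [Matrix.updateRow_ne hi, Matrix.updateRow_ne hi, Matrix.add_apply, dg,
        Matrix.diagonal_apply]
      have : i ∉ ({r} : Finset ι) := by
        rw [Finset.mem_singleton]; rintro rfl; exact hi hq.symm
      simp [this]
  · rw [if_neg hq, Matrix.adjugate_apply]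
    set M' := M.updateRow q (Pi.single p 1) with hM'
    have e1 : (M + dg {r}).updateRow q (Pi.single p 1) =
        M'.updateRow r (M' r + Pi.single r 1) := by
      ext i j
      by_cases hi : i = r
      · subst hi
        rw [Matrix.updateRow_self, Matrix.updateRow_ne (Ne.symm hq), hM', Pi.add_apply,
          Matrix.updateRow_ne (Ne.symm hq), Matrix.add_apply, dg, Matrix.diagonal_apply]
        by_cases hj : i = j
        · subst hj; simp
        · simp [hj, Ne.symm hj]
      · rw [Matrix.updateRow_ne hi]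
        by_cases hi' : i = q
        · subst hi'; simp [hM']
        · rw [Matrix.updateRow_ne hi', hM', Matrix.updateRow_ne hi', Matrix.add_apply, dg,
            Matrix.diagonal_apply]
          simp [hi]
    have e2 : (M.updateRow r (Pi.single r 1)).updateRow q (Pi.single p 1) =
        M'.updateRow r (Pi.single r 1) := by
      rw [hM']
      exact Matrix.updateRow_comm _ (Ne.symm hq) _ _
    rw [e1, e2, Matrix.det_updateRow_add, Matrix.updateRow_eq_self]
    ring

theorem alg (S₀ : Finset ι) {p : ι} (q : ι) : ∀ K : Matrix ι ι ℂ,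
    ∑ S ∈ S₀.powerset, (-1 : ℂ) ^ S.card * (K + dg S).adjugate p q =
      (-1 : ℂ) ^ S₀.card * if q ∈ S₀ then 0 else (rowE S₀ K).adjugate p q := by
  induction S₀ using Finset.induction_on with
  | empty =>
    intro K
    have h1 : dg (∅ : Finset ι) = 0 := by
      ext i j
      simp [dg, Matrix.diagonal_apply]
    have h2 : rowE ∅ K = K := by
      ext i j
      simp [rowE]
    simp [h1, h2]
  | insert r S₁ hr ih =>
    intro K
    rw [Finset.sum_powerset_insert hr, ← Finset.sum_add_distrib]
    have h1 : ∀ S ∈ S₁.powerset, (-1 : ℂ) ^ S.card * (K + dg S).adjugate p q +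
        (-1 : ℂ) ^ (insert r S).card * (K + dg (insert r S)).adjugate p q =
        - ((-1 : ℂ) ^ S.card * if q = r then 0 else
          ((K.updateRow r (Pi.single r 1)) + dg S).adjugate p q) := by
      intro S hS
      have hrS : r ∉ S := fun h => hr (Finset.mem_powerset.1 hS h)
      have e1 : K + dg (insert r S) = (K + dg S) + dg {r} := by
        rw [add_assoc]
        congr 1
        ext i j
        rw [Matrix.add_apply, dg, dg, dg, Matrix.diagonal_apply, Matrix.diagonal_apply,
          Matrix.diagonal_apply]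
        by_cases hij : i = j
        · simp only [if_pos hij, Finset.mem_insert, Finset.mem_singleton]
          by_cases h : i = r
          · subst h; simp [hrS]
          · simp [h]
        · simp [hij]
      have e2 : (K + dg S).updateRow r (Pi.single r 1) = K.updateRow r (Pi.single r 1) + dg S := by
        ext i j
        rw [Matrix.add_apply]
        by_cases hi : i = r
        · subst hi
          rw [Matrix.updateRow_self, Matrix.updateRow_self, dg, Matrix.diagonal_apply]
          simp [hrS]
        · rw [Matrix.updateRow_ne hi, Matrix.updateRow_ne hi, Matrix.add_apply]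
      have e3 := adj_add_single (K + dg S) (r := r) (p := p) q
      rw [Finset.card_insert_of_notMem hrS, e1, pow_succ]
      rw [e2] at e3
      rw [← e3]
      ring
    rw [Finset.sum_congr rfl h1, Finset.sum_neg_distrib, Finset.card_insert_of_notMem hr, pow_succ]
    by_cases hq : q = r
    · simp [hq]
    · simp only [if_neg hq]
      rw [ih]
      have e4 : rowE S₁ (K.updateRow r (Pi.single r 1)) = rowE (insert r S₁) K := by
        ext i j
        simp only [rowE, Matrix.of_apply, Finset.mem_insert]
        by_cases hi : i = r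
        · subst hi
          simp only [hr, if_false, Matrix.updateRow_self, true_or, if_true]
          rw [Pi.single_apply]
          by_cases hj : i = j
          · simp [hj]
          · simp [hj, Ne.symm hj]
        · simp [hi]
      rw [e4]
      simp only [Finset.mem_insert, hq, false_or]
      ring

end alg

variable {d m : ℕ}

theorem det_block {N : Matrix (Fin (d + m)) (Fin (d + m)) ℂ}
    (h0 : ∀ a b, N (Fin.natAdd d a) (Fin.castAdd m b) = 0)
    (h1 : ∀ a b, N (Fin.natAdd d a) (Fin.natAdd d b) = if a = b then 1 else 0) :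
    N.det = (fb N).det := by
  have e : N.submatrix finSumFinEquiv finSumFinEquiv =
      Matrix.fromBlocks (fb N) (N.submatrix (Fin.castAdd m) (Fin.natAdd d)) 0 1 := by
    ext i j
    rcases i with i | i <;> rcases j with j | j
    · rfl
    · rfl
    · simp [h0]
    · simp [h1, Matrix.one_apply]
  rw [← Matrix.det_submatrix_equiv_self finSumFinEquiv N, e, Matrix.det_fromBlocks_zero₂₁,
    Matrix.det_one, mul_one]

/-- the base indices different from `b` -/
def bs (d : ℕ) (b : Fin m) : Finset (Fin (d + m)) :=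
  (Finset.univ.erase b).map ⟨Fin.natAdd d, Fin.natAdd_injective m d⟩

theorem mem_bs {b c : Fin m} : Fin.natAdd d c ∈ bs d b ↔ c ≠ b := by
  unfold bs
  rw [Finset.mem_map]
  constructor
  · rintro ⟨c', hc', h⟩
    have : c' = c := Fin.natAdd_injective m d h
    subst this
    exact (Finset.mem_erase.1 hc').1
  · intro h
    exact ⟨c, Finset.mem_erase.2 ⟨h, Finset.mem_univ _⟩, rfl⟩

theorem castAdd_notMem_bs {b : Fin m} {c : Fin d} : Fin.castAdd m c ∉ bs d b := by
  unfold bs
  rw [Finset.mem_map]
  rintro ⟨c', _, h⟩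
  have := congrArg Fin.val h
  simp only [Function.Embedding.coeFn_mk, Fin.val_natAdd, Fin.val_castAdd] at this
  have := c.2
  omega

theorem adj_rowE (K : Matrix (Fin (d + m)) (Fin (d + m)) ℂ) (b : Fin m) :
    (rowE (bs d b) K).adjugate (Fin.natAdd d b) (Fin.natAdd d b) = (fb K).det := by
  rw [Matrix.adjugate_apply, det_block]
  · congr 1
    ext i j
    have h1 : Fin.castAdd m i ≠ Fin.natAdd d b := by
      intro h
      have := congrArg Fin.val h
      simp only [Fin.val_natAdd, Fin.val_castAdd] at this
      have := i.2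
      omega
    simp only [fb, Matrix.submatrix_apply]
    rw [Matrix.updateRow_ne h1]
    simp only [rowE, Matrix.of_apply, castAdd_notMem_bs, if_false]
  · intro a c
    by_cases hab : a = b
    · subst hab
      rw [Matrix.updateRow_self, Pi.single_apply, if_neg]
      intro h
      have := congrArg Fin.val h
      simp only [Fin.val_natAdd, Fin.val_castAdd] at this
      have := c.2
      omega
    · rw [Matrix.updateRow_ne fun h => hab (Fin.natAdd_injective m d h)]
      simp only [rowE, Matrix.of_apply, mem_bs.2 hab, if_true]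
      rw [if_neg]
      intro h
      have := congrArg Fin.val h
      simp only [Fin.val_natAdd, Fin.val_castAdd] at this
      have := c.2
      omega
  · intro a c
    by_cases hab : a = b
    · subst hab
      rw [Matrix.updateRow_self, Pi.single_apply]
      by_cases h : a = c
      · subst h; simp
      · rw [if_neg h, if_neg fun h' => h (Fin.natAdd_injective m d h').symm]
    · rw [Matrix.updateRow_ne fun h => hab (Fin.natAdd_injective m d h)]
      simp only [rowE, Matrix.of_apply, mem_bs.2 hab, if_true]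
      by_cases h : a = c
      · subst h; simp
      · rw [if_neg h, if_neg fun h' => h (Fin.natAdd_injective m d h')]

/-- the pointwise identity -/
theorem alg_fb (K : Matrix (Fin (d + m)) (Fin (d + m)) ℂ) (b : Fin m) (c : Fin m → ℂ) :
    ∑ S ∈ (bs d b).powerset, (-1 : ℂ) ^ S.card *
      ∑ a, (K + dg S).adjugate (Fin.natAdd d b) (Fin.natAdd d a) * c a =
      (-1 : ℂ) ^ (bs d b).card * (c b * (fb K).det) := by
  have h1 : ∀ a : Fin m, ∑ S ∈ (bs d b).powerset, (-1 : ℂ) ^ S.card *
      (K + dg S).adjugate (Fin.natAdd d b) (Fin.natAdd d a) =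
      (-1 : ℂ) ^ (bs d b).card * if a = b then (fb K).det else 0 := by
    intro a
    rw [alg]
    by_cases hab : a = b
    · subst hab
      rw [if_neg (by rw [mem_bs]; simp), if_pos rfl, adj_rowE]
    · rw [if_pos (mem_bs.2 hab), if_neg hab]
  calc ∑ S ∈ (bs d b).powerset, (-1 : ℂ) ^ S.card *
      ∑ a, (K + dg S).adjugate (Fin.natAdd d b) (Fin.natAdd d a) * c a
      = ∑ a, (∑ S ∈ (bs d b).powerset, (-1 : ℂ) ^ S.card *
          (K + dg S).adjugate (Fin.natAdd d b) (Fin.natAdd d a)) * c a := by
        simp only [Finset.mul_sum, Finset.sum_mul]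
        rw [Finset.sum_comm]
        refine Finset.sum_congr rfl fun a _ => Finset.sum_congr rfl fun S _ => by ring
    _ = _ := by
        simp only [h1]
        rw [Finset.sum_eq_single b]
        · rw [if_pos rfl]; ring
        · intro a _ hab
          rw [if_neg hab]; ring
        · intro h; exact absurd (Finset.mem_univ b) h

/-! ### adapted charts -/

/-- the last coordinates -/
def prB (d m : ℕ) : Cn (d + m) →L[ℂ] Cn m := LinearMap.toContinuousLinearMap
  { toFun := fun z => WithLp.toLp 2 fun a => z (Fin.natAdd d a)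
    map_add' := fun x y => by ext a; simp
    map_smul' := fun c x => by ext a; simp }

@[simp] theorem prB_apply (z : Cn (d + m)) (a : Fin m) : prB d m z a = z (Fin.natAdd d a) := rfl

section ad

variable {V : Type} [TopologicalSpace V] {B : Atl (d + m) V} {y : V → Cn m}

/-- adapted charts: the last `m` coordinates are `y` -/
def AdL (B : Atl (d + m) V) (y : V → Cn m) : Prop :=
  ∀ k, ∀ v ∈ (B.e k).source, ∀ a, B.e k v (Fin.natAdd d a) = y v a

theorem AdL.read (hy : AdL B y) (k : B.ι) {z : Cn (d + m)} (hz : z ∈ (B.e k).target) :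
    y ((B.e k).symm z) = prB d m z := by
  ext a
  rw [← hy k _ ((B.e k).map_target hz), (B.e k).right_inv hz]
  rfl

theorem AdL.read' (hy : AdL B y) (k : B.ι) {v : V} (hv : v ∈ (B.e k).source) :
    y v = prB d m (B.e k v) := by
  rw [← hy.read k ((B.e k).map_source hv), (B.e k).left_inv hv]

theorem AdL.cont (hy : AdL B y) : Continuous y := by
  rw [continuous_iff_continuousAt]
  intro v
  obtain ⟨k, hk⟩ := B.cover v
  have h1 : ContinuousAt (fun v => prB d m (B.e k v)) v :=
    (prB d m).continuous.continuousAt.comp ((B.e k).continuousAt hk)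
  refine h1.congr ?_
  filter_upwards [(B.e k).open_source.mem_nhds hk] with w hw
  exact (hy.read' k hw).symm

theorem AdL.J_nat (hy : AdL B y) {i j : B.ι} {x : V}
    (hx : x ∈ (B.e i).source ∩ (B.e j).source) (a : Fin m) (p : Fin (d + m)) :
    B.J i j x (Fin.natAdd d a) p = if Fin.natAdd d a = p then 1 else 0 := by
  have hd := Atl.diff_trans hx
  have h1 : (fun z => (B.e j ((B.e i).symm z)) (Fin.natAdd d a)) =ᶠ[𝓝 (B.e i x)]
      fun z => (EuclideanSpace.proj (Fin.natAdd d a) : Cn (d + m) →L[ℂ] ℂ) z := by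
    filter_upwards [(isOpen_ov i j).mem_nhds (mem_ov hx)] with z hz
    rw [hy j _ hz.2, hy.read i hz.1]
    rfl
  have h2 : HasFDerivAt (fun z => (B.e j ((B.e i).symm z)) (Fin.natAdd d a))
      ((EuclideanSpace.proj (Fin.natAdd d a) : Cn (d + m) →L[ℂ] ℂ).comp
        (fderiv ℂ (fun z => B.e j ((B.e i).symm z)) (B.e i x))) (B.e i x) :=
    (EuclideanSpace.proj (Fin.natAdd d a) : Cn (d + m) →L[ℂ] ℂ).hasFDerivAt.comp _ hd.hasFDerivAt
  have h3 := h2.fderiv
  rw [h1.fderiv_eq, ContinuousLinearMap.fderiv] at h3
  have h4 := congrArg (fun L : Cn (d + m) →L[ℂ] ℂ => L (EuclideanSpace.single p 1)) h3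
  show (fderiv ℂ (fun z => B.e j ((B.e i).symm z)) (B.e i x) (EuclideanSpace.single p 1))
    (Fin.natAdd d a) = _
  refine Eq.trans (Eq.symm h4) ?_
  show (EuclideanSpace.single p (1 : ℂ) : Cn (d + m)) (Fin.natAdd d a) = _
  simp only [PiLp.single_apply, eq_comm]

theorem AdL.det_J (hy : AdL B y) {i j : B.ι} {x : V}
    (hx : x ∈ (B.e i).source ∩ (B.e j).source) : (Jm B i j x).det = (fb (Jm B i j x)).det := by
  refine det_block (fun a b => ?_) fun a b => ?_
  · rw [Jm_apply, hy.J_nat hx, if_neg]
    intro h
    have := congrArg Fin.val h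
    simp only [Fin.val_natAdd, Fin.val_castAdd] at this
    have := b.2
    omega
  · rw [Jm_apply, hy.J_nat hx]
    by_cases h : a = b
    · subst h; simp
    · rw [if_neg h, if_neg fun h' => h (Fin.natAdd_injective m d h')]

theorem AdL.fb_tr (hy : AdL B y) {i j : B.ι} {x : V}
    (hx : x ∈ (B.e i).source ∩ (B.e j).source) {G G' : Matrix (Fin (d + m)) (Fin (d + m)) ℂ}
    (h : G = (Jm B i j x)ᵀ * G' * (Jm B i j x).map conj) :
    fb G = (fb (Jm B i j x))ᵀ * fb G' * (fb (Jm B i j x)).map conj := by
  have h0 : ∀ (a : Fin m) (b : Fin d), B.J i j x (Fin.natAdd d a) (Fin.castAdd m b) = 0 := by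
    intro a b
    rw [hy.J_nat hx, if_neg]
    intro h
    have := congrArg Fin.val h
    simp only [Fin.val_natAdd, Fin.val_castAdd] at this
    have := b.2
    omega
  ext a b
  simp only [fb, Matrix.submatrix_apply, Matrix.mul_apply, Matrix.transpose_apply,
    Matrix.map_apply, h, Fin.sum_univ_add, Jm_apply, h0, map_zero, mul_zero, zero_mul,
    Finset.sum_const_zero, add_zero]

theorem AdL.fb_den (hy : AdL B y) {i j : B.ι} {x : V}
    (hx : x ∈ (B.e i).source ∩ (B.e j).source) {G G' : Matrix (Fin (d + m)) (Fin (d + m)) ℂ}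
    (h : G = (Jm B i j x)ᵀ * G' * (Jm B i j x).map conj) :
    (fb G).det = dens B i j x * (fb G').det := by
  have h2 : ((fb (Jm B i j x)).map conj).det = conj (Jm B i j x).det := by
    rw [hy.det_J hx, ← RingHom.mapMatrix_apply, ← RingHom.map_det]
  rw [hy.fb_tr hx h, Matrix.det_mul, Matrix.det_mul, Matrix.det_transpose, h2, ← hy.det_J hx,
    SerG398.dens_eq]
  unfold SerG398.detJ
  show (Jm B i j x).det * (fb G').det * conj (Jm B i j x).det =
    (Jm B i j x).det * conj (Jm B i j x).det * (fb G').det
  ring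

/-- the fibre volume is a density -/
theorem AdL.den_fb (hy : AdL B y) {g : B.ι → V → Matrix (Fin (d + m)) (Fin (d + m)) ℂ}
    (hg : CF B g) : Den B (fun k x => (fb (g k x)).det) where
  sm i := by
    have h1 : ContDiffOn ℝ ∞ (fun z => (fb (g i ((B.e i).symm z))).det) (B.e i).target := by
      simp only [Matrix.det_apply]
      refine ContDiffOn.sum fun σ _ => ?_
      refine ContDiffOn.const_smul _ ?_
      exact contDiffOn_prod fun b _ => hg.sm i _ _
    exact h1
  tr i j x hx := hy.fb_den hx (hg.tr i j x hx)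

/-! ### Stokes -/

/-- adding the square of base coordinates -/
theorem AdL.cf_dg (hy : AdL B y) {g : B.ι → V → Matrix (Fin (d + m)) (Fin (d + m)) ℂ}
    (hg : CF B g) {b : Fin m} {S : Finset (Fin (d + m))} (hS : S ⊆ bs d b) :
    CF B (fun k x => g k x + dg S) where
  sm i p q := (hg.sm i p q).add contDiffOn_const
  tr i j x hx := by
    have h1 : dg S = (Jm B i j x)ᵀ * dg S * (Jm B i j x).map conj := by
      ext p q
      rw [Matrix.mul_apply]
      have e : ∀ r ∈ S, ∀ t, B.J i j x r t = if r = t then 1 else 0 := by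
        intro r hr t
        have h2 := hS hr
        unfold bs at h2
        obtain ⟨c, _, hc⟩ := Finset.mem_map.1 h2
        rw [← hc]
        exact hy.J_nat hx c t
      have e2 : ∀ r, ((Jm B i j x)ᵀ * dg S) p r = if r ∈ S ∧ r = p then 1 else 0 := by
        intro r
        rw [dg, Matrix.mul_diagonal, Matrix.transpose_apply, Jm_apply]
        by_cases hr : r ∈ S
        · rw [e r hr]
          by_cases h : r = p
          · simp [h, h ▸ hr]
          · simp [h]
        · simp [hr]
      simp only [e2, Matrix.map_apply, Jm_apply]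
      rw [Finset.sum_eq_single p]
      · by_cases hp : p ∈ S
        · rw [e p hp, dg, Matrix.diagonal_apply]
          by_cases h : p = q
          · subst h; simp [hp]
          · simp [h]
        · rw [dg, Matrix.diagonal_apply]
          by_cases h : p = q
          · subst h; simp [hp]
          · simp [h, hp]
      · intro r _ hr
        simp [hr]
      · intro h; exact absurd (Finset.mem_univ p) h
    rw [Matrix.mul_add, Matrix.add_mul, ← h1, ← hg.tr i j x hx]
  closed i z hz a b c := by
    have e : ∀ a c, wd (false, c) (fun w => (g i ((B.e i).symm w) + dg S) a b) z =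
        wd (false, c) (fun w => g i ((B.e i).symm w) a b) z := by
      intro a c
      have h1 := wd_add (hg.diffAt hz a b) (differentiableAt_const (dg S a b)) (false, c)
      rw [wd_const, add_zero] at h1
      exact h1
    rw [e a c, e c a, hg.closed i z hz]

/-- `conj y_b` as a function -/
def cy (y : V → Cn m) (b : Fin m) : V → ℂ := fun x => conj (y x b)

theorem AdL.sm_comp (hy : AdL B y) {W : Type*} [NormedAddCommGroup W] [NormedSpace ℝ W]
    {χ : Cn m → W} (hχ : ContDiff ℝ ∞ χ) (i : B.ι) : B.SmAt i (fun x => χ (y x)) := by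
  have h1 : ContDiffOn ℝ ∞ (fun z => χ (prB d m z)) (B.e i).target :=
    (hχ.comp ((prB d m).restrictScalars ℝ).contDiff).contDiffOn
  refine h1.congr fun z hz => ?_
  show χ (y ((B.e i).symm z)) = χ (prB d m z)
  rw [hy.read i hz]

theorem AdL.sm_cy (hy : AdL B y) (b : Fin m) (i : B.ι) : B.SmAt i (cy y b) := by
  refine hy.sm_comp (χ := fun w : Cn m => conj (w b)) ?_ i
  exact (conjCLE : ℂ →L[ℝ] ℂ).contDiff.comp
    ((EuclideanSpace.proj b : Cn m →L[ℂ] ℂ).restrictScalars ℝ).contDiff

theorem AdL.db_cy (hy : AdL B y) (b : Fin m) (i : B.ι) (p : Fin (d + m)) {x : V}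
    (hx : x ∈ (B.e i).source) : B.db i p (cy y b) x = if p = Fin.natAdd d b then 1 else 0 := by
  have hz := (B.e i).map_source hx
  have h1 := db_read (A := B) (cy y b) i p hz
  rw [(B.e i).left_inv hx] at h1
  rw [h1]
  have h2 : (fun w => cy y b ((B.e i).symm w)) =ᶠ[𝓝 (B.e i x)]
      fun w => conj ((EuclideanSpace.proj (Fin.natAdd d b) : Cn (d + m) →L[ℂ] ℂ) w) := by
    filter_upwards [(B.e i).open_target.mem_nhds hz] with w hw
    unfold cy
    rw [hy.read i hw]
    rfl
  rw [wd_congr h2]
  have hd : DifferentiableAt ℂ (fun w =>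
      (EuclideanSpace.proj (Fin.natAdd d b) : Cn (d + m) →L[ℂ] ℂ) w) (B.e i x) :=
    (EuclideanSpace.proj (Fin.natAdd d b) : Cn (d + m) →L[ℂ] ℂ).differentiableAt
  have h3 := conj_wd (false, p) (hd.restrictScalars ℝ)
  rw [wd_hol' hd, ContinuousLinearMap.fderiv] at h3
  simp only [Bool.not_false] at h3
  rw [← h3]
  show conj ((EuclideanSpace.single p (1 : ℂ) : Cn (d + m)) (Fin.natAdd d b)) = _
  simp only [PiLp.single_apply, eq_comm]
  split_ifs <;> simp

theorem AdL.hm_cy (hy : AdL B y) (b : Fin m) (i : B.ι) {x : V} (hx : x ∈ (B.e i).source) :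
    hm B (cy y b) i x = 0 := by
  have hz := (B.e i).map_source hx
  ext p q
  have h1 := hm_read (A := B) (cy y b) i hz p q
  rw [(B.e i).left_inv hx] at h1
  rw [h1, Matrix.zero_apply]
  have h2 : wd (true, q) (fun w => cy y b ((B.e i).symm w)) =ᶠ[𝓝 (B.e i x)]
      fun _ => (if q = Fin.natAdd d b then (1:ℂ) else 0) := by
    filter_upwards [(B.e i).open_target.mem_nhds hz] with w hw
    rw [← db_read (A := B) (cy y b) i q hw]
    exact hy.db_cy b i q ((B.e i).map_target hw)
  rw [wd_congr h2, wd_const]

theorem AdL.dl_comp (hy : AdL B y) {χ : Cn m → ℂ} (hχ : ContDiff ℝ ∞ χ) (i : B.ι)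
    (p : Fin (d + m)) {x : V} (hx : x ∈ (B.e i).source) :
    OmT75.dl B i p (fun x => χ (y x)) x =
      ∑ c, (if Fin.natAdd d c = p then 1 else 0) * wd (false, c) χ (y x) := by
  have hz := (B.e i).map_source hx
  have h1 := dl_read (A := B) (fun x => χ (y x)) i p hz
  rw [(B.e i).left_inv hx] at h1
  rw [h1]
  have h2 : (fun w => χ (y ((B.e i).symm w))) =ᶠ[𝓝 (B.e i x)] fun w => χ (prB d m w) := by
    filter_upwards [(B.e i).open_target.mem_nhds hz] with w hw
    rw [hy.read i hw]
  rw [wd_congr h2, wd_comp' (f := χ) (φ := prB d m)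
    (hχ.differentiable (by simp) _) (prB d m).differentiableAt, ← hy.read' i hx]
  refine Finset.sum_congr rfl fun c _ => ?_
  rw [ContinuousLinearMap.fderiv, cj_false, smul_eq_mul, prB_apply]
  simp only [PiLp.single_apply]

/-- the divergence of the cofactor field -/
theorem AdL.div (hy : AdL B y) {g : B.ι → V → Matrix (Fin (d + m)) (Fin (d + m)) ℂ}
    (hg : CF B g) (b : Fin m) {χ : Cn m → ℂ} (hχ : ContDiff ℝ ∞ χ) {i : B.ι} {x : V}
    (hx : x ∈ (B.e i).source) :
    ∑ a, OmT75.dl B i a (fun v => adjY B g (fun v => χ (y v)) (cy y b) i v a) x =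
      ∑ a, (g i x).adjugate (Fin.natAdd d b) (Fin.natAdd d a) * wd (false, a) χ (y x) := by
  rw [div_adjY hg (hy.sm_comp hχ i) (hy.sm_cy b i) hx, hy.hm_cy b i hx, Matrix.mul_zero,
    Matrix.trace_zero, mul_zero, zero_add]
  have h1 : ∀ p, ∑ q, (g i x).adjugate q p * OmT75.dl B i p (fun x => χ (y x)) x *
      B.db i q (cy y b) x = (g i x).adjugate (Fin.natAdd d b) p *
        OmT75.dl B i p (fun x => χ (y x)) x := by
    intro p
    rw [Finset.sum_eq_single (Fin.natAdd d b)]
    · rw [hy.db_cy b i _ hx, if_pos rfl, mul_one]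
    · intro q _ hq
      rw [hy.db_cy b i _ hx, if_neg hq, mul_zero]
    · intro h; exact absurd (Finset.mem_univ _) h
  rw [Finset.sum_congr rfl fun p _ => h1 p]
  simp only [hy.dl_comp hχ i _ hx, Finset.mul_sum]
  rw [Finset.sum_comm]
  refine Finset.sum_congr rfl fun c _ => ?_
  rw [Finset.sum_eq_single (Fin.natAdd d c)]
  · simp
  · intro p _ hp
    simp [Ne.symm hp]
  · intro h; exact absurd (Finset.mem_univ _) h

variable [T2Space V]

/-- **the fibre volume is closed**: `∫ (∂_b χ)(y) det (fb g) = 0` -/
theorem stokesY (P : Part B) (hy : AdL B y)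
    {g : B.ι → V → Matrix (Fin (d + m)) (Fin (d + m)) ℂ} (hg : CF B g) (b : Fin m)
    {χ : Cn m → ℂ} (hχ : ContDiff ℝ ∞ χ) (hc : IsCompact (y ⁻¹' tsupport χ)) :
    intD P (fun k x => wd (false, b) χ (y x) * (fb (g k x)).det) = 0 := by
  have hoff : ∀ f : B.ι → V → ℂ, (∀ k, ∀ x ∈ (B.e k).source, y x ∉ tsupport χ → f k x = 0) →
      OffK B f (y ⁻¹' tsupport χ) := fun f h i x hx hxK => h i x hx hxK
  have hwd0 : ∀ a, ∀ x, y x ∉ tsupport χ → wd (false, a) χ (y x) = 0 := by
    intro a x hx
    have h1 : χ =ᶠ[𝓝 (y x)] fun _ => (0 : ℂ) := notMem_tsupport_iff_eventuallyEq.1 hx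
    rw [wd_congr h1, wd_const]
  have key : ∀ S ∈ (bs d b).powerset, intD P (fun k x => ∑ a,
      (g k x + dg S).adjugate (Fin.natAdd d b) (Fin.natAdd d a) * wd (false, a) χ (y x)) = 0 := by
    intro S hS
    have hgS := hy.cf_dg hg (Finset.mem_powerset.1 hS)
    have hv := v10_adj hgS (φ := fun v => χ (y v)) (u := cy y b) (hy.sm_comp hχ) (hy.sm_cy b)
    have hvd : VD10 B (fun i a x => adjY B (fun k x => g k x + dg S) (fun v => χ (y v)) (cy y b)
        i x a) := ⟨hv.sm, hv.tr⟩
    have h1 := stokes10 P hvd hc fun a i x hx hxK => by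
      have h2 : χ (y x) = 0 := image_eq_zero_of_notMem_tsupport hxK
      show χ (y x) * _ = 0
      rw [h2, zero_mul]
    rw [← h1]
    exact intD_congr P fun i x hx => (hy.div hgS b hχ hx).symm
  have hsm : ∀ S ∈ (bs d b).powerset, ∀ i, B.SmAt i (fun x => ∑ a,
      (g i x + dg S).adjugate (Fin.natAdd d b) (Fin.natAdd d a) * wd (false, a) χ (y x)) := by
    intro S hS i
    have hgS := hy.cf_dg hg (Finset.mem_powerset.1 hS)
    refine ContDiffOn.sum fun a _ => (smAt_adj hgS i (Fin.natAdd d a) (Fin.natAdd d b)).mul ?_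
    refine hy.sm_comp (χ := wd (false, a) χ) ?_ i
    rw [contDiff_iff_contDiffAt]
    intro z
    exact contDiffAt_wd hχ.contDiffAt _
  have h1 : intD P (fun k x => ∑ S ∈ (bs d b).powerset, (-1 : ℂ) ^ S.card * ∑ a,
      (g k x + dg S).adjugate (Fin.natAdd d b) (Fin.natAdd d a) * wd (false, a) χ (y x)) = 0 := by
    have hF : ∀ S ∈ (bs d b).powerset, OffK B (fun k x => (-1 : ℂ) ^ S.card * ∑ a,
        (g k x + dg S).adjugate (Fin.natAdd d b) (Fin.natAdd d a) * wd (false, a) χ (y x))
        (y ⁻¹' tsupport χ) := fun S _ => hoff _ fun k x _ h => by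
      rw [Finset.sum_eq_zero fun a _ => by rw [hwd0 a x h, mul_zero], mul_zero]
    rw [intD_sum P (bs d b).powerset (F := fun S k x => (-1 : ℂ) ^ S.card * ∑ a,
      (g k x + dg S).adjugate (Fin.natAdd d b) (Fin.natAdd d a) * wd (false, a) χ (y x))
      (fun S hS i => contDiffOn_const.mul (hsm S hS i)) hc hF]
    refine Finset.sum_eq_zero fun S hS => ?_
    rw [intD_smul P _ hc (hoff _ fun k x _ h =>
      Finset.sum_eq_zero fun a _ => by rw [hwd0 a x h, mul_zero]), key S hS, mul_zero]
  have h2 : intD P (fun k x => (-1 : ℂ) ^ (bs d b).card *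
      (wd (false, b) χ (y x) * (fb (g k x)).det)) = 0 := by
    rw [← h1]
    refine intD_congr P fun i x _ => ?_
    exact (alg_fb (g i x) b fun a => wd (false, a) χ (y x)).symm
  rw [intD_smul P _ hc (hoff _ fun k x _ h => by rw [hwd0 b x h, zero_mul])] at h2
  exact (mul_eq_zero.1 h2).resolve_left (pow_ne_zero _ (by norm_num))

end ad

end

end Crest.Agent.R281.Mass2_519
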