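import Crest.Agent.R281.Mass1_519
import Crest.Agent.R281.Mass2_519

/-!
# R281 (S0424), leaf S6-MASS, part 3 (helper519): the mass of the fibres is constant

* `volF hy K : HM (KB B)⁻¹` : the fibre volume `det (fb K)`, a smooth positive density on `V`;
* `integral_vm_intD`        : `∫ f d(vm h) = intD P (w f)`, `f` with compact support (from 822);
* `mass_abs`                : the push forward of `vm (volF hy K)` by `y` is `v · Lebesgue` on `U`;
* `Fam.nu F K`, `Fam.mass`, `Fam.mass_lint`, `Fam.mass_int`, `Fam.mass_intD`.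
-/

set_option autoImplicit false
set_option linter.unusedSectionVars false
set_option linter.style.haveILetI false

open Set Filter Topology Complex Function MeasureTheory
open scoped ContDiff Matrix ComplexConjugate ComplexOrder ENNReal

namespace Crest.Agent.R281.Mass3_519

open Crest.Agent.R275 Crest.Agent.R275.Geo Crest.Agent.R275.Core144 Crest.Agent.R275.EDR890
open Crest.Agent.R275.SerG398 (lint dens)
open Crest.Agent.R275.Pai323 Crest.Agent.R275.C1d194
open Crest.Agent.R273.Defs_333 Crest.Agent.R273.Kah_333 Crest.Agent.R273.Hess_333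
open Crest.Agent.R273.HessB_333 Crest.Agent.R273.KahI_645
open Crest.Agent.R273.Green_5 Crest.Agent.R273.Vol_333 Crest.Agent.R273.Vm_333
open Crest.Agent.R273.StokesV_332 Crest.Agent.R281.S6D_664
open Crest.Agent.R281.Mass1_519 Crest.Agent.R281.Mass2_519

noncomputable section

variable {d m : ℕ} {V : Type} [TopologicalSpace V] {B : Atl (d + m) V} {y : V → Cn m}

theorem fb_posDef {G : Matrix (Fin (d + m)) (Fin (d + m)) ℂ} (h : G.PosDef) : (fb G).PosDef :=
  h.submatrix (Fin.castAdd_injective d m)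

/-- the fibre volume as a metric of the anticanonical bundle -/
def volF (hy : AdL B y) (K : Kah B) : HM (KB B)⁻¹ where
  w k x := (fb (K.g k x)).det.re
  pos k x hx := det_re_pos (fb_posDef (K.pos k x hx))
  sm i := Complex.reCLM.contDiff.comp_contDiffOn ((hy.den_fb (kah_cf K)).sm i)
  tr i j x hx := by
    have h1 := (hy.den_fb (kah_cf K)).tr i j x hx
    have h4 : (Jm B i j x).det ≠ 0 := by
      rw [← KB_g hx]; exact (KB B).ne_zero i j x
    have h2 : dens B i j x = ((‖(Jm B i j x).det‖ ^ 2 : ℝ) : ℂ) := rfl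
    rw [h1, h2, LB.inv_g, KB_g hx, Complex.re_ofReal_mul, norm_inv, ← mul_assoc, inv_pow,
      inv_mul_cancel₀ (by positivity), one_mul]

theorem volF_w (hy : AdL B y) (K : Kah B) (i : B.ι) {x : V} (hx : x ∈ (B.e i).source) :
    (((volF hy K).w i x : ℝ) : ℂ) = (fb (K.g i x)).det :=
  det_real (fb_posDef (K.pos i x hx)).1

/-! ### the measure of `h` and `intD` (helper822, Bridge_822) -/

section abs

variable {n : ℕ} {M : Type} [TopologicalSpace M] [T2Space M] [MeasurableSpace M] [BorelSpace M]
  {A : Atl n M} [Countable A.ι] (h : HM (KB A)⁻¹)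

theorem integral_vm_intD (P : Part A) {f : M → ℂ} (hf : Integrable f (vm h)) {K : Set M}
    (hK : IsCompact K) (h0 : ∀ x, x ∉ K → f x = 0) :
    ∫ x, f x ∂(vm h) = intD P (fun i x => (h.w i x : ℂ) * f x) := by
  have hoff : OffK A (fun i x => (h.w i x : ℂ) * f x) K := fun i x _ hx => by
    show (h.w i x : ℂ) * f x = 0
    rw [h0 x hx, mul_zero]
  rw [intD_eq_sum P hK (Finset.Subset.refl _) hoff]
  have hint : ∀ i, Integrable (fun x => (P.ψ i x : ℂ) * f x) (vm h) := by
    intro i
    have hc : Continuous fun x => (P.ψ i x : ℂ) :=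
      Complex.continuous_ofReal.comp (sm_continuous (P.ψ_sm i))
    obtain ⟨C, hC⟩ := (P.χ_cpt i).exists_bound_of_continuousOn hc.continuousOn
    refine hf.bdd_mul (c := max C 0) hc.measurable.aestronglyMeasurable
      (Eventually.of_forall fun x => ?_)
    by_cases hx : x ∈ tsupport (P.χ i)
    · exact (hC x hx).trans (le_max_left _ _)
    · rw [psi_zero_off P i hx]
      simp
  have h1 : (fun x => f x) = fun x => ∑ i ∈ Fn P hK, (P.ψ i x : ℂ) * f x := by
    funext x
    rw [← Finset.sum_mul]
    by_cases hx : x ∈ K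
    · rw [sum_psiC P hK (Finset.Subset.refl _) hx, one_mul]
    · rw [h0 x hx, mul_zero]
  calc ∫ x, f x ∂(vm h) = ∫ x, ∑ i ∈ Fn P hK, (P.ψ i x : ℂ) * f x ∂(vm h) := by rw [← h1]
    _ = ∑ i ∈ Fn P hK, ∫ x, (P.ψ i x : ℂ) * f x ∂(vm h) :=
        integral_finsetSum _ fun i _ => hint i
    _ = _ := by
      refine Finset.sum_congr rfl fun i _ => ?_
      have h3 : ∫ x, (P.ψ i x : ℂ) * f x ∂(vm h) =
          ∫ x in (A.e i).source, (P.ψ i x : ℂ) * f x ∂(vm h) := by
        symm
        refine setIntegral_eq_integral_of_forall_compl_eq_zero fun x hx => ?_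
        rw [psi_off P hx, Complex.ofReal_zero, zero_mul]
      rw [h3, setIntegral_vm h i (hint i).aestronglyMeasurable]
      unfold Crest.Agent.R275.SerG398.lint
      symm
      rw [← setIntegral_eq_integral_of_forall_compl_eq_zero (s := Ui A i)
        (fun y hy => rd_off hy)]
      refine setIntegral_congr_fun (Crest.Agent.R273.Vm_333.isOpen_Ui i).measurableSet
        fun y hy => ?_
      rw [rd_of_mem hy]
      change (P.ψ i (sg A i y) : ℂ) * ((h.w i (sg A i y) : ℂ) * f (sg A i y)) =
        (h.w i (sg A i y)) • ((P.ψ i (sg A i y) : ℂ) * f (sg A i y))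
      rw [Complex.real_smul]
      ring

end abs

/-! ### the mass -/

section mass

variable [T2Space V] [MeasurableSpace V] [BorelSpace V] [Countable B.ι]

theorem int_fb (P : Part B) (hy : AdL B y) (K : Kah B) {f : V → ℂ}
    (hf : Integrable f (vm (volF hy K))) {C : Set V} (hC : IsCompact C)
    (h0 : ∀ x, x ∉ C → f x = 0) :
    intD P (fun k x => f x * (fb (K.g k x)).det) = ∫ x, f x ∂(vm (volF hy K)) := by
  rw [integral_vm_intD _ P hf hC h0]
  refine intD_congr P fun i x hx => ?_
  rw [volF_w hy K i hx, mul_comm]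

theorem integrable_cc (h : HM (KB B)⁻¹) {f : V → ℂ} (hf : Continuous f) {C : Set V}
    (hC : IsCompact C) (h0 : ∀ x, x ∉ C → f x = 0) : Integrable f (vm h) := by
  have := isLocallyFinite_vm h
  exact hf.integrable_of_hasCompactSupport (HasCompactSupport.intro hC h0)

/-- **constancy of the mass, measure form** -/
theorem mass_abs (P : Part B) (hy : AdL B y) (K : Kah B) {U : Set (Cn m)} (hU : IsOpen U)
    (hc : IsPreconnected U) (proper : ∀ C ⊆ U, IsCompact C → IsCompact (y ⁻¹' C)) :
    ∃ v : ℝ, 0 ≤ v ∧ (Measure.map (fun x => rc (y x)) (vm (volF hy K))).restrict (cc ⁻¹' U) =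
      ENNReal.ofReal v • volume.restrict (cc ⁻¹' U) := by
  have hlf := isLocallyFinite_vm (volF hy K)
  have hyc : Continuous y := hy.cont
  have hry : Continuous fun x => rc (y x) := continuous_rc.comp hyc
  have hinj : Function.Injective (rc : Cn m → RI m → ℝ) := fun a b h => by
    rw [← cc_rc a, h, cc_rc]
  have hcU : cc ⁻¹' U = (rc : Cn m → RI m → ℝ) '' U := by
    ext z
    constructor
    · intro hz
      exact ⟨cc z, hz, rc_cc z⟩
    · rintro ⟨w, hw, rfl⟩
      show cc (rc w) ∈ U
      rwa [cc_rc]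
  refine exists_const volume (hU.preimage continuous_cc) ?_ ?_ ?_
  · rw [hcU]
    exact hc.image _ continuous_rc.continuousOn
  · intro C hCU hC
    rw [Measure.map_apply hry.measurable hC.measurableSet]
    have h1 : (fun x => rc (y x)) ⁻¹' C = y ⁻¹' (cc '' C) := by
      ext x
      constructor
      · intro hx
        exact ⟨rc (y x), hx, cc_rc _⟩
      · rintro ⟨z, hz, hzx⟩
        show rc (y x) ∈ C
        rw [← hzx, rc_cc]
        exact hz
    rw [h1]
    refine (proper _ ?_ (hC.image continuous_cc)).measure_lt_top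
    rintro _ ⟨z, hz, rfl⟩
    exact hCU hz
  · intro χ hχ hχc hχU w
    -- the test function on `Cn m`
    set X : Cn m → ℝ := fun z => χ (rc z) with hX
    have hXs : ContDiff ℝ ∞ X := hχ.comp contDiff_rc
    have hcX : ContDiff ℝ ∞ (cu X) := Complex.ofRealCLM.contDiff.comp hXs
    have hts : tsupport (cu X) ⊆ cc '' tsupport χ := by
      refine closure_minimal ?_ (hχc.isCompact.image continuous_cc).isClosed
      intro z hz
      refine ⟨rc z, subset_tsupport _ ?_, cc_rc z⟩
      intro h0
      apply hz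
      show ((χ (rc z) : ℝ) : ℂ) = 0
      rw [h0, Complex.ofReal_zero]
    have hcc : IsCompact (tsupport (cu X)) :=
      (hχc.isCompact.image continuous_cc).of_isClosed_subset (isClosed_tsupport _) hts
    have htU : tsupport (cu X) ⊆ U := by
      intro z hz
      obtain ⟨t, ht, rfl⟩ := hts hz
      exact hχU ht
    have hpc : IsCompact (y ⁻¹' tsupport (cu X)) := proper _ htU hcc
    have hwd0 : ∀ (s : WI m) x, x ∉ y ⁻¹' tsupport (cu X) → wd s (cu X) (y x) = 0 := by
      intro s x hx
      have h1 : cu X =ᶠ[𝓝 (y x)] fun _ => (0 : ℂ) := notMem_tsupport_iff_eventuallyEq.1 hx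
      rw [wd_congr h1, wd_const]
    have hwc : ∀ s : WI m, Continuous fun x => wd s (cu X) (y x) := by
      intro s
      have : ContDiff ℝ ∞ (wd s (cu X)) := by
        rw [contDiff_iff_contDiffAt]
        intro z
        exact contDiffAt_wd hcX.contDiffAt _
      exact this.continuous.comp hyc
    have hwi : ∀ s : WI m, Integrable (fun x => wd s (cu X) (y x)) (vm (volF hy K)) := fun s =>
      integrable_cc _ (hwc s) hpc (hwd0 s)
    have hz1 : ∀ b : Fin m, ∫ x, wd (false, b) (cu X) (y x) ∂(vm (volF hy K)) = 0 := by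
      intro b
      rw [← int_fb P hy K (hwi _) hpc (hwd0 _)]
      exact stokesY P hy (kah_cf K) b hcX hpc
    have hz2 : ∀ b : Fin m, ∫ x, wd (true, b) (cu X) (y x) ∂(vm (volF hy K)) = 0 := by
      intro b
      have h1 : ∀ x, wd (true, b) (cu X) (y x) = conj (wd (false, b) (cu X) (y x)) := fun x =>
        (conj_wd_real (false, b) (hXs.differentiable (by simp) _)).symm
      simp only [h1]
      rw [integral_conj, hz1 b, map_zero]
    have hzs : ∀ s : WI m, ∫ x, wd s (cu X) (y x) ∂(vm (volF hy K)) = 0 := by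
      rintro ⟨s, b⟩
      cases s
      · exact hz1 b
      · exact hz2 b
    have hfd : ∀ z : Cn m, ((fderiv ℝ χ (rc z) w : ℝ) : ℂ) =
        ∑ s : WI m, ze s (cc w) * wd s (cu X) z := by
      intro z
      have h1 : HasFDerivAt χ (fderiv ℝ χ (rc z)) (rc z) :=
        (hχ.differentiable (by simp) _).hasFDerivAt
      have h2 : HasFDerivAt (rc : Cn m → RI m → ℝ) (rcL m) z := by
        rw [rc_eq]; exact (rcL m).hasFDerivAt
      have h3 : HasFDerivAt (cu X) (Complex.ofRealCLM.comp ((fderiv ℝ χ (rc z)).comp (rcL m))) z :=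
        Complex.ofRealCLM.hasFDerivAt.comp z (h1.comp z h2)
      have h4 := apply_eq_sum (fderiv ℝ (cu X) z) (cc w)
      rw [h3.fderiv] at h4
      have h5 : (Complex.ofRealCLM.comp ((fderiv ℝ χ (rc z)).comp (rcL m))) (cc w) =
          ((fderiv ℝ χ (rc z) w : ℝ) : ℂ) := by
        show ((fderiv ℝ χ (rc z) (rcL m (cc w)) : ℝ) : ℂ) = _
        rw [rcL_apply, rc_cc]
      rw [← h5, h4]
      refine Finset.sum_congr rfl fun s _ => ?_
      rw [wd, h3.fderiv, smul_eq_mul]
    have hdc : Continuous fun z => fderiv ℝ χ z w :=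
      (hχ.continuous_fderiv (by simp)).clm_apply continuous_const
    rw [integral_map hry.aemeasurable hdc.aestronglyMeasurable]
    have h6 : ((∫ x, fderiv ℝ χ (rc (y x)) w ∂(vm (volF hy K)) : ℝ) : ℂ) = 0 := by
      have h8 : ∫ x, ((fderiv ℝ χ (rc (y x)) w : ℝ) : ℂ) ∂(vm (volF hy K)) =
          ((∫ x, fderiv ℝ χ (rc (y x)) w ∂(vm (volF hy K)) : ℝ) : ℂ) := integral_ofReal (𝕜 := ℂ)
      have h7 : ∀ x, ((fderiv ℝ χ (rc (y x)) w : ℝ) : ℂ) =
          ∑ s : WI m, ze s (cc w) * wd s (cu X) (y x) := fun x => hfd (y x)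
      rw [← h8]
      simp only [h7]
      rw [integral_finsetSum _ fun s _ => (hwi s).const_mul _]
      refine Finset.sum_eq_zero fun s _ => ?_
      rw [integral_const_mul, hzs s, mul_zero]
    exact_mod_cast h6

end mass

/-! ### families -/

section fam

variable {N : ℕ} {M : Type} [TopologicalSpace M] {A : Atl N M} {U : Set (Cn m)}

theorem adl (F : Fam A d m U) : AdL F.B F.y := F.last

/-- the measure `ω_V^d ∧ dLeb(y)` on `V` -/
def nu (F : Fam A d m U) (K : Kah A) [MeasurableSpace F.V] [BorelSpace F.V] : Measure F.V :=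
  vm (volF (adl F) (F.kah K))

/-- the fibres have mass `v` -/
structure Mass (F : Fam A d m U) (K : Kah A) (v : ℝ) : Prop where
  nonneg : 0 ≤ v
  pos : U.Nonempty → 0 < v
  map : ∀ [MeasurableSpace F.V] [BorelSpace F.V],
    Measure.map (fun x => rc (F.y x)) (nu F K) = ENNReal.ofReal v • volume.restrict (cc ⁻¹' U)

theorem cont_y (F : Fam A d m U) : Continuous F.y := (adl F).cont

theorem cont_ry (F : Fam A d m U) : Continuous fun x => rc (F.y x) :=
  continuous_rc.comp (cont_y F)

/-- **the mass of the fibres is constant** -/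
theorem exists_mass (F : Fam A d m U) (K : Kah A) (hU : IsOpen U) (hc : IsPreconnected U) :
    ∃ v, Mass F K v := by
  letI : MeasurableSpace F.V := borel F.V
  haveI : BorelSpace F.V := ⟨rfl⟩
  obtain ⟨v, hv, h1⟩ := mass_abs F.P (adl F) (F.kah K) hU hc F.proper
  have h2 : Measure.map (fun x => rc (F.y x)) (nu F K) =
      ENNReal.ofReal v • volume.restrict (cc ⁻¹' U) := by
    rw [← h1]
    symm
    refine Measure.restrict_eq_self_of_ae_mem ?_
    refine (ae_map_iff (p := fun z => z ∈ cc ⁻¹' U) (cont_ry F).aemeasurable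
      (hU.preimage continuous_cc).measurableSet).2 (Eventually.of_forall fun x => ?_)
    show cc (rc (F.y x)) ∈ U
    rw [cc_rc]
    exact F.mem x
  refine ⟨v, hv, fun hne => ?_, ?_⟩
  · refine lt_of_le_of_ne hv fun h0 => ?_
    obtain ⟨u, hu⟩ := hne
    obtain ⟨x, _⟩ := (F.conn u hu).nonempty
    have := isOpenPos_vm (volF (adl F) (F.kah K))
    have h3 := congrArg (fun μ : Measure (RI m → ℝ) => μ univ) h2
    rw [Measure.map_apply (cont_ry F).measurable MeasurableSet.univ, preimage_univ, ← h0] at h3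
    have h4 : nu F K univ = 0 := by simpa using h3
    exact (isOpen_univ.measure_pos (vm (volF (adl F) (F.kah K))) ⟨x, mem_univ x⟩).ne' h4
  · intro i1 i2
    have h3 : i1 = borel F.V := i2.measurable_eq
    subst h3
    exact h2

namespace Mass

variable {F : Fam A d m U} {K : Kah A} {v : ℝ}

theorem lint (h : Mass F K v) [MeasurableSpace F.V] [BorelSpace F.V] {a : (RI m → ℝ) → ℝ≥0∞}
    (ha : Measurable a) :
    ∫⁻ x, a (rc (F.y x)) ∂(nu F K) = ENNReal.ofReal v * ∫⁻ z in cc ⁻¹' U, a z := by
  rw [← lintegral_map ha (cont_ry F).measurable, h.map, lintegral_smul_measure, smul_eq_mul]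

theorem int (h : Mass F K v) [MeasurableSpace F.V] [BorelSpace F.V] {W : Type*}
    [NormedAddCommGroup W] [NormedSpace ℝ W] {a : (RI m → ℝ) → W}
    (ha : AEStronglyMeasurable a (volume.restrict (cc ⁻¹' U))) :
    ∫ x, a (rc (F.y x)) ∂(nu F K) = v • ∫ z in cc ⁻¹' U, a z := by
  have h1 : AEStronglyMeasurable a (Measure.map (fun x => rc (F.y x)) (nu F K)) := by
    rw [h.map]
    exact ha.smul_measure _
  rw [← integral_map (cont_ry F).aemeasurable h1, h.map, integral_smul_measure,
    ENNReal.toReal_ofReal h.nonneg]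

theorem integrable (h : Mass F K v) [MeasurableSpace F.V] [BorelSpace F.V] {W : Type*}
    [NormedAddCommGroup W] {a : (RI m → ℝ) → W} (ha : IntegrableOn a (cc ⁻¹' U)) :
    Integrable (fun x => a (rc (F.y x))) (nu F K) := by
  have h1 : Integrable a (Measure.map (fun x => rc (F.y x)) (nu F K)) := by
    rw [h.map]
    exact ha.smul_measure ENNReal.ofReal_ne_top
  exact h1.comp_measurable (cont_ry F).measurable

/-- the form with `intD` -/
theorem intD_eq (h : Mass F K v) {a : Cn m → ℂ}
    (ha : IntegrableOn (fun z : RI m → ℝ => a (cc z)) (cc ⁻¹' U)) {C : Set (Cn m)}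
    (hC : IsCompact C) (hCU : C ⊆ U) (h0 : ∀ z, z ∉ C → a z = 0) :
    intD F.P (fun k x => a (F.y x) * (fb ((F.kah K).g k x)).det) =
      v * ∫ z : RI m → ℝ, a (cc z) := by
  letI : MeasurableSpace F.V := borel F.V
  haveI : BorelSpace F.V := ⟨rfl⟩
  have h1 : Integrable (fun x => a (F.y x)) (nu F K) := by
    have := h.integrable ha
    simpa only [cc_rc] using this
  have h2 := int_fb F.P (adl F) (F.kah K) (f := fun x => a (F.y x)) h1
    (F.proper C hCU hC) fun x hx => h0 _ hx
  rw [h2]
  have h3 := h.int ha.aestronglyMeasurable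
  simp only [cc_rc] at h3
  refine h3.trans ?_
  have h4 : ∫ z in cc ⁻¹' U, a (cc z) = ∫ z : RI m → ℝ, a (cc z) :=
    setIntegral_eq_integral_of_forall_compl_eq_zero fun z hz => h0 _ fun h => hz (hCU h)
  rw [h4, Complex.real_smul]

theorem intD_cont (h : Mass F K v) {a : Cn m → ℂ} (ha : Continuous a) (hc : HasCompactSupport a)
    (hs : tsupport a ⊆ U) :
    intD F.P (fun k x => a (F.y x) * (fb ((F.kah K).g k x)).det) =
      v * ∫ z : RI m → ℝ, a (cc z) := by
  refine h.intD_eq ?_ hc.isCompact hs fun z hz => image_eq_zero_of_notMem_tsupport hz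
  refine Integrable.integrableOn ?_
  refine (ha.comp continuous_cc).integrable_of_hasCompactSupport ?_
  refine HasCompactSupport.intro (hc.isCompact.image continuous_rc) fun z hz => ?_
  have h1 : cc z ∉ tsupport a := fun h' => hz ⟨cc z, h', rc_cc z⟩
  show a (cc z) = 0
  exact image_eq_zero_of_notMem_tsupport h1

theorem unique {v' : ℝ} (h : Mass F K v) (h' : Mass F K v') (hU : IsOpen U) (hne : U.Nonempty) :
    v = v' := by
  letI : MeasurableSpace F.V := borel F.V
  haveI : BorelSpace F.V := ⟨rfl⟩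
  obtain ⟨u, hu⟩ := hne
  obtain ⟨ε, hε, hεU⟩ := Metric.isOpen_iff.1 (hU.preimage continuous_cc) (rc u)
    (by show cc (rc u) ∈ U; rwa [cc_rc])
  have h1 := h.map.symm.trans h'.map
  have h2 := congrArg (fun μ : Measure (RI m → ℝ) => μ (Metric.ball (rc u) ε)) h1
  simp only [Measure.smul_apply, smul_eq_mul] at h2
  rw [Measure.restrict_apply Metric.isOpen_ball.measurableSet, inter_eq_left.2 hεU] at h2
  have h3 := (ENNReal.mul_left_inj (Metric.isOpen_ball.measure_pos volume
    ⟨rc u, Metric.mem_ball_self hε⟩).ne' Metric.isBounded_ball.measure_lt_top.ne).1 h2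
  exact (ENNReal.ofReal_eq_ofReal_iff h.nonneg h'.nonneg).1 h3

end Mass

/-- the literal form of S6-MASS -/
theorem mass_literal (F : Fam A d m U) (K : Kah A) (hU : IsOpen U) (hc : IsPreconnected U) :
    ∃ v : ℝ, 0 ≤ v ∧ ∀ a : Cn m → ℂ, Continuous a → HasCompactSupport a → tsupport a ⊆ U →
      intD F.P (fun k x => a (F.y x) * (fb ((F.kah K).g k x)).det) =
        v * ∫ z : RI m → ℝ, a (cc z) := by
  obtain ⟨v, hv⟩ := exists_mass F K hU hc
  exact ⟨v, hv.nonneg, fun a ha hc hs => hv.intD_cont ha hc hs⟩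

end fam

end

end Crest.Agent.R281.Mass3_519
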