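import Mathlib

/-!
# Row 281 (S0424), KAPPA-1 / UNIQ of helper360 (#7887, #7975), part (U2): MAXP + LAST STEP (helper877)

`mean_ball`      : mean value property of vector valued holomorphic functions on balls of `E`
`maxP`           : `S ⊆ X` compact preconnected with parametrisations `ψ q`, functions `Ψ k ≤ 0` on
                   `S` (off the bad points), `Ψ k (p k) → 0`, sub-mean on the balls of the
                   parametrisations up to `ε q k → 0`: then `Ψ k → 0` in `L¹` near every point of `S`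
`const_of_sub`   : if `u k → 0` in `L¹` of a ball and `u k - c ‖g‖²` is sub-mean up to `ε k → 0` at
                   the good points, `g` holomorphic, then `g` is constant on the ball
`maxP_const`     : the two together
-/

set_option autoImplicit false
set_option linter.unusedSectionVars false

open MeasureTheory Set Metric Filter Topology

namespace Crest.Agent.R281.MaxP_877

noncomputable section

/-! ### mean value property -/

section Mean

variable {E : Type*} [NormedAddCommGroup E] [NormedSpace ℂ E] [FiniteDimensional ℂ E]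
  [MeasurableSpace E] [BorelSpace E]

theorem mp_smul (μ : Measure E) [μ.IsAddHaarMeasure] {c : ℂ} (hc : ‖c‖ = 1) :
    MeasurePreserving (fun v : E => c • v) μ μ := by
  have hm : Measurable (fun v : E => c • v) := (continuous_const_smul c).measurable
  refine ⟨hm, ?_⟩
  let f : E →ₗ[ℂ] E := c • LinearMap.id
  have hdet : LinearMap.det (f.restrictScalars ℝ) = 1 := by
    rw [LinearMap.det_restrictScalars, Algebra.norm_complex_apply, Complex.normSq_eq_norm_sq,
      show LinearMap.det f = c ^ (Module.finrank ℂ E) by simp [f], norm_pow, hc, one_pow, one_pow]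
  have := Measure.map_linearMap_addHaar_eq_smul_addHaar μ (f := f.restrictScalars ℝ)
    (by rw [hdet]; exact one_ne_zero)
  rw [hdet] at this
  have e : (⇑(f.restrictScalars ℝ) : E → E) = fun v => c • v := rfl
  rw [e] at this
  simpa using this

variable {F : Type*} [NormedAddCommGroup F] [NormedSpace ℂ F] [CompleteSpace F]

theorem setIntegral_rot (μ : Measure E) [μ.IsAddHaarMeasure] {c : ℂ} (hc : ‖c‖ = 1) (R : ℝ)
    (g : E → F) : ∫ v in ball (0 : E) R, g (c • v) ∂μ = ∫ v in ball (0 : E) R, g v ∂μ := by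
  have hc0 : c ≠ 0 := by
    rintro rfl
    simp at hc
  have hemb : MeasurableEmbedding (fun v : E => c • v) :=
    (Homeomorph.smulOfNeZero c hc0).measurableEmbedding
  have h1 := (mp_smul μ hc).setIntegral_preimage_emb hemb g (ball 0 R)
  have h2 : (fun v : E => c • v) ⁻¹' ball 0 R = ball 0 R := by
    ext v
    simp [norm_smul, hc]
  rw [h2] at h1
  exact h1

/-- **mean value property** on balls of a finite dimensional complex normed space -/
theorem mean_ball (μ : Measure E) [μ.IsAddHaarMeasure] {g : E → F} {z : E} {R : ℝ}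
    (hg : ∀ x ∈ closedBall z R, DifferentiableAt ℂ g x) :
    ∫ x in ball z R, g x ∂μ = μ.real (ball z R) • g z := by
  have : ProperSpace E := FiniteDimensional.proper_rclike ℂ E
  rcases le_or_gt R 0 with hR | hR
  · rw [ball_eq_empty.2 hR]
    simp
  have hball : μ.real (ball z R) = μ.real (ball (0 : E) R) := by
    rw [measureReal_def, measureReal_def, Measure.addHaar_ball_center]
  have hcont : ContinuousOn g (closedBall z R) :=
    fun x hx => (hg x hx).continuousAt.continuousWithinAt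
  have hin : ∀ (w : ℂ) (v : E), ‖w‖ ≤ 1 → v ∈ closedBall (0 : E) R →
      z + w • v ∈ closedBall z R := by
    intro w v hw hv
    rw [mem_closedBall_zero_iff] at hv
    rw [mem_closedBall, dist_eq_norm, add_sub_cancel_left, norm_smul]
    calc ‖w‖ * ‖v‖ ≤ 1 * R := mul_le_mul hw hv (norm_nonneg _) zero_le_one
      _ = R := one_mul R
  have hcm : ∀ θ : ℝ, ‖circleMap 0 1 θ‖ = 1 := fun θ => by simp
  have hcc : Continuous (fun p : ℝ × E => z + circleMap 0 1 p.1 • p.2) := by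
    have := continuous_circleMap 0 1
    fun_prop
  have hprod : IntegrableOn (fun p : ℝ × E => g (z + circleMap 0 1 p.1 • p.2))
      (Ioc 0 (2 * Real.pi) ×ˢ ball (0 : E) R) ((volume : Measure ℝ).prod μ) := by
    have h1 : ContinuousOn (fun p : ℝ × E => g (z + circleMap 0 1 p.1 • p.2))
        (Icc 0 (2 * Real.pi) ×ˢ closedBall (0 : E) R) :=
      hcont.comp hcc.continuousOn fun p hp => hin _ p.2 (hcm _).le hp.2
    have h2 := h1.integrableOn_compact (μ := (volume : Measure ℝ).prod μ)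
      (isCompact_Icc.prod (isCompact_closedBall _ _))
    exact h2.mono_set (prod_mono Ioc_subset_Icc_self ball_subset_closedBall)
  rw [IntegrableOn, ← Measure.prod_restrict] at hprod
  have hswap := integral_integral_swap (f := fun (θ : ℝ) (v : E) => g (z + circleMap 0 1 θ • v))
    (μ := volume.restrict (Ioc 0 (2 * Real.pi))) (ν := μ.restrict (ball (0 : E) R)) hprod
  have hrot : ∀ θ : ℝ, ∫ v in ball (0 : E) R, g (z + circleMap 0 1 θ • v) ∂μ
      = ∫ x in ball z R, g x ∂μ := by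
    intro θ
    rw [setIntegral_rot μ (c := circleMap 0 1 θ) (by simp) R (fun v => g (z + v))]
    have h1 := (measurePreserving_add_left μ z).setIntegral_preimage_emb
      (measurableEmbedding_addLeft z) g (ball z R)
    rw [← h1]
    congr 2
    ext v
    simp
  have hpi : (0 : ℝ) < 2 * Real.pi := by positivity
  have hL : ∫ θ in Ioc 0 (2 * Real.pi), (∫ v in ball (0 : E) R, g (z + circleMap 0 1 θ • v) ∂μ)
      = (2 * Real.pi) • ∫ x in ball z R, g x ∂μ := by
    simp only [hrot]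
    simp [hpi.le]
  have hca : ∀ v ∈ ball (0 : E) R, ∫ θ in Ioc 0 (2 * Real.pi), g (z + circleMap 0 1 θ • v)
      = (2 * Real.pi) • g z := by
    intro v hv
    have hd : DiffContOnCl ℂ (fun w : ℂ => g (z + w • v)) (ball 0 |(1 : ℝ)|) := by
      refine DifferentiableOn.diffContOnCl fun w hw => ?_
      have hw' : ‖w‖ ≤ 1 := by
        have := closure_ball_subset_closedBall hw
        simpa using this
      have h2 : DifferentiableAt ℂ (fun w : ℂ => z + w • v) w := by fun_prop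
      exact ((hg _ (hin w v hw' (ball_subset_closedBall hv))).comp w h2).differentiableWithinAt
    have h1 := hd.circleAverage
    rw [Real.circleAverage_def, intervalIntegral.integral_of_le hpi.le] at h1
    simp only [zero_smul, add_zero] at h1
    rw [← h1, smul_smul, mul_inv_cancel₀ hpi.ne', one_smul]
  have hR1 : ∫ v in ball (0 : E) R, (∫ θ in Ioc 0 (2 * Real.pi), g (z + circleMap 0 1 θ • v)) ∂μ
      = μ.real (ball (0 : E) R) • (2 * Real.pi) • g z := by
    rw [setIntegral_congr_fun measurableSet_ball hca, setIntegral_const]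
  rw [hswap, hR1] at hL
  rw [hball]
  have h3 := congrArg (fun x => (2 * Real.pi)⁻¹ • x) hL
  simp only [smul_smul] at h3
  rw [inv_mul_cancel₀ hpi.ne', one_smul] at h3
  rw [← h3]
  congr 1
  field_simp

end Mean

/-! ### the last step -/

section Last

variable {E : Type*} [NormedAddCommGroup E] [NormedSpace ℂ E] [FiniteDimensional ℂ E]
  [MeasurableSpace E] [BorelSpace E]
variable {F : Type*} [NormedAddCommGroup F] [InnerProductSpace ℂ F] [CompleteSpace F]

/-- mean of `‖g‖²` over a ball -/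
theorem sq_mean (μ : Measure E) [μ.IsAddHaarMeasure] {g : E → F} {z : E} {r : ℝ}
    (hg : ∀ x ∈ closedBall z r, DifferentiableAt ℂ g x) :
    ∫ x in ball z r, ‖g x‖ ^ 2 ∂μ
      = μ.real (ball z r) * ‖g z‖ ^ 2 + ∫ x in ball z r, ‖g x - g z‖ ^ 2 ∂μ := by
  have : ProperSpace E := FiniteDimensional.proper_rclike ℂ E
  have hgc : ContinuousOn g (closedBall z r) :=
    fun x hx => (hg x hx).continuousAt.continuousWithinAt
  have hI : ∀ {u : E → ℝ}, ContinuousOn u (closedBall z r) → IntegrableOn u (ball z r) μ :=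
    fun hu => (hu.integrableOn_compact (isCompact_closedBall _ _)).mono_set ball_subset_closedBall
  set h : E → ℂ := fun x => inner ℂ (g z) (g x - g z) with hh
  have hd : ∀ x ∈ closedBall z r, DifferentiableAt ℂ h x := by
    intro x hx
    have h1 : DifferentiableAt ℂ (fun x => (innerSL ℂ (g z)) (g x - g z)) x :=
      (innerSL ℂ (g z)).differentiableAt.comp x ((hg x hx).sub_const _)
    exact h1
  have hhc : ContinuousOn h (closedBall z r) :=
    fun x hx => (hd x hx).continuousAt.continuousWithinAt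
  have hhi : IntegrableOn h (ball z r) μ :=
    (hhc.integrableOn_compact (isCompact_closedBall _ _)).mono_set ball_subset_closedBall
  have h0 : ∫ x in ball z r, h x ∂μ = 0 := by
    rw [mean_ball μ hd]
    simp [hh]
  have hre : ∫ x in ball z r, (h x).re ∂μ = 0 := by
    have := integral_re hhi
    simp only [h0] at this
    simpa using this
  have e : ∀ x, ‖g x‖ ^ 2 = ‖g z‖ ^ 2 + 2 * (h x).re + ‖g x - g z‖ ^ 2 := by
    intro x
    have := norm_add_sq (𝕜 := ℂ) (g z) (g x - g z)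
    rw [add_sub_cancel] at this
    simpa using this
  have i1 : IntegrableOn (fun _ : E => ‖g z‖ ^ 2) (ball z r) μ := hI continuousOn_const
  have i2 : IntegrableOn (fun x => 2 * (h x).re) (ball z r) μ :=
    hI (continuousOn_const.mul (Complex.continuous_re.comp_continuousOn hhc))
  have i3 : IntegrableOn (fun x => ‖g x - g z‖ ^ 2) (ball z r) μ :=
    hI ((hgc.sub continuousOn_const).norm.pow 2)
  have e' : (fun x => ‖g x‖ ^ 2) = fun x => ‖g z‖ ^ 2 + 2 * (h x).re + ‖g x - g z‖ ^ 2 := funext e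
  have i12 : IntegrableOn (fun x => ‖g z‖ ^ 2 + 2 * (h x).re) (ball z r) μ := i1.add i2
  rw [e', integral_add i12 i3, integral_add i1 i2, integral_const_mul, hre,
    setIntegral_const]
  simp

/-- **LAST STEP**: `u k → 0` in `L¹ (ball z₀ R)`, `u k - c ‖g‖²` sub-mean up to `ε k → 0` at the good
points: `g` is constant. -/
theorem const_of_sub {κ : Type*} {l : Filter κ} [l.NeBot] (μ : Measure E) [μ.IsAddHaarMeasure]
    {z₀ : E} {R c : ℝ} (hc : 0 < c) {u : κ → E → ℝ} {G : κ → Set E} {ε : κ → ℝ}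
    (hε : Tendsto ε l (𝓝 0))
    (hint : ∀ᶠ k in l, IntegrableOn (u k) (ball z₀ R) μ)
    (hG : ∀ᶠ k in l, ∀ᵐ w ∂(μ.restrict (ball z₀ R)), w ∈ G k)
    (hL : Tendsto (fun k => ∫ w in ball z₀ R, |u k w| ∂μ) l (𝓝 0))
    {g : E → F} (hg : DifferentiableOn ℂ g (ball z₀ R))
    (hsub : ∀ᶠ k in l, ∀ z ∈ G k, ∀ r, 0 < r → closedBall z r ⊆ ball z₀ R →
      u k z - c * ‖g z‖ ^ 2 ≤ (⨍ w in ball z r, (u k w - c * ‖g w‖ ^ 2) ∂μ) + ε k) :
    ∀ z ∈ ball z₀ R, ∀ z' ∈ ball z₀ R, g z = g z' := by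
  have : ProperSpace E := FiniteDimensional.proper_rclike ℂ E
  -- locally constant
  have hgat : ∀ x ∈ ball z₀ R, DifferentiableAt ℂ g x := fun x hx =>
    hg.differentiableAt (isOpen_ball.mem_nhds hx)
  have hloc : ∀ z₁ ∈ ball z₀ R, ∀ᶠ z in 𝓝 z₁, g z = g z₁ := by
    intro z₁ hz₁
    obtain ⟨ρ, hρ, hρs⟩ := Metric.isOpen_iff.1 (isOpen_ball (x := z₀) (ε := R)) z₁ hz₁
    set r := ρ / 4 with hr
    have hr0 : 0 < r := by positivity
    have hsub3 : closedBall z₁ (3 * r) ⊆ ball z₀ R :=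
      (closedBall_subset_ball (by rw [hr]; linarith)).trans hρs
    refine mem_of_superset (ball_mem_nhds z₁ hr0) fun z₂ hz₂ => ?_
    by_contra hne
    have hz₂R : z₂ ∈ ball z₀ R := hsub3 (ball_subset_closedBall (ball_subset_ball (by linarith) hz₂))
    have hpos : 0 < ‖g z₂ - g z₁‖ := norm_pos_iff.2 (sub_ne_zero.2 hne)
    set η := ‖g z₂ - g z₁‖ / 2 with hη
    have hη0 : 0 < η := by positivity
    -- continuity at `z₁`, `z₂`
    obtain ⟨s1, hs1, h1⟩ := Metric.continuousAt_iff.1 (hgat z₁ hz₁).continuousAt (η / 2)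
      (by positivity)
    obtain ⟨s2, hs2, h2⟩ := Metric.continuousAt_iff.1 (hgat z₂ hz₂R).continuousAt (η / 2)
      (by positivity)
    set s := min (min s1 s2) (r / 2) with hs
    have hs0 : 0 < s := by positivity
    have hss1 : s ≤ s1 := (min_le_left _ _).trans (min_le_left _ _)
    have hss2 : s ≤ s2 := (min_le_left _ _).trans (min_le_right _ _)
    have hsr : s ≤ r / 2 := min_le_right _ _
    have hfar : ∀ z ∈ ball z₁ s, ∀ w ∈ ball z₂ s, η ≤ ‖g w - g z‖ := by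
      intro z hz w hw
      have a1 := h1 (lt_of_lt_of_le (mem_ball.1 hz) hss1)
      have a2 := h2 (lt_of_lt_of_le (mem_ball.1 hw) hss2)
      rw [dist_eq_norm] at a1 a2
      have a3 : ‖g z₂ - g z₁‖ ≤ ‖g w - g z₂‖ + ‖g w - g z‖ + ‖g z - g z₁‖ := by
        have : g z₂ - g z₁ = -(g w - g z₂) + (g w - g z) + (g z - g z₁) := by abel
        rw [this]
        refine (norm_add_le _ _).trans (add_le_add ((norm_add_le _ _).trans ?_) le_rfl)
        rw [norm_neg]
      have : ‖g z₂ - g z₁‖ = 2 * η := by rw [hη]; ring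
      linarith
    have hbsub : ∀ z ∈ ball z₁ s, ball z₂ s ⊆ ball z (2 * r) := by
      intro z hz w hw
      rw [mem_ball] at hz hw hz₂ ⊢
      have := dist_triangle4 w z₂ z₁ z
      rw [dist_comm z₁ z] at this
      linarith
    have hcsub : ∀ z ∈ ball z₁ s, closedBall z (2 * r) ⊆ ball z₀ R := by
      intro z hz
      refine Subset.trans ?_ hsub3
      intro w hw
      rw [mem_closedBall] at hw ⊢
      rw [mem_ball] at hz
      have := dist_triangle w z z₁
      linarith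
    set V := μ.real (ball (0 : E) (2 * r)) with hV
    have hVz : ∀ z : E, μ.real (ball z (2 * r)) = V := fun z => by
      rw [hV, measureReal_def, measureReal_def, Measure.addHaar_ball_center]
    have hV0 : 0 < V := ENNReal.toReal_pos (measure_ball_pos μ _ (by positivity)).ne'
      measure_ball_lt_top.ne
    set v := μ.real (ball z₂ s) with hv
    have hv0 : 0 < v := ENNReal.toReal_pos (measure_ball_pos μ _ hs0).ne' measure_ball_lt_top.ne
    set v1 := μ.real (ball z₁ s) with hv1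
    have hv10 : 0 < v1 := ENNReal.toReal_pos (measure_ball_pos μ _ hs0).ne' measure_ball_lt_top.ne
    set δ := c * (η ^ 2 * v / V) with hδ
    have hδ0 : 0 < δ := by positivity
    -- smallness
    have hLV : Tendsto (fun k => (∫ w in ball z₀ R, |u k w| ∂μ) / V) l (𝓝 0) := by
      simpa using hL.div_const V
    have e1 : ∀ᶠ k in l, (∫ w in ball z₀ R, |u k w| ∂μ) / V < δ / 4 :=
      hLV.eventually (gt_mem_nhds (by positivity))
    have e2 : ∀ᶠ k in l, ε k < δ / 4 := hε.eventually (gt_mem_nhds (by positivity))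
    have e3 : ∀ᶠ k in l, (∫ w in ball z₀ R, |u k w| ∂μ) < δ / 2 * v1 :=
      hL.eventually (gt_mem_nhds (by positivity))
    obtain ⟨k, ki, kG, ks, k1, k2, k3⟩ :=
      (hint.and (hG.and (hsub.and (e1.and (e2.and e3))))).exists
    have hs1R : ball z₁ s ⊆ ball z₀ R :=
      (ball_subset_closedBall.trans (closedBall_subset_closedBall (by linarith))).trans hsub3
    -- pointwise lower bound of `|u k|` on `ball z₁ s`
    have hlow : ∀ᵐ z ∂(μ.restrict (ball z₁ s)), δ / 2 ≤ |u k z| := by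
      have hG' : ∀ᵐ w ∂(μ.restrict (ball z₁ s)), w ∈ G k :=
        ae_restrict_of_ae_restrict_of_subset hs1R kG
      filter_upwards [hG', ae_restrict_mem measurableSet_ball] with z hzG hz
      have hb : ball z (2 * r) ⊆ ball z₀ R := ball_subset_closedBall.trans (hcsub z hz)
      have hdz : ∀ x ∈ closedBall z (2 * r), DifferentiableAt ℂ g x :=
        fun x hx => hgat x (hcsub z hz hx)
      have hgc : ContinuousOn g (closedBall z (2 * r)) :=
        fun x hx => (hdz x hx).continuousAt.continuousWithinAt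
      have m := ks z hzG (2 * r) (by positivity) (hcsub z hz)
      have iu : IntegrableOn (u k) (ball z (2 * r)) μ := ki.mono_set hb
      have ig : IntegrableOn (fun w => ‖g w‖ ^ 2) (ball z (2 * r)) μ :=
        ((hgc.norm.pow 2).integrableOn_compact (isCompact_closedBall _ _)).mono_set
          ball_subset_closedBall
      have igz : IntegrableOn (fun w => ‖g w - g z‖ ^ 2) (ball z (2 * r)) μ :=
        (((hgc.sub continuousOn_const).norm.pow 2).integrableOn_compact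
          (isCompact_closedBall _ _)).mono_set ball_subset_closedBall
      rw [setAverage_eq, hVz, smul_eq_mul, integral_sub iu (ig.const_mul c), integral_const_mul,
        sq_mean μ hdz, hVz] at m
      have l1 : ∫ w in ball z (2 * r), u k w ∂μ ≤ ∫ w in ball z₀ R, |u k w| ∂μ := by
        calc ∫ w in ball z (2 * r), u k w ∂μ ≤ ∫ w in ball z (2 * r), |u k w| ∂μ :=
              integral_mono iu iu.abs fun w => le_abs_self _
          _ ≤ ∫ w in ball z₀ R, |u k w| ∂μ :=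
              setIntegral_mono_set ki.abs (Eventually.of_forall fun w => abs_nonneg _)
                (LE.le.eventuallyLE hb)
      have l2 : η ^ 2 * v ≤ ∫ w in ball z (2 * r), ‖g w - g z‖ ^ 2 ∂μ := by
        calc η ^ 2 * v = ∫ w in ball z₂ s, η ^ 2 ∂μ := by
              rw [setIntegral_const, smul_eq_mul, mul_comm]
          _ ≤ ∫ w in ball z₂ s, ‖g w - g z‖ ^ 2 ∂μ := by
              refine setIntegral_mono_on (integrableOn_const measure_ball_lt_top.ne)
                (igz.mono_set (hbsub z hz)) measurableSet_ball fun w hw => ?_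
              have := hfar z hz w hw
              gcongr
          _ ≤ ∫ w in ball z (2 * r), ‖g w - g z‖ ^ 2 ∂μ :=
              setIntegral_mono_set igz (Eventually.of_forall fun w => by positivity)
                (LE.le.eventuallyLE (hbsub z hz))
      have l3 : V⁻¹ * (∫ w in ball z (2 * r), u k w ∂μ) ≤ δ / 4 := by
        have : V⁻¹ * (∫ w in ball z (2 * r), u k w ∂μ) ≤
            V⁻¹ * ∫ w in ball z₀ R, |u k w| ∂μ := by gcongr
        have h' : V⁻¹ * (∫ w in ball z₀ R, |u k w| ∂μ) = (∫ w in ball z₀ R, |u k w| ∂μ) / V := by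
          rw [div_eq_inv_mul]
        linarith
      have l4 : δ ≤ V⁻¹ * (c * ∫ w in ball z (2 * r), ‖g w - g z‖ ^ 2 ∂μ) := by
        have : δ = V⁻¹ * (c * (η ^ 2 * v)) := by
          rw [hδ]
          field_simp
        rw [this]
        gcongr
      have l5 : V⁻¹ * (∫ w in ball z (2 * r), u k w ∂μ -
          c * (V * ‖g z‖ ^ 2 + ∫ w in ball z (2 * r), ‖g w - g z‖ ^ 2 ∂μ)) =
          V⁻¹ * (∫ w in ball z (2 * r), u k w ∂μ) - c * ‖g z‖ ^ 2 -
          V⁻¹ * (c * ∫ w in ball z (2 * r), ‖g w - g z‖ ^ 2 ∂μ) := by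
        field_simp
        ring
      rw [l5] at m
      have l6 : u k z ≤ -(δ / 2) := by linarith
      have l7 := neg_le_abs (u k z)
      linarith
    have : δ / 2 * v1 ≤ ∫ w in ball z₀ R, |u k w| ∂μ := by
      calc δ / 2 * v1 = ∫ w in ball z₁ s, δ / 2 ∂μ := by
            rw [setIntegral_const, smul_eq_mul, mul_comm]
        _ ≤ ∫ w in ball z₁ s, |u k w| ∂μ :=
            integral_mono_ae (integrableOn_const measure_ball_lt_top.ne) (ki.mono_set hs1R).abs hlow
        _ ≤ ∫ w in ball z₀ R, |u k w| ∂μ :=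
            setIntegral_mono_set ki.abs (Eventually.of_forall fun w => abs_nonneg _)
              (LE.le.eventuallyLE hs1R)
    linarith
  intro z hz z' hz'
  refine isOpen_ball.is_const_of_fderiv_eq_zero (𝕜 := ℂ) ?_ hg ?_ hz hz'
  · exact (convex_ball z₀ R).isPreconnected
  · intro x hx
    have h1 : g =ᶠ[𝓝 x] fun _ => g x := hloc x hx
    rw [h1.fderiv_eq]
    simp

end Last

/-! ### the maximum principle -/

section Max

variable {X E κ : Type*} [TopologicalSpace X] [NormedAddCommGroup E] [ProperSpace E]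
  [MeasurableSpace E] [BorelSpace E]

/-- the hypotheses at one point `q`: `Ψ k` is sub-mean up to `ε k` on the balls of the
parametrisation `ψ`, at the good points -/
structure SubAt (μ : Measure E) (ψ : E → X) (R : ℝ) (Ψ : X → ℝ) (G : Set X) (ε : ℝ) : Prop where
  ae : ∀ z r, 0 < r → closedBall z r ⊆ ball 0 R → ψ z ∈ G →
    ∀ᵐ w ∂(μ.restrict (ball z r)), ψ w ∈ G
  int : ∀ z r, 0 < r → closedBall z r ⊆ ball 0 R → ψ z ∈ G →
    IntegrableOn (fun w => Ψ (ψ w)) (ball z r) μ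
  sub : ∀ z r, 0 < r → closedBall z r ⊆ ball 0 R → ψ z ∈ G →
    Ψ (ψ z) ≤ (⨍ w in ball z r, Ψ (ψ w) ∂μ) + ε

/-- almost maximal points near `q` imply `L¹` convergence near `q` -/
theorem l1_of_near {l : Filter κ} (μ : Measure E) [μ.IsAddHaarMeasure] {S : Set X} {q : X}
    {ψ : E → X} {R : ℝ} (hR : 0 < R) (hψS : ∀ w ∈ ball (0 : E) R, ψ w ∈ S)
    (hψn : ∀ r, 0 < r → ψ '' ball 0 r ∈ 𝓝[S] q) {Ψ : κ → X → ℝ} {G : κ → Set X} {ε : κ → ℝ}
    (hε : Tendsto ε l (𝓝 0)) (hle : ∀ᶠ k in l, ∀ x ∈ S, x ∈ G k → Ψ k x ≤ 0)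
    (hsub : ∀ᶠ k in l, SubAt μ ψ R (Ψ k) (G k) (ε k))
    (hA : ∀ V ∈ 𝓝[S] q, ∀ δ : ℝ, 0 < δ → ∀ᶠ k in l, ∃ x ∈ V, x ∈ G k ∧ -δ ≤ Ψ k x) :
    (∀ᶠ k in l, IntegrableOn (fun w => Ψ k (ψ w)) (ball 0 (R / 4)) μ ∧
      ∀ᵐ w ∂(μ.restrict (ball 0 (R / 4))), ψ w ∈ G k) ∧
    Tendsto (fun k => ∫ w in ball 0 (R / 4), |Ψ k (ψ w)| ∂μ) l (𝓝 0) := by
  set ρ := R / 4 with hρ
  have hρ0 : 0 < ρ := by positivity
  have hc : ∀ z ∈ ball (0 : E) ρ, closedBall z (2 * ρ) ⊆ ball 0 R := by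
    intro z hz w hw
    rw [mem_closedBall] at hw
    rw [mem_ball] at hz ⊢
    have := dist_triangle w z 0
    rw [hρ] at hw hz
    linarith
  have hb : ∀ z ∈ ball (0 : E) ρ, ball (0 : E) ρ ⊆ ball z (2 * ρ) := by
    intro z hz w hw
    rw [mem_ball] at hz hw ⊢
    have := dist_triangle w 0 z
    rw [dist_comm 0 z] at this
    linarith
  set V := μ.real (ball (0 : E) (2 * ρ)) with hV
  have hVz : ∀ z : E, μ.real (ball z (2 * ρ)) = V := fun z => by
    rw [hV, measureReal_def, measureReal_def, Measure.addHaar_ball_center]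
  have hV0 : 0 < V := ENNReal.toReal_pos (measure_ball_pos μ _ (by positivity)).ne'
    measure_ball_lt_top.ne
  have key : ∀ δ : ℝ, 0 < δ → ∀ᶠ k in l, (IntegrableOn (fun w => Ψ k (ψ w)) (ball 0 ρ) μ ∧
      ∀ᵐ w ∂(μ.restrict (ball 0 ρ)), ψ w ∈ G k) ∧
      ∫ w in ball 0 ρ, |Ψ k (ψ w)| ∂μ < δ := by
    intro δ hδ
    set δ' := δ / (4 * V) with hδ'
    have hδ0 : 0 < δ' := by positivity
    filter_upwards [hA _ (hψn ρ hρ0) δ' hδ0, hε.eventually (gt_mem_nhds hδ0), hle, hsub]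
      with k k1 k2 k3 k4
    obtain ⟨_, ⟨z, hz, rfl⟩, hzG, hzδ⟩ := k1
    have i1 := k4.int z (2 * ρ) (by positivity) (hc z hz) hzG
    have a1 := k4.ae z (2 * ρ) (by positivity) (hc z hz) hzG
    have s1 := k4.sub z (2 * ρ) (by positivity) (hc z hz) hzG
    refine ⟨⟨i1.mono_set (hb z hz), ae_restrict_of_ae_restrict_of_subset (hb z hz) a1⟩, ?_⟩
    have habs : ∫ w in ball z (2 * ρ), |Ψ k (ψ w)| ∂μ = -∫ w in ball z (2 * ρ), Ψ k (ψ w) ∂μ := by
      rw [← integral_neg]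
      refine integral_congr_ae ?_
      filter_upwards [a1, ae_restrict_mem measurableSet_ball] with w hw hwb
      exact abs_of_nonpos (k3 _ (hψS w (hc z hz (ball_subset_closedBall hwb))) hw)
    rw [setAverage_eq, hVz, smul_eq_mul] at s1
    have s2 : -(2 * δ') ≤ V⁻¹ * ∫ w in ball z (2 * ρ), Ψ k (ψ w) ∂μ := by linarith
    have s3 : -(2 * δ') * V ≤ ∫ w in ball z (2 * ρ), Ψ k (ψ w) ∂μ := by
      calc -(2 * δ') * V ≤ (V⁻¹ * ∫ w in ball z (2 * ρ), Ψ k (ψ w) ∂μ) * V := by gcongr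
        _ = _ := by field_simp
    calc ∫ w in ball 0 ρ, |Ψ k (ψ w)| ∂μ ≤ ∫ w in ball z (2 * ρ), |Ψ k (ψ w)| ∂μ :=
          setIntegral_mono_set i1.abs (Eventually.of_forall fun w => abs_nonneg _)
            (LE.le.eventuallyLE (hb z hz))
      _ ≤ 2 * δ' * V := by linarith
      _ = δ / 2 := by rw [hδ']; field_simp; ring
      _ < δ := by linarith
  refine ⟨(key 1 one_pos).mono fun k hk => hk.1, ?_⟩
  rw [Metric.tendsto_nhds]
  intro δ hδ
  filter_upwards [key δ hδ] with k hk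
  rw [Real.dist_eq, sub_zero, abs_of_nonneg (integral_nonneg fun w => abs_nonneg _)]
  exact hk.2

/-- **MAXP** along an ultrafilter -/
theorem maxP (F : Ultrafilter κ) (μ : Measure E) [μ.IsAddHaarMeasure] {S : Set X}
    (hS : IsCompact S) (hSc : IsPreconnected S) {ψ : X → E → X} {R : X → ℝ}
    (hR : ∀ q ∈ S, 0 < R q) (hψc : ∀ q ∈ S, ContinuousOn (ψ q) (ball 0 (R q)))
    (hψS : ∀ q ∈ S, ∀ w ∈ ball (0 : E) (R q), ψ q w ∈ S)
    (hψn : ∀ q ∈ S, ∀ r, 0 < r → ψ q '' ball 0 r ∈ 𝓝[S] q)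
    {Ψ : κ → X → ℝ} {G : κ → Set X} {ε : X → κ → ℝ} (hε : ∀ q ∈ S, Tendsto (ε q) F (𝓝 0))
    (hle : ∀ᶠ k in (F : Filter κ), ∀ x ∈ S, x ∈ G k → Ψ k x ≤ 0)
    {p : κ → X} (hp : ∀ᶠ k in (F : Filter κ), p k ∈ S ∧ p k ∈ G k)
    (hp0 : Tendsto (fun k => Ψ k (p k)) F (𝓝 0))
    (hsub : ∀ q ∈ S, ∀ᶠ k in (F : Filter κ), SubAt μ (ψ q) (R q) (Ψ k) (G k) (ε q k)) :
    ∀ q ∈ S, (∀ᶠ k in (F : Filter κ), IntegrableOn (fun w => Ψ k (ψ q w)) (ball 0 (R q / 4)) μ ∧
      ∀ᵐ w ∂(μ.restrict (ball 0 (R q / 4))), ψ q w ∈ G k) ∧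
    Tendsto (fun k => ∫ w in ball 0 (R q / 4), |Ψ k (ψ q w)| ∂μ) F (𝓝 0) := by
  let A : Set S := {y | ∀ V ∈ 𝓝[S] (y : X), ∀ δ : ℝ, 0 < δ →
    ∀ᶠ k in (F : Filter κ), ∃ x ∈ V, x ∈ G k ∧ -δ ≤ Ψ k x}
  have hL : ∀ y : S, y ∈ A → (∀ᶠ k in (F : Filter κ),
      IntegrableOn (fun w => Ψ k (ψ y w)) (ball 0 (R y / 4)) μ ∧
      ∀ᵐ w ∂(μ.restrict (ball 0 (R y / 4))), ψ y w ∈ G k) ∧
      Tendsto (fun k => ∫ w in ball 0 (R y / 4), |Ψ k (ψ y w)| ∂μ) F (𝓝 0) := fun y hy =>
    l1_of_near μ (hR y y.2) (hψS y y.2) (hψn y y.2) (hε y y.2) hle (hsub y y.2) hy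
  have hclosed : IsClosed A := by
    refine isClosed_of_closure_subset fun y hy V hV δ hδ => ?_
    obtain ⟨U, hU, hyU, hUV⟩ := mem_nhdsWithin.1 hV
    obtain ⟨y', hy'U, hy'A⟩ := mem_closure_iff.1 hy (Subtype.val ⁻¹' U)
      (hU.preimage continuous_subtype_val) hyU
    exact hy'A V (mem_nhdsWithin.2 ⟨U, hU, hy'U, hUV⟩) δ hδ
  have hopen : IsOpen A := by
    rw [isOpen_iff_mem_nhds]
    intro y hy
    rw [mem_nhds_subtype_iff_nhdsWithin]
    have hRy := hR y y.2
    refine mem_of_superset (hψn y y.2 (R y / 4) (by positivity)) ?_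
    rintro _ ⟨w, hw, rfl⟩
    have hwR : w ∈ ball (0 : E) (R y) := ball_subset_ball (by linarith) hw
    refine ⟨⟨ψ y w, hψS y y.2 w hwR⟩, ?_, rfl⟩
    intro V hV δ hδ
    have hct : Tendsto (ψ y) (𝓝 w) (𝓝[S] (ψ y w)) := by
      refine tendsto_nhdsWithin_iff.2 ⟨(hψc y y.2).continuousAt (isOpen_ball.mem_nhds hwR), ?_⟩
      filter_upwards [isOpen_ball.mem_nhds hwR] with w' hw'
      exact hψS y y.2 w' hw'
    obtain ⟨s, hs, hsV⟩ := Metric.mem_nhds_iff.1 (inter_mem (hct hV) (isOpen_ball.mem_nhds hw))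
    obtain ⟨hLi, hLt⟩ := hL y hy
    have hvs : 0 < μ.real (ball w s) := ENNReal.toReal_pos (measure_ball_pos μ _ hs).ne'
      measure_ball_lt_top.ne
    filter_upwards [hLi, hLt.eventually (gt_mem_nhds (mul_pos hδ hvs)), hle] with k k1 k2 k3
    by_contra hno
    push Not at hno
    have hsub' : ball w s ⊆ ball (0 : E) (R y / 4) := fun w' hw' => (hsV hw').2
    have hlow : ∀ᵐ w' ∂(μ.restrict (ball w s)), δ ≤ |Ψ k (ψ y w')| := by
      filter_upwards [ae_restrict_of_ae_restrict_of_subset hsub' k1.2,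
        ae_restrict_mem measurableSet_ball] with w' hw' hwb
      have h1 := hno (ψ y w') (hsV hwb).1 hw'
      have h2 := neg_le_abs (Ψ k (ψ y w'))
      linarith
    have : δ * μ.real (ball w s) ≤ ∫ w in ball 0 (R y / 4), |Ψ k (ψ y w)| ∂μ := by
      calc δ * μ.real (ball w s) = ∫ _w' in ball w s, δ ∂μ := by
            rw [setIntegral_const, smul_eq_mul, mul_comm]
        _ ≤ ∫ w' in ball w s, |Ψ k (ψ y w')| ∂μ :=
            integral_mono_ae (integrableOn_const measure_ball_lt_top.ne)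
              (k1.1.mono_set hsub').abs hlow
        _ ≤ ∫ w in ball 0 (R y / 4), |Ψ k (ψ y w)| ∂μ :=
            setIntegral_mono_set k1.1.abs (Eventually.of_forall fun w => abs_nonneg _)
              (LE.le.eventuallyLE hsub')
    linarith
  have hne : A.Nonempty := by
    have hle' : ((F.map p : Ultrafilter X) : Filter X) ≤ 𝓟 S := by
      rw [le_principal_iff]
      exact hp.mono fun k hk => hk.1
    obtain ⟨y, hyS, hy⟩ := hS.ultrafilter_le_nhds (F.map p) hle'
    have hy' : Tendsto p F (𝓝[S] y) := tendsto_nhdsWithin_iff.2 ⟨hy, hp.mono fun k hk => hk.1⟩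
    refine ⟨⟨y, hyS⟩, fun V hV δ hδ => ?_⟩
    filter_upwards [hy' hV, hp, hp0.eventually (lt_mem_nhds (neg_lt_zero.2 hδ))] with k k1 k2 k3
    exact ⟨p k, k1, k2.2, k3.le⟩
  have : PreconnectedSpace S := isPreconnected_iff_preconnectedSpace.1 hSc
  have huniv : A = univ := IsClopen.eq_univ ⟨hclosed, hopen⟩ hne
  intro q hq
  exact hL ⟨q, hq⟩ (by rw [huniv]; trivial)

/-- **MAXP** along any filter -/
theorem maxP_filter (l : Filter κ) (μ : Measure E) [μ.IsAddHaarMeasure] {S : Set X}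
    (hS : IsCompact S) (hSc : IsPreconnected S) {ψ : X → E → X} {R : X → ℝ}
    (hR : ∀ q ∈ S, 0 < R q) (hψc : ∀ q ∈ S, ContinuousOn (ψ q) (ball 0 (R q)))
    (hψS : ∀ q ∈ S, ∀ w ∈ ball (0 : E) (R q), ψ q w ∈ S)
    (hψn : ∀ q ∈ S, ∀ r, 0 < r → ψ q '' ball 0 r ∈ 𝓝[S] q)
    {Ψ : κ → X → ℝ} {G : κ → Set X} {ε : X → κ → ℝ} (hε : ∀ q ∈ S, Tendsto (ε q) l (𝓝 0))
    (hle : ∀ᶠ k in l, ∀ x ∈ S, x ∈ G k → Ψ k x ≤ 0)
    {p : κ → X} (hp : ∀ᶠ k in l, p k ∈ S ∧ p k ∈ G k)
    (hp0 : Tendsto (fun k => Ψ k (p k)) l (𝓝 0))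
    (hsub : ∀ q ∈ S, ∀ᶠ k in l, SubAt μ (ψ q) (R q) (Ψ k) (G k) (ε q k)) :
    ∀ q ∈ S, (∀ᶠ k in l, IntegrableOn (fun w => Ψ k (ψ q w)) (ball 0 (R q / 4)) μ ∧
      ∀ᵐ w ∂(μ.restrict (ball 0 (R q / 4))), ψ q w ∈ G k) ∧
    Tendsto (fun k => ∫ w in ball 0 (R q / 4), |Ψ k (ψ q w)| ∂μ) l (𝓝 0) := by
  have key : ∀ F : Ultrafilter κ, (F : Filter κ) ≤ l → ∀ q ∈ S,
      (∀ᶠ k in (F : Filter κ), IntegrableOn (fun w => Ψ k (ψ q w)) (ball 0 (R q / 4)) μ ∧
      ∀ᵐ w ∂(μ.restrict (ball 0 (R q / 4))), ψ q w ∈ G k) ∧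
    Tendsto (fun k => ∫ w in ball 0 (R q / 4), |Ψ k (ψ q w)| ∂μ) F (𝓝 0) := fun F hF =>
    maxP F μ hS hSc hR hψc hψS hψn (fun q hq => (hε q hq).mono_left hF) (hle.filter_mono hF)
      (hp.filter_mono hF) (hp0.mono_left hF) (fun q hq => (hsub q hq).filter_mono hF)
  intro q hq
  refine ⟨?_, ?_⟩
  · exact mem_iff_ultrafilter.2 fun F hF => (key F hF q hq).1
  · rw [tendsto_iff_ultrafilter]
    exact fun F hF => (key F hF q hq).2

end Max

/-! ### the two together -/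

section Both

variable {X E κ : Type*} [TopologicalSpace X] [NormedAddCommGroup E] [NormedSpace ℂ E]
  [FiniteDimensional ℂ E] [MeasurableSpace E] [BorelSpace E]
variable {H : Type*} [NormedAddCommGroup H] [InnerProductSpace ℂ H] [CompleteSpace H]

/-- **MAXP + LAST STEP**: if moreover at `q` the functions `Ψ k - c ‖g‖²` are sub-mean up to
`ε' k → 0` on the balls in `ball 0 ρ`, `g` holomorphic, then `g` is constant near `0`. -/
theorem maxP_const (l : Filter κ) [l.NeBot] (μ : Measure E) [μ.IsAddHaarMeasure] {S : Set X}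
    (hS : IsCompact S) (hSc : IsPreconnected S) {ψ : X → E → X} {R : X → ℝ}
    (hR : ∀ q ∈ S, 0 < R q) (hψc : ∀ q ∈ S, ContinuousOn (ψ q) (ball 0 (R q)))
    (hψS : ∀ q ∈ S, ∀ w ∈ ball (0 : E) (R q), ψ q w ∈ S)
    (hψn : ∀ q ∈ S, ∀ r, 0 < r → ψ q '' ball 0 r ∈ 𝓝[S] q)
    {Ψ : κ → X → ℝ} {G : κ → Set X} {ε : X → κ → ℝ} (hε : ∀ q ∈ S, Tendsto (ε q) l (𝓝 0))
    (hle : ∀ᶠ k in l, ∀ x ∈ S, x ∈ G k → Ψ k x ≤ 0)
    {p : κ → X} (hp : ∀ᶠ k in l, p k ∈ S ∧ p k ∈ G k)
    (hp0 : Tendsto (fun k => Ψ k (p k)) l (𝓝 0))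
    (hsub : ∀ q ∈ S, ∀ᶠ k in l, SubAt μ (ψ q) (R q) (Ψ k) (G k) (ε q k))
    {q : X} (hq : q ∈ S) {ρ c : ℝ} (hc : 0 < c) {g : E → H}
    (hg : DifferentiableOn ℂ g (ball 0 ρ)) {ε' : κ → ℝ} (hε' : Tendsto ε' l (𝓝 0))
    (hsub' : ∀ᶠ k in l, ∀ z r, 0 < r → closedBall z r ⊆ ball 0 ρ → ψ q z ∈ G k →
      Ψ k (ψ q z) - c * ‖g z‖ ^ 2 ≤ (⨍ w in ball z r, (Ψ k (ψ q w) - c * ‖g w‖ ^ 2) ∂μ) + ε' k) :
    ∀ z ∈ ball (0 : E) (min ρ (R q / 4)), g z = g 0 := by
  have : ProperSpace E := FiniteDimensional.proper_rclike ℂ E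
  intro z hz
  have hz0 : (0 : E) ∈ ball (0 : E) (min ρ (R q / 4)) :=
    mem_ball_self (lt_of_le_of_lt (norm_nonneg z) (by simpa using hz))
  set r := min ρ (R q / 4) with hr
  have hr1 : ball (0 : E) r ⊆ ball 0 (R q / 4) := ball_subset_ball (min_le_right _ _)
  have hr2 : ball (0 : E) r ⊆ ball 0 ρ := ball_subset_ball (min_le_left _ _)
  obtain ⟨h1, h2⟩ := maxP_filter l μ hS hSc hR hψc hψS hψn hε hle hp hp0 hsub q hq
  refine const_of_sub μ hc (G := fun k => {w | ψ q w ∈ G k}) hε' (u := fun k w => Ψ k (ψ q w))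
    (h1.mono fun k hk => hk.1.mono_set hr1)
    (h1.mono fun k hk => ae_restrict_of_ae_restrict_of_subset hr1 hk.2) ?_ (hg.mono hr2)
    (hsub'.mono fun k hk z hz r' hr' hzr => hk z r' hr' (hzr.trans hr2) hz) z hz 0 hz0
  refine tendsto_of_tendsto_of_tendsto_of_le_of_le' tendsto_const_nhds h2
    (Eventually.of_forall fun k => integral_nonneg fun w => abs_nonneg _) (h1.mono fun k hk => ?_)
  exact setIntegral_mono_set hk.1.abs (Eventually.of_forall fun w => abs_nonneg _)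
    (LE.le.eventuallyLE hr1)

/-- subtracting a constant -/
theorem SubAt.sub_const {μ : Measure E} [μ.IsAddHaarMeasure] {ψ : E → X} {R : ℝ} {Ψ : X → ℝ}
    {G : Set X} {ε : ℝ} (h : SubAt μ ψ R Ψ G ε) (m : ℝ) :
    SubAt μ ψ R (fun x => Ψ x - m) G ε := by
  have : ProperSpace E := FiniteDimensional.proper_rclike ℂ E
  refine ⟨h.ae, fun z r hr hz hG => ?_, fun z r hr hz hG => ?_⟩
  · exact (h.int z r hr hz hG).sub (integrableOn_const measure_ball_lt_top.ne)
  · have hV0 : 0 < μ.real (ball z r) := ENNReal.toReal_pos (measure_ball_pos μ _ hr).ne'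
      measure_ball_lt_top.ne
    have h1 := h.sub z r hr hz hG
    rw [setAverage_eq, smul_eq_mul] at h1
    rw [setAverage_eq, smul_eq_mul, integral_sub (h.int z r hr hz hG)
      (integrableOn_const measure_ball_lt_top.ne), setIntegral_const, smul_eq_mul, mul_sub,
      ← mul_assoc, inv_mul_cancel₀ hV0.ne', one_mul]
    linarith

/-- **MAXP + LAST STEP, not normalised**: `Ψ k` is only bounded above on `S ∩ G k ≠ ∅` -/
theorem const_of_bdd {l : Filter ℕ} [l.NeBot] (hl : l ≤ atTop) (μ : Measure E)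
    [μ.IsAddHaarMeasure] {S : Set X}
    (hS : IsCompact S) (hSc : IsPreconnected S) {ψ : X → E → X} {R : X → ℝ}
    (hR : ∀ q ∈ S, 0 < R q) (hψc : ∀ q ∈ S, ContinuousOn (ψ q) (ball 0 (R q)))
    (hψS : ∀ q ∈ S, ∀ w ∈ ball (0 : E) (R q), ψ q w ∈ S)
    (hψn : ∀ q ∈ S, ∀ r, 0 < r → ψ q '' ball 0 r ∈ 𝓝[S] q)
    {Ψ : ℕ → X → ℝ} {G : ℕ → Set X} {ε : X → ℕ → ℝ} (hε : ∀ q ∈ S, Tendsto (ε q) l (𝓝 0))
    (hbd : ∀ᶠ k in l, BddAbove (Ψ k '' (S ∩ G k))) (hne : ∀ᶠ k in l, (S ∩ G k).Nonempty)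
    (hsub : ∀ q ∈ S, ∀ᶠ k in l, SubAt μ (ψ q) (R q) (Ψ k) (G k) (ε q k))
    {q : X} (hq : q ∈ S) {ρ c : ℝ} (hρ : ρ ≤ R q) (hc : 0 < c) {g : E → H}
    (hg : DifferentiableOn ℂ g (ball 0 ρ)) {ε' : ℕ → ℝ} (hε' : Tendsto ε' l (𝓝 0))
    (hsub' : ∀ᶠ k in l, ∀ z r, 0 < r → closedBall z r ⊆ ball 0 ρ → ψ q z ∈ G k →
      Ψ k (ψ q z) - c * ‖g z‖ ^ 2 ≤ (⨍ w in ball z r, (Ψ k (ψ q w) - c * ‖g w‖ ^ 2) ∂μ) + ε' k) :
    ∀ z ∈ ball (0 : E) (min ρ (R q / 4)), g z = g 0 := by
  classical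
  have : ProperSpace E := FiniteDimensional.proper_rclike ℂ E
  set m : ℕ → ℝ := fun k => sSup (Ψ k '' (S ∩ G k)) with hm
  have hex : ∀ k, ∃ x : X, (BddAbove (Ψ k '' (S ∩ G k)) ∧ (S ∩ G k).Nonempty) →
      (x ∈ S ∧ x ∈ G k ∧ m k - 1 / ((k : ℝ) + 1) < Ψ k x) := by
    intro k
    by_cases hk : BddAbove (Ψ k '' (S ∩ G k)) ∧ (S ∩ G k).Nonempty
    · obtain ⟨_, ⟨x, hx, rfl⟩, hlt⟩ := exists_lt_of_lt_csSup (hk.2.image (Ψ k))
        (show m k - 1 / ((k : ℝ) + 1) < sSup (Ψ k '' (S ∩ G k)) by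
          have : 0 < 1 / ((k : ℝ) + 1) := by positivity
          rw [← hm] at *
          linarith)
      exact ⟨x, fun _ => ⟨hx.1, hx.2, hlt⟩⟩
    · exact ⟨q, fun h => absurd h hk⟩
  choose p hp using hex
  have hle : ∀ᶠ k in l, ∀ x ∈ S, x ∈ G k → Ψ k x - m k ≤ 0 := by
    filter_upwards [hbd] with k hk x hx hxG
    exact sub_nonpos.2 (le_csSup hk ⟨x, ⟨hx, hxG⟩, rfl⟩)
  have hp1 : ∀ᶠ k in l, p k ∈ S ∧ p k ∈ G k ∧ m k - 1 / ((k : ℝ) + 1) < Ψ k (p k) := by
    filter_upwards [hbd, hne] with k h1 h2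
    exact hp k ⟨h1, h2⟩
  have hp0 : Tendsto (fun k => Ψ k (p k) - m k) l (𝓝 0) := by
    have h1 : Tendsto (fun k : ℕ => -(1 / ((k : ℝ) + 1))) l (𝓝 0) := by
      have := (tendsto_one_div_add_atTop_nhds_zero_nat (𝕜 := ℝ)).neg
      rw [neg_zero] at this
      exact this.mono_left hl
    refine tendsto_of_tendsto_of_tendsto_of_le_of_le' h1 tendsto_const_nhds ?_ ?_
    · filter_upwards [hp1] with k hk
      linarith [hk.2.2]
    · filter_upwards [hp1, hle] with k hk hk'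
      exact hk' _ hk.1 hk.2.1
  refine maxP_const l μ hS hSc hR hψc hψS hψn hε (Ψ := fun k x => Ψ k x - m k) hle
    (hp1.mono fun k hk => ⟨hk.1, hk.2.1⟩) hp0
    (fun q hq => (hsub q hq).mono fun k hk => hk.sub_const (m k)) hq hc hg hε' ?_
  filter_upwards [hsub', hsub q hq] with k h1 h2 z r hr hz hG
  have hV0 : 0 < μ.real (ball z r) := ENNReal.toReal_pos (measure_ball_pos μ _ hr).ne'
    measure_ball_lt_top.ne
  have iu := h2.int z r hr (hz.trans (ball_subset_ball hρ)) hG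
  have hgc : ContinuousOn g (closedBall z r) := hg.continuousOn.mono hz
  have ig : IntegrableOn (fun w => ‖g w‖ ^ 2) (ball z r) μ :=
    ((hgc.norm.pow 2).integrableOn_compact (isCompact_closedBall _ _)).mono_set
      ball_subset_closedBall
  have e : (fun w => Ψ k (ψ q w) - m k - c * ‖g w‖ ^ 2) =
      fun w => (Ψ k (ψ q w) - c * ‖g w‖ ^ 2) - m k := by
    funext w
    ring
  have h3 := h1 z r hr hz hG
  have iu' : IntegrableOn (fun w => Ψ k (ψ q w) - c * ‖g w‖ ^ 2) (ball z r) μ :=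
    iu.sub (ig.const_mul c)
  rw [setAverage_eq, smul_eq_mul] at h3
  show Ψ k (ψ q z) - m k - c * ‖g z‖ ^ 2 ≤
    (⨍ w in ball z r, (Ψ k (ψ q w) - m k - c * ‖g w‖ ^ 2) ∂μ) + ε' k
  rw [setAverage_eq, smul_eq_mul, e, integral_sub iu' (integrableOn_const measure_ball_lt_top.ne),
    setIntegral_const, smul_eq_mul, mul_sub, ← mul_assoc, inv_mul_cancel₀ hV0.ne', one_mul]
  linarith

end Both

end

end Crest.Agent.R281.MaxP_877
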