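import Mathlib

/-!
# R281 (S0424), TS-MAX (helper163): the metric toolbox of Theorem S (Mathlib only)

`X` a pseudometric space, second countable, Borel; `Dbl μ D`: balls have positive finite measure and
`μ (ball x (2 r)) ≤ D μ (ball x r)` for all centres and radii.

* `weak11` : the weak `(1,1)` inequality of the (centred, uncentred in the radius) maximal function;
* `Good μ R f K y` : `∫_{B(y,r)} f ≤ K μ(B(y,r))` for all `0 < r ≤ R`; `bad_le`, `bad_finset_le`;
* telescoped Poincaré inequality at good points.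
-/

set_option autoImplicit false
set_option linter.unusedSectionVars false

open MeasureTheory Metric Set Filter Topology
open scoped ENNReal NNReal

namespace Crest.Agent.R281.Max_163

variable {X : Type*} [PseudoMetricSpace X] [MeasurableSpace X] [BorelSpace X]

/-- global doubling with constant `D` -/
structure Dbl (μ : Measure X) (D : ℝ≥0) : Prop where
  pos : ∀ x r, 0 < r → 0 < μ (ball x r)
  fin : ∀ x r, μ (ball x r) < ∞
  dbl : ∀ x r, 0 < r → μ (ball x (2 * r)) ≤ D * μ (ball x r)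

namespace Dbl

variable {μ : Measure X} {D : ℝ≥0}

theorem pow (h : Dbl μ D) (x : X) {r : ℝ} (hr : 0 < r) (k : ℕ) :
    μ (ball x (2 ^ k * r)) ≤ D ^ k * μ (ball x r) := by
  induction k with
  | zero => simp
  | succ k ih =>
    calc μ (ball x (2 ^ (k + 1) * r)) = μ (ball x (2 * (2 ^ k * r))) := by ring_nf
      _ ≤ D * μ (ball x (2 ^ k * r)) := h.dbl x _ (by positivity)
      _ ≤ D * (D ^ k * μ (ball x r)) := by gcongr
      _ = D ^ (k + 1) * μ (ball x r) := by rw [pow_succ]; ring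

theorem one_le [Nonempty X] (h : Dbl μ D) : 1 ≤ D := by
  obtain ⟨x⟩ := ‹Nonempty X›
  have h1 := h.dbl x 1 one_pos
  have h2 : μ (ball x 1) ≤ μ (ball x (2 * 1)) := measure_mono (ball_subset_ball (by norm_num))
  have h3 : (1 : ℝ≥0∞) * μ (ball x 1) ≤ D * μ (ball x 1) := by simpa using h2.trans h1
  have h4 : (1 : ℝ≥0∞) ≤ D :=
    (ENNReal.mul_le_mul_iff_left (h.pos x 1 one_pos).ne' (h.fin x 1).ne).1 h3
  exact_mod_cast h4

/-- real form -/
theorem real_dbl (h : Dbl μ D) (x : X) {r : ℝ} (hr : 0 < r) :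
    μ.real (ball x (2 * r)) ≤ D * μ.real (ball x r) := by
  have := ENNReal.toReal_mono (ENNReal.mul_ne_top ENNReal.coe_ne_top (h.fin x r).ne) (h.dbl x r hr)
  simpa [Measure.real, ENNReal.toReal_mul] using this

theorem real_pow (h : Dbl μ D) (x : X) {r : ℝ} (hr : 0 < r) (k : ℕ) :
    μ.real (ball x (2 ^ k * r)) ≤ D ^ k * μ.real (ball x r) := by
  have := ENNReal.toReal_mono (ENNReal.mul_ne_top (ENNReal.pow_ne_top ENNReal.coe_ne_top)
    (h.fin x r).ne) (h.pow x hr k)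
  simpa [Measure.real, ENNReal.toReal_mul] using this

theorem real_pos (h : Dbl μ D) (x : X) {r : ℝ} (hr : 0 < r) : 0 < μ.real (ball x r) :=
  ENNReal.toReal_pos (h.pos x r hr).ne' (h.fin x r).ne

end Dbl

/-! ### the weak type inequality -/

variable {μ : Measure X} {D : ℝ≥0}

/-- the weak `(1,1)` inequality, radii bounded by `R` -/
theorem weak11_le [TopologicalSpace.SeparableSpace X] (h : Dbl μ D) (f : X → ℝ≥0∞) {t : ℝ≥0∞} (ht : t ≠ 0)
    (ht' : t ≠ ∞) (R : ℝ) :
    μ {x | ∃ r, 0 < r ∧ r ≤ R ∧ t * μ (ball x r) < ∫⁻ y in ball x r, f y ∂μ} ≤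
      D ^ 3 * (∫⁻ y, f y ∂μ) / t := by
  classical
  set S : Set X := {x | ∃ r, 0 < r ∧ r ≤ R ∧ t * μ (ball x r) < ∫⁻ y in ball x r, f y ∂μ} with hS
  choose! ρ hρ0 hρR hρ using (fun x (hx : x ∈ S) => hx)
  obtain ⟨u, huS, hdis, hcov⟩ := Vitali.exists_disjoint_subfamily_covering_enlargement_closedBall
    S (fun x => x) ρ R hρR 4 (by norm_num)
  have hcount : u.Countable := by
    refine Set.PairwiseDisjoint.countable_of_nonempty_interior (s := fun a => closedBall a (ρ a))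
      hdis (fun a ha => ?_)
    exact ⟨a, interior_mono ball_subset_closedBall
      (by rw [isOpen_ball.interior_eq]; exact mem_ball_self (hρ0 a (huS ha)))⟩
  have hdis' : u.PairwiseDisjoint fun a => ball a (ρ a) :=
    fun a ha b hb hab => (hdis ha hb hab).mono ball_subset_closedBall ball_subset_closedBall
  have hsub : S ⊆ ⋃ b ∈ u, ball b (2 ^ 3 * ρ b) := by
    intro x hx
    obtain ⟨b, hb, hb'⟩ := hcov x hx
    refine mem_iUnion₂.2 ⟨b, hb, ?_⟩
    have h1 : x ∈ closedBall b (4 * ρ b) := hb' (mem_closedBall_self (hρ0 x hx).le)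
    have h2 := hρ0 b (huS hb)
    exact closedBall_subset_ball (by linarith) h1
  calc μ S ≤ μ (⋃ b ∈ u, ball b (2 ^ 3 * ρ b)) := measure_mono hsub
    _ ≤ ∑' b : u, μ (ball (b : X) (2 ^ 3 * ρ b)) := measure_biUnion_le μ hcount _
    _ ≤ ∑' b : u, D ^ 3 / t * ∫⁻ y in ball (b : X) (ρ b), f y ∂μ := by
        refine ENNReal.tsum_le_tsum fun b => ?_
        have hb := huS b.2
        calc μ (ball (b : X) (2 ^ 3 * ρ b)) ≤ D ^ 3 * μ (ball (b : X) (ρ b)) :=
              h.pow _ (hρ0 _ hb) 3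
          _ = D ^ 3 / t * (t * μ (ball (b : X) (ρ b))) := by
              rw [← mul_assoc, ENNReal.div_mul_cancel ht ht']
          _ ≤ _ := by gcongr; exact (hρ _ hb).le
    _ = D ^ 3 / t * ∑' b : u, ∫⁻ y in ball (b : X) (ρ b), f y ∂μ := ENNReal.tsum_mul_left
    _ = D ^ 3 / t * ∫⁻ y in ⋃ b ∈ u, ball (b : X) (ρ b), f y ∂μ := by
        rw [lintegral_biUnion hcount (fun _ _ => measurableSet_ball) hdis']
    _ ≤ D ^ 3 / t * ∫⁻ y, f y ∂μ := by gcongr; exact Measure.restrict_le_self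
    _ = _ := by rw [ENNReal.mul_div_right_comm]

/-- **the weak `(1,1)` inequality** -/
theorem weak11 [TopologicalSpace.SeparableSpace X] (h : Dbl μ D) (f : X → ℝ≥0∞) {t : ℝ≥0∞} (ht : t ≠ 0)
    (ht' : t ≠ ∞) :
    μ {x | ∃ r, 0 < r ∧ t * μ (ball x r) < ∫⁻ y in ball x r, f y ∂μ} ≤
      D ^ 3 * (∫⁻ y, f y ∂μ) / t := by
  have hU : {x | ∃ r, 0 < r ∧ t * μ (ball x r) < ∫⁻ y in ball x r, f y ∂μ} =
      ⋃ n : ℕ, {x | ∃ r, 0 < r ∧ r ≤ (n : ℝ) ∧ t * μ (ball x r) < ∫⁻ y in ball x r, f y ∂μ} := by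
    ext x
    simp only [mem_ofPred_eq, mem_iUnion]
    constructor
    · rintro ⟨r, hr, h1⟩
      obtain ⟨n, hn⟩ := exists_nat_ge r
      exact ⟨n, r, hr, hn, h1⟩
    · rintro ⟨n, r, hr, -, h1⟩
      exact ⟨r, hr, h1⟩
  rw [hU, Directed.measure_iUnion]
  · exact iSup_le fun n => weak11_le h f ht ht' n
  · refine directed_of_isDirected_le fun m n hmn x => ?_
    rintro ⟨r, hr, hrm, h1⟩
    exact ⟨r, hr, hrm.trans (by exact_mod_cast hmn), h1⟩

/-- `y` is good for `f ≥ 0` at level `K`, radii `≤ R` -/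
def GoodR (μ : Measure X) (R : ℝ) (f : X → ℝ) (K : ℝ) (y : X) : Prop :=
  ∀ r, 0 < r → r ≤ R → ∫ z in ball y r, f z ∂μ ≤ K * μ.real (ball y r)

/-- `y` is good for `f ≥ 0` at level `K`, all radii -/
def Good (μ : Measure X) (f : X → ℝ) (K : ℝ) (y : X) : Prop :=
  ∀ r, 0 < r → ∫ z in ball y r, f z ∂μ ≤ K * μ.real (ball y r)

theorem Good.goodR {f : X → ℝ} {K : ℝ} {y : X} (h : Good μ f K y) (R : ℝ) : GoodR μ R f K y :=
  fun r hr _ => h r hr

theorem GoodR.mono {f : X → ℝ} {K K' R R' : ℝ} {y : X} (h : GoodR μ R f K y) (hR : R' ≤ R)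
    (hK : K ≤ K') : GoodR μ R' f K' y := fun r hr hr' =>
  (h r hr (hr'.trans hR)).trans (by gcongr)

theorem Good.mono {f : X → ℝ} {K K' : ℝ} {y : X} (h : Good μ f K y)
    (hK : K ≤ K') : Good μ f K' y := fun r hr => (h r hr).trans (by gcongr)

/-- the set of bad points is small -/
theorem bad_le [TopologicalSpace.SeparableSpace X] (h : Dbl μ D) {f : X → ℝ} (hf : Integrable f μ)
    (h0 : 0 ≤ᵐ[μ] f) {K : ℝ} (hK : 0 < K) :
    μ {y | ¬ Good μ f K y} ≤ D ^ 3 * ENNReal.ofReal ((∫ z, f z ∂μ) / K) := by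
  have hsub : {y | ¬ Good μ f K y} ⊆ {x | ∃ r, 0 < r ∧
      ENNReal.ofReal K * μ (ball x r) < ∫⁻ y in ball x r, ENNReal.ofReal (f y) ∂μ} := by
    intro y hy
    simp only [Good, mem_ofPred_eq, not_forall, not_le] at hy
    obtain ⟨r, hr, h1⟩ := hy
    refine ⟨r, hr, ?_⟩
    rw [← ofReal_integral_eq_lintegral_ofReal hf.integrableOn (ae_restrict_of_ae h0)]
    have h2 : ENNReal.ofReal K * μ (ball y r) = ENNReal.ofReal (K * μ.real (ball y r)) := by
      rw [ENNReal.ofReal_mul hK.le, Measure.real, ENNReal.ofReal_toReal (h.fin y r).ne]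
    rw [h2]
    have h3 : 0 ≤ K * μ.real (ball y r) := by positivity
    exact (ENNReal.ofReal_lt_ofReal_iff (h3.trans_lt h1)).2 h1
  refine (measure_mono hsub).trans ((weak11 h (fun y => ENNReal.ofReal (f y))
    (by simpa using hK) ENNReal.ofReal_ne_top).trans ?_)
  rw [← ofReal_integral_eq_lintegral_ofReal hf h0, ENNReal.ofReal_div_of_pos hK,
    mul_div_assoc]

/-- real form for a probability (or finite) measure -/
theorem bad_real_le [TopologicalSpace.SeparableSpace X] [IsFiniteMeasure μ] (h : Dbl μ D) {f : X → ℝ}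
    (hf : Integrable f μ) (h0 : 0 ≤ᵐ[μ] f) {K : ℝ} (hK : 0 < K) :
    μ.real {y | ¬ Good μ f K y} ≤ D ^ 3 * (∫ z, f z ∂μ) / K := by
  have h1 := bad_le h hf h0 hK
  have h2 : (0 : ℝ) ≤ (∫ z, f z ∂μ) / K := div_nonneg (integral_nonneg_of_ae h0) hK.le
  have h3 := ENNReal.toReal_mono (ENNReal.mul_ne_top (ENNReal.pow_ne_top ENNReal.coe_ne_top)
    ENNReal.ofReal_ne_top) h1
  rw [ENNReal.toReal_mul, ENNReal.toReal_ofReal h2] at h3
  simpa [Measure.real, mul_div_assoc] using h3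

/-- good points exist: if the bad measures add up to less than `μ A` then some point of `A` is good
for all the functions -/
theorem exists_good [TopologicalSpace.SeparableSpace X] (h : Dbl μ D) {ι : Type*} (s : Finset ι) (f : ι → X → ℝ)
    (K : ι → ℝ) (hf : ∀ i ∈ s, Integrable (f i) μ) (h0 : ∀ i ∈ s, 0 ≤ᵐ[μ] f i)
    (hK : ∀ i ∈ s, 0 < K i) {A : Set X}
    (hA : ∑ i ∈ s, (D : ℝ≥0∞) ^ 3 * ENNReal.ofReal ((∫ z, f i z ∂μ) / K i) < μ A) :
    ∃ y ∈ A, ∀ i ∈ s, Good μ (f i) (K i) y := by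
  by_contra hcon
  push Not at hcon
  have hsub : A ⊆ ⋃ i ∈ s, {y | ¬ Good μ (f i) (K i) y} := by
    intro y hy
    obtain ⟨i, hi, h1⟩ := hcon y hy
    exact mem_iUnion₂.2 ⟨i, hi, h1⟩
  have h1 : μ A ≤ ∑ i ∈ s, μ {y | ¬ Good μ (f i) (K i) y} :=
    (measure_mono hsub).trans (measure_biUnion_finset_le s _)
  exact absurd ((h1.trans (Finset.sum_le_sum fun i hi => bad_le h (hf i hi) (h0 i hi)
    (hK i hi))).trans_lt hA) (lt_irrefl _)

theorem bad_finset_le [TopologicalSpace.SeparableSpace X] (h : Dbl μ D) {ι : Type*} (s : Finset ι) (f : ι → X → ℝ)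
    (K : ι → ℝ) (hf : ∀ i ∈ s, Integrable (f i) μ) (h0 : ∀ i ∈ s, 0 ≤ᵐ[μ] f i)
    (hK : ∀ i ∈ s, 0 < K i) :
    μ {y | ∃ i ∈ s, ¬ Good μ (f i) (K i) y} ≤
      ∑ i ∈ s, (D : ℝ≥0∞) ^ 3 * ENNReal.ofReal ((∫ z, f i z ∂μ) / K i) := by
  have hsub : {y | ∃ i ∈ s, ¬ Good μ (f i) (K i) y} ⊆ ⋃ i ∈ s, {y | ¬ Good μ (f i) (K i) y} := by
    rintro y ⟨i, hi, h1⟩
    exact mem_iUnion₂.2 ⟨i, hi, h1⟩
  exact (measure_mono hsub).trans ((measure_biUnion_finset_le s _).trans
    (Finset.sum_le_sum fun i hi => bad_le h (hf i hi) (h0 i hi) (hK i hi)))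

/-! ### telescoping at a point -/

theorem average_eq' (A : Set X) (f : X → ℝ) :
    ⨍ z in A, f z ∂μ = (μ.real A)⁻¹ * ∫ z in A, f z ∂μ := by
  rw [setAverage_eq, smul_eq_mul]

/-- average over a subset of comparable measure -/
theorem average_le_mul {A B : Set X} (hAB : A ⊆ B) (hB : μ B ≠ ∞) (hA : 0 < μ.real A)
    {c : ℝ} (hc : μ.real B ≤ c * μ.real A) {f : X → ℝ} (hf : IntegrableOn f B μ)
    (h0 : ∀ z, 0 ≤ f z) : ⨍ z in A, f z ∂μ ≤ c * ⨍ z in B, f z ∂μ := by
  rw [average_eq', average_eq']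
  have hBp : 0 < μ.real B := hA.trans_le (measureReal_mono hAB hB)
  have h1 : ∫ z in A, f z ∂μ ≤ ∫ z in B, f z ∂μ :=
    setIntegral_mono_set hf (Eventually.of_forall h0) (LE.le.eventuallyLE hAB)
  have h2 : 0 ≤ ∫ z in B, f z ∂μ := integral_nonneg h0
  have h3 : (μ.real A)⁻¹ ≤ c * (μ.real B)⁻¹ := by
    rw [← div_eq_mul_inv, le_div_iff₀ hBp, inv_mul_le_iff₀ hA]
    linarith
  calc (μ.real A)⁻¹ * ∫ z in A, f z ∂μ ≤ (μ.real A)⁻¹ * ∫ z in B, f z ∂μ := by gcongr
    _ ≤ (c * (μ.real B)⁻¹) * ∫ z in B, f z ∂μ := by gcongr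
    _ = _ := by ring

/-- the mean oscillation of `f` on `ball y r` -/
noncomputable def osc (μ : Measure X) (f : X → ℝ) (y : X) (r : ℝ) : ℝ :=
  ⨍ z in ball y r, |f z - ⨍ w in ball y r, f w ∂μ| ∂μ

theorem abs_average_sub_le {A : Set X} (hA : 0 < μ.real A) {f : X → ℝ}
    (hf : IntegrableOn f A μ) (c : ℝ) :
    |(⨍ z in A, f z ∂μ) - c| ≤ ⨍ z in A, |f z - c| ∂μ := by
  have hAf : μ A ≠ ∞ := by
    intro h
    simp [Measure.real, h] at hA
  have h1 : (⨍ z in A, f z ∂μ) - c = ⨍ z in A, (f z - c) ∂μ := by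
    rw [average_eq', average_eq', integral_sub hf (integrableOn_const hAf), setIntegral_const,
      smul_eq_mul, mul_sub, ← mul_assoc, inv_mul_cancel₀ hA.ne', one_mul]
  rw [h1, average_eq', average_eq', abs_mul, abs_of_pos (inv_pos.2 hA)]
  gcongr
  exact abs_integral_le_integral_abs

/-- one halving step -/
theorem step (h : Dbl μ D) {f : X → ℝ} {y : X} {r : ℝ} (hr : 0 < r)
    (hf : IntegrableOn f (ball y r) μ) :
    |(⨍ z in ball y (r / 2), f z ∂μ) - ⨍ z in ball y r, f z ∂μ| ≤ D * osc μ f y r := by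
  have hsub : ball y (r / 2) ⊆ ball y r := ball_subset_ball (by linarith)
  have hp := h.real_pos y (r := r / 2) (by linarith)
  refine (abs_average_sub_le hp (hf.mono_set hsub) _).trans ?_
  refine average_le_mul hsub (h.fin y r).ne hp ?_ ?_ (fun z => abs_nonneg _)
  · have := h.real_dbl y (r := r / 2) (by linarith)
    rwa [show 2 * (r / 2) = r by ring] at this
  · exact (hf.sub (integrableOn_const (h.fin y r).ne)).abs

/-- **telescoped mean oscillation** -/
theorem telescope (h : Dbl μ D) {f : X → ℝ} {y : X} {R B : ℝ} (hR : 0 < R)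
    (hf : IntegrableOn f (ball y R) μ)
    (hB : ∀ r, 0 < r → r ≤ R → osc μ f y r ≤ B * r)
    (hlim : Tendsto (fun j : ℕ => ⨍ z in ball y (R / 2 ^ j), f z ∂μ) atTop (𝓝 (f y))) :
    |f y - ⨍ z in ball y R, f z ∂μ| ≤ 2 * D * B * R := by
  set a : ℕ → ℝ := fun j => ⨍ z in ball y (R / 2 ^ j), f z ∂μ with ha
  have hstep : ∀ j, |a (j + 1) - a j| ≤ D * B * R * (1 / 2) ^ j := by
    intro j
    have hj : 0 < R / 2 ^ j := by positivity
    have hj' : R / 2 ^ j ≤ R := div_le_self hR.le (one_le_pow₀ (by norm_num))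
    have h1 := step h hj (hf.mono_set (ball_subset_ball hj'))
    have h2 := hB _ hj hj'
    have h3 : R / 2 ^ (j + 1) = R / 2 ^ j / 2 := by rw [pow_succ]; field_simp
    simp only [ha, h3]
    refine h1.trans ?_
    calc (D : ℝ) * osc μ f y (R / 2 ^ j) ≤ D * (B * (R / 2 ^ j)) := by gcongr
      _ = D * B * R * (1 / 2) ^ j := by rw [one_div, inv_pow]; ring
  have hn : ∀ n, |a n - a 0| ≤ 2 * D * B * R := by
    have hB0 : 0 ≤ B := by
      have h1 := hB R hR le_rfl
      have h2 : 0 ≤ osc μ f y R := by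
        rw [osc, average_eq']
        exact mul_nonneg (inv_nonneg.2 measureReal_nonneg) (integral_nonneg fun z => abs_nonneg _)
      nlinarith
    intro n
    have h1 : |a n - a 0| ≤ ∑ j ∈ Finset.range n, |a (j + 1) - a j| := by
      rw [← Finset.sum_range_sub]
      exact Finset.abs_sum_le_sum_abs _ _
    have h2 : ∑ j ∈ Finset.range n, (1 / 2 : ℝ) ^ j ≤ 2 := by
      have := geom_sum_eq (x := (1 / 2 : ℝ)) (by norm_num) n
      rw [this]
      have h3 : (0 : ℝ) ≤ (1 / 2) ^ n := by positivity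
      rw [div_le_iff_of_neg (by norm_num)]
      linarith
    calc |a n - a 0| ≤ ∑ j ∈ Finset.range n, D * B * R * (1 / 2) ^ j :=
          h1.trans (Finset.sum_le_sum fun j _ => hstep j)
      _ = D * B * R * ∑ j ∈ Finset.range n, (1 / 2 : ℝ) ^ j := by rw [Finset.mul_sum]
      _ ≤ D * B * R * 2 := by gcongr
      _ = _ := by ring
  have h0 : a 0 = ⨍ z in ball y R, f z ∂μ := by simp [ha]
  rw [← h0]
  exact le_of_tendsto ((hlim.sub tendsto_const_nhds).abs) (Eventually.of_forall hn)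

/-- mean distance to the value at the centre -/
theorem mean_abs_sub_le (h : Dbl μ D) {f : X → ℝ} {y : X} {R B : ℝ} (hR : 0 < R)
    (hf : IntegrableOn f (ball y R) μ)
    (hB : ∀ r, 0 < r → r ≤ R → osc μ f y r ≤ B * r)
    (hlim : Tendsto (fun j : ℕ => ⨍ z in ball y (R / 2 ^ j), f z ∂μ) atTop (𝓝 (f y))) :
    ⨍ z in ball y R, |f z - f y| ∂μ ≤ (2 * D + 1) * B * R := by
  have h1 := telescope h hR hf hB hlim
  have h2 := hB R hR le_rfl
  have hp := h.real_pos y hR
  have hfin := (h.fin y R).ne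
  set c := ⨍ z in ball y R, f z ∂μ with hc
  have hi1 : Integrable (fun z => |f z - f y|) (μ.restrict (ball y R)) :=
    (hf.sub (integrableOn_const hfin)).abs
  have hi2 : Integrable (fun z => |f z - c|) (μ.restrict (ball y R)) :=
    (hf.sub (integrableOn_const hfin)).abs
  have hi3 : Integrable (fun _ : X => |c - f y|) (μ.restrict (ball y R)) := integrableOn_const hfin
  have h3 : ⨍ z in ball y R, |f z - f y| ∂μ ≤ ⨍ z in ball y R, (|f z - c| + |c - f y|) ∂μ := by
    rw [average_eq', average_eq']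
    refine mul_le_mul_of_nonneg_left (integral_mono hi1 (hi2.add hi3) fun z => ?_)
      (inv_nonneg.2 hp.le)
    exact abs_sub_le (f z) c (f y)
  have h4 : ⨍ z in ball y R, (|f z - c| + |c - f y|) ∂μ = osc μ f y R + |c - f y| := by
    rw [osc, ← hc, average_eq', average_eq', integral_add hi2 hi3, setIntegral_const, smul_eq_mul,
      mul_add, ← mul_assoc, inv_mul_cancel₀ hp.ne', one_mul]
  rw [h4] at h3
  rw [abs_sub_comm] at h1
  linarith

theorem tendsto_average_of_continuousAt (h : Dbl μ D) {f : X → ℝ} {y : X} {R : ℝ} (hR : 0 < R)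
    (hf : IntegrableOn f (ball y R) μ) (hc : ContinuousAt f y) :
    Tendsto (fun j : ℕ => ⨍ z in ball y (R / 2 ^ j), f z ∂μ) atTop (𝓝 (f y)) := by
  rw [Metric.tendsto_atTop]
  intro ε hε
  obtain ⟨δ, hδ, hδ'⟩ := Metric.continuousAt_iff.1 hc (ε / 2) (by linarith)
  have ht : Tendsto (fun j : ℕ => R / 2 ^ j) atTop (𝓝 0) := by
    have := (tendsto_pow_atTop_nhds_zero_of_lt_one (r := (1 / 2 : ℝ)) (by norm_num)
      (by norm_num)).const_mul R
    simpa [div_eq_mul_inv] using this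
  obtain ⟨N, hN⟩ := (Metric.tendsto_atTop.1 ht) δ hδ
  refine ⟨N, fun j hj => ?_⟩
  have hj0 : 0 < R / 2 ^ j := by positivity
  have hjR : R / 2 ^ j ≤ R := div_le_self hR.le (one_le_pow₀ (by norm_num))
  have hjδ : R / 2 ^ j < δ := by
    have := hN j hj
    rwa [Real.dist_0_eq_abs, abs_of_pos hj0] at this
  have hp := h.real_pos y hj0
  have hfin := (h.fin y (R / 2 ^ j)).ne
  rw [Real.dist_eq]
  refine (abs_average_sub_le hp (hf.mono_set (ball_subset_ball hjR)) _).trans_lt ?_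
  have h1 : ∫ z in ball y (R / 2 ^ j), |f z - f y| ∂μ ≤
      ∫ z in ball y (R / 2 ^ j), ε / 2 ∂μ := by
    refine setIntegral_mono_on
      (((hf.mono_set (ball_subset_ball hjR)).sub (integrableOn_const hfin)).abs)
      (integrableOn_const hfin) measurableSet_ball fun z hz => ?_
    have := hδ' ((mem_ball.1 hz).trans hjδ)
    rw [Real.dist_eq] at this
    exact this.le
  rw [average_eq']
  rw [setIntegral_const, smul_eq_mul] at h1
  have h2 : (μ.real (ball y (R / 2 ^ j)))⁻¹ * ∫ z in ball y (R / 2 ^ j), |f z - f y| ∂μ ≤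
      (μ.real (ball y (R / 2 ^ j)))⁻¹ * (μ.real (ball y (R / 2 ^ j)) * (ε / 2)) := by gcongr
  rw [← mul_assoc, inv_mul_cancel₀ hp.ne', one_mul] at h2
  linarith

/-! ### with the weak Poincaré inequality -/

/-- the weak `(1,2)`-Poincaré inequality for the pair `(f, g)` on the balls centred at `y` of radius
`≤ R` : `mean |f - f_B| ≤ C r (mean_{lam B} g²)^{1/2}` -/
def Poin (μ : Measure X) (C lam R : ℝ) (f g : X → ℝ) (y : X) : Prop :=
  ∀ r, 0 < r → r ≤ R → osc μ f y r ≤ C * r * √(⨍ z in ball y (lam * r), g z ^ 2 ∂μ)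

theorem average_le_of_goodR (h : Dbl μ D) {g : X → ℝ} {K R : ℝ} {y : X} (hg : GoodR μ R g K y)
    {r : ℝ} (hr : 0 < r) (hrR : r ≤ R) : ⨍ z in ball y r, g z ∂μ ≤ K := by
  have hp := h.real_pos y hr
  have h1 := hg r hr hrR
  rw [average_eq', inv_mul_le_iff₀ hp]
  linarith

theorem osc_le_of_poin (h : Dbl μ D) {f g : X → ℝ} {C lam R K : ℝ} {y : X} (hC : 0 ≤ C)
    (hlam : 0 < lam) (hP : Poin μ C lam R f g y)
    (hg : GoodR μ (lam * R) (fun z => g z ^ 2) K y) {r : ℝ} (hr : 0 < r) (hrR : r ≤ R) :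
    osc μ f y r ≤ C * √K * r := by
  have h1 := average_le_of_goodR h hg (r := lam * r) (by positivity) (by gcongr)
  have h2 := Real.sqrt_le_sqrt h1
  calc osc μ f y r ≤ C * r * √(⨍ z in ball y (lam * r), g z ^ 2 ∂μ) := hP r hr hrR
    _ ≤ C * r * √K := by gcongr
    _ = _ := by ring

/-- **telescoped Poincaré inequality at a good point** -/
theorem poincare_good (h : Dbl μ D) {f g : X → ℝ} {C lam R K : ℝ} {y : X} (hC : 0 ≤ C)
    (hlam : 0 < lam) (hR : 0 < R) (hP : Poin μ C lam R f g y)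
    (hg : GoodR μ (lam * R) (fun z => g z ^ 2) K y)
    (hf : IntegrableOn f (ball y R) μ) (hc : ContinuousAt f y) {r : ℝ} (hr : 0 < r)
    (hrR : r ≤ R) :
    |f y - ⨍ z in ball y r, f z ∂μ| ≤ 2 * D * C * √K * r ∧
      ⨍ z in ball y r, |f z - f y| ∂μ ≤ (2 * D + 1) * C * √K * r := by
  have hB : ∀ s, 0 < s → s ≤ r → osc μ f y s ≤ C * √K * s := fun s hs hsr =>
    osc_le_of_poin h hC hlam hP hg hs (hsr.trans hrR)
  have hf' := hf.mono_set (ball_subset_ball (x := y) hrR)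
  have hlim := tendsto_average_of_continuousAt h hr hf' hc
  constructor
  · have := telescope h hr hf' hB hlim
    linarith
  · have := mean_abs_sub_le h hr hf' hB hlim
    linarith

/-! ### density and selection -/

/-- points of a ball are near the complement of a small set -/
theorem exists_near_not_mem (h : Dbl μ D) {A : Set X} {y : X} {R ρ : ℝ} {k : ℕ} (hρ : 0 < ρ)
    (hρR : ρ ≤ R) (hk : 2 * R ≤ 2 ^ k * ρ)
    (hA : (D : ℝ≥0∞) ^ k * μ (A ∩ ball y (2 * R)) < μ (ball y R)) {z : X} (hz : z ∈ ball y R) :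
    ∃ w ∈ ball z ρ, w ∉ A := by
  by_contra hcon
  push Not at hcon
  have hz' := mem_ball.1 hz
  have h1 : ball z ρ ⊆ A ∩ ball y (2 * R) := fun w hw => ⟨hcon w hw, by
    have hw' := mem_ball.1 hw
    have := dist_triangle w z y
    rw [mem_ball]; linarith⟩
  have h2 : ball y R ⊆ ball z (2 ^ k * ρ) := fun w hw => by
    have hw' := mem_ball.1 hw
    have := dist_triangle w y z
    rw [dist_comm y z] at this
    rw [mem_ball]; linarith
  have h3 : μ (ball y R) ≤ D ^ k * μ (A ∩ ball y (2 * R)) :=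
    (measure_mono h2).trans ((h.pow z hρ k).trans (by gcongr))
  exact absurd (h3.trans_lt hA) (lt_irrefl _)

/-- Chebyshev on a ball, mean form -/
theorem measure_le_of_mean (h : Dbl μ D) {f : X → ℝ} {y : X} {R s M c : ℝ} (hR : 0 < R)
    (hs : 0 < s) (hf : IntegrableOn f (ball y R) μ)
    (hM : ⨍ z in ball y R, |f z - c| ∂μ ≤ M) :
    μ.real ({z | s ≤ |f z - c|} ∩ ball y R) ≤ M / s * μ.real (ball y R) := by
  have hp := h.real_pos y hR
  have hfin := (h.fin y R).ne
  have h1 := mul_meas_ge_le_integral_of_nonneg (μ := μ.restrict (ball y R))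
    (f := fun z => |f z - c|) (Eventually.of_forall fun z => abs_nonneg _)
    ((hf.sub (integrableOn_const hfin)).abs) s
  rw [average_eq', inv_mul_le_iff₀ hp] at hM
  have h2 : μ.real ({z | s ≤ |f z - c|} ∩ ball y R) =
      (μ.restrict (ball y R)).real {z | s ≤ |f z - c|} := by
    simp only [Measure.real]
    rw [Measure.restrict_apply' measurableSet_ball]
  rw [h2, div_mul_eq_mul_div, le_div_iff₀ hs]
  linarith

end Crest.Agent.R281.Max_163
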