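import Crest.Agent.R281.Mc9_673

/-!
# R281 / LAGT (helper673), part 10

The iteration, its limit, the equations satisfied by the limit, dependence on the parameters.
-/

set_option autoImplicit false
set_option maxSynthPendingDepth 3

open MeasureTheory Set Metric Filter
open scoped ContDiff Topology

namespace Crest.Agent.R281.Mc673

open Crest.Agent.R238 (Ell)
open Crest.Agent.R238.Sch (ee norm_ee sum_ee)
open Crest.Agent.R273.SchA_152 (HO)

noncomputable section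

variable {N : ℕ}

theorem ho_lim {X F : Type*} [NormedAddCommGroup X] [NormedAddCommGroup F] {α M : ℝ} {s : Set X}
    {f : ℕ → X → F} {g : X → F} (h : ∀ n, HO α M s (f n))
    (ht : ∀ x ∈ s, Tendsto (fun n => f n x) atTop (𝓝 (g x))) : HO α M s g where
  bdd x hx := le_of_tendsto (ht x hx).norm (Eventually.of_forall fun n => (h n).bdd x hx)
  hol x hx y hy := le_of_tendsto ((ht x hx).sub (ht y hy)).norm
    (Eventually.of_forall fun n => (h n).hol x hx y hy)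

theorem tendsto_clm {F G : Type*} [NormedAddCommGroup F] [NormedSpace ℝ F] [NormedAddCommGroup G]
    [NormedSpace ℝ G] {ι : Type*} {l : Filter ι} {T : ι → F →L[ℝ] G} {T' : F →L[ℝ] G} {v : ι → F}
    {v' : F} (hT : Tendsto T l (𝓝 T')) (hv : Tendsto v l (𝓝 v')) :
    Tendsto (fun i => T i (v i)) l (𝓝 (T' v')) :=
  ((isBoundedBilinearMap_apply (𝕜 := ℝ) (E := F) (F := G)).continuous.tendsto (T', v')).comp
    (hT.prodMk_nhds hv)

/-- the iteration and its limit -/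
structure Sol (C : Matrix (Fin N) (Fin N) ℝ) (x y : Fo N) (t ρ : ℝ) (c : V N)
    (A : ℕ → V N → V N) (a : V N → V N) : Prop where
  z : A 0 = fun _ => c
  st : ∀ n, Step C x y c (A n) (A (n + 1))
  ib : ∀ n, InB t (A n)
  h0 : ∀ n, HO (1 / 2) ρ univ (fun θ => A n θ - c)
  h1 : ∀ n, HO (1 / 2) ρ univ (fderiv ℝ (A n))
  u0 : TendstoUniformly A a atTop
  u1 : TendstoUniformly (fun n => fderiv ℝ (A n)) (fderiv ℝ a) atTop
  df : Differentiable ℝ a

/-- invariant of the iteration -/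
structure Inv (ρ : ℝ) (c : V N) (a : V N → V N) : Prop where
  sp : SP a
  h0 : HO (1 / 2) ρ univ (fun θ => a θ - c)
  h1 : HO (1 / 2) ρ univ (fderiv ℝ a)

theorem Inv.norm_le {ρ : ℝ} {c : V N} {a : V N → V N} (h : Inv ρ c a) (hc : ‖c‖ ≤ ρ) (x : V N) :
    ‖a x‖ ≤ 2 * ρ := by
  have h1 := h.h0.bdd x (mem_univ x)
  have h2 : a x = (a x - c) + c := by abel
  rw [h2]
  exact (norm_add_le _ _).trans (by linarith)

theorem Inv.inB {t ρ : ℝ} {c : V N} {a : V N → V N} (h : Inv ρ c a) (hc : ‖c‖ ≤ ρ)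
    (hρ : 0 < ρ) (hρt : ρ ≤ t / 4) : InB t a where
  sp := h.sp
  b0 x := lt_of_le_of_lt (h.norm_le hc x) (by linarith)
  b1 := h.h1.mono (by linarith)

theorem Inv.ho {ρ : ℝ} {c : V N} {a : V N → V N} (h : Inv ρ c a) (hc : ‖c‖ ≤ ρ) (hρ : 0 < ρ) :
    HO (1 / 2) (2 * ρ) univ a where
  bdd x _ := h.norm_le hc x
  hol x hx y hy := by
    have h1 := h.h0.hol x hx y hy
    have e : a x - a y = a x - c - (a y - c) := by abel
    rw [e]
    refine h1.trans (mul_le_mul_of_nonneg_right (by linarith) (Real.rpow_nonneg (norm_nonneg _) _))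

theorem Inv.step {Λ K r q CH t δ ρ : ℝ} (G : Good N Λ K r q CH t) (hq : q ≤ 1 / 4) (hδ : 0 ≤ δ) (hδt : δ ≤ t)
    (hρ : 0 < ρ) (hρt : ρ ≤ t / 4) (hCδ : CH * δ ≤ ρ / 2) {C : Matrix (Fin N) (Fin N) ℝ}
    {x y : Fo N} (D : Dat r K δ Λ C x y) {c : V N} (hc : ‖c‖ ≤ ρ) {a a' : V N → V N}
    (h : Inv ρ c a) (hs : Step C x y c a a') : Inv ρ c a' := by
  have h1 := G.single C x y δ hδ hδt D c a a' (h.inB hc hρ hρt) hs (2 * ρ) (by positivity)
    (h.ho hc hρ) (h.h1.mono (by linarith))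
  have h2 : q * (2 * ρ) ≤ 1 / 4 * (2 * ρ) := mul_le_mul_of_nonneg_right hq (by positivity)
  exact ⟨hs.sp, h1.1.mono (by linarith), h1.2.mono (by linarith)⟩

/-- existence of the iteration -/
theorem exists_seq {Λ K r q CH t δ ρ : ℝ} (G : Good N Λ K r q CH t) (hq : q ≤ 1 / 4) (hδ : 0 ≤ δ) (hδt : δ ≤ t)
    (hρ : 0 < ρ) (hρt : ρ ≤ t / 4) (hCδ : CH * δ ≤ ρ / 2) {C : Matrix (Fin N) (Fin N) ℝ}
    {x y : Fo N} (D : Dat r K δ Λ C x y) {c : V N} (hc : ‖c‖ ≤ ρ) :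
    ∃ A : ℕ → V N → V N, A 0 = (fun _ => c) ∧ (∀ n, Step C x y c (A n) (A (n + 1))) ∧
      ∀ n, Inv ρ c (A n) := by
  have h0 : Inv ρ c (fun _ : V N => c) :=
    ⟨SP.const c, (ho_zero hρ.le).congr fun θ _ => by simp,
      (ho_zero hρ.le).congr fun θ _ => by simp⟩
  have hex : ∀ a : {a : V N → V N // Inv ρ c a}, ∃ a' : {a : V N → V N // Inv ρ c a},
      Step C x y c a.1 a'.1 := by
    rintro ⟨a, ha⟩
    obtain ⟨a', ha'⟩ := step_exists D ha.sp
      (fun θ => ((ha.inB hc hρ hρt).b0 θ).trans_le G.tr) c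
    exact ⟨⟨a', ha.step G hq hδ hδt hρ hρt hCδ D hc ha'⟩, ha'⟩
  choose f hf using hex
  refine ⟨fun n => (f^[n] ⟨fun _ => c, h0⟩).1, rfl, fun n => ?_, fun n => (f^[n] ⟨_, h0⟩).2⟩
  show Step C x y c (f^[n] ⟨_, h0⟩).1 (f^[n + 1] ⟨_, h0⟩).1
  rw [Function.iterate_succ_apply']
  exact hf _

/-- existence of the limit -/
theorem exists_sol' {Λ K r q CH t δ ρ : ℝ} (G : Good N Λ K r q CH t) (hq : q ≤ 1 / 4) (hδ : 0 ≤ δ) (hδt : δ ≤ t)
    (hρ : 0 < ρ) (hρt : ρ ≤ t / 4) (hCδ : CH * δ ≤ ρ / 2) {C : Matrix (Fin N) (Fin N) ℝ}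
    {x y : Fo N} (D : Dat r K δ Λ C x y) {c : V N} (hc : ‖c‖ ≤ ρ) :
    ∃ (A : ℕ → V N → V N) (a : V N → V N), Sol C x y t ρ c A a := by
  obtain ⟨A, hA0, hst, hinv⟩ := exists_seq G hq hδ hδt hρ hρt hCδ D hc
  have hib : ∀ n, InB t (A n) := fun n => (hinv n).inB hc hρ hρt
  have Dt := D.mono hδt
  -- consecutive differences
  have hdiff : ∀ n, HO (1 / 2) (ρ * (1 / 4) ^ n) univ (fun θ => A (n + 1) θ - A n θ) ∧
      HO (1 / 2) (ρ * (1 / 4) ^ n) univ
        (fun θ => fderiv ℝ (A (n + 1)) θ - fderiv ℝ (A n) θ) := by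
    intro n
    induction n with
    | zero =>
      have h1 := hinv 1
      rw [pow_zero, mul_one]
      refine ⟨h1.h0.congr fun θ _ => by rw [hA0], h1.h1.congr fun θ _ => ?_⟩
      rw [hA0]; simp
    | succ n ih =>
      have hΔ : 0 ≤ ρ * (1 / 4) ^ n := by positivity
      have h1 := G.pair C x y x y Dt Dt 0 le_rfl (Close.refl le_rfl x) (Close.refl le_rfl y) c c
        (A (n + 1)) (A n) (A (n + 2)) (A (n + 1)) (hib _) (hib _) (hst _) (hst _)
        (ρ * (1 / 4) ^ n) hΔ ih.1 ih.2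
      have e : q * (ρ * (1 / 4) ^ n) + CH * 0 ≤ ρ * (1 / 4) ^ (n + 1) := by
        rw [pow_succ]
        have := mul_le_mul_of_nonneg_right hq hΔ
        linarith
      exact ⟨(h1.1.congr fun θ _ => by simp).mono e, h1.2.mono e⟩
  -- limits
  have q1 : (1 / 4 : ℝ) < 1 := by norm_num
  have cau0 : ∀ θ, CauchySeq fun n => A n θ := fun θ =>
    cauchySeq_of_le_geometric (1 / 4) ρ q1 fun n => by
      rw [dist_comm, dist_eq_norm]; exact (hdiff n).1.bdd θ (mem_univ θ)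
  have cau1 : ∀ θ, CauchySeq fun n => fderiv ℝ (A n) θ := fun θ =>
    cauchySeq_of_le_geometric (1 / 4) ρ q1 fun n => by
      rw [dist_comm, dist_eq_norm]; exact (hdiff n).2.bdd θ (mem_univ θ)
  choose a ha using fun θ => cauchySeq_tendsto_of_complete (cau0 θ)
  choose T hT using fun θ => cauchySeq_tendsto_of_complete (cau1 θ)
  have d0 : ∀ n θ, dist (A n θ) (a θ) ≤ ρ * (1 / 4) ^ n / (1 - 1 / 4) := fun n θ =>
    dist_le_of_le_geometric_of_tendsto (1 / 4) ρ q1 (fun n => by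
      rw [dist_comm, dist_eq_norm]; exact (hdiff n).1.bdd θ (mem_univ θ)) (ha θ) n
  have d1 : ∀ n θ, dist (fderiv ℝ (A n) θ) (T θ) ≤ ρ * (1 / 4) ^ n / (1 - 1 / 4) := fun n θ =>
    dist_le_of_le_geometric_of_tendsto (1 / 4) ρ q1 (fun n => by
      rw [dist_comm, dist_eq_norm]; exact (hdiff n).2.bdd θ (mem_univ θ)) (hT θ) n
  have hlim : Tendsto (fun n : ℕ => ρ * (1 / 4 : ℝ) ^ n / (1 - 1 / 4)) atTop (𝓝 0) := by
    have h1 := (tendsto_pow_atTop_nhds_zero_of_lt_one (r := (1 / 4 : ℝ)) (by norm_num) q1)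
    have h2 := (h1.const_mul ρ).div_const (1 - 1 / 4)
    simpa using h2
  have u0 : TendstoUniformly A a atTop := by
    rw [Metric.tendstoUniformly_iff]
    intro ε hε
    filter_upwards [(tendsto_order.1 hlim).2 ε hε] with n hn θ
    rw [dist_comm]; exact (d0 n θ).trans_lt hn
  have u1 : TendstoUniformly (fun n => fderiv ℝ (A n)) T atTop := by
    rw [Metric.tendstoUniformly_iff]
    intro ε hε
    filter_upwards [(tendsto_order.1 hlim).2 ε hε] with n hn θ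
    rw [dist_comm]; exact (d1 n θ).trans_lt hn
  have hder : ∀ θ, HasFDerivAt a (T θ) θ := hasFDerivAt_of_tendstoUniformly u1
    (fun n θ => ((hinv n).sp.diff θ).hasFDerivAt) ha
  have hTe : fderiv ℝ a = T := funext fun θ => (hder θ).fderiv
  refine ⟨A, a, hA0, hst, hib, fun n => (hinv n).h0, fun n => (hinv n).h1, u0, ?_, fun θ =>
    (hder θ).differentiableAt⟩
  rw [hTe]; exact u1

section

variable {C : Matrix (Fin N) (Fin N) ℝ} {x y : Fo N} {t ρ : ℝ} {c : V N}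
  {A : ℕ → V N → V N} {a : V N → V N}

theorem Sol.t0 (S : Sol C x y t ρ c A a) (θ : V N) : Tendsto (fun n => A n θ) atTop (𝓝 (a θ)) :=
  S.u0.tendsto_at θ

theorem Sol.t1 (S : Sol C x y t ρ c A a) (θ : V N) :
    Tendsto (fun n => fderiv ℝ (A n) θ) atTop (𝓝 (fderiv ℝ a θ)) := S.u1.tendsto_at θ

theorem Sol.ho0 (S : Sol C x y t ρ c A a) : HO (1 / 2) ρ univ (fun θ => a θ - c) :=
  ho_lim S.h0 fun θ _ => (S.t0 θ).sub_const c

theorem Sol.ho1 (S : Sol C x y t ρ c A a) : HO (1 / 2) ρ univ (fderiv ℝ a) :=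
  ho_lim S.h1 fun θ _ => S.t1 θ

theorem Sol.per (S : Sol C x y t ρ c A a) : Per a := fun k θ =>
  tendsto_nhds_unique (S.t0 _) ((S.t0 θ).congr fun n => ((S.ib n).sp.per k θ).symm)

theorem Sol.contDiff (S : Sol C x y t ρ c A a) : ContDiff ℝ 1 a := by
  rw [contDiff_one_iff_fderiv]
  refine ⟨S.df, ?_⟩
  exact S.u1.continuous (Eventually.of_forall fun n => (S.ib n).sp.fderiv.cont).frequently

theorem Sol.norm_le (S : Sol C x y t ρ c A a) (hc : ‖c‖ ≤ ρ) (θ : V N) : ‖a θ‖ ≤ 2 * ρ := by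
  have h1 := S.ho0.bdd θ (mem_univ θ)
  have h2 : a θ = (a θ - c) + c := by abel
  rw [h2]
  exact (norm_add_le _ _).trans (by linarith)

theorem Sol.dr_lim (S : Sol C x y t ρ c A a) (j : Fin N) (θ : V N) :
    Tendsto (fun n => dr j (A n) θ) atTop (𝓝 (dr j a θ)) :=
  ((ContinuousLinearMap.apply ℝ (V N) (ee j : V N)).continuous.tendsto _).comp (S.t1 θ)

theorem Sol.co_lim (S : Sol C x y t ρ c A a) (j k : Fin N) (θ : V N) :
    Tendsto (fun n => (dr j (A n) θ) k) atTop (𝓝 ((dr j a θ) k)) :=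
  ((EuclideanSpace.proj k : V N →L[ℝ] ℝ).continuous.tendsto _).comp (S.dr_lim j θ)

theorem pb_lim {w : Fo N} {r : ℝ} (hw : ClF r w) {A : ℕ → V N → V N} {a : V N → V N} {θ : V N}
    (h0 : Tendsto (fun n => A n θ) atTop (𝓝 (a θ)))
    (h1 : ∀ j, Tendsto (fun n => dr j (A n) θ) atTop (𝓝 (dr j a θ))) (har : ‖a θ‖ < r)
    (j k : Fin N) : Tendsto (fun n => pb w (A n) j k θ) atTop (𝓝 (pb w a j k θ)) := by
  have t1 : Tendsto (fun n => ((θ, A n θ) : W N)) atTop (𝓝 (θ, a θ)) :=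
    tendsto_const_nhds.prodMk_nhds h0
  have t2 : Tendsto (fun n => w (θ, A n θ)) atTop (𝓝 (w (θ, a θ))) :=
    ((hw.da (p := (θ, a θ)) har).continuousAt.tendsto).comp t1
  have t3 : ∀ j, Tendsto (fun n => ((ee j, dr j (A n) θ) : W N)) atTop (𝓝 (ee j, dr j a θ)) :=
    fun j => tendsto_const_nhds.prodMk_nhds (h1 j)
  exact tendsto_clm (tendsto_clm t2 (t3 j)) (t3 k)

theorem pz_lim {w : Fo N} {r : ℝ} (hw : ClF r w) (w0 : W N →L[ℝ] W N →L[ℝ] ℝ)
    {A : ℕ → V N → V N} {a : V N → V N} {θ : V N}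
    (h0 : Tendsto (fun n => A n θ) atTop (𝓝 (a θ)))
    (h1 : ∀ j, Tendsto (fun n => dr j (A n) θ) atTop (𝓝 (dr j a θ))) (har : ‖a θ‖ < r)
    (j k : Fin N) : Tendsto (fun n => pz w w0 (A n) j k θ) atTop (𝓝 (pz w w0 a j k θ)) := by
  have t3 : ∀ j, Tendsto (fun n => ((ee j, dr j (A n) θ) : W N)) atTop (𝓝 (ee j, dr j a θ)) :=
    fun j => tendsto_const_nhds.prodMk_nhds (h1 j)
  exact (pb_lim hw h0 h1 har j k).sub
    (tendsto_clm (tendsto_clm tendsto_const_nhds (t3 j)) (t3 k))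

/-- `x = 0` on the graph -/
theorem Sol.eqx0 {r K δ Λ : ℝ} (D : Dat r K δ Λ C x y) (S : Sol C x y t ρ c A a)
    (har : ∀ θ, ‖a θ‖ < r) (j k : Fin N) (θ : V N) : pb x a j k θ = 0 := by
  have l1 : Tendsto (fun n => dr j (co (A (n + 1)) k) θ - dr k (co (A (n + 1)) j) θ) atTop
      (𝓝 ((dr j a θ) k - (dr k a θ) j)) := by
    have h := ((S.co_lim j k θ).sub (S.co_lim k j θ)).comp (tendsto_add_atTop_nat 1)
    refine h.congr fun n => ?_
    show (dr j (A (n + 1)) θ) k - (dr k (A (n + 1)) θ) j = _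
    rw [dr_co' (S.ib (n + 1)).sp, dr_co' (S.ib (n + 1)).sp]
  have l2 : Tendsto (fun n => - pz x (mdl 1) (A n) j k θ) atTop (𝓝 (- pz x (mdl 1) a j k θ)) :=
    (pz_lim D.nx.cf (mdl 1) (S.t0 θ) (fun j => S.dr_lim j θ) (har θ) j k).neg
  have e := tendsto_nhds_unique l1 (l2.congr fun n => ((S.st n).eqx j k θ).symm)
  unfold pz at e
  rw [mdl_one_graph] at e
  linarith

/-- `C · y = 0` on the graph -/
theorem Sol.eqy0 {r K δ Λ : ℝ} (D : Dat r K δ Λ C x y) (S : Sol C x y t ρ c A a)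
    (har : ∀ θ, ‖a θ‖ < r) (θ : V N) : ∑ j, ∑ k, C j k * pb y a j k θ = 0 := by
  have l1 : Tendsto (fun n => dS (Sm C) (co (A (n + 1))) θ) atTop
      (𝓝 (∑ i, ∑ j, Sm C i j * (dr i a θ) j)) := by
    have h : Tendsto (fun n => ∑ i, ∑ j, Sm C i j * (dr i (A n) θ) j) atTop
        (𝓝 (∑ i, ∑ j, Sm C i j * (dr i a θ) j)) :=
      tendsto_finset_sum _ fun i _ => tendsto_finset_sum _ fun j _ => (S.co_lim i j θ).const_mul _
    refine (h.comp (tendsto_add_atTop_nat 1)).congr fun n => ?_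
    unfold dS
    refine Finset.sum_congr rfl fun i _ => Finset.sum_congr rfl fun j _ => ?_
    rw [dr_co' (S.ib (n + 1)).sp]
  have l2 : Tendsto (fun n => ∑ j, ∑ k, C j k * pz y (mdl C) (A n) j k θ) atTop
      (𝓝 (∑ j, ∑ k, C j k * pz y (mdl C) a j k θ)) :=
    tendsto_finset_sum _ fun j _ => tendsto_finset_sum _ fun k _ =>
      (pz_lim D.ny.cf (mdl C) (S.t0 θ) (fun j => S.dr_lim j θ) (har θ) j k).const_mul _
  have e := tendsto_nhds_unique l1 (l2.congr fun n => ((S.st n).eqy θ).symm)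
  have e2 := alg_id D.CC fun j => dr j a θ
  unfold pz at e
  simp only [mul_sub, Finset.sum_sub_distrib] at e
  rw [e2] at e
  linarith

end

/-- dependence on the parameters -/
theorem sol_pair {Λ K r q CH t ρ : ℝ} (G : Good N Λ K r q CH t) (hq0 : 0 ≤ q) (hq : q ≤ 1 / 4)
    {C : Matrix (Fin N) (Fin N) ℝ} {x y x' y' : Fo N} (D : Dat r K t Λ C x y)
    (D' : Dat r K t Λ C x' y') {κ : ℝ} (hκ : 0 ≤ κ) (hx : Close r κ x x') (hy : Close r κ y y')
    {c c' : V N} {A A' : ℕ → V N → V N} {a a' : V N → V N} (S : Sol C x y t ρ c A a)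
    (S' : Sol C x' y' t ρ c' A' a') :
    HO (1 / 2) (2 * q * ‖c - c'‖ + 2 * (CH * κ)) univ (fun θ => a θ - a' θ - (c - c')) ∧
      HO (1 / 2) (2 * q * ‖c - c'‖ + 2 * (CH * κ)) univ
        (fun θ => fderiv ℝ a θ - fderiv ℝ a' θ) := by
  have hCH := G.CH0
  set B : ℝ := 2 * q * ‖c - c'‖ + 2 * (CH * κ) with hB
  have hB0 : 0 ≤ B := by positivity
  have key : ∀ n, HO (1 / 2) B univ (fun θ => A n θ - A' n θ - (c - c')) ∧
      HO (1 / 2) B univ (fun θ => fderiv ℝ (A n) θ - fderiv ℝ (A' n) θ) := by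
    intro n
    induction n with
    | zero =>
      rw [S.z, S'.z]
      exact ⟨(ho_zero hB0).congr fun θ _ => by simp, (ho_zero hB0).congr fun θ _ => by simp⟩
    | succ n ih =>
      have hc1 : HO (1 / 2) ‖c - c'‖ univ (fun _ : V N => c - c') := ho_const _ le_rfl
      have hn : 0 ≤ ‖c - c'‖ := norm_nonneg _
      have h1 := G.pair C x y x' y' D D' κ hκ hx hy c c' (A n) (A' n) (A (n + 1)) (A' (n + 1))
        (S.ib n) (S'.ib n) (S.st n) (S'.st n) (B + ‖c - c'‖) (by positivity)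
        ((ih.1.add hc1).congr fun θ _ => by abel) (ih.2.mono (by linarith))
      have hle : q * (B + ‖c - c'‖) + CH * κ ≤ B := by
        have h2 : q * B ≤ 1 / 4 * B := mul_le_mul_of_nonneg_right hq hB0
        have h3 : 0 ≤ q * ‖c - c'‖ := by positivity
        have h4 : 0 ≤ CH * κ := by positivity
        rw [mul_add]
        nlinarith
      exact ⟨h1.1.mono hle, h1.2.mono hle⟩
  exact ⟨ho_lim (fun n => (key n).1) fun θ _ => ((S.t0 θ).sub (S'.t0 θ)).sub_const _,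
    ho_lim (fun n => (key n).2) fun θ _ => (S.t1 θ).sub (S'.t1 θ)⟩

end

end Crest.Agent.R281.Mc673
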