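import Crest.Agent.R281.Mc10_673

/-!
# R281 / LAGT (helper673), part 11

Null Lagrangians: for an exact 2-form `H` on the torus all `∫ (H ∧ H)_jklm` vanish; hence
`2 ∫ tr(MHMH) = ∫ (M·H)²` for constant antisymmetric `M`.
-/

set_option autoImplicit false
set_option maxSynthPendingDepth 3

open MeasureTheory Set Metric Filter
open scoped ContDiff Topology

namespace Crest.Agent.R281.Mc673

open Crest.Agent.R238 (Ell)
open Crest.Agent.R238.Sch (ee norm_ee sum_ee)
open Crest.Agent.R273.SchA_152 (HO)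
open Crest.Agent.R275.Tor812 (box volume_box)

noncomputable section

variable {N : ℕ}

/-- closed, mean zero 2-forms on the torus -/
structure Ex (H : Fin N → Fin N → V N → ℝ) : Prop where
  sp : ∀ j k, SP (H j k)
  anti : ∀ j k x, H j k x = - H k j x
  closed : ∀ i j k x, dr i (H j k) x + dr j (H k i) x + dr k (H i j) x = 0
  mean : ∀ j k, mn (H j k) = 0

theorem Ex.anti' {H : Fin N → Fin N → V N → ℝ} (h : Ex H) (i j k : Fin N) (x : V N) :
    dr i (H j k) x = - dr i (H k j) x := by
  have : H j k = fun x => - H k j x := funext (h.anti j k)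
  rw [this, dr_neg]

/-- `d (λ ∧ H)` -/
theorem null4 {H : Fin N → Fin N → V N → ℝ} (h : Ex H) (j k l m : Fin N) :
    mn (fun x => H j k x * H l m x - H j l x * H k m x + H j m x * H k l x) = 0 := by
  obtain ⟨u, hu, -, hu2, -⟩ := comp_exists (ell_Sm (N := N) (Λ := 0) (C := 0) (by simp))
    (β := H) (f := fun _ => 0) h.sp (SP.const 0) h.anti h.closed h.mean (mn_const 0)
  -- the 3-form
  set tw : Fin N → Fin N → Fin N → V N → ℝ := fun a b c x =>
    u a x * H b c x - u b x * H a c x + u c x * H a b x with htw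
  have sptw : ∀ a b c, SP (tw a b c) := fun a b c =>
    (((hu a).mul (h.sp b c)).sub ((hu b).mul (h.sp a c))).add ((hu c).mul (h.sp a b))
  have drtw : ∀ i a b c x, dr i (tw a b c) x =
      (dr i (u a) x * H b c x + u a x * dr i (H b c) x) -
      (dr i (u b) x * H a c x + u b x * dr i (H a c) x) +
      (dr i (u c) x * H a b x + u c x * dr i (H a b) x) := by
    intro i a b c x
    have s1 := (hu a).mul (h.sp b c)
    have s2 := (hu b).mul (h.sp a c)
    have s3 := (hu c).mul (h.sp a b)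
    have e1 : dr i (tw a b c) x = dr i (fun x => u a x * H b c x - u b x * H a c x) x +
        dr i (fun x => u c x * H a b x) x := dr_add (s1.sub s2) s3 i x
    rw [e1, dr_sub s1 s2, dr_mul (hu a) (h.sp b c), dr_mul (hu b) (h.sp a c),
      dr_mul (hu c) (h.sp a b)]
  have key : ∀ x, dr j (tw k l m) x - dr k (tw j l m) x + dr l (tw j k m) x - dr m (tw j k l) x =
      2 * (H j k x * H l m x - H j l x * H k m x + H j m x * H k l x) := by
    intro x
    rw [drtw, drtw, drtw, drtw]
    have q1 := hu2 j k x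
    have q2 := hu2 j l x
    have q3 := hu2 j m x
    have q4 := hu2 k l x
    have q5 := hu2 k m x
    have q6 := hu2 l m x
    have c1 := h.closed j k l x
    have c2 := h.closed j k m x
    have c3 := h.closed j l m x
    have c4 := h.closed k l m x
    rw [h.anti' k l j] at c1
    rw [h.anti' k m j] at c2
    rw [h.anti' l m j] at c3
    rw [h.anti' l m k] at c4
    linear_combination (H l m x) * q1 - (H k m x) * q2 + (H k l x) * q3 + (H j m x) * q4 -
      (H j l x) * q5 + (H j k x) * q6 - (u j x) * c4 + (u k x) * c3 - (u l x) * c2 + (u m x) * c1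
  have spT : SP (fun x => H j k x * H l m x - H j l x * H k m x + H j m x * H k l x) :=
    (((h.sp j k).mul (h.sp l m)).sub ((h.sp j l).mul (h.sp k m))).add ((h.sp j m).mul (h.sp k l))
  have d1 := (sptw k l m).dr j
  have d2 := (sptw j l m).dr k
  have d3 := (sptw j k m).dr l
  have d4 := (sptw j k l).dr m
  have e1 : mn (fun x => dr j (tw k l m) x - dr k (tw j l m) x + dr l (tw j k m) x -
      dr m (tw j k l) x) = 0 := by
    rw [mn_sub ((d1.sub d2).add d3) d4, mn_add (d1.sub d2) d3, mn_sub d1 d2, mn_dr (sptw k l m),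
      mn_dr (sptw j l m), mn_dr (sptw j k m), mn_dr (sptw j k l)]
    ring
  rw [show (fun x => dr j (tw k l m) x - dr k (tw j l m) x + dr l (tw j k m) x -
      dr m (tw j k l) x) = fun x => 2 * (H j k x * H l m x - H j l x * H k m x + H j m x * H k l x)
      from funext key, mn_mul] at e1
  linarith

/-- `tr(M H M H)` -/
def trMH (M : Matrix (Fin N) (Fin N) ℝ) (H : Fin N → Fin N → ℝ) : ℝ :=
  ∑ j, ∑ k, ∑ l, ∑ m, M j k * H k l * M l m * H m j

/-- `M · H` -/
def dotM (M : Matrix (Fin N) (Fin N) ℝ) (H : Fin N → Fin N → ℝ) : ℝ := ∑ j, ∑ k, M j k * H j k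

theorem trMH_id {M : Matrix (Fin N) (Fin N) ℝ} (hM : ∀ j k, M j k = - M k j)
    {H : Fin N → Fin N → ℝ} (hH : ∀ j k, H j k = - H k j) :
    ∑ j, ∑ k, ∑ l, ∑ m, M j k * M l m * (H j k * H l m - H j l * H k m + H j m * H k l) =
      dotM M H ^ 2 - 2 * trMH M H := by
  have e1 : dotM M H ^ 2 = ∑ j, ∑ k, ∑ l, ∑ m, M j k * M l m * (H j k * H l m) := by
    unfold dotM
    rw [sq, Finset.sum_mul]
    refine Finset.sum_congr rfl fun j _ => ?_
    rw [Finset.sum_mul]
    refine Finset.sum_congr rfl fun k _ => ?_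
    rw [Finset.mul_sum]
    refine Finset.sum_congr rfl fun l _ => ?_
    rw [Finset.mul_sum]
    exact Finset.sum_congr rfl fun m _ => by ring
  have e2 : trMH M H = ∑ j, ∑ k, ∑ l, ∑ m, - (M j k * M l m * (H j m * H k l)) := by
    unfold trMH
    refine Finset.sum_congr rfl fun j _ => Finset.sum_congr rfl fun k _ =>
      Finset.sum_congr rfl fun l _ => Finset.sum_congr rfl fun m _ => ?_
    rw [hH m j]; ring
  have e3 : trMH M H = ∑ j, ∑ k, ∑ l, ∑ m, M j k * M l m * (H j l * H k m) := by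
    rw [e2, Finset.sum_comm]
    refine Finset.sum_congr rfl fun j _ => Finset.sum_congr rfl fun k _ =>
      Finset.sum_congr rfl fun l _ => Finset.sum_congr rfl fun m _ => ?_
    rw [hM k j]; ring
  have e4 : dotM M H ^ 2 - 2 * trMH M H = dotM M H ^ 2 - trMH M H - trMH M H := by ring
  rw [e4]
  conv_rhs => rw [e1]
  conv_rhs => lhs; rw [e3]
  rw [e2]
  simp only [← Finset.sum_sub_distrib]
  refine Finset.sum_congr rfl fun j _ => Finset.sum_congr rfl fun k _ =>
    Finset.sum_congr rfl fun l _ => Finset.sum_congr rfl fun m _ => ?_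
  ring

theorem mn_sum4 {f : Fin N → Fin N → Fin N → Fin N → V N → ℝ} (hf : ∀ j k l m, SP (f j k l m)) :
    mn (fun x => ∑ j, ∑ k, ∑ l, ∑ m, f j k l m x) = ∑ j, ∑ k, ∑ l, ∑ m, mn (f j k l m) := by
  have s1 : ∀ j k l, SP (fun x => ∑ m, f j k l m x) := fun j k l => SP.sum _ fun m _ => hf j k l m
  have s2 : ∀ j k, SP (fun x => ∑ l, ∑ m, f j k l m x) := fun j k => SP.sum _ fun l _ => s1 j k l
  have s3 : ∀ j, SP (fun x => ∑ k, ∑ l, ∑ m, f j k l m x) := fun j => SP.sum _ fun k _ => s2 j k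
  have e1 : mn (fun x => ∑ j, ∑ k, ∑ l, ∑ m, f j k l m x) =
      ∑ j, mn (fun x => ∑ k, ∑ l, ∑ m, f j k l m x) := mn_sum _ fun j _ => s3 j
  rw [e1]
  refine Finset.sum_congr rfl fun j _ => ?_
  have e2 : mn (fun x => ∑ k, ∑ l, ∑ m, f j k l m x) =
      ∑ k, mn (fun x => ∑ l, ∑ m, f j k l m x) := mn_sum _ fun k _ => s2 j k
  rw [e2]
  refine Finset.sum_congr rfl fun k _ => ?_
  have e3 : mn (fun x => ∑ l, ∑ m, f j k l m x) = ∑ l, mn (fun x => ∑ m, f j k l m x) :=
    mn_sum _ fun l _ => s1 j k l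
  rw [e3]
  refine Finset.sum_congr rfl fun l _ => ?_
  exact mn_sum _ fun m _ => hf j k l m

/-- **null Lagrangian** -/
theorem null_trace {M : Matrix (Fin N) (Fin N) ℝ} (hM : ∀ j k, M j k = - M k j)
    {H : Fin N → Fin N → V N → ℝ} (h : Ex H) :
    mn (fun x => dotM M (fun j k => H j k x) ^ 2 - 2 * trMH M (fun j k => H j k x)) = 0 := by
  have e : (fun x => dotM M (fun j k => H j k x) ^ 2 - 2 * trMH M (fun j k => H j k x)) =
      fun x => ∑ j, ∑ k, ∑ l, ∑ m, M j k * M l m *
        (H j k x * H l m x - H j l x * H k m x + H j m x * H k l x) := by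
    funext x
    exact (trMH_id hM fun j k => h.anti j k x).symm
  have spT : ∀ j k l m,
      SP (fun x => H j k x * H l m x - H j l x * H k m x + H j m x * H k l x) := fun j k l m =>
    (((h.sp j k).mul (h.sp l m)).sub ((h.sp j l).mul (h.sp k m))).add ((h.sp j m).mul (h.sp k l))
  rw [e, mn_sum4 fun j k l m => (spT j k l m).cmul _]
  refine Finset.sum_eq_zero fun j _ => Finset.sum_eq_zero fun k _ =>
    Finset.sum_eq_zero fun l _ => Finset.sum_eq_zero fun m _ => ?_
  rw [mn_mul, null4 h, mul_zero]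

/-- a continuous periodic non-negative function with mean zero vanishes -/
theorem eq_zero_of_mn {f : V N → ℝ} (hp : Per f) (hc : Continuous f) (h0 : ∀ x, 0 ≤ f x)
    (hm : mn f = 0) (x : V N) : f x = 0 := by
  have hlp : Continuous fun x : Fin N → ℝ => (WithLp.toLp 2 x : V N) :=
    (PiLp.continuousLinearEquiv 2 ℝ (fun _ : Fin N => ℝ)).symm.continuous
  have hcg : Continuous fun x : Fin N → ℝ => f (WithLp.toLp 2 x) := hc.comp hlp
  obtain ⟨M, _, hM⟩ := hp.bdd hc
  have hint : Integrable (fun x : Fin N → ℝ => f (WithLp.toLp 2 x))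
      (volume.restrict (box (0 : Fin N → ℝ))) :=
    Integrable.of_bound hcg.aestronglyMeasurable M (Eventually.of_forall fun x => hM _)
  have hae : (fun x : Fin N → ℝ => f (WithLp.toLp 2 x)) =ᵐ[volume.restrict (box 0)] fun _ => 0 :=
    (integral_eq_zero_iff_of_nonneg (fun x => h0 _) hint).1 hm
  have hbox : box (0 : Fin N → ℝ) ⊆ closure (interior (box 0)) := by
    rw [Crest.Agent.R275.Tor812.box_eq_pi, interior_pi_set finite_univ, closure_pi_set]
    refine Set.pi_mono fun i _ => ?_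
    simp only [Pi.zero_apply, zero_add, interior_Ioc]
    rw [closure_Ioo (by norm_num)]
    exact Ioc_subset_Icc_self
  have heq := Measure.eqOn_of_ae_eq hae hcg.continuousOn continuousOn_const hbox
  -- reduction to the box
  have h1 := heq (x := fun i => x i - ((⌈x i⌉ - 1 : ℤ) : ℝ)) (fun i => by
    have h1 := Int.le_ceil (x i)
    have h2 := Int.ceil_lt_add_one (x i)
    simp only [Pi.zero_apply, zero_add, mem_Ioc]
    push_cast
    constructor <;> linarith)
  have h2 := hp (fun i => ⌈x i⌉ - 1) (WithLp.toLp 2 fun i => x i - ((⌈x i⌉ - 1 : ℤ) : ℝ))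
  have h3 : (WithLp.toLp 2 fun i => x i - ((⌈x i⌉ - 1 : ℤ) : ℝ) : V N) +
      kv (fun i => ⌈x i⌉ - 1) = x := by
    ext i
    show x i - ((⌈x i⌉ - 1 : ℤ) : ℝ) + ((⌈x i⌉ - 1 : ℤ) : ℝ) = x i
    ring
  rw [h3] at h2
  rw [h2]
  exact h1

end

end Crest.Agent.R281.Mc673
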