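import Crest.Agent.R281.Mc11_673

/-!
# R281 / LAGT (helper673), part 12

The literal statement `LagtG` and the two linear algebra inputs of the rigidity argument.
-/

set_option autoImplicit false
set_option maxSynthPendingDepth 3

open MeasureTheory Set Metric Filter
open scoped ContDiff Topology

namespace Crest.Agent.R281.Mc673

open Crest.Agent.R238.Sch (ee norm_ee sum_ee)
open Crest.Agent.R273.SchA_152 (HO)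

noncomputable section

/-- the family of tori -/
structure Tori (N : ℕ) (r ρ ε : ℝ) (x y : Fo N) (a : V N → V N → V N) : Prop where
  c1 : ∀ c, ‖c‖ ≤ ρ → ContDiff ℝ 1 (a c)
  per : ∀ c, ‖c‖ ≤ ρ → Per (a c)
  lt : ∀ c, ‖c‖ ≤ ρ → ∀ θ, ‖a c θ‖ < r
  near : ∀ c, ‖c‖ ≤ ρ → ∀ θ, ‖a c θ - c‖ ≤ ε
  dnear : ∀ c, ‖c‖ ≤ ρ → ∀ θ, ‖fderiv ℝ (a c) θ‖ ≤ ε
  x0 : ∀ c, ‖c‖ ≤ ρ → ∀ θ u v,
    x (θ, a c θ) (u, fderiv ℝ (a c) θ u) (v, fderiv ℝ (a c) θ v) = 0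
  y0 : ∀ c, ‖c‖ ≤ ρ → ∀ θ u v,
    y (θ, a c θ) (u, fderiv ℝ (a c) θ u) (v, fderiv ℝ (a c) θ v) = 0
  lip : ∀ c c', ‖c‖ ≤ ρ → ‖c'‖ ≤ ρ → ∀ θ, ‖a c θ - a c' θ - (c - c')‖ ≤ ε * ‖c - c'‖
  dlip : ∀ c c', ‖c‖ ≤ ρ → ‖c'‖ ≤ ρ → ∀ θ,
    ‖fderiv ℝ (a c) θ - fderiv ℝ (a c') θ‖ ≤ ε * ‖c - c'‖
  cover : ∀ θ v, ‖v‖ ≤ ρ / 2 → ∃ c, ‖c‖ ≤ ρ ∧ a c θ = v

/-- closeness to the constant model along the zero section (no condition on the vertical part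
except the bound `K`) -/
structure NearG {N : ℕ} (r K δ : ℝ) (w : Fo N) (C : V N →L[ℝ] V N) : Prop where
  cf : ClF r w
  d1 : ∀ p ∈ tube N r, ‖fderiv ℝ w p‖ ≤ K
  d2 : ∀ p ∈ tube N r, ‖fderiv ℝ (fderiv ℝ w) p‖ ≤ K
  hh : ∀ θ u v : V N, |w (θ, 0) (u, 0) (v, 0)| ≤ δ * ‖u‖ * ‖v‖
  hv : ∀ θ u v : V N, |w (θ, 0) (u, 0) (0, v) + inner ℝ (C v) u| ≤ δ * ‖u‖ * ‖v‖
  vv : ∀ θ u v : V N, |w (θ, 0) (0, u) (0, v)| ≤ K * ‖u‖ * ‖v‖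
  dhh : ∀ θ t u v : V N, |fderiv ℝ w (θ, 0) (t, 0) (u, 0) (v, 0)| ≤ δ * ‖t‖ * ‖u‖ * ‖v‖
  dhv : ∀ θ t u v : V N, |fderiv ℝ w (θ, 0) (t, 0) (u, 0) (0, v)| ≤ δ * ‖t‖ * ‖u‖ * ‖v‖
  per0 : ∀ j k, mn (fun θ => w (θ, 0) (ee j, 0) (ee k, 0)) = 0

/-- **LAGT-G** -/
def LagtG : Prop := ∀ (N : ℕ) (Λ K r ε : ℝ), 0 < r → 0 < ε →
  ∃ δ > 0, ∃ ρ > 0, ∀ C : V N →L[ℝ] V N, (∀ v, C (C v) = -v) → ‖C‖ ≤ Λ →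
  ∀ x y : Fo N, NearG r K δ x (ContinuousLinearMap.id ℝ (V N)) → NearG r K δ y C →
  (∀ p ∈ tube N r, ∃ I : W N → W N, (∀ u, I (I u) = -u) ∧ ∀ u w, x p (I u) w = - y p u w) →
  ∃ a : V N → V N → V N, Tori N r ρ ε x y a

/-- `ℓ¹` norm of a matrix -/
def n1 {N : ℕ} (H : Matrix (Fin N) (Fin N) ℝ) : ℝ := ∑ j, ∑ k, |H j k|

/-- linear algebra input (R2) -/
def R2 : Prop := ∀ (N : ℕ) (Λ : ℝ), ∃ c > 0, ∃ η > 0, ∀ C H : Matrix (Fin N) (Fin N) ℝ,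
  C * C = -1 → (∀ j k, |C j k| ≤ Λ) → H.transpose = -H →
  (∀ j k, |(C * H + H * C.transpose) j k| ≤ η * n1 H) →
  c * n1 H ^ 2 ≤ (((1 + C.transpose * C) * C) * H * ((1 + C.transpose * C) * C) * H).trace

/-- linear algebra input (R3) -/
def R3 : Prop := ∀ (N : ℕ) (Λ K : ℝ), ∃ e0 > 0, ∃ C1 : ℝ, ∀ ε, 0 ≤ ε → ε ≤ e0 →
  ∀ C : Matrix (Fin N) (Fin N) ℝ, (∀ j k, |C j k| ≤ Λ) →
  ∀ (x y : W N →L[ℝ] W N →L[ℝ] ℝ), (∀ u v, x u v = - x v u) → (∀ u v, y u v = - y v u) →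
  ∀ I : W N → W N, (∀ u, I (I u) = -u) → (∀ u v, x (I u) v = - y u v) →
  ∀ A : Fin N → V N, (∀ j, ‖A j‖ ≤ ε) →
  (∀ j k, |x (eh j) (eh k)| ≤ ε) → (∀ j l, |x (eh j) (ev' l) + (if j = l then 1 else 0)| ≤ ε) →
  (∀ l m, |x (ev' l) (ev' m)| ≤ K) →
  (∀ j k, |y (eh j) (eh k)| ≤ ε) → (∀ j l, |y (eh j) (ev' l) + C j l| ≤ ε) →
  (∀ l m, |y (ev' l) (ev' m)| ≤ K) →
  (∀ j k, x (ee j, A j) (ee k, A k) = 0) →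
  ∀ j k, |(C * Matrix.of (fun j k => y (ee j, A j) (ee k, A k)) +
    Matrix.of (fun j k => y (ee j, A j) (ee k, A k)) * C.transpose) j k| ≤
      C1 * ε * n1 (Matrix.of fun j k => y (ee j, A j) (ee k, A k))

end

end Crest.Agent.R281.Mc673
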