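import Crest.Agent.R281.Mc12_673

/-!
# R281 / LAGT (helper673), part 13

Rigidity: the limit graph satisfies `y = 0`.
-/

set_option autoImplicit false
set_option maxSynthPendingDepth 3

open MeasureTheory Set Metric Filter
open scoped ContDiff Topology

namespace Crest.Agent.R281.Mc673

open Crest.Agent.R238.Sch (ee norm_ee sum_ee)
open Crest.Agent.R273.SchA_152 (HO)
open Crest.Agent.R275.Tor812 (box volume_box)

noncomputable section

variable {N : ℕ}

/-- better bound for the limit -/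
theorem sol_better {Λ K r q CH t δ ρ : ℝ} (G : Good N Λ K r q CH t) (hδ : 0 ≤ δ) (hδt : δ ≤ t)
    (hρ : 0 < ρ) {C : Matrix (Fin N) (Fin N) ℝ}
    {x y : Fo N} (D : Dat r K δ Λ C x y) {c : V N} (hc : ‖c‖ ≤ ρ) {A : ℕ → V N → V N}
    {a : V N → V N} (S : Sol C x y t ρ c A a) :
    HO (1 / 2) (q * (2 * ρ) + CH * δ) univ (fun θ => a θ - c) ∧
      HO (1 / 2) (q * (2 * ρ) + CH * δ) univ (fderiv ℝ a) := by
  have hI : ∀ n, Inv ρ c (A n) := fun n => ⟨(S.ib n).sp, S.h0 n, S.h1 n⟩
  have key := fun n => G.single C x y δ hδ hδt D c (A n) (A (n + 1)) (S.ib n) (S.st n) (2 * ρ)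
    (by positivity) ((hI n).ho hc hρ) ((hI n).h1.mono (by linarith))
  exact ⟨ho_lim (fun n => (key n).1) fun θ _ =>
      (((S.t0 θ).comp (tendsto_add_atTop_nat 1)).sub_const c),
    ho_lim (fun n => (key n).2) fun θ _ => (S.t1 θ).comp (tendsto_add_atTop_nat 1)⟩

/-- a form is bounded on smaller closed tubes -/
theorem ClF.bdd {r : ℝ} {w : Fo N} (hw : ClF r w) {s : ℝ} (hs : s < r) :
    ∃ B, 0 ≤ B ∧ ∀ θ v : V N, ‖v‖ ≤ s → ‖w (θ, v)‖ ≤ B := by
  have hK : IsCompact (cube N ×ˢ closedBall (0 : V N) s) :=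
    isCompact_cube.prod (isCompact_closedBall _ _)
  have hsub : cube N ×ˢ closedBall (0 : V N) s ⊆ tube N r := by
    rintro ⟨θ, v⟩ ⟨_, hv⟩
    have h1 : ‖v‖ ≤ s := by simpa using hv
    exact lt_of_le_of_lt h1 hs
  obtain ⟨B, hB⟩ := hK.exists_bound_of_continuousOn (hw.sm.continuousOn.mono hsub)
  refine ⟨max B 0, le_max_right _ _, fun θ v hv => ?_⟩
  obtain ⟨k, z, hz, rfl⟩ := exists_cube θ
  have h1 := hw.per k (z, v) (lt_of_le_of_lt hv hs)
  have h2 : w (z + kv k, v) = w (z, v) := h1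
  rw [h2]
  exact (hB (z, v) ⟨hz, by simpa using hv⟩).trans (le_max_left _ _)

theorem norm_frame_le {a : V N → V N} {θ : V N} (h : ‖fderiv ℝ a θ‖ ≤ 1) (j : Fin N) :
    ‖((ee j, dr j a θ) : W N)‖ ≤ 1 := by
  show max ‖(ee j : V N)‖ ‖dr j a θ‖ ≤ 1
  rw [norm_ee]
  refine max_le le_rfl (((fderiv ℝ a θ).le_opNorm _).trans ?_)
  rw [norm_ee, mul_one]; exact h

theorem pb_bdd {w : Fo N} {a : V N → V N} {θ : V N} {B : ℝ} (hw : ‖w (θ, a θ)‖ ≤ B)
    (h : ‖fderiv ℝ a θ‖ ≤ 1) (j k : Fin N) : |pb w a j k θ| ≤ B := by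
  have h1 := bil_le (w (θ, a θ)) (ee j, dr j a θ) (ee k, dr k a θ)
  have h2 := norm_frame_le h j
  have h3 := norm_frame_le h k
  have hB : 0 ≤ B := (norm_nonneg _).trans hw
  refine h1.trans ?_
  calc ‖w (θ, a θ)‖ * ‖((ee j, dr j a θ) : W N)‖ * ‖((ee k, dr k a θ) : W N)‖ ≤ B * 1 * 1 := by
        gcongr
    _ = B := by ring

/-- `(M·H)² - 2 tr(MHMH)` -/
def nl (M : Matrix (Fin N) (Fin N) ℝ) (H : Fin N → Fin N → ℝ) : ℝ := dotM M H ^ 2 - 2 * trMH M H

theorem continuous_nl (M : Matrix (Fin N) (Fin N) ℝ) : Continuous (nl M) := by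
  unfold nl dotM trMH
  fun_prop

theorem continuous_trMH (M : Matrix (Fin N) (Fin N) ℝ) : Continuous (trMH M) := by
  unfold trMH
  fun_prop

/-- the null Lagrangian identity for the limit -/
theorem null_lim {r K δ Λ t ρ : ℝ} {C : Matrix (Fin N) (Fin N) ℝ} {x y : Fo N}
    (D : Dat r K δ Λ C x y) {c : V N} (hc : ‖c‖ ≤ ρ) (ht1 : t ≤ 1) (htr : t ≤ r)
    (hρr : 2 * ρ < r) {A : ℕ → V N → V N}
    {a : V N → V N} (S : Sol C x y t ρ c A a) {M : Matrix (Fin N) (Fin N) ℝ}
    (hM : ∀ j k, M j k = - M k j) :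
    mn (fun θ => nl M (fun j k => pb y a j k θ)) = 0 := by
  have har : ∀ n θ, ‖A n θ‖ < r := fun n θ => ((S.ib n).b0 θ).trans_le htr
  have cy := D.ny.cf
  have hEx : ∀ n, Ex (fun j k => pb y (A n) j k) := fun n =>
    { sp := fun j k => sp_pb cy (S.ib n).sp (har n) j k
      anti := fun j k θ => pb_anti cy (har n) j k θ
      closed := fun i j k θ => pb_closed cy (S.ib n).sp (har n) i j k θ
      mean := fun j k => by
        have h2 : pb y (fun _ => 0) j k = fun θ => y (θ, 0) (eh j) (eh k) := by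
          funext θ
          have h0 : ∀ j, dr j (fun _ : V N => (0 : V N)) θ = 0 := fun j => by simp [dr]
          unfold pb
          rw [h0, h0]; rfl
        rw [mn_pb cy (S.ib n).sp (har n), h2]
        exact D.my j k }
  have h0 : ∀ n, mn (fun θ => nl M (fun j k => pb y (A n) j k θ)) = 0 := fun n =>
    null_trace hM (hEx n)
  -- bounds
  obtain ⟨B, hB0, hB⟩ := cy.bdd hρr
  have hI : ∀ n, Inv ρ c (A n) := fun n => ⟨(S.ib n).sp, S.h0 n, S.h1 n⟩
  have hbd : ∀ n θ j k, |pb y (A n) j k θ| ≤ B := fun n θ j k =>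
    pb_bdd (hB θ _ ((hI n).norm_le hc θ)) (((S.ib n).b1.bdd θ (mem_univ θ)).trans ht1) j k
  obtain ⟨B2, hB2⟩ := (isCompact_closedBall (0 : Fin N → Fin N → ℝ) B).exists_bound_of_continuousOn
    (continuous_nl M).continuousOn
  have hbd2 : ∀ n θ, ‖nl M (fun j k => pb y (A n) j k θ)‖ ≤ B2 := by
    intro n θ
    refine hB2 _ ?_
    rw [mem_closedBall, dist_zero_right]
    refine (pi_norm_le_iff_of_nonneg hB0).2 fun j => (pi_norm_le_iff_of_nonneg hB0).2 fun k => ?_
    exact hbd n θ j k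
  have hlp : Continuous fun x : Fin N → ℝ => (WithLp.toLp 2 x : V N) :=
    (PiLp.continuousLinearEquiv 2 ℝ (fun _ : Fin N => ℝ)).symm.continuous
  have ha2 : ∀ θ, ‖a θ‖ < r := fun θ => (S.norm_le hc θ).trans_lt hρr
  have hcn : ∀ n, Continuous fun θ => nl M (fun j k => pb y (A n) j k θ) := fun n =>
    (continuous_nl M).comp (continuous_pi fun j => continuous_pi fun k => ((hEx n).sp j k).cont)
  have hlim : Tendsto (fun n => mn (fun θ => nl M (fun j k => pb y (A n) j k θ))) atTop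
      (𝓝 (mn (fun θ => nl M (fun j k => pb y a j k θ)))) := by
    refine tendsto_integral_of_dominated_convergence (fun _ => B2)
      (fun n => ((hcn n).comp hlp).aestronglyMeasurable) (integrable_const _)
      (fun n => Eventually.of_forall fun z => hbd2 n _) (Eventually.of_forall fun z => ?_)
    refine ((continuous_nl M).tendsto _).comp ?_
    refine tendsto_pi_nhds.2 fun j => tendsto_pi_nhds.2 fun k => ?_
    exact pb_lim cy (S.t0 _) (fun j => S.dr_lim j _) (ha2 _) j k
  exact (tendsto_nhds_unique hlim (by simp only [h0]; exact tendsto_const_nhds))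

theorem trMH_eq (M H : Matrix (Fin N) (Fin N) ℝ) :
    (M * H * M * H).trace = trMH M (fun j k => H j k) := by
  unfold trMH
  simp only [Matrix.trace, Matrix.diag, Matrix.mul_apply]
  refine Finset.sum_congr rfl fun j _ => ?_
  have e : ∀ m, (∑ l, (∑ k, M j k * H k l) * M l m) * H m j =
      ∑ l, ∑ k, M j k * H k l * M l m * H m j := by
    intro m
    rw [Finset.sum_mul]
    refine Finset.sum_congr rfl fun l _ => ?_
    rw [Finset.sum_mul, Finset.sum_mul]
  simp_rw [e]
  rw [Finset.sum_comm]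
  have e2 : ∀ l, ∑ m, ∑ k, M j k * H k l * M l m * H m j =
      ∑ k, ∑ m, M j k * H k l * M l m * H m j := fun l => Finset.sum_comm
  simp_rw [e2]
  exact Finset.sum_comm

theorem Mc_eq {C : Matrix (Fin N) (Fin N) ℝ} (hC : C * C = -1) :
    (1 + C.transpose * C) * C = C - C.transpose := by
  rw [add_mul, one_mul, mul_assoc, hC]; simp [sub_eq_add_neg]

theorem continuous_pb {w : Fo N} {r : ℝ} (hw : ClF r w) {a : V N → V N} (hc : ContDiff ℝ 1 a)
    (har : ∀ θ, ‖a θ‖ < r) (j k : Fin N) : Continuous (pb w a j k) := by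
  have h1 : Continuous fun θ => w (θ, a θ) := by
    refine continuous_iff_continuousAt.2 fun θ => ?_
    exact ContinuousAt.comp (g := w) (hw.da (p := (θ, a θ)) (har θ)).continuousAt
      (continuousAt_id.prodMk hc.continuous.continuousAt)
  have h2 : ∀ j, Continuous fun θ => ((ee j, dr j a θ) : W N) := fun j =>
    continuous_const.prodMk ((hc.continuous_fderiv (by simp)).clm_apply continuous_const)
  exact (h1.clm_apply (h2 j)).clm_apply (h2 k)

/-- **rigidity** -/
theorem rigid (r2 : R2) (r3 : R3) (N : ℕ) {Λ K : ℝ} (hK : 0 ≤ K) :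
    ∃ e1 > 0, ∀ (r δ t ρ : ℝ) (C : Matrix (Fin N) (Fin N) ℝ) (x y : Fo N),
      Dat r K δ Λ C x y → (∀ p ∈ tube N r, ∃ I : W N → W N, (∀ u, I (I u) = -u) ∧
        ∀ u w, x p (I u) w = - y p u w) → 0 ≤ δ → t ≤ 1 → t ≤ r → 0 < ρ → 3 * ρ ≤ r →
      δ + K * (3 * ρ) ≤ e1 → ρ ≤ e1 → ρ ≤ 1 → ∀ (c : V N), ‖c‖ ≤ ρ → ∀ (A : ℕ → V N → V N)
      (a : V N → V N), Sol C x y t ρ c A a → ∀ j k θ, pb y a j k θ = 0 := by
  obtain ⟨c0, hc0, η, hη, H2⟩ := r2 N Λ
  obtain ⟨e0, he0, C1, H3⟩ := r3 N Λ (4 * K)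
  set e1 : ℝ := min e0 (η / (|C1| + 1)) with he1
  have he1p : 0 < e1 := by positivity
  refine ⟨e1, he1p, ?_⟩
  intro r δ t ρ C x y D hI hδ ht1 htr hρ hρr hρ1 hρ2 hρ3 c hc A a S
  have ha2 : ∀ θ, ‖a θ‖ ≤ 2 * ρ := fun θ => S.norm_le hc θ
  have har : ∀ θ, ‖a θ‖ < r := fun θ => (ha2 θ).trans_lt (by linarith)
  have hr : 0 < r := by linarith
  set M : Matrix (Fin N) (Fin N) ℝ := (1 + C.transpose * C) * C with hM
  have hMe : M = C - C.transpose := Mc_eq D.CC
  have hManti : ∀ j k, M j k = - M k j := by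
    intro j k
    rw [hMe, Matrix.sub_apply, Matrix.sub_apply, Matrix.transpose_apply, Matrix.transpose_apply]
    ring
  -- the matrix `H`
  set Hm : V N → Matrix (Fin N) (Fin N) ℝ := fun θ =>
    Matrix.of fun j k => y (θ, a θ) (ee j, dr j a θ) (ee k, dr k a θ) with hHm
  have hHpb : ∀ θ j k, Hm θ j k = pb y a j k θ := fun θ j k => rfl
  have hHanti : ∀ θ, (Hm θ).transpose = - Hm θ := by
    intro θ
    ext j k
    rw [Matrix.transpose_apply, Matrix.neg_apply, hHpb, hHpb]
    exact D.ny.cf.alt (θ, a θ) (har θ) _ _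
  -- pointwise inequality
  have hpt : ∀ θ, c0 * n1 (Hm θ) ^ 2 ≤ trMH M (fun j k => pb y a j k θ) := by
    intro θ
    obtain ⟨I, hI1, hI2⟩ := hI (θ, a θ) (har θ)
    set e : ℝ := max (δ + K * (3 * ρ)) ρ with he
    have hee0 : e ≤ e0 := (max_le hρ1 hρ2).trans (min_le_left _ _)
    have heη : e ≤ η / (|C1| + 1) := (max_le hρ1 hρ2).trans (min_le_right _ _)
    have he00 : 0 ≤ e := hρ.le.trans (le_max_right _ _)
    have h3ρ : ‖a θ‖ < 3 * ρ := (ha2 θ).trans_lt (by linarith)
    have en : ∀ (w : Fo N) (C : Matrix (Fin N) (Fin N) ℝ), Near r K δ w (mdl C) →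
        (∀ j k, |w (θ, a θ) (eh j) (eh k)| ≤ e) ∧
        (∀ j l, |w (θ, a θ) (eh j) (ev' l) + C j l| ≤ e) ∧
        (∀ l m, |w (θ, a θ) (ev' l) (ev' m)| ≤ 4 * K) := by
      intro w C hw
      have m1 : ∀ j k, mdl C (eh j : W N) (eh k) = 0 := fun j k => by
        have := mdl_graph C j k 0 0
        simpa [eh] using this
      have m2 : ∀ j l, mdl C (eh j : W N) (ev' l) = - C j l := fun j l => by
        rw [mdl_apply]
        simp only [eh, ev', PiLp.zero_apply, mul_zero, zero_sub, mul_neg,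
          Finset.sum_neg_distrib, ee_apply]
        congr 1
        rw [Finset.sum_eq_single j]
        · rw [Finset.sum_eq_single l]
          · simp
          · intro i _ hi; simp [hi]
          · simp
        · intro i _ hi; simp [hi]
        · simp
      have m3 : ∀ l m, mdl C (ev' l : W N) (ev' m) = 0 := fun l m => by
        rw [mdl_apply]
        simp [ev']
      refine ⟨fun j k => ?_, fun j l => ?_, fun l m => ?_⟩
      · have h := hw.entry hρr hr hK (norm_eh j) (norm_eh k) h3ρ (hw.hh θ j k)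
        rw [m1, sub_zero] at h
        exact h.trans (le_max_left _ _)
      · have h := hw.entry hρr hr hK (norm_eh j) (norm_ev' l) h3ρ (hw.hv θ j l)
        rw [m2, sub_neg_eq_add] at h
        exact h.trans (le_max_left _ _)
      · have h := hw.entry hρr hr hK (norm_ev' l) (norm_ev' m) h3ρ (hw.vv θ l m)
        rw [m3, sub_zero] at h
        have : K * (3 * ρ) ≤ K * 3 := mul_le_mul_of_nonneg_left (by linarith) hK
        linarith
    obtain ⟨x1, x2, x3⟩ := en x 1 D.nx
    obtain ⟨y1, y2, y3⟩ := en y C D.ny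
    have hA : ∀ j, ‖dr j a θ‖ ≤ e := fun j => by
      refine ((fderiv ℝ a θ).le_opNorm _).trans ?_
      rw [norm_ee, mul_one]
      exact (S.ho1.bdd θ (mem_univ θ)).trans (le_max_right _ _)
    have h3 := H3 e he00 hee0 C D.CL (x (θ, a θ)) (y (θ, a θ))
      (D.nx.cf.alt (θ, a θ) (har θ)) (D.ny.cf.alt (θ, a θ) (har θ)) I hI1 hI2
      (fun j => dr j a θ) hA x1
      (fun j l => by have := x2 j l; rwa [Matrix.one_apply] at this) x3 y1 y2 y3
      (fun j k => S.eqx0 D har j k θ)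
    have h4 := H2 C (Hm θ) D.CC D.CL (hHanti θ) fun j k => by
      refine (h3 j k).trans ?_
      have hn : 0 ≤ n1 (Hm θ) := Finset.sum_nonneg fun j _ => Finset.sum_nonneg fun k _ =>
        abs_nonneg _
      refine mul_le_mul_of_nonneg_right ?_ hn
      calc C1 * e ≤ (|C1| + 1) * e := mul_le_mul_of_nonneg_right
            ((le_abs_self _).trans (by linarith)) he00
        _ ≤ (|C1| + 1) * (η / (|C1| + 1)) := mul_le_mul_of_nonneg_left heη (by positivity)
        _ = η := by field_simp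
    rw [trMH_eq] at h4
    exact h4
  -- the scalar equation
  have hdot : ∀ θ, dotM M (fun j k => pb y a j k θ) = 0 := by
    intro θ
    have h1 := S.eqy0 D har θ
    have h2 : ∑ j, ∑ k, C k j * pb y a j k θ = - ∑ j, ∑ k, C j k * pb y a j k θ := by
      rw [Finset.sum_comm, ← Finset.sum_neg_distrib]
      refine Finset.sum_congr rfl fun j _ => ?_
      rw [← Finset.sum_neg_distrib]
      refine Finset.sum_congr rfl fun k _ => ?_
      have : pb y a k j θ = - pb y a j k θ := D.ny.cf.alt (θ, a θ) (har θ) _ _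
      rw [this]; ring
    unfold dotM
    have h3 : ∑ j, ∑ k, M j k * pb y a j k θ =
        ∑ j, ∑ k, C j k * pb y a j k θ - ∑ j, ∑ k, C k j * pb y a j k θ := by
      rw [← Finset.sum_sub_distrib]
      refine Finset.sum_congr rfl fun j _ => ?_
      rw [← Finset.sum_sub_distrib]
      refine Finset.sum_congr rfl fun k _ => ?_
      rw [hMe, Matrix.sub_apply, Matrix.transpose_apply]; ring
    rw [h3, h2, h1]; ring
  -- integrate
  have hn := null_lim D hc ht1 htr (by linarith) S hManti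
  have hn2 : mn (fun θ => trMH M (fun j k => pb y a j k θ)) = 0 := by
    have e : (fun θ => nl M (fun j k => pb y a j k θ)) =
        fun θ => (-2) * trMH M (fun j k => pb y a j k θ) := by
      funext θ
      unfold nl
      rw [hdot]; ring
    rw [e, mn_mul] at hn
    linarith
  have hcpb : ∀ j k, Continuous (pb y a j k) := continuous_pb D.ny.cf S.contDiff har
  have hperpb : ∀ j k, Per (pb y a j k) := by
    intro j k m θ
    have h1 : a (θ + kv m) = a θ := S.per m θ
    have h2 : fderiv ℝ a (θ + kv m) = fderiv ℝ a θ := by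
      have h3 : fderiv ℝ (fun y => a (y + kv m)) θ = fderiv ℝ a (θ + kv m) :=
        fderiv_comp_add_right _
      rw [← h3]
      congr 1
      exact funext fun y => S.per m y
    show y (θ + kv m, a (θ + kv m)) (ee j, fderiv ℝ a (θ + kv m) (ee j))
      (ee k, fderiv ℝ a (θ + kv m) (ee k)) = _
    rw [h1, h2]
    have h4 : y (θ + kv m, a θ) = y (θ, a θ) := D.ny.cf.per m (θ, a θ) (har θ)
    rw [h4]; rfl
  have hz := eq_zero_of_mn (f := fun θ => trMH M (fun j k => pb y a j k θ))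
    (fun m θ => by simp only [fun j k => hperpb j k m θ])
    ((continuous_trMH M).comp (continuous_pi fun j => continuous_pi fun k => hcpb j k))
    (fun θ => (by positivity : (0 : ℝ) ≤ c0 * n1 (Hm θ) ^ 2).trans (hpt θ)) hn2
  intro j k θ
  have h1 := hpt θ
  rw [hz θ] at h1
  have h2 : n1 (Hm θ) ^ 2 ≤ 0 := by
    by_contra h
    push Not at h
    have := mul_pos hc0 h
    linarith
  have h3 : n1 (Hm θ) = 0 := by
    have := sq_nonneg (n1 (Hm θ))
    exact pow_eq_zero_iff (two_ne_zero) |>.1 (le_antisymm h2 this)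
  have h4 : |Hm θ j k| ≤ n1 (Hm θ) := by
    unfold n1
    refine (Finset.single_le_sum (f := fun k => |Hm θ j k|) (fun k _ => abs_nonneg _)
      (Finset.mem_univ k)).trans ?_
    exact Finset.single_le_sum (f := fun j => ∑ k, |Hm θ j k|)
      (fun j _ => Finset.sum_nonneg fun k _ => abs_nonneg _) (Finset.mem_univ j)
  rw [h3] at h4
  exact abs_nonpos_iff.1 h4

end

end Crest.Agent.R281.Mc673
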