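import Crest.Agent.R281.Mc13_673

/-!
# R281 / LAGT (helper673), part 14

`LagtG` from the linear algebra inputs (R2), (R3).
-/

set_option autoImplicit false
set_option maxSynthPendingDepth 3

open MeasureTheory Set Metric Filter
open scoped ContDiff Topology

namespace Crest.Agent.R281.Mc673

open Crest.Agent.R238.Sch (ee norm_ee sum_ee)
open Crest.Agent.R273.SchA_152 (HO)

noncomputable section

variable {N : ℕ}

/-- matrix of an endomorphism -/
def mat (C : V N →L[ℝ] V N) : Matrix (Fin N) (Fin N) ℝ := fun j k => (C (ee k)) j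

theorem mat_apply (C : V N →L[ℝ] V N) (j k : Fin N) : mat C j k = (C (ee k)) j := rfl

theorem clm_apply_eq (C : V N →L[ℝ] V N) (v : V N) (j : Fin N) :
    (C v) j = ∑ k, mat C j k * v k := by
  conv_lhs => rw [sum_ee v, map_sum]
  rw [WithLp.ofLp_sum, Finset.sum_apply]
  refine Finset.sum_congr rfl fun k _ => ?_
  rw [map_smul]
  show v k * (C (ee k)) j = _
  rw [mat_apply, mul_comm]

theorem mat_sq {C : V N →L[ℝ] V N} (h : ∀ v, C (C v) = -v) : mat C * mat C = -1 := by
  ext j l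
  rw [Matrix.mul_apply]
  have h1 := clm_apply_eq C (C (ee l)) j
  rw [h] at h1
  have h2 : ∑ k, mat C j k * mat C k l = (-(ee l : V N)) j := by
    rw [h1]; rfl
  rw [h2]
  show -((ee l : V N) j) = (-1 : Matrix (Fin N) (Fin N) ℝ) j l
  rw [ee_apply, Matrix.neg_apply, Matrix.one_apply]

theorem mat_le {C : V N →L[ℝ] V N} {Λ : ℝ} (h : ‖C‖ ≤ Λ) (j k : Fin N) : |mat C j k| ≤ Λ := by
  refine (abs_co_le _ j).trans ((C.le_opNorm _).trans ?_)
  rw [norm_ee, mul_one]; exact h

theorem mat_id : mat (ContinuousLinearMap.id ℝ (V N)) = 1 := by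
  ext j k
  rw [mat_apply, Matrix.one_apply]
  show (ee k : V N) j = _
  rw [ee_apply]

theorem inner_ee (C : V N →L[ℝ] V N) (j l : Fin N) :
    inner ℝ (C (ee l)) (ee j : V N) = mat C j l := by
  rw [PiLp.inner_apply, Finset.sum_eq_single j]
  · rw [ee_apply, if_pos rfl]
    simp [mat]
  · intro i _ hi
    rw [ee_apply, if_neg hi]; simp
  · simp

theorem NearG.near {r K δ : ℝ} {w : Fo N} {C : V N →L[ℝ] V N} (h : NearG r K δ w C) :
    Near r K δ w (mdl (mat C)) where
  cf := h.cf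
  alt0 := mdl_alt _
  d1 := h.d1
  d2 p hp q hq := by
    refine (convex_tube r).norm_image_sub_le_of_norm_fderiv_le (𝕜 := ℝ) (fun z hz => ?_)
      (fun z hz => h.d2 z hz) hq hp
    exact ((h.cf.cda hz).fderiv_right (m := ∞) (by simp)).differentiableAt (by simp)
  hh θ j k := by
    have m1 : mdl (mat C) (eh j : W N) (eh k) = 0 := by
      have := mdl_graph (mat C) j k 0 0
      simpa [eh] using this
    rw [m1, sub_zero]
    have := h.hh θ (ee j) (ee k)
    rwa [norm_ee, norm_ee, mul_one, mul_one] at this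
  hv θ j l := by
    have m2 : mdl (mat C) (eh j : W N) (ev' l) = - mat C j l := by
      rw [mdl_apply]
      simp only [eh, ev', PiLp.zero_apply, mul_zero, zero_sub, mul_neg,
        Finset.sum_neg_distrib, ee_apply]
      congr 1
      rw [Finset.sum_eq_single j]
      · rw [Finset.sum_eq_single l]
        · simp
        · intro i _ hi; simp [hi]
        · simp
      · intro i _ hi; simp [hi]
      · simp
    rw [m2, sub_neg_eq_add]
    have := h.hv θ (ee j) (ee l)
    rw [norm_ee, norm_ee, mul_one, mul_one, inner_ee] at this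
    exact this
  vv θ l m := by
    have m3 : mdl (mat C) (ev' l : W N) (ev' m) = 0 := by
      rw [mdl_apply]
      simp [ev']
    rw [m3, sub_zero]
    have := h.vv θ (ee l) (ee m)
    rwa [norm_ee, norm_ee, mul_one, mul_one] at this
  dhh θ i j k := by
    have := h.dhh θ (ee i) (ee j) (ee k)
    rwa [norm_ee, norm_ee, norm_ee, mul_one, mul_one, mul_one] at this
  dhv θ i j k := by
    have := h.dhv θ (ee i) (ee j) (ee k)
    rwa [norm_ee, norm_ee, norm_ee, mul_one, mul_one, mul_one] at this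

theorem NearG.mono {r K K' δ : ℝ} {w : Fo N} {C : V N →L[ℝ] V N} (h : NearG r K δ w C)
    (hK : K ≤ K') : NearG r K' δ w C where
  cf := h.cf
  d1 p hp := (h.d1 p hp).trans hK
  d2 p hp := (h.d2 p hp).trans hK
  hh := h.hh
  hv := h.hv
  vv θ u v := (h.vv θ u v).trans (by gcongr)
  dhh := h.dhh
  dhv := h.dhv
  per0 := h.per0

/-- bilinear expansion along the frame -/
theorem frame_zero {B : W N →L[ℝ] W N →L[ℝ] ℝ} {T : V N →L[ℝ] V N}
    (h : ∀ j k, B (ee j, T (ee j)) (ee k, T (ee k)) = 0) (u v : V N) :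
    B (u, T u) (v, T v) = 0 := by
  have e : ∀ u : V N, ((u, T u) : W N) = ∑ j, u j • ((ee j, T (ee j)) : W N) := by
    intro u
    have h1 : ((u, T u) : W N) = ((ContinuousLinearMap.id ℝ (V N)).prod T) u := rfl
    rw [h1]
    conv_lhs => rw [sum_ee u, map_sum]
    refine Finset.sum_congr rfl fun l _ => ?_
    rw [map_smul]; rfl
  rw [e u, e v]
  simp only [map_sum, map_smul, ContinuousLinearMap.sum_apply, ContinuousLinearMap.smul_apply,
    smul_eq_mul]
  refine Finset.sum_eq_zero fun j _ => ?_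
  rw [Finset.sum_eq_zero]
  · ring
  · intro k _
    rw [h]; ring

/-- fixed point argument for the covering property -/
theorem cover_of_lip {ρ q : ℝ} (hρ : 0 < ρ) (hq0 : 0 ≤ q) (hq : q < 1) {f : V N → V N}
    (hn : ∀ c, ‖c‖ ≤ ρ → ‖f c - c‖ ≤ ρ / 2)
    (hl : ∀ c c', ‖c‖ ≤ ρ → ‖c'‖ ≤ ρ → ‖f c - f c' - (c - c')‖ ≤ q * ‖c - c'‖)
    {v : V N} (hv : ‖v‖ ≤ ρ / 2) : ∃ c, ‖c‖ ≤ ρ ∧ f c = v := by
  set s : Set (V N) := closedBall 0 ρ with hs
  have hmem : ∀ c, c ∈ s ↔ ‖c‖ ≤ ρ := fun c => by simp [hs]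
  set g : V N → V N := fun c => v - (f c - c) with hg
  have hmaps : MapsTo g s s := by
    intro c hc
    rw [hmem] at hc ⊢
    exact (norm_sub_le _ _).trans (by linarith [hn c hc])
  have hcomp : IsComplete s := isClosed_closedBall.isComplete
  have hcon : ContractingWith ⟨q, hq0⟩ (hmaps.restrict g s s) := by
    refine ⟨by exact_mod_cast hq, LipschitzWith.of_dist_le_mul fun a b => ?_⟩
    have h1 := hl b.1 a.1 ((hmem _).1 b.2) ((hmem _).1 a.2)
    show dist (g a.1) (g b.1) ≤ q * dist a.1 b.1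
    rw [dist_eq_norm, dist_eq_norm]
    have e : g a.1 - g b.1 = f b.1 - f a.1 - (b.1 - a.1) := by simp only [hg]; abel
    rw [e, norm_sub_rev a.1 b.1]
    exact h1
  obtain ⟨c, hc, hfix, -⟩ := ContractingWith.exists_fixedPoint' hcomp hmaps hcon
    (x := 0) (by simp [hs, hρ.le]) (edist_ne_top _ _)
  refine ⟨c, (hmem c).1 hc, ?_⟩
  have h1 : v - (f c - c) = c := hfix
  have h2 : f c = v - (v - (f c - c)) + c := by abel
  rw [h1] at h2
  rw [h2]; abel

/-- **LAGT-G** from the linear algebra inputs -/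
theorem lagtG_of (r2 : R2) (r3 : R3) : LagtG := by
  intro N Λ K r ε hr hε
  set Λ' : ℝ := max Λ 0 with hΛ'
  set K' : ℝ := max K 0 with hK'
  have hK0 : 0 ≤ K' := le_max_right _ _
  obtain ⟨e1, he1, Hr⟩ := rigid r2 r3 N (Λ := Λ') hK0
  set q : ℝ := min (1 / 8) (ε / 2) with hq
  have hq0 : 0 < q := by positivity
  have hq8 : q ≤ 1 / 8 := min_le_left _ _
  have hqε : 2 * q ≤ ε := by
    have : q ≤ ε / 2 := min_le_right _ _
    linarith
  obtain ⟨CH, t, G⟩ := exists_good N (Λ := Λ') (K := K') (r := r) (q := q) (le_max_right _ _) hK0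
    hr hq0
  have hCH := G.CH0
  have ht0 := G.t0
  set ρ : ℝ := min (min (t / 4) ε) (min 1 (e1 / (2 * (3 * K' + 1)))) with hρ
  have hρ0 : 0 < ρ := by positivity
  have hρt : ρ ≤ t / 4 := (min_le_left _ _).trans (min_le_left _ _)
  have hρε : ρ ≤ ε := (min_le_left _ _).trans (min_le_right _ _)
  have hρ1 : ρ ≤ 1 := (min_le_right _ _).trans (min_le_left _ _)
  have hρe : ρ ≤ e1 / (2 * (3 * K' + 1)) := (min_le_right _ _).trans (min_le_right _ _)
  have hρe2 : ρ * (3 * K' + 1) ≤ e1 / 2 := by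
    rw [le_div_iff₀ (by positivity)] at hρe
    linarith
  have hKρ : 0 ≤ K' * ρ := by positivity
  set δ : ℝ := min (min t (e1 / 2)) (ρ / (4 * CH)) with hδ
  have hδ0 : 0 < δ := by positivity
  have hδt : δ ≤ t := (min_le_left _ _).trans (min_le_left _ _)
  have hδe : δ ≤ e1 / 2 := (min_le_left _ _).trans (min_le_right _ _)
  have hδρ : CH * δ ≤ ρ / 4 := by
    have h1 : δ ≤ ρ / (4 * CH) := min_le_right _ _
    rw [le_div_iff₀ (by positivity)] at h1
    linarith
  have htr : t ≤ r := G.tr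
  refine ⟨δ, hδ0, ρ, hρ0, ?_⟩
  intro C hCC hCΛ x y hx hy hI
  have hx' := hx.mono (le_max_left K 0)
  have hy' := hy.mono (le_max_left K 0)
  have D : Dat r K' δ Λ' (mat C) x y :=
    { CC := mat_sq hCC
      CL := mat_le (hCΛ.trans (le_max_left _ _))
      nx := by have := hx'.near; rwa [mat_id] at this
      ny := hy'.near
      mx := hx.per0
      my := hy.per0 }
  have hex : ∀ c : V N, ∃ (A : ℕ → V N → V N) (a : V N → V N), ‖c‖ ≤ ρ →
      Sol (mat C) x y t ρ c A a := by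
    intro c
    by_cases hc : ‖c‖ ≤ ρ
    · obtain ⟨A, a, h⟩ := exists_sol' G (by linarith) hδ0.le hδt hρ0 hρt (by linarith) D hc
      exact ⟨A, a, fun _ => h⟩
    · exact ⟨fun _ _ => 0, fun _ => 0, fun h => absurd h hc⟩
  choose A a hS using hex
  have hbetter : ∀ c, ‖c‖ ≤ ρ → HO (1 / 2) (ρ / 2) univ (fun θ => a c θ - c) ∧
      HO (1 / 2) (ρ / 2) univ (fderiv ℝ (a c)) := by
    intro c hc
    have h1 := sol_better G hδ0.le hδt hρ0 D hc (hS c hc)
    have h2 : q * (2 * ρ) + CH * δ ≤ ρ / 2 := by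
      have : q * (2 * ρ) ≤ 1 / 8 * (2 * ρ) := mul_le_mul_of_nonneg_right hq8 (by positivity)
      linarith
    exact ⟨h1.1.mono h2, h1.2.mono h2⟩
  have hlt : ∀ c, ‖c‖ ≤ ρ → ∀ θ, ‖a c θ‖ < r := fun c hc θ =>
    ((hS c hc).norm_le hc θ).trans_lt (by linarith)
  have hpair : ∀ c c', ‖c‖ ≤ ρ → ‖c'‖ ≤ ρ →
      HO (1 / 2) (2 * q * ‖c - c'‖) univ (fun θ => a c θ - a c' θ - (c - c')) ∧
      HO (1 / 2) (2 * q * ‖c - c'‖) univ (fun θ => fderiv ℝ (a c) θ - fderiv ℝ (a c') θ) := by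
    intro c c' hc hc'
    have h1 := sol_pair G hq0.le (by linarith) (D.mono hδt) (D.mono hδt) (κ := 0) le_rfl
      (Close.refl le_rfl x) (Close.refl le_rfl y) (hS c hc) (hS c' hc')
    simpa using h1
  have hlip : ∀ c c', ‖c‖ ≤ ρ → ‖c'‖ ≤ ρ → ∀ θ,
      ‖a c θ - a c' θ - (c - c')‖ ≤ 2 * q * ‖c - c'‖ := fun c c' hc hc' θ =>
    (hpair c c' hc hc').1.bdd θ (mem_univ θ)
  exact ⟨a,
    { c1 := fun c hc => (hS c hc).contDiff
      per := fun c hc => (hS c hc).per
      lt := hlt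
      near := fun c hc θ => ((hbetter c hc).1.bdd θ (mem_univ θ)).trans (by linarith)
      dnear := fun c hc θ => ((hbetter c hc).2.bdd θ (mem_univ θ)).trans (by linarith)
      x0 := fun c hc θ u v => frame_zero (B := x (θ, a c θ)) (T := fderiv ℝ (a c) θ)
        (fun j k => (hS c hc).eqx0 D (hlt c hc) j k θ) u v
      y0 := fun c hc θ u v => frame_zero (B := y (θ, a c θ)) (T := fderiv ℝ (a c) θ)
        (fun j k => Hr r δ t ρ (mat C) x y D hI hδ0.le G.t1 htr hρ0 (by linarith)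
          (by nlinarith) (by nlinarith) hρ1 c hc (A c) (a c) (hS c hc) j k θ) u v
      lip := fun c c' hc hc' θ => (hlip c c' hc hc' θ).trans
        (mul_le_mul_of_nonneg_right hqε (norm_nonneg _))
      dlip := fun c c' hc hc' θ => ((hpair c c' hc hc').2.bdd θ (mem_univ θ)).trans
        (mul_le_mul_of_nonneg_right hqε (norm_nonneg _))
      cover := fun θ v hv => cover_of_lip (f := fun c => a c θ) hρ0 (by positivity)
        (by linarith : 2 * q < 1) (fun c hc => (hbetter c hc).1.bdd θ (mem_univ θ))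
        (fun c c' hc hc' => hlip c c' hc hc' θ) hv }⟩

end

end Crest.Agent.R281.Mc673
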