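import Crest.Agent.R275.TorA_812
import Crest.Agent.R273.SchC_152

/-!
# R281 / LAGT (helper673), part 1

The Poisson equation `∑ S_ij ∂_i ∂_j w = g` on the torus `ℝ^N / ℤ^N`, for real smooth periodic
functions on `EuclideanSpace ℝ (Fin N)`: existence, uniqueness, `L²` bound.
-/

set_option autoImplicit false

open MeasureTheory Set
open scoped ContDiff

namespace Crest.Agent.R281.Mc673

open Crest.Agent.R238 (Ell)
open Crest.Agent.R238.Sch (ee D2)
open Crest.Agent.R275.Tor812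

noncomputable section

variable {N : ℕ}

/-- the Euclidean space -/
abbrev V (N : ℕ) := EuclideanSpace ℝ (Fin N)

/-- the lattice vector of `k` -/
def kv (k : Fin N → ℤ) : V N := WithLp.toLp 2 fun i => (k i : ℝ)

/-- `ℤ^N`-periodic functions -/
def Per {F : Type*} (f : V N → F) : Prop := ∀ (k : Fin N → ℤ) (x : V N), f (x + kv k) = f x

/-- smooth periodic -/
structure SP {F : Type*} [NormedAddCommGroup F] [NormedSpace ℝ F] (f : V N → F) : Prop where
  sm : ContDiff ℝ ∞ f
  per : Per f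

/-- partial derivative -/
def dr {F : Type*} [NormedAddCommGroup F] [NormedSpace ℝ F] (i : Fin N) (f : V N → F) (x : V N) : F :=
  fderiv ℝ f x (ee i)

section SPbasics

variable {F : Type*} [NormedAddCommGroup F] [NormedSpace ℝ F] {f g : V N → F}

theorem SP.diff (hf : SP f) : Differentiable ℝ f := hf.sm.differentiable (by simp)

theorem SP.cont (hf : SP f) : Continuous f := hf.sm.continuous

theorem SP.add (hf : SP f) (hg : SP g) : SP (fun x => f x + g x) :=
  ⟨hf.sm.add hg.sm, fun k x => by simp only [hf.per k x, hg.per k x]⟩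

theorem SP.sub (hf : SP f) (hg : SP g) : SP (fun x => f x - g x) :=
  ⟨hf.sm.sub hg.sm, fun k x => by simp only [hf.per k x, hg.per k x]⟩

theorem SP.neg (hf : SP f) : SP (fun x => - f x) :=
  ⟨hf.sm.neg, fun k x => by simp only [hf.per k x]⟩

theorem SP.smul (hf : SP f) (c : ℝ) : SP (fun x => c • f x) :=
  ⟨contDiff_const.smul hf.sm, fun k x => by simp only [hf.per k x]⟩

theorem SP.const (c : F) : SP (fun _ : V N => c) := ⟨contDiff_const, fun _ _ => rfl⟩

theorem SP.sum {ι : Type*} (s : Finset ι) {f : ι → V N → F} (hf : ∀ i ∈ s, SP (f i)) :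
    SP (fun x => ∑ i ∈ s, f i x) :=
  ⟨ContDiff.sum fun i hi => (hf i hi).sm, fun k x =>
    Finset.sum_congr rfl fun i hi => (hf i hi).per k x⟩

theorem SP.mul {f g : V N → ℝ} (hf : SP f) (hg : SP g) : SP (fun x => f x * g x) :=
  ⟨hf.sm.mul hg.sm, fun k x => by simp only [hf.per k x, hg.per k x]⟩

theorem SP.fderiv (hf : SP f) : SP (fun x => _root_.fderiv ℝ f x) := by
  refine ⟨hf.sm.fderiv_right (m := ∞) (by simp), fun k x => ?_⟩
  have h1 : _root_.fderiv ℝ (fun y => f (y + kv k)) x = _root_.fderiv ℝ f (x + kv k) :=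
    fderiv_comp_add_right _
  rw [← h1]
  congr 1
  exact funext fun y => hf.per k y

theorem SP.dr (hf : SP f) (i : Fin N) : SP (dr i f) :=
  ⟨hf.fderiv.sm.clm_apply contDiff_const, fun k x =>
    congrArg (fun L : V N →L[ℝ] F => L (ee i)) (hf.fderiv.per k x)⟩

theorem dr_add (hf : SP f) (hg : SP g) (i : Fin N) (x : V N) :
    dr i (fun x => f x + g x) x = dr i f x + dr i g x := by
  unfold Crest.Agent.R281.Mc673.dr
  rw [fderiv_fun_add (hf.diff x) (hg.diff x)]; rfl

theorem dr_sub (hf : SP f) (hg : SP g) (i : Fin N) (x : V N) :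
    dr i (fun x => f x - g x) x = dr i f x - dr i g x := by
  unfold Crest.Agent.R281.Mc673.dr
  rw [fderiv_fun_sub (hf.diff x) (hg.diff x)]; rfl

theorem dr_neg (i : Fin N) (x : V N) : dr i (fun x => - f x) x = - dr i f x := by
  unfold Crest.Agent.R281.Mc673.dr
  rw [fderiv_fun_neg]; rfl

theorem dr_smul (hf : SP f) (c : ℝ) (i : Fin N) (x : V N) :
    dr i (fun x => c • f x) x = c • dr i f x := by
  unfold Crest.Agent.R281.Mc673.dr
  rw [fderiv_fun_const_smul (hf.diff x)]; rfl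

theorem dr_const_mul {f : V N → ℝ} (hf : SP f) (c : ℝ) (i : Fin N) (x : V N) :
    dr i (fun x => c * f x) x = c * dr i f x := by
  simpa using dr_smul hf c i x

theorem dr_sum {ι : Type*} (s : Finset ι) {f : ι → V N → F} (hf : ∀ i ∈ s, SP (f i))
    (i : Fin N) (x : V N) :
    dr i (fun x => ∑ j ∈ s, f j x) x = ∑ j ∈ s, dr i (f j) x := by
  unfold Crest.Agent.R281.Mc673.dr
  rw [fderiv_fun_sum fun j hj => (hf j hj).diff x]
  simp

theorem dr_mul {f g : V N → ℝ} (hf : SP f) (hg : SP g) (i : Fin N) (x : V N) :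
    dr i (fun x => f x * g x) x = dr i f x * g x + f x * dr i g x := by
  unfold Crest.Agent.R281.Mc673.dr
  rw [fderiv_fun_mul (hf.diff x) (hg.diff x)]
  simp only [_root_.add_apply, _root_.smul_apply, smul_eq_mul]
  ring

theorem dr_comm (hf : SP f) (i j : Fin N) (x : V N) : dr i (dr j f) x = dr j (dr i f) x := by
  have h1 : ∀ i j : Fin N, dr i (dr j f) x = _root_.fderiv ℝ (_root_.fderiv ℝ f) x (ee i) (ee j) := by
    intro i j
    show _root_.fderiv ℝ (fun y => _root_.fderiv ℝ f y (ee j)) x (ee i) = _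
    rw [fderiv_clm_apply (hf.fderiv.diff x) (differentiableAt_const _)]
    simp
  rw [h1, h1]
  exact (hf.sm.contDiffAt (x := x)).isSymmSndFDerivAt (by
    rw [minSmoothness_of_isRCLikeNormedField]; norm_cast) _ _

theorem D2_eq {f : V N → ℝ} (hf : SP f) (i j : Fin N) (x : V N) :
    D2 f x (ee i) (ee j) = dr i (dr j f) x := by
  show _ = _root_.fderiv ℝ (fun y => _root_.fderiv ℝ f y (ee j)) x (ee i)
  rw [fderiv_clm_apply (hf.fderiv.diff x) (differentiableAt_const _)]
  simp [D2]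

end SPbasics

/-! ### bridge to `SPer` -/

/-- a real smooth periodic function as an element of `SPer` -/
def toS (f : V N → ℝ) (hf : SP f) : SPer (Fin N) :=
  ⟨fun x => ((f (WithLp.toLp 2 x) : ℝ) : ℂ), by
    refine ⟨Complex.ofRealCLM.contDiff.comp (hf.sm.comp ?_), fun k x => ?_⟩
    · exact (PiLp.continuousLinearEquiv 2 ℝ (fun _ : Fin N => ℝ)).symm.contDiff
    · show ((f (WithLp.toLp 2 (x + fun i => (k i : ℝ))) : ℝ) : ℂ) = _
      rw [WithLp.toLp_add]
      have := hf.per k (WithLp.toLp 2 x)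
      rw [kv] at this
      rw [this]⟩

theorem toS_apply (f : V N → ℝ) (hf : SP f) (x : Fin N → ℝ) :
    toS f hf x = ((f (WithLp.toLp 2 x) : ℝ) : ℂ) := rfl

/-- real part of an element of `SPer` -/
def reS (u : SPer (Fin N)) (x : V N) : ℝ := (u (WithLp.ofLp x)).re

theorem ofLp_ee (i : Fin N) : WithLp.ofLp (ee i : V N) = (ev i : Fin N → ℝ) := by
  funext j
  by_cases h : j = i
  · subst h; rw [ev_same]; simp [ee]
  · rw [ev_ne h]; simp [ee, h]

theorem toLp_ev (i : Fin N) : (WithLp.toLp 2 (ev i : Fin N → ℝ) : V N) = ee i := by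
  rw [← ofLp_ee]

theorem sp_reS (u : SPer (Fin N)) : SP (reS u) := by
  refine ⟨Complex.reCLM.contDiff.comp ((sm u).comp
    (PiLp.continuousLinearEquiv 2 ℝ (fun _ : Fin N => ℝ)).contDiff), fun k x => ?_⟩
  show (u (WithLp.ofLp (x + kv k))).re = (u (WithLp.ofLp x)).re
  have := Crest.Agent.R275.Tor812.per u k (WithLp.ofLp x)
  rw [← this]; rfl

theorem dr_reS (u : SPer (Fin N)) (i : Fin N) : dr i (reS u) = reS (pd i u) := by
  funext x
  have h1 : HasFDerivAt (fun x : V N => WithLp.ofLp x)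
      ((PiLp.continuousLinearEquiv 2 ℝ (fun _ : Fin N => ℝ)) : V N →L[ℝ] (Fin N → ℝ)) x :=
    (PiLp.continuousLinearEquiv 2 ℝ (fun _ : Fin N => ℝ)).hasFDerivAt
  have h2 := ((sm_diff u (WithLp.ofLp x)).hasFDerivAt).comp x h1
  have h3 := (Complex.reCLM.hasFDerivAt (x := u (WithLp.ofLp x))).comp x h2
  have h4 : fderiv ℝ (reS u) x = _ := HasFDerivAt.fderiv h3
  show fderiv ℝ (reS u) x (ee i) = _
  rw [h4]
  show Complex.re (fderiv ℝ u (WithLp.ofLp x) (WithLp.ofLp (ee i))) = _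
  rw [ofLp_ee]; rfl

theorem pd_toS {f : V N → ℝ} (hf : SP f) (i : Fin N) : pd i (toS f hf) = toS (dr i f) (hf.dr i) := by
  refine SPer.ext fun x => ?_
  have h1 : HasFDerivAt (fun x : Fin N → ℝ => (WithLp.toLp 2 x : V N))
      ((PiLp.continuousLinearEquiv 2 ℝ (fun _ : Fin N => ℝ)).symm : (Fin N → ℝ) →L[ℝ] V N) x :=
    (PiLp.continuousLinearEquiv 2 ℝ (fun _ : Fin N => ℝ)).symm.hasFDerivAt
  have h2 := ((hf.diff (WithLp.toLp 2 x)).hasFDerivAt).comp x h1
  have h3 := (Complex.ofRealCLM.hasFDerivAt (x := f (WithLp.toLp 2 x))).comp x h2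
  have h4 : fderiv ℝ (toS f hf : (Fin N → ℝ) → ℂ) x = _ := HasFDerivAt.fderiv h3
  rw [pd_apply, h4]
  show ((fderiv ℝ f (WithLp.toLp 2 x) (WithLp.toLp 2 (ev i)) : ℝ) : ℂ) = _
  rw [toLp_ev]; rfl

theorem reS_toS {f : V N → ℝ} (hf : SP f) : reS (toS f hf) = f := by
  funext x; simp [reS, toS_apply]

/-! ### the mean -/

/-- the mean over the torus -/
def mn (f : V N → ℝ) : ℝ := ∫ x in box (0 : Fin N → ℝ), f (WithLp.toLp 2 x)

theorem fc_toS_zero {f : V N → ℝ} (hf : SP f) : fc (toS f hf) 0 = (mn f : ℂ) := by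
  rw [fc_eq_integral _ _ 0, mn]
  have h : ∀ x : Fin N → ℝ, ch (-0) x * toS f hf x = ((f (WithLp.toLp 2 x) : ℝ) : ℂ) := by
    intro x
    rw [toS_apply]
    simp [ch]
  simp_rw [h]
  exact integral_ofReal

theorem mn_reS (u : SPer (Fin N)) : mn (reS u) = (fc u 0).re := by
  rw [fc_eq_integral _ _ 0, mn]
  have h : ∀ x : Fin N → ℝ, ch (-0) x * u x = u x := by
    intro x; simp [ch]
  simp_rw [h]
  have hi : Integrable (fun x => u x) (volume.restrict (box (0 : Fin N → ℝ))) := by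
    have := integrable_mul_ch u 0 0
    simpa [ch] using this
  exact integral_re hi

theorem integrable_box {f : V N → ℝ} (hf : SP f) :
    Integrable (fun x => f (WithLp.toLp 2 x)) (volume.restrict (box (0 : Fin N → ℝ))) := by
  have h := integrable_mul_ch (toS f hf) 0 0
  have h2 := h.re
  refine h2.congr (Filter.Eventually.of_forall fun x => ?_)
  simp [ch, toS_apply]

theorem mn_add {f g : V N → ℝ} (hf : SP f) (hg : SP g) : mn (fun x => f x + g x) = mn f + mn g :=
  integral_add (integrable_box hf) (integrable_box hg)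

theorem mn_sub {f g : V N → ℝ} (hf : SP f) (hg : SP g) : mn (fun x => f x - g x) = mn f - mn g :=
  integral_sub (integrable_box hf) (integrable_box hg)

theorem mn_neg (f : V N → ℝ) : mn (fun x => - f x) = - mn f := integral_neg _

theorem mn_mul (c : ℝ) (f : V N → ℝ) : mn (fun x => c * f x) = c * mn f := integral_const_mul _ _

theorem mn_const (c : ℝ) : mn (fun _ : V N => c) = c := by
  simp [mn, measureReal_def, volume_box]

theorem mn_sum {ι : Type*} (s : Finset ι) {f : ι → V N → ℝ} (hf : ∀ i ∈ s, SP (f i)) :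
    mn (fun x => ∑ i ∈ s, f i x) = ∑ i ∈ s, mn (f i) :=
  integral_finset_sum _ fun i hi => integrable_box (hf i hi)

theorem mn_dr {f : V N → ℝ} (hf : SP f) (i : Fin N) : mn (dr i f) = 0 := by
  have h := fc_toS_zero (hf.dr i)
  rw [← pd_toS hf, fc_pd] at h
  simp only [Pi.zero_apply, Int.cast_zero, mul_zero, zero_mul] at h
  exact_mod_cast h.symm

/-! ### the operator -/

/-- `∑ S_ij ∂_i ∂_j` -/
def PP (S : Matrix (Fin N) (Fin N) ℝ) (w : V N → ℝ) (x : V N) : ℝ :=
  ∑ i, ∑ j, S i j * dr i (dr j w) x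

/-- complex version -/
def Pc (S : Matrix (Fin N) (Fin N) ℝ) (u : SPer (Fin N)) : SPer (Fin N) :=
  ∑ i, ∑ j, ((S i j : ℝ) : ℂ) • pd i (pd j u)

/-- the quadratic form -/
def qf (S : Matrix (Fin N) (Fin N) ℝ) (k : Fin N → ℤ) : ℝ :=
  ∑ i, ∑ j, S i j * (k i : ℝ) * (k j : ℝ)

theorem fc_Pc (S : Matrix (Fin N) (Fin N) ℝ) (u : SPer (Fin N)) (k : Fin N → ℤ) :
    fc (Pc S u) k = ((-(4 * Real.pi ^ 2 * qf S k) : ℝ) : ℂ) * fc u k := by
  unfold Pc
  rw [fc_sum]
  simp_rw [fc_sum, fc_smul, fc_pd]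
  unfold qf
  push_cast
  rw [← neg_mul, Finset.mul_sum, Finset.sum_mul]
  refine Finset.sum_congr rfl fun i _ => ?_
  rw [Finset.mul_sum, Finset.sum_mul]
  refine Finset.sum_congr rfl fun j _ => ?_
  ring_nf
  rw [Complex.I_sq]
  ring

theorem reS_Pc (S : Matrix (Fin N) (Fin N) ℝ) (u : SPer (Fin N)) : reS (Pc S u) = PP S (reS u) := by
  funext x
  have h1 : ∀ (t : Finset (Fin N)) (g : Fin N → SPer (Fin N)) (y : Fin N → ℝ),
      (∑ i ∈ t, g i : SPer (Fin N)) y = ∑ i ∈ t, g i y := by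
    intro t g y
    classical
    induction t using Finset.induction_on with
    | empty => rfl
    | insert i t hi ih => rw [Finset.sum_insert hi, Finset.sum_insert hi, ← ih]; rfl
  unfold reS Pc PP
  rw [h1, Complex.re_sum]
  refine Finset.sum_congr rfl fun i _ => ?_
  rw [h1, Complex.re_sum]
  refine Finset.sum_congr rfl fun j _ => ?_
  have h2 : dr i (dr j (reS u)) x = reS (pd i (pd j u)) x := by rw [dr_reS, dr_reS]
  show (((S i j : ℝ) : ℂ) * (pd i (pd j u)) (WithLp.ofLp x)).re = S i j * dr i (dr j (reS u)) x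
  rw [h2, Complex.re_ofReal_mul]; rfl

theorem Pc_toS (S : Matrix (Fin N) (Fin N) ℝ) {w : V N → ℝ} (hw : SP w)
    (hP : SP (PP S w)) : Pc S (toS w hw) = toS (PP S w) hP := by
  refine SPer.ext fun x => ?_
  have h1 : ∀ (t : Finset (Fin N)) (g : Fin N → SPer (Fin N)) (y : Fin N → ℝ),
      (∑ i ∈ t, g i : SPer (Fin N)) y = ∑ i ∈ t, g i y := by
    intro t g y
    classical
    induction t using Finset.induction_on with
    | empty => rfl
    | insert i t hi ih => rw [Finset.sum_insert hi, Finset.sum_insert hi, ← ih]; rfl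
  unfold Pc
  rw [h1, toS_apply]
  unfold PP
  rw [Complex.ofReal_sum]
  refine Finset.sum_congr rfl fun i _ => ?_
  rw [h1, Complex.ofReal_sum]
  refine Finset.sum_congr rfl fun j _ => ?_
  rw [Complex.ofReal_mul, pd_toS, pd_toS]; rfl

theorem sp_PP (S : Matrix (Fin N) (Fin N) ℝ) {w : V N → ℝ} (hw : SP w) : SP (PP S w) :=
  SP.sum _ fun i _ => SP.sum _ fun j _ => by
    simpa using ((hw.dr j).dr i).smul (S i j)

theorem qf_ge {hi : ℝ} {S : Matrix (Fin N) (Fin N) ℝ} (hS : Ell 1 hi S) (k : Fin N → ℤ) :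
    ∑ i, (k i : ℝ) ^ 2 ≤ qf S k := by
  have := (hS.2 fun i => (k i : ℝ)).1
  rwa [one_mul] at this

theorem one_le_norm_sq {k : Fin N → ℤ} (hk : k ≠ 0) : 1 ≤ ∑ i, (k i : ℝ) ^ 2 := by
  obtain ⟨i, hi⟩ := Function.ne_iff.1 hk
  have h1 : (1 : ℝ) ≤ (k i : ℝ) ^ 2 := by
    have : (1 : ℤ) ≤ (k i) ^ 2 := by
      have hi' : k i ≠ 0 := hi
      have h0 : 0 < (k i) ^ 2 := by positivity
      omega
    exact_mod_cast this
  exact h1.trans (Finset.single_le_sum (f := fun i => (k i : ℝ) ^ 2) (fun i _ => sq_nonneg _)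
    (Finset.mem_univ i))

theorem one_le_qf {hi : ℝ} {S : Matrix (Fin N) (Fin N) ℝ} (hS : Ell 1 hi S) {k : Fin N → ℤ}
    (hk : k ≠ 0) : 1 ≤ 4 * Real.pi ^ 2 * qf S k := by
  have h1 := (one_le_norm_sq hk).trans (qf_ge hS k)
  have h2 : (1 : ℝ) ≤ Real.pi := by linarith [Real.pi_gt_three]
  nlinarith

theorem uniq {hi : ℝ} {S : Matrix (Fin N) (Fin N) ℝ} (hS : Ell 1 hi S) {w : V N → ℝ} (hw : SP w)
    (hm : mn w = 0) (h : ∀ x, PP S w x = 0) : ∀ x, w x = 0 := by
  have hP := sp_PP S hw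
  have h0 : toS (PP S w) hP = 0 := SPer.ext fun x => by
    rw [toS_apply, h]; simp
  have h1 := Pc_toS S hw hP
  rw [h0] at h1
  have h2 : toS w hw = 0 := by
    refine fc_inj fun k => ?_
    rw [fc_zero]
    by_cases hk : k = 0
    · subst hk; rw [fc_toS_zero, hm]; simp
    · have h3 := fc_Pc S (toS w hw) k
      rw [h1, fc_zero] at h3
      rcases mul_eq_zero.1 h3.symm with h4 | h4
      · exfalso
        have h5 : (-(4 * Real.pi ^ 2 * qf S k) : ℝ) = 0 := by exact_mod_cast h4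
        have := one_le_qf hS hk
        linarith
      · exact h4
  intro x
  have h3 : toS w hw (WithLp.ofLp x) = 0 := by rw [h2]; rfl
  rw [toS_apply] at h3
  exact_mod_cast h3

theorem exists_sol {hi : ℝ} {S : Matrix (Fin N) (Fin N) ℝ} (hS : Ell 1 hi S) {g : V N → ℝ}
    (hg : SP g) (hm : mn g = 0) : ∃ w : V N → ℝ, SP w ∧ mn w = 0 ∧ ∀ x, PP S w x = g x := by
  classical
  set c : (Fin N → ℤ) → ℂ := fun k =>
    ((-(4 * Real.pi ^ 2 * qf S k)⁻¹ : ℝ) : ℂ) * fc (toS g hg) k with hc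
  have h0 : fc (toS g hg) 0 = 0 := by rw [fc_toS_zero, hm]; simp
  have hle : ∀ k, ‖c k‖ ≤ ‖fc (toS g hg) k‖ := by
    intro k
    by_cases hk : k = 0
    · subst hk; simp only [hc]; rw [h0]; simp
    · simp only [hc]
      rw [norm_mul, Complex.norm_real, norm_neg, norm_inv, Real.norm_eq_abs]
      have h1 := one_le_qf hS hk
      rw [abs_of_nonneg (by linarith)]
      exact mul_le_of_le_one_left (norm_nonneg _) (inv_le_one_of_one_le₀ h1)
  have hr : Rapid c := fun M => by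
    obtain ⟨C, hC⟩ := rapid_fc (toS g hg) M
    exact ⟨C, fun k => (mul_le_mul_of_nonneg_left (hle k) (pow_nonneg (wt_pos k).le _)).trans (hC k)⟩
  refine ⟨reS (syn c hr), sp_reS _, ?_, ?_⟩
  · rw [mn_reS, fc_syn]
    simp only [hc]
    rw [h0]; simp
  · have h1 : Pc S (syn c hr) = toS g hg := by
      refine fc_inj fun k => ?_
      rw [fc_Pc, fc_syn]
      by_cases hk : k = 0
      · subst hk; simp only [hc]; rw [h0]; simp
      · simp only [hc]
        rw [← mul_assoc, ← Complex.ofReal_mul]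
        have h1 := one_le_qf hS hk
        have h2 : -(4 * Real.pi ^ 2 * qf S k) * -(4 * Real.pi ^ 2 * qf S k)⁻¹ = 1 := by
          rw [neg_mul_neg]
          exact mul_inv_cancel₀ (by linarith)
        rw [h2]; simp
    intro x
    rw [← reS_Pc, h1, reS_toS]

/-- the `L²` bound -/
theorem l2_bound {hi : ℝ} {S : Matrix (Fin N) (Fin N) ℝ} (hS : Ell 1 hi S) {w : V N → ℝ} (hw : SP w)
    (hm : mn w = 0) {B : ℝ} (hB : ∀ x, |PP S w x| ≤ B) :
    ∫ x in box (0 : Fin N → ℝ), w (WithLp.toLp 2 x) ^ 2 ≤ B ^ 2 := by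
  have hP := sp_PP S hw
  have h1 := parseval (toS w hw)
  have h2 := parseval (toS (PP S w) hP)
  have h3 : l2 (toS w hw) ≤ l2 (toS (PP S w) hP) := by
    refine hasSum_le (fun k => ?_) h1 h2
    rw [← Pc_toS S hw hP, fc_Pc]
    by_cases hk : k = 0
    · subst hk; rw [fc_toS_zero, hm]; simp
    · rw [norm_mul, Complex.norm_real, norm_neg, Real.norm_eq_abs]
      have h1 := one_le_qf hS hk
      rw [abs_of_nonneg (by linarith)]
      refine pow_le_pow_left₀ (norm_nonneg _) ?_ 2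
      exact le_mul_of_one_le_left (norm_nonneg _) h1
  have h4 : l2 (toS w hw) = ∫ x in box (0 : Fin N → ℝ), w (WithLp.toLp 2 x) ^ 2 := by
    unfold l2
    refine integral_congr_ae (Filter.Eventually.of_forall fun x => ?_)
    show ‖toS w hw x‖ ^ 2 = _
    rw [toS_apply, Complex.norm_real, Real.norm_eq_abs, sq_abs]
  have h5 : l2 (toS (PP S w) hP) ≤ B ^ 2 := by
    unfold l2
    have h6 : ∀ x : Fin N → ℝ, ‖toS (PP S w) hP x‖ ^ 2 ≤ B ^ 2 := fun x => by
      rw [toS_apply, Complex.norm_real, Real.norm_eq_abs]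
      exact pow_le_pow_left₀ (abs_nonneg _) (hB _) 2
    have h7 : ∫ x in box (0 : Fin N → ℝ), ‖toS (PP S w) hP x‖ ^ 2 ≤
        ∫ _ in box (0 : Fin N → ℝ), B ^ 2 := by
      refine integral_mono_of_nonneg (Filter.Eventually.of_forall fun x => by positivity)
        (integrable_const _) (Filter.Eventually.of_forall h6)
    refine h7.trans (le_of_eq ?_)
    simp [measureReal_def, volume_box]
  rw [← h4]
  exact h3.trans h5

end

end Crest.Agent.R281.Mc673
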