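import Crest.Agent.R281.Mc1_673
import Crest.Agent.R238.AprLin

/-!
# R281 / LAGT (helper673), part 2

Global Schauder estimate for `∑ S_ij ∂_i ∂_j w = g` on the torus `ℝ^N / ℤ^N`.
-/

set_option autoImplicit false

open MeasureTheory Set Metric
open scoped ContDiff

namespace Crest.Agent.R281.Mc673

open Crest.Agent.R238 (Ell)
open Crest.Agent.R238.Sch (ee D2 LB)
open Crest.Agent.R273.SchA_152 (HO)
open Crest.Agent.R273.SchB_152 (P2)
open Crest.Agent.R275.Tor812

noncomputable section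

variable {N : ℕ}

/-! ### compactness of the torus -/

/-- the closed unit cube -/
def cube (N : ℕ) : Set (V N) := {y | ∀ i, y i ∈ Icc (0 : ℝ) 1}

theorem isCompact_cube : IsCompact (cube N) := by
  have h1 : IsCompact (Set.pi univ fun _ : Fin N => Icc (0 : ℝ) 1) :=
    isCompact_univ_pi fun _ => isCompact_Icc
  have h2 := h1.image (PiLp.continuousLinearEquiv 2 ℝ (fun _ : Fin N => ℝ)).symm.continuous
  convert h2 using 1
  ext y
  constructor
  · intro hy
    exact ⟨WithLp.ofLp y, fun i _ => hy i, rfl⟩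
  · rintro ⟨z, hz, rfl⟩ i
    exact hz i (mem_univ i)

theorem cube_nonempty : (cube N).Nonempty := ⟨0, fun i => by simp⟩

theorem exists_cube (x : V N) : ∃ (k : Fin N → ℤ) (y : V N), y ∈ cube N ∧ x = y + kv k := by
  refine ⟨fun i => ⌊x i⌋, WithLp.toLp 2 fun i => Int.fract (x i), fun i => ?_, ?_⟩
  · exact ⟨Int.fract_nonneg _, (Int.fract_lt_one _).le⟩
  · ext i
    show x i = Int.fract (x i) + (⌊x i⌋ : ℝ)
    rw [add_comm]; exact (Int.floor_add_fract (x i)).symm

theorem Per.exists_mem_cube {F : Type*} {f : V N → F} (hp : Per f) (x : V N) :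
    ∃ y ∈ cube N, f x = f y := by
  obtain ⟨k, y, hy, rfl⟩ := exists_cube x
  exact ⟨y, hy, hp k y⟩

theorem Per.bdd {F : Type*} [NormedAddCommGroup F] {f : V N → F} (hp : Per f)
    (hc : Continuous f) : ∃ M, 0 ≤ M ∧ ∀ x, ‖f x‖ ≤ M := by
  obtain ⟨M, hM⟩ := isCompact_cube.exists_bound_of_continuousOn (hc.continuousOn (s := cube N))
  refine ⟨max M 0, le_max_right _ _, fun x => ?_⟩
  obtain ⟨y, hy, h⟩ := hp.exists_mem_cube x
  rw [h]
  exact (hM y hy).trans (le_max_left _ _)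

theorem Per.exists_max {f : V N → ℝ} (hp : Per f) (hc : Continuous f) :
    ∃ x0, ∀ x, f x ≤ f x0 := by
  obtain ⟨x0, _, h0⟩ := isCompact_cube.exists_isMaxOn cube_nonempty (hc.continuousOn (s := cube N))
  refine ⟨x0, fun x => ?_⟩
  obtain ⟨y, hy, h⟩ := hp.exists_mem_cube x
  rw [h]
  exact h0 hy

theorem le_two_rpow {t a : ℝ} (ha : 0 ≤ a) (ht : 1 ≤ t) : 1 ≤ t ^ a := Real.one_le_rpow ht ha

/-- a bounded Lipschitz function is Hölder -/
theorem ho_of_lip {X F : Type*} [NormedAddCommGroup X] [NormedAddCommGroup F] {a M L : ℝ}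
    (ha : 0 ≤ a) (ha1 : a ≤ 1) {s : Set X} {f : X → F} (h0 : ∀ x ∈ s, ‖f x‖ ≤ M)
    (h1 : ∀ x ∈ s, ∀ y ∈ s, ‖f x - f y‖ ≤ L * ‖x - y‖) (hL : 0 ≤ L) (hM : 0 ≤ M) :
    HO a (L + 2 * M) s f where
  bdd x hx := (h0 x hx).trans (by linarith)
  hol x hx y hy := by
    have hr : 0 ≤ ‖x - y‖ ^ a := Real.rpow_nonneg (norm_nonneg _) _
    rcases le_total ‖x - y‖ 1 with h | h
    · have h2 : ‖x - y‖ ≤ ‖x - y‖ ^ a := by
        rcases (norm_nonneg (x - y)).eq_or_lt with h3 | h3
        · rw [← h3]; exact Real.rpow_nonneg le_rfl _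
        · calc ‖x - y‖ = ‖x - y‖ ^ (1 : ℝ) := (Real.rpow_one _).symm
            _ ≤ ‖x - y‖ ^ a := Real.rpow_le_rpow_of_exponent_ge h3 h ha1
      refine (h1 x hx y hy).trans ?_
      have h4 : L * ‖x - y‖ ≤ L * ‖x - y‖ ^ a := mul_le_mul_of_nonneg_left h2 hL
      have h5 : 0 ≤ 2 * M * ‖x - y‖ ^ a := by positivity
      linarith
    · have h2 : 1 ≤ ‖x - y‖ ^ a := le_two_rpow ha h
      have h3 : ‖f x - f y‖ ≤ 2 * M := (norm_sub_le _ _).trans (by linarith [h0 x hx, h0 y hy])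
      have h4 : 2 * M ≤ 2 * M * ‖x - y‖ ^ a := le_mul_of_one_le_right (by positivity) h2
      have h5 : 0 ≤ L * ‖x - y‖ ^ a := by positivity
      linarith

theorem SP.ho {F : Type*} [NormedAddCommGroup F] [NormedSpace ℝ F] {f : V N → F} (hf : SP f)
    {a : ℝ} (ha : 0 ≤ a) (ha1 : a ≤ 1) : ∃ M, HO a M univ f := by
  obtain ⟨M, hM0, hM⟩ := hf.per.bdd hf.cont
  obtain ⟨L, hL0, hL⟩ := hf.fderiv.per.bdd hf.fderiv.cont
  refine ⟨_, ho_of_lip ha ha1 (fun x _ => hM x) (fun x _ y _ => ?_) hL0 hM0⟩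
  exact convex_univ.norm_image_sub_le_of_norm_fderiv_le (𝕜 := ℝ) (fun z _ => hf.diff z)
    (fun z _ => hL z) (mem_univ y) (mem_univ x)

/-- from local to global Hölder bounds -/
theorem ho_glob {F : Type*} [NormedAddCommGroup F] {a Q : ℝ} (ha : 0 < a) (ha1 : a ≤ 1)
    {f : V N → F} (h : ∀ x0, HO a Q (closedBall x0 (1 / 2)) f) : HO a (4 * Q) univ f where
  bdd x _ := by
    have h1 := (h x).bdd x (mem_closedBall_self (by norm_num))
    have := norm_nonneg (f x)
    linarith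
  hol x _ y _ := by
    have h1 := (h x).bdd x (mem_closedBall_self (by norm_num))
    have h1' := (h y).bdd y (mem_closedBall_self (by norm_num))
    have hQ : 0 ≤ Q := (norm_nonneg _).trans h1
    have hr : 0 ≤ ‖x - y‖ ^ a := Real.rpow_nonneg (norm_nonneg _) _
    rcases le_total ‖x - y‖ (1 / 2) with h2 | h2
    · have h3 := (h x).hol x (mem_closedBall_self (by norm_num)) y (by
        rw [mem_closedBall, dist_eq_norm, norm_sub_rev]; exact h2)
      refine h3.trans (mul_le_mul_of_nonneg_right (by linarith) hr)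
    · have h3 : ‖f x - f y‖ ≤ 2 * Q := (norm_sub_le _ _).trans (by linarith)
      have h4 : 1 ≤ (2 * ‖x - y‖) ^ a := le_two_rpow ha.le (by linarith)
      have h5 : (2 * ‖x - y‖) ^ a ≤ 2 * ‖x - y‖ ^ a := by
        rw [Real.mul_rpow (by norm_num) (norm_nonneg _)]
        refine mul_le_mul_of_nonneg_right ?_ hr
        calc (2 : ℝ) ^ a ≤ 2 ^ (1 : ℝ) := Real.rpow_le_rpow_of_exponent_le (by norm_num) ha1
          _ = 2 := Real.rpow_one 2
      nlinarith

/-! ### the mean over translated boxes -/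

theorem mn_eq_box {f : V N → ℝ} (hf : SP f) (b : Fin N → ℝ) :
    mn f = ∫ x in box b, f (WithLp.toLp 2 x) := by
  have h1 := fc_toS_zero hf
  rw [fc_eq_integral _ _ b] at h1
  have h : ∀ x : Fin N → ℝ, ch (-0) x * toS f hf x = ((f (WithLp.toLp 2 x) : ℝ) : ℂ) := by
    intro x
    rw [toS_apply]
    simp [ch]
  simp_rw [h] at h1
  have h2 : (∫ x in box b, ((f (WithLp.toLp 2 x) : ℝ) : ℂ)) =
      ((∫ x in box b, f (WithLp.toLp 2 x) : ℝ) : ℂ) := integral_ofReal
  exact_mod_cast h1.symm.trans h2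

theorem norm_toLp_le (z : Fin N → ℝ) {r : ℝ} (hr : 0 ≤ r) (h : ∀ i, |z i| ≤ r) :
    ‖(WithLp.toLp 2 z : V N)‖ ≤ (N + 1) * r := by
  rw [EuclideanSpace.norm_eq]
  refine Real.sqrt_le_iff.2 ⟨by positivity, ?_⟩
  calc ∑ i, ‖(WithLp.toLp 2 z : V N) i‖ ^ 2 ≤ ∑ _i : Fin N, r ^ 2 :=
        Finset.sum_le_sum fun i _ => by
          rw [Real.norm_eq_abs]
          exact pow_le_pow_left₀ (abs_nonneg _) (h i) 2
    _ = N * r ^ 2 := by simp
    _ ≤ ((N + 1) * r) ^ 2 := by
        have : (N : ℝ) ≤ (N + 1) ^ 2 := by nlinarith [Nat.cast_nonneg (α := ℝ) N]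
        rw [mul_pow]
        exact mul_le_mul_of_nonneg_right this (sq_nonneg _)

/-- lower bound of the `L²` norm by the maximum and the Lipschitz constant -/
theorem l2_lower {w : V N → ℝ} (hw : SP w) {W r : ℝ} {x0 : V N} (hr : 0 < r) (hr1 : r ≤ 1 / 2)
    (hW : 0 ≤ W) (h : ∀ y : V N, ‖y - x0‖ ≤ (N + 1) * r → W ≤ |w y|) :
    W ^ 2 * (2 * r) ^ N ≤ ∫ x in box (0 : Fin N → ℝ), w (WithLp.toLp 2 x) ^ 2 := by
  have hsq : SP (fun y => w y ^ 2) := by
    have := hw.mul hw
    simpa only [← sq] using this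
  have h0 := mn_eq_box hsq (fun i => x0 i - 1 / 2)
  have h0' : mn (fun y => w y ^ 2) = ∫ x in box (0 : Fin N → ℝ), w (WithLp.toLp 2 x) ^ 2 := rfl
  rw [← h0', h0]
  set Q : Set (Fin N → ℝ) := Set.pi univ fun i => Ioc (x0 i - r) (x0 i + r) with hQ
  have hQm : MeasurableSet Q := MeasurableSet.univ_pi fun _ => measurableSet_Ioc
  have hQv : volume.real Q = (2 * r) ^ N := by
    rw [hQ, measureReal_def, Real.volume_pi_Ioc, ENNReal.toReal_prod]
    have : ∀ i : Fin N, (ENNReal.ofReal (x0 i + r - (x0 i - r))).toReal = 2 * r := fun i => by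
      rw [ENNReal.toReal_ofReal (by linarith)]; ring
    simp only [this, Finset.prod_const, Finset.card_univ, Fintype.card_fin]
  have hsub : Q ⊆ box (fun i => x0 i - 1 / 2) := by
    intro y hy i
    have := hy i (mem_univ i)
    constructor
    · have := this.1; show x0 i - 1 / 2 < y i; linarith
    · have := this.2; show y i ≤ x0 i - 1 / 2 + 1; linarith
  have hcont : Continuous fun x : Fin N → ℝ => w (WithLp.toLp 2 x) ^ 2 :=
    (hw.cont.comp (PiLp.continuousLinearEquiv 2 ℝ (fun _ : Fin N => ℝ)).symm.continuous).pow 2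
  obtain ⟨M, hM0, hM⟩ := hsq.per.bdd hsq.cont
  have hint : IntegrableOn (fun x : Fin N → ℝ => w (WithLp.toLp 2 x) ^ 2)
      (box fun i => x0 i - 1 / 2) := by
    refine Integrable.of_bound hcont.aestronglyMeasurable M
      (Filter.Eventually.of_forall fun x => hM _)
  calc W ^ 2 * (2 * r) ^ N = ∫ _ in Q, W ^ 2 := by
        rw [setIntegral_const, hQv, smul_eq_mul, mul_comm]
    _ ≤ ∫ x in Q, w (WithLp.toLp 2 x) ^ 2 := by
        refine setIntegral_mono_on ?_ (hint.mono_set hsub) hQm fun x hx => ?_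
        · refine integrableOn_const (hs := ?_) (hC := ?_)
          · rw [hQ, Real.volume_pi_Ioc]
            exact (ENNReal.prod_lt_top fun i _ => ENNReal.ofReal_lt_top).ne
          · exact ENNReal.coe_ne_top
        · have h1 : ‖(WithLp.toLp 2 x : V N) - x0‖ ≤ (N + 1) * r := by
            have h2 : (WithLp.toLp 2 x : V N) - x0 = WithLp.toLp 2 (fun i => x i - x0 i) := by
              ext i; rfl
            rw [h2]
            refine norm_toLp_le _ hr.le fun i => ?_
            have := hx i (mem_univ i)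
            rw [abs_le]
            constructor
            · have := this.1; linarith
            · have := this.2; linarith
          have h3 := h _ h1
          calc W ^ 2 ≤ |w (WithLp.toLp 2 x)| ^ 2 := pow_le_pow_left₀ hW h3 2
            _ = _ := sq_abs _
    _ ≤ _ := setIntegral_mono_set hint (Filter.Eventually.of_forall fun x => sq_nonneg _)
        (Filter.Eventually.of_forall hsub)

/-! ### the Schauder estimate -/

theorem P2_eq_PP (S : Matrix (Fin N) (Fin N) ℝ) {w : V N → ℝ} (hw : SP w) (x : V N) :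
    P2 (fun _ => S) w x = PP S w x := by
  unfold P2 PP
  refine Finset.sum_congr rfl fun i _ => Finset.sum_congr rfl fun j _ => ?_
  rw [D2_eq hw]

/-- **Schauder estimate on the torus.** -/
theorem torus_schauder (N : ℕ) {a hi : ℝ} (ha : 0 < a) (ha1 : a < 1) (hhi : 1 ≤ hi) :
    ∃ C : ℝ, 0 < C ∧ ∀ S : Matrix (Fin N) (Fin N) ℝ, Ell 1 hi S → ∀ w : V N → ℝ, SP w → mn w = 0 →
      ∀ B : ℝ, HO a B univ (PP S w) →
        HO a (C * B) univ w ∧ HO a (C * B) univ (fderiv ℝ w) ∧
          HO a (C * B) univ (fderiv ℝ (fderiv ℝ w)) := by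
  obtain ⟨C0, hC0, H⟩ := Crest.Agent.R273.SchC_152.int_schauder N ha ha1 one_pos hhi hi
    (R := 1) one_pos le_rfl
  set C1 : ℝ := max C0 1 with hC1
  have hC1' : 1 ≤ C1 := le_max_right _ _
  set r : ℝ := 1 / (4 * C1 * (N + 1)) with hr
  have hr0 : 0 < r := by positivity
  have hr1 : r ≤ 1 / 4 := by
    rw [hr]
    refine one_div_le_one_div_of_le (by norm_num) ?_
    have hN : (0 : ℝ) ≤ N := Nat.cast_nonneg N
    nlinarith
  set q : ℝ := (2 * r) ^ N with hq
  have hq0 : 0 < q := by positivity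
  have hq1 : q ≤ 1 := pow_le_one₀ (by positivity) (by linarith)
  refine ⟨4 * (C1 * (1 + 2 / q)), by positivity, fun S hS w hw hm B hB => ?_⟩
  have hB0 : 0 ≤ B := hB.nonneg (mem_univ 0)
  have hw2 : ContDiff ℝ 2 w := by exact_mod_cast contDiff_infty.1 hw.sm 2
  -- the maximum
  obtain ⟨x0, hx0⟩ := Per.exists_max (f := fun x => |w x|)
    (fun k x => by show |w (x + kv k)| = |w x|; rw [hw.per k x]) hw.cont.abs
  set W : ℝ := |w x0| with hWdef
  have hW0 : 0 ≤ W := abs_nonneg _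
  obtain ⟨V2, hV2⟩ := hw.fderiv.fderiv.ho ha.le ha1.le
  have key : ∀ x : V N, HO a (C1 * (B + W)) (closedBall x (1 / 2)) (D2 w) ∧
      LB a (C1 * (B + W)) (closedBall x (1 / 2)) w := by
    intro x
    have h := H x (fun _ => S) (fun _ _ => hS) (fun i j => ?_) w B W hw2
      ⟨V2, hV2.subset (subset_univ _)⟩
      ((hB.subset (subset_univ _)).congr fun y _ => P2_eq_PP S hw y) (fun y _ => hx0 y)
    · have h4 : C0 * (B + W) ≤ C1 * (B + W) :=
        mul_le_mul_of_nonneg_right (le_max_left _ _) (by positivity)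
      exact ⟨h.1.mono h4, fun x hx => (h.2.h0 x hx).trans h4,
        fun x hx y hy => (h.2.h1 x hx y hy).trans
          (mul_le_mul_of_nonneg_right h4 (Real.rpow_nonneg (norm_nonneg _) _)),
        fun x hx => (h.2.d0 x hx).trans h4,
        fun x hx y hy => (h.2.d1 x hx y hy).trans
          (mul_le_mul_of_nonneg_right h4 (Real.rpow_nonneg (norm_nonneg _) _))⟩
    · refine ⟨fun y _ => ?_, fun y _ z _ => ?_⟩
      · rw [Real.norm_eq_abs]; exact Crest.Agent.R238.Apr.Ell.entry hS zero_le_one i j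
      · rw [sub_self, norm_zero]
        exact mul_nonneg (by linarith) (Real.rpow_nonneg (norm_nonneg _) _)
  -- the sup bound
  have hWB : W ≤ 2 / q * B := by
    have h2q : 2 ≤ 2 / q := by rw [le_div_iff₀ hq0]; linarith
    rcases le_total W B with hc | hc
    · nlinarith
    have hG : ∀ y : V N, ‖fderiv ℝ w y‖ ≤ 2 * C1 * W := fun y => by
      refine ((key y).2.d0 y (mem_closedBall_self (by norm_num))).trans ?_
      nlinarith
    have hlip : ∀ y : V N, |w y - w x0| ≤ 2 * C1 * W * ‖y - x0‖ := fun y =>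
      convex_univ.norm_image_sub_le_of_norm_fderiv_le (𝕜 := ℝ) (fun z _ => hw.diff z)
        (fun z _ => hG z) (mem_univ x0) (mem_univ y)
    have h3 : (W / 2) ^ 2 * q ≤ B ^ 2 := by
      refine (l2_lower (x0 := x0) hw hr0 (by linarith) (by positivity) fun y hy => ?_).trans
        (l2_bound hS hw hm (B := B) fun x => hB.bdd x (mem_univ x))
      have h4 := hlip y
      have h5 : 2 * C1 * W * ‖y - x0‖ ≤ W / 2 := by
        calc 2 * C1 * W * ‖y - x0‖ ≤ 2 * C1 * W * ((N + 1) * r) :=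
              mul_le_mul_of_nonneg_left hy (by positivity)
          _ = W / 2 := by rw [hr]; field_simp; ring
      have h6 : W - |w y| ≤ |w y - w x0| := by
        have := abs_sub_abs_le_abs_sub (w x0) (w y)
        rwa [abs_sub_comm] at this
      linarith
    have h7 : (W / 2) ^ 2 ≤ (B / q) ^ 2 := by
      rw [div_pow B, le_div_iff₀ (by positivity)]
      calc (W / 2) ^ 2 * q ^ 2 = (W / 2) ^ 2 * q * q := by ring
        _ ≤ B ^ 2 * q := mul_le_mul_of_nonneg_right h3 hq0.le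
        _ ≤ B ^ 2 := mul_le_of_le_one_right (sq_nonneg _) hq1
    have h8 := (sq_le_sq₀ (by positivity) (by positivity)).1 h7
    have h9 : 2 / q * B = 2 * (B / q) := by ring
    rw [h9]; linarith
  have hQ : C1 * (B + W) ≤ C1 * (1 + 2 / q) * B := by
    have : B + W ≤ (1 + 2 / q) * B := by linarith
    calc C1 * (B + W) ≤ C1 * ((1 + 2 / q) * B) := mul_le_mul_of_nonneg_left this (by positivity)
      _ = _ := by ring
  have e : 4 * (C1 * (1 + 2 / q)) * B = 4 * (C1 * (1 + 2 / q) * B) := by ring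
  rw [e]
  refine ⟨ho_glob ha ha1.le fun x => ⟨fun y hy => ?_, fun y hy z hz => ?_⟩,
    ho_glob ha ha1.le fun x => ⟨fun y hy => ?_, fun y hy z hz => ?_⟩,
    ho_glob ha ha1.le fun x => (key x).1.mono hQ⟩
  · exact ((key x).2.h0 y hy).trans hQ
  · exact ((key x).2.h1 y hy z hz).trans
      (mul_le_mul_of_nonneg_right hQ (Real.rpow_nonneg (norm_nonneg _) _))
  · exact ((key x).2.d0 y hy).trans hQ
  · exact ((key x).2.d1 y hy z hz).trans
      (mul_le_mul_of_nonneg_right hQ (Real.rpow_nonneg (norm_nonneg _) _))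

end

end Crest.Agent.R281.Mc673
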