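import Crest.Agent.R281.Mc2_673

/-!
# R281 / LAGT (helper673), part 3

The first order elliptic system `∂_j h_k - ∂_k h_j = β_jk`, `∑ S_ij ∂_i h_j = f` on the torus:
existence of a mean zero solution and its `C^{1,a}` estimate.
-/

set_option autoImplicit false

open MeasureTheory Set Metric
open scoped ContDiff

namespace Crest.Agent.R281.Mc673

open Crest.Agent.R238 (Ell)
open Crest.Agent.R238.Sch (ee D2 LB)
open Crest.Agent.R273.SchA_152 (HO)

noncomputable section

variable {N : ℕ}

/-! ### `HO` calculus -/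

section HOc

variable {X F G : Type*} [NormedAddCommGroup X] [NormedAddCommGroup F] [NormedAddCommGroup G]
  [NormedSpace ℝ F] [NormedSpace ℝ G] {a M M' : ℝ} {s : Set X}

theorem ho_zero (hM : 0 ≤ M) : HO a M s (fun _ : X => (0 : F)) where
  bdd x _ := by simpa using hM
  hol x _ y _ := by simpa using mul_nonneg hM (Real.rpow_nonneg (norm_nonneg _) _)

theorem ho_const (c : F) (hM : ‖c‖ ≤ M) : HO a M s (fun _ : X => c) where
  bdd x _ := hM
  hol x _ y _ := by
    simpa using mul_nonneg ((norm_nonneg c).trans hM) (Real.rpow_nonneg (norm_nonneg _) _)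

theorem HO.sub' {f g : X → F} (hf : HO a M s f) (hg : HO a M' s g) :
    HO a (M + M') s (fun x => f x - g x) := by
  simpa [sub_eq_add_neg] using hf.add hg.neg

theorem HO.sum {ι : Type*} (t : Finset ι) {f : ι → X → F} {C : ι → ℝ}
    (h : ∀ i ∈ t, HO a (C i) s (f i)) : HO a (∑ i ∈ t, C i) s (fun x => ∑ i ∈ t, f i x) := by
  classical
  induction t using Finset.induction_on with
  | empty => simpa using ho_zero (X := X) (F := F) (a := a) (s := s) le_rfl
  | insert i t hi ih =>
    have h1 := (h i (Finset.mem_insert_self _ _)).add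
      (ih (fun j hj => h j (Finset.mem_insert_of_mem hj)))
    simpa [Finset.sum_insert hi] using h1

/-- linear image -/
theorem HO.clm {f : X → F} (hf : HO a M s f) (L : F →L[ℝ] G) {c : ℝ} (hL : ‖L‖ ≤ c)
    (hM : 0 ≤ M) : HO a (c * M) s (fun x => L (f x)) where
  bdd x hx := (L.le_opNorm _).trans (mul_le_mul hL (hf.bdd x hx) (norm_nonneg _)
    ((norm_nonneg _).trans hL))
  hol x hx y hy := by
    rw [← map_sub, mul_assoc]
    exact (L.le_opNorm _).trans (mul_le_mul hL (hf.hol x hx y hy) (norm_nonneg _)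
      ((norm_nonneg _).trans hL))

/-- product of an operator valued and a vector valued function -/
theorem HO.app {T : X → F →L[ℝ] G} {u : X → F} (hT : HO a M s T) (hu : HO a M' s u)
    (hM : 0 ≤ M) (hM' : 0 ≤ M') : HO a (2 * (M * M')) s (fun x => T x (u x)) where
  bdd x hx := by
    have h1 := (T x).le_opNorm (u x)
    have h2 : ‖T x‖ * ‖u x‖ ≤ M * M' := mul_le_mul (hT.bdd x hx) (hu.bdd x hx) (norm_nonneg _) hM
    have h3 : 0 ≤ M * M' := mul_nonneg hM hM'
    linarith
  hol x hx y hy := by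
    have e : T x (u x) - T y (u y) = (T x - T y) (u x) + T y (u x - u y) := by
      simp only [ContinuousLinearMap.sub_apply, map_sub]; abel
    rw [e]
    refine (norm_add_le _ _).trans ?_
    have hr : 0 ≤ ‖x - y‖ ^ a := Real.rpow_nonneg (norm_nonneg _) _
    have h1 : ‖(T x - T y) (u x)‖ ≤ (M * ‖x - y‖ ^ a) * M' :=
      ((T x - T y).le_opNorm _).trans (mul_le_mul (hT.hol x hx y hy) (hu.bdd x hx) (norm_nonneg _)
        (mul_nonneg hM hr))
    have h2 : ‖T y (u x - u y)‖ ≤ M * (M' * ‖x - y‖ ^ a) :=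
      ((T y).le_opNorm _).trans (mul_le_mul (hT.bdd y hy) (hu.hol x hx y hy) (norm_nonneg _) hM)
    linarith

end HOc

/-! ### linearity of `PP` -/

theorem PP_add (S : Matrix (Fin N) (Fin N) ℝ) {f g : V N → ℝ} (hf : SP f) (hg : SP g) (x : V N) :
    PP S (fun x => f x + g x) x = PP S f x + PP S g x := by
  unfold PP
  rw [← Finset.sum_add_distrib]
  refine Finset.sum_congr rfl fun i _ => ?_
  rw [← Finset.sum_add_distrib]
  refine Finset.sum_congr rfl fun j _ => ?_
  have e : dr j (fun x => f x + g x) = fun x => dr j f x + dr j g x := funext fun x =>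
    dr_add hf hg j x
  rw [e, dr_add (hf.dr j) (hg.dr j)]; ring

theorem PP_neg (S : Matrix (Fin N) (Fin N) ℝ) (f : V N → ℝ) (x : V N) :
    PP S (fun x => - f x) x = - PP S f x := by
  unfold PP
  rw [← Finset.sum_neg_distrib]
  refine Finset.sum_congr rfl fun i _ => ?_
  rw [← Finset.sum_neg_distrib]
  refine Finset.sum_congr rfl fun j _ => ?_
  have e : dr j (fun x => - f x) = fun x => - dr j f x := funext fun x => dr_neg j x
  rw [e, dr_neg]; ring

theorem PP_sub (S : Matrix (Fin N) (Fin N) ℝ) {f g : V N → ℝ} (hf : SP f) (hg : SP g) (x : V N) :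
    PP S (fun x => f x - g x) x = PP S f x - PP S g x := by
  have := PP_add S hf hg.neg x
  rw [PP_neg] at this
  simpa [sub_eq_add_neg] using this

theorem PP_smul (S : Matrix (Fin N) (Fin N) ℝ) {f : V N → ℝ} (hf : SP f) (c : ℝ) (x : V N) :
    PP S (fun x => c * f x) x = c * PP S f x := by
  unfold PP
  rw [Finset.mul_sum]
  refine Finset.sum_congr rfl fun i _ => ?_
  rw [Finset.mul_sum]
  refine Finset.sum_congr rfl fun j _ => ?_
  have e : dr j (fun x => c * f x) = fun x => c * dr j f x := funext fun x => dr_const_mul hf c j x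
  rw [e, dr_const_mul (hf.dr j)]; ring

theorem SP.cmul {f : V N → ℝ} (hf : SP f) (c : ℝ) : SP (fun x => c * f x) := by
  simpa using hf.smul c

theorem PP_sum (S : Matrix (Fin N) (Fin N) ℝ) {ι : Type*} (t : Finset ι) {f : ι → V N → ℝ}
    (hf : ∀ i, SP (f i)) (x : V N) :
    PP S (fun x => ∑ i ∈ t, f i x) x = ∑ i ∈ t, PP S (f i) x := by
  classical
  induction t using Finset.induction_on with
  | empty =>
    simp only [Finset.sum_empty]
    have := PP_smul S (SP.const (N := N) (0 : ℝ)) 0 x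
    simpa using this
  | insert i t hi ih =>
    rw [Finset.sum_insert hi, ← ih]
    rw [← PP_add S (hf i) (SP.sum t fun j _ => hf j)]
    congr 1
    funext y
    rw [Finset.sum_insert hi]

theorem PP_dr (S : Matrix (Fin N) (Fin N) ℝ) {f : V N → ℝ} (hf : SP f) (k : Fin N) (x : V N) :
    PP S (dr k f) x = dr k (PP S f) x := by
  have e : dr k (PP S f) x = ∑ i, dr k (fun x => ∑ j, S i j * dr i (dr j f) x) x :=
    dr_sum _ (fun i _ => SP.sum _ fun j _ => ((hf.dr j).dr i).cmul _) k x
  rw [e]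
  unfold PP
  refine Finset.sum_congr rfl fun i _ => ?_
  rw [dr_sum _ (fun j _ => ((hf.dr j).dr i).cmul _) k x]
  refine Finset.sum_congr rfl fun j _ => ?_
  rw [dr_const_mul ((hf.dr j).dr i), dr_comm (hf.dr j) k i]
  have e2 : dr j (dr k f) = dr k (dr j f) := funext fun x => dr_comm hf j k x
  rw [e2]

/-! ### component version of the system -/

/-- `∑ S_ij ∂_i w_j` -/
def dS (S : Matrix (Fin N) (Fin N) ℝ) (w : Fin N → V N → ℝ) (x : V N) : ℝ :=
  ∑ i, ∑ j, S i j * dr i (w j) x

section dSsec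

variable (S : Matrix (Fin N) (Fin N) ℝ) {w : Fin N → V N → ℝ} (hw : ∀ j, SP (w j))

include hw

theorem sp_dS1 (i : Fin N) : SP (fun x => ∑ j, S i j * dr i (w j) x) :=
  SP.sum _ fun j _ => ((hw j).dr i).cmul _

theorem sp_dS : SP (dS S w) := SP.sum _ fun i _ => sp_dS1 S hw i

theorem mn_dS : mn (dS S w) = 0 := by
  have h1 : mn (dS S w) = ∑ i, mn (fun x => ∑ j, S i j * dr i (w j) x) :=
    mn_sum _ fun i _ => sp_dS1 S hw i
  rw [h1]
  refine Finset.sum_eq_zero fun i _ => ?_
  have h2 : mn (fun x => ∑ j, S i j * dr i (w j) x) = ∑ j, mn (fun x => S i j * dr i (w j) x) :=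
    mn_sum _ fun j _ => ((hw j).dr i).cmul _
  rw [h2]
  refine Finset.sum_eq_zero fun j _ => ?_
  rw [mn_mul, mn_dr (hw j), mul_zero]

theorem dr_dS (l : Fin N) (x : V N) : dr l (dS S w) x = dS S (fun j => dr l (w j)) x := by
  have h1 : dr l (dS S w) x = ∑ i, dr l (fun x => ∑ j, S i j * dr i (w j) x) x :=
    dr_sum _ (fun i _ => sp_dS1 S hw i) l x
  rw [h1]
  unfold dS
  refine Finset.sum_congr rfl fun i _ => ?_
  have h2 : dr l (fun x => ∑ j, S i j * dr i (w j) x) x =
      ∑ j, dr l (fun x => S i j * dr i (w j) x) x :=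
    dr_sum _ (fun j _ => ((hw j).dr i).cmul _) l x
  rw [h2]
  refine Finset.sum_congr rfl fun j _ => ?_
  rw [dr_const_mul ((hw j).dr i), dr_comm (hw j)]

theorem PP_dS (x : V N) : PP S (dS S w) x = dS S (fun j => PP S (w j)) x := by
  have h1 : PP S (dS S w) x = ∑ i, PP S (fun x => ∑ j, S i j * dr i (w j) x) x :=
    PP_sum S _ (fun i => sp_dS1 S hw i) x
  rw [h1]
  unfold dS
  refine Finset.sum_congr rfl fun i _ => ?_
  have h2 : PP S (fun x => ∑ j, S i j * dr i (w j) x) x =
      ∑ j, PP S (fun x => S i j * dr i (w j) x) x :=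
    PP_sum S _ (fun j => ((hw j).dr i).cmul _) x
  rw [h2]
  refine Finset.sum_congr rfl fun j _ => ?_
  rw [PP_smul S ((hw j).dr i), PP_dr S (hw j)]

end dSsec

theorem dS_sub (S : Matrix (Fin N) (Fin N) ℝ) {w v : Fin N → V N → ℝ} (hw : ∀ j, SP (w j))
    (hv : ∀ j, SP (v j)) (x : V N) :
    dS S (fun j x => w j x - v j x) x = dS S w x - dS S v x := by
  unfold dS
  rw [← Finset.sum_sub_distrib]
  refine Finset.sum_congr rfl fun i _ => ?_
  rw [← Finset.sum_sub_distrib]
  refine Finset.sum_congr rfl fun j _ => ?_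
  rw [dr_sub (hw j) (hv j)]; ring

/-- `∑ S_ij ∂_i ∂_k u ` over `j = k` contracted: `dS` of the gradient is `PP` -/
theorem dS_grad (S : Matrix (Fin N) (Fin N) ℝ) (u : V N → ℝ) (x : V N) :
    dS S (fun j => dr j u) x = PP S u x := rfl

/-- the solution in components -/
def hk (S : Matrix (Fin N) (Fin N) ℝ) (w : Fin N → Fin N → V N → ℝ) (u : V N → ℝ) (k : Fin N)
    (x : V N) : ℝ := dS S (fun j => w j k) x + dr k u x

theorem sp_hk (S : Matrix (Fin N) (Fin N) ℝ) {w : Fin N → Fin N → V N → ℝ} {u : V N → ℝ}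
    (hw : ∀ j k, SP (w j k)) (hu : SP u) (k : Fin N) : SP (hk S w u k) :=
  (sp_dS S fun j => hw j k).add (hu.dr k)

theorem mn_hk (S : Matrix (Fin N) (Fin N) ℝ) {w : Fin N → Fin N → V N → ℝ} {u : V N → ℝ}
    (hw : ∀ j k, SP (w j k)) (hu : SP u) (k : Fin N) : mn (hk S w u k) = 0 := by
  have h1 : mn (hk S w u k) = mn (dS S fun j => w j k) + mn (dr k u) :=
    mn_add (sp_dS S fun j => hw j k) (hu.dr k)
  rw [h1, mn_dS S fun j => hw j k, mn_dr hu, add_zero]

theorem dr_hk (S : Matrix (Fin N) (Fin N) ℝ) {w : Fin N → Fin N → V N → ℝ} {u : V N → ℝ}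
    (hw : ∀ j k, SP (w j k)) (hu : SP u) (k l : Fin N) (x : V N) :
    dr l (hk S w u k) x = dS S (fun j => dr l (w j k)) x + dr l (dr k u) x := by
  have h1 : dr l (hk S w u k) x = dr l (dS S fun j => w j k) x + dr l (dr k u) x :=
    dr_add (sp_dS S fun j => hw j k) (hu.dr k) l x
  rw [h1, dr_dS S fun j => hw j k]

/-- existence in components -/
theorem comp_exists {hi : ℝ} {S : Matrix (Fin N) (Fin N) ℝ} (hS : Ell 1 hi S)
    {β : Fin N → Fin N → V N → ℝ} {f : V N → ℝ} (hβ : ∀ j k, SP (β j k)) (hf : SP f)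
    (anti : ∀ j k x, β j k x = - β k j x)
    (closed : ∀ i j k x, dr i (β j k) x + dr j (β k i) x + dr k (β i j) x = 0)
    (hβ0 : ∀ j k, mn (β j k) = 0) (hf0 : mn f = 0) :
    ∃ h : Fin N → V N → ℝ, (∀ k, SP (h k)) ∧ (∀ k, mn (h k) = 0) ∧
      (∀ j k x, dr j (h k) x - dr k (h j) x = β j k x) ∧
      ∀ x, dS S h x = f x := by
  choose w hw hw0 hPw using fun j k => exists_sol hS (hβ j k) (hβ0 j k)
  obtain ⟨u, hu, hu0, hPu⟩ := exists_sol hS hf hf0
  have hPwf : ∀ j k, PP S (w j k) = β j k := fun j k => funext (hPw j k)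
  have wanti : ∀ j k x, w j k x = - w k j x := by
    intro j k x
    have h1 : SP (fun x => w j k x + w k j x) := (hw j k).add (hw k j)
    have h2 := uniq hS h1 (by rw [mn_add (hw j k) (hw k j), hw0, hw0, add_zero]) (fun x => by
      rw [PP_add S (hw j k) (hw k j), hPw, hPw, anti j k]; ring) x
    linarith
  have wclosed : ∀ i j k x, dr i (w j k) x + dr j (w k i) x + dr k (w i j) x = 0 := by
    intro i j k
    have s1 := (hw j k).dr i
    have s2 := (hw k i).dr j
    have s3 := (hw i j).dr k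
    refine uniq hS ((s1.add s2).add s3) ?_ fun x => ?_
    · rw [mn_add (s1.add s2) s3, mn_add s1 s2, mn_dr (hw j k), mn_dr (hw k i), mn_dr (hw i j)]
      ring
    · rw [PP_add S (s1.add s2) s3, PP_add S s1 s2, PP_dr S (hw j k), PP_dr S (hw k i),
        PP_dr S (hw i j), hPwf, hPwf, hPwf, closed]
  have wantif : ∀ j k, w j k = fun x => - w k j x := fun j k => funext (wanti j k)
  refine ⟨hk S w u, sp_hk S hw hu, mn_hk S hw hu, fun l k x => ?_, fun x => ?_⟩
  · -- `∂_l h_k - ∂_k h_l = β_lk`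
    rw [dr_hk S hw hu, dr_hk S hw hu, dr_comm hu l k, ← hPw l k x, ← dS_grad]
    have h1 : (fun j => dr j (w l k)) = fun j x => dr l (w j k) x - dr k (w j l) x := by
      funext j y
      have h2 := wclosed j l k y
      have h3 : dr l (w k j) y = - dr l (w j k) y := by rw [wantif k j, dr_neg]
      rw [h3] at h2
      linarith
    rw [h1, dS_sub S (fun j => (hw j k).dr l) fun j => (hw j l).dr k]
    ring
  · -- `∑ S_lk ∂_l h_k = f`
    rw [← hPu x]
    have e1 : dS S (hk S w u) x =
        (∑ l, ∑ k, ∑ i, ∑ j, S l k * S i j * dr i (dr l (w j k)) x) + PP S u x := by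
      unfold PP
      rw [← Finset.sum_add_distrib]
      refine Finset.sum_congr rfl fun l _ => ?_
      rw [← Finset.sum_add_distrib]
      refine Finset.sum_congr rfl fun k _ => ?_
      rw [dr_hk S hw hu, mul_add]
      congr 1
      unfold dS
      rw [Finset.mul_sum]
      refine Finset.sum_congr rfl fun i _ => ?_
      rw [Finset.mul_sum]
      refine Finset.sum_congr rfl fun j _ => ?_
      ring
    rw [e1]
    have e2 : ∑ l, ∑ k, ∑ i, ∑ j, S l k * S i j * dr i (dr l (w j k)) x =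
        - ∑ l, ∑ k, ∑ i, ∑ j, S l k * S i j * dr i (dr l (w j k)) x := by
      conv_lhs =>
        rw [show (∑ l, ∑ k, ∑ i, ∑ j, S l k * S i j * dr i (dr l (w j k)) x) =
          ∑ p : Fin N × Fin N, ∑ q : Fin N × Fin N,
            S p.1 p.2 * S q.1 q.2 * dr q.1 (dr p.1 (w q.2 p.2)) x by
          simp only [Fintype.sum_prod_type], Finset.sum_comm]
      rw [← Finset.sum_neg_distrib]
      rw [Fintype.sum_prod_type]
      refine Finset.sum_congr rfl fun l _ => ?_
      rw [← Finset.sum_neg_distrib]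
      refine Finset.sum_congr rfl fun k _ => ?_
      rw [Fintype.sum_prod_type, ← Finset.sum_neg_distrib]
      refine Finset.sum_congr rfl fun i _ => ?_
      rw [← Finset.sum_neg_distrib]
      refine Finset.sum_congr rfl fun j _ => ?_
      show S i j * S l k * dr l (dr i (w k j)) x = -(S l k * S i j * dr i (dr l (w j k)) x)
      have h3 : dr i (w k j) = fun y => - dr i (w j k) y := by
        funext y
        rw [wantif k j, dr_neg]
      rw [h3, dr_neg, dr_comm (hw j k)]; ring
    linarith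

/-- the representation formula -/
theorem comp_repr {hi : ℝ} {S : Matrix (Fin N) (Fin N) ℝ} (hS : Ell 1 hi S)
    {h : Fin N → V N → ℝ} (hh : ∀ k, SP (h k)) (hh0 : ∀ k, mn (h k) = 0)
    {w : Fin N → Fin N → V N → ℝ} {u : V N → ℝ} (hw : ∀ j k, SP (w j k)) (hu : SP u)
    (hPw : ∀ j k x, PP S (w j k) x = dr j (h k) x - dr k (h j) x)
    (hPu : ∀ x, PP S u x = dS S h x) (k : Fin N) (x : V N) :
    h k x = hk S w u k x := by
  have key : ∀ x, PP S (fun x => h k x - hk S w u k x) x = 0 := by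
    intro x
    rw [PP_sub S (hh k) (sp_hk S hw hu k)]
    have e1 : PP S (hk S w u k) x = PP S (dS S fun j => w j k) x + PP S (dr k u) x :=
      PP_add S (sp_dS S fun j => hw j k) (hu.dr k) x
    have e2 : PP S u = dS S h := funext hPu
    have e3 : (fun j => PP S (w j k)) = fun j x => dr j (h k) x - dr k (h j) x :=
      funext fun j => funext (hPw j k)
    rw [e1, PP_dS S fun j => hw j k, PP_dr S hu, e2, e3,
      dS_sub S (fun j => (hh k).dr j) fun j => (hh j).dr k, dS_grad, dr_dS S hh]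
    ring
  have := uniq hS ((hh k).sub (sp_hk S hw hu k)) (by
    rw [mn_sub (hh k) (sp_hk S hw hu k), hh0, mn_hk S hw hu, sub_zero]) key x
  linarith

end

end Crest.Agent.R281.Mc673
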