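import Crest.Agent.R281.Mc3_673

/-!
# R281 / LAGT (helper673), part 4

Vector form of the first order system, `C^{1,a}` estimate of its solution.
-/

set_option autoImplicit false

open MeasureTheory Set Metric
open scoped ContDiff

namespace Crest.Agent.R281.Mc673

open Crest.Agent.R238 (Ell)
open Crest.Agent.R238.Sch (ee D2 LB sum_ee norm_ee)
open Crest.Agent.R273.SchA_152 (HO)

noncomputable section

variable {N : ℕ}

/-- component of a vector field -/
def co (h : V N → V N) (k : Fin N) (x : V N) : ℝ := h x k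

/-- vector field from components -/
def mkv (h : Fin N → V N → ℝ) (x : V N) : V N := WithLp.toLp 2 fun k => h k x

theorem co_mkv (h : Fin N → V N → ℝ) (k : Fin N) : co (mkv h) k = h k := rfl

theorem mkv_co (h : V N → V N) : mkv (co h) = h := rfl

theorem sp_co {h : V N → V N} (hh : SP h) (k : Fin N) : SP (co h k) :=
  ⟨(EuclideanSpace.proj k : V N →L[ℝ] ℝ).contDiff.comp hh.sm, fun m x => by
    show (h (x + kv m)) k = (h x) k
    rw [hh.per m x]⟩

theorem sp_mkv {h : Fin N → V N → ℝ} (hh : ∀ k, SP (h k)) : SP (mkv h) :=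
  ⟨(PiLp.continuousLinearEquiv 2 ℝ (fun _ : Fin N => ℝ)).symm.contDiff.comp
    (contDiff_pi.2 fun k => (hh k).sm), fun m x => by
    show WithLp.toLp 2 (fun k => h k (x + kv m)) = WithLp.toLp 2 (fun k => h k x)
    congr 1
    funext k
    exact (hh k).per m x⟩

theorem fderiv_co {h : V N → V N} {x : V N} (hh : DifferentiableAt ℝ h x) (k : Fin N) (u : V N) :
    fderiv ℝ (co h k) x u = (fderiv ℝ h x u) k := by
  have h1 := ((EuclideanSpace.proj k : V N →L[ℝ] ℝ).hasFDerivAt.comp x hh.hasFDerivAt).fderiv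
  have h2 : fderiv ℝ (co h k) x = (EuclideanSpace.proj k : V N →L[ℝ] ℝ).comp (fderiv ℝ h x) := h1
  rw [h2]; rfl

theorem dr_co {h : V N → V N} {x : V N} (hh : DifferentiableAt ℝ h x) (j k : Fin N) :
    dr j (co h k) x = (dr j h x) k := fderiv_co hh k _

theorem norm_le_sum (v : V N) : ‖v‖ ≤ ∑ k, |v k| := by
  conv_lhs => rw [sum_ee v]
  refine (norm_sum_le _ _).trans (Finset.sum_le_sum fun i _ => ?_)
  rw [norm_smul, norm_ee, mul_one, Real.norm_eq_abs]

theorem abs_co_le (v : V N) (k : Fin N) : |v k| ≤ ‖v‖ := PiLp.norm_apply_le v k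

theorem ho_of_co {a B : ℝ} {s : Set (V N)} {h : V N → V N} (hB : 0 ≤ B)
    (H : ∀ k, HO a B s (co h k)) : HO a (N * B) s h where
  bdd x hx := by
    refine (norm_le_sum _).trans ((Finset.sum_le_sum fun k _ => (H k).bdd x hx).trans ?_)
    simp
  hol x hx y hy := by
    refine (norm_le_sum _).trans ((Finset.sum_le_sum fun k _ => (H k).hol x hx y hy).trans ?_)
    simp [mul_assoc]

theorem opNorm_le_sum {X : Type*} [NormedAddCommGroup X] [NormedSpace ℝ X] (L : X →L[ℝ] V N)
    {c : Fin N → ℝ} (hc : ∀ k, ∀ u, |(L u) k| ≤ c k * ‖u‖) (h0 : ∀ k, 0 ≤ c k) :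
    ‖L‖ ≤ ∑ k, c k := by
  refine L.opNorm_le_bound (Finset.sum_nonneg fun k _ => h0 k) fun u => ?_
  refine (norm_le_sum _).trans ?_
  rw [Finset.sum_mul]
  exact Finset.sum_le_sum fun k _ => hc k u

theorem ho_fderiv_of_co {a B : ℝ} {h : V N → V N} (hh : SP h) (hB : 0 ≤ B)
    (H : ∀ k, HO a B univ (fderiv ℝ (co h k))) : HO a (N * B) univ (fderiv ℝ h) where
  bdd x _ := by
    refine (opNorm_le_sum (c := fun _ => B) _ (fun k u => ?_) fun _ => hB).trans (by simp)
    rw [← fderiv_co (hh.diff x)]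
    exact ((fderiv ℝ (co h k) x).le_opNorm u).trans
      (mul_le_mul_of_nonneg_right ((H k).bdd x (mem_univ x)) (norm_nonneg _))
  hol x _ y _ := by
    refine (opNorm_le_sum (c := fun _ => B * ‖x - y‖ ^ a) _ (fun k u => ?_) fun _ =>
      mul_nonneg hB (Real.rpow_nonneg (norm_nonneg _) _)).trans (by simp [mul_assoc])
    have e : ((fderiv ℝ h x - fderiv ℝ h y) u) k =
        (fderiv ℝ (co h k) x - fderiv ℝ (co h k) y) u := by
      show (fderiv ℝ h x u - fderiv ℝ h y u) k = fderiv ℝ (co h k) x u - fderiv ℝ (co h k) y u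
      rw [fderiv_co (hh.diff x), fderiv_co (hh.diff y)]; rfl
    rw [e]
    exact ((fderiv ℝ (co h k) x - fderiv ℝ (co h k) y).le_opNorm u).trans
      (mul_le_mul_of_nonneg_right ((H k).hol x (mem_univ x) y (mem_univ y)) (norm_nonneg _))

theorem fderiv_dr {f : V N → ℝ} (hf : SP f) (i : Fin N) (x u : V N) :
    fderiv ℝ (dr i f) x u = fderiv ℝ (fderiv ℝ f) x u (ee i) := by
  show fderiv ℝ (fun y => fderiv ℝ f y (ee i)) x u = _
  rw [fderiv_clm_apply (hf.fderiv.diff x) (differentiableAt_const _)]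
  simp

theorem ho_dr {a M : ℝ} {f : V N → ℝ} (h : HO a M univ (fderiv ℝ f)) (i : Fin N) :
    HO a M univ (dr i f) where
  bdd x hx := by
    refine ((fderiv ℝ f x).le_opNorm _).trans ?_
    rw [norm_ee, mul_one]; exact h.bdd x hx
  hol x hx y hy := by
    refine ((fderiv ℝ f x - fderiv ℝ f y).le_opNorm (ee i)).trans ?_
    rw [norm_ee, mul_one]; exact h.hol x hx y hy

theorem ho_fderiv_dr {a M : ℝ} {f : V N → ℝ} (hf : SP f)
    (h : HO a M univ (fderiv ℝ (fderiv ℝ f))) (i : Fin N) :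
    HO a M univ (fderiv ℝ (dr i f)) where
  bdd x hx := by
    have h0 := h.bdd x hx
    refine ContinuousLinearMap.opNorm_le_bound _
      ((norm_nonneg (fderiv ℝ (fderiv ℝ f) x)).trans h0) fun u => ?_
    rw [fderiv_dr hf]
    refine ((fderiv ℝ (fderiv ℝ f) x).le_opNorm₂ u (ee i)).trans ?_
    rw [norm_ee, mul_one]
    exact mul_le_mul_of_nonneg_right h0 (norm_nonneg _)
  hol x hx y hy := by
    have h0 := h.hol x hx y hy
    refine ContinuousLinearMap.opNorm_le_bound _
      ((norm_nonneg (fderiv ℝ (fderiv ℝ f) x - fderiv ℝ (fderiv ℝ f) y)).trans h0) fun u => ?_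
    have e : (fderiv ℝ (dr i f) x - fderiv ℝ (dr i f) y) u =
        (fderiv ℝ (fderiv ℝ f) x - fderiv ℝ (fderiv ℝ f) y) u (ee i) := by
      show fderiv ℝ (dr i f) x u - fderiv ℝ (dr i f) y u = _
      rw [fderiv_dr hf, fderiv_dr hf]; rfl
    rw [e]
    refine ((fderiv ℝ (fderiv ℝ f) x - fderiv ℝ (fderiv ℝ f) y).le_opNorm₂ u (ee i)).trans ?_
    rw [norm_ee, mul_one]
    exact mul_le_mul_of_nonneg_right h0 (norm_nonneg _)

theorem HO.cmul {X : Type*} [NormedAddCommGroup X] {a M c c' : ℝ} {s : Set X} {f : X → ℝ}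
    (hf : HO a M s f) (hc : |c| ≤ c') : HO a (c' * M) s (fun x => c * f x) where
  bdd x hx := by
    rw [norm_mul, Real.norm_eq_abs c]
    exact mul_le_mul hc (hf.bdd x hx) (norm_nonneg _) ((abs_nonneg _).trans hc)
  hol x hx y hy := by
    rw [← mul_sub, norm_mul, mul_assoc, Real.norm_eq_abs c]
    exact mul_le_mul hc (hf.hol x hx y hy) (norm_nonneg _) ((abs_nonneg _).trans hc)

/-- vector form: existence -/
theorem sys_exists {hi : ℝ} {S : Matrix (Fin N) (Fin N) ℝ} (hS : Ell 1 hi S)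
    {β : Fin N → Fin N → V N → ℝ} {f : V N → ℝ} (hβ : ∀ j k, SP (β j k)) (hf : SP f)
    (anti : ∀ j k x, β j k x = - β k j x)
    (closed : ∀ i j k x, dr i (β j k) x + dr j (β k i) x + dr k (β i j) x = 0)
    (hβ0 : ∀ j k, mn (β j k) = 0) (hf0 : mn f = 0) :
    ∃ h : V N → V N, SP h ∧ (∀ k, mn (co h k) = 0) ∧
      (∀ j k x, dr j (co h k) x - dr k (co h j) x = β j k x) ∧
      ∀ x, dS S (co h) x = f x := by
  obtain ⟨h, h1, h2, h3, h4⟩ := comp_exists hS hβ hf anti closed hβ0 hf0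
  exact ⟨mkv h, sp_mkv h1, h2, h3, h4⟩

/-- vector form: the `C^{1,a}` estimate -/
theorem sys_est (N : ℕ) {a hi : ℝ} (ha : 0 < a) (ha1 : a < 1) (hhi : 1 ≤ hi) :
    ∃ C : ℝ, 0 < C ∧ ∀ S : Matrix (Fin N) (Fin N) ℝ, Ell 1 hi S → ∀ h : V N → V N, SP h →
      (∀ k, mn (co h k) = 0) → ∀ B : ℝ, 0 ≤ B →
      (∀ j k, HO a B univ (fun x => dr j (co h k) x - dr k (co h j) x)) →
      HO a B univ (dS S (co h)) →
        HO a (C * B) univ h ∧ HO a (C * B) univ (fderiv ℝ h) := by
  obtain ⟨C0, hC0, H⟩ := torus_schauder N ha ha1 hhi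
  set C1 : ℝ := (N * N * hi + 1) * C0 with hC1
  have hC1' : 0 < C1 := by positivity
  refine ⟨N * C1 + 1, by positivity, fun S hS h hh hh0 B hB hβ hf => ?_⟩
  have sph : ∀ k, SP (co h k) := sp_co hh
  have spβ : ∀ j k, SP (fun x => dr j (co h k) x - dr k (co h j) x) := fun j k =>
    ((sph k).dr j).sub ((sph j).dr k)
  have mβ : ∀ j k, mn (fun x => dr j (co h k) x - dr k (co h j) x) = 0 := fun j k => by
    rw [mn_sub ((sph k).dr j) ((sph j).dr k), mn_dr (sph k), mn_dr (sph j), sub_zero]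
  choose w hw hw0 hPw using fun j k => exists_sol hS (spβ j k) (mβ j k)
  obtain ⟨u, hu, hu0, hPu⟩ := exists_sol hS (sp_dS S sph) (mn_dS S sph)
  have hrep := comp_repr hS sph hh0 hw hu hPw hPu
  have hwe := fun j k => H S hS (w j k) (hw j k) (hw0 j k) B ((hβ j k).congr fun x _ => hPw j k x)
  have hue := H S hS u hu hu0 B (hf.congr fun x _ => hPu x)
  have hCB : 0 ≤ C0 * B := by positivity
  have hentry : ∀ i j, |S i j| ≤ hi := fun i j =>
    Crest.Agent.R238.Apr.Ell.entry hS zero_le_one i j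
  have ecst : (∑ _i : Fin N, ∑ _j : Fin N, hi * (C0 * B)) + C0 * B = C1 * B := by
    simp [hC1]; ring
  have k0 : ∀ k, HO a (C1 * B) univ (co h k) := by
    intro k
    have h1 : HO a ((∑ _i : Fin N, ∑ _j : Fin N, hi * (C0 * B)) + C0 * B) univ (hk S w u k) := by
      refine HO.add (r := dS S fun j => w j k) (r' := dr k u) ?_ (ho_dr hue.2.1 k)
      refine HO.sum _ fun i _ => HO.sum _ fun j _ => ?_
      exact HO.cmul (ho_dr (hwe j k).2.1 i) (hentry i j)
    rw [ecst] at h1
    exact h1.congr fun x _ => hrep k x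
  have k1 : ∀ k, HO a (C1 * B) univ (fderiv ℝ (co h k)) := by
    intro k
    have e1 : co h k = fun x => hk S w u k x := funext (hrep k)
    have e2 : ∀ x, fderiv ℝ (co h k) x =
        (∑ i, ∑ j, S i j • fderiv ℝ (dr i (w j k)) x) + fderiv ℝ (dr k u) x := by
      intro x
      rw [e1]
      have f1 : fderiv ℝ (fun x => hk S w u k x) x =
          fderiv ℝ (dS S fun j => w j k) x + fderiv ℝ (dr k u) x :=
        fderiv_fun_add ((sp_dS S fun j => hw j k).diff x) ((hu.dr k).diff x)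
      rw [f1]
      congr 1
      have f2 : fderiv ℝ (dS S fun j => w j k) x =
          ∑ i, fderiv ℝ (fun x => ∑ j, S i j * dr i (w j k) x) x :=
        fderiv_fun_sum fun i _ => (sp_dS1 S (fun j => hw j k) i).diff x
      rw [f2]
      refine Finset.sum_congr rfl fun i _ => ?_
      have f3 : fderiv ℝ (fun x => ∑ j, S i j * dr i (w j k) x) x =
          ∑ j, fderiv ℝ (fun x => S i j * dr i (w j k) x) x :=
        fderiv_fun_sum fun j _ => (((hw j k).dr i).cmul _).diff x
      rw [f3]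
      refine Finset.sum_congr rfl fun j _ => ?_
      rw [fderiv_const_mul (((hw j k).dr i).diff x)]
    have h1 : HO a ((∑ _i : Fin N, ∑ _j : Fin N, hi * (C0 * B)) + C0 * B) univ
        (fun x => (∑ i, ∑ j, S i j • fderiv ℝ (dr i (w j k)) x) + fderiv ℝ (dr k u) x) := by
      refine HO.add ?_ (ho_fderiv_dr hu hue.2.2 k)
      refine HO.sum _ fun i _ => HO.sum _ fun j _ => ?_
      have h2 := ho_fderiv_dr (hw j k) (hwe j k).2.2 i
      refine ⟨fun x hx => ?_, fun x hx y hy => ?_⟩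
      · rw [norm_smul]
        exact mul_le_mul (hentry i j) (h2.bdd x hx) (norm_nonneg _) (by linarith)
      · rw [← smul_sub, norm_smul, mul_assoc]
        exact mul_le_mul (hentry i j) (h2.hol x hx y hy) (norm_nonneg _) (by linarith)
    rw [ecst] at h1
    exact h1.congr fun x _ => e2 x
  have hfin : N * (C1 * B) ≤ (N * C1 + 1) * B := by nlinarith
  exact ⟨(ho_of_co (by positivity) k0).mono hfin, (ho_fderiv_of_co hh (by positivity) k1).mono hfin⟩

end

end Crest.Agent.R281.Mc673
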