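import Crest.Agent.R281.Mc4_673

/-!
# R281 / LAGT (helper673), part 5

Closed 2-forms on the tube `ℝ^N × B_r`, periodic in the first variable, and their restriction to
graphs: smooth, periodic, antisymmetric, closed, mean value independent of the graph.
-/

set_option autoImplicit false
set_option maxSynthPendingDepth 3

open MeasureTheory Set Metric Filter
open scoped ContDiff Topology

namespace Crest.Agent.R281.Mc673

open Crest.Agent.R238.Sch (ee norm_ee)
open Crest.Agent.R273.SchA_152 (HO)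
open Crest.Agent.R275.Tor812 (box volume_box)

noncomputable section

variable {N : ℕ}

/-- total space -/
abbrev W (N : ℕ) := V N × V N

/-- 2-form (bilinear form) valued functions -/
abbrev Fo (N : ℕ) := W N → W N →L[ℝ] W N →L[ℝ] ℝ

/-- the tube `|v| < r` -/
def tube (N : ℕ) (r : ℝ) : Set (W N) := {p | ‖p.2‖ < r}

theorem isOpen_tube (r : ℝ) : IsOpen (tube N r) := isOpen_lt continuous_snd.norm continuous_const

/-- closed 2-forms on the tube, `ℤ^N`-periodic in the first variable -/
structure ClF (r : ℝ) (w : Fo N) : Prop where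
  sm : ContDiffOn ℝ ∞ w (tube N r)
  alt : ∀ p ∈ tube N r, ∀ u v, w p u v = - w p v u
  cl : ∀ p ∈ tube N r, ∀ u v z,
    fderiv ℝ w p u v z + fderiv ℝ w p v z u + fderiv ℝ w p z u v = 0
  per : ∀ (k : Fin N → ℤ), ∀ p ∈ tube N r, w (p.1 + kv k, p.2) = w p

section

variable {r : ℝ} {w : Fo N}

theorem ClF.cda (hw : ClF r w) {p : W N} (hp : p ∈ tube N r) : ContDiffAt ℝ ∞ w p :=
  hw.sm.contDiffAt ((isOpen_tube r).mem_nhds hp)

theorem ClF.da (hw : ClF r w) {p : W N} (hp : p ∈ tube N r) : DifferentiableAt ℝ w p :=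
  (hw.cda hp).differentiableAt (by simp)

theorem ClF.fcont (hw : ClF r w) {p : W N} (hp : p ∈ tube N r) : ContinuousAt (fderiv ℝ w) p :=
  ((hw.cda hp).fderiv_right (m := 0) (by simp)).continuousAt

/-- pull back to the graph of `a` -/
def pb (w : Fo N) (a : V N → V N) (j k : Fin N) (θ : V N) : ℝ :=
  w (θ, a θ) (ee j, dr j a θ) (ee k, dr k a θ)

variable {a : V N → V N}

theorem sp_dra (ha : SP a) (j : Fin N) : SP (fun θ => ((ee j, dr j a θ) : W N)) :=
  ⟨contDiff_const.prodMk (ha.dr j).sm, fun k x => by rw [(ha.dr j).per k x]⟩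

theorem sp_wa (hw : ClF r w) (ha : SP a) (har : ∀ θ, ‖a θ‖ < r) : SP (fun θ => w (θ, a θ)) := by
  refine ⟨contDiff_iff_contDiffAt.2 fun θ => ?_, fun k x => ?_⟩
  · exact ContDiffAt.comp θ (hw.cda (p := (θ, a θ)) (har θ))
      (contDiffAt_id.prodMk ha.sm.contDiffAt)
  · show w (x + kv k, a (x + kv k)) = w (x, a x)
    rw [ha.per k x]
    exact hw.per k (x, a x) (har x)

theorem SP.clm {F G : Type*} [NormedAddCommGroup F] [NormedSpace ℝ F] [NormedAddCommGroup G]
    [NormedSpace ℝ G] {T : V N → F →L[ℝ] G} {u : V N → F} (hT : SP T) (hu : SP u) :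
    SP (fun x => T x (u x)) :=
  ⟨hT.sm.clm_apply hu.sm, fun k x => by simp only [hT.per k x, hu.per k x]⟩

theorem sp_pb (hw : ClF r w) (ha : SP a) (har : ∀ θ, ‖a θ‖ < r) (j k : Fin N) :
    SP (pb w a j k) := by
  have h1 : SP (fun θ => w (θ, a θ) (ee j, dr j a θ)) :=
    SP.clm (T := fun θ => w (θ, a θ)) (u := fun θ => ((ee j, dr j a θ) : W N))
      (sp_wa hw ha har) (sp_dra ha j)
  exact SP.clm (T := fun θ => w (θ, a θ) (ee j, dr j a θ))
    (u := fun θ => ((ee k, dr k a θ) : W N)) h1 (sp_dra ha k)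

theorem pb_anti (hw : ClF r w) (har : ∀ θ, ‖a θ‖ < r) (j k : Fin N) (θ : V N) :
    pb w a j k θ = - pb w a k j θ :=
  hw.alt (θ, a θ) (har θ) (ee j, dr j a θ) (ee k, dr k a θ)

theorem hasFDerivAt_wa (hw : ClF r w) {θ : V N} (ha : DifferentiableAt ℝ a θ) (har : ‖a θ‖ < r) :
    HasFDerivAt (fun θ => w (θ, a θ)) ((fderiv ℝ w (θ, a θ)).comp
      ((ContinuousLinearMap.id ℝ (V N)).prod (fderiv ℝ a θ))) θ :=
  HasFDerivAt.comp (f := fun θ => ((θ, a θ) : W N)) θ (hw.da (p := (θ, a θ)) har).hasFDerivAt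
    ((hasFDerivAt_id θ).prodMk ha.hasFDerivAt)

theorem dr_pb (hw : ClF r w) (ha : SP a) (har : ∀ θ, ‖a θ‖ < r) (i j k : Fin N) (θ : V N) :
    dr i (pb w a j k) θ =
      fderiv ℝ w (θ, a θ) (ee i, dr i a θ) (ee j, dr j a θ) (ee k, dr k a θ) +
      w (θ, a θ) (0, dr i (dr j a) θ) (ee k, dr k a θ) +
      w (θ, a θ) (ee j, dr j a θ) (0, dr i (dr k a) θ) := by
  have h1 := hasFDerivAt_wa hw (ha.diff θ) (har θ)
  have h2 : ∀ j, HasFDerivAt (fun θ => ((ee j, dr j a θ) : W N))
      ((0 : V N →L[ℝ] V N).prod (fderiv ℝ (dr j a) θ)) θ := fun j =>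
    (hasFDerivAt_const _ _).prodMk ((ha.dr j).diff θ).hasFDerivAt
  have h3 := (h1.clm_apply (h2 j)).clm_apply (h2 k)
  have h4 : fderiv ℝ (pb w a j k) θ = _ := h3.fderiv
  show fderiv ℝ (pb w a j k) θ (ee i) = _
  rw [h4]
  simp only [ContinuousLinearMap.add_apply, ContinuousLinearMap.comp_apply,
    ContinuousLinearMap.flip_apply, ContinuousLinearMap.prod_apply,
    ContinuousLinearMap.id_apply, ContinuousLinearMap.zero_apply]
  show w (θ, a θ) (ee j, dr j a θ) (0, dr i (dr k a) θ) +
    (w (θ, a θ) (0, dr i (dr j a) θ) (ee k, dr k a θ) +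
      fderiv ℝ w (θ, a θ) (ee i, dr i a θ) (ee j, dr j a θ) (ee k, dr k a θ)) = _
  ring

theorem pb_closed (hw : ClF r w) (ha : SP a) (har : ∀ θ, ‖a θ‖ < r) (i j k : Fin N) (θ : V N) :
    dr i (pb w a j k) θ + dr j (pb w a k i) θ + dr k (pb w a i j) θ = 0 := by
  rw [dr_pb hw ha har, dr_pb hw ha har, dr_pb hw ha har]
  have h1 := hw.cl (θ, a θ) (har θ) (ee i, dr i a θ) (ee j, dr j a θ) (ee k, dr k a θ)
  have alt := hw.alt (θ, a θ) (har θ)
  have c1 := dr_comm ha i j θ
  have c2 := dr_comm ha j k θ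
  have c3 := dr_comm ha k i θ
  rw [alt (ee j, dr j a θ) (0, dr i (dr k a) θ), alt (ee k, dr k a θ) (0, dr j (dr i a) θ),
    alt (ee i, dr i a θ) (0, dr k (dr j a) θ), ← c1, c2, c3]
  linarith

/-! ### independence of the mean -/

/-- `λ_k` -/
def lam (w : Fo N) (a : V N → V N) (t : ℝ) (k : Fin N) (θ : V N) : ℝ :=
  w (θ, t • a θ) (0, a θ) (ee k, t • dr k a θ)

/-- `d/dt` of the pull back -/
def pbd (w : Fo N) (a : V N → V N) (j k : Fin N) (t : ℝ) (θ : V N) : ℝ :=
  fderiv ℝ w (θ, t • a θ) (0, a θ) (ee j, t • dr j a θ) (ee k, t • dr k a θ) +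
    w (θ, t • a θ) (0, dr j a θ) (ee k, t • dr k a θ) +
    w (θ, t • a θ) (ee j, t • dr j a θ) (0, dr k a θ)

theorem dr_smul_fun (ha : SP a) (t : ℝ) (k : Fin N) (θ : V N) :
    dr k (fun θ => t • a θ) θ = t • dr k a θ := dr_smul ha t k θ

theorem hasDerivAt_pbt (hw : ClF r w) (ha : SP a) (j k : Fin N) (t : ℝ) (θ : V N)
    (har : ‖t • a θ‖ < r) :
    HasDerivAt (fun t : ℝ => pb w (fun θ => t • a θ) j k θ) (pbd w a j k t θ) t := by
  have e : (fun t : ℝ => pb w (fun θ => t • a θ) j k θ) =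
      fun t : ℝ => w (θ, t • a θ) (ee j, t • dr j a θ) (ee k, t • dr k a θ) := by
    funext t
    unfold pb
    rw [dr_smul_fun ha, dr_smul_fun ha]
  rw [e]
  have h0 : HasDerivAt (fun t : ℝ => ((θ, t • a θ) : W N)) (0, a θ) t := by
    have := (hasDerivAt_const t θ).prodMk ((hasDerivAt_id t).smul_const (a θ))
    simpa using this
  have h1 : HasDerivAt (fun t : ℝ => w (θ, t • a θ)) (fderiv ℝ w (θ, t • a θ) (0, a θ)) t :=
    (hw.da (p := (θ, t • a θ)) har).hasFDerivAt.comp_hasDerivAt t h0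
  have h2 : ∀ j, HasDerivAt (fun t : ℝ => ((ee j, t • dr j a θ) : W N)) (0, dr j a θ) t := by
    intro j
    have := (hasDerivAt_const t (ee j : V N)).prodMk ((hasDerivAt_id t).smul_const (dr j a θ))
    simpa using this
  have h3 := (h1.clm_apply (h2 j)).clm_apply (h2 k)
  refine h3.congr_deriv ?_
  simp only [pbd, ContinuousLinearMap.add_apply]

theorem pbd_eq (hw : ClF r w) (ha : SP a) (j k : Fin N) (t : ℝ) (θ : V N)
    (har : ∀ θ, ‖t • a θ‖ < r) :
    pbd w a j k t θ = dr j (lam w a t k) θ - dr k (lam w a t j) θ := by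
  have hta : SP (fun θ => t • a θ) := ha.smul t
  have key : ∀ i l, dr i (lam w a t l) θ =
      fderiv ℝ w (θ, t • a θ) (ee i, t • dr i a θ) (0, a θ) (ee l, t • dr l a θ) +
      w (θ, t • a θ) (0, dr i a θ) (ee l, t • dr l a θ) +
      w (θ, t • a θ) (0, a θ) (0, t • dr i (dr l a) θ) := by
    intro i l
    have h1 := hasFDerivAt_wa hw (hta.diff θ) (har θ)
    have h2 : HasFDerivAt (fun θ => ((0, a θ) : W N))
        ((0 : V N →L[ℝ] V N).prod (fderiv ℝ a θ)) θ :=
      (hasFDerivAt_const _ _).prodMk (ha.diff θ).hasFDerivAt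
    have h2' : HasFDerivAt (fun θ => ((ee l, t • dr l a θ) : W N))
        ((0 : V N →L[ℝ] V N).prod (t • fderiv ℝ (dr l a) θ)) θ :=
      (hasFDerivAt_const _ _).prodMk (((ha.dr l).diff θ).hasFDerivAt.const_smul t)
    have h3 := (h1.clm_apply h2).clm_apply h2'
    have h4 : fderiv ℝ (lam w a t l) θ = _ := h3.fderiv
    show fderiv ℝ (lam w a t l) θ (ee i) = _
    rw [h4]
    simp only [ContinuousLinearMap.add_apply, ContinuousLinearMap.comp_apply,
      ContinuousLinearMap.flip_apply, ContinuousLinearMap.prod_apply,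
      ContinuousLinearMap.id_apply, ContinuousLinearMap.zero_apply]
    have h5 : fderiv ℝ (fun θ => t • a θ) θ (ee i) = t • dr i a θ := dr_smul_fun ha t i θ
    rw [h5]
    show w (θ, t • a θ) (0, a θ) (0, t • dr i (dr l a) θ) +
      (w (θ, t • a θ) (0, dr i a θ) (ee l, t • dr l a θ) +
        fderiv ℝ w (θ, t • a θ) (ee i, t • dr i a θ) (0, a θ) (ee l, t • dr l a θ)) = _
    ring
  rw [key, key]
  unfold pbd
  have h1 := hw.cl (θ, t • a θ) (har θ) (0, a θ) (ee j, t • dr j a θ) (ee k, t • dr k a θ)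
  have alt := hw.alt (θ, t • a θ) (har θ)
  -- antisymmetry of the derivative
  have altd : ∀ z u v, fderiv ℝ w (θ, t • a θ) z u v = - fderiv ℝ w (θ, t • a θ) z v u := by
    intro z u v
    have h2 := (hw.da (p := (θ, t • a θ)) (har θ)).hasFDerivAt
    have h3 : HasFDerivAt (fun p => w p u v) _ (θ, t • a θ) :=
      (h2.clm_apply (hasFDerivAt_const u _)).clm_apply (hasFDerivAt_const v _)
    have h4 : HasFDerivAt (fun p => - w p v u) _ (θ, t • a θ) :=
      ((h2.clm_apply (hasFDerivAt_const v _)).clm_apply (hasFDerivAt_const u _)).neg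
    have h5 : (fun p => w p u v) =ᶠ[𝓝 (θ, t • a θ)] fun p => - w p v u := by
      filter_upwards [(isOpen_tube (N := N) r).mem_nhds (har θ)] with p hp
      exact hw.alt p hp u v
    have h6 := h3.unique (h4.congr_of_eventuallyEq h5)
    have h7 := congrArg (fun L => L z) h6
    simpa using h7
  have c1 := dr_comm ha j k θ
  have e1 := altd (ee j, t • dr j a θ) (ee k, t • dr k a θ) (0, a θ)
  have a1 := alt (ee j, t • dr j a θ) (0, dr k a θ)
  rw [a1, c1]
  linarith

theorem mn_pb (hw : ClF r w) (ha : SP a) (har : ∀ θ, ‖a θ‖ < r) (j k : Fin N) :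
    mn (pb w a j k) = mn (pb w (fun _ => 0) j k) := by
  obtain ⟨θ0, hθ0⟩ := Per.exists_max (f := fun θ => ‖a θ‖)
    (fun k x => by show ‖a (x + kv k)‖ = ‖a x‖; rw [ha.per k x]) ha.cont.norm
  set M : ℝ := ‖a θ0‖ with hM
  have hM0 : 0 ≤ M := norm_nonneg _
  have hMr : M < r := har θ0
  set T : Set ℝ := {t | |t| * M < r} with hT
  have hTo : IsOpen T := isOpen_lt (continuous_abs.mul continuous_const) continuous_const
  have hta : ∀ t ∈ T, ∀ θ, ‖t • a θ‖ < r := fun t ht θ => by
    rw [norm_smul, Real.norm_eq_abs]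
    exact (mul_le_mul_of_nonneg_left (hθ0 θ) (abs_nonneg _)).trans_lt ht
  -- joint continuity of the `t`-derivative
  have hcont : ContinuousOn (fun q : ℝ × V N => pbd w a j k q.1 q.2) (T ×ˢ univ) := by
    rintro ⟨t, θ⟩ ⟨ht, -⟩
    refine ContinuousAt.continuousWithinAt ?_
    have m1 : ContinuousAt (fun q : ℝ × V N => ((q.2, q.1 • a q.2) : W N)) (t, θ) :=
      (continuous_snd.prodMk (continuous_fst.smul (ha.cont.comp continuous_snd))).continuousAt
    have c1 : ContinuousAt (fun q : ℝ × V N => fderiv ℝ w (q.2, q.1 • a q.2)) (t, θ) :=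
      ContinuousAt.comp (g := fderiv ℝ w) (hw.fcont (p := (θ, t • a θ)) (hta t ht θ)) m1
    have c2 : ContinuousAt (fun q : ℝ × V N => w (q.2, q.1 • a q.2)) (t, θ) :=
      ContinuousAt.comp (g := w) (hw.da (p := (θ, t • a θ)) (hta t ht θ)).continuousAt m1
    have c3 : ∀ l, ContinuousAt (fun q : ℝ × V N => ((ee l, q.1 • dr l a q.2) : W N)) (t, θ) :=
      fun l => (continuous_const.prodMk
        (continuous_fst.smul ((ha.dr l).cont.comp continuous_snd))).continuousAt
    have c4 : ContinuousAt (fun q : ℝ × V N => ((0, a q.2) : W N)) (t, θ) :=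
      (continuous_const.prodMk (ha.cont.comp continuous_snd)).continuousAt
    have c5 : ∀ l, ContinuousAt (fun q : ℝ × V N => ((0, dr l a q.2) : W N)) (t, θ) :=
      fun l => (continuous_const.prodMk ((ha.dr l).cont.comp continuous_snd)).continuousAt
    exact ((((c1.clm_apply c4).clm_apply (c3 j)).clm_apply (c3 k)).add
      ((c2.clm_apply (c5 j)).clm_apply (c3 k))).add ((c2.clm_apply (c3 j)).clm_apply (c5 k))
  -- the derivative of the mean vanishes
  have hder : ∀ t ∈ T, HasDerivAt (fun t : ℝ => mn (pb w (fun θ => t • a θ) j k)) 0 t := by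
    intro t ht
    obtain ⟨ε, hε, hεT⟩ := Metric.isOpen_iff.1 hTo t ht
    have hsub : closedBall t (ε / 2) ⊆ T :=
      (closedBall_subset_ball (by linarith)).trans hεT
    obtain ⟨B, hB⟩ := ((isCompact_closedBall t (ε / 2)).prod
      (isCompact_cube (N := N))).exists_bound_of_continuousOn
      (hcont.mono (prod_mono hsub (subset_univ _)))
    have hper : ∀ s ∈ T, Per (pbd w a j k s) := by
      intro s hs m x
      have h1 := hta s hs
      unfold pbd
      rw [ha.per m x, (ha.dr j).per m x, (ha.dr k).per m x]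
      have h2 : w (x + kv m, s • a x) = w (x, s • a x) := hw.per m (x, s • a x) (h1 x)
      have h3 : fderiv ℝ w (x + kv m, s • a x) = fderiv ℝ w (x, s • a x) := by
        have h4 : (fun p : W N => w (p + (kv m, 0))) =ᶠ[𝓝 (x, s • a x)] w := by
          filter_upwards [(isOpen_tube (N := N) r).mem_nhds (h1 x)] with p hp
          have := hw.per m p hp
          rw [← this]
          congr 1
          ext1 <;> simp
        have h5 := h4.fderiv_eq (𝕜 := ℝ)
        rw [fderiv_comp_add_right] at h5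
        rw [← h5]
        congr 1
        ext1 <;> simp
      rw [h2, h3]
    have hbd : ∀ s ∈ ball t (ε / 2), ∀ x : V N, ‖pbd w a j k s x‖ ≤ B := by
      intro s hs x
      obtain ⟨y, hy, h⟩ := (hper s (hsub (ball_subset_closedBall hs))).exists_mem_cube x
      rw [h]
      exact hB (s, y) ⟨ball_subset_closedBall hs, hy⟩
    have hspb : ∀ s ∈ T, SP (pb w (fun θ => s • a θ) j k) := fun s hs =>
      sp_pb hw (ha.smul s) (hta s hs) j k
    have hlp : Continuous fun x : Fin N → ℝ => (WithLp.toLp 2 x : V N) :=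
      (PiLp.continuousLinearEquiv 2 ℝ (fun _ : Fin N => ℝ)).symm.continuous
    have hmain := (hasDerivAt_integral_of_dominated_loc_of_deriv_le
      (μ := volume.restrict (box (0 : Fin N → ℝ))) (bound := fun _ => B)
      (F := fun s x => pb w (fun θ => s • a θ) j k (WithLp.toLp 2 x))
      (F' := fun s x => pbd w a j k s (WithLp.toLp 2 x)) (x₀ := t) (s := ball t (ε / 2))
      (Metric.ball_mem_nhds t (by positivity)) ?_ ?_ ?_ ?_ (integrable_const _) ?_).2
    · have h0 : (∫ x in box (0 : Fin N → ℝ), pbd w a j k t (WithLp.toLp 2 x)) = 0 := by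
        have h1 : mn (pbd w a j k t) = 0 := by
          have h2 : pbd w a j k t = fun θ => dr j (lam w a t k) θ - dr k (lam w a t j) θ :=
            funext fun θ => pbd_eq hw ha j k t θ (hta t ht)
          have hl : ∀ l, SP (lam w a t l) := by
            intro l
            have s1 := sp_wa hw (ha.smul t) (hta t ht)
            have s2 : SP (fun θ => ((0, a θ) : W N)) :=
              ⟨contDiff_const.prodMk ha.sm, fun k x => by rw [ha.per k x]⟩
            have s3 : SP (fun θ => ((ee l, t • dr l a θ) : W N)) :=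
              ⟨contDiff_const.prodMk ((ha.dr l).smul t).sm, fun k x => by
                rw [(ha.dr l).per k x]⟩
            exact SP.clm (SP.clm s1 s2) s3
          rw [h2, mn_sub ((hl k).dr j) ((hl j).dr k), mn_dr (hl k), mn_dr (hl j), sub_zero]
        exact h1
      rw [h0] at hmain
      exact hmain
    · filter_upwards [hTo.mem_nhds ht] with s hs
      exact ((hspb s hs).cont.comp hlp).aestronglyMeasurable
    · exact integrable_box (hspb t ht)
    · have h1 : pbd w a j k t = fun θ => pbd w a j k t θ := rfl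
      have h2 : Continuous (pbd w a j k t) := by
        rw [← continuousOn_univ]
        have := hcont.comp (f := fun θ : V N => (t, θ)) (s := univ)
          (continuous_const.prodMk continuous_id).continuousOn (fun θ _ => ⟨ht, mem_univ _⟩)
        exact this
      exact (h2.comp hlp).aestronglyMeasurable
    · exact Eventually.of_forall fun x s hs => hbd s hs _
    · exact Eventually.of_forall fun x s hs => hasDerivAt_pbt hw ha j k s _
        (hta s (hsub (ball_subset_closedBall hs)) _)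
  have hI : Icc (0 : ℝ) 1 ⊆ T := by
    intro t ht
    show |t| * M < r
    rw [abs_of_nonneg ht.1]
    exact (mul_le_of_le_one_left hM0 ht.2).trans_lt hMr
  have hconst := constant_of_has_deriv_right_zero
    (f := fun t : ℝ => mn (pb w (fun θ => t • a θ) j k)) (a := 0) (b := 1)
    (fun t ht => (hder t (hI ht)).continuousAt.continuousWithinAt)
    (fun t ht => (hder t (hI ⟨ht.1, ht.2.le⟩)).hasDerivWithinAt) 1 (by simp)
  have e1 : (fun θ => (1 : ℝ) • a θ) = a := by funext θ; simp
  have e0 : (fun θ => (0 : ℝ) • a θ) = fun _ => (0 : V N) := by funext θ; simp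
  simp only [e1, e0] at hconst
  exact hconst

end

end

end Crest.Agent.R281.Mc673
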