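import Crest.Agent.R281.Mc5_673

/-!
# R281 / LAGT (helper673), part 6

Hölder estimates for the composition of a function on the tube with graphs, and for the restriction
of a 2-form which is close to a constant one.
-/

set_option autoImplicit false
set_option maxSynthPendingDepth 3

open MeasureTheory Set Metric Filter
open scoped ContDiff Topology

namespace Crest.Agent.R281.Mc673

open Crest.Agent.R238.Sch (ee norm_ee sum_ee)
open Crest.Agent.R273.SchA_152 (HO)

noncomputable section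

variable {N : ℕ}

/-! ### interpolation -/

/-- the small constant -/
def kap (α s K : ℝ) : ℝ := s + (2 * s) ^ (1 - α) * K ^ α

theorem kap_nonneg {α s K : ℝ} (hs : 0 ≤ s) (hK : 0 ≤ K) : 0 ≤ kap α s K := by
  unfold kap
  have := Real.rpow_nonneg (by positivity : (0 : ℝ) ≤ 2 * s) (1 - α)
  have := Real.rpow_nonneg hK α
  positivity

theorem interp_le {α A B m : ℝ} (hα : 0 < α) (hα1 : α < 1) (hm : 0 ≤ m) (hA : m ≤ A)
    (hB : m ≤ B) : m ≤ A ^ (1 - α) * B ^ α := by
  have h1 : m = m ^ (1 - α) * m ^ α := by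
    rcases hm.eq_or_lt with h | h
    · rw [← h, Real.zero_rpow hα.ne', mul_zero]
    · rw [← Real.rpow_add h]; simp
  rw [h1]
  exact mul_le_mul (Real.rpow_le_rpow hm hA (by linarith)) (Real.rpow_le_rpow hm hB hα.le)
    (Real.rpow_nonneg hm _) (Real.rpow_nonneg (hm.trans hA) _)

theorem interp_le' {α s K t m : ℝ} (hα : 0 < α) (hα1 : α < 1) (hm : 0 ≤ m) (hA : m ≤ 2 * s)
    (hK : 0 ≤ K) (ht : 0 ≤ t) (hB : m ≤ K * t) : m ≤ (2 * s) ^ (1 - α) * K ^ α * t ^ α := by
  have := interp_le hα hα1 hm hA hB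
  rwa [Real.mul_rpow hK ht, ← mul_assoc] at this

theorem kap_continuous {α : ℝ} (hα1 : α < 1) (K : ℝ) {s : ℝ → ℝ} (hs : Continuous s) :
    Continuous fun t => kap α (s t) K := by
  unfold kap
  exact hs.add (((continuous_const.mul hs).rpow_const fun _ => Or.inr (by linarith)).mul
    continuous_const)

theorem kap_zero {α K : ℝ} (hα1 : α < 1) : kap α 0 K = 0 := by
  unfold kap
  rw [mul_zero, Real.zero_rpow (by linarith)]; simp

theorem ho_val {α s K : ℝ} (hα : 0 < α) (hα1 : α < 1) (hs : 0 ≤ s) (hK : 0 ≤ K) {f : V N → ℝ}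
    (h0 : ∀ x, |f x| ≤ s) (h1 : ∀ x y, |f x - f y| ≤ K * ‖x - y‖) :
    HO α (kap α s K) univ f where
  bdd x _ := by
    have := Real.rpow_nonneg (by positivity : (0 : ℝ) ≤ 2 * s) (1 - α)
    have := Real.rpow_nonneg hK α
    refine (h0 x).trans ?_
    unfold kap
    have : 0 ≤ (2 * s) ^ (1 - α) * K ^ α := by positivity
    linarith
  hol x _ y _ := by
    rw [Real.norm_eq_abs]
    refine (interp_le' (s := s) hα hα1 (abs_nonneg _) ?_ hK (norm_nonneg _) (h1 x y)).trans ?_
    · have h2 := abs_sub (f x) (f y)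
      have := h0 x
      have := h0 y
      linarith
    · unfold kap
      have : 0 ≤ s * ‖x - y‖ ^ α := mul_nonneg hs (Real.rpow_nonneg (norm_nonneg _) _)
      nlinarith

/-- composition with two graphs -/
theorem ho_diff {α s K ρ Δ : ℝ} (hα : 0 < α) (hα1 : α < 1) (hs : 0 ≤ s) (hK : 0 ≤ K)
    {F : W N → ℝ} (hF : ∀ p ∈ tube N ρ, DifferentiableAt ℝ F p)
    (D1 : ∀ p ∈ tube N ρ, ∀ u : V N, |fderiv ℝ F p (0, u)| ≤ s * ‖u‖)
    (D2 : ∀ p ∈ tube N ρ, ∀ q ∈ tube N ρ, ∀ u : V N,
      |fderiv ℝ F p (0, u) - fderiv ℝ F q (0, u)| ≤ K * ‖p - q‖ * ‖u‖)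
    {a b : V N → V N} (ha : ∀ x, ‖a x‖ < ρ) (hb : ∀ x, ‖b x‖ < ρ)
    (la : ∀ x y, ‖a x - a y‖ ≤ ‖x - y‖) (lb : ∀ x y, ‖b x - b y‖ ≤ ‖x - y‖)
    (h : HO α Δ univ fun x => a x - b x) :
    HO α (kap α s K * Δ) univ (fun x => F (x, a x) - F (x, b x)) := by
  have hΔ : 0 ≤ Δ := h.nonneg (mem_univ (0 : V N))
  have hk0 : 0 ≤ (2 * s) ^ (1 - α) * K ^ α := by
    have := Real.rpow_nonneg (by positivity : (0 : ℝ) ≤ 2 * s) (1 - α)
    have := Real.rpow_nonneg hK α
    positivity
  -- the path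
  set γ : V N → ℝ → W N := fun x t => (x, b x + t • (a x - b x)) with hγ
  have hγt : ∀ x, ∀ t ∈ Icc (0 : ℝ) 1, γ x t ∈ tube N ρ := by
    intro x t ht
    have h1 : b x + t • (a x - b x) ∈ ball (0 : V N) ρ := by
      have hc := convex_ball (0 : V N) ρ
      have := hc.add_smul_sub_mem (x := b x) (y := a x) (by simpa using hb x)
        (by simpa using ha x) ht
      exact this
    show ‖b x + t • (a x - b x)‖ < ρ
    simpa using h1
  have hγd : ∀ x, ∀ t ∈ Icc (0 : ℝ) 1, HasDerivAt (fun t => F (γ x t))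
      (fderiv ℝ F (γ x t) (0, a x - b x)) t := by
    intro x t ht
    have h0 : HasDerivAt (γ x) (0, a x - b x) t := by
      have := (hasDerivAt_const t x).prodMk
        (((hasDerivAt_id t).smul_const (a x - b x)).const_add (b x))
      simpa using this
    exact (hF _ (hγt x t ht)).hasFDerivAt.comp_hasDerivAt t h0
  have hγl : ∀ x y, ∀ t ∈ Icc (0 : ℝ) 1, ‖γ x t - γ y t‖ ≤ ‖x - y‖ := by
    intro x y t ht
    show max ‖x - y‖ ‖b x + t • (a x - b x) - (b y + t • (a y - b y))‖ ≤ ‖x - y‖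
    refine max_le le_rfl ?_
    have e : b x + t • (a x - b x) - (b y + t • (a y - b y)) =
        (1 - t) • (b x - b y) + t • (a x - a y) := by
      simp only [smul_sub, sub_smul, one_smul]; abel
    rw [e]
    refine (norm_add_le _ _).trans ?_
    rw [norm_smul, norm_smul, Real.norm_eq_abs, Real.norm_eq_abs, abs_of_nonneg ht.1,
      abs_of_nonneg (by linarith [ht.2] : (0 : ℝ) ≤ 1 - t)]
    have h1 := mul_le_mul_of_nonneg_left (lb x y) (by linarith [ht.2] : (0 : ℝ) ≤ 1 - t)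
    have h2 := mul_le_mul_of_nonneg_left (la x y) ht.1
    linarith
  have e1 : ∀ x, γ x 1 = (x, a x) := fun x => by simp [hγ]
  have e0 : ∀ x, γ x 0 = (x, b x) := fun x => by simp [hγ]
  refine ⟨fun x _ => ?_, fun x _ y _ => ?_⟩
  · have h1 := norm_image_sub_le_of_norm_deriv_le_segment_01' (f := fun t => F (γ x t))
      (C := s * ‖a x - b x‖)
      (fun t ht => (hγd x t ht).hasDerivWithinAt)
      (fun t ht => D1 _ (hγt x t ⟨ht.1, ht.2.le⟩) _)
    simp only [e1, e0] at h1
    refine h1.trans ?_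
    have h2 : s * ‖a x - b x‖ ≤ s * Δ := mul_le_mul_of_nonneg_left (h.bdd x (mem_univ x)) hs
    unfold kap
    nlinarith
  · have h1 := norm_image_sub_le_of_norm_deriv_le_segment_01'
      (f := fun t => F (γ x t) - F (γ y t)) (C := kap α s K * Δ * ‖x - y‖ ^ α)
      (fun t ht => ((hγd x t ht).sub (hγd y t ht)).hasDerivWithinAt) (fun t ht => ?_)
    · simp only [e1, e0] at h1
      have e : F (x, a x) - F (x, b x) - (F (y, a y) - F (y, b y)) =
          F (x, a x) - F (y, a y) - (F (x, b x) - F (y, b y)) := by ring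
      rw [e]; exact h1
    · have ht' : t ∈ Icc (0 : ℝ) 1 := ⟨ht.1, ht.2.le⟩
      have hx := hγt x t ht'
      have hy := hγt y t ht'
      have e : fderiv ℝ F (γ x t) (0, a x - b x) - fderiv ℝ F (γ y t) (0, a y - b y) =
          (fderiv ℝ F (γ x t) (0, a x - b x) - fderiv ℝ F (γ y t) (0, a x - b x)) +
          fderiv ℝ F (γ y t) (0, (a x - b x) - (a y - b y)) := by
        have e2 : ((0, (a x - b x) - (a y - b y)) : W N) = (0, a x - b x) - (0, a y - b y) := by
          ext1 <;> simp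
        rw [e2, map_sub]; ring
      rw [e]
      refine (norm_add_le _ _).trans ?_
      have i1 : ‖fderiv ℝ F (γ x t) (0, a x - b x) - fderiv ℝ F (γ y t) (0, a x - b x)‖ ≤
          (2 * s) ^ (1 - α) * K ^ α * ‖x - y‖ ^ α * Δ := by
        have hab := h.bdd x (mem_univ x)
        rcases (norm_nonneg (a x - b x)).eq_or_lt with h3 | h3
        · have h4 : a x - b x = 0 := norm_eq_zero.1 h3.symm
          rw [h4]
          have e3 : ((0, (0 : V N)) : W N) = 0 := rfl
          rw [e3, map_zero, map_zero, sub_zero, norm_zero]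
          have := Real.rpow_nonneg (norm_nonneg (x - y)) α
          positivity
        · set m : ℝ := |fderiv ℝ F (γ x t) (0, a x - b x) - fderiv ℝ F (γ y t) (0, a x - b x)| with hm
          have m1 : m ≤ 2 * s * ‖a x - b x‖ := by
            have q1 := D1 _ hx (a x - b x)
            have q2 := D1 _ hy (a x - b x)
            have := abs_sub (fderiv ℝ F (γ x t) (0, a x - b x))
              (fderiv ℝ F (γ y t) (0, a x - b x))
            linarith
          have m2 : m ≤ K * ‖x - y‖ * ‖a x - b x‖ := by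
            refine (D2 _ hx _ hy _).trans ?_
            have := mul_le_mul_of_nonneg_left (hγl x y t ht') hK
            exact mul_le_mul_of_nonneg_right this (norm_nonneg _)
          have m3 : m / ‖a x - b x‖ ≤ (2 * s) ^ (1 - α) * K ^ α * ‖x - y‖ ^ α :=
            interp_le' hα hα1 (by positivity) (by rw [div_le_iff₀ h3]; exact m1) hK
              (norm_nonneg _) (by rw [div_le_iff₀ h3]; exact m2)
          have m4 : m ≤ (2 * s) ^ (1 - α) * K ^ α * ‖x - y‖ ^ α * ‖a x - b x‖ := by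
            rwa [div_le_iff₀ h3] at m3
          refine m4.trans (mul_le_mul_of_nonneg_left hab ?_)
          exact mul_nonneg hk0 (Real.rpow_nonneg (norm_nonneg _) _)
      have i2 : ‖fderiv ℝ F (γ y t) (0, (a x - b x) - (a y - b y))‖ ≤ s * (Δ * ‖x - y‖ ^ α) :=
        (D1 _ hy _).trans (mul_le_mul_of_nonneg_left (h.hol x (mem_univ x) y (mem_univ y)) hs)
      unfold kap
      linarith

/-! ### pair estimates -/

/-- two functions bounded by `M` whose difference is bounded by `D` -/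
structure PE (α M D : ℝ) (f g : V N → ℝ) : Prop where
  f1 : HO α M univ f
  g1 : HO α M univ g
  d1 : HO α D univ (fun x => f x - g x)

theorem ho_mul {α M M' : ℝ} {s : Set (V N)} {f g : V N → ℝ} (hf : HO α M s f) (hg : HO α M' s g)
    (hM : 0 ≤ M) (hM' : 0 ≤ M') : HO α (2 * (M * M')) s (fun x => f x * g x) where
  bdd x hx := by
    rw [norm_mul]
    have h2 : ‖f x‖ * ‖g x‖ ≤ M * M' := mul_le_mul (hf.bdd x hx) (hg.bdd x hx) (norm_nonneg _) hM
    have h3 : 0 ≤ M * M' := mul_nonneg hM hM'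
    linarith
  hol x hx y hy := by
    have e : f x * g x - f y * g y = (f x - f y) * g x + f y * (g x - g y) := by ring
    rw [e]
    refine (norm_add_le _ _).trans ?_
    rw [norm_mul, norm_mul]
    have hr : 0 ≤ ‖x - y‖ ^ α := Real.rpow_nonneg (norm_nonneg _) _
    have h1 : ‖f x - f y‖ * ‖g x‖ ≤ (M * ‖x - y‖ ^ α) * M' :=
      mul_le_mul (hf.hol x hx y hy) (hg.bdd x hx) (norm_nonneg _) (mul_nonneg hM hr)
    have h2 : ‖f y‖ * ‖g x - g y‖ ≤ M * (M' * ‖x - y‖ ^ α) :=
      mul_le_mul (hf.bdd y hy) (hg.hol x hx y hy) (norm_nonneg _) hM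
    linarith

theorem PE.M0 {α M D : ℝ} {f g : V N → ℝ} (h : PE α M D f g) : 0 ≤ M :=
  h.f1.nonneg (mem_univ (0 : V N))

theorem PE.D0 {α M D : ℝ} {f g : V N → ℝ} (h : PE α M D f g) : 0 ≤ D :=
  h.d1.nonneg (mem_univ (0 : V N))

theorem PE.add {α M D M' D' : ℝ} {f g f' g' : V N → ℝ} (h : PE α M D f g)
    (h' : PE α M' D' f' g') :
    PE α (M + M') (D + D') (fun x => f x + f' x) (fun x => g x + g' x) where
  f1 := h.f1.add h'.f1
  g1 := h.g1.add h'.g1
  d1 := (h.d1.add h'.d1).congr fun x _ => by ring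

theorem PE.mul {α M D M' D' : ℝ} {f g f' g' : V N → ℝ} (h : PE α M D f g)
    (h' : PE α M' D' f' g') :
    PE α (2 * (M * M')) (2 * (D * M') + 2 * (M * D')) (fun x => f x * f' x)
      (fun x => g x * g' x) where
  f1 := ho_mul h.f1 h'.f1 h.M0 h'.M0
  g1 := ho_mul h.g1 h'.g1 h.M0 h'.M0
  d1 := ((ho_mul h.d1 h'.f1 h.D0 h'.M0).add (ho_mul h.g1 h'.d1 h.M0 h'.D0)).congr fun x _ => by
    ring

theorem PE.sum {α M D : ℝ} {ι : Type*} (t : Finset ι) {f g : ι → V N → ℝ}
    (h : ∀ i ∈ t, PE α M D (f i) (g i)) :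
    PE α (t.card * M) (t.card * D) (fun x => ∑ i ∈ t, f i x) (fun x => ∑ i ∈ t, g i x) := by
  have e1 : ∑ _i ∈ t, M = t.card * M := by simp
  have e2 : ∑ _i ∈ t, D = t.card * D := by simp
  refine ⟨?_, ?_, ?_⟩
  · rw [← e1]; exact HO.sum t fun i hi => (h i hi).f1
  · rw [← e1]; exact HO.sum t fun i hi => (h i hi).g1
  · rw [← e2]
    exact (HO.sum t fun i hi => (h i hi).d1).congr fun x _ => by
      rw [Finset.sum_sub_distrib]

end

end Crest.Agent.R281.Mc673
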