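import Crest.Agent.R281.Mc6_673

/-!
# R281 / LAGT (helper673), part 7

A closed 2-form close to a constant form along the zero section: the non-linear part of the
restriction to graphs is Lipschitz from `C^{1,α}` to `C^α` with a small constant.
-/

set_option autoImplicit false
set_option maxSynthPendingDepth 3

open MeasureTheory Set Metric Filter
open scoped ContDiff Topology

namespace Crest.Agent.R281.Mc673

open Crest.Agent.R238.Sch (ee norm_ee sum_ee)
open Crest.Agent.R273.SchA_152 (HO)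

noncomputable section

variable {N : ℕ}

/-- horizontal and vertical basis vectors -/
def eh (j : Fin N) : W N := (ee j, 0)
/-- vertical basis vector -/
def ev' (j : Fin N) : W N := (0, ee j)

theorem norm_eh (j : Fin N) : ‖(eh j : W N)‖ = 1 := by
  show max ‖(ee j : V N)‖ ‖(0 : V N)‖ = 1
  rw [norm_ee, norm_zero]; norm_num

theorem norm_ev' (j : Fin N) : ‖(ev' j : W N)‖ = 1 := by
  show max ‖(0 : V N)‖ ‖(ee j : V N)‖ = 1
  rw [norm_ee, norm_zero]; norm_num

theorem norm_vert (u : V N) : ‖((0, u) : W N)‖ = ‖u‖ := by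
  show max ‖(0 : V N)‖ ‖u‖ = ‖u‖
  rw [norm_zero]; exact max_eq_right (norm_nonneg _)

/-- `w` is close to the constant form `w0` near the zero section; the vertical-vertical part is
only bounded. -/
structure Near (r K δ : ℝ) (w : Fo N) (w0 : W N →L[ℝ] W N →L[ℝ] ℝ) : Prop where
  cf : ClF r w
  alt0 : ∀ u v, w0 u v = - w0 v u
  d1 : ∀ p ∈ tube N r, ‖fderiv ℝ w p‖ ≤ K
  d2 : ∀ p ∈ tube N r, ∀ q ∈ tube N r, ‖fderiv ℝ w p - fderiv ℝ w q‖ ≤ K * ‖p - q‖
  hh : ∀ θ j k, |w (θ, 0) (eh j) (eh k) - w0 (eh j) (eh k)| ≤ δ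
  hv : ∀ θ j l, |w (θ, 0) (eh j) (ev' l) - w0 (eh j) (ev' l)| ≤ δ
  vv : ∀ θ l m, |w (θ, 0) (ev' l) (ev' m) - w0 (ev' l) (ev' m)| ≤ K
  dhh : ∀ θ i j k, |fderiv ℝ w (θ, 0) (eh i) (eh j) (eh k)| ≤ δ
  dhv : ∀ θ i j l, |fderiv ℝ w (θ, 0) (eh i) (eh j) (ev' l)| ≤ δ

theorem Near.mono {r K δ δ' : ℝ} {w : Fo N} {w0 : W N →L[ℝ] W N →L[ℝ] ℝ} (h : Near r K δ w w0)
    (hδ : δ ≤ δ') : Near r K δ' w w0 where
  cf := h.cf
  alt0 := h.alt0
  d1 := h.d1
  d2 := h.d2
  hh θ j k := (h.hh θ j k).trans hδ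
  hv θ j k := (h.hv θ j k).trans hδ
  vv := h.vv
  dhh θ i j k := (h.dhh θ i j k).trans hδ
  dhv θ i j k := (h.dhv θ i j k).trans hδ

theorem tri_le {X : Type*} [NormedAddCommGroup X] [NormedSpace ℝ X]
    (T : X →L[ℝ] X →L[ℝ] X →L[ℝ] ℝ) (u v z : X) : |T u v z| ≤ ‖T‖ * ‖u‖ * ‖v‖ * ‖z‖ := by
  calc |T u v z| ≤ ‖T u v‖ * ‖z‖ := (T u v).le_opNorm z
    _ ≤ (‖T u‖ * ‖v‖) * ‖z‖ := mul_le_mul_of_nonneg_right ((T u).le_opNorm v) (norm_nonneg _)
    _ ≤ (‖T‖ * ‖u‖ * ‖v‖) * ‖z‖ := by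
        refine mul_le_mul_of_nonneg_right (mul_le_mul_of_nonneg_right (T.le_opNorm u)
          (norm_nonneg _)) (norm_nonneg _)

theorem bil_le {X : Type*} [NormedAddCommGroup X] [NormedSpace ℝ X]
    (T : X →L[ℝ] X →L[ℝ] ℝ) (u v : X) : |T u v| ≤ ‖T‖ * ‖u‖ * ‖v‖ := T.le_opNorm₂ u v

/-- the derivative of an alternating form is alternating -/
theorem ClF.altd {r : ℝ} {w : Fo N} (hw : ClF r w) {p : W N} (hp : p ∈ tube N r) (z u v : W N) :
    fderiv ℝ w p z u v = - fderiv ℝ w p z v u := by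
  have h2 := (hw.da hp).hasFDerivAt
  have h3 : HasFDerivAt (fun p => w p u v) _ p :=
    (h2.clm_apply (hasFDerivAt_const u _)).clm_apply (hasFDerivAt_const v _)
  have h4 : HasFDerivAt (fun p => - w p v u) _ p :=
    ((h2.clm_apply (hasFDerivAt_const v _)).clm_apply (hasFDerivAt_const u _)).neg
  have h5 : (fun p => w p u v) =ᶠ[𝓝 p] fun p => - w p v u := by
    filter_upwards [(isOpen_tube (N := N) r).mem_nhds hp] with q hq
    exact hw.alt q hq u v
  have h6 := h3.unique (h4.congr_of_eventuallyEq h5)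
  have h7 := congrArg (fun L => L z) h6
  simpa using h7

theorem ClF.fderiv_entry {r : ℝ} {w : Fo N} (hw : ClF r w) {p : W N} (hp : p ∈ tube N r)
    (U U' z : W N) : fderiv ℝ (fun p => w p U U') p z = fderiv ℝ w p z U U' := by
  have h2 := (hw.da hp).hasFDerivAt
  have h3 := ((h2.clm_apply (hasFDerivAt_const U _)).clm_apply (hasFDerivAt_const U' _)).fderiv
  have h4 : fderiv ℝ (fun p => w p U U') p = _ := h3
  rw [h4]; simp

theorem convex_tube (r : ℝ) : Convex ℝ (tube N r) := by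
  intro p hp q hq s t hs ht hst
  have hp' : ‖p.2‖ < r := hp
  have hq' : ‖q.2‖ < r := hq
  have h := convex_ball (0 : V N) r (show p.2 ∈ ball (0 : V N) r by simpa using hp')
    (show q.2 ∈ ball (0 : V N) r by simpa using hq') hs ht hst
  show ‖s • p.2 + t • q.2‖ < r
  simpa using h

section

variable {r K δ : ℝ} {w : Fo N} {w0 : W N →L[ℝ] W N →L[ℝ] ℝ}

theorem Near.lip (h : Near r K δ w w0) {p q : W N} (hp : p ∈ tube N r) (hq : q ∈ tube N r) :
    ‖w p - w q‖ ≤ K * ‖p - q‖ :=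
  (convex_tube r).norm_image_sub_le_of_norm_fderiv_le (𝕜 := ℝ) (fun z hz => h.cf.da hz)
    (fun z hz => h.d1 z hz) hq hp

theorem mem_tube_zero (hr : 0 < r) (θ : V N) : ((θ, 0) : W N) ∈ tube N r := by
  show ‖(0 : V N)‖ < r
  rwa [norm_zero]

theorem norm_fib (θ v : V N) : ‖((θ, v) : W N) - (θ, 0)‖ = ‖v‖ := by
  have : ((θ, v) : W N) - (θ, 0) = (0, v) := by ext1 <;> simp
  rw [this, norm_vert]

/-- entries away from the zero section -/
theorem Near.entry (h : Near r K δ w w0) {ρ s : ℝ} (hρr : ρ ≤ r) (hr : 0 < r)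
    (hK : 0 ≤ K) {U U' : W N} (hU : ‖U‖ = 1) (hU' : ‖U'‖ = 1) {θ v : V N} (hv : ‖v‖ < ρ)
    (hs : |w (θ, 0) U U' - w0 U U'| ≤ s) : |w (θ, v) U U' - w0 U U'| ≤ s + K * ρ := by
  have h1 := h.lip (p := (θ, v)) (q := (θ, 0)) (hv.trans_le hρr) (mem_tube_zero hr θ)
  rw [norm_fib] at h1
  have h2 := bil_le (w (θ, v) - w (θ, 0)) U U'
  rw [hU, hU', mul_one, mul_one] at h2
  have e : w (θ, v) U U' - w0 U U' =
      (w (θ, v) - w (θ, 0)) U U' + (w (θ, 0) U U' - w0 U U') := by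
    simp only [ContinuousLinearMap.sub_apply]; ring
  rw [e]
  refine (abs_add_le _ _).trans ?_
  have h3 : K * ‖v‖ ≤ K * ρ := mul_le_mul_of_nonneg_left hv.le hK
  linarith

/-- smallness of the vertical derivative of the horizontal part -/
theorem Near.dv (h : Near r K δ w w0) {ρ : ℝ} (hρr : ρ ≤ r) (hr : 0 < r) (hK : 0 ≤ K)
    (hδ : 0 ≤ δ) (j k : Fin N) {θ v : V N} (hv : ‖v‖ < ρ) (u : V N) :
    |fderiv ℝ w (θ, v) (0, u) (eh j) (eh k)| ≤ (2 * N * δ + K * ρ) * ‖u‖ := by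
  have h0 := mem_tube_zero hr θ
  have hb : ∀ l, |fderiv ℝ w (θ, 0) (ev' l) (eh j) (eh k)| ≤ 2 * δ := by
    intro l
    have h1 := h.cf.cl (θ, 0) h0 (ev' l) (eh j) (eh k)
    have h2 := h.cf.altd h0 (eh k) (ev' l) (eh j)
    have h3 := h.dhv θ j k l
    have h4 := h.dhv θ k j l
    rw [abs_le] at h3 h4 ⊢
    constructor <;> linarith [h3.1, h3.2, h4.1, h4.2]
  have hb2 : |fderiv ℝ w (θ, 0) (0, u) (eh j) (eh k)| ≤ 2 * N * δ * ‖u‖ := by
    have e : ((0, u) : W N) = ∑ l, u l • ev' l := by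
      have h1 : ((0, u) : W N) = (ContinuousLinearMap.inr ℝ (V N) (V N)) u := rfl
      rw [h1]
      conv_lhs => rw [sum_ee u]
      rw [map_sum]
      refine Finset.sum_congr rfl fun l _ => ?_
      rw [map_smul]; rfl
    rw [e, map_sum]
    simp only [ContinuousLinearMap.sum_apply, map_smul, ContinuousLinearMap.smul_apply,
      smul_eq_mul]
    refine (Finset.abs_sum_le_sum_abs _ _).trans ?_
    calc ∑ l, |u l * fderiv ℝ w (θ, 0) (ev' l) (eh j) (eh k)| ≤ ∑ _l : Fin N, ‖u‖ * (2 * δ) := by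
          refine Finset.sum_le_sum fun l _ => ?_
          rw [abs_mul]
          exact mul_le_mul (abs_co_le u l) (hb l) (abs_nonneg _) (norm_nonneg _)
      _ = 2 * N * δ * ‖u‖ := by simp; ring
  have h1 := h.d2 (θ, v) (hv.trans_le hρr) (θ, 0) h0
  rw [norm_fib] at h1
  have h2 := tri_le (fderiv ℝ w (θ, v) - fderiv ℝ w (θ, 0)) (0, u) (eh j) (eh k)
  rw [norm_eh, norm_eh, mul_one, mul_one, norm_vert] at h2
  have e : fderiv ℝ w (θ, v) (0, u) (eh j) (eh k) =
      (fderiv ℝ w (θ, v) - fderiv ℝ w (θ, 0)) (0, u) (eh j) (eh k) +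
        fderiv ℝ w (θ, 0) (0, u) (eh j) (eh k) := by
    simp only [ContinuousLinearMap.sub_apply]; ring
  rw [e]
  refine (abs_add_le _ _).trans ?_
  have h3 : ‖fderiv ℝ w (θ, v) - fderiv ℝ w (θ, 0)‖ * ‖u‖ ≤ (K * ρ) * ‖u‖ :=
    mul_le_mul_of_nonneg_right (h1.trans (mul_le_mul_of_nonneg_left hv.le hK)) (norm_nonneg _)
  linarith

/-- entry of `w - w0` along the graph -/
def zf (w : Fo N) (w0 : W N →L[ℝ] W N →L[ℝ] ℝ) (U U' : W N) (a : V N → V N) (θ : V N) : ℝ :=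
  w (θ, a θ) U U' - w0 U U'

/-- pair estimate of an entry -/
theorem pe_zf {α ρ s s' Δ : ℝ} (hα : 0 < α) (hα1 : α < 1) (h : Near r K δ w w0) (hρr : ρ ≤ r)
    (hK : 0 ≤ K) (hs : 0 ≤ s) (hs' : 0 ≤ s') {U U' : W N} (hU : ‖U‖ = 1) (hU' : ‖U'‖ = 1)
    (hv : ∀ θ v, ‖v‖ < ρ → |w (θ, v) U U' - w0 U U'| ≤ s)
    (hd : ∀ θ v, ‖v‖ < ρ → ∀ u, |fderiv ℝ w (θ, v) (0, u) U U'| ≤ s' * ‖u‖)
    {a b : V N → V N} (ha : ∀ x, ‖a x‖ < ρ) (hb : ∀ x, ‖b x‖ < ρ)
    (la : ∀ x y, ‖a x - a y‖ ≤ ‖x - y‖) (lb : ∀ x y, ‖b x - b y‖ ≤ ‖x - y‖)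
    (hab : HO α Δ univ fun x => a x - b x) :
    PE α (kap α s K) (kap α s' K * Δ) (zf w w0 U U' a) (zf w w0 U U' b) := by
  have hval : ∀ c : V N → V N, (∀ x, ‖c x‖ < ρ) → (∀ x y, ‖c x - c y‖ ≤ ‖x - y‖) →
      HO α (kap α s K) univ (zf w w0 U U' c) := by
    intro c hc lc
    refine ho_val hα hα1 hs hK (fun x => hv x _ (hc x)) fun x y => ?_
    have h1 := h.lip (p := (x, c x)) (q := (y, c y)) ((hc x).trans_le hρr) ((hc y).trans_le hρr)
    have h2 : ‖((x, c x) : W N) - (y, c y)‖ ≤ ‖x - y‖ := by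
      show max ‖x - y‖ ‖c x - c y‖ ≤ ‖x - y‖
      exact max_le le_rfl (lc x y)
    have h3 := bil_le (w (x, c x) - w (y, c y)) U U'
    rw [hU, hU', mul_one, mul_one] at h3
    have e : zf w w0 U U' c x - zf w w0 U U' c y = (w (x, c x) - w (y, c y)) U U' := by
      unfold zf; simp only [ContinuousLinearMap.sub_apply]; ring
    rw [e]
    exact h3.trans (h1.trans (mul_le_mul_of_nonneg_left h2 hK))
  refine ⟨hval a ha la, hval b hb lb, ?_⟩
  have hsub : ∀ p ∈ tube N ρ, p ∈ tube N r := fun p hp => lt_of_lt_of_le hp hρr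
  have h1 := ho_diff (F := fun p => w p U U') (s := s') (K := K) (ρ := ρ) hα hα1 hs' hK
    (fun p hp => ((h.cf.da (hsub p hp)).clm_apply (differentiableAt_const U)).clm_apply
      (differentiableAt_const U'))
    (fun p hp u => by
      rw [h.cf.fderiv_entry (hsub p hp)]
      exact hd p.1 p.2 hp u)
    (fun p hp q hq u => by
      rw [h.cf.fderiv_entry (hsub p hp), h.cf.fderiv_entry (hsub q hq)]
      have h2 := tri_le (fderiv ℝ w p - fderiv ℝ w q) (0, u) U U'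
      rw [hU, hU', mul_one, mul_one, norm_vert] at h2
      have h3 := h.d2 p (hsub p hp) q (hsub q hq)
      exact h2.trans (mul_le_mul_of_nonneg_right h3 (norm_nonneg _)))
    ha hb la lb hab
  exact h1.congr fun x _ => by unfold zf; ring

/-- non-linear part -/
def pz (w : Fo N) (w0 : W N →L[ℝ] W N →L[ℝ] ℝ) (a : V N → V N) (j k : Fin N) (θ : V N) : ℝ :=
  pb w a j k θ - w0 (ee j, dr j a θ) (ee k, dr k a θ)

theorem pz_expand (w : Fo N) (w0 : W N →L[ℝ] W N →L[ℝ] ℝ) (a : V N → V N) (j k : Fin N)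
    (θ : V N) : pz w w0 a j k θ =
      zf w w0 (eh j) (eh k) a θ + ((∑ m, (dr k a θ) m * zf w w0 (eh j) (ev' m) a θ) +
        ((∑ l, (dr j a θ) l * zf w w0 (ev' l) (eh k) a θ) +
          ∑ l, ∑ m, ((dr j a θ) l * (dr k a θ) m) * zf w w0 (ev' l) (ev' m) a θ)) := by
  have e : ∀ (j : Fin N) (u : V N), ((ee j, u) : W N) = eh j + ∑ l, u l • ev' l := by
    intro j u
    have h1 : ((ee j, u) : W N) = eh j + (ContinuousLinearMap.inr ℝ (V N) (V N)) u := by
      simp [eh]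
    rw [h1]
    conv_lhs => rw [sum_ee u]
    rw [map_sum]
    congr 1
    refine Finset.sum_congr rfl fun l _ => ?_
    rw [map_smul]; rfl
  have e2 : ∀ B : W N →L[ℝ] W N →L[ℝ] ℝ, B (ee j, dr j a θ) (ee k, dr k a θ) =
      B (eh j) (eh k) + ((∑ m, (dr k a θ) m * B (eh j) (ev' m)) +
        ((∑ l, (dr j a θ) l * B (ev' l) (eh k)) +
          ∑ l, ∑ m, ((dr j a θ) l * (dr k a θ) m) * B (ev' l) (ev' m))) := by
    intro B
    rw [e j, e k]
    simp only [map_add, map_sum, map_smul, ContinuousLinearMap.add_apply,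
      ContinuousLinearMap.sum_apply, ContinuousLinearMap.smul_apply, smul_eq_mul, mul_add,
      Finset.sum_add_distrib, Finset.mul_sum]
    have h3 : ∑ x, ∑ y, (dr k a θ) x * ((dr j a θ) y * B (ev' y) (ev' x)) =
        ∑ l, ∑ m, (dr j a θ) l * (dr k a θ) m * B (ev' l) (ev' m) := by
      rw [Finset.sum_comm]
      exact Finset.sum_congr rfl fun l _ => Finset.sum_congr rfl fun m _ => by ring
    rw [h3]; ring
  unfold pz pb
  rw [e2, e2]
  unfold zf
  simp only [mul_sub, Finset.sum_sub_distrib]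
  ring

/-- the contraction factor -/
def Ef (α : ℝ) (N : ℕ) (K t : ℝ) : ℝ :=
  kap α (2 * N * t + K * t) K +
    (N * (2 * kap α (t + K * t) K + 2 * (t * kap α K K)) +
      (N * (2 * kap α (t + K * t) K + 2 * (t * kap α K K)) +
        N * (N * (2 * ((2 * t + 2 * t) * kap α (K + K * t) K) +
          2 * (2 * (t * t) * kap α K K)))))

theorem Ef_continuous {α : ℝ} (hα1 : α < 1) (N : ℕ) (K : ℝ) : Continuous (Ef α N K) := by
  have k1 := kap_continuous (s := fun t : ℝ => 2 * N * t + K * t) hα1 K (by fun_prop)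
  have k2 := kap_continuous (s := fun t : ℝ => t + K * t) hα1 K (by fun_prop)
  have k3 := kap_continuous (s := fun t : ℝ => K + K * t) hα1 K (by fun_prop)
  unfold Ef
  fun_prop

theorem Ef_zero {α : ℝ} (hα1 : α < 1) (N : ℕ) (K : ℝ) : Ef α N K 0 = 0 := by
  unfold Ef
  simp [kap_zero hα1]

theorem ne_est {α t Δ : ℝ} (hα : 0 < α) (hα1 : α < 1) (ht : 0 < t) (ht1 : t ≤ 1) (htr : t ≤ r)
    (hK : 0 ≤ K) (h : Near r K t w w0) {a b : V N → V N} (sa : SP a) (sb : SP b)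
    (ha : ∀ x, ‖a x‖ < t) (hb : ∀ x, ‖b x‖ < t) (ha1 : HO α t univ (fderiv ℝ a))
    (hb1 : HO α t univ (fderiv ℝ b)) (hd0 : HO α Δ univ fun x => a x - b x)
    (hd1 : HO α Δ univ fun x => fderiv ℝ a x - fderiv ℝ b x) (j k : Fin N) :
    HO α (Ef α N K t * Δ) univ (fun θ => pz w w0 a j k θ - pz w w0 b j k θ) := by
  have hr : 0 < r := ht.trans_le htr
  have hlip : ∀ c : V N → V N, SP c → HO α t univ (fderiv ℝ c) → ∀ x y,
      ‖c x - c y‖ ≤ ‖x - y‖ := by
    intro c sc hc x y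
    have := convex_univ.norm_image_sub_le_of_norm_fderiv_le (𝕜 := ℝ) (fun z _ => sc.diff z)
      (fun z hz => (hc.bdd z hz).trans ht1) (mem_univ y) (mem_univ x)
    rwa [one_mul] at this
  have la := hlip a sa ha1
  have lb := hlip b sb hb1
  have hKt : 0 ≤ K * t := by positivity
  -- entries
  have p_hh : ∀ j k, PE α (kap α (t + K * t) K) (kap α (2 * N * t + K * t) K * Δ)
      (zf w w0 (eh j) (eh k) a) (zf w w0 (eh j) (eh k) b) := fun j k =>
    pe_zf hα hα1 h htr hK (by positivity) (by positivity) (norm_eh j) (norm_eh k)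
      (fun θ v hv => h.entry htr hr hK (norm_eh j) (norm_eh k) hv (h.hh θ j k))
      (fun θ v hv u => h.dv htr hr hK ht.le j k hv u) ha hb la lb hd0
  have gd : ∀ U U' : W N, ‖U‖ = 1 → ‖U'‖ = 1 → ∀ θ v : V N, ‖v‖ < t → ∀ u : V N,
      |fderiv ℝ w (θ, v) (0, u) U U'| ≤ K * ‖u‖ := by
    intro U U' hU hU' θ v hv u
    have h2 := tri_le (fderiv ℝ w (θ, v)) (0, u) U U'
    rw [hU, hU', mul_one, mul_one, norm_vert] at h2
    exact h2.trans (mul_le_mul_of_nonneg_right (h.d1 _ (hv.trans_le htr)) (norm_nonneg _))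
  have p_hv : ∀ j l, PE α (kap α (t + K * t) K) (kap α K K * Δ)
      (zf w w0 (eh j) (ev' l) a) (zf w w0 (eh j) (ev' l) b) := fun j l =>
    pe_zf hα hα1 h htr hK (by positivity) hK (norm_eh j) (norm_ev' l)
      (fun θ v hv => h.entry htr hr hK (norm_eh j) (norm_ev' l) hv (h.hv θ j l))
      (gd _ _ (norm_eh j) (norm_ev' l)) ha hb la lb hd0
  have p_vh : ∀ l j, PE α (kap α (t + K * t) K) (kap α K K * Δ)
      (zf w w0 (ev' l) (eh j) a) (zf w w0 (ev' l) (eh j) b) := fun l j =>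
    pe_zf hα hα1 h htr hK (by positivity) hK (norm_ev' l) (norm_eh j)
      (fun θ v hv => h.entry htr hr hK (norm_ev' l) (norm_eh j) hv (by
        have h1 := h.hv θ j l
        rw [h.cf.alt _ (mem_tube_zero hr θ) (ev' l) (eh j), h.alt0 (ev' l) (eh j)]
        rw [← abs_neg]
        convert h1 using 2
        ring))
      (gd _ _ (norm_ev' l) (norm_eh j)) ha hb la lb hd0
  have p_vv : ∀ l m, PE α (kap α (K + K * t) K) (kap α K K * Δ)
      (zf w w0 (ev' l) (ev' m) a) (zf w w0 (ev' l) (ev' m) b) := fun l m =>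
    pe_zf hα hα1 h htr hK (by positivity) hK (norm_ev' l) (norm_ev' m)
      (fun θ v hv => h.entry htr hr hK (norm_ev' l) (norm_ev' m) hv (h.vv θ l m))
      (gd _ _ (norm_ev' l) (norm_ev' m)) ha hb la lb hd0
  -- components of the derivative
  have hcomp : ∀ (M : ℝ) (T : V N → V N →L[ℝ] V N), HO α M univ T → ∀ j l,
      HO α M univ (fun θ => (T θ (ee j)) l) := by
    intro M T hT j l
    refine ⟨fun x hx => ?_, fun x hx y hy => ?_⟩
    · refine (abs_co_le _ l).trans (((T x).le_opNorm _).trans ?_)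
      rw [norm_ee, mul_one]; exact hT.bdd x hx
    · refine (abs_co_le ((T x - T y) (ee j)) l).trans (((T x - T y).le_opNorm _).trans ?_)
      rw [norm_ee, mul_one]; exact hT.hol x hx y hy
  have pA : ∀ j l, PE α t Δ (fun θ => (dr j a θ) l) (fun θ => (dr j b θ) l) := fun j l =>
    ⟨hcomp t _ ha1 j l, hcomp t _ hb1 j l, hcomp Δ _ hd1 j l⟩
  have q1 := p_hh j k
  have q2 := PE.sum (Finset.univ : Finset (Fin N)) fun m _ => (pA k m).mul (p_hv j m)
  have q3 := PE.sum (Finset.univ : Finset (Fin N)) fun l _ => (pA j l).mul (p_vh l k)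
  have q4 := PE.sum (Finset.univ : Finset (Fin N)) fun l _ =>
    PE.sum (Finset.univ : Finset (Fin N)) fun m _ => ((pA j l).mul (pA k m)).mul (p_vv l m)
  have q := (q1.add (q2.add (q3.add q4))).d1
  have e : ∀ c : V N → V N, pz w w0 c j k = fun θ => zf w w0 (eh j) (eh k) c θ +
      ((∑ m, (dr k c θ) m * zf w w0 (eh j) (ev' m) c θ) +
        ((∑ l, (dr j c θ) l * zf w w0 (ev' l) (eh k) c θ) +
          ∑ l, ∑ m, ((dr j c θ) l * (dr k c θ) m) * zf w w0 (ev' l) (ev' m) c θ)) := fun c =>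
    funext fun θ => pz_expand w w0 c j k θ
  rw [e a, e b]
  refine HO.mono q (le_of_eq ?_)
  simp only [Finset.card_univ, Fintype.card_fin]
  unfold Ef
  ring

/-- the value at the zero section -/
theorem base_est {α : ℝ} (hα : 0 < α) (hα1 : α < 1) (hr : 0 < r) (hδ : 0 ≤ δ)
    (h : Near r K δ w w0) (j k : Fin N) :
    HO α ((N + 2) * δ) univ (pz w w0 (fun _ => 0) j k) := by
  have e : pz w w0 (fun _ => 0) j k = zf w w0 (eh j) (eh k) fun _ => 0 := by
    funext θ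
    have h0 : ∀ j, dr j (fun _ : V N => (0 : V N)) θ = 0 := fun j => by simp [dr]
    unfold pz pb zf
    rw [h0, h0]; rfl
  rw [e]
  have hd : ∀ x u : V N, |fderiv ℝ w (x, 0) (u, 0) (eh j) (eh k)| ≤ N * δ * ‖u‖ := by
    intro x u
    have e : ((u, 0) : W N) = ∑ l, u l • eh l := by
      have h1 : ((u, 0) : W N) = (ContinuousLinearMap.inl ℝ (V N) (V N)) u := rfl
      rw [h1]
      conv_lhs => rw [sum_ee u]
      rw [map_sum]
      refine Finset.sum_congr rfl fun l _ => ?_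
      rw [map_smul]; rfl
    rw [e, map_sum]
    simp only [ContinuousLinearMap.sum_apply, map_smul, ContinuousLinearMap.smul_apply,
      smul_eq_mul]
    refine (Finset.abs_sum_le_sum_abs _ _).trans ?_
    calc ∑ l, |u l * fderiv ℝ w (x, 0) (eh l) (eh j) (eh k)| ≤ ∑ _l : Fin N, ‖u‖ * δ := by
          refine Finset.sum_le_sum fun l _ => ?_
          rw [abs_mul]
          exact mul_le_mul (abs_co_le u l) (h.dhh x l j k) (abs_nonneg _) (norm_nonneg _)
      _ = N * δ * ‖u‖ := by simp; ring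
  have hder : ∀ x, HasFDerivAt (zf w w0 (eh j) (eh k) fun _ => 0)
      ((fderiv ℝ (fun p => w p (eh j) (eh k)) (x, 0)).comp
        (ContinuousLinearMap.inl ℝ (V N) (V N))) x := by
    intro x
    have h1 : DifferentiableAt ℝ (fun p => w p (eh j) (eh k)) ((x, 0) : W N) :=
      ((h.cf.da (mem_tube_zero hr x)).clm_apply (differentiableAt_const _)).clm_apply
        (differentiableAt_const _)
    have h2 := HasFDerivAt.comp (g := fun p => w p (eh j) (eh k))
      (f := fun x : V N => ((x, 0) : W N)) x h1.hasFDerivAt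
      (ContinuousLinearMap.inl ℝ (V N) (V N)).hasFDerivAt
    exact h2.sub_const _
  have hN : (0 : ℝ) ≤ N := Nat.cast_nonneg N
  have h3 := ho_of_lip (a := α) (M := δ) (L := N * δ) (s := univ) hα.le hα1.le
    (f := zf w w0 (eh j) (eh k) fun _ => 0) (fun x _ => h.hh x j k) (fun x _ y _ => ?_)
    (by positivity) hδ
  · exact HO.mono h3 (by ring_nf; exact le_rfl)
  · refine convex_univ.norm_image_sub_le_of_norm_hasFDerivWithin_le
      (fun z _ => (hder z).hasFDerivWithinAt) (fun z _ => ?_) (mem_univ y) (mem_univ x)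
    refine ContinuousLinearMap.opNorm_le_bound _ (by positivity) fun u => ?_
    show |fderiv ℝ (fun p => w p (eh j) (eh k)) (z, 0) (u, 0)| ≤ _
    rw [h.cf.fderiv_entry (mem_tube_zero hr z)]
    exact hd z u

end

end

end Crest.Agent.R281.Mc673
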