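import Crest.Agent.R281.Mc7_673

/-!
# R281 / LAGT (helper673), part 8

The constant model, one step of the iteration and its estimates.
-/

set_option autoImplicit false
set_option maxSynthPendingDepth 3

open MeasureTheory Set Metric Filter
open scoped ContDiff Topology

namespace Crest.Agent.R281.Mc673

open Crest.Agent.R238 (Ell)
open Crest.Agent.R238.Sch (ee norm_ee sum_ee)
open Crest.Agent.R273.SchA_152 (HO)

noncomputable section

variable {N : ℕ}

/-! ### the model -/

/-- horizontal coordinate -/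
def ph (k : Fin N) : W N →L[ℝ] ℝ := (EuclideanSpace.proj k : V N →L[ℝ] ℝ).comp
  (ContinuousLinearMap.fst ℝ (V N) (V N))

/-- vertical coordinate -/
def pv (k : Fin N) : W N →L[ℝ] ℝ := (EuclideanSpace.proj k : V N →L[ℝ] ℝ).comp
  (ContinuousLinearMap.snd ℝ (V N) (V N))

theorem ph_apply (k : Fin N) (u : W N) : ph k u = u.1 k := rfl
theorem pv_apply (k : Fin N) (u : W N) : pv k u = u.2 k := rfl

/-- the model form `⟨C v, θ'⟩ - ⟨C v', θ⟩` -/
def mdl (C : Matrix (Fin N) (Fin N) ℝ) : W N →L[ℝ] W N →L[ℝ] ℝ :=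
  ∑ k, ∑ l, C k l • ((pv l).smulRight (ph k) - (ph k).smulRight (pv l))

theorem mdl_apply (C : Matrix (Fin N) (Fin N) ℝ) (u w : W N) :
    mdl C u w = ∑ k, ∑ l, C k l * (u.2 l * w.1 k - u.1 k * w.2 l) := by
  unfold mdl
  simp only [ContinuousLinearMap.sum_apply, ContinuousLinearMap.smul_apply,
    ContinuousLinearMap.sub_apply, ContinuousLinearMap.smulRight_apply, smul_eq_mul,
    ph_apply, pv_apply]

theorem mdl_alt (C : Matrix (Fin N) (Fin N) ℝ) (u w : W N) : mdl C u w = - mdl C w u := by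
  rw [mdl_apply, mdl_apply, ← Finset.sum_neg_distrib]
  refine Finset.sum_congr rfl fun k _ => ?_
  rw [← Finset.sum_neg_distrib]
  exact Finset.sum_congr rfl fun l _ => by ring

theorem ee_apply (j k : Fin N) : (ee j : V N) k = if k = j then 1 else 0 := by
  by_cases h : k = j
  · subst h; simp [ee]
  · simp [ee, h]

theorem mdl_graph (C : Matrix (Fin N) (Fin N) ℝ) (j k : Fin N) (A B : V N) :
    mdl C (ee j, A) (ee k, B) = (∑ l, C k l * A l) - ∑ l, C j l * B l := by
  rw [mdl_apply]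
  simp only [ee_apply, mul_sub, Finset.sum_sub_distrib]
  congr 1
  · rw [Finset.sum_eq_single k]
    · simp
    · intro i _ hi; simp [hi]
    · simp
  · rw [Finset.sum_eq_single j]
    · simp
    · intro i _ hi; simp [hi]
    · simp

theorem mdl_one_graph (j k : Fin N) (A B : V N) :
    mdl 1 (ee j, A) (ee k, B) = A k - B j := by
  rw [mdl_graph]
  simp [Matrix.one_apply]

/-- `1 + Cᵀ C` -/
def Sm (C : Matrix (Fin N) (Fin N) ℝ) : Matrix (Fin N) (Fin N) ℝ := 1 + C.transpose * C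

theorem Sm_apply (C : Matrix (Fin N) (Fin N) ℝ) (i j : Fin N) :
    Sm C i j = (if i = j then 1 else 0) + ∑ k, C k i * C k j := by
  unfold Sm
  simp [Matrix.add_apply, Matrix.one_apply, Matrix.mul_apply]

theorem ell_Sm {Λ : ℝ} {C : Matrix (Fin N) (Fin N) ℝ} (hΛ : ∀ j k, |C j k| ≤ Λ) :
    Ell 1 (1 + N * (N * Λ ^ 2)) (Sm C) := by
  refine ⟨fun i j => ?_, fun z => ?_⟩
  · rw [Sm_apply, Sm_apply]
    congr 1
    · by_cases h : i = j
      · subst h; rfl
      · rw [if_neg h, if_neg (Ne.symm h)]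
    · exact Finset.sum_congr rfl fun k _ => mul_comm _ _
  have e : ∑ i, ∑ j, Sm C i j * z i * z j = ∑ i, z i ^ 2 + ∑ k, (∑ j, C k j * z j) ^ 2 := by
    have e1 : ∑ i, ∑ j, Sm C i j * z i * z j =
        ∑ i, ∑ j, (if i = j then z i * z j else 0) +
          ∑ i, ∑ j, ∑ k, (C k i * z i) * (C k j * z j) := by
      rw [← Finset.sum_add_distrib]
      refine Finset.sum_congr rfl fun i _ => ?_
      rw [← Finset.sum_add_distrib]
      refine Finset.sum_congr rfl fun j _ => ?_
      rw [Sm_apply, add_mul, add_mul, Finset.sum_mul, Finset.sum_mul]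
      congr 1
      · by_cases h : i = j
        · rw [if_pos h, if_pos h]; ring
        · rw [if_neg h, if_neg h]; ring
      · exact Finset.sum_congr rfl fun k _ => by ring
    rw [e1]
    congr 1
    · refine Finset.sum_congr rfl fun i _ => ?_
      simp [sq]
    · have e2 : ∀ k, (∑ j, C k j * z j) ^ 2 = ∑ i, ∑ j, (C k i * z i) * (C k j * z j) := by
        intro k
        rw [sq, Finset.sum_mul_sum]
      simp_rw [e2]
      rw [Finset.sum_comm' (t' := Finset.univ) (s' := fun _ => Finset.univ) (by simp)]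
      rw [show (∑ y, ∑ x, ∑ k, C k x * z x * (C k y * z y)) =
        ∑ x, ∑ y, ∑ k, C k x * z x * (C k y * z y) from Finset.sum_comm]
      have : ∀ x, ∑ y, ∑ k, C k x * z x * (C k y * z y) =
          ∑ k, ∑ y, C k x * z x * (C k y * z y) := fun x => Finset.sum_comm
      simp_rw [this]
      exact Finset.sum_comm
  have h0 : 0 ≤ ∑ k, (∑ j, C k j * z j) ^ 2 := Finset.sum_nonneg fun k _ => sq_nonneg _
  have h1 : ∑ k, (∑ j, C k j * z j) ^ 2 ≤ N * (N * Λ ^ 2) * ∑ i, z i ^ 2 := by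
    calc ∑ k, (∑ j, C k j * z j) ^ 2 ≤ ∑ _k : Fin N, (N * Λ ^ 2) * ∑ i, z i ^ 2 := by
          refine Finset.sum_le_sum fun k _ => ?_
          refine (Finset.sum_mul_sq_le_sq_mul_sq _ _ _).trans ?_
          refine mul_le_mul_of_nonneg_right ?_ (Finset.sum_nonneg fun i _ => sq_nonneg _)
          calc ∑ i, C k i ^ 2 ≤ ∑ _i : Fin N, Λ ^ 2 := Finset.sum_le_sum fun i _ => by
                rw [← sq_abs]
                exact pow_le_pow_left₀ (abs_nonneg _) (hΛ k i) 2
            _ = N * Λ ^ 2 := by simp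
      _ = N * (N * Λ ^ 2) * ∑ i, z i ^ 2 := by simp; ring
  rw [e]
  constructor <;> linarith

/-- the algebraic identity behind the scalar equation -/
theorem alg_id {C : Matrix (Fin N) (Fin N) ℝ} (hC : C * C = -1) (A : Fin N → V N) :
    ∑ j, ∑ k, C j k * mdl C (ee j, A j) (ee k, A k) = - ∑ i, ∑ j, Sm C i j * (A i) j := by
  have hCC : ∀ j l, ∑ k, C j k * C k l = - (if j = l then 1 else 0) := by
    intro j l
    have := congrFun (congrFun hC j) l
    rw [Matrix.mul_apply] at this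
    rw [this]
    simp [Matrix.one_apply]
  have e1 : ∑ j, ∑ k, C j k * ∑ l, C k l * (A j) l = - ∑ j, ∑ l, (if j = l then 1 else 0) * (A j) l := by
    rw [← Finset.sum_neg_distrib]
    refine Finset.sum_congr rfl fun j _ => ?_
    simp_rw [Finset.mul_sum]
    rw [Finset.sum_comm, ← Finset.sum_neg_distrib]
    refine Finset.sum_congr rfl fun l _ => ?_
    rw [← neg_mul, ← hCC j l, Finset.sum_mul]
    exact Finset.sum_congr rfl fun k _ => by ring
  have e2 : ∑ j, ∑ k, C j k * ∑ l, C j l * (A k) l = ∑ k, ∑ l, (∑ j, C j k * C j l) * (A k) l := by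
    rw [Finset.sum_comm]
    refine Finset.sum_congr rfl fun k _ => ?_
    simp_rw [Finset.mul_sum, Finset.sum_mul]
    rw [Finset.sum_comm]
    exact Finset.sum_congr rfl fun l _ => Finset.sum_congr rfl fun j _ => by ring
  simp_rw [mdl_graph, mul_sub, Finset.sum_sub_distrib]
  rw [e1, e2, ← Finset.sum_neg_distrib, ← Finset.sum_neg_distrib, ← Finset.sum_sub_distrib]
  refine Finset.sum_congr rfl fun i _ => ?_
  rw [← Finset.sum_neg_distrib, ← Finset.sum_neg_distrib, ← Finset.sum_sub_distrib]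
  refine Finset.sum_congr rfl fun j _ => ?_
  rw [Sm_apply]; ring

/-! ### data and step -/

/-- the data: two closed forms close to the model -/
structure Dat (r K δ Λ : ℝ) (C : Matrix (Fin N) (Fin N) ℝ) (x y : Fo N) : Prop where
  CC : C * C = -1
  CL : ∀ j k, |C j k| ≤ Λ
  nx : Near r K δ x (mdl 1)
  ny : Near r K δ y (mdl C)
  mx : ∀ j k, mn (fun θ => x (θ, 0) (eh j) (eh k)) = 0
  my : ∀ j k, mn (fun θ => y (θ, 0) (eh j) (eh k)) = 0

/-- one step of the iteration -/
structure Step (C : Matrix (Fin N) (Fin N) ℝ) (x y : Fo N) (c : V N) (a a' : V N → V N) :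
    Prop where
  sp : SP a'
  mean : ∀ k, mn (co a' k) = c k
  eqx : ∀ j k θ, dr j (co a' k) θ - dr k (co a' j) θ = - pz x (mdl 1) a j k θ
  eqy : ∀ θ, dS (Sm C) (co a') θ = ∑ j, ∑ k, C j k * pz y (mdl C) a j k θ

theorem dr_co' {a : V N → V N} (ha : SP a) (j k : Fin N) (θ : V N) :
    dr j (co a k) θ = (dr j a θ) k := dr_co (ha.diff θ) j k

theorem mdl_one_dv {a : V N → V N} (ha : SP a) (j k : Fin N) (θ : V N) :
    mdl 1 (ee j, dr j a θ) (ee k, dr k a θ) = dr j (co a k) θ - dr k (co a j) θ := by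
  rw [mdl_one_graph, dr_co' ha, dr_co' ha]

theorem mdl_dS {C : Matrix (Fin N) (Fin N) ℝ} (hC : C * C = -1) {a : V N → V N} (ha : SP a)
    (θ : V N) : ∑ j, ∑ k, C j k * mdl C (ee j, dr j a θ) (ee k, dr k a θ) =
      - dS (Sm C) (co a) θ := by
  rw [alg_id hC fun j => dr j a θ]
  unfold dS
  congr 1
  exact Finset.sum_congr rfl fun i _ => Finset.sum_congr rfl fun j _ => by rw [dr_co' ha]

theorem sp_mdl (C : Matrix (Fin N) (Fin N) ℝ) {a : V N → V N} (ha : SP a) (j k : Fin N) :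
    SP (fun θ => mdl C (ee j, dr j a θ) (ee k, dr k a θ)) := by
  have e : (fun θ => mdl C (ee j, dr j a θ) (ee k, dr k a θ)) =
      fun θ => (∑ l, C k l * dr j (co a l) θ) - ∑ l, C j l * dr k (co a l) θ := by
    funext θ
    rw [mdl_graph]
    simp only [dr_co' ha]
  rw [e]
  exact (SP.sum _ fun l _ => ((sp_co ha l).dr j).cmul _).sub
    (SP.sum _ fun l _ => ((sp_co ha l).dr k).cmul _)

theorem mn_mdl (C : Matrix (Fin N) (Fin N) ℝ) {a : V N → V N} (ha : SP a) (j k : Fin N) :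
    mn (fun θ => mdl C (ee j, dr j a θ) (ee k, dr k a θ)) = 0 := by
  have e : (fun θ => mdl C (ee j, dr j a θ) (ee k, dr k a θ)) =
      fun θ => (∑ l, C k l * dr j (co a l) θ) - ∑ l, C j l * dr k (co a l) θ := by
    funext θ
    rw [mdl_graph]
    simp only [dr_co' ha]
  have h : ∀ j k, mn (fun θ => ∑ l, C k l * dr j (co a l) θ) = 0 := by
    intro j k
    have h1 : mn (fun θ => ∑ l, C k l * dr j (co a l) θ) =
        ∑ l, mn (fun θ => C k l * dr j (co a l) θ) :=
      mn_sum _ fun l _ => ((sp_co ha l).dr j).cmul _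
    rw [h1]
    refine Finset.sum_eq_zero fun l _ => ?_
    rw [mn_mul, mn_dr (sp_co ha l), mul_zero]
  have h2 : mn (fun θ => (∑ l, C k l * dr j (co a l) θ) - ∑ l, C j l * dr k (co a l) θ) =
      mn (fun θ => ∑ l, C k l * dr j (co a l) θ) - mn (fun θ => ∑ l, C j l * dr k (co a l) θ) :=
    mn_sub (SP.sum _ fun l _ => ((sp_co ha l).dr j).cmul _)
      (SP.sum _ fun l _ => ((sp_co ha l).dr k).cmul _)
  rw [e, h2, h, h, sub_zero]

theorem sp_pz {r : ℝ} {w : Fo N} (hw : ClF r w) (C : Matrix (Fin N) (Fin N) ℝ) {a : V N → V N}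
    (ha : SP a) (har : ∀ θ, ‖a θ‖ < r) (j k : Fin N) : SP (pz w (mdl C) a j k) :=
  (sp_pb hw ha har j k).sub (sp_mdl C ha j k)

theorem mn_pz {r : ℝ} {w : Fo N} (hw : ClF r w) (C : Matrix (Fin N) (Fin N) ℝ) {a : V N → V N}
    (ha : SP a) (har : ∀ θ, ‖a θ‖ < r) (hm : ∀ j k, mn (fun θ => w (θ, 0) (eh j) (eh k)) = 0)
    (j k : Fin N) : mn (pz w (mdl C) a j k) = 0 := by
  have h1 : mn (pz w (mdl C) a j k) =
      mn (pb w a j k) - mn (fun θ => mdl C (ee j, dr j a θ) (ee k, dr k a θ)) :=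
    mn_sub (sp_pb hw ha har j k) (sp_mdl C ha j k)
  have h2 : pb w (fun _ => 0) j k = fun θ => w (θ, 0) (eh j) (eh k) := by
    funext θ
    have h0 : ∀ j, dr j (fun _ : V N => (0 : V N)) θ = 0 := fun j => by simp [dr]
    unfold pb
    rw [h0, h0]; rfl
  rw [h1, mn_pb hw ha har, h2, hm, mn_mdl C ha, sub_zero]

theorem step_exists {r K δ Λ : ℝ} {C : Matrix (Fin N) (Fin N) ℝ} {x y : Fo N}
    (D : Dat r K δ Λ C x y) {a : V N → V N} (ha : SP a) (har : ∀ θ, ‖a θ‖ < r) (c : V N) :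
    ∃ a', Step C x y c a a' := by
  have cx := D.nx.cf
  have cy := D.ny.cf
  have spx := sp_pz cx 1 ha har
  have spy := sp_pz cy C ha har
  have hf : SP (fun θ => ∑ j, ∑ k, C j k * pz y (mdl C) a j k θ) :=
    SP.sum _ fun j _ => SP.sum _ fun k _ => (spy j k).cmul _
  have hf0 : mn (fun θ => ∑ j, ∑ k, C j k * pz y (mdl C) a j k θ) = 0 := by
    have h1 : mn (fun θ => ∑ j, ∑ k, C j k * pz y (mdl C) a j k θ) =
        ∑ j, mn (fun θ => ∑ k, C j k * pz y (mdl C) a j k θ) :=
      mn_sum _ fun j _ => SP.sum _ fun k _ => (spy j k).cmul _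
    rw [h1]
    refine Finset.sum_eq_zero fun j _ => ?_
    have h2 : mn (fun θ => ∑ k, C j k * pz y (mdl C) a j k θ) =
        ∑ k, mn (fun θ => C j k * pz y (mdl C) a j k θ) :=
      mn_sum _ fun k _ => (spy j k).cmul _
    rw [h2]
    refine Finset.sum_eq_zero fun k _ => ?_
    rw [mn_mul, mn_pz cy C ha har D.my, mul_zero]
  have hclosed : ∀ i j k θ, dr i (fun θ => - pz x (mdl 1) a j k θ) θ +
      dr j (fun θ => - pz x (mdl 1) a k i θ) θ + dr k (fun θ => - pz x (mdl 1) a i j θ) θ = 0 := by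
    intro i j k θ
    have e : ∀ i j k, dr i (fun θ => - pz x (mdl 1) a j k θ) θ =
        - (dr i (pb x a j k) θ - (dr i (dr j (co a k)) θ - dr i (dr k (co a j)) θ)) := by
      intro i j k
      have e1 : (fun θ => - pz x (mdl 1) a j k θ) = fun θ =>
          - (pb x a j k θ - (dr j (co a k) θ - dr k (co a j) θ)) := by
        funext θ
        unfold pz
        rw [mdl_one_dv ha]
      rw [e1, dr_neg]
      congr 1
      have s1 := (sp_co ha k).dr j
      have s2 := (sp_co ha j).dr k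
      rw [dr_sub (sp_pb cx ha har j k) (s1.sub s2), dr_sub s1 s2]
    rw [e, e, e]
    have h1 := pb_closed cx ha har i j k θ
    have c1 := dr_comm (sp_co ha k) i j θ
    have c2 := dr_comm (sp_co ha j) i k θ
    have c3 := dr_comm (sp_co ha i) j k θ
    linarith
  obtain ⟨h, h1, h2, h3, h4⟩ := sys_exists (ell_Sm D.CL)
    (β := fun j k θ => - pz x (mdl 1) a j k θ) (f := fun θ => ∑ j, ∑ k, C j k * pz y (mdl C) a j k θ)
    (fun j k => (spx j k).neg) hf
    (fun j k θ => by
      show - pz x (mdl 1) a j k θ = - - pz x (mdl 1) a k j θ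
      unfold pz
      rw [pb_anti cx har, mdl_alt]; ring)
    hclosed
    (fun j k => by
      show mn (fun θ => - pz x (mdl 1) a j k θ) = 0
      rw [mn_neg, mn_pz cx 1 ha har D.mx, neg_zero])
    hf0
  have hsp : SP (fun θ => c + h θ) := (SP.const c).add h1
  have hco : ∀ k, co (fun θ => c + h θ) k = fun θ => c k + co h k θ := fun k => rfl
  have hdr : ∀ j k θ, dr j (co (fun θ => c + h θ) k) θ = dr j (co h k) θ := by
    intro j k θ
    rw [hco, dr_add (SP.const (c k)) (sp_co h1 k)]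
    simp [dr]
  refine ⟨fun θ => c + h θ, hsp, fun k => ?_, fun j k θ => ?_, fun θ => ?_⟩
  · rw [hco, mn_add (SP.const (c k)) (sp_co h1 k), h2, mn_const, add_zero]
  · rw [hdr, hdr]; exact h3 j k θ
  · rw [← h4 θ]
    unfold dS
    exact Finset.sum_congr rfl fun i _ => Finset.sum_congr rfl fun j _ => by rw [hdr]

end

end Crest.Agent.R281.Mc673
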