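import Crest.Agent.R281.Mc8_673

/-!
# R281 / LAGT (helper673), part 9

Estimates of one step of the iteration.
-/

set_option autoImplicit false
set_option maxSynthPendingDepth 3

open MeasureTheory Set Metric Filter
open scoped ContDiff Topology

namespace Crest.Agent.R281.Mc673

open Crest.Agent.R238 (Ell)
open Crest.Agent.R238.Sch (ee norm_ee sum_ee)
open Crest.Agent.R273.SchA_152 (HO)

noncomputable section

variable {N : ℕ}

/-- two forms are `κ`-close in `C^1` on the tube -/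
structure Close (r κ : ℝ) (w w' : Fo N) : Prop where
  c0 : ∀ p ∈ tube N r, ‖w p - w' p‖ ≤ κ
  c1 : ∀ p ∈ tube N r, ‖fderiv ℝ w p - fderiv ℝ w' p‖ ≤ κ

theorem Close.refl {r κ : ℝ} (hκ : 0 ≤ κ) (w : Fo N) : Close r κ w w :=
  ⟨fun p _ => by simpa using hκ, fun p _ => by simpa using hκ⟩

/-- admissible graphs -/
structure InB (t : ℝ) (a : V N → V N) : Prop where
  sp : SP a
  b0 : ∀ x, ‖a x‖ < t
  b1 : HO (1 / 2) t univ (fderiv ℝ a)

theorem ho_frame {a : V N → V N} (h1 : HO (1 / 2) 1 univ (fderiv ℝ a)) (j : Fin N) :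
    HO (1 / 2) 1 univ (fun θ => ((ee j, dr j a θ) : W N)) where
  bdd x hx := by
    show max ‖(ee j : V N)‖ ‖dr j a x‖ ≤ 1
    rw [norm_ee]
    refine max_le le_rfl (((fderiv ℝ a x).le_opNorm _).trans ?_)
    rw [norm_ee, mul_one]; exact h1.bdd x hx
  hol x hx y hy := by
    have e : ((ee j, dr j a x) : W N) - (ee j, dr j a y) = (0, dr j a x - dr j a y) := by
      ext1 <;> simp
    rw [e, norm_vert]
    refine ((fderiv ℝ a x - fderiv ℝ a y).le_opNorm (ee j)).trans ?_
    rw [norm_ee, mul_one]; exact h1.hol x hx y hy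

theorem ho_forms {r κ : ℝ} (hκ : 0 ≤ κ) {w w' : Fo N} (hw : ClF r w) (hw' : ClF r w')
    (hc : Close r κ w w') {b : V N → V N} (sb : SP b) (hb : ∀ x, ‖b x‖ < r)
    (hb1 : HO (1 / 2) 1 univ (fderiv ℝ b)) (j k : Fin N) :
    HO (1 / 2) (12 * κ) univ (fun θ => pb w b j k θ - pb w' b j k θ) := by
  have hlipb : ∀ x y, ‖b x - b y‖ ≤ ‖x - y‖ := by
    intro x y
    have := convex_univ.norm_image_sub_le_of_norm_fderiv_le (𝕜 := ℝ) (fun z _ => sb.diff z)
      (fun z hz => hb1.bdd z hz) (mem_univ y) (mem_univ x)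
    rwa [one_mul] at this
  have hlip : ∀ p ∈ tube N r, ∀ q ∈ tube N r, ‖(w p - w' p) - (w q - w' q)‖ ≤ κ * ‖p - q‖ := by
    intro p hp q hq
    refine (convex_tube r).norm_image_sub_le_of_norm_fderiv_le (𝕜 := ℝ)
      (f := fun p => w p - w' p) (fun z hz => (hw.da hz).sub (hw'.da hz)) (fun z hz => ?_) hq hp
    rw [fderiv_fun_sub (hw.da hz) (hw'.da hz)]
    exact hc.c1 z hz
  have hT : HO (1 / 2) (κ + 2 * κ) univ (fun θ => w (θ, b θ) - w' (θ, b θ)) := by
    refine ho_of_lip (by norm_num) (by norm_num) (fun x _ => hc.c0 (x, b x) (hb x))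
      (fun x _ y _ => ?_) hκ hκ
    refine (hlip (x, b x) (hb x) (y, b y) (hb y)).trans (mul_le_mul_of_nonneg_left ?_ hκ)
    show max ‖x - y‖ ‖b x - b y‖ ≤ ‖x - y‖
    exact max_le le_rfl (hlipb x y)
  have h1 := HO.app hT (ho_frame hb1 j) (by positivity) zero_le_one
  have h2 := HO.app h1 (ho_frame hb1 k) (by positivity) zero_le_one
  refine (h2.congr fun θ _ => ?_).mono (by linarith)
  show pb w b j k θ - pb w' b j k θ =
    (w (θ, b θ) - w' (θ, b θ)) (ee j, dr j b θ) (ee k, dr k b θ)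
  rfl

/-- estimates of one step -/
structure Good (N : ℕ) (Λ K r q CH t : ℝ) : Prop where
  CH0 : 0 < CH
  t0 : 0 < t
  t1 : t ≤ 1
  tr : t ≤ r
  pair : ∀ (C : Matrix (Fin N) (Fin N) ℝ) (x y x' y' : Fo N), Dat r K t Λ C x y →
    Dat r K t Λ C x' y' → ∀ κ : ℝ, 0 ≤ κ → Close r κ x x' → Close r κ y y' →
    ∀ (c c' : V N) (a b a' b' : V N → V N), InB t a → InB t b →
    Step C x y c a a' → Step C x' y' c' b b' → ∀ Δ : ℝ, 0 ≤ Δ →
    HO (1 / 2) Δ univ (fun θ => a θ - b θ) →
    HO (1 / 2) Δ univ (fun θ => fderiv ℝ a θ - fderiv ℝ b θ) →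
    HO (1 / 2) (q * Δ + CH * κ) univ (fun θ => a' θ - b' θ - (c - c')) ∧
      HO (1 / 2) (q * Δ + CH * κ) univ (fun θ => fderiv ℝ a' θ - fderiv ℝ b' θ)
  single : ∀ (C : Matrix (Fin N) (Fin N) ℝ) (x y : Fo N) (δ : ℝ), 0 ≤ δ → δ ≤ t →
    Dat r K δ Λ C x y → ∀ (c : V N) (a a' : V N → V N), InB t a → Step C x y c a a' →
    ∀ Δ : ℝ, 0 ≤ Δ → HO (1 / 2) Δ univ a → HO (1 / 2) Δ univ (fderiv ℝ a) →
    HO (1 / 2) (q * Δ + CH * δ) univ (fun θ => a' θ - c) ∧
      HO (1 / 2) (q * Δ + CH * δ) univ (fderiv ℝ a')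

theorem Dat.mono {r K δ δ' Λ : ℝ} {C : Matrix (Fin N) (Fin N) ℝ} {x y : Fo N}
    (D : Dat r K δ Λ C x y) (h : δ ≤ δ') : Dat r K δ' Λ C x y :=
  ⟨D.CC, D.CL, D.nx.mono h, D.ny.mono h, D.mx, D.my⟩

theorem ho_Csum {C : Matrix (Fin N) (Fin N) ℝ} {Λ : ℝ} (hΛ0 : 0 ≤ Λ) (hΛ : ∀ j k, |C j k| ≤ Λ)
    {B : ℝ} {f : Fin N → Fin N → V N → ℝ} (hf : ∀ j k, HO (1 / 2) B univ (f j k)) :
    HO (1 / 2) (N * (N * (Λ * B))) univ (fun θ => ∑ j, ∑ k, C j k * f j k θ) := by
  have h := HO.sum (Finset.univ : Finset (Fin N)) fun j _ =>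
    HO.sum (Finset.univ : Finset (Fin N)) fun k _ => HO.cmul (hf j k) (hΛ j k)
  refine HO.mono h (le_of_eq ?_)
  simp

theorem exists_good (N : ℕ) {Λ K r q : ℝ} (hΛ : 0 ≤ Λ) (hK : 0 ≤ K) (hr : 0 < r)
    (hq : 0 < q) : ∃ CH t : ℝ, Good N Λ K r q CH t := by
  obtain ⟨C0, hC0, H⟩ := sys_est N (a := 1 / 2) (hi := 1 + N * (N * Λ ^ 2)) (by norm_num)
    (by norm_num) (by
      have : (0 : ℝ) ≤ N * (N * Λ ^ 2) := by positivity
      linarith)
  set B0 : ℝ := 1 + N * (N * Λ) with hB0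
  have hB0' : 1 ≤ B0 := by
    have : (0 : ℝ) ≤ N * (N * Λ) := by positivity
    linarith
  set G : ℝ := C0 * B0 with hG
  have hG0 : 0 < G := by positivity
  -- choice of `t`
  have hE : Tendsto (fun s => G * Ef (1 / 2) N K s) (𝓝 0) (𝓝 0) := by
    have h1 := (Ef_continuous (α := 1 / 2) (by norm_num) N K).tendsto 0
    rw [Ef_zero (by norm_num)] at h1
    simpa using h1.const_mul G
  have hev : ∀ᶠ s in 𝓝 (0 : ℝ), G * Ef (1 / 2) N K s < q :=
    (tendsto_order.1 hE).2 _ hq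
  obtain ⟨η, hη, hη'⟩ := Metric.eventually_nhds_iff.1 hev
  set t : ℝ := min (η / 2) (min 1 r) with ht
  have ht0 : 0 < t := by positivity
  have ht1 : t ≤ 1 := (min_le_right _ _).trans (min_le_left _ _)
  have htr : t ≤ r := (min_le_right _ _).trans (min_le_right _ _)
  have hEt : G * Ef (1 / 2) N K t ≤ q := by
    refine (hη' ?_).le
    rw [Real.dist_eq, sub_zero, abs_of_pos ht0]
    exact lt_of_le_of_lt (min_le_left _ _) (by linarith)
  have hE0 : 0 ≤ Ef (1 / 2) N K t := by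
    have k1 := kap_nonneg (α := 1 / 2) (s := 2 * N * t + K * t) (K := K) (by positivity) hK
    have k2 := kap_nonneg (α := 1 / 2) (s := t + K * t) (K := K) (by positivity) hK
    have k3 := kap_nonneg (α := 1 / 2) (s := K) (K := K) hK hK
    have k4 := kap_nonneg (α := 1 / 2) (s := K + K * t) (K := K) (by positivity) hK
    unfold Ef
    positivity
  refine ⟨G * (12 + (N + 2)), t, by positivity, ht0, ht1, htr, ?_, ?_⟩
  · intro C x y x' y' D D' κ hκ hcx hcy c c' a b a' b' ia ib sa sb Δ hΔ h0 h1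
    set B1 : ℝ := Ef (1 / 2) N K t * Δ + 12 * κ with hB1
    have hB1' : 0 ≤ B1 := by positivity
    have spa := sp_co sa.sp
    have spb := sp_co sb.sp
    have key : ∀ (w w' : Fo N) (C : Matrix (Fin N) (Fin N) ℝ), Near r K t w (mdl C) →
        Near r K t w' (mdl C) → Close r κ w w' → ∀ j k,
        HO (1 / 2) B1 univ (fun θ => pz w (mdl C) a j k θ - pz w' (mdl C) b j k θ) := by
      intro w w' C hw hw' hc j k
      have q1 := ne_est (α := 1 / 2) (by norm_num) (by norm_num) ht0 ht1 htr hK hw ia.sp ib.sp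
        ia.b0 ib.b0 ia.b1 ib.b1 h0 h1 j k
      have q2 := ho_forms hκ hw.cf hw'.cf hc ib.sp (fun x => (ib.b0 x).trans_le htr)
        (ib.b1.mono ht1) j k
      exact (q1.add q2).congr fun θ _ => by unfold pz; ring
    have hcod : ∀ k, co (fun θ => a' θ - b' θ - (c - c')) k =
        fun θ => co a' k θ - co b' k θ - (c k - c' k) := fun k => rfl
    have spd : SP (fun θ => a' θ - b' θ - (c - c')) := (sa.sp.sub sb.sp).sub (SP.const _)
    have hdrd : ∀ j k θ, dr j (co (fun θ => a' θ - b' θ - (c - c')) k) θ =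
        dr j (co a' k) θ - dr j (co b' k) θ := by
      intro j k θ
      rw [hcod, dr_sub ((spa k).sub (spb k)) (SP.const _), dr_sub (spa k) (spb k)]
      simp [dr]
    have hmd : ∀ k, mn (co (fun θ => a' θ - b' θ - (c - c')) k) = 0 := by
      intro k
      rw [hcod, mn_sub ((spa k).sub (spb k)) (SP.const _), mn_sub (spa k) (spb k), mn_const,
        sa.mean, sb.mean]
      ring
    have hB : 0 ≤ B0 * B1 := by positivity
    have hle1 : B1 ≤ B0 * B1 := le_mul_of_one_le_left hB1' hB0'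
    have hle2 : N * (N * (Λ * B1)) ≤ B0 * B1 := by
      rw [hB0]
      have : (N : ℝ) * (N * (Λ * B1)) = N * (N * Λ) * B1 := by ring
      rw [this, add_mul, one_mul]; linarith
    have hres := H (Sm C) (ell_Sm D.CL) _ spd hmd (B0 * B1) hB
      (fun j k => by
        refine ((key x x' 1 D.nx D'.nx hcx j k).neg.congr fun θ _ => ?_).mono hle1
        rw [hdrd, hdrd]
        have e1 := sa.eqx j k θ
        have e2 := sb.eqx j k θ
        linarith)
      (by
        refine ((ho_Csum hΛ D.CL (key y y' C D.ny D'.ny hcy)).congr fun θ _ => ?_).mono hle2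
        have e1 := sa.eqy θ
        have e2 := sb.eqy θ
        have e3 : dS (Sm C) (co (fun θ => a' θ - b' θ - (c - c'))) θ =
            dS (Sm C) (co a') θ - dS (Sm C) (co b') θ := by
          unfold dS
          rw [← Finset.sum_sub_distrib]
          refine Finset.sum_congr rfl fun i _ => ?_
          rw [← Finset.sum_sub_distrib]
          refine Finset.sum_congr rfl fun j _ => ?_
          rw [hdrd]; ring
        rw [e3, e1, e2, ← Finset.sum_sub_distrib]
        refine Finset.sum_congr rfl fun i _ => ?_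
        rw [← Finset.sum_sub_distrib]
        refine Finset.sum_congr rfl fun j _ => ?_
        ring)
    have hfin : C0 * (B0 * B1) ≤ q * Δ + G * (12 + (N + 2)) * κ := by
      have e : C0 * (B0 * B1) = G * Ef (1 / 2) N K t * Δ + G * 12 * κ := by
        rw [hB1, hG]; ring
      rw [e]
      have i1 : G * Ef (1 / 2) N K t * Δ ≤ q * Δ := mul_le_mul_of_nonneg_right hEt hΔ
      have i2 : 0 ≤ G * (N + 2) * κ := by positivity
      linarith
    refine ⟨hres.1.mono hfin, (hres.2.congr fun θ _ => ?_).mono hfin⟩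
    have : fderiv ℝ (fun θ => a' θ - b' θ - (c - c')) θ = fderiv ℝ a' θ - fderiv ℝ b' θ := by
      rw [fderiv_sub_const, fderiv_fun_sub (sa.sp.diff θ) (sb.sp.diff θ)]
    rw [this]
  · intro C x y δ hδ hδt D c a a' ia sa Δ hΔ h0 h1
    set B1 : ℝ := Ef (1 / 2) N K t * Δ + (N + 2) * δ with hB1
    have hB1' : 0 ≤ B1 := by positivity
    have spa := sp_co sa.sp
    have i0 : ∀ x : V N, ‖(fun _ : V N => (0 : V N)) x‖ < t := fun x => by simpa using ht0
    have hf0 : ∀ θ : V N, fderiv ℝ (fun _ : V N => (0 : V N)) θ = 0 := fun θ => by simp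
    have key : ∀ (w : Fo N) (C : Matrix (Fin N) (Fin N) ℝ), Near r K δ w (mdl C) → ∀ j k,
        HO (1 / 2) B1 univ (pz w (mdl C) a j k) := by
      intro w C hw j k
      have q1 := ne_est (α := 1 / 2) (by norm_num) (by norm_num) ht0 ht1 htr hK (hw.mono hδt)
        ia.sp (SP.const (0 : V N)) ia.b0 i0 ia.b1
        (HO.congr (ho_zero ht0.le) fun θ _ => hf0 θ)
        (h0.congr fun θ _ => by simp) (h1.congr fun θ _ => by rw [hf0, sub_zero]) j k
      have q2 := base_est (α := 1 / 2) (by norm_num) (by norm_num) hr hδ hw j k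
      exact (q1.add q2).congr fun θ _ => by ring
    have hcod : ∀ k, co (fun θ => a' θ - c) k = fun θ => co a' k θ - c k := fun k => rfl
    have spd : SP (fun θ => a' θ - c) := sa.sp.sub (SP.const _)
    have hdrd : ∀ j k θ, dr j (co (fun θ => a' θ - c) k) θ = dr j (co a' k) θ := by
      intro j k θ
      rw [hcod, dr_sub (spa k) (SP.const _)]
      simp [dr]
    have hmd : ∀ k, mn (co (fun θ => a' θ - c) k) = 0 := by
      intro k
      rw [hcod, mn_sub (spa k) (SP.const _), mn_const, sa.mean]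
      ring
    have hB : 0 ≤ B0 * B1 := by positivity
    have hle1 : B1 ≤ B0 * B1 := le_mul_of_one_le_left hB1' hB0'
    have hle2 : N * (N * (Λ * B1)) ≤ B0 * B1 := by
      rw [hB0]
      have : (N : ℝ) * (N * (Λ * B1)) = N * (N * Λ) * B1 := by ring
      rw [this, add_mul, one_mul]; linarith
    have hres := H (Sm C) (ell_Sm D.CL) _ spd hmd (B0 * B1) hB
      (fun j k => by
        refine ((key x 1 D.nx j k).neg.congr fun θ _ => ?_).mono hle1
        rw [hdrd, hdrd]
        exact sa.eqx j k θ)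
      (by
        refine ((ho_Csum hΛ D.CL (key y C D.ny)).congr fun θ _ => ?_).mono hle2
        rw [← sa.eqy θ]
        unfold dS
        exact Finset.sum_congr rfl fun i _ => Finset.sum_congr rfl fun j _ => by rw [hdrd])
    have hfin : C0 * (B0 * B1) ≤ q * Δ + G * (12 + (N + 2)) * δ := by
      have e : C0 * (B0 * B1) = G * Ef (1 / 2) N K t * Δ + G * (N + 2) * δ := by
        rw [hB1, hG]; ring
      rw [e]
      have i1 : G * Ef (1 / 2) N K t * Δ ≤ q * Δ := mul_le_mul_of_nonneg_right hEt hΔ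
      have i2 : 0 ≤ G * 12 * δ := by positivity
      linarith
    refine ⟨hres.1.mono hfin, (hres.2.congr fun θ _ => ?_).mono hfin⟩
    rw [fderiv_sub_const]

end

end Crest.Agent.R281.Mc673
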