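import Crest.Agent.R281.McR2_16

/-! Row 281, LAGT (helper16), rigidity (R3): on the tangent plane of an `x`-isotropic graph the form
`H = y|` is almost invariant. -/

set_option autoImplicit false

open Matrix

namespace Crest.Agent.R281.McR_16

noncomputable section

variable {N : ℕ}

abbrev V (N : ℕ) := EuclideanSpace ℝ (Fin N)

abbrev W (N : ℕ) := V N × V N

/-- basis vectors -/
abbrev e (j : Fin N) : V N := EuclideanSpace.single j (1 : ℝ)

/-! ### the norm `n1` -/

theorem n1_add (A B : Matrix (Fin N) (Fin N) ℝ) : n1 (A + B) ≤ n1 A + n1 B := by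
  unfold n1
  rw [← Finset.sum_add_distrib]
  refine Finset.sum_le_sum fun j _ => ?_
  rw [← Finset.sum_add_distrib]
  exact Finset.sum_le_sum fun k _ => abs_add_le _ _

theorem n1_neg (A : Matrix (Fin N) (Fin N) ℝ) : n1 (-A) = n1 A := by
  unfold n1; simp

theorem n1_sub (A B : Matrix (Fin N) (Fin N) ℝ) : n1 (A - B) ≤ n1 A + n1 B := by
  rw [sub_eq_add_neg]
  exact (n1_add _ _).trans (by rw [n1_neg])

theorem n1_transpose (A : Matrix (Fin N) (Fin N) ℝ) : n1 Aᵀ = n1 A := by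
  unfold n1
  rw [Finset.sum_comm]
  rfl

theorem abs_le_n1 (A : Matrix (Fin N) (Fin N) ℝ) (j k : Fin N) : |A j k| ≤ n1 A := by
  calc |A j k| ≤ ∑ k, |A j k| :=
        Finset.single_le_sum (f := fun k => |A j k|) (fun _ _ => abs_nonneg _) (Finset.mem_univ k)
    _ ≤ n1 A := Finset.single_le_sum (f := fun j => ∑ k, |A j k|)
        (fun _ _ => Finset.sum_nonneg fun _ _ => abs_nonneg _) (Finset.mem_univ j)

theorem row_le_n1 (A : Matrix (Fin N) (Fin N) ℝ) (j : Fin N) : ∑ k, |A j k| ≤ n1 A :=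
  Finset.single_le_sum (f := fun j => ∑ k, |A j k|)
    (fun _ _ => Finset.sum_nonneg fun _ _ => abs_nonneg _) (Finset.mem_univ j)

theorem n1_mul (A B : Matrix (Fin N) (Fin N) ℝ) : n1 (A * B) ≤ n1 A * n1 B := by
  calc n1 (A * B) ≤ ∑ j, ∑ k, ∑ l, |A j l| * |B l k| := by
        refine Finset.sum_le_sum fun j _ => Finset.sum_le_sum fun k _ => ?_
        rw [Matrix.mul_apply]
        refine (Finset.abs_sum_le_sum_abs _ _).trans (le_of_eq ?_)
        exact Finset.sum_congr rfl fun l _ => abs_mul _ _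
    _ = ∑ j, ∑ l, |A j l| * ∑ k, |B l k| := by
        refine Finset.sum_congr rfl fun j _ => ?_
        rw [Finset.sum_comm]
        exact Finset.sum_congr rfl fun l _ => by rw [Finset.mul_sum]
    _ ≤ ∑ j, ∑ l, |A j l| * n1 B := by
        refine Finset.sum_le_sum fun j _ => Finset.sum_le_sum fun l _ => ?_
        exact mul_le_mul_of_nonneg_left (row_le_n1 B l) (abs_nonneg _)
    _ = n1 A * n1 B := by
        unfold n1
        rw [Finset.sum_mul]
        exact Finset.sum_congr rfl fun j _ => by rw [Finset.sum_mul]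

theorem n1_le_of {A : Matrix (Fin N) (Fin N) ℝ} {b : ℝ} (h : ∀ j k, |A j k| ≤ b) :
    n1 A ≤ (N : ℝ) ^ 2 * b := by
  calc n1 A ≤ ∑ _j : Fin N, ∑ _k : Fin N, b :=
        Finset.sum_le_sum fun j _ => Finset.sum_le_sum fun k _ => h j k
    _ = (N : ℝ) ^ 2 * b := by simp; ring

/-! ### expansions -/

theorem exp_v (v : V N) : v = ∑ l, v l • e l := by
  ext m
  simp [Finset.sum_apply, PiLp.smul_apply, Pi.single_apply]

theorem exp_fst (x : W N →L[ℝ] W N →L[ℝ] ℝ) (v : V N) (w : W N) :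
    x (0, v) w = ∑ l, v l * x (0, e l) w := by
  have h : ((0, v) : W N) = ∑ l, v l • ((0, e l) : W N) := by
    refine Prod.ext ?_ ?_
    · simp [Prod.fst_sum]
    · simp only [Prod.snd_sum, Prod.smul_snd]
      exact exp_v v
  rw [h, map_sum, ContinuousLinearMap.sum_apply]
  exact Finset.sum_congr rfl fun l _ => by
    rw [map_smul, ContinuousLinearMap.smul_apply, smul_eq_mul]

theorem exp_snd (x : W N →L[ℝ] W N →L[ℝ] ℝ) (v : V N) (w : W N) :
    x w (0, v) = ∑ l, v l * x w (0, e l) := by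
  have h : ((0, v) : W N) = ∑ l, v l • ((0, e l) : W N) := by
    refine Prod.ext ?_ ?_
    · simp [Prod.fst_sum]
    · simp only [Prod.snd_sum, Prod.smul_snd]
      exact exp_v v
  rw [h, map_sum]
  exact Finset.sum_congr rfl fun l _ => by
    rw [map_smul, smul_eq_mul]

theorem split_add (u v : V N) : ((u, v) : W N) = (u, 0) + (0, v) := by simp

/-- decomposition of a vector along `G l = (e l, A l)` and `(0, e l)` -/
theorem decomp (A : Fin N → V N) (p : W N) :
    p = ∑ l, p.1 l • ((e l, A l) : W N) +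
      ∑ l, (p.2 l - ∑ m, p.1 m * A m l) • ((0, e l) : W N) := by
  refine Prod.ext ?_ ?_
  · simp only [Prod.fst_add, Prod.fst_sum, Prod.smul_fst, smul_zero, Finset.sum_const_zero,
      add_zero]
    exact exp_v p.1
  · simp only [Prod.snd_add, Prod.snd_sum, Prod.smul_snd]
    have h1 : ∑ l, (p.2 l - ∑ m, p.1 m * A m l) • e l = p.2 - ∑ m, p.1 m • A m := by
      conv_rhs => rw [exp_v (p.2 - ∑ m, p.1 m • A m)]
      refine Finset.sum_congr rfl fun l _ => ?_
      congr 1
      simp [Finset.sum_apply, PiLp.smul_apply]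
    rw [h1]
    abel

theorem x_decomp_fst (x : W N →L[ℝ] W N →L[ℝ] ℝ) (A : Fin N → V N) (p w : W N) :
    x p w = ∑ l, p.1 l * x (e l, A l) w +
      ∑ l, (p.2 l - ∑ m, p.1 m * A m l) * x (0, e l) w := by
  conv_lhs => rw [decomp A p]
  rw [map_add, ContinuousLinearMap.add_apply, map_sum, map_sum, ContinuousLinearMap.sum_apply,
    ContinuousLinearMap.sum_apply]
  congr 1 <;> exact Finset.sum_congr rfl fun l _ => by
    rw [map_smul, ContinuousLinearMap.smul_apply, smul_eq_mul]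

theorem x_decomp_snd (x : W N →L[ℝ] W N →L[ℝ] ℝ) (A : Fin N → V N) (p w : W N) :
    x w p = ∑ l, p.1 l * x w (e l, A l) +
      ∑ l, (p.2 l - ∑ m, p.1 m * A m l) * x w (0, e l) := by
  conv_lhs => rw [decomp A p]
  rw [map_add, map_sum, map_sum]
  congr 1 <;> exact Finset.sum_congr rfl fun l _ => by
    rw [map_smul, smul_eq_mul]

theorem coord_le {v : V N} {ε : ℝ} (h : ‖v‖ ≤ ε) (l : Fin N) : |v l| ≤ ε :=
  (PiLp.norm_apply_le v l).trans h

/-- `|x w (0, v)| ≤ N ε b` -/
theorem snd_bound {x : W N →L[ℝ] W N →L[ℝ] ℝ} {w : W N} {v : V N} {ε b : ℝ} (hε : 0 ≤ ε)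
    (hv : ‖v‖ ≤ ε) (hb : ∀ l, |x w (0, e l)| ≤ b) : |x w (0, v)| ≤ N * (ε * b) := by
  rw [exp_snd]
  refine (Finset.abs_sum_le_sum_abs _ _).trans ?_
  calc ∑ l, |v l * x w (0, e l)| ≤ ∑ _l : Fin N, ε * b := by
        refine Finset.sum_le_sum fun l _ => ?_
        rw [abs_mul]
        exact mul_le_mul (coord_le hv l) (hb l) (abs_nonneg _) hε
    _ = N * (ε * b) := by simp

theorem fst_bound {x : W N →L[ℝ] W N →L[ℝ] ℝ} {w : W N} {v : V N} {ε b : ℝ} (hε : 0 ≤ ε)
    (hv : ‖v‖ ≤ ε) (hb : ∀ l, |x (0, e l) w| ≤ b) : |x (0, v) w| ≤ N * (ε * b) := by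
  rw [exp_fst]
  refine (Finset.abs_sum_le_sum_abs _ _).trans ?_
  calc ∑ l, |v l * x (0, e l) w| ≤ ∑ _l : Fin N, ε * b := by
        refine Finset.sum_le_sum fun l _ => ?_
        rw [abs_mul]
        exact mul_le_mul (coord_le hv l) (hb l) (abs_nonneg _) hε
    _ = N * (ε * b) := by simp

set_option maxHeartbeats 4000000 in
/-- **(R3)** -/
theorem R3 (N : ℕ) (Λ K : ℝ) : ∃ e0 C1 : ℝ, 0 < e0 ∧ 0 ≤ C1 ∧ ∀ ε : ℝ, 0 ≤ ε → ε ≤ e0 →
    ∀ C : Matrix (Fin N) (Fin N) ℝ, (∀ j k, |C j k| ≤ Λ) →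
    ∀ x y : W N →L[ℝ] W N →L[ℝ] ℝ, (∀ u v, x u v = - x v u) → (∀ u v, y u v = - y v u) →
    ∀ I : W N → W N, (∀ u, I (I u) = -u) → (∀ u v, x (I u) v = - y u v) →
    ∀ A : Fin N → V N, (∀ j, ‖A j‖ ≤ ε) →
    (∀ j k, |x (e j, 0) (e k, 0)| ≤ ε) →
    (∀ j l, |x (e j, 0) (0, e l) + (if j = l then 1 else 0)| ≤ ε) →
    (∀ l m, |x (0, e l) (0, e m)| ≤ K) →
    (∀ j k, |y (e j, 0) (e k, 0)| ≤ ε) →
    (∀ j l, |y (e j, 0) (0, e l) + C j l| ≤ ε) →
    (∀ l m, |y (0, e l) (0, e m)| ≤ K) →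
    (∀ j k, x (e j, A j) (e k, A k) = 0) →
    ∀ H : Matrix (Fin N) (Fin N) ℝ, (∀ j k, H j k = y (e j, A j) (e k, A k)) →
    ∀ j k, |(C * H + H * Cᵀ) j k| ≤ C1 * ε * n1 H := by
  set K' : ℝ := |K| with hK'
  set L : ℝ := |Λ| with hL
  set n2 : ℝ := (N : ℝ) ^ 2 with hn2
  set q : ℝ := 1 + N * K' with hq
  set h0 : ℝ := 1 + 2 * (N * (L + 1)) + N * (N * K') with hh0
  set a0 : ℝ := 2 * (2 * (n2 * h0) * (n2 * K') + n2 * q + n2 * L) with ha0
  set c2 : ℝ := 2 * (n2 * h0) * (n2 * K') + n2 * q + a0 * (n2 * q) with hc2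
  have K0 : 0 ≤ K' := abs_nonneg _
  have L0 : 0 ≤ L := abs_nonneg _
  have n20 : 0 ≤ n2 := by positivity
  have q0 : 0 < q := by positivity
  have h00 : 0 < h0 := by positivity
  have a00 : 0 ≤ a0 := by positivity
  have c20 : 0 ≤ c2 := by positivity
  refine ⟨1 / (2 * (n2 * q) + 1), 2 * c2 + 4 * (n2 * K') * (n2 * h0), by positivity,
    by positivity, ?_⟩
  intro ε hε hε0 C hC x y xalt yalt I hI hxy A hA hxhh hxhv hxvv hyhh hyhv hyvv hxG H hH j k
  have hε1 : ε ≤ 1 := by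
    refine hε0.trans ?_
    rw [div_le_one (by positivity)]
    have : 0 ≤ n2 * q := by positivity
    linarith
  have hεq : n2 * (ε * q) ≤ 1 / 2 := by
    have h1 : ε * (2 * (n2 * q) + 1) ≤ 1 := by
      rwa [le_div_iff₀ (by positivity)] at hε0
    nlinarith
  have hxvv' : ∀ l m, |x (0, e l) (0, e m)| ≤ K' := fun l m => (hxvv l m).trans (le_abs_self _)
  have hyvv' : ∀ l m, |y (0, e l) (0, e m)| ≤ K' := fun l m => (hyvv l m).trans (le_abs_self _)
  have hC' : ∀ j k, |C j k| ≤ L := fun j k => (hC j k).trans (le_abs_self _)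
  -- matrices
  set a : Matrix (Fin N) (Fin N) ℝ := Matrix.of fun j l => (I (e j, A j)).1 l with ha
  set D : Matrix (Fin N) (Fin N) ℝ := Matrix.of fun j l =>
    (I (e j, A j)).2 l - ∑ m, (I (e j, A j)).1 m * A m l with hD
  set Q : Matrix (Fin N) (Fin N) ℝ := Matrix.of fun l k => x (0, e l) (e k, A k) with hQ
  set P : Matrix (Fin N) (Fin N) ℝ := Matrix.of fun l m => x (0, e l) (0, e m) with hP
  set Y : Matrix (Fin N) (Fin N) ℝ := Matrix.of fun j m => y (e j, A j) (0, e m) with hY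
  -- (1)
  have E1 : H = -(D * Q) := by
    ext j k
    rw [Matrix.neg_apply, Matrix.mul_apply, hH j k]
    have h1 := hxy (e j, A j) (e k, A k)
    rw [x_decomp_fst x A] at h1
    have h2 : ∑ l, (I (e j, A j)).1 l * x (e l, A l) (e k, A k) = 0 :=
      Finset.sum_eq_zero fun l _ => by rw [hxG, mul_zero]
    rw [h2, zero_add] at h1
    have h3 : ∑ l, D j l * Q l k = ∑ l, ((I (e j, A j)).2 l -
      ∑ m, (I (e j, A j)).1 m * A m l) * x (0, e l) (e k, A k) := rfl
    rw [h3, h1, neg_neg]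
  have HT : Hᵀ = -H := by
    ext j k
    rw [Matrix.transpose_apply, Matrix.neg_apply, hH, hH, yalt]
  -- x (I G_j) (0, e m)
  have E3' : ∀ j m, x (I (e j, A j)) (0, e m) = -(a * Qᵀ) j m + (D * P) j m := by
    intro j m
    rw [x_decomp_fst x A, Matrix.mul_apply, Matrix.mul_apply]
    congr 1
    rw [← Finset.sum_neg_distrib]
    refine Finset.sum_congr rfl fun l _ => ?_
    show (I (e j, A j)).1 l * x (e l, A l) (0, e m) = -((I (e j, A j)).1 l * x (0, e m) (e l, A l))
    rw [xalt (e l, A l)]; ring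
  have E3 : a * Qᵀ = D * P + Y := by
    ext j m
    have h1 := E3' j m
    rw [hxy] at h1
    rw [Matrix.add_apply]
    have h2 : Y j m = y (e j, A j) (0, e m) := rfl
    rw [h2]
    linarith
  -- (2)
  have E2 : a * H + H * aᵀ = D * P * Dᵀ := by
    ext j k
    have h0' : x (I (e j, A j)) (I (e k, A k)) = 0 := by
      rw [hxy, yalt, ← neg_neg (y (I (e k, A k)) (e j, A j)), ← hxy (I (e k, A k)), hI, map_neg,
        ContinuousLinearMap.neg_apply, hxG]
      simp
    rw [x_decomp_snd x A] at h0'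
    have h1 : ∑ l, (I (e k, A k)).1 l * x (I (e j, A j)) (e l, A l) = -(H * aᵀ) j k := by
      rw [Matrix.mul_apply, ← Finset.sum_neg_distrib]
      refine Finset.sum_congr rfl fun l _ => ?_
      rw [hxy, hH j l]
      show (I (e k, A k)).1 l * -(y (e j, A j)) (e l, A l) =
        -((y (e j, A j)) (e l, A l) * (I (e k, A k)).1 l)
      ring
    have h2 : ∑ m, ((I (e k, A k)).2 m - ∑ m', (I (e k, A k)).1 m' * A m' m) *
        x (I (e j, A j)) (0, e m) = -(a * Qᵀ * Dᵀ) j k + (D * P * Dᵀ) j k := by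
      rw [Matrix.mul_apply, Matrix.mul_apply, ← Finset.sum_neg_distrib, ← Finset.sum_add_distrib]
      refine Finset.sum_congr rfl fun m _ => ?_
      rw [E3' j m]
      show D k m * (-(a * Qᵀ) j m + (D * P) j m) = -((a * Qᵀ) j m * D k m) + (D * P) j m * D k m
      ring
    rw [h1, h2] at h0'
    have h3 : a * Qᵀ * Dᵀ = a * H := by
      rw [Matrix.mul_assoc, ← Matrix.transpose_mul, show D * Q = -H by rw [E1, neg_neg],
        Matrix.transpose_neg, HT, neg_neg]
    rw [h3] at h0'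
    rw [Matrix.add_apply]
    linarith
  -- bounds
  have bQ : n1 (Q - 1) ≤ n2 * (ε * q) := by
    refine n1_le_of fun l k => ?_
    have h1 : Q l k = -x (e k, 0) (0, e l) + x (0, e l) (0, A k) := by
      show x (0, e l) (e k, A k) = _
      rw [split_add (e k) (A k), map_add, xalt (0, e l) (e k, 0)]
    have h2 := hxhv k l
    have h3 : |x (0, e l) (0, A k)| ≤ N * (ε * K') :=
      snd_bound hε (hA k) fun m => hxvv' l m
    have h4 : (Q - 1) l k = -(x (e k, 0) (0, e l) + (if k = l then 1 else 0)) +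
        x (0, e l) (0, A k) := by
      rw [Matrix.sub_apply, h1, Matrix.one_apply]
      by_cases hkl : k = l
      · subst hkl; simp; ring
      · simp [hkl, Ne.symm hkl]
    rw [h4]
    refine (abs_add_le _ _).trans ?_
    rw [abs_neg]
    calc _ ≤ ε + N * (ε * K') := add_le_add h2 h3
      _ = ε * q := by rw [hq]; ring
  have bP : n1 P ≤ n2 * K' := n1_le_of fun l m => hxvv' l m
  have bY : n1 (Y + C) ≤ n2 * (ε * q) := by
    refine n1_le_of fun j m => ?_
    have h1 : (Y + C) j m = (y (e j, 0) (0, e m) + C j m) + y (0, A j) (0, e m) := by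
      rw [Matrix.add_apply]
      show y (e j, A j) (0, e m) + C j m = _
      rw [split_add (e j) (A j), map_add, ContinuousLinearMap.add_apply]
      ring
    rw [h1]
    refine (abs_add_le _ _).trans ?_
    have h3 : |y (0, A j) (0, e m)| ≤ N * (ε * K') :=
      fst_bound hε (hA j) fun l => hyvv' l m
    calc _ ≤ ε + N * (ε * K') := add_le_add (hyhv j m) h3
      _ = ε * q := by rw [hq]; ring
  have bC : n1 C ≤ n2 * L := n1_le_of hC'
  have bH : n1 H ≤ n2 * h0 * ε := by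
    have : n1 H ≤ n2 * (h0 * ε) := by
      refine n1_le_of fun j k => ?_
      have h1 : H j k = y (e j, 0) (e k, 0) + y (e j, 0) (0, A k) - y (e k, 0) (0, A j) +
          y (0, A j) (0, A k) := by
        rw [hH j k, split_add (e j) (A j), split_add (e k) (A k)]
        simp only [map_add, ContinuousLinearMap.add_apply]
        rw [yalt (0, A j) (e k, 0)]
        ring
      have hb : ∀ j l, |y (e j, 0) (0, e l)| ≤ L + 1 := fun j l => by
        have h2 := hyhv j l
        have h3 := hC' j l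
        have h4 : y (e j, 0) (0, e l) = (y (e j, 0) (0, e l) + C j l) - C j l := by ring
        rw [h4]
        refine (abs_sub _ _).trans ?_
        linarith
      have b2 : |y (e j, 0) (0, A k)| ≤ N * (ε * (L + 1)) := snd_bound hε (hA k) (hb j)
      have b3 : |y (e k, 0) (0, A j)| ≤ N * (ε * (L + 1)) := snd_bound hε (hA j) (hb k)
      have b4 : |y (0, A j) (0, A k)| ≤ N * (ε * (N * (ε * K'))) :=
        snd_bound hε (hA k) fun m => fst_bound hε (hA j) fun l => hyvv' l m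
      have b5 : (N : ℝ) * (ε * (N * (ε * K'))) ≤ N * (N * K') * ε := by
        have h6 : ε * ε ≤ ε := by nlinarith
        have h7 : 0 ≤ (N : ℝ) * (N * K') := by positivity
        calc (N : ℝ) * (ε * (N * (ε * K'))) = N * (N * K') * (ε * ε) := by ring
          _ ≤ N * (N * K') * ε := mul_le_mul_of_nonneg_left h6 h7
      rw [h1]
      have t1 : |y (e j, 0) (e k, 0) + y (e j, 0) (0, A k) - y (e k, 0) (0, A j) +
          y (0, A j) (0, A k)| ≤ |y (e j, 0) (e k, 0)| + |y (e j, 0) (0, A k)| +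
          |y (e k, 0) (0, A j)| + |y (0, A j) (0, A k)| := by
        refine (abs_add_le _ _).trans (add_le_add ?_ le_rfl)
        refine (abs_sub _ _).trans (add_le_add ?_ le_rfl)
        exact abs_add_le _ _
      refine t1.trans ?_
      have := hyhh j k
      calc _ ≤ ε + N * (ε * (L + 1)) + N * (ε * (L + 1)) + N * (N * K') * ε :=
            add_le_add (add_le_add (add_le_add this b2) b3) (b4.trans b5)
        _ = h0 * ε := by rw [hh0]; ring
    linarith
  have nH := n1_nonneg H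
  have bD : n1 D ≤ 2 * n1 H := by
    have h1 : D = -H - D * (Q - 1) := by
      rw [E1, Matrix.mul_sub, Matrix.mul_one]; abel
    have h2 : n1 D ≤ n1 H + n1 D * n1 (Q - 1) := by
      conv_lhs => rw [h1]
      refine (n1_sub _ _).trans ?_
      rw [n1_neg]
      exact add_le_add le_rfl (n1_mul _ _)
    have h3 : n1 D * n1 (Q - 1) ≤ n1 D * (1 / 2) :=
      mul_le_mul_of_nonneg_left (bQ.trans hεq) (n1_nonneg D)
    linarith
  have bDP : n1 (D * P) ≤ 2 * (n2 * h0) * (n2 * K') * ε := by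
    calc n1 (D * P) ≤ n1 D * n1 P := n1_mul _ _
      _ ≤ (2 * (n2 * h0 * ε)) * (n2 * K') :=
        mul_le_mul (bD.trans (by linarith)) bP (n1_nonneg _) (by positivity)
      _ = 2 * (n2 * h0) * (n2 * K') * ε := by ring
  have ba' : a + C = D * P + (Y + C) - a * (Q - 1)ᵀ := by
    rw [Matrix.transpose_sub, Matrix.transpose_one, Matrix.mul_sub, Matrix.mul_one, E3]
    abel
  have bQT : n1 (Q - 1)ᵀ ≤ n2 * (ε * q) := by rw [n1_transpose]; exact bQ
  have ba : n1 a ≤ a0 := by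
    have h1 : a = D * P + (Y + C) - C - a * (Q - 1)ᵀ := by
      have : a = (a + C) - C := by abel
      conv_lhs => rw [this, ba']
      abel
    have h2 : n1 a ≤ n1 (D * P) + n1 (Y + C) + n1 C + n1 a * n1 (Q - 1)ᵀ := by
      conv_lhs => rw [h1]
      refine (n1_sub _ _).trans (add_le_add ?_ (n1_mul _ _))
      refine (n1_sub _ _).trans (add_le_add ?_ le_rfl)
      exact n1_add _ _
    have h3 : n1 a * n1 (Q - 1)ᵀ ≤ n1 a * (1 / 2) :=
      mul_le_mul_of_nonneg_left (bQT.trans hεq) (n1_nonneg a)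
    have h4 : 2 * (n2 * h0) * (n2 * K') * ε ≤ 2 * (n2 * h0) * (n2 * K') :=
      mul_le_of_le_one_right (by positivity) hε1
    have h5 : n2 * (ε * q) ≤ n2 * q := by
      refine mul_le_mul_of_nonneg_left ?_ n20
      exact mul_le_of_le_one_left q0.le hε1
    rw [ha0]
    linarith
  have baC : n1 (a + C) ≤ c2 * ε := by
    rw [ba']
    refine (n1_sub _ _).trans ?_
    have h1 : n1 (a * (Q - 1)ᵀ) ≤ a0 * (n2 * (ε * q)) :=
      (n1_mul _ _).trans (mul_le_mul ba bQT (n1_nonneg _) a00)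
    have h2 := n1_add (D * P) (Y + C)
    calc _ ≤ (2 * (n2 * h0) * (n2 * K') * ε + n2 * (ε * q)) + a0 * (n2 * (ε * q)) := by linarith
      _ = c2 * ε := by rw [hc2]; ring
  -- conclusion
  have fin : C * H + H * Cᵀ = (a + C) * H + H * (a + C)ᵀ - D * P * Dᵀ := by
    rw [← E2, Matrix.add_mul, Matrix.transpose_add, Matrix.mul_add]
    abel
  have b1 : n1 ((a + C) * H) ≤ c2 * ε * n1 H :=
    (n1_mul _ _).trans (mul_le_mul_of_nonneg_right baC nH)
  have b2 : n1 (H * (a + C)ᵀ) ≤ c2 * ε * n1 H := by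
    refine (n1_mul _ _).trans ?_
    rw [n1_transpose, mul_comm]
    exact mul_le_mul_of_nonneg_right baC nH
  have b3 : n1 (D * P * Dᵀ) ≤ 4 * (n2 * K') * (n2 * h0) * ε * n1 H := by
    calc n1 (D * P * Dᵀ) ≤ n1 (D * P) * n1 Dᵀ := n1_mul _ _
      _ ≤ (n1 D * n1 P) * n1 D := by
        rw [n1_transpose]
        exact mul_le_mul_of_nonneg_right (n1_mul _ _) (n1_nonneg D)
      _ ≤ ((2 * (n2 * h0 * ε)) * (n2 * K')) * (2 * n1 H) := by
        refine mul_le_mul ?_ bD (n1_nonneg D) (by positivity)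
        exact mul_le_mul (bD.trans (by linarith)) bP (n1_nonneg _) (by positivity)
      _ = 4 * (n2 * K') * (n2 * h0) * ε * n1 H := by ring
  refine (abs_le_n1 _ j k).trans ?_
  rw [fin]
  refine (n1_sub _ _).trans ?_
  have b4 := n1_add ((a + C) * H) (H * (a + C)ᵀ)
  calc _ ≤ (c2 * ε * n1 H + c2 * ε * n1 H) + 4 * (n2 * K') * (n2 * h0) * ε * n1 H := by linarith
    _ = (2 * c2 + 4 * (n2 * K') * (n2 * h0)) * ε * n1 H := by ring

end

end Crest.Agent.R281.McR_16
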