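import Crest.Agent.R281.Mc14_673
import Crest.Agent.R281.McR3_16

/-! Row 281, LAGT (helper16): the literal instances of helper673's `R2`, `R3` and `LagtG`. -/

set_option autoImplicit false

namespace Crest.Agent.R281.McR_16

theorem r2 : Mc673.R2 := by
  intro N Λ
  obtain ⟨c, η, hc, hη, h⟩ := R2 N Λ
  exact ⟨c, hc, η, hη, h⟩

theorem r3 : Mc673.R3 := by
  intro N Λ K
  obtain ⟨e0, C1, he, -, h⟩ := R3 N Λ K
  refine ⟨e0, he, C1, fun ε hε hε0 C hC x y xa ya I hI hxy A hA h1 h2 h3 h4 h5 h6 h7 => ?_⟩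
  exact h ε hε hε0 C hC x y xa ya I hI hxy A hA h1 h2 h3 h4 h5 h6 h7 _ (fun _ _ => rfl)

/-- **LAGT-G** -/
theorem lagtG : Mc673.LagtG := Mc673.lagtG_of r2 r3

end Crest.Agent.R281.McR_16
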