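import Mathlib

/-! Row 281, LAGT (helper16), rigidity (R2): `tr (M H M H) ≥ c |H|²` for almost `C`-invariant
antisymmetric `H`, `M = (1 + Cᵀ C) C`, `C² = -1`. -/

set_option autoImplicit false

open Matrix
open scoped Matrix.Norms.Frobenius

namespace Crest.Agent.R281.McR_16

noncomputable section

variable {N : ℕ}

/-- `ℓ¹` norm of the entries -/
def n1 (A : Matrix (Fin N) (Fin N) ℝ) : ℝ := ∑ j, ∑ k, |A j k|

theorem n1_nonneg (A : Matrix (Fin N) (Fin N) ℝ) : 0 ≤ n1 A :=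
  Finset.sum_nonneg fun _ _ => Finset.sum_nonneg fun _ _ => abs_nonneg _

theorem fro_sq (A : Matrix (Fin N) (Fin N) ℝ) : ‖A‖ ^ 2 = ∑ j, ∑ k, A j k ^ 2 := by
  rw [Matrix.frobenius_norm_def, ← Real.rpow_natCast, ← Real.rpow_mul (by positivity)]
  norm_num

theorem fro_tr (A : Matrix (Fin N) (Fin N) ℝ) : (A * Aᵀ).trace = ‖A‖ ^ 2 := by
  rw [fro_sq]
  simp only [Matrix.trace, Matrix.diag, Matrix.mul_apply, Matrix.transpose_apply, sq]

theorem fro_le_n1 (A : Matrix (Fin N) (Fin N) ℝ) : ‖A‖ ≤ n1 A := by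
  refine abs_le_of_sq_le_sq' ?_ (n1_nonneg A) |>.2
  rw [fro_sq]
  have h : ∀ j k, A j k ^ 2 ≤ |A j k| * n1 A := fun j k => by
    rw [← sq_abs, sq]
    refine mul_le_mul_of_nonneg_left ?_ (abs_nonneg _)
    calc |A j k| ≤ ∑ k, |A j k| :=
          Finset.single_le_sum (f := fun k => |A j k|) (fun _ _ => abs_nonneg _) (Finset.mem_univ k)
      _ ≤ n1 A := Finset.single_le_sum (f := fun j => ∑ k, |A j k|)
          (fun _ _ => Finset.sum_nonneg fun _ _ => abs_nonneg _) (Finset.mem_univ j)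
  calc ∑ j, ∑ k, A j k ^ 2 ≤ ∑ j, ∑ k, |A j k| * n1 A :=
        Finset.sum_le_sum fun j _ => Finset.sum_le_sum fun k _ => h j k
    _ = n1 A ^ 2 := by
      rw [sq]
      conv_rhs => rw [n1, Finset.sum_mul]
      refine Finset.sum_congr rfl fun j _ => ?_
      rw [Finset.sum_mul]
      rfl

theorem n1_le_fro (A : Matrix (Fin N) (Fin N) ℝ) : n1 A ≤ N * ‖A‖ := by
  refine abs_le_of_sq_le_sq' ?_ (by positivity) |>.2
  rw [mul_pow, fro_sq]
  have h1 : n1 A = ∑ p : Fin N × Fin N, |A p.1 p.2| := by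
    rw [Fintype.sum_prod_type]; rfl
  have h2 : (∑ j, ∑ k, A j k ^ 2) = ∑ p : Fin N × Fin N, A p.1 p.2 ^ 2 := by
    rw [Fintype.sum_prod_type]
  rw [h1, h2]
  have h3 := sq_sum_le_card_mul_sum_sq (s := (Finset.univ : Finset (Fin N × Fin N)))
    (f := fun p => |A p.1 p.2|)
  simp only [sq_abs, Finset.card_univ, Fintype.card_prod, Fintype.card_fin] at h3
  push_cast at h3
  calc (∑ p : Fin N × Fin N, |A p.1 p.2|) ^ 2 ≤ _ := h3
    _ = (N : ℝ) ^ 2 * ∑ p : Fin N × Fin N, A p.1 p.2 ^ 2 := by rw [sq (N : ℝ)]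

theorem abs_tr_mul_le (A B : Matrix (Fin N) (Fin N) ℝ) : |(A * B).trace| ≤ ‖A‖ * ‖B‖ := by
  have h1 : (A * B).trace = ∑ p : Fin N × Fin N, A p.1 p.2 * B p.2 p.1 := by
    rw [Fintype.sum_prod_type]
    simp only [Matrix.trace, Matrix.diag, Matrix.mul_apply]
  have h2 := Finset.sum_mul_sq_le_sq_mul_sq (Finset.univ : Finset (Fin N × Fin N))
    (fun p => A p.1 p.2) (fun p => B p.2 p.1)
  have h3 : (∑ p : Fin N × Fin N, A p.1 p.2 ^ 2) = ‖A‖ ^ 2 := by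
    rw [fro_sq, Fintype.sum_prod_type]
  have h4 : (∑ p : Fin N × Fin N, B p.2 p.1 ^ 2) = ‖B‖ ^ 2 := by
    rw [fro_sq, Fintype.sum_prod_type, Finset.sum_comm]
  rw [h3, h4, ← mul_pow] at h2
  rw [h1]
  exact abs_le_of_sq_le_sq h2 (by positivity)

/-- **(R2)** -/
theorem R2 (N : ℕ) (Λ : ℝ) : ∃ c η : ℝ, 0 < c ∧ 0 < η ∧ ∀ C H : Matrix (Fin N) (Fin N) ℝ,
    C * C = -1 → (∀ j k, |C j k| ≤ Λ) → Hᵀ = -H →
    (∀ j k, |(C * H + H * Cᵀ) j k| ≤ η * n1 H) →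
    c * n1 H ^ 2 ≤ ((1 + Cᵀ * C) * C * H * ((1 + Cᵀ * C) * C) * H).trace := by
  set L : ℝ := N ^ 2 * |Λ| + 1 with hL
  have hL1 : 1 ≤ L := by rw [hL]; have : 0 ≤ (N : ℝ) ^ 2 * |Λ| := by positivity
                         linarith
  set S0 : ℝ := N + L ^ 2 with hS0
  have hS0' : 0 < S0 := by positivity
  set D : ℝ := S0 ^ 2 * N ^ 3 * L with hD
  have hD0 : 0 ≤ D := by positivity
  refine ⟨1 / (2 * L ^ 2 * (N ^ 2 + 1)), 1 / (2 * D + 1), by positivity, by positivity, ?_⟩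
  intro C H hC hΛ hH hE
  have hCn : ‖C‖ ≤ L := by
    refine (fro_le_n1 C).trans ?_
    have : n1 C ≤ N ^ 2 * |Λ| := by
      calc n1 C ≤ ∑ _j : Fin N, ∑ _k : Fin N, |Λ| :=
            Finset.sum_le_sum fun j _ => Finset.sum_le_sum fun k _ =>
              (hΛ j k).trans (le_abs_self _)
        _ = N ^ 2 * |Λ| := by simp; ring
    linarith
  have h1n : ‖(1 : Matrix (Fin N) (Fin N) ℝ)‖ ≤ N := by
    refine (fro_le_n1 _).trans (le_of_eq ?_)
    unfold n1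
    have : ∀ j : Fin N, ∑ k, |(1 : Matrix (Fin N) (Fin N) ℝ) j k| = 1 := fun j => by
      rw [Finset.sum_eq_single j]
      · simp
      · intro k _ hk; simp [hk.symm]
      · simp
    simp [this]
  set S : Matrix (Fin N) (Fin N) ℝ := 1 + Cᵀ * C with hS
  have hSn : ‖S‖ ≤ S0 := by
    calc ‖S‖ ≤ ‖(1 : Matrix (Fin N) (Fin N) ℝ)‖ + ‖Cᵀ * C‖ := norm_add_le _ _
      _ ≤ N + L ^ 2 := by
        refine add_le_add h1n ((Matrix.frobenius_norm_mul _ _).trans ?_)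
        rw [Matrix.frobenius_norm_transpose, sq]
        exact mul_le_mul hCn hCn (norm_nonneg _) (by positivity)
  set R : Matrix (Fin N) (Fin N) ℝ := C * H with hR
  set E : Matrix (Fin N) (Fin N) ℝ := C * H + H * Cᵀ with hEd
  have hRT : R = Rᵀ + E := by
    rw [hR, hEd, Matrix.transpose_mul, hH, Matrix.neg_mul]
    abel
  have hHR : H = -(C * R) := by
    rw [hR, ← Matrix.mul_assoc, hC, Matrix.neg_mul, Matrix.one_mul, neg_neg]
  have hHn : ‖H‖ ≤ L * ‖R‖ := by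
    calc ‖H‖ = ‖C * R‖ := by rw [hHR, norm_neg]
      _ ≤ ‖C‖ * ‖R‖ := Matrix.frobenius_norm_mul _ _
      _ ≤ L * ‖R‖ := mul_le_mul_of_nonneg_right hCn (norm_nonneg _)
  -- main term
  have e1 : (S * C * H * (S * C) * H).trace = (S * R * S * R).trace := by
    rw [hR]; simp only [Matrix.mul_assoc]
  have e2 : (S * R * S * R).trace = (S * R * S * Rᵀ).trace + (S * R * S * E).trace := by
    conv_lhs => rw [show S * R * S * R = S * R * S * (Rᵀ + E) by rw [← hRT]]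
    rw [Matrix.mul_add, Matrix.trace_add]
  have e3 : (S * R * S * Rᵀ).trace = ‖R‖ ^ 2 + ‖C * R‖ ^ 2 + ‖R * Cᵀ‖ ^ 2 + ‖C * R * Cᵀ‖ ^ 2 := by
    rw [← fro_tr R, ← fro_tr (C * R), ← fro_tr (R * Cᵀ), ← fro_tr (C * R * Cᵀ)]
    have t1 : (C * R * (C * R)ᵀ).trace = (Cᵀ * C * R * Rᵀ).trace := by
      rw [Matrix.transpose_mul, ← Matrix.mul_assoc, Matrix.trace_mul_comm]
      simp only [Matrix.mul_assoc]
    have t2 : (R * Cᵀ * (R * Cᵀ)ᵀ).trace = (R * (Cᵀ * C) * Rᵀ).trace := by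
      rw [Matrix.transpose_mul, Matrix.transpose_transpose]
      simp only [Matrix.mul_assoc]
    have t3 : (C * R * Cᵀ * (C * R * Cᵀ)ᵀ).trace = (Cᵀ * C * R * (Cᵀ * C) * Rᵀ).trace := by
      rw [Matrix.transpose_mul, Matrix.transpose_mul, Matrix.transpose_transpose,
        show C * R * Cᵀ * (C * (Rᵀ * Cᵀ)) = (C * R * Cᵀ * C * Rᵀ) * Cᵀ by
          simp only [Matrix.mul_assoc], Matrix.trace_mul_comm]
      simp only [Matrix.mul_assoc]
    rw [t1, t2, t3, hS]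
    simp only [Matrix.add_mul, Matrix.mul_add, Matrix.one_mul, Matrix.mul_one, Matrix.trace_add]
    simp only [Matrix.mul_assoc]
    ring
  have e4 : |(S * R * S * E).trace| ≤ S0 ^ 2 * ‖R‖ * ‖E‖ := by
    refine (abs_tr_mul_le _ _).trans (mul_le_mul_of_nonneg_right ?_ (norm_nonneg _))
    calc ‖S * R * S‖ ≤ ‖S * R‖ * ‖S‖ := Matrix.frobenius_norm_mul _ _
      _ ≤ (‖S‖ * ‖R‖) * ‖S‖ :=
          mul_le_mul_of_nonneg_right (Matrix.frobenius_norm_mul _ _) (norm_nonneg _)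
      _ ≤ (S0 * ‖R‖) * S0 := mul_le_mul (mul_le_mul_of_nonneg_right hSn (norm_nonneg _)) hSn
          (norm_nonneg _) (by positivity)
      _ = S0 ^ 2 * ‖R‖ := by ring
  have hη : 0 < 1 / (2 * D + 1) := by positivity
  have e5 : ‖E‖ ≤ 1 / (2 * D + 1) * (N ^ 3 * L * ‖R‖) := by
    calc ‖E‖ ≤ n1 E := fro_le_n1 E
      _ ≤ ∑ _j : Fin N, ∑ _k : Fin N, 1 / (2 * D + 1) * n1 H :=
          Finset.sum_le_sum fun j _ => Finset.sum_le_sum fun k _ => hE j k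
      _ = 1 / (2 * D + 1) * (N ^ 2 * n1 H) := by simp; ring
      _ ≤ 1 / (2 * D + 1) * (N ^ 2 * (N * (L * ‖R‖))) := by
          refine mul_le_mul_of_nonneg_left ?_ hη.le
          refine mul_le_mul_of_nonneg_left ?_ (by positivity)
          exact (n1_le_fro H).trans (mul_le_mul_of_nonneg_left hHn (by positivity))
      _ = 1 / (2 * D + 1) * (N ^ 3 * L * ‖R‖) := by ring
  have e6 : S0 ^ 2 * ‖R‖ * ‖E‖ ≤ ‖R‖ ^ 2 / 2 := by
    calc S0 ^ 2 * ‖R‖ * ‖E‖ ≤ S0 ^ 2 * ‖R‖ * (1 / (2 * D + 1) * (N ^ 3 * L * ‖R‖)) :=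
          mul_le_mul_of_nonneg_left e5 (by positivity)
      _ = D / (2 * D + 1) * ‖R‖ ^ 2 := by rw [hD]; ring
      _ ≤ 1 / 2 * ‖R‖ ^ 2 := by
          refine mul_le_mul_of_nonneg_right ?_ (by positivity)
          rw [div_le_div_iff₀ (by positivity) (by norm_num)]
          linarith
      _ = ‖R‖ ^ 2 / 2 := by ring
  have e7 : ‖R‖ ^ 2 / 2 ≤ (S * C * H * (S * C) * H).trace := by
    rw [e1, e2, e3]
    have := (abs_le.1 e4).1
    have q1 := sq_nonneg ‖C * R‖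
    have q2 := sq_nonneg ‖R * Cᵀ‖
    have q3 := sq_nonneg ‖C * R * Cᵀ‖
    linarith
  refine le_trans ?_ e7
  have e8 : n1 H ^ 2 ≤ (N ^ 2 + 1) * (L ^ 2 * ‖R‖ ^ 2) := by
    have h1 := n1_le_fro H
    have h2 : n1 H ≤ N * (L * ‖R‖) := h1.trans (mul_le_mul_of_nonneg_left hHn (by positivity))
    calc n1 H ^ 2 ≤ (N * (L * ‖R‖)) ^ 2 := pow_le_pow_left₀ (n1_nonneg H) h2 2
      _ = N ^ 2 * (L ^ 2 * ‖R‖ ^ 2) := by ring
      _ ≤ (N ^ 2 + 1) * (L ^ 2 * ‖R‖ ^ 2) := by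
        refine mul_le_mul_of_nonneg_right (by linarith) (by positivity)
  calc 1 / (2 * L ^ 2 * (N ^ 2 + 1)) * n1 H ^ 2
      ≤ 1 / (2 * L ^ 2 * (N ^ 2 + 1)) * ((N ^ 2 + 1) * (L ^ 2 * ‖R‖ ^ 2)) :=
        mul_le_mul_of_nonneg_left e8 (by positivity)
    _ = ‖R‖ ^ 2 / 2 := by field_simp

end

end Crest.Agent.R281.McR_16
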