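import Crest.Agent.R281.Sem1_323
import Crest.Agent.R281.Hz0_286
import Crest.Agent.R281.HkR5_835

/-!
# R281 (S0424), SEMI-P (helper323), part 2: power series in the cells of the real charts

* `Qs`       : the part of the cell `k` of `C` in the half ball `l` of `A`, compact
* `form_bd`, `fun_bd` : bounds in the cells from bounds in the half balls
* `ps_form`  : power series of `(h.symm.F (G s).f2).w` on the cells from `Ps11`
* `ps_fun`, `ps_dfun` : the same for functions and their differentials from `PsF`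
-/

set_option autoImplicit false
set_option linter.unusedSectionVars false
set_option maxSynthPendingDepth 3

open Set Filter Topology Complex Metric
open scoped ContDiff Matrix ComplexConjugate ComplexOrder

namespace Crest.Agent.R281.Sem_323

open Crest.Agent.R275.Geo Crest.Agent.R275.Core144 Crest.Agent.R275.GC293
open Crest.Agent.R273.Defs_333 Crest.Agent.R273.YauDefs_635
open Crest.Agent.R273.Hess_333
open Crest.Agent.R273.Kah_333
open Crest.Agent.R273.SchA_152 Crest.Agent.R273.SchD_152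
open Crest.Agent.R273.SchF_152 Crest.Agent.R273.SchE_152 Crest.Agent.R273.SchG_152
open Crest.Agent.R273.YauSchF_635 Crest.Agent.R273.YauPf_635 Crest.Agent.R273.YauOpA_635
open Crest.Agent.R281.HkR_835 Crest.Agent.R281.Ti_846
open Crest.Agent.R281.HKMov_478
open Crest.Agent.R281.Hz_286

noncomputable section

variable {d : ℕ} {X : Type} [TopologicalSpace X] {A : Atl d X}
variable {V : Type} [NormedAddCommGroup V] [NormedSpace ℝ V] {C : RCh V X}

/-! ### compact pieces -/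

/-- points of the cell `k` in the half ball `l` -/
def Qs (Bc : Cb A) (Z : Cells C) (k : Z.σ) (l : Bc.κ) : Set V :=
  {z | z ∈ Z.B k ∧ z ∈ mov (ofAtl A) C (Bc.i l) (Z.i k) ∧
    mt (ofAtl A) C (Bc.i l) (Z.i k) z ∈ closedBall (Bc.z l) (Bc.r l / 2)}

theorem exists_Qs (Bc : Cb A) (Z : Cells C) {k : Z.σ} {z : V} (hz : z ∈ Z.B k) :
    ∃ l, z ∈ Qs Bc Z k l := by
  obtain ⟨l, h1, h2⟩ := Bc.cover ((C.e (Z.i k)).symm z)
  exact ⟨l, hz, ⟨Z.sub k hz, h1⟩, ball_subset_closedBall h2⟩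

theorem compact_Qs [T2Space X] [FiniteDimensional ℝ V] (Bc : Cb A) (Z : Cells C) (k : Z.σ)
    (l : Bc.κ) : IsCompact (Qs Bc Z k l) := by
  have := FiniteDimensional.proper_real V
  have hK : IsCompact ((A.e (Bc.i l)).symm '' closedBall (Bc.z l) (Bc.r l / 2)) :=
    (isCompact_closedBall _ _).image_of_continuousOn
      ((A.e (Bc.i l)).continuousOn_symm.mono (Bc.sub' l))
  have hB : IsCompact (Z.B k) := isCompact_closedBall _ _
  have h1 : Qs Bc Z k l = Z.B k ∩ (C.e (Z.i k)).symm ⁻¹'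
      ((A.e (Bc.i l)).symm '' closedBall (Bc.z l) (Bc.r l / 2)) := by
    ext z
    constructor
    · rintro ⟨h1, h2, h3⟩
      exact ⟨h1, _, h3, (A.e (Bc.i l)).left_inv h2.2⟩
    · rintro ⟨h1, y, hy, hyz⟩
      have hyt := Bc.sub' l hy
      refine ⟨h1, ⟨Z.sub k h1, ?_⟩, ?_⟩
      · show (C.e (Z.i k)).symm z ∈ (A.e (Bc.i l)).source
        rw [← hyz]
        exact (A.e (Bc.i l)).map_target hyt
      · show A.e (Bc.i l) ((C.e (Z.i k)).symm z) ∈ _
        rw [← hyz, (A.e (Bc.i l)).right_inv hyt]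
        exact hy
  rw [h1]
  refine hB.of_isClosed_subset ?_ inter_subset_left
  exact ((C.e (Z.i k)).continuousOn_symm.mono (Z.sub k)).preimage_isClosed_of_isClosed
    isClosed_closedBall hK.isClosed

/-- a bound of the differentials of the transition maps -/
theorem exists_cst [T2Space X] [FiniteDimensional ℝ V] (h : Cmp C (ofAtl A)) (Bc : Cb A)
    (Z : Cells C) : ∃ c : ℝ, 0 ≤ c ∧ ∀ k l, ∀ z ∈ Qs Bc Z k l,
      ‖fderiv ℝ (mt (ofAtl A) C (Bc.i l) (Z.i k)) z‖ ≤ c := by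
  have := Bc.fin
  have h1 : ∀ p : Z.σ × Bc.κ, ∃ c : ℝ, ∀ z ∈ Qs Bc Z p.1 p.2,
      ‖fderiv ℝ (mt (ofAtl A) C (Bc.i p.2) (Z.i p.1)) z‖ ≤ c := by
    intro p
    have h2 : ContinuousOn (fderiv ℝ (mt (ofAtl A) C (Bc.i p.2) (Z.i p.1)))
        (mov (ofAtl A) C (Bc.i p.2) (Z.i p.1)) :=
      ((h.s' (Z.i p.1) (Bc.i p.2)).fderiv_of_isOpen (Cmp.isOpen_mov _ _ _ _)
        (m := ∞) (by simp)).continuousOn
    obtain ⟨c, hc⟩ := (compact_Qs Bc Z p.1 p.2).exists_bound_of_continuousOn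
      (h2.mono fun z hz => hz.2.1)
    exact ⟨c, hc⟩
  choose c hc using h1
  obtain ⟨c', hc0, hc'⟩ := exists_ub c
  exact ⟨c', hc0, fun k l z hz => (hc (k, l) z hz).trans (hc' (k, l))⟩

/-! ### forms -/

theorem hb_bd {G : Matrix (Fin d) (Fin d) ℂ} {a : ℝ} (hG : ∀ b c, ‖G b c‖ ≤ a) (ha : 0 ≤ a)
    (u v : Cn d) : |(I * hb G u v).re| ≤ (d : ℝ) ^ 2 * a * ‖u‖ * ‖v‖ := by
  refine (Complex.abs_re_le_norm _).trans ?_
  rw [norm_mul, Complex.norm_I, one_mul]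
  unfold hb
  have h1 : ∀ b c, ‖G b c * u b * conj (v c)‖ ≤ a * ‖u‖ * ‖v‖ := by
    intro b c
    rw [norm_mul, norm_mul, RCLike.norm_conj]
    have e1 := PiLp.norm_apply_le u b
    have e2 := PiLp.norm_apply_le v c
    gcongr
    exact hG b c
  calc ‖∑ b, ∑ c, G b c * u b * conj (v c)‖ ≤ ∑ _b : Fin d, ∑ _c : Fin d, a * ‖u‖ * ‖v‖ :=
        norm_sum_le_of_le _ fun b _ => norm_sum_le_of_le _ fun c _ => h1 b c
    _ = _ := by
        simp only [Finset.sum_const, Finset.card_univ, Fintype.card_fin, nsmul_eq_mul]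
        ring

/-- the value of a (1,1)-form in the cells -/
theorem form_w (h : Cmp C (ofAtl A)) (Y : K11 A) (Bc : Cb A) (Z : Cells C) {k : Z.σ} {l : Bc.κ}
    {z : V} (hz : z ∈ Qs Bc Z k l) (u v : V) : (h.symm.F Y.f2).w (Z.i k) z u v =
      (I * hb (Y.g (Bc.i l) ((A.e (Bc.i l)).symm (mt (ofAtl A) C (Bc.i l) (Z.i k) z)))
        (fderiv ℝ (mt (ofAtl A) C (Bc.i l) (Z.i k)) z u)
        (fderiv ℝ (mt (ofAtl A) C (Bc.i l) (Z.i k)) z v)).re := by
  rw [Cmp.F_w h.symm Y.f2 hz.2.1]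
  exact K11.f2_w Y (Cmp.mt_mem hz.2.1).1 _ _

/-- **bounds in the cells from bounds in the half balls** -/
theorem form_bd [T2Space X] [FiniteDimensional ℝ V] (h : Cmp C (ofAtl A)) (Bc : Cb A)
    (Z : Cells C) : ∃ c : ℝ, 0 ≤ c ∧ ∀ (Y : K11 A) (a : ℝ), 0 ≤ a →
      (∀ l, ∀ z ∈ closedBall (Bc.z l) (Bc.r l / 2), ∀ p q,
        ‖Y.g (Bc.i l) ((A.e (Bc.i l)).symm z) p q‖ ≤ a) →
      ∀ k, ∀ z ∈ Z.B k, ‖(h.symm.F Y.f2).w (Z.i k) z‖ ≤ c * a := by
  obtain ⟨c, hc0, hc⟩ := exists_cst h Bc Z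
  refine ⟨(d : ℝ) ^ 2 * c * c, by positivity, fun Y a ha hY k z hz => ?_⟩
  obtain ⟨l, hl⟩ := exists_Qs Bc Z hz
  refine ContinuousLinearMap.opNorm_le_bound₂ _ (by positivity) fun u v => ?_
  rw [form_w h Y Bc Z hl, Real.norm_eq_abs]
  refine (hb_bd (hY l _ hl.2.2) ha _ _).trans ?_
  have h1 := (fderiv ℝ (mt (ofAtl A) C (Bc.i l) (Z.i k)) z).le_opNorm u
  have h2 := (fderiv ℝ (mt (ofAtl A) C (Bc.i l) (Z.i k)) z).le_opNorm v
  have h3 := hc k l z hl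
  have h4 : ‖fderiv ℝ (mt (ofAtl A) C (Bc.i l) (Z.i k)) z u‖ ≤ c * ‖u‖ :=
    h1.trans (mul_le_mul_of_nonneg_right h3 (norm_nonneg _))
  have h5 : ‖fderiv ℝ (mt (ofAtl A) C (Bc.i l) (Z.i k)) z v‖ ≤ c * ‖v‖ :=
    h2.trans (mul_le_mul_of_nonneg_right h3 (norm_nonneg _))
  calc _ ≤ (d : ℝ) ^ 2 * a * (c * ‖u‖) * (c * ‖v‖) := by gcongr
    _ = _ := by ring

theorem hb_sum {t : ℝ} {Y : ℕ → Matrix (Fin d) (Fin d) ℂ} {G : Matrix (Fin d) (Fin d) ℂ}
    (hY : ∀ b c, HasSum (fun j => (t : ℂ) ^ j * Y j b c) (G b c)) (u v : Cn d) :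
    HasSum (fun j => t ^ j * (I * hb (Y j) u v).re) ((I * hb G u v).re) := by
  have h1 : HasSum (fun j => (t : ℂ) ^ j * hb (Y j) u v) (hb G u v) := by
    have h2 : HasSum (fun j => ∑ b, ∑ c, (t : ℂ) ^ j * Y j b c * u b * conj (v c)) (hb G u v) := by
      unfold hb
      exact hasSum_sum fun b _ => hasSum_sum fun c _ => ((hY b c).mul_right (u b)).mul_right _
    refine h2.congr_fun fun j => ?_
    unfold hb
    rw [Finset.mul_sum]
    refine Finset.sum_congr rfl fun b _ => ?_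
    rw [Finset.mul_sum]
    exact Finset.sum_congr rfl fun c _ => by ring
  have h3 := (Complex.hasSum_re (h1.mul_left I))
  refine h3.congr_fun fun j => ?_
  have : I * ((t : ℂ) ^ j * hb (Y j) u v) = ((t ^ j : ℝ) : ℂ) * (I * hb (Y j) u v) := by
    push_cast
    ring
  rw [this, Complex.re_ofReal_mul]

/-- a power series on the cells -/
structure CSer (Z : Cells C) (W : Type) [NormedAddCommGroup W] [NormedSpace ℝ W]
    (F : ℝ → C.ι → V → W) (s0 r : ℝ) (c : ℕ → C.ι → V → W) (a : ℕ → ℝ) : Prop where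
  r0 : 0 < r
  a0 : ∀ j, 0 ≤ a j
  sum : Summable fun j => a j * r ^ j
  cont : ∀ j k, ContinuousOn (c j (Z.i k)) (Z.B k)
  bd : ∀ j k, ∀ z ∈ Z.B k, ‖c j (Z.i k) z‖ ≤ a j
  hs : ∀ s, |s - s0| < r → ∀ k, ∀ z ∈ Z.B k,
    HasSum (fun j => (s - s0) ^ j • c j (Z.i k) z) (F s (Z.i k) z)

/-- **power series of the forms on the cells** -/
theorem ps_form [T2Space X] [FiniteDimensional ℝ V] (h : Cmp C (ofAtl A)) (Bc : Cb A)
    (Z : Cells C) {G : ℝ → K11 A} {s0 r : ℝ} {Y : ℕ → K11 A} {a : ℕ → ℝ}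
    (S : Ps11 Bc G s0 r Y a) :
    ∃ a' : ℕ → ℝ, CSer Z (V →L[ℝ] V →L[ℝ] ℝ) (fun s => (h.symm.F (G s).f2).w) s0 r
      (fun j => (h.symm.F (Y j).f2).w) a' := by
  obtain ⟨c, hc0, hc⟩ := form_bd h Bc Z
  have hbd : ∀ j k, ∀ z ∈ Z.B k, ‖(h.symm.F (Y j).f2).w (Z.i k) z‖ ≤ c * a j := fun j =>
    hc (Y j) (a j) (S.a0 j) fun l z hz p q => (S.ho j l p q).bdd z hz
  refine ⟨fun j => c * a j, S.r0, fun j => mul_nonneg hc0 (S.a0 j), ?_, fun j k => ?_, hbd,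
    fun s hs k z hz => ?_⟩
  · refine (S.sum.mul_left c).congr fun j => ?_
    ring
  · exact ((h.symm.F (Y j).f2).sm (Z.i k)).continuousOn.mono (Z.sub k)
  · have hsum : Summable fun j => (s - s0) ^ j • (h.symm.F (Y j).f2).w (Z.i k) z := by
      refine Summable.of_norm_bounded ((smb S.a0 S.sum hs.le).mul_left c) fun j => ?_
      rw [norm_smul, norm_pow, Real.norm_eq_abs]
      calc |s - s0| ^ j * _ ≤ |s - s0| ^ j * (c * a j) :=
            mul_le_mul_of_nonneg_left (hbd j k z hz) (by positivity)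
        _ = _ := by ring
    obtain ⟨l, hl⟩ := exists_Qs Bc Z hz
    have h1 := hsum.hasSum
    have h2 : ∑' j, (s - s0) ^ j • (h.symm.F (Y j).f2).w (Z.i k) z =
        (h.symm.F (G s).f2).w (Z.i k) z := by
      ext u v
      have h3 : HasSum (fun j => (s - s0) ^ j * (h.symm.F (Y j).f2).w (Z.i k) z u v)
          ((∑' j, (s - s0) ^ j • (h.symm.F (Y j).f2).w (Z.i k) z) u v) := by
        have h4 := (h1.mapL (ContinuousLinearMap.apply ℝ (V →L[ℝ] ℝ) u)).mapL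
          (ContinuousLinearMap.apply ℝ ℝ v)
        exact h4
      have h5 := hb_sum (t := s - s0) (fun b c => S.hs s hs (Bc.i l)
        ((A.e (Bc.i l)).symm (mt (ofAtl A) C (Bc.i l) (Z.i k) z))
        ((A.e (Bc.i l)).map_target (Bc.sub' l hl.2.2)) b c)
        (fderiv ℝ (mt (ofAtl A) C (Bc.i l) (Z.i k)) z u)
        (fderiv ℝ (mt (ofAtl A) C (Bc.i l) (Z.i k)) z v)
      rw [← form_w h (G s) Bc Z hl] at h5
      refine h3.unique (h5.congr_fun fun j => ?_)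
      rw [form_w h (Y j) Bc Z hl]
    rw [← h2]
    exact h1

/-! ### functions -/

/-- the differential of a function read in the charts of `C` -/
def dfn (C : RCh V X) (φ : X → ℝ) (i : C.ι) (z : V) : V →L[ℝ] ℝ :=
  fderiv ℝ (fun y => φ ((C.e i).symm y)) z

theorem dfn_eq (h : Cmp C (ofAtl A)) {φ : X → ℝ} (hφ : A.Sm φ) (Bc : Cb A) (Z : Cells C)
    {k : Z.σ} {l : Bc.κ} {z : V} (hz : z ∈ Qs Bc Z k l) : dfn C φ (Z.i k) z =
      (fderiv ℝ (inC A (Bc.i l) φ) (mt (ofAtl A) C (Bc.i l) (Z.i k) z)).comp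
        (fderiv ℝ (mt (ofAtl A) C (Bc.i l) (Z.i k)) z) := by
  have hm := hz.2.1
  have h1 : (fun y => φ ((C.e (Z.i k)).symm y)) =ᶠ[𝓝 z]
      fun y => inC A (Bc.i l) φ (mt (ofAtl A) C (Bc.i l) (Z.i k) y) := by
    filter_upwards [(Cmp.isOpen_mov (ofAtl A) C (Bc.i l) (Z.i k)).mem_nhds hm] with y hy
    show φ ((C.e (Z.i k)).symm y) = φ ((A.e (Bc.i l)).symm (A.e (Bc.i l) ((C.e (Z.i k)).symm y)))
    rw [(A.e (Bc.i l)).left_inv hy.2]
  have hy : mt (ofAtl A) C (Bc.i l) (Z.i k) z ∈ (A.e (Bc.i l)).target := (Cmp.mt_mem hm).1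
  have h2 : DifferentiableAt ℝ (inC A (Bc.i l) φ) (mt (ofAtl A) C (Bc.i l) (Z.i k) z) :=
    ((hφ (Bc.i l)).contDiffAt ((A.e (Bc.i l)).open_target.mem_nhds hy)).differentiableAt (by simp)
  have h3 := (HasFDerivAt.comp z h2.hasFDerivAt (h.symm.diff hm).hasFDerivAt).fderiv
  unfold dfn
  rw [h1.fderiv_eq]
  exact h3

/-- smooth functions read in the charts of `C` -/
theorem sm_read (h : Cmp C (ofAtl A)) {φ : X → ℝ} (hφ : A.Sm φ) (i : C.ι) :
    ContDiffOn ℝ ∞ (fun y => φ ((C.e i).symm y)) (C.e i).target := by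
  intro z hz
  obtain ⟨l, hl⟩ := A.cover ((C.e i).symm z)
  have hm : z ∈ mov (ofAtl A) C l i := ⟨hz, hl⟩
  have hU := Cmp.isOpen_mov (ofAtl A) C l i
  have h1 : (fun y => φ ((C.e i).symm y)) =ᶠ[𝓝 z]
      fun y => inC A l φ (mt (ofAtl A) C l i y) := by
    filter_upwards [hU.mem_nhds hm] with y hy
    show φ ((C.e i).symm y) = φ ((A.e l).symm (A.e l ((C.e i).symm y)))
    rw [(A.e l).left_inv hy.2]
  have hy : mt (ofAtl A) C l i z ∈ (A.e l).target := (Cmp.mt_mem hm).1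
  have h2 : ContDiffAt ℝ ∞ (inC A l φ) (mt (ofAtl A) C l i z) :=
    (hφ l).contDiffAt ((A.e l).open_target.mem_nhds hy)
  have h3 : ContDiffAt ℝ ∞ (mt (ofAtl A) C l i) z := (h.s' i l).contDiffAt (hU.mem_nhds hm)
  exact ((h2.comp z h3).congr_of_eventuallyEq h1).contDiffWithinAt

theorem dfn_sm (h : Cmp C (ofAtl A)) {φ : X → ℝ} (hφ : A.Sm φ) (i : C.ι) :
    ContDiffOn ℝ ∞ (dfn C φ i) (C.e i).target :=
  (sm_read h hφ i).fderiv_of_isOpen (C.e i).open_target (by simp)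

theorem dfn_cont (h : Cmp C (ofAtl A)) {φ : X → ℝ} (hφ : A.Sm φ) (Z : Cells C)
    (k : Z.σ) : ContinuousOn (dfn C φ (Z.i k)) (Z.B k) :=
  (dfn_sm h hφ (Z.i k)).continuousOn.mono (Z.sub k)

/-- **power series of the differentials on the cells** -/
theorem ps_dfun [T2Space X] [FiniteDimensional ℝ V] (h : Cmp C (ofAtl A)) (Bc : Cb A)
    (Z : Cells C) {f : ℝ → X → ℝ} {s0 r : ℝ} {φ : ℕ → X → ℝ} {a : ℕ → ℝ}
    (S : PsF Bc f s0 r φ a) (hf : ∀ s, |s - s0| < r → A.Sm (f s)) :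
    ∃ a' : ℕ → ℝ, CSer Z (V →L[ℝ] ℝ) (fun s => dfn C (f s)) s0 r (fun j => dfn C (φ j)) a' := by
  obtain ⟨c, hc0, hc⟩ := exists_cst h Bc Z
  have hbd : ∀ j k, ∀ z ∈ Z.B k, ‖dfn C (φ j) (Z.i k) z‖ ≤ c * a j := by
    intro j k z hz
    obtain ⟨l, hl⟩ := exists_Qs Bc Z hz
    rw [dfn_eq h (S.sm j) Bc Z hl]
    refine (ContinuousLinearMap.opNorm_comp_le _ _).trans ?_
    rw [mul_comm]
    exact mul_le_mul (hc k l z hl) ((S.n2 j l).h1.bdd _ hl.2.2) (norm_nonneg _) hc0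
  refine ⟨fun j => c * a j, S.r0, fun j => mul_nonneg hc0 (S.a0 j), ?_, fun j k => ?_, hbd,
    fun s hs k z hz => ?_⟩
  · refine (S.sum.mul_left c).congr fun j => ?_
    ring
  · exact dfn_cont h (S.sm j) Z k
  · obtain ⟨l, hl⟩ := exists_Qs Bc Z hz
    have h1 := S.fd1 hs (hf s hs) l _ hl.2.2
    have h2 := h1.mapL (ContinuousLinearMap.compL ℝ V (Cn d) ℝ |>.flip
      (fderiv ℝ (mt (ofAtl A) C (Bc.i l) (Z.i k)) z))
    rw [dfn_eq h (hf s hs) Bc Z hl]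
    refine h2.congr_fun fun j => ?_
    rw [dfn_eq h (S.sm j) Bc Z hl]
    rfl

end

end Crest.Agent.R281.Sem_323
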