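import Crest.Agent.R281.Mca1_365
import Crest.Agent.R281.Sem2_323

/-!
# R281 (S0424), MOVE-COEF, block (S) (helper365): power series on the cells are analytic

* `CSer.analyticAt` : `CSer Z W F s0 r c a` ⟹ `s ↦ toC (Z.B k) (F s (Z.i k))` analytic at `s0`
-/

set_option autoImplicit false
set_option linter.unusedSectionVars false

open Set Filter Topology Complex Metric
open scoped ContDiff

namespace Crest.Agent.R281.Mca_365

open Crest.Agent.R275.Geo Crest.Agent.R281.HkR_835 Crest.Agent.R281.Hz_286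
open Crest.Agent.R281.Sem_323

noncomputable section

variable {V X : Type} [NormedAddCommGroup V] [NormedSpace ℝ V] [TopologicalSpace X]
  {C : RCh V X} {Z : Cells C} {W : Type} [NormedAddCommGroup W] [NormedSpace ℝ W]
  {F : ℝ → C.ι → V → W} {s0 r : ℝ} {c : ℕ → C.ι → V → W} {a : ℕ → ℝ}

/-- the sum of the series is continuous on the cells -/
theorem CSer.contF [CompleteSpace W] (H : CSer Z W F s0 r c a) {s : ℝ} (hs : |s - s0| < r) (k : Z.σ) :
    ContinuousOn (F s (Z.i k)) (Z.B k) := by
  have h1 : TendstoUniformlyOn (fun (t : Finset ℕ) (z : V) => ∑ j ∈ t, (s - s0) ^ j • c j (Z.i k) z)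
      (fun z => ∑' j, (s - s0) ^ j • c j (Z.i k) z) atTop (Z.B k) :=
    tendstoUniformlyOn_tsum (Crest.Agent.R281.HKMov_478.smb H.a0 H.sum hs.le) fun j z hz => by
      rw [norm_smul, norm_pow, Real.norm_eq_abs]
      exact mul_le_mul_of_nonneg_left (H.bd j k z hz) (by positivity)
  have h2 : ContinuousOn (fun z => ∑' j, (s - s0) ^ j • c j (Z.i k) z) (Z.B k) :=
    h1.continuousOn (Frequently.of_forall fun t =>
      continuousOn_finsetSum t fun j _ => (H.cont j k).const_smul _)
  exact h2.congr fun z hz => (H.hs s hs k z hz).tsum_eq.symm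

/-- **(S)** -/
theorem CSer.analyticAt [CompleteSpace W] (k : Z.σ) [CompactSpace (Z.B k)]
    (H : CSer Z W F s0 r c a) : AnalyticAt ℝ (fun s => toC (Z.B k) (F s (Z.i k))) s0 :=
  analyticAt_toC H.r0 H.a0 H.sum (fun j => H.cont j k) (fun _ hs => CSer.contF H hs k)
    (fun j => H.bd j k) fun s hs => H.hs s hs k

end

end Crest.Agent.R281.Mca_365
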