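import Crest.Agent.R281.HKMovK_478
import Crest.Agent.R281.LAn6_508

/-!
# R281 (S0424), SEMI-P (helper323), part 1: the family of metrics over a neighbourhood of `[0,1]`

* `SegK K0 B x0 T K u` : `K s = K0 + s B + i∂∂̄ (u s)`, `u s x0 = 0`, `det (K s) = c_s det K0`, `s ∈ T`
* `SegK.near`    : solutions near every point
* `SegK.extend`  : from `[0,1]` to `(-δ, 1+δ)`
* `SegK.ps`      : local power series at every point of an open `T` (478's `yau_move`)
* `SegF`, `SegF.extend` : the same for the linear equation `tr (E + i∂∂̄ (f s)) = c_s`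
-/

set_option autoImplicit false
set_option linter.unusedSectionVars false

open Set Filter Topology Complex Metric
open scoped ContDiff Matrix ComplexConjugate ComplexOrder

namespace Crest.Agent.R281.Sem_323

open Crest.Agent.R275.Geo Crest.Agent.R275.Core144 Crest.Agent.R275.GC293
open Crest.Agent.R275.EDR890
open Crest.Agent.R273.Defs_333 Crest.Agent.R273.YauDefs_635 Crest.Agent.R273.HM_333
open Crest.Agent.R273.YauCh_635 Crest.Agent.R273.Hess_333 Crest.Agent.R273.HessB_333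
open Crest.Agent.R273.Kah_333 Crest.Agent.R273.YauMax_635 Crest.Agent.R273.YauLoc_635
open Crest.Agent.R273.SchA_152 Crest.Agent.R273.SchD_152 Crest.Agent.R273.YauQ_635
open Crest.Agent.R273.YauSchF_635 Crest.Agent.R273.YauPf_635 Crest.Agent.R273.YauOpA_635
open Crest.Agent.R273.SchF_152 Crest.Agent.R273.SchE_152 Crest.Agent.R273.SchG_152
open Crest.Agent.R273.GreenM_5
open Crest.Agent.R281.HkR_835 (K11 ofKah)
open Crest.Agent.R281.KpU_487 (C2f unique_gen)
open Crest.Agent.R281.HKMov_478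
open Crest.Agent.R281.LAn_508 (trQ exists_lap lap_unique lap_move)

noncomputable section

variable {n : ℕ} {M : Type} [TopologicalSpace M] {A : Atl n M}

/-! ### algebra of `K11` -/

/-- the zero form -/
def zK (A : Atl n M) : K11 A where
  g _ _ := 0
  sm _ _ _ := contDiffOn_const
  herm _ _ _ := Matrix.isHermitian_zero
  tr _ _ _ _ := by simp
  closed _ _ _ _ _ _ := (wd_const (0 : ℂ) _ _).trans (wd_const (0 : ℂ) _ _).symm

/-- `B` in degree one -/
def oneK (B : K11 A) (j : ℕ) : K11 A := if j = 1 then B else zK A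

theorem oneK_one (B : K11 A) : oneK B 1 = B := if_pos rfl
theorem oneK_ne (B : K11 A) {j : ℕ} (hj : j ≠ 1) : oneK B j = zK A := if_neg hj

theorem isSum_one (K : Kah A) (B : K11 A) (s : ℝ) : IsSum K (oneK B) s (linK K B s) := by
  intro i x hx b c
  have h1 : (linK K B s).g i x b c - K.g i x b c = (s : ℂ) * B.g i x b c := by
    show (K.g i x + (s : ℂ) • B.g i x) b c - K.g i x b c = _
    rw [Matrix.add_apply, Matrix.smul_apply, smul_eq_mul]
    ring
  rw [h1]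
  have h2 := hasSum_single (f := fun j => (s : ℂ) ^ (j + 1) * (oneK B (j + 1)).g i x b c) 0
    (fun j hj => by
      rw [oneK_ne B (by omega)]
      show _ * (0 : Matrix (Fin n) (Fin n) ℂ) b c = 0
      simp)
  simpa [oneK_one] using h2

/-- local existence along a line -/
theorem near [T2Space M] [CompactSpace M] [ConnectedSpace M] [Finite A.ι] (P : Part A) (Bc : Cb A)
    (K : Kah A) (B : K11 A) (x0 : M) : ∃ δ : ℝ, 0 < δ ∧ ∀ s, |s| < δ → ∃ (K' : Kah A) (u : M → ℝ)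
      (c : ℝ), IsAdd K' (linK K B s) u ∧ u x0 = 0 ∧
        ∀ i, ∀ x ∈ (A.e i).source, (K'.g i x).det = (c : ℂ) * (K.g i x).det := by
  obtain ⟨V, hV0, hV⟩ := k11_ho B Bc
  obtain ⟨r, η', hr, -, -, -, H⟩ := yau_an P K Bc x0 (w := fun j => if j = 1 then V else 0)
    (fun j => by split_ifs <;> simp [hV0]) (ρ := 1) (W := V) one_pos (fun J => by
      calc ∑ j ∈ Finset.range J, (if j + 1 = 1 then V else 0) * (1 : ℝ) ^ (j + 1)
          = ∑ j ∈ Finset.range J, (if j = 0 then V else 0) := by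
            refine Finset.sum_congr rfl fun j _ => ?_
            simp
        _ ≤ V := by
            rw [Finset.sum_ite_eq' (Finset.range J) 0 fun _ => V]
            split_ifs
            · exact le_rfl
            · exact hV0) one_pos
  obtain ⟨S, hS⟩ := H (oneK B) (fun j hj k b c => by
    by_cases h1 : j = 1
    · subst h1
      simp only [if_true, oneK_one]
      exact hV k b c
    · rw [oneK_ne B h1, if_neg h1]
      refine ⟨fun z _ => ?_, fun z _ w _ => ?_⟩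
      · show ‖(0 : Matrix (Fin n) (Fin n) ℂ) b c‖ ≤ 0
        simp
      · show ‖(0 : Matrix (Fin n) (Fin n) ℂ) b c - (0 : Matrix (Fin n) (Fin n) ℂ) b c‖ ≤ _
        simp)
  refine ⟨r, hr, fun s hs => ?_⟩
  obtain ⟨K', h1, h2⟩ := hS s hs (linK K B s) (isSum_one K B s)
  refine ⟨K', S.ps s, 1 + S.ms s, h1, ?_, h2⟩
  unfold AnS.ps
  simp [S.nrm]

/-- a family of Monge-Ampere metrics over a part of a line -/
structure SegK (K0 : Kah A) (B : K11 A) (x0 : M) (T : Set ℝ) (K : ℝ → Kah A) (u : ℝ → M → ℝ) :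
    Prop where
  add : ∀ s ∈ T, IsAdd (K s) (linK K0 B s) (u s)
  nrm : ∀ s ∈ T, u s x0 = 0
  det : ∀ s ∈ T, ∃ c : ℝ, ∀ i, ∀ x ∈ (A.e i).source,
    ((K s).g i x).det = (c : ℂ) * (K0.g i x).det

/-- composition of two steps -/
theorem isAdd_step {K0 K K' : Kah A} {B : K11 A} {u v : M → ℝ} {s t : ℝ}
    (h : IsAdd K (linK K0 B s) u) (h' : IsAdd K' (linK K B t) v) :
    IsAdd K' (linK K0 B (s + t)) (fun x => u x + v x) := by
  refine ⟨fun i => (h.sm i).add (h'.sm i), fun i x hx => ?_⟩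
  rw [h'.eq i x hx, hsf_addf h.sm h'.sm hx]
  show K.g i x + (t : ℂ) • B.g i x + hsf A v i x =
    K0.g i x + ((s + t : ℝ) : ℂ) • B.g i x + (hsf A u i x + hsf A v i x)
  rw [h.eq i x hx]
  show K0.g i x + (s : ℂ) • B.g i x + hsf A u i x + (t : ℂ) • B.g i x + hsf A v i x = _
  rw [Complex.ofReal_add, add_smul]
  abel

namespace SegK

variable {K0 : Kah A} {B : K11 A} {x0 : M} {T : Set ℝ} {K : ℝ → Kah A} {u : ℝ → M → ℝ}

theorem mono (h : SegK K0 B x0 T K u) {T' : Set ℝ} (hT : T' ⊆ T) : SegK K0 B x0 T' K u :=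
  ⟨fun s hs => h.add s (hT hs), fun s hs => h.nrm s (hT hs), fun s hs => h.det s (hT hs)⟩

/-- solutions near every point -/
theorem near [T2Space M] [CompactSpace M] [ConnectedSpace M] [Finite A.ι] (P : Part A) (Bc : Cb A)
    (h : SegK K0 B x0 T K u) {s0 : ℝ} (hs0 : s0 ∈ T) :
    ∃ δ : ℝ, 0 < δ ∧ ∀ s, |s - s0| < δ → ∃ (K' : Kah A) (v : M → ℝ) (c : ℝ),
      IsAdd K' (linK K0 B s) v ∧ v x0 = 0 ∧
        ∀ i, ∀ x ∈ (A.e i).source, (K'.g i x).det = (c : ℂ) * (K0.g i x).det := by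
  obtain ⟨δ, hδ, H⟩ := Sem_323.near P Bc (K s0) B x0
  refine ⟨δ, hδ, fun s hs => ?_⟩
  obtain ⟨K', v, c, h1, h2, h3⟩ := H (s - s0) hs
  obtain ⟨c0, hc0⟩ := h.det s0 hs0
  have h4 := isAdd_step (h.add s0 hs0) h1
  rw [add_sub_cancel] at h4
  refine ⟨K', _, c * c0, h4, ?_, fun i x hx => ?_⟩
  · rw [h.nrm s0 hs0, h2, add_zero]
  · rw [h3 i x hx, hc0 i x hx]
    push_cast
    ring

open Classical in
/-- **extension from `[0,1]` to a neighbourhood** -/
theorem extend [T2Space M] [CompactSpace M] [ConnectedSpace M] [Finite A.ι] (P : Part A)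
    (Bc : Cb A) (h : SegK K0 B x0 (Icc 0 1) K u) :
    ∃ (δ : ℝ) (K' : ℝ → Kah A) (u' : ℝ → M → ℝ), 0 < δ ∧
      SegK K0 B x0 (Ioo (-δ) (1 + δ)) K' u' ∧ ∀ s ∈ Icc (0 : ℝ) 1, K' s = K s ∧ u' s = u s := by
  obtain ⟨δ0, hδ0, H0⟩ := h.near P Bc (s0 := 0) ⟨le_rfl, zero_le_one⟩
  obtain ⟨δ1, hδ1, H1⟩ := h.near P Bc (s0 := 1) ⟨zero_le_one, le_rfl⟩
  set δ := min δ0 δ1 with hδ
  have hδp : 0 < δ := lt_min hδ0 hδ1
  have key : ∀ s, s ∈ Ioo (-δ) (1 + δ) → ∃ (K' : Kah A) (v : M → ℝ),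
      (IsAdd K' (linK K0 B s) v ∧ v x0 = 0 ∧ ∃ c : ℝ,
        ∀ i, ∀ x ∈ (A.e i).source, (K'.g i x).det = (c : ℂ) * (K0.g i x).det) ∧
      (s ∈ Icc (0 : ℝ) 1 → K' = K s ∧ v = u s) := by
    intro s hs
    by_cases h1 : s ∈ Icc (0 : ℝ) 1
    · exact ⟨K s, u s, ⟨h.add s h1, h.nrm s h1, h.det s h1⟩, fun _ => ⟨rfl, rfl⟩⟩
    · rcases lt_or_ge s 0 with h2 | h2
      · obtain ⟨K', v, c, a1, a2, a3⟩ := H0 s (by
          rw [sub_zero, abs_of_neg h2]
          have := hs.1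
          have := min_le_left δ0 δ1
          linarith)
        exact ⟨K', v, ⟨a1, a2, c, a3⟩, fun h3 => absurd h3 h1⟩
      · have h3 : 1 < s := by
          by_contra h3
          exact h1 ⟨h2, not_lt.1 h3⟩
        obtain ⟨K', v, c, a1, a2, a3⟩ := H1 s (by
          rw [abs_of_pos (by linarith)]
          have := hs.2
          have := min_le_right δ0 δ1
          linarith)
        exact ⟨K', v, ⟨a1, a2, c, a3⟩, fun h3 => absurd h3 h1⟩
  have key' : ∀ s, ∃ p : Kah A × (M → ℝ), s ∈ Ioo (-δ) (1 + δ) →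
      (IsAdd p.1 (linK K0 B s) p.2 ∧ p.2 x0 = 0 ∧ ∃ c : ℝ,
        ∀ i, ∀ x ∈ (A.e i).source, (p.1.g i x).det = (c : ℂ) * (K0.g i x).det) ∧
      (s ∈ Icc (0 : ℝ) 1 → p.1 = K s ∧ p.2 = u s) := by
    intro s
    by_cases hs : s ∈ Ioo (-δ) (1 + δ)
    · obtain ⟨K', v, hv⟩ := key s hs
      exact ⟨(K', v), fun _ => hv⟩
    · exact ⟨(K0, 0), fun h => absurd h hs⟩
  choose p hp using key'
  refine ⟨δ, fun s => (p s).1, fun s => (p s).2, hδp, ⟨fun s hs => (hp s hs).1.1,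
    fun s hs => (hp s hs).1.2.1, fun s hs => (hp s hs).1.2.2⟩, fun s hs => ?_⟩
  exact (hp s ⟨by linarith [hs.1], by linarith [hs.2]⟩).2 hs

/-- the local power series of the line -/
theorem ps_lin (Bc : Cb A) (K0 : Kah A) (B : K11 A) (s0 : ℝ) :
    ∃ a : ℕ → ℝ, Ps11 Bc (linK K0 B) s0 1 (fun j => if j = 0 then linK K0 B s0 else oneK B j) a := by
  obtain ⟨V, hV0, hV⟩ := k11_ho B Bc
  obtain ⟨V', hV0', hV'⟩ := k11_ho (linK K0 B s0) Bc
  refine ⟨fun j => if j = 0 then V' else if j = 1 then V else 0, one_pos, fun j => ?_, ?_, ?_, ?_⟩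
  · split_ifs
    · exact hV0'
    · exact hV0
    · exact le_rfl
  · refine summable_of_ne_finset_zero (s := {0, 1}) fun j hj => ?_
    simp only [Finset.mem_insert, Finset.mem_singleton, not_or] at hj
    rw [if_neg hj.1, if_neg hj.2, zero_mul]
  · intro j k b c
    by_cases h0 : j = 0
    · subst h0
      simp only [if_true]
      exact hV' k b c
    · simp only [if_neg h0]
      by_cases h1 : j = 1
      · subst h1
        simp only [if_true, oneK_one]
        exact hV k b c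
      · rw [oneK_ne B h1, if_neg h1]
        refine ⟨fun z _ => ?_, fun z _ w _ => ?_⟩
        · show ‖(0 : Matrix (Fin n) (Fin n) ℂ) b c‖ ≤ 0
          simp
        · show ‖(0 : Matrix (Fin n) (Fin n) ℂ) b c - (0 : Matrix (Fin n) (Fin n) ℂ) b c‖ ≤ _
          simp
  · intro s hs i x hx b c
    have h1 : HasSum (fun j => ((s - s0 : ℝ) : ℂ) ^ j *
        ((fun j => if j = 0 then linK K0 B s0 else oneK B j) j : K11 A).g i x b c)
        (∑ j ∈ ({0, 1} : Finset ℕ), ((s - s0 : ℝ) : ℂ) ^ j *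
          ((fun j => if j = 0 then linK K0 B s0 else oneK B j) j : K11 A).g i x b c) := by
      refine hasSum_sum_of_ne_finset_zero fun j hj => ?_
      simp only [Finset.mem_insert, Finset.mem_singleton, not_or] at hj
      simp only [if_neg hj.1]
      rw [oneK_ne B hj.2]
      show _ * (0 : Matrix (Fin n) (Fin n) ℂ) b c = 0
      simp
    have h2 : (linK K0 B s).g i x b c = ∑ j ∈ ({0, 1} : Finset ℕ), ((s - s0 : ℝ) : ℂ) ^ j *
          ((fun j => if j = 0 then linK K0 B s0 else oneK B j) j : K11 A).g i x b c := by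
      rw [Finset.sum_pair zero_ne_one]
      simp only [if_true, one_ne_zero, if_false, oneK_one, pow_zero, pow_one, one_mul]
      show (K0.g i x + (s : ℂ) • B.g i x) b c = (K0.g i x + (s0 : ℂ) • B.g i x) b c + _
      rw [Matrix.add_apply, Matrix.add_apply, Matrix.smul_apply, Matrix.smul_apply, smul_eq_mul,
        smul_eq_mul]
      push_cast
      ring
    rw [h2]
    exact h1

/-- **the family and its potentials have local power series at every point of an open set** -/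
theorem ps [T2Space M] [CompactSpace M] [ConnectedSpace M] [Finite A.ι] (P : Part A)
    (Bc : Cb A) (h : SegK K0 B x0 T K u) (hT : IsOpen T) {s0 : ℝ} (hs0 : s0 ∈ T) :
    ∃ (r : ℝ) (φ : ℕ → M → ℝ) (Y : ℕ → K11 A) (m b : ℕ → ℝ), (∀ s, |s - s0| < r → s ∈ T) ∧
      PsF Bc u s0 r φ b ∧ Ps11 Bc (fun s => ofKah (K s)) s0 r Y b ∧ (∀ j, |m j| ≤ b j) ∧
      ∀ s, |s - s0| < r → ∀ i, ∀ x ∈ (A.e i).source,
        ((K s).g i x).det = ((∑' j, (s - s0) ^ j * m j : ℝ) : ℂ) * ((K s0).g i x).det := by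
  obtain ⟨δ, hδ, hδT⟩ := Metric.isOpen_iff.1 hT s0 hs0
  have hb : ∀ s, |s - s0| < δ → s ∈ T := fun s hs => hδT (by rwa [mem_ball, Real.dist_eq])
  obtain ⟨a, ha⟩ := ps_lin Bc K0 B s0
  obtain ⟨c0, hc0⟩ := h.det s0 hs0
  have hc0' : c0 ≠ 0 := by
    rintro rfl
    obtain ⟨i, hi⟩ := A.cover x0
    have h1 := hc0 i x0 hi
    rw [Complex.ofReal_zero, zero_mul] at h1
    exact ((K s0).pos i x0 hi).det_pos.ne' h1
  obtain ⟨r', φ, Y', m, b, h1, -, h3, h4, h5, h6⟩ := yau_move P Bc x0 (K := K) (u := u) ha hδ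
    (fun s hs => h.add s (hb s hs)) (fun s hs => h.nrm s (hb s hs)) (fun s hs => by
      obtain ⟨c, hc⟩ := h.det s (hb s hs)
      refine ⟨c / c0, fun i x hx => ?_⟩
      rw [hc i x hx, hc0 i x hx]
      push_cast
      have : (c0 : ℂ) ≠ 0 := Complex.ofReal_ne_zero.2 hc0'
      field_simp)
  exact ⟨r', φ, Y', m, b, fun s hs => hb s (hs.trans_le h1), h3, h4, h5, h6⟩

end SegK

/-! ### the linear equation -/

/-- the normalised solutions of `tr_{K s} (E + i∂∂̄ (f s)) = c_s` -/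
structure SegF (K : ℝ → Kah A) (E : K11 A) (x0 : M) (T : Set ℝ) (f : ℝ → M → ℝ) : Prop where
  sm : ∀ s ∈ T, A.Sm (f s)
  nrm : ∀ s ∈ T, f s x0 = 0
  tr : ∀ s ∈ T, ∃ c : ℝ, ∀ x, trQ (K s) E (f s) x = c

namespace SegF

variable {K K' : ℝ → Kah A} {E : K11 A} {x0 : M} {T T' : Set ℝ} {f f' : ℝ → M → ℝ}

theorem mono (h : SegF K E x0 T f) (hT : T' ⊆ T) : SegF K E x0 T' f :=
  ⟨fun s hs => h.sm s (hT hs), fun s hs => h.nrm s (hT hs), fun s hs => h.tr s (hT hs)⟩

/-- existence -/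
theorem exists_all [T2Space M] [CompactSpace M] [ConnectedSpace M] [Finite A.ι] (P : Part A)
    (K : ℝ → Kah A) (E : K11 A) (x0 : M) : ∃ f : ℝ → M → ℝ, SegF K E x0 univ f := by
  choose f c h using fun s => exists_lap P (K s) E x0
  exact ⟨f, fun s _ => (h s).1, fun s _ => (h s).2.1, fun s _ => ⟨c s, (h s).2.2⟩⟩

/-- uniqueness -/
theorem eq [T2Space M] [CompactSpace M] [ConnectedSpace M] [Finite A.ι] (P : Part A)
    (Bc : Cb A) (h : SegF K E x0 T f) (h' : SegF K' E x0 T' f') {s : ℝ} (hs : s ∈ T)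
    (hs' : s ∈ T') (hK : K' s = K s) : f' s = f s := by
  obtain ⟨c, hc⟩ := h.tr s hs
  obtain ⟨c', hc'⟩ := h'.tr s hs'
  rw [hK] at hc'
  exact (lap_unique P (K s) E (h'.sm s hs') (h.sm s hs) (h'.nrm s hs') (h.nrm s hs) hc' hc Bc).1

/-- the constant family of forms has a power series -/
theorem ps_const (Bc : Cb A) (E : K11 A) (s0 : ℝ) :
    ∃ w : ℕ → ℝ, Ps11 Bc (fun _ => E) s0 1 (fun j => if j = 0 then E else zK A) w := by
  obtain ⟨V, hV0, hV⟩ := k11_ho E Bc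
  refine ⟨fun j => if j = 0 then V else 0, one_pos, fun j => ?_, ?_, ?_, ?_⟩
  · split_ifs
    · exact hV0
    · exact le_rfl
  · refine summable_of_ne_finset_zero (s := {0}) fun j hj => ?_
    rw [Finset.mem_singleton] at hj
    rw [if_neg hj, zero_mul]
  · intro j k b c
    by_cases h0 : j = 0
    · subst h0
      simp only [if_true]
      exact hV k b c
    · simp only [if_neg h0]
      refine ⟨fun z _ => ?_, fun z _ w _ => ?_⟩
      · show ‖(0 : Matrix (Fin n) (Fin n) ℂ) b c‖ ≤ 0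
        simp
      · show ‖(0 : Matrix (Fin n) (Fin n) ℂ) b c - (0 : Matrix (Fin n) (Fin n) ℂ) b c‖ ≤ _
        simp
  · intro s hs i x hx b c
    have h1 := hasSum_single (f := fun j => ((s - s0 : ℝ) : ℂ) ^ j *
        ((fun j => if j = 0 then E else zK A) j : K11 A).g i x b c) 0 (fun j hj => by
      simp only [if_neg hj]
      show _ * (0 : Matrix (Fin n) (Fin n) ℂ) b c = 0
      simp)
    simpa using h1

/-- **local power series** -/
theorem ps [T2Space M] [CompactSpace M] [ConnectedSpace M] [Finite A.ι] (P : Part A)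
    (Bc : Cb A) {K0 : Kah A} {B : K11 A} {u : ℝ → M → ℝ} (hK : SegK K0 B x0 T K u)
    (h : SegF K E x0 T f) (hT : IsOpen T) {s0 : ℝ} (hs0 : s0 ∈ T) :
    ∃ (r : ℝ) (φ ψ : ℕ → M → ℝ) (Y : ℕ → K11 A) (b b' : ℕ → ℝ), (∀ s, |s - s0| < r → s ∈ T) ∧
      PsF Bc u s0 r φ b ∧ Ps11 Bc (fun s => ofKah (K s)) s0 r Y b ∧ PsF Bc f s0 r ψ b' := by
  obtain ⟨r, φ, Y, m, b, h1, h2, h3, -, -⟩ := hK.ps P Bc hT hs0
  obtain ⟨w, hw⟩ := ps_const Bc E s0
  have hc : ∃ c : ℝ → ℝ, ∀ s, |s - s0| < r → ∀ x, trQ (K s) E (f s) x = c s := by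
    refine ⟨fun s => trQ (K s) E (f s) x0, fun s hs x => ?_⟩
    obtain ⟨c, hc⟩ := h.tr s (h1 s hs)
    exact (hc x).trans (hc x0).symm
  obtain ⟨c, hc⟩ := hc
  obtain ⟨ρ, ψ, b', m', Q', g1, g2, g3, g4, -⟩ := lap_move P Bc x0 (K := K) (Q := fun _ => E)
    (f := f) (c := c) h3 hw h2.r0 (fun s hs => h.sm s (h1 s hs)) (fun s hs => h.nrm s (h1 s hs)) hc
  have hρ := g4.r0
  refine ⟨ρ, φ, ψ, Y, b, b', fun s hs => h1 s (hs.trans_le g1), ?_, ?_, g4⟩
  · exact ⟨hρ, h2.a0, Summable.of_nonneg_of_le (fun j => mul_nonneg (h2.a0 j) (by positivity))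
      (fun j => mul_le_mul_of_nonneg_left (pow_le_pow_left₀ hρ.le g1 _) (h2.a0 j)) h2.sum,
      h2.sm, h2.n2, fun s hs => h2.hs s (hs.trans_le g1)⟩
  · exact ⟨hρ, h3.a0, Summable.of_nonneg_of_le (fun j => mul_nonneg (h3.a0 j) (by positivity))
      (fun j => mul_le_mul_of_nonneg_left (pow_le_pow_left₀ hρ.le g1 _) (h3.a0 j)) h3.sum,
      h3.ho, fun s hs => h3.hs s (hs.trans_le g1)⟩

end SegF

end

end Crest.Agent.R281.Sem_323
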