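import Crest.Agent.R281.Mvs2_713
import Crest.Agent.R281.Sem1_323
import Crest.Agent.R281.PL2_713

/-!
# Row 281, MOVE-SEMI (helper713): the output of the algebra on `[0,1]`, input of the analytic part

`MvOut C L0 H`: one holomorphic atlas `A` of the fixed structure `J 0` of `M s`, the Monge-Ampere
family `K s` (323's `SegK`), the linear family `f s` (323's `SegF`), scaling `r s`, unit vector
`a s`, and the connections `b_s = η + (π/2) d f_s ∘ J 0` with curvature of type (1,1) for `H s`.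
-/

set_option autoImplicit false
set_option linter.unusedSectionVars false
set_option maxSynthPendingDepth 3

open Set Filter Topology Complex Metric
open scoped ContDiff

namespace Crest.Agent.R281.Mvs_713

open Crest.Agent.R275.Geo Crest.Agent.R275.Core144 Crest.Agent.R275.GC293
open Crest.Agent.R273.Kah_333
open Crest.Agent.R260.ACM_580 Crest.Agent.R260.NNB_580
open Crest.Agent.R281.Ti_846 Crest.Agent.R281.Dif_268 Crest.Agent.R281.Cdr_234
open Crest.Agent.R281.NefO_476 (ofHk)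
open Crest.Agent.R281.Nef_252 (T11)
open Crest.Agent.R281.HkR_835 Crest.Agent.R281.PL_713
open Crest.Agent.R281.Sem_323 (SegK SegF)

noncomputable section

/-- the output of the algebra on `[0,1]` -/
structure MvOut {d : ℕ} {V X : Type} [NormedAddCommGroup V] [NormedSpace ℝ V]
    [TopologicalSpace X] (C : RCh V X) (L0 : PL C) (H : ℝ → HkT C) where
  /-- holomorphic atlas of the fixed structure -/
  A : Atl d X
  fin : Finite A.ι
  P : Part A
  /-- the moving triples, normal form: `J 0` fixed, `om 1`, `om 2` scaled -/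
  M : ℝ → HkT C
  hA : Cp ((M 0).acm 0) A
  J0 : ∀ s ∈ Icc (0 : ℝ) 1, ∀ i, ∀ z ∈ (C.e i).target, ∀ v, (M s).J 0 i z v = (M 0).J 0 i z v
  x0 : X
  K0 : Kah A
  B : K11 A
  K : ℝ → Kah A
  u : ℝ → X → ℝ
  segK : SegK K0 B x0 (Icc 0 1) K u
  om0 : ∀ s ∈ Icc (0 : ℝ) 1, Eqv ((M s).om 0) ((cmp_of_cp hA).symm.F (ofKah (K s)).f2)
  E : K11 A
  f : ℝ → X → ℝ
  segF : SegF K E x0 (Icc 0 1) f
  r : ℝ → ℝ
  r_an : AnalyticOnNhd ℝ r (Icc 0 1)
  r_pos : ∀ s ∈ Icc (0 : ℝ) 1, 0 < r s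
  om12 : ∀ s ∈ Icc (0 : ℝ) 1, ∀ k : Fin 3, k ≠ 0 → Eqv ((M s).om k) (r s • (M 0).om k)
  a : Fin 3 → ℝ → ℝ
  a_an : ∀ k, AnalyticOnNhd ℝ (a k) (Icc 0 1)
  JH : ∀ s ∈ Icc (0 : ℝ) 1, ∀ i, ∀ z ∈ (C.e i).target, ∀ v,
    (H s).J 0 i z v = ∑ k, a k s • (M s).J k i z v
  /-- the fixed part of the connections -/
  η : F1 C
  conn : ∀ s ∈ Icc (0 : ℝ) 1, ∃ b : F1 C, (∀ i, ∀ z ∈ (C.e i).target, ∀ v,
    b.η i z v = η.η i z v +
      (Real.pi / 2) * fderiv ℝ (fun y => f s ((C.e i).symm y)) z ((M 0).J 0 i z v)) ∧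
    T11 (ofHk (H s) 0) (L0.add b).F

end

end Crest.Agent.R281.Mvs_713
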