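import Mathlib

/-!
# R281 (S0424), SEMI-P (helper323), part 3: inverses of analytic families of bilinear forms

`K` compact, `V` finite dimensional, `Bl := V →L[ℝ] V →L[ℝ] ℝ`.

* `mulC`, `compC` : composition of continuous families as continuous bilinear maps
* **`exists_solve`** : `W s` analytic at `s₀` in `C(K, Bl)`, injective at `s₀`, `x` analytic: there is an
  analytic `T` with `W s z (T s z v) = x s z v` for `s` near `s₀`
-/

set_option autoImplicit false
set_option linter.unusedSectionVars false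
set_option maxSynthPendingDepth 3

open Set Filter Topology

namespace Crest.Agent.R281.Sem_323

noncomputable section

variable {K : Type*} [TopologicalSpace K] [CompactSpace K]
variable {E F G : Type*} [NormedAddCommGroup E] [NormedSpace ℝ E] [NormedAddCommGroup F]
  [NormedSpace ℝ F] [NormedAddCommGroup G] [NormedSpace ℝ G]

/-- a continuous linear map applied to continuous families -/
def lC (K : Type*) [TopologicalSpace K] [CompactSpace K] (T : E →L[ℝ] F) : C(K, E) →L[ℝ] C(K, F) :=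
  LinearMap.mkContinuous
    { toFun := fun f => ⟨fun z => T (f z), T.continuous.comp f.continuous⟩
      map_add' := fun f g => by ext z; simp
      map_smul' := fun c f => by ext z; simp }
    ‖T‖ fun f => by
      refine (ContinuousMap.norm_le _ (by positivity)).2 fun z => ?_
      refine (T.le_opNorm (f z)).trans ?_
      gcongr
      exact f.norm_coe_le_norm z

@[simp] theorem lC_apply (T : E →L[ℝ] F) (f : C(K, E)) (z : K) : lC K T f z = T (f z) := rfl

/-- a continuous bilinear map applied to continuous families -/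
def bC (K : Type*) [TopologicalSpace K] [CompactSpace K] (T : E →L[ℝ] F →L[ℝ] G) :
    C(K, E) →L[ℝ] C(K, F) →L[ℝ] C(K, G) :=
  LinearMap.mkContinuous₂
    (LinearMap.mk₂ ℝ (fun f g => ⟨fun z => T (f z) (g z),
        (T.continuous.comp f.continuous).clm_apply g.continuous⟩)
      (fun f f' g => by ext z; simp) (fun c f g => by ext z; simp)
      (fun f g g' => by ext z; simp) (fun c f g => by ext z; simp))
    ‖T‖ fun f g => by
      refine (ContinuousMap.norm_le _ (by positivity)).2 fun z => ?_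
      refine (T.le_opNorm₂ (f z) (g z)).trans ?_
      gcongr
      · exact f.norm_coe_le_norm z
      · exact g.norm_coe_le_norm z

@[simp] theorem bC_apply (T : E →L[ℝ] F →L[ℝ] G) (f : C(K, E)) (g : C(K, F)) (z : K) :
    bC K T f g z = T (f z) (g z) := rfl

theorem an_lC {S : Type*} [NormedAddCommGroup S] [NormedSpace ℝ S] (T : E →L[ℝ] F)
    {f : S → C(K, E)} {s₀ : S} (hf : AnalyticAt ℝ f s₀) : AnalyticAt ℝ (fun s => lC K T (f s)) s₀ :=
  ((lC K T).analyticAt _).comp hf

theorem an_bC {S : Type*} [NormedAddCommGroup S] [NormedSpace ℝ S] (T : E →L[ℝ] F →L[ℝ] G)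
    {f : S → C(K, E)} {g : S → C(K, F)} {s₀ : S} (hf : AnalyticAt ℝ f s₀)
    (hg : AnalyticAt ℝ g s₀) : AnalyticAt ℝ (fun s => bC K T (f s) (g s)) s₀ :=
  ((bC K T).analyticAt_bilinear (f s₀, g s₀)).comp₂ hf hg

variable {V : Type*} [NormedAddCommGroup V] [NormedSpace ℝ V] [FiniteDimensional ℝ V]

/-- an identification of the dual space -/
def dualE (V : Type*) [NormedAddCommGroup V] [NormedSpace ℝ V] [FiniteDimensional ℝ V] :
    (V →L[ℝ] ℝ) ≃L[ℝ] V :=
  ContinuousLinearEquiv.ofFinrankEq (by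
    rw [← (LinearMap.toContinuousLinearMap : (V →ₗ[ℝ] ℝ) ≃ₗ[ℝ] (V →L[ℝ] ℝ)).finrank_eq]
    exact Subspace.dual_finrank_eq)

/-- bilinear forms as endomorphisms -/
def dL (V : Type*) [NormedAddCommGroup V] [NormedSpace ℝ V] [FiniteDimensional ℝ V] :
    (V →L[ℝ] V →L[ℝ] ℝ) →L[ℝ] (V →L[ℝ] V) :=
  ContinuousLinearMap.compL ℝ V (V →L[ℝ] ℝ) V (dualE V : (V →L[ℝ] ℝ) →L[ℝ] V)

@[simp] theorem dL_apply (w : V →L[ℝ] V →L[ℝ] ℝ) (v : V) : dL V w v = dualE V (w v) := rfl

/-- the solution of `W z (T z v) = x z v` -/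
def sol (W x : C(K, V →L[ℝ] V →L[ℝ] ℝ)) : C(K, V →L[ℝ] V) :=
  Ring.inverse (lC K (dL V) W) * lC K (dL V) x

theorem isUnit_iff_sol {W : C(K, V →L[ℝ] V →L[ℝ] ℝ)} :
    IsUnit (lC K (dL V) W) ↔ ∀ z v, W z v = 0 → v = 0 := by
  have := FiniteDimensional.complete ℝ V
  rw [ContinuousMap.isUnit_iff_forall_isUnit]
  constructor
  · intro h z v hv
    have h1 := h z
    rw [ContinuousLinearMap.isUnit_iff_bijective] at h1
    have h2 : lC K (dL V) W z v = 0 := by
      show dualE V (W z v) = 0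
      rw [hv, map_zero]
    exact (map_eq_zero_iff (lC K (dL V) W z) h1.1).1 h2
  · intro hi z
    rw [ContinuousLinearMap.isUnit_iff_bijective]
    have hinj : Function.Injective (lC K (dL V) W z) := by
      rw [injective_iff_map_eq_zero]
      intro v hv
      refine hi z v ?_
      have h1 : dualE V (W z v) = 0 := hv
      exact (map_eq_zero_iff (dualE V) (dualE V).injective).1 h1
    exact ⟨hinj, (LinearMap.injective_iff_surjective
      (f := (lC K (dL V) W z : V →ₗ[ℝ] V))).1 hinj⟩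

theorem sol_spec {W : C(K, V →L[ℝ] V →L[ℝ] ℝ)} (hi : ∀ z v, W z v = 0 → v = 0)
    (x : C(K, V →L[ℝ] V →L[ℝ] ℝ)) (z : K) (v : V) : W z (sol W x z v) = x z v := by
  have h1 : lC K (dL V) W * sol W x = lC K (dL V) x := by
    unfold sol
    rw [← mul_assoc, Ring.mul_inverse_cancel _ (isUnit_iff_sol.2 hi), one_mul]
  have h2 := congrArg (fun f : C(K, V →L[ℝ] V) => f z v) h1
  have h3 : dualE V (W z (sol W x z v)) = dualE V (x z v) := h2
  exact (dualE V).injective h3

theorem sol_eq {W x : C(K, V →L[ℝ] V →L[ℝ] ℝ)} (hi : ∀ z v, W z v = 0 → v = 0)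
    {T : V →L[ℝ] V} {z : K} (hT : ∀ v, W z (T v) = x z v) : sol W x z = T := by
  ext v
  have h1 := sol_spec hi x z v
  rw [← hT v] at h1
  have h2 : W z (sol W x z v - T v) = 0 := by rw [map_sub, h1, sub_self]
  exact sub_eq_zero.1 (hi z _ h2)

theorem an_sol {S : Type*} [NormedAddCommGroup S] [NormedSpace ℝ S]
    {W x : S → C(K, V →L[ℝ] V →L[ℝ] ℝ)} {s₀ : S} (hW : AnalyticAt ℝ W s₀)
    (hx : AnalyticAt ℝ x s₀) (hi : ∀ z v, W s₀ z v = 0 → v = 0) :
    AnalyticAt ℝ (fun s => sol (W s) (x s)) s₀ := by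
  have := FiniteDimensional.complete ℝ V
  obtain ⟨u, hu⟩ := isUnit_iff_sol.2 hi
  have h1 : AnalyticAt ℝ Ring.inverse (lC K (dL V) (W s₀)) := by
    rw [← hu]
    exact analyticAt_inverse u
  exact (AnalyticAt.comp (f := fun s => lC K (dL V) (W s)) h1 (an_lC (dL V) hW)).mul
    (an_lC (dL V) hx)

/-- **solution of `W s z (T s z v) = x s z v`** -/
theorem exists_solve {S : Type*} [NormedAddCommGroup S] [NormedSpace ℝ S]
    {W x : S → C(K, V →L[ℝ] V →L[ℝ] ℝ)} {s₀ : S} (hW : AnalyticAt ℝ W s₀)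
    (hx : AnalyticAt ℝ x s₀) (hi : ∀ z v, W s₀ z v = 0 → v = 0) :
    ∃ T : S → C(K, V →L[ℝ] V), AnalyticAt ℝ T s₀ ∧
      ∀ᶠ s in 𝓝 s₀, (∀ z v, W s z v = 0 → v = 0) ∧ ∀ z v, W s z (T s z v) = x s z v := by
  have := FiniteDimensional.complete ℝ V
  refine ⟨fun s => sol (W s) (x s), an_sol hW hx hi, ?_⟩
  have hev : ∀ᶠ s in 𝓝 s₀, IsUnit (lC K (dL V) (W s)) :=
    (an_lC (dL V) hW).continuousAt.eventually (Units.isOpen.mem_nhds (isUnit_iff_sol.2 hi))
  filter_upwards [hev] with s hs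
  exact ⟨isUnit_iff_sol.1 hs, sol_spec (isUnit_iff_sol.1 hs) _⟩

end

end Crest.Agent.R281.Sem_323
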