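import Crest.Agent.R281.Mca3_365
import Crest.Agent.R281.Sem3_323
import Crest.Agent.R281.MvsD_713
import Crest.Agent.R281.Hz1_286

/-!
# R281 (S0424), MOVE-COEF on 713's `MvOut` (helper365)

* `inv_cont`, `J1_eq`, `J2_eq` : `J 1 = -(om 2)⁻¹ om 0`, `J 2 = (om 1)⁻¹ om 0`
* **`coef`** : families `thx`, `Jx` of coefficients, analytic in `s` on `[0,1]` into
  `C(Z.B k, ·)` for every cell, equal to `th` of a connection `L0.add b` with (1,1) curvature and to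
  `(H s).J 0` for `s ∈ [0,1]`
-/

set_option autoImplicit false
set_option linter.unusedSectionVars false
set_option maxSynthPendingDepth 3

open Set Filter Topology Complex Metric
open scoped ContDiff

namespace Crest.Agent.R281.Mca_365

open Crest.Agent.R275.Geo Crest.Agent.R275.Core144 Crest.Agent.R275.GC293
open Crest.Agent.R273.Kah_333 Crest.Agent.R273.SchF_152
open Crest.Agent.R260.ACM_580 Crest.Agent.R260.NNB_580
open Crest.Agent.R281.Ti_846 Crest.Agent.R281.Dif_268 Crest.Agent.R281.Cdr_234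
open Crest.Agent.R281.NefO_476 (ofHk)
open Crest.Agent.R281.Nef_252 (T11)
open Crest.Agent.R281.HkR_835 Crest.Agent.R281.PL_713 Crest.Agent.R281.Mvs_713
open Crest.Agent.R281.Hz_286 Crest.Agent.R281.Sem_323

noncomputable section

variable {V X : Type} [NormedAddCommGroup V] [NormedSpace ℝ V] [TopologicalSpace X]
  {C : RCh V X}

/-- inverse of a 2-form -/
def wi (W : Bil V) : (V →L[ℝ] ℝ) →L[ℝ] V := ContinuousLinearMap.inverse W

section inv

variable [FiniteDimensional ℝ V]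

theorem exists_equiv {W : Bil V} (h : ∀ v, W v = 0 → v = 0) :
    ∃ e : V ≃L[ℝ] (V →L[ℝ] ℝ), (e : V →L[ℝ] (V →L[ℝ] ℝ)) = W := by
  have hfr : Module.finrank ℝ V = Module.finrank ℝ (V →L[ℝ] ℝ) := by
    rw [← (LinearMap.toContinuousLinearMap : (V →ₗ[ℝ] ℝ) ≃ₗ[ℝ] (V →L[ℝ] ℝ)).finrank_eq]
    exact Subspace.dual_finrank_eq.symm
  have hinj : Function.Injective (W : V →ₗ[ℝ] (V →L[ℝ] ℝ)) :=
    (injective_iff_map_eq_zero _).2 h
  refine ⟨(LinearEquiv.ofInjectiveOfFinrankEq (W : V →ₗ[ℝ] (V →L[ℝ] ℝ)) hinj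
    hfr).toContinuousLinearEquiv, ?_⟩
  ext v w
  rfl

theorem wi_apply {W : Bil V} (h : ∀ v, W v = 0 → v = 0) (v : V) : wi W (W v) = v := by
  obtain ⟨e, rfl⟩ := exists_equiv h
  unfold wi
  rw [ContinuousLinearMap.inverse_equiv]
  exact e.symm_apply_apply v

theorem wi_cont {S : Set V} {W : V → Bil V} (hW : ContinuousOn W S)
    (h : ∀ z ∈ S, ∀ v, W z v = 0 → v = 0) : ContinuousOn (fun z => wi (W z)) S := by
  have := FiniteDimensional.complete ℝ V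
  intro z hz
  obtain ⟨e, he⟩ := exists_equiv (h z hz)
  have h1 : ContinuousAt (ContinuousLinearMap.inverse : Bil V → _) (W z) := by
    rw [← he]
    exact (contDiffAt_map_inverse (n := 1) e).continuousAt
  exact h1.comp_continuousWithinAt (hW z hz)

theorem nd (H : HkT C) (k : Fin 3) {i : C.ι} {z : V} (hz : z ∈ (C.e i).target) (v : V)
    (h : (H.om k).w i z v = 0) : v = 0 :=
  H.nondeg k hz v fun u => by rw [h]; rfl

/-- `J 1 = -(om 2)⁻¹ om 0` -/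
theorem J1_eq (H : HkT C) {i : C.ι} {z : V} (hz : z ∈ (C.e i).target) (v : V) :
    H.J 1 i z v = -wi ((H.om 2).w i z) ((H.om 0).w i z v) := by
  have h1 : (H.om 2).w i z (H.J 1 i z v) = -(H.om 0).w i z v := by
    ext u
    exact (H.om_J (Or.inr (Or.inl rfl)) hz v u).1
  rw [← neg_neg ((H.om 0).w i z v), ← h1, map_neg, neg_neg, wi_apply fun w hw => nd H 2 hz w hw]

/-- `J 2 = (om 1)⁻¹ om 0` -/
theorem J2_eq (H : HkT C) {i : C.ι} {z : V} (hz : z ∈ (C.e i).target) (v : V) :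
    H.J 2 i z v = wi ((H.om 1).w i z) ((H.om 0).w i z v) := by
  have h1 : (H.om 1).w i z (H.J 2 i z v) = (H.om 0).w i z v := by
    ext u
    exact (H.om_J (Or.inr (Or.inr rfl)) hz v u).2
  rw [← h1, wi_apply fun w hw => nd H 1 hz w hw]

/-- scaling -/
theorem scaled {W W' W0 : Bil V} {r : ℝ} (hr : r ≠ 0) (h : ∀ u v, W' u v = (r • W0) u v)
    (h0 : ∀ v, W0 v = 0 → v = 0) {x y : V} (hxy : ∀ u, W' x u = W y u) :
    x = r⁻¹ • wi W0 (W y) := by
  have h1 : W0 x = r⁻¹ • W y := by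
    ext u
    have h2 := hxy u
    rw [h x u] at h2
    have h3 : r * W0 x u = W y u := h2
    rw [smul_apply, smul_eq_mul, ← h3, inv_mul_cancel_left₀ hr]
  rw [← map_smul, ← h1, wi_apply h0]

end inv

/-! ### the coefficients -/

section coef

variable {d : ℕ} {L0 : PL C} {H : ℝ → HkT C}

/-- the moving form -/
def omx (O : MvOut (d := d) C L0 H) (K' : ℝ → Kah O.A) (s : ℝ) : F2 C :=
  (cmp_of_cp O.hA).symm.F (ofKah (K' s)).f2

/-- the complex structures -/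
def Jx (O : MvOut (d := d) C L0 H) (K' : ℝ → Kah O.A) (s : ℝ) (i : C.ι) (z : V) : V →L[ℝ] V :=
  O.a 0 s • (O.M 0).J 0 i z +
    (-(O.a 1 s * (O.r s)⁻¹)) • (wi (((O.M 0).om 2).w i z)).comp ((omx O K' s).w i z) +
    (O.a 2 s * (O.r s)⁻¹) • (wi (((O.M 0).om 1).w i z)).comp ((omx O K' s).w i z)

/-- the connections -/
def thx (O : MvOut (d := d) C L0 H) (f' : ℝ → X → ℝ) (s : ℝ) (i : C.ι) (z : V) : V →L[ℝ] ℝ :=
  (L0.th i z + O.η.η i z) + (Real.pi / 2) • (dfn C (f' s) i z).comp ((O.M 0).J 0 i z)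

variable [FiniteDimensional ℝ V]

/-- `Jx` on `[0,1]` -/
theorem Jx_eq (O : MvOut (d := d) C L0 H) {K' : ℝ → Kah O.A} {s : ℝ} (hs : s ∈ Icc (0 : ℝ) 1)
    (hK : K' s = O.K s) {i : C.ι} {z : V} (hz : z ∈ (C.e i).target) :
    Jx O K' s i z = (H s).J 0 i z := by
  ext v
  have hr : O.r s ≠ 0 := (O.r_pos s hs).ne'
  have e0 : ∀ u w, (omx O K' s).w i z u w = ((O.M s).om 0).w i z u w := fun u w => by
    unfold omx
    rw [hK]
    exact ((O.om0 s hs) i z hz u w).symm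
  have e1 : (omx O K' s).w i z = ((O.M s).om 0).w i z := by
    ext u w
    exact e0 u w
  have h2 : (O.M s).J 1 i z v =
      (O.r s)⁻¹ • wi (((O.M 0).om 2).w i z) (-((O.M s).om 0).w i z v) := by
    have h3 := scaled (W := -((O.M s).om 0).w i z) (W' := ((O.M s).om 2).w i z)
      (W0 := ((O.M 0).om 2).w i z) hr (fun u w => O.om12 s hs 2 (by decide) i z hz u w)
      (fun w hw => nd _ 2 hz w hw) (x := (O.M s).J 1 i z v) (y := v)
      (fun u => ((O.M s).om_J (Or.inr (Or.inl rfl)) hz v u).1)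
    exact h3
  have h4 : (O.M s).J 2 i z v =
      (O.r s)⁻¹ • wi (((O.M 0).om 1).w i z) (((O.M s).om 0).w i z v) :=
    scaled (W := ((O.M s).om 0).w i z) (W' := ((O.M s).om 1).w i z)
      (W0 := ((O.M 0).om 1).w i z) hr (fun u w => O.om12 s hs 1 (by decide) i z hz u w)
      (fun w hw => nd _ 1 hz w hw) (x := (O.M s).J 2 i z v) (y := v)
      (fun u => ((O.M s).om_J (Or.inr (Or.inr rfl)) hz v u).2)
  rw [O.JH s hs i z hz v, Fin.sum_univ_three, O.J0 s hs i z hz v, h2, h4]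
  unfold Jx
  rw [e1]
  simp only [add_apply, smul_apply, ContinuousLinearMap.comp_apply, map_neg, smul_neg, neg_smul,
    smul_smul, neg_apply]

omit [FiniteDimensional ℝ V] in
theorem csm {W : Type*} [NormedAddCommGroup W] [NormedSpace ℝ W] (c : ℝ) {f : V → W} {S : Set V}
    (h : ContinuousOn f S) : ContinuousOn (fun z => c • f z) S :=
  (continuous_const_smul c).comp_continuousOn h

omit [FiniteDimensional ℝ V] in
theorem cad {W : Type*} [NormedAddCommGroup W] {f g : V → W} {S : Set V}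
    (hf : ContinuousOn f S) (hg : ContinuousOn g S) : ContinuousOn (fun z => f z + g z) S :=
  hf.add hg

theorem cont_J0 (O : MvOut (d := d) C L0 H) (Z : Cells C) (k : Z.σ) :
    ContinuousOn ((O.M 0).J 0 (Z.i k)) (Z.B k) :=
  ((O.M 0).J_sm 0 (Z.i k)).continuousOn.mono (Z.sub k)

theorem cont_wi (O : MvOut (d := d) C L0 H) (Z : Cells C) (k : Z.σ) (m : Fin 3) :
    ContinuousOn (fun z => wi (((O.M 0).om m).w (Z.i k) z)) (Z.B k) :=
  wi_cont ((((O.M 0).om m).sm (Z.i k)).continuousOn.mono (Z.sub k))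
    fun _ hz v hv => nd _ m (Z.sub k hz) v hv

theorem cont_omx (O : MvOut (d := d) C L0 H) (K' : ℝ → Kah O.A) (s : ℝ) (Z : Cells C) (k : Z.σ) :
    ContinuousOn ((omx O K' s).w (Z.i k)) (Z.B k) :=
  ((omx O K' s).sm (Z.i k)).continuousOn.mono (Z.sub k)

/-- analyticity of the complex structures -/
theorem Jx_an [T2Space X] (O : MvOut (d := d) C L0 H) {K' : ℝ → Kah O.A} {Bc : Cb O.A} {s0 r : ℝ}
    {Y : ℕ → K11 O.A} {b : ℕ → ℝ}
    (HY : HKMov_478.Ps11 Bc (fun s => ofKah (K' s)) s0 r Y b) (hs0 : s0 ∈ Icc (0 : ℝ) 1)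
    (Z : Cells C) (k : Z.σ) : AnalyticAt ℝ (fun s => toC (Z.B k) (Jx O K' s (Z.i k))) s0 := by
  have := FiniteDimensional.complete ℝ V
  obtain ⟨a', hS⟩ := ps_form (cmp_of_cp O.hA) Bc Z HY
  have h1 : AnalyticAt ℝ (fun s => toC (Z.B k) ((omx O K' s).w (Z.i k))) s0 :=
    CSer.analyticAt k hS
  have ha : ∀ m, AnalyticAt ℝ (O.a m) s0 := fun m => O.a_an m s0 hs0
  have hri : AnalyticAt ℝ (fun s => (O.r s)⁻¹) s0 :=
    (O.r_an s0 hs0).inv (O.r_pos s0 hs0).ne'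
  set cmp : ((V →L[ℝ] ℝ) →L[ℝ] V) →L[ℝ] (V →L[ℝ] V →L[ℝ] ℝ) →L[ℝ] (V →L[ℝ] V) :=
    ContinuousLinearMap.compL ℝ V (V →L[ℝ] ℝ) V with hcmp
  have hp : ∀ m : Fin 3, AnalyticAt ℝ (fun s => bC (Z.B k) cmp
      (toC (Z.B k) fun z => wi (((O.M 0).om m).w (Z.i k) z))
      (toC (Z.B k) ((omx O K' s).w (Z.i k)))) s0 := fun m => an_bC cmp analyticAt_const h1
  have h2 := (((ha 0).smul (analyticAt_const (v := toC (Z.B k) ((O.M 0).J 0 (Z.i k))))).add
    (((ha 1).mul hri).neg.smul (hp 2))).add (((ha 2).mul hri).smul (hp 1))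
  refine h2.congr (Eventually.of_forall fun s => ?_)
  ext z : 1
  have hc : ContinuousOn (Jx O K' s (Z.i k)) (Z.B k) := by
    have e1 : ∀ m : Fin 3, ContinuousOn (fun z =>
        (wi (((O.M 0).om m).w (Z.i k) z)).comp ((omx O K' s).w (Z.i k) z)) (Z.B k) := fun m =>
      (cont_wi O Z k m).clm_comp (cont_omx O K' s Z k)
    exact cad (cad (csm (O.a 0 s) (cont_J0 O Z k)) (csm (-(O.a 1 s * (O.r s)⁻¹)) (e1 2)))
      (csm (O.a 2 s * (O.r s)⁻¹) (e1 1))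
  rw [toC_apply hc]
  show O.a 0 s • toC (Z.B k) ((O.M 0).J 0 (Z.i k)) z +
      (-(O.a 1 s * (O.r s)⁻¹)) • cmp (toC (Z.B k) (fun z => wi (((O.M 0).om 2).w (Z.i k) z)) z)
        (toC (Z.B k) ((omx O K' s).w (Z.i k)) z) +
      (O.a 2 s * (O.r s)⁻¹) • cmp (toC (Z.B k) (fun z => wi (((O.M 0).om 1).w (Z.i k) z)) z)
        (toC (Z.B k) ((omx O K' s).w (Z.i k)) z) = _
  rw [toC_apply (cont_J0 O Z k), toC_apply (cont_wi O Z k 2), toC_apply (cont_wi O Z k 1),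
    toC_apply (cont_omx O K' s Z k)]
  rfl

/-- analyticity of the connections -/
theorem thx_an [T2Space X] (O : MvOut (d := d) C L0 H) {f' : ℝ → X → ℝ} {Bc : Cb O.A} {s0 r : ℝ}
    {φ : ℕ → X → ℝ} {b : ℕ → ℝ} (Hf : HKMov_478.PsF Bc f' s0 r φ b)
    (hf : ∀ s, |s - s0| < r → O.A.Sm (f' s)) (hfa : ∀ s, O.A.Sm (f' s))
    (Z : Cells C) (k : Z.σ) : AnalyticAt ℝ (fun s => toC (Z.B k) (thx O f' s (Z.i k))) s0 := by
  have := FiniteDimensional.complete ℝ V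
  obtain ⟨a', hS⟩ := ps_dfun (cmp_of_cp O.hA) Bc Z Hf hf
  have h1 : AnalyticAt ℝ (fun s => toC (Z.B k) (dfn C (f' s) (Z.i k))) s0 :=
    CSer.analyticAt k hS
  set cmp : (V →L[ℝ] ℝ) →L[ℝ] (V →L[ℝ] V) →L[ℝ] (V →L[ℝ] ℝ) :=
    ContinuousLinearMap.compL ℝ V V ℝ with hcmp
  have hp : AnalyticAt ℝ (fun s => bC (Z.B k) cmp (toC (Z.B k) (dfn C (f' s) (Z.i k)))
      (toC (Z.B k) ((O.M 0).J 0 (Z.i k)))) s0 := an_bC cmp h1 analyticAt_const
  have c0 : ContinuousOn (fun z => L0.th (Z.i k) z + O.η.η (Z.i k) z) (Z.B k) :=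
    ((L0.th_sm (Z.i k)).continuousOn.mono (Z.sub k)).add
      ((O.η.sm (Z.i k)).continuousOn.mono (Z.sub k))
  have cf : ∀ s, ContinuousOn (dfn C (f' s) (Z.i k)) (Z.B k) := fun s =>
    dfn_cont (cmp_of_cp O.hA) (hfa s) Z k
  have h2 := (analyticAt_const (v := toC (Z.B k) fun z => L0.th (Z.i k) z + O.η.η (Z.i k) z)).add
    ((analyticAt_const (v := Real.pi / 2)).smul hp)
  refine h2.congr (Eventually.of_forall fun s => ?_)
  ext z : 1
  have hc : ContinuousOn (thx O f' s (Z.i k)) (Z.B k) :=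
    cad c0 (csm (Real.pi / 2) ((cf s).clm_comp (cont_J0 O Z k)))
  rw [toC_apply hc]
  show toC (Z.B k) (fun z => L0.th (Z.i k) z + O.η.η (Z.i k) z) z +
    (Real.pi / 2) • cmp (toC (Z.B k) (dfn C (f' s) (Z.i k)) z)
      (toC (Z.B k) ((O.M 0).J 0 (Z.i k)) z) = _
  rw [toC_apply c0, toC_apply (cf s), toC_apply (cont_J0 O Z k)]
  rfl

end coef

/-- **MOVE-COEF**: the coefficients of the operators along the move are analytic -/
theorem coef {d : ℕ} {L0 : PL C} {H : ℝ → HkT C} [FiniteDimensional ℝ V] [T2Space X]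
    [CompactSpace X] [ConnectedSpace X] (O : MvOut (d := d) C L0 H) :
    ∃ (th : ℝ → C.ι → V → V →L[ℝ] ℝ) (J : ℝ → C.ι → V → V →L[ℝ] V),
      (∀ (Z : Cells C) (k : Z.σ), ∀ s ∈ Icc (0 : ℝ) 1,
        AnalyticAt ℝ (fun s => toC (Z.B k) (th s (Z.i k))) s ∧
        AnalyticAt ℝ (fun s => toC (Z.B k) (J s (Z.i k))) s) ∧
      ∀ s ∈ Icc (0 : ℝ) 1, (∀ i, ∀ z ∈ (C.e i).target, J s i z = (H s).J 0 i z) ∧
        ∃ b : F1 C, (∀ i, ∀ z ∈ (C.e i).target, (L0.add b).th i z = th s i z) ∧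
          T11 (ofHk (H s) 0) (L0.add b).F := by
  have := O.fin
  obtain ⟨Bc⟩ := Cb.nonempty O.A
  obtain ⟨δ, K', u', hδ, hK', hKe⟩ := O.segK.extend O.P Bc
  obtain ⟨f', hf'⟩ := SegF.exists_all O.P K' O.E O.x0
  have hfe : ∀ s ∈ Icc (0 : ℝ) 1, f' s = O.f s := fun s hs =>
    O.segF.eq O.P Bc hf' hs trivial (hKe s hs).1
  have hIoo : ∀ s ∈ Icc (0 : ℝ) 1, s ∈ Ioo (-δ) (1 + δ) := fun s hs =>
    ⟨by linarith [hs.1], by linarith [hs.2]⟩
  refine ⟨thx O f', Jx O K', fun Z k s hs => ?_, fun s hs => ⟨fun i z hz => ?_, ?_⟩⟩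
  · obtain ⟨r, φ, ψ, Y, b, b', -, -, hY, hψ⟩ := SegF.ps O.P Bc hK'
      (hf'.mono (subset_univ (Ioo (-δ) (1 + δ)))) isOpen_Ioo (hIoo s hs)
    exact ⟨thx_an O hψ (fun t _ => hf'.sm t trivial) (fun t => hf'.sm t trivial) Z k,
      Jx_an O hY hs Z k⟩
  · exact Jx_eq O hs (hKe s hs).1 hz
  · obtain ⟨b, hb, hT⟩ := O.conn s hs
    refine ⟨b, fun i z hz => ?_, hT⟩
    ext v
    show L0.th i z v + b.η i z v = (L0.th i z v + O.η.η i z v) +
      (Real.pi / 2) * dfn C (f' s) i z ((O.M 0).J 0 i z v)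
    rw [hb i z hz v, hfe s hs]
    unfold dfn
    ring

end

end Crest.Agent.R281.Mca_365
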