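import Crest.Agent.R281.NefM_252
import Crest.Agent.R281.HkM2_835

/-!
# Row 281, MEMD-INST (helper252), part 1: metrics with prescribed curvature

* `exists_cur_eq`  : a closed real (1,1)-form in the class of the curvature is a curvature
* `exists_hm_eq`   : `[cur h] = κ [K]` gives a metric with `cur h' = κ K.g` exactly
* `hm_member`      : the same at a member `H : HkT C`, `K = H.kah hA`, with the class of `om 0`
-/

set_option autoImplicit false
set_option maxSynthPendingDepth 3
set_option linter.unusedSectionVars false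

open Set Filter Topology Complex
open scoped ContDiff Matrix ComplexConjugate ComplexOrder

namespace Crest.Agent.R281.Md_252

open Crest.Agent.R275.Geo Crest.Agent.R275.Core144 Crest.Agent.R275.EDR890
open Crest.Agent.R275.GC293
open Crest.Agent.R273.Kah_333 Crest.Agent.R273.Hess_333 Crest.Agent.R273.HessB_333
open Crest.Agent.R273.Defs_333 Crest.Agent.R273.HM_333 Crest.Agent.R273.Vol_333
open Crest.Agent.R281.Defs_273
open Crest.Agent.R260.ACM_580 Crest.Agent.R260.NNB_580
open Crest.Agent.R281.HkR_835 Crest.Agent.R281.Ti_846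
open Crest.Agent.R281.NefO_476 Crest.Agent.R281.Dif_268
open Crest.Agent.R281.Nef_252

noncomputable section

variable {d : ℕ} {X : Type} [TopologicalSpace X] {A : Atl d X}

/-- a matrix is determined by the real form -/
theorem hb_inj {G H : Matrix (Fin d) (Fin d) ℂ}
    (h : ∀ u v, (I * hb G u v).re = (I * hb H u v).re) : G = H := by
  refine hb_ext fun u v => ?_
  have h1 := h u v
  have h2 := h (I • u) v
  rw [hb_I_left, hb_I_left, ← mul_assoc, ← mul_assoc, I_mul_I] at h2
  apply Complex.ext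
  · simpa using h2
  · simpa using h1

/-- **prescribed curvature**: every closed real (1,1)-form in the class of the curvature is the
curvature of a metric -/
theorem exists_cur_eq [CompactSpace X] [T2Space X] [ConnectedSpace X] [Finite A.ι] (hd : 2 ≤ d)
    (P : Part A) (K : Kah A) (G : K11 A) {L : LB A} (h : HM L)
    (he : Ex (G.f2 - (curK h).f2)) :
    ∃ h' : HM L, ∀ i, ∀ x ∈ (A.e i).source, cur h' i x = G.g i x := by
  let _ : MeasurableSpace (Cn d) := borel _
  have : BorelSpace (Cn d) := ⟨rfl⟩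
  obtain ⟨u, hu, h1⟩ := ddb_jA hd P K _ he ((T11_f2 G).sub (T11_f2 (curK h)))
  set f : X → ℝ := fun x => (4 : ℝ) * u x with hf'
  have hf : A.Sm f := fun i => contDiffOn_const.mul (hu i)
  refine ⟨tw h f hf, fun i x hx => ?_⟩
  have hz := (A.e i).map_source hx
  have h2 : G.g i x = cur h i x + (4 : ℂ) • hess (uc (ofAtl A) u i) (A.e i x) := by
    refine hb_inj fun a b => ?_
    have h3 := h1 i _ hz a b
    have e1 : (G.f2 - (curK h).f2).w i (A.e i x) a b =
        G.f2.w i (A.e i x) a b - (curK h).f2.w i (A.e i x) a b := rfl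
    rw [ddc_hess hu hz, e1, K11.f2_w _ hz, K11.f2_w _ hz, (A.e i).left_inv hx] at h3
    rw [hb_add, mul_add, Complex.add_re, ← h3]
    show _ = (I * hb (cur h i x) a b).re + ((I * hb (G.g i x) a b).re -
      (I * hb (cur h i x) a b).re)
    ring
  have e1 : hsf A f i x = ((4 : ℝ) : ℂ) • hess (uc (ofAtl A) u i) (A.e i x) := by
    unfold hsf
    have : (fun z => f ((A.e i).symm z)) = fun z => (4 : ℝ) * uc (ofAtl A) u i z := rfl
    rw [this, hess_const_mul _ (hu.at hz)]
  rw [cur_tw h hf i hx, e1, h2]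
  norm_num

/-- real multiples of closed real (1,1)-forms -/
def sm11 (c : ℝ) (K : K11 A) : K11 A :=
  (c • K.f2).k11 fun _ _ hz u v => congrArg (fun t => c * t) (K11.f2_inv K hz u v)

theorem sm11_f2 (c : ℝ) (K : K11 A) {i : A.ι} {z : Cn d} (hz : z ∈ (A.e i).target) :
    (sm11 c K).f2.w i z = (c • K.f2).w i z := F2.k11_f2 _ _ hz

theorem sm11_g (c : ℝ) (K : K11 A) {i : A.ι} {x : X} (hx : x ∈ (A.e i).source) :
    (sm11 c K).g i x = (c : ℂ) • K.g i x := by
  have hz := (A.e i).map_source hx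
  refine hb_inj fun a b => ?_
  have h1 := K11.f2_w (sm11 c K) hz a b
  have h2 := K11.f2_w K hz a b
  rw [(A.e i).left_inv hx] at h1 h2
  rw [← h1, sm11_f2 c K hz, hb_smul]
  show c * K.f2.w i (A.e i x) a b = _
  rw [h2, mul_left_comm, Complex.re_ofReal_mul]

/-- **(M4)**: a metric with curvature exactly `κ K` -/
theorem exists_hm_eq [CompactSpace X] [T2Space X] [ConnectedSpace X] [Finite A.ι] (hd : 2 ≤ d)
    (P : Part A) (K : Kah A) {L : LB A} (h : HM L) {κ : ℝ}
    (he : Ex ((curK h).f2 - κ • (ofKah K).f2)) :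
    ∃ h' : HM L, ∀ i, ∀ x ∈ (A.e i).source, cur h' i x = (κ : ℂ) • K.g i x := by
  have he' : Ex ((sm11 κ (ofKah K)).f2 - (curK h).f2) := by
    have h1 := ex_neg he
    rw [neg_sub] at h1
    refine ex_congr (fun i z hz u v => ?_) h1
    show (κ • (ofKah K).f2).w i z u v - _ = (sm11 κ (ofKah K)).f2.w i z u v - _
    rw [sm11_f2 κ _ hz]
  obtain ⟨h', hh⟩ := exists_cur_eq hd P K (sm11 κ (ofKah K)) h he'
  exact ⟨h', fun i x hx => by rw [hh i x hx, sm11_g κ _ hx]; rfl⟩

section member

variable {V : Type} [NormedAddCommGroup V] [NormedSpace ℝ V] {C : RCh V X}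

/-- the Kaehler form of the member is `om 0` -/
theorem kah_om0 (H : HkT C) (hA : Cp (H.acm 0) A) :
    Eqv (ofKah (H.kah hA)).f2 ((cmp_of_cp hA).F (H.om 0)) := by
  intro i z hz u v
  have h1 := K0_om0 (H.onA hA) (onA_J H hA) (i := i) hz
  show (ofKah ((H.onA hA).K0 (onA_J H hA))).f2.w i z u v = _
  rw [h1]
  rfl

/-- **(M4) at a member**: `[om 0] = a`, `[cur h] = κ a` ⟹ a metric with `cur h' = κ K0` -/
theorem hm_member [CompactSpace X] [T2Space X] [ConnectedSpace X] [Finite A.ι] (hd : 2 ≤ d)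
    (P : Part A) (H : HkT C) (hA : Cp (H.acm 0) A) {L : LB A} (h : HM L) {a : F2 C} {κ : ℝ}
    (ho : Ex (H.om 0 - a)) (hc : Ex ((curK h).f2 - κ • (cmp_of_cp hA).F a)) :
    ∃ h' : HM L, ∀ i, ∀ x ∈ (A.e i).source, cur h' i x = (κ : ℂ) • (H.kah hA).g i x := by
  refine exists_hm_eq hd P (H.kah hA) h ?_
  have e1 : Ex ((cmp_of_cp hA).F (H.om 0) - (cmp_of_cp hA).F a) := by
    have a2 : Ex ((cmp_of_cp hA).F (H.om 0 - a)) := (ex_cmp_F (cmp_of_cp hA) _).2 ho
    exact (F_sub (cmp_of_cp hA) (H.om 0) a).ex a2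
  have e2 : Ex ((ofKah (H.kah hA)).f2 - (cmp_of_cp hA).F (H.om 0)) :=
    eqv_ex_sub (kah_om0 H hA)
  have e3 := ex_add e2 e1
  rw [sub_add_sub_cancel] at e3
  have e4 := ex_sub hc (ex_smul κ e3)
  rwa [smul_sub, sub_sub_sub_cancel_right] at e4

end member

end

end Crest.Agent.R281.Md_252
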