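import Crest.Agent.R281.Md1_252
import Crest.Agent.R281.Blk5_592

/-!
# Row 281, MEMD-INST (helper252), part 2: the bundle `O(1)` of a member

`T : HkT C` a member, `C'` the charts of the marking, `Q : MapD A J` a holomorphic map to
`ℙ(J → ℂ)` with lifts `u` in `C'` (592), `W` its Fubini-Study form on `C'`.

* `cmp_F_F`    : `F` of a composition of changes of charts
* `cl_fs`      : `[W] = κ a` on `C'` ⟹ `[cur fs] = κ a` on the atlas `A` of `J 0`
* `hm_lk`      : **(M4)**: `[om 0] = a`, `[W] = κ a` ⟹ a metric on `O(1)` with `cur = κ K0`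
* `hm_curv`    : the field `curv` of `SIn_14.SDat` for `O(1)^m` and `L K0`
-/

set_option autoImplicit false
set_option maxSynthPendingDepth 3
set_option linter.unusedSectionVars false

open Set Filter Topology Complex
open scoped ContDiff Matrix ComplexConjugate ComplexOrder

namespace Crest.Agent.R281.Md_252

open Crest.Agent.R275.Geo Crest.Agent.R275.Core144 Crest.Agent.R275.EDR890
open Crest.Agent.R275.GC293
open Crest.Agent.R273.Kah_333 Crest.Agent.R273.Hess_333 Crest.Agent.R273.HessB_333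
open Crest.Agent.R273.Defs_333 Crest.Agent.R273.HM_333 Crest.Agent.R273.Vol_333
open Crest.Agent.R281.Defs_273
open Crest.Agent.R260.ACM_580 Crest.Agent.R260.NNB_580
open Crest.Agent.R281.HkR_835 Crest.Agent.R281.Ti_846
open Crest.Agent.R281.NefO_476 Crest.Agent.R281.Dif_268
open Crest.Agent.R281.Nef_252
open Crest.Agent.R281.Blk_592 (MapD LkAt Lk fsv)

noncomputable section

variable {d : ℕ} {X : Type} [TopologicalSpace X] {A : Atl d X}
  {V V' : Type} [NormedAddCommGroup V] [NormedSpace ℝ V] [NormedAddCommGroup V']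
  [NormedSpace ℝ V'] {C : RCh V X} {C' : RCh V' X}

/-- composition of changes of charts -/
theorem cmp_F_F {V'' : Type} [NormedAddCommGroup V''] [NormedSpace ℝ V''] {C'' : RCh V'' X}
    (h : Cmp C C') (h' : Cmp C' C'') (h'' : Cmp C C'') (w : F2 C) :
    Eqv (h'.F (h.F w)) (h''.F w) := by
  have e1 : Eqv (h'.F (h.F w)) ((SMap.ofCmp h').pull (h.F w)) := (cmp_F h' _).symm
  have e2 : Eqv ((SMap.ofCmp h').pull (h.F w)) ((SMap.ofCmp h').pull ((SMap.ofCmp h).pull w)) :=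
    Eqv.pull (cmp_F h w).symm _
  have e3 := (pull_comp (SMap.ofCmp h) (SMap.ofCmp h') w).symm
  refine e1.trans (e2.trans (e3.trans ?_))
  refine Eqv.trans ?_ (cmp_F h'' w)
  exact fun _ _ _ _ _ => rfl

/-- the class of the curvature of the Fubini-Study metric -/
theorem cl_fs {J : Type} [Fintype J] {Q : MapD A J} (hc : Cmp C C') (hA : Cmp C (ofAtl A))
    (hA' : Cmp C' (ofAtl A)) (W : F2 C')
    (hW : ∀ i, ∀ y ∈ (C'.e i).target, ∃ u, LkAt Q C' i y u ∧ ∀ v v' : V', W.w i y v v' =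
      fsv (u y) (fderiv ℝ u y v) (fderiv ℝ u y v'))
    {a : F2 C} {κ : ℝ} (hcl : Ex (W - κ • hc.F a)) :
    Ex ((curK Q.fs).f2 - κ • hA.F a) := by
  have e1 : Eqv (hA'.F W) (curK Q.fs).f2 := fun i z hz u v =>
    Blk_592.F_fs hA' (curK Q.fs) (fun _ _ _ => rfl) W hW hz u v
  have e2 : Ex (hA'.F (W - κ • hc.F a)) := (ex_cmp_F hA' _).2 hcl
  have e3 : Eqv (hA'.F (W - κ • hc.F a)) ((curK Q.fs).f2 - κ • hA.F a) := by
    refine (F_sub hA' _ _).trans (eqv_sub e1 ((F_smul hA' κ _).trans ?_))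
    exact eqv_smul κ (cmp_F_F hc hA' hA a)
  exact e3.ex e2

/-- **(M4)** -/
theorem hm_lk [CompactSpace X] [T2Space X] [ConnectedSpace X] [Finite A.ι] (hd : 2 ≤ d)
    (Pt : Part A) (T : HkT C) (hp : Cp (T.acm 0) A) {J : Type} [Fintype J] {Q : MapD A J}
    (hc : Cmp C C') (hA' : Cmp C' (ofAtl A)) (W : F2 C')
    (hW : ∀ i, ∀ y ∈ (C'.e i).target, ∃ u, LkAt Q C' i y u ∧ ∀ v v' : V', W.w i y v v' =
      fsv (u y) (fderiv ℝ u y v) (fderiv ℝ u y v'))
    {a : F2 C} {κ : ℝ} (ha : Ex (T.om 0 - a)) (hcl : Ex (W - κ • hc.F a)) :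
    ∃ h' : HM Q.lb, ∀ i, ∀ x ∈ (A.e i).source, cur h' i x = (κ : ℂ) • (T.kah hp).g i x :=
  hm_member hd Pt T hp Q.fs ha (cl_fs hc (cmp_of_cp hp) hA' W hW hcl)

/-- the field `curv` of `SDat` -/
theorem hm_curv {L : LB A} {h : HM L} {K0 K : Kah A} {κ l : ℝ} (hl : l ≠ 0)
    (hc : ∀ i, ∀ x ∈ (A.e i).source, cur h i x = (κ : ℂ) • K0.g i x)
    (hK : ∀ i, ∀ x ∈ (A.e i).source, K.g i x = (l : ℂ) • K0.g i x) (m : ℕ) :
    ∀ i, ∀ x ∈ (A.e i).source, cur (pow h m) i x = (((m * κ) / l : ℝ) : ℂ) • K.g i x := by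
  intro i x hx
  rw [cur_pow h m i hx, hc i x hx, hK i x hx, smul_smul, smul_smul]
  congr 1
  push_cast
  have : (l : ℂ) ≠ 0 := by exact_mod_cast hl
  field_simp

end

end Crest.Agent.R281.Md_252
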