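import Mathlib

/-! S6-MONO (row 281, division 6), abstract part: monotonicity and mean value inequality for
plurisubharmonic weights on a complex submanifold, in a form free of any submanifold language.
`ρ = |z|²`, `G = |∂ρ|²` (norm on the submanifold, so `0 ≤ G ≤ ρ`), `d` = complex dimension,
`w ≥ 0` psh.  Hypothesis `SH`: `∫ w · Lap (γ ∘ ρ) ≥ 0` for `γ ≥ 0` of class `C²` vanishing on `[R,∞)`. -/

namespace Crest.Agent.R281.Mo_192

open MeasureTheory Set Filter Topology

variable {X : Type*} [MeasurableSpace X]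

/-- `w` is (weakly) subharmonic when tested against functions of `ρ` -/
def SH (μ : Measure X) (ρ G w : X → ℝ) (d : ℕ) (R : ℝ) : Prop :=
  ∀ γ : ℝ → ℝ, ContDiff ℝ 2 γ → (∀ s, 0 ≤ γ s) → (∀ s, R ≤ s → γ s = 0) →
    0 ≤ ∫ x, w x * ((d : ℝ) * deriv γ (ρ x) + deriv (deriv γ) (ρ x) * G x) ∂μ

structure Dat (μ : Measure X) (ρ G w : X → ℝ) (d : ℕ) (R : ℝ) : Prop where
  mρ : Measurable ρ
  mG : Measurable G
  G0 : ∀ x, 0 ≤ G x
  Gρ : ∀ x, G x ≤ ρ x
  w0 : ∀ x, 0 ≤ w x
  int : IntegrableOn w {x | ρ x < R} μ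
  sh : SH μ ρ G w d R

variable {μ : Measure X} {ρ G w : X → ℝ} {d : ℕ} {R : ℝ}

theorem Dat.ρ0 (D : Dat μ ρ G w d R) (x : X) : 0 ≤ ρ x := (D.G0 x).trans (D.Gρ x)

theorem Dat.integrable (D : Dat μ ρ G w d R) {h : X → ℝ} (hm : Measurable h) {C : ℝ}
    (hC : ∀ x, ρ x < R → |h x| ≤ C) (h0 : ∀ x, R ≤ ρ x → h x = 0) :
    Integrable (fun x => w x * h x) μ := by
  have hS : MeasurableSet {x | ρ x < R} := measurableSet_lt D.mρ measurable_const
  have e : (fun x => w x * h x) = {x | ρ x < R}.indicator (fun x => w x * h x) := by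
    funext x
    by_cases hx : ρ x < R
    · rw [indicator_of_mem (by simpa using hx)]
    · rw [indicator_of_notMem (by simpa using hx), h0 x (not_lt.1 hx), mul_zero]
  rw [e, integrable_indicator_iff hS]
  refine Integrable.mul_bdd (c := C) D.int hm.aestronglyMeasurable ?_
  rw [ae_restrict_iff' hS]
  exact Eventually.of_forall fun x hx => by simpa [Real.norm_eq_abs] using hC x hx

/-- testing with a second primitive of a continuous function `κ ≥ 0` -/
theorem Dat.test (D : Dat μ ρ G w d R) {κ : ℝ → ℝ} (hκ : Continuous κ) (h0 : ∀ s, 0 ≤ κ s)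
    {b : ℝ} (hb : b ≤ R) (hz : ∀ s, b ≤ s → κ s = 0) :
    0 ≤ ∫ x, w x * (ρ x * κ (ρ x) - d * ∫ u in (ρ x)..b, κ u) ∂μ := by
  set g : ℝ → ℝ := fun s => ∫ u in b..s, κ u with hg
  have hgd : ∀ s, HasDerivAt g (κ s) s := fun s =>
    intervalIntegral.integral_hasDerivAt_right (hκ.intervalIntegrable _ _)
      hκ.aestronglyMeasurable.stronglyMeasurableAtFilter hκ.continuousAt
  have hgc : Continuous g := continuous_iff_continuousAt.2 fun s => (hgd s).continuousAt
  have hgz : ∀ s, b ≤ s → g s = 0 := by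
    intro s hs
    simp only [hg]
    rw [intervalIntegral.integral_congr (g := fun _ => (0:ℝ))]
    · simp
    · intro u hu
      rw [uIcc_of_le hs] at hu
      exact hz u hu.1
  have hgn : ∀ s, g s ≤ 0 := by
    intro s
    rcases le_total b s with h | h
    · rw [hgz s h]
    · simp only [hg]
      rw [intervalIntegral.integral_symm]
      have := intervalIntegral.integral_nonneg (μ := volume) h (fun u _ => h0 u)
      linarith
  set γ : ℝ → ℝ := fun s => ∫ u in b..s, g u with hγ
  have hγd : ∀ s, HasDerivAt γ (g s) s := fun s =>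
    intervalIntegral.integral_hasDerivAt_right (hgc.intervalIntegrable _ _)
      hgc.aestronglyMeasurable.stronglyMeasurableAtFilter hgc.continuousAt
  have hd1 : deriv γ = g := funext fun s => (hγd s).deriv
  have hd2 : deriv g = κ := funext fun s => (hgd s).deriv
  have hC1 : ContDiff ℝ 1 g := by
    rw [contDiff_one_iff_deriv]
    exact ⟨fun s => (hgd s).differentiableAt, by rw [hd2]; exact hκ⟩
  have hC2 : ContDiff ℝ 2 γ := by
    have : (2 : WithTop ℕ∞) = 1 + 1 := by norm_num
    rw [this, contDiff_succ_iff_deriv]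
    refine ⟨fun s => (hγd s).differentiableAt, by simp, by rw [hd1]; exact hC1⟩
  have hγz : ∀ s, b ≤ s → γ s = 0 := by
    intro s hs
    simp only [hγ]
    rw [intervalIntegral.integral_congr (g := fun _ => (0:ℝ))]
    · simp
    · intro u hu
      rw [uIcc_of_le hs] at hu
      exact hgz u hu.1
  have hγ0 : ∀ s, 0 ≤ γ s := by
    intro s
    rcases le_total b s with h | h
    · rw [hγz s h]
    · simp only [hγ]
      rw [intervalIntegral.integral_symm]
      have := intervalIntegral.integral_nonneg (μ := volume) h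
        (fun u _ => neg_nonneg.2 (hgn u))
      rw [intervalIntegral.integral_neg] at this
      linarith
  have key := D.sh γ hC2 hγ0 (fun s hs => hγz s (hb.trans hs))
  rw [hd1, hd2] at key
  refine key.trans (le_of_eq_of_le ?_ (integral_mono (μ := μ)
    (f := fun x => w x * ((d:ℝ) * g (ρ x) + κ (ρ x) * G x))
    (g := fun x => w x * (ρ x * κ (ρ x) - d * ∫ u in (ρ x)..b, κ u)) ?_ ?_ ?_))
  · rfl
  · obtain ⟨A, hA⟩ := (isCompact_Icc (a := (0:ℝ)) (b := R)).exists_bound_of_continuousOn
      hgc.continuousOn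
    obtain ⟨B, hB⟩ := (isCompact_Icc (a := (0:ℝ)) (b := R)).exists_bound_of_continuousOn
      hκ.continuousOn
    refine D.integrable (C := d * A + B * R) ?_ ?_ ?_
    · exact (measurable_const.mul (hgc.measurable.comp D.mρ)).add
        ((hκ.measurable.comp D.mρ).mul D.mG)
    · intro x hx
      have h1 := hA (ρ x) ⟨D.ρ0 x, hx.le⟩
      have h2 := hB (ρ x) ⟨D.ρ0 x, hx.le⟩
      rw [Real.norm_eq_abs] at h1 h2
      calc |(d:ℝ) * g (ρ x) + κ (ρ x) * G x|
          ≤ |(d:ℝ) * g (ρ x)| + |κ (ρ x) * G x| := abs_add_le _ _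
        _ ≤ d * A + B * R := by
            rw [abs_mul, abs_mul, Nat.abs_cast, abs_of_nonneg (D.G0 x)]
            have h3 : G x ≤ R := (D.Gρ x).trans hx.le
            have h4 := D.G0 x
            have h5 : 0 ≤ B := (abs_nonneg _).trans h2
            gcongr
    · intro x hx
      rw [hgz _ (hb.trans hx), hz _ (hb.trans hx)]
      simp
  · have e : ∀ s, (∫ u in s..b, κ u) = - g s := fun s => by
      simp only [hg]; rw [intervalIntegral.integral_symm]
    simp only [e]
    obtain ⟨A, hA⟩ := (isCompact_Icc (a := (0:ℝ)) (b := R)).exists_bound_of_continuousOn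
      hgc.continuousOn
    obtain ⟨B, hB⟩ := (isCompact_Icc (a := (0:ℝ)) (b := R)).exists_bound_of_continuousOn
      hκ.continuousOn
    refine D.integrable (C := R * B + d * A) ?_ ?_ ?_
    · exact (D.mρ.mul (hκ.measurable.comp D.mρ)).sub
        (measurable_const.mul (hgc.measurable.comp D.mρ).neg)
    · intro x hx
      have h1 := hA (ρ x) ⟨D.ρ0 x, hx.le⟩
      have h2 := hB (ρ x) ⟨D.ρ0 x, hx.le⟩
      rw [Real.norm_eq_abs] at h1 h2
      have h3 := D.ρ0 x
      calc |ρ x * κ (ρ x) - d * -g (ρ x)| = |ρ x * κ (ρ x) + d * g (ρ x)| := by ring_nf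
        _ ≤ |ρ x * κ (ρ x)| + |(d:ℝ) * g (ρ x)| := abs_add_le _ _
        _ ≤ R * B + d * A := by
            rw [abs_mul, abs_mul, Nat.abs_cast, abs_of_nonneg h3]
            have h5 : 0 ≤ B := (abs_nonneg _).trans h2
            have h6 : 0 ≤ R := h3.trans hx.le
            gcongr
    · intro x hx
      rw [hgz _ (hb.trans hx), hz _ (hb.trans hx)]
      simp
  · intro x
    have e : (∫ u in (ρ x)..b, κ u) = - g (ρ x) := by
      simp only [hg]; rw [intervalIntegral.integral_symm]
    simp only [e]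
    refine mul_le_mul_of_nonneg_left ?_ (D.w0 x)
    have := mul_le_mul_of_nonneg_left (D.Gρ x) (h0 (ρ x))
    nlinarith [h0 (ρ x)]


/-- trapezoid approximations of the indicator of `(a,b)` -/
noncomputable def th (a b : ℝ) (n : ℕ) (s : ℝ) : ℝ := min 1 (n * max 0 (min (s - a) (b - s)))

theorem th_cont (a b : ℝ) (n : ℕ) : Continuous (th a b n) := by
  unfold th; fun_prop

theorem th_nonneg (a b : ℝ) (n : ℕ) (s : ℝ) : 0 ≤ th a b n s :=
  le_min zero_le_one (mul_nonneg (Nat.cast_nonneg _) (le_max_left _ _))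

theorem th_le (a b : ℝ) (n : ℕ) (s : ℝ) : th a b n s ≤ 1 := min_le_left _ _

theorem th_zero {a b : ℝ} {n : ℕ} {s : ℝ} (h : s ≤ a ∨ b ≤ s) : th a b n s = 0 := by
  have : min (s - a) (b - s) ≤ 0 := by
    rcases h with h | h
    · exact (min_le_left _ _).trans (by linarith)
    · exact (min_le_right _ _).trans (by linarith)
  simp [th, max_eq_left this]

theorem th_tendsto (a b s : ℝ) :
    Tendsto (fun n : ℕ => th a b n s) atTop (𝓝 ((Ioo a b).indicator (fun _ => (1:ℝ)) s)) := by
  by_cases h : s ∈ Ioo a b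
  · rw [indicator_of_mem h]
    have hm : 0 < min (s - a) (b - s) := lt_min (by linarith [h.1]) (by linarith [h.2])
    refine tendsto_const_nhds.congr' ?_
    obtain ⟨N, hN⟩ := exists_nat_gt (1 / min (s - a) (b - s))
    filter_upwards [eventually_ge_atTop N] with n hn
    symm
    unfold th
    rw [max_eq_right hm.le, min_eq_left]
    rw [div_lt_iff₀ hm] at hN
    have : (N : ℝ) ≤ n := by exact_mod_cast hn
    nlinarith
  · rw [indicator_of_notMem h]
    have h' : s ≤ a ∨ b ≤ s := by
      by_contra hc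
      push Not at hc
      exact h ⟨hc.1, hc.2⟩
    simp only [th_zero h']
    exact tendsto_const_nhds

/-- the limit weight -/
noncomputable def lw (a b : ℝ) (d : ℕ) (u : ℝ) : ℝ := (Ioo a b).indicator (fun _ => (1:ℝ)) u * (max u a ^ (d + 1))⁻¹

theorem int_pow {a b : ℝ} (ha : 0 < a) (hab : a ≤ b) (hd : 0 < d) :
    ∫ u in a..b, (u ^ (d + 1))⁻¹ = ((a ^ d)⁻¹ - (b ^ d)⁻¹) / d := by
  have hd' : (d : ℝ) ≠ 0 := by exact_mod_cast hd.ne'
  have key : ∀ u ∈ uIcc a b, HasDerivAt (fun v : ℝ => - (v ^ d)⁻¹ / d) ((u ^ (d + 1))⁻¹) u := by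
    intro u hu
    rw [uIcc_of_le hab] at hu
    have hu0 : u ≠ 0 := (ha.trans_le hu.1).ne'
    have h1 : HasDerivAt (fun v : ℝ => v ^ d) ((d:ℝ) * u ^ (d - 1)) u := by
      exact hasDerivAt_pow d u
    have h2 : HasDerivAt (fun v : ℝ => - (v ^ d)⁻¹ / d)
        (-(-((d:ℝ) * u ^ (d - 1)) / (u ^ d) ^ 2) / d) u :=
      (h1.inv (pow_ne_zero d hu0)).neg.div_const (d:ℝ)
    have h3 : (u ^ (d + 1))⁻¹ = -(-((d:ℝ) * u ^ (d - 1)) / (u ^ d) ^ 2) / d := by
      obtain ⟨k, rfl⟩ : ∃ k, d = k + 1 := ⟨d - 1, by omega⟩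
      have : k + 1 - 1 = k := by omega
      rw [this]
      field_simp
      ring
    rw [h3]
    exact h2
  rw [intervalIntegral.integral_eq_sub_of_hasDerivAt key]
  · ring
  · refine ContinuousOn.intervalIntegrable ?_
    rw [uIcc_of_le hab]
    refine ContinuousOn.inv₀ (by fun_prop) ?_
    intro u hu
    exact pow_ne_zero _ (ha.trans_le hu.1).ne'

theorem int_lw {a b : ℝ} (ha : 0 < a) (hab : a < b) (hd : 0 < d) (s : ℝ) (hs : s < b) :
    ∫ u in s..b, lw a b d u = ((max s a ^ d)⁻¹ - (b ^ d)⁻¹) / d := by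
  have hcont : Continuous fun u : ℝ => (max u a ^ (d + 1))⁻¹ := by
    refine Continuous.inv₀ (by fun_prop) ?_
    intro u
    exact pow_ne_zero _ (ha.trans_le (le_max_right _ _)).ne'
  have hlt : max s a < b := max_lt hs hab
  have e : ∫ u in s..b, lw a b d u = ∫ u in (max s a)..b, (u ^ (d + 1))⁻¹ := by
    rw [intervalIntegral.integral_of_le hs.le, intervalIntegral.integral_of_le hlt.le]
    have e1 : ∀ u, lw a b d u = (Ioo a b).indicator (fun u => (u ^ (d + 1))⁻¹) u := by
      intro u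
      unfold lw
      by_cases hu : u ∈ Ioo a b
      · rw [indicator_of_mem hu, indicator_of_mem hu, max_eq_left hu.1.le, one_mul]
      · rw [indicator_of_notMem hu, indicator_of_notMem hu, zero_mul]
    simp only [e1]
    rw [setIntegral_indicator measurableSet_Ioo]
    have e2 : Ioc s b ∩ Ioo a b = Ioo (max s a) b := by
      ext u
      simp only [mem_inter_iff, mem_Ioc, mem_Ioo, max_lt_iff]
      constructor
      · rintro ⟨⟨h1, _⟩, h2, h3⟩; exact ⟨⟨h1, h2⟩, h3⟩
      · rintro ⟨⟨h1, h2⟩, h3⟩; exact ⟨⟨h1, h3.le⟩, h2, h3⟩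
    rw [e2, ← integral_Ioc_eq_integral_Ioo]
  rw [e, int_pow (ha.trans_le (le_max_right _ _)) hlt.le hd]

/-- **(M1)** sharp monotonicity -/
theorem Dat.mono (D : Dat μ ρ G w d R) (hd : 0 < d) {a b : ℝ} (ha : 0 < a) (hab : a < b)
    (hb : b ≤ R) :
    b ^ d * ∫ x in {x | ρ x ≤ a}, w x ∂μ ≤ a ^ d * ∫ x in {x | ρ x < b}, w x ∂μ := by
  have hb0 : 0 < b := ha.trans hab
  have hd' : (0 : ℝ) < d := by exact_mod_cast hd
  set κ : ℕ → ℝ → ℝ := fun n u => th a b n u * (max u a ^ (d + 1))⁻¹ with hκ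
  have hcont : Continuous fun u : ℝ => (max u a ^ (d + 1))⁻¹ := by
    refine Continuous.inv₀ (by fun_prop) ?_
    intro u
    exact pow_ne_zero _ (ha.trans_le (le_max_right _ _)).ne'
  have hm0 : ∀ u : ℝ, 0 ≤ (max u a ^ (d + 1))⁻¹ := fun u =>
    inv_nonneg.2 (pow_nonneg (ha.le.trans (le_max_right _ _)) _)
  have hmC : ∀ u : ℝ, (max u a ^ (d + 1))⁻¹ ≤ (a ^ (d + 1))⁻¹ := fun u =>
    inv_anti₀ (pow_pos ha _) (pow_le_pow_left₀ ha.le (le_max_right _ _) _)
  have hκc : ∀ n, Continuous (κ n) := fun n => (th_cont a b n).mul hcont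
  have hκ0 : ∀ n s, 0 ≤ κ n s := fun n s => mul_nonneg (th_nonneg _ _ _ _) (hm0 s)
  have hκC : ∀ n s, κ n s ≤ (a ^ (d + 1))⁻¹ := fun n s => by
    calc κ n s ≤ 1 * (a ^ (d + 1))⁻¹ :=
          mul_le_mul (th_le _ _ _ _) (hmC s) (hm0 s) zero_le_one
      _ = _ := one_mul _
  have hκz : ∀ n s, b ≤ s → κ n s = 0 := fun n s hs => by
    simp only [hκ]; rw [th_zero (Or.inr hs), zero_mul]
  have hpt : ∀ n, 0 ≤ ∫ x, w x * (ρ x * κ n (ρ x) - d * ∫ u in (ρ x)..b, κ n u) ∂μ :=
    fun n => D.test (hκc n) (hκ0 n) hb (hκz n)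
  -- pointwise limits
  have hl1 : ∀ u, Tendsto (fun n => κ n u) atTop (𝓝 (lw a b d u)) := fun u =>
    (th_tendsto a b u).mul_const _
  have hl2 : ∀ s, Tendsto (fun n => ∫ u in s..b, κ n u) atTop (𝓝 (∫ u in s..b, lw a b d u)) := by
    intro s
    refine intervalIntegral.tendsto_integral_filter_of_dominated_convergence
      (fun _ => (a ^ (d + 1))⁻¹) ?_ ?_ ?_ ?_
    · exact Eventually.of_forall fun n => (hκc n).aestronglyMeasurable
    · refine Eventually.of_forall fun n => Eventually.of_forall fun u _ => ?_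
      rw [Real.norm_eq_abs, abs_of_nonneg (hκ0 n u)]
      exact hκC n u
    · exact intervalIntegrable_const
    · exact Eventually.of_forall fun u _ => hl1 u
  -- the limit function
  have hlim : ∀ x, Tendsto (fun n => w x * (ρ x * κ n (ρ x) - d * ∫ u in (ρ x)..b, κ n u)) atTop
      (𝓝 (w x * (ρ x * lw a b d (ρ x) - d * ∫ u in (ρ x)..b, lw a b d u))) := fun x =>
    ((hl1 _).const_mul _ |>.sub ((hl2 _).const_mul _)).const_mul _
  have hS : MeasurableSet {x | ρ x < R} := measurableSet_lt D.mρ measurable_const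
  have hdom : Integrable (fun x => w x * ({x | ρ x < R}.indicator
      (fun _ => R * (a ^ (d + 1))⁻¹ + d * (b * (a ^ (d + 1))⁻¹)) x)) μ := by
    refine D.integrable (C := |R * (a ^ (d + 1))⁻¹ + d * (b * (a ^ (d + 1))⁻¹)|) ?_ ?_ ?_
    · exact measurable_const.indicator hS
    · intro x hx
      rw [indicator_of_mem (by simpa using hx)]
    · intro x hx
      rw [indicator_of_notMem (by simpa using hx)]
  have hbnd : ∀ n x, ρ x < R → |ρ x * κ n (ρ x) - d * ∫ u in (ρ x)..b, κ n u|
      ≤ R * (a ^ (d + 1))⁻¹ + d * (b * (a ^ (d + 1))⁻¹) := by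
    intro n x hx
    have h0 := D.ρ0 x
    have h1 : 0 ≤ ρ x * κ n (ρ x) := mul_nonneg h0 (hκ0 n _)
    have h2 : ρ x * κ n (ρ x) ≤ R * (a ^ (d + 1))⁻¹ :=
      mul_le_mul hx.le (hκC n _) (hκ0 n _) (h0.trans hx.le)
    have h3 : (0 ≤ ∫ u in (ρ x)..b, κ n u) ∧ ((∫ u in (ρ x)..b, κ n u) ≤ b * (a ^ (d + 1))⁻¹) := by
      rcases le_total (ρ x) b with h | h
      · refine ⟨intervalIntegral.integral_nonneg h fun u _ => hκ0 n u, ?_⟩
        calc ∫ u in (ρ x)..b, κ n u ≤ ∫ u in (ρ x)..b, (a ^ (d + 1))⁻¹ :=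
              intervalIntegral.integral_mono_on h ((hκc n).intervalIntegrable _ _)
                intervalIntegrable_const fun u _ => hκC n u
          _ = (b - ρ x) * (a ^ (d + 1))⁻¹ := by simp
          _ ≤ b * (a ^ (d + 1))⁻¹ := by
              refine mul_le_mul_of_nonneg_right (by linarith) ?_
              exact inv_nonneg.2 (pow_nonneg ha.le _)
      · have : ∫ u in (ρ x)..b, κ n u = 0 := by
          rw [intervalIntegral.integral_congr (g := fun _ => (0:ℝ))]
          · simp
          · intro u hu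
            rw [uIcc_of_ge h] at hu
            exact hκz n u hu.1
        rw [this]
        exact ⟨le_refl _, mul_nonneg hb0.le (inv_nonneg.2 (pow_nonneg ha.le _))⟩
    have h4 := mul_le_mul_of_nonneg_left h3.2 hd'.le
    have h5 := mul_nonneg hd'.le h3.1
    rw [abs_le]
    constructor <;> linarith [inv_nonneg.2 (pow_nonneg ha.le (d+1)),
      mul_nonneg (h0.trans hx.le) (inv_nonneg.2 (pow_nonneg ha.le (d+1)))]
  have hzero : ∀ n x, R ≤ ρ x → ρ x * κ n (ρ x) - d * ∫ u in (ρ x)..b, κ n u = 0 := by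
    intro n x hx
    have hbx := hb.trans hx
    have : ∫ u in (ρ x)..b, κ n u = 0 := by
      rw [intervalIntegral.integral_congr (g := fun _ => (0:ℝ))]
      · simp
      · intro u hu
        rw [uIcc_of_ge hbx] at hu
        exact hκz n u hu.1
    rw [this, hκz n _ hbx]; ring
  have hmeas : ∀ n, Measurable fun x => ρ x * κ n (ρ x) - d * ∫ u in (ρ x)..b, κ n u := by
    intro n
    have hc : Continuous fun s : ℝ => ∫ u in s..b, κ n u := by
      have : ∀ s : ℝ, HasDerivAt (fun s : ℝ => ∫ u in s..b, κ n u) (-(κ n s)) s := fun s =>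
        intervalIntegral.integral_hasDerivAt_left ((hκc n).intervalIntegrable _ _)
          (hκc n).aestronglyMeasurable.stronglyMeasurableAtFilter (hκc n).continuousAt
      exact continuous_iff_continuousAt.2 fun s => (this s).continuousAt
    exact (D.mρ.mul ((hκc n).measurable.comp D.mρ)).sub
      (measurable_const.mul (hc.measurable.comp D.mρ))
  have hint : ∀ n, Integrable (fun x => w x * (ρ x * κ n (ρ x) - d * ∫ u in (ρ x)..b, κ n u)) μ :=
    fun n => D.integrable (hmeas n) (hbnd n) (hzero n)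
  have hDCT := tendsto_integral_of_dominated_convergence (μ := μ) _
    (fun n => (hint n).aestronglyMeasurable) hdom ?_ (Eventually.of_forall hlim)
  · have hfin := ge_of_tendsto hDCT (Eventually.of_forall hpt)
    -- compute
    have hAm : MeasurableSet {x | ρ x ≤ a} := measurableSet_le D.mρ measurable_const
    have hBm : MeasurableSet {x | ρ x < b} := measurableSet_lt D.mρ measurable_const
    have e : ∀ x, w x * (ρ x * lw a b d (ρ x) - d * ∫ u in (ρ x)..b, lw a b d u)
        = (b ^ d)⁻¹ * ({x | ρ x < b}.indicator w x) - (a ^ d)⁻¹ * ({x | ρ x ≤ a}.indicator w x) := by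
      intro x
      rcases lt_or_ge (ρ x) b with h | h
      · rw [int_lw ha hab hd _ h, indicator_of_mem (by simpa using h)]
        rcases le_or_gt (ρ x) a with h' | h'
        · rw [indicator_of_mem (by simpa using h'), max_eq_right h', lw,
            indicator_of_notMem (by simp [h'])]
          field_simp
          ring
        · rw [indicator_of_notMem (by simpa using h'), max_eq_left h'.le, lw,
            indicator_of_mem (show ρ x ∈ Ioo a b from ⟨h', h⟩), max_eq_left h'.le]
          have hρ0 : ρ x ≠ 0 := (ha.trans h').ne'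
          field_simp
          ring
      · rw [indicator_of_notMem (by simpa using h),
          indicator_of_notMem (by simpa using hab.trans_le h), lw,
          indicator_of_notMem (by simp; intro _; exact h)]
        have : ∫ u in (ρ x)..b, lw a b d u = 0 := by
          rw [intervalIntegral.integral_congr_ae (g := fun _ => (0:ℝ))]
          · simp
          · refine Eventually.of_forall fun u hu => ?_
            rw [uIoc_of_ge h] at hu
            rw [lw, indicator_of_notMem (by simp; intro _; exact hu.1.le), zero_mul]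
        rw [this]; ring
    simp only [e] at hfin
    have hIb : Integrable ({x | ρ x < b}.indicator w) μ := by
      rw [integrable_indicator_iff hBm]
      exact D.int.mono_set fun x (hx : ρ x < b) => (hx.trans_le hb : ρ x < R)
    have hIa : Integrable ({x | ρ x ≤ a}.indicator w) μ := by
      rw [integrable_indicator_iff hAm]
      exact D.int.mono_set fun x (hx : ρ x ≤ a) => ((hx.trans_lt hab).trans_le hb : ρ x < R)
    rw [integral_sub (hIb.const_mul _) (hIa.const_mul _), integral_const_mul,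
      integral_const_mul, integral_indicator hBm, integral_indicator hAm] at hfin
    have h1 : (a ^ d)⁻¹ * ∫ x in {x | ρ x ≤ a}, w x ∂μ ≤ (b ^ d)⁻¹ * ∫ x in {x | ρ x < b}, w x ∂μ := by
      linarith
    have h2 := mul_le_mul_of_nonneg_left h1 (mul_pos (pow_pos ha d) (pow_pos hb0 d)).le
    have ha' := (pow_pos ha d).ne'
    have hb' := (pow_pos hb0 d).ne'
    calc b ^ d * ∫ x in {x | ρ x ≤ a}, w x ∂μ
        = a ^ d * b ^ d * ((a ^ d)⁻¹ * ∫ x in {x | ρ x ≤ a}, w x ∂μ) := by field_simp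
      _ ≤ a ^ d * b ^ d * ((b ^ d)⁻¹ * ∫ x in {x | ρ x < b}, w x ∂μ) := h2
      _ = a ^ d * ∫ x in {x | ρ x < b}, w x ∂μ := by field_simp
  · intro n
    refine Eventually.of_forall fun x => ?_
    rw [Real.norm_eq_abs, abs_mul, abs_of_nonneg (D.w0 x)]
    refine mul_le_mul_of_nonneg_left ?_ (D.w0 x)
    by_cases hx : ρ x < R
    · rw [indicator_of_mem (by simpa using hx)]
      exact hbnd n x hx
    · rw [indicator_of_notMem (by simpa using hx), hzero n x (not_lt.1 hx), abs_zero]

/-- **(M2)** point form: a density lower bound at one small radius propagates -/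
theorem Dat.lower (D : Dat μ ρ G w d R) (hd : 0 < d) {c a b : ℝ} (ha : 0 < a) (hab : a < b)
    (hb : b ≤ R) (hc : c * a ^ d ≤ ∫ x in {x | ρ x ≤ a}, w x ∂μ) :
    c * b ^ d ≤ ∫ x in {x | ρ x < b}, w x ∂μ := by
  have h := D.mono hd ha hab hb
  have h1 : b ^ d * (c * a ^ d) ≤ b ^ d * ∫ x in {x | ρ x ≤ a}, w x ∂μ :=
    mul_le_mul_of_nonneg_left hc (pow_nonneg (ha.trans hab).le _)
  have h2 : a ^ d * (c * b ^ d) ≤ a ^ d * ∫ x in {x | ρ x < b}, w x ∂μ := by
    calc a ^ d * (c * b ^ d) = b ^ d * (c * a ^ d) := by ring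
      _ ≤ _ := h1.trans h
  exact le_of_mul_le_mul_left h2 (pow_pos ha d)

end Crest.Agent.R281.Mo_192
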