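import Mathlib
import Crest.Agent.R281.Mo1_192

/-! S6-MONO (row 281, division 6), part 2: Lelong form of the monotonicity formula
(`∫ (i∂∂̄ log(ρ+e))^d`), with equality for pluriharmonic weights, and the point form. -/

namespace Crest.Agent.R281.Mo_192

open MeasureTheory Set Filter Topology

variable {X : Type*} [MeasurableSpace X] {μ : Measure X} {ρ G w : X → ℝ} {d : ℕ} {R : ℝ}

/-- equality version of `SH` -/
def SE (μ : Measure X) (ρ G w : X → ℝ) (d : ℕ) (R : ℝ) : Prop :=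
  ∀ γ : ℝ → ℝ, ContDiff ℝ 2 γ → (∀ s, R ≤ s → γ s = 0) →
    ∫ x, w x * ((d : ℝ) * deriv γ (ρ x) + deriv (deriv γ) (ρ x) * G x) ∂μ = 0

theorem SE.sh (h : SE μ ρ G w d R) : SH μ ρ G w d R := fun γ h1 _ h3 => (h γ h1 h3).ge

/-- second primitive vanishing on `[b,∞)` -/
theorem exists_prim {κ : ℝ → ℝ} (hκ : Continuous κ) {b : ℝ} (hz : ∀ s, b ≤ s → κ s = 0) :
    ∃ γ : ℝ → ℝ, ContDiff ℝ 2 γ ∧ (∀ s, b ≤ s → γ s = 0) ∧
      (deriv γ = fun s => - ∫ u in s..b, κ u) ∧ deriv (deriv γ) = κ ∧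
      ((∀ s, 0 ≤ κ s) → ∀ s, 0 ≤ γ s) := by
  set g : ℝ → ℝ := fun s => ∫ u in b..s, κ u with hg
  have hgd : ∀ s, HasDerivAt g (κ s) s := fun s =>
    intervalIntegral.integral_hasDerivAt_right (hκ.intervalIntegrable _ _)
      hκ.aestronglyMeasurable.stronglyMeasurableAtFilter hκ.continuousAt
  have hgc : Continuous g := continuous_iff_continuousAt.2 fun s => (hgd s).continuousAt
  have hgz : ∀ s, b ≤ s → g s = 0 := by
    intro s hs
    simp only [hg]
    rw [intervalIntegral.integral_congr (g := fun _ => (0:ℝ))]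
    · simp
    · intro u hu
      rw [uIcc_of_le hs] at hu
      exact hz u hu.1
  set γ : ℝ → ℝ := fun s => ∫ u in b..s, g u with hγ
  have hγd : ∀ s, HasDerivAt γ (g s) s := fun s =>
    intervalIntegral.integral_hasDerivAt_right (hgc.intervalIntegrable _ _)
      hgc.aestronglyMeasurable.stronglyMeasurableAtFilter hgc.continuousAt
  have hd1 : deriv γ = g := funext fun s => (hγd s).deriv
  have hd2 : deriv g = κ := funext fun s => (hgd s).deriv
  have hC1 : ContDiff ℝ 1 g := by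
    rw [contDiff_one_iff_deriv]
    exact ⟨fun s => (hgd s).differentiableAt, by rw [hd2]; exact hκ⟩
  have hC2 : ContDiff ℝ 2 γ := by
    have : (2 : WithTop ℕ∞) = 1 + 1 := by norm_num
    rw [this, contDiff_succ_iff_deriv]
    refine ⟨fun s => (hγd s).differentiableAt, by simp, by rw [hd1]; exact hC1⟩
  have hγz : ∀ s, b ≤ s → γ s = 0 := by
    intro s hs
    simp only [hγ]
    rw [intervalIntegral.integral_congr (g := fun _ => (0:ℝ))]
    · simp
    · intro u hu
      rw [uIcc_of_le hs] at hu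
      exact hgz u hu.1
  refine ⟨γ, hC2, hγz, ?_, by rw [hd1, hd2], ?_⟩
  · rw [hd1]
    funext s
    simp only [hg]
    rw [intervalIntegral.integral_symm]
  · intro h0 s
    have hgn : ∀ s, g s ≤ 0 := by
      intro s
      rcases le_total b s with h | h
      · rw [hgz s h]
      · simp only [hg]
        rw [intervalIntegral.integral_symm]
        have := intervalIntegral.integral_nonneg (μ := volume) h (fun u _ => h0 u)
        linarith
    rcases le_total b s with h | h
    · rw [hγz s h]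
    · simp only [hγ]
      rw [intervalIntegral.integral_symm]
      have := intervalIntegral.integral_nonneg (μ := volume) h
        (fun u _ => neg_nonneg.2 (hgn u))
      rw [intervalIntegral.integral_neg] at this
      linarith

theorem Dat.test' (D : Dat μ ρ G w d R) {κ : ℝ → ℝ} (hκ : Continuous κ) (h0 : ∀ s, 0 ≤ κ s)
    {b : ℝ} (hb : b ≤ R) (hz : ∀ s, b ≤ s → κ s = 0) :
    0 ≤ ∫ x, w x * (κ (ρ x) * G x - d * ∫ u in (ρ x)..b, κ u) ∂μ := by
  obtain ⟨γ, h1, h2, h3, h4, h5⟩ := exists_prim hκ hz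
  have key := D.sh γ h1 (h5 h0) (fun s hs => h2 s (hb.trans hs))
  rw [h4, h3] at key
  refine key.trans (le_of_eq (integral_congr_ae (Eventually.of_forall fun x => ?_)))
  simp only
  ring

theorem SE.test' (D : SE μ ρ G w d R) {κ : ℝ → ℝ} (hκ : Continuous κ)
    {b : ℝ} (hb : b ≤ R) (hz : ∀ s, b ≤ s → κ s = 0) :
    ∫ x, w x * (κ (ρ x) * G x - d * ∫ u in (ρ x)..b, κ u) ∂μ = 0 := by
  obtain ⟨γ, h1, h2, h3, h4, h5⟩ := exists_prim hκ hz
  have key := D γ h1 (fun s hs => h2 s (hb.trans hs))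
  rw [h4, h3] at key
  rw [← key]
  refine integral_congr_ae (Eventually.of_forall fun x => ?_)
  simp only
  ring

/-- dominated convergence in the test identity -/
theorem Dat.lim (D : Dat μ ρ G w d R) {κ : ℕ → ℝ → ℝ} {k : ℝ → ℝ} (hκc : ∀ n, Continuous (κ n))
    {C : ℝ} (hκC : ∀ n s, |κ n s| ≤ C) {b : ℝ} (hb0 : 0 ≤ b) (hb : b ≤ R)
    (hκz : ∀ n s, b ≤ s → κ n s = 0)
    (hl1 : ∀ s, Tendsto (fun n => κ n s) atTop (𝓝 (k s))) :
    Tendsto (fun n => ∫ x, w x * (κ n (ρ x) * G x - d * ∫ u in (ρ x)..b, κ n u) ∂μ) atTop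
      (𝓝 (∫ x, w x * (k (ρ x) * G x - d * ∫ u in (ρ x)..b, k u) ∂μ)) := by
  have hC0 : 0 ≤ C := (abs_nonneg _).trans (hκC 0 0)
  have hl2 : ∀ s, Tendsto (fun n => ∫ u in s..b, κ n u) atTop (𝓝 (∫ u in s..b, k u)) := by
    intro s
    refine intervalIntegral.tendsto_integral_filter_of_dominated_convergence
      (fun _ => C) ?_ ?_ ?_ ?_
    · exact Eventually.of_forall fun n => (hκc n).aestronglyMeasurable
    · refine Eventually.of_forall fun n => Eventually.of_forall fun u _ => ?_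
      rw [Real.norm_eq_abs]
      exact hκC n u
    · exact intervalIntegrable_const
    · exact Eventually.of_forall fun u _ => hl1 u
  have hlim : ∀ x, Tendsto (fun n => w x * (κ n (ρ x) * G x - d * ∫ u in (ρ x)..b, κ n u)) atTop
      (𝓝 (w x * (k (ρ x) * G x - d * ∫ u in (ρ x)..b, k u))) := fun x =>
    ((hl1 _).mul_const _ |>.sub ((hl2 _).const_mul _)).const_mul _
  have hS : MeasurableSet {x | ρ x < R} := measurableSet_lt D.mρ measurable_const
  have hR0 : 0 ≤ R := hb0.trans hb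
  have hdom : Integrable (fun x => w x * ({x | ρ x < R}.indicator
      (fun _ => C * R + d * (b * C)) x)) μ := by
    refine D.integrable (C := |C * R + d * (b * C)|) ?_ ?_ ?_
    · exact measurable_const.indicator hS
    · intro x hx
      rw [indicator_of_mem (by simpa using hx)]
    · intro x hx
      rw [indicator_of_notMem (by simpa using hx)]
  have hzI : ∀ n s, b ≤ s → ∫ u in s..b, κ n u = 0 := by
    intro n s h
    rw [intervalIntegral.integral_congr (g := fun _ => (0:ℝ))]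
    · simp
    · intro u hu
      rw [uIcc_of_ge h] at hu
      exact hκz n u hu.1
  have hbnd : ∀ n x, ρ x < R → |κ n (ρ x) * G x - d * ∫ u in (ρ x)..b, κ n u|
      ≤ C * R + d * (b * C) := by
    intro n x hx
    have h0 := D.ρ0 x
    have hG0 := D.G0 x
    have hGR : G x ≤ R := (D.Gρ x).trans hx.le
    have h3 : |∫ u in (ρ x)..b, κ n u| ≤ b * C := by
      rcases le_total (ρ x) b with h | h
      · have := intervalIntegral.norm_integral_le_of_norm_le_const (a := ρ x) (b := b)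
          (f := κ n) (C := C) (fun u _ => hκC n u)
        rw [Real.norm_eq_abs, abs_of_nonneg (sub_nonneg.2 h)] at this
        calc _ ≤ C * (b - ρ x) := this
          _ ≤ C * b := mul_le_mul_of_nonneg_left (by linarith) hC0
          _ = b * C := mul_comm _ _
      · rw [hzI n _ h, abs_zero]
        exact mul_nonneg hb0 hC0
    calc |κ n (ρ x) * G x - d * ∫ u in (ρ x)..b, κ n u|
        ≤ |κ n (ρ x) * G x| + |(d:ℝ) * ∫ u in (ρ x)..b, κ n u| := abs_sub _ _
      _ ≤ C * R + d * (b * C) := by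
          rw [abs_mul, abs_mul, Nat.abs_cast, abs_of_nonneg hG0]
          have := hκC n (ρ x)
          gcongr
  have hzero : ∀ n x, R ≤ ρ x → κ n (ρ x) * G x - d * ∫ u in (ρ x)..b, κ n u = 0 := by
    intro n x hx
    have hbx := hb.trans hx
    rw [hzI n _ hbx, hκz n _ hbx]; ring
  have hmeas : ∀ n, Measurable fun x => κ n (ρ x) * G x - d * ∫ u in (ρ x)..b, κ n u := by
    intro n
    have hc : Continuous fun s : ℝ => ∫ u in s..b, κ n u := by
      have : ∀ s : ℝ, HasDerivAt (fun s : ℝ => ∫ u in s..b, κ n u) (-(κ n s)) s := fun s =>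
        intervalIntegral.integral_hasDerivAt_left ((hκc n).intervalIntegrable _ _)
          (hκc n).aestronglyMeasurable.stronglyMeasurableAtFilter (hκc n).continuousAt
      exact continuous_iff_continuousAt.2 fun s => (this s).continuousAt
    exact (((hκc n).measurable.comp D.mρ).mul D.mG).sub
      (measurable_const.mul (hc.measurable.comp D.mρ))
  have hint : ∀ n, Integrable (fun x => w x * (κ n (ρ x) * G x - d * ∫ u in (ρ x)..b, κ n u)) μ :=
    fun n => D.integrable (hmeas n) (hbnd n) (hzero n)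
  refine tendsto_integral_of_dominated_convergence (μ := μ) _
    (fun n => (hint n).aestronglyMeasurable) hdom ?_ (Eventually.of_forall hlim)
  intro n
  refine Eventually.of_forall fun x => ?_
  rw [Real.norm_eq_abs, abs_mul, abs_of_nonneg (D.w0 x)]
  refine mul_le_mul_of_nonneg_left ?_ (D.w0 x)
  by_cases hx : ρ x < R
  · rw [indicator_of_mem (by simpa using hx)]
    exact hbnd n x hx
  · rw [indicator_of_notMem (by simpa using hx), hzero n x (not_lt.1 hx), abs_zero]

/-- the limit weight of the Lelong form -/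
noncomputable def kl (b e : ℝ) (d : ℕ) (u : ℝ) : ℝ :=
  (Ioo (-1) b).indicator (fun _ => (1:ℝ)) u * (d * ((max u 0 + e) ^ (d + 1))⁻¹)

theorem int_kl {b e : ℝ} (he : 0 < e) (s : ℝ) (h0 : 0 ≤ s) (hs : s < b) :
    ∫ u in s..b, kl b e d u = ((s + e) ^ d)⁻¹ - ((b + e) ^ d)⁻¹ := by
  have e1 : ∫ u in s..b, kl b e d u = ∫ u in s..b, (d:ℝ) * ((u + e) ^ (d + 1))⁻¹ := by
    refine intervalIntegral.integral_congr_ae ?_
    have hb : ∀ᵐ u : ℝ, u ≠ b := by
      rw [ae_iff]; simp
    filter_upwards [hb] with u hub hu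
    rw [uIoc_of_le hs.le] at hu
    have hu1 : u < b := lt_of_le_of_ne hu.2 hub
    unfold kl
    rw [indicator_of_mem (show u ∈ Ioo (-1) b from ⟨by linarith [hu.1], hu1⟩),
      max_eq_left (by linarith [hu.1] : (0:ℝ) ≤ u), one_mul]
  have key : ∀ u ∈ uIcc s b, HasDerivAt (fun v : ℝ => - ((v + e) ^ d)⁻¹)
      ((d:ℝ) * ((u + e) ^ (d + 1))⁻¹) u := by
    intro u hu
    rw [uIcc_of_le hs.le] at hu
    have hu0 : u + e ≠ 0 := by
      have := hu.1
      linarith
    have h1 : HasDerivAt (fun v : ℝ => (v + e) ^ d) ((d:ℝ) * (u + e) ^ (d - 1)) u := by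
      have := ((hasDerivAt_id u).add_const e).pow d
      rw [mul_one] at this
      exact this
    have h2 : HasDerivAt (fun v : ℝ => - ((v + e) ^ d)⁻¹)
        (-(-((d:ℝ) * (u + e) ^ (d - 1)) / ((u + e) ^ d) ^ 2)) u :=
      (h1.inv (pow_ne_zero d hu0)).neg
    have h3 : (d:ℝ) * ((u + e) ^ (d + 1))⁻¹
        = -(-((d:ℝ) * (u + e) ^ (d - 1)) / ((u + e) ^ d) ^ 2) := by
      rcases Nat.eq_zero_or_pos d with hd | hd
      · subst hd; simp
      · obtain ⟨k, rfl⟩ : ∃ k, d = k + 1 := ⟨d - 1, by omega⟩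
        have : k + 1 - 1 = k := by omega
        rw [this]
        field_simp
        ring
    rw [h3]
    exact h2
  rw [e1, intervalIntegral.integral_eq_sub_of_hasDerivAt key]
  · ring
  · refine ContinuousOn.intervalIntegrable ?_
    rw [uIcc_of_le hs.le]
    refine continuousOn_const.mul (ContinuousOn.inv₀ (by fun_prop) ?_)
    intro u hu
    have := hu.1
    exact pow_ne_zero _ (by linarith)

/-- approximations of `kl` -/
theorem exists_kl (b e : ℝ) (he : 0 < e) (d : ℕ) : ∃ κ : ℕ → ℝ → ℝ, (∀ n, Continuous (κ n)) ∧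
    (∀ n s, 0 ≤ κ n s) ∧ (∀ n s, |κ n s| ≤ d * (e ^ (d + 1))⁻¹) ∧ (∀ n s, b ≤ s → κ n s = 0) ∧
    (∀ s, Tendsto (fun n => κ n s) atTop (𝓝 (kl b e d s))) := by
  have hpos : ∀ u : ℝ, e ≤ max u 0 + e := fun u => by linarith [le_max_right u 0]
  have h0 : ∀ u : ℝ, 0 ≤ (d:ℝ) * ((max u 0 + e) ^ (d + 1))⁻¹ := fun u =>
    mul_nonneg (Nat.cast_nonneg _) (inv_nonneg.2 (pow_nonneg (he.le.trans (hpos u)) _))
  have h1 : ∀ u : ℝ, (d:ℝ) * ((max u 0 + e) ^ (d + 1))⁻¹ ≤ d * (e ^ (d + 1))⁻¹ := fun u =>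
    mul_le_mul_of_nonneg_left (inv_anti₀ (pow_pos he _) (pow_le_pow_left₀ he.le (hpos u) _))
      (Nat.cast_nonneg _)
  have hnn : ∀ n s, 0 ≤ th (-1) b n s * (d * ((max s 0 + e) ^ (d + 1))⁻¹) := fun n s =>
    mul_nonneg (th_nonneg _ _ _ _) (h0 s)
  refine ⟨fun n u => th (-1) b n u * (d * ((max u 0 + e) ^ (d + 1))⁻¹), fun n => ?_, hnn,
    fun n s => ?_, fun n s hs => ?_, fun s => ?_⟩
  · refine (th_cont _ _ _).mul (continuous_const.mul (Continuous.inv₀ (by fun_prop) ?_))
    intro u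
    exact pow_ne_zero _ (he.trans_le (hpos u)).ne'
  · simp only
    rw [abs_of_nonneg (hnn n s)]
    calc _ ≤ 1 * ((d:ℝ) * (e ^ (d + 1))⁻¹) :=
          mul_le_mul (th_le _ _ _ _) (h1 s) (h0 s) zero_le_one
      _ = _ := one_mul _
  · simp only
    rw [th_zero (Or.inr hs), zero_mul]
  · exact (th_tendsto (-1) b s).mul_const _

omit [MeasurableSpace X] in
theorem kl_integrand {b e : ℝ} (he : 0 < e) (x : X) (hρ : 0 ≤ ρ x) :
    w x * (kl b e d (ρ x) * G x - d * ∫ u in (ρ x)..b, kl b e d u)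
      = {x | ρ x < b}.indicator (fun x => d * (((b + e) ^ d)⁻¹ * w x)
        - d * (w x * (((ρ x + e) ^ d)⁻¹ * (1 - G x / (ρ x + e))))) x := by
  by_cases h : ρ x < b
  · rw [indicator_of_mem (by simpa using h), int_kl he _ hρ h]
    unfold kl
    rw [indicator_of_mem (show ρ x ∈ Ioo (-1) b from ⟨by linarith, h⟩), max_eq_left hρ]
    have h1 : ρ x + e ≠ 0 := by positivity
    have h2 : ((ρ x + e) ^ (d + 1))⁻¹ = ((ρ x + e) ^ d)⁻¹ * (ρ x + e)⁻¹ := by
      rw [pow_succ, mul_inv]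
    rw [h2, div_eq_mul_inv]
    ring
  · have h' := not_lt.1 h
    rw [indicator_of_notMem (by simpa using h')]
    have h1 : ∫ u in (ρ x)..b, kl b e d u = 0 := by
      rw [intervalIntegral.integral_congr_ae (g := fun _ => (0:ℝ))]
      · simp
      · refine Eventually.of_forall fun u hu => ?_
        rw [uIoc_of_ge h'] at hu
        rw [kl, indicator_of_notMem (by simp; intro _; exact hu.1.le), zero_mul]
    rw [h1, kl, indicator_of_notMem (by simp; intro _; exact h')]
    ring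

theorem Dat.kl_int (D : Dat μ ρ G w d R) {b e : ℝ} (hb : b ≤ R) (he : 0 < e) :
    ∫ x, w x * (kl b e d (ρ x) * G x - d * ∫ u in (ρ x)..b, kl b e d u) ∂μ
      = d * (((b + e) ^ d)⁻¹ * ∫ x in {x | ρ x < b}, w x ∂μ)
        - d * ∫ x in {x | ρ x < b}, w x * (((ρ x + e) ^ d)⁻¹ * (1 - G x / (ρ x + e))) ∂μ := by
  have hBm : MeasurableSet {x | ρ x < b} := measurableSet_lt D.mρ measurable_const
  have hIb : IntegrableOn w {x | ρ x < b} μ :=
    D.int.mono_set fun x (hx : ρ x < b) => (hx.trans_le hb : ρ x < R)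
  have hI2 : IntegrableOn (fun x => w x * (((ρ x + e) ^ d)⁻¹ * (1 - G x / (ρ x + e))))
      {x | ρ x < b} μ := by
    refine Integrable.mul_bdd (c := (e ^ d)⁻¹) hIb ?_ ?_
    · refine Measurable.aestronglyMeasurable ?_
      have h1 : Measurable fun x => ρ x + e := D.mρ.add measurable_const
      exact (h1.pow_const d).inv.mul (measurable_const.sub (D.mG.div h1))
    · refine Eventually.of_forall fun x => ?_
      have h0 := D.ρ0 x
      have h1 := D.G0 x
      have h2 := D.Gρ x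
      have h3 : 0 < ρ x + e := by linarith
      have h4 : 0 ≤ G x / (ρ x + e) := div_nonneg h1 h3.le
      have h5 : G x / (ρ x + e) ≤ 1 := by rw [div_le_one h3]; linarith
      rw [Real.norm_eq_abs, abs_mul, abs_of_nonneg (inv_nonneg.2 (pow_nonneg h3.le _)),
        abs_of_nonneg (by linarith : 0 ≤ 1 - G x / (ρ x + e))]
      calc _ ≤ (e ^ d)⁻¹ * 1 :=
            mul_le_mul (inv_anti₀ (pow_pos he _) (pow_le_pow_left₀ he.le (by linarith) _))
              (by linarith) (by linarith) (inv_nonneg.2 (pow_nonneg he.le _))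
        _ = _ := mul_one _
  rw [integral_congr_ae (Eventually.of_forall fun x => kl_integrand (w := w) (G := G) he x (D.ρ0 x)),
    integral_indicator hBm, integral_sub ((hIb.const_mul _).const_mul _) (hI2.const_mul _),
    integral_const_mul, integral_const_mul, integral_const_mul]

/-- **(M3, inequality)** Lelong form -/
theorem Dat.lelong (D : Dat μ ρ G w d R) (hd : 0 < d) {b e : ℝ} (hb0 : 0 ≤ b) (hb : b ≤ R)
    (he : 0 < e) :
    ∫ x in {x | ρ x < b}, w x * (((ρ x + e) ^ d)⁻¹ * (1 - G x / (ρ x + e))) ∂μ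
      ≤ ((b + e) ^ d)⁻¹ * ∫ x in {x | ρ x < b}, w x ∂μ := by
  obtain ⟨κ, h1, h2, h3, h4, h5⟩ := exists_kl b e he d
  have h := ge_of_tendsto (D.lim h1 h3 hb0 hb h4 h5)
    (Eventually.of_forall fun n => D.test' (h1 n) (h2 n) hb (h4 n))
  rw [D.kl_int hb he] at h
  have hd' : (0 : ℝ) < d := by exact_mod_cast hd
  refine le_of_mul_le_mul_left ?_ hd'
  linarith

/-- **(M3, equality)** Lelong form -/
theorem Dat.lelong_eq (D : Dat μ ρ G w d R) (hE : SE μ ρ G w d R) (hd : 0 < d) {b e : ℝ}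
    (hb0 : 0 ≤ b) (hb : b ≤ R) (he : 0 < e) :
    ∫ x in {x | ρ x < b}, w x * (((ρ x + e) ^ d)⁻¹ * (1 - G x / (ρ x + e))) ∂μ
      = ((b + e) ^ d)⁻¹ * ∫ x in {x | ρ x < b}, w x ∂μ := by
  obtain ⟨κ, h1, h2, h3, h4, h5⟩ := exists_kl b e he d
  have h := tendsto_nhds_unique (D.lim h1 h3 hb0 hb h4 h5)
    (tendsto_const_nhds.congr fun n => (hE.test' (h1 n) hb (h4 n)).symm)
  rw [D.kl_int hb he] at h
  have hd' : (0 : ℝ) < d := by exact_mod_cast hd
  refine le_antisymm ?_ ?_ <;> refine le_of_mul_le_mul_left ?_ hd' <;> linarith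

/-- **(M2, point form)** mean value inequality: `w` lower semicontinuous at the point, the
measure has density at least `c` there -/
theorem Dat.point (D : Dat μ ρ G w d R) (hd : 0 < d) {w0 c : ℝ} (hw0 : 0 ≤ w0) (hc0 : 0 ≤ c)
    (hw : ∀ η > 0, ∃ r > 0, ∀ x, ρ x < r → w0 - η ≤ w x)
    (hc : ∀ η > 0, ∃ r > 0, ∀ a, 0 < a → a < r → (c - η) * a ^ d ≤ μ.real {x | ρ x ≤ a})
    {b : ℝ} (hb0 : 0 < b) (hb : b ≤ R) :
    c * w0 * b ^ d ≤ ∫ x in {x | ρ x < b}, w x ∂μ := by
  have hI0 : ∀ S : Set X, 0 ≤ ∫ x in S, w x ∂μ := fun S => integral_nonneg fun x => D.w0 x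
  rcases hw0.eq_or_lt with h0 | h0
  · rw [← h0]; simpa using hI0 _
  rcases hc0.eq_or_lt with h0' | h0'
  · rw [← h0']; simpa using hI0 _
  have key : ∀ η, 0 < η → η < w0 → η < c →
      (c - η) * (w0 - η) * b ^ d ≤ ∫ x in {x | ρ x < b}, w x ∂μ := by
    intro η hη h1 h2
    obtain ⟨r1, hr1, hw1⟩ := hw η hη
    obtain ⟨r2, hr2, hc2⟩ := hc η hη
    set a := min (min (r1 / 2) (r2 / 2)) (b / 2) with ha
    have ha0 : 0 < a := by positivity
    have ha1 : a < r1 := by
      have : a ≤ r1 / 2 := (min_le_left _ _).trans (min_le_left _ _)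
      linarith
    have ha2 : a < r2 := by
      have : a ≤ r2 / 2 := (min_le_left _ _).trans (min_le_right _ _)
      linarith
    have hab : a < b := by
      have : a ≤ b / 2 := min_le_right _ _
      linarith
    have hAm : MeasurableSet {x | ρ x ≤ a} := measurableSet_le D.mρ measurable_const
    refine D.lower hd ha0 hab hb ?_
    have h3 := hc2 a ha0 ha2
    have h4 : (w0 - η) * μ.real {x | ρ x ≤ a} ≤ ∫ x in {x | ρ x ≤ a}, w x ∂μ := by
      by_cases hfin : μ {x | ρ x ≤ a} = ⊤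
      · rw [Measure.real, hfin]; simpa using hI0 _
      · have hIa : IntegrableOn w {x | ρ x ≤ a} μ :=
          D.int.mono_set fun x (hx : ρ x ≤ a) => ((hx.trans_lt hab).trans_le hb : ρ x < R)
        have := setIntegral_mono_on (μ := μ) (s := {x | ρ x ≤ a}) (f := fun _ => w0 - η) (g := w)
          (integrableOn_const hfin) hIa hAm fun x hx => hw1 x (lt_of_le_of_lt hx ha1)
        rw [setIntegral_const, smul_eq_mul, mul_comm] at this
        exact this
    calc (c - η) * (w0 - η) * a ^ d = (w0 - η) * ((c - η) * a ^ d) := by ring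
      _ ≤ (w0 - η) * μ.real {x | ρ x ≤ a} :=
          mul_le_mul_of_nonneg_left h3 (by linarith)
      _ ≤ _ := h4
  have hcont : Tendsto (fun η : ℝ => (c - η) * (w0 - η) * b ^ d) (𝓝[>] 0)
      (𝓝 ((c - 0) * (w0 - 0) * b ^ d)) := by
    have : Continuous fun η : ℝ => (c - η) * (w0 - η) * b ^ d := by fun_prop
    exact (this.tendsto 0).mono_left nhdsWithin_le_nhds
  rw [sub_zero, sub_zero] at hcont
  refine le_of_tendsto hcont ?_
  filter_upwards [Ioo_mem_nhdsGT (lt_min h0 h0')] with η hη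
  exact key η hη.1 (hη.2.trans_le (min_le_left _ _)) (hη.2.trans_le (min_le_right _ _))

end Crest.Agent.R281.Mo_192
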