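import Crest.Agent.R281.Jen1_563
import Crest.Agent.R273.Defs_333

/-!
# Row 281, task MOV (helper625), part 1: energies on almost every complex line

* `lap_line`  : the Laplacian of `s ↦ u (z + s w)` is `lev u (z + s w) w`
* `avg_line`  : `∫ h = ∫_z ∫_s ρ(s) h(z + s w)`
* `line_lim`  : if `0 ≤ g k ≤ lev (u k) w + c k`, `g k → 0` locally uniformly on the open set `G`,
  `|u k| ≤ U ∈ L¹`, `c k ≤ C`, and almost every complex line of direction `w` stays in `G`, then
  `∫ η g k → 0` for every test function `η ≥ 0`.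
-/

set_option autoImplicit false
set_option linter.unusedSectionVars false

open Set Filter Topology MeasureTheory Complex Metric
open scoped ContDiff

namespace Crest.Agent.R281.Mov_625

open Crest.Agent.R281.Jen_563
open Crest.Agent.R275.Geo Crest.Agent.R273.Defs_333

noncomputable section

variable {n : ℕ}

/-- derivative along a complex line -/
theorem D_line {u : Cn n → ℝ} {z w : Cn n} {s : ℂ} (v : ℂ)
    (hu : DifferentiableAt ℝ u (z + s • w)) :
    D v (fun t : ℂ => u (z + t • w)) s = fderiv ℝ u (z + s • w) (v • w) := by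
  have h1 : HasFDerivAt (fun t : ℂ => z + t • w)
      ((ContinuousLinearMap.id ℝ ℂ).smulRight w) s := by
    have h2 : HasFDerivAt (fun t : ℂ => t • w) ((ContinuousLinearMap.id ℝ ℂ).smulRight w) s :=
      ((ContinuousLinearMap.id ℝ ℂ).smulRight w).hasFDerivAt
    simpa using h2.const_add z
  have h3 := hu.hasFDerivAt.comp s h1
  unfold D
  have h4 : (fun t : ℂ => u (z + t • w)) = u ∘ fun t : ℂ => z + t • w := rfl
  rw [h4, h3.fderiv]
  simp

theorem lap_line {u : Cn n → ℝ} {z w : Cn n} {s : ℂ} (hu : ContDiffAt ℝ 2 u (z + s • w)) :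
    lap (fun t : ℂ => u (z + t • w)) s = lev u (z + s • w) w := by
  have hc : Continuous fun t : ℂ => z + t • w := by fun_prop
  have hd : ∀ᶠ t in 𝓝 s, DifferentiableAt ℝ u (z + t • w) := by
    have h1 : ∀ᶠ y in 𝓝 (z + s • w), ContDiffAt ℝ 2 u y := hu.eventually (by simp)
    filter_upwards [hc.continuousAt.eventually h1] with t ht
    exact ht.differentiableAt (by norm_num)
  have key : ∀ v : ℂ, D v (D v fun t : ℂ => u (z + t • w)) s =
      iteratedFDeriv ℝ 2 u (z + s • w) ![v • w, v • w] := by
    intro v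
    have h1 : D v (fun t : ℂ => u (z + t • w)) =ᶠ[𝓝 s]
        fun t => (fun y => fderiv ℝ u y (v • w)) (z + t • w) := by
      filter_upwards [hd] with t ht
      exact D_line v ht
    have h2 : DifferentiableAt ℝ (fderiv ℝ u) (z + s • w) :=
      (hu.fderiv_right (m := 1) (by norm_num)).differentiableAt (by norm_num)
    have h3 : HasFDerivAt (fun y => fderiv ℝ u y (v • w))
        ((ContinuousLinearMap.apply ℝ ℝ (v • w)).comp (fderiv ℝ (fderiv ℝ u) (z + s • w)))
        (z + s • w) :=
      (ContinuousLinearMap.apply ℝ ℝ (v • w)).hasFDerivAt.comp _ h2.hasFDerivAt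
    have h4 : D v (D v fun t : ℂ => u (z + t • w)) s =
        D v (fun t => (fun y => fderiv ℝ u y (v • w)) (z + t • w)) s := by
      unfold D at h1 ⊢
      rw [h1.fderiv_eq]
    rw [h4, D_line v h3.differentiableAt, h3.fderiv, iteratedFDeriv_two_apply]
    simp
  unfold lap lev
  rw [key, key]
  simp

section avg

variable {μ : Measure (Cn n)} [μ.IsAddHaarMeasure]

/-- the function on the product -/
theorem integrable_prod_line {ρ : ℂ → ℝ} (hρ : Continuous ρ) (hρc : HasCompactSupport ρ)
    {h : Cn n → ℝ} (hh : Continuous h) (hhc : HasCompactSupport h) (w : Cn n) :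
    Integrable (fun p : Cn n × ℂ => ρ p.2 * h (p.1 + p.2 • w)) (μ.prod volume) := by
  have hc : Continuous fun p : Cn n × ℂ => ρ p.2 * h (p.1 + p.2 • w) := by fun_prop
  refine hc.integrable_of_hasCompactSupport ?_
  have hK : IsCompact ((fun p : Cn n × ℂ => (p.1 - p.2 • w, p.2)) '' (tsupport h ×ˢ tsupport ρ)) :=
    (hhc.isCompact.prod hρc.isCompact).image (by fun_prop)
  refine HasCompactSupport.of_support_subset_isCompact hK fun p hp => ?_
  have hp' : ρ p.2 * h (p.1 + p.2 • w) ≠ 0 := hp
  refine ⟨(p.1 + p.2 • w, p.2), ⟨subset_tsupport _ (right_ne_zero_of_mul hp'),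
    subset_tsupport _ (left_ne_zero_of_mul hp')⟩, ?_⟩
  ext <;> simp

theorem avg_line {ρ : ℂ → ℝ} (hρ : Continuous ρ) (hρc : HasCompactSupport ρ)
    (hρ1 : ∫ s, ρ s = 1) {h : Cn n → ℝ} (hh : Continuous h) (hhc : HasCompactSupport h)
    (w : Cn n) :
    ∫ z, (∫ s, ρ s * h (z + s • w)) ∂μ = ∫ z, h z ∂μ := by
  have h1 := integrable_prod_line (μ := μ) hρ hρc hh hhc w
  rw [integral_integral_swap h1]
  have h2 : ∀ s : ℂ, ∫ z, ρ s * h (z + s • w) ∂μ = ρ s * ∫ z, h z ∂μ := by
    intro s
    rw [integral_const_mul, integral_add_right_eq_self (fun z => h z)]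
  simp only [h2]
  rw [integral_mul_const, hρ1, one_mul]

end avg

/-- the product test function -/
theorem lap_bdd {ρ : ℂ → ℝ} (hρ : ContDiff ℝ ∞ ρ) (hρc : HasCompactSupport ρ)
    {η : Cn n → ℝ} (hη : ContDiff ℝ ∞ η) (hηc : HasCompactSupport η) (w : Cn n) :
    ∃ B : ℝ, 0 ≤ B ∧ ∀ (z : Cn n) (s : ℂ),
      |lap (fun t : ℂ => ρ t * η (z + t • w)) s| ≤ B := by
  set α : Cn n × ℂ → ℝ := fun p => ρ p.2 * η (p.1 + p.2 • w) with hα
  have hαs : ContDiff ℝ ∞ α := by
    refine (hρ.comp contDiff_snd).mul (hη.comp ?_)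
    exact contDiff_fst.add (contDiff_snd.smul contDiff_const)
  have hαc : HasCompactSupport α := by
    have hK : IsCompact ((fun p : Cn n × ℂ => (p.1 - p.2 • w, p.2)) ''
        (tsupport η ×ˢ tsupport ρ)) :=
      (hηc.isCompact.prod hρc.isCompact).image (by fun_prop)
    refine HasCompactSupport.of_support_subset_isCompact hK fun p hp => ?_
    have hp' : ρ p.2 * η (p.1 + p.2 • w) ≠ 0 := hp
    refine ⟨(p.1 + p.2 • w, p.2), ⟨subset_tsupport _ (right_ne_zero_of_mul hp'),
      subset_tsupport _ (left_ne_zero_of_mul hp')⟩, ?_⟩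
    ext <;> simp
  -- the directional derivatives
  have dir : ∀ {β : Cn n × ℂ → ℝ}, ContDiff ℝ ∞ β → ∀ (v : ℂ) (z : Cn n) (s : ℂ),
      D v (fun t => β (z, t)) s = fderiv ℝ β (z, s) (0, v) := by
    intro β hβ v z s
    have h1 : HasFDerivAt (fun t : ℂ => (z, t)) (ContinuousLinearMap.inr ℝ (Cn n) ℂ) s :=
      hasFDerivAt_prodMk_right z s
    have h2 := ((hβ.differentiable (by simp)) (z, s)).hasFDerivAt.comp s h1
    unfold D
    have h3 : (fun t => β (z, t)) = β ∘ fun t : ℂ => (z, t) := rfl
    rw [h3, h2.fderiv]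
    simp
  have sm1 : ∀ {β : Cn n × ℂ → ℝ}, ContDiff ℝ ∞ β → ∀ v : ℂ,
      ContDiff ℝ ∞ (fun p => fderiv ℝ β p (0, v)) := fun hβ v =>
    (hβ.fderiv_right (m := ∞) (by simp)).clm_apply contDiff_const
  have cs1 : ∀ {β : Cn n × ℂ → ℝ}, HasCompactSupport β → ∀ v : ℂ,
      HasCompactSupport (fun p => fderiv ℝ β p (0, v)) := fun hβ v =>
    hβ.fderiv_apply ℝ (0, v)
  have two : ∀ (v : ℂ) (z : Cn n) (s : ℂ), D v (D v fun t => α (z, t)) s =
      fderiv ℝ (fun p => fderiv ℝ α p (0, v)) (z, s) (0, v) := by
    intro v z s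
    have h1 : D v (fun t => α (z, t)) = fun t => (fun p => fderiv ℝ α p (0, v)) (z, t) :=
      funext fun t => dir hαs v z t
    rw [h1]
    exact dir (sm1 hαs v) v z s
  have bd : ∀ v : ℂ, ∃ B, ∀ p, ‖fderiv ℝ (fun p => fderiv ℝ α p (0, v)) p (0, v)‖ ≤ B := fun v =>
    (cs1 (cs1 hαc v) v).exists_bound_of_continuous (sm1 (sm1 hαs v) v).continuous
  obtain ⟨B1, hB1⟩ := bd 1
  obtain ⟨B2, hB2⟩ := bd Complex.I
  refine ⟨B1 + B2, add_nonneg ((norm_nonneg _).trans (hB1 (0, 0)))
    ((norm_nonneg _).trans (hB2 (0, 0))), fun z s => ?_⟩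
  have e : lap (fun t : ℂ => ρ t * η (z + t • w)) s =
      D 1 (D 1 fun t => α (z, t)) s + D Complex.I (D Complex.I fun t => α (z, t)) s := rfl
  rw [e, two, two]
  exact (abs_add_le _ _).trans (add_le_add (by simpa using hB1 (z, s)) (by simpa using hB2 (z, s)))

theorem lap_zero_off (a : ℂ → ℝ) {t : ℂ} (h : t ∉ tsupport a) : lap a t = 0 := by
  have h1 : ∀ v, D v (D v a) t = 0 := fun v =>
    image_eq_zero_of_notMem_tsupport fun h' => h ((tsupport_D a v) ((tsupport_D (D v a) v) h'))
  unfold lap
  rw [h1, h1, add_zero]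

theorem tsupport_lap (a : ℂ → ℝ) : tsupport (lap a) ⊆ tsupport a :=
  closure_minimal (fun t ht => by
    by_contra h'
    exact ht (lap_zero_off a h')) (isClosed_tsupport a)

section lim

variable {μ : Measure (Cn n)} [μ.IsAddHaarMeasure]

/-- integrability of the majorant -/
theorem integrable_maj {S : Set ℂ} (hS : IsCompact S) {V : Cn n → ℝ} (hVm : Measurable V)
    (hVi : Integrable V μ) (w : Cn n) :
    Integrable (fun p : Cn n × ℂ => S.indicator (fun _ => (1 : ℝ)) p.2 * V (p.1 + p.2 • w))
      (μ.prod volume) := by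
  have hm : Measurable fun p : Cn n × ℂ =>
      S.indicator (fun _ => (1 : ℝ)) p.2 * V (p.1 + p.2 • w) := by
    refine ((measurable_const.indicator hS.measurableSet).comp measurable_snd).mul
      (hVm.comp ?_)
    have : Continuous fun p : Cn n × ℂ => p.1 + p.2 • w := by fun_prop
    exact this.measurable
  rw [integrable_prod_iff' hm.aestronglyMeasurable]
  have h0 : ∀ s : ℂ, Integrable (fun z => V (z + s • w)) μ := fun s => hVi.comp_add_right _
  refine ⟨Eventually.of_forall fun s => (h0 s).const_mul (S.indicator (fun _ => (1 : ℝ)) s), ?_⟩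
  have h1 : (fun s : ℂ => ∫ z, ‖S.indicator (fun _ => (1 : ℝ)) s * V (z + s • w)‖ ∂μ) =
      fun s => S.indicator (fun _ => ∫ z, ‖V z‖ ∂μ) s := by
    funext s
    by_cases hs : s ∈ S
    · simp only [indicator_of_mem hs, one_mul]
      exact integral_add_right_eq_self (fun z => ‖V z‖) _
    · simp [indicator_of_notMem hs]
  rw [h1]
  refine (integrable_indicator_iff hS.measurableSet).2 ?_
  exact integrableOn_const (hS.measure_lt_top.ne)

/-- **energies on almost every complex line** -/
theorem line_lim {Ω G : Set (Cn n)} (hΩ : IsOpen Ω) {w z₀ : Cn n} {r : ℝ}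
    (hball : ball z₀ r ⊆ Ω) {u c g : ℕ → Cn n → ℝ} (hu : ∀ k, ContDiffOn ℝ 2 (u k) Ω)
    (hc : ∀ k, ContinuousOn (c k) Ω) (hg : ∀ k, ContinuousOn (g k) Ω)
    (hg0 : ∀ k, ∀ z ∈ Ω, 0 ≤ g k z) (hgp : ∀ k, ∀ z ∈ Ω, g k z ≤ lev (u k) z w + c k z)
    {η : Cn n → ℝ} (hη : ContDiff ℝ ∞ η) (hηc : HasCompactSupport η)
    (hηs : tsupport η ⊆ ball z₀ r) (hη0 : ∀ z, 0 ≤ η z)
    {U : Cn n → ℝ} (hUm : Measurable U) (hUi : Integrable U μ) (hU0 : ∀ z, 0 ≤ U z)
    (hU : ∀ k, ∀ z ∈ G ∩ tsupport η, |u k z| ≤ U z)
    {C : ℝ} (hC : ∀ k, ∀ z ∈ tsupport η, c k z ≤ C)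
    (hline : ∀ᵐ z ∂μ, z ∈ ball z₀ r → ∀ s : ℂ, z + s • w ∈ ball z₀ r → z + s • w ∈ G)
    (hlim : ∀ K ⊆ G ∩ Ω, IsCompact K → ∀ δ > (0 : ℝ), ∀ᶠ k in atTop, ∀ z ∈ K, g k z ≤ δ) :
    Tendsto (fun k => ∫ z, η z * g k z ∂μ) atTop (𝓝 0) := by
  -- the radius
  obtain ⟨δ, hδ, hthick⟩ := hηc.isCompact.exists_thickening_subset_open isOpen_ball hηs
  set R : ℝ := δ / (‖w‖ + 1) with hR
  have hR0 : 0 < R := div_pos hδ (by positivity)
  have hRw : ∀ s : ℂ, ‖s‖ < R → ‖s • w‖ < δ := by
    intro s hs
    rw [norm_smul]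
    have h1 : 0 < ‖w‖ + 1 := by positivity
    have h2 : ‖s‖ * (‖w‖ + 1) < δ := by
      have := mul_lt_mul_of_pos_right hs h1
      rwa [hR, div_mul_cancel₀ _ h1.ne'] at this
    nlinarith [norm_nonneg s, norm_nonneg w]
  let f : ContDiffBump (0 : ℂ) := ⟨R / 4, R / 2, by positivity, by linarith⟩
  set ρ : ℂ → ℝ := f.normed volume with hρd
  have hρ : ContDiff ℝ ∞ ρ := f.contDiff_normed
  have hρ0 : ∀ s, 0 ≤ ρ s := fun s => f.nonneg_normed s
  have hρ1 : ∫ s, ρ s = 1 := f.integral_normed
  have hρt : tsupport ρ = closedBall 0 (R / 2) := f.tsupport_normed_eq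
  have hρc : HasCompactSupport ρ := f.hasCompactSupport_normed
  have hρb : ∀ s ∈ tsupport ρ, ‖s‖ < R := by
    intro s hs
    rw [hρt, mem_closedBall_zero_iff] at hs
    linarith
  -- centres of the lines are in the ball
  have hcen : ∀ (z : Cn n) (s : ℂ), s ∈ tsupport ρ → z + s • w ∈ tsupport η → z ∈ ball z₀ r := by
    intro z s hs hz
    refine hthick (Metric.mem_thickening_iff.2 ⟨z + s • w, hz, ?_⟩)
    rw [dist_eq_norm]
    have : z - (z + s • w) = -(s • w) := by abel
    rw [this, norm_neg]
    exact hRw s (hρb s hs)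
  set h : ℕ → Cn n → ℝ := fun k z => η z * g k z with hh
  have hhts : ∀ k, tsupport (h k) ⊆ tsupport η := fun k =>
    tsupport_mul_subset_left
  have hhc : ∀ k, Continuous (h k) := fun k =>
    ContinuousOn.continuous_of_tsupport_subset (s := Ω) (hη.continuous.continuousOn.mul (hg k)) hΩ
      ((hhts k).trans (hηs.trans hball))
  have hhcs : ∀ k, HasCompactSupport (h k) := fun k =>
    IsCompact.of_isClosed_subset hηc (isClosed_tsupport _) (hhts k)
  have hh0 : ∀ k z, 0 ≤ h k z := by
    intro k z
    by_cases hz : z ∈ tsupport η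
    · exact mul_nonneg (hη0 z) (hg0 k z (hball (hηs hz)))
    · simp [hh, image_eq_zero_of_notMem_tsupport hz]
  have e1 : ∀ k, ∫ z, η z * g k z ∂μ = ∫ z, (∫ s, ρ s * h k (z + s • w)) ∂μ := fun k =>
    (avg_line hρ.continuous hρc hρ1 (hhc k) (hhcs k) w).symm
  simp only [e1]
  obtain ⟨B, hB0, hB⟩ := lap_bdd hρ hρc hη hηc w
  obtain ⟨Bρ, hBρ⟩ := hρc.exists_bound_of_continuous hρ.continuous
  obtain ⟨Bη, hBη⟩ := hηc.exists_bound_of_continuous hη.continuous
  have hBρ0 : 0 ≤ Bρ := (norm_nonneg _).trans (hBρ 0)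
  have hBη0 : 0 ≤ Bη := (norm_nonneg _).trans (hBη 0)
  set S : Set ℂ := tsupport ρ with hS
  have hSc : IsCompact S := hρc
  -- majorant
  set V : Cn n → ℝ := (tsupport η).indicator fun z => B * U z + Bρ * Bη * |C| with hV
  have hVm : Measurable V :=
    ((measurable_const.mul hUm).add measurable_const).indicator (isClosed_tsupport η).measurableSet
  have hVi : Integrable V μ := by
    rw [hV, integrable_indicator_iff (isClosed_tsupport η).measurableSet]
    exact ((hUi.const_mul B).integrableOn).add (integrableOn_const hηc.isCompact.measure_lt_top.ne)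
  have hV0 : ∀ z, 0 ≤ V z := fun z => indicator_nonneg (fun z _ => by
    have := hU0 z
    positivity) z
  have hmaj := integrable_maj (μ := μ) hSc hVm hVi w
  have key := tendsto_integral_of_dominated_convergence (μ := μ)
    (F := fun k z => ∫ s, ρ s * h k (z + s • w)) (f := fun _ => (0 : ℝ))
    (fun z => ∫ s, S.indicator (fun _ => (1 : ℝ)) s * V (z + s • w)) ?_ ?_ ?_ ?_
  · simpa using key
  · intro k
    exact (integrable_prod_line (μ := μ) hρ.continuous hρc (hhc k) (hhcs k)
      w).integral_prod_left.aestronglyMeasurable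
  · exact hmaj.integral_prod_left
  · intro k
    have hi2 := hmaj.prod_right_ae
    filter_upwards [hline, hi2] with z hz hiz
    have hn : 0 ≤ ∫ s, ρ s * h k (z + s • w) :=
      integral_nonneg fun s => mul_nonneg (hρ0 s) (hh0 k _)
    rw [Real.norm_of_nonneg hn]
    by_cases hzb : z ∈ ball z₀ r
    swap
    · have : ∀ s, ρ s * h k (z + s • w) = 0 := by
        intro s
        by_cases hs : s ∈ S
        · have : z + s • w ∉ tsupport η := fun h' => hzb (hcen z s hs h')
          simp [hh, image_eq_zero_of_notMem_tsupport this]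
        · simp [image_eq_zero_of_notMem_tsupport hs]
      simp only [this, integral_zero]
      exact integral_nonneg fun s => mul_nonneg (indicator_nonneg (fun _ _ => zero_le_one) s)
        (hV0 _)
    set a : ℂ → ℝ := fun t => ρ t * η (z + t • w) with ha
    have has : ContDiff ℝ ∞ a := hρ.mul (hη.comp (contDiff_const.add
      (contDiff_id.smul contDiff_const)))
    have hats : tsupport a ⊆ S := tsupport_mul_subset_left
    have hac : HasCompactSupport a :=
      IsCompact.of_isClosed_subset hρc (isClosed_tsupport _) hats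
    have hats2 : ∀ s ∈ tsupport a, z + s • w ∈ tsupport η := by
      intro s hs
      have hcl : IsClosed {t : ℂ | z + t • w ∈ tsupport η} :=
        (isClosed_tsupport η).preimage (by fun_prop)
      refine (closure_minimal (fun t ht => ?_) hcl) hs
      have ht' : ρ t * η (z + t • w) ≠ 0 := ht
      exact subset_tsupport _ (right_ne_zero_of_mul ht')
    set O : Set ℂ := {t | z + t • w ∈ Ω} with hO
    have hOo : IsOpen O := hΩ.preimage (by fun_prop)
    have hbs : ContDiffOn ℝ 2 (fun t : ℂ => u k (z + t • w)) O :=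
      (hu k).comp ((contDiff_const.add (contDiff_id.smul contDiff_const)).contDiffOn)
        fun t ht => ht
    have hasO : tsupport a ⊆ O := fun s hs => hball (hηs (hats2 s hs))
    have has2 : ContDiff ℝ 2 a := has.of_le (WithTop.coe_le_coe.2 le_top)
    have hgreen := green hOo hbs has2 hac hasO
    have cc : ContinuousOn (fun t : ℂ => c k (z + t • w)) O :=
      (hc k).comp (by fun_prop) fun t ht => ht
    have i1 : Integrable fun s => lap (fun t : ℂ => u k (z + t • w)) s * a s := by
      refine Continuous.integrable_of_hasCompactSupport ?_ (hac.mul_left)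
      exact ContinuousOn.continuous_of_tsupport_subset
        ((lap_continuousOn hOo hbs).mul has.continuous.continuousOn) hOo
        (tsupport_mul_subset_right.trans hasO)
    have i2 : Integrable fun s => c k (z + s • w) * a s := by
      refine Continuous.integrable_of_hasCompactSupport ?_ (hac.mul_left)
      exact ContinuousOn.continuous_of_tsupport_subset
        (cc.mul has.continuous.continuousOn) hOo (tsupport_mul_subset_right.trans hasO)
    have i3 : Integrable fun s => u k (z + s • w) * lap a s := by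
      refine Continuous.integrable_of_hasCompactSupport ?_ ?_
      · refine ContinuousOn.continuous_of_tsupport_subset (s := O)
          (hbs.continuousOn.mul (lap_continuousOn isOpen_univ has2.contDiffOn |>.mono
            (subset_univ _))) hOo ?_
        exact tsupport_mul_subset_right.trans ((tsupport_lap a).trans hasO)
      · exact HasCompactSupport.mul_left
          (IsCompact.of_isClosed_subset hac (isClosed_tsupport _) (tsupport_lap a))
    have i0 : Integrable fun s => ρ s * h k (z + s • w) := by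
      refine Continuous.integrable_of_hasCompactSupport ?_ (hρc.mul_right)
      exact hρ.continuous.mul ((hhc k).comp (by fun_prop))
    calc ∫ s, ρ s * h k (z + s • w)
        ≤ ∫ s, (lap (fun t : ℂ => u k (z + t • w)) s * a s + c k (z + s • w) * a s) := by
          refine integral_mono i0 (i1.add i2) fun s => ?_
          show ρ s * (η (z + s • w) * g k (z + s • w)) ≤ _
          by_cases hs : z + s • w ∈ Ω
          · have hk := hgp k _ hs
            have h2 : lap (fun t : ℂ => u k (z + t • w)) s = lev (u k) (z + s • w) w :=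
              lap_line ((hu k).contDiffAt (hΩ.mem_nhds hs))
            have h3 : 0 ≤ a s := mul_nonneg (hρ0 s) (hη0 _)
            calc ρ s * (η (z + s • w) * g k (z + s • w)) = g k (z + s • w) * a s := by
                  simp only [ha]; ring
              _ ≤ (lev (u k) (z + s • w) w + c k (z + s • w)) * a s :=
                  mul_le_mul_of_nonneg_right hk h3
              _ = _ := by simp only [h2]; ring
          · have h0 : η (z + s • w) = 0 :=
              image_eq_zero_of_notMem_tsupport fun h' => hs (hball (hηs h'))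
            simp [ha, h0]
      _ = (∫ s, u k (z + s • w) * lap a s) + ∫ s, c k (z + s • w) * a s := by
          rw [integral_add i1 i2, hgreen]
      _ = ∫ s, (u k (z + s • w) * lap a s + c k (z + s • w) * a s) := by
          rw [integral_add i3 i2]
      _ ≤ ∫ s, S.indicator (fun _ => (1 : ℝ)) s * V (z + s • w) := by
          refine integral_mono (i3.add i2) hiz fun s => ?_
          by_cases hs : s ∈ tsupport a
          · have hsη := hats2 s hs
            have hsG : z + s • w ∈ G := hz hzb s (hηs hsη)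
            have hVs : V (z + s • w) = B * U (z + s • w) + Bρ * Bη * |C| :=
              indicator_of_mem hsη _
            have h1 : u k (z + s • w) * lap a s ≤ B * U (z + s • w) := by
              calc u k (z + s • w) * lap a s ≤ |u k (z + s • w) * lap a s| := le_abs_self _
                _ = |u k (z + s • w)| * |lap a s| := abs_mul _ _
                _ ≤ U (z + s • w) * B :=
                    mul_le_mul (hU k _ ⟨hsG, hsη⟩) (hB z s) (abs_nonneg _) (hU0 _)
                _ = _ := mul_comm _ _
            have h2 : c k (z + s • w) * a s ≤ Bρ * Bη * |C| := by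
              have h3 : 0 ≤ a s := mul_nonneg (hρ0 s) (hη0 _)
              have h4 : a s ≤ Bρ * Bη :=
                mul_le_mul ((le_abs_self _).trans (hBρ s)) ((le_abs_self _).trans (hBη _))
                  (hη0 _) hBρ0
              calc c k (z + s • w) * a s ≤ |C| * a s :=
                    mul_le_mul_of_nonneg_right ((hC k _ hsη).trans (le_abs_self _)) h3
                _ ≤ |C| * (Bρ * Bη) := mul_le_mul_of_nonneg_left h4 (abs_nonneg _)
                _ = _ := mul_comm _ _
            show u k (z + s • w) * lap a s + c k (z + s • w) * a s ≤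
              S.indicator (fun _ => (1 : ℝ)) s * V (z + s • w)
            rw [indicator_of_mem (hats hs), one_mul, hVs]
            exact add_le_add h1 h2
          · show u k (z + s • w) * lap a s + c k (z + s • w) * a s ≤
              S.indicator (fun _ => (1 : ℝ)) s * V (z + s • w)
            rw [lap_zero_off a hs, image_eq_zero_of_notMem_tsupport hs, mul_zero, mul_zero,
              add_zero]
            exact mul_nonneg (indicator_nonneg (fun _ _ => zero_le_one) s) (hV0 _)
  · filter_upwards [hline] with z hz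
    by_cases hzb : z ∈ ball z₀ r
    swap
    · have : ∀ k s, ρ s * h k (z + s • w) = 0 := by
        intro k s
        by_cases hs : s ∈ S
        · have : z + s • w ∉ tsupport η := fun h' => hzb (hcen z s hs h')
          simp [hh, image_eq_zero_of_notMem_tsupport this]
        · simp [image_eq_zero_of_notMem_tsupport hs]
      simp only [this, integral_zero]
      exact tendsto_const_nhds
    set K : Set (Cn n) := (fun s : ℂ => z + s • w) '' S ∩ tsupport η with hK
    have hKc : IsCompact K :=
      (hSc.image (by fun_prop)).inter_right (isClosed_tsupport η)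
    have hKG : K ⊆ G ∩ Ω := by
      rintro _ ⟨⟨s, hs, rfl⟩, hy⟩
      exact ⟨hz hzb s (hηs hy), hball (hηs hy)⟩
    refine tendsto_order.2 ⟨fun b hb => Eventually.of_forall fun k => hb.trans_le
      (integral_nonneg fun s => mul_nonneg (hρ0 s) (hh0 k _)), fun b hb => ?_⟩
    set δ' : ℝ := b / (2 * (Bη + 1)) with hδ'
    have hδ0 : 0 < δ' := by positivity
    filter_upwards [hlim K hKG hKc δ' hδ0] with k hk
    have i0 : Integrable fun s => ρ s * h k (z + s • w) := by
      refine Continuous.integrable_of_hasCompactSupport ?_ (hρc.mul_right)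
      exact hρ.continuous.mul ((hhc k).comp (by fun_prop))
    have i5 : Integrable fun s => ρ s * (Bη * δ') :=
      (hρ.continuous.integrable_of_hasCompactSupport hρc).mul_const _
    have h6 : ∫ s, ρ s * h k (z + s • w) ≤ ∫ s, ρ s * (Bη * δ') := by
      refine integral_mono i0 i5 fun s => ?_
      by_cases hs : s ∈ S
      · refine mul_le_mul_of_nonneg_left ?_ (hρ0 s)
        by_cases hy : z + s • w ∈ tsupport η
        · exact mul_le_mul ((le_abs_self _).trans (hBη _)) (hk _ ⟨⟨s, hs, rfl⟩, hy⟩)
            (hg0 k _ (hball (hηs hy))) hBη0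
        · show h k (z + s • w) ≤ _
          have : h k (z + s • w) = 0 := by
            simp [hh, image_eq_zero_of_notMem_tsupport hy]
          rw [this]; positivity
      · simp [image_eq_zero_of_notMem_tsupport hs]
    rw [integral_mul_const, hρ1, one_mul] at h6
    refine h6.trans_lt ?_
    have h7 : Bη * δ' ≤ (Bη + 1) * δ' := by nlinarith
    have h8 : (Bη + 1) * δ' = b / 2 := by
      rw [hδ']; field_simp
    linarith

end lim

end

end Crest.Agent.R281.Mov_625
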