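import Crest.Agent.R273.FIa0_597
import Crest.Agent.R273.GreenM_5

/-!
# Row 281, task MOV (helper625), part 2: the form `tr(g⁻¹X) tr(g⁻¹Y) - tr(g⁻¹X g⁻¹Y)`

* `bl G X Y` : its real part; `bl_nonneg` for `X, Y ≥ 0`; `bl_self_right : bl G X G = (n-1) tr g⁻¹X`
* `bl_lower` : `R ≥ 0`, `θ + B g ≥ 0`, `c ≥ 0` ⟹
  `bl (R + cθ) (R + cθ) ≥ - 2 c B (n-1) tr g⁻¹R + c² bl θ θ`
-/

set_option autoImplicit false
set_option linter.unusedSectionVars false

open Set Complex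
open scoped Matrix ComplexConjugate ComplexOrder

namespace Crest.Agent.R281.Mov_625

open Crest.Agent.R273.FIa0_597
open Crest.Agent.R273.GreenM_5 (trace_real)

noncomputable section

variable {n : ℕ}

/-- the form -/
def bl (G X Y : Matrix (Fin n) (Fin n) ℂ) : ℝ :=
  ((G⁻¹ * X).trace * (G⁻¹ * Y).trace - (G⁻¹ * X * (G⁻¹ * Y)).trace).re

theorem bl_comm (G X Y : Matrix (Fin n) (Fin n) ℂ) : bl G X Y = bl G Y X := by
  unfold bl
  rw [Matrix.trace_mul_comm (G⁻¹ * X) (G⁻¹ * Y), mul_comm (G⁻¹ * X).trace]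

theorem bl_add_left (G X X' Y : Matrix (Fin n) (Fin n) ℂ) :
    bl G (X + X') Y = bl G X Y + bl G X' Y := by
  unfold bl
  simp only [Matrix.mul_add, Matrix.add_mul, Matrix.trace_add, ← Complex.add_re]
  congr 1
  ring

theorem bl_add_right (G X Y Y' : Matrix (Fin n) (Fin n) ℂ) :
    bl G X (Y + Y') = bl G X Y + bl G X Y' := by
  rw [bl_comm, bl_add_left, bl_comm G Y, bl_comm G Y']

theorem bl_smul_left (G : Matrix (Fin n) (Fin n) ℂ) (c : ℝ) (X Y : Matrix (Fin n) (Fin n) ℂ) :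
    bl G ((c : ℂ) • X) Y = c * bl G X Y := by
  unfold bl
  rw [← Complex.re_ofReal_mul]
  simp only [Matrix.mul_smul, Matrix.smul_mul, Matrix.trace_smul, smul_eq_mul]
  congr 1
  ring

theorem bl_smul_right (G : Matrix (Fin n) (Fin n) ℂ) (c : ℝ) (X Y : Matrix (Fin n) (Fin n) ℂ) :
    bl G X ((c : ℂ) • Y) = c * bl G X Y := by
  rw [bl_comm, bl_smul_left, bl_comm]

theorem trace_sq (D : Matrix (Fin n) (Fin n) ℂ) :
    (Dᴴ * D).trace = ((∑ i, ∑ j, ‖D i j‖ ^ 2 : ℝ) : ℂ) := by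
  rw [Matrix.trace]
  simp only [Matrix.diag, Matrix.mul_apply, Matrix.conjTranspose_apply]
  push_cast
  rw [Finset.sum_comm]
  refine Finset.sum_congr rfl fun i _ => Finset.sum_congr rfl fun j _ => ?_
  have := Complex.conj_mul' (D i j)
  simpa using this

theorem trace_mul_le {X Y : Matrix (Fin n) (Fin n) ℂ} (hX : X.PosSemidef) (hY : Y.PosSemidef) :
    ((X * Y).trace).re ≤ (X.trace * Y.trace).re := by
  obtain ⟨D, rfl⟩ := exists_sq hX
  obtain ⟨E, rfl⟩ := exists_sq hY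
  have e1 : (Dᴴ * D * (Eᴴ * E)).trace = ((E * Dᴴ)ᴴᴴ * (E * Dᴴ)ᴴ).trace := by
    rw [Matrix.conjTranspose_conjTranspose, Matrix.conjTranspose_mul,
      Matrix.conjTranspose_conjTranspose]
    calc (Dᴴ * D * (Eᴴ * E)).trace = (Dᴴ * D * Eᴴ * E).trace := by
          rw [Matrix.mul_assoc, Matrix.mul_assoc, Matrix.mul_assoc]
      _ = (E * (Dᴴ * D * Eᴴ)).trace := Matrix.trace_mul_comm _ _
      _ = _ := by rw [Matrix.mul_assoc, Matrix.mul_assoc]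
  rw [e1, trace_sq, trace_sq, trace_sq, ← Complex.ofReal_mul, Complex.ofReal_re,
    Complex.ofReal_re]
  have h1 : ∀ i j, ‖(E * Dᴴ)ᴴ i j‖ ^ 2 ≤ (∑ k, ‖D i k‖ ^ 2) * ∑ k, ‖E j k‖ ^ 2 := by
    intro i j
    rw [Matrix.conjTranspose_apply, norm_star, Matrix.mul_apply]
    have h2 : ‖∑ k, E j k * Dᴴ k i‖ ≤ ∑ k, ‖D i k‖ * ‖E j k‖ := by
      refine (norm_sum_le _ _).trans (le_of_eq (Finset.sum_congr rfl fun k _ => ?_))
      rw [norm_mul, Matrix.conjTranspose_apply, norm_star, mul_comm]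
    calc ‖∑ k, E j k * Dᴴ k i‖ ^ 2 ≤ (∑ k, ‖D i k‖ * ‖E j k‖) ^ 2 :=
          pow_le_pow_left₀ (norm_nonneg _) h2 2
      _ ≤ _ := Finset.sum_mul_sq_le_sq_mul_sq _ _ _
  calc ∑ i, ∑ j, ‖(E * Dᴴ)ᴴ i j‖ ^ 2 ≤ ∑ i, ∑ j, (∑ k, ‖D i k‖ ^ 2) * ∑ k, ‖E j k‖ ^ 2 :=
        Finset.sum_le_sum fun i _ => Finset.sum_le_sum fun j _ => h1 i j
    _ = _ := by rw [Finset.sum_mul_sum]

theorem bl_nonneg {G X Y : Matrix (Fin n) (Fin n) ℂ} (hG : G.PosDef) (hX : X.PosSemidef)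
    (hY : Y.PosSemidef) : 0 ≤ bl G X Y := by
  obtain ⟨C, hC⟩ := exists_sq hG.inv.posSemidef
  have h1 : ∀ X : Matrix (Fin n) (Fin n) ℂ, (G⁻¹ * X).trace = (C * X * Cᴴ).trace := by
    intro X
    rw [hC, Matrix.mul_assoc, Matrix.trace_mul_comm]
  have h2 : (G⁻¹ * X * (G⁻¹ * Y)).trace = (C * X * Cᴴ * (C * Y * Cᴴ)).trace := by
    rw [hC]
    calc (Cᴴ * C * X * (Cᴴ * C * Y)).trace = (Cᴴ * (C * X * Cᴴ * C * Y)).trace := by
          simp only [Matrix.mul_assoc]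
      _ = ((C * X * Cᴴ * C * Y) * Cᴴ).trace := Matrix.trace_mul_comm _ _
      _ = _ := by simp only [Matrix.mul_assoc]
  unfold bl
  rw [h1, h1, h2, Complex.sub_re, sub_nonneg]
  exact trace_mul_le (hX.mul_mul_conjTranspose_same C) (hY.mul_mul_conjTranspose_same C)

theorem bl_self_right {G : Matrix (Fin n) (Fin n) ℂ} (hG : G.PosDef)
    (X : Matrix (Fin n) (Fin n) ℂ) : bl G X G = (n - 1 : ℝ) * ((G⁻¹ * X).trace).re := by
  have h0 : IsUnit G.det := isUnit_iff_ne_zero.2 hG.det_pos.ne'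
  unfold bl
  rw [Matrix.nonsing_inv_mul G h0, Matrix.mul_one, Matrix.trace_one, Fintype.card_fin]
  have : (G⁻¹ * X).trace * (n : ℂ) - (G⁻¹ * X).trace = ((n - 1 : ℝ) : ℂ) * (G⁻¹ * X).trace := by
    push_cast; ring
  rw [this, Complex.re_ofReal_mul]

/-- `|tr XY| ≤ tr X · |Y|` for `X ≥ 0`, `Y` Hermitian -/
theorem trace_mul_abs {X Y : Matrix (Fin n) (Fin n) ℂ} (hX : X.PosSemidef) (hY : Y.IsHermitian) :
    |((X * Y).trace).re| ≤ X.trace.re * Real.sqrt ((Y * Y).trace).re := by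
  have hfr : ∀ Z : Matrix (Fin n) (Fin n) ℂ, Z.IsHermitian →
      ((Z * Z).trace).re = ∑ i, ∑ j, ‖Z i j‖ ^ 2 := by
    intro Z hZ
    have h1 : Z * Z = Zᴴ * Z := by rw [hZ.eq]
    rw [h1, trace_sq, Complex.ofReal_re]
  have hX0 : 0 ≤ X.trace.re := (Complex.le_def.1 hX.trace_nonneg).1
  have hXi : X.trace.im = 0 := by
    have := (Complex.le_def.1 hX.trace_nonneg).2
    simpa using this.symm
  have h1 : ∑ i, ∑ j, ‖X i j‖ ^ 2 ≤ X.trace.re ^ 2 := by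
    rw [← hfr X hX.isHermitian]
    have := trace_mul_le hX hX
    rw [Complex.mul_re, hXi, mul_zero, sub_zero] at this
    rw [sq]; exact this
  have h2 : |((X * Y).trace).re| ≤ ∑ i, ∑ j, ‖X i j‖ * ‖Y j i‖ := by
    refine (Complex.abs_re_le_norm _).trans ?_
    rw [Matrix.trace]
    refine (norm_sum_le _ _).trans (Finset.sum_le_sum fun i _ => ?_)
    rw [Matrix.diag_apply, Matrix.mul_apply]
    refine (norm_sum_le _ _).trans (le_of_eq (Finset.sum_congr rfl fun j _ => norm_mul _ _))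
  have h3 : (∑ i, ∑ j, ‖X i j‖ * ‖Y j i‖) ^ 2 ≤ (∑ i, ∑ j, ‖X i j‖ ^ 2) *
      ∑ i, ∑ j, ‖Y j i‖ ^ 2 := by
    have := Finset.sum_mul_sq_le_sq_mul_sq (Finset.univ : Finset (Fin n × Fin n))
      (fun p => ‖X p.1 p.2‖) (fun p => ‖Y p.2 p.1‖)
    simpa only [Fintype.sum_prod_type] using this
  have h4 : ∑ i, ∑ j, ‖Y j i‖ ^ 2 = ((Y * Y).trace).re := by
    rw [hfr Y hY, Finset.sum_comm]
  rw [h4] at h3
  have h5 : 0 ≤ ((Y * Y).trace).re := by
    rw [hfr Y hY]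
    exact Finset.sum_nonneg fun _ _ => Finset.sum_nonneg fun _ _ => by positivity
  refine h2.trans ((sq_le_sq₀ (Finset.sum_nonneg fun _ _ => Finset.sum_nonneg fun _ _ =>
    by positivity) (mul_nonneg hX0 (Real.sqrt_nonneg _))).1 (h3.trans ?_))
  rw [mul_pow, Real.sq_sqrt h5]
  exact mul_le_mul_of_nonneg_right h1 h5

/-- lower bound of `bl R θ` -/
theorem bl_ge {G R θ : Matrix (Fin n) (Fin n) ℂ} (hG : G.PosDef) (hR : R.PosSemidef)
    (hθ : θ.IsHermitian) :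
    -(((G⁻¹ * R).trace).re * (|((G⁻¹ * θ).trace).re| +
      Real.sqrt ((G⁻¹ * θ * (G⁻¹ * θ)).trace).re)) ≤ bl G R θ := by
  obtain ⟨C, hC⟩ := exists_sq hG.inv.posSemidef
  have h1 : ∀ X : Matrix (Fin n) (Fin n) ℂ, (G⁻¹ * X).trace = (C * X * Cᴴ).trace := by
    intro X
    rw [hC, Matrix.mul_assoc, Matrix.trace_mul_comm]
  have h2 : ∀ X Y : Matrix (Fin n) (Fin n) ℂ,
      (G⁻¹ * X * (G⁻¹ * Y)).trace = (C * X * Cᴴ * (C * Y * Cᴴ)).trace := by
    intro X Y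
    rw [hC]
    calc (Cᴴ * C * X * (Cᴴ * C * Y)).trace = (Cᴴ * (C * X * Cᴴ * C * Y)).trace := by
          simp only [Matrix.mul_assoc]
      _ = ((C * X * Cᴴ * C * Y) * Cᴴ).trace := Matrix.trace_mul_comm _ _
      _ = _ := by simp only [Matrix.mul_assoc]
  have hR' : (C * R * Cᴴ).PosSemidef := hR.mul_mul_conjTranspose_same C
  have hθ' : (C * θ * Cᴴ).IsHermitian := Matrix.isHermitian_mul_mul_conjTranspose C hθ
  have h3 := trace_mul_abs hR' hθ'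
  have h4 := Complex.le_def.1 hR'.trace_nonneg
  have h5 : 0 ≤ (C * R * Cᴴ).trace.re := h4.1
  have h6 : (C * R * Cᴴ).trace.im = 0 := by simpa using h4.2.symm
  unfold bl
  rw [h1, h1, h2, h2, Complex.sub_re, Complex.mul_re, h6, zero_mul, sub_zero]
  have h7 := neg_abs_le ((C * θ * Cᴴ).trace).re
  have h8 := mul_le_mul_of_nonneg_left h7 h5
  have h9 := (abs_le.1 h3).2
  linarith

/-- **lower bound** -/
theorem bl_lower {G R θ : Matrix (Fin n) (Fin n) ℂ} (hG : G.PosDef) (hR : R.PosSemidef)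
    {B c : ℝ} (hB : -(((G⁻¹ * R).trace).re * B) ≤ bl G R θ) (hc : 0 ≤ c) :
    - (2 * c * B) * ((G⁻¹ * R).trace).re + c ^ 2 * bl G θ θ ≤
      bl G (R + (c : ℂ) • θ) (R + (c : ℂ) • θ) := by
  have h1 := bl_nonneg hG hR hR
  rw [bl_add_left, bl_add_right, bl_add_right, bl_smul_left, bl_smul_left, bl_smul_right,
    bl_smul_right, bl_comm G θ R]
  nlinarith [mul_le_mul_of_nonneg_left hB hc]

end

end Crest.Agent.R281.Mov_625
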