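import Crest.Agent.R281.Mov1_625
import Crest.Agent.R281.Mov4_625
import Crest.Agent.R273.PB_835
import Crest.Agent.R273.YauCh_635

/-!
# Row 281, task MOV (helper625), part 5: the local limit

* `qf X v = Re ∑ X_ab v_a conj v_b`; `trace_le_qf`
* `qf_Rf` : `4 qf (Rf ..) w = lev (ue ..) w + ct lev (wt) w`
* `local_lim` : `∫ η (1 - ct) tr g⁻¹Rf → 0`
-/

set_option autoImplicit false
set_option linter.unusedSectionVars false

open Set Filter Topology Complex MeasureTheory Metric
open scoped ContDiff Matrix ComplexConjugate ComplexOrder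

namespace Crest.Agent.R281.Mov_625

open Crest.Agent.R275 Crest.Agent.R275.Geo Crest.Agent.R275.Core144 Crest.Agent.R275.EDR890
open Crest.Agent.R275.C1d194 Crest.Agent.R275.Pai323
open Crest.Agent.R273.Defs_333 Crest.Agent.R273.Hess_333 Crest.Agent.R273.HessB_333
open Crest.Agent.R273.HM_333 Crest.Agent.R273.Kah_333 Crest.Agent.R273.Vol_333
open Crest.Agent.R273.Vm_333
open Crest.Agent.R273.Green_5 Crest.Agent.R273.FIa0_597 Crest.Agent.R273.FIb0_597
open Crest.Agent.R273.FIc0_597 Crest.Agent.R273 Crest.Agent.R273.AppA_834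
open Crest.Agent.R273.TLd_201
open Crest.Agent.R281.Glob1_484 Crest.Agent.R281.Glob2_484 Crest.Agent.R281.Ti_846

noncomputable section

variable {n N : ℕ} {M : Type} [TopologicalSpace M] {A : Atl n M} {L : LB A} {h : HM L}
  {C : Fin N → A.ι → M → ℂ}

/-- the quadratic form of a Hermitian matrix -/
def qf (X : Matrix (Fin n) (Fin n) ℂ) (v : Cn n) : ℝ := (∑ a, ∑ b, X a b * v a * conj (v b)).re

theorem qf_sq (D : Matrix (Fin n) (Fin n) ℂ) (v : Cn n) :
    qf (Dᴴ * D) v = ∑ k, ‖∑ a, conj (D k a) * v a‖ ^ 2 := by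
  unfold qf
  have h1 : ∑ a, ∑ b, (Dᴴ * D) a b * v a * conj (v b) =
      ((∑ k, ‖∑ a, conj (D k a) * v a‖ ^ 2 : ℝ) : ℂ) := by
    push_cast
    have h2 : ∀ k, ((‖∑ a, conj (D k a) * v a‖ : ℂ)) ^ 2 =
        ∑ a, ∑ b, (conj (D k a) * D k b) * v a * conj (v b) := by
      intro k
      rw [← Complex.mul_conj', map_sum, Finset.sum_mul_sum]
      refine Finset.sum_congr rfl fun a _ => Finset.sum_congr rfl fun b _ => ?_
      rw [map_mul, Complex.conj_conj]
      ring
    simp only [h2]
    symm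
    rw [Finset.sum_comm]
    refine Finset.sum_congr rfl fun a _ => ?_
    rw [Finset.sum_comm]
    refine Finset.sum_congr rfl fun b _ => ?_
    rw [Matrix.mul_apply, Finset.sum_mul, Finset.sum_mul]
    refine Finset.sum_congr rfl fun k _ => ?_
    rw [Matrix.conjTranspose_apply]
    rfl
  rw [h1, Complex.ofReal_re]

theorem qf_nonneg {X : Matrix (Fin n) (Fin n) ℂ} (hX : X.PosSemidef) (v : Cn n) : 0 ≤ qf X v := by
  obtain ⟨D, rfl⟩ := exists_sq hX
  rw [qf_sq]
  positivity

theorem trace_qf (X : Matrix (Fin n) (Fin n) ℂ) :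
    X.trace.re = ∑ a, qf X (EuclideanSpace.single a 1) := by
  unfold qf
  rw [Matrix.trace, Complex.re_sum]
  refine Finset.sum_congr rfl fun a _ => ?_
  congr 1
  rw [Finset.sum_eq_single a, Finset.sum_eq_single a]
  · simp
  · intro b _ hb
    simp [hb]
  · simp
  · intro b _ hb
    simp [hb]
  · simp

theorem sum_app (r : Fin n → ℂ) (w : Fin n → Cn n) (d : Fin n) :
    (∑ i, r i • w i : Cn n) d = ∑ i, r i * w i d := by
  simp

/-- the trace is controlled by the values on a basis -/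
theorem trace_le_qf (w : Module.Basis (Fin n) ℂ (Cn n)) : ∃ T : ℝ, 0 ≤ T ∧
    ∀ X : Matrix (Fin n) (Fin n) ℂ, X.PosSemidef → X.trace.re ≤ T * ∑ a, qf X (w a) := by
  refine ⟨∑ a, ∑ c, ‖w.repr (EuclideanSpace.single a (1 : ℂ)) c‖ ^ 2, by positivity,
    fun X hX => ?_⟩
  rw [trace_qf, Finset.sum_mul]
  refine Finset.sum_le_sum fun a _ => ?_
  obtain ⟨D, rfl⟩ := exists_sq hX
  set r : Fin n → ℂ := fun c => w.repr (EuclideanSpace.single a (1 : ℂ)) c with hr
  simp only [qf_sq]
  rw [Finset.sum_comm, Finset.mul_sum]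
  refine Finset.sum_le_sum fun k _ => ?_
  have h1 : ∀ d, (EuclideanSpace.single a (1 : ℂ) : Cn n) d = ∑ c, r c * w c d := by
    intro d
    have h2 := w.sum_repr (EuclideanSpace.single a (1 : ℂ))
    have h3 := congrArg (fun v : Cn n => v d) h2
    exact h3.symm.trans (sum_app r (fun c => w c) d)
  have h4 : ∑ d, conj (D k d) * (EuclideanSpace.single a (1 : ℂ) : Cn n) d =
      ∑ c, r c * ∑ d, conj (D k d) * w c d := by
    simp only [h1, Finset.mul_sum]
    rw [Finset.sum_comm]
    exact Finset.sum_congr rfl fun c _ => Finset.sum_congr rfl fun d _ => by ring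
  rw [h4]
  have h5 : ‖∑ c, r c * ∑ d, conj (D k d) * w c d‖ ≤ ∑ c, ‖r c‖ * ‖∑ d, conj (D k d) * w c d‖ :=
    (norm_sum_le _ _).trans (le_of_eq (Finset.sum_congr rfl fun c _ => norm_mul _ _))
  calc _ ≤ (∑ c, ‖r c‖ * ‖∑ d, conj (D k d) * w c d‖) ^ 2 :=
        pow_le_pow_left₀ (norm_nonneg _) h5 2
    _ ≤ _ := Finset.sum_mul_sq_le_sq_mul_sq _ _ _

theorem qf_hess {u : Cn n → ℝ} {z : Cn n} (hu : ContDiffAt ℝ ∞ u z) (v : Cn n) :
    lev u z v = 4 * qf (hess u z) v := by
  have h1 := congrArg Complex.re (lev_eq hu v)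
  rw [Complex.ofReal_re] at h1
  rw [h1]
  unfold hq qf
  rw [show (4 : ℂ) = ((4 : ℝ) : ℂ) by norm_num, Complex.re_ofReal_mul]

theorem qf_add (X Y : Matrix (Fin n) (Fin n) ℂ) (v : Cn n) : qf (X + Y) v = qf X v + qf Y v := by
  unfold qf
  rw [← Complex.add_re, ← Finset.sum_add_distrib]
  congr 1
  refine Finset.sum_congr rfl fun a _ => ?_
  rw [← Finset.sum_add_distrib]
  refine Finset.sum_congr rfl fun b _ => ?_
  rw [Matrix.add_apply]; ring

theorem qf_smul (c : ℝ) (X : Matrix (Fin n) (Fin n) ℂ) (v : Cn n) :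
    qf ((c : ℂ) • X) v = c * qf X v := by
  unfold qf
  rw [← Complex.re_ofReal_mul, Finset.mul_sum]
  congr 1
  refine Finset.sum_congr rfl fun a _ => ?_
  rw [Finset.mul_sum]
  refine Finset.sum_congr rfl fun b _ => ?_
  rw [Matrix.smul_apply, smul_eq_mul]; ring

/-- the form of `Rf` in the direction `v` -/
theorem qf_Rf (hC : ∀ j, IsHS L univ (C j)) {ε : ℝ} (hε : 0 < ε) {i : A.ι} {z : Cn n}
    (hz : z ∈ (A.e i).target) (v : Cn n) :
    lev (fun y => ue h C ε ((A.e i).symm y)) z v + ct h C ε ((A.e i).symm z) * lev (h.wt i) z v =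
      4 * qf (Rf h C ε i ((A.e i).symm z)) v := by
  have h1 : ContDiffAt ℝ ∞ (fun y => ue h C ε ((A.e i).symm y)) z :=
    sm_contDiffAt (sm_ue hC hε) i hz
  have h2 : hsf A (ue h C ε) i ((A.e i).symm z) =
      hess (fun y => ue h C ε ((A.e i).symm y)) z := by
    unfold hsf
    rw [(A.e i).right_inv hz]
  rw [qf_hess h1, qf_hess (wt_contDiffAt h i hz)]
  unfold Rf
  rw [qf_add, qf_smul, h2, cur_read h i hz]
  ring

/-- upper bound where `N > 0` -/
theorem lev_ue_le (hC : ∀ j, IsHS L univ (C j)) {ε : ℝ} (hε : 0 < ε) {i : A.ι} {z : Cn n}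
    (hz : z ∈ (A.e i).target) (v : Cn n) :
    lev (fun y => ue h C ε ((A.e i).symm y)) z v ≤
      lev (fun y => nrm h C ((A.e i).symm y)) z v / (nrm h C ((A.e i).symm z) + ε) := by
  set u : Cn n → ℝ := fun y => nrm h C ((A.e i).symm y) with hu
  have h1 : ContDiffAt ℝ 2 u z :=
    (sm_contDiffAt (sm_nrm hC) i hz).of_le (WithTop.coe_le_coe.2 le_top)
  have h0 : 0 < u z + ε := add_pos_of_nonneg_of_pos (nrm_nonneg hC _) hε
  have h2 : ContDiffAt ℝ 2 (fun y => u y + ε) z := h1.add contDiffAt_const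
  have h3 := Levi_145.lev_log h2 h0 v
  have h4 : Levi_145.lev (fun y => u y + ε) z v = Levi_145.lev u z v := by
    have := Levi_145.lev_add h1 (contDiffAt_const (c := ε)) v
    rw [Levi_145.lev_const, add_zero] at this
    exact this
  rw [PB_835.lev_bridge, PB_835.lev_bridge]
  have h5 : (fun y => ue h C ε ((A.e i).symm y)) = fun y => Real.log (u y + ε) := rfl
  rw [h5, h3, h4]
  have h6 : 0 ≤ ‖Levi_145.gr (fun y => u y + ε) z v‖ ^ 2 / (u z + ε) ^ 2 := by positivity
  have h7 : 4 * Levi_145.lev u z v / (u z + ε) = 4 * (Levi_145.lev u z v / (u z + ε)) := by ring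
  rw [h7]
  linarith

theorem two_le_inf' : (2 : WithTop ℕ∞) ≤ ∞ := WithTop.coe_le_coe.2 le_top

theorem cont_lev {u : Cn n → ℝ} {U : Set (Cn n)} (hU : IsOpen U) (hu : ContDiffOn ℝ ∞ u U)
    (v : Cn n) : ContinuousOn (fun z => lev u z v) U := by
  have h1 := YauCh_635.continuousOn_lev hU (hu.of_le two_le_inf')
  have h2 : ContinuousOn (fun z : Cn n => (z, v)) U :=
    (continuous_id.prodMk continuous_const).continuousOn
  exact ContinuousOn.comp (g := fun p : Cn n × Cn n => lev u p.1 p.2)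
    (f := fun z : Cn n => (z, v)) h1 h2 fun z hz => ⟨hz, mem_univ _⟩

section lim

variable [T2Space M] [CompactSpace M] [Fintype A.ι] [MeasurableSpace M] [BorelSpace M]

/-- the limit in one direction -/
theorem dir_lim (hC : ∀ j, IsHS L univ (C j)) (i : A.ι) {z₀ v : Cn n} {r : ℝ}
    (hball : ball z₀ r ⊆ (A.e i).target)
    (hw : ∀ᵐ z ∂(lc n), z ∈ ball z₀ r → ∀ s : ℂ, z + s • v ∈ ball z₀ r →
      nrm h C ((A.e i).symm (z + s • v)) ≠ 0)
    (hlog : ∀ Q : Set (Cn n), IsCompact Q → Q ⊆ (A.e i).target →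
      IntegrableOn (fun z => Real.log (nrm h C ((A.e i).symm z))) Q (lc n))
    {η : Cn n → ℝ} (hη : ContDiff ℝ ∞ η) (hηc : HasCompactSupport η)
    (hηs : tsupport η ⊆ ball z₀ r) (hη0 : ∀ z, 0 ≤ η z) :
    Tendsto (fun k => ∫ z, η z * ((1 - ct h C (ek k) ((A.e i).symm z)) *
      (4 * qf (Rf h C (ek k) i ((A.e i).symm z)) v)) ∂(lc n)) atTop (𝓝 0) := by
  classical
  have hΩ := (A.e i).open_target
  have hηt : tsupport η ⊆ (A.e i).target := hηs.trans hball
  set Nz : Cn n → ℝ := fun z => nrm h C ((A.e i).symm z) with hNz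
  have sN : ContDiffOn ℝ ∞ Nz (A.e i).target := sm_nrm hC i
  have cN : ContinuousOn Nz (A.e i).target := sN.continuousOn
  have hN0 : ∀ z, 0 ≤ Nz z := fun z => nrm_nonneg hC _
  have sw : ContDiffOn ℝ ∞ (h.wt i) (A.e i).target := wt_smooth h i
  set u : ℕ → Cn n → ℝ := fun k z => ue h C (ek k) ((A.e i).symm z) with hu
  have su : ∀ k, ContDiffOn ℝ ∞ (u k) (A.e i).target := fun k => sm_ue hC (ek_pos k) i
  set c : ℕ → Cn n → ℝ := fun k z => ct h C (ek k) ((A.e i).symm z) * lev (h.wt i) z v with hc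
  have cc : ∀ k, ContinuousOn (c k) (A.e i).target := fun k =>
    (ContDiffOn.continuousOn (sm_ct (h := h) hC (ek_pos k) i)).mul (cont_lev hΩ sw v)
  set g : ℕ → Cn n → ℝ := fun k z =>
    (1 - ct h C (ek k) ((A.e i).symm z)) * (lev (u k) z v + c k z) with hg
  have cg : ∀ k, ContinuousOn (g k) (A.e i).target := fun k =>
    (continuousOn_const.sub (ContDiffOn.continuousOn (sm_ct (h := h) hC (ek_pos k) i))).mul
      ((cont_lev hΩ (su k) v).add (cc k))
  have hq : ∀ k, ∀ z ∈ (A.e i).target, lev (u k) z v + c k z =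
      4 * qf (Rf h C (ek k) i ((A.e i).symm z)) v := fun k z hz => qf_Rf hC (ek_pos k) hz v
  have hp0 : ∀ k, ∀ z ∈ (A.e i).target, 0 ≤ lev (u k) z v + c k z := by
    intro k z hz
    rw [hq k z hz]
    have := qf_nonneg (Rf_psd (h := h) hC (ek_pos k) ((A.e i).map_target hz)) v
    linarith
  have hg0 : ∀ k, ∀ z ∈ (A.e i).target, 0 ≤ g k z := fun k z hz =>
    mul_nonneg (one_sub_ct_nonneg hC (ek_pos k) _) (hp0 k z hz)
  have hgp : ∀ k, ∀ z ∈ (A.e i).target, g k z ≤ lev (u k) z v + c k z := by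
    intro k z hz
    have h1 := ct_nonneg (h := h) hC (ek_pos k) ((A.e i).symm z)
    have h2 := hp0 k z hz
    show (1 - ct h C (ek k) ((A.e i).symm z)) * (lev (u k) z v + c k z) ≤ _
    nlinarith
  -- bounds
  obtain ⟨BN, hBN0, hBN⟩ := exists_bd (cont_sm (sm_nrm (h' := h) hC))
  set C1 : ℝ := Real.log (BN + 1) with hC1
  have hC10 : 0 ≤ C1 := Real.log_nonneg (by linarith)
  obtain ⟨Bw, hBw⟩ := hηc.isCompact.exists_bound_of_continuousOn
    ((cont_lev hΩ sw v).mono hηt)
  -- the majorant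
  have hNm : Measurable ((tsupport η).piecewise Nz fun _ => 0) :=
    (cN.mono hηt).measurable_piecewise continuousOn_const (isClosed_tsupport η).measurableSet
  set U : Cn n → ℝ := (tsupport η).indicator fun z => |Real.log (Nz z)| + C1 with hU
  have hUe : U = (tsupport η).indicator fun z =>
      |Real.log ((tsupport η).piecewise Nz (fun _ => 0) z)| + C1 := by
    funext z
    by_cases hz : z ∈ tsupport η
    · rw [hU, indicator_of_mem hz, indicator_of_mem hz, piecewise_eq_of_mem _ _ _ hz]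
    · rw [hU, indicator_of_notMem hz, indicator_of_notMem hz]
  have hUm : Measurable U := by
    rw [hUe]
    refine Measurable.indicator ?_ (isClosed_tsupport η).measurableSet
    exact (Real.measurable_log.comp hNm).norm.add measurable_const
  have hUi : Integrable U (lc n) := by
    rw [hU, integrable_indicator_iff (isClosed_tsupport η).measurableSet]
    exact (hlog _ hηc hηt).norm.add (integrableOn_const hηc.isCompact.measure_lt_top.ne)
  have hU0 : ∀ z, 0 ≤ U z := fun z => indicator_nonneg (fun z _ => by positivity) z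
  set G : Set (Cn n) := {z | z ∈ (A.e i).target ∧ Nz z ≠ 0} with hG
  have hUu : ∀ k, ∀ z ∈ G ∩ tsupport η, |u k z| ≤ U z := by
    rintro k z ⟨⟨hz, hNz0⟩, hzη⟩
    have hpos : 0 < Nz z := lt_of_le_of_ne (hN0 z) (Ne.symm hNz0)
    rw [hU, indicator_of_mem hzη]
    have h1 : Real.log (Nz z) ≤ u k z := Real.log_le_log hpos (by linarith [ek_pos k])
    have h2 : u k z ≤ C1 := by
      refine Real.log_le_log (add_pos_of_nonneg_of_pos (hN0 z) (ek_pos k)) ?_
      have := (abs_le.1 (hBN ((A.e i).symm z))).2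
      have := ek_le k
      linarith
    rw [abs_le]
    constructor
    · have := neg_abs_le (Real.log (Nz z))
      linarith
    · have := abs_nonneg (Real.log (Nz z))
      linarith
  have hCb : ∀ k, ∀ z ∈ tsupport η, c k z ≤ Bw := by
    intro k z hz
    have h1 := hBw z hz
    have h2 := ct_nonneg (h := h) hC (ek_pos k) ((A.e i).symm z)
    have h3 := ct_le_one (h := h) hC (ek_pos k) ((A.e i).symm z)
    rw [Real.norm_eq_abs] at h1
    calc c k z ≤ |c k z| := le_abs_self _
      _ = ct h C (ek k) ((A.e i).symm z) * |lev (h.wt i) z v| := by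
          rw [hc, abs_mul, abs_of_nonneg h2]
      _ ≤ 1 * |lev (h.wt i) z v| := mul_le_mul_of_nonneg_right h3 (abs_nonneg _)
      _ ≤ Bw := by rw [one_mul]; exact h1
  have hline : ∀ᵐ z ∂(lc n), z ∈ ball z₀ r → ∀ s : ℂ, z + s • v ∈ ball z₀ r →
      z + s • v ∈ G := by
    filter_upwards [hw] with z hz hzb s hs
    exact ⟨hball hs, hz hzb s hs⟩
  have hlim : ∀ Q ⊆ G ∩ (A.e i).target, IsCompact Q → ∀ δ > (0 : ℝ), ∀ᶠ k in atTop,
      ∀ z ∈ Q, g k z ≤ δ := by
    intro Q hQ hQc δ hδ
    have hQt : Q ⊆ (A.e i).target := fun z hz => (hQ hz).2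
    obtain ⟨c0, hc0, hc0'⟩ : ∃ c0 > 0, ∀ z ∈ Q, c0 ≤ Nz z := by
      rcases Q.eq_empty_or_nonempty with hQe | hQe
      · exact ⟨1, one_pos, fun z hz => by rw [hQe] at hz; exact absurd hz (notMem_empty z)⟩
      · obtain ⟨z, hz, hmin⟩ := hQc.exists_isMinOn hQe (cN.mono hQt)
        exact ⟨_, lt_of_le_of_ne (hN0 z) (Ne.symm (hQ hz).1.2), fun y hy => hmin hy⟩
    obtain ⟨B1, hB1⟩ := hQc.exists_bound_of_continuousOn ((cont_lev hΩ sN v).mono hQt)
    obtain ⟨B2, hB2⟩ := hQc.exists_bound_of_continuousOn ((cont_lev hΩ sw v).mono hQt)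
    set B : ℝ := |B1| / c0 + |B2| with hB
    have hB0 : 0 ≤ B := by positivity
    have h1 : Tendsto (fun k => ek k / c0 * B) atTop (𝓝 (0 / c0 * B)) :=
      (ek_tend.div_const c0).mul_const B
    rw [zero_div, zero_mul] at h1
    filter_upwards [h1.eventually (gt_mem_nhds hδ)] with k hk z hz
    have hzt := hQt hz
    have hz0 := hc0' z hz
    have he := ek_pos k
    have h2 : 1 - ct h C (ek k) ((A.e i).symm z) ≤ ek k / c0 := by
      rw [one_sub_ct hC he]
      exact div_le_div_of_nonneg_left he.le hc0 (by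
        show c0 ≤ Nz z + ek k
        linarith)
    have h3 : lev (u k) z v + c k z ≤ B := by
      have h4 := lev_ue_le (h := h) hC he hzt v
      have h5 := hB1 z hz
      have h6 := hB2 z hz
      rw [Real.norm_eq_abs] at h5 h6
      have h7 : lev Nz z v / (Nz z + ek k) ≤ |B1| / c0 := by
        calc lev Nz z v / (Nz z + ek k) ≤ |B1| / (Nz z + ek k) :=
              div_le_div_of_nonneg_right ((le_abs_self _).trans (h5.trans (le_abs_self _)))
                (by linarith [hN0 z])
          _ ≤ |B1| / c0 := div_le_div_of_nonneg_left (abs_nonneg _) hc0 (by linarith)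
      have h8 : c k z ≤ |B2| := by
        have h9 := ct_nonneg (h := h) hC he ((A.e i).symm z)
        have h10 := ct_le_one (h := h) hC he ((A.e i).symm z)
        calc c k z ≤ |c k z| := le_abs_self _
          _ = ct h C (ek k) ((A.e i).symm z) * |lev (h.wt i) z v| := by
              rw [hc, abs_mul, abs_of_nonneg h9]
          _ ≤ 1 * |lev (h.wt i) z v| := mul_le_mul_of_nonneg_right h10 (abs_nonneg _)
          _ ≤ |B2| := by rw [one_mul]; exact h6.trans (le_abs_self _)
      exact add_le_add (h4.trans h7) h8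
    calc g k z = (1 - ct h C (ek k) ((A.e i).symm z)) * (lev (u k) z v + c k z) := rfl
      _ ≤ (ek k / c0) * B := mul_le_mul h2 h3 (hp0 k z hzt) (by positivity)
      _ ≤ δ := hk.le
  have key := line_lim (μ := lc n) hΩ hball (fun k => (su k).of_le two_le_inf') cc cg hg0 hgp
    hη hηc hηs hη0 hUm hUi hU0 hUu hCb hline hlim
  refine key.congr fun k => integral_congr_ae (Eventually.of_forall fun z => ?_)
  by_cases hz : z ∈ tsupport η
  · show η z * ((1 - ct h C (ek k) ((A.e i).symm z)) * (lev (u k) z v + c k z)) = _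
    rw [hq k z (hηt hz)]
  · simp only [image_eq_zero_of_notMem_tsupport hz, zero_mul]

theorem int_cs {U : Set (Cn n)} (hU : IsOpen U) {η f : Cn n → ℝ} (hη : Continuous η)
    (hηc : HasCompactSupport η) (hηU : tsupport η ⊆ U) (hf : ContinuousOn f U) :
    Integrable (fun z => η z * f z) (lc n) := by
  refine Continuous.integrable_of_hasCompactSupport ?_ hηc.mul_right
  exact ContinuousOn.continuous_of_tsupport_subset (hη.continuousOn.mul hf) hU
    (tsupport_mul_subset_left.trans hηU)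

theorem cont_qf (hC : ∀ j, IsHS L univ (C j)) {ε : ℝ} (hε : 0 < ε) (i : A.ι) (v : Cn n) :
    ContinuousOn (fun z => qf (Rf h C ε i ((A.e i).symm z)) v) (A.e i).target := by
  have h1 : ContinuousOn (fun z => (1 / 4 : ℝ) * (lev (fun y => ue h C ε ((A.e i).symm y)) z v +
      ct h C ε ((A.e i).symm z) * lev (h.wt i) z v)) (A.e i).target :=
    continuousOn_const.mul ((cont_lev (A.e i).open_target (sm_ue hC hε i) v).add
      ((ContDiffOn.continuousOn (sm_ct (h := h) hC hε i)).mul
        (cont_lev (A.e i).open_target (wt_smooth h i) v)))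
  refine h1.congr fun z hz => ?_
  simp only [qf_Rf hC hε hz v]
  ring

/-- **the local limit** -/
theorem tr_lim (K : Kah A) (hC : ∀ j, IsHS L univ (C j)) (i : A.ι) {z₀ : Cn n} {r : ℝ}
    (hball : ball z₀ r ⊆ (A.e i).target) (w : Module.Basis (Fin n) ℂ (Cn n))
    (hw : ∀ a, ∀ᵐ z ∂(lc n), z ∈ ball z₀ r → ∀ s : ℂ, z + s • w a ∈ ball z₀ r →
      nrm h C ((A.e i).symm (z + s • w a)) ≠ 0)
    (hlog : ∀ Q : Set (Cn n), IsCompact Q → Q ⊆ (A.e i).target →
      IntegrableOn (fun z => Real.log (nrm h C ((A.e i).symm z))) Q (lc n))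
    {η : Cn n → ℝ} (hη : ContDiff ℝ ∞ η) (hηc : HasCompactSupport η)
    (hηs : tsupport η ⊆ ball z₀ r) (hη0 : ∀ z, 0 ≤ η z) :
    Tendsto (fun k => ∫ z, η z * ((1 - ct h C (ek k) ((A.e i).symm z)) *
      (trC K (Rf h C (ek k)) i ((A.e i).symm z)).re) ∂(lc n)) atTop (𝓝 0) := by
  have hΩ := (A.e i).open_target
  have hηt : tsupport η ⊆ (A.e i).target := hηs.trans hball
  have hdir := fun a => dir_lim hC i hball (hw a) hlog hη hηc hηs hη0
  obtain ⟨T, hT0, hT⟩ := trace_le_qf w
  -- bound of the inverse metric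
  have hinv : ContinuousOn (fun z => ((K.g i ((A.e i).symm z))⁻¹).trace.re)
      (A.e i).target := by
    have h1 : A.SmAt i (fun x => ((K.g i x)⁻¹).trace) := by
      unfold Matrix.trace
      exact ContDiffOn.sum fun a _ => smAt_inv K i a a
    exact Complex.continuous_re.comp_continuousOn (ContDiffOn.continuousOn h1)
  obtain ⟨T1, hT1⟩ := hηc.isCompact.exists_bound_of_continuousOn (hinv.mono hηt)
  have hT1' : ∀ z ∈ tsupport η, ((K.g i ((A.e i).symm z))⁻¹).trace.re ≤ |T1| := fun z hz =>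
    (le_abs_self _).trans ((hT1 z hz).trans (le_abs_self _))
  have cct : ∀ k, ContinuousOn (fun z => 1 - ct h C (ek k) ((A.e i).symm z)) (A.e i).target :=
    fun k => continuousOn_const.sub (ContDiffOn.continuousOn (sm_ct (h := h) hC (ek_pos k) i))
  have ctr : ∀ k, ContinuousOn (fun z => (trC K (Rf h C (ek k)) i ((A.e i).symm z)).re)
      (A.e i).target := fun k => Complex.continuous_re.comp_continuousOn
    (ContDiffOn.continuousOn (smAt_trC K (S := Rf h C (ek k))
      ((tf_Rf (h := h) hC (ek_pos k)).sm i)))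
  have ilhs : ∀ k, Integrable (fun z => η z * ((1 - ct h C (ek k) ((A.e i).symm z)) *
      (trC K (Rf h C (ek k)) i ((A.e i).symm z)).re)) (lc n) := fun k =>
    int_cs hΩ hη.continuous hηc hηt ((cct k).mul (ctr k))
  have irhs : ∀ k a, Integrable (fun z => η z * ((1 - ct h C (ek k) ((A.e i).symm z)) *
      (4 * qf (Rf h C (ek k) i ((A.e i).symm z)) (w a)))) (lc n) := fun k a =>
    int_cs hΩ hη.continuous hηc hηt ((cct k).mul (continuousOn_const.mul
      (cont_qf hC (ek_pos k) i (w a))))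
  have hlimR : Tendsto (fun k => |T1| * T / 4 * ∑ a, ∫ z, η z *
      ((1 - ct h C (ek k) ((A.e i).symm z)) *
      (4 * qf (Rf h C (ek k) i ((A.e i).symm z)) (w a))) ∂(lc n)) atTop (𝓝 0) := by
    have h1 := (tendsto_finsetSum Finset.univ fun a _ => hdir a).const_mul (|T1| * T / 4)
    simpa using h1
  refine tendsto_of_tendsto_of_tendsto_of_le_of_le tendsto_const_nhds hlimR (fun k => ?_)
    (fun k => ?_)
  · refine integral_nonneg fun z => ?_
    by_cases hz : z ∈ tsupport η
    · refine mul_nonneg (hη0 z) (mul_nonneg (one_sub_ct_nonneg hC (ek_pos k) _) ?_)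
      have hx := (A.e i).map_target (hηt hz)
      exact tr_re_nonneg (K.pos i _ hx) (Rf_psd hC (ek_pos k) hx)
    · simp [image_eq_zero_of_notMem_tsupport hz]
  · show ∫ z, η z * ((1 - ct h C (ek k) ((A.e i).symm z)) *
      (trC K (Rf h C (ek k)) i ((A.e i).symm z)).re) ∂(lc n) ≤ _
    rw [← integral_finsetSum _ fun a _ => irhs k a, ← integral_const_mul]
    refine integral_mono (ilhs k) ((integrable_finsetSum _ fun a _ => irhs k a).const_mul _)
      fun z => ?_
    by_cases hz : z ∈ tsupport η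
    · have hx := (A.e i).map_target (hηt hz)
      set X := Rf h C (ek k) i ((A.e i).symm z) with hX
      have hXp : X.PosSemidef := Rf_psd hC (ek_pos k) hx
      have hg : ((K.g i ((A.e i).symm z))⁻¹).PosSemidef := (K.pos i _ hx).inv.posSemidef
      have h1 : (trC K (Rf h C (ek k)) i ((A.e i).symm z)).re ≤ |T1| * (T * ∑ a, qf X (w a)) := by
        have h2 := trace_mul_le hg hXp
        have h3 : (((K.g i ((A.e i).symm z))⁻¹).trace * X.trace).re =
            ((K.g i ((A.e i).symm z))⁻¹).trace.re * X.trace.re := by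
          have h4 : X.trace.im = 0 := by
            have := (Complex.le_def.1 hXp.trace_nonneg).2
            simpa using this.symm
          rw [Complex.mul_re, h4, mul_zero, sub_zero]
        rw [h3] at h2
        refine h2.trans ?_
        have h5 : 0 ≤ X.trace.re := (Complex.le_def.1 hXp.trace_nonneg).1
        exact mul_le_mul (hT1' z hz) (hT X hXp) h5 (abs_nonneg _)
      have h6 : 0 ≤ η z * (1 - ct h C (ek k) ((A.e i).symm z)) :=
        mul_nonneg (hη0 z) (one_sub_ct_nonneg hC (ek_pos k) _)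
      calc η z * ((1 - ct h C (ek k) ((A.e i).symm z)) *
            (trC K (Rf h C (ek k)) i ((A.e i).symm z)).re)
          = η z * (1 - ct h C (ek k) ((A.e i).symm z)) *
            (trC K (Rf h C (ek k)) i ((A.e i).symm z)).re := by ring
        _ ≤ η z * (1 - ct h C (ek k) ((A.e i).symm z)) * (|T1| * (T * ∑ a, qf X (w a))) :=
            mul_le_mul_of_nonneg_left h1 h6
        _ = |T1| * T / 4 * ∑ a, η z * ((1 - ct h C (ek k) ((A.e i).symm z)) *
            (4 * qf X (w a))) := by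
            simp only [Finset.mul_sum]
            refine Finset.sum_congr rfl fun a _ => by ring
    · simp only [image_eq_zero_of_notMem_tsupport hz, zero_mul, Finset.sum_const_zero, mul_zero,
        le_refl]

end lim

end

end Crest.Agent.R281.Mov_625
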