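import Crest.Agent.R281.Mov5_625
import Crest.Agent.R281.Nef2_252
import Crest.Agent.R281.Fuj3_207
import Crest.Agent.R281.FujSig_358

/-!
# Row 281, task MOV (helper625), part 6: `∫ θ² K^(n-2) ≥ 0` for a movable class

* `glob_lim` : `∫ (1 - ct) tr g⁻¹Rf → 0` on `M`
* `int_q2_nonneg`, `II_mov` : `0 ≤ ∫ θ ∧ θ ∧ K^(n-2)` for sections with `Star`
-/

set_option autoImplicit false
set_option linter.unusedSectionVars false

open Set Filter Topology Complex MeasureTheory Metric
open scoped ContDiff Matrix ComplexConjugate ComplexOrder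

namespace Crest.Agent.R281.Mov_625

open Crest.Agent.R275 Crest.Agent.R275.Geo Crest.Agent.R275.Core144 Crest.Agent.R275.EDR890
open Crest.Agent.R275.C1d194 Crest.Agent.R275.Pai323
open Crest.Agent.R273.Defs_333 Crest.Agent.R273.Hess_333 Crest.Agent.R273.HessB_333
open Crest.Agent.R273.HM_333 Crest.Agent.R273.Kah_333 Crest.Agent.R273.Vol_333
open Crest.Agent.R273.Vm_333
open Crest.Agent.R273.Green_5 Crest.Agent.R273.FIa0_597 Crest.Agent.R273.FIb0_597
open Crest.Agent.R273.FIc0_597 Crest.Agent.R273 Crest.Agent.R273.AppA_834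
open Crest.Agent.R273.TLd_201
open Crest.Agent.R281.Glob1_484 Crest.Agent.R281.Glob2_484 Crest.Agent.R281.Ti_846
open Crest.Agent.R281.HkR_835 Crest.Agent.R281.Nef_252

noncomputable section

variable {n N : ℕ} {M : Type} [TopologicalSpace M] {A : Atl n M} {L : LB A} {h : HM L}
  {C : Fin N → A.ι → M → ℂ}

section glob

variable [T2Space M] [CompactSpace M] [Fintype A.ι] [MeasurableSpace M] [BorelSpace M]

/-- the function which tends to zero in `L¹` -/
def fk (K : Kah A) (h : HM L) (C : Fin N → A.ι → M → ℂ) (k : ℕ) (x : M) : ℝ :=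
  (1 - ct h C (ek k) x) * trM K (Rf h C (ek k)) x

theorem fk_nonneg (K : Kah A) (hC : ∀ j, IsHS L univ (C j)) (k : ℕ) (x : M) :
    0 ≤ fk K h C k x :=
  mul_nonneg (one_sub_ct_nonneg hC (ek_pos k) x)
    (trM_nonneg K (fun _ _ hx => Rf_psd hC (ek_pos k) hx) x)

theorem cont_fk (K : Kah A) (hC : ∀ j, IsHS L univ (C j)) (k : ℕ) :
    Continuous (fk K h C k) :=
  (continuous_const.sub (cont_sm (sm_ct hC (ek_pos k)))).mul
    (cont_trM K (tf_Rf hC (ek_pos k)))

theorem loc_glob (K : Kah A) (hC : ∀ j, IsHS L univ (C j))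
    (hS : Star A {x | nrm h C x = 0}) {B : ℝ}
    (hlog : ∫⁻ x, ‖Real.log (nrm h C x)‖ₑ ∂(vm (volK K)) ≤ ENNReal.ofReal B) (x₀ : M) :
    ∃ V ∈ 𝓝 x₀, ∃ θ : M → ℝ, Continuous θ ∧ (∀ x, 0 ≤ θ x) ∧ (∀ x ∈ V, 1 ≤ θ x) ∧
      Tendsto (fun k => ∫ x, θ x * fk K h C k x ∂(vm (volK K))) atTop (𝓝 0) := by
  set i := ch A x₀ with hi
  have hx₀ : x₀ ∈ (A.e i).source := mem_ch A x₀
  obtain ⟨r, hr, hball, w, hw⟩ := hS i (A.e i x₀) ((A.e i).map_source hx₀)
  set z₀ := A.e i x₀ with hz₀
  let φ : ContDiffBump z₀ := ⟨r / 4, r / 2, by positivity, by linarith⟩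
  have hφs : ContDiff ℝ ∞ φ := φ.contDiff
  have hφc : HasCompactSupport φ := φ.hasCompactSupport
  have hφt : tsupport φ ⊆ ball z₀ r := by
    rw [φ.tsupport_eq]
    exact closedBall_subset_ball (by show r / 2 < r; linarith)
  have hφtt : tsupport φ ⊆ (A.e i).target := hφt.trans hball
  have hφ0 : ∀ z, 0 ≤ φ z := fun z => φ.nonneg
  set θ : M → ℝ := CLin_933.ext0 A i φ with hθ
  have hθs : A.Sm θ := CLin_933.ext0_sm hφs hφc hφtt
  have cθ : Continuous θ := cont_sm hθs
  have hθ0 : ∀ x, 0 ≤ θ x := by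
    intro x
    by_cases hx : x ∈ (A.e i).source
    · rw [hθ, CLin_933.ext0_mem hx]; exact hφ0 _
    · rw [hθ, CLin_933.ext0_off hx]
  set V : Set M := (A.e i).source ∩ (A.e i) ⁻¹' ball z₀ (r / 4) with hV
  have hVo : IsOpen V := (A.e i).isOpen_inter_preimage isOpen_ball
  refine ⟨V, hVo.mem_nhds ⟨hx₀, mem_ball_self (by positivity)⟩, θ, cθ, hθ0, ?_, ?_⟩
  · rintro x ⟨hx, hxb⟩
    rw [hθ, CLin_933.ext0_mem hx]
    exact (φ.one_of_mem_closedBall (ball_subset_closedBall hxb)).ge
  -- reading in the chart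
  have hread : ∀ k, ∫ x, θ x * fk K h C k x ∂(vm (volK K)) =
      ∫ z, φ z * ((volK K).w i ((A.e i).symm z) * fk K h C k ((A.e i).symm z)) ∂(lc n) := by
    intro k
    have h1 : ∫ x, θ x * fk K h C k x ∂(vm (volK K)) =
        ∫ x in (A.e i).source, θ x * fk K h C k x ∂(vm (volK K)) := by
      symm
      refine setIntegral_eq_integral_of_forall_compl_eq_zero fun x hx => ?_
      rw [hθ, CLin_933.ext0_off hx, zero_mul]
    have h2 := setInt_chart (volK K) i (cθ.mul (cont_fk (h := h) K hC k))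
    rw [h1]
    refine h2.trans ?_
    have h3 : ∫ z in (A.e i).target, (volK K).w i ((A.e i).symm z) *
        (θ ((A.e i).symm z) * fk K h C k ((A.e i).symm z)) ∂(lc n) =
        ∫ z in (A.e i).target, φ z * ((volK K).w i ((A.e i).symm z) *
          fk K h C k ((A.e i).symm z)) ∂(lc n) := by
      refine setIntegral_congr_fun (A.e i).open_target.measurableSet fun z hz => ?_
      simp only [hθ, CLin_933.ext0_read hz]
      ring
    refine h3.trans (setIntegral_eq_integral_of_forall_compl_eq_zero fun z hz => ?_)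
    rw [image_eq_zero_of_notMem_tsupport fun h' => hz (hφtt h'), zero_mul]
  -- bound of the density
  have cw : ContinuousOn (fun z => (volK K).w i ((A.e i).symm z)) (A.e i).target :=
    ContDiffOn.continuousOn ((volK K).sm i)
  obtain ⟨W, hW⟩ := hφc.isCompact.exists_bound_of_continuousOn (cw.mono hφtt)
  have hlog' : ∀ Q : Set (Cn n), IsCompact Q → Q ⊆ (A.e i).target →
      IntegrableOn (fun z => Real.log (nrm h C ((A.e i).symm z))) Q (lc n) := fun Q hQ hQt =>
    intOn_chart (volK K) i (f := fun x => Real.log (nrm h C x))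
      (Real.measurable_log.comp (cont_sm (sm_nrm hC)).measurable) hlog hQ hQt
  have hT := tr_lim K hC i hball w (fun a => by
    filter_upwards [hw a] with z hz hzb s hs
    exact hz hzb s hs) hlog' hφs hφc hφt hφ0
  have hT' := hT.const_mul |W|
  rw [mul_zero] at hT'
  have cfk : ∀ k, ContinuousOn (fun z => fk K h C k ((A.e i).symm z)) (A.e i).target := fun k =>
    (cont_fk (h := h) K hC k).comp_continuousOn (A.e i).continuousOn_symm
  have hfe : ∀ k, ∀ z ∈ (A.e i).target, fk K h C k ((A.e i).symm z) =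
      (1 - ct h C (ek k) ((A.e i).symm z)) *
        (trC K (Rf h C (ek k)) i ((A.e i).symm z)).re := by
    intro k z hz
    unfold fk
    rw [trM_eq K (tf_Rf hC (ek_pos k)) ((A.e i).map_target hz)]
  refine tendsto_of_tendsto_of_tendsto_of_le_of_le tendsto_const_nhds hT'
    (fun k => integral_nonneg fun x => mul_nonneg (hθ0 x) (fk_nonneg K hC k x)) (fun k => ?_)
  show ∫ x, θ x * fk K h C k x ∂(vm (volK K)) ≤ _
  rw [hread k, ← integral_const_mul]
  have i1 := int_cs (A.e i).open_target hφs.continuous hφc hφtt (cw.mul (cfk k))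
  have i2 : Integrable (fun z => φ z * ((1 - ct h C (ek k) ((A.e i).symm z)) *
      (trC K (Rf h C (ek k)) i ((A.e i).symm z)).re)) (lc n) :=
    int_cs (A.e i).open_target hφs.continuous hφc hφtt
      ((cfk k).congr fun z hz => (hfe k z hz).symm)
  refine integral_mono i1 (i2.const_mul _) fun z => ?_
  by_cases hz : z ∈ tsupport φ
  · have h1 := hW z hz
    rw [Real.norm_eq_abs] at h1
    have h2 : (volK K).w i ((A.e i).symm z) ≤ |W| := (le_abs_self _).trans (h1.trans
      (le_abs_self _))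
    have h3 : 0 ≤ φ z * fk K h C k ((A.e i).symm z) := mul_nonneg (hφ0 z) (fk_nonneg K hC k _)
    calc φ z * ((volK K).w i ((A.e i).symm z) * fk K h C k ((A.e i).symm z))
        = (volK K).w i ((A.e i).symm z) * (φ z * fk K h C k ((A.e i).symm z)) := by ring
      _ ≤ |W| * (φ z * fk K h C k ((A.e i).symm z)) := mul_le_mul_of_nonneg_right h2 h3
      _ = |W| * (φ z * ((1 - ct h C (ek k) ((A.e i).symm z)) *
          (trC K (Rf h C (ek k)) i ((A.e i).symm z)).re)) := by rw [hfe k z (hφtt hz)]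
  · simp only [image_eq_zero_of_notMem_tsupport hz, zero_mul, mul_zero, le_refl]

/-- **the global limit** -/
theorem glob_lim (K : Kah A) (hC : ∀ j, IsHS L univ (C j))
    (hS : Star A {x | nrm h C x = 0}) {B : ℝ}
    (hlog : ∫⁻ x, ‖Real.log (nrm h C x)‖ₑ ∂(vm (volK K)) ≤ ENNReal.ofReal B) :
    Tendsto (fun k => ∫ x, fk K h C k x ∂(vm (volK K))) atTop (𝓝 0) := by
  have := isFinite_vm (volK K)
  choose V hV θ hθc hθ0 hθ1 hθl using loc_glob K hC hS hlog
  obtain ⟨t, ht⟩ := CompactSpace.elim_nhds_subcover V hV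
  have h1 : Tendsto (fun k => ∑ y ∈ t, ∫ x, θ y x * fk K h C k x ∂(vm (volK K))) atTop
      (𝓝 0) := by
    have := tendsto_finsetSum t fun y _ => hθl y
    simpa using this
  refine tendsto_of_tendsto_of_tendsto_of_le_of_le tendsto_const_nhds h1
    (fun k => integral_nonneg fun x => fk_nonneg K hC k x) (fun k => ?_)
  have hi : ∀ y ∈ t, Integrable (fun x => θ y x * fk K h C k x) (vm (volK K)) := fun y _ =>
    integrable_cont _ ((hθc y).mul (cont_fk K hC k))
  show ∫ x, fk K h C k x ∂(vm (volK K)) ≤ _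
  rw [← integral_finsetSum t hi]
  refine integral_mono (integrable_cont _ (cont_fk K hC k)) (integrable_finsetSum t hi)
    fun x => ?_
  have hx : x ∈ ⋃ y ∈ t, V y := by rw [ht]; trivial
  simp only [mem_iUnion, exists_prop] at hx
  obtain ⟨y, hy, hxy⟩ := hx
  have h2 : fk K h C k x ≤ θ y x * fk K h C k x := by
    have := mul_le_mul_of_nonneg_right (hθ1 y x hxy) (fk_nonneg (h := h) K hC k x)
    rwa [one_mul] at this
  refine h2.trans (Finset.single_le_sum (f := fun y => θ y x * fk K h C k x)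
    (fun y _ => mul_nonneg (hθ0 y x) (fk_nonneg K hC k x)) hy)

/-! ### the form -/

/-- `G + i∂∂̄u` -/
def addU (G : K11 A) (u : M → ℝ) (hu : A.Sm u) : K11 A where
  g i x := G.g i x + hsf A u i x
  sm i a b := (G.sm i a b).add ((hsf_cf hu).sm i a b)
  herm i x hx := (G.herm i x hx).add (hess_herm (sm_contDiffAt hu i ((A.e i).map_source hx)))
  tr i j x hx := by
    rw [G.tr i j x hx, (tf_hsf hu).tr i j x hx, Matrix.mul_add, Matrix.add_mul]
  closed := (CF.add (g := G.g) ⟨G.sm, G.tr, G.closed⟩ (hsf_cf hu)).closed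

theorem ct_tend {x : M} (hx : 0 < nrm h C x) :
    Tendsto (fun k => 1 - ct h C (ek k) x) atTop (𝓝 0) := by
  have h1 : Tendsto (fun k => nrm h C x + ek k) atTop (𝓝 (nrm h C x + 0)) :=
    tendsto_const_nhds.add ek_tend
  rw [add_zero] at h1
  have h2 : Tendsto (fun k => nrm h C x / (nrm h C x + ek k)) atTop (𝓝 1) := by
    have := (tendsto_const_nhds (x := nrm h C x)).div h1 hx.ne'
    rwa [div_self hx.ne'] at this
  have h3 := (tendsto_const_nhds (x := (1 : ℝ))).sub h2
  rwa [sub_self] at h3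

theorem sq_lim (K : Kah A) (hC : ∀ j, IsHS L univ (C j))
    (hae : ∀ᵐ x ∂(vm (volK K)), 0 < nrm h C x) :
    Tendsto (fun k => ∫ x, (1 - ct h C (ek k) x) ^ 2 ∂(vm (volK K))) atTop (𝓝 0) := by
  have := isFinite_vm (volK K)
  have key := tendsto_integral_of_dominated_convergence (μ := vm (volK K))
    (F := fun k x => (1 - ct h C (ek k) x) ^ 2) (f := fun _ => (0 : ℝ)) (fun _ => (1 : ℝ))
    (fun k => ((continuous_const.sub
      (cont_sm (sm_ct hC (ek_pos k)))).pow 2).aestronglyMeasurable)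
    (integrable_const _) (fun k => Eventually.of_forall fun x => ?_) ?_
  · simpa using key
  · have h1 := one_sub_ct_nonneg (h := h) hC (ek_pos k) x
    have h2 := ct_nonneg (h := h) hC (ek_pos k) x
    rw [Real.norm_of_nonneg (sq_nonneg _)]
    exact pow_le_one₀ h1 (by linarith)
  · filter_upwards [hae] with x hx
    have := (ct_tend hx).pow 2
    simpa using this

/-- pointwise lower bound -/
theorem q2_lower (K : Kah A) (hC : ∀ j, IsHS L univ (C j)) :
    ∃ B C₁ : ℝ, ∀ k, ∀ x, -(2 * B) * fk K h C k x - C₁ * (1 - ct h C (ek k) x) ^ 2 ≤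
      q2 K (addU (curK h) (ue h C (ek k)) (sm_ue hC (ek_pos k))).g
        (addU (curK h) (ue h C (ek k)) (sm_ue hC (ek_pos k))).g x := by
  have c1 : Continuous (tr2M K (cur h) (cur h)) := cont_tr2M K (tf_cur h) (tf_cur h)
  have c2 : Continuous (trM K (cur h)) := cont_trM K (tf_cur h)
  obtain ⟨B1, hB10, hB1⟩ := exists_bd c2
  obtain ⟨B2, hB20, hB2⟩ := exists_bd c1
  refine ⟨B1 + Real.sqrt B2, B1 ^ 2 + B2, fun k x => ?_⟩
  set i := ch A x with hi
  have hx : x ∈ (A.e i).source := mem_ch A x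
  have hG := K.pos i x hx
  have hR := Rf_psd (h := h) hC (ek_pos k) hx
  have hθ := cur_herm h i hx
  set c : ℝ := 1 - ct h C (ek k) x with hc
  have hc0 : 0 ≤ c := one_sub_ct_nonneg hC (ek_pos k) x
  have e1 : (addU (curK h) (ue h C (ek k)) (sm_ue hC (ek_pos k))).g i x =
      Rf h C (ek k) i x + (c : ℂ) • cur h i x := by
    show cur h i x + hsf A (ue h C (ek k)) i x = _
    unfold Rf
    rw [hc, Complex.ofReal_sub, Complex.ofReal_one, sub_smul, one_smul]
    abel
  have hB : -((((K.g i x)⁻¹ * Rf h C (ek k) i x).trace).re * (B1 + Real.sqrt B2)) ≤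
      bl (K.g i x) (Rf h C (ek k) i x) (cur h i x) := by
    refine le_trans ?_ (bl_ge hG hR hθ)
    have h1 : 0 ≤ (((K.g i x)⁻¹ * Rf h C (ek k) i x).trace).re := tr_re_nonneg hG hR
    have h2 : |((K.g i x)⁻¹ * cur h i x).trace.re| ≤ B1 := hB1 x
    have h3 : Real.sqrt (((K.g i x)⁻¹ * cur h i x * ((K.g i x)⁻¹ * cur h i x)).trace).re ≤
        Real.sqrt B2 := Real.sqrt_le_sqrt ((le_abs_self _).trans (hB2 x))
    have := mul_le_mul_of_nonneg_left (add_le_add h2 h3) h1
    linarith
  have h4 := bl_lower hG hR hB hc0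
  have h5 : -(B1 ^ 2 + B2) ≤ bl (K.g i x) (cur h i x) (cur h i x) := by
    have h6 := bl_real K hx hθ hθ
    have h7 : bl (K.g i x) (cur h i x) (cur h i x) =
        ((K.g i x)⁻¹ * cur h i x).trace.re ^ 2 - tr2M K (cur h) (cur h) x := by
      have h8 := GreenM_5.trace_real hG.isHermitian hθ
      unfold bl
      rw [Complex.sub_re, ← h8, Complex.re_ofReal_mul, Complex.ofReal_re, sq]
      rfl
    rw [h7]
    have h9 := (abs_le.1 (hB2 x)).2
    have h10 := sq_nonneg (((K.g i x)⁻¹ * cur h i x).trace.re)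
    nlinarith [sq_nonneg B1]
  have h11 : fk K h C k x = c * (((K.g i x)⁻¹ * Rf h C (ek k) i x).trace).re := rfl
  unfold q2
  rw [← hi, e1, h11]
  have h12 := mul_le_mul_of_nonneg_left h5 (sq_nonneg c)
  linarith

/-- the form as an integral -/
theorem IM_two (K : Kah A) (P : RPart (ofAtl A)) (hn : 2 ≤ n) (G : K11 A) :
    IM (lc n) (bc n) P (FujP_513.mixv n 2 (ofKah K).f2 G.f2) =
      2 ^ n * (n - 2).factorial * ∫ x, q2 K G.g G.g x ∂(vm (volK K)) := by
  classical
  have h01 : (⟨0, by omega⟩ : Fin n) ≠ ⟨1, by omega⟩ := by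
    intro h; simpa using congrArg Fin.val h
  set X : Fin n → K11 A := fun j => if (j : ℕ) < 2 then G else ofKah K with hX
  have h1 : FujP_513.mixv n 2 (ofKah K).f2 G.f2 = fun j => (X j).f2 := by
    funext j
    unfold FujP_513.mixv
    by_cases hj : (j : ℕ) < 2
    · rw [if_pos hj, hX]
      exact congrArg K11.f2 (if_pos hj).symm
    · rw [if_neg hj, hX]
      exact congrArg K11.f2 (if_neg hj).symm
  rw [h1, IM_apply]
  have hTG : TF A G.g := ⟨G.sm, G.tr⟩
  refine II_two K P h01 X (fun j hj0 hj1 => ?_) (f := q2 K G.g G.g) fun i x hx => ?_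
  · have : ¬ (j : ℕ) < 2 := by
      intro h2
      have h3 : (j : ℕ) ≠ 0 := fun h => hj0 (Fin.ext h)
      have h4 : (j : ℕ) ≠ 1 := fun h => hj1 (Fin.ext h)
      omega
    exact if_neg this
  · have h2 : X ⟨0, by omega⟩ = G := if_pos (by show 0 < 2; omega)
    have h3 : X ⟨1, by omega⟩ = G := if_pos (by show 1 < 2; omega)
    rw [h2, h3, q2_eq K hTG hTG hx]
    exact bl_real K hx (G.herm i x hx) (G.herm i x hx)

theorem IM_add (K : Kah A) (P : RPart (ofAtl A)) (G : K11 A) (u : M → ℝ)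
    (hu : A.Sm u) : IM (lc n) (bc n) P (FujP_513.mixv n 2 (ofKah K).f2 (addU G u hu).f2) =
      IM (lc n) (bc n) P (FujP_513.mixv n 2 (ofKah K).f2 G.f2) := by
  refine IM_coh (lc n) (bc n) P (ori_ofAtl A) fun j => ?_
  unfold FujP_513.mixv
  by_cases hj : (j : ℕ) < 2
  · rw [if_pos hj, if_pos hj]
    exact Fuj3_207.ex_sub u hu _ _ fun _ _ _ => rfl
  · rw [if_neg hj, if_neg hj, sub_self]
    exact (Ti_846.exS (ofAtl A)).zero_mem

/-- **`∫ θ² K^(n-2) ≥ 0` for a movable class** -/
theorem IM_mov [ConnectedSpace M] (P' : Geo.Part A) (K : Kah A) (P : RPart (ofAtl A))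
    (hn : 2 ≤ n) (hC : ∀ j, IsHS L univ (C j)) (hS : Star A {x | nrm h C x = 0}) :
    0 ≤ IM (lc n) (bc n) P (FujP_513.mixv n 2 (ofKah K).f2 (curK h).f2) := by
  have hfin := isFinite_vm (volK K)
  have hop := isOpenPos_vm (volK K)
  have cN : Continuous (nrm h C) := cont_sm (sm_nrm hC)
  have hZ : IsClosed {x | nrm h C x = 0} := isClosed_eq cN continuous_const
  have hae : ∀ᵐ x ∂(vm (volK K)), 0 < nrm h C x := by
    filter_upwards [hS.ae_pos (by omega) hZ (volK K)] with x hx
    exact lt_of_le_of_ne (nrm_nonneg hC x) (Ne.symm hx)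
  obtain ⟨B, hB⟩ := int_abs_ue P' K hC (h := h) (by
    have : (ae (vm (volK K))).NeBot := by
      rw [ae_neBot]
      intro h0
      have := IsOpen.measure_pos (vm (volK K)) (isOpen_univ (X := M)) univ_nonempty
      rw [h0] at this
      simp at this
    exact hae.exists)
  have hlog := lint_log hC hae hB
  have hl1 := glob_lim K hC hS hlog
  have hl2 := sq_lim K hC hae
  obtain ⟨B', C₁, hq⟩ := q2_lower (h := h) (C := C) K hC
  have hlim : Tendsto (fun k => 2 ^ n * ((n - 2).factorial : ℝ) *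
      (-(2 * B') * ∫ x, fk K h C k x ∂(vm (volK K)) -
        C₁ * ∫ x, (1 - ct h C (ek k) x) ^ 2 ∂(vm (volK K)))) atTop (𝓝 0) := by
    have := ((hl1.const_mul (-(2 * B'))).sub (hl2.const_mul C₁)).const_mul
      (2 ^ n * ((n - 2).factorial : ℝ))
    simpa using this
  refine le_of_tendsto hlim (Eventually.of_forall fun k => ?_)
  rw [← IM_add K P (curK h) (ue h C (ek k)) (sm_ue hC (ek_pos k)), IM_two K P hn]
  refine mul_le_mul_of_nonneg_left ?_ (by positivity)
  have i1 : Integrable (fun x => fk K h C k x) (vm (volK K)) :=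
    integrable_cont _ (cont_fk K hC k)
  have i2 : Integrable (fun x => (1 - ct h C (ek k) x) ^ 2) (vm (volK K)) :=
    integrable_cont _ ((continuous_const.sub (cont_sm (sm_ct hC (ek_pos k)))).pow 2)
  rw [← integral_const_mul, ← integral_const_mul, ← integral_sub (i1.const_mul _)
    (i2.const_mul _)]
  refine integral_mono ((i1.const_mul _).sub (i2.const_mul _)) ?_ (hq k)
  refine integrable_cont _ ?_
  set G := addU (curK h) (ue h C (ek k)) (sm_ue hC (ek_pos k)) with hGd
  have hTG : TF A G.g := ⟨G.sm, G.tr⟩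
  have h1 : q2 K G.g G.g = fun x => trM K G.g x ^ 2 - tr2M K G.g G.g x := by
    funext x
    have hx := mem_ch A x
    have h8 := GreenM_5.trace_real (K.pos _ x hx).isHermitian (G.herm _ x hx)
    unfold q2 bl trM trC tr2M en
    rw [Complex.sub_re, ← h8, Complex.re_ofReal_mul, Complex.ofReal_re, sq]
  rw [h1]
  exact ((cont_trM K hTG).pow 2).sub (cont_tr2M K hTG hTG)

end glob

end

end Crest.Agent.R281.Mov_625
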