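import Crest.Agent.R281.LEnd0_10
import Crest.Agent.R273.LeviR_155

/-!
# R281 (S0424), MULT (helper10), part 0: one complex variable

`no_localMax` : `log |f|² - w ∘ γ + a |ζ|² - m log |B|²` has no local maximum at a point where
`f, B ≠ 0` and the Levi form of `w` on `γ'` is `< a`.
`Bl ζ = 2 (ζ - 1) / (4 - ζ)` : the Blaschke factor of the disc of radius `2` with the zero `1`.
-/

set_option autoImplicit false
set_option linter.unusedSectionVars false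

open Set Filter Topology Complex Metric
open scoped ContDiff Matrix ComplexConjugate Manifold ComplexOrder

namespace Crest.Agent.R281.Mult_10

open Crest.Agent.R275.Geo Crest.Agent.R275.Core144 Crest.Agent.R275.GC293
open Crest.Agent.R273.Defs_333 Crest.Agent.R273.Kah_333 Crest.Agent.R273.HM_333
open Crest.Agent.R273.Hess_333 Crest.Agent.R273.HessB_333
open Crest.Agent.R273.FS_333 (hess_sq contDiffAt_of_hol)
open Crest.Agent.R273.Map_835 (mt)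

noncomputable section

/-- the point `ζ` of `Cn 1` -/
def pt (ζ : ℂ) : Cn 1 := EuclideanSpace.single 0 ζ

@[simp] theorem pt_zero (ζ : ℂ) : pt ζ 0 = ζ := by simp [pt]

theorem two_le_inf : (2 : WithTop ℕ∞) ≤ (∞ : WithTop ℕ∞) := by
  have h : ((2 : ℕ∞) : WithTop ℕ∞) ≤ ((⊤ : ℕ∞) : WithTop ℕ∞) := WithTop.coe_le_coe.2 le_top
  exact h

theorem hess_re_nonpos {F : Cn 1 → ℝ} {z : Cn 1} (hF : ContDiffAt ℝ ∞ F z) (hm : IsLocalMax F z) :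
    (hess F z 0 0).re ≤ 0 := by
  have h1 : 0 ≤ lev (fun z => - F z) z (EuclideanSpace.single 0 1) :=
    Crest.Agent.R273.YauMax_635.lev_nonneg_of_localMin (hF.neg.of_le two_le_inf) hm.neg _
  have h2 := hq_re (hF.neg) (EuclideanSpace.single (0 : Fin 1) (1 : ℂ))
  have h3 : hq (fun z => - F z) z (EuclideanSpace.single 0 1) = - hess F z 0 0 := by
    simp [hq, hess_neg hF]
  rw [h3, Complex.neg_re] at h2
  linarith

theorem analyticAt_c0 (z : Cn 1) : AnalyticAt ℂ (fun y : Cn 1 => y 0) z :=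
  (EuclideanSpace.proj (0 : Fin 1) : Cn 1 →L[ℂ] ℂ).analyticAt z

theorem analyticAt_lift {W : Type*} [NormedAddCommGroup W] [NormedSpace ℂ W] {f : ℂ → W} {ζ : ℂ}
    (hf : AnalyticAt ℂ f ζ) : AnalyticAt ℂ (fun y : Cn 1 => f (y 0)) (pt ζ) := by
  have h : AnalyticAt ℂ f ((fun y : Cn 1 => y 0) (pt ζ)) := by
    show AnalyticAt ℂ f (pt ζ 0)
    rwa [pt_zero]
  exact AnalyticAt.comp (g := f) (f := fun y : Cn 1 => y 0) h (analyticAt_c0 (pt ζ))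

theorem ev_diff {W : Type*} [NormedAddCommGroup W] [NormedSpace ℂ W] [CompleteSpace W] {f : Cn 1 → W} {z : Cn 1}
    (hf : AnalyticAt ℂ f z) : ∀ᶠ y in 𝓝 z, DifferentiableAt ℂ f y :=
  hf.eventually_analyticAt.mono fun _ h => h.differentiableAt

theorem fderiv_lift {W : Type*} [NormedAddCommGroup W] [NormedSpace ℂ W] {f : ℂ → W} {ζ : ℂ}
    (hf : AnalyticAt ℂ f ζ) :
    fderiv ℂ (fun y : Cn 1 => f (y 0)) (pt ζ) (EuclideanSpace.single 0 1) = deriv f ζ := by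
  have h1 : HasFDerivAt f (ContinuousLinearMap.toSpanSingleton ℂ (deriv f ζ)) (pt ζ 0) := by
    rw [pt_zero]
    exact hf.differentiableAt.hasDerivAt.hasFDerivAt
  have h2 : HasFDerivAt (fun y : Cn 1 => y 0) (EuclideanSpace.proj (0 : Fin 1) : Cn 1 →L[ℂ] ℂ)
      (pt ζ) := (EuclideanSpace.proj (0 : Fin 1) : Cn 1 →L[ℂ] ℂ).hasFDerivAt
  have h3 := h1.comp (pt ζ) h2
  have h4 : fderiv ℂ (fun y : Cn 1 => f (y 0)) (pt ζ) = _ := h3.fderiv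
  rw [h4]
  simp

theorem hess_sq0 (a : ℝ) (z : Cn 1) : ContDiffAt ℝ ∞ (fun y : Cn 1 => a * ‖y 0‖ ^ 2) z ∧
    hess (fun y : Cn 1 => a * ‖y 0‖ ^ 2) z 0 0 = (a : ℂ) := by
  have hd : ∀ k : Fin 1, DifferentiableOn ℂ (fun y : Cn 1 => (fun (y : Cn 1) (_ : Fin 1) => y 0) y k)
      univ := fun k y _ => (analyticAt_c0 y).differentiableAt.differentiableWithinAt
  have hc : ContDiffAt ℝ ∞ (fun y : Cn 1 => ‖y 0‖ ^ 2) z :=
    ContDiffAt.norm_sq ℝ ((analyticAt_c0 z).contDiffAt.restrict_scalars ℝ)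
  refine ⟨contDiffAt_const.mul hc, ?_⟩
  rw [hess_const_mul a hc]
  have h1 := hess_sq isOpen_univ hd (mem_univ z) 0 0
  have h2 : Crest.Agent.R273.FS_333.sq (fun (y : Cn 1) (_ : Fin 1) => y 0) = fun y : Cn 1 => ‖y 0‖ ^ 2 := by
    funext y
    simp [Crest.Agent.R273.FS_333.sq]
  rw [h2] at h1
  have h3 : fderiv ℂ (fun y : Cn 1 => y 0) z (EuclideanSpace.single 0 1) = 1 := by
    have h4 : HasFDerivAt (fun y : Cn 1 => y 0) (EuclideanSpace.proj (0 : Fin 1) : Cn 1 →L[ℂ] ℂ)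
      z := (EuclideanSpace.proj (0 : Fin 1) : Cn 1 →L[ℂ] ℂ).hasFDerivAt
    rw [h4.fderiv]
    simp
  simp only [Matrix.smul_apply, smul_eq_mul]
  rw [h1]
  simp [h3]

variable {N : ℕ}

/-- the function on `Cn 1` -/
def Fn (f B : ℂ → ℂ) (w : Cn N → ℝ) (γ : ℂ → Cn N) (a m : ℝ) (ξ : ℂ) : ℝ :=
  Real.log (‖f ξ‖ ^ 2) - w (γ ξ) + a * ‖ξ‖ ^ 2 - m * Real.log (‖B ξ‖ ^ 2)

theorem hess_Fn {w : Cn N → ℝ} {γ : ℂ → Cn N} {f B : ℂ → ℂ} {ζ : ℂ} (a m : ℝ)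
    (hw : ContDiffAt ℝ ∞ w (γ ζ)) (hγ : AnalyticAt ℂ γ ζ) (hf : AnalyticAt ℂ f ζ) (hf0 : f ζ ≠ 0)
    (hB : AnalyticAt ℂ B ζ) (hB0 : B ζ ≠ 0) :
    ContDiffAt ℝ ∞ (fun y : Cn 1 => Fn f B w γ a m (y 0)) (pt ζ) ∧
    hess (fun y : Cn 1 => Fn f B w γ a m (y 0)) (pt ζ) 0 0 =
      (a : ℂ) - ∑ c, ∑ d, hess w (γ ζ) c d * (deriv γ ζ) c * conj ((deriv γ ζ) d) := by
  have hT : AnalyticAt ℂ (fun y : Cn 1 => γ (y 0)) (pt ζ) := analyticAt_lift hγ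
  have hF : AnalyticAt ℂ (fun y : Cn 1 => f (y 0)) (pt ζ) := analyticAt_lift hf
  have hB' : AnalyticAt ℂ (fun y : Cn 1 => B (y 0)) (pt ζ) := analyticAt_lift hB
  have hw' : ContDiffAt ℝ ∞ w ((fun y : Cn 1 => γ (y 0)) (pt ζ)) := by simpa using hw
  have c1 : ContDiffAt ℝ ∞ (fun y : Cn 1 => Real.log (‖f (y 0)‖ ^ 2)) (pt ζ) :=
    (ContDiffAt.norm_sq ℝ (hF.contDiffAt.restrict_scalars ℝ)).log (by
      simpa using hf0)
  have c4 : ContDiffAt ℝ ∞ (fun y : Cn 1 => Real.log (‖B (y 0)‖ ^ 2)) (pt ζ) :=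
    (ContDiffAt.norm_sq ℝ (hB'.contDiffAt.restrict_scalars ℝ)).log (by
      simpa using hB0)
  have c2 : ContDiffAt ℝ ∞ (fun y : Cn 1 => w (γ (y 0))) (pt ζ) :=
    hw'.comp (pt ζ) (hT.contDiffAt.restrict_scalars ℝ)
  obtain ⟨c3, h3⟩ := hess_sq0 a (pt ζ)
  have c12 : ContDiffAt ℝ ∞ (fun y : Cn 1 => Real.log (‖f (y 0)‖ ^ 2) - w (γ (y 0))) (pt ζ) :=
    c1.sub c2
  have c123 : ContDiffAt ℝ ∞ (fun y : Cn 1 => Real.log (‖f (y 0)‖ ^ 2) - w (γ (y 0)) +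
      a * ‖y 0‖ ^ 2) (pt ζ) := c12.add c3
  have c4' : ContDiffAt ℝ ∞ (fun y : Cn 1 => m * Real.log (‖B (y 0)‖ ^ 2)) (pt ζ) :=
    contDiffAt_const.mul c4
  refine ⟨c123.sub c4', ?_⟩
  have e1 : hess (fun y : Cn 1 => Real.log (‖f (y 0)‖ ^ 2)) (pt ζ) = 0 :=
    hess_log_norm (f := fun y : Cn 1 => f (y 0)) (ev_diff hF) (by simpa using hf0)
  have e4 : hess (fun y : Cn 1 => Real.log (‖B (y 0)‖ ^ 2)) (pt ζ) = 0 :=
    hess_log_norm (f := fun y : Cn 1 => B (y 0)) (ev_diff hB') (by simpa using hB0)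
  have e2 := Crest.Agent.R273.LeviR_155.hess_compR (u := w) hT
    (hw'.of_le two_le_inf)
  have e : hess (fun y : Cn 1 => Fn f B w γ a m (y 0)) (pt ζ) =
      (hess (fun y : Cn 1 => Real.log (‖f (y 0)‖ ^ 2)) (pt ζ) -
        hess (fun y : Cn 1 => w (γ (y 0))) (pt ζ) +
        hess (fun y : Cn 1 => a * ‖y 0‖ ^ 2) (pt ζ)) -
        (m : ℂ) • hess (fun y : Cn 1 => Real.log (‖B (y 0)‖ ^ 2)) (pt ζ) := by
    rw [← hess_const_mul m c4, ← hess_sub c1 c2, ← hess_add c12 c3, ← hess_sub c123 c4']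
    rfl
  rw [e, e1, e4, e2]
  simp only [smul_zero, sub_zero, zero_sub, Matrix.add_apply, Matrix.neg_apply, h3]
  rw [neg_add_eq_sub]
  congr 1
  simp only [Matrix.mul_apply, Matrix.transpose_apply, Matrix.map_apply, Finset.sum_mul]
  rw [Finset.sum_comm]
  have e5 : ∀ c, mt (fderiv ℂ (fun y : Cn 1 => γ (y 0)) (pt ζ)) c 0 = (deriv γ ζ) c := by
    intro c
    rw [← fderiv_lift hγ]
    rfl
  refine Finset.sum_congr rfl fun c _ => Finset.sum_congr rfl fun d _ => ?_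
  rw [e5, e5]
  simp only [pt_zero]
  ring

theorem no_localMax {w : Cn N → ℝ} {γ : ℂ → Cn N} {f B : ℂ → ℂ} {ζ : ℂ} {a m : ℝ}
    (hw : ContDiffAt ℝ ∞ w (γ ζ)) (hγ : AnalyticAt ℂ γ ζ) (hf : AnalyticAt ℂ f ζ) (hf0 : f ζ ≠ 0)
    (hB : AnalyticAt ℂ B ζ) (hB0 : B ζ ≠ 0)
    (hlt : (∑ c, ∑ d, hess w (γ ζ) c d * (deriv γ ζ) c * conj ((deriv γ ζ) d)).re < a) :
    ¬ IsLocalMax (Fn f B w γ a m) ζ := by
  intro hm
  obtain ⟨hc, hh⟩ := hess_Fn a m hw hγ hf hf0 hB hB0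
  have h1 : IsLocalMax (fun y : Cn 1 => Fn f B w γ a m (y 0)) (pt ζ) := by
    have h2 : Tendsto (fun y : Cn 1 => y 0) (𝓝 (pt ζ)) (𝓝 ζ) := by
      have := (analyticAt_c0 (pt ζ)).continuousAt
      simpa [ContinuousAt] using this
    have h3 := h2.eventually hm
    filter_upwards [h3] with y hy
    simpa using hy
  have h4 := hess_re_nonpos hc h1
  rw [hh, Complex.sub_re, Complex.ofReal_re] at h4
  linarith

/-! ### the Blaschke factor -/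

/-- the Blaschke factor -/
def Bl (ζ : ℂ) : ℂ := 2 * (ζ - 1) / (4 - ζ)

theorem four_sub_ne {ζ : ℂ} (h : ‖ζ‖ < 3) : (4 : ℂ) - ζ ≠ 0 := by
  intro h0
  have h1 : ζ = 4 := (sub_eq_zero.1 h0).symm
  rw [h1] at h
  norm_num at h

theorem analyticAt_Bl {ζ : ℂ} (h : ‖ζ‖ < 3) : AnalyticAt ℂ Bl ζ :=
  (analyticAt_const.mul (analyticAt_id.sub analyticAt_const)).div
    (analyticAt_const.sub analyticAt_id) (four_sub_ne h)

theorem Bl_ne {ζ : ℂ} (h : ‖ζ‖ < 3) (h1 : ζ ≠ 1) : Bl ζ ≠ 0 :=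
  div_ne_zero (mul_ne_zero two_ne_zero (sub_ne_zero.2 h1)) (four_sub_ne h)

theorem Bl_one : Bl 1 = 0 := by simp [Bl]

theorem norm_Bl_zero : ‖Bl 0‖ ^ 2 = 1 / 4 := by
  have : Bl 0 = -(1 / 2) := by simp [Bl]; norm_num
  rw [this, norm_neg]
  norm_num

theorem norm_Bl_bd {ζ : ℂ} (h : ‖ζ‖ = 2) : ‖Bl ζ‖ ^ 2 = 1 := by
  have h0 : (4 : ℂ) - ζ ≠ 0 := four_sub_ne (by rw [h]; norm_num)
  have h1 : ‖(4 : ℂ) - ζ‖ ^ 2 ≠ 0 := by
    have := norm_pos_iff.2 h0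
    positivity
  rw [Bl, norm_div, div_pow, div_eq_one_iff_eq h1, norm_mul, mul_pow]
  have h2 : ζ.re ^ 2 + ζ.im ^ 2 = 4 := by
    have := Complex.sq_norm ζ
    rw [h, Complex.normSq_apply] at this
    nlinarith
  rw [Complex.sq_norm (ζ - 1), Complex.sq_norm (4 - ζ), Complex.normSq_apply, Complex.normSq_apply]
  simp only [Complex.sub_re, Complex.sub_im, Complex.one_re, Complex.one_im]
  have e4 : (4 : ℂ).re = 4 := rfl
  have e4' : (4 : ℂ).im = 0 := rfl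
  rw [e4, e4']
  have : ‖(2 : ℂ)‖ = 2 := by norm_num
  rw [this]
  nlinarith

theorem norm_Bl_ge {ζ : ℂ} (h : ‖ζ‖ < 3) : ‖ζ - 1‖ ^ 2 / 16 ≤ ‖Bl ζ‖ ^ 2 := by
  have h0 : (4 : ℂ) - ζ ≠ 0 := four_sub_ne h
  have h1 : 0 < ‖(4 : ℂ) - ζ‖ := norm_pos_iff.2 h0
  have h2 : ‖(4 : ℂ) - ζ‖ ≤ 7 := by
    have := norm_sub_le (4 : ℂ) ζ
    have h4 : ‖(4 : ℂ)‖ = 4 := by norm_num
    linarith
  have h3 : ‖(2 : ℂ)‖ = 2 := by norm_num
  rw [Bl, norm_div, div_pow, norm_mul, mul_pow, h3]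
  rw [div_le_div_iff₀ (by norm_num) (by positivity)]
  have h5 : ‖(4 : ℂ) - ζ‖ ^ 2 ≤ 49 := by nlinarith
  have h6 : 0 ≤ ‖ζ - 1‖ ^ 2 := by positivity
  nlinarith

end

end Crest.Agent.R281.Mult_10
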