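import Crest.Agent.R281.Mult0_10

/-!
# R281 (S0424), MULT (helper10), part 1: the multiplicity bound

`kq K i y v`   : the squared length of the vector `v` at `y` in the metric `K`
`Disc K T κ g` : `g` is a holomorphic disc of radius `3` in `T` with `K(g', g') ≤ κ`
`mult`         : a section which vanishes to order `m` at `x` along all the discs of `T` through
                 `x` is zero on `T`, if `cur h ≤ C K` on `T` and `2 C κ < m log 2`
`mult_jet`, `mult_pow`.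
-/

set_option autoImplicit false
set_option linter.unusedSectionVars false

open Set Filter Topology Complex Metric Asymptotics
open scoped ContDiff Matrix ComplexConjugate Manifold ComplexOrder

namespace Crest.Agent.R281.Mult_10

open Crest.Agent.R275.Geo Crest.Agent.R275.Core144 Crest.Agent.R275.GC293
open Crest.Agent.R273.Defs_333 Crest.Agent.R273.Kah_333 Crest.Agent.R273.HM_333
open Crest.Agent.R273.Hess_333 Crest.Agent.R273.HessB_333

noncomputable section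

variable {N : ℕ} {M : Type} [TopologicalSpace M] {A : Atl N M}

/-- the squared length of `v` at `y` -/
def kq (K : Kah A) (i : A.ι) (y : M) (v : Cn N) : ℝ :=
  (∑ a, ∑ b, K.g i y a b * v a * conj (v b)).re

/-- a holomorphic disc of radius `3` in `T`, of squared speed `≤ κ` -/
structure Disc (K : Kah A) (T : Set M) (κ : ℝ) (g : ℂ → M) : Prop where
  mem : ∀ ζ ∈ ball (0 : ℂ) 3, g ζ ∈ T
  cont : ContinuousOn g (ball 0 3)
  hol : ∀ i, ∀ ζ ∈ ball (0 : ℂ) 3, g ζ ∈ (A.e i).source →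
    DifferentiableAt ℂ (fun ξ => A.e i (g ξ)) ζ
  speed : ∀ i, ∀ ζ ∈ ball (0 : ℂ) 3, g ζ ∈ (A.e i).source →
    kq K i (g ζ) (deriv (fun ξ => A.e i (g ξ)) ζ) ≤ κ

/-! ### the squared length of a section as a function on `M` -/

/-- `|s|²` -/
def Nf {L : LB A} (h : HM L) (s : A.ι → M → ℂ) (y : M) : ℝ :=
  nsq h s (Classical.choose (A.cover y)) y

variable {L : LB A} {h : HM L} {s : A.ι → M → ℂ} {U : Set M}

theorem Nf_eq (hs : IsHS L U s) {i : A.ι} {y : M} (hi : y ∈ (A.e i).source) (hU : y ∈ U) :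
    Nf h s y = ‖s i y‖ ^ 2 * h.w i y :=
  nsq_indep h hs ⟨Classical.choose_spec (A.cover y), hi⟩ hU

theorem contAt_chart {β : Type*} [TopologicalSpace β] {f : M → β} {i : A.ι} {x : M}
    (hx : x ∈ (A.e i).source) (hf : ContinuousAt (fun z => f ((A.e i).symm z)) (A.e i x)) :
    ContinuousAt f x := by
  have h2 : ContinuousAt (fun y => f ((A.e i).symm (A.e i y))) x :=
    hf.comp (f := A.e i) (x := x) ((A.e i).continuousAt hx)
  refine h2.congr ?_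
  filter_upwards [(A.e i).open_source.mem_nhds hx] with y hy
  rw [(A.e i).left_inv hy]

theorem contAt_w (h : HM L) {i : A.ι} {y : M} (hi : y ∈ (A.e i).source) :
    ContinuousAt (h.w i) y :=
  contAt_chart hi ((h.sm i).continuousOn.continuousAt
    ((A.e i).open_target.mem_nhds ((A.e i).map_source hi)))

theorem diffAt_s (hU : IsOpen U) (hs : IsHS L U s) {i : A.ι} {y : M} (hi : y ∈ (A.e i).source)
    (hyU : y ∈ U) : DifferentiableAt ℂ (fun z => s i ((A.e i).symm z)) (A.e i y) :=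
  (hs.hol i).differentiableAt ((isOpen_ti hU).mem_nhds
    ⟨(A.e i).map_source hi, by rw [mem_preimage, (A.e i).left_inv hi]; exact hyU⟩)

theorem contAt_s (hU : IsOpen U) (hs : IsHS L U s) {i : A.ι} {y : M} (hi : y ∈ (A.e i).source)
    (hyU : y ∈ U) : ContinuousAt (s i) y :=
  contAt_chart hi (diffAt_s hU hs hi hyU).continuousAt

theorem contOn_Nf (hU : IsOpen U) (hs : IsHS L U s) : ContinuousOn (Nf h s) U := by
  intro y hy
  obtain ⟨i, hi⟩ := A.cover y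
  have h1 : ContinuousAt (fun y => ‖s i y‖ ^ 2 * h.w i y) y :=
    ((contAt_s hU hs hi hy).norm.pow 2).mul (contAt_w h hi)
  refine (h1.congr ?_).continuousWithinAt
  filter_upwards [(A.e i).open_source.mem_nhds hi, hU.mem_nhds hy] with y' h2 h3
  exact (Nf_eq hs h2 h3).symm

theorem Nf_nonneg (hs : IsHS L U s) {y : M} (hU : y ∈ U) : 0 ≤ Nf h s y := by
  obtain ⟨i, hi⟩ := A.cover y
  rw [Nf_eq hs hi hU]
  exact mul_nonneg (by positivity) (h.pos i y hi).le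

theorem Nf_pos_iff (hs : IsHS L U s) {i : A.ι} {y : M} (hi : y ∈ (A.e i).source) (hU : y ∈ U) :
    0 < Nf h s y ↔ s i y ≠ 0 := by
  rw [Nf_eq hs hi hU]
  have h1 := h.pos i y hi
  constructor
  · intro h2 h3
    rw [h3] at h2
    simp at h2
  · intro h2
    have := norm_pos_iff.2 h2
    positivity

/-! ### along a disc -/

section disc

variable {K : Kah A} {T : Set M} {κ : ℝ} {g : ℂ → M}

theorem Disc.nhds (hg : Disc K T κ g) {i : A.ι} {ζ : ℂ} (hζ : ζ ∈ ball (0 : ℂ) 3)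
    (hi : g ζ ∈ (A.e i).source) : ∀ᶠ ξ in 𝓝 ζ, ξ ∈ ball (0 : ℂ) 3 ∧ g ξ ∈ (A.e i).source := by
  have h1 : ContinuousAt g ζ := hg.cont.continuousAt (isOpen_ball.mem_nhds hζ)
  filter_upwards [isOpen_ball.mem_nhds hζ, h1.eventually ((A.e i).open_source.mem_nhds hi)]
    with ξ h2 h3
  exact ⟨h2, h3⟩

theorem Disc.analyticAt (hg : Disc K T κ g) {i : A.ι} {ζ : ℂ} (hζ : ζ ∈ ball (0 : ℂ) 3)
    (hi : g ζ ∈ (A.e i).source) : AnalyticAt ℂ (fun ξ => A.e i (g ξ)) ζ := by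
  rw [Complex.analyticAt_iff_eventually_differentiableAt]
  filter_upwards [hg.nhds hζ hi] with ξ h1
  exact hg.hol i ξ h1.1 h1.2

theorem Disc.analyticAt_s (hg : Disc K T κ g) (hU : IsOpen U) (hTU : T ⊆ U) (hs : IsHS L U s)
    {i : A.ι} {ζ : ℂ} (hζ : ζ ∈ ball (0 : ℂ) 3) (hi : g ζ ∈ (A.e i).source) :
    AnalyticAt ℂ (fun ξ => s i (g ξ)) ζ := by
  rw [Complex.analyticAt_iff_eventually_differentiableAt]
  filter_upwards [(hg.nhds hζ hi).eventually_nhds] with ξ h1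
  have h2 := h1.self_of_nhds
  have h3 : DifferentiableAt ℂ (fun ξ => s i ((A.e i).symm (A.e i (g ξ)))) ξ :=
    DifferentiableAt.comp (g := fun z => s i ((A.e i).symm z)) (f := fun ξ => A.e i (g ξ)) ξ
      (diffAt_s hU hs h2.2 (hTU (hg.mem ξ h2.1))) (hg.hol i ξ h2.1 h2.2)
  refine h3.congr_of_eventuallyEq ?_
  filter_upwards [h1] with ξ' h4
  rw [(A.e i).left_inv h4.2]

/-- the Levi form of the weight along the disc -/
theorem Disc.levi_le (hg : Disc K T κ g) {C : ℝ} (hC : 0 ≤ C)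
    (hcur : ∀ i, ∀ y ∈ (A.e i).source, y ∈ T → ((C : ℂ) • K.g i y - cur h i y).PosSemidef)
    {i : A.ι} {ζ : ℂ} (hζ : ζ ∈ ball (0 : ℂ) 3) (hi : g ζ ∈ (A.e i).source) :
    (∑ c, ∑ d, hess (h.wt i) (A.e i (g ζ)) c d * (deriv (fun ξ => A.e i (g ξ)) ζ) c *
      conj ((deriv (fun ξ => A.e i (g ξ)) ζ) d)).re ≤ C * κ := by
  set v : Cn N := deriv (fun ξ => A.e i (g ξ)) ζ with hv
  have h1 := (hcur i (g ζ) hi (hg.mem ζ hζ)).dotProduct_mulVec_nonneg (fun a => conj (v a))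
  have h2 : star (fun a => conj (v a)) ⬝ᵥ (((C : ℂ) • K.g i (g ζ) - cur h i (g ζ)) *ᵥ
      (fun a => conj (v a))) = (C : ℂ) * (∑ a, ∑ b, K.g i (g ζ) a b * v a * conj (v b)) -
      ∑ a, ∑ b, hess (h.wt i) (A.e i (g ζ)) a b * v a * conj (v b) := by
    rw [Matrix.sub_mulVec, Matrix.smul_mulVec, dotProduct_sub, dotProduct_smul, smul_eq_mul]
    simp only [dotProduct, Matrix.mulVec, Pi.star_apply, RCLike.star_def, Finset.mul_sum,
      Complex.conj_conj, cur]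
    congr 1
    · refine Finset.sum_congr rfl fun a _ => Finset.sum_congr rfl fun b _ => ?_
      ring
    · refine Finset.sum_congr rfl fun a _ => Finset.sum_congr rfl fun b _ => ?_
      ring
  rw [h2] at h1
  have h3 := (Complex.le_def.1 h1).1
  rw [Complex.sub_re, Complex.re_ofReal_mul, Complex.zero_re] at h3
  have h4 : kq K i (g ζ) v ≤ κ := hg.speed i ζ hζ hi
  have h5 : C * kq K i (g ζ) v ≤ C * κ := mul_le_mul_of_nonneg_left h4 hC
  unfold kq at h5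
  linarith

/-- the function of the maximum principle -/
def Gf (h : HM L) (s : A.ι → M → ℂ) (g : ℂ → M) (a m : ℝ) (ξ : ℂ) : ℝ :=
  Nf h s (g ξ) * Real.exp (a * ‖ξ‖ ^ 2) * (‖Bl ξ‖ ^ 2) ^ (-m)

theorem Disc.no_max (hg : Disc K T κ g) (hU : IsOpen U) (hTU : T ⊆ U) (hs : IsHS L U s) {C : ℝ}
    (hC : 0 ≤ C)
    (hcur : ∀ i, ∀ y ∈ (A.e i).source, y ∈ T → ((C : ℂ) • K.g i y - cur h i y).PosSemidef)
    {a m : ℝ} (ha : C * κ < a) {ζ : ℂ} (hζ : ζ ∈ ball (0 : ℂ) 3) (h1 : ζ ≠ 1)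
    (hpos : 0 < Nf h s (g ζ)) : ¬ IsLocalMax (Gf h s g a m) ζ := by
  intro hm
  obtain ⟨i, hi⟩ := A.cover (g ζ)
  have hf0 : s i (g ζ) ≠ 0 := (Nf_pos_iff hs hi (hTU (hg.mem ζ hζ))).1 hpos
  have hζ3 : ‖ζ‖ < 3 := by simpa using hζ
  have hf := hg.analyticAt_s hU hTU hs hζ hi
  have hB := analyticAt_Bl hζ3
  have hB0 := Bl_ne hζ3 h1
  refine no_localMax (w := h.wt i) (γ := fun ξ => A.e i (g ξ)) (f := fun ξ => s i (g ξ))
    (B := Bl) (m := m) (wt_contDiffAt h i ((A.e i).map_source hi)) (hg.analyticAt hζ hi) hf hf0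
    hB hB0 ((hg.levi_le hC hcur hζ hi).trans_lt ha) ?_
  -- `log Gf` near `ζ`
  have e : ∀ᶠ ξ in 𝓝 ζ, 0 < Gf h s g a m ξ ∧ Real.log (Gf h s g a m ξ) =
      Fn (fun ξ => s i (g ξ)) Bl (h.wt i) (fun ξ => A.e i (g ξ)) a m ξ := by
    filter_upwards [hg.nhds hζ hi, hf.continuousAt.eventually_ne hf0,
      hB.continuousAt.eventually_ne hB0] with ξ h2 h3 h4
    have hu := hTU (hg.mem ξ h2.1)
    have hN : Nf h s (g ξ) = ‖s i (g ξ)‖ ^ 2 * h.w i (g ξ) := Nf_eq hs h2.2 hu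
    have hw := h.pos i (g ξ) h2.2
    have p1 : 0 < ‖s i (g ξ)‖ ^ 2 := by
      have := norm_pos_iff.2 h3
      positivity
    have p2 : 0 < ‖Bl ξ‖ ^ 2 := by
      have := norm_pos_iff.2 h4
      positivity
    have p3 : 0 < (‖Bl ξ‖ ^ 2) ^ (-m) := Real.rpow_pos_of_pos p2 _
    have p4 : 0 < Nf h s (g ξ) := by
      rw [hN]
      positivity
    refine ⟨by unfold Gf; positivity, ?_⟩
    unfold Gf Fn
    rw [Real.log_mul (by positivity) p3.ne', Real.log_mul p4.ne' (Real.exp_pos _).ne', hN,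
      Real.log_mul p1.ne' hw.ne', Real.log_exp, Real.log_rpow p2]
    simp only [HM.wt, (A.e i).left_inv h2.2]
    ring
  have h5 := e.self_of_nhds
  filter_upwards [e, hm] with ξ h6 h7
  rw [← h6.2, ← h5.2]
  exact Real.log_le_log h6.1 h7

theorem Disc.tendsto_one (hg : Disc K T κ g) (hU : IsOpen U) (hTU : T ⊆ U) (hs : IsHS L U s)
    {i₀ : A.ι} (hi : g 1 ∈ (A.e i₀).source) {m : ℕ}
    (hO : (fun ζ => s i₀ (g ζ)) =O[𝓝 1] fun ζ => (ζ - 1) ^ m) {a m' : ℝ} (hm0 : 0 < m')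
    (hm' : m' < m) : ContinuousAt (Gf h s g a m') 1 := by
  have h1mem : (1 : ℂ) ∈ ball (0 : ℂ) 3 := by simp
  have hG1 : Gf h s g a m' 1 = 0 := by
    unfold Gf
    rw [Bl_one, norm_zero, zero_pow two_ne_zero, Real.zero_rpow (by linarith), mul_zero]
  obtain ⟨c, hc0, hc⟩ := hO.exists_nonneg
  have hc := hc.bound
  -- bound of the weight
  have hwc : ContinuousAt (fun ξ => h.w i₀ (g ξ)) 1 :=
    ContinuousAt.comp (g := h.w i₀) (f := g) (contAt_w h hi)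
      (hg.cont.continuousAt (isOpen_ball.mem_nhds h1mem))
  have hwb : ∀ᶠ ξ in 𝓝 (1 : ℂ), h.w i₀ (g ξ) < h.w i₀ (g 1) + 1 :=
    hwc.eventually (gt_mem_nhds (lt_add_one _))
  have hW : 0 < h.w i₀ (g 1) + 1 := by
    have := h.pos i₀ (g 1) hi
    linarith
  set Q : ℝ := c ^ 2 * (h.w i₀ (g 1) + 1) * Real.exp (|a| * 9) * 16 ^ m' with hQ
  have hQ0 : 0 ≤ Q := by positivity
  have key : ∀ᶠ ξ in 𝓝 (1 : ℂ), Gf h s g a m' ξ ≤ Q * (‖ξ - 1‖ ^ 2) ^ ((m : ℝ) - m') ∧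
      0 ≤ Gf h s g a m' ξ := by
    filter_upwards [hc, hwb, hg.nhds h1mem hi] with ξ h1 h2 h3
    have hu := hTU (hg.mem ξ h3.1)
    have hξ3 : ‖ξ‖ < 3 := by simpa using h3.1
    have hN0 : 0 ≤ Nf h s (g ξ) := Nf_nonneg hs hu
    have hG0 : 0 ≤ Gf h s g a m' ξ := by
      unfold Gf
      positivity
    refine ⟨?_, hG0⟩
    rcases eq_or_ne ξ 1 with rfl | hne
    · rw [hG1]
      positivity
    · have ht : 0 < ‖ξ - 1‖ ^ 2 := by
        have := norm_pos_iff.2 (sub_ne_zero.2 hne)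
        positivity
      have hw := h.pos i₀ (g ξ) h3.2
      have b1 : Nf h s (g ξ) ≤ c ^ 2 * (h.w i₀ (g 1) + 1) * (‖ξ - 1‖ ^ 2) ^ m := by
        rw [Nf_eq hs h3.2 hu]
        have b2 : ‖s i₀ (g ξ)‖ ^ 2 ≤ c ^ 2 * (‖ξ - 1‖ ^ 2) ^ m := by
          have b3 : ‖s i₀ (g ξ)‖ ≤ c * ‖ξ - 1‖ ^ m := by
            simpa [norm_pow] using h1
          calc ‖s i₀ (g ξ)‖ ^ 2 ≤ (c * ‖ξ - 1‖ ^ m) ^ 2 := by gcongr
            _ = c ^ 2 * (‖ξ - 1‖ ^ 2) ^ m := by ring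
        calc ‖s i₀ (g ξ)‖ ^ 2 * h.w i₀ (g ξ)
            ≤ (c ^ 2 * (‖ξ - 1‖ ^ 2) ^ m) * (h.w i₀ (g 1) + 1) := by gcongr
          _ = _ := by ring
      have b4 : Real.exp (a * ‖ξ‖ ^ 2) ≤ Real.exp (|a| * 9) := by
        apply Real.exp_le_exp.2
        have : ‖ξ‖ ^ 2 ≤ 9 := by nlinarith [norm_nonneg ξ]
        calc a * ‖ξ‖ ^ 2 ≤ |a| * ‖ξ‖ ^ 2 := by gcongr; exact le_abs_self a
          _ ≤ |a| * 9 := by gcongr
      have b5 : (‖Bl ξ‖ ^ 2) ^ (-m') ≤ 16 ^ m' * (‖ξ - 1‖ ^ 2) ^ (-m') := by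
        have b6 := norm_Bl_ge hξ3
        have b7 : (‖Bl ξ‖ ^ 2) ^ (-m') ≤ (‖ξ - 1‖ ^ 2 / 16) ^ (-m') :=
          Real.rpow_le_rpow_of_nonpos (by positivity) b6 (by linarith)
        refine b7.trans (le_of_eq ?_)
        rw [Real.div_rpow ht.le (by norm_num), Real.rpow_neg (by norm_num : (0:ℝ) ≤ 16),
          div_inv_eq_mul, mul_comm]
      have b8 : ((‖ξ - 1‖ ^ 2) ^ m : ℝ) * (‖ξ - 1‖ ^ 2) ^ (-m') =
          (‖ξ - 1‖ ^ 2) ^ ((m : ℝ) - m') := by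
        rw [← Real.rpow_natCast, ← Real.rpow_add ht, ← sub_eq_add_neg]
      unfold Gf
      calc Nf h s (g ξ) * Real.exp (a * ‖ξ‖ ^ 2) * (‖Bl ξ‖ ^ 2) ^ (-m')
          ≤ (c ^ 2 * (h.w i₀ (g 1) + 1) * (‖ξ - 1‖ ^ 2) ^ m) * Real.exp (|a| * 9) *
            (16 ^ m' * (‖ξ - 1‖ ^ 2) ^ (-m')) := by gcongr
        _ = Q * (((‖ξ - 1‖ ^ 2) ^ m : ℝ) * (‖ξ - 1‖ ^ 2) ^ (-m')) := by rw [hQ]; ring
        _ = _ := by rw [b8]
  have hlim : Tendsto (fun ξ : ℂ => Q * (‖ξ - 1‖ ^ 2) ^ ((m : ℝ) - m')) (𝓝 1) (𝓝 0) := by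
    have h1 : ContinuousAt (fun ξ : ℂ => ‖ξ - 1‖ ^ 2) 1 := by fun_prop
    have h2 : ContinuousAt (fun ξ : ℂ => (‖ξ - 1‖ ^ 2) ^ ((m : ℝ) - m')) 1 :=
      h1.rpow_const (Or.inr (by linarith))
    have h3 : ContinuousAt (fun ξ : ℂ => Q * (‖ξ - 1‖ ^ 2) ^ ((m : ℝ) - m')) 1 :=
      continuousAt_const.mul h2
    have h4 : Q * (‖(1 : ℂ) - 1‖ ^ 2) ^ ((m : ℝ) - m') = 0 := by
      rw [sub_self, norm_zero, zero_pow two_ne_zero, Real.zero_rpow (by linarith), mul_zero]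
    have h5 := h3.tendsto
    rwa [h4] at h5
  show Tendsto (Gf h s g a m') (𝓝 1) (𝓝 (Gf h s g a m' 1))
  rw [hG1]
  exact squeeze_zero' (key.mono fun ξ h => h.2) (key.mono fun ξ h => h.1) hlim

theorem Disc.contOn_Gf (hg : Disc K T κ g) (hU : IsOpen U) (hTU : T ⊆ U) (hs : IsHS L U s)
    {i₀ : A.ι} (hi : g 1 ∈ (A.e i₀).source) {m : ℕ}
    (hO : (fun ζ => s i₀ (g ζ)) =O[𝓝 1] fun ζ => (ζ - 1) ^ m) {a m' : ℝ} (hm0 : 0 < m')
    (hm' : m' < m) : ContinuousOn (Gf h s g a m') (closedBall 0 2) := by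
  intro ξ hξ
  rcases eq_or_ne ξ 1 with rfl | hne
  · exact (hg.tendsto_one hU hTU hs hi hO hm0 hm').continuousWithinAt
  · have hξ3 : ‖ξ‖ < 3 := by
      have : ‖ξ‖ ≤ 2 := by simpa using hξ
      linarith
    have hb : ξ ∈ ball (0 : ℂ) 3 := by simpa using hξ3
    have h1 : ContinuousAt (fun ξ => Nf h s (g ξ)) ξ :=
      ContinuousAt.comp (g := Nf h s) (f := g)
        ((contOn_Nf hU hs).continuousAt (hU.mem_nhds (hTU (hg.mem ξ hb))))
        (hg.cont.continuousAt (isOpen_ball.mem_nhds hb))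
    have h2 : ContinuousAt (fun ξ => ‖Bl ξ‖ ^ 2) ξ := ((analyticAt_Bl hξ3).continuousAt.norm.pow 2)
    have h3 : ContinuousAt (fun ξ => (‖Bl ξ‖ ^ 2) ^ (-m')) ξ := by
      refine h2.rpow_const (Or.inl ?_)
      have := norm_pos_iff.2 (Bl_ne hξ3 hne)
      positivity
    have h4 : ContinuousAt (fun ξ : ℂ => Real.exp (a * ‖ξ‖ ^ 2)) ξ := by fun_prop
    exact ((h1.mul h4).mul h3).continuousWithinAt

/-- the multiplicity bound along one disc through a maximum point -/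
theorem Disc.absurd (hg : Disc K T κ g) (hU : IsOpen U) (hTU : T ⊆ U) (hs : IsHS L U s) {C : ℝ}
    (hC : 0 ≤ C)
    (hcur : ∀ i, ∀ y ∈ (A.e i).source, y ∈ T → ((C : ℂ) • K.g i y - cur h i y).PosSemidef)
    (hmax : ∀ y ∈ T, Nf h s y ≤ Nf h s (g 0)) (hpos : 0 < Nf h s (g 0))
    {i₀ : A.ι} (hi : g 1 ∈ (A.e i₀).source) {m : ℕ}
    (hO : (fun ζ => s i₀ (g ζ)) =O[𝓝 1] fun ζ => (ζ - 1) ^ m)
    (hm : 2 * (C * κ) < m * Real.log 2) : False := by
  have hlog : 0 < Real.log 2 := Real.log_pos one_lt_two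
  have hlog1 : Real.log 2 < 1 := by
    have := Real.log_two_lt_d9
    linarith
  -- `0 ≤ C κ`
  have hκ : 0 ≤ C * κ := by
    have h0 : (0 : ℂ) ∈ ball (0 : ℂ) 3 := by simp
    obtain ⟨i, hi'⟩ := A.cover (g 0)
    have h1 := hg.speed i 0 h0 hi'
    have h2 : 0 ≤ kq K i (g 0) (deriv (fun ξ => A.e i (g ξ)) 0) := by
      set v : Cn N := deriv (fun ξ => A.e i (g ξ)) 0
      have h3 := (K.pos i (g 0) hi').posSemidef.dotProduct_mulVec_nonneg (fun a => conj (v a))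
      have h4 : star (fun a => conj (v a)) ⬝ᵥ ((K.g i (g 0)) *ᵥ (fun a => conj (v a))) =
          ∑ a, ∑ b, K.g i (g 0) a b * v a * conj (v b) := by
        simp only [dotProduct, Matrix.mulVec, Pi.star_apply, RCLike.star_def, Finset.mul_sum,
          Complex.conj_conj]
        refine Finset.sum_congr rfl fun a _ => Finset.sum_congr rfl fun b _ => ?_
        ring
      rw [h4] at h3
      exact (Complex.le_def.1 h3).1
    exact mul_nonneg hC (h2.trans h1)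
  set δ : ℝ := m * Real.log 2 - 2 * (C * κ) with hδ
  have hδ0 : 0 < δ := by linarith
  set a : ℝ := C * κ + δ / 8 with ha
  set m' : ℝ := m - δ / 8 with hm'
  have hml : m' * Real.log 2 > 2 * a := by
    have e1 : m' * Real.log 2 = m * Real.log 2 - δ / 8 * Real.log 2 := by rw [hm']; ring
    have e2 : δ / 8 * Real.log 2 ≤ δ / 8 := by nlinarith
    rw [e1, ha]
    linarith
  have hm0 : 0 < m' := by
    have : 0 < m' * Real.log 2 := by linarith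
    exact pos_of_mul_pos_left this hlog.le
  have hmm : m' < m := by rw [hm']; linarith
  have hcont : ContinuousOn (Gf h s g a m') (closedBall 0 2) :=
    hg.contOn_Gf hU hTU hs hi hO hm0 hmm
  obtain ⟨ζ, hζ, hζmax⟩ := (isCompact_closedBall (0 : ℂ) 2).exists_isMaxOn
    ⟨0, by simp⟩ hcont
  have hζmax' : ∀ ξ ∈ closedBall (0 : ℂ) 2, Gf h s g a m' ξ ≤ Gf h s g a m' ζ := fun ξ hξ =>
    hζmax hξ
  have hζ2 : ‖ζ‖ ≤ 2 := by simpa using hζ
  have hζ3 : ζ ∈ ball (0 : ℂ) 3 := by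
    simp only [mem_ball_zero_iff]
    linarith
  have hG0 : Gf h s g a m' 0 = Nf h s (g 0) * (1 / 4 : ℝ) ^ (-m') := by
    unfold Gf
    rw [norm_Bl_zero]
    simp
  have hG0pos : 0 < Gf h s g a m' 0 := by
    rw [hG0]
    positivity
  have hGζ : 0 < Gf h s g a m' ζ := hG0pos.trans_le (hζmax' 0 (by simp))
  have hne : ζ ≠ 1 := by
    rintro rfl
    unfold Gf at hGζ
    rw [Bl_one, norm_zero, zero_pow two_ne_zero, Real.zero_rpow (by linarith), mul_zero] at hGζ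
    exact lt_irrefl _ hGζ
  have hNζ : 0 < Nf h s (g ζ) := by
    by_contra h1
    have h2 : Nf h s (g ζ) = 0 :=
      le_antisymm (not_lt.1 h1) (Nf_nonneg hs (hTU (hg.mem ζ hζ3)))
    unfold Gf at hGζ
    rw [h2, zero_mul, zero_mul] at hGζ
    exact lt_irrefl _ hGζ
  rcases hζ2.lt_or_eq with hlt | heq
  · refine hg.no_max hU hTU hs hC hcur (a := a) (m := m') (by rw [ha]; linarith) hζ3 hne hNζ ?_
    have h1 : closedBall (0 : ℂ) 2 ∈ 𝓝 ζ := by
      refine mem_of_superset (isOpen_ball.mem_nhds ?_) ball_subset_closedBall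
      simpa using hlt
    filter_upwards [h1] with ξ hξ using hζmax' ξ hξ
  · have h1 : Gf h s g a m' ζ = Nf h s (g ζ) * Real.exp (a * 4) := by
      unfold Gf
      rw [norm_Bl_bd heq, heq, Real.one_rpow, mul_one]
      norm_num
    have h2 := hζmax' 0 (by simp)
    rw [hG0, h1] at h2
    have h3 : Nf h s (g ζ) * Real.exp (a * 4) ≤ Nf h s (g 0) * Real.exp (a * 4) := by
      have := hmax (g ζ) (hg.mem ζ hζ3)
      gcongr
    have h4 : (1 / 4 : ℝ) ^ (-m') ≤ Real.exp (a * 4) :=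
      le_of_mul_le_mul_left (h2.trans h3) hpos
    have h5 : (1 / 4 : ℝ) ^ (-m') = Real.exp (2 * (m' * Real.log 2)) := by
      rw [Real.rpow_def_of_pos (by norm_num)]
      congr 1
      have : Real.log (1 / 4) = - (2 * Real.log 2) := by
        rw [one_div, Real.log_inv]
        have : (4 : ℝ) = 2 ^ 2 := by norm_num
        rw [this, Real.log_pow]
        push_cast
        ring
      rw [this]
      ring
    rw [h5, Real.exp_le_exp] at h4
    linarith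

end disc

/-- **the multiplicity bound** -/
theorem mult {T : Set M} (hT : IsCompact T) (K : Kah A) {L : LB A} (h : HM L) {C κ : ℝ}
    (hcur : ∀ i, ∀ y ∈ (A.e i).source, y ∈ T → ((C : ℂ) • K.g i y - cur h i y).PosSemidef)
    (hC : 0 ≤ C) {U : Set M} (hU : IsOpen U) (hTU : T ⊆ U) {s : A.ι → M → ℂ} (hs : IsHS L U s)
    {x : M} {i₀ : A.ι} (hi : x ∈ (A.e i₀).source) {m : ℕ}
    (hd : ∀ z ∈ T, ∃ g : ℂ → M, Disc K T κ g ∧ g 0 = z ∧ g 1 = x ∧
      (fun ζ => s i₀ (g ζ)) =O[𝓝 1] fun ζ => (ζ - 1) ^ m)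
    (hm : 2 * (C * κ) < m * Real.log 2) : ∀ y ∈ T, ∀ i, y ∈ (A.e i).source → s i y = 0 := by
  intro y hy i hyi
  by_contra h0
  have hpos : 0 < Nf h s y := (Nf_pos_iff hs hyi (hTU hy)).2 h0
  obtain ⟨z, hz, hzmax⟩ := hT.exists_isMaxOn ⟨y, hy⟩ ((contOn_Nf (h := h) hU hs).mono hTU)
  have hzmax' : ∀ y ∈ T, Nf h s y ≤ Nf h s z := fun y hy => hzmax hy
  obtain ⟨g, hg, hg0, hg1, hO⟩ := hd z hz
  refine hg.absurd (h := h) hU hTU hs hC hcur (i₀ := i₀) (m := m) ?_ ?_ ?_ hO hm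
  · rw [hg0]; exact hzmax'
  · rw [hg0]; exact hpos.trans_le (hzmax' y hy)
  · rw [hg1]; exact hi

/-- the jet condition in a chart implies the condition along the discs -/
theorem Disc.isBigO {K : Kah A} {T : Set M} {κ : ℝ} {g : ℂ → M} (hg : Disc K T κ g)
    {s : A.ι → M → ℂ} {i₀ : A.ι} (hi : g 1 ∈ (A.e i₀).source) {m : ℕ}
    (hj : (fun w => s i₀ ((A.e i₀).symm w)) =O[𝓝 (A.e i₀ (g 1))]
      fun w => ‖w - A.e i₀ (g 1)‖ ^ m) :
    (fun ζ => s i₀ (g ζ)) =O[𝓝 1] fun ζ => (ζ - 1) ^ m := by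
  have h1mem : (1 : ℂ) ∈ ball (0 : ℂ) 3 := by simp
  have hd := hg.hol i₀ 1 h1mem hi
  have h1 : Tendsto (fun ζ => A.e i₀ (g ζ)) (𝓝 1) (𝓝 (A.e i₀ (g 1))) := hd.continuousAt
  have h2 := hj.comp_tendsto h1
  have h3 : (fun ζ => s i₀ (g ζ)) =ᶠ[𝓝 1]
      ((fun w => s i₀ ((A.e i₀).symm w)) ∘ fun ζ => A.e i₀ (g ζ)) := by
    filter_upwards [hg.nhds h1mem hi] with ζ hζ
    show _ = s i₀ ((A.e i₀).symm (A.e i₀ (g ζ)))
    rw [(A.e i₀).left_inv hζ.2]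
  refine h3.trans_isBigO (h2.trans ?_)
  have h4 : (fun ζ => A.e i₀ (g ζ) - A.e i₀ (g 1)) =O[𝓝 1] fun ζ => ζ - 1 := hd.isBigO_sub
  exact (h4.norm_left.pow m)

theorem mult_jet {T : Set M} (hT : IsCompact T) (K : Kah A) {L : LB A} (h : HM L) {C κ : ℝ}
    (hcur : ∀ i, ∀ y ∈ (A.e i).source, y ∈ T → ((C : ℂ) • K.g i y - cur h i y).PosSemidef)
    (hC : 0 ≤ C) {U : Set M} (hU : IsOpen U) (hTU : T ⊆ U) {s : A.ι → M → ℂ} (hs : IsHS L U s)
    {x : M} {i₀ : A.ι} (hi : x ∈ (A.e i₀).source) {m : ℕ}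
    (hd : ∀ z ∈ T, ∃ g : ℂ → M, Disc K T κ g ∧ g 0 = z ∧ g 1 = x)
    (hj : (fun w => s i₀ ((A.e i₀).symm w)) =O[𝓝 (A.e i₀ x)] fun w => ‖w - A.e i₀ x‖ ^ m)
    (hm : 2 * (C * κ) < m * Real.log 2) : ∀ y ∈ T, ∀ i, y ∈ (A.e i).source → s i y = 0 := by
  refine mult hT K h hcur hC hU hTU hs hi (fun z hz => ?_) hm
  obtain ⟨g, hg, hg0, hg1⟩ := hd z hz
  refine ⟨g, hg, hg0, hg1, hg.isBigO (by rw [hg1]; exact hi) (by rw [hg1]; exact hj)⟩

/-- **the multiplicity bound for sections of a power** -/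
theorem mult_pow {T : Set M} (hT : IsCompact T) (K : Kah A) {L : LB A} (h : HM L) {c κ : ℝ}
    (hcur : ∀ i, ∀ y ∈ (A.e i).source, y ∈ T → cur h i y = (c : ℂ) • K.g i y)
    (hc : 0 ≤ c) (hκ : 0 ≤ κ) {U : Set M} (hU : IsOpen U) (hTU : T ⊆ U) (p : ℕ)
    {s : A.ι → M → ℂ} (hs : IsHS (L ^ p) U s)
    {x : M} {i₀ : A.ι} (hi : x ∈ (A.e i₀).source) {m : ℕ}
    (hd : ∀ z ∈ T, ∃ g : ℂ → M, Disc K T κ g ∧ g 0 = z ∧ g 1 = x)
    (hj : (fun w => s i₀ ((A.e i₀).symm w)) =O[𝓝 (A.e i₀ x)] fun w => ‖w - A.e i₀ x‖ ^ m)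
    (hm : 3 * κ * c * p < m) : ∀ y ∈ T, ∀ i, y ∈ (A.e i).source → s i y = 0 := by
  refine mult_jet hT K (pow h p) (C := p * c) (fun i y hy hyT => ?_) (by positivity) hU hTU hs hi
    hd hj ?_
  · have h1 : ((p * c : ℝ) : ℂ) • K.g i y - cur (pow h p) i y = 0 := by
      rw [cur_pow h p i hy, hcur i y hy hyT, smul_smul]
      push_cast
      rw [sub_self]
    rw [h1]
    exact Matrix.PosSemidef.zero
  · have h1 : (2 / 3 : ℝ) ≤ Real.log 2 := by
      have := Real.log_two_gt_d9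
      linarith
    have h2 : (0 : ℝ) < m := by
      have : 0 ≤ 3 * κ * c * p := by positivity
      linarith
    have h3 : (2 / 3 : ℝ) * m ≤ m * Real.log 2 := by nlinarith
    nlinarith

end

end Crest.Agent.R281.Mult_10
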