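import Crest.Agent.R281.Mo1_192
import Mathlib.Analysis.Calculus.BumpFunction.Convolution
import Mathlib.Analysis.Calculus.BumpFunction.FiniteDimension

/-!
# Row 281, S6-MONO (M4), part 0 (helper757): smooth test functions suffice in `SH`

`sh_of_smooth` : if the inequality of `Mo_192.SH` holds for all `γ : ℝ → ℝ` of class `C^∞`
(`γ ≥ 0`, `γ = 0` on `[R, ∞)`), then it holds for all `γ` of class `C²`.
-/

set_option autoImplicit false

open MeasureTheory Set Filter Topology
open scoped ContDiff Convolution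

namespace Crest.Agent.R281.Mv_757

open Crest.Agent.R281.Mo_192

noncomputable section

/-- bumps -/
def bp (k : ℕ) : ContDiffBump (0 : ℝ) where
  rIn := 1 / (2 * ((k : ℝ) + 1))
  rOut := 1 / ((k : ℝ) + 1)
  rIn_pos := by positivity
  rIn_lt_rOut := by
    have : (0 : ℝ) < (k : ℝ) + 1 := by positivity
    apply one_div_lt_one_div_of_lt this
    linarith

theorem bp_rOut (k : ℕ) : (bp k).rOut = 1 / ((k : ℝ) + 1) := rfl

theorem bp_tendsto : Tendsto (fun k => (bp k).rOut) atTop (𝓝 0) :=
  tendsto_one_div_add_atTop_nhds_zero_nat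

/-- shifted regularisation -/
def rg (g : ℝ → ℝ) (k : ℕ) (s : ℝ) : ℝ :=
  ((bp k).normed volume ⋆[ContinuousLinearMap.lsmul ℝ ℝ, volume] g) (s + (bp k).rOut)

theorem rg_def (g : ℝ → ℝ) (k : ℕ) (s : ℝ) :
    rg g k s = ∫ t, (bp k).normed volume t * g (s + (bp k).rOut - t) := rfl

theorem rg_smooth {g : ℝ → ℝ} (hg : Continuous g) (k : ℕ) : ContDiff ℝ ∞ (rg g k) := by
  have h1 : ContDiff ℝ ∞
      ((bp k).normed volume ⋆[ContinuousLinearMap.lsmul ℝ ℝ, volume] g) :=
    (bp k).hasCompactSupport_normed.contDiff_convolution_left _ (bp k).contDiff_normed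
      hg.locallyIntegrable
  exact h1.comp (contDiff_id.add contDiff_const)

theorem rg_zero {g : ℝ → ℝ} {R : ℝ} (hz : ∀ s, R < s → g s = 0) (k : ℕ) {s : ℝ} (hs : R ≤ s) :
    rg g k s = 0 := by
  rw [rg_def]
  have : (fun t => (bp k).normed volume t * g (s + (bp k).rOut - t)) = fun _ => 0 := by
    funext t
    by_cases ht : t ∈ Function.support ((bp k).normed volume)
    · rw [(bp k).support_normed_eq, Metric.mem_ball, dist_zero_right, Real.norm_eq_abs] at ht
      rw [hz _ (by have := (abs_lt.1 ht).2; linarith), mul_zero]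
    · rw [Function.notMem_support.1 ht, zero_mul]
  rw [this, integral_zero]

theorem rg_nonneg {g : ℝ → ℝ} (h0 : ∀ s, 0 ≤ g s) (k : ℕ) (s : ℝ) : 0 ≤ rg g k s := by
  rw [rg_def]
  exact integral_nonneg fun t => mul_nonneg ((bp k).nonneg_normed _) (h0 _)

theorem rg_bound {g : ℝ → ℝ} {B : ℝ} (hB : ∀ s, |g s| ≤ B) (k : ℕ) (s : ℝ) : |rg g k s| ≤ B := by
  rw [rg_def]
  have h1 : Integrable (fun t => (bp k).normed volume t * B) :=
    (bp k).integrable_normed.mul_const B
  calc |∫ t, (bp k).normed volume t * g (s + (bp k).rOut - t)|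
      ≤ ∫ t, |(bp k).normed volume t * g (s + (bp k).rOut - t)| := abs_integral_le_integral_abs
    _ ≤ ∫ t, (bp k).normed volume t * B := by
        refine integral_mono_of_nonneg (Eventually.of_forall fun t => abs_nonneg _) h1
          (Eventually.of_forall fun t => ?_)
        simp only
        rw [abs_mul, abs_of_nonneg ((bp k).nonneg_normed _)]
        exact mul_le_mul_of_nonneg_left (hB _) ((bp k).nonneg_normed _)
    _ = B := by rw [integral_mul_const, (bp k).integral_normed, one_mul]

theorem rg_tendsto {g : ℝ → ℝ} (hg : Continuous g) (s : ℝ) :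
    Tendsto (fun k => rg g k s) atTop (𝓝 (g s)) := by
  refine ContDiffBump.convolution_tendsto_right (φ := bp) (g := fun _ => g)
    (k := fun k => s + (bp k).rOut) (x₀ := s) bp_tendsto
    (Eventually.of_forall fun _ => hg.aestronglyMeasurable) ?_ ?_
  · exact hg.continuousAt.tendsto.comp tendsto_snd
  · simpa using (tendsto_const_nhds (x := s)).add bp_tendsto

theorem rg_deriv {g : ℝ → ℝ} (hg : ContDiff ℝ 1 g) (hc : HasCompactSupport g) (k : ℕ) :
    deriv (rg g k) = rg (deriv g) k := by
  funext s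
  have h1 := hc.hasDerivAt_convolution_right (ContinuousLinearMap.lsmul ℝ ℝ)
    (μ := volume) (f₀ := (bp k).normed volume)
    (bp k).continuous_normed.locallyIntegrable hg (s + (bp k).rOut)
  exact (h1.comp_add_const s (bp k).rOut).deriv

variable {X : Type*} [MeasurableSpace X] {μ : Measure X} {ρ G w : X → ℝ} {d : ℕ} {R : ℝ}

theorem integrable_aux (mρ : Measurable ρ) (int : IntegrableOn w {x | ρ x < R} μ) {h : X → ℝ}
    (hm : Measurable h) {C : ℝ}
    (hC : ∀ x, ρ x < R → |h x| ≤ C) (h0 : ∀ x, R ≤ ρ x → h x = 0) :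
    Integrable (fun x => w x * h x) μ := by
  have hS : MeasurableSet {x | ρ x < R} := measurableSet_lt mρ measurable_const
  have e : (fun x => w x * h x) = {x | ρ x < R}.indicator (fun x => w x * h x) := by
    funext x
    by_cases hx : ρ x < R
    · rw [indicator_of_mem (by simpa using hx)]
    · rw [indicator_of_notMem (by simpa using hx), h0 x (not_lt.1 hx), mul_zero]
  rw [e, integrable_indicator_iff hS]
  refine Integrable.mul_bdd (c := C) int hm.aestronglyMeasurable ?_
  rw [ae_restrict_iff' hS]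
  exact Eventually.of_forall fun x hx => by simpa [Real.norm_eq_abs] using hC x hx

/-- smooth test functions suffice -/
theorem sh_of_smooth (mρ : Measurable ρ) (mG : Measurable G) (G0 : ∀ x, 0 ≤ G x)
    (Gρ : ∀ x, G x ≤ ρ x) (int : IntegrableOn w {x | ρ x < R} μ)
    (h : ∀ γ : ℝ → ℝ, ContDiff ℝ ∞ γ → (∀ s, 0 ≤ γ s) → (∀ s, R ≤ s → γ s = 0) →
      0 ≤ ∫ x, w x * ((d : ℝ) * deriv γ (ρ x) + deriv (deriv γ) (ρ x) * G x) ∂μ) :
    SH μ ρ G w d R := by
  intro γ hγ hγ0 hγz
  have ρ0 : ∀ x, 0 ≤ ρ x := fun x => (G0 x).trans (Gρ x)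
  -- cut off on the left
  set χ : ℝ → ℝ := fun s => Real.smoothTransition (s + 2) with hχ
  have hχs : ContDiff ℝ 2 χ := Real.smoothTransition.contDiff.comp (contDiff_id.add contDiff_const)
  set g : ℝ → ℝ := fun s => χ s * γ s with hg
  have hgs : ContDiff ℝ 2 g := hχs.mul hγ
  have hgc : HasCompactSupport g := by
    refine HasCompactSupport.intro (isCompact_Icc (a := (-2 : ℝ)) (b := R)) fun s hs => ?_
    simp only [mem_Icc, not_and_or, not_le] at hs
    rcases hs with hs | hs
    · simp only [hg, hχ]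
      rw [Real.smoothTransition.zero_of_nonpos (by linarith), zero_mul]
    · simp only [hg]
      rw [hγz s hs.le, mul_zero]
  have hg0 : ∀ s, 0 ≤ g s := fun s => mul_nonneg (Real.smoothTransition.nonneg _) (hγ0 s)
  have hgz : ∀ s, R < s → g s = 0 := fun s hs => by
    simp only [hg]
    rw [hγz s hs.le, mul_zero]
  have hloc : ∀ s, -1 < s → g =ᶠ[𝓝 s] γ := by
    intro s hs
    filter_upwards [lt_mem_nhds hs] with t ht
    simp only [hg, hχ]
    rw [Real.smoothTransition.one_of_one_le (by linarith), one_mul]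
  have hd1 : ∀ s, 0 ≤ s → deriv g s = deriv γ s := fun s hs =>
    (hloc s (by linarith)).deriv_eq
  have hd2 : ∀ s, 0 ≤ s → deriv (deriv g) s = deriv (deriv γ) s := fun s hs =>
    (hloc s (by linarith)).deriv.deriv_eq
  have hg1 : ContDiff ℝ 1 (deriv g) := by
    have : (2 : WithTop ℕ∞) = 1 + 1 := by norm_num
    rw [this, contDiff_succ_iff_deriv] at hgs
    exact hgs.2.2
  have hg2 : Continuous (deriv (deriv g)) := hg1.continuous_deriv le_rfl
  have hgc1 : HasCompactSupport (deriv g) := hgc.deriv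
  have hgc2 : HasCompactSupport (deriv (deriv g)) := hgc1.deriv
  have hz1 : ∀ s, R < s → deriv g s = 0 := by
    intro s hs
    have : g =ᶠ[𝓝 s] fun _ => 0 := by
      filter_upwards [lt_mem_nhds hs] with t ht
      exact hgz t ht
    rw [this.deriv_eq, deriv_const]
  have hz2 : ∀ s, R < s → deriv (deriv g) s = 0 := by
    intro s hs
    have : deriv g =ᶠ[𝓝 s] fun _ => 0 := by
      filter_upwards [lt_mem_nhds hs] with t ht
      exact hz1 t ht
    rw [this.deriv_eq, deriv_const]
  obtain ⟨B1, hB1⟩ := hgc1.exists_bound_of_continuous hg1.continuous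
  obtain ⟨B2, hB2⟩ := hgc2.exists_bound_of_continuous hg2
  simp only [Real.norm_eq_abs] at hB1 hB2
  have hgs1 : ContDiff ℝ 1 g := hgs.of_le (by norm_num)
  have hr1 : ∀ k, deriv (rg g k) = rg (deriv g) k := fun k => rg_deriv hgs1 hgc k
  have hr2 : ∀ k, deriv (rg (deriv g) k) = rg (deriv (deriv g)) k := fun k =>
    rg_deriv hg1 hgc1 k
  have hk : ∀ k, 0 ≤ ∫ x, w x * ((d : ℝ) * rg (deriv g) k (ρ x) +
      rg (deriv (deriv g)) k (ρ x) * G x) ∂μ := by
    intro k
    have := h (rg g k) (rg_smooth hgs.continuous k) (rg_nonneg hg0 k)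
      (fun s hs => rg_zero hgz k hs)
    rwa [hr1, hr2] at this
  have hRz : ∀ s, R ≤ s → deriv g s = 0 := by
    intro s hs
    rcases hs.lt_or_eq with h' | h'
    · exact hz1 s h'
    · rw [← h']
      refine tendsto_nhds_unique (f := deriv g) (l := 𝓝[>] R) ?_ ?_
      · exact hg1.continuous.continuousAt.tendsto.mono_left nhdsWithin_le_nhds
      · refine tendsto_const_nhds.congr' ?_
        filter_upwards [self_mem_nhdsWithin] with t ht
        exact (hz1 t ht).symm
  have hRz2 : ∀ s, R ≤ s → deriv (deriv g) s = 0 := by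
    intro s hs
    rcases hs.lt_or_eq with h' | h'
    · exact hz2 s h'
    · rw [← h']
      refine tendsto_nhds_unique (f := deriv (deriv g)) (l := 𝓝[>] R) ?_ ?_
      · exact hg2.continuousAt.tendsto.mono_left nhdsWithin_le_nhds
      · refine tendsto_const_nhds.congr' ?_
        filter_upwards [self_mem_nhdsWithin] with t ht
        exact (hz2 t ht).symm
  have hG1 : Continuous fun s => rg (deriv g) 0 s := (rg_smooth hg1.continuous 0).continuous
  have hB1' : 0 ≤ B1 := (abs_nonneg _).trans (hB1 0)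
  have hB2' : 0 ≤ B2 := (abs_nonneg _).trans (hB2 0)
  -- dominated convergence
  have hbnd : ∀ k x, ρ x < R → |(d : ℝ) * rg (deriv g) k (ρ x) +
      rg (deriv (deriv g)) k (ρ x) * G x| ≤ d * B1 + B2 * R := by
    intro k x hx
    have h1 := rg_bound hB1 k (ρ x)
    have h2 := rg_bound hB2 k (ρ x)
    have h3 : G x ≤ R := (Gρ x).trans hx.le
    calc |(d : ℝ) * rg (deriv g) k (ρ x) + rg (deriv (deriv g)) k (ρ x) * G x|
        ≤ |(d : ℝ) * rg (deriv g) k (ρ x)| + |rg (deriv (deriv g)) k (ρ x) * G x| := abs_add_le _ _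
      _ ≤ d * B1 + B2 * R := by
          rw [abs_mul, abs_mul, Nat.abs_cast, abs_of_nonneg (G0 x)]
          have h4 := G0 x
          gcongr
  have hmeas : ∀ k, Measurable fun x => (d : ℝ) * rg (deriv g) k (ρ x) +
      rg (deriv (deriv g)) k (ρ x) * G x := fun k =>
    (measurable_const.mul ((rg_smooth hg1.continuous k).continuous.measurable.comp mρ)).add
      (((rg_smooth hg2 k).continuous.measurable.comp mρ).mul mG)
  have hint : ∀ k, Integrable (fun x => w x * ((d : ℝ) * rg (deriv g) k (ρ x) +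
      rg (deriv (deriv g)) k (ρ x) * G x)) μ := fun k =>
    integrable_aux mρ int (hmeas k) (hbnd k) fun x hx => by
      rw [rg_zero hz1 k hx, rg_zero hz2 k hx]; ring
  have hS : MeasurableSet {x | ρ x < R} := measurableSet_lt mρ measurable_const
  have hdom : Integrable (fun x => w x * ({x | ρ x < R}.indicator
      (fun _ => d * B1 + B2 * R) x)) μ := by
    refine integrable_aux mρ int (C := |d * B1 + B2 * R|) (measurable_const.indicator hS) ?_ ?_
    · intro x hx
      rw [indicator_of_mem (by simpa using hx)]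
    · intro x hx
      rw [indicator_of_notMem (by simpa using hx)]
  have hlim : ∀ x, Tendsto (fun k => w x * ((d : ℝ) * rg (deriv g) k (ρ x) +
      rg (deriv (deriv g)) k (ρ x) * G x)) atTop
      (𝓝 (w x * ((d : ℝ) * deriv γ (ρ x) + deriv (deriv γ) (ρ x) * G x))) := by
    intro x
    rw [← hd1 _ (ρ0 x), ← hd2 _ (ρ0 x)]
    exact (((rg_tendsto hg1.continuous _).const_mul _).add
      ((rg_tendsto hg2 _).mul_const _)).const_mul _
  have hDCT := tendsto_integral_of_dominated_convergence (μ := μ) _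
    (fun k => (hint k).aestronglyMeasurable) hdom.norm ?_ (Eventually.of_forall hlim)
  · exact ge_of_tendsto hDCT (Eventually.of_forall hk)
  · intro k
    refine Eventually.of_forall fun x => ?_
    rw [norm_mul, norm_mul]
    refine mul_le_mul_of_nonneg_left ?_ (norm_nonneg _)
    by_cases hx : ρ x < R
    · rw [indicator_of_mem (by simpa using hx), Real.norm_eq_abs, Real.norm_eq_abs]
      exact (hbnd k x hx).trans (le_abs_self _)
    · rw [rg_zero hz1 k (not_lt.1 hx), rg_zero hz2 k (not_lt.1 hx)]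
      simp

end

end Crest.Agent.R281.Mv_757
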