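import Crest.Agent.R281.Mv9_757

/-!
# Row 281, S6-MONO (M4), part 10 (helper757): the mean value inequality on a disc family, conclusion

* `fam_mvi` : `F : Fam A d 1 U`, `K.g i ≥ c` on `{x ∈ source i | |e_i x - e_i p|² < R}`, `w ≥ 0` smooth
  on `F.V`, psh on `{|Ph|² < R}`, `tsupport w ∩ {|Ph|² ≤ r}` compact for `r < R`, `F.i q = p`,
  `F.y q = y0`:
  `bv (d+1) * w q * R^(d+1) ≤ c^-(d+1) ∫ w d(F.mu K) + c^-d ∫ w dν` over `{|Ph|² < R}`
  (`ν = Mass3_519.nu F K`), as lower integrals.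
-/

set_option autoImplicit false
set_option linter.unusedSectionVars false

open Set Filter Topology Complex MeasureTheory Function
open scoped ContDiff Matrix ComplexConjugate ComplexOrder ENNReal

namespace Crest.Agent.R281.Mv_757

open Crest.Agent.R275 Crest.Agent.R275.Geo Crest.Agent.R275.Core144 Crest.Agent.R275.EDR890
open Crest.Agent.R275.Pai323 Crest.Agent.R275.C1d194
open Crest.Agent.R273.Defs_333 Crest.Agent.R273.Hess_333 Crest.Agent.R273.HessB_333
open Crest.Agent.R273.HM_333 Crest.Agent.R273.Kah_333 Crest.Agent.R273.Vol_333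
open Crest.Agent.R273.Vm_333 Crest.Agent.R273.FIb0_597 Crest.Agent.R273.Map_835
open Crest.Agent.R273.KahI_645 Crest.Agent.R273
open Crest.Agent.R281 Crest.Agent.R281.S6D_664 Crest.Agent.R281.Mass3_519

noncomputable section

variable {N d : ℕ} {M : Type} [TopologicalSpace M] {A : Atl N M} {U : Set (Cn 1)}

variable (F : Fam A d 1 U) (i : A.ι) (p : M) (y0 : Cn 1)

/-- the ball `{v | F.i v ∈ source i, |Ph|² < R}` -/
def BP (R : ℝ) : Set F.V := {v | F.i v ∈ (A.e i).source ∧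
  ‖F.y v 0 - y0 0‖ ^ 2 + ‖A.e i (F.i v) - A.e i p‖ ^ 2 < R}

theorem BP_eq (R : ℝ) : BP F i p y0 R = {x | x ∈ WP F i ∧ sF (Ph F i p y0) x < R} := by
  ext v
  simp only [BP, mem_ofPred_eq, sF_Ph]
  rfl

variable [MeasurableSpace F.V] [BorelSpace F.V]

theorem meas_BP (R : ℝ) : MeasurableSet (BP F i p y0 R) := by
  have h1 : {x | x ∈ WP F i ∧ sF (Ph F i p y0) x < R} =
      WP F i ∩ {x | sF (Ph F i p y0) x < R} := rfl
  rw [BP_eq, h1, ← sL_lt' (F := Ph F i p y0) (W0 := WP F i) (le_refl R)]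
  exact measurableSet_lt (meas_sL (hfl_Ph F i p y0) (isOpen_WP F i) R) measurable_const

/-- comparison of the measures on `BP` -/
theorem muL_le (K : Kah A) {c : ℝ} (hc : 0 < c) {R : ℝ}
    (hK : ∀ x ∈ (A.e i).source, ‖A.e i x - A.e i p‖ ^ 2 < R →
      (K.g i x - (c : ℂ) • (1 : Matrix (Fin N) (Fin N) ℂ)).PosSemidef)
    {w : F.V → ℝ} (hw : Measurable w) :
    ∫⁻ x in BP F i p y0 R, ENNReal.ofReal (w x)
        ∂(muL (volK (F.kah K)) (WP F i) (Ph F i p y0)) ≤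
      ENNReal.ofReal (c ^ (d + 1))⁻¹ *
          ∫⁻ x in BP F i p y0 R, ENNReal.ofReal (w x) ∂(vm (volK (F.kah K))) +
        ENNReal.ofReal (c ^ d)⁻¹ * ∫⁻ x in BP F i p y0 R, ENNReal.ofReal (w x) ∂(nu F K) := by
  set h := volK (F.kah K) with hh
  set h2 := volF (adl F) (F.kah K) with hh2
  have hS := meas_BP F i p y0 R
  have hnu : nu F K = (vm h).withDensity (fun x => ENNReal.ofReal (dq h h2.w x)) :=
    (vm_ratio h h2).symm
  have hrm : Measurable fun x => ENNReal.ofReal (dq h h2.w x) :=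
    (sm_cont (sm_dq h (rd_w h2) h2.sm)).measurable.ennreal_ofReal
  have hwm := hw.ennreal_ofReal
  rw [hnu, restrict_withDensity hS, lintegral_withDensity_eq_lintegral_mul _ hrm hwm]
  unfold muL
  rw [restrict_withDensity hS, lintegral_withDensity_eq_lintegral_mul _
    (meas_rhoL h (hfl_Ph F i p y0) (isOpen_WP F i)).ennreal_ofReal hwm,
    ← lintegral_const_mul _ hwm, ← lintegral_const_mul _ (hrm.mul hwm),
    ← lintegral_add_left (hwm.const_mul _)]
  refine setLIntegral_mono' hS fun x hx => ?_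
  have hx1 : F.i x ∈ (A.e i).source := hx.1
  have hx2 : ‖A.e i (F.i x) - A.e i p‖ ^ 2 < R := by
    have := hx.2
    nlinarith [sq_nonneg ‖F.y x 0 - y0 0‖]
  have hv := mem_ch F.B x
  have h1 := dFL_Ph_le F p y0 K hc hv (show x ∈ WP F i from hx1) (hK _ hx1 hx2)
  have hp := h.pos _ x hv
  have h3 : rhoL h (WP F i) (Ph F i p y0) x ≤
      (c ^ (d + 1))⁻¹ + (c ^ d)⁻¹ * dq h h2.w x := by
    unfold rhoL dq
    rw [div_le_iff₀ hp, add_mul, mul_assoc, div_mul_cancel₀ _ hp.ne']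
    exact h1
  have hr0 : 0 ≤ dq h h2.w x := div_nonneg (h2.pos _ x hv).le hp.le
  simp only [Pi.mul_apply]
  calc ENNReal.ofReal (rhoL h (WP F i) (Ph F i p y0) x) * ENNReal.ofReal (w x)
      ≤ ENNReal.ofReal ((c ^ (d + 1))⁻¹ + (c ^ d)⁻¹ * dq h h2.w x) * ENNReal.ofReal (w x) :=
        mul_le_mul_left (ENNReal.ofReal_le_ofReal h3) _
    _ = ENNReal.ofReal (c ^ (d + 1))⁻¹ * ENNReal.ofReal (w x) +
        ENNReal.ofReal (c ^ d)⁻¹ * (ENNReal.ofReal (dq h h2.w x) * ENNReal.ofReal (w x)) := by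
        rw [ENNReal.ofReal_add (by positivity) (by positivity), add_mul,
          ENNReal.ofReal_mul (by positivity), mul_assoc]

/-- **the mean value inequality on a disc family** -/
theorem fam_mvi (K : Kah A) {c : ℝ} (hc : 0 < c) {R : ℝ} (hR : 0 < R)
    (hK : ∀ x ∈ (A.e i).source, ‖A.e i x - A.e i p‖ ^ 2 < R →
      (K.g i x - (c : ℂ) • (1 : Matrix (Fin N) (Fin N) ℂ)).PosSemidef)
    {w : F.V → ℝ} (hw : F.B.Sm w) (hw0 : ∀ v, 0 ≤ w v)
    (psh : ∀ k, ∀ v ∈ (F.B.e k).source, v ∈ BP F i p y0 R → (hsf F.B w k v).PosSemidef)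
    (cpt : ∀ r < R, IsCompact (tsupport w ∩ {v | F.i v ∈ (A.e i).source ∧
      ‖F.y v 0 - y0 0‖ ^ 2 + ‖A.e i (F.i v) - A.e i p‖ ^ 2 ≤ r}))
    {q : F.V} (hq : F.i q = p) (hp : p ∈ (A.e i).source) (hy : F.y q = y0) :
    ENNReal.ofReal (bv (d + 1) * w q * R ^ (d + 1)) ≤
      ENNReal.ofReal (c ^ (d + 1))⁻¹ *
          ∫⁻ x in BP F i p y0 R, ENNReal.ofReal (w x) ∂(vm (volK (F.kah K))) +
        ENNReal.ofReal (c ^ d)⁻¹ * ∫⁻ x in BP F i p y0 R, ENNReal.ofReal (w x) ∂(nu F K) := by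
  have D : MDL F.B (WP F i) (Ph F i p y0) w R :=
    { op := isOpen_WP F i
      hol := hfl_Ph F i p y0
      sm := hw
      w0 := hw0
      psh := fun k v hv hvW hvs => psh k v hv (by
        rw [BP_eq]
        exact ⟨hvW, hvs⟩)
      cpt := fun r hr => by
        have h1 := cpt r hr
        have h2 : {v | F.i v ∈ (A.e i).source ∧
            ‖F.y v 0 - y0 0‖ ^ 2 + ‖A.e i (F.i v) - A.e i p‖ ^ 2 ≤ r} =
            {x | x ∈ WP F i ∧ sF (Ph F i p y0) x ≤ r} := by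
          ext v
          simp only [mem_ofPred_eq, sF_Ph]
          rfl
        rwa [h2] at h1 }
  have hqW : q ∈ WP F i := by
    show F.i q ∈ (A.e i).source
    rw [hq]
    exact hp
  have hPq : Ph F i p y0 q = 0 := by
    funext k
    refine Fin.cases ?_ (fun b => ?_) k
    · rw [Ph_zero, hy, sub_self]
      rfl
    · rw [Ph_succ, hq, sub_self]
      rfl
  obtain ⟨k, hk⟩ := F.B.cover q
  have h1 := D.mvi' (volK (F.kah K)) F.P hR (Nat.succ_pos d) hqW hPq hk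
    (hd_Ph F p y0 hk hqW)
  rw [← BP_eq] at h1
  exact h1.trans (muL_le F i p y0 K hc hK (sm_cont hw).measurable)

end

end Crest.Agent.R281.Mv_757
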