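import Mathlib

/-!
# Row 281, S6-MONO (M4), part 1 (helper757): Cauchy-Schwarz for the cofactors of a Gram matrix

`C : Matrix (Fin n) (Fin N) ℂ`, `g = C Cᴴ` (no invertibility), `E = Cᴴ adj(g) C`:
`E² = det g • E`, hence `0 ≤ re ⟨p, E p⟩ ≤ det g |p|²` for all `p`.

* `tv g v` = `re tr (adj g * v vᴴ)`
* `tv_nonneg`, `tv_le` : `0 ≤ tv (C Cᴴ) (C p) ≤ (det (C Cᴴ)).re * ∑ |p_k|²`
* `tv_real` : the trace is real
-/

set_option autoImplicit false

open scoped Matrix ComplexConjugate ComplexOrder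

namespace Crest.Agent.R281.Mv_757

noncomputable section

variable {n N : ℕ}

/-- `tr (adj g * v vᴴ)` -/
def tvc (g : Matrix (Fin n) (Fin n) ℂ) (v : Fin n → ℂ) : ℂ :=
  (g.adjugate * Matrix.vecMulVec v (star v)).trace

/-- its real part -/
def tv (g : Matrix (Fin n) (Fin n) ℂ) (v : Fin n → ℂ) : ℝ := (tvc g v).re

theorem tvc_eq (g : Matrix (Fin n) (Fin n) ℂ) (v : Fin n → ℂ) :
    tvc g v = star v ⬝ᵥ (g.adjugate *ᵥ v) := by
  unfold tvc
  rw [Matrix.mul_vecMulVec, Matrix.trace_vecMulVec, dotProduct_comm]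

theorem tvc_gram (C : Matrix (Fin n) (Fin N) ℂ) (p : Fin N → ℂ) :
    tvc (C * Cᴴ) (C *ᵥ p) = star p ⬝ᵥ ((Cᴴ * (C * Cᴴ).adjugate * C) *ᵥ p) := by
  rw [tvc_eq, Matrix.star_mulVec, ← Matrix.dotProduct_mulVec, Matrix.mulVec_mulVec,
    Matrix.mulVec_mulVec, Matrix.mul_assoc]

/-- `E = Cᴴ adj(C Cᴴ) C` -/
def EE (C : Matrix (Fin n) (Fin N) ℂ) : Matrix (Fin N) (Fin N) ℂ :=
  Cᴴ * (C * Cᴴ).adjugate * C

theorem EE_herm (C : Matrix (Fin n) (Fin N) ℂ) : (EE C)ᴴ = EE C := by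
  unfold EE
  have h1 : ((C * Cᴴ).adjugate)ᴴ = (C * Cᴴ).adjugate := by
    rw [Matrix.adjugate_conjTranspose, Matrix.conjTranspose_mul, Matrix.conjTranspose_conjTranspose]
  rw [Matrix.conjTranspose_mul, Matrix.conjTranspose_mul, Matrix.conjTranspose_conjTranspose, h1,
    Matrix.mul_assoc]

theorem EE_sq (C : Matrix (Fin n) (Fin N) ℂ) : EE C * EE C = (C * Cᴴ).det • EE C := by
  unfold EE
  calc Cᴴ * (C * Cᴴ).adjugate * C * (Cᴴ * (C * Cᴴ).adjugate * C)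
      = Cᴴ * ((C * Cᴴ).adjugate * (C * Cᴴ)) * ((C * Cᴴ).adjugate * C) := by
        simp only [Matrix.mul_assoc]
    _ = (C * Cᴴ).det • (Cᴴ * (C * Cᴴ).adjugate * C) := by
        rw [Matrix.adjugate_mul, Matrix.mul_smul, Matrix.mul_one, Matrix.smul_mul, Matrix.mul_assoc]

theorem det_gram_nonneg (C : Matrix (Fin n) (Fin N) ℂ) : 0 ≤ (C * Cᴴ).det :=
  (Matrix.posSemidef_self_mul_conjTranspose C).det_nonneg

theorem det_gram_real (C : Matrix (Fin n) (Fin N) ℂ) :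
    (C * Cᴴ).det = (((C * Cᴴ).det.re : ℝ) : ℂ) := by
  have h := Complex.nonneg_iff.1 (det_gram_nonneg C)
  exact Complex.ext (by simp) (by simpa using h.2.symm)

theorem det_gram_re_nonneg (C : Matrix (Fin n) (Fin N) ℂ) : 0 ≤ (C * Cᴴ).det.re :=
  (Complex.nonneg_iff.1 (det_gram_nonneg C)).1

theorem star_dot_real {E : Matrix (Fin N) (Fin N) ℂ} (hE : Eᴴ = E) (p : Fin N → ℂ) :
    conj (star p ⬝ᵥ (E *ᵥ p)) = star p ⬝ᵥ (E *ᵥ p) := by
  have h1 : star (star p ⬝ᵥ (E *ᵥ p)) = star (E *ᵥ p) ⬝ᵥ p := by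
    rw [Matrix.star_dotProduct, star_star]
  have h2 : conj (star p ⬝ᵥ (E *ᵥ p)) = star (star p ⬝ᵥ (E *ᵥ p)) := rfl
  rw [h2, h1, Matrix.star_mulVec, hE, ← Matrix.dotProduct_mulVec]

theorem im_zero_of_conj {z : ℂ} (h : conj z = z) : z.im = 0 := by
  have := congrArg Complex.im h
  rw [Complex.conj_im] at this
  linarith

/-- abstract inequality -/
theorem quad_bounds {E : Matrix (Fin N) (Fin N) ℂ} {δ : ℝ} (hE : Eᴴ = E)
    (h2 : E * E = (δ : ℂ) • E) (hδ : 0 ≤ δ) (p : Fin N → ℂ) :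
    0 ≤ (star p ⬝ᵥ (E *ᵥ p)).re ∧ (star p ⬝ᵥ (E *ᵥ p)).re ≤ δ * (star p ⬝ᵥ p).re := by
  set x : ℂ := star p ⬝ᵥ (E *ᵥ p) with hx
  have e1 : star (E *ᵥ p) ⬝ᵥ (E *ᵥ p) = (δ : ℂ) * x := by
    rw [Matrix.star_mulVec, hE, ← Matrix.dotProduct_mulVec, Matrix.mulVec_mulVec, h2,
      Matrix.smul_mulVec, dotProduct_smul, smul_eq_mul]
  have e2 : star (E *ᵥ p) ⬝ᵥ p = x := by
    rw [Matrix.star_mulVec, hE, ← Matrix.dotProduct_mulVec]
  have n1 : 0 ≤ (δ : ℂ) * x := by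
    rw [← e1]
    exact dotProduct_star_self_nonneg _
  have n1' : 0 ≤ δ * x.re := by
    have := (Complex.nonneg_iff.1 n1).1
    rwa [Complex.re_ofReal_mul] at this
  rcases hδ.eq_or_lt with h0 | h0
  · have hz : E *ᵥ p = 0 := by
      rw [← h0, Complex.ofReal_zero, zero_mul] at e1
      exact dotProduct_star_self_eq_zero.1 e1
    have : x = 0 := by rw [hx, hz, dotProduct_zero]
    rw [this, ← h0]
    simp
  · refine ⟨nonneg_of_mul_nonneg_right (by linarith [n1']) h0, ?_⟩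
    have e3 : star ((δ : ℂ) • p - E *ᵥ p) ⬝ᵥ ((δ : ℂ) • p - E *ᵥ p) =
        (δ : ℂ) * ((δ : ℂ) * (star p ⬝ᵥ p) - x) := by
      have hs : star ((δ : ℂ) • p - E *ᵥ p) = (δ : ℂ) • star p - star (E *ᵥ p) := by
        rw [star_sub, star_smul]
        congr 2
        exact Complex.conj_ofReal δ
      rw [hs, sub_dotProduct, dotProduct_sub, dotProduct_sub, smul_dotProduct, dotProduct_smul,
        smul_dotProduct, dotProduct_smul, e1, e2, ← hx]
      simp only [smul_eq_mul]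
      ring
    have n3 : 0 ≤ (δ : ℂ) * ((δ : ℂ) * (star p ⬝ᵥ p) - x) := by
      rw [← e3]
      exact dotProduct_star_self_nonneg _
    have n4 := (Complex.nonneg_iff.1 n3).1
    rw [Complex.re_ofReal_mul, Complex.sub_re, Complex.re_ofReal_mul] at n4
    have := nonneg_of_mul_nonneg_right (by linarith [n4]) h0 (b := δ * (star p ⬝ᵥ p).re - x.re)
    linarith

theorem tv_nonneg (C : Matrix (Fin n) (Fin N) ℂ) (p : Fin N → ℂ) :
    0 ≤ tv (C * Cᴴ) (C *ᵥ p) := by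
  unfold tv
  rw [tvc_gram]
  exact (quad_bounds (EE_herm C) (by rw [EE_sq]; rw [← det_gram_real]) (det_gram_re_nonneg C) p).1

theorem tv_le (C : Matrix (Fin n) (Fin N) ℂ) (p : Fin N → ℂ) :
    tv (C * Cᴴ) (C *ᵥ p) ≤ (C * Cᴴ).det.re * (star p ⬝ᵥ p).re := by
  unfold tv
  rw [tvc_gram]
  exact (quad_bounds (EE_herm C) (by rw [EE_sq]; rw [← det_gram_real]) (det_gram_re_nonneg C) p).2

theorem tvc_real (C : Matrix (Fin n) (Fin N) ℂ) (p : Fin N → ℂ) :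
    tvc (C * Cᴴ) (C *ᵥ p) = (tv (C * Cᴴ) (C *ᵥ p) : ℂ) := by
  have h : (tvc (C * Cᴴ) (C *ᵥ p)).im = 0 := by
    rw [tvc_gram]
    exact im_zero_of_conj (star_dot_real (EE_herm C) p)
  exact Complex.ext (by simp [tv]) (by simp [h])

/-- transformation law -/
theorem tvc_mul (J g : Matrix (Fin n) (Fin n) ℂ) (v : Fin n → ℂ) :
    tvc (J * g * Jᴴ) (J *ᵥ v) = (J.det * conj J.det) * tvc g v := by
  have e1 : (J * g * Jᴴ).adjugate = Jᴴ.adjugate * g.adjugate * J.adjugate := by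
    rw [Matrix.adjugate_mul_distrib, Matrix.adjugate_mul_distrib, Matrix.mul_assoc]
  have e2 : Jᴴ * (Jᴴ.adjugate * g.adjugate * J.adjugate) * J =
      (J.det * conj J.det) • g.adjugate := by
    calc Jᴴ * (Jᴴ.adjugate * g.adjugate * J.adjugate) * J
        = (Jᴴ * Jᴴ.adjugate) * g.adjugate * (J.adjugate * J) := by simp only [Matrix.mul_assoc]
      _ = _ := by
        rw [Matrix.mul_adjugate, Matrix.adjugate_mul, Matrix.det_conjTranspose, Matrix.smul_mul,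
          Matrix.one_mul, Matrix.mul_smul, Matrix.mul_one, smul_smul]
        rfl
  rw [tvc_eq, tvc_eq, e1, Matrix.star_mulVec, ← Matrix.dotProduct_mulVec, Matrix.mulVec_mulVec,
    Matrix.mulVec_mulVec, e2, Matrix.smul_mulVec, dotProduct_smul, smul_eq_mul]

end

end Crest.Agent.R281.Mv_757
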