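import Crest.Agent.R273.FIb0_597
import Crest.Agent.R273.FS_333
import Crest.Agent.R281.Mv0_757
import Crest.Agent.R281.Mv1_757

/-!
# Row 281, S6-MONO (M4), part 2 (helper757): integrals on a noncompact `M`

* `dq h f`  : the function `f / h.w` of a real density `f` (`RD A f`)
* `vm_tot`  : `∫ f dvm = tot P F (h.w f)` for `f` zero off a compact set
* `bil`     : `∫ w tr(adj g ∂∂̄u) = ∫ u tr(adj g ∂∂̄w)` (real parts of `tot`), `u`, `w` real,
              `tsupport u ∩ tsupport w ⊆ K` compact
-/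

set_option autoImplicit false
set_option linter.unusedSectionVars false

open Set Filter Topology Complex MeasureTheory
open scoped ContDiff Matrix ComplexConjugate Manifold ComplexOrder ENNReal

namespace Crest.Agent.R281.Mv_757

open Crest.Agent.R275 Crest.Agent.R275.Geo Crest.Agent.R275.Core144 Crest.Agent.R275.EDR890
open Crest.Agent.R275.Pai323 Crest.Agent.R275.C1d194
open Crest.Agent.R275.SerG398 (lint dens OffZ)
open Crest.Agent.R275.OmT75 (dj dl dl_chain dl_mul dj_sum dj_congr)
open Crest.Agent.R273.Defs_333 Crest.Agent.R273.Hess_333 Crest.Agent.R273.HessB_333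
open Crest.Agent.R273.HM_333 Crest.Agent.R273.Kah_333 Crest.Agent.R273.Vol_333
open Crest.Agent.R273.StV_37 Crest.Agent.R273.Green_5 Crest.Agent.R273.Vm_333
open Crest.Agent.R273.FIa0_597 Crest.Agent.R273.FIb0_597

noncomputable section

variable {n : ℕ} {M : Type} [TopologicalSpace M] {A : Atl n M}

/-! ### densities -/

/-- real density: `f i = |det J|² f j` -/
def RD (A : Atl n M) (f : A.ι → M → ℝ) : Prop :=
  ∀ i j, ∀ x ∈ (A.e i).source ∩ (A.e j).source, f i x = jac A i j x * f j x

/-- the function of a density -/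
def dq (h : HM (KB A)⁻¹) (f : A.ι → M → ℝ) (x : M) : ℝ := f (ch A x) x / h.w (ch A x) x

theorem jac_pos {i j : A.ι} {x : M} (hx : x ∈ (A.e i).source ∩ (A.e j).source) :
    0 < jac A i j x := by
  have h1 : (Matrix.of (A.J i j x)).det ≠ 0 := det_Jm_ne hx
  unfold jac
  positivity

theorem w_jac' (h : HM (KB A)⁻¹) {i j : A.ι} {x : M}
    (hx : x ∈ (A.e i).source ∩ (A.e j).source) : h.w i x = jac A i j x * h.w j x := by
  let _ : MeasurableSpace M := borel M
  have _ : BorelSpace M := ⟨rfl⟩
  exact w_jac h hx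

theorem dq_eq (h : HM (KB A)⁻¹) {f : A.ι → M → ℝ} (hf : RD A f) {i : A.ι} {x : M}
    (hx : x ∈ (A.e i).source) : dq h f x = f i x / h.w i x := by
  have hx' : x ∈ (A.e i).source ∩ (A.e (ch A x)).source := ⟨hx, mem_ch A x⟩
  have h1 := hf i (ch A x) x hx'
  have h2 := w_jac' h hx'
  have h3 := (jac_pos hx').ne'
  have h4 := (h.pos _ x (mem_ch A x)).ne'
  unfold dq
  rw [h1, h2]
  field_simp

theorem dq_mul (h : HM (KB A)⁻¹) {f : A.ι → M → ℝ} (hf : RD A f) {i : A.ι} {x : M}
    (hx : x ∈ (A.e i).source) : h.w i x * dq h f x = f i x := by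
  rw [dq_eq h hf hx]
  exact mul_div_cancel₀ _ (h.pos i x hx).ne'

theorem sm_dq (h : HM (KB A)⁻¹) {f : A.ι → M → ℝ} (hf : RD A f) (hs : ∀ i, A.SmAt i (f i)) :
    A.Sm (dq h f) := by
  intro i
  have h1 : ContDiffOn ℝ ∞ (fun z => f i ((A.e i).symm z) / h.w i ((A.e i).symm z))
      (A.e i).target :=
    (hs i).div (h.sm i) fun z hz => (h.pos i _ ((A.e i).map_target hz)).ne'
  exact h1.congr fun z hz => dq_eq h hf ((A.e i).map_target hz)

/-! ### the integral -/

section integral

variable [T2Space M] [MeasurableSpace M] [BorelSpace M] [Countable A.ι]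

theorem psi_bdd (P : Part A) (i : A.ι) : ∃ C, ∀ x, ‖(P.ψ i x : ℂ)‖ ≤ C := by
  have hc : Continuous fun x => (P.ψ i x : ℂ) :=
    Complex.continuous_ofReal.comp (sm_continuous (P.ψ_sm i))
  obtain ⟨C, hC⟩ := (P.χ_cpt i).exists_bound_of_continuousOn hc.continuousOn
  refine ⟨max C 0, fun x => ?_⟩
  by_cases hx : x ∈ tsupport (P.χ i)
  · exact (hC x hx).trans (le_max_left _ _)
  · have : P.ψ i x = 0 := image_eq_zero_of_notMem_tsupport fun h => hx (tsupport_psi P i h)
    rw [this]
    simp

theorem vm_tot (P : Part A) (h : HM (KB A)⁻¹) {K : Set M} (hK : IsCompact K) {F : Finset A.ι}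
    (hF : Fn P hK ⊆ F) {f : M → ℂ} (hf : Integrable f (vm h)) (h0 : ∀ x ∉ K, f x = 0) :
    ∫ x, f x ∂(vm h) = tot P F (fun i x => (h.w i x : ℂ) * f x) := by
  have hint : ∀ i, Integrable (fun x => (P.ψ i x : ℂ) * f x) (vm h) := by
    intro i
    obtain ⟨C, hC⟩ := psi_bdd P i
    have hc : Continuous fun x => (P.ψ i x : ℂ) :=
      Complex.continuous_ofReal.comp (sm_continuous (P.ψ_sm i))
    exact hf.bdd_mul (c := C) hc.measurable.aestronglyMeasurable (Eventually.of_forall hC)
  have h1 : (fun x => f x) = fun x => ∑ i ∈ F, (P.ψ i x : ℂ) * f x := by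
    funext x
    rw [← Finset.sum_mul]
    by_cases hx : x ∈ K
    · rw [sum_psiC P hK hF hx, one_mul]
    · rw [h0 x hx, mul_zero]
  calc ∫ x, f x ∂(vm h) = ∫ x, ∑ i ∈ F, (P.ψ i x : ℂ) * f x ∂(vm h) := by rw [← h1]
    _ = ∑ i ∈ F, ∫ x, (P.ψ i x : ℂ) * f x ∂(vm h) := integral_finsetSum _ fun i _ => hint i
    _ = _ := by
      unfold tot
      refine Finset.sum_congr rfl fun i _ => ?_
      have h3 : ∫ x, (P.ψ i x : ℂ) * f x ∂(vm h) =
          ∫ x in (A.e i).source, (P.ψ i x : ℂ) * f x ∂(vm h) := by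
        symm
        refine setIntegral_eq_integral_of_forall_compl_eq_zero fun x hx => ?_
        rw [psi_off P hx, Complex.ofReal_zero, zero_mul]
      rw [h3, setIntegral_vm h i (hint i).aestronglyMeasurable]
      unfold SerG398.lint
      symm
      rw [← setIntegral_eq_integral_of_forall_compl_eq_zero (s := Ui A i)
        (fun y hy => rd_off hy)]
      refine setIntegral_congr_fun (C1d194.isOpen_Ui i).measurableSet fun y hy => ?_
      rw [rd_of_mem hy]
      change (P.ψ i (sg A i y) : ℂ) * ((h.w i (sg A i y) : ℂ) * f (sg A i y)) =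
        (h.w i (sg A i y)) • ((P.ψ i (sg A i y) : ℂ) * f (sg A i y))
      rw [Complex.real_smul]
      ring

/-- real form -/
theorem vm_tot_re (P : Part A) (h : HM (KB A)⁻¹) {K : Set M} (hK : IsCompact K) {F : Finset A.ι}
    (hF : Fn P hK ⊆ F) {f : M → ℝ} (hf : Integrable f (vm h)) (h0 : ∀ x ∉ K, f x = 0) :
    ∫ x, f x ∂(vm h) = (tot P F (fun i x => ((h.w i x * f x : ℝ) : ℂ))).re := by
  have h1 := vm_tot P h hK hF (f := fun x => (f x : ℂ)) hf.ofReal fun x hx => by
    rw [h0 x hx, Complex.ofReal_zero]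
  have h3 : ∫ x, (f x : ℂ) ∂(vm h) = ((∫ x, f x ∂(vm h) : ℝ) : ℂ) := integral_ofReal
  rw [h3] at h1
  have h2 := congrArg Complex.re h1
  rw [Complex.ofReal_re] at h2
  rw [h2]
  congr 2
  funext i x
  push_cast
  rfl

/-- continuous functions with compact support are integrable -/
theorem integrable_of_zero_off (h : HM (KB A)⁻¹) {K : Set M} (hK : IsCompact K) {f : M → ℝ}
    (hc : Continuous f) (h0 : ∀ x ∉ K, f x = 0) : Integrable f (vm h) := by
  have := isLocallyFinite_vm h
  have h1 : IntegrableOn f K (vm h) := hc.continuousOn.integrableOn_compact hK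
  rw [← integrable_indicator_iff hK.isClosed.measurableSet] at h1
  have h2 : K.indicator f = f := by
    funext x
    by_cases hx : x ∈ K
    · rw [indicator_of_mem hx]
    · rw [indicator_of_notMem hx, h0 x hx]
  rwa [h2] at h1

end integral

/-! ### Green's formula for a pair of real functions -/

section green

variable [T2Space M] {g : A.ι → M → Matrix (Fin n) (Fin n) ℂ}

/-- Green's formula, `φ` and `db u` have disjoint supports off the compact set `K` -/
theorem green_pair (P : Part A) (hg : CF A g) {φ u : M → ℂ} (hφ : ∀ i, A.SmAt i φ)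
    (hu : ∀ i, A.SmAt i u) {K : Set M} (hK : IsCompact K) {F : Finset A.ι} (hF : Fn P hK ⊆ F)
    (h0 : ∀ x ∉ K, φ x = 0 ∨ u =ᶠ[𝓝 x] 0) :
    tot P F (fun i x => φ x * ((g i x).adjugate * hm A u i x).trace) =
      - tot P F (fun i x => ∑ a, ∑ b, (g i x).adjugate b a * dl A i a φ x * A.db i b u x) := by
  classical
  set Y : A.ι → M → Fin n → ℂ := fun i x a =>
    if x ∈ (A.e i).source then adjY A g φ u i x a else 0 with hY
  have hv := v10_adj hg hφ hu
  have hYe : ∀ i, ∀ x ∈ (A.e i).source, ∀ a, Y i x a = adjY A g φ u i x a :=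
    fun i x hx a => by simp only [hY, if_pos hx]
  have hvY : V10 A Y := by
    refine ⟨fun i a => (hv.sm i a).congr fun z hz => hYe i _ ((A.e i).map_target hz) a,
      fun i j x hx b => ?_⟩
    rw [Finset.sum_congr rfl fun a _ => by rw [hYe i x hx.1 a], hYe j x hx.2 b]
    exact hv.tr i j x hx b
  have h1 := stokes10 P hvY hK hF fun i x hx => by
    funext a
    by_cases hxi : x ∈ (A.e i).source
    · rw [hYe i x hxi]
      unfold adjY
      rcases h0 x hx with h2 | h2
      · rw [h2, zero_mul]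
        rfl
      · rw [Finset.sum_eq_zero fun b _ => by rw [db_zero_of hxi h2, mul_zero], mul_zero]
        rfl
    · simp only [hY, if_neg hxi]
      rfl
  have h5 : tot P F (fun i x => ∑ a, dl A i a (fun y => Y i y a) x) =
      tot P F (fun i x => φ x * ((g i x).adjugate * hm A u i x).trace +
        ∑ a, ∑ b, (g i x).adjugate b a * dl A i a φ x * A.db i b u x) := by
    refine tot_congr P F fun i _ x hx => ?_
    rw [← div_adjY hg (hφ i) (hu i) hx]
    refine Finset.sum_congr rfl fun a _ => ?_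
    unfold OmT75.dl
    refine dj_congr ?_
    filter_upwards [(A.e i).open_target.mem_nhds ((A.e i).map_source hx)] with z hz
    rw [hYe i _ ((A.e i).map_target hz)]
  rw [h5, tot_add P F (f := fun i x => φ x * ((g i x).adjugate * hm A u i x).trace)
      (g := fun i x => ∑ a, ∑ b, (g i x).adjugate b a * dl A i a φ x * A.db i b u x)
      (fun i => (hφ i).mul (smAt_tr hg (hu i))) (fun i => smAt_grad hg (hφ i) (hu i))] at h1
  exact eq_neg_of_add_eq_zero_left h1

theorem conj_self_real (r : ℝ) : conj (r : ℂ) = (r : ℂ) := Complex.conj_ofReal r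

/-- symmetric form for real functions and Hermitian `g` -/
theorem green_symm (P : Part A) (hg : CF A g)
    (hh : ∀ i, ∀ x ∈ (A.e i).source, (g i x).IsHermitian) {u w : M → ℝ} (hu : A.Sm u)
    (hw : A.Sm w) {K : Set M} (hK : IsCompact K) {F : Finset A.ι} (hF : Fn P hK ⊆ F)
    (h0 : ∀ x ∉ K, w =ᶠ[𝓝 x] 0 ∨ u =ᶠ[𝓝 x] 0) :
    (tot P F (fun i x => (w x : ℂ) * ((g i x).adjugate * hsf A u i x).trace)).re =
      (tot P F (fun i x => (u x : ℂ) * ((g i x).adjugate * hsf A w i x).trace)).re := by
  have hu' : ∀ i, A.SmAt i (fun x => (u x : ℂ)) := fun i => smAt_ofReal (hu i)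
  have hw' : ∀ i, A.SmAt i (fun x => (w x : ℂ)) := fun i => smAt_ofReal (hw i)
  have ev : ∀ {v : M → ℝ} {x : M}, v =ᶠ[𝓝 x] 0 → (fun y => (v y : ℂ)) =ᶠ[𝓝 x] 0 := by
    intro v x hv
    filter_upwards [hv] with y hy
    simp only [Pi.zero_apply] at hy ⊢
    rw [hy, Complex.ofReal_zero]
  have g1 := green_pair P hg hw' hu' hK hF fun x hx => by
    rcases h0 x hx with h | h
    · exact Or.inl (by rw [h.self_of_nhds]; simp)
    · exact Or.inr (ev h)
  have g2 := green_pair P hg hu' hw' hK hF fun x hx => by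
    rcases h0 x hx with h | h
    · exact Or.inr (ev h)
    · exact Or.inl (by rw [h.self_of_nhds]; simp)
  have e1 : tot P F (fun i x => (w x : ℂ) * ((g i x).adjugate * hsf A u i x).trace) =
      tot P F (fun i x => (w x : ℂ) * ((g i x).adjugate * hm A (fun y => (u y : ℂ)) i x).trace) :=
    tot_congr P F fun i _ x hx => by rw [hm_ofReal u i hx]
  have e2 : tot P F (fun i x => (u x : ℂ) * ((g i x).adjugate * hsf A w i x).trace) =
      tot P F (fun i x => (u x : ℂ) * ((g i x).adjugate * hm A (fun y => (w y : ℂ)) i x).trace) :=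
    tot_congr P F fun i _ x hx => by rw [hm_ofReal w i hx]
  have e3 : tot P F (fun i x => ∑ a, ∑ b, (g i x).adjugate b a *
      dl A i a (fun y => (u y : ℂ)) x * A.db i b (fun y => (w y : ℂ)) x) =
      conj (tot P F (fun i x => ∑ a, ∑ b, (g i x).adjugate b a *
        dl A i a (fun y => (w y : ℂ)) x * A.db i b (fun y => (u y : ℂ)) x)) := by
    rw [← tot_conj]
    refine tot_congr P F fun i _ x hx => ?_
    rw [map_sum, Finset.sum_comm]
    refine Finset.sum_congr rfl fun b _ => ?_
    rw [map_sum]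
    refine Finset.sum_congr rfl fun a _ => ?_
    have c1 : conj ((g i x).adjugate a b) = (g i x).adjugate b a := by
      have h1 : ((g i x).adjugate)ᴴ = (g i x).adjugate := by
        rw [Matrix.adjugate_conjTranspose, hh i x hx]
      have h2 := congrFun (congrFun h1 b) a
      rwa [Matrix.conjTranspose_apply] at h2
    have c2 : conj (dl A i b (fun y => (w y : ℂ)) x) = A.db i b (fun y => (w y : ℂ)) x := by
      rw [← db_conj]
      simp only [conj_self_real]
    have c3 : conj (A.db i a (fun y => (u y : ℂ)) x) = dl A i a (fun y => (u y : ℂ)) x := by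
      rw [← dl_conj]
      simp only [conj_self_real]
    rw [map_mul, map_mul, c1, c2, c3]
    ring
  rw [e1, e2, g1, g2, e3, Complex.neg_re, Complex.neg_re, Complex.conj_re]

end green

end

end Crest.Agent.R281.Mv_757
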