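import Crest.Agent.R273.GreenG_5
import Crest.Agent.R281.Mv2_757

/-!
# Row 281, S6-MONO (M4), part 3 (helper757): densities of `|F|²`

* `sF F x = ∑ |F_k x|²`, `DF A F i x` : the Jacobian `∂_a F_k`
* `hsf_sF` : `∂∂̄ |F|² = C Cᴴ`, `C = DF`;  `grA_sF` : `∂|F|² = C (star F)`
* `dl_F`  : density `det (C Cᴴ)`;  `tt_F` : density `tv`
* `tr_hsf_comp` : `tr (adj g ∂∂̄ γ(s)) = n γ' det g + γ'' tv`
-/

set_option autoImplicit false
set_option linter.unusedSectionVars false

open Set Filter Topology Complex MeasureTheory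
open scoped ContDiff Matrix ComplexConjugate Manifold ComplexOrder ENNReal

namespace Crest.Agent.R281.Mv_757

open Crest.Agent.R275 Crest.Agent.R275.Geo Crest.Agent.R275.Core144 Crest.Agent.R275.EDR890
open Crest.Agent.R275.Pai323 Crest.Agent.R275.C1d194
open Crest.Agent.R275.SerG398 (lint dens OffZ)
open Crest.Agent.R275.OmT75 (dj dl dl_chain dl_mul dj_sum dj_congr)
open Crest.Agent.R273.Defs_333 Crest.Agent.R273.Hess_333 Crest.Agent.R273.HessB_333
open Crest.Agent.R273.HM_333 Crest.Agent.R273.Kah_333 Crest.Agent.R273.Vol_333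
open Crest.Agent.R273.StV_37 Crest.Agent.R273.Green_5 Crest.Agent.R273.Vm_333
open Crest.Agent.R273.FIa0_597 Crest.Agent.R273.FIb0_597 Crest.Agent.R273.FS_333

noncomputable section

variable {n N : ℕ}

/-! ### matrices -/

theorem tr_adj_law (J g S : Matrix (Fin n) (Fin n) ℂ) :
    ((J * g * Jᴴ).adjugate * (J * S * Jᴴ)).trace =
      (J.det * conj J.det) * (g.adjugate * S).trace := by
  have e1 : (J * g * Jᴴ).adjugate = Jᴴ.adjugate * g.adjugate * J.adjugate := by
    rw [Matrix.adjugate_mul_distrib, Matrix.adjugate_mul_distrib, Matrix.mul_assoc]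
  calc ((J * g * Jᴴ).adjugate * (J * S * Jᴴ)).trace
      = ((Jᴴ.adjugate * g.adjugate) * (J.adjugate * J) * (S * Jᴴ)).trace := by
        rw [e1]
        simp only [Matrix.mul_assoc]
    _ = J.det * ((Jᴴ.adjugate * (g.adjugate * S * Jᴴ))).trace := by
        rw [Matrix.adjugate_mul, Matrix.mul_smul, Matrix.mul_one, Matrix.smul_mul,
          Matrix.trace_smul, smul_eq_mul]
        simp only [Matrix.mul_assoc]
    _ = J.det * (g.adjugate * S * (Jᴴ * Jᴴ.adjugate)).trace := by
        rw [Matrix.trace_mul_comm]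
        simp only [Matrix.mul_assoc]
    _ = _ := by
        rw [Matrix.mul_adjugate, Matrix.det_conjTranspose, Matrix.mul_smul, Matrix.mul_one,
          Matrix.trace_smul, smul_eq_mul, mul_assoc]
        rfl

theorem tr_adj_self (g : Matrix (Fin n) (Fin n) ℂ) : (g.adjugate * g).trace = n * g.det := by
  rw [Matrix.adjugate_mul, Matrix.trace_smul, Matrix.trace_one, Fintype.card_fin, smul_eq_mul,
    mul_comm]

theorem posDef_add_eps {g : Matrix (Fin n) (Fin n) ℂ} (hg : g.PosSemidef) {ε : ℝ} (hε : 0 < ε) :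
    (g + (ε : ℂ) • (1 : Matrix (Fin n) (Fin n) ℂ)).PosDef :=
  (Matrix.PosDef.one.smul (by exact_mod_cast hε : (0 : ℂ) < ε)).posSemidef_add hg

/-- `0 ≤ re tr (adj g S)` for positive semidefinite `g`, `S` -/
theorem tr_adj_nonneg {g S : Matrix (Fin n) (Fin n) ℂ} (hg : g.PosSemidef) (hS : S.PosSemidef) :
    0 ≤ (g.adjugate * S).trace.re := by
  set f : ℝ → ℝ := fun ε =>
    ((g + (ε : ℂ) • (1 : Matrix (Fin n) (Fin n) ℂ)).adjugate * S).trace.re with hf
  have hc : Continuous f := by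
    have h1 : Continuous fun ε : ℝ => g + (ε : ℂ) • (1 : Matrix (Fin n) (Fin n) ℂ) :=
      continuous_const.add (Complex.continuous_ofReal.smul continuous_const)
    exact Complex.continuous_re.comp
      ((h1.matrix_adjugate.matrix_mul continuous_const).matrix_trace)
  have h0 : f 0 = (g.adjugate * S).trace.re := by simp [hf]
  rw [← h0]
  have h1 : Tendsto f (𝓝[>] 0) (𝓝 (f 0)) := hc.continuousAt.tendsto.mono_left nhdsWithin_le_nhds
  refine ge_of_tendsto h1 ?_
  filter_upwards [self_mem_nhdsWithin] with ε hε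
  exact (Complex.le_def.1 (Crest.Agent.R273.GreenG_5.trace_adj_nonneg (posDef_add_eps hg hε) hS)).1

/-! ### `|F|²` -/

variable {M : Type} [TopologicalSpace M] {A : Atl n M}

/-- `∑ |F_k|²` -/
def sF (F : M → Fin N → ℂ) (x : M) : ℝ := ∑ k, ‖F x k‖ ^ 2

theorem sF_nonneg (F : M → Fin N → ℂ) (x : M) : 0 ≤ sF F x :=
  Finset.sum_nonneg fun _ _ => by positivity

/-- holomorphic map to `ℂ^N` -/
def HF (A : Atl n M) (F : M → Fin N → ℂ) : Prop := ∀ i k, HolAt A i univ (fun x => F x k)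

/-- the Jacobian `∂_a F_k` -/
def DF (A : Atl n M) (F : M → Fin N → ℂ) (i : A.ι) (x : M) : Matrix (Fin n) (Fin N) ℂ :=
  Matrix.of fun a k =>
    fderiv ℂ (fun z => F ((A.e i).symm z) k) (A.e i x) (EuclideanSpace.single a 1)

/-- the gradient in the chart `i` -/
def grA (A : Atl n M) (u : M → ℝ) (i : A.ι) (x : M) : Fin n → ℂ :=
  gr (fun z => u ((A.e i).symm z)) (A.e i x)

variable {F : M → Fin N → ℂ}

theorem HF.diff (hF : HF A F) (i : A.ι) (k : Fin N) :
    DifferentiableOn ℂ (fun z => F ((A.e i).symm z) k) (A.e i).target := by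
  have h1 := hF i k
  unfold HolAt at h1
  rwa [preimage_univ, inter_univ] at h1

theorem sm_sF (hF : HF A F) : A.Sm (sF F) := by
  intro i
  refine ContDiffOn.sum fun k _ => ?_
  intro z hz
  exact ((contDiffAt_of_hol (A.e i).open_target (hF.diff i k) hz).norm_sq ℝ).contDiffWithinAt

theorem hsf_sF (hF : HF A F) (i : A.ι) {x : M} (hx : x ∈ (A.e i).source) :
    hsf A (sF F) i x = DF A F i x * (DF A F i x)ᴴ := by
  ext a b
  have h1 := hess_sq (F := fun z => F ((A.e i).symm z)) (A.e i).open_target (hF.diff i)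
    ((A.e i).map_source hx) a b
  exact h1

theorem grA_sF (hF : HF A F) (i : A.ι) {x : M} (hx : x ∈ (A.e i).source) :
    grA A (sF F) i x = DF A F i x *ᵥ star (F x) := by
  funext a
  have h1 := wd_sq' (F := fun z => F ((A.e i).symm z)) (A.e i).open_target (hF.diff i)
    ((A.e i).map_source hx) a
  have h2 : grA A (sF F) i x a = ∑ k, fderiv ℂ (fun z => F ((A.e i).symm z) k) (A.e i x)
      (EuclideanSpace.single a 1) * conj (F ((A.e i).symm (A.e i x)) k) := h1
  rw [h2, (A.e i).left_inv hx]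
  rfl

/-! ### transformation laws -/

theorem jac_eq (i j : A.ι) (x : M) :
    ((Jm A i j x)ᵀ.det * conj (Jm A i j x)ᵀ.det) = ((jac A i j x : ℝ) : ℂ) := by
  rw [Matrix.det_transpose, Complex.mul_conj, Complex.normSq_eq_norm_sq]
  rfl

theorem conjT_T (J : Matrix (Fin n) (Fin n) ℂ) : (Jᵀ)ᴴ = J.map conj := by
  ext a b
  rfl

/-- the density `re tr (adj g S)` -/
theorem rd_tr {g S : A.ι → M → Matrix (Fin n) (Fin n) ℂ} (hg : TF A g) (hS : TF A S) :
    RD A (fun i x => ((g i x).adjugate * S i x).trace.re) := by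
  intro i j x hx
  simp only
  rw [hg.tr i j x hx, hS.tr i j x hx, ← conjT_T, tr_adj_law, jac_eq, Complex.re_ofReal_mul]

/-- the density `re det g` -/
theorem rd_det {g : A.ι → M → Matrix (Fin n) (Fin n) ℂ} (hg : TF A g) :
    RD A (fun i x => (g i x).det.re) := by
  intro i j x hx
  simp only
  rw [hg.tr i j x hx, ← conjT_T, Matrix.det_mul, Matrix.det_mul, Matrix.det_conjTranspose,
    mul_right_comm]
  have h1 := jac_eq i j x
  rw [show (star (Jm A i j x)ᵀ.det : ℂ) = conj (Jm A i j x)ᵀ.det from rfl, h1,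
    Complex.re_ofReal_mul]

theorem cu_read (u : M → ℝ) (i : A.ι) :
    cu (fun z => u ((A.e i).symm z)) = fun z => ((u ((A.e i).symm z) : ℝ) : ℂ) := rfl

theorem grA_eq (u : M → ℝ) (i : A.ι) (x : M) (a : Fin n) :
    grA A u i x a = dl A i a (fun y => (u y : ℂ)) x := by
  unfold grA gr
  rw [← dj_eq_wd]
  rfl

theorem grA_tr {u : M → ℝ} (hu : A.Sm u) {i j : A.ι} {x : M}
    (hx : x ∈ (A.e i).source ∩ (A.e j).source) :
    grA A u i x = (Jm A i j x)ᵀ *ᵥ grA A u j x := by
  funext a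
  rw [grA_eq, dl_chain (Atl.SmAt.diffAt (smAt_ofReal (hu j)) hx.2) hx a]
  simp only [Matrix.mulVec, dotProduct, Matrix.transpose_apply, Jm_apply, grA_eq, smul_eq_mul]

/-- the density `tv g (∂u)` -/
theorem rd_tv {g : A.ι → M → Matrix (Fin n) (Fin n) ℂ} (hg : TF A g) {u : M → ℝ} (hu : A.Sm u) :
    RD A (fun i x => tv (g i x) (grA A u i x)) := by
  intro i j x hx
  simp only [tv]
  rw [hg.tr i j x hx, ← conjT_T, grA_tr hu hx, tvc_mul, jac_eq, Complex.re_ofReal_mul]

/-! ### smoothness -/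

variable [T2Space M]

theorem smAt_re {i : A.ι} {f : M → ℂ} (hf : A.SmAt i f) : A.SmAt i (fun x => (f x).re) :=
  Complex.reCLM.contDiff.comp_contDiffOn hf

theorem sm_det {g : A.ι → M → Matrix (Fin n) (Fin n) ℂ} (hg : TF A g) (i : A.ι) :
    A.SmAt i (fun x => (g i x).det.re) := smAt_re (smAt_det (hg.sm i))

theorem sm_tr {g : A.ι → M → Matrix (Fin n) (Fin n) ℂ} (hg : CF A g) {w : M → ℝ} (hw : A.Sm w)
    (i : A.ι) : A.SmAt i (fun x => ((g i x).adjugate * hsf A w i x).trace.re) := by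
  refine (smAt_re (smAt_tr hg (smAt_ofReal (hw i)))).congr fun z hz => ?_
  show ((g i ((A.e i).symm z)).adjugate * hsf A w i ((A.e i).symm z)).trace.re = _
  rw [← hm_ofReal w i ((A.e i).map_target hz)]

theorem tvc_grA {g : A.ι → M → Matrix (Fin n) (Fin n) ℂ} {u : M → ℝ} {i : A.ι} {x : M} :
    tvc (g i x) (grA A u i x) = ∑ a, ∑ b, (g i x).adjugate b a *
      dl A i a (fun y => (u y : ℂ)) x * A.db i b (fun y => (u y : ℂ)) x := by
  have h1 : ∀ b, star (grA A u i x) b = A.db i b (fun y => (u y : ℂ)) x := by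
    intro b
    have h2 : star (grA A u i x) b = conj (grA A u i x b) := rfl
    rw [h2, grA_eq, ← db_conj]
    simp only [conj_self_real]
  unfold tvc
  simp only [Matrix.trace, Matrix.diag, Matrix.mul_apply, Matrix.vecMulVec_apply, h1, grA_eq]
  rw [Finset.sum_comm]
  refine Finset.sum_congr rfl fun a _ => Finset.sum_congr rfl fun b _ => ?_
  ring

theorem sm_tv {g : A.ι → M → Matrix (Fin n) (Fin n) ℂ} (hg : CF A g) {u : M → ℝ} (hu : A.Sm u)
    (i : A.ι) : A.SmAt i (fun x => tv (g i x) (grA A u i x)) := by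
  have h1 := smAt_re (smAt_grad hg (smAt_ofReal (hu i)) (smAt_ofReal (hu i)))
  refine h1.congr fun z hz => ?_
  show tv (g i ((A.e i).symm z)) (grA A u i ((A.e i).symm z)) = _
  unfold tv
  rw [tvc_grA]

/-- chain rule -/
theorem hsf_comp {γ : ℝ → ℝ} (hγ : ContDiff ℝ ∞ γ) {u : M → ℝ} (hu : A.Sm u) {i : A.ι} {x : M}
    (hx : x ∈ (A.e i).source) :
    hsf A (fun y => γ (u y)) i x = ((deriv γ (u x) : ℝ) : ℂ) • hsf A u i x +
      ((deriv (deriv γ) (u x) : ℝ) : ℂ) • Matrix.vecMulVec (grA A u i x) (star (grA A u i x)) := by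
  have hz := (A.e i).map_source hx
  have hc := sm_contDiffAt hu i hz
  have e : u ((A.e i).symm (A.e i x)) = u x := by rw [(A.e i).left_inv hx]
  have h1 : ∀ s, HasDerivAt γ (deriv γ s) s := fun s =>
    (hγ.differentiable (by simp)).differentiableAt.hasDerivAt
  have h2' : ContDiff ℝ ∞ (deriv γ) := by
    have := (contDiff_infty_iff_deriv.1 hγ).2
    exact this
  have h2 : ∀ s, HasDerivAt (deriv γ) (deriv (deriv γ) s) s := fun s =>
    (h2'.differentiable (by simp)).differentiableAt.hasDerivAt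
  ext a b
  have h3 := hess_comp_real (φ := γ) (φ' := deriv γ) (d2 := deriv (deriv γ) (u x)) hc
    (Eventually.of_forall h1) (by rw [e]; exact h2 _) a b
  rw [e] at h3
  have h4 := star_gr (hc.differentiableAt (by simp)) b
  have h5 : hsf A (fun y => γ (u y)) i x a b =
      hess (fun w => γ (u ((A.e i).symm w))) (A.e i x) a b := rfl
  rw [h5, h3, Matrix.add_apply, Matrix.smul_apply, Matrix.smul_apply, Matrix.vecMulVec_apply,
    smul_eq_mul, smul_eq_mul]
  congr 2
  rw [← h4]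
  rfl

theorem tr_hsf_comp {γ : ℝ → ℝ} (hγ : ContDiff ℝ ∞ γ) (hF : HF A F) {i : A.ι} {x : M}
    (hx : x ∈ (A.e i).source) :
    ((hsf A (sF F) i x).adjugate * hsf A (fun y => γ (sF F y)) i x).trace =
      (((n : ℝ) * deriv γ (sF F x) * (hsf A (sF F) i x).det.re +
        deriv (deriv γ) (sF F x) * tv (hsf A (sF F) i x) (grA A (sF F) i x) : ℝ) : ℂ) := by
  rw [hsf_comp hγ (sm_sF hF) hx, Matrix.mul_add, Matrix.trace_add, Matrix.mul_smul,
    Matrix.trace_smul, Matrix.mul_smul, Matrix.trace_smul, tr_adj_self, smul_eq_mul, smul_eq_mul]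
  have h1 : ((hsf A (sF F) i x).adjugate *
      Matrix.vecMulVec (grA A (sF F) i x) (star (grA A (sF F) i x))).trace =
      (tv (hsf A (sF F) i x) (grA A (sF F) i x) : ℂ) := by
    have h2 := tvc_real (DF A F i x) (star (F x))
    rw [← hsf_sF hF i hx, ← grA_sF hF i hx] at h2
    exact h2
  have h3 : (hsf A (sF F) i x).det = (((hsf A (sF F) i x).det.re : ℝ) : ℂ) := by
    rw [hsf_sF hF i hx]
    exact det_gram_real _
  rw [h1, h3]
  push_cast
  simp only [Complex.ofReal_re]
  ring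

end

end Crest.Agent.R281.Mv_757
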