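import Crest.Agent.R275.QN2b_734
import Crest.Agent.R281.Mv4_757

/-!
# Row 281, S6-MONO (M4), part 5 (helper757): the local form of `SH`

As `Mv4`, but `F` is holomorphic only on an open set `W0`, and only
`tsupport w ∩ (W0 ∩ {|F|² ≤ R})` is compact.

* `ML A W0 F w R` : the data
* `rhoL`, `Gl`, `muL`, `sL` : density of `F^*β`, `|∂s|²`, the measure (zero off `W0`), `s` (`= |R|+1` off `W0`)
* `ML.dat` : `Mo_192.Dat (muL h W0 F) (sL W0 F R) (Gl h W0 F) w n R`
-/

set_option autoImplicit false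
set_option linter.unusedSectionVars false

open Set Filter Topology Complex MeasureTheory
open scoped ContDiff Matrix ComplexConjugate Manifold ComplexOrder ENNReal

namespace Crest.Agent.R281.Mv_757

open Crest.Agent.R275 Crest.Agent.R275.Geo Crest.Agent.R275.Core144 Crest.Agent.R275.EDR890
open Crest.Agent.R275.Pai323 Crest.Agent.R275.C1d194
open Crest.Agent.R275.SerG398 (lint dens OffZ)
open Crest.Agent.R275.OmT75 (dj dl dl_chain dl_mul dj_sum dj_congr)
open Crest.Agent.R273.Defs_333 Crest.Agent.R273.Hess_333 Crest.Agent.R273.HessB_333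
open Crest.Agent.R273.HM_333 Crest.Agent.R273.Kah_333 Crest.Agent.R273.Vol_333
open Crest.Agent.R273.StV_37 Crest.Agent.R273.Green_5 Crest.Agent.R273.Vm_333
open Crest.Agent.R273.FIa0_597 Crest.Agent.R273.FIb0_597 Crest.Agent.R273.FS_333
open Crest.Agent.R275.QN2b734 (SmP sm_iff smP_const exists_bump)
open Crest.Agent.R281

noncomputable section

variable {n N : ℕ} {M : Type} [TopologicalSpace M] [T2Space M] {A : Atl n M}
  {F : M → Fin N → ℂ} {W0 : Set M}

/-- holomorphic on `W0` -/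
def HFL (A : Atl n M) (W0 : Set M) (F : M → Fin N → ℂ) : Prop :=
  ∀ i k, HolAt A i W0 (fun x => F x k)

/-- the domain in the chart -/
def tW (A : Atl n M) (W0 : Set M) (i : A.ι) : Set (Cn n) := (A.e i).target ∩ (A.e i).symm ⁻¹' W0

theorem isOpen_tW (hW : IsOpen W0) (i : A.ι) : IsOpen (tW A W0 i) :=
  (A.e i).isOpen_inter_preimage_symm hW

theorem mem_tW {i : A.ι} {x : M} (hx : x ∈ (A.e i).source) (hxW : x ∈ W0) :
    A.e i x ∈ tW A W0 i := by
  refine ⟨(A.e i).map_source hx, ?_⟩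
  show (A.e i).symm (A.e i x) ∈ W0
  rwa [(A.e i).left_inv hx]

theorem hsf_sFL (hF : HFL A W0 F) (hW : IsOpen W0) {i : A.ι} {x : M} (hx : x ∈ (A.e i).source)
    (hxW : x ∈ W0) : hsf A (sF F) i x = DF A F i x * (DF A F i x)ᴴ := by
  ext a b
  exact hess_sq (F := fun z => F ((A.e i).symm z)) (isOpen_tW hW i) (hF i) (mem_tW hx hxW) a b

theorem grA_sFL (hF : HFL A W0 F) (hW : IsOpen W0) {i : A.ι} {x : M} (hx : x ∈ (A.e i).source)
    (hxW : x ∈ W0) : grA A (sF F) i x = DF A F i x *ᵥ star (F x) := by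
  funext a
  have h1 := wd_sq' (F := fun z => F ((A.e i).symm z)) (isOpen_tW hW i) (hF i) (mem_tW hx hxW) a
  have h2 : grA A (sF F) i x a = ∑ k, fderiv ℂ (fun z => F ((A.e i).symm z) k) (A.e i x)
      (EuclideanSpace.single a 1) * conj (F ((A.e i).symm (A.e i x)) k) := h1
  rw [h2, (A.e i).left_inv hx]
  rfl

theorem cd_sFL (hF : HFL A W0 F) (hW : IsOpen W0) {i : A.ι} {x : M} (hx : x ∈ (A.e i).source)
    (hxW : x ∈ W0) : ContDiffAt ℝ ∞ (fun z => sF F ((A.e i).symm z)) (A.e i x) := by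
  have : ContDiffAt ℝ ∞ (fun z => ∑ k, ‖F ((A.e i).symm z) k‖ ^ 2) (A.e i x) :=
    ContDiffAt.sum fun k _ =>
      (contDiffAt_of_hol (isOpen_tW hW i) (hF i k) (mem_tW hx hxW)).norm_sq ℝ
  exact this

theorem smP_sFL (hF : HFL A W0 F) (hW : IsOpen W0) {x : M} (hxW : x ∈ W0) : SmP A (sF F) x := by
  intro i hi
  exact cd_sFL hF hW hi hxW

/-- transformation of the Jacobian -/
theorem DF_tr (hF : HFL A W0 F) (hW : IsOpen W0) {i j : A.ι} {x : M}
    (hx : x ∈ (A.e i).source ∩ (A.e j).source) (hxW : x ∈ W0) :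
    DF A F i x = (Jm A i j x)ᵀ * DF A F j x := by
  have hd : ∀ {l : A.ι}, x ∈ (A.e l).source → ∀ k,
      DifferentiableAt ℂ (fun z => F ((A.e l).symm z) k) (A.e l x) := fun {l} hl k =>
    (hF l k).differentiableAt ((isOpen_tW hW l).mem_nhds (mem_tW hl hxW))
  have e : ∀ {l : A.ι}, x ∈ (A.e l).source → ∀ k a, DF A F l x a k =
      dl A l a (fun y => F y k) x := by
    intro l hl k a
    have h1 := wd_hol' (hd hl k) (a := a)
    have h2 : dl A l a (fun y => F y k) x = wd (false, a) (fun z => F ((A.e l).symm z) k)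
        (A.e l x) := by
      rw [← dj_eq_wd]
      rfl
    rw [h2, h1]
    rfl
  ext a k
  rw [e hx.1, dl_chain ((hd hx.2 k).restrictScalars ℝ) hx a, Matrix.mul_apply]
  refine Finset.sum_congr rfl fun b _ => ?_
  rw [e hx.2, Matrix.transpose_apply, Jm_apply, smul_eq_mul]

open Classical in
/-- the density of `F^* β` (zero off `W0`) -/
def dFL (A : Atl n M) (W0 : Set M) (F : M → Fin N → ℂ) (i : A.ι) (x : M) : ℝ :=
  if x ∈ W0 then (DF A F i x * (DF A F i x)ᴴ).det.re else 0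

open Classical in
/-- the auxiliary density (zero off `W0`) -/
def tFL (A : Atl n M) (W0 : Set M) (F : M → Fin N → ℂ) (i : A.ι) (x : M) : ℝ :=
  if x ∈ W0 then tv (DF A F i x * (DF A F i x)ᴴ) (DF A F i x *ᵥ star (F x)) else 0

theorem dFL_on {i : A.ι} {x : M} (hxW : x ∈ W0) :
    dFL A W0 F i x = (DF A F i x * (DF A F i x)ᴴ).det.re := if_pos hxW
theorem tFL_on {i : A.ι} {x : M} (hxW : x ∈ W0) :
    tFL A W0 F i x = tv (DF A F i x * (DF A F i x)ᴴ) (DF A F i x *ᵥ star (F x)) := if_pos hxW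
theorem dFL_off {i : A.ι} {x : M} (hxW : x ∉ W0) : dFL A W0 F i x = 0 := if_neg hxW
theorem tFL_off {i : A.ι} {x : M} (hxW : x ∉ W0) : tFL A W0 F i x = 0 := if_neg hxW

theorem gram_tr (J : Matrix (Fin n) (Fin n) ℂ) (C : Matrix (Fin n) (Fin N) ℂ) :
    (J * C) * (J * C)ᴴ = J * (C * Cᴴ) * Jᴴ := by
  rw [Matrix.conjTranspose_mul]
  simp only [Matrix.mul_assoc]

theorem rd_dFL (hF : HFL A W0 F) (hW : IsOpen W0) : RD A (dFL A W0 F) := by
  intro i j x hx
  by_cases hxW : x ∈ W0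
  · rw [dFL_on hxW, dFL_on hxW, DF_tr hF hW hx hxW, gram_tr, Matrix.det_mul, Matrix.det_mul,
      Matrix.det_conjTranspose, mul_right_comm,
      show (star (Jm A i j x)ᵀ.det : ℂ) = conj (Jm A i j x)ᵀ.det from rfl, jac_eq,
      Complex.re_ofReal_mul]
  · rw [dFL_off hxW, dFL_off hxW, mul_zero]

theorem rd_tFL (hF : HFL A W0 F) (hW : IsOpen W0) : RD A (tFL A W0 F) := by
  intro i j x hx
  by_cases hxW : x ∈ W0
  · rw [tFL_on hxW, tFL_on hxW, DF_tr hF hW hx hxW, gram_tr]
    unfold tv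
    rw [← Matrix.mulVec_mulVec, tvc_mul, jac_eq, Complex.re_ofReal_mul]
  · rw [tFL_off hxW, tFL_off hxW, mul_zero]

/-! ### continuity -/

theorem contOn_DF (hF : HFL A W0 F) (hW : IsOpen W0) (i : A.ι) :
    ContinuousOn (DF A F i) ((A.e i).source ∩ W0) := by
  have h0 : ∀ a k, ContinuousOn (fun x => DF A F i x a k) ((A.e i).source ∩ W0) := by
    intro a k
    have h3 : AnalyticOnNhd ℂ (fderiv ℂ (fun z => F ((A.e i).symm z) k)) (tW A W0 i) :=
      (Crest.Agent.R266.SCV.analyticOnNhd_of_differentiableOn (isOpen_tW hW i) (hF i k)).fderiv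
    have h4 : ContinuousOn (fun z => fderiv ℂ (fun z => F ((A.e i).symm z) k) z
        (EuclideanSpace.single a 1)) (tW A W0 i) :=
      h3.continuousOn.clm_apply continuousOn_const
    exact h4.comp ((A.e i).continuousOn.mono inter_subset_left)
      fun x hx => mem_tW hx.1 hx.2
  exact continuousOn_pi.2 fun a => continuousOn_pi.2 fun k => h0 a k

theorem contOn_F (hF : HFL A W0 F) (hW : IsOpen W0) (k : Fin N) :
    ContinuousOn (fun x => F x k) W0 := by
  intro x hxW
  obtain ⟨i, hi⟩ := A.cover x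
  have h1 : ContinuousAt (fun z => F ((A.e i).symm z) k) (A.e i x) :=
    ((hF i k).differentiableAt ((isOpen_tW hW i).mem_nhds (mem_tW hi hxW))).continuousAt
  have h2 : ContinuousAt (fun y => F ((A.e i).symm (A.e i y)) k) x :=
    ContinuousAt.comp (g := fun z => F ((A.e i).symm z) k) h1 ((A.e i).continuousAt hi)
  refine (h2.congr ?_).continuousWithinAt
  filter_upwards [(A.e i).open_source.mem_nhds hi] with y hy
  rw [(A.e i).left_inv hy]

theorem contOn_sF (hF : HFL A W0 F) (hW : IsOpen W0) : ContinuousOn (sF F) W0 := by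
  unfold sF
  exact continuousOn_finsetSum _ fun k _ => (contOn_F hF hW k).norm.pow 2

theorem cont_det : Continuous fun C : Matrix (Fin n) (Fin N) ℂ => (C * Cᴴ).det.re :=
  Complex.continuous_re.comp
    ((continuous_id.matrix_mul continuous_id.matrix_conjTranspose).matrix_det)

theorem cont_tv : Continuous fun p : Matrix (Fin n) (Fin N) ℂ × (Fin N → ℂ) =>
    tv (p.1 * p.1ᴴ) (p.1 *ᵥ star p.2) := by
  unfold tv tvc
  have h1 : Continuous fun p : Matrix (Fin n) (Fin N) ℂ × (Fin N → ℂ) => p.1 * p.1ᴴ :=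
    continuous_fst.matrix_mul continuous_fst.matrix_conjTranspose
  have h2 : Continuous fun p : Matrix (Fin n) (Fin N) ℂ × (Fin N → ℂ) => p.1 *ᵥ star p.2 :=
    continuous_fst.matrix_mulVec continuous_snd.star
  exact Complex.continuous_re.comp
    ((h1.matrix_adjugate.matrix_mul (h2.matrix_vecMulVec h2.star)).matrix_trace)

theorem contOn_dq (h : HM (KB A)⁻¹) (hW : IsOpen W0) {f : A.ι → M → ℝ} (hf : RD A f)
    (hc : ∀ i, ContinuousOn (f i) ((A.e i).source ∩ W0)) : ContinuousOn (dq h f) W0 := by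
  intro x hxW
  obtain ⟨i, hi⟩ := A.cover x
  have hw : ContinuousOn (h.w i) (A.e i).source := by
    have h1 : ContinuousOn (fun z => h.w i ((A.e i).symm z)) (A.e i).target :=
      (h.sm i).continuousOn
    have h2 : ContinuousOn (fun y => h.w i ((A.e i).symm (A.e i y))) (A.e i).source :=
      h1.comp (A.e i).continuousOn fun y hy => (A.e i).map_source hy
    exact h2.congr fun y hy => by
      change h.w i y = h.w i ((A.e i).symm (A.e i y))
      rw [(A.e i).left_inv hy]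
  have ho : (A.e i).source ∩ W0 ∈ 𝓝 x := ((A.e i).open_source.inter hW).mem_nhds ⟨hi, hxW⟩
  have h3 : ContinuousAt (fun y => f i y / h.w i y) x :=
    ((hc i).continuousAt ho).div (hw.continuousAt ((A.e i).open_source.mem_nhds hi))
      (h.pos i x hi).ne'
  refine (h3.congr ?_).continuousWithinAt
  filter_upwards [ho] with y hy
  exact (dq_eq h hf hy.1).symm

variable (h : HM (KB A)⁻¹)

/-- the density of `F^* β` with respect to `h`, zero off `W0` -/
def rhoL (W0 : Set M) (F : M → Fin N → ℂ) : M → ℝ := dq h (dFL A W0 F)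

/-- auxiliary -/
def tauL (W0 : Set M) (F : M → Fin N → ℂ) : M → ℝ := dq h (tFL A W0 F)

/-- `|∂ s|²` -/
def Gl (W0 : Set M) (F : M → Fin N → ℂ) (x : M) : ℝ := tauL h W0 F x / rhoL h W0 F x

open Classical in
/-- `|F|²` on `W0`, large off `W0` -/
def sL (W0 : Set M) (F : M → Fin N → ℂ) (R : ℝ) (x : M) : ℝ :=
  if x ∈ W0 then sF F x else |R| + 1

theorem sL_on {R : ℝ} {x : M} (hxW : x ∈ W0) : sL W0 F R x = sF F x := if_pos hxW
theorem sL_off {R : ℝ} {x : M} (hxW : x ∉ W0) : sL W0 F R x = |R| + 1 := if_neg hxW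

theorem sL_lt (R : ℝ) : {x | sL W0 F R x < R} = W0 ∩ {x | sF F x < R} := by
  ext x
  simp only [mem_ofPred_eq, mem_inter_iff]
  by_cases hxW : x ∈ W0
  · rw [sL_on hxW]
    simp [hxW]
  · rw [sL_off hxW]
    simp only [hxW, false_and, iff_false, not_lt]
    linarith [le_abs_self R]

theorem sL_lt' {R r : ℝ} (hr : r ≤ R) : {x | sL W0 F R x < r} = W0 ∩ {x | sF F x < r} := by
  ext x
  simp only [mem_ofPred_eq, mem_inter_iff]
  by_cases hxW : x ∈ W0
  · rw [sL_on hxW]
    simp [hxW]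
  · rw [sL_off hxW]
    simp only [hxW, false_and, iff_false, not_lt]
    linarith [le_abs_self R]

theorem sL_le' {R r : ℝ} (hr : r ≤ R) : {x | sL W0 F R x ≤ r} = W0 ∩ {x | sF F x ≤ r} := by
  ext x
  simp only [mem_ofPred_eq, mem_inter_iff]
  by_cases hxW : x ∈ W0
  · rw [sL_on hxW]
    simp [hxW]
  · rw [sL_off hxW]
    simp only [hxW, false_and, iff_false, not_le]
    linarith [le_abs_self R]

theorem rhoL_mul (hF : HFL A W0 F) (hW : IsOpen W0) {i : A.ι} {x : M}
    (hx : x ∈ (A.e i).source) : h.w i x * rhoL h W0 F x = dFL A W0 F i x :=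
  dq_mul h (rd_dFL hF hW) hx

theorem tauL_mul (hF : HFL A W0 F) (hW : IsOpen W0) {i : A.ι} {x : M}
    (hx : x ∈ (A.e i).source) : h.w i x * tauL h W0 F x = tFL A W0 F i x :=
  dq_mul h (rd_tFL hF hW) hx

theorem dFL_nonneg (i : A.ι) (x : M) : 0 ≤ dFL A W0 F i x := by
  by_cases hxW : x ∈ W0
  · rw [dFL_on hxW]
    exact det_gram_re_nonneg _
  · rw [dFL_off hxW]

theorem tFL_nonneg (i : A.ι) (x : M) : 0 ≤ tFL A W0 F i x := by
  by_cases hxW : x ∈ W0
  · rw [tFL_on hxW]
    exact tv_nonneg _ _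
  · rw [tFL_off hxW]

theorem tFL_le (i : A.ι) (x : M) : tFL A W0 F i x ≤ dFL A W0 F i x * sF F x := by
  by_cases hxW : x ∈ W0
  · rw [tFL_on hxW, dFL_on hxW, ← star_dot_sF (F := F) x]
    exact tv_le _ _
  · rw [tFL_off hxW, dFL_off hxW, zero_mul]

theorem rhoL_nonneg (x : M) : 0 ≤ rhoL h W0 F x :=
  div_nonneg (dFL_nonneg _ _) (h.pos _ x (mem_ch A x)).le

theorem tauL_nonneg (x : M) : 0 ≤ tauL h W0 F x :=
  div_nonneg (tFL_nonneg _ _) (h.pos _ x (mem_ch A x)).le

theorem tauL_le (x : M) : tauL h W0 F x ≤ rhoL h W0 F x * sF F x := by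
  have hp := h.pos _ x (mem_ch A x)
  unfold tauL rhoL dq
  rw [div_mul_eq_mul_div]
  exact div_le_div_of_nonneg_right (tFL_le _ _) hp.le

theorem rhoL_off {x : M} (hxW : x ∉ W0) : rhoL h W0 F x = 0 := by
  unfold rhoL dq
  rw [dFL_off hxW, zero_div]

theorem tauL_off {x : M} (hxW : x ∉ W0) : tauL h W0 F x = 0 := by
  unfold tauL dq
  rw [tFL_off hxW, zero_div]

theorem Gl_nonneg (x : M) : 0 ≤ Gl h W0 F x :=
  div_nonneg (tauL_nonneg h x) (rhoL_nonneg h x)

theorem Gl_le (R : ℝ) (x : M) : Gl h W0 F x ≤ sL W0 F R x := by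
  by_cases hxW : x ∈ W0
  · rw [sL_on hxW]
    unfold Gl
    rcases (rhoL_nonneg h x).eq_or_lt with h0 | h0
    · rw [← h0, div_zero]
      exact sF_nonneg F x
    · rw [div_le_iff₀ h0, mul_comm]
      exact tauL_le h x
  · rw [sL_off hxW]
    unfold Gl
    rw [tauL_off h hxW, zero_div]
    positivity

theorem rhoL_mul_Gl (x : M) : rhoL h W0 F x * Gl h W0 F x = tauL h W0 F x := by
  unfold Gl
  rcases (rhoL_nonneg h x).eq_or_lt with h0 | h0
  · have h1 := tauL_le h (W0 := W0) (F := F) x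
    have h2 := tauL_nonneg h (W0 := W0) (F := F) x
    rw [← h0, zero_mul] at h1 ⊢
    linarith
  · exact mul_div_cancel₀ _ h0.ne'

theorem contOn_rhoL (hF : HFL A W0 F) (hW : IsOpen W0) : ContinuousOn (rhoL h W0 F) W0 := by
  refine contOn_dq h hW (rd_dFL hF hW) fun i => ?_
  have h1 : ContinuousOn (fun x => (DF A F i x * (DF A F i x)ᴴ).det.re)
      ((A.e i).source ∩ W0) := cont_det.comp_continuousOn (contOn_DF hF hW i)
  exact h1.congr fun x hx => dFL_on hx.2

theorem contOn_tauL (hF : HFL A W0 F) (hW : IsOpen W0) : ContinuousOn (tauL h W0 F) W0 := by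
  refine contOn_dq h hW (rd_tFL hF hW) fun i => ?_
  have h0 : ContinuousOn (fun x => (DF A F i x, F x)) ((A.e i).source ∩ W0) :=
    (contOn_DF hF hW i).prodMk
      (continuousOn_pi.2 fun k => (contOn_F hF hW k).mono inter_subset_right)
  have h1 := (cont_tv (n := n) (N := N)).comp_continuousOn h0
  refine ContinuousOn.congr h1 fun x hx => ?_
  rw [tFL_on hx.2]
  rfl

end

end Crest.Agent.R281.Mv_757
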