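import Crest.Agent.R281.Mv5_757

/-!
# Row 281, S6-MONO (M4), part 6 (helper757): the local form of `SH`, conclusion

* `structure ML A W0 F w R` : `W0` open, `F` holomorphic on `W0`, `w ≥ 0` smooth on `M` and psh on
  `W0 ∩ {|F|² ≤ R}`, `tsupport w ∩ (W0 ∩ {|F|² ≤ R})` compact
* `ML.dat` : `Mo_192.Dat (muL h W0 F) (sL W0 F R) (Gl h W0 F) w n R`
-/

set_option autoImplicit false
set_option linter.unusedSectionVars false

open Set Filter Topology Complex MeasureTheory
open scoped ContDiff Matrix ComplexConjugate Manifold ComplexOrder ENNReal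

namespace Crest.Agent.R281.Mv_757

open Crest.Agent.R275 Crest.Agent.R275.Geo Crest.Agent.R275.Core144 Crest.Agent.R275.EDR890
open Crest.Agent.R275.Pai323 Crest.Agent.R275.C1d194
open Crest.Agent.R275.SerG398 (lint dens OffZ)
open Crest.Agent.R275.OmT75 (dj dl dl_chain dl_mul dj_sum dj_congr)
open Crest.Agent.R273.Defs_333 Crest.Agent.R273.Hess_333 Crest.Agent.R273.HessB_333
open Crest.Agent.R273.HM_333 Crest.Agent.R273.Kah_333 Crest.Agent.R273.Vol_333
open Crest.Agent.R273.StV_37 Crest.Agent.R273.Green_5 Crest.Agent.R273.Vm_333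
open Crest.Agent.R273.FIa0_597 Crest.Agent.R273.FIb0_597 Crest.Agent.R273.FS_333
open Crest.Agent.R275.QN2b734 (SmP sm_iff smP_const exists_bump)
open Crest.Agent.R281

noncomputable section

variable {n N : ℕ} {M : Type} [TopologicalSpace M] [T2Space M] {A : Atl n M}
  {F : M → Fin N → ℂ} {W0 : Set M}

/-- data for the local instance -/
structure ML (A : Atl n M) (W0 : Set M) (F : M → Fin N → ℂ) (w : M → ℝ) (R : ℝ) : Prop where
  op : IsOpen W0
  hol : HFL A W0 F
  sm : A.Sm w
  w0 : ∀ x, 0 ≤ w x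
  psh : ∀ i, ∀ x ∈ (A.e i).source, x ∈ W0 → sF F x ≤ R → (hsf A w i x).PosSemidef
  cpt : IsCompact (tsupport w ∩ (W0 ∩ {x | sF F x ≤ R}))

/-! ### pointwise facts -/

theorem tendsto_symm' {i : A.ι} {x : M} (hx : x ∈ (A.e i).source) :
    Tendsto (A.e i).symm (𝓝 (A.e i x)) (𝓝 x) := by
  have := (A.e i).continuousAt_symm ((A.e i).map_source hx)
  rwa [ContinuousAt, (A.e i).left_inv hx] at this

theorem hsf_congr {u v : M → ℝ} {i : A.ι} {x : M} (hx : x ∈ (A.e i).source)
    (h : u =ᶠ[𝓝 x] v) : hsf A u i x = hsf A v i x :=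
  hess_congr ((tendsto_symm' hx).eventually h)

theorem hsf_zero {i : A.ι} {x : M} : hsf A (fun _ => (0 : ℝ)) i x = 0 := by
  show hess (fun _ => (0 : ℝ)) (A.e i x) = 0
  ext a b
  rw [hess_apply]
  have h4 : wd (true, b) (cu (fun _ : Cn n => (0 : ℝ))) = fun _ => (0 : ℂ) := by
    funext z
    exact wd_const _ _ _
  rw [h4]
  exact wd_const _ _ _

theorem hsf_zero_of {u : M → ℝ} {i : A.ι} {x : M} (hx : x ∈ (A.e i).source)
    (h : u =ᶠ[𝓝 x] 0) : hsf A u i x = 0 := by
  rw [hsf_congr hx (v := fun _ => 0) h, hsf_zero]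

/-- chain rule at a point -/
theorem hsf_compL {γ : ℝ → ℝ} (hγ : ContDiff ℝ ∞ γ) {u : M → ℝ} {i : A.ι} {x : M}
    (hx : x ∈ (A.e i).source)
    (hc : ContDiffAt ℝ ∞ (fun z => u ((A.e i).symm z)) (A.e i x)) :
    hsf A (fun y => γ (u y)) i x = ((deriv γ (u x) : ℝ) : ℂ) • hsf A u i x +
      ((deriv (deriv γ) (u x) : ℝ) : ℂ) • Matrix.vecMulVec (grA A u i x) (star (grA A u i x)) := by
  have e : u ((A.e i).symm (A.e i x)) = u x := by rw [(A.e i).left_inv hx]
  have h1 : ∀ s, HasDerivAt γ (deriv γ s) s := fun s =>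
    (hγ.differentiable (by simp)).differentiableAt.hasDerivAt
  have h2' : ContDiff ℝ ∞ (deriv γ) := (contDiff_infty_iff_deriv.1 hγ).2
  have h2 : ∀ s, HasDerivAt (deriv γ) (deriv (deriv γ) s) s := fun s =>
    (h2'.differentiable (by simp)).differentiableAt.hasDerivAt
  ext a b
  have h3 := hess_comp_real (φ := γ) (φ' := deriv γ) (d2 := deriv (deriv γ) (u x)) hc
    (Eventually.of_forall h1) (by rw [e]; exact h2 _) a b
  rw [e] at h3
  have h4 := star_gr (hc.differentiableAt (by simp)) b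
  have h5 : hsf A (fun y => γ (u y)) i x a b =
      hess (fun w => γ (u ((A.e i).symm w))) (A.e i x) a b := rfl
  rw [h5, h3, Matrix.add_apply, Matrix.smul_apply, Matrix.smul_apply, Matrix.vecMulVec_apply,
    smul_eq_mul, smul_eq_mul]
  congr 2
  rw [← h4]
  rfl

theorem tr_hsf_compL {γ : ℝ → ℝ} (hγ : ContDiff ℝ ∞ γ) (hF : HFL A W0 F) (hW : IsOpen W0)
    {i : A.ι} {x : M} (hx : x ∈ (A.e i).source) (hxW : x ∈ W0) :
    ((hsf A (sF F) i x).adjugate * hsf A (fun y => γ (sF F y)) i x).trace =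
      (((n : ℝ) * deriv γ (sF F x) * dFL A W0 F i x +
        deriv (deriv γ) (sF F x) * tFL A W0 F i x : ℝ) : ℂ) := by
  rw [hsf_compL hγ hx (cd_sFL hF hW hx hxW), Matrix.mul_add, Matrix.trace_add, Matrix.mul_smul,
    Matrix.trace_smul, Matrix.mul_smul, Matrix.trace_smul, tr_adj_self, smul_eq_mul, smul_eq_mul,
    dFL_on hxW, tFL_on hxW, hsf_sFL hF hW hx hxW, grA_sFL hF hW hx hxW]
  have h1 : ((DF A F i x * (DF A F i x)ᴴ).adjugate *
      Matrix.vecMulVec (DF A F i x *ᵥ star (F x)) (star (DF A F i x *ᵥ star (F x)))).trace =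
      (tv (DF A F i x * (DF A F i x)ᴴ) (DF A F i x *ᵥ star (F x)) : ℂ) := tvc_real _ _
  have h3 := det_gram_real (DF A F i x)
  rw [h1, h3]
  push_cast
  simp only [Complex.ofReal_re]
  ring

theorem smP_mul_cut {φ f : M → ℝ} (hφ : ∀ y, SmP A φ y) (hW : tsupport φ ⊆ W0)
    (hf : ∀ y ∈ W0, SmP A f y) (x : M) : SmP A (fun y => φ y * f y) x := by
  by_cases hx : x ∈ tsupport φ
  · exact (hφ x).mul (hf x (hW hx))
  · refine (smP_const (A := A) (0 : ℝ) x).congr ?_
    filter_upwards [notMem_tsupport_iff_eventuallyEq.1 hx] with y hy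
    rw [hy, Pi.zero_apply, zero_mul]

variable (h : HM (KB A)⁻¹) [MeasurableSpace M] [BorelSpace M] [Countable A.ι]
variable {w : M → ℝ} {R : ℝ}

/-- the measure `det (DF* DF) dλ` on `W0` -/
def muL (W0 : Set M) (F : M → Fin N → ℂ) : Measure M :=
  (vm h).withDensity (fun x => ENNReal.ofReal (rhoL h W0 F x))

theorem meas_indicator_of_contOn {f : M → ℝ} (hW : IsOpen W0) (hc : ContinuousOn f W0)
    (c : ℝ) (h0 : ∀ x ∉ W0, f x = c) : Measurable f := by
  classical
  have h1 := hc.measurable_piecewise (g := fun _ => c) continuousOn_const hW.measurableSet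
  have h2 : W0.piecewise f (fun _ => c) = f := by
    funext x
    by_cases hx : x ∈ W0
    · rw [piecewise_eq_of_mem _ _ _ hx]
    · rw [piecewise_eq_of_notMem _ _ _ hx, h0 x hx]
  rwa [h2] at h1

theorem meas_rhoL (hF : HFL A W0 F) (hW : IsOpen W0) : Measurable (rhoL h W0 F) :=
  meas_indicator_of_contOn hW (contOn_rhoL h hF hW) 0 fun _ hx => rhoL_off h hx

theorem meas_tauL (hF : HFL A W0 F) (hW : IsOpen W0) : Measurable (tauL h W0 F) :=
  meas_indicator_of_contOn hW (contOn_tauL h hF hW) 0 fun _ hx => tauL_off h hx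

theorem meas_Gl (hF : HFL A W0 F) (hW : IsOpen W0) : Measurable (Gl h W0 F) :=
  (meas_tauL h hF hW).div (meas_rhoL h hF hW)

theorem meas_sL (hF : HFL A W0 F) (hW : IsOpen W0) (R : ℝ) : Measurable (sL W0 F R) :=
  meas_indicator_of_contOn hW ((contOn_sF hF hW).congr fun _ hx => sL_on hx) (|R| + 1)
    fun _ hx => sL_off hx

theorem integral_muL (hF : HFL A W0 F) (hW : IsOpen W0) (f : M → ℝ) :
    ∫ x, f x ∂(muL h W0 F) = ∫ x, rhoL h W0 F x * f x ∂(vm h) := by
  unfold muL
  rw [integral_withDensity_eq_integral_toReal_smul (meas_rhoL h hF hW).ennreal_ofReal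
    (Eventually.of_forall fun x => ENNReal.ofReal_lt_top)]
  refine integral_congr_ae (Eventually.of_forall fun x => ?_)
  simp only [smul_eq_mul]
  rw [ENNReal.toReal_ofReal (rhoL_nonneg h x)]

/-- `SH` for smooth test functions -/
theorem sh_smoothL (P : Part A) (D : ML A W0 F w R) {γ : ℝ → ℝ} (hγ : ContDiff ℝ ∞ γ)
    (hγ0 : ∀ s, 0 ≤ γ s) (hz : ∀ s, R ≤ s → γ s = 0) :
    0 ≤ ∫ x, w x * ((n : ℝ) * deriv γ (sL W0 F R x) +
      deriv (deriv γ) (sL W0 F R x) * Gl h W0 F x) ∂(muL h W0 F) := by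
  have hW := D.op
  have hF := D.hol
  set K : Set M := tsupport w ∩ (W0 ∩ {x | sF F x ≤ R}) with hK
  have hKc : IsCompact K := D.cpt
  have hKW : K ⊆ W0 := fun x hx => hx.2.1
  have hγ1 : ContDiff ℝ ∞ (deriv γ) := (contDiff_infty_iff_deriv.1 hγ).2
  have hγ2 : ContDiff ℝ ∞ (deriv (deriv γ)) := (contDiff_infty_iff_deriv.1 hγ1).2
  have hz1 : ∀ s, R < s → deriv γ s = 0 := by
    intro s hs
    have : γ =ᶠ[𝓝 s] fun _ => 0 := by
      filter_upwards [lt_mem_nhds hs] with t ht
      exact hz t ht.le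
    rw [this.deriv_eq, deriv_const]
  have hz2 : ∀ s, R < s → deriv (deriv γ) s = 0 := by
    intro s hs
    have : deriv γ =ᶠ[𝓝 s] fun _ => 0 := by
      filter_upwards [lt_mem_nhds hs] with t ht
      exact hz1 t ht
    rw [this.deriv_eq, deriv_const]
  -- cut-offs
  obtain ⟨φ, φs, φ01, φ1, φc, φW⟩ := exists_bump A hKc hW hKW
  have φ1' : ∀ x ∈ K, ∀ᶠ y in 𝓝 x, φ y = 1 := fun x hx =>
    eventually_nhdsSet_iff_forall.1 φ1 x hx
  set S : M → ℝ := fun y => φ y * sF F y with hS
  set u : M → ℝ := fun y => φ y * γ (sF F y) with hu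
  have Ssm : A.Sm S := sm_iff.2 fun x => smP_mul_cut φs φW (fun y hy => smP_sFL hF hW hy) x
  have usm : A.Sm u := sm_iff.2 fun x => smP_mul_cut φs φW (fun y hy =>
    SmP.comp hγ.contDiffAt (smP_sFL hF hW hy)) x
  have u0 : ∀ x, 0 ≤ u x := fun x => mul_nonneg (φ01 x).1 (hγ0 _)
  have SK : ∀ x ∈ K, S =ᶠ[𝓝 x] sF F := by
    intro x hx
    filter_upwards [φ1' x hx] with y hy
    simp only [hS]
    rw [hy, one_mul]
  have uK : ∀ x ∈ K, u =ᶠ[𝓝 x] fun y => γ (sF F y) := by
    intro x hx
    filter_upwards [φ1' x hx] with y hy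
    simp only [hu]
    rw [hy, one_mul]
  have hoff : ∀ x ∉ K, w =ᶠ[𝓝 x] 0 ∨ u =ᶠ[𝓝 x] 0 := by
    intro x hx
    by_cases hxw : x ∈ tsupport w
    · refine Or.inr ?_
      by_cases hxW : x ∈ W0
      · have hx' : R < sF F x := by
          by_contra hc
          exact hx ⟨hxw, hxW, not_lt.1 hc⟩
        have hc : ContinuousAt (sF F) x := (contOn_sF hF hW).continuousAt (hW.mem_nhds hxW)
        filter_upwards [hc.eventually (lt_mem_nhds hx')] with y hy
        simp only [hu]
        rw [hz _ hy.le, mul_zero, Pi.zero_apply]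
      · have hx2 : x ∉ tsupport φ := fun hc => hxW (φW hc)
        filter_upwards [notMem_tsupport_iff_eventuallyEq.1 hx2] with y hy
        simp only [hu]
        rw [hy, Pi.zero_apply, zero_mul]
    · exact Or.inl (notMem_tsupport_iff_eventuallyEq.1 hxw)
  set g : A.ι → M → Matrix (Fin n) (Fin n) ℂ := hsf A S with hg
  have hgc : CF A g := hsf_cf Ssm
  have hh : ∀ i, ∀ x ∈ (A.e i).source, (g i x).IsHermitian := fun i x hx =>
    hess_herm (sm_contDiffAt Ssm i ((A.e i).map_source hx))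
  have gK : ∀ i, ∀ x ∈ (A.e i).source, x ∈ K → g i x = hsf A (sF F) i x := fun i x hx hxK =>
    hsf_congr hx (SK x hxK)
  -- left side
  set f : M → ℝ := fun x => w x * ((n : ℝ) * deriv γ (sL W0 F R x) * rhoL h W0 F x +
    deriv (deriv γ) (sL W0 F R x) * tauL h W0 F x) with hf
  have hf0 : ∀ x ∉ K, f x = 0 := by
    intro x hx
    simp only [hf]
    by_cases hxW : x ∈ W0
    · by_cases hxw : x ∈ tsupport w
      · have hx' : R < sF F x := by
          by_contra hc
          exact hx ⟨hxw, hxW, not_lt.1 hc⟩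
        rw [sL_on hxW, hz1 _ hx', hz2 _ hx']
        ring
      · rw [image_eq_zero_of_notMem_tsupport hxw, zero_mul]
    · rw [rhoL_off h hxW, tauL_off h hxW]
      ring
  have hfc : Continuous f := by
    rw [continuous_iff_continuousAt]
    intro x
    by_cases hxK : x ∈ K
    · have hxW := hKW hxK
      have hnh := hW.mem_nhds hxW
      have c1 : ContinuousAt (sL W0 F R) x :=
        ((contOn_sF hF hW).congr fun _ hx => sL_on hx).continuousAt hnh
      have c2 := (contOn_rhoL h hF hW).continuousAt hnh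
      have c3 := (contOn_tauL h hF hW).continuousAt hnh
      have c4 : ContinuousAt (fun x => deriv γ (sL W0 F R x)) x :=
        ContinuousAt.comp (g := deriv γ) hγ1.continuous.continuousAt c1
      have c5 : ContinuousAt (fun x => deriv (deriv γ) (sL W0 F R x)) x :=
        ContinuousAt.comp (g := deriv (deriv γ)) hγ2.continuous.continuousAt c1
      exact (sm_cont D.sm).continuousAt.mul (((continuousAt_const.mul c4).mul c2).add (c5.mul c3))
    · have : f =ᶠ[𝓝 x] fun _ => 0 := by
        filter_upwards [hKc.isClosed.isOpen_compl.mem_nhds hxK] with y hy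
        exact hf0 y hy
      exact continuousAt_const.congr this.symm
  have e1 : ∫ x, w x * ((n : ℝ) * deriv γ (sL W0 F R x) +
      deriv (deriv γ) (sL W0 F R x) * Gl h W0 F x) ∂(muL h W0 F) = ∫ x, f x ∂(vm h) := by
    rw [integral_muL h hF hW]
    refine integral_congr_ae (Eventually.of_forall fun x => ?_)
    simp only [hf]
    rw [← rhoL_mul_Gl h x]
    ring
  rw [e1, vm_tot_re P h hKc (Finset.Subset.refl _) (integrable_of_zero_off h hKc hfc hf0) hf0]
  have e2 : tot P (Fn P hKc) (fun i x => ((h.w i x * f x : ℝ) : ℂ)) =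
      tot P (Fn P hKc) (fun i x => (w x : ℂ) * ((g i x).adjugate * hsf A u i x).trace) := by
    refine tot_congr P _ fun i _ x hx => ?_
    by_cases hxK : x ∈ K
    · have hxW := hKW hxK
      rw [gK i x hx hxK, hsf_congr hx (uK x hxK), tr_hsf_compL hγ hF hW hx hxW,
        ← rhoL_mul h hF hW hx, ← tauL_mul h hF hW hx]
      simp only [hf]
      rw [sL_on hxW]
      push_cast
      ring
    · rw [hf0 x hxK, mul_zero, Complex.ofReal_zero]
      rcases hoff x hxK with h1 | h1
      · rw [h1.self_of_nhds]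
        simp
      · rw [hsf_zero_of hx h1, Matrix.mul_zero, Matrix.trace_zero, mul_zero]
  rw [e2, green_symm P hgc hh usm D.sm hKc (Finset.Subset.refl _) hoff]
  -- right side
  set q : M → ℝ := dq h (fun i x => ((g i x).adjugate * hsf A w i x).trace.re) with hq
  have hrd := rd_tr (tf_of_cf hgc) (tf_hsf D.sm)
  have hqc : Continuous q := sm_cont (sm_dq h hrd (sm_tr hgc D.sm))
  have hq0 : ∀ x ∉ K, u x * q x = 0 := by
    intro x hx
    rcases hoff x hx with h1 | h1
    · have hx' := mem_ch A x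
      have h2 : q x = 0 := by
        rw [hq, dq_eq h hrd hx']
        simp only [hsf_zero_of hx' h1]
        rw [Matrix.mul_zero, Matrix.trace_zero, Complex.zero_re, zero_div]
      rw [h2, mul_zero]
    · rw [h1.self_of_nhds, Pi.zero_apply, zero_mul]
  have hgc' : Continuous fun x => u x * q x := (sm_cont usm).mul hqc
  have e3 : tot P (Fn P hKc) (fun i x => ((u x : ℝ) : ℂ) *
      ((g i x).adjugate * hsf A w i x).trace) =
      tot P (Fn P hKc) (fun i x => ((h.w i x * (u x * q x) : ℝ) : ℂ)) := by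
    refine tot_congr P _ fun i _ x hx => ?_
    have h1 : h.w i x * q x = ((g i x).adjugate * hsf A w i x).trace.re :=
      dq_mul h hrd hx
    have hwh : (hsf A w i x).IsHermitian :=
      hess_herm (sm_contDiffAt D.sm i ((A.e i).map_source hx))
    have h2 : ((g i x).adjugate * hsf A w i x).trace = ((h.w i x * q x : ℝ) : ℂ) := by
      rw [h1]
      have h3 : conj (((g i x).adjugate * hsf A w i x).trace) =
          ((g i x).adjugate * hsf A w i x).trace := by
        have h4 : star (((g i x).adjugate * hsf A w i x).trace) =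
            (((g i x).adjugate * hsf A w i x)ᴴ).trace :=
          (Matrix.trace_conjTranspose _).symm
        have h5 : ((g i x).adjugate)ᴴ = (g i x).adjugate := by
          rw [Matrix.adjugate_conjTranspose, hh i x hx]
        show star (((g i x).adjugate * hsf A w i x).trace) = _
        rw [h4, Matrix.conjTranspose_mul, h5, hwh, Matrix.trace_mul_comm]
      exact Complex.ext (by simp) (by simpa using im_zero_of_conj h3)
    rw [h2]
    push_cast
    ring
  rw [e3, ← vm_tot_re P h hKc (Finset.Subset.refl _) (integrable_of_zero_off h hKc hgc' hq0) hq0]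
  refine integral_nonneg fun x => ?_
  by_cases hxK : x ∈ K
  · refine mul_nonneg (u0 x) ?_
    have hx := mem_ch A x
    rw [hq, dq_eq h hrd hx]
    refine div_nonneg ?_ (h.pos _ x hx).le
    simp only
    rw [gK _ x hx hxK, hsf_sFL hF hW hx (hKW hxK)]
    exact tr_adj_nonneg (Matrix.posSemidef_self_mul_conjTranspose _) (D.psh _ x hx (hKW hxK) hxK.2.2)
  · exact (hq0 x hxK).ge

theorem intOn_wL (D : ML A W0 F w R) : IntegrableOn w {x | sL W0 F R x < R} (muL h W0 F) := by
  have hW := D.op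
  have hF := D.hol
  have := isLocallyFinite_vm h
  set K : Set M := tsupport w ∩ (W0 ∩ {x | sF F x ≤ R}) with hK
  have hKc : IsCompact K := D.cpt
  have hKW : K ⊆ W0 := fun x hx => hx.2.1
  obtain ⟨C, hC⟩ := hKc.exists_bound_of_continuousOn ((contOn_rhoL h hF hW).mono hKW)
  have hfin : muL h W0 F K < ⊤ := by
    unfold muL
    rw [withDensity_apply _ hKc.isClosed.measurableSet]
    calc ∫⁻ x in K, ENNReal.ofReal (rhoL h W0 F x) ∂(vm h)
        ≤ ∫⁻ _ in K, ENNReal.ofReal C ∂(vm h) := by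
          refine setLIntegral_mono' hKc.isClosed.measurableSet fun x hx => ?_
          exact ENNReal.ofReal_le_ofReal ((le_abs_self _).trans (hC x hx))
      _ < ⊤ := by
          rw [setLIntegral_const]
          exact ENNReal.mul_lt_top ENNReal.ofReal_lt_top hKc.measure_lt_top
  obtain ⟨C', hC'⟩ := hKc.exists_bound_of_continuousOn (sm_cont D.sm).continuousOn
  have h1 : IntegrableOn w K (muL h W0 F) :=
    Measure.integrableOn_of_bounded hfin.ne (sm_cont D.sm).aestronglyMeasurable
      ((ae_restrict_iff' hKc.isClosed.measurableSet).2 (Eventually.of_forall hC'))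
  rw [sL_lt]
  have hm : MeasurableSet (W0 ∩ {x | sF F x < R}) := by
    rw [← sL_lt]
    exact measurableSet_lt (meas_sL hF hW R) measurable_const
  refine h1.of_forall_sdiff_eq_zero hm fun x hx => ?_
  refine image_eq_zero_of_notMem_tsupport fun h2 => hx.2 ⟨h2, hx.1.1, ?_⟩
  exact (show sF F x < R from hx.1.2).le

/-- **(M4), local form**: the data of 192 -/
theorem ML.dat (P : Part A) (D : ML A W0 F w R) :
    Mo_192.Dat (muL h W0 F) (sL W0 F R) (Gl h W0 F) w n R where
  mρ := meas_sL D.hol D.op R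
  mG := meas_Gl h D.hol D.op
  G0 := Gl_nonneg h
  Gρ := Gl_le h R
  w0 := D.w0
  int := intOn_wL h D
  sh := sh_of_smooth (meas_sL D.hol D.op R) (meas_Gl h D.hol D.op)
    (Gl_nonneg h) (Gl_le h R) (intOn_wL h D) fun _ hγ h0 hz => sh_smoothL h P D hγ h0 hz

end

end Crest.Agent.R281.Mv_757
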