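import Crest.Agent.R273.YauMax_635
import Crest.Agent.R281.Mass3_519
import Crest.Agent.R281.Mv8_757

/-!
# Row 281, S6-MONO (M4), part 9 (helper757): the mean value inequality on a disc family

`F : Fam A d 1 U` (664), `K : Kah A`, chart `i` of `A`, `p` in its domain:
* `Ph F i p y0` : `v ↦ (y v - y0, e_i (F.i v) - e_i p)`, holomorphic on `WP F i = F.i ⁻¹' source i`
* `gram_Ph` : `DF DFᴴ = E + (Jp)ᵀ conj(Jp)`;  `hd_Ph` : nondegenerate
* `det_add_E` : `det (G + E) = det G + det (fb G)`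
* `vm_ratio`  : `(vm h).withDensity (h2 / h) = vm h2`
* `fam_mvi`   : `bv w(q) R^(d+1) ≤ c^-(d+1) ∫ w dμ_K + c^-d ∫ w dν_K` over `{|Ph|² < R}`
  if `K.g ≥ c` on `{|e_i x - e_i p|² < R}`
-/

set_option autoImplicit false
set_option linter.unusedSectionVars false

open Set Filter Topology Complex MeasureTheory Function
open scoped ContDiff Matrix ComplexConjugate ComplexOrder ENNReal

namespace Crest.Agent.R281.Mv_757

open Crest.Agent.R275 Crest.Agent.R275.Geo Crest.Agent.R275.Core144 Crest.Agent.R275.EDR890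
open Crest.Agent.R275.Pai323 Crest.Agent.R275.C1d194
open Crest.Agent.R273.Defs_333 Crest.Agent.R273.Hess_333 Crest.Agent.R273.HessB_333
open Crest.Agent.R273.HM_333 Crest.Agent.R273.Kah_333 Crest.Agent.R273.Vol_333
open Crest.Agent.R273.Vm_333 Crest.Agent.R273.FIb0_597 Crest.Agent.R273.Map_835
open Crest.Agent.R273.KahI_645 Crest.Agent.R273
open Crest.Agent.R281 Crest.Agent.R281.S6D_664 Crest.Agent.R281.Mass3_519

noncomputable section

/-! ### matrices -/

theorem det_mono {n : ℕ} {H X : Matrix (Fin n) (Fin n) ℂ} (hH : H.PosSemidef)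
    (hX : X.PosSemidef) : H.det.re ≤ (H + X).det.re := by
  by_cases h0 : H.det = 0
  · rw [h0]
    exact (Complex.le_def.1 (hH.add hX).det_nonneg).1
  · have h1 : H.PosDef := hH.posDef_iff_isUnit.2 ((Matrix.isUnit_iff_isUnit_det _).2
      (isUnit_iff_ne_zero.2 h0))
    exact (Complex.le_def.1 (YauMax_635.det_le_det_add h1 hX)).1

/-- the matrix `dy dȳ` -/
def EL (d : ℕ) : Matrix (Fin (d + 1)) (Fin (d + 1)) ℂ :=
  Matrix.single (Fin.natAdd d 0) (Fin.natAdd d 0) 1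

theorem natAdd_last (d : ℕ) : (Fin.natAdd d (0 : Fin 1)) = Fin.last d := rfl

theorem EL_apply (d : ℕ) (a b : Fin (d + 1)) :
    EL d a b = (if a = Fin.natAdd d 0 then 1 else 0) * (if b = Fin.natAdd d 0 then 1 else 0) := by
  unfold EL
  rw [Matrix.single_apply]
  by_cases ha : a = Fin.natAdd d 0
  · by_cases hb : b = Fin.natAdd d 0
    · simp [ha, hb]
    · simp [ha, hb, Ne.symm hb]
  · simp [ha, Ne.symm ha]

theorem EL_eq (d : ℕ) : EL d = Matrix.vecMulVec (Pi.single (Fin.natAdd d 0) 1)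
    (star (Pi.single (Fin.natAdd d 0) 1 : Fin (d + 1) → ℂ)) := by
  ext a b
  rw [EL_apply, Matrix.vecMulVec_apply, Pi.star_apply, Pi.single_apply, Pi.single_apply]
  by_cases hb : b = Fin.natAdd d 0
  · simp [hb]
  · simp [hb]

theorem EL_psd (d : ℕ) : (EL d).PosSemidef := by
  rw [EL_eq]
  exact Matrix.posSemidef_vecMulVec_self_star _

/-- `det (G + E) = det G + det (fb G)` -/
theorem det_add_E {d : ℕ} (G : Matrix (Fin (d + 1)) (Fin (d + 1)) ℂ) :
    (G + EL d).det = G.det + (fb (d := d) (m := 1) G).det := by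
  have h1 : G + EL d = G.updateRow (Fin.last d) (G (Fin.last d) + Pi.single (Fin.last d) 1) := by
    ext a b
    rw [Matrix.add_apply, EL_apply, natAdd_last]
    by_cases ha : a = Fin.last d
    · subst ha
      rw [Matrix.updateRow_self, Pi.add_apply, Pi.single_apply]
      simp
    · rw [Matrix.updateRow_ne ha]
      simp [ha]
  rw [h1, Matrix.det_updateRow_add, Matrix.updateRow_eq_self, ← Matrix.adjugate_apply,
    Matrix.adjugate_fin_succ_eq_det_submatrix]
  congr 1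
  have h2 : (-1 : ℂ) ^ ((Fin.last d : Fin (d + 1)) + (Fin.last d : Fin (d + 1)) : ℕ) = 1 := by
    rw [← two_mul, pow_mul]
    simp
  rw [h2, one_mul]
  congr 1
  ext a b
  simp [fb, Fin.succAbove_last]
  rfl

/-! ### change of the volume form -/

section ratio

variable {n : ℕ} {M : Type} [TopologicalSpace M] [T2Space M] [MeasurableSpace M] [BorelSpace M]
  {A : Atl n M} [Countable A.ι] (h h2 : HM (KB A)⁻¹)

theorem rd_w : RD A h2.w := fun _ _ _ hx => w_jac' h2 hx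

theorem vm_ratio : (vm h).withDensity (fun x => ENNReal.ofReal (dq h h2.w x)) = vm h2 := by
  have hsm : A.Sm (dq h h2.w) := sm_dq h (rd_w h2) h2.sm
  have hm : Measurable fun x => ENNReal.ofReal (dq h h2.w x) :=
    (sm_cont hsm).measurable.ennreal_ofReal
  apply ext_vm
  intro i
  rw [restrict_withDensity (A.e i).open_source.measurableSet, vm_restrict]
  ext E hE
  rw [withDensity_apply _ hE, ← lintegral_indicator hE, lintegral_chm h i (hm.indicator hE),
    chm_apply _ i hE]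
  have h0 : ∀ y, Vm_333.dn h i y * E.indicator (fun x => ENNReal.ofReal (dq h h2.w x)) (sg A i y) =
      ({y | sg A i y ∈ E} : Set (RI n → ℝ)).indicator
        (fun y => Vm_333.dn h i y * ENNReal.ofReal (dq h h2.w (sg A i y))) y := by
    intro y
    by_cases hy : sg A i y ∈ E
    · rw [indicator_of_mem hy, indicator_of_mem (show y ∈ {y | sg A i y ∈ E} from hy)]
    · rw [indicator_of_notMem hy, indicator_of_notMem (show y ∉ {y | sg A i y ∈ E} from hy),
        mul_zero]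
  simp only [h0]
  have h1 : {y | y ∈ Ui A i ∧ sg A i y ∈ E} = {y | sg A i y ∈ E} ∩ Ui A i := by
    ext y; exact and_comm
  have h3 : NullMeasurableSet {y | sg A i y ∈ E} (volume.restrict (Ui A i)) :=
    (aemeas_sg i).nullMeasurable hE
  rw [lintegral_indicator₀ h3, Measure.restrict_restrict₀ h3, ← h1]
  refine setLIntegral_congr_fun (meas_inter i hE) fun y hy => ?_
  have h4 := dq_mul h (rd_w h2) (sg_mem hy.1)
  unfold Vm_333.dn
  rw [← h4, ENNReal.ofReal_mul (h.pos i _ (sg_mem hy.1)).le]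

end ratio

/-! ### the map on a disc family -/

variable {N d : ℕ} {M : Type} [TopologicalSpace M] {A : Atl N M} {U : Set (Cn 1)}

/-- `v ↦ (y v - y0, e_i (F.i v) - e_i p)` -/
def Ph (F : Fam A d 1 U) (i : A.ι) (p : M) (y0 : Cn 1) (v : F.V) : Fin (N + 1) → ℂ :=
  Fin.cons (F.y v 0 - y0 0) fun b => A.e i (F.i v) b - A.e i p b

/-- its domain -/
def WP (F : Fam A d 1 U) (i : A.ι) : Set F.V := F.i ⁻¹' (A.e i).source

variable (F : Fam A d 1 U) (i : A.ι) (p : M) (y0 : Cn 1)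

theorem Ph_zero (v : F.V) : Ph F i p y0 v 0 = F.y v 0 - y0 0 := rfl
theorem Ph_succ (v : F.V) (b : Fin N) : Ph F i p y0 v b.succ = A.e i (F.i v) b - A.e i p b := rfl

theorem sF_Ph (v : F.V) : sF (Ph F i p y0) v =
    ‖F.y v 0 - y0 0‖ ^ 2 + ‖A.e i (F.i v) - A.e i p‖ ^ 2 := by
  unfold sF
  rw [Fin.sum_univ_succ, EuclideanSpace.norm_sq_eq]
  rfl

theorem isOpen_WP : IsOpen (WP F i) := (A.e i).open_source.preimage F.hol.cont

theorem tW_eq (k : F.B.ι) : tW F.B (WP F i) k = dm F.B A F.i k i := rfl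

theorem hfl_Ph : HFL F.B (WP F i) (Ph F i p y0) := by
  intro k c
  refine Fin.cases ?_ (fun b => ?_) c
  · have h1 : DifferentiableOn ℂ (fun z : Cn (d + 1) => z (Fin.natAdd d 0) - y0 0)
        (tW F.B (WP F i) k) :=
      ((EuclideanSpace.proj (Fin.natAdd d 0) : Cn (d + 1) →L[ℂ] ℂ).differentiable.sub_const
        _).differentiableOn
    refine h1.congr fun z hz => ?_
    show F.y ((F.B.e k).symm z) 0 - y0 0 = z (Fin.natAdd d 0) - y0 0
    rw [← F.last k _ ((F.B.e k).map_target hz.1) 0, (F.B.e k).right_inv hz.1]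
  · have h1 := F.hol.hol k i
    exact ((EuclideanSpace.proj b : Cn N →L[ℂ] ℂ).differentiable.comp_differentiableOn
      h1).sub_const _

variable {i} in
theorem DF_Ph_zero {k : F.B.ι} {v : F.V} (hv : v ∈ (F.B.e k).source) (a : Fin (d + 1)) :
    DF F.B (Ph F i p y0) k v a 0 = if a = Fin.natAdd d 0 then 1 else 0 := by
  have h0 : (fun z => Ph F i p y0 ((F.B.e k).symm z) 0) =ᶠ[𝓝 (F.B.e k v)]
      fun z => z (Fin.natAdd d 0) - y0 0 := by
    filter_upwards [(F.B.e k).open_target.mem_nhds ((F.B.e k).map_source hv)] with z hz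
    show F.y ((F.B.e k).symm z) 0 - y0 0 = z (Fin.natAdd d 0) - y0 0
    rw [← F.last k _ ((F.B.e k).map_target hz) 0, (F.B.e k).right_inv hz]
  have h1 : HasFDerivAt (fun z : Cn (d + 1) => z (Fin.natAdd d 0) - y0 0)
      (EuclideanSpace.proj (Fin.natAdd d 0) : Cn (d + 1) →L[ℂ] ℂ) (F.B.e k v) :=
    (EuclideanSpace.proj (Fin.natAdd d 0) : Cn (d + 1) →L[ℂ] ℂ).hasFDerivAt.sub_const _
  show fderiv ℂ (fun z => Ph F i p y0 ((F.B.e k).symm z) 0) (F.B.e k v)
    (EuclideanSpace.single a 1) = _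
  rw [h0.fderiv_eq, h1.fderiv]
  show (EuclideanSpace.single a (1 : ℂ) : Cn (d + 1)) (Fin.natAdd d 0) = _
  rw [PiLp.single_apply]
  by_cases ha : a = Fin.natAdd d 0
  · simp [ha]
  · simp [ha, Ne.symm ha]

variable {i} in
theorem DF_Ph_succ {k : F.B.ι} {v : F.V} (hv : v ∈ (F.B.e k).source) (hW : v ∈ WP F i)
    (a : Fin (d + 1)) (b : Fin N) :
    DF F.B (Ph F i p y0) k v a b.succ = Jp F.B A F.i k i v b a := by
  have h1 : HasFDerivAt (rd F.B A F.i k i) (fderiv ℂ (rd F.B A F.i k i) (F.B.e k v))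
      (F.B.e k v) := (F.hol.diffAt (mem_dm hv hW)).hasFDerivAt
  have h2 : HasFDerivAt (fun z => Ph F i p y0 ((F.B.e k).symm z) b.succ)
      ((EuclideanSpace.proj b : Cn N →L[ℂ] ℂ).comp
        (fderiv ℂ (rd F.B A F.i k i) (F.B.e k v))) (F.B.e k v) :=
    ((EuclideanSpace.proj b : Cn N →L[ℂ] ℂ).hasFDerivAt.comp _ h1).sub_const _
  show fderiv ℂ (fun z => Ph F i p y0 ((F.B.e k).symm z) b.succ) (F.B.e k v)
    (EuclideanSpace.single a 1) = _
  rw [h2.fderiv]
  rfl

variable {i} in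
/-- the Gram matrix -/
theorem gram_Ph {k : F.B.ι} {v : F.V} (hv : v ∈ (F.B.e k).source) (hW : v ∈ WP F i) :
    DF F.B (Ph F i p y0) k v * (DF F.B (Ph F i p y0) k v)ᴴ =
      (Jp F.B A F.i k i v)ᵀ * (Jp F.B A F.i k i v).map conj + EL d := by
  ext a b
  rw [Matrix.mul_apply, Fin.sum_univ_succ, Matrix.add_apply, Matrix.mul_apply, EL_apply, add_comm]
  congr 1
  · refine Finset.sum_congr rfl fun c _ => ?_
    rw [Matrix.conjTranspose_apply, DF_Ph_succ F p y0 hv hW, DF_Ph_succ F p y0 hv hW]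
    rfl
  · rw [Matrix.conjTranspose_apply, DF_Ph_zero F p y0 hv, DF_Ph_zero F p y0 hv]
    split_ifs <;> simp

variable {i} in
theorem hd_Ph {k : F.B.ι} {v : F.V} (hv : v ∈ (F.B.e k).source) (hW : v ∈ WP F i) :
    (DF F.B (Ph F i p y0) k v * (DF F.B (Ph F i p y0) k v)ᴴ).det ≠ 0 := by
  refine det_ne_of_inj fun x hx => ?_
  have h1 : fderiv ℂ (rd F.B A F.i k i) (F.B.e k v) (WithLp.toLp 2 x) = 0 := by
    ext b
    rw [mt_apply]
    refine Eq.trans ?_ (hx b.succ)
    refine Finset.sum_congr rfl fun a _ => ?_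
    rw [DF_Ph_succ F p y0 hv hW]
    rfl
  have h3 := F.imm k i v hv hW (h1.trans (map_zero _).symm)
  have h4 := congrArg WithLp.ofLp h3
  exact h4

/-! ### comparison of the volumes -/

variable [MeasurableSpace F.V] [BorelSpace F.V]

variable {i} in
/-- `K.g ≥ c` at `F.i v` gives `det (H + E) ≤ c^-(d+1) det K_V + c^-d det fb K_V` -/
theorem dFL_Ph_le (K : Kah A) {c : ℝ} (hc : 0 < c) {k : F.B.ι} {v : F.V}
    (hv : v ∈ (F.B.e k).source) (hW : v ∈ WP F i)
    (hK : (K.g i (F.i v) - (c : ℂ) • (1 : Matrix (Fin N) (Fin N) ℂ)).PosSemidef) :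
    dFL F.B (WP F i) (Ph F i p y0) k v ≤
      (c ^ (d + 1))⁻¹ * (volK (F.kah K)).w k v + (c ^ d)⁻¹ * (volF (adl F) (F.kah K)).w k v := by
  set J := Jp F.B A F.i k i v with hJ
  set G := (F.kah K).g k v with hG
  have hGe : G = Jᵀ * K.g i (F.i v) * J.map conj := pullI_g K F.hol F.imm hv hW
  have hcc : ((c : ℝ) : ℂ) ≠ 0 := by exact_mod_cast hc.ne'
  set H : Matrix (Fin (d + 1)) (Fin (d + 1)) ℂ := Jᵀ * J.map conj with hH
  have hJc : J.map conj = (Jᵀ)ᴴ := by
    ext a b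
    rfl
  have hHp : H.PosSemidef := by
    rw [hH, hJc]
    exact Matrix.posSemidef_self_mul_conjTranspose _
  have h1 : (((c : ℂ)⁻¹ • G) - H).PosSemidef := by
    have h2 : ((c : ℂ)⁻¹ • G) - H =
        (c : ℂ)⁻¹ • (Jᵀ * (K.g i (F.i v) - (c : ℂ) • (1 : Matrix (Fin N) (Fin N) ℂ)) *
          (Jᵀ)ᴴ) := by
      rw [Matrix.mul_sub, Matrix.sub_mul, smul_sub, hGe, hJc, Matrix.mul_smul, Matrix.mul_one,
        Matrix.smul_mul, smul_smul, inv_mul_cancel₀ hcc, one_smul, hH, hJc]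
    rw [h2]
    refine (hK.mul_mul_conjTranspose_same (Jᵀ)).smul ?_
    have : (0 : ℝ) ≤ c⁻¹ := by positivity
    rw [← Complex.ofReal_inv]
    exact_mod_cast this
  have h3 : dFL F.B (WP F i) (Ph F i p y0) k v = (H + EL d).det.re := by
    rw [dFL_on hW, gram_Ph F p y0 hv hW]
  have h4 := det_mono (hHp.add (EL_psd d)) h1
  have h5 : H + EL d + (((c : ℂ)⁻¹ • G) - H) = (c : ℂ)⁻¹ • G + EL d := by abel
  have h6 : (fb (d := d) (m := 1) ((c : ℂ)⁻¹ • G)).det = ((c : ℂ)⁻¹) ^ d * (fb G).det := by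
    have : fb (d := d) (m := 1) ((c : ℂ)⁻¹ • G) = (c : ℂ)⁻¹ • fb G := rfl
    rw [this, Matrix.det_smul, Fintype.card_fin]
  rw [h5, det_add_E ((c : ℂ)⁻¹ • G), h6, Matrix.det_smul, Fintype.card_fin, Complex.add_re] at h4
  rw [h3]
  refine h4.trans (le_of_eq ?_)
  have e1 : ((c : ℂ)⁻¹) ^ (d + 1) = (((c ^ (d + 1))⁻¹ : ℝ) : ℂ) := by push_cast; rw [inv_pow]
  have e2 : ((c : ℂ)⁻¹) ^ d = (((c ^ d)⁻¹ : ℝ) : ℂ) := by push_cast; rw [inv_pow]
  rw [e1, e2, Complex.re_ofReal_mul, Complex.re_ofReal_mul]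
  congr 2

end

end Crest.Agent.R281.Mv_757
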