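import Crest.Agent.R281.Hdx1_825
import Crest.Agent.R273.GreenM_5

/-!
# Row 281, MOV (helper825, second owner after 625), part 1: pointwise algebra

`bB G S S' = Re (tr(G⁻¹S) tr(G⁻¹S') - tr(G⁻¹SG⁻¹S'))`

* `bB_add`, `bB_smul`, `bB_comm`
* `bB_nonneg`  : `S, S' ≥ 0`
* `bB_self`    : `bB G S G = (d - 1) tr(G⁻¹ S)`
* `bB_ge`      : `- c (d-1) tr(G⁻¹ R) ≤ bB G R S` for `R ≥ 0`, `c G + S ≥ 0`
* `key_ineq`   : the pointwise inequality of MOV
-/

set_option autoImplicit false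
set_option linter.unusedSectionVars false

open Set Filter Topology Complex
open scoped ContDiff Matrix ComplexConjugate ComplexOrder

namespace Crest.Agent.R281.MvA_825

open Crest.Agent.R281.Hdx_825 Crest.Agent.R273.GreenM_5

noncomputable section

variable {d : ℕ}

/-- the polarised second symmetric function -/
def bB (G S S' : Matrix (Fin d) (Fin d) ℂ) : ℝ :=
  ((G⁻¹ * S).trace * (G⁻¹ * S').trace - (G⁻¹ * S * (G⁻¹ * S')).trace).re

theorem bB_comm (G S S' : Matrix (Fin d) (Fin d) ℂ) : bB G S S' = bB G S' S := by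
  unfold bB
  rw [mul_comm (G⁻¹ * S).trace, Matrix.trace_mul_comm (G⁻¹ * S)]

theorem bB_add (G S S' T : Matrix (Fin d) (Fin d) ℂ) :
    bB G (S + S') T = bB G S T + bB G S' T := by
  unfold bB
  rw [Matrix.mul_add, Matrix.add_mul, Matrix.trace_add, Matrix.trace_add, add_mul,
    ← Complex.add_re]
  congr 1
  ring

theorem bB_add' (G S T T' : Matrix (Fin d) (Fin d) ℂ) :
    bB G S (T + T') = bB G S T + bB G S T' := by
  rw [bB_comm, bB_add, bB_comm G T, bB_comm G T']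

theorem bB_smul (c : ℝ) (G S T : Matrix (Fin d) (Fin d) ℂ) :
    bB G ((c : ℂ) • S) T = c * bB G S T := by
  unfold bB
  rw [Matrix.mul_smul, Matrix.smul_mul, Matrix.trace_smul, Matrix.trace_smul,
    ← Complex.re_ofReal_mul, smul_eq_mul, smul_eq_mul]
  congr 1
  ring

theorem bB_smul' (c : ℝ) (G S T : Matrix (Fin d) (Fin d) ℂ) :
    bB G S ((c : ℂ) • T) = c * bB G S T := by
  rw [bB_comm, bB_smul, bB_comm]

theorem bB_neg (G S T : Matrix (Fin d) (Fin d) ℂ) : bB G (-S) T = - bB G S T := by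
  have h := bB_smul (-1) G S T
  have e : (((-1 : ℝ) : ℂ) • S) = -S := by simp
  rw [e] at h
  rw [h]
  ring

theorem bB_neg' (G S T : Matrix (Fin d) (Fin d) ℂ) : bB G S (-T) = - bB G S T := by
  rw [bB_comm, bB_neg, bB_comm]

/-- positivity -/
theorem bB_nonneg {G S T : Matrix (Fin d) (Fin d) ℂ} (hG : G.PosDef) (hS : S.PosSemidef)
    (hT : T.PosSemidef) : 0 ≤ bB G S T := by
  obtain ⟨B, e, hB, hGB, hTB⟩ := simdH hG hT.1
  have hB1 : B⁻¹ * B = 1 := Matrix.nonsing_inv_mul _ hB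
  have hB2 : B * B⁻¹ = 1 := Matrix.mul_nonsing_inv _ hB
  have hBh1 : Bᴴ * (B⁻¹)ᴴ = 1 := by
    rw [← Matrix.conjTranspose_mul, hB1, Matrix.conjTranspose_one]
  have hBh2 : (B⁻¹)ᴴ * Bᴴ = 1 := by
    rw [← Matrix.conjTranspose_mul, hB2, Matrix.conjTranspose_one]
  set P : Matrix (Fin d) (Fin d) ℂ := (B⁻¹)ᴴ * S * B⁻¹ with hP
  have hPp : P.PosSemidef := hS.conjTranspose_mul_mul_same B⁻¹
  have hDp : (Matrix.diagonal (fun i => (e i : ℂ))).PosSemidef := by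
    have h1 : (B⁻¹)ᴴ * T * B⁻¹ = Matrix.diagonal (fun i => (e i : ℂ)) := by
      rw [hTB]
      calc (B⁻¹)ᴴ * (Bᴴ * Matrix.diagonal (fun i => (e i : ℂ)) * B) * B⁻¹
          = ((B⁻¹)ᴴ * Bᴴ) * Matrix.diagonal (fun i => (e i : ℂ)) * (B * B⁻¹) := by
            simp only [Matrix.mul_assoc]
        _ = _ := by rw [hBh2, hB2, Matrix.one_mul, Matrix.mul_one]
    rw [← h1]
    exact hT.conjTranspose_mul_mul_same B⁻¹
  have he : ∀ i, 0 ≤ e i := by
    intro i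
    have h1 := hDp.diag_nonneg (i := i)
    rw [Matrix.diagonal_apply_eq] at h1
    exact_mod_cast h1
  have hGi : G⁻¹ = B⁻¹ * (B⁻¹)ᴴ := by
    refine Matrix.inv_eq_right_inv ?_
    rw [hGB]
    calc Bᴴ * B * (B⁻¹ * (B⁻¹)ᴴ) = Bᴴ * (B * B⁻¹) * (B⁻¹)ᴴ := by simp only [Matrix.mul_assoc]
      _ = 1 := by rw [hB2, Matrix.mul_one, hBh1]
  have h1 : G⁻¹ * S = B⁻¹ * P * B := by
    rw [hGi, hP]
    calc B⁻¹ * (B⁻¹)ᴴ * S = B⁻¹ * (B⁻¹)ᴴ * S * (B⁻¹ * B) := by rw [hB1, Matrix.mul_one]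
      _ = _ := by simp only [Matrix.mul_assoc]
  have h2 : G⁻¹ * T = B⁻¹ * Matrix.diagonal (fun i => (e i : ℂ)) * B := by
    rw [hGi, hTB]
    calc B⁻¹ * (B⁻¹)ᴴ * (Bᴴ * Matrix.diagonal (fun i => (e i : ℂ)) * B)
        = B⁻¹ * ((B⁻¹)ᴴ * Bᴴ) * Matrix.diagonal (fun i => (e i : ℂ)) * B := by
          simp only [Matrix.mul_assoc]
      _ = _ := by rw [hBh2, Matrix.mul_one]
  have h3 : (G⁻¹ * S).trace = P.trace := by
    rw [h1, Matrix.trace_mul_comm, ← Matrix.mul_assoc, hB2, Matrix.one_mul]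
  have h4 : (G⁻¹ * T).trace = ∑ i, (e i : ℂ) := by
    rw [h2, Matrix.trace_mul_comm, ← Matrix.mul_assoc, hB2, Matrix.one_mul,
      Matrix.trace_diagonal]
  have h5 : (G⁻¹ * S * (G⁻¹ * T)).trace = ∑ i, P i i * (e i : ℂ) := by
    rw [h1, h2]
    have h6 : B⁻¹ * P * B * (B⁻¹ * Matrix.diagonal (fun i => (e i : ℂ)) * B) =
        B⁻¹ * (P * Matrix.diagonal (fun i => (e i : ℂ))) * B := by
      calc _ = B⁻¹ * P * (B * B⁻¹) * Matrix.diagonal (fun i => (e i : ℂ)) * B := by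
            simp only [Matrix.mul_assoc]
        _ = _ := by
            rw [hB2, Matrix.mul_one]
            simp only [Matrix.mul_assoc]
    rw [h6, Matrix.trace_mul_comm, ← Matrix.mul_assoc, hB2, Matrix.one_mul, Matrix.trace]
    refine Finset.sum_congr rfl fun i _ => ?_
    rw [Matrix.diag_apply, Matrix.mul_diagonal]
  have h7 : ∀ i, (0 : ℝ) ≤ (P i i).re := fun i => (Complex.le_def.1 (hPp.diag_nonneg (i := i))).1
  have h8 : bB G S T = ∑ i, (P.trace.re - (P i i).re) * e i := by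
    unfold bB
    rw [h3, h4, h5, Complex.sub_re, Finset.mul_sum, Complex.re_sum, Complex.re_sum,
      ← Finset.sum_sub_distrib]
    refine Finset.sum_congr rfl fun i _ => ?_
    rw [Complex.re_mul_ofReal, Complex.re_mul_ofReal]
    ring
  rw [h8]
  refine Finset.sum_nonneg fun i _ => mul_nonneg ?_ (he i)
  rw [sub_nonneg, Matrix.trace, Complex.re_sum]
  exact Finset.single_le_sum (f := fun i => (P i i).re) (fun j _ => h7 j) (Finset.mem_univ i)

theorem bB_self {G S : Matrix (Fin d) (Fin d) ℂ} (hG : G.PosDef) :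
    bB G S G = (d - 1) * (G⁻¹ * S).trace.re := by
  have h1 : G⁻¹ * G = 1 := Matrix.nonsing_inv_mul _ ((Matrix.isUnit_iff_isUnit_det _).1 hG.isUnit)
  unfold bB
  rw [h1, Matrix.mul_one, Matrix.trace_one, Fintype.card_fin, Complex.sub_re]
  have h2 : ((G⁻¹ * S).trace * (d : ℂ)).re = (G⁻¹ * S).trace.re * d := by
    rw [← Complex.ofReal_natCast, Complex.re_mul_ofReal]
  rw [h2]
  ring

/-- lower bound -/
theorem bB_ge {G R S : Matrix (Fin d) (Fin d) ℂ} (hG : G.PosDef) (hR : R.PosSemidef) {c : ℝ}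
    (hS : ((c : ℂ) • G + S).PosSemidef) :
    -(c * ((d - 1) * (G⁻¹ * R).trace.re)) ≤ bB G R S := by
  have h1 := bB_nonneg hG hR hS
  rw [bB_add', bB_smul', bB_self hG] at h1
  linarith

/-- **the pointwise inequality**: `Θ` the curvature, `H = ∂∂̄ u`, `T = Θ + H ≥ 0`, `R = ∂u ∧ ∂̄u`,
`χ H + δ R`, `H + 0 R` the two Hessians -/
theorem key_ineq {G Θ H R : Matrix (Fin d) (Fin d) ℂ} (hG : G.PosDef) (hT : (Θ + H).PosSemidef)
    (hR : R.PosSemidef) {c χ δ : ℝ} (hχ : 0 ≤ χ) (hδ : 0 ≤ δ)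
    (hc : ((c : ℂ) • G + Θ).PosSemidef) :
    -(δ * (c * ((d - 1) * (G⁻¹ * R).trace.re))) ≤
      χ * bB G Θ Θ + 2 * bB G Θ ((χ : ℂ) • H + (δ : ℂ) • R) +
        bB G ((χ : ℂ) • H + (δ : ℂ) • R) H := by
  have h1 : χ * bB G Θ Θ + 2 * bB G Θ ((χ : ℂ) • H + (δ : ℂ) • R) +
      bB G ((χ : ℂ) • H + (δ : ℂ) • R) H =
      χ * bB G (Θ + H) (Θ + H) + δ * bB G R (Θ + H) + δ * bB G R Θ := by
    rw [bB_add', bB_smul', bB_smul', bB_add, bB_smul, bB_smul, bB_add, bB_add', bB_add', bB_add',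
      bB_comm G Θ R, bB_comm G H Θ]
    ring
  rw [h1]
  have h2 := mul_nonneg hχ (bB_nonneg hG hT hT)
  have h3 := mul_nonneg hδ (bB_nonneg hG hR hT)
  have h4 := mul_le_mul_of_nonneg_left (bB_ge hG hR hc) hδ
  linarith

end

end Crest.Agent.R281.MvA_825
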