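import Crest.Agent.R281.MvA1_825
import Crest.Agent.R281.Hdx2_825

/-!
# Row 281, MOV (helper825), part 2: the integrals

* `hK u`          : `∂∂̄ u` as a closed (1,1)-form (`K11 A`), exact
* `bf K y y'`     : the continuous function `bB K y y'` on `M`; `bf_eq` (in every chart)
* `int_bf_hK`     : `∫ bf K y (∂∂̄ u) = 0`
* `IM_two`        : `d (d-1) IM(mixv 2 K y) = κ cb ∫ bf K y y`
* `IM_nonneg`     : `0 ≤ ∫ bf K y y` ==> `0 ≤ IM(mixv 2 K y)`
-/

set_option autoImplicit false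
set_option linter.unusedSectionVars false
set_option maxSynthPendingDepth 3

open Set Filter Topology Complex MeasureTheory
open scoped ContDiff Matrix ComplexConjugate ComplexOrder

namespace Crest.Agent.R281.MvA_825

open Crest.Agent.R275.Geo Crest.Agent.R275.Core144 Crest.Agent.R275.EDR890
open Crest.Agent.R273.Kah_333 Crest.Agent.R273.Hess_333 Crest.Agent.R273.Vol_333
open Crest.Agent.R273.Vm_333 Crest.Agent.R273.Green_5 Crest.Agent.R273.GreenM_5
open Crest.Agent.R281.HkR_835 Crest.Agent.R281.Ti_846 Crest.Agent.R281.FujP_513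
open Crest.Agent.R281.Fuj3_207 Crest.Agent.R281.Hdx_825
open Crest.Agent.R273.VolInv_5 Crest.Agent.R273.FIlin_332

noncomputable section

variable {d : ℕ} {M : Type} [TopologicalSpace M] {A : Atl d M}

/-- `∂∂̄ u` as a closed (1,1)-form -/
def hK (u : M → ℝ) (hu : A.Sm u) : K11 A where
  g := hsf A u
  sm := (hsf_cf hu).sm
  herm _ _ hx := hsf_herm hu hx
  tr := (hsf_cf hu).tr
  closed := (hsf_cf hu).closed

theorem hK_ex (u : M → ℝ) (hu : A.Sm u) : Ex (hK u hu).f2 :=
  ex_hsf u hu _ fun _ _ hz _ _ => K11.f2_w _ hz _ _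

/-- `y, y', K, …, K` -/
def XX (K : Kah A) (y y' : K11 A) : Fin d → K11 A := fun j =>
  if (j : ℕ) = 0 then y else if (j : ℕ) = 1 then y' else ofKah K

/-- the function `bB K y y'` -/
def bf (K : Kah A) (y y' : K11 A) (x : M) : ℝ :=
  (TopF.of (bc d) fun k => (XX K y y' k).f2).fn (volK K) x / (2 ^ d * (d - 2).factorial)

theorem bf_cont (K : Kah A) (y y' : K11 A) : Continuous (bf K y y') :=
  (TopF.fn_cont _ _).div_const _

theorem bf_eq (hd : 2 ≤ d) (K : Kah A) (y y' : K11 A) {i : A.ι} {x : M}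
    (hx : x ∈ (A.e i).source) : bf K y y' x = bB (K.g i x) (y.g i x) (y'.g i x) := by
  have h1 : TP (bc d) (fun k => (XX K y y' k).f2.w i (A.e i x)) =
      (volK K).w i x * (TopF.of (bc d) fun k => (XX K y y' k).f2).fn (volK K) x :=
    (TopF.of (bc d) fun k => (XX K y y' k).f2).fn_eq (volK K) hx
  have h2 := TP_k11 (XX K y y') hx
  set k0 : Fin d := ⟨0, by omega⟩ with hk0
  set k1 : Fin d := ⟨1, by omega⟩ with hk1
  have hkl : k0 ≠ k1 := by
    intro h
    have := congrArg Fin.val h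
    simp [hk0, hk1] at this
  have h0 : (K.g i x).det ≠ 0 := (K.pos i x hx).det_pos.ne'
  have hX : ∀ j, j ≠ k0 → j ≠ k1 → (XX K y y' j).g i x = K.g i x := by
    intro j h3 h4
    have h5 : (j : ℕ) ≠ 0 := fun h => h3 (Fin.ext h)
    have h6 : (j : ℕ) ≠ 1 := fun h => h4 (Fin.ext h)
    unfold XX
    rw [if_neg h5, if_neg h6]
    rfl
  have h3 := MD_two (G := fun k => (XX K y y' k).g i x) hkl (isUnit_iff_ne_zero.2 h0) hX
  have e0 : XX K y y' k0 = y := by
    unfold XX
    rw [if_pos rfl]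
  have e1 : XX K y y' k1 = y' := by
    unfold XX
    rw [if_neg (by simp [hk1]), if_pos rfl]
  simp only [e0, e1] at h3
  rw [h3, h1] at h2
  set fnx := (TopF.of (bc d) fun k => (XX K y y' k).f2).fn (volK K) x with hfn
  set z : ℂ := ((K.g i x)⁻¹ * y.g i x).trace * ((K.g i x)⁻¹ * y'.g i x).trace -
    ((K.g i x)⁻¹ * y.g i x * ((K.g i x)⁻¹ * y'.g i x)).trace with hz
  have hw := volK_w K i hx
  push_cast at h2
  rw [hw] at h2
  have hf : ((d - 2).factorial : ℂ) ≠ 0 := by exact_mod_cast (Nat.factorial_pos _).ne'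
  have h4 : (fnx : ℂ) = (2 ^ d * (d - 2).factorial : ℂ) * z := by
    have h5 : (K.g i x).det * (fnx : ℂ) = (K.g i x).det * ((2 ^ d * (d - 2).factorial : ℂ) * z) := by
      rw [h2]
      ring
    exact mul_left_cancel₀ h0 h5
  have h6 : ((fnx / (2 ^ d * (d - 2).factorial) : ℝ) : ℂ) = z := by
    push_cast
    rw [h4]
    field_simp
  show fnx / (2 ^ d * (d - 2).factorial) = z.re
  rw [← h6, Complex.ofReal_re]

/-! ### integrals -/

section int

variable [CompactSpace M] [MeasurableSpace M] [BorelSpace M] [Countable A.ι]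

theorem int_bf (K : Kah A) (RP : RPart (ofAtl A)) (y y' : K11 A) :
    II (lc d) (bc d) RP (fun k => (XX K y y' k).f2) =
      2 ^ d * (d - 2).factorial * ∫ x, bf K y y' x ∂(vm (volK K)) := by
  unfold II
  rw [intT_eq (volK K), ← integral_const_mul]
  congr 1
  funext x
  unfold bf
  field_simp

/-- **Stokes** -/
theorem int_bf_hK (hd : 2 ≤ d) (K : Kah A) (RP : RPart (ofAtl A)) (y : K11 A) (u : M → ℝ)
    (hu : A.Sm u) : ∫ x, bf K y (hK u hu) x ∂(vm (volK K)) = 0 := by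
  have h1 := int_bf K RP y (hK u hu)
  have h2 : II (lc d) (bc d) RP (fun k => (XX K y (hK u hu) k).f2) = 0 := by
    refine II_ex (lc d) (ori_ofAtl A) (bc d) RP _ ⟨1, by omega⟩ ?_
    have e1 : XX K y (hK u hu) ⟨1, by omega⟩ = hK u hu := by
      unfold XX
      rw [if_neg (by simp), if_pos rfl]
    rw [e1]
    exact hK_ex u hu
  rw [h2] at h1
  have h3 : (0 : ℝ) < 2 ^ d * (d - 2).factorial := by positivity
  exact (mul_eq_zero.1 h1.symm).resolve_left h3.ne'

theorem integrable_bf (K : Kah A) (y y' : K11 A) : Integrable (bf K y y') (vm (volK K)) := by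
  have := isFinite_vm (volK K)
  exact (bf_cont K y y').integrable_of_hasCompactSupport (HasCompactSupport.of_compactSpace _)

end int

/-- the value for a diagonalised pair -/
theorem bB_diag {G S B : Matrix (Fin d) (Fin d) ℂ} {e : Fin d → ℝ} (hB : IsUnit B.det)
    (hG : G = Bᴴ * B) (hS : S = Bᴴ * Matrix.diagonal (fun i => (e i : ℂ)) * B) :
    bB G S S = (∑ i, e i) ^ 2 - ∑ i, e i ^ 2 := by
  have hB1 : B⁻¹ * B = 1 := Matrix.nonsing_inv_mul _ hB
  have hB2 : B * B⁻¹ = 1 := Matrix.mul_nonsing_inv _ hB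
  have hBh1 : Bᴴ * (B⁻¹)ᴴ = 1 := by
    rw [← Matrix.conjTranspose_mul, hB1, Matrix.conjTranspose_one]
  have hBh2 : (B⁻¹)ᴴ * Bᴴ = 1 := by
    rw [← Matrix.conjTranspose_mul, hB2, Matrix.conjTranspose_one]
  have hGi : G⁻¹ = B⁻¹ * (B⁻¹)ᴴ := by
    refine Matrix.inv_eq_right_inv ?_
    rw [hG]
    calc Bᴴ * B * (B⁻¹ * (B⁻¹)ᴴ) = Bᴴ * (B * B⁻¹) * (B⁻¹)ᴴ := by simp only [Matrix.mul_assoc]
      _ = 1 := by rw [hB2, Matrix.mul_one, hBh1]
  set D : Matrix (Fin d) (Fin d) ℂ := Matrix.diagonal (fun i => (e i : ℂ)) with hD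
  have h2 : G⁻¹ * S = B⁻¹ * D * B := by
    rw [hGi, hS]
    calc B⁻¹ * (B⁻¹)ᴴ * (Bᴴ * D * B) = B⁻¹ * ((B⁻¹)ᴴ * Bᴴ) * D * B := by
          simp only [Matrix.mul_assoc]
      _ = _ := by rw [hBh2, Matrix.mul_one]
  have h4 : (G⁻¹ * S).trace = ((∑ i, e i : ℝ) : ℂ) := by
    rw [h2, Matrix.trace_mul_comm, ← Matrix.mul_assoc, hB2, Matrix.one_mul, hD,
      Matrix.trace_diagonal]
    push_cast
    rfl
  have h5 : (G⁻¹ * S * (G⁻¹ * S)).trace = ((∑ i, e i ^ 2 : ℝ) : ℂ) := by
    rw [h2]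
    have h6 : B⁻¹ * D * B * (B⁻¹ * D * B) = B⁻¹ * (D * D) * B := by
      calc _ = B⁻¹ * D * (B * B⁻¹) * D * B := by simp only [Matrix.mul_assoc]
        _ = _ := by
            rw [hB2, Matrix.mul_one]
            simp only [Matrix.mul_assoc]
    rw [h6, Matrix.trace_mul_comm, ← Matrix.mul_assoc, hB2, Matrix.one_mul, hD,
      Matrix.diagonal_mul_diagonal, Matrix.trace_diagonal]
    push_cast
    exact Finset.sum_congr rfl fun i _ => by ring
  unfold bB
  rw [h4, h5, ← Complex.ofReal_mul, ← Complex.ofReal_sub, Complex.ofReal_re]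
  ring

section main

variable [T2Space M] [CompactSpace M] [ConnectedSpace M] [Finite A.ι] (K : Kah A)
  [MeasurableSpace M] [BorelSpace M]
  (μ : Measure (Cn d)) [μ.IsAddHaarMeasure] (b : Module.Basis (Fin d × Fin 2) ℝ (Cn d))
  (RP : RPart (ofAtl A))

/-- the density of `mixv 2` is a multiple of `bf` -/
theorem fn_bf (hd : 2 ≤ d) (y : K11 A) (x : M) :
    (d * (d - 1) : ℝ) * (TopF.of b (mixv d 2 (ofKah K).f2 y.f2)).fn (volK K) x =
      cb b * bf K y y x := by
  obtain ⟨i, hx⟩ := A.cover x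
  obtain ⟨B, e, hB, hG, hS⟩ := simdH (K.pos i x hx) (y.herm i x hx)
  obtain ⟨c0, c1, c2⟩ := coeff_dp hG hS
  have hn := nd_pos hB
  have f2 := fn_mix K b hd y hx hG
  have hch : ((d.choose 2 : ℕ) : ℝ) * 2 = d * (d - 1) := by
    have h1 := Nat.choose_two_right d
    have h2 : d.choose 2 * 2 = d * (d - 1) := by
      rw [h1]
      exact Nat.div_mul_cancel (Nat.even_mul_pred_self d).two_dvd
    have h3 : ((d - 1 : ℕ) : ℝ) = d - 1 := by
      rw [Nat.cast_sub (le_trans one_le_two hd), Nat.cast_one]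
    rw [← h3]
    exact_mod_cast h2
  rw [bf_eq hd K y y hx, bB_diag hB hG hS]
  have h1 : nd B * ((d * (d - 1) : ℝ) *
      (TopF.of b (mixv d 2 (ofKah K).f2 y.f2)).fn (volK K) x) =
      nd B * (cb b * ((∑ k, e k) ^ 2 - ∑ k, e k ^ 2)) := by
    rw [← hch]
    linear_combination 2 * f2 + cb b * c2
  exact mul_left_cancel₀ hn.ne' h1

theorem IM_two (hd : 2 ≤ d) (y : K11 A) : ∃ κ V : ℝ, 0 < κ ∧ 0 < V ∧
    IM μ b RP (fun _ => (ofKah K).f2) = κ * (cb b * V) ∧
    (d * (d - 1) : ℝ) * IM μ b RP (mixv d 2 (ofKah K).f2 y.f2) =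
      κ * (cb b * ∫ x, bf K y y x ∂(vm (volK K))) := by
  have : Countable A.ι := inferInstance
  have := isFinite_vm (volK K)
  have hop : (vm (volK K)).IsOpenPosMeasure := isOpenPos_vm (volK K)
  obtain ⟨κ, hκ, hI⟩ := exists_mu (A := A) μ
  have hV0 : 0 < (vm (volK K)).real univ := by
    have h1 : vm (volK K) univ ≠ 0 := (isOpen_univ.measure_pos _ univ_nonempty).ne'
    exact ENNReal.toReal_pos h1 (measure_ne_top _ _)
  have hT : ∀ w : Fin d → F2 (ofAtl A), IM μ b RP w =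
      κ * ∫ x, (TopF.of b w).fn (volK K) x ∂(vm (volK K)) := by
    intro w
    rw [IM_apply]
    unfold II
    rw [hI, intT_eq (volK K)]
  refine ⟨κ, (vm (volK K)).real univ, hκ, hV0, ?_, ?_⟩
  · rw [hT]
    congr 1
    have h1 : (TopF.of b (fun _ : Fin d => (ofKah K).f2)).fn (volK K) = fun _ => cb b := by
      funext x
      obtain ⟨i, hx⟩ := A.cover x
      obtain ⟨B, e, hB, hG, hS⟩ := simdH (K.pos i x hx) (y.herm i x hx)
      obtain ⟨c0, c1, c2⟩ := coeff_dp hG hS
      have hn := nd_pos hB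
      have f0 := fn_mix K b (Nat.zero_le d) y hx hG
      rw [c0, Nat.choose_zero_right] at f0
      have e0 : mixv d 0 (ofKah K).f2 y.f2 = fun _ : Fin d => (ofKah K).f2 := by
        funext j
        simp [mixv]
      rw [e0] at f0
      have h1 : nd B * (TopF.of b (fun _ : Fin d => (ofKah K).f2)).fn (volK K) x =
          nd B * cb b := by
        push_cast at f0
        linarith
      exact mul_left_cancel₀ hn.ne' h1
    rw [h1, integral_const, smul_eq_mul]
    ring
  · rw [hT, mul_left_comm]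
    congr 1
    rw [← integral_const_mul, ← integral_const_mul]
    congr 1
    funext x
    exact fn_bf K b hd y x

/-- from the density to the intersection form -/
theorem IM_nonneg (hd : 2 ≤ d) (hpos : 0 < IM μ b RP (fun _ => (ofKah K).f2)) (y : K11 A)
    (h : 0 ≤ ∫ x, bf K y y x ∂(vm (volK K))) :
    0 ≤ IM μ b RP (mixv d 2 (ofKah K).f2 y.f2) := by
  obtain ⟨κ, V, hκ, hV, h1, h2⟩ := IM_two K μ b RP hd y
  rw [h1] at hpos
  have hcb : 0 < cb b := by
    have := (pos_iff_pos_of_mul_pos hpos).1 hκ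
    exact (pos_iff_pos_of_mul_pos this).2 hV
  have hdd : (0 : ℝ) < d * (d - 1) := by
    have : (2 : ℝ) ≤ d := by exact_mod_cast hd
    have h1 : (0 : ℝ) < d - 1 := by linarith
    positivity
  have h3 : 0 ≤ (d * (d - 1) : ℝ) * IM μ b RP (mixv d 2 (ofKah K).f2 y.f2) := by
    rw [h2]
    positivity
  exact nonneg_of_mul_nonneg_right h3 hdd

end main

end

end Crest.Agent.R281.MvA_825
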