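import Crest.Agent.R281.MvA2_825
import Crest.Agent.R281.Deg1_751
import Crest.Agent.R281.Nef2_252
import Crest.Agent.R273.LogA_5

/-!
# Row 281, MOV (helper825), part 3: cut-offs of `log |t|²`

* `Cut χ`, `Ph χ j` : the primitive of `χ(s/j)` vanishing for `s ≤ -2j`
* `ct Q φ x = φ(log Q x)` (0 where `Q = 0`): `ct_sm`, `hsf_ct`
* `psd_T`   : `Θ + ∂∂̄ log |t|²_h ≥ 0` where `t ≠ 0`
* `exists_c`: `c K + Θ ≥ 0`
-/

set_option autoImplicit false
set_option linter.unusedSectionVars false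
set_option maxSynthPendingDepth 3

open Set Filter Topology Complex MeasureTheory
open scoped ContDiff Matrix ComplexConjugate ComplexOrder

namespace Crest.Agent.R281.MvA_825

open Crest.Agent.R275.Geo Crest.Agent.R275.Core144 Crest.Agent.R275.EDR890
open Crest.Agent.R273.Kah_333 Crest.Agent.R273.Hess_333 Crest.Agent.R273.Vol_333
open Crest.Agent.R273.Defs_333 Crest.Agent.R273.HM_333 Crest.Agent.R273.HessB_333
open Crest.Agent.R273.Vm_333 Crest.Agent.R273.Green_5 Crest.Agent.R273.GreenM_5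
open Crest.Agent.R281.HkR_835 Crest.Agent.R281.Ti_846
open Crest.Agent.R281.Hdx_825 Crest.Agent.R281.Deg_751 Crest.Agent.R281.Nef_252
open Crest.Agent.R273.FIa0_597 (gr star_gr hess_comp_real)
open Crest.Agent.R273.LogA_5 (wq wq_nonneg contDiffAt_wq hess_log_wq lev_log_wq_nonneg)

noncomputable section

/-! ### cut-off functions -/

/-- the cut-off profile -/
structure Cut (χ : ℝ → ℝ) : Prop where
  sm : ContDiff ℝ ∞ χ
  nn : ∀ s, 0 ≤ χ s
  le : ∀ s, χ s ≤ 1
  mono : ∀ s, 0 ≤ deriv χ s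
  zero : ∀ s, s ≤ -2 → χ s = 0
  one : ∀ s, -1 ≤ s → χ s = 1

variable {χ : ℝ → ℝ}

/-- the primitive of `χ(s/j)` -/
def Ph (χ : ℝ → ℝ) (j : ℝ) (s : ℝ) : ℝ := ∫ r in (-(2 * j))..s, χ (r / j)

theorem Cut.hasDeriv (h : Cut χ) (s : ℝ) : HasDerivAt χ (deriv χ s) s :=
  ((h.sm.differentiable (by simp)) s).hasDerivAt

theorem Cut.deriv_zero (h : Cut χ) {s : ℝ} (hs : s ≤ -2) : deriv χ s = 0 := by
  have h1 : IsLocalMin χ s := by
    refine Filter.Eventually.of_forall fun r => ?_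
    rw [h.zero s hs]
    exact h.nn r
  exact h1.deriv_eq_zero

theorem Cut.deriv_one (h : Cut χ) {s : ℝ} (hs : -1 ≤ s) : deriv χ s = 0 := by
  have h1 : IsLocalMax χ s := by
    refine Filter.Eventually.of_forall fun r => ?_
    rw [h.one s hs]
    exact h.le r
  exact h1.deriv_eq_zero

theorem Ph_deriv (h : Cut χ) (j s : ℝ) : HasDerivAt (Ph χ j) (χ (s / j)) s := by
  have hc : Continuous fun r => χ (r / j) := h.sm.continuous.comp (continuous_id.div_const j)
  exact intervalIntegral.integral_hasDerivAt_right (hc.intervalIntegrable _ _)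
    (hc.stronglyMeasurableAtFilter _ _) hc.continuousAt

theorem Ph_deriv2 (h : Cut χ) (j s : ℝ) :
    HasDerivAt (fun s => χ (s / j)) (deriv χ (s / j) / j) s := by
  have h1 := (h.hasDeriv (s / j)).comp s ((hasDerivAt_id s).div_const j)
  have e : deriv χ (s / j) / j = deriv χ (s / j) * (1 / j) := by ring
  rw [e]
  exact h1

theorem Ph_zero (h : Cut χ) {j : ℝ} (hj : 0 < j) {s : ℝ} (hs : s ≤ -(2 * j)) : Ph χ j s = 0 := by
  unfold Ph
  have h1 : ∀ r ∈ Set.uIcc (-(2 * j)) s, χ (r / j) = 0 := by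
    intro r hr
    rw [Set.uIcc_of_ge hs] at hr
    refine h.zero _ ?_
    rw [div_le_iff₀ hj]
    linarith [hr.2]
  rw [intervalIntegral.integral_congr (g := fun _ => 0) h1]
  simp

theorem Ph_contDiff (h : Cut χ) (j : ℝ) : ContDiff ℝ ∞ (Ph χ j) := by
  rw [contDiff_infty_iff_deriv]
  refine ⟨fun s => (Ph_deriv h j s).differentiableAt, ?_⟩
  have : deriv (Ph χ j) = fun s => χ (s / j) := funext fun s => (Ph_deriv h j s).deriv
  rw [this]
  exact h.sm.comp (contDiff_id.div_const j)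

variable {d : ℕ} {M : Type} [TopologicalSpace M] {A : Atl d M}

/-! ### `φ (log Q)` -/

/-- `φ (log Q)`, zero where `Q ≤ 0` -/
def ct (Q : M → ℝ) (φ : ℝ → ℝ) (x : M) : ℝ :=
  open Classical in if 0 < Q x then φ (Real.log (Q x)) else 0

theorem ct_pos {Q : M → ℝ} {φ : ℝ → ℝ} {x : M} (hx : 0 < Q x) : ct Q φ x = φ (Real.log (Q x)) := by
  unfold ct
  rw [if_pos hx]

theorem ct_neg {Q : M → ℝ} {φ : ℝ → ℝ} {x : M} (hx : ¬ 0 < Q x) : ct Q φ x = 0 := by
  unfold ct
  rw [if_neg hx]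

theorem ct_ev {Q : M → ℝ} (hQ : A.Sm Q) (φ : ℝ → ℝ) {i : A.ι} {z : Cn d}
    (hz : z ∈ (A.e i).target) (h : 0 < Q ((A.e i).symm z)) :
    (fun w => ct Q φ ((A.e i).symm w)) =ᶠ[𝓝 z] fun w => φ (Real.log (Q ((A.e i).symm w))) := by
  have hq : ContDiffAt ℝ ∞ (fun w => Q ((A.e i).symm w)) z := sm_contDiffAt hQ i hz
  have h1 : ∀ᶠ w in 𝓝 z, 0 < Q ((A.e i).symm w) := hq.continuousAt.eventually (lt_mem_nhds h)
  filter_upwards [h1] with w hw
  exact ct_pos hw

theorem log_cd {Q : M → ℝ} (hQ : A.Sm Q) {i : A.ι} {z : Cn d} (hz : z ∈ (A.e i).target)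
    (h : 0 < Q ((A.e i).symm z)) :
    ContDiffAt ℝ ∞ (fun w => Real.log (Q ((A.e i).symm w))) z :=
  ContDiffAt.log (sm_contDiffAt hQ i hz) h.ne'

theorem ct_sm {Q : M → ℝ} (hQ : A.Sm Q) {φ : ℝ → ℝ} (hφ : ContDiff ℝ ∞ φ) {a : ℝ}
    (h0 : ∀ s, s ≤ a → φ s = 0) : A.Sm (ct Q φ) := by
  intro i z hz
  have hq : ContDiffAt ℝ ∞ (fun w => Q ((A.e i).symm w)) z := sm_contDiffAt hQ i hz
  by_cases h : 0 < Q ((A.e i).symm z)
  · exact ((hφ.contDiffAt.comp z (log_cd hQ hz h)).congr_of_eventuallyEq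
      (ct_ev hQ φ hz h)).contDiffWithinAt
  · have h1 : ∀ᶠ w in 𝓝 z, Q ((A.e i).symm w) < Real.exp a :=
      hq.continuousAt.eventually (gt_mem_nhds (lt_of_le_of_lt (not_lt.1 h) (Real.exp_pos a)))
    have h2 : (fun w => ct Q φ ((A.e i).symm w)) =ᶠ[𝓝 z] fun _ => 0 := by
      filter_upwards [h1] with w hw
      by_cases h3 : 0 < Q ((A.e i).symm w)
      · rw [ct_pos h3]
        exact h0 _ ((Real.log_lt_iff_lt_exp h3).2 hw).le
      · exact ct_neg h3
    exact (contDiffAt_const.congr_of_eventuallyEq h2).contDiffWithinAt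

/-- `∂u ∧ ∂̄u`, `u = log Q` -/
def rr (A : Atl d M) (Q : M → ℝ) (i : A.ι) (x : M) : Matrix (Fin d) (Fin d) ℂ :=
  Matrix.vecMulVec (gr (fun w => Real.log (Q ((A.e i).symm w))) (A.e i x))
    (star (gr (fun w => Real.log (Q ((A.e i).symm w))) (A.e i x)))

theorem rr_psd (Q : M → ℝ) (i : A.ι) (x : M) : (rr A Q i x).PosSemidef :=
  Matrix.posSemidef_vecMulVec_self_star _

/-- `log Q` -/
def lq (Q : M → ℝ) (x : M) : ℝ := Real.log (Q x)

theorem hsf_ct {Q : M → ℝ} (hQ : A.Sm Q) {φ φ' : ℝ → ℝ} {d2 : ℝ}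
    (h1 : ∀ s, HasDerivAt φ (φ' s) s) {i : A.ι} {x : M} (hx : x ∈ (A.e i).source) (h : 0 < Q x)
    (h2 : HasDerivAt φ' d2 (Real.log (Q x))) :
    hsf A (ct Q φ) i x = (φ' (Real.log (Q x)) : ℂ) • hsf A (lq Q) i x + (d2 : ℂ) • rr A Q i x := by
  have hz := (A.e i).map_source hx
  have hxx : (A.e i).symm (A.e i x) = x := (A.e i).left_inv hx
  have h' : 0 < Q ((A.e i).symm (A.e i x)) := by rwa [hxx]
  have e1 := ct_ev hQ φ hz h'
  unfold hsf
  rw [hess_congr e1]
  ext a b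
  have hcd := log_cd hQ hz h'
  have h2' : HasDerivAt φ' d2 ((fun w => Real.log (Q ((A.e i).symm w))) (A.e i x)) := by
    show HasDerivAt φ' d2 (Real.log (Q ((A.e i).symm (A.e i x))))
    rwa [hxx]
  rw [hess_comp_real (φ := φ) (φ' := φ') hcd (Eventually.of_forall h1) h2', Matrix.add_apply,
    Matrix.smul_apply, Matrix.smul_apply, rr, Matrix.vecMulVec_apply,
    star_gr (hcd.differentiableAt (by simp))]
  simp only [smul_eq_mul, hxx]
  rfl

/-! ### positivity -/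

variable {L : LB A} {m : ℕ}

theorem hsf_lq_herm {Q : M → ℝ} (hQ : A.Sm Q) {i : A.ι} {x : M} (hx : x ∈ (A.e i).source)
    (h : 0 < Q x) : (hsf A (lq Q) i x).IsHermitian := by
  have hxx : (A.e i).symm (A.e i x) = x := (A.e i).left_inv hx
  exact hess_herm (log_cd hQ ((A.e i).map_source hx) (by rwa [hxx]))

/-- **`Θ + ∂∂̄ log |t|² ≥ 0`** -/
theorem psd_T (h : HM L) {t : Fin m → A.ι → M → ℂ} (ht : ∀ k, IsHS L univ (t k)) {i : A.ι} {x : M}
    (hx : x ∈ (A.e i).source) (hp : 0 < Qf h t x) :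
    ((curK h).g i x + hsf A (lq (Qf h t)) i x).PosSemidef := by
  have hz := (A.e i).map_source hx
  have hxx : (A.e i).symm (A.e i x) = x := (A.e i).left_inv hx
  set F : Cn d → Fin m → ℂ := fun w k => t k i ((A.e i).symm w) with hF
  have hFh : ∀ k, DifferentiableOn ℂ (fun w => F w k) (A.e i).target := fun k w hw =>
    ((anal_sec (ht k) i hw).differentiableAt).differentiableWithinAt
  have hQ : ∀ w ∈ (A.e i).target, Qf h t ((A.e i).symm w) =
      wq 1 (F w) * h.w i ((A.e i).symm w) := by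
    intro w hw
    rw [Qf_eq h ht ((A.e i).map_target hw), wq, Finset.sum_mul]
    refine Finset.sum_congr rfl fun k _ => ?_
    rw [Pi.one_apply, one_mul]
  have hw0 : ∀ w ∈ (A.e i).target, 0 < h.w i ((A.e i).symm w) := fun w hw =>
    h.pos i _ ((A.e i).map_target hw)
  have hp' : 0 < wq 1 (F (A.e i x)) := by
    have h1 := hQ _ hz
    rw [hxx] at h1
    rw [h1] at hp
    have h2 := hw0 _ hz
    rw [hxx] at h2
    exact (pos_iff_pos_of_mul_pos hp).2 h2
  have h01 : ∀ k : Fin m, (0 : ℝ) ≤ (1 : Fin m → ℝ) k := fun _ => zero_le_one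
  have hwq := contDiffAt_wq (A.e i).open_target 1 hFh hz
  have hlog : ContDiffAt ℝ ∞ (fun w => Real.log (wq 1 (F w))) (A.e i x) := hwq.log hp'.ne'
  have hwt := wt_contDiffAt h i hz
  have e1 : (fun w => lq (Qf h t) ((A.e i).symm w)) =ᶠ[𝓝 (A.e i x)]
      fun w => Real.log (wq 1 (F w)) + (-1) * h.wt i w := by
    filter_upwards [(A.e i).open_target.mem_nhds hz, hwq.continuousAt.eventually (lt_mem_nhds hp')]
      with w hw hw'
    show Real.log (Qf h t ((A.e i).symm w)) = _ + (-1) * (- Real.log _)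
    rw [hQ w hw, Real.log_mul hw'.ne' (hw0 w hw).ne']
    ring
  have e2 : hsf A (lq (Qf h t)) i x = hess (fun w => Real.log (wq 1 (F w))) (A.e i x) -
      (curK h).g i x := by
    show hess (fun w => lq (Qf h t) ((A.e i).symm w)) (A.e i x) = _ - hess (h.wt i) (A.e i x)
    rw [hess_congr e1]
    have e3 := hess_add (u := fun w => Real.log (wq 1 (F w))) (v := fun w => (-1) * h.wt i w)
      hlog (contDiffAt_const.mul hwt)
    rw [e3, hess_const_mul (-1) hwt]
    push_cast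
    rw [neg_one_smul, sub_eq_add_neg]
  rw [e2, add_sub_cancel]
  exact posSemidef_hess hlog fun v => lev_log_wq_nonneg (A.e i).open_target h01 hFh hz hp'.ne' v

/-- `c K + y ≥ 0` for large `c` -/
theorem exists_c [T2Space M] [CompactSpace M] [Finite A.ι] (hd : 2 ≤ d) (K : Kah A) (y : K11 A) :
    ∃ c : ℝ, 0 ≤ c ∧ ∀ i, ∀ x ∈ (A.e i).source, ((c : ℂ) • K.g i x + y.g i x).PosSemidef := by
  let _ : MeasurableSpace M := borel M
  have : BorelSpace M := ⟨rfl⟩
  have : Countable A.ι := inferInstance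
  have hc1 : Continuous fun x => (trK K y.g x).re :=
    sm_continuous (sm_re (sm_trK K (k11_cf y).tr (k11_cf y).sm))
  have hc2 : Continuous fun x => (trK K y.g x).re ^ 2 - bf K y y x :=
    (hc1.pow 2).sub (bf_cont K y y)
  obtain ⟨C, hC⟩ : ∃ C : ℝ, ∀ x, |(trK K y.g x).re ^ 2 - bf K y y x| ≤ C := by
    obtain ⟨C, hC⟩ := isCompact_univ.exists_bound_of_continuousOn hc2.continuousOn
    exact ⟨C, fun x => hC x (mem_univ x)⟩
  refine ⟨Real.sqrt |C|, Real.sqrt_nonneg _, fun i x hx => ?_⟩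
  obtain ⟨B, e, hB, hG, hS⟩ := simdH (K.pos i x hx) (y.herm i x hx)
  have h1 : (trK K y.g x).re = ∑ k, e k := by
    rw [trK_eq K (k11_cf y).tr hx, Crest.Agent.R273.FIlin_332.tr_eq hB hG hS]
    exact_mod_cast Complex.ofReal_re _
  have h2 : ∑ k, e k ^ 2 ≤ |C| := by
    have h3 := hC x
    rw [h1, bf_eq hd K y y hx, bB_diag hB hG hS] at h3
    have h4 : (∑ k, e k) ^ 2 - ((∑ k, e k) ^ 2 - ∑ k, e k ^ 2) = ∑ k, e k ^ 2 := by ring
    rw [h4] at h3
    exact (le_abs_self _).trans (h3.trans (le_abs_self C))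
  have h3 : ∀ k, 0 ≤ Real.sqrt |C| + e k := by
    intro k
    have h4 : e k ^ 2 ≤ |C| :=
      (Finset.single_le_sum (f := fun k => e k ^ 2) (fun j _ => sq_nonneg _)
        (Finset.mem_univ k)).trans h2
    have h5 : |e k| ≤ Real.sqrt |C| := Real.abs_le_sqrt h4
    have h6 := neg_abs_le (e k)
    linarith
  have h4 : ((Real.sqrt |C| : ℝ) : ℂ) • K.g i x + y.g i x =
      Bᴴ * Matrix.diagonal (fun k => ((Real.sqrt |C| + e k : ℝ) : ℂ)) * B := by
    have h5 : Matrix.diagonal (fun k => ((Real.sqrt |C| + e k : ℝ) : ℂ)) =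
        ((Real.sqrt |C| : ℝ) : ℂ) • (1 : Matrix (Fin d) (Fin d) ℂ) +
          Matrix.diagonal (fun k => (e k : ℂ)) := by
      rw [← Matrix.diagonal_one, ← Matrix.diagonal_smul, Matrix.diagonal_add]
      congr 1
      funext k
      simp
    rw [h5, Matrix.mul_add, Matrix.add_mul, ← hS, Matrix.mul_smul, Matrix.smul_mul, Matrix.mul_one,
      ← hG]
  rw [h4]
  refine Matrix.PosSemidef.conjTranspose_mul_mul_same ?_ B
  exact Matrix.PosSemidef.diagonal fun k => by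
    show (0 : ℂ) ≤ ((Real.sqrt |C| + e k : ℝ) : ℂ)
    exact_mod_cast h3 k

end

end Crest.Agent.R281.MvA_825
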