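import Crest.Agent.R281.MvA3_825

/-!
# Row 281, MOV (helper825), part 4: **MOV**, `0 ≤ ∫ Θ² K^(d-2)`

* `dn χ K Q j x = χ'(u/j)/j tr_K(∂u ∧ ∂̄u)`, `u = log Q`
* `mov_int`  : if `∫_{Q>0} dn χ K Q j → 0` (mass lemma (M3) of 408) and `{Q = 0}` is a null set then
               `0 ≤ ∫ bf K Θ Θ`
* `mov_IM`   : `0 ≤ IM (mixv d 2 K Θ)` for every intersection form positive on `K`
-/

set_option autoImplicit false
set_option linter.unusedSectionVars false
set_option maxSynthPendingDepth 3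

open Set Filter Topology Complex MeasureTheory
open scoped ContDiff Matrix ComplexConjugate ComplexOrder

namespace Crest.Agent.R281.MvA_825

open Crest.Agent.R275.Geo Crest.Agent.R275.Core144 Crest.Agent.R275.EDR890
open Crest.Agent.R273.Kah_333 Crest.Agent.R273.Hess_333 Crest.Agent.R273.Vol_333
open Crest.Agent.R273.Defs_333 Crest.Agent.R273.HM_333 Crest.Agent.R273.HessB_333
open Crest.Agent.R273.Vm_333 Crest.Agent.R273.Green_5 Crest.Agent.R273.GreenM_5
open Crest.Agent.R281.HkR_835 Crest.Agent.R281.Ti_846 Crest.Agent.R281.FujP_513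
open Crest.Agent.R281.Hdx_825 Crest.Agent.R281.Deg_751 Crest.Agent.R281.Nef_252

noncomputable section

variable {d : ℕ} {M : Type} [TopologicalSpace M] {A : Atl d M}

/-- `tr_K(∂u ∧ ∂̄u)`, `u = log Q` -/
def gd (K : Kah A) (Q : M → ℝ) (x : M) : ℝ := ((K.g (ci A x) x)⁻¹ * rr A Q (ci A x) x).trace.re

/-- `χ'(u/j)/j tr_K(∂u ∧ ∂̄u)` -/
def dn (χ : ℝ → ℝ) (K : Kah A) (Q : M → ℝ) (j : ℝ) (x : M) : ℝ :=
  deriv χ (Real.log (Q x) / j) / j * gd K Q x

theorem bB_zero (G S : Matrix (Fin d) (Fin d) ℂ) : bB G 0 S = 0 := by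
  have h := bB_smul 0 G S S
  simp only [Complex.ofReal_zero, zero_smul, zero_mul] at h
  exact h

/-- the cut-off as a function on `M` -/
def cu (χ : ℝ → ℝ) (Q : M → ℝ) (j : ℝ) (x : M) : ℝ := ct Q (fun s => χ (s / j)) x

theorem cu_sm {χ : ℝ → ℝ} (hχ : Cut χ) {Q : M → ℝ} (hQ : A.Sm Q) {j : ℝ} (hj : 0 < j) :
    A.Sm (cu χ Q j) := by
  refine ct_sm hQ (hχ.sm.comp (contDiff_id.div_const j)) (a := -(2 * j)) fun s hs => ?_
  refine hχ.zero _ ?_
  rw [div_le_iff₀ hj]
  linarith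

theorem w_sm {χ : ℝ → ℝ} (hχ : Cut χ) {Q : M → ℝ} (hQ : A.Sm Q) {j : ℝ} (hj : 0 < j) :
    A.Sm (ct Q (Ph χ j)) :=
  ct_sm hQ (Ph_contDiff hχ j) (a := -(2 * j)) fun _ hs => Ph_zero hχ hj hs

variable {L : LB A} {m : ℕ}

/-- the pointwise inequality -/
theorem pt (hd : 2 ≤ d) (K : Kah A) (h : HM L) {t : Fin m → A.ι → M → ℂ}
    (ht : ∀ k, IsHS L univ (t k)) {χ : ℝ → ℝ} (hχ : Cut χ) {j : ℝ} (hj : 0 < j) {c : ℝ}
    (hc : ∀ i, ∀ x ∈ (A.e i).source, ((c : ℂ) • K.g i x + (curK h).g i x).PosSemidef)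
    {x : M} (hx : 0 < Qf h t x) :
    -(c * (d - 1) * dn χ K (Qf h t) j x) ≤ cu χ (Qf h t) j x * bf K (curK h) (curK h) x +
      2 * bf K (curK h) (hK _ (w_sm hχ (sm_Qf h ht) hj)) x +
      bf K (hK _ (w_sm hχ (sm_Qf h ht) hj))
        (hK _ (w_sm hχ (sm_Qf h ht) (show 0 < 2 * j by positivity))) x := by
  set Q := Qf h t with hQd
  have hQ : A.Sm Q := sm_Qf h ht
  have hj2 : 0 < 2 * j := by positivity
  have hi := mem_ci (A := A) x
  set i := ci A x with hid
  set u := Real.log (Q x) with hu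
  rw [bf_eq hd K _ _ hi, bf_eq hd K _ _ hi, bf_eq hd K _ _ hi]
  have e1 : (hK _ (w_sm hχ hQ hj)).g i x =
      (χ (u / j) : ℂ) • hsf A (lq Q) i x + ((deriv χ (u / j) / j : ℝ) : ℂ) • rr A Q i x :=
    hsf_ct hQ (Ph_deriv hχ j) hi hx (Ph_deriv2 hχ j _)
  have e2 : (hK _ (w_sm hχ hQ hj2)).g i x =
      (χ (u / (2 * j)) : ℂ) • hsf A (lq Q) i x +
        ((deriv χ (u / (2 * j)) / (2 * j) : ℝ) : ℂ) • rr A Q i x :=
    hsf_ct hQ (Ph_deriv hχ (2 * j)) hi hx (Ph_deriv2 hχ (2 * j) _)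
  have e3 : cu χ Q j x = χ (u / j) := ct_pos hx
  have e4 : dn χ K Q j x = deriv χ (u / j) / j * ((K.g i x)⁻¹ * rr A Q i x).trace.re := rfl
  rw [e1, e2, e3, e4]
  rcases le_or_gt (u / j) (-2) with h1 | h1
  · rw [hχ.zero _ h1, hχ.deriv_zero h1]
    have e5 : ((0 : ℝ) : ℂ) • hsf A (lq Q) i x + ((0 / j : ℝ) : ℂ) • rr A Q i x = 0 := by
      simp
    rw [e5, bB_zero, bB_comm (K.g i x) _ 0, bB_zero]
    simp
  · have h2 : -1 ≤ u / (2 * j) := by
      rw [le_div_iff₀ hj2]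
      rw [lt_div_iff₀ hj] at h1
      linarith
    rw [hχ.one _ h2, hχ.deriv_one h2]
    have e5 : ((1 : ℝ) : ℂ) • hsf A (lq Q) i x + ((0 / (2 * j) : ℝ) : ℂ) • rr A Q i x =
        hsf A (lq Q) i x := by
      simp
    rw [e5]
    have h3 := key_ineq (K.pos i x hi) (psd_T h ht hi hx) (rr_psd Q i x) (hχ.nn (u / j))
      (δ := deriv χ (u / j) / j) (div_nonneg (hχ.mono _) hj.le) (hc i x hi)
    refine le_trans (le_of_eq ?_) h3
    ring

/-- lower bound of an integral by a lower integral -/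
theorem int_ge {X : Type*} [MeasurableSpace X] {ν : Measure X} {F D : X → ℝ} {E : Set X} {C : ℝ}
    (hC : 0 ≤ C) (hF : Integrable F ν) (hE : MeasurableSet E) (hE0 : ν Eᶜ = 0)
    (h : ∀ x ∈ E, -(C * D x) ≤ F x) (hfin : ∫⁻ x in E, ENNReal.ofReal (D x) ∂ν ≠ ⊤) :
    -(C * (∫⁻ x in E, ENNReal.ofReal (D x) ∂ν).toReal) ≤ ∫ x, F x ∂ν := by
  have h1 := integral_eq_lintegral_pos_part_sub_lintegral_neg_part hF
  have h2 : ∫⁻ x, ENNReal.ofReal (-F x) ∂ν ≤
      ENNReal.ofReal C * ∫⁻ x in E, ENNReal.ofReal (D x) ∂ν := by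
    have h3 : ∫⁻ x, ENNReal.ofReal (-F x) ∂ν = ∫⁻ x in E, ENNReal.ofReal (-F x) ∂ν := by
      have h4 : ν.restrict E = ν := Measure.restrict_eq_self_of_ae_mem (by
        rw [ae_iff]
        exact hE0)
      rw [h4]
    rw [h3]
    calc ∫⁻ x in E, ENNReal.ofReal (-F x) ∂ν
        ≤ ∫⁻ x in E, ENNReal.ofReal C * ENNReal.ofReal (D x) ∂ν := by
          refine setLIntegral_mono' hE fun x hx => ?_
          rw [← ENNReal.ofReal_mul hC]
          refine ENNReal.ofReal_le_ofReal ?_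
          have := h x hx
          linarith
      _ = _ := by
          exact lintegral_const_mul' _ _ ENNReal.ofReal_ne_top
  have h3 : (∫⁻ x, ENNReal.ofReal (-F x) ∂ν).toReal ≤
      C * (∫⁻ x in E, ENNReal.ofReal (D x) ∂ν).toReal := by
    have h4 := ENNReal.toReal_mono (ENNReal.mul_ne_top ENNReal.ofReal_ne_top hfin) h2
    rwa [ENNReal.toReal_mul, ENNReal.toReal_ofReal hC] at h4
  have h4 : 0 ≤ (∫⁻ x, ENNReal.ofReal (F x) ∂ν).toReal := ENNReal.toReal_nonneg
  rw [h1]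
  linarith

section main

variable [T2Space M] [CompactSpace M] [Finite A.ι] [MeasurableSpace M] [BorelSpace M]

/-- **MOV**: the mixed integral of the curvature form -/
theorem mov_int (hd : 2 ≤ d) (K : Kah A) (RP : RPart (ofAtl A)) (h : HM L)
    {t : Fin m → A.ι → M → ℂ} (ht : ∀ k, IsHS L univ (t k)) {χ : ℝ → ℝ} (hχ : Cut χ)
    (hZ : vm (volK K) {x | Qf h t x = 0} = 0)
    (hM : Tendsto (fun j : ℕ => ∫⁻ x in {x | 0 < Qf h t x},
      ENNReal.ofReal (dn χ K (Qf h t) j x) ∂(vm (volK K))) atTop (𝓝 0)) :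
    0 ≤ ∫ x, bf K (curK h) (curK h) x ∂(vm (volK K)) := by
  have : Countable A.ι := inferInstance
  have := isFinite_vm (volK K)
  set Q := Qf h t with hQd
  have hQ : A.Sm Q := sm_Qf h ht
  have hQc : Continuous Q := sm_continuous hQ
  obtain ⟨c, hc0, hc⟩ := exists_c hd K (curK h)
  set ν := vm (volK K) with hν
  set E : Set M := {x | 0 < Q x} with hE
  have hEm : MeasurableSet E := (isOpen_lt continuous_const hQc).measurableSet
  have hE0 : ν Eᶜ = 0 := by
    have : Eᶜ = {x | Q x = 0} := by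
      ext x
      simp only [hE, mem_compl_iff, Set.mem_ofPred_eq, not_lt]
      exact ⟨fun h1 => le_antisymm h1 (Qf_nonneg h t x), fun h1 => h1.le⟩
    rw [this]
    exact hZ
  have hd1 : (0 : ℝ) ≤ d - 1 := by
    have : (2 : ℝ) ≤ d := by exact_mod_cast hd
    linarith
  have hC : 0 ≤ c * ((d : ℝ) - 1) := mul_nonneg hc0 hd1
  set I : ℕ → ENNReal := fun j => ∫⁻ x in E, ENNReal.ofReal (dn χ K Q j x) ∂ν with hI
  -- the inequality for each `j`
  have key : ∀ᶠ j : ℕ in atTop, -(c * (d - 1) * (I j).toReal) ≤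
      ∫ x, cu χ Q j x * bf K (curK h) (curK h) x ∂ν := by
    have hfin : ∀ᶠ j in atTop, I j ≠ ⊤ := by
      have := hM.eventually (gt_mem_nhds (ENNReal.zero_lt_top))
      filter_upwards [this] with j hj
      exact hj.ne
    filter_upwards [hfin, eventually_gt_atTop 0] with j hj1 hj0
    have hj : (0 : ℝ) < j := by exact_mod_cast hj0
    have hj2 : (0 : ℝ) < 2 * j := by positivity
    have hcu : Continuous (cu χ Q j) := sm_continuous (cu_sm hχ hQ hj)
    have i1 : Integrable (fun x => cu χ Q j x * bf K (curK h) (curK h) x) ν :=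
      (hcu.mul (bf_cont K _ _)).integrable_of_hasCompactSupport
        (HasCompactSupport.of_compactSpace _)
    have i2 : Integrable (fun x => 2 * bf K (curK h) (hK _ (w_sm hχ hQ hj)) x) ν :=
      (integrable_bf K _ _).const_mul 2
    have i3 : Integrable (bf K (hK _ (w_sm hχ hQ hj)) (hK _ (w_sm hχ hQ hj2))) ν :=
      integrable_bf K _ _
    have h1 := int_ge (ν := ν) (D := dn χ K Q j) (E := E) hC ((i1.add i2).add i3) hEm hE0
      (fun x hx => pt hd K h ht hχ hj hc hx) hj1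
    refine h1.trans (le_of_eq ?_)
    have h2 : ∫ x, ((fun x => cu χ Q j x * bf K (curK h) (curK h) x) +
        (fun x => 2 * bf K (curK h) (hK _ (w_sm hχ hQ hj)) x) +
        bf K (hK _ (w_sm hχ hQ hj)) (hK _ (w_sm hχ hQ hj2))) x ∂ν =
        ∫ x, cu χ Q j x * bf K (curK h) (curK h) x ∂ν +
        ∫ x, 2 * bf K (curK h) (hK _ (w_sm hχ hQ hj)) x ∂ν +
        ∫ x, bf K (hK _ (w_sm hχ hQ hj)) (hK _ (w_sm hχ hQ hj2)) x ∂ν := by
      rw [integral_add' (i1.add i2) i3, integral_add' i1 i2]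
    rw [h2, integral_const_mul, int_bf_hK hd K RP, int_bf_hK hd K RP]
    ring
  -- the limits
  have l1 : Tendsto (fun j : ℕ => -(c * (d - 1) * (I j).toReal)) atTop (𝓝 0) := by
    have h1 : Tendsto (fun j : ℕ => (I j).toReal) atTop (𝓝 (0 : ENNReal).toReal) :=
      (ENNReal.tendsto_toReal ENNReal.zero_ne_top).comp hM
    have h2 := (h1.const_mul (c * ((d : ℝ) - 1))).neg
    simpa using h2
  have l2 : Tendsto (fun j : ℕ => ∫ x, cu χ Q j x * bf K (curK h) (curK h) x ∂ν) atTop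
      (𝓝 (∫ x, bf K (curK h) (curK h) x ∂ν)) := by
    refine tendsto_integral_of_dominated_convergence
      (fun x => |bf K (curK h) (curK h) x|) (F := fun (j : ℕ) x =>
        cu χ Q j x * bf K (curK h) (curK h) x) (fun j => ?_) (integrable_bf K _ _).abs
      (fun j => Eventually.of_forall fun x => ?_) ?_
    · have h1 : Measurable (cu χ Q (j : ℝ)) := by
        unfold cu ct
        refine Measurable.ite hEm ?_ measurable_const
        exact hχ.sm.continuous.measurable.comp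
          ((Real.measurable_log.comp hQc.measurable).div_const _)
      exact (h1.mul (bf_cont K _ _).measurable).aestronglyMeasurable
    · rw [Real.norm_eq_abs, abs_mul]
      have h1 : |cu χ Q (j : ℝ) x| ≤ 1 := by
        unfold cu
        by_cases hx : 0 < Q x
        · rw [ct_pos hx, abs_of_nonneg (hχ.nn _)]
          exact hχ.le _
        · rw [ct_neg hx]
          simp
      exact mul_le_of_le_one_left (abs_nonneg _) h1
    · have hae : ∀ᵐ x ∂ν, x ∈ E := by
        rw [ae_iff]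
        exact hE0
      filter_upwards [hae] with x hx
      have h1 : Tendsto (fun j : ℕ => Real.log (Q x) / (j : ℝ)) atTop (𝓝 0) :=
        tendsto_const_nhds.div_atTop tendsto_natCast_atTop_atTop
      have h2 : ∀ᶠ j : ℕ in atTop, cu χ Q j x * bf K (curK h) (curK h) x =
          bf K (curK h) (curK h) x := by
        filter_upwards [h1.eventually (lt_mem_nhds (show (-1 : ℝ) < 0 by norm_num))] with j hj
        have : cu χ Q (j : ℝ) x = 1 := by
          show ct Q _ x = 1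
          rw [ct_pos hx]
          exact hχ.one _ hj.le
        rw [this, one_mul]
      exact tendsto_const_nhds.congr' (h2.mono fun j hj => hj.symm)
  exact le_of_tendsto_of_tendsto l1 l2 key

/-- **MOV** for the intersection forms -/
theorem mov_IM [ConnectedSpace M] (hd : 2 ≤ d) (K : Kah A) (h : HM L)
    {t : Fin m → A.ι → M → ℂ} (ht : ∀ k, IsHS L univ (t k)) {χ : ℝ → ℝ} (hχ : Cut χ)
    (hZ : vm (volK K) {x | Qf h t x = 0} = 0)
    (hM : Tendsto (fun j : ℕ => ∫⁻ x in {x | 0 < Qf h t x},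
      ENNReal.ofReal (dn χ K (Qf h t) j x) ∂(vm (volK K))) atTop (𝓝 0))
    (μ : Measure (Cn d)) [μ.IsAddHaarMeasure] (b : Module.Basis (Fin d × Fin 2) ℝ (Cn d))
    (RP : RPart (ofAtl A)) (hpos : 0 < IM μ b RP (fun _ => (ofKah K).f2)) :
    0 ≤ IM μ b RP (mixv d 2 (ofKah K).f2 (curK h).f2) :=
  IM_nonneg K μ b RP hd hpos (curK h) (mov_int hd K RP h ht hχ hZ hM)

end main

end

end Crest.Agent.R281.MvA_825
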