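import Crest.Agent.R281.FujSig_358

/-!
# Row 281, MOV (helper825), part 5: the last glue, abstract form

`h : Sig T q Ex E11 r s K` (358), `e, N ∈ E11`, `q e = 0 < polar K e`, `polar N e = 0`:
* `q_nonneg` : `0 ≤ T (mixv 2 (K + y e) N)` for arbitrarily large `y` ==> `0 ≤ q N`
* `prop`     : `0 ≤ q N` ==> `N - (polar K N / polar K e) e ∈ Ex`, `q N = 0`
-/

set_option autoImplicit false

namespace Crest.Agent.R281.MvB_825

open Crest.Agent.R281.FujR_513 Crest.Agent.R281.FujP_513 Crest.Agent.R281.FujSig_358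

variable {H : Type*} [AddCommGroup H] [Module ℝ H] {n : ℕ}
  {T : MultilinearMap ℝ (fun _ : Fin (n + n) => H) ℝ}
  {q : QuadraticForm ℝ H} {Ex E11 : Submodule ℝ H} {r s K e N : H}

/-- nonnegativity of the form on a movable class -/
theorem q_nonneg (h : Sig T q Ex E11 r s K) (hqe : q e = 0)
    (hKe : 0 < QuadraticMap.polar q K e) (hNe : QuadraticMap.polar q N e = 0)
    (hT : ∀ B : ℝ, ∃ y : ℝ, B ≤ y ∧ 0 ≤ T (mixv (n + n) 2 (K + y • e) N)) : 0 ≤ q N := by
  by_contra hneg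
  push Not at hneg
  set β := QuadraticMap.polar q K e with hβ
  set γ := QuadraticMap.polar q K N with hγ
  have hn := h.pos
  -- a large parameter
  obtain ⟨y, hy, hTy⟩ := hT ((n * γ ^ 2 / (-(q N))) / β)
  have hpos : 0 ≤ n * γ ^ 2 / (-(q N)) := by
    have : 0 < -(q N) := by linarith
    positivity
  have hy1 : n * γ ^ 2 / (-(q N)) ≤ y * β := by rwa [div_le_iff₀ hKe] at hy
  set Y := q (K + y • e) with hY
  have hY1 : Y = q K + y * β := by
    rw [hY, q_line, hqe]
    ring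
  have hYpos : 0 < Y := by
    have := h.qK
    rw [hY1]
    linarith
  have hpol : QuadraticMap.polar q (K + y • e) N = γ := by
    rw [QuadraticMap.polar_add_left, QuadraticMap.polar_smul_left, QuadraticMap.polar_comm q e N,
      hNe, smul_zero, add_zero]
  have h2 := second_polar h.pos h.symm h.fuj (K + y • e) N
  rw [hpol, ← hY] at h2
  have hn1 : (1 : ℝ) ≤ n := by exact_mod_cast hn
  have hL : 0 ≤ 2 * (2 * (n : ℝ) - 1) * T (mixv (n + n) 2 (K + y • e) N) :=
    mul_nonneg (by linarith) hTy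
  rw [h2] at hL
  rcases Nat.lt_or_ge n 2 with h1 | h1
  · have : n = 1 := by omega
    subst this
    simp at hL
    linarith
  · obtain ⟨m, rfl⟩ : ∃ m, n = m + 2 := ⟨n - 2, by omega⟩
    have e1 : m + 2 - 1 = m + 1 := rfl
    have e2 : m + 2 - 2 = m := rfl
    rw [e1, e2, pow_succ] at hL
    have hYm : 0 < Y ^ m := pow_pos hYpos _
    have h3 : 0 ≤ Y ^ m * (2 * Y * q N + (((m + 2 : ℕ) : ℝ) - 1) * γ ^ 2) := by
      refine hL.trans (le_of_eq ?_)
      ring
    have h4 : 0 ≤ 2 * Y * q N + (((m + 2 : ℕ) : ℝ) - 1) * γ ^ 2 :=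
      (mul_nonneg_iff_of_pos_left hYm).1 h3
    have h5 : ((m + 2 : ℕ) : ℝ) * γ ^ 2 ≤ y * β * (-(q N)) := by
      rwa [div_le_iff₀ (by linarith)] at hy1
    have h6 : 0 ≤ γ ^ 2 := sq_nonneg _
    have h7 : Y * q N < y * β * q N := by
      rw [hY1]
      have := mul_neg_of_pos_of_neg h.qK hneg
      linarith
    have h8 : 0 ≤ ((m + 2 : ℕ) : ℝ) * γ ^ 2 := by positivity
    nlinarith

/-- a class in `e^⊥` with `0 ≤ q` is a multiple of `e` -/
theorem prop (h : Sig T q Ex E11 r s K) (heE : e ∈ E11) (hNE : N ∈ E11) (hqe : q e = 0)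
    (hKe : 0 < QuadraticMap.polar q K e) (hNe : QuadraticMap.polar q N e = 0) (hN : 0 ≤ q N) :
    q N = 0 ∧ N - (QuadraticMap.polar q K N / QuadraticMap.polar q K e) • e ∈ Ex := by
  set β := QuadraticMap.polar q K e with hβ
  set γ := QuadraticMap.polar q K N with hγ
  set t : ℝ := γ / β with ht
  have h1 : ∀ y ∈ E11, QuadraticMap.polar q y r = 0 := fun y hy => by
    rw [QuadraticMap.polar_comm]; exact h.r11 y hy
  have h2 : ∀ y ∈ E11, QuadraticMap.polar q y s = 0 := fun y hy => by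
    rw [QuadraticMap.polar_comm]; exact h.s11 y hy
  have hm : N - t • e ∈ E11 := E11.sub_mem hNE (E11.smul_mem t heE)
  have h3 : QuadraticMap.polar q (N - t • e) K = 0 := by
    rw [QuadraticMap.polar_sub_left, QuadraticMap.polar_smul_left, QuadraticMap.polar_comm q N K,
      QuadraticMap.polar_comm q e K, ← hβ, ← hγ, ht, smul_eq_mul, div_mul_cancel₀ _ hKe.ne',
      sub_self]
  have h4 := h.neg (h1 _ hm) (h2 _ hm) h3
  have h5 : q (N - t • e) = q N := by
    have := q_line q N e (-t)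
    rw [neg_smul, ← sub_eq_add_neg] at this
    rw [this, hNe, hqe]
    ring
  rw [h5] at h4
  have h6 : q N = 0 := le_antisymm h4.1 hN
  exact ⟨h6, h4.2 h6⟩

/-- both steps -/
theorem mov_prop (h : Sig T q Ex E11 r s K) (heE : e ∈ E11) (hNE : N ∈ E11) (hqe : q e = 0)
    (hKe : 0 < QuadraticMap.polar q K e) (hNe : QuadraticMap.polar q N e = 0)
    (hT : ∀ B : ℝ, ∃ y : ℝ, B ≤ y ∧ 0 ≤ T (mixv (n + n) 2 (K + y • e) N)) :
    q N = 0 ∧ N - (QuadraticMap.polar q K N / QuadraticMap.polar q K e) • e ∈ Ex :=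
  prop h heE hNE hqe hKe hNe (q_nonneg h hqe hKe hNe hT)

end Crest.Agent.R281.MvB_825
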