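import Mathlib

/-!
# R281 (S0424), MOV (helper625 #7291), mass lemma (M), part 1 (helper408, Mathlib only)

One complex variable: for `v` smooth on an open set `Om ⊆ ℂ`, a cut-off `Psi` with compact support
in `Om` and `X' = chi`:
`∫ Psi χ'(v/j)/j |∇v|² = ∫ (Δ Psi) j X(v/j) - ∫ Psi χ(v/j) Δ v`, so it is at most
`S ∫_(tsupport Psi) |v| + C ∫ Psi` if `Δ v ≥ -C`.
-/

set_option autoImplicit false
set_option linter.unusedSectionVars false

open Set Filter Topology MeasureTheory
open scoped ContDiff

namespace Crest.Agent.R281.Mvm_408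

noncomputable section

/-- second derivative in the direction `a` -/
def dd {E : Type*} [NormedAddCommGroup E] [NormedSpace ℝ E] (f : E → ℝ) (a : E) (x : E) : ℝ :=
  fderiv ℝ (fun y => fderiv ℝ f y a) x a

section Cut

variable {E : Type*} [NormedAddCommGroup E] [NormedSpace ℝ E] [MeasurableSpace E] [BorelSpace E]
  [FiniteDimensional ℝ E] {μ : Measure E} [μ.IsAddHaarMeasure]

/-- a function with compact support, continuous on a compact set containing the support -/
theorem integrable_of_cont {f : E → ℝ} {K : Set E} (hK : IsCompact K) (hf : ContinuousOn f K)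
    (h0 : ∀ x ∉ K, f x = 0) : Integrable f μ := by
  have h1 : IntegrableOn f K μ := hf.integrableOn_compact hK
  have h2 : Function.support f ⊆ K := fun x hx => by
    by_contra h
    exact hx (h0 x h)
  exact (integrableOn_iff_integrable_of_support_subset h2).1 h1

theorem tsupport_fderiv_apply_subset {f : E → ℝ} (a : E) :
    tsupport (fun x => fderiv ℝ f x a) ⊆ tsupport f := by
  refine closure_minimal ?_ (isClosed_tsupport f)
  intro x hx
  by_contra h
  apply hx
  have h1 : fderiv ℝ f x = 0 := by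
    have h2 : f =ᶠ[𝓝 x] fun _ => (0 : ℝ) := by
      have h3 : (tsupport f)ᶜ ∈ 𝓝 x := (isClosed_tsupport f).isOpen_compl.mem_nhds h
      filter_upwards [h3] with y hy
      exact image_eq_zero_of_notMem_tsupport hy
    rw [h2.fderiv_eq]
    simp
  simp [h1]

/-- Green: `∫ Psi ∂ₐ∂ₐ G = ∫ ∂ₐ∂ₐ Psi G` for a cut-off with compact support in the domain of `G` -/
theorem green {Psi G : E → ℝ} {Om : Set E} (hO : IsOpen Om) (hP : ContDiff ℝ ∞ Psi)
    (hc : HasCompactSupport Psi) (hs : tsupport Psi ⊆ Om) (hG : ContDiffOn ℝ ∞ G Om) (a : E) :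
    ∫ x, Psi x * dd G a x ∂μ = ∫ x, dd Psi a x * G x ∂μ := by
  have hK : IsCompact (tsupport Psi) := hc
  -- smoothness of the derivatives on Om
  have hG1 : ContDiffOn ℝ ∞ (fun x => fderiv ℝ G x a) Om :=
    (hG.fderiv_of_isOpen hO (by simp)).clm_apply contDiffOn_const
  have hG2 : ContDiffOn ℝ ∞ (fun x => dd G a x) Om :=
    (hG1.fderiv_of_isOpen hO (by simp)).clm_apply contDiffOn_const
  have hP1 : ContDiff ℝ ∞ (fun x => fderiv ℝ Psi x a) :=
    (hP.fderiv_right (by simp)).clm_apply contDiff_const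
  have hP2 : ContDiff ℝ ∞ (fun x => dd Psi a x) :=
    (hP1.fderiv_right (by simp)).clm_apply contDiff_const
  have hs1 : tsupport (fun x => fderiv ℝ Psi x a) ⊆ tsupport Psi := tsupport_fderiv_apply_subset a
  have hs2 : tsupport (fun x => dd Psi a x) ⊆ tsupport Psi :=
    (tsupport_fderiv_apply_subset a).trans hs1
  have z0 : ∀ x ∉ tsupport Psi, Psi x = 0 := fun x hx => image_eq_zero_of_notMem_tsupport hx
  have z1 : ∀ x ∉ tsupport Psi, fderiv ℝ Psi x a = 0 := fun x hx =>
    image_eq_zero_of_notMem_tsupport (f := fun x => fderiv ℝ Psi x a) fun h => hx (hs1 h)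
  have z2 : ∀ x ∉ tsupport Psi, dd Psi a x = 0 := fun x hx =>
    image_eq_zero_of_notMem_tsupport (f := fun x => dd Psi a x) fun h => hx (hs2 h)
  have c0 := hG.continuousOn.mono hs
  have c1 := hG1.continuousOn.mono hs
  have c2 := hG2.continuousOn.mono hs
  have d0 := hP.continuous.continuousOn (s := tsupport Psi)
  have d1 := hP1.continuous.continuousOn (s := tsupport Psi)
  have d2 := hP2.continuous.continuousOn (s := tsupport Psi)
  -- first integration by parts
  have e1 : ∫ x, Psi x * fderiv ℝ (fun y => fderiv ℝ G y a) x a ∂μ =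
      - ∫ x, fderiv ℝ Psi x a * fderiv ℝ G x a ∂μ := by
    refine integral_mul_fderiv_eq_neg_fderiv_mul_of_integrable ?_ ?_ ?_ ?_ ?_
    · exact integrable_of_cont hK (d1.mul c1) fun x hx => by simp [z1 x hx]
    · exact integrable_of_cont hK (d0.mul c2) fun x hx => by simp [z0 x hx]
    · exact integrable_of_cont hK (d0.mul c1) fun x hx => by simp [z0 x hx]
    · exact fun x _ => (hP.differentiable (by simp)) x
    · exact fun x hx => ((hG1.differentiableOn (by simp)) x (hs hx)).differentiableAt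
        (hO.mem_nhds (hs hx))
  have e2 : ∫ x, fderiv ℝ Psi x a * fderiv ℝ G x a ∂μ =
      - ∫ x, fderiv ℝ (fun y => fderiv ℝ Psi y a) x a * G x ∂μ := by
    refine integral_mul_fderiv_eq_neg_fderiv_mul_of_integrable ?_ ?_ ?_ ?_ ?_
    · exact integrable_of_cont hK (d2.mul c0) fun x hx => by
        have := z2 x hx
        unfold dd at this
        simp [this]
    · exact integrable_of_cont hK (d1.mul c1) fun x hx => by simp [z1 x hx]
    · exact integrable_of_cont hK (d1.mul c0) fun x hx => by simp [z1 x hx]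
    · exact fun x _ => (hP1.differentiable (by simp)) x
    · exact fun x hx => ((hG.differentiableOn (by simp)) x (hs (hs1 hx))).differentiableAt
        (hO.mem_nhds (hs (hs1 hx)))
  unfold dd
  rw [e1, e2, neg_neg]

/-- derivatives of `j X(v/j)` -/
theorem fderiv_comp {X chi : ℝ → ℝ} (hX : ∀ s, HasDerivAt X (chi s) s) {j : ℝ} (hj : j ≠ 0)
    {v : E → ℝ} {x : E} (hv : DifferentiableAt ℝ v x) (a : E) :
    fderiv ℝ (fun y => j * X (v y / j)) x a = chi (v x / j) * fderiv ℝ v x a := by
  have h1 : HasFDerivAt (fun y => v y / j) ((j⁻¹ : ℝ) • fderiv ℝ v x) x := by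
    have := hv.hasFDerivAt.const_smul (j⁻¹ : ℝ)
    refine this.congr_of_eventuallyEq (Eventually.of_forall fun y => ?_)
    simp [div_eq_inv_mul]
  have h2 : HasFDerivAt (fun y => X (v y / j)) (chi (v x / j) • ((j⁻¹ : ℝ) • fderiv ℝ v x)) x :=
    (hX (v x / j)).comp_hasFDerivAt x h1
  have h3 : HasFDerivAt (fun y => j * X (v y / j))
      (j • (chi (v x / j) • ((j⁻¹ : ℝ) • fderiv ℝ v x))) x := h2.const_mul j
  rw [h3.fderiv]
  simp only [smul_apply, smul_eq_mul]
  field_simp

theorem dd_comp {X chi chi' : ℝ → ℝ} (hX : ∀ s, HasDerivAt X (chi s) s)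
    (hchi : ∀ s, HasDerivAt chi (chi' s) s) {j : ℝ} (hj : j ≠ 0)
    {v : E → ℝ} {Om : Set E} (hO : IsOpen Om) (hv : ContDiffOn ℝ ∞ v Om) {x : E} (hx : x ∈ Om)
    (a : E) :
    dd (fun y => j * X (v y / j)) a x =
      chi' (v x / j) / j * (fderiv ℝ v x a) ^ 2 + chi (v x / j) * dd v a x := by
  have hv1 : ContDiffOn ℝ ∞ (fun x => fderiv ℝ v x a) Om :=
    (hv.fderiv_of_isOpen hO (by simp)).clm_apply contDiffOn_const
  have hvx : DifferentiableAt ℝ v x :=
    ((hv.differentiableOn (by simp)) x hx).differentiableAt (hO.mem_nhds hx)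
  have hv1x : DifferentiableAt ℝ (fun x => fderiv ℝ v x a) x :=
    ((hv1.differentiableOn (by simp)) x hx).differentiableAt (hO.mem_nhds hx)
  have he : (fun y => fderiv ℝ (fun y => j * X (v y / j)) y a) =ᶠ[𝓝 x]
      fun y => chi (v y / j) * fderiv ℝ v y a := by
    filter_upwards [hO.mem_nhds hx] with y hy
    exact fderiv_comp hX hj (((hv.differentiableOn (by simp)) y hy).differentiableAt
      (hO.mem_nhds hy)) a
  have h1 : HasFDerivAt (fun y => v y / j) ((j⁻¹ : ℝ) • fderiv ℝ v x) x := by
    have := hvx.hasFDerivAt.const_smul (j⁻¹ : ℝ)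
    refine this.congr_of_eventuallyEq (Eventually.of_forall fun y => ?_)
    simp [div_eq_inv_mul]
  have h2 : HasFDerivAt (fun y => chi (v y / j))
      (chi' (v x / j) • ((j⁻¹ : ℝ) • fderiv ℝ v x)) x :=
    (hchi (v x / j)).comp_hasFDerivAt x h1
  have h3 := h2.mul hv1x.hasFDerivAt
  unfold dd
  rw [he.fderiv_eq]
  have h4 : fderiv ℝ (fun y => chi (v y / j) * fderiv ℝ v y a) x =
      chi (v x / j) • fderiv ℝ (fun y => fderiv ℝ v y a) x +
        fderiv ℝ v x a • (chi' (v x / j) • ((j⁻¹ : ℝ) • fderiv ℝ v x)) := h3.fderiv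
  rw [h4]
  simp only [add_apply, smul_apply, smul_eq_mul]
  field_simp
  ring

/-- the primitive of `chi` -/
theorem exists_prim {chi : ℝ → ℝ} (hc : Continuous chi) (h0 : ∀ s, 0 ≤ chi s)
    (h1 : ∀ s, chi s ≤ 1) :
    ∃ X : ℝ → ℝ, (∀ s, HasDerivAt X (chi s) s) ∧ ∀ s, |X s| ≤ |s| := by
  refine ⟨fun s => ∫ t in (0:ℝ)..s, chi t, fun s => ?_, fun s => ?_⟩
  · exact intervalIntegral.integral_hasDerivAt_right (hc.intervalIntegrable _ _)
      (hc.stronglyMeasurableAtFilter _ _) hc.continuousAt
  · have := intervalIntegral.norm_integral_le_of_norm_le_const (a := 0) (b := s) (C := 1)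
      (f := chi) fun t _ => by rw [Real.norm_eq_abs, abs_of_nonneg (h0 t)]; exact h1 t
    simpa using this

/-- **(M1)** -/
theorem m1 {chi : ℝ → ℝ} (hc : ContDiff ℝ ∞ chi) (h0 : ∀ s, 0 ≤ chi s) (h1 : ∀ s, chi s ≤ 1)
    {j : ℝ} (hj : 0 < j) {v Psi : E → ℝ} {Om : Set E} (hO : IsOpen Om)
    (hv : ContDiffOn ℝ ∞ v Om) (hP : ContDiff ℝ ∞ Psi) (hP0 : ∀ x, 0 ≤ Psi x)
    (hcP : HasCompactSupport Psi) (hs : tsupport Psi ⊆ Om) (a b : E) {S C : ℝ}
    (hS : ∀ x, |dd Psi a x + dd Psi b x| ≤ S)
    (hC : ∀ x ∈ tsupport Psi, -C ≤ dd v a x + dd v b x) (hC0 : 0 ≤ C) :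
    ∫ x, Psi x * (deriv chi (v x / j) / j * ((fderiv ℝ v x a) ^ 2 + (fderiv ℝ v x b) ^ 2)) ∂μ ≤
      S * (∫ x in tsupport Psi, |v x| ∂μ) + C * ∫ x, Psi x ∂μ := by
  obtain ⟨X, hX, hXs⟩ := exists_prim hc.continuous h0 h1
  have hd : ∀ s, HasDerivAt chi (deriv chi s) s := fun s =>
    ((hc.differentiable (by simp)) s).hasDerivAt
  have hXc : ContDiff ℝ ∞ X := by
    rw [contDiff_infty_iff_deriv]
    refine ⟨fun s => (hX s).differentiableAt, ?_⟩
    have : deriv X = chi := funext fun s => (hX s).deriv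
    rw [this]; exact hc
  have hK : IsCompact (tsupport Psi) := hcP
  set G : E → ℝ := fun y => j * X (v y / j) with hGdef
  have hG : ContDiffOn ℝ ∞ G Om :=
    contDiffOn_const.mul (hXc.comp_contDiffOn (hv.div_const j))
  have z0 : ∀ x ∉ tsupport Psi, Psi x = 0 := fun x hx => image_eq_zero_of_notMem_tsupport hx
  have hP2 : ∀ a : E, ContDiff ℝ ∞ (fun x => dd Psi a x) := fun a =>
    ((((hP.fderiv_right (m := ∞) (by simp)).clm_apply contDiff_const)).fderiv_right
      (by simp)).clm_apply contDiff_const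
  have z2 : ∀ a : E, ∀ x ∉ tsupport Psi, dd Psi a x = 0 := fun a x hx =>
    image_eq_zero_of_notMem_tsupport (f := fun x => dd Psi a x) fun h =>
      hx (((tsupport_fderiv_apply_subset a).trans (tsupport_fderiv_apply_subset a)) h)
  have cG := hG.continuousOn.mono hs
  have cv := hv.continuousOn.mono hs
  have hv1 : ∀ a : E, ContDiffOn ℝ ∞ (fun x => fderiv ℝ v x a) Om := fun a =>
    (hv.fderiv_of_isOpen hO (by simp)).clm_apply contDiffOn_const
  have hv2 : ∀ a : E, ContDiffOn ℝ ∞ (fun x => dd v a x) Om := fun a =>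
    ((hv1 a).fderiv_of_isOpen hO (by simp)).clm_apply contDiffOn_const
  have cP := hP.continuous.continuousOn (s := tsupport Psi)
  have cchi : ContinuousOn (fun x => chi (v x / j)) (tsupport Psi) :=
    hc.continuous.comp_continuousOn (cv.div_const j)
  have cchi' : ContinuousOn (fun x => deriv chi (v x / j)) (tsupport Psi) :=
    ((contDiff_infty_iff_deriv.1 hc).2.continuous).comp_continuousOn (cv.div_const j)
  -- the identity in each direction
  have key : ∀ a : E, ∫ x, Psi x * (deriv chi (v x / j) / j * (fderiv ℝ v x a) ^ 2) ∂μ =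
      ∫ x, dd Psi a x * G x ∂μ - ∫ x, Psi x * (chi (v x / j) * dd v a x) ∂μ := by
    intro a
    rw [← green hO hP hcP hs hG a, ← integral_sub]
    · refine integral_congr_ae (Eventually.of_forall fun x => ?_)
      by_cases hx : x ∈ tsupport Psi
      · simp only
        rw [hGdef, dd_comp hX hd hj.ne' hO hv (hs hx) a]
        ring
      · simp [z0 x hx]
    · have hG2 : ContDiffOn ℝ ∞ (fun x => dd G a x) Om :=
        (((hG.fderiv_of_isOpen hO (m := ∞) (by simp)).clm_apply contDiffOn_const).fderiv_of_isOpen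
          hO (m := ∞) (by simp)).clm_apply contDiffOn_const
      exact integrable_of_cont hK (cP.mul (hG2.continuousOn.mono hs)) fun x hx => by
        simp [z0 x hx]
    · exact integrable_of_cont hK (cP.mul (cchi.mul ((hv2 a).continuousOn.mono hs)))
        fun x hx => by simp [z0 x hx]
  have i1 : ∀ a : E, Integrable (fun x => Psi x * (deriv chi (v x / j) / j *
      (fderiv ℝ v x a) ^ 2)) μ := fun a =>
    integrable_of_cont hK (cP.mul ((cchi'.div_const j).mul (((hv1 a).continuousOn.mono hs).pow 2)))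
      fun x hx => by simp [z0 x hx]
  have i2 : ∀ a : E, Integrable (fun x => dd Psi a x * G x) μ := fun a =>
    integrable_of_cont hK (((hP2 a).continuous.continuousOn).mul cG)
      fun x hx => by simp [z2 a x hx]
  have i3 : ∀ a : E, Integrable (fun x => Psi x * (chi (v x / j) * dd v a x)) μ := fun a =>
    integrable_of_cont hK (cP.mul (cchi.mul ((hv2 a).continuousOn.mono hs)))
      fun x hx => by simp [z0 x hx]
  have e0 : ∫ x, Psi x * (deriv chi (v x / j) / j *
      ((fderiv ℝ v x a) ^ 2 + (fderiv ℝ v x b) ^ 2)) ∂μ =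
      ∫ x, (dd Psi a x + dd Psi b x) * G x ∂μ -
        ∫ x, Psi x * (chi (v x / j) * (dd v a x + dd v b x)) ∂μ := by
    have h1 : ∫ x, Psi x * (deriv chi (v x / j) / j *
        ((fderiv ℝ v x a) ^ 2 + (fderiv ℝ v x b) ^ 2)) ∂μ =
        ∫ x, Psi x * (deriv chi (v x / j) / j * (fderiv ℝ v x a) ^ 2) ∂μ +
        ∫ x, Psi x * (deriv chi (v x / j) / j * (fderiv ℝ v x b) ^ 2) ∂μ := by
      rw [← integral_add (i1 a) (i1 b)]
      refine integral_congr_ae (Eventually.of_forall fun x => ?_)
      simp only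
      ring
    have h2 : ∫ x, (dd Psi a x + dd Psi b x) * G x ∂μ =
        ∫ x, dd Psi a x * G x ∂μ + ∫ x, dd Psi b x * G x ∂μ := by
      rw [← integral_add (i2 a) (i2 b)]
      refine integral_congr_ae (Eventually.of_forall fun x => ?_)
      simp only
      ring
    have h3 : ∫ x, Psi x * (chi (v x / j) * (dd v a x + dd v b x)) ∂μ =
        ∫ x, Psi x * (chi (v x / j) * dd v a x) ∂μ +
        ∫ x, Psi x * (chi (v x / j) * dd v b x) ∂μ := by
      rw [← integral_add (i3 a) (i3 b)]
      refine integral_congr_ae (Eventually.of_forall fun x => ?_)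
      simp only
      ring
    rw [h1, h2, h3, key a, key b]
    ring
  rw [e0]
  -- bound of the first term
  have b1 : ∫ x, (dd Psi a x + dd Psi b x) * G x ∂μ ≤ S * ∫ x in tsupport Psi, |v x| ∂μ := by
    have hi : Integrable (fun x => (dd Psi a x + dd Psi b x) * G x) μ := by
      refine ((i2 a).add (i2 b)).congr (Eventually.of_forall fun x => ?_)
      simp only [Pi.add_apply]
      ring
    have h1 : ∫ x, (dd Psi a x + dd Psi b x) * G x ∂μ =
        ∫ x in tsupport Psi, (dd Psi a x + dd Psi b x) * G x ∂μ := by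
      rw [setIntegral_eq_integral_of_forall_compl_eq_zero]
      intro x hx
      simp [z2 a x hx, z2 b x hx]
    rw [h1, ← integral_const_mul]
    refine setIntegral_mono_on hi.integrableOn ?_ (isClosed_tsupport Psi).measurableSet ?_
    · exact ((continuous_abs.comp_continuousOn cv).integrableOn_compact hK).const_mul S
    · intro x _
      have g1 : |G x| ≤ |v x| := by
        rw [hGdef]
        simp only
        rw [abs_mul, abs_of_pos hj]
        have := hXs (v x / j)
        rw [abs_div, abs_of_pos hj] at this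
        calc j * |X (v x / j)| ≤ j * (|v x| / j) := by gcongr
          _ = |v x| := by field_simp
      calc (dd Psi a x + dd Psi b x) * G x ≤ |(dd Psi a x + dd Psi b x) * G x| := le_abs_self _
        _ = |dd Psi a x + dd Psi b x| * |G x| := abs_mul _ _
        _ ≤ S * |v x| := by
          have hS0 : 0 ≤ S := (abs_nonneg _).trans (hS x)
          exact mul_le_mul (hS x) g1 (abs_nonneg _) hS0
  have b2 : - ∫ x, Psi x * (chi (v x / j) * (dd v a x + dd v b x)) ∂μ ≤ C * ∫ x, Psi x ∂μ := by
    rw [← integral_neg, ← integral_const_mul]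
    refine integral_mono ?_ ?_ ?_
    · refine Integrable.neg ?_
      refine ((i3 a).add (i3 b)).congr (Eventually.of_forall fun x => ?_)
      simp only [Pi.add_apply]
      ring
    · exact (integrable_of_cont hK cP z0).const_mul C
    · intro x
      simp only
      by_cases hx : x ∈ tsupport Psi
      · have h2 := hC x hx
        have h3 := h0 (v x / j)
        have h4 := h1 (v x / j)
        have h5 : -(chi (v x / j) * (dd v a x + dd v b x)) ≤ C := by nlinarith
        have h6 := hP0 x
        nlinarith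
      · simp [z0 x hx]
  linarith

end Cut

end

end Crest.Agent.R281.Mvm_408
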