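import Crest.Agent.R281.Mvm1_408

/-!
# R281 (S0424), MOV (helper625 #7291), mass lemma (M), part 2 (helper408, over Mvm1 only)

Slices.  `R` open in a finite dimensional complex space `E`, `u` smooth on `R`, `psi ≥ 0` a cut-off,
`u` integrable on `R ∩ tsupport psi`, `u_(w w̄) ≥ -C` there, and almost every (short) complex line in
the direction `w` meets `tsupport psi` only in points of `R`.  Then
`∫_R psi · χ'(u/j)/j · (|D_w u|² + |D_(iw) u|²) → 0`.
-/

set_option autoImplicit false
set_option linter.unusedSectionVars false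

open Set Filter Topology MeasureTheory
open scoped ContDiff ENNReal

namespace Crest.Agent.R281.Mvm_408

noncomputable section

section Aff

variable {F G : Type*} [NormedAddCommGroup F] [NormedSpace ℝ F] [NormedAddCommGroup G]
  [NormedSpace ℝ G]

theorem fderiv_aff {f : G → ℝ} (p : G) (A : F →L[ℝ] G) {x : F}
    (hf : DifferentiableAt ℝ f (p + A x)) (c : F) :
    fderiv ℝ (fun y => f (p + A y)) x c = fderiv ℝ f (p + A x) (A c) := by
  have h1 : HasFDerivAt (fun y => p + A y) A x := A.hasFDerivAt.const_add p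
  have h2 := hf.hasFDerivAt.comp x h1
  have h3 : fderiv ℝ (fun y => f (p + A y)) x = (fderiv ℝ f (p + A x)).comp A := h2.fderiv
  rw [h3]
  rfl

theorem dd_aff {f : G → ℝ} {Om : Set G} (hO : IsOpen Om) (hf : ContDiffOn ℝ ∞ f Om) (p : G)
    (A : F →L[ℝ] G) {x : F} (hx : p + A x ∈ Om) (c : F) :
    dd (fun y => f (p + A y)) c x = dd f (A c) (p + A x) := by
  have hf1 : ContDiffOn ℝ ∞ (fun x => fderiv ℝ f x (A c)) Om :=
    (hf.fderiv_of_isOpen hO (by simp)).clm_apply contDiffOn_const
  have hL : Continuous fun y : F => p + A y := by fun_prop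
  have he : (fun y => fderiv ℝ (fun y => f (p + A y)) y c) =ᶠ[𝓝 x]
      fun y => (fun x => fderiv ℝ f x (A c)) (p + A y) := by
    filter_upwards [(hO.preimage hL).mem_nhds hx] with y hy
    exact fderiv_aff p A (((hf.differentiableOn (by simp)) _ hy).differentiableAt
      (hO.mem_nhds hy)) c
  unfold dd
  rw [he.fderiv_eq]
  exact fderiv_aff p A (((hf1.differentiableOn (by simp)) _ hx).differentiableAt
    (hO.mem_nhds hx)) c

end Aff

section Meas

theorem measurable_indicator_of_continuousOn {α β : Type*} [TopologicalSpace α]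
    [MeasurableSpace α] [OpensMeasurableSpace α] [TopologicalSpace β] [MeasurableSpace β]
    [BorelSpace β] [Zero β] {f : α → β} {s : Set α} (hf : ContinuousOn f s)
    (hs : MeasurableSet s) : Measurable (s.indicator f) := by
  classical
  rw [← Set.piecewise_eq_indicator]
  exact ContinuousOn.measurable_piecewise hf continuousOn_const hs

variable {E : Type*} [NormedAddCommGroup E] [NormedSpace ℂ E] [MeasurableSpace E] [BorelSpace E]
  [FiniteDimensional ℂ E] {μ : Measure E} [μ.IsAddHaarMeasure]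

/-- averaging over short translations in the direction `w` -/
theorem lintegral_avg [SigmaFinite μ] {H : E → ℝ≥0∞} (hH : Measurable H) {k : ℂ → ℝ≥0∞}
    (hk : Measurable k) (w : E) :
    ∫⁻ z, (∫⁻ c : ℂ, k c * H (z + c • w)) ∂μ = (∫⁻ c, k c) * ∫⁻ z, H z ∂μ := by
  have hm : Measurable (fun q : E × ℂ => k q.2 * H (q.1 + q.2 • w)) :=
    (hk.comp measurable_snd).mul (hH.comp (by fun_prop))
  rw [lintegral_lintegral_swap hm.aemeasurable]
  have h1 : ∀ c : ℂ, ∫⁻ z, k c * H (z + c • w) ∂μ = k c * ∫⁻ z, H z ∂μ := by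
    intro c
    have h2 : Measurable fun z => H (z + c • w) := hH.comp (measurable_add_const (c • w))
    rw [lintegral_const_mul _ h2, lintegral_add_right_eq_self H (c • w)]
  simp_rw [h1]
  rw [lintegral_mul_const _ hk]

end Meas

section M2

variable {E : Type*} [NormedAddCommGroup E] [NormedSpace ℂ E] [MeasurableSpace E] [BorelSpace E]
  [FiniteDimensional ℂ E] {μ : Measure E} [μ.IsAddHaarMeasure]

/-- the density `psi χ'(u/j)/j (|D_w u|² + |D_(iw) u|²)` -/
def den (chi : ℝ → ℝ) (psi u : E → ℝ) (w : E) (j : ℝ) (z : E) : ℝ :=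
  psi z * (deriv chi (u z / j) / j *
    ((fderiv ℝ u z w) ^ 2 + (fderiv ℝ u z (Complex.I • w)) ^ 2))

/-- the complex line `c ↦ c w` as a real linear map -/
def ln (w : E) : ℂ →L[ℝ] E := (ContinuousLinearMap.toSpanSingleton ℂ w).restrictScalars ℝ

@[simp] theorem ln_apply (w : E) (c : ℂ) : ln w c = c • w := rfl

theorem den_nonneg {chi : ℝ → ℝ} (hm : ∀ s, 0 ≤ deriv chi s) {psi u : E → ℝ}
    (h0 : ∀ z, 0 ≤ psi z) (w : E) {j : ℝ} (hj : 0 ≤ j) (z : E) : 0 ≤ den chi psi u w j z :=
  mul_nonneg (h0 z) (mul_nonneg (div_nonneg (hm _) hj) (by positivity))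

theorem den_continuousOn {chi : ℝ → ℝ} (hc : ContDiff ℝ ∞ chi) {psi u : E → ℝ} {R : Set E}
    (hR : IsOpen R) (hu : ContDiffOn ℝ ∞ u R) (hp : ContDiff ℝ ∞ psi) (w : E) (j : ℝ) :
    ContinuousOn (den chi psi u w j) R := by
  have h1 : ∀ a : E, ContinuousOn (fun x => fderiv ℝ u x a) R := fun a =>
    ((hu.fderiv_of_isOpen hR (m := ∞) (by simp)).clm_apply contDiffOn_const).continuousOn
  have h2 : ContinuousOn (fun x => deriv chi (u x / j)) R :=
    ((contDiff_infty_iff_deriv.1 hc).2.continuous).comp_continuousOn (hu.continuousOn.div_const j)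
  exact hp.continuous.continuousOn.mul ((h2.div_const j).mul (((h1 w).pow 2).add ((h1 _).pow 2)))

/-- the density as a measurable function on the whole space -/
def H (chi : ℝ → ℝ) (psi u : E → ℝ) (R : Set E) (w : E) (j : ℝ) : E → ℝ≥0∞ :=
  R.indicator fun z => ENNReal.ofReal (den chi psi u w j z)

theorem H_meas {chi : ℝ → ℝ} (hc : ContDiff ℝ ∞ chi) {psi u : E → ℝ} {R : Set E}
    (hR : IsOpen R) (hu : ContDiffOn ℝ ∞ u R) (hp : ContDiff ℝ ∞ psi) (w : E) (j : ℝ) :
    Measurable (H chi psi u R w j) := by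
  have h1 : Measurable (R.indicator (den chi psi u w j)) :=
    measurable_indicator_of_continuousOn (den_continuousOn hc hR hu hp w j) hR.measurableSet
  have h2 : H chi psi u R w j = fun z => ENNReal.ofReal (R.indicator (den chi psi u w j) z) := by
    funext z
    unfold H
    by_cases hz : z ∈ R
    · simp [indicator_of_mem hz]
    · simp [indicator_of_notMem hz]
  rw [h2]
  exact ENNReal.measurable_ofReal.comp h1

/-- **(M2)** -/
theorem m2 {chi : ℝ → ℝ} (hc : ContDiff ℝ ∞ chi) (h0 : ∀ s, 0 ≤ chi s) (h1 : ∀ s, chi s ≤ 1)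
    (hm : ∀ s, 0 ≤ deriv chi s) (hd : ∀ s, -1 < s → deriv chi s = 0)
    {R : Set E} (hR : IsOpen R) {u : E → ℝ} (hu : ContDiffOn ℝ ∞ u R)
    {psi : E → ℝ} (hp : ContDiff ℝ ∞ psi) (hp0 : ∀ z, 0 ≤ psi z) (hpc : HasCompactSupport psi)
    (w : E) {C : ℝ} (hC : ∀ z ∈ R ∩ tsupport psi, -C ≤ dd u w z + dd u (Complex.I • w) z)
    (hC0 : 0 ≤ C) (hL : IntegrableOn u (R ∩ tsupport psi) μ) {δ : ℝ} (hδ : 0 < δ)
    (hst : ∀ᵐ z ∂μ, ∀ c : ℂ, ‖c‖ ≤ δ → z + c • w ∈ tsupport psi → z + c • w ∈ R) :
    Tendsto (fun j : ℝ => ∫⁻ z in R, ENNReal.ofReal (den chi psi u w j z) ∂μ) atTop (𝓝 0) := by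
  classical
  set T := tsupport psi with hT
  have hTc : IsCompact T := hpc
  -- the weight
  let bmp : ContDiffBump (0 : ℂ) := ⟨δ / 2, δ, by positivity, by linarith⟩
  set ρ : ℂ → ℝ := bmp.normed volume with hρ
  have ρ0 : ∀ c, 0 ≤ ρ c := fun c => bmp.nonneg_normed c
  have ρs : ContDiff ℝ ∞ ρ := bmp.contDiff_normed
  have ρi : ∫ c, ρ c = 1 := bmp.integral_normed
  have ρt : tsupport ρ = Metric.closedBall 0 δ := bmp.tsupport_normed_eq
  have ρz : ∀ c, δ < ‖c‖ → ρ c = 0 := fun c hc => by
    apply image_eq_zero_of_notMem_tsupport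
    rw [ρt]
    simpa using hc
  have ρc : HasCompactSupport ρ := by
    unfold HasCompactSupport
    rw [ρt]
    exact isCompact_closedBall _ _
  have ρint : Integrable ρ := ρs.continuous.integrable_of_hasCompactSupport ρc
  have ρl : ∫⁻ c, ENNReal.ofReal (ρ c) = 1 := by
    rw [← ofReal_integral_eq_lintegral_ofReal ρint (Eventually.of_forall ρ0), ρi]
    simp
  -- the joint cut-off
  set P : E × ℂ → ℝ := fun q => ρ q.2 * psi (q.1 + q.2 • w) with hPdef
  have Ps : ContDiff ℝ ∞ P := by
    refine (ρs.comp contDiff_snd).mul (hp.comp ?_)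
    have : ContDiff ℝ ∞ fun q : E × ℂ => q.1 + ln w q.2 :=
      contDiff_fst.add ((ln w).contDiff.comp contDiff_snd)
    exact this
  have Pc : HasCompactSupport P := by
    have hKc : IsCompact ((fun q : E × ℂ => (q.1 - q.2 • w, q.2)) ''
        (T ×ˢ Metric.closedBall 0 δ)) :=
      (hTc.prod (isCompact_closedBall _ _)).image (by fun_prop)
    refine HasCompactSupport.intro hKc fun q hq => ?_
    by_contra hne
    apply hq
    have h2 : ρ q.2 ≠ 0 := fun h => hne (by simp [hPdef, h])
    have h3 : psi (q.1 + q.2 • w) ≠ 0 := fun h => hne (by simp [hPdef, h])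
    refine ⟨(q.1 + q.2 • w, q.2), ⟨subset_tsupport _ h3, ?_⟩, by simp⟩
    have := subset_tsupport _ h2
    rwa [ρt] at this
  -- bound of the second derivatives of the cut-off in the line variable
  have Pdd : ∀ c : ℂ, ∃ S, ∀ q, |dd P ((0 : E), c) q| ≤ S := by
    intro c
    have s1 : ContDiff ℝ ∞ (fun x => dd P ((0 : E), c) x) :=
      ((((Ps.fderiv_right (m := ∞) (by simp)).clm_apply contDiff_const)).fderiv_right
        (by simp)).clm_apply contDiff_const
    have s2 : HasCompactSupport (fun x => dd P ((0 : E), c) x) :=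
      Pc.mono' ((subset_tsupport _).trans
        ((tsupport_fderiv_apply_subset _).trans (tsupport_fderiv_apply_subset _)))
    obtain ⟨S, hS⟩ := s1.continuous.bounded_above_of_compact_support s2
    exact ⟨S, fun q => by simpa using hS q⟩
  obtain ⟨S1, hS1⟩ := Pdd 1
  obtain ⟨S2, hS2⟩ := Pdd Complex.I
  set S := S1 + S2 with hSdef
  have : ProperSpace E := FiniteDimensional.proper ℂ E
  -- the dominating function
  set N : E → ℝ≥0∞ := (R ∩ T).indicator fun z => ‖u z‖ₑ with hN
  have hRT : MeasurableSet (R ∩ T) := hR.measurableSet.inter (isClosed_tsupport psi).measurableSet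
  have Nm : Measurable N := by
    have h2 : Measurable ((R ∩ T).indicator u) :=
      measurable_indicator_of_continuousOn (hu.continuousOn.mono inter_subset_left) hRT
    have h3 : N = fun z => ‖(R ∩ T).indicator u z‖ₑ := by
      funext z
      by_cases hz : z ∈ R ∩ T
      · simp only [hN, indicator_of_mem hz]
      · simp only [hN, indicator_of_notMem hz]; simp
    rw [h3]
    exact h2.enorm
  have Nfin : ∫⁻ z, N z ∂μ ≠ (⊤ : ℝ≥0∞) := by
    rw [hN, lintegral_indicator hRT]
    exact hL.2.ne
  set kρ : ℂ → ℝ≥0∞ := fun c => ENNReal.ofReal (ρ c) with hkρ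
  have kρm : Measurable kρ := ENNReal.measurable_ofReal.comp ρs.continuous.measurable
  set kB : ℂ → ℝ≥0∞ := (Metric.closedBall (0 : ℂ) δ).indicator 1 with hkB
  have kBm : Measurable kB := measurable_one.indicator measurableSet_closedBall
  have psim : Measurable fun z => ENNReal.ofReal (psi z) :=
    ENNReal.measurable_ofReal.comp hp.continuous.measurable
  set g : E → ℝ≥0∞ := fun z => ENNReal.ofReal S * (∫⁻ c, kB c * N (z + c • w)) +
    ENNReal.ofReal C * ∫⁻ c, kρ c * ENNReal.ofReal (psi (z + c • w)) with hg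
  have gm1 : Measurable fun z => ∫⁻ c, kB c * N (z + c • w) := by
    have : Measurable (fun q : E × ℂ => kB q.2 * N (q.1 + q.2 • w)) :=
      (kBm.comp measurable_snd).mul (Nm.comp (by fun_prop))
    exact this.lintegral_prod_right'
  have gm2 : Measurable fun z => ∫⁻ c, kρ c * ENNReal.ofReal (psi (z + c • w)) := by
    have : Measurable (fun q : E × ℂ => kρ q.2 * (fun z => ENNReal.ofReal (psi z))
        (q.1 + q.2 • w)) :=
      (kρm.comp measurable_snd).mul (psim.comp (by fun_prop))
    exact this.lintegral_prod_right'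
  have gfin : ∫⁻ z, g z ∂μ ≠ (⊤ : ℝ≥0∞) := by
    rw [hg, lintegral_add_left (gm1.const_mul _), lintegral_const_mul _ gm1,
      lintegral_const_mul _ gm2, lintegral_avg Nm kBm w,
      lintegral_avg (H := fun z => ENNReal.ofReal (psi z)) psim kρm w]
    have hB : ∫⁻ c, kB c ≠ (⊤ : ℝ≥0∞) := by
      rw [hkB, lintegral_indicator measurableSet_closedBall]
      simp only [Pi.one_apply, lintegral_const, MeasurableSet.univ, Measure.restrict_apply,
        univ_inter, one_mul]
      exact (isCompact_closedBall _ _).measure_lt_top.ne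
    have hpsi : ∫⁻ z, ENNReal.ofReal (psi z) ∂μ ≠ (⊤ : ℝ≥0∞) := by
      have := (hp.continuous.integrable_of_hasCompactSupport (μ := μ) hpc)
      rw [← ofReal_integral_eq_lintegral_ofReal this (Eventually.of_forall hp0)]
      exact ENNReal.ofReal_ne_top
    have hk1 : ∫⁻ c, kρ c = 1 := ρl
    rw [hk1, one_mul]
    exact ENNReal.add_ne_top.2 ⟨ENNReal.mul_ne_top ENNReal.ofReal_ne_top
      (ENNReal.mul_ne_top hB Nfin), ENNReal.mul_ne_top ENNReal.ofReal_ne_top hpsi⟩
  -- the slice integrals
  set J : ℝ → E → ℝ≥0∞ := fun j z => ∫⁻ c, kρ c * H chi psi u R w j (z + c • w) with hJ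
  have Jm : ∀ j, Measurable (J j) := by
    intro j
    have : Measurable (fun q : E × ℂ => kρ q.2 * H chi psi u R w j (q.1 + q.2 • w)) :=
      (kρm.comp measurable_snd).mul ((H_meas hc hR hu hp w j).comp (by fun_prop))
    exact this.lintegral_prod_right'
  have Je : ∀ j, ∫⁻ z, J j z ∂μ = ∫⁻ z in R, ENNReal.ofReal (den chi psi u w j z) ∂μ := by
    intro j
    have h2 := lintegral_avg (μ := μ) (H_meas hc hR hu hp w j) kρm w
    have hk1 : ∫⁻ c, kρ c = 1 := ρl
    rw [hk1, one_mul] at h2
    rw [hJ]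
    simp only
    rw [h2]
    unfold H
    rw [lintegral_indicator hR.measurableSet]
  -- facts on a good line
  have hgood : ∀ᵐ z ∂μ, ∀ j : ℝ, 0 < j →
      J j z = ∫⁻ c, ENNReal.ofReal (P (z, c) * (deriv chi (u (z + ln w c) / j) / j *
        ((fderiv ℝ (fun c => u (z + ln w c)) c 1) ^ 2 +
         (fderiv ℝ (fun c => u (z + ln w c)) c Complex.I) ^ 2))) := by
    filter_upwards [hst] with z hz j hj
    rw [hJ]
    simp only
    refine lintegral_congr fun c => ?_
    by_cases hR' : z + c • w ∈ R
    · have hdu : DifferentiableAt ℝ u (z + ln w c) :=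
        ((hu.differentiableOn (by simp)) _ hR').differentiableAt (hR.mem_nhds hR')
      rw [fderiv_aff z (ln w) hdu, fderiv_aff z (ln w) hdu]
      simp only [H, indicator_of_mem hR', hkρ, ln_apply, one_smul, hPdef]
      rw [← ENNReal.ofReal_mul (ρ0 c)]
      congr 1
      unfold den
      ring
    · have hP0 : P (z, c) = 0 := by
        by_cases h2 : ‖c‖ ≤ δ
        · have h3 : z + c • w ∉ T := fun h => hR' (hz c h2 h)
          simp [hPdef, image_eq_zero_of_notMem_tsupport h3]
        · simp [hPdef, ρz c (not_le.1 h2)]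
      simp [H, indicator_of_notMem hR', hP0]
  -- the compact piece of the line
  have hKc : ∀ z : E, IsCompact (Metric.closedBall (0 : ℂ) δ ∩ {c | z + ln w c ∈ T}) := fun z =>
    (isCompact_closedBall _ _).inter_right
      ((isClosed_tsupport psi).preimage (by fun_prop : Continuous fun c : ℂ => z + ln w c))
  have hPK : ∀ z : E, ∀ c ∉ Metric.closedBall (0 : ℂ) δ ∩ {c | z + ln w c ∈ T},
      P (z, c) = 0 := by
    intro z c hc'
    by_contra hne
    apply hc'
    have h2 : ρ c ≠ 0 := fun h => hne (by simp [hPdef, h])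
    have h3 : psi (z + c • w) ≠ 0 := fun h => hne (by simp [hPdef, h])
    refine ⟨?_, subset_tsupport _ h3⟩
    have := subset_tsupport _ h2
    rwa [ρt] at this
  have hbound : ∀ j : ℝ, 0 < j → ∀ᵐ z ∂μ, J j z ≤ g z := by
    intro j hj
    filter_upwards [hst, hgood] with z hz hz2
    rw [hz2 j hj]
    set v : ℂ → ℝ := fun c => u (z + ln w c) with hv
    set Om : Set ℂ := (fun c => z + ln w c) ⁻¹' R with hOm
    have hlc : Continuous fun c : ℂ => z + ln w c := by fun_prop
    have hls : ContDiff ℝ ∞ fun c : ℂ => z + ln w c := contDiff_const.add (ln w).contDiff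
    have hO : IsOpen Om := hR.preimage hlc
    have hvs : ContDiffOn ℝ ∞ v Om := hu.comp hls.contDiffOn fun c hc' => hc'
    set Psi : ℂ → ℝ := fun c => P (z, c) with hPsi
    have hPs : ContDiff ℝ ∞ Psi := Ps.comp (contDiff_const.prodMk contDiff_id)
    have hP0 : ∀ c, 0 ≤ Psi c := fun c => mul_nonneg (ρ0 c) (hp0 _)
    have hts : tsupport Psi ⊆ Metric.closedBall (0 : ℂ) δ ∩ {c | z + ln w c ∈ T} := by
      refine closure_minimal ?_ (hKc z).isClosed
      intro c hc'
      by_contra h
      exact hc' (hPK z c h)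
    have hcP : HasCompactSupport Psi :=
      (hKc z).of_isClosed_subset (isClosed_tsupport _) hts
    have hs : tsupport Psi ⊆ Om := fun c hc' => hz c (by simpa using (hts hc').1) (hts hc').2
    have hddP : ∀ a c : ℂ, dd Psi a c = dd P ((0 : E), a) (z, c) := by
      intro a c
      have h2 := dd_aff (f := P) isOpen_univ Ps.contDiffOn (z, (0 : ℂ))
        (ContinuousLinearMap.inr ℝ E ℂ) (x := c) (mem_univ _) a
      simpa [hPsi] using h2
    have hS : ∀ c, |dd Psi 1 c + dd Psi Complex.I c| ≤ S := by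
      intro c
      rw [hddP, hddP]
      exact (abs_add_le _ _).trans (add_le_add (hS1 _) (hS2 _))
    have hS0 : 0 ≤ S := (abs_nonneg _).trans (hS 0)
    have hCv : ∀ c ∈ tsupport Psi, -C ≤ dd v 1 c + dd v Complex.I c := by
      intro c hc'
      have h2 := dd_aff (f := u) hR hu z (ln w) (x := c) (hs hc') 1
      have h3 := dd_aff (f := u) hR hu z (ln w) (x := c) (hs hc') Complex.I
      rw [hv, h2, h3]
      simp only [ln_apply, one_smul]
      exact hC _ ⟨hs hc', (hts hc').2⟩
    have hm1 := m1 (μ := (volume : Measure ℂ)) hc h0 h1 hj hO hvs hPs hP0 hcP hs 1 Complex.I hS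
      hCv hC0
    have hv1 : ∀ a : ℂ, ContinuousOn (fun x => fderiv ℝ v x a) Om := fun a =>
      ((hvs.fderiv_of_isOpen hO (m := ∞) (by simp)).clm_apply contDiffOn_const).continuousOn
    have hchi : ContinuousOn (fun x => deriv chi (v x / j)) Om :=
      ((contDiff_infty_iff_deriv.1 hc).2.continuous).comp_continuousOn
        (hvs.continuousOn.div_const j)
    have hint : Integrable (fun c => Psi c * (deriv chi (v c / j) / j *
        ((fderiv ℝ v c 1) ^ 2 + (fderiv ℝ v c Complex.I) ^ 2))) := by
      refine integrable_of_cont hcP (K := tsupport Psi) ?_ fun c hc' => ?_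
      · exact (hPs.continuous.continuousOn.mul ((hchi.div_const j).mul
          (((hv1 1).pow 2).add ((hv1 _).pow 2)))).mono hs
      · simp [image_eq_zero_of_notMem_tsupport hc']
    have hnn : ∀ c, 0 ≤ Psi c * (deriv chi (v c / j) / j *
        ((fderiv ℝ v c 1) ^ 2 + (fderiv ℝ v c Complex.I) ^ 2)) := fun c =>
      mul_nonneg (hP0 c) (mul_nonneg (div_nonneg (hm _) hj.le) (by positivity))
    rw [← ofReal_integral_eq_lintegral_ofReal hint (Eventually.of_forall hnn)]
    have hA0 : 0 ≤ ∫ c in tsupport Psi, |v c| := integral_nonneg fun c => abs_nonneg _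
    have hB0 : 0 ≤ ∫ c, Psi c := integral_nonneg hP0
    refine (ENNReal.ofReal_le_ofReal hm1).trans ?_
    rw [ENNReal.ofReal_add (mul_nonneg hS0 hA0) (mul_nonneg hC0 hB0),
      ENNReal.ofReal_mul hS0, ENNReal.ofReal_mul hC0, hg]
    simp only
    gcongr
    · have hvi : IntegrableOn (fun c => |v c|) (tsupport Psi) volume :=
        (continuous_abs.comp_continuousOn (hvs.continuousOn.mono hs)).integrableOn_compact hcP
      rw [ofReal_integral_eq_lintegral_ofReal hvi (Eventually.of_forall fun c => abs_nonneg _),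
        ← lintegral_indicator (isClosed_tsupport _).measurableSet]
      refine lintegral_mono fun c => ?_
      by_cases hc' : c ∈ tsupport Psi
      · have h3 := hts hc'
        have h4 : z + c • w ∈ R ∩ T := ⟨hs hc', h3.2⟩
        simp only [indicator_of_mem hc', hkB, indicator_of_mem h3.1, hN, indicator_of_mem h4,
          Pi.one_apply, one_mul]
        rw [Real.enorm_eq_ofReal_abs]
        simp [hv]
      · simp [indicator_of_notMem hc']
    · have hPi : Integrable Psi := hPs.continuous.integrable_of_hasCompactSupport hcP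
      rw [ofReal_integral_eq_lintegral_ofReal hPi (Eventually.of_forall hP0)]
      refine lintegral_mono fun c => ?_
      simp only [hPsi, hPdef, hkρ]
      rw [ENNReal.ofReal_mul (ρ0 c)]
  have hlim : ∀ᵐ z ∂μ, Tendsto (fun j => J j z) atTop (𝓝 0) := by
    filter_upwards [hst, hgood] with z hz hz2
    have hvc : ContinuousOn (fun c : ℂ => u (z + ln w c))
        (Metric.closedBall (0 : ℂ) δ ∩ {c | z + ln w c ∈ T}) := by
      refine hu.continuousOn.comp (by fun_prop) fun c hc' => ?_
      exact hz c (by simpa using hc'.1) hc'.2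
    obtain ⟨m, hmb⟩ := (hKc z).exists_bound_of_continuousOn hvc
    refine tendsto_const_nhds.congr' ?_
    filter_upwards [eventually_gt_atTop (max m 0)] with j hj
    have hj0 : 0 < j := (le_max_right m 0).trans_lt hj
    have hjm : m < j := (le_max_left m 0).trans_lt hj
    rw [hz2 j hj0]
    symm
    have h5 : (fun c => ENNReal.ofReal (P (z, c) * (deriv chi (u (z + ln w c) / j) / j *
        ((fderiv ℝ (fun c => u (z + ln w c)) c 1) ^ 2 +
         (fderiv ℝ (fun c => u (z + ln w c)) c Complex.I) ^ 2)))) = fun _ : ℂ => (0 : ℝ≥0∞) := by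
      funext c
      by_cases hc' : c ∈ Metric.closedBall (0 : ℂ) δ ∩ {c | z + ln w c ∈ T}
      · have h2 := hmb c hc'
        rw [Real.norm_eq_abs] at h2
        have h3 : -1 < u (z + ln w c) / j := by
          rw [lt_div_iff₀ hj0]
          have := neg_abs_le (u (z + ln w c))
          linarith
        rw [hd _ h3]
        simp
      · rw [hPK z c hc']
        simp
    rw [h5]
    simp
  have hfin := tendsto_lintegral_filter_of_dominated_convergence (μ := μ) (l := atTop) (F := J)
    (f := fun _ => 0) g (Eventually.of_forall Jm)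
    ((eventually_gt_atTop (0 : ℝ)).mono fun j hj => hbound j hj) gfin hlim
  simp only [lintegral_zero] at hfin
  refine hfin.congr fun j => Je j

end M2

end

end Crest.Agent.R281.Mvm_408
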