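import Crest.Agent.R281.Mvm2_408
import Crest.Agent.R271.Null_821

/-!
# R281 (S0424), MOV (helper625 #7291), mass lemma (M), part 3 (helper408)

(M0) `log ‖f‖` is locally integrable for `f` analytic and not identically zero (circle averages and
translations).
-/

set_option autoImplicit false
set_option linter.unusedSectionVars false

open Set Filter Topology MeasureTheory Metric
open scoped ContDiff ENNReal

namespace Crest.Agent.R281.Mvm_408

noncomputable section

/-- Jensen's inequality on a circle -/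
theorem jensen_le {g : ℂ → ℂ} (hg : AnalyticOnNhd ℂ g (closedBall 0 1)) (h0 : g 0 ≠ 0) :
    Real.log ‖g 0‖ ≤ Real.circleAverage (fun z => Real.log ‖g z‖) 0 1 := by
  have h2 : AnalyticOnNhd ℂ g (closedBall 0 |1|) := by rwa [abs_one]
  have h := AnalyticOnNhd.circleAverage_log_norm (c := 0) (R := 1) (f := g) one_ne_zero h2 h0
  rw [h]
  have h1 : 0 ≤ ∑ᶠ u, (MeromorphicOn.divisor g (closedBall 0 |1|) u : ℝ) *
      Real.log (1 * ‖(0 : ℂ) - u‖⁻¹) := by
    refine finsum_nonneg fun u => ?_
    by_cases hu : u ∈ closedBall (0 : ℂ) |1|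
    · refine mul_nonneg (mod_cast MeromorphicOn.AnalyticOnNhd.divisor_nonneg h2 u) ?_
      rw [one_mul, zero_sub, norm_neg]
      rcases eq_or_ne u 0 with rfl | hne
      · simp
      · refine Real.log_nonneg ?_
        have h3 : ‖u‖ ≤ 1 := by simpa using hu
        exact (one_le_inv₀ (norm_pos_iff.2 hne)).2 h3
    · have : MeromorphicOn.divisor g (closedBall 0 |1|) u = 0 :=
        Function.locallyFinsuppWithin.apply_eq_zero_of_notMem _ hu
      simp [this]
  linarith

section

variable {E : Type*} [NormedAddCommGroup E] [NormedSpace ℂ E] [MeasurableSpace E] [BorelSpace E]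
  [FiniteDimensional ℂ E] {μ : Measure E} [μ.IsAddHaarMeasure]

set_option maxHeartbeats 1000000 in
/-- **(M0)** -/
theorem log_integrable {f : E → ℂ} {p : E} {r : ℝ} (hr : 0 < r)
    (hf : AnalyticOnNhd ℂ f (ball p r)) {z₁ : E} (hz₁ : z₁ ∈ ball p r) (hne : f z₁ ≠ 0) :
    ∃ r' : ℝ, 0 < r' ∧ r' ≤ r ∧
      IntegrableOn (fun z => Real.log ‖f z‖) (ball p r') μ := by
  have : ProperSpace E := FiniteDimensional.proper ℂ E
  have hnull := Crest.Agent.R271.Local821.null_zero_ball μ hf hz₁ hne
  -- a point `q` near `p` with `f q ≠ 0`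
  obtain ⟨q, hq, hfq⟩ : ∃ q ∈ ball p (r / 8), f q ≠ 0 := by
    by_contra hcon
    push Not at hcon
    have h1 : ball p (r / 8) ⊆ {z ∈ ball p r | f z = 0} := fun z hz =>
      ⟨ball_subset_ball (by linarith) hz, hcon z hz⟩
    have h2 : μ (ball p (r / 8)) = 0 := measure_mono_null h1 hnull
    exact (measure_ball_pos μ p (by positivity)).ne' h2
  set w : E := p - q with hw
  have hwn : ‖w‖ < r / 8 := by
    rw [hw, ← dist_eq_norm, dist_comm]
    exact hq
  -- a small ball around `q` on which `‖f‖ ≥ c`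
  have hqr : q ∈ ball p r := ball_subset_ball (by linarith) hq
  have hfc : ContinuousOn f (ball p r) := hf.continuousOn
  obtain ⟨ρ, hρ, hρr, hρc⟩ : ∃ ρ : ℝ, 0 < ρ ∧ ρ ≤ r / 8 ∧
      ∀ z ∈ ball q ρ, ‖f q‖ / 2 ≤ ‖f z‖ := by
    have h1 : ∀ᶠ z in 𝓝 q, ‖f q‖ / 2 < ‖f z‖ := by
      have h2 : ContinuousAt (fun z => ‖f z‖) q :=
        (hfc.continuousAt (isOpen_ball.mem_nhds hqr)).norm
      exact h2.eventually_const_lt (by linarith [norm_pos_iff.2 hfq])
    obtain ⟨ε, hε, hb⟩ := Metric.eventually_nhds_iff_ball.1 h1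
    exact ⟨min ε (r / 8), by positivity, min_le_right _ _, fun z hz =>
      (hb z (ball_subset_ball (min_le_left _ _) hz)).le⟩
  set c : ℝ := ‖f q‖ / 2 with hc
  have hc0 : 0 < c := by rw [hc]; linarith [norm_pos_iff.2 hfq]
  -- a bound `M ≥ 1` of `‖f‖` on the closed ball of radius `r/2`
  obtain ⟨M', hM'⟩ := (isCompact_closedBall p (r / 2)).exists_bound_of_continuousOn
    (hfc.mono (closedBall_subset_ball (by linarith)))
  set M : ℝ := max M' 1 with hM
  have hM1 : 1 ≤ M := le_max_right _ _
  have hMb : ∀ z ∈ closedBall p (r / 2), ‖f z‖ ≤ M := fun z hz => (hM' z hz).trans (le_max_left _ _)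
  have hlogM : ∀ z ∈ closedBall p (r / 2), Real.log ‖f z‖ ≤ Real.log M := by
    intro z hz
    rcases eq_or_ne (f z) 0 with h0 | h0
    · rw [h0, norm_zero, Real.log_zero]
      exact Real.log_nonneg hM1
    · exact Real.log_le_log (norm_pos_iff.2 h0) (hMb z hz)
  -- the measurable function
  set F : E → ℂ := (ball p r).indicator f with hF
  have hFm : Measurable F := measurable_indicator_of_continuousOn hfc measurableSet_ball
  set h : E → ℝ≥0∞ := fun z => ENNReal.ofReal (Real.log M - Real.log ‖F z‖) with hh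
  have hhm : Measurable h := by
    have : Measurable fun z => Real.log M - Real.log ‖F z‖ :=
      (Real.measurable_log.comp hFm.norm).const_sub _
    exact ENNReal.measurable_ofReal.comp this
  have hFf : ∀ z ∈ ball p r, F z = f z := fun z hz => indicator_of_mem hz _
  -- points on the circles stay in the closed ball of radius r/2
  have hin : ∀ z ∈ ball q ρ, ∀ ζ : ℂ, ‖ζ‖ ≤ 1 → z + ζ • w ∈ closedBall p (r / 2) := by
    intro z hz ζ hζ
    have h1 : ‖z - q‖ < ρ := by simpa [dist_eq_norm] using hz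
    have h2 : ‖q - p‖ < r / 8 := by simpa [dist_eq_norm] using hq
    have h3 : z + ζ • w - p = (z - q) + (q - p) + ζ • w := by abel
    rw [mem_closedBall, dist_eq_norm, h3]
    calc ‖(z - q) + (q - p) + ζ • w‖ ≤ ‖z - q‖ + ‖q - p‖ + ‖ζ • w‖ := norm_add₃_le
      _ ≤ r / 8 + r / 8 + 1 * (r / 8) := by
        rw [norm_smul]
        gcongr
        exact h1.le.trans hρr
      _ ≤ r / 2 := by linarith
  -- circle averages
  have hcirc : ∀ z ∈ ball q ρ, ∫⁻ θ in Ioc (0:ℝ) (2 * Real.pi), h (z + circleMap 0 1 θ • w) ≤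
      ENNReal.ofReal (2 * Real.pi * (Real.log M - Real.log c)) := by
    intro z hz
    set g : ℂ → ℂ := fun ζ => f (z + ζ • w) with hg
    have hga : AnalyticOnNhd ℂ g (closedBall 0 1) := by
      intro ζ hζ
      have h1 : z + ζ • w ∈ ball p r := closedBall_subset_ball (by linarith)
        (hin z hz ζ (by simpa using hζ))
      have h2 : AnalyticAt ℂ (fun ζ : ℂ => z + ζ • w) ζ := by
        fun_prop
      exact (hf _ h1).comp_of_eq h2 rfl
    have hg0 : g 0 = f z := by simp [hg]
    have hfz : c ≤ ‖f z‖ := hρc z hz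
    have hg0' : g 0 ≠ 0 := by
      rw [hg0]
      exact norm_pos_iff.1 (hc0.trans_le hfz)
    have hJ := jensen_le hga hg0'
    have hci : CircleIntegrable (fun ζ => Real.log ‖g ζ‖) 0 1 := by
      have h2 : AnalyticOnNhd ℂ g (sphere 0 |1|) := by
        rw [abs_one]
        exact hga.mono sphere_subset_closedBall
      exact h2.meromorphicOn.circleIntegrable_log_norm
    have hci' : IntervalIntegrable (fun θ => Real.log ‖g (circleMap 0 1 θ)‖) volume 0
        (2 * Real.pi) := hci
    have hii : IntegrableOn (fun θ => Real.log ‖g (circleMap 0 1 θ)‖) (Ioc 0 (2 * Real.pi))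
        volume := (intervalIntegrable_iff_integrableOn_Ioc_of_le Real.two_pi_pos.le).1 hci'
    have hJ2 : 2 * Real.pi * Real.log ‖f z‖ ≤
        ∫ θ in Ioc (0:ℝ) (2 * Real.pi), Real.log ‖g (circleMap 0 1 θ)‖ := by
      rw [Real.circleAverage_def, intervalIntegral.integral_of_le Real.two_pi_pos.le, hg0,
        smul_eq_mul] at hJ
      have := mul_le_mul_of_nonneg_left hJ Real.two_pi_pos.le
      rwa [← mul_assoc, mul_inv_cancel₀ Real.two_pi_pos.ne', one_mul] at this
    have heq : ∀ θ : ℝ, F (z + circleMap 0 1 θ • w) = g (circleMap 0 1 θ) := by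
      intro θ
      have h1 : z + circleMap 0 1 θ • w ∈ closedBall p (r / 2) :=
        hin z hz _ (by simp)
      rw [hFf _ (closedBall_subset_ball (by linarith) h1)]
    have hnn : ∀ θ : ℝ, 0 ≤ Real.log M - Real.log ‖g (circleMap 0 1 θ)‖ := by
      intro θ
      have h1 : z + circleMap 0 1 θ • w ∈ closedBall p (r / 2) :=
        hin z hz _ (by simp)
      have := hlogM _ h1
      simp only [hg]
      linarith
    have hint : Integrable (fun θ => Real.log M - Real.log ‖g (circleMap 0 1 θ)‖)
        (volume.restrict (Ioc 0 (2 * Real.pi))) := (integrable_const _).sub hii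
    calc ∫⁻ θ in Ioc (0:ℝ) (2 * Real.pi), h (z + circleMap 0 1 θ • w)
        = ∫⁻ θ in Ioc (0:ℝ) (2 * Real.pi), ENNReal.ofReal
            (Real.log M - Real.log ‖g (circleMap 0 1 θ)‖) := by
          refine lintegral_congr fun θ => ?_
          simp only [hh, heq]
      _ = ENNReal.ofReal (∫ θ in Ioc (0:ℝ) (2 * Real.pi),
            (Real.log M - Real.log ‖g (circleMap 0 1 θ)‖)) := by
          rw [ofReal_integral_eq_lintegral_ofReal hint (Eventually.of_forall hnn)]
      _ ≤ ENNReal.ofReal (2 * Real.pi * (Real.log M - Real.log c)) := by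
          refine ENNReal.ofReal_le_ofReal ?_
          rw [integral_sub (integrable_const _) hii, integral_const]
          have h5 : (volume.restrict (Ioc 0 (2 * Real.pi))).real univ = 2 * Real.pi := by
            rw [measureReal_restrict_apply MeasurableSet.univ, univ_inter,
              Real.volume_real_Ioc_of_le Real.two_pi_pos.le]
            ring
          rw [h5, smul_eq_mul]
          have h6 : Real.log c ≤ Real.log ‖f z‖ := Real.log_le_log hc0 hfz
          have h7 : 2 * Real.pi * Real.log c ≤ 2 * Real.pi * Real.log ‖f z‖ :=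
            mul_le_mul_of_nonneg_left h6 Real.two_pi_pos.le
          linarith
  -- Tonelli
  have hjc : Continuous fun x : ℝ × E => x.2 + circleMap 0 1 x.1 • w :=
    continuous_snd.add (((continuous_circleMap (0:ℂ) 1).comp continuous_fst).smul continuous_const)
  have hjm : Measurable (fun x : ℝ × E => h (x.2 + circleMap 0 1 x.1 • w)) :=
    hhm.comp hjc.measurable
  have hT : ∫⁻ θ in Ioc (0:ℝ) (2 * Real.pi), (∫⁻ z in ball q ρ, h (z + circleMap 0 1 θ • w) ∂μ)
      < ⊤ := by
    rw [lintegral_lintegral_swap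
      (f := fun (θ : ℝ) (z : E) => h (z + circleMap 0 1 θ • w)) hjm.aemeasurable]
    calc ∫⁻ z in ball q ρ, (∫⁻ θ in Ioc (0:ℝ) (2 * Real.pi), h (z + circleMap 0 1 θ • w)) ∂μ
        ≤ ∫⁻ z in ball q ρ, ENNReal.ofReal (2 * Real.pi * (Real.log M - Real.log c)) ∂μ :=
          setLIntegral_mono measurable_const hcirc
      _ < ⊤ := by
          rw [lintegral_const, Measure.restrict_apply MeasurableSet.univ, univ_inter]
          exact ENNReal.mul_lt_top ENNReal.ofReal_lt_top measure_ball_lt_top
  have hTm : Measurable fun θ : ℝ => ∫⁻ z in ball q ρ, h (z + circleMap 0 1 θ • w) ∂μ :=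
    hjm.lintegral_prod_right'
  have hae := ae_lt_top hTm hT.ne
  -- a small angle
  obtain ⟨η, hη, hη1⟩ : ∃ η : ℝ, 0 < η ∧ ∀ θ : ℝ, |θ| < η →
      ‖(circleMap 0 1 θ - 1) • w‖ < ρ / 2 := by
    have h1 : ContinuousAt (fun θ : ℝ => ‖(circleMap 0 1 θ - 1) • w‖) 0 := by
      have := continuous_circleMap (0:ℂ) 1
      fun_prop
    have h2 : ‖(circleMap 0 1 (0:ℝ) - 1) • w‖ < ρ / 2 := by
      simp [circleMap]
      positivity
    obtain ⟨η, hη, hb⟩ := Metric.eventually_nhds_iff.1 (h1.eventually_lt_const h2)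
    exact ⟨η, hη, fun θ hθ => hb (by simpa [Real.dist_eq] using hθ)⟩
  obtain ⟨θ, hθ1, hθ2⟩ : ∃ θ : ℝ, |θ| < η ∧
      ∫⁻ z in ball q ρ, h (z + circleMap 0 1 θ • w) ∂μ < ⊤ := by
    rw [ae_restrict_iff' measurableSet_Ioc] at hae
    set m : ℝ := min η (2 * Real.pi) with hm
    have hm0 : 0 < m := lt_min hη Real.two_pi_pos
    by_contra hcon
    push Not at hcon
    have h1 : Ioo (0:ℝ) m ⊆ {θ | ¬ (θ ∈ Ioc 0 (2 * Real.pi) →
        ∫⁻ z in ball q ρ, h (z + circleMap 0 1 θ • w) ∂μ < ⊤)} := by
      intro θ hθ hcon2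
      have h3 := hcon2 ⟨hθ.1, (hθ.2.trans_le (min_le_right _ _)).le⟩
      have h4 := hcon θ (by
        rw [abs_of_pos hθ.1]
        exact hθ.2.trans_le (min_le_left _ _))
      exact absurd h3 (not_lt.2 h4)
    have h2 := measure_mono_null h1 (ae_iff.1 hae)
    rw [Real.volume_Ioo] at h2
    have : 0 < ENNReal.ofReal (m - 0) := ENNReal.ofReal_pos.2 (by linarith)
    exact this.ne' h2
  -- conclusion
  set a : E := circleMap 0 1 θ • w with ha
  have hsub : ball p (ρ / 2) ⊆ ball (q + a) ρ := by
    intro z hz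
    rw [mem_ball, dist_eq_norm] at hz ⊢
    have h1 : z - (q + a) = (z - p) - (circleMap 0 1 θ - 1) • w := by
      rw [sub_smul, one_smul, ← ha, hw]
      abel
    rw [h1]
    calc ‖(z - p) - (circleMap 0 1 θ - 1) • w‖ ≤ ‖z - p‖ + ‖(circleMap 0 1 θ - 1) • w‖ :=
          norm_sub_le _ _
      _ < ρ / 2 + ρ / 2 := add_lt_add hz (hη1 θ hθ1)
      _ = ρ := by ring
  have hshift : ∫⁻ z in ball (q + a) ρ, h z ∂μ = ∫⁻ z in ball q ρ, h (z + a) ∂μ := by
    rw [← lintegral_indicator measurableSet_ball, ← lintegral_indicator measurableSet_ball,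
      ← lintegral_add_right_eq_self (fun z => (ball (q + a) ρ).indicator h z) a]
    refine lintegral_congr fun z => ?_
    by_cases hz : z ∈ ball q ρ
    · have : z + a ∈ ball (q + a) ρ := by
        rw [mem_ball, dist_add_right]
        exact hz
      rw [indicator_of_mem this, indicator_of_mem hz]
    · have : z + a ∉ ball (q + a) ρ := by
        rw [mem_ball, dist_add_right]
        exact hz
      rw [indicator_of_notMem this, indicator_of_notMem hz]
  have hfin : ∫⁻ z in ball p (ρ / 2), h z ∂μ < ⊤ :=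
    (lintegral_mono_set hsub).trans_lt (by rw [hshift]; exact hθ2)
  refine ⟨ρ / 2, by positivity, by linarith, ?_⟩
  have hpr : ball p (ρ / 2) ⊆ closedBall p (r / 2) :=
    (ball_subset_ball (by linarith)).trans ball_subset_closedBall
  have hint : IntegrableOn (fun z => Real.log M - Real.log ‖F z‖) (ball p (ρ / 2)) μ := by
    refine ⟨((Real.measurable_log.comp hFm.norm).const_sub _).aestronglyMeasurable, ?_⟩
    rw [hasFiniteIntegral_iff_enorm]
    refine lt_of_le_of_lt (setLIntegral_mono' measurableSet_ball fun z hz => ?_) hfin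
    have h1 := hlogM z (hpr hz)
    have h2 : F z = f z := hFf z (closedBall_subset_ball (by linarith) (hpr hz))
    rw [hh]
    simp only
    rw [Real.enorm_eq_ofReal]
    rw [h2]; linarith
  have h8 : IntegrableOn (fun z => Real.log ‖F z‖) (ball p (ρ / 2)) μ := by
    have h9 : IntegrableOn (fun _ : E => Real.log M) (ball p (ρ / 2)) μ :=
      integrableOn_const (measure_ball_lt_top.ne)
    have h10 := h9.sub hint
    refine h10.congr (Eventually.of_forall fun z => ?_)
    simp
  refine h8.congr_fun (fun z hz => ?_) measurableSet_ball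
  simp only
  rw [hFf z (closedBall_subset_ball (by linarith) (hpr hz))]

end

end

end Crest.Agent.R281.Mvm_408
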