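import Crest.Agent.R281.HKMovK_478
import Crest.Agent.R281.HkM5_835

/-!
# Row 281, MOVE-SEMI (helper713), file 1: the derivative of the Yau metrics along a line of classes

* `yau_line` : `K : Kah A`, `B : K11 A`: the metrics `K' s = K + s B + i∂∂̄ u_s` with
  `det (K' s) = c_s det K` (`|s| < r`) are differentiable at `s = 0`, with derivative a closed real
  (1,1)-form `D` in the class of `B` (478's `yau_an`, `yau_move`)
-/

set_option autoImplicit false
set_option linter.unusedSectionVars false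
set_option maxSynthPendingDepth 3

open Set Filter Topology Complex Metric
open scoped ContDiff Matrix ComplexConjugate ComplexOrder

namespace Crest.Agent.R281.Mvs_713

open Crest.Agent.R275.Geo Crest.Agent.R275.Core144 Crest.Agent.R275.GC293
open Crest.Agent.R275.EDR890
open Crest.Agent.R273.Defs_333 Crest.Agent.R273.YauDefs_635 Crest.Agent.R273.HM_333
open Crest.Agent.R273.YauCh_635 Crest.Agent.R273.Hess_333 Crest.Agent.R273.HessB_333
open Crest.Agent.R273.Kah_333 Crest.Agent.R273.YauMax_635 Crest.Agent.R273.YauLoc_635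
open Crest.Agent.R273.SchA_152 Crest.Agent.R273.SchD_152 Crest.Agent.R273.YauQ_635
open Crest.Agent.R273.YauSchF_635 Crest.Agent.R273.YauPf_635 Crest.Agent.R273.YauOpA_635
open Crest.Agent.R273.SchF_152 Crest.Agent.R273.SchE_152 Crest.Agent.R273.SchG_152
open Crest.Agent.R281.HkR_835 Crest.Agent.R281.Ti_846
open Crest.Agent.R281.HKMov_478

noncomputable section

/-- the derivative of a power series at the centre -/
theorem deriv_of_sum {f : ℝ → ℂ} {c : ℕ → ℂ} {s0 r : ℝ} (hr : 0 < r)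
    (h : ∀ s, |s - s0| < r → HasSum (fun j => ((s - s0 : ℝ) : ℂ) ^ j * c j) (f s)) :
    HasDerivAt f (c 1) s0 := by
  set p : FormalMultilinearSeries ℝ ℝ ℂ :=
    fun j => ContinuousMultilinearMap.mkPiRing ℝ (Fin j) (c j) with hp
  have hc : ∀ j, p.coeff j = c j := by
    intro j
    show (ContinuousMultilinearMap.mkPiRing ℝ (Fin j) (c j)) 1 = c j
    rw [ContinuousMultilinearMap.mkPiRing_apply]
    simp
  have h1 : HasFPowerSeriesAt f p s0 := by
    rw [hasFPowerSeriesAt_iff]
    have : ∀ᶠ z : ℝ in 𝓝 0, |z| < r := by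
      have := (continuous_abs (G := ℝ)).tendsto 0
      rw [abs_zero] at this
      exact this.eventually (gt_mem_nhds hr)
    filter_upwards [this] with z hz
    have h2 := h (s0 + z) (by simpa using hz)
    refine h2.congr_fun fun j => ?_
    rw [hc, add_sub_cancel_left, Complex.real_smul, Complex.ofReal_pow]
  have h3 := h1.hasDerivAt
  have h4 : p 1 (fun _ => 1) = c 1 := hc 1
  rwa [h4] at h3

variable {n : ℕ} {M : Type} [TopologicalSpace M] {A : Atl n M}

/-- the zero form -/
def z11 : K11 A where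
  g _ _ := 0
  sm i a b := contDiffOn_const
  herm i x hx := Matrix.isHermitian_zero
  tr i j x hx := by simp
  closed i z hz a b c := (wd_const (0 : ℂ) z (false, c)).trans (wd_const (0 : ℂ) z (false, a)).symm

theorem yau_line [T2Space M] [CompactSpace M] [ConnectedSpace M] [Finite A.ι] (P : Part A)
    (K : Kah A) (B : K11 A) :
    ∃ (r : ℝ) (K' : ℝ → Kah A) (u : ℝ → M → ℝ) (D : K11 A) (c : ℝ → ℝ), 0 < r ∧
      (∀ s, |s| < r → IsAdd (K' s) (linK K B s) (u s)) ∧
      (∀ s, |s| < r → 0 < c s ∧ ∀ i, ∀ x ∈ (A.e i).source,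
        ((K' s).g i x).det = ((c s : ℝ) : ℂ) * (K.g i x).det) ∧
      (∀ i, ∀ x ∈ (A.e i).source, (K' 0).g i x = K.g i x) ∧
      Ex (D.f2 - B.f2) ∧
      ∀ i, ∀ x ∈ (A.e i).source, ∀ a b, HasDerivAt (fun s => (K' s).g i x a b)
        (D.g i x a b) 0 := by
  classical
  obtain ⟨Bc⟩ := Cb.nonempty A
  obtain ⟨x0⟩ := (inferInstance : Nonempty M)
  set Y : ℕ → K11 A := fun j => if j = 0 then ofKah K else if j = 1 then B else z11 with hY
  obtain ⟨V0, hV00, hV0⟩ := k11_ho (ofKah K) Bc
  obtain ⟨V1, hV10, hV1⟩ := k11_ho B Bc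
  obtain ⟨V2, hV20, hV2⟩ := k11_ho (z11 : K11 A) Bc
  set V : ℝ := V0 + V1 + V2 with hV
  have hVn : 0 ≤ V := by linarith
  have hYo : ∀ j k b c, HO (1 / 2) V (closedBall (Bc.z k) (Bc.r k / 2))
      (fun z => (Y j).g (Bc.i k) ((A.e (Bc.i k)).symm z) b c) := by
    intro j k b c
    by_cases h0 : j = 0
    · simp only [hY, h0, if_true]
      exact (hV0 k b c).mono (by linarith)
    · by_cases h1 : j = 1
      · simp only [hY, h1, if_true]
        exact (hV1 k b c).mono (by linarith)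
      · simp only [hY, h0, h1, if_false]
        exact (hV2 k b c).mono (by linarith)
  have hsum : Summable fun j => V * (1 / 2 : ℝ) ^ j :=
    (summable_geometric_of_lt_one (by norm_num) (by norm_num)).mul_left V
  have hYs : ∀ s : ℝ, ∀ i, ∀ x ∈ (A.e i).source, ∀ b c,
      HasSum (fun j => ((s - 0 : ℝ) : ℂ) ^ j * (Y j).g i x b c) ((linK K B s).g i x b c) := by
    intro s i x hx b c
    have h1 : HasSum (fun j => ((s - 0 : ℝ) : ℂ) ^ j * (Y j).g i x b c)
        (∑ j ∈ Finset.range 2, ((s - 0 : ℝ) : ℂ) ^ j * (Y j).g i x b c) :=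
      hasSum_sum_of_ne_finset_zero (by
        intro j hj
        have h0 : j ≠ 0 := fun h => hj (by simp [h])
        have h1 : j ≠ 1 := fun h => hj (by simp [h])
        simp only [hY, h0, h1, if_false]
        show ((s - 0 : ℝ) : ℂ) ^ j * (0 : ℂ) = 0
        rw [mul_zero])
    rw [Finset.sum_range_succ, Finset.sum_range_one] at h1
    have e : (linK K B s).g i x b c = ((s - 0 : ℝ) : ℂ) ^ 0 * (Y 0).g i x b c +
        ((s - 0 : ℝ) : ℂ) ^ 1 * (Y 1).g i x b c := by
      show K.g i x b c + (s : ℂ) * B.g i x b c = _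
      rw [pow_zero, one_mul, pow_one, sub_zero]
      rfl
    rw [e]
    exact h1
  have hG : Ps11 Bc (linK K B) 0 (1 / 2) Y (fun _ => V) :=
    ⟨by norm_num, fun _ => hVn, hsum, hYo, fun s _ => hYs s⟩
  have hW : ∀ J, ∑ j ∈ Finset.range J, (fun _ : ℕ => V) (j + 1) * (1 / 2 : ℝ) ^ (j + 1) ≤
      ∑' j, V * (1 / 2 : ℝ) ^ j := by
    intro J
    calc ∑ j ∈ Finset.range J, (fun _ : ℕ => V) (j + 1) * (1 / 2 : ℝ) ^ (j + 1)
        ≤ ∑ j ∈ Finset.range (J + 1), V * (1 / 2 : ℝ) ^ j := by
          rw [Finset.sum_range_succ' (fun j => V * (1 / 2 : ℝ) ^ j)]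
          have : 0 ≤ V * (1 / 2 : ℝ) ^ 0 := mul_nonneg hVn (by positivity)
          simp only []
          linarith
      _ ≤ _ := hsum.sum_le_tsum _ fun j _ => mul_nonneg hVn (by positivity)
  obtain ⟨r1, η, hr1, -, -, -, H⟩ := yau_an P K Bc x0 (w := fun _ => V) (fun _ => hVn)
    (ρ := 1 / 2) (by norm_num) hW one_pos
  obtain ⟨S, HS⟩ := H Y fun j _ k b c => hYo j k b c
  have hS0 : S.ps 0 = fun _ => 0 := by
    funext x
    unfold AnS.ps
    have : ∀ j : ℕ, (0 : ℝ) ^ j * S.φ j x = 0 := by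
      intro j
      rcases j with _ | j
      · simp [S.φ0]
      · simp
    simp only [this, tsum_zero]
  have HS' : ∀ s, |s| < r1 → ∃ K' : Kah A, IsAdd K' (linK K B s) (S.ps s) ∧
      ∀ i, ∀ x ∈ (A.e i).source, (K'.g i x).det = ((1 + S.ms s : ℝ) : ℂ) * (K.g i x).det := by
    intro s hs
    refine HS s hs (linK K B s) fun i x hx b c => ?_
    have h1 := (hasSum_nat_add_iff' 1).2 (hYs s i x hx b c)
    rw [Finset.sum_range_one, pow_zero, one_mul, sub_zero] at h1
    have e : (Y 0).g i x b c = K.g i x b c := rfl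
    rw [e] at h1
    exact h1
  set K' : ℝ → Kah A := fun s => if h : |s| < r1 then (HS' s h).choose else K with hK'
  have hK1 : ∀ s, |s| < r1 → IsAdd (K' s) (linK K B s) (S.ps s) ∧
      ∀ i, ∀ x ∈ (A.e i).source, ((K' s).g i x).det = ((1 + S.ms s : ℝ) : ℂ) * (K.g i x).det := by
    intro s hs
    have : K' s = (HS' s hs).choose := by simp only [hK', hs, dif_pos]
    rw [this]
    exact (HS' s hs).choose_spec
  have h00 : |(0 : ℝ)| < r1 := by simpa using hr1
  have hpos : ∀ s, |s| < r1 → 0 < 1 + S.ms s := by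
    intro s hs
    obtain ⟨i, hi⟩ := A.cover x0
    have h1 := (hK1 s hs).2 i x0 hi
    have h2 := Complex.lt_def.1 ((K' s).pos i x0 hi).det_pos
    have h3 := Complex.lt_def.1 (K.pos i x0 hi).det_pos
    have h4 := congrArg Complex.re h1
    rw [Complex.re_ofReal_mul] at h4
    have h5 : 0 < (1 + S.ms s) * ((K.g i x0).det).re := by rw [← h4]; exact h2.1
    exact (pos_iff_pos_of_mul_pos h5).2 h3.1
  have hK0 : ∀ i, ∀ x ∈ (A.e i).source, (K' 0).g i x = K.g i x := by
    intro i x hx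
    rw [(hK1 0 h00).1.eq i x hx, hS0]
    have hc : A.Sm (fun _ : M => (0 : ℝ)) := fun i => contDiffOn_const
    rw [hsf_eq_cH hc hx]
    have e : inC A i (fun _ : M => (0 : ℝ)) = fun _ => 0 := rfl
    rw [e, Crest.Agent.R281.KpU_487.cH_const, add_zero]
    show K.g i x + ((0 : ℝ) : ℂ) • B.g i x = K.g i x
    rw [Complex.ofReal_zero, zero_smul, add_zero]
  obtain ⟨r', φ, Y', m, b, hr'δ, -, hF, hKp, -, -⟩ := yau_move P Bc x0 (G := linK K B) (K := K')
    (u := S.ps) (s0 := 0) (δ := r1) hG hr1 (fun s hs => (hK1 s (by simpa using hs)).1)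
    (fun s hs => by
      unfold AnS.ps
      simp [S.nrm])
    (fun s hs => ⟨1 + S.ms s, fun i x hx => by
      rw [(hK1 s (by simpa using hs)).2 i x hx, hK0 i x hx]⟩)
  refine ⟨min r' r1, K', S.ps, Y' 1, fun s => 1 + S.ms s, lt_min hF.r0 hr1,
    fun s hs => (hK1 s (hs.trans_le (min_le_right _ _))).1,
    fun s hs => ⟨hpos s (hs.trans_le (min_le_right _ _)),
      (hK1 s (hs.trans_le (min_le_right _ _))).2⟩, hK0, ?_, fun i x hx a b => ?_⟩
  · refine ex_of_hsf (f := φ 1) (hF.sm 1) fun i x hx => ?_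
    ext a b
    have h1 := deriv_of_sum hF.r0 (fun s hs => hKp.hs s hs i x hx a b)
    have h2 := deriv_of_sum (f := fun s => (linK K B s).g i x a b) hF.r0
      (fun s hs => hYs s i x hx a b)
    have h3 := deriv_of_sum (f := fun s => hsf A (S.ps s) i x a b) hF.r0 (fun s hs => hF.hsf_sum hs
      (hK1 s (by simpa using hs.trans_le hr'δ)).1.sm hx a b)
    have h4 := h2.add h3
    have h5 : (fun s => (ofKah (K' s)).g i x a b) =ᶠ[𝓝 0]
        fun s => (linK K B s).g i x a b + hsf A (S.ps s) i x a b := by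
      have : ∀ᶠ s : ℝ in 𝓝 0, |s| < r1 := by
        have := (continuous_abs (G := ℝ)).tendsto 0
        rw [abs_zero] at this
        exact this.eventually (gt_mem_nhds hr1)
      filter_upwards [this] with s hs
      show (K' s).g i x a b = _
      rw [(hK1 s hs).1.eq i x hx, Matrix.add_apply]
    have h6 := h1.unique (h4.congr_of_eventuallyEq h5)
    rw [h6, Matrix.add_apply]
    rfl
  · exact deriv_of_sum hF.r0 (fun s hs => hKp.hs s hs i x hx a b)

end

end Crest.Agent.R281.Mvs_713
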