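import Crest.Agent.R281.Mvs1_713
import Crest.Agent.R281.Sta2_684
import Crest.Agent.R281.AlgDefs_998

/-!
# Row 281, MOVE-SEMI (helper713), file 2: representatives of type (1,1) for all complex structures

* `alg_inv` : the algebra: `B(N_s u, v) = o_s(u, v)`, `N_s² = -ρ_s`, `ρ'(0) = 0`: the derivative of
  `o` is invariant under `N_0`
* `hkOf`    : the hyperkaehler triple of a Ricci flat Kaehler metric on the atlas of `J 0`
* **`rep3`**  : a class of type (1,1) orthogonal to `om 0` has a representative of type (1,1)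
  for all three structures `J k`
-/

set_option autoImplicit false
set_option linter.unusedSectionVars false
set_option maxSynthPendingDepth 3

open Set Filter Topology Complex Metric
open scoped ContDiff Matrix ComplexConjugate ComplexOrder

namespace Crest.Agent.R281.Mvs_713

open Crest.Agent.R275.Geo Crest.Agent.R275.Core144 Crest.Agent.R275.EDR890
open Crest.Agent.R275.GC293
open Crest.Agent.R273.Defs_333
open Crest.Agent.R273.Kah_333 Crest.Agent.R273.Hess_333 Crest.Agent.R281.Defs_273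
open Crest.Agent.R273.NoHVF_376
open Crest.Agent.R273.Vol_333 (addK Yau)
open Crest.Agent.R260.ACM_580 Crest.Agent.R260.NNB_580
open Crest.Agent.R281.HkP1_508 Crest.Agent.R281.HkP2_508 Crest.Agent.R281.HkP3_508
open Crest.Agent.R281.Ti_846 Crest.Agent.R281.Dif_268 Crest.Agent.R281.Cdr_234
open Crest.Agent.R281.NefO_476 (ofHk Pos)
open Crest.Agent.R281.Nef_252 (T11 KCls)
open Crest.Agent.R281.HkR_835 Crest.Agent.R281.Alg_998
open Crest.Agent.R281.HKMov_478

noncomputable section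

/-! ### algebra -/

section algebra

variable {W : Type} [NormedAddCommGroup W] [NormedSpace ℝ W] [FiniteDimensional ℝ W]

theorem dual_basis {B : Bil W} (hnd : ∀ v, (∀ a, B a v = 0) → v = 0) :
    ∃ (m : ℕ) (b c : Fin m → W), ∀ a, a = ∑ k, B a (c k) • b k := by
  set b := Module.finBasis ℝ W with hb
  set T : W →ₗ[ℝ] (W →ₗ[ℝ] ℝ) :=
    { toFun := fun v => { toFun := fun a => B a v
                          map_add' := fun x y => by simp
                          map_smul' := fun r x => by simp }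
      map_add' := fun x y => by ext a; simp
      map_smul' := fun r x => by ext a; simp } with hT
  have hinj : Function.Injective T := by
    rw [← LinearMap.ker_eq_bot, LinearMap.ker_eq_bot']
    intro v hv
    refine hnd v fun a => ?_
    have := LinearMap.congr_fun hv a
    exact this
  have hfr : Module.finrank ℝ W = Module.finrank ℝ (W →ₗ[ℝ] ℝ) :=
    (Subspace.dual_finrank_eq (K := ℝ) (V := W)).symm
  have hsur : Function.Surjective T :=
    (LinearMap.injective_iff_surjective_of_finrank_eq_finrank hfr).1 hinj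
  choose c hc using fun k => hsur (b.coord k)
  refine ⟨_, b, c, fun a => ?_⟩
  have h1 : ∀ k, B a (c k) = b.repr a k := by
    intro k
    have := LinearMap.congr_fun (hc k) a
    exact this
  simp only [h1]
  exact (b.sum_repr a).symm

/-- **the algebra of the derivative** -/
theorem alg_inv {B : Bil W} (hB : ∀ u v, B u v = -B v u) (hnd : ∀ v, (∀ a, B a v = 0) → v = 0)
    {o : ℝ → Bil W} {y : Bil W} {ρ : ℝ → ℝ}
    (hN : ∀ᶠ s in 𝓝 (0 : ℝ), ∃ N : W → W, (∀ u v, B (N u) v = o s u v) ∧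
      ∀ u, N (N u) = -(ρ s • u))
    (ho : ∀ u v, HasDerivAt (fun s => o s u v) (y u v) 0) (hρ : HasDerivAt ρ 0 0)
    {J : W → W} (hJ : ∀ u v, B (J u) v = o 0 u v) (hJJ : ∀ u, J (J u) = -u)
    (halt : ∀ u v, o 0 u v = -o 0 v u) (u v : W) : y (J u) (J v) = y u v := by
  obtain ⟨m, b, c, hbc⟩ := dual_basis hnd
  have key : ∀ u v, y u (J v) + y (J u) v = 0 := by
    intro u v
    have h1 : (fun s => ∑ k, o s u (c k) * o s (b k) v) =ᶠ[𝓝 0] fun s => -(ρ s * B u v) := by
      filter_upwards [hN] with s hs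
      obtain ⟨N, hN1, hN2⟩ := hs
      have h2 : N u = ∑ k, o s u (c k) • b k := by
        conv_lhs => rw [hbc (N u)]
        simp only [hN1]
      have h3 : o s (N u) v = ∑ k, o s u (c k) * o s (b k) v := by
        rw [h2, map_sum, sum_apply]
        refine Finset.sum_congr rfl fun k _ => ?_
        rw [map_smul]
        rfl
      rw [← h3, ← hN1, hN2, map_neg, map_smul]
      rfl
    have h2 : HasDerivAt (fun s => ∑ k, o s u (c k) * o s (b k) v)
        (∑ k, (y u (c k) * o 0 (b k) v + o 0 u (c k) * y (b k) v)) 0 :=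
      HasDerivAt.fun_sum fun k _ => (ho u (c k)).mul (ho (b k) v)
    have h3 : HasDerivAt (fun s => -(ρ s * B u v)) (-(0 * B u v)) 0 := (hρ.mul_const _).neg
    have h4 := (h2.congr_of_eventuallyEq h1.symm).unique h3
    rw [Finset.sum_add_distrib, zero_mul, neg_zero] at h4
    have h5 : J u = ∑ k, o 0 u (c k) • b k := by
      conv_lhs => rw [hbc (J u)]
      simp only [hJ]
    have h6 : ∑ k, o 0 u (c k) * y (b k) v = y (J u) v := by
      rw [h5, map_sum, sum_apply]
      refine Finset.sum_congr rfl fun k _ => ?_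
      rw [map_smul]
      rfl
    have h7 : ∀ w, ∑ k, B (b k) w • c k = w := by
      intro w
      refine sub_eq_zero.1 (hnd _ fun a => ?_)
      have e1 : B a w = ∑ k, B a (c k) * B (b k) w := by
        calc B a w = B (∑ k, B a (c k) • b k) w := by rw [← hbc a]
          _ = _ := by
            rw [map_sum, sum_apply]
            refine Finset.sum_congr rfl fun k _ => ?_
            rw [map_smul]
            rfl
      have e2 : B a (∑ k, B (b k) w • c k) = ∑ k, B a (c k) * B (b k) w := by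
        rw [map_sum]
        refine Finset.sum_congr rfl fun k _ => ?_
        rw [map_smul, smul_eq_mul, mul_comm]
      rw [map_sub, e1, e2, sub_self]
    have h8 : ∑ k, y u (c k) * o 0 (b k) v = y u (J v) := by
      have e1 : ∀ k, o 0 (b k) v = B (b k) (J v) := by
        intro k
        rw [halt, ← hJ, ← hB]
      simp only [e1]
      conv_rhs => rw [← h7 (J v), map_sum]
      refine Finset.sum_congr rfl fun k _ => ?_
      rw [map_smul, smul_eq_mul, mul_comm]
    rw [h6, h8] at h4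
    exact h4
  have h1 := key (J u) v
  rw [hJJ, map_neg] at h1
  have h2 : y (J u) (J v) - y u v = 0 := h1
  exact sub_eq_zero.1 h2

end algebra

section hk

variable {d : ℕ} {X : Type} [TopologicalSpace X] {A : Atl d X}
variable {V : Type} [NormedAddCommGroup V] [NormedSpace ℝ V] {C : RCh V X}

/-- the trace of the derivative -/
theorem trace_zero {G : ℝ → Matrix (Fin d) (Fin d) ℂ} {D N S : Matrix (Fin d) (Fin d) ℂ}
    {ρ : ℝ → ℝ} (h : ∀ᶠ s in 𝓝 (0 : ℝ), G s * N * (G s)ᵀ = ((ρ s : ℝ) : ℂ) • S)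
    (hG : ∀ a b, HasDerivAt (fun s => G s a b) (D a b) 0) (hρ : HasDerivAt ρ 0 0)
    (hN : IsUnit N.det) (hG0 : IsUnit (G 0).det) : ((G 0)⁻¹ * D).trace = 0 := by
  have h1 : D * N * (G 0)ᵀ = -(G 0 * N * Dᵀ) := by
    rw [eq_neg_iff_add_eq_zero]
    ext a b
    have e1 : HasDerivAt (fun s => (G s * N * (G s)ᵀ) a b)
        ((D * N * (G 0)ᵀ + G 0 * N * Dᵀ) a b) 0 := by
      have e2 : HasDerivAt (fun s => ∑ c, (∑ d, G s a d * N d c) * G s b c)
          (∑ c, ((∑ d, D a d * N d c) * G 0 b c + (∑ d, G 0 a d * N d c) * D b c)) 0 :=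
        HasDerivAt.fun_sum fun c _ => HasDerivAt.mul
          (HasDerivAt.fun_sum fun d _ => (hG a d).mul_const (N d c)) (hG b c)
      have e3 : (fun s => (G s * N * (G s)ᵀ) a b) =
          fun s => ∑ c, (∑ d, G s a d * N d c) * G s b c := by
        funext s
        rw [Matrix.mul_apply]
        refine Finset.sum_congr rfl fun c _ => ?_
        rw [Matrix.mul_apply, Matrix.transpose_apply]
      have e4 : (D * N * (G 0)ᵀ + G 0 * N * Dᵀ) a b =
          ∑ c, ((∑ d, D a d * N d c) * G 0 b c + (∑ d, G 0 a d * N d c) * D b c) := by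
        rw [Matrix.add_apply, Matrix.mul_apply, Matrix.mul_apply, ← Finset.sum_add_distrib]
        refine Finset.sum_congr rfl fun c _ => ?_
        rw [Matrix.mul_apply, Matrix.mul_apply, Matrix.transpose_apply, Matrix.transpose_apply]
      rw [e3, e4]
      exact e2
    have e5 : HasDerivAt (fun s => ((ρ s : ℝ) : ℂ) * S a b) (((0 : ℝ) : ℂ) * S a b) 0 :=
      hρ.ofReal_comp.mul_const _
    have e6 : (fun s => (G s * N * (G s)ᵀ) a b) =ᶠ[𝓝 0] fun s => ((ρ s : ℝ) : ℂ) * S a b := by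
      filter_upwards [h] with s hs
      rw [hs]
      rfl
    have e7 := (e1.congr_of_eventuallyEq e6.symm).unique e5
    rw [e7, Complex.ofReal_zero, zero_mul]
    rfl
  have hGt : IsUnit ((G 0)ᵀ).det := by rwa [Matrix.det_transpose]
  have h2 : (G 0)⁻¹ * D = -(N * (Dᵀ * ((G 0)ᵀ)⁻¹) * N⁻¹) := by
    calc (G 0)⁻¹ * D = (G 0)⁻¹ * (D * N * (G 0)ᵀ) * ((G 0)ᵀ)⁻¹ * N⁻¹ := by
          rw [Matrix.mul_assoc, Matrix.mul_assoc, Matrix.mul_assoc (D * N) ,
            ← Matrix.mul_assoc ((G 0)ᵀ), Matrix.mul_nonsing_inv _ hGt, Matrix.one_mul,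
            Matrix.mul_assoc D, Matrix.mul_nonsing_inv _ hN, Matrix.mul_one]
      _ = _ := by
          rw [h1, Matrix.mul_neg, Matrix.neg_mul, Matrix.neg_mul, Matrix.mul_assoc (G 0),
            Matrix.nonsing_inv_mul_cancel_left _ _ hG0, Matrix.mul_assoc N]
  have h3 := congrArg Matrix.trace h2
  have h5 : (N * (Dᵀ * ((G 0)ᵀ)⁻¹) * N⁻¹).trace = ((G 0)⁻¹ * D).trace := by
    rw [Matrix.trace_mul_comm, ← Matrix.mul_assoc, Matrix.nonsing_inv_mul _ hN, Matrix.one_mul,
      ← Matrix.transpose_nonsing_inv, ← Matrix.transpose_mul, Matrix.trace_transpose]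
  rw [Matrix.trace_neg, h5] at h3
  have h4 : (2 : ℂ) * ((G 0)⁻¹ * D).trace = 0 := by linear_combination h3
  simpa using h4

/-- the hyperkaehler triple of a Ricci flat metric, on the atlas of `J 0` -/
theorem hkOf [T2Space X] [CompactSpace X] [Finite A.ι] (P : Part A) (H : HkT C)
    (hA : Cp (H.acm 0) A) (hu : (H.sig hA).Uniq) {K' : Kah A} (hK : RicFlat K') :
    ∃ (H1 : HkT (ofAtl A)) (r : ℝ), 0 < r ∧ (∀ (j : A.ι) (z v : Cn d), H1.J 0 j z v = I • v) ∧
      H1.om 0 = (ofKah K').f2 ∧ (∀ k : Fin 3, k ≠ 0 → Eqv (H1.om k) (r • (H.onA hA).om k)) ∧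
      ∀ i, ∀ x ∈ (A.e i).source, K'.g i x * (((H.sig hA).s i x)ᴴ)⁻¹ * (K'.g i x)ᵀ =
        ((r ^ 2 : ℝ) : ℂ) • (H.sig hA).s i x := by
  obtain ⟨r, hr, h0, hk⟩ := exists_HK P hK (H.sig hA) hu
  have hc : ClH (H.sig hA).toH2 := S0_cl (H.onA hA) (onA_J H hA)
  have hc2 : ClH (csm (-I) (H.sig hA).toH2) := csm_cl hc _
  have hcr : ClH (smulHS (r : ℂ) hr (H.sig hA)).toH2 := fun i _ hz a b c => hk.closed i hz a b c
  have f1 : Eqv ((HkT.ofHK hk).om 1) (r • (H.onA hA).om 1) := by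
    have e2 : Eqv ((HkT.ofHK hk).om 1) (r • f2H (H.sig hA).toH2 hc) :=
      f2H_smul hc hcr fun i x => rfl
    refine e2.trans (eqvA fun i z hz u v => ?_)
    have := S0_om1 (H.onA hA) (onA_J H hA) hz
    show r * (f2H (H.sig hA).toH2 hc).w i z u v = r * ((H.onA hA).om 1).w i z u v
    rw [← this]
    rfl
  have f2 : Eqv ((HkT.ofHK hk).om 2) (r • (H.onA hA).om 2) := by
    have e2 : Eqv ((HkT.ofHK hk).om 2) (r • f2H (csm (-I) (H.sig hA).toH2) hc2) :=
      f2H_smul hc2 (csm_cl hcr (-I)) fun i x => smul_comm _ _ _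
    refine e2.trans (eqvA fun i z hz u v => ?_)
    have := S0_om2 (H.onA hA) (onA_J H hA) hz
    show r * (f2H (csm (-I) (H.sig hA).toH2) hc2).w i z u v = r * ((H.onA hA).om 2).w i z u v
    rw [← this]
    rfl
  refine ⟨HkT.ofHK hk, r, h0, fun _ _ _ => rfl, rfl, fun k hk0 => ?_, fun i x hx => ?_⟩
  · fin_cases k
    · exact absurd rfl hk0
    · exact f1
    · exact f2
  · have h1 := hk.rel i x hx
    set S := (H.sig hA).s i x with hS
    set G := K'.g i x with hG
    have hSd : S.det ≠ 0 := (H.sig hA).nd i x hx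
    have hGd : G.det ≠ 0 := (K'.pos i x hx).det_pos.ne'
    have hSu : IsUnit (Sᴴ).det := by
      rw [Matrix.det_conjTranspose]
      exact isUnit_iff_ne_zero.2 (star_ne_zero.2 hSd)
    have hGu : IsUnit (Gᵀ).det := by
      rw [Matrix.det_transpose]
      exact isUnit_iff_ne_zero.2 hGd
    have h2 : ((r : ℂ) • S) * (Gᵀ)⁻¹ * ((r : ℂ) • S)ᴴ = G := h1
    have h3 : ((r : ℂ) • S)ᴴ = (r : ℂ) • Sᴴ := by
      rw [Matrix.conjTranspose_smul]
      congr 1
      exact Complex.conj_ofReal _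
    rw [h3, Matrix.smul_mul, Matrix.smul_mul, Matrix.mul_smul, smul_smul] at h2
    have h4 : ((r : ℂ) * (r : ℂ)) • S = G * (Sᴴ)⁻¹ * Gᵀ := by
      calc ((r : ℂ) * (r : ℂ)) • S
          = ((r : ℂ) * (r : ℂ)) • (S * (Gᵀ)⁻¹ * Sᴴ) * (Sᴴ)⁻¹ * Gᵀ := by
            rw [Matrix.smul_mul, Matrix.smul_mul, Matrix.mul_assoc (S * (Gᵀ)⁻¹) Sᴴ,
              Matrix.mul_nonsing_inv _ hSu, Matrix.mul_one, Matrix.mul_assoc,
              Matrix.nonsing_inv_mul _ hGu, Matrix.mul_one]
        _ = _ := by rw [h2]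
    rw [← h4]
    congr 1
    push_cast
    ring

/-- the real form depends linearly on the matrix -/
theorem deriv_f2 {K' : ℝ → Kah A} {D : K11 A} {j : A.ι} {z : Cn d} (hz : z ∈ (A.e j).target)
    (h : ∀ a b, HasDerivAt (fun s => (K' s).g j ((A.e j).symm z) a b)
      (D.g j ((A.e j).symm z) a b) 0) (u v : Cn d) :
    HasDerivAt (fun s => (ofKah (K' s)).f2.w j z u v) (D.f2.w j z u v) 0 := by
  have h1 : HasDerivAt (fun s => I * hb ((K' s).g j ((A.e j).symm z)) u v)
      (I * hb (D.g j ((A.e j).symm z)) u v) 0 := by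
    refine HasDerivAt.const_mul I ?_
    unfold hb
    exact HasDerivAt.fun_sum fun a _ => HasDerivAt.fun_sum fun b _ =>
      ((h a b).mul_const (u a)).mul_const (conj (v b))
  have h2 := (Complex.reCLM.hasFDerivAt (x := I * hb ((K' 0).g j ((A.e j).symm z)) u
    v)).comp_hasDerivAt (0 : ℝ) h1
  have e : (fun s => (ofKah (K' s)).f2.w j z u v) =
      fun s => Complex.reCLM (I * hb ((K' s).g j ((A.e j).symm z)) u v) := by
    funext s
    exact K11.f2_w (ofKah (K' s)) hz u v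
  rw [e, K11.f2_w D hz]
  exact h2

/-- transfer of type (1,1) from the atlas to the real charts -/
theorem t11_symm (H : HkT C) (hA : Cp (H.acm 0) A) (k : Fin 3) {w : F2 (ofAtl A)}
    (h : ∀ j : A.ι, ∀ z ∈ (A.e j).target, ∀ u v,
      w.w j z ((H.onA hA).J k j z u) ((H.onA hA).J k j z v) = w.w j z u v) :
    T11 (ofHk H k) ((cmp_of_cp hA).symm.F w) := by
  intro i z hz u v
  set hc := cmp_of_cp hA with hhc
  obtain ⟨j, hj⟩ := Cmp.exists_mov (C' := C) (ofAtl A) (j := i) hz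
  rw [hc.symm.F_w _ hj, hc.symm.F_w _ hj]
  have hj' := Cmp.mt_mem hj
  have key : ∀ u, fderiv ℝ (mt (ofAtl A) C j i) z (H.J k i z u) =
      (H.onA hA).J k j (mt (ofAtl A) C j i z) (fderiv ℝ (mt (ofAtl A) C j i) z u) := by
    intro u
    have h1 := Cmp.hk_J H hc k hj' (fderiv ℝ (mt (ofAtl A) C j i) z u)
    rw [Cmp.mt_mt hj, hc.symm.d_d hj] at h1
    rw [← h1, hc.symm.d_d' hj]
    rfl
  show w.w j (mt (ofAtl A) C j i z) (fderiv ℝ (mt (ofAtl A) C j i) z (H.J k i z u))
    (fderiv ℝ (mt (ofAtl A) C j i) z (H.J k i z v)) = _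
  rw [key, key]
  exact h j _ hj'.1 _ _

theorem Q_cl {Q : F2 C →ₗ[ℝ] F2 C →ₗ[ℝ] ℝ} (hex : ∀ x y, Ex x → Q x y = 0) {a b : F2 C}
    (h : Cl a b) (c : F2 C) : Q a c = Q b c := by
  have h1 := hex _ c h
  rw [map_sub, LinearMap.sub_apply] at h1
  linarith

theorem cl_of_eqv {a b : F2 C} (h : Eqv a b) : Cl a b := ex_sub_of_eqv h

/-- **a (1,1)-class orthogonal to `om 0` has a representative of type (1,1) for all three
complex structures**, on a given atlas -/
theorem rep3A [FiniteDimensional ℝ V] [CompactSpace X] [T2Space X] [ConnectedSpace X]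
    [Finite A.ι] (P : Part A)
    {Q : F2 C →ₗ[ℝ] F2 C →ₗ[ℝ] ℝ} (hsy : ∀ x y, Q x y = Q y x) (hex : ∀ x y, Ex x → Q x y = 0)
    {H : HkT C} (heq : ∀ (H : HkT C) k, Q (H.om k) (H.om k) = Q (H.om 0) (H.om 0))
    (hA : Cp (H.acm 0) A) (hu : UniqT H) (hq : Q (H.om 0) (H.om 0) ≠ 0) {x : F2 C}
    (hx : T11 (ofHk H 0) x) (h0 : Q x (H.om 0) = 0) :
    ∃ D : K11 A, Cl ((cmp_of_cp hA).symm.F D.f2) x ∧
      (∀ k, T11 (ofHk H k) ((cmp_of_cp hA).symm.F D.f2)) ∧
      ∀ i, ∀ x ∈ (A.e i).source, (((H.kah hA).g i x)⁻¹ * D.g i x).trace = 0 := by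
  set hc := cmp_of_cp hA with hhc
  have hU := uniq_of_T P hA hu
  set K := H.kah hA with hK
  set B : K11 A := ((hc.F x).k11 (onA_11 H hA hx)) with hB
  obtain ⟨r, K', u, D, c, hr, hadd, hdet, hK0, hexD, hder⟩ := yau_line P K B
  have hric : ∀ s, |s| < r → RicFlat (K' s) := by
    intro s hs
    refine ricFlat_of_det (H.sig hA) (hdet s hs).1 fun i x hx => ?_
    have h1 := congrArg Complex.re (det0 (H.onA hA) (onA_J H hA) i x hx)
    rw [Complex.ofReal_re] at h1
    rw [(hdet s hs).2 i x hx, Complex.re_ofReal_mul]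
    exact congrArg (fun t => c s * t) h1
  have hlin : ∀ s, Eqv (hc.symm.F (linK K B s).f2) (H.om 0 + s • x) := by
    intro s
    have e1 : Eqv (linK K B s).f2 (hc.F (H.om 0 + s • x)) := by
      refine eqvA fun j z hz u v => ?_
      obtain ⟨i, hi⟩ := Cmp.exists_mov (C' := ofAtl A) C (j := j) hz
      have k1 : (ofKah K).f2.w j z u v = (hc.F (H.om 0)).w j z u v := by
        have h1 := K0_om0 (H.onA hA) (onA_J H hA) hz
        exact congrArg (fun b : Bil (Cn d) => b u v) h1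
      have k2 : B.f2.w j z u v = (hc.F x).w j z u v := by
        rw [hB, F2.k11_f2 _ _ hz]
      rw [K11.f2_w _ hz] at k1 k2 ⊢
      rw [hc.F_w _ hi] at k1 k2 ⊢
      have e : hb ((linK K B s).g j ((A.e j).symm z)) u v =
          hb (K.g j ((A.e j).symm z)) u v + (s : ℂ) * hb (B.g j ((A.e j).symm z)) u v := by
        have h1 : (linK K B s).g j ((A.e j).symm z) =
          K.g j ((A.e j).symm z) + (s : ℂ) • B.g j ((A.e j).symm z) := rfl
        rw [← hbL_apply, h1, map_add, map_smul, hbL_apply, hbL_apply, smul_eq_mul]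
      rw [e, mul_add, Complex.add_re, mul_left_comm, Complex.re_ofReal_mul]
      have e2 : (I * hb (K.g j ((A.e j).symm z)) u v).re = (H.om 0).w i (mt C (ofAtl A) i j z)
        (fderiv ℝ (mt C (ofAtl A) i j) z u) (fderiv ℝ (mt C (ofAtl A) i j) z v) := k1
      rw [e2, k2]
      rfl
    exact (F_eqv e1).trans (F_F hc _)
  have cls : ∀ s, |s| < r → Cl (hc.symm.F (ofKah (K' s)).f2) (H.om 0 + s • x) := by
    intro s hs
    have h1 : Ex ((ofKah (K' s)).f2 - (linK K B s).f2) := ex_of_hsf (hadd s hs).sm (hadd s hs).eq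
    have h2 := (F_sub hc.symm _ _).ex (ex_F hc.symm h1)
    have h3 := Ex.add h2 (ex_sub_of_eqv (hlin s))
    rwa [sub_add_sub_cancel] at h3
  set q := Q (H.om 0) (H.om 0) with hqd
  set ρ : ℝ → ℝ := fun s => 1 + s ^ 2 * (Q x x / q) with hρ
  have hρ' : HasDerivAt ρ 0 0 := by
    have h1 : HasDerivAt (fun s : ℝ => s ^ 2) ((2 : ℕ) * (0 : ℝ) ^ (2 - 1)) 0 := hasDerivAt_pow 2 0
    have h2 := (h1.mul_const (Q x x / q)).const_add 1
    have e : ((2 : ℕ) : ℝ) * (0 : ℝ) ^ (2 - 1) * (Q x x / q) = 0 := by norm_num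
    rw [e] at h2
    exact h2
  have hH : ∀ s, |s| < r → ∃ (H1 : HkT (ofAtl A)) (t : ℝ),
      (∀ (j : A.ι) (z v : Cn d), H1.J 0 j z v = I • v) ∧
      H1.om 0 = (ofKah (K' s)).f2 ∧ Eqv (H1.om 1) (t • (H.onA hA).om 1) ∧ t ^ 2 = ρ s ∧
      ∀ i, ∀ x ∈ (A.e i).source, (K' s).g i x * (((H.sig hA).s i x)ᴴ)⁻¹ * ((K' s).g i x)ᵀ =
        ((ρ s : ℝ) : ℂ) • (H.sig hA).s i x := by
    intro s hs
    obtain ⟨H1, t, ht, k1, k2, k3, k9⟩ := hkOf P H hA hU (hric s hs)
    suffices hsu : t ^ 2 = ρ s by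
      refine ⟨H1, t, k1, k2, k3 1 (by decide), hsu, fun i x hx => ?_⟩
      rw [k9 i x hx, hsu]
    have e1 : Eqv ((hc.symm.hk H1).om 1) (t • H.om 1) := by
      have e4 : Eqv ((hc.symm.hk H1).om 1) (hc.symm.F (t • (H.onA hA).om 1)) :=
        F_eqv (k3 1 (by decide))
      have e5 : Eqv (hc.symm.F (t • (H.onA hA).om 1)) (t • hc.symm.F ((H.onA hA).om 1)) :=
        F_smul _ _ _
      refine e4.trans (e5.trans fun i z hz u v => ?_)
      show t * (hc.symm.F (hc.F (H.om 1))).w i z u v = t * (H.om 1).w i z u v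
      rw [F_F hc (H.om 1) i z hz]
    have e2 : Cl ((hc.symm.hk H1).om 0) (H.om 0 + s • x) := by
      have := cls s hs
      rw [← k2] at this
      exact this
    have e3 := heq (hc.symm.hk H1) 1
    rw [Q_cl hex (cl_of_eqv e1), hsy, Q_cl hex (cl_of_eqv e1), Q_cl hex e2, hsy (H.om 0 + s • x),
      Q_cl hex e2] at e3
    simp only [map_add, map_smul, LinearMap.add_apply, LinearMap.smul_apply, smul_eq_mul] at e3
    rw [heq H 1, hsy (H.om 0) x, h0, ← hqd] at e3
    show t ^ 2 = 1 + s ^ 2 * (Q x x / q)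
    field_simp
    linarith
  have hD2 : ∀ j : A.ι, ∀ z ∈ (A.e j).target, ∀ u v,
      D.f2.w j z ((H.onA hA).J 2 j z u) ((H.onA hA).J 2 j z v) = D.f2.w j z u v := by
    intro j z hz u v
    have hJ : ∀ u v, ((H.onA hA).om 1).w j z ((H.onA hA).J 2 j z u) v =
        ((H.onA hA).om 0).w j z u v := by
      intro u v
      rw [(H.onA hA).om_eq 1 j z hz, (H.onA hA).om_eq 0 j z hz, (H.onA hA).J_12 hz]
    have h00 : ∀ u v, (ofKah (K' 0)).f2.w j z u v = ((H.onA hA).om 0).w j z u v := by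
      intro u v
      rw [← K0_om0 (H.onA hA) (onA_J H hA) hz, K11.f2_w _ hz, K11.f2_w _ hz]
      have : (ofKah (K' 0)).g j ((A.e j).symm z) =
        (ofKah ((H.onA hA).K0 (onA_J H hA))).g j ((A.e j).symm z) :=
        hK0 j _ ((A.e j).map_target hz)
      rw [this]
    refine alg_inv (B := ((H.onA hA).om 1).w j z) (ρ := ρ) (((H.onA hA).om 1).alt j z hz) ?_
      (o := fun s => (ofKah (K' s)).f2.w j z) ?_
      (deriv_f2 hz (hder j _ ((A.e j).map_target hz))) hρ'
      (J := (H.onA hA).J 2 j z) (fun u v => by rw [hJ, h00]) ((H.onA hA).J_sq 2 j z hz)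
      ((ofKah (K' 0)).f2.alt j z hz) u v
    · intro v hv
      by_contra hv0
      have h1 := hv ((H.onA hA).J 1 j z v)
      rw [(H.onA hA).om_eq 1 j z hz, (H.onA hA).J_sq 1 j z hz, map_neg] at h1
      have h2 := (H.onA hA).g_pos j z hz v hv0
      have h3 : -((H.onA hA).g j z v v) = 0 := h1
      linarith
    · have : ∀ᶠ s : ℝ in 𝓝 0, |s| < r := by
        have := (continuous_abs (G := ℝ)).tendsto 0
        rw [abs_zero] at this
        exact this.eventually (gt_mem_nhds hr)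
      filter_upwards [this] with s hs
      obtain ⟨H1, t, k1, k2, k3, k4, -⟩ := hH s hs
      refine ⟨fun u => t • H1.J 2 j z u, fun u v => ?_, fun u => ?_⟩
      · have e1 := k3 j z hz (H1.J 2 j z u) v
        have e2 : (t • (H.onA hA).om 1).w j z (H1.J 2 j z u) v =
          t * ((H.onA hA).om 1).w j z (H1.J 2 j z u) v := rfl
        rw [e2, H1.om_eq 1 j z hz, H1.J_12 hz, ← H1.om_eq 0 j z hz, k2] at e1
        rw [map_smul]
        exact e1.symm
      · show t • H1.J 2 j z (t • H1.J 2 j z u) = _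
        rw [map_smul, H1.J_sq 2 j z hz, ← k4, smul_neg, smul_neg, smul_smul, pow_two]
  have t0 : T11 (ofHk H 0) (hc.symm.F D.f2) := t11_symm H hA 0 fun j z hz u v => by
    rw [onA_J H hA j z hz, onA_J H hA j z hz]
    exact D.f2_inv hz u v
  have t2 : T11 (ofHk H 2) (hc.symm.F D.f2) := t11_symm H hA 2 hD2
  refine ⟨D, ?_, fun k => ?_, fun i x hx => ?_⟩
  · have h2 := (F_sub hc.symm _ _).ex (ex_F hc.symm hexD)
    have e1 : Eqv (hc.symm.F B.f2) x := by
      have : Eqv B.f2 (hc.F x) := eqvA fun j z hz u v => by rw [hB, F2.k11_f2 _ _ hz]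
      exact (F_eqv this).trans (F_F hc _)
    have h3 := Ex.add h2 (ex_sub_of_eqv e1)
    rwa [sub_add_sub_cancel] at h3
  · fin_cases k
    · exact t0
    · intro i z hz u v
      show (hc.symm.F D.f2).w i z (H.J 1 i z u) (H.J 1 i z v) = _
      have e : ∀ u, H.J 1 i z u = -(H.J 0 i z (H.J 2 i z u)) := fun u => by
        rw [H.J_02 hz, neg_neg]
      have h1 := t0 i z hz (H.J 2 i z u) (H.J 2 i z v)
      have h2 := t2 i z hz u v
      change (hc.symm.F D.f2).w i z (H.J 0 i z (H.J 2 i z u)) (H.J 0 i z (H.J 2 i z v)) =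
        (hc.symm.F D.f2).w i z (H.J 2 i z u) (H.J 2 i z v) at h1
      change (hc.symm.F D.f2).w i z (H.J 2 i z u) (H.J 2 i z v) = _ at h2
      rw [e, e, map_neg, map_neg, neg_apply, neg_neg, h1, h2]
    · exact t2
  · have h9 := trace_zero (G := fun s => (K' s).g i x) (D := D.g i x)
      (N := (((H.sig hA).s i x)ᴴ)⁻¹) (S := (H.sig hA).s i x) (ρ := ρ) (by
        have : ∀ᶠ s : ℝ in 𝓝 0, |s| < r := by
          have := (continuous_abs (G := ℝ)).tendsto 0
          rw [abs_zero] at this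
          exact this.eventually (gt_mem_nhds hr)
        filter_upwards [this] with s hs
        obtain ⟨H1, t, k1, k2, k3, k4, k5⟩ := hH s hs
        exact k5 i x hx) (hder i x hx) hρ' (by
        rw [Matrix.det_nonsing_inv, Matrix.det_conjTranspose]
        exact IsUnit.ringInverse (isUnit_iff_ne_zero.2 (star_ne_zero.2 ((H.sig hA).nd i x hx))))
      (isUnit_iff_ne_zero.2 ((K' 0).pos i x hx).det_pos.ne')
    have e : (K' 0).g i x = (H.kah hA).g i x := hK0 i x hx
    rw [← e]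
    exact h9

theorem rep3 [FiniteDimensional ℝ V] [CompactSpace X] [T2Space X] [ConnectedSpace X]
    {Q : F2 C →ₗ[ℝ] F2 C →ₗ[ℝ] ℝ} (hsy : ∀ x y, Q x y = Q y x) (hex : ∀ x y, Ex x → Q x y = 0)
    {H : HkT C} (heq : ∀ (H : HkT C) k, Q (H.om k) (H.om k) = Q (H.om 0) (H.om 0))
    (hNN : NNat V d) (hu : UniqT H) (hq : Q (H.om 0) (H.om 0) ≠ 0) {x : F2 C}
    (hx : T11 (ofHk H 0) x) (h0 : Q x (H.om 0) = 0) :
    ∃ y, Cl y x ∧ ∀ k, T11 (ofHk H k) y := by
  obtain ⟨A, hf, -, ⟨P⟩, -, -, hA⟩ := exists_rot hNN H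
  obtain ⟨D, h1, h2, -⟩ := rep3A P hsy hex heq hA hu hq hx h0
  exact ⟨_, h1, h2⟩

end hk

end

end Crest.Agent.R281.Mvs_713
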