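import Crest.Agent.R281.Sc1_413
import Crest.Agent.R281.Hdg4_850
import Crest.Agent.R281.Fuj3_207

/-!
# Row 281, SC-PIC, part 2 (helper413): exact real (1,1)-forms on simply connected compact Kaehler
manifolds

* `hsf_of_ex` : `G : K11 A`, `Ex G.f2` ==> `G.g i x = hsf A u i x`, `u : M → ℝ` smooth
-/

set_option autoImplicit false
set_option linter.unusedSectionVars false

open Set Filter Topology Complex
open scoped ContDiff Matrix ComplexConjugate InnerProductSpace

namespace Crest.Agent.R281.Sc_413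

open Crest.Agent.R275 Crest.Agent.R275.Geo Crest.Agent.R275.Core144 Crest.Agent.R275.EDR890
open Crest.Agent.R275.GC293
open Crest.Agent.R273 Crest.Agent.R273.Kah_333 Crest.Agent.R273.LamN127
open Crest.Agent.R273.Hess_333 Crest.Agent.R273.HessB_333
open Crest.Agent.R281.Defs_273 (H2 HSymp)
open Crest.Agent.R281.HkR_835 Crest.Agent.R281.Ti_846 Crest.Agent.R281.Hdg_850

noncomputable section

variable {n : ℕ} {M : Type} [TopologicalSpace M] {A : Atl n M}

/-- components of type `(0,2)` of an invariant form -/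
theorem cp2_tt {W : Bil (Cn n)} (h : ∀ u v, W (I • u) (I • v) = W u v) (a b : Fin n) :
    cp2 (true, a) (true, b) W = 0 := by
  have hI : ∀ c : Fin n, (EuclideanSpace.single c I : Cn n) = I • EuclideanSpace.single c (1 : ℂ) :=
    fun c => sing_I c
  have h1 : W (EuclideanSpace.single a I) (EuclideanSpace.single b I) =
      W (EuclideanSpace.single a 1) (EuclideanSpace.single b 1) := by
    rw [hI, hI, h]
  have h2 : W (EuclideanSpace.single a I) (EuclideanSpace.single b 1) =
      - W (EuclideanSpace.single a 1) (EuclideanSpace.single b I) := by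
    have h3 := h (EuclideanSpace.single a I) (EuclideanSpace.single b 1)
    rw [← hI b] at h3
    rw [← h3, hI a, smul_smul, I_mul_I, neg_one_smul, map_neg]
    rfl
  rw [cp2_eq]
  simp only [h1, h2, cI_true]
  push_cast
  linear_combination (1 / 4 : ℂ) *
    (W (EuclideanSpace.single a 1) (EuclideanSpace.single b 1) : ℂ) * I_mul_I

/-- components of type `(1,1)` of the form of a Hermitian matrix -/
theorem cp2_ft (G : Matrix (Fin n) (Fin n) ℂ) {W : Bil (Cn n)}
    (h : ∀ u v, W u v = (I * hb G u v).re) (a b : Fin n) :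
    cp2 (false, a) (true, b) W = (I / 2) * G a b := by
  have hI : ∀ c : Fin n, (EuclideanSpace.single c I : Cn n) = I • EuclideanSpace.single c (1 : ℂ) :=
    fun c => sing_I c
  rw [cp2_eq]
  simp only [h, hI, hb_I_left, hb_I_right, hb_single, cI_true, cI_false]
  apply Complex.ext <;> simp <;> ring

/-- the `(0,1)`-part of a real 1-form -/
def y01 (η : F1 (ofAtl A)) (i : A.ι) (x : M) (a : Fin n) : ℂ := cp1 (true, a) (η.η i (A.e i x))

theorem y01_sm (η : F1 (ofAtl A)) (i : A.ι) (a : Fin n) : A.SmAt i (fun x => y01 η i x a) := by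
  have h1 : ContDiffOn ℝ ∞ (fun z => cp1 (true, a) (η.η i z)) (A.e i).target :=
    (cp1 (true, a)).contDiff.comp_contDiffOn (η.sm i)
  refine h1.congr fun z hz => ?_
  show cp1 (true, a) (η.η i (A.e i ((A.e i).symm z))) = _
  rw [(A.e i).right_inv hz]

theorem y01_tr (η : F1 (ofAtl A)) : Tr01 A (y01 η) := by
  intro i j x hx
  have hz := e_mem_ov hx
  have h1 := η.tr i j _ hz
  rw [t_e hx.1] at h1
  have hd := ofAtl_t_diff A hz
  have h2 : η.η i (A.e i x) = (η.η j (A.e j x)).comp
      ((fderiv ℂ ((ofAtl A).t i j) (A.e i x)).restrictScalars ℝ) := by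
    ext v
    rw [h1, hd.fderiv_restrictScalars ℝ]
    rfl
  funext a
  show cp1 (true, a) (η.η i (A.e i x)) = _
  rw [h2, cp1_comp]
  rfl

/-- read in the chart -/
theorem y01_read (η : F1 (ofAtl A)) (i : A.ι) (b : Fin n) {z : Cn n} (hz : z ∈ (A.e i).target) :
    (fun w => y01 η i ((A.e i).symm w) b) =ᶠ[𝓝 z] fun w => cp1 (true, b) (η.η i w) := by
  filter_upwards [(A.e i).open_target.mem_nhds hz] with w hw
  show cp1 (true, b) (η.η i (A.e i ((A.e i).symm w))) = _
  rw [(A.e i).right_inv hw]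

theorem y01_cl (G : K11 A) (η : F1 (ofAtl A)) (h : IsD G.f2 η) : Cl01 A (y01 η) := by
  intro i x hx a b
  have hz := (A.e i).map_source hx
  have hη : DifferentiableAt ℝ (η.η i) (A.e i x) := F1.diffAt η hz
  have h1 : cp2 (true, a) (true, b) (dd (fderiv ℝ (η.η i) (A.e i x))) = 0 := by
    refine cp2_tt (fun u v => ?_) a b
    have h2 : ∀ u v, dd (fderiv ℝ (η.η i) (A.e i x)) u v = G.f2.w i (A.e i x) u v :=
      fun u v => (h i _ hz u v).symm
    rw [h2, h2, G.f2_inv hz]
  rw [cp2_d hη] at h1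
  have h3 : ∀ a b, A.db i a (fun x => y01 η i x b) x =
      wd (true, a) (fun w => cp1 (true, b) (η.η i w)) (A.e i x) :=
    fun a b => wd_congr (y01_read η i b hz) (true, a)
  rw [h3, h3]
  exact sub_eq_zero.1 h1

theorem wd_lin (c : ℂ) {f g : Cn n → ℂ} {z : Cn n} (hf : DifferentiableAt ℝ f z)
    (hg : DifferentiableAt ℝ g z) (s : WI n) :
    wd s (fun w => c * (f w - g w)) z = c * (wd s f z - wd s g z) := by
  have h1 : fderiv ℝ (fun w => c * (f w - g w)) z = c • (fderiv ℝ f z - fderiv ℝ g z) :=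
    ((hf.hasFDerivAt.sub hg.hasFDerivAt).const_mul c).fderiv
  rw [wd, h1, wdL_smul, smul_eq_mul]
  congr 1
  rw [sub_eq_add_neg, wdL_add, ← neg_one_smul ℂ (fderiv ℝ g z), wdL_smul, neg_one_smul,
    ← sub_eq_add_neg]
  rfl

/-- **exact real (1,1)-forms are `i ∂∂̄ u`** (simply connected) -/
theorem hsf_of_ex [CompactSpace M] [T2Space M] [SimplyConnectedSpace M] [Finite A.ι]
    (hA : GoodA A) (P : Part A) (K : Kah A) (G : K11 A) (h : Ex G.f2) :
    ∃ u : M → ℝ, A.Sm u ∧ ∀ i, ∀ x ∈ (A.e i).source, G.g i x = hsf A u i x := by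
  obtain ⟨η, hη⟩ := h
  obtain ⟨f, hf, hy⟩ := h1O hA P K (y01_sm η) (y01_tr η) (y01_cl G η hη)
  have hu : A.Sm (fun x => (f x).im) := fun i =>
    Complex.imCLM.contDiff.comp_contDiffOn (hf i)
  refine ⟨fun x => 4 * (f x).im, fun i => contDiffOn_const.mul (hu i), fun i x hx => ?_⟩
  have hz := (A.e i).map_source hx
  have hzm := (A.e i).open_target.mem_nhds hz
  set F : Cn n → ℂ := fun z => f ((A.e i).symm z) with hF
  have hFs : ContDiffAt ℝ ∞ F (A.e i x) := (hf i).contDiffAt hzm
  have hFd : ∀ᶠ w in 𝓝 (A.e i x), DifferentiableAt ℝ F w := by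
    filter_upwards [(A.e i).open_target.mem_nhds hz] with w hw
    exact ((hf i).contDiffAt ((A.e i).open_target.mem_nhds hw)).differentiableAt (by simp)
  have hηd : DifferentiableAt ℝ (η.η i) (A.e i x) := F1.diffAt η hz
  have e1 : ∀ b, (fun w => cp1 (true, b) (η.η i w)) =ᶠ[𝓝 (A.e i x)] wd (true, b) F := by
    intro b
    filter_upwards [(A.e i).open_target.mem_nhds hz] with w hw
    have h1 := hy i _ ((A.e i).map_target hw) b
    have h2 : y01 η i ((A.e i).symm w) b = cp1 (true, b) (η.η i w) := by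
      show cp1 (true, b) (η.η i (A.e i ((A.e i).symm w))) = _
      rw [(A.e i).right_inv hw]
    rw [← h2, h1]
    show dbj b F (A.e i ((A.e i).symm w)) = dbj b F w
    rw [(A.e i).right_inv hw]
  have e2 : ∀ a, (fun w => cp1 (false, a) (η.η i w)) =ᶠ[𝓝 (A.e i x)]
      wd (false, a) (fun w => conj (F w)) := by
    intro a
    filter_upwards [e1 a, hFd] with w hw hw'
    have h1 : cp1 (false, a) (η.η i w) = conj (cp1 (true, a) (η.η i w)) := by
      rw [cp1_conj]
      rfl
    rw [h1, hw, conj_wd _ hw']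
    rfl
  ext a b
  have h1 := cp2_d hηd (false, a) (true, b)
  have h2 : cp2 (false, a) (true, b) (dd (fderiv ℝ (η.η i) (A.e i x))) = (I / 2) * G.g i x a b := by
    refine cp2_ft _ (fun u v => ?_) a b
    have h3 : dd (fderiv ℝ (η.η i) (A.e i x)) u v = G.f2.w i (A.e i x) u v :=
      (hη i _ hz u v).symm
    rw [h3, G.f2_w hz, (A.e i).left_inv hx]
  rw [h2, wd_congr (e1 b), wd_congr (e2 a)] at h1
  have hcs : ContDiffAt ℝ ∞ (fun w => conj (F w)) (A.e i x) :=
    (conjCLE : ℂ →L[ℝ] ℂ).contDiff.contDiffAt.comp _ hFs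
  rw [wd_comm hcs (true, b) (false, a)] at h1
  have h4 : hsf A (fun x => 4 * (f x).im) i x a b =
      4 * hess (fun z => (F z).im) (A.e i x) a b := by
    have h5 : ContDiffAt ℝ ∞ (fun z => (F z).im) (A.e i x) :=
      Complex.imCLM.contDiff.contDiffAt.comp _ hFs
    show hess (fun z => 4 * (F z).im) (A.e i x) a b = _
    rw [hess_const_mul _ h5]
    simp
  rw [h4]
  have h6 : hess (fun z => (F z).im) (A.e i x) a b =
      (-(I / 2)) * (wd (false, a) (wd (true, b) F) (A.e i x) -
        wd (false, a) (wd (true, b) fun w => conj (F w)) (A.e i x)) := by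
    have hcd : ∀ᶠ w in 𝓝 (A.e i x), DifferentiableAt ℝ (fun w => conj (F w)) w := by
      filter_upwards [hFd] with w hw
      exact (conjCLE : ℂ →L[ℝ] ℂ).differentiableAt.comp w hw
    have h7 : cu (fun z => (F z).im) = fun w => (-(I / 2)) * (F w - conj (F w)) := by
      funext w
      show ((F w).im : ℂ) = _
      apply Complex.ext <;> simp
      ring
    have h8 : wd (true, b) (cu fun z => (F z).im) =ᶠ[𝓝 (A.e i x)]
        fun w => (-(I / 2)) * (wd (true, b) F w - wd (true, b) (fun w => conj (F w)) w) := by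
      filter_upwards [hFd, hcd] with w hw hw'
      rw [h7, wd_lin _ hw hw']
    rw [hess_apply, wd_congr h8,
      wd_lin _ ((contDiffAt_wd hFs _).differentiableAt (by simp))
        ((contDiffAt_wd hcs _).differentiableAt (by simp))]
  rw [h6, ← h1]
  linear_combination G.g i x a b * I_mul_I

end

end Crest.Agent.R281.Sc_413
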