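import Crest.Agent.R281.MvsD_713
import Crest.Agent.R281.Sc2_413

/-!
# Row 281, MOVE-SEMI (helper713), file 3: tools

* `kdiff`     : cohomologous closed real (1,1)-forms on the atlas differ by `i∂∂̄ u`, `u x0 = 0`
* `lin_f2`    : the line `K + s x` in real language
* `cp_tr`     : the atlas of `J 0` serves every triple with the same `J 0`
* `det_scale` : `om 1`, `om 2` multiplied by `r` : `det` of the metric multiplied by `|r|^d`
* `rot_row`   : the first row of a rotation whose other rows are orthogonal to `v`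
* `t11_Jv`, `t11_lin` : invariance under `J_a`
-/

set_option autoImplicit false
set_option linter.unusedSectionVars false
set_option maxSynthPendingDepth 3

open Set Filter Topology Complex Metric
open scoped ContDiff Matrix ComplexConjugate ComplexOrder

namespace Crest.Agent.R281.Mvs_713

open Crest.Agent.R275.Geo Crest.Agent.R275.Core144 Crest.Agent.R275.EDR890
open Crest.Agent.R275.GC293
open Crest.Agent.R273.Defs_333
open Crest.Agent.R273.Kah_333 Crest.Agent.R273.Hess_333 Crest.Agent.R281.Defs_273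
open Crest.Agent.R273.NoHVF_376
open Crest.Agent.R273.Vol_333 (addK Yau)
open Crest.Agent.R260.ACM_580 Crest.Agent.R260.NNB_580
open Crest.Agent.R281.HkP1_508 Crest.Agent.R281.HkP2_508 Crest.Agent.R281.HkP3_508
open Crest.Agent.R281.Ti_846 Crest.Agent.R281.Dif_268 Crest.Agent.R281.Cdr_234
open Crest.Agent.R281.NefO_476 (ofHk Pos)
open Crest.Agent.R281.Nef_252 (T11 KCls)
open Crest.Agent.R281.HkR_835 Crest.Agent.R281.Alg_998
open Crest.Agent.R281.HKMov_478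
open Crest.Agent.R281.Sc_413 (hsf_of_ex)

noncomputable section

section atl

variable {d : ℕ} {X : Type} [TopologicalSpace X] {A : Atl d X}

theorem GB_sub (B B' : Bil (Cn d)) : GB (B - B') = GB B - GB B' := by
  ext a b
  show hw (B - B') _ _ = hw B _ _ - hw B' _ _
  unfold hw
  simp only [sub_apply]
  push_cast
  ring

theorem kdiff [CompactSpace X] [T2Space X] [SimplyConnectedSpace X] [Finite A.ι] (hG : GoodA A)
    (P : Part A) (K : Kah A) (x0 : X) {G G' : K11 A} (h : Ex (G'.f2 - G.f2)) :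
    ∃ u : X → ℝ, A.Sm u ∧ u x0 = 0 ∧ ∀ i, ∀ x ∈ (A.e i).source,
      G'.g i x = G.g i x + hsf A u i x := by
  have hw : ∀ i : A.ι, ∀ z, (G'.f2 - G.f2).w i z = G'.f2.w i z - G.f2.w i z := fun _ _ => rfl
  have hinv : ∀ i : A.ι, ∀ z ∈ (A.e i).target, ∀ u v,
      (G'.f2 - G.f2).w i z (I • u) (I • v) = (G'.f2 - G.f2).w i z u v := by
    intro i z hz u v
    rw [hw]
    show G'.f2.w i z (I • u) (I • v) - G.f2.w i z (I • u) (I • v) = _
    rw [G'.f2_inv hz, G.f2_inv hz]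
    rfl
  set D := (G'.f2 - G.f2).k11 hinv with hD
  have hE : Ex D.f2 := by
    have e : Eqv (G'.f2 - G.f2) D.f2 := eqvA fun i z hz u v => by rw [hD, F2.k11_f2 _ _ hz]
    exact e.ex h
  obtain ⟨u, hu, hy⟩ := hsf_of_ex hG P K D hE
  have hg : ∀ i, ∀ x ∈ (A.e i).source, D.g i x = G'.g i x - G.g i x := by
    intro i x hx
    have a1 : GB (G'.f2.w i (A.e i x)) = G'.g i x := K11.f2_k11 G' hx
    have a2 : GB (G.f2.w i (A.e i x)) = G.g i x := K11.f2_k11 G hx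
    rw [← a1, ← a2, ← GB_sub]
    rfl
  refine ⟨fun x => u x + (-(u x0)), fun i => (hu i).add contDiffOn_const, by ring,
    fun i x hx => ?_⟩
  rw [hsf_subc hu _ hx, ← hy i x hx, hg i x hx, add_sub_cancel]

end atl

section hk

variable {d : ℕ} {X : Type} [TopologicalSpace X] {A : Atl d X}
variable {V : Type} [NormedAddCommGroup V] [NormedSpace ℝ V] {C : RCh V X}

/-- the line `K + s x` in real language -/
theorem lin_f2 (H : HkT C) (hA : Cp (H.acm 0) A) {x : F2 C} (hx : T11 (ofHk H 0) x) (s : ℝ) :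
    Eqv (linK (H.kah hA) (((cmp_of_cp hA).F x).k11 (onA_11 H hA hx)) s).f2
      ((cmp_of_cp hA).F (H.om 0 + s • x)) := by
  set hc := cmp_of_cp hA with hhc
  set K := H.kah hA with hK
  set B : K11 A := ((hc.F x).k11 (onA_11 H hA hx)) with hB
  refine eqvA fun j z hz u v => ?_
  obtain ⟨i, hi⟩ := Cmp.exists_mov (C' := ofAtl A) C (j := j) hz
  have k1 : (ofKah K).f2.w j z u v = (hc.F (H.om 0)).w j z u v := by
    have h1 := K0_om0 (H.onA hA) (onA_J H hA) hz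
    exact congrArg (fun b : Bil (Cn d) => b u v) h1
  have k2 : B.f2.w j z u v = (hc.F x).w j z u v := by
    rw [hB, F2.k11_f2 _ _ hz]
  rw [K11.f2_w _ hz] at k1 k2 ⊢
  rw [hc.F_w _ hi] at k1 k2 ⊢
  have e : hb ((linK K B s).g j ((A.e j).symm z)) u v =
      hb (K.g j ((A.e j).symm z)) u v + (s : ℂ) * hb (B.g j ((A.e j).symm z)) u v := by
    have h1 : (linK K B s).g j ((A.e j).symm z) =
      K.g j ((A.e j).symm z) + (s : ℂ) • B.g j ((A.e j).symm z) := rfl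
    rw [← hbL_apply, h1, map_add, map_smul, hbL_apply, hbL_apply, smul_eq_mul]
  rw [e, mul_add, Complex.add_re, mul_left_comm, Complex.re_ofReal_mul]
  have e2 : (I * hb (K.g j ((A.e j).symm z)) u v).re = (H.om 0).w i (mt C (ofAtl A) i j z)
    (fderiv ℝ (mt C (ofAtl A) i j) z u) (fderiv ℝ (mt C (ofAtl A) i j) z v) := k1
  rw [e2, k2]
  rfl

theorem kah_f2 (H : HkT C) (hA : Cp (H.acm 0) A) :
    Eqv (ofKah (H.kah hA)).f2 ((cmp_of_cp hA).F (H.om 0)) := by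
  refine eqvA fun j z hz u v => ?_
  have h1 := K0_om0 (H.onA hA) (onA_J H hA) hz
  exact congrArg (fun b : Bil (Cn d) => b u v) h1

theorem cp_tr {H H' : HkT C}
    (hJ : ∀ i, ∀ z ∈ (C.e i).target, ∀ v, H'.J 0 i z v = H.J 0 i z v) (hA : Cp (H.acm 0) A) :
    Cp (H'.acm 0) A := fun a => ⟨(hA a).sm, (hA a).sm', fun i z hz v => by
  have h1 := (hA a).lin i z hz v
  show fderiv ℝ _ z (H'.J 0 i z v) = _
  rw [hJ i z hz.1 v]
  exact h1⟩

theorem sig_scale {H H' : HkT C} (hA : Cp (H.acm 0) A) (hA' : Cp (H'.acm 0) A) {r : ℝ}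
    (h1 : Eqv (H'.om 1) (r • H.om 1)) (h2 : Eqv (H'.om 2) (r • H.om 2)) (i : A.ι) (x : X)
    (hx : x ∈ (A.e i).source) : (H'.sig hA').s i x = (r : ℂ) • (H.sig hA).s i x := by
  refine sb_ext fun u v => ?_
  have hz := (A.e i).map_source hx
  have e1 := sig_sb H hA hz u v
  have e2 := sig_sb H' hA' hz u v
  have e3 : ∀ (σ : H2 A), sl σ i (A.e i x) = σ.s i x := by
    intro σ
    show σ.s i ((A.e i).symm (A.e i x)) = _
    rw [(A.e i).left_inv hx]
  rw [e3] at e1 e2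
  obtain ⟨i', hi⟩ := Cmp.exists_mov (C' := ofAtl A) C (j := i) hz
  have f1 : ((cmp_of_cp hA').F (H'.om 1)).w i (A.e i x) u v =
      r * ((cmp_of_cp hA).F (H.om 1)).w i (A.e i x) u v := by
    rw [(cmp_of_cp hA').F_w _ hi, (cmp_of_cp hA).F_w _ hi]
    exact h1 i' _ (Cmp.mt_mem hi).1 _ _
  have f2 : ((cmp_of_cp hA').F (H'.om 2)).w i (A.e i x) u v =
      r * ((cmp_of_cp hA).F (H.om 2)).w i (A.e i x) u v := by
    rw [(cmp_of_cp hA').F_w _ hi, (cmp_of_cp hA).F_w _ hi]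
    exact h2 i' _ (Cmp.mt_mem hi).1 _ _
  rw [sb_smul]
  have e4 : sb ((H.sig hA).s i x) u v = _ := e1
  have e5 : sb ((H'.sig hA').s i x) u v = _ := e2
  rw [e4, e5, f1, f2]
  push_cast
  ring

theorem det_scale {H H' : HkT C} (hA : Cp (H.acm 0) A) (hA' : Cp (H'.acm 0) A) {r : ℝ}
    (h1 : Eqv (H'.om 1) (r • H.om 1)) (h2 : Eqv (H'.om 2) (r • H.om 2)) (i : A.ι) (x : X)
    (hx : x ∈ (A.e i).source) :
    ((H'.kah hA').g i x).det = ((|r| ^ d : ℝ) : ℂ) * ((H.kah hA).g i x).det := by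
  have e1 : ((H.kah hA).g i x).det = ((‖((H.sig hA).s i x).det‖ : ℝ) : ℂ) :=
    det0 (H.onA hA) (onA_J H hA) i x hx
  have e2 : ((H'.kah hA').g i x).det = ((‖((H'.sig hA').s i x).det‖ : ℝ) : ℂ) :=
    det0 (H'.onA hA') (onA_J H' hA') i x hx
  rw [e1, e2, sig_scale hA hA' h1 h2 i x hx, Matrix.det_smul, Fintype.card_fin, norm_mul, norm_pow,
    Complex.norm_real, Real.norm_eq_abs]
  push_cast
  ring

/-! ### rotations -/

theorem rot_row {R : Fin 3 → Fin 3 → ℝ} (hR : HkT.Fr R) {v : Fin 3 → ℝ}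
    (h1 : ∑ k, R 1 k * v k = 0) (h2 : ∑ k, R 2 k * v k = 0) (h0 : 0 < ∑ k, R 0 k * v k)
    (k : Fin 3) : R 0 k = v k / Real.sqrt (∑ k, v k ^ 2) := by
  set M : Matrix (Fin 3) (Fin 3) ℝ := Matrix.of R with hM
  have c0 : R 2 0 = R 0 1 * R 1 2 - R 0 2 * R 1 1 := congrFun hR.crs 0
  have c1 : R 2 1 = R 0 2 * R 1 0 - R 0 0 * R 1 2 := congrFun hR.crs 1
  have c2 : R 2 2 = R 0 0 * R 1 1 - R 0 1 * R 1 0 := congrFun hR.crs 2
  have n0 := hR.nrm 0
  have n1 := hR.nrm 1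
  have n2 := hR.nrm 2
  have o := hR.ort
  have hMM : M * Mᵀ = 1 := by
    ext i j
    rw [Matrix.mul_apply, Fin.sum_univ_three]
    simp only [Matrix.transpose_apply, hM, Matrix.of_apply]
    fin_cases i <;> fin_cases j
    · show R 0 0 * R 0 0 + R 0 1 * R 0 1 + R 0 2 * R 0 2 = (1 : Matrix (Fin 3) (Fin 3) ℝ) 0 0
      rw [Matrix.one_apply_eq]; exact n0
    · show R 0 0 * R 1 0 + R 0 1 * R 1 1 + R 0 2 * R 1 2 = (1 : Matrix (Fin 3) (Fin 3) ℝ) 0 1
      rw [Matrix.one_apply_ne (by decide)]; exact o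
    · show R 0 0 * R 2 0 + R 0 1 * R 2 1 + R 0 2 * R 2 2 = (1 : Matrix (Fin 3) (Fin 3) ℝ) 0 2
      rw [Matrix.one_apply_ne (by decide), c0, c1, c2]; ring
    · show R 1 0 * R 0 0 + R 1 1 * R 0 1 + R 1 2 * R 0 2 = (1 : Matrix (Fin 3) (Fin 3) ℝ) 1 0
      rw [Matrix.one_apply_ne (by decide)]; linarith
    · show R 1 0 * R 1 0 + R 1 1 * R 1 1 + R 1 2 * R 1 2 = (1 : Matrix (Fin 3) (Fin 3) ℝ) 1 1
      rw [Matrix.one_apply_eq]; exact n1
    · show R 1 0 * R 2 0 + R 1 1 * R 2 1 + R 1 2 * R 2 2 = (1 : Matrix (Fin 3) (Fin 3) ℝ) 1 2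
      rw [Matrix.one_apply_ne (by decide), c0, c1, c2]; ring
    · show R 2 0 * R 0 0 + R 2 1 * R 0 1 + R 2 2 * R 0 2 = (1 : Matrix (Fin 3) (Fin 3) ℝ) 2 0
      rw [Matrix.one_apply_ne (by decide), c0, c1, c2]; ring
    · show R 2 0 * R 1 0 + R 2 1 * R 1 1 + R 2 2 * R 1 2 = (1 : Matrix (Fin 3) (Fin 3) ℝ) 2 1
      rw [Matrix.one_apply_ne (by decide), c0, c1, c2]; ring
    · show R 2 0 * R 2 0 + R 2 1 * R 2 1 + R 2 2 * R 2 2 = (1 : Matrix (Fin 3) (Fin 3) ℝ) 2 2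
      rw [Matrix.one_apply_eq]; exact n2
  have hMt : Mᵀ * M = 1 := mul_eq_one_comm.1 hMM
  set l := ∑ k, R 0 k * v k with hl
  have hv : ∀ k, v k = R 0 k * l := by
    intro k
    have e1 : Mᵀ *ᵥ (M *ᵥ v) = v := by
      rw [Matrix.mulVec_mulVec, hMt, Matrix.one_mulVec]
    have e2 : M *ᵥ v = ![l, 0, 0] := by
      funext j
      fin_cases j
      · rfl
      · exact h1
      · exact h2
    have e3 := congrFun e1 k
    rw [e2] at e3
    rw [← e3]
    simp [Matrix.mulVec, dotProduct, Fin.sum_univ_three, hM]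
  have hs : ∑ k, v k ^ 2 = l ^ 2 := by
    rw [Fin.sum_univ_three, hv 0, hv 1, hv 2]
    linear_combination l ^ 2 * n0
  rw [hs, Real.sqrt_sq h0.le, hv k, mul_div_assoc, div_self h0.ne', mul_one]

theorem t11_Jv {H : HkT C} {y : F2 C} (h : ∀ k, T11 (ofHk H k) y) {a : Fin 3 → ℝ}
    (ha : a 0 ^ 2 + a 1 ^ 2 + a 2 ^ 2 = 1) (i : C.ι) (z : V) (hz : z ∈ (C.e i).target) (u v : V) :
    y.w i z (H.Jv a i z u) (H.Jv a i z v) = y.w i z u v := by
  have k0 : ∀ u v, y.w i z (H.J 0 i z u) (H.J 0 i z v) = y.w i z u v := fun u v => h 0 i z hz u v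
  have k1 : ∀ u v, y.w i z (H.J 1 i z u) (H.J 1 i z v) = y.w i z u v := fun u v => h 1 i z hz u v
  have k2 : ∀ u v, y.w i z (H.J 2 i z u) (H.J 2 i z v) = y.w i z u v := fun u v => h 2 i z hz u v
  have e01 : y.w i z (H.J 0 i z u) (H.J 1 i z v) = -y.w i z u (H.J 2 i z v) := by
    rw [← k0, H.J_sq 0 i z hz, H.J_01 i z hz, map_neg, neg_apply]
  have e10 : y.w i z (H.J 1 i z u) (H.J 0 i z v) = y.w i z u (H.J 2 i z v) := by
    rw [← k1, H.J_sq 1 i z hz, H.J_10 hz, map_neg, map_neg, neg_apply, neg_neg]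
  have e02 : y.w i z (H.J 0 i z u) (H.J 2 i z v) = y.w i z u (H.J 1 i z v) := by
    rw [← k0, H.J_sq 0 i z hz, H.J_02 hz, map_neg, map_neg, neg_apply, neg_neg]
  have e20 : y.w i z (H.J 2 i z u) (H.J 0 i z v) = -y.w i z u (H.J 1 i z v) := by
    rw [← k2, H.J_sq 2 i z hz, H.J_20 hz, map_neg, neg_apply]
  have e12 : y.w i z (H.J 1 i z u) (H.J 2 i z v) = -y.w i z u (H.J 0 i z v) := by
    rw [← k1, H.J_sq 1 i z hz, H.J_12 hz, map_neg, neg_apply]
  have e21 : y.w i z (H.J 2 i z u) (H.J 1 i z v) = y.w i z u (H.J 0 i z v) := by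
    rw [← k2, H.J_sq 2 i z hz, H.J_21 hz, map_neg, map_neg, neg_apply, neg_neg]
  rw [H.Jv_apply, H.Jv_apply]
  simp only [map_add, map_smul, add_apply, smul_apply, smul_eq_mul, k0, k1, k2, e01, e10, e02, e20,
    e12, e21]
  linear_combination (y.w i z u v) * ha

/-- `∑ a_k om_k` is invariant under `J_a` -/
theorem t11_lin (H : HkT C) {a : Fin 3 → ℝ} (ha : a 0 ^ 2 + a 1 ^ 2 + a 2 ^ 2 = 1) (i : C.ι)
    (z : V) (hz : z ∈ (C.e i).target) (u v : V) :
    (∑ k, a k * (H.om k).w i z (H.Jv a i z u) (H.Jv a i z v)) =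
      ∑ k, a k * (H.om k).w i z u v := by
  have e : ∀ u v, (∑ k, a k * (H.om k).w i z u v) = H.g i z (H.Jv a i z u) v := by
    intro u v
    rw [H.Jv_apply, Fin.sum_univ_three, H.om_eq 0 i z hz, H.om_eq 1 i z hz, H.om_eq 2 i z hz]
    simp only [map_add, map_smul, add_apply, smul_apply, smul_eq_mul]
  have e2 : ∀ u v, H.g i z (H.Jv a i z u) v = -H.g i z u (H.Jv a i z v) := by
    intro u v
    rw [H.Jv_apply, H.Jv_apply]
    simp only [map_add, map_smul, add_apply, smul_apply, smul_eq_mul, H.g_J' 0 hz, H.g_J' 1 hz,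
      H.g_J' 2 hz]
    ring
  rw [e, e, H.Jv_mul a a hz]
  have e3 : a 0 * a 0 + a 1 * a 1 + a 2 * a 2 = 1 := by linarith
  have e4 : H.Jv ![a 1 * a 2 - a 2 * a 1, a 2 * a 0 - a 0 * a 2, a 0 * a 1 - a 1 * a 0] i z u =
      0 := by
    rw [H.Jv_apply]
    simp [mul_comm]
  rw [e3, e4, add_zero, neg_one_smul, map_neg, neg_apply, e2 u v]

end hk

end

end Crest.Agent.R281.Mvs_713
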