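import Crest.Agent.R281.Mvs3_713

/-!
# Row 281, MOVE-SEMI (helper713), file 4: the linear family at one parameter

* `lin11`    : `G + s H` in `K11`
* `dcC_η`    : `-¼ df ∘ J 0` in the real charts
* `exists_f` : `W` of type (1,1) for `J 0`: there is `f` with `f x0 = 0`, `tr (W + i∂∂̄ f)` constant
  and `W + i∂∂̄ f = y + μ om 0`, `y` of type (1,1) for all three structures
-/

set_option autoImplicit false
set_option linter.unusedSectionVars false
set_option maxSynthPendingDepth 3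

open Set Filter Topology Complex Metric
open scoped ContDiff Matrix ComplexConjugate ComplexOrder

namespace Crest.Agent.R281.Mvs_713

open Crest.Agent.R275.Geo Crest.Agent.R275.Core144 Crest.Agent.R275.EDR890
open Crest.Agent.R275.GC293
open Crest.Agent.R273.Defs_333
open Crest.Agent.R273.Kah_333 Crest.Agent.R273.Hess_333 Crest.Agent.R281.Defs_273
open Crest.Agent.R273.NoHVF_376
open Crest.Agent.R260.ACM_580 Crest.Agent.R260.NNB_580
open Crest.Agent.R281.HkP1_508 Crest.Agent.R281.HkP2_508 Crest.Agent.R281.HkP3_508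
open Crest.Agent.R281.Ti_846 Crest.Agent.R281.Dif_268 Crest.Agent.R281.Cdr_234
open Crest.Agent.R281.NefO_476 (ofHk Pos)
open Crest.Agent.R281.Nef_252 (T11 KCls T11_hk)
open Crest.Agent.R281.HkR_835 Crest.Agent.R281.Alg_998
open Crest.Agent.R281.HKMov_478
open Crest.Agent.R281.LAn_508 (trQ)
open Crest.Agent.R273.GreenM_5 (ci mem_ci trK)

noncomputable section

section atl

variable {d : ℕ} {X : Type} [TopologicalSpace X] {A : Atl d X}

/-- `G + s H` -/
def lin11 (G H : K11 A) (s : ℝ) : K11 A where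
  g i x := G.g i x + (s : ℂ) • H.g i x
  sm i a b := (G.sm i a b).add (contDiffOn_const.mul (H.sm i a b))
  herm i x hx := by
    refine (G.herm i x hx).add ?_
    unfold Matrix.IsHermitian
    rw [Matrix.conjTranspose_smul, (H.herm i x hx).eq, Complex.star_def, Complex.conj_ofReal]
  tr i j x hx := by
    rw [G.tr i j x hx, H.tr i j x hx, Matrix.mul_add, Matrix.add_mul, Matrix.mul_smul,
      Matrix.smul_mul]
  closed i z hz a b c := by
    have hK : ∀ a, DifferentiableAt ℝ (fun w => G.g i ((A.e i).symm w) a b) z := fun a =>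
      ((G.sm i a b).contDiffAt ((A.e i).open_target.mem_nhds hz)).differentiableAt (by simp)
    have hH : ∀ a, DifferentiableAt ℝ (fun w => H.g i ((A.e i).symm w) a b) z := fun a =>
      ((H.sm i a b).contDiffAt ((A.e i).open_target.mem_nhds hz)).differentiableAt (by simp)
    have hr : ∀ a, (fun w => (G.g i ((A.e i).symm w) + (s : ℂ) • H.g i ((A.e i).symm w)) a b) =
        fun w => G.g i ((A.e i).symm w) a b + (s : ℂ) * H.g i ((A.e i).symm w) a b := fun a => rfl
    have hs : ∀ e (f : Cn d → ℂ), DifferentiableAt ℝ f z →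
        wd e (fun w => (s : ℂ) * f w) z = (s : ℂ) * wd e f z := fun e f hf =>
      wd_const_smul (s : ℂ) hf e
    rw [hr a, hr c, wd_add (hK a) ((hH a).const_mul _), wd_add (hK c) ((hH c).const_mul _),
      hs _ _ (hH a), hs _ _ (hH c), G.closed i z hz, H.closed i z hz]

theorem lin11_f2 (G H : K11 A) (s : ℝ) {i : A.ι} {z : Cn d} (hz : z ∈ (A.e i).target)
    (u v : Cn d) : (lin11 G H s).f2.w i z u v = G.f2.w i z u v + s * H.f2.w i z u v := by
  rw [K11.f2_w _ hz, K11.f2_w _ hz, K11.f2_w _ hz]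
  have e : hb ((lin11 G H s).g i ((A.e i).symm z)) u v =
      hb (G.g i ((A.e i).symm z)) u v + (s : ℂ) * hb (H.g i ((A.e i).symm z)) u v := by
    have h1 : (lin11 G H s).g i ((A.e i).symm z) =
      G.g i ((A.e i).symm z) + (s : ℂ) • H.g i ((A.e i).symm z) := rfl
    rw [← hbL_apply, h1, map_add, map_smul, hbL_apply, hbL_apply, smul_eq_mul]
  rw [e, mul_add, Complex.add_re, mul_left_comm, Complex.re_ofReal_mul]

end atl

section hk

variable {d : ℕ} {X : Type} [TopologicalSpace X] {A : Atl d X}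
variable {V : Type} [NormedAddCommGroup V] [NormedSpace ℝ V] {C : RCh V X}

/-- the 1-form `-¼ df ∘ J 0` in the real charts -/
theorem dcC_η (H : HkT C) (hA : Cp (H.acm 0) A) {f : X → ℝ} (hf : A.Sm f) {i : C.ι} {z : V}
    (hz : z ∈ (C.e i).target) (v : V) :
    ((SMap.ofCmp (cmp_of_cp hA).symm).pull1 (dcF f hf)).η i z v =
      -(1 / 4 : ℝ) * fderiv ℝ (fun y => f ((C.e i).symm y)) z (H.J 0 i z v) := by
  obtain ⟨j, hj⟩ := Cmp.exists_mov (C' := C) (ofAtl A) (j := i) hz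
  have hj' := Cmp.mt_mem hj
  rw [(SMap.ofCmp (cmp_of_cp hA).symm).pull1_η (dcF f hf) hj v]
  have e0 : (fun y => f ((C.e i).symm y)) =ᶠ[𝓝 z]
      fun y => f ((A.e j).symm (mt (ofAtl A) C j i y)) := by
    filter_upwards [(Cmp.isOpen_mov (ofAtl A) C j i).mem_nhds hj] with y hy
    exact congrArg f ((A.e j).left_inv hy.2).symm
  have h2 : DifferentiableAt ℝ (fun y => f ((A.e j).symm y)) (mt (ofAtl A) C j i z) :=
    ((hf j).contDiffAt ((A.e j).open_target.mem_nhds hj'.1)).differentiableAt (by simp)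
  have h3 : HasFDerivAt (fun y => f ((A.e j).symm (mt (ofAtl A) C j i y)))
      ((fderiv ℝ (fun y => f ((A.e j).symm y)) (mt (ofAtl A) C j i z)).comp
        (fderiv ℝ (mt (ofAtl A) C j i) z)) z :=
    HasFDerivAt.comp (g := fun y => f ((A.e j).symm y)) (f := mt (ofAtl A) C j i) z
      h2.hasFDerivAt ((cmp_of_cp hA).symm.diff hj).hasFDerivAt
  rw [e0.fderiv_eq, h3.fderiv]
  have e1 : fderiv ℝ (mt (ofAtl A) C j i) z (H.J 0 i z v) =
      I • fderiv ℝ (mt (ofAtl A) C j i) z v := (hA j).lin i z hj v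
  rw [ContinuousLinearMap.comp_apply, e1]
  rfl

/-- the linear family at one parameter -/
theorem exists_f [FiniteDimensional ℝ V] [CompactSpace X] [T2Space X] [SimplyConnectedSpace X]
    [Finite A.ι] (hG : GoodA A) (P : Part A) {Q : F2 C →ₗ[ℝ] F2 C →ₗ[ℝ] ℝ}
    (hsy : ∀ x y, Q x y = Q y x) (hex : ∀ x y, Ex x → Q x y = 0) {H : HkT C}
    (heq : ∀ (H : HkT C) k, Q (H.om k) (H.om k) = Q (H.om 0) (H.om 0))
    (hA : Cp (H.acm 0) A) (hu : UniqT H) (hq : Q (H.om 0) (H.om 0) ≠ 0) {W : F2 C}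
    (hW : T11 (ofHk H 0) W) (E : K11 A) (hE : Eqv E.f2 ((cmp_of_cp hA).F W)) (x0 : X) :
    ∃ (f : X → ℝ) (hf : A.Sm f) (y : F2 C), f x0 = 0 ∧
      (∃ c : ℝ, ∀ x, trQ (H.kah hA) E f x = c) ∧ (∀ k, T11 (ofHk H k) y) ∧
      ∀ i, ∀ z ∈ (C.e i).target, ∀ u v, W.w i z u v +
        (fderiv ℝ (((SMap.ofCmp (cmp_of_cp hA).symm).pull1 (dcF f hf)).η i) z u v -
          fderiv ℝ (((SMap.ofCmp (cmp_of_cp hA).symm).pull1 (dcF f hf)).η i) z v u) =
        y.w i z u v + (Q W (H.om 0) / Q (H.om 0) (H.om 0)) * (H.om 0).w i z u v := by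
  set hc := cmp_of_cp hA with hhc
  set q := Q (H.om 0) (H.om 0) with hqd
  set μ := Q W (H.om 0) / q with hμ
  set K := H.kah hA with hK
  have hT0 : T11 (ofHk H 0) (H.om 0) := T11_hk H 0
  have hx : T11 (ofHk H 0) (W - μ • H.om 0) := by
    intro i z hz u v
    have e1 := hW i z hz u v
    have e2 := hT0 i z hz u v
    show W.w i z _ _ - μ * (H.om 0).w i z _ _ = W.w i z u v - μ * (H.om 0).w i z u v
    rw [e1, e2]
  have h0 : Q (W - μ • H.om 0) (H.om 0) = 0 := by
    rw [map_sub, map_smul, LinearMap.sub_apply, LinearMap.smul_apply, smul_eq_mul, ← hqd, hμ,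
      div_mul_cancel₀ _ hq, sub_self]
  obtain ⟨D, hD1, hD2, hD3⟩ := rep3A P hsy hex heq hA hu hq hx h0
  have kK := kah_f2 H hA
  have hEx : Ex ((lin11 D (ofKah K) μ).f2 - E.f2) := by
    have h2 := (F_sub hc _ _).ex (ex_F hc hD1)
    refine Eqv.ex (eqvA fun j z hz u v => ?_) h2
    obtain ⟨i, hi⟩ := Cmp.exists_mov (C' := ofAtl A) C (j := j) hz
    have a1 := F_F hc.symm D.f2 j z hz u v
    have a2 := hE j z hz u v
    have a3 := kK j z hz u v
    have a4 : (hc.F (W - μ • H.om 0)).w j z u v = (hc.F W).w j z u v -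
        μ * (hc.F (H.om 0)).w j z u v := by
      rw [hc.F_w _ hi, hc.F_w _ hi, hc.F_w _ hi]
      rfl
    have a5 := lin11_f2 D (ofKah K) μ hz u v
    show (hc.F (hc.symm.F D.f2)).w j z u v - (hc.F (W - μ • H.om 0)).w j z u v =
      (lin11 D (ofKah K) μ).f2.w j z u v - E.f2.w j z u v
    rw [a5, a4]
    have a1' : (hc.F (hc.symm.F D.f2)).w j z u v = D.f2.w j z u v := a1
    rw [a1', a2, a3]
    ring
  obtain ⟨f, hf, hf0, hfe⟩ := kdiff hG P K x0 hEx
  refine ⟨f, hf, hc.symm.F D.f2, hf0, ⟨μ * d, fun x => ?_⟩, hD2, fun i z hz u v => ?_⟩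
  · have hxs := mem_ci (A := A) x
    show (((K.g (ci A x) x)⁻¹ * (E.g (ci A x) x + hsf A f (ci A x) x)).trace).re = _
    rw [← hfe _ x hxs]
    show (((K.g (ci A x) x)⁻¹ * (D.g (ci A x) x + (μ : ℂ) • K.g (ci A x) x)).trace).re = _
    have hdet : IsUnit (K.g (ci A x) x).det :=
      isUnit_iff_ne_zero.2 (K.pos _ x hxs).det_pos.ne'
    rw [Matrix.mul_add, Matrix.mul_smul, Matrix.nonsing_inv_mul _ hdet, Matrix.trace_add,
      Matrix.trace_smul, Matrix.trace_one, Fintype.card_fin]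
    have h3 : ((K.g (ci A x) x)⁻¹ * D.g (ci A x) x).trace = 0 := hD3 _ x hxs
    rw [h3, zero_add, smul_eq_mul, Complex.re_ofReal_mul, Complex.natCast_re]
  · have h1 := isD_dcF hf hfe
    have h2 := (SMap.ofCmp hc.symm).isD_pull h1 i z hz u v
    have h3 := F_pull hc.symm ((lin11 D (ofKah K) μ).f2 - E.f2) i z hz u v
    have h4 : fderiv ℝ (((SMap.ofCmp hc.symm).pull1 (dcF f hf)).η i) z u v -
        fderiv ℝ (((SMap.ofCmp hc.symm).pull1 (dcF f hf)).η i) z v u =
        (hc.symm.F ((lin11 D (ofKah K) μ).f2 - E.f2)).w i z u v := by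
      rw [h3, h2]
    obtain ⟨j, hj⟩ := Cmp.exists_mov (C' := C) (ofAtl A) (j := i) hz
    have hj' := Cmp.mt_mem hj
    rw [h4, hc.symm.F_w _ hj, hc.symm.F_w _ hj]
    have b1 := F_F hc W i z hz u v
    have b2 := F_F hc (H.om 0) i z hz u v
    rw [hc.symm.F_w _ hj] at b1 b2
    have a2 := hE j _ hj'.1 (fderiv ℝ (mt (ofAtl A) C j i) z u) (fderiv ℝ (mt (ofAtl A) C j i) z v)
    have a3 := kK j _ hj'.1 (fderiv ℝ (mt (ofAtl A) C j i) z u) (fderiv ℝ (mt (ofAtl A) C j i) z v)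
    have a5 := lin11_f2 D (ofKah K) μ hj'.1 (fderiv ℝ (mt (ofAtl A) C j i) z u)
      (fderiv ℝ (mt (ofAtl A) C j i) z v)
    rw [← b1, ← b2]
    show _ + ((lin11 D (ofKah K) μ).f2.w j (mt (ofAtl A) C j i z)
      (fderiv ℝ (mt (ofAtl A) C j i) z u) (fderiv ℝ (mt (ofAtl A) C j i) z v) -
      E.f2.w j (mt (ofAtl A) C j i z)
      (fderiv ℝ (mt (ofAtl A) C j i) z u) (fderiv ℝ (mt (ofAtl A) C j i) z v)) = _
    rw [a5, a2, a3]
    ring

end hk

end

end Crest.Agent.R281.Mvs_713
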