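import Crest.Agent.R281.Mvs4_713
import Crest.Agent.R281.RkD_902
import Crest.Agent.R260.NN6_900

/-!
# Row 281, MOVE-SEMI (helper713), file 5: from a move to `MvOut`

* `NF`     : normal form of a move (`J 0` fixed, `om 1`, `om 2` scaled, class of `om 0` affine) and
             the first complex structure of `H s` as `J_a(M s)`, `a = v/|v|`, `v_k = Q e (om k)`
* `nf_of`  : `Move`, `SameTw`, `Given` ==> `NF`
* **`nonempty_mvOut`** : `Ctx`, `Move`, `SameTw`, `Given` ==> `MvOut C L0 H`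
-/

set_option autoImplicit false
set_option linter.unusedSectionVars false
set_option maxSynthPendingDepth 3

open Set Filter Topology Complex Metric
open scoped ContDiff Matrix ComplexConjugate ComplexOrder

namespace Crest.Agent.R281.Mvs_713

open Crest.Agent.R275.Geo Crest.Agent.R275.Core144 Crest.Agent.R275.EDR890
open Crest.Agent.R275.GC293
open Crest.Agent.R273.Defs_333
open Crest.Agent.R273.Kah_333 Crest.Agent.R273.Hess_333 Crest.Agent.R281.Defs_273
open Crest.Agent.R260.ACM_580 Crest.Agent.R260.NNB_580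
open Crest.Agent.R281.HkP1_508 Crest.Agent.R281.HkP2_508 Crest.Agent.R281.HkP3_508
open Crest.Agent.R281.Ti_846 Crest.Agent.R281.Dif_268 Crest.Agent.R281.Cdr_234
open Crest.Agent.R281.NefO_476 (ofHk Pos)
open Crest.Agent.R281.Nef_252 (T11 KCls T11_hk)
open Crest.Agent.R281.HkR_835 Crest.Agent.R281.Alg_998 Crest.Agent.R281.PL_713
open Crest.Agent.R281.HKMov_478
open Crest.Agent.R281.LAn_508 (trQ)
open Crest.Agent.R281.Sem_323 (SegK SegF)
open Crest.Agent.R281.Sta2_684 (smulP)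
open Crest.Agent.R281.RkD_902 (Move SameTw Given Ctx)

noncomputable section

theorem an_sqrt {f : ℝ → ℝ} {s : ℝ} (hf : AnalyticAt ℝ f s) (h : f s ≠ 0) :
    AnalyticAt ℝ (fun t => Real.sqrt (f t)) s :=
  (ContDiffAt.sqrt hf.contDiffAt h (n := ω)).analyticAt

section gen

variable {V X : Type} [NormedAddCommGroup V] [NormedSpace ℝ V] [TopologicalSpace X] {C : RCh V X}
  {Q : F2 C →ₗ[ℝ] F2 C →ₗ[ℝ] ℝ}

theorem lin_cl (a : Fin 3 → ℝ) (w : Fin 3 → F2 C) :
    Cl (F2.lin a w) (a 0 • w 0 + a 1 • w 1 + a 2 • w 2) :=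
  Cl.of_eq_on fun i z _ => by
    ext u v
    rw [F2.lin_w, Fin.sum_univ_three]
    rfl

theorem Qr_cl (hsy : ∀ x y, Q x y = Q y x) (hex : ∀ x y, Ex x → Q x y = 0) {a b : F2 C}
    (h : Cl a b) (c : F2 C) : Q c a = Q c b := by
  rw [hsy c a, hsy c b, Q_cl hex h]

/-- the normal form of a move -/
structure NF (Q : F2 C →ₗ[ℝ] F2 C →ₗ[ℝ] ℝ) (e : F2 C) (M H : ℝ → HkT C) : Prop where
  J0 : ∀ s ∈ Icc (0 : ℝ) 1, ∀ i, ∀ z ∈ (C.e i).target, ∀ v, (M s).J 0 i z v = (M 0).J 0 i z v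
  om12 : ∀ s ∈ Icc (0 : ℝ) 1, ∃ r : ℝ, 0 < r ∧ ∀ k : Fin 3, k ≠ 0 →
    Eqv ((M s).om k) (r • (M 0).om k)
  cls : ∀ s ∈ Icc (0 : ℝ) 1, Cl ((M s).om 0) ((1 - s) • (M 0).om 0 + s • (M 1).om 0)
  pos : ∀ s ∈ Icc (0 : ℝ) 1, 0 < Q ((M s).om 0) ((M s).om 0)
  vpos : ∀ s ∈ Icc (0 : ℝ) 1, 0 < ∑ k, Q e ((M s).om k) ^ 2
  rot : ∀ s ∈ Icc (0 : ℝ) 1, ∀ i, ∀ z ∈ (C.e i).target, ∀ v,
    (H s).J 0 i z v =
      (M s).Jv (fun k => Q e ((M s).om k) / Real.sqrt (∑ k, Q e ((M s).om k) ^ 2)) i z v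

theorem nf_of (hsy : ∀ x y, Q x y = Q y x) (hex : ∀ x y, Ex x → Q x y = 0)
    (heq : ∀ (H : HkT C) k, Q (H.om k) (H.om k) = Q (H.om 0) (H.om 0))
    (hort : ∀ (H : HkT C) (k l : Fin 3), k ≠ l → Q (H.om k) (H.om l) = 0)
    {L0 : PL C} {e : F2 C} {G H : ℝ → HkT C} (hG : Move G)
    (hT : ∀ s ∈ Icc (0 : ℝ) 1, SameTw (G s) (H s))
    (hg : ∀ s ∈ Icc (0 : ℝ) 1, Given Q (H s) L0 e) :
    NF Q e (fun s => (G s).cyc 2) H := by
  have c0 : ∀ s, Eqv (((G s).cyc 2).om 0) ((G s).om 2) := fun s => cyc_om (G s) 2 0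
  have c1 : ∀ s, Eqv (((G s).cyc 2).om 1) ((G s).om 0) := fun s => cyc_om (G s) 2 1
  have c2 : ∀ s, Eqv (((G s).cyc 2).om 2) ((G s).om 1) := fun s => cyc_om (G s) 2 2
  have q0 : ∀ s x, Q x (((G s).cyc 2).om 0) = Q x ((G s).om 2) := fun s x =>
    Qr_cl hsy hex (cl_of_eqv (c0 s)) x
  have q1 : ∀ s x, Q x (((G s).cyc 2).om 1) = Q x ((G s).om 0) := fun s x =>
    Qr_cl hsy hex (cl_of_eqv (c1 s)) x
  have q2 : ∀ s x, Q x (((G s).cyc 2).om 2) = Q x ((G s).om 1) := fun s x =>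
    Qr_cl hsy hex (cl_of_eqv (c2 s)) x
  -- the rotation
  have key : ∀ s ∈ Icc (0 : ℝ) 1, 0 < Q ((G s).om 0) ((G s).om 0) ∧
      0 < (∑ k, Q e ((G s).om k) ^ 2) ∧ ∀ i, ∀ z ∈ (C.e i).target, ∀ v, (H s).J 0 i z v =
        (G s).Jv (fun k => Q e ((G s).om k) / Real.sqrt (∑ k, Q e ((G s).om k) ^ 2)) i z v := by
    intro s hs
    obtain ⟨R, hR, t, ht, hE⟩ := hT s hs
    have hgs := hg s hs
    have hom : ∀ k x, Q x ((H s).om k) = t * (R k 0 * Q x ((G s).om 0) +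
        R k 1 * Q x ((G s).om 1) + R k 2 * Q x ((G s).om 2)) := by
      intro k x
      have e1 : Cl ((smulP t ht ((G s).rot R hR)).om k) ((H s).om k) := Cl.of_eq_on (hE.om k)
      have e2 : Cl (t • F2.lin (R k) (G s).om)
          (t • (R k 0 • (G s).om 0 + R k 1 • (G s).om 1 + R k 2 • (G s).om 2)) :=
        Cl.smul t (lin_cl (R k) (G s).om)
      rw [← Qr_cl hsy hex e1 x]
      have e3 : (smulP t ht ((G s).rot R hR)).om k = t • F2.lin (R k) (G s).om := rfl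
      rw [e3, Qr_cl hsy hex e2 x]
      simp only [map_add, map_smul, smul_eq_mul]
    have n0 := hR.nrm 0
    set v : Fin 3 → ℝ := fun k => Q e ((G s).om k) with hv
    have h1 : ∑ k, R 1 k * v k = 0 := by
      have := hom 1 e
      rw [hgs.e1] at this
      rw [Fin.sum_univ_three]
      rcases mul_eq_zero.1 this.symm with h | h
      · exact absurd h ht.ne'
      · exact h
    have h2 : ∑ k, R 2 k * v k = 0 := by
      have := hom 2 e
      rw [hgs.e2] at this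
      rw [Fin.sum_univ_three]
      rcases mul_eq_zero.1 this.symm with h | h
      · exact absurd h ht.ne'
      · exact h
    have h0 : 0 < ∑ k, R 0 k * v k := by
      have h3 := hgs.e0
      rw [hom 0 e] at h3
      rw [Fin.sum_univ_three]
      exact (pos_iff_pos_of_mul_pos h3).1 ht
    have hrow := rot_row hR h1 h2 h0
    refine ⟨?_, ?_, fun i z hz w => ?_⟩
    · have h3 := hgs.pos
      rw [hom 0, hsy _ ((G s).om 0), hsy _ ((G s).om 1), hsy _ ((G s).om 2), hom 0, hom 0, hom 0,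
        hort (G s) 0 1 (by decide), hort (G s) 0 2 (by decide), hort (G s) 1 0 (by decide),
        hort (G s) 1 2 (by decide), hort (G s) 2 0 (by decide), hort (G s) 2 1 (by decide),
        heq (G s) 1, heq (G s) 2] at h3
      have h4 : t * (R 0 0 * (t * (R 0 0 * Q ((G s).om 0) ((G s).om 0) + R 0 1 * 0 + R 0 2 * 0)) +
          R 0 1 * (t * (R 0 0 * 0 + R 0 1 * Q ((G s).om 0) ((G s).om 0) + R 0 2 * 0)) +
          R 0 2 * (t * (R 0 0 * 0 + R 0 1 * 0 + R 0 2 * Q ((G s).om 0) ((G s).om 0)))) =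
          t ^ 2 * Q ((G s).om 0) ((G s).om 0) := by
        linear_combination (t ^ 2 * Q ((G s).om 0) ((G s).om 0)) * n0
      rw [h4] at h3
      exact (pos_iff_pos_of_mul_pos h3).1 (by positivity)
    · by_contra hn
      have h3 : ∑ k, v k ^ 2 = 0 :=
        le_antisymm (not_lt.1 hn) (Finset.sum_nonneg fun k _ => sq_nonneg _)
      have h4 : ∀ k, R 0 k = 0 := fun k => by rw [hrow k, h3, Real.sqrt_zero, div_zero]
      rw [h4, h4, h4] at n0
      norm_num at n0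
    · rw [← hE.J 0 i z hz]
      show (G s).Jv (R 0) i z w = _
      congr 2
      funext k
      exact hrow k
  have hsum : ∀ s, ∑ k, Q e (((G s).cyc 2).om k) ^ 2 = ∑ k, Q e ((G s).om k) ^ 2 := by
    intro s
    rw [Fin.sum_univ_three, Fin.sum_univ_three, q0, q1, q2]
    ring
  refine ⟨fun s hs i z hz v => ?_, fun s hs => ?_, fun s hs => ?_, fun s hs => ?_, fun s hs => ?_,
    fun s hs i z hz v => ?_⟩
  · show ((G s).cyc 2).J 0 i z v = ((G 0).cyc 2).J 0 i z v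
    rw [cyc_J, cyc_J]
    exact congrArg (fun T : V →L[ℝ] V => T v) (hG.J s hs i z hz)
  · obtain ⟨r, hr, e0, e1⟩ := hG.om s hs
    refine ⟨r, hr, fun k hk => ?_⟩
    fin_cases k
    · exact absurd rfl hk
    · refine ((c1 s).trans e0).trans fun i z hz u v => ?_
      show r * ((G 0).om 0).w i z u v = r * (((G 0).cyc 2).om 1).w i z u v
      rw [(c1 0) i z hz]
    · refine ((c2 s).trans e1).trans fun i z hz u v => ?_
      show r * ((G 0).om 1).w i z u v = r * (((G 0).cyc 2).om 2).w i z u v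
      rw [(c2 0) i z hz]
  · refine ((cl_of_eqv (c0 s)).trans (hG.cls s hs)).trans ?_
    exact Cl.add (Cl.smul _ (cl_of_eqv (c0 0)).symm) (Cl.smul _ (cl_of_eqv (c0 1)).symm)
  · show 0 < Q (((G s).cyc 2).om 0) (((G s).cyc 2).om 0)
    rw [q0, hsy, q0, heq (G s) 2]
    exact (key s hs).1
  · show 0 < ∑ k, Q e (((G s).cyc 2).om k) ^ 2
    rw [hsum]
    exact (key s hs).2.1
  · rw [(key s hs).2.2 i z hz v]
    show _ = ((G s).cyc 2).Jv (fun k => Q e (((G s).cyc 2).om k) /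
      Real.sqrt (∑ k, Q e (((G s).cyc 2).om k) ^ 2)) i z v
    rw [hsum, HkT.Jv_apply, HkT.Jv_apply, q0, q1, q2, cyc_J, cyc_J, cyc_J]
    have a0 : (0 : Fin 3) + 2 = 2 := rfl
    have a1 : (1 : Fin 3) + 2 = 0 := rfl
    have a2 : (2 : Fin 3) + 2 = 1 := rfl
    rw [a0, a1, a2]
    abel

/-- the curvature is of type (1,1) for `J_a` -/
theorem conn_T11 {M : HkT C} {y F : F2 C} {a : Fin 3 → ℝ}
    (ha : a 0 ^ 2 + a 1 ^ 2 + a 2 ^ 2 = 1) (hy : ∀ k, T11 (ofHk M k) y) {i : C.ι} {z : V}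
    (hz : z ∈ (C.e i).target) {J : V →L[ℝ] V} (hJ : ∀ v, J v = M.Jv a i z v) {c q : ℝ}
    (hF : ∀ u v, F.w i z u v = c * (y.w i z u v + q * ∑ k, a k * (M.om k).w i z u v)) (u v : V) :
    F.w i z (J u) (J v) = F.w i z u v := by
  rw [hF, hF, hJ, hJ, t11_Jv hy ha i z hz, t11_lin M ha i z hz]

end gen

section main

variable {n : ℕ} {X : Type} [TopologicalSpace X] [CompactSpace X] [T2Space X]
  [SimplyConnectedSpace X] {C : RCh (Cn (2 * n)) X} {Q : F2 C →ₗ[ℝ] F2 C →ₗ[ℝ] ℝ}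

theorem mvOut_of_nf (hC : Ctx n C Q) {L0 : PL C} {e : F2 C} {M H : ℝ → HkT C}
    (hlnk : Cl L0.F ((-(2 * Real.pi)) • e)) (hN : NF Q e M H) :
    Nonempty (MvOut (d := 2 * n) C L0 H) := by
  classical
  let _ : MeasurableSpace (Cn (2 * n)) := borel _
  have : BorelSpace (Cn (2 * n)) := ⟨rfl⟩
  have hsy := hC.symm
  have hex := hC.ex
  have heq := hC.eq
  have hort := hC.ort
  have i0 : (0 : ℝ) ∈ Icc (0 : ℝ) 1 := ⟨le_rfl, zero_le_one⟩
  have i1 : (1 : ℝ) ∈ Icc (0 : ℝ) 1 := ⟨zero_le_one, le_rfl⟩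
  obtain ⟨A, hfin, hGd, ⟨P⟩, -, -, hA⟩ := exists_rot
    (Crest.Agent.R260.NN6_900.nnat (2 * n) (Cn (2 * n)) (by
      rw [finrank_real_of_complex]
      simp)) (M 0)
  obtain ⟨x0⟩ := (inferInstance : Nonempty X)
  set hc := cmp_of_cp hA with hhc
  set K0 := (M 0).kah hA with hK0
  have hAs : ∀ s ∈ Icc (0 : ℝ) 1, Cp ((M s).acm 0) A := fun s hs => cp_tr (hN.J0 s hs) hA
  -- the line of classes
  set xB : F2 C := (M 1).om 0 - (M 0).om 0 with hxB
  have hT0 : ∀ s ∈ Icc (0 : ℝ) 1, T11 (ofHk (M 0) 0) ((M s).om 0) := by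
    intro s hs i z hz u v
    have h1 := T11_hk (M s) 0 i z hz u v
    change ((M s).om 0).w i z ((M s).J 0 i z u) ((M s).J 0 i z v) = _ at h1
    rw [hN.J0 s hs i z hz, hN.J0 s hs i z hz] at h1
    exact h1
  have hTx : T11 (ofHk (M 0) 0) xB := by
    intro i z hz u v
    have e1 := hT0 1 i1 i z hz u v
    have e2 := hT0 0 i0 i z hz u v
    show ((M 1).om 0).w i z _ _ - ((M 0).om 0).w i z _ _ =
      ((M 1).om 0).w i z u v - ((M 0).om 0).w i z u v
    rw [e1, e2]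
  have hcl : ∀ s ∈ Icc (0 : ℝ) 1, Cl ((M s).om 0) ((M 0).om 0 + s • xB) := by
    intro s hs
    have h1 := hN.cls s hs
    have e1 : (1 - s) • (M 0).om 0 + s • (M 1).om 0 = (M 0).om 0 + s • xB := by
      rw [hxB]
      module
    rwa [e1] at h1
  set B : K11 A := ((hc.F xB).k11 (onA_11 (M 0) hA hTx)) with hB
  set K : ℝ → Kah A := fun s => if h : s ∈ Icc (0 : ℝ) 1 then (M s).kah (hAs s h) else K0 with hK
  have hKs : ∀ s (h : s ∈ Icc (0 : ℝ) 1), K s = (M s).kah (hAs s h) := by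
    intro s h
    simp only [hK, h, dif_pos]
  have hu : ∀ s, ∃ u : X → ℝ, s ∈ Icc (0 : ℝ) 1 → IsAdd (K s) (linK K0 B s) u ∧ u x0 = 0 := by
    intro s
    by_cases hs : s ∈ Icc (0 : ℝ) 1
    · have h1 : Ex ((ofKah (K s)).f2 - (linK K0 B s).f2) := by
        have h2 := (F_sub hc _ _).ex (ex_F hc (hcl s hs))
        refine Eqv.ex (eqvA fun j z hz u v => ?_) h2
        have a1 := kah_f2 (M s) (hAs s hs) j z hz u v
        have a2 := lin_f2 (M 0) hA hTx s j z hz u v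
        show (hc.F ((M s).om 0)).w j z u v - (hc.F ((M 0).om 0 + s • xB)).w j z u v =
          (ofKah (K s)).f2.w j z u v - (linK K0 B s).f2.w j z u v
        rw [hKs s hs]
        have a1' : (ofKah ((M s).kah (hAs s hs))).f2.w j z u v =
          (hc.F ((M s).om 0)).w j z u v := a1
        have a2' : (linK K0 B s).f2.w j z u v =
          (hc.F ((M 0).om 0 + s • xB)).w j z u v := a2
        rw [a1', a2']
      obtain ⟨u, hu, hu0, hue⟩ := kdiff hGd P K0 x0 h1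
      exact ⟨u, fun _ => ⟨⟨hu, hue⟩, hu0⟩⟩
    · exact ⟨fun _ => 0, fun h => absurd h hs⟩
  choose u hu using hu
  have hr : ∀ s, ∃ r : ℝ, s ∈ Icc (0 : ℝ) 1 → 0 < r ∧ ∀ k : Fin 3, k ≠ 0 →
      Eqv ((M s).om k) (r • (M 0).om k) := by
    intro s
    by_cases hs : s ∈ Icc (0 : ℝ) 1
    · obtain ⟨r, h⟩ := hN.om12 s hs
      exact ⟨r, fun _ => h⟩
    · exact ⟨0, fun h => absurd h hs⟩
  choose r' hr' using hr
  have segK : SegK K0 B x0 (Icc 0 1) K u := by
    refine ⟨fun s hs => (hu s hs).1, fun s hs => (hu s hs).2, fun s hs => ?_⟩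
    refine ⟨|r' s| ^ (2 * n), fun i x hx => ?_⟩
    rw [hKs s hs]
    exact det_scale hA (hAs s hs) ((hr' s hs).2 1 (by decide)) ((hr' s hs).2 2 (by decide)) i x hx
  -- numbers
  set q0 := Q ((M 0).om 0) ((M 0).om 0) with hq0
  have hq0p : 0 < q0 := hN.pos 0 i0
  set b := Q ((M 0).om 0) xB with hb
  set c := Q xB xB with hcc
  set p0 := Q e ((M 0).om 0) with hp0
  set pB := Q e xB with hpB
  set p1 := Q e ((M 0).om 1) with hp1
  set p2 := Q e ((M 0).om 2) with hp2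
  set qf : ℝ → ℝ := fun s => q0 + 2 * s * b + s ^ 2 * c with hqf
  have hqs : ∀ s ∈ Icc (0 : ℝ) 1, Q ((M s).om 0) ((M s).om 0) = qf s := by
    intro s hs
    rw [Q_cl hex (hcl s hs), Qr_cl hsy hex (hcl s hs)]
    simp only [map_add, map_smul, LinearMap.add_apply, LinearMap.smul_apply, smul_eq_mul]
    rw [hsy xB ((M 0).om 0), ← hq0, ← hb, ← hcc]
    ring
  have hqp : ∀ s ∈ Icc (0 : ℝ) 1, 0 < qf s := fun s hs => by
    rw [← hqs s hs]
    exact hN.pos s hs
  have hr2 : ∀ s ∈ Icc (0 : ℝ) 1, r' s ^ 2 * q0 = qf s := by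
    intro s hs
    have h1 := heq (M s) 1
    have e1 := cl_of_eqv ((hr' s hs).2 1 (by decide))
    rw [Q_cl hex e1, Qr_cl hsy hex e1, hqs s hs] at h1
    simp only [map_smul, LinearMap.smul_apply, smul_eq_mul] at h1
    rw [heq (M 0) 1, ← hq0] at h1
    linarith
  set r : ℝ → ℝ := fun s => Real.sqrt (qf s / q0) with hrd
  have hrr : ∀ s ∈ Icc (0 : ℝ) 1, r s = r' s := by
    intro s hs
    have h1 : qf s / q0 = r' s ^ 2 := by
      rw [← hr2 s hs, mul_div_assoc, div_self hq0p.ne', mul_one]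
    show Real.sqrt (qf s / q0) = _
    rw [h1, Real.sqrt_sq (hr' s hs).1.le]
  have hqan : ∀ s, AnalyticAt ℝ qf s := fun s => by
    simp only [hqf]
    fun_prop
  have ran : AnalyticOnNhd ℝ r (Icc 0 1) := fun s hs =>
    an_sqrt ((hqan s).div analyticAt_const hq0p.ne') (div_pos (hqp s hs) hq0p).ne'
  set vf : Fin 3 → ℝ → ℝ := ![fun s => p0 + s * pB, fun s => r s * p1, fun s => r s * p2] with hvf
  have hv : ∀ s ∈ Icc (0 : ℝ) 1, ∀ k, Q e ((M s).om k) = vf k s := by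
    intro s hs k
    fin_cases k
    · show Q e ((M s).om 0) = p0 + s * pB
      rw [Qr_cl hsy hex (hcl s hs), map_add, map_smul, smul_eq_mul]
    · show Q e ((M s).om 1) = r s * p1
      rw [Qr_cl hsy hex (cl_of_eqv ((hr' s hs).2 1 (by decide))), map_smul, smul_eq_mul, hrr s hs]
    · show Q e ((M s).om 2) = r s * p2
      rw [Qr_cl hsy hex (cl_of_eqv ((hr' s hs).2 2 (by decide))), map_smul, smul_eq_mul, hrr s hs]
  have hvan : ∀ k, AnalyticOnNhd ℝ (vf k) (Icc 0 1) := by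
    intro k
    fin_cases k
    · intro s _
      show AnalyticAt ℝ (fun s => p0 + s * pB) s
      fun_prop
    · intro s hs
      exact (ran s hs).mul analyticAt_const
    · intro s hs
      exact (ran s hs).mul analyticAt_const
  set a : Fin 3 → ℝ → ℝ := fun k s => vf k s / Real.sqrt (∑ l, vf l s ^ 2) with ha
  have hnp : ∀ s ∈ Icc (0 : ℝ) 1, 0 < ∑ l, vf l s ^ 2 := by
    intro s hs
    have h1 := hN.vpos s hs
    simp only [hv s hs] at h1
    exact h1
  have haan : ∀ k, AnalyticOnNhd ℝ (a k) (Icc 0 1) := by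
    intro k s hs
    refine (hvan k s hs).div (an_sqrt ?_ (hnp s hs).ne') (Real.sqrt_pos.2 (hnp s hs)).ne'
    have h1 : (fun s => ∑ l, vf l s ^ 2) = fun s => vf 0 s ^ 2 + vf 1 s ^ 2 + vf 2 s ^ 2 := by
      funext s
      exact Fin.sum_univ_three _
    rw [h1]
    exact (((hvan 0 s hs).pow 2).add ((hvan 1 s hs).pow 2)).add ((hvan 2 s hs).pow 2)
  have hrot : ∀ s ∈ Icc (0 : ℝ) 1, ∀ i, ∀ z ∈ (C.e i).target, ∀ w,
      (H s).J 0 i z w = (M s).Jv (fun k => a k s) i z w := by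
    intro s hs i z hz w
    have h1 := hN.rot s hs i z hz w
    simp only [hv s hs] at h1
    exact h1
  -- the fixed part
  set c1 := p1 / q0 with hc1
  set c2 := p2 / q0 with hc2
  have hu0 := hC.uniq (M 0) (hN.pos 0 i0)
  obtain ⟨W, hWc, hWT⟩ := hC.t11 (M 0) (hN.pos 0 i0) (e - c1 • (M 0).om 1 - c2 • (M 0).om 2)
    (by
      simp only [map_sub, map_smul, LinearMap.sub_apply, LinearMap.smul_apply, smul_eq_mul]
      rw [hort (M 0) 2 1 (by decide), heq (M 0) 1, ← hq0, ← hp1, hc1, div_mul_cancel₀ _ hq0p.ne']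
      ring)
    (by
      simp only [map_sub, map_smul, LinearMap.sub_apply, LinearMap.smul_apply, smul_eq_mul]
      rw [hort (M 0) 1 2 (by decide), heq (M 0) 2, ← hq0, ← hp2, hc2, div_mul_cancel₀ _ hq0p.ne']
      ring)
  set E : K11 A := (hc.F W).k11 (onA_11 (M 0) hA hWT) with hE
  have hEf : Eqv E.f2 (hc.F W) := eqvA fun j z hz u v => by rw [hE, F2.k11_f2 _ _ hz]
  have hWs : ∀ s ∈ Icc (0 : ℝ) 1, T11 (ofHk (M s) 0) W := by
    intro s hs i z hz u v
    have h1 := hWT i z hz u v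
    show W.w i z ((M s).J 0 i z u) ((M s).J 0 i z v) = _
    rw [hN.J0 s hs i z hz, hN.J0 s hs i z hz]
    exact h1
  have hQW : ∀ s ∈ Icc (0 : ℝ) 1, Q W ((M s).om 0) = vf 0 s := by
    intro s hs
    have e1 : Q ((M 0).om 1) ((M s).om 0) = 0 := by
      have h1 := hort (M s) 1 0 (by decide)
      rw [Q_cl hex (cl_of_eqv ((hr' s hs).2 1 (by decide))), map_smul, LinearMap.smul_apply,
        smul_eq_mul] at h1
      exact (mul_eq_zero.1 h1).resolve_left (hr' s hs).1.ne'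
    have e2 : Q ((M 0).om 2) ((M s).om 0) = 0 := by
      have h1 := hort (M s) 2 0 (by decide)
      rw [Q_cl hex (cl_of_eqv ((hr' s hs).2 2 (by decide))), map_smul, LinearMap.smul_apply,
        smul_eq_mul] at h1
      exact (mul_eq_zero.1 h1).resolve_left (hr' s hs).1.ne'
    rw [Q_cl hex hWc]
    simp only [map_sub, map_smul, LinearMap.sub_apply, LinearMap.smul_apply, smul_eq_mul]
    rw [e1, e2, hv s hs 0]
    ring
  have hf : ∀ s, ∃ (f : X → ℝ) (y : F2 C), s ∈ Icc (0 : ℝ) 1 → ∃ hf : A.Sm f, f x0 = 0 ∧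
      (∃ c : ℝ, ∀ x, trQ (K s) E f x = c) ∧ (∀ k, T11 (ofHk (M s) k) y) ∧
      ∀ i, ∀ z ∈ (C.e i).target, ∀ u v, W.w i z u v +
        (fderiv ℝ (((SMap.ofCmp hc.symm).pull1 (dcF f hf)).η i) z u v -
          fderiv ℝ (((SMap.ofCmp hc.symm).pull1 (dcF f hf)).η i) z v u) =
        y.w i z u v + (vf 0 s / qf s) * ((M s).om 0).w i z u v := by
    intro s
    by_cases hs : s ∈ Icc (0 : ℝ) 1
    · obtain ⟨f, hf, y, h1, h2, h3, h4⟩ := exists_f hGd P hsy hex heq (hAs s hs)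
        (hC.uniq (M s) (hN.pos s hs)) (hN.pos s hs).ne' (hWs s hs) E hEf x0
      refine ⟨f, y, fun _ => ⟨hf, h1, ?_, h3, ?_⟩⟩
      · rw [hKs s hs]
        exact h2
      · rw [hQW s hs, hqs s hs] at h4
        exact h4
    · exact ⟨fun _ => 0, 0, fun h => absurd h hs⟩
  choose f y hfy using hf
  have segF : SegF K E x0 (Icc 0 1) f :=
    ⟨fun s hs => (hfy s hs).choose, fun s hs => (hfy s hs).choose_spec.1,
      fun s hs => (hfy s hs).choose_spec.2.1⟩
  -- the fixed part of the connection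
  have hS : Cl L0.F ((-(2 * Real.pi)) • (c1 • (M 0).om 1 + c2 • (M 0).om 2 + W)) := by
    refine hlnk.trans (Cl.smul _ ?_)
    have h1 : Cl (e - c1 • (M 0).om 1 - c2 • (M 0).om 2 + (c1 • (M 0).om 1 + c2 • (M 0).om 2))
        (W + (c1 • (M 0).om 1 + c2 • (M 0).om 2)) := Cl.add hWc.symm (Cl.refl _)
    have e1 : e - c1 • (M 0).om 1 - c2 • (M 0).om 2 + (c1 • (M 0).om 1 + c2 • (M 0).om 2) = e := by
      abel
    rw [e1, add_comm W] at h1
    exact h1
  obtain ⟨η0, hη0⟩ := hS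
  refine ⟨{
    A := A
    fin := hfin
    P := P
    M := M
    hA := hA
    J0 := hN.J0
    x0 := x0
    K0 := K0
    B := B
    K := K
    u := u
    segK := segK
    om0 := fun s hs => ?_
    E := E
    f := f
    segF := segF
    r := r
    r_an := ran
    r_pos := fun s hs => by rw [hrr s hs]; exact (hr' s hs).1
    om12 := fun s hs k hk => by rw [hrr s hs]; exact (hr' s hs).2 k hk
    a := a
    a_an := haan
    JH := fun s hs i z hz v => ?_
    η := (-1 : ℝ) • η0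
    conn := fun s hs => ?_ }⟩
  · rw [hKs s hs]
    have h1 := kah_f2 (M s) (hAs s hs)
    have h2 : Eqv (hc.symm.F (ofKah ((M s).kah (hAs s hs))).f2) (hc.symm.F (hc.F ((M s).om 0))) :=
      F_eqv h1
    exact (h2.trans (F_F hc _)).symm
  · rw [hrot s hs i z hz v, HkT.Jv_apply, Fin.sum_univ_three]
  · obtain ⟨hf, h1, h2, h3, h4⟩ := hfy s hs
    set D1 := (SMap.ofCmp hc.symm).pull1 (dcF (f s) hf) with hD1
    refine ⟨(-1 : ℝ) • η0 + (-(2 * Real.pi)) • D1, fun i z hz v => ?_, fun i z hz v w => ?_⟩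
    · have k1 := dcC_η (M s) (hAs s hs) hf hz v
      have k2 : D1.η i z v = -(1 / 4 : ℝ) *
        fderiv ℝ (fun y => f s ((C.e i).symm y)) z ((M s).J 0 i z v) := k1
      rw [F1.add_η, F1.smul_η (-(2 * Real.pi)), add_apply, smul_apply, k2, hN.J0 s hs i z hz,
        smul_eq_mul]
      ring
    · have hsq : (a 0 s) ^ 2 + (a 1 s) ^ 2 + (a 2 s) ^ 2 = 1 := by
        have h5 := Real.sq_sqrt (hnp s hs).le
        have h6 : Real.sqrt (∑ l, vf l s ^ 2) ≠ 0 := (Real.sqrt_pos.2 (hnp s hs)).ne'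
        simp only [ha, div_pow, h5]
        rw [Fin.sum_univ_three]
        have h7 := hnp s hs
        rw [Fin.sum_univ_three] at h7
        field_simp
      refine conn_T11 (M := M s) (a := fun k => a k s) (y := y s) hsq h3 hz
        (J := (H s).J 0 i z) (hrot s hs i z hz) (c := -(2 * Real.pi))
        (q := Real.sqrt (∑ l, vf l s ^ 2) / qf s) (fun u w => ?_) v w
      have k1 := hη0 i z hz u w
      have k2 := h4 i z hz u w
      have k3 : (L0.F - (-(2 * Real.pi)) • (c1 • (M 0).om 1 + c2 • (M 0).om 2 + W)).w i z u w =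
        L0.F.w i z u w - (-(2 * Real.pi)) * (c1 * ((M 0).om 1).w i z u w +
          c2 * ((M 0).om 2).w i z u w + W.w i z u w) := rfl
      rw [k3] at k1
      have k4 := (hr' s hs).2 1 (by decide) i z hz u w
      have k5 := (hr' s hs).2 2 (by decide) i z hz u w
      have k6 : (r' s • (M 0).om 1).w i z u w = r' s * ((M 0).om 1).w i z u w := rfl
      have k7 : (r' s • (M 0).om 2).w i z u w = r' s * ((M 0).om 2).w i z u w := rfl
      rw [k6] at k4
      rw [k7] at k5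
      rw [PL.add_F _ _ hz, F1.d_w, F1.fderiv_add _ _ hz, F1.fderiv_smul _ _ hz,
        F1.fderiv_smul _ _ hz]
      simp only [add_apply, smul_apply, smul_eq_mul]
      have hne : Real.sqrt (∑ l, vf l s ^ 2) ≠ 0 := (Real.sqrt_pos.2 (hnp s hs)).ne'
      have k8 : Real.sqrt (∑ l, vf l s ^ 2) / qf s * ∑ k, a k s * ((M s).om k).w i z u w =
          (vf 0 s / qf s) * ((M s).om 0).w i z u w + c1 * ((M 0).om 1).w i z u w +
            c2 * ((M 0).om 2).w i z u w := by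
        obtain ⟨S, hSd⟩ : ∃ S, S = Real.sqrt (∑ l, vf l s ^ 2) := ⟨_, rfl⟩
        have e0 : a 0 s = vf 0 s / S := by rw [hSd]
        have e1 : a 1 s = r s * p1 / S := by rw [hSd]; rfl
        have e2 : a 2 s = r s * p2 / S := by rw [hSd]; rfl
        rw [← hSd] at hne ⊢
        rw [Fin.sum_univ_three, k4, k5, e0, e1, e2, hrr s hs, hc1, hc2, ← hr2 s hs]
        have hr0 := (hr' s hs).1.ne'
        have hq0' := hq0p.ne'
        field_simp
      rw [k8]
      linear_combination k1 - (2 * Real.pi) * k2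

/-- **the algebra of SEMI**: `Ctx`, `Move`, `SameTw`, `Given` give `MvOut` -/
theorem nonempty_mvOut (hC : Ctx n C Q) {L0 : PL C} {e : F2 C} {G H : ℝ → HkT C} (hG : Move G)
    (hT : ∀ s ∈ Icc (0 : ℝ) 1, SameTw (G s) (H s))
    (hg : ∀ s ∈ Icc (0 : ℝ) 1, Given Q (H s) L0 e) : Nonempty (MvOut (d := 2 * n) C L0 H) :=
  mvOut_of_nf hC (hg 0 ⟨le_rfl, zero_le_one⟩).lnk (nf_of hC.symm hC.ex hC.eq hC.ort hG hT hg)

end main

end

end Crest.Agent.R281.Mvs_713
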