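import Crest.Agent.R281.Hz2_286
import Crest.Agent.R281.Sem3_323

/-!
# R281 (S0424), SEMI-P (helper323), part 5: `HasN` along analytic families

* `cfC b θ T`  : the coefficient of `(θ, T)` as a continuous family, analytic in `(θ, T)`
* `EL_add`     : the `H¹` space does not depend on the connection
* **`hasN_an`** : analytic coefficients on `[0,1]`, Garding + Rellich + regularity at every `s`:
  `HasN N` near `1` ⟹ `HasN N` on `[0,1]`
-/

set_option autoImplicit false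
set_option linter.unusedSectionVars false
set_option maxSynthPendingDepth 3

open Set Filter Topology Complex MeasureTheory Metric
open scoped ContDiff ENNReal

namespace Crest.Agent.R281.Sem_323

open Crest.Agent.R281.HkR_835 Crest.Agent.R281.Ti_846 Crest.Agent.R281.PL_713
open Crest.Agent.R281.Semi_450 Crest.Agent.R281.OpZ_450 Crest.Agent.R281.Hz_286

noncomputable section

variable {V X : Type} [NormedAddCommGroup V] [NormedSpace ℝ V] [TopologicalSpace X]
  {C : RCh V X} [FiniteDimensional ℝ V] [MeasurableSpace V] [BorelSpace V]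
  {σ' : Type} [Fintype σ'] (b : Module.Basis σ' ℝ V)

/-! ### the coefficient -/

/-- the part linear in `θ` -/
def a1 : (V →L[ℝ] ℝ) →L[ℝ] (FJ σ' →L[ℂ] FO σ') :=
  LinearMap.toContinuousLinearMap
    { toFun := fun θ => cf b θ 0 - cf b 0 0
      map_add' := fun θ θ' => by
        ext w l
        simp [cf_apply]
        ring
      map_smul' := fun c θ => by
        ext w l
        simp [cf_apply]
        ring }

/-- the part linear in `T` -/
def a2 : (V →L[ℝ] V) →L[ℝ] (FJ σ' →L[ℂ] FO σ') :=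
  LinearMap.toContinuousLinearMap
    { toFun := fun T => cf b 0 T - cf b 0 0
      map_add' := fun θ θ' => by
        ext w l
        simp [cf_apply, add_mul, mul_add, Finset.sum_add_distrib]
      map_smul' := fun c θ => by
        ext w l
        simp [cf_apply, Finset.mul_sum]
        exact Finset.sum_congr rfl fun m _ => by ring }

theorem a1_apply (θ : V →L[ℝ] ℝ) (w : FJ σ') (l : σ') :
    a1 b θ w l = I * (θ (b l) : ℝ) * w none := by
  show (cf b θ 0 - cf b 0 0) w l = _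
  simp [cf_apply]

theorem a2_apply (T : V →L[ℝ] V) (w : FJ σ') (l : σ') :
    a2 b T w l = I * ∑ m, ((b.repr (T (b l)) m : ℝ) : ℂ) * w (some m) := by
  show (cf b 0 T - cf b 0 0) w l = _
  simp [cf_apply]

/-- the mixed part -/
def a3 : (V →L[ℝ] ℝ) →L[ℝ] (FJ σ' →L[ℂ] FO σ') :=
  LinearMap.toContinuousLinearMap
    { toFun := fun θ => I • a1 b θ
      map_add' := fun θ θ' => by rw [map_add, smul_add]
      map_smul' := fun c θ => by
        rw [map_smul, RingHom.id_apply, smul_comm] }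

theorem a3_apply (θ : V →L[ℝ] ℝ) (w : FJ σ') (l : σ') :
    a3 b θ w l = I * (I * (θ (b l) : ℝ) * w none) := by
  show (I • a1 b θ) w l = _
  rw [smul_apply, PiLp.smul_apply, a1_apply, smul_eq_mul]

theorem cf_eq (θ : V →L[ℝ] ℝ) (T : V →L[ℝ] V) :
    cf b θ T = cf b 0 0 + a1 b θ + a2 b T + a3 b (θ.comp T) := by
  ext w l
  simp only [add_apply, PiLp.add_apply, a1_apply, a2_apply, a3_apply]
  simp [cf_apply]
  ring

variable {K : Type*} [TopologicalSpace K] [CompactSpace K]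

/-- the coefficient of a continuous family -/
def cfC (θ : C(K, V →L[ℝ] ℝ)) (T : C(K, V →L[ℝ] V)) : C(K, FJ σ' →L[ℂ] FO σ') :=
  ContinuousMap.const K (cf b 0 0) + lC K (a1 b) θ + lC K (a2 b) T +
    lC K (a3 b) (bC K (ContinuousLinearMap.compL ℝ V V ℝ) θ T)

theorem cfC_apply (θ : C(K, V →L[ℝ] ℝ)) (T : C(K, V →L[ℝ] V)) (z : K) :
    cfC b θ T z = cf b (θ z) (T z) := by
  rw [cf_eq]
  rfl

theorem an_cfC {θ : ℝ → C(K, V →L[ℝ] ℝ)} {T : ℝ → C(K, V →L[ℝ] V)} {s₀ : ℝ}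
    (hθ : AnalyticAt ℝ θ s₀) (hT : AnalyticAt ℝ T s₀) :
    AnalyticAt ℝ (fun s => cfC b (θ s) (T s)) s₀ :=
  ((analyticAt_const.add (an_lC (a1 b) hθ)).add (an_lC (a2 b) hT)).add
    (an_lC (a3 b) (an_bC (ContinuousLinearMap.compL ℝ V V ℝ) hθ hT))

/-! ### the spaces do not depend on the connection -/

variable (μ : Measure V) [μ.IsAddHaarMeasure] (Z : Cells C)

theorem range_jet (L : PL C) (a : F1 C) :
    LinearMap.range (jet μ b Z (L.add a)) = LinearMap.range (jet μ b Z L) := by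
  ext x
  constructor
  · rintro ⟨u, rfl⟩
    exact ⟨⟨u.u, u.sm, u.tr, u.off⟩, rfl⟩
  · rintro ⟨u, rfl⟩
    exact ⟨⟨u.u, u.sm, u.tr, u.off⟩, rfl⟩

theorem EL_add (L : PL C) (a : F1 C) : EL μ b Z (L.add a) = EL μ b Z L := by
  show ES (jet μ b Z (L.add a)) = ES (jet μ b Z L)
  unfold ES
  rw [range_jet]

section congr

variable {H F : Type*} [NormedAddCommGroup H] [NormedSpace ℂ H] [NormedAddCommGroup F]
  [NormedSpace ℂ F]

theorem lp_congr {E E' : Submodule ℂ H} (h : E = E') (P : H →L[ℂ] F)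
    (hP : LP (P.comp E.subtypeL)) : LP (P.comp E'.subtypeL) := by
  subst h
  exact hP

theorem ker_congr {E E' : Submodule ℂ H} (h : E = E') (P : H →L[ℂ] F) {N : ℕ}
    (hP : Ker (P.comp E.subtypeL) N) : Ker (P.comp E'.subtypeL) N := by
  subst h
  exact hP

end congr

/-- the operators of an analytic family of coefficients -/
theorem an_PE (L : PL C) {c : ℝ → ∀ k : Z.σ, C(Z.B k, FJ σ' →L[ℂ] FO σ')} {s₀ : ℝ}
    (hc : ∀ k, AnalyticAt ℝ (fun s => c s k) s₀) :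
    AnalyticAt ℝ (fun s => PE μ b Z L (c s)) s₀ := by
  have h1 : AnalyticAt ℝ (fun s => Pop μ Z (c s)) s₀ := by
    unfold Pop
    refine Finset.analyticAt_fun_sum _ fun k _ => ?_
    exact (((opk μ Z σ' k).analyticAt _).restrictScalars (𝕜 := ℝ)).comp (hc k)
  exact analyticAt_comp h1 analyticAt_const

/-- **`HasN` along analytic families** -/
theorem hasN_an [CompactSpace X] (L : PL C) {a : ℝ → F1 C} {J : ℝ → C.ι → V → V →L[ℝ] V}
    {t : ℝ → ∀ k : Z.σ, C(Z.B k, V →L[ℝ] ℝ)} {T : ℝ → ∀ k : Z.σ, C(Z.B k, V →L[ℝ] V)}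
    (ht : ∀ k, AnalyticOnNhd ℝ (fun s => t s k) (Icc 0 1))
    (hT : ∀ k, AnalyticOnNhd ℝ (fun s => T s k) (Icc 0 1))
    (htv : ∀ s ∈ Icc (0 : ℝ) 1, ∀ k (z : Z.B k), t s k z = (L.add (a s)).th (Z.i k) z)
    (hTv : ∀ s ∈ Icc (0 : ℝ) 1, ∀ k (z : Z.B k), T s k z = J s (Z.i k) z)
    (hG : ∀ s ∈ Icc (0 : ℝ) 1, Gard μ b Z (L.add (a s)) (J s))
    (hK : ∀ s ∈ Icc (0 : ℝ) 1, Rell μ b Z (L.add (a s)))
    (hR : ∀ s ∈ Icc (0 : ℝ) 1, Regu μ b Z (L.add (a s)) (J s)) {N : ℕ}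
    (h : ∃ᶠ s in 𝓝[≠] (1 : ℝ), s ∈ Icc (0 : ℝ) 1 ∧ (L.add (a s)).HasN (J s) N) :
    ∀ s ∈ Icc (0 : ℝ) 1, (L.add (a s)).HasN (J s) N := by
  set c : ℝ → ∀ k : Z.σ, C(Z.B k, FJ σ' →L[ℂ] FO σ') := fun s k => cfC b (t s k) (T s k) with hc
  have hcf : ∀ s ∈ Icc (0 : ℝ) 1, IsCf b Z (L.add (a s)) (J s) (c s) := by
    intro s hs k z
    rw [hc]
    show cfC b (t s k) (T s k) z = _
    rw [cfC_apply, htv s hs, hTv s hs]
  have hP : AnalyticOnNhd ℝ (fun s => PE μ b Z L (c s)) (Icc 0 1) := fun s hs =>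
    an_PE b μ Z L fun k => an_cfC b (ht k s hs) (hT k s hs)
  have hE : ∀ s, EL μ b Z (L.add (a s)) = EL μ b Z L := fun s => EL_add b μ Z L (a s)
  have hLP : ∀ s ∈ Icc (0 : ℝ) 1, LP (PE μ b Z L (c s)) := fun s hs =>
    lp_congr (hE s) (Pop μ Z (c s)) (lp_PE μ b Z (hcf s hs) (hG s hs) (hK s hs))
  have hker : ∀ s ∈ Icc (0 : ℝ) 1, Ker (PE μ b Z L (c s)) N ↔ (L.add (a s)).HasN (J s) N := by
    intro s hs
    rw [← ker_PE_iff μ b Z (hcf s hs) (hG s hs) (hR s hs) N]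
    exact ⟨ker_congr (hE s).symm (Pop μ Z (c s)), ker_congr (hE s) (Pop μ Z (c s))⟩
  intro s hs
  refine (hker s hs).1 (ker_Icc hP hLP ⟨zero_le_one, le_rfl⟩ ?_ s hs)
  exact h.mono fun s' hs' => (hker s' hs'.1).2 hs'.2

end

end Crest.Agent.R281.Sem_323
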