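import Crest.Agent.R281.Rg4_676
import Crest.Agent.R281.Sem5_323

/-!
# R281 (S0424), H0-OP (helper676), part 5: `HasNAn` of `SmC_986` from 323's `hasN_an`

* `compact_of_cells` : a space with finitely many closed cells is compact
* `hasNAn` : `SmC_986.HasNAn`
* `semiP_of_mv` : `SmC_986.MvP → SemiP`
-/

set_option autoImplicit false
set_option linter.unusedSectionVars false
set_option maxSynthPendingDepth 3

open Set Filter Topology Metric MeasureTheory

namespace Crest.Agent.R281.Rg_676

open Crest.Agent.R281.HkR_835 Crest.Agent.R281.PL_713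

theorem compact_of_cells {V X : Type} [NormedAddCommGroup V] [NormedSpace ℝ V]
    [FiniteDimensional ℝ V] [TopologicalSpace X] {C : RCh V X} (Z : Hz_286.Cells C) :
    CompactSpace X := by
  have hP : ProperSpace V := FiniteDimensional.proper_real V
  have h1 : ∀ k : Z.σ, IsCompact ((C.e (Z.i k)).symm '' closedBall (Z.c k) (Z.r k)) := fun k =>
    (isCompact_closedBall _ _).image_of_continuousOn
      ((C.e (Z.i k)).continuousOn_symm.mono (Z.sub k))
  have h2 : (⋃ k, (C.e (Z.i k)).symm '' closedBall (Z.c k) (Z.r k)) = univ := by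
    refine eq_univ_of_forall fun x => ?_
    obtain ⟨k, hk, hb⟩ := Z.cover x
    exact mem_iUnion.2 ⟨k, C.e (Z.i k) x, ball_subset_closedBall hb, (C.e (Z.i k)).left_inv hk⟩
  exact ⟨h2 ▸ isCompact_iUnion h1⟩

theorem hasNAn : SmC_986.HasNAn := by
  intro V X _ _ _ _ _ μ _ _ σ' _ b C Z L a J t T ht hT hTv htv hG hK hR N h
  have : CompactSpace X := compact_of_cells Z
  refine Sem_323.hasN_an b μ Z L ht hT htv hTv hG hK hR ?_
  have h1 : ∀ᶠ s in 𝓝[<] (1 : ℝ), s ∈ Icc (0 : ℝ) 1 := by
    filter_upwards [Ico_mem_nhdsLT (zero_lt_one' ℝ)] with s hs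
    exact ⟨hs.1, hs.2.le⟩
  have h2 := (h1.and h).frequently
  exact h2.filter_mono (nhdsWithin_mono _ fun s (hs : s < 1) => ne_of_lt hs)

theorem semiP_of_mv (mv : SmC_986.MvP) : RkD_902.SemiP := SmC_986.semiP_of mv reguP hasNAn

end Crest.Agent.R281.Rg_676
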