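import Crest.Agent.R281.Mvs5_713
import Crest.Agent.R281.Rg5_676

/-!
# Row 281 (helper713): the node SEMI

`semiP : SemiP` (RkD_902, T8), from `nonempty_mvOut` (Mvs5) and `semiP_of_mv` (676, 986, 323, 409).
-/

set_option autoImplicit false

namespace Crest.Agent.R281.Mvs_713

theorem mvP : Crest.Agent.R281.SmC_986.MvP :=
  fun _ _ _ _ _ _ _ _ hC _ _ _ _ hG hT hg => nonempty_mvOut hC hG hT hg

/-- **(T8) SEMI along one move** -/
theorem semiP : Crest.Agent.R281.RkD_902.SemiP := Crest.Agent.R281.Rg_676.semiP_of_mv mvP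

end Crest.Agent.R281.Mvs_713
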