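import Crest.Agent.R281.Mvs3_713
import Crest.Agent.R281.Ce1_551
import Crest.Agent.R281.RkD_902

/-!
# Row 281, MOVE-SEMI (helper457): the scalars of a move

`M s := (G s).cyc 2`, `(H s)` in the twistor sphere of `G s`, `e` of type (1,1) for `J 0` of `H s`.

* `exists_ra` : `r` (scaling of `om 1`, `om 2` of `M s`) and the unit vector `a s` of `J 0` of `H s`
  in the basis `J k` of `M s` are real analytic on `[0,1]`; `μ k` (coordinates of `e`) constant
-/

set_option autoImplicit false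
set_option linter.unusedSectionVars false
set_option maxSynthPendingDepth 3

open Set Filter Topology
open scoped ContDiff

namespace Crest.Agent.R281.Mvt_457

open Crest.Agent.R275.Geo Crest.Agent.R275.Core144
open Crest.Agent.R260.ACM_580
open Crest.Agent.R281.Ti_846 Crest.Agent.R281.Dif_268 Crest.Agent.R281.Cdr_234
open Crest.Agent.R281.NefO_476 (ofHk Pos)
open Crest.Agent.R281.Nef_252 (T11 KCls)
open Crest.Agent.R281.HkR_835 Crest.Agent.R281.Alg_998
open Crest.Agent.R281.PL_713 (PL)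
open Crest.Agent.R281.RkD_902 (Move SameTw Given)
open Crest.Agent.R281.Ce_551 (QHk cl_eqv lin3_eq)
open Crest.Agent.R281.Sta2_684 (smulP)

noncomputable section

variable {V X : Type} [NormedAddCommGroup V] [NormedSpace ℝ V] [TopologicalSpace X]
  {C : RCh V X} {Q : F2 C →ₗ[ℝ] F2 C →ₗ[ℝ] ℝ}

/-- scalar products with a rotated and scaled triple -/
theorem sameTw_Q (hQ : QHk C Q) {G H : HkT C} {R : Fin 3 → Fin 3 → ℝ} {hR : HkT.Fr R} {t : ℝ}
    {ht : 0 < t} (h : HEqv (smulP t ht (G.rot R hR)) H) (e : F2 C) (k : Fin 3) :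
    Q e (H.om k) = t * ∑ l, R k l * Q e (G.om l) := by
  have h1 : Cl (H.om k) (t • F2.lin (R k) G.om) := by
    refine cl_eqv fun i z hz u v => ?_
    have := h.om k i z hz
    rw [← this]
    rfl
  rw [hQ.cl_right h1, map_smul, smul_eq_mul, lin3_eq, Fin.sum_univ_three]
  simp

theorem sameTw_pos (hQ : QHk C Q) {G H : HkT C} (h : SameTw G H)
    (hp : 0 < Q (H.om 0) (H.om 0)) : 0 < Q (G.om 0) (G.om 0) := by
  obtain ⟨R, hR, t, ht, h⟩ := h
  have e1 : Q (H.om 0) (H.om 0) = t * (t * Q (G.om 0) (G.om 0)) := by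
    rw [sameTw_Q hQ h, Fin.sum_univ_three, hQ.symm (H.om 0), hQ.symm (H.om 0) (G.om 1),
      hQ.symm (H.om 0) (G.om 2), sameTw_Q hQ h, sameTw_Q hQ h, sameTw_Q hQ h]
    simp only [Fin.sum_univ_three]
    rw [hQ.ort G 0 1 (by decide), hQ.ort G 0 2 (by decide), hQ.ort G 1 0 (by decide),
      hQ.ort G 1 2 (by decide), hQ.ort G 2 0 (by decide), hQ.ort G 2 1 (by decide), hQ.nrm G 1,
      hQ.nrm G 2]
    have n0 := hR.nrm 0
    linear_combination (t * t * Q (G.om 0) (G.om 0)) * n0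
  rw [e1, ← mul_assoc] at hp
  exact (mul_pos_iff_of_pos_left (mul_pos ht ht)).1 hp

theorem an_exp_log {f : ℝ → ℝ} {s c : ℝ} (hf : AnalyticAt ℝ f s) (h : 0 < f s) :
    AnalyticAt ℝ (fun s => Real.exp (c * Real.log (f s))) s :=
  (analyticAt_const.mul (hf.log h)).rexp

theorem exp_half_sq {x : ℝ} (h : 0 < x) : Real.exp (2⁻¹ * Real.log x) ^ 2 = x := by
  rw [← Real.exp_nat_mul, ← mul_assoc]
  norm_num [Real.exp_log h]

theorem exp_half {x : ℝ} (h : 0 < x) : Real.exp (2⁻¹ * Real.log x) = Real.sqrt x := by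
  have h1 : Real.sqrt (Real.exp (2⁻¹ * Real.log x) ^ 2) = Real.exp (2⁻¹ * Real.log x) :=
    Real.sqrt_sq (Real.exp_pos _).le
  rw [exp_half_sq h] at h1
  exact h1.symm

/-- **the scalars of a move** -/
theorem exists_ra (hQ : QHk C Q) {L0 : PL C} {e : F2 C} {G H : ℝ → HkT C} (hM : Move G)
    (hS : ∀ s ∈ Icc (0 : ℝ) 1, SameTw (G s) (H s))
    (hG : ∀ s ∈ Icc (0 : ℝ) 1, Given Q (H s) L0 e) :
    ∃ (r : ℝ → ℝ) (a : Fin 3 → ℝ → ℝ), AnalyticOnNhd ℝ r (Icc 0 1) ∧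
      (∀ s ∈ Icc (0 : ℝ) 1, 0 < r s) ∧
      (∀ s ∈ Icc (0 : ℝ) 1, ∀ k : Fin 3, k ≠ 0 →
        Eqv (((G s).cyc 2).om k) (r s • ((G 0).cyc 2).om k)) ∧
      (∀ k, AnalyticOnNhd ℝ (a k) (Icc 0 1)) ∧
      (∀ s ∈ Icc (0 : ℝ) 1, ∀ i, ∀ z ∈ (C.e i).target, ∀ v,
        (H s).J 0 i z v = ∑ k, a k s • ((G s).cyc 2).J k i z v) ∧
      (∀ s ∈ Icc (0 : ℝ) 1, ∃ c : ℝ, 0 < c ∧ ∀ k, a k s = c * Q e (((G s).cyc 2).om k)) ∧
      (∀ s ∈ Icc (0 : ℝ) 1, ∑ k, a k s ^ 2 = 1) ∧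
      (∀ s ∈ Icc (0 : ℝ) 1, ∀ k l : Fin 3,
        Q (((G s).cyc 2).om k) (((G s).cyc 2).om l) =
          if k = l then r s ^ 2 * Q ((G 0).om 0) ((G 0).om 0) else 0) ∧
      (∀ s ∈ Icc (0 : ℝ) 1, ∀ k : Fin 3, k ≠ 0 →
        Q e (((G s).cyc 2).om k) = r s * Q e (((G 0).cyc 2).om k)) := by
  have h0 : (0 : ℝ) ∈ Icc (0 : ℝ) 1 := ⟨le_rfl, zero_le_one⟩
  have h1 : (1 : ℝ) ∈ Icc (0 : ℝ) 1 := ⟨zero_le_one, le_rfl⟩
  -- positivity
  have hp : ∀ s ∈ Icc (0 : ℝ) 1, 0 < Q ((G s).om 0) ((G s).om 0) := fun s hs =>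
    sameTw_pos hQ (hS s hs) (hG s hs).pos
  -- the polynomial of the squares
  set A := Q ((G 0).om 2) ((G 0).om 2) with hA
  set B := Q ((G 0).om 2) ((G 1).om 2) with hB
  set D := Q ((G 1).om 2) ((G 1).om 2) with hD
  set q0 := Q ((G 0).om 0) ((G 0).om 0) with hq0
  have hq0p : 0 < q0 := hp 0 h0
  let P : ℝ → ℝ := fun s => (1 - s) * (1 - s) * A + 2 * (s * (1 - s)) * B + s * s * D
  have hP : ∀ s ∈ Icc (0 : ℝ) 1, Q ((G s).om 0) ((G s).om 0) = P s := by
    intro s hs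
    have e1 := hM.cls s hs
    rw [← hQ.nrm (G s) 2, hQ.cl_left e1, hQ.cl_right e1]
    simp only [map_add, map_smul, LinearMap.add_apply, LinearMap.smul_apply, smul_eq_mul]
    rw [hQ.symm ((G 1).om 2) ((G 0).om 2)]
    show _ = (1 - s) * (1 - s) * A + 2 * (s * (1 - s)) * B + s * s * D
    rw [hA, hB, hD]
    ring
  have hPp : ∀ s ∈ Icc (0 : ℝ) 1, 0 < P s / q0 := fun s hs =>
    div_pos (by rw [← hP s hs]; exact hp s hs) hq0p
  have hPan : ∀ s, AnalyticAt ℝ (fun s => P s / q0) s := by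
    intro s
    have hs : AnalyticAt ℝ (fun s : ℝ => s) s := analyticAt_id
    have h1s : AnalyticAt ℝ (fun s : ℝ => 1 - s) s := analyticAt_const.sub hs
    exact ((((h1s.mul h1s).mul analyticAt_const).add
      ((analyticAt_const.mul (hs.mul h1s)).mul analyticAt_const)).add
      ((hs.mul hs).mul analyticAt_const)).div analyticAt_const hq0p.ne'
  let r : ℝ → ℝ := fun s => Real.exp (2⁻¹ * Real.log (P s / q0))
  have hr : ∀ s, 0 < r s := fun s => Real.exp_pos _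
  have hr2 : ∀ s ∈ Icc (0 : ℝ) 1, r s ^ 2 = P s / q0 := fun s hs => exp_half_sq (hPp s hs)
  -- the scaling factor
  have hrm : ∀ s ∈ Icc (0 : ℝ) 1, Eqv ((G s).om 0) (r s • (G 0).om 0) ∧
      Eqv ((G s).om 1) (r s • (G 0).om 1) := by
    intro s hs
    obtain ⟨ρ, hρ, e0, e1⟩ := hM.om s hs
    have e2 : Q ((G s).om 0) ((G s).om 0) = ρ ^ 2 * q0 := by
      rw [hQ.cl_left (cl_eqv e0), hQ.cl_right (cl_eqv e0)]
      simp only [map_smul, LinearMap.smul_apply, smul_eq_mul]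
      rw [hq0]
      ring
    have e3 : ρ = r s := by
      have e4 : ρ ^ 2 = r s ^ 2 := by
        rw [hr2 s hs, ← hP s hs, e2]
        field_simp
      exact (pow_left_inj₀ hρ.le (hr s).le (by norm_num)).1 e4
    rw [← e3]
    exact ⟨e0, e1⟩
  -- the coordinates of `e`
  set x0 := Q e ((G 0).om 0) with hx0
  set x1 := Q e ((G 0).om 1) with hx1
  set y0 := Q e ((G 0).om 2) with hy0
  set y1 := Q e ((G 1).om 2) with hy1
  let Y : ℝ → ℝ := fun s => (1 - s) * y0 + s * y1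
  have hY : ∀ s ∈ Icc (0 : ℝ) 1, Q e ((G s).om 2) = Y s := by
    intro s hs
    rw [hQ.cl_right (hM.cls s hs)]
    simp only [map_add, map_smul, smul_eq_mul]
    rfl
  have hX0 : ∀ s ∈ Icc (0 : ℝ) 1, Q e ((G s).om 0) = r s * x0 := by
    intro s hs
    rw [hQ.cl_right (cl_eqv (hrm s hs).1), map_smul, smul_eq_mul]
  have hX1 : ∀ s ∈ Icc (0 : ℝ) 1, Q e ((G s).om 1) = r s * x1 := by
    intro s hs
    rw [hQ.cl_right (cl_eqv (hrm s hs).2), map_smul, smul_eq_mul]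
  let N : ℝ → ℝ := fun s => (r s * x0) * (r s * x0) + (r s * x1) * (r s * x1) + Y s * Y s
  have hran : ∀ s ∈ Icc (0 : ℝ) 1, AnalyticAt ℝ r s := fun s hs =>
    an_exp_log (hPan s) (hPp s hs)
  have hYan : ∀ s, AnalyticAt ℝ Y s := by
    intro s
    have hs : AnalyticAt ℝ (fun s : ℝ => s) s := analyticAt_id
    have h1s : AnalyticAt ℝ (fun s : ℝ => 1 - s) s := analyticAt_const.sub hs
    exact (h1s.mul analyticAt_const).add (hs.mul analyticAt_const)
  have hNan : ∀ s ∈ Icc (0 : ℝ) 1, AnalyticAt ℝ N s := by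
    intro s hs
    have e1 : AnalyticAt ℝ (fun s => r s * x0) s := (hran s hs).mul analyticAt_const
    have e2 : AnalyticAt ℝ (fun s => r s * x1) s := (hran s hs).mul analyticAt_const
    exact ((e1.mul e1).add (e2.mul e2)).add ((hYan s).mul (hYan s))
  -- the rotation
  have hrow : ∀ s ∈ Icc (0 : ℝ) 1, 0 < N s ∧ ∀ i, ∀ z ∈ (C.e i).target, ∀ v,
      (H s).J 0 i z v = ∑ k, (Q e ((G s).om k) / Real.sqrt (N s)) • (G s).J k i z v := by
    intro s hs
    obtain ⟨R, hR, t, ht, h⟩ := hS s hs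
    have g := hG s hs
    have c0 : 0 < ∑ k, R 0 k * Q e ((G s).om k) := by
      have := g.e0
      rw [sameTw_Q hQ h] at this
      exact (mul_pos_iff_of_pos_left ht).1 this
    have c1 : ∑ k, R 1 k * Q e ((G s).om k) = 0 := by
      have := g.e1
      rw [sameTw_Q hQ h] at this
      exact (mul_eq_zero.1 this).resolve_left ht.ne'
    have c2 : ∑ k, R 2 k * Q e ((G s).om k) = 0 := by
      have := g.e2
      rw [sameTw_Q hQ h] at this
      exact (mul_eq_zero.1 this).resolve_left ht.ne'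
    have hN : ∑ k, Q e ((G s).om k) ^ 2 = N s := by
      rw [Fin.sum_univ_three, hX0 s hs, hX1 s hs, hY s hs]
      show _ = (r s * x0) * (r s * x0) + (r s * x1) * (r s * x1) + Y s * Y s
      ring
    have hrr := Mvs_713.rot_row hR (v := fun k => Q e ((G s).om k)) c1 c2 c0
    simp only [hN] at hrr
    constructor
    · rw [← hN]
      by_contra hle
      push Not at hle
      have hz : ∀ k, Q e ((G s).om k) = 0 := by
        intro k
        have h3 : ∑ k, Q e ((G s).om k) ^ 2 = 0 :=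
          le_antisymm hle (Finset.sum_nonneg fun k _ => sq_nonneg _)
        have h4 := (Finset.sum_eq_zero_iff_of_nonneg fun k _ => sq_nonneg _).1 h3 k
          (Finset.mem_univ k)
        exact pow_eq_zero_iff (two_ne_zero) |>.1 h4
      simp [hz] at c0
    · intro i z hz v
      have e1 : (H s).J 0 i z = (G s).Jv (R 0) i z := (h.J 0 i z hz).symm
      rw [e1, HkT.Jv, sum_apply]
      refine Finset.sum_congr rfl fun k _ => ?_
      rw [smul_apply, hrr k]
  let c : ℝ → ℝ := fun s => Real.exp (-2⁻¹ * Real.log (N s))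
  have hc : ∀ s ∈ Icc (0 : ℝ) 1, c s = (Real.sqrt (N s))⁻¹ := by
    intro s hs
    show Real.exp (-2⁻¹ * Real.log (N s)) = _
    rw [neg_mul, Real.exp_neg, exp_half (hrow s hs).1]
  have hcan : ∀ s ∈ Icc (0 : ℝ) 1, AnalyticAt ℝ c s := fun s hs =>
    an_exp_log (hNan s hs) (hrow s hs).1
  -- index shift
  have m0 : ∀ s, Eqv (((G s).cyc 2).om 0) ((G s).om 2) := fun s => cyc_om (G s) 2 0
  have m1 : ∀ s, Eqv (((G s).cyc 2).om 1) ((G s).om 0) := fun s => cyc_om (G s) 2 1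
  have m2 : ∀ s, Eqv (((G s).cyc 2).om 2) ((G s).om 1) := fun s => cyc_om (G s) 2 2
  let a : Fin 3 → ℝ → ℝ := fun k s => ![c s * Y s, c s * (r s * x0), c s * (r s * x1)] k
  have ha : ∀ s ∈ Icc (0 : ℝ) 1, ∀ k, a k s = c s * Q e (((G s).cyc 2).om k) := by
    intro s hs k
    fin_cases k
    · show c s * Y s = c s * Q e (((G s).cyc 2).om 0)
      rw [hQ.cl_right (cl_eqv (m0 s)), hY s hs]
    · show c s * (r s * x0) = c s * Q e (((G s).cyc 2).om 1)
      rw [hQ.cl_right (cl_eqv (m1 s)), hX0 s hs]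
    · show c s * (r s * x1) = c s * Q e (((G s).cyc 2).om 2)
      rw [hQ.cl_right (cl_eqv (m2 s)), hX1 s hs]
  have hcyc : ∀ s, ∀ k l : Fin 3, Q (((G s).cyc 2).om k) (((G s).cyc 2).om l) =
      if k = l then Q ((G s).om 0) ((G s).om 0) else 0 := by
    intro s k l
    rw [hQ.cl_left (cl_eqv (cyc_om (G s) 2 k)), hQ.cl_right (cl_eqv (cyc_om (G s) 2 l))]
    split_ifs with hkl
    · rw [hkl, hQ.nrm]
    · exact hQ.ort _ _ _ fun h => hkl (add_right_cancel h)
  refine ⟨r, a, fun s hs => hran s hs, fun s _ => hr s, fun s hs k hk => ?_, fun k s hs => ?_,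
    fun s hs i z hz v => ?_, fun s hs => ⟨c s, Real.exp_pos _, ha s hs⟩, fun s hs => ?_,
    fun s hs k l => ?_, fun s hs k hk => ?_⟩
  · have hg : ∀ k : Fin 3, Eqv (((G 0).cyc 2).om k) ((G 0).om (k + 2)) := fun k => cyc_om (G 0) 2 k
    have h2 : ∀ k : Fin 3, k ≠ 0 → Eqv ((G s).om (k + 2)) (r s • (G 0).om (k + 2)) := by
      intro k hk
      fin_cases k
      · exact absurd rfl hk
      · exact (hrm s hs).1
      · exact (hrm s hs).2
    intro i z hz u v
    rw [cyc_om (G s) 2 k i z hz, h2 k hk i z hz]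
    show r s * ((G 0).om (k + 2)).w i z u v = r s * (((G 0).cyc 2).om k).w i z u v
    rw [hg k i z hz]
  · fin_cases k
    · exact (hcan s hs).mul (hYan s)
    · exact (hcan s hs).mul ((hran s hs).mul analyticAt_const)
    · exact (hcan s hs).mul ((hran s hs).mul analyticAt_const)
  · rw [(hrow s hs).2 i z hz v, Fin.sum_univ_three, Fin.sum_univ_three]
    have j0 : ((G s).cyc 2).J 0 i z v = (G s).J 2 i z v := cyc_J (G s) 2 0 i z v
    have j1 : ((G s).cyc 2).J 1 i z v = (G s).J 0 i z v := cyc_J (G s) 2 1 i z v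
    have j2 : ((G s).cyc 2).J 2 i z v = (G s).J 1 i z v := cyc_J (G s) 2 2 i z v
    rw [j0, j1, j2, hX0 s hs, hX1 s hs, hY s hs]
    show _ = (c s * Y s) • _ + (c s * (r s * x0)) • _ + (c s * (r s * x1)) • _
    rw [hc s hs]
    simp only [div_eq_mul_inv]
    module
  · have e1 : ∑ k, a k s ^ 2 = c s ^ 2 * N s := by
      rw [Fin.sum_univ_three]
      show (c s * Y s) ^ 2 + (c s * (r s * x0)) ^ 2 + (c s * (r s * x1)) ^ 2 =
        c s ^ 2 * ((r s * x0) * (r s * x0) + (r s * x1) * (r s * x1) + Y s * Y s)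
      ring
    rw [e1, hc s hs, inv_pow, Real.sq_sqrt (hrow s hs).1.le]
    exact inv_mul_cancel₀ (hrow s hs).1.ne'
  · rw [hcyc, hP s hs, hr2 s hs]
    split_ifs
    · field_simp
    · rfl
  · have hx : ∀ k : Fin 3, k ≠ 0 → Q e ((G s).om (k + 2)) = r s * Q e ((G 0).om (k + 2)) := by
      intro k hk
      fin_cases k
      · exact absurd rfl hk
      · exact hX0 s hs
      · exact hX1 s hs
    rw [hQ.cl_right (cl_eqv (cyc_om (G s) 2 k)), hQ.cl_right (cl_eqv (cyc_om (G 0) 2 k)), hx k hk]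

end

end Crest.Agent.R281.Mvt_457
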