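import Crest.Agent.R281.Mvt1_457
import Crest.Agent.R281.Mvs4_713
import Crest.Agent.R260.NN6_900

/-!
# Row 281, MOVE-SEMI (helper457): `mvOut`, the composition

`mvOut : Ctx, Move, SameTw, Given ==> Nonempty (MvOut C L0 H)`
-/

set_option autoImplicit false
set_option linter.unusedSectionVars false
set_option maxSynthPendingDepth 3

open Set Filter Topology Complex Metric
open scoped ContDiff Matrix ComplexConjugate ComplexOrder

namespace Crest.Agent.R281.Mvt_457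

open Crest.Agent.R275.Geo Crest.Agent.R275.Core144 Crest.Agent.R275.EDR890
open Crest.Agent.R275.GC293
open Crest.Agent.R273.Kah_333 Crest.Agent.R273.Hess_333
open Crest.Agent.R260.ACM_580 Crest.Agent.R260.NNB_580
open Crest.Agent.R281.HkP1_508 Crest.Agent.R281.HkP2_508 Crest.Agent.R281.HkP3_508
open Crest.Agent.R281.Ti_846 Crest.Agent.R281.Dif_268 Crest.Agent.R281.Cdr_234
open Crest.Agent.R281.NefO_476 (ofHk Pos)
open Crest.Agent.R281.Nef_252 (T11 KCls T11_hk)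
open Crest.Agent.R281.HkR_835 Crest.Agent.R281.Alg_998
open Crest.Agent.R281.HKMov_478
open Crest.Agent.R281.LAn_508 (trQ)
open Crest.Agent.R281.PL_713 (PL)
open Crest.Agent.R281.RkD_902 (Move SameTw Given Ctx)
open Crest.Agent.R281.Ce_551 (QHk cl_eqv lin3_eq)
open Crest.Agent.R281.Sta2_684 (smulP)
open Crest.Agent.R281.Mvs_713 Crest.Agent.R281.Sem_323

noncomputable section

/-- the finite dimensional input -/
theorem nnCn (m : ℕ) : NNat (Cn m) m := Crest.Agent.R260.NN6_900.nnat m (Cn m) (by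
  rw [← Module.finrank_mul_finrank ℝ ℂ (Cn m)]
  simp)

section gen

variable {V X : Type} [NormedAddCommGroup V] [NormedSpace ℝ V] [TopologicalSpace X]
  {C : RCh V X} {d : ℕ} {A : Atl d X}

theorem F_eqv (h : Cmp C (ofAtl A)) {w w' : F2 C} (e : Eqv w w') : Eqv (h.F w) (h.F w') := by
  intro j z hz u v
  obtain ⟨i, hi⟩ := Cmp.exists_mov (C' := ofAtl A) C (j := j) hz
  rw [h.F_w _ hi, h.F_w _ hi]
  exact e i _ (Cmp.mt_mem hi).1 _ _

theorem F_eqv' (h : Cmp (ofAtl A) C) {w w' : F2 (ofAtl A)} (e : Eqv w w') :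
    Eqv (h.F w) (h.F w') := by
  intro j z hz u v
  obtain ⟨i, hi⟩ := Cmp.exists_mov (C' := C) (ofAtl A) (j := j) hz
  rw [h.F_w _ hi, h.F_w _ hi]
  exact e i _ (Cmp.mt_mem hi).1 _ _

/-- the form `μ_1 om_1(0) + μ_2 om_2(0) + μ_0 om_0(s) + y` is of type (1,1) for `J_a` -/
theorem t11_sum (M : HkT C) {a : Fin 3 → ℝ} (ha : a 0 ^ 2 + a 1 ^ 2 + a 2 ^ 2 = 1) (l : ℝ)
    {y : F2 C} (hy : ∀ k, T11 (ofHk M k) y) (i : C.ι) (z : V) (hz : z ∈ (C.e i).target) (u v : V) :
    y.w i z (M.Jv a i z u) (M.Jv a i z v) +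
        l * (∑ k, a k * (M.om k).w i z (M.Jv a i z u) (M.Jv a i z v)) =
      y.w i z u v + l * (∑ k, a k * (M.om k).w i z u v) := by
  rw [t11_Jv hy ha i z hz, t11_lin M ha i z hz]

end gen

section main

variable {n : ℕ} {X : Type} [TopologicalSpace X] [CompactSpace X] [T2Space X]
  [SimplyConnectedSpace X] {C : RCh (Cn (2 * n)) X} {Q : F2 C →ₗ[ℝ] F2 C →ₗ[ℝ] ℝ}

/-- **the output of the algebra on `[0,1]`** -/
theorem mvOut (hc : Ctx n C Q) {L0 : PL C} {e : F2 C} {G H : ℝ → HkT C} (hM : Move G)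
    (hS : ∀ s ∈ Icc (0 : ℝ) 1, SameTw (G s) (H s))
    (hG : ∀ s ∈ Icc (0 : ℝ) 1, Given Q (H s) L0 e) :
    Nonempty (MvOut (d := 2 * n) C L0 H) := by
  have hQ : QHk C Q := ⟨hc.symm, hc.ex, hc.ort, hc.eq⟩
  have h0 : (0 : ℝ) ∈ Icc (0 : ℝ) 1 := ⟨le_rfl, zero_le_one⟩
  have h1 : (1 : ℝ) ∈ Icc (0 : ℝ) 1 := ⟨zero_le_one, le_rfl⟩
  obtain ⟨r, a, r_an, r_pos, om12, a_an, JH, ha, ha1, hqq, hqe⟩ := exists_ra hQ hM hS hG
  set M : ℝ → HkT C := fun s => (G s).cyc 2 with hMd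
  set q0 := Q ((G 0).om 0) ((G 0).om 0) with hq0
  have hq0p : 0 < q0 := sameTw_pos hQ (hS 0 h0) (hG 0 h0).pos
  have hqM : ∀ s ∈ Icc (0 : ℝ) 1, Q ((M s).om 0) ((M s).om 0) = r s ^ 2 * q0 := fun s hs => by
    have := hqq s hs 0 0
    rwa [if_pos rfl] at this
  have hqp : ∀ s ∈ Icc (0 : ℝ) 1, 0 < Q ((M s).om 0) ((M s).om 0) := fun s hs => by
    rw [hqM s hs]
    exact mul_pos (pow_pos (r_pos s hs) 2) hq0p
  -- the complex structure is fixed
  have J0 : ∀ s ∈ Icc (0 : ℝ) 1, ∀ i, ∀ z ∈ (C.e i).target, ∀ v,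
      (M s).J 0 i z v = (M 0).J 0 i z v := by
    intro s hs i z hz v
    have e1 : (M s).J 0 i z v = (G s).J 2 i z v := cyc_J (G s) 2 0 i z v
    have e2 : (M 0).J 0 i z v = (G 0).J 2 i z v := cyc_J (G 0) 2 0 i z v
    rw [e1, e2, hM.J s hs i z hz]
  obtain ⟨A, hf, hgood, ⟨P⟩, -, -, hA⟩ := exists_rot (nnCn (2 * n)) (M 0)
  have hAs : ∀ s ∈ Icc (0 : ℝ) 1, Cp ((M s).acm 0) A := fun s hs => cp_tr (J0 s hs) hA
  obtain ⟨x0⟩ := (inferInstance : Nonempty X)
  set hcp := cmp_of_cp hA with hcpd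
  set K0 : Kah A := (M 0).kah hA with hK0
  -- the class of `om 0`
  have hcl : ∀ s ∈ Icc (0 : ℝ) 1,
      Cl ((M s).om 0) ((M 0).om 0 + s • ((M 1).om 0 - (M 0).om 0)) := by
    intro s hs
    have g : ∀ s, Cl ((M s).om 0) ((G s).om 2) := fun s => cl_eqv (cyc_om (G s) 2 0)
    have e1 := (g s).trans (hM.cls s hs)
    have e2 : Cl ((1 - s) • (G 0).om 2 + s • (G 1).om 2)
        ((1 - s) • (M 0).om 0 + s • (M 1).om 0) :=
      (((g 0).symm).smul (1 - s)).add (((g 1).symm).smul s)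
    have e3 := e1.trans e2
    have e4 : (1 - s) • (M 0).om 0 + s • (M 1).om 0 =
        (M 0).om 0 + s • ((M 1).om 0 - (M 0).om 0) := by module
    rwa [e4] at e3
  have hT : ∀ s ∈ Icc (0 : ℝ) 1, ∀ w : F2 C, T11 (ofHk (M 0) 0) w → T11 (ofHk (M s) 0) w := by
    intro s hs w hw i z hz u v
    show w.w i z ((M s).J 0 i z u) ((M s).J 0 i z v) = _
    rw [J0 s hs i z hz, J0 s hs i z hz]
    exact hw i z hz u v
  have hT' : ∀ s ∈ Icc (0 : ℝ) 1, T11 (ofHk (M 0) 0) ((M s).om 0) := by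
    intro s hs i z hz u v
    show ((M s).om 0).w i z ((M 0).J 0 i z u) ((M 0).J 0 i z v) = _
    rw [← J0 s hs i z hz, ← J0 s hs i z hz]
    exact T11_hk (M s) 0 i z hz u v
  have hx : T11 (ofHk (M 0) 0) ((M 1).om 0 - (M 0).om 0) := by
    intro i z hz u v
    have e1 := hT' 1 h1 i z hz u v
    have e2 := hT' 0 h0 i z hz u v
    show ((M 1).om 0).w i z _ _ - ((M 0).om 0).w i z _ _ =
      ((M 1).om 0).w i z u v - ((M 0).om 0).w i z u v
    rw [e1, e2]
  set B : K11 A := (hcp.F ((M 1).om 0 - (M 0).om 0)).k11 (onA_11 (M 0) hA hx) with hB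
  -- the potentials
  have hu : ∀ s : ℝ, ∃ u : X → ℝ, ∀ hs : s ∈ Icc (0 : ℝ) 1, A.Sm u ∧ u x0 = 0 ∧
      ∀ i, ∀ x ∈ (A.e i).source, ((M s).kah (hAs s hs)).g i x =
        (linK K0 B s).g i x + hsf A u i x := by
    intro s
    by_cases hs : s ∈ Icc (0 : ℝ) 1
    · have hEx : Ex ((ofKah ((M s).kah (hAs s hs))).f2 - (linK K0 B s).f2) := by
        have e1 : Eqv (ofKah ((M s).kah (hAs s hs))).f2 (hcp.F ((M s).om 0)) :=
          kah_f2 (M s) (hAs s hs)
        have e2 := lin_f2 (M 0) hA hx s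
        have e3 : Ex (hcp.F ((M s).om 0) -
            hcp.F ((M 0).om 0 + s • ((M 1).om 0 - (M 0).om 0))) :=
          (F_sub hcp _ _).ex (ex_F hcp (hcl s hs))
        refine Eqv.ex (eqvA fun j z hz u v => ?_) e3
        show (hcp.F ((M s).om 0)).w j z u v - (hcp.F _).w j z u v =
          (ofKah ((M s).kah (hAs s hs))).f2.w j z u v - (linK K0 B s).f2.w j z u v
        rw [e1 j z hz, e2 j z hz]
      obtain ⟨u, hu1, hu2, hu3⟩ := kdiff hgood P K0 x0 hEx
      exact ⟨u, fun _ => ⟨hu1, hu2, hu3⟩⟩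
    · exact ⟨0, fun h => absurd h hs⟩
  choose u hu using hu
  classical
  set K : ℝ → Kah A := fun s => if hs : s ∈ Icc (0 : ℝ) 1 then (M s).kah (hAs s hs) else K0
    with hKd
  have hK : ∀ s (hs : s ∈ Icc (0 : ℝ) 1), K s = (M s).kah (hAs s hs) := fun s hs => dif_pos hs
  have segK : SegK K0 B x0 (Icc 0 1) K u := by
    refine ⟨fun s hs => ⟨(hu s hs).1, fun i x hx => ?_⟩, fun s hs => (hu s hs).2.1,
      fun s hs => ⟨|r s| ^ (2 * n), fun i x hx => ?_⟩⟩
    · rw [hK s hs]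
      exact (hu s hs).2.2 i x hx
    · rw [hK s hs]
      exact det_scale hA (hAs s hs) (om12 s hs 1 (by decide)) (om12 s hs 2 (by decide)) i x hx
  have om0 : ∀ s ∈ Icc (0 : ℝ) 1, Eqv ((M s).om 0) (hcp.symm.F (ofKah (K s)).f2) := by
    intro s hs
    have e1 : Eqv (ofKah (K s)).f2 (hcp.F ((M s).om 0)) := by
      rw [hK s hs]
      exact kah_f2 (M s) (hAs s hs)
    exact ((F_eqv' hcp.symm e1).trans (F_F hcp _)).symm
  -- the fixed part of the class
  set m1 := Q e ((M 0).om 1) / q0 with hm1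
  set m2 := Q e ((M 0).om 2) / q0 with hm2
  have hr0 : r 0 = 1 := by
    have e1 := hqM 0 h0
    have e2 : Q ((M 0).om 0) ((M 0).om 0) = q0 := by
      have g0 : Cl ((M 0).om 0) ((G 0).om 2) := cl_eqv (cyc_om (G 0) 2 0)
      rw [hQ.cl_left g0, hQ.cl_right g0, hQ.nrm]
    rw [e2] at e1
    have e3 : r 0 ^ 2 = 1 := by
      have := mul_right_cancel₀ hq0p.ne' ((one_mul q0).trans e1)
      exact this.symm
    exact (pow_eq_one_iff_of_nonneg (r_pos 0 h0).le (by norm_num)).1 e3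
  have hq00 : ∀ k l : Fin 3, Q ((M 0).om k) ((M 0).om l) = if k = l then q0 else 0 := by
    intro k l
    have := hqq 0 h0 k l
    rwa [hr0, one_pow, one_mul] at this
  set e' : F2 C := e - m1 • (M 0).om 1 - m2 • (M 0).om 2 with he'
  have he'Q : ∀ w, Q e' w = Q e w - m1 * Q ((M 0).om 1) w - m2 * Q ((M 0).om 2) w := by
    intro w
    simp only [he', map_sub, map_smul, LinearMap.sub_apply, LinearMap.smul_apply, smul_eq_mul]
  obtain ⟨W, hW1, hW⟩ := hc.t11 (M 0) (hqp 0 h0) e' (by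
      rw [he'Q, hq00, hq00, if_pos rfl, if_neg (by decide), hm1]
      field_simp
      ring) (by
      rw [he'Q, hq00, hq00, if_pos rfl, if_neg (by decide), hm2]
      field_simp
      ring)
  set E : K11 A := (hcp.F W).k11 (onA_11 (M 0) hA hW) with hE0
  have hE : Eqv E.f2 (hcp.F W) := eqvA fun j z hz u v => by rw [hE0, F2.k11_f2 _ _ hz]
  have hf' : ∀ s : ℝ, ∃ f : X → ℝ, ∀ hs : s ∈ Icc (0 : ℝ) 1, ∃ (hf : A.Sm f) (y : F2 C),
      f x0 = 0 ∧ (∃ c : ℝ, ∀ x, trQ ((M s).kah (hAs s hs)) E f x = c) ∧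
      (∀ k, T11 (ofHk (M s) k) y) ∧ ∀ i, ∀ z ∈ (C.e i).target, ∀ u v, W.w i z u v +
        (fderiv ℝ (((SMap.ofCmp hcp.symm).pull1 (dcF f hf)).η i) z u v -
          fderiv ℝ (((SMap.ofCmp hcp.symm).pull1 (dcF f hf)).η i) z v u) =
        y.w i z u v + (Q W ((M s).om 0) / Q ((M s).om 0) ((M s).om 0)) *
          ((M s).om 0).w i z u v := by
    intro s
    by_cases hs : s ∈ Icc (0 : ℝ) 1
    · obtain ⟨f, hf1, y, hf2, hf3, hf4, hf5⟩ := exists_f hgood P hc.symm hc.ex (H := M s) hc.eq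
        (hAs s hs) (hc.uniq (M s) (hqp s hs)) (hqp s hs).ne' (hT s hs W hW) E hE x0
      exact ⟨f, fun _ => ⟨hf1, y, hf2, hf3, hf4, hf5⟩⟩
    · exact ⟨0, fun h => absurd h hs⟩
  choose f hf' using hf'
  have segF : SegF K E x0 (Icc 0 1) f := by
    refine ⟨fun s hs => ?_, fun s hs => ?_, fun s hs => ?_⟩
    · obtain ⟨hf1, y, -⟩ := hf' s hs
      exact hf1
    · obtain ⟨hf1, y, hf2, -⟩ := hf' s hs
      exact hf2
    · obtain ⟨hf1, y, -, hf3, -⟩ := hf' s hs
      rw [hK s hs]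
      exact hf3
  -- the fixed part of the connection
  have hη : Ex ((-(2 * Real.pi)) • (W + m1 • (M 0).om 1 + m2 • (M 0).om 2) - L0.F) := by
    have e1 : Cl L0.F ((-(2 * Real.pi)) • e) := (hG 0 h0).lnk
    have e2 : Cl (W + m1 • (M 0).om 1 + m2 • (M 0).om 2)
        (e' + m1 • (M 0).om 1 + m2 • (M 0).om 2) :=
      (hW1.add (Cl.refl _)).add (Cl.refl _)
    have e3 : e' + m1 • (M 0).om 1 + m2 • (M 0).om 2 = e := by
      rw [he']
      module
    rw [e3] at e2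
    exact (e2.smul (-(2 * Real.pi))).trans e1.symm
  obtain ⟨η, hη⟩ := hη
  refine ⟨{ A := A, fin := hf, P := P, M := M, hA := hA, J0 := J0, x0 := x0, K0 := K0, B := B,
            K := K, u := u, segK := segK, om0 := om0, E := E, f := f, segF := segF, r := r,
            r_an := r_an, r_pos := r_pos, om12 := om12, a := a, a_an := a_an, JH := JH, η := η,
            conn := fun s hs => ?_ }⟩
  obtain ⟨hf1, y, -, -, hy, hyE⟩ := hf' s hs
  set p : F1 C := (SMap.ofCmp hcp.symm).pull1 (dcF (f s) hf1) with hp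
  refine ⟨η + (-(2 * Real.pi)) • p, fun i z hz v => ?_, fun i z hz x x' => ?_⟩
  · show η.η i z v + (-(2 * Real.pi)) * p.η i z v = _
    rw [hp, dcC_η (M 0) hA hf1 hz v]
    ring
  · -- the curvature
    have hF : ∀ x x', (L0.add (η + (-(2 * Real.pi)) • p)).F.w i z x x' =
        (-(2 * Real.pi)) * (m1 * ((M 0).om 1).w i z x x' + m2 * ((M 0).om 2).w i z x x' +
          (y.w i z x x' + (Q W ((M s).om 0) / Q ((M s).om 0) ((M s).om 0)) *
          ((M s).om 0).w i z x x')) := by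
      intro x x'
      rw [PL_713.PL.add_F L0 _ hz, ← hyE i z hz]
      have e1 := hη i z hz x x'
      have e2 : (-(2 * Real.pi)) * (W.w i z x x' + m1 * ((M 0).om 1).w i z x x' +
          m2 * ((M 0).om 2).w i z x x') - L0.F.w i z x x' =
          fderiv ℝ (η.η i) z x x' - fderiv ℝ (η.η i) z x' x := e1
      have e3 : (η + (-(2 * Real.pi)) • p).d.w i z x x' =
          (fderiv ℝ (η.η i) z x x' - fderiv ℝ (η.η i) z x' x) +
          (-(2 * Real.pi)) * (fderiv ℝ (p.η i) z x x' - fderiv ℝ (p.η i) z x' x) := by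
        have h5 : fderiv ℝ ((η + (-(2 * Real.pi)) • p).η i) z =
            fderiv ℝ (η.η i) z + (-(2 * Real.pi)) • fderiv ℝ (p.η i) z := by
          rw [F1.fderiv_add η ((-(2 * Real.pi)) • p) hz, F1.fderiv_smul _ p hz]
        rw [F1.d_w, h5]
        simp only [add_apply, smul_apply, smul_eq_mul]
        ring
      rw [e3]
      linear_combination (-1 : ℝ) * e2
    -- the coefficients
    obtain ⟨c, hc0, hac⟩ := ha s hs
    have hrs := r_pos s hs
    have hqs : Q ((M s).om 0) ((M s).om 0) = r s ^ 2 * q0 := hqM s hs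
    set l := (c * (r s ^ 2 * q0))⁻¹ with hl
    have hkk : ∀ k : Fin 3, k ≠ 0 → ∀ x x',
        ((M s).om k).w i z x x' = r s * ((M 0).om k).w i z x x' := fun k hk x x' =>
      om12 s hs k hk i z hz x x'
    have hQW : Q W ((M s).om 0) = Q e ((M s).om 0) := by
      have hz0 : ∀ k : Fin 3, k ≠ 0 → Q ((M 0).om k) ((M s).om 0) = 0 := by
        intro k hk
        have e1 := hqq s hs k 0
        rw [if_neg hk] at e1
        have e2 : Q ((M s).om k) ((M s).om 0) = r s * Q ((M 0).om k) ((M s).om 0) := by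
          rw [hQ.cl_left (cl_eqv (om12 s hs k hk)), map_smul, LinearMap.smul_apply, smul_eq_mul]
        rw [e2] at e1
        exact (mul_eq_zero.1 e1).resolve_left hrs.ne'
      rw [hQ.cl_left hW1, he'Q, hz0 1 (by decide), hz0 2 (by decide)]
      ring
    have c0 : Q W ((M s).om 0) / Q ((M s).om 0) ((M s).om 0) = l * a 0 s := by
      have e2 : a 0 s = c * Q e ((M s).om 0) := hac 0
      rw [hQW, hqs, e2, hl]
      field_simp
    have ck : ∀ k : Fin 3, k ≠ 0 → Q e ((M 0).om k) / q0 = l * a k s * r s := by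
      intro k hk
      have e1 := hac k
      rw [hqe s hs k hk] at e1
      have e2 : a k s = c * (r s * Q e ((M 0).om k)) := e1
      rw [e2, hl]
      field_simp
    have hall : ∀ x x', (L0.add (η + (-(2 * Real.pi)) • p)).F.w i z x x' =
        (-(2 * Real.pi)) * (y.w i z x x' + l * (∑ k, a k s * ((M s).om k).w i z x x')) := by
      intro x x'
      rw [hF, c0, hm1, hm2, ck 1 (by decide), ck 2 (by decide), Fin.sum_univ_three,
        hkk 1 (by decide), hkk 2 (by decide)]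
      ring
    have ha' : a 0 s ^ 2 + a 1 s ^ 2 + a 2 s ^ 2 = 1 := by
      have := ha1 s hs
      rwa [Fin.sum_univ_three] at this
    have hJ : ∀ x, (ofHk (H s) 0).J i z x = (M s).Jv (fun k => a k s) i z x := by
      intro x
      show (H s).J 0 i z x = _
      rw [JH s hs i z hz x, HkT.Jv, sum_apply]
      rfl
    rw [hJ, hJ, hall, hall]
    have := t11_sum (M s) (a := fun k => a k s) ha' l hy i z hz x x'
    rw [this]

end main

end

end Crest.Agent.R281.Mvt_457
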