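import Mathlib

/-! Row 281, S-MAX (helper405), part 1: doubling metric measure spaces, the (centred) maximal
function over closed balls, weak (1,1), common good points. -/

set_option autoImplicit false
open MeasureTheory Metric Set Filter Topology
open scoped ENNReal NNReal

namespace Crest.Agent.R281.Mx_405

variable {X : Type*} [PseudoMetricSpace X] [MeasurableSpace X]

/-- Doubling measure (all radii), balls of positive finite measure. -/
structure Dbl (μ : Measure X) (C : ℝ≥0) : Prop where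
  dbl : ∀ (x : X) (r : ℝ), 0 < r → μ (closedBall x (2 * r)) ≤ (C : ℝ≥0∞) * μ (closedBall x r)
  pos : ∀ (x : X) (r : ℝ), 0 < r → 0 < μ (closedBall x r)
  fin : ∀ (x : X) (r : ℝ), μ (closedBall x r) < ∞

/-- Mean over a closed ball (extended nonnegative functions). -/
noncomputable def avg (μ : Measure X) (f : X → ℝ≥0∞) (x : X) (r : ℝ) : ℝ≥0∞ :=
  (∫⁻ y in closedBall x r, f y ∂μ) / μ (closedBall x r)

/-- Maximal function over radii `0 < r ≤ R`. -/
noncomputable def MxR (μ : Measure X) (R : ℝ) (f : X → ℝ≥0∞) (x : X) : ℝ≥0∞ :=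
  ⨆ (r : ℝ) (_ : 0 < r) (_ : r ≤ R), avg μ f x r

/-- Maximal function over all radii. -/
noncomputable def Mx (μ : Measure X) (f : X → ℝ≥0∞) (x : X) : ℝ≥0∞ :=
  ⨆ (r : ℝ) (_ : 0 < r), avg μ f x r

variable {μ : Measure X} {C : ℝ≥0}

lemma Dbl.dbl_pow (h : Dbl μ C) (x : X) {r : ℝ} (hr : 0 < r) (k : ℕ) :
    μ (closedBall x (2 ^ k * r)) ≤ (C : ℝ≥0∞) ^ k * μ (closedBall x r) := by
  induction k with
  | zero => simp
  | succ k ih =>
    have h1 := h.dbl x (2 ^ k * r) (by positivity)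
    calc μ (closedBall x (2 ^ (k + 1) * r)) = μ (closedBall x (2 * (2 ^ k * r))) := by ring_nf
      _ ≤ (C : ℝ≥0∞) * μ (closedBall x (2 ^ k * r)) := h1
      _ ≤ (C : ℝ≥0∞) * ((C : ℝ≥0∞) ^ k * μ (closedBall x r)) := by gcongr
      _ = (C : ℝ≥0∞) ^ (k + 1) * μ (closedBall x r) := by ring

lemma Dbl.one_le [Nonempty X] (h : Dbl μ C) : 1 ≤ C := by
  obtain ⟨x⟩ := (inferInstance : Nonempty X)
  have h1 := h.dbl x 1 one_pos
  have h2 : μ (closedBall x 1) ≤ μ (closedBall x (2 * 1)) :=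
    measure_mono (closedBall_subset_closedBall (by norm_num))
  have h3 : (1 : ℝ≥0∞) * μ (closedBall x 1) ≤ (C : ℝ≥0∞) * μ (closedBall x 1) := by
    rw [one_mul]; exact h2.trans h1
  have h4 := (ENNReal.mul_le_mul_iff_left (h.pos x 1 one_pos).ne' (h.fin x 1).ne).1 h3
  exact_mod_cast h4

lemma MxR_mono (f : X → ℝ≥0∞) (x : X) : Monotone fun R => MxR μ R f x := by
  intro R S hRS
  refine iSup_le fun r => iSup_le fun hr => iSup_le fun hr' => ?_
  exact le_iSup_of_le r (le_iSup_of_le hr (le_iSup_of_le (hr'.trans hRS) le_rfl))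

lemma Mx_eq_iSup (f : X → ℝ≥0∞) (x : X) : Mx μ f x = ⨆ n : ℕ, MxR μ n f x := by
  apply le_antisymm
  · refine iSup_le fun r => iSup_le fun hr => ?_
    obtain ⟨n, hn⟩ := exists_nat_ge r
    exact le_iSup_of_le n (le_iSup_of_le r (le_iSup_of_le hr (le_iSup_of_le hn le_rfl)))
  · refine iSup_le fun n => iSup_le fun r => iSup_le fun hr => iSup_le fun _ => ?_
    exact le_iSup_of_le r (le_iSup_of_le hr le_rfl)

lemma avg_le_Mx (f : X → ℝ≥0∞) (x : X) {r : ℝ} (hr : 0 < r) : avg μ f x r ≤ Mx μ f x :=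
  le_iSup_of_le r (le_iSup_of_le hr le_rfl)

lemma MxR_le_Mx (f : X → ℝ≥0∞) (x : X) (R : ℝ) : MxR μ R f x ≤ Mx μ f x := by
  refine iSup_le fun r => iSup_le fun hr => iSup_le fun _ => ?_
  exact avg_le_Mx f x hr

/-- weak (1,1) for bounded radii, on the set where the ball is chosen; `f` may be integrated only
over the `R`-neighbourhood of `A`. -/
theorem weak_MxR_aux [OpensMeasurableSpace X] [SecondCountableTopology X] (h : Dbl μ C)
    (f : X → ℝ≥0∞) (R : ℝ) (t : ℝ≥0∞) (A S : Set X)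
    (hA : ∀ y ∈ A, t < MxR μ R f y) (hS : ∀ y ∈ A, closedBall y R ⊆ S) :
    t * μ A ≤ (C : ℝ≥0∞) ^ 2 * ∫⁻ x in S, f x ∂μ := by
  classical
  have hch : ∀ y : X, ∃ r : ℝ, y ∈ A → 0 < r ∧ r ≤ R ∧ t < avg μ f y r := by
    intro y
    by_cases hy : y ∈ A
    · have := hA y hy
      simp only [MxR, lt_iSup_iff] at this
      obtain ⟨r, hr, hr', h'⟩ := this
      exact ⟨r, fun _ => ⟨hr, hr', h'⟩⟩
    · exact ⟨0, fun h' => absurd h' hy⟩
  choose r hr using hch
  obtain ⟨u, huA, hdisj, hcov⟩ := Vitali.exists_disjoint_subfamily_covering_enlargement_closedBall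
    A (fun y => y) r R (fun a ha => (hr a ha).2.1) 4 (by norm_num)
  have hcount : u.Countable := by
    refine hdisj.countable_of_nonempty_interior fun a ha => ?_
    refine ⟨a, ?_⟩
    exact ball_subset_interior_closedBall (mem_ball_self (hr a (huA ha)).1)
  have hsub : A ⊆ ⋃ b ∈ u, closedBall b (4 * r b) := by
    intro a ha
    obtain ⟨b, hb, hab⟩ := hcov a ha
    exact mem_biUnion hb (hab (mem_closedBall_self (hr a ha).1.le))
  have hone : ∀ b ∈ u, t * μ (closedBall b (4 * r b)) ≤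
      (C : ℝ≥0∞) ^ 2 * ∫⁻ x in closedBall b (r b), f x ∂μ := by
    intro b hb
    obtain ⟨h0, _, h2⟩ := hr b (huA hb)
    have h3 : μ (closedBall b (4 * r b)) ≤ (C : ℝ≥0∞) ^ 2 * μ (closedBall b (r b)) := by
      have := h.dbl_pow b h0 2
      norm_num at this
      exact this
    have h4 : t * μ (closedBall b (r b)) ≤ ∫⁻ x in closedBall b (r b), f x ∂μ := by
      have := h2.le
      unfold avg at this
      exact (ENNReal.le_div_iff_mul_le (Or.inl (h.pos b _ h0).ne') (Or.inl (h.fin b _).ne)).1 this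
    calc t * μ (closedBall b (4 * r b)) ≤ t * ((C : ℝ≥0∞) ^ 2 * μ (closedBall b (r b))) := by gcongr
      _ = (C : ℝ≥0∞) ^ 2 * (t * μ (closedBall b (r b))) := by ring
      _ ≤ _ := by gcongr
  have hms : ∀ b : u, MeasurableSet (closedBall (b : X) (r b)) := fun b => measurableSet_closedBall
  have : Countable u := hcount.to_subtype
  calc t * μ A ≤ t * μ (⋃ b ∈ u, closedBall b (4 * r b)) := by gcongr
    _ ≤ t * ∑' b : u, μ (closedBall (b : X) (4 * r b)) := by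
        gcongr
        exact measure_biUnion_le μ hcount _
    _ = ∑' b : u, t * μ (closedBall (b : X) (4 * r b)) := ENNReal.tsum_mul_left.symm
    _ ≤ ∑' b : u, (C : ℝ≥0∞) ^ 2 * ∫⁻ x in closedBall (b : X) (r b), f x ∂μ :=
        ENNReal.tsum_le_tsum fun b => hone b b.2
    _ = (C : ℝ≥0∞) ^ 2 * ∑' b : u, ∫⁻ x in closedBall (b : X) (r b), f x ∂μ :=
        ENNReal.tsum_mul_left
    _ = (C : ℝ≥0∞) ^ 2 * ∫⁻ x in ⋃ b : u, closedBall (b : X) (r b), f x ∂μ := by
        congr 1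
        rw [lintegral_iUnion hms]
        intro a b hab
        exact hdisj a.2 b.2 (fun h' => hab (Subtype.ext h'))
    _ ≤ _ := by
        gcongr
        refine iUnion_subset fun b => ?_
        exact (closedBall_subset_closedBall (hr b (huA b.2)).2.1).trans (hS b (huA b.2))

/-- Weak (1,1), bounded radii. -/
theorem weak_MxR [OpensMeasurableSpace X] [SecondCountableTopology X] (h : Dbl μ C)
    (f : X → ℝ≥0∞) (R : ℝ) (t : ℝ≥0∞) :
    t * μ {y | t < MxR μ R f y} ≤ (C : ℝ≥0∞) ^ 2 * ∫⁻ x, f x ∂μ := by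
  have := weak_MxR_aux h f R t {y | t < MxR μ R f y} univ (fun y hy => hy) (fun _ _ => subset_univ _)
  simpa using this

/-- Localised weak (1,1): radii `≤ R`, points in `S₀`, integral over the `R`-neighbourhood. -/
theorem weak_MxR_local [OpensMeasurableSpace X] [SecondCountableTopology X] (h : Dbl μ C)
    (f : X → ℝ≥0∞) (R : ℝ) (t : ℝ≥0∞) (y₀ : X) (ρ : ℝ) :
    t * μ {y | y ∈ closedBall y₀ ρ ∧ t < MxR μ R f y} ≤
      (C : ℝ≥0∞) ^ 2 * ∫⁻ x in closedBall y₀ (ρ + R), f x ∂μ := by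
  refine weak_MxR_aux h f R t _ _ (fun y hy => hy.2) (fun y hy => ?_)
  intro z hz
  have h1 := mem_closedBall.1 hy.1
  have h2 := mem_closedBall.1 hz
  exact mem_closedBall.2 ((dist_triangle z y y₀).trans (by linarith))

/-- Weak (1,1), all radii. -/
theorem weak_Mx [OpensMeasurableSpace X] [SecondCountableTopology X] (h : Dbl μ C)
    (f : X → ℝ≥0∞) (t : ℝ≥0∞) :
    t * μ {y | t < Mx μ f y} ≤ (C : ℝ≥0∞) ^ 2 * ∫⁻ x, f x ∂μ := by
  have hU : {y | t < Mx μ f y} = ⋃ n : ℕ, {y | t < MxR μ n f y} := by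
    ext y
    simp only [mem_iUnion, Mx_eq_iSup, lt_iSup_iff, Set.mem_ofPred_eq]
  have hmono : Monotone fun n : ℕ => {y | t < MxR μ n f y} := by
    intro m n hmn y hy
    exact lt_of_lt_of_le hy (MxR_mono f y (by exact_mod_cast hmn))
  rw [hU, hmono.measure_iUnion, ENNReal.mul_iSup]
  exact iSup_le fun n => weak_MxR h f n t

/-- Markov form: the set where the maximal function exceeds `K` times a bound of the integral. -/
theorem meas_bad_le [OpensMeasurableSpace X] [SecondCountableTopology X] (h : Dbl μ C)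
    (f : X → ℝ≥0∞) (c K : ℝ≥0∞) (hc0 : c ≠ 0) (hc : c ≠ ∞) (hK0 : K ≠ 0) (hK : K ≠ ∞)
    (hf : ∫⁻ x, f x ∂μ ≤ c) :
    μ {y | K * c < Mx μ f y} ≤ (C : ℝ≥0∞) ^ 2 / K := by
  have h1 := weak_Mx h f (K * c)
  have h2 : K * c * μ {y | K * c < Mx μ f y} ≤ (C : ℝ≥0∞) ^ 2 * c := h1.trans (by gcongr)
  rw [ENNReal.le_div_iff_mul_le (Or.inl hK0) (Or.inl hK)]
  have h3 : c * (μ {y | K * c < Mx μ f y} * K) ≤ c * (C : ℝ≥0∞) ^ 2 := by
    calc c * (μ {y | K * c < Mx μ f y} * K) = K * c * μ {y | K * c < Mx μ f y} := by ring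
      _ ≤ (C : ℝ≥0∞) ^ 2 * c := h2
      _ = c * (C : ℝ≥0∞) ^ 2 := by ring
  exact (ENNReal.mul_le_mul_iff_right hc0 hc).1 h3

/-- (MX2) common good points of finitely many maximal functions. -/
theorem meas_bad_fin [OpensMeasurableSpace X] [SecondCountableTopology X] (h : Dbl μ C)
    {ι : Type*} (s : Finset ι) (f : ι → X → ℝ≥0∞) (c : ι → ℝ≥0∞) (K : ℝ≥0∞)
    (hc0 : ∀ i ∈ s, c i ≠ 0) (hc : ∀ i ∈ s, c i ≠ ∞) (hK0 : K ≠ 0) (hK : K ≠ ∞)
    (hf : ∀ i ∈ s, ∫⁻ x, f i x ∂μ ≤ c i) :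
    μ {y | ∃ i ∈ s, K * c i < Mx μ (f i) y} ≤ s.card * ((C : ℝ≥0∞) ^ 2 / K) := by
  have hset : {y | ∃ i ∈ s, K * c i < Mx μ (f i) y} = ⋃ i ∈ s, {y | K * c i < Mx μ (f i) y} := by
    ext y; simp
  rw [hset]
  calc μ (⋃ i ∈ s, {y | K * c i < Mx μ (f i) y}) ≤ ∑ i ∈ s, μ {y | K * c i < Mx μ (f i) y} :=
        measure_biUnion_finset_le s _
    _ ≤ ∑ _i ∈ s, (C : ℝ≥0∞) ^ 2 / K :=
        Finset.sum_le_sum fun i hi => meas_bad_le h (f i) (c i) K (hc0 i hi) (hc i hi) hK0 hK (hf i hi)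
    _ = _ := by rw [Finset.sum_const, nsmul_eq_mul]

/-- (MX2) existence of a good point in any set of measure larger than the bad mass. -/
theorem exists_good [OpensMeasurableSpace X] [SecondCountableTopology X] (h : Dbl μ C)
    {ι : Type*} (s : Finset ι) (f : ι → X → ℝ≥0∞) (c : ι → ℝ≥0∞) (K : ℝ≥0∞)
    (hc0 : ∀ i ∈ s, c i ≠ 0) (hc : ∀ i ∈ s, c i ≠ ∞) (hK0 : K ≠ 0) (hK : K ≠ ∞)
    (hf : ∀ i ∈ s, ∫⁻ x, f i x ∂μ ≤ c i) (A : Set X)
    (hA : s.card * ((C : ℝ≥0∞) ^ 2 / K) < μ A) :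
    ∃ y ∈ A, ∀ i ∈ s, Mx μ (f i) y ≤ K * c i := by
  by_contra hcon
  push Not at hcon
  have hsub : A ⊆ {y | ∃ i ∈ s, K * c i < Mx μ (f i) y} := by
    intro y hy
    obtain ⟨i, hi, h'⟩ := hcon y hy
    exact ⟨i, hi, h'⟩
  exact absurd ((measure_mono hsub).trans (meas_bad_fin h s f c K hc0 hc hK0 hK hf)) (not_le.2 hA)

/-- From the extended maximal function to real set averages. -/
theorem setAverage_le_of_Mx [OpensMeasurableSpace X] (h : Dbl μ C) {g : X → ℝ} (hg : ∀ x, 0 ≤ g x)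
    {y : X} {K : ℝ} (hK : 0 ≤ K) {r : ℝ} (hr : 0 < r)
    (hM : Mx μ (fun x => ENNReal.ofReal (g x)) y ≤ ENNReal.ofReal K) :
    ⨍ x in closedBall y r, g x ∂μ ≤ K := by
  by_cases hint : IntegrableOn g (closedBall y r) μ
  · have h1 := (avg_le_Mx (μ := μ) (fun x => ENNReal.ofReal (g x)) y hr).trans hM
    unfold avg at h1
    rw [← ofReal_integral_eq_lintegral_ofReal hint (ae_of_all _ hg),
      ENNReal.div_le_iff (h.pos y r hr).ne' (h.fin y r).ne] at h1
    have h2 : μ (closedBall y r) = ENNReal.ofReal (μ.real (closedBall y r)) :=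
      (ofReal_measureReal (h.fin y r).ne).symm
    rw [h2, ← ENNReal.ofReal_mul hK, ENNReal.ofReal_le_ofReal_iff (by positivity)] at h1
    rw [setAverage_eq, smul_eq_mul]
    have h3 : 0 < μ.real (closedBall y r) := ENNReal.toReal_pos (h.pos y r hr).ne' (h.fin y r).ne
    rw [inv_mul_le_iff₀ h3]
    linarith
  · rw [setAverage_eq, integral_undef hint, smul_zero]
    exact hK

end Crest.Agent.R281.Mx_405
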