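import Crest.Agent.R281.Mx1_405

/-! Row 281, S-MAX (helper405), part 2: telescoped Poincare inequality, change of ball, density of
good points, diameter bound from annulus comparison. -/

set_option autoImplicit false
open MeasureTheory Metric Set Filter Topology
open scoped ENNReal NNReal

namespace Crest.Agent.R281.Mx_405

variable {X : Type*} [PseudoMetricSpace X] [MeasurableSpace X] [OpensMeasurableSpace X]
variable {μ : Measure X} {C : ℝ≥0}

lemma Dbl.real_pos (h : Dbl μ C) (x : X) {r : ℝ} (hr : 0 < r) : 0 < μ.real (closedBall x r) :=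
  ENNReal.toReal_pos (h.pos x r hr).ne' (h.fin x r).ne

lemma Dbl.real_dbl_pow (h : Dbl μ C) (x : X) {r : ℝ} (hr : 0 < r) (k : ℕ) :
    μ.real (closedBall x (2 ^ k * r)) ≤ (C : ℝ) ^ k * μ.real (closedBall x r) := by
  have h1 := h.dbl_pow x hr k
  have h2 : (C : ℝ≥0∞) ^ k * μ (closedBall x r) ≠ ∞ :=
    ENNReal.mul_ne_top (ENNReal.pow_ne_top ENNReal.coe_ne_top) (h.fin x r).ne
  have h3 := ENNReal.toReal_mono h2 h1
  rw [ENNReal.toReal_mul, ENNReal.toReal_pow, ENNReal.coe_toReal] at h3
  exact h3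

lemma Dbl.real_dbl (h : Dbl μ C) (x : X) {r : ℝ} (hr : 0 < r) :
    μ.real (closedBall x (2 * r)) ≤ (C : ℝ) * μ.real (closedBall x r) := by
  have := h.real_dbl_pow x hr 1
  simpa using this

/-- Set average over a subset, against the average over a bigger set. -/
lemma setAverage_le_of_subset {A B : Set X} {g : X → ℝ} (hg : ∀ x, 0 ≤ g x)
    (hint : IntegrableOn g B μ) (hAB : A ⊆ B) {K : ℝ}
    (hA : 0 < μ.real A) (hB : 0 < μ.real B) (hK : μ.real B ≤ K * μ.real A) :
    ⨍ x in A, g x ∂μ ≤ K * ⨍ x in B, g x ∂μ := by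
  rw [setAverage_eq, setAverage_eq, smul_eq_mul, smul_eq_mul]
  have h1 : ∫ x in A, g x ∂μ ≤ ∫ x in B, g x ∂μ :=
    setIntegral_mono_set hint (ae_of_all _ hg) (LE.le.eventuallyLE hAB)
  have h2 : 0 ≤ ∫ x in B, g x ∂μ := integral_nonneg hg
  have h0 : 0 ≤ ∫ x in A, g x ∂μ := integral_nonneg hg
  rw [inv_mul_le_iff₀ hA]
  calc ∫ x in A, g x ∂μ ≤ ∫ x in B, g x ∂μ := h1
    _ = μ.real B * ((μ.real B)⁻¹ * ∫ x in B, g x ∂μ) := by field_simp
    _ ≤ (K * μ.real A) * ((μ.real B)⁻¹ * ∫ x in B, g x ∂μ) := by gcongr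
    _ = _ := by ring

/-- Average of `|f - c|` controls the difference of the average and `c`. -/
lemma abs_average_sub_le {A : Set X} {f : X → ℝ} (hint : IntegrableOn f A μ)
    (hA : μ A ≠ ∞) (hA0 : 0 < μ.real A) (c : ℝ) :
    |(⨍ x in A, f x ∂μ) - c| ≤ ⨍ x in A, |f x - c| ∂μ := by
  have hc : IntegrableOn (fun _ : X => c) A μ := integrableOn_const hA
  have h1 : (⨍ x in A, f x ∂μ) - c = ⨍ x in A, (f x - c) ∂μ := by
    rw [setAverage_eq, setAverage_eq, integral_sub hint hc, setIntegral_const, smul_eq_mul,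
      smul_eq_mul, smul_eq_mul]
    field_simp
  rw [h1, setAverage_eq, setAverage_eq, smul_eq_mul, smul_eq_mul, abs_mul,
    abs_of_pos (inv_pos.2 hA0)]
  gcongr
  exact abs_integral_le_integral_abs

/-- (MX3) telescoping: oscillation `≤ a r` on all balls about `y` of radius `≤ R` and convergence of
the means to `c` give `mean_{B(y,R)} |f - c| ≤ (1 + 2 C) a R`. -/
theorem telescope (h : Dbl μ C) {f : X → ℝ} {y : X} {R a c : ℝ} (hR : 0 < R) (ha : 0 ≤ a)
    (hint : IntegrableOn f (closedBall y R) μ)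
    (hP : ∀ r, 0 < r → r ≤ R →
      ⨍ x in closedBall y r, |f x - ⨍ z in closedBall y r, f z ∂μ| ∂μ ≤ a * r)
    (hlim : Tendsto (fun r => ⨍ x in closedBall y r, f x ∂μ) (𝓝[>] 0) (𝓝 c)) :
    ⨍ x in closedBall y R, |f x - c| ∂μ ≤ (1 + 2 * C) * a * R := by
  set m : ℝ → ℝ := fun r => ⨍ x in closedBall y r, f x ∂μ with hm
  have hintr : ∀ r, r ≤ R → IntegrableOn f (closedBall y r) μ := fun r hr =>
    hint.mono_set (closedBall_subset_closedBall hr)
  have hstep : ∀ r, 0 < r → r ≤ R → |m (r / 2) - m r| ≤ C * (a * r) := by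
    intro r hr hrR
    have hr2 : 0 < r / 2 := by positivity
    have h1 : |m (r / 2) - m r| ≤ ⨍ x in closedBall y (r / 2), |f x - m r| ∂μ :=
      abs_average_sub_le (hintr _ (by linarith)) (h.fin y _).ne (h.real_pos y hr2) _
    have h2 : ⨍ x in closedBall y (r / 2), |f x - m r| ∂μ ≤
        C * ⨍ x in closedBall y r, |f x - m r| ∂μ := by
      refine setAverage_le_of_subset (fun _ => abs_nonneg _) ?_
        (closedBall_subset_closedBall (by linarith)) (h.real_pos y hr2) (h.real_pos y hr) ?_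
      · exact ((hintr r hrR).sub (integrableOn_const (h.fin y r).ne)).abs
      · have := h.real_dbl y hr2
        rwa [show 2 * (r / 2) = r by ring] at this
    have h3 := hP r hr hrR
    calc |m (r / 2) - m r| ≤ C * ⨍ x in closedBall y r, |f x - m r| ∂μ := h1.trans h2
      _ ≤ C * (a * r) := by gcongr
  have hsum : ∀ k : ℕ, |m (R / 2 ^ k) - m R| ≤ 2 * C * a * R := by
    intro k
    have : |m (R / 2 ^ k) - m R| ≤ C * a * R * (2 - 2 / 2 ^ k) := by
      induction k with
      | zero => simp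
      | succ k ih =>
        have hpos : (0 : ℝ) < 2 ^ k := by positivity
        have h1 := hstep (R / 2 ^ k) (by positivity) (div_le_self hR.le (one_le_pow₀ (by norm_num)))
        have h2 : m (R / 2 ^ (k + 1)) = m (R / 2 ^ k / 2) := by rw [pow_succ, div_div]
        calc |m (R / 2 ^ (k + 1)) - m R| ≤ |m (R / 2 ^ k / 2) - m (R / 2 ^ k)| +
              |m (R / 2 ^ k) - m R| := by rw [h2]; exact abs_sub_le _ _ _
          _ ≤ C * (a * (R / 2 ^ k)) + C * a * R * (2 - 2 / 2 ^ k) := by gcongr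
          _ = C * a * R * (2 - 2 / 2 ^ (k + 1)) := by rw [pow_succ]; field_simp; ring
    refine this.trans ?_
    have h0 : 0 ≤ (C : ℝ) * a * R := by positivity
    have h2 : (2 : ℝ) - 2 / 2 ^ k ≤ 2 := by
      have : (0 : ℝ) ≤ 2 / 2 ^ k := by positivity
      linarith
    calc C * a * R * (2 - 2 / 2 ^ k) ≤ C * a * R * 2 := by gcongr
      _ = 2 * C * a * R := by ring
  have hlim2 : Tendsto (fun k : ℕ => m (R / 2 ^ k)) atTop (𝓝 c) := by
    refine hlim.comp ?_
    refine tendsto_nhdsWithin_iff.2 ⟨?_, Eventually.of_forall fun k => ?_⟩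
    · have := (tendsto_pow_atTop_nhds_zero_of_lt_one (r := (1 / 2 : ℝ)) (by norm_num)
        (by norm_num)).const_mul R
      rw [mul_zero] at this
      refine this.congr fun k => ?_
      rw [one_div, inv_pow, div_eq_mul_inv]
    · exact div_pos hR (by positivity)
  have hfin : |c - m R| ≤ 2 * C * a * R :=
    le_of_tendsto (((hlim2.sub_const (m R)).abs)) (Eventually.of_forall hsum)
  have hI1 : IntegrableOn (fun x => |f x - m R|) (closedBall y R) μ :=
    (hint.sub (integrableOn_const (h.fin y R).ne)).abs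
  have hI2 : IntegrableOn (fun x => |f x - c|) (closedBall y R) μ :=
    (hint.sub (integrableOn_const (h.fin y R).ne)).abs
  have h1 : ⨍ x in closedBall y R, |f x - c| ∂μ ≤
      ⨍ x in closedBall y R, |f x - m R| ∂μ + |m R - c| := by
    have hpos := h.real_pos y hR
    rw [setAverage_eq, setAverage_eq, smul_eq_mul, smul_eq_mul, inv_mul_le_iff₀ hpos]
    calc ∫ x in closedBall y R, |f x - c| ∂μ ≤
          ∫ x in closedBall y R, (|f x - m R| + |m R - c|) ∂μ := by
            refine integral_mono hI2 (hI1.add (integrableOn_const (h.fin y R).ne)) fun x => ?_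
            exact abs_sub_le _ _ _
      _ = (∫ x in closedBall y R, |f x - m R| ∂μ) + μ.real (closedBall y R) * |m R - c| := by
            rw [integral_add hI1 (integrableOn_const (h.fin y R).ne), setIntegral_const, smul_eq_mul]
      _ = _ := by field_simp
  calc ⨍ x in closedBall y R, |f x - c| ∂μ ≤ a * R + 2 * C * a * R := by
        refine h1.trans (add_le_add (hP R hR le_rfl) ?_)
        rwa [abs_sub_comm]
    _ = (1 + 2 * C) * a * R := by ring

/-- The means over shrinking balls converge to the value at a point of continuity. -/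
lemma tendsto_average_of_continuousAt (h : Dbl μ C) {f : X → ℝ} {y : X} {R : ℝ} (hR : 0 < R)
    (hint : IntegrableOn f (closedBall y R) μ) (hf : ContinuousAt f y) :
    Tendsto (fun r => ⨍ x in closedBall y r, f x ∂μ) (𝓝[>] 0) (𝓝 (f y)) := by
  rw [Metric.tendsto_nhds]
  intro ε hε
  obtain ⟨δ, hδ, hδ'⟩ := Metric.continuousAt_iff.1 hf (ε / 2) (by positivity)
  have h1 : ∀ᶠ r in 𝓝[>] (0 : ℝ), r ∈ Ioo 0 (min δ R) :=
    Ioo_mem_nhdsGT (lt_min hδ hR)
  filter_upwards [h1] with r hr
  have hr0 : 0 < r := hr.1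
  have hrδ : r < δ := hr.2.trans_le (min_le_left _ _)
  have hrR : r ≤ R := (hr.2.trans_le (min_le_right _ _)).le
  have hi : IntegrableOn f (closedBall y r) μ := hint.mono_set (closedBall_subset_closedBall hrR)
  have h2 := abs_average_sub_le hi (h.fin y r).ne (h.real_pos y hr0) (f y)
  have h3 : ⨍ x in closedBall y r, |f x - f y| ∂μ ≤ ε / 2 := by
    have hpos := h.real_pos y hr0
    rw [setAverage_eq, smul_eq_mul, inv_mul_le_iff₀ hpos]
    have : ∫ x in closedBall y r, |f x - f y| ∂μ ≤ ∫ _x in closedBall y r, (ε / 2) ∂μ := by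
      refine setIntegral_mono_on ((hi.sub (integrableOn_const (h.fin y r).ne)).abs)
        (integrableOn_const (h.fin y r).ne) measurableSet_closedBall fun x hx => ?_
      have := hδ' ((mem_closedBall.1 hx).trans_lt hrδ)
      rw [Real.dist_eq] at this
      exact this.le
    rwa [setIntegral_const, smul_eq_mul] at this
  rw [Real.dist_eq]
  linarith

/-- (MX3) in the form with a weak `L²` Poincare inequality about `y` and a maximal function bound. -/
theorem telescope_Mx (h : Dbl μ C) {f g : X → ℝ} {y : X} {R P lam K : ℝ} (hR : 0 < R)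
    (hP0 : 0 ≤ P) (hlam : 0 < lam) (hK : 0 ≤ K) (hg : ∀ x, 0 ≤ g x)
    (hint : IntegrableOn f (closedBall y R) μ) (hf : ContinuousAt f y)
    (hP : ∀ r, 0 < r → r ≤ R →
      ⨍ x in closedBall y r, |f x - ⨍ z in closedBall y r, f z ∂μ| ∂μ ≤
        P * r * Real.sqrt (⨍ x in closedBall y (lam * r), g x ∂μ))
    (hM : Mx μ (fun x => ENNReal.ofReal (g x)) y ≤ ENNReal.ofReal K) :
    ∀ r, 0 < r → r ≤ R →
      ⨍ x in closedBall y r, |f x - f y| ∂μ ≤ (1 + 2 * C) * P * Real.sqrt K * r := by
  intro r hr hrR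
  have h1 := telescope h (f := f) (y := y) (R := r) (a := P * Real.sqrt K) (c := f y) hr
    (by positivity) (hint.mono_set (closedBall_subset_closedBall hrR))
    (fun s hs hsr => by
      have h2 := hP s hs (hsr.trans hrR)
      have h3 := setAverage_le_of_Mx h hg hK (r := lam * s) (by positivity) hM
      have h4 := Real.sqrt_le_sqrt h3
      calc _ ≤ P * s * Real.sqrt (⨍ x in closedBall y (lam * s), g x ∂μ) := h2
        _ ≤ P * s * Real.sqrt K := by gcongr
        _ = P * Real.sqrt K * s := by ring)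
    (tendsto_average_of_continuousAt h hR hint hf)
  calc _ ≤ _ := h1
    _ = _ := by ring

/-- Chebyshev on a ball. -/
lemma frac_le_of_average (h : Dbl μ C) {g : X → ℝ} (hg : ∀ x, 0 ≤ g x) {y : X} {r t M : ℝ}
    (hr : 0 < r) (ht : 0 < t) (hint : IntegrableOn g (closedBall y r) μ)
    (hM : ⨍ x in closedBall y r, g x ∂μ ≤ M) :
    μ.real {x | x ∈ closedBall y r ∧ t ≤ g x} ≤ M / t * μ.real (closedBall y r) := by
  have hpos := h.real_pos y hr
  rw [setAverage_eq, smul_eq_mul, inv_mul_le_iff₀ hpos] at hM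
  have h1 : t * (μ.restrict (closedBall y r)).real {x | t ≤ g x} ≤ ∫ x in closedBall y r, g x ∂μ :=
    mul_meas_ge_le_integral_of_nonneg (ae_of_all _ hg) hint t
  have h2 : (μ.restrict (closedBall y r)).real {x | t ≤ g x} =
      μ.real {x | x ∈ closedBall y r ∧ t ≤ g x} := by
    rw [measureReal_restrict_apply' measurableSet_closedBall]
    congr 1
    ext x; simp [and_comm]
  rw [h2] at h1
  rw [div_mul_eq_mul_div, le_div_iff₀ ht]
  nlinarith

/-- (MX4) change of ball. -/
theorem average_change (h : Dbl μ C) {g : X → ℝ} (hg : ∀ x, 0 ≤ g x) {y q : X} {r ρ : ℝ} {k : ℕ}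
    (hρ : 0 < ρ) (hρr : ρ ≤ r) (hq : q ∈ closedBall y r) (hk : 3 * r ≤ 2 ^ k * ρ)
    (hint : IntegrableOn g (closedBall y (2 * r)) μ) :
    ⨍ x in closedBall q ρ, g x ∂μ ≤ (C : ℝ) ^ k * ⨍ x in closedBall y (2 * r), g x ∂μ := by
  have hr : 0 < r := hρ.trans_le hρr
  have hq' := mem_closedBall.1 hq
  refine setAverage_le_of_subset hg hint ?_ (h.real_pos q hρ) (h.real_pos y (by positivity)) ?_
  · intro z hz
    have := mem_closedBall.1 hz
    exact mem_closedBall.2 ((dist_triangle z q y).trans (by linarith))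
  · have h1 : closedBall y (2 * r) ⊆ closedBall q (2 ^ k * ρ) := by
      intro z hz
      have hz' := mem_closedBall.1 hz
      refine mem_closedBall.2 ((dist_triangle z y q).trans ?_)
      rw [dist_comm y q]
      linarith
    exact (measureReal_mono h1 (h.fin q _).ne).trans (h.real_dbl_pow q hρ k)

/-- (MX4) density: a set of small fraction in `B(y,2r)` does not contain any ball `B(q,ρ)`. -/
theorem exists_mem_ball_not_mem (h : Dbl μ C) {A : Set X} {y q : X} {r ρ θ : ℝ} {k : ℕ}
    (hρ : 0 < ρ) (hρr : ρ ≤ r) (hq : q ∈ closedBall y r) (hk : 3 * r ≤ 2 ^ k * ρ)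
    (hA : μ.real (A ∩ closedBall y (2 * r)) ≤ θ * μ.real (closedBall y (2 * r)))
    (hθ : θ * (C : ℝ) ^ k < 1) :
    ∃ z ∈ closedBall q ρ, z ∉ A := by
  by_contra hcon
  push Not at hcon
  have hr : 0 < r := hρ.trans_le hρr
  have hq' := mem_closedBall.1 hq
  have hsub : closedBall q ρ ⊆ A ∩ closedBall y (2 * r) := by
    intro z hz
    refine ⟨hcon z hz, ?_⟩
    have := mem_closedBall.1 hz
    exact mem_closedBall.2 ((dist_triangle z q y).trans (by linarith))
  have h1 : μ.real (closedBall q ρ) ≤ θ * μ.real (closedBall y (2 * r)) :=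
    (measureReal_mono hsub (measure_ne_top_of_subset inter_subset_right (h.fin y _).ne)).trans hA
  have h2 : μ.real (closedBall y (2 * r)) ≤ (C : ℝ) ^ k * μ.real (closedBall q ρ) := by
    have h3 : closedBall y (2 * r) ⊆ closedBall q (2 ^ k * ρ) := by
      intro z hz
      have hz' := mem_closedBall.1 hz
      refine mem_closedBall.2 ((dist_triangle z y q).trans ?_)
      rw [dist_comm y q]
      linarith
    exact (measureReal_mono h3 (h.fin q _).ne).trans (h.real_dbl_pow q hρ k)
  have hpos := h.real_pos q hρ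
  by_cases hθ0 : 0 ≤ θ
  · have h4 : μ.real (closedBall q ρ) ≤ θ * ((C : ℝ) ^ k * μ.real (closedBall q ρ)) :=
      h1.trans (by gcongr)
    have h5 : μ.real (closedBall q ρ) ≤ (θ * (C : ℝ) ^ k) * μ.real (closedBall q ρ) := by
      linarith [h4, mul_assoc θ ((C : ℝ) ^ k) (μ.real (closedBall q ρ))]
    have h6 : (θ * (C : ℝ) ^ k) * μ.real (closedBall q ρ) < 1 * μ.real (closedBall q ρ) := by gcongr
    linarith
  · have h7 : μ.real (closedBall q ρ) ≤ 0 := by
      refine h1.trans ?_
      have := h.real_pos y (show 0 < 2 * r by positivity)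
      nlinarith
    linarith

/-- (MX5) diameter bound: comparison of annuli (Bishop-Gromov) and one ball of definite mass. -/
theorem diam_le [IsFiniteMeasure μ] (p₀ : X) (R c D : ℝ) (hR : 0 < R) (hc : 0 < c) (hD : 0 < D)
    (hmass : c * μ.real univ ≤ μ.real (closedBall p₀ R)) (hμ : 0 < μ.real univ)
    (hBG : ∀ (q : X) (s : ℝ), 0 < s →
      μ.real (closedBall q (s + 2 * R) \ ball q s) ≤
        ((1 + 2 * R / s) ^ D - 1) * μ.real (closedBall q s)) :
    ∀ q : X, dist p₀ q ≤ R + 2 * R / ((1 + c) ^ (1 / D) - 1) := by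
  intro q
  set κ : ℝ := (1 + c) ^ (1 / D) - 1 with hκ
  have hκ0 : 0 < κ := by
    have : (1 : ℝ) < (1 + c) ^ (1 / D) := Real.one_lt_rpow (by linarith) (by positivity)
    linarith
  by_contra hcon
  push Not at hcon
  set s : ℝ := dist p₀ q - R with hs
  have hs1 : 2 * R / κ < s := by linarith
  have hs0 : 0 < s := lt_trans (by positivity) hs1
  have hsub : closedBall p₀ R ⊆ closedBall q (s + 2 * R) \ ball q s := by
    intro z hz
    have hz' := mem_closedBall.1 hz
    refine ⟨mem_closedBall.2 ?_, fun hz2 => ?_⟩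
    · calc dist z q ≤ dist z p₀ + dist p₀ q := dist_triangle _ _ _
        _ ≤ s + 2 * R := by linarith
    · have h2 := mem_ball.1 hz2
      have h3 : dist p₀ q ≤ dist p₀ z + dist z q := dist_triangle _ _ _
      rw [dist_comm p₀ z] at h3
      linarith
  have h1 : c * μ.real univ ≤ ((1 + 2 * R / s) ^ D - 1) * μ.real (closedBall q s) :=
    hmass.trans ((measureReal_mono hsub).trans (hBG q s hs0))
  have h2 : 1 + 2 * R / s < (1 + c) ^ (1 / D) := by
    have : 2 * R / s < κ := by
      rw [div_lt_iff₀ hs0]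
      rw [div_lt_iff₀ hκ0] at hs1
      linarith [mul_comm κ s]
    linarith
  have h3 : (1 + 2 * R / s) ^ D < 1 + c := by
    have h4 : (1 + 2 * R / s) ^ D < ((1 + c) ^ (1 / D)) ^ D :=
      Real.rpow_lt_rpow (by positivity) h2 hD
    rwa [← Real.rpow_mul (by linarith), one_div, inv_mul_cancel₀ hD.ne', Real.rpow_one] at h4
  have h5 : 1 ≤ (1 + 2 * R / s) ^ D := Real.one_le_rpow (by have : 0 ≤ 2 * R / s := by positivity
                                                            linarith) hD.le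
  have h6 : ((1 + 2 * R / s) ^ D - 1) * μ.real (closedBall q s) ≤
      ((1 + 2 * R / s) ^ D - 1) * μ.real univ := by
    have h8 : 0 ≤ (1 + 2 * R / s) ^ D - 1 := by linarith
    exact mul_le_mul_of_nonneg_left (measureReal_mono (subset_univ _)) h8
  have h7 : ((1 + 2 * R / s) ^ D - 1) * μ.real univ < c * μ.real univ := by
    have : (1 + 2 * R / s) ^ D - 1 < c := by linarith
    gcongr
  linarith

end Crest.Agent.R281.Mx_405
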