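import Crest.Agent.R281.LfP1_901
import Crest.Agent.R281.S6D_664

/-!
# R281 (S0424), S6-V part 3 (helper664): countable restrictions of an atlas, without rescaling

* `resAtl A0 c O` : the charts `A0.e (c a)` restricted to open sets `O a` (coordinates unchanged);
* `exists_res`    : on a second countable Hausdorff space there is such a restriction which is countable,
  locally finite, relatively compact, with a partition of unity (in the sense of `Part`).
-/

set_option autoImplicit false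
set_option linter.unusedSectionVars false

open Set Filter Topology Metric
open scoped ContDiff Manifold

namespace Crest.Agent.R281.S6V_664

open Crest.Agent.R275 Crest.Agent.R275.Geo Crest.Agent.R275.Core144 Crest.Agent.R275.GC293
open Crest.Agent.R273.Map_835 Crest.Agent.R273.Fam_835 Crest.Agent.R272.DCov_426
open Crest.Agent.R281.LfP_901

noncomputable section

variable {n : ℕ} {X : Type} [TopologicalSpace X]

/-- restricted charts, coordinates unchanged -/
def resAtl (A0 : Atl n X) {α : Type} (c : α → A0.ι) (O : α → Set X) (hO : ∀ a, IsOpen (O a))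
    (hc : ∀ x, ∃ a, x ∈ (A0.e (c a)).source ∩ O a) : Atl n X where
  ι := α
  e a := (A0.e (c a)).restrOpen (O a) (hO a)
  cover := hc
  cube a z hz p := A0.cube (c a) z hz.1 p
  holo a b := (A0.holo (c a) (c b)).mono fun z hz => ⟨hz.1.1, hz.2.1⟩

variable (A0 : Atl n X) {α : Type} (c : α → A0.ι) (O : α → Set X) (hO : ∀ a, IsOpen (O a))
    (hc : ∀ x, ∃ a, x ∈ (A0.e (c a)).source ∩ O a)

theorem resAtl_apply (a : α) (x : X) : (resAtl A0 c O hO hc).e a x = A0.e (c a) x := rfl

theorem resAtl_symm (a : α) (z : Cn n) :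
    ((resAtl A0 c O hO hc).e a).symm z = (A0.e (c a)).symm z := rfl

theorem resAtl_source (a : α) :
    ((resAtl A0 c O hO hc).e a).source = (A0.e (c a)).source ∩ O a := rfl

theorem resAtl_target (a : α) : ((resAtl A0 c O hO hc).e a).target =
    (A0.e (c a)).target ∩ (A0.e (c a)).symm ⁻¹' O a := rfl

/-- smooth functions of the real manifold are smooth in the restricted charts -/
theorem sm_resAtl {W : Type*} [NormedAddCommGroup W] [NormedSpace ℝ W] {f : X → W}
    (hf : letI := (fam A0).cs; ContMDiff 𝓘(ℝ, Cn n) 𝓘(ℝ, W) ∞ f) :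
    (resAtl A0 c O hO hc).Sm f := by
  let _ := (fam A0).cs
  have _ := (fam A0).isManifold
  have _ : IsManifold 𝓘(ℝ, Cn n) ∞ X := ZC352.isManifold_real
  intro a
  have hmem : (fam A0).e (c a) ∈ atlas (Cn n) X := mem_range_self _
  have h1 : ContMDiffOn 𝓘(ℝ, Cn n) 𝓘(ℝ, Cn n) ∞ ((fam A0).e (c a)).symm
      ((fam A0).e (c a)).target :=
    contMDiffOn_symm_of_mem_maximalAtlas (StructureGroupoid.subset_maximalAtlas _ hmem)
  have h2 : ContMDiffOn 𝓘(ℝ, Cn n) 𝓘(ℝ, W) ∞ (f ∘ ((fam A0).e (c a)).symm)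
      ((fam A0).e (c a)).target := ContMDiff.comp_contMDiffOn hf h1
  have h3 : ContDiffOn ℝ ∞ (f ∘ ((fam A0).e (c a)).symm) ((fam A0).e (c a)).target :=
    contMDiffOn_iff_contDiffOn.1 h2
  exact h3.mono fun z hz => hz.1

/-- partition of unity -/
theorem part_resAtl [T2Space X] [SigmaCompactSpace X]
    (hlf : LocallyFinite fun a => ((resAtl A0 c O hO hc).e a).source)
    (hrc : ∀ a, ∃ K : Set X, IsCompact K ∧ ((resAtl A0 c O hO hc).e a).source ⊆ K) :
    Nonempty (Part (resAtl A0 c O hO hc)) := by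
  let _ := (fam A0).cs
  have _ := (fam A0).isManifold
  have _ : IsManifold 𝓘(ℝ, Cn n) ∞ X := ZC352.isManifold_real
  have _ : LocallyCompactSpace X := locallyCompact_of_fam (fam A0)
  obtain ⟨f, hf⟩ := SmoothPartitionOfUnity.exists_isSubordinate 𝓘(ℝ, Cn n) (s := (univ : Set X))
    isClosed_univ (fun a => ((resAtl A0 c O hO hc).e a).source)
    (fun a => ((resAtl A0 c O hO hc).e a).open_source) (fun x _ => mem_iUnion.2 (hc x))
  have h1 : ∀ a : α, ∃ χ : C^∞⟮𝓘(ℝ, Cn n), X; 𝓘(ℝ), ℝ⟯,
      (∀ᶠ x in 𝓝ˢ (((resAtl A0 c O hO hc).e a).source)ᶜ, χ x = 0) ∧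
      (∀ᶠ x in 𝓝ˢ (tsupport (f a)), χ x = 1) ∧ ∀ x, χ x ∈ Icc (0 : ℝ) 1 := by
    intro a
    apply exists_contMDiffMap_zero_one_nhds_of_isClosed
    · exact ((resAtl A0 c O hO hc).e a).open_source.isClosed_compl
    · exact isClosed_tsupport _
    · rw [disjoint_compl_left_iff_subset]
      exact hf a
  choose χ hχ0 hχ1 hχ using h1
  have hsub : ∀ a, tsupport (χ a) ⊆ ((resAtl A0 c O hO hc).e a).source := by
    intro a x hx
    by_contra hxs
    have h2 : ∀ᶠ y in 𝓝 x, χ a y = 0 :=
      (hχ0 a).filter_mono (nhds_le_nhdsSet (mem_compl hxs))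
    exact (notMem_tsupport_iff_eventuallyEq.2 h2) hx
  refine ⟨⟨fun a x => f a x, fun a x => χ a x, fun a => ?_, fun a => ?_, fun a => ?_, hsub,
    fun a x hx => ?_, fun K hK => ?_, fun x => f.sum_eq_one (mem_univ x)⟩⟩
  · exact sm_resAtl A0 c O hO hc (f a).contMDiff
  · exact sm_resAtl A0 c O hO hc (χ a).contMDiff
  · obtain ⟨K, hK, hK'⟩ := hrc a
    exact hK.of_isClosed_subset (isClosed_tsupport _) ((hsub a).trans hK')
  · exact (hχ1 a).filter_mono (nhds_le_nhdsSet hx)
  · exact (hlf.finite_nonempty_inter_compact hK).subset fun a ha =>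
      ha.mono (inter_subset_inter_left _ (hsub a))

/-- **countable, locally finite restriction with a partition of unity** -/
theorem exists_res [T2Space X] [SecondCountableTopology X] (A0 : Atl n X) :
    ∃ (α : Type) (c : α → A0.ι) (O : α → Set X) (hO : ∀ a, IsOpen (O a))
      (hc : ∀ x, ∃ a, x ∈ (A0.e (c a)).source ∩ O a), Countable α ∧
      (∀ a, O a ⊆ (A0.e (c a)).source) ∧
      (∀ a, ∃ K : Set X, IsCompact K ∧ O a ⊆ K ∧ K ⊆ (A0.e (c a)).source) ∧
      (LocallyFinite O) ∧ Nonempty (Part (resAtl A0 c O hO hc)) := by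
  have _ : LocallyCompactSpace X := locallyCompact_of_fam (fam A0)
  have _ : SigmaCompactSpace X := inferInstance
  obtain ⟨α, l, hcount, hc', hlf', -, -, hrc, hne⟩ :=
    exists_li (fam A0) (fun _ : Unit => (univ : Set X)) (fun _ => isOpen_univ)
      (fun x => ⟨(), mem_univ x⟩)
  have hs : ∀ a, (l a).e.source ⊆ (A0.e (l a).c).source := fun a x hx =>
    ((l a).mem_source.1 hx).1
  have hc : ∀ x, ∃ a, x ∈ (A0.e (l a).c).source ∩ (l a).e.source := fun x => by
    obtain ⟨a, ha⟩ := hc' x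
    exact ⟨a, hs a ha, ha⟩
  have hO : ∀ a, IsOpen (l a).e.source := fun a => (l a).e.open_source
  refine ⟨α, fun a => (l a).c, fun a => (l a).e.source, hO, hc, hcount, hs, fun a => ?_, hlf', ?_⟩
  · obtain ⟨K, h1, h2, h3, -⟩ := hrc a
    exact ⟨K, h1, h2, h3⟩
  · refine part_resAtl A0 _ _ hO hc ?_ fun a => ?_
    · refine hlf'.subset fun a => ?_
      exact inter_subset_right
    · obtain ⟨K, h1, h2, -, -⟩ := hrc a
      exact ⟨K, h1, inter_subset_right.trans h2⟩

end

end Crest.Agent.R281.S6V_664
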