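import Crest.Agent.R281.S6V2_664
import Crest.Agent.R281.S6V3_664

/-!
# R281 (S0424), S6-V part 4 (helper664): `BM ⟹ Fam`

* `atl0`, `holMap0`, `imm0`, `proper0`, `conn0`;
* `exists_fam` : a base map `G` has a total space `F : Fam A d m G.U` with `F.i v ∈ Tf (G.Γ (F.y v))`,
  all points reached.
-/

set_option autoImplicit false
set_option linter.unusedSectionVars false

open Set Filter Topology Complex Function Metric
open scoped ContDiff Matrix ComplexConjugate ComplexOrder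

namespace Crest.Agent.R281.S6V_664

open Crest.Agent.R275.Geo Crest.Agent.R275.Core144 Crest.Agent.R275.GC293
open Crest.Agent.R275.Prod363 Crest.Agent.R273.Map_835 Crest.Agent.R281.S6D_664

noncomputable section

variable {N d k m : ℕ} {M : Type} [TopologicalSpace M] {A : Atl N M} {Tf : M → Set M}

/-- the map of a tube is continuous -/
theorem cont_tube (τ : Tube A k Tf) : ContinuousOn τ.f τ.W := by
  intro x hx
  obtain ⟨i, hi⟩ := A.cover x
  have h1 : ContinuousAt (fun z => τ.f ((A.e i).symm z)) (A.e i x) := by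
    refine ((τ.hol i).differentiableAt
      (((A.e i).isOpen_inter_preimage_symm τ.oW).mem_nhds ⟨(A.e i).map_source hi, ?_⟩)).continuousAt
    rw [mem_preimage, (A.e i).left_inv hi]
    exact hx
  have h2 : ContinuousAt (A.e i) x := (A.e i).continuousAt hi
  have h3 : ContinuousAt (fun y => τ.f ((A.e i).symm (A.e i y))) x :=
    ContinuousAt.comp (g := fun z => τ.f ((A.e i).symm z)) h1 h2
  refine (h3.congr ?_).continuousWithinAt
  filter_upwards [(A.e i).open_source.mem_nhds hi] with y hy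
  rw [(A.e i).left_inv hy]

theorem self_mem (τ : Tube A k Tf) {x : M} (hx : x ∈ τ.W) : x ∈ Tf x := by
  rw [τ.fib x hx]
  exact ⟨hx, rfl⟩

namespace BM

open V (yy ii yy_mem ii_mem)

variable {G : BM A Tf k m}

theorem cover0 (hN : N = d + k) [Nonempty G.V] (v : G.V) :
    ∃ s : IX A Tf k d, v ∈ (vch (G := G) s.2).source := by
  obtain ⟨τ, hτ⟩ := G.tb (yy v) (yy_mem v)
  have h1 := ii_tube τ hτ
  obtain ⟨S, hS⟩ := exists_spC hN A τ h1.1
  exact ⟨⟨τ, S⟩, hS, hτ⟩

/-- the big atlas of the total space -/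
def atl0 (G : BM A Tf k m) [Nonempty G.V] (hN : N = d + k) : Atl (d + m) G.V where
  ι := IX A Tf k d
  e s := vch (G := G) s.2
  cover := cover0 hN
  cube := by
    rintro ⟨τ, S⟩ w hw ⟨a, b⟩
    have hw' : w ∈ G.tg S := hw
    induction a using Fin.addCases with
    | left a =>
      have h1 := S.cube _ (ix_mem S hw') (a, b)
      rw [χ_ix S hw'] at h1
      exact h1
    | right a =>
      exact G.cube _ hw'.1.1 (a, b)
  holo := by
    rintro ⟨τ, S⟩ ⟨τ', S'⟩
    exact holo_vch S S'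

theorem holMap0 [Nonempty G.V] (hN : N = d + k) :
    HolMap (G.atl0 (d := d) hN) A (ii : G.V → M) := by
  refine ⟨continuous_ii, ?_⟩
  rintro ⟨τ, S⟩ i w hw
  have hwt : w ∈ G.tg S := hw.1
  obtain ⟨h1, h2⟩ := vch_symm (G := G) S hw.1
  have hi : ix (G := G) S w ∈ (A.e i).source := by
    rw [← h1]; exact hw.2
  refine ((diff_ix (G := G) S hwt hi).congr_of_eventuallyEq ?_).differentiableWithinAt
  filter_upwards [(isOpen_tg (G := G) S).mem_nhds hwt] with w' hw'
  rw [← (vch_symm (G := G) S (w := w') hw').1]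
  rfl

theorem imm0 [Nonempty G.V] (hN : N = d + k) : Imm (G.atl0 (d := d) hN) A (ii : G.V → M) := by
  rintro ⟨τ, S⟩ i v hv hi
  set w := vch (G := G) S v with hw0
  have hv' : v ∈ (vch (G := G) S).source := hv
  have hw : w ∈ G.tg S := (vch (G := G) S).map_source hv'
  have hii : ix (G := G) S w = ii v := by
    rw [← (vch_symm (G := G) S (w := w) hw).1, hw0, (vch (G := G) S).left_inv hv']
  have hsnd : sndL d m w = yy v := by
    rw [← (vch_symm (G := G) S (w := w) hw).2, hw0, (vch (G := G) S).left_inv hv']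
  -- `rd` near `w`
  have hrd : rd (G.atl0 (d := d) hN) A (ii : G.V → M) ⟨τ, S⟩ i =ᶠ[𝓝 w]
      fun w => A.e i (ix (G := G) S w) := by
    filter_upwards [(isOpen_tg (G := G) S).mem_nhds hw] with w' hw'
    rw [← (vch_symm (G := G) S (w := w') hw').1]
    rfl
  show Injective (fderiv ℂ (rd (G.atl0 (d := d) hN) A (ii : G.V → M) ⟨τ, S⟩ i) w)
  rw [hrd.fderiv_eq]
  have hi' : ix (G := G) S w ∈ (A.e i).source := by rw [hii]; exact hi
  have h4 := diff_ix (G := G) S hw hi'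
  have h5 : DifferentiableAt ℂ (fun z => S.χ ((A.e i).symm z)) (A.e i (ix (G := G) S w)) := by
    refine (S.hol' i).differentiableAt
      (((A.e i).isOpen_inter_preimage_symm S.χ.open_source).mem_nhds
        ⟨(A.e i).map_source hi', ?_⟩)
    rw [mem_preimage, (A.e i).left_inv hi']
    exact ix_mem S hw
  have h6 : (fun w => (fun z => S.χ ((A.e i).symm z)) (A.e i (ix (G := G) S w))) =ᶠ[𝓝 w]
      fun w : Cn (d + m) => (fstL d m w, τ.f (G.Γ (sndL d m w))) := by
    have h9 : (G.tg S ∩ (fun w => ix (G := G) S w) ⁻¹' (A.e i).source) ∈ 𝓝 w :=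
      ((cont_ix S).isOpen_inter_preimage (isOpen_tg S) (A.e i).open_source).mem_nhds ⟨hw, hi'⟩
    filter_upwards [h9] with w' hw'
    show S.χ ((A.e i).symm (A.e i (ix (G := G) S w'))) = _
    rw [(A.e i).left_inv hw'.2]
    exact χ_ix S hw'.1
  rw [injective_iff_map_eq_zero]
  intro x hx
  have h7 : fderiv ℂ (fun w : Cn (d + m) => (fstL d m w, τ.f (G.Γ (sndL d m w)))) w x = 0 := by
    rw [← h6.fderiv_eq]
    have h8 := fderiv_comp w (g := fun z => S.χ ((A.e i).symm z))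
      (f := fun w => A.e i (ix (G := G) S w)) h5 h4
    have h8' : fderiv ℂ (fun w => (fun z => S.χ ((A.e i).symm z)) (A.e i (ix (G := G) S w))) w =
      (fderiv ℂ (fun z => S.χ ((A.e i).symm z)) (A.e i (ix (G := G) S w))).comp
        (fderiv ℂ (fun w => A.e i (ix (G := G) S w)) w) := h8
    rw [h8', ContinuousLinearMap.comp_apply, hx, map_zero]
  have hyU : sndL d m w ∈ G.U := hw.1.1
  have hyW : G.Γ (sndL d m w) ∈ τ.W := hw.1.2
  have h10 : HasFDerivAt (fun w : Cn (d + m) => (fstL d m w, τ.f (G.Γ (sndL d m w))))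
      ((fstL d m).prod ((fderiv ℂ (fun u => τ.f (G.Γ u)) (sndL d m w)).comp (sndL d m))) w :=
    (fstL d m).hasFDerivAt.prodMk
      ((G.diff_f τ hyU hyW).hasFDerivAt.comp w (sndL d m).hasFDerivAt)
  rw [h10.fderiv] at h7
  have h11 : fstL d m x = 0 := congrArg Prod.fst h7
  have h12 : fderiv ℂ (fun u => τ.f (G.Γ u)) (sndL d m w) (sndL d m x) = 0 := congrArg Prod.snd h7
  have h13 : sndL d m x = 0 := by
    refine G.tr _ hyU τ hyW ?_
    rw [h12, map_zero]
  exact ext_prod (by rw [h11, map_zero]) (by rw [h13, map_zero])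

/-! ### properness and connectedness -/

theorem compact_loc [T2Space M] (τ : Tube A k Tf) {K : Set (Cn m)} (hK : IsCompact K)
    (hKs : K ⊆ G.U ∩ G.Γ ⁻¹' τ.W) : IsCompact ((yy : G.V → Cn m) ⁻¹' K) := by
  rw [isEmbedding_pr.isCompact_iff]
  set C' : Set (Cn k) := (fun u => τ.f (G.Γ u)) '' K with hC'
  have h1 : IsCompact C' := hK.image_of_continuousOn ((G.cont_f τ).mono hKs)
  have h2 : C' ⊆ τ.U := by
    rintro _ ⟨u, hu, rfl⟩
    exact τ.maps (hKs hu).2
  have h3 := τ.proper C' h2 h1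
  have h4 : IsCompact (K ×ˢ (τ.W ∩ τ.f ⁻¹' C')) := hK.prod h3
  have h5 : ContinuousOn (fun p : Cn m × M => τ.f p.2 - τ.f (G.Γ p.1))
      (K ×ˢ (τ.W ∩ τ.f ⁻¹' C')) := by
    refine ContinuousOn.sub ?_ ?_
    · exact (cont_tube τ).comp continuous_snd.continuousOn fun p hp => hp.2.1
    · exact (G.cont_f τ).comp continuous_fst.continuousOn fun p hp => hKs hp.1
  have h6 : IsClosed ((K ×ˢ (τ.W ∩ τ.f ⁻¹' C')) ∩
      (fun p : Cn m × M => τ.f p.2 - τ.f (G.Γ p.1)) ⁻¹' {0}) :=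
    h5.preimage_isClosed_of_isClosed h4.isClosed isClosed_singleton
  have h7 : (pr : G.V → Cn m × M) '' ((yy : G.V → Cn m) ⁻¹' K) =
      (K ×ˢ (τ.W ∩ τ.f ⁻¹' C')) ∩ (fun p : Cn m × M => τ.f p.2 - τ.f (G.Γ p.1)) ⁻¹' {0} := by
    ext p
    constructor
    · rintro ⟨v, hv, rfl⟩
      have hv' : yy v ∈ K := hv
      have h8 := ii_tube τ (hKs hv').2
      refine ⟨⟨hv', h8.1, ⟨yy v, hv', h8.2.symm⟩⟩, ?_⟩
      show τ.f (ii v) - τ.f (G.Γ (yy v)) = 0
      rw [h8.2, sub_self]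
    · rintro ⟨⟨hp1, hp2, -⟩, hp3⟩
      have h9 : τ.f p.2 - τ.f (G.Γ p.1) = 0 := hp3
      obtain ⟨g1, g2⟩ := mem_of_tube τ (hKs hp1).1 (hKs hp1).2 hp2 (sub_eq_zero.1 h9)
      exact ⟨⟨p.1, p.2, g1, g2⟩, hp1, rfl⟩
  rw [h7]
  exact h4.of_isClosed_subset h6 inter_subset_left

theorem proper0 [T2Space M] {C : Set (Cn m)} (hCU : C ⊆ G.U) (hC : IsCompact C) :
    IsCompact ((yy : G.V → Cn m) ⁻¹' C) := by
  -- local compact neighbourhoods
  have h1 : ∀ u ∈ C, ∃ K : Set (Cn m), K ∈ 𝓝 u ∧ IsCompact ((yy : G.V → Cn m) ⁻¹' K) := by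
    intro u hu
    obtain ⟨τ, hτ⟩ := G.tb u (hCU hu)
    have h2 : G.U ∩ G.Γ ⁻¹' τ.W ∈ 𝓝 u := (G.isOpen_pre τ.oW).mem_nhds ⟨hCU hu, hτ⟩
    obtain ⟨K, hK1, hK2, hK3⟩ := local_compact_nhds h2
    exact ⟨K, hK1, compact_loc τ hK3 hK2⟩
  choose! K hK1 hK2 using h1
  obtain ⟨t, ht, hCt⟩ := hC.elim_nhds_subcover K hK1
  have h3 : IsCompact (⋃ u ∈ t, (yy : G.V → Cn m) ⁻¹' K u) :=
    t.isCompact_biUnion fun u hu => hK2 u (ht u hu)
  refine h3.of_isClosed_subset (hC.isClosed.preimage continuous_yy) ?_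
  intro v hv
  obtain ⟨u, hu, hu'⟩ := mem_iUnion₂.1 (hCt hv)
  exact mem_iUnion₂.2 ⟨u, hu, hu'⟩

theorem conn0 {u : Cn m} (hu : u ∈ G.U) : IsConnected ((yy : G.V → Cn m) ⁻¹' {u}) := by
  obtain ⟨τ, hτ⟩ := G.tb u hu
  have h1 := τ.conn _ hτ
  refine ⟨⟨⟨u, G.Γ u, hu, self_mem τ hτ⟩, rfl⟩, ?_⟩
  rw [← isEmbedding_pr.isInducing.isPreconnected_image]
  have h2 : (pr : G.V → Cn m × M) '' ((yy : G.V → Cn m) ⁻¹' {u}) = {u} ×ˢ Tf (G.Γ u) := by
    ext p
    constructor
    · rintro ⟨v, hv, rfl⟩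
      have hv' : yy v = u := hv
      refine ⟨hv', ?_⟩
      rw [← hv']
      exact ii_mem v
    · rintro ⟨hp1, hp2⟩
      have hp1' : p.1 = u := hp1
      refine ⟨⟨p.1, p.2, by rw [hp1']; exact hu, by rw [hp1']; exact hp2⟩, hp1', rfl⟩
  rw [h2]
  exact isPreconnected_singleton.prod h1.isPreconnected

/-! ### the family -/

/-- **the total space of a base map as a family** (with the topology) -/
theorem exists_fam' [T2Space M] [SecondCountableTopology M] (hN : N = d + k) (G : BM A Tf k m)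
    (hne : G.U.Nonempty) : ∃ F : Fam A d m G.U, (∀ v, F.i v ∈ Tf (G.Γ (F.y v))) ∧
      (∀ u ∈ G.U, ∀ x ∈ Tf (G.Γ u), ∃ v, F.y v = u ∧ F.i v = x) ∧
      IsEmbedding (fun v => (F.y v, F.i v)) := by
  have hV : Nonempty G.V := by
    obtain ⟨u, hu⟩ := hne
    obtain ⟨τ, hτ⟩ := G.tb u hu
    exact ⟨⟨u, G.Γ u, hu, self_mem τ hτ⟩⟩
  have hsc : SecondCountableTopology G.V := isEmbedding_pr.secondCountableTopology
  obtain ⟨α, c, O, hO, hc, hcount, -, -, -, ⟨P⟩⟩ := exists_res (G.atl0 (d := d) hN)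
  have h0 := holMap0 (G := G) (d := d) hN
  have h1 := imm0 (G := G) (d := d) hN
  let B := resAtl (G.atl0 (d := d) hN) c O hO hc
  have _ : Countable B.ι := hcount
  refine ⟨{
    V := G.V
    B := B
    P := P
    i := ii
    y := yy
    hol := ⟨continuous_ii, fun a i => (h0.hol (c a) i).mono fun z hz => ⟨hz.1.1, hz.2⟩⟩
    imm := fun a i v hv hi => h1 (c a) i v hv.1 hi
    last := fun a v hv b => ?_
    mem := yy_mem
    proper := fun C hCU hC => proper0 hCU hC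
    conn := fun u hu => conn0 hu
    inj := fun v w h1 h2 => V.ext h1 h2 }, ii_mem, fun u hu x hx => ⟨⟨u, x, hu, hx⟩, rfl, rfl⟩,
      isEmbedding_pr⟩
  show (vch (G := G) (c a).2 v) (Fin.natAdd d b) = yy v b
  rw [vch_apply, app_natAdd]

/-- **the total space of a base map as a family** -/
theorem exists_fam [T2Space M] [SecondCountableTopology M] (hN : N = d + k) (G : BM A Tf k m)
    (hne : G.U.Nonempty) : ∃ F : Fam A d m G.U, (∀ v, F.i v ∈ Tf (G.Γ (F.y v))) ∧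
      ∀ u ∈ G.U, ∀ x ∈ Tf (G.Γ u), ∃ v, F.y v = u ∧ F.i v = x := by
  obtain ⟨F, h1, h2, -⟩ := G.exists_fam' (d := d) hN hne
  exact ⟨F, h1, h2⟩

end BM

end

end Crest.Agent.R281.S6V_664
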