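import Crest.Agent.R281.D6b_986
import Crest.Agent.R281.S6V4_664
import Crest.Agent.R281.Har5_331

/-!
# R281 (S0424), N2-GLUE (helper52): the uniform Harnack inequality on all leaves of an `LFib`

* `exists_leaf` : a leaf `Tf x` of a tube as `Fam A d 0 univ`;
* `LeafVol F K v` : every leaf, as a `Fam A n 0 univ`, has volume `≤ v`;
* `harn_of_low`  : the node `Harn` of `D6b_986` from `Low` (389) and `harnack_leaf` (331).
-/

set_option autoImplicit false
set_option linter.unusedSectionVars false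

open Set Filter Topology Complex Function MeasureTheory
open scoped ContDiff Matrix ComplexConjugate ComplexOrder

namespace Crest.Agent.R281.N2_52

open Crest.Agent.R275.Geo Crest.Agent.R275.Core144 Crest.Agent.R275.GC293
open Crest.Agent.R273.Defs_333 Crest.Agent.R273.Kah_333 Crest.Agent.R273.HM_333
open Crest.Agent.R273.Map_835 Crest.Agent.R273.KahI_645 Crest.Agent.R273.Vm_333
open Crest.Agent.R281.Defs_273 Crest.Agent.R281.S6D_664 Crest.Agent.R281.S6V_664
open Crest.Agent.R281.Har_331 Crest.Agent.R281.D6_986 Crest.Agent.R281.Glob1_484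
open Crest.Agent.R273.FIb0_597 (ch mem_ch)

noncomputable section

section Leaf

variable {N d k : ℕ} {M : Type} [TopologicalSpace M] {A : Atl N M} {Tf : M → Set M}

/-- the constant base map -/
def cBM (τ : S6D_664.Tube A k Tf) {x : M} (hx : x ∈ τ.W) : BM A Tf k 0 where
  U := univ
  Γ := fun _ => x
  oU := isOpen_univ
  cube := fun _ _ p => p.1.elim0
  cont := continuousOn_const
  hol := fun _ => differentiableOn_const _
  tb := fun _ _ => ⟨τ, hx⟩
  tr := fun _ _ _ _ => fun a b _ => Subsingleton.elim a b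

/-- a leaf as a family over a point -/
theorem exists_leaf [T2Space M] [SecondCountableTopology M] (hN : N = d + k)
    (τ : S6D_664.Tube A k Tf) {x : M} (hx : x ∈ τ.W) :
    ∃ F : Fam A d 0 univ, range F.i = Tf x := by
  obtain ⟨F, h1, h2⟩ := (cBM τ hx).exists_fam (d := d) hN ⟨(0 : Cn 0), mem_univ (0 : Cn 0)⟩
  refine ⟨F, Subset.antisymm ?_ ?_⟩
  · rintro y ⟨v, rfl⟩
    exact h1 v
  · intro y hy
    obtain ⟨v, -, hv⟩ := h2 0 (mem_univ _) y hy
    exact ⟨v, hv⟩

end Leaf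

variable {n : ℕ} {M : Type} [TopologicalSpace M] {A : Atl (2 * n) M} {σ : HSymp A} {L : LB A}

/-- every leaf has volume `≤ v` -/
def LeafVol (F : LFib A σ) (K : Kah A) (v : ℝ) : Prop :=
  ∀ T : Fam A n 0 univ, (∃ x ∈ F.Om, range T.i = F.Tf x) → (T.mu K univ).toReal ≤ v

theorem exists_leaf' [T2Space M] [SecondCountableTopology M] (F : LFib A σ) {x : M}
    (hx : x ∈ F.Om) : ∃ T : Fam A n 0 univ, range T.i = F.Tf x := by
  obtain ⟨τ, hτ, -⟩ := F.tube x hx
  exact exists_leaf (by omega) τ hτ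

theorem self_mem_Tf (F : LFib A σ) {x : M} (hx : x ∈ F.Om) : x ∈ F.Tf x := by
  obtain ⟨τ, hτ, -⟩ := F.tube x hx
  rw [τ.fib x hτ]
  exact ⟨hτ, rfl⟩

theorem Tf_sub_Om (F : LFib A σ) {x : M} (hx : x ∈ F.Om) : F.Tf x ⊆ F.Om := by
  obtain ⟨τ, hτ, hW, -⟩ := F.tube x hx
  rw [τ.fib x hτ]
  exact fun y hy => hW hy.1

/-- the form of `LeafVol` with an `ENNReal` bound for all leaves contained in `Om` -/
theorem leafVol_of (F : LFib A σ) (K : Kah A) {v : ℝ} (hv0 : 0 ≤ v)
    (hv : ∀ T : Fam A n 0 univ, (∀ t, T.i t ∈ F.Om) → T.mu K univ ≤ ENNReal.ofReal v) :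
    LeafVol F K v := by
  rintro T ⟨x, hx, hT⟩
  refine ENNReal.toReal_le_of_le_ofReal hv0 (hv T fun t => Tf_sub_Om F hx ?_)
  rw [← hT]
  exact ⟨t, rfl⟩

/-- **the node `Harn`** -/
theorem harn_of_low [T2Space M] [CompactSpace M] [SecondCountableTopology M] (K : Kah A)
    (h : HM L) (hnef : NefW K L) (o : OmOut σ L) {c1 : ℝ} (hc1 : 0 < c1)
    (hlow : Low K (pow h o.k) n c1) {v : ℝ} (hv : LeafVol o.F K v) : Harn o h := by
  obtain ⟨C, hC⟩ := harnack_leaf K h hnef o.k_pos hc1 hlow v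
  refine ⟨C, fun x hx y hy => ?_⟩
  obtain ⟨T, hT⟩ := exists_leaf' o.F hx
  obtain ⟨a, ha⟩ : x ∈ range T.i := by rw [hT]; exact self_mem_Tf o.F hx
  obtain ⟨b, hb⟩ : y ∈ range T.i := by rw [hT]; exact hy
  have hNZ : T.NZ o.s := by
    intro t i hi
    have h1 : T.i t ∈ o.F.Tf x := by rw [← hT]; exact ⟨t, rfl⟩
    exact o.nz _ (Tf_sub_Om o.F hx h1) i hi
  have h1 := hC univ T (hv T ⟨x, hx, hT⟩) o.s o.hs hNZ a b
  have h2 := hC univ T (hv T ⟨x, hx, hT⟩) o.s o.hs hNZ b a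
  rw [ha, hb] at h1 h2
  have e : ∀ z : M, o.rho h z = Real.log (nsM (pow h o.k) o.s z) := fun z => rfl
  rw [e, e, abs_le]
  constructor <;> linarith

end

end Crest.Agent.R281.N2_52
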