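import Crest.Agent.R281.N2_52
import Crest.Agent.R281.D6f_986

/-!
# R281 (S0424), N2-GLUE (helper52), part b: the node `Harn` from `D6_986.LeafVol`
-/

set_option autoImplicit false
set_option linter.unusedSectionVars false

open Set Filter Topology Complex Function MeasureTheory
open scoped ContDiff Matrix ComplexConjugate ComplexOrder

namespace Crest.Agent.R281.N2_52

open Crest.Agent.R275.Geo Crest.Agent.R275.Core144 Crest.Agent.R275.GC293
open Crest.Agent.R273.Defs_333 Crest.Agent.R273.Kah_333 Crest.Agent.R273.HM_333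
open Crest.Agent.R281.Defs_273 Crest.Agent.R281.S6D_664 Crest.Agent.R281.S6V_664
open Crest.Agent.R281.Har_331

noncomputable section

variable {n : ℕ} {M : Type} [TopologicalSpace M] {A : Atl (2 * n) M} {σ : HSymp A} {L : LB A}

/-- two leaves in `Om` with a common point agree -/
theorem Tf_eq (F : LFib A σ) {x y : M} (hx : x ∈ F.Om) (hy : y ∈ F.Tf x) : F.Tf y = F.Tf x := by
  obtain ⟨τ, hτ, -⟩ := F.tube x hx
  rw [τ.fib x hτ] at hy ⊢
  obtain ⟨hyW, hyf⟩ := hy
  have h1 : τ.f y = τ.f x := hyf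
  rw [τ.fib y hyW, h1]

theorem leafy_of_range (F : LFib A σ) {x : M} (hx : x ∈ F.Om) (T : Fam A n 0 univ)
    (hT : range T.i = F.Tf x) : D6_986.Leafy F T := by
  intro v
  have hv : T.i v ∈ F.Tf x := by rw [← hT]; exact ⟨v, rfl⟩
  refine ⟨Tf_sub_Om F hx hv, ?_⟩
  have h2 : T.y ⁻¹' {T.y v} = univ := eq_univ_of_forall fun z => Subsingleton.elim _ _
  rw [Tf_eq F hx hv, ← hT, h2, image_univ]

/-- a leaf as a `Leafy` family over a point -/
theorem exists_leafy [T2Space M] [SecondCountableTopology M] (F : LFib A σ) {x : M}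
    (hx : x ∈ F.Om) : ∃ T : Fam A n 0 univ, range T.i = F.Tf x ∧ D6_986.Leafy F T := by
  obtain ⟨T, hT⟩ := exists_leaf' F hx
  exact ⟨T, hT, leafy_of_range F hx T hT⟩

theorem leafVol_of' (F : LFib A σ) (K : Kah A) {v : ℝ} (hv0 : 0 ≤ v)
    (hv : D6_986.LeafVol F K v) : LeafVol F K v := by
  rintro T ⟨x, hx, hT⟩
  exact ENNReal.toReal_le_of_le_ofReal hv0 (hv T (leafy_of_range F hx T hT))

/-- **the node `Harn`** from the node `LeafVol` and `Low` -/
theorem harn_of_leafVol [T2Space M] [CompactSpace M] [SecondCountableTopology M] (K : Kah A)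
    (h : HM L) (hnef : NefW K L) (o : D6_986.OmOut σ L) {c1 : ℝ} (hc1 : 0 < c1)
    (hlow : Low K (pow h o.k) n c1) {v : ℝ} (hv0 : 0 ≤ v) (hv : D6_986.LeafVol o.F K v) :
    D6_986.Harn o h :=
  harn_of_low K h hnef o hc1 hlow (leafVol_of' o.F K hv0 hv)

end

end Crest.Agent.R281.N2_52
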