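import Mathlib

/-!
# R281 / Nc1 (helper957): holomorphic functions on a space spread over the plane

`u : E → ℂ` a local homeomorphism, `Φ : E → ℂ` holomorphic in the coordinate `u`: identity theorem,
critical points, countability of the critical values, local homeomorphism off the critical set,
generic vertical lines.
-/

set_option autoImplicit false

namespace Crest.Agent.R281.Nc_957

open Topology Filter Set

variable {E : Type*} [TopologicalSpace E]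

/-- `Φ` is a holomorphic function of the local coordinate `u` -/
def An (u Φ : E → ℂ) : Prop := ∀ x, ∃ φ : ℂ → ℂ, AnalyticAt ℂ φ (u x) ∧ Φ =ᶠ[𝓝 x] φ ∘ u

/-- critical points (with respect to the coordinate `u`) -/
def Crit (u Φ : E → ℂ) : Set E :=
  {x | ∃ φ : ℂ → ℂ, AnalyticAt ℂ φ (u x) ∧ Φ =ᶠ[𝓝 x] φ ∘ u ∧ deriv φ (u x) = 0}

/-- `Φ` is locally constant at `x` -/
def LC (Φ : E → ℂ) (x : E) : Prop := ∀ᶠ y in 𝓝 x, Φ y = Φ x

variable {u Φ : E → ℂ}

theorem An.continuous (hu : IsLocalHomeomorph u) (h : An u Φ) : Continuous Φ := by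
  rw [continuous_iff_continuousAt]
  intro x
  obtain ⟨φ, hφ, he⟩ := h x
  exact (hφ.continuousAt.comp hu.continuous.continuousAt).congr he.symm

theorem eventually_iff (hu : IsLocalHomeomorph u) {x : E} {p : ℂ → Prop} :
    (∀ᶠ y in 𝓝 x, p (u y)) ↔ ∀ᶠ z in 𝓝 (u x), p z := by
  rw [← hu.map_nhds_eq x, eventually_map]

theorem inj_near (hu : IsLocalHomeomorph u) (x : E) : ∃ U ∈ 𝓝 x, InjOn u U := by
  obtain ⟨e, hx, he⟩ := hu x
  exact ⟨e.source, e.open_source.mem_nhds hx, by rw [he]; exact e.injOn⟩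

theorem eventually_ne_iff (hu : IsLocalHomeomorph u) {x : E} {p : ℂ → Prop}
    (h : ∀ᶠ z in 𝓝[≠] (u x), p z) : ∀ᶠ y in 𝓝[≠] x, p (u y) := by
  obtain ⟨U, hU, hinj⟩ := inj_near hu x
  rw [eventually_nhdsWithin_iff] at h ⊢
  rw [← eventually_iff hu] at h
  filter_upwards [h, hU] with y hy hyU hne
  refine hy fun h1 => hne ?_
  exact hinj hyU (mem_of_mem_nhds hU) h1

/-- the germ of `φ` is determined by `Φ` -/
theorem germ_unique (hu : IsLocalHomeomorph u) {x : E} {φ ψ : ℂ → ℂ} (h1 : Φ =ᶠ[𝓝 x] φ ∘ u)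
    (h2 : Φ =ᶠ[𝓝 x] ψ ∘ u) : φ =ᶠ[𝓝 (u x)] ψ := by
  have h3 : ∀ᶠ y in 𝓝 x, φ (u y) = ψ (u y) := by
    filter_upwards [h1, h2] with y hy1 hy2
    exact hy1.symm.trans hy2
  exact (eventually_iff (p := fun z => φ z = ψ z) hu).1 h3

theorem isOpen_const (c : ℂ) : IsOpen {x : E | ∀ᶠ y in 𝓝 x, Φ y = c} := by
  rw [isOpen_iff_mem_nhds]
  intro x hx
  exact eventually_eventually_nhds.2 hx

theorem isClosed_const (hu : IsLocalHomeomorph u) (hΦ : An u Φ) (c : ℂ) :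
    IsClosed {x : E | ∀ᶠ y in 𝓝 x, Φ y = c} := by
  rw [isClosed_iff_frequently]
  intro x hx
  obtain ⟨φ, hφ, he⟩ := hΦ x
  obtain ⟨r, hr, hball⟩ := Metric.eventually_nhds_iff_ball.1 hφ.eventually_analyticAt
  have h1 : ∀ᶠ y in 𝓝 x, u y ∈ Metric.ball (u x) r :=
    (eventually_iff (p := fun z => z ∈ Metric.ball (u x) r) hu).2 (Metric.ball_mem_nhds _ hr)
  have h2 : ∀ᶠ y in 𝓝 x, Φ =ᶠ[𝓝 y] φ ∘ u := he.eventuallyEq_nhds
  obtain ⟨y, hy, hy1, hy2⟩ := (hx.and_eventually (h1.and h2)).exists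
  have h3 : ∀ᶠ z in 𝓝 (u y), φ z = c := by
    rw [← eventually_iff (p := fun z => φ z = c) hu]
    filter_upwards [hy, hy2] with z hz1 hz2
    rw [← hz1, hz2]
    rfl
  have h4 : EqOn φ (fun _ => c) (Metric.ball (u x) r) :=
    AnalyticOnNhd.eqOn_of_preconnected_of_eventuallyEq (fun z hz => hball z hz)
      analyticOnNhd_const (convex_ball _ _).isPreconnected hy1 h3
  change ∀ᶠ y in 𝓝 x, Φ y = c
  filter_upwards [h1, he] with z hz1 hz2
  rw [hz2]
  exact h4 hz1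

/-- **identity theorem** -/
theorem const_of_const (hu : IsLocalHomeomorph u) (hΦ : An u Φ) {S : Set E}
    (hS : IsPreconnected S) {x y : E} (hx : x ∈ S) (hy : y ∈ S) {c : ℂ}
    (h : ∀ᶠ z in 𝓝 x, Φ z = c) : ∀ᶠ z in 𝓝 y, Φ z = c :=
  hS.subset_isClopen ⟨isClosed_const hu hΦ c, isOpen_const c⟩ ⟨x, hx, h⟩ hy

theorem lc_of_lc (hu : IsLocalHomeomorph u) (hΦ : An u Φ) {S : Set E}
    (hS : IsPreconnected S) {x y : E} (hx : x ∈ S) (hy : y ∈ S) (h : LC Φ x) :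
    LC Φ y ∧ Φ y = Φ x := by
  have h1 := const_of_const hu hΦ hS hx hy h
  have h2 := h1.self_of_nhds
  exact ⟨by rw [LC, h2]; exact h1, h2⟩

/-- **non-constancy**: if the fibre over one point has values in `S` and `Φ x₀ ∉ S`, then `Φ` is
nowhere locally constant on the path component of `x₀` -/
theorem not_lc_of_joined (hu : IsLocalHomeomorph u) (hΦ : An u Φ) {S : Set ℂ} {x₀ y : E}
    (h0 : Φ x₀ ∉ S) (hy : Φ y ∈ S) (hj : Joined x₀ y) {x : E} (hx : Joined x₀ x) : ¬ LC Φ x := by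
  intro hlc
  have hP : IsPreconnected (pathComponent x₀) :=
    isPathConnected_pathComponent.isConnected.isPreconnected
  have h1 := (lc_of_lc hu hΦ hP (x := x) (y := x₀) hx (mem_pathComponent_self x₀) hlc)
  have h2 := (lc_of_lc hu hΦ hP (x := x) (y := y) hx hj hlc)
  exact h0 (by rw [h1.2, ← h2.2]; exact hy)

/-- critical points are isolated where `Φ` is not locally constant -/
theorem crit_isolated (hu : IsLocalHomeomorph u) (hΦ : An u Φ) {x : E} (h : ¬ LC Φ x) :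
    ∀ᶠ y in 𝓝[≠] x, y ∉ Crit u Φ := by
  obtain ⟨φ, hφ, he⟩ := hΦ x
  have hder : ∀ᶠ z in 𝓝[≠] (u x), deriv φ z ≠ 0 := by
    refine hφ.deriv.eventually_eq_zero_or_eventually_ne_zero.resolve_left fun h0 => h ?_
    obtain ⟨r, hr, hball⟩ := Metric.eventually_nhds_iff_ball.1 (h0.and hφ.eventually_analyticAt)
    have h1 : ∀ᶠ y in 𝓝 x, u y ∈ Metric.ball (u x) r :=
      (eventually_iff (p := fun z => z ∈ Metric.ball (u x) r) hu).2 (Metric.ball_mem_nhds _ hr)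
    have h2 : ∀ z ∈ Metric.ball (u x) r, φ z = φ (u x) := fun z hz =>
      (convex_ball (u x) r).is_const_of_fderivWithin_eq_zero (𝕜 := ℂ) (f := φ)
        (fun w hw => (hball w hw).2.differentiableAt.differentiableWithinAt)
        (fun w hw => by
          rw [fderivWithin_of_isOpen Metric.isOpen_ball hw]
          ext
          rw [fderiv_apply_one_eq_deriv, (hball w hw).1]
          rfl) hz (Metric.mem_ball_self hr)
    have h3 : Φ x = φ (u x) := he.self_of_nhds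
    filter_upwards [h1, he] with y hy1 hy2
    rw [hy2, h3]
    exact h2 _ hy1
  have h4 := eventually_ne_iff hu hder
  have h5 : ∀ᶠ y in 𝓝[≠] x, Φ =ᶠ[𝓝 y] φ ∘ u :=
    (he.eventuallyEq_nhds).filter_mono nhdsWithin_le_nhds
  filter_upwards [h4, h5] with y hy1 hy2
  rintro ⟨ψ, hψ, hψe, hψ0⟩
  have h6 := germ_unique hu hy2 hψe
  exact hy1 (by rw [h6.deriv_eq, hψ0])

theorem crit_value_near (hu : IsLocalHomeomorph u) (hΦ : An u Φ) (x : E) :
    ∀ᶠ y in 𝓝 x, y ∈ Crit u Φ → Φ y = Φ x := by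
  by_cases h : LC Φ x
  · exact h.mono fun y hy _ => hy
  · have h1 := crit_isolated hu hΦ h
    rw [eventually_nhdsWithin_iff] at h1
    filter_upwards [h1] with y hy hyc
    by_cases hxy : y = x
    · rw [hxy]
    · exact absurd hyc (hy hxy)

/-- **the critical values are countable** -/
theorem countable_bad [LindelofSpace E] (hu : IsLocalHomeomorph u) (hΦ : An u Φ) :
    (Φ '' Crit u Φ).Countable := by
  choose U hU using fun x => (crit_value_near hu hΦ x).exists_mem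
  obtain ⟨t, ht, hcov⟩ := LindelofSpace.elim_nhds_subcover U fun x => (hU x).1
  refine (ht.image Φ).mono ?_
  rintro _ ⟨y, hy, rfl⟩
  have h1 : y ∈ ⋃ x ∈ t, U x := by rw [hcov]; trivial
  obtain ⟨x, hx, hyx⟩ := mem_iUnion₂.1 h1
  exact ⟨x, hx, ((hU x).2 y hyx hy).symm⟩

/-- off the critical set `Φ` is a local homeomorphism -/
theorem localHomeo (hu : IsLocalHomeomorph u) (hΦ : An u Φ) : IsLocalHomeomorphOn Φ (Crit u Φ)ᶜ := by
  refine IsLocalHomeomorphOn.mk _ _ fun x hx => ?_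
  obtain ⟨φ, hφ, he⟩ := hΦ x
  have h0 : deriv φ (u x) ≠ 0 := fun h => hx ⟨φ, hφ, he, h⟩
  obtain ⟨e₁, hx₁, he₁⟩ := hu x
  let e₂ := (hφ.hasStrictDerivAt.hasStrictFDerivAt_equiv h0).toOpenPartialHomeomorph φ
  have hx₂ : u x ∈ e₂.source :=
    (hφ.hasStrictDerivAt.hasStrictFDerivAt_equiv h0).mem_toOpenPartialHomeomorph_source
  obtain ⟨V, hV, hVo, hxV⟩ := eventually_nhds_iff.1 he
  refine ⟨(e₁.trans e₂).restr V, ?_, fun y hy => ?_⟩
  · rw [OpenPartialHomeomorph.restr_source' _ _ hVo, OpenPartialHomeomorph.trans_source]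
    refine ⟨⟨hx₁, ?_⟩, hxV⟩
    rw [mem_preimage, ← he₁]
    exact hx₂
  · rw [OpenPartialHomeomorph.restr_source' _ _ hVo] at hy
    rw [hV y hy.2]
    change φ (u y) = φ (e₁ y)
    rw [he₁]

/-- generic vertical lines -/
theorem exists_generic (hu : IsLocalHomeomorph u) (hΦ : An u Φ) {x₀ : E} (h : ¬ LC Φ x₀)
    {B : Set ℂ} (hB : B.Countable) {U : Set E} (hU : U ∈ 𝓝 x₀) :
    ∃ x₁ ∈ U, Joined x₀ x₁ ∧ (Φ x₁).im = (Φ x₀).im ∧ ∀ z ∈ B, z.re ≠ (Φ x₁).re := by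
  obtain ⟨φ, hφ, he⟩ := hΦ x₀
  obtain ⟨e, hx, hee⟩ := hu x₀
  obtain ⟨V, hV, hVo, hxV⟩ := eventually_nhds_iff.1 he
  -- a small ball
  have h1 : ∀ᶠ z in 𝓝 (u x₀), z ∈ e.target ∧ e.symm z ∈ U ∩ V := by
    have hx' : u x₀ = e x₀ := by rw [hee]
    rw [hx']
    have h1 : ∀ᶠ z in 𝓝 (e x₀), z ∈ e.target := e.open_target.mem_nhds (e.map_source hx)
    exact h1.and (e.tendsto_symm hx (inter_mem hU (hVo.mem_nhds hxV)))
  obtain ⟨r, hr, hball⟩ := Metric.eventually_nhds_iff_ball.1 h1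
  have h2 : 𝓝 (φ (u x₀)) ≤ map φ (𝓝 (u x₀)) := by
    refine hφ.eventually_constant_or_nhds_le_map_nhds.resolve_left fun h0 => h ?_
    have h3 : Φ x₀ = φ (u x₀) := he.self_of_nhds
    have h4 := (eventually_iff (p := fun z => φ z = φ (u x₀)) hu).2 h0
    filter_upwards [h4, he] with y hy1 hy2
    rw [hy2, h3]
    exact hy1
  have h3 : φ '' Metric.ball (u x₀) r ∈ 𝓝 (φ (u x₀)) :=
    h2 (image_mem_map (Metric.ball_mem_nhds _ hr))
  have h3' : Φ x₀ = φ (u x₀) := he.self_of_nhds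
  rw [← h3'] at h3
  obtain ⟨ρ, hρ, hsub⟩ := Metric.mem_nhds_iff.1 h3
  -- a real number
  have hBre : (Complex.re '' B).Countable := hB.image _
  obtain ⟨t, ht, htB⟩ : ∃ t : ℝ, |t - (Φ x₀).re| < ρ ∧ t ∉ Complex.re '' B := by
    have hd := hBre.dense_compl ℝ
    obtain ⟨t, ht1, ht2⟩ := Metric.dense_iff.1 hd (Φ x₀).re ρ hρ
    exact ⟨t, by rwa [Metric.mem_ball, Real.dist_eq] at ht1, ht2⟩
  have hζ : (⟨t, (Φ x₀).im⟩ : ℂ) ∈ φ '' Metric.ball (u x₀) r := by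
    refine hsub ?_
    rw [Metric.mem_ball, Complex.dist_eq]
    have : (⟨t, (Φ x₀).im⟩ : ℂ) - Φ x₀ = ((t - (Φ x₀).re : ℝ) : ℂ) := by
      apply Complex.ext <;> simp
    rw [this, Complex.norm_real, Real.norm_eq_abs]
    exact ht
  obtain ⟨z, hz, hφz⟩ := hζ
  have hΦz : Φ (e.symm z) = ⟨t, (Φ x₀).im⟩ := by
    rw [hV _ (hball z hz).2.2, ← hφz]
    change φ (u (e.symm z)) = φ z
    rw [hee, e.right_inv (hball z hz).1]
  refine ⟨e.symm z, (hball z hz).2.1, ?_, by rw [hΦz], fun b hb h0 => htB ⟨b, hb, ?_⟩⟩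
  · have hpc : IsPathConnected (e.symm '' Metric.ball (u x₀) r) :=
      ((convex_ball (u x₀) r).isPathConnected ⟨_, Metric.mem_ball_self hr⟩).image'
        (e.continuousOn_symm.mono fun w hw => (hball w hw).1)
    have hx0 : x₀ ∈ e.symm '' Metric.ball (u x₀) r :=
      ⟨u x₀, Metric.mem_ball_self hr, by rw [hee]; exact e.left_inv hx⟩
    exact (hpc.joinedIn x₀ hx0 _ ⟨z, hz, rfl⟩).joined
  · rw [h0, hΦz]

/-- the critical set is invariant under symmetries over `u` -/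
theorem crit_map {τ : E ≃ₜ E} (hτ : ∀ x, u (τ x) = u x) {M : ℂ → ℂ}
    (hM : ∀ x, AnalyticAt ℂ M (Φ x)) (hΦτ : ∀ x, Φ (τ x) = M (Φ x)) {x : E}
    (hx : x ∈ Crit u Φ) : τ x ∈ Crit u Φ := by
  obtain ⟨φ, hφ, he, h0⟩ := hx
  have h3 : Φ x = φ (u x) := he.self_of_nhds
  have hMx : AnalyticAt ℂ M (φ (u x)) := h3 ▸ hM x
  refine ⟨M ∘ φ, ?_, ?_, ?_⟩
  · rw [hτ]
    exact hMx.comp hφ
  · have h1 : ∀ᶠ y in 𝓝 (τ x), Φ (τ.symm y) = φ (u (τ.symm y)) := by
      have := τ.symm.continuous.tendsto (τ x)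
      rw [τ.symm_apply_apply] at this
      exact this.eventually he
    filter_upwards [h1] with y hy
    have h2 := hΦτ (τ.symm y)
    have h4 := hτ (τ.symm y)
    rw [τ.apply_symm_apply] at h2 h4
    rw [h2, hy, ← h4]
    rfl
  · rw [hτ, deriv_comp _ hMx.differentiableAt hφ.differentiableAt, h0, mul_zero]

end Crest.Agent.R281.Nc_957
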