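import Crest.Agent.R281.Nc1_957

/-!
# R281 / Nc2 (helper957): the hypotheses `Bad`, `Bad_inv`, `good` of CUSP-LIFT (473) and the
starting point

`exists_bad` : a countable invariant set of bad values off which the period map is a local
homeomorphism; `exists_joined` : a path on the marked cover from any point to the fibre over any
point of the line; `exists_start` : a starting point on a generic vertical line.
-/

set_option autoImplicit false

namespace Crest.Agent.R281.Nc_957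

open Topology Filter Set UpperHalfPlane

variable {E : Type*} [TopologicalSpace E]

/-- a space covered by countably many translates of compact sets is Lindelöf -/
theorem isLindelof_of_cover {G ι : Type*} [Countable G] [Countable ι] (a : G → E → E)
    (ha : ∀ g, Continuous (a g)) {K : Set E} (hK : IsCompact K) (ε : ι → ℂ → E)
    (hε : ∀ i, ContinuousOn (ε i) {z | 1 ≤ z.im})
    (hcov : ∀ x, ∃ g y, x = a g y ∧ (y ∈ K ∨ ∃ i z, 1 ≤ z.im ∧ y = ε i z)) : LindelofSpace E := by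
  have h1 : IsLindelof (⋃ g : G, (a g '' K ∪ ⋃ i, a g '' (ε i '' {z | 1 ≤ z.im}))) := by
    refine isLindelof_iUnion fun g => ?_
    refine (hK.isLindelof.image (ha g)).union (isLindelof_iUnion fun i => ?_)
    refine IsLindelof.image ?_ (ha g)
    refine IsLindelof.image_of_continuousOn ?_ (hε i)
    exact HereditarilyLindelofSpace.isLindelof _
  refine ⟨?_⟩
  convert! h1
  refine (eq_univ_of_forall fun x => ?_).symm
  obtain ⟨g, y, rfl, hy | ⟨i, z, hz, rfl⟩⟩ := hcov x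
  · exact mem_iUnion.2 ⟨g, Or.inl ⟨y, hy, rfl⟩⟩
  · exact mem_iUnion.2 ⟨g, Or.inr (mem_iUnion.2 ⟨i, ⟨ε i z, ⟨z, hz, rfl⟩, rfl⟩⟩)⟩

/-- **bad values** -/
theorem exists_bad [LindelofSpace E] {G : Type*} [Group G] [Countable G] [MulAction G ℍ]
    {u : E → ℂ} (hu : IsLocalHomeomorph u) {Φ : E → ℍ} (hΦ : An u fun x => (Φ x : ℂ))
    {P : Set ℍ} (hP : P.Countable) :
    ∃ Bad : Set ℍ, Bad.Countable ∧ P ⊆ Bad ∧ (∀ (g : G), ∀ τ ∈ Bad, g • τ ∈ Bad) ∧
      ∀ x, Φ x ∉ Bad → ∃ s : ℍ → E, ∃ U ∈ 𝓝 x, ∃ V ∈ 𝓝 (Φ x), ContinuousOn s V ∧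
        (∀ τ ∈ V, Φ (s τ) = τ) ∧ ∀ x' ∈ U, s (Φ x') = x' := by
  let Φ' : E → ℂ := fun x => (Φ x : ℂ)
  have hB : (Φ' '' Crit u Φ').Countable := countable_bad hu hΦ
  let B₀ : Set ℍ := ((↑) : ℍ → ℂ) ⁻¹' (Φ' '' Crit u Φ') ∪ P
  have hB₀ : B₀.Countable := (hB.preimage UpperHalfPlane.coe_injective).union hP
  refine ⟨⋃ g : G, (fun τ => g • τ) '' B₀, countable_iUnion fun g => hB₀.image _, fun τ hτ => ?_,
    fun g τ hτ => ?_, fun x hx => ?_⟩
  · exact mem_iUnion.2 ⟨1, ⟨τ, Or.inr hτ, one_smul _ _⟩⟩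
  · obtain ⟨g', τ', hτ', rfl⟩ := mem_iUnion.1 hτ
    exact mem_iUnion.2 ⟨g * g', ⟨τ', hτ', mul_smul _ _ _⟩⟩
  · have hxc : x ∉ Crit u Φ' := fun h =>
      hx (mem_iUnion.2 ⟨1, ⟨Φ x, Or.inl ⟨x, h, rfl⟩, one_smul _ _⟩⟩)
    obtain ⟨e, hxe, he⟩ := localHomeo hu hΦ x hxc
    have he' : ∀ y, (Φ y : ℂ) = e y := fun y => congrFun he y
    refine ⟨fun τ => e.symm (τ : ℂ), e.source, e.open_source.mem_nhds hxe,
      ((↑) : ℍ → ℂ) ⁻¹' e.target, ?_, ?_, fun τ hτ => ?_, fun y hy => ?_⟩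
    · refine (e.open_target.preimage UpperHalfPlane.continuous_coe).mem_nhds ?_
      rw [mem_preimage, he']
      exact e.map_source hxe
    · exact e.continuousOn_symm.comp UpperHalfPlane.continuous_coe.continuousOn fun τ hτ => hτ
    · apply UpperHalfPlane.coe_injective
      rw [he', e.right_inv hτ]
    · change e.symm (Φ y : ℂ) = y
      rw [he', e.left_inv hy]

/-- a path upstairs to a point over `b` -/
theorem exists_joined {Q : Type*} [TopologicalSpace Q] {F : Set ℂ} (hF : F.Countable)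
    {p : Q → ↥(Fᶜ)} (hp : IsCoveringMap p) {π : E → Q} (hπ : IsCoveringMap π) (x₀ : E)
    (b : ↥(Fᶜ)) : ∃ y, Joined x₀ y ∧ p (π y) = b := by
  have hpc : IsPathConnected (Fᶜ) := hF.isPathConnected_compl_of_one_lt_rank
    (by rw [Complex.rank_real_complex]; exact Nat.one_lt_ofNat)
  have hps : PathConnectedSpace ↥(Fᶜ) := isPathConnected_iff_pathConnectedSpace.1 hpc
  obtain ⟨γ⟩ := PathConnectedSpace.joined (p (π x₀)) b
  obtain ⟨Γ, hΓ, hΓ0⟩ := hp.exists_path_lifts γ.toContinuousMap (π x₀) γ.source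
  obtain ⟨Δ, hΔ, hΔ0⟩ := hπ.exists_path_lifts Γ x₀ hΓ0
  refine ⟨Δ 1, ⟨⟨Δ, hΔ0, rfl⟩⟩, ?_⟩
  have h1 : π (Δ 1) = Γ 1 := congrFun hΔ 1
  have h2 : p (Γ 1) = γ 1 := congrFun hΓ 1
  rw [h1, h2, γ.target]

/-- **the starting point**: near `x₀` there is a point, joined to `x₀`, on a vertical line that
misses the bad values -/
theorem exists_start {u : E → ℂ} (hu : IsLocalHomeomorph u) {Φ : E → ℍ}
    (hΦ : An u fun x => (Φ x : ℂ)) {S : Set ℍ} {x₀ y : E} (h0 : Φ x₀ ∉ S) (hy : Φ y ∈ S)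
    (hj : Joined x₀ y) {B : Set ℍ} (hB : B.Countable) {U : Set E} (hU : U ∈ 𝓝 x₀) :
    ∃ x₁ ∈ U, Joined x₀ x₁ ∧ (Φ x₁).im = (Φ x₀).im ∧ ∀ τ ∈ B, τ.re ≠ (Φ x₁).re := by
  have h1 : ¬ LC (fun x => (Φ x : ℂ)) x₀ := by
    refine not_lc_of_joined hu hΦ (S := ((↑) : ℍ → ℂ) '' S) (fun h => ?_)
      (mem_image_of_mem _ hy) hj (Joined.refl x₀)
    obtain ⟨τ, hτ, h2⟩ := h
    exact h0 (by rw [← UpperHalfPlane.coe_injective h2]; exact hτ)
  obtain ⟨x₁, hx₁, hjo, him, hre⟩ := exists_generic hu hΦ h1 (hB.image ((↑) : ℍ → ℂ)) hU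
  refine ⟨x₁, hx₁, hjo, him, fun τ hτ => ?_⟩
  exact hre _ (mem_image_of_mem _ hτ)

end Crest.Agent.R281.Nc_957
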