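import Crest.Agent.R281.Nef4_252
import Crest.Agent.R281.Cdr6_234

/-!
# Row 281, MEM-LB (helper252): line bundles of integral classes at the members

* `cp_of_hol`   : an atlas holomorphically equivalent to a holomorphic atlas of `J` is one
* `lef_class`   : Lefschetz (1,1) at `(X, J)`: an integral class with a (1,1)-representative is
  the Chern class of a line bundle on a good finite holomorphic atlas of `J`
* `mem_lb`      : if moreover the class is nef (`NefC`) the bundle is `NefW`, and `NonFlat` if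
  the class is not exact
* `mem_lb_hk`   : the same for `H : HkT C`
-/

set_option autoImplicit false
set_option maxSynthPendingDepth 3
set_option linter.unusedSectionVars false

open Set Filter Topology Complex
open scoped ContDiff Matrix ComplexConjugate ComplexOrder

namespace Crest.Agent.R281.Nef_252

open Crest.Agent.R275.Geo Crest.Agent.R275.Core144 Crest.Agent.R275.EDR890
open Crest.Agent.R275.GC293
open Crest.Agent.R273.Kah_333 Crest.Agent.R273.Hess_333 Crest.Agent.R273.HessB_333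
open Crest.Agent.R273.Defs_333 Crest.Agent.R273.HM_333 Crest.Agent.R273.Vol_333
open Crest.Agent.R273.Map_835 (HolMap dm Jp mem_dm rd)
open Crest.Agent.R281.Defs_273
open Crest.Agent.R260.ACM_580 Crest.Agent.R260.NNB_580
open Crest.Agent.R281.HkR_835 Crest.Agent.R281.Ti_846
open Crest.Agent.R281.NefO_476 Crest.Agent.R281.Dif_268
open Crest.Agent.R281.Cdr_234 (Cls IntF RatF c1F cmp_of_hol pull_f2 lefschetz Cls.cmp_F)

noncomputable section

variable {V X : Type} [NormedAddCommGroup V] [NormedSpace ℝ V] [TopologicalSpace X]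
  {d : ℕ}

theorem cp_of_hol {B : ACM V X} {A A' : Atl d X} (hA : Cp B A) (h : HolMap A' A id)
    (h' : HolMap A A' id) : Cp B A' := by
  have hc := cmp_of_hol h h'
  intro k
  -- the chart `k` of `A'` through the chart `a` of `A`, in the real chart `i`
  have key : ∀ (i : B.ι) (z : V), z ∈ ovr B i (A'.e k) → ∃ a : A.ι, z ∈ ovr B i (A.e a) ∧
      A.e a ((B.e i).symm z) ∈ dm A A' id a k ∧
      (fun y => A'.e k ((B.e i).symm y)) =ᶠ[𝓝 z]
        fun y => rd A A' id a k (A.e a ((B.e i).symm y)) := by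
    intro i z hz
    obtain ⟨a, ha⟩ := A.cover ((B.e i).symm z)
    refine ⟨a, ⟨hz.1, ha⟩, mem_dm ha hz.2, ?_⟩
    filter_upwards [(isOpen_ovr i (A.e a)).mem_nhds ⟨hz.1, ha⟩] with y hy
    show _ = A'.e k ((A.e a).symm (A.e a ((B.e i).symm y)))
    rw [(A.e a).left_inv hy.2]
  refine ⟨fun i z hz => ?_, fun i z hz => ?_, fun i z hz v => ?_⟩
  · obtain ⟨a, h1, h2, h3⟩ := key i z hz
    have e1 : ContDiffAt ℝ ∞ (fun y => A.e a ((B.e i).symm y)) z :=
      ((hA a).sm i).contDiffAt ((isOpen_ovr i (A.e a)).mem_nhds h1)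
    have e2 : ContDiffAt ℝ ∞ (rd A A' id a k) (A.e a ((B.e i).symm z)) :=
      (hc.s' a k).contDiffAt ((h'.isOpen_dm a k).mem_nhds h2)
    exact ((e2.comp z e1).congr_of_eventuallyEq h3).contDiffWithinAt
  · -- `B.e i ∘ (A'.e k).symm`
    obtain ⟨a, ha⟩ := A.cover ((A'.e k).symm z)
    have h2 : z ∈ dm A' A id k a := ⟨hz.1, ha⟩
    have e2 : ContDiffAt ℝ ∞ (rd A' A id k a) z :=
      (hc.s a k).contDiffAt ((h.isOpen_dm k a).mem_nhds h2)
    have hv : (A.e a).symm (rd A' A id k a z) = (A'.e k).symm z := (A.e a).left_inv ha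
    have h4 : rd A' A id k a z ∈ ovc B i (A.e a) :=
      ⟨(A.e a).map_source ha, by rw [hv]; exact hz.2⟩
    have e1 : ContDiffAt ℝ ∞ (fun y => B.e i ((A.e a).symm y)) (rd A' A id k a z) :=
      ((hA a).sm' i).contDiffAt ((isOpen_ovc i (A.e a)).mem_nhds h4)
    have h3 : (fun y => B.e i ((A'.e k).symm y)) =ᶠ[𝓝 z]
        fun y => B.e i ((A.e a).symm (rd A' A id k a y)) := by
      filter_upwards [(h.isOpen_dm k a).mem_nhds h2] with y hy
      have : (A.e a).symm (rd A' A id k a y) = (A'.e k).symm y := (A.e a).left_inv hy.2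
      rw [this]
    exact ((e1.comp z e2).congr_of_eventuallyEq h3).contDiffWithinAt
  · obtain ⟨a, h1, h2, h3⟩ := key i z hz
    have e2 : HasFDerivAt (rd A A' id a k) ((fderiv ℂ (rd A A' id a k)
        (A.e a ((B.e i).symm z))).restrictScalars ℝ) (A.e a ((B.e i).symm z)) :=
      (h'.diffAt h2).hasFDerivAt.restrictScalars ℝ
    have e3 := e2.comp z ((hA a).diffAt h1).hasFDerivAt
    have e4 := (e3.congr_of_eventuallyEq h3).fderiv
    rw [e4]
    simp only [ContinuousLinearMap.comp_apply, ContinuousLinearMap.coe_restrictScalars']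
    rw [(hA a).lin i z h1, map_smul]

variable {C : RCh V X}

theorem NefC_acmJ {A : Atl d X} {J : AJ C} {hJ : Cx J} (hA : Cp (acmJ J hJ) A) (om w : F2 C) :
    NefC J om w ↔ NefC (jA A) ((cmp_acmJ hA).F om) ((cmp_acmJ hA).F w) := by
  rw [NefC_iff_pull (bi_cmp (cmp_acmJ hA)) (holM_acmJ hA)]
  exact ⟨fun h => h.congr (eqv_ex_sub (cmp_F _ om)) (eqv_ex_sub (cmp_F _ w)),
    fun h => h.congr (eqv_ex_sub (cmp_F _ om).symm) (eqv_ex_sub (cmp_F _ w).symm)⟩

/-- exactness in the atlas and in the real charts -/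
theorem ex_cmp_F {V' : Type} [NormedAddCommGroup V'] [NormedSpace ℝ V'] {C' : RCh V' X}
    (h : Cmp C C') (w : F2 C) : Ex (h.F w) ↔ Ex w := by
  have hb := bi_cmp h
  constructor
  · intro he
    have h1 := (SMap.ofCmp h.symm).ex_pull ((cmp_F h w).symm.ex he)
    exact (hb.pull_pull w).ex h1
  · intro he
    exact (cmp_F h w).symm.ex ((SMap.ofCmp h).ex_pull he)

/-- **Lefschetz (1,1) at `(X, J)`** -/
theorem lef_class [FiniteDimensional ℝ V] [CompactSpace X] [T2Space X] (hNN : NNat V d)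
    {J : AJ C} (hJ : Cx J) {w w' : F2 C} (hi : IntF w) (hw : T11 J w') (he : Ex (w' - w)) :
    ∃ (A : Atl d X) (_ : Finite A.ι) (_ : GoodA A) (_ : Nonempty (Part A))
      (hA : Cp (acmJ J hJ) A) (L : LB A) (h : HM L),
      Eqv (c1F h) ((cmp_acmJ hA).F w') := by
  obtain ⟨A0, -, -, -, hA0⟩ := exists_atlJ hNN J hJ
  set h0 := cmp_acmJ hA0 with hh0
  set w1 := h0.F w' with hw1
  have t1 : T11 (jA A0) w1 := eqv_T11 (cmp_F h0 w') (pull_T11 (holM_acmJ hA0) hw)
  have tπ : T11 (jA A0) ((Real.pi : ℝ) • w1) := t1.smul _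
  set K1 : K11 A0 := ((Real.pi : ℝ) • w1).k11 tπ with hK1
  have e1 : ∀ i, ∀ z ∈ (A0.e i).target, K1.f2.w i z = Real.pi • w1.w i z := fun i z hz =>
    F2.k11_f2 _ tπ hz
  have e2 : Eqv ((Real.pi⁻¹ : ℝ) • K1.f2) w1 := by
    intro i z hz u v
    show Real.pi⁻¹ * K1.f2.w i z u v = w1.w i z u v
    rw [e1 i z hz]
    show Real.pi⁻¹ * (Real.pi * w1.w i z u v) = w1.w i z u v
    rw [← mul_assoc, inv_mul_cancel₀ Real.pi_ne_zero, one_mul]
  have i1 : IntF w1 := (Cls.cmp_F h0).2 (Cdr_234.Cls.of_sub_ex hi he)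
  have i2 : IntF ((Real.pi⁻¹ : ℝ) • K1.f2) := Cdr_234.Cls.eqv i1 e2.symm
  obtain ⟨A', L, h, f1, f2, f3, -, -, f6, f7, f8⟩ := lefschetz K1 i2 (κ := Unit)
    (fun _ => (univ : Set X)) (fun _ => isOpen_univ) (fun x => ⟨(), mem_univ x⟩)
  have hA' : Cp (acmJ J hJ) A' := cp_of_hol hA0 f6.toHolMap f7.toHolMap
  refine ⟨A', f1, f2, f3, hA', L, h, ?_⟩
  set g := SMap.ofCmp (cmp_of_hol f6.toHolMap f7.toHolMap) with hg
  -- `c1F h` is the pull back of `w1`
  have e3 : Eqv (c1F h) (g.pull ((Real.pi⁻¹ : ℝ) • K1.f2)) := by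
    intro k z hz u v
    obtain ⟨i, hi'⟩ := A0.cover ((A'.e k).symm z)
    have hzd : z ∈ dm A' A0 id k i := ⟨hz, hi'⟩
    have hk := (A'.e k).map_target hz
    have hz' : z ∈ dom (ofAtl A0) (ofAtl A') g.f i k := hzd
    have e4 : (g.pull ((Real.pi⁻¹ : ℝ) • K1.f2)).w k z u v =
        Real.pi⁻¹ * (g.pull K1.f2).w k z u v := by
      rw [g.pull_w _ hz', g.pull_w _ hz']
      rfl
    have e5 := pull_f2 f6.toHolMap f7.toHolMap K1 hzd u v
    have e6 := (Cdr_234.curK h).f2_w (i := k) hz u v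
    have e7 : (Cdr_234.curK h).g k ((A'.e k).symm z) = _ := f8 k i _ hk hi'
    rw [e4]
    show Real.pi⁻¹ * (Cdr_234.curK h).f2.w k z u v = _
    rw [e6, e7]
    exact congrArg (fun t => Real.pi⁻¹ * t) e5.symm
  refine e3.trans ((e2.pull g).trans ?_)
  -- composition of the changes of charts
  have e8 : Eqv w1 ((SMap.ofCmp h0).pull w') := (cmp_F h0 w').symm
  refine (e8.pull g).trans ((pull_comp (SMap.ofCmp h0) g w').symm.trans ?_)
  refine Eqv.trans ?_ (cmp_F (cmp_acmJ hA') w')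
  exact fun _ _ _ _ _ => rfl

/-- **MEM-LB**: an integral nef class with a (1,1)-representative at a Kaehler `(X, J)` is the
class of a nef line bundle -/
theorem mem_lb [FiniteDimensional ℝ V] [CompactSpace X] [T2Space X] [ConnectedSpace X]
    (hNN : NNat V d) (hd : 2 ≤ d) {J : AJ C} (hJ : Cx J) {om w w' : F2 C} (ho : T11 J om)
    (hp : Pos J om) (hi : IntF w) (hw : T11 J w') (he : Ex (w' - w)) (hn : NefC J om w) :
    ∃ (A : Atl d X) (_ : Finite A.ι) (_ : GoodA A) (_ : Nonempty (Part A))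
      (hA : Cp (acmJ J hJ) A) (K : Kah A) (L : LB A) (h : HM L),
      Eqv (ofKah K).f2 ((cmp_acmJ hA).F om) ∧ Eqv (c1F h) ((cmp_acmJ hA).F w') ∧
      NefW K L ∧ (¬ Ex w → NonFlat L) := by
  obtain ⟨A, f1, f2, ⟨P⟩, hA, L, h, hc⟩ := lef_class hNN hJ hi hw he
  set h0 := cmp_acmJ hA with hh0
  have t1 : T11 (jA A) (h0.F om) := eqv_T11 (cmp_F h0 om) (pull_T11 (holM_acmJ hA) ho)
  have p1 : Pos (jA A) (h0.F om) := eqv_Pos (cmp_F h0 om)
    (pull_Pos (holM_acmJ hA) (bi_cmp h0).imm hp)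
  set K1 : K11 A := (h0.F om).k11 t1 with hK1
  have e1 : Eqv K1.f2 (h0.F om) := fun i z hz u v => by rw [F2.k11_f2 _ t1 hz]
  set K : Kah A := K1.kah ((pos_f2 K1).1 (eqv_Pos e1.symm p1)) with hK
  have e2 : Eqv (ofKah K).f2 (h0.F om) := e1
  have ew : Ex (h0.F w - c1F h) := by
    have a1 : Ex ((h0.F w) - (h0.F w')) := by
      have a2 : Ex (h0.F (w' - w)) := (ex_cmp_F h0 _).2 he
      have a3 : Eqv (h0.F (w' - w)) (h0.F w' - h0.F w) := (cmp_F h0 _).symm.trans
        ((pull_sub _ w' w).trans (eqv_sub (cmp_F h0 w') (cmp_F h0 w)))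
      have a4 := ex_neg (a3.ex a2)
      rwa [neg_sub] at a4
    have a5 : Ex (h0.F w' - c1F h) := eqv_ex_sub hc.symm
    have := ex_add a1 a5
    rwa [sub_add_sub_cancel] at this
  have hπ : (0 : ℝ) < Real.pi := Real.pi_pos
  have e3 : (Real.pi : ℝ) • c1F h = (Cdr_234.curK h).f2 := by
    rw [c1F, smul_smul, mul_inv_cancel₀ hπ.ne', one_smul]
  refine ⟨A, f1, f2, ⟨P⟩, hA, K, L, h, e2, hc, ?_, ?_⟩
  · rw [nefW_iffU hd P K h]
    have n1 := (NefC_acmJ hA om w).1 hn
    have n2 : NefC (jA A) (ofKah K).f2 (c1F h) := n1.congr (eqv_ex_sub e2.symm) ew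
    have n3 := n2.smul hπ.le
    rwa [e3] at n3
  · intro hne h'
    by_contra hcon
    push Not at hcon
    apply hne
    have z1 : Eqv (curK h').f2 0 := by
      intro i z hz u v
      rw [K11.f2_w _ hz]
      have hx : (A.e i).symm z ∈ (A.e i).source := (A.e i).map_target hz
      have : (curK h').g i ((A.e i).symm z) = 0 := hcon i _ hx
      rw [this, F2.zero_w]
      simp [hb]
    have z2 : Ex (curK h').f2 := z1.symm.ex ex_zero
    have z3 : Ex (curK h).f2 := by
      have := ex_sub z2 (ex_cur h h')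
      rwa [sub_sub_cancel] at this
    have z4 : Ex (c1F h) := ex_smul _ z3
    have z5 : Ex (h0.F w) := by
      have := ex_add ew z4
      rwa [sub_add_cancel] at this
    exact (ex_cmp_F h0 w).1 z5

/-- **MEM-LB** at a hyperkaehler member: `H : HkT C`, complex structure `J k`, Kaehler form
`om k`, the integral class `w` with the (1,1)-representative `w'` -/
theorem mem_lb_hk [FiniteDimensional ℝ V] [CompactSpace X] [T2Space X] [ConnectedSpace X]
    (hNN : NNat V d) (hd : 2 ≤ d) (H : HkT C) (k : Fin 3) {w w' : F2 C} (hi : IntF w)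
    (hw : T11 (ofHk H k) w') (he : Ex (w' - w)) (hn : NefC (ofHk H k) (H.om k) w) :
    ∃ (A : Atl d X) (_ : Finite A.ι) (_ : GoodA A) (_ : Nonempty (Part A))
      (hA : Cp (H.acm k) A) (K : Kah A) (L : LB A) (h : HM L),
      Eqv (ofKah K).f2 ((cmp_of_cp hA).F (H.om k)) ∧ Eqv (c1F h) ((cmp_of_cp hA).F w') ∧
      NefW K L ∧ (¬ Ex w → NonFlat L) := by
  obtain ⟨A, f1, f2, f3, hA, K, L, h, r⟩ :=
    mem_lb hNN hd (cx_ofHk H k) (T11_hk H k) (Pos_hk H k) hi hw he hn
  exact ⟨A, f1, f2, f3, hA, K, L, h, r⟩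

end

end Crest.Agent.R281.Nef_252
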