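import Crest.Agent.R281.Nef2_252
import Crest.Agent.R281.Ti8_846
import Crest.Agent.R281.FujSig_358
import Crest.Agent.R273.GreenM_5

/-!
# Row 281, NEF-NUM, part 1 (helper137): nef classes and the intersection form

`(M, A : Atl d M)` compact, `T = IM (lc d) (bcr e) P` the intersection form on closed real
2-forms of the real charts `ofAtl A`.

* `flat_of_ex`  : a line bundle whose curvature class is exact has a flat metric (`DDb (jA A)`)
* `not_ex`      : `NonFlat L → ¬ Ex (curK h).f2`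
* `MD_one`      : one factor different from `g`
* `II_nonneg`   : pointwise nonnegative products have nonnegative integral
* `T_kah_nonneg`: `0 ≤ ∫ K^(d-1) ∧ G` for `G` semipositive
* `T_kah_pos`   : `0 < ∫ K^(d-1) ∧ K'`
* `T_nef`       : `0 ≤ ∫ K^(d-1) ∧ w` for a nef class `w`
* `nef_polar`   : `0 < polar q K w` for a nef class `w` which is not exact, `q w ≥ 0`
-/

set_option autoImplicit false
set_option maxSynthPendingDepth 3
set_option linter.unusedSectionVars false

open Set Filter Topology Complex MeasureTheory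
open scoped ContDiff Matrix ComplexConjugate ComplexOrder

namespace Crest.Agent.R281.NefNum_137

open Crest.Agent.R275.Geo Crest.Agent.R275.Core144 Crest.Agent.R275.EDR890
open Crest.Agent.R275.GC293
open Crest.Agent.R273.Kah_333 Crest.Agent.R273.Hess_333 Crest.Agent.R273.HessB_333
open Crest.Agent.R273.Defs_333 Crest.Agent.R273.HM_333 Crest.Agent.R273.Vol_333
open Crest.Agent.R273.Vm_333
open Crest.Agent.R281.Defs_273 (NefW NonFlat)
open Crest.Agent.R281.HkR_835 Crest.Agent.R281.Ti_846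
open Crest.Agent.R281.NefO_476
open Crest.Agent.R281.Nef_252 (jA jA_J KCls NefC DDb T11 curK ex_cur ex_sub ex_add ex_smul T11_f2
  ddc_hess KCls_jA nefC_of_nefW T11_kah exists_pos_sub Pos_kah f2_self pos_f2)
open Crest.Agent.R281.FujP_513 (Symm mixv)
open Crest.Agent.R281.FujSig_358 (Sig first_polar')

noncomputable section

variable {d : ℕ} {M : Type} [TopologicalSpace M] {A : Atl d M}

/-! ### flat metrics -/

/-- a matrix is determined by the real form -/
theorem hb_inj {G H : Matrix (Fin d) (Fin d) ℂ}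
    (h : ∀ u v, (I * hb G u v).re = (I * hb H u v).re) : G = H := by
  refine hb_ext fun u v => ?_
  have h1 := h u v
  have h2 := h (I • u) v
  rw [hb_I_left, hb_I_left, ← mul_assoc, ← mul_assoc, I_mul_I] at h2
  apply Complex.ext
  · simpa using h2
  · simpa using h1

/-- **an exact curvature class gives a flat metric** -/
theorem flat_of_ex (hd : DDb (jA A)) {L : LB A} (h : HM L) (he : Ex (curK h).f2) :
    ∃ h' : HM L, ∀ i, ∀ x ∈ (A.e i).source, cur h' i x = 0 := by
  obtain ⟨u, hu, h1⟩ := hd _ he (T11_f2 (curK h))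
  set f : M → ℝ := fun x => (-4 : ℝ) * u x with hf'
  have hf : A.Sm f := fun i => contDiffOn_const.mul (hu i)
  refine ⟨tw h f hf, fun i x hx => ?_⟩
  have hz := (A.e i).map_source hx
  have h2 : cur h i x = (4 : ℂ) • hess (uc (ofAtl A) u i) (A.e i x) := by
    refine hb_inj fun a b => ?_
    have h3 := h1 i _ hz a b
    rw [ddc_hess hu hz, K11.f2_w _ hz, (A.e i).left_inv hx] at h3
    exact h3
  have e1 : hsf A f i x = ((-4 : ℝ) : ℂ) • hess (uc (ofAtl A) u i) (A.e i x) := by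
    unfold hsf
    have : (fun z => f ((A.e i).symm z)) = fun z => (-4 : ℝ) * uc (ofAtl A) u i z := rfl
    rw [this, hess_const_mul _ (hu.at hz)]
  rw [cur_tw h hf i hx, e1, h2, ← add_smul]
  norm_num

theorem not_ex (hd : DDb (jA A)) {L : LB A} (hn : NonFlat L) (h : HM L) :
    ¬ Ex (curK h).f2 := by
  intro he
  obtain ⟨h', h1⟩ := flat_of_ex hd h he
  obtain ⟨i, x, hx, h2⟩ := hn h'
  exact h2 (h1 i x hx)

/-! ### positivity -/

/-- one factor different from `g` -/
theorem MD_one (hd : 2 ≤ d) {k : Fin d} {G : Fin d → Matrix (Fin d) (Fin d) ℂ}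
    {g : Matrix (Fin d) (Fin d) ℂ} (hg : IsUnit g.det) (hG : ∀ j, j ≠ k → G j = g) :
    MD G = ((d - 1).factorial : ℂ) * g.det * (g⁻¹ * G k).trace := by
  obtain ⟨l, hl⟩ : ∃ l : Fin d, k ≠ l := by
    have : Nontrivial (Fin d) := Fin.nontrivial_iff_two_le.2 hd
    obtain ⟨l, hl⟩ := exists_ne k
    exact ⟨l, hl.symm⟩
  rw [MD_two hl hg fun j h1 _ => hG j h1, hG l hl.symm, Matrix.nonsing_inv_mul g hg,
    Matrix.mul_one, Matrix.trace_one, Fintype.card_fin]
  obtain ⟨m, rfl⟩ : ∃ m, d = m + 2 := ⟨d - 2, by omega⟩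
  have e1 : m + 2 - 2 = m := rfl
  have e2 : m + 2 - 1 = m + 1 := rfl
  rw [e1, e2, Nat.factorial_succ]
  push_cast
  ring

theorem TP_one_nonneg (hd : 2 ≤ d) (K : Kah A) (G : K11 A) {k : Fin d} {X : Fin d → K11 A}
    (hX : ∀ j, j ≠ k → X j = ofKah K) (hXk : X k = G) {i : A.ι} {z : Cn d}
    (hz : z ∈ (A.e i).target) (hG : (G.g i ((A.e i).symm z)).PosSemidef) :
    0 ≤ TP (bc d) (fun k => (X k).f2.w i z) := by
  have hx := (A.e i).map_target hz
  have h1 := TP_k11 X hx
  rw [(A.e i).right_inv hz] at h1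
  have h0 := (K.pos i _ hx).det_pos
  rw [MD_one hd (k := k) (g := K.g i ((A.e i).symm z)) (isUnit_iff_ne_zero.2 h0.ne')
    fun j hj => by rw [hX j hj]; rfl, hXk] at h1
  have h2 : (0 : ℂ) ≤ ((K.g i ((A.e i).symm z))⁻¹ * G.g i ((A.e i).symm z)).trace :=
    Crest.Agent.R273.GreenM_5.trace_inv_mul_nonneg (K.pos i _ hx) hG
  have h3 : (0 : ℂ) ≤ ((TP (bc d) (fun k => (X k).f2.w i z) : ℝ) : ℂ) := by
    rw [h1]
    have h4 : (0 : ℂ) ≤ ((d - 1).factorial : ℂ) := by positivity
    have h5 : (0 : ℂ) ≤ (2 : ℂ) ^ d := by positivity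
    exact mul_nonneg h5 (mul_nonneg (mul_nonneg h4 h0.le) h2)
  exact_mod_cast h3

variable [CompactSpace M]

/-- pointwise nonnegative products -/
theorem II_nonneg [T2Space M] [Countable A.ι] (K : Kah A) (P : RPart (ofAtl A))
    (w : Fin d → F2 (ofAtl A))
    (h : ∀ i, ∀ z ∈ (A.e i).target, 0 ≤ TP (bc d) (fun k => (w k).w i z)) :
    0 ≤ II (lc d) (bc d) P w := by
  let _ : MeasurableSpace M := borel M
  have : BorelSpace M := ⟨rfl⟩
  unfold II
  rw [intT_eq (volK K)]
  refine integral_nonneg fun x => ?_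
  obtain ⟨i, hi⟩ := A.cover x
  have h1 := (TopF.of (bc d) w).fn_eq (volK K) hi
  have h2 : 0 ≤ (volK K).w i x * (TopF.of (bc d) w).fn (volK K) x := by
    rw [← h1]
    exact h i _ ((A.e i).map_source hi)
  exact nonneg_of_mul_nonneg_right h2 ((volK K).pos i x hi)

/-- mixed powers in the basis `bc d` -/
theorem T_mixv {N : ℕ} (e : Fin d ≃ Fin N) (P : RPart (ofAtl A)) (hN : 0 < N)
    (x y : F2 (ofAtl A)) :
    IM (lc d) (bcr e) P (mixv N 1 x y) =
      II (lc d) (bc d) P (fun k => if k = e.symm ⟨0, hN⟩ then y else x) := by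
  rw [IM_apply, II_bcr]
  congr 1
  funext k
  unfold mixv
  have h1 : ((e k : Fin N) : ℕ) < 1 ↔ k = e.symm ⟨0, hN⟩ := by
    rw [Nat.lt_one_iff, ← Equiv.symm_apply_eq, eq_comm, Equiv.symm_symm]
    constructor
    · intro h
      exact Fin.ext h.symm
    · intro h
      rw [h]
  by_cases hk : ((e k : Fin N) : ℕ) < 1
  · rw [if_pos hk, if_pos (h1.1 hk)]
  · rw [if_neg hk, if_neg fun h => hk (h1.2 h)]

section pos

variable [T2Space M] [Countable A.ι] {N : ℕ} (e : Fin d ≃ Fin N) (P : RPart (ofAtl A))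

/-- `0 ≤ ∫ K^(d-1) ∧ G` for `G` semipositive -/
theorem T_nonneg (hd : 2 ≤ d) (K : Kah A) (G : K11 A)
    (hG : ∀ i, ∀ x ∈ (A.e i).source, (G.g i x).PosSemidef) :
    0 ≤ IM (lc d) (bcr e) P (mixv N 1 (ofKah K).f2 G.f2) := by
  have hN : 0 < N := by
    have := Fintype.card_congr e
    simp only [Fintype.card_fin] at this
    omega
  rw [T_mixv e P hN]
  have h1 : (fun k => if k = e.symm ⟨0, hN⟩ then G.f2 else (ofKah K).f2) =
      fun k => ((if k = e.symm ⟨0, hN⟩ then G else ofKah K : K11 A)).f2 := by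
    funext k
    split_ifs <;> rfl
  rw [h1]
  refine II_nonneg K P _ fun i z hz => ?_
  exact TP_one_nonneg hd K G (k := e.symm ⟨0, hN⟩)
    (X := fun k => if k = e.symm ⟨0, hN⟩ then G else ofKah K) (fun j hj => if_neg hj)
    (if_pos rfl) hz (hG i _ ((A.e i).map_target hz))

theorem T_add (K x y : F2 (ofAtl A)) (hN : 0 < N) :
    IM (lc d) (bcr e) P (mixv N 1 K (x + y)) =
      IM (lc d) (bcr e) P (mixv N 1 K x) + IM (lc d) (bcr e) P (mixv N 1 K y) := by
  obtain ⟨k, rfl⟩ : ∃ k, N = k + 1 := ⟨N - 1, by omega⟩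
  rw [Crest.Agent.R281.FujP_513.mixv_one, Crest.Agent.R281.FujP_513.mixv_one,
    Crest.Agent.R281.FujP_513.mixv_one, ← MultilinearMap.curryLeft_apply,
    ← MultilinearMap.curryLeft_apply, ← MultilinearMap.curryLeft_apply, map_add,
    add_apply]

theorem T_smul (K y : F2 (ofAtl A)) (c : ℝ) (hN : 0 < N) :
    IM (lc d) (bcr e) P (mixv N 1 K (c • y)) =
      c * IM (lc d) (bcr e) P (mixv N 1 K y) := by
  obtain ⟨k, rfl⟩ : ∃ k, N = k + 1 := ⟨N - 1, by omega⟩
  rw [Crest.Agent.R281.FujP_513.mixv_one, Crest.Agent.R281.FujP_513.mixv_one,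
    ← MultilinearMap.curryLeft_apply, ← MultilinearMap.curryLeft_apply, map_smul,
    smul_apply, smul_eq_mul]

theorem T_self (K : F2 (ofAtl A)) :
    IM (lc d) (bcr e) P (mixv N 1 K K) = IM (lc d) (bcr e) P (fun _ => K) := by
  congr 1
  funext k
  unfold mixv
  split_ifs <;> rfl

theorem T_ex (K : F2 (ofAtl A)) {x y : F2 (ofAtl A)} (h : x - y ∈ exS (ofAtl A)) :
    IM (lc d) (bcr e) P (mixv N 1 K x) = IM (lc d) (bcr e) P (mixv N 1 K y) := by
  refine IM_coh (lc d) (bcr e) P (ori_ofAtl A) fun k => ?_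
  unfold mixv
  split_ifs
  · exact h
  · rw [sub_self]
    exact (exS _).zero_mem

variable [Nonempty M]

/-- `0 < ∫ K^(d-1) ∧ K'` -/
theorem T_kah_pos (hd : 2 ≤ d) (K K' : Kah A) :
    0 < IM (lc d) (bcr e) P (mixv N 1 (ofKah K).f2 (ofKah K').f2) := by
  have hN : 0 < N := by
    have := Fintype.card_congr e
    simp only [Fintype.card_fin] at this
    omega
  obtain ⟨c, hc, h1⟩ := exists_pos_sub (om := (ofKah K).f2) (Pos_kah K')
  have h2 : T11 (jA A) ((ofKah K').f2 - c • (ofKah K).f2) :=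
    (T11_kah K').sub ((T11_kah K).smul c)
  set w := (ofKah K').f2 - c • (ofKah K).f2 with hw
  set G : K11 A := w.k11 h2 with hG
  have h3 : G.f2 - w ∈ exS (ofAtl A) := mem_exS.2 ⟨0, fun i z hz u v => by
    have h1 : z ∈ (A.e i).target := hz
    have h4 := F2.k11_f2 w h2 hz
    rw [F1.fderiv_zero]
    show G.f2.w i z u v - w.w i z u v = _
    rw [hG, h4]
    simp⟩
  have h4 : ∀ i, ∀ x ∈ (A.e i).source, (G.g i x).PosSemidef := by
    have h5 := (pos_f2 G).1 fun i z hz v hv => by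
      have h4 := F2.k11_f2 w h2 hz
      rw [hG, h4]
      exact h1 i z hz v hv
    exact fun i x hx => (h5 i x hx).posSemidef
  have h5 := T_nonneg e P hd K G h4
  rw [T_ex e P _ h3] at h5
  have h6 : (ofKah K').f2 = w + c • (ofKah K).f2 := by rw [hw]; abel
  rw [h6, T_add e P _ _ _ hN, T_smul e P _ _ _ hN, T_self]
  have h7 := IM_kah_pos e P K
  have h8 : 0 < c * IM (lc d) (bcr e) P (fun _ => (ofKah K).f2) := mul_pos hc h7
  linarith

/-- **`0 ≤ ∫ K^(d-1) ∧ w` for a nef class `w`** -/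
theorem T_nef (hd : 2 ≤ d) (K : Kah A) {om w : F2 (ofAtl A)} (hw : NefC (jA A) om w) :
    0 ≤ IM (lc d) (bcr e) P (mixv N 1 (ofKah K).f2 w) := by
  have hN : 0 < N := by
    have := Fintype.card_congr e
    simp only [Fintype.card_fin] at this
    omega
  set a := IM (lc d) (bcr e) P (mixv N 1 (ofKah K).f2 w) with ha
  set b := IM (lc d) (bcr e) P (mixv N 1 (ofKah K).f2 om) with hb'
  have key : ∀ m : ℕ, 0 < b + m * a := by
    intro m
    obtain ⟨K', h1⟩ := (KCls_jA _).1 (hw m)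
    have h2 := T_kah_pos e P hd K K'
    rw [T_ex e P _ (mem_exS.2 h1), T_add e P _ _ _ hN, T_smul e P _ _ _ hN] at h2
    exact h2
  by_contra hc
  push Not at hc
  obtain ⟨m, hm⟩ := exists_nat_gt (b / (-a))
  have h3 := key m
  rw [div_lt_iff₀ (by linarith)] at hm
  linarith

end pos

section sig

variable [T2Space M] [Countable A.ι] [Nonempty M] {n : ℕ} (e : Fin d ≃ Fin (n + n))
  (P : RPart (ofAtl A)) {q : QuadraticForm ℝ (F2 (ofAtl A))}
  {E11 : Submodule ℝ (F2 (ofAtl A))} {r s : F2 (ofAtl A)}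

/-- **two Kaehler classes**: `polar (K, K') > 0` -/
theorem kah_polar (K K' : Kah A)
    (hS : Sig (IM (lc d) (bcr e) P) q (exS (ofAtl A)) E11 r s (ofKah K).f2) :
    0 < QuadraticMap.polar q (ofKah K).f2 (ofKah K').f2 := by
  have hd : 2 ≤ d := by
    have := Fintype.card_congr e
    simp only [Fintype.card_fin] at this
    have := hS.pos
    omega
  exact hS.polar_pos (T_kah_pos e P hd K K')

/-- **a nef class which is not exact, with `q w ≥ 0`, meets every Kaehler class** -/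
theorem nef_polar (K : Kah A)
    (hS : Sig (IM (lc d) (bcr e) P) q (exS (ofAtl A)) E11 r s (ofKah K).f2)
    {om w : F2 (ofAtl A)} (hw : NefC (jA A) om w) (hr : QuadraticMap.polar q w r = 0)
    (hs : QuadraticMap.polar q w s = 0) (hq : 0 ≤ q w) (hx : ¬ Ex w) :
    0 < QuadraticMap.polar q (ofKah K).f2 w := by
  have hd : 2 ≤ d := by
    have := Fintype.card_congr e
    simp only [Fintype.card_fin] at this
    have := hS.pos
    omega
  have h1 := first_polar' hS.pos hS.symm hS.fuj (ofKah K).f2 w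
  have h2 := T_nef e P hd K hw
  have h3 : 0 ≤ q (ofKah K).f2 ^ (n - 1) * QuadraticMap.polar q (ofKah K).f2 w := by
    rw [← h1]; linarith
  have h4 : 0 ≤ QuadraticMap.polar q (ofKah K).f2 w :=
    nonneg_of_mul_nonneg_right h3 (pow_pos hS.qK _)
  exact lt_of_le_of_ne h4 (Ne.symm (hS.polar_ne hr hs hq hx))

end sig

end

end Crest.Agent.R281.NefNum_137
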