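import Crest.Agent.R281.NefNum1_137
import Crest.Agent.R281.Fuj6_207
import Crest.Agent.R281.Hdg6_850

/-!
# Row 281, NEF-NUM, part 2 (helper137): the numerical data of the nef isotropic class

* `open11`   : openness of Kaehler forms in 207's shape (from 850 `kah_near`)
* `IM_bcr`, `Qf_bcr` : independence of the numbering `e : Fin d ≃ Fin N`
* `Hodge3`   : 850's (h3) as a `Prop`; `sig0` : 207's `Sig` with `Open11`, `hpos` discharged
* `nef_num`  : `NefW`, `NonFlat`, `Q(e,e) = 0` give `¬ Ex e`, `Q(e, Re σ) = Q(e, Im σ) = 0`,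
               `Q(K, e) > 0` for every Kaehler form `K`
-/

set_option autoImplicit false
set_option maxSynthPendingDepth 3
set_option linter.unusedSectionVars false

open Set Filter Topology Complex MeasureTheory
open scoped ContDiff Matrix ComplexConjugate ComplexOrder

namespace Crest.Agent.R281.NefNum_137

open Crest.Agent.R275.Geo Crest.Agent.R275.Core144 Crest.Agent.R275.EDR890
open Crest.Agent.R275.GC293
open Crest.Agent.R273.Kah_333 Crest.Agent.R273.Defs_333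
open Crest.Agent.R281.Defs_273 (H2 HSymp NefW NonFlat)
open Crest.Agent.R281.HkR_835 Crest.Agent.R281.Ti_846
open Crest.Agent.R281.HkP1_508 Crest.Agent.R281.HkP2_508 Crest.Agent.R281.HkP3_508
open Crest.Agent.R281.Nef_252 (jA DDb curK nefC_of_nefW NefC T11_f2)
open Crest.Agent.R281.FujP_513 (Symm mixv)
open Crest.Agent.R281.FujSig_358 (Sig)
open Crest.Agent.R281.Fuj1_207 (Qf qf v1 v2 Qf_apply polar_qf Qf_symm)
open Crest.Agent.R281.Fuj4_207 (IM_symm)
open Crest.Agent.R281.Fuj5_207 (E11 f2_mem reS imS Open11)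

noncomputable section

variable {d : ℕ} {M : Type} [TopologicalSpace M] {A : Atl d M}

/-- **openness of Kaehler forms** -/
theorem open11 [Finite A.ι] (P : Part A) : Open11 A := by
  intro K y hy
  obtain ⟨ε, hε, h⟩ := Hdg_850.kah_near P K (κ := Unit) (fun _ => y) fun _ => hy
  refine ⟨ε, hε, fun t ht0 ht1 => ?_⟩
  obtain ⟨K', -, h1⟩ := h (fun _ => t) fun _ => by rw [abs_of_pos ht0]; exact ht1
  refine ⟨K', fun i z hz u v => ?_⟩
  rw [h1 i z hz]
  simp

section reindex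

variable [CompactSpace M] (RP : RPart (ofAtl A))

/-- the intersection form does not depend on the numbering -/
theorem IM_bcr {N : ℕ} (hN : N = d) (e : Fin d ≃ Fin N) (w : Fin N → F2 (ofAtl A)) :
    IM (lc d) (bcr e) RP w = IM (lc d) (bc d) RP (fun k => w (Fin.cast hN.symm k)) := by
  subst hN
  rw [IM_apply, II_bcr]
  exact IM_perm (lc N) (bc N) RP e w

theorem Qf_bcr {N : ℕ} (hN : N = d) (e : Fin d ≃ Fin N) (hN2 : 2 ≤ N) (hd2 : 2 ≤ d) (ν : ℕ)
    (r x y : F2 (ofAtl A)) :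
    Qf (IM (lc d) (bcr e) RP) hN2 ν r x y = Qf (IM (lc d) (bc d) RP) hd2 ν r x y := by
  rw [Qf_apply, Qf_apply, IM_bcr RP hN, IM_bcr RP hN, IM_bcr RP hN, IM_bcr RP hN]
  rfl

end reindex

section main

variable [T2Space M] [CompactSpace M] [ConnectedSpace M] [Finite A.ι]

/-- 850's (h3): the Hodge index theorem on closed (1,1)-forms -/
def Hodge3 (A : Atl d M) {N : ℕ} (e : Fin d ≃ Fin N) (RP : RPart (ofAtl A)) : Prop :=
  ∀ K : Kah A, ∀ y ∈ E11 A, IM (lc d) (bcr e) RP (mixv N 1 (ofKah K).f2 y) = 0 →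
    IM (lc d) (bcr e) RP (mixv N 2 (ofKah K).f2 y) ≤ 0 ∧
      (IM (lc d) (bcr e) RP (mixv N 2 (ofKah K).f2 y) = 0 → y ∈ exS (ofAtl A))

variable (P : Part A) (σ : HSymp A) (hu : σ.Uniq) (hc : ClH σ.toH2) {n : ℕ} (hn : 1 ≤ n)
  (hn2 : 2 ≤ n + n) (e : Fin d ≃ Fin (n + n)) (RP : RPart (ofAtl A))

include P hu hn in
/-- 207's signature package, only (h3) is left as an input -/
theorem sig0 (h3 : Hodge3 A e RP) (K : Kah A) :
    Sig (IM (lc d) (bcr e) RP) (qf (IM (lc d) (bcr e) RP) hn2 n (reS σ.toH2 hc))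
      (exS (ofAtl A)) (E11 A) (reS σ.toH2 hc) (imS σ.toH2 hc) (ofKah K).f2 :=
  Fuj6_207.sig P σ hu hc hn hn2 (lc d) (bcr e) RP (ori_ofAtl A) (open11 P)
    (fun K => IM_kah_pos e RP K) K (h3 K)

include P hu hn in
/-- **Kaehler classes**: `Q(K, K') > 0` -/
theorem kah_kah (h3 : Hodge3 A e RP) (K K' : Kah A) :
    0 < Qf (IM (lc d) (bcr e) RP) hn2 n (reS σ.toH2 hc) (ofKah K).f2 (ofKah K').f2 := by
  have h1 := kah_polar e RP K K' (sig0 P σ hu hc hn hn2 e RP h3 K)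
  rw [polar_qf (IM_symm _ _ _)] at h1
  linarith

include P hu hn in
/-- **closed (1,1)-forms are orthogonal to `Re σ`, `Im σ`** -/
theorem orth (h3 : Hodge3 A e RP) (K : Kah A) {y : F2 (ofAtl A)} (hy : y ∈ E11 A) :
    Qf (IM (lc d) (bcr e) RP) hn2 n (reS σ.toH2 hc) y (reS σ.toH2 hc) = 0 ∧
      Qf (IM (lc d) (bcr e) RP) hn2 n (reS σ.toH2 hc) y (imS σ.toH2 hc) = 0 := by
  have hS := sig0 P σ hu hc hn hn2 e RP h3 K
  have h1 := hS.r11 y hy
  have h2 := hS.s11 y hy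
  rw [polar_qf (IM_symm _ _ _)] at h1 h2
  rw [Qf_symm (IM_symm _ _ _) _ _ _ y, Qf_symm (IM_symm _ _ _) _ _ _ y]
  constructor <;> linarith

include P hu hn in
/-- **nef classes**: a nef class, not exact, of type (1,1) and with `Q(w,w) ≥ 0` meets every Kaehler
class -/
theorem nef_kah (h3 : Hodge3 A e RP) (K : Kah A) {om w : F2 (ofAtl A)} (h11 : w ∈ E11 A)
    (hw : NefC (jA A) om w)
    (hq : 0 ≤ Qf (IM (lc d) (bcr e) RP) hn2 n (reS σ.toH2 hc) w w) (hx : ¬ Ex w) :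
    0 < Qf (IM (lc d) (bcr e) RP) hn2 n (reS σ.toH2 hc) (ofKah K).f2 w := by
  obtain ⟨h1, h2⟩ := orth P σ hu hc hn hn2 e RP h3 K h11
  have h4 := nef_polar e RP K (sig0 P σ hu hc hn hn2 e RP h3 K) hw
    (by rw [polar_qf (IM_symm _ _ _), h1, mul_zero])
    (by rw [polar_qf (IM_symm _ _ _), h2, mul_zero]) hq hx
  rw [polar_qf (IM_symm _ _ _)] at h4
  linarith

include P hu hn in
/-- **NEF-NUM** -/
theorem nef_num (h3 : Hodge3 A e RP) (hd : DDb (jA A)) {K0 : Kah A} {L : LB A}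
    (hnef : NefW K0 L) (hnf : NonFlat L) (h : HM L)
    (hiso : Qf (IM (lc d) (bcr e) RP) hn2 n (reS σ.toH2 hc) (curK h).f2 (curK h).f2 = 0) :
    ¬ Ex (curK h).f2 ∧
      Qf (IM (lc d) (bcr e) RP) hn2 n (reS σ.toH2 hc) (curK h).f2 (reS σ.toH2 hc) = 0 ∧
      Qf (IM (lc d) (bcr e) RP) hn2 n (reS σ.toH2 hc) (curK h).f2 (imS σ.toH2 hc) = 0 ∧
      ∀ K : Kah A,
        0 < Qf (IM (lc d) (bcr e) RP) hn2 n (reS σ.toH2 hc) (ofKah K).f2 (curK h).f2 := by
  have hx := not_ex hd hnf h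
  obtain ⟨h1, h2⟩ := orth P σ hu hc hn hn2 e RP h3 K0 (f2_mem (curK h))
  exact ⟨hx, h1, h2, fun K => nef_kah P σ hu hc hn hn2 e RP h3 K (f2_mem (curK h))
    (nefC_of_nefW K0 hnef h) hiso.ge hx⟩

end main

end

end Crest.Agent.R281.NefNum_137
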