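import Crest.Agent.R281.AlgDefs_998
import Crest.Agent.R281.Nef3_252
import Crest.Agent.R281.Iso2_139

/-!
# Row 281, NEF-RAY (G19), part 1 (helper326): Kaehler cones along families with constant period

* `nefC_of_freq` : `KCls J om` and `KCls J (om + t w)` for arbitrarily large `t` ==> `NefC J om w`
* `IsoHk C`      : the literal output of HK-ISO (139) for smooth families `ℝ → HkT C`
* `kcls_fam`     : the Kaehler class of `K t` is a Kaehler class for `K s`
* `nefC_fam`     : NEF from a family whose Kaehler classes grow in the direction `w`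
-/

set_option autoImplicit false
set_option maxSynthPendingDepth 3
set_option linter.unusedSectionVars false

open Set Filter Topology
open scoped ContDiff

namespace Crest.Agent.R281.NefRay_326

open Crest.Agent.R281.HkR_835 Crest.Agent.R281.Ti_846 Crest.Agent.R281.Cdr_234
open Crest.Agent.R281.NefO_476 Crest.Agent.R281.Nef_252 Crest.Agent.R281.Dif_268
open Crest.Agent.R281.Alg_998

noncomputable section

variable {V X : Type} [NormedAddCommGroup V] [NormedSpace ℝ V] [TopologicalSpace X]
  {C : RCh V X}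

/-! ### the cone lemma -/

/-- nefness from arbitrarily large Kaehler classes -/
theorem nefC_of_freq {J : AJ C} {om w : F2 C} (h0 : KCls J om)
    (h : ∀ T : ℝ, ∃ t : ℝ, T ≤ t ∧ KCls J (om + t • w)) : NefC J om w := by
  intro N
  obtain ⟨t, ht, hk⟩ := h ((N : ℝ) + 1)
  have hN : (0 : ℝ) ≤ N := Nat.cast_nonneg N
  have ht0 : 0 < t := by linarith
  rcases Nat.eq_zero_or_pos N with rfl | hNp
  · have e : om + ((0 : ℕ) : ℝ) • w = om := by rw [Nat.cast_zero, zero_smul, add_zero]
    rwa [e]
  · have hNp' : (0 : ℝ) < N := Nat.cast_pos.2 hNp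
    have h1 := h0.smul (a := 1 - N / t) (by
      rw [sub_pos, div_lt_one ht0]; linarith)
    have h2 := hk.smul (a := N / t) (by positivity)
    have h3 := h1.add h2
    have e : (1 - N / t) • om + (N / t) • (om + t • w) = om + (N : ℝ) • w := by
      rw [smul_add, smul_smul, div_mul_cancel₀ _ ht0.ne', ← add_assoc, ← add_smul,
        sub_add_cancel, one_smul]
    rwa [e] at h3

/-! ### families with constant period -/

/-- **HK-ISO**, literal output: a smooth family of hyperkaehler structures with constant classes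
of `om 1`, `om 2` is isotopic to a family with fixed complex structure `J 0` -/
def IsoHk (C : RCh V X) : Prop :=
  ∀ K : ℝ → HkT C, SmH K → (∀ s t, Cl ((K s).om 1) ((K t).om 1)) →
    (∀ s t, Cl ((K s).om 2) ((K t).om 2)) →
    ∀ s t, ∃ g k : SMap C C, Bi g k ∧ HolM g (ofHk (K s) 0) (ofHk (K t) 0) ∧
      ∀ w : F2 C, Ex (g.pull w - w)

/-- transport of Kaehler classes by a map which acts trivially on the classes -/
theorem kcls_transport {J J' : AJ C} {g k : SMap C C} (hb : Bi g k) (hg : HolM g J' J)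
    (ht : ∀ w : F2 C, Ex (g.pull w - w)) {w : F2 C} : KCls J w ↔ KCls J' w := by
  rw [KCls_iff_pull hb hg]
  refine ⟨fun h => h.congr (ht w), fun h => h.congr ?_⟩
  have := ex_neg (ht w)
  rwa [neg_sub] at this

theorem nefC_transport {J J' : AJ C} {g k : SMap C C} (hb : Bi g k) (hg : HolM g J' J)
    (ht : ∀ w : F2 C, Ex (g.pull w - w)) {om w : F2 C} : NefC J om w ↔ NefC J' om w :=
  forall_congr' fun _ => kcls_transport hb hg ht

theorem kcls_hk (H : HkT C) (k : Fin 3) : KCls (ofHk H k) (H.om k) :=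
  KCls.of (T11_hk H k) (Pos_hk H k)

section fam

variable {K : ℝ → HkT C}

/-- the Kaehler classes of all members agree -/
theorem kcls_fam_iff (hiso : IsoHk C) (hK : SmH K) (h1 : ∀ s t, Cl ((K s).om 1) ((K t).om 1))
    (h2 : ∀ s t, Cl ((K s).om 2) ((K t).om 2)) (s t : ℝ) (w : F2 C) :
    KCls (ofHk (K s) 0) w ↔ KCls (ofHk (K t) 0) w := by
  obtain ⟨g, k, hb, hg, ht⟩ := hiso K hK h1 h2 s t
  exact (kcls_transport hb hg ht).symm

/-- the Kaehler class of `K t` is a Kaehler class for `K s` -/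
theorem kcls_fam (hiso : IsoHk C) (hK : SmH K) (h1 : ∀ s t, Cl ((K s).om 1) ((K t).om 1))
    (h2 : ∀ s t, Cl ((K s).om 2) ((K t).om 2)) (s t : ℝ) :
    KCls (ofHk (K s) 0) ((K t).om 0) :=
  (kcls_fam_iff hiso hK h1 h2 s t _).2 (kcls_hk (K t) 0)

/-- **NEF from a family**: `[om 0 (t)] = c ([om 0 (s)] + r w)` with `r` arbitrarily large -/
theorem nefC_fam (hiso : IsoHk C) (hK : SmH K) (h1 : ∀ s t, Cl ((K s).om 1) ((K t).om 1))
    (h2 : ∀ s t, Cl ((K s).om 2) ((K t).om 2)) {w : F2 C} (s : ℝ)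
    (h : ∀ T : ℝ, ∃ t c r : ℝ, T ≤ r ∧ 0 < c ∧ Cl ((K t).om 0) (c • ((K s).om 0 + r • w))) :
    NefC (ofHk (K s) 0) ((K s).om 0) w := by
  refine nefC_of_freq (kcls_hk (K s) 0) fun T => ?_
  obtain ⟨t, c, r, hr, hc, hcl⟩ := h T
  exact ⟨r, hr, (KCls.smul_iff hc).1 ((kcls_fam hiso hK h1 h2 s t).congr hcl)⟩

end fam

end

end Crest.Agent.R281.NefRay_326
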