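import Crest.Agent.R281.NefRay1_326

/-!
# Row 281, NEF-RAY (G19), part 2 (helper326): the rotated structure of a member of the end

* `Rz z`, `fr_Rz` : the frame `(0, cos, sin), (0, -sin, cos), (1, 0, 0)`, `z = |z| (cos + i sin)`
* `rI H z hz`     : the rotated triple; `rI_om0`, `rI_om1`, `rI_om2`
* `SmH.rI`        : joint smoothness
* `QHk Q`         : what is used of the Fujiki form `Q`
* `zS Q F H`      : the scalar `z` of `AtTau`; `AtTau.rI_cl` : the classes of the rotated triple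
* `norm_z`        : `|z| Im τ` only depends on `Q A A`, `N`
-/

set_option autoImplicit false
set_option maxSynthPendingDepth 3
set_option linter.unusedSectionVars false

open Set Filter Topology
open scoped ContDiff

namespace Crest.Agent.R281.NefRay_326

open Crest.Agent.R281.HkR_835 Crest.Agent.R281.Ti_846 Crest.Agent.R281.Cdr_234
open Crest.Agent.R281.NefO_476 Crest.Agent.R281.Nef_252 Crest.Agent.R281.Dif_268
open Crest.Agent.R281.Alg_998 Crest.Agent.R281.Iso_139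

noncomputable section

variable {V X : Type} [NormedAddCommGroup V] [NormedSpace ℝ V] [TopologicalSpace X]
  {C : RCh V X}

/-! ### the frame -/

/-- the frame which turns `(om 0, om 1, om 2)` into the triple with Kaehler class `Re σ` -/
def Rz (z : ℂ) : Fin 3 → Fin 3 → ℝ :=
  ![![0, z.re / ‖z‖, z.im / ‖z‖], ![0, -(z.im / ‖z‖), z.re / ‖z‖], ![1, 0, 0]]

theorem nz2 {z : ℂ} (hz : z ≠ 0) :
    z.re / ‖z‖ * (z.re / ‖z‖) + z.im / ‖z‖ * (z.im / ‖z‖) = 1 := by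
  have h1 : 0 < ‖z‖ := norm_pos_iff.2 hz
  have h2 : ‖z‖ ^ 2 = z.re * z.re + z.im * z.im := by
    rw [← Complex.normSq_eq_norm_sq, Complex.normSq_apply]
  field_simp
  nlinarith [h2]

theorem fr_Rz {z : ℂ} (hz : z ≠ 0) : HkT.Fr (Rz z) := by
  have h := nz2 hz
  refine ⟨fun k => ?_, ?_, ?_⟩
  · fin_cases k
    · simp only [Rz, Fin.zero_eta, Matrix.cons_val_zero, Matrix.cons_val_one, Matrix.cons_val]
      linarith
    · simp only [Rz, Fin.mk_one, Matrix.cons_val_zero, Matrix.cons_val_one, Matrix.cons_val]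
      linarith
    · simp [Rz]
  · simp only [Rz, Matrix.cons_val_zero, Matrix.cons_val_one, Matrix.cons_val]
    ring
  · funext k
    fin_cases k
    · simp only [Rz, Fin.zero_eta, Matrix.cons_val_zero, Matrix.cons_val_one, Matrix.cons_val]
      linarith
    · simp [Rz]
    · simp [Rz]

/-- the rotated triple: Kaehler form `om'_0 ∼ |z| Re σ`, `om'_1 ∼ |z| Im σ`, `om'_2 = om_0` -/
def rI (H : HkT C) (z : ℂ) (hz : z ≠ 0) : HkT C := H.rot (Rz z) (fr_Rz hz)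

theorem rI_om0 (H : HkT C) {z : ℂ} (hz : z ≠ 0) :
    (rI H z hz).om 0 = (z.re / ‖z‖) • H.om 1 + (z.im / ‖z‖) • H.om 2 := by
  show F2.lin (Rz z 0) H.om = _
  rw [F2.lin_eq, Fin.sum_univ_three]
  simp [Rz]

theorem rI_om1 (H : HkT C) {z : ℂ} (hz : z ≠ 0) :
    (rI H z hz).om 1 = -(z.im / ‖z‖) • H.om 1 + (z.re / ‖z‖) • H.om 2 := by
  show F2.lin (Rz z 1) H.om = _
  rw [F2.lin_eq, Fin.sum_univ_three]
  simp [Rz]

theorem rI_om2 (H : HkT C) {z : ℂ} (hz : z ≠ 0) : (rI H z hz).om 2 = H.om 0 := by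
  show F2.lin (Rz z 2) H.om = _
  rw [F2.lin_eq, Fin.sum_univ_three]
  simp [Rz]

/-- equality on the targets is kept by rotations -/
theorem HEqv_rot {H H' : HkT C} (h : HEqv H H') (R : Fin 3 → Fin 3 → ℝ) (hR : HkT.Fr R) :
    HEqv (H.rot R hR) (H'.rot R hR) := by
  refine ⟨fun k i z hz => ?_, fun k i z hz => ?_, h.g⟩
  · show ∑ l, R k l • (H.om l).w i z = ∑ l, R k l • (H'.om l).w i z
    exact Finset.sum_congr rfl fun l _ => by rw [h.om l i z hz]
  · show ∑ l, R k l • H.J l i z = ∑ l, R k l • H'.J l i z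
    exact Finset.sum_congr rfl fun l _ => by rw [h.J l i z hz]

/-- joint smoothness of a rotated family -/
theorem smH_rot {K : ℝ → HkT C} (hK : SmH K) {R : ℝ → Fin 3 → Fin 3 → ℝ}
    (hR : ∀ t, HkT.Fr (R t)) (hs : ∀ k l, ContDiff ℝ ∞ fun t => R t k l) :
    SmH fun t => (K t).rot (R t) (hR t) := by
  have hc : ∀ k l (s : Set (ℝ × V)), ContDiffOn ℝ ∞ (fun p : ℝ × V => R p.1 k l) s :=
    fun k l s => ((hs k l).comp contDiff_fst).contDiffOn
  refine ⟨fun k i => ?_, fun k i => ?_, fun i => ?_⟩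
  · show ContDiffOn ℝ ∞ (fun p : ℝ × V => ∑ l, R p.1 k l • ((K p.1).om l).w i p.2) _
    exact ContDiffOn.sum fun l _ => (hc k l _).smul (hK.om l i)
  · show ContDiffOn ℝ ∞ (fun p : ℝ × V => ∑ l, R p.1 k l • (K p.1).J l i p.2) _
    exact ContDiffOn.sum fun l _ => (hc k l _).smul (hK.J l i)
  · exact hK.g i

theorem Rz_sm {a : ℝ → ℂ} (ha : ContDiff ℝ ∞ a) (h0 : ∀ t, a t ≠ 0) (k l : Fin 3) :
    ContDiff ℝ ∞ fun t => Rz (a t) k l := by
  have hn : ContDiff ℝ ∞ fun t => ‖a t‖ := ha.norm ℝ h0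
  have hre : ContDiff ℝ ∞ fun t => (a t).re / ‖a t‖ :=
    (Complex.reCLM.contDiff.comp ha).div hn fun t => norm_ne_zero_iff.2 (h0 t)
  have him : ContDiff ℝ ∞ fun t => (a t).im / ‖a t‖ :=
    (Complex.imCLM.contDiff.comp ha).div hn fun t => norm_ne_zero_iff.2 (h0 t)
  fin_cases k <;> fin_cases l
  · exact contDiff_const
  · exact hre
  · exact him
  · exact contDiff_const
  · exact him.neg
  · exact hre
  · exact contDiff_const
  · exact contDiff_const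
  · exact contDiff_const

theorem smH_rI {K : ℝ → HkT C} (hK : SmH K) {a : ℝ → ℂ} (ha : ContDiff ℝ ∞ a)
    (h0 : ∀ t, a t ≠ 0) : SmH fun t => rI (K t) (a t) (h0 t) :=
  smH_rot hK (fun t => fr_Rz (h0 t)) (Rz_sm ha h0)

/-- Kaehler classes only depend on the values of `J` on the targets -/
theorem kcls_congrJ {J J' : AJ C} (h : ∀ i, ∀ z ∈ (C.e i).target, J.J i z = J'.J i z) {w : F2 C} :
    KCls J w ↔ KCls J' w := by
  constructor
  · rintro ⟨w', h1, h2, h3⟩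
    exact ⟨w', h1, fun i z hz u v => by rw [← h i z hz]; exact h2 i z hz u v,
      fun i z hz v hv => by rw [← h i z hz]; exact h3 i z hz v hv⟩
  · rintro ⟨w', h1, h2, h3⟩
    exact ⟨w', h1, fun i z hz u v => by rw [h i z hz]; exact h2 i z hz u v,
      fun i z hz v hv => by rw [h i z hz]; exact h3 i z hz v hv⟩

theorem kcls_HEqv {H H' : HkT C} (h : HEqv H H') (k : Fin 3) {w : F2 C} :
    KCls (ofHk H k) w ↔ KCls (ofHk H' k) w := kcls_congrJ fun i z hz => h.J k i z hz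

/-! ### the Fujiki form -/

variable {Q : F2 C →ₗ[ℝ] F2 C →ₗ[ℝ] ℝ}

/-- what is used of the Fujiki form -/
structure QHk (Q : F2 C →ₗ[ℝ] F2 C →ₗ[ℝ] ℝ) : Prop where
  symm : ∀ x y, Q x y = Q y x
  ex : ∀ x y, Ex x → Q x y = 0
  hk : ∀ (H : HkT C) (k l : Fin 3), Q (H.om k) (H.om k) = Q (H.om l) (H.om l)
  sm : ∀ w : ℝ → F2 C, JS2 w → ∀ u, ContDiff ℝ ∞ fun t => Q (w t) u

theorem QHk.cl (hQ : QHk Q) {x x' : F2 C} (h : Cl x x') (y : F2 C) : Q x y = Q x' y := by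
  have h1 := hQ.ex _ y h
  rw [map_sub, LinearMap.sub_apply, sub_eq_zero] at h1
  exact h1

theorem QHk.cl2 (hQ : QHk Q) {x x' y y' : F2 C} (h : Cl x x') (h' : Cl y y') :
    Q x y = Q x' y' := by
  rw [hQ.cl h y, hQ.symm x' y, hQ.cl h' x', hQ.symm]

variable {F : Frm C Q} {A : F2 C}

theorem v_e (hQ : QHk Q) : Q F.v F.e = 0 := by rw [hQ.symm, F.e_v]

theorem sre_e (hQ : QHk Q) (τ : ℂ) : Q (F.sre τ) F.e = 1 := by
  unfold Frm.sre
  simp only [map_sub, map_add, map_smul, LinearMap.sub_apply, LinearMap.add_apply,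
    LinearMap.smul_apply, F.es_e, v_e hQ, F.e_e, smul_eq_mul]
  ring

theorem sim_e (hQ : QHk Q) (τ : ℂ) : Q (F.sim τ) F.e = 0 := by
  unfold Frm.sim
  simp only [map_sub, map_smul, LinearMap.sub_apply, LinearMap.smul_apply, v_e hQ, F.e_e,
    smul_eq_mul]
  ring

theorem sim_sim (hQ : QHk Q) (τ : ℂ) : Q (F.sim τ) (F.sim τ) = F.N * τ.im ^ 2 := by
  unfold Frm.sim
  simp only [map_sub, map_smul, LinearMap.sub_apply, LinearMap.smul_apply, v_e hQ, F.e_e,
    F.e_v, F.v_v, smul_eq_mul]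
  ring

/-- `Im σ_τ = Im τ (v - N Re τ e)` -/
theorem sim_eq (τ : ℂ) : F.sim τ = τ.im • (F.v - (F.N * τ.re) • F.e) := by
  unfold Frm.sim
  rw [smul_sub, smul_smul]
  congr 2
  ring

/-- `Re σ` along a vertical ray -/
theorem sre_ray (x y y' : ℝ) :
    F.sre ⟨x, y'⟩ = F.sre ⟨x, y⟩ + (F.N / 2 * (y' ^ 2 - y ^ 2)) • F.e := by
  unfold Frm.sre
  simp only
  module

/-- the scalar of `AtTau` -/
def zS (Q : F2 C →ₗ[ℝ] F2 C →ₗ[ℝ] ℝ) (F : Frm C Q) (H : HkT C) : ℂ :=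
  ⟨Q (H.om 1) F.e, Q (H.om 2) F.e⟩

/-- the two equations for the scalar -/
structure Sc (F : Frm C Q) (H : HkT C) (τ z : ℂ) : Prop where
  nz : z ≠ 0
  c1 : Cl (H.om 1) (z.re • F.sre τ - z.im • F.sim τ)
  c2 : Cl (H.om 2) (z.im • F.sre τ + z.re • F.sim τ)

theorem Sc.eq_zS (hQ : QHk Q) {H : HkT C} {τ z : ℂ} (h : Sc F H τ z) : z = zS Q F H := by
  have h1 := hQ.cl h.c1 F.e
  have h2 := hQ.cl h.c2 F.e
  simp only [map_sub, map_add, map_smul, LinearMap.sub_apply, LinearMap.add_apply,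
    LinearMap.smul_apply, sre_e hQ, sim_e hQ, smul_eq_mul, mul_one, mul_zero, sub_zero,
    add_zero] at h1 h2
  apply Complex.ext
  · exact h1.symm
  · exact h2.symm

theorem sc_of_at (hQ : QHk Q) {H : HkT C} {τ : ℂ} (h : AtTau F A H τ) : Sc F H τ (zS Q F H) := by
  obtain ⟨z, hz, h1, h2⟩ := h.om12
  have h3 : Sc F H τ z := ⟨hz, h1, h2⟩
  have h4 := h3.eq_zS hQ
  rwa [← h4]

theorem cl_of_eq {x y : F2 C} (h : x = y) : Cl x y := h ▸ Cl.refl x

theorem norm_sq' (z : ℂ) : ‖z‖ * ‖z‖ = z.re * z.re + z.im * z.im := by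
  rw [← sq, ← Complex.normSq_eq_norm_sq, Complex.normSq_apply]

section classes

variable {H : HkT C} {τ z : ℂ}

/-- the Kaehler class of the rotated structure -/
theorem Sc.cl0 (h : Sc F H τ z) : Cl ((rI H z h.nz).om 0) (‖z‖ • F.sre τ) := by
  rw [rI_om0]
  refine ((h.c1.smul (z.re / ‖z‖)).add (h.c2.smul (z.im / ‖z‖))).trans (cl_of_eq ?_)
  have hn : ‖z‖ ≠ 0 := norm_ne_zero_iff.2 h.nz
  have e1 : z.re / ‖z‖ * z.re + z.im / ‖z‖ * z.im = ‖z‖ := by
    have := norm_sq' z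
    field_simp
    nlinarith [this]
  have e2 : z.re / ‖z‖ * z.im = z.im / ‖z‖ * z.re := by ring
  rw [smul_sub, smul_add, smul_smul, smul_smul, smul_smul, smul_smul, ← e2]
  have : ‖z‖ • F.sre τ = (z.re / ‖z‖ * z.re + z.im / ‖z‖ * z.im) • F.sre τ := by rw [e1]
  rw [this, add_smul]
  abel

/-- the class of `om'_1` -/
theorem Sc.cl1 (h : Sc F H τ z) : Cl ((rI H z h.nz).om 1) (‖z‖ • F.sim τ) := by
  rw [rI_om1]
  refine ((h.c1.smul (-(z.im / ‖z‖))).add (h.c2.smul (z.re / ‖z‖))).trans (cl_of_eq ?_)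
  have hn : ‖z‖ ≠ 0 := norm_ne_zero_iff.2 h.nz
  have e1 : z.im / ‖z‖ * z.im + z.re / ‖z‖ * z.re = ‖z‖ := by
    have := norm_sq' z
    field_simp
    nlinarith [this]
  have : ‖z‖ • F.sim τ = (z.im / ‖z‖ * z.im + z.re / ‖z‖ * z.re) • F.sim τ := by rw [e1]
  rw [this]
  module

theorem cl2 (h : z ≠ 0) (hA : Cl (H.om 0) A) : Cl ((rI H z h).om 2) A := by
  rw [rI_om2]
  exact hA

/-- the size of the scalar -/
theorem Sc.norm_z (hQ : QHk Q) (h : Sc F H τ z) (hA : Cl (H.om 0) A) (hτ : 0 < τ.im) :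
    ‖z‖ * τ.im = Real.sqrt (Q A A / F.N) := by
  have h1 := hQ.hk (rI H z h.nz) 1 2
  rw [hQ.cl2 h.cl1 h.cl1, hQ.cl2 (cl2 h.nz hA) (cl2 h.nz hA)] at h1
  simp only [map_smul, LinearMap.smul_apply, smul_eq_mul, sim_sim hQ] at h1
  have h2 : Q A A / F.N = (‖z‖ * τ.im) ^ 2 := by
    rw [← h1]
    have := F.hN.ne'
    field_simp
  rw [h2, Real.sqrt_sq (by positivity)]

/-- the class of `om'_1` only depends on `Re τ` -/
theorem Sc.cl1' (hQ : QHk Q) (h : Sc F H τ z) (hA : Cl (H.om 0) A) (hτ : 0 < τ.im) :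
    Cl ((rI H z h.nz).om 1)
      (Real.sqrt (Q A A / F.N) • (F.v - (F.N * τ.re) • F.e)) := by
  refine h.cl1.trans (cl_of_eq ?_)
  rw [sim_eq, smul_smul, h.norm_z hQ hA hτ]

end classes

/-- smoothness of the scalar along a jointly smooth family -/
theorem zS_sm (hQ : QHk Q) {K : ℝ → HkT C} (hK : SmH K) :
    ContDiff ℝ ∞ fun t => zS Q F (K t) := by
  have h1 : ContDiff ℝ ∞ fun t => Q ((K t).om 1) F.e := 
    hQ.sm (fun t => (K t).om 1) (fun i => hK.om 1 i) F.e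
  have h2 : ContDiff ℝ ∞ fun t => Q ((K t).om 2) F.e := 
    hQ.sm (fun t => (K t).om 2) (fun i => hK.om 2 i) F.e
  have h3 : (fun t => zS Q F (K t)) = fun t =>
      ((Q ((K t).om 1) F.e : ℝ) : ℂ) + ((Q ((K t).om 2) F.e : ℝ) : ℂ) * Complex.I := by
    funext t
    exact (Complex.re_add_im (zS Q F (K t))).symm
  rw [h3]
  exact (Complex.ofRealCLM.contDiff.comp h1).add
    ((Complex.ofRealCLM.contDiff.comp h2).mul contDiff_const)

end

end Crest.Agent.R281.NefRay_326
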