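import Crest.Agent.R281.NefRay2_326

/-!
# Row 281, NEF-RAY (G19), part 3 (helper326): the ray of a marked end

`K : Cusp F A`, `K.Mem τ H`, `h : Sc F H τ z` (`z` = the scalar of `AtTau.om12`),
`I'_x` = `ofHk (rI H z h.nz) 0`, Kaehler class `|z| Re σ_τ`.

* `exists_ray`  : the rotated family over the ray `x + i y'`, `y' > K.Y`: jointly smooth, constant
                  classes of `om 1`, `om 2`, Kaehler class `c Re σ_(x + i y')`
* `ray_iso`     : any two heights are isotopic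
* `kcls_ray`    : `Re σ_(x + i y')` is a Kaehler class of `I'_x` for every `y' > K.Y`
* `nef_ray`     : **`e` is nef for `I'_x`**; `nef_ray_any` for every Kaehler form
-/

set_option autoImplicit false
set_option maxSynthPendingDepth 3
set_option linter.unusedSectionVars false

open Set Filter Topology
open scoped ContDiff

namespace Crest.Agent.R281.NefRay_326

open Crest.Agent.R281.HkR_835 Crest.Agent.R281.Ti_846 Crest.Agent.R281.Cdr_234
open Crest.Agent.R281.NefO_476 Crest.Agent.R281.Nef_252 Crest.Agent.R281.Dif_268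
open Crest.Agent.R281.Alg_998 Crest.Agent.R281.Iso_139

noncomputable section

variable {V X : Type} [NormedAddCommGroup V] [NormedSpace ℝ V] [TopologicalSpace X]
  {C : RCh V X} {Q : F2 C →ₗ[ℝ] F2 C →ₗ[ℝ] ℝ} {F : Frm C Q} {A : F2 C}

/-- heights on the ray -/
def hgt (Y y t : ℝ) : ℝ := Y + (y - Y) * Real.exp t

theorem hgt_zero (Y y : ℝ) : hgt Y y 0 = y := by simp [hgt]

theorem hgt_gt {Y y : ℝ} (h : Y < y) (t : ℝ) : Y < hgt Y y t := by
  have : 0 < (y - Y) * Real.exp t := mul_pos (by linarith) (Real.exp_pos t)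
  unfold hgt
  linarith

theorem hgt_sm (Y y : ℝ) : ContDiff ℝ ∞ (hgt Y y) :=
  contDiff_const.add (contDiff_const.mul Real.contDiff_exp)

theorem exists_hgt {Y y y' : ℝ} (h : Y < y) (h' : Y < y') : ∃ t, hgt Y y t = y' := by
  refine ⟨Real.log ((y' - Y) / (y - Y)), ?_⟩
  unfold hgt
  rw [Real.exp_log (div_pos (by linarith) (by linarith)), mul_div_cancel₀ _ (by linarith)]
  ring

/-- the vertical path -/
def vp (x Y y t : ℝ) : ℂ := ⟨x, hgt Y y t⟩

theorem vp_sm (x Y y : ℝ) : ContDiff ℝ ∞ (vp x Y y) := by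
  have h3 : (vp x Y y) = fun t => (x : ℂ) + ((hgt Y y t : ℝ) : ℂ) * Complex.I := by
    funext t
    exact (Complex.re_add_im (vp x Y y t)).symm
  rw [h3]
  exact contDiff_const.add ((Complex.ofRealCLM.contDiff.comp (hgt_sm Y y)).mul contDiff_const)

/-- a rotated family over the ray `x + i y'`, `y' > Y`: height `hgt Y y t` at time `t` -/
structure RayFam (F : Frm C Q) (A : F2 C) (x Y y : ℝ) (L : ℝ → HkT C) : Prop where
  sm : SmH L
  cl0 : ∀ t, ∃ c : ℝ, 0 < c ∧ Cl ((L t).om 0) (c • F.sre ⟨x, hgt Y y t⟩)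
  cl1 : ∀ t, Cl ((L t).om 1) (Real.sqrt (Q A A / F.N) • (F.v - (F.N * x) • F.e))
  cl2 : ∀ t, Cl ((L t).om 2) A

/-- **the rotated family over the ray** through a member of the end; `M t` is the member itself -/
theorem exists_ray (hQ : QHk Q) (K : Cusp F A) {τ z : ℂ} {H : HkT C} (hM : K.Mem τ H)
    (h : Sc F H τ z) : ∃ (M L : ℝ → HkT C), SmH M ∧ HEqv (M 0) H ∧
      (∀ t, K.Mem ⟨τ.re, hgt K.Y τ.im t⟩ (M t)) ∧
      (∀ t, ∃ (a : ℂ) (ha : Sc F (M t) ⟨τ.re, hgt K.Y τ.im t⟩ a), L t = rI (M t) a ha.nz) ∧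
      HEqv (L 0) (rI H z h.nz) ∧ RayFam F A τ.re K.Y τ.im L := by
  have hY : K.Y < τ.im := K.mem_im _ _ hM
  obtain ⟨M, hsm, h0, hmem⟩ := K.lift τ H hM (vp τ.re K.Y τ.im) (vp_sm _ _ _)
    (fun t => hgt_gt hY t) (by
      apply Complex.ext
      · rfl
      · exact hgt_zero _ _)
  have hsc : ∀ t, Sc F (M t) ⟨τ.re, hgt K.Y τ.im t⟩ (zS Q F (M t)) := fun t =>
    sc_of_at hQ (K.mem_at _ _ (hmem t))
  have hat : ∀ t, AtTau F A (M t) ⟨τ.re, hgt K.Y τ.im t⟩ := fun t => K.mem_at _ _ (hmem t)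
  refine ⟨M, fun t => rI (M t) (zS Q F (M t)) (hsc t).nz, hsm, h0, hmem,
    fun t => ⟨_, hsc t, rfl⟩, ?_, ?_⟩
  · have e1 : zS Q F (M 0) = z := by
      have e2 := h.eq_zS hQ
      rw [e2]
      have hc : ∀ k, Cl ((M 0).om k) (H.om k) := fun k =>
        Cl.of_eq_on fun i y hy => h0.om k i y hy
      apply Complex.ext
      · exact hQ.cl (hc 1) F.e
      · exact hQ.cl (hc 2) F.e
    have e3 : ∀ (a : ℂ) (ha : a ≠ 0), a = z → HEqv (rI (M 0) a ha) (rI H z h.nz) := by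
      rintro a ha rfl
      exact HEqv_rot h0 _ _
    exact e3 _ _ e1
  · refine ⟨smH_rI hsm (zS_sm hQ hsm) fun t => (hsc t).nz, fun t => ?_, fun t => ?_, fun t => ?_⟩
    · exact ⟨_, norm_pos_iff.2 (hsc t).nz, (hsc t).cl0⟩
    · exact (hsc t).cl1' hQ (hat t).om0 (hat t).im_pos
    · exact cl2 (hsc t).nz (hat t).om0

namespace RayFam

variable {x Y y : ℝ} {L : ℝ → HkT C}

theorem const1 (h : RayFam F A x Y y L) (s t : ℝ) : Cl ((L s).om 1) ((L t).om 1) :=
  (h.cl1 s).trans (h.cl1 t).symm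

theorem const2 (h : RayFam F A x Y y L) (s t : ℝ) : Cl ((L s).om 2) ((L t).om 2) :=
  (h.cl2 s).trans (h.cl2 t).symm

/-- any two heights are isotopic -/
theorem iso (hiso : IsoHk C) (h : RayFam F A x Y y L) (s t : ℝ) :
    ∃ g k : SMap C C, Bi g k ∧ HolM g (ofHk (L s) 0) (ofHk (L t) 0) ∧
      ∀ w : F2 C, Ex (g.pull w - w) :=
  hiso L h.sm h.const1 h.const2 s t

/-- the Kaehler classes of all heights -/
theorem kcls (hiso : IsoHk C) (h : RayFam F A x Y y L) (hY : Y < y) (s : ℝ) {y' : ℝ}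
    (hy' : Y < y') : KCls (ofHk (L s) 0) (F.sre ⟨x, y'⟩) := by
  obtain ⟨t, rfl⟩ := exists_hgt hY hy'
  obtain ⟨c, hc, hcl⟩ := h.cl0 t
  exact (KCls.smul_iff hc).1 ((kcls_fam hiso h.sm h.const1 h.const2 s t).congr hcl)

/-- **nefness along the ray** -/
theorem nef (hiso : IsoHk C) (h : RayFam F A x Y y L) (hY : Y < y) (s : ℝ) :
    NefC (ofHk (L s) 0) ((L s).om 0) F.e := by
  obtain ⟨c, hc, hcl⟩ := h.cl0 s
  refine nefC_fam hiso h.sm h.const1 h.const2 s fun T => ?_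
  have hN := F.hN
  set y₀ := hgt Y y s with hy₀
  have hy₀Y : Y < y₀ := hgt_gt hY s
  set m : ℝ := 2 * |T / c| / F.N + 1 with hm
  have hm1 : 1 ≤ m := by
    have : 0 ≤ 2 * |T / c| / F.N := by positivity
    linarith
  obtain ⟨t, ht⟩ := exists_hgt (y' := |y₀| + m) hY (by
    have := le_abs_self y₀
    linarith)
  obtain ⟨c', hc', hcl'⟩ := h.cl0 t
  rw [ht, sre_ray x y₀ (|y₀| + m)] at hcl'
  set R : ℝ := F.N / 2 * ((|y₀| + m) ^ 2 - y₀ ^ 2) with hR
  have hR1 : |T / c| ≤ R := by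
    have e1 : (|y₀| + m) ^ 2 - y₀ ^ 2 = 2 * |y₀| * m + m ^ 2 := by
      have := sq_abs y₀
      nlinarith [this]
    have e2 : m ≤ (|y₀| + m) ^ 2 - y₀ ^ 2 := by
      rw [e1]
      have : 0 ≤ 2 * |y₀| * m := by positivity
      nlinarith
    have e3 : |T / c| ≤ F.N / 2 * m := by
      rw [hm]
      have : F.N / 2 * (2 * |T / c| / F.N + 1) = |T / c| + F.N / 2 := by
        field_simp
      rw [this]
      linarith
    exact e3.trans (mul_le_mul_of_nonneg_left e2 (by positivity))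
  refine ⟨t, c' / c, c * R, ?_, div_pos hc' hc, ?_⟩
  · have e1 : T / c ≤ R := (le_abs_self _).trans hR1
    have e2 := mul_le_mul_of_nonneg_left e1 hc.le
    rwa [mul_div_cancel₀ _ hc.ne'] at e2
  · have e1 : Cl ((c' / c) • ((L s).om 0 + (c * R) • F.e))
        ((c' / c) • (c • F.sre ⟨x, y₀⟩ + (c * R) • F.e)) :=
      (hcl.add (Cl.refl _)).smul _
    refine hcl'.trans (Cl.trans (cl_of_eq ?_) e1.symm)
    have e2 : c' / c * c = c' := by field_simp
    have e3 : c' / c * (c * R) = c' * R := by rw [← mul_assoc, e2]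
    have e4 : (c' / c) • (c • F.sre ⟨x, y₀⟩ + (c * R) • F.e) =
        (c' / c * c) • F.sre ⟨x, y₀⟩ + (c' / c * (c * R)) • F.e := by
      rw [smul_add, smul_smul, smul_smul]
    rw [e4, e2, e3, smul_add, smul_smul]

end RayFam

/-! ### results for a member of a marked end -/

section results

variable {K : Cusp F A} {τ z : ℂ} {H : HkT C}

/-- **Kaehler classes of all heights**: `Re σ_(x + i y')` is a Kaehler class of `I'_x` -/
theorem kcls_ray (hiso : IsoHk C) (hQ : QHk Q) (hM : K.Mem τ H) (h : Sc F H τ z) {y' : ℝ}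
    (hy' : K.Y < y') : KCls (ofHk (rI H z h.nz) 0) (F.sre ⟨τ.re, y'⟩) := by
  obtain ⟨M, L, -, -, -, -, h0, hL⟩ := exists_ray hQ K hM h
  exact (kcls_HEqv h0 0).1 (hL.kcls hiso (K.mem_im _ _ hM) 0 hy')

/-- **NEF-RAY**: `e` is nef for the complex structure `I'_x` of a member of the end -/
theorem nef_ray (hiso : IsoHk C) (hQ : QHk Q) (hM : K.Mem τ H) (h : Sc F H τ z) :
    NefC (ofHk (rI H z h.nz) 0) ((rI H z h.nz).om 0) F.e := by
  obtain ⟨M, L, -, -, -, -, h0, hL⟩ := exists_ray hQ K hM h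
  have h1 := hL.nef hiso (K.mem_im _ _ hM) 0
  intro N
  have h2 := (kcls_HEqv h0 0).1 (h1 N)
  refine h2.congr ?_
  exact (Cl.of_eq_on fun i y hy => h0.om 0 i y hy).add (Cl.refl ((N : ℝ) • F.e))

/-- the same for every Kaehler form -/
theorem nef_ray_any [FiniteDimensional ℝ V] [CompactSpace X] (hiso : IsoHk C) (hQ : QHk Q)
    (hM : K.Mem τ H) (h : Sc F H τ z) {om : F2 C} (ht : T11 (ofHk (rI H z h.nz) 0) om)
    (hp : Pos (ofHk (rI H z h.nz) 0) om) : NefC (ofHk (rI H z h.nz) 0) om F.e :=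
  (nef_ray hiso hQ hM h).indep (T11_hk _ 0) ht hp

/-- two members of one ray which are joined by the rotated family are isotopic: every height is
attained -/
theorem exists_height (hiso : IsoHk C) (hQ : QHk Q) (hM : K.Mem τ H) (h : Sc F H τ z) {y' : ℝ}
    (hy' : K.Y < y') : ∃ (H' : HkT C) (a : ℂ) (ha : Sc F H' ⟨τ.re, y'⟩ a) (g k : SMap C C),
      K.Mem ⟨τ.re, y'⟩ H' ∧ Bi g k ∧
      HolM g (ofHk (rI H z h.nz) 0) (ofHk (rI H' a ha.nz) 0) ∧
      (∀ w : F2 C, Ex (g.pull w - w)) := by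
  obtain ⟨M, L, -, -, hmem, hLM, h0, hL⟩ := exists_ray hQ K hM h
  obtain ⟨t, ht⟩ := exists_hgt (K.mem_im _ _ hM) hy'
  obtain ⟨g, k, hb, hg, hw⟩ := hL.iso hiso 0 t
  obtain ⟨a, ha, haL⟩ := hLM t
  have hmt := hmem t
  rw [haL] at hg
  have ha' : Sc F (M t) ⟨τ.re, y'⟩ a := by rw [← ht]; exact ha
  refine ⟨M t, a, ha', g, k, by rw [← ht]; exact hmt, hb, ⟨fun i j y hy v => ?_⟩, hw⟩
  have h3 := hg.h i j y hy v
  have h4 : (ofHk (rI H z h.nz) 0).J j y = (ofHk (L 0) 0).J j y := (h0.J 0 j y hy.1).symm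
  rw [h4]
  exact h3

end results

end

end Crest.Agent.R281.NefRay_326
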