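import Crest.Agent.R281.NefRay2_326
import Crest.Agent.R281.Fuj4_207
import Mathlib.Analysis.Calculus.ContDiff.Convolution

/-!
# Row 281, NEF-RAY (G19), part 4 (helper326): the intersection form of jointly smooth families

* `contDiffOn_integral` : `t ↦ ∫ z in U, f (t, z)` is `C^∞` on the open set `T` for `f` smooth on
                          `T × U` with support in `T × k`, `k ⊆ U` compact
* `II_contDiffOn`       : `t ↦ II (w k t)` is `C^∞` for jointly smooth families of closed 2-forms
* `IM_contDiffOn`, `Qf_contDiffOn`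
* `qHk_of_fujiki`       : `QHk (Qf (IM ..))` from the Fujiki relation
-/

set_option autoImplicit false
set_option maxSynthPendingDepth 3
set_option linter.unusedSectionVars false

open Set Filter Topology MeasureTheory
open scoped ContDiff Convolution

namespace Crest.Agent.R281.NefRay_326

open Crest.Agent.R281.HkR_835 Crest.Agent.R281.Ti_846

noncomputable section

/-! ### integrals depending on a parameter -/

section param

variable {E V : Type*} [NormedAddCommGroup E] [NormedSpace ℝ E] [NormedAddCommGroup V]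
  [NormedSpace ℝ V] [FiniteDimensional ℝ V] [MeasurableSpace V] [BorelSpace V] (μ : Measure V)
  [μ.IsAddHaarMeasure]

theorem contDiffOn_integral {T : Set E} (hT : IsOpen T) {U k : Set V} (hU : IsOpen U)
    (hk : IsCompact k) (hkU : k ⊆ U) {f : E × V → ℝ} (hf : ContDiffOn ℝ ∞ f (T ×ˢ U))
    (h0 : ∀ t ∈ T, ∀ z ∈ U, z ∉ k → f (t, z) = 0) :
    ContDiffOn ℝ ∞ (fun t => ∫ z in U, f (t, z) ∂μ) T := by
  classical
  set g : E → V → ℝ := fun t z => if z ∈ U then f (t, z) else 0 with hg
  have hgs : ContDiffOn ℝ ∞ (fun q : E × V => g q.1 q.2) (T ×ˢ univ) := by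
    intro q hq
    refine ContDiffAt.contDiffWithinAt ?_
    by_cases hz : q.2 ∈ U
    · have h1 : ContDiffAt ℝ ∞ f q := hf.contDiffAt ((hT.prod hU).mem_nhds ⟨hq.1, hz⟩)
      refine h1.congr_of_eventuallyEq ?_
      have h2 : {p : E × V | p.2 ∈ U} ∈ 𝓝 q := (hU.preimage continuous_snd).mem_nhds hz
      filter_upwards [h2] with p hp
      simp only [hg]
      rw [if_pos hp]
    · have hzk : q.2 ∉ k := fun h => hz (hkU h)
      have h2 : {p : E × V | p.2 ∉ k} ∈ 𝓝 q :=
        (hk.isClosed.isOpen_compl.preimage continuous_snd).mem_nhds hzk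
      have h3 : {p : E × V | p.1 ∈ T} ∈ 𝓝 q := (hT.preimage continuous_fst).mem_nhds hq.1
      refine (contDiffAt_const (c := (0 : ℝ))).congr_of_eventuallyEq ?_
      filter_upwards [h2, h3] with p hp hpT
      simp only [hg]
      split_ifs with h
      · exact h0 _ hpT _ h hp
      · rfl
  have key : ∀ t ∈ T, ∫ z in U, f (t, z) ∂μ =
      (((fun _ => (1 : ℝ)) ⋆[ContinuousLinearMap.lsmul ℝ ℝ, μ] (fun s => g t (-s))) (0 : V)) := by
    intro t _
    rw [convolution_def, ← integral_indicator hU.measurableSet]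
    refine integral_congr_ae (Eventually.of_forall fun z => ?_)
    simp only [ContinuousLinearMap.lsmul_apply, zero_sub, neg_neg, smul_eq_mul, one_mul,
      hg, indicator_apply]
  refine ContDiffOn.congr ?_ key
  refine contDiffOn_convolution_right_with_param_comp (ContinuousLinearMap.lsmul ℝ ℝ)
    (v := fun _ => (0 : V)) (k := -k) contDiffOn_const hT hk.neg ?_
    (locallyIntegrable_const (1 : ℝ)) ?_
  · intro p s hp hs
    have hs' : -s ∉ k := fun h => hs (by simpa using h)
    simp only [hg]
    split_ifs with h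
    · exact h0 _ hp _ h hs'
    · rfl
  · have h1 : ContDiffOn ℝ ∞ (fun q : E × V => ((q.1, -q.2) : E × V)) (T ×ˢ univ) :=
      (contDiff_fst.prodMk contDiff_snd.neg).contDiffOn
    exact hgs.comp h1 fun q hq => ⟨hq.1, mem_univ _⟩

end param

/-! ### the intersection form -/

variable {E V X : Type} [NormedAddCommGroup E] [NormedSpace ℝ E]
  [NormedAddCommGroup V] [NormedSpace ℝ V] [FiniteDimensional ℝ V]
  [MeasurableSpace V] [BorelSpace V] (μ : Measure V) [μ.IsAddHaarMeasure] [TopologicalSpace X]
  {K : Type} [Fintype K] [DecidableEq K] {C : RCh V X}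

/-- jointly smooth families of closed 2-forms over a subset of a normed space -/
def JF (T : Set E) (w : E → F2 C) : Prop :=
  ∀ i, ContDiffOn ℝ ∞ (fun p : E × V => (w p.1).w i p.2) (T ×ˢ (C.e i).target)

theorem JF.const (T : Set E) (w : F2 C) : JF T fun _ : E => w := fun i =>
  (w.sm i).comp contDiffOn_snd fun _ hp => hp.2

theorem TP_contDiffOn (b : K × Fin 2 → V) {T : Set E} {w : K → E → F2 C}
    (h : ∀ k, JF T (w k)) (i : C.ι) :
    ContDiffOn ℝ ∞ (fun p : E × V => TP b fun k => (w k p.1).w i p.2) (T ×ˢ (C.e i).target) := by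
  unfold TP
  refine ContDiffOn.sum fun σ _ => contDiffOn_const.mul ?_
  refine contDiffOn_prod fun k _ => ?_
  exact (((h k) i).clm_apply contDiffOn_const).clm_apply contDiffOn_const

/-- **the integral of jointly smooth families is smooth in the parameter** -/
theorem II_contDiffOn [CompactSpace X] (b : Module.Basis (K × Fin 2) ℝ V) (P : RPart C) {T : Set E}
    (hT : IsOpen T) {w : K → E → F2 C} (h : ∀ k, JF T (w k)) :
    ContDiffOn ℝ ∞ (fun t => II μ b P fun k => w k t) T := by
  unfold II intT
  refine ContDiffOn.sum fun l _ => ?_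
  set e := C.e (P.c l) with he
  have hKc : IsCompact (tsupport (P.ψ l)) := (isClosed_tsupport _).isCompact
  have hc : IsCompact (e '' tsupport (P.ψ l)) :=
    hKc.image_of_continuousOn (e.continuousOn.mono (P.sub l))
  have hsub : e '' tsupport (P.ψ l) ⊆ e.target := by
    rintro _ ⟨x, hx, rfl⟩
    exact e.map_source (P.sub l hx)
  refine contDiffOn_integral μ hT e.open_target hc hsub
    (f := fun p : E × V => P.ψ l (e.symm p.2) *
      (TopF.of b fun k => w k p.1).D (P.c l) p.2) ?_ ?_
  · refine ContDiffOn.mul ?_ ?_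
    · exact (P.sm l (P.c l)).comp contDiffOn_snd fun _ hp => hp.2
    · simp only [TopF.of_D]
      exact TP_contDiffOn b h (P.c l)
  · intro t _ z hz hzk
    have : e.symm z ∉ tsupport (P.ψ l) := fun hx => hzk ⟨e.symm z, hx, e.right_inv hz⟩
    simp only
    rw [psi_zero P l this, zero_mul]

theorem IM_contDiffOn [CompactSpace X] (b : Module.Basis (K × Fin 2) ℝ V) (P : RPart C) {T : Set E}
    (hT : IsOpen T) {w : K → E → F2 C} (h : ∀ k, JF T (w k)) :
    ContDiffOn ℝ ∞ (fun t => IM μ b P fun k => w k t) T := by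
  simp only [IM_apply]
  exact II_contDiffOn μ b P hT h

end

end Crest.Agent.R281.NefRay_326
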