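import Crest.Agent.R281.NefRay4_326

/-!
# Row 281, NEF-RAY (G19), part 5 (helper326): the hypotheses `QHk` for the Fujiki form

* `Qf_contDiffOn`  : `t ↦ Qf (w t) u` is smooth for jointly smooth families
* `IM_hk'`         : the top power on the span of a hyperkaehler triple
* `qHk_of_fujiki`  : `QHk (Qf (IM ..))` from the Fujiki relation `∫ x^(2ν) = Qf(x,x)^ν`
-/

set_option autoImplicit false
set_option maxSynthPendingDepth 3
set_option linter.unusedSectionVars false

open Set Filter Topology MeasureTheory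
open scoped ContDiff

namespace Crest.Agent.R281.NefRay_326

open Crest.Agent.R281.HkR_835 Crest.Agent.R281.Ti_846 Crest.Agent.R281.Fuj1_207
open Crest.Agent.R281.Fuj4_207 Crest.Agent.R281.Iso_139

noncomputable section

variable {E V X : Type} [NormedAddCommGroup E] [NormedSpace ℝ E]
  [NormedAddCommGroup V] [NormedSpace ℝ V] [FiniteDimensional ℝ V]
  [MeasurableSpace V] [BorelSpace V] (μ : Measure V) [μ.IsAddHaarMeasure] [TopologicalSpace X]
  [CompactSpace X] {C : RCh V X} {N : ℕ} (b : Module.Basis (Fin N × Fin 2) ℝ V) (P : RPart C)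

theorem Qf_contDiffOn (hN2 : 2 ≤ N) (ν : ℕ) (r : F2 C) {T : Set E} (hT : IsOpen T)
    {w : E → F2 C} (h : JF T w) (u : F2 C) :
    ContDiffOn ℝ ∞ (fun t => Qf (IM μ b P) hN2 ν r (w t) u) T := by
  simp only [Qf_apply]
  have h2 : ContDiffOn ℝ ∞ (fun t => IM μ b P (v2 N (w t) u r)) T := by
    refine IM_contDiffOn μ b P hT (w := fun i t => v2 N (w t) u r i) fun i => ?_
    by_cases h0 : (i : ℕ) = 0
    · simp only [v2, h0, if_true]
      exact h
    · by_cases h1 : (i : ℕ) = 1
      · simp only [v2, h1, if_true, one_ne_zero, if_false]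
        exact JF.const T u
      · simp only [v2, h0, h1, if_false]
        exact JF.const T r
  have h1 : ContDiffOn ℝ ∞ (fun t => IM μ b P (v1 N (w t) r)) T := by
    refine IM_contDiffOn μ b P hT (w := fun i t => v1 N (w t) r i) fun i => ?_
    by_cases h0 : (i : ℕ) = 0
    · simp only [v1, h0, if_true]
      exact h
    · simp only [v1, h0, if_false]
      exact JF.const T r
  exact (contDiffOn_const.mul (contDiffOn_const.mul h2)).sub
    (contDiffOn_const.mul (h1.mul contDiffOn_const))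

/-- the top power on the span of a hyperkaehler triple -/
theorem IM_hk' {ν : ℕ} (hN : N = 2 * ν) (H : HkT C) (a : Fin 3 → ℝ) :
    IM μ b P (fun _ => ∑ m, a m • H.om m) = (∑ m, a m ^ 2) ^ ν * IM μ b P (fun _ => H.om 0) := by
  rw [Fin.sum_univ_three, Fin.sum_univ_three]
  exact IM_hk μ b P hN H (a 0) (a 1) (a 2)

/-- the segment between two forms of the triple -/
theorem IM_seg {ν : ℕ} (hN : N = 2 * ν) (H : HkT C) {k l : Fin 3} (hkl : k ≠ l) (c d : ℝ) :
    IM μ b P (fun _ => c • H.om k + d • H.om l) =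
      (c ^ 2 + d ^ 2) ^ ν * IM μ b P (fun _ => H.om 0) := by
  have h := IM_hk' μ b P hN H (fun m => if m = k then c else if m = l then d else 0)
  have e1 : ∑ m, (if m = k then c else if m = l then d else 0) • H.om m =
      c • H.om k + d • H.om l := by
    rw [Fin.sum_univ_three]
    fin_cases k <;> fin_cases l <;> first | exact absurd rfl hkl | (simp <;> abel)
  have e2 : ∑ m : Fin 3, (if m = k then c else if m = l then d else 0) ^ 2 = c ^ 2 + d ^ 2 := by
    rw [Fin.sum_univ_three]
    fin_cases k <;> fin_cases l <;> first | exact absurd rfl hkl | (simp <;> ring)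
  rw [e1, e2] at h
  exact h

/-- two real numbers with the same nonzero `ν`-th power joined by a path of nonzero numbers -/
theorem eq_of_pow_path {f : ℝ → ℝ} (hf : Continuous f) (h0 : ∀ s ∈ Icc (0 : ℝ) 1, f s ≠ 0) {ν : ℕ}
    (hν : 1 ≤ ν) (h : f 0 ^ ν = f 1 ^ ν) : f 0 = f 1 := by
  have h1 : |f 0| = |f 1| := by
    have h2 : |f 0| ^ ν = |f 1| ^ ν := by rw [← abs_pow, ← abs_pow, h]
    exact (pow_left_inj₀ (abs_nonneg _) (abs_nonneg _) (by omega)).1 h2
  rcases abs_eq_abs.1 h1 with h2 | h2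
  · exact h2
  · exfalso
    have hne : f 1 ≠ 0 := h0 1 ⟨zero_le_one, le_rfl⟩
    rcases lt_or_gt_of_ne hne with h3 | h3
    · have h4 : (0 : ℝ) ∈ Icc (f 1) (f 0) := ⟨h3.le, by linarith⟩
      obtain ⟨s, hs, hs0⟩ := intermediate_value_Icc' zero_le_one hf.continuousOn h4
      exact h0 s hs hs0
    · have h4 : (0 : ℝ) ∈ Icc (f 0) (f 1) := ⟨by linarith, h3.le⟩
      obtain ⟨s, hs, hs0⟩ := intermediate_value_Icc zero_le_one hf.continuousOn h4
      exact h0 s hs hs0

/-- **the hypotheses `QHk` for the Fujiki form** -/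
theorem qHk_of_fujiki {ν : ℕ} (hν : 1 ≤ ν) (hN : N = 2 * ν) (hN2 : 2 ≤ N) (ho : Ori C) (r : F2 C)
    (hF : ∀ x : F2 C, IM μ b P (fun _ => x) = Qf (IM μ b P) hN2 ν r x x ^ ν)
    (hne : ∀ H : HkT C, IM μ b P (fun _ => H.om 0) ≠ 0) :
    QHk (Qf (IM μ b P) hN2 ν r) := by
  refine ⟨fun x y => Qf_symm (IM_symm μ b P) hN2 ν r x y,
    fun x y hx => (kills μ b P ho).Qf_left hx hN2 ν r y, fun H k l => ?_, fun w hw u => ?_⟩
  · by_cases hkl : k = l
    · rw [hkl]
    set q := Qf (IM μ b P) hN2 ν r with hq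
    set f : ℝ → ℝ := fun s => q ((1 - s) • H.om k + s • H.om l) ((1 - s) • H.om k + s • H.om l)
      with hf
    have hfe : ∀ s, f s = (1 - s) * ((1 - s) * q (H.om k) (H.om k)) +
        (1 - s) * (s * q (H.om k) (H.om l)) + (s * ((1 - s) * q (H.om l) (H.om k)) +
        s * (s * q (H.om l) (H.om l))) := by
      intro s
      simp only [hf, map_add, map_smul, LinearMap.add_apply, LinearMap.smul_apply, smul_eq_mul]
      ring
    have hc : Continuous f := by
      have : f = fun s => (1 - s) * ((1 - s) * q (H.om k) (H.om k)) +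
        (1 - s) * (s * q (H.om k) (H.om l)) + (s * ((1 - s) * q (H.om l) (H.om k)) +
        s * (s * q (H.om l) (H.om l))) := funext hfe
      rw [this]
      fun_prop
    have hp : ∀ s, f s ^ ν = ((1 - s) ^ 2 + s ^ 2) ^ ν * IM μ b P (fun _ => H.om 0) := by
      intro s
      rw [← IM_seg μ b P hN H hkl, hF]
    have hf0 : f 0 = q (H.om k) (H.om k) := by simp [hf]
    have hf1 : f 1 = q (H.om l) (H.om l) := by simp [hf]
    rw [← hf0, ← hf1]
    refine eq_of_pow_path hc (fun s _ h => ?_) hν (by rw [hp, hp]; norm_num)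
    have h1 := hp s
    rw [h, zero_pow (by omega)] at h1
    have h2 : 0 < ((1 - s) ^ 2 + s ^ 2) := by nlinarith [sq_nonneg (1 - s), sq_nonneg s]
    exact (mul_ne_zero (pow_pos h2 ν).ne' (hne H)) h1.symm
  · have := Qf_contDiffOn μ b P hN2 ν r (isOpen_univ (X := ℝ)) (w := w) (fun i => hw i) u
    exact contDiffOn_univ.1 this

end

end Crest.Agent.R281.NefRay_326
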