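import Crest.Agent.R281.NefRay3_326
import Crest.Agent.R281.RkD_902

/-!
# Row 281, NEF-RAY (G19), part 6 (helper326): the node `NefRayP` of RANK281 (902)

* `exists_mem`   : a marked end has members over the whole half plane
* `exists_memN`  : rotated members `MemN`
* `nefRayP`      : **the node `NefRayP Alg`** (`EndIso` ==> `e` is nef)
-/

set_option autoImplicit false
set_option maxSynthPendingDepth 3
set_option linter.unusedSectionVars false

open Set Filter Topology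
open scoped ContDiff

namespace Crest.Agent.R281.NefRay_326

open Crest.Agent.R281.HkR_835 Crest.Agent.R281.Ti_846 Crest.Agent.R281.Cdr_234
open Crest.Agent.R281.NefO_476 Crest.Agent.R281.Nef_252 Crest.Agent.R281.Dif_268
open Crest.Agent.R281.Alg_998 Crest.Agent.R281.RkD_902 Crest.Agent.R281.PL_713

noncomputable section

section members

variable {V X : Type} [NormedAddCommGroup V] [NormedSpace ℝ V] [TopologicalSpace X]
  {C : RCh V X} {Q : F2 C →ₗ[ℝ] F2 C →ₗ[ℝ] ℝ} {F : Frm C Q} {A : F2 C}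

/-- the segment from `τ` to `τ'`, as a smooth path over `ℝ` -/
def sgp (τ τ' : ℂ) (t : ℝ) : ℂ := τ + ((stp t : ℝ) : ℂ) * (τ' - τ)

theorem sgp_sm (τ τ' : ℂ) : ContDiff ℝ ∞ (sgp τ τ') :=
  contDiff_const.add ((Complex.ofRealCLM.contDiff.comp stp_contDiff).mul contDiff_const)

theorem sgp_im (τ τ' : ℂ) (t : ℝ) : (sgp τ τ' t).im = (1 - stp t) * τ.im + stp t * τ'.im := by
  unfold sgp
  simp
  ring

theorem stp_mem (t : ℝ) : 0 ≤ stp t ∧ stp t ≤ 1 :=
  ⟨Real.smoothTransition.nonneg _, Real.smoothTransition.le_one _⟩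

/-- **members over the whole half plane** -/
theorem exists_mem (K : Cusp F A) {τ τ' : ℂ} {H : HkT C} (hM : K.Mem τ H) (hτ' : K.Y < τ'.im) :
    ∃ H' : HkT C, K.Mem τ' H' := by
  have hY := K.mem_im _ _ hM
  obtain ⟨M, -, -, hmem⟩ := K.lift τ H hM (sgp τ τ') (sgp_sm τ τ') (fun t => by
      rw [sgp_im]
      obtain ⟨h0, h1⟩ := stp_mem t
      have h2 : K.Y < min τ.im τ'.im := lt_min hY hτ'
      have h3 := mul_nonneg (sub_nonneg.2 h1) (sub_nonneg.2 (min_le_left τ.im τ'.im))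
      have h4 := mul_nonneg h0 (sub_nonneg.2 (min_le_right τ.im τ'.im))
      nlinarith [h2, h3, h4]) (by simp [sgp, stp_zero (t := 0) (by norm_num)])
  refine ⟨M 1, ?_⟩
  have h := hmem 1
  have e : sgp τ τ' 1 = τ' := by simp [sgp, stp_one (t := 1) (by norm_num)]
  rwa [e] at h

/-- rotation about `om 0` by the angle of `z` -/
def Ra (z : ℂ) : Fin 3 → Fin 3 → ℝ :=
  ![![1, 0, 0], ![0, z.re / ‖z‖, z.im / ‖z‖], ![0, -(z.im / ‖z‖), z.re / ‖z‖]]

theorem fr_Ra {z : ℂ} (hz : z ≠ 0) : HkT.Fr (Ra z) := by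
  have h := nz2 hz
  refine ⟨fun k => ?_, ?_, ?_⟩
  · fin_cases k
    · simp [Ra]
    · simp only [Ra, Fin.mk_one, Matrix.cons_val_zero, Matrix.cons_val_one, Matrix.cons_val]
      linarith
    · simp only [Ra, Fin.reduceFinMk, Matrix.cons_val_zero, Matrix.cons_val_one, Matrix.cons_val]
      linarith
  · simp [Ra]
  · funext k
    fin_cases k
    · simp [Ra]
    · simp [Ra]
    · simp [Ra]

theorem Ra_om0 (H : HkT C) {z : ℂ} (hz : z ≠ 0) : (H.rot (Ra z) (fr_Ra hz)).om 0 = H.om 0 := by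
  show F2.lin (Ra z 0) H.om = _
  rw [F2.lin_eq, Fin.sum_univ_three]
  simp [Ra]

theorem Ra_om1 (H : HkT C) {z : ℂ} (hz : z ≠ 0) :
    (H.rot (Ra z) (fr_Ra hz)).om 1 = (rI H z hz).om 0 := by
  rw [rI_om0]
  show F2.lin (Ra z 1) H.om = _
  rw [F2.lin_eq, Fin.sum_univ_three]
  simp [Ra]

theorem Ra_om2 (H : HkT C) {z : ℂ} (hz : z ≠ 0) :
    (H.rot (Ra z) (fr_Ra hz)).om 2 = (rI H z hz).om 1 := by
  rw [rI_om1]
  show F2.lin (Ra z 2) H.om = _
  rw [F2.lin_eq, Fin.sum_univ_three]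
  simp [Ra]

/-- `J 1` of the member rotated about `om 0` is `J 0` of `rI` -/
theorem Ra_J1 (H : HkT C) {z : ℂ} (hz : z ≠ 0) (i : C.ι) (y : V) :
    (H.rot (Ra z) (fr_Ra hz)).J 1 i y = (rI H z hz).J 0 i y := by
  show ∑ l, Ra z 1 l • H.J l i y = ∑ l, Rz z 0 l • H.J l i y
  rw [Fin.sum_univ_three, Fin.sum_univ_three]
  simp [Ra, Rz]

/-- rotated members exist over the whole half plane -/
theorem exists_memN (K : Cusp F A) {τ τ' : ℂ} {H : HkT C} (hM : K.Mem τ H) (hτ' : K.Y < τ'.im) :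
    ∃ H' : HkT C, MemN K τ' H' := by
  obtain ⟨H', hH'⟩ := exists_mem K hM hτ'
  obtain ⟨z, hz, h1, h2⟩ := (K.mem_at _ _ hH').om12
  have hs : Sc F H' τ' z := ⟨hz, h1, h2⟩
  refine ⟨H'.rot (Ra z) (fr_Ra hz), ⟨H', Ra z, fr_Ra hz, hH', rfl, HEqv.refl _⟩, ‖z‖,
    norm_pos_iff.2 hz, ?_, ?_⟩
  · rw [Ra_om1]
    exact hs.cl0
  · rw [Ra_om2]
    exact hs.cl1

end members

section node

variable {V X : Type} [NormedAddCommGroup V] [NormedSpace ℝ V] [TopologicalSpace X]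
  {C : RCh V X} {Q : F2 C →ₗ[ℝ] F2 C →ₗ[ℝ] ℝ} {H0 : HkT C} {e : F2 C}

/-- Kaehler classes of all heights at the chart member -/
theorem kcls_end {Alg : AlgT Q} {B : Box Q H0 e} (R : Road Alg B) {x : ℝ} (hE : EndIso R x)
    {y : ℝ} (hy : R.K.Y < y) : KCls (ofHk (B.H R.a (R.c x)) 0) (R.F.sre ⟨x, y⟩) := by
  obtain ⟨K, -, hK⟩ := hE
  obtain ⟨hH, g, k, hb, hg, hw⟩ := hK (Real.log (y - R.K.Y))
  rw [Real.exp_log (sub_pos.2 hy), add_sub_cancel] at hH
  obtain ⟨-, z, hz, h1, -⟩ := hH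
  have h2 : KCls (ofHk (K (Real.log (y - R.K.Y))) 1) ((K (Real.log (y - R.K.Y))).om 1) :=
    kcls_hk _ 1
  have h3 := (kcls_transport hb hg hw).1 h2
  exact (KCls.smul_iff hz).1 (h3.congr h1)

/-- nefness of `e` at the chart member -/
theorem nef_end [FiniteDimensional ℝ V] [CompactSpace X] {Alg : AlgT Q} {B : Box Q H0 e}
    (R : Road Alg B) {x : ℝ} (hE : EndIso R x) {om : F2 C}
    (ht : T11 (ofHk (B.H R.a (R.c x)) 0) om) (hp : Pos (ofHk (B.H R.a (R.c x)) 0) om) :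
    NefC (ofHk (B.H R.a (R.c x)) 0) om e := by
  have hN := R.F.hN
  set y : ℝ := R.K.Y + 1 with hy
  have hyY : R.K.Y < y := by linarith
  have hy0 : 0 < y := R.K.hY.trans hyY
  have h0 := kcls_end R hE hyY
  have h1 : NefC (ofHk (B.H R.a (R.c x)) 0) (R.F.sre ⟨x, y⟩) R.F.e := by
    refine nefC_of_freq h0 fun T => ?_
    set m : ℝ := 2 * |T| / R.F.N + 1 with hm
    have hm1 : 1 ≤ m := by
      have : 0 ≤ 2 * |T| / R.F.N := by positivity
      linarith
    refine ⟨R.F.N / 2 * ((y + m) ^ 2 - y ^ 2), ?_, ?_⟩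
    · have e1 : (y + m) ^ 2 - y ^ 2 = 2 * y * m + m ^ 2 := by ring
      have e2 : m ≤ (y + m) ^ 2 - y ^ 2 := by
        rw [e1]
        have : 0 ≤ 2 * y * m := by positivity
        nlinarith
      have e3 : |T| ≤ R.F.N / 2 * m := by
        have : R.F.N / 2 * m = |T| + R.F.N / 2 := by
          rw [hm]
          field_simp
        rw [this]
        linarith
      exact (le_abs_self T).trans (e3.trans (mul_le_mul_of_nonneg_left e2 (by positivity)))
    · rw [← sre_ray]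
      exact kcls_end R hE (by linarith)
  obtain ⟨w, hw1, hw2, hw3⟩ := h0
  have h2 : NefC (ofHk (B.H R.a (R.c x)) 0) w R.F.e := h1.congr (by
    have := ex_neg hw1
    rwa [neg_sub] at this) (by rw [sub_self]; exact ex_zero)
  have h3 := h2.indep hw2 ht hp
  rwa [R.Fe] at h3

end node

/-- **the node `NefRayP` of RANK281** -/
theorem nefRayP (Alg : AlgTT) : NefRayP Alg := by
  intro n X _ _ _ _ C Q _ H0 L0 e _ B R x _ hE
  exact nef_end R hE (T11_hk _ 0) (Pos_hk _ 0)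

end

end Crest.Agent.R281.NefRay_326
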