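import Crest.Agent.R281.Mx2_405

/-! Row 281, S-NH (helper790): the NO-HOLE lemma of Theorem S (step (T5)), abstract form on a
doubling metric measure space with an `L¹` Poincaré inequality (posts #6527, #6540).

`f` = `log |s|²` (regularised), `G` = `|∇f|`, `b` = `|s|²/(|s|² + |∇s|² + e)`, `H` = `|∇b|`.
The constant `Λ` does not depend on the scale `R/2^j` at which the mean value is taken. -/

set_option autoImplicit false
set_option linter.unusedSectionVars false
set_option linter.unusedVariables false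
open MeasureTheory Metric Set Filter Topology
open scoped ENNReal NNReal

namespace Crest.Agent.R281.Nh_790

open Crest.Agent.R281.Mx_405

universe u

/-- `L¹` Poincaré inequality on all closed balls. -/
def PI {X : Type u} [PseudoMetricSpace X] [MeasurableSpace X] (μ : Measure X) (f G : X → ℝ)
    (P : ℝ) : Prop :=
  ∀ (x : X) (r : ℝ), 0 < r →
    ⨍ z in closedBall x r, |f z - ⨍ w in closedBall x r, f w ∂μ| ∂μ ≤
      P * r * ⨍ z in closedBall x (2 * r), G z ∂μ

section basic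
variable {X : Type u} [PseudoMetricSpace X] [MeasurableSpace X] [OpensMeasurableSpace X]
variable {μ : Measure X} {C : ℝ≥0}

/-- a continuous function is integrable on the balls of a proper space -/
lemma integrableOn_cb [ProperSpace X] (h : Dbl μ C) {f : X → ℝ} (hf : Continuous f) (x : X)
    (r : ℝ) : IntegrableOn f (closedBall x r) μ := by
  obtain ⟨M, hM⟩ := (isCompact_closedBall x r).exists_bound_of_continuousOn hf.continuousOn
  exact Measure.integrableOn_of_bounded (h.fin x r).ne hf.aestronglyMeasurable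
    ((ae_restrict_iff' measurableSet_closedBall).2 (ae_of_all _ hM))

lemma average_mono' {A : Set X} {f g : X → ℝ} (hA : MeasurableSet A)
    (hf : IntegrableOn f A μ) (hg : IntegrableOn g A μ) (h : ∀ x ∈ A, f x ≤ g x) :
    ⨍ x in A, f x ∂μ ≤ ⨍ x in A, g x ∂μ := by
  rw [setAverage_eq, setAverage_eq, smul_eq_mul, smul_eq_mul]
  exact mul_le_mul_of_nonneg_left (setIntegral_mono_on hf hg hA h) (by positivity)

lemma average_const' {A : Set X} (hA : 0 < μ.real A) (c : ℝ) : ⨍ _x in A, c ∂μ = c := by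
  rw [setAverage_eq, setIntegral_const, smul_eq_mul, smul_eq_mul]
  field_simp

lemma average_add' {A : Set X} {f g : X → ℝ} (hf : IntegrableOn f A μ)
    (hg : IntegrableOn g A μ) :
    ⨍ x in A, (f x + g x) ∂μ = (⨍ x in A, f x ∂μ) + ⨍ x in A, g x ∂μ := by
  rw [setAverage_eq, setAverage_eq, setAverage_eq, integral_add hf hg, smul_add]

lemma average_const_mul' {A : Set X} (c : ℝ) (f : X → ℝ) :
    ⨍ x in A, c * f x ∂μ = c * ⨍ x in A, f x ∂μ := by
  rw [setAverage_eq, setAverage_eq, integral_const_mul, smul_eq_mul, smul_eq_mul]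
  ring

lemma average_nonneg' {A : Set X} {f : X → ℝ} (hf : ∀ x, 0 ≤ f x) :
    0 ≤ ⨍ x in A, f x ∂μ := by
  rw [setAverage_eq, smul_eq_mul]
  exact mul_nonneg (by positivity) (integral_nonneg hf)

/-- telescoping at a point from the radius `R` down to `R / 2 ^ j` -/
theorem telescope_fin (h : Dbl μ C) [Nonempty X] {f : X → ℝ} {q : X} {R a : ℝ} (hR : 0 < R)
    (ha : 0 ≤ a) (hint : IntegrableOn f (closedBall q R) μ) (j : ℕ)
    (hP : ∀ i ≤ j, ⨍ x in closedBall q (R / 2 ^ i),
      |f x - ⨍ z in closedBall q (R / 2 ^ i), f z ∂μ| ∂μ ≤ a * (R / 2 ^ i)) :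
    |(⨍ x in closedBall q (R / 2 ^ j), f x ∂μ) - ⨍ x in closedBall q R, f x ∂μ| ≤
      2 * C * a * R * (1 - (1 / 2) ^ j) := by
  have hC1 : (1 : ℝ) ≤ C := by exact_mod_cast h.one_le
  induction j with
  | zero => simp
  | succ j ih =>
    have ih' := ih (fun i hi => hP i (hi.trans (Nat.le_succ j)))
    have hri : 0 < R / 2 ^ j := by positivity
    have hri' : 0 < R / 2 ^ (j + 1) := by positivity
    have hsub : closedBall q (R / 2 ^ (j + 1)) ⊆ closedBall q (R / 2 ^ j) := by
      apply closedBall_subset_closedBall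
      rw [pow_succ]
      have : R / (2 ^ j * 2) = R / 2 ^ j / 2 := by field_simp
      rw [this]
      linarith
    have hsub0 : closedBall q (R / 2 ^ j) ⊆ closedBall q R := by
      apply closedBall_subset_closedBall
      exact div_le_self hR.le (one_le_pow₀ (by norm_num))
    have hint1 : IntegrableOn f (closedBall q (R / 2 ^ j)) μ := hint.mono_set hsub0
    have hint2 : IntegrableOn f (closedBall q (R / 2 ^ (j + 1))) μ := hint1.mono_set hsub
    set m : ℝ := ⨍ z in closedBall q (R / 2 ^ j), f z ∂μ with hm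
    have hcst : IntegrableOn (fun _ : X => m) (closedBall q (R / 2 ^ j)) μ :=
      integrableOn_const (h.fin q _).ne
    have h1 : |(⨍ x in closedBall q (R / 2 ^ (j + 1)), f x ∂μ) - m| ≤
        ⨍ x in closedBall q (R / 2 ^ (j + 1)), |f x - m| ∂μ :=
      abs_average_sub_le hint2 (h.fin q _).ne (h.real_pos q hri') m
    have h2 : ⨍ x in closedBall q (R / 2 ^ (j + 1)), |f x - m| ∂μ ≤
        C * ⨍ x in closedBall q (R / 2 ^ j), |f x - m| ∂μ := by
      refine setAverage_le_of_subset (fun x => abs_nonneg _) (hint1.sub hcst).abs hsub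
        (h.real_pos q hri') (h.real_pos q hri) ?_
      have := h.real_dbl q hri'
      have e : 2 * (R / 2 ^ (j + 1)) = R / 2 ^ j := by rw [pow_succ]; field_simp
      rwa [e] at this
    have h3 := hP j (Nat.le_succ j)
    have h4 : |(⨍ x in closedBall q (R / 2 ^ (j + 1)), f x ∂μ) - m| ≤ C * (a * (R / 2 ^ j)) := by
      refine h1.trans (h2.trans ?_)
      gcongr
    have h5 : |(⨍ x in closedBall q (R / 2 ^ (j + 1)), f x ∂μ) - ⨍ x in closedBall q R, f x ∂μ| ≤
        |(⨍ x in closedBall q (R / 2 ^ (j + 1)), f x ∂μ) - m| +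
          |m - ⨍ x in closedBall q R, f x ∂μ| := abs_sub_le _ _ _
    refine h5.trans ((add_le_add h4 ih').trans (le_of_eq ?_))
    rw [pow_succ, div_eq_mul_inv, one_div, inv_pow]
    ring

end basic

set_option maxHeartbeats 1600000 in
/-- **No holes**, mean value form. -/
theorem no_hole (C : ℝ≥0) (P K c R : ℝ) (hP : 0 ≤ P) (hK : 0 ≤ K) (hc : 0 < c) (hR : 0 < R) :
    ∃ Λ : ℝ, 0 ≤ Λ ∧ ∀ j : ℕ, ∃ δ : ℝ, 0 < δ ∧
      ∀ (X : Type u) [PseudoMetricSpace X] [ProperSpace X] [MeasurableSpace X]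
        [OpensMeasurableSpace X] (μ : Measure X) (_ : Dbl μ C) (y : X) (f G b H : X → ℝ),
        Continuous f → Continuous G → Continuous b → Continuous H → (∀ x, 0 ≤ G x) →
        PI μ f G P → PI μ b H P →
        (∀ x ∈ closedBall y (8 * R), G x ^ 2 * b x ≤ 4) →
        (∀ r, 0 < r → r ≤ 8 * R → ⨍ x in closedBall y r, G x ∂μ ≤ K) →
        ⨍ x in closedBall y (8 * R), G x ^ 2 ∂μ ≤ K →
        μ.real (closedBall y (8 * R)) ≤ 2 * μ.real {x | x ∈ closedBall y (8 * R) ∧ c ≤ b x} →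
        ⨍ x in closedBall y (16 * R), H x ∂μ ≤ δ →
        ∀ q ∈ closedBall y (2 * R), ⨍ x in closedBall q (R / 2 ^ j), |f x - f y| ∂μ ≤ Λ := by
  set A : ℝ := 4 / √c with hA
  have hA0 : 0 < A := by positivity
  have hCn : (0 : ℝ) ≤ C := C.2
  refine ⟨(4 * C + 1) * P * R * (A + 1) + C ^ 2 * ((1 + 2 * C) * (P * K) * (4 * R)),
    by positivity, fun j => ?_⟩
  -- the choice of `δ`
  set η : ℝ := min 1 (2 / ((C + 1) ^ (j + 3) * (K + 1))) with hη
  have hη0 : 0 < η := by positivity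
  have hη1 : η ≤ 1 := min_le_left _ _
  have hη2 : (C + 1 : ℝ) ^ (j + 3) * (K + 1) * η ≤ 2 := by
    have : η ≤ 2 / ((C + 1) ^ (j + 3) * (K + 1)) := min_le_right _ _
    rwa [le_div_iff₀ (by positivity), mul_comm] at this
  set δ : ℝ := c * η ^ 2 / (64 * (P * R + 1)) with hδ
  have hδ0 : 0 < δ := by positivity
  refine ⟨δ, hδ0, ?_⟩
  intro X _ _ _ _ μ h y f G b H hf hG hb hH hG0 hPf hPb hGb hGK hG2 hhalf hHδ q hq
  have : Nonempty X := ⟨y⟩
  have hI : ∀ {g : X → ℝ}, Continuous g → ∀ (x : X) (r : ℝ), IntegrableOn g (closedBall x r) μ :=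
    fun hg x r => integrableOn_cb h hg x r
  have h8 : 0 < 8 * R := by positivity
  set B : Set X := closedBall y (8 * R) with hB
  have hBm : MeasurableSet B := measurableSet_closedBall
  have hBpos : 0 < μ.real B := h.real_pos y h8
  -- step 1: `b` is almost constant
  set bb : ℝ := ⨍ x in B, b x ∂μ with hbb
  set ε₁ : ℝ := c * η ^ 2 / 8 with hε₁
  have hε₁0 : 0 < ε₁ := by positivity
  have h1 : ⨍ x in B, |b x - bb| ∂μ ≤ ε₁ := by
    refine (hPb y (8 * R) h8).trans ?_
    have e : 2 * (8 * R) = 16 * R := by ring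
    rw [e]
    calc P * (8 * R) * ⨍ x in closedBall y (16 * R), H x ∂μ ≤ P * (8 * R) * δ := by gcongr
      _ = 8 * (P * R) * (c * η ^ 2 / (64 * (P * R + 1))) := by rw [hδ]; ring
      _ = (P * R / (P * R + 1)) * (c * η ^ 2 / 8) := by
          field_simp
          ring
      _ ≤ 1 * (c * η ^ 2 / 8) := by
          have hPR : 0 ≤ P * R := by positivity
          have : P * R / (P * R + 1) ≤ 1 := by
            rw [div_le_one (by positivity)]; linarith
          gcongr
      _ = ε₁ := by rw [hε₁]; ring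
  have hbint : IntegrableOn (fun x => |b x - bb|) B μ := hI (hb.sub continuous_const).abs y _
  -- `bb ≥ c / 2`
  have h2 : c / 2 ≤ bb := by
    by_contra hlt
    rw [not_le] at hlt
    have h3 := frac_le_of_average h (g := fun x => |b x - bb|) (fun x => abs_nonneg _) (y := y)
      (r := 8 * R) (t := c / 2) h8 (by positivity) hbint h1
    have h4 : {x | x ∈ B ∧ c ≤ b x} ⊆ {x | x ∈ B ∧ c / 2 ≤ |b x - bb|} := by
      rintro x ⟨hx, hx'⟩
      refine ⟨hx, ?_⟩
      have : c / 2 ≤ b x - bb := by linarith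
      exact this.trans (le_abs_self _)
    have h5 : μ.real {x | x ∈ B ∧ c ≤ b x} ≤ μ.real {x | x ∈ B ∧ c / 2 ≤ |b x - bb|} :=
      measureReal_mono h4 (measure_ne_top_of_subset (fun x hx => hx.1) (h.fin y _).ne)
    have h6 : ε₁ / (c / 2) ≤ 1 / 4 := by
      rw [div_le_iff₀ (by positivity), hε₁]
      have : η ^ 2 ≤ 1 := pow_le_one₀ hη0.le hη1
      nlinarith
    have h7 : μ.real B ≤ 2 * (1 / 4 * μ.real B) := by
      calc μ.real B ≤ 2 * μ.real {x | x ∈ B ∧ c ≤ b x} := hhalf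
        _ ≤ 2 * (ε₁ / (c / 2) * μ.real B) := by gcongr; exact h5.trans h3
        _ ≤ 2 * (1 / 4 * μ.real B) := by gcongr
    linarith
  -- the bad set
  set Z : Set X := {x | x ∈ B ∧ b x < c / 4} with hZ
  have hZm : MeasurableSet Z := hBm.inter (measurableSet_lt hb.measurable measurable_const)
  have hZB : Z ⊆ B := fun x hx => hx.1
  have hZμ : μ.real Z ≤ η ^ 2 / 2 * μ.real B := by
    have h3 := frac_le_of_average h (g := fun x => |b x - bb|) (fun x => abs_nonneg _) (y := y)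
      (r := 8 * R) (t := c / 4) h8 (by positivity) hbint h1
    have h4 : Z ⊆ {x | x ∈ B ∧ c / 4 ≤ |b x - bb|} := by
      rintro x ⟨hx, hx'⟩
      refine ⟨hx, ?_⟩
      have : c / 4 ≤ -(b x - bb) := by linarith
      exact this.trans (neg_le_abs _)
    have h5 : μ.real Z ≤ μ.real {x | x ∈ B ∧ c / 4 ≤ |b x - bb|} :=
      measureReal_mono h4 (measure_ne_top_of_subset (fun x hx => hx.1) (h.fin y _).ne)
    refine h5.trans (h3.trans (le_of_eq ?_))
    rw [hε₁]
    field_simp
    ring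
  -- step 2: `G ≤ A` off `Z`
  have hGA : ∀ x ∈ B, x ∉ Z → G x ≤ A := by
    intro x hx hxZ
    have hbx : c / 4 ≤ b x := by
      by_contra hlt
      exact hxZ ⟨hx, not_le.1 hlt⟩
    have h3 := hGb x hx
    have h4 : G x ^ 2 * (c / 4) ≤ 4 := (by gcongr : G x ^ 2 * (c / 4) ≤ G x ^ 2 * b x).trans h3
    have h5 : G x ^ 2 ≤ A ^ 2 := by
      rw [hA, div_pow, Real.sq_sqrt hc.le, le_div_iff₀ hc]
      nlinarith
    exact (sq_le_sq₀ (hG0 x) hA0.le).1 h5
  -- the `L¹` norm of `G` on `Z`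
  set a : X → ℝ := Z.indicator G with ha
  have ha0 : ∀ x, 0 ≤ a x := fun x => indicator_nonneg (fun x _ => hG0 x) x
  have haint : IntegrableOn a B μ := (hI hG y _).indicator hZm
  have haB : ⨍ x in B, a x ∂μ ≤ η * (K + 1) / 2 := by
    have hpt : ∀ x ∈ B, a x ≤ η / 2 * G x ^ 2 + (2 * η)⁻¹ * Z.indicator (fun _ => (1 : ℝ)) x := by
      intro x _
      by_cases hx : x ∈ Z
      · rw [ha, indicator_of_mem hx, indicator_of_mem hx]
        have h3 : 0 ≤ (η * G x - 1) ^ 2 := sq_nonneg _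
        have h4 : η / 2 * G x ^ 2 + (2 * η)⁻¹ * 1 - G x = (η * G x - 1) ^ 2 / (2 * η) := by
          field_simp
          ring
        have h5 : 0 ≤ (η * G x - 1) ^ 2 / (2 * η) := by positivity
        linarith
      · rw [ha, indicator_of_notMem hx, indicator_of_notMem hx]
        positivity
    have hi1 : IntegrableOn (fun x => η / 2 * G x ^ 2) B μ :=
      hI (continuous_const.mul (hG.pow 2)) y _
    have hone : IntegrableOn (fun _ : X => (1 : ℝ)) B μ := integrableOn_const (h.fin y _).ne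
    have hi2 : IntegrableOn (fun x => (2 * η)⁻¹ * Z.indicator (fun _ => (1 : ℝ)) x) B μ :=
      (hone.indicator hZm).const_mul _
    have h3 := average_mono' hBm haint (hi1.add hi2) hpt
    have h4 := average_add' (μ := μ) hi1 hi2
    have h5 : ⨍ x in B, η / 2 * G x ^ 2 ∂μ ≤ η / 2 * K := by
      rw [average_const_mul']
      gcongr
    have h6 : ⨍ x in B, (2 * η)⁻¹ * Z.indicator (fun _ => (1 : ℝ)) x ∂μ ≤ η / 4 := by
      rw [average_const_mul', setAverage_eq, smul_eq_mul, setIntegral_indicator hZm,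
        inter_eq_self_of_subset_right hZB, setIntegral_const, smul_eq_mul, mul_one]
      calc (2 * η)⁻¹ * ((μ.real B)⁻¹ * μ.real Z) ≤
            (2 * η)⁻¹ * ((μ.real B)⁻¹ * (η ^ 2 / 2 * μ.real B)) := by gcongr
        _ = η / 4 := by field_simp; ring
    calc ⨍ x in B, a x ∂μ ≤ _ := h3
      _ = _ := h4
      _ ≤ η / 2 * K + η / 4 := add_le_add h5 h6
      _ ≤ η * (K + 1) / 2 := by nlinarith
  -- step 3: means of `G` over all balls of radius `≥ 2 R / 2 ^ (j+1)` about `q`
  have hmean : ∀ i ≤ j + 1, ⨍ x in closedBall q (2 * (2 * R / 2 ^ i)), G x ∂μ ≤ A + 1 := by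
    intro i hi
    set r : ℝ := 2 * (2 * R / 2 ^ i) with hr
    have hr0 : 0 < r := by positivity
    have hr4 : r ≤ 4 * R := by
      rw [hr]
      have : 2 * R / 2 ^ i ≤ 2 * R := div_le_self (by positivity) (one_le_pow₀ (by norm_num))
      linarith
    have hqB : closedBall q r ⊆ B := by
      apply closedBall_subset_closedBall'
      have := mem_closedBall.1 hq
      linarith
    have hpow : (2 : ℝ) ^ i ≤ 2 ^ (j + 1) := pow_le_pow_right₀ (by norm_num) hi
    have hchg := average_change h ha0 (y := y) (q := q) (r := 4 * R) (ρ := r) (k := j + 3) hr0 hr4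
      (closedBall_subset_closedBall (by linarith) hq) (by
        rw [hr]
        have e : (2 : ℝ) ^ (j + 3) * (2 * (2 * R / 2 ^ i)) = 16 * R * (2 ^ (j + 1) / 2 ^ i) := by
          rw [show j + 3 = (j + 1) + 2 by ring, pow_add]
          field_simp
          ring
        rw [e]
        have : (1 : ℝ) ≤ 2 ^ (j + 1) / 2 ^ i := by rwa [one_le_div (by positivity)]
        nlinarith) (by
        have e : 2 * (4 * R) = 8 * R := by ring
        rw [e]; exact haint)
    have e8 : 2 * (4 * R) = 8 * R := by ring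
    rw [e8] at hchg
    have h3 : ⨍ x in closedBall q r, a x ∂μ ≤ 1 := by
      refine hchg.trans ?_
      calc (C : ℝ) ^ (j + 3) * ⨍ x in closedBall y (8 * R), a x ∂μ ≤
            (C + 1 : ℝ) ^ (j + 3) * (η * (K + 1) / 2) := by
              gcongr
              · exact average_nonneg' ha0
              · linarith
        _ = ((C + 1 : ℝ) ^ (j + 3) * (K + 1) * η) / 2 := by ring
        _ ≤ 1 := by linarith
    have hai : IntegrableOn a (closedBall q r) μ := haint.mono_set hqB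
    have hAi : IntegrableOn (fun _ : X => A) (closedBall q r) μ :=
      integrableOn_const (h.fin q _).ne
    have h4 := average_mono' measurableSet_closedBall (hI hG q r) (hAi.add hai)
      (fun x hx => by
        show G x ≤ A + a x
        by_cases hxZ : x ∈ Z
        · rw [ha, indicator_of_mem hxZ]; linarith
        · rw [ha, indicator_of_notMem hxZ, add_zero]
          exact hGA x (hqB hx) hxZ)
    have h5 := average_add' (μ := μ) hAi hai
    rw [average_const' (h.real_pos q hr0)] at h5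
    calc ⨍ x in closedBall q r, G x ∂μ ≤ _ := h4
      _ = _ := h5
      _ ≤ A + 1 := by linarith
  -- step 4: telescoping at `q`
  have h2R : 0 < 2 * R := by positivity
  have hPq : ∀ i ≤ j + 1, ⨍ x in closedBall q (2 * R / 2 ^ i),
      |f x - ⨍ z in closedBall q (2 * R / 2 ^ i), f z ∂μ| ∂μ ≤
        (P * (A + 1)) * (2 * R / 2 ^ i) := by
    intro i hi
    refine (hPf q (2 * R / 2 ^ i) (by positivity)).trans ?_
    calc P * (2 * R / 2 ^ i) * ⨍ z in closedBall q (2 * (2 * R / 2 ^ i)), G z ∂μ ≤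
          P * (2 * R / 2 ^ i) * (A + 1) := by
            gcongr
            exact hmean i hi
      _ = _ := by ring
  have htel := telescope_fin h h2R (by positivity : 0 ≤ P * (A + 1)) (hI hf q _) (j + 1) hPq
  have hlast := hPq (j + 1) le_rfl
  have eR : 2 * R / 2 ^ (j + 1) = R / 2 ^ j := by rw [pow_succ]; field_simp
  rw [eR] at htel hlast
  set m₀ : ℝ := ⨍ x in closedBall q (2 * R), f x ∂μ with hm₀
  set m₁ : ℝ := ⨍ x in closedBall q (R / 2 ^ j), f x ∂μ with hm₁
  have htel' : |m₁ - m₀| ≤ 4 * C * P * R * (A + 1) := by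
    refine htel.trans ?_
    have h3 : (1 - (1 / 2 : ℝ) ^ (j + 1)) ≤ 1 := by
      have : (0 : ℝ) ≤ (1 / 2) ^ (j + 1) := by positivity
      linarith
    calc 2 * C * (P * (A + 1)) * (2 * R) * (1 - (1 / 2 : ℝ) ^ (j + 1)) ≤
          2 * C * (P * (A + 1)) * (2 * R) * 1 := by gcongr
      _ = _ := by ring
  have hRj : R / 2 ^ j ≤ R := div_le_self hR.le (one_le_pow₀ (by norm_num))
  have hlast' : ⨍ x in closedBall q (R / 2 ^ j), |f x - m₁| ∂μ ≤ P * R * (A + 1) := by
    refine hlast.trans ?_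
    calc P * (A + 1) * (R / 2 ^ j) ≤ P * (A + 1) * R := by gcongr
      _ = _ := by ring
  -- step 5: comparison with `f y`
  have hPy : ∀ r, 0 < r → r ≤ 4 * R →
      ⨍ x in closedBall y r, |f x - ⨍ z in closedBall y r, f z ∂μ| ∂μ ≤ (P * K) * r := by
    intro r hr hr4
    refine (hPf y r hr).trans ?_
    calc P * r * ⨍ z in closedBall y (2 * r), G z ∂μ ≤ P * r * K := by
          gcongr
          exact hGK (2 * r) (by positivity) (by linarith)
      _ = _ := by ring
  have hy := telescope h (c := f y) (show 0 < 4 * R by positivity) (by positivity : 0 ≤ P * K)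
    (hI hf y _) hPy
    (tendsto_average_of_continuousAt h (show 0 < 4 * R by positivity) (hI hf y _) hf.continuousAt)
  have hfy : ∀ x, 0 ≤ |f x - f y| := fun x => abs_nonneg _
  have hchg := average_change h hfy (y := y) (q := q) (r := 2 * R) (ρ := 2 * R) (k := 2) h2R le_rfl
    hq (by nlinarith) (hI (hf.sub continuous_const).abs y _)
  have e4 : 2 * (2 * R) = 4 * R := by ring
  rw [e4] at hchg
  have hm0 : |m₀ - f y| ≤ C ^ 2 * ((1 + 2 * C) * (P * K) * (4 * R)) := by
    refine (abs_average_sub_le (hI hf q _) (h.fin q _).ne (h.real_pos q h2R) (f y)).trans ?_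
    refine hchg.trans ?_
    gcongr
  -- end
  have hRj0 : 0 < R / 2 ^ j := by positivity
  have hi1 : IntegrableOn (fun x => |f x - m₁|) (closedBall q (R / 2 ^ j)) μ :=
    hI (hf.sub continuous_const).abs q _
  have hi2 : IntegrableOn (fun _ : X => |m₁ - f y|) (closedBall q (R / 2 ^ j)) μ :=
    integrableOn_const (h.fin q _).ne
  have h3 := average_mono' measurableSet_closedBall
    (hI (hf.sub continuous_const).abs q (R / 2 ^ j) :
      IntegrableOn (fun x => |f x - f y|) (closedBall q (R / 2 ^ j)) μ)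
    (hi1.add hi2) (fun x _ => abs_sub_le (f x) m₁ (f y))
  have h4 := average_add' (μ := μ) hi1 hi2
  rw [average_const' (h.real_pos q hRj0)] at h4
  have h5 : |m₁ - f y| ≤ |m₁ - m₀| + |m₀ - f y| := abs_sub_le _ _ _
  calc ⨍ x in closedBall q (R / 2 ^ j), |f x - f y| ∂μ ≤ _ := h3
    _ = _ := h4
    _ ≤ P * R * (A + 1) + (4 * C * P * R * (A + 1) +
        C ^ 2 * ((1 + 2 * C) * (P * K) * (4 * R))) := by linarith
    _ = _ := by ring

/-- existence of a point of `closedBall q ρ` where `f` is at least `m - Λ` -/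
lemma exists_ge_of_mean {X : Type u} [PseudoMetricSpace X] [ProperSpace X] [MeasurableSpace X]
    [OpensMeasurableSpace X] {μ : Measure X} {C : ℝ≥0} (h : Dbl μ C) {f : X → ℝ}
    (hf : Continuous f) {q : X} {ρ m Λ : ℝ} (hρ : 0 < ρ)
    (hmean : ⨍ x in closedBall q ρ, |f x - m| ∂μ ≤ Λ) :
    ∃ x ∈ closedBall q ρ, |f x - m| ≤ Λ := by
  by_contra hcon
  push Not at hcon
  have hi : IntegrableOn (fun x => |f x - m|) (closedBall q ρ) μ :=
    integrableOn_cb h (hf.sub continuous_const).abs q ρ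
  obtain ⟨x₀, hx₀, hmin⟩ := (isCompact_closedBall q ρ).exists_isMinOn
    ⟨q, mem_closedBall_self hρ.le⟩ ((hf.sub continuous_const).abs.continuousOn)
  have h1 := average_mono' (μ := μ) measurableSet_closedBall
    (integrableOn_const (h.fin q ρ).ne : IntegrableOn (fun _ : X => |f x₀ - m|) _ μ) hi
    (fun x hx => hmin hx)
  rw [average_const' (h.real_pos q hρ)] at h1
  linarith [hcon x₀ hx₀]

/-- **No holes**, pointwise form: every ball `closedBall q (R / 2 ^ j)` contains a point where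
`|f - f y| ≤ Λ`. -/
theorem no_hole_pt (C : ℝ≥0) (P K c R : ℝ) (hP : 0 ≤ P) (hK : 0 ≤ K) (hc : 0 < c) (hR : 0 < R) :
    ∃ Λ : ℝ, 0 ≤ Λ ∧ ∀ ρ : ℝ, 0 < ρ → ∃ δ : ℝ, 0 < δ ∧
      ∀ (X : Type u) [PseudoMetricSpace X] [ProperSpace X] [MeasurableSpace X]
        [OpensMeasurableSpace X] (μ : Measure X) (_ : Dbl μ C) (y : X) (f G b H : X → ℝ),
        Continuous f → Continuous G → Continuous b → Continuous H → (∀ x, 0 ≤ G x) →
        PI μ f G P → PI μ b H P →
        (∀ x ∈ closedBall y (8 * R), G x ^ 2 * b x ≤ 4) →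
        (∀ r, 0 < r → r ≤ 8 * R → ⨍ x in closedBall y r, G x ∂μ ≤ K) →
        ⨍ x in closedBall y (8 * R), G x ^ 2 ∂μ ≤ K →
        μ.real (closedBall y (8 * R)) ≤ 2 * μ.real {x | x ∈ closedBall y (8 * R) ∧ c ≤ b x} →
        ⨍ x in closedBall y (16 * R), H x ∂μ ≤ δ →
        ∀ q ∈ closedBall y (2 * R), ∃ x ∈ closedBall q ρ, |f x - f y| ≤ Λ := by
  obtain ⟨Λ, hΛ0, hΛ⟩ := no_hole.{u} C P K c R hP hK hc hR
  refine ⟨Λ, hΛ0, fun ρ hρ => ?_⟩
  obtain ⟨j, hj⟩ : ∃ j : ℕ, R / 2 ^ j ≤ ρ := by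
    obtain ⟨j, hj⟩ := pow_unbounded_of_one_lt (R / ρ) (one_lt_two (α := ℝ))
    refine ⟨j, ?_⟩
    rw [div_le_iff₀ (by positivity)]
    rw [div_lt_iff₀ hρ] at hj
    linarith [mul_comm ρ ((2 : ℝ) ^ j)]
  obtain ⟨δ, hδ0, hδ⟩ := hΛ j
  refine ⟨δ, hδ0, ?_⟩
  intro X _ _ _ _ μ h y f G b H hf hG hb hH hG0 hPf hPb hGb hGK hG2 hhalf hHδ q hq
  obtain ⟨x, hx, hx'⟩ := exists_ge_of_mean h hf (by positivity : 0 < R / 2 ^ j)
    (hδ X μ h y f G b H hf hG hb hH hG0 hPf hPb hGb hGK hG2 hhalf hHδ q hq)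
  exact ⟨x, closedBall_subset_closedBall hj hx, hx'⟩

/-- **(T5)**: if `S` is `B`-Lipschitz on `closedBall y (3 R)` and `S x ≥ s₀` wherever
`f x ≥ f y - Λ` there, then `S ≥ s₀ / 2` on `closedBall y (2 R)`. -/
theorem no_hole_lip (C : ℝ≥0) (P K c R : ℝ) (hP : 0 ≤ P) (hK : 0 ≤ K) (hc : 0 < c)
    (hR : 0 < R) :
    ∃ Λ : ℝ, 0 ≤ Λ ∧ ∀ B s₀ : ℝ, 0 ≤ B → 0 < s₀ → ∃ δ : ℝ, 0 < δ ∧
      ∀ (X : Type u) [PseudoMetricSpace X] [ProperSpace X] [MeasurableSpace X]
        [OpensMeasurableSpace X] (μ : Measure X) (_ : Dbl μ C) (y : X) (f G b H S : X → ℝ),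
        Continuous f → Continuous G → Continuous b → Continuous H → (∀ x, 0 ≤ G x) →
        PI μ f G P → PI μ b H P →
        (∀ x ∈ closedBall y (8 * R), G x ^ 2 * b x ≤ 4) →
        (∀ r, 0 < r → r ≤ 8 * R → ⨍ x in closedBall y r, G x ∂μ ≤ K) →
        ⨍ x in closedBall y (8 * R), G x ^ 2 ∂μ ≤ K →
        μ.real (closedBall y (8 * R)) ≤ 2 * μ.real {x | x ∈ closedBall y (8 * R) ∧ c ≤ b x} →
        ⨍ x in closedBall y (16 * R), H x ∂μ ≤ δ →
        (∀ p ∈ closedBall y (3 * R), ∀ q ∈ closedBall y (3 * R), |S p - S q| ≤ B * dist p q) →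
        (∀ x ∈ closedBall y (3 * R), f y - Λ ≤ f x → s₀ ≤ S x) →
        ∀ q ∈ closedBall y (2 * R), s₀ / 2 ≤ S q := by
  obtain ⟨Λ, hΛ0, hΛ⟩ := no_hole_pt.{u} C P K c R hP hK hc hR
  refine ⟨Λ, hΛ0, fun B s₀ hB hs₀ => ?_⟩
  set ρ : ℝ := min R (s₀ / (2 * (B + 1))) with hρ
  have hρ0 : 0 < ρ := by positivity
  have hρR : ρ ≤ R := min_le_left _ _
  have hρB : B * ρ ≤ s₀ / 2 := by
    have h1 : ρ ≤ s₀ / (2 * (B + 1)) := min_le_right _ _
    have h2 : ρ * (2 * (B + 1)) ≤ s₀ := by rwa [le_div_iff₀ (by positivity)] at h1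
    nlinarith
  obtain ⟨δ, hδ0, hδ⟩ := hΛ ρ hρ0
  refine ⟨δ, hδ0, ?_⟩
  intro X _ _ _ _ μ h y f G b H S hf hG hb hH hG0 hPf hPb hGb hGK hG2 hhalf hHδ hS hSf q hq
  obtain ⟨x, hx, hx'⟩ := hδ X μ h y f G b H hf hG hb hH hG0 hPf hPb hGb hGK hG2 hhalf hHδ q hq
  have hq3 : q ∈ closedBall y (3 * R) := closedBall_subset_closedBall (by linarith) hq
  have hx3 : x ∈ closedBall y (3 * R) := by
    have h1 := mem_closedBall.1 hx
    have h2 := mem_closedBall.1 hq
    exact mem_closedBall.2 ((dist_triangle x q y).trans (by linarith))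
  have h1 : s₀ ≤ S x := hSf x hx3 (by linarith [abs_le.1 hx'])
  have h2 := hS x hx3 q hq3
  have h3 : B * dist x q ≤ s₀ / 2 := by
    refine le_trans ?_ hρB
    gcongr
    exact mem_closedBall.1 hx
  linarith [abs_le.1 (h2.trans h3)]

end Crest.Agent.R281.Nh_790
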