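import Crest.Agent.R281.GT12_639
import Crest.Agent.R281.Esc1_989

/-!
# R281 (S0424), NORM-END (helper989): the volume of the algebraic form along an end

The members at the points `z` of the end carry the algebraic form `σ_z` with
`vm (volS σ_z) univ = κ ‖b z‖ ^ n (y z) ^ n`, `b` holomorphic, 1-periodic, zero free near `i∞`
(`b = Q(e, [σ_z])`), `y z ~ L`.  Then `‖b z‖ ~ e ^ (k0 L)` with an integer `k0` and
`c1 e^(kL) L^n ≤ vm (volS σ_z) univ ≤ C1 e^(kL) L^n`, `k = n k0`.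
-/

set_option autoImplicit false
set_option linter.unusedSectionVars false

open Polynomial Set Filter Topology Complex MeasureTheory
open scoped ENNReal

noncomputable section

namespace Crest.Agent.R281.Nme_989

open Crest.Agent.R281.Esc1_989 Crest.Agent.R281.Ends2_989 Crest.Agent.R281.Ends3_989
open Crest.Agent.R281.Ends4_989

/-- eventually near the end = for large imaginary part -/
theorem eventually_lEnd {P : Hp → Prop} : (∀ᶠ z in lEnd, P z) ↔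
    ∃ Y : ℝ, ∀ z : Hp, Y < z.1.im → P z := by
  unfold lEnd
  rw [Filter.eventually_comap]
  constructor
  · intro h
    obtain ⟨Y, hY⟩ := (Filter.eventually_atTop.1 h)
    exact ⟨Y, fun z hz => hY _ hz.le z rfl⟩
  · rintro ⟨Y, hY⟩
    filter_upwards [Filter.eventually_gt_atTop Y] with a ha z hz
    exact hY z (by rw [hz]; exact ha)

instance : (lEnd).NeBot := by
  rw [Filter.neBot_iff]
  intro h
  have h1 : ∀ᶠ z in lEnd, (False : Prop) := by rw [h]; exact Filter.eventually_bot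
  obtain ⟨Y, hY⟩ := eventually_lEnd.1 h1
  have h2 : (0 : ℝ) < (((|Y| + 1 : ℝ) : ℂ) * Complex.I).im := by
    simp; positivity
  refine hY ⟨((|Y| + 1 : ℝ) : ℂ) * Complex.I, h2⟩ ?_
  have h3 : (((|Y| + 1 : ℝ) : ℂ) * Complex.I).im = |Y| + 1 := by simp
  show Y < (((|Y| + 1 : ℝ) : ℂ) * Complex.I).im
  rw [h3]
  have := le_abs_self Y
  linarith

/-- **integer order of a zero free periodic function of moderate growth** -/
theorem order_of_growth {b : ℂ → ℂ} {Y : ℝ} (hb : DifferentiableOn ℂ b {z | Y < z.im})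
    (hper : ∀ z : ℂ, Y < z.im → b (z + 1) = b z) (hb0 : ∀ z : ℂ, Y < z.im → b z ≠ 0)
    {C a : ℝ} (hg : ∀ᶠ z in lEnd, ‖b z.1‖ ≤ C * Real.exp (a * Ls z)) :
    ∃ (k0 : ℤ) (D : ℝ), ∀ᶠ z in lEnd, |Real.log ‖b z.1‖ - k0 * Ls z| ≤ D := by
  obtain ⟨Y1, hY1⟩ := eventually_lEnd.1 hg
  set Y' : ℝ := max (max Y Y1) 0 with hY'
  have hYY : Y ≤ Y' := (le_max_left _ _).trans (le_max_left _ _)
  have hYY1 : Y1 ≤ Y' := (le_max_right _ _).trans (le_max_left _ _)
  have hY0 : 0 ≤ Y' := le_max_right _ _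
  have him : ∀ z : ℂ, (z + (Y' : ℂ) * I).im = z.im + Y' := by intro z; simp
  set g : ℂ → ℂ := fun z => if 0 < z.im then b (z + (Y' : ℂ) * I) else 0 with hgdef
  obtain ⟨m, hm⟩ := exists_nat_ge |a|
  have hC : 0 ≤ |C| := abs_nonneg C
  have hMg : Mg g := by
    refine ⟨?_, ?_, |C| * Real.exp (|a| * (2 * Real.pi * Y')), m, ?_⟩
    · have h1 : DifferentiableOn ℂ (fun z => b (z + (Y' : ℂ) * I)) Hp := by
        refine hb.comp (by fun_prop) ?_
        intro z hz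
        show Y < (z + (Y' : ℂ) * I).im
        rw [him]
        have : 0 < z.im := hz
        linarith
      refine h1.congr fun z hz => ?_
      have : 0 < z.im := hz
      simp [hgdef, this]
    · intro z
      by_cases hz : 0 < z.im
      · have h1 : 0 < (z + 1).im := by simpa using hz
        simp only [hgdef, h1, hz, if_true]
        rw [show z + 1 + (Y' : ℂ) * I = z + (Y' : ℂ) * I + 1 by ring]
        exact hper _ (by rw [him]; linarith)
      · have h1 : ¬ 0 < (z + 1).im := by simpa using hz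
        simp only [hgdef, h1, hz, if_false]
    · intro z hz
      have hz' : 0 < z.im := hz
      have hw : 0 < (z + (Y' : ℂ) * I).im := by rw [him]; linarith
      have h1 := hY1 ⟨z + (Y' : ℂ) * I, hw⟩ (by
        show Y1 < (z + (Y' : ℂ) * I).im
        rw [him]; linarith)
      have h2 : g z = b (z + (Y' : ℂ) * I) := by simp [hgdef, hz']
      rw [h2]
      have h3 : Ls ⟨z + (Y' : ℂ) * I, hw⟩ = Ls ⟨z, hz⟩ + 2 * Real.pi * Y' := by
        simp only [Ls, him]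
        ring
      have hL : 0 < Ls ⟨z, hz⟩ := by
        simp only [Ls]
        have := Real.pi_pos
        positivity
      rw [h3] at h1
      have h4 : ‖qq z‖ ^ m = Real.exp (-(m * Ls ⟨z, hz⟩)) := by
        have h5 := log_norm_qq ⟨z, hz⟩
        have h6 : 0 < ‖qq z‖ := by
          rw [norm_qq]; exact Real.exp_pos _
        have h7 : ‖qq z‖ = Real.exp (- Ls ⟨z, hz⟩) := by
          rw [← h5, Real.exp_log h6]
        rw [h7, ← Real.exp_nat_mul]
        congr 1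
        ring
      rw [h4]
      have h8 : ‖b (z + (Y' : ℂ) * I)‖ ≤
          |C| * Real.exp (|a| * (Ls ⟨z, hz⟩ + 2 * Real.pi * Y')) := by
        refine h1.trans ?_
        have e1 : a * (Ls ⟨z, hz⟩ + 2 * Real.pi * Y') ≤ |a| * (Ls ⟨z, hz⟩ + 2 * Real.pi * Y') := by
          refine mul_le_mul_of_nonneg_right (le_abs_self a) ?_
          have := Real.pi_pos
          positivity
        exact (mul_le_mul_of_nonneg_right (le_abs_self C) (Real.exp_pos _).le).trans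
          (mul_le_mul_of_nonneg_left (Real.exp_le_exp.2 e1) hC)
      calc ‖b (z + (Y' : ℂ) * I)‖ * Real.exp (-(m * Ls ⟨z, hz⟩))
          ≤ |C| * Real.exp (|a| * (Ls ⟨z, hz⟩ + 2 * Real.pi * Y')) *
            Real.exp (-(m * Ls ⟨z, hz⟩)) :=
            mul_le_mul_of_nonneg_right h8 (Real.exp_pos _).le
        _ = |C| * Real.exp (|a| * (2 * Real.pi * Y') + (|a| - m) * Ls ⟨z, hz⟩) := by
            rw [mul_assoc, ← Real.exp_add]
            congr 2
            ring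
        _ ≤ |C| * Real.exp (|a| * (2 * Real.pi * Y')) := by
            refine mul_le_mul_of_nonneg_left (Real.exp_le_exp.2 ?_) hC
            have : (|a| - m) * Ls ⟨z, hz⟩ ≤ 0 :=
              mul_nonpos_of_nonpos_of_nonneg (by linarith) hL.le
            linarith
  have hne : mk g hMg ≠ 0 := by
    intro h0
    have hI : (0 : ℝ) < (I : ℂ).im := by simp
    have h1 := congrArg (ev ⟨I, hI⟩) h0
    rw [ev_mk, map_zero] at h1
    have h2 : g I = b (I + (Y' : ℂ) * I) := by simp [hgdef]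
    change g I = 0 at h1
    rw [h2] at h1
    exact hb0 _ (by rw [him]; simp; linarith) h1
  obtain ⟨k0, D, hk⟩ := order (mk g hMg) hne
  obtain ⟨Y2, hY2⟩ := eventually_lEnd.1 hk
  refine ⟨k0, D + |(k0 : ℝ)| * (2 * Real.pi * Y'), eventually_lEnd.2 ⟨max (Y2 + Y') Y', ?_⟩⟩
  intro w hw
  have hw1 : Y2 + Y' < w.1.im := lt_of_le_of_lt (le_max_left _ _) hw
  have hw2 : Y' < w.1.im := lt_of_le_of_lt (le_max_right _ _) hw
  have hzim : (w.1 - (Y' : ℂ) * I).im = w.1.im - Y' := by simp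
  have hz : 0 < (w.1 - (Y' : ℂ) * I).im := by rw [hzim]; linarith
  have h1 := (hY2 ⟨w.1 - (Y' : ℂ) * I, hz⟩ (by
    show Y2 < (w.1 - (Y' : ℂ) * I).im
    rw [hzim]; linarith)).2
  have h2 : ev ⟨w.1 - (Y' : ℂ) * I, hz⟩ (mk g hMg) = b w.1 := by
    rw [ev_mk]
    simp only [hgdef, hz, if_true]
    congr 1
    ring
  rw [h2] at h1
  have h3 : Ls ⟨w.1 - (Y' : ℂ) * I, hz⟩ = Ls w - 2 * Real.pi * Y' := by
    simp only [Ls, hzim]
    ring
  rw [h3] at h1
  have h4 : Real.log ‖b w.1‖ - k0 * Ls w =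
      (Real.log ‖b w.1‖ - k0 * (Ls w - 2 * Real.pi * Y')) - k0 * (2 * Real.pi * Y') := by ring
  rw [h4]
  refine (abs_sub _ _).trans (add_le_add h1 ?_)
  rw [abs_mul, abs_of_nonneg (show 0 ≤ 2 * Real.pi * Y' by have := Real.pi_pos; positivity)]

open Crest.Agent.R275 Crest.Agent.R275.Geo Crest.Agent.R275.Core144 Crest.Agent.R275.EDR890
open Crest.Agent.R273.Defs_333 Crest.Agent.R273.Kah_333
open Crest.Agent.R273.SerA_945 (Fn)
open Crest.Agent.R273.Vm_333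
open Crest.Agent.R281.Defs_273 Crest.Agent.R281.GT_639
open Crest.Agent.R281.HkP2_508 (volS)
open Crest.Agent.R281.TrPL_726 (Tr)
open Crest.Agent.R281.TrU_249

variable {n r : ℕ} {M : Type} [TopologicalSpace M] [MeasurableSpace M] [BorelSpace M]
  [ConnectedSpace M]

/-- `Scale` for the ring of the end -/
theorem scale_mg : Scale lEnd ev Ls := ⟨tendsto_Ls, fun r hr => by
  obtain ⟨k, C, h⟩ := order r hr
  exact ⟨k, C, h⟩⟩

/-- the volume of the algebraic form has moderate growth -/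
theorem vol_le {𝔭 : PrD n r MgR} {𝔰 : FmD r MgR} (hD : AlgD 𝔭 𝔰) {V : Hp → ℝ}
    (H : ∀ᶠ z in lEnd, ∃ (A : Atl n M) (_ : Countable A.ι) (O : LB A) (U : Fin r → Fn A)
      (σ : HSymp A), IsMb 𝔭 𝔰 (ev z) A O U σ ∧ vm (volS σ) univ = ENNReal.ofReal (V z)) :
    ∃ a C : ℝ, 0 < C ∧ ∀ᶠ z in lEnd, V z ≤ C * Real.exp (a * Ls z) * Ls z ^ n := by
  obtain ⟨G, q1, B, hTr, hq1, hB, hG⟩ := exists_G (M := M) scale_mg hD (by
    filter_upwards [H] with t ht
    obtain ⟨A, _, O, U, σ, h, -⟩ := ht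
    exact ⟨A, O, U, σ, h⟩)
  change GProp 𝔭 𝔰 G q1 B at hG
  have hDp : (0 : ℝ) < 𝔭.F.natDegree := by exact_mod_cast hD.pg.pos
  have hq : ∀ᶠ t in lEnd, ∀ᵐ y : Fin n → ℂ, ph (ev t) y q1 ≠ 0 := scale_mg.ae_ne_zero hq1
  have hLp : ∀ᶠ t in lEnd, 1 ≤ Ls t := tendsto_Ls.eventually_ge_atTop 1
  have hfin : ∀ᶠ t in lEnd, ∫⁻ y : Fin n → ℂ, ENNReal.ofReal (G (pt (ev t) y)) ≠ (⊤ : ℝ≥0∞) := by
    filter_upwards [H, hq] with t ht hqt
    obtain ⟨A, _, O, U, σ, h, hV⟩ := ht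
    refine ne_top_of_le_ne_top ?_ (G_le hD h hB hG hqt)
    rw [hV]
    exact ENNReal.mul_ne_top ENNReal.ofReal_ne_top ENNReal.ofReal_ne_top
  obtain ⟨a, C, f, hC, -, hT⟩ := trop_final scale_mg hTr hfin
  refine ⟨a, 𝔭.F.natDegree * B * C, by positivity, ?_⟩
  filter_upwards [H, hq, hLp, hT] with t ht hqt hLt hTt
  obtain ⟨A, _, O, U, σ, h, hV⟩ := ht
  have h1 := le_G hD h hB hG hqt
  rw [hV] at h1
  have h2 : ENNReal.ofReal (V t) ≤
      ENNReal.ofReal (𝔭.F.natDegree * B * C * Real.exp (a * Ls t) * Ls t ^ n) := by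
    refine h1.trans ?_
    have e1 : ENNReal.ofReal (𝔭.F.natDegree * B * C * Real.exp (a * Ls t) * Ls t ^ n) =
        ENNReal.ofReal (𝔭.F.natDegree * B) *
          ENNReal.ofReal (C * Real.exp (a * Ls t) * Ls t ^ n) := by
      rw [← ENNReal.ofReal_mul (by positivity)]
      congr 1
      ring
    rw [e1]
    exact mul_le_mul_right hTt.2.1 _
  exact (ENNReal.ofReal_le_ofReal_iff (by positivity)).1 h2

/-- **NORM-END** -/
theorem norm_end (hn : 0 < n) {𝔭 : PrD n r MgR} {𝔰 : FmD r MgR} (hD : AlgD 𝔭 𝔰)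
    {b : ℂ → ℂ} {Y : ℝ} (hb : DifferentiableOn ℂ b {z | Y < z.im})
    (hper : ∀ z : ℂ, Y < z.im → b (z + 1) = b z) (hb0 : ∀ z : ℂ, Y < z.im → b z ≠ 0)
    {κ : ℝ} (hκ : 0 < κ) {yy : Hp → ℝ} {c0 C0 : ℝ} (hc0 : 0 < c0)
    (hy : ∀ᶠ z in lEnd, c0 * Ls z ≤ yy z ∧ yy z ≤ C0 * Ls z)
    (H : ∀ᶠ z in lEnd, ∃ (A : Atl n M) (_ : Countable A.ι) (O : LB A) (U : Fin r → Fn A)
      (σ : HSymp A), IsMb 𝔭 𝔰 (ev z) A O U σ ∧
        vm (volS σ) univ = ENNReal.ofReal (κ * ‖b z.1‖ ^ n * yy z ^ n)) :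
    ∃ (k0 : ℤ) (D c1 C1 : ℝ), 0 < c1 ∧
      (∀ᶠ z in lEnd, |Real.log ‖b z.1‖ - k0 * Ls z| ≤ D) ∧
      ∀ᶠ z in lEnd,
        c1 * Real.exp ((n * k0 : ℝ) * Ls z) * Ls z ^ n ≤ κ * ‖b z.1‖ ^ n * yy z ^ n ∧
        κ * ‖b z.1‖ ^ n * yy z ^ n ≤ C1 * Real.exp ((n * k0 : ℝ) * Ls z) * Ls z ^ n := by
  obtain ⟨a, C, hC, hV⟩ := vol_le hD H
  have hL1 : ∀ᶠ z in lEnd, 1 ≤ Ls z := tendsto_Ls.eventually_ge_atTop 1
  have hbY : ∀ᶠ z in lEnd, b z.1 ≠ 0 := eventually_lEnd.2 ⟨Y, fun z hz => hb0 _ hz⟩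
  have hbn : ∀ᶠ z in lEnd, ‖b z.1‖ ^ n ≤ C / (κ * c0 ^ n) * Real.exp (|a| * Ls z) := by
    filter_upwards [hV, hy, hL1] with z h1 h2 h3
    have hL : 0 < Ls z := by linarith
    have h4 : (c0 * Ls z) ^ n ≤ yy z ^ n := pow_le_pow_left₀ (by positivity) h2.1 n
    have h5 : κ * ‖b z.1‖ ^ n * (c0 * Ls z) ^ n ≤ C * Real.exp (|a| * Ls z) * Ls z ^ n := by
      refine (mul_le_mul_of_nonneg_left h4 (by positivity)).trans (h1.trans ?_)
      have : Real.exp (a * Ls z) ≤ Real.exp (|a| * Ls z) :=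
        Real.exp_le_exp.2 (mul_le_mul_of_nonneg_right (le_abs_self a) hL.le)
      gcongr
    rw [mul_pow] at h5
    have h6 : (κ * c0 ^ n * ‖b z.1‖ ^ n) * Ls z ^ n ≤ (C * Real.exp (|a| * Ls z)) * Ls z ^ n := by
      calc (κ * c0 ^ n * ‖b z.1‖ ^ n) * Ls z ^ n = κ * ‖b z.1‖ ^ n * (c0 ^ n * Ls z ^ n) := by ring
        _ ≤ _ := h5
    have h7 := le_of_mul_le_mul_right h6 (by positivity)
    rw [div_mul_eq_mul_div, le_div_iff₀ (by positivity)]
    linarith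
  have hbg : ∀ᶠ z in lEnd, ‖b z.1‖ ≤ (1 + C / (κ * c0 ^ n)) * Real.exp (|a| * Ls z) := by
    filter_upwards [hbn, hL1] with z h1 h2
    have hL : 0 < Ls z := by linarith
    have h3 : 1 ≤ Real.exp (|a| * Ls z) := Real.one_le_exp (by positivity)
    have h4 : ‖b z.1‖ ≤ 1 + ‖b z.1‖ ^ n := by
      rcases le_or_gt ‖b z.1‖ 1 with h | h
      · have : 0 ≤ ‖b z.1‖ ^ n := by positivity
        linarith
      · have := le_self_pow₀ h.le hn.ne'
        linarith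
    have h5 : (1 : ℝ) + ‖b z.1‖ ^ n ≤ Real.exp (|a| * Ls z) +
        C / (κ * c0 ^ n) * Real.exp (|a| * Ls z) := add_le_add h3 h1
    calc ‖b z.1‖ ≤ _ := h4
      _ ≤ _ := h5
      _ = _ := by ring
  obtain ⟨k0, D, hD0⟩ := order_of_growth hb hper hb0 hbg
  refine ⟨k0, D, κ * Real.exp (-(n * D)) * c0 ^ n, κ * Real.exp (n * D) * C0 ^ n, by positivity,
    hD0, ?_⟩
  filter_upwards [hD0, hy, hL1, hbY] with z h1 h2 h3 h4
  have hL : 0 < Ls z := by linarith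
  have hbp : 0 < ‖b z.1‖ := norm_pos_iff.2 h4
  have hyp : 0 ≤ yy z := le_trans (by positivity) h2.1
  have h5 := abs_le.1 h1
  have e1 : ‖b z.1‖ = Real.exp (Real.log ‖b z.1‖) := (Real.exp_log hbp).symm
  have e2 : ‖b z.1‖ ^ n = Real.exp (n * Real.log ‖b z.1‖) := by
    rw [Real.exp_nat_mul, Real.exp_log hbp]
  have hlo : Real.exp (-(n * D)) * Real.exp ((n * k0 : ℝ) * Ls z) ≤ ‖b z.1‖ ^ n := by
    rw [e2, ← Real.exp_add]
    refine Real.exp_le_exp.2 ?_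
    have : (n : ℝ) * (-D) ≤ n * (Real.log ‖b z.1‖ - k0 * Ls z) :=
      mul_le_mul_of_nonneg_left h5.1 (Nat.cast_nonneg n)
    linarith
  have hhi : ‖b z.1‖ ^ n ≤ Real.exp (n * D) * Real.exp ((n * k0 : ℝ) * Ls z) := by
    rw [e2, ← Real.exp_add]
    refine Real.exp_le_exp.2 ?_
    have : (n : ℝ) * (Real.log ‖b z.1‖ - k0 * Ls z) ≤ n * D :=
      mul_le_mul_of_nonneg_left h5.2 (Nat.cast_nonneg n)
    linarith
  have hylo : (c0 * Ls z) ^ n ≤ yy z ^ n := pow_le_pow_left₀ (by positivity) h2.1 n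
  have hyhi : yy z ^ n ≤ (C0 * Ls z) ^ n := pow_le_pow_left₀ hyp h2.2 n
  rw [mul_pow] at hylo hyhi
  constructor
  · calc κ * Real.exp (-(n * D)) * c0 ^ n * Real.exp ((n * k0 : ℝ) * Ls z) * Ls z ^ n
        = κ * (Real.exp (-(n * D)) * Real.exp ((n * k0 : ℝ) * Ls z)) * (c0 ^ n * Ls z ^ n) := by
          ring
      _ ≤ κ * ‖b z.1‖ ^ n * yy z ^ n := by gcongr
  · calc κ * ‖b z.1‖ ^ n * yy z ^ n
        ≤ κ * (Real.exp (n * D) * Real.exp ((n * k0 : ℝ) * Ls z)) * (C0 ^ n * Ls z ^ n) := by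
          gcongr
      _ = _ := by ring

/-- the literal hypothesis of `glue23` -/
theorem mbV_of {𝔭 : PrD n r MgR} {𝔰 : FmD r MgR} {z : Hp} {A : Atl n M} [Countable A.ι]
    {O : LB A} {U : Fin r → Fn A} {σ : HSymp A} (h : IsMb 𝔭 𝔰 (ev z) A O U σ) {V k c1 C1 : ℝ}
    (hV : vm (volS σ) univ = ENNReal.ofReal V)
    (h1 : c1 * Real.exp (k * Ls z) * Ls z ^ n ≤ V) (h2 : V ≤ C1 * Real.exp (k * Ls z) * Ls z ^ n) :
    MbV 𝔭 𝔰 (ev z) A O U σ k c1 C1 (Ls z) where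
  mb := h
  lo := by rw [hV]; exact ENNReal.ofReal_le_ofReal h1
  hi := by rw [hV]; exact ENNReal.ofReal_le_ofReal h2

end Crest.Agent.R281.Nme_989
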