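import Crest.Agent.R281.Nme1_989

/-!
# R281 (S0424), NORM-END part 2 (helper989): period of the algebraic form periodic up to sign

* `order_sq`    : `b (z+1)^2 = b z^2`, zero free, moderate growth ==> `|log‖b‖ - k0 L| ≤ D`, `k0` real
* `norm_end_sq` : NORM-END with this hypothesis
* `im_bounds`   : `c0 L ≤ Im (r z + h (q z)) ≤ C0 L` near the end
-/

set_option autoImplicit false
set_option linter.unusedSectionVars false

open Polynomial Set Filter Topology Complex MeasureTheory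
open scoped ENNReal

noncomputable section

namespace Crest.Agent.R281.Nme_989

open Crest.Agent.R281.Esc1_989 Crest.Agent.R281.Ends2_989 Crest.Agent.R281.Ends3_989
open Crest.Agent.R281.Ends4_989

/-- order of a function which is periodic up to sign -/
theorem order_sq {b : ℂ → ℂ} {Y : ℝ} (hb : DifferentiableOn ℂ b {z | Y < z.im})
    (hper : ∀ z : ℂ, Y < z.im → b (z + 1) ^ 2 = b z ^ 2) (hb0 : ∀ z : ℂ, Y < z.im → b z ≠ 0)
    {C a : ℝ} (hg : ∀ᶠ z in lEnd, ‖b z.1‖ ≤ C * Real.exp (a * Ls z)) :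
    ∃ k0 D : ℝ, ∀ᶠ z in lEnd, |Real.log ‖b z.1‖ - k0 * Ls z| ≤ D := by
  obtain ⟨k, D, h⟩ := order_of_growth (b := fun z => b z ^ 2) (Y := Y) (hb.pow 2) hper
    (fun z hz => pow_ne_zero 2 (hb0 z hz)) (C := C ^ 2) (a := 2 * a) (by
      filter_upwards [hg] with z hz
      rw [norm_pow]
      refine (pow_le_pow_left₀ (norm_nonneg _) hz 2).trans (le_of_eq ?_)
      rw [mul_pow, ← Real.exp_nat_mul]
      congr 2
      push_cast
      ring)
  refine ⟨k / 2, D / 2, ?_⟩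
  filter_upwards [h] with z hz
  rw [norm_pow, Real.log_pow] at hz
  have h1 : Real.log ‖b z.1‖ - k / 2 * Ls z = ((2 : ℕ) * Real.log ‖b z.1‖ - k * Ls z) / 2 := by
    push_cast
    ring
  rw [h1, abs_div, abs_of_pos (show (0 : ℝ) < 2 by norm_num)]
  exact div_le_div_of_nonneg_right hz (by norm_num)

/-- the height of the normal form -/
theorem im_bounds {r : ℝ} (hr : 0 < r) {h : ℂ → ℂ} {ρ : ℝ} (hρ : 0 < ρ)
    (hh : DifferentiableOn ℂ h (Metric.ball 0 ρ)) : ∃ c0 C0 : ℝ, 0 < c0 ∧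
      ∀ᶠ z in lEnd, c0 * Ls z ≤ ((r : ℂ) * z.1 + h (qq z.1)).im ∧
        ((r : ℂ) * z.1 + h (qq z.1)).im ≤ C0 * Ls z := by
  have hc : ContinuousAt h 0 := (hh.continuousOn).continuousAt (Metric.ball_mem_nhds _ hρ)
  have h1 : ∀ᶠ q in 𝓝 (0 : ℂ), ‖h q‖ < ‖h 0‖ + 1 :=
    hc.norm.eventually_lt continuousAt_const (by simp)
  have h2 : ∀ᶠ z in lEnd, ‖h (qq z.1)‖ < ‖h 0‖ + 1 :=
    (tendsto_qq.mono_right nhdsWithin_le_nhds).eventually h1
  have hpi := Real.pi_pos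
  have h3 : ∀ᶠ z in lEnd, 4 * Real.pi / r * (‖h 0‖ + 1) ≤ Ls z := tendsto_Ls.eventually_ge_atTop _
  refine ⟨r / (4 * Real.pi), r / Real.pi, by positivity, ?_⟩
  filter_upwards [h2, h3] with z h4 h5
  have h6 : |(h (qq z.1)).im| ≤ ‖h 0‖ + 1 := (Complex.abs_im_le_norm _).trans h4.le
  have h7 := abs_le.1 h6
  have h8 : ((r : ℂ) * z.1 + h (qq z.1)).im = r / (2 * Real.pi) * Ls z + (h (qq z.1)).im := by
    simp only [Complex.add_im, Complex.mul_im, Complex.ofReal_re, Complex.ofReal_im, zero_mul,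
      add_zero, Ls]
    field_simp
  have h9 : ‖h 0‖ + 1 ≤ r / (4 * Real.pi) * Ls z := by
    rw [div_mul_eq_mul_div, le_div_iff₀ (by positivity)]
    rw [div_mul_eq_mul_div, div_le_iff₀ hr] at h5
    linarith
  have e1 : r / (2 * Real.pi) * Ls z = 2 * (r / (4 * Real.pi) * Ls z) := by
    field_simp
    ring
  have e2 : r / Real.pi * Ls z = 4 * (r / (4 * Real.pi) * Ls z) := by
    field_simp
  rw [h8]
  constructor
  · rw [e1]; linarith [h7.1]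
  · rw [e1, e2]; linarith [h7.2, h9, norm_nonneg (h 0)]

open Crest.Agent.R275 Crest.Agent.R275.Geo Crest.Agent.R275.Core144 Crest.Agent.R275.EDR890
open Crest.Agent.R273.Defs_333 Crest.Agent.R273.Kah_333
open Crest.Agent.R273.SerA_945 (Fn)
open Crest.Agent.R273.Vm_333
open Crest.Agent.R281.Defs_273 Crest.Agent.R281.GT_639
open Crest.Agent.R281.HkP2_508 (volS)
open Crest.Agent.R281.TrPL_726 (Tr)
open Crest.Agent.R281.TrU_249

variable {n r : ℕ} {M : Type} [TopologicalSpace M] [MeasurableSpace M] [BorelSpace M]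
  [ConnectedSpace M]

/-- **NORM-END** for a period which is periodic up to sign -/
theorem norm_end_sq (hn : 0 < n) {𝔭 : PrD n r MgR} {𝔰 : FmD r MgR} (hD : AlgD 𝔭 𝔰)
    {b : ℂ → ℂ} {Y : ℝ} (hb : DifferentiableOn ℂ b {z | Y < z.im})
    (hper : ∀ z : ℂ, Y < z.im → b (z + 1) ^ 2 = b z ^ 2) (hb0 : ∀ z : ℂ, Y < z.im → b z ≠ 0)
    {κ : ℝ} (hκ : 0 < κ) {yy : Hp → ℝ} {c0 C0 : ℝ} (hc0 : 0 < c0)
    (hy : ∀ᶠ z in lEnd, c0 * Ls z ≤ yy z ∧ yy z ≤ C0 * Ls z)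
    (H : ∀ᶠ z in lEnd, ∃ (A : Atl n M) (_ : Countable A.ι) (O : LB A) (U : Fin r → Fn A)
      (σ : HSymp A), IsMb 𝔭 𝔰 (ev z) A O U σ ∧
        vm (volS σ) univ = ENNReal.ofReal (κ * ‖b z.1‖ ^ n * yy z ^ n)) :
    ∃ k0 D c1 C1 : ℝ, 0 < c1 ∧
      (∀ᶠ z in lEnd, |Real.log ‖b z.1‖ - k0 * Ls z| ≤ D) ∧
      ∀ᶠ z in lEnd,
        c1 * Real.exp ((n * k0 : ℝ) * Ls z) * Ls z ^ n ≤ κ * ‖b z.1‖ ^ n * yy z ^ n ∧
        κ * ‖b z.1‖ ^ n * yy z ^ n ≤ C1 * Real.exp ((n * k0 : ℝ) * Ls z) * Ls z ^ n := by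
  obtain ⟨a, C, hC, hV⟩ := vol_le hD H
  have hL1 : ∀ᶠ z in lEnd, 1 ≤ Ls z := tendsto_Ls.eventually_ge_atTop 1
  have hbY : ∀ᶠ z in lEnd, b z.1 ≠ 0 := eventually_lEnd.2 ⟨Y, fun z hz => hb0 _ hz⟩
  have hbn : ∀ᶠ z in lEnd, ‖b z.1‖ ^ n ≤ C / (κ * c0 ^ n) * Real.exp (|a| * Ls z) := by
    filter_upwards [hV, hy, hL1] with z h1 h2 h3
    have hL : 0 < Ls z := by linarith
    have h4 : (c0 * Ls z) ^ n ≤ yy z ^ n := pow_le_pow_left₀ (by positivity) h2.1 n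
    have h5 : κ * ‖b z.1‖ ^ n * (c0 * Ls z) ^ n ≤ C * Real.exp (|a| * Ls z) * Ls z ^ n := by
      refine (mul_le_mul_of_nonneg_left h4 (by positivity)).trans (h1.trans ?_)
      have : Real.exp (a * Ls z) ≤ Real.exp (|a| * Ls z) :=
        Real.exp_le_exp.2 (mul_le_mul_of_nonneg_right (le_abs_self a) hL.le)
      gcongr
    rw [mul_pow] at h5
    have h6 : (κ * c0 ^ n * ‖b z.1‖ ^ n) * Ls z ^ n ≤ (C * Real.exp (|a| * Ls z)) * Ls z ^ n := by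
      calc (κ * c0 ^ n * ‖b z.1‖ ^ n) * Ls z ^ n = κ * ‖b z.1‖ ^ n * (c0 ^ n * Ls z ^ n) := by ring
        _ ≤ _ := h5
    have h7 := le_of_mul_le_mul_right h6 (by positivity)
    rw [div_mul_eq_mul_div, le_div_iff₀ (by positivity)]
    linarith
  have hbg : ∀ᶠ z in lEnd, ‖b z.1‖ ≤ (1 + C / (κ * c0 ^ n)) * Real.exp (|a| * Ls z) := by
    filter_upwards [hbn, hL1] with z h1 h2
    have hL : 0 < Ls z := by linarith
    have h3 : 1 ≤ Real.exp (|a| * Ls z) := Real.one_le_exp (by positivity)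
    have h4 : ‖b z.1‖ ≤ 1 + ‖b z.1‖ ^ n := by
      rcases le_or_gt ‖b z.1‖ 1 with h | h
      · have : 0 ≤ ‖b z.1‖ ^ n := by positivity
        linarith
      · have := le_self_pow₀ h.le hn.ne'
        linarith
    have h5 : (1 : ℝ) + ‖b z.1‖ ^ n ≤ Real.exp (|a| * Ls z) +
        C / (κ * c0 ^ n) * Real.exp (|a| * Ls z) := add_le_add h3 h1
    calc ‖b z.1‖ ≤ _ := h4
      _ ≤ _ := h5
      _ = _ := by ring
  obtain ⟨k0, D, hD0⟩ := order_sq hb hper hb0 hbg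
  refine ⟨k0, D, κ * Real.exp (-(n * D)) * c0 ^ n, κ * Real.exp (n * D) * C0 ^ n, by positivity,
    hD0, ?_⟩
  filter_upwards [hD0, hy, hL1, hbY] with z h1 h2 h3 h4
  have hL : 0 < Ls z := by linarith
  have hbp : 0 < ‖b z.1‖ := norm_pos_iff.2 h4
  have hyp : 0 ≤ yy z := le_trans (by positivity) h2.1
  have h5 := abs_le.1 h1
  have e1 : ‖b z.1‖ = Real.exp (Real.log ‖b z.1‖) := (Real.exp_log hbp).symm
  have e2 : ‖b z.1‖ ^ n = Real.exp (n * Real.log ‖b z.1‖) := by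
    rw [Real.exp_nat_mul, Real.exp_log hbp]
  have hlo : Real.exp (-(n * D)) * Real.exp ((n * k0 : ℝ) * Ls z) ≤ ‖b z.1‖ ^ n := by
    rw [e2, ← Real.exp_add]
    refine Real.exp_le_exp.2 ?_
    have : (n : ℝ) * (-D) ≤ n * (Real.log ‖b z.1‖ - k0 * Ls z) :=
      mul_le_mul_of_nonneg_left h5.1 (Nat.cast_nonneg n)
    linarith
  have hhi : ‖b z.1‖ ^ n ≤ Real.exp (n * D) * Real.exp ((n * k0 : ℝ) * Ls z) := by
    rw [e2, ← Real.exp_add]
    refine Real.exp_le_exp.2 ?_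
    have : (n : ℝ) * (Real.log ‖b z.1‖ - k0 * Ls z) ≤ n * D :=
      mul_le_mul_of_nonneg_left h5.2 (Nat.cast_nonneg n)
    linarith
  have hylo : (c0 * Ls z) ^ n ≤ yy z ^ n := pow_le_pow_left₀ (by positivity) h2.1 n
  have hyhi : yy z ^ n ≤ (C0 * Ls z) ^ n := pow_le_pow_left₀ hyp h2.2 n
  rw [mul_pow] at hylo hyhi
  constructor
  · calc κ * Real.exp (-(n * D)) * c0 ^ n * Real.exp ((n * k0 : ℝ) * Ls z) * Ls z ^ n
        = κ * (Real.exp (-(n * D)) * Real.exp ((n * k0 : ℝ) * Ls z)) * (c0 ^ n * Ls z ^ n) := by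
          ring
      _ ≤ κ * ‖b z.1‖ ^ n * yy z ^ n := by gcongr
  · calc κ * ‖b z.1‖ ^ n * yy z ^ n
        ≤ κ * (Real.exp (n * D) * Real.exp ((n * k0 : ℝ) * Ls z)) * (C0 ^ n * Ls z ^ n) := by
          gcongr
      _ = _ := by ring

end Crest.Agent.R281.Nme_989
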