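import Mathlib

/-!
# Row 281, B4-NORM (249 #6045 (5)): the normalisation of the volume form at a puncture

`b` is holomorphic without zeros on a punctured disc and its modulus is, up to powers of
`log 1/|t|`, a real power `|t|^a`. Then `a` is an integer `k`, and `b t = t^k h t` with `h`
holomorphic without zeros on the full disc. In particular `|b|` is comparable with `|t|^a`.
-/

set_option autoImplicit false

open Filter Topology Set Metric

namespace Crest.Agent.R281.Nrm_513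

/-- `x ^ d * (log 1/x) ^ K → 0` for `x → 0+`, `d > 0`. -/
lemma tendsto_rpow_log {d : ℝ} (hd : 0 < d) (K : ℕ) :
    Tendsto (fun x : ℝ => x ^ d * (Real.log x⁻¹) ^ K) (𝓝[>] 0) (𝓝 0) := by
  have h : Tendsto (fun x : ℝ => Real.log x * x ^ (d / (K + 1))) (𝓝[>] 0) (𝓝 0) :=
    tendsto_log_mul_rpow_nhdsGT_zero (by positivity)
  have h2 : Tendsto (fun x : ℝ => x ^ (d / (K + 1))) (𝓝[>] 0) (𝓝 0) := by
    have := (Real.continuousAt_rpow_const (0 : ℝ) (d / (K + 1)) (Or.inr (by positivity))).tendsto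
    rw [Real.zero_rpow (by positivity)] at this
    exact this.mono_left nhdsWithin_le_nhds
  have h3 : Tendsto (fun x : ℝ => (-(Real.log x * x ^ (d / (K + 1)))) ^ K *
      x ^ (d / (K + 1))) (𝓝[>] 0) (𝓝 ((-0) ^ K * 0)) := (h.neg.pow K).mul h2
  rw [mul_zero] at h3
  refine h3.congr' ?_
  filter_upwards [self_mem_nhdsWithin] with x hx
  have hx : 0 < x := hx
  rw [Real.log_inv]
  have e1 : x ^ d = (x ^ (d / (K + 1))) ^ K * x ^ (d / (K + 1)) := by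
    rw [← pow_succ, ← Real.rpow_natCast, ← Real.rpow_mul hx.le]
    congr 1
    push_cast
    field_simp
  rw [e1, show -(Real.log x * x ^ (d / (K + 1))) = (-Real.log x) * x ^ (d / (K + 1)) by ring,
    mul_pow]
  ring

/-- If `c ≤ C * x ^ d * (log 1/x)^K` for all small `x > 0`, `c > 0`, then `d ≤ 0`. -/
lemma exp_nonpos {d c C ρ : ℝ} (hc : 0 < c) (hρ : 0 < ρ) (K : ℕ)
    (h : ∀ x : ℝ, 0 < x → x < ρ → c ≤ C * (x ^ d * (Real.log x⁻¹) ^ K)) : d ≤ 0 := by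
  by_contra hd
  push Not at hd
  have h1 := (tendsto_rpow_log hd K).const_mul C
  rw [mul_zero] at h1
  have h2 : ∀ᶠ x in 𝓝[>] (0 : ℝ), C * (x ^ d * (Real.log x⁻¹) ^ K) < c :=
    h1.eventually_lt_const hc
  have h3 : ∀ᶠ x in 𝓝[>] (0 : ℝ), x < ρ := by
    filter_upwards [Ioo_mem_nhdsGT hρ] with x hx using hx.2
  obtain ⟨x, hx1, hx2, hx3⟩ := (h2.and (h3.and self_mem_nhdsWithin)).exists
  exact absurd (h x hx3 hx2) (not_le.2 hx1)

/-- **Normal form.** -/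
theorem normal_form {b : ℂ → ℂ} {r : ℝ} (hr : 0 < r) (hr1 : r < 1)
    (hb : DifferentiableOn ℂ b (ball 0 r \ {0})) (hb0 : ∀ t ∈ ball (0 : ℂ) r \ {0}, b t ≠ 0)
    {a c C : ℝ} (K : ℕ) (hc : 0 < c)
    (hlow : ∀ t ∈ ball (0 : ℂ) r \ {0}, c * ‖t‖ ^ a ≤ ‖b t‖ * (Real.log ‖t‖⁻¹) ^ K)
    (hup : ∀ t ∈ ball (0 : ℂ) r \ {0}, ‖b t‖ ≤ C * ‖t‖ ^ a * (Real.log ‖t‖⁻¹) ^ K) :
    ∃ (k : ℤ) (h : ℂ → ℂ), a = k ∧ DifferentiableOn ℂ h (ball 0 r) ∧
      (∀ t ∈ ball (0 : ℂ) r, h t ≠ 0) ∧ ∀ t ∈ ball (0 : ℂ) r \ {0}, b t = t ^ k * h t := by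
  classical
  have hlog : ∀ t ∈ ball (0 : ℂ) r \ {0}, 0 < Real.log ‖t‖⁻¹ := by
    intro t ht
    have h0 : 0 < ‖t‖ := norm_pos_iff.2 ht.2
    have h1 : ‖t‖ < 1 := lt_trans (by simpa using ht.1) hr1
    exact Real.log_pos ((one_lt_inv₀ h0).2 h1)
  have hC : 0 < C := by
    have hmem : ((r / 2 : ℝ) : ℂ) ∈ ball (0 : ℂ) r \ {0} := by
      constructor
      · simp only [mem_ball, dist_zero_right, Complex.norm_real, Real.norm_eq_abs]
        rw [abs_of_pos (by positivity)]; linarith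
      · simp only [mem_singleton_iff, Complex.ofReal_eq_zero]; positivity
    have h1 := hup _ hmem
    have h2 : 0 < ‖b ((r / 2 : ℝ) : ℂ)‖ := norm_pos_iff.2 (hb0 _ hmem)
    have h3 : 0 < ‖((r / 2 : ℝ) : ℂ)‖ ^ a * (Real.log ‖((r / 2 : ℝ) : ℂ)‖⁻¹) ^ K :=
      mul_pos (Real.rpow_pos_of_pos (norm_pos_iff.2 hmem.2) _) (pow_pos (hlog _ hmem) _)
    by_contra hC
    push Not at hC
    have : C * ‖((r / 2 : ℝ) : ℂ)‖ ^ a * (Real.log ‖((r / 2 : ℝ) : ℂ)‖⁻¹) ^ K ≤ 0 := by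
      rw [mul_assoc]
      exact mul_nonpos_of_nonpos_of_nonneg hC h3.le
    linarith
  -- multiply by a large power: removable singularity
  obtain ⟨m', hm'⟩ := exists_nat_gt (1 - a)
  obtain ⟨m, hm, hm0⟩ : ∃ m : ℕ, 1 - a < m ∧ m ≠ 0 :=
    ⟨m' + 1, by push_cast; linarith, Nat.succ_ne_zero _⟩
  set B : ℂ → ℂ := fun t => t ^ m * b t with hBdef
  have hBd : DifferentiableOn ℂ B (ball 0 r \ {0}) :=
    (differentiable_id.pow m).differentiableOn.mul hb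
  have hBlim : Tendsto B (𝓝[≠] 0) (𝓝 0) := by
    rw [tendsto_zero_iff_norm_tendsto_zero]
    have hma : 0 < (m : ℝ) + a := by linarith
    have h1 : Tendsto (fun t : ℂ => C * (‖t‖ ^ ((m : ℝ) + a) * (Real.log ‖t‖⁻¹) ^ K))
        (𝓝[≠] 0) (𝓝 0) := by
      have := (tendsto_rpow_log hma K).const_mul C
      rw [mul_zero] at this
      exact this.comp (tendsto_norm_nhdsNE_zero)
    refine squeeze_zero' (Eventually.of_forall fun t => norm_nonneg _) ?_ h1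
    have hev : ∀ᶠ t in 𝓝[≠] (0 : ℂ), t ∈ ball (0 : ℂ) r \ {0} := by
      rw [eventually_mem_set]
      exact sdiff_mem_nhdsWithin_compl (ball_mem_nhds _ hr) _
    filter_upwards [hev] with t ht
    have h0 : 0 < ‖t‖ := norm_pos_iff.2 ht.2
    rw [hBdef]
    simp only [norm_mul, norm_pow]
    rw [Real.rpow_add h0, Real.rpow_natCast]
    calc ‖t‖ ^ m * ‖b t‖ ≤ ‖t‖ ^ m * (C * ‖t‖ ^ a * (Real.log ‖t‖⁻¹) ^ K) :=
          mul_le_mul_of_nonneg_left (hup t ht) (by positivity)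
      _ = _ := by ring
  have hB0 : B 0 = 0 := by simp [hBdef, hm0]
  have hBc : ContinuousAt B 0 := by
    rw [continuousAt_iff_punctured_nhds, hB0]
    exact hBlim
  have hBall : DifferentiableOn ℂ B (ball 0 r) :=
    (Complex.differentiableOn_compl_singleton_and_continuousAt_iff
      (ball_mem_nhds (0 : ℂ) hr)).1 ⟨hBd, hBc⟩
  have hBan : AnalyticAt ℂ B 0 := hBall.analyticAt (ball_mem_nhds _ hr)
  have hpunct : ∀ᶠ t in 𝓝[≠] (0 : ℂ), t ∈ ball (0 : ℂ) r \ {0} := by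
    rw [eventually_mem_set]
    exact sdiff_mem_nhdsWithin_compl (ball_mem_nhds _ hr) _
  have hBne : ¬ ∀ᶠ z in 𝓝 (0 : ℂ), B z = 0 := by
    intro hcon
    obtain ⟨t, ht1, ht2⟩ := ((hcon.filter_mono nhdsWithin_le_nhds).and hpunct).exists
    exact (mul_ne_zero (pow_ne_zero _ ht2.2) (hb0 t ht2)) ht1
  obtain ⟨n, g, hg, hg0, hgB⟩ := hBan.exists_eventuallyEq_pow_smul_nonzero_iff.2 hBne
  simp only [sub_zero, smul_eq_mul] at hgB
  set k : ℤ := (n : ℤ) - m with hk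
  set h : ℂ → ℂ := fun t => if t = 0 then g 0 else b t * t ^ (-k) with hh
  have hhb : ∀ t : ℂ, t ≠ 0 → b t = t ^ k * h t := by
    intro t ht
    simp only [hh, if_neg ht]
    rw [mul_left_comm, ← zpow_add₀ ht, add_neg_cancel, zpow_zero, mul_one]
  have hhg : ∀ᶠ t in 𝓝 (0 : ℂ), h t = g t := by
    filter_upwards [hgB] with t ht
    by_cases h0 : t = 0
    · simp [hh, h0]
    · have e1 : t ^ m * b t = t ^ n * g t := ht
      simp only [hh, if_neg h0]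
      have e2 : b t = t ^ (-(m : ℤ)) * (t ^ n * g t) := by
        rw [← e1, ← mul_assoc, ← zpow_natCast t m, ← zpow_add₀ h0]; simp
      rw [e2, ← zpow_natCast t n]
      have e3 : t ^ (-(m : ℤ)) * (t ^ (n : ℤ) * g t) * t ^ (-k) =
          (t ^ (-(m : ℤ)) * t ^ (n : ℤ) * t ^ (-k)) * g t := by ring
      rw [e3, ← zpow_add₀ h0, ← zpow_add₀ h0, hk]
      have e4 : -(m : ℤ) + (n : ℤ) + -((n : ℤ) - m) = 0 := by ring
      rw [e4, zpow_zero, one_mul]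
  have hhd : DifferentiableOn ℂ h (ball 0 r) := by
    refine (Complex.differentiableOn_compl_singleton_and_continuousAt_iff
      (ball_mem_nhds (0 : ℂ) hr)).1 ⟨?_, ?_⟩
    · have h1 : DifferentiableOn ℂ (fun t : ℂ => b t * t ^ (-k)) (ball 0 r \ {0}) := by
        refine hb.mul ?_
        intro t ht
        have ht0 : t ≠ 0 := ht.2
        exact (differentiableAt_zpow.2 (Or.inl ht0)).differentiableWithinAt
      refine h1.congr fun t ht => ?_
      have ht0 : t ≠ 0 := ht.2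
      simp only [hh, if_neg ht0]
    · exact hg.continuousAt.congr (hhg.mono fun t ht => ht.symm)
  have hhne : ∀ t ∈ ball (0 : ℂ) r, h t ≠ 0 := by
    intro t ht
    by_cases h0 : t = 0
    · simpa [hh, h0] using hg0
    · intro hcon
      have := hhb t h0
      rw [hcon, mul_zero] at this
      exact hb0 t ⟨ht, h0⟩ this
  -- comparison of the exponents
  have hgpos : 0 < ‖g 0‖ := norm_pos_iff.2 hg0
  have hgn : Tendsto (fun t => ‖h t‖) (𝓝 0) (𝓝 ‖g 0‖) := by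
    have h1 : ContinuousAt h 0 := (hhd.differentiableAt (ball_mem_nhds _ hr)).continuousAt
    have h2 := h1.norm
    have h3 : h 0 = g 0 := by simp [hh]
    have h4 := h2.tendsto
    rwa [h3] at h4
  have hev1 : ∀ᶠ t in 𝓝 (0 : ℂ), ‖g 0‖ / 2 < ‖h t‖ := hgn.eventually_const_lt (by linarith)
  have hev2 : ∀ᶠ t in 𝓝 (0 : ℂ), ‖h t‖ < 2 * ‖g 0‖ := hgn.eventually_lt_const (by linarith)
  obtain ⟨ρ0, hρ0, hρ⟩ := Metric.eventually_nhds_iff_ball.1 (hev1.and hev2)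
  set ρ := min ρ0 r with hρdef
  have hρpos : 0 < ρ := lt_min hρ0 hr
  have key : ∀ x : ℝ, 0 < x → x < ρ →
      ((x : ℂ) ∈ ball (0 : ℂ) r \ {0}) ∧ ‖(x : ℂ)‖ = x ∧ ‖g 0‖ / 2 < ‖h x‖ ∧
        ‖h x‖ < 2 * ‖g 0‖ ∧ ‖b x‖ = x ^ (k : ℝ) * ‖h x‖ := by
    intro x hx hxρ
    have hn : ‖(x : ℂ)‖ = x := by rw [Complex.norm_real, Real.norm_eq_abs, abs_of_pos hx]
    have hx0 : (x : ℂ) ≠ 0 := by exact_mod_cast hx.ne'
    have hmem0 : (x : ℂ) ∈ ball (0 : ℂ) ρ0 := by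
      rw [mem_ball_zero_iff, hn]; exact lt_of_lt_of_le hxρ (min_le_left _ _)
    have hmem : (x : ℂ) ∈ ball (0 : ℂ) r := by
      rw [mem_ball_zero_iff, hn]; exact lt_of_lt_of_le hxρ (min_le_right _ _)
    refine ⟨⟨hmem, hx0⟩, hn, (hρ _ hmem0).1, (hρ _ hmem0).2, ?_⟩
    rw [hhb _ hx0, norm_mul, norm_zpow, hn, Real.rpow_intCast]
  have hak : a = k := by
    apply le_antisymm
    · -- upper bound for b: a - k ≤ 0
      have h1 : a - k ≤ 0 := by
        refine exp_nonpos (c := ‖g 0‖ / 2) (C := C) (by positivity) hρpos K ?_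
        intro x hx hxρ
        obtain ⟨hmem, hn, hl, hu, hbx⟩ := key x hx hxρ
        have h2 := hup _ hmem
        rw [hn, hbx] at h2
        have h3 : 0 < x ^ (k : ℝ) := Real.rpow_pos_of_pos hx _
        rw [Real.rpow_sub hx]
        have h4 : x ^ (k : ℝ) * (‖g 0‖ / 2) ≤ C * x ^ a * Real.log x⁻¹ ^ K :=
          le_trans (mul_le_mul_of_nonneg_left hl.le h3.le) h2
        rw [show C * (x ^ a / x ^ (k : ℝ) * Real.log x⁻¹ ^ K) =
          (C * x ^ a * Real.log x⁻¹ ^ K) / x ^ (k : ℝ) by ring, le_div_iff₀ h3]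
        linarith
      linarith
    · have h1 : (k : ℝ) - a ≤ 0 := by
        refine exp_nonpos (c := c) (C := 2 * ‖g 0‖) hc hρpos K ?_
        intro x hx hxρ
        obtain ⟨hmem, hn, hl, hu, hbx⟩ := key x hx hxρ
        have h2 := hlow _ hmem
        rw [hn, hbx] at h2
        have h3 : 0 < x ^ a := Real.rpow_pos_of_pos hx _
        have h5 : 0 < x ^ (k : ℝ) := Real.rpow_pos_of_pos hx _
        have hl0 : 0 < Real.log x⁻¹ := by have := hlog _ hmem; rwa [hn] at this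
        have h4 : c * x ^ a ≤ x ^ (k : ℝ) * (2 * ‖g 0‖) * Real.log x⁻¹ ^ K := by
          refine le_trans h2 ?_
          exact mul_le_mul_of_nonneg_right (mul_le_mul_of_nonneg_left hu.le h5.le)
            (pow_nonneg hl0.le _)
        rw [Real.rpow_sub hx, show 2 * ‖g 0‖ * (x ^ (k : ℝ) / x ^ a * Real.log x⁻¹ ^ K) =
          (x ^ (k : ℝ) * (2 * ‖g 0‖) * Real.log x⁻¹ ^ K) / x ^ a by ring, le_div_iff₀ h3]
        exact h4
      linarith
  exact ⟨k, h, hak, hhd, hhne, fun t ht => hhb t ht.2⟩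

/-- Two-sided comparison `|b| ~ |t|^a` on a smaller punctured disc. -/
theorem comparable {b : ℂ → ℂ} {r : ℝ} (hr : 0 < r) (hr1 : r < 1)
    (hb : DifferentiableOn ℂ b (ball 0 r \ {0})) (hb0 : ∀ t ∈ ball (0 : ℂ) r \ {0}, b t ≠ 0)
    {a c C : ℝ} (K : ℕ) (hc : 0 < c)
    (hlow : ∀ t ∈ ball (0 : ℂ) r \ {0}, c * ‖t‖ ^ a ≤ ‖b t‖ * (Real.log ‖t‖⁻¹) ^ K)
    (hup : ∀ t ∈ ball (0 : ℂ) r \ {0}, ‖b t‖ ≤ C * ‖t‖ ^ a * (Real.log ‖t‖⁻¹) ^ K)
    {s : ℝ} (hs : s < r) :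
    ∃ c' C' : ℝ, 0 < c' ∧ 0 < C' ∧ ∀ t ∈ closedBall (0 : ℂ) s \ {0},
      c' * ‖t‖ ^ a ≤ ‖b t‖ ∧ ‖b t‖ ≤ C' * ‖t‖ ^ a := by
  obtain ⟨k, h, hak, hhd, hhne, hbh⟩ := normal_form hr hr1 hb hb0 K hc hlow hup
  have hsub : closedBall (0 : ℂ) s ⊆ ball 0 r := closedBall_subset_ball hs
  have hcont : ContinuousOn (fun t => ‖h t‖) (closedBall (0 : ℂ) s) :=
    (hhd.continuousOn.mono hsub).norm
  rcases le_or_gt 0 s with hs0 | hs0
  · have hne : (closedBall (0 : ℂ) s).Nonempty := nonempty_closedBall.2 hs0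
    obtain ⟨x, hx, hxmin⟩ := (isCompact_closedBall (0 : ℂ) s).exists_isMinOn hne hcont
    obtain ⟨y, hy, hymax⟩ := (isCompact_closedBall (0 : ℂ) s).exists_isMaxOn hne hcont
    refine ⟨‖h x‖, ‖h y‖, norm_pos_iff.2 (hhne _ (hsub hx)), norm_pos_iff.2 (hhne _ (hsub hy)),
      fun t ht => ?_⟩
    have h0 : 0 < ‖t‖ := norm_pos_iff.2 ht.2
    have e : ‖b t‖ = ‖t‖ ^ a * ‖h t‖ := by
      rw [hbh t ⟨hsub ht.1, ht.2⟩, norm_mul, norm_zpow, hak, Real.rpow_intCast]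
    have hp : 0 ≤ ‖t‖ ^ a := (Real.rpow_pos_of_pos h0 _).le
    rw [e]
    constructor
    · rw [mul_comm]; exact mul_le_mul_of_nonneg_left (hxmin ht.1) hp
    · rw [mul_comm]; exact mul_le_mul_of_nonneg_right (hymax ht.1) hp
  · refine ⟨1, 1, one_pos, one_pos, fun t ht => ?_⟩
    have := ht.1
    rw [mem_closedBall_zero_iff] at this
    linarith [norm_nonneg t]

end Crest.Agent.R281.Nrm_513
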