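import Mathlib

/-! S6-JEN (NU), part 0: two measures on an open set with the same integrals of test functions. -/

set_option linter.unusedSectionVars false

open MeasureTheory Set Filter Topology Metric
open scoped ENNReal NNReal BoundedContinuousFunction

noncomputable section
namespace Crest.Agent.R281.Nu_563

variable {X : Type*} [TopologicalSpace X] [T2Space X] [LocallyCompactSpace X]
  [SecondCountableTopology X] [HasOuterApproxClosed X] [MeasurableSpace X] [BorelSpace X]

theorem integrable_cc {U : Set X} {ρ : Measure X} (hρ : ∀ K ⊆ U, IsCompact K → ρ K < ⊤) {a : X → ℝ}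
    (ha : Continuous a) (hac : HasCompactSupport a) (has : tsupport a ⊆ U) : Integrable a ρ := by
  obtain ⟨C, hC⟩ := hac.exists_bound_of_continuous ha
  have h2 : IntegrableOn a (tsupport a) ρ :=
    Measure.integrableOn_of_bounded (hρ _ has hac).ne ha.aestronglyMeasurable
      (Eventually.of_forall hC)
  exact (integrableOn_iff_integrable_of_support_subset (subset_tsupport a)).1 h2

theorem restrict_compact_eq {U : Set X} (hU : IsOpen U) {μ ν : Measure X}
    (hμ : ∀ K ⊆ U, IsCompact K → μ K < ⊤) (hν : ∀ K ⊆ U, IsCompact K → ν K < ⊤)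
    (h : ∀ a : X → ℝ, Continuous a → HasCompactSupport a → tsupport a ⊆ U → (∀ x, 0 ≤ a x) →
      ∫ x, a x ∂μ = ∫ x, a x ∂ν) {K : Set X} (hK : IsCompact K) (hKU : K ⊆ U) :
    μ.restrict K = ν.restrict K := by
  obtain ⟨θ, h1, hc, hs, h01⟩ := exists_continuousMap_one_of_isCompact_subset_isOpen hK hU hKU
  set μθ : Measure X := μ.withDensity fun x => ENNReal.ofReal (θ x) with hμθ
  set νθ : Measure X := ν.withDensity fun x => ENNReal.ofReal (θ x) with hνθ
  have hθm : Measurable fun x => ENNReal.ofReal (θ x) := θ.continuous.measurable.ennreal_ofReal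
  have hl : ∀ (ρ : Measure X), (∀ K ⊆ U, IsCompact K → ρ K < ⊤) → ∀ f : X →ᵇ ℝ≥0,
      ∫⁻ x, f x ∂(ρ.withDensity fun x => ENNReal.ofReal (θ x)) = ENNReal.ofReal (∫ x, θ x * (f x : ℝ) ∂ρ) := by
    intro ρ hρ f
    have hfm : Measurable fun x => (f x : ℝ≥0∞) := f.continuous.measurable.coe_nnreal_ennreal
    rw [lintegral_withDensity_eq_lintegral_mul _ hθm hfm]
    have hcont : Continuous fun x => θ x * (f x : ℝ) := θ.continuous.mul (NNReal.continuous_coe.comp f.continuous)
    have hts : tsupport (fun x => θ x * (f x : ℝ)) ⊆ tsupport θ := closure_mono fun x hx => by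
      simp only [Function.mem_support, ne_eq] at hx ⊢
      intro h0; exact hx (by simp [h0])
    have hi : Integrable (fun x => θ x * (f x : ℝ)) ρ :=
      integrable_cc hρ hcont (IsCompact.of_isClosed_subset hc (isClosed_tsupport _) hts) (hts.trans hs)
    rw [ofReal_integral_eq_lintegral_ofReal hi (Eventually.of_forall fun x =>
      mul_nonneg (h01 x).1 (f x).coe_nonneg)]
    refine lintegral_congr fun x => ?_
    rw [Pi.mul_apply, ENNReal.ofReal_mul (h01 x).1, ENNReal.ofReal_coe_nnreal]
  have hfin : ∀ (ρ : Measure X), (∀ K ⊆ U, IsCompact K → ρ K < ⊤) →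
      IsFiniteMeasure (ρ.withDensity fun x => ENNReal.ofReal (θ x)) := by
    intro ρ hρ
    refine ⟨?_⟩
    have := hl ρ hρ (1 : X →ᵇ ℝ≥0)
    simp only [BoundedContinuousFunction.coe_one, Pi.one_apply, ENNReal.coe_one, lintegral_const, one_mul] at this
    rw [this]
    exact ENNReal.ofReal_lt_top
  have := hfin μ hμ
  have heq : μθ = νθ := by
    refine ext_of_forall_lintegral_eq_of_IsFiniteMeasure (μ := μθ) (ν := νθ) fun f => ?_
    rw [hμθ, hνθ, hl μ hμ f, hl ν hν f]
    have hcont : Continuous fun x => θ x * (f x : ℝ) := θ.continuous.mul (NNReal.continuous_coe.comp f.continuous)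
    have hts : tsupport (fun x => θ x * (f x : ℝ)) ⊆ tsupport θ := closure_mono fun x hx => by
      simp only [Function.mem_support, ne_eq] at hx ⊢
      intro h0; exact hx (by simp [h0])
    rw [h _ hcont (IsCompact.of_isClosed_subset hc (isClosed_tsupport _) hts) (hts.trans hs)
      (fun x => mul_nonneg (h01 x).1 (f x).coe_nonneg)]
  have hr : ∀ (ρ : Measure X), (ρ.withDensity fun x => ENNReal.ofReal (θ x)).restrict K = ρ.restrict K := by
    intro ρ
    rw [restrict_withDensity hK.measurableSet]
    have h2 : (fun x => ENNReal.ofReal (θ x)) =ᵐ[ρ.restrict K] fun _ => 1 := by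
      filter_upwards [ae_restrict_mem hK.measurableSet] with x hx
      have := h1 hx
      rw [this]; simp
    rw [withDensity_congr_ae h2]
    exact withDensity_one
  rw [← hr μ, ← hr ν, ← hμθ, ← hνθ, heq]

theorem restrict_open_eq {U : Set X} (hU : IsOpen U) {μ ν : Measure X}
    (hμ : ∀ K ⊆ U, IsCompact K → μ K < ⊤) (hν : ∀ K ⊆ U, IsCompact K → ν K < ⊤)
    (h : ∀ a : X → ℝ, Continuous a → HasCompactSupport a → tsupport a ⊆ U → (∀ x, 0 ≤ a x) →
      ∫ x, a x ∂μ = ∫ x, a x ∂ν) : μ.restrict U = ν.restrict U := by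
  have hσ : IsSigmaCompact U := by
    have : LocallyCompactSpace U := hU.locallyCompactSpace
    have h1 := (isSigmaCompact_univ (X := U)).image continuous_subtype_val
    rwa [Subtype.coe_image_univ] at h1
  obtain ⟨K, hK, hKU⟩ := hσ
  rw [← hKU, Measure.restrict_iUnion_congr]
  intro n
  exact restrict_compact_eq hU hμ hν h (hK n) (by rw [← hKU]; exact subset_iUnion K n)

/-- a continuous function whose integrals against non-negative test functions are non-negative -/
theorem nonneg_of_test {U : Set X} (hU : IsOpen U) {μ : Measure X} [IsFiniteMeasureOnCompacts μ]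
    [μ.IsOpenPosMeasure] {g : X → ℝ} (hg : ContinuousOn g U)
    (h : ∀ a : X → ℝ, Continuous a → HasCompactSupport a → tsupport a ⊆ U → (∀ x, 0 ≤ a x) →
      0 ≤ ∫ x, a x * g x ∂μ) : ∀ c ∈ U, 0 ≤ g c := by
  intro c hc
  by_contra hneg
  push Not at hneg
  have hO : IsOpen (U ∩ {x | g x < 0} : Set X) := by
    have := hg.isOpen_inter_preimage hU (isOpen_Iio (a := (0 : ℝ)))
    exact this
  obtain ⟨θ, h1, hcθ, hs, h01⟩ := exists_continuousMap_one_of_isCompact_subset_isOpen
    (isCompact_singleton (x := c)) hO (singleton_subset_iff.2 ⟨hc, hneg⟩)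
  have hts : tsupport (fun x => -(θ x * g x)) ⊆ tsupport θ := closure_mono fun x hx => by
    simp only [Function.mem_support, ne_eq] at hx ⊢
    intro h0; exact hx (by simp [h0])
  have hcont : Continuous fun x => -(θ x * g x) :=
    ContinuousOn.continuous_of_tsupport_subset ((θ.continuous.continuousOn.mul hg).neg) hU
      (hts.trans (hs.trans inter_subset_left))
  have hpos : 0 < ∫ x, -(θ x * g x) ∂μ := by
    refine hcont.integral_pos_of_hasCompactSupport_nonneg_nonzero (x := c)
      (IsCompact.of_isClosed_subset hcθ (isClosed_tsupport _) hts) ?_ ?_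
    · intro x
      show 0 ≤ -(θ x * g x)
      by_cases hx : x ∈ tsupport θ
      · have h2 : g x < 0 := (hs hx).2
        have h3 := (h01 x).1
        nlinarith
      · have : θ x = 0 := image_eq_zero_of_notMem_tsupport hx
        rw [this]; simp
    · have : θ c = 1 := h1 (mem_singleton c)
      show -(θ c * g c) ≠ 0
      rw [this, one_mul, neg_ne_zero]
      exact hneg.ne
  have h4 := h θ θ.continuous hcθ (hs.trans inter_subset_left) (fun x => (h01 x).1)
  rw [integral_neg] at hpos
  linarith

end Crest.Agent.R281.Nu_563
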