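import Crest.Agent.R281.Nu0_563
import Crest.Agent.R281.Mass4_519
import Crest.Agent.R281.Jen6_563

/-!
# R281 (S0424), DIV 6, (C): (NU) of helper166 #8096 (helper563)

`F : Fam A d 1 U`, `K : Kah A`, `μ = vm (volK (F.kah K))`, `b v = F.y v 0`.
* `den F K c`   : the fibre integral of `det K_V`;
* `test_id`     : `∫ a (b v) dμ = ∫ a c * den c dc`;
* `den_nonneg`, `den_continuousOn`;
* `map_mu`      : `μ.map b = (volume.restrict {c | ofC c ∈ U}).withDensity (ofReal ∘ den)`;
* `nu_bound`    : Jensen for the family.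
-/

set_option autoImplicit false
set_option linter.unusedSectionVars false
set_option linter.style.haveILetI false

open Set Filter Topology Complex Function MeasureTheory Metric
open scoped ContDiff Matrix ComplexConjugate ComplexOrder ENNReal Real

namespace Crest.Agent.R281.Nu_563

open Crest.Agent.R275 Crest.Agent.R275.Geo Crest.Agent.R275.Core144 Crest.Agent.R275.EDR890
open Crest.Agent.R275.Pai323 Crest.Agent.R275.C1d194
open Crest.Agent.R273.Defs_333 Crest.Agent.R273.Kah_333 Crest.Agent.R273.Hess_333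
open Crest.Agent.R273.Vol_333 Crest.Agent.R273.Vm_333
open Crest.Agent.R273.StokesV_332 Crest.Agent.R281.S6D_664
open Crest.Agent.R281.Mass2_519 Crest.Agent.R281.Mass3_519
open Crest.Agent.R281.Mass4_519 (cont_y0)
open Crest.Agent.R281.Fub4_163 (ofC ofC_zero_apply integral_ofC fib intD_base cpt_base offK_base
  fib_integrable fib_continuousOn contOn_of_smAt fib_base)
open Crest.Agent.R281.Fub_192 (continuous_y)

noncomputable section

variable {N d : ℕ} {M : Type} [TopologicalSpace M] {A : Atl N M} {U : Set (Cn 1)}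

theorem continuous_ofC : Continuous (ofC : ℂ → Cn 1) := by
  unfold ofC
  fun_prop

/-- the density `det K_V` -/
def detV (F : Fam A d 1 U) (K : Kah A) : F.B.ι → F.V → ℂ := fun k v => ((F.kah K).g k v).det

/-- its fibre integral -/
def den (F : Fam A d 1 U) (K : Kah A) (c : ℂ) : ℝ := (fib F (detV F K) (ofC c)).re

variable (F : Fam A d 1 U) (K : Kah A)

theorem smAt_detV (k : F.B.ι) : F.B.SmAt k (detV F K k) := smAt_det ((F.kah K).sm k)

theorem contOn_detV (k : F.B.ι) : ContinuousOn (detV F K k) (F.B.e k).source :=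
  contOn_of_smAt F (smAt_detV F K k)

theorem den_continuousOn (hU : IsOpen U) : ContinuousOn (den F K) {c | ofC c ∈ U} := by
  have h1 : ContinuousOn (fib F (detV F K)) U := fib_continuousOn F hU (contOn_detV F K)
  exact Complex.continuous_re.comp_continuousOn (h1.comp continuous_ofC.continuousOn fun c hc => hc)

section test

variable {F K} {a : ℂ → ℝ}

/-- the test function on `Cn 1` -/
def tst (a : ℂ → ℝ) (u : Cn 1) : ℂ := (a (u 0) : ℂ)

theorem tst_cont (ha : Continuous a) : Continuous (tst a) :=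
  Complex.continuous_ofReal.comp (ha.comp (EuclideanSpace.proj (0 : Fin 1) : Cn 1 →L[ℂ] ℂ).continuous)

theorem tst_ts (hc : HasCompactSupport a) : tsupport (tst a) ⊆ ofC '' tsupport a := by
  refine closure_minimal ?_ (hc.isCompact.image continuous_ofC).isClosed
  intro u hu
  refine ⟨u 0, subset_tsupport _ ?_, ofC_zero_apply u⟩
  intro h0
  apply hu
  show ((a (u 0) : ℝ) : ℂ) = 0
  rw [h0, Complex.ofReal_zero]

theorem tst_cc (hc : HasCompactSupport a) : HasCompactSupport (tst a) :=
  (hc.isCompact.image continuous_ofC).of_isClosed_subset (isClosed_tsupport _) (tst_ts hc)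

theorem tst_U (hc : HasCompactSupport a) (hs : tsupport a ⊆ {c | ofC c ∈ U}) :
    tsupport (tst a) ⊆ U := by
  intro u hu
  obtain ⟨c, hc, rfl⟩ := tst_ts hc hu
  exact hs hc

end test

/-- **the tested identity** -/
theorem test_id [MeasurableSpace F.V] [BorelSpace F.V] {a : ℂ → ℝ} (ha : Continuous a)
    (hc : HasCompactSupport a) (hs : tsupport a ⊆ {c | ofC c ∈ U}) :
    ∫ v, a (F.y v 0) ∂(vm (volK (F.kah K))) = ∫ c, a c * den F K c := by
  have hcont := tst_cont ha
  have hcc := tst_cc hc
  have htU := tst_U hc hs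
  have hK := cpt_base F hcc htU
  have h0 : ∀ v, v ∉ F.y ⁻¹' tsupport (tst a) → tst a (F.y v) = 0 := fun v hv =>
    image_eq_zero_of_notMem_tsupport hv
  have hf : Integrable (fun v => tst a (F.y v)) (vm (volK (F.kah K))) :=
    Mass3_519.integrable_cc _ (hcont.comp (continuous_y F)) hK h0
  have h1 := integral_vm_intD (volK (F.kah K)) F.P hf hK h0
  have h2 : intD F.P (fun i x => ((volK (F.kah K)).w i x : ℂ) * tst a (F.y x)) =
      intD F.P (fun k v => tst a (F.y v) * detV F K k v) := by
    refine intD_congr F.P fun i x hx => ?_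
    rw [volK_w (F.kah K) i hx, mul_comm]
    rfl
  have h3 := intD_base F hcont hcc htU (contOn_detV F K)
  have h4 := integral_ofC fun u => tst a u * fib F (detV F K) u
  have h5 : ∫ v, tst a (F.y v) ∂(vm (volK (F.kah K))) =
      ∫ c : ℂ, (a c : ℂ) * fib F (detV F K) (ofC c) := by
    rw [h1, h2, h3, h4]
    rfl
  have hi : Integrable (fun c : ℂ => (a c : ℂ) * fib F (detV F K) (ofC c)) := by
    have h6 := fib_integrable F (f := fun k v => tst a (F.y v) * detV F K k v)
      (fun k => ((hcont.comp (continuous_y F)).continuousOn).mul (contOn_detV F K k))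
      hK (offK_base F (tst a) (detV F K))
    have h7 : Integrable (fun x : RI 1 → ℝ => tst a (cc x) * fib F (detV F K) (cc x)) := by
      refine h6.congr (Eventually.of_forall fun x => ?_)
      exact fib_base F (tst a) (detV F K) (cc x)
    have h8 := (Fub4_163.mp_ofC.integrable_comp h7.aestronglyMeasurable).2 h7
    refine h8.congr (Eventually.of_forall fun c => ?_)
    show tst a (cc (rc (ofC c))) * fib F (detV F K) (cc (rc (ofC c))) = _
    rw [cc_rc]
    rfl
  have h9 : ((∫ v, a (F.y v 0) ∂(vm (volK (F.kah K))) : ℝ) : ℂ) =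
      ∫ v, tst a (F.y v) ∂(vm (volK (F.kah K))) := (integral_ofReal (𝕜 := ℂ)).symm
  have h10 : (∫ c : ℂ, (a c : ℂ) * fib F (detV F K) (ofC c)).re = ∫ c, a c * den F K c := by
    have := integral_re (𝕜 := ℂ) hi
    simp only [RCLike.re_to_complex] at this
    rw [← this]
    refine integral_congr_ae (Eventually.of_forall fun c => ?_)
    show ((a c : ℂ) * fib F (detV F K) (ofC c)).re = a c * den F K c
    rw [Complex.re_ofReal_mul]
    rfl
  rw [← h10, ← h5, ← h9, Complex.ofReal_re]

theorem den_nonneg (hU : IsOpen U) : ∀ c, ofC c ∈ U → 0 ≤ den F K c := by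
  letI : MeasurableSpace F.V := borel F.V
  haveI : BorelSpace F.V := ⟨rfl⟩
  refine nonneg_of_test (X := ℂ) (μ := volume) (hU.preimage continuous_ofC) (den_continuousOn F K hU) ?_
  intro a h1 h2 h3 h4
  rw [← test_id F K h1 h2 h3]
  exact integral_nonneg fun v => h4 _

/-- **the push forward of the volume of the family** -/
theorem map_mu (hU : IsOpen U) [MeasurableSpace F.V] [BorelSpace F.V] :
    Measure.map (fun v => F.y v 0) (vm (volK (F.kah K))) =
      (volume.restrict {c : ℂ | ofC c ∈ U}).withDensity fun c => ENNReal.ofReal (den F K c) := by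
  have hlf := isLocallyFinite_vm (volK (F.kah K))
  have hU' : IsOpen {c : ℂ | ofC c ∈ U} := hU.preimage continuous_ofC
  have hb : Measurable fun v => F.y v 0 := (cont_y0 F).measurable
  have hdc := den_continuousOn F K hU
  have hdm : AEMeasurable (fun c => ENNReal.ofReal (den F K c)) (volume.restrict {c : ℂ | ofC c ∈ U}) :=
    (hdc.aemeasurable hU'.measurableSet).ennreal_ofReal
  have key := restrict_open_eq (X := ℂ) hU'
    (μ := Measure.map (fun v => F.y v 0) (vm (volK (F.kah K))))
    (ν := (volume.restrict {c : ℂ | ofC c ∈ U}).withDensity fun c => ENNReal.ofReal (den F K c))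
    ?_ ?_ ?_
  · have e1 : (Measure.map (fun v => F.y v 0) (vm (volK (F.kah K)))).restrict {c : ℂ | ofC c ∈ U} =
        Measure.map (fun v => F.y v 0) (vm (volK (F.kah K))) := by
      refine Measure.restrict_eq_self_of_ae_mem ?_
      refine (ae_map_iff (p := fun c => ofC c ∈ U) hb.aemeasurable hU'.measurableSet).2
        (Eventually.of_forall fun v => ?_)
      rw [ofC_zero_apply]
      exact F.mem v
    have e2 : ((volume.restrict {c : ℂ | ofC c ∈ U}).withDensity
        fun c => ENNReal.ofReal (den F K c)).restrict {c : ℂ | ofC c ∈ U} =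
        (volume.restrict {c : ℂ | ofC c ∈ U}).withDensity fun c => ENNReal.ofReal (den F K c) := by
      rw [restrict_withDensity hU'.measurableSet, Measure.restrict_restrict hU'.measurableSet, inter_self]
    rw [← e1, key, e2]
  · intro C hCU hC
    rw [Measure.map_apply hb hC.measurableSet]
    have h1 : (fun v => F.y v 0) ⁻¹' C = F.y ⁻¹' (ofC '' C) := by
      ext v
      constructor
      · intro hv
        exact ⟨F.y v 0, hv, ofC_zero_apply _⟩
      · rintro ⟨c, hc, hcv⟩
        show F.y v 0 ∈ C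
        rw [← hcv]
        exact hc
    rw [h1]
    refine (F.proper _ ?_ (hC.image continuous_ofC)).measure_lt_top
    rintro _ ⟨c, hc, rfl⟩
    exact hCU hc
  · intro C hCU hC
    rw [withDensity_apply _ hC.measurableSet, Measure.restrict_restrict hC.measurableSet,
      inter_eq_left.2 hCU]
    have h1 : IntegrableOn (den F K) C := (hdc.mono hCU).integrableOn_compact hC
    exact h1.lintegral_lt_top
  · intro a h1 h2 h3 h4
    have h5 : ∫ c, a c ∂(Measure.map (fun v => F.y v 0) (vm (volK (F.kah K)))) =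
        ∫ v, a (F.y v 0) ∂(vm (volK (F.kah K))) :=
      integral_map hb.aemeasurable h1.aestronglyMeasurable
    rw [h5, test_id F K h1 h2 h3]
    have h6 : ∫ c, a c ∂((volume.restrict {c : ℂ | ofC c ∈ U}).withDensity
        fun c => ENNReal.ofReal (den F K c)) =
        ∫ c in {c : ℂ | ofC c ∈ U}, (ENNReal.ofReal (den F K c)).toReal • a c :=
      integral_withDensity_eq_integral_toReal_smul₀ hdm
        (Eventually.of_forall fun c => ENNReal.ofReal_lt_top) a
    rw [h6, ← setIntegral_eq_integral_of_forall_compl_eq_zero (s := {c : ℂ | ofC c ∈ U})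
      (f := fun c => a c * den F K c) fun c hc => by
        have : a c = 0 := image_eq_zero_of_notMem_tsupport fun h => hc (h3 h)
        show a c * den F K c = 0
        rw [this, zero_mul]]
    refine setIntegral_congr_fun hU'.measurableSet fun c hc => ?_
    show a c * den F K c = (ENNReal.ofReal (den F K c)).toReal • a c
    rw [ENNReal.toReal_ofReal (den_nonneg F K hU c hc), smul_eq_mul, mul_comm]

open Crest.Agent.R281.Jen_563 (lap PolIn jensen_measureP)

/-- the push forward over a set of the base -/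
theorem map_mu_restrict (hU : IsOpen U) [MeasurableSpace F.V] [BorelSpace F.V] {W : Set ℂ}
    (hW : MeasurableSet W) :
    Measure.map (fun v => F.y v 0) ((vm (volK (F.kah K))).restrict ((fun v => F.y v 0) ⁻¹' W)) =
      (volume.restrict (W ∩ {c : ℂ | ofC c ∈ U})).withDensity fun c => ENNReal.ofReal (den F K c) := by
  have hb : Measurable fun v => F.y v 0 := (cont_y0 F).measurable
  rw [← Measure.restrict_map hb hW, map_mu F K hU, restrict_withDensity hW, Measure.restrict_restrict hW]

/-- **(NU)** -/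
theorem nu_bound' (hU : IsOpen U) [MeasurableSpace F.V] [BorelSpace F.V] {a0 : ℂ} {R : ℝ} (hR : 0 < R)
    (hc : ({c : ℂ | ofC c ∉ U} ∩ ball a0 R).Countable) {G : ℂ → ℝ} {m₁ m₂ : ℝ}
    (hG : ContDiffOn ℝ 2 G (ball a0 R \ {c : ℂ | ofC c ∉ U}))
    (hm : ∀ c ∈ ball a0 R \ {c : ℂ | ofC c ∉ U}, m₁ ≤ G c ∧ G c ≤ m₂)
    (hl : ∀ c ∈ ball a0 R \ {c : ℂ | ofC c ∉ U},
      (fib F (fun k v => ((F.kah K).g k v).det) (ofC c)).re = lap G c) :
    ∫⁻ v in {v | ‖F.y v 0 - a0‖ < R}, ENNReal.ofReal (Real.log (R / ‖F.y v 0 - a0‖))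
      ∂(vm (volK (F.kah K))) ≤ ENNReal.ofReal (2 * π * (m₂ - m₁)) := by
  have hU' : IsOpen {c : ℂ | ofC c ∈ U} := hU.preimage continuous_ofC
  have hb : Measurable fun v => F.y v 0 := (cont_y0 F).measurable
  have e0 : ball a0 R \ {c : ℂ | ofC c ∉ U} = ball a0 R ∩ {c : ℂ | ofC c ∈ U} := by
    ext c; simp
  have hop : IsOpen (ball a0 R \ {c : ℂ | ofC c ∉ U}) := by rw [e0]; exact isOpen_ball.inter hU'
  have hP : PolIn (ball a0 R) {c : ℂ | ofC c ∉ U} := PolIn.of_countable hop hc
  have hden : ∀ c ∈ ball a0 R \ {c : ℂ | ofC c ∉ U}, den F K c = lap G c := fun c hc => hl c hc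
  have hpos : ∀ c ∈ ball a0 R \ {c : ℂ | ofC c ∉ U}, 0 ≤ lap G c := by
    intro c hc
    rw [← hden c hc]
    rw [e0] at hc
    exact den_nonneg F K hU c hc.2
  have hset : {v | ‖F.y v 0 - a0‖ < R} = (fun v => F.y v 0) ⁻¹' ball a0 R := by
    ext v; simp [mem_ball, dist_eq_norm]
  rw [hset]
  refine jensen_measureP ((vm (volK (F.kah K))).restrict ((fun v => F.y v 0) ⁻¹' ball a0 R)) hb a0 hR hP
    hG hm hpos (le_of_eq ?_)
  rw [map_mu_restrict F K hU measurableSet_ball, ← e0]
  refine withDensity_congr_ae ?_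
  filter_upwards [ae_restrict_mem hop.measurableSet] with c hc
  rw [hden c hc]

/-- **(NU)**, with the measure `F.mu K` of `S6D_664`. -/
theorem nu_bound (hU : IsOpen U) {a0 : ℂ} {R : ℝ} (hR : 0 < R)
    (hc : ({c : ℂ | ofC c ∉ U} ∩ ball a0 R).Countable) {G : ℂ → ℝ} {m₁ m₂ : ℝ}
    (hG : ContDiffOn ℝ 2 G (ball a0 R \ {c : ℂ | ofC c ∉ U}))
    (hm : ∀ c ∈ ball a0 R \ {c : ℂ | ofC c ∉ U}, m₁ ≤ G c ∧ G c ≤ m₂)
    (hl : ∀ c ∈ ball a0 R \ {c : ℂ | ofC c ∉ U},
      (fib F (fun k v => ((F.kah K).g k v).det) (ofC c)).re = lap G c) :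
    letI : MeasurableSpace F.V := borel F.V
    ∫⁻ v in {v | ‖F.y v 0 - a0‖ < R}, ENNReal.ofReal (Real.log (R / ‖F.y v 0 - a0‖))
      ∂(F.mu K) ≤ ENNReal.ofReal (2 * π * (m₂ - m₁)) := by
  letI : MeasurableSpace F.V := borel F.V
  haveI : BorelSpace F.V := ⟨rfl⟩
  exact nu_bound' F K hU hR hc hG hm hl

end

end Crest.Agent.R281.Nu_563
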