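import Crest.Agent.R281.Nu1_563
import Crest.Agent.R281.Lf4_425

/-!
# R281 (S0424), DIV 6, (C): (NU) in the literal form of helper166 #8533 (helper563)
-/

set_option autoImplicit false
set_option linter.unusedSectionVars false
set_option linter.style.haveILetI false

open Set Filter Topology Complex Function MeasureTheory Metric
open scoped ContDiff Matrix ComplexConjugate ComplexOrder ENNReal Real

namespace Crest.Agent.R281.Nu_563

open Crest.Agent.R275 Crest.Agent.R275.Geo Crest.Agent.R275.Core144 Crest.Agent.R275.EDR890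
open Crest.Agent.R275.Pai323 Crest.Agent.R275.C1d194
open Crest.Agent.R273.Defs_333 Crest.Agent.R273.Kah_333 Crest.Agent.R273.Hess_333
open Crest.Agent.R273.Vol_333 Crest.Agent.R273.Vm_333
open Crest.Agent.R273.StokesV_332 Crest.Agent.R281.S6D_664
open Crest.Agent.R281.Mass2_519 Crest.Agent.R281.Mass3_519
open Crest.Agent.R281.Fub4_163 (ofC ofC_zero_apply fib fib_of_mem)
open Crest.Agent.R281.Lf4_425 (push_eq_leaf)
open Crest.Agent.R281.Fib2_425 (push)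
open Crest.Agent.R281.Jen_563 (lap)

noncomputable section

variable {N d : ℕ} {M : Type} [TopologicalSpace M] {A : Atl N M}

theorem push_eq_fib {m : ℕ} {U : Set (Cn m)} (F : Fam A d m U) (f : F.B.ι → F.V → ℂ) {u : Cn m}
    (hu : u ∈ U) : push F.P f u = fib F f u := by
  rw [push_eq_leaf F f hu, fib_of_mem F hu]

variable {U : Set (Cn 1)} (F : Fam A d 1 U) (K : Kah A)

/-- **(NU)**, literal form of #8533 -/
theorem nu_bound_push (hU : IsOpen U) {a0 : ℂ} {R : ℝ} (hR : 0 < R) {E : Set ℂ} (hE : E.Countable)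
    (hUE : ∀ c ∈ ball a0 R, ofC c ∈ U ↔ c ∉ E) {G : ℂ → ℝ} {m₁ m₂ : ℝ}
    (hG2 : ContDiffOn ℝ 2 G (ball a0 R \ E)) (hM : ∀ c ∈ ball a0 R \ E, m₁ ≤ G c ∧ G c ≤ m₂)
    (hG : ∀ c ∈ ball a0 R \ E,
      (push F.P (fun k v => ((F.kah K).g k v).det) (ofC c)).re = lap G c) :
    letI : MeasurableSpace F.V := borel F.V
    ∫⁻ v in {v | ‖F.y v 0 - a0‖ < R}, ENNReal.ofReal (Real.log (R / ‖F.y v 0 - a0‖))
      ∂(F.mu K) ≤ ENNReal.ofReal (2 * π * (m₂ - m₁)) := by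
  have e1 : ball a0 R \ {c : ℂ | ofC c ∉ U} = ball a0 R \ E := by
    ext c
    constructor
    · rintro ⟨h1, h2⟩
      exact ⟨h1, (hUE c h1).1 (not_not.1 h2)⟩
    · rintro ⟨h1, h2⟩
      exact ⟨h1, not_not.2 ((hUE c h1).2 h2)⟩
  have hc : ({c : ℂ | ofC c ∉ U} ∩ ball a0 R).Countable := by
    refine hE.mono ?_
    rintro c ⟨h1, h2⟩
    by_contra h
    exact h1 ((hUE c h2).2 h)
  refine nu_bound F K hU hR hc (G := G) (by rw [e1]; exact hG2) (by rw [e1]; exact hM) ?_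
  rw [e1]
  intro c hc
  rw [← hG c hc, push_eq_fib F _ ((hUE c hc.1).2 hc.2)]

/-- the same for the normalised coordinate `(F.y v 0 - a0) / R` -/
theorem nu_bound_norm (hU : IsOpen U) {a0 : ℂ} {R : ℝ} (hR : 0 < R) {E : Set ℂ} (hE : E.Countable)
    (hUE : ∀ c ∈ ball a0 R, ofC c ∈ U ↔ c ∉ E) {G : ℂ → ℝ} {m₁ m₂ : ℝ}
    (hG2 : ContDiffOn ℝ 2 G (ball a0 R \ E)) (hM : ∀ c ∈ ball a0 R \ E, m₁ ≤ G c ∧ G c ≤ m₂)
    (hG : ∀ c ∈ ball a0 R \ E,
      (push F.P (fun k v => ((F.kah K).g k v).det) (ofC c)).re = lap G c) :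
    letI : MeasurableSpace F.V := borel F.V
    ∫⁻ v in {v | ‖(F.y v 0 - a0) / R‖ < 1}, ENNReal.ofReal (Real.log (1 / ‖(F.y v 0 - a0) / R‖))
      ∂(F.mu K) ≤ ENNReal.ofReal (2 * π * (m₂ - m₁)) := by
  have h := nu_bound_push F K hU hR hE hUE hG2 hM hG
  have e1 : ∀ v, ‖(F.y v 0 - a0) / R‖ = ‖F.y v 0 - a0‖ / R := fun v => by
    rw [norm_div, Complex.norm_real, Real.norm_of_nonneg hR.le]
  have e2 : {v | ‖(F.y v 0 - a0) / R‖ < 1} = {v | ‖F.y v 0 - a0‖ < R} := by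
    ext v
    show ‖(F.y v 0 - a0) / R‖ < 1 ↔ ‖F.y v 0 - a0‖ < R
    rw [e1, div_lt_one hR]
  have e3 : ∀ v, (1 : ℝ) / ‖(F.y v 0 - a0) / R‖ = R / ‖F.y v 0 - a0‖ := fun v => by
    rw [e1, one_div_div]
  simp only [e2, e3]
  exact h

end

end Crest.Agent.R281.Nu_563
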