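import Mathlib

/-!
# Row 281, OPEN-TORI (helper763), part 1: families of functions converging in `C^n`, locally
uniformly, along a filter (Mathlib only)

* `TT l O n f f1` : `f p → f1` together with all derivatives up to order `n`, locally uniformly on
  `O`, along `p → l`
* `TT.bil`        : closed under fixed bounded bilinear maps
* `TT.comp`       : closed under composition with a fixed smooth map
* `TT.unif`       : uniform convergence on compact sets
-/

set_option autoImplicit false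

open Set Filter Topology
open scoped ContDiff

namespace Crest.Agent.R281.OT_763

noncomputable section

variable {P : Type*}

/-- `f p → f1` with all derivatives up to order `n`, locally uniformly on `O` -/
def TT {E : Type} [NormedAddCommGroup E] [NormedSpace ℝ E] (l : Filter P) (O : Set E) :
    (n : ℕ) → {F : Type} → [NormedAddCommGroup F] → [NormedSpace ℝ F] → (P → E → F) → (E → F) →
    Prop
  | 0, _, _, _, f, f1 => ∀ z ∈ O, Tendsto (fun q : P × E => f q.1 q.2) (l ×ˢ 𝓝 z) (𝓝 (f1 z))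
  | n + 1, _, _, _, f, f1 =>
    (∀ z ∈ O, Tendsto (fun q : P × E => f q.1 q.2) (l ×ˢ 𝓝 z) (𝓝 (f1 z))) ∧
      TT l O n (fun p => fderiv ℝ (f p)) (fderiv ℝ f1)

namespace TT

variable {E : Type} [NormedAddCommGroup E] [NormedSpace ℝ E] {l : Filter P} {O : Set E}

theorem zero_iff {F : Type} [NormedAddCommGroup F] [NormedSpace ℝ F] {f : P → E → F} {f1 : E → F} :
    TT l O 0 f f1 ↔ ∀ z ∈ O, Tendsto (fun q : P × E => f q.1 q.2) (l ×ˢ 𝓝 z) (𝓝 (f1 z)) :=
  Iff.rfl

theorem succ_iff {n : ℕ} {F : Type} [NormedAddCommGroup F] [NormedSpace ℝ F] {f : P → E → F}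
    {f1 : E → F} :
    TT l O (n + 1) f f1 ↔
      (∀ z ∈ O, Tendsto (fun q : P × E => f q.1 q.2) (l ×ˢ 𝓝 z) (𝓝 (f1 z))) ∧
      TT l O n (fun p => fderiv ℝ (f p)) (fderiv ℝ f1) :=
  Iff.rfl

theorem c0 {n : ℕ} {F : Type} [NormedAddCommGroup F] [NormedSpace ℝ F] {f : P → E → F} {f1 : E → F}
    (h : TT l O n f f1) {z : E} (hz : z ∈ O) :
    Tendsto (fun q : P × E => f q.1 q.2) (l ×ˢ 𝓝 z) (𝓝 (f1 z)) := by
  cases n with
  | zero => exact h z hz
  | succ n => exact h.1 z hz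

theorem fd {n : ℕ} {F : Type} [NormedAddCommGroup F] [NormedSpace ℝ F] {f : P → E → F} {f1 : E → F}
    (h : TT l O (n + 1) f f1) : TT l O n (fun p => fderiv ℝ (f p)) (fderiv ℝ f1) := h.2

theorem of_succ {n : ℕ} : ∀ {F : Type} [NormedAddCommGroup F] [NormedSpace ℝ F] {f : P → E → F}
    {f1 : E → F}, TT l O (n + 1) f f1 → TT l O n f f1 := by
  induction n with
  | zero => intro F _ _ f f1 h; exact h.1
  | succ n ih => intro F _ _ f f1 h; exact ⟨h.1, ih h.2⟩

theorem mono {n : ℕ} : ∀ {F : Type} [NormedAddCommGroup F] [NormedSpace ℝ F] {f : P → E → F}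
    {f1 : E → F} {O' : Set E}, TT l O n f f1 → O' ⊆ O → TT l O' n f f1 := by
  induction n with
  | zero => intro F _ _ f f1 O' h hO z hz; exact h z (hO hz)
  | succ n ih => intro F _ _ f f1 O' h hO; exact ⟨fun z hz => h.1 z (hO hz), ih h.2 hO⟩

omit [NormedSpace ℝ E] in
/-- a property of small points of `O`, locally uniformly -/
theorem eventually_mem (hO : IsOpen O) {z : E} (hz : z ∈ O) : ∀ᶠ q in l ×ˢ 𝓝 z, q.2 ∈ O :=
  tendsto_snd.eventually (hO.mem_nhds hz)

theorem congr {n : ℕ} (hO : IsOpen O) : ∀ {F : Type} [NormedAddCommGroup F] [NormedSpace ℝ F]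
    {f g : P → E → F} {f1 g1 : E → F}, TT l O n f f1 → (∀ᶠ p in l, EqOn (g p) (f p) O) →
    EqOn g1 f1 O → TT l O n g g1 := by
  have key : ∀ {F : Type} [NormedAddCommGroup F] [NormedSpace ℝ F]
      {f g : P → E → F} {f1 g1 : E → F},
      (∀ z ∈ O, Tendsto (fun q : P × E => f q.1 q.2) (l ×ˢ 𝓝 z) (𝓝 (f1 z))) →
      (∀ᶠ p in l, EqOn (g p) (f p) O) → EqOn g1 f1 O →
      (∀ z ∈ O, Tendsto (fun q : P × E => g q.1 q.2) (l ×ˢ 𝓝 z) (𝓝 (g1 z))) := by
    intro F _ _ f g f1 g1 h hg hg1 z hz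
    rw [hg1 hz]
    refine (h z hz).congr' ?_
    filter_upwards [tendsto_fst.eventually hg, eventually_mem hO hz] with q h1 h2
    exact (h1 h2).symm
  induction n with
  | zero => intro F _ _ f g f1 g1 h hg hg1; exact key h hg hg1
  | succ n ih =>
    intro F _ _ f g f1 g1 h hg hg1
    refine ⟨key h.1 hg hg1, ih h.2 ?_ ?_⟩
    · filter_upwards [hg] with p hp z hz
      exact Filter.EventuallyEq.fderiv_eq (hp.eventuallyEq_of_mem (hO.mem_nhds hz))
    · intro z hz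
      exact Filter.EventuallyEq.fderiv_eq (hg1.eventuallyEq_of_mem (hO.mem_nhds hz))

theorem const {n : ℕ} (hO : IsOpen O) : ∀ {F : Type} [NormedAddCommGroup F] [NormedSpace ℝ F]
    {f1 : E → F}, ContDiffOn ℝ n f1 O → TT l O n (fun _ => f1) f1 := by
  have key : ∀ {F : Type} [NormedAddCommGroup F] [NormedSpace ℝ F] {f1 : E → F},
      ContinuousOn f1 O → ∀ z ∈ O, Tendsto (fun q : P × E => f1 q.2) (l ×ˢ 𝓝 z) (𝓝 (f1 z)) := by
    intro F _ _ f1 hf z hz
    exact ((hf z hz).continuousAt (hO.mem_nhds hz)).tendsto.comp tendsto_snd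
  induction n with
  | zero => intro F _ _ f1 h; exact key h.continuousOn
  | succ n ih =>
    intro F _ _ f1 h
    refine ⟨key h.continuousOn, ih ?_⟩
    exact h.fderiv_of_isOpen hO (by push_cast; exact le_rfl)

theorem add {n : ℕ} (hO : IsOpen O) : ∀ {F : Type} [NormedAddCommGroup F] [NormedSpace ℝ F]
    {f g : P → E → F} {f1 g1 : E → F},
    (∀ᶠ p in l, ContDiffOn ℝ n (f p) O) → (∀ᶠ p in l, ContDiffOn ℝ n (g p) O) →
    ContDiffOn ℝ n f1 O → ContDiffOn ℝ n g1 O → TT l O n f f1 → TT l O n g g1 →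
    TT l O n (fun p z => f p z + g p z) (fun z => f1 z + g1 z) := by
  induction n with
  | zero =>
    intro F _ _ f g f1 g1 _ _ _ _ h1 h2 z hz
    exact (h1 z hz).add (h2 z hz)
  | succ n ih =>
    intro F _ _ f g f1 g1 hf hg hf1 hg1 h1 h2
    refine ⟨fun z hz => (h1.1 z hz).add (h2.1 z hz), ?_⟩
    have hd : ∀ {f : E → F}, ContDiffOn ℝ (n + 1 : ℕ) f O → ContDiffOn ℝ n (fderiv ℝ f) O :=
      fun h => h.fderiv_of_isOpen hO (by push_cast; exact le_rfl)
    have hda : ∀ {f : E → F}, ContDiffOn ℝ (n + 1 : ℕ) f O → ∀ z ∈ O, DifferentiableAt ℝ f z :=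
      fun h z hz => (h.differentiableOn (by simp) z hz).differentiableAt (hO.mem_nhds hz)
    refine congr hO (ih (hf.mono fun p h => hd h) (hg.mono fun p h => hd h) (hd hf1) (hd hg1)
      h1.2 h2.2) ?_ ?_
    · filter_upwards [hf, hg] with p h3 h4 z hz
      exact fderiv_fun_add (hda h3 z hz) (hda h4 z hz)
    · intro z hz
      exact fderiv_fun_add (hda hf1 z hz) (hda hg1 z hz)

/-- closed under bounded bilinear maps -/
theorem bil {n : ℕ} (hO : IsOpen O) : ∀ {F G H : Type} [NormedAddCommGroup F] [NormedSpace ℝ F]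
    [NormedAddCommGroup G] [NormedSpace ℝ G] [NormedAddCommGroup H] [NormedSpace ℝ H]
    (B : F →L[ℝ] G →L[ℝ] H)
    {f : P → E → F} {g : P → E → G} {f1 : E → F} {g1 : E → G},
    (∀ᶠ p in l, ContDiffOn ℝ n (f p) O) → (∀ᶠ p in l, ContDiffOn ℝ n (g p) O) →
    ContDiffOn ℝ n f1 O → ContDiffOn ℝ n g1 O → TT l O n f f1 → TT l O n g g1 →
    TT l O n (fun p z => B (f p z) (g p z)) (fun z => B (f1 z) (g1 z)) := by
  have key : ∀ {F G H : Type} [NormedAddCommGroup F] [NormedSpace ℝ F]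
    [NormedAddCommGroup G] [NormedSpace ℝ G] [NormedAddCommGroup H] [NormedSpace ℝ H]
    (B : F →L[ℝ] G →L[ℝ] H)
    {f : P → E → F} {g : P → E → G} {f1 : E → F} {g1 : E → G},
    (∀ z ∈ O, Tendsto (fun q : P × E => f q.1 q.2) (l ×ˢ 𝓝 z) (𝓝 (f1 z))) →
    (∀ z ∈ O, Tendsto (fun q : P × E => g q.1 q.2) (l ×ˢ 𝓝 z) (𝓝 (g1 z))) →
    (∀ z ∈ O, Tendsto (fun q : P × E => B (f q.1 q.2) (g q.1 q.2)) (l ×ˢ 𝓝 z)
      (𝓝 (B (f1 z) (g1 z)))) := by
    intro F G H _ _ _ _ _ _ B f g f1 g1 h1 h2 z hz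
    have hc : Continuous fun q : F × G => B q.1 q.2 := by fun_prop
    exact (hc.tendsto (f1 z, g1 z)).comp ((h1 z hz).prodMk_nhds (h2 z hz))
  induction n with
  | zero => intro F G H _ _ _ _ _ _ B f g f1 g1 _ _ _ _ h1 h2; exact key B h1 h2
  | succ n ih =>
    intro F G H _ _ _ _ _ _ B f g f1 g1 hf hg hf1 hg1 h1 h2
    refine ⟨key B h1.1 h2.1, ?_⟩
    have hdF : ∀ {f : E → F}, ContDiffOn ℝ (n + 1 : ℕ) f O → ContDiffOn ℝ n (fderiv ℝ f) O :=
      fun h => h.fderiv_of_isOpen hO (by push_cast; exact le_rfl)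
    have hdG : ∀ {f : E → G}, ContDiffOn ℝ (n + 1 : ℕ) f O → ContDiffOn ℝ n (fderiv ℝ f) O :=
      fun h => h.fderiv_of_isOpen hO (by push_cast; exact le_rfl)
    have hdaF : ∀ {f : E → F}, ContDiffOn ℝ (n + 1 : ℕ) f O → ∀ z ∈ O, DifferentiableAt ℝ f z :=
      fun h z hz => (h.differentiableOn (by simp) z hz).differentiableAt (hO.mem_nhds hz)
    have hdaG : ∀ {f : E → G}, ContDiffOn ℝ (n + 1 : ℕ) f O → ∀ z ∈ O, DifferentiableAt ℝ f z :=
      fun h z hz => (h.differentiableOn (by simp) z hz).differentiableAt (hO.mem_nhds hz)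
    have hle : ((n : ℕ) : WithTop ℕ∞) ≤ ((n + 1 : ℕ) : WithTop ℕ∞) := by
      exact_mod_cast Nat.le_succ n
    have hl : ∀ {F : Type} [NormedAddCommGroup F] [NormedSpace ℝ F] {f : E → F},
        ContDiffOn ℝ (n + 1 : ℕ) f O → ContDiffOn ℝ n f O := fun h => h.of_le hle
    have e1 := ih (B.precompR E) (hf.mono fun p h => hl h) (hg.mono fun p h => hdG h) (hl hf1)
      (hdG hg1) (of_succ h1) h2.2
    have e2 := ih (B.precompL E) (hf.mono fun p h => hdF h) (hg.mono fun p h => hl h) (hdF hf1)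
      (hl hg1) h1.2 (of_succ h2)
    have hb : ∀ {F G H : Type} [NormedAddCommGroup F] [NormedSpace ℝ F]
        [NormedAddCommGroup G] [NormedSpace ℝ G] [NormedAddCommGroup H] [NormedSpace ℝ H]
        (B : F →L[ℝ] G →L[ℝ] H) {f : E → F} {g : E → G}, ContDiffOn ℝ n f O → ContDiffOn ℝ n g O →
        ContDiffOn ℝ n (fun z => B (f z) (g z)) O := by
      intro F G H _ _ _ _ _ _ B f g h1 h2
      exact B.isBoundedBilinearMap.contDiff.comp_contDiffOn (h1.prodMk h2)
    have e3 := add hO (hf.and hg |>.mono fun p h => hb (B.precompR E) (hl h.1) (hdG h.2))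
      (hf.and hg |>.mono fun p h => hb (B.precompL E) (hdF h.1) (hl h.2))
      (hb (B.precompR E) (hl hf1) (hdG hg1)) (hb (B.precompL E) (hdF hf1) (hl hg1)) e1 e2
    refine congr hO e3 ?_ ?_
    · filter_upwards [hf, hg] with p h3 h4 z hz
      exact (B.hasFDerivAt_of_bilinear (hdaF h3 z hz).hasFDerivAt
        (hdaG h4 z hz).hasFDerivAt).fderiv
    · intro z hz
      exact (B.hasFDerivAt_of_bilinear (hdaF hf1 z hz).hasFDerivAt
        (hdaG hg1 z hz).hasFDerivAt).fderiv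

/-- closed under composition with a fixed smooth map -/
theorem comp {n : ℕ} {E' : Type} [NormedAddCommGroup E'] [NormedSpace ℝ E'] {O' : Set E'}
    (hO : IsOpen O) (hO' : IsOpen O') {φ : E' → E} (hφ : ContDiffOn ℝ ∞ φ O')
    (hm : MapsTo φ O' O) : ∀ {F : Type} [NormedAddCommGroup F] [NormedSpace ℝ F]
    {f : P → E → F} {f1 : E → F},
    (∀ᶠ p in l, ContDiffOn ℝ n (f p) O) → ContDiffOn ℝ n f1 O → TT l O n f f1 →
    TT l O' n (fun p z => f p (φ z)) (fun z => f1 (φ z)) := by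
  have key : ∀ {F : Type} [NormedAddCommGroup F] [NormedSpace ℝ F]
      {f : P → E → F} {f1 : E → F},
      (∀ z ∈ O, Tendsto (fun q : P × E => f q.1 q.2) (l ×ˢ 𝓝 z) (𝓝 (f1 z))) →
      (∀ z ∈ O', Tendsto (fun q : P × E' => f q.1 (φ q.2)) (l ×ˢ 𝓝 z) (𝓝 (f1 (φ z)))) := by
    intro F _ _ f f1 h z hz
    have hc : ContinuousAt φ z := (hφ.continuousOn z hz).continuousAt (hO'.mem_nhds hz)
    exact (h (φ z) (hm hz)).comp
      ((tendsto_fst).prodMk (hc.tendsto.comp tendsto_snd))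
  induction n with
  | zero => intro F _ _ f f1 _ _ h; exact key h
  | succ n ih =>
    intro F _ _ f f1 hf hf1 h
    refine ⟨key h.1, ?_⟩
    have hd : ∀ {f : E → F}, ContDiffOn ℝ (n + 1 : ℕ) f O → ContDiffOn ℝ n (fderiv ℝ f) O :=
      fun h => h.fderiv_of_isOpen hO (by push_cast; exact le_rfl)
    have hda : ∀ {f : E → F}, ContDiffOn ℝ (n + 1 : ℕ) f O → ∀ z ∈ O, DifferentiableAt ℝ f z :=
      fun h z hz => (h.differentiableOn (by simp) z hz).differentiableAt (hO.mem_nhds hz)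
    have hφd : ∀ z ∈ O', DifferentiableAt ℝ φ z :=
      fun z hz => (hφ.differentiableOn (by simp) z hz).differentiableAt (hO'.mem_nhds hz)
    have hφn : ContDiffOn ℝ n φ O' := hφ.of_le (by exact_mod_cast le_top)
    have hφ' : ContDiffOn ℝ n (fderiv ℝ φ) O' :=
      hφ.fderiv_of_isOpen hO' (by exact_mod_cast le_top)
    have e1 := ih (hf.mono fun p h => hd h) (hd hf1) h.2
    have e2 : TT l O' n (fun _ : P => fderiv ℝ φ) (fderiv ℝ φ) := const hO' hφ'
    have e3 := bil hO' (ContinuousLinearMap.compL ℝ E' E F)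
      (hf.mono fun p h => (hd h).comp hφn hm)
      (Eventually.of_forall fun _ => hφ') ((hd hf1).comp hφn hm) hφ' e1 e2
    refine congr hO' e3 ?_ ?_
    · filter_upwards [hf] with p h3 z hz
      exact (HasFDerivAt.comp (g := f p) (f := φ) z (hda h3 _ (hm hz)).hasFDerivAt
        (hφd z hz).hasFDerivAt).fderiv
    · intro z hz
      exact (HasFDerivAt.comp (g := f1) (f := φ) z (hda hf1 _ (hm hz)).hasFDerivAt
        (hφd z hz).hasFDerivAt).fderiv

omit [NormedSpace ℝ E] in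
/-- uniform convergence on compact sets -/
theorem unif0 {F : Type} [NormedAddCommGroup F] [NormedSpace ℝ F] {f : P → E → F} {f1 : E → F}
    {K : Set E} (hK : IsCompact K)
    (h : ∀ z ∈ K, Tendsto (fun q : P × E => f q.1 q.2) (l ×ˢ 𝓝 z) (𝓝 (f1 z)))
    (h1 : ∀ z ∈ K, ContinuousAt f1 z) {d : ℝ} (hd : 0 < d) :
    ∀ᶠ p in l, ∀ z ∈ K, ‖f p z - f1 z‖ ≤ d := by
  have h2 : {q : P × E | ‖f q.1 q.2 - f1 q.2‖ ≤ d} ∈ l ×ˢ 𝓝ˢ K := by
    refine hK.mem_prod_nhdsSet_of_forall fun z hz => ?_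
    have h3 : Tendsto (fun q : P × E => f q.1 q.2 - f1 q.2) (l ×ˢ 𝓝 z) (𝓝 (f1 z - f1 z)) :=
      (h z hz).sub ((h1 z hz).tendsto.comp tendsto_snd)
    rw [sub_self] at h3
    have h4 := h3.norm
    rw [norm_zero] at h4
    exact h4.eventually (ge_mem_nhds hd)
  obtain ⟨s, hs, t, ht, hst⟩ := Filter.mem_prod_iff.1 h2
  filter_upwards [hs] with p hp z hz
  exact hst (Set.mk_mem_prod hp (subset_of_mem_nhdsSet ht hz))

end TT

end

end Crest.Agent.R281.OT_763
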