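import Crest.Agent.R281.OT1_763
import Crest.Agent.R281.Per4_368
import Crest.Agent.R281.Mc5_673

/-!
# Row 281, OPEN-TORI (helper763), part 2: definitions, convergence of the pulled back forms

* `Sy x y I`      : `x (I u) w = - y u w`, `I² = -1`, `x` nondegenerate
* `TC2 l w w1`    : `w p → w1` in `C²`, locally uniformly in the charts, along `l`
* `Prd`           : product coordinates around a torus
* `tt_pull`       : `TC2 l w w1 → TT l S 2 (pull (w p) Psi) (pull w1 Psi)`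
* `clF_pull`      : `ClF r (pull w Psi)`
* `exists_tube`   : an open periodic set containing the zero section contains a tube
-/

set_option autoImplicit false
set_option maxSynthPendingDepth 3

open Set Filter Topology
open scoped ContDiff

namespace Crest.Agent.R281.OT_763

open Crest.Agent.R281.HkR_835 Crest.Agent.R281.Per_368
open Crest.Agent.R281.Mc673 (W Fo tube ClF kv mn isOpen_tube cube isCompact_cube exists_cube)
open Crest.Agent.R238.Sch (ee)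

noncomputable section

theorem two_le_inf : (2 : WithTop ℕ∞) ≤ ((⊤ : ℕ∞) : WithTop ℕ∞) := by
  have h : ((2 : ℕ∞) : WithTop ℕ∞) ≤ ((⊤ : ℕ∞) : WithTop ℕ∞) := WithTop.coe_le_coe.2 le_top
  exact h

theorem three_le_inf : (2 + 1 : WithTop ℕ∞) ≤ ((⊤ : ℕ∞) : WithTop ℕ∞) := by
  have h : ((2 + 1 : ℕ∞) : WithTop ℕ∞) ≤ ((⊤ : ℕ∞) : WithTop ℕ∞) := WithTop.coe_le_coe.2 le_top
  exact h

variable {P : Type*}
variable {V X : Type} [NormedAddCommGroup V] [NormedSpace ℝ V] [TopologicalSpace X]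

/-- the Euclidean space of 673 -/
abbrev VN (N : ℕ) := Crest.Agent.R281.Mc673.V N

/-- holomorphic symplectic pair -/
structure Sy {C : RCh V X} (x y : F2 C) (I : C.ι → V → V →L[ℝ] V) : Prop where
  sq : ∀ i, ∀ z ∈ (C.e i).target, ∀ u, I i z (I i z u) = -u
  rel : ∀ i, ∀ z ∈ (C.e i).target, ∀ u w, x.w i z (I i z u) w = - y.w i z u w
  nd : ∀ i, ∀ z ∈ (C.e i).target, ∀ u, (∀ w, x.w i z u w = 0) → u = 0

theorem sy_hkT {C : RCh V X} (H : HkT C) {k l m : Fin 3} (h : (k, l, m) = (0, 1, 2) ∨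
    (k, l, m) = (1, 2, 0) ∨ (k, l, m) = (2, 0, 1)) : Sy (H.om l) (H.om m) (H.J k) where
  sq := H.J_sq k
  rel _ _ hz u w := (H.om_J h hz u w).1
  nd _ _ hz u hu := H.nondeg l hz u hu

/-- convergence in `C²`, locally uniformly in the charts -/
def TC2 {C : RCh V X} (l : Filter P) (w : P → F2 C) (w1 : F2 C) : Prop :=
  ∀ i, TT l (C.e i).target 2 (fun p => (w p).w i) (w1.w i)

theorem tc2_iff {C : RCh V X} {l : Filter P} {w : P → F2 C} {w1 : F2 C} :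
    TC2 l w w1 ↔ ∀ i, ∀ z ∈ (C.e i).target,
      Tendsto (fun q : P × V => (w q.1).w i q.2) (l ×ˢ 𝓝 z) (𝓝 (w1.w i z)) ∧
      Tendsto (fun q : P × V => fderiv ℝ ((w q.1).w i) q.2) (l ×ˢ 𝓝 z)
        (𝓝 (fderiv ℝ (w1.w i) z)) ∧
      Tendsto (fun q : P × V => fderiv ℝ (fderiv ℝ ((w q.1).w i)) q.2) (l ×ˢ 𝓝 z)
        (𝓝 (fderiv ℝ (fderiv ℝ (w1.w i)) z)) := by
  refine forall_congr' fun i => ?_
  show (_ ∧ (_ ∧ _)) ↔ _
  constructor
  · rintro ⟨h0, h1, h2⟩ z hz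
    exact ⟨h0 z hz, h1 z hz, h2 z hz⟩
  · intro h
    exact ⟨fun z hz => (h z hz).1, fun z hz => (h z hz).2.1, fun z hz => (h z hz).2.2⟩

theorem TC2.comp_tendsto {P' : Type*} {C : RCh V X} {l : Filter P} {l' : Filter P'} {w : P → F2 C}
    {w1 : F2 C} (h : TC2 l w w1) {φ : P' → P} (hφ : Tendsto φ l' l) :
    TC2 l' (fun p => w (φ p)) w1 := by
  rw [tc2_iff] at h ⊢
  intro i z hz
  have h1 : Tendsto (fun q : P' × V => (φ q.1, q.2)) (l' ×ˢ 𝓝 z) (l ×ˢ 𝓝 z) :=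
    (hφ.comp tendsto_fst).prodMk tendsto_snd
  exact ⟨(h i z hz).1.comp h1, (h i z hz).2.1.comp h1, (h i z hz).2.2.comp h1⟩

/-! ## convergence of the pull backs -/

section pull

variable {E : Type} [NormedAddCommGroup E] [NormedSpace ℝ E]

theorem TT.of_local {l : Filter P} {O : Set E} {n : ℕ} : ∀ {F : Type} [NormedAddCommGroup F]
    [NormedSpace ℝ F] {f : P → E → F} {f1 : E → F},
    (∀ z ∈ O, ∃ U, z ∈ U ∧ TT l U n f f1) → TT l O n f f1 := by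
  induction n with
  | zero =>
    intro F _ _ f f1 h z hz
    obtain ⟨U, hzU, hU⟩ := h z hz
    exact hU z hzU
  | succ n ih =>
    intro F _ _ f f1 h
    refine ⟨fun z hz => ?_, ih fun z hz => ?_⟩
    · obtain ⟨U, hzU, hU⟩ := h z hz
      exact hU.1 z hzU
    · obtain ⟨U, hzU, hU⟩ := h z hz
      exact ⟨U, hzU, hU.2⟩

/-- `pl` through fixed bilinear maps -/
def B1 (V E : Type) [NormedAddCommGroup V] [NormedSpace ℝ V] [NormedAddCommGroup E]
    [NormedSpace ℝ E] : Bil V →L[ℝ] (E →L[ℝ] V) →L[ℝ] (E →L[ℝ] V →L[ℝ] ℝ) :=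
  ContinuousLinearMap.compL ℝ E V (V →L[ℝ] ℝ)

def B2 (V E : Type) [NormedAddCommGroup V] [NormedSpace ℝ V] [NormedAddCommGroup E]
    [NormedSpace ℝ E] : (E →L[ℝ] V) →L[ℝ] (E →L[ℝ] V →L[ℝ] ℝ) →L[ℝ] (E →L[ℝ] E →L[ℝ] ℝ) :=
  (ContinuousLinearMap.compL ℝ E (V →L[ℝ] ℝ) (E →L[ℝ] ℝ)).comp
    (ContinuousLinearMap.compL ℝ E V ℝ).flip

theorem pl_eq (b : V → Bil V) (φ : E → V) (ζ : E) :
    pl b φ ζ = B2 V E (fderiv ℝ φ ζ) (B1 V E (b (φ ζ)) (fderiv ℝ φ ζ)) := by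
  ext u w
  rfl

theorem tt_pl {l : Filter P} {O : Set E} {T : Set V} (hO : IsOpen O) (hT : IsOpen T)
    {b : P → V → Bil V} {b1 : V → Bil V} (hb : ∀ᶠ p in l, ContDiffOn ℝ 2 (b p) T)
    (hb1 : ContDiffOn ℝ 2 b1 T) (h : TT l T 2 b b1) {φ : E → V} (hφ : ContDiffOn ℝ ∞ φ O)
    (hm : MapsTo φ O T) : TT l O 2 (fun p => pl (b p) φ) (pl b1 φ) := by
  have hφ2 : ContDiffOn ℝ 2 φ O := hφ.of_le two_le_inf
  have hD : ContDiffOn ℝ 2 (fderiv ℝ φ) O := hφ.fderiv_of_isOpen hO three_le_inf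
  have h1 : TT l O 2 (fun p z => b p (φ z)) (fun z => b1 (φ z)) := TT.comp hT hO hφ hm hb hb1 h
  have h2 : TT l O 2 (fun _ : P => fderiv ℝ φ) (fderiv ℝ φ) := TT.const hO hD
  have hbφ : ∀ᶠ p in l, ContDiffOn ℝ 2 (fun z => b p (φ z)) O :=
    hb.mono fun p h => h.comp hφ2 hm
  have hb1φ : ContDiffOn ℝ 2 (fun z => b1 (φ z)) O := hb1.comp hφ2 hm
  have h3 := TT.bil hO (B1 V E) hbφ (Eventually.of_forall fun _ => hD) hb1φ hD h1 h2
  have hbb : ∀ {f : E → Bil V}, ContDiffOn ℝ 2 f O →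
      ContDiffOn ℝ 2 (fun z => B1 V E (f z) (fderiv ℝ φ z)) O := fun hf =>
    (B1 V E).isBoundedBilinearMap.contDiff.comp_contDiffOn (hf.prodMk hD)
  have h4 := TT.bil hO (B2 V E) (Eventually.of_forall fun _ => hD) (hbφ.mono fun p h => hbb h) hD
    (hbb hb1φ) h2 h3
  have e1 : (fun p z => B2 V E (fderiv ℝ φ z) (B1 V E (b p (φ z)) (fderiv ℝ φ z))) =
      fun p => pl (b p) φ := by
    funext p z; exact (pl_eq _ _ _).symm
  have e2 : (fun z => B2 V E (fderiv ℝ φ z) (B1 V E (b1 (φ z)) (fderiv ℝ φ z))) = pl b1 φ := by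
    funext z; exact (pl_eq _ _ _).symm
  rwa [e1, e2] at h4

/-- convergence of the pull backs -/
theorem tt_pull {C : RCh V X} {S : Set E} {Psi : E → X} (hS : SmI C S Psi) {l : Filter P}
    {w : P → F2 C} {w1 : F2 C} (h : TC2 l w w1) :
    TT l S 2 (fun p => pull (w p) Psi) (pull w1 Psi) := by
  refine TT.of_local fun ζ hζ => ?_
  obtain ⟨i, hi⟩ := C.cover (Psi ζ)
  have hO := hS.isOpen_pre (C.e i).open_source
  refine ⟨S ∩ Psi ⁻¹' (C.e i).source, ⟨hζ, hi⟩, ?_⟩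
  have h1 := tt_pl (l := l) hO (C.e i).open_target
    (b := fun p => (w p).w i) (b1 := w1.w i)
    (Eventually.of_forall fun p => ((w p).sm i).of_le two_le_inf)
    ((w1.sm i).of_le two_le_inf) (h i) (hS.sm i)
    (fun z hz => (C.e i).map_source hz.2)
  refine TT.congr hO h1 (Eventually.of_forall fun p z hz => ?_) fun z hz => ?_
  · exact hS.pull_eq (w p) hz.1 hz.2
  · exact hS.pull_eq w1 hz.1 hz.2

end pull

/-! ## product coordinates -/

/-- the vector `(kv k, 0)` -/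
def kz {N : ℕ} (k : Fin N → ℤ) : W N := (kv k, 0)

/-- product coordinates around a torus on which the forms are in normal form -/
structure Prd (C : RCh V X) (N : ℕ) (r : ℝ) (Psi : W N → X) (x1 y1 : F2 C)
    (Cc : VN N →L[ℝ] VN N) : Prop where
  r0 : 0 < r
  sm : SmI C (tube N r) Psi
  per : ∀ (k : Fin N → ℤ), ∀ ζ ∈ tube N r, Psi (ζ.1 + kv k, ζ.2) = Psi ζ
  sq : ∀ v, Cc (Cc v) = -v
  xtt : ∀ θ u w, pull x1 Psi (θ, 0) (u, 0) (w, 0) = 0
  ytt : ∀ θ u w, pull y1 Psi (θ, 0) (u, 0) (w, 0) = 0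
  xvt : ∀ θ v w, pull x1 Psi (θ, 0) (0, v) (w, 0) = inner ℝ v w
  yvt : ∀ θ v w, pull y1 Psi (θ, 0) (0, v) (w, 0) = inner ℝ (Cc v) w

section prd

variable {C : RCh V X} {N : ℕ} {r : ℝ} {Psi : W N → X}

theorem clF_pull [FiniteDimensional ℝ V] (hS : SmI C (tube N r) Psi)
    (hper : ∀ (k : Fin N → ℤ), ∀ ζ ∈ tube N r, Psi (ζ.1 + kv k, ζ.2) = Psi ζ) (w : F2 C) :
    ClF r (pull w Psi) where
  sm := hS.pull_smooth w
  alt p hp u v := (hS.pull_cl w).alt p hp u v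
  cl p hp u v z := (hS.pull_cl w).closed p hp u v z
  per k p hp := by
    have h : ∀ ζ ∈ tube N r, ζ + kz k ∈ tube N r ∧ Psi (ζ + kz k) = Psi ζ := by
      intro ζ hζ
      have e : ζ + kz k = (ζ.1 + kv k, ζ.2) := by
        ext1 <;> simp [kz]
      rw [e]
      exact ⟨hζ, hper k ζ hζ⟩
    have := hS.pull_add w h hp
    have e : p + kz k = (p.1 + kv k, p.2) := by
      ext1 <;> simp [kz]
    rwa [e] at this

/-- an open periodic set which contains the zero section contains a tube -/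
theorem exists_tube {U : Set (W N)} (hU : IsOpen U)
    (hper : ∀ (k : Fin N → ℤ) θ v, (θ, v) ∈ U → (θ + kv k, v) ∈ U)
    (h0 : ∀ θ, (θ, (0 : VN N)) ∈ U) : ∃ s, 0 < s ∧ tube N s ⊆ U := by
  have hc : cube N ×ˢ {(0 : VN N)} ⊆ U := by
    rintro ⟨θ, v⟩ ⟨-, hv⟩
    rw [mem_singleton_iff] at hv
    simp only at hv
    subst hv
    exact h0 θ
  obtain ⟨A, B, hA, hB, hAc, hBc, hAB⟩ := generalized_tube_lemma isCompact_cube
    (isCompact_singleton (x := (0 : VN N))) hU hc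
  obtain ⟨s, hs, hsB⟩ := Metric.isOpen_iff.1 hB 0 (hBc (mem_singleton _))
  refine ⟨s, hs, ?_⟩
  rintro ⟨θ, v⟩ hv
  obtain ⟨k, y, hy, rfl⟩ := exists_cube θ
  refine hper k y v (hAB (mk_mem_prod (hAc hy) (hsB ?_)))
  rw [mem_ball_zero_iff]
  exact hv

end prd

end

end Crest.Agent.R281.OT_763
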