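import Crest.Agent.R281.OT2_763

/-!
# Row 281, OPEN-TORI (helper763), part 3: the complex structure in the tube and on Lagrangian graphs

* `II x y Psi ζ`  : `- X⁻¹ ∘ Y`, `X, Y` the pulled back forms
* `Imm C Psi S`   : `D(e i ∘ Psi)` bijective on `S`
* `II_spec`       : `DPsi ∘ II = I ∘ DPsi`
* `gr_stable`     : a graph on which `x`, `y` vanish is `II`-stable
* `exists_imm`    : `Prd` => on a smaller tube `X` is invertible and `Psi` immersive
-/

set_option autoImplicit false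
set_option maxSynthPendingDepth 3

open Set Filter Topology
open scoped ContDiff

namespace Crest.Agent.R281.OT_763

open Crest.Agent.R281.HkR_835 Crest.Agent.R281.Per_368
open Crest.Agent.R281.Mc673 (W Fo tube ClF kv mn isOpen_tube cube isCompact_cube exists_cube)
open Crest.Agent.R238.Sch (ee)

noncomputable section

/-! ## linear algebra -/

section lin

variable {E G : Type} [NormedAddCommGroup E] [NormedSpace ℝ E] [FiniteDimensional ℝ E]
  [NormedAddCommGroup G] [NormedSpace ℝ G] [FiniteDimensional ℝ G]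

theorem finrank_clm : Module.finrank ℝ (E →L[ℝ] ℝ) = Module.finrank ℝ E := by
  rw [← (LinearMap.toContinuousLinearMap (𝕜 := ℝ) (E := E) (F' := ℝ)).finrank_eq]
  exact Subspace.dual_finrank_eq

theorem isInvertible_of_inj {E' : Type} [NormedAddCommGroup E'] [NormedSpace ℝ E']
    [FiniteDimensional ℝ E'] (hd : Module.finrank ℝ E = Module.finrank ℝ E') (A : E →L[ℝ] E')
    (hA : ∀ u, A u = 0 → u = 0) : A.IsInvertible := by
  have hi : Function.Injective A.toLinearMap := by
    rw [injective_iff_map_eq_zero]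
    exact hA
  refine ⟨(LinearEquiv.ofInjectiveOfFinrankEq A.toLinearMap hi hd).toContinuousLinearEquiv, ?_⟩
  ext u
  rfl

/-- a bilinear form without kernel is invertible -/
theorem isInvertible_of_nd (B : E →L[ℝ] E →L[ℝ] ℝ) (h : ∀ u, (∀ w, B u w = 0) → u = 0) :
    B.IsInvertible :=
  isInvertible_of_inj finrank_clm.symm B fun u hu => h u fun w => by rw [hu]; rfl

/-- an isotropic subspace of half the dimension is its own orthogonal -/
theorem mem_of_orth (B : E →L[ℝ] E →L[ℝ] ℝ) (hB : B.IsInvertible) (g : G →L[ℝ] E)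
    (p : E →L[ℝ] G) (hg : ∀ u, p (g u) = u) (hd : Module.finrank ℝ E = 2 * Module.finrank ℝ G)
    (hiso : ∀ u v, B (g u) (g v) = 0) {w : E} (hw : ∀ v, B w (g v) = 0) : g (p w) = w := by
  have hgi : Function.Injective g.toLinearMap := by
    intro u v huv
    have : p (g u) = p (g v) := congrArg p huv
    rwa [hg, hg] at this
  set Φ : E →ₗ[ℝ] (G →L[ℝ] ℝ) :=
    { toFun := fun w => (B w).comp g
      map_add' := fun a b => by ext; simp
      map_smul' := fun a b => by ext; simp } with hΦ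
  have hsurj : Function.Surjective Φ := by
    intro f
    refine ⟨B.inverse (f.comp p), ?_⟩
    ext v
    show B (B.inverse (f.comp p)) (g v) = f v
    rw [hB.self_apply_inverse]
    show f (p (g v)) = f v
    rw [hg]
  have h1 := Φ.finrank_range_add_finrank_ker
  rw [LinearMap.range_eq_top.2 hsurj, finrank_top, finrank_clm] at h1
  have h2 : Module.finrank ℝ (LinearMap.range g.toLinearMap) = Module.finrank ℝ G :=
    LinearMap.finrank_range_of_inj hgi
  have h3 : LinearMap.range g.toLinearMap ≤ LinearMap.ker Φ := by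
    rintro _ ⟨u, rfl⟩
    rw [LinearMap.mem_ker]
    ext v
    exact hiso u v
  have h4 : LinearMap.range g.toLinearMap = LinearMap.ker Φ :=
    Submodule.eq_of_le_of_finrank_eq h3 (by omega)
  have h5 : w ∈ LinearMap.ker Φ := by
    rw [LinearMap.mem_ker]
    ext v
    exact hw v
  rw [← h4] at h5
  obtain ⟨u, rfl⟩ := h5
  show g (p (g u)) = g u
  rw [hg]

end lin

/-! ## the complex structure in the tube -/

variable {V X : Type} [NormedAddCommGroup V] [NormedSpace ℝ V] [TopologicalSpace X]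
variable {C : RCh V X}

section II

variable {E : Type} [NormedAddCommGroup E] [NormedSpace ℝ E]

/-- the pulled back complex structure -/
def II (x y : F2 C) (Psi : E → X) (ζ : E) : E →L[ℝ] E :=
  -((pull x Psi ζ).inverse.comp (pull y Psi ζ))

/-- `D(e i ∘ Psi)` is bijective on `S` -/
def Imm (C : RCh V X) (Psi : E → X) (S : Set E) : Prop :=
  ∀ ζ ∈ S, ∀ i, Psi ζ ∈ (C.e i).source →
    Function.Bijective (fderiv ℝ (fun y => C.e i (Psi y)) ζ)

variable {S : Set E} {Psi : E → X} {x y : F2 C} {I : C.ι → V → V →L[ℝ] V}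

theorem pull_nd (hS : SmI C S Psi) (hI : Imm C Psi S) (h : Sy x y I) {ζ : E} (hζ : ζ ∈ S) (u : E)
    (hu : ∀ w, pull x Psi ζ u w = 0) : u = 0 := by
  obtain ⟨i, hi⟩ := C.cover (Psi ζ)
  obtain ⟨h1, h2⟩ := hI ζ hζ i hi
  have h3 : fderiv ℝ (fun y => C.e i (Psi y)) ζ u = 0 := by
    refine h.nd i _ ((C.e i).map_source hi) _ fun w => ?_
    obtain ⟨w', rfl⟩ := h2 w
    have := hu w'
    rwa [hS.pull_eq x hζ hi] at this
  exact h1 (by rw [h3, map_zero])

variable [FiniteDimensional ℝ E]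

theorem pull_inv (hS : SmI C S Psi) (hI : Imm C Psi S) (h : Sy x y I) {ζ : E} (hζ : ζ ∈ S) :
    (pull x Psi ζ).IsInvertible :=
  isInvertible_of_nd _ (pull_nd hS hI h hζ)

omit [FiniteDimensional ℝ E] in
theorem pull_II {ζ : E} (hinv : (pull x Psi ζ).IsInvertible) (u w : E) :
    pull x Psi ζ (II x y Psi ζ u) w = - pull y Psi ζ u w := by
  have h : pull x Psi ζ (II x y Psi ζ u) = - pull y Psi ζ u := by
    show pull x Psi ζ (-((pull x Psi ζ).inverse (pull y Psi ζ u))) = _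
    rw [map_neg, hinv.self_apply_inverse]
  rw [h]
  rfl

/-- `DPsi ∘ II = I ∘ DPsi` -/
theorem II_spec (hS : SmI C S Psi) (hI : Imm C Psi S) (h : Sy x y I) {ζ : E} (hζ : ζ ∈ S) {i : C.ι}
    (hi : Psi ζ ∈ (C.e i).source) (u : E) :
    fderiv ℝ (fun y => C.e i (Psi y)) ζ (II x y Psi ζ u) =
      I i (C.e i (Psi ζ)) (fderiv ℝ (fun y => C.e i (Psi y)) ζ u) := by
  have hz := (C.e i).map_source hi
  obtain ⟨h1, h2⟩ := hI ζ hζ i hi
  have hinv := pull_inv hS hI h hζ
  rw [← sub_eq_zero]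
  refine h.nd i _ hz _ fun w => ?_
  obtain ⟨w', rfl⟩ := h2 w
  have h3 := pull_II (y := y) hinv u w'
  rw [hS.pull_eq x hζ hi, hS.pull_eq y hζ hi, pl_apply, pl_apply] at h3
  rw [map_sub, sub_apply, h3, h.rel i _ hz]
  ring

theorem II_sq (hS : SmI C S Psi) (hI : Imm C Psi S) (h : Sy x y I) {ζ : E} (hζ : ζ ∈ S) (u : E) :
    II x y Psi ζ (II x y Psi ζ u) = -u := by
  obtain ⟨i, hi⟩ := C.cover (Psi ζ)
  apply (hI ζ hζ i hi).1
  rw [II_spec hS hI h hζ hi, II_spec hS hI h hζ hi, h.sq i _ ((C.e i).map_source hi), map_neg]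

/-- continuity of `II` along a family -/
theorem tendsto_II {α : Type*} {l : Filter α} {Xf Yf : α → E →L[ℝ] E →L[ℝ] ℝ}
    {X1 Y1 : E →L[ℝ] E →L[ℝ] ℝ} (hX : Tendsto Xf l (𝓝 X1)) (hY : Tendsto Yf l (𝓝 Y1))
    (hinv : X1.IsInvertible) :
    Tendsto (fun a => -((Xf a).inverse.comp (Yf a))) l (𝓝 (-(X1.inverse.comp Y1))) := by
  have h1 : ContinuousAt (ContinuousLinearMap.inverse : (E →L[ℝ] E →L[ℝ] ℝ) → _) X1 :=
    (hinv.contDiffAt_map_inverse (n := 0)).continuousAt
  have h2 := h1.tendsto.comp hX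
  have h3 : Continuous fun q : ((E →L[ℝ] ℝ) →L[ℝ] E) × (E →L[ℝ] E →L[ℝ] ℝ) => q.1.comp q.2 :=
    isBoundedBilinearMap_comp.continuous
  exact ((h3.tendsto (X1.inverse, Y1)).comp (h2.prodMk_nhds hY)).neg

end II

/-! ## graphs -/

section gr

variable {N : ℕ} {r : ℝ} {Psi : W N → X}

theorem finrank_W : Module.finrank ℝ (W N) = 2 * Module.finrank ℝ (VN N) := by
  rw [Module.finrank_prod]; ring

/-- the graph map of the differential `A` -/
def gr (A : VN N →L[ℝ] VN N) : VN N →L[ℝ] W N := (ContinuousLinearMap.id ℝ (VN N)).prod A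

@[simp] theorem gr_apply (A : VN N →L[ℝ] VN N) (u : VN N) : gr A u = (u, A u) := rfl

/-- the complex structure on a graph -/
def Jg (x y : F2 C) (Psi : W N → X) (θ v : VN N) (A : VN N →L[ℝ] VN N) : VN N →L[ℝ] VN N :=
  (ContinuousLinearMap.fst ℝ (VN N) (VN N)).comp ((II x y Psi (θ, v)).comp (gr A))

variable {x y : F2 C} {I : C.ι → V → V →L[ℝ] V}

theorem gr_stable (hS : SmI C (tube N r) Psi) (hI : Imm C Psi (tube N r)) (h : Sy x y I)
    {θ v : VN N} (hζ : (θ, v) ∈ tube N r) {A : VN N →L[ℝ] VN N}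
    (hx : ∀ u w, pull x Psi (θ, v) (gr A u) (gr A w) = 0)
    (hy : ∀ u w, pull y Psi (θ, v) (gr A u) (gr A w) = 0) (u : VN N) :
    II x y Psi (θ, v) (gr A u) = gr A (Jg x y Psi θ v A u) := by
  have hinv := pull_inv hS hI h hζ
  have h1 := mem_of_orth (pull x Psi (θ, v)) hinv (gr A) (ContinuousLinearMap.fst ℝ (VN N) (VN N))
    (fun u => rfl) finrank_W hx (w := II x y Psi (θ, v) (gr A u)) (fun w => by
      rw [pull_II hinv, hy, neg_zero])
  exact h1.symm

end gr

/-! ## the tube on which `Psi` is an immersion -/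

section imm

variable {N : ℕ} {r : ℝ} {Psi : W N → X} {x1 y1 : F2 C} {Cc : VN N →L[ℝ] VN N}

theorem Prd.alt (h : Prd C N r Psi x1 y1 Cc) [FiniteDimensional ℝ V] (w : F2 C) {ζ : W N}
    (hζ : ζ ∈ tube N r) (a b : W N) : pull w Psi ζ a b = - pull w Psi ζ b a :=
  (clF_pull h.sm h.per w).alt ζ hζ a b

theorem Prd.zero_mem (h : Prd C N r Psi x1 y1 Cc) (θ : VN N) : (θ, (0 : VN N)) ∈ tube N r := by
  show ‖(0 : VN N)‖ < r
  rw [norm_zero]; exact h.r0

theorem Prd.nd [FiniteDimensional ℝ V] (h : Prd C N r Psi x1 y1 Cc) (θ : VN N) (u : W N)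
    (hu : ∀ w, pull x1 Psi (θ, 0) u w = 0) : u = 0 := by
  obtain ⟨a, b⟩ := u
  have e : ∀ a b : VN N, ((a, b) : W N) = (a, 0) + (0, b) := fun a b => by simp
  have hb : b = 0 := by
    have h1 := hu (b, 0)
    rw [e a b, map_add, add_apply, h.xtt, h.xvt, zero_add] at h1
    exact inner_self_eq_zero.1 h1
  subst hb
  have ha : a = 0 := by
    have h1 := hu (0, a)
    rw [h.alt x1 (h.zero_mem θ), h.xvt, neg_eq_zero] at h1
    exact inner_self_eq_zero.1 h1
  subst ha
  rfl

/-- `Prd` restricts to smaller tubes -/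
theorem Prd.mono (h : Prd C N r Psi x1 y1 Cc) {s : ℝ} (hs : 0 < s) (hsr : s ≤ r) :
    Prd C N s Psi x1 y1 Cc := by
  have hsub : tube N s ⊆ tube N r := fun p (hp : ‖p.2‖ < s) => lt_of_lt_of_le hp hsr
  exact
  { r0 := hs
    sm := ⟨isOpen_tube s, h.sm.cont.mono hsub, fun i => (h.sm.sm i).mono fun z hz =>
      ⟨hsub hz.1, hz.2⟩⟩
    per := fun k ζ hζ => h.per k ζ (hsub hζ)
    sq := h.sq
    xtt := h.xtt
    ytt := h.ytt
    xvt := h.xvt
    yvt := h.yvt }

theorem isInvertible_isOpen {E F : Type} [NormedAddCommGroup E] [NormedSpace ℝ E]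
    [NormedAddCommGroup F] [NormedSpace ℝ F] [CompleteSpace E] :
    IsOpen {A : E →L[ℝ] F | A.IsInvertible} :=
  ContinuousLinearEquiv.isOpen (𝕜 := ℝ) (E := E) (F := F)

theorem exists_imm [FiniteDimensional ℝ V] (hd : Module.finrank ℝ V = 2 * N)
    (h : Prd C N r Psi x1 y1 Cc) :
    ∃ s, 0 < s ∧ s ≤ r ∧ Imm C Psi (tube N s) ∧ ∀ ζ ∈ tube N s, (pull x1 Psi ζ).IsInvertible := by
  have hc : ContinuousOn (pull x1 Psi) (tube N r) := (clF_pull h.sm h.per x1).sm.continuousOn
  have hU : IsOpen (tube N r ∩ pull x1 Psi ⁻¹' {A | A.IsInvertible}) :=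
    hc.isOpen_inter_preimage (isOpen_tube r) isInvertible_isOpen
  obtain ⟨s, hs, hsU⟩ := exists_tube hU
    (fun k θ v hv => by
      refine ⟨hv.1, ?_⟩
      have h1 := (clF_pull h.sm h.per x1).per k (θ, v) hv.1
      show (pull x1 Psi (θ + kv k, v)).IsInvertible
      rw [h1]
      exact hv.2)
    (fun θ => ⟨h.zero_mem θ, isInvertible_of_nd _ (h.nd θ)⟩)
  refine ⟨min s r, lt_min hs h.r0, min_le_right _ _, fun ζ hζ i hi => ?_, fun ζ hζ => ?_⟩
  · have h0 : ‖ζ.2‖ < min s r := hζ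
    have h1 : ζ ∈ tube N r := lt_of_lt_of_le h0 (min_le_right s r)
    have h2 : (pull x1 Psi ζ).IsInvertible :=
      (hsU (show ζ ∈ tube N s from lt_of_lt_of_le h0 (min_le_left s r))).2
    have h3 : ∀ u, fderiv ℝ (fun y => C.e i (Psi y)) ζ u = 0 → u = 0 := by
      intro u hu
      apply h2.injective
      rw [map_zero]
      refine ContinuousLinearMap.ext fun w => ?_
      rw [h.sm.pull_eq x1 h1 hi, pl_apply, hu, map_zero]
      rfl
    have h4 := isInvertible_of_inj (E := W N) (E' := V) (by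
      rw [finrank_W, hd, finrank_euclideanSpace, Fintype.card_fin]) _ h3
    exact h4.bijective
  · have h0 : ‖ζ.2‖ < min s r := hζ
    exact (hsU (show ζ ∈ tube N s from lt_of_lt_of_le h0 (min_le_left s r))).2

end imm

end

end Crest.Agent.R281.OT_763
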