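import Crest.Agent.R281.OT3_763
import Crest.Agent.R281.Mc12_673

/-!
# Row 281, OPEN-TORI (helper763), part 4: the hypotheses of LAGT-G for the nearby forms

* `near_ev` : `∀ᶠ p, NearG r K δ (pull (w p) Psi) Cw`
* `ev_torus`: for every `ε > 0`, `∀ᶠ p` there is a torus `a` with `‖a‖, ‖Da‖ ≤ ε`
* `exists_sel` : selection of tori which tend to `0` in `C¹`
-/

set_option autoImplicit false
set_option maxSynthPendingDepth 3

open Set Filter Topology
open scoped ContDiff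

namespace Crest.Agent.R281.OT_763

open Crest.Agent.R281.HkR_835 Crest.Agent.R281.Per_368
open Crest.Agent.R281.Mc673 (W Fo tube ClF kv mn isOpen_tube cube isCompact_cube exists_cube)
open Crest.Agent.R238.Sch (ee)

noncomputable section

/-- periodic -/
abbrev PerN {N : ℕ} {F : Type*} (f : VN N → F) : Prop := Crest.Agent.R281.Mc673.Per f

variable {P : Type*}
variable {V X : Type} [NormedAddCommGroup V] [NormedSpace ℝ V] [TopologicalSpace X]
variable {C : RCh V X} {N : ℕ} {r : ℝ} {Psi : W N → X}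

/-! ## periodicity of derivatives -/

/-- periodic on the tube -/
def PerT (N : ℕ) {F : Type*} (r : ℝ) (f : W N → F) : Prop :=
  ∀ (k : Fin N → ℤ), ∀ p ∈ tube N r, f (p.1 + kv k, p.2) = f p

theorem add_kz (p : W N) (k : Fin N → ℤ) : p + kz k = (p.1 + kv k, p.2) := by
  ext1 <;> simp [kz]

theorem PerT.fderiv {F : Type*} [NormedAddCommGroup F] [NormedSpace ℝ F] {f : W N → F}
    (h : PerT N r f) : PerT N r (fderiv ℝ f) := by
  intro k p hp
  rw [← add_kz]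
  have e1 := fderiv_comp_add_right (f := f) (x := p) (𝕜 := ℝ) (kz k)
  rw [← e1]
  refine Filter.EventuallyEq.fderiv_eq ?_
  filter_upwards [(isOpen_tube r).mem_nhds hp] with q hq
  rw [add_kz]
  exact h k q hq

/-- the compact fundamental set of a closed tube -/
def fd (N : ℕ) (s : ℝ) : Set (W N) := cube N ×ˢ Metric.closedBall (0 : VN N) s

theorem isCompact_fd (s : ℝ) : IsCompact (fd N s) :=
  isCompact_cube.prod (isCompact_closedBall _ _)

theorem fd_sub {s : ℝ} (hs : s < r) : fd N s ⊆ tube N r := by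
  rintro ⟨θ, v⟩ ⟨-, hv⟩
  rw [mem_closedBall_zero_iff] at hv
  exact lt_of_le_of_lt hv hs

theorem PerT.forall_of_fd {F : Type*} {f : W N → F} (h : PerT N r f) {s : ℝ} (hs : s < r)
    {Q : F → Prop} (hQ : ∀ p ∈ fd N s, Q (f p)) : ∀ p : W N, ‖p.2‖ ≤ s → Q (f p) := by
  rintro ⟨θ, v⟩ hv
  obtain ⟨k, y, hy, rfl⟩ := exists_cube θ
  have h1 : ((y, v) : W N) ∈ fd N s := ⟨hy, mem_closedBall_zero_iff.2 hv⟩
  have h2 := h k (y, v) (fd_sub hs h1)
  simp only at h2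
  rw [h2]
  exact hQ _ h1

theorem PerT.norm_le {F : Type*} [NormedAddCommGroup F] {f : W N → F} (h : PerT N r f) {s : ℝ}
    (hs : s < r) {B : ℝ} (hQ : ∀ p ∈ fd N s, ‖f p‖ ≤ B) : ∀ p : W N, ‖p.2‖ ≤ s → ‖f p‖ ≤ B :=
  h.forall_of_fd (Q := fun x => ‖x‖ ≤ B) hs hQ

/-! ## the forms near the model -/

section near

variable {x1 y1 : F2 C} {Cc : VN N →L[ℝ] VN N}

theorem norm_pr1 (u : VN N) : ‖((u, 0) : W N)‖ = ‖u‖ := by
  rw [Prod.norm_def]; simp

theorem norm_pr2 (u : VN N) : ‖((0, u) : W N)‖ = ‖u‖ := by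
  rw [Prod.norm_def]; simp

theorem bil_le {L : W N →L[ℝ] W N →L[ℝ] ℝ} {d : ℝ} (hL : ‖L‖ ≤ d) {u v : W N} :
    |L u v| ≤ d * ‖u‖ * ‖v‖ := by
  have h1 := L.le_opNorm₂ u v
  rw [Real.norm_eq_abs] at h1
  exact h1.trans (by gcongr)

theorem tri_le {L : W N →L[ℝ] W N →L[ℝ] W N →L[ℝ] ℝ} {d : ℝ} (hL : ‖L‖ ≤ d) {t u v : W N} :
    |L t u v| ≤ d * ‖t‖ * ‖u‖ * ‖v‖ := by
  have h1 : ‖L t‖ ≤ d * ‖t‖ := (L.le_opNorm t).trans (by gcongr)
  exact bil_le h1

/-- the derivative of a constant along the zero section -/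
theorem dconst {w : Fo N} {θ : VN N} (hd : DifferentiableAt ℝ w (θ, 0)) (t : VN N) (u v : W N)
    (hc : ∀ θ', w (θ', 0) u v = w (θ, 0) u v) : fderiv ℝ w (θ, 0) (t, 0) u v = 0 := by
  have h1 : HasFDerivAt (fun q : W N => w q u v)
      (((ContinuousLinearMap.apply ℝ ℝ v).comp
        (ContinuousLinearMap.apply ℝ (W N →L[ℝ] ℝ) u)).comp (fderiv ℝ w (θ, 0))) (θ, 0) :=
    ((ContinuousLinearMap.apply ℝ ℝ v).comp
        (ContinuousLinearMap.apply ℝ (W N →L[ℝ] ℝ) u)).hasFDerivAt.comp _ hd.hasFDerivAt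
  have h2 : HasFDerivAt (fun θ' : VN N => ((θ', (0 : VN N)) : W N))
      (ContinuousLinearMap.inl ℝ (VN N) (VN N)) θ :=
    (ContinuousLinearMap.id ℝ (VN N)).hasFDerivAt.prodMk (hasFDerivAt_const (0 : VN N) θ)
  have h3 := HasFDerivAt.comp (g := fun q : W N => w q u v) θ h1 h2
  have h4 : HasFDerivAt (fun θ' : VN N => w (θ', 0) u v) (0 : VN N →L[ℝ] ℝ) θ := by
    have : (fun θ' : VN N => w (θ', 0) u v) = fun _ => w (θ, 0) u v := funext hc
    rw [this]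
    exact hasFDerivAt_const _ _
  have h5 := congrArg (fun L : VN N →L[ℝ] ℝ => L t) (h3.unique h4)
  exact h5

theorem bd_ev {F : Type} [NormedAddCommGroup F] [NormedSpace ℝ F] {l : Filter P}
    {f : P → W N → F} {f1 : W N → F}
    (hT : ∀ z ∈ tube N r, Tendsto (fun q : P × W N => f q.1 q.2) (l ×ˢ 𝓝 z) (𝓝 (f1 z)))
    (hc : ContinuousOn f1 (tube N r)) (hP : ∀ p, PerT N r (f p)) (hP1 : PerT N r f1) {s : ℝ}
    (hs : s < r) : (∃ B, ∀ z : W N, ‖z.2‖ ≤ s → ‖f1 z‖ ≤ B) ∧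
      ∀ d, 0 < d → ∀ᶠ p in l, ∀ z : W N, ‖z.2‖ ≤ s → ‖f p z - f1 z‖ ≤ d := by
  constructor
  · obtain ⟨B, hB⟩ := (isCompact_fd s).exists_bound_of_continuousOn (hc.mono (fd_sub hs))
    exact ⟨B, hP1.norm_le hs hB⟩
  · intro d hd
    have h1 := TT.unif0 (l := l) (f := f) (f1 := f1) (isCompact_fd s)
      (fun z hz => hT z (fd_sub hs hz))
      (fun z hz => (hc z (fd_sub hs hz)).continuousAt ((isOpen_tube r).mem_nhds (fd_sub hs hz))) hd
    filter_upwards [h1] with p hp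
    have h2 : PerT N r (fun z => f p z - f1 z) := fun k z hz => by
      simp only [hP p k z hz, hP1 k z hz]
    exact h2.norm_le hs hp

theorem bd_ev' {F : Type} [NormedAddCommGroup F] [NormedSpace ℝ F] {l : Filter P}
    {f : P → W N → F} {f1 : W N → F}
    (hT : ∀ z ∈ tube N r, Tendsto (fun q : P × W N => f q.1 q.2) (l ×ˢ 𝓝 z) (𝓝 (f1 z)))
    (hc : ContinuousOn f1 (tube N r)) (hP : ∀ p, PerT N r (f p)) (hP1 : PerT N r f1) {s : ℝ}
    (hs : s < r) : ∃ K0, ∀ K, K0 ≤ K → ∀ᶠ p in l, ∀ z : W N, ‖z.2‖ ≤ s → ‖f p z‖ ≤ K := by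
  obtain ⟨⟨B, hB⟩, h2⟩ := bd_ev hT hc hP hP1 hs
  refine ⟨B + 1, fun K hK => ?_⟩
  filter_upwards [h2 1 one_pos] with p hp z hz
  have h3 := norm_add_le (f p z - f1 z) (f1 z)
  rw [sub_add_cancel] at h3
  linarith [hp z hz, hB z hz]

set_option maxHeartbeats 1000000 in
theorem near_ev [FiniteDimensional ℝ V] (h : Prd C N r Psi x1 y1 Cc) {s : ℝ}
    (hs0 : 0 < s) (hs : s < r) {l : Filter P} {wp : P → F2 C} {w1 : F2 C} (hw : TC2 l wp w1)
    {Cw : VN N →L[ℝ] VN N} (h1 : ∀ θ u v, pull w1 Psi (θ, 0) (u, 0) (v, 0) = 0)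
    (h2 : ∀ θ v u, pull w1 Psi (θ, 0) (0, v) (u, 0) = inner ℝ (Cw v) u)
    (hper : ∀ᶠ p in l, ∀ j k, mn (fun θ => pull (wp p) Psi (θ, 0) (ee j, 0) (ee k, 0)) = 0) :
    ∃ K0, ∀ K, K0 ≤ K → ∀ δ, 0 < δ → ∀ᶠ p in l, Mc673.NearG s K δ (pull (wp p) Psi) Cw := by
  have hT := tt_pull h.sm hw
  have hF1 : ClF r (pull w1 Psi) := clF_pull h.sm h.per w1
  have hPp : ∀ p, PerT N r (pull (wp p) Psi) := fun p => (clF_pull h.sm h.per (wp p)).per
  have hP1 : PerT N r (pull w1 Psi) := hF1.per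
  have hsm1 : ContDiffOn ℝ ∞ (pull w1 Psi) (tube N r) := hF1.sm
  have hsm2 : ContDiffOn ℝ ∞ (fderiv ℝ (pull w1 Psi)) (tube N r) :=
    hsm1.fderiv_of_isOpen (isOpen_tube r) (by simp)
  have hsm3 : ContDiffOn ℝ ∞ (fderiv ℝ (fderiv ℝ (pull w1 Psi))) (tube N r) :=
    hsm2.fderiv_of_isOpen (isOpen_tube r) (by simp)
  obtain ⟨K1, hK1⟩ := bd_ev' (fun z hz => TT.c0 hT hz) hsm1.continuousOn hPp hP1 hs
  obtain ⟨K2, hK2⟩ := bd_ev' (fun z hz => TT.c0 hT.fd hz) hsm2.continuousOn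
    (fun p => (hPp p).fderiv) hP1.fderiv hs
  obtain ⟨K3, hK3⟩ := bd_ev' (fun z hz => TT.c0 hT.fd.fd hz) hsm3.continuousOn
    (fun p => (hPp p).fderiv.fderiv) hP1.fderiv.fderiv hs
  refine ⟨max K1 (max K2 K3), fun K hK δ hδ => ?_⟩
  have e0 := (bd_ev (fun z hz => TT.c0 hT hz) hsm1.continuousOn hPp hP1 hs).2 δ hδ
  have e1 := (bd_ev (fun z hz => TT.c0 hT.fd hz) hsm2.continuousOn
    (fun p => (hPp p).fderiv) hP1.fderiv hs).2 δ hδ
  filter_upwards [e0, e1, hK1 K ((le_max_left _ _).trans hK),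
    hK2 K (((le_max_left _ _).trans (le_max_right _ _)).trans hK),
    hK3 K (((le_max_right _ _).trans (le_max_right _ _)).trans hK), hper] with p q0 q1 b0 b1 b2 p3
  have z0 : ∀ θ : VN N, ‖((θ, (0 : VN N)) : W N).2‖ ≤ s := fun θ => by
    show ‖(0 : VN N)‖ ≤ s
    rw [norm_zero]; exact hs0.le
  have zt : ∀ θ : VN N, (θ, (0 : VN N)) ∈ tube N r := fun θ => h.zero_mem θ
  have hda : ∀ θ : VN N, DifferentiableAt ℝ (pull w1 Psi) (θ, 0) := fun θ => hF1.da (zt θ)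
  -- the `hv` components of the limit
  have hv1 : ∀ θ u v, pull w1 Psi (θ, 0) (u, 0) (0, v) = - inner ℝ (Cw v) u := by
    intro θ u v
    rw [hF1.alt _ (zt θ), h2]
  refine
  { cf := clF_pull (h.mono hs0 hs.le).sm (h.mono hs0 hs.le).per (wp p)
    d1 := fun z hz => b1 z (le_of_lt hz)
    d2 := fun z hz => b2 z (le_of_lt hz)
    hh := fun θ u v => ?_
    hv := fun θ u v => ?_
    vv := fun θ u v => ?_
    dhh := fun θ t u v => ?_
    dhv := fun θ t u v => ?_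
    per0 := p3 }
  · have h3 := bil_le (q0 _ (z0 θ)) (u := (u, 0)) (v := (v, 0))
    rwa [sub_apply, sub_apply, h1, sub_zero, norm_pr1, norm_pr1] at h3
  · have h3 := bil_le (q0 _ (z0 θ)) (u := (u, 0)) (v := (0, v))
    rwa [sub_apply, sub_apply, hv1, sub_neg_eq_add, norm_pr1, norm_pr2] at h3
  · have h3 := bil_le (b0 _ (z0 θ)) (u := (0, u)) (v := (0, v))
    rwa [norm_pr2, norm_pr2] at h3
  · have h3 := tri_le (q1 _ (z0 θ)) (t := (t, 0)) (u := (u, 0)) (v := (v, 0))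
    rwa [sub_apply, sub_apply, sub_apply, dconst (hda θ) t (u, 0) (v, 0)
      (fun θ' => by rw [h1, h1]), sub_zero, norm_pr1, norm_pr1, norm_pr1] at h3
  · have h3 := tri_le (q1 _ (z0 θ)) (t := (t, 0)) (u := (u, 0)) (v := (0, v))
    rwa [sub_apply, sub_apply, sub_apply, dconst (hda θ) t (u, 0) (0, v)
      (fun θ' => by rw [hv1, hv1]), sub_zero, norm_pr1, norm_pr1, norm_pr2] at h3

end near

end

end Crest.Agent.R281.OT_763
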