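import Crest.Agent.R281.OT4_763
import Crest.Agent.R281.Mc16_673

/-!
# Row 281, OPEN-TORI (helper763), part 5: existence and selection of the nearby tori

* `Tor`       : a torus for the pair `x, y` as a graph of `a`
* `ev_torus`  : for every `ε > 0`, `∀ᶠ p` there is a torus `a` with `‖a‖, ‖Da‖ ≤ ε`
* `exists_sel`: a selection `a p` with `‖a p‖, ‖D (a p)‖ → 0` uniformly
-/

set_option autoImplicit false
set_option maxSynthPendingDepth 3

open Set Filter Topology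
open scoped ContDiff

namespace Crest.Agent.R281.OT_763

open Crest.Agent.R281.HkR_835 Crest.Agent.R281.Per_368
open Crest.Agent.R281.Mc673 (W Fo tube ClF kv mn isOpen_tube cube isCompact_cube exists_cube)
open Crest.Agent.R238.Sch (ee)

noncomputable section

variable {P : Type*}
variable {V X : Type} [NormedAddCommGroup V] [NormedSpace ℝ V] [TopologicalSpace X]
variable {C : RCh V X} {N : ℕ} {r : ℝ} {Psi : W N → X}

/-- the graph of `a` is a torus on which `x` and `y` vanish -/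
structure Tor (x y : Fo N) (a : VN N → VN N) : Prop where
  c1 : ContDiff ℝ 1 a
  per : PerN a
  x0 : ∀ θ u v, x (θ, a θ) (gr (fderiv ℝ a θ) u) (gr (fderiv ℝ a θ) v) = 0
  y0 : ∀ θ u v, y (θ, a θ) (gr (fderiv ℝ a θ) u) (gr (fderiv ℝ a θ) v) = 0

/-- `C¹` bound -/
def Bd (a : VN N → VN N) (ε : ℝ) : Prop := ∀ θ, ‖a θ‖ ≤ ε ∧ ‖fderiv ℝ a θ‖ ≤ ε

theorem Bd.mono {a : VN N → VN N} {ε ε' : ℝ} (h : Bd a ε) (hle : ε ≤ ε') : Bd a ε' :=
  fun θ => ⟨(h θ).1.trans hle, (h θ).2.trans hle⟩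

theorem Bd.nonneg {a : VN N → VN N} {ε : ℝ} (h : Bd a ε) : 0 ≤ ε := (norm_nonneg _).trans (h 0).1

theorem lim_zero {w : Fo N} (hw : ∀ θ, ContinuousAt w (θ, 0)) {a : ℕ → VN N → VN N}
    (hb : ∀ n : ℕ, Bd (a n) (1 / ((n : ℝ) + 1)))
    (h0 : ∀ n θ u v, w (θ, a n θ) (gr (fderiv ℝ (a n) θ) u) (gr (fderiv ℝ (a n) θ) v) = 0)
    (θ u v : VN N) : w (θ, 0) (gr 0 u) (gr 0 v) = 0 := by
  have t0 : Tendsto (fun n : ℕ => 1 / ((n : ℝ) + 1)) atTop (𝓝 0) :=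
    tendsto_one_div_add_atTop_nhds_zero_nat
  have t1 : Tendsto (fun n => a n θ) atTop (𝓝 0) :=
    squeeze_zero_norm (fun n => ((hb n) θ).1) t0
  have t2 : Tendsto (fun n => fderiv ℝ (a n) θ) atTop (𝓝 0) :=
    squeeze_zero_norm (fun n => ((hb n) θ).2) t0
  have t3 : Tendsto (fun n => w (θ, a n θ)) atTop (𝓝 (w (θ, 0))) :=
    (hw θ).tendsto.comp (tendsto_const_nhds.prodMk_nhds t1)
  have hc : Continuous fun q : (W N →L[ℝ] W N →L[ℝ] ℝ) × (VN N →L[ℝ] VN N) =>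
      q.1 (gr q.2 u) (gr q.2 v) := by
    have e : ∀ u : VN N, Continuous fun q : (W N →L[ℝ] W N →L[ℝ] ℝ) × (VN N →L[ℝ] VN N) =>
        gr q.2 u := fun u =>
      continuous_const.prodMk (continuous_snd.clm_apply continuous_const)
    exact (continuous_fst.clm_apply (e u)).clm_apply (e v)
  have t4 := (hc.tendsto (w (θ, 0), 0)).comp (t3.prodMk_nhds t2)
  refine tendsto_nhds_unique t4 ?_
  have : (fun n => w (θ, a n θ) (gr (fderiv ℝ (a n) θ) u) (gr (fderiv ℝ (a n) θ) v)) =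
      fun _ => 0 := by
    funext n; exact h0 n θ u v
  show Tendsto (fun n => w (θ, a n θ) (gr (fderiv ℝ (a n) θ) u) (gr (fderiv ℝ (a n) θ) v))
    atTop (𝓝 0)
  rw [this]
  exact tendsto_const_nhds

theorem fderiv_zero_fun : fderiv ℝ (fun _ : VN N => (0 : VN N)) = fun _ => 0 := by
  funext θ; simp

/-- the selection of tori -/
theorem exists_sel {l : Filter P} {x y : P → Fo N}
    (hxc : ∀ᶠ p in l, ∀ θ, ContinuousAt (x p) (θ, 0))
    (hyc : ∀ᶠ p in l, ∀ θ, ContinuousAt (y p) (θ, 0))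
    (h : ∀ ε, 0 < ε → ∀ᶠ p in l, ∃ a, Tor (x p) (y p) a ∧ Bd a ε) :
    ∃ a : P → VN N → VN N, ∀ ε, 0 < ε → ∀ᶠ p in l, Tor (x p) (y p) (a p) ∧ Bd (a p) ε := by
  classical
  set Q : P → ℝ → Prop := fun p ε => ∃ a, Tor (x p) (y p) a ∧ Bd a ε with hQ
  -- the infimum
  set s : P → ℝ := fun p => sInf {ε | 0 < ε ∧ Q p ε} with hs
  have hbdd : ∀ p, BddBelow {ε | 0 < ε ∧ Q p ε} := fun p => ⟨0, fun ε hε => hε.1.le⟩
  -- for good `p` a torus with `Bd (2 s p)`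
  have key : ∀ p, (∀ θ, ContinuousAt (x p) (θ, 0)) → (∀ θ, ContinuousAt (y p) (θ, 0)) →
      (∃ ε, 0 < ε ∧ Q p ε) → Q p (2 * s p) := by
    intro p hx hy hne
    have hne' : {ε | 0 < ε ∧ Q p ε}.Nonempty := hne
    have hs0 : 0 ≤ s p := le_csInf hne' fun ε hε => hε.1.le
    rcases hs0.eq_or_lt with h0 | h0
    · have h1 : ∀ n : ℕ, ∃ a, Tor (x p) (y p) a ∧ Bd a (1 / ((n : ℝ) + 1)) := by
        intro n
        have hp : (0 : ℝ) < 1 / ((n : ℝ) + 1) := by positivity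
        obtain ⟨ε, ⟨-, a, ha, hb⟩, hε⟩ := exists_lt_of_csInf_lt hne' (h0 ▸ hp : s p < _)
        exact ⟨a, ha, hb.mono hε.le⟩
      choose a ha hb using h1
      refine ⟨fun _ => 0, ⟨contDiff_const, fun _ _ => rfl, fun θ u v => ?_, fun θ u v => ?_⟩,
        fun θ => ?_⟩
      · rw [fderiv_zero_fun]
        exact lim_zero hx hb (fun n => (ha n).x0) θ u v
      · rw [fderiv_zero_fun]
        exact lim_zero hy hb (fun n => (ha n).y0) θ u v
      · rw [fderiv_zero_fun, norm_zero, norm_zero, ← h0]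
        simp
    · obtain ⟨ε, ⟨-, a, ha, hb⟩, hε⟩ := exists_lt_of_csInf_lt hne'
        (show s p < 2 * s p by linarith)
      exact ⟨a, ha, hb.mono hε.le⟩
  refine ⟨fun p => if hp : Q p (2 * s p) then hp.choose else fun _ => 0, fun ε hε => ?_⟩
  have hε2 : 0 < ε / 2 := half_pos hε
  filter_upwards [h (ε / 2) hε2, hxc, hyc] with p h1 h2 h3
  have hp : Q p (2 * s p) := key p h2 h3 ⟨ε / 2, hε2, h1⟩
  rw [dif_pos hp]
  have h4 : s p ≤ ε / 2 := csInf_le (hbdd p) ⟨hε2, h1⟩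
  exact ⟨hp.choose_spec.1, hp.choose_spec.2.mono (by linarith)⟩

/-- **the nearby tori** -/
theorem ev_torus [FiniteDimensional ℝ V] {x1 y1 : F2 C} {Cc : VN N →L[ℝ] VN N}
    (h : Prd C N r Psi x1 y1 Cc) (hI : Imm C Psi (tube N r)) {l : Filter P} {x y : P → F2 C}
    {I : P → C.ι → V → V →L[ℝ] V} (hS : ∀ᶠ p in l, Sy (x p) (y p) (I p))
    (hx : TC2 l x x1) (hy : TC2 l y y1)
    (hpx : ∀ᶠ p in l, ∀ j k, mn (fun θ => pull (x p) Psi (θ, 0) (ee j, 0) (ee k, 0)) = 0)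
    (hpy : ∀ᶠ p in l, ∀ j k, mn (fun θ => pull (y p) Psi (θ, 0) (ee j, 0) (ee k, 0)) = 0)
    {ε : ℝ} (hε : 0 < ε) :
    ∀ᶠ p in l, ∃ a, Tor (pull (x p) Psi) (pull (y p) Psi) a ∧ Bd a ε := by
  have hr := h.r0
  have hs0 : 0 < r / 2 := half_pos hr
  have hsr : r / 2 < r := half_lt_self hr
  obtain ⟨K1, hK1⟩ := near_ev h hs0 hsr hx (Cw := ContinuousLinearMap.id ℝ (VN N)) h.xtt
    (fun θ v u => h.xvt θ v u) hpx
  obtain ⟨K2, hK2⟩ := near_ev h hs0 hsr hy (Cw := Cc) h.ytt h.yvt hpy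
  obtain ⟨δ, hδ, rho, hrho, hL⟩ := Mc673.lagtG N ‖Cc‖ (max K1 K2) (r / 2) ε hs0 hε
  filter_upwards [hS, hK1 _ (le_max_left _ _) δ hδ, hK2 _ (le_max_right _ _) δ hδ] with p p1 p2 p3
  have hsub : tube N (r / 2) ⊆ tube N r := fun q (hq : ‖q.2‖ < r / 2) => lt_trans hq hsr
  obtain ⟨a, ha⟩ := hL Cc h.sq le_rfl _ _ p2 p3 (fun ζ hζ => by
    refine ⟨II (x p) (y p) Psi ζ, II_sq h.sm hI p1 (hsub hζ), fun u w => ?_⟩
    exact pull_II (pull_inv h.sm hI p1 (hsub hζ)) u w)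
  have h0 : ‖(0 : VN N)‖ ≤ rho := by rw [norm_zero]; exact hrho.le
  refine ⟨a 0, ⟨ha.c1 0 h0, ha.per 0 h0, ha.x0 0 h0, ha.y0 0 h0⟩, fun θ => ⟨?_, ha.dnear 0 h0 θ⟩⟩
  have := ha.near 0 h0 θ
  rwa [sub_zero] at this

/-- **the nearby tori, selected** -/
theorem exists_tori [FiniteDimensional ℝ V] {x1 y1 : F2 C} {Cc : VN N →L[ℝ] VN N}
    (h : Prd C N r Psi x1 y1 Cc) (hI : Imm C Psi (tube N r)) {l : Filter P} {x y : P → F2 C}
    {I : P → C.ι → V → V →L[ℝ] V} (hS : ∀ᶠ p in l, Sy (x p) (y p) (I p))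
    (hx : TC2 l x x1) (hy : TC2 l y y1)
    (hpx : ∀ᶠ p in l, ∀ j k, mn (fun θ => pull (x p) Psi (θ, 0) (ee j, 0) (ee k, 0)) = 0)
    (hpy : ∀ᶠ p in l, ∀ j k, mn (fun θ => pull (y p) Psi (θ, 0) (ee j, 0) (ee k, 0)) = 0) :
    ∃ a : P → VN N → VN N, ∀ ε, 0 < ε → ∀ᶠ p in l,
      Tor (pull (x p) Psi) (pull (y p) Psi) (a p) ∧ Bd (a p) ε := by
  have hc : ∀ w : F2 C, ∀ θ : VN N, ContinuousAt (pull w Psi) (θ, 0) := fun w θ =>
    ((clF_pull h.sm h.per w).cda (h.zero_mem θ)).continuousAt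
  exact exists_sel (Eventually.of_forall fun p => hc (x p))
    (Eventually.of_forall fun p => hc (y p)) fun ε hε => ev_torus h hI hS hx hy hpx hpy hε

end

end Crest.Agent.R281.OT_763
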