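import Crest.Agent.R281.OT5_763

/-!
# Row 281, OPEN-TORI (helper763), part 6: **open_tori**

* `TorM x y I F J` : `F` a `C¹` periodic immersion on which `x`, `y` vanish, `DF ∘ J = I ∘ DF`
* `torM_of`        : the graph of `a` in the product coordinates gives `TorM`
* `open_tori`      : the tori at the nearby structures converge to the given one, `J p → J1` constant
-/

set_option autoImplicit false
set_option maxSynthPendingDepth 3

open Set Filter Topology
open scoped ContDiff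

namespace Crest.Agent.R281.OT_763

open Crest.Agent.R281.HkR_835 Crest.Agent.R281.Per_368
open Crest.Agent.R281.Mc673 (W Fo tube ClF kv mn isOpen_tube cube isCompact_cube exists_cube)
open Crest.Agent.R238.Sch (ee)

noncomputable section

variable {P : Type*}
variable {V X : Type} [NormedAddCommGroup V] [NormedSpace ℝ V] [TopologicalSpace X]
variable {C : RCh V X} {N : ℕ} {r : ℝ} {Psi : W N → X}

/-- a periodic `C¹` immersion on which `x`, `y` vanish, with `DF ∘ J = I ∘ DF` -/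
structure TorM (x y : F2 C) (I : C.ι → V → V →L[ℝ] V) (F : VN N → X)
    (J : VN N → VN N →L[ℝ] VN N) : Prop where
  cont : Continuous F
  per : PerN F
  jc : Continuous J
  jp : PerN J
  jsq : ∀ θ v, J θ (J θ v) = -v
  c1 : ∀ θ i, F θ ∈ (C.e i).source → ContDiffAt ℝ 1 (fun y => C.e i (F y)) θ
  inj : ∀ θ i, F θ ∈ (C.e i).source → Function.Injective (fderiv ℝ (fun y => C.e i (F y)) θ)
  jeq : ∀ θ i, F θ ∈ (C.e i).source → ∀ v, fderiv ℝ (fun y => C.e i (F y)) θ (J θ v) =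
    I i (C.e i (F θ)) (fderiv ℝ (fun y => C.e i (F y)) θ v)
  isox : ∀ θ i, F θ ∈ (C.e i).source → ∀ u v, x.w i (C.e i (F θ))
    (fderiv ℝ (fun y => C.e i (F y)) θ u) (fderiv ℝ (fun y => C.e i (F y)) θ v) = 0
  isoy : ∀ θ i, F θ ∈ (C.e i).source → ∀ u v, y.w i (C.e i (F θ))
    (fderiv ℝ (fun y => C.e i (F y)) θ u) (fderiv ℝ (fun y => C.e i (F y)) θ v) = 0

/-- the torus of the graph of `a` -/
def Ft (Psi : W N → X) (a : VN N → VN N) (θ : VN N) : X := Psi (θ, a θ)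

/-- its complex structure -/
def Jt (x y : F2 C) (Psi : W N → X) (a : VN N → VN N) (θ : VN N) : VN N →L[ℝ] VN N :=
  Jg x y Psi θ (a θ) (fderiv ℝ a θ)

theorem fderiv_per {F : Type*} [NormedAddCommGroup F] [NormedSpace ℝ F] {a : VN N → F}
    (h : PerN a) : PerN (fderiv ℝ a) := by
  intro k θ
  have e1 := fderiv_comp_add_right (f := a) (x := θ) (𝕜 := ℝ) (kv k)
  rw [← e1]
  have : (fun y => a (y + kv k)) = a := funext fun y => h k y
  rw [this]

theorem continuous_gr : Continuous fun A : VN N →L[ℝ] VN N => gr A := by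
  have e : (fun A : VN N →L[ℝ] VN N => gr A) = fun A =>
      ContinuousLinearMap.inl ℝ (VN N) (VN N) +
        (ContinuousLinearMap.inr ℝ (VN N) (VN N)).comp A := by
    funext A
    refine ContinuousLinearMap.ext fun u => ?_
    ext1 <;> simp
  rw [e]
  exact continuous_const.add (continuous_const.clm_comp continuous_id)

section one

variable {x y : F2 C} {I : C.ι → V → V →L[ℝ] V} {a : VN N → VN N} {ε : ℝ}

theorem cont_II {S : Set (W N)} (hS : SmI C S Psi) [FiniteDimensional ℝ V]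
    (hinv : ∀ ζ ∈ S, (pull x Psi ζ).IsInvertible) {ζ : W N} (hζ : ζ ∈ S) :
    ContinuousAt (II x y Psi) ζ := by
  have h1 : ∀ w : F2 C, ContinuousAt (pull w Psi) ζ := fun w =>
    ((hS.pull_smooth w).continuousOn ζ hζ).continuousAt (hS.op.mem_nhds hζ)
  exact tendsto_II (h1 x) (h1 y) (hinv ζ hζ)

theorem hasFDerivAt_Ft (hS : SmI C (tube N r) Psi) (ha : ContDiff ℝ 1 a) (hb : Bd a ε) (hr : ε < r)
    {θ : VN N} {i : C.ι} (hi : Ft Psi a θ ∈ (C.e i).source) :
    HasFDerivAt (fun y => C.e i (Ft Psi a y))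
      ((fderiv ℝ (fun y => C.e i (Psi y)) (θ, a θ)).comp (gr (fderiv ℝ a θ))) θ := by
  have hζ : (θ, a θ) ∈ tube N r := lt_of_le_of_lt (hb θ).1 hr
  have h1 := (hS.diffAt (i := i) hζ hi).hasFDerivAt
  have h2 : HasFDerivAt (fun θ => ((θ, a θ) : W N)) (gr (fderiv ℝ a θ)) θ :=
    (hasFDerivAt_id θ).prodMk ((ha.differentiable (by norm_num)) θ).hasFDerivAt
  exact HasFDerivAt.comp (g := fun y => C.e i (Psi y)) θ h1 h2

theorem torM_of [FiniteDimensional ℝ V] (hS : SmI C (tube N r) Psi)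
    (hper : ∀ (k : Fin N → ℤ), ∀ ζ ∈ tube N r, Psi (ζ.1 + kv k, ζ.2) = Psi ζ)
    (hI : Imm C Psi (tube N r)) (h : Sy x y I) (ha : Tor (pull x Psi) (pull y Psi) a)
    (hb : Bd a ε) (hr : ε < r) : TorM x y I (Ft Psi a) (Jt x y Psi a) := by
  have hζ : ∀ θ, (θ, a θ) ∈ tube N r := fun θ => lt_of_le_of_lt (hb θ).1 hr
  have hinv : ∀ ζ ∈ tube N r, (pull x Psi ζ).IsInvertible := fun ζ hζ => pull_inv hS hI h hζ
  have hac : Continuous a := ha.c1.continuous
  have hac' : Continuous (fderiv ℝ a) := ha.c1.continuous_fderiv (by norm_num)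
  have hst : ∀ θ u, II x y Psi (θ, a θ) (gr (fderiv ℝ a θ) u) =
      gr (fderiv ℝ a θ) (Jt x y Psi a θ u) := fun θ u =>
    gr_stable hS hI h (hζ θ) (ha.x0 θ) (ha.y0 θ) u
  have hD : ∀ θ i, Ft Psi a θ ∈ (C.e i).source → fderiv ℝ (fun y => C.e i (Ft Psi a y)) θ =
      (fderiv ℝ (fun y => C.e i (Psi y)) (θ, a θ)).comp (gr (fderiv ℝ a θ)) := fun θ i hi =>
    (hasFDerivAt_Ft hS ha.c1 hb hr hi).fderiv
  have hgi : ∀ (A : VN N →L[ℝ] VN N), Function.Injective (gr A) := fun A u v huv =>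
    congrArg Prod.fst huv
  exact
  { cont := by
      rw [continuous_iff_continuousAt]
      intro θ
      have h1 : ContinuousAt Psi (θ, a θ) :=
        (hS.cont _ (hζ θ)).continuousAt ((isOpen_tube r).mem_nhds (hζ θ))
      exact ContinuousAt.comp (f := fun θ => ((θ, a θ) : W N)) h1
        (continuousAt_id.prodMk hac.continuousAt)
    per := fun k θ => by
      show Psi (θ + kv k, a (θ + kv k)) = Psi (θ, a θ)
      rw [ha.per k θ]
      exact hper k (θ, a θ) (hζ θ)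
    jc := by
      rw [continuous_iff_continuousAt]
      intro θ
      have h1 : ContinuousAt (fun θ => II x y Psi (θ, a θ)) θ :=
        ContinuousAt.comp (f := fun θ => ((θ, a θ) : W N)) (cont_II hS hinv (hζ θ))
          (continuousAt_id.prodMk hac.continuousAt)
      have h2 : ContinuousAt (fun θ => gr (fderiv ℝ a θ)) θ := by
        exact (continuous_gr.comp hac').continuousAt
      exact continuousAt_const.clm_comp (h1.clm_comp h2)
    jp := fun k θ => by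
      have h1 : II x y Psi (θ + kv k, a θ) = II x y Psi (θ, a θ) := by
        have e : ∀ w : F2 C, pull w Psi (θ + kv k, a θ) = pull w Psi (θ, a θ) := fun w =>
          (clF_pull hS hper w).per k (θ, a θ) (hζ θ)
        show -((pull x Psi (θ + kv k, a θ)).inverse.comp (pull y Psi (θ + kv k, a θ))) = _
        rw [e x, e y]; rfl
      show (ContinuousLinearMap.fst ℝ (VN N) (VN N)).comp
        ((II x y Psi (θ + kv k, a (θ + kv k))).comp (gr (fderiv ℝ a (θ + kv k)))) = _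
      rw [ha.per k θ, h1, fderiv_per ha.per k θ]; rfl
    jsq := fun θ v => by
      have h1 := hst θ (Jt x y Psi a θ v)
      rw [← hst θ v, II_sq hS hI h (hζ θ)] at h1
      have h2 := congrArg Prod.fst h1
      exact h2.symm
    c1 := fun θ i hi => by
      have h1 := hS.smAt (i := i) (hζ θ) hi
      exact ContDiffAt.comp (g := fun y => C.e i (Psi y)) θ (h1.of_le (by simp))
        (contDiffAt_id.prodMk ha.c1.contDiffAt)
    inj := fun θ i hi => by
      rw [hD θ i hi]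
      exact (hI _ (hζ θ) i hi).1.comp (hgi _)
    jeq := fun θ i hi v => by
      rw [hD θ i hi]
      show fderiv ℝ (fun y => C.e i (Psi y)) (θ, a θ) (gr (fderiv ℝ a θ) (Jt x y Psi a θ v)) = _
      rw [← hst θ v, II_spec hS hI h (hζ θ) hi]
      rfl
    isox := fun θ i hi u v => by
      rw [hD θ i hi]
      have h1 := ha.x0 θ u v
      rwa [hS.pull_eq x (hζ θ) hi, pl_apply] at h1
    isoy := fun θ i hi u v => by
      rw [hD θ i hi]
      have h1 := ha.y0 θ u v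
      rwa [hS.pull_eq y (hζ θ) hi, pl_apply] at h1 }

end one

section zero

variable {x1 y1 : F2 C} {I1 : C.ι → V → V →L[ℝ] V} {Cc : VN N →L[ℝ] VN N}

theorem Prd.tor (h : Prd C N r Psi x1 y1 Cc) : Tor (pull x1 Psi) (pull y1 Psi) (fun _ => 0) where
  c1 := contDiff_const
  per := fun _ _ => rfl
  x0 := fun θ u v => by rw [fderiv_zero_fun]; exact h.xtt θ u v
  y0 := fun θ u v => by rw [fderiv_zero_fun]; exact h.ytt θ u v

theorem bd_zero : Bd (fun _ : VN N => (0 : VN N)) 0 := fun θ => by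
  rw [fderiv_zero_fun]; simp

/-- the constant complex structure of the central torus -/
theorem Prd.J1_eq [FiniteDimensional ℝ V] (h : Prd C N r Psi x1 y1 Cc)
    (hI : Imm C Psi (tube N r)) (hS1 : Sy x1 y1 I1) (θ : VN N) :
    Jt x1 y1 Psi (fun _ => 0) θ = -(ContinuousLinearMap.adjoint Cc) := by
  have hζ := h.zero_mem θ
  have hinv := pull_inv h.sm hI hS1 hζ
  ext1 u
  have h1 := gr_stable h.sm hI hS1 hζ (A := 0) (fun u w => h.xtt θ u w) (fun u w => h.ytt θ u w) u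
  have e : Jt x1 y1 Psi (fun _ => 0) θ = Jg x1 y1 Psi θ 0 0 := by
    unfold Jt; rw [fderiv_zero_fun]
  rw [e]
  set J := Jg x1 y1 Psi θ 0 0 u with hJ
  refine ext_inner_left ℝ fun v => ?_
  have h2 := pull_II (y := y1) hinv (gr 0 u) (0, v)
  rw [h1] at h2
  have h3 : pull x1 Psi (θ, 0) (gr 0 J) (0, v) = - inner ℝ v J := by
    rw [h.alt x1 hζ]
    exact congrArg Neg.neg (h.xvt θ v J)
  have h4 : pull y1 Psi (θ, 0) (gr 0 u) (0, v) = - inner ℝ (Cc v) u := by
    rw [h.alt y1 hζ]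
    exact congrArg Neg.neg (h.yvt θ v u)
  rw [h3, h4] at h2
  show inner ℝ v J = inner ℝ v (-((ContinuousLinearMap.adjoint Cc) u))
  rw [inner_neg_right, ContinuousLinearMap.adjoint_inner_right]
  linarith

end zero

/-! ## convergence -/

theorem tendsto_compL {α E F G : Type*} [NormedAddCommGroup E] [NormedSpace ℝ E]
    [NormedAddCommGroup F] [NormedSpace ℝ F] [NormedAddCommGroup G] [NormedSpace ℝ G]
    {l : Filter α} {f : α → F →L[ℝ] G} {g : α → E →L[ℝ] F} {A : F →L[ℝ] G} {B : E →L[ℝ] F}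
    (h : Tendsto f l (𝓝 A)) (h' : Tendsto g l (𝓝 B)) :
    Tendsto (fun a => (f a).comp (g a)) l (𝓝 (A.comp B)) := by
  have h3 : Continuous fun q : (F →L[ℝ] G) × (E →L[ℝ] F) => q.1.comp q.2 :=
    isBoundedBilinearMap_comp.continuous
  exact (h3.tendsto (A, B)).comp (h.prodMk_nhds h')

section conv

variable {l : Filter P} {a : P → VN N → VN N} (ha : ∀ ε, 0 < ε → ∀ᶠ p in l, Bd (a p) ε)
include ha

theorem tend_a (θ : VN N) : Tendsto (fun q : P × VN N => a q.1 q.2) (l ×ˢ 𝓝 θ) (𝓝 0) := by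
  rw [Metric.tendsto_nhds]
  intro ε hε
  filter_upwards [tendsto_fst.eventually (ha (ε / 2) (half_pos hε))] with q hq
  rw [dist_zero_right]
  exact lt_of_le_of_lt (hq q.2).1 (half_lt_self hε)

theorem tend_da (θ : VN N) :
    Tendsto (fun q : P × VN N => fderiv ℝ (a q.1) q.2) (l ×ˢ 𝓝 θ) (𝓝 0) := by
  rw [Metric.tendsto_nhds]
  intro ε hε
  filter_upwards [tendsto_fst.eventually (ha (ε / 2) (half_pos hε))] with q hq
  rw [dist_zero_right]
  exact lt_of_le_of_lt (hq q.2).2 (half_lt_self hε)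

theorem tend_z (θ : VN N) : Tendsto (fun q : P × VN N => ((q.2, a q.1 q.2) : W N)) (l ×ˢ 𝓝 θ)
    (𝓝 (θ, 0)) := tendsto_snd.prodMk_nhds (tend_a ha θ)

theorem tend_gr (θ : VN N) : Tendsto (fun q : P × VN N => gr (fderiv ℝ (a q.1) q.2)) (l ×ˢ 𝓝 θ)
    (𝓝 (gr 0)) := (continuous_gr.tendsto 0).comp (tend_da ha θ)

theorem tend_pull (hS : SmI C (tube N r) Psi) (hr : 0 < r) {w : P → F2 C} {w1 : F2 C}
    (hw : TC2 l w w1) (θ : VN N) :
    Tendsto (fun q : P × VN N => pull (w q.1) Psi (q.2, a q.1 q.2)) (l ×ˢ 𝓝 θ)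
      (𝓝 (pull w1 Psi (θ, 0))) := by
  have hz : (θ, (0 : VN N)) ∈ tube N r := by
    show ‖(0 : VN N)‖ < r
    rwa [norm_zero]
  exact Tendsto.comp (g := fun q : P × W N => pull (w q.1) Psi q.2)
    (f := fun q : P × VN N => (q.1, ((q.2, a q.1 q.2) : W N)))
    (TT.c0 (tt_pull hS hw) hz) (tendsto_fst.prodMk (tend_z ha θ))

theorem tend_Ft (hS : SmI C (tube N r) Psi) (hr : 0 < r) (θ : VN N) :
    Tendsto (fun q : P × VN N => Ft Psi (a q.1) q.2) (l ×ˢ 𝓝 θ) (𝓝 (Psi (θ, 0))) := by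
  have hz : (θ, (0 : VN N)) ∈ tube N r := by
    show ‖(0 : VN N)‖ < r
    rwa [norm_zero]
  have h1 : ContinuousAt Psi (θ, 0) :=
    (hS.cont _ hz).continuousAt ((isOpen_tube r).mem_nhds hz)
  exact h1.tendsto.comp (tend_z ha θ)

theorem tend_dFt (hS : SmI C (tube N r) Psi) (hr : 0 < r) (hc : ∀ᶠ p in l, ContDiff ℝ 1 (a p))
    {θ : VN N} {i : C.ι} (hi : Psi (θ, 0) ∈ (C.e i).source) :
    Tendsto (fun q : P × VN N => fderiv ℝ (fun y => C.e i (Ft Psi (a q.1) y)) q.2) (l ×ˢ 𝓝 θ)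
      (𝓝 (fderiv ℝ (fun y => C.e i (Psi (y, 0))) θ)) := by
  have hz : (θ, (0 : VN N)) ∈ tube N r := by
    show ‖(0 : VN N)‖ < r
    rwa [norm_zero]
  have hO := hS.isOpen_pre (C.e i).open_source
  have hmem : ((θ, (0 : VN N)) : W N) ∈ tube N r ∩ Psi ⁻¹' (C.e i).source := ⟨hz, hi⟩
  have h1 : ContinuousAt (fderiv ℝ (fun y => C.e i (Psi y))) (θ, 0) :=
    ((hS.smAt (i := i) hz hi).fderiv_right (m := 0) (by simp)).continuousAt
  have h2 := h1.tendsto.comp (tend_z ha θ)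
  have h4 : Tendsto (fun q : P × VN N => (fderiv ℝ (fun y => C.e i (Psi y))
      (q.2, a q.1 q.2)).comp (gr (fderiv ℝ (a q.1) q.2))) (l ×ˢ 𝓝 θ)
      (𝓝 ((fderiv ℝ (fun y => C.e i (Psi y)) (θ, 0)).comp (gr 0))) :=
    tendsto_compL h2 (tend_gr ha θ)
  have h5 : fderiv ℝ (fun y => C.e i (Psi (y, 0))) θ =
      (fderiv ℝ (fun y => C.e i (Psi y)) (θ, 0)).comp (gr 0) := by
    have h6 := (hasFDerivAt_Ft hS (contDiff_const (c := (0 : VN N))) bd_zero hr
      (θ := θ) (i := i) hi).fderiv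
    rw [fderiv_zero_fun] at h6
    exact h6
  rw [h5]
  refine h4.congr' ?_
  have h7 : ∀ᶠ q : P × VN N in l ×ˢ 𝓝 θ, ((q.2, a q.1 q.2) : W N) ∈
      tube N r ∩ Psi ⁻¹' (C.e i).source := (tend_z ha θ).eventually (hO.mem_nhds hmem)
  filter_upwards [h7, tendsto_fst.eventually hc,
    tendsto_fst.eventually (ha (r / 2) (half_pos hr))] with q hq hq' hq''
  exact (hasFDerivAt_Ft hS hq' hq'' (half_lt_self hr) (θ := q.2) (i := i) hq.2).fderiv.symm

end conv

theorem tend_Jg {α : Type*} {l : Filter α} {xf yf : α → F2 C} {x1 y1 : F2 C} {θf vf : α → VN N}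
    {Af : α → VN N →L[ℝ] VN N} {θ : VN N}
    (hX : Tendsto (fun a => pull (xf a) Psi (θf a, vf a)) l (𝓝 (pull x1 Psi (θ, 0))))
    (hY : Tendsto (fun a => pull (yf a) Psi (θf a, vf a)) l (𝓝 (pull y1 Psi (θ, 0))))
    (hg : Tendsto (fun a => gr (Af a)) l (𝓝 (gr 0)))
    (hinv : (pull x1 Psi (θ, 0)).IsInvertible) :
    Tendsto (fun a => Jg (xf a) (yf a) Psi (θf a) (vf a) (Af a)) l
      (𝓝 (Jg x1 y1 Psi θ 0 0)) := by
  have h1 : Tendsto (fun a => II (xf a) (yf a) Psi (θf a, vf a)) l (𝓝 (II x1 y1 Psi (θ, 0))) :=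
    tendsto_II hX hY hinv
  have h2 : Tendsto (fun a => (II (xf a) (yf a) Psi (θf a, vf a)).comp (gr (Af a))) l
      (𝓝 ((II x1 y1 Psi (θ, 0)).comp (gr 0))) := tendsto_compL h1 hg
  exact tendsto_compL (tendsto_const_nhds (x := ContinuousLinearMap.fst ℝ (VN N) (VN N))) h2

/-- **OPEN-TORI** -/
theorem open_tori [FiniteDimensional ℝ V] {x1 y1 : F2 C}
    {I1 : C.ι → V → V →L[ℝ] V} {Cc : VN N →L[ℝ] VN N}
    (h : Prd C N r Psi x1 y1 Cc) (hd : Module.finrank ℝ V = 2 * N) (hS1 : Sy x1 y1 I1)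
    {l : Filter P} {x y : P → F2 C}
    {I : P → C.ι → V → V →L[ℝ] V} (hS : ∀ᶠ p in l, Sy (x p) (y p) (I p))
    (hx : TC2 l x x1) (hy : TC2 l y y1)
    (hpx : ∀ᶠ p in l, ∀ j k, mn (fun θ => pull (x p) Psi (θ, 0) (ee j, 0) (ee k, 0)) = 0)
    (hpy : ∀ᶠ p in l, ∀ j k, mn (fun θ => pull (y p) Psi (θ, 0) (ee j, 0) (ee k, 0)) = 0) :
    ∃ (F : P → VN N → X) (J : P → VN N → VN N →L[ℝ] VN N),
      (∀ᶠ p in l, TorM (x p) (y p) (I p) (F p) (J p)) ∧
      TorM x1 y1 I1 (fun θ => Psi (θ, 0)) (fun _ => -(ContinuousLinearMap.adjoint Cc)) ∧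
      (∀ θ, Tendsto (fun q : P × VN N => F q.1 q.2) (l ×ˢ 𝓝 θ) (𝓝 (Psi (θ, 0)))) ∧
      (∀ θ i, Psi (θ, 0) ∈ (C.e i).source →
        Tendsto (fun q : P × VN N => fderiv ℝ (fun y => C.e i (F q.1 y)) q.2) (l ×ˢ 𝓝 θ)
          (𝓝 (fderiv ℝ (fun y => C.e i (Psi (y, 0))) θ))) ∧
      (∀ θ, Tendsto (fun q : P × VN N => J q.1 q.2) (l ×ˢ 𝓝 θ)
          (𝓝 (-(ContinuousLinearMap.adjoint Cc)))) := by
  obtain ⟨s, hs, hsr, hI, -⟩ := exists_imm hd h
  have hP := h.mono hs hsr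
  obtain ⟨a, ha⟩ := exists_tori hP hI hS hx hy hpx hpy
  have hb : ∀ ε, 0 < ε → ∀ᶠ p in l, Bd (a p) ε := fun ε hε => (ha ε hε).mono fun p hp => hp.2
  have hev := ha (s / 2) (half_pos hs)
  refine ⟨fun p => Ft Psi (a p), fun p => Jt (x p) (y p) Psi (a p), ?_, ?_, ?_, ?_, ?_⟩
  · filter_upwards [hev, hS] with p hp hp'
    exact torM_of hP.sm hP.per hI hp' hp.1 hp.2 (half_lt_self hs)
  · have h1 := torM_of hP.sm hP.per hI hS1 hP.tor bd_zero hP.r0
    have h2 : Jt x1 y1 Psi (fun _ => 0) = fun _ => -(ContinuousLinearMap.adjoint Cc) :=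
      funext fun θ => hP.J1_eq hI hS1 θ
    rw [h2] at h1
    exact h1
  · exact fun θ => tend_Ft hb hP.sm hP.r0 θ
  · exact fun θ i hi => tend_dFt hb hP.sm hP.r0 (hev.mono fun p hp => hp.1.c1) hi
  · intro θ
    have e : Jt x1 y1 Psi (fun _ => 0) θ = Jg x1 y1 Psi θ 0 0 := by
      unfold Jt; rw [fderiv_zero_fun]
    rw [← hP.J1_eq hI hS1 θ, e]
    exact tend_Jg (tend_pull hb hP.sm hP.r0 hx θ) (tend_pull hb hP.sm hP.r0 hy θ) (tend_gr hb θ)
      (pull_inv hP.sm hI hS1 (hP.zero_mem θ))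

end

end Crest.Agent.R281.OT_763
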