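import Crest.Agent.R281.OpB1_849
import Crest.Agent.R273.FS_333

/-!
# R281 (S0424), DIV 7, lemma OPEN, part O2 (helper849), file 3: the Fubini-Study metric

* `GG L N` : `N` holomorphic sections of `L` without common zero;
* `fsL G : HM L`, `w i = 1 / ∑ |s_a|²`, `fsL_semipos`;
* `null_vert` : null vector fields (for the curvature of `fsL G`) are vertical:
  `s_a · ds_b(X) = s_b · ds_a(X)`.
-/

set_option autoImplicit false
set_option linter.unusedSectionVars false

open Set Filter Topology Complex Matrix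
open scoped ContDiff Matrix ComplexConjugate Manifold ComplexOrder

namespace Crest.Agent.R281.OpB_849

open Crest.Agent.R273 Crest.Agent.R275 Crest.Agent.R275.Geo Crest.Agent.R275.Core144
open Crest.Agent.R275.OmT75 (dl)
open Crest.Agent.R275.EDR890 (wd)
open Crest.Agent.R273.Defs_333 Crest.Agent.R273.HM_333 Crest.Agent.R273.Kah_333
open Crest.Agent.R273.Hess_333 Crest.Agent.R273.HessB_333
open Crest.Agent.R273.BKNa_37 (dl_eq_dS wd_eq_dS)

noncomputable section

variable {n : ℕ} {M : Type} [TopologicalSpace M] {A : Atl n M} {L : LB A} {N : ℕ}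

/-- `N` holomorphic sections of `L` without common zero -/
structure GG (L : LB A) (N : ℕ) where
  s : Fin N → A.ι → M → ℂ
  hs : ∀ a, IsHS L univ (s a)
  ne : ∀ i, ∀ x ∈ (A.e i).source, ∃ a, s a i x ≠ 0

variable (G : GG L N)

/-- reading of the sections in a chart -/
def GG.F (i : A.ι) (z : Cn n) : Fin N → ℂ := fun a => G.s a i ((A.e i).symm z)

theorem GG.F_hol (i : A.ι) (a : Fin N) : DifferentiableOn ℂ (fun z => G.F i z a) (A.e i).target := by
  have h1 : DifferentiableOn ℂ (fun z => G.s a i ((A.e i).symm z)) (A.e i).target := by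
    have := (G.hs a).hol i
    unfold HolAt at this
    simpa using this
  exact h1

theorem GG.F_ne {i : A.ι} {z : Cn n} (hz : z ∈ (A.e i).target) : G.F i z ≠ 0 := by
  intro h
  obtain ⟨a, ha⟩ := G.ne i _ ((A.e i).map_target hz)
  exact ha (congrFun h a)

/-- `∑ |s_a|²` -/
def GG.sq (i : A.ι) (x : M) : ℝ := ∑ a, ‖G.s a i x‖ ^ 2

theorem GG.sq_pos {i : A.ι} {x : M} (hx : x ∈ (A.e i).source) : 0 < G.sq i x := by
  obtain ⟨a, ha⟩ := G.ne i x hx
  refine lt_of_lt_of_le (by positivity : 0 < ‖G.s a i x‖ ^ 2) ?_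
  exact Finset.single_le_sum (f := fun a => ‖G.s a i x‖ ^ 2) (fun _ _ => by positivity)
    (Finset.mem_univ a)

theorem GG.s_sm (i : A.ι) (a : Fin N) : A.SmAt i (G.s a i) := by
  have h1 : ContDiffOn ℝ ∞ (fun z => G.s a i ((A.e i).symm z)) (A.e i).target := by
    have := ((G.hs a).hol i).contDiffOn isOpen_univ
    simpa using this
  exact h1

/-- the Fubini-Study metric -/
def fsL : HM L where
  w i x := (G.sq i x)⁻¹
  pos i x hx := inv_pos.2 (G.sq_pos hx)
  sm i := by
    have h1 : ContDiffOn ℝ ∞ (fun z => ∑ a, ‖G.s a i ((A.e i).symm z)‖ ^ 2) (A.e i).target := by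
      refine ContDiffOn.sum fun a _ => ?_
      have h2 : ContDiffOn ℝ ∞ (fun z => G.s a i ((A.e i).symm z)) (A.e i).target := G.s_sm i a
      exact h2.norm_sq ℝ
    exact h1.inv fun z hz => (G.sq_pos ((A.e i).map_target hz)).ne'
  tr i j x hx := by
    have h1 : G.sq i x = ‖L.g i j x‖ ^ 2 * G.sq j x := by
      unfold GG.sq
      rw [Finset.mul_sum]
      refine Finset.sum_congr rfl fun a _ => ?_
      rw [(G.hs a).tr i j x hx (mem_univ x), norm_mul, mul_pow]
    have h2 : 0 < G.sq j x := G.sq_pos hx.2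
    have h3 : ‖L.g i j x‖ ^ 2 ≠ 0 := by
      have := L.ne_zero i j x
      positivity
    rw [h1, mul_inv, ← mul_assoc, mul_inv_cancel₀ h3, one_mul]

theorem fsL_wt (i : A.ι) : (fsL G).wt i = fun z => Real.log (FS_333.sq (G.F i) z) := by
  funext z
  show - Real.log ((G.sq i ((A.e i).symm z))⁻¹) = _
  rw [Real.log_inv, neg_neg]
  rfl

theorem lev_fsL {i : A.ι} {z : Cn n} (hz : z ∈ (A.e i).target) (v : Cn n) :
    lev ((fsL G).wt i) z v = 4 * ((FS_333.sq (G.F i) z *
      (∑ k, ‖fderiv ℂ (fun z => G.F i z k) z v‖ ^ 2) -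
        ‖∑ k, fderiv ℂ (fun z => G.F i z k) z v * conj (G.F i z k)‖ ^ 2) /
          (FS_333.sq (G.F i) z) ^ 2) := by
  rw [fsL_wt]
  exact FS_333.lev_log_sq (A.e i).open_target (G.F_hol i) hz (G.F_ne hz) v

/-- Lagrange: the numerator -/
theorem lag (p q : Fin N → ℂ) (hp : 0 < ∑ k, ‖p k‖ ^ 2) :
    0 ≤ (∑ k, ‖p k‖ ^ 2) * (∑ k, ‖q k‖ ^ 2) - ‖∑ k, q k * conj (p k)‖ ^ 2 ∧
    ((∑ k, ‖p k‖ ^ 2) * (∑ k, ‖q k‖ ^ 2) - ‖∑ k, q k * conj (p k)‖ ^ 2 = 0 →
      ∀ a b, p a * q b = p b * q a) := by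
  have h := (FS_333.lagrange p q).resolve_right hp.ne'
  constructor
  · rw [h]
    exact div_nonneg (Finset.sum_nonneg fun _ _ => by positivity) hp.le
  · intro h0 a b
    rw [h, div_eq_zero_iff] at h0
    have h1 := h0.resolve_right hp.ne'
    have h2 := (Finset.sum_eq_zero_iff_of_nonneg (fun _ _ => by positivity)).1 h1
    have h3 : ∀ k, ((∑ l, ‖p l‖ ^ 2 : ℝ) : ℂ) * q k = (∑ l, q l * conj (p l)) * p k := by
      intro k
      have h4 := norm_eq_zero.1 (pow_eq_zero_iff (two_ne_zero) |>.1 (h2 k (Finset.mem_univ k)))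
      rw [sub_eq_zero] at h4
      rw [← h4]
      rfl
    have h5 : ((∑ l, ‖p l‖ ^ 2 : ℝ) : ℂ) ≠ 0 := by exact_mod_cast hp.ne'
    refine mul_left_cancel₀ h5 ?_
    calc ((∑ l, ‖p l‖ ^ 2 : ℝ) : ℂ) * (p a * q b) =
          p a * (((∑ l, ‖p l‖ ^ 2 : ℝ) : ℂ) * q b) := by ring
      _ = p b * (((∑ l, ‖p l‖ ^ 2 : ℝ) : ℂ) * q a) := by rw [h3, h3]; ring
      _ = _ := by ring

theorem fsL_semipos : (fsL G).Semipos := by
  intro i z hz v
  rw [lev_fsL G hz]
  have h1 := (lag (G.F i z) (fun k => fderiv ℂ (fun z => G.F i z k) z v)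
    (FS_333.sq_pos (G.F_ne hz))).1
  have h2 := FS_333.sq_pos (G.F_ne (i := i) hz)
  exact mul_nonneg (by norm_num) (div_nonneg h1 (by positivity))

/-- the derivative of a family of functions in the direction `X` -/
def dX (X : A.ι → M → Fin n → ℂ) (s : A.ι → M → ℂ) (i : A.ι) (x : M) : ℂ :=
  ∑ l, X i x l * dl A i l (s i) x

theorem dl_hol {i : A.ι} {f : M → ℂ} (hf : HolAt A i univ f) {x : M} (hx : x ∈ (A.e i).source)
    (l : Fin n) : dl A i l f x =
      fderiv ℂ (fun z => f ((A.e i).symm z)) (A.e i x) (EuclideanSpace.single l 1) := by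
  have h1 : DifferentiableOn ℂ (fun z => f ((A.e i).symm z)) (A.e i).target := by
    unfold HolAt at hf
    simpa using hf
  have h2 := h1.differentiableAt ((A.e i).open_target.mem_nhds ((A.e i).map_source hx))
  rw [dl_eq_dS, ← wd_eq_dS, wd_hol' h2]

/-- null vectors are vertical -/
theorem null_vert {X : A.ι → M → Fin n → ℂ} (hN : NulX (fsL G) X) {i : A.ι} {x : M}
    (hx : x ∈ (A.e i).source) (a b : Fin N) :
    G.s a i x * dX X (G.s b) i x = G.s b i x * dX X (G.s a) i x := by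
  have hz := (A.e i).map_source hx
  set z := A.e i x with hzd
  set v : Cn n := WithLp.toLp 2 (X i x) with hv
  have hvl : ∀ l, v l = X i x l := fun l => rfl
  have h0 : lev ((fsL G).wt i) z v = 0 := by
    have h1 := lev_eq (wt_contDiffAt (fsL G) i hz) v
    have h2 : hq ((fsL G).wt i) z v = 0 := by
      unfold hq
      rw [Finset.sum_comm]
      refine Finset.sum_eq_zero fun c _ => ?_
      rw [← Finset.sum_mul]
      have h3 := hN i x hx c
      unfold cur at h3
      have h4 : ∑ d, hess ((fsL G).wt i) z d c * v d = 0 := h3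
      rw [h4, zero_mul]
    rw [h2, mul_zero] at h1
    exact_mod_cast h1
  rw [lev_fsL G hz] at h0
  have hp := FS_333.sq_pos (G.F_ne (i := i) hz)
  have h1 := (lag (G.F i z) (fun k => fderiv ℂ (fun z => G.F i z k) z v) hp).2
  have h2 : (∑ k, ‖G.F i z k‖ ^ 2) * (∑ k, ‖fderiv ℂ (fun z => G.F i z k) z v‖ ^ 2) -
      ‖∑ k, fderiv ℂ (fun z => G.F i z k) z v * conj (G.F i z k)‖ ^ 2 = 0 := by
    rcases mul_eq_zero.1 h0 with h | h
    · norm_num at h
    · rcases div_eq_zero_iff.1 h with h | h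
      · exact h
      · exact absurd h (by positivity)
  have h3 := h1 h2
  have hF : ∀ k, G.F i z k = G.s k i x := by
    intro k
    unfold GG.F
    rw [hzd, (A.e i).left_inv hx]
  have hD : ∀ k, fderiv ℂ (fun z => G.F i z k) z v = dX X (G.s k) i x := by
    intro k
    have e1 : v = ∑ c, v c • (EuclideanSpace.single c (1 : ℂ) : Cn n) := by
      ext d
      simp [Finset.sum_apply, Pi.single_apply]
    rw [e1, map_sum]
    unfold dX
    refine Finset.sum_congr rfl fun l _ => ?_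
    rw [map_smul, hvl, smul_eq_mul, dl_hol ((G.hs k).hol i) hx]
    rfl
  have h4 := h3 a b
  simp only [hF, hD] at h4
  exact h4

end

end Crest.Agent.R281.OpB_849
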