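import Crest.Agent.R281.OpB1_849
import Crest.Agent.R273.Cram_747
import Crest.Agent.R273.NoHVF_376

/-!
# R281 (S0424), DIV 7, lemma OPEN, part O2 (helper849), file 4: step (d)

`L` generated by the sections `s_a` (`a ∈ σ`), `X_a` holomorphic vector fields with values in `L`
with `s_a X_b = s_b X_a` on a nonempty open set:

* `cross` : then `s_a X_b = s_b X_a` everywhere (`M` connected);
* `quo` : the holomorphic vector field `X_a / s_a`;
* `eq_zero` : `X_a = 0` if there are no holomorphic vector fields;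
* `eq_zero_of_ricci` : simply connected, Ricci flat.
-/

set_option autoImplicit false
set_option linter.unusedSectionVars false

open Set Filter Topology Complex Matrix
open scoped ContDiff Matrix ComplexConjugate Manifold ComplexOrder

namespace Crest.Agent.R281.OpB_849

open Crest.Agent.R273 Crest.Agent.R275 Crest.Agent.R275.Geo Crest.Agent.R275.Core144
open Crest.Agent.R275.GC293
open Crest.Agent.R273.Defs_333 Crest.Agent.R273.HM_333 Crest.Agent.R273.Kah_333
open Crest.Agent.R273.Vol_333 Crest.Agent.R273.HFlow3_376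
open Crest.Agent.R273.BKNa_37 (J_J)

noncomputable section

variable {n : ℕ} {M : Type} [TopologicalSpace M] {A : Atl n M} {L : LB A} {σ : Type*}
  {s : σ → A.ι → M → ℂ} {X : σ → A.ι → M → Fin n → ℂ}

/-- the identity `s_a X_b = s_b X_a` spreads from an open set -/
theorem cross [PreconnectedSpace M] (hs : ∀ a, IsHS L univ (s a)) (hX : ∀ a, IsX L (X a))
    (hh : ∀ a, HolX (X a)) {V : Set M} (hV : IsOpen V) (hne : V.Nonempty)
    (hc : ∀ a b i, ∀ x ∈ (A.e i).source, x ∈ V → s a i x • X b i x = s b i x • X a i x) (a b : σ) :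
    ∀ i, ∀ x ∈ (A.e i).source, s a i x • X b i x = s b i x • X a i x := by
  have key := Cram_747.eq_zero_of_open
    (u := fun i x k => s a i x * X b i x k - s b i x * X a i x k)
    (fun i k => (((hs a).hol i).mul (hh b i k)).sub (((hs b).hol i).mul (hh a i k)))
    (fun i j x hx h0 => ?_) hV hne fun x hx i hi => ?_
  · intro i x hx
    funext k
    have h1 := congrFun (key i x hx) k
    rw [Pi.smul_apply, Pi.smul_apply, smul_eq_mul, smul_eq_mul, ← sub_eq_zero]
    exact h1
  · have h1 : s a j x • X b j x = s b j x • X a j x := by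
      funext k
      have h2 := congrFun h0 k
      rw [Pi.smul_apply, Pi.smul_apply, smul_eq_mul, smul_eq_mul, ← sub_eq_zero]
      exact h2
    have h2 : s a i x • X b i x = s b i x • X a i x := by
      rw [(hs a).tr i j x hx (mem_univ x), (hs b).tr i j x hx (mem_univ x), (hX a).tr i j x hx,
        (hX b).tr i j x hx, smul_smul, smul_smul]
      have h3 : ∀ c : ℂ, ∀ Y : Fin n → ℂ, (L.g i j x * c * L.g i j x) • (Jm A j i x *ᵥ Y) =
          (L.g i j x * L.g i j x) • (Jm A j i x *ᵥ (c • Y)) := by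
        intro c Y
        rw [Matrix.mulVec_smul, smul_smul]
        congr 1
        ring
      rw [h3, h3, h1]
    funext k
    have h3 := congrFun h2 k
    rw [Pi.smul_apply, Pi.smul_apply, smul_eq_mul, smul_eq_mul, ← sub_eq_zero] at h3
    exact h3
  · funext k
    have h1 := congrFun (hc a b i x hi hx) k
    rw [Pi.smul_apply, Pi.smul_apply, smul_eq_mul, smul_eq_mul, ← sub_eq_zero] at h1
    exact h1

open Classical in
/-- the quotient `X_a / s_a` -/
def quoV (s : σ → A.ι → M → ℂ) (X : σ → A.ι → M → Fin n → ℂ) (i : A.ι) (x : M) : Fin n → ℂ :=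
  if h : ∃ a, s a i x ≠ 0 then (s h.choose i x)⁻¹ • X h.choose i x else 0

theorem quoV_eq {i : A.ι} {x : M}
    (hc : ∀ a b, s a i x • X b i x = s b i x • X a i x) {a : σ} (ha : s a i x ≠ 0) :
    quoV s X i x = (s a i x)⁻¹ • X a i x := by
  have h : ∃ a, s a i x ≠ 0 := ⟨a, ha⟩
  unfold quoV
  rw [dif_pos h]
  have h1 := h.choose_spec
  have h2 := hc a h.choose
  have h3 : X h.choose i x = (s a i x)⁻¹ • (s h.choose i x • X a i x) := by
    rw [← h2, smul_smul, inv_mul_cancel₀ ha, one_smul]
  rw [h3, smul_comm (s a i x)⁻¹, smul_smul, inv_mul_cancel₀ h1, one_smul]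

theorem fderiv_Jm (i j : A.ι) (x : M) (v : Fin n → ℂ) :
    fderiv ℂ (fun z => A.e j ((A.e i).symm z)) (A.e i x) (WithLp.toLp 2 v) =
      WithLp.toLp 2 (Jm A i j x *ᵥ v) := by
  have e1 : (WithLp.toLp 2 v : Cn n) = ∑ c, v c • (EuclideanSpace.single c (1 : ℂ) : Cn n) := by
    ext d
    simp [Finset.sum_apply, Pi.single_apply]
  rw [e1, map_sum]
  ext b
  simp only [map_smul]
  show (∑ c, v c • fderiv ℂ (fun z => A.e j ((A.e i).symm z)) (A.e i x)
    (EuclideanSpace.single c 1)) b = ∑ a, A.J i j x b a * v a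
  have e2 : (∑ c, v c • fderiv ℂ (fun z => A.e j ((A.e i).symm z)) (A.e i x)
      (EuclideanSpace.single c 1)) b = ∑ c, (v c • fderiv ℂ (fun z => A.e j ((A.e i).symm z))
        (A.e i x) (EuclideanSpace.single c 1)) b := by
    simp [Finset.sum_apply]
  rw [e2]
  refine Finset.sum_congr rfl fun c _ => ?_
  rw [PiLp.smul_apply, smul_eq_mul, mul_comm]
  rfl

/-- the quotient as a holomorphic vector field -/
def quo (hs : ∀ a, IsHS L univ (s a)) (ne : ∀ i, ∀ x ∈ (A.e i).source, ∃ a, s a i x ≠ 0)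
    (hX : ∀ a, IsX L (X a)) (hh : ∀ a, HolX (X a))
    (hc : ∀ a b i, ∀ x ∈ (A.e i).source, s a i x • X b i x = s b i x • X a i x) : HVF A where
  X i x := WithLp.toLp 2 (quoV s X i x)
  hol i := by
    rw [differentiableOn_euclidean]
    intro k z hz
    have hx := (A.e i).map_target hz
    obtain ⟨a, ha⟩ := ne i _ hx
    have h1 : DifferentiableOn ℂ (fun z => s a i ((A.e i).symm z)) (A.e i).target := by
      have := (hs a).hol i
      unfold HolAt at this
      simpa using this
    have h2 : DifferentiableOn ℂ (fun z => X a i ((A.e i).symm z) k) (A.e i).target := by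
      have := hh a i k
      unfold HolAt at this
      simpa using this
    have h1' := h1.differentiableAt ((A.e i).open_target.mem_nhds hz)
    have h2' := h2.differentiableAt ((A.e i).open_target.mem_nhds hz)
    have h3 : (fun z => quoV s X i ((A.e i).symm z) k) =ᶠ[𝓝 z]
        fun z => (s a i ((A.e i).symm z))⁻¹ * X a i ((A.e i).symm z) k := by
      filter_upwards [(A.e i).open_target.mem_nhds hz, h1'.continuousAt.eventually_ne ha]
        with w hw hwa
      rw [quoV_eq (fun a b => hc a b i _ ((A.e i).map_target hw)) hwa]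
      rfl
    exact ((h1'.inv ha).mul h2' |>.congr_of_eventuallyEq h3).differentiableWithinAt
  tr i j x hx := by
    obtain ⟨a, ha⟩ := ne i x hx.1
    have h1 := (hs a).tr j i x ⟨hx.2, hx.1⟩ (mem_univ x)
    have hg := L.ne_zero j i x
    have ha' : s a j x ≠ 0 := by rw [h1]; exact mul_ne_zero hg ha
    rw [fderiv_Jm, quoV_eq (fun a b => hc a b j x hx.2) ha',
      quoV_eq (fun a b => hc a b i x hx.1) ha, (hX a).tr j i x ⟨hx.2, hx.1⟩, h1, smul_smul,
      Matrix.mulVec_smul]
    congr 2
    field_simp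

/-- **(O2.d)**, abstract form: no holomorphic vector fields -/
theorem eq_zero [PreconnectedSpace M] (hno : ∀ V : HVF A, ∀ i, ∀ x ∈ (A.e i).source, V.X i x = 0)
    (hs : ∀ a, IsHS L univ (s a)) (ne : ∀ i, ∀ x ∈ (A.e i).source, ∃ a, s a i x ≠ 0)
    (hX : ∀ a, IsX L (X a)) (hh : ∀ a, HolX (X a)) {V : Set M} (hV : IsOpen V) (hne : V.Nonempty)
    (hc : ∀ a b i, ∀ x ∈ (A.e i).source, x ∈ V → s a i x • X b i x = s b i x • X a i x) (a : σ) :
    ∀ i, ∀ x ∈ (A.e i).source, X a i x = 0 := by
  intro i x hx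
  have hc' := fun a b => cross hs hX hh hV hne hc a b
  have h1 := hno (quo hs ne hX hh fun a b i x hx => hc' a b i x hx) i x hx
  obtain ⟨b, hb⟩ := ne i x hx
  have h2 : quoV s X i x = 0 := by
    have h3 : WithLp.toLp 2 (quoV s X i x) = (0 : Cn n) := h1
    funext k
    exact congrFun (congrArg WithLp.ofLp h3) k
  rw [quoV_eq (fun a b => hc' a b i x hx) hb] at h2
  have h3 : X b i x = 0 := (smul_eq_zero.1 h2).resolve_left (inv_ne_zero hb)
  have h4 := hc' b a i x hx
  rw [h3, smul_zero] at h4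
  exact (smul_eq_zero.1 h4).resolve_left hb

/-- **(O2.d)** on a simply connected compact Ricci flat Kaehler manifold -/
theorem eq_zero_of_ricci [T2Space M] [CompactSpace M] [SimplyConnectedSpace M] [Finite A.ι]
    (hA : GoodA A) (P : Part A) (K : Kah A)
    (hR : ∀ i, ∀ x ∈ (A.e i).source, cur (volK K) i x = 0)
    (hs : ∀ a, IsHS L univ (s a)) (ne : ∀ i, ∀ x ∈ (A.e i).source, ∃ a, s a i x ≠ 0)
    (hX : ∀ a, IsX L (X a)) (hh : ∀ a, HolX (X a)) {V : Set M} (hV : IsOpen V) (hne : V.Nonempty)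
    (hc : ∀ a b i, ∀ x ∈ (A.e i).source, x ∈ V → s a i x • X b i x = s b i x • X a i x) (a : σ) :
    ∀ i, ∀ x ∈ (A.e i).source, X a i x = 0 :=
  eq_zero (fun V => NoHVF_376.nohvf hA P K hR V) hs ne hX hh hV hne hc a

/-- the (0,1)-forms vanish when their dual fields vanish -/
theorem q_eq_zero (K : Kah A) {q : A.ι → M → Fin n → ℂ} {i : A.ι} {x : M}
    (hx : x ∈ (A.e i).source) (h : shp K q i x = 0) : q i x = 0 := by
  rw [← flt_shp K q hx]
  unfold flt
  rw [h, Matrix.mulVec_zero]

end

end Crest.Agent.R281.OpB_849
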