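import Crest.Agent.R281.OpB1_849
import Crest.Agent.R273.HodgeP_578
import Crest.Agent.R273.HodgeH_803

/-!
# R281 (S0424), DIV 7, lemma OPEN, part O2 (helper849), file 5: the Hodge operator with harmonic range

* `corr` (abstract): a Hodge type homotopy on a graded scale can be corrected so that the range of
  `H` lies in a given graded subspace `Har` of closed elements, if every closed element is
  `Har + exact`;
* `HarS K h` : the sections `low v` of `BN N` with `v` holomorphic and null;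
* `exists_harOp` : `HodgeOp P (BN N)` (helper803) with `T.H u ∈ HarS K h`.
-/

set_option autoImplicit false
set_option linter.unusedSectionVars false

open Set Filter Topology Complex Matrix
open scoped ContDiff Matrix ComplexConjugate Manifold ComplexOrder

namespace Crest.Agent.R281.OpB_849

section abs

open Crest.Agent.R275.Fred685 Crest.Agent.R275.Lau635 Crest.Agent.R273.HomScale_803
open Module LinearMap Submodule

variable {𝕜 V : Type*} [RCLike 𝕜] [AddCommGroup V] [Module 𝕜 V] {S : Scale 𝕜 V}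

/-- linear choice of the decomposition `z = π z + d (η z)` of the closed elements -/
theorem lin_choice {d : V →ₗ[𝕜] V} (Har : Submodule 𝕜 V)
    (hex : ∀ z, d z = 0 → ∃ p ∈ Har, ∃ y, d y = z - p) :
    ∃ π η : V →ₗ[𝕜] V, ∀ z, d z = 0 → π z ∈ Har ∧ d (η z) = z - π z := by
  choose! p hp y hy using hex
  let Z : Submodule 𝕜 V := ker d
  let b := Module.Basis.ofVectorSpace 𝕜 Z
  obtain ⟨C, hC⟩ := Z.exists_isCompl
  let pZ : V →ₗ[𝕜] Z := Submodule.projectionOnto Z C hC
  have hpZ : ∀ w : Z, pZ (w : V) = w := fun w => Submodule.projectionOnto_apply_left hC w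
  let πZ : Z →ₗ[𝕜] V := b.constr 𝕜 fun i => p (b i : V)
  let ηZ : Z →ₗ[𝕜] V := b.constr 𝕜 fun i => y (b i : V)
  have h1 : ∀ z : Z, πZ z ∈ Har := by
    intro z
    have h2 : πZ z = (b.repr z).sum fun i c => c • p (b i : V) := by
      simp only [πZ]
      rw [Module.Basis.constr_apply]
    rw [h2]
    exact Submodule.sum_mem _ fun i _ => Har.smul_mem _ (hp _ (b i).2)
  have h3 : d ∘ₗ ηZ = Z.subtype - πZ := by
    refine b.ext fun i => ?_
    simp only [LinearMap.comp_apply, LinearMap.sub_apply, πZ, ηZ, Module.Basis.constr_basis]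
    exact hy _ (b i).2
  refine ⟨πZ ∘ₗ pZ, ηZ ∘ₗ pZ, fun z hz => ?_⟩
  have h4 : pZ z = ⟨z, hz⟩ := hpZ ⟨z, hz⟩
  refine ⟨by rw [LinearMap.comp_apply]; exact h1 _, ?_⟩
  have h5 := LinearMap.congr_fun h3 ⟨z, hz⟩
  rw [LinearMap.comp_apply, LinearMap.comp_apply, h4]
  exact h5

/-- **correction of a Hodge type homotopy** -/
theorem corr {d H K : Module.End 𝕜 V} (hH : SmFin S S H) (hK : Opm S S K)
    (h1 : ∀ v, v - H v = d (K v) + K (d v)) (h2 : ∀ v, d (H v) = 0) (h3 : ∀ v, H (d v) = 0)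
    (Har : Submodule 𝕜 V) (hHd : ∀ v ∈ Har, d v = 0)
    (hex : ∀ z, d z = 0 → ∃ p ∈ Har, ∃ y, d y = z - p)
    (p : ℕ → Module.End 𝕜 V) (m : ℕ) (hp0 : ∀ q, Op0 S S (p q)) (hpp : ∀ q v, p q (p q v) = p q v)
    (hpq : ∀ q r v, q ≠ r → p q (p r v) = 0) (hsum : ∀ v, ∑ q ∈ Finset.range (m + 1), p q v = v)
    (hpd : ∀ q v, p (q + 1) (d v) = d (p q v)) (hpd0 : ∀ v, p 0 (d v) = 0)
    (hHp : ∀ q, ∀ v ∈ Har, p q v ∈ Har) :
    ∃ H' K' : Module.End 𝕜 V, SmFin S S H' ∧ Opm S S K' ∧
      (∀ v, v - H' v = d (K' v) + K' (d v)) ∧ (∀ v, d (H' v) = 0) ∧ (∀ v, H' (d v) = 0) ∧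
      (∀ q v, H' (p q v) = p q (H' v)) ∧ (∀ q v, K' (p (q + 1) v) = p q (K' v)) ∧
      (∀ v, K' (p 0 v) = 0) ∧ ∀ v, H' v ∈ Har := by
  obtain ⟨π, η, hπ⟩ := lin_choice Har hex
  -- the ungraded correction
  let H1 : Module.End 𝕜 V := π ∘ₗ H
  let K1 : Module.End 𝕜 V := K + η ∘ₗ H
  have hH1 : SmFin S S H1 := SmFin.comp_left_any hH π
  have hK1 : Opm S S K1 := opm_add hK (SmFin.comp_left_any hH η).neg_mem.opm
  have e1 : ∀ v, v - H1 v = d (K1 v) + K1 (d v) := by
    intro v
    show v - π (H v) = d (K v + η (H v)) + (K (d v) + η (H (d v)))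
    rw [map_add, (hπ _ (h2 v)).2, h3, map_zero, add_zero]
    have e0 : v - π (H v) = (v - H v) + (H v - π (H v)) := by abel
    rw [e0, h1 v]
    abel
  have e2 : ∀ v, H1 v ∈ Har := fun v => (hπ _ (h2 v)).1
  have e3 : ∀ v, H1 (d v) = 0 := by
    intro v
    show π (H (d v)) = 0
    rw [h3, map_zero]
  have htop : ∀ q v, m < q → p q v = 0 := by
    intro q v hq
    have h4 := congrArg (p q) (hsum v)
    rw [map_sum] at h4
    rw [← h4]
    refine Finset.sum_eq_zero fun r hr => hpq q r v ?_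
    have := Finset.mem_range.1 hr
    omega
  let H' : Module.End 𝕜 V := ∑ q ∈ Finset.range (m + 1), p q ∘ₗ H1 ∘ₗ p q
  let K3 : Module.End 𝕜 V := ∑ q ∈ Finset.range (m + 1), p q ∘ₗ K1 ∘ₗ p (q + 1)
  have hH' : ∀ v, H' v = ∑ q ∈ Finset.range (m + 1), p q (H1 (p q v)) := fun v => by
    simp only [H', LinearMap.sum_apply, LinearMap.comp_apply]
  have hK3 : ∀ v, K3 v = ∑ q ∈ Finset.range (m + 1), p q (K1 (p (q + 1) v)) := fun v => by
    simp only [K3, LinearMap.sum_apply, LinearMap.comp_apply]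
  have hHq : ∀ q v, p q (H' v) = p q (H1 (p q v)) := by
    intro q v
    rw [hH', map_sum]
    by_cases hq : q ∈ Finset.range (m + 1)
    · rw [Finset.sum_eq_single_of_mem q hq fun r _ hr => hpq q r _ (Ne.symm hr), hpp]
    · have hq' : m < q := by
        rw [Finset.mem_range] at hq
        omega
      rw [htop q _ hq']
      exact Finset.sum_eq_zero fun r _ => htop q _ hq'
  have hKq : ∀ q v, p q (K3 v) = p q (K1 (p (q + 1) v)) := by
    intro q v
    rw [hK3, map_sum]
    by_cases hq : q ∈ Finset.range (m + 1)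
    · rw [Finset.sum_eq_single_of_mem q hq fun r _ hr => hpq q r _ (Ne.symm hr), hpp]
    · have hq' : m < q := by
        rw [Finset.mem_range] at hq
        omega
      rw [htop q _ hq']
      exact Finset.sum_eq_zero fun r _ => htop q _ hq'
  have hext : ∀ a b : V, (∀ q, p q a = p q b) → a = b := by
    intro a b hab
    rw [← hsum a, ← hsum b]
    exact Finset.sum_congr rfl fun q _ => hab q
  have hHp' : ∀ q v, H' (p q v) = p q (H' v) := by
    intro q v
    apply hext
    intro r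
    rw [hHq]
    by_cases hr : r = q
    · subst hr
      rw [hpp, hpp, hHq]
    · rw [hpq r q _ hr, hpq r q _ hr, map_zero, map_zero]
  have hmem : ∀ v, H' v ∈ Har := by
    intro v
    rw [hH']
    exact Submodule.sum_mem _ fun q _ => hHp q _ (e2 _)
  refine ⟨H', K3, ?_, ?_, ?_, fun v => hHd _ (hmem v), ?_, hHp', ?_, ?_, hmem⟩
  · refine smFin_sum _ fun q _ => ?_
    exact ((hH1.comp_right (hp0 q)).comp_left (hp0 q))
  · refine opm_sum _ fun q _ => ?_
    exact op0_comp_opm (hp0 q) (opm_comp_op0 hK1 (hp0 (q + 1)))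
  · intro v
    apply hext
    intro q
    rw [map_sub, map_add, hHq, hKq]
    have h5 : p q (d (K3 v)) = p q (d (K1 (p q v))) := by
      cases q with
      | zero => rw [hpd0, hpd0]
      | succ q =>
        rw [hpd, hpd, hKq]
    rw [h5, hpd, ← map_add, ← e1, map_sub, hpp]
  · intro v
    apply hext
    intro q
    rw [map_zero, hHq]
    cases q with
    | zero => rw [hpd0, map_zero, map_zero]
    | succ q => rw [hpd, e3, map_zero]
  · intro q v
    apply hext
    intro r
    rw [hKq]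
    by_cases hr : r = q
    · subst hr
      rw [hpp, hpp, hKq]
    · rw [hpq (r + 1) (q + 1) _ (by omega), hpq r q _ hr, map_zero, map_zero]
  · intro v
    rw [hK3]
    refine Finset.sum_eq_zero fun q _ => ?_
    rw [hpq (q + 1) 0 _ (by omega), map_zero, map_zero]

end abs

open Crest.Agent.R273 Crest.Agent.R275 Crest.Agent.R275.Geo Crest.Agent.R275.Core144
open Crest.Agent.R275.C1d194 Crest.Agent.R275.Ret666 Crest.Agent.R275.RetC666
open Crest.Agent.R275.FHom556 Crest.Agent.R275.SerG398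
open Crest.Agent.R273.Defs_333 Crest.Agent.R273.HM_333 Crest.Agent.R273.Kah_333
open Crest.Agent.R273.Vol_333 Crest.Agent.R273.KRL2_803
open Crest.Agent.R273.Fock_243 Crest.Agent.R273.Calc_243 Crest.Agent.R273.Bkn_243
open Crest.Agent.R273.LamN127 Crest.Agent.R273.DVec_733 Crest.Agent.R273.DMet_733
open Crest.Agent.R273.DMetB_733 Crest.Agent.R273.StV_37
open Crest.Agent.R273.BKNa_37 Crest.Agent.R273.BKNb_37 Crest.Agent.R273.BKNc_37
open Crest.Agent.R273.BKNd_37 Crest.Agent.R273.BKNe_37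

noncomputable section

variable {n : ℕ} {M : Type} [TopologicalSpace M] {A : Atl n M} {N : LB A}

/-- the lowered holomorphic null polyvectors -/
def HarS (K : Kah A) (h : HM ((KB A)⁻¹ * N)) : Submodule ℂ (Sec (BN N)) where
  carrier := {u | HolV ((low K N).symm u).1 ∧ NullV h ((low K N).symm u).1}
  add_mem' := by
    rintro u w ⟨hu1, hu2⟩ ⟨hw1, hw2⟩
    refine ⟨?_, ?_⟩
    · rw [holV_iff ((low K N).symm u).2.1] at hu1
      rw [holV_iff ((low K N).symm w).2.1] at hw1
      rw [holV_iff ((low K N).symm (u + w)).2.1, map_add]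
      exact fun i T => (hu1 i T).add (hw1 i T)
    · rw [map_add]
      intro i x hx c
      have h1 := hu2 i x hx c
      have h2 := hw2 i x hx c
      have h3 : ∀ d, cur h i x d c • ((iW (ep d) : Matrix (FI n) (FI n) ℂ) *ᵥ
          ((low K N).symm u + (low K N).symm w).1 i x) =
          cur h i x d c • ((iW (ep d) : Matrix (FI n) (FI n) ℂ) *ᵥ ((low K N).symm u).1 i x) +
          cur h i x d c • ((iW (ep d) : Matrix (FI n) (FI n) ℂ) *ᵥ ((low K N).symm w).1 i x) := by
        intro d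
        rw [← smul_add, ← Matrix.mulVec_add]
        rfl
      rw [Finset.sum_congr rfl fun d _ => h3 d, Finset.sum_add_distrib, h1, h2, add_zero]
  zero_mem' := by
    refine ⟨?_, ?_⟩
    · rw [holV_iff ((low K N).symm 0).2.1, map_zero]
      exact fun i T => holAt_const 0
    · rw [map_zero]
      intro i x hx c
      refine Finset.sum_eq_zero fun d _ => ?_
      have h1 : (0 : MV N).1 i x = 0 := rfl
      rw [h1, Matrix.mulVec_zero, smul_zero]
  smul_mem' := by
    rintro a u ⟨hu1, hu2⟩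
    refine ⟨?_, ?_⟩
    · rw [holV_iff ((low K N).symm u).2.1] at hu1
      rw [holV_iff ((low K N).symm (a • u)).2.1, map_smul]
      exact fun i T => (holAt_const a).mul (hu1 i T)
    · rw [map_smul]
      intro i x hx c
      have h1 := hu2 i x hx c
      have h3 : ∀ d, cur h i x d c • ((iW (ep d) : Matrix (FI n) (FI n) ℂ) *ᵥ
          (a • (low K N).symm u).1 i x) =
          a • (cur h i x d c • ((iW (ep d) : Matrix (FI n) (FI n) ℂ) *ᵥ
            ((low K N).symm u).1 i x)) := by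
        intro d
        have h4 : (a • (low K N).symm u).1 i x = a • ((low K N).symm u).1 i x := rfl
        rw [h4, Matrix.mulVec_smul, smul_comm]
      rw [Finset.sum_congr rfl fun d _ => h3 d, ← Finset.smul_sum, h1, smul_zero]

theorem mem_HarS {K : Kah A} {h : HM ((KB A)⁻¹ * N)} {u : Sec (BN N)} :
    u ∈ HarS K h ↔ HolV ((low K N).symm u).1 ∧ NullV h ((low K N).symm u).1 := Iff.rfl

theorem low_mem_HarS {K : Kah A} {h : HM ((KB A)⁻¹ * N)} {v : MV N} :
    low K N v ∈ HarS K h ↔ HolV v.1 ∧ NullV h v.1 := by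
  rw [mem_HarS, LinearEquiv.symm_apply_apply]

theorem pq_mem_HarS {K : Kah A} {h : HM ((KB A)⁻¹ * N)} {u : Sec (BN N)} (hu : u ∈ HarS K h)
    (q : ℕ) : Geo.pqL (BN N) q u ∈ HarS K h := by
  obtain ⟨v, rfl⟩ := (low K N).surjective u
  rw [low_mem_HarS] at hu
  rw [← low_pq, low_mem_HarS]
  exact ⟨HodgeP_578.holV_pq hu.1, HodgeP_578.nullV_pq hu.2⟩

section compact

variable [T2Space M] [CompactSpace M] [Finite A.ι] (P : Part A) (K : Kah A)

/-- **the Hodge operator with harmonic range** -/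
theorem exists_harOp {h : HM ((KB A)⁻¹ * N)} (hs : h.Semipos) :
    ∃ T : HodgeH_803.HodgeOp P (BN N), ∀ u, T.H u ∈ HarS K h := by
  obtain ⟨T⟩ := HodgeH_803.exists_hodgeOp P (BN N) (nab_nab_BN N)
  obtain ⟨H', K', h1, h2, h3, h4, h5, h6, h7, h8, h9⟩ :=
    corr (S := S0 P (BN N)) (d := nabL (BN N)) T.smH T.opmK T.htpy T.nabH T.Hnab
      (HarS K h) (fun v hv => by
        have h1 := nab_low_zero K (v := (low K N).symm v) (mem_HarS.1 hv).1
        rwa [LinearEquiv.apply_symm_apply] at h1)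
      (fun z hz => by
        obtain ⟨v, hv1, hv2, y, hy⟩ := Lim_505.hodge P K h hs z hz
        exact ⟨low K N v, low_mem_HarS.2 ⟨hv1, hv2⟩, y, hy⟩)
      (fun q => pqL (BN N) q) (topDeg (BN N)) (fun q => op0_pqL0 P (BN N) q)
      (fun q v => LinearMap.congr_fun (pqL_idem (B := BN N) q) v)
      (fun q r v h => LinearMap.congr_fun (pqL_orth (B := BN N) h) v)
      (fun v => pqL_sum le_rfl v)
      (fun q v => (LinearMap.congr_fun (nabL_pqL (B := BN N) q) v).symm)
      (fun v => LinearMap.congr_fun (pqL_zero_nabL (B := BN N)) v)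
      (fun q v hv => pq_mem_HarS hv q)
  exact ⟨⟨T.sq, H', K', h1, h2, h3, h4, h5, h6, h7, h8⟩, h9⟩

end compact

end

end Crest.Agent.R281.OpB_849
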