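import Crest.Agent.R281.OpB2_849
import Crest.Agent.R281.OpB3_849
import Crest.Agent.R281.OpB4_849
import Crest.Agent.R281.OpB5_849
import Crest.Agent.R273.DegOne_376

/-!
# R281 (S0424), DIV 7, lemma OPEN, part O2 (helper849), file 6: dictionary and final form

* `sOf`, `qOf` : the components of degree 0, 1 of `u : Sec (BN L)`: a smooth section of `L`, a smooth
  (0,1)-form with values in `L`; `qOf_nab : qOf (∇ u) = ∂̄ (sOf u)`;
* `ofS`, `ofQ` : back;
* `har_qOf` : `u ∈ HarS K (HKL K h)` : `qOf u` has a holomorphic null dual field;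
* `open_final` : step (b) + (d): a family of harmonic forms with proportional dual fields on an open
  set vanishes.
-/

set_option autoImplicit false
set_option linter.unusedSectionVars false

open Set Filter Topology Complex Matrix
open scoped ContDiff Matrix ComplexConjugate Manifold ComplexOrder

namespace Crest.Agent.R281.OpB_849

open Crest.Agent.R273 Crest.Agent.R275 Crest.Agent.R275.Geo Crest.Agent.R275.Core144
open Crest.Agent.R275.GC293
open Crest.Agent.R275.OmT75 (dl)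
open Crest.Agent.R273.Defs_333 Crest.Agent.R273.HM_333 Crest.Agent.R273.Kah_333
open Crest.Agent.R273.Vol_333
open Crest.Agent.R273.Fock_243 Crest.Agent.R273.Calc_243 Crest.Agent.R273.Bkn_243
open Crest.Agent.R273.LamN127 Crest.Agent.R273.DVec_733 Crest.Agent.R273.DMet_733
open Crest.Agent.R273.DMetB_733 Crest.Agent.R273.StV_37
open Crest.Agent.R273.BKNa_37 Crest.Agent.R273.BKNb_37 Crest.Agent.R273.BKNc_37
open Crest.Agent.R273.BKNd_37 Crest.Agent.R273.BKNe_37
open Crest.Agent.R273.DegOne_376 (c1 c1_Gam iW_empty eW_single_apply)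

noncomputable section

variable {n : ℕ} {M : Type} [TopologicalSpace M] {A : Atl n M} {L : LB A}

/-! ### components -/

/-- the component of degree 0 -/
def sOf (u : Sec (BN L)) : A.ι → M → ℂ := fun i x => oB (u.1 i x) ∅

/-- the component of degree 1 -/
def qOf (u : Sec (BN L)) : A.ι → M → Fin n → ℂ := fun i x => c1 (oB (u.1 i x))

theorem qOf_apply (u : Sec (BN L)) (i : A.ι) (x : M) (k : Fin n) :
    qOf u i x k = oB (u.1 i x) {k} := rfl

theorem sOf_add (u v : Sec (BN L)) (i : A.ι) (x : M) :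
    sOf (u + v) i x = sOf u i x + sOf v i x := rfl

theorem sOf_smul (c : ℂ) (u : Sec (BN L)) (i : A.ι) (x : M) :
    sOf (c • u) i x = c * sOf u i x := rfl

theorem qOf_add (u v : Sec (BN L)) (i : A.ι) (x : M) :
    qOf (u + v) i x = qOf u i x + qOf v i x := rfl

theorem qOf_smul (c : ℂ) (u : Sec (BN L)) (i : A.ι) (x : M) :
    qOf (c • u) i x = c • qOf u i x := rfl

theorem Gam_empty (m : Matrix (Fin n) (Fin n) ℂ) (v : FI n → ℂ) : (Gam m *ᵥ v) ∅ = v ∅ := by
  show ∑ S, Gam m ∅ S * v S = v ∅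
  rw [Finset.sum_eq_single ∅]
  · rw [Gam_vac, if_pos rfl, one_mul]
  · intro S _ hS
    rw [Gam_of_ne, zero_mul]
    rw [Finset.card_empty]
    exact fun h => hS (Finset.card_eq_zero.1 h.symm)
  · intro h
    exact absurd (Finset.mem_univ _) h

theorem sOf_isS (u : Sec (BN L)) : IsS L (sOf u) where
  sm i := u.2.1 i ((∅ : FI n), ())
  tr i j x hx := by
    have h1 := congrFun (sec_tr u.2 hx) ∅
    rw [Pi.smul_apply, smul_eq_mul] at h1
    have h2 : (Tf A i j x *ᵥ oB (u.1 j x)) ∅ = oB (u.1 j x) ∅ := Gam_empty _ _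
    rw [h2] at h1
    exact h1

theorem qOf_isQ (u : Sec (BN L)) : IsQ L (qOf u) where
  sm i k := u.2.1 i (({k} : FI n), ())
  tr i j x hx := by
    have h1 := congrArg c1 (sec_tr u.2 hx)
    have h2 : c1 (L.g i j x • (Tf A i j x *ᵥ oB (u.1 j x))) =
        L.g i j x • c1 (Tf A i j x *ᵥ oB (u.1 j x)) := rfl
    rw [h2] at h1
    have h3 : c1 (Tf A i j x *ᵥ oB (u.1 j x)) = Jb A i j x *ᵥ c1 (oB (u.1 j x)) := c1_Gam _ _
    rw [h3] at h1
    exact h1

/-- the component of degree 1 of `∇ u` is `∂̄` of the component of degree 0 -/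
theorem qOf_nab (u : Sec (BN L)) {i : A.ι} {x : M} (hx : x ∈ (A.e i).source) :
    qOf (nabL (BN L) u) i x = dbS (sOf u) i x := by
  funext k
  have h1 := oB_nab u.2.1 hx
  have h2 : qOf (nabL (BN L) u) i x k = oB (nab (BN L) u.1 i x) {k} := rfl
  rw [h2, h1, Finset.sum_apply, Finset.sum_eq_single k]
  · rw [eW_single_apply, if_pos rfl]
    rfl
  · intro l _ hl
    rw [eW_single_apply, if_neg hl]
  · intro h
    exact absurd (Finset.mem_univ _) h

/-! ### harmonic forms -/

theorem shp_qOf (K : Kah A) (u : Sec (BN L)) (i : A.ι) (x : M) :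
    shp K (qOf u) i x = c1 (((low K L).symm u).1 i x) := by
  have h1 : ((low K L).symm u).1 i x = GI K i x *ᵥ oB (u.1 i x) := rfl
  rw [h1]
  exact (c1_Gam _ _).symm

/-- **(O2.b) for the range of the Hodge operator** -/
theorem har_qOf {K : Kah A} (hR : ∀ i, ∀ x ∈ (A.e i).source, cur (volK K) i x = 0) {h : HM L}
    {u : Sec (BN L)} (hu : u ∈ HarS K (HKL K h)) :
    HolX (shp K (qOf u)) ∧ NulX h (shp K (qOf u)) := by
  obtain ⟨h1, h2⟩ := mem_HarS.1 hu
  rw [holV_iff ((low K L).symm u).2.1] at h1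
  refine ⟨fun i k => ?_, fun i x hx c => ?_⟩
  · refine (h1 i {k}).congr fun x _ _ => ?_
    rw [shp_qOf]
    rfl
  · have h3 := congrFun (h2 i x hx c) ∅
    rw [Finset.sum_apply] at h3
    rw [cur_HKL K hR h hx] at h3
    have h4 : ∀ d, (cur h i x d c • ((iW (ep d) : Matrix (FI n) (FI n) ℂ) *ᵥ
        ((low K L).symm u).1 i x)) ∅ = cur h i x d c * shp K (qOf u) i x d := by
      intro d
      rw [Pi.smul_apply, smul_eq_mul, iW_empty, shp_qOf, Finset.sum_eq_single d]
      · rw [show (ep d : Fin n → ℂ) d = 1 from Pi.single_eq_same _ _, one_mul]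
        rfl
      · intro b _ hb
        rw [show (ep d : Fin n → ℂ) b = 0 from Pi.single_eq_of_ne hb _, zero_mul]
      · intro h
        exact absurd (Finset.mem_univ d) h
    rw [Finset.sum_congr rfl fun d _ => h4 d] at h3
    exact h3

/-! ### back -/

open Classical in
/-- smooth sections of `L` as sections of `BN L` -/
def ofS (f : A.ι → M → ℂ) (hf : IsS L f) : Sec (BN L) :=
  ⟨fun i x => if x ∈ (A.e i).source then iB L (f i x • vac n) else 0, by
    refine ⟨fun i k => ?_, fun i x hx => if_neg hx, fun i j x hx => ?_⟩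
    · refine (hf.isV.sm i k.1).congr fun z hz => ?_
      show (if (A.e i).symm z ∈ (A.e i).source then iB L (f i ((A.e i).symm z) • vac n) else 0) k = _
      rw [if_pos ((A.e i).map_target hz)]
      rfl
    · show (if x ∈ (A.e i).source then iB L (f i x • vac n) else 0) =
        (BN L).τ i j x *ᵥ (if x ∈ (A.e j).source then iB L (f j x • vac n) else 0)
      rw [if_pos hx.1, if_pos hx.2, BN_τ, kB_iB, Matrix.mulVec_smul]
      unfold Tf
      rw [Gam_vac', hf.tr i j x hx, mul_smul]⟩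

open Classical in
/-- smooth (0,1)-forms with values in `L` as sections of `BN L` -/
def ofQ (q : A.ι → M → Fin n → ℂ) (hq : IsQ L q) : Sec (BN L) :=
  ⟨fun i x => if x ∈ (A.e i).source then iB L (e1 (q i x)) else 0, by
    refine ⟨fun i k => ?_, fun i x hx => if_neg hx, fun i j x hx => ?_⟩
    · refine (e1_sm (hq.sm i) k.1).congr fun z hz => ?_
      show (if (A.e i).symm z ∈ (A.e i).source then iB L (e1 (q i ((A.e i).symm z))) else 0) k = _
      rw [if_pos ((A.e i).map_target hz)]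
      rfl
    · show (if x ∈ (A.e i).source then iB L (e1 (q i x)) else 0) =
        (BN L).τ i j x *ᵥ (if x ∈ (A.e j).source then iB L (e1 (q j x)) else 0)
      rw [if_pos hx.1, if_pos hx.2, BN_τ, kB_iB]
      unfold Tf
      rw [Gam_e1, hq.tr i j x hx, e1_smul]
      rfl⟩

theorem ofS_val {f : A.ι → M → ℂ} (hf : IsS L f) {i : A.ι} {x : M} (hx : x ∈ (A.e i).source) :
    (ofS f hf).1 i x = iB L (f i x • vac n) := if_pos hx

theorem ofQ_val {q : A.ι → M → Fin n → ℂ} (hq : IsQ L q) {i : A.ι} {x : M}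
    (hx : x ∈ (A.e i).source) : (ofQ q hq).1 i x = iB L (e1 (q i x)) := if_pos hx

theorem sOf_ofS {f : A.ι → M → ℂ} (hf : IsS L f) {i : A.ι} {x : M} (hx : x ∈ (A.e i).source) :
    sOf (ofS f hf) i x = f i x := by
  show oB ((ofS f hf).1 i x) ∅ = f i x
  rw [ofS_val hf hx, oB_iB, Pi.smul_apply, vac_apply_empty, smul_eq_mul, mul_one]

theorem qOf_ofQ {q : A.ι → M → Fin n → ℂ} (hq : IsQ L q) {i : A.ι} {x : M}
    (hx : x ∈ (A.e i).source) : qOf (ofQ q hq) i x = q i x := by
  show c1 (oB ((ofQ q hq).1 i x)) = q i x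
  rw [ofQ_val hq hx, oB_iB]
  funext k
  exact e1_apply _ k

theorem sOf_ofQ {q : A.ι → M → Fin n → ℂ} (hq : IsQ L q) {i : A.ι} {x : M}
    (hx : x ∈ (A.e i).source) : sOf (ofQ q hq) i x = 0 := by
  show oB ((ofQ q hq).1 i x) ∅ = 0
  rw [ofQ_val hq hx, oB_iB, e1_off _ (by simp)]

theorem pqL_val (q : ℕ) (u : Sec (BN L)) (i : A.ι) (x : M) (T : FI n) :
    oB ((Geo.pqL (BN L) q u).1 i x) T = if T.card = q then oB (u.1 i x) T else 0 :=
  IndLink509.pqL_apply (BN L) q u i x (T, ())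

theorem sec_ext' {u v : Sec (BN L)} (h : ∀ i, ∀ x ∈ (A.e i).source, oB (u.1 i x) = oB (v.1 i x)) :
    u = v := by
  apply Subtype.ext
  funext i x
  by_cases hx : x ∈ (A.e i).source
  · funext p
    exact congrFun (h i x hx) p.1
  · rw [u.2.2.1 i x hx, v.2.2.1 i x hx]

theorem pqL_ofS {f : A.ι → M → ℂ} (hf : IsS L f) : Geo.pqL (BN L) 0 (ofS f hf) = ofS f hf := by
  refine sec_ext' fun i x hx => ?_
  funext T
  rw [pqL_val, ofS_val hf hx, oB_iB]
  split_ifs with h
  · rfl
  · rw [Pi.smul_apply, vac_apply_ne fun h' => h (by rw [h', Finset.card_empty]), smul_zero]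

theorem pqL_ofQ {q : A.ι → M → Fin n → ℂ} (hq : IsQ L q) :
    Geo.pqL (BN L) 1 (ofQ q hq) = ofQ q hq := by
  refine sec_ext' fun i x hx => ?_
  funext T
  rw [pqL_val, ofQ_val hq hx, oB_iB]
  split_ifs with h
  · rfl
  · rw [e1_off _ h]

theorem ofS_sOf (u : Sec (BN L)) : ofS (sOf u) (sOf_isS u) = Geo.pqL (BN L) 0 u := by
  refine sec_ext' fun i x hx => ?_
  funext T
  rw [pqL_val, ofS_val _ hx, oB_iB]
  split_ifs with h
  · have hT : T = ∅ := Finset.card_eq_zero.1 h
    subst hT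
    rw [Pi.smul_apply, vac_apply_empty, smul_eq_mul, mul_one]
    rfl
  · rw [Pi.smul_apply, vac_apply_ne fun h' => h (by rw [h', Finset.card_empty]), smul_zero]

theorem ofQ_qOf (u : Sec (BN L)) : ofQ (qOf u) (qOf_isQ u) = Geo.pqL (BN L) 1 u := by
  refine sec_ext' fun i x hx => ?_
  funext T
  rw [pqL_val, ofQ_val _ hx, oB_iB]
  split_ifs with h
  · obtain ⟨a, rfl⟩ := Finset.card_eq_one.1 h
    rw [e1_apply]
    rfl
  · rw [e1_off _ h]

/-- `∇ f = ∂̄ f` -/
theorem nab_ofS {f : A.ι → M → ℂ} (hf : IsS L f) :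
    nabL (BN L) (ofS f hf) = ofQ (dbS f) hf.dbS := by
  have h0 : Geo.pqL (BN L) 1 (nabL (BN L) (ofS f hf)) = nabL (BN L) (ofS f hf) := by
    have := LinearMap.congr_fun (nabL_pqL (B := BN L) 0) (ofS f hf)
    rw [LinearMap.comp_apply, LinearMap.comp_apply, pqL_ofS] at this
    exact this.symm
  rw [← h0, ← ofQ_qOf]
  refine sec_ext' fun i x hx => ?_
  have h1 : dbS (sOf (ofS f hf)) i x = dbS f i x := by
    funext k
    exact db_congr' (fun y hy => sOf_ofS hf hy) hx
  rw [ofQ_val _ hx, ofQ_val _ hx, qOf_nab _ hx, h1]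

/-- closed (0,1)-forms -/
theorem nab_ofQ (K : Kah A) {q : A.ι → M → Fin n → ℂ} (hq : IsQ L q) (hd : DbQ q) :
    nabL (BN L) (ofQ q hq) = 0 := by
  refine sec_ext' fun i x hx => ?_
  have h1 := nab_low_eq_duV K ((low K L).symm (ofQ q hq)) hx
  rw [LinearEquiv.apply_symm_apply] at h1
  have h0 : oB ((0 : Sec (BN L)).1 i x) = 0 := rfl
  rw [h1, h0, ← duV_zero K hd hx]
  unfold duV
  refine Finset.sum_congr rfl fun k _ => ?_
  congr 1
  funext T
  refine db_congr' (fun y hy => ?_) hx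
  have h2 : ((low K L).symm (ofQ q hq)).1 i y = E1 (shp K q) i y := by
    show GI K i y *ᵥ oB ((ofQ q hq).1 i y) = e1 (shp K q i y)
    rw [ofQ_val hq hy, oB_iB]
    unfold GI
    rw [Gam_e1]
    rfl
  rw [h2]

/-- `ofQ q` is in the harmonic space iff its dual field is holomorphic and null -/
theorem ofQ_mem_HarS {K : Kah A} {h : HM ((KB A)⁻¹ * L)} {q : A.ι → M → Fin n → ℂ} (hq : IsQ L q)
    (h1 : HolV (E1 (shp K q))) (h2 : NullV h (E1 (shp K q))) : ofQ q hq ∈ HarS K h := by
  have h3 : ∀ i, ∀ y ∈ (A.e i).source, ((low K L).symm (ofQ q hq)).1 i y = E1 (shp K q) i y := by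
    intro i y hy
    show GI K i y *ᵥ oB ((ofQ q hq).1 i y) = e1 (shp K q i y)
    rw [ofQ_val hq hy, oB_iB]
    unfold GI
    rw [Gam_e1]
    rfl
  refine mem_HarS.2 ⟨?_, ?_⟩
  · intro i x hx k
    rw [← h1 i x hx k]
    funext T
    exact db_congr' (fun y hy => congrFun (h3 i y hy) T) hx
  · intro i x hx c
    rw [← h2 i x hx c]
    refine Finset.sum_congr rfl fun d _ => ?_
    rw [h3 i x hx]

/-! ### the final form of O2 -/

/-- **steps (b) and (d) of lemma OPEN**: `L` generated by the sections `G.s a` on a simply connected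
compact Ricci flat Kaehler manifold, `Q a` elements of the harmonic space of the Fubini-Study
metric, whose dual fields `X_a` satisfy `s_a X_b = s_b X_a` on a nonempty open set: the components
of degree one of all `Q a` vanish. -/
theorem open_final [T2Space M] [CompactSpace M] [SimplyConnectedSpace M] [Finite A.ι]
    (hA : GoodA A) (P : Part A) {K : Kah A}
    (hR : ∀ i, ∀ x ∈ (A.e i).source, cur (volK K) i x = 0) {N : ℕ} (G : GG L N)
    {Q : Fin N → Sec (BN L)} (hQ : ∀ a, Q a ∈ HarS K (HKL K (fsL G)))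
    {V : Set M} (hV : IsOpen V) (hne : V.Nonempty)
    (hc : ∀ a b i, ∀ x ∈ (A.e i).source, x ∈ V →
      G.s a i x • shp K (qOf (Q b)) i x = G.s b i x • shp K (qOf (Q a)) i x) (a : Fin N) :
    Geo.pqL (BN L) 1 (Q a) = 0 := by
  have h1 := eq_zero_of_ricci (s := G.s) (X := fun a => shp K (qOf (Q a))) hA P K hR G.hs G.ne
    (fun a => (qOf_isQ (Q a)).shp K) (fun a => (har_qOf hR (hQ a)).1) hV hne hc a
  rw [← ofQ_qOf]
  refine sec_ext' fun i x hx => ?_
  rw [ofQ_val _ hx, oB_iB, q_eq_zero K hx (h1 i x hx), e1_zero]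
  rfl

/-- vertical fields: the identity used by step (c) -/
theorem har_vert {K : Kah A} (hR : ∀ i, ∀ x ∈ (A.e i).source, cur (volK K) i x = 0) {N : ℕ}
    (G : GG L N) {u : Sec (BN L)} (hu : u ∈ HarS K (HKL K (fsL G))) {i : A.ι} {x : M}
    (hx : x ∈ (A.e i).source) (a b : Fin N) :
    G.s a i x * dX (shp K (qOf u)) (G.s b) i x = G.s b i x * dX (shp K (qOf u)) (G.s a) i x :=
  null_vert G (har_qOf hR hu).2 hx a b

end

end Crest.Agent.R281.OpB_849
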