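import Crest.Agent.R281.OpT2_330
import Crest.Agent.R281.OpB6_849

/-!
# Row 281, OPEN-O3, second owner (helper330), file 3: the tube version

* `MTor l D x` : a moving family of tori (569's `TorF`) converging to a holomorphic torus through `x`;
* `Fib s F`    : the sections `s_a` define a constant map on the torus;
* `Ver s T F`  : vectors killed by all `d(s_a/s_b)` are tangent to the torus;
* `tube_cross` : `s_a X_b = s_b X_a` on the union of the tori (hypothesis `hc` of 849's `open_final`);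
* `open_zero`  : with 849's `open_final`: the components of degree one of the limits vanish.
-/

set_option autoImplicit false
set_option linter.unusedSectionVars false

open Set Filter Topology Complex Matrix MeasureTheory Module
open scoped ContDiff Matrix ComplexConjugate ComplexOrder

namespace Crest.Agent.R281.OpT_330

open Crest.Agent.R273 Crest.Agent.R275 Crest.Agent.R275.Geo Crest.Agent.R275.Core144
open Crest.Agent.R273.Defs_333 Crest.Agent.R273.HM_333 Crest.Agent.R273.Kah_333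
open Crest.Agent.R273.Vol_333
open Crest.Agent.R273.Fock_243 Crest.Agent.R273.Calc_243 Crest.Agent.R273.Bkn_243
open Crest.Agent.R273.LamN127 Crest.Agent.R273.DVec_733 Crest.Agent.R273.DMet_733
open Crest.Agent.R273.DMetB_733 Crest.Agent.R273.StV_37
open Crest.Agent.R273.BKNa_37 Crest.Agent.R273.BKNb_37 Crest.Agent.R273.BKNc_37
open Crest.Agent.R273.BKNd_37 Crest.Agent.R273.BKNe_37
open Crest.Agent.R281.Op3_569
open Crest.Agent.R281.OpB_849

noncomputable section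

variable {m N : ℕ} {M : Type} [TopologicalSpace M] {A : Atl N M} {L : LB A} {d : Type} [Fintype d]
  {σ : Type*} {α : Type*}

/-- a moving family of tori with limit a holomorphic torus through `x` -/
structure MTor (d : Type) [Fintype d] (m : ℕ) (l : Filter α) (D : α → MovD A) (x : M) where
  T : (d → ℝ) ≃L[ℝ] Cn m
  F : α → (d → ℝ) → M
  J : α → (d → ℝ) → (d → ℝ) →L[ℝ] (d → ℝ)
  F0 : (d → ℝ) → M
  J0 : (d → ℝ) →L[ℝ] (d → ℝ)
  tor : ∀ᶠ n in l, TorF (D n) (F n) (J n)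
  cF : ∀ x, CC l F F0 x
  cDF : ∀ x i, F0 x ∈ (A.e i).source →
    CC l (fun n => fderiv ℝ (fun y => A.e i (F n y))) (fderiv ℝ (fun y => A.e i (F0 y))) x
  cJ : ∀ x, CC l J (fun _ => J0) x
  h : HTor A T F0
  mem : x ∈ range F0

/-- the sections `s_a` define a constant map on the torus -/
def Fib (s : σ → A.ι → M → ℂ) (F : (d → ℝ) → M) : Prop :=
  ∀ a b i j x y, F x ∈ (A.e i).source → F y ∈ (A.e j).source →
    s a i (F x) * s b j (F y) = s b i (F x) * s a j (F y)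

/-- the vectors killed by all `d(s_a/s_b)` are tangent to the torus -/
def Ver (s : σ → A.ι → M → ℂ) (T : (d → ℝ) ≃L[ℝ] Cn m) (F : (d → ℝ) → M) : Prop :=
  ∀ i z, F (T.symm z) ∈ (A.e i).source → ∀ X : A.ι → M → Fin N → ℂ,
    (∀ a b, s a i (F (T.symm z)) * dX X (s b) i (F (T.symm z)) =
      s b i (F (T.symm z)) * dX X (s a) i (F (T.symm z))) →
    ∃ v, fderiv ℂ (rd A T F i) z v = WithLp.toLp 2 (X i (F (T.symm z)))

/-- vertical vector fields -/
def Vert (s : σ → A.ι → M → ℂ) (X : A.ι → M → Fin N → ℂ) : Prop :=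
  ∀ i, ∀ x ∈ (A.e i).source, ∀ a b, s a i x * dX X (s b) i x = s b i x * dX X (s a) i x

theorem Ver.tang {s : σ → A.ι → M → ℂ} {T : (d → ℝ) ≃L[ℝ] Cn m} {F : (d → ℝ) → M}
    (hv : Ver s T F) {X : A.ι → M → Fin N → ℂ} (hX : Vert s X) : Tang X T F :=
  fun i z hz => hv i z hz X (hX i _ hz)

/-- a section which does not vanish at one point of a fibre torus does not vanish on it -/
theorem Fib.nz {s : σ → A.ι → M → ℂ} {F : (d → ℝ) → M} (hf : Fib s F)
    (ne : ∀ i, ∀ x ∈ (A.e i).source, ∃ a, s a i x ≠ 0) {a : σ} {i : A.ι} {x : d → ℝ}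
    (hx : F x ∈ (A.e i).source) (ha : s a i (F x) ≠ 0) : NZ (s a) F := by
  intro j y hy h0
  obtain ⟨b, hb⟩ := ne j _ hy
  have h1 := hf a b i j x y hx hy
  rw [h0, mul_zero] at h1
  exact mul_ne_zero ha hb h1

theorem cmt_of_tr {u w : A.ι → M → ℂ}
    (hu : ∀ i j, ∀ x ∈ (A.e i).source ∩ (A.e j).source, u i x = L.g i j x * u j x)
    (hw : ∀ i j, ∀ x ∈ (A.e i).source ∩ (A.e j).source, w i x = L.g i j x * w j x) :
    Cmt A u w := fun i j x hx => ⟨L.g i j x, L.ne_zero i j x, hu i j x hx, hw i j x hx⟩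

/-- **(c), tube version** -/
theorem tube_cross {l : Filter α} [l.NeBot] {D : α → MovD A} {ε : α → ℝ}
    (hε : ∀ᶠ n in l, 0 < ε n) {s : σ → A.ι → M → ℂ} (hs : ∀ a, IsHS L univ (s a))
    (ne : ∀ i, ∀ x ∈ (A.e i).source, ∃ a, s a i x ≠ 0) (K : Kah A)
    {q : σ → A.ι → M → Fin N → ℂ} (hX : ∀ a, IsX L (shp K (q a))) (hh : ∀ a, HolX (shp K (q a)))
    (hv : ∀ a, Vert s (shp K (q a)))
    {U : α → σ → A.ι → M → ℂ} {Q : α → σ → A.ι → M → Cn N →L[ℝ] ℂ}
    (hSol : ∀ a, ∀ᶠ n in l, Sol (D n) (ε n) (U n a) (Q n a))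
    (hCmt : ∀ a b, ∀ᶠ n in l, Cmt A (U n a) (U n b))
    (hUl : ∀ a i, ∀ x ∈ (A.e i).source, CC l (fun n => U n a i) (s a i) x)
    (hQl : ∀ a i, ∀ x ∈ (A.e i).source, CC l (fun n => Q n a i) (fun x => cj (q a i x)) x)
    {V : Set M}
    (hV : ∀ x ∈ V, ∃ t : MTor d m l D x, Fib s t.F0 ∧ Ver s t.T t.F0) :
    ∀ a b i, ∀ x ∈ (A.e i).source, x ∈ V →
      s a i x • shp K (q b) i x = s b i x • shp K (q a) i x := by
  intro a b i x hx hxV
  obtain ⟨t, hf, hver⟩ := hV x hxV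
  obtain ⟨a0, ha0⟩ := ne i x hx
  obtain ⟨y, hy⟩ := t.mem
  rw [← hy] at hx ha0 ⊢
  have hnz := hf.nz ne hx ha0
  have key : ∀ b, s a0 i (t.F0 y) • shp K (q b) i (t.F0 y) =
      s b i (t.F0 y) • shp K (q a0) i (t.F0 y) := fun b =>
    torus_pair hε t.tor t.cF t.cDF t.cJ t.h (hSol a0) (hSol b) (hCmt a0 b) (hUl a0) (hUl b)
      (hQl a0) (hQl b) (hs a0) (hs b) hnz K (hX a0) (hX b) (hh a0) (hh b) (hver.tang (hv a0))
      (hver.tang (hv b)) i y hx
  have h1 : s a0 i (t.F0 y) • (s a i (t.F0 y) • shp K (q b) i (t.F0 y)) =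
      s a0 i (t.F0 y) • (s b i (t.F0 y) • shp K (q a) i (t.F0 y)) := by
    rw [smul_comm (s a0 i (t.F0 y)), smul_comm (s a0 i (t.F0 y)), key b, key a, smul_smul,
      smul_smul, mul_comm]
  exact smul_right_injective _ ha0 h1

/-- **(c) + (d)**: the harmonic limits vanish -/
theorem open_zero [T2Space M] [CompactSpace M] [SimplyConnectedSpace M] [Finite A.ι]
    (hA : GC293.GoodA A) (P : Part A) {K : Kah A}
    (hR : ∀ i, ∀ x ∈ (A.e i).source, cur (volK K) i x = 0)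
    {l : Filter α} [l.NeBot] {D : α → MovD A} {ε : α → ℝ} (hε : ∀ᶠ n in l, 0 < ε n)
    {c : ℕ} (G : GG L c) {Qs : Fin c → Sec (BN L)}
    (hQ : ∀ a, Qs a ∈ HarS K (HKL K (fsL G)))
    {U : α → Fin c → A.ι → M → ℂ} {Q : α → Fin c → A.ι → M → Cn N →L[ℝ] ℂ}
    (hSol : ∀ a, ∀ᶠ n in l, Sol (D n) (ε n) (U n a) (Q n a))
    (hCmt : ∀ a b, ∀ᶠ n in l, Cmt A (U n a) (U n b))
    (hUl : ∀ a i, ∀ x ∈ (A.e i).source, CC l (fun n => U n a i) (G.s a i) x)
    (hQl : ∀ a i, ∀ x ∈ (A.e i).source,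
      CC l (fun n => Q n a i) (fun x => cj (qOf (Qs a) i x)) x)
    {V : Set M} (hV : IsOpen V) (hne : V.Nonempty)
    (hT : ∀ x ∈ V, ∃ t : MTor d m l D x, Fib G.s t.F0 ∧ Ver G.s t.T t.F0) (a : Fin c) :
    Geo.pqL (BN L) 1 (Qs a) = 0 :=
  open_final hA P hR G hQ hV hne
    (tube_cross hε G.hs G.ne K (fun a => (qOf_isQ (Qs a)).shp K)
      (fun a => (har_qOf hR (hQ a)).1) (fun a i x hx b c => har_vert hR G (hQ a) hx b c)
      hSol hCmt hUl hQl hT) a

end

end Crest.Agent.R281.OpT_330
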