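import Crest.Agent.R281.OT6_763
import Crest.Agent.R281.PL2_713
import Crest.Agent.R281.OpT3_330

/-!
# Row 281, OPEN-TORI (helper763), part 7: from `TorM` (charts of `C`) to 569's `TorF` (charts of `A`)

* `chart_comp` : derivative of `e a ∘ F` in another system of charts
* `eN`         : `(Fin N → ℝ) ≃L[ℝ] VN N`
* `RelJ C A I D` : the field `D.I` on the charts of `A` is the field `I` on the charts of `C`
* `torF_of`    : `TorM x y I F J → TorF D (F ∘ eN) (eN⁻¹ ∘ J ∘ eN)`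
* `cDF_of`     : continuous convergence of the derivatives in the charts of `A`
-/

set_option autoImplicit false
set_option maxSynthPendingDepth 3
set_option linter.unusedSectionVars false

open Set Filter Topology
open scoped ContDiff

namespace Crest.Agent.R281.OT_763

open Crest.Agent.R281.HkR_835 Crest.Agent.R281.Per_368 Crest.Agent.R281.PL_713
open Crest.Agent.R281.Mc673 (W Fo tube ClF kv mn isOpen_tube)
open Crest.Agent.R275.Geo (Cn Atl)
open Crest.Agent.R281.Op3_569 (MovD TorF CC)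

noncomputable section

variable {V V' X : Type} [NormedAddCommGroup V] [NormedSpace ℝ V] [NormedAddCommGroup V']
  [NormedSpace ℝ V'] [TopologicalSpace X] {C : RCh V X} {C' : RCh V' X}

/-! ## change of charts -/

section chg

variable {E : Type*} [NormedAddCommGroup E] [NormedSpace ℝ E] {F : E → X}

theorem mem_mov {i : C.ι} {a : C'.ι} {x : X} (hi : x ∈ (C.e i).source) (ha : x ∈ (C'.e a).source) :
    C'.e a x ∈ mov C C' i a := by
  refine ⟨(C'.e a).map_source ha, ?_⟩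
  rw [(C'.e a).left_inv ha]; exact hi

theorem mt_e {i : C.ι} {a : C'.ι} {x : X} (ha : x ∈ (C'.e a).source) :
    mt C C' i a (C'.e a x) = C.e i x := by
  show C.e i ((C'.e a).symm (C'.e a x)) = _
  rw [(C'.e a).left_inv ha]

/-- `e a ∘ F` near `θ` through the chart `i` of `C` -/
theorem ev_chart {θ : E} {i : C.ι} (a : C'.ι) (hF : ContinuousAt F θ)
    (hi : F θ ∈ (C.e i).source) :
    (fun y => C'.e a (F y)) =ᶠ[𝓝 θ] fun y => mt C' C a i (C.e i (F y)) := by
  filter_upwards [hF.eventually_mem ((C.e i).open_source.mem_nhds hi)] with y hy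
  exact (mt_e hy).symm

theorem contDiffAt_chart (h : Cmp C C') {θ : E} {i : C.ι} {a : C'.ι} {n : WithTop ℕ∞}
    (hn : n ≤ ∞) (hF : ContinuousAt F θ) (hi : F θ ∈ (C.e i).source)
    (ha : F θ ∈ (C'.e a).source) (hd : ContDiffAt ℝ n (fun y => C.e i (F y)) θ) :
    ContDiffAt ℝ n (fun y => C'.e a (F y)) θ := by
  have h1 : ContDiffAt ℝ ∞ (mt C' C a i) (C.e i (F θ)) :=
    (h.s' i a).contDiffAt ((Cmp.isOpen_mov C' C a i).mem_nhds (mem_mov ha hi))
  exact (ContDiffAt.comp (g := mt C' C a i) θ (h1.of_le hn) hd).congr_of_eventuallyEq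
    (ev_chart a hF hi)

theorem fderiv_chart (h : Cmp C C') {θ : E} {i : C.ι} {a : C'.ι} (hF : ContinuousAt F θ)
    (hi : F θ ∈ (C.e i).source) (ha : F θ ∈ (C'.e a).source)
    (hd : DifferentiableAt ℝ (fun y => C.e i (F y)) θ) :
    fderiv ℝ (fun y => C'.e a (F y)) θ =
      (fderiv ℝ (mt C' C a i) (C.e i (F θ))).comp (fderiv ℝ (fun y => C.e i (F y)) θ) := by
  have h1 : DifferentiableAt ℝ (mt C' C a i) (C.e i (F θ)) := h.symm.diff (mem_mov ha hi)
  rw [(ev_chart a hF hi).fderiv_eq]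
  exact (HasFDerivAt.comp (g := mt C' C a i) θ h1.hasFDerivAt hd.hasFDerivAt).fderiv

/-- `D(mt)` is injective -/
theorem dmt_inj (h : Cmp C C') {i : C.ι} {a : C'.ι} {x : X} (hi : x ∈ (C.e i).source)
    (ha : x ∈ (C'.e a).source) : Function.Injective (fderiv ℝ (mt C' C a i) (C.e i x)) := by
  intro u v huv
  have h1 := fun u => h.symm.d_d (mem_mov ha hi) u
  rw [← h1 u, huv, h1 v]

end chg

/-! ## the coordinates of the torus -/

section eN

variable {N : ℕ}

/-- `(Fin N → ℝ) ≃ VN N` -/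
def eN (N : ℕ) : (Fin N → ℝ) ≃L[ℝ] VN N := (EuclideanSpace.equiv (Fin N) ℝ).symm

@[simp] theorem eN_apply (x : Fin N → ℝ) (i : Fin N) : eN N x i = x i := rfl

@[simp] theorem eN_symm_apply (x : VN N) (i : Fin N) : (eN N).symm x i = x i := rfl

theorem eN_add (x : Fin N → ℝ) (k : Fin N → ℤ) : eN N (x + fun i => (k i : ℝ)) = eN N x + kv k := by
  rw [map_add]; rfl

theorem per_eN {F : Type*} {f : VN N → F} (h : PerN f) :
    Crest.Agent.R281.Op3_569.Per (fun x : Fin N → ℝ => f (eN N x)) := by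
  intro k x
  show f (eN N (x + fun i => (k i : ℝ))) = f (eN N x)
  rw [eN_add]; exact h k _

/-- conjugation with `eN` -/
def cj (J : VN N →L[ℝ] VN N) : (Fin N → ℝ) →L[ℝ] (Fin N → ℝ) :=
  ((eN N).symm : VN N →L[ℝ] (Fin N → ℝ)).comp (J.comp (eN N : (Fin N → ℝ) →L[ℝ] VN N))

@[simp] theorem eN_cj (J : VN N →L[ℝ] VN N) (v : Fin N → ℝ) : eN N (cj J v) = J (eN N v) := by
  show eN N ((eN N).symm (J (eN N v))) = _
  exact (eN N).apply_symm_apply _

theorem continuous_cj : Continuous (cj : (VN N →L[ℝ] VN N) → _) := by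
  have h1 : Continuous fun J : VN N →L[ℝ] VN N =>
      (J.comp (eN N : (Fin N → ℝ) →L[ℝ] VN N)) := continuous_id.clm_comp continuous_const
  exact continuous_const.clm_comp h1

end eN

/-! ## the bridge -/

section bridge

variable {n : ℕ} {A : Atl n X} {N : ℕ}

/-- the field `D.I` on the charts of `A` is the field `I` on the charts of `C` -/
def RelJ (C : RCh V X) (A : Atl n X) (I : C.ι → V → V →L[ℝ] V) (D : MovD A) : Prop :=
  ∀ i a, ∀ z ∈ mov C (ofAtl A) i a, ∀ v : Cn n,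
    fderiv ℝ (mt C (ofAtl A) i a) z (D.I a ((A.e a).symm z) v) =
      I i (mt C (ofAtl A) i a z) (fderiv ℝ (mt C (ofAtl A) i a) z v)

/-- `RelJ` for the inverse transition -/
theorem RelJ.inv {I : C.ι → V → V →L[ℝ] V} {D : MovD A} (h : Cmp C (ofAtl A)) (hD : RelJ C A I D)
    {i : C.ι} {a : A.ι} {x : X} (hi : x ∈ (C.e i).source) (ha : x ∈ (A.e a).source) (w : V) :
    fderiv ℝ (mt (ofAtl A) C a i) (C.e i x) (I i (C.e i x) w) =
      D.I a x (fderiv ℝ (mt (ofAtl A) C a i) (C.e i x) w) := by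
  have hz : A.e a x ∈ mov C (ofAtl A) i a := mem_mov (C' := ofAtl A) hi ha
  have e1 : mt C (ofAtl A) i a (A.e a x) = C.e i x := mt_e (C' := ofAtl A) ha
  have e2 : (A.e a).symm (A.e a x) = x := (A.e a).left_inv ha
  have h1 := h.d_d hz (D.I a x (fderiv ℝ (mt (ofAtl A) C a i) (C.e i x) w))
  have h2 := hD i a _ hz (fderiv ℝ (mt (ofAtl A) C a i) (C.e i x) w)
  have h3 := h.d_d' hz w
  rw [e1] at h1 h3
  rw [e1, e2] at h2
  rw [← h1, h2, h3]

variable {x y : F2 C} {I : C.ι → V → V →L[ℝ] V} {F : VN N → X} {J : VN N → VN N →L[ℝ] VN N}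

theorem TorM.fd (h : TorM x y I F J) {C' : RCh V' X} (hc : Cmp C C') {θ : VN N} {i : C.ι}
    {a : C'.ι} (hi : F θ ∈ (C.e i).source) (ha : F θ ∈ (C'.e a).source) :
    fderiv ℝ (fun y => C'.e a (F y)) θ =
      (fderiv ℝ (mt C' C a i) (C.e i (F θ))).comp (fderiv ℝ (fun y => C.e i (F y)) θ) :=
  fderiv_chart hc h.cont.continuousAt hi ha ((h.c1 θ i hi).differentiableAt (by norm_num))

/-- `D(e a ∘ F ∘ eN)` -/
theorem fd_eN {G : Type*} [NormedAddCommGroup G] [NormedSpace ℝ G] {f : VN N → G} {x : Fin N → ℝ}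
    (hf : DifferentiableAt ℝ f (eN N x)) : fderiv ℝ (fun y => f (eN N y)) x =
      (fderiv ℝ f (eN N x)).comp (eN N : (Fin N → ℝ) →L[ℝ] VN N) :=
  (HasFDerivAt.comp (g := f) x hf.hasFDerivAt (eN N).hasFDerivAt).fderiv

theorem torF_of (hc : Cmp C (ofAtl A)) {D : MovD A} (hD : RelJ C A I D) (h : TorM x y I F J) :
    TorF D (fun x : Fin N → ℝ => F (eN N x)) (fun x => cj (J (eN N x))) where
  cont := h.cont.comp (eN N).continuous
  per := per_eN h.per
  jc := continuous_cj.comp (h.jc.comp (eN N).continuous)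
  jp := fun k x => by
    show cj (J (eN N (x + fun i => (k i : ℝ)))) = cj (J (eN N x))
    rw [eN_add, h.jp k]
  c1 := fun x a ha => by
    obtain ⟨i, hi⟩ := C.cover (F (eN N x))
    have h1 : ContDiffAt ℝ 1 (fun y => A.e a (F y)) (eN N x) :=
      contDiffAt_chart (C' := ofAtl A) hc (by simp) h.cont.continuousAt hi ha (h.c1 _ i hi)
    exact ContDiffAt.comp (g := fun y => A.e a (F y)) x h1 (eN N).contDiff.contDiffAt
  jeq := fun x a ha v => by
    obtain ⟨i, hi⟩ := C.cover (F (eN N x))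
    have h1 : ContDiffAt ℝ 1 (fun y => A.e a (F y)) (eN N x) :=
      contDiffAt_chart (C' := ofAtl A) hc (by simp) h.cont.continuousAt hi ha (h.c1 _ i hi)
    have h2 := fd_eN (h1.differentiableAt (by norm_num))
    have h3 : fderiv ℝ (fun y => A.e a (F y)) (eN N x) =
      (fderiv ℝ (mt (ofAtl A) C a i) (C.e i (F (eN N x)))).comp
        (fderiv ℝ (fun y => C.e i (F y)) (eN N x)) := h.fd (C' := ofAtl A) hc hi ha
    rw [h2, h3]
    show fderiv ℝ (mt (ofAtl A) C a i) (C.e i (F (eN N x)))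
      (fderiv ℝ (fun y => C.e i (F y)) (eN N x) (eN N (cj (J (eN N x)) v))) =
      D.I a (F (eN N x)) (fderiv ℝ (mt (ofAtl A) C a i) (C.e i (F (eN N x)))
        (fderiv ℝ (fun y => C.e i (F y)) (eN N x) (eN N v)))
    rw [eN_cj, h.jeq _ i hi, hD.inv hc hi ha]

variable {P : Type*} {l : Filter P} {xp yp : P → F2 C} {Ip : P → C.ι → V → V →L[ℝ] V}
  {Fp : P → VN N → X} {Jp : P → VN N → VN N →L[ℝ] VN N}

/-- convergence of the derivatives in the charts of `C'` -/
theorem cD_chart (C' : RCh V' X) (hc : Cmp C C') (hT : ∀ᶠ p in l, TorM (xp p) (yp p) (Ip p) (Fp p) (Jp p))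
    (h0 : TorM x y I F J)
    (hF : ∀ θ, Tendsto (fun q : P × VN N => Fp q.1 q.2) (l ×ˢ 𝓝 θ) (𝓝 (F θ)))
    (hD : ∀ θ i, F θ ∈ (C.e i).source →
        Tendsto (fun q : P × VN N => fderiv ℝ (fun y => C.e i (Fp q.1 y)) q.2) (l ×ˢ 𝓝 θ)
          (𝓝 (fderiv ℝ (fun y => C.e i (F y)) θ))) {θ : VN N} {a : C'.ι}
    (ha : F θ ∈ (C'.e a).source) :
    Tendsto (fun q : P × VN N => fderiv ℝ (fun y => C'.e a (Fp q.1 y)) q.2) (l ×ˢ 𝓝 θ)
          (𝓝 (fderiv ℝ (fun y => C'.e a (F y)) θ)) := by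
  obtain ⟨i, hi⟩ := C.cover (F θ)
  rw [h0.fd hc hi ha]
  have h1 : ContinuousAt (fderiv ℝ (mt C' C a i)) (C.e i (F θ)) := by
    have h2 : ContDiffAt ℝ ∞ (mt C' C a i) (C.e i (F θ)) :=
      (hc.s' i a).contDiffAt ((Cmp.isOpen_mov C' C a i).mem_nhds (mem_mov ha hi))
    exact (h2.fderiv_right (m := 0) (by simp)).continuousAt
  have h2 : Tendsto (fun q : P × VN N => C.e i (Fp q.1 q.2)) (l ×ˢ 𝓝 θ) (𝓝 (C.e i (F θ))) :=
    (((C.e i).continuousAt hi).tendsto).comp (hF θ)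
  have h3 := tendsto_compL (h1.tendsto.comp h2) (hD θ i hi)
  refine h3.congr' ?_
  have h4 : ∀ᶠ q : P × VN N in l ×ˢ 𝓝 θ, Fp q.1 q.2 ∈ (C.e i).source ∩ (C'.e a).source :=
    (hF θ).eventually (((C.e i).open_source.inter (C'.e a).open_source).mem_nhds ⟨hi, ha⟩)
  filter_upwards [h4, tendsto_fst.eventually hT] with q hq hq'
  exact (hq'.fd hc hq.1 hq.2).symm

/-- transfer of continuous convergence to `Fin N → ℝ` -/
theorem cc_eN {Y : Type*} [TopologicalSpace Y] {f : P → VN N → Y} {f0 : VN N → Y}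
    (h : ∀ θ, Tendsto (fun q : P × VN N => f q.1 q.2) (l ×ˢ 𝓝 θ) (𝓝 (f0 θ)))
    (x : Fin N → ℝ) : CC l (fun p x => f p (eN N x)) (fun x => f0 (eN N x)) x := by
  have h1 : Tendsto (fun q : P × (Fin N → ℝ) => (q.1, eN N q.2)) (l ×ˢ 𝓝 x)
      (l ×ˢ 𝓝 (eN N x)) :=
    tendsto_fst.prodMk (((eN N).continuous.tendsto x).comp tendsto_snd)
  exact (h (eN N x)).comp h1

end bridge

end

end Crest.Agent.R281.OT_763
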