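import Crest.Agent.R281.OTB2_280
import Crest.Agent.R281.OT3_763

/-!
# Row 281, OPEN-TORI, part (OT-B) 3 (helper280): bridge to `Prd`, `Imm` of helper763
-/

set_option autoImplicit false
set_option linter.unusedSectionVars false
set_option maxSynthPendingDepth 3

open Set Filter Topology Complex
open scoped ContDiff

namespace Crest.Agent.R281.OTB_280

open Crest.Agent.R275.Geo (Cn)
open Crest.Agent.R281.HkR_835 Crest.Agent.R281.Per_368 Crest.Agent.R281.Tub_831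
open Crest.Agent.R281.Mc673 (V W tube kv ClF isOpen_tube)
open Crest.Agent.R281.OT_763 (Prd Imm finrank_W)

noncomputable section

variable {n : ℕ}
variable {M X : Type} [NormedAddCommGroup M] [NormedSpace ℝ M] [TopologicalSpace X]
variable {C : RCh M X} {J : C.ι → M → M →L[ℝ] M} {w w' : F2 C} {D : Set (Cn n)}
  {Ψ : Cn n × Cn n → X} {l : Fin (2 * n) → Cn n → Cn n} {τ : Cn n → Cn n → Cn n → ℂ}
  {y0 : Cn n}

/-- **(OT-B)** -/
theorem exists_Prd [FiniteDimensional ℝ M] (hd : Module.finrank ℝ M = 2 * (2 * n))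
    (h : HolTube C J w w' n D Ψ l τ) (hy0 : y0 ∈ D) :
    ∃ (r : ℝ) (Y : V (2 * n) ≃L[ℝ] Cn n) (Psi : W (2 * n) → X)
      (Cc : V (2 * n) →L[ℝ] V (2 * n)),
      Prd C (2 * n) r Psi w w' Cc ∧ Imm C Psi (tube (2 * n) r) ∧
      (∀ v, ‖v‖ < r → y0 + Y v ∈ D) ∧
      (∀ p, Psi p = Ψ (y0 + Y p.2, ∑ j, p.1 j • l j (y0 + Y p.2))) ∧
      (∀ θ, Psi (θ, 0) = Ψ (y0, ∑ j, θ j • l j y0)) ∧ (∀ v, Y (Cc v) = -(I • Y v)) ∧
      (∀ p ∈ tube (2 * n) r, ∀ p' ∈ tube (2 * n) r, Psi p = Psi p' ↔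
        p.2 = p'.2 ∧ ∃ k, p.1 = p'.1 + kv k) := by
  obtain ⟨r, Y, Cc, Psi, h1, h2, h3, h4, h5, h6, h7, h8, h9, h10, h11, h12, h13⟩ :=
    exists_prd h hy0
  refine ⟨r, Y, Psi, Cc, ⟨h1, h6, fun k ζ hζ => h7 ζ hζ k, h4, h10, h11, h12, h13⟩,
    fun ζ hζ i hi => ?_, h2, h3, fun θ => ?_, h5, h8⟩
  · have hi' := h9 ζ hζ i hi
    refine ⟨hi', ?_⟩
    have hf : Module.finrank ℝ (W (2 * n)) = Module.finrank ℝ M := by
      rw [finrank_W, hd, finrank_euclideanSpace, Fintype.card_fin]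
    exact (LinearMap.injective_iff_surjective_of_finrank_eq_finrank
      (f := (fderiv ℝ (fun y => C.e i (Psi y)) ζ : W (2 * n) →ₗ[ℝ] M)) hf).1 hi'
  · rw [h3]
    simp

/-- the image of every open part of the tube is open -/
theorem isOpen_image {E : Type} [NormedAddCommGroup E] [NormedSpace ℝ E] [CompleteSpace E]
    [CompleteSpace M] {S : Set E} {Psi : E → X} (h : SmI C S Psi) (hI : Imm C Psi S) {O : Set E}
    (hO : IsOpen O) (hOS : O ⊆ S) : IsOpen (Psi '' O) := by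
  rw [isOpen_iff_mem_nhds]
  rintro _ ⟨p, hp, rfl⟩
  obtain ⟨i, hi⟩ := C.cover (Psi p)
  have h1 := h.smAt (hOS hp) hi
  have h2 : HasStrictFDerivAt (fun y => C.e i (Psi y)) (fderiv ℝ (fun y => C.e i (Psi y)) p) p :=
    h1.hasStrictFDerivAt (by simp)
  have h3 : (fderiv ℝ (fun y => C.e i (Psi y)) p).range = ⊤ :=
    LinearMap.range_eq_top.2 (hI p (hOS hp) i hi).2
  have h4 := h2.map_nhds_eq_of_surj h3
  -- the set of points of `O` sent into the chart domain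
  have h5 : O ∩ Psi ⁻¹' (C.e i).source ∈ 𝓝 p :=
    ((h.cont.mono hOS).isOpen_inter_preimage hO (C.e i).open_source).mem_nhds ⟨hp, hi⟩
  have h6 : (fun y => C.e i (Psi y)) '' (O ∩ Psi ⁻¹' (C.e i).source) ∈ 𝓝 (C.e i (Psi p)) := by
    rw [← h4]
    exact image_mem_map h5
  have h7 : (C.e i).source ∩ C.e i ⁻¹' ((fun y => C.e i (Psi y)) ''
      (O ∩ Psi ⁻¹' (C.e i).source)) ∈ 𝓝 (Psi p) :=
    inter_mem ((C.e i).open_source.mem_nhds hi) ((C.e i).continuousAt hi h6)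
  refine mem_of_superset h7 ?_
  rintro x ⟨hx, q, hq, hqe⟩
  exact ⟨q, hq.1, (C.e i).injOn hq.2 hx hqe⟩

end

end Crest.Agent.R281.OTB_280
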