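import Crest.Agent.R281.OTB2_280
import Crest.Agent.R281.OT2_763
import Crest.Agent.R281.Mc2_673
import Crest.Agent.R281.Per5_368

/-!
# Row 281, OPEN-TORI (PER) (helper16)

* `mn_shift`   : the mean over the torus is invariant under translations
* `mn_of_per`  : if all the periods over the coordinate squares `(j, k)` vanish, the mean is zero
* `mn_pull`    : `per (pull v Psi) (θ, 0) (e_j, 0) (e_k, 0) = 0` for all `θ` ==> zero mean
* `mn_of_PVT`  : zero mean on the zero section of `Psi` (helper280) from `PVT` (helper831)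
-/

set_option autoImplicit false
set_option maxSynthPendingDepth 3

open Set Filter Topology MeasureTheory
open scoped ContDiff

namespace Crest.Agent.R281.OtP_16

open Crest.Agent.R275.Geo (Cn)
open Crest.Agent.R281.HkR_835
open Crest.Agent.R281.Per_368 (SmI pull per pt)
open Crest.Agent.R281.Tub_831 (HolTube PVT)
open Crest.Agent.R281.Mc673 (W tube kv mn SP toS toS_apply isOpen_tube mn_eq_box mn_const)
open Crest.Agent.R238.Sch (ee)
open Crest.Agent.R275.Tor812 (box volume_box box_measurable desc bdd)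

noncomputable section

abbrev VN (N : ℕ) := Crest.Agent.R281.Mc673.V N

variable {N : ℕ}

theorem mn_shift {f : VN N → ℝ} (hf : SP f) (c : VN N) : mn (fun x => f (x + c)) = mn f := by
  rw [mn_eq_box hf (fun i => c i)]
  set G : (Fin N → ℝ) → ℝ := fun x => f (WithLp.toLp 2 x) with hG
  show ∫ x in box (0 : Fin N → ℝ), f (WithLp.toLp 2 x + c) = ∫ x in box (fun i => c i), G x
  have h0 : ∀ x : Fin N → ℝ, f (WithLp.toLp 2 x + c) = G (x + fun i => c i) := fun x => rfl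
  simp_rw [h0]
  have h1 : (fun x : Fin N → ℝ => x + fun i => c i) ⁻¹' (box fun i => c i) = box 0 := by
    ext x
    simp only [box, mem_preimage, mem_ofPred_eq, Pi.add_apply, Pi.zero_apply, mem_Ioc]
    refine forall_congr' fun i => ?_
    constructor
    · rintro ⟨h1, h2⟩; constructor <;> linarith
    · rintro ⟨h1, h2⟩; constructor <;> linarith
  rw [← h1]
  exact (measurePreserving_add_right volume (fun i => c i : Fin N → ℝ)).setIntegral_preimage_emb
    (MeasurableEquiv.addRight (fun i => c i : Fin N → ℝ)).measurableEmbedding G _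

theorem sp_bdd {f : VN N → ℝ} (hf : SP f) : ∃ K, ∀ x, |f x| ≤ K := by
  refine ⟨‖desc (toS f hf)‖, fun x => ?_⟩
  have h1 := bdd (toS f hf) (WithLp.ofLp x)
  rw [toS_apply] at h1
  simpa using h1

/-- zero integrals over the unit squares in the directions `a`, `b` ==> zero mean -/
theorem mn_of_sq {f : VN N → ℝ} (hf : SP f) (a b : VN N)
    (h : ∀ x, ∫ s in (0:ℝ)..1, ∫ t in (0:ℝ)..1, f (x + s • a + t • b) = 0) : mn f = 0 := by
  obtain ⟨K, hK⟩ := sp_bdd hf
  have : IsFiniteMeasure (volume.restrict (box (0 : Fin N → ℝ))) :=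
    ⟨by rw [Measure.restrict_apply_univ, volume_box]; exact ENNReal.one_lt_top⟩
  have hc : Continuous f := hf.cont
  have hF : Continuous fun p : (Fin N → ℝ) × ℝ × ℝ =>
      f (WithLp.toLp 2 p.1 + p.2.1 • a + p.2.2 • b) := by
    refine hc.comp ?_
    exact (((PiLp.continuous_toLp 2 _).comp continuous_fst).add
      ((continuous_fst.comp continuous_snd).smul continuous_const)).add
      ((continuous_snd.comp continuous_snd).smul continuous_const)
  -- inner
  have e1 : ∀ s : ℝ, ∫ t in (0:ℝ)..1, mn (fun x => f (x + s • a + t • b)) =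
      ∫ x in box (0 : Fin N → ℝ), ∫ t in (0:ℝ)..1, f (WithLp.toLp 2 x + s • a + t • b) := by
    intro s
    simp only [intervalIntegral.integral_of_le zero_le_one, mn]
    refine integral_integral_swap ?_
    refine Integrable.of_bound (C := K) ?_ (ae_of_all _ fun p => by
      simpa [Function.uncurry] using hK _)
    refine Continuous.aestronglyMeasurable ?_
    exact hF.comp (continuous_snd.prodMk (continuous_const.prodMk continuous_fst))
  have e2 : ∫ s in (0:ℝ)..1, ∫ x in box (0 : Fin N → ℝ), ∫ t in (0:ℝ)..1,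
      f (WithLp.toLp 2 x + s • a + t • b) =
      ∫ x in box (0 : Fin N → ℝ), ∫ s in (0:ℝ)..1, ∫ t in (0:ℝ)..1,
        f (WithLp.toLp 2 x + s • a + t • b) := by
    rw [intervalIntegral.integral_of_le zero_le_one]
    have hI : ∀ x : Fin N → ℝ, ∫ s in (0:ℝ)..1, ∫ t in (0:ℝ)..1,
        f (WithLp.toLp 2 x + s • a + t • b) = ∫ s in Ioc (0:ℝ) 1, ∫ t in (0:ℝ)..1,
        f (WithLp.toLp 2 x + s • a + t • b) := fun x =>
      intervalIntegral.integral_of_le zero_le_one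
    simp_rw [hI]
    refine integral_integral_swap ?_
    refine Integrable.of_bound (C := K) ?_ (ae_of_all _ fun p => ?_)
    · refine Continuous.aestronglyMeasurable ?_
      refine intervalIntegral.continuous_parametric_intervalIntegral_of_continuous'
        (f := fun (p : ℝ × (Fin N → ℝ)) t => f (WithLp.toLp 2 p.2 + p.1 • a + t • b)) ?_ 0 1
      exact hF.comp ((continuous_snd.comp continuous_fst).prodMk
        ((continuous_fst.comp continuous_fst).prodMk continuous_snd))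
    · have := intervalIntegral.norm_integral_le_of_norm_le_const (a := 0) (b := 1) (C := K)
        (f := fun t => f (WithLp.toLp 2 p.2 + p.1 • a + t • b)) (fun t _ => hK _)
      simpa [Function.uncurry] using this
  have e3 : ∫ s in (0:ℝ)..1, ∫ t in (0:ℝ)..1, mn (fun x => f (x + s • a + t • b)) = 0 := by
    simp_rw [e1]
    rw [e2]
    simp_rw [h]
    simp
  have e4 : ∀ s t : ℝ, mn (fun x => f (x + s • a + t • b)) = mn f := by
    intro s t
    have := mn_shift hf (s • a + t • b)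
    simpa [add_assoc] using this
  simp_rw [e4] at e3
  simpa using e3

variable {V X : Type} [NormedAddCommGroup V] [NormedSpace ℝ V] [TopologicalSpace X] {C : RCh V X}

/-- the coefficient functions on the zero section are smooth and periodic -/
theorem sp_pull {r : ℝ} (hr : 0 < r) {Psi : W N → X} (h : SmI C (tube N r) Psi)
    (hper : ∀ p ∈ tube N r, ∀ k, Psi (p.1 + kv k, p.2) = Psi p) (v : F2 C) (a b : W N) :
    SP (fun θ : VN N => pull v Psi (θ, 0) a b) := by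
  have h0 : ∀ θ : VN N, ((θ, 0) : W N) ∈ tube N r := fun θ => by
    show ‖(0 : VN N)‖ < r
    simpa using hr
  refine ⟨?_, fun k θ => ?_⟩
  · have h1 : ContDiff ℝ ∞ fun θ : VN N => pull v Psi (θ, 0) := by
      rw [← contDiffOn_univ]
      exact (h.pull_smooth v).comp (contDiff_id.prodMk contDiff_const).contDiffOn
        (fun θ _ => h0 θ)
    exact (h1.clm_apply contDiff_const).clm_apply contDiff_const
  · have h2 := h.pull_add v (l := ((kv k, 0) : W N)) (ζ := (θ, 0)) (fun ζ hζ => ?_) (h0 θ)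
    · have h3 : ((θ + kv k, 0) : W N) = (θ, 0) + (kv k, 0) := by simp
      show pull v Psi (θ + kv k, 0) a b = _
      rw [h3, h2]
    · have h4 : ζ + ((kv k, 0) : W N) = (ζ.1 + kv k, ζ.2) := by
        refine Prod.ext rfl ?_
        simp
      rw [h4]
      exact ⟨hζ, hper ζ hζ k⟩

/-- **zero periods over the coordinate squares ==> zero mean** -/
theorem mn_pull {r : ℝ} (hr : 0 < r) {Psi : W N → X} (h : SmI C (tube N r) Psi)
    (hper : ∀ p ∈ tube N r, ∀ k, Psi (p.1 + kv k, p.2) = Psi p) (v : F2 C) (j k : Fin N)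
    (h0 : ∀ θ : VN N, per (pull v Psi) (θ, 0) (ee j, 0) (ee k, 0) = 0) :
    mn (fun θ : VN N => pull v Psi (θ, 0) (ee j, 0) (ee k, 0)) = 0 := by
  refine mn_of_sq (sp_pull hr h hper v _ _) (ee j) (ee k) fun x => ?_
  have h1 := h0 x
  refine Eq.trans ?_ h1
  have h2 : ∀ s t : ℝ, pt ((x, 0) : W N) (ee j, 0) (ee k, 0) s t =
      (x + s • ee j + t • ee k, 0) := fun s t => by simp [pt]
  have h3 : per (pull v Psi) (x, 0) (ee j, 0) (ee k, 0) = ∫ s in (0:ℝ)..1, ∫ t in (0:ℝ)..1,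
      pull v Psi (pt (x, 0) (ee j, 0) (ee k, 0) s t) (ee j, 0) (ee k, 0) := rfl
  rw [h3]
  simp_rw [h2]

section tub

variable {J : C.ι → V → V →L[ℝ] V} {w w' : F2 C} {n : ℕ} {D : Set (Cn n)} {Ψ : Cn n × Cn n → X}
  {l : Fin (2 * n) → Cn n → Cn n} {τ : Cn n → Cn n → Cn n → ℂ}

/-- the linear map `(θ, v) ↦ (0, ∑ θ_j l_j(y0))` -/
def Lm (l : Fin (2 * n) → Cn n → Cn n) (y0 : Cn n) : W (2 * n) →L[ℝ] Cn n × Cn n :=
  (ContinuousLinearMap.inr ℝ (Cn n) (Cn n)).comp
    (∑ j, ((EuclideanSpace.proj j : VN (2 * n) →L[ℝ] ℝ).comp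
      (ContinuousLinearMap.fst ℝ (VN (2 * n)) (VN (2 * n)))).smulRight (l j y0))

theorem Lm_apply (y0 : Cn n) (p : W (2 * n)) : Lm l y0 p = (0, ∑ j, p.1 j • l j y0) := by
  show ((0 : Cn n), (∑ j, ((EuclideanSpace.proj j : VN (2 * n) →L[ℝ] ℝ).comp
      (ContinuousLinearMap.fst ℝ (VN (2 * n)) (VN (2 * n)))).smulRight (l j y0)) p) = _
  rw [sum_apply]
  rfl

theorem Lm_ee (y0 : Cn n) (k : Fin (2 * n)) : Lm l y0 (ee k, 0) = (0, l k y0) := by
  rw [Lm_apply]
  refine Prod.ext rfl ?_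
  show ∑ j, (ee k : VN (2 * n)) j • l j y0 = l k y0
  rw [Finset.sum_eq_single k]
  · simp [ee]
  · intro j _ hj
    simp [ee, hj]
  · simp

/-- the pull back to the zero section -/
theorem pull_zero (h : HolTube C J w w' n D Ψ l τ) {y0 : Cn n} (hy0 : y0 ∈ D) {r : ℝ} (hr0 : 0 < r)
    {Psi : W (2 * n) → X} (hsm : SmI C (tube (2 * n) r) Psi)
    (hPsi : ∀ θ, Psi (θ, 0) = Ψ (y0, ∑ j, θ j • l j y0)) (v : F2 C)
    (θ a b : VN (2 * n)) : pull v Psi (θ, 0) (a, 0) (b, 0) =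
      pull v Ψ (y0, ∑ j, θ j • l j y0) (Lm l y0 (a, 0)) (Lm l y0 (b, 0)) := by
  have h0 : ∀ θ : VN (2 * n), ((θ, 0) : W (2 * n)) ∈ tube (2 * n) r := fun θ => by
    show ‖(0 : VN (2 * n))‖ < r
    simpa using hr0
  set ι : VN (2 * n) → W (2 * n) := fun θ => (θ, 0) with hι
  have hιs : ContDiff ℝ ∞ ι := contDiff_id.prodMk contDiff_const
  have hιd : ∀ a, fderiv ℝ ι θ a = (a, 0) := by
    intro a
    have : HasFDerivAt ι (ContinuousLinearMap.inl ℝ (VN (2 * n)) (VN (2 * n))) θ :=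
      (ContinuousLinearMap.inl ℝ (VN (2 * n)) (VN (2 * n))).hasFDerivAt
    rw [this.fderiv]; rfl
  set κ : VN (2 * n) → Cn n × Cn n := fun θ => (y0, 0) + Lm l y0 (θ, 0) with hκ
  have hκe : ∀ θ, κ θ = (y0, ∑ j, θ j • l j y0) := fun θ => by
    rw [hκ]; simp only [Lm_apply]; simp
  have hκs : ContDiff ℝ ∞ κ := contDiff_const.add ((Lm l y0).contDiff.comp hιs)
  have hκd : ∀ a, fderiv ℝ κ θ a = Lm l y0 (a, 0) := by
    intro a
    have : HasFDerivAt κ ((Lm l y0).comp (ContinuousLinearMap.inl ℝ (VN (2 * n)) (VN (2 * n)))) θ :=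
      ((Lm l y0).comp (ContinuousLinearMap.inl ℝ (VN (2 * n)) (VN (2 * n)))).hasFDerivAt.const_add _
    rw [this.fderiv]; rfl
  have e1 := OTB_280.pull_comp hsm isOpen_univ hιs.contDiffOn (fun θ _ => h0 θ) v
    (mem_univ θ) a b
  have e2 := OTB_280.pull_comp h.sm isOpen_univ hκs.contDiffOn
    (fun θ _ => by rw [hκe]; exact ⟨hy0, mem_univ _⟩) v (mem_univ θ) a b
  have e3 : (fun q => Psi (ι q)) = fun q => Ψ (κ q) := by
    funext q
    rw [hκe]; exact hPsi q
  rw [e3] at e1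
  rw [hιd, hιd] at e1
  rw [hκd, hκd, hκe] at e2
  exact e1.symm.trans e2

/-- **zero mean from zero periods over one torus** (local form: one class `v`, one point `y0`) -/
theorem mn_of_loc (h : HolTube C J w w' n D Ψ l τ) {y0 : Cn n} (hy0 : y0 ∈ D) {r : ℝ} (hr0 : 0 < r)
    {Psi : W (2 * n) → X} (hsm : SmI C (tube (2 * n) r) Psi)
    (hper : ∀ p ∈ tube (2 * n) r, ∀ k, Psi (p.1 + kv k, p.2) = Psi p)
    (hPsi : ∀ θ, Psi (θ, 0) = Ψ (y0, ∑ j, θ j • l j y0)) {v : F2 C} {j k : Fin (2 * n)}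
    (hv : ∀ x, per (pull v Ψ) (y0, x) (0, l j y0) (0, l k y0) = 0) :
    mn (fun θ : VN (2 * n) => pull v Psi (θ, 0) (ee j, 0) (ee k, 0)) = 0 := by
  refine mn_pull hr0 hsm hper v j k fun θ => ?_
  have h1 := Per_368.per_affine (ξ := pull v Ψ) (η := pull v Psi) (Lm l y0) (y0, 0)
    (z := ((θ, 0) : W (2 * n))) (v := (ee j, 0)) (w := (ee k, 0)) (fun s _ t _ => by
      have h2 : pt ((θ, 0) : W (2 * n)) (ee j, 0) (ee k, 0) s t =
          (θ + s • ee j + t • ee k, 0) := by simp [pt]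
      rw [h2, Lm_apply (l := l) y0 (θ + s • ee j + t • ee k, 0)]
      have h3 : ((y0, 0) + (0, ∑ i, (θ + s • ee j + t • ee k : VN (2 * n)) i • l i y0) :
          Cn n × Cn n) = (y0, ∑ i, (θ + s • ee j + t • ee k : VN (2 * n)) i • l i y0) := by simp
      show _ = pull v Ψ ((y0, 0) + (0, ∑ i, (θ + s • ee j + t • ee k : VN (2 * n)) i • l i y0)) _ _
      rw [h3]
      exact pull_zero h hy0 hr0 hsm hPsi v _ _ _)
  rw [h1, Lm_ee, Lm_ee, Lm_apply]
  have h2 : ((y0, 0) + (0, ∑ j, ((θ, 0) : W (2 * n)).1 j • l j y0) : Cn n × Cn n) =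
      (y0, ∑ j, θ j • l j y0) := by simp
  rw [h2]
  exact hv _

/-- the local form, for helper763's product coordinates -/
theorem mn_of_prd_loc (h : HolTube C J w w' n D Ψ l τ) {y0 : Cn n} (hy0 : y0 ∈ D) {r : ℝ}
    {Psi : W (2 * n) → X} {x1 y1 : F2 C} {Cc : VN (2 * n) →L[ℝ] VN (2 * n)}
    (hp : OT_763.Prd C (2 * n) r Psi x1 y1 Cc)
    (hPsi : ∀ θ, Psi (θ, 0) = Ψ (y0, ∑ j, θ j • l j y0)) {v : F2 C}
    (hv : ∀ x j k, per (pull v Ψ) (y0, x) (0, l j y0) (0, l k y0) = 0) (j k : Fin (2 * n)) :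
    mn (fun θ : VN (2 * n) => pull v Psi (θ, 0) (ee j, 0) (ee k, 0)) = 0 :=
  mn_of_loc h hy0 hp.r0 hp.sm (fun p hp' k => hp.per k p hp') hPsi fun x => hv x j k

/-- **zero mean from `PVT`** -/
theorem mn_of_PVT {Q : F2 C →ₗ[ℝ] F2 C →ₗ[ℝ] ℝ} {e : F2 C} (h : HolTube C J w w' n D Ψ l τ)
    (hP : PVT Q e D Ψ l) {y0 : Cn n} (hy0 : y0 ∈ D) {r : ℝ} (hr0 : 0 < r) {Psi : W (2 * n) → X}
    (hsm : SmI C (tube (2 * n) r) Psi)
    (hper : ∀ p ∈ tube (2 * n) r, ∀ k, Psi (p.1 + kv k, p.2) = Psi p)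
    (hPsi : ∀ θ, Psi (θ, 0) = Ψ (y0, ∑ j, θ j • l j y0))
    {v : F2 C} (hv : Q v e = 0) (j k : Fin (2 * n)) :
    mn (fun θ : VN (2 * n) => pull v Psi (θ, 0) (ee j, 0) (ee k, 0)) = 0 :=
  mn_of_loc h hy0 hr0 hsm hper hPsi fun x => hP v hv y0 hy0 x j k

/-- **zero mean from `PVT`**, for helper763's product coordinates -/
theorem mn_of_prd {Q : F2 C →ₗ[ℝ] F2 C →ₗ[ℝ] ℝ} {e : F2 C} (h : HolTube C J w w' n D Ψ l τ)
    (hP : PVT Q e D Ψ l) {y0 : Cn n} (hy0 : y0 ∈ D) {r : ℝ} {Psi : W (2 * n) → X} {x1 y1 : F2 C}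
    {Cc : VN (2 * n) →L[ℝ] VN (2 * n)} (hp : OT_763.Prd C (2 * n) r Psi x1 y1 Cc)
    (hPsi : ∀ θ, Psi (θ, 0) = Ψ (y0, ∑ j, θ j • l j y0))
    {v : F2 C} (hv : Q v e = 0) (j k : Fin (2 * n)) :
    mn (fun θ : VN (2 * n) => pull v Psi (θ, 0) (ee j, 0) (ee k, 0)) = 0 :=
  mn_of_PVT h hP hy0 hp.r0 hp.sm (fun p hp' k => hp.per k p hp') hPsi hv j k

end tub

end

end Crest.Agent.R281.OtP_16
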