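import Crest.Agent.R281.OT7_763
import Crest.Agent.R281.OTB3_280
import Crest.Agent.R281.OtP1_16

/-!
# Row 281, OPEN-TORI (helper763), part 8: **exists_mtor**

`HolTube` (831) for `w + i w'` at the centre, forms `xp p → w`, `yp p → w'` in `C²` with zero periods:
330's `MTor` for the fields `Dp p` on the charts of the holomorphic atlas `A`, for every `y0 ∈ D`.
-/

set_option autoImplicit false
set_option maxSynthPendingDepth 3
set_option linter.unusedSectionVars false

open Set Filter Topology Complex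
open scoped ContDiff

namespace Crest.Agent.R281.OT_763

open Crest.Agent.R281.HkR_835 Crest.Agent.R281.Per_368 Crest.Agent.R281.PL_713
open Crest.Agent.R281.Mc673 (W Fo tube ClF kv mn isOpen_tube)
open Crest.Agent.R275.Geo (Cn Atl)
open Crest.Agent.R281.Op3_569 (MovD TorF CC)
open Crest.Agent.R281.OpT_330 (HTor MTor)
open Crest.Agent.R281.Tub_831 (HolTube PVT Tub)
open Crest.Agent.R238.Sch (ee)

noncomputable section

/-! ## complex differentiability -/

section cd

variable {E F : Type*} [NormedAddCommGroup E] [NormedSpace ℂ E] [NormedAddCommGroup F]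
  [NormedSpace ℂ F]

/-- a real linear map which commutes with `i` is complex linear -/
def toCL (L : E →L[ℝ] F) (h : ∀ v, L (I • v) = I • L v) : E →L[ℂ] F where
  toFun := L
  map_add' := map_add L
  map_smul' := by
    intro c v
    have h1 : c • v = c.re • v + c.im • (I • v) := by
      conv_lhs => rw [← Complex.re_add_im c, add_smul, mul_smul]
      rfl
    have h2 : c • L v = c.re • L v + c.im • (I • L v) := by
      conv_lhs => rw [← Complex.re_add_im c, add_smul, mul_smul]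
      rfl
    simp only [RingHom.id_apply]
    rw [h1, map_add, map_smul, map_smul, h, h2]
  cont := L.cont

theorem hasFDerivAt_toCL {f : E → F} {L : E →L[ℝ] F} {x : E} (hf : HasFDerivAt f L x)
    (h : ∀ v, L (I • v) = I • L v) : HasFDerivAt f (toCL L h) x :=
  hasFDerivAt_of_restrictScalars ℝ hf (by ext; rfl)

end cd

variable {V X : Type} [NormedAddCommGroup V] [NormedSpace ℝ V] [TopologicalSpace X] {C : RCh V X}
variable {n d : ℕ} {A : Atl d X} {J : C.ι → V → V →L[ℝ] V} {w w' : F2 C}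
  {D : Set (Cn n)} {Ψ : Cn n × Cn n → X} {l : Fin (2 * n) → Cn n → Cn n}
  {τ : Cn n → Cn n → Cn n → ℂ} {y0 : Cn n}

/-- multiplication by `i` -/
def iM (A : Atl d X) : MovD A where
  I _ _ := (I : ℂ) • ContinuousLinearMap.id ℝ (Cn d)
  a _ _ := 0

theorem relJ_iM (h : JC C J A) : RelJ C A J (iM A) := fun i a z hz v => h.lin i a z hz v

/-- the fibre torus is a holomorphic torus -/
theorem hTor_of (h : HolTube C J w w' n D Ψ l τ) (hJ : JC C J A) (hy0 : y0 ∈ D)
    {T : (Fin (2 * n) → ℝ) ≃L[ℝ] Cn n} (hT : ∀ s, T s = ∑ k, s k • l k y0) :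
    HTor A T (fun s => Ψ (y0, T s)) := by
  have hmem : ∀ z : Cn n, (y0, z) ∈ D ×ˢ (univ : Set (Cn n)) := fun z => ⟨hy0, mem_univ _⟩
  have hcont : Continuous fun z : Cn n => Ψ (y0, z) := by
    rw [continuous_iff_continuousAt]
    intro z
    exact ContinuousAt.comp (f := fun z : Cn n => (y0, z))
      ((h.sm.cont _ (hmem z)).continuousAt (h.sm.op.mem_nhds (hmem z)))
      (continuousAt_const.prodMk continuousAt_id)
  -- the derivative in the charts of `C`
  have hC : ∀ (i : C.ι) (z : Cn n), Ψ (y0, z) ∈ (C.e i).source →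
      HasFDerivAt (fun z => C.e i (Ψ (y0, z)))
        ((fderiv ℝ (fun q => C.e i (Ψ q)) (y0, z)).comp (ContinuousLinearMap.inr ℝ (Cn n) (Cn n)))
        z := by
    intro i z hi
    have h1 := (h.sm.diffAt (i := i) (hmem z) hi).hasFDerivAt
    have h2 : HasFDerivAt (fun z : Cn n => (y0, z)) (ContinuousLinearMap.inr ℝ (Cn n) (Cn n)) z :=
      (hasFDerivAt_const y0 z).prodMk (hasFDerivAt_id z)
    exact HasFDerivAt.comp (g := fun q => C.e i (Ψ q)) z h1 h2
  -- the derivative in the charts of `A`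
  have hA : ∀ (a : A.ι) (z : Cn n), Ψ (y0, z) ∈ (A.e a).source →
      ∃ L : Cn n →L[ℝ] Cn d, HasFDerivAt (fun z => A.e a (Ψ (y0, z))) L z ∧
        (∀ v, L (I • v) = I • L v) ∧ Function.Injective L := by
    intro a z ha
    obtain ⟨i, hi⟩ := C.cover (Ψ (y0, z))
    have h1 := hC i z hi
    have h2 := fderiv_chart (F := fun z => Ψ (y0, z)) (C' := ofAtl A) (a := a) hJ.cmp
      hcont.continuousAt hi ha h1.differentiableAt
    have h3 : ContDiffAt ℝ 1 (fun z => C.e i (Ψ (y0, z))) z := by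
      have h4 := (h.sm.smAt (i := i) (hmem z) hi).of_le (m := 1) (by simp)
      exact ContDiffAt.comp (g := fun q => C.e i (Ψ q)) z h4 (contDiffAt_const.prodMk contDiffAt_id)
    have h5 := contDiffAt_chart (F := fun z => Ψ (y0, z)) (C' := ofAtl A) (a := a) hJ.cmp
      (by simp) hcont.continuousAt hi ha h3
    have h6 : HasFDerivAt (fun z => A.e a (Ψ (y0, z)))
        (fderiv ℝ (fun z => A.e a (Ψ (y0, z))) z) z :=
      (h5.differentiableAt (by norm_num)).hasFDerivAt
    have h7 : fderiv ℝ (fun z => A.e a (Ψ (y0, z))) z =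
        (fderiv ℝ (mt (ofAtl A) C a i) (C.e i (Ψ (y0, z)))).comp
          ((fderiv ℝ (fun q => C.e i (Ψ q)) (y0, z)).comp
            (ContinuousLinearMap.inr ℝ (Cn n) (Cn n))) := by
      rw [← h1.fderiv]; exact h2
    rw [h7] at h6
    refine ⟨_, h6, ?_, ?_⟩
    · intro v
      show fderiv ℝ (mt (ofAtl A) C a i) (C.e i (Ψ (y0, z)))
        (fderiv ℝ (fun q => C.e i (Ψ q)) (y0, z) (0, I • v)) = I •
        fderiv ℝ (mt (ofAtl A) C a i) (C.e i (Ψ (y0, z)))
          (fderiv ℝ (fun q => C.e i (Ψ q)) (y0, z) (0, v))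
      have h8 : ((0, I • v) : Cn n × Cn n) = I • ((0, v) : Cn n × Cn n) := by simp
      rw [h8, h.hol (y0, z) hy0 i hi, (relJ_iM hJ).inv hJ.cmp hi ha]
      rfl
    · have h9 : Function.Injective (ContinuousLinearMap.inr ℝ (Cn n) (Cn n)) := fun u v huv =>
        congrArg Prod.snd huv
      exact (dmt_inj (C' := ofAtl A) hJ.cmp hi ha).comp ((h.inj (y0, z) hy0 i hi).comp h9)
  exact
  { cont := hcont.comp T.continuous
    per := fun k s => by
      refine (h.eq_iff y0 hy0 y0 hy0 _ _).2 ⟨rfl, k, ?_⟩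
      rw [map_add, add_sub_cancel_left, hT]
    hol := fun a z ha => by
      simp only [T.apply_symm_apply] at ha ⊢
      obtain ⟨L, h1, h2, -⟩ := hA a z ha
      exact (hasFDerivAt_toCL h1 h2).differentiableAt
    inj := fun a z ha => by
      simp only [T.apply_symm_apply] at ha ⊢
      obtain ⟨L, h1, h2, h3⟩ := hA a z ha
      rw [(hasFDerivAt_toCL h1 h2).fderiv]
      exact h3 }

/-- **exists_mtor**, forms version -/
theorem exists_mtor_of [FiniteDimensional ℝ V] (hd : Module.finrank ℝ V = 2 * (2 * n))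
    (h : HolTube C J w w' n D Ψ l τ) {Q : F2 C →ₗ[ℝ] F2 C →ₗ[ℝ] ℝ} {e : F2 C}
    (hP : PVT Q e D Ψ l) (hJ : JC C J A) (hS1 : Sy w w' J) (hy0 : y0 ∈ D)
    {P : Type*} {L : Filter P} {xp yp : P → F2 C} {Ip : P → C.ι → V → V →L[ℝ] V}
    (hS : ∀ᶠ p in L, Sy (xp p) (yp p) (Ip p)) (hx : TC2 L xp w) (hy : TC2 L yp w')
    (hqx : ∀ᶠ p in L, Q (xp p) e = 0) (hqy : ∀ᶠ p in L, Q (yp p) e = 0)
    {Dp : P → MovD A} (hD : ∀ᶠ p in L, RelJ C A (Ip p) (Dp p))
    {T : (Fin (2 * n) → ℝ) ≃L[ℝ] Cn n} (hT : ∀ s, T s = ∑ k, s k • l k y0) (z : Cn n) :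
    ∃ t : MTor (Fin (2 * n)) n L Dp (Ψ (y0, z)), t.T = T ∧ t.F0 = fun s => Ψ (y0, T s) := by
  obtain ⟨r, Y, Psi, Cc, hp, -, -, -, hPsi, -, -⟩ := OTB_280.exists_Prd hd h hy0
  obtain ⟨F, Jt, hM, hM1, hF, hDF, hJt⟩ := open_tori hp hd hS1 hS hx hy
    (hqx.mono fun p hq j k => OtP_16.mn_of_prd h hP hy0 hp hPsi hq j k)
    (hqy.mono fun p hq j k => OtP_16.mn_of_prd h hP hy0 hp hPsi hq j k)
  have e0 : ∀ s : Fin (2 * n) → ℝ, Psi (eN (2 * n) s, 0) = Ψ (y0, T s) := by
    intro s
    rw [hPsi, hT]; rfl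
  have e1 : (fun s => Ψ (y0, T s)) = fun s : Fin (2 * n) → ℝ => Psi (eN (2 * n) s, 0) :=
    funext fun s => (e0 s).symm
  refine ⟨{ T := T
            F := fun p s => F p (eN (2 * n) s)
            J := fun p s => cj (Jt p (eN (2 * n) s))
            F0 := fun s => Ψ (y0, T s)
            J0 := cj (-(ContinuousLinearMap.adjoint Cc))
            tor := ?_
            cF := ?_
            cDF := ?_
            cJ := ?_
            h := hTor_of h hJ hy0 hT
            mem := ⟨T.symm z, by simp⟩ }, rfl, rfl⟩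
  · filter_upwards [hM, hD] with p hp hp'
    exact torF_of hJ.cmp hp' hp
  · intro s
    rw [e1]
    exact cc_eN (f0 := fun θ => Psi (θ, 0)) hF s
  · intro s a ha
    have ha' : Psi (eN (2 * n) s, 0) ∈ (A.e a).source := by rw [e0]; exact ha
    have h1 := cD_chart (ofAtl A) hJ.cmp hM hM1 hF hDF (θ := eN (2 * n) s) (a := a) ha'
    have h2 : Tendsto (fun q : P × (Fin (2 * n) → ℝ) => (q.1, eN (2 * n) q.2)) (L ×ˢ 𝓝 s)
        (L ×ˢ 𝓝 (eN (2 * n) s)) :=
      tendsto_fst.prodMk (((eN (2 * n)).continuous.tendsto s).comp tendsto_snd)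
    have h3 := h1.comp h2
    have h4 := tendsto_compL h3 (tendsto_const_nhds
      (x := ((eN (2 * n) : (Fin (2 * n) → ℝ) →L[ℝ] VN (2 * n)))))
    have hdiff : ∀ {x y : F2 C} {I : C.ι → V → V →L[ℝ] V} {F : VN (2 * n) → X}
        {J : VN (2 * n) → VN (2 * n) →L[ℝ] VN (2 * n)}, TorM x y I F J → ∀ s : Fin (2 * n) → ℝ,
        F (eN (2 * n) s) ∈ (A.e a).source →
        fderiv ℝ (fun y => A.e a (F (eN (2 * n) y))) s =
          (fderiv ℝ (fun y => A.e a (F y)) (eN (2 * n) s)).comp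
            (eN (2 * n) : (Fin (2 * n) → ℝ) →L[ℝ] VN (2 * n)) := by
      intro x y I F J hM s hs
      obtain ⟨i, hi⟩ := C.cover (F (eN (2 * n) s))
      have h5 : ContDiffAt ℝ 1 (fun y => A.e a (F y)) (eN (2 * n) s) :=
        contDiffAt_chart (C' := ofAtl A) hJ.cmp (by simp) hM.cont.continuousAt hi hs
          (hM.c1 _ i hi)
      exact fd_eN (h5.differentiableAt (by norm_num))
    have h5 := hdiff hM1 s ha'
    show Tendsto (fun q : P × (Fin (2 * n) → ℝ) =>
      fderiv ℝ (fun y => A.e a (F q.1 (eN (2 * n) y))) q.2) (L ×ˢ 𝓝 s)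
      (𝓝 (fderiv ℝ (fun y => A.e a (Ψ (y0, T y))) s))
    have h6 : (fun y => A.e a (Ψ (y0, T y))) = fun y => A.e a (Psi (eN (2 * n) y, 0)) := by
      funext y; rw [e0]
    rw [h6, h5]
    refine h4.congr' ?_
    have h7 : ∀ᶠ q : P × (Fin (2 * n) → ℝ) in L ×ˢ 𝓝 s,
        F q.1 (eN (2 * n) q.2) ∈ (A.e a).source :=
      ((hF (eN (2 * n) s)).comp h2).eventually ((A.e a).open_source.mem_nhds ha')
    filter_upwards [h7, tendsto_fst.eventually hM] with q hq hq'
    exact (hdiff hq' q.2 hq).symm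
  · intro s
    exact (continuous_cj.tendsto _).comp (cc_eN
      (f0 := fun _ => -(ContinuousLinearMap.adjoint Cc)) hJt s)

end

end Crest.Agent.R281.OT_763
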