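import Mathlib

/-!
# R281, OPEN-INST (M1') (helper396), part 3: families of functions which vanish at the centre

* `contDiffOn_iteratedFDeriv_snd` : `(q, z) ↦ iteratedFDeriv m (f q) z` is smooth;
* `eventually_small` : **(M1')** if `f` is smooth near `{q1} × U` and `f q1 = 0` on `U` then all
  derivatives of `f q` are uniformly small on compact subsets of `U`, for `q` near `q1`.
-/

set_option autoImplicit false
set_option linter.unusedSectionVars false

open Set Filter Topology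
open scoped ContDiff

namespace Crest.Agent.R281.OpN396

noncomputable section

variable {Q E G : Type*} [NormedAddCommGroup Q] [NormedSpace ℝ Q]
  [NormedAddCommGroup E] [NormedSpace ℝ E] [NormedAddCommGroup G] [NormedSpace ℝ G]

/-- the partial derivative in the second variable -/
theorem fderiv_snd_eq {f : Q → E → G} {W : Set (Q × E)} (hW : IsOpen W)
    (hf : ContDiffOn ℝ ∞ (fun y : Q × E => f y.1 y.2) W) {q : Q} {z : E} (hy : (q, z) ∈ W) :
    fderiv ℝ (f q) z =
      (fderiv ℝ (fun y : Q × E => f y.1 y.2) (q, z)).comp (ContinuousLinearMap.inr ℝ Q E) := by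
  have h1 : HasFDerivAt (fun y : Q × E => f y.1 y.2)
      (fderiv ℝ (fun y : Q × E => f y.1 y.2) (q, z)) (q, z) :=
    ((hf.contDiffAt (hW.mem_nhds hy)).differentiableAt (by simp)).hasFDerivAt
  have h2 : HasFDerivAt (fun w : E => (q, w)) (ContinuousLinearMap.inr ℝ Q E) z :=
    hasFDerivAt_prodMk_right q z
  exact (h1.comp z h2).fderiv

/-- the partial derivative in the second variable is smooth -/
theorem contDiffOn_fderiv_snd {f : Q → E → G} {W : Set (Q × E)} (hW : IsOpen W)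
    (hf : ContDiffOn ℝ ∞ (fun y : Q × E => f y.1 y.2) W) :
    ContDiffOn ℝ ∞ (fun y : Q × E => fderiv ℝ (f y.1) y.2) W := by
  have h1 : ContDiffOn ℝ ∞ (fderiv ℝ (fun y : Q × E => f y.1 y.2)) W :=
    hf.fderiv_of_isOpen hW (by simp)
  have h2 : ContDiffOn ℝ ∞ (fun y : Q × E =>
      (fderiv ℝ (fun y : Q × E => f y.1 y.2) y).comp (ContinuousLinearMap.inr ℝ Q E)) W :=
    h1.clm_comp contDiffOn_const
  refine h2.congr fun y hy => ?_
  exact fderiv_snd_eq hW hf (q := y.1) (z := y.2) hy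

/-- all the derivatives in the second variable are smooth -/
theorem contDiffOn_iteratedFDeriv_snd (m : ℕ) {f : Q → E → G} {W : Set (Q × E)} (hW : IsOpen W)
    (hf : ContDiffOn ℝ ∞ (fun y : Q × E => f y.1 y.2) W) :
    ContDiffOn ℝ ∞ (fun y : Q × E => iteratedFDeriv ℝ m (f y.1) y.2) W := by
  induction m with
  | zero =>
    have h1 : (fun y : Q × E => iteratedFDeriv ℝ 0 (f y.1) y.2) =
        fun y => (continuousMultilinearCurryFin0 ℝ E G).symm (f y.1 y.2) := by
      funext y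
      rw [iteratedFDeriv_zero_eq_comp]
      rfl
    rw [h1]
    exact (continuousMultilinearCurryFin0 ℝ E G).symm.contDiff.comp_contDiffOn hf
  | succ m ih =>
    have h1 : (fun y : Q × E => iteratedFDeriv ℝ (m + 1) (f y.1) y.2) =
        fun y => (continuousMultilinearCurryLeftEquiv ℝ (fun _ : Fin (m + 1) => E) G).symm
          (fderiv ℝ (iteratedFDeriv ℝ m (f y.1)) y.2) := by
      funext y
      rw [iteratedFDeriv_succ_eq_comp_left]
      rfl
    rw [h1]
    have h2 : ContDiffOn ℝ ∞ (fun y : Q × E => fderiv ℝ (iteratedFDeriv ℝ m (f y.1)) y.2) W :=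
      contDiffOn_fderiv_snd (f := fun q z => iteratedFDeriv ℝ m (f q) z) hW ih
    exact (continuousMultilinearCurryLeftEquiv ℝ (fun _ : Fin (m + 1) => E) G).symm.contDiff
      |>.comp_contDiffOn h2

/-- uniform smallness near a compact set of a continuous function vanishing on it -/
theorem eventually_small_of_continuousOn {X : Type*} [TopologicalSpace X] {Y : Type*}
    [TopologicalSpace Y] {N : Type*} [NormedAddCommGroup N] {g : X × Y → N} {W : Set (X × Y)}
    (hW : IsOpen W) (hg : ContinuousOn g W) {q1 : X} {K : Set Y} (hK : IsCompact K)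
    (hKW : ∀ z ∈ K, (q1, z) ∈ W) (h0 : ∀ z ∈ K, g (q1, z) = 0) {ε : ℝ} (hε : 0 < ε) :
    ∀ᶠ q in 𝓝 q1, ∀ z ∈ K, (q, z) ∈ W ∧ ‖g (q, z)‖ ≤ ε := by
  have h1 : ∀ z ∈ K, ∀ᶠ y in 𝓝 (q1, z), y ∈ W ∧ ‖g y‖ ≤ ε := by
    intro z hz
    have h2 : ContinuousAt g (q1, z) := hg.continuousAt (hW.mem_nhds (hKW z hz))
    have h3 : ∀ᶠ y in 𝓝 (q1, z), ‖g y‖ < ε := by
      have h4 : Tendsto (fun y => ‖g y‖) (𝓝 (q1, z)) (𝓝 0) := by
        have := h2.norm.tendsto
        rwa [h0 z hz, norm_zero] at this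
      exact h4.eventually (gt_mem_nhds hε)
    filter_upwards [h3, hW.mem_nhds (hKW z hz)] with y hy hy'
    exact ⟨hy', hy.le⟩
  have h5 : ∀ᶠ y in 𝓝 q1 ×ˢ 𝓝ˢ K, y ∈ W ∧ ‖g y‖ ≤ ε := by
    rw [← nhdsSet_singleton, ← isCompact_singleton.nhdsSet_prod_eq hK]
    rw [Filter.Eventually, mem_nhdsSet_iff_forall]
    rintro ⟨a, z⟩ ⟨ha, hz⟩
    have ha' : a = q1 := ha
    subst ha'
    exact h1 z hz
  obtain ⟨p, hp, r, hr, h6⟩ := Filter.eventually_prod_iff.1 h5
  filter_upwards [hp] with q hq z hz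
  exact h6 hq (subset_of_mem_nhdsSet hr hz)

/-- **(M1')** uniform smallness of all derivatives -/
theorem eventually_small {f : Q → E → G} {W : Set (Q × E)} (hW : IsOpen W)
    (hf : ContDiffOn ℝ ∞ (fun y : Q × E => f y.1 y.2) W) {q1 : Q} {U : Set E} (hU : IsOpen U)
    (hUW : ∀ z ∈ U, (q1, z) ∈ W) (h0 : ∀ z ∈ U, f q1 z = 0) {K : Set E} (hK : IsCompact K)
    (hKU : K ⊆ U) (m : ℕ) {ε : ℝ} (hε : 0 < ε) :
    ∀ᶠ q in 𝓝 q1, ∀ z ∈ K, ‖iteratedFDeriv ℝ m (f q) z‖ ≤ ε := by
  have h1 := (contDiffOn_iteratedFDeriv_snd m hW hf).continuousOn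
  refine (eventually_small_of_continuousOn hW h1 hK (fun z hz => hUW z (hKU hz)) (fun z hz => ?_)
    hε).mono fun q hq z hz => (hq z hz).2
  have h2 : f q1 =ᶠ[𝓝 z] fun _ => (0 : G) := by
    filter_upwards [hU.mem_nhds (hKU hz)] with w hw
    exact h0 w hw
  show iteratedFDeriv ℝ m (f q1) z = 0
  rw [(h2.iteratedFDeriv (𝕜 := ℝ) m).eq_of_nhds, iteratedFDeriv_fun_zero]
  rfl

/-- the same for all orders `≤ s` -/
theorem eventually_small_le {f : Q → E → G} {W : Set (Q × E)} (hW : IsOpen W)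
    (hf : ContDiffOn ℝ ∞ (fun y : Q × E => f y.1 y.2) W) {q1 : Q} {U : Set E} (hU : IsOpen U)
    (hUW : ∀ z ∈ U, (q1, z) ∈ W) (h0 : ∀ z ∈ U, f q1 z = 0) {K : Set E} (hK : IsCompact K)
    (hKU : K ⊆ U) (s : ℕ) {ε : ℝ} (hε : 0 < ε) :
    ∀ᶠ q in 𝓝 q1, ∀ m ≤ s, ∀ z ∈ K, ‖iteratedFDeriv ℝ m (f q) z‖ ≤ ε := by
  have h1 := (Finset.range (s + 1)).eventually_all.2 fun m _ =>
    eventually_small hW hf hU hUW h0 hK hKU m hε
  exact h1.mono fun q hq m hm => hq m (Finset.mem_range.2 (by omega))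

/-- the variant with a centre which need not vanish: closeness of all derivatives -/
theorem eventually_close_le {f : Q → E → G} {W : Set (Q × E)} (hW : IsOpen W)
    (hf : ContDiffOn ℝ ∞ (fun y : Q × E => f y.1 y.2) W) {q1 : Q} {K : Set E} (hK : IsCompact K)
    (hKW : ∀ z ∈ K, (q1, z) ∈ W) (s : ℕ) {ε : ℝ} (hε : 0 < ε) :
    ∀ᶠ q in 𝓝 q1, ∀ m ≤ s, ∀ z ∈ K,
      ‖iteratedFDeriv ℝ m (f q) z - iteratedFDeriv ℝ m (f q1) z‖ ≤ ε := by
  have key : ∀ m : ℕ, ∀ᶠ q in 𝓝 q1, ∀ z ∈ K,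
      ‖iteratedFDeriv ℝ m (f q) z - iteratedFDeriv ℝ m (f q1) z‖ ≤ ε := by
    intro m
    have h1 := (contDiffOn_iteratedFDeriv_snd m hW hf).continuousOn
    have hV : IsOpen {y : Q × E | (q1, y.2) ∈ W} :=
      hW.preimage (continuous_const.prodMk continuous_snd)
    have h2 : ContinuousOn (fun y : Q × E => iteratedFDeriv ℝ m (f y.1) y.2 -
        iteratedFDeriv ℝ m (f q1) y.2) (W ∩ {y : Q × E | (q1, y.2) ∈ W}) := by
      refine (h1.mono inter_subset_left).sub ?_
      exact h1.comp (f := fun y : Q × E => (q1, y.2))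
        (continuous_const.prodMk continuous_snd).continuousOn fun y hy => hy.2
    exact (eventually_small_of_continuousOn (hW.inter hV) h2 hK
      (fun z hz => ⟨hKW z hz, hKW z hz⟩) (fun z _ => sub_self _) hε).mono
        fun q hq z hz => (hq z hz).2
  have h1 := (Finset.range (s + 1)).eventually_all.2 fun m _ => key m
  exact h1.mono fun q hq m hm => hq m (Finset.mem_range.2 (by omega))

end

end Crest.Agent.R281.OpN396
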