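import Crest.Agent.R281.OT8_763
import Crest.Agent.R281.OpN3_396
import Crest.Agent.R281.RkD_902

/-!
# Row 281, OPEN-TORI (helper763), part 9: the literal forms for `OpenP`

* `tc2_of_sm`   : a jointly smooth family of closed 2-forms converges in `C²`
* `exists_mtor` : `HolTube`/`PVT` at `H q1`, `SmB O H`: `MTor` along every `π → q1`
* `exists_mtor_box` : the same for the box of 902
-/

set_option autoImplicit false
set_option maxSynthPendingDepth 3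
set_option linter.unusedSectionVars false

open Set Filter Topology Complex
open scoped ContDiff

namespace Crest.Agent.R281.OT_763

open Crest.Agent.R281.HkR_835 Crest.Agent.R281.Per_368 Crest.Agent.R281.PL_713
open Crest.Agent.R281.Ti_846 Crest.Agent.R281.Cdr_234 Crest.Agent.R281.Dif_268
open Crest.Agent.R275.Geo (Cn Atl)
open Crest.Agent.R281.Op3_569 (MovD TorF CC)
open Crest.Agent.R281.OpT_330 (HTor MTor)
open Crest.Agent.R281.Tub_831 (HolTube PVT)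
open Crest.Agent.R281.RkD_902 (SmB Box Ctx Given lco)
open Crest.Agent.R281.NefO_476 (ofHk)

noncomputable section

variable {V X : Type} [NormedAddCommGroup V] [NormedSpace ℝ V] [TopologicalSpace X] {C : RCh V X}

/-- a jointly smooth family converges in `C²` -/
theorem tc2_of_sm {E : Type*} [NormedAddCommGroup E] [NormedSpace ℝ E] {O : Set E} (hO : IsOpen O)
    {q1 : E} (hq : q1 ∈ O) {w : E → F2 C}
    (hw : ∀ i, ContDiffOn ℝ ∞ (fun y : E × V => (w y.1).w i y.2) (O ×ˢ (C.e i).target)) :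
    TC2 (𝓝 q1) w (w q1) := by
  rw [tc2_iff]
  intro i z hz
  have hW : IsOpen (O ×ˢ (C.e i).target) := hO.prod (C.e i).open_target
  have hm : (q1, z) ∈ O ×ˢ (C.e i).target := ⟨hq, hz⟩
  have h0 := hw i
  have h1 := OpN396.contDiffOn_fderiv_snd (f := fun q z => (w q).w i z) hW h0
  have h2 := OpN396.contDiffOn_fderiv_snd (f := fun q z => fderiv ℝ ((w q).w i) z) hW h1
  have key : ∀ {G : Type _} [NormedAddCommGroup G] [NormedSpace ℝ G] {f : E × V → G},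
      ContDiffOn ℝ ∞ f (O ×ˢ (C.e i).target) → Tendsto f (𝓝 q1 ×ˢ 𝓝 z) (𝓝 (f (q1, z))) := by
    intro G _ _ f hf
    rw [← nhds_prod_eq]
    exact (hf.continuousOn.continuousAt (hW.mem_nhds hm)).tendsto
  exact ⟨key h0, key h1, key h2⟩

/-- `RelJ` from a field of endomorphisms in the charts of `A` (396's `Jx`, 941's `pJ`) -/
theorem relJ_of {d : ℕ} {A : Atl d X} {I : C.ι → V → V →L[ℝ] V}
    {J' : A.ι → Cn d → Cn d →L[ℝ] Cn d} {D : MovD A}
    (hDI : ∀ a, ∀ x ∈ (A.e a).source, D.I a x = J' a (A.e a x))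
    (h : ∀ i a, ∀ z ∈ mov C (ofAtl A) i a, ∀ v : Cn d,
      fderiv ℝ (mt C (ofAtl A) i a) z (J' a z v) =
        I i (mt C (ofAtl A) i a z) (fderiv ℝ (mt C (ofAtl A) i a) z v)) : RelJ C A I D := by
  intro i a z hz v
  have h1 : z ∈ (A.e a).target := hz.1
  rw [hDI a _ ((A.e a).map_target h1), (A.e a).right_inv h1]
  exact h i a z hz v

variable {n d : ℕ} {A : Atl d X} {D : Set (Cn n)} {Ψ : Cn n × Cn n → X}
  {l : Fin (2 * n) → Cn n → Cn n} {τ : Cn n → Cn n → Cn n → ℂ} {y0 : Cn n}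

/-- **exists_mtor**: families of hyperkaehler structures -/
theorem exists_mtor [FiniteDimensional ℝ V] (hd : Module.finrank ℝ V = 2 * (2 * n))
    {E : Type} [NormedAddCommGroup E] [NormedSpace ℝ E] {O : Set E} (hO : IsOpen O) {q1 : E}
    (hq : q1 ∈ O) {H : E → HkT C} (sm : SmB O H) {Q : F2 C →ₗ[ℝ] F2 C →ₗ[ℝ] ℝ} {e : F2 C}
    (h : HolTube C ((H q1).J 0) ((H q1).om 1) ((H q1).om 2) n D Ψ l τ)
    (hP : PVT Q e D Ψ l) (hJ : JC C ((H q1).J 0) A) (h1 : ∀ q ∈ O, Q ((H q).om 1) e = 0)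
    (h2 : ∀ q ∈ O, Q ((H q).om 2) e = 0) {α : Type*} {L : Filter α} {π : α → E}
    (hπ : Tendsto π L (𝓝 q1)) {Dp : α → MovD A}
    (hD : ∀ᶠ a in L, RelJ C A ((H (π a)).J 0) (Dp a)) (hy0 : y0 ∈ D)
    {T : (Fin (2 * n) → ℝ) ≃L[ℝ] Cn n} (hT : ∀ s, T s = ∑ k, s k • l k y0) (z : Cn n) :
    ∃ t : MTor (Fin (2 * n)) n L Dp (Ψ (y0, z)), t.T = T ∧ t.F0 = fun s => Ψ (y0, T s) := by
  have hOe : ∀ᶠ a in L, π a ∈ O := hπ.eventually (hO.mem_nhds hq)
  exact exists_mtor_of hd h hP hJ (sy_hkT (H q1) (Or.inl rfl)) hy0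
    (xp := fun a => (H (π a)).om 1) (yp := fun a => (H (π a)).om 2)
    (Ip := fun a => (H (π a)).J 0)
    (Eventually.of_forall fun a => sy_hkT (H (π a)) (Or.inl rfl))
    ((tc2_of_sm (w := fun q => (H q).om 1) hO hq (sm.om 1)).comp_tendsto hπ)
    ((tc2_of_sm (w := fun q => (H q).om 2) hO hq (sm.om 2)).comp_tendsto hπ)
    (hOe.mono fun a ha => h1 _ ha) (hOe.mono fun a ha => h2 _ ha) hD hT z

/-- **exists_mtor** for the box -/
theorem exists_mtor_box {X : Type} [TopologicalSpace X] [CompactSpace X] {n : ℕ}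
    {C : RCh (Cn (2 * n)) X} {d : ℕ} {A : Atl d X}
    {D : Set (Cn n)} {Ψ : Cn n × Cn n → X}
    {l : Fin (2 * n) → Cn n → Cn n} {τ : Cn n → Cn n → Cn n → ℂ} {y0 : Cn n}
    {Q : F2 C →ₗ[ℝ] F2 C →ₗ[ℝ] ℝ} (hc : Ctx n C Q) {H0 : HkT C}
    {e : F2 C} (B : Box Q H0 e) {b c : Fin B.m → ℝ} (hb : b ∈ B.B) (hcD : c ∈ B.D)
    (h : HolTube C ((B.H b c).J 0) ((B.H b c).om 1) ((B.H b c).om 2) n D Ψ l τ)
    (hP : PVT Q e D Ψ l) (hJ : JC C ((B.H b c).J 0) A)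
    {α : Type*} {L : Filter α} {π : α → (Fin B.m → ℝ) × (Fin B.m → ℝ)}
    (hπ : Tendsto π L (𝓝 (b, c))) {Dp : α → MovD A}
    (hD : ∀ᶠ a in L, RelJ C A ((B.H (π a).1 (π a).2).J 0) (Dp a)) (hy0 : y0 ∈ D)
    {T : (Fin (2 * n) → ℝ) ≃L[ℝ] Cn n} (hT : ∀ s, T s = ∑ k, s k • l k y0) (z : Cn n) :
    ∃ t : MTor (Fin (2 * n)) n L Dp (Ψ (y0, z)), t.T = T ∧ t.F0 = fun s => Ψ (y0, T s) := by
  have hQ : ∀ x y : F2 C, Crest.Agent.R281.Alg_998.Cl x y → Q x e = Q y e := by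
    intro x y hxy
    have h1 := hc.ex (x - y) e hxy
    rw [map_sub, LinearMap.sub_apply, sub_eq_zero] at h1
    exact h1
  have hl : ∀ b : Fin B.m → ℝ, Q (lco B.bas b) e = 0 := by
    intro b
    unfold RkD_902.lco
    rw [map_sum, LinearMap.sum_apply]
    refine Finset.sum_eq_zero fun j _ => ?_
    rw [map_smul, LinearMap.smul_apply, B.orth, smul_zero]
  have hfin : Module.finrank ℝ (Cn (2 * n)) = 2 * (2 * n) := by
    rw [← Module.finrank_mul_finrank ℝ ℂ, Complex.finrank_real_complex, finrank_euclideanSpace,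
      Fintype.card_fin]
  refine exists_mtor (H := fun q : (Fin B.m → ℝ) × (Fin B.m → ℝ) => B.H q.1 q.2)
    (q1 := (b, c)) hfin (B.oB.prod B.oD) ⟨hb, hcD⟩ B.sm h hP hJ ?_ ?_ hπ hD hy0 hT z
  · rintro ⟨b', c'⟩ ⟨hb', hc'⟩
    obtain ⟨s, -, hs⟩ := B.cl1 b' hb' c' hc'
    rw [hQ _ _ hs, map_smul, LinearMap.smul_apply, hl, smul_zero]
  · rintro ⟨b', c'⟩ ⟨hb', hc'⟩
    obtain ⟨s, t, -, hs⟩ := B.cl2 b' hb' c' hc'
    rw [hQ _ _ hs, map_add, LinearMap.add_apply, map_smul, map_smul, LinearMap.smul_apply,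
      LinearMap.smul_apply, hl, hl, smul_zero, smul_zero, add_zero]

end

end Crest.Agent.R281.OT_763
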