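import Crest.Agent.R281.TubT_831
import Crest.Agent.R281.Mc5_673
import Crest.Agent.R266.Osgood

/-!
# Row 281, OPEN-TORI, part (OT-B) (helper280, second hand of helper763): real coordinates on a
holomorphic tube of Lagrangian tori

* `SmI.comp`, `pull_comp`   : composition of a smooth map into `X` with a smooth map
* `exists_dual`             : `v_j = - Re ∑ l_j y`, the real dual coordinates of a period basis
* `exists_prd`              : `Ψ (θ, v) = Ψ (y₀ + Y v, ∑ θ_j l_j (y₀ + Y v))`
-/

set_option autoImplicit false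
set_option linter.unusedSectionVars false
set_option maxSynthPendingDepth 3

open Set Filter Topology Complex
open scoped ContDiff

namespace Crest.Agent.R281.OTB_280

open Crest.Agent.R275.Geo (Cn)
open Crest.Agent.R281.HkR_835 Crest.Agent.R281.Per_368 Crest.Agent.R281.Tub_831
open Crest.Agent.R281.Mc673 (V W tube kv)

noncomputable section

section comp

variable {M X : Type} [NormedAddCommGroup M] [NormedSpace ℝ M] [TopologicalSpace X]
variable {E E' : Type*} [NormedAddCommGroup E] [NormedSpace ℝ E] [NormedAddCommGroup E']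
  [NormedSpace ℝ E'] {C : RCh M X} {S : Set E} {S' : Set E'} {Φ : E → X} {g : E' → E}

/-- composition of a smooth map into `X` with a smooth map of vector spaces -/
theorem SmI.comp (h : SmI C S Φ) (hS' : IsOpen S') (hg : ContDiffOn ℝ ∞ g S')
    (hm : MapsTo g S' S) : SmI C S' (fun p => Φ (g p)) where
  op := hS'
  cont := h.cont.comp hg.continuousOn hm
  sm i := by
    have h1 : ContDiffOn ℝ ∞ ((fun ζ => C.e i (Φ ζ)) ∘ g)
        (S' ∩ (fun p => Φ (g p)) ⁻¹' (C.e i).source) :=
      (h.sm i).comp (hg.mono inter_subset_left) fun p hp => ⟨hm hp.1, hp.2⟩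
    exact h1

/-- the differential of the composition, in charts -/
theorem fderiv_comp_e (h : SmI C S Φ) (hS' : IsOpen S') (hg : ContDiffOn ℝ ∞ g S')
    (hm : MapsTo g S' S) {p : E'} (hp : p ∈ S') {i : C.ι} (hi : Φ (g p) ∈ (C.e i).source) :
    fderiv ℝ (fun q => C.e i (Φ (g q))) p =
      (fderiv ℝ (fun q => C.e i (Φ q)) (g p)).comp (fderiv ℝ g p) := by
  have h1 : HasFDerivAt (fun q => C.e i (Φ q)) _ (g p) := (h.diffAt (hm hp) hi).hasFDerivAt
  have h2 : HasFDerivAt g _ p :=
    ((hg.contDiffAt (hS'.mem_nhds hp)).differentiableAt (by simp)).hasFDerivAt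
  exact (HasFDerivAt.comp (g := fun q => C.e i (Φ q)) p h1 h2).fderiv

/-- the pull back by the composition -/
theorem pull_comp (h : SmI C S Φ) (hS' : IsOpen S') (hg : ContDiffOn ℝ ∞ g S')
    (hm : MapsTo g S' S) (w : F2 C) {p : E'} (hp : p ∈ S') (a b : E') :
    pull w (fun q => Φ (g q)) p a b = pull w Φ (g p) (fderiv ℝ g p a) (fderiv ℝ g p b) := by
  have hi := ci_mem C (Φ (g p))
  have h' := SmI.comp h hS' hg hm
  rw [h'.pull_eq w hp hi, h.pull_eq w (hm hp) hi, pl_apply, pl_apply,
    fderiv_comp_e h hS' hg hm hp hi]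
  rfl

end comp

section dual

variable {n : ℕ}

/-- the complex bilinear form -/
def bl (x y : Cn n) : ℂ := ∑ i, x i * y i

lemma bl_comm (x y : Cn n) : bl x y = bl y x := by
  unfold bl; exact Finset.sum_congr rfl fun i _ => mul_comm _ _

lemma bl_add (x y y' : Cn n) : bl x (y + y') = bl x y + bl x y' := by
  unfold bl
  rw [← Finset.sum_add_distrib]
  exact Finset.sum_congr rfl fun i _ => mul_add _ _ _

lemma bl_smulC (c : ℂ) (x y : Cn n) : bl x (c • y) = c * bl x y := by
  unfold bl
  rw [Finset.mul_sum]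
  refine Finset.sum_congr rfl fun i _ => ?_
  show x i * (c * y i) = _
  ring

lemma bl_smul (c : ℝ) (x y : Cn n) : bl x (c • y) = (c : ℂ) * bl x y := by
  rw [← bl_smulC]; rfl

lemma add_bl (x x' y : Cn n) : bl (x + x') y = bl x y + bl x' y := by
  rw [bl_comm, bl_add, bl_comm y x, bl_comm y x']

lemma smul_bl (c : ℝ) (x y : Cn n) : bl (c • x) y = (c : ℂ) * bl x y := by
  rw [bl_comm, bl_smul, bl_comm y x]

lemma bl_neg (x y : Cn n) : bl x (-y) = - bl x y := by
  have := bl_smulC (-1) x y
  simpa using this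

lemma bl_zero (x : Cn n) : bl x 0 = 0 := by simp [bl]

lemma zero_bl (x : Cn n) : bl 0 x = 0 := by simp [bl]

lemma sum_bl {ι : Type*} (s : Finset ι) (f : ι → Cn n) (y : Cn n) :
    bl (∑ j ∈ s, f j) y = ∑ j ∈ s, bl (f j) y := by
  classical
  induction s using Finset.induction_on with
  | empty => simp [zero_bl]
  | insert a s ha ih => rw [Finset.sum_insert ha, Finset.sum_insert ha, add_bl, ih]

/-- the real coordinates `- Re ∑ l_j y` -/
def dualL (l : Fin (2 * n) → Cn n) : Cn n →ₗ[ℝ] V (2 * n) where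
  toFun y := WithLp.toLp 2 fun j => -(bl (l j) y).re
  map_add' y y' := by
    ext j
    show -(bl (l j) (y + y')).re = -(bl (l j) y).re + -(bl (l j) y').re
    rw [bl_add, Complex.add_re]
    ring
  map_smul' c y := by
    ext j
    show -(bl (l j) (c • y)).re = c * -(bl (l j) y).re
    rw [bl_smul, Complex.re_ofReal_mul]
    ring

lemma dualL_apply (l : Fin (2 * n) → Cn n) (y : Cn n) (j : Fin (2 * n)) :
    dualL l y j = -(bl (l j) y).re := rfl

lemma finrank_Cn (n : ℕ) : Module.finrank ℝ (Cn n) = 2 * n := by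
  have := Module.finrank_mul_finrank ℝ ℂ (Cn n)
  rw [← this, Complex.finrank_real_complex, finrank_euclideanSpace_fin]

theorem dualL_inj {l : Fin (2 * n) → Cn n} (hl : LinearIndependent ℝ l) :
    Function.Injective (dualL l) := by
  rw [← LinearMap.ker_eq_bot, LinearMap.ker_eq_bot']
  intro y hy
  have hs : Submodule.span ℝ (Set.range l) = ⊤ :=
    hl.span_eq_top_of_card_eq_finrank' (by rw [finrank_Cn]; simp)
  have h0 : ∀ x : Cn n, (bl x y).re = 0 := by
    intro x
    have hx : x ∈ Submodule.span ℝ (Set.range l) := by rw [hs]; trivial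
    induction hx using Submodule.span_induction with
    | mem x hx =>
      obtain ⟨j, rfl⟩ := hx
      have := congrArg (fun v : V (2 * n) => v j) hy
      simp only [dualL_apply] at this
      have h2 : -(bl (l j) y).re = 0 := this
      linarith
    | zero => rw [zero_bl]; rfl
    | add a b _ _ ha hb => rw [add_bl, Complex.add_re, ha, hb, add_zero]
    | smul c a _ ha => rw [smul_bl, Complex.re_ofReal_mul, ha, mul_zero]
  have h1 := h0 (WithLp.toLp 2 fun i => (starRingEnd ℂ) (y i))
  have h2 : bl (WithLp.toLp 2 fun i => (starRingEnd ℂ) (y i)) y =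
      ∑ i, ((Complex.normSq (y i) : ℝ) : ℂ) := by
    refine Finset.sum_congr rfl fun i _ => ?_
    show (starRingEnd ℂ) (y i) * y i = _
    rw [mul_comm, Complex.mul_conj]
  rw [h2] at h1
  simp only [Complex.re_sum, Complex.ofReal_re] at h1
  have h3 : ∀ i, Complex.normSq (y i) = 0 := by
    intro i
    exact (Finset.sum_eq_zero_iff_of_nonneg fun i _ => Complex.normSq_nonneg _).1 h1 i
      (Finset.mem_univ i)
  ext i
  simpa using h3 i

/-- the inverse of the dual coordinates -/
theorem exists_dual {l : Fin (2 * n) → Cn n} (hl : LinearIndependent ℝ l) :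
    ∃ Y : V (2 * n) ≃L[ℝ] Cn n, ∀ v j, -(bl (l j) (Y v)).re = v j := by
  let P : Cn n ≃ₗ[ℝ] V (2 * n) :=
    LinearEquiv.ofInjectiveOfFinrankEq (dualL l) (dualL_inj hl)
      (by rw [finrank_Cn, finrank_euclideanSpace_fin])
  refine ⟨P.symm.toContinuousLinearEquiv, fun v j => ?_⟩
  have h1 : P (P.symm v) = v := P.apply_symm_apply v
  have h2 : dualL l (P.symm v) = v := by
    have : (P : Cn n →ₗ[ℝ] V (2 * n)) = dualL l :=
      LinearEquiv.coe_ofInjectiveOfFinrankEq _ _ _
    rw [← this]; exact h1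
  have h3 := congrArg (fun v : V (2 * n) => v j) h2
  simp only [dualL_apply] at h3
  exact h3

/-- the second pairing -/
def CcL (l : Fin (2 * n) → Cn n) (Y : V (2 * n) →L[ℝ] Cn n) : V (2 * n) →L[ℝ] V (2 * n) :=
  LinearMap.toContinuousLinearMap
  { toFun := fun v => WithLp.toLp 2 fun j => -(bl (l j) (Y v)).im
    map_add' := fun y y' => by
      ext j
      show -(bl (l j) (Y (y + y'))).im = -(bl (l j) (Y y)).im + -(bl (l j) (Y y')).im
      rw [map_add, bl_add, Complex.add_im]
      ring
    map_smul' := fun c y => by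
      ext j
      show -(bl (l j) (Y (c • y))).im = c * -(bl (l j) (Y y)).im
      rw [map_smul, bl_smul, Complex.im_ofReal_mul]
      ring }

lemma CcL_apply (l : Fin (2 * n) → Cn n) (Y : V (2 * n) →L[ℝ] Cn n) (v : V (2 * n))
    (j : Fin (2 * n)) : CcL l Y v j = -(bl (l j) (Y v)).im := rfl

theorem Y_CcL {l : Fin (2 * n) → Cn n} (hl : LinearIndependent ℝ l) {Y : V (2 * n) ≃L[ℝ] Cn n}
    (hY : ∀ v j, -(bl (l j) (Y v)).re = v j) (v : V (2 * n)) :
    Y (CcL l Y v) = -(I • Y v) := by
  apply dualL_inj hl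
  ext j
  rw [dualL_apply, hY, dualL_apply, CcL_apply, bl_neg, bl_smulC]
  simp

theorem CcL_CcL {l : Fin (2 * n) → Cn n} (hl : LinearIndependent ℝ l) {Y : V (2 * n) ≃L[ℝ] Cn n}
    (hY : ∀ v j, -(bl (l j) (Y v)).re = v j) (v : V (2 * n)) :
    CcL l Y (CcL l Y v) = -v := by
  apply Y.injective
  rw [Y_CcL hl hY, Y_CcL hl hY, map_neg, smul_neg, smul_smul, Complex.I_mul_I]
  simp

end dual

end

end Crest.Agent.R281.OTB_280
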