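import Crest.Agent.R281.OTB1_280

/-!
# Row 281, OPEN-TORI, part (OT-B) 2 (helper280): the real coordinates `(θ, v)` on a `HolTube`
-/

set_option autoImplicit false
set_option linter.unusedSectionVars false
set_option maxSynthPendingDepth 3

open Set Filter Topology Complex
open scoped ContDiff

namespace Crest.Agent.R281.OTB_280

open Crest.Agent.R275.Geo (Cn)
open Crest.Agent.R281.HkR_835 Crest.Agent.R281.Per_368 Crest.Agent.R281.Tub_831
open Crest.Agent.R281.Mc673 (V W tube kv ClF isOpen_tube)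

noncomputable section

variable {n : ℕ}

/-- the real coordinates of `Cn n × Cn n` over `D` -/
def GG (y0 : Cn n) (Y : V (2 * n) →L[ℝ] Cn n) (l : Fin (2 * n) → Cn n → Cn n)
    (p : W (2 * n)) : Cn n × Cn n :=
  (y0 + Y p.2, ∑ j, p.1 j • l j (y0 + Y p.2))

section G

variable {D : Set (Cn n)} {l : Fin (2 * n) → Cn n → Cn n} {y0 : Cn n}
  {Y : V (2 * n) ≃L[ℝ] Cn n} {r : ℝ}

theorem lsm (hD : IsOpen D) (hl : ∀ k, DifferentiableOn ℂ (l k) D) (k : Fin (2 * n)) :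
    ContDiffOn ℝ ∞ (l k) D :=
  ((Crest.Agent.R266.SCV.contDiffOn_omega_of_differentiableOn hD (hl k)).restrict_scalars ℝ).of_le
    le_top

theorem GG_sm (hD : IsOpen D) (hl : ∀ k, DifferentiableOn ℂ (l k) D)
    (hr : ∀ v : V (2 * n), ‖v‖ < r → y0 + Y v ∈ D) :
    ContDiffOn ℝ ∞ (GG y0 (Y : V (2 * n) →L[ℝ] Cn n) l) (tube (2 * n) r) := by
  have h1 : ContDiffOn ℝ ∞ (fun p : W (2 * n) => y0 + Y p.2) (tube (2 * n) r) := by
    refine (contDiff_const.add ?_).contDiffOn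
    exact Y.contDiff.comp contDiff_snd
  refine h1.prodMk ?_
  refine ContDiffOn.sum fun j _ => ?_
  have h2 : ContDiffOn ℝ ∞ (fun p : W (2 * n) => p.1 j) (tube (2 * n) r) :=
    (((EuclideanSpace.proj j : V (2 * n) →L[ℝ] ℝ).contDiff).comp contDiff_fst).contDiffOn
  have h3 : ContDiffOn ℝ ∞ (fun p : W (2 * n) => l j (y0 + Y p.2)) (tube (2 * n) r) :=
    (lsm hD hl j).comp h1 fun p hp => hr p.2 hp
  exact h2.smul h3

theorem GG_fd (hD : IsOpen D) (hl : ∀ k, DifferentiableOn ℂ (l k) D)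
    (hr : ∀ v : V (2 * n), ‖v‖ < r → y0 + Y v ∈ D) {p : W (2 * n)} (hp : p ∈ tube (2 * n) r)
    (u : W (2 * n)) :
    fderiv ℝ (GG y0 (Y : V (2 * n) →L[ℝ] Cn n) l) p u =
      (Y u.2, ∑ j, (p.1 j • fderiv ℝ (l j) (y0 + Y p.2) (Y u.2) +
        u.1 j • l j (y0 + Y p.2))) := by
  have h1 : HasFDerivAt (fun p : W (2 * n) => y0 + Y p.2)
      ((Y : V (2 * n) →L[ℝ] Cn n).comp (ContinuousLinearMap.snd ℝ (V (2 * n)) (V (2 * n)))) p :=
    (((Y : V (2 * n) →L[ℝ] Cn n).comp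
      (ContinuousLinearMap.snd ℝ (V (2 * n)) (V (2 * n)))).hasFDerivAt).const_add y0
  have h2 : ∀ j, HasFDerivAt (l j) (fderiv ℝ (l j) (y0 + Y p.2)) (y0 + Y p.2) := fun j =>
    (((lsm hD hl j).contDiffAt (hD.mem_nhds (hr p.2 hp))).differentiableAt
      (by simp)).hasFDerivAt
  have h3 : ∀ j, HasFDerivAt (fun p : W (2 * n) => l j (y0 + Y p.2)) _ p := fun j =>
    HasFDerivAt.comp (g := l j) p (h2 j) h1
  have h4 : ∀ j, HasFDerivAt (fun p : W (2 * n) => p.1 j)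
      ((EuclideanSpace.proj j : V (2 * n) →L[ℝ] ℝ).comp
        (ContinuousLinearMap.fst ℝ (V (2 * n)) (V (2 * n)))) p := fun j =>
    ((EuclideanSpace.proj j : V (2 * n) →L[ℝ] ℝ).comp
        (ContinuousLinearMap.fst ℝ (V (2 * n)) (V (2 * n)))).hasFDerivAt
  have h5 := HasFDerivAt.fun_sum (u := Finset.univ) fun j _ => (h4 j).smul (h3 j)
  have h6 := h1.prodMk h5
  have h7 : HasFDerivAt (GG y0 (Y : V (2 * n) →L[ℝ] Cn n) l) _ p := h6
  rw [h7.fderiv]
  refine Prod.ext rfl ?_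
  simp

end G

section tube

variable {M X : Type} [NormedAddCommGroup M] [NormedSpace ℝ M] [TopologicalSpace X]
variable {C : RCh M X} {J : C.ι → M → M →L[ℝ] M} {w w' : F2 C} {D : Set (Cn n)}
  {Ψ : Cn n × Cn n → X} {l : Fin (2 * n) → Cn n → Cn n} {τ : Cn n → Cn n → Cn n → ℂ}
  {y0 : Cn n} {Y : V (2 * n) ≃L[ℝ] Cn n} {r : ℝ}

theorem GG_maps (hr : ∀ v : V (2 * n), ‖v‖ < r → y0 + Y v ∈ D) :
    MapsTo (GG y0 (Y : V (2 * n) →L[ℝ] Cn n) l) (tube (2 * n) r) (D ×ˢ univ) :=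
  fun p hp => ⟨hr p.2 hp, mem_univ _⟩

/-- the form in the coordinates `(y, x)` -/
def sg (a b : Cn n × Cn n) : ℂ := bl a.2 b.1 - bl a.1 b.2

theorem symp' (h : HolTube C J w w' n D Ψ l τ) {p : Cn n × Cn n} (hp : p.1 ∈ D)
    (u v : Cn n × Cn n) :
    ((pull w Ψ p u v : ℝ) : ℂ) + I * ((pull w' Ψ p u v : ℝ) : ℂ) =
      sg u v + τ p.1 u.1 v.1 := by
  rw [h.symp p hp u v]
  unfold sg bl
  rw [← Finset.sum_sub_distrib]

theorem tau_zero (h : HolTube C J w w' n D Ψ l τ) {y : Cn n} (hy : y ∈ D) (a : Cn n) :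
    τ y a 0 = 0 := by
  have h1 := symp' h (p := (y, 0)) hy (a, 0) (0, 0)
  have h2 : ((a, 0) : Cn n × Cn n) = (a, 0) := rfl
  have h3 : (((0 : Cn n), (0 : Cn n)) : Cn n × Cn n) = 0 := rfl
  rw [h3, map_zero, map_zero] at h1
  simp only [sg, bl_zero, Prod.fst_zero, Prod.snd_zero] at h1
  simpa using h1.symm

/-- **real coordinates on a holomorphic tube of Lagrangian tori** -/
theorem exists_prd (h : HolTube C J w w' n D Ψ l τ) (hy0 : y0 ∈ D) :
    ∃ (r : ℝ) (Y : V (2 * n) ≃L[ℝ] Cn n) (Cc : V (2 * n) →L[ℝ] V (2 * n)) (Psi : W (2 * n) → X),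
      0 < r ∧ (∀ v, ‖v‖ < r → y0 + Y v ∈ D) ∧
      (∀ p, Psi p = Ψ (y0 + Y p.2, ∑ j, p.1 j • l j (y0 + Y p.2))) ∧
      (∀ v, Cc (Cc v) = -v) ∧ (∀ v, Y (Cc v) = -(I • Y v)) ∧
      SmI C (tube (2 * n) r) Psi ∧
      (∀ p ∈ tube (2 * n) r, ∀ k, Psi (p.1 + kv k, p.2) = Psi p) ∧
      (∀ p ∈ tube (2 * n) r, ∀ p' ∈ tube (2 * n) r, Psi p = Psi p' ↔
        p.2 = p'.2 ∧ ∃ k, p.1 = p'.1 + kv k) ∧
      (∀ p ∈ tube (2 * n) r, ∀ i, Psi p ∈ (C.e i).source →
        Function.Injective (fderiv ℝ (fun q => C.e i (Psi q)) p)) ∧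
      (∀ θ u v, pull w Psi (θ, 0) (u, 0) (v, 0) = 0) ∧
      (∀ θ u v, pull w' Psi (θ, 0) (u, 0) (v, 0) = 0) ∧
      (∀ θ v u, pull w Psi (θ, 0) (0, v) (u, 0) = inner ℝ v u) ∧
      (∀ θ v u, pull w' Psi (θ, 0) (0, v) (u, 0) = inner ℝ (Cc v) u) := by
  obtain ⟨Y, hY⟩ := exists_dual (h.lli y0 hy0)
  have hcont : Continuous fun v : V (2 * n) => y0 + Y v := continuous_const.add Y.continuous
  have hn : ∀ᶠ v in 𝓝 (0 : V (2 * n)), y0 + Y v ∈ D := by
    refine hcont.continuousAt.eventually_mem (h.op.mem_nhds ?_)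
    simpa using hy0
  obtain ⟨r, hr0, hr1⟩ := Metric.eventually_nhds_iff.1 hn
  have hr : ∀ v : V (2 * n), ‖v‖ < r → y0 + Y v ∈ D := fun v hv =>
    hr1 (by simpa [dist_eq_norm] using hv)
  set G := GG y0 (Y : V (2 * n) →L[ℝ] Cn n) l with hG
  have hGs : ContDiffOn ℝ ∞ G (tube (2 * n) r) := GG_sm h.op h.lhol hr
  have hGm : MapsTo G (tube (2 * n) r) (D ×ˢ univ) := GG_maps hr
  have h0 : ∀ θ : V (2 * n), ((θ, 0) : W (2 * n)) ∈ tube (2 * n) r := fun θ => by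
    show ‖(0 : V (2 * n))‖ < r
    simpa using hr0
  have hG0 : ∀ θ : V (2 * n), (G (θ, 0)).1 = y0 := fun θ => by
    show y0 + Y 0 = y0
    simp
  -- the differential on the vectors `(u, 0)` and `(0, v)`
  have hGu : ∀ θ u : V (2 * n), fderiv ℝ G (θ, 0) (u, 0) = (0, ∑ j, u j • l j y0) := by
    intro θ u
    rw [hG, GG_fd h.op h.lhol hr (h0 θ)]
    refine Prod.ext (by simp) ?_
    simp
  have hGv : ∀ θ v : V (2 * n), (fderiv ℝ G (θ, 0) (0, v)).1 = Y v := by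
    intro θ v
    rw [hG, GG_fd h.op h.lhol hr (h0 θ)]
  have huu : ∀ θ u v : V (2 * n),
      ((pull w (fun p => Ψ (G p)) (θ, 0) (u, 0) (v, 0) : ℝ) : ℂ) +
        I * ((pull w' (fun p => Ψ (G p)) (θ, 0) (u, 0) (v, 0) : ℝ) : ℂ) = 0 := by
    intro θ u v
    rw [pull_comp h.sm (isOpen_tube r) hGs hGm w (h0 θ),
      pull_comp h.sm (isOpen_tube r) hGs hGm w' (h0 θ), symp' h (hGm (h0 θ)).1, hGu, hGu]
    simp only [sg, bl_zero, zero_bl, sub_zero, zero_add]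
    exact tau_zero h (hGm (h0 θ)).1 _
  have huv : ∀ θ v u : V (2 * n),
      ((pull w (fun p => Ψ (G p)) (θ, 0) (0, v) (u, 0) : ℝ) : ℂ) +
        I * ((pull w' (fun p => Ψ (G p)) (θ, 0) (0, v) (u, 0) : ℝ) : ℂ) =
        ∑ j, ((u j : ℝ) : ℂ) * (-bl (l j y0) (Y v)) := by
    intro θ v u
    rw [pull_comp h.sm (isOpen_tube r) hGs hGm w (h0 θ),
      pull_comp h.sm (isOpen_tube r) hGs hGm w' (h0 θ), symp' h (hGm (h0 θ)).1, hGu]
    simp only [sg, bl_zero, zero_sub]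
    rw [tau_zero h (hGm (h0 θ)).1, add_zero, hGv, bl_comm, sum_bl, ← Finset.sum_neg_distrib]
    refine Finset.sum_congr rfl fun j _ => ?_
    rw [smul_bl]
    ring
  refine ⟨r, Y, CcL (fun j => l j y0) Y, fun p => Ψ (G p), hr0, hr, fun p => rfl,
    CcL_CcL (h.lli y0 hy0) hY, Y_CcL (h.lli y0 hy0) hY,
    SmI.comp h.sm (isOpen_tube r) hGs hGm, ?_, ?_, ?_, ?_, ?_, ?_, ?_⟩
  · intro p hp k
    refine (h.eq_iff _ (hr p.2 hp) _ (hr p.2 hp) _ _).2 ⟨rfl, k, ?_⟩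
    rw [← Finset.sum_sub_distrib]
    refine Finset.sum_congr rfl fun j _ => ?_
    rw [← sub_smul]
    congr 1
    show p.1 j + (k j : ℝ) - p.1 j = _
    ring
  · intro p hp p' hp'
    constructor
    · intro he
      obtain ⟨h1, m, hm⟩ := (h.eq_iff _ (hr p.2 hp) _ (hr p'.2 hp') _ _).1 he
      have h2 : p.2 = p'.2 := Y.injective (add_left_cancel h1)
      refine ⟨h2, m, ?_⟩
      have h3 : ∑ j, (p.1 j - p'.1 j - (m j : ℝ)) • l j (y0 + Y p.2) = 0 := by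
        have h4 : (∑ j, p.1 j • l j (y0 + Y p.2)) - ∑ j, p'.1 j • l j (y0 + Y p.2) =
            ∑ k, (m k : ℝ) • l k (y0 + Y p.2) := by
          have h5 := hm
          change (∑ j, p.1 j • l j (y0 + Y p.2)) - ∑ j, p'.1 j • l j (y0 + Y p'.2) =
            ∑ k, (m k : ℝ) • l k (y0 + Y p.2) at h5
          rw [← h2] at h5
          exact h5
        simp only [sub_smul, Finset.sum_sub_distrib]
        rw [h4, sub_self]
      have h4 := Fintype.linearIndependent_iff.1 (h.lli _ (hr p.2 hp)) _ h3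
      ext j
      show p.1 j = p'.1 j + (m j : ℝ)
      linarith [h4 j]
    · rintro ⟨h2, m, hm⟩
      refine (h.eq_iff _ (hr p.2 hp) _ (hr p'.2 hp') _ _).2 ⟨?_, m, ?_⟩
      · show y0 + Y p.2 = y0 + Y p'.2
        rw [h2]
      · show (∑ j, p.1 j • l j (y0 + Y p.2)) - ∑ j, p'.1 j • l j (y0 + Y p'.2) =
          ∑ k, (m k : ℝ) • l k (y0 + Y p.2)
        rw [← h2, ← Finset.sum_sub_distrib]
        refine Finset.sum_congr rfl fun j _ => ?_
        rw [← sub_smul]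
        congr 1
        rw [hm]
        show p'.1 j + (m j : ℝ) - p'.1 j = _
        ring
  · intro p hp i hi
    rw [fderiv_comp_e h.sm (isOpen_tube r) hGs hGm hp hi]
    refine (h.inj (G p) (hGm hp).1 i hi).comp ?_
    rw [← LinearMap.coe_coe, ← LinearMap.ker_eq_bot, LinearMap.ker_eq_bot']
    intro u hu
    have hu' : fderiv ℝ G p u = 0 := hu
    rw [hG, GG_fd h.op h.lhol hr hp] at hu'
    have h1 : Y u.2 = 0 := congrArg Prod.fst hu'
    have h2 : u.2 = 0 := Y.injective (by rw [h1, map_zero])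
    have h3 := congrArg Prod.snd hu'
    simp only [h1, map_zero, smul_zero, zero_add, Prod.snd_zero] at h3
    have h4 := Fintype.linearIndependent_iff.1 (h.lli _ (hr p.2 hp)) _ h3
    exact Prod.ext (by ext j; exact h4 j) h2
  · intro θ u v
    have := congrArg Complex.re (huu θ u v)
    simpa using this
  · intro θ u v
    have := congrArg Complex.im (huu θ u v)
    simpa using this
  · intro θ v u
    have := congrArg Complex.re (huv θ v u)
    simp only [Complex.add_re, Complex.ofReal_re, Complex.re_sum, Complex.re_ofReal_mul,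
      Complex.neg_re, hY] at this
    rw [PiLp.inner_apply]
    simpa using this
  · intro θ v u
    have := congrArg Complex.im (huv θ v u)
    simp only [Complex.add_im, Complex.ofReal_im, Complex.im_sum, Complex.im_ofReal_mul,
      Complex.neg_im] at this
    rw [PiLp.inner_apply]
    simpa [CcL_apply] using this

end tube

end

end Crest.Agent.R281.OTB_280
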