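import Crest.Agent.R273.Vm_333
import Crest.Agent.R273.Map_835

/-!
# R281 (S0424), S6-OMEGA (helper854), part 1: the volume of a holomorphic box

* `spl`      : `Cn (d+m) → Cn d × Cn m`
* `ev2`      : `(RI (d+m) → ℝ) ≃ᵐ (RI d → ℝ) × (RI m → ℝ)`, volume preserving
* `vm_image` : `vm h (Ψ '' D) = ∫ |det_ℂ|² h.w` for an injective holomorphic `Ψ` on `D ⊆ Cn n`
* `vm_box`   : lower bound of `vm h (Ψ '' (E × ball))` by a density which depends only on `t ∈ E`
-/

set_option autoImplicit false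
set_option linter.unusedSectionVars false

open Set Filter Topology Complex MeasureTheory
open scoped ContDiff Matrix ComplexConjugate Manifold ComplexOrder ENNReal

namespace Crest.Agent.R281.Om_854

open Crest.Agent.R275.Geo Crest.Agent.R275.Core144 Crest.Agent.R275.EDR890
open Crest.Agent.R273.Defs_333 Crest.Agent.R273.Hess_333 Crest.Agent.R273.HessB_333
open Crest.Agent.R273.HM_333 Crest.Agent.R273.Kah_333 Crest.Agent.R273.Vol_333
open Crest.Agent.R273.Vm_333 Crest.Agent.R273.Map_835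
open Crest.Agent.R275.Pai323 Crest.Agent.R275.C1d194 Crest.Agent.R273

noncomputable section

variable {n d m : ℕ} {M : Type} [TopologicalSpace M]

/-! ### linear algebra -/

theorem det_mt (T : Cn n →L[ℂ] Cn n) : (mt T).det = LinearMap.det (T : Cn n →ₗ[ℂ] Cn n) := by
  rw [← LinearMap.det_toMatrix (EuclideanSpace.basisFun (Fin n) ℂ).toBasis]
  congr 1

/-- a holomorphic map in real coordinates -/
theorem hasFDerivAt_real {F : Cn n → Cn n} {x : RI n → ℝ} (hd : DifferentiableAt ℂ F (cc x)) :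
    ∃ L : (RI n → ℝ) →L[ℝ] (RI n → ℝ), HasFDerivAt (fun y => rc (F (cc y))) L x ∧
      |L.det| = ‖(mt (fderiv ℂ F (cc x))).det‖ ^ 2 := by
  set D := fderiv ℂ F (cc x) with hD
  have h1 : HasFDerivAt F (D.restrictScalars ℝ) (cc x) := hd.hasFDerivAt.restrictScalars ℝ
  let ccL : (RI n → ℝ) →L[ℝ] Cn n := ((rcE n).symm.toContinuousLinearEquiv : (RI n → ℝ) →L[ℝ] Cn n)
  have h2 : HasFDerivAt (cc : (RI n → ℝ) → Cn n) ccL x := by
    exact ((rcE n).symm.toContinuousLinearEquiv).hasFDerivAt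
  have h3 : HasFDerivAt (rc : Cn n → RI n → ℝ) (rcL n) (F (cc x)) := by
    rw [rc_eq]; exact (rcL n).hasFDerivAt
  have h4 := h3.comp x (h1.comp x h2)
  refine ⟨_, h4, ?_⟩
  have h5 : ((((rcL n).comp ((D.restrictScalars ℝ).comp ccL)) : (RI n → ℝ) →L[ℝ] (RI n → ℝ)) :
      (RI n → ℝ) →ₗ[ℝ] (RI n → ℝ)) = ((rcE n : Cn n →ₗ[ℝ] (RI n → ℝ)) ∘ₗ
        ((D : Cn n →ₗ[ℂ] Cn n).restrictScalars ℝ)) ∘ₗ ((rcE n).symm : (RI n → ℝ) →ₗ[ℝ] Cn n) := by
    ext v p
    rfl
  have h6 : ((rcL n).comp ((D.restrictScalars ℝ).comp ccL)).det =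
      ‖LinearMap.det (D : Cn n →ₗ[ℂ] Cn n)‖ ^ 2 := by
    rw [← det_real D, ← h5]
  rw [h6, det_mt, abs_of_nonneg (by positivity)]

/-! ### splitting of the coordinates -/

/-- `Cn (d+m) → Cn d × Cn m` -/
def spl (d m : ℕ) (z : Cn (d + m)) : Cn d × Cn m :=
  (WithLp.toLp 2 fun a => z (Fin.castAdd m a), WithLp.toLp 2 fun b => z (Fin.natAdd d b))

/-- the inverse -/
def glu (d m : ℕ) (p : Cn d × Cn m) : Cn (d + m) := WithLp.toLp 2 (Fin.append p.1 p.2)

theorem spl_glu (p : Cn d × Cn m) : spl d m (glu d m p) = p := by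
  ext a
  · simp [spl, glu]
  · simp [spl, glu]

theorem glu_spl (z : Cn (d + m)) : glu d m (spl d m z) = z := by
  ext a
  refine Fin.addCases (fun a => ?_) (fun b => ?_) a
  · simp [spl, glu]
  · simp [spl, glu]

/-- `spl` as a continuous linear equivalence -/
def splE (d m : ℕ) : Cn (d + m) ≃L[ℂ] (Cn d × Cn m) :=
  LinearEquiv.toContinuousLinearEquiv
    { toFun := spl d m
      invFun := glu d m
      left_inv := glu_spl
      right_inv := spl_glu
      map_add' := fun x y => by ext a <;> simp [spl]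
      map_smul' := fun c x => by ext a <;> simp [spl] }

theorem splE_apply (z : Cn (d + m)) : splE d m z = spl d m z := rfl

/-- index equivalence -/
def ie (d m : ℕ) : RI d ⊕ RI m ≃ RI (d + m) :=
  (Equiv.sumProdDistrib _ _ _).symm.trans (finSumFinEquiv.prodCongr (Equiv.refl _))

/-- splitting of the real coordinates -/
def ev2 (d m : ℕ) : (RI (d + m) → ℝ) ≃ᵐ (RI d → ℝ) × (RI m → ℝ) :=
  (MeasurableEquiv.piCongrLeft (fun _ : RI (d + m) => ℝ) (ie d m)).symm.trans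
    (MeasurableEquiv.sumPiEquivProdPi (fun _ : RI d ⊕ RI m => ℝ))

theorem mp_ev2 (d m : ℕ) : MeasurePreserving (ev2 d m) volume volume :=
  (volume_measurePreserving_sumPiEquivProdPi (fun _ : RI d ⊕ RI m => ℝ)).comp
    (volume_measurePreserving_piCongrLeft (fun _ : RI (d + m) => ℝ) (ie d m)).symm

theorem ev2_fst (y : RI (d + m) → ℝ) (p : RI d) : (ev2 d m y).1 p = y (Fin.castAdd m p.1, p.2) := by
  rfl

theorem ev2_snd (y : RI (d + m) → ℝ) (p : RI m) : (ev2 d m y).2 p = y (Fin.natAdd d p.1, p.2) := by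
  rfl

theorem spl_cc (y : RI (d + m) → ℝ) : spl d m (cc y) = (cc (ev2 d m y).1, cc (ev2 d m y).2) := by
  ext a
  · simp [spl, cc, ev2_fst]
  · simp [spl, cc, ev2_snd]

/-! ### the volume of an image -/

section Image

variable {A : Atl n M} [Countable A.ι] [MeasurableSpace M] [BorelSpace M]

/-- **change of variables** -/
theorem vm_image (h : HM (KB A)⁻¹) (i : A.ι) {D : Set (RI n → ℝ)} (hD : MeasurableSet D)
    {Ψ : Cn n → M} (hs : ∀ y ∈ D, Ψ (cc y) ∈ (A.e i).source)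
    (hd : ∀ y ∈ D, DifferentiableAt ℂ (fun z => A.e i (Ψ z)) (cc y))
    (hinj : InjOn (fun y => Ψ (cc y)) D) (hm : MeasurableSet ((fun y => Ψ (cc y)) '' D)) :
    vm h ((fun y => Ψ (cc y)) '' D) =
      ∫⁻ y in D, ENNReal.ofReal
        (‖(mt (fderiv ℂ (fun z => A.e i (Ψ z)) (cc y))).det‖ ^ 2 * h.w i (Ψ (cc y))) := by
  have hsub : (fun y => Ψ (cc y)) '' D ⊆ (A.e i).source := by
    rintro _ ⟨y, hy, rfl⟩; exact hs y hy
  rw [vm_apply_chart h hm hsub, chm_apply h i hm]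
  set Φ : (RI n → ℝ) → (RI n → ℝ) := fun y => rc (A.e i (Ψ (cc y))) with hΦ
  have hsg : ∀ y ∈ D, sg A i (Φ y) = Ψ (cc y) := fun y hy => sg_rc (hs y hy)
  have himg : {y | y ∈ Ui A i ∧ sg A i y ∈ (fun y => Ψ (cc y)) '' D} = Φ '' D := by
    ext y
    constructor
    · rintro ⟨hy, x, hx, hxy⟩
      refine ⟨x, hx, ?_⟩
      have h1 : A.e i (Ψ (cc x)) = cc y := by
        have h2 : Ψ (cc x) = (A.e i).symm (cc y) := hxy
        rw [h2, (A.e i).right_inv hy]
      simp only [hΦ, h1, rc_cc]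
    · rintro ⟨x, hx, rfl⟩
      exact ⟨mem_Ui (hs x hx), x, hx, (hsg x hx).symm⟩
  have hL : ∀ x : RI n → ℝ, ∃ L : (RI n → ℝ) →L[ℝ] (RI n → ℝ), x ∈ D →
      (HasFDerivAt Φ L x ∧
        |L.det| = ‖(mt (fderiv ℂ (fun z => A.e i (Ψ z)) (cc x))).det‖ ^ 2) := by
    intro x
    by_cases hx : x ∈ D
    · obtain ⟨L, hL⟩ := hasFDerivAt_real (hd x hx)
      exact ⟨L, fun _ => hL⟩
    · exact ⟨0, fun h => absurd h hx⟩
  choose L hL using hL
  have hi : InjOn Φ D := by
    intro x hx y hy hxy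
    have h1 : sg A i (Φ x) = sg A i (Φ y) := congrArg _ hxy
    rw [hsg x hx, hsg y hy] at h1
    exact hinj hx hy h1
  rw [himg, lintegral_image_eq_lintegral_abs_det_fderiv_mul volume hD
    (fun x hx => (hL x hx).1.hasFDerivWithinAt) hi (Vm_333.dn h i)]
  refine setLIntegral_congr_fun hD fun y hy => ?_
  rw [(hL y hy).2]
  unfold Vm_333.dn
  rw [hsg y hy, ENNReal.ofReal_mul (by positivity)]

end Image

/-! ### boxes -/

section Box

variable {A : Atl (d + m) M} [Countable A.ι] [T2Space M] [MeasurableSpace M] [BorelSpace M]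

/-- the closed ball in real coordinates -/
def bl (m : ℕ) (δ : ℝ) : Set (RI m → ℝ) := {y | ‖(cc y : Cn m)‖ ^ 2 ≤ δ}

theorem isClosed_bl (m : ℕ) (δ : ℝ) : IsClosed (bl m δ) :=
  isClosed_le ((continuous_cc.norm).pow 2) continuous_const

/-- **lower bound of the volume of a holomorphic box** -/
theorem vm_box (h : HM (KB A)⁻¹) (i : A.ι) {E : Set (Cn d)} (hE : IsCompact E) {δ κ : ℝ}
    (hκ : 0 ≤ κ) {Ψ : Cn d × Cn m → M} {O : Set (Cn d × Cn m)} (hO : IsOpen O)
    (hEO : E ×ˢ {w : Cn m | ‖w‖ ^ 2 ≤ δ} ⊆ O)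
    (hs : ∀ p ∈ O, Ψ p ∈ (A.e i).source)
    (hc : ContinuousOn Ψ O)
    (hd : DifferentiableOn ℂ (fun p => A.e i (Ψ p)) O)
    (hinj : InjOn Ψ O) {ρ : Cn d → ℝ}
    (hρ : AEMeasurable (fun y : RI d → ℝ => ENNReal.ofReal (ρ (cc y)))
      (volume.restrict {y : RI d → ℝ | cc y ∈ E}))
    (hlow : ∀ t ∈ E, ∀ w : Cn m, ‖w‖ ^ 2 ≤ δ → κ * ρ t ≤
      ‖(mt (fderiv ℂ (fun z => A.e i (Ψ (spl d m z))) (glu d m (t, w)))).det‖ ^ 2 *
        h.w i (Ψ (t, w))) :
    ENNReal.ofReal κ * ((∫⁻ y in {y : RI d → ℝ | cc y ∈ E}, ENNReal.ofReal (ρ (cc y))) *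
      volume (bl m δ)) ≤ vm h (Ψ '' (E ×ˢ {w : Cn m | ‖w‖ ^ 2 ≤ δ})) := by
  set B : Set (Cn m) := {w : Cn m | ‖w‖ ^ 2 ≤ δ} with hB
  have cB : IsCompact B := by
    refine Metric.isCompact_of_isClosed_isBounded
      (isClosed_le (continuous_norm.pow 2) continuous_const) ?_
    refine (Metric.isBounded_closedBall (x := (0 : Cn m)) (r := |δ| + 1)).subset fun w hw => ?_
    rw [mem_closedBall_zero_iff]
    have h1 : ‖w‖ ^ 2 ≤ |δ| := le_trans hw (le_abs_self δ)
    nlinarith [norm_nonneg w, abs_nonneg δ]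
  set D : Set (RI (d + m) → ℝ) := {y | spl d m (cc y) ∈ E ×ˢ B} with hD
  have cspl : Continuous (spl d m) := (splE d m).continuous
  have mD : MeasurableSet D :=
    (((hE.prod cB).isClosed).preimage (cspl.comp continuous_cc)).measurableSet
  have himg : (fun y => Ψ (spl d m (cc y))) '' D = Ψ '' (E ×ˢ B) := by
    ext x
    constructor
    · rintro ⟨y, hy, rfl⟩; exact ⟨_, hy, rfl⟩
    · rintro ⟨p, hp, rfl⟩
      refine ⟨rc (glu d m p), ?_, ?_⟩
      · show spl d m (cc (rc (glu d m p))) ∈ E ×ˢ B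
        rw [cc_rc, spl_glu]; exact hp
      · show Ψ (spl d m (cc (rc (glu d m p)))) = _
        rw [cc_rc, spl_glu]
  have mI : MeasurableSet (Ψ '' (E ×ˢ B)) :=
    ((hE.prod cB).image_of_continuousOn (hc.mono hEO)).isClosed.measurableSet
  have hdd : ∀ y ∈ D, DifferentiableAt ℂ (fun z => A.e i (Ψ (spl d m z))) (cc y) := by
    intro y hy
    have h1 : DifferentiableAt ℂ (fun p => A.e i (Ψ p)) (spl d m (cc y)) :=
      hd.differentiableAt (hO.mem_nhds (hEO hy))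
    exact h1.comp (cc y) (splE d m).differentiableAt
  have hin : InjOn (fun y => Ψ (spl d m (cc y))) D := by
    intro x hx y hy hxy
    have h1 : spl d m (cc x) = spl d m (cc y) := hinj (hEO hx) (hEO hy) hxy
    have h2 : (cc x : Cn (d + m)) = cc y := (splE d m).injective h1
    have h3 := congrArg rc h2
    rwa [rc_cc, rc_cc] at h3
  have key := vm_image h i mD (Ψ := fun z => Ψ (spl d m z)) (fun y hy => hs _ (hEO hy)) hdd hin
    (by rw [himg]; exact mI)
  rw [← himg]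
  have s1 : ENNReal.ofReal κ * ((∫⁻ y in {y : RI d → ℝ | cc y ∈ E}, ENNReal.ofReal (ρ (cc y))) *
      volume (bl m δ)) = ∫⁻ y in D, ENNReal.ofReal (κ * ρ (cc (ev2 d m y).1)) := by
    have hpre : D = (ev2 d m) ⁻¹' ({y : RI d → ℝ | cc y ∈ E} ×ˢ bl m δ) := by
      ext y
      show spl d m (cc y) ∈ E ×ˢ B ↔ _
      rw [spl_cc]; rfl
    rw [hpre, (mp_ev2 d m).setLIntegral_comp_preimage_emb (ev2 d m).measurableEmbedding
      (fun p : (RI d → ℝ) × (RI m → ℝ) => ENNReal.ofReal (κ * ρ (cc p.1)))]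
    have e1 : ∀ p : (RI d → ℝ) × (RI m → ℝ), ENNReal.ofReal (κ * ρ (cc p.1)) =
        ENNReal.ofReal κ * (ENNReal.ofReal (ρ (cc p.1)) * 1) := fun p => by
      rw [ENNReal.ofReal_mul hκ, mul_one]
    simp only [e1]
    rw [Measure.volume_eq_prod, ← Measure.prod_restrict,
      lintegral_const_mul'' _ ?_,
      lintegral_prod_mul (f := fun y : RI d → ℝ => ENNReal.ofReal (ρ (cc y)))
        (g := fun _ => (1 : ℝ≥0∞)) hρ aemeasurable_const]
    · simp
    · exact (hρ.comp_quasiMeasurePreserving Measure.quasiMeasurePreserving_fst).mul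
        aemeasurable_const
  rw [s1, key]
  · refine setLIntegral_mono' mD fun y hy => ENNReal.ofReal_le_ofReal ?_
    have hy' : (cc (ev2 d m y).1, cc (ev2 d m y).2) ∈ E ×ˢ B := by rw [← spl_cc]; exact hy
    have h1 := hlow (cc (ev2 d m y).1) hy'.1 (cc (ev2 d m y).2) hy'.2
    rw [← spl_cc, glu_spl] at h1
    exact h1

end Box

end

end Crest.Agent.R281.Om_854
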