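import Crest.Agent.R281.Om1_854
import Crest.Agent.R273.KahI_645
import Crest.Agent.R273.MassA_5

/-!
# R281 (S0424), S6-OMEGA (helper854), part 2: the local estimate (LOC), pointwise part

`g` : product chart `M → Cn d × Cn m` with second component `f`; `i` a chart of `A`.
* `JJ`     : Jacobian of `A.e i ∘ g.symm ∘ spl`
* `Jp_JJ`  : the Jacobian of the leaf is the block of `JJ`
* `Df_JJ`  : `Df * JJ = Pm`
* `low_pt` : `(c/δ)^m det (leaf block of Jᵀ β J̄) ≤ |det J|² det K_δ`
-/

set_option autoImplicit false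
set_option linter.unusedSectionVars false

open Set Filter Topology Complex MeasureTheory
open scoped ContDiff Matrix ComplexConjugate Manifold ComplexOrder ENNReal

namespace Crest.Agent.R281.Om_854

open Crest.Agent.R275.Geo Crest.Agent.R275.Core144 Crest.Agent.R275.EDR890
open Crest.Agent.R273.Defs_333 Crest.Agent.R273.Hess_333 Crest.Agent.R273.HessB_333
open Crest.Agent.R273.HM_333 Crest.Agent.R273.Kah_333 Crest.Agent.R273.Vol_333
open Crest.Agent.R273.Vm_333 Crest.Agent.R273.Map_835 Crest.Agent.R273.KahI_645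
open Crest.Agent.R275.Pai323 Crest.Agent.R275.C1d194 Crest.Agent.R273

noncomputable section

variable {d m : ℕ}

/-! ### linear algebra -/

/-- the projection matrix -/
def Pm (d m : ℕ) : Matrix (Fin m) (Fin (d + m)) ℂ :=
  Matrix.of fun b a => if a = Fin.natAdd d b then 1 else 0

/-- the leaf block -/
def lb (G : Matrix (Fin (d + m)) (Fin (d + m)) ℂ) : Matrix (Fin d) (Fin d) ℂ :=
  G.submatrix (Fin.castAdd m) (Fin.castAdd m)

theorem det_mono {n : ℕ} {G S : Matrix (Fin n) (Fin n) ℂ} (hG : G.PosDef) (hS : S.PosSemidef) :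
    G.det.re ≤ (G + S).det.re := by
  have h1 := Crest.Agent.R273.FIlin_332.det_re_eq_sum hG hS 1
  have h3 : (G + S).det.re = (G + ((1 : ℝ) : ℂ) • S).det.re := by simp
  rw [h3, h1, Finset.sum_range_succ', Crest.Agent.R273.MassA_5.dp_coeff_zero]
  have h2 : 0 ≤ ∑ k ∈ Finset.range n, ((Crest.Agent.R273.VolInv_5.dp G S).coeff (k + 1)).re * (1:ℝ) ^ (k + 1) :=
    Finset.sum_nonneg fun k _ => mul_nonneg (Crest.Agent.R273.FIlin_332.coeff_dp_nonneg hG hS _) (by positivity)
  simp only [pow_zero, mul_one] at h2 ⊢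
  linarith

theorem det_one_add {S : Matrix (Fin m) (Fin m) ℂ} (hS : S.PosSemidef) {c : ℝ} (hc : 0 ≤ c) :
    c ^ m ≤ (S + (c : ℂ) • (1 : Matrix (Fin m) (Fin m) ℂ)).det.re := by
  rcases hc.eq_or_lt with h | h
  · subst h
    rcases Nat.eq_zero_or_pos m with hm | hm
    · subst hm
      simp
    · rw [zero_pow hm.ne']
      simp only [Complex.ofReal_zero, zero_smul, add_zero]
      exact (Complex.le_def.1 hS.det_nonneg).1
  · have h1 : ((c : ℂ) • (1 : Matrix (Fin m) (Fin m) ℂ)).PosDef :=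
      Matrix.PosDef.one.smul (by exact_mod_cast h)
    have h2 := det_mono h1 hS
    rw [Matrix.det_smul, Matrix.det_one, mul_one, Fintype.card_fin, add_comm] at h2
    refine le_trans (le_of_eq ?_) h2
    rw [← Complex.ofReal_pow, Complex.ofReal_re]

theorem det_block {G : Matrix (Fin d ⊕ Fin m) (Fin d ⊕ Fin m) ℂ} (hG : G.PosDef) {c : ℝ}
    (hc : 0 ≤ c) : c ^ m * G.toBlocks₁₁.det.re ≤
      (G + (Matrix.fromBlocks 0 0 0 ((c : ℂ) • (1 : Matrix (Fin m) (Fin m) ℂ)))).det.re := by
  set X := G.toBlocks₁₁ with hX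
  set Y := G.toBlocks₁₂ with hY
  set Z := G.toBlocks₂₂ with hZ
  have hYs : G.toBlocks₂₁ = Yᴴ := by
    ext a b
    exact (hG.1.apply (Sum.inr a) (Sum.inl b)).symm
  have e0 : G = Matrix.fromBlocks X Y Yᴴ Z := by
    rw [← hYs]; exact (Matrix.fromBlocks_toBlocks G).symm
  have hXp : X.PosDef := by
    have := hG.submatrix (e := (Sum.inl : Fin d → Fin d ⊕ Fin m)) Sum.inl_injective
    exact this
  have : Invertible X := hXp.isUnit.invertible
  have hS : (Z - Yᴴ * X⁻¹ * Y).PosSemidef := by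
    rw [← hXp.fromBlocks₁₁, ← e0]
    exact hG.posSemidef
  have e1 : G + (Matrix.fromBlocks 0 0 0 ((c : ℂ) • (1 : Matrix (Fin m) (Fin m) ℂ))) =
      Matrix.fromBlocks X Y Yᴴ (Z + (c : ℂ) • (1 : Matrix (Fin m) (Fin m) ℂ)) := by
    rw [e0, Matrix.fromBlocks_add]
    simp
  rw [e1, Matrix.det_fromBlocks₁₁, Matrix.invOf_eq_nonsing_inv]
  have e2 : Z + (c : ℂ) • (1 : Matrix (Fin m) (Fin m) ℂ) - Yᴴ * X⁻¹ * Y =
      (Z - Yᴴ * X⁻¹ * Y) + (c : ℂ) • 1 := by abel
  rw [e2]
  have h1 := det_one_add hS hc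
  have h2 : X.det = ((X.det.re : ℝ) : ℂ) := (Crest.Agent.R273.Vol_333.det_real hXp.1).symm
  have h3 : 0 < X.det.re := Crest.Agent.R273.Vol_333.det_re_pos hXp
  rw [h2, Complex.re_ofReal_mul, Complex.ofReal_re, mul_comm]
  exact mul_le_mul_of_nonneg_left h1 h3.le

theorem Pm_block (c : ℂ) : (c • ((Pm d m)ᵀ * (Pm d m).map conj)).submatrix finSumFinEquiv
    finSumFinEquiv = Matrix.fromBlocks 0 0 0 (c • (1 : Matrix (Fin m) (Fin m) ℂ)) := by
  have h1 : ∀ (a : Fin d) (b : Fin m), Fin.castAdd m a ≠ Fin.natAdd d b := fun a b h => by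
    have := congrArg Fin.val h
    simp only [Fin.val_castAdd, Fin.val_natAdd] at this
    omega
  ext a b
  rw [Matrix.submatrix_apply, Matrix.smul_apply, Matrix.mul_apply]
  simp only [Matrix.transpose_apply, Matrix.map_apply, Pm, Matrix.of_apply]
  rcases a with a | a <;> rcases b with b | b
  · simp [h1]
  · simp [h1]
  · simp [h1]
  · simp only [finSumFinEquiv_apply_right, Matrix.fromBlocks_apply₂₂, Matrix.smul_apply,
      Matrix.one_apply, smul_eq_mul]
    have h2 : ∀ x y : Fin m, (Fin.natAdd d x = Fin.natAdd d y) = (x = y) := fun x y =>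
      propext ⟨fun h => by simpa [Fin.ext_iff] using h, fun h => by rw [h]⟩
    simp only [h2]
    congr 1
    rw [Finset.sum_eq_single a]
    · by_cases hab : a = b
      · simp [hab]
      · have : ¬ b = a := fun h => hab h.symm
        simp [hab, this]
    · intro c _ hc
      have : ¬ a = c := fun h => hc h.symm
      simp [this]
    · simp

theorem det_low {X G : Matrix (Fin (d + m)) (Fin (d + m)) ℂ} (hG : G.PosDef) {c : ℝ} (hc : 0 ≤ c)
    (h : (X - G - (c : ℂ) • ((Pm d m)ᵀ * (Pm d m).map conj)).PosSemidef) :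
    c ^ m * (lb G).det.re ≤ X.det.re := by
  set Q : Matrix (Fin (d + m)) (Fin (d + m)) ℂ := (c : ℂ) • ((Pm d m)ᵀ * (Pm d m).map conj) with hQ
  have hQp : Q.PosSemidef := by
    have h1 : ((Pm d m).map conj)ᴴ = (Pm d m)ᵀ := by
      ext a b
      simp [Matrix.conjTranspose_apply]
    have h2 := Matrix.posSemidef_conjTranspose_mul_self ((Pm d m).map conj)
    rw [h1] at h2
    exact h2.smul (by exact_mod_cast hc)
  have h1 : (G + Q).det.re ≤ X.det.re := by
    have h2 := det_mono (hG.add_posSemidef hQp) h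
    have h3 : G + Q + (X - G - Q) = X := by abel
    rwa [h3] at h2
  refine le_trans ?_ h1
  have h4 := det_block (hG.submatrix (e := (finSumFinEquiv : Fin d ⊕ Fin m ≃ Fin (d + m)))
    finSumFinEquiv.injective) hc
  have h5 : G.submatrix finSumFinEquiv finSumFinEquiv +
      Matrix.fromBlocks 0 0 0 ((c : ℂ) • (1 : Matrix (Fin m) (Fin m) ℂ)) =
      (G + Q).submatrix finSumFinEquiv finSumFinEquiv := by
    rw [← Pm_block]
    rfl
  rw [h5, Matrix.det_submatrix_equiv_self] at h4
  exact h4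

theorem jac_det {n : ℕ} (J G : Matrix (Fin n) (Fin n) ℂ) :
    (Jᵀ * G * J.map conj).det.re = ‖J.det‖ ^ 2 * G.det.re := by
  have h1 : (J.map conj).det = conj J.det := by
    rw [← RingHom.mapMatrix_apply, ← RingHom.map_det]
  rw [Matrix.det_mul, Matrix.det_mul, Matrix.det_transpose, h1]
  have h2 : J.det * G.det * conj J.det = ((‖J.det‖ ^ 2 : ℝ) : ℂ) * G.det := by
    rw [mul_right_comm, Complex.mul_conj, Complex.normSq_eq_norm_sq]
  rw [h2, Complex.re_ofReal_mul]

/-! ### the Jacobians -/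

variable {M : Type} [TopologicalSpace M] {A : Atl (d + m) M} {T : Type} [TopologicalSpace T]
  {B : Atl d T} {jj : T → M}

/-- the Jacobian of the product chart -/
def JJ (A : Atl (d + m) M) (g : OpenPartialHomeomorph M (Cn d × Cn m)) (i : A.ι)
    (p : Cn d × Cn m) : Matrix (Fin (d + m)) (Fin (d + m)) ℂ :=
  mt (fderiv ℂ (fun z => A.e i (g.symm (spl d m z))) (glu d m p))

/-- compatibility of a product chart with the atlas -/
def PCpt (A : Atl (d + m) M) (g : OpenPartialHomeomorph M (Cn d × Cn m)) : Prop :=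
  ∀ i, ∀ p ∈ g.target, g.symm p ∈ (A.e i).source →
    DifferentiableAt ℂ (fun q => A.e i (g.symm q)) p

variable {g : OpenPartialHomeomorph M (Cn d × Cn m)} {i : A.ι}

theorem diff_JJ (hg : PCpt A g) {p : Cn d × Cn m} (hp : p ∈ g.target)
    (hi : g.symm p ∈ (A.e i).source) :
    DifferentiableAt ℂ (fun z => A.e i (g.symm (spl d m z))) (glu d m p) := by
  have h1 := hg i p hp hi
  have h2 : DifferentiableAt ℂ (fun q => A.e i (g.symm q)) (splE d m (glu d m p)) := by
    rw [splE_apply, spl_glu]; exact h1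
  exact h2.comp (glu d m p) (splE d m).differentiableAt

/-- the Jacobian of the leaf is a block of the Jacobian of the product chart -/
theorem Jp_JJ (hg : PCpt A g) {k : B.ι} {t : T} (ht : t ∈ (B.e k).source)
    (hi : jj t ∈ (A.e i).source)
    (hsy : ∀ z ∈ (B.e k).target, (z, 0) ∈ g.target ∧ g.symm (z, 0) = jj ((B.e k).symm z)) :
    Jp B A jj k i t = (JJ A g i (B.e k t, 0)).submatrix id (Fin.castAdd m) := by
  have hz : B.e k t ∈ (B.e k).target := (B.e k).map_source ht
  obtain ⟨h1, h2⟩ := hsy _ hz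
  rw [(B.e k).left_inv ht] at h2
  have e1 : rd B A jj k i =ᶠ[𝓝 (B.e k t)]
      fun z => A.e i (g.symm (spl d m (glu d m (z, 0)))) := by
    filter_upwards [(B.e k).open_target.mem_nhds hz] with z hz
    show A.e i (jj ((B.e k).symm z)) = _
    rw [spl_glu, (hsy z hz).2]
  have h3 := diff_JJ hg h1 (by rw [h2]; exact hi)
  let inc : Cn d →L[ℂ] Cn (d + m) :=
    ((splE d m).symm : (Cn d × Cn m) →L[ℂ] Cn (d + m)).comp (ContinuousLinearMap.inl ℂ (Cn d) (Cn m))
  have hinc : ∀ z, inc z = glu d m (z, 0) := fun z => by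
    show (splE d m).symm (z, 0) = _
    rw [ContinuousLinearEquiv.symm_apply_eq, splE_apply, spl_glu]
  have h4 : fderiv ℂ (rd B A jj k i) (B.e k t) =
      (fderiv ℂ (fun z => A.e i (g.symm (spl d m z))) (glu d m (B.e k t, 0))).comp inc := by
    rw [e1.fderiv_eq]
    have h5 : HasFDerivAt (fun z => A.e i (g.symm (spl d m z)))
      (fderiv ℂ (fun z => A.e i (g.symm (spl d m z))) (glu d m (B.e k t, 0))) (inc (B.e k t)) := by
      rw [hinc]; exact h3.hasFDerivAt
    have h6 := h5.comp (B.e k t) inc.hasFDerivAt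
    have h7 : ((fun z => A.e i (g.symm (spl d m z))) ∘ inc) =
        fun z => A.e i (g.symm (spl d m (glu d m (z, 0)))) := by
      funext z
      show A.e i (g.symm (spl d m (inc z))) = _
      rw [hinc]
    rw [h7] at h6
    exact h6.fderiv
  rw [Jp_eq, h4, mt_comp]
  ext a b
  rw [Matrix.mul_apply, Matrix.submatrix_apply]
  have h8 : ∀ c, mt inc c b = if c = Fin.castAdd m b then 1 else 0 := by
    intro c
    show (inc (EuclideanSpace.single b 1)) c = _
    rw [hinc]
    refine Fin.addCases (fun c => ?_) (fun c => ?_) c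
    · simp [glu, Pi.single_apply, Fin.ext_iff]
    · simp [glu, Fin.ext_iff]
      omega
  simp only [h8]
  simp [JJ]

/-- derivative of `f` in the chart `i` -/
def Df (A : Atl (d + m) M) (f : M → Cn m) (i : A.ι) (x : M) : Matrix (Fin m) (Fin (d + m)) ℂ :=
  mt (fderiv ℂ (fun z => f ((A.e i).symm z)) (A.e i x))

/-- `Df * J = Pm` -/
theorem Df_JJ (hg : PCpt A g) {f : M → Cn m} (hsnd : ∀ x ∈ g.source, (g x).2 = f x)
    {p : Cn d × Cn m} (hp : p ∈ g.target) (hi : g.symm p ∈ (A.e i).source)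
    (hf : DifferentiableAt ℂ (fun z => f ((A.e i).symm z)) (A.e i (g.symm p))) :
    Df A f i (g.symm p) * JJ A g i p = Pm d m := by
  have h3 := diff_JJ hg hp hi
  have h5 : HasFDerivAt (fun z => f ((A.e i).symm z))
      (fderiv ℂ (fun z => f ((A.e i).symm z)) (A.e i (g.symm p)))
      (A.e i (g.symm (spl d m (glu d m p)))) := by
    rw [spl_glu]; exact hf.hasFDerivAt
  have h6 := h5.comp (glu d m p) h3.hasFDerivAt
  let pr : Cn (d + m) →L[ℂ] Cn m :=
    (ContinuousLinearMap.snd ℂ (Cn d) (Cn m)).comp ((splE d m) : Cn (d + m) →L[ℂ] (Cn d × Cn m))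
  have h7 : ((fun z => f ((A.e i).symm z)) ∘ fun z => A.e i (g.symm (spl d m z))) =ᶠ[𝓝 (glu d m p)]
      pr := by
    have h8 : ∀ᶠ z in 𝓝 (glu d m p), spl d m z ∈ g.target ∧ g.symm (spl d m z) ∈ (A.e i).source := by
      have h9 : ContinuousAt (spl d m) (glu d m p) := (splE d m).continuous.continuousAt
      refine h9.eventually (p := fun q => q ∈ g.target ∧ g.symm q ∈ (A.e i).source) ?_
      rw [spl_glu]
      exact (g.symm.isOpen_inter_preimage (A.e i).open_source).mem_nhds ⟨hp, hi⟩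
    filter_upwards [h8] with z hz
    show f ((A.e i).symm (A.e i (g.symm (spl d m z)))) = (spl d m z).2
    rw [(A.e i).left_inv hz.2, ← hsnd _ (g.map_target hz.1), g.right_inv hz.1]
  have h9 : (fderiv ℂ (fun z => f ((A.e i).symm z)) (A.e i (g.symm p))).comp
      (fderiv ℂ (fun z => A.e i (g.symm (spl d m z))) (glu d m p)) = pr := by
    rw [← h6.fderiv, h7.fderiv_eq]
    exact pr.fderiv
  rw [Df, JJ, ← mt_comp, h9]
  ext b a
  show (spl d m (EuclideanSpace.single a 1)).2 b = _
  simp only [spl, Pm, Matrix.of_apply, PiLp.single_apply]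
  simp only [eq_comm]

/-- the Jacobian is invertible -/
theorem det_JJ (hg : PCpt A g)
    (hg' : ∀ i, ∀ x ∈ g.source, x ∈ (A.e i).source →
      DifferentiableAt ℂ (fun z => g ((A.e i).symm z)) (A.e i x))
    {p : Cn d × Cn m} (hp : p ∈ g.target) (hi : g.symm p ∈ (A.e i).source) :
    (JJ A g i p).det ≠ 0 := by
  have h3 := diff_JJ hg hp hi
  have h4 := hg' i _ (g.map_target hp) hi
  have h5 : HasFDerivAt (fun z => g ((A.e i).symm z))
      (fderiv ℂ (fun z => g ((A.e i).symm z)) (A.e i (g.symm p)))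
      (A.e i (g.symm (spl d m (glu d m p)))) := by
    rw [spl_glu]; exact h4.hasFDerivAt
  have h6 := ((splE d m).symm.hasFDerivAt (x := g ((A.e i).symm (A.e i (g.symm
    (spl d m (glu d m p))))))).comp (glu d m p) (h5.comp (glu d m p) h3.hasFDerivAt)
  have h7 : (((splE d m).symm : (Cn d × Cn m) → Cn (d + m)) ∘
      ((fun z => g ((A.e i).symm z)) ∘ fun z => A.e i (g.symm (spl d m z)))) =ᶠ[𝓝 (glu d m p)]
      id := by
    have h8 : ∀ᶠ z in 𝓝 (glu d m p), spl d m z ∈ g.target ∧ g.symm (spl d m z) ∈ (A.e i).source := by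
      have h9 : ContinuousAt (spl d m) (glu d m p) := (splE d m).continuous.continuousAt
      refine h9.eventually (p := fun q => q ∈ g.target ∧ g.symm q ∈ (A.e i).source) ?_
      rw [spl_glu]
      exact (g.symm.isOpen_inter_preimage (A.e i).open_source).mem_nhds ⟨hp, hi⟩
    filter_upwards [h8] with z hz
    show (splE d m).symm (g ((A.e i).symm (A.e i (g.symm (spl d m z))))) = z
    rw [(A.e i).left_inv hz.2, g.right_inv hz.1, ContinuousLinearEquiv.symm_apply_eq]
    rfl
  have h9 := h6.congr_of_eventuallyEq h7.symm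
  have h10 := h9.unique (hasFDerivAt_id _)
  have h11 := congrArg Map_835.mt h10
  rw [← ContinuousLinearMap.comp_assoc, mt_comp] at h11
  have h12 := congrArg Matrix.det h11
  rw [Matrix.det_mul, mt_id, Matrix.det_one] at h12
  exact right_ne_zero_of_mul (h12.trans_ne one_ne_zero)

/-- **the pointwise estimate** -/
theorem low_pt (hg : PCpt A g) {f : M → Cn m} (hsnd : ∀ x ∈ g.source, (g x).2 = f x)
    {p : Cn d × Cn m} (hp : p ∈ g.target) (hi : g.symm p ∈ (A.e i).source)
    (hf : DifferentiableAt ℂ (fun z => f ((A.e i).symm z)) (A.e i (g.symm p)))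
    {K be : Kah A} {c : ℝ} (hc : 0 ≤ c)
    (hJ : (JJ A g i p).det ≠ 0)
    (hlow : (K.g i (g.symm p) - be.g i (g.symm p) -
      (c : ℂ) • ((Df A f i (g.symm p))ᵀ * (Df A f i (g.symm p)).map conj)).PosSemidef) :
    c ^ m * (lb ((JJ A g i p)ᵀ * be.g i (g.symm p) * (JJ A g i p).map conj)).det.re ≤
      ‖(JJ A g i p).det‖ ^ 2 * (volK K).w i (g.symm p) := by
  set x := g.symm p with hx
  set J := JJ A g i p with hJd
  have hJs : (J.map conj)ᴴ = Jᵀ := by
    ext a b
    simp [Matrix.conjTranspose_apply]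
  have h1 := hlow.conjTranspose_mul_mul_same (J.map conj)
  rw [hJs] at h1
  have e1 : Jᵀ * (K.g i x - be.g i x - (c : ℂ) • ((Df A f i x)ᵀ * (Df A f i x).map conj)) *
      J.map conj = Jᵀ * K.g i x * J.map conj - Jᵀ * be.g i x * J.map conj -
        (c : ℂ) • ((Pm d m)ᵀ * (Pm d m).map conj) := by
    rw [← Df_JJ hg hsnd hp hi hf, ← hx, ← hJd, Matrix.transpose_mul, Matrix.map_mul]
    simp only [Matrix.mul_sub, Matrix.sub_mul, Matrix.mul_smul, Matrix.smul_mul, Matrix.mul_assoc]
  rw [e1] at h1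
  have h2 : (Jᵀ * be.g i x * J.map conj).PosDef := by
    have h3 := (be.pos i x hi).conjTranspose_mul_mul_same (B := J.map conj) ?_
    · rwa [hJs] at h3
    · refine Matrix.mulVec_injective_of_isUnit ?_
      rw [Matrix.isUnit_iff_isUnit_det, ← RingHom.mapMatrix_apply, ← RingHom.map_det, isUnit_iff_ne_zero]
      simpa using hJ
  refine (det_low h2 hc h1).trans (le_of_eq ?_)
  rw [jac_det]
  rfl

end

end Crest.Agent.R281.Om_854
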