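import Crest.Agent.R281.Tube2_989
import Crest.Agent.R281.ThnM_280
import Crest.Agent.R281.Thin3_524

/-!
# R281 (S0424), DIV 6, OM-ASM (helper524): from ratios of sections to `LFib`

`X0 ⊆ M` open, `y : M → Cn n` holomorphic on `X0` in the charts.

* `RegAt A y p`  : `dy` is surjective at `p` (in every chart);
* `Bad A X0 y`   : the points of `X0` over critical values;
* `exists_lfib`  : if `X0ᶜ ∪ Bad` is `σ`-thin in the charts (helper280), every leaf over a regular
  value is compact (helper854) and `ker dy` is isotropic at the regular points (helper677), then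
  the compact regular leaves form a Lagrangian fibration `LFib A σ` (helper664).
-/

set_option autoImplicit false
set_option linter.unusedSectionVars false

open Set Filter Topology Metric Function

namespace Crest.Agent.R281.OmA_524

open Crest.Agent.R275.Geo Crest.Agent.R281.Defs_273 Crest.Agent.R281.S6D_664
open Crest.Agent.R281.Tube1_989 Crest.Agent.R281.Tube2_989 Crest.Agent.R281.Thn_280
open Crest.Agent.R281.ThnM_280 (SThM)
open Crest.Agent.R281.Thin3_524 (LT LTM preconnected_of_thin)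

noncomputable section

variable {N m n : ℕ} {M : Type} [TopologicalSpace M]

/-- `dy` is surjective at `p`, in every chart -/
def RegAt (A : Atl N M) (y : M → Cn m) (p : M) : Prop := ∀ i, p ∈ (A.e i).source → Sj A y i p

/-- the points over critical values -/
def Bad (A : Atl N M) (X0 : Set M) (y : M → Cn m) : Set M :=
  {x | x ∈ X0 ∧ ∃ p ∈ X0, y p = y x ∧ ¬ RegAt A y p}

theorem ltm_of_sthM {A : Atl N M} {S : Set M} (h : SThM A S) : LTM A.e S := by
  intro i z _
  exact (h i).dense_line z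

/-- **OM-ASM** -/
theorem exists_lfib [T2Space M] [PreconnectedSpace M] (A : Atl (2 * n) M) (σ : HSymp A)
    {X0 : Set M} (hX0 : IsOpen X0) {y : M → Cn n} (hy : HolOn A X0 y)
    (hth : SThM A (X0ᶜ ∪ Bad A X0 y))
    (hcpt : ∀ x ∈ X0, x ∉ Bad A X0 y → IsCompact (leaf X0 y x))
    (hlag : ∀ i, ∀ x ∈ (A.e i).source, x ∈ X0 → Sj A y i x → ∀ v w : Cn (2 * n),
      fderiv ℂ (fun z => y ((A.e i).symm z)) (A.e i x) v = 0 →
      fderiv ℂ (fun z => y ((A.e i).symm z)) (A.e i x) w = 0 →
      ∑ a, ∑ b, v a * σ.s i x a b * w b = 0) :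
    ∃ F : LFib A σ, F.Om = {x | x ∈ X0 ∧ IsCompact (leaf X0 y x) ∧
      ∀ p ∈ leaf X0 y x, RegAt A y p} ∧ F.Tf = leaf X0 y := by
  set Om : Set M := {x | x ∈ X0 ∧ IsCompact (leaf X0 y x) ∧ ∀ p ∈ leaf X0 y x, RegAt A y p}
    with hOm
  have htube : ∀ x ∈ Om, ∃ τ : Tube A n (leaf X0 y), x ∈ τ.W ∧ τ.W ⊆ Om ∧ τ.W ⊆ X0 ∧
      τ.f = y := by
    rintro x ⟨hx, hc, hr⟩
    obtain ⟨τ, h1, -, h3, h4, -, h5⟩ := exists_tube (d := n) (by omega) hX0 hy hx hc hr isOpen_univ
      (subset_univ _)
    refine ⟨τ, h1 (mem_leaf hx), fun p hp => ⟨h3 hp, h5 p hp, fun q hq i hi => ?_⟩, h3, h4⟩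
    have h6 : q ∈ τ.W := by
      have := τ.fib p hp
      rw [this] at hq
      exact hq.1
    have h7 := τ.sub i q ⟨hi, h6⟩
    rw [h4] at h7
    exact h7
  have hop : IsOpen Om := by
    rw [isOpen_iff_mem_nhds]
    intro x hx
    obtain ⟨τ, h1, h2, -, -⟩ := htube x hx
    exact mem_of_superset (τ.oW.mem_nhds h1) h2
  have hcompl : Omᶜ ⊆ X0ᶜ ∪ Bad A X0 y := by
    intro x hx
    by_cases hx0 : x ∈ X0
    · right
      by_contra hb
      refine hx ⟨hx0, hcpt x hx0 hb, fun p hp => ?_⟩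
      by_contra hp'
      exact hb ⟨hx0, p, leaf_X0 hp, leaf_y hp, hp'⟩
    · exact Or.inl hx0
  have hS : SThM A Omᶜ := hth.mono hcompl
  have hdns : Dense Om := by
    have := hS.dense_compl
    rwa [compl_compl] at this
  refine ⟨{
    Om := Om
    Tf := leaf X0 y
    op := hop
    dns := hdns
    cn := ?_
    tube := ?_
    thin := ?_
    sth := hS }, rfl, rfl⟩
  · refine preconnected_of_thin A.cover hop ?_
    exact ltm_of_sthM (hS.mono fun x hx => hx.2)
  · intro x hx
    obtain ⟨τ, h1, h2, h3, h4⟩ := htube x hx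
    refine ⟨τ, h1, h2, fun i x' hx' v w hv hw => ?_⟩
    rw [h4] at hv hw
    refine hlag i x' hx'.1 (h3 hx'.2) ?_ v w hv hw
    have := τ.sub i x' hx'
    rw [h4] at this
    exact this
  · intro i z hz _
    exact (hS i).dense_line z

end

end Crest.Agent.R281.OmA_524
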