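import Crest.Agent.R281.Om3_854
import Crest.Agent.R281.Lf3_703
import Crest.Agent.R281.LfS_901
import Crest.Agent.R281.OmA_524

/-!
# R281 (S0424), S6-OMEGA (helper854), part 4: the leaf through a regular point, normalised sections

* `pcs_of_pc`  : 703's product charts give `PCs`
* `nzs s c`    : `(s_0, s_{a+1} - c_a s_0)`
* `exists_leaf`: the leaf of `qf s` through a point over a regular value, as an `Lf`
-/

set_option autoImplicit false
set_option linter.unusedSectionVars false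

open Set Filter Topology Complex MeasureTheory Metric
open scoped ContDiff Matrix ComplexConjugate Manifold ComplexOrder ENNReal Pointwise

namespace Crest.Agent.R281.Om_854

open Crest.Agent.R275.Geo Crest.Agent.R275.Core144 Crest.Agent.R275.EDR890
open Crest.Agent.R273.Defs_333 Crest.Agent.R273.Kah_333 Crest.Agent.R273.Vol_333
open Crest.Agent.R273.Vm_333 Crest.Agent.R273.Map_835 Crest.Agent.R273.KahI_645
open Crest.Agent.R273.Fam_835 Crest.Agent.R272.FamP_54 Crest.Agent.R273
open Crest.Agent.R281.S6D_664 Crest.Agent.R281.Lf_703 Crest.Agent.R281.LfS_901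
open Crest.Agent.R281.Tube1_989 Crest.Agent.R281.Tube2_989 Crest.Agent.R281.OmA_524

noncomputable section

variable {N d m : ℕ} {M : Type} [TopologicalSpace M]

/-! ### product charts -/

theorem pcs_of_pc {A : Atl (d + m) M} {O X0 : Set M} {f : M → Cn m} (T : Lf A d O)
    (G : PC T X0 f (0 : Cn m)) (hfy : ∀ v, f (T.i v) = 0) : PCs A X0 f T.B T.i := by
  intro k
  refine ⟨G.G k, G.sub k, fun i p hp hi => (G.cpt k).hol' i p hp hi,
    fun i x hx hi => (G.cpt k).hol x hx i hi, G.snd k, fun z hz => ?_⟩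
  have h1 : (z, (0 : Cn m)) ∈ (G.G k).target := by
    rw [G.tgt k]
    exact ⟨hz, mem_ball_self (G.hr k)⟩
  refine ⟨h1, ?_⟩
  set v := (T.B.e k).symm z with hv
  have hvs : v ∈ (T.B.e k).source := (T.B.e k).map_target hz
  have h2 : T.i v ∈ (G.G k).source := (G.src k v).1 hvs
  have h3 : G.G k (T.i v) = (z, 0) := by
    refine Prod.ext ?_ ?_
    · rw [G.fst k v hvs, hv, (T.B.e k).right_inv hz]
    · rw [G.snd k _ h2, hfy]
  rw [← h3, (G.G k).left_inv h2]

/-! ### normalisation of the sections -/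

variable {A : Atl N M} {L : LB A} {s : Fin (m + 1) → A.ι → M → ℂ}

/-- the sections `(s_0, s_{a+1} - c_a s_0)` -/
def nzs (s : Fin (m + 1) → A.ι → M → ℂ) (c : Cn m) : Fin (m + 1) → A.ι → M → ℂ :=
  Fin.cons (s 0) fun a => fun i x => s a.succ i x - c a * s 0 i x

theorem nzs_zero (c : Cn m) : nzs s c 0 = s 0 := rfl

theorem nzs_succ (c : Cn m) (a : Fin m) (i : A.ι) (x : M) :
    nzs s c a.succ i x = s a.succ i x - c a * s 0 i x := rfl

theorem isHS_nzs (h : ∀ a, IsHS L univ (s a)) (c : Cn m) (a : Fin (m + 1)) :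
    IsHS L univ (nzs s c a) := by
  refine Fin.cases ?_ (fun a => ?_) a
  · exact h 0
  · have h1 : nzs s c a.succ = s a.succ + (-(c a)) • s 0 := by
      funext i x
      rw [nzs_succ]
      simp only [Pi.add_apply, Pi.smul_apply, smul_eq_mul]
      ring
    rw [h1]
    exact (h a.succ).add ((h 0).smul _)

theorem u0_nzs (c : Cn m) : U0 (nzs s c) = U0 s := rfl

theorem qf_nzs {x : M} (h : ∀ a, IsHS L univ (s a)) (hx : x ∈ U0 s) (c : Cn m) :
    qf (nzs s c) x = qf s x - c := by
  ext a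
  have hc := LfS_901.ch_mem A x
  have h0 := (mem_u0 h hc).1 hx
  show nzs s c a.succ (LfS_901.ch A x) x / nzs s c 0 (LfS_901.ch A x) x =
    s a.succ (LfS_901.ch A x) x / s 0 (LfS_901.ch A x) x - c a
  rw [nzs_succ, nzs_zero, sub_div, mul_div_cancel_right₀ _ h0]

theorem set_nzs (h : ∀ a, IsHS L univ (s a)) (c : Cn m) :
    U0 (nzs s c) ∩ qf (nzs s c) ⁻¹' {0} = U0 s ∩ qf s ⁻¹' {c} := by
  rw [u0_nzs]
  ext x
  constructor
  · rintro ⟨hx, h1⟩
    have h2 : qf (nzs s c) x = 0 := h1
    rw [qf_nzs h hx, sub_eq_zero] at h2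
    exact ⟨hx, h2⟩
  · rintro ⟨hx, h1⟩
    have h2 : qf s x = c := h1
    refine ⟨hx, ?_⟩
    show qf (nzs s c) x = 0
    rw [qf_nzs h hx, h2, sub_self]

theorem surj_nzs (h : ∀ a, IsHS L univ (s a)) (c : Cn m) {x : M} (hx : x ∈ U0 s) {j : A.ι}
    (hj : x ∈ (A.e j).source) (hs : Sj A (qf s) j x) : Sj A (qf (nzs s c)) j x := by
  unfold Sj at hs ⊢
  have h1 : (fun z => qf (nzs s c) ((A.e j).symm z)) =ᶠ[𝓝 (A.e j x)]
      fun z => qf s ((A.e j).symm z) - c := by
    have h2 : ContinuousAt (A.e j).symm (A.e j x) := (A.e j).continuousAt_symm ((A.e j).map_source hj)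
    have h3 : ∀ᶠ z in 𝓝 (A.e j x), (A.e j).symm z ∈ U0 s := by
      refine h2.eventually ?_
      rw [(A.e j).left_inv hj]
      exact (isOpen_u0 h).mem_nhds hx
    filter_upwards [h3] with z hz
    exact qf_nzs h hz c
  rw [h1.fderiv_eq, fderiv_sub_const]
  exact hs

/-- **the leaf through a point over a regular value** -/
theorem exists_leaf [T2Space M] [SecondCountableTopology M] (hN : N = d + m)
    (h : ∀ a, IsHS L univ (s a)) {x : M} (hx : x ∈ U0 s) (hb : x ∉ Bad A (U0 s) (qf s)) :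
    ∃ T : Lf A d (U0 (nzs s (qf s x))), range T.i = leaf (U0 s) (qf s) x ∧
      Nonempty (PC T (U0 (nzs s (qf s x))) (qf (nzs s (qf s x))) 0) ∧
      ∀ v, qf (nzs s (qf s x)) (T.i v) = 0 := by
  set c := qf s x with hc
  set s' := nzs s c with hs'
  have h' := isHS_nzs h c
  have hset := set_nzs h c
  have hreg : ∀ p ∈ U0 s', qf s' p = 0 → ∀ j, p ∈ (A.e j).source →
      Function.Surjective (fderiv ℂ (fun z => qf s' ((A.e j).symm z)) (A.e j p)) := by
    intro p hp hp0 j hj
    have h1 : p ∈ U0 s ∩ qf s ⁻¹' {c} := by rw [← hset]; exact ⟨hp, hp0⟩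
    refine surj_nzs h c h1.1 hj ?_
    by_contra hne
    exact hb ⟨hx, p, h1.1, h1.2, fun hr => hne (hr j hj)⟩
  have hpx : x ∈ U0 s' := hx
  have hpy : qf s' x = 0 := by rw [qf_nzs h hx, sub_self]
  obtain ⟨T, h1, h2⟩ := exists_Lf (n := d) hN (isOpen_u0 h') (hf_qf h') hreg hpx hpy
    (O := U0 s') (fun p hp => hp.1) (by
      intro p hp hpO
      refine ⟨hpO, ?_⟩
      have h3 : ContinuousAt (qf s') p := by
        obtain ⟨j, hj⟩ := A.cover p
        have h4 : ContinuousAt (fun q => qf s' ((A.e j).symm (A.e j q))) p :=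
          ContinuousAt.comp (g := fun z => qf s' ((A.e j).symm z))
            (hf_qf h' p hpO j hj).continuousAt ((A.e j).continuousAt hj)
        refine h4.congr ?_
        filter_upwards [(A.e j).open_source.mem_nhds hj] with q hq
        rw [(A.e j).left_inv hq]
      have h5 : p ∈ closure (qf s' ⁻¹' {0}) := closure_mono inter_subset_right hp
      show qf s' p = 0
      by_contra hne
      obtain ⟨q, hq1, hq2⟩ := mem_closure_iff_nhds.1 h5 _ (h3.eventually_ne hne)
      exact hq1 hq2)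
  refine ⟨T, ?_, h2, fun v => ?_⟩
  · rw [h1, hset]
    rfl
  · have h3 : T.i v ∈ U0 s' ∩ qf s' ⁻¹' {0} := by
      have h4 : T.i v ∈ range T.i := ⟨v, rfl⟩
      rw [h1] at h4
      exact connectedComponentIn_subset _ _ h4
    exact h3.2

end

end Crest.Agent.R281.Om_854
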