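import Crest.Agent.R281.Om4_854
import Crest.Agent.R281.OmB_524
import Crest.Agent.R281.Har5_331

/-!
# R281 (S0424), S6-OMEGA (helper854), part 5: compactness of the leaves over regular values

* `x0s_eq`, `ys_eq_qf` : 524's carriers are 901's
* `proper_rho`  : `{a ≤ ρ}` is compact in the leaf
* `hcpt_of`     : 524's `hcpt` from `CompactSpace` of the leaves
-/

set_option autoImplicit false
set_option linter.unusedSectionVars false

open Set Filter Topology Complex MeasureTheory Metric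
open scoped ContDiff Matrix ComplexConjugate Manifold ComplexOrder ENNReal Pointwise

namespace Crest.Agent.R281.Om_854

open Crest.Agent.R275.Geo Crest.Agent.R275.Core144 Crest.Agent.R275.EDR890
open Crest.Agent.R273.Defs_333 Crest.Agent.R273.Kah_333 Crest.Agent.R273.Vol_333
open Crest.Agent.R273.HM_333 Crest.Agent.R273
open Crest.Agent.R273.Vm_333 Crest.Agent.R273.Map_835 Crest.Agent.R273.KahI_645
open Crest.Agent.R273.Fam_835 Crest.Agent.R272.FamP_54
open Crest.Agent.R281.S6D_664 Crest.Agent.R281.Lf_703 Crest.Agent.R281.LfS_901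
open Crest.Agent.R281.Tube1_989 Crest.Agent.R281.Tube2_989 Crest.Agent.R281.OmA_524
open Crest.Agent.R281.OmB_524 Crest.Agent.R281.Rk_599 Crest.Agent.R281.Glob1_484
open Crest.Agent.R281.Har_331

noncomputable section

variable {N d m : ℕ} {M : Type} [TopologicalSpace M] {A : Atl N M} {L : LB A}
  {s : Fin (m + 1) → A.ι → M → ℂ}

theorem x0s_eq (h : ∀ a, IsHS L univ (s a)) : X0s A s = U0 s := by
  ext x
  have hx := LfS_901.ch_mem A x
  rw [mem_X0s_iff h hx, mem_u0 h hx]

theorem ys_eq_qf (h : ∀ a, IsHS L univ (s a)) : ys A s = qf s := by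
  funext x
  ext a
  rw [ys_eq h (LfS_901.ch_mem A x), qf_eq h (LfS_901.ch_mem A x)]

theorem nsM_pos (h' : HM L) (h : ∀ a, IsHS L univ (s a)) {x : M} (hx : x ∈ U0 s) :
    0 < nsM h' (s 0) x :=
  nsM_pos_of h' fun _ hi => (mem_u0 h hi).1 hx

theorem mem_u0_of_pos (h' : HM L) (h : ∀ a, IsHS L univ (s a)) {x : M}
    (hx : 0 < nsM h' (s 0) x) : x ∈ U0 s := by
  have hc := LfS_901.ch_mem A x
  rw [mem_u0 h hc]
  intro h0
  rw [nsM_eq h' (h 0) hc, nsq, h0] at hx
  simp at hx

/-- `{a ≤ ρ}` is compact in a leaf -/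
theorem proper_rho [CompactSpace M] (h' : HM L) (h : ∀ a, IsHS L univ (s a))
    (T : Lf A d (U0 s)) (a : ℝ) : IsCompact {t | a ≤ rho h' (s 0) T.i t} := by
  have h1 : Continuous (nsM h' (s 0)) := FIc0_597.cont_sm (sm_nsM h' (h 0))
  have h2 : IsCompact {x : M | Real.exp a ≤ nsM h' (s 0) x} :=
    (isClosed_le continuous_const h1).isCompact
  have h3 := T.cls _ (fun x hx => mem_u0_of_pos h' h ((Real.exp_pos a).trans_le hx)) h2
  convert h3 using 1
  ext t
  have h4 := nsM_pos h' h (T.mem t)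
  show a ≤ Real.log (nsM h' (s 0) (T.i t)) ↔ Real.exp a ≤ nsM h' (s 0) (T.i t)
  rw [Real.le_log_iff_exp_le h4]

/-- **524's `hcpt`** from the compactness of the leaves of the normalised sections -/
theorem hcpt_of [T2Space M] [SecondCountableTopology M] (hN : N = d + m)
    (h : ∀ a, IsHS L univ (s a))
    (HC : ∀ (c : Cn m) (T : Lf A d (U0 (nzs s c))), PC T (U0 (nzs s c)) (qf (nzs s c)) 0 →
      (∀ v, qf (nzs s c) (T.i v) = 0) → CompactSpace T.V) :
    ∀ x ∈ X0s A s, (∀ p ∈ X0s A s, ys A s p = ys A s x → ∃ i, Rk A s i p) →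
      IsCompact (leaf (X0s A s) (ys A s) x) := by
  intro x hx hreg
  have hb : x ∉ Bad A (X0s A s) (ys A s) := by
    rintro ⟨-, p, hp, hpx, hr⟩
    exact hr ((regAt_iff h hp).2 (hreg p hp hpx))
  rw [x0s_eq h, ys_eq_qf h] at hb ⊢
  rw [x0s_eq h] at hx
  obtain ⟨T, h1, ⟨G⟩, h2⟩ := exists_leaf hN h hx hb
  have := HC _ T G h2
  rw [← h1]
  exact isCompact_range T.ind.continuous

end

end Crest.Agent.R281.Om_854
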