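import Crest.Agent.R281.Om5_854
import Crest.Agent.R281.OmH4_331
import Crest.Agent.R281.D6b_986
import Crest.Agent.R273.AsmB_73

/-!
# R281 (S0424), S6-OMEGA (helper854), part 6: the assembly

* `MassP`      : output of OM-MASS (helper980), as a Prop
* `BrP`        : output of OM-LAG (helper677), as a Prop
* `omOut_of`   : rank `n` somewhere ⟹ `OmOut σ L`
-/

set_option autoImplicit false
set_option linter.unusedSectionVars false

open Set Filter Topology Complex MeasureTheory Metric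
open scoped ContDiff Matrix ComplexConjugate Manifold ComplexOrder ENNReal Pointwise

namespace Crest.Agent.R281.Om_854

open Crest.Agent.R275.Geo Crest.Agent.R275.Core144 Crest.Agent.R275.EDR890
open Crest.Agent.R273.Defs_333 Crest.Agent.R273.Kah_333 Crest.Agent.R273.Vol_333
open Crest.Agent.R273.HM_333 Crest.Agent.R273
open Crest.Agent.R273.Vm_333 Crest.Agent.R273.Map_835 Crest.Agent.R273.KahI_645
open Crest.Agent.R273.Fam_835 Crest.Agent.R272.FamP_54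
open Crest.Agent.R281.S6D_664 Crest.Agent.R281.Lf_703 Crest.Agent.R281.LfS_901
open Crest.Agent.R281.Tube1_989 Crest.Agent.R281.Tube2_989 Crest.Agent.R281.OmA_524
open Crest.Agent.R281.OmB_524 Crest.Agent.R281.Rk_599 Crest.Agent.R281.Glob1_484
open Crest.Agent.R281.Har_331 Crest.Agent.R281.Defs_273 Crest.Agent.R281.D6_986

noncomputable section

variable {N d m n : ℕ} {M : Type} [TopologicalSpace M]

/-- output of OM-MASS -/
def MassP {A : Atl N M} (K : Kah A) (L : LB A) (k d m : ℕ) : Prop :=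
  ∀ (s : Fin (m + 1) → A.ι → M → ℂ), (∀ a, IsHS (L ^ k) univ (s a)) → ∀ (T : Lf A d (U0 s)),
    PC T (U0 s) (qf s) 0 → (∀ v, qf s (T.i v) = 0) →
    ∀ [MeasurableSpace T.V] [BorelSpace T.V],
      vm (volK (pullI K T.hol T.imm)) univ < ⊤ ∧
      ∀ μ : ℝ, 0 < μ → ∃ e0 : ℝ, 0 < e0 ∧ ∀ e : ℝ, 0 < e → e < e0 → ∀ h' : HM L,
        (∀ i, ∀ x ∈ (A.e i).source, (cur h' i x + (e : ℂ) • K.g i x).PosSemidef) →
        ∫ t, (trT K T.hol T.imm (cur h') t + 2 * e * d) ∂(vm (volK (pullI K T.hol T.imm))) ≤ μ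

/-- output of OM-LAG -/
def BrP {A : Atl (2 * n) M} (σ : HSymp A) {m : ℕ} (s : Fin (m + 1) → A.ι → M → ℂ) : Prop :=
  ∀ i, ∀ x ∈ (A.e i).source, s 0 i x ≠ 0 → Dm A s i x * (σ.s i x)⁻¹ * (Dm A s i x)ᵀ = 0

/-- **the leaves over regular values are compact** -/
theorem compact_lf [CompactSpace M] {A : Atl N M} {L : LB A} (K : Kah A) (hnef : NefW K L)
    {k : ℕ} (hk : 0 < k) (hmass : MassP K L k d m) (h : HM L) {c1 : ℝ} (hc1 : 0 < c1)
    (hlow : LowP K (pow h k) d c1) (s : Fin (m + 1) → A.ι → M → ℂ)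
    (hs : ∀ a, IsHS (L ^ k) univ (s a)) (T : Lf A d (U0 s)) (G : PC T (U0 s) (qf s) 0)
    (hfy : ∀ v, qf s (T.i v) = 0) : CompactSpace T.V := by
  let _ : MeasurableSpace T.V := borel T.V
  have : BorelSpace T.V := ⟨rfl⟩
  obtain ⟨h1, h2⟩ := hmass s hs T G hfy
  exact compact_leaf K T.hol T.imm T.P h (hs 0) (fun t => nsM_pos (pow h k) hs (T.mem t))
    (proper_rho (pow h k) hs T) ⟨h1⟩ hk hnef hc1 hlow h2

/-- **S6-OMEGA**: rank `n` somewhere gives the Lagrangian fibration -/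
theorem omOut_of [T2Space M] [CompactSpace M] [ConnectedSpace M] {A : Atl (2 * n) M} [Finite A.ι]
    (K : Kah A) (σ : HSymp A) {L : LB A} (hnef : NefW K L) {k : ℕ} (hk : 0 < k)
    (hmass : MassP K L k n n) (hlow : ∀ h : HM L, ∃ c1, 0 < c1 ∧ LowP K (pow h k) n c1)
    {s : Fin (n + 1) → A.ι → M → ℂ} (hs : ∀ a, IsHS (L ^ k) univ (s a)) (hbr : BrP σ s)
    {i₀ : A.ι} {x₀ : M} (h₀ : Rk A s i₀ x₀) :
    ∃ o : OmOut σ L, o.k = k ∧ o.s = s 0 ∧ o.F.Tf = leaf (X0s A s) (ys A s) ∧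
      o.F.Om = {x | x ∈ X0s A s ∧ IsCompact (leaf (X0s A s) (ys A s) x) ∧
        ∀ p ∈ leaf (X0s A s) (ys A s) x, ∃ i, Rk A s i p} := by
  have : SecondCountableTopology M := Crest.Agent.R273.AsmA_73.secM (A := A)
  obtain ⟨h, -⟩ := hnef 1 one_pos
  obtain ⟨c1, hc1, hl⟩ := hlow h
  have hcpt := hcpt_of (d := n) (by omega) hs fun c T G hfy =>
    compact_lf K hnef hk hmass h hc1 hl (nzs s c) (isHS_nzs hs c) T G hfy
  obtain ⟨F, h1, h2⟩ := exists_lfib_sec A σ hs h₀ hcpt hbr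
  refine ⟨⟨F, k, hk, s 0, hs 0, fun x hx i hi => ?_⟩, rfl, rfl, h2, h1⟩
  rw [h1] at hx
  exact hx.1 i hi

end

end Crest.Agent.R281.Om_854
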