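import Crest.Agent.R281.OmH4_331
import Crest.Agent.R281.Hk7_389

/-!
# R281 (S0424), leaf OM-HAR (helper331), part 5: unconditional

* `lowP_of`        : `LowP` from helper389's `exists_c1`
* `compact_leaf_u` : a leaf of finite volume, `{a ≤ ρ}` compact, small mass, is compact.
-/

set_option autoImplicit false
set_option linter.unusedSectionVars false

open Set Filter Topology Complex MeasureTheory Function
open scoped ContDiff Matrix ComplexConjugate ComplexOrder

namespace Crest.Agent.R281.Har_331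

open Crest.Agent.R275 Crest.Agent.R275.Geo Crest.Agent.R275.Core144 Crest.Agent.R275.EDR890
open Crest.Agent.R273.Defs_333 Crest.Agent.R273.Hess_333 Crest.Agent.R273.HessB_333
open Crest.Agent.R273.HM_333 Crest.Agent.R273.Kah_333 Crest.Agent.R273.Vol_333
open Crest.Agent.R273.Vm_333 Crest.Agent.R273.Map_835 Crest.Agent.R273.KahI_645
open Crest.Agent.R273.Green_5 Crest.Agent.R273.FIa0_597 Crest.Agent.R273.FIb0_597
open Crest.Agent.R273.FIc0_597 Crest.Agent.R273
open Crest.Agent.R273.SchI_152 (Dg sm_sq Dg_nonneg continuous_Dg)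
open Crest.Agent.R281.Glob1_484 Crest.Agent.R281.S6D_664 Crest.Agent.R281.Defs_273

noncomputable section

variable {n : ℕ} {M : Type} [TopologicalSpace M] {A : Atl n M} {L L' : LB A}

/-- compact sets of `{s ≠ 0}` have compact preimage -/
theorem proper_of {T : Type} [TopologicalSpace T] (h : HM L) {s : A.ι → M → ℂ}
    (hs : IsHS L univ s) {f : T → M} (cf : Continuous f) [T2Space M]
    (hprop : ∀ a, IsCompact {t | a ≤ rho h s f t}) {Q : Set M} (hQ : IsCompact Q)
    (hpos : ∀ x ∈ Q, 0 < nsM h s x) : IsCompact (f ⁻¹' Q) := by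
  rcases Q.eq_empty_or_nonempty with rfl | hne
  · simp
  · have cn : Continuous (nsM h s) := cont_sm (sm_nsM h hs)
    obtain ⟨x0, hx0, hmin⟩ := hQ.exists_isMinOn hne cn.continuousOn
    refine (hprop (Real.log (nsM h s x0))).of_isClosed_subset (hQ.isClosed.preimage cf)
      fun t ht => ?_
    exact Real.log_le_log (hpos x0 hx0) (hmin ht)

/-- the converse of `proper_of` -/
theorem hprop_of {T : Type} [TopologicalSpace T] [CompactSpace M] (h : HM L)
    {s : A.ι → M → ℂ} (hs : IsHS L univ s) {f : T → M} (hp : ∀ t, 0 < nsM h s (f t))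
    (hcl : ∀ Q : Set M, IsCompact Q → (∀ x ∈ Q, 0 < nsM h s x) → IsCompact (f ⁻¹' Q)) (a : ℝ) :
    IsCompact {t | a ≤ rho h s f t} := by
  have cn : Continuous (nsM h s) := cont_sm (sm_nsM h hs)
  have h1 : {t | a ≤ rho h s f t} = f ⁻¹' {x | Real.exp a ≤ nsM h s x} := by
    ext t
    exact Real.le_log_iff_exp_le (hp t)
  rw [h1]
  exact hcl _ (isClosed_le continuous_const cn).isCompact fun x hx => (Real.exp_pos a).trans_le hx

/-- **`LowP`** -/
theorem lowP_of [T2Space M] [CompactSpace M] (K : Kah A) (h : HM L) {d : ℕ} (hd : 0 < d) :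
    ∃ c1 : ℝ, 0 < c1 ∧ LowP K h d c1 := by
  obtain ⟨c1, hc1, H⟩ := Hk_389.exists_c1 K h hd
  refine ⟨c1, hc1, ?_⟩
  intro T _ _ _ _ _ B _ P f hf hi s hs hp hprop q
  obtain ⟨Z, hZ, hZs, hZc⟩ := H T B P f hf hi s hs hp
    (fun Q hQ hpos => proper_of h hs hf.cont hprop hQ hpos) q
  set KT := pullI K hf hi with hKT
  set μ := vm (volK KT) with hμ
  set S : Set T := {x | rho h s f q - 1 < rho h s f x ∧ rho h s f x < rho h s f q + 1} with hS
  have sρ : B.Sm (rho h s f) := sm_rho h hs hf hp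
  have cG : Continuous (Dg KT (rho h s f)) := continuous_Dg KT sρ
  have : IsLocallyFiniteMeasure μ := isLocallyFinite_vm _
  have hC := hprop (rho h s f q - 1)
  have hsub : S ⊆ {t | rho h s f q - 1 ≤ rho h s f t} := fun x hx => hx.1.le
  have hZS : Z ⊆ S := fun x hx => hZs x hx
  have hfinS : μ S ≠ ⊤ := ((measure_mono hsub).trans_lt hC.measure_lt_top).ne
  have iS : IntegrableOn (Dg KT (rho h s f)) S μ :=
    (cG.continuousOn.integrableOn_compact hC).mono_set hsub
  refine hZc.trans (add_le_add ?_ ?_)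
  · exact measureReal_mono hZS hfinS
  · exact setIntegral_mono_set iS (Eventually.of_forall fun x => Dg_nonneg KT sρ x)
      (LE.le.eventuallyLE hZS)

/-- **a leaf of finite volume with `{a ≤ ρ}` compact and small mass is compact** -/
theorem compact_leaf_u [T2Space M] [CompactSpace M] (K : Kah A) {T : Type} [TopologicalSpace T]
    [T2Space T] [ConnectedSpace T] [MeasurableSpace T] [BorelSpace T] {d : ℕ} (hd : 0 < d)
    {B : Atl d T} [Countable B.ι] {f : T → M} (hf : HolMap B A f) (hi : Imm B A f) (P : Part B)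
    (h : HM L) {k : ℕ} {s : A.ι → M → ℂ} (hs : IsHS (L ^ k) univ s)
    (hp : ∀ t, 0 < nsM (pow h k) s (f t))
    (hprop : ∀ a, IsCompact {t | a ≤ rho (pow h k) s f t})
    (hfin : IsFiniteMeasure (vm (volK (pullI K hf hi)))) (hk : 0 < k) (hnef : NefW K L)
    (hM2 : ∀ μ : ℝ, 0 < μ → ∃ e0 : ℝ, 0 < e0 ∧ ∀ e : ℝ, 0 < e → e < e0 → ∀ h' : HM L,
      (∀ i, ∀ x ∈ (A.e i).source, (cur h' i x + (e : ℂ) • K.g i x).PosSemidef) →
      ∫ t, (trT K hf hi (cur h') t + 2 * e * d) ∂(vm (volK (pullI K hf hi))) ≤ μ) :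
    CompactSpace T := by
  obtain ⟨c1, hc1, hlow⟩ := lowP_of K (pow h k) hd
  exact compact_leaf K hf hi P h hs hp hprop hfin hk hnef hc1 hlow hM2

end

end Crest.Agent.R281.Har_331
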