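import Crest.Agent.R281.Vol3_847
import Crest.Agent.R281.Isq3_358

/-!
# Row 281, OM-VOL, part 4 (helper847): the final forms, with `Isotropic` of `Defs_273`

* `isoQ`    : `Isotropic P σ L → IsoQ`
* `vol`     : `∫ det (s K + t cur h + ∂∂̄ u) = c s^n (q₀ s + 2 q₁ t)^n`, `c, q₀ > 0`, `q₁ ≥ 0`
* `vol_bd`  : `∫ det (s K + t cur h) ≤ C s^n (s + t)^n`
* `qd_eq`   : `intD P (qd σ X X) = c q(X, X)`, `c > 0`, for every `X : K11 B`
* `qd_vol`  : `intD P (qd σ F F) = c (q₀ s² + 2 q₁ s t)` for `F = s K + t cur h + ∂∂̄ u`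
-/

set_option autoImplicit false
set_option linter.unusedSectionVars false
set_option maxSynthPendingDepth 3

open Set Filter Topology Complex MeasureTheory
open scoped ContDiff Matrix ComplexConjugate ComplexOrder

namespace Crest.Agent.R281.Vol_847

open Crest.Agent.R275 Crest.Agent.R275.Geo Crest.Agent.R275.Core144
open Crest.Agent.R275.GC293
open Crest.Agent.R273.Defs_333 Crest.Agent.R273.HM_333
open Crest.Agent.R273.Kah_333 Crest.Agent.R273.StV_37 Crest.Agent.R273.Green_5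
open Crest.Agent.R273.VolInv_5
open Crest.Agent.R273.StokesV_332 (intD)
open Crest.Agent.R281.HkR_835 Crest.Agent.R281.Ti_846
open Crest.Agent.R281.Nef_252 (curK)
open Crest.Agent.R281.HkP2_508
open Crest.Agent.R281.FujP_513 (mixv)
open Crest.Agent.R281.Defs_273 (H2 HSymp NefW Isotropic qd)
open Crest.Agent.R281.Fuj1_207 Crest.Agent.R281.Fuj5_207 Crest.Agent.R281.Fuj7_207

noncomputable section

variable {n : ℕ} {M : Type} [TopologicalSpace M] [T2Space M] [CompactSpace M] [ConnectedSpace M]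
  {B : Atl (2 * n) M} {L : LB B} [Finite B.ι] (P : Part B) (hn : 1 ≤ n) (hn2 : 2 ≤ 2 * n)
  {σ : HSymp B} (hu : σ.Uniq) (hc : ClH σ.toH2) (K : Kah B)

include hn hu K in
theorem isoQ (h : Isotropic P σ L) : IsoQ P hn2 hc L := fun h' =>
  (Isq3_358.iso_iff P σ hu hc hn rfl hn2 K (lc (2 * n)) (bc (2 * n)) (RPart.ofPart P)
    (Isq3_358.S_pos P σ hu hc rfl K _) h').1 h

/-- **OM-VOL** -/
theorem vol (σ : HSymp B) (hu : σ.Uniq) (hn : 1 ≤ n) (hL : NefW K L) (hiso : Isotropic P σ L) :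
    ∃ c q₀ q₁ : ℝ, 0 < c ∧ 0 < q₀ ∧ 0 ≤ q₁ ∧ ∀ (h : HM L) (s t : ℝ) {u : M → ℝ} (_ : B.Sm u),
      (totc P (fun i x => ((s : ℂ) • K.g i x + (t : ℂ) • cur h i x + hsf B u i x).det)).re =
        c * s ^ n * (q₀ * s + 2 * q₁ * t) ^ n := by
  have hn2 : 2 ≤ 2 * n := by omega
  have hc : ClH σ.toH2 := clH P K σ hu _
  obtain ⟨h0, -⟩ := hL 1 one_pos
  exact vol_eq' P hn hn2 hu hc K ⟨h0⟩ hL (isoQ P hn hn2 hu hc K hiso)

/-- **OM-VOL**, the bound -/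
theorem vol_bd (σ : HSymp B) (hu : σ.Uniq) (hn : 1 ≤ n) (hL : NefW K L)
    (hiso : Isotropic P σ L) : ∃ C : ℝ, 0 ≤ C ∧ ∀ (h : HM L) (s t : ℝ), 0 ≤ s → 0 ≤ t →
      (totc P (fun i x => ((s : ℂ) • K.g i x + (t : ℂ) • cur h i x).det)).re ≤
        C * s ^ n * (s + t) ^ n := by
  have hn2 : 2 ≤ 2 * n := by omega
  have hc : ClH σ.toH2 := clH P K σ hu _
  obtain ⟨C, hC, h1⟩ := vol_le' P hn hn2 hu hc K hL (isoQ P hn hn2 hu hc K hiso)
  refine ⟨C, hC, fun h s t hs ht => ?_⟩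
  refine le_trans (le_of_eq ?_) (h1 h s t sm_zero hs ht)
  congr 1
  refine totc_congr P fun i x hx => ?_
  rw [hsf_zero i hx, add_zero]

include hn hu K in
/-- **the pairing `∫ (σ σ̄)^(n-1) ∧ X ∧ X` is a positive multiple of `q (X, X)`** -/
theorem qd_eq : ∃ c : ℝ, 0 < c ∧ ∀ X : K11 B,
    intD P (qd σ X.g X.g) = ((c * BB P hn2 hc X.f2 X.f2 : ℝ) : ℂ) := by
  set S : ℝ := IM (lc (2 * n)) (bc (2 * n)) (RPart.ofPart P) (fun _ => reS σ.toH2 hc) with hS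
  have hS0 : 0 < S := Isq3_358.S_pos P σ hu hc rfl K _
  have hν' : (1 : ℝ) ≤ n := by exact_mod_cast hn
  set κ : ℝ := rt S n / S * (2 * n - 1) with hκ
  have hκ0 : 0 < κ := mul_pos (div_pos (rt_pos hS0 n) hS0) (by linarith)
  have hch : 0 < (2 * n).choose 2 := Nat.choose_pos hn2
  refine ⟨((2 * n).choose 2 : ℝ) * (2 / (2 ^ (2 * n) * (2 * n).factorial)) / κ, by positivity,
    fun X => ?_⟩
  have h1 : IM (lc (2 * n)) (bc (2 * n)) (RPart.ofPart P) (v1 (2 * n) X.f2 (reS σ.toH2 hc)) = 0 := by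
    rw [v1_eq_mixv, Isq3_358.int_one P σ hc hn2]
  have h2 : BB P hn2 hc X.f2 X.f2 =
      κ * IM (lc (2 * n)) (bc (2 * n)) (RPart.ofPart P) (mixv (2 * n) 2 (reS σ.toH2 hc) X.f2) := by
    unfold BB
    rw [Qf_apply, h1, v2_eq_mixv, ← hS, hκ]
    ring
  have h3 := Isq3_358.int_two P σ hu hc hn2 K X
  rw [h2]
  have hf : (2 ^ (2 * n) * ((2 * n).factorial : ℂ) / 2) ≠ 0 := by
    have := Nat.factorial_pos (2 * n)
    positivity
  have h4 : intD P (qd σ X.g X.g) = (((2 * n).choose 2 : ℕ) : ℂ) *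
      ((IM (lc (2 * n)) (bc (2 * n)) (RPart.ofPart P) (mixv (2 * n) 2 (reS σ.toH2 hc) X.f2) : ℝ) : ℂ)
        / (2 ^ (2 * n) * ((2 * n).factorial : ℂ) / 2) := by
    rw [h3]
    field_simp
  rw [h4]
  have hκc : (κ : ℂ) ≠ 0 := by exact_mod_cast hκ0.ne'
  push_cast
  field_simp

include hn hu K in
/-- **`∫ (σ σ̄)^(n-1) ∧ F ∧ F` for `F = s K + t cur h + ∂∂̄ u`** -/
theorem qd_vol (hL : NefW K L) (hiso : Isotropic P σ L) :
    ∃ q₀ q₁ : ℝ, 0 < q₀ ∧ 0 ≤ q₁ ∧ ∀ (h : HM L) (s t : ℝ) {u : M → ℝ} (_ : B.Sm u)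
      (F : B.ι → M → Matrix (Fin (2 * n)) (Fin (2 * n)) ℂ),
      (∀ i x, F i x = (s : ℂ) • K.g i x + (t : ℂ) • cur h i x + hsf B u i x) →
      intD P (qd σ F F) = ((q₀ * s ^ 2 + 2 * q₁ * (s * t) : ℝ) : ℂ) := by
  have hn2 : 2 ≤ 2 * n := by omega
  have hc : ClH σ.toH2 := clH P K σ hu _
  have hI := isoQ P hn hn2 hu hc K hiso
  obtain ⟨h0, -⟩ := hL 1 one_pos
  obtain ⟨c, hc0, h1⟩ := qd_eq P hn hn2 hu hc K
  refine ⟨c * BB P hn2 hc (ofKah K).f2 (ofKah K).f2, c * BB P hn2 hc (ofKah K).f2 (curK h0).f2,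
    mul_pos hc0 (BB_KK P hn hn2 hu hc K),
    mul_nonneg hc0.le (BB_nonneg P hn hn2 hu hc open11 K hL hI h0), fun h s t u hu' F hF => ?_⟩
  have h2 := h1 (lin (ofKah K) (curK h) s t hu')
  have h3 := f2_lin (ofKah K) (curK h) s t hu'
  have h4 : (lin (ofKah K) (curK h) s t hu').g = F := by
    funext i x
    rw [hF]
    rfl
  rw [h4] at h2
  rw [h2, BB_congr P hn2 hc h3, BB_symm, BB_congr P hn2 hc h3]
  simp only [map_add, map_smul, LinearMap.add_apply, LinearMap.smul_apply, smul_eq_mul]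
  rw [BB_symm P hn2 hc (curK h).f2 (ofKah K).f2, hI h, BB_cur P hn2 hc h0 h]
  push_cast
  ring

end

end Crest.Agent.R281.Vol_847
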