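import Crest.Agent.R281.OmM4_980
import Crest.Agent.R281.Vol4_847

/-!
# R281 (S0424), OM-MASS (helper980), part 5: the output for `X` of dimension `2 n`

* `volB` : the bound of the total determinants (847)
* `M1`   : the volumes of the leaves of `n + 1` sections of `L^k` are bounded by one constant
* `M2`   : `∫_T tr (cur h' + 2 e K) ≤ μ` for all leaves, `e < e0(μ)`
-/

set_option autoImplicit false
set_option linter.unusedSectionVars false

open Set Filter Topology Complex MeasureTheory Function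
open scoped ContDiff Matrix ComplexConjugate ComplexOrder ENNReal

namespace Crest.Agent.R281.OmM_980

open Crest.Agent.R275 Crest.Agent.R275.Geo Crest.Agent.R275.Core144
open Crest.Agent.R273.Defs_333 Crest.Agent.R273.HM_333 Crest.Agent.R273.Kah_333
open Crest.Agent.R273.Vol_333 Crest.Agent.R273.Vm_333 Crest.Agent.R273.KahI_645
open Crest.Agent.R281.LfS_901 (U0 qf)
open Crest.Agent.R281.Lf_703
open Crest.Agent.R281.Defs_273 (HSymp NefW Isotropic)

noncomputable section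

variable {n : ℕ} {M : Type} [TopologicalSpace M] [T2Space M] [CompactSpace M] [ConnectedSpace M]
  {A : Atl (2 * n) M} {L : LB A} [Finite A.ι] (P : Part A) (K : Kah A) (σ : HSymp A)

theorem volB (hu : σ.Uniq) (hn : 1 ≤ n) (hL : NefW K L) (hiso : Isotropic P σ L) :
    ∃ C, VolB P K L n C := by
  obtain ⟨c, q₀, q₁, hc, h0, h1, h⟩ := Vol_847.vol P K σ hu hn hL hiso
  refine ⟨c * (q₀ + 2 * q₁) ^ n, by positivity, fun hh s t u hu' hs ht => ?_⟩
  rw [h hh s t hu']
  have e1 : c * (q₀ + 2 * q₁) ^ n * s ^ n * (s + t) ^ n =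
      c * s ^ n * ((q₀ + 2 * q₁) * (s + t)) ^ n := by
    rw [mul_pow]; ring
  rw [e1]
  refine mul_le_mul_of_nonneg_left ?_ (by positivity)
  refine pow_le_pow_left₀ (by positivity) ?_ n
  nlinarith [mul_nonneg h0.le ht, mul_nonneg h1 hs]

variable [MeasurableSpace M] [BorelSpace M]

/-- **(M1)** -/
theorem M1 (hu : σ.Uniq) (hn : 1 ≤ n) (hL : NefW K L) (hiso : Isotropic P σ L) (k : ℕ) :
    ∃ v : ℝ, 0 ≤ v ∧ ∀ (s : Fin (n + 1) → A.ι → M → ℂ), (∀ a, IsHS (L ^ k) univ (s a)) →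
      ∀ (O : Set M) (T : Lf A n O) (_ : PC T (U0 s) (qf s) 0), (∀ v, qf s (T.i v) = 0) →
      ∀ [MeasurableSpace T.V] [BorelSpace T.V],
        vm (volK (pullI K T.hol T.imm)) univ ≤ ENNReal.ofReal v := by
  obtain ⟨C, hC⟩ := volB P K σ hu hn hL hiso
  exact m1 (two_mul n) hC hL k

/-- **(M2)** -/
theorem M2 (hu : σ.Uniq) (hn : 1 ≤ n) (hL : NefW K L) (hiso : Isotropic P σ L) {k : ℕ}
    (hk : 0 < k) {μ : ℝ} (hμ : 0 < μ) :
    ∃ e0 : ℝ, 0 < e0 ∧ ∀ e : ℝ, 0 < e → e < e0 → ∀ h : HM L,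
      (∀ i, ∀ x ∈ (A.e i).source, (cur h i x + (e : ℂ) • K.g i x).PosSemidef) →
      ∀ (s : Fin (n + 1) → A.ι → M → ℂ), (∀ a, IsHS (L ^ k) univ (s a)) →
      ∀ (O : Set M) (T : Lf A n O) (_ : PC T (U0 s) (qf s) 0), (∀ v, qf s (T.i v) = 0) →
      ∀ [MeasurableSpace T.V] [BorelSpace T.V],
        ∫ t, (trT K T.hol T.imm h t + 2 * e * n) ∂(vm (volK (pullI K T.hol T.imm))) ≤ μ := by
  obtain ⟨C, hC⟩ := volB P K σ hu hn hL hiso
  exact m2 (two_mul n) hC hk hμ

end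

end Crest.Agent.R281.OmM_980
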