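import Crest.Agent.R281.Om6_854
import Crest.Agent.R281.OmM5_980
import Crest.Agent.R281.OmH5_331

/-!
# R281 (S0424), S6-OMEGA (helper854), part 7: the leaves over regular values are compact

* `massP`  : OM-MASS (helper980) in the form of `MassP`
* `hcpt`   : 524's `hcpt`, no hypothesis left;  `hcptU` the same in the carriers of helper901
* `omega_of` : `OmOut` from the vanishing of the brackets
-/

set_option autoImplicit false
set_option linter.unusedSectionVars false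

open Set Filter Topology Complex MeasureTheory Metric
open scoped ContDiff Matrix ComplexConjugate Manifold ComplexOrder ENNReal Pointwise

namespace Crest.Agent.R281.Om_854

open Crest.Agent.R275.Geo Crest.Agent.R275.Core144 Crest.Agent.R275.EDR890
open Crest.Agent.R273.Defs_333 Crest.Agent.R273.Kah_333 Crest.Agent.R273.Vol_333
open Crest.Agent.R273.HM_333 Crest.Agent.R273
open Crest.Agent.R273.Vm_333 Crest.Agent.R273.Map_835 Crest.Agent.R273.KahI_645
open Crest.Agent.R273.Fam_835 Crest.Agent.R272.FamP_54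
open Crest.Agent.R281.S6D_664 Crest.Agent.R281.Lf_703 Crest.Agent.R281.LfS_901
open Crest.Agent.R281.Tube1_989 Crest.Agent.R281.Tube2_989 Crest.Agent.R281.OmA_524
open Crest.Agent.R281.OmB_524 Crest.Agent.R281.Rk_599 Crest.Agent.R281.Glob1_484
open Crest.Agent.R281.Har_331 Crest.Agent.R281.Defs_273 Crest.Agent.R281.D6_986

noncomputable section

variable {n : ℕ} {M : Type} [TopologicalSpace M] [T2Space M] [CompactSpace M] [ConnectedSpace M]
  {A : Atl (2 * n) M} {L : LB A} [Finite A.ι] (P : Part A) (K : Kah A) (σ : HSymp A)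

/-- **OM-MASS** in the form `MassP` -/
theorem massP (hu : σ.Uniq) (hn : 1 ≤ n) (hL : NefW K L) (hiso : Isotropic P σ L) {k : ℕ}
    (hk : 0 < k) : MassP K L k n n := by
  borelize M
  intro s hs T G hfy _ _
  obtain ⟨v, -, hv⟩ := OmM_980.M1 P K σ hu hn hL hiso k
  refine ⟨(hv s hs _ T G hfy).trans_lt ENNReal.ofReal_lt_top, fun μ hμ => ?_⟩
  obtain ⟨e0, h0, h1⟩ := OmM_980.M2 P K σ hu hn hL hiso hk hμ
  exact ⟨e0, h0, fun e he he' h' hh' => h1 e he he' h' hh' s hs _ T G hfy⟩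

/-- **the leaves of normalised sections are compact** -/
theorem compact_T (hu : σ.Uniq) (hn : 1 ≤ n) (hL : NefW K L) (hiso : Isotropic P σ L) {k : ℕ}
    (hk : 0 < k) {s : Fin (n + 1) → A.ι → M → ℂ} (hs : ∀ a, IsHS (L ^ k) univ (s a))
    (T : Lf A n (U0 s)) (G : PC T (U0 s) (qf s) 0) (hfy : ∀ v, qf s (T.i v) = 0) :
    CompactSpace T.V := by
  obtain ⟨h, -⟩ := hL 1 one_pos
  obtain ⟨c1, hc1, hl⟩ := lowP_of K (pow h k) (d := n) (by omega)
  exact compact_lf K hL hk (massP P K σ hu hn hL hiso hk) h hc1 hl s hs T G hfy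

/-- **`hcpt`** of helper524 -/
theorem hcpt (hu : σ.Uniq) (hn : 1 ≤ n) (hL : NefW K L) (hiso : Isotropic P σ L) {k : ℕ}
    (hk : 0 < k) {s : Fin (n + 1) → A.ι → M → ℂ} (hs : ∀ a, IsHS (L ^ k) univ (s a)) :
    ∀ x ∈ X0s A s, (∀ p ∈ X0s A s, ys A s p = ys A s x → ∃ i, Rk A s i p) →
      IsCompact (leaf (X0s A s) (ys A s) x) := by
  have : SecondCountableTopology M := Crest.Agent.R273.AsmA_73.secM (A := A)
  exact hcpt_of (d := n) (by omega) hs fun c T G hfy =>
    compact_T P K σ hu hn hL hiso hk (isHS_nzs hs c) T G hfy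

/-- the same in the carriers of helper901 -/
theorem hcptU (hu : σ.Uniq) (hn : 1 ≤ n) (hL : NefW K L) (hiso : Isotropic P σ L) {k : ℕ}
    (hk : 0 < k) {s : Fin (n + 1) → A.ι → M → ℂ} (hs : ∀ a, IsHS (L ^ k) univ (s a)) :
    ∀ x ∈ U0 s, x ∉ Bad A (U0 s) (qf s) → IsCompact (leaf (U0 s) (qf s) x) := by
  intro x hx hb
  have : SecondCountableTopology M := Crest.Agent.R273.AsmA_73.secM (A := A)
  obtain ⟨T, h1, ⟨G⟩, h2⟩ := exists_leaf (d := n) (by omega) hs hx hb
  have := compact_T P K σ hu hn hL hiso hk (isHS_nzs hs _) T G h2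
  rw [← h1]
  exact isCompact_range T.ind.continuous

/-- **S6-OMEGA** from the vanishing of the brackets -/
theorem omega_of (hu : σ.Uniq) (hn : 1 ≤ n) (hL : NefW K L) (hiso : Isotropic P σ L) {k : ℕ}
    (hk : 0 < k) {s : Fin (n + 1) → A.ι → M → ℂ} (hs : ∀ a, IsHS (L ^ k) univ (s a))
    (hbr : BrP σ s) {i₀ : A.ι} {x₀ : M} (h₀ : Rk A s i₀ x₀) :
    ∃ o : OmOut σ L, o.k = k ∧ o.s = s 0 ∧ o.F.Tf = leaf (X0s A s) (ys A s) ∧
      o.F.Om = {x | x ∈ X0s A s ∧ IsCompact (leaf (X0s A s) (ys A s) x) ∧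
        ∀ p ∈ leaf (X0s A s) (ys A s) x, ∃ i, Rk A s i p} :=
  omOut_of K σ hL hk (massP P K σ hu hn hL hiso hk)
    (fun h => lowP_of K (pow h k) (d := n) (by omega)) hs hbr h₀

end

end Crest.Agent.R281.Om_854
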