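import Crest.Agent.R281.OmL3_677

/-!
# R281 (S0424), OM-LAG (helper677), part 4: the Poisson brackets vanish

`L` nef and isotropic, `s a` sections of `L ^ k`, `0 < k`: for all `p q p' q'`, in every chart,
`W_{p'q'} S⁻¹ W_{pq} = 0`, `W_{pq} = s_p ∂s_q - s_q ∂s_p` (`bracket`).
* `bracket_ratio` : the Poisson brackets of the ratios `s_a / s_0` vanish where `s_0 ≠ 0`
* `isotropic`     : in dimension `2 m`, if `m` ratios have independent differentials at `x`, the
  common kernel of the differentials is `σ`-isotropic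
-/

set_option autoImplicit false
set_option linter.unusedSectionVars false

open Set Filter Topology Complex MeasureTheory
open scoped ContDiff Matrix ComplexConjugate Manifold ComplexOrder

namespace Crest.Agent.R281.OmL_677

open Crest.Agent.R275.Geo Crest.Agent.R275.Core144 Crest.Agent.R275.EDR890
open Crest.Agent.R273.Hess_333 Crest.Agent.R273.HessB_333 Crest.Agent.R273.HM_333
open Crest.Agent.R273.Kah_333 Crest.Agent.R273.Vol_333 Crest.Agent.R273.Vm_333
open Crest.Agent.R273.GreenM_5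
open Crest.Agent.R273.Defs_333 (HM)
open Crest.Agent.R281.Defs_273
open Matrix (vecMulVec)

noncomputable section

variable {n : ℕ} {M : Type} [TopologicalSpace M] {A : Atl n M} {L : LB A}
variable {α : Type*} [Fintype α] [DecidableEq α]

/-- the sections in the chart `i` -/
def sl (A : Atl n M) (s : α → A.ι → M → ℂ) (i : A.ι) (a : α) (z : Cn n) : ℂ :=
  s a i ((A.e i).symm z)

/-- `log (d + ∑ |s_a|²_h)` -/
def Lg (h : HM L) (k : ℕ) (s : α → A.ι → M → ℂ) (d : ℝ) (x : M) : ℝ :=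
  Real.log (d + ∑ a, nsq (pow h k) (s a) (ci A x) x)

section loc

variable {k : ℕ} {s : α → A.ι → M → ℂ}

theorem sl_diffOn (hs : ∀ a, IsHS (L ^ k) univ (s a)) (i : A.ι) (a : α) :
    DifferentiableOn ℂ (sl A s i a) (A.e i).target := by
  have h := (hs a).hol i
  intro z hz
  exact (h z ⟨hz, mem_univ _⟩).mono fun w hw => ⟨hw, mem_univ _⟩

theorem sl_anal (hs : ∀ a, IsHS (L ^ k) univ (s a)) (i : A.ι) {z : Cn n}
    (hz : z ∈ (A.e i).target) (a : α) : AnalyticAt ℂ (sl A s i a) z :=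
  ((Crest.Agent.R266.SCV.contDiffOn_omega_of_differentiableOn (A.e i).open_target
    (sl_diffOn hs i a)).contDiffAt ((A.e i).open_target.mem_nhds hz)).analyticAt

theorem exp_wt (h : HM L) (k : ℕ) (i : A.ι) {z : Cn n} (hz : z ∈ (A.e i).target) :
    Real.exp (-((k : ℝ) * h.wt i z)) = (h.w i ((A.e i).symm z)) ^ k := by
  have h0 := h.pos i _ ((A.e i).map_target hz)
  unfold Crest.Agent.R273.Defs_333.HM.wt
  rw [mul_neg, neg_neg, mul_comm, Real.exp_mul, Real.exp_log h0, Real.rpow_natCast]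

theorem Lg_read (hs : ∀ a, IsHS (L ^ k) univ (s a)) (h : HM L) (d : ℝ) (i : A.ι) {z : Cn n}
    (hz : z ∈ (A.e i).target) :
    Lg h k s d ((A.e i).symm z) = lsf (sl A s i) (fun y => (k : ℝ) * h.wt i y) d z := by
  unfold Lg lsf
  congr 2
  refine Finset.sum_congr rfl fun a _ => ?_
  have hx := (A.e i).map_target hz
  rw [nsq_indep (pow h k) (hs a) ⟨mem_ci _, hx⟩ (mem_univ _), exp_wt h k i hz]
  unfold nsq
  rw [pow_w]
  rfl

theorem kwt_smooth (h : HM L) (k : ℕ) (i : A.ι) {z : Cn n} (hz : z ∈ (A.e i).target) :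
    ContDiffAt ℝ ∞ (fun y => (k : ℝ) * h.wt i y) z :=
  contDiffAt_const.mul (wt_contDiffAt h i hz)

theorem sm_Lg (hs : ∀ a, IsHS (L ^ k) univ (s a)) (h : HM L) {d : ℝ} (hd : 0 < d) :
    A.Sm (Lg h k s d) := by
  intro i
  have h1 : ContDiffOn ℝ ∞ (lsf (sl A s i) (fun y => (k : ℝ) * h.wt i y) d) (A.e i).target :=
    fun z hz => (cd_lsf (fun a => sl_anal hs i hz a) (kwt_smooth h k i hz) hd).contDiffWithinAt
  exact h1.congr fun z hz => Lg_read hs h d i hz

theorem sm_kLg (hs : ∀ a, IsHS (L ^ k) univ (s a)) (h : HM L) {d : ℝ} (hd : 0 < d) :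
    A.Sm (fun x => (k : ℝ)⁻¹ * Lg h k s d x) := fun i =>
  contDiffOn_const.mul (sm_Lg hs h hd i)

/-- the metric `h (d + ∑ |s_a|²_h)^{-1/k}` -/
def hk (hs : ∀ a, IsHS (L ^ k) univ (s a)) (h : HM L) {d : ℝ} (hd : 0 < d) : HM L :=
  tw h (fun x => (k : ℝ)⁻¹ * Lg h k s d x) (sm_kLg hs h hd)

theorem cur_hk (hs : ∀ a, IsHS (L ^ k) univ (s a)) (h : HM L) {d : ℝ} (hd : 0 < d) (i : A.ι)
    {x : M} (hx : x ∈ (A.e i).source) :
    cur (hk hs h hd) i x = hess (h.wt i) (A.e i x) + (((k : ℝ)⁻¹ : ℝ) : ℂ) •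
      hess (lsf (sl A s i) (fun y => (k : ℝ) * h.wt i y) d) (A.e i x) := by
  have hz := (A.e i).map_source hx
  unfold hk
  rw [cur_tw h _ i hx]
  congr 1
  unfold hsf
  have h1 : (fun z => (k : ℝ)⁻¹ * Lg h k s d ((A.e i).symm z)) =ᶠ[𝓝 (A.e i x)]
      fun z => (k : ℝ)⁻¹ * lsf (sl A s i) (fun y => (k : ℝ) * h.wt i y) d z := by
    filter_upwards [(A.e i).open_target.mem_nhds hz] with w hw
    rw [Lg_read hs h d i hw]
  rw [hess_congr h1, hess_const_mul _ (cd_lsf (fun a => sl_anal hs i hz a)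
    (kwt_smooth h k i hz) hd)]

/-- **the lower bound in a chart** -/
theorem low (hs : ∀ a, IsHS (L ^ k) univ (s a)) (hk0 : 0 < k) (h : HM L) {d : ℝ} (hd : 0 < d)
    (K : Kah A) {e : ℝ} (he : 0 ≤ e) (i : A.ι) {x : M} (hx : x ∈ (A.e i).source)
    (hN : (cur h i x + (e : ℂ) • K.g i x).PosSemidef) (p q : α) :
    (Fe K (hk hs h hd) e i x -
      (((k : ℝ)⁻¹ * cc (sl A s i) (fun y => (k : ℝ) * h.wt i y) d (A.e i x) ^ 2 : ℝ) : ℂ) •
        vecMulVec (Wv (sl A s i) p q (A.e i x)) (star (Wv (sl A s i) p q (A.e i x)))).PosSemidef := by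
  have hz := (A.e i).map_source hx
  have h1 := low_psd (s := sl A s i) (w := h.wt i) (k := k) (d := d) (e := e)
    (fun a => sl_anal hs i hz a) (wt_contDiffAt h i hz) hk0 hd he (K.pos i x hx).posSemidef hN p q
  unfold Fe
  rw [cur_hk hs h hd i hx]
  exact h1

theorem vmv_psd (W : Fin n → ℂ) : (vecMulVec W (star W)).PosSemidef := by
  refine Matrix.PosSemidef.of_dotProduct_mulVec_nonneg ?_ fun y => ?_
  · rw [Matrix.IsHermitian, Matrix.conjTranspose_vecMulVec, star_star]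
  · rw [vmv_form, Complex.zero_le_real]
    positivity

theorem real_smul_psd {X : Matrix (Fin n) (Fin n) ℂ} (h : X.PosSemidef) {c : ℝ} (hc : 0 ≤ c) :
    ((c : ℂ) • X).PosSemidef := by
  refine Matrix.PosSemidef.of_dotProduct_mulVec_nonneg (herm_real_smul h.1 c) fun y => ?_
  rw [Matrix.smul_mulVec, dotProduct_smul, smul_eq_mul]
  exact mul_nonneg (by exact_mod_cast hc) (h.dotProduct_mulVec_nonneg y)

theorem Fe_psd (hs : ∀ a, IsHS (L ^ k) univ (s a)) (hk0 : 0 < k) (h : HM L) {d : ℝ} (hd : 0 < d)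
    (K : Kah A) {e : ℝ} (he : 0 ≤ e) (i : A.ι) {x : M} (hx : x ∈ (A.e i).source)
    (hN : (cur h i x + (e : ℂ) • K.g i x).PosSemidef) (p : α) :
    (Fe K (hk hs h hd) e i x).PosSemidef := by
  have h1 := low hs hk0 h hd K he i hx hN p p
  have h2 := h1.add (real_smul_psd (vmv_psd (Wv (sl A s i) p p (A.e i x)))
    (c := (k : ℝ)⁻¹ * cc (sl A s i) (fun y => (k : ℝ) * h.wt i y) d (A.e i x) ^ 2) (by positivity))
  simpa using h2

/-- the lower bound of `qm` -/
theorem qm_low {S : Matrix (Fin n) (Fin n) ℂ} (hS : Sᵀ = -S) {F : Matrix (Fin n) (Fin n) ℂ}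
    {W W' : Fin n → ℂ} {c c' : ℝ} (hc : 0 ≤ c) (hcc' : c ≤ c') (hF : F.PosSemidef)
    (h1 : (F - (c' : ℂ) • vecMulVec W (star W)).PosSemidef)
    (h2 : (F - (c' : ℂ) • vecMulVec W' (star W')).PosSemidef) :
    c ^ 2 * (‖S.det‖ * ‖W' ⬝ᵥ (S⁻¹ *ᵥ W)‖ ^ 2) ≤ (qm S F F).re := by
  have hred : ∀ {U : Fin n → ℂ}, (F - (c' : ℂ) • vecMulVec U (star U)).PosSemidef →
      (F - (c : ℂ) • vecMulVec U (star U)).PosSemidef := by
    intro U hU
    have h3 := hU.add (real_smul_psd (vmv_psd U) (sub_nonneg.2 hcc'))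
    have e : F - (c' : ℂ) • vecMulVec U (star U) + ((c' - c : ℝ) : ℂ) • vecMulVec U (star U) =
        F - (c : ℂ) • vecMulVec U (star U) := by
      rw [Complex.ofReal_sub, sub_smul]
      abel
    rwa [e] at h3
  have h3 := qm_mono hS (hred h1) (hred h2) (real_smul_psd (vmv_psd W) hc) hF
  rw [qm_smul_left, qm_smul_right, qm_rank hS, ← Complex.ofReal_mul, ← Complex.ofReal_mul] at h3
  have h4 := (Complex.le_def.1 h3).1
  rw [Complex.ofReal_re] at h4
  calc c ^ 2 * (‖S.det‖ * ‖W' ⬝ᵥ (S⁻¹ *ᵥ W)‖ ^ 2) =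
      c * (c * (‖S.det‖ * ‖W' ⬝ᵥ (S⁻¹ *ᵥ W)‖ ^ 2)) := by ring
    _ ≤ _ := h4

end loc

section main

variable {k : ℕ} {s : α → A.ι → M → ℂ}

omit [Fintype α] [DecidableEq α] in
theorem cont_df {f : Cn n → ℂ} {U : Set (Cn n)} (hU : IsOpen U) (hf : DifferentiableOn ℂ f U)
    {z : Cn n} (hz : z ∈ U) (b : Fin n) : ContinuousAt (fun w => df f w b) z := by
  have h1 := (Crest.Agent.R266.SCV.contDiffOn_omega_of_differentiableOn hU hf).contDiffAt
    (hU.mem_nhds hz)
  have h2 : ContinuousAt (fderiv ℂ f) z := h1.continuousAt_fderiv (by simp)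
  exact h2.clm_apply continuousAt_const

theorem cont_Wv (hs : ∀ a, IsHS (L ^ k) univ (s a)) (i : A.ι) {z : Cn n}
    (hz : z ∈ (A.e i).target) (p q : α) : ContinuousAt (Wv (sl A s i) p q) z := by
  refine continuousAt_pi.2 fun b => ?_
  have h1 : ∀ a, ContinuousAt (sl A s i a) z := fun a => (sl_anal hs i hz a).continuousAt
  have h2 : ∀ a, ContinuousAt (fun w => df (sl A s i a) w b) z := fun a =>
    cont_df (A.e i).open_target (sl_diffOn hs i a) hz b
  exact ((h1 p).mul (h2 q)).sub ((h1 q).mul (h2 p))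

theorem contOn_smAt {i : A.ι} {f : M → ℝ} (h : A.SmAt i f) :
    ContinuousOn f (A.e i).source := by
  have h0 : ContinuousOn (fun z => f ((A.e i).symm z)) (A.e i).target := ContDiffOn.continuousOn h
  have h2 : ContinuousOn (fun x => f ((A.e i).symm (A.e i x))) (A.e i).source :=
    h0.comp (A.e i).continuousOn fun y hy => (A.e i).map_source hy
  refine h2.congr fun y hy => ?_
  change f y = f ((A.e i).symm (A.e i y))
  rw [(A.e i).left_inv hy]

theorem cont_mat {m : A.ι → M → Matrix (Fin n) (Fin n) ℂ} (i : A.ι)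
    (h : ∀ a b, A.SmAt i (fun x => m i x a b)) {z : Cn n} (hz : z ∈ (A.e i).target) :
    ContinuousAt (fun w => m i ((A.e i).symm w)) z := by
  refine continuousAt_pi.2 fun a => continuousAt_pi.2 fun b => ?_
  have h1 : ContDiffOn ℝ ∞ (fun w => m i ((A.e i).symm w) a b) (A.e i).target := h a b
  exact h1.continuousOn.continuousAt ((A.e i).open_target.mem_nhds hz)

variable [T2Space M] [CompactSpace M] [Finite A.ι]

/-- **the Poisson brackets vanish** -/
theorem bracket (P : Part A) (K : Kah A) (σ : HSymp A) (hNef : NefW K L) (hI : Isotropic P σ L)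
    (hs : ∀ a, IsHS (L ^ k) univ (s a)) (hk0 : 0 < k) (i : A.ι) {x : M} (hx : x ∈ (A.e i).source)
    (p q p' q' : α) :
    Wv (sl A s i) p' q' (A.e i x) ⬝ᵥ ((σ.s i x)⁻¹ *ᵥ Wv (sl A s i) p q (A.e i x)) = 0 := by
  by_contra hne
  borelize M
  obtain ⟨B, hB0, hB⟩ := energy_le P K σ hI
  have hz := (A.e i).map_source hx
  set b : Cn n → ℝ := fun z => ‖(σ.s i ((A.e i).symm z)).det‖ *
    ‖Wv (sl A s i) p' q' z ⬝ᵥ ((σ.s i ((A.e i).symm z))⁻¹ *ᵥ Wv (sl A s i) p q z)‖ ^ 2 /
      (K.g i ((A.e i).symm z)).det.re with hb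
  set T : Cn n → ℝ := fun z => ∑ a, ‖sl A s i a z‖ ^ 2 with hT
  -- continuity
  have cS := cont_mat i (smAt_s σ i) hz
  have cK := cont_mat i (K.sm i) hz
  have cdS : ContinuousAt (fun z => (σ.s i ((A.e i).symm z)).det) (A.e i x) :=
    (Continuous.matrix_det continuous_id).continuousAt.comp cS
  have cdK : ContinuousAt (fun z => (K.g i ((A.e i).symm z)).det) (A.e i x) :=
    (Continuous.matrix_det continuous_id).continuousAt.comp cK
  have hdS : (σ.s i ((A.e i).symm (A.e i x))).det ≠ 0 := by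
    rw [(A.e i).left_inv hx]; exact σ.nd i x hx
  have cI : ContinuousAt (fun z => (σ.s i ((A.e i).symm z))⁻¹) (A.e i x) := by
    have h1 : (fun z => (σ.s i ((A.e i).symm z))⁻¹) = fun z =>
        ((σ.s i ((A.e i).symm z)).det)⁻¹ • (σ.s i ((A.e i).symm z)).adjugate := by
      funext z
      rw [Matrix.inv_def, Ring.inverse_eq_inv']
    rw [h1]
    exact (cdS.inv₀ hdS).smul ((Continuous.matrix_adjugate continuous_id).continuousAt.comp cS)
  have cW := cont_Wv hs i hz p q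
  have cW' := cont_Wv hs i hz p' q'
  have cIW : ContinuousAt (fun z => (σ.s i ((A.e i).symm z))⁻¹ *ᵥ Wv (sl A s i) p q z)
      (A.e i x) := by
    refine continuousAt_pi.2 fun a => ?_
    have h1 : ∀ c, ContinuousAt (fun z => (σ.s i ((A.e i).symm z))⁻¹ a c) (A.e i x) := fun c =>
      continuousAt_pi.1 (continuousAt_pi.1 cI a) c
    show ContinuousAt (fun z => ∑ c, (σ.s i ((A.e i).symm z))⁻¹ a c * Wv (sl A s i) p q z c)
      (A.e i x)
    exact tendsto_finsetSum _ fun c _ => (h1 c).mul (continuousAt_pi.1 cW c)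
  have cQ : ContinuousAt (fun z => Wv (sl A s i) p' q' z ⬝ᵥ
      ((σ.s i ((A.e i).symm z))⁻¹ *ᵥ Wv (sl A s i) p q z)) (A.e i x) :=
    tendsto_finsetSum _ fun c _ => (continuousAt_pi.1 cW' c).mul (continuousAt_pi.1 cIW c)
  have hKpos : 0 < (K.g i ((A.e i).symm (A.e i x))).det.re := by
    rw [(A.e i).left_inv hx]; exact det_re_pos K hx
  have cb : ContinuousAt b (A.e i x) :=
    (cdS.norm.mul (cQ.norm.pow 2)).div (Complex.continuous_re.continuousAt.comp cdK) hKpos.ne'
  have cT : ContinuousAt T (A.e i x) :=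
    tendsto_finsetSum _ fun a _ => ((sl_anal hs i hz a).continuousAt.norm).pow 2
  set b0 : ℝ := b (A.e i x) with hb0
  have hb0pos : 0 < b0 := by
    rw [hb0, hb]
    simp only [(A.e i).left_inv hx]
    have h1 := norm_pos_iff.2 (σ.nd i x hx)
    have h2 := norm_pos_iff.2 hne
    have h3 := det_re_pos K hx
    positivity
  set T0 : ℝ := T (A.e i x) with hT0
  have hT0n : 0 ≤ T0 := Finset.sum_nonneg fun a _ => by positivity
  have hE : {y : M | y ∈ (A.e i).source ∧ b0 / 2 < b (A.e i y) ∧ T (A.e i y) < T0 + 1} ∈ 𝓝 x := by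
    have h1 : ∀ᶠ z in 𝓝 (A.e i x), b0 / 2 < b z :=
      cb.eventually (lt_mem_nhds (by linarith : b0 / 2 < b (A.e i x)))
    have h2 : ∀ᶠ z in 𝓝 (A.e i x), T z < T0 + 1 :=
      cT.eventually (gt_mem_nhds (by linarith : T (A.e i x) < T0 + 1))
    have h3 := (A.e i).continuousAt hx
    filter_upwards [(A.e i).open_source.mem_nhds hx, h3.eventually h1, h3.eventually h2] with y a c d
    exact ⟨a, c, d⟩
  obtain ⟨Kc, hKn, hKE, hKc⟩ := LocallyCompactSpace.local_compact_nhds x _ hE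
  have hxK : x ∈ Kc := mem_of_mem_nhds hKn
  have hfin : IsFiniteMeasure (vm (volK K)) := isFinite_vm _
  have hop : (vm (volK K)).IsOpenPosMeasure := isOpenPos_vm _
  have hμ : 0 < (vm (volK K)).real Kc := by
    rw [measureReal_def, ENNReal.toReal_pos_iff]
    exact ⟨Measure.measure_pos_of_mem_nhds _ hKn, measure_lt_top _ _⟩
  have hk0' : (0 : ℝ) < k := by exact_mod_cast hk0
  set c : ℝ := (k : ℝ)⁻¹ * (1 / (T0 + 2)) ^ 2 with hc
  have hcpos : 0 < c := by positivity
  set η : ℝ := c ^ 2 * (b0 / 2) with hη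
  have hηpos : 0 < η := by positivity
  have key : ∀ e : ℝ, 0 < e → e ≤ 1 → η * (vm (volK K)).real Kc ≤ e * B := by
    intro e he he1
    obtain ⟨h, hh⟩ := hNef e he
    -- choice of `d`
    obtain ⟨d, hd, hdK⟩ : ∃ d : ℝ, 0 < d ∧ ∀ y ∈ Kc, d ≤ (h.w i y) ^ k := by
      have c1 : ContinuousOn (fun y => (h.w i y) ^ k) Kc := by
        exact ((contOn_smAt (h.sm i)).mono fun y hy => (hKE hy).1).pow k
      obtain ⟨y0, hy0, hmin⟩ := hKc.exists_isMinOn ⟨x, hxK⟩ c1
      exact ⟨_, pow_pos (h.pos i y0 (hKE hy0).1) k, fun y hy => hmin hy⟩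
    have hF : ∀ j, ∀ y ∈ (A.e j).source, (Fe K (hk hs h hd) e j y).PosSemidef :=
      fun j y hy => Fe_psd hs hk0 h hd K he.le j hy (hh j y hy) p
    refine le_trans ?_ (hB e he he1 (hk hs h hd) hF)
    set f : M → ℝ := fun y => (fnD K (qd σ (Fe K (hk hs h hd) e) (Fe K (hk hs h hd) e)) y).re
      with hf
    have hdn := qd_dn σ (Fe_tn K (hk hs h hd) e) (Fe_tn K (hk hs h hd) e)
    have hfi : ∀ {j : A.ι} {y : M}, y ∈ (A.e j).source → f y =
        (qm (σ.s j y) (Fe K (hk hs h hd) e j y) (Fe K (hk hs h hd) e j y)).re /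
          (K.g j y).det.re := by
      intro j y hy
      have h1 := (K.pos _ _ hy).det_pos
      have h2 : (K.g j y).det = (((K.g j y).det.re : ℝ) : ℂ) :=
        Complex.ext rfl (by rw [← (Complex.nonneg_iff.1 h1.le).2]; rfl)
      show (fnD K _ y).re = _
      rw [fnD_div K hdn hy, h2, Complex.div_ofReal_re]
      rfl
    have hf0 : ∀ y, 0 ≤ f y := by
      intro y
      rw [hfi (mem_ci y)]
      exact div_nonneg (Complex.nonneg_iff.1 (qm_nonneg (σ.alt _ _ (mem_ci y))
        (hF _ _ (mem_ci y)) (hF _ _ (mem_ci y)))).1 (det_re_pos K (mem_ci y)).le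
    have hfK : ∀ y ∈ Kc, η ≤ f y := by
      intro y hy
      obtain ⟨hys, hyb, hyT⟩ := hKE hy
      have hzy := (A.e i).map_source hys
      rw [hfi hys]
      set ρ : ℝ := (h.w i y) ^ k with hρ
      have hρ0 : 0 < ρ := pow_pos (h.pos i y hys) k
      have hexp : Real.exp (-((k : ℝ) * h.wt i (A.e i y))) = ρ := by
        rw [exp_wt h k i hzy, (A.e i).left_inv hys]
      have hTy : 0 ≤ T (A.e i y) := Finset.sum_nonneg fun a _ => by positivity
      have hcc : 1 / (T0 + 2) ≤ cc (sl A s i) (fun y => (k : ℝ) * h.wt i y) d (A.e i y) := by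
        unfold cc
        rw [hexp, ← Finset.sum_mul]
        rw [div_le_div_iff₀ (by positivity) (by positivity), one_mul]
        have h4 : d ≤ ρ := hdK y hy
        have h5 : (∑ a, ‖sl A s i a (A.e i y)‖ ^ 2) * ρ ≤ (T0 + 1) * ρ :=
          mul_le_mul_of_nonneg_right hyT.le hρ0.le
        nlinarith
      have hc' : c ≤ (k : ℝ)⁻¹ *
          cc (sl A s i) (fun y => (k : ℝ) * h.wt i y) d (A.e i y) ^ 2 := by
        refine mul_le_mul_of_nonneg_left ?_ (by positivity)
        exact pow_le_pow_left₀ (by positivity) hcc 2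
      have h6 := qm_low (σ.alt i y hys) hcpos.le hc' (hF i y hys)
        (low hs hk0 h hd K he.le i hys (hh i y hys) p q)
        (low hs hk0 h hd K he.le i hys (hh i y hys) p' q')
      have h7 : c ^ 2 * b (A.e i y) ≤ (qm (σ.s i y) (Fe K (hk hs h hd) e i y)
          (Fe K (hk hs h hd) e i y)).re / (K.g i y).det.re := by
        rw [hb]
        simp only [(A.e i).left_inv hys]
        rw [← mul_div_assoc, div_le_div_iff_of_pos_right (det_re_pos K hys)]
        exact h6
      refine le_trans ?_ h7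
      rw [hη]
      exact mul_le_mul_of_nonneg_left hyb.le (by positivity)
    have hfs : A.Sm f := sm_re (sm_fnD K hdn
      (qd_sm σ (Fe_sm K (hk hs h hd) e) (Fe_sm K (hk hs h hd) e)))
    have hfint : Integrable f (vm (volK K)) := integrable_sm _ hfs
    have h8 : ∫ y, Kc.indicator (fun _ => η) y ∂(vm (volK K)) ≤ ∫ y, f y ∂(vm (volK K)) := by
      refine integral_mono ((integrable_const η).indicator hKc.measurableSet) hfint fun y => ?_
      by_cases hy : y ∈ Kc
      · rw [indicator_of_mem hy]; exact hfK y hy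
      · rw [indicator_of_notMem hy]; exact hf0 y
    rw [integral_indicator_const _ hKc.measurableSet, smul_eq_mul, mul_comm] at h8
    exact h8
  -- conclusion
  set δ : ℝ := η * (vm (volK K)).real Kc with hδ
  have hδpos : 0 < δ := mul_pos hηpos hμ
  have h9 := key (min 1 (δ / (2 * (B + 1)))) (lt_min one_pos (by positivity)) (min_le_left _ _)
  have h10 : min 1 (δ / (2 * (B + 1))) * B ≤ δ / (2 * (B + 1)) * B :=
    mul_le_mul_of_nonneg_right (min_le_right _ _) hB0
  have h11 : δ / (2 * (B + 1)) * B < δ := by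
    rw [div_mul_eq_mul_div, div_lt_iff₀ (by positivity)]
    nlinarith
  linarith

end main

end

end Crest.Agent.R281.OmL_677
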