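import Crest.Agent.R281.Om7_854
import Crest.Agent.R281.OmL4_677

/-!
# R281 (S0424), S6-OMEGA (helper854), part 8: `omega`

* `brP_of` : the brackets of the ratios vanish (OM-LAG, helper677)
* `omega`  : rank `n` somewhere gives `OmOut σ L`
-/

set_option autoImplicit false
set_option linter.unusedSectionVars false

open Set Filter Topology Complex MeasureTheory Metric
open scoped ContDiff Matrix ComplexConjugate Manifold ComplexOrder ENNReal Pointwise

namespace Crest.Agent.R281.Om_854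

open Crest.Agent.R275.Geo Crest.Agent.R275.Core144 Crest.Agent.R275.EDR890
open Crest.Agent.R273.Defs_333 Crest.Agent.R273.Kah_333 Crest.Agent.R273.Vol_333
open Crest.Agent.R281.S6D_664 Crest.Agent.R281.Tube1_989
open Crest.Agent.R281.OmB_524 Crest.Agent.R281.Rk_599
open Crest.Agent.R281.Defs_273 Crest.Agent.R281.D6_986

noncomputable section

variable {n : ℕ} {M : Type} [TopologicalSpace M] {A : Atl (2 * n) M} {L : LB A}

/-- `s_0² d(s_(a+1)/s_0) = s_0 ds_(a+1) - s_(a+1) ds_0` -/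
theorem Dm_row {r : ℕ} {s : Fin (r + 1) → A.ι → M → ℂ} (hs : ∀ a, IsHS L univ (s a)) {i : A.ι}
    {x : M} (hx : x ∈ (A.e i).source) (h0 : s 0 i x ≠ 0) (a : Fin r) (b : Fin (2 * n)) :
    OmL_677.Wv (OmL_677.sl A s i) 0 a.succ (A.e i x) b = s 0 i x ^ 2 * Dm A s i x a b := by
  have hz := (A.e i).map_source hx
  have h00 : Rk_599.rd A i (s 0) (A.e i x) ≠ 0 := by
    show s 0 i ((A.e i).symm (A.e i x)) ≠ 0
    rwa [(A.e i).left_inv hx]
  have e0 : Rk_599.rd A i (s 0) (A.e i x) = s 0 i x := by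
    show s 0 i ((A.e i).symm (A.e i x)) = _
    rw [(A.e i).left_inv hx]
  have h1 := fderiv_rat hs hz h00 a (EuclideanSpace.single b 1)
  show _ = s 0 i x ^ 2 * fderiv ℂ (rat A s i a) (A.e i x) (EuclideanSpace.single b 1)
  rw [h1, e0, ← mul_assoc, mul_inv_cancel₀ (pow_ne_zero 2 h0), one_mul, ← e0]
  rfl

variable [T2Space M] [CompactSpace M] [Finite A.ι]

/-- **the brackets of the ratios vanish** -/
theorem brP_of (P : Part A) (K : Kah A) (σ : HSymp A) (hL : NefW K L) (hiso : Isotropic P σ L)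
    {k : ℕ} (hk : 0 < k) {m : ℕ} {s : Fin (m + 1) → A.ι → M → ℂ}
    (hs : ∀ a, IsHS (L ^ k) univ (s a)) : BrP σ s := by
  intro i x hx h0
  ext a b
  have h1 := OmL_677.bracket P K σ hL hiso hs hk i hx 0 b.succ 0 a.succ
  have h2 : ∀ c, OmL_677.Wv (OmL_677.sl A s i) 0 c.succ (A.e i x) =
      s 0 i x ^ 2 • Dm A s i x c := fun c => by
    funext b
    exact Dm_row hs hx h0 c b
  rw [h2, h2, Matrix.mulVec_smul, smul_dotProduct, dotProduct_smul, smul_smul, smul_eq_mul,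
    mul_eq_zero] at h1
  rcases h1 with h1 | h1
  · exact absurd h1 (mul_ne_zero (pow_ne_zero 2 h0) (pow_ne_zero 2 h0))
  · rw [Matrix.mul_assoc, Matrix.zero_apply, Matrix.mul_apply]
    exact h1

variable [ConnectedSpace M]

/-- **S6-OMEGA** -/
theorem omega (P : Part A) (K : Kah A) (σ : HSymp A) (hu : σ.Uniq) (hn : 1 ≤ n) (hL : NefW K L)
    (hiso : Isotropic P σ L) {k : ℕ} (hk : 0 < k) {s : Fin (n + 1) → A.ι → M → ℂ}
    (hs : ∀ a, IsHS (L ^ k) univ (s a)) {i₀ : A.ι} {x₀ : M} (h₀ : Rk A s i₀ x₀) :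
    ∃ o : OmOut σ L, o.k = k ∧ o.s = s 0 ∧ o.F.Tf = leaf (X0s A s) (ys A s) ∧
      o.F.Om = {x | x ∈ X0s A s ∧ IsCompact (leaf (X0s A s) (ys A s) x) ∧
        ∀ p ∈ leaf (X0s A s) (ys A s) x, ∃ i, Rk A s i p} :=
  omega_of P K σ hu hn hL hiso hk hs (brP_of P K σ hL hiso hk hs) h₀

end

end Crest.Agent.R281.Om_854
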