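import Crest.Agent.R281.OmB_524
import Crest.Agent.R281.OmL4_677
import Crest.Agent.R281.LfS_901
import Crest.Agent.R281.D6f_986
import Crest.Agent.R281.Sk0_474

/-!
# R281 (S0424), DIV 6, OM-ASM (helper524): the node `OmOut`

* `u0_eq`, `qf_eq_ys` : helper901's `U0`, `qf` are `X0s`, `ys`;
* `Dm_eq`, `Dm_bracket` : helper677's brackets in the form `Dm S⁻¹ Dmᵀ = 0`;
* `exists_omOut` : the node `OmOut` from sections of `L ^ k` of rank `n` whose leaves over regular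
  values are compact (helper854), `L` nef and isotropic.
-/

set_option autoImplicit false
set_option linter.unusedSectionVars false

open Set Filter Topology Metric Function
open scoped Matrix

namespace Crest.Agent.R281.OmC_524

open Crest.Agent.R275.Geo Crest.Agent.R275.Core144 Crest.Agent.R281.Defs_273
open Crest.Agent.R273.Kah_333
open Crest.Agent.R281.S6D_664 Crest.Agent.R281.OmA_524 Crest.Agent.R281.OmB_524
open Crest.Agent.R281.Tube1_989 Crest.Agent.R281.Tube2_989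
open Crest.Agent.R281.Rk_599 Crest.Agent.R281.D6_986
open Crest.Agent.R281.OmL_677 (Wv sl bracket df)
open Crest.Agent.R281.LfS_901 (U0 qf)
open Crest.Agent.R273.FIb0_597 (ch mem_ch)

noncomputable section

variable {N n r : ℕ} {M : Type} [TopologicalSpace M] {A : Atl N M} {L : LB A}
  {s : Fin (r + 1) → A.ι → M → ℂ}

theorem u0_eq (hs : ∀ a, IsHS L univ (s a)) : U0 s = X0s A s := by
  ext x
  obtain ⟨j, hj⟩ := A.cover x
  rw [Crest.Agent.R281.LfS_901.mem_u0 hs hj, mem_X0s_iff hs hj]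

theorem qf_eq_ys (hs : ∀ a, IsHS L univ (s a)) : qf s = ys A s := by
  funext x
  ext a
  rw [Crest.Agent.R281.LfS_901.qf_eq hs (mem_ch A x)]
  rfl

theorem Dm_eq (hs : ∀ a, IsHS L univ (s a)) {i : A.ι} {x : M} (hx : x ∈ (A.e i).source)
    (h0 : s 0 i x ≠ 0) (a : Fin r) (c : Fin N) :
    Dm A s i x a c = (s 0 i x ^ 2)⁻¹ * Wv (sl A s i) 0 a.succ (A.e i x) c := by
  have hr0 : Crest.Agent.R281.Rk_599.rd A i (s 0) (A.e i x) = s 0 i x := by
    unfold Crest.Agent.R281.Rk_599.rd; rw [(A.e i).left_inv hx]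
  rw [← hr0]
  exact fderiv_rat hs ((A.e i).map_source hx) (by rwa [hr0]) a _

/-- helper677's brackets as a matrix identity -/
theorem Dm_bracket [T2Space M] [CompactSpace M] [Finite A.ι] (P : Part A) (K : Kah A)
    (σ : HSymp A) {L : LB A} (hN : NefW K L) (hI : Isotropic P σ L) {k : ℕ} (hk : 0 < k)
    {s : Fin (r + 1) → A.ι → M → ℂ} (hs : ∀ a, IsHS (L ^ k) univ (s a)) {i : A.ι} {x : M}
    (hx : x ∈ (A.e i).source) (h0 : s 0 i x ≠ 0) :
    Dm A s i x * (σ.s i x)⁻¹ * (Dm A s i x)ᵀ = 0 := by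
  have hD : Dm A s i x = (s 0 i x ^ 2)⁻¹ •
      Matrix.of fun (a : Fin r) c => Wv (sl A s i) 0 a.succ (A.e i x) c := by
    ext a c
    rw [Matrix.smul_apply, Matrix.of_apply, smul_eq_mul, Dm_eq hs hx h0]
  rw [hD, Matrix.smul_mul, Matrix.smul_mul, Matrix.transpose_smul, Matrix.mul_smul]
  have hz : (Matrix.of fun (a : Fin r) c => Wv (sl A s i) 0 a.succ (A.e i x) c) *
      (σ.s i x)⁻¹ * (Matrix.of fun (a : Fin r) c => Wv (sl A s i) 0 a.succ (A.e i x) c)ᵀ = 0 := by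
    ext a b
    have h1 := bracket P K σ hN hI hs hk i hx 0 b.succ 0 a.succ
    rw [Matrix.mul_assoc, Matrix.mul_apply, Matrix.zero_apply]
    have h2 : ∀ j, ((σ.s i x)⁻¹ *
        (Matrix.of fun (a : Fin r) c => Wv (sl A s i) 0 a.succ (A.e i x) c)ᵀ) j b =
        ((σ.s i x)⁻¹ *ᵥ Wv (sl A s i) 0 b.succ (A.e i x)) j := fun j => rfl
    simp only [h2]
    exact h1
  rw [hz, smul_zero, smul_zero]

/-- **the node `OmOut`** -/
theorem exists_omOut [T2Space M] [CompactSpace M] [PreconnectedSpace M] {A : Atl (2 * n) M}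
    [Finite A.ι] (P : Part A) (K : Kah A) (σ : HSymp A) {L : LB A} (hN : NefW K L)
    (hI : Isotropic P σ L) {k : ℕ} (hk : 0 < k) {s : Fin (n + 1) → A.ι → M → ℂ}
    (hs : ∀ a, IsHS (L ^ k) univ (s a)) {i₀ : A.ι} {x₀ : M} (h₀ : Rk A s i₀ x₀)
    (hcpt : ∀ x ∈ U0 s, x ∉ Bad A (U0 s) (qf s) → IsCompact (leaf (U0 s) (qf s) x)) :
    ∃ o : OmOut σ L, o.k = k ∧ o.s = s 0 ∧ o.F.Tf = leaf (U0 s) (qf s) ∧
      o.F.Om = {x | x ∈ U0 s ∧ IsCompact (leaf (U0 s) (qf s) x) ∧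
        ∀ p ∈ leaf (U0 s) (qf s) x, RegAt A (qf s) p} := by
  rw [u0_eq hs, qf_eq_ys hs] at hcpt ⊢
  obtain ⟨F, h1, h2⟩ := exists_lfib A σ (isOpen_X0s hs) (holOn_ys hs) (sthA_bad hs h₀) hcpt
    (fun i x hx hx0 hsj v w hv hw => lag_of_bracket hs σ hx (hx0 i hx)
      (Dm_bracket P K σ hN hI hk hs hx (hx0 i hx)) hsj hv hw)
  exact ⟨{
    F := F
    k := k
    k_pos := hk
    s := s 0
    hs := hs 0
    nz := fun x hx i hi => by
      rw [h1] at hx
      exact hx.1 i hi }, rfl, rfl, h2, h1⟩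

end

end Crest.Agent.R281.OmC_524
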