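import Mathlib

/-!
# R281 (S0424), OM-MASS (854 #7836), piece (GL) + (BALL) (helper467)

* `gl`   : a local lower bound on compact pieces of an injectively immersed space becomes a
  global bound of the total mass (inner regularity + disjoint neighbourhoods of disjoint compacts)
* `ball` : volume of `{y | ∑ y² ≤ δ}`
-/

set_option autoImplicit false

open Set Filter Topology MeasureTheory
open scoped ENNReal NNReal Pointwise

namespace Crest.Agent.R281.OmG_467

section GLsec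

variable {T M : Type*} [TopologicalSpace T] [TopologicalSpace M]
  [MeasurableSpace T] [MeasurableSpace M]

/-- the property of a compact piece which is stable under disjoint unions -/
def PP (μ : Measure T) (i : T → M) (ν : ℝ → Measure M) (c : ℝ≥0∞) (E : Set T) : Prop :=
  ∀ O : Set M, IsOpen O → i '' E ⊆ O → ∀ᶠ δ in 𝓝[>] (0:ℝ), c * μ E ≤ ν δ O

theorem PP.union [T2Space M] [OpensMeasurableSpace M] {μ : Measure T} {i : T → M}
    (hi : Continuous i) (hinj : Function.Injective i) {ν : ℝ → Measure M} {c : ℝ≥0∞}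
    {E F : Set T} (hE : IsCompact E) (hF : IsCompact F) (hEF : Disjoint E F)
    (pE : PP μ i ν c E) (pF : PP μ i ν c F) : PP μ i ν c (E ∪ F) := by
  intro O hO hsub
  have h1 : Disjoint (i '' E) (i '' F) := (disjoint_image_iff hinj).2 hEF
  obtain ⟨O1, O2, hO1, hO2, hs1, hs2, hd⟩ :=
    SeparatedNhds.of_isCompact_isCompact (hE.image hi) (hF.image hi) h1
  have e1 : i '' E ⊆ O := (image_mono subset_union_left).trans hsub
  have e2 : i '' F ⊆ O := (image_mono subset_union_right).trans hsub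
  filter_upwards [pE (O1 ∩ O) (hO1.inter hO) (subset_inter hs1 e1),
    pF (O2 ∩ O) (hO2.inter hO) (subset_inter hs2 e2)] with δ a b
  calc c * μ (E ∪ F) ≤ c * (μ E + μ F) := by gcongr; exact measure_union_le _ _
    _ = c * μ E + c * μ F := mul_add _ _ _
    _ ≤ ν δ (O1 ∩ O) + ν δ (O2 ∩ O) := add_le_add a b
    _ = ν δ ((O1 ∩ O) ∪ (O2 ∩ O)) := by
        rw [measure_union (hd.mono inter_subset_left inter_subset_left)
          (hO2.inter hO).measurableSet]
    _ ≤ ν δ O := measure_mono (union_subset inter_subset_right inter_subset_right)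

/-- **(GL), general form.** -/
theorem gl [LocallyCompactSpace T] [T2Space T] [SecondCountableTopology T] [BorelSpace T]
    [T2Space M] [OpensMeasurableSpace M] (μ : Measure T) [IsFiniteMeasureOnCompacts μ]
    {i : T → M} (hi : Continuous i) (hinj : Function.Injective i) (ν : ℝ → Measure M)
    {c C : ℝ≥0∞} (hC : ∀ᶠ δ in 𝓝[>] (0:ℝ), ν δ univ ≤ C)
    (hloc : ∀ p : T, ∃ U ∈ 𝓝 p, ∀ E ⊆ U, IsCompact E → ∀ O : Set M, IsOpen O → i '' E ⊆ O →
      ∀ᶠ δ in 𝓝[>] (0:ℝ), c * μ E ≤ ν δ O) :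
    c * μ univ ≤ C := by
  haveI : T3Space T := inferInstance
  haveI : TopologicalSpace.MetrizableSpace T :=
    TopologicalSpace.metrizableSpace_of_t3_secondCountable T
  haveI : IsLocallyFiniteMeasure μ := isLocallyFiniteMeasure_of_isFiniteMeasureOnCompacts
  haveI : μ.Regular := Measure.Regular.of_sigmaCompactSpace_of_isLocallyFiniteMeasure μ
  -- the approximation property
  have key : ∀ K : Set T, IsCompact K → ∃ V : Set T, MeasurableSet V ∧ K ⊆ V ∧
      ∀ B ⊆ V, MeasurableSet B → μ B ≠ ∞ → ∀ ε : ℝ≥0∞, ε ≠ 0 →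
        ∃ E ⊆ B, IsCompact E ∧ PP μ i ν c E ∧ μ B ≤ μ E + ε := by
    intro K hK
    refine hK.induction_on (p := fun K => ∃ V : Set T, MeasurableSet V ∧ K ⊆ V ∧
      ∀ B ⊆ V, MeasurableSet B → μ B ≠ ∞ → ∀ ε : ℝ≥0∞, ε ≠ 0 →
        ∃ E ⊆ B, IsCompact E ∧ PP μ i ν c E ∧ μ B ≤ μ E + ε) ?_ ?_ ?_ ?_
    · refine ⟨∅, MeasurableSet.empty, subset_rfl, fun B hB _ _ ε _ => ⟨∅, empty_subset _,
        isCompact_empty, ?_, ?_⟩⟩
      · intro O _ _
        filter_upwards with δ
        simp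
      · rw [subset_empty_iff.1 hB]; simp
    · rintro s t hst ⟨V, hV, htV, h⟩
      exact ⟨V, hV, hst.trans htV, h⟩
    · rintro s t ⟨V1, hV1, hs, h1⟩ ⟨V2, hV2, ht, h2⟩
      refine ⟨V1 ∪ V2, hV1.union hV2, union_subset_union hs ht, fun B hB hBm hBf ε hε => ?_⟩
      have hB1 : μ (B ∩ V1) ≠ ∞ := ne_top_of_le_ne_top hBf (measure_mono inter_subset_left)
      have hB2 : μ (B \ V1) ≠ ∞ := ne_top_of_le_ne_top hBf (measure_mono sdiff_subset)
      have hε2 : ε / 2 ≠ 0 := (ENNReal.half_pos hε).ne'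
      obtain ⟨E1, a1, b1, c1, d1⟩ := h1 (B ∩ V1) inter_subset_right (hBm.inter hV1) hB1 _ hε2
      have hs2 : B \ V1 ⊆ V2 := by
        rintro x ⟨hx, hx1⟩
        exact (hB hx).resolve_left hx1
      obtain ⟨E2, a2, b2, c2, d2⟩ := h2 (B \ V1) hs2 (hBm.diff hV1) hB2 _ hε2
      have hdisj : Disjoint E1 E2 := by
        refine disjoint_left.2 fun x h1 h2 => (a2 h2).2 (a1 h1).2
      refine ⟨E1 ∪ E2, union_subset (a1.trans inter_subset_left) (a2.trans sdiff_subset),
        b1.union b2, PP.union hi hinj b1 b2 hdisj c1 c2, ?_⟩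
      calc μ B = μ (B ∩ V1) + μ (B \ V1) := (measure_inter_add_sdiff B hV1).symm
        _ ≤ (μ E1 + ε / 2) + (μ E2 + ε / 2) := add_le_add d1 d2
        _ = (μ E1 + μ E2) + (ε / 2 + ε / 2) := by ring
        _ = μ (E1 ∪ E2) + ε := by
            rw [ENNReal.add_halves, measure_union hdisj b2.measurableSet]
    · intro x _
      obtain ⟨U, hU, h⟩ := hloc x
      refine ⟨interior U, mem_nhdsWithin_of_mem_nhds (interior_mem_nhds.2 hU), interior U,
        isOpen_interior.measurableSet, subset_rfl, fun B hB hBm hBf ε hε => ?_⟩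
      obtain ⟨E, hEB, hE, hlt⟩ := hBm.exists_isCompact_lt_add hBf hε
      exact ⟨E, hEB, hE, fun O hO hs => h E (hEB.trans (hB.trans interior_subset)) hE O hO hs,
        hlt.le⟩
  -- a compact set
  have comp : ∀ K : Set T, IsCompact K → c * μ K ≤ C := by
    intro K hK
    obtain ⟨V, hV, hKV, h⟩ := key K hK
    have hex : ∀ n : ℕ, ∃ E : Set T, c * μ E ≤ C ∧ μ K ≤ μ E + ((n : ℝ≥0∞) + 1)⁻¹ := by
      intro n
      obtain ⟨E, _, _, pE, hE⟩ := h K hKV hK.measurableSet hK.measure_lt_top.ne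
        ((n : ℝ≥0∞) + 1)⁻¹ (ENNReal.inv_ne_zero.2 (by finiteness))
      have h2 := (pE univ isOpen_univ (subset_univ _)).and hC
      obtain ⟨δ, hδ1, hδ2⟩ := h2.exists
      exact ⟨E, hδ1.trans hδ2, hE⟩
    choose E hE1 hE2 using hex
    have hsup : μ K ≤ ⨆ n, μ (E n) := by
      refine ENNReal.le_of_forall_pos_le_add fun ε hε _ => ?_
      obtain ⟨n, hn⟩ := ENNReal.exists_inv_nat_lt (a := (ε : ℝ≥0∞)) (by exact_mod_cast hε.ne')
      calc μ K ≤ μ (E n) + ((n : ℝ≥0∞) + 1)⁻¹ := hE2 n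
        _ ≤ (⨆ n, μ (E n)) + ε := by
            refine add_le_add (le_iSup (fun n => μ (E n)) n) (le_trans ?_ hn.le)
            exact ENNReal.inv_le_inv.2 (by exact le_self_add)
    calc c * μ K ≤ c * ⨆ n, μ (E n) := by gcongr
      _ = ⨆ n, c * μ (E n) := ENNReal.mul_iSup _ _
      _ ≤ C := iSup_le hE1
  -- exhaustion
  have hun : μ univ = ⨆ n, μ (compactCovering T n) := by
    rw [← iUnion_compactCovering T]
    exact (Monotone.measure_iUnion (compactCovering_subset T))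
  rw [hun, ENNReal.mul_iSup]
  exact iSup_le fun n => comp _ (isCompact_compactCovering T n)

/-- the consequence for the mass itself -/
theorem gl' [LocallyCompactSpace T] [T2Space T] [SecondCountableTopology T] [BorelSpace T]
    [T2Space M] [OpensMeasurableSpace M] (μ : Measure T) [IsFiniteMeasureOnCompacts μ]
    {i : T → M} (hi : Continuous i) (hinj : Function.Injective i) (ν : ℝ → Measure M)
    {c C : ℝ≥0∞} (hc : c ≠ 0) (hC' : C ≠ ∞) (hC : ∀ᶠ δ in 𝓝[>] (0:ℝ), ν δ univ ≤ C)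
    (hloc : ∀ p : T, ∃ U ∈ 𝓝 p, ∀ E ⊆ U, IsCompact E → ∀ O : Set M, IsOpen O → i '' E ⊆ O →
      ∀ᶠ δ in 𝓝[>] (0:ℝ), c * μ E ≤ ν δ O) :
    μ univ ≤ C / c ∧ μ univ < ∞ := by
  have h := gl μ hi hinj ν hC hloc
  have h1 : μ univ ≤ C / c := by
    by_cases hct : c = ∞
    · have h0 : μ univ = 0 := by
        by_contra h0
        rw [hct, ENNReal.top_mul h0] at h
        exact hC' (top_le_iff.1 h)
      rw [h0]; exact bot_le
    · rw [ENNReal.le_div_iff_mul_le (Or.inl hc) (Or.inl hct), mul_comm]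
      exact h
  exact ⟨h1, h1.trans_lt (ENNReal.div_lt_top hC' hc)⟩

end GLsec

section Ball

variable {I : Type*} [Fintype I]

/-- the Euclidean ball of radius `√δ` in plain coordinates -/
def bb (I : Type*) [Fintype I] (δ : ℝ) : Set (I → ℝ) := {y | ∑ i, y i ^ 2 ≤ δ}

theorem isClosed_bb (δ : ℝ) : IsClosed (bb I δ) := by
  refine isClosed_le ?_ continuous_const
  fun_prop

theorem bb_subset {δ : ℝ} (_hδ : 0 ≤ δ) : bb I δ ⊆ Set.Icc (fun _ => -√δ) (fun _ => √δ) := by
  intro y hy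
  have h : ∀ i, y i ^ 2 ≤ δ := fun i =>
    (Finset.single_le_sum (f := fun i => y i ^ 2) (fun j _ => sq_nonneg _)
      (Finset.mem_univ i)).trans hy
  constructor
  · intro i
    have := Real.abs_le_sqrt (h i)
    exact (abs_le.1 this).1
  · intro i
    have := Real.abs_le_sqrt (h i)
    exact (abs_le.1 this).2

theorem volume_bb_lt_top (δ : ℝ) : volume (bb I δ) < ∞ := by
  rcases le_or_gt 0 δ with h | h
  · exact (measure_mono (bb_subset h)).trans_lt isCompact_Icc.measure_lt_top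
  · have : bb I δ = ∅ := by
      refine eq_empty_of_forall_notMem fun y hy => ?_
      have h0 : (0:ℝ) ≤ ∑ i, y i ^ 2 := Finset.sum_nonneg fun i _ => sq_nonneg _
      exact absurd (h0.trans hy) (not_le.2 h)
    rw [this]; simp

theorem volume_bb_pos {δ : ℝ} (hδ : 0 < δ) : 0 < volume (bb I δ) := by
  have hopen : IsOpen {y : I → ℝ | ∑ i, y i ^ 2 < δ} := by
    refine isOpen_lt ?_ continuous_const
    fun_prop
  have hne : {y : I → ℝ | ∑ i, y i ^ 2 < δ}.Nonempty := ⟨0, by simpa using hδ⟩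
  exact (hopen.measure_pos volume hne).trans_le
    (measure_mono fun y (hy : ∑ i, y i ^ 2 < δ) => hy.le)

theorem bb_smul {δ : ℝ} (hδ : 0 < δ) : bb I δ = (√δ) • bb I 1 := by
  have hs : √δ ≠ 0 := (Real.sqrt_pos.2 hδ).ne'
  ext y
  rw [Set.mem_smul_set_iff_inv_smul_mem₀ hs]
  simp only [bb, mem_setOf_eq, Pi.smul_apply, smul_eq_mul, mul_pow, ← Finset.mul_sum, inv_pow,
    Real.sq_sqrt hδ.le]
  rw [inv_mul_le_iff₀ hδ, mul_one]

/-- **(BALL)** -/
theorem volume_bb {δ : ℝ} (hδ : 0 < δ) :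
    volume (bb I δ) = ENNReal.ofReal ((√δ) ^ Fintype.card I) * volume (bb I 1) := by
  rw [bb_smul hδ, Measure.addHaar_smul, Module.finrank_fintype_fun_eq_card,
    abs_of_nonneg (by positivity)]

theorem volume_bb_fin2 (m : ℕ) {δ : ℝ} (hδ : 0 < δ) :
    volume (bb (Fin m × Fin 2) δ) = ENNReal.ofReal (δ ^ m) * volume (bb (Fin m × Fin 2) 1) := by
  rw [volume_bb hδ]
  congr 2
  rw [Fintype.card_prod, Fintype.card_fin, Fintype.card_fin, mul_comm, pow_mul,
    Real.sq_sqrt hδ.le]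

end Ball

end Crest.Agent.R281.OmG_467
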