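import Crest.Agent.R281.Om1_854
import Crest.Agent.R281.OmG_467

/-!
# R281 (S0424), OM-MASS: (BALL) for the literal ball `Om_854.bl` (helper467)
-/

set_option autoImplicit false

open Set Filter Topology Complex MeasureTheory
open scoped ENNReal

namespace Crest.Agent.R281.OmG2_467

open Crest.Agent.R275.Geo Crest.Agent.R281.Om_854 Crest.Agent.R281.OmG_467

theorem norm_cc_sq {m : ℕ} (y : RI m → ℝ) : ‖(cc y : Cn m)‖ ^ 2 = ∑ p, y p ^ 2 := by
  rw [EuclideanSpace.norm_sq_eq, Fintype.sum_prod_type]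
  refine Finset.sum_congr rfl fun a _ => ?_
  rw [Fin.sum_univ_two, cc_apply, ← Complex.normSq_eq_norm_sq, Complex.normSq_add_mul_I]

theorem bl_eq (m : ℕ) (δ : ℝ) : bl m δ = bb (Fin m × Fin 2) δ := by
  ext y
  simp only [bl, bb, mem_setOf_eq, norm_cc_sq]

/-- **(BALL)**, literal -/
theorem volume_bl (m : ℕ) {δ : ℝ} (hδ : 0 < δ) :
    volume (bl m δ) = ENNReal.ofReal (δ ^ m) * volume (bl m 1) := by
  rw [bl_eq, bl_eq]
  exact volume_bb_fin2 m hδ

theorem volume_bl_lt_top (m : ℕ) (δ : ℝ) : volume (bl m δ) < ∞ := by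
  rw [bl_eq]
  exact volume_bb_lt_top δ

theorem volume_bl_pos (m : ℕ) {δ : ℝ} (hδ : 0 < δ) : 0 < volume (bl m δ) := by
  rw [bl_eq]
  exact volume_bb_pos hδ

end Crest.Agent.R281.OmG2_467
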