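import Crest.Agent.R281.Har5_331

/-!
# R281 (S0424), leaf OM-HAR (helper331), part 1: Green's formula with compact support

`T` not compact, countable atlas with a partition of unity:
* `integral_F`   : `∫ f d(vm h) = ∑_{i ∈ F} lint B i (ψ_i w_i f)` for continuous `f` with compact
  support;
* `int_Gb_cs`    : `∫ <du, dv> = - ∫ u Lap v`, `u` with compact support;
* `volinv_cs`    : `∫ det(g + ∂∂̄u) - det g = 0`, `u` with compact support.
-/

set_option autoImplicit false
set_option linter.unusedSectionVars false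

open Set Filter Topology Complex MeasureTheory Function
open scoped ContDiff Matrix ComplexConjugate ComplexOrder Polynomial

namespace Crest.Agent.R281.Har_331

open Crest.Agent.R275 Crest.Agent.R275.Geo Crest.Agent.R275.Core144 Crest.Agent.R275.EDR890
open Crest.Agent.R275.Pai323 Crest.Agent.R275.C1d194
open Crest.Agent.R275.SerG398 (lint dens OffZ)
open Crest.Agent.R275.OmT75 (dj dl dl_chain dl_mul db_chain dj_sum dj_congr)
open Crest.Agent.R273.Defs_333 Crest.Agent.R273.Hess_333 Crest.Agent.R273.HessB_333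
open Crest.Agent.R273.HM_333 Crest.Agent.R273.Kah_333 Crest.Agent.R273.Vol_333
open Crest.Agent.R273.Vm_333
open Crest.Agent.R273.Green_5 Crest.Agent.R273.FIa0_597 Crest.Agent.R273.FIb0_597
open Crest.Agent.R273.FIc0_597 Crest.Agent.R273
open Crest.Agent.R273.SchI_152 (Dg sm_sq Dg_nonneg continuous_Dg)
open Crest.Agent.R273.StV_37 (tot tot_congr tot_add tot_smul tot_sum)
open Crest.Agent.R273.VolInv_5 (dp eval_dp natDegree_dp smAt_coeff_dp eval_derivative_dp)
open Crest.Agent.R273.GreenM_5 (Dn Tn fnD fnD_div sm_fnD integral_fnD_re sm_re CF.tn adj_dn)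
open Crest.Agent.R273.GreenG_5 (grd grd_qa grd_dn qa qa_eq adjugate_eq db_ofReal totc_grd smAt_trA
  trA_dn)
open Crest.Agent.R281.Glob1_484

noncomputable section

variable {n : ℕ} {M : Type} [TopologicalSpace M] {A : Atl n M} {L L' : LB A}

theorem trC_det' (K : Kah A) (S : A.ι → M → Matrix (Fin n) (Fin n) ℂ) {i : A.ι} {x : M}
    (hx : x ∈ (A.e i).source) :
    (K.g i x).det * trC K S i x = ((K.g i x).adjugate * S i x).trace := by
  unfold trC
  have h0 : (K.g i x).det ≠ 0 := (K.pos i x hx).det_pos.ne'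
  rw [Matrix.inv_def, Ring.inverse_eq_inv', Matrix.smul_mul, Matrix.trace_smul, smul_eq_mul,
    ← mul_assoc, mul_inv_cancel₀ h0, one_mul]

theorem near_zero {u : M → ℂ} {i : A.ι} {x : M} (hx : x ∈ (A.e i).source) (h : u =ᶠ[𝓝 x] 0) :
    (fun z => u ((A.e i).symm z)) =ᶠ[𝓝 (A.e i x)] fun _ => (0 : ℂ) := by
  have hc : Tendsto (A.e i).symm (𝓝 (A.e i x)) (𝓝 x) := by
    have := (A.e i).continuousAt_symm ((A.e i).map_source hx)
    rw [ContinuousAt, (A.e i).left_inv hx] at this
    exact this
  exact hc.eventually h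

theorem dl_zero_of {u : M → ℂ} {i : A.ι} {x : M} (hx : x ∈ (A.e i).source) (h : u =ᶠ[𝓝 x] 0)
    (a : Fin n) : dl A i a u x = 0 := by
  unfold OmT75.dl
  rw [dj_eq_wd, wd_congr (near_zero hx h)]
  exact wd_const _ _ _

theorem ev_zero [T2Space M] {u : M → ℂ} {C : Set M} (hC : IsCompact C) (h0 : ∀ x ∉ C, u x = 0)
    {x : M} (hx : x ∉ C) : u =ᶠ[𝓝 x] 0 := by
  filter_upwards [hC.isClosed.isOpen_compl.mem_nhds hx] with y hy
  exact h0 y hy

/-- **invariance of the volume**, compact support -/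
theorem volinv_poly_cs [T2Space M] {g : A.ι → M → Matrix (Fin n) (Fin n) ℂ} (P : Part A)
    (hg : CF A g) {u : M → ℝ} (hu : A.Sm u) {C : Set M} (hC : IsCompact C) {F : Finset A.ι}
    (hF : Fn P hC ⊆ F) (h0 : ∀ x ∉ C, u x = 0) (t : ℝ) :
    tot P F (fun i x => (g i x + (t : ℂ) • hsf A u i x).det) = tot P F (fun i x => (g i x).det) := by
  have hH := hsf_cf (A := A) hu
  set c : ℕ → A.ι → M → ℂ := fun k i x => (dp (g i x) (hsf A u i x)).coeff k with hc
  have hcs : ∀ k i, A.SmAt i (c k i) := fun k i => smAt_coeff_dp (hg.sm i) (hH.sm i) k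
  set T : ℕ → ℂ := fun k => tot P F (c k) with hT
  have hp : ∀ t : ℝ, tot P F (fun i x => (g i x + (t : ℂ) • hsf A u i x).det) =
      ∑ k ∈ Finset.range (n + 1), (t : ℂ) ^ k * T k := by
    intro t
    have h1 : tot P F (fun i x => (g i x + (t : ℂ) • hsf A u i x).det) =
        tot P F (fun i x => ∑ k ∈ Finset.range (n + 1), (t : ℂ) ^ k * c k i x) := by
      refine tot_congr P F fun i _ x _ => ?_
      rw [← eval_dp, Polynomial.eval_eq_sum_range' (Nat.lt_succ_of_le (natDegree_dp _ _))]
      exact Finset.sum_congr rfl fun k _ => mul_comm _ _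
    rw [h1, tot_sum P F _ (f := fun (k : ℕ) i x => (t : ℂ) ^ k * c k i x) fun k _ i =>
      (contDiffOn_const (c := (t : ℂ) ^ k)).mul (hcs k i)]
    exact Finset.sum_congr rfl fun k _ => tot_smul P F _ _
  have hd : ∀ t : ℝ, HasDerivAt (fun s : ℝ => ∑ k ∈ Finset.range (n + 1), (s : ℂ) ^ k * T k) 0 t := by
    intro t
    have h1 : HasDerivAt (fun s : ℝ => ∑ k ∈ Finset.range (n + 1), (s : ℂ) ^ k * T k)
        (∑ k ∈ Finset.range (n + 1), ((k : ℂ) * (t : ℂ) ^ (k - 1)) * T k) t := by
      refine HasDerivAt.fun_sum fun k _ => ?_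
      exact ((hasDerivAt_pow k (t : ℂ)).comp_ofReal).mul_const _
    have h2 : ∑ k ∈ Finset.range (n + 1), ((k : ℂ) * (t : ℂ) ^ (k - 1)) * T k = 0 := by
      have h3 : ∑ k ∈ Finset.range (n + 1), ((k : ℂ) * (t : ℂ) ^ (k - 1)) * T k =
          tot P F (fun i x => ∑ k ∈ Finset.range (n + 1),
            ((k : ℂ) * (t : ℂ) ^ (k - 1)) * c k i x) := by
        rw [tot_sum P F _ (f := fun (k : ℕ) i x => ((k : ℂ) * (t : ℂ) ^ (k - 1)) * c k i x)
          fun k _ i => (contDiffOn_const (c := (k : ℂ) * (t : ℂ) ^ (k - 1))).mul (hcs k i)]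
        exact Finset.sum_congr rfl fun k _ => (tot_smul P F _ _).symm
      rw [h3]
      have h4 : tot P F (fun i x => ∑ k ∈ Finset.range (n + 1),
            ((k : ℂ) * (t : ℂ) ^ (k - 1)) * c k i x) =
          tot P F (fun i x => ((g i x + (t : ℂ) • hsf A u i x).adjugate *
            hm A (fun y => (u y : ℂ)) i x).trace) := by
        refine tot_congr P F fun i _ x hx => ?_
        rw [hm_ofReal u i hx, ← eval_derivative_dp]
        rw [Polynomial.eval_eq_sum_range' (n := n + 1)
          ((Polynomial.natDegree_derivative_le _).trans_lt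
            (lt_of_le_of_lt (Nat.sub_le _ _) (Nat.lt_succ_of_le (natDegree_dp _ _))))]
        rw [Finset.sum_range_succ']
        simp only [Nat.cast_zero, zero_mul, add_zero]
        rw [Finset.sum_range_succ]
        have h5 : (Polynomial.derivative (dp (g i x) (hsf A u i x))).coeff n = 0 := by
          rw [Polynomial.coeff_derivative, Polynomial.coeff_eq_zero_of_natDegree_lt
            (lt_of_le_of_lt (natDegree_dp _ _) (Nat.lt_succ_self n)), zero_mul]
        rw [h5, zero_mul, add_zero]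
        refine Finset.sum_congr rfl fun k _ => ?_
        rw [Polynomial.coeff_derivative]
        simp only [hc, Nat.add_sub_cancel]
        push_cast
        ring
      rw [h4]
      have h6 : CF A (fun i x => g i x + (t : ℂ) • hsf A u i x) := hg.add (hH.smul t)
      exact green1 P h6 (fun i => smAt_ofReal (hu i)) hC hF fun x hx => by rw [h0 x hx]; simp
    rw [h2] at h1
    exact h1
  have h7 : ∀ t : ℝ, ∑ k ∈ Finset.range (n + 1), (t : ℂ) ^ k * T k =
      ∑ k ∈ Finset.range (n + 1), ((0 : ℝ) : ℂ) ^ k * T k := fun t =>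
    is_const_of_deriv_eq_zero (fun s => (hd s).differentiableAt) (fun s => (hd s).deriv) t 0
  rw [hp t, h7 t, ← hp 0]
  simp

theorem volinv_cs [T2Space M] {g : A.ι → M → Matrix (Fin n) (Fin n) ℂ} (P : Part A)
    (hg : CF A g) {u : M → ℝ} (hu : A.Sm u) {C : Set M} (hC : IsCompact C) {F : Finset A.ι}
    (hF : Fn P hC ⊆ F) (h0 : ∀ x ∉ C, u x = 0) :
    tot P F (fun i x => (g i x + hsf A u i x).det) = tot P F (fun i x => (g i x).det) := by
  have := volinv_poly_cs P hg hu hC hF h0 1
  simpa using this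

section meas

variable [T2Space M] [Countable A.ι] [MeasurableSpace M] [BorelSpace M]

theorem integrable_cs {E : Type*} [NormedAddCommGroup E] (h : HM (KB A)⁻¹) {f : M → E}
    (hf : Continuous f) {C : Set M} (hC : IsCompact C) (h0 : ∀ x ∉ C, f x = 0) :
    Integrable f (vm h) := by
  have := isLocallyFinite_vm h
  exact hf.integrable_of_hasCompactSupport (HasCompactSupport.intro hC h0)

/-- the global formula with a partition of unity, compact support -/
theorem integral_F (h : HM (KB A)⁻¹) (P : Part A) {C : Set M} (hC : IsCompact C)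
    {F : Finset A.ι} (hF : Fn P hC ⊆ F) {f : M → ℂ} (hf : Continuous f) (h0 : ∀ x ∉ C, f x = 0) :
    ∫ x, f x ∂(vm h) = ∑ i ∈ F, lint A i (fun x => (P.ψ i x : ℂ) * ((h.w i x : ℂ) * f x)) := by
  have hint : ∀ i, Integrable (fun x => (P.ψ i x : ℂ) * f x) (vm h) := by
    intro i
    refine integrable_cs h ?_ hC fun x hx => by rw [h0 x hx, mul_zero]
    exact (Complex.continuous_ofReal.comp (sm_continuous (P.ψ_sm i))).mul hf
  have h1 : (fun x => f x) = fun x => ∑ i ∈ F, (P.ψ i x : ℂ) * f x := by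
    funext x
    by_cases hx : x ∈ C
    · rw [← Finset.sum_mul]
      have h2 : ∑ i ∈ F, (P.ψ i x : ℂ) = 1 := by
        rw [← Complex.ofReal_sum, sum_psi P hC hF hx, Complex.ofReal_one]
      rw [h2, one_mul]
    · simp [h0 x hx]
  calc ∫ x, f x ∂(vm h) = ∫ x, ∑ i ∈ F, (P.ψ i x : ℂ) * f x ∂(vm h) := by rw [← h1]
    _ = ∑ i ∈ F, ∫ x, (P.ψ i x : ℂ) * f x ∂(vm h) := integral_finsetSum _ fun i _ => hint i
    _ = _ := by
      refine Finset.sum_congr rfl fun i _ => ?_
      have h3 : ∫ x, (P.ψ i x : ℂ) * f x ∂(vm h) =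
          ∫ x in (A.e i).source, (P.ψ i x : ℂ) * f x ∂(vm h) := by
        symm
        refine setIntegral_eq_integral_of_forall_compl_eq_zero fun x hx => ?_
        rw [psi_off P hx, Complex.ofReal_zero, zero_mul]
      rw [h3, setIntegral_vm h i (hint i).aestronglyMeasurable]
      unfold Crest.Agent.R275.SerG398.lint
      symm
      rw [← setIntegral_eq_integral_of_forall_compl_eq_zero (s := Ui A i)
        (fun y hy => rd_off hy)]
      refine setIntegral_congr_fun (Vm_333.isOpen_Ui i).measurableSet fun y hy => ?_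
      rw [rd_of_mem hy]
      change (P.ψ i (sg A i y) : ℂ) * ((h.w i (sg A i y) : ℂ) * f (sg A i y)) =
        (h.w i (sg A i y)) • ((P.ψ i (sg A i y) : ℂ) * f (sg A i y))
      rw [Complex.real_smul]
      ring

/-- the integral of a density with compact support -/
theorem integral_fnD_cs (K : Kah A) (P : Part A) {f : A.ι → M → ℂ} (hf : Dn A f)
    (hs : ∀ i, A.SmAt i (f i)) {C : Set M} (hC : IsCompact C) {F : Finset A.ι} (hF : Fn P hC ⊆ F)
    (h0 : ∀ i, ∀ x ∈ (A.e i).source, x ∉ C → f i x = 0) :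
    ∫ x, fnD K f x ∂(vm (volK K)) = tot P F f := by
  have hc : Continuous (fnD K f) := cont_sm (sm_fnD K hf hs)
  rw [integral_F (volK K) P hC hF hc fun x hx => ?_]
  · refine Finset.sum_congr rfl fun i _ => lint_congr fun x hx => ?_
    have hd : (K.g i x).det ≠ 0 := (K.pos i x hx).det_pos.ne'
    show (P.ψ i x : ℂ) * (((volK K).w i x : ℂ) * fnD K f x) = (P.ψ i x : ℂ) * f i x
    rw [volK_w K i hx, fnD_div K hf hx, mul_div_cancel₀ _ hd]
  · have hx' := mem_ch A x
    rw [fnD_div K hf hx', h0 _ x hx' hx, zero_div]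

theorem integral_fnD_cs_re (K : Kah A) (P : Part A) {f : A.ι → M → ℂ} (hf : Dn A f)
    (hs : ∀ i, A.SmAt i (f i)) {C : Set M} (hC : IsCompact C) {F : Finset A.ι} (hF : Fn P hC ⊆ F)
    (h0 : ∀ i, ∀ x ∈ (A.e i).source, x ∉ C → f i x = 0) :
    ∫ x, (fnD K f x).re ∂(vm (volK K)) = (tot P F f).re := by
  rw [← integral_fnD_cs K P hf hs hC hF h0]
  have hc : Continuous (fnD K f) := cont_sm (sm_fnD K hf hs)
  have h := integrable_cs (volK K) hc hC fun x hx => by
    have hx' := mem_ch A x
    rw [fnD_div K hf hx', h0 _ x hx' hx, zero_div]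
  exact integral_re h

/-- **Green's formula**, compact support -/
theorem int_Gb_cs (P : Part A) (K : Kah A) {u v : M → ℝ} (hu : A.Sm u) (hv : A.Sm v)
    {C : Set M} (hC : IsCompact C) (h0 : ∀ x ∉ C, u x = 0) :
    ∫ x, Gb K u v x ∂(vm (volK K)) = - ∫ x, u x * Lap K v x ∂(vm (volK K)) := by
  set F := Fn P hC with hFd
  have hF : Fn P hC ⊆ F := Finset.Subset.refl _
  have h0c : ∀ x ∉ C, (u x : ℂ) = 0 := fun x hx => by rw [h0 x hx]; simp
  have h1 : ∫ x, Gb K u v x ∂(vm (volK K)) =
      (tot P F (grd K.g (fun y => (u y : ℂ)) (fun y => (v y : ℂ)))).re := by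
    refine integral_fnD_cs_re K P (grdK_dn K hu hv)
      (GreenG_5.smAt_grd (kah_cf K) (sc hu) (sc hv)) hC hF fun i x hx hxC => ?_
    refine Finset.sum_eq_zero fun a _ => Finset.sum_eq_zero fun b _ => ?_
    rw [dl_zero_of hx (ev_zero (u := fun y => (u y : ℂ)) hC h0c hxC) a, mul_zero, zero_mul]
  have hD : Dn A (fun i x => (u x : ℂ) * ((K.g i x).adjugate * hsf A v i x).trace) := by
    have h0 := trA_dn (CF.tn (kah_cf K)) (CF.tn (hsf_cf hv))
    intro i j x hx
    have h2 := h0 i j x hx
    show (u x : ℂ) * ((K.g i x).adjugate * hsf A v i x).trace =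
      dens A i j x * ((u x : ℂ) * ((K.g j x).adjugate * hsf A v j x).trace)
    have h3 : ((K.g i x).adjugate * hsf A v i x).trace =
      dens A i j x * ((K.g j x).adjugate * hsf A v j x).trace := h2
    rw [h3]; ring
  have h2 : ∫ x, u x * Lap K v x ∂(vm (volK K)) =
      (tot P F (fun i x => (u x : ℂ) * ((K.g i x).adjugate * hsf A v i x).trace)).re := by
    rw [← integral_fnD_cs_re K P hD (fun i => (sc hu i).mul (smAt_trA (kah_cf K) (hsf_cf hv) i))
      hC hF fun i x hx hxC => by rw [h0c x hxC, zero_mul]]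
    refine integral_congr_ae (Eventually.of_forall fun x => ?_)
    have hx := mem_ch A x
    show u x * Lap K v x = (fnD K _ x).re
    rw [fnD_div K hD hx, Lap_read K hv hx, ← trC_det' K (hsf A v) hx, mul_div_assoc,
      mul_div_cancel_left₀ _ (K.pos _ x hx).det_pos.ne', Complex.re_ofReal_mul]
  have h3 := green P (kah_cf K) (φ := fun y => (u y : ℂ)) (u := fun y => (v y : ℂ)) (sc hu) (sc hv)
    hC hF h0c
  have h4 : tot P F (fun i x => (u x : ℂ) * ((K.g i x).adjugate *
      hm A (fun y => (v y : ℂ)) i x).trace) =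
      tot P F (fun i x => (u x : ℂ) * ((K.g i x).adjugate * hsf A v i x).trace) := by
    refine tot_congr P F fun i _ x hx => ?_
    rw [hm_ofReal v i hx]
  rw [h4] at h3
  rw [h1, h2, h3, Complex.neg_re, neg_neg]
  rfl

/-- the integral of the determinant of `∂∂̄u` vanishes, compact support -/
theorem det_hsf_cs (P : Part A) (K : Kah A) {u : M → ℝ} (hu : A.Sm u) {C : Set M}
    (hC : IsCompact C) (h0 : ∀ x ∉ C, u x = 0) (hn : 0 < n) :
    ∫ x, (fnD K (fun i x => (hsf A u i x).det) x).re ∂(vm (volK K)) = 0 := by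
  have h0c : ∀ x ∉ C, (u x : ℂ) = 0 := fun x hx => by rw [h0 x hx]; simp
  have : NeZero n := ⟨hn.ne'⟩
  rw [integral_fnD_cs_re K P (Tn.det (CF.tn (hsf_cf hu)))
    (fun i => Vol_333.smAt_det ((hsf_cf hu).sm i)) hC (Finset.Subset.refl _) ?_]
  · have hz : CF A (fun _ _ => (0 : Matrix (Fin n) (Fin n) ℂ)) :=
      ⟨fun i a b => contDiffOn_const, fun i j x hx => by simp, fun i z hz a b c => by
        show wd (false, c) (fun _ => (0 : ℂ)) z = wd (false, a) (fun _ => (0 : ℂ)) z
        rw [wd_const, wd_const]⟩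
    have h1 := volinv_cs P hz hu hC (Finset.Subset.refl _) h0
    simp only [zero_add, Matrix.det_zero] at h1
    rw [h1]
    unfold StV_37.tot
    simp only [mul_zero, lint_zero, Finset.sum_const_zero, Complex.zero_re]
  · intro i x hx hxC
    have h1 : hsf A u i x = 0 := by
      have hc : Tendsto (A.e i).symm (𝓝 (A.e i x)) (𝓝 x) := by
        have := (A.e i).continuousAt_symm ((A.e i).map_source hx)
        rw [ContinuousAt, (A.e i).left_inv hx] at this
        exact this
      have h2 : ∀ᶠ y in 𝓝 x, u y = 0 := by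
        filter_upwards [hC.isClosed.isOpen_compl.mem_nhds hxC] with y hy
        exact h0 y hy
      have h3 : (fun z => u ((A.e i).symm z)) =ᶠ[𝓝 (A.e i x)] fun _ => (0 : ℝ) := hc.eventually h2
      show hess (fun z => u ((A.e i).symm z)) (A.e i x) = 0
      rw [hess_congr h3]
      have h4 := hess_const_mul (n := n) (u := fun _ => (0 : ℝ)) (z := A.e i x) 0 contDiffAt_const
      simp only [mul_zero] at h4
      rw [h4]; simp
    rw [h1, Matrix.det_zero]

end meas

end

end Crest.Agent.R281.Har_331
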