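import Crest.Agent.R281.Har1_331

/-!
# R281 (S0424), leaf OM-HAR (helper331), part 2: from test functions vanishing near `-∞` to `Har`

`Har0` : the calculus for `ψ(ρ)`, `ψ = 0` near `-∞`, on a finite measure space.
* `Har0.int_zero` : `∫ Φ = 0` (`Φ = Lap φ`)
* `Har0.har`      : `∫ Q = 0` implies `Har`.
-/

set_option autoImplicit false

open MeasureTheory Set Filter Topology
open scoped ContDiff

namespace Crest.Agent.R281.Har_331

noncomputable section

theorem dstp_zero_right {a s : ℝ} (h : a + 1 < s) : dstp a s = 0 := by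
  have h1 : stp a =ᶠ[𝓝 s] fun _ => 1 := by
    filter_upwards [lt_mem_nhds h] with t ht
    exact stp_one ht.le
  rw [← (hasDerivAt_stp a s).deriv, h1.deriv_eq, deriv_const]

theorem dstp_zero_left {a s : ℝ} (h : s < a) : dstp a s = 0 := by
  have h1 : stp a =ᶠ[𝓝 s] fun _ => 0 := by
    filter_upwards [gt_mem_nhds h] with t ht
    exact stp_zero ht.le
  rw [← (hasDerivAt_stp a s).deriv, h1.deriv_eq, deriv_const]

theorem dstp_bound : ∃ c : ℝ, ∀ a s, dstp a s ≤ c := by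
  obtain ⟨c, hc⟩ := (isCompact_Icc (a := (0 : ℝ)) (b := 1)).exists_bound_of_continuousOn
    (continuous_dstp 0).continuousOn
  have hc0 : 0 ≤ c := (norm_nonneg _).trans (hc 0 ⟨le_rfl, zero_le_one⟩)
  refine ⟨c, fun a s => ?_⟩
  have e : dstp a s = dstp 0 (s - a) := by unfold dstp; rw [sub_zero]
  by_cases h1 : s < a
  · rw [dstp_zero_left h1]; exact hc0
  · by_cases h2 : a + 1 < s
    · rw [dstp_zero_right h2]; exact hc0
    · rw [e]
      exact (le_abs_self _).trans (hc _ ⟨by linarith, by linarith⟩)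

variable {T : Type*} [MeasurableSpace T] {μ : Measure T} {ρ G Q Φ W : T → ℝ} {k D : ℝ}

/-- calculus with test functions which vanish near `-∞` -/
structure Har0 (μ : Measure T) (ρ G Q Φ W : T → ℝ) (k D : ℝ) : Prop where
  k0 : 0 ≤ k
  mρ : Measurable ρ
  mW : Measurable W
  G0 : ∀ x, 0 ≤ G x
  iG : ∀ f : ℝ → ℝ, Continuous f → (∃ a, ∀ s ≤ a, f s = 0) →
    Integrable (fun x => f (ρ x) * G x) μ
  iQ : Integrable Q μ
  iΦ : Integrable Φ μ
  hW : ∀ x, W x ^ 2 ≤ D ^ 2 * G x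
  A0 : ∀ ψ ψ' : ℝ → ℝ, ContDiff ℝ ∞ ψ → (∀ s, HasDerivAt ψ (ψ' s) s) → (∃ a, ∀ s ≤ a, ψ s = 0) →
    ∫ x, ψ' (ρ x) * G x ∂μ = k * ∫ x, ψ (ρ x) * Q x ∂μ
  B0 : ∀ ψ ψ' : ℝ → ℝ, ContDiff ℝ ∞ ψ → (∀ s, HasDerivAt ψ (ψ' s) s) → (∃ a, ∀ s ≤ a, ψ s = 0) →
    ∫ x, ψ (ρ x) * Φ x ∂μ = - ∫ x, ψ' (ρ x) * W x ∂μ

theorem stp_left (a : ℝ) : ∃ b, ∀ s ≤ b, stp a s = 0 := ⟨a, fun _ h => stp_zero h⟩

theorem Har0.iD (H : Har0 μ ρ G Q Φ W k D) (a : ℝ) :
    Integrable (fun x => dstp a (ρ x) * G x) μ :=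
  H.iG _ (continuous_dstp a) ⟨a - 1, fun s hs => dstp_zero_left (by linarith)⟩

theorem Har0.energy [IsFiniteMeasure μ] (H : Har0 μ ρ G Q Φ W k D) (a : ℝ) :
    ∫ x, dstp a (ρ x) * G x ∂μ ≤ k * ∫ x, |Q x| ∂μ := by
  rw [H.A0 _ _ (contDiff_stp a) (hasDerivAt_stp a) (stp_left a)]
  refine mul_le_mul_of_nonneg_left ?_ H.k0
  refine integral_mono (integrable_comp_mul (C := 1) H.mρ (contDiff_stp a).continuous
    (fun s => ?_) H.iQ) H.iQ.abs fun x => ?_
  · rw [abs_of_nonneg (stp_nonneg a s)]; exact stp_le_one a s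
  · have h1 := stp_nonneg a (ρ x)
    have h2 := stp_le_one a (ρ x)
    show stp a (ρ x) * Q x ≤ |Q x|
    calc stp a (ρ x) * Q x ≤ stp a (ρ x) * |Q x| :=
          mul_le_mul_of_nonneg_left (le_abs_self _) h1
      _ ≤ 1 * |Q x| := mul_le_mul_of_nonneg_right h2 (abs_nonneg _)
      _ = _ := one_mul _

/-- `∫ Lap φ = 0` -/
theorem Har0.int_zero [IsFiniteMeasure μ] (H : Har0 μ ρ G Q Φ W k D) : ∫ x, Φ x ∂μ = 0 := by
  obtain ⟨c, hc⟩ := dstp_bound
  set E := k * ∫ x, |Q x| ∂μ with hE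
  have hE0 : 0 ≤ E := mul_nonneg H.k0 (integral_nonneg fun _ => abs_nonneg _)
  -- the limit of the left side
  have L1 : Tendsto (fun N : ℕ => ∫ x, stp (-(N : ℝ)) (ρ x) * Φ x ∂μ) atTop
      (𝓝 (∫ x, Φ x ∂μ)) := by
    refine tendsto_integral_of_dominated_convergence (fun x => |Φ x|) (fun N => ?_) H.iΦ.abs
      (fun N => Eventually.of_forall fun x => ?_) (Eventually.of_forall fun x => ?_)
    · exact ((contDiff_stp _).continuous.measurable.comp H.mρ).aestronglyMeasurable.mul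
        H.iΦ.aestronglyMeasurable
    · rw [Real.norm_eq_abs, abs_mul, abs_of_nonneg (stp_nonneg _ _)]
      exact mul_le_of_le_one_left (abs_nonneg _) (stp_le_one _ _)
    · obtain ⟨N0, hN0⟩ := exists_nat_ge (1 - ρ x)
      refine tendsto_const_nhds.congr' ?_
      filter_upwards [eventually_ge_atTop N0] with N hN
      have : (N0 : ℝ) ≤ N := by exact_mod_cast hN
      rw [stp_one (by linarith), one_mul]
  have L2 : Tendsto (fun N : ℕ => ∫ x, dstp (-(N : ℝ)) (ρ x) ∂μ) atTop (𝓝 0) := by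
    have h0 : ∫ _x : T, (0 : ℝ) ∂μ = 0 := by simp
    rw [← h0]
    refine tendsto_integral_of_dominated_convergence (fun _ => c) (fun N => ?_)
      (integrable_const _) (fun N => Eventually.of_forall fun x => ?_)
      (Eventually.of_forall fun x => ?_)
    · exact ((continuous_dstp _).measurable.comp H.mρ).aestronglyMeasurable
    · rw [Real.norm_eq_abs, abs_of_nonneg (dstp_nonneg _ _)]
      exact hc _ _
    · obtain ⟨N0, hN0⟩ := exists_nat_gt (1 - ρ x)
      refine tendsto_const_nhds.congr' ?_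
      filter_upwards [eventually_ge_atTop N0] with N hN
      have : (N0 : ℝ) ≤ N := by exact_mod_cast hN
      exact (dstp_zero_right (by linarith)).symm
  -- the bound
  have bd : ∀ t : ℝ, 0 < t → ∀ N : ℕ, |∫ x, stp (-(N : ℝ)) (ρ x) * Φ x ∂μ| ≤
      t / 2 * (D ^ 2 * E) + 1 / (2 * t) * ∫ x, dstp (-(N : ℝ)) (ρ x) ∂μ := by
    intro t ht N
    have iG := H.iD (-(N : ℝ))
    have i1 : Integrable (fun x => dstp (-(N : ℝ)) (ρ x)) μ := by
      have := integrable_comp_mul (μ := μ) H.mρ (continuous_dstp (-(N : ℝ))) (C := c)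
        (fun s => by rw [abs_of_nonneg (dstp_nonneg _ _)]; exact hc _ _)
        (integrable_const (1 : ℝ))
      simpa using this
    have hpt : ∀ x, |dstp (-(N : ℝ)) (ρ x) * W x| ≤
        t / 2 * D ^ 2 * (dstp (-(N : ℝ)) (ρ x) * G x) + 1 / (2 * t) * dstp (-(N : ℝ)) (ρ x) := by
      intro x
      have h1 := dstp_nonneg (-(N : ℝ)) (ρ x)
      have h3 := H.hW x
      rw [abs_mul, abs_of_nonneg h1]
      have h4 : |W x| ≤ t / 2 * D ^ 2 * G x + 1 / (2 * t) := by
        have h5 : 2 * |W x| ≤ t * W x ^ 2 + 1 / t := by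
          have h6 : 0 ≤ (t * |W x| - 1) ^ 2 / t := by positivity
          have h7 : (t * |W x| - 1) ^ 2 / t = t * W x ^ 2 + 1 / t - 2 * |W x| := by
            rw [← sq_abs (W x)]; field_simp; ring
          linarith
        have h8 : t * W x ^ 2 ≤ t * (D ^ 2 * G x) := mul_le_mul_of_nonneg_left h3 ht.le
        have h9 : 1 / (2 * t) = 1 / t / 2 := by field_simp
        rw [h9]; linarith
      calc dstp (-(N : ℝ)) (ρ x) * |W x| ≤
            dstp (-(N : ℝ)) (ρ x) * (t / 2 * D ^ 2 * G x + 1 / (2 * t)) :=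
            mul_le_mul_of_nonneg_left h4 h1
        _ = _ := by ring
    have iR := (iG.const_mul (t / 2 * D ^ 2)).add (i1.const_mul (1 / (2 * t)))
    rw [H.B0 _ _ (contDiff_stp _) (hasDerivAt_stp _) (stp_left _), abs_neg]
    calc |∫ x, dstp (-(N : ℝ)) (ρ x) * W x ∂μ| ≤ ∫ x, |dstp (-(N : ℝ)) (ρ x) * W x| ∂μ :=
          abs_integral_le_integral_abs
      _ ≤ ∫ x, (t / 2 * D ^ 2 * (dstp (-(N : ℝ)) (ρ x) * G x) +
            1 / (2 * t) * dstp (-(N : ℝ)) (ρ x)) ∂μ := by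
          refine integral_mono_of_nonneg (Eventually.of_forall fun _ => abs_nonneg _) iR
            (Eventually.of_forall hpt)
      _ = t / 2 * D ^ 2 * ∫ x, dstp (-(N : ℝ)) (ρ x) * G x ∂μ +
            1 / (2 * t) * ∫ x, dstp (-(N : ℝ)) (ρ x) ∂μ := by
          rw [integral_add (iG.const_mul _) (i1.const_mul _), integral_const_mul,
            integral_const_mul]
      _ ≤ t / 2 * D ^ 2 * E + 1 / (2 * t) * ∫ x, dstp (-(N : ℝ)) (ρ x) ∂μ := by
          have := mul_le_mul_of_nonneg_left (H.energy (-(N : ℝ)))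
            (by positivity : 0 ≤ t / 2 * D ^ 2)
          linarith
      _ = _ := by ring
  have key : ∀ t : ℝ, 0 < t → |∫ x, Φ x ∂μ| ≤ t / 2 * (D ^ 2 * E) := by
    intro t ht
    have h1 := L1.abs
    have h2 : Tendsto (fun N : ℕ => t / 2 * (D ^ 2 * E) +
        1 / (2 * t) * ∫ x, dstp (-(N : ℝ)) (ρ x) ∂μ) atTop (𝓝 (t / 2 * (D ^ 2 * E))) := by
      have := (L2.const_mul (1 / (2 * t))).const_add (t / 2 * (D ^ 2 * E))
      simpa using this
    exact le_of_tendsto_of_tendsto' h1 h2 (bd t ht)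
  have h3 : |∫ x, Φ x ∂μ| ≤ 0 := by
    refine le_of_forall_pos_le_add fun ε hε => ?_
    have hF : 0 ≤ D ^ 2 * E := by positivity
    have h4 := key (2 * ε / (D ^ 2 * E + 1)) (by positivity)
    refine h4.trans ?_
    have h5 : 2 * ε / (D ^ 2 * E + 1) / 2 * (D ^ 2 * E) = ε * ((D ^ 2 * E) / (D ^ 2 * E + 1)) := by
      field_simp
    rw [h5, zero_add]
    have h6 : (D ^ 2 * E) / (D ^ 2 * E + 1) ≤ 1 := by
      rw [div_le_one (by positivity)]; linarith
    exact mul_le_of_le_one_right hε.le h6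
  exact abs_eq_zero.1 (le_antisymm h3 (abs_nonneg _))

/-- a function with compactly supported derivative is bounded and constant near `-∞` -/
theorem prim_facts {ψ ψ' : ℝ → ℝ} (hψ : ContDiff ℝ ∞ ψ) (h1 : ∀ s, HasDerivAt ψ (ψ' s) s)
    (hc : HasCompactSupport ψ') : (∃ C, ∀ s, |ψ s| ≤ C) ∧ ∃ a c, ∀ s ≤ a, ψ s = c := by
  have cψ' : Continuous ψ' := by
    have : deriv ψ = ψ' := funext fun t => (h1 t).deriv
    rw [← this]; exact hψ.continuous_deriv (by simp)
  have ftc : ∀ s t, ∫ x in s..t, ψ' x = ψ t - ψ s := fun s t =>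
    intervalIntegral.integral_eq_sub_of_hasDerivAt (fun x _ => h1 x) (cψ'.intervalIntegrable _ _)
  have iψ' : Integrable ψ' := cψ'.integrable_of_hasCompactSupport hc
  refine ⟨⟨|ψ 0| + ∫ x, |ψ' x|, fun s => ?_⟩, ?_⟩
  · have h2 := ftc 0 s
    have h3 : |∫ x in (0:ℝ)..s, ψ' x| ≤ ∫ x, |ψ' x| := by
      have h5 := intervalIntegral.norm_integral_le_integral_norm_uIoc (f := ψ') (a := 0) (b := s)
        (μ := volume)
      exact h5.trans
        (setIntegral_le_integral iψ'.norm (Eventually.of_forall fun _ => norm_nonneg _))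
    rw [h2] at h3
    have h4 := abs_add_le (ψ s - ψ 0) (ψ 0)
    rw [sub_add_cancel] at h4
    linarith
  · obtain ⟨R, hR⟩ := hc.isCompact.isBounded.subset_closedBall 0
    refine ⟨-R - 1, ψ (-R - 1), fun s hs => ?_⟩
    have h2 := ftc s (-R - 1)
    rw [intervalIntegral.integral_congr (g := fun _ => (0 : ℝ))] at h2
    · simp only [intervalIntegral.integral_zero] at h2; linarith
    · intro x hx
      rw [uIcc_of_le hs] at hx
      by_contra hne
      have h3 := hR (subset_tsupport _ (Function.mem_support.2 hne))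
      rw [mem_closedBall_zero_iff, Real.norm_eq_abs] at h3
      have h4 := abs_le.1 h3
      linarith [hx.2]

/-- **from `Har0` to `Har`** -/
theorem Har0.har [IsFiniteMeasure μ] (H : Har0 μ ρ G Q Φ W k D) (hQ : ∫ x, Q x ∂μ = 0) {e : ℝ}
    (e0 : 0 ≤ e) (hle : ∀ x, -e ≤ Q x + Φ x) :
    Har μ ρ G Q (fun x => Q x + Φ x) W k e D where
  k0 := H.k0
  e0 := e0
  mρ := H.mρ
  mW := H.mW
  G0 := H.G0
  iG f hf hc := by
    refine H.iG f hf ?_
    obtain ⟨R, hR⟩ := hc.isCompact.isBounded.subset_closedBall 0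
    refine ⟨-R - 1, fun s hs => ?_⟩
    by_contra hne
    have h3 := hR (subset_tsupport _ (Function.mem_support.2 hne))
    rw [mem_closedBall_zero_iff, Real.norm_eq_abs] at h3
    have h4 := abs_le.1 h3
    linarith
  iQ := H.iQ
  iQe := H.iQ.add H.iΦ
  hW := H.hW
  lQe := hle
  A ψ ψ' hψ h1 hc := by
    obtain ⟨⟨C, hC⟩, a, c, hac⟩ := prim_facts hψ h1 hc
    have h2 := H.A0 (fun s => ψ s - c) ψ' (hψ.sub contDiff_const) (fun s => (h1 s).sub_const c)
      ⟨a, fun s hs => by rw [hac s hs, sub_self]⟩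
    rw [h2]
    have i1 := integrable_comp_mul H.mρ hψ.continuous hC H.iQ
    have e1 : ∫ x, (ψ (ρ x) - c) * Q x ∂μ = ∫ x, (ψ (ρ x) * Q x - c * Q x) ∂μ :=
      integral_congr_ae (Eventually.of_forall fun x => by ring)
    rw [e1, integral_sub i1 (H.iQ.const_mul c), integral_const_mul, hQ, mul_zero, sub_zero]
  B ψ ψ' hψ h1 hc := by
    obtain ⟨⟨C, hC⟩, a, c, hac⟩ := prim_facts hψ h1 hc
    have h2 := H.B0 (fun s => ψ s - c) ψ' (hψ.sub contDiff_const) (fun s => (h1 s).sub_const c)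
      ⟨a, fun s hs => by rw [hac s hs, sub_self]⟩
    rw [← h2]
    have i1 := integrable_comp_mul H.mρ hψ.continuous hC H.iΦ
    have e1 : ∫ x, (ψ (ρ x) - c) * Φ x ∂μ = ∫ x, (ψ (ρ x) * Φ x - c * Φ x) ∂μ :=
      integral_congr_ae (Eventually.of_forall fun x => by ring)
    rw [e1, integral_sub i1 (H.iΦ.const_mul c), integral_const_mul, H.int_zero, mul_zero, sub_zero]
    refine integral_congr_ae (Eventually.of_forall fun x => ?_)
    show ψ (ρ x) * (Q x + Φ x - Q x) = ψ (ρ x) * Φ x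
    ring

end

end Crest.Agent.R281.Har_331
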