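import Crest.Agent.R281.OmH1_331
import Crest.Agent.R281.OmH2_331

/-!
# R281 (S0424), leaf OM-HAR (helper331), part 3: a leaf of finite volume

* `dom_near` (copied from helper986, D6c), `exists_dom` : `B K ≥ S` on compact `M`
* `trT` : trace of the pulled back `(1,1)`-form; bounds
* `har0_leaf` : the structure `Har0` on a leaf `T` with `{a ≤ ρ}` compact and finite volume.
-/

set_option autoImplicit false
set_option linter.unusedSectionVars false

open Set Filter Topology Complex MeasureTheory Function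
open scoped ContDiff Matrix ComplexConjugate ComplexOrder

namespace Crest.Agent.R281.Har_331

open Crest.Agent.R275 Crest.Agent.R275.Geo Crest.Agent.R275.Core144 Crest.Agent.R275.EDR890
open Crest.Agent.R273.Defs_333 Crest.Agent.R273.Hess_333 Crest.Agent.R273.HessB_333
open Crest.Agent.R273.HM_333 Crest.Agent.R273.Kah_333 Crest.Agent.R273.Vol_333
open Crest.Agent.R273.Vm_333 Crest.Agent.R273.Map_835 Crest.Agent.R273.KahI_645
open Crest.Agent.R273.Green_5 Crest.Agent.R273.FIa0_597 Crest.Agent.R273.FIb0_597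
open Crest.Agent.R273.FIc0_597 Crest.Agent.R273
open Crest.Agent.R273.SchI_152 (Dg sm_sq Dg_nonneg continuous_Dg)
open Crest.Agent.R281.Glob1_484 Crest.Agent.R281.S6D_664 Crest.Agent.R281.Defs_273

noncomputable section

section Mat

variable {N : ℕ}

theorem psd_congr {J H : Matrix (Fin N) (Fin N) ℂ} (h : H.PosSemidef) :
    (Jᵀ * H * J.map conj).PosSemidef := by
  have h1 := h.conjTranspose_mul_mul_same (J.map conj)
  have h2 : (J.map conj)ᴴ = Jᵀ := by
    ext a b
    simp [Matrix.conjTranspose_apply]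
  rwa [h2] at h1

/-- the real part of the Hermitian form -/
def hfm (H : Matrix (Fin N) (Fin N) ℂ) (v : Fin N → ℂ) : ℝ := (star v ⬝ᵥ (H *ᵥ v)).re

theorem continuous_hfm : Continuous fun p : Matrix (Fin N) (Fin N) ℂ × (Fin N → ℂ) =>
    hfm p.1 p.2 := by
  unfold hfm
  fun_prop

theorem hfm_smul (H : Matrix (Fin N) (Fin N) ℂ) (c : ℝ) (v : Fin N → ℂ) :
    hfm H ((c : ℂ) • v) = c ^ 2 * hfm H v := by
  simp only [hfm, star_smul, Matrix.mulVec_smul, dotProduct_smul, smul_dotProduct, smul_eq_mul]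
  have h1 : star (c : ℂ) = c := Complex.conj_ofReal c
  rw [h1, ← mul_assoc, ← ofReal_mul, re_ofReal_mul]
  ring

theorem hfm_sub (B : ℝ) (H H' : Matrix (Fin N) (Fin N) ℂ) (v : Fin N → ℂ) :
    hfm ((B : ℂ) • H - H') v = B * hfm H v - hfm H' v := by
  simp only [hfm, Matrix.sub_mulVec, Matrix.smul_mulVec, dotProduct_sub, dotProduct_smul,
    smul_eq_mul, sub_re, re_ofReal_mul]

theorem psd_of_hfm {H : Matrix (Fin N) (Fin N) ℂ} (hH : H.IsHermitian)
    (h : ∀ v ∈ Metric.sphere (0 : Fin N → ℂ) 1, 0 ≤ hfm H v) : H.PosSemidef := by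
  refine Matrix.PosSemidef.of_dotProduct_mulVec_nonneg hH fun v => ?_
  rw [Complex.le_def]
  refine ⟨?_, ?_⟩
  · show (0 : ℝ) ≤ hfm _ v
    rcases eq_or_ne v 0 with rfl | hv
    · simp [hfm]
    · have hn : 0 < ‖v‖ := norm_pos_iff.2 hv
      have hv1 : (((‖v‖⁻¹ : ℝ) : ℂ)) • v ∈ Metric.sphere (0 : Fin N → ℂ) 1 := by
        rw [mem_sphere_zero_iff_norm, norm_smul, Complex.norm_real, Real.norm_eq_abs,
          abs_of_pos (inv_pos.2 hn), inv_mul_cancel₀ hn.ne']
      have h2 := h _ hv1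
      rw [hfm_smul] at h2
      have h3 : 0 < ‖v‖⁻¹ ^ 2 := by positivity
      exact nonneg_of_mul_nonneg_right h2 h3
  · have := hH.im_star_dotProduct_mulVec_self v
    simpa using this.symm

theorem dom_near {X : Type*} [TopologicalSpace X] {x0 : X}
    {K G : X → Matrix (Fin N) (Fin N) ℂ} (hK : ContinuousAt K x0) (hG : ContinuousAt G x0)
    (hKh : ∀ᶠ x in 𝓝 x0, (K x).IsHermitian) (hGh : ∀ᶠ x in 𝓝 x0, (G x).IsHermitian)
    (hp : (K x0).PosDef) :
    ∃ B : ℝ, 0 < B ∧ ∀ᶠ x in 𝓝 x0, ((B : ℂ) • K x - G x).PosSemidef := by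
  have hS : IsCompact (Metric.sphere (0 : Fin N → ℂ) 1) := isCompact_sphere _ _
  have hpos : ∀ v ∈ Metric.sphere (0 : Fin N → ℂ) 1, 0 < hfm (K x0) v := by
    intro v hv
    have hv0 : v ≠ 0 := by
      rintro rfl
      simp at hv
    exact hp.re_dotProduct_pos hv0
  have hc1 : ∀ H : Matrix (Fin N) (Fin N) ℂ, Continuous fun v => hfm H v := fun H =>
    continuous_hfm.comp (continuous_const.prodMk continuous_id)
  obtain ⟨C, hC⟩ := hS.exists_bound_of_continuousOn
    (f := fun v => hfm (G x0) v / hfm (K x0) v)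
    ((hc1 _).continuousOn.div (hc1 _).continuousOn fun v hv => (hpos v hv).ne')
  have hB : 0 < |C| + 1 := by positivity
  refine ⟨|C| + 1, hB, ?_⟩
  have h1 : ∀ᶠ x in 𝓝 x0, ∀ v ∈ Metric.sphere (0 : Fin N → ℂ) 1,
      0 < (|C| + 1) * hfm (K x) v - hfm (G x) v := by
    refine hS.eventually_forall_of_forall_eventually
      (P := fun x v => 0 < (|C| + 1) * hfm (K x) v - hfm (G x) v) fun v hv => ?_
    have hK' : ContinuousAt (fun p : X × (Fin N → ℂ) => hfm (K p.1) p.2) (x0, v) :=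
      ContinuousAt.comp (f := fun p : X × (Fin N → ℂ) => (K p.1, p.2))
        (g := fun q : Matrix (Fin N) (Fin N) ℂ × (Fin N → ℂ) => hfm q.1 q.2)
        continuous_hfm.continuousAt
        ((hK.comp (x := (x0, v)) continuousAt_fst).prodMk continuousAt_snd)
    have hG' : ContinuousAt (fun p : X × (Fin N → ℂ) => hfm (G p.1) p.2) (x0, v) :=
      ContinuousAt.comp (f := fun p : X × (Fin N → ℂ) => (G p.1, p.2))
        (g := fun q : Matrix (Fin N) (Fin N) ℂ × (Fin N → ℂ) => hfm q.1 q.2)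
        continuous_hfm.continuousAt
        ((hG.comp (x := (x0, v)) continuousAt_fst).prodMk continuousAt_snd)
    have h2 := (hK'.const_mul (|C| + 1)).sub hG'
    have h3 := hpos v hv
    have h4 := hC v hv
    rw [Real.norm_eq_abs, abs_div, abs_of_pos h3, div_le_iff₀ h3] at h4
    have h5 := le_abs_self (hfm (G x0) v)
    have h6 := mul_le_mul_of_nonneg_right (le_abs_self C) h3.le
    have h7 : 0 < (|C| + 1) * hfm (K x0) v - hfm (G x0) v := by linarith
    exact h2.eventually (lt_mem_nhds h7)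
  filter_upwards [h1, hKh, hGh] with x hx hxK hxG
  have hH : ((((|C| + 1 : ℝ) : ℂ)) • K x - G x).IsHermitian := by
    refine Matrix.IsHermitian.sub ?_ hxG
    unfold Matrix.IsHermitian at hxK ⊢
    rw [Matrix.conjTranspose_smul, hxK]
    congr 1
    exact Complex.conj_ofReal _
  refine psd_of_hfm hH fun v hv => ?_
  rw [hfm_sub]
  exact (hx v hv).le

end Mat

section Dom

variable {N : ℕ} {M : Type} [TopologicalSpace M] {A : Atl N M}

theorem contAt_of_chart {f : M → ℂ} {i : A.ι} {x : M} (hx : x ∈ (A.e i).source)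
    (hf : ContinuousOn (fun z => f ((A.e i).symm z)) (A.e i).target) : ContinuousAt f x := by
  have h1 : ContinuousAt (fun z => f ((A.e i).symm z)) (A.e i x) :=
    hf.continuousAt ((A.e i).open_target.mem_nhds ((A.e i).map_source hx))
  have h2 : ContinuousAt (fun y => f ((A.e i).symm (A.e i y))) x :=
    h1.comp (f := A.e i) (x := x) ((A.e i).continuousAt hx)
  refine h2.congr ?_
  filter_upwards [(A.e i).open_source.mem_nhds hx] with y hy
  rw [(A.e i).left_inv hy]

theorem contAt_field {S : A.ι → M → Matrix (Fin N) (Fin N) ℂ} (hS : TF A S) {i : A.ι} {x : M}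
    (hx : x ∈ (A.e i).source) : ContinuousAt (fun y => S i y) x := by
  refine continuousAt_pi.2 fun a => continuousAt_pi.2 fun b => ?_
  exact contAt_of_chart (f := fun y => S i y a b) hx (hS.sm i a b).continuousOn

/-- `B K ≥ S` on compact `M` -/
theorem exists_dom [CompactSpace M] (K : Kah A) {S : A.ι → M → Matrix (Fin N) (Fin N) ℂ}
    (hS : TF A S) (hH : ∀ i, ∀ x ∈ (A.e i).source, (S i x).IsHermitian) :
    ∃ B : ℝ, 0 < B ∧ ∀ i, ∀ x ∈ (A.e i).source, ((B : ℂ) • K.g i x - S i x).PosSemidef := by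
  have hind : ∀ (B : ℝ) (i j : A.ι) (x : M), x ∈ (A.e i).source ∩ (A.e j).source →
      ((B : ℂ) • K.g j x - S j x).PosSemidef → ((B : ℂ) • K.g i x - S i x).PosSemidef := by
    intro B i j x hx h
    have h1 := psd_congr (J := Jm A i j x) h
    have h2 : (Jm A i j x)ᵀ * ((B : ℂ) • K.g j x - S j x) * (Jm A i j x).map conj =
        (B : ℂ) • K.g i x - S i x := by
      rw [Matrix.mul_sub, Matrix.sub_mul, Matrix.mul_smul, Matrix.smul_mul, ← K.tr i j x hx,
        ← hS.tr i j x hx]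
    rwa [h2] at h1
  have hmono : ∀ (B B' : ℝ), B ≤ B' → ∀ i, ∀ x ∈ (A.e i).source,
      ((B : ℂ) • K.g i x - S i x).PosSemidef → ((B' : ℂ) • K.g i x - S i x).PosSemidef := by
    intro B B' hBB i x hx h
    have h1 := h.add ((K.pos i x hx).posSemidef.smul (sub_nonneg.2 hBB) :
      ((B' - B) • K.g i x).PosSemidef)
    have h2 : ((B : ℂ) • K.g i x - S i x) + (B' - B) • K.g i x = (B' : ℂ) • K.g i x - S i x := by
      ext a b
      simp only [Matrix.add_apply, Matrix.sub_apply, Matrix.smul_apply, smul_eq_mul,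
        Complex.real_smul]
      push_cast
      ring
    rwa [h2] at h1
  have key : ∀ x : M, ∃ B : ℝ, 0 < B ∧ ∀ᶠ y in 𝓝 x, ∀ i, y ∈ (A.e i).source →
      ((B : ℂ) • K.g i y - S i y).PosSemidef := by
    intro x
    obtain ⟨j, hj⟩ := A.cover x
    obtain ⟨B, hB, hBx⟩ := dom_near (K := fun y => K.g j y) (G := fun y => S j y)
      (contAt_field (tf_kah K) hj) (contAt_field hS hj)
      (by
        filter_upwards [(A.e j).open_source.mem_nhds hj] with y hy
        exact (K.pos j y hy).1)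
      (by
        filter_upwards [(A.e j).open_source.mem_nhds hj] with y hy
        exact hH j y hy)
      (K.pos j x hj)
    refine ⟨B, hB, ?_⟩
    filter_upwards [hBx, (A.e j).open_source.mem_nhds hj] with y h1 h2
    intro i hi
    exact hind B i j y ⟨hi, h2⟩ h1
  choose B hB hBx using key
  obtain ⟨t, -, ht⟩ := isCompact_univ.elim_nhds_subcover
    (fun x => {y | ∀ i, y ∈ (A.e i).source → ((B x : ℂ) • K.g i y - S i y).PosSemidef})
    (fun x _ => hBx x)
  refine ⟨1 + ∑ x ∈ t, B x, ?_, fun i x hx => ?_⟩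
  · have : 0 ≤ ∑ x ∈ t, B x := Finset.sum_nonneg fun x _ => (hB x).le
    linarith
  · obtain ⟨y, hyt, hy⟩ := mem_iUnion₂.1 (ht (mem_univ x))
    refine hmono (B y) _ ?_ i x hx (hy i hx)
    have := Finset.single_le_sum (f := B) (fun x _ => (hB x).le) hyt
    linarith

end Dom

variable {m n : ℕ}
variable {M T : Type} [TopologicalSpace M] [TopologicalSpace T] {A : Atl n M} {B : Atl m T}
  {L L' : LB A}

section imm

variable (K : Kah A) {f : T → M} (hf : HolMap B A f) (hi : Imm B A f)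

/-- the trace of the pull-back of a `(1,1)`-form with respect to the pulled back metric -/
def trT (S : A.ι → M → Matrix (Fin n) (Fin n) ℂ) (y : T) : ℝ :=
  ((((pullI K hf hi).g (ch B y) y)⁻¹ * ((Jp B A f (ch B y) (ch A (f y)) y)ᵀ *
    S (ch A (f y)) (f y) * (Jp B A f (ch B y) (ch A (f y)) y).map conj)).trace).re

theorem trT_ge {S : A.ι → M → Matrix (Fin n) (Fin n) ℂ} {e : ℝ}
    (hS : ∀ i, ∀ x ∈ (A.e i).source, (S i x + (e : ℂ) • K.g i x).PosSemidef) (y : T) :
    -(e * m) ≤ trT K hf hi S y :=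
  tr_pull K hf hi (mem_ch B y) (mem_ch A (f y)) (hS _ _ (mem_ch A (f y)))

theorem trT_add (S S' : A.ι → M → Matrix (Fin n) (Fin n) ℂ) (y : T) :
    trT K hf hi (fun i x => S i x + S' i x) y = trT K hf hi S y + trT K hf hi S' y := by
  unfold trT
  rw [Matrix.mul_add, Matrix.add_mul, Matrix.mul_add, Matrix.trace_add, Complex.add_re]

theorem trT_neg (S : A.ι → M → Matrix (Fin n) (Fin n) ℂ) (y : T) :
    trT K hf hi (fun i x => - S i x) y = - trT K hf hi S y := by
  unfold trT
  rw [Matrix.mul_neg, Matrix.neg_mul, Matrix.mul_neg, Matrix.trace_neg, Complex.neg_re]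

theorem lap_trT {u : M → ℝ} (hu : A.Sm u) (y : T) :
    Lap (pullI K hf hi) (fun t => u (f t)) y = trT K hf hi (hsf A u) y :=
  lap_pull K hf hi (sm_pull hf hu) (mem_ch A (f y)) (sm_at hu (mem_ch A (f y)))

/-- `Lap ρ = - k tr Θ` -/
theorem lap_rho_trT (h : HM L) (k : ℕ) {s : A.ι → M → ℂ} (hs : IsHS (L ^ k) univ s)
    (hp : ∀ t, 0 < nsM (pow h k) s (f t)) (y : T) :
    Lap (pullI K hf hi) (rho (pow h k) s f) y = -(k * trT K hf hi (cur h) y) := by
  rw [lap_rho K hf hi (pow h k) hs hp (mem_ch A (f y)), cur_pow h k _ (mem_ch A (f y)),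
    Matrix.mul_smul, Matrix.smul_mul, Matrix.mul_smul, Matrix.trace_smul, smul_eq_mul,
    ← Complex.ofReal_natCast, Complex.re_ofReal_mul]
  rfl

theorem trT_cur (h h' : HM L) (y : T) :
    trT K hf hi (cur h') y = trT K hf hi (cur h) y +
      Lap (pullI K hf hi) (fun t => ratio h' h (f t)) y := by
  have hx := mem_ch A (f y)
  have h1 : cur h' (ch A (f y)) (f y) = cur h (ch A (f y)) (f y) +
      hsf A (ratio h' h) (ch A (f y)) (f y) := by
    rw [cur_ratio h' h _ hx, sub_add_cancel]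
  rw [lap_trT K hf hi (sm_ratio h' h), ← trT_add]
  unfold trT
  simp only [h1]

theorem trT_bdd [CompactSpace M] {S : A.ι → M → Matrix (Fin n) (Fin n) ℂ}
    (hS : TF A S) (hH : ∀ i, ∀ x ∈ (A.e i).source, (S i x).IsHermitian) :
    ∃ C : ℝ, ∀ y, |trT K hf hi S y| ≤ C := by
  obtain ⟨B1, -, h1⟩ := exists_dom K hS hH
  obtain ⟨B2, -, h2⟩ := exists_dom K (S := fun i x => - S i x)
    (by
      have := hS.smul (-1 : ℂ)
      simpa only [neg_smul, one_smul] using this)
    (fun i x hx => (hH i x hx).neg)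
  refine ⟨max (B1 * m) (B2 * m), fun y => ?_⟩
  have h3 := trT_ge K hf hi (S := fun i x => - S i x) (e := B1)
    (fun i x hx => by
      have := h1 i x hx
      rwa [sub_eq_add_neg, add_comm] at this) y
  have h4 := trT_ge K hf hi (S := S) (e := B2)
    (fun i x hx => by
      have := h2 i x hx
      rwa [sub_neg_eq_add, add_comm] at this) y
  rw [trT_neg] at h3
  rw [abs_le]
  constructor
  · linarith [le_max_right (B1 * m) (B2 * m)]
  · linarith [le_max_left (B1 * m) (B2 * m)]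

end imm

section leaf

variable [T2Space T] [MeasurableSpace T] [BorelSpace T] [Countable B.ι]

/-- **`Har0` on a leaf** of finite volume with `{a ≤ ρ}` compact -/
theorem har0_leaf [CompactSpace M] (K : Kah A) {f : T → M} (hf : HolMap B A f) (hi : Imm B A f)
    (P : Part B) (h : HM L) {k : ℕ} {s : A.ι → M → ℂ} (hs : IsHS (L ^ k) univ s)
    (hp : ∀ t, 0 < nsM (pow h k) s (f t))
    (hprop : ∀ a, IsCompact {t | a ≤ rho (pow h k) s f t})
    (hfin : IsFiniteMeasure (vm (volK (pullI K hf hi)))) (hk : 0 < k) {φ : M → ℝ} (hφ : A.Sm φ)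
    {D : ℝ} (hD : ∀ x, Dg K φ x ≤ D ^ 2) :
    Har0 (vm (volK (pullI K hf hi))) (rho (pow h k) s f) (Dg (pullI K hf hi) (rho (pow h k) s f))
      (trT K hf hi (cur h)) (Lap (pullI K hf hi) fun t => φ (f t))
      (Gb (pullI K hf hi) (rho (pow h k) s f) fun t => φ (f t)) k D := by
  set KT := pullI K hf hi with hKT
  set ρ := rho (pow h k) s f with hρ
  have sρ : B.Sm ρ := sm_rho _ hs hf hp
  have cρ : Continuous ρ := cont_sm sρ
  have sφT : B.Sm fun t => φ (f t) := sm_pull hf hφ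
  have hk0 : (k : ℝ) ≠ 0 := by exact_mod_cast hk.ne'
  have hL : ∀ y, Lap KT ρ y = -(k * trT K hf hi (cur h) y) := lap_rho_trT K hf hi h k hs hp
  have cQ : Continuous (trT K hf hi (cur h)) := by
    have : trT K hf hi (cur h) = fun y => -(1 / (k : ℝ)) * Lap KT ρ y := by
      funext y; rw [hL]; field_simp
    rw [this]
    exact continuous_const.mul (cont_sm (sm_Lap KT sρ))
  obtain ⟨C1, hC1⟩ := trT_bdd K hf hi (tf_cur h) fun i x hx => cur_herm h i hx
  obtain ⟨C2, hC2⟩ := trT_bdd K hf hi (tf_hsf hφ) fun i x hx =>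
    hess_herm (sm_at hφ hx)
  have key : ∀ {ψ ψ' : ℝ → ℝ}, ContDiff ℝ ∞ ψ → (∀ s, HasDerivAt ψ (ψ' s) s) →
      (∃ a, ∀ s ≤ a, ψ s = 0) → ∀ {v : T → ℝ}, B.Sm v →
      ∫ x, ψ' (ρ x) * Gb KT ρ v x ∂(vm (volK KT)) = - ∫ x, ψ (ρ x) * Lap KT v x ∂(vm (volK KT)) := by
    intro ψ ψ' hψ h1 ha v hv
    obtain ⟨a, ha⟩ := ha
    have h2 := int_Gb_cs P KT (sm_comp hψ sρ) hv (hprop a) fun x hx => by
      have : ¬ a ≤ ρ x := hx
      exact ha _ (not_le.1 this).le
    simp only [Gb_comp KT hψ h1 sρ hv] at h2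
    exact h2
  refine ⟨Nat.cast_nonneg k, cρ.measurable, (cont_sm (sm_Gb KT sρ sφT)).measurable,
    Dg_nonneg KT sρ, ?_, ?_, ?_, fun x => ?_, ?_, ?_⟩
  · rintro g hg ⟨a, ha⟩
    refine integrable_cs (volK KT) ((hg.comp cρ).mul (continuous_Dg KT sρ)) (hprop a)
      fun x hx => ?_
    have : ¬ a ≤ ρ x := hx
    show g (ρ x) * _ = 0
    rw [ha _ (not_le.1 this).le, zero_mul]
  · exact Integrable.of_bound cQ.measurable.aestronglyMeasurable C1 (Eventually.of_forall hC1)
  · refine Integrable.of_bound (cont_sm (sm_Lap KT sφT)).measurable.aestronglyMeasurable C2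
      (Eventually.of_forall fun y => ?_)
    rw [hKT, lap_trT K hf hi hφ]
    exact hC2 y
  · have h1 := Gb_sq_le KT sρ sφT x
    have h2 := Dg_nonneg KT sρ x
    have h3 := (Dg_pull K hf hi hφ sφT x).trans (hD _)
    nlinarith
  · intro ψ ψ' hψ h1 ha
    have h2 := key hψ h1 ha sρ
    simp only [Gb_self KT sρ] at h2
    rw [h2, ← integral_neg, ← integral_const_mul]
    refine integral_congr_ae (Eventually.of_forall fun x => ?_)
    show -(ψ (ρ x) * Lap KT ρ x) = k * (ψ (ρ x) * trT K hf hi (cur h) x)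
    rw [hL]; ring
  · intro ψ ψ' hψ h1 ha
    have h2 := key hψ h1 ha sφT
    rw [h2, neg_neg]

end leaf

end

end Crest.Agent.R281.Har_331
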