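import Crest.Agent.R281.Defs_273

/-!
# R281 (S0424), OM-LAG (helper677), part 1: matrix algebra of `qm`

`qm S G H = - |det S| tr (S⁻¹ G conj(S)⁻¹ Hᵀ)` for an antisymmetric `S`.
* `qm_eq`      : `qm S G H = |det S| tr (S⁻¹ G (S⁻¹)ᴴ Hᵀ)`
* `qm_nonneg`  : `0 ≤ qm S G H` for positive semidefinite `G`, `H`
* `qm_mono`    : monotonicity
* `qm_rank`    : value on rank one matrices
* `tr_smul_sub`: `S ≤ tr (K⁻¹ S) K`
* `isotropic_of` : rank `m` brackets vanish in dimension `2 m` ==> the common kernel is isotropic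
-/

set_option autoImplicit false
set_option linter.unusedSectionVars false

open Matrix
open scoped ComplexConjugate ComplexOrder

namespace Crest.Agent.R281.OmL_677

open Crest.Agent.R281.Defs_273

noncomputable section

variable {n : ℕ} {S G H G' H' : Matrix (Fin n) (Fin n) ℂ}

theorem map_conj_inv (S : Matrix (Fin n) (Fin n) ℂ) : (S.map conj)⁻¹ = (S⁻¹).map conj := by
  have h1 : S.map conj = (Sᵀ)ᴴ := by
    ext a b; simp [Matrix.conjTranspose_apply]
  have h2 : (S⁻¹).map conj = ((S⁻¹)ᵀ)ᴴ := by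
    ext a b; simp [Matrix.conjTranspose_apply]
  rw [h1, h2, ← Matrix.conjTranspose_nonsing_inv, Matrix.transpose_nonsing_inv]

theorem inv_neg' (S : Matrix (Fin n) (Fin n) ℂ) : (-S)⁻¹ = -S⁻¹ := by
  by_cases h : IsUnit S.det
  · refine Matrix.inv_eq_right_inv ?_
    rw [Matrix.neg_mul, Matrix.mul_neg, neg_neg, Matrix.mul_nonsing_inv _ h]
  · have h' : ¬ IsUnit (-S).det := by
      rw [Matrix.det_neg, isUnit_iff_ne_zero, not_not]
      rw [isUnit_iff_ne_zero, not_not] at h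
      rw [h, mul_zero]
    rw [Matrix.nonsing_inv_apply_not_isUnit _ h, Matrix.nonsing_inv_apply_not_isUnit _ h', neg_zero]

theorem inv_alt (hS : Sᵀ = -S) : (S⁻¹)ᵀ = -S⁻¹ := by
  rw [Matrix.transpose_nonsing_inv, hS]
  exact inv_neg' S

theorem map_conj_alt (hS : Sᵀ = -S) : (S⁻¹).map conj = -(S⁻¹)ᴴ := by
  have h := inv_alt hS
  ext a b
  have h1 := congrFun (congrFun h b) a
  simp only [Matrix.transpose_apply, Matrix.neg_apply] at h1
  simp only [Matrix.map_apply, Matrix.neg_apply, Matrix.conjTranspose_apply, RCLike.star_def]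
  rw [h1, map_neg]

theorem qm_eq (hS : Sᵀ = -S) (G H : Matrix (Fin n) (Fin n) ℂ) :
    qm S G H = ((‖S.det‖ : ℝ) : ℂ) * (S⁻¹ * G * (S⁻¹)ᴴ * Hᵀ).trace := by
  unfold qm
  rw [map_conj_inv, map_conj_alt hS, Matrix.mul_neg, Matrix.neg_mul, Matrix.trace_neg]
  ring

theorem qm_add_left (S G G' H : Matrix (Fin n) (Fin n) ℂ) :
    qm S (G + G') H = qm S G H + qm S G' H := by
  unfold qm
  rw [Matrix.mul_add, Matrix.add_mul, Matrix.add_mul, Matrix.trace_add]
  ring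

theorem qm_add_right (S G H H' : Matrix (Fin n) (Fin n) ℂ) :
    qm S G (H + H') = qm S G H + qm S G H' := by
  unfold qm
  rw [Matrix.transpose_add, Matrix.mul_add, Matrix.trace_add]
  ring

theorem qm_smul_left (c : ℂ) (S G H : Matrix (Fin n) (Fin n) ℂ) :
    qm S (c • G) H = c * qm S G H := by
  unfold qm
  rw [Matrix.mul_smul, Matrix.smul_mul, Matrix.smul_mul, Matrix.trace_smul, smul_eq_mul]
  ring

theorem qm_smul_right (c : ℂ) (S G H : Matrix (Fin n) (Fin n) ℂ) :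
    qm S G (c • H) = c * qm S G H := by
  unfold qm
  rw [Matrix.transpose_smul, Matrix.mul_smul, Matrix.trace_smul, smul_eq_mul]
  ring

theorem qm_sub_left (S G G' H : Matrix (Fin n) (Fin n) ℂ) :
    qm S (G - G') H = qm S G H - qm S G' H := by
  unfold qm
  rw [Matrix.mul_sub, Matrix.sub_mul, Matrix.sub_mul, Matrix.trace_sub]
  ring

theorem qm_sub_right (S G H H' : Matrix (Fin n) (Fin n) ℂ) :
    qm S G (H - H') = qm S G H - qm S G H' := by
  unfold qm
  rw [Matrix.transpose_sub, Matrix.mul_sub, Matrix.trace_sub]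
  ring

theorem qm_symm (hS : Sᵀ = -S) (G H : Matrix (Fin n) (Fin n) ℂ) : qm S G H = qm S H G := by
  have h1 := inv_alt hS
  have h2 : ((S⁻¹).map conj)ᵀ = -(S⁻¹).map conj := by
    ext a b
    have := congrFun (congrFun h1 a) b
    simp only [Matrix.transpose_apply, Matrix.neg_apply] at this
    simp only [Matrix.map_apply, Matrix.transpose_apply, Matrix.neg_apply]
    rw [this, map_neg]
  unfold qm
  rw [map_conj_inv]
  congr 1
  rw [← Matrix.trace_transpose, Matrix.transpose_mul, Matrix.transpose_mul, Matrix.transpose_mul,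
    Matrix.transpose_transpose, h1, h2]
  simp only [Matrix.mul_neg, Matrix.neg_mul, neg_neg]
  rw [← Matrix.mul_assoc, ← Matrix.mul_assoc, Matrix.trace_mul_comm]
  simp only [Matrix.mul_assoc]

open scoped MatrixOrder in
theorem exists_msqrt {S : Matrix (Fin n) (Fin n) ℂ} (hS : S.PosSemidef) :
    ∃ B : Matrix (Fin n) (Fin n) ℂ, S = Bᴴ * B := by
  obtain ⟨B, hB⟩ := CStarAlgebra.nonneg_iff_eq_star_mul_self.mp hS.nonneg
  exact ⟨B, by rw [hB, Matrix.star_eq_conjTranspose]⟩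

/-- the trace of a product of positive semidefinite matrices -/
theorem trace_mul_nonneg {X Y : Matrix (Fin n) (Fin n) ℂ} (hX : X.PosSemidef)
    (hY : Y.PosSemidef) : 0 ≤ (X * Y).trace := by
  obtain ⟨B, rfl⟩ := exists_msqrt hY
  rw [← Matrix.mul_assoc, Matrix.trace_mul_comm, ← Matrix.mul_assoc]
  exact (hX.mul_mul_conjTranspose_same B).trace_nonneg

theorem qm_nonneg (hS : Sᵀ = -S) (hG : G.PosSemidef) (hH : H.PosSemidef) : 0 ≤ qm S G H := by
  rw [qm_eq hS]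
  refine mul_nonneg (by exact_mod_cast norm_nonneg _) ?_
  exact trace_mul_nonneg (hG.mul_mul_conjTranspose_same S⁻¹) hH.transpose

/-- monotonicity -/
theorem qm_mono (hS : Sᵀ = -S) {F G₁ G₂ : Matrix (Fin n) (Fin n) ℂ} (h1 : (F - G₁).PosSemidef)
    (h2 : (F - G₂).PosSemidef) (hG : G₁.PosSemidef) (hF : F.PosSemidef) :
    qm S G₁ G₂ ≤ qm S F F := by
  have e1 := qm_nonneg hS h1 hF
  have e2 := qm_nonneg hS hG h2
  rw [qm_sub_left] at e1
  rw [qm_sub_right] at e2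
  exact (sub_nonneg.1 e2).trans (sub_nonneg.1 e1)

theorem qm_mono_left (hS : Sᵀ = -S) {F G₁ : Matrix (Fin n) (Fin n) ℂ} (h1 : (F - G₁).PosSemidef)
    (hH : H.PosSemidef) : qm S G₁ H ≤ qm S F H := by
  have e1 := qm_nonneg hS h1 hH
  rw [qm_sub_left] at e1
  exact sub_nonneg.1 e1

theorem trace_vecMulVec' (a b c d : Fin n → ℂ) :
    (vecMulVec a b * vecMulVec c d).trace = (b ⬝ᵥ c) * (a ⬝ᵥ d) := by
  simp only [Matrix.trace, Matrix.diag_apply, Matrix.mul_apply, vecMulVec_apply, dotProduct,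
    Finset.sum_mul, Finset.mul_sum]
  refine Finset.sum_congr rfl fun i _ => Finset.sum_congr rfl fun j _ => by ring

/-- **rank one matrices** -/
theorem qm_rank (hS : Sᵀ = -S) (g h : Fin n → ℂ) :
    qm S (vecMulVec g (star g)) (vecMulVec h (star h)) =
      ((‖S.det‖ * ‖h ⬝ᵥ (S⁻¹ *ᵥ g)‖ ^ 2 : ℝ) : ℂ) := by
  rw [qm_eq hS]
  have e1 : S⁻¹ * vecMulVec g (star g) * (S⁻¹)ᴴ * (vecMulVec h (star h))ᵀ =
      vecMulVec (S⁻¹ *ᵥ g) (star (S⁻¹ *ᵥ g)) * vecMulVec (star h) h := by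
    rw [Matrix.transpose_vecMulVec, Matrix.mul_vecMulVec S⁻¹, Matrix.vecMulVec_mul _ _ (S⁻¹)ᴴ,
      Matrix.star_mulVec]
  rw [e1, trace_vecMulVec']
  have e2 : star (S⁻¹ *ᵥ g) ⬝ᵥ star h = star (h ⬝ᵥ (S⁻¹ *ᵥ g)) := by
    rw [Matrix.star_dotProduct_star, dotProduct_comm]
  rw [e2, dotProduct_comm (S⁻¹ *ᵥ g) h]
  push_cast
  rw [RCLike.star_def, Complex.conj_mul']

/-- `X ≤ tr X` -/
theorem trace_smul_one_sub {X : Matrix (Fin n) (Fin n) ℂ} (hX : X.PosSemidef) :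
    (X.trace • (1 : Matrix (Fin n) (Fin n) ℂ) - X).PosSemidef := by
  have htr : star X.trace = X.trace := by
    rw [← Matrix.trace_conjTranspose, hX.1.eq]
  refine Matrix.PosSemidef.of_dotProduct_mulVec_nonneg ?_ fun x => ?_
  · refine Matrix.IsHermitian.sub ?_ hX.1
    rw [Matrix.IsHermitian, Matrix.conjTranspose_smul, Matrix.conjTranspose_one, htr]
  · obtain ⟨C, rfl⟩ := exists_msqrt hX
    have e1 : (Cᴴ * C).trace = ((∑ a, ∑ b, ‖C a b‖ ^ 2 : ℝ) : ℂ) := by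
      simp only [Matrix.trace, Matrix.diag_apply, Matrix.mul_apply, Matrix.conjTranspose_apply,
        RCLike.star_def]
      push_cast
      rw [Finset.sum_comm]
      exact Finset.sum_congr rfl fun a _ => Finset.sum_congr rfl fun b _ => Complex.conj_mul' _
    have e2 : ∀ y : Fin n → ℂ, star y ⬝ᵥ y = ((∑ b, ‖y b‖ ^ 2 : ℝ) : ℂ) := by
      intro y
      simp only [dotProduct, Pi.star_apply, RCLike.star_def]
      push_cast
      exact Finset.sum_congr rfl fun a _ => Complex.conj_mul' _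
    have e3 : star x ⬝ᵥ ((Cᴴ * C) *ᵥ x) = ((∑ a, ‖(C *ᵥ x) a‖ ^ 2 : ℝ) : ℂ) := by
      rw [← e2, ← Matrix.mulVec_mulVec, Matrix.dotProduct_mulVec, Matrix.star_mulVec]
    rw [Matrix.sub_mulVec, dotProduct_sub, Matrix.smul_mulVec, Matrix.one_mulVec,
      dotProduct_smul, e3, e2, e1, smul_eq_mul, ← Complex.ofReal_mul, ← Complex.ofReal_sub]
    rw [Complex.zero_le_real, sub_nonneg, Finset.sum_mul]
    refine Finset.sum_le_sum fun a _ => ?_
    have h1 : ‖(C *ᵥ x) a‖ ≤ ∑ b, ‖C a b‖ * ‖x b‖ := by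
      simp only [Matrix.mulVec, dotProduct]
      refine (norm_sum_le _ _).trans (Finset.sum_le_sum fun b _ => (norm_mul _ _).le)
    calc ‖(C *ᵥ x) a‖ ^ 2 ≤ (∑ b, ‖C a b‖ * ‖x b‖) ^ 2 := by
          exact pow_le_pow_left₀ (norm_nonneg _) h1 2
      _ ≤ _ := Finset.sum_mul_sq_le_sq_mul_sq _ _ _

/-- `F ≤ tr (K⁻¹ F) K` -/
theorem tr_smul_sub {K F : Matrix (Fin n) (Fin n) ℂ} (hK : K.PosDef) (hF : F.PosSemidef) :
    ((K⁻¹ * F).trace • K - F).PosSemidef := by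
  obtain ⟨B, hB⟩ := exists_msqrt hK.posSemidef
  have hKu : IsUnit K.det := (Matrix.isUnit_iff_isUnit_det _).1 hK.isUnit
  have hBu : IsUnit B.det := by
    rw [hB, Matrix.det_mul] at hKu
    exact isUnit_of_mul_isUnit_right hKu
  have hBhu : IsUnit (Bᴴ).det := by
    rw [hB, Matrix.det_mul] at hKu
    exact isUnit_of_mul_isUnit_left hKu
  have h1 := trace_smul_one_sub (hF.mul_mul_conjTranspose_same (B⁻¹)ᴴ)
  have h2 := h1.mul_mul_conjTranspose_same Bᴴ
  rw [Matrix.conjTranspose_conjTranspose] at h1 h2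
  rw [Matrix.conjTranspose_conjTranspose, Matrix.mul_sub, Matrix.sub_mul] at h2
  have e1 : Bᴴ * ((B⁻¹)ᴴ * F * B⁻¹) * B = F := by
    have a1 : Bᴴ * (B⁻¹)ᴴ = 1 := by
      rw [← Matrix.conjTranspose_mul, Matrix.nonsing_inv_mul _ hBu, Matrix.conjTranspose_one]
    calc Bᴴ * ((B⁻¹)ᴴ * F * B⁻¹) * B = (Bᴴ * (B⁻¹)ᴴ) * F * (B⁻¹ * B) := by
          simp only [Matrix.mul_assoc]
      _ = F := by rw [a1, Matrix.nonsing_inv_mul _ hBu, Matrix.one_mul, Matrix.mul_one]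
  have e2 : ((B⁻¹)ᴴ * F * B⁻¹).trace = (K⁻¹ * F).trace := by
    rw [hB, Matrix.mul_inv_rev, Matrix.trace_mul_comm, ← Matrix.mul_assoc,
      Matrix.conjTranspose_nonsing_inv]
  rw [e1, e2, Matrix.mul_smul, Matrix.smul_mul, Matrix.mul_one, ← hB] at h2
  exact h2


/-- `m` functions in involution with independent differentials in dimension `2 m`: the common
kernel of the differentials is isotropic. `D` = matrix of the differentials (rows). -/
theorem isotropic_of {m : ℕ} {S : Matrix (Fin (2 * m)) (Fin (2 * m)) ℂ} (hS : Sᵀ = -S)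
    (hd : S.det ≠ 0) {D : Matrix (Fin m) (Fin (2 * m)) ℂ} (hr : LinearIndependent ℂ D.row)
    (h0 : D * S⁻¹ * Dᵀ = 0) {u v : Fin (2 * m) → ℂ} (hu : D *ᵥ u = 0) (hv : D *ᵥ v = 0) :
    u ⬝ᵥ (S *ᵥ v) = 0 := by
  have hSu : IsUnit S.det := isUnit_iff_ne_zero.2 hd
  -- the kernel of `D` is the image of `S⁻¹ Dᵀ`
  let f : (Fin (2 * m) → ℂ) →ₗ[ℂ] (Fin m → ℂ) := D.mulVecLin
  let g : (Fin m → ℂ) →ₗ[ℂ] (Fin (2 * m) → ℂ) := (S⁻¹ * Dᵀ).mulVecLin
  have hrank : D.rank = m := by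
    rw [hr.rank_matrix, Fintype.card_fin]
  have hf : Module.finrank ℂ (LinearMap.ker f) = m := by
    have h1 := f.finrank_range_add_finrank_ker
    rw [Module.finrank_fin_fun] at h1
    have h2 : Module.finrank ℂ (LinearMap.range f) = m := hrank
    omega
  have hg : Module.finrank ℂ (LinearMap.range g) = m := by
    have h1 : (S⁻¹ * Dᵀ).rank = m := by
      have h2 : IsUnit (S⁻¹).det := by
        rw [Matrix.det_nonsing_inv]; exact hSu.ringInverse
      rw [Matrix.rank_mul_eq_right_of_isUnit_det _ _ h2, Matrix.rank_transpose, hrank]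
    exact h1
  have hle : LinearMap.range g ≤ LinearMap.ker f := by
    rintro _ ⟨y, rfl⟩
    rw [LinearMap.mem_ker]
    show D *ᵥ ((S⁻¹ * Dᵀ) *ᵥ y) = 0
    rw [Matrix.mulVec_mulVec, ← Matrix.mul_assoc, h0, Matrix.zero_mulVec]
  have heq : LinearMap.range g = LinearMap.ker f :=
    Submodule.eq_of_le_of_finrank_eq hle (by rw [hf, hg])
  have hu' : u ∈ LinearMap.range g := by rw [heq]; exact hu
  obtain ⟨y, rfl⟩ := hu'
  show ((S⁻¹ * Dᵀ) *ᵥ y) ⬝ᵥ (S *ᵥ v) = 0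
  have e1 : (S⁻¹ * Dᵀ) *ᵥ y = y ᵥ* (D * (S⁻¹)ᵀ) := by
    rw [← Matrix.mulVec_transpose, Matrix.transpose_mul, Matrix.transpose_transpose]
  rw [e1, inv_alt hS, ← Matrix.dotProduct_mulVec, Matrix.mulVec_mulVec, Matrix.mul_assoc,
    Matrix.neg_mul, Matrix.nonsing_inv_mul _ hSu, Matrix.mul_neg, Matrix.mul_one,
    Matrix.neg_mulVec, hv]
  simp

end

end Crest.Agent.R281.OmL_677
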