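import Crest.Agent.R281.OmL1_677
import Crest.Agent.R272.PosCl1_732

/-!
# R281 (S0424), OM-LAG (helper677), part 2: the pointwise inequality

* `lsf s φ d` : `log (d + ∑ |s_a|² e^{-φ})`
* `lev_lsf_ge`: lower bound of its Levi form
* `low_psd`   : `∂∂̄ w + k⁻¹ ∂∂̄ lsf + e K ≥ c W W^*`, `W = s_p ∂s_q - s_q ∂s_p`
-/

set_option autoImplicit false
set_option linter.unusedSectionVars false

open Set Filter Topology Complex
open scoped ContDiff Matrix ComplexConjugate Manifold ComplexOrder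

namespace Crest.Agent.R281.OmL_677

open Crest.Agent.R275.Geo Crest.Agent.R275.Core144 Crest.Agent.R275.EDR890
open Crest.Agent.R273.Hess_333 Crest.Agent.R273.HessB_333
open Crest.Agent.R273.Levi_145 Crest.Agent.R272.PosCl1_732
open Matrix (vecMulVec)

noncomputable section

variable {n : ℕ} {z : Cn n}

theorem lev4 (u : Cn n → ℝ) (z v : Cn n) :
    Crest.Agent.R273.Defs_333.lev u z v = 4 * lev u z v := by
  unfold Crest.Agent.R273.Defs_333.lev lev
  rw [iteratedFDeriv_two_apply, iteratedFDeriv_two_apply]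
  simp only [Matrix.cons_val_zero, Matrix.cons_val_one]
  ring

theorem hess_dot {u : Cn n → ℝ} (hu : ContDiffAt ℝ ∞ u z) (y : Fin n → ℂ) :
    star y ⬝ᵥ ((hess u z) *ᵥ y) =
      ((lev u z (WithLp.toLp 2 fun a => conj (y a)) : ℝ) : ℂ) := by
  rw [hq_eq_dot, hq_real hu, lev4]
  push_cast
  ring

/-- the differential of a holomorphic function -/
def df (f : Cn n → ℂ) (z : Cn n) (b : Fin n) : ℂ := fderiv ℂ f z (EuclideanSpace.single b 1)

theorem fderiv_df (f : Cn n → ℂ) (z v : Cn n) : fderiv ℂ f z v = ∑ b, df f z b * v b := by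
  have h : v = ∑ b, (v b) • EuclideanSpace.single b (1 : ℂ) := by
    ext c
    simp [Pi.single_apply]
  conv_lhs => rw [h]
  rw [map_sum]
  refine Finset.sum_congr rfl fun b _ => ?_
  rw [map_smul, smul_eq_mul, mul_comm]
  rfl

variable {α : Type*} [Fintype α] [DecidableEq α]

/-- `log (d + ∑ |s_a|² e^{-φ})` -/
def lsf (s : α → Cn n → ℂ) (φ : Cn n → ℝ) (d : ℝ) (w : Cn n) : ℝ :=
  Real.log (d + ∑ a, ‖s a w‖ ^ 2 * Real.exp (-φ w))

/-- the functions of `lsf` -/
def fo (s : α → Cn n → ℂ) : Option α → Cn n → ℂ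
  | none => fun _ => 1
  | some a => s a

/-- the weights of `lsf` -/
def uo (α : Type*) (φ : Cn n → ℝ) (d : ℝ) : Option α → Cn n → ℝ
  | none => fun _ => Real.log d
  | some _ => fun w => -φ w

theorem se_fo (s : α → Cn n → ℂ) (φ : Cn n → ℝ) {d : ℝ} (hd : 0 < d) (w : Cn n) :
    se (fo s) (uo α φ d) w = d + ∑ a, ‖s a w‖ ^ 2 * Real.exp (-φ w) := by
  unfold se
  rw [Fintype.sum_option]
  simp [fo, uo, Real.exp_log hd]

theorem lsf_eq (s : α → Cn n → ℂ) (φ : Cn n → ℝ) {d : ℝ} (hd : 0 < d) :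
    lsf s φ d = fun w => Real.log (se (fo s) (uo α φ d) w) := by
  funext w
  rw [se_fo s φ hd]
  rfl

theorem lev_lsf_ge {s : α → Cn n → ℂ} {φ : Cn n → ℝ} {d : ℝ} (hs : ∀ a, AnalyticAt ℂ (s a) z)
    (hφ : ContDiffAt ℝ 2 φ z) (hd : 0 < d) (p q : α) (v : Cn n) :
    (Real.exp (-φ z) / (d + ∑ a, ‖s a z‖ ^ 2 * Real.exp (-φ z))) ^ 2 *
        ‖s p z * fderiv ℂ (s q) z v - s q z * fderiv ℂ (s p) z v‖ ^ 2 -
      (∑ a, ‖s a z‖ ^ 2 * Real.exp (-φ z)) / (d + ∑ a, ‖s a z‖ ^ 2 * Real.exp (-φ z)) *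
        lev φ z v ≤ lev (lsf s φ d) z v := by
  have hf : ∀ o, AnalyticAt ℂ (fo s o) z := by
    rintro (_ | a)
    · exact analyticAt_const
    · exact hs a
  have hu : ∀ o, ContDiffAt ℝ 2 (uo α φ d o) z := by
    rintro (_ | a)
    · exact contDiffAt_const
    · exact hφ.neg
  have h0 : ∃ o, fo s o z ≠ 0 := ⟨none, one_ne_zero⟩
  rw [lsf_eq s φ hd, lse_eq hf hu h0]
  set T : ℝ := ∑ a, ‖s a z‖ ^ 2 * Real.exp (-φ z) with hT
  have hse : se (fo s) (uo α φ d) z = d + T := se_fo s φ hd z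
  have hT0 : 0 ≤ T := Finset.sum_nonneg fun a _ => by positivity
  have hp : 0 < d + T := by linarith
  rw [hse]
  have hneg : lev (fun w => -φ w) z v = - lev φ z v := lev_neg hφ v
  -- the second sum
  have e2 : ∑ o, Real.exp (uo α φ d o z) * (‖fo s o z‖ ^ 2 * lev (uo α φ d o) z v) =
      - (T * lev φ z v) := by
    rw [Fintype.sum_option]
    have h1 : lev (uo α φ d none) z v = 0 := lev_const _ _
    rw [h1, mul_zero, mul_zero, zero_add, hT, Finset.sum_mul, ← Finset.sum_neg_distrib]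
    refine Finset.sum_congr rfl fun a _ => ?_
    show Real.exp (-φ z) * (‖s a z‖ ^ 2 * lev (fun w => -φ w) z v) = _
    rw [hneg]
    ring
  rw [e2]
  -- the first sum
  set W : ℂ := s p z * fderiv ℂ (s q) z v - s q z * fderiv ℂ (s p) z v with hW
  have e1 : 2 * (Real.exp (-φ z) * Real.exp (-φ z) * ‖W‖ ^ 2) ≤
      ∑ a, ∑ b, Real.exp (uo α φ d a z) * Real.exp (uo α φ d b z) *
        ‖fo s a z * cov (fo s) (uo α φ d) z v b - fo s b z * cov (fo s) (uo α φ d) z v a‖ ^ 2 := by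
    have hterm : ∀ p' q' : α, Real.exp (uo α φ d (some p') z) * Real.exp (uo α φ d (some q') z) *
        ‖fo s (some p') z * cov (fo s) (uo α φ d) z v (some q') -
          fo s (some q') z * cov (fo s) (uo α φ d) z v (some p')‖ ^ 2 =
        Real.exp (-φ z) * Real.exp (-φ z) *
          ‖s p' z * fderiv ℂ (s q') z v - s q' z * fderiv ℂ (s p') z v‖ ^ 2 := by
      intro p' q'
      show Real.exp (-φ z) * Real.exp (-φ z) *
        ‖s p' z * (fderiv ℂ (s q') z v + s q' z * gr (fun w => -φ w) z v) -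
          s q' z * (fderiv ℂ (s p') z v + s p' z * gr (fun w => -φ w) z v)‖ ^ 2 = _
      congr 3
      ring
    by_cases hpq : p = q
    · have : W = 0 := by rw [hW, hpq]; ring
      rw [this]
      simp only [norm_zero, ne_eq, OfNat.ofNat_ne_zero, not_false_eq_true, zero_pow, mul_zero]
      positivity
    · have hpos : ∀ a b : Option α, 0 ≤ Real.exp (uo α φ d a z) * Real.exp (uo α φ d b z) *
        ‖fo s a z * cov (fo s) (uo α φ d) z v b - fo s b z * cov (fo s) (uo α φ d) z v a‖ ^ 2 :=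
        fun a b => by positivity
      have hpair : ∀ F : Option α → Option α → ℝ, (∀ a b, 0 ≤ F a b) →
          F (some p) (some q) + F (some q) (some p) ≤ ∑ a, ∑ b, F a b := by
        intro F hF
        rw [← Finset.sum_product', Finset.univ_product_univ]
        have hne : (some p, some q) ≠ (some q, some p) := by
          intro h
          exact hpq (Option.some.inj (Prod.mk.inj h).1)
        have := Finset.sum_le_sum_of_subset_of_nonneg (s := {(some p, some q), (some q, some p)})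
          (t := Finset.univ) (f := fun x : Option α × Option α => F x.1 x.2)
          (Finset.subset_univ _) (fun x _ _ => hF _ _)
        rwa [Finset.sum_pair hne] at this
      refine le_trans (le_of_eq ?_) (hpair _ hpos)
      rw [hterm, hterm, ← hW]
      have : ‖s q z * fderiv ℂ (s p) z v - s p z * fderiv ℂ (s q) z v‖ = ‖W‖ := by
        rw [hW, ← norm_neg]
        congr 1
        ring
      rw [this]
      ring
  have e3 : (Real.exp (-φ z) / (d + T)) ^ 2 * ‖W‖ ^ 2 ≤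
      (∑ a, ∑ b, Real.exp (uo α φ d a z) * Real.exp (uo α φ d b z) *
        ‖fo s a z * cov (fo s) (uo α φ d) z v b - fo s b z * cov (fo s) (uo α φ d) z v a‖ ^ 2) /
        (2 * (d + T) ^ 2) := by
    rw [le_div_iff₀ (by positivity)]
    refine le_trans (le_of_eq ?_) e1
    field_simp
  have e4 : -(T * lev φ z v) / (d + T) = - (T / (d + T) * lev φ z v) := by ring
  rw [e4]
  linarith

theorem cd_se {s : α → Cn n → ℂ} {φ : Cn n → ℝ} {d : ℝ} {k : ℕ∞ω} (hs : ∀ a, AnalyticAt ℂ (s a) z)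
    (hφ : ContDiffAt ℝ k φ z) (hd : 0 < d) :
    ContDiffAt ℝ k (fun w => d + ∑ a, ‖s a w‖ ^ 2 * Real.exp (-φ w)) z := by
  have hf : ∀ o, AnalyticAt ℂ (fo s o) z := by
    rintro (_ | a)
    · exact analyticAt_const
    · exact hs a
  have hu : ∀ o, ContDiffAt ℝ k (uo α φ d o) z := by
    rintro (_ | a)
    · exact contDiffAt_const
    · exact hφ.neg
  have h := c2_se hf hu
  have e : se (fo s) (uo α φ d) = fun w => d + ∑ a, ‖s a w‖ ^ 2 * Real.exp (-φ w) := by
    funext w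
    exact se_fo s φ hd w
  rwa [e] at h

theorem sum_nonneg' (s : α → Cn n → ℂ) (φ : Cn n → ℝ) (w : Cn n) :
    0 ≤ ∑ a, ‖s a w‖ ^ 2 * Real.exp (-φ w) :=
  Finset.sum_nonneg fun a _ => by positivity

theorem cd_lsf {s : α → Cn n → ℂ} {φ : Cn n → ℝ} {d : ℝ} {k : ℕ∞ω}
    (hs : ∀ a, AnalyticAt ℂ (s a) z) (hφ : ContDiffAt ℝ k φ z) (hd : 0 < d) :
    ContDiffAt ℝ k (lsf s φ d) z :=
  (cd_se hs hφ hd).log (by have := sum_nonneg' s φ z; positivity)

/-- `s_p ∂s_q - s_q ∂s_p` -/
def Wv (s : α → Cn n → ℂ) (p q : α) (z : Cn n) (b : Fin n) : ℂ :=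
  s p z * df (s q) z b - s q z * df (s p) z b

omit [Fintype α] [DecidableEq α] in
theorem Wv_sum (s : α → Cn n → ℂ) (p q : α) (z v : Cn n) :
    ∑ b, Wv s p q z b * v b = s p z * fderiv ℂ (s q) z v - s q z * fderiv ℂ (s p) z v := by
  rw [fderiv_df, fderiv_df, Finset.mul_sum, Finset.mul_sum, ← Finset.sum_sub_distrib]
  exact Finset.sum_congr rfl fun b _ => by unfold Wv; ring

/-- the constant of the lower bound -/
def cc (s : α → Cn n → ℂ) (φ : Cn n → ℝ) (d : ℝ) (z : Cn n) : ℝ :=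
  Real.exp (-φ z) / (d + ∑ a, ‖s a z‖ ^ 2 * Real.exp (-φ z))

theorem vmv_form (W y : Fin n → ℂ) : star y ⬝ᵥ (vecMulVec W (star W) *ᵥ y) =
    ((‖∑ b, W b * conj (y b)‖ ^ 2 : ℝ) : ℂ) := by
  have h1 : star y ⬝ᵥ (vecMulVec W (star W) *ᵥ y) =
      (∑ b, W b * conj (y b)) * (∑ b, conj (W b) * y b) := by
    rw [Finset.sum_mul_sum]
    simp only [dotProduct, Matrix.mulVec, Matrix.vecMulVec_apply, Pi.star_apply, RCLike.star_def,
      Finset.mul_sum]
    exact Finset.sum_congr rfl fun b _ => Finset.sum_congr rfl fun c _ => by ring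
  have h2 : ∑ b, conj (W b) * y b = conj (∑ b, W b * conj (y b)) := by
    rw [map_sum]
    exact Finset.sum_congr rfl fun b _ => by rw [map_mul, Complex.conj_conj]
  rw [h1, h2, Complex.mul_conj']
  push_cast
  rfl

theorem herm_real_smul {X : Matrix (Fin n) (Fin n) ℂ} (h : X.IsHermitian) (c : ℝ) :
    ((c : ℂ) • X).IsHermitian := by
  rw [Matrix.IsHermitian, Matrix.conjTranspose_smul, h.eq, RCLike.star_def, Complex.conj_ofReal]

theorem two_le_inf : (2 : ℕ∞ω) ≤ (∞ : ℕ∞ω) := by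
  exact WithTop.coe_le_coe.2 (le_top : (2 : ℕ∞) ≤ ⊤)

/-- **the pointwise inequality** -/
theorem low_psd {s : α → Cn n → ℂ} {w : Cn n → ℝ} {k : ℕ} {d e : ℝ}
    {KG : Matrix (Fin n) (Fin n) ℂ} (hs : ∀ a, AnalyticAt ℂ (s a) z) (hw : ContDiffAt ℝ ∞ w z)
    (hk : 0 < k) (hd : 0 < d) (he : 0 ≤ e) (hK : KG.PosSemidef)
    (hN : (hess w z + (e : ℂ) • KG).PosSemidef) (p q : α) :
    (hess w z + (((k : ℝ)⁻¹ : ℝ) : ℂ) • hess (lsf s (fun y => (k : ℝ) * w y) d) z + (e : ℂ) • KG -
      (((k : ℝ)⁻¹ * cc s (fun y => (k : ℝ) * w y) d z ^ 2 : ℝ) : ℂ) •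
        vecMulVec (Wv s p q z) (star (Wv s p q z))).PosSemidef := by
  have hkw : ContDiffAt ℝ ∞ (fun y => (k : ℝ) * w y) z := contDiffAt_const.mul hw
  have hl : ContDiffAt ℝ ∞ (lsf s (fun y => (k : ℝ) * w y) d) z := cd_lsf hs hkw hd
  have hW : (vecMulVec (Wv s p q z) (star (Wv s p q z))).IsHermitian := by
    rw [Matrix.IsHermitian, Matrix.conjTranspose_vecMulVec, star_star]
  refine Matrix.PosSemidef.of_dotProduct_mulVec_nonneg ?_ fun y => ?_
  · exact (((hess_herm hw).add (herm_real_smul (hess_herm hl) _)).add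
      (herm_real_smul hK.1 _)).sub (herm_real_smul hW _)
  · set v : Cn n := WithLp.toLp 2 fun a => conj (y a) with hv
    have hk0 : (0 : ℝ) < k := by exact_mod_cast hk
    obtain ⟨r, hr⟩ : ∃ r : ℝ, star y ⬝ᵥ (KG *ᵥ y) = (r : ℂ) := by
      have h := Complex.nonneg_iff.1 (hK.dotProduct_mulVec_nonneg y)
      exact ⟨(star y ⬝ᵥ (KG *ᵥ y)).re, Complex.ext rfl (by rw [← h.2]; rfl)⟩
    have hr0 : 0 ≤ r := by
      have := hK.dotProduct_mulVec_nonneg y
      rw [hr] at this
      exact_mod_cast this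
    have hN' : 0 ≤ lev w z v + e * r := by
      have := hN.dotProduct_mulVec_nonneg y
      rw [Matrix.add_mulVec, dotProduct_add, hess_dot hw, Matrix.smul_mulVec, dotProduct_smul,
        hr, smul_eq_mul, ← Complex.ofReal_mul, ← Complex.ofReal_add] at this
      exact_mod_cast this
    have hge := lev_lsf_ge (s := s) (φ := fun y => (k : ℝ) * w y) hs
      (hkw.of_le two_le_inf) hd p q v
    have hlk : lev (fun y => (k : ℝ) * w y) z v = k * lev w z v :=
      lev_const_mul (k : ℝ) (hw.of_le two_le_inf) v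
    rw [hlk] at hge
    have hWv : ∑ b, Wv s p q z b * conj (y b) =
        s p z * fderiv ℂ (s q) z v - s q z * fderiv ℂ (s p) z v := by
      rw [← Wv_sum]
    rw [Matrix.sub_mulVec, dotProduct_sub, Matrix.add_mulVec, dotProduct_add, Matrix.add_mulVec,
      dotProduct_add, Matrix.smul_mulVec, dotProduct_smul, Matrix.smul_mulVec, dotProduct_smul,
      Matrix.smul_mulVec, dotProduct_smul, hess_dot hw, hess_dot hl, hr, vmv_form, hWv]
    simp only [smul_eq_mul, ← Complex.ofReal_mul, ← Complex.ofReal_add, ← Complex.ofReal_sub]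
    rw [Complex.zero_le_real]
    set T : ℝ := ∑ a, ‖s a z‖ ^ 2 * Real.exp (-((k : ℝ) * w z)) with hT
    have hT0 : 0 ≤ T := Finset.sum_nonneg fun a _ => by positivity
    have hcc : cc s (fun y => (k : ℝ) * w y) d z = Real.exp (-((k : ℝ) * w z)) / (d + T) := rfl
    rw [hcc]
    set Q : ℝ := (Real.exp (-((k : ℝ) * w z)) / (d + T)) ^ 2 with hQ
    set N : ℝ := ‖s p z * fderiv ℂ (s q) z v - s q z * fderiv ℂ (s p) z v‖ ^ 2 with hNdef
    set B : ℝ := lev (lsf s (fun y => (k : ℝ) * w y) d) z v with hB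
    have hp : 0 < d + T := by linarith
    have h1 : Q * N - T / (d + T) * (k * lev w z v) ≤ B := hge
    have h2 : (k : ℝ)⁻¹ * (Q * N - T / (d + T) * (k * lev w z v)) ≤ (k : ℝ)⁻¹ * B :=
      mul_le_mul_of_nonneg_left h1 (by positivity)
    have h3 : (k : ℝ)⁻¹ * (Q * N - T / (d + T) * (k * lev w z v)) =
        (k : ℝ)⁻¹ * Q * N - T / (d + T) * lev w z v := by
      field_simp
    rw [h3] at h2
    have h4 : lev w z v - T / (d + T) * lev w z v = d / (d + T) * lev w z v := by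
      field_simp
      ring
    have h5 : 0 ≤ d / (d + T) * (lev w z v + e * r) := by positivity
    have h6 : 0 ≤ T / (d + T) * (e * r) := by positivity
    have h7 : d / (d + T) * (e * r) + T / (d + T) * (e * r) = e * r := by
      field_simp
    have h8 : d / (d + T) * (lev w z v + e * r) = d / (d + T) * lev w z v +
      d / (d + T) * (e * r) := by ring
    linarith


end

end Crest.Agent.R281.OmL_677
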