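import Crest.Agent.R281.OmL2_677
import Crest.Agent.R273.BKNe_37
import Crest.Agent.R273.GreenM_5

/-!
# R281 (S0424), OM-LAG (helper677), part 3: global energy estimate

* `qm_tr`, `qd_dn`, `qd_sm` : `qd σ F G` is a smooth density
* `energy_le` : for an isotropic `L` and metrics `h'` with `cur h' ≥ - e K`:
  `∫ qd σ (cur h' + e K) (cur h' + e K) ≤ B e`, `B` independent of `h'` and `e ≤ 1`
-/

set_option autoImplicit false
set_option linter.unusedSectionVars false

open Set Filter Topology Complex MeasureTheory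
open scoped ContDiff Matrix ComplexConjugate Manifold ComplexOrder

namespace Crest.Agent.R281.OmL_677

open Crest.Agent.R275.Geo Crest.Agent.R275.Core144 Crest.Agent.R275.EDR890
open Crest.Agent.R275.SerG398 (dens)
open Crest.Agent.R273.Hess_333 Crest.Agent.R273.HessB_333 Crest.Agent.R273.HM_333
open Crest.Agent.R273.Kah_333 Crest.Agent.R273.Vol_333 Crest.Agent.R273.Vm_333
open Crest.Agent.R273.GreenM_5 Crest.Agent.R273.Green_5 Crest.Agent.R273.StV_37
open Crest.Agent.R273.Defs_333 (HM)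
open Crest.Agent.R281.Defs_273
open Matrix (vecMulVec)

noncomputable section

variable {n : ℕ}

/-- transformation law -/
theorem qm_tr {J S : Matrix (Fin n) (Fin n) ℂ} (hJ : J.det ≠ 0) (F G : Matrix (Fin n) (Fin n) ℂ) :
    qm (Jᵀ * S * J) (Jᵀ * F * J.map conj) (Jᵀ * G * J.map conj) =
      J.det * conj J.det * qm S F G := by
  have hJu : IsUnit J.det := isUnit_iff_ne_zero.2 hJ
  have hJt : IsUnit Jᵀ.det := by rw [Matrix.det_transpose]; exact hJu
  have hJc : IsUnit (J.map conj).det := by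
    rw [det_map_conj, isUnit_iff_ne_zero]
    exact (map_ne_zero _).2 hJ
  have hJct : IsUnit (J.map conj)ᵀ.det := by rw [Matrix.det_transpose]; exact hJc
  have e0 : (Jᵀ * S * J).map conj = (J.map conj)ᵀ * S.map conj * J.map conj := by
    rw [Matrix.map_mul, Matrix.map_mul, Matrix.transpose_map]
  have e1 : ((‖(Jᵀ * S * J).det‖ : ℝ) : ℂ) = J.det * conj J.det * ((‖S.det‖ : ℝ) : ℂ) := by
    rw [Matrix.det_mul, Matrix.det_mul, Matrix.det_transpose, norm_mul, norm_mul,
      Complex.mul_conj']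
    push_cast
    ring
  unfold qm
  rw [e1, e0]
  set Jc := J.map conj with hJcdef
  have e2 : (Jᵀ * S * J)⁻¹ * (Jᵀ * F * Jc) * (Jcᵀ * S.map conj * Jc)⁻¹ * (Jᵀ * G * Jc)ᵀ =
      J⁻¹ * (S⁻¹ * F * (S.map conj)⁻¹ * Gᵀ) * J := by
    rw [Matrix.mul_inv_rev, Matrix.mul_inv_rev, Matrix.mul_inv_rev, Matrix.mul_inv_rev,
      Matrix.transpose_mul, Matrix.transpose_mul, Matrix.transpose_transpose]
    calc J⁻¹ * (S⁻¹ * Jᵀ⁻¹) * (Jᵀ * F * Jc) * (Jc⁻¹ * ((S.map conj)⁻¹ * Jcᵀ⁻¹)) *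
          (Jcᵀ * (Gᵀ * J))
        = J⁻¹ * (S⁻¹ * ((Jᵀ⁻¹ * Jᵀ) * (F * ((Jc * Jc⁻¹) * ((S.map conj)⁻¹ *
          ((Jcᵀ⁻¹ * Jcᵀ) * (Gᵀ * J))))))) := by simp only [Matrix.mul_assoc]
      _ = _ := by
        rw [Matrix.nonsing_inv_mul _ hJt, Matrix.mul_nonsing_inv _ hJc,
          Matrix.nonsing_inv_mul _ hJct]
        simp only [Matrix.one_mul, Matrix.mul_assoc]
  rw [e2, Matrix.trace_mul_comm, ← Matrix.mul_assoc, Matrix.mul_nonsing_inv _ hJu, Matrix.one_mul]
  ring

variable {M : Type} [TopologicalSpace M] {A : Atl n M} {L : LB A}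
  {F G : A.ι → M → Matrix (Fin n) (Fin n) ℂ}

theorem qd_dn (σ : HSymp A) (hF : Tn A F) (hG : Tn A G) : Dn A (qd σ F G) := by
  intro i j x hx
  show qm (σ.s i x) (F i x) (G i x) = dens A i j x * qm (σ.s j x) (F j x) (G j x)
  rw [σ.tr i j x hx, hF i j x hx, hG i j x hx, qm_tr (Jm_det_ne hx), dens_Jm]

theorem smAt_s (σ : HSymp A) (i : A.ι) (a b : Fin n) : A.SmAt i (fun x => σ.s i x a b) := by
  have h := (σ.hol i a b).contDiffOn isOpen_univ
  have e : (A.e i).target ∩ (A.e i).symm ⁻¹' univ = (A.e i).target := by simp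
  rw [e] at h
  exact h

theorem smAt_inv' {i : A.ι} {m : M → Matrix (Fin n) (Fin n) ℂ}
    (h : ∀ a b, A.SmAt i (fun x => m x a b)) (hd : ∀ x ∈ (A.e i).source, (m x).det ≠ 0)
    (a b : Fin n) : A.SmAt i (fun x => (m x)⁻¹ a b) := by
  have hadj : A.SmAt i (fun x => (m x).adjugate a b) := by
    have h1 : (fun x => (m x).adjugate a b) =
        fun x => ((m x).updateRow b (Pi.single a 1)).det := by
      funext x
      rw [Matrix.adjugate_apply]
    rw [h1]
    refine smAt_det fun c d => ?_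
    by_cases hc : c = b
    · subst hc
      simp only [Matrix.updateRow_self]
      exact contDiffOn_const
    · have h2 : (fun x => (m x).updateRow b (Pi.single a 1) c d) = fun x => m x c d := by
        funext x
        rw [Matrix.updateRow_ne hc]
      rw [h2]
      exact h c d
  have hdet : A.SmAt i (fun x => (m x).det) := smAt_det h
  have h3 : ContDiffOn ℝ ∞ (fun z => ((m ((A.e i).symm z)).det)⁻¹ *
      (m ((A.e i).symm z)).adjugate a b) (A.e i).target :=
    (ContDiffOn.inv hdet fun z hz => hd _ ((A.e i).map_target hz)).mul hadj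
  refine h3.congr fun z hz => ?_
  show (m ((A.e i).symm z))⁻¹ a b = _
  rw [Matrix.inv_def, Matrix.smul_apply, smul_eq_mul, Ring.inverse_eq_inv']

theorem qd_sm (σ : HSymp A) (hF : ∀ i a b, A.SmAt i (fun x => F i x a b))
    (hG : ∀ i a b, A.SmAt i (fun x => G i x a b)) (i : A.ι) : A.SmAt i (qd σ F G i) := by
  have hT := smAt_inv' (smAt_s σ i) (σ.nd i)
  have hTc : ∀ a b, A.SmAt i (fun x => conj ((σ.s i x)⁻¹ a b)) := fun a b =>
    (Complex.conjCLE.contDiff.comp_contDiffOn (hT a b) :)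
  have hdet : ContDiffOn ℝ ∞ (fun z => (σ.s i ((A.e i).symm z)).det) (A.e i).target :=
    smAt_det (smAt_s σ i)
  have hN : ContDiffOn ℝ ∞ (fun z => ((‖(σ.s i ((A.e i).symm z)).det‖ : ℝ) : ℂ))
      (A.e i).target :=
    Complex.ofRealCLM.contDiff.comp_contDiffOn
      (hdet.norm ℝ fun z hz => σ.nd i _ ((A.e i).map_target hz))
  have h1 : ContDiffOn ℝ ∞ (fun z => - ((‖(σ.s i ((A.e i).symm z)).det‖ : ℝ) : ℂ) *
      ∑ a, ∑ d, (∑ c, (∑ b, (σ.s i ((A.e i).symm z))⁻¹ a b * F i ((A.e i).symm z) b c) *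
        conj ((σ.s i ((A.e i).symm z))⁻¹ c d)) * G i ((A.e i).symm z) a d) (A.e i).target := by
    refine hN.neg.mul (ContDiffOn.sum fun a _ => ContDiffOn.sum fun d _ => ContDiffOn.mul
      (ContDiffOn.sum fun c _ => ContDiffOn.mul (ContDiffOn.sum fun b _ => ?_) (hTc c d)) (hG i a d))
    exact ContDiffOn.mul (hT a b) (hF i b c)
  refine h1.congr fun z hz => ?_
  show qm _ _ _ = _
  unfold qm
  rw [map_conj_inv]
  simp only [Matrix.trace, Matrix.diag_apply, Matrix.mul_apply, Matrix.transpose_apply,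
    Matrix.map_apply]

/-- `cur h + e K` -/
def Fe (K : Kah A) (h : HM L) (e : ℝ) (i : A.ι) (x : M) : Matrix (Fin n) (Fin n) ℂ :=
  cur h i x + (e : ℂ) • K.g i x

theorem Fe_tn (K : Kah A) (h : HM L) (e : ℝ) : Tn A (Fe K h e) := by
  intro i j x hx
  unfold Fe
  rw [cur_tr h hx, K.tr i j x hx, Matrix.mul_add, Matrix.add_mul, Matrix.mul_smul,
    Matrix.smul_mul]

theorem Fe_sm (K : Kah A) (h : HM L) (e : ℝ) (i : A.ι) (a b : Fin n) :
    A.SmAt i (fun x => Fe K h e i x a b) := by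
  have h1 : ContDiffOn ℝ ∞ (fun z => cur h i ((A.e i).symm z) a b +
      (e : ℂ) * K.g i ((A.e i).symm z) a b) (A.e i).target :=
    ContDiffOn.add (cur_smooth h i a b) (contDiffOn_const.mul (K.sm i a b))
  exact h1

theorem cur_tn (h : HM L) : Tn A (cur h) := fun _ _ _ hx => cur_tr h hx

/-- pointwise inequality -/
theorem qm_le {S C K : Matrix (Fin n) (Fin n) ℂ} (hS : Sᵀ = -S) (hK : K.PosDef) {e : ℝ}
    (he : 0 ≤ e) (hF : (C + (e : ℂ) • K).PosSemidef) :
    (qm S (C + (e : ℂ) • K) (C + (e : ℂ) • K)).re ≤ (qm S C C).re +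
      2 * e * ((K⁻¹ * (C + (e : ℂ) • K)).trace.re * (qm S K K).re) := by
  set F := C + (e : ℂ) • K with hFd
  have h1 : qm S F F = qm S C C + 2 * e * qm S F K - e ^ 2 * qm S K K := by
    have a1 : qm S F F = qm S C C + e * qm S C K + e * qm S K C + e ^ 2 * qm S K K := by
      rw [hFd, qm_add_left, qm_add_right, qm_add_right, qm_smul_left, qm_smul_left, qm_smul_right,
        qm_smul_right]
      ring
    have a2 : qm S F K = qm S C K + e * qm S K K := by
      rw [hFd, qm_add_left, qm_smul_left]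
    rw [a1, a2, qm_symm hS K C]
    ring
  have h2 : 0 ≤ (qm S K K).re := (Complex.nonneg_iff.1 (qm_nonneg hS hK.posSemidef hK.posSemidef)).1
  have h2i : (qm S K K).im = 0 :=
    ((Complex.nonneg_iff.1 (qm_nonneg hS hK.posSemidef hK.posSemidef)).2).symm
  have h3 : (qm S F K).re ≤ (K⁻¹ * F).trace.re * (qm S K K).re := by
    have h4 := qm_nonneg hS (tr_smul_sub hK hF) hK.posSemidef
    rw [qm_sub_left, qm_smul_left] at h4
    have h5 := (Complex.nonneg_iff.1 h4).1
    rw [Complex.sub_re, Complex.mul_re, h2i, mul_zero, sub_zero] at h5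
    linarith
  rw [h1, Complex.sub_re, Complex.add_re]
  have e1 : (2 * (e : ℂ) * qm S F K).re = 2 * e * (qm S F K).re := by
    rw [show (2 * (e : ℂ) * qm S F K) = ((2 * e : ℝ) : ℂ) * qm S F K by push_cast; ring,
      Complex.re_ofReal_mul]
  have e2 : ((e : ℂ) ^ 2 * qm S K K).re = e ^ 2 * (qm S K K).re := by
    rw [← Complex.ofReal_pow, Complex.re_ofReal_mul]
  rw [e1, e2]
  have h6 : 2 * e * (qm S F K).re ≤ 2 * e * ((K⁻¹ * F).trace.re * (qm S K K).re) :=
    mul_le_mul_of_nonneg_left h3 (by positivity)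
  have h7 : 0 ≤ e ^ 2 * (qm S K K).re := by positivity
  linarith

theorem fnD_re (K : Kah A) (f : A.ι → M → ℂ) (x : M) :
    (fnD K f x).re = (f (ci A x) x).re / (K.g (ci A x) x).det.re := by
  unfold fnD
  have h := (K.pos _ _ (mem_ci (A := A) x)).det_pos
  have h1 : (K.g (ci A x) x).det = (((K.g (ci A x) x).det.re : ℝ) : ℂ) :=
    Complex.ext rfl (by rw [← (Complex.nonneg_iff.1 h.le).2]; rfl)
  rw [h1, Complex.div_ofReal_re]
  rfl

theorem det_re_pos (K : Kah A) {i : A.ι} {x : M} (hx : x ∈ (A.e i).source) :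
    0 < (K.g i x).det.re := by
  have h := (K.pos i x hx).det_pos
  exact (Complex.pos_iff.1 h).1

section int

variable [T2Space M] [CompactSpace M] [MeasurableSpace M] [BorelSpace M] [Finite A.ι]

/-- **the energy estimate** -/
theorem energy_le (P : Part A) (K : Kah A) (σ : HSymp A) (hI : Isotropic P σ L) :
    ∃ B : ℝ, 0 ≤ B ∧ ∀ e : ℝ, 0 < e → e ≤ 1 → ∀ h' : HM L,
      (∀ i, ∀ x ∈ (A.e i).source, (Fe K h' e i x).PosSemidef) →
      ∫ x, (fnD K (qd σ (Fe K h' e) (Fe K h' e)) x).re ∂(vm (volK K)) ≤ e * B := by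
  obtain ⟨h1⟩ := exists_hm P L
  -- the supremum of `qd K K`
  have hkk : Continuous fun x => (fnD K (qd σ K.g K.g) x).re :=
    sm_continuous (sm_re (sm_fnD K (qd_dn σ (K_tn K) (K_tn K)) (qd_sm σ K.sm K.sm)))
  obtain ⟨B0, hB0⟩ : ∃ B0 : ℝ, ∀ x, (fnD K (qd σ K.g K.g) x).re ≤ B0 := by
    obtain ⟨C, hC⟩ := isCompact_univ.exists_bound_of_continuousOn hkk.continuousOn
    exact ⟨C, fun x => (le_abs_self _).trans (hC x (mem_univ x))⟩
  set B1 : ℝ := max B0 0 with hB1
  have hB1' : ∀ x, (fnD K (qd σ K.g K.g) x).re ≤ B1 := fun x => (hB0 x).trans (le_max_left _ _)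
  have hB10 : 0 ≤ B1 := le_max_right _ _
  set I1 : ℝ := ∫ x, (trK K (cur h1) x).re ∂(vm (volK K)) with hI1
  set V : ℝ := ∫ x, (trK K K.g x).re ∂(vm (volK K)) with hV
  have hV0 : 0 ≤ V := integral_nonneg fun x =>
    (Complex.nonneg_iff.1 (trK_nonneg K (K.pos _ _ (mem_ci x)).posSemidef)).1
  refine ⟨2 * B1 * (|I1| + V), by positivity, fun e he he1 h' hF => ?_⟩
  -- smoothness
  have sFF : A.Sm (fun x => (fnD K (qd σ (Fe K h' e) (Fe K h' e)) x).re) :=
    sm_re (sm_fnD K (qd_dn σ (Fe_tn K h' e) (Fe_tn K h' e))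
      (qd_sm σ (Fe_sm K h' e) (Fe_sm K h' e)))
  have sCC : A.Sm (fun x => (fnD K (qd σ (cur h') (cur h')) x).re) :=
    sm_re (sm_fnD K (qd_dn σ (cur_tn h') (cur_tn h')) (qd_sm σ (cur_smooth h') (cur_smooth h')))
  have sT : A.Sm (fun x => (trK K (Fe K h' e) x).re) :=
    sm_re (sm_trK K (Fe_tn K h' e) (Fe_sm K h' e))
  -- pointwise
  have hpt : ∀ x, (fnD K (qd σ (Fe K h' e) (Fe K h' e)) x).re ≤
      (fnD K (qd σ (cur h') (cur h')) x).re + 2 * e * B1 * (trK K (Fe K h' e) x).re := by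
    intro x
    have hx := mem_ci (A := A) x
    have hS : (σ.s (ci A x) x)ᵀ = -σ.s (ci A x) x := σ.alt _ x hx
    have h2 := qm_le hS (K.pos _ _ hx) he.le (hF _ _ hx)
    have hd := det_re_pos K hx
    have h3 := hB1' x
    rw [fnD_re] at h3 ⊢
    rw [fnD_re]
    have h4 : (qm (σ.s (ci A x) x) (K.g (ci A x) x) (K.g (ci A x) x)).re ≤
        B1 * (K.g (ci A x) x).det.re := by
      rw [← div_le_iff₀ hd]; exact h3
    have htr : 0 ≤ ((K.g (ci A x) x)⁻¹ * (cur h' (ci A x) x + (e : ℂ) •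
        K.g (ci A x) x)).trace.re :=
      (Complex.nonneg_iff.1 (trace_inv_mul_nonneg (K.pos _ _ hx) (hF _ _ hx))).1
    show (qm (σ.s (ci A x) x) (cur h' (ci A x) x + (e : ℂ) • K.g (ci A x) x)
      (cur h' (ci A x) x + (e : ℂ) • K.g (ci A x) x)).re / (K.g (ci A x) x).det.re ≤
      (qm (σ.s (ci A x) x) (cur h' (ci A x) x) (cur h' (ci A x) x)).re /
        (K.g (ci A x) x).det.re + 2 * e * B1 * ((K.g (ci A x) x)⁻¹ * (cur h' (ci A x) x +
          (e : ℂ) • K.g (ci A x) x)).trace.re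
    rw [div_add' _ _ _ hd.ne', div_le_div_iff_of_pos_right hd]
    refine h2.trans ?_
    have h5 : ((K.g (ci A x) x)⁻¹ * (cur h' (ci A x) x + (e : ℂ) •
        K.g (ci A x) x)).trace.re * (qm (σ.s (ci A x) x) (K.g (ci A x) x) (K.g (ci A x) x)).re ≤
        ((K.g (ci A x) x)⁻¹ * (cur h' (ci A x) x + (e : ℂ) •
        K.g (ci A x) x)).trace.re * (B1 * (K.g (ci A x) x).det.re) :=
      mul_le_mul_of_nonneg_left h4 htr
    have h6 := mul_le_mul_of_nonneg_left h5 (by positivity : 0 ≤ 2 * e)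
    linarith
  have hint : ∫ x, (fnD K (qd σ (Fe K h' e) (Fe K h' e)) x).re ∂(vm (volK K)) ≤
      ∫ x, ((fnD K (qd σ (cur h') (cur h')) x).re + 2 * e * B1 * (trK K (Fe K h' e) x).re)
        ∂(vm (volK K)) :=
    integral_mono (integrable_sm _ sFF) ((integrable_sm _ sCC).add
      ((integrable_sm _ sT).const_mul _)) hpt
  refine hint.trans ?_
  rw [integral_add (integrable_sm _ sCC) ((integrable_sm _ sT).const_mul _), integral_const_mul]
  -- isotropy
  have hz : ∫ x, (fnD K (qd σ (cur h') (cur h')) x).re ∂(vm (volK K)) = 0 := by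
    rw [integral_fnD_re K P (qd_dn σ (cur_tn h') (cur_tn h'))
      (qd_sm σ (cur_smooth h') (cur_smooth h')), ← Crest.Agent.R273.BKNe_37.intD_eq_totc, hI h',
      Complex.zero_re]
  rw [hz, zero_add]
  -- the trace
  have htr : ∫ x, (trK K (Fe K h' e) x).re ∂(vm (volK K)) = I1 + e * V := by
    have sL : A.Sm (lapK K (ratio h1 h')) := sm_lapK K (sm_ratio h1 h')
    have s1 : A.Sm (fun x => (trK K (cur h1) x).re) := sm_re (sm_trK K (cur_tn h1) (cur_smooth h1))
    have s2 : A.Sm (fun x => (trK K K.g x).re) := sm_re (sm_trK K (K_tn K) K.sm)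
    have h2 : ∀ x, (trK K (Fe K h' e) x).re = ((trK K (cur h1) x).re - lapK K (ratio h1 h') x) +
        e * (trK K K.g x).re := by
      intro x
      unfold trK lapK trK Fe
      rw [cur_ratio h1 h' _ (mem_ci x), Matrix.mul_add, Matrix.trace_add, Matrix.mul_sub,
        Matrix.trace_sub, Matrix.mul_smul, Matrix.trace_smul, Complex.add_re, Complex.sub_re,
        smul_eq_mul, Complex.re_ofReal_mul]
    simp only [h2]
    have i1 : Integrable (fun x => (trK K (cur h1) x).re - lapK K (ratio h1 h') x)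
        (vm (volK K)) := (integrable_sm _ s1).sub (integrable_sm _ sL)
    rw [integral_add i1 ((integrable_sm _ s2).const_mul _),
      integral_sub (integrable_sm _ s1) (integrable_sm _ sL),
      integral_lapK K P (sm_ratio h1 h'), integral_const_mul, sub_zero]
  rw [htr]
  have h8 : I1 + e * V ≤ |I1| + V := by
    have := le_abs_self I1
    nlinarith
  have h9 := mul_le_mul_of_nonneg_left h8 (by positivity : 0 ≤ 2 * e * B1)
  linarith

end int

end

end Crest.Agent.R281.OmL_677
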