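import Crest.Agent.R281.OmL4_677

/-!
# R281 (S0424), OM-LAG (helper677), part 5: (LSE), the comparison with the Fubini-Study form

* `pp`        : `T / (d + T)`, `T = ∑ |s_a|² e^{-φ}`
* `lev_lsf_ge2` : `∂∂̄ log (d + ∑ |s_a|² e^{-φ}) ≥ p (∂∂̄ log ∑ |s_a / t|² - ∂∂̄ φ)`
* `lse_psd`   : `(∂∂̄ w + k⁻¹ ∂∂̄ lsf + e K) - k⁻¹ p ∂∂̄ log ∑ |s_a / t|² ≥ 0`
* `lse`       : the same for `Fe K (hk hs h hd) e`
* `kFe`       : `k Fe = k cur h + hsf (log (d + nrm)) + k e K`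
* `fsb`       : `∂∂̄ log (δ + ∑ |ψ_b|²) ≥ (4 δ)⁻¹ Dᵀ D̄` where `∑ |ψ_b|² ≤ δ`
-/

set_option autoImplicit false
set_option linter.unusedSectionVars false

open Set Filter Topology Complex MeasureTheory
open scoped ContDiff Matrix ComplexConjugate Manifold ComplexOrder

namespace Crest.Agent.R281.OmL_677

open Crest.Agent.R275.Geo Crest.Agent.R275.Core144 Crest.Agent.R275.EDR890
open Crest.Agent.R273.Hess_333 Crest.Agent.R273.HessB_333 Crest.Agent.R273.HM_333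
open Crest.Agent.R273.Kah_333 Crest.Agent.R273.Vol_333 Crest.Agent.R273.Vm_333
open Crest.Agent.R273.Levi_145 Crest.Agent.R272.PosCl1_732
open Crest.Agent.R273.GreenM_5
open Crest.Agent.R273.Defs_333 (HM)
open Crest.Agent.R281.Defs_273
open Matrix (vecMulVec)

noncomputable section

variable {n : ℕ} {z : Cn n}
variable {α : Type*} [Fintype α] [DecidableEq α]

/-- `T / (d + T)`, `T = ∑ |s_a|² e^{-φ}` -/
def pp (s : α → Cn n → ℂ) (φ : Cn n → ℝ) (d : ℝ) (z : Cn n) : ℝ :=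
  (∑ a, ‖s a z‖ ^ 2 * Real.exp (-φ z)) / (d + ∑ a, ‖s a z‖ ^ 2 * Real.exp (-φ z))

theorem pp_nonneg (s : α → Cn n → ℂ) (φ : Cn n → ℝ) {d : ℝ} (hd : 0 < d) (z : Cn n) :
    0 ≤ pp s φ d z := by
  have := sum_nonneg' s φ z
  unfold pp
  positivity

theorem pp_le_one (s : α → Cn n → ℂ) (φ : Cn n → ℝ) {d : ℝ} (hd : 0 < d) (z : Cn n) :
    pp s φ d z ≤ 1 := by
  have := sum_nonneg' s φ z
  unfold pp
  rw [div_le_one (by positivity)]
  linarith

/-- `log ∑ |s_a / t|²` -/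
def lgr (s : α → Cn n → ℂ) (t : Cn n → ℂ) (w : Cn n) : ℝ := Real.log (∑ a, ‖s a w / t w‖ ^ 2)

theorem anal_div {s : α → Cn n → ℂ} {t : Cn n → ℂ} (hs : ∀ a, AnalyticAt ℂ (s a) z)
    (ht : AnalyticAt ℂ t z) (ht0 : t z ≠ 0) (a : α) : AnalyticAt ℂ (fun w => s a w / t w) z :=
  (hs a).div ht ht0

theorem cd_lgr {s : α → Cn n → ℂ} {t : Cn n → ℂ} (hs : ∀ a, AnalyticAt ℂ (s a) z)
    (ht : AnalyticAt ℂ t z) (ht0 : t z ≠ 0) (h0 : ∃ a, s a z ≠ 0) (k : ℕ∞ω) :
    ContDiffAt ℝ k (lgr s t) z := by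
  have hp : 0 < sumSq (fun a w => s a w / t w) z := by
    obtain ⟨a, ha⟩ := h0
    exact sumSq_pos ⟨a, div_ne_zero ha ht0⟩
  exact (c2_sumSq (fun a => anal_div hs ht ht0 a) k).log hp.ne'

/-- two-term log-sum-exp -/
theorem lev_lsf_ge2 {s : α → Cn n → ℂ} {φ : Cn n → ℝ} {d : ℝ} {t : Cn n → ℂ}
    (hs : ∀ a, AnalyticAt ℂ (s a) z) (hφ : ContDiffAt ℝ 2 φ z) (hd : 0 < d)
    (ht : AnalyticAt ℂ t z) (ht0 : t z ≠ 0) (h0 : ∃ a, s a z ≠ 0) (v : Cn n) :
    pp s φ d z * (lev (lgr s t) z v - lev φ z v) ≤ lev (lsf s φ d) z v := by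
  have hg : ContDiffAt ℝ 2 (lgr s t) z := cd_lgr hs ht ht0 h0 2
  let F : Option Unit → Cn n → ℂ := fun o => match o with
    | none => fun _ => 1
    | some _ => t
  let u : Option Unit → Cn n → ℝ := fun o => match o with
    | none => fun _ => Real.log d
    | some _ => fun w => lgr s t w - φ w
  have hF : ∀ o, AnalyticAt ℂ (F o) z := by
    rintro (_ | a)
    · exact analyticAt_const
    · exact ht
  have hu : ∀ o, ContDiffAt ℝ 2 (u o) z := by
    rintro (_ | a)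
    · exact contDiffAt_const
    · exact hg.sub hφ
  have hF0 : ∃ o, F o z ≠ 0 := ⟨none, one_ne_zero⟩
  have hse : ∀ w, t w ≠ 0 → (∃ a, s a w ≠ 0) →
      se F u w = d + ∑ a, ‖s a w‖ ^ 2 * Real.exp (-φ w) := by
    intro w hw0 hw1
    unfold se
    rw [Fintype.sum_option]
    have hpos : 0 < ∑ a, ‖s a w / t w‖ ^ 2 := by
      obtain ⟨a, ha⟩ := hw1
      exact Finset.sum_pos' (fun _ _ => by positivity)
        ⟨a, Finset.mem_univ a, by have := div_ne_zero ha hw0; positivity⟩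
    have e1 : ‖F none w‖ ^ 2 * Real.exp (u none w) = d := by
      show ‖(1 : ℂ)‖ ^ 2 * Real.exp (Real.log d) = d
      rw [norm_one, one_pow, one_mul, Real.exp_log hd]
    have e2 : ∑ a : Unit, ‖F (some a) w‖ ^ 2 * Real.exp (u (some a) w) =
        ∑ a, ‖s a w‖ ^ 2 * Real.exp (-φ w) := by
      rw [Fintype.sum_unique]
      show ‖t w‖ ^ 2 * Real.exp (Real.log (∑ a, ‖s a w / t w‖ ^ 2) - φ w) = _
      rw [sub_eq_add_neg, Real.exp_add, Real.exp_log hpos, ← Finset.sum_mul, ← mul_assoc,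
        Finset.mul_sum]
      congr 1
      refine Finset.sum_congr rfl fun a _ => ?_
      have : ‖t w‖ ≠ 0 := norm_ne_zero_iff.2 hw0
      rw [norm_div]
      field_simp
    rw [e1, e2]
  have hev : lsf s φ d =ᶠ[𝓝 z] fun w => Real.log (se F u w) := by
    have h1 : ∀ᶠ w in 𝓝 z, t w ≠ 0 := ht.continuousAt.eventually_ne ht0
    obtain ⟨a, ha⟩ := h0
    have h2 : ∀ᶠ w in 𝓝 z, s a w ≠ 0 := (hs a).continuousAt.eventually_ne ha
    filter_upwards [h1, h2] with w hw1 hw2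
    rw [hse w hw1 ⟨a, hw2⟩]
    rfl
  rw [lev_congr hev, lse_eq hF hu hF0, hse z ht0 h0]
  set T : ℝ := ∑ a, ‖s a z‖ ^ 2 * Real.exp (-φ z) with hT
  have hT0 : 0 ≤ T := sum_nonneg' s φ z
  have hp : 0 < d + T := by linarith
  have hA : 0 ≤ (∑ a, ∑ b, Real.exp (u a z) * Real.exp (u b z) *
        ‖F a z * cov F u z v b - F b z * cov F u z v a‖ ^ 2) / (2 * (d + T) ^ 2) := by
    positivity
  have e2 : ∑ o, Real.exp (u o z) * (‖F o z‖ ^ 2 * lev (u o) z v) =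
      T * (lev (lgr s t) z v - lev φ z v) := by
    rw [Fintype.sum_option]
    have h1 : lev (u none) z v = 0 := lev_const _ _
    rw [h1, mul_zero, mul_zero, zero_add, Fintype.sum_unique]
    have h2 : lev (u (some default)) z v = lev (lgr s t) z v - lev φ z v := lev_sub hg hφ v
    rw [h2]
    have h3 := hse z ht0 h0
    unfold se at h3
    rw [Fintype.sum_option, Fintype.sum_unique] at h3
    have e1 : ‖F none z‖ ^ 2 * Real.exp (u none z) = d := by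
      show ‖(1 : ℂ)‖ ^ 2 * Real.exp (Real.log d) = d
      rw [norm_one, one_pow, one_mul, Real.exp_log hd]
    rw [e1] at h3
    have h4 : ‖F (some default) z‖ ^ 2 * Real.exp (u (some default) z) = T := by linarith
    rw [← h4]
    ring
  rw [e2]
  have h5 : T * (lev (lgr s t) z v - lev φ z v) / (d + T) =
      pp s φ d z * (lev (lgr s t) z v - lev φ z v) := by
    unfold pp
    rw [← hT]
    ring
  rw [h5]
  linarith

/-- **(LSE) in a chart** -/
theorem lse_psd {s : α → Cn n → ℂ} {w : Cn n → ℝ} {k : ℕ} {d e : ℝ}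
    {KG : Matrix (Fin n) (Fin n) ℂ} {t : Cn n → ℂ} (hs : ∀ a, AnalyticAt ℂ (s a) z)
    (hw : ContDiffAt ℝ ∞ w z) (hk : 0 < k) (hd : 0 < d) (he : 0 ≤ e) (hK : KG.PosSemidef)
    (hN : (hess w z + (e : ℂ) • KG).PosSemidef) (ht : AnalyticAt ℂ t z) (ht0 : t z ≠ 0)
    (h0 : ∃ a, s a z ≠ 0) :
    (hess w z + (((k : ℝ)⁻¹ : ℝ) : ℂ) • hess (lsf s (fun y => (k : ℝ) * w y) d) z + (e : ℂ) • KG -
      (((k : ℝ)⁻¹ * pp s (fun y => (k : ℝ) * w y) d z : ℝ) : ℂ) •
        hess (lgr s t) z).PosSemidef := by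
  have hkw : ContDiffAt ℝ ∞ (fun y => (k : ℝ) * w y) z := contDiffAt_const.mul hw
  have hl : ContDiffAt ℝ ∞ (lsf s (fun y => (k : ℝ) * w y) d) z := cd_lsf hs hkw hd
  have hg : ContDiffAt ℝ ∞ (lgr s t) z := cd_lgr hs ht ht0 h0 ∞
  refine Matrix.PosSemidef.of_dotProduct_mulVec_nonneg ?_ fun y => ?_
  · exact (((hess_herm hw).add (herm_real_smul (hess_herm hl) _)).add
      (herm_real_smul hK.1 _)).sub (herm_real_smul (hess_herm hg) _)
  · set v : Cn n := WithLp.toLp 2 fun a => conj (y a) with hv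
    have hk0 : (0 : ℝ) < k := by exact_mod_cast hk
    obtain ⟨r, hr⟩ : ∃ r : ℝ, star y ⬝ᵥ (KG *ᵥ y) = (r : ℂ) := by
      have h := Complex.nonneg_iff.1 (hK.dotProduct_mulVec_nonneg y)
      exact ⟨(star y ⬝ᵥ (KG *ᵥ y)).re, Complex.ext rfl (by rw [← h.2]; rfl)⟩
    have hr0 : 0 ≤ r := by
      have := hK.dotProduct_mulVec_nonneg y
      rw [hr] at this
      exact_mod_cast this
    have hN' : 0 ≤ lev w z v + e * r := by
      have := hN.dotProduct_mulVec_nonneg y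
      rw [Matrix.add_mulVec, dotProduct_add, hess_dot hw, Matrix.smul_mulVec, dotProduct_smul,
        hr, smul_eq_mul, ← Complex.ofReal_mul, ← Complex.ofReal_add] at this
      exact_mod_cast this
    have hge := lev_lsf_ge2 (s := s) (φ := fun y => (k : ℝ) * w y) hs
      (hkw.of_le two_le_inf) hd ht ht0 h0 v
    have hlk : lev (fun y => (k : ℝ) * w y) z v = k * lev w z v :=
      lev_const_mul (k : ℝ) (hw.of_le two_le_inf) v
    rw [hlk] at hge
    rw [Matrix.sub_mulVec, dotProduct_sub, Matrix.add_mulVec, dotProduct_add, Matrix.add_mulVec,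
      dotProduct_add, Matrix.smul_mulVec, dotProduct_smul, Matrix.smul_mulVec, dotProduct_smul,
      Matrix.smul_mulVec, dotProduct_smul, hess_dot hw, hess_dot hl, hr, hess_dot hg]
    simp only [smul_eq_mul, ← Complex.ofReal_mul, ← Complex.ofReal_add, ← Complex.ofReal_sub]
    rw [Complex.zero_le_real]
    set p : ℝ := pp s (fun y => (k : ℝ) * w y) d z with hp
    have hp0 : 0 ≤ p := pp_nonneg _ _ hd _
    have hp1 : p ≤ 1 := pp_le_one _ _ hd _
    set B : ℝ := lev (lsf s (fun y => (k : ℝ) * w y) d) z v with hB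
    set G : ℝ := lev (lgr s t) z v with hG
    have h2 : (k : ℝ)⁻¹ * (p * (G - k * lev w z v)) ≤ (k : ℝ)⁻¹ * B :=
      mul_le_mul_of_nonneg_left hge (by positivity)
    have h3 : (k : ℝ)⁻¹ * (p * (G - k * lev w z v)) = (k : ℝ)⁻¹ * p * G - p * lev w z v := by
      field_simp
    rw [h3] at h2
    have h5 : 0 ≤ (1 - p) * (lev w z v + e * r) := mul_nonneg (by linarith) hN'
    have h6 : 0 ≤ p * (e * r) := by positivity
    nlinarith

/-- the derivatives of `ψ` as a matrix -/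
def Dm {β : Type*} (ψ : β → Cn n → ℂ) (z : Cn n) : Matrix β (Fin n) ℂ :=
  Matrix.of fun b a => df (ψ b) z a

theorem Dm_form {β : Type*} [Fintype β] (ψ : β → Cn n → ℂ) (z : Cn n) (y : Fin n → ℂ) :
    star y ⬝ᵥ (((Dm ψ z)ᵀ * (Dm ψ z).map conj) *ᵥ y) =
      ((∑ b, ‖fderiv ℂ (ψ b) z (WithLp.toLp 2 fun a => conj (y a))‖ ^ 2 : ℝ) : ℂ) := by
  have h1 : ∀ b, fderiv ℂ (ψ b) z (WithLp.toLp 2 fun a => conj (y a)) =
      ∑ a, df (ψ b) z a * conj (y a) := fun b => fderiv_df _ _ _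
  have h2 : ((Dm ψ z).map conj) *ᵥ y = fun b => conj (∑ a, df (ψ b) z a * conj (y a)) := by
    funext b
    rw [map_sum]
    simp only [Matrix.mulVec, dotProduct, Matrix.map_apply, Dm, Matrix.of_apply]
    exact Finset.sum_congr rfl fun a _ => by rw [map_mul, Complex.conj_conj]
  have h3 : star y ᵥ* (Dm ψ z)ᵀ = fun b => ∑ a, df (ψ b) z a * conj (y a) := by
    funext b
    simp only [Matrix.vecMul, dotProduct, Matrix.transpose_apply, Dm, Matrix.of_apply,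
      Pi.star_apply, RCLike.star_def]
    exact Finset.sum_congr rfl fun a _ => mul_comm _ _
  rw [← Matrix.mulVec_mulVec, Matrix.dotProduct_mulVec, h3, h2]
  simp only [dotProduct, h1]
  push_cast
  exact Finset.sum_congr rfl fun b _ => Complex.mul_conj' _

theorem Dm_psd {β : Type*} [Fintype β] (ψ : β → Cn n → ℂ) (z : Cn n) :
    ((Dm ψ z)ᵀ * (Dm ψ z).map conj).PosSemidef := by
  refine Matrix.PosSemidef.of_dotProduct_mulVec_nonneg ?_ fun y => ?_
  · rw [Matrix.IsHermitian, Matrix.conjTranspose_mul]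
    congr 1
    ext a b
    simp [Matrix.conjTranspose_apply, Matrix.map_apply]
  · rw [Dm_form, Complex.zero_le_real]
    positivity

/-- **(FSB)** -/
theorem fsb {β : Type*} [Fintype β] {ψ : β → Cn n → ℂ} (hψ : ∀ b, AnalyticAt ℂ (ψ b) z) {δ : ℝ}
    (hδ : 0 < δ) (hle : ∑ b, ‖ψ b z‖ ^ 2 ≤ δ) :
    (hess (fun w => Real.log (δ + ∑ b, ‖ψ b w‖ ^ 2)) z -
      (((4 * δ)⁻¹ : ℝ) : ℂ) • ((Dm ψ z)ᵀ * (Dm ψ z).map conj)).PosSemidef := by
  classical
  let F : Option β → Cn n → ℂ := fun o => match o with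
    | none => fun _ => ((Real.sqrt δ : ℝ) : ℂ)
    | some b => ψ b
  have hF : ∀ o, AnalyticAt ℂ (F o) z := by
    rintro (_ | a)
    · exact analyticAt_const
    · exact hψ a
  have hsq : ‖((Real.sqrt δ : ℝ) : ℂ)‖ ^ 2 = δ := by
    rw [Complex.norm_real, Real.norm_of_nonneg (Real.sqrt_nonneg δ), Real.sq_sqrt hδ.le]
  have hF0 : ∃ o, F o z ≠ 0 := ⟨none, by
    show ((Real.sqrt δ : ℝ) : ℂ) ≠ 0
    rw [Complex.ofReal_ne_zero]
    exact (Real.sqrt_pos.2 hδ).ne'⟩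
  have hS : ∀ w, sumSq F w = δ + ∑ b, ‖ψ b w‖ ^ 2 := by
    intro w
    unfold sumSq
    rw [Fintype.sum_option]
    show ‖((Real.sqrt δ : ℝ) : ℂ)‖ ^ 2 + _ = _
    rw [hsq]
  have he : (fun w => Real.log (δ + ∑ b, ‖ψ b w‖ ^ 2)) = fun w => Real.log (sumSq F w) := by
    funext w
    rw [hS]
  have hc : ContDiffAt ℝ ∞ (fun w => Real.log (sumSq F w)) z :=
    (c2_sumSq hF ∞).log (sumSq_pos hF0).ne'
  rw [he]
  refine Matrix.PosSemidef.of_dotProduct_mulVec_nonneg ?_ fun y => ?_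
  · exact (hess_herm hc).sub (herm_real_smul (Dm_psd ψ z).1 _)
  · rw [Matrix.sub_mulVec, dotProduct_sub, Matrix.smul_mulVec, dotProduct_smul, Dm_form,
      hess_dot hc, smul_eq_mul, ← Complex.ofReal_mul, ← Complex.ofReal_sub, Complex.zero_le_real,
      lev_log_sumSq hF hF0, hS]
    set v : Cn n := WithLp.toLp 2 fun a => conj (y a) with hv
    set T : ℝ := ∑ b, ‖ψ b z‖ ^ 2 with hT
    have hT0 : 0 ≤ T := Finset.sum_nonneg fun _ _ => by positivity
    set N : ℝ := ∑ b, ‖fderiv ℂ (ψ b) z v‖ ^ 2 with hN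
    have hN0 : 0 ≤ N := Finset.sum_nonneg fun _ _ => by positivity
    have hpair : 2 * (δ * N) ≤
        ∑ i, ∑ j, ‖F i z * fderiv ℂ (F j) z v - F j z * fderiv ℂ (F i) z v‖ ^ 2 := by
      have hcst : fderiv ℂ (F none) z v = 0 := by
        show fderiv ℂ (fun _ : Cn n => ((Real.sqrt δ : ℝ) : ℂ)) z v = 0
        simp
      have hn : ∀ b, ‖F none z * fderiv ℂ (F (some b)) z v -
          F (some b) z * fderiv ℂ (F none) z v‖ ^ 2 = δ * ‖fderiv ℂ (ψ b) z v‖ ^ 2 := by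
        intro b
        rw [hcst, mul_zero, sub_zero, norm_mul, mul_pow]
        show ‖((Real.sqrt δ : ℝ) : ℂ)‖ ^ 2 * _ = _
        rw [hsq]
      have hn' : ∀ b, ‖F (some b) z * fderiv ℂ (F none) z v -
          F none z * fderiv ℂ (F (some b)) z v‖ ^ 2 = δ * ‖fderiv ℂ (ψ b) z v‖ ^ 2 := by
        intro b
        rw [← hn b, ← norm_neg]
        congr 2
        ring
      rw [Fintype.sum_option, Fintype.sum_option]
      have e1 : ∑ b, ‖F none z * fderiv ℂ (F (some b)) z v -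
          F (some b) z * fderiv ℂ (F none) z v‖ ^ 2 = δ * N := by
        rw [hN, Finset.mul_sum]
        exact Finset.sum_congr rfl fun b _ => hn b
      have e2 : δ * N ≤ ∑ i : β, ∑ j, ‖F (some i) z * fderiv ℂ (F j) z v -
          F j z * fderiv ℂ (F (some i)) z v‖ ^ 2 := by
        rw [hN, Finset.mul_sum]
        refine Finset.sum_le_sum fun b _ => ?_
        rw [Fintype.sum_option, hn' b]
        have : 0 ≤ ∑ j : β, ‖F (some b) z * fderiv ℂ (F (some j)) z v -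
          F (some j) z * fderiv ℂ (F (some b)) z v‖ ^ 2 := by positivity
        linarith
      rw [e1]
      have : 0 ≤ ‖F none z * fderiv ℂ (F none) z v - F none z * fderiv ℂ (F none) z v‖ ^ 2 := by
        positivity
      linarith
    have h1 : (4 * δ)⁻¹ * N ≤ 2 * (δ * N) / (2 * (δ + T) ^ 2) := by
      rw [le_div_iff₀ (by positivity)]
      have h2 : (δ + T) ^ 2 ≤ (2 * δ) ^ 2 := pow_le_pow_left₀ (by positivity) (by linarith) 2
      have h3 : (4 * δ)⁻¹ * N * (2 * (δ + T) ^ 2) ≤ (4 * δ)⁻¹ * N * (2 * (2 * δ) ^ 2) :=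
        mul_le_mul_of_nonneg_left (by linarith) (by positivity)
      refine h3.trans (le_of_eq ?_)
      field_simp
      ring
    have h4 : 2 * (δ * N) / (2 * (δ + T) ^ 2) ≤
        (∑ i, ∑ j, ‖F i z * fderiv ℂ (F j) z v - F j z * fderiv ℂ (F i) z v‖ ^ 2) /
          (2 * (δ + T) ^ 2) := div_le_div_of_nonneg_right hpair (by positivity)
    linarith

/-! ### on `M` -/

section glob

variable {M : Type} [TopologicalSpace M] {A : Atl n M} {L : LB A} {k : ℕ} {s : α → A.ι → M → ℂ}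

/-- `∑ |s_a|²_h` in the chart `i` -/
def nrm (h : HM L) (k : ℕ) (s : α → A.ι → M → ℂ) (i : A.ι) (x : M) : ℝ :=
  ∑ a, nsq (pow h k) (s a) i x

omit [DecidableEq α] in
theorem nrm_indep (h : HM L) (hs : ∀ a, IsHS (L ^ k) univ (s a)) {i j : A.ι} {x : M}
    (hx : x ∈ (A.e i).source ∩ (A.e j).source) : nrm h k s i x = nrm h k s j x :=
  Finset.sum_congr rfl fun a _ => nsq_indep (pow h k) (hs a) hx (mem_univ _)

omit [DecidableEq α] in
theorem nrm_eq (h : HM L) (i : A.ι) {x : M} (hx : x ∈ (A.e i).source) :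
    nrm h k s i x = ∑ a, ‖sl A s i a (A.e i x)‖ ^ 2 *
      Real.exp (-((k : ℝ) * h.wt i (A.e i x))) := by
  refine Finset.sum_congr rfl fun a _ => ?_
  rw [exp_wt h k i ((A.e i).map_source hx), (A.e i).left_inv hx]
  unfold nsq sl
  rw [pow_w, (A.e i).left_inv hx]

omit [DecidableEq α] in
theorem pp_eq (h : HM L) (d : ℝ) (i : A.ι) {x : M} (hx : x ∈ (A.e i).source) :
    pp (sl A s i) (fun y => (k : ℝ) * h.wt i y) d (A.e i x) =
      nrm h k s i x / (d + nrm h k s i x) := by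
  rw [nrm_eq h i hx]
  rfl

theorem Lg_eq (h : HM L) (hs : ∀ a, IsHS (L ^ k) univ (s a)) (d : ℝ) (i : A.ι) {x : M}
    (hx : x ∈ (A.e i).source) : Lg h k s d x = Real.log (d + nrm h k s i x) := by
  rw [← nrm_indep h hs ⟨mem_ci x, hx⟩]
  rfl

/-- `k Fe = k cur h + ∂∂̄ log (d + nrm) + k e K` -/
theorem kFe (hs : ∀ a, IsHS (L ^ k) univ (s a)) (hk0 : 0 < k) (h : HM L) {d : ℝ} (hd : 0 < d)
    (K : Kah A) (e : ℝ) (i : A.ι) {x : M} (hx : x ∈ (A.e i).source) :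
    (k : ℂ) • Fe K (hk hs h hd) e i x =
      (k : ℂ) • cur h i x + hsf A (Lg h k s d) i x + ((k * e : ℝ) : ℂ) • K.g i x := by
  have hz := (A.e i).map_source hx
  have hk1 : (k : ℂ) ≠ 0 := by exact_mod_cast hk0.ne'
  have h1 : (fun z => Lg h k s d ((A.e i).symm z)) =ᶠ[𝓝 (A.e i x)]
      lsf (sl A s i) (fun y => (k : ℝ) * h.wt i y) d := by
    filter_upwards [(A.e i).open_target.mem_nhds hz] with w hw
    exact Lg_read hs h d i hw
  unfold Fe
  rw [cur_hk hs h hd i hx]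
  unfold hsf cur
  rw [hess_congr h1]
  have e1 : (k : ℂ) * (((k : ℝ)⁻¹ : ℝ) : ℂ) = 1 := by
    push_cast
    exact mul_inv_cancel₀ hk1
  have e2 : (k : ℂ) * (e : ℂ) = ((k * e : ℝ) : ℂ) := by push_cast; rfl
  rw [smul_add, smul_add, smul_smul, smul_smul, e1, one_smul, e2]

/-- **(LSE)**, divided by `k` -/
theorem lse (hs : ∀ a, IsHS (L ^ k) univ (s a)) (hk0 : 0 < k) (h : HM L) {d : ℝ} (hd : 0 < d)
    (K : Kah A) {e : ℝ} (he : 0 ≤ e) (i : A.ι) {x : M} (hx : x ∈ (A.e i).source)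
    (hN : (cur h i x + (e : ℂ) • K.g i x).PosSemidef) {t : Cn n → ℂ}
    (ht : AnalyticAt ℂ t (A.e i x)) (ht0 : t (A.e i x) ≠ 0) (h0 : ∃ a, s a i x ≠ 0) :
    (Fe K (hk hs h hd) e i x -
      (((k : ℝ)⁻¹ * (nrm h k s i x / (d + nrm h k s i x)) : ℝ) : ℂ) •
        hess (lgr (sl A s i) t) (A.e i x)).PosSemidef := by
  have hz := (A.e i).map_source hx
  have h0' : ∃ a, sl A s i a (A.e i x) ≠ 0 := by
    obtain ⟨a, ha⟩ := h0
    exact ⟨a, by unfold sl; rwa [(A.e i).left_inv hx]⟩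
  have h1 := lse_psd (s := sl A s i) (w := h.wt i) (k := k) (d := d) (e := e)
    (fun a => sl_anal hs i hz a) (wt_contDiffAt h i hz) hk0 hd he (K.pos i x hx).posSemidef hN
    ht ht0 h0'
  rw [pp_eq h d i hx] at h1
  unfold Fe
  rw [cur_hk hs h hd i hx]
  exact h1

/-- **(LSE)**, literally -/
theorem lse_k (hs : ∀ a, IsHS (L ^ k) univ (s a)) (hk0 : 0 < k) (h : HM L) {d : ℝ} (hd : 0 < d)
    (K : Kah A) {e : ℝ} (he : 0 ≤ e) (i : A.ι) {x : M} (hx : x ∈ (A.e i).source)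
    (hN : (cur h i x + (e : ℂ) • K.g i x).PosSemidef) {t : Cn n → ℂ}
    (ht : AnalyticAt ℂ t (A.e i x)) (ht0 : t (A.e i x) ≠ 0) (h0 : ∃ a, s a i x ≠ 0) :
    ((k : ℂ) • cur h i x + hsf A (Lg h k s d) i x + ((k * e : ℝ) : ℂ) • K.g i x -
      ((nrm h k s i x / (d + nrm h k s i x) : ℝ) : ℂ) •
        hess (lgr (sl A s i) t) (A.e i x)).PosSemidef := by
  have hk1 : (k : ℂ) ≠ 0 := by exact_mod_cast hk0.ne'
  have h1 := real_smul_psd (lse hs hk0 h hd K he i hx hN ht ht0 h0)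
    (c := (k : ℝ)) (Nat.cast_nonneg k)
  have e1 : ((k : ℝ) : ℂ) = (k : ℂ) := by push_cast; rfl
  rw [e1, smul_sub, kFe hs hk0 h hd K e i hx, smul_smul] at h1
  have e2 : (k : ℂ) * (((k : ℝ)⁻¹ * (nrm h k s i x / (d + nrm h k s i x)) : ℝ) : ℂ) =
      ((nrm h k s i x / (d + nrm h k s i x) : ℝ) : ℂ) := by
    rw [Complex.ofReal_mul, ← mul_assoc]
    push_cast
    rw [mul_inv_cancel₀ hk1, one_mul]
  rwa [e2] at h1

theorem F_psd (hs : ∀ a, IsHS (L ^ k) univ (s a)) (hk0 : 0 < k) (h : HM L) {d : ℝ} (hd : 0 < d)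
    (K : Kah A) {e : ℝ} (he : 0 ≤ e) (i : A.ι) {x : M} (hx : x ∈ (A.e i).source)
    (hN : (cur h i x + (e : ℂ) • K.g i x).PosSemidef) (p : α) :
    ((k : ℂ) • cur h i x + hsf A (Lg h k s d) i x + ((k * e : ℝ) : ℂ) • K.g i x).PosSemidef := by
  have h1 := real_smul_psd (Fe_psd hs hk0 h hd K he i hx hN p) (c := (k : ℝ)) (Nat.cast_nonneg k)
  have e1 : ((k : ℝ) : ℂ) = (k : ℂ) := by push_cast; rfl
  rwa [e1, kFe hs hk0 h hd K e i hx] at h1

end glob

end

end Crest.Agent.R281.OmL_677
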