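import Crest.Agent.R273.AppA_834
import Crest.Agent.R281.Glob1_484

/-!
# R281 (S0424), OM-MASS (helper980), part 1: positivity of the concentrating forms

* `fsb`     : `∂∂̄ log (|F|² + δ) ≥ (4δ)⁻¹ Dᵀ D̄` where `|F|² ≤ δ`
* `lse`     : `cur h' + e K + ∂∂̄ log (N + κ) ≥ (N / (N + κ)) ∂∂̄ log ∑ |C_j|²` where `N > 0`
* `lse_nn`  : `cur h' + e K + ∂∂̄ log (N + κ) ≥ 0`
* `kahOf`   : a positive definite closed field as a Kaehler metric
-/

set_option autoImplicit false
set_option linter.unusedSectionVars false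

open Set Filter Topology Complex MeasureTheory
open scoped ContDiff Matrix ComplexConjugate ComplexOrder

namespace Crest.Agent.R281.OmM_980

open Crest.Agent.R275 Crest.Agent.R275.Geo Crest.Agent.R275.Core144 Crest.Agent.R275.EDR890
open Crest.Agent.R273.Defs_333 Crest.Agent.R273.Hess_333 Crest.Agent.R273.HessB_333
open Crest.Agent.R273.HM_333 Crest.Agent.R273.Kah_333 Crest.Agent.R273.FS_333
open Crest.Agent.R273.Green_5 Crest.Agent.R273.FIa0_597 Crest.Agent.R273.FIb0_597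
open Crest.Agent.R273.FIc0_597 Crest.Agent.R273.AppA_834 Crest.Agent.R273
open Crest.Agent.R273.TVolA_332

noncomputable section

variable {n : ℕ}

/-! ### the local Fubini-Study bound -/

/-- the Jacobian matrix -/
def DF {m : ℕ} (F : Cn n → Fin m → ℂ) (z : Cn n) : Matrix (Fin m) (Fin n) ℂ :=
  Matrix.of fun b a => fderiv ℂ (fun w => F w b) z (EuclideanSpace.single a 1)

/-- `a |y|² - b |∑ F_k y_k|² ≥ 0` -/
theorem cs_form {m : ℕ} (F y : Fin m → ℂ) {a b : ℝ} (hb : 0 ≤ b)
    (hab : b * ∑ k, ‖F k‖ ^ 2 ≤ a) :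
    0 ≤ a * ∑ k, ‖y k‖ ^ 2 - b * ‖∑ k, F k * y k‖ ^ 2 := by
  have h1 : ‖∑ k, F k * y k‖ ≤ ∑ k, ‖F k‖ * ‖y k‖ := by
    refine (norm_sum_le _ _).trans (le_of_eq ?_)
    exact Finset.sum_congr rfl fun k _ => norm_mul _ _
  have h2 : (∑ k, ‖F k‖ * ‖y k‖) ^ 2 ≤ (∑ k, ‖F k‖ ^ 2) * ∑ k, ‖y k‖ ^ 2 :=
    Finset.sum_mul_sq_le_sq_mul_sq _ _ _
  have h3 : ‖∑ k, F k * y k‖ ^ 2 ≤ (∑ k, ‖F k‖ ^ 2) * ∑ k, ‖y k‖ ^ 2 :=
    (pow_le_pow_left₀ (norm_nonneg _) h1 2).trans h2
  have h4 : 0 ≤ ∑ k, ‖y k‖ ^ 2 := Finset.sum_nonneg fun _ _ => by positivity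
  nlinarith [mul_le_mul_of_nonneg_left h3 hb, mul_le_mul_of_nonneg_right hab h4]

/-- **(FSB)** -/
theorem fsb {m : ℕ} {F : Cn n → Fin m → ℂ} {U : Set (Cn n)} (hU : IsOpen U)
    (hF : ∀ k, DifferentiableOn ℂ (fun z => F z k) U) {z : Cn n} (hz : z ∈ U) {δ : ℝ} (hδ : 0 < δ)
    (hs : FS_333.sq F z ≤ δ) :
    (hess (fun w => Real.log (FS_333.sq F w + δ)) z -
      (((4 * δ)⁻¹ : ℝ) : ℂ) • ((DF F z)ᵀ * (DF F z).map conj)).PosSemidef := by
  have hs0 := sq_nonneg' F z
  have hp : 0 < FS_333.sq F z + δ := by positivity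
  have hsm : ContDiffAt ℝ ∞ (FS_333.sq F) z := by
    refine ContDiffAt.sum fun k _ => ?_
    exact (contDiffAt_of_hol hU (hF k) hz).norm_sq ℝ
  have hH : hess (FS_333.sq F) z = (DF F z)ᵀ * (DF F z).map conj := by
    ext a b
    rw [hess_sq hU hF hz, Matrix.mul_apply]
    rfl
  have hherm : ((DF F z)ᵀ * (DF F z).map conj).IsHermitian := by
    rw [← hH]; exact hess_herm hsm
  have hlogsm : ContDiffAt ℝ ∞ (fun w => Real.log (FS_333.sq F w + δ)) z :=
    (hsm.add contDiffAt_const).log hp.ne'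
  refine Matrix.PosSemidef.of_dotProduct_mulVec_nonneg ?_ ?_
  · refine (hess_herm hlogsm).sub ?_
    rw [Matrix.IsHermitian, Matrix.conjTranspose_smul, hherm.eq]
    simp
  intro x
  set a : ℝ := (FS_333.sq F z + δ)⁻¹ - (4 * δ)⁻¹ with ha
  set b : ℝ := ((FS_333.sq F z + δ) ^ 2)⁻¹ with hb
  -- `y = D̄ x`
  set y : Fin m → ℂ := (DF F z).map conj *ᵥ x with hy
  have e0 : hess (fun w => Real.log (FS_333.sq F w + δ)) z -
      (((4 * δ)⁻¹ : ℝ) : ℂ) • ((DF F z)ᵀ * (DF F z).map conj) =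
      (a : ℂ) • ((DF F z)ᵀ * (DF F z).map conj) -
        (b : ℂ) • Matrix.vecMulVec (gr (FS_333.sq F) z) (star (gr (FS_333.sq F) z)) := by
    rw [hess_log_add_mat δ hsm hp, hH, ha, hb]
    have e1 : ∀ (r : ℝ) (X : Matrix (Fin n) (Fin n) ℂ), r • X = (r : ℂ) • X := by
      intro r X
      ext p q
      simp
    rw [e1, e1]
    push_cast
    module
  have hgr : gr (FS_333.sq F) z = (DF F z)ᵀ *ᵥ fun k => conj (F z k) := by
    funext c
    show wd (false, c) (cu (FS_333.sq F)) z = _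
    rw [wd_sq' hU hF hz]
    rfl
  have hst : star y = star x ᵥ* (DF F z)ᵀ := by
    rw [hy, Matrix.star_mulVec]
    congr 1
    ext p q
    simp [Matrix.conjTranspose_apply]
  have e2 : star x ⬝ᵥ (((DF F z)ᵀ * (DF F z).map conj) *ᵥ x) = ((∑ k, ‖y k‖ ^ 2 : ℝ) : ℂ) := by
    rw [← Matrix.mulVec_mulVec, Matrix.dotProduct_mulVec, ← hst, ← hy]
    simp only [dotProduct, Pi.star_apply, RCLike.star_def, Complex.conj_mul']
    push_cast
    rfl
  have e3 : star x ⬝ᵥ gr (FS_333.sq F) z = conj (∑ k, F z k * y k) := by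
    rw [hgr, Matrix.dotProduct_mulVec, ← hst, map_sum]
    simp only [dotProduct, Pi.star_apply, RCLike.star_def, map_mul]
    exact Finset.sum_congr rfl fun k _ => mul_comm _ _
  have e4 : star (gr (FS_333.sq F) z) ⬝ᵥ x = ∑ k, F z k * y k := by
    have h := congrArg (fun c => conj c) e3
    simp only [Complex.conj_conj] at h
    rw [← h]
    simp only [dotProduct, map_sum, map_mul, Pi.star_apply, RCLike.star_def, Complex.conj_conj]
    exact Finset.sum_congr rfl fun k _ => mul_comm _ _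
  have e5 : star x ⬝ᵥ (Matrix.vecMulVec (gr (FS_333.sq F) z) (star (gr (FS_333.sq F) z)) *ᵥ x) =
      ((‖∑ k, F z k * y k‖ ^ 2 : ℝ) : ℂ) := by
    rw [Matrix.vecMulVec_mulVec, e4]
    have : star x ⬝ᵥ (MulOpposite.op (∑ k, F z k * y k) • gr (FS_333.sq F) z) =
        (star x ⬝ᵥ gr (FS_333.sq F) z) * ∑ k, F z k * y k := by
      simp only [dotProduct, Finset.sum_mul, Pi.smul_apply, MulOpposite.smul_eq_mul_unop,
        MulOpposite.unop_op, mul_assoc]
    rw [this, e3, mul_comm, Complex.mul_conj, Complex.normSq_eq_norm_sq]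
  rw [e0, Matrix.sub_mulVec, dotProduct_sub, Matrix.smul_mulVec, Matrix.smul_mulVec,
    dotProduct_smul, dotProduct_smul, e2, e5, smul_eq_mul, smul_eq_mul]
  have hfin : 0 ≤ a * ∑ k, ‖y k‖ ^ 2 - b * ‖∑ k, F z k * y k‖ ^ 2 := by
    refine cs_form (F z) y (by positivity) ?_
    show b * FS_333.sq F z ≤ a
    set U0 : ℝ := FS_333.sq F z with hU0
    have h1 : (0 : ℝ) < (U0 + δ) ^ 2 := by positivity
    have h2 : a - b * U0 = δ / (U0 + δ) ^ 2 - 1 / (4 * δ) := by
      rw [ha, hb]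
      field_simp
      ring
    have h3 : 1 / (4 * δ) ≤ δ / (U0 + δ) ^ 2 := by
      rw [div_le_div_iff₀ (by positivity) h1]
      nlinarith
    linarith
  have e6 : (a : ℂ) * ((∑ k, ‖y k‖ ^ 2 : ℝ) : ℂ) - (b : ℂ) * ((‖∑ k, F z k * y k‖ ^ 2 : ℝ) : ℂ) =
      ((a * ∑ k, ‖y k‖ ^ 2 - b * ‖∑ k, F z k * y k‖ ^ 2 : ℝ) : ℂ) := by
    push_cast
    ring
  rw [e6]
  exact_mod_cast hfin

/-! ### metrics -/

section Metric

variable {M : Type} [TopologicalSpace M] {A : Atl n M} {L E : LB A} {N : ℕ}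

/-- a positive definite closed field is a Kaehler metric -/
def kahOf {g : A.ι → M → Matrix (Fin n) (Fin n) ℂ} (hg : CF A g)
    (hp : ∀ i, ∀ x ∈ (A.e i).source, (g i x).PosDef) : Kah A where
  g := g
  sm := hg.sm
  pos := hp
  tr := hg.tr
  closed := hg.closed
  closed' i z hz a b c := by
    have hd : ∀ a b, DifferentiableAt ℝ (fun w => g i ((A.e i).symm w) a b) z := fun a b =>
      hg.diffAt hz a b
    have h1 : ∀ a b c, wd (true, c) (fun w => g i ((A.e i).symm w) a b) z =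
        conj (wd (false, c) (fun w => g i ((A.e i).symm w) b a) z) := by
      intro a b c
      rw [conj_wd _ (hd b a)]
      apply wd_congr
      filter_upwards [(A.e i).open_target.mem_nhds hz] with w hw
      have := congrFun (congrFun (hp i _ ((A.e i).map_target hw)).1.eq a) b
      simpa [Matrix.conjTranspose_apply] using this.symm
    rw [h1, h1, hg.closed i z hz]

theorem kahOf_g {g : A.ι → M → Matrix (Fin n) (Fin n) ℂ} (hg : CF A g)
    (hp : ∀ i, ∀ x ∈ (A.e i).source, (g i x).PosDef) : (kahOf hg hp).g = g := rfl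

variable {h' : HM E} {C : Fin N → A.ι → M → ℂ}

/-- **(LSE)**, at the points where `N > 0` -/
theorem lse (hC : ∀ j, IsHS E univ (C j)) {κ : ℝ} (hκ : 0 < κ) {G : Matrix (Fin n) (Fin n) ℂ}
    {i : A.ι} {x : M} (hx : x ∈ (A.e i).source) (hG : G.PosSemidef)
    (hpos : (cur h' i x + G).PosSemidef) (hN : 0 < nrm h' C x) :
    (cur h' i x + G + hsf A (fun y => Real.log (nrm h' C y + κ)) i x -
      ((nrm h' C x / (nrm h' C x + κ) : ℝ) : ℂ) •
        hess (fun z => Real.log (FS_333.sq (rd C i) z)) (A.e i x)).PosSemidef := by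
  have hz := (A.e i).map_source hx
  have hUz : ContDiffAt ℝ ∞ (fun z => nrm h' C ((A.e i).symm z)) (A.e i x) :=
    sm_contDiffAt (sm_nrm hC) i hz
  have hp' : 0 < (fun z => nrm h' C ((A.e i).symm z)) (A.e i x) := by
    simpa only [(A.e i).left_inv hx] using hN
  have h1 := hess_log_cmp hκ.le hUz hp'
  simp only [(A.e i).left_inv hx] at h1
  have h2 : hsf A (fun y => Real.log (nrm h' C y + κ)) i x =
      (nrm h' C x / (nrm h' C x + κ) : ℝ) • hsf A (fun y => Real.log (nrm h' C y)) i x +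
      (κ / (nrm h' C x * (nrm h' C x + κ) ^ 2) : ℝ) • Matrix.vecMulVec
        (gr (fun z => nrm h' C ((A.e i).symm z)) (A.e i x))
        (star (gr (fun z => nrm h' C ((A.e i).symm z)) (A.e i x))) := by
    unfold hsf
    exact h1
  set r : ℝ := nrm h' C x / (nrm h' C x + κ) with hr
  have hr0 : 0 ≤ r := by positivity
  have hr1 : 0 ≤ 1 - r := by
    rw [hr, sub_nonneg, div_le_one (by positivity)]; linarith
  have e1 : ∀ (r : ℝ) (X : Matrix (Fin n) (Fin n) ℂ), (r : ℂ) • X = r • X := by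
    intro r X
    ext p q
    simp
  have h3 : cur h' i x + G + hsf A (fun y => Real.log (nrm h' C y + κ)) i x -
      (r : ℂ) • hess (fun z => Real.log (FS_333.sq (rd C i) z)) (A.e i x) =
      (1 - r : ℝ) • (cur h' i x + G) + r • G +
      (κ / (nrm h' C x * (nrm h' C x + κ) ^ 2) : ℝ) • Matrix.vecMulVec
        (gr (fun z => nrm h' C ((A.e i).symm z)) (A.e i x))
        (star (gr (fun z => nrm h' C ((A.e i).symm z)) (A.e i x))) := by
    rw [h2, hsf_log hC hx hN, e1]
    module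
  rw [h3]
  have h4 : 0 ≤ κ / (nrm h' C x * (nrm h' C x + κ) ^ 2) := by positivity
  exact ((hpos.smul hr1).add (hG.smul hr0)).add
    ((Matrix.posSemidef_vecMulVec_self_star _).smul h4)

/-- **positivity** of `cur h' + e K + ∂∂̄ log (N + κ)` -/
theorem lse_nn (K : Kah A) {e : ℝ} (he : 0 ≤ e)
    (hp : ∀ i, ∀ x ∈ (A.e i).source, (cur h' i x + (e : ℂ) • K.g i x).PosSemidef)
    (hC : ∀ j, IsHS E univ (C j)) {κ : ℝ} (hκ : 0 < κ) (i : A.ι) {x : M}
    (hx : x ∈ (A.e i).source) :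
    (cur h' i x + (e : ℂ) • K.g i x +
      hsf A (fun y => Real.log (nrm h' C y + κ)) i x).PosSemidef := by
  have hS := sm_log_add (sm_nrm (h' := h') hC) (nrm_nonneg hC) hκ
  have hG : ∀ y ∈ (A.e i).source, ((e : ℂ) • K.g i y).PosSemidef := fun y hy =>
    (K.pos i y hy).posSemidef.smul (by exact_mod_cast he)
  -- at the points where `N > 0`
  have hpos : ∀ y ∈ (A.e i).source, 0 < nrm h' C y →
      (cur h' i y + (e : ℂ) • K.g i y +
        hsf A (fun y => Real.log (nrm h' C y + κ)) i y).PosSemidef := by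
    intro y hy hNy
    have h1 := lse hC hκ hy (hG y hy) (hp i y hy) hNy
    have hr0 : 0 ≤ nrm h' C y / (nrm h' C y + κ) := by positivity
    have h2 := h1.add ((lev_log_sq_nonneg hC hy hNy).smul
      (show (0 : ℂ) ≤ ((nrm h' C y / (nrm h' C y + κ) : ℝ) : ℂ) by exact_mod_cast hr0))
    rwa [sub_add_cancel] at h2
  by_cases hx' : ∃ᶠ y in 𝓝 x, 0 < nrm h' C y
  · have hcont : ContinuousAt (fun y => cur h' i y + (e : ℂ) • K.g i y +
        hsf A (fun y => Real.log (nrm h' C y + κ)) i y) x := by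
      refine continuousAt_pi.2 fun a => continuousAt_pi.2 fun b => ?_
      have h1 : A.SmAt i (fun y => (cur h' i y + (e : ℂ) • K.g i y +
          hsf A (fun y => Real.log (nrm h' C y + κ)) i y) a b) :=
        ((cur_smooth h' i a b).add (contDiffOn_const.mul (K.sm i a b))).add
          ((hsf_cf hS).sm i a b)
      have h2 : ContinuousAt (fun z => (fun y => (cur h' i y + (e : ℂ) • K.g i y +
          hsf A (fun y => Real.log (nrm h' C y + κ)) i y) a b) ((A.e i).symm z)) (A.e i x) :=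
        (ContDiffOn.continuousOn h1).continuousAt
          ((A.e i).open_target.mem_nhds ((A.e i).map_source hx))
      have h3 := ContinuousAt.comp (f := fun y => A.e i y) h2 ((A.e i).continuousAt hx)
      refine h3.congr ?_
      filter_upwards [(A.e i).open_source.mem_nhds hx] with y hy
      simp only [Function.comp, (A.e i).left_inv hy]
    have h5 : ∃ᶠ y in 𝓝 x, (cur h' i y + (e : ℂ) • K.g i y +
        hsf A (fun y => Real.log (nrm h' C y + κ)) i y) ∈
          {X : Matrix (Fin n) (Fin n) ℂ | X.PosSemidef} :=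
      (hx'.and_eventually ((A.e i).open_source.mem_nhds hx)).mono
        fun y hy => hpos y hy.2 hy.1
    exact isClosed_psd.mem_of_frequently_of_tendsto h5 hcont
  · rw [not_frequently] at hx'
    have h2 : hsf A (fun y => Real.log (nrm h' C y + κ)) i x = 0 := by
      unfold hsf
      have h3 : (fun z => Real.log (nrm h' C ((A.e i).symm z) + κ)) =ᶠ[𝓝 (A.e i x)]
          fun _ => Real.log κ := by
        have hc : Tendsto (A.e i).symm (𝓝 (A.e i x)) (𝓝 x) := by
          have := (A.e i).continuousAt_symm ((A.e i).map_source hx)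
          rwa [ContinuousAt, (A.e i).left_inv hx] at this
        filter_upwards [hc.eventually hx'] with z hz
        rw [le_antisymm (not_lt.1 hz) (nrm_nonneg hC _), zero_add]
      rw [hess_congr h3]
      ext a b
      rw [hess_apply]
      have h4 : wd (true, b) (cu fun _ : Cn n => Real.log κ) = fun _ => 0 := by
        funext w
        exact wd_const _ _ _
      rw [h4, wd_const]
      rfl
    rw [h2, add_zero]
    exact hp i x hx

end Metric

end

end Crest.Agent.R281.OmM_980
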