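import Crest.Agent.R281.OmM1_980
import Crest.Agent.R281.LfS_901
import Crest.Agent.R273.TLs_201

/-!
# R281 (S0424), OM-MASS (helper980), part 2: the concentrating Kaehler metrics

`s_0, …, s_m` sections of `L^k`, `h : HM L` with `cur h + e K ≥ 0`.
* `sd s δ`  : the sections `√δ s_0, s_1, …, s_m`
* `be`      : `(1 + 2 k e R) K + k R cur h = K + R k (cur h + 2 e K)`
* `Kd δ`    : `be + R (k cur h + k e K + ∂∂̄ log (∑ |(sd s δ)_j|² + δ²))`
* `hlow`    : `Kd δ ≥ be + (R / (8 δ)) (df)ᵀ (df)‾` on compacts of `{s_0 ≠ 0}` where `|f|² ≤ δ`,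
              `δ → 0+`, `f = (s_b / s_0)`
-/

set_option autoImplicit false
set_option linter.unusedSectionVars false

open Set Filter Topology Complex MeasureTheory
open scoped ContDiff Matrix ComplexConjugate ComplexOrder

namespace Crest.Agent.R281.OmM_980

open Crest.Agent.R275 Crest.Agent.R275.Geo Crest.Agent.R275.Core144 Crest.Agent.R275.EDR890
open Crest.Agent.R273.Defs_333 Crest.Agent.R273.Hess_333 Crest.Agent.R273.HessB_333
open Crest.Agent.R273.HM_333 Crest.Agent.R273.Kah_333 Crest.Agent.R273.FS_333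
open Crest.Agent.R273.Map_835 (mt)
open Crest.Agent.R273.Green_5 Crest.Agent.R273.FIa0_597 Crest.Agent.R273.FIb0_597
open Crest.Agent.R273.FIc0_597 Crest.Agent.R273.AppA_834 Crest.Agent.R273
open Crest.Agent.R281.LfS_901 (U0 qf qf_eq mem_u0 hf_qf qf_symm_eventuallyEq diffAt
  hasFDerivAt_quot)

noncomputable section

variable {n m : ℕ} {M : Type} [TopologicalSpace M] {A : Atl n M} {L E : LB A}

/-! ### the sections `√δ s_0, s_1, …, s_m` -/

/-- the factor -/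
def fac (m : ℕ) (δ : ℝ) (j : Fin (m + 1)) : ℂ := if j = 0 then ((√δ : ℝ) : ℂ) else 1

/-- the sections `√δ s_0, s_1, …, s_m` -/
def sd (s : Fin (m + 1) → A.ι → M → ℂ) (δ : ℝ) (j : Fin (m + 1)) : A.ι → M → ℂ := fac m δ j • s j

theorem sd_apply (s : Fin (m + 1) → A.ι → M → ℂ) (δ : ℝ) (j : Fin (m + 1)) (i : A.ι) (x : M) :
    sd s δ j i x = fac m δ j * s j i x := rfl

variable {s : Fin (m + 1) → A.ι → M → ℂ}

theorem isHS_sd (hs : ∀ a, IsHS E univ (s a)) (δ : ℝ) (j : Fin (m + 1)) :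
    IsHS E univ (sd s δ j) := (hs j).smul _

theorem sq_sd (s : Fin (m + 1) → A.ι → M → ℂ) {δ : ℝ} (hδ : 0 ≤ δ) (i : A.ι) (z : Cn n) :
    FS_333.sq (AppA_834.rd (sd s δ) i) z = δ * ‖s 0 i ((A.e i).symm z)‖ ^ 2 +
      ∑ b : Fin m, ‖s b.succ i ((A.e i).symm z)‖ ^ 2 := by
  unfold FS_333.sq AppA_834.rd
  rw [Fin.sum_univ_succ]
  congr 1
  · rw [sd_apply, norm_mul, mul_pow]
    congr 1
    simp [fac, Real.sq_sqrt hδ]
  · refine Finset.sum_congr rfl fun b _ => ?_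
    rw [sd_apply]
    simp [fac, Fin.succ_ne_zero]

/-- the quotients in the chart `i` -/
def Qf (s : Fin (m + 1) → A.ι → M → ℂ) (i : A.ι) (z : Cn n) (b : Fin m) : ℂ :=
  s b.succ i ((A.e i).symm z) / s 0 i ((A.e i).symm z)

theorem sq_Qf (hs : ∀ a, IsHS E univ (s a)) {i : A.ι} {z : Cn n} (hz : z ∈ (A.e i).target) :
    FS_333.sq (Qf s i) z = ‖qf s ((A.e i).symm z)‖ ^ 2 := by
  rw [EuclideanSpace.norm_sq_eq]
  unfold FS_333.sq Qf
  refine Finset.sum_congr rfl fun b _ => ?_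
  rw [qf_eq hs ((A.e i).map_target hz)]

theorem sq_sd_Qf (s : Fin (m + 1) → A.ι → M → ℂ) {δ : ℝ} (hδ : 0 ≤ δ) (i : A.ι) {z : Cn n}
    (h0 : s 0 i ((A.e i).symm z) ≠ 0) :
    FS_333.sq (AppA_834.rd (sd s δ) i) z =
      ‖s 0 i ((A.e i).symm z)‖ ^ 2 * (FS_333.sq (Qf s i) z + δ) := by
  rw [sq_sd s hδ]
  unfold FS_333.sq Qf
  have h1 : ‖s 0 i ((A.e i).symm z)‖ ≠ 0 := norm_ne_zero_iff.2 h0
  rw [mul_add, Finset.mul_sum, add_comm, mul_comm δ]
  congr 1
  refine Finset.sum_congr rfl fun b _ => ?_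
  rw [norm_div]
  field_simp

/-- the open set where `s_0 ≠ 0`, in the chart `i` -/
def Vi (s : Fin (m + 1) → A.ι → M → ℂ) (i : A.ι) : Set (Cn n) :=
  (A.e i).target ∩ (fun z => s 0 i ((A.e i).symm z)) ⁻¹' {0}ᶜ

theorem sec_don (hs : ∀ a, IsHS E univ (s a)) (a : Fin (m + 1)) (i : A.ι) :
    DifferentiableOn ℂ (fun z => s a i ((A.e i).symm z)) (A.e i).target := by
  have := (hs a).hol i
  unfold HolAt at this
  rw [preimage_univ, inter_univ] at this
  exact this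

theorem isOpen_Vi (hs : ∀ a, IsHS E univ (s a)) (i : A.ι) : IsOpen (Vi s i) :=
  (sec_don hs 0 i).continuousOn.isOpen_inter_preimage (A.e i).open_target isOpen_compl_singleton

theorem don_Qf (hs : ∀ a, IsHS E univ (s a)) (i : A.ι) (b : Fin m) :
    DifferentiableOn ℂ (fun z => Qf s i z b) (Vi s i) := by
  intro z hz
  have h1 : DifferentiableAt ℂ (fun z => s b.succ i ((A.e i).symm z)) z :=
    (sec_don hs b.succ i).differentiableAt ((A.e i).open_target.mem_nhds hz.1)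
  have h2 : DifferentiableAt ℂ (fun z => s 0 i ((A.e i).symm z)) z :=
    (sec_don hs 0 i).differentiableAt ((A.e i).open_target.mem_nhds hz.1)
  have h3 := DifferentiableAt.fun_mul h1 (DifferentiableAt.fun_inv h2 hz.2)
  have e : (fun z => Qf s i z b) = fun z => s b.succ i ((A.e i).symm z) *
      (s 0 i ((A.e i).symm z))⁻¹ := by
    funext w
    exact div_eq_mul_inv _ _
  rw [e]
  exact h3.differentiableWithinAt

theorem mem_Vi {i : A.ι} {x : M} (hx : x ∈ (A.e i).source) (h0 : s 0 i x ≠ 0) :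
    A.e i x ∈ Vi s i := by
  refine ⟨(A.e i).map_source hx, ?_⟩
  show s 0 i ((A.e i).symm (A.e i x)) ≠ 0
  rwa [(A.e i).left_inv hx]

/-- `∂∂̄ log ∑ |(sd s δ)_j|² = ∂∂̄ log (|f|² + δ)` -/
theorem hess_sd (hs : ∀ a, IsHS E univ (s a)) {δ : ℝ} (hδ : 0 < δ) {i : A.ι} {x : M}
    (hx : x ∈ (A.e i).source) (h0 : s 0 i x ≠ 0) :
    hess (fun z => Real.log (FS_333.sq (AppA_834.rd (sd s δ) i) z)) (A.e i x) =
      hess (fun z => Real.log (FS_333.sq (Qf s i) z + δ)) (A.e i x) := by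
  have hV := isOpen_Vi hs i
  have hm := mem_Vi hx h0
  have h00 : s 0 i ((A.e i).symm (A.e i x)) ≠ 0 := hm.2
  have hev : (fun z => Real.log (FS_333.sq (AppA_834.rd (sd s δ) i) z)) =ᶠ[𝓝 (A.e i x)]
      fun z => Real.log (‖s 0 i ((A.e i).symm z)‖ ^ 2) +
        Real.log (FS_333.sq (Qf s i) z + δ) := by
    filter_upwards [hV.mem_nhds hm] with z hz
    have h2 : s 0 i ((A.e i).symm z) ≠ 0 := hz.2
    have h3 := sq_nonneg' (Qf s i) z
    rw [sq_sd_Qf s hδ.le i h2, Real.log_mul]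
    · exact pow_ne_zero 2 (norm_ne_zero_iff.2 h2)
    · positivity
  have hsc : ContDiffAt ℝ ∞ (fun z => s 0 i ((A.e i).symm z)) (A.e i x) :=
    contDiffAt_of_hol (A.e i).open_target (sec_don hs 0 i) ((A.e i).map_source hx)
  have hl1 : ContDiffAt ℝ ∞ (fun z => Real.log (‖s 0 i ((A.e i).symm z)‖ ^ 2)) (A.e i x) :=
    (hsc.norm_sq ℝ).log (pow_ne_zero 2 (norm_ne_zero_iff.2 h00))
  have hl2 : ContDiffAt ℝ ∞ (fun z => Real.log (FS_333.sq (Qf s i) z + δ)) (A.e i x) := by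
    have h3 : ContDiffAt ℝ ∞ (FS_333.sq (Qf s i)) (A.e i x) :=
      ContDiffAt.sum fun b _ => (contDiffAt_of_hol hV (don_Qf hs i b) hm).norm_sq ℝ
    refine (h3.add contDiffAt_const).log ?_
    have h4 := sq_nonneg' (Qf s i) (A.e i x)
    positivity
  have hsd : ∀ᶠ z in 𝓝 (A.e i x), DifferentiableAt ℂ (fun z => s 0 i ((A.e i).symm z)) z := by
    filter_upwards [(A.e i).open_target.mem_nhds ((A.e i).map_source hx)] with z hz
    exact (sec_don hs 0 i).differentiableAt ((A.e i).open_target.mem_nhds hz)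
  rw [hess_congr hev, hess_add hl1 hl2, hess_log_norm hsd h00, zero_add]

/-- the Jacobian matrix of `f = (s_b / s_0)` -/
def Df (A : Atl n M) (f : M → Cn m) (i : A.ι) (x : M) : Matrix (Fin m) (Fin n) ℂ :=
  mt (fderiv ℂ (fun z => f ((A.e i).symm z)) (A.e i x))

theorem DF_Qf (hs : ∀ a, IsHS E univ (s a)) {i : A.ι} {x : M} (hx : x ∈ (A.e i).source)
    (h0 : s 0 i x ≠ 0) : DF (Qf s i) (A.e i x) = Df A (qf s) i x := by
  ext b a
  show fderiv ℂ (fun w => Qf s i w b) (A.e i x) (EuclideanSpace.single a 1) =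
    (fderiv ℂ (fun z => qf s ((A.e i).symm z)) (A.e i x) (EuclideanSpace.single a 1)) b
  have hd : DifferentiableAt ℂ (fun z => qf s ((A.e i).symm z)) (A.e i x) :=
    hf_qf hs x ((mem_u0 hs hx).2 h0) i hx
  have h2 := ((EuclideanSpace.proj b : Cn m →L[ℂ] ℂ).hasFDerivAt.comp
    (A.e i x) hd.hasFDerivAt).fderiv
  have h3 : fderiv ℂ (fun z => qf s ((A.e i).symm z) b) (A.e i x) =
      (EuclideanSpace.proj b : Cn m →L[ℂ] ℂ).comp
        (fderiv ℂ (fun z => qf s ((A.e i).symm z)) (A.e i x)) := h2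
  have h4 : (fun z => qf s ((A.e i).symm z) b) =ᶠ[𝓝 (A.e i x)] fun w => Qf s i w b := by
    filter_upwards [qf_symm_eventuallyEq hs hx] with z hz
    rw [hz]
    rfl
  rw [← h4.fderiv_eq, h3]
  rfl

/-- the lower bound of the Fubini-Study part -/
theorem fsb_sd (hs : ∀ a, IsHS E univ (s a)) {δ : ℝ} (hδ : 0 < δ) {i : A.ι} {x : M}
    (hx : x ∈ (A.e i).source) (h0 : s 0 i x ≠ 0) (hq : ‖qf s x‖ ^ 2 ≤ δ) :
    (hess (fun z => Real.log (FS_333.sq (AppA_834.rd (sd s δ) i) z)) (A.e i x) -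
      (((4 * δ)⁻¹ : ℝ) : ℂ) • ((Df A (qf s) i x)ᵀ * (Df A (qf s) i x).map conj)).PosSemidef := by
  rw [hess_sd hs hδ hx h0, ← DF_Qf hs hx h0]
  refine fsb (isOpen_Vi hs i) (don_Qf hs i) (mem_Vi hx h0) hδ ?_
  rw [sq_Qf hs ((A.e i).map_source hx), (A.e i).left_inv hx]
  exact hq

/-! ### the metrics -/

variable {k : ℕ} (K : Kah A) (h : HM L) (e R : ℝ)

/-- `(1 + 2 k e R) K + k R cur h` -/
def beG (k : ℕ) (i : A.ι) (x : M) : Matrix (Fin n) (Fin n) ℂ :=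
  ((1 + 2 * k * e * R : ℝ) : ℂ) • K.g i x + ((k * R : ℝ) : ℂ) • cur h i x

/-- `(1 + 3 k e R) K + 2 k R cur h + R ∂∂̄ log (∑ |(sd s δ)_j|² + δ²)` -/
def kdG (k : ℕ) (s : Fin (m + 1) → A.ι → M → ℂ) (δ : ℝ) (i : A.ι) (x : M) :
    Matrix (Fin n) (Fin n) ℂ :=
  ((1 + 3 * k * e * R : ℝ) : ℂ) • K.g i x + ((2 * k * R : ℝ) : ℂ) • cur h i x +
    hsf A (fun y => R * Real.log (nrm (pow h k) (sd s δ) y + δ ^ 2)) i x

theorem cf_beG (k : ℕ) : CF A (beG K h e R k) :=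
  ((kah_cf K).smul _).add ((cur_cf h).smul _)

theorem sm_log (hs : ∀ a, IsHS (L ^ k) univ (s a)) {δ : ℝ} (hδ : 0 < δ) :
    A.Sm (fun y => Real.log (nrm (pow h k) (sd s δ) y + δ ^ 2)) :=
  sm_log_add (sm_nrm (isHS_sd hs δ)) (nrm_nonneg (isHS_sd hs δ)) (by positivity)

theorem sm_Rlog (hs : ∀ a, IsHS (L ^ k) univ (s a)) {δ : ℝ} (hδ : 0 < δ) :
    A.Sm (fun y => R * Real.log (nrm (pow h k) (sd s δ) y + δ ^ 2)) :=
  TLs_201.sm_smul R (sm_log h hs hδ)

theorem cf_kdG (hs : ∀ a, IsHS (L ^ k) univ (s a)) {δ : ℝ} (hδ : 0 < δ) :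
    CF A (kdG K h e R k s δ) :=
  (((kah_cf K).smul _).add ((cur_cf h).smul _)).add (hsf_cf (sm_Rlog h R hs hδ))

variable {e R}

/-- `be = K + R k (cur h + 2 e K)` -/
theorem beG_eq (k : ℕ) (i : A.ι) (x : M) : beG K h e R k i x =
    K.g i x + ((R * k : ℝ) : ℂ) • (cur h i x + ((2 * e : ℝ) : ℂ) • K.g i x) := by
  unfold beG
  push_cast
  module

theorem psd_two (he : 0 ≤ e)
    (hp : ∀ i, ∀ x ∈ (A.e i).source, (cur h i x + (e : ℂ) • K.g i x).PosSemidef) {i : A.ι} {x : M}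
    (hx : x ∈ (A.e i).source) : (cur h i x + ((2 * e : ℝ) : ℂ) • K.g i x).PosSemidef := by
  have h1 : cur h i x + ((2 * e : ℝ) : ℂ) • K.g i x =
      (cur h i x + (e : ℂ) • K.g i x) + (e : ℂ) • K.g i x := by
    push_cast
    module
  rw [h1]
  exact (hp i x hx).add ((K.pos i x hx).posSemidef.smul (by exact_mod_cast he))

theorem beG_pos (he : 0 ≤ e) (hR : 0 ≤ R)
    (hp : ∀ i, ∀ x ∈ (A.e i).source, (cur h i x + (e : ℂ) • K.g i x).PosSemidef) (k : ℕ)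
    (i : A.ι) (x : M) (hx : x ∈ (A.e i).source) : (beG K h e R k i x).PosDef := by
  rw [beG_eq]
  refine (K.pos i x hx).add_posSemidef ((psd_two K h he hp hx).smul ?_)
  have : 0 ≤ R * k := by positivity
  exact_mod_cast this

/-- `Kd δ = be + R (cur (h^k) + k e K + ∂∂̄ log)` -/
theorem kdG_eq (hs : ∀ a, IsHS (L ^ k) univ (s a)) {δ : ℝ} (hδ : 0 < δ) {i : A.ι} {x : M}
    (hx : x ∈ (A.e i).source) : kdG K h e R k s δ i x = beG K h e R k i x +
      (R : ℂ) • (cur (pow h k) i x + ((k * e : ℝ) : ℂ) • K.g i x +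
        hsf A (fun y => Real.log (nrm (pow h k) (sd s δ) y + δ ^ 2)) i x) := by
  unfold kdG beG
  rw [TLs_201.hsf_smul R (sm_log h hs hδ) hx, cur_pow h k i hx]
  push_cast
  module

theorem hp_pow (hp : ∀ i, ∀ x ∈ (A.e i).source, (cur h i x + (e : ℂ) • K.g i x).PosSemidef)
    (k : ℕ) (i : A.ι) (x : M) (hx : x ∈ (A.e i).source) :
    (cur (pow h k) i x + ((k * e : ℝ) : ℂ) • K.g i x).PosSemidef := by
  rw [cur_pow h k i hx]
  have h1 : (k : ℂ) • cur h i x + ((k * e : ℝ) : ℂ) • K.g i x =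
      (k : ℂ) • (cur h i x + (e : ℂ) • K.g i x) := by
    push_cast
    module
  rw [h1]
  exact (hp i x hx).smul (by positivity)

theorem kdG_pos (he : 0 ≤ e) (hR : 0 ≤ R)
    (hp : ∀ i, ∀ x ∈ (A.e i).source, (cur h i x + (e : ℂ) • K.g i x).PosSemidef)
    (hs : ∀ a, IsHS (L ^ k) univ (s a)) {δ : ℝ} (hδ : 0 < δ)
    (i : A.ι) (x : M) (hx : x ∈ (A.e i).source) : (kdG K h e R k s δ i x).PosDef := by
  rw [kdG_eq K h hs hδ hx]
  refine (beG_pos K h he hR hp k i x hx).add_posSemidef (Matrix.PosSemidef.smul ?_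
    (by exact_mod_cast hR))
  exact lse_nn K (by positivity) (hp_pow K h hp k) (isHS_sd hs δ) (by positivity) i hx

/-- the metric `be` -/
def be (he : 0 ≤ e) (hR : 0 ≤ R)
    (hp : ∀ i, ∀ x ∈ (A.e i).source, (cur h i x + (e : ℂ) • K.g i x).PosSemidef) (k : ℕ) : Kah A :=
  kahOf (cf_beG K h e R k) (beG_pos K h he hR hp k)

open Classical in
/-- the metrics `Kd δ` -/
def Kd (he : 0 ≤ e) (hR : 0 ≤ R)
    (hp : ∀ i, ∀ x ∈ (A.e i).source, (cur h i x + (e : ℂ) • K.g i x).PosSemidef)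
    (hs : ∀ a, IsHS (L ^ k) univ (s a)) (δ : ℝ) : Kah A :=
  if hδ : 0 < δ then kahOf (cf_kdG K h e R hs hδ) (kdG_pos K h he hR hp hs hδ) else K

theorem Kd_g (he : 0 ≤ e) (hR : 0 ≤ R)
    (hp : ∀ i, ∀ x ∈ (A.e i).source, (cur h i x + (e : ℂ) • K.g i x).PosSemidef)
    (hs : ∀ a, IsHS (L ^ k) univ (s a)) {δ : ℝ} (hδ : 0 < δ) :
    (Kd K h he hR hp hs δ).g = kdG K h e R k s δ := by
  unfold Kd
  rw [dif_pos hδ]
  rfl

/-- **the lower bound** -/
theorem hlow (he : 0 ≤ e) (hR : 0 ≤ R)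
    (hp : ∀ i, ∀ x ∈ (A.e i).source, (cur h i x + (e : ℂ) • K.g i x).PosSemidef)
    (hs : ∀ a, IsHS (L ^ k) univ (s a)) (i : A.ι) (C : Set M) (hC : IsCompact C)
    (hCs : C ⊆ (A.e i).source ∩ U0 s) :
    ∀ᶠ δ in 𝓝[>] (0 : ℝ), ∀ x ∈ C, ‖qf s x‖ ^ 2 ≤ δ →
      ((Kd K h he hR hp hs δ).g i x - (be K h he hR hp k).g i x -
        (((R / 8) / δ : ℝ) : ℂ) • ((Df A (qf s) i x)ᵀ * (Df A (qf s) i x).map conj)).PosSemidef := by
  -- lower bound of `|s_0|²` on `C`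
  obtain ⟨c0, hc0, hc⟩ : ∃ c0 : ℝ, 0 < c0 ∧ ∀ x ∈ C, c0 ≤ ‖s 0 i x‖ ^ 2 * (pow h k).w i x := by
    rcases C.eq_empty_or_nonempty with rfl | hne
    · exact ⟨1, one_pos, fun x hx => absurd hx (notMem_empty x)⟩
    have hcont : ContinuousOn (fun x => ‖s 0 i x‖ ^ 2 * (pow h k).w i x) C := by
      intro x hx
      have hxs := (hCs hx).1
      have h1 : ContinuousAt (s 0 i) x := LfS_901.continuousAt_sec hs 0 hxs
      have h2 : ContinuousAt ((pow h k).w i) x := by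
        have h3 : ContinuousAt (fun z => (pow h k).w i ((A.e i).symm z)) (A.e i x) :=
          ((pow h k).sm i).continuousOn.continuousAt
            ((A.e i).open_target.mem_nhds ((A.e i).map_source hxs))
        have h4 := ContinuousAt.comp (f := fun y => A.e i y) h3 ((A.e i).continuousAt hxs)
        refine h4.congr ?_
        filter_upwards [(A.e i).open_source.mem_nhds hxs] with y hy
        simp only [Function.comp, (A.e i).left_inv hy]
      exact ((h1.norm.pow 2).mul h2).continuousWithinAt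
    obtain ⟨x0, hx0, hmin⟩ := hC.exists_isMinOn hne hcont
    refine ⟨_, ?_, fun x hx => hmin hx⟩
    have h1 : s 0 i x0 ≠ 0 := (mem_u0 hs (hCs hx0).1).1 (hCs hx0).2
    have h2 := (pow h k).pos i x0 (hCs hx0).1
    positivity
  filter_upwards [self_mem_nhdsWithin, Ioo_mem_nhdsGT hc0] with δ hδ hδ2 x hx hq
  rw [mem_Ioi] at hδ
  have hxs := (hCs hx).1
  have h0 : s 0 i x ≠ 0 := (mem_u0 hs hxs).1 (hCs hx).2
  have hN0 : δ * (‖s 0 i x‖ ^ 2 * (pow h k).w i x) ≤ nrm (pow h k) (sd s δ) x := by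
    rw [nrm_eq (isHS_sd hs δ) hxs, sq_sd s hδ.le, (A.e i).left_inv hxs]
    have h1 : 0 ≤ ∑ b : Fin m, ‖s b.succ i x‖ ^ 2 := Finset.sum_nonneg fun _ _ => by positivity
    have h2 := (pow h k).pos i x hxs
    nlinarith [mul_nonneg h1 h2.le]
  have hN1 : δ ^ 2 ≤ nrm (pow h k) (sd s δ) x := by
    have := hc x hx
    nlinarith [hδ2.2]
  have hN : 0 < nrm (pow h k) (sd s δ) x := lt_of_lt_of_le (by positivity) hN1
  set r : ℝ := nrm (pow h k) (sd s δ) x / (nrm (pow h k) (sd s δ) x + δ ^ 2) with hr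
  have hr2 : 1 / 2 ≤ r := by
    rw [hr, div_le_div_iff₀ (by positivity) (by positivity)]
    linarith
  have hke : 0 ≤ (k : ℝ) * e := by positivity
  have l1 := lse (h' := pow h k) (C := sd s δ) (isHS_sd hs δ) (κ := δ ^ 2) (by positivity)
    (G := ((k * e : ℝ) : ℂ) • K.g i x) hxs
    ((K.pos i x hxs).posSemidef.smul (by exact_mod_cast hke)) (hp_pow K h hp k i x hxs) hN
  rw [← hr] at l1
  have l2 := (fsb_sd hs hδ hxs h0 hq).smul (show (0 : ℂ) ≤ (r : ℂ) by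
    exact_mod_cast (by linarith : (0:ℝ) ≤ r))
  have l3 : (((r / (4 * δ) - 1 / (8 * δ) : ℝ) : ℂ) •
      ((Df A (qf s) i x)ᵀ * (Df A (qf s) i x).map conj)).PosSemidef := by
    have h1 : ((Df A (qf s) i x)ᵀ * (Df A (qf s) i x).map conj).PosSemidef := by
      have h2 := Matrix.posSemidef_conjTranspose_mul_self ((Df A (qf s) i x).map conj)
      have h3 : ((Df A (qf s) i x).map conj)ᴴ = (Df A (qf s) i x)ᵀ := by
        ext a b
        simp [Matrix.conjTranspose_apply]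
      rwa [h3] at h2
    refine h1.smul ?_
    have h2 : 0 ≤ r / (4 * δ) - 1 / (8 * δ) := by
      rw [sub_nonneg, div_le_div_iff₀ (by positivity) (by positivity)]
      nlinarith
    exact_mod_cast h2
  have l4 := ((l1.add l2).add l3).smul (show (0 : ℂ) ≤ (R : ℂ) by exact_mod_cast hR)
  rw [Kd_g K h he hR hp hs hδ, kdG_eq K h hs hδ hxs]
  have e1 : (be K h he hR hp k).g i x = beG K h e R k i x := rfl
  rw [e1]
  convert l4 using 1
  have hδ' : (δ : ℂ) ≠ 0 := by exact_mod_cast hδ.ne'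
  push_cast
  simp only [smul_add, smul_sub, smul_smul, add_sub_cancel_left, sub_smul]
  have e2 : (R : ℂ) / 8 / δ = R * (1 / (8 * δ)) := by field_simp
  have e3 : (R : ℂ) * (r * (4 * (δ : ℂ))⁻¹) = R * (r / (4 * (δ : ℂ))) := by rw [div_eq_mul_inv]
  rw [e2, e3]
  abel

end

end Crest.Agent.R281.OmM_980
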