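import Crest.Agent.R281.OmM2_980
import Crest.Agent.R281.Om3_854
import Crest.Agent.R281.OmG2_467
import Crest.Agent.R281.Lf1_703
import Crest.Agent.R273.FId0_597
import Crest.Agent.R273.MassA_5

/-!
# R281 (S0424), OM-MASS (helper980), part 3: mass concentration

* `vm_congr`, `vm_ratio`, `vm_mono`, `lint_vm_le` : comparison of volume measures
* `det_ge`    : `det (G + t S) ≥ det G (1 + t tr (G⁻¹ S))`
* `vm_univ_eq`: `vm (volK K) univ = ∫ det K`
* `VolB`      : the bound of the total determinants (847)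
* `mass_be`   : `vm (be|_T) ≤ CM C k m` for every leaf, every `R ≥ 1`, `e R ≤ 1`
-/

set_option autoImplicit false
set_option linter.unusedSectionVars false

open Set Filter Topology Complex MeasureTheory Function
open scoped ContDiff Matrix ComplexConjugate ComplexOrder ENNReal

namespace Crest.Agent.R281.OmM_980

open Crest.Agent.R275 Crest.Agent.R275.Geo Crest.Agent.R275.Core144 Crest.Agent.R275.EDR890
open Crest.Agent.R273.Defs_333 Crest.Agent.R273.Hess_333 Crest.Agent.R273.HessB_333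
open Crest.Agent.R273.HM_333 Crest.Agent.R273.Kah_333 Crest.Agent.R273.Vol_333
open Crest.Agent.R273.Vm_333 Crest.Agent.R273.Map_835 Crest.Agent.R273.KahI_645
open Crest.Agent.R275.Pai323 Crest.Agent.R273.StV_37
open Crest.Agent.R273.Fam_835 (fam)
open Crest.Agent.R273.Green_5 Crest.Agent.R273.FIa0_597 Crest.Agent.R273.FIb0_597
open Crest.Agent.R273.FIc0_597 Crest.Agent.R273.FId0_597 Crest.Agent.R273.AppA_834
open Crest.Agent.R273
open Crest.Agent.R281.LfS_901 (U0 qf)
open Crest.Agent.R281.S6D_664 Crest.Agent.R281.Om_854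

noncomputable section

/-! ### comparison of volume measures -/

section Cmp

variable {n : ℕ} {M : Type} [TopologicalSpace M] {A : Atl n M} [MeasurableSpace M] [BorelSpace M]

theorem chm_congr {h h' : HM (KB A)⁻¹} {i : A.ι}
    (H : ∀ x ∈ (A.e i).source, h.w i x = h'.w i x) : chm h i = chm h' i := by
  ext E hE
  rw [chm_apply h i hE, chm_apply h' i hE]
  refine setLIntegral_congr_fun (meas_inter i hE) fun y hy => ?_
  show ENNReal.ofReal _ = ENNReal.ofReal _
  rw [H _ (sg_mem hy.1)]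

variable [Countable A.ι]

theorem vm_congr {h h' : HM (KB A)⁻¹} (H : ∀ i, ∀ x ∈ (A.e i).source, h.w i x = h'.w i x) :
    vm h = vm h' := by
  apply ext_vm
  intro i
  rw [vm_restrict]
  exact chm_congr (H i)

theorem vm_ratio (h h' : HM (KB A)⁻¹) :
    vm h' = (vm h).withDensity (fun x => ENNReal.ofReal (Real.exp (ratio h h' x))) := by
  have hsm : A.Sm (fun x => -ratio h h' x) := fun i => (sm_ratio h h' i).neg
  have h1 := vm_tw h (fun x => -ratio h h' x) hsm
  simp only [neg_neg] at h1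
  rw [← h1]
  apply vm_congr
  intro i x hx
  have h2 : (tw h (fun x => -ratio h h' x) hsm).w i x =
      h.w i x * Real.exp (-(-ratio h h' x)) := rfl
  rw [h2, w_ratio h h' hx, neg_neg, mul_comm]

/-- integration against a smaller volume form -/
theorem lint_vm_le (h h' : HM (KB A)⁻¹) {τ : M → ℝ}
    (H : ∀ x, ∃ i, x ∈ (A.e i).source ∧ h.w i x * τ x ≤ h'.w i x) :
    ∫⁻ x, ENNReal.ofReal (τ x) ∂(vm h) ≤ vm h' univ := by
  rw [vm_ratio h h', withDensity_apply _ MeasurableSet.univ, Measure.restrict_univ]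
  refine lintegral_mono fun x => ENNReal.ofReal_le_ofReal ?_
  obtain ⟨i, hi, h1⟩ := H x
  rw [w_ratio h h' hi, mul_comm] at h1
  exact le_of_mul_le_mul_right h1 (h.pos i x hi)

theorem vm_mono (h h' : HM (KB A)⁻¹) (H : ∀ x, ∃ i, x ∈ (A.e i).source ∧ h.w i x ≤ h'.w i x) :
    vm h univ ≤ vm h' univ := by
  have h1 := lint_vm_le h h' (τ := fun _ => 1) fun x => by
    obtain ⟨i, hi, h2⟩ := H x
    exact ⟨i, hi, by rwa [mul_one]⟩
  simpa using h1

end Cmp

/-! ### linear algebra -/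

theorem det_ge {n : ℕ} {G S : Matrix (Fin n) (Fin n) ℂ} (hG : G.PosDef) (hS : S.PosSemidef)
    {t : ℝ} (ht : 0 ≤ t) :
    G.det.re * (1 + t * ((G⁻¹ * S).trace).re) ≤ ((G + (t : ℂ) • S).det).re := by
  have h1 := MassA_5.det_add_ge hG hS ht
  have h2 : ((G.adjugate * S).trace).re = G.det.re * ((G⁻¹ * S).trace).re := by
    have h3 : G.adjugate = G.det • G⁻¹ := by
      rw [Matrix.inv_def, smul_smul, Ring.inverse_eq_inv', mul_inv_cancel₀ hG.det_pos.ne', one_smul]
    have h4 : G.det = ((G.det.re : ℝ) : ℂ) := (det_real hG.1).symm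
    rw [h3, Matrix.smul_mul, Matrix.trace_smul, smul_eq_mul]
    rw [h4, Complex.re_ofReal_mul, Complex.ofReal_re]
  rw [h2] at h1
  linarith

/-! ### total mass -/

section Tot

variable {n : ℕ} {M : Type} [TopologicalSpace M] {A : Atl n M} {L : LB A}
  [T2Space M] [CompactSpace M] [MeasurableSpace M] [BorelSpace M] [Finite A.ι]

theorem vm_univ_eq (P : Part A) (K : Kah A) :
    vm (volK K) univ = ENNReal.ofReal ((totc P (fun i x => (K.g i x).det)).re) := by
  let _ := Fintype.ofFinite A.ι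
  have h1 := int_dtM P (volK K) (tf_kah K)
  have h2 : ∀ x, dtM (volK K) K.g x = 1 := by
    intro x
    have hx := mem_ch A x
    show (K.g (ch A x) x).det.re / (volK K).w (ch A x) x = 1
    exact div_self ((volK K).pos _ x hx).ne'
  simp only [h2] at h1
  have h3 := isFinite_vm (volK K)
  rw [integral_const, smul_eq_mul, mul_one] at h1
  rw [← h1, Measure.real, ENNReal.ofReal_toReal (measure_ne_top _ _)]

/-- the bound of the total determinants (`Vol_847.vol_le'`) -/
def VolB (P : Part A) (K : Kah A) (L : LB A) (p : ℕ) (C : ℝ) : Prop :=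
  0 ≤ C ∧ ∀ (h : HM L) (s t : ℝ) (u : M → ℝ), A.Sm u → 0 ≤ s → 0 ≤ t →
    (totc P (fun i x => ((s : ℂ) • K.g i x + (t : ℂ) • cur h i x + hsf A u i x).det)).re ≤
      C * s ^ p * (s + t) ^ p

variable {P : Part A} {K : Kah A} {p : ℕ} {C : ℝ} {m k : ℕ} {s : Fin (m + 1) → A.ι → M → ℂ}

theorem mass_Kd (hV : VolB P K L p C) (h : HM L) {e R : ℝ} (he : 0 ≤ e) (hR : 0 ≤ R) (hR1 : 1 ≤ R)
    (heR : e * R ≤ 1)
    (hp : ∀ i, ∀ x ∈ (A.e i).source, (cur h i x + (e : ℂ) • K.g i x).PosSemidef)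
    (hs : ∀ a, IsHS (L ^ k) univ (s a)) {δ : ℝ} (hδ : 0 < δ) :
    vm (volK (Kd K h he hR hp hs δ)) univ ≤
      ENNReal.ofReal (C * (1 + 3 * k) ^ p * ((1 + 5 * k) * R) ^ p) := by
  rw [vm_univ_eq P]
  refine ENNReal.ofReal_le_ofReal ?_
  have h1 : (fun i x => ((Kd K h he hR hp hs δ).g i x).det) =
      fun i x => (((1 + 3 * k * e * R : ℝ) : ℂ) • K.g i x + ((2 * k * R : ℝ) : ℂ) • cur h i x +
        hsf A (fun y => R * Real.log (nrm (pow h k) (sd s δ) y + δ ^ 2)) i x).det := by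
    rw [Kd_g K h he hR hp hs hδ]
    rfl
  rw [h1]
  have hk : (0 : ℝ) ≤ k := Nat.cast_nonneg k
  have h2 := hV.2 h (1 + 3 * k * e * R) (2 * k * R) _ (sm_Rlog h R hs hδ) (by positivity)
    (by positivity)
  refine h2.trans ?_
  have h3 : 1 + 3 * k * e * R ≤ 1 + 3 * (k : ℝ) := by
    nlinarith [mul_le_mul_of_nonneg_left heR hk]
  have h4 : 1 + 3 * k * e * R + 2 * k * R ≤ (1 + 5 * (k : ℝ)) * R := by
    nlinarith [mul_nonneg hk (sub_nonneg.2 hR1)]
  have h5 : (0 : ℝ) ≤ 1 + 3 * k * e * R := by positivity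
  have h6 : (0 : ℝ) ≤ 1 + 3 * k * e * R + 2 * k * R := by positivity
  have hC := hV.1
  gcongr

end Tot

/-! ### the mass of a leaf -/

/-- the constant -/
def CM (C : ℝ) (k m : ℕ) : ℝ :=
  C * (1 + 3 * k) ^ m * (1 + 5 * k) ^ m * 8 ^ m * 2 / (volume (bl m 1)).toReal

theorem CM_nonneg {C : ℝ} (hC : 0 ≤ C) (k m : ℕ) : 0 ≤ CM C k m := by
  unfold CM
  positivity

section Leaf

variable {d m k : ℕ} {M : Type} [TopologicalSpace M] {A : Atl (d + m) M} {L : LB A}
  [T2Space M] [CompactSpace M] [MeasurableSpace M] [BorelSpace M] [Finite A.ι]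
  {P : Part A} {K : Kah A} {C : ℝ} {s : Fin (m + 1) → A.ι → M → ℂ}
  {T : Type} [TopologicalSpace T] [T2Space T] [MeasurableSpace T] [BorelSpace T]
  {B : Atl d T} [Countable B.ι] {jj : T → M}

theorem mass_be (hV : VolB P K L m C) (h : HM L) {e R : ℝ} (he : 0 ≤ e) (hR : 0 ≤ R)
    (hR1 : 1 ≤ R) (heR : e * R ≤ 1)
    (hp : ∀ i, ∀ x ∈ (A.e i).source, (cur h i x + (e : ℂ) • K.g i x).PosSemidef)
    (hs : ∀ a, IsHS (L ^ k) univ (s a)) (hpc : PCs A (U0 s) (qf s) B jj) (cj : Continuous jj)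
    (inj : Injective jj) (hol : HolMap B A jj) (imm : Imm B A jj) :
    vm (volK (pullI (be K h he hR hp k) hol imm)) univ ≤ ENNReal.ofReal (CM C k m) := by
  have : LocallyCompactSpace T := Lf_703.locallyCompact (fam B)
  have : SecondCountableTopology T := Lf_703.secondCountable_of_atl B
  have := isLocallyFinite_vm (volK (pullI (be K h he hR hp k) hol imm))
  have hRp : 0 < R := by linarith
  have hv0 := OmG2_467.volume_bl_pos m (δ := 1) one_pos
  have hv1 := OmG2_467.volume_bl_lt_top m 1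
  have hloc := loc hpc cj (fun i x hx hi => LfS_901.hf_qf hs x hx i hi) hol imm
    (be K h he hR hp k) (Kd K h he hR hp hs) (c := R / 8) (by positivity)
    (hlow K h he hR hp hs)
  have hC : ∀ᶠ δ in 𝓝[>] (0 : ℝ), vm (volK (Kd K h he hR hp hs δ)) univ ≤
      ENNReal.ofReal (C * (1 + 3 * k) ^ m * ((1 + 5 * k) * R) ^ m) := by
    filter_upwards [self_mem_nhdsWithin] with δ hδ
    exact mass_Kd hV h he hR hR1 heR hp hs hδ
  have hgl := OmG_467.gl (vm (volK (pullI (be K h he hR hp k) hol imm))) cj inj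
    (fun δ => vm (volK (Kd K h he hR hp hs δ))) hC hloc
  set μ := vm (volK (pullI (be K h he hR hp k) hol imm)) univ with hμ
  set v : ℝ := (volume (bl m 1)).toReal with hv
  have hvp : 0 < v := ENNReal.toReal_pos hv0.ne' hv1.ne
  have hc : ENNReal.ofReal ((R / 8) ^ m / 2) * volume (bl m 1) =
      ENNReal.ofReal ((R / 8) ^ m / 2 * v) := by
    rw [ENNReal.ofReal_mul (by positivity), hv, ENNReal.ofReal_toReal hv1.ne]
  rw [hc] at hgl
  have hc0 : 0 < (R / 8) ^ m / 2 * v := by positivity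
  have h2 : μ ≤ ENNReal.ofReal (C * (1 + 3 * k) ^ m * ((1 + 5 * k) * R) ^ m) /
      ENNReal.ofReal ((R / 8) ^ m / 2 * v) := by
    rw [ENNReal.le_div_iff_mul_le (Or.inl (ENNReal.ofReal_pos.2 hc0).ne')
      (Or.inl ENNReal.ofReal_ne_top), mul_comm]
    exact hgl
  rw [← ENNReal.ofReal_div_of_pos hc0] at h2
  refine h2.trans (le_of_eq ?_)
  congr 1
  unfold CM
  rw [← hv, mul_pow, div_pow]
  have hR0 : R ^ m ≠ 0 := by positivity
  field_simp

/-- **the mass bounds**: `∫_T (1 + R k tr (cur h + 2 e K)) ≤ CM` -/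
theorem lint_tr (hV : VolB P K L m C) (h : HM L) {e R : ℝ} (he : 0 ≤ e)
    (hR1 : 1 ≤ R) (heR : e * R ≤ 1)
    (hp : ∀ i, ∀ x ∈ (A.e i).source, (cur h i x + (e : ℂ) • K.g i x).PosSemidef)
    (hs : ∀ a, IsHS (L ^ k) univ (s a)) (hpc : PCs A (U0 s) (qf s) B jj) (cj : Continuous jj)
    (inj : Injective jj) (hol : HolMap B A jj) (imm : Imm B A jj) :
    ∫⁻ t, ENNReal.ofReal (1 + R * k * ((((pullI K hol imm).g (ch B t) t)⁻¹ *
      ((Jp B A jj (ch B t) (ch A (jj t)) t)ᵀ *
        (cur h (ch A (jj t)) (jj t) + ((2 * e : ℝ) : ℂ) • K.g (ch A (jj t)) (jj t)) *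
        (Jp B A jj (ch B t) (ch A (jj t)) t).map conj)).trace).re)
      ∂(vm (volK (pullI K hol imm))) ≤ ENNReal.ofReal (CM C k m) := by
  have hR : 0 ≤ R := by linarith
  refine le_trans ?_ (mass_be hV h he hR hR1 heR hp hs hpc cj inj hol imm)
  refine lint_vm_le _ _ fun t => ⟨ch B t, mem_ch B t, ?_⟩
  have hi := mem_ch A (jj t)
  have hj := mem_ch B t
  set J := Jp B A jj (ch B t) (ch A (jj t)) t with hJ
  have hJs : (J.map conj)ᴴ = Jᵀ := by
    ext a b
    simp [Matrix.conjTranspose_apply]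
  set S := cur h (ch A (jj t)) (jj t) + ((2 * e : ℝ) : ℂ) • K.g (ch A (jj t)) (jj t) with hS
  have hS0 : (Jᵀ * S * J.map conj).PosSemidef := by
    have := (psd_two K h he hp hi).conjTranspose_mul_mul_same (J.map conj)
    rwa [hJs] at this
  have e1 : (volK (pullI (be K h he hR hp k) hol imm)).w (ch B t) t =
      ((pullI K hol imm).g (ch B t) t + ((R * k : ℝ) : ℂ) • (Jᵀ * S * J.map conj)).det.re := by
    show ((pullI (be K h he hR hp k) hol imm).g (ch B t) t).det.re = _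
    rw [pullI_g (be K h he hR hp k) hol imm hj hi, pullI_g K hol imm hj hi]
    have e2 : (be K h he hR hp k).g (ch A (jj t)) (jj t) = K.g (ch A (jj t)) (jj t) +
        ((R * k : ℝ) : ℂ) • S := beG_eq K h k _ _
    rw [e2, Matrix.mul_add, Matrix.add_mul, Matrix.mul_smul, Matrix.smul_mul]
  rw [e1]
  exact det_ge ((pullI K hol imm).pos _ t hj) hS0 (by positivity)

end Leaf

end

end Crest.Agent.R281.OmM_980
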