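import Crest.Agent.R281.OmM3_980
import Crest.Agent.R281.Lf4_703

/-!
# R281 (S0424), OM-MASS (helper980), part 4: the output

`A : Atl N M`, `N = d + m`, `s_0, …, s_m` sections of `L^k`, `T` a leaf over the value
`[1 : 0 : … : 0]` (helper703).
* `M1 K L C0 …` : the volumes of all leaves are bounded by one constant
* `m1`          : (M1), uniform over all leaves
* `m2`          : (M2), `∫_T tr (cur h' + 2 e K) ≤ μ` for `e < e0(μ)`, uniform over all leaves
-/

set_option autoImplicit false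
set_option linter.unusedSectionVars false

open Set Filter Topology Complex MeasureTheory Function
open scoped ContDiff Matrix ComplexConjugate ComplexOrder ENNReal

namespace Crest.Agent.R281.OmM_980

open Crest.Agent.R275 Crest.Agent.R275.Geo Crest.Agent.R275.Core144 Crest.Agent.R275.EDR890
open Crest.Agent.R273.Defs_333 Crest.Agent.R273.Hess_333 Crest.Agent.R273.HessB_333
open Crest.Agent.R273.HM_333 Crest.Agent.R273.Kah_333 Crest.Agent.R273.Vol_333
open Crest.Agent.R273.Vm_333 Crest.Agent.R273.Map_835 Crest.Agent.R273.KahI_645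
open Crest.Agent.R273.StV_37 Crest.Agent.R273.Fam_835 Crest.Agent.R272.FamP_54
open Crest.Agent.R273.Green_5 Crest.Agent.R273.FIa0_597 Crest.Agent.R273.FIb0_597
open Crest.Agent.R273
open Crest.Agent.R281.LfS_901 (U0 qf)
open Crest.Agent.R281.S6D_664 Crest.Agent.R281.Om_854 Crest.Agent.R281.Lf_703
open Crest.Agent.R281.Defs_273 (NefW)

noncomputable section

/-! ### 703's product charts -/

section pcs

variable {d m : ℕ} {M : Type} [TopologicalSpace M] {A : Atl (d + m) M} {O X0 : Set M}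

theorem pcs_of (T : Lf A d O) {f : M → Cn m} (pc : PC T X0 f 0) (hz : ∀ v, f (T.i v) = 0) :
    PCs A X0 f T.B T.i := by
  intro k
  refine ⟨pc.G k, pc.sub k, fun i p hp hi => (pc.cpt k).hol' i p hp hi,
    fun i x hx hi => (pc.cpt k).hol x hx i hi, pc.snd k, fun z hzt => ?_⟩
  have h1 : (z, (0 : Cn m)) ∈ (pc.G k).target := by
    rw [pc.tgt k]
    exact ⟨hzt, Metric.mem_ball_self (pc.hr k)⟩
  refine ⟨h1, ?_⟩
  set v := (T.B.e k).symm z with hv
  have hvs : v ∈ (T.B.e k).source := (T.B.e k).map_target hzt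
  have h2 : T.i v ∈ (pc.G k).source := (pc.src k v).1 hvs
  have h3 : pc.G k (T.i v) = (z, 0) := by
    refine Prod.ext ?_ ?_
    · rw [pc.fst k v hvs, hv, (T.B.e k).right_inv hzt]
    · rw [pc.snd k _ h2, hz]
  rw [← h3, (pc.G k).left_inv h2]

end pcs

section out

variable {N d m k : ℕ} {M : Type} [TopologicalSpace M] {A : Atl N M} {L : LB A}
  [T2Space M] [CompactSpace M] [MeasurableSpace M] [BorelSpace M] [Finite A.ι]
  {P : Part A} {K : Kah A} {C : ℝ} {s : Fin (m + 1) → A.ι → M → ℂ} {O : Set M}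

/-- the trace of `cur h` along the leaf -/
def trT (K : Kah A) {T : Type} [TopologicalSpace T] {B : Atl d T} {f : T → M} (hol : HolMap B A f)
    (imm : Imm B A f) (h : HM L) (t : T) : ℝ :=
  ((((pullI K hol imm).g (ch B t) t)⁻¹ *
    ((Jp B A f (ch B t) (ch A (f t)) t)ᵀ * cur h (ch A (f t)) (f t) *
      (Jp B A f (ch B t) (ch A (f t)) t).map conj)).trace).re

theorem trT_add (K : Kah A) {T : Type} [TopologicalSpace T] {B : Atl d T} {f : T → M}
    (hol : HolMap B A f) (imm : Imm B A f) (h : HM L) (e : ℝ) (t : T) :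
    ((((pullI K hol imm).g (ch B t) t)⁻¹ *
      ((Jp B A f (ch B t) (ch A (f t)) t)ᵀ *
        (cur h (ch A (f t)) (f t) + ((2 * e : ℝ) : ℂ) • K.g (ch A (f t)) (f t)) *
        (Jp B A f (ch B t) (ch A (f t)) t).map conj)).trace).re =
      trT K hol imm h t + 2 * e * d := by
  have hi := mem_ch A (f t)
  have hj := mem_ch B t
  have h2 := pullI_g K hol imm hj hi
  have h3 := (pullI K hol imm).pos _ t hj
  set J := Jp B A f (ch B t) (ch A (f t)) t with hJ
  have h6 : Jᵀ * (cur h (ch A (f t)) (f t) + ((2 * e : ℝ) : ℂ) • K.g (ch A (f t)) (f t)) *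
      J.map conj = Jᵀ * cur h (ch A (f t)) (f t) * J.map conj +
        ((2 * e : ℝ) : ℂ) • (pullI K hol imm).g (ch B t) t := by
    rw [h2, Matrix.mul_add, Matrix.add_mul, Matrix.mul_smul, Matrix.smul_mul]
  rw [h6, Matrix.mul_add, Matrix.trace_add, Matrix.mul_smul, Matrix.trace_smul, tr_self h3,
    Complex.add_re, smul_eq_mul, Complex.re_ofReal_mul, Complex.natCast_re]
  rfl

theorem trT_nonneg (K : Kah A) {T : Type} [TopologicalSpace T] {B : Atl d T} {f : T → M}
    (hol : HolMap B A f) (imm : Imm B A f) (h : HM L) {e : ℝ} (he : 0 ≤ e)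
    (hp : ∀ i, ∀ x ∈ (A.e i).source, (cur h i x + (e : ℂ) • K.g i x).PosSemidef) (t : T) :
    0 ≤ trT K hol imm h t + 2 * e * d := by
  rw [← trT_add]
  have hi := mem_ch A (f t)
  set J := Jp B A f (ch B t) (ch A (f t)) t with hJ
  have hJs : (J.map conj)ᴴ = Jᵀ := by
    ext a b
    simp [Matrix.conjTranspose_apply]
  refine tr_re_nonneg ((pullI K hol imm).pos _ t (mem_ch B t)) ?_
  have := (psd_two K h he hp hi).conjTranspose_mul_mul_same (J.map conj)
  rwa [hJs] at this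

/-- the inequality for one leaf -/
theorem lint_leaf (hN : N = d + m) (hV : VolB P K L m C) (h : HM L) {e R : ℝ} (he : 0 ≤ e)
    (hR1 : 1 ≤ R) (heR : e * R ≤ 1)
    (hp : ∀ i, ∀ x ∈ (A.e i).source, (cur h i x + (e : ℂ) • K.g i x).PosSemidef)
    (hs : ∀ a, IsHS (L ^ k) univ (s a)) (T : Lf A d O) (pc : PC T (U0 s) (qf s) 0)
    (hz : ∀ v, qf s (T.i v) = 0) [MeasurableSpace T.V] [BorelSpace T.V] :
    ∫⁻ t, ENNReal.ofReal (1 + R * k * (trT K T.hol T.imm h t + 2 * e * d))
      ∂(vm (volK (pullI K T.hol T.imm))) ≤ ENNReal.ofReal (CM C k m) := by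
  subst hN
  have h1 := lint_tr hV h he hR1 heR hp hs (pcs_of T pc hz) T.ind.continuous T.inj T.hol T.imm
  simp only [trT_add] at h1
  exact h1

/-- **(M1)** for one leaf, with a constant which depends only on `C`, `k`, `m` -/
theorem m1_leaf (hN : N = d + m) (hV : VolB P K L m C) (hnef : NefW K L)
    (hs : ∀ a, IsHS (L ^ k) univ (s a)) (T : Lf A d O) (pc : PC T (U0 s) (qf s) 0)
    (hz : ∀ v, qf s (T.i v) = 0) [MeasurableSpace T.V] [BorelSpace T.V] :
    vm (volK (pullI K T.hol T.imm)) univ ≤ ENNReal.ofReal (CM C k m) := by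
  obtain ⟨h, hp⟩ := hnef 1 one_pos
  have h1 := lint_leaf hN hV h (e := 1) (R := 1) zero_le_one le_rfl (by norm_num) hp hs T pc hz
  refine le_trans ?_ h1
  have h2 : vm (volK (pullI K T.hol T.imm)) univ =
      ∫⁻ _, ENNReal.ofReal 1 ∂(vm (volK (pullI K T.hol T.imm))) := by simp
  rw [h2]
  refine lintegral_mono fun t => ENNReal.ofReal_le_ofReal ?_
  have h3 := trT_nonneg K T.hol T.imm h zero_le_one hp t
  have h4 : 0 ≤ 1 * (k : ℝ) * (trT K T.hol T.imm h t + 2 * 1 * d) := by positivity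
  linarith

/-- **(M2)** for one leaf -/
theorem m2_leaf (hN : N = d + m) (hV : VolB P K L m C) (h : HM L) {e R : ℝ} (he : 0 ≤ e)
    (hR1 : 1 ≤ R) (heR : e * R ≤ 1) (hk : 0 < k)
    (hp : ∀ i, ∀ x ∈ (A.e i).source, (cur h i x + (e : ℂ) • K.g i x).PosSemidef)
    (hs : ∀ a, IsHS (L ^ k) univ (s a)) (T : Lf A d O) (pc : PC T (U0 s) (qf s) 0)
    (hz : ∀ v, qf s (T.i v) = 0) [MeasurableSpace T.V] [BorelSpace T.V] :
    ∫ t, (trT K T.hol T.imm h t + 2 * e * d) ∂(vm (volK (pullI K T.hol T.imm))) ≤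
      CM C k m / (R * k) := by
  have hC := CM_nonneg hV.1 k m
  have hk' : (0 : ℝ) < k := by exact_mod_cast hk
  have hRk : 0 < R * k := by positivity
  set g : T.V → ℝ := fun t => trT K T.hol T.imm h t + 2 * e * d with hg
  have hg0 : ∀ t, 0 ≤ g t := trT_nonneg K T.hol T.imm h he hp
  set μ := vm (volK (pullI K T.hol T.imm)) with hμ
  show ∫ t, g t ∂μ ≤ _
  by_cases hint : Integrable g μ
  · have h1 := lint_leaf hN hV h he hR1 heR hp hs T pc hz
    have h2 : ENNReal.ofReal (R * k) * ∫⁻ t, ENNReal.ofReal (g t) ∂μ ≤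
        ENNReal.ofReal (CM C k m) := by
      rw [← lintegral_const_mul' _ _ ENNReal.ofReal_ne_top]
      refine le_trans (lintegral_mono fun t => ?_) h1
      show ENNReal.ofReal (R * k) * ENNReal.ofReal (g t) ≤ ENNReal.ofReal (1 + R * k * g t)
      rw [← ENNReal.ofReal_mul hRk.le]
      exact ENNReal.ofReal_le_ofReal (by linarith)
    have h3 : ∫⁻ t, ENNReal.ofReal (g t) ∂μ ≤ ENNReal.ofReal (CM C k m / (R * k)) := by
      rw [ENNReal.ofReal_div_of_pos hRk, ENNReal.le_div_iff_mul_le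
        (Or.inl (ENNReal.ofReal_pos.2 hRk).ne') (Or.inl ENNReal.ofReal_ne_top), mul_comm]
      exact h2
    rw [integral_eq_lintegral_of_nonneg_ae (Eventually.of_forall hg0) hint.1]
    refine ENNReal.toReal_le_of_le_ofReal (by positivity) h3
  · rw [integral_undef hint]
    positivity

/-- **(M1)**: one constant for all leaves of all sections of `L^k` -/
theorem m1 (hN : N = d + m) (hV : VolB P K L m C) (hnef : NefW K L) (k : ℕ) :
    ∃ v : ℝ, 0 ≤ v ∧ ∀ (s : Fin (m + 1) → A.ι → M → ℂ), (∀ a, IsHS (L ^ k) univ (s a)) →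
      ∀ (O : Set M) (T : Lf A d O) (_ : PC T (U0 s) (qf s) 0), (∀ v, qf s (T.i v) = 0) →
      ∀ [MeasurableSpace T.V] [BorelSpace T.V],
        vm (volK (pullI K T.hol T.imm)) univ ≤ ENNReal.ofReal v :=
  ⟨CM C k m, CM_nonneg hV.1 k m, fun _ hs _ T pc hz _ _ => m1_leaf hN hV hnef hs T pc hz⟩

/-- **(M2)**: uniform over all leaves of all sections of `L^k` -/
theorem m2 (hN : N = d + m) (hV : VolB P K L m C) {k : ℕ} (hk : 0 < k) {μ : ℝ} (hμ : 0 < μ) :
    ∃ e0 : ℝ, 0 < e0 ∧ ∀ e : ℝ, 0 < e → e < e0 → ∀ h : HM L,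
      (∀ i, ∀ x ∈ (A.e i).source, (cur h i x + (e : ℂ) • K.g i x).PosSemidef) →
      ∀ (s : Fin (m + 1) → A.ι → M → ℂ), (∀ a, IsHS (L ^ k) univ (s a)) →
      ∀ (O : Set M) (T : Lf A d O) (_ : PC T (U0 s) (qf s) 0), (∀ v, qf s (T.i v) = 0) →
      ∀ [MeasurableSpace T.V] [BorelSpace T.V],
        ∫ t, (trT K T.hol T.imm h t + 2 * e * d) ∂(vm (volK (pullI K T.hol T.imm))) ≤ μ := by
  have hC := CM_nonneg hV.1 k m
  have hk' : (0 : ℝ) < k := by exact_mod_cast hk
  set R : ℝ := max 1 (CM C k m / (k * μ)) with hR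
  have hR1 : 1 ≤ R := le_max_left _ _
  have hRp : 0 < R := by linarith
  refine ⟨1 / R, by positivity, fun e he he0 h hp s hs O T pc hz _ _ => ?_⟩
  have heR : e * R ≤ 1 := by
    rw [lt_div_iff₀ hRp] at he0
    exact he0.le
  refine (m2_leaf hN hV h he.le hR1 heR hk hp hs T pc hz).trans ?_
  have h1 : CM C k m / (k * μ) ≤ R := le_max_right _ _
  rw [div_le_iff₀ (by positivity)] at h1 ⊢
  linarith

end out

end

end Crest.Agent.R281.OmM_980
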