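import Crest.Agent.R281.OmM5_980
import Crest.Agent.R281.Om6_854
import Crest.Agent.R281.OmH5_331

/-!
# R281 (S0424), OM-MASS (helper980), part 6: 854's Prop `MassP`, and compactness of the leaves

* `massP`    : `MassP K L k n n` for `L` nef and isotropic
* `compact_lf_u` : the leaves over regular values are compact, no hypothesis left
-/

set_option autoImplicit false
set_option linter.unusedSectionVars false

open Set Filter Topology Complex MeasureTheory Function
open scoped ContDiff Matrix ComplexConjugate ComplexOrder ENNReal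

namespace Crest.Agent.R281.OmM_980

open Crest.Agent.R275 Crest.Agent.R275.Geo Crest.Agent.R275.Core144
open Crest.Agent.R273.Defs_333 Crest.Agent.R273.HM_333 Crest.Agent.R273.Kah_333
open Crest.Agent.R273.Vol_333 Crest.Agent.R273.Vm_333 Crest.Agent.R273.KahI_645
open Crest.Agent.R281.LfS_901 (U0 qf)
open Crest.Agent.R281.Lf_703
open Crest.Agent.R281.Defs_273 (HSymp NefW Isotropic)
open Crest.Agent.R281.Om_854 (MassP compact_lf)

noncomputable section

variable {n : ℕ} {M : Type} [TopologicalSpace M] [T2Space M] [CompactSpace M] [ConnectedSpace M]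
  {A : Atl (2 * n) M} {L : LB A} [Finite A.ι] (P : Part A) (K : Kah A) (σ : HSymp A)

/-- **(M1) + (M2) in 854's form** -/
theorem massP (hu : σ.Uniq) (hn : 1 ≤ n) (hL : NefW K L) (hiso : Isotropic P σ L) {k : ℕ}
    (hk : 0 < k) : MassP K L k n n := by
  let _ : MeasurableSpace M := borel M
  have : BorelSpace M := ⟨rfl⟩
  intro s hs T pc hz _ _
  obtain ⟨v, hv, h1⟩ := M1 P K σ hu hn hL hiso k
  refine ⟨(h1 s hs _ T pc hz).trans_lt ENNReal.ofReal_lt_top, fun μ hμ => ?_⟩
  obtain ⟨e0, he0, h2⟩ := M2 P K σ hu hn hL hiso hk hμ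
  exact ⟨e0, he0, fun e he hee h' hp => h2 e he hee h' hp s hs _ T pc hz⟩

/-- **the leaves over regular values are compact** -/
theorem compact_lf_u (hu : σ.Uniq) (hn : 1 ≤ n) (hL : NefW K L) (hiso : Isotropic P σ L) {k : ℕ}
    (hk : 0 < k) (s : Fin (n + 1) → A.ι → M → ℂ) (hs : ∀ a, IsHS (L ^ k) univ (s a))
    (T : Lf A n (U0 s)) (G : PC T (U0 s) (qf s) 0) (hfy : ∀ v, qf s (T.i v) = 0) :
    CompactSpace T.V := by
  obtain ⟨h, -⟩ := hL 1 one_pos
  obtain ⟨c1, hc1, hlow⟩ := Har_331.lowP_of K (pow h k) (d := n) hn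
  exact compact_lf K hL hk (massP P K σ hu hn hL hiso hk) h hc1 hlow s hs T G hfy

end

end Crest.Agent.R281.OmM_980
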