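import Crest.Agent.R281.D6y_986
import Crest.Agent.R281.Om8_854
import Crest.Agent.R281.OmH5_331

/-!
# R281 (S0424), division 6 (helper980): the nodes `LowStmt` and `OmStmt` of helper986
-/

set_option autoImplicit false
set_option linter.unusedSectionVars false

open Set Filter Topology Complex

namespace Crest.Agent.R281.OmM_980

open Crest.Agent.R281.D6_986

theorem lowStmt : LowStmt := by
  intro n M _ _ _ _ A _ hn _ K L h
  obtain ⟨c1, hc1, H⟩ := Har_331.lowP_of K h (d := n) hn
  exact ⟨c1, hc1, H.low⟩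

theorem omStmt : OmStmt := by
  intro n M _ _ _ _ A _ hn _ P K σ hu _ L hL hiso hR
  obtain ⟨k, hk, s, hs, i, x, hx⟩ := hR
  obtain ⟨o, -⟩ := Om_854.omega P K σ hu hn hL hiso hk hs hx
  exact ⟨o⟩

end Crest.Agent.R281.OmM_980
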