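import Crest.Agent.R281.Om1_854
import Crest.Agent.R281.Lf3_703

/-!
# R281 (S0424), S6-OMEGA (helper467), (TR): transport of the volume of a leaf

* `holMap_lift`  : the lift of a holomorphic map through an immersion is holomorphic;
* `isOpenMap_lift` : the lift of an immersion of the same dimension is open;
* `vm_transport` : two injective immersions `f`, `g` (complex dimension `d`) with the same image,
  `f` inducing, give the same volumes: `vm (volK (f^* K)) (f⁻¹ S) = vm (volK (g^* K)) (g⁻¹ S)`;
* `vm_transport_univ`, `fam_mu_eq` (a compact leaf as a `Fam A d 0 univ` and as a leaf `Lf`).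
-/

set_option autoImplicit false
set_option linter.unusedSectionVars false

open Set Filter Topology Complex MeasureTheory Function
open scoped ContDiff Matrix ComplexConjugate Manifold ComplexOrder ENNReal

namespace Crest.Agent.R281.OmT_467

open Crest.Agent.R275.Geo Crest.Agent.R275.Core144 Crest.Agent.R275.EDR890
open Crest.Agent.R273.Defs_333 Crest.Agent.R273.Hess_333 Crest.Agent.R273.HessB_333
open Crest.Agent.R273.HM_333 Crest.Agent.R273.Kah_333 Crest.Agent.R273.Vol_333
open Crest.Agent.R273.Vm_333 Crest.Agent.R273.Map_835 Crest.Agent.R273.KahI_645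
open Crest.Agent.R275.Pai323 Crest.Agent.R275.C1d194 Crest.Agent.R273
open Crest.Agent.R281.Om_854
open Crest.Agent.R281.S6D_664 (Imm)

noncomputable section

variable {N d e : ℕ} {M V W : Type} [TopologicalSpace M] [TopologicalSpace V]
  [TopologicalSpace W] {A : Atl N M} {B : Atl d V} {f : V → M} {g : W → M} {ψ : W → V}

/-- **lift of a holomorphic map through an immersion** -/
theorem holMap_lift {C : Atl e W} (hf : HolMap B A f) (imm : Imm B A f) (hg : HolMap C A g)
    (hψ : Continuous ψ) (he : ∀ w, f (ψ w) = g w) : HolMap C B ψ := by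
  refine ⟨hψ, fun k j => ?_⟩
  rintro z ⟨hz, hzj⟩
  set w0 := (C.e k).symm z with hw0
  have hw0k : w0 ∈ (C.e k).source := (C.e k).map_target hz
  have hvj : ψ w0 ∈ (B.e j).source := hzj
  obtain ⟨i, hi⟩ := A.cover (f (ψ w0))
  have hdm := mem_dm (A := B) (B := A) (p := f) hvj hi
  have hst : HasStrictFDerivAt (rd B A f j i) (fderiv ℂ (rd B A f j i) (B.e j (ψ w0)))
      (B.e j (ψ w0)) := (hf.analyticAt hdm).hasStrictFDerivAt
  set D := fderiv ℂ (rd B A f j i) (B.e j (ψ w0)) with hD
  have hDi : Injective D := imm j i _ hvj hi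
  obtain ⟨T0, hT0⟩ := (D : Cn d →ₗ[ℂ] Cn N).exists_leftInverse_of_injective
    (LinearMap.ker_eq_bot.2 hDi)
  set T : Cn N →L[ℂ] Cn d := LinearMap.toContinuousLinearMap T0 with hT
  have hTD : T.comp D = ((ContinuousLinearEquiv.refl ℂ (Cn d)) : Cn d →L[ℂ] Cn d) := by
    ext1 v
    exact LinearMap.congr_fun hT0 v
  have hh : HasStrictFDerivAt (fun x => T (rd B A f j i x))
      ((ContinuousLinearEquiv.refl ℂ (Cn d)) : Cn d →L[ℂ] Cn d) (B.e j (ψ w0)) := by
    rw [← hTD]
    exact T.hasStrictFDerivAt.comp _ hst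
  set h := fun x => T (rd B A f j i x) with hhdef
  have hli := hh.eventually_left_inverse
  have hld := hh.to_localInverse
  -- continuity of the reading of ψ
  have hcz : ContinuousAt (fun z' => ψ ((C.e k).symm z')) z :=
    hψ.continuousAt.comp ((C.e k).continuousAt_symm hz)
  have hcB : ContinuousAt (fun z' => B.e j (ψ ((C.e k).symm z'))) z :=
    ContinuousAt.comp (g := B.e j) (f := fun z' => ψ ((C.e k).symm z'))
      ((B.e j).continuousAt hvj) hcz
  have hev : (fun z' => B.e j (ψ ((C.e k).symm z'))) =ᶠ[𝓝 z]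
      fun z' => hh.localInverse h _ _ (T (rd C A g k i z')) := by
    have h1 := hcB.eventually hli
    have h2 : ∀ᶠ z' in 𝓝 z, ψ ((C.e k).symm z') ∈ (B.e j).source :=
      hcz.eventually ((B.e j).open_source.mem_nhds hvj)
    filter_upwards [h1, h2] with z' h1 h2
    rw [← h1]
    congr 1
    simp only [hhdef, Map_835.rd]
    rw [(B.e j).left_inv h2, he]
  have hgd : DifferentiableAt ℂ (rd C A g k i) z := by
    refine hg.diffAt ⟨hz, ?_⟩
    show g ((C.e k).symm z) ∈ (A.e i).source
    rw [← he]
    exact hi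
  have hval : T (rd C A g k i z) = h (B.e j (ψ w0)) := by
    simp only [hhdef, Map_835.rd]
    rw [(B.e j).left_inv hvj, he]
  have hdi : DifferentiableAt ℂ (fun z' => hh.localInverse h _ _ (T (rd C A g k i z'))) z := by
    refine DifferentiableAt.comp (g := hh.localInverse h _ _) z ?_ (T.differentiableAt.comp z hgd)
    show DifferentiableAt ℂ _ (T (rd C A g k i z))
    rw [hval]
    exact hld.hasFDerivAt.differentiableAt
  exact (hdi.congr_of_eventuallyEq hev).differentiableWithinAt

/-- **the lift of an immersion of the same dimension is open** -/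
theorem isOpenMap_lift {C : Atl d W} (hf : HolMap B A f) (imm : Imm B A f) (hg : HolMap C A g)
    (immg : Imm C A g) (hψ : Continuous ψ) (he : ∀ w, f (ψ w) = g w) : IsOpenMap ψ := by
  have hh := holMap_lift hf imm hg hψ he
  rw [isOpenMap_iff_nhds_le]
  intro w0
  obtain ⟨k, hk⟩ := C.cover w0
  obtain ⟨j, hj⟩ := B.cover (ψ w0)
  obtain ⟨i, hi⟩ := A.cover (f (ψ w0))
  have hdm := mem_dm (A := C) (B := B) (p := ψ) hk hj
  have hst : HasStrictFDerivAt (rd C B ψ k j) (fderiv ℂ (rd C B ψ k j) (C.e k w0))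
      (C.e k w0) := (hh.analyticAt hdm).hasStrictFDerivAt
  have hval : rd C B ψ k j (C.e k w0) = B.e j (ψ w0) := by
    simp only [Map_835.rd]
    rw [(C.e k).left_inv hk]
  -- injectivity of the derivative
  have hinj : Injective (fderiv ℂ (rd C B ψ k j) (C.e k w0)) := by
    have hgi : g w0 ∈ (A.e i).source := by rw [← he]; exact hi
    have h1 := immg k i w0 hk hgi
    have h2 : rd C A g k i =ᶠ[𝓝 (C.e k w0)] (rd B A f j i) ∘ (rd C B ψ k j) := by
      filter_upwards [(hh.isOpen_dm k j).mem_nhds hdm] with z hz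
      simp only [Map_835.rd, Function.comp]
      rw [(B.e j).left_inv hz.2, he]
    have h3 : DifferentiableAt ℂ (rd B A f j i) (rd C B ψ k j (C.e k w0)) := by
      rw [hval]
      exact hf.diffAt (mem_dm hj hi)
    rw [h2.fderiv_eq, fderiv_comp _ h3 (hh.diffAt hdm)] at h1
    exact Injective.of_comp (f := fderiv ℂ (rd B A f j i) (rd C B ψ k j (C.e k w0))) h1
  have hsurj : LinearMap.range (fderiv ℂ (rd C B ψ k j) (C.e k w0) : Cn d →ₗ[ℂ] Cn d) = ⊤ :=
    LinearMap.range_eq_top.2 (LinearMap.surjective_of_injective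
      (f := (fderiv ℂ (rd C B ψ k j) (C.e k w0) : Cn d →ₗ[ℂ] Cn d)) hinj)
  have h1 := hst.map_nhds_eq_of_surj hsurj
  have h2 : map ψ (𝓝 w0) = map (fun w => (B.e j).symm (rd C B ψ k j (C.e k w))) (𝓝 w0) := by
    refine Filter.map_congr ?_
    have h3 : ∀ᶠ w in 𝓝 w0, ψ w ∈ (B.e j).source :=
      hψ.continuousAt.eventually ((B.e j).open_source.mem_nhds hj)
    filter_upwards [(C.e k).open_source.mem_nhds hk, h3] with w hw hw2
    simp only [Map_835.rd]
    rw [(C.e k).left_inv hw, (B.e j).left_inv hw2]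
  have h3 : map (fun w => (B.e j).symm (rd C B ψ k j (C.e k w))) (𝓝 w0) = 𝓝 (ψ w0) := by
    have e1 : (fun w => (B.e j).symm (rd C B ψ k j (C.e k w))) =
        (B.e j).symm ∘ (rd C B ψ k j) ∘ (C.e k) := rfl
    rw [e1, ← Filter.map_map, ← Filter.map_map, (C.e k).map_nhds_eq hk, h1, hval,
      (B.e j).symm_map_nhds_eq hj]
  rw [h2, h3]

section Meas

variable {C : Atl d W} [Countable B.ι] [Countable C.ι] [MeasurableSpace V] [BorelSpace V]
  [MeasurableSpace W] [BorelSpace W]

/-- the density -/
theorem w_lift (K : Kah A) (hf : HolMap B A f) (imm : Imm B A f) (hg : HolMap C A g)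
    (immg : Imm C A g) (hψ : HolMap C B ψ) (he : (fun w => f (ψ w)) = g) {k : C.ι} {j : B.ι}
    {w : W} (hk : w ∈ (C.e k).source) (hj : ψ w ∈ (B.e j).source) :
    (volK (pullI K hg immg)).w k w =
      ‖(Jp C B ψ k j w).det‖ ^ 2 * (volK (pullI K hf imm)).w j (ψ w) := by
  obtain ⟨i, hi⟩ := A.cover (f (ψ w))
  have hgi : g w ∈ (A.e i).source := by
    rw [← he]; exact hi
  show ((pullI K hg immg).g k w).det.re = _ * ((pullI K hf imm).g j (ψ w)).det.re
  have h1 : Jp C A g k i w = Jp B A f j i (ψ w) * Jp C B ψ k j w := by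
    rw [Jp_comp hf hψ hk hj hi, he]
  have hgw : g w = f (ψ w) := (congrFun he w).symm
  rw [pullI_g K hg immg hk hgi, pullI_g K hf imm hj hi, h1, hgw]
  set J := Jp C B ψ k j w
  set P := Jp B A f j i (ψ w)
  have h2 : (P * J)ᵀ * K.g i (f (ψ w)) * (P * J).map conj =
      Jᵀ * (Pᵀ * K.g i (f (ψ w)) * P.map conj) * J.map conj := by
    rw [Matrix.transpose_mul, Matrix.map_mul]
    simp only [Matrix.mul_assoc]
  have h3 : (J.map conj).det = conj J.det := by
    rw [← RingHom.mapMatrix_apply, ← RingHom.map_det]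
  rw [h2, Matrix.det_mul, Matrix.det_mul, Matrix.det_transpose, h3]
  have h4 : J.det * (Pᵀ * K.g i (f (ψ w)) * P.map conj).det * conj J.det =
      ((‖J.det‖ ^ 2 : ℝ) : ℂ) * (Pᵀ * K.g i (f (ψ w)) * P.map conj).det := by
    have h5 : ((‖J.det‖ ^ 2 : ℝ) : ℂ) = J.det * conj J.det := by
      rw [Complex.mul_conj, Complex.normSq_eq_norm_sq]
    rw [h5]; ring
  rw [h4, Complex.re_ofReal_mul]

/-- **transport of the measure, homeomorphism form** -/
theorem vm_map_symm (K : Kah A) (hf : HolMap B A f) (imm : Imm B A f) (hg : HolMap C A g)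
    (immg : Imm C A g) (φ : W ≃ₜ V) (hφ : HolMap C B φ) (he : (fun w => f (φ w)) = g) :
    (vm (volK (pullI K hf imm))).map φ.symm = vm (volK (pullI K hg immg)) := by
  set hF := volK (pullI K hf imm) with hhF
  set hG := volK (pullI K hg immg) with hhG
  -- the basic case
  have key : ∀ (k : C.ι) (j : B.ι) (E : Set W), MeasurableSet E → E ⊆ (C.e k).source →
      E ⊆ φ ⁻¹' (B.e j).source → vm hF (φ '' E) = chm hG k E := by
    intro k j E hE hEk hEj
    set D : Set (RI d → ℝ) := {y | y ∈ Ui C k ∧ sg C k y ∈ E} with hD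
    have mD : MeasurableSet D := meas_inter k hE
    have himg : (fun y => φ ((C.e k).symm (cc y))) '' D = φ '' E := by
      ext v
      constructor
      · rintro ⟨y, hy, rfl⟩
        exact ⟨_, hy.2, rfl⟩
      · rintro ⟨w, hw, rfl⟩
        refine ⟨rc (C.e k w), ⟨mem_Ui (hEk hw), ?_⟩, ?_⟩
        · rw [sg_rc (hEk hw)]; exact hw
        · show φ ((C.e k).symm (cc (rc (C.e k w)))) = φ w
          rw [cc_rc, (C.e k).left_inv (hEk hw)]
    have mE : MeasurableSet (φ '' E) := (φ.toMeasurableEquiv.measurableEmbedding.measurableSet_image).2 hE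
    have h1 := vm_image hF j mD (Ψ := fun z => φ ((C.e k).symm z))
      (fun y hy => hEj hy.2)
      (fun y hy => hφ.diffAt (i := k) (j := j) ⟨hy.1, hEj hy.2⟩)
      (by
        intro x hx y hy hxy
        have h2 : (C.e k).symm (cc x) = (C.e k).symm (cc y) := φ.injective hxy
        have h3 : (cc x : Cn d) = cc y := (C.e k).symm.injOn hx.1 hy.1 h2
        have h4 := congrArg rc h3
        rwa [rc_cc, rc_cc] at h4)
      (by rw [himg]; exact mE)
    rw [← himg, h1, chm_apply hG k hE]
    refine setLIntegral_congr_fun mD fun y hy => ?_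
    unfold Vm_333.dn
    congr 1
    have hk : sg C k y ∈ (C.e k).source := sg_mem hy.1
    have hj : φ (sg C k y) ∈ (B.e j).source := hEj hy.2
    have h2 := w_lift K hf imm hg immg hφ he hk hj
    rw [hhG, h2, Jp_eq]
    have h3 : C.e k (sg C k y) = cc y := (C.e k).right_inv hy.1
    rw [h3]
    rfl
  refine ext_vm hG fun k => ?_
  ext E hE
  rw [Measure.restrict_apply hE]
  have hE' : MeasurableSet (E ∩ (C.e k).source) := hE.inter (C.e k).open_source.measurableSet
  have hms : Measurable φ.symm := φ.symm.continuous.measurable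
  rw [Measure.map_apply hms hE']
  have h1 : φ.symm ⁻¹' (E ∩ (C.e k).source) = φ '' (E ∩ (C.e k).source) := by
    ext v
    constructor
    · exact fun hv => ⟨φ.symm v, hv, φ.apply_symm_apply v⟩
    · rintro ⟨w, hw, rfl⟩
      rw [mem_preimage, φ.symm_apply_apply]
      exact hw
  rw [h1, ← measure_inter_conull (chm_compl hG k) (s := E)]
  -- decomposition by the pieces of `V`
  have mDj : ∀ j, MeasurableSet (φ ⁻¹' (Dj B j)) := fun j => φ.continuous.measurable (meas_Dj j)
  have hdis : Pairwise (Function.onFun Disjoint fun j => φ ⁻¹' (Dj B j)) := fun a b hab =>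
    (Dj_disjoint hab).preimage φ
  have hun : ⋃ j, φ ⁻¹' (Dj B j) = univ := by
    rw [← preimage_iUnion, iUnion_Dj, preimage_univ]
  have e1 : E ∩ (C.e k).source = ⋃ j, (E ∩ (C.e k).source) ∩ φ ⁻¹' (Dj B j) := by
    rw [← inter_iUnion, hun, inter_univ]
  have hdis' : Pairwise (Function.onFun Disjoint
      fun j => (E ∩ (C.e k).source) ∩ φ ⁻¹' (Dj B j)) := fun a b hab =>
    (hdis hab).mono inter_subset_right inter_subset_right
  rw [e1, image_iUnion, measure_iUnion hdis' (fun j => hE'.inter (mDj j)), measure_iUnion]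
  · refine tsum_congr fun j => ?_
    refine key k j _ (hE'.inter (mDj j)) (fun x hx => hx.1.2) fun x hx => ?_
    exact hx.2.1
  · intro a b hab
    exact (disjoint_image_iff φ.injective).2 (hdis' hab)
  · exact fun j => (φ.toMeasurableEquiv.measurableEmbedding.measurableSet_image).2
      (hE'.inter (mDj j))

/-- **(TR) transport of volume** -/
theorem vm_transport (K : Kah A) (hf : HolMap B A f) (imm : Imm B A f) (hg : HolMap C A g)
    (immg : Imm C A g) (injf : Injective f) (injg : Injective g) (ind : IsInducing f)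
    (hr : range f = range g) (S : Set M) :
    vm (volK (pullI K hf imm)) (f ⁻¹' S) = vm (volK (pullI K hg immg)) (g ⁻¹' S) := by
  have hch : ∀ w, ∃ v, f v = g w := fun w => by
    have h1 : g w ∈ range f := by rw [hr]; exact ⟨w, rfl⟩
    exact h1
  choose ψ hψ using hch
  have hψc : Continuous ψ := by
    rw [ind.continuous_iff]
    have : f ∘ ψ = g := funext hψ
    rw [this]
    exact hg.cont
  have hψi : Injective ψ := fun a b hab => injg (by rw [← hψ, ← hψ, hab])
  have hψs : Surjective ψ := fun v => by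
    obtain ⟨w, hw⟩ : f v ∈ range g := by rw [← hr]; exact ⟨v, rfl⟩
    exact ⟨w, injf (by rw [hψ, hw])⟩
  have hψo := isOpenMap_lift hf imm hg immg hψc hψ
  set φ : W ≃ₜ V := (Equiv.ofBijective ψ ⟨hψi, hψs⟩).toHomeomorphOfContinuousOpen hψc hψo with hφ
  have hφψ : ∀ w, φ w = ψ w := fun w => rfl
  have hφh : HolMap C B φ := holMap_lift hf imm hg φ.continuous fun w => by rw [hφψ, hψ]
  have he : (fun w => f (φ w)) = g := funext fun w => by rw [hφψ, hψ]
  rw [← vm_map_symm K hf imm hg immg φ hφh he]
  have h2 : (φ.symm : V → W) = φ.symm.toMeasurableEquiv := rfl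
  rw [h2, MeasurableEquiv.map_apply]
  congr 1
  ext v
  show f v ∈ S ↔ g (φ.symm v) ∈ S
  rw [← he]
  simp

theorem vm_transport_univ (K : Kah A) (hf : HolMap B A f) (imm : Imm B A f) (hg : HolMap C A g)
    (immg : Imm C A g) (injf : Injective f) (injg : Injective g) (ind : IsInducing f)
    (hr : range f = range g) :
    vm (volK (pullI K hf imm)) univ = vm (volK (pullI K hg immg)) univ := by
  have h := vm_transport K hf imm hg immg injf injg ind hr univ
  simpa using h

/-- `V` compact, `M` Hausdorff -/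
theorem vm_transport_cpt [CompactSpace V] [T2Space M] (K : Kah A) (hf : HolMap B A f)
    (imm : Imm B A f) (hg : HolMap C A g) (immg : Imm C A g) (injf : Injective f)
    (injg : Injective g) (hr : range f = range g) :
    vm (volK (pullI K hf imm)) univ = vm (volK (pullI K hg immg)) univ :=
  vm_transport_univ K hf imm hg immg injf injg
    (hf.cont.isClosedEmbedding injf).isInducing hr

end Meas

open Crest.Agent.R281.S6D_664 (Fam)
open Crest.Agent.R281.Lf_703 (Lf)

/-- a compact leaf as a `Fam A d 0 univ` and as a leaf `Lf` : same volume -/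
theorem fam_mu_eq {X0 : Set M} (K : Kah A) (T : Fam A d 0 univ) (L : Lf A d X0)
    [MeasurableSpace L.V] [BorelSpace L.V] (hr : range T.i = range L.i) :
    T.mu K univ = vm (volK (pullI K L.hol L.imm)) univ := by
  let _ : MeasurableSpace T.V := borel T.V
  have _ : BorelSpace T.V := ⟨rfl⟩
  have hTi : Injective T.i := fun v w h => T.inj v w (Subsingleton.elim _ _) h
  exact (vm_transport_univ (d := d) (B := L.B) (C := T.B) K L.hol L.imm T.hol T.imm L.inj hTi
    L.ind hr.symm).symm

end

end Crest.Agent.R281.OmT_467
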