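import Crest.Agent.R281.Op3a_569
import Crest.Agent.R275.Geo_509

/-!
# Row 281, OPEN-O3, step (c3) (helper569): the moving tori and the moving sections

`CC l f f0 x` : continuous convergence (`f n y → f0 x` along `l ×ˢ 𝓝 x`).
`MovD A`      : almost complex structures `I` and connection forms `a` in the charts of `A`.
`Sol D ε u q` : `∇u + i ∇u ∘ I = ε q` in the charts.
`TorF D F J`  : a periodic `C¹` map `F` with `DF ∘ J = I ∘ DF`.
`thmC`        : the limit of the identities `dg + i dg ∘ J = ε B`, `g = w/u`, along the moving tori: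
                `∫ B0 x v dx = 0` for all constant vectors `v`, with
                `B0 = u⁻² (u q_w - w q_u) ∘ DF` (limit data).
-/

set_option autoImplicit false
set_option linter.unusedSectionVars false
set_option linter.unusedSimpArgs false

open MeasureTheory Filter Topology Set Complex
open scoped ContDiff Real ComplexConjugate

namespace Crest.Agent.R281.Op3_569

open Crest.Agent.R275.Tor812 Crest.Agent.R275.Geo

noncomputable section

/-! ### continuous convergence -/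

/-- continuous convergence of `f n` to `f0` at `x` -/
def CC {α X Y : Type*} [TopologicalSpace X] [TopologicalSpace Y] (l : Filter α) (f : α → X → Y)
    (f0 : X → Y) (x : X) : Prop :=
  Tendsto (fun p : α × X => f p.1 p.2) (l ×ˢ 𝓝 x) (𝓝 (f0 x))

theorem CC.comp {α X Y Z : Type*} [TopologicalSpace X] [TopologicalSpace Y] [TopologicalSpace Z]
    {l : Filter α} {f : α → Y → Z} {f0 : Y → Z} {g : α → X → Y} {g0 : X → Y} {x : X}
    (hf : CC l f f0 (g0 x)) (hg : CC l g g0 x) :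
    CC l (fun n y => f n (g n y)) (fun y => f0 (g0 y)) x := by
  have h1 : Tendsto (fun p : α × X => (p.1, g p.1 p.2)) (l ×ˢ 𝓝 x) (l ×ˢ 𝓝 (g0 x)) :=
    tendsto_fst.prodMk hg
  exact Filter.Tendsto.comp hf h1

theorem CC.pt {α X Y : Type*} [TopologicalSpace X] [TopologicalSpace Y] {l : Filter α}
    {f : α → X → Y} {f0 : X → Y} {x : X} (h : CC l f f0 x) :
    Tendsto (fun n => f n x) l (𝓝 (f0 x)) := by
  have h1 : Tendsto (fun n : α => (n, x)) l (l ×ˢ 𝓝 x) :=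
    tendsto_id.prodMk tendsto_const_nhds
  exact Filter.Tendsto.comp h h1

/-- the limit of a continuously convergent family is continuous -/
theorem CC.continuous {α X Y : Type*} [TopologicalSpace X] [PseudoMetricSpace Y] {l : Filter α}
    [l.NeBot] {f : α → X → Y} {f0 : X → Y} (h : ∀ x, CC l f f0 x) : Continuous f0 := by
  rw [continuous_iff_continuousAt]
  intro x
  rw [Metric.continuousAt_iff']
  intro η hη
  have h1 : ∀ᶠ p : α × X in l ×ˢ 𝓝 x, dist (f p.1 p.2) (f0 x) < η / 2 :=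
    (Metric.tendsto_nhds.1 (h x)) (η / 2) (half_pos hη)
  obtain ⟨pa, ha, pb, hb, hab⟩ := Filter.eventually_prod_iff.1 h1
  filter_upwards [hb] with y hy
  have h2 : ∀ᶠ n in l, dist (f n y) (f0 x) ≤ η / 2 := ha.mono fun n hn => (hab hn hy).le
  have h3 : dist (f0 y) (f0 x) ≤ η / 2 :=
    le_of_tendsto ((CC.pt (h y)).dist tendsto_const_nhds) h2
  linarith

/-- continuous convergence is uniform on compact sets -/
theorem CC.unif {α X Y : Type*} [TopologicalSpace X] [PseudoMetricSpace Y] {l : Filter α}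
    [l.NeBot] {f : α → X → Y} {f0 : X → Y} (h : ∀ x, CC l f f0 x) {K : Set X} (hK : IsCompact K)
    {η : ℝ} (hη : 0 < η) : ∀ᶠ n in l, ∀ x ∈ K, dist (f n x) (f0 x) ≤ η := by
  have hc := CC.continuous h
  refine hK.induction_on (p := fun S => ∀ᶠ n in l, ∀ x ∈ S, dist (f n x) (f0 x) ≤ η) ?_ ?_ ?_ ?_
  · exact Eventually.of_forall fun n x hx => absurd hx (notMem_empty x)
  · intro S T hST hT
    exact hT.mono fun n hn x hx => hn x (hST hx)
  · intro S T hS hT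
    filter_upwards [hS, hT] with n h1 h2 x hx
    exact hx.elim (h1 x) (h2 x)
  · intro x hx
    have h1 : ∀ᶠ p : α × X in l ×ˢ 𝓝 x, dist (f p.1 p.2) (f0 x) < η / 2 :=
      (Metric.tendsto_nhds.1 (h x)) (η / 2) (half_pos hη)
    have h2 : ∀ᶠ p : α × X in l ×ˢ 𝓝 x, dist (f0 p.2) (f0 x) < η / 2 :=
      tendsto_snd.eventually ((Metric.continuousAt_iff'.1 hc.continuousAt) (η / 2) (half_pos hη))
    obtain ⟨pa, ha, pb, hb, hab⟩ := Filter.eventually_prod_iff.1 (h1.and h2)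
    refine ⟨{y | pb y}, mem_nhdsWithin_of_mem_nhds hb, ?_⟩
    filter_upwards [ha] with n hn y hy
    have := hab hn hy
    calc dist (f n y) (f0 y) ≤ dist (f n y) (f0 x) + dist (f0 x) (f0 y) := dist_triangle _ _ _
      _ ≤ η := by rw [dist_comm (f0 x)]; linarith [this.1, this.2]

/-- a property which holds continuously near every point of a compact set holds uniformly -/
theorem ev_forall {α X : Type*} [TopologicalSpace X] {l : Filter α} {P : α → X → Prop}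
    {K : Set X} (hK : IsCompact K) (h : ∀ x ∈ K, ∀ᶠ p : α × X in l ×ˢ 𝓝 x, P p.1 p.2) :
    ∀ᶠ n in l, ∀ x ∈ K, P n x := by
  refine hK.induction_on (p := fun S => ∀ᶠ n in l, ∀ x ∈ S, P n x) ?_ ?_ ?_ ?_
  · exact Eventually.of_forall fun n x hx => absurd hx (notMem_empty x)
  · intro S T hST hT
    exact hT.mono fun n hn x hx => hn x (hST hx)
  · intro S T hS hT
    filter_upwards [hS, hT] with n h1 h2 x hx
    exact hx.elim (h1 x) (h2 x)
  · intro x hx
    obtain ⟨pa, ha, pb, hb, hab⟩ := Filter.eventually_prod_iff.1 (h x hx)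
    refine ⟨{y | pb y}, mem_nhdsWithin_of_mem_nhds hb, ?_⟩
    filter_upwards [ha] with n hn y hy
    exact hab hn hy

/-- every point is a translate of a point of the closed unit cube -/
theorem exists_shift {d : Type} [Fintype d] (x : d → ℝ) :
    ∃ k : d → ℤ, (x + fun i => (k i : ℝ)) ∈ Icc (0 : d → ℝ) 1 := by
  refine ⟨fun i => -⌊x i⌋, ?_⟩
  constructor
  · intro i
    have := Int.floor_le (x i)
    simp only [Pi.zero_apply, Pi.add_apply, Int.cast_neg]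
    linarith
  · intro i
    have := Int.lt_floor_add_one (x i)
    simp only [Pi.one_apply, Pi.add_apply, Int.cast_neg]
    linarith

/-! ### moving structures -/

variable {n : ℕ} {M : Type} [TopologicalSpace M] {A : Atl n M}

/-- almost complex structures and connection forms, in the charts of `A` -/
structure MovD (A : Atl n M) where
  I : A.ι → M → Cn n →L[ℝ] Cn n
  a : A.ι → M → Cn n →L[ℝ] ℂ

/-- `∇u + i ∇u ∘ I = ε q` in the charts -/
structure Sol (D : MovD A) (ε : ℝ) (u : A.ι → M → ℂ) (q : A.ι → M → Cn n →L[ℝ] ℂ) : Prop where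
  c1 : ∀ i, ∀ x ∈ (A.e i).source, ContDiffAt ℝ 1 (fun z => u i ((A.e i).symm z)) (A.e i x)
  eq : ∀ i, ∀ x ∈ (A.e i).source, ∀ v : Cn n,
    fderiv ℝ (fun z => u i ((A.e i).symm z)) (A.e i x) v + D.a i x v * u i x +
      I * (fderiv ℝ (fun z => u i ((A.e i).symm z)) (A.e i x) (D.I i x v) +
        D.a i x (D.I i x v) * u i x) = ε * q i x v

variable {d : Type} [Fintype d]

/-- a periodic `C¹` map with `DF ∘ J = I ∘ DF` -/
structure TorF (D : MovD A) (F : (d → ℝ) → M) (J : (d → ℝ) → (d → ℝ) →L[ℝ] (d → ℝ)) : Prop where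
  cont : Continuous F
  per : Per F
  jc : Continuous J
  jp : Per J
  c1 : ∀ x i, F x ∈ (A.e i).source → ContDiffAt ℝ 1 (fun y => A.e i (F y)) x
  jeq : ∀ x i, F x ∈ (A.e i).source → ∀ v,
    fderiv ℝ (fun y => A.e i (F y)) x (J x v) =
      D.I i (F x) (fderiv ℝ (fun y => A.e i (F y)) x v)

/-- the chosen chart at a point -/
def chA (A : Atl n M) (x : M) : A.ι := (A.cover x).choose

theorem chA_mem (x : M) : x ∈ (A.e (chA A x)).source := (A.cover x).choose_spec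

/-- the quotient of two sections along `F` -/
def qt (A : Atl n M) (u w : A.ι → M → ℂ) (F : (d → ℝ) → M) (x : d → ℝ) : ℂ :=
  w (chA A (F x)) (F x) / u (chA A (F x)) (F x)

/-- the compatibility of two families of functions (sections of the same line bundle) -/
def Cmt (A : Atl n M) (u w : A.ι → M → ℂ) : Prop :=
  ∀ i j, ∀ x ∈ (A.e i).source ∩ (A.e j).source,
    ∃ c : ℂ, c ≠ 0 ∧ u i x = c * u j x ∧ w i x = c * w j x

theorem qt_eq {u w : A.ι → M → ℂ} (h : Cmt A u w) {F : (d → ℝ) → M} {x : d → ℝ} {i : A.ι}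
    (hi : F x ∈ (A.e i).source) : qt A u w F x = w i (F x) / u i (F x) := by
  unfold qt
  obtain ⟨c, hc, h1, h2⟩ := h (chA A (F x)) i (F x) ⟨chA_mem _, hi⟩
  rw [h1, h2, mul_div_mul_left _ _ hc]

theorem ne_ch {u w : A.ι → M → ℂ} (h : Cmt A u w) {x : M} {i j : A.ι}
    (hi : x ∈ (A.e i).source) (hj : x ∈ (A.e j).source) (hne : u i x ≠ 0) : u j x ≠ 0 := by
  obtain ⟨c, hc, h1, h2⟩ := h i j x ⟨hi, hj⟩
  intro h0
  rw [h0, mul_zero] at h1
  exact hne h1

/-- the form `u⁻² (u q_w - w q_u) ∘ T` -/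
def Bf (u w : ℂ) (qu qw : Cn n →L[ℝ] ℂ) (T : (d → ℝ) →L[ℝ] Cn n) : (d → ℝ) →L[ℝ] ℂ :=
  ((u ^ 2)⁻¹ • (u • qw - w • qu)).comp T

theorem Bf_apply (u w : ℂ) (qu qw : Cn n →L[ℝ] ℂ) (T : (d → ℝ) →L[ℝ] Cn n) (v : d → ℝ) :
    Bf u w qu qw T v = (u ^ 2)⁻¹ * (u * qw (T v) - w * qu (T v)) := by
  simp [Bf]

/-- **the quotient rule along a torus** -/
theorem quot {D : MovD A} {F : (d → ℝ) → M} {J : (d → ℝ) → (d → ℝ) →L[ℝ] (d → ℝ)}
    (hF : TorF D F J) {ε : ℝ} {u w : A.ι → M → ℂ} {qu qw : A.ι → M → Cn n →L[ℝ] ℂ}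
    (hu : Sol D ε u qu) (hw : Sol D ε w qw) (hc : Cmt A u w) {x : d → ℝ} {i : A.ι}
    (hi : F x ∈ (A.e i).source) (hne : u i (F x) ≠ 0) :
    ContDiffAt ℝ 1 (qt A u w F) x ∧ ∀ v,
      fderiv ℝ (qt A u w F) x v + I * fderiv ℝ (qt A u w F) x (J x v) =
        ε * Bf (u i (F x)) (w i (F x)) (qu i (F x)) (qw i (F x))
          (fderiv ℝ (fun y => A.e i (F y)) x) v := by
  set Φ : (d → ℝ) → Cn n := fun y => A.e i (F y) with hΦ
  set U : Cn n → ℂ := fun z => u i ((A.e i).symm z) with hU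
  set W : Cn n → ℂ := fun z => w i ((A.e i).symm z) with hW
  have hΦc : ContDiffAt ℝ 1 Φ x := hF.c1 x i hi
  have hUc : ContDiffAt ℝ 1 U (Φ x) := hu.c1 i _ hi
  have hWc : ContDiffAt ℝ 1 W (Φ x) := hw.c1 i _ hi
  have hnb : ∀ᶠ y in 𝓝 x, F y ∈ (A.e i).source :=
    hF.cont.continuousAt.eventually_mem ((A.e i).open_source.mem_nhds hi)
  have eU : U (Φ x) = u i (F x) := by simp [hU, hΦ, (A.e i).left_inv hi]
  have eW : W (Φ x) = w i (F x) := by simp [hW, hΦ, (A.e i).left_inv hi]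
  have hev : qt A u w F =ᶠ[𝓝 x] fun y => W (Φ y) / U (Φ y) := by
    filter_upwards [hnb] with y hy
    rw [qt_eq hc hy]
    simp [hU, hW, hΦ, (A.e i).left_inv hy]
  have hev' : qt A u w F =ᶠ[𝓝 x] fun y => W (Φ y) * (U (Φ y))⁻¹ := by
    filter_upwards [hev] with y hy
    rw [hy, div_eq_mul_inv]
  have hne' : U (Φ x) ≠ 0 := by rw [eU]; exact hne
  have hUΦ : ContDiffAt ℝ 1 (fun y => U (Φ y)) x := hUc.comp x hΦc
  have hWΦ : ContDiffAt ℝ 1 (fun y => W (Φ y)) x := hWc.comp x hΦc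
  have hqc : ContDiffAt ℝ 1 (qt A u w F) x :=
    (hWΦ.mul (hUΦ.inv hne')).congr_of_eventuallyEq hev'
  refine ⟨hqc, fun v => ?_⟩
  have hq : HasFDerivAt (qt A u w F) (fderiv ℝ (qt A u w F) x) x :=
    (hqc.differentiableAt (by norm_num)).hasFDerivAt
  have hdΦ : HasFDerivAt Φ (fderiv ℝ Φ x) x := (hΦc.differentiableAt (by norm_num)).hasFDerivAt
  have hdU : HasFDerivAt U (fderiv ℝ U (Φ x)) (Φ x) :=
    (hUc.differentiableAt (by norm_num)).hasFDerivAt
  have hdW : HasFDerivAt W (fderiv ℝ W (Φ x)) (Φ x) :=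
    (hWc.differentiableAt (by norm_num)).hasFDerivAt
  have h1 : HasFDerivAt (fun y => U (Φ y)) ((fderiv ℝ U (Φ x)).comp (fderiv ℝ Φ x)) x :=
    hdU.comp x hdΦ
  have h2 : HasFDerivAt (fun y => W (Φ y)) ((fderiv ℝ W (Φ x)).comp (fderiv ℝ Φ x)) x :=
    hdW.comp x hdΦ
  have h3 : ∀ t, fderiv ℝ (qt A u w F) x t =
      (fderiv ℝ W (Φ x) (fderiv ℝ Φ x t) * U (Φ x) - W (Φ x) * fderiv ℝ U (Φ x) (fderiv ℝ Φ x t)) /
        U (Φ x) ^ 2 := by
    intro t
    have h5 : (fun y => W (Φ y)) =ᶠ[𝓝 x] fun y => qt A u w F y * U (Φ y) := by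
      have h6 : ∀ᶠ y in 𝓝 x, U (Φ y) ≠ 0 :=
        hUΦ.continuousAt.eventually_ne hne'
      filter_upwards [hev, h6] with y h7 h8
      rw [h7]
      field_simp
    have h6 := h2.unique ((hq.mul h1).congr_of_eventuallyEq h5)
    have h7 := congrArg (fun T : (d → ℝ) →L[ℝ] ℂ => T t) h6
    simp only [ContinuousLinearMap.comp_apply, _root_.smul_apply,
      _root_.add_apply, smul_eq_mul] at h7
    have h8 : qt A u w F x = W (Φ x) / U (Φ x) := hev.self_of_nhds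
    rw [h8] at h7
    rw [h7]
    field_simp
    ring
  have hj := hF.jeq x i hi v
  rw [h3, h3, ← hΦ] at *
  rw [hj]
  have e1 := hu.eq i (F x) hi (fderiv ℝ Φ x v)
  have e2 := hw.eq i (F x) hi (fderiv ℝ Φ x v)
  rw [Bf_apply]
  have hUd : fderiv ℝ (fun z => u i ((A.e i).symm z)) (A.e i (F x)) = fderiv ℝ U (Φ x) := rfl
  have hWd : fderiv ℝ (fun z => w i ((A.e i).symm z)) (A.e i (F x)) = fderiv ℝ W (Φ x) := rfl
  rw [hUd] at e1
  rw [hWd] at e2
  rw [eU, eW]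
  field_simp
  linear_combination (u i (F x)) * e2 - (w i (F x)) * e1

/-- **step (c) in the limit** -/
theorem thmC {α : Type*} {l : Filter α} [l.NeBot] {D : α → MovD A} {ε : α → ℝ}
    (hε : ∀ᶠ n in l, 0 < ε n) {F : α → (d → ℝ) → M} {J : α → (d → ℝ) → (d → ℝ) →L[ℝ] (d → ℝ)}
    (hF : ∀ᶠ n in l, TorF (D n) (F n) (J n))
    {F0 : (d → ℝ) → M} {J0 : (d → ℝ) →L[ℝ] (d → ℝ)}
    (hFl : ∀ x, CC l F F0 x)
    (hDF : ∀ x i, F0 x ∈ (A.e i).source →
      CC l (fun n => fderiv ℝ (fun y => A.e i (F n y))) (fderiv ℝ (fun y => A.e i (F0 y))) x)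
    (hJl : ∀ x, CC l J (fun _ => J0) x)
    {u w : α → A.ι → M → ℂ} {qu qw : α → A.ι → M → Cn n →L[ℝ] ℂ}
    (hu : ∀ᶠ n in l, Sol (D n) (ε n) (u n) (qu n)) (hw : ∀ᶠ n in l, Sol (D n) (ε n) (w n) (qw n))
    (hc : ∀ᶠ n in l, Cmt A (u n) (w n))
    {u0 w0 : A.ι → M → ℂ} {qu0 qw0 : A.ι → M → Cn n →L[ℝ] ℂ}
    (hul : ∀ i, ∀ x ∈ (A.e i).source, CC l (fun n => u n i) (u0 i) x)
    (hwl : ∀ i, ∀ x ∈ (A.e i).source, CC l (fun n => w n i) (w0 i) x)
    (hqul : ∀ i, ∀ x ∈ (A.e i).source, CC l (fun n => qu n i) (qu0 i) x)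
    (hqwl : ∀ i, ∀ x ∈ (A.e i).source, CC l (fun n => qw n i) (qw0 i) x)
    (hne : ∀ x i, F0 x ∈ (A.e i).source → u0 i (F0 x) ≠ 0) :
    ∃ B0 : (d → ℝ) → (d → ℝ) →L[ℝ] ℂ, Continuous B0 ∧
      (∀ x i, F0 x ∈ (A.e i).source → B0 x = Bf (u0 i (F0 x)) (w0 i (F0 x)) (qu0 i (F0 x))
        (qw0 i (F0 x)) (fderiv ℝ (fun y => A.e i (F0 y)) x)) ∧
      ∀ v, ∫ x in box (0 : d → ℝ), B0 x v = 0 := by
  classical
  -- the forms `B n x`
  set g : α → (d → ℝ) → ℂ := fun n => qt A (u n) (w n) (F n) with hg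
  set B : α → (d → ℝ) → (d → ℝ) →L[ℝ] ℂ := fun n x =>
    ((ε n : ℂ)⁻¹) • (fderiv ℝ (g n) x + I • (fderiv ℝ (g n) x).comp (J n x)) with hB
  set Bi : A.ι → (d → ℝ) → (d → ℝ) →L[ℝ] ℂ := fun i x =>
    Bf (u0 i (F0 x)) (w0 i (F0 x)) (qu0 i (F0 x)) (qw0 i (F0 x))
      (fderiv ℝ (fun y => A.e i (F0 y)) x) with hBi
  -- good points
  have hgood : ∀ x i, F0 x ∈ (A.e i).source → ∀ᶠ p : α × (d → ℝ) in l ×ˢ 𝓝 x,
      F p.1 p.2 ∈ (A.e i).source ∧ u p.1 i (F p.1 p.2) ≠ 0 := by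
    intro x i hi
    have h1 : ∀ᶠ p : α × (d → ℝ) in l ×ˢ 𝓝 x, F p.1 p.2 ∈ (A.e i).source :=
      (hFl x).eventually ((A.e i).open_source.mem_nhds hi)
    have h2 : CC l (fun n y => u n i (F n y)) (fun y => u0 i (F0 y)) x :=
      CC.comp (hul i _ hi) (hFl x)
    exact h1.and (h2.eventually_ne (hne x i hi))
  have hevl : ∀ x, ∀ᶠ p : α × (d → ℝ) in l ×ˢ 𝓝 x, 0 < ε p.1 ∧ TorF (D p.1) (F p.1) (J p.1) ∧
      Sol (D p.1) (ε p.1) (u p.1) (qu p.1) ∧ Sol (D p.1) (ε p.1) (w p.1) (qw p.1) ∧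
      Cmt A (u p.1) (w p.1) := fun x =>
    tendsto_fst.eventually (hε.and (hF.and (hu.and (hw.and hc))))
  -- `B` in the charts
  have hBeq : ∀ x i, F0 x ∈ (A.e i).source → ∀ᶠ p : α × (d → ℝ) in l ×ˢ 𝓝 x,
      B p.1 p.2 = Bf (u p.1 i (F p.1 p.2)) (w p.1 i (F p.1 p.2)) (qu p.1 i (F p.1 p.2))
        (qw p.1 i (F p.1 p.2)) (fderiv ℝ (fun y => A.e i (F p.1 y)) p.2) := by
    intro x i hi
    filter_upwards [hgood x i hi, hevl x] with p hp h
    obtain ⟨h1, h2, h3, h4, h5⟩ := h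
    ext v
    have h6 := (quot h2 h3 h4 h5 hp.1 hp.2).2 v
    have h7 : (ε p.1 : ℂ) ≠ 0 := by exact_mod_cast h1.ne'
    simp only [hB, _root_.smul_apply, _root_.add_apply, ContinuousLinearMap.comp_apply, smul_eq_mul]
    rw [← hg] at *
    show (ε p.1 : ℂ)⁻¹ * (fderiv ℝ (qt A (u p.1) (w p.1) (F p.1)) p.2 v +
      I * fderiv ℝ (qt A (u p.1) (w p.1) (F p.1)) p.2 (J p.1 p.2 v)) = _
    rw [h6]
    field_simp
  -- convergence of `B`
  have hBl : ∀ x i, F0 x ∈ (A.e i).source →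
      Tendsto (fun p : α × (d → ℝ) => B p.1 p.2) (l ×ˢ 𝓝 x) (𝓝 (Bi i x)) := by
    intro x i hi
    have c1 : CC l (fun n y => u n i (F n y)) (fun y => u0 i (F0 y)) x :=
      CC.comp (hul i _ hi) (hFl x)
    have c2 : CC l (fun n y => w n i (F n y)) (fun y => w0 i (F0 y)) x :=
      CC.comp (hwl i _ hi) (hFl x)
    have c3 : CC l (fun n y => qu n i (F n y)) (fun y => qu0 i (F0 y)) x :=
      CC.comp (hqul i _ hi) (hFl x)
    have c4 : CC l (fun n y => qw n i (F n y)) (fun y => qw0 i (F0 y)) x :=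
      CC.comp (hqwl i _ hi) (hFl x)
    have c5 := hDF x i hi
    have t1 : Tendsto (fun p : α × (d → ℝ) => ((u p.1 i (F p.1 p.2)) ^ 2)⁻¹) (l ×ˢ 𝓝 x)
        (𝓝 ((u0 i (F0 x)) ^ 2)⁻¹) :=
      Tendsto.inv₀ (Tendsto.pow c1 2) (pow_ne_zero 2 (hne x i hi))
    have t2 : Tendsto (fun p : α × (d → ℝ) => u p.1 i (F p.1 p.2) • qw p.1 i (F p.1 p.2) -
        w p.1 i (F p.1 p.2) • qu p.1 i (F p.1 p.2)) (l ×ˢ 𝓝 x)
        (𝓝 (u0 i (F0 x) • qw0 i (F0 x) - w0 i (F0 x) • qu0 i (F0 x))) :=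
      Tendsto.sub (Tendsto.smul c1 c4) (Tendsto.smul c2 c3)
    have t3 := t1.smul t2
    have t4 : Tendsto (fun p : α × (d → ℝ) =>
        (((u p.1 i (F p.1 p.2)) ^ 2)⁻¹ • (u p.1 i (F p.1 p.2) • qw p.1 i (F p.1 p.2) -
        w p.1 i (F p.1 p.2) • qu p.1 i (F p.1 p.2))).comp
          (fderiv ℝ (fun y => A.e i (F p.1 y)) p.2)) (l ×ˢ 𝓝 x)
        (𝓝 ((((u0 i (F0 x)) ^ 2)⁻¹ • (u0 i (F0 x) • qw0 i (F0 x) -
          w0 i (F0 x) • qu0 i (F0 x))).comp (fderiv ℝ (fun y => A.e i (F0 y)) x))) :=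
      (isBoundedBilinearMap_comp.continuous.tendsto _).comp (t3.prodMk_nhds c5)
    refine Tendsto.congr' ?_ t4
    filter_upwards [hBeq x i hi] with p hp
    rw [hp]
    rfl
  -- the limit
  set B0 : (d → ℝ) → (d → ℝ) →L[ℝ] ℂ := fun x => Bi (chA A (F0 x)) x with hB0
  have hCC : ∀ x, CC l B B0 x := fun x => hBl x _ (chA_mem _)
  have hB0c : Continuous B0 := CC.continuous hCC
  have hB0i : ∀ x i, F0 x ∈ (A.e i).source → B0 x = Bi i x := fun x i hi =>
    tendsto_nhds_unique (hCC x) (hBl x i hi)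
  refine ⟨B0, hB0c, hB0i, fun v => ?_⟩
  -- everything holds on the closed cube, hence everywhere
  have hK : IsCompact (Icc (0 : d → ℝ) 1) := isCompact_Icc
  have hn1 : ∀ᶠ n in l, ∀ x ∈ Icc (0 : d → ℝ) 1, ∃ i, F n x ∈ (A.e i).source ∧
      u n i (F n x) ≠ 0 := by
    refine ev_forall hK fun x _ => ?_
    filter_upwards [hgood x _ (chA_mem (F0 x))] with p hp
    exact ⟨_, hp⟩
  have hn2 : ∀ᶠ n in l, ∀ x, ∃ i, F n x ∈ (A.e i).source ∧ u n i (F n x) ≠ 0 := by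
    filter_upwards [hn1, hF] with n h1 h2 x
    obtain ⟨k, hk⟩ := exists_shift x
    have := h1 _ hk
    rwa [h2.per k x] at this
  have hall : ∀ᶠ n in l, 0 < ε n ∧ TorF (D n) (F n) (J n) ∧ Sol (D n) (ε n) (u n) (qu n) ∧
      Sol (D n) (ε n) (w n) (qw n) ∧ Cmt A (u n) (w n) :=
    hε.and (hF.and (hu.and (hw.and hc)))
  have hgc : ∀ᶠ n in l, ContDiff ℝ 1 (g n) := by
    filter_upwards [hn2, hall] with n h1 h
    obtain ⟨k1, k2, k3, k4, k5⟩ := h
    rw [contDiff_iff_contDiffAt]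
    intro x
    obtain ⟨i, hi, hi'⟩ := h1 x
    exact (quot k2 k3 k4 k5 hi hi').1
  have hgp : ∀ᶠ n in l, Per (g n) := by
    filter_upwards [hF] with n h k x
    show qt A (u n) (w n) (F n) _ = qt A (u n) (w n) (F n) x
    unfold qt
    rw [h.per k x]
  have hJc : ∀ᶠ n in l, Continuous (J n) := hF.mono fun n h => h.jc
  have hJu : ∀ δ : ℝ, 0 < δ → ∀ᶠ n in l, ∀ x, ‖J n x - J0‖ ≤ δ := by
    intro δ hδ
    have h1 := CC.unif (l := l) (f := J) (f0 := fun _ => J0) hJl hK hδ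
    filter_upwards [h1, hF] with n h2 h3 x
    obtain ⟨k, hk⟩ := exists_shift x
    have := h2 _ hk
    rwa [h3.jp k x, dist_eq_norm] at this
  have hBdef : ∀ᶠ n in l, ∀ x v, fderiv ℝ (g n) x v + I * fderiv ℝ (g n) x (J n x v) =
      ε n * B n x v := by
    filter_upwards [hε] with n h x v
    have h7 : (ε n : ℂ) ≠ 0 := by exact_mod_cast h.ne'
    simp only [hB, _root_.smul_apply, _root_.add_apply, ContinuousLinearMap.comp_apply, smul_eq_mul]
    field_simp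
  have hBper : ∀ᶠ n in l, Per (B n) := by
    filter_upwards [hgp, hF] with n h1 h2 k x
    simp only [hB]
    rw [fderiv_per h1 k x, h2.jp k x]
  have hBcont : ∀ᶠ n in l, Continuous (B n) := by
    filter_upwards [hgc, hJc] with n h1 h2
    have h3 : Continuous (fderiv ℝ (g n)) := h1.continuous_fderiv (by norm_num)
    show Continuous fun x => ((ε n : ℂ)⁻¹) • (fderiv ℝ (g n) x + I • (fderiv ℝ (g n) x).comp (J n x))
    have h4 : Continuous fun x => I • (fderiv ℝ (g n) x).comp (J n x) :=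
      (h3.clm_comp h2).const_smul I
    exact (h3.add h4).const_smul ((ε n : ℂ)⁻¹)
  obtain ⟨C, hC⟩ : ∃ C : ℝ, ∀ x ∈ Icc (0 : d → ℝ) 1, ‖B0 x‖ ≤ C := by
    obtain ⟨C, hC⟩ := hK.exists_bound_of_continuousOn hB0c.continuousOn
    exact ⟨C, hC⟩
  have hunif := fun (η : ℝ) (hη : 0 < η) => CC.unif hCC hK hη
  have hbd : ∀ᶠ n in l, ∀ x v, ‖B n x v‖ ≤ (C + 1) * ‖v‖ := by
    filter_upwards [hunif 1 one_pos, hBper] with n h1 h2 x v
    obtain ⟨k, hk⟩ := exists_shift x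
    have h3 := h1 _ hk
    rw [h2 k x, dist_eq_norm] at h3
    have h4 : ‖B n x‖ ≤ C + 1 := by
      have := norm_add_le (B n x - B0 (x + fun i => (k i : ℝ))) (B0 (x + fun i => (k i : ℝ)))
      rw [sub_add_cancel] at this
      have h5 := hC _ hk
      linarith
    exact ((B n x).le_opNorm v).trans (mul_le_mul_of_nonneg_right h4 (norm_nonneg v))
  have hlim : ∀ η : ℝ, 0 < η → ∀ᶠ n in l, ∀ x ∈ box (0 : d → ℝ), ‖B n x v - B0 x v‖ ≤ η := by
    intro η hη
    have hη' : 0 < η / (‖v‖ + 1) := div_pos hη (by positivity)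
    filter_upwards [hunif _ hη'] with n h1 x hx
    have h2 := h1 x (box_sub hx)
    rw [dist_eq_norm] at h2
    rw [← _root_.sub_apply]
    refine ((B n x - B0 x).le_opNorm v).trans ((mul_le_mul_of_nonneg_right h2
      (norm_nonneg v)).trans ?_)
    rw [div_mul_eq_mul_div, div_le_iff₀ (by positivity)]
    nlinarith [norm_nonneg v]
  exact tor_limit (g := g) hgc hgp J0 hJc hJu hε (B := fun n x v => B n x v) hBdef hbd
    (hB0c.clm_apply continuous_const) hlim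
    (hBcont.mono fun n h => h.clm_apply continuous_const)

end

end Crest.Agent.R281.Op3_569
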