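import Crest.Agent.R281.PL4_713

/-!
# R281, OPEN-INST (M7a) (helper396), first half: from the real charts `C` to the holomorphic atlas `A`

`C : RCh V X`, `C' : RCh V' X` compatible (`h : Cmp C C'`), every chart of `C'` inside a chart of `C`
(`hκ : Sub C C' κ`).

* `Jx J κ`      : the field of endomorphisms `J` read in the charts of `C'`:
                  `Jx a z = D(mt)⁻¹ ∘ J (κ a) (mt z) ∘ D(mt)`
* `Jx_sm`       : joint smoothness in a parameter
* `Jx_I`        : `Jx = i` when `C' = ofAtl A` and `A` is holomorphic for `J`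
* `Jx_jc`       : `JC C J A' → JC C' Jx A'`
* `Jx_F11`      : `F11 J L → F11 Jx (L.chg ..)`
* `chg_add_g`, `chg_add_th_sm` : the bundles `(L.add (a p)).chg ..` have the same cocycle, the
                  connection forms are jointly smooth
* `Jx_mem_H0`   : `chF s ∈ (L.chg ..).H0 Jx ↔ s ∈ L.H0 J`; `hasN_chg`
-/

set_option autoImplicit false
set_option linter.unusedSectionVars false
set_option maxSynthPendingDepth 3

open Set Filter Topology Complex
open scoped ContDiff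

namespace Crest.Agent.R281.Op7_396

open Crest.Agent.R281.HkR_835 Crest.Agent.R281.Ti_846 Crest.Agent.R281.PL_713
open Crest.Agent.R275.Geo

noncomputable section

variable {V V' X : Type} [NormedAddCommGroup V] [NormedSpace ℝ V] [NormedAddCommGroup V']
  [NormedSpace ℝ V'] [TopologicalSpace X] {C : RCh V X} {C' : RCh V' X}

/-! ### the transition maps -/

theorem dmt_sm (h : Cmp C C') (i : C.ι) (a : C'.ι) :
    ContDiffOn ℝ ∞ (fderiv ℝ (mt C C' i a)) (mov C C' i a) :=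
  (h.s i a).fderiv_of_isOpen (Cmp.isOpen_mov C C' i a) (by simp)

theorem dmt_sm' (h : Cmp C C') (i : C.ι) (a : C'.ι) :
    ContDiffOn ℝ ∞ (fun z => fderiv ℝ (mt C' C a i) (mt C C' i a z)) (mov C C' i a) := by
  have h2 : ContDiffOn ℝ ∞ (fderiv ℝ (mt C' C a i)) (mov C' C a i) :=
    (h.s' i a).fderiv_of_isOpen (Cmp.isOpen_mov C' C a i) (by simp)
  exact h2.comp (h.s i a) fun z hz => Cmp.mt_mem hz

/-! ### the field of endomorphisms in the charts of `C'` -/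

/-- the field `J` read in the charts of `C'` -/
def Jx (C' : RCh V' X) (κ : C'.ι → C.ι) (J : C.ι → V → V →L[ℝ] V) (a : C'.ι) (z : V') :
    V' →L[ℝ] V' :=
  (fderiv ℝ (mt C' C a (κ a)) (mt C C' (κ a) a z)).comp
    ((J (κ a) (mt C C' (κ a) a z)).comp (fderiv ℝ (mt C C' (κ a) a) z))

variable {κ : C'.ι → C.ι} {J : C.ι → V → V →L[ℝ] V}

theorem Jx_apply (a : C'.ι) (z v : V') : Jx C' κ J a z v =
    fderiv ℝ (mt C' C a (κ a)) (mt C C' (κ a) a z)
      (J (κ a) (mt C C' (κ a) a z) (fderiv ℝ (mt C C' (κ a) a) z v)) := rfl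

/-- `D(mt) ∘ Jx = J ∘ D(mt)` -/
theorem dJx (h : Cmp C C') (hκ : Sub C C' κ) {a : C'.ι} {z : V'} (hz : z ∈ (C'.e a).target)
    (v : V') : fderiv ℝ (mt C C' (κ a) a) z (Jx C' κ J a z v) =
      J (κ a) (mt C C' (κ a) a z) (fderiv ℝ (mt C C' (κ a) a) z v) := by
  rw [Jx_apply, h.d_d' (hκ.mem hz)]

/-- the same in any chart of `C`, for a field which transforms correctly -/
theorem dJx' (h : Cmp C C') (hκ : Sub C C' κ)
    (hJ : ∀ i j, ∀ z ∈ C.ov i j, ∀ v,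
      fderiv ℝ (C.t i j) z (J i z v) = J j (C.t i j z) (fderiv ℝ (C.t i j) z v))
    {i : C.ι} {a : C'.ι} {z : V'} (hz : z ∈ mov C C' i a) (v : V') :
    fderiv ℝ (mt C C' i a) z (Jx C' κ J a z v) =
      J i (mt C C' i a z) (fderiv ℝ (mt C C' i a) z v) := by
  have hm := hκ.mem hz.1
  rw [← h.dmt_t hm hz, dJx h hκ hz.1, hJ _ _ _ (Cmp.mt_ov hm hz), Cmp.mt_t hm, h.dmt_t hm hz]

/-- `Jx² = -1` -/
theorem Jx_sq (h : Cmp C C') (hκ : Sub C C' κ)
    (hJ : ∀ i, ∀ z ∈ (C.e i).target, ∀ v, J i z (J i z v) = -v)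
    {a : C'.ι} {z : V'} (hz : z ∈ (C'.e a).target) (v : V') :
    Jx C' κ J a z (Jx C' κ J a z v) = -v := by
  have hm := hκ.mem hz
  refine h.inj hm ?_
  rw [dJx h hκ hz, dJx h hκ hz, hJ _ _ (Cmp.mt_mem hm).1, map_neg]

/-- **joint smoothness** -/
theorem Jx_sm {E : Type*} [NormedAddCommGroup E] [NormedSpace ℝ E] (h : Cmp C C')
    (hκ : Sub C C' κ) {O : Set E} {J : E → C.ι → V → V →L[ℝ] V}
    (hJ : ∀ i, ContDiffOn ℝ ∞ (fun y : E × V => J y.1 i y.2) (O ×ˢ (C.e i).target)) (a : C'.ι) :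
    ContDiffOn ℝ ∞ (fun y : E × V' => Jx C' κ (J y.1) a y.2) (O ×ˢ (C'.e a).target) := by
  have hs : ContDiffOn ℝ ∞ (fun y : E × V' => mt C C' (κ a) a y.2) (O ×ˢ (C'.e a).target) :=
    (h.s (κ a) a).comp contDiffOn_snd fun y hy => hκ.mem hy.2
  have h1 : ContDiffOn ℝ ∞ (fun y : E × V' => fderiv ℝ (mt C C' (κ a) a) y.2)
      (O ×ˢ (C'.e a).target) :=
    (dmt_sm h (κ a) a).comp contDiffOn_snd fun y hy => hκ.mem hy.2
  have h2 : ContDiffOn ℝ ∞ (fun y : E × V' => fderiv ℝ (mt C' C a (κ a)) (mt C C' (κ a) a y.2))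
      (O ×ˢ (C'.e a).target) :=
    (dmt_sm' h (κ a) a).comp contDiffOn_snd fun y hy => hκ.mem hy.2
  have h3 : ContDiffOn ℝ ∞ (fun y : E × V' => J y.1 (κ a) (mt C C' (κ a) a y.2))
      (O ×ˢ (C'.e a).target) :=
    (hJ (κ a)).comp (contDiffOn_fst.prodMk hs) fun y hy =>
      ⟨hy.1, (Cmp.mt_mem (hκ.mem hy.2)).1⟩
  exact h2.clm_comp (h3.clm_comp h1)

/-- smoothness of one field -/
theorem Jx_sm1 (h : Cmp C C') (hκ : Sub C C' κ)
    (hJ : ∀ i, ContDiffOn ℝ ∞ (J i) (C.e i).target) (a : C'.ι) :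
    ContDiffOn ℝ ∞ (Jx C' κ J a) (C'.e a).target := by
  have hs : ContDiffOn ℝ ∞ (mt C C' (κ a) a) (C'.e a).target :=
    (h.s (κ a) a).mono fun y hy => hκ.mem hy
  have h3 : ContDiffOn ℝ ∞ (fun z => J (κ a) (mt C C' (κ a) a z)) (C'.e a).target :=
    (hJ (κ a)).comp hs fun y hy => (Cmp.mt_mem (hκ.mem hy)).1
  exact ((dmt_sm' h (κ a) a).mono fun y hy => hκ.mem hy).clm_comp
    (h3.clm_comp ((dmt_sm h (κ a) a).mono fun y hy => hκ.mem hy))

variable {n : ℕ} {A : Atl n X}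

/-- at the centre: `Jx = i` -/
theorem Jx_I {κ : A.ι → C.ι} (hJ : JC C J A) (hκ : Sub C (ofAtl A) κ) {a : A.ι} {z : Cn n}
    (hz : z ∈ (A.e a).target) (v : Cn n) : Jx (ofAtl A) κ J a z v = I • v := by
  have hm : z ∈ mov C (ofAtl A) (κ a) a := hκ.mem (C' := ofAtl A) hz
  refine hJ.cmp.inj hm ?_
  rw [dJx (C' := ofAtl A) hJ.cmp hκ hz, hJ.lin (κ a) a z hm]

/-- **holomorphic atlases of `Jx`** -/
theorem Jx_jc (h : Cmp C C') (hκ : Sub C C' κ) {A' : Atl n X} (hJ : JC C J A') :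
    JC C' (Jx C' κ J) A' where
  cmp := Cmp_trans h.symm hJ.cmp
  lin i a z hz v := by
    -- `z` in the chart `a` of `A'`, `i` a chart of `C'`
    have h1 : mt C' (ofAtl A') i a z ∈ (C'.e i).target := (C'.e i).map_source hz.2
    have h2 : z ∈ mov C (ofAtl A') (κ i) a := ⟨hz.1, hκ i hz.2⟩
    have h3 := hκ.mem h1
    refine h.inj h3 ?_
    rw [dJx h hκ h1, dmt_comp h (Cmp_trans h.symm hJ.cmp) hz h2,
      dmt_comp h (Cmp_trans h.symm hJ.cmp) hz h2, hJ.lin (κ i) a z h2, mt_comp hz]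

/-- type `(1,1)` of the curvature -/
theorem Jx_F11 (h : Cmp C C') (hκ : Sub C C' κ) {L : PL C} (hF : F11 J L) :
    F11 (Jx C' κ J) (L.chg h κ hκ) := by
  intro a z hz u v
  rw [PL.chg_F h κ hκ L hz, PL.chg_F h κ hκ L hz, dJx h hκ hz, dJx h hκ hz,
    hF _ _ (Cmp.mt_mem (hκ.mem hz)).1]

/-! ### the bundles -/

section bundle

variable [FiniteDimensional ℝ V] [MeasurableSpace V] [BorelSpace V]

/-- the cocycle does not depend on the connection -/
theorem chg_add_g (h : Cmp C C') (hκ : Sub C C' κ) (L : PL C) (a : F1 C) :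
    ((L.add a).chg h κ hκ).g = (L.chg h κ hκ).g := rfl

/-- the connection forms are jointly smooth -/
theorem chg_add_th_sm {E : Type*} [NormedAddCommGroup E] [NormedSpace ℝ E] (h : Cmp C C')
    (hκ : Sub C C' κ) (L : PL C) {O : Set E} {a : E → F1 C}
    (ha : ∀ i, ContDiffOn ℝ ∞ (fun y : E × V => (a y.1).η i y.2) (O ×ˢ (C.e i).target))
    (b : C'.ι) :
    ContDiffOn ℝ ∞ (fun y : E × V' => ((L.add (a y.1)).chg h κ hκ).th b y.2)
      (O ×ˢ (C'.e b).target) := by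
  have hs : ContDiffOn ℝ ∞ (fun y : E × V' => mt C C' (κ b) b y.2) (O ×ˢ (C'.e b).target) :=
    (h.s (κ b) b).comp contDiffOn_snd fun y hy => hκ.mem hy.2
  have h1 : ContDiffOn ℝ ∞ (fun y : E × V' => fderiv ℝ (mt C C' (κ b) b) y.2)
      (O ×ˢ (C'.e b).target) :=
    (dmt_sm h (κ b) b).comp contDiffOn_snd fun y hy => hκ.mem hy.2
  have h2 : ContDiffOn ℝ ∞ (fun y : E × V' => L.th (κ b) (mt C C' (κ b) b y.2))
      (O ×ˢ (C'.e b).target) :=
    (L.th_sm (κ b)).comp hs fun y hy => (Cmp.mt_mem (hκ.mem hy.2)).1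
  have h3 : ContDiffOn ℝ ∞ (fun y : E × V' => (a y.1).η (κ b) (mt C C' (κ b) b y.2))
      (O ×ˢ (C'.e b).target) :=
    (ha (κ b)).comp (contDiffOn_fst.prodMk hs) fun y hy =>
      ⟨hy.1, (Cmp.mt_mem (hκ.mem hy.2)).1⟩
  exact (h2.add h3).clm_comp h1

end bundle

/-! ### sections -/

/-- holomorphic sections read in the charts of `C'` -/
theorem Jx_mem_H0 (h : Cmp C C') (hκ : Sub C C' κ)
    (hJ : ∀ i j, ∀ z ∈ C.ov i j, ∀ v,
      fderiv ℝ (C.t i j) z (J i z v) = J j (C.t i j z) (fderiv ℝ (C.t i j) z v))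
    {L : PL C} (s : Sec L) :
    chF h κ hκ s ∈ (L.chg h κ hκ).H0 (Jx C' κ J) ↔ s ∈ L.H0 J := by
  constructor
  · intro hs i z hz v
    obtain ⟨a, ha⟩ := Cmp.exists_mov (C' := C) C' (j := i) hz
    have hz2 : z ∈ C.ov i (κ a) := ⟨hz, hκ a ha.2⟩
    have h1 : mt C' C a i z ∈ mov C C' i a := Cmp.mt_mem (C := C') (C' := C) ha
    have h2 : mt C C' (κ a) a (mt C' C a i z) = C.t i (κ a) z := by
      show C.e (κ a) ((C'.e a).symm (C'.e a ((C.e i).symm z))) = C.e (κ a) ((C.e i).symm z)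
      rw [(C'.e a).left_inv ha.2]
    have h31 : mt C' C a i z ∈ mov C C' (κ a) a := hκ.mem h1.1
    obtain ⟨w', hw'⟩ : ∃ w', fderiv ℝ (mt C C' (κ a) a) (mt C' C a i z) w' =
        fderiv ℝ (C.t i (κ a)) z v :=
      ⟨_, h.d_d' h31 _⟩
    have h5 := hs a _ h1.1 w'
    unfold Sec.db at h5 ⊢
    rw [s.D_tr hz2, s.D_tr hz2, hJ i (κ a) z hz2]
    rw [chF_D h κ hκ s h1.1, chF_D h κ hκ s h1.1, dJx h hκ h1.1, h2, hw'] at h5
    linear_combination L.g i (κ a) z * h5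
  · intro hs a z hz v
    unfold Sec.db
    rw [chF_D h κ hκ s hz, chF_D h κ hκ s hz, dJx h hκ hz]
    exact hs (κ a) _ (Cmp.mt_mem (hκ.mem hz)).1 _

/-- the number of holomorphic sections does not depend on the charts -/
theorem hasN_chg (h : Cmp C C') (hκ : Sub C C' κ)
    (hJ : ∀ i j, ∀ z ∈ C.ov i j, ∀ v,
      fderiv ℝ (C.t i j) z (J i z v) = J j (C.t i j z) (fderiv ℝ (C.t i j) z v))
    {L : PL C} {N : ℕ} : (L.chg h κ hκ).HasN (Jx C' κ J) N ↔ L.HasN J N := by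
  constructor
  · rintro ⟨f, hf, hm⟩
    refine ⟨fun k => (chS h κ hκ (L := L)).symm (f k), ?_, fun k => ?_⟩
    · exact hf.map' (chS h κ hκ (L := L)).symm.toLinearMap (LinearEquiv.ker _)
    · rw [← Jx_mem_H0 h hκ hJ]
      have : chF h κ hκ ((chS h κ hκ (L := L)).symm (f k)) = f k :=
        (chS h κ hκ (L := L)).apply_symm_apply (f k)
      rw [this]
      exact hm k
  · rintro ⟨f, hf, hm⟩
    refine ⟨fun k => chS h κ hκ (f k), ?_, fun k => ?_⟩
    · exact hf.map' (chS h κ hκ (L := L)).toLinearMap (LinearEquiv.ker _)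
    · exact (Jx_mem_H0 h hκ hJ (f k)).2 (hm k)

end

end Crest.Agent.R281.Op7_396
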