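import Crest.Agent.R281.Semi3_450

/-!
# LEMMA A of the openness theorem (row 281, LEMMA OPEN', abstract analytic part)

`d0 : E0 → E1`, `d1 : E1 → E2` bounded, `d0 T0 + T1 d1 = 1 - H` (`H` of finite rank), `LP d0`;
`D0 j → d0`, `D1 j → d1` in operator norm, `D1 j ∘ D0 j = 0`.  If `D0 j` has fewer kernel vectors
than `d0`, then for a subsequence `D0 j (u j v) = e j • Q j v`, `e j > 0`, `e j → 0`,
`u j v → v`, `Q j v → Q v`, `Q : ker d0 → range H` linear and non zero.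
-/

set_option autoImplicit false

open Filter Topology Set

namespace Crest.Agent.R281.OpA_450

open Crest.Agent.R281.Semi_450 Module

variable {E0 E1 E2 : Type*} [NormedAddCommGroup E0] [NormedSpace ℂ E0]
  [NormedAddCommGroup E1] [NormedSpace ℂ E1] [NormedAddCommGroup E2] [NormedSpace ℂ E2]

/-- kernel -/
abbrev KK (d : E0 →L[ℂ] E1) : Submodule ℂ E0 := LinearMap.ker (d : E0 →ₗ[ℂ] E1)

theorem mem_KK {d : E0 →L[ℂ] E1} {u : E0} : u ∈ KK d ↔ d u = 0 := Iff.rfl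

theorem finiteDimensional_KK {d : E0 →L[ℂ] E1} (h : LP d) : FiniteDimensional ℂ (KK d) := by
  obtain ⟨G, hG⟩ := h
  refine Submodule.finiteDimensional_of_le (S₂ := LinearMap.range
    ((G.comp d - 1 : E0 →L[ℂ] E0) : E0 →ₗ[ℂ] E0)) fun u hu => ⟨-u, ?_⟩
  have h1 : d u = 0 := hu
  show (G.comp d - 1) (-u) = u
  simp [h1]

/-- `d` is bounded below on a closed complement of its kernel. -/
theorem bounded_below {d : E0 →L[ℂ] E1} (h : LP d) (π : E0 →L[ℂ] KK d)
    (hπ : ∀ v : KK d, π v = v) :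
    ∃ c > 0, ∀ w, π w = 0 → c * ‖w‖ ≤ ‖d w‖ := by
  obtain ⟨G, hG⟩ := h
  set R : E0 →L[ℂ] E0 := G.comp d - 1 with hR
  have hRw : ∀ w, R w = G (d w) - w := fun w => rfl
  by_contra hcon
  push Not at hcon
  have h1 : ∀ k : ℕ, ∃ v : E0, π v = 0 ∧ ‖v‖ = 1 ∧ ‖d v‖ ≤ 1 / ((k : ℝ) + 1) := by
    intro k
    obtain ⟨w, hw, hlt⟩ := hcon (1 / ((k : ℝ) + 1)) (by positivity)
    have hw0 : w ≠ 0 := by
      rintro rfl
      simp at hlt
    have hn : ‖w‖ ≠ 0 := norm_ne_zero_iff.2 hw0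
    refine ⟨((‖w‖⁻¹ : ℝ) : ℂ) • w, by rw [map_smul, hw, smul_zero], ?_, ?_⟩
    · rw [norm_smul, Complex.norm_real, norm_inv, norm_norm, inv_mul_cancel₀ hn]
    · rw [map_smul, norm_smul, Complex.norm_real, norm_inv, norm_norm]
      rw [inv_mul_le_iff₀ (by positivity)]
      rw [mul_comm]
      exact hlt.le
  choose v hv0 hv1 hvd using h1
  -- `R v` has a convergent subsequence
  have hprop : ProperSpace (LinearMap.range (R : E0 →ₗ[ℂ] E0)) :=
    FiniteDimensional.proper ℂ _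
  set r : ℕ → LinearMap.range (R : E0 →ₗ[ℂ] E0) := fun k => ⟨R (v k), ⟨v k, rfl⟩⟩ with hr
  have hrb : ∀ k, r k ∈ Metric.closedBall (0 : LinearMap.range (R : E0 →ₗ[ℂ] E0)) ‖R‖ := by
    intro k
    rw [mem_closedBall_zero_iff]
    have := R.le_opNorm (v k)
    rw [hv1, mul_one] at this
    exact this
  obtain ⟨b, -, φ, hφ, hb⟩ := tendsto_subseq_of_bounded Metric.isBounded_closedBall hrb
  have hRb : Tendsto (fun k => R (v (φ k))) atTop (𝓝 (b : E0)) :=
    (continuous_subtype_val.tendsto b).comp hb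
  have hd0 : Tendsto (fun k => d (v k)) atTop (𝓝 0) :=
    squeeze_zero_norm hvd tendsto_one_div_add_atTop_nhds_zero_nat
  have hd0' := hd0.comp hφ.tendsto_atTop
  have hvlim : Tendsto (fun k => v (φ k)) atTop (𝓝 (G 0 - (b : E0))) := by
    have h2 : (fun k => v (φ k)) = fun k => G (d (v (φ k))) - R (v (φ k)) := by
      funext k
      rw [hRw]
      abel
    rw [h2]
    exact ((G.continuous.tendsto 0).comp hd0').sub hRb
  set w := G 0 - (b : E0) with hw
  have hw1 : ‖w‖ = 1 := by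
    have h3 := (continuous_norm.tendsto w).comp hvlim
    have h4 : (norm ∘ fun k => v (φ k)) = fun _ => (1 : ℝ) := funext fun k => hv1 _
    rw [h4] at h3
    exact (tendsto_nhds_unique h3 tendsto_const_nhds)
  have hdw : d w = 0 :=
    tendsto_nhds_unique ((d.continuous.tendsto w).comp hvlim) hd0'
  have hπw : π w = 0 := by
    have h3 := (π.continuous.tendsto w).comp hvlim
    have h4 : (⇑π ∘ fun k => v (φ k)) = fun _ => (0 : KK d) := funext fun k => hv0 _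
    rw [h4] at h3
    exact (tendsto_nhds_unique h3 tendsto_const_nhds)
  have h5 := hπ ⟨w, hdw⟩
  rw [hπw] at h5
  have h6 : w = 0 := (congrArg Subtype.val h5).symm
  rw [h6, norm_zero] at hw1
  exact zero_ne_one hw1

/-! ### One perturbed operator -/

section One

variable {d : E0 →L[ℂ] E1} (π : E0 →L[ℂ] KK d) {n : ℕ}
  (b : Basis (Fin n) ℂ (KK d))

/-- the restriction of `D` to the complement `ker π` -/
def res (D : E0 →L[ℂ] E1) : LinearMap.ker (π : E0 →ₗ[ℂ] KK d) →L[ℂ] E1 :=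
  D.comp (LinearMap.ker (π : E0 →ₗ[ℂ] KK d)).subtypeL

/-- its range -/
def SS (D : E0 →L[ℂ] E1) : Submodule ℂ E1 := LinearMap.range (res π D).toLinearMap

theorem mem_SS {D : E0 →L[ℂ] E1} {y : E1} : y ∈ SS π D ↔ ∃ w, π w = 0 ∧ D w = y := by
  constructor
  · rintro ⟨w, rfl⟩
    exact ⟨w, w.2, rfl⟩
  · rintro ⟨w, hw, rfl⟩
    exact ⟨⟨w, hw⟩, rfl⟩

theorem isClosed_SS [CompleteSpace E0] {D : E0 →L[ℂ] E1} {c : ℝ} (hc : 0 < c) (hD : ∀ w, π w = 0 → c * ‖w‖ ≤ ‖D w‖) :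
    IsClosed (SS π D : Set E1) := by
  have hcomp : CompleteSpace (LinearMap.ker (π : E0 →ₗ[ℂ] KK d)) :=
    (π.isClosed_ker).completeSpace_coe
  have hanti : AntilipschitzWith (Real.toNNReal c⁻¹) (res π D) := by
    refine (res π D).antilipschitz_of_bound fun w => ?_
    have h1 := hD w w.2
    have h2 : ‖(w : E0)‖ = ‖w‖ := rfl
    rw [Real.coe_toNNReal _ (inv_nonneg.2 hc.le), ← div_eq_inv_mul, le_div_iff₀ hc, mul_comm]
    exact h1
  have h3 := hanti.isClosed_range (res π D).uniformContinuous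
  exact h3

/-- distance of `D (b i)` to `D (ker π)`, summed -/
noncomputable def ee (D : E0 →L[ℂ] E1) : ℝ :=
  ∑ i, ‖((SS π D).mkQ (D (b i : E0)) : E1 ⧸ SS π D)‖

theorem ee_nonneg (D : E0 →L[ℂ] E1) : 0 ≤ ee π b D :=
  Finset.sum_nonneg fun _ _ => norm_nonneg _

theorem mkQ_le (D : E0 →L[ℂ] E1) (i : Fin n) :
    ‖((SS π D).mkQ (D (b i : E0)) : E1 ⧸ SS π D)‖ ≤ ee π b D :=
  Finset.single_le_sum (f := fun i => ‖((SS π D).mkQ (D (b i : E0)) : E1 ⧸ SS π D)‖)
    (fun _ _ => norm_nonneg _) (Finset.mem_univ i)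

theorem ee_le (D : E0 →L[ℂ] E1) : ee π b D ≤ ∑ i, ‖D (b i : E0)‖ :=
  Finset.sum_le_sum fun _ _ => Submodule.Quotient.norm_mk_le _ _

/-- If all distances vanish, the kernel is large. -/
theorem ker_of_ee_zero [CompleteSpace E0] (hπ : ∀ v : KK d, π v = v) {D : E0 →L[ℂ] E1} {c : ℝ} (hc : 0 < c)
    (hD : ∀ w, π w = 0 → c * ‖w‖ ≤ ‖D w‖) (h0 : ee π b D = 0) : Ker D n := by
  have h1 : ∀ i, ∃ w, π w = 0 ∧ D w = D (b i : E0) := by
    intro i
    rw [← mem_SS]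
    have h2 : ‖((SS π D).mkQ (D (b i : E0)) : E1 ⧸ SS π D)‖ = 0 :=
      le_antisymm ((mkQ_le π b D i).trans h0.le) (norm_nonneg _)
    have h3 := (QuotientAddGroup.norm_mk_eq_zero_iff_mem_closure
      (S := (SS π D).toAddSubgroup)).1 h2
    rwa [Submodule.coe_toAddSubgroup, (isClosed_SS π hc hD).closure_eq] at h3
  choose w hw hDw using h1
  refine ⟨fun i => (b i : E0) - w i, ?_, fun i => by rw [map_sub, hDw, sub_self]⟩
  apply LinearIndependent.of_comp (π : E0 →ₗ[ℂ] KK d)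
  have h2 : (π : E0 →ₗ[ℂ] KK d) ∘ (fun i => (b i : E0) - w i) = b := by
    funext i
    show π ((b i : E0) - w i) = b i
    rw [map_sub, hπ, hw, sub_zero]
  rw [h2]
  exact b.linearIndependent

/-- linear selection -/
theorem exists_w {D : E0 →L[ℂ] E1} (h0 : 0 < ee π b D) (i : Fin n) :
    ∃ w, π w = 0 ∧ ‖D ((b i : E0) + w)‖ ≤ 2 * ee π b D := by
  obtain ⟨m, hm, hlt⟩ := Submodule.Quotient.norm_mk_lt
    ((SS π D).mkQ (D (b i : E0)) : E1 ⧸ SS π D) h0
  have h1 : m - D (b i : E0) ∈ SS π D := (Submodule.Quotient.eq _).1 hm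
  obtain ⟨w, hw, hDw⟩ := (mem_SS π).1 h1
  refine ⟨w, hw, ?_⟩
  have h2 : D ((b i : E0) + w) = m := by rw [map_add, hDw]; abel
  rw [h2]
  have := mkQ_le π b D i
  linarith

end One

end Crest.Agent.R281.OpA_450
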