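import Crest.Agent.R281.OpA1_450

/-!
# LEMMA A (row 281, LEMMA OPEN'): the theorem
-/

set_option autoImplicit false

open Filter Topology Set

namespace Crest.Agent.R281.OpA_450

open Crest.Agent.R281.Semi_450 Module

variable {E0 E1 E2 : Type*} [NormedAddCommGroup E0] [NormedSpace ℂ E0]
  [NormedAddCommGroup E1] [NormedSpace ℂ E1] [NormedAddCommGroup E2] [NormedSpace ℂ E2]

section A0

variable {d0 : E0 →L[ℂ] E1} [FiniteDimensional ℂ (KK d0)] {π : E0 →L[ℂ] KK d0} {n : ℕ} (b : Basis (Fin n) ℂ (KK d0))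

/-- the quantitative step: `e ≤ e (∑ ‖Q' i‖ + n C e)` -/
theorem step (hπ : ∀ v : KK d0, π v = v) (T0 : E1 →L[ℂ] E0) {D : E0 →L[ℂ] E1} {e : ℝ}
    (he : e = ee π b D) (he0 : 0 < e) (w : Fin n → E0) (q Q' : Fin n → E1)
    (hw : ∀ i, π (w i) = 0) (hq : ∀ i, D ((b i : E0) + w i) = (e : ℂ) • q i)
    (hq2 : ∀ i, ‖q i‖ ≤ 2) (hQ' : ∀ i, Q' i = q i - D (T0 (q i))) :
    1 ≤ (∑ i, ‖Q' i‖) + (n * ∑ l, ‖((LinearMap.toContinuousLinearMap (b.coord l)).comp
      (π.comp T0) : E1 →L[ℂ] ℂ)‖ * 2) * e := by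
  classical
  set κ : Fin n → E1 →L[ℂ] ℂ := fun l =>
    (LinearMap.toContinuousLinearMap (b.coord l)).comp (π.comp T0) with hκ
  set C : ℝ := ∑ l, ‖κ l‖ * 2 with hC
  have key : ∀ i, ‖((SS π D).mkQ (D (b i : E0)) : E1 ⧸ SS π D)‖ ≤ e * ‖Q' i‖ + e * (C * e) := by
    intro i
    -- the `K0` part of `T0 (q i)`
    have h1 : (SS π D).mkQ (D (T0 (q i))) = ∑ l, κ l (q i) • (SS π D).mkQ (D (b l : E0)) := by
      have h2 : D (T0 (q i)) - D ((π (T0 (q i)) : KK d0) : E0) ∈ SS π D := by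
        rw [mem_SS]
        refine ⟨T0 (q i) - (π (T0 (q i)) : KK d0), ?_, by rw [map_sub]⟩
        rw [map_sub, hπ, sub_self]
      have h3 : (SS π D).mkQ (D (T0 (q i))) = (SS π D).mkQ (D ((π (T0 (q i)) : KK d0) : E0)) :=
        (Submodule.Quotient.eq _).2 h2
      rw [h3]
      have h4 : ((π (T0 (q i)) : KK d0) : E0) = ∑ l, κ l (q i) • (b l : E0) := by
        conv_lhs => rw [← b.sum_repr (π (T0 (q i)))]
        rw [Submodule.coe_sum]
        rfl
      rw [h4, map_sum, map_sum]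
      exact Finset.sum_congr rfl fun l _ => by rw [map_smul, map_smul]
    have h2 : D (b i : E0) = (e : ℂ) • Q' i - D (w i) + (e : ℂ) • D (T0 (q i)) := by
      have h3 := hq i
      rw [map_add] at h3
      rw [hQ', smul_sub, ← h3]
      abel
    have h3 : (SS π D).mkQ (D (w i)) = 0 := by
      rw [Submodule.mkQ_apply, Submodule.Quotient.mk_eq_zero, mem_SS]
      exact ⟨w i, hw i, rfl⟩
    have h4 : (SS π D).mkQ (D (b i : E0)) = (e : ℂ) • (SS π D).mkQ (Q' i) +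
        (e : ℂ) • ∑ l, κ l (q i) • (SS π D).mkQ (D (b l : E0)) := by
      rw [h2, map_add, map_sub, h3, sub_zero, map_smul, map_smul, h1]
    have h5 : ‖(∑ l, κ l (q i) • (SS π D).mkQ (D (b l : E0)) : E1 ⧸ SS π D)‖ ≤ C * e := by
      refine (norm_sum_le _ _).trans ?_
      rw [hC, Finset.sum_mul]
      refine Finset.sum_le_sum fun l _ => ?_
      refine (norm_smul_le _ _).trans ?_
      have h6 : ‖κ l (q i)‖ ≤ ‖κ l‖ * 2 :=
        ((κ l).le_opNorm _).trans (mul_le_mul_of_nonneg_left (hq2 i) (norm_nonneg _))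
      have h7 : ‖((SS π D).mkQ (D (b l : E0)) : E1 ⧸ SS π D)‖ ≤ e := by
        rw [he]
        exact mkQ_le π b D l
      exact mul_le_mul h6 h7 (norm_nonneg _) (by positivity)
    have hen : ‖(e : ℂ)‖ = e := by rw [Complex.norm_real, Real.norm_of_nonneg he0.le]
    rw [h4]
    refine (norm_add_le _ _).trans (add_le_add ?_ ?_)
    · refine (norm_smul_le _ _).trans ?_
      rw [hen]
      exact mul_le_mul_of_nonneg_left (Submodule.Quotient.norm_mk_le _ _) he0.le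
    · refine (norm_smul_le _ _).trans ?_
      rw [hen]
      exact mul_le_mul_of_nonneg_left h5 he0.le
  have hsum : e ≤ ∑ i, (e * ‖Q' i‖ + e * (C * e)) := by
    conv_lhs => rw [he]
    exact Finset.sum_le_sum fun i _ => key i
  have h2 : ∑ i : Fin n, (e * ‖Q' i‖ + e * (C * e)) = e * ((∑ i, ‖Q' i‖) + n * C * e) := by
    rw [Finset.sum_add_distrib, ← Finset.mul_sum, Finset.sum_const, Finset.card_univ,
      Fintype.card_fin, nsmul_eq_mul]
    ring
  rw [h2] at hsum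
  have h3 : e * 1 ≤ e * ((∑ i, ‖Q' i‖) + n * C * e) := by rwa [mul_one]
  exact le_of_mul_le_mul_left h3 he0

/-- **LEMMA A**, uniform lower bound given. -/
theorem lemmaA0 (hπ : ∀ v : KK d0, π v = v) {d1 : E1 →L[ℂ] E2} {T0 : E1 →L[ℂ] E0}
    {T1 : E2 →L[ℂ] E1} {H : E1 →L[ℂ] E1}
    (hH : FiniteDimensional ℂ (LinearMap.range (H : E1 →ₗ[ℂ] E1)))
    (hom : ∀ q, q = d0 (T0 q) + T1 (d1 q) + H q)
    {D0 : ℕ → E0 →L[ℂ] E1} {D1 : ℕ → E1 →L[ℂ] E2} (hDD : ∀ j w, D1 j (D0 j w) = 0)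
    (h0 : Tendsto D0 atTop (𝓝 d0)) (h1 : Tendsto D1 atTop (𝓝 d1))
    {c : ℝ} (hc : 0 < c) (hb : ∀ j w, π w = 0 → c * ‖w‖ ≤ ‖D0 j w‖)
    (he : ∀ j, 0 < ee π b (D0 j)) :
    ∃ (φ : ℕ → ℕ) (e : ℕ → ℝ) (u : ℕ → KK d0 →ₗ[ℂ] E0) (Qj : ℕ → KK d0 →ₗ[ℂ] E1)
      (Q : KK d0 →ₗ[ℂ] E1), StrictMono φ ∧ (∀ j, 0 < e j) ∧ Tendsto e atTop (𝓝 0) ∧
      (∀ v, Tendsto (fun j => u j v) atTop (𝓝 (v : E0))) ∧
      (∀ j v, D0 (φ j) (u j v) = (e j : ℂ) • Qj j v) ∧
      (∀ v, Tendsto (fun j => Qj j v) atTop (𝓝 (Q v))) ∧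
      (∀ v, Q v ∈ LinearMap.range (H : E1 →ₗ[ℂ] E1)) ∧ Q ≠ 0 := by
  classical
  set e : ℕ → ℝ := fun j => ee π b (D0 j) with hedef
  -- pointwise convergence of `D0 j`
  have hpt : ∀ x, Tendsto (fun j => D0 j x) atTop (𝓝 (d0 x)) := fun x =>
    ((ContinuousLinearMap.apply ℂ E1 x).continuous.tendsto d0).comp h0
  have hbi : ∀ i, Tendsto (fun j => ‖D0 j (b i : E0)‖) atTop (𝓝 0) := fun i => by
    have h2 : d0 (b i : E0) = 0 := (b i).2
    have h3 := (hpt (b i : E0)).norm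
    rwa [h2, norm_zero] at h3
  have hetend : Tendsto e atTop (𝓝 0) := by
    refine squeeze_zero (fun j => ee_nonneg π b (D0 j)) (fun j => ee_le π b (D0 j)) ?_
    have h2 := tendsto_finsetSum (Finset.univ : Finset (Fin n)) fun i _ => hbi i
    simpa using h2
  have hex : ∀ j i, ∃ w, π w = 0 ∧ ‖D0 j ((b i : E0) + w)‖ ≤ 2 * e j := fun j i =>
    exists_w π b (he j) i
  choose w hw0 hw2 using hex
  have hwt : ∀ i, Tendsto (fun j => w j i) atTop (𝓝 0) := by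
    intro i
    rw [tendsto_zero_iff_norm_tendsto_zero]
    have h2 : Tendsto (fun j => c⁻¹ * (‖D0 j (b i : E0)‖ + 2 * e j)) atTop (𝓝 0) := by
      have h3 := ((hbi i).add (hetend.const_mul 2)).const_mul c⁻¹
      simpa using h3
    refine squeeze_zero (fun _ => norm_nonneg _) (fun j => ?_) h2
    rw [← div_eq_inv_mul, le_div_iff₀ hc, mul_comm]
    refine (hb j _ (hw0 j i)).trans ?_
    have h4 : D0 j (w j i) = D0 j ((b i : E0) + w j i) - D0 j (b i : E0) := by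
      rw [map_add]; abel
    rw [h4]
    have h5 := norm_sub_le (D0 j ((b i : E0) + w j i)) (D0 j (b i : E0))
    have h6 := hw2 j i
    linarith
  set q : ℕ → Fin n → E1 := fun j i => ((e j : ℂ)⁻¹) • D0 j ((b i : E0) + w j i) with hq
  have hec : ∀ j, (e j : ℂ) ≠ 0 := fun j => by exact_mod_cast (he j).ne'
  have hen : ∀ j, ‖(e j : ℂ)‖ = e j := fun j => by
    rw [Complex.norm_real, Real.norm_of_nonneg (he j).le]
  have hq1 : ∀ j i, D0 j ((b i : E0) + w j i) = (e j : ℂ) • q j i := fun j i => by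
    rw [hq, smul_inv_smul₀ (hec j)]
  have hq2 : ∀ j i, ‖q j i‖ ≤ 2 := by
    intro j i
    rw [hq]
    refine (norm_smul_le _ _).trans ?_
    rw [norm_inv, hen, inv_mul_le_iff₀ (he j), mul_comm]
    exact hw2 j i
  have hqD : ∀ j i, D1 j (q j i) = 0 := fun j i => by
    rw [hq, map_smul, hDD, smul_zero]
  set Q' : ℕ → Fin n → E1 := fun j i => q j i - D0 j (T0 (q j i)) with hQ'
  have hid : ∀ j i, Q' j i = H (q j i) +
      ((d0 - D0 j) (T0 (q j i)) + T1 ((d1 - D1 j) (q j i))) := by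
    intro j i
    have h2 := hom (q j i)
    have h3 : (d1 - D1 j) (q j i) = d1 (q j i) := by
      rw [sub_apply, hqD, sub_zero]
    rw [h3, sub_apply, hQ']
    show q j i - D0 j (T0 (q j i)) = _
    rw [sub_eq_iff_eq_add]
    exact h2.trans (by abel)
  have herr : ∀ i, Tendsto (fun j => (d0 - D0 j) (T0 (q j i)) + T1 ((d1 - D1 j) (q j i)))
      atTop (𝓝 0) := by
    intro i
    have h00 : Tendsto (fun j => ‖d0 - D0 j‖) atTop (𝓝 0) := by
      have := (tendsto_const_nhds (x := d0)).sub h0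
      simpa using this.norm
    have h11 : Tendsto (fun j => ‖d1 - D1 j‖) atTop (𝓝 0) := by
      have := (tendsto_const_nhds (x := d1)).sub h1
      simpa using this.norm
    rw [tendsto_zero_iff_norm_tendsto_zero]
    have h2 : Tendsto (fun j => ‖d0 - D0 j‖ * (‖T0‖ * 2) + ‖T1‖ * (‖d1 - D1 j‖ * 2)) atTop
        (𝓝 0) := by
      have h3 := (h00.mul_const (‖T0‖ * 2)).add ((h11.mul_const 2).const_mul ‖T1‖)
      simpa using h3
    refine squeeze_zero (fun _ => norm_nonneg _) (fun j => ?_) h2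
    refine (norm_add_le _ _).trans (add_le_add ?_ ?_)
    · refine ((d0 - D0 j).le_opNorm _).trans (mul_le_mul_of_nonneg_left ?_ (norm_nonneg _))
      exact (T0.le_opNorm _).trans (mul_le_mul_of_nonneg_left (hq2 j i) (norm_nonneg _))
    · refine (T1.le_opNorm _).trans (mul_le_mul_of_nonneg_left ?_ (norm_nonneg _))
      exact ((d1 - D1 j).le_opNorm _).trans (mul_le_mul_of_nonneg_left (hq2 j i) (norm_nonneg _))
  -- compactness
  have hprop : ProperSpace (LinearMap.range (H : E1 →ₗ[ℂ] E1)) := FiniteDimensional.proper ℂ _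
  set r : ℕ → (Fin n → LinearMap.range (H : E1 →ₗ[ℂ] E1)) := fun j i =>
    ⟨H (q j i), ⟨q j i, rfl⟩⟩ with hr
  have hrb : ∀ j, r j ∈ Metric.closedBall (0 : Fin n → LinearMap.range (H : E1 →ₗ[ℂ] E1))
      (‖H‖ * 2) := by
    intro j
    rw [mem_closedBall_zero_iff, pi_norm_le_iff_of_nonneg (by positivity)]
    intro i
    exact (H.le_opNorm _).trans (mul_le_mul_of_nonneg_left (hq2 j i) (norm_nonneg _))
  obtain ⟨Q0, -, φ, hφ, hlim⟩ := tendsto_subseq_of_bounded Metric.isBounded_closedBall hrb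
  have hHlim : ∀ i, Tendsto (fun j => H (q (φ j) i)) atTop (𝓝 (Q0 i : E1)) := fun i =>
    (continuous_subtype_val.tendsto _).comp ((tendsto_pi_nhds.1 hlim) i)
  have hQlim : ∀ i, Tendsto (fun j => Q' (φ j) i) atTop (𝓝 (Q0 i : E1)) := by
    intro i
    have h2 := (hHlim i).add ((herr i).comp hφ.tendsto_atTop)
    rw [add_zero] at h2
    refine h2.congr fun j => ?_
    rw [hid]
    rfl
  set u' : ℕ → Fin n → E0 := fun j i => (b i : E0) + w j i - (e j : ℂ) • T0 (q j i) with hu'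
  have hu'D : ∀ j i, D0 j (u' j i) = (e j : ℂ) • Q' j i := by
    intro j i
    rw [hu', map_sub, map_smul, hq1, hQ', smul_sub]
  have hu't : ∀ i, Tendsto (fun j => u' j i) atTop (𝓝 (b i : E0)) := by
    intro i
    have h2 : Tendsto (fun j => (e j : ℂ) • T0 (q j i)) atTop (𝓝 0) := by
      rw [tendsto_zero_iff_norm_tendsto_zero]
      have h3 : Tendsto (fun j => e j * (‖T0‖ * 2)) atTop (𝓝 0) := by
        simpa using hetend.mul_const (‖T0‖ * 2)
      refine squeeze_zero (fun _ => norm_nonneg _) (fun j => ?_) h3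
      refine (norm_smul_le _ _).trans ?_
      rw [hen]
      refine mul_le_mul_of_nonneg_left ?_ (he j).le
      exact (T0.le_opNorm _).trans (mul_le_mul_of_nonneg_left (hq2 j i) (norm_nonneg _))
    have h4 := ((tendsto_const_nhds (x := (b i : E0))).add (hwt i)).sub h2
    rw [add_zero, sub_zero] at h4
    exact h4
  refine ⟨φ, fun j => e (φ j), fun j => b.constr ℂ (u' (φ j)), fun j => b.constr ℂ (Q' (φ j)),
    b.constr ℂ (fun i => (Q0 i : E1)), hφ, fun j => he _, hetend.comp hφ.tendsto_atTop,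
    fun v => ?_, fun j v => ?_, fun v => ?_, fun v => ?_, ?_⟩
  · simp only [Basis.constr_apply_fintype]
    have h2 : (v : E0) = ∑ i, b.equivFun v i • (b i : E0) := by
      conv_lhs => rw [← b.sum_equivFun v]
      rw [Submodule.coe_sum]
      rfl
    rw [h2]
    exact tendsto_finsetSum _ fun i _ => ((hu't i).comp hφ.tendsto_atTop).const_smul _
  · simp only [Basis.constr_apply_fintype]
    rw [map_sum, Finset.smul_sum]
    refine Finset.sum_congr rfl fun i _ => ?_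
    rw [map_smul, hu'D, smul_comm]
  · simp only [Basis.constr_apply_fintype]
    exact tendsto_finsetSum _ fun i _ => (hQlim i).const_smul _
  · simp only [Basis.constr_apply_fintype]
    exact Submodule.sum_mem _ fun i _ => Submodule.smul_mem _ _ (Q0 i).2
  · intro hQ0
    have h2 : ∀ i, (Q0 i : E1) = 0 := fun i => by
      have h3 := congrArg (fun T : KK d0 →ₗ[ℂ] E1 => T (b i)) hQ0
      simpa [Basis.constr_basis] using h3
    have hstep := fun j => step b hπ T0 (D := D0 (φ j)) (e := e (φ j)) rfl (he _) (w (φ j))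
      (q (φ j)) (Q' (φ j)) (hw0 _) (hq1 _) (hq2 _) (fun i => rfl)
    have h3 : Tendsto (fun j => (∑ i, ‖Q' (φ j) i‖) + (n * ∑ l,
        ‖((LinearMap.toContinuousLinearMap (b.coord l)).comp (π.comp T0) : E1 →L[ℂ] ℂ)‖ * 2) *
        e (φ j)) atTop (𝓝 0) := by
      have h4 : Tendsto (fun j => ∑ i, ‖Q' (φ j) i‖) atTop (𝓝 0) := by
        have h5 := tendsto_finsetSum (Finset.univ : Finset (Fin n)) fun i _ => (hQlim i).norm
        simpa [h2] using h5
      have h6 := h4.add ((hetend.comp hφ.tendsto_atTop).const_mul (n * ∑ l,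
        ‖((LinearMap.toContinuousLinearMap (b.coord l)).comp (π.comp T0) : E1 →L[ℂ] ℂ)‖ * 2))
      rw [mul_zero, add_zero] at h6
      exact h6
    have h4 := ge_of_tendsto h3 (Eventually.of_forall hstep)
    linarith

end A0

/-- **LEMMA A.** -/
theorem lemmaA [CompleteSpace E0] {d0 : E0 →L[ℂ] E1} {d1 : E1 →L[ℂ] E2} {T0 : E1 →L[ℂ] E0}
    {T1 : E2 →L[ℂ] E1} {H : E1 →L[ℂ] E1}
    (hH : FiniteDimensional ℂ (LinearMap.range (H : E1 →ₗ[ℂ] E1)))
    (hom : ∀ q, q = d0 (T0 q) + T1 (d1 q) + H q) (hLP : LP d0)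
    {D0 : ℕ → E0 →L[ℂ] E1} {D1 : ℕ → E1 →L[ℂ] E2} (hDD : ∀ j w, D1 j (D0 j w) = 0)
    (h0 : Tendsto D0 atTop (𝓝 d0)) (h1 : Tendsto D1 atTop (𝓝 d1))
    {N : ℕ} (hN : Ker d0 N) (hneg : ∀ j, ¬ Ker (D0 j) N) :
    ∃ (φ : ℕ → ℕ) (e : ℕ → ℝ) (u : ℕ → KK d0 →ₗ[ℂ] E0) (Qj : ℕ → KK d0 →ₗ[ℂ] E1)
      (Q : KK d0 →ₗ[ℂ] E1), StrictMono φ ∧ (∀ j, 0 < e j) ∧ Tendsto e atTop (𝓝 0) ∧
      (∀ v, Tendsto (fun j => u j v) atTop (𝓝 (v : E0))) ∧
      (∀ j v, D0 (φ j) (u j v) = (e j : ℂ) • Qj j v) ∧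
      (∀ v, Tendsto (fun j => Qj j v) atTop (𝓝 (Q v))) ∧
      (∀ v, Q v ∈ LinearMap.range (H : E1 →ₗ[ℂ] E1)) ∧ Q ≠ 0 := by
  classical
  have hfd : FiniteDimensional ℂ (KK d0) := finiteDimensional_KK hLP
  obtain ⟨π, hπ⟩ := Submodule.ClosedComplemented.of_finiteDimensional (𝕜 := ℂ) (KK d0)
  obtain ⟨c, hc, hcb⟩ := bounded_below hLP π hπ
  set b := Module.finBasis ℂ (KK d0) with hb
  -- `N ≤ dim ker d0`
  have hNle : N ≤ finrank ℂ (KK d0) := by
    obtain ⟨v, hv, hv0⟩ := hN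
    let v' : Fin N → KK d0 := fun i => ⟨v i, hv0 i⟩
    have hv' : LinearIndependent ℂ v' := by
      apply LinearIndependent.of_comp (KK d0).subtype
      exact hv
    simpa using hv'.fintype_card_le_finrank
  -- tail
  have hev : ∀ᶠ j in atTop, ‖D0 j - d0‖ < c / 2 := by
    have := (tendsto_iff_norm_sub_tendsto_zero.1 h0)
    exact this.eventually (gt_mem_nhds (by linarith))
  obtain ⟨J, hJ⟩ := eventually_atTop.1 hev
  have hbd : ∀ j w, π w = 0 → c / 2 * ‖w‖ ≤ ‖D0 (j + J) w‖ := by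
    intro j w hw
    have h2 := hcb w hw
    have h3 : ‖(D0 (j + J) - d0) w‖ ≤ c / 2 * ‖w‖ :=
      ((D0 (j + J) - d0).le_opNorm w).trans
        (mul_le_mul_of_nonneg_right (hJ _ (by omega)).le (norm_nonneg _))
    have h4 : d0 w = D0 (j + J) w - (D0 (j + J) - d0) w := by
      rw [sub_apply]; abel
    have h5 := norm_sub_le (D0 (j + J) w) ((D0 (j + J) - d0) w)
    rw [← h4] at h5
    linarith
  have he : ∀ j, 0 < ee π b (D0 (j + J)) := by
    intro j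
    refine lt_of_le_of_ne (ee_nonneg π b _) fun h => hneg (j + J) ?_
    exact (ker_of_ee_zero π b hπ (by linarith : (0 : ℝ) < c / 2) (hbd j) h.symm).mono hNle
  have htail : Tendsto (fun j : ℕ => j + J) atTop atTop := tendsto_add_atTop_nat J
  obtain ⟨φ, e, u, Qj, Q, hφ, h2, h3, h4, h5, h6, h7, h8⟩ := lemmaA0 b hπ hH hom
    (D0 := fun j => D0 (j + J)) (D1 := fun j => D1 (j + J)) (fun j w => hDD _ w)
    (h0.comp htail) (h1.comp htail) (by linarith : (0 : ℝ) < c / 2) hbd he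
  exact ⟨fun j => φ j + J, e, u, Qj, Q, fun i j hij => Nat.add_lt_add_right (hφ hij) J,
    h2, h3, h4, h5, h6, h7, h8⟩

/-- **LEMMA A**, filter form: openness of `Ker _ N` at `p₁` unless there is a bad sequence. -/
theorem lemmaA_filter [CompleteSpace E0] {d0 : E0 →L[ℂ] E1} {d1 : E1 →L[ℂ] E2}
    {T0 : E1 →L[ℂ] E0} {T1 : E2 →L[ℂ] E1} {H : E1 →L[ℂ] E1}
    (hH : FiniteDimensional ℂ (LinearMap.range (H : E1 →ₗ[ℂ] E1)))
    (hom : ∀ q, q = d0 (T0 q) + T1 (d1 q) + H q) (hLP : LP d0)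
    {P : Type*} {l : Filter P} [l.IsCountablyGenerated]
    {D0 : P → E0 →L[ℂ] E1} {D1 : P → E1 →L[ℂ] E2} (hDD : ∀ᶠ p in l, ∀ w, D1 p (D0 p w) = 0)
    (h0 : Tendsto D0 l (𝓝 d0)) (h1 : Tendsto D1 l (𝓝 d1)) {N : ℕ} (hN : Ker d0 N)
    (hno : ∀ (p : ℕ → P) (e : ℕ → ℝ) (u : ℕ → KK d0 →ₗ[ℂ] E0) (Qj : ℕ → KK d0 →ₗ[ℂ] E1)
      (Q : KK d0 →ₗ[ℂ] E1), Tendsto p atTop l → (∀ j, 0 < e j) → Tendsto e atTop (𝓝 0) →
      (∀ v, Tendsto (fun j => u j v) atTop (𝓝 (v : E0))) →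
      (∀ j v, D0 (p j) (u j v) = (e j : ℂ) • Qj j v) →
      (∀ v, Tendsto (fun j => Qj j v) atTop (𝓝 (Q v))) →
      (∀ v, Q v ∈ LinearMap.range (H : E1 →ₗ[ℂ] E1)) → Q = 0) :
    ∀ᶠ p in l, Ker (D0 p) N := by
  by_contra hcon
  rw [not_eventually] at hcon
  have h2 : ∃ᶠ p in l, ¬ Ker (D0 p) N ∧ ∀ w, D1 p (D0 p w) = 0 := hcon.and_eventually hDD
  obtain ⟨p, hp, hpf⟩ := exists_seq_forall_of_frequently h2
  obtain ⟨φ, e, u, Qj, Q, hφ, h3, h4, h5, h6, h7, h8, h9⟩ := lemmaA hH hom hLP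
    (D0 := fun j => D0 (p j)) (D1 := fun j => D1 (p j)) (fun j => (hpf j).2)
    (h0.comp hp) (h1.comp hp) hN (fun j => (hpf j).1)
  exact h9 (hno (fun j => p (φ j)) e u Qj Q (hp.comp hφ.tendsto_atTop) h3 h4 h5 h6 h7 h8)

end Crest.Agent.R281.OpA_450
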