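import Mathlib.Analysis.InnerProductSpace.Projection.Basic
import Mathlib.Analysis.InnerProductSpace.Adjoint
import Mathlib.Analysis.Normed.Module.FiniteDimension
import Mathlib.Topology.Sequences
import Mathlib.Analysis.Normed.Operator.Compact.Basic
import Mathlib.Analysis.SpecificLimits.Basic

/-!
# R281 (S0424): LEMMA OPEN' (286 #7046, 693 #7201), abstract part (O1) (helper693)

`D : P → E →L[ℂ] F` is a family of operators between Hilbert spaces, continuous at `p₁`, with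
`K = ker (D p₁)` finite dimensional and `D p₁` bounded below on `Kᗮ`. Least squares: for `u ∈ K`
and `p` near `p₁` there is a unique `w ∈ Kᗮ` for which `q = D p (u + w)` is orthogonal to
`D p (Kᗮ)`. Either `q = 0` for all `u` (then `dim ker (D p) ≥ dim K`) near `p₁`, or there is a
sequence `p j → p₁` and normalised obstructions `Q j : K →ₗ F`.

* `open_or_seq` : the alternative.
* `limit` : with a compactness hypothesis the obstructions converge (subsequence) to a non-zero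
  linear map `Q : K →ₗ F` with `Q u ⟂ range (D p₁)`.
-/

set_option autoImplicit false
set_option linter.unusedSectionVars false

open Set Filter Topology

namespace Crest.Agent.R281.OpA_693

section One

variable {E F : Type*} [NormedAddCommGroup E] [InnerProductSpace ℂ E] [CompleteSpace E]
  [NormedAddCommGroup F] [InnerProductSpace ℂ F] [CompleteSpace F]

local notation "⟪" x ", " y "⟫" => inner ℂ x y

/-- **least squares** for one operator `T`, bounded below on `Kᗮ` -/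
theorem least_squares (K : Submodule ℂ E) (T : E →L[ℂ] F) {c : ℝ}
    (hc : 0 < c) (hT : ∀ v ∈ Kᗮ, c * ‖v‖ ≤ ‖T v‖) {δ : ℝ}
    (hδ : ∀ u ∈ K, ‖T u‖ ≤ δ * ‖u‖) :
    ∃ w : K →ₗ[ℂ] E, (∀ u, w u ∈ Kᗮ) ∧ (∀ u, ‖w u‖ ≤ δ / c * ‖u‖) ∧
      (∀ u, ‖T (u + w u)‖ ≤ δ * ‖u‖) ∧
      (∀ u, ∀ v ∈ Kᗮ, ⟪T (u + w u), T v⟫ = 0) := by
  set S : Kᗮ →L[ℂ] F := T.comp (Kᗮ).subtypeL with hS
  have hSb : ∀ v : Kᗮ, c * ‖v‖ ≤ ‖S v‖ := fun v => hT v v.2
  have hinj : Function.Injective S := by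
    intro v v' h
    have h1 := hSb (v - v')
    rw [map_sub, h, sub_self, norm_zero] at h1
    have h2 : ‖v - v'‖ ≤ 0 := by
      by_contra hcon
      push Not at hcon
      have := mul_pos hc hcon
      linarith
    exact sub_eq_zero.1 (norm_le_zero_iff.1 h2)
  have hanti : AntilipschitzWith (Real.toNNReal c⁻¹) S := by
    refine AddMonoidHomClass.antilipschitz_of_bound S fun v => ?_
    rw [Real.coe_toNNReal _ (inv_nonneg.2 hc.le)]
    rw [inv_mul_eq_div, le_div_iff₀ hc, mul_comm]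
    exact hSb v
  set Rg : Submodule ℂ F := LinearMap.range (S : Kᗮ →ₗ[ℂ] F) with hRg
  have hclosed : IsClosed (Rg : Set F) := by
    have h1 := hanti.isClosed_range S.uniformContinuous
    have h2 : (Rg : Set F) = range S := by
      ext y; simp [hRg]
    rw [h2]; exact h1
  have : CompleteSpace Rg := hclosed.completeSpace_coe
  set e : Kᗮ ≃ₗ[ℂ] Rg := LinearEquiv.ofInjective (S : Kᗮ →ₗ[ℂ] F) hinj with he
  have hev : ∀ v, ((e v : Rg) : F) = T v := fun v => rfl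
  set w : K →ₗ[ℂ] E :=
    -((Kᗮ).subtype ∘ₗ (e.symm : Rg →ₗ[ℂ] Kᗮ) ∘ₗ
      (Rg.orthogonalProjectionOnto : F →ₗ[ℂ] Rg) ∘ₗ (T : E →ₗ[ℂ] F) ∘ₗ K.subtype) with hw
  have hwv : ∀ u : K, w u = -((e.symm (Rg.orthogonalProjectionOnto (T u)) : Kᗮ) : E) :=
    fun u => rfl
  have hTw : ∀ u : K, T (w u) = -(Rg.starProjection (T u)) := by
    intro u
    rw [hwv, map_neg, ← hev, e.apply_symm_apply]
    rfl
  have hmem : ∀ u, w u ∈ Kᗮ := fun u => by
    rw [hwv]; exact neg_mem (Subtype.coe_prop _)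
  have hproj : ∀ y : F, ‖Rg.starProjection y‖ ≤ ‖y‖ := fun y =>
    Rg.norm_starProjection_apply_le y
  have hq : ∀ u : K, T (u + w u) = T u - Rg.starProjection (T u) := by
    intro u
    rw [map_add, hTw, sub_eq_add_neg]
  have hperp : ∀ y : F, y - Rg.starProjection y ∈ Rgᗮ := fun y =>
    Submodule.sub_starProjection_mem_orthogonal y
  have hproj' : ∀ y : F, ‖y - Rg.starProjection y‖ ≤ ‖y‖ := by
    intro y
    set z := y - Rg.starProjection y with hz
    have h1 : ⟪z, Rg.starProjection y⟫ = 0 :=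
      Submodule.inner_left_of_mem_orthogonal (Rg.starProjection_apply_mem y) (hperp y)
    have h2 : ⟪z, y⟫ = ⟪z, z⟫ := by
      conv_rhs => rw [hz]
      rw [← hz, inner_sub_right, h1, sub_zero]
    have h3 : ‖z‖ * ‖z‖ ≤ ‖z‖ * ‖y‖ := by
      have h4 := norm_inner_le_norm (𝕜 := ℂ) z y
      rw [h2] at h4
      have h5 : RCLike.re ⟪z, z⟫ = ‖z‖ * ‖z‖ := inner_self_eq_norm_mul_norm z
      rw [← h5]
      exact (RCLike.re_le_norm _).trans h4
    by_cases h0 : ‖z‖ = 0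
    · rw [h0]; exact norm_nonneg _
    · exact le_of_mul_le_mul_left h3 (lt_of_le_of_ne (norm_nonneg _) (Ne.symm h0))
  refine ⟨w, hmem, fun u => ?_, fun u => ?_, fun u v hv => ?_⟩
  · have h1 := hT _ (hmem u)
    rw [hTw, norm_neg] at h1
    have h2 := (h1.trans (hproj _)).trans (hδ u u.2)
    rw [div_mul_eq_mul_div, le_div_iff₀ hc, mul_comm]
    exact h2
  · rw [hq]
    exact (hproj' _).trans (hδ u u.2)
  · rw [hq]
    have h1 : T v ∈ Rg := ⟨⟨v, hv⟩, rfl⟩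
    exact Submodule.inner_left_of_mem_orthogonal h1 (hperp _)

/-- **normalisation**: a non-zero least squares defect, normalised -/
theorem normalise (K : Submodule ℂ E) [FiniteDimensional ℂ K] (T : E →L[ℂ] F) {δ : ℝ}
    (w : K →ₗ[ℂ] E) (hw1 : ∀ u, ‖T (u + w u)‖ ≤ δ * ‖u‖)
    (hw2 : ∀ u, ∀ v ∈ Kᗮ, ⟪T (u + w u), T v⟫ = 0) (hw3 : ∀ u, w u ∈ Kᗮ)
    {u₀ : K} (hne : T (u₀ + w u₀) ≠ 0) :
    ∃ (ε : ℝ) (Q : K →ₗ[ℂ] F), 0 < ε ∧ ε ≤ δ ∧ (∀ u, T (u + w u) = (ε : ℂ) • Q u) ∧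
      (∀ u, ‖Q u‖ ≤ ‖u‖) ∧ (∃ u, ‖u‖ = 1 ∧ ‖Q u‖ = 1) ∧
      ∀ (u : K) (v : E), ‖⟪Q u, T v⟫‖ ≤ ε * ‖u‖ * ‖v‖ := by
  -- the defect as a linear map
  set q : K →ₗ[ℂ] F := (T : E →ₗ[ℂ] F) ∘ₗ (K.subtype + w) with hq
  have hqv : ∀ u : K, q u = T (u + w u) := fun u => rfl
  have : ProperSpace K := FiniteDimensional.proper ℂ K
  have hcont : Continuous q := q.continuous_of_finiteDimensional
  obtain ⟨a, ha, hmax⟩ := (isCompact_closedBall (0 : K) 1).exists_isMaxOn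
    ⟨0, Metric.mem_closedBall_self zero_le_one⟩ (hcont.norm.continuousOn)
  set ε : ℝ := ‖q a‖ with hε
  have hbound : ∀ u, ‖q u‖ ≤ ε * ‖u‖ := by
    intro u
    by_cases hu : u = 0
    · subst hu; simp
    · have hu' : 0 < ‖u‖ := norm_pos_iff.2 hu
      have h1 : ((‖u‖⁻¹ : ℝ) : ℂ) • u ∈ Metric.closedBall (0 : K) 1 := by
        rw [mem_closedBall_zero_iff, norm_smul]
        simp [hu]
      have h2 := hmax h1
      simp only [Set.mem_ofPred_eq, map_smul, norm_smul, Complex.norm_real, norm_inv, norm_norm]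
        at h2
      rw [inv_mul_le_iff₀ hu', mul_comm] at h2
      exact h2
  have hεpos : 0 < ε := by
    have h1 := hbound u₀
    have h2 : 0 < ‖q u₀‖ := norm_pos_iff.2 hne
    by_contra hcon
    push Not at hcon
    have h3 : ε * ‖u₀‖ ≤ 0 := mul_nonpos_of_nonpos_of_nonneg hcon (norm_nonneg _)
    linarith
  have ha1 : ‖a‖ = 1 := by
    have h1 := hbound a
    have h2 : ‖a‖ ≤ 1 := mem_closedBall_zero_iff.1 ha
    have h3 : ε * 1 ≤ ε * ‖a‖ := by rw [mul_one]; exact h1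
    exact le_antisymm h2 (le_of_mul_le_mul_left h3 hεpos)
  have hεδ : ε ≤ δ := by
    have h1 := hw1 a
    rw [ha1, mul_one] at h1
    exact h1
  have hε0 : (ε : ℂ) ≠ 0 := Complex.ofReal_ne_zero.2 hεpos.ne'
  refine ⟨ε, (ε : ℂ)⁻¹ • q, hεpos, hεδ, fun u => ?_, fun u => ?_, ⟨a, ha1, ?_⟩, fun u v => ?_⟩
  · rw [LinearMap.smul_apply, smul_smul, mul_inv_cancel₀ hε0, one_smul, hqv]
  · rw [LinearMap.smul_apply, norm_smul, norm_inv, Complex.norm_real, Real.norm_eq_abs,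
      abs_of_pos hεpos, inv_mul_le_iff₀ hεpos]
    exact hbound u
  · rw [LinearMap.smul_apply, norm_smul, norm_inv, Complex.norm_real, Real.norm_eq_abs,
      abs_of_pos hεpos, ← hε, inv_mul_cancel₀ hεpos.ne']
  · -- decompose `v`
    have hdec : v = K.starProjection v + (v - K.starProjection v) := by abel
    set k : K := K.orthogonalProjectionOnto v with hk
    have hkv : (k : E) = K.starProjection v := rfl
    have hkn : ‖k‖ ≤ ‖v‖ := K.norm_orthogonalProjectionOnto_apply_le v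
    have hperp : v - K.starProjection v ∈ Kᗮ := Submodule.sub_starProjection_mem_orthogonal v
    have h1a : ⟪q u, T v⟫ = ⟪q u, T k⟫ := by
      have h : T v = T k + T (v - K.starProjection v) := by
        rw [← map_add, hkv]; congr 1
      have h0 : ⟪q u, T (v - K.starProjection v)⟫ = 0 := hw2 u _ hperp
      rw [h, inner_add_right, h0, add_zero]
    have h1b : ⟪q u, q k⟫ = ⟪q u, T k⟫ := by
      have h : q k = T k + T (w k) := by rw [hqv, map_add]
      have h0 : ⟪q u, T (w k)⟫ = 0 := hw2 u _ (hw3 k)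
      rw [h, inner_add_right, h0, add_zero]
    have h1 : ⟪q u, T v⟫ = ⟪q u, q k⟫ := h1a.trans h1b.symm
    rw [LinearMap.smul_apply, inner_smul_left, h1, norm_mul, RCLike.norm_conj, norm_inv,
      Complex.norm_real, Real.norm_eq_abs, abs_of_pos hεpos, inv_mul_le_iff₀ hεpos]
    calc ‖⟪q u, q k⟫‖ ≤ ‖q u‖ * ‖q k‖ := norm_inner_le_norm _ _
      _ ≤ (ε * ‖u‖) * (ε * ‖v‖) :=
          mul_le_mul (hbound u) ((hbound k).trans (by gcongr)) (norm_nonneg _) (by positivity)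
      _ = ε * (ε * ‖u‖ * ‖v‖) := by ring

end One

section Family

variable {E F : Type*} [NormedAddCommGroup E] [InnerProductSpace ℂ E] [CompleteSpace E]
  [NormedAddCommGroup F] [InnerProductSpace ℂ F] [CompleteSpace F]
  {P : Type*} [TopologicalSpace P]

local notation "⟪" x ", " y "⟫" => inner ℂ x y

/-- **the alternative of LEMMA OPEN'** -/
theorem open_or_seq (D : P → E →L[ℂ] F) (p₁ : P) [(𝓝 p₁).IsCountablyGenerated]
    (hD : ContinuousAt D p₁) (K : Submodule ℂ E) [FiniteDimensional ℂ K]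
    (hK : ∀ u ∈ K, D p₁ u = 0) {c : ℝ} (hc : 0 < c) (hbd : ∀ v ∈ Kᗮ, c * ‖v‖ ≤ ‖D p₁ v‖) :
    (∀ᶠ p in 𝓝 p₁, ∃ J : K →ₗ[ℂ] E, Function.Injective J ∧ ∀ u, D p (J u) = 0) ∨
    ∃ (p : ℕ → P) (ε : ℕ → ℝ) (w : ℕ → K →ₗ[ℂ] E) (Q : ℕ → K →ₗ[ℂ] F),
      Tendsto p atTop (𝓝 p₁) ∧ (∀ j, 0 < ε j) ∧ Tendsto ε atTop (𝓝 0) ∧
      (∀ j u, w j u ∈ Kᗮ) ∧ (∀ u, Tendsto (fun j => w j u) atTop (𝓝 0)) ∧
      (∀ j (u : K), D (p j) (u + w j u) = (ε j : ℂ) • Q j u) ∧
      (∀ j u, ‖Q j u‖ ≤ ‖u‖) ∧ (∀ j, ∃ u, ‖u‖ = 1 ∧ ‖Q j u‖ = 1) ∧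
      (∀ j (u : K) (v : E), ‖⟪Q j u, D (p j) v⟫‖ ≤ ε j * ‖u‖ * ‖v‖) := by
  by_cases hev : ∀ᶠ p in 𝓝 p₁, ∃ J : K →ₗ[ℂ] E, Function.Injective J ∧ ∀ u, D p (J u) = 0
  · exact Or.inl hev
  right
  have hfr : ∃ᶠ p in 𝓝 p₁, ¬ ∃ J : K →ₗ[ℂ] E, Function.Injective J ∧ ∀ u, D p (J u) = 0 :=
    not_eventually.1 hev
  obtain ⟨p', hp', hbad⟩ := exists_seq_forall_of_frequently hfr
  -- norms
  have hδ : Tendsto (fun j => ‖D (p' j) - D p₁‖) atTop (𝓝 0) := by
    have h1 : Tendsto (fun j => D (p' j) - D p₁) atTop (𝓝 0) := by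
      have := (hD.tendsto.comp hp').sub_const (D p₁)
      simpa using this
    simpa using h1.norm
  obtain ⟨j₀, hj₀⟩ := (hδ.eventually_le_const (half_pos hc)).exists_forall_of_atTop
  set p : ℕ → P := fun j => p' (j + j₀) with hp
  have hpt : Tendsto p atTop (𝓝 p₁) := hp'.comp (tendsto_add_atTop_nat j₀)
  set δ : ℕ → ℝ := fun j => ‖D (p j) - D p₁‖ with hδdef
  have hδt : Tendsto δ atTop (𝓝 0) := hδ.comp (tendsto_add_atTop_nat j₀)
  have hc2 : 0 < c / 2 := half_pos hc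
  have hδle : ∀ j, δ j ≤ c / 2 := fun j => hj₀ (j + j₀) (Nat.le_add_left _ _)
  have hbd' : ∀ j, ∀ v ∈ Kᗮ, c / 2 * ‖v‖ ≤ ‖D (p j) v‖ := by
    intro j v hv
    have h1 := hbd v hv
    have h2 : ‖(D (p j) - D p₁) v‖ ≤ c / 2 * ‖v‖ :=
      ((D (p j) - D p₁).le_opNorm v).trans (by gcongr; exact hδle j)
    have h3 : ‖D p₁ v‖ ≤ ‖D (p j) v‖ + ‖(D (p j) - D p₁) v‖ := by
      have : D p₁ v = D (p j) v - (D (p j) - D p₁) v := by simp
      rw [this]; exact norm_sub_le _ _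
    linarith
  have hKd : ∀ j, ∀ u ∈ K, ‖D (p j) u‖ ≤ δ j * ‖u‖ := by
    intro j u hu
    have h1 : D (p j) u = (D (p j) - D p₁) u := by
      rw [sub_apply, hK u hu, sub_zero]
    rw [h1]
    exact (D (p j) - D p₁).le_opNorm u
  choose w hw1 hw2 hw3 hw4 using fun j =>
    least_squares K (D (p j)) hc2 (hbd' j) (hKd j)
  -- the defect is non-zero
  have hdef : ∀ j, ∃ u : K, D (p j) (u + w j u) ≠ 0 := by
    intro j
    by_contra hcon
    push Not at hcon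
    refine hbad (j + j₀) ⟨K.subtype + w j, ?_, fun u => hcon u⟩
    rw [← LinearMap.ker_eq_bot, LinearMap.ker_eq_bot']
    intro u hu
    have h1 : (u : E) = -(w j u) := by
      have : (u : E) + w j u = 0 := hu
      exact eq_neg_of_add_eq_zero_left this
    have h2 : (u : E) ∈ Kᗮ := by rw [h1]; exact neg_mem (hw1 j u)
    have h3 : (u : E) = 0 := by
      have := Submodule.inner_right_of_mem_orthogonal u.2 h2
      exact inner_self_eq_zero.1 this
    exact Subtype.ext h3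
  choose u₀ hu₀ using hdef
  choose ε Q hε1 hε2 hQ1 hQ2 hQ3 hQ4 using fun j =>
    normalise K (D (p j)) (w j) (hw3 j) (hw4 j) (hw1 j) (hu₀ j)
  refine ⟨p, ε, w, Q, hpt, hε1, ?_, hw1, fun u => ?_, hQ1, hQ2, hQ3, hQ4⟩
  · exact squeeze_zero (fun j => (hε1 j).le) hε2 hδt
  · rw [tendsto_zero_iff_norm_tendsto_zero]
    refine squeeze_zero (fun j => norm_nonneg _) (fun j => hw2 j u) ?_
    have := (hδt.div_const (c / 2)).mul_const ‖u‖
    simpa using this

/-- **passage to the limit**: if bounded sequences of "almost harmonic" vectors are precompact, the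
normalised obstructions converge along a subsequence to a non-zero `Q : K →ₗ F` which is
orthogonal to `range (D p₁)`. `Cyc p f` is any property of the defects `D p v`. -/
theorem limit (D : P → E →L[ℂ] F) (p₁ : P) (hD : ContinuousAt D p₁)
    (K : Submodule ℂ E) [FiniteDimensional ℂ K]
    {p : ℕ → P} {ε : ℕ → ℝ} {Q : ℕ → K →ₗ[ℂ] F}
    (hp : Tendsto p atTop (𝓝 p₁)) (hε : Tendsto ε atTop (𝓝 0))
    (hQ2 : ∀ j u, ‖Q j u‖ ≤ ‖u‖) (hQ3 : ∀ j, ∃ u, ‖u‖ = 1 ∧ ‖Q j u‖ = 1)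
    (hQ4 : ∀ j (u : K) (v : E), ‖⟪Q j u, D (p j) v⟫‖ ≤ ε j * ‖u‖ * ‖v‖)
    (hcpt : ∀ (u : K) (φ : ℕ → ℕ), StrictMono φ →
      ∃ ψ : ℕ → ℕ, StrictMono ψ ∧ ∃ f : F, Tendsto (fun j => Q (φ (ψ j)) u) atTop (𝓝 f)) :
    ∃ (φ : ℕ → ℕ) (Qi : K →ₗ[ℂ] F), StrictMono φ ∧
      (∀ u, Tendsto (fun j => Q (φ j) u) atTop (𝓝 (Qi u))) ∧ (∃ u, ‖u‖ = 1 ∧ ‖Qi u‖ = 1) ∧
      ∀ (u : K) (v : E), ⟪Qi u, D p₁ v⟫ = 0 := by
  classical
  -- a common subsequence for a basis
  have key : ∀ s : Finset K, ∃ φ : ℕ → ℕ, StrictMono φ ∧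
      ∀ u ∈ s, ∃ f : F, Tendsto (fun j => Q (φ j) u) atTop (𝓝 f) := by
    intro s
    induction s using Finset.induction_on with
    | empty => exact ⟨id, strictMono_id, by simp⟩
    | insert a s ha ih =>
      obtain ⟨φ, hφ, hs⟩ := ih
      obtain ⟨ψ, hψ, f, hf⟩ := hcpt a φ hφ
      refine ⟨φ ∘ ψ, hφ.comp hψ, fun u hu => ?_⟩
      rcases Finset.mem_insert.1 hu with rfl | hu
      · exact ⟨f, hf⟩
      · obtain ⟨g, hg⟩ := hs u hu
        exact ⟨g, hg.comp hψ.tendsto_atTop⟩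
  set b := Module.finBasis ℂ K with hb
  obtain ⟨φ₀, hφ₀, hφ₀s⟩ := key (Finset.univ.image b)
  have hbas : ∀ i, ∃ f : F, Tendsto (fun j => Q (φ₀ j) (b i)) atTop (𝓝 f) := fun i =>
    hφ₀s _ (Finset.mem_image_of_mem _ (Finset.mem_univ _))
  choose f hf using hbas
  set Q0 : K →ₗ[ℂ] F := b.constr ℂ f with hQ0
  have hconv : ∀ u, Tendsto (fun j => Q (φ₀ j) u) atTop (𝓝 (Q0 u)) := by
    intro u
    have h1 : ∀ L : K →ₗ[ℂ] F, L u = ∑ i, b.repr u i • L (b i) := by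
      intro L
      conv_lhs => rw [← b.sum_repr u]
      rw [map_sum]
      simp
    have h2 : Q0 u = ∑ i, b.repr u i • f i := by
      rw [h1 Q0]
      refine Finset.sum_congr rfl fun i _ => ?_
      rw [hQ0, Module.Basis.constr_basis]
    rw [h2]
    simp only [h1 (Q _)]
    exact tendsto_finsetSum _ fun i _ => (hf i).const_smul _
  -- norm one vectors: compactness of the unit sphere of `K`
  have : ProperSpace K := FiniteDimensional.proper ℂ K
  choose a ha1 ha2 using fun j => hQ3 (φ₀ j)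
  obtain ⟨ai, hai, ψ, hψ, hψa⟩ := (isCompact_sphere (0 : K) 1).tendsto_subseq
    (fun j => mem_sphere_zero_iff_norm.2 (ha1 j))
  have hai1 : ‖ai‖ = 1 := mem_sphere_zero_iff_norm.1 hai
  refine ⟨φ₀, Q0, hφ₀, hconv, ⟨ai, hai1, ?_⟩, fun u v => ?_⟩
  · -- `Q (a j) → Q0 ai`
    have h1 : Tendsto (fun j => Q (φ₀ (ψ j)) (a (ψ j))) atTop (𝓝 (Q0 ai)) := by
      have h2 : Tendsto (fun j => Q (φ₀ (ψ j)) (a (ψ j) - ai)) atTop (𝓝 0) := by
        rw [tendsto_zero_iff_norm_tendsto_zero]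
        refine squeeze_zero (fun j => norm_nonneg _) (fun j => hQ2 _ _) ?_
        have h3 : Tendsto (fun j => a (ψ j) - ai) atTop (𝓝 0) := by
          have := hψa.sub_const ai
          simpa using this
        simpa using h3.norm
      have h3 := h2.add ((hconv ai).comp hψ.tendsto_atTop)
      simp only [zero_add] at h3
      refine h3.congr fun j => ?_
      simp [map_sub]
    have h2 := h1.norm
    have h3 : (fun j => ‖Q (φ₀ (ψ j)) (a (ψ j))‖) = fun _ => (1 : ℝ) := by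
      funext j; exact ha2 (ψ j)
    rw [h3] at h2
    exact tendsto_nhds_unique h2 tendsto_const_nhds
  · have h1 : Tendsto (fun j => D (p (φ₀ j)) v) atTop (𝓝 (D p₁ v)) := by
      have h2 := hD.tendsto.comp (hp.comp hφ₀.tendsto_atTop)
      exact ((ContinuousLinearMap.apply ℂ F v).continuous.tendsto _).comp h2
    have h2 : Tendsto (fun j => ⟪Q (φ₀ j) u, D (p (φ₀ j)) v⟫) atTop (𝓝 ⟪Q0 u, D p₁ v⟫) :=
      (hconv u).inner h1
    have h3 : Tendsto (fun j => ⟪Q (φ₀ j) u, D (p (φ₀ j)) v⟫) atTop (𝓝 0) := by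
      rw [tendsto_zero_iff_norm_tendsto_zero]
      refine squeeze_zero (fun j => norm_nonneg _) (fun j => hQ4 _ u v) ?_
      have := ((hε.comp hφ₀.tendsto_atTop).mul_const ‖u‖).mul_const ‖v‖
      simpa using this
    exact tendsto_nhds_unique h2 h3

end Family

section Garding

variable {E F G : Type*} [NormedAddCommGroup E] [InnerProductSpace ℂ E] [CompleteSpace E]
  [NormedAddCommGroup F] [InnerProductSpace ℂ F] [CompleteSpace F]
  [NormedAddCommGroup G] [NormedSpace ℂ G]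

local notation "⟪" x ", " y "⟫" => inner ℂ x y

/-- sequences bounded in `E` with `T v → 0` have convergent subsequences (Garding + Rellich) -/
theorem subseq_of_garding (T : E →L[ℂ] F) (J : E →L[ℂ] G) (hJ : IsCompactOperator J) {C : ℝ}
    (hG : ∀ v, ‖v‖ ≤ C * (‖T v‖ + ‖J v‖)) {v : ℕ → E} {R : ℝ} (hv : ∀ j, ‖v j‖ ≤ R)
    (hT : Tendsto (fun j => T (v j)) atTop (𝓝 0)) :
    ∃ (φ : ℕ → ℕ) (x : E), StrictMono φ ∧ Tendsto (fun j => v (φ j)) atTop (𝓝 x) := by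
  have hC : 0 ≤ |C| := abs_nonneg C
  have hG' : ∀ v, ‖v‖ ≤ |C| * (‖T v‖ + ‖J v‖) := fun v =>
    (hG v).trans (mul_le_mul_of_nonneg_right (le_abs_self C) (by positivity))
  obtain ⟨K, hK, hKJ⟩ := hJ.image_subset_compact_of_bounded
    (Metric.isBounded_closedBall (x := (0 : E)) (r := R))
  have hmem : ∀ j, J (v j) ∈ K := fun j => hKJ ⟨v j, mem_closedBall_zero_iff.2 (hv j), rfl⟩
  obtain ⟨y, -, φ, hφ, hy⟩ := hK.tendsto_subseq hmem
  have hcau : CauchySeq (fun j => v (φ j)) := by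
    have h1 : CauchySeq (fun j => T (v (φ j))) := (hT.comp hφ.tendsto_atTop).cauchySeq
    have h2 : CauchySeq (fun j => J (v (φ j))) := hy.cauchySeq
    rw [Metric.cauchySeq_iff] at h1 h2 ⊢
    intro ε hε
    have hε' : 0 < ε / (2 * (|C| + 1)) := by positivity
    obtain ⟨N1, hN1⟩ := h1 _ hε'
    obtain ⟨N2, hN2⟩ := h2 _ hε'
    refine ⟨max N1 N2, fun i hi j hj => ?_⟩
    have a1 := hN1 i (le_trans (le_max_left _ _) hi) j (le_trans (le_max_left _ _) hj)
    have a2 := hN2 i (le_trans (le_max_right _ _) hi) j (le_trans (le_max_right _ _) hj)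
    rw [dist_eq_norm, ← map_sub] at a1 a2
    rw [dist_eq_norm]
    have h3 := hG' (v (φ i) - v (φ j))
    have h4 : ‖T (v (φ i) - v (φ j))‖ + ‖J (v (φ i) - v (φ j))‖ < ε / (|C| + 1) := by
      have : ε / (|C| + 1) = ε / (2 * (|C| + 1)) + ε / (2 * (|C| + 1)) := by
        field_simp; ring
      rw [this]; exact add_lt_add a1 a2
    calc ‖v (φ i) - v (φ j)‖ ≤ |C| * (‖T (v (φ i) - v (φ j))‖ + ‖J (v (φ i) - v (φ j))‖) := h3
      _ ≤ |C| * (ε / (|C| + 1)) := mul_le_mul_of_nonneg_left h4.le hC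
      _ < ε := by
          rw [mul_div_assoc', div_lt_iff₀ (by positivity)]
          nlinarith
  obtain ⟨x, hx⟩ := cauchySeq_tendsto_of_complete hcau
  exact ⟨φ, x, hφ, hx⟩

/-- the kernel is finite dimensional -/
theorem finiteDimensional_ker (T : E →L[ℂ] F) (J : E →L[ℂ] G) (hJ : IsCompactOperator J) {C : ℝ}
    (hG : ∀ v, ‖v‖ ≤ C * (‖T v‖ + ‖J v‖)) :
    FiniteDimensional ℂ (LinearMap.ker (T : E →ₗ[ℂ] F)) := by
  refine FiniteDimensional.of_isCompact_closedBall (𝕜 := ℂ) (r := 1) (c := 0) one_pos ?_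
  apply IsSeqCompact.isCompact
  intro v hv
  obtain ⟨φ, x, hφ, hx⟩ := subseq_of_garding T J hJ hG (v := fun j => (v j : E)) (R := 1)
    (fun j => mem_closedBall_zero_iff.1 (hv j))
    (by
      have : (fun j => T (v j : E)) = fun _ => 0 := by
        funext j; exact (v j).2
      rw [this]; exact tendsto_const_nhds)
  have hxT : T x = 0 := by
    have h1 := (T.continuous.tendsto x).comp hx
    have h2 : (T ∘ fun j => (v (φ j) : E)) = fun _ => 0 := by
      funext j; exact (v (φ j)).2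
    rw [h2] at h1
    exact tendsto_nhds_unique h1 tendsto_const_nhds |>.symm ▸ rfl
  refine ⟨⟨x, hxT⟩, ?_, φ, hφ, ?_⟩
  · rw [mem_closedBall_zero_iff]
    exact le_of_tendsto hx.norm (Eventually.of_forall fun j => mem_closedBall_zero_iff.1 (hv (φ j)))
  · rw [tendsto_subtype_rng]
    exact hx

/-- the operator is bounded below on the orthogonal complement of the kernel -/
theorem bounded_below (T : E →L[ℂ] F) (J : E →L[ℂ] G) (hJ : IsCompactOperator J) {C : ℝ}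
    (hG : ∀ v, ‖v‖ ≤ C * (‖T v‖ + ‖J v‖)) :
    ∃ c : ℝ, 0 < c ∧ ∀ v ∈ (LinearMap.ker (T : E →ₗ[ℂ] F))ᗮ, c * ‖v‖ ≤ ‖T v‖ := by
  by_contra hcon
  push Not at hcon
  have h1 : ∀ j : ℕ, ∃ v ∈ (LinearMap.ker (T : E →ₗ[ℂ] F))ᗮ, ‖v‖ = 1 ∧ ‖T v‖ < 1 / (j + 1) := by
    intro j
    obtain ⟨v, hv, hlt⟩ := hcon (1 / (j + 1)) (by positivity)
    have hv0 : v ≠ 0 := by
      rintro rfl
      simp at hlt
    have hvn : 0 < ‖v‖ := norm_pos_iff.2 hv0
    refine ⟨((‖v‖⁻¹ : ℝ) : ℂ) • v, Submodule.smul_mem _ _ hv, ?_, ?_⟩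
    · rw [norm_smul, Complex.norm_real, norm_inv, norm_norm, inv_mul_cancel₀ hvn.ne']
    · rw [map_smul, norm_smul, Complex.norm_real, norm_inv, norm_norm, inv_mul_lt_iff₀ hvn,
        mul_comm]
      exact hlt
  choose v hv hv1 hvT using h1
  have hTt : Tendsto (fun j => T (v j)) atTop (𝓝 0) := by
    rw [tendsto_zero_iff_norm_tendsto_zero]
    exact squeeze_zero (fun j => norm_nonneg _) (fun j => (hvT j).le)
      tendsto_one_div_add_atTop_nhds_zero_nat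
  obtain ⟨φ, x, hφ, hx⟩ := subseq_of_garding T J hJ hG (fun j => (hv1 j).le) hTt
  have hxT : T x = 0 :=
    tendsto_nhds_unique ((T.continuous.tendsto x).comp hx) (hTt.comp hφ.tendsto_atTop)
  have hxo : x ∈ (LinearMap.ker (T : E →ₗ[ℂ] F))ᗮ :=
    (Submodule.isClosed_orthogonal _).mem_of_tendsto hx (Eventually.of_forall fun j => hv _)
  have hxn : ‖x‖ = 1 := by
    have h2 := hx.norm
    have h3 : (fun j => ‖v (φ j)‖) = fun _ => (1 : ℝ) := by funext j; exact hv1 _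
    rw [h3] at h2
    exact tendsto_nhds_unique h2 tendsto_const_nhds |>.symm ▸ rfl
  have hx0 : x = 0 := by
    have := Submodule.inner_right_of_mem_orthogonal
      (show x ∈ LinearMap.ker (T : E →ₗ[ℂ] F) from hxT) hxo
    exact inner_self_eq_zero.1 this
  rw [hx0, norm_zero] at hxn
  exact zero_ne_one hxn

end Garding

section Cpt

variable {E F : Type*} [NormedAddCommGroup E] [InnerProductSpace ℂ E]
  [NormedAddCommGroup F] [InnerProductSpace ℂ F] [CompleteSpace F]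

local notation "⟪" x ", " y "⟫" => inner ℂ x y

/-- **compactness of almost harmonic sequences**: `f j = D j (v j) - m j + s j`, `v j` bounded,
`m j → m` and `s j → 0`, `D j` a Cauchy sequence of operators, and `f j` almost orthogonal to the
range of `D j`. Then `f j` converges. -/
theorem cauchy_of_parametrix {D : ℕ → E →L[ℂ] F} (hD : CauchySeq D) {f m s : ℕ → F} {v : ℕ → E}
    {ε : ℕ → ℝ} (hε : Tendsto ε atTop (𝓝 0)) {A R : ℝ}
    (hf : ∀ j, ‖f j‖ ≤ A) (hv : ∀ j, ‖v j‖ ≤ R)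
    (horth : ∀ j (w : E), ‖⟪f j, D j w⟫‖ ≤ ε j * ‖w‖)
    (hdec : ∀ j, f j = D j (v j) - m j + s j) (hm : CauchySeq m)
    (hs : Tendsto s atTop (𝓝 0)) : ∃ x, Tendsto f atTop (𝓝 x) := by
  have hA : 0 ≤ A := (norm_nonneg _).trans (hf 0)
  have hR : 0 ≤ R := (norm_nonneg _).trans (hv 0)
  have hε0 : ∀ j, 0 ≤ |ε j| := fun j => abs_nonneg _
  have horth' : ∀ j (w : E), ‖⟪f j, D j w⟫‖ ≤ |ε j| * ‖w‖ := fun j w =>
    (horth j w).trans (mul_le_mul_of_nonneg_right (le_abs_self _) (norm_nonneg _))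
  -- main inequality
  have main : ∀ i j, ‖f i - f j‖ ^ 2 ≤ (2 * |ε i| + 2 * |ε j|) * R + 2 * A * R * ‖D i - D j‖ +
      2 * A * ‖m i - m j‖ + 2 * A * (‖s i‖ + ‖s j‖) := by
    intro i j
    have e1 : ∀ a b, ‖⟪f a, D b (v b)⟫‖ ≤ |ε a| * R + A * (‖D a - D b‖ * R) := by
      intro a b
      have h : D b (v b) = D a (v b) - (D a - D b) (v b) := by simp
      rw [h, inner_sub_right]
      refine (norm_sub_le _ _).trans (add_le_add ?_ ?_)
      · exact (horth' a _).trans (mul_le_mul_of_nonneg_left (hv b) (hε0 a))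
      · refine (norm_inner_le_norm _ _).trans (mul_le_mul (hf a) ?_ (norm_nonneg _) hA)
        exact ((D a - D b).le_opNorm _).trans
          (mul_le_mul_of_nonneg_left (hv b) (norm_nonneg _))
    have e2 : ∀ a, ‖⟪f a, D a (v a)⟫‖ ≤ |ε a| * R := fun a =>
      (horth' a _).trans (mul_le_mul_of_nonneg_left (hv a) (hε0 a))
    have h1 : ((‖f i - f j‖ ^ 2 : ℝ) : ℂ) = ⟪f i, D i (v i)⟫ - ⟪f i, D j (v j)⟫ -
        ⟪f j, D i (v i)⟫ + ⟪f j, D j (v j)⟫ - ⟪f i - f j, m i - m j⟫ +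
        ⟪f i - f j, s i - s j⟫ := by
      have h2 : ((‖f i - f j‖ ^ 2 : ℝ) : ℂ) = ⟪f i - f j, f i - f j⟫ := by
        rw [inner_self_eq_norm_sq_to_K]; norm_cast
      have h3 : f i - f j = (D i (v i) - D j (v j)) - (m i - m j) + (s i - s j) := by
        rw [hdec i, hdec j]; abel
      rw [h2]
      conv_lhs => rhs; rw [h3]
      rw [inner_add_right, inner_sub_right, inner_sub_left (f i) (f j) (D i (v i) - D j (v j)),
        inner_sub_right, inner_sub_right]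
      ring
    have h4 : ‖f i - f j‖ ≤ 2 * A := (norm_sub_le _ _).trans (by linarith [hf i, hf j])
    have h5 : ‖f i - f j‖ ^ 2 = ‖((‖f i - f j‖ ^ 2 : ℝ) : ℂ)‖ := by
      rw [Complex.norm_real, Real.norm_eq_abs, abs_of_nonneg (sq_nonneg _)]
    rw [h5, h1]
    have t1 := e2 i
    have t2 := e1 i j
    have t3 := e1 j i
    have t4 := e2 j
    have t5 : ‖⟪f i - f j, m i - m j⟫‖ ≤ 2 * A * ‖m i - m j‖ :=
      (norm_inner_le_norm _ _).trans (mul_le_mul_of_nonneg_right h4 (norm_nonneg _))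
    have t6 : ‖⟪f i - f j, s i - s j⟫‖ ≤ 2 * A * (‖s i‖ + ‖s j‖) :=
      (norm_inner_le_norm _ _).trans
        (mul_le_mul h4 (norm_sub_le _ _) (norm_nonneg _) (by linarith))
    have hsym : ‖D j - D i‖ = ‖D i - D j‖ := norm_sub_rev _ _
    rw [hsym] at t3
    have tri : ∀ a b c d e g : ℂ, ‖a - b - c + d - e + g‖ ≤
        ‖a‖ + ‖b‖ + ‖c‖ + ‖d‖ + ‖e‖ + ‖g‖ := by
      intro a b c d e g
      calc ‖a - b - c + d - e + g‖ ≤ ‖a - b - c + d - e‖ + ‖g‖ := norm_add_le _ _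
        _ ≤ (‖a - b - c + d‖ + ‖e‖) + ‖g‖ := by gcongr; exact norm_sub_le _ _
        _ ≤ ((‖a - b - c‖ + ‖d‖) + ‖e‖) + ‖g‖ := by gcongr; exact norm_add_le _ _
        _ ≤ (((‖a - b‖ + ‖c‖) + ‖d‖) + ‖e‖) + ‖g‖ := by gcongr; exact norm_sub_le _ _
        _ ≤ ((((‖a‖ + ‖b‖) + ‖c‖) + ‖d‖) + ‖e‖) + ‖g‖ := by gcongr; exact norm_sub_le _ _
    refine (tri _ _ _ _ _ _).trans ?_
    nlinarith [t1, t2, t3, t4, t5, t6]
  have hcau : CauchySeq f := by
    rw [Metric.cauchySeq_iff]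
    intro η hη
    rw [Metric.cauchySeq_iff] at hD hm
    have hη2 : 0 < η ^ 2 := by positivity
    set κ : ℝ := η ^ 2 / (8 * (4 * R + 2 * A * R + 2 * A + 4 * A + 1)) with hκ
    have hden : 0 < 8 * (4 * R + 2 * A * R + 2 * A + 4 * A + 1) := by positivity
    have hκ0 : 0 < κ := by positivity
    obtain ⟨N1, hN1⟩ := hD κ hκ0
    obtain ⟨N2, hN2⟩ := hm κ hκ0
    obtain ⟨N3, hN3⟩ := Metric.tendsto_atTop.1 hs κ hκ0
    obtain ⟨N4, hN4⟩ := Metric.tendsto_atTop.1 hε κ hκ0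
    refine ⟨max (max N1 N2) (max N3 N4), fun i hi j hj => ?_⟩
    have l1 : ∀ a, a ≥ max (max N1 N2) (max N3 N4) → a ≥ N1 := fun a ha =>
      le_trans (le_trans (le_max_left _ _) (le_max_left _ _)) ha
    have l2 : ∀ a, a ≥ max (max N1 N2) (max N3 N4) → a ≥ N2 := fun a ha =>
      le_trans (le_trans (le_max_right _ _) (le_max_left _ _)) ha
    have l3 : ∀ a, a ≥ max (max N1 N2) (max N3 N4) → a ≥ N3 := fun a ha =>
      le_trans (le_trans (le_max_left _ _) (le_max_right _ _)) ha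
    have l4 : ∀ a, a ≥ max (max N1 N2) (max N3 N4) → a ≥ N4 := fun a ha =>
      le_trans (le_trans (le_max_right _ _) (le_max_right _ _)) ha
    have a1 := hN1 i (l1 i hi) j (l1 j hj)
    have a2 := hN2 i (l2 i hi) j (l2 j hj)
    have a3 := hN3 i (l3 i hi)
    have a3' := hN3 j (l3 j hj)
    have a4 := hN4 i (l4 i hi)
    have a4' := hN4 j (l4 j hj)
    rw [dist_eq_norm] at a1 a2
    rw [dist_zero_right] at a3 a3' a4 a4'
    rw [Real.norm_eq_abs] at a4 a4'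
    have h1 := main i j
    have h2 : (2 * |ε i| + 2 * |ε j|) * R + 2 * A * R * ‖D i - D j‖ +
        2 * A * ‖m i - m j‖ + 2 * A * (‖s i‖ + ‖s j‖) ≤
        (4 * R + 2 * A * R + 2 * A + 4 * A) * κ := by
      have b1 : (2 * |ε i| + 2 * |ε j|) * R ≤ 4 * κ * R := by
        apply mul_le_mul_of_nonneg_right _ hR; linarith
      have b2 : 2 * A * R * ‖D i - D j‖ ≤ 2 * A * R * κ :=
        mul_le_mul_of_nonneg_left a1.le (by positivity)
      have b3 : 2 * A * ‖m i - m j‖ ≤ 2 * A * κ :=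
        mul_le_mul_of_nonneg_left a2.le (by positivity)
      have b4 : 2 * A * (‖s i‖ + ‖s j‖) ≤ 2 * A * (2 * κ) :=
        mul_le_mul_of_nonneg_left (by linarith) (by positivity)
      nlinarith
    have h3 : (4 * R + 2 * A * R + 2 * A + 4 * A) * κ < η ^ 2 := by
      rw [hκ, mul_div_assoc', div_lt_iff₀ hden]
      nlinarith [mul_pos hη2 one_pos, mul_nonneg hA hR,
        mul_nonneg hη2.le (by positivity : (0 : ℝ) ≤ 4 * R + 2 * A * R + 2 * A + 4 * A)]
    rw [dist_eq_norm]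
    exact lt_of_pow_lt_pow_left₀ 2 hη.le ((h1.trans h2).trans_lt h3)
  exact cauchySeq_tendsto_of_complete hcau

end Cpt

end Crest.Agent.R281.OpA_693
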