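import Crest.Agent.R273.LimB_505
import Crest.Agent.R273.Vol_333

/-!
# R281 (S0424), DIV 7, lemma OPEN, part O2 (helper849), file 1: forms of type (0,1) with values in `L`

Step (b) of 286's lemma OPEN (#7046), from the Bochner-Kodaira-Nakano identity of R273 (37, 243).

* `IsQ L q` : smooth (0,1)-forms with values in `L` (`q i x k` = coefficient of `dz̄_k`);
* `IsX L X` : smooth vector fields with values in `L`;
* `shp K`, `flt K` : raising and lowering of the index;
* `e1 X = X ∧ 1` : the polyvector of degree one; `duV`, `delV`, `dbV`, `NullV` of `e1 X`.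
-/

set_option autoImplicit false
set_option linter.unusedSectionVars false

open Set Filter Topology Complex Matrix
open scoped ContDiff Matrix ComplexConjugate Manifold ComplexOrder

namespace Crest.Agent.R281.OpB_849

open Crest.Agent.R273 Crest.Agent.R275 Crest.Agent.R275.Geo Crest.Agent.R275.Core144
open Crest.Agent.R275.OmT75 (dl)
open Crest.Agent.R273.Defs_333 Crest.Agent.R273.HM_333 Crest.Agent.R273.Kah_333
open Crest.Agent.R273.Vol_333
open Crest.Agent.R273.Fock_243 Crest.Agent.R273.Calc_243 Crest.Agent.R273.Bkn_243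
open Crest.Agent.R273.LamN127 Crest.Agent.R273.DVec_733 Crest.Agent.R273.DMet_733
open Crest.Agent.R273.DMetB_733 Crest.Agent.R273.StV_37
open Crest.Agent.R273.BKNa_37 Crest.Agent.R273.BKNb_37 Crest.Agent.R273.BKNc_37
open Crest.Agent.R273.BKNd_37 Crest.Agent.R273.BKNe_37

noncomputable section

variable {n : ℕ} {M : Type} [TopologicalSpace M] {A : Atl n M}

/-! ### the objects -/

/-- smooth (0,1)-forms with values in `L`: `q i x k` is the coefficient of `dz̄_k` -/
structure IsQ (L : LB A) (q : A.ι → M → Fin n → ℂ) : Prop where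
  sm : ∀ i k, A.SmAt i (fun x => q i x k)
  tr : ∀ i j, ∀ x ∈ (A.e i).source ∩ (A.e j).source, q i x = L.g i j x • (Jb A i j x *ᵥ q j x)

/-- smooth vector fields of type (1,0) with values in `L` -/
structure IsX (L : LB A) (X : A.ι → M → Fin n → ℂ) : Prop where
  sm : ∀ i k, A.SmAt i (fun x => X i x k)
  tr : ∀ i j, ∀ x ∈ (A.e i).source ∩ (A.e j).source, X i x = L.g i j x • (Jm A j i x *ᵥ X j x)

/-- raising the index -/
def shp (K : Kah A) (q : A.ι → M → Fin n → ℂ) : A.ι → M → Fin n → ℂ :=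
  fun i x => ((K.g i x)ᵀ)⁻¹ *ᵥ q i x

/-- lowering the index -/
def flt (K : Kah A) (X : A.ι → M → Fin n → ℂ) : A.ι → M → Fin n → ℂ :=
  fun i x => (K.g i x)ᵀ *ᵥ X i x

variable (K : Kah A) {L : LB A}

theorem flt_shp (q : A.ι → M → Fin n → ℂ) {i : A.ι} {x : M} (hx : x ∈ (A.e i).source) :
    flt K (shp K q) i x = q i x := by
  unfold flt shp
  rw [Matrix.mulVec_mulVec, DVec_733.mul_inv K hx, Matrix.one_mulVec]

theorem shp_flt (X : A.ι → M → Fin n → ℂ) {i : A.ι} {x : M} (hx : x ∈ (A.e i).source) :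
    shp K (flt K X) i x = X i x := by
  unfold flt shp
  rw [Matrix.mulVec_mulVec, DVec_733.inv_mul K hx, Matrix.one_mulVec]

theorem T_tr {i j : A.ι} {x : M} (hx : x ∈ (A.e i).source ∩ (A.e j).source) :
    (K.g i x)ᵀ * Jm A j i x = Jb A i j x * (K.g j x)ᵀ := by
  rw [K.tr i j x hx, Matrix.transpose_mul, Matrix.transpose_mul, Matrix.transpose_transpose,
    Matrix.mul_assoc, Matrix.mul_assoc, Jm_mul_symm hx, Matrix.mul_one]
  rfl

theorem Ti_tr {i j : A.ι} {x : M} (hx : x ∈ (A.e i).source ∩ (A.e j).source) :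
    ((K.g i x)ᵀ)⁻¹ * Jb A i j x = Jm A j i x * ((K.g j x)ᵀ)⁻¹ := by
  have h : ((K.g i x)ᵀ)⁻¹ * ((K.g i x)ᵀ * Jm A j i x) * ((K.g j x)ᵀ)⁻¹ =
      ((K.g i x)ᵀ)⁻¹ * (Jb A i j x * (K.g j x)ᵀ) * ((K.g j x)ᵀ)⁻¹ := by rw [T_tr K hx]
  rw [← Matrix.mul_assoc, DVec_733.inv_mul K hx.1, Matrix.one_mul,
    Matrix.mul_assoc ((K.g i x)ᵀ)⁻¹, Matrix.mul_assoc (Jb A i j x), DVec_733.mul_inv K hx.2,
    Matrix.mul_one] at h
  exact h.symm

theorem gT_sm (i : A.ι) (a b : Fin n) : A.SmAt i (fun x => (K.g i x)ᵀ a b) := K.sm i b a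

theorem gTi_sm (i : A.ι) (a b : Fin n) : A.SmAt i (fun x => ((K.g i x)ᵀ)⁻¹ a b) :=
  DVec_733.smAt_inv (m := fun x => (K.g i x)ᵀ) (fun a b => gT_sm K i a b)
    (fun _ hx => DVec_733.det_ne K hx) a b

theorem IsQ.shp {q : A.ι → M → Fin n → ℂ} (hq : IsQ L q) : IsX L (shp K q) where
  sm i k := DVec_733.smAt_mulVec (m := fun x => ((K.g i x)ᵀ)⁻¹) (fun a b => gTi_sm K i a b)
    (hq.sm i) k
  tr i j x hx := by
    unfold OpB_849.shp
    rw [hq.tr i j x hx, Matrix.mulVec_smul, Matrix.mulVec_mulVec, Matrix.mulVec_mulVec,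
      Ti_tr K hx]

theorem IsX.flt {X : A.ι → M → Fin n → ℂ} (hX : IsX L X) : IsQ L (flt K X) where
  sm i k := DVec_733.smAt_mulVec (m := fun x => (K.g i x)ᵀ) (fun a b => gT_sm K i a b)
    (hX.sm i) k
  tr i j x hx := by
    unfold OpB_849.flt
    rw [hX.tr i j x hx, Matrix.mulVec_smul, Matrix.mulVec_mulVec, Matrix.mulVec_mulVec,
      T_tr K hx]

/-! ### polyvectors of degree one -/

/-- the vacuum -/
def vac (n : ℕ) : FI n → ℂ := Pi.single ∅ 1

/-- the polyvector `X ∧ 1` -/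
def e1 (X : Fin n → ℂ) : FI n → ℂ := eW X *ᵥ vac n

theorem e1_add (X Y : Fin n → ℂ) : e1 (X + Y) = e1 X + e1 Y := by
  unfold e1; rw [eW_add, Matrix.add_mulVec]

theorem e1_smul (c : ℂ) (X : Fin n → ℂ) : e1 (c • X) = c • e1 X := by
  unfold e1; rw [eW_smul, Matrix.smul_mulVec]

theorem e1_ep (a : Fin n) : e1 (ep a) = Pi.single {a} 1 := by
  unfold e1 vac
  rw [eW_single (by simp)]
  rfl

theorem e1_eq (X : Fin n → ℂ) : e1 X = ∑ a, X a • (Pi.single {a} 1 : FI n → ℂ) := by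
  unfold e1
  rw [eW_eq_sum, Matrix.sum_mulVec]
  refine Finset.sum_congr rfl fun a _ => ?_
  rw [Matrix.smul_mulVec, ← e1_ep]
  rfl

theorem e1_apply (X : Fin n → ℂ) (a : Fin n) : e1 X {a} = X a := by
  rw [e1_eq, Finset.sum_apply, Finset.sum_eq_single a]
  · simp
  · intro b _ hb
    have h1 : ({a} : FI n) ≠ {b} := fun h => hb (Finset.singleton_injective h).symm
    simp [h1]
  · simp

theorem e1_off (X : Fin n → ℂ) {S : FI n} (hS : S.card ≠ 1) : e1 X S = 0 := by
  rw [e1_eq, Finset.sum_apply]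
  refine Finset.sum_eq_zero fun b _ => ?_
  have h1 : S ≠ {b} := fun h => hS (by rw [h]; simp)
  simp [h1]

theorem e1_inj {X Y : Fin n → ℂ} (h : e1 X = e1 Y) : X = Y := by
  funext a
  rw [← e1_apply X a, h, e1_apply]

theorem e1_zero : e1 (0 : Fin n → ℂ) = 0 := by
  unfold e1
  simp

/-- a polyvector of degree one is `e1` of its components -/
theorem e1_of_deg {v : FI n → ℂ} (h : ∀ S : FI n, S.card ≠ 1 → v S = 0) :
    e1 (fun a => v {a}) = v := by
  funext S
  by_cases hS : S.card = 1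
  · obtain ⟨a, rfl⟩ := Finset.card_eq_one.1 hS
    exact e1_apply _ a
  · rw [e1_off _ hS, h S hS]

theorem Gam_e1 (m : Matrix (Fin n) (Fin n) ℂ) (X : Fin n → ℂ) :
    Gam m *ᵥ e1 X = e1 (m *ᵥ X) := by
  unfold e1 vac
  have h1 : Gam m *ᵥ (Pi.single ∅ 1 : FI n → ℂ) = Pi.single ∅ 1 := by
    funext S
    rw [Matrix.mulVec_single_one]
    show Gam m S ∅ = _
    rw [Gam_vac]
    by_cases h : S = ∅
    · subst h; simp
    · simp [h]
  rw [Matrix.mulVec_mulVec, Gam_eW, ← Matrix.mulVec_mulVec, h1]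

theorem iW_e1 (w X : Fin n → ℂ) : iW w *ᵥ e1 X = (∑ j, X j * w j) • vac n := by
  unfold e1
  have h1 := congrArg (fun m : Matrix (FI n) (FI n) ℂ => m *ᵥ vac n) (iW_eW w X)
  have h2 : (iW w : Matrix (FI n) (FI n) ℂ) *ᵥ vac n = 0 := by
    unfold vac
    funext S
    rw [Matrix.mulVec_single_one]
    show (iW w : Matrix (FI n) (FI n) ℂ) S ∅ = 0
    by_contra h
    have := iW_deg h
    simp at this
  simp only [Matrix.add_mulVec] at h1
  rw [← Matrix.mulVec_mulVec, ← Matrix.mulVec_mulVec, h2, Matrix.mulVec_zero, add_zero,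
    Matrix.smul_mulVec, Matrix.one_mulVec] at h1
  exact h1

theorem vac_ne : vac n ≠ 0 := by
  intro h
  have := congrFun h ∅
  simp [vac] at this

/-- the family of polyvectors -/
def E1 (X : A.ι → M → Fin n → ℂ) : A.ι → M → FI n → ℂ := fun i x => e1 (X i x)

theorem e1_sm {i : A.ι} {X : M → Fin n → ℂ} (h : ∀ k, A.SmAt i (fun x => X x k)) (T : FI n) :
    A.SmAt i (fun x => e1 (X x) T) := by
  by_cases hT : T.card = 1
  · obtain ⟨a, rfl⟩ := Finset.card_eq_one.1 hT
    simp only [e1_apply]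
    exact h a
  · simp only [e1_off _ hT]
    exact contDiffOn_const

theorem IsX.isV {X : A.ι → M → Fin n → ℂ} (hX : IsX L X) : IsV L (E1 X) where
  sm i T := e1_sm (hX.sm i) T
  tr i j x hx := by
    show e1 (X i x) = L.g i j x • (Gam (Jm A j i x) *ᵥ e1 (X j x))
    rw [Gam_e1, hX.tr i j x hx, e1_smul]

theorem db_e1 {i : A.ι} (X : M → Fin n → ℂ) (k : Fin n) (x : M) :
    (fun T => A.db i k (fun y => e1 (X y) T) x) = e1 (fun l => A.db i k (fun y => X y l) x) := by
  funext T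
  by_cases hT : T.card = 1
  · obtain ⟨a, rfl⟩ := Finset.card_eq_one.1 hT
    simp only [e1_apply]
  · simp only [e1_off _ hT]
    rw [db_eq_dS]
    unfold dS
    simp

theorem dl_e1 {i : A.ι} (X : M → Fin n → ℂ) (k : Fin n) (x : M) :
    (fun T => dl A i k (fun y => e1 (X y) T) x) = e1 (fun l => dl A i k (fun y => X y l) x) := by
  funext T
  by_cases hT : T.card = 1
  · obtain ⟨a, rfl⟩ := Finset.card_eq_one.1 hT
    simp only [e1_apply]
  · simp only [e1_off _ hT]
    rw [dl_eq_dS]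
    unfold dS
    simp

theorem dbV_E1 (X : A.ι → M → Fin n → ℂ) (i : A.ι) (k : Fin n) (x : M) :
    dbV (E1 X) i k x = e1 (fun l => A.db i k (fun y => X i y l) x) := db_e1 (X i) k x

/-- antisymmetric double sums -/
theorem sum_eW_eW_symm {b : Fin n → Fin n → ℂ} (hb : ∀ k l, b k l = b l k) :
    ∑ k, (eW (ep k) : Matrix (FI n) (FI n) ℂ) *ᵥ e1 (b k) = 0 := by
  have h1 : ∀ k, (eW (ep k) : Matrix (FI n) (FI n) ℂ) *ᵥ e1 (b k) =
      ∑ l, b k l • ((eW (ep k) : Matrix (FI n) (FI n) ℂ) *ᵥ (eW (ep l) *ᵥ vac n)) := by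
    intro k
    unfold e1
    rw [eW_eq_sum (b k), Matrix.sum_mulVec, Matrix.mulVec_sum]
    refine Finset.sum_congr rfl fun l _ => ?_
    rw [Matrix.smul_mulVec, Matrix.mulVec_smul]
  have h2 : ∀ k l, (eW (ep k) : Matrix (FI n) (FI n) ℂ) *ᵥ (eW (ep l) *ᵥ vac n) =
      - ((eW (ep l) : Matrix (FI n) (FI n) ℂ) *ᵥ (eW (ep k) *ᵥ vac n)) := by
    intro k l
    rw [Matrix.mulVec_mulVec, Matrix.mulVec_mulVec, eq_neg_iff_add_eq_zero, ← Matrix.add_mulVec,
      eW_anti, Matrix.zero_mulVec]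
  set S := ∑ k, (eW (ep k) : Matrix (FI n) (FI n) ℂ) *ᵥ e1 (b k) with hS
  have h3 : S = - S := by
    calc S = ∑ k, ∑ l, b k l • ((eW (ep k) : Matrix (FI n) (FI n) ℂ) *ᵥ (eW (ep l) *ᵥ vac n)) :=
          Finset.sum_congr rfl fun k _ => h1 k
      _ = ∑ l, ∑ k, b k l • ((eW (ep k) : Matrix (FI n) (FI n) ℂ) *ᵥ (eW (ep l) *ᵥ vac n)) :=
          Finset.sum_comm
      _ = - ∑ l, ∑ k, b l k • ((eW (ep l) : Matrix (FI n) (FI n) ℂ) *ᵥ (eW (ep k) *ᵥ vac n)) := by
          rw [← Finset.sum_neg_distrib]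
          refine Finset.sum_congr rfl fun l _ => ?_
          rw [← Finset.sum_neg_distrib]
          refine Finset.sum_congr rfl fun k _ => ?_
          rw [h2 k l, hb k l, smul_neg]
      _ = - S := by rw [← Finset.sum_congr rfl fun k _ => h1 k]
  exact self_eq_neg.1 h3

/-! ### closed forms -/

/-- `∂̄ q = 0` -/
def DbQ (q : A.ι → M → Fin n → ℂ) : Prop :=
  ∀ i, ∀ x ∈ (A.e i).source, ∀ k l,
    A.db i k (fun y => q i y l) x = A.db i l (fun y => q i y k) x

theorem db_congr' {i : A.ι} {f g : M → ℂ} (h : ∀ x ∈ (A.e i).source, f x = g x) {k : Fin n} {x : M}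
    (hx : x ∈ (A.e i).source) : A.db i k f x = A.db i k g x := by
  rw [db_eq_dS, db_eq_dS]
  refine dS_congr ?_
  filter_upwards [(A.e i).open_target.mem_nhds ((A.e i).map_source hx)] with z hz
  exact h _ ((A.e i).map_target hz)

theorem dl_congr' {i : A.ι} {f g : M → ℂ} (h : ∀ x ∈ (A.e i).source, f x = g x) {k : Fin n} {x : M}
    (hx : x ∈ (A.e i).source) : dl A i k f x = dl A i k g x := by
  rw [dl_eq_dS, dl_eq_dS]
  refine dS_congr ?_
  filter_upwards [(A.e i).open_target.mem_nhds ((A.e i).map_source hx)] with z hz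
  exact h _ ((A.e i).map_target hz)

theorem duV_E1 (X : A.ι → M → Fin n → ℂ) (i : A.ι) (x : M) :
    duV K (E1 X) i x =
      ∑ k, (eW (ep k) : Matrix (FI n) (FI n) ℂ) *ᵥ e1 (fun l => A.db i k (fun y => flt K X i y l) x) := by
  unfold duV
  refine Finset.sum_congr rfl fun k _ => ?_
  rw [← db_e1]
  congr 1
  funext T
  unfold E1
  simp only [Gam_e1]
  rfl

theorem duV_zero {q : A.ι → M → Fin n → ℂ} (hd : DbQ q) {i : A.ι} {x : M}
    (hx : x ∈ (A.e i).source) : duV K (E1 (shp K q)) i x = 0 := by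
  rw [duV_E1]
  refine sum_eW_eW_symm (b := fun k l => A.db i k (fun y => flt K (shp K q) i y l) x)
    fun k l => ?_
  rw [db_congr' (g := fun y => q i y l) (fun y hy => congrFun (flt_shp K q hy) l) hx,
    db_congr' (g := fun y => q i y k) (fun y hy => congrFun (flt_shp K q hy) k) hx]
  exact hd i x hx k l

/-! ### the divergence -/

/-- the metric of `K_M⁻¹ ⊗ L` -/
def HKL (h : HM L) : HM ((KB A)⁻¹ * L) := mul (volK K) h

theorem HKL_w (h : HM L) (i : A.ι) {x : M} (hx : x ∈ (A.e i).source) :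
    ((HKL K h).w i x : ℂ) = (K.g i x).det * h.w i x := by
  show (((volK K).w i x * h.w i x : ℝ) : ℂ) = _
  rw [Complex.ofReal_mul, volK_w K i hx]

/-- the divergence `(det g · w)⁻¹ ∑ ∂_l (det g · w · X^l)` of a vector field with values in `L` -/
def dvX (h : HM L) (X : A.ι → M → Fin n → ℂ) (i : A.ι) (x : M) : ℂ :=
  ((K.g i x).det * h.w i x)⁻¹ *
    ∑ l, dl A i l (fun y => (K.g i y).det * h.w i y * X i y l) x

theorem delV_E1 (h : HM L) (X : A.ι → M → Fin n → ℂ) {i : A.ι} {x : M}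
    (hx : x ∈ (A.e i).source) : delV (HKL K h) (E1 X) i x = dvX K h X i x • vac n := by
  unfold delV dvX
  rw [HKL_w K h i hx, mul_smul, Finset.sum_smul]
  congr 1
  refine Finset.sum_congr rfl fun l _ => ?_
  have h1 : (fun T => dl A i l (fun y => ((HKL K h).w i y : ℂ) * E1 X i y T) x) =
      e1 (fun m => dl A i l (fun y => (K.g i y).det * h.w i y * X i y m) x) := by
    rw [← dl_e1]
    funext T
    refine dl_congr' (fun y hy => ?_) hx
    rw [HKL_w K h i hy]
    show _ * e1 (X i y) T = e1 (fun m => _ * X i y m) T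
    have : (fun m => (K.g i y).det * h.w i y * X i y m) = ((K.g i y).det * h.w i y) • X i y := rfl
    rw [this, e1_smul]
    rfl
  rw [h1, iW_e1]
  congr 1
  rw [Finset.sum_eq_single l]
  · simp
  · intro m _ hm
    simp [hm]
  · simp

/-- flatness of the metric of the volume: `cur (volK K ⊗ h) = cur h` -/
theorem cur_HKL (hR : ∀ i, ∀ x ∈ (A.e i).source, cur (volK K) i x = 0) (h : HM L) {i : A.ι} {x : M}
    (hx : x ∈ (A.e i).source) : cur (HKL K h) i x = cur h i x := by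
  have hz := (A.e i).map_source hx
  have h1 : (HKL K h).wt i =ᶠ[𝓝 (A.e i x)] fun z => (volK K).wt i z + h.wt i z := by
    filter_upwards [(A.e i).open_target.mem_nhds hz] with z hz'
    exact wt_mul (volK K) h i hz'
  unfold cur
  rw [Crest.Agent.R273.HessB_333.hess_congr h1,
    Crest.Agent.R273.HessB_333.hess_add (wt_contDiffAt _ i hz) (wt_contDiffAt h i hz)]
  have h2 := hR i x hx
  unfold cur at h2
  rw [h2, zero_add]

theorem HKL_semipos (hR : ∀ i, ∀ x ∈ (A.e i).source, cur (volK K) i x = 0) {h : HM L}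
    (hs : h.Semipos) : (HKL K h).Semipos :=
  semipos_of_cur fun i x hx => by
    rw [cur_HKL K hR h hx]
    exact cur_posSemidef hs i hx

/-- null vectors -/
theorem NullV_E1 (hR : ∀ i, ∀ x ∈ (A.e i).source, cur (volK K) i x = 0) {h : HM L}
    {X : A.ι → M → Fin n → ℂ} (hN : NullV (HKL K h) (E1 X)) {i : A.ι} {x : M}
    (hx : x ∈ (A.e i).source) (c : Fin n) : ∑ d, cur h i x d c * X i x d = 0 := by
  have h1 := hN i x hx c
  rw [cur_HKL K hR h hx] at h1
  have h2 : ∀ d, cur h i x d c • ((iW (ep d) : Matrix (FI n) (FI n) ℂ) *ᵥ E1 X i x) =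
      (cur h i x d c * X i x d) • vac n := by
    intro d
    show cur h i x d c • ((iW (ep d) : Matrix (FI n) (FI n) ℂ) *ᵥ e1 (X i x)) = _
    rw [iW_e1, smul_smul]
    congr 2
    rw [Finset.sum_eq_single d]
    · simp
    · intro m _ hm
      simp [hm]
    · simp
  rw [Finset.sum_congr rfl fun d _ => h2 d, ← Finset.sum_smul] at h1
  exact (smul_eq_zero.1 h1).resolve_right vac_ne

/-! ### the theorem -/

/-- holomorphic components -/
def HolX (X : A.ι → M → Fin n → ℂ) : Prop := ∀ i k, HolAt A i univ (fun x => X i x k)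

/-- null for the curvature of `h` -/
def NulX (h : HM L) (X : A.ι → M → Fin n → ℂ) : Prop :=
  ∀ i, ∀ x ∈ (A.e i).source, ∀ c, ∑ d, cur h i x d c * X i x d = 0

theorem holX_of_holV {X : A.ι → M → Fin n → ℂ} (hs : ∀ i k, A.SmAt i (fun x => X i x k))
    (hH : ∀ i, ∀ x ∈ (A.e i).source, ∀ k, dbV (E1 X) i k x = 0) : HolX X := by
  intro i k
  refine holAt_of_db (hs i k) fun x hx l => ?_
  have h1 := hH i x hx l
  rw [dbV_E1, ← e1_zero] at h1
  exact congrFun (e1_inj h1) k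

/-- **(O2.b)**: a harmonic (0,1)-form with values in a semipositive line bundle on a Ricci flat
compact Kaehler manifold: the dual vector field is holomorphic and null -/
theorem har_hol [T2Space M] [CompactSpace M] (P : Part A)
    (hR : ∀ i, ∀ x ∈ (A.e i).source, cur (volK K) i x = 0) {h : HM L} (hs : h.Semipos)
    {q : A.ι → M → Fin n → ℂ} (hq : IsQ L q) (hd : DbQ q)
    (hv : ∀ i, ∀ x ∈ (A.e i).source, dvX K h (shp K q) i x = 0) :
    HolX (shp K q) ∧ NulX h (shp K q) := by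
  have hX := hq.shp K
  have key := hol_null_of_closed P K (HKL_semipos K hR hs) hX.isV
    (fun i x hx => duV_zero K hd hx) fun i x hx => by rw [delV_E1 K h _ hx, hv i x hx, zero_smul]
  exact ⟨holX_of_holV hX.sm key.1, fun i x hx c => NullV_E1 K hR key.2 hx c⟩

end

end Crest.Agent.R281.OpB_849
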